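import Crest.Agent.CD_Rnd

/-!
# CD-Avg: a thin covering produces a dangerous configuration that covers the ball of radius 2
-/

set_option autoImplicit false
open MeasureTheory Metric
open scoped Pointwise

namespace Crest.Agent.CD

/-- Proof. `F = X ∩ [-R, R]^n`, `R' = R - 5 > 0`; `(2R)^n ≤ 2 (2R')^n` since `R ≥ 10 n`
(`(1 - 5/R)^n ≥ 1 - 5n/R ≥ 1/2`, Bernoulli). `window` with `R'` gives `v`, `round_config` gives `Y`.
If `‖x‖ ≤ 2` then `v + x - y ∈ (1 - 1/(4n)) • K` for some `y ∈ X`, hence `‖v + x - y‖ ≤ 1`, `‖y - v‖ ≤ 3`,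
`y ∈ F`; take `w` from `round_config`: `x - w = (v + x - y) + ((y - v) - w)`, and
`(1 - 1/(4n)) • K + closedBall 0 (1/(8n)) ⊆ (1 - 1/(4n)) • K + (1/(4n)) • K ⊆ K` (`al ≥ 1/2`). -/
theorem avg : ∃ n₀ : ℕ, ∀ n : ℕ, n₀ ≤ n → ∀ K : Set (Eu n), closedBall 0 al ⊆ K →
    K ⊆ closedBall 0 1 → Convex ℝ K → ∀ (X : Set (Eu n)) (R : ℝ), 10 * n ≤ R →
    (X ∩ {x | ∀ i, |x i| ≤ R}).Finite →
    ((X ∩ {x | ∀ i, |x i| ≤ R}).ncard : ℝ) * bv n ≤ n * Real.log n / 2 ^ 32 * (2 * R) ^ n →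
    (∀ y : Eu n, ∃ x ∈ X, y - x ∈ (1 - 1 / (4 * (n : ℝ))) • K) →
    ∃ Y ∈ YY n, ∀ x : Eu n, ‖x‖ ≤ 2 → ∃ w ∈ Y, x - w ∈ K := by
  classical
  obtain ⟨n₁, hw⟩ := window
  refine ⟨max n₁ 16, fun n hn K hal hK1 hconv X R hR hfin hcard hcov => ?_⟩
  have hn1 : n₁ ≤ n := (le_max_left _ _).trans hn
  have hn16 : 16 ≤ n := (le_max_right _ _).trans hn
  have hn16' : (16 : ℝ) ≤ n := by exact_mod_cast hn16
  have hn0 : (0 : ℝ) < n := by linarith
  have hR0 : 0 < R := by linarith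
  set F : Finset (Eu n) := hfin.toFinset with hF
  have hFcard : ((X ∩ {x : Eu n | ∀ i, |x i| ≤ R}).ncard : ℝ) = F.card := by
    rw [Set.ncard_eq_toFinset_card _ hfin]
  rw [hFcard] at hcard
  have hR' : 0 < R - 5 := by linarith
  have hlog : 0 ≤ Real.log n := Real.log_nonneg (by linarith)
  have hpow : (2 * R) ^ n ≤ 2 * (2 * (R - 5)) ^ n := by
    have h1 : 1 + (n : ℝ) * (-(5 / R)) ≤ (1 + -(5 / R)) ^ n := by
      apply one_add_mul_le_pow
      have : 5 / R ≤ 1 := by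
        rw [div_le_one hR0]
        linarith
      linarith
    have h2 : (n : ℝ) * (5 / R) ≤ 1 / 2 := by
      rw [mul_div_assoc', div_le_div_iff₀ hR0 (by norm_num)]
      linarith
    have h3 : (1 / 2 : ℝ) ≤ (1 + -(5 / R)) ^ n := by linarith
    have h4 : (2 * (R - 5)) ^ n = (2 * R) ^ n * (1 + -(5 / R)) ^ n := by
      rw [← mul_pow]
      congr 1
      field_simp
      ring
    rw [h4]
    have h5 : 0 < (2 * R) ^ n := by positivity
    nlinarith
  have hcard' : (F.card : ℝ) * bv n ≤ 2 * (n * Real.log n / 2 ^ 32) * (2 * (R - 5)) ^ n := by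
    refine hcard.trans ?_
    have h6 : 0 ≤ (n : ℝ) * Real.log n / 2 ^ 32 := by positivity
    calc (n : ℝ) * Real.log n / 2 ^ 32 * (2 * R) ^ n
        ≤ (n : ℝ) * Real.log n / 2 ^ 32 * (2 * (2 * (R - 5)) ^ n) :=
          mul_le_mul_of_nonneg_left hpow h6
      _ = 2 * (n * Real.log n / 2 ^ 32) * (2 * (R - 5)) ^ n := by ring
  obtain ⟨v, hv, hc4, hvol⟩ := hw n hn1 (R - 5) hR' F hcard'
  obtain ⟨Y, hY, hround⟩ := round_config n hn16 F v hc4 hvol
  refine ⟨Y, hY, fun x hx => ?_⟩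
  obtain ⟨y, hyX, hy⟩ := hcov (v + x)
  rw [Set.mem_smul_set] at hy
  obtain ⟨z, hz, hzy⟩ := hy
  have ht0 : 0 < 1 / (4 * (n : ℝ)) := by positivity
  have ht1 : 1 / (4 * (n : ℝ)) ≤ 1 := by
    rw [div_le_one (by positivity)]
    linarith
  have hz1 : ‖z‖ ≤ 1 := by simpa using hK1 hz
  have hnorm : ‖v + x - y‖ ≤ 1 := by
    rw [← hzy, norm_smul, Real.norm_of_nonneg (by linarith)]
    nlinarith [norm_nonneg z]
  have hyv : ‖y - v‖ ≤ 3 := by
    have e : y - v = x - (v + x - y) := by abel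
    rw [e]
    refine (norm_sub_le _ _).trans ?_
    linarith
  have hyF : y ∈ F := by
    rw [hF, Set.Finite.mem_toFinset]
    refine ⟨hyX, fun i => ?_⟩
    have h7 : |(y - v) i| ≤ ‖y - v‖ := by
      have := PiLp.norm_apply_le (y - v) i
      rwa [Real.norm_eq_abs] at this
    have h8 : y i = v i + (y - v) i := by
      rw [PiLp.sub_apply]
      ring
    rw [h8]
    refine (abs_add_le _ _).trans ?_
    have := hv i
    linarith
  obtain ⟨w, hwY, hw1⟩ := hround y hyF hyv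
  refine ⟨w, hwY, ?_⟩
  set d : Eu n := (y - v) - w with hd
  have hal2 : (1 / 2 : ℝ) ≤ al := by
    unfold al
    apply Real.le_sqrt_of_sq_le
    norm_num
  have hdK : (4 * (n : ℝ)) • d ∈ K := by
    apply hal
    rw [mem_closedBall_zero_iff, norm_smul, Real.norm_of_nonneg (by positivity)]
    refine le_trans ?_ hal2
    calc 4 * (n : ℝ) * ‖d‖ ≤ 4 * n * (1 / (8 * n)) := mul_le_mul_of_nonneg_left hw1 (by positivity)
      _ = 1 / 2 := by
        field_simp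
        norm_num
  have e2 : x - w = (1 - 1 / (4 * (n : ℝ))) • z + (1 / (4 * (n : ℝ))) • ((4 * (n : ℝ)) • d) := by
    rw [hzy, smul_smul, one_div_mul_cancel (by positivity), one_smul, hd]
    abel
  rw [e2]
  exact hconv hz hdK (by linarith) ht0.le (by ring)

end Crest.Agent.CD
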