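import Crest.Agent.CD_Defs

/-!
# CD-Body: elementary properties of the body
-/

set_option autoImplicit false
open MeasureTheory Metric
open scoped Pointwise

namespace Crest.Agent.CD

theorem al_pos_lt : 1 / 2 < al ∧ al < 1 := by
  unfold al
  constructor
  · rw [Real.lt_sqrt (by norm_num)]
    norm_num
  · rw [Real.sqrt_lt' (by norm_num)]
    norm_num

theorem bv_pos (n : ℕ) : 0 < bv n := by
  unfold bv
  exact ENNReal.toReal_pos (measure_closedBall_pos volume (0 : Eu n) one_pos).ne'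
    measure_closedBall_lt_top.ne

theorem body_subset {n : ℕ} (Z : Set (Eu n)) : body Z ⊆ closedBall 0 1 := by
  intro x hx
  rw [mem_closedBall_zero_iff]
  exact hx.1

theorem ball_subset_body {n : ℕ} (Z : Set (Eu n)) (hZ : ∀ z ∈ Z, ‖z‖ ≤ 1) :
    closedBall 0 al ⊆ body Z := by
  intro x hx
  rw [mem_closedBall_zero_iff] at hx
  have hal := al_pos_lt
  refine ⟨hx.trans hal.2.le, fun z hz => ?_⟩
  calc |inner ℝ x z| ≤ ‖x‖ * ‖z‖ := abs_real_inner_le_norm x z
    _ ≤ al * 1 := mul_le_mul hx (hZ z hz) (norm_nonneg z) (by linarith [hal.1])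
    _ = al := mul_one _

theorem convex_body {n : ℕ} (Z : Set (Eu n)) : Convex ℝ (body Z) := by
  intro x hx y hy a b ha hb hab
  constructor
  · calc ‖a • x + b • y‖ ≤ ‖a • x‖ + ‖b • y‖ := norm_add_le _ _
      _ = a * ‖x‖ + b * ‖y‖ := by
          rw [norm_smul, norm_smul, Real.norm_of_nonneg ha, Real.norm_of_nonneg hb]
      _ ≤ a * 1 + b * 1 := by
          gcongr
          · exact hx.1
          · exact hy.1
      _ = 1 := by rw [mul_one, mul_one, hab]
  · intro z hz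
    rw [inner_add_left, real_inner_smul_left, real_inner_smul_left]
    calc |a * inner ℝ x z + b * inner ℝ y z| ≤ |a * inner ℝ x z| + |b * inner ℝ y z| := abs_add_le _ _
      _ = a * |inner ℝ x z| + b * |inner ℝ y z| := by
          rw [abs_mul, abs_mul, abs_of_nonneg ha, abs_of_nonneg hb]
      _ ≤ a * al + b * al := by
          gcongr
          · exact hx.2 z hz
          · exact hy.2 z hz
      _ = al := by rw [← add_mul, hab, one_mul]

theorem isCompact_body {n : ℕ} (Z : Set (Eu n)) : IsCompact (body Z) := by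
  refine (isCompact_closedBall (0 : Eu n) 1).of_isClosed_subset ?_ (body_subset Z)
  have e : body Z = {x : Eu n | ‖x‖ ≤ 1} ∩ ⋂ z ∈ Z, {x : Eu n | |inner ℝ x z| ≤ al} := by
    ext x
    simp [body]
  rw [e]
  refine (isClosed_le continuous_norm continuous_const).inter ?_
  exact isClosed_biInter fun z _ => isClosed_le (by fun_prop) continuous_const

theorem neg_mem_body {n : ℕ} (Z : Set (Eu n)) (x : Eu n) (hx : x ∈ body Z) : -x ∈ body Z := by
  refine ⟨by rw [norm_neg]; exact hx.1, fun z hz => ?_⟩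
  rw [inner_neg_left, abs_neg]
  exact hx.2 z hz

/-- The final body: the preimage in `Fin n → ℝ` of `(1 - 1/(4n)) • body Z`. -/
def KK (n : ℕ) (Z : Set (Eu n)) : Set (Fin n → ℝ) :=
  {x | WithLp.toLp 2 x ∈ (1 - 1 / (4 * (n : ℝ))) • body Z}

private theorem KK_c {n : ℕ} (hn : 1 ≤ n) : 0 < 1 - 1 / (4 * (n : ℝ)) := by
  have h1 : (1 : ℝ) ≤ n := by exact_mod_cast hn
  rw [sub_pos, div_lt_one (by positivity)]
  linarith

theorem isCompact_KK {n : ℕ} (hn : 1 ≤ n) (Z : Set (Eu n)) : IsCompact (KK n Z) := by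
  have h1 : IsCompact ((1 - 1 / (4 * (n : ℝ))) • body Z) := (isCompact_body Z).smul _
  have h2 : KK n Z = (WithLp.ofLp : Eu n → (Fin n → ℝ)) '' ((1 - 1 / (4 * (n : ℝ))) • body Z) := by
    ext x
    constructor
    · intro hx
      exact ⟨WithLp.toLp 2 x, hx, rfl⟩
    · rintro ⟨y, hy, rfl⟩
      exact hy
  rw [h2]
  exact h1.image (PiLp.continuous_ofLp 2 _)

theorem convex_KK {n : ℕ} (hn : 1 ≤ n) (Z : Set (Eu n)) : Convex ℝ (KK n Z) := by
  have h1 : Convex ℝ ((1 - 1 / (4 * (n : ℝ))) • body Z) := (convex_body Z).smul _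
  exact h1.linear_preimage ((WithLp.linearEquiv 2 ℝ (Fin n → ℝ)).symm : (Fin n → ℝ) →ₗ[ℝ] Eu n)

theorem interior_KK {n : ℕ} (hn : 1 ≤ n) (Z : Set (Eu n)) (hZ : ∀ z ∈ Z, ‖z‖ ≤ 1) :
    (interior (KK n Z)).Nonempty := by
  have hc := KK_c hn
  set c := 1 - 1 / (4 * (n : ℝ)) with hcdef
  have hal := al_pos_lt
  refine ⟨0, mem_interior.2 ⟨{x | ‖(WithLp.toLp 2 x : Eu n)‖ < c * al}, fun x hx => ?_, ?_, ?_⟩⟩
  · show WithLp.toLp 2 x ∈ c • body Z
    rw [Set.mem_smul_set_iff_inv_smul_mem₀ hc.ne']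
    apply ball_subset_body Z hZ
    rw [mem_closedBall_zero_iff, norm_smul, norm_inv, Real.norm_of_nonneg hc.le,
      inv_mul_le_iff₀ hc]
    exact le_of_lt hx
  · exact isOpen_lt ((PiLp.continuous_toLp 2 _).norm) continuous_const
  · show ‖(WithLp.toLp 2 0 : Eu n)‖ < c * al
    have : (WithLp.toLp 2 (0 : Fin n → ℝ) : Eu n) = 0 := rfl
    rw [this, norm_zero]
    have : 0 < al := by linarith [hal.1]
    positivity

theorem neg_mem_KK {n : ℕ} (Z : Set (Eu n)) (x : Fin n → ℝ) (hx : x ∈ KK n Z) :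
    -x ∈ KK n Z := by
  obtain ⟨y, hy, hxy⟩ := hx
  refine ⟨-y, neg_mem_body Z y hy, ?_⟩
  show (1 - 1 / (4 * (n : ℝ))) • (-y) = WithLp.toLp 2 (-x)
  rw [smul_neg, WithLp.toLp_neg, ← hxy]

/-- `vol (KK n Z) = (1 - 1/(4n))^n vol (body Z) ≥ (3/4) (bv n / 2) ≥ bv n / 4` (Bernoulli; the map
`WithLp.toLp 2` preserves the volume: `EuclideanSpace.volume_preserving_symm_measurableEquiv...` /
`PiLp.volume_preserving_toLp`). -/
theorem volume_KK {n : ℕ} (hn : 1 ≤ n) (Z : Set (Eu n))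
    (h : bv n / 2 ≤ (volume (body Z)).toReal) :
    ENNReal.ofReal (bv n / 4) ≤ volume (KK n Z) := by
  have hc := KK_c hn
  have hbv := bv_pos n
  have h1 : volume (KK n Z) = volume ((1 - 1 / (4 * (n : ℝ))) • body Z) :=
    (PiLp.volume_preserving_toLp (Fin n)).measure_preimage
      ((isCompact_body Z).smul _).measurableSet.nullMeasurableSet
  rw [h1, Measure.addHaar_smul, finrank_euclideanSpace_fin]
  have hfin : volume (body Z) ≠ ⊤ := (isCompact_body Z).measure_lt_top.ne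
  rw [← ENNReal.ofReal_toReal hfin, ← ENNReal.ofReal_mul (abs_nonneg _)]
  apply ENNReal.ofReal_le_ofReal
  have h2 : (3 / 4 : ℝ) ≤ (1 - 1 / (4 * (n : ℝ))) ^ n := by
    have h3 : (1 : ℝ) ≤ n := by exact_mod_cast hn
    have h5 : 1 / (4 * (n : ℝ)) ≤ 1 := by
      rw [div_le_one (by positivity)]
      linarith
    have h4 := one_add_mul_le_pow (a := -(1 / (4 * (n : ℝ)))) (by linarith) n
    have h6 : 1 + (n : ℝ) * -(1 / (4 * (n : ℝ))) = 3 / 4 := by
      field_simp
      norm_num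
    rw [h6] at h4
    rwa [← sub_eq_add_neg] at h4
  rw [abs_of_pos (pow_pos hc n)]
  calc bv n / 4 ≤ 3 / 4 * (bv n / 2) := by linarith
    _ ≤ (1 - 1 / (4 * (n : ℝ))) ^ n * (volume (body Z)).toReal := by
        apply mul_le_mul h2 h (by positivity) (by positivity)

end Crest.Agent.CD
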