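import Crest.Agent.CD_Defs

/-!
# CD-Cap1: volumes of caps `capt t e = {z : ‖z‖ ≤ 1, t < ⟨e, z⟩}`
-/

set_option autoImplicit false
open MeasureTheory Metric

namespace Crest.Agent.CD

theorem measurableSet_capt {n : ℕ} (t : ℝ) (u : Eu n) : MeasurableSet (capt t u) := by
  have h1 : MeasurableSet {z : Eu n | ‖z‖ ≤ 1} := measurableSet_le measurable_norm measurable_const
  have h3 : Measurable fun z : Eu n => (inner ℝ u z : ℝ) :=
    (continuous_const.inner continuous_id).measurable
  have h2 : MeasurableSet {z : Eu n | t < inner ℝ u z} := measurableSet_lt measurable_const h3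
  exact h1.inter h2

theorem volume_capt_lt_top {n : ℕ} (t : ℝ) (u : Eu n) : volume (capt t u) < ⊤ := by
  refine lt_of_le_of_lt (measure_mono ?_) (measure_closedBall_lt_top (x := (0 : Eu n)) (r := 1))
  intro z hz
  rw [mem_closedBall_zero_iff]
  exact hz.1

/-- Rotation invariance: a linear isometry equivalence maps `e` to `e'` (reflection in the
hyperplane orthogonal to `e - e'`: `Submodule.reflection_sub`/`reflection_sub`), maps
`capt t e` onto `capt t e'`, and preserves the volume. -/
theorem volume_capt_congr {n : ℕ} (t : ℝ) (e e' : Eu n) (h : ‖e‖ = ‖e'‖) :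
    volume (capt t e) = volume (capt t e') := by
  have h1 := Submodule.reflection_sub h
  set f := (Submodule.span ℝ {e - e'})ᗮ.reflection with hf
  have h2 : capt t e = f ⁻¹' capt t e' := by
    ext z
    change (‖z‖ ≤ 1 ∧ t < inner ℝ e z) ↔ (‖f z‖ ≤ 1 ∧ t < inner ℝ e' (f z))
    rw [f.norm_map, ← h1, f.inner_map_map]
  rw [h2]
  exact f.measurePreserving.measure_preimage (measurableSet_capt t e').nullMeasurableSet

/-- `capt t (r • e) = capt (t / r) e` for `r > 0`. -/
theorem capt_smul {n : ℕ} (t r : ℝ) (hr : 0 < r) (e : Eu n) :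
    capt t (r • e) = capt (t / r) e := by
  ext z
  change (‖z‖ ≤ 1 ∧ t < inner ℝ (r • e) z) ↔ (‖z‖ ≤ 1 ∧ t / r < inner ℝ e z)
  rw [real_inner_smul_left, div_lt_iff₀' hr]

/-- Contraction towards the pole `e`: `z ↦ (1 - lam) z + lam e` maps `capt t e` into
`capt ((1 - lam) t + lam) e` and multiplies volumes by `(1 - lam)^n`
(`MeasureTheory.Measure.addHaar_smul`, translation invariance). -/
theorem volume_capt_contract {n : ℕ} (t lam : ℝ) (h0 : 0 ≤ lam) (h1 : lam < 1) (e : Eu n)
    (he : ‖e‖ = 1) :
    ENNReal.ofReal ((1 - lam) ^ n) * volume (capt t e) ≤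
      volume (capt ((1 - lam) * t + lam) e) := by
  have h2 := Measure.addHaar_image_homothety (volume : Measure (Eu n)) e (1 - lam) (capt t e)
  rw [finrank_euclideanSpace, Fintype.card_fin, abs_of_nonneg (pow_nonneg (by linarith) n)] at h2
  rw [← h2]
  refine measure_mono ?_
  rintro _ ⟨z, hz, rfl⟩
  have h3 : AffineMap.homothety e (1 - lam) z = (1 - lam) • z + lam • e := by
    rw [AffineMap.homothety_apply, vsub_eq_sub, vadd_eq_add, smul_sub, sub_smul (1 : ℝ) lam e,
      one_smul]
    abel
  rw [h3]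
  refine ⟨?_, ?_⟩
  · calc ‖(1 - lam) • z + lam • e‖ ≤ ‖(1 - lam) • z‖ + ‖lam • e‖ := norm_add_le _ _
      _ = (1 - lam) * ‖z‖ + lam * ‖e‖ := by
        rw [norm_smul, norm_smul, Real.norm_of_nonneg (by linarith), Real.norm_of_nonneg h0]
      _ ≤ (1 - lam) * 1 + lam * 1 := by
        rw [he]
        have := mul_le_mul_of_nonneg_left hz.1 (by linarith : (0 : ℝ) ≤ 1 - lam)
        linarith
      _ = 1 := by ring
  · rw [inner_add_right, real_inner_smul_right, real_inner_smul_right, real_inner_self_eq_norm_sq,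
      he]
    have := mul_lt_mul_of_pos_left hz.2 (by linarith : (0 : ℝ) < 1 - lam)
    linarith

/-- For `t < 1` caps have positive volume (they contain a small ball around `s • e`,
`max t 0 < s < 1`). -/
theorem volume_capt_pos {n : ℕ} (t : ℝ) (ht : t < 1) (e : Eu n) (he : ‖e‖ = 1) :
    0 < volume (capt t e) := by
  have h3 : Continuous fun z : Eu n => (inner ℝ e z : ℝ) := continuous_const.inner continuous_id
  have h4 : IsOpen {z : Eu n | t < inner ℝ e z} := isOpen_lt continuous_const h3
  have h5 : IsOpen {z : Eu n | ‖z‖ < 1} := isOpen_lt continuous_norm continuous_const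
  have h1 : IsOpen {z : Eu n | ‖z‖ < 1 ∧ t < inner ℝ e z} := h5.inter h4
  have h2 : {z : Eu n | ‖z‖ < 1 ∧ t < inner ℝ e z}.Nonempty := by
    refine ⟨((max t 0 + 1) / 2) • e, ?_, ?_⟩
    · rw [norm_smul, he, mul_one, Real.norm_of_nonneg (by positivity)]
      have : max t 0 < 1 := max_lt ht one_pos
      linarith
    · rw [real_inner_smul_right, real_inner_self_eq_norm_sq, he]
      have : max t 0 < 1 := max_lt ht one_pos
      have := le_max_left t 0
      linarith
  refine lt_of_lt_of_le (h1.measure_pos volume h2) (measure_mono ?_)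
  intro z hz
  exact ⟨hz.1.le, hz.2⟩

end Crest.Agent.CD
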