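import Crest.Agent.CD_Cap1

/-!
# CD-Cap2: expansion orthogonally to the pole
-/

set_option autoImplicit false
open MeasureTheory Metric

namespace Crest.Agent.CD

/-- the diagonal map -/
private noncomputable def cap2D (n : ℕ) (d : Fin n → ℝ) : Eu n →ₗ[ℝ] Eu n :=
  Matrix.toEuclideanLin (Matrix.diagonal d)

private theorem cap2D_det (n : ℕ) (d : Fin n → ℝ) : LinearMap.det (cap2D n d) = ∏ i, d i := by
  unfold cap2D
  rw [Matrix.toEuclideanLin_eq_toLin_orthonormal, LinearMap.det_toLin, Matrix.det_diagonal]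

private theorem cap2D_apply (n : ℕ) (d : Fin n → ℝ) (y : Eu n) (i : Fin n) :
    (cap2D n d y) i = d i * y i := by
  unfold cap2D
  rw [Matrix.ofLp_toEuclideanLin_apply, Matrix.mulVec_diagonal]

private theorem cap2_ineq {t t' s : ℝ} (h0 : 0 ≤ t) (h1 : t ≤ t') (h2 : t' < 1) (hs : t' < s) :
    (1 - t ^ 2) * (1 - s ^ 2) ≤ (1 - t' ^ 2) * (1 - (s - (t' - t)) ^ 2) := by
  have hA : 0 < 1 - t' ^ 2 := by nlinarith
  have hAB : 1 - t' ^ 2 ≤ 1 - t ^ 2 := by nlinarith
  have e : (1 - t' ^ 2) * (1 - (s - (t' - t)) ^ 2) - (1 - t ^ 2) * (1 - s ^ 2) =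
      (s - t') * ((1 - t ^ 2) * (s + t') - (1 - t' ^ 2) * (s - (t' - t) + t)) := by ring
  have e2 : 0 ≤ (1 - t ^ 2) * (s + t') - (1 - t' ^ 2) * (s - (t' - t) + t) := by
    have k1 : (1 - t' ^ 2) * (s - (t' - t) + t) ≤ (1 - t' ^ 2) * (s + t') :=
      mul_le_mul_of_nonneg_left (by linarith) hA.le
    have k2 : (1 - t' ^ 2) * (s + t') ≤ (1 - t ^ 2) * (s + t') :=
      mul_le_mul_of_nonneg_right hAB (by linarith)
    linarith
  have e3 := mul_nonneg (by linarith : (0 : ℝ) ≤ s - t') e2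
  linarith

/-- For `0 ≤ t ≤ t' < 1` put `b = √((1 - t'²)/(1 - t²)) > 0`. Then
`vol (capt t' e) ≤ b^{n-1} vol (capt t e)` for a unit vector `e`.

Proof. By `volume_capt_congr` take `e = EuclideanSpace.single i₀ 1` (`n ≥ 1`), so that
`⟨e, z⟩ = z i₀`. The affine map `A z = z'`, `z' i₀ = z i₀ - (t' - t)`, `z' i = b⁻¹ z i` (`i ≠ i₀`) maps
`capt t' e` into `capt t e`: with `s = z i₀ ∈ (t', 1]`, `∑_{i ≠ i₀} z_i² ≤ 1 - s²` and
`(s - (t' - t))² + b⁻² (1 - s²) ≤ 1` because `(1 - s²)/(1 - (s - (t'-t))²)` is `≤ (1 - t'²)/(1 - t²)` for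
`s ≥ t'`. `A` multiplies volumes by `b^{-(n-1)}` (diagonal matrix / `Matrix.toLin` /
`EuclideanSpace.volume_preserving...` and `MeasureTheory.Measure.addHaar_image_linearMap` or
`Real.map_matrix_volume_pi_eq_smul_volume_pi`, `Real.smul_map_diagonal_volume_pi`). -/
theorem volume_capt_expand {n : ℕ} (hn : 1 ≤ n) (t t' : ℝ) (h0 : 0 ≤ t) (h1 : t ≤ t')
    (h2 : t' < 1) (e : Eu n) (he : ‖e‖ = 1) :
    volume (capt t' e) ≤
      ENNReal.ofReal (Real.sqrt ((1 - t' ^ 2) / (1 - t ^ 2)) ^ (n - 1)) * volume (capt t e) := by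
  classical
  set i₀ : Fin n := ⟨0, hn⟩ with hi₀
  set e' : Eu n := EuclideanSpace.single i₀ 1 with he'
  have hee' : ‖e‖ = ‖e'‖ := by rw [he, he', EuclideanSpace.norm_single, norm_one]
  rw [volume_capt_congr t e e' hee', volume_capt_congr t' e e' hee']
  have hin : ∀ z : Eu n, inner ℝ e' z = z i₀ := by
    intro z
    rw [he', EuclideanSpace.inner_single_left]
    simp
  have hA : 0 < 1 - t' ^ 2 := by nlinarith
  have hB : 0 < 1 - t ^ 2 := by nlinarith
  set b : ℝ := Real.sqrt ((1 - t' ^ 2) / (1 - t ^ 2)) with hb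
  have hb0 : 0 < b := Real.sqrt_pos.mpr (div_pos hA hB)
  have hb2 : b ^ 2 = (1 - t' ^ 2) / (1 - t ^ 2) := Real.sq_sqrt (div_pos hA hB).le
  set d : Fin n → ℝ := fun i => if i = i₀ then 1 else b with hd
  have hdet : LinearMap.det (cap2D n d) = b ^ (n - 1) := by
    rw [cap2D_det, ← Finset.mul_prod_erase Finset.univ d (Finset.mem_univ i₀)]
    have k1 : d i₀ = 1 := by simp [hd]
    have k2 : ∏ i ∈ Finset.univ.erase i₀, d i = ∏ i ∈ Finset.univ.erase i₀, b := by
      refine Finset.prod_congr rfl fun i hi => ?_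
      simp only [hd, if_neg (Finset.ne_of_mem_erase hi)]
    rw [k1, k2, one_mul, Finset.prod_const, Finset.card_erase_of_mem (Finset.mem_univ _),
      Finset.card_univ, Fintype.card_fin]
  set δ : ℝ := t' - t with hδ
  -- the inclusion
  have hsub : capt t' e' ⊆ cap2D n d '' ((fun y => y + (-(δ • e'))) ⁻¹' capt t e') := by
    rintro z ⟨hz1, hz2⟩
    rw [hin] at hz2
    let y : Eu n := WithLp.toLp 2 (fun i => (d i)⁻¹ * z i)
    have hy : ∀ i, y i = (d i)⁻¹ * z i := fun i => rfl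
    have hd0 : ∀ i, d i ≠ 0 := by
      intro i
      simp only [hd]
      split_ifs
      · exact one_ne_zero
      · exact hb0.ne'
    refine ⟨y, ?_, ?_⟩
    · change ‖y + (-(δ • e'))‖ ≤ 1 ∧ t < inner ℝ e' (y + (-(δ • e')))
      have hcoord : ∀ i, (y + (-(δ • e'))) i = if i = i₀ then z i₀ - δ else b⁻¹ * z i := by
        intro i
        rw [PiLp.add_apply, PiLp.neg_apply, PiLp.smul_apply, hy, he', EuclideanSpace.single_apply,
          hd]
        by_cases h : i = i₀
        · subst h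
          simp
          ring
        · simp [h]
      constructor
      · rw [← sq_le_one_iff₀ (norm_nonneg _), EuclideanSpace.real_norm_sq_eq]
        rw [← Finset.add_sum_erase Finset.univ _ (Finset.mem_univ i₀)]
        have k1 : ∑ i ∈ Finset.univ.erase i₀, ((y + (-(δ • e'))) i) ^ 2 =
            (b ^ 2)⁻¹ * ∑ i ∈ Finset.univ.erase i₀, (z i) ^ 2 := by
          rw [Finset.mul_sum]
          refine Finset.sum_congr rfl fun i hi => ?_
          rw [hcoord, if_neg (Finset.ne_of_mem_erase hi), mul_pow, inv_pow]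
        have k2 : (z i₀) ^ 2 + ∑ i ∈ Finset.univ.erase i₀, (z i) ^ 2 ≤ 1 := by
          have k3 : ‖z‖ ^ 2 ≤ 1 := by
            rw [sq_le_one_iff₀ (norm_nonneg _)]
            exact hz1
          rw [EuclideanSpace.real_norm_sq_eq,
            ← Finset.add_sum_erase Finset.univ _ (Finset.mem_univ i₀)] at k3
          exact k3
        rw [k1, hcoord, if_pos rfl, hb2, inv_div]
        set Q := ∑ i ∈ Finset.univ.erase i₀, (z i) ^ 2 with hQ
        have k4 : Q ≤ 1 - (z i₀) ^ 2 := by linarith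
        have k5 := cap2_ineq h0 h1 h2 hz2
        have k6 : (1 - t ^ 2) / (1 - t' ^ 2) * Q ≤ 1 - (z i₀ - δ) ^ 2 := by
          rw [div_mul_eq_mul_div, div_le_iff₀ hA]
          have k7 : (1 - t ^ 2) * Q ≤ (1 - t ^ 2) * (1 - (z i₀) ^ 2) :=
            mul_le_mul_of_nonneg_left k4 hB.le
          have k8 : (1 - (z i₀ - δ) ^ 2) * (1 - t' ^ 2) =
              (1 - t' ^ 2) * (1 - (z i₀ - (t' - t)) ^ 2) := by rw [hδ]; ring
          rw [k8]
          exact k7.trans k5
        linarith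
      · rw [hin, hcoord, if_pos rfl, hδ]
        linarith
    · ext i
      rw [cap2D_apply, hy, ← mul_assoc, mul_inv_cancel₀ (hd0 i), one_mul]
  calc volume (capt t' e') ≤ volume (cap2D n d '' ((fun y => y + (-(δ • e'))) ⁻¹' capt t e')) :=
        measure_mono hsub
    _ = ENNReal.ofReal |LinearMap.det (cap2D n d)| *
          volume ((fun y => y + (-(δ • e'))) ⁻¹' capt t e') :=
        Measure.addHaar_image_linearMap volume (cap2D n d) _
    _ = ENNReal.ofReal (b ^ (n - 1)) * volume (capt t e') := by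
        rw [hdet, abs_of_pos (pow_pos hb0 _), measure_preimage_add_right]

end Crest.Agent.CD
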