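import Crest.Agent.CD_Cap2

/-!
# CD-Cap3: summary of the cap estimates used for S0348
Numbers: `α² = 1 - 2^{-18}`, `2^{-19} ≤ 1 - α`.
-/

set_option autoImplicit false
open MeasureTheory Metric

namespace Crest.Agent.CD

theorem al_sq : al ^ 2 = 1 - 1 / 262144 := by
  unfold al
  rw [Real.sq_sqrt (by norm_num)]

theorem al_bounds : 1 / 2 < al ∧ al < 1 ∧ 1 / 524288 ≤ 1 - al := by
  have h := al_sq
  have h0 : 0 ≤ al := Real.sqrt_nonneg _
  have h1 : al < 1 := by nlinarith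
  have h2 : 1 / 2 < al := by nlinarith
  refine ⟨h2, h1, ?_⟩
  nlinarith

/-- Far apart points have disjoint caps: if `al < ⟨u, z⟩`, `al < ⟨u', z⟩` then
`al < ⟨(u + u')/2, z⟩ ≤ ‖(u+u')/2‖ ≤ √(1 - ‖u-u'‖²/4) ≤ al` (parallelogram identity). -/
theorem capt_disjoint {n : ℕ} (u u' : Eu n) (hu : ‖u‖ ≤ 1) (hu' : ‖u'‖ ≤ 1)
    (h : 1 / 256 ≤ ‖u - u'‖) : Disjoint (capt al u) (capt al u') := by
  rw [Set.disjoint_left]
  rintro z ⟨hz, h1⟩ ⟨-, h2⟩
  have h3 : 2 * al < inner ℝ (u + u') z := by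
    rw [inner_add_left]
    linarith
  have h4 : inner ℝ (u + u') z ≤ ‖u + u'‖ := by
    calc inner ℝ (u + u') z ≤ ‖u + u'‖ * ‖z‖ := real_inner_le_norm _ _
      _ ≤ ‖u + u'‖ * 1 := by gcongr
      _ = _ := mul_one _
  have h5 := parallelogram_law_with_norm ℝ u u'
  have h6 := al_sq
  have h7 : 0 ≤ al := Real.sqrt_nonneg _
  have h8 := norm_nonneg u
  have h9 := norm_nonneg u'
  have h10 : ‖u‖ * ‖u‖ ≤ 1 := by nlinarith
  have h11 : ‖u'‖ * ‖u'‖ ≤ 1 := by nlinarith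
  have h12 : 1 / 256 * (1 / 256) ≤ ‖u - u'‖ * ‖u - u'‖ := by gcongr
  have h13 : (2 * al) * (2 * al) < ‖u + u'‖ * ‖u + u'‖ :=
    mul_self_lt_mul_self (by linarith) (by linarith)
  nlinarith

/-- `capt al u ∩ capt al u' ⊆ capt al ((1/2) • (u + u'))` and `‖(1/2)(u+u')‖² ≤ 1 - ‖u-u'‖²/4`. -/
theorem capt_inter_subset {n : ℕ} (u u' : Eu n) :
    capt al u ∩ capt al u' ⊆ capt al ((1 / 2 : ℝ) • (u + u')) := by
  rintro z ⟨⟨hz, h1⟩, ⟨-, h2⟩⟩
  refine ⟨hz, ?_⟩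
  rw [inner_smul_left, inner_add_left]
  simp only [conj_trivial]
  linarith

/-- a point at distance `r > 0` from `0` as a multiple of a unit vector -/
private theorem cap3_unit {n : ℕ} (u : Eu n) (hu : u ≠ 0) :
    ∃ e : Eu n, ‖e‖ = 1 ∧ u = ‖u‖ • e := by
  have h : ‖u‖ ≠ 0 := norm_ne_zero_iff.2 hu
  refine ⟨‖u‖⁻¹ • u, ?_, ?_⟩
  · rw [norm_smul, norm_inv, norm_norm, inv_mul_cancel₀ h]
  · rw [smul_smul, mul_inv_cancel₀ h, one_smul]

private theorem cap3_exp (x : ℝ) (h0 : 0 ≤ x) (h1 : x ≤ 1 / 2) : Real.exp (-(2 * x)) ≤ 1 - x := by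
  have h2 : 1 + 2 * x ≤ Real.exp (2 * x) := by
    have := Real.add_one_le_exp (2 * x)
    linarith
  rw [Real.exp_neg]
  have h3 : (Real.exp (2 * x))⁻¹ ≤ (1 + 2 * x)⁻¹ := by
    apply inv_anti₀ (by linarith) h2
  refine h3.trans ?_
  rw [inv_le_comm₀ (by linarith) (by linarith), ← one_div, div_le_iff₀ (by linarith)]
  nlinarith

private theorem cap3_anti {n : ℕ} (t t' : ℝ) (h : t ≤ t') (e : Eu n) : capt t' e ⊆ capt t e :=
  fun _ hz => ⟨hz.1, lt_of_le_of_lt h hz.2⟩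

private theorem cap3_empty {n : ℕ} (t : ℝ) (u : Eu n) (h : ‖u‖ ≤ t) : capt t u = ∅ := by
  rw [Set.eq_empty_iff_forall_notMem]
  rintro z ⟨hz, h1⟩
  have h2 : inner ℝ u z ≤ ‖u‖ := by
    calc inner ℝ u z ≤ ‖u‖ * ‖z‖ := real_inner_le_norm _ _
      _ ≤ ‖u‖ * 1 := by gcongr
      _ = _ := mul_one _
  linarith

/-- (1) -/
private theorem cap3_one {n : ℕ} (e : Eu n) (he : ‖e‖ = 1) (u : Eu n) (hu : ‖u‖ ≤ 1) :
    volume (capt al u) ≤ volume (capt al e) := by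
  obtain ⟨hb1, hb2, hb3⟩ := al_bounds
  by_cases h0 : u = 0
  · rw [cap3_empty al u (by rw [h0, norm_zero]; linarith), measure_empty]
    exact bot_le
  obtain ⟨e', he', hu'⟩ := cap3_unit u h0
  have hr : 0 < ‖u‖ := norm_pos_iff.2 h0
  rw [hu', capt_smul al _ hr, volume_capt_congr al e e' (by rw [he, he'])]
  apply measure_mono
  apply cap3_anti
  rw [le_div_iff₀ hr]
  nlinarith

/-- (2) -/
private theorem cap3_two {n : ℕ} (e : Eu n) (he : ‖e‖ = 1) (u : Eu n)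
    (hu1 : 1 - 1 / 2 ^ 22 ≤ ‖u‖) (hu : ‖u‖ ≤ 1) :
    ENNReal.ofReal (Real.exp (-(2 ^ 21 * n * (1 - ‖u‖)))) * volume (capt al e) ≤
      volume (capt al u) := by
  obtain ⟨hb1, hb2, hb3⟩ := al_bounds
  have hr : 0 < ‖u‖ := by
    refine lt_of_lt_of_le (by norm_num) hu1
  have h0 : u ≠ 0 := norm_pos_iff.1 hr
  obtain ⟨e', he', hu'⟩ := cap3_unit u h0
  set r := ‖u‖ with hrdef
  set lam : ℝ := (al / r - al) / (1 - al) with hlam
  have hal1 : 0 < 1 - al := by linarith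
  have e1 : (1 - lam) * al + lam = al / r := by
    rw [hlam]
    field_simp
    ring
  have halr : al / r ≤ 1 := by
    rw [div_le_one hr]
    linarith [show (1 : ℝ) - 1 / 524288 ≤ 1 - 1 / 2 ^ 22 by norm_num]
  have hl0 : 0 ≤ lam := by
    apply div_nonneg _ hal1.le
    rw [sub_nonneg, le_div_iff₀ hr]
    nlinarith
  have hl1 : lam ≤ 2 ^ 19 * (1 - r) := by
    rw [hlam, div_le_iff₀ hal1]
    have h2 : al / r - al = al / r * (1 - r) := by
      field_simp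
    rw [h2]
    have h3 : 0 ≤ 1 - r := by linarith
    have h4 : al / r * (1 - r) ≤ 1 * (1 - r) := by gcongr
    have h5 : 1 * (1 - r) ≤ 2 ^ 19 * (1 - r) * (1 - al) := by
      nlinarith [mul_nonneg h3 (by linarith : (0:ℝ) ≤ (1 - al) - 1 / 524288)]
    linarith
  have hl2 : lam ≤ 1 / 8 := by
    refine hl1.trans ?_
    have : 1 - r ≤ 1 / 2 ^ 22 := by linarith
    calc (2:ℝ) ^ 19 * (1 - r) ≤ 2 ^ 19 * (1 / 2 ^ 22) := by gcongr
      _ = 1 / 8 := by norm_num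
  have h6 : Real.exp (-(2 ^ 21 * n * (1 - r))) ≤ (1 - lam) ^ n := by
    have h7 : Real.exp (-(2 * lam)) ^ n ≤ (1 - lam) ^ n :=
      pow_le_pow_left₀ (Real.exp_nonneg _) (cap3_exp lam hl0 (by linarith)) n
    refine le_trans ?_ h7
    rw [← Real.exp_nat_mul, Real.exp_le_exp]
    have h8 : (0 : ℝ) ≤ n := Nat.cast_nonneg n
    have h9 : 2 * lam ≤ 2 ^ 21 * (1 - r) := by nlinarith
    nlinarith
  have h7 := volume_capt_contract al lam hl0 (by linarith) e' he'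
  rw [e1] at h7
  rw [hu', capt_smul al _ hr]
  refine le_trans ?_ h7
  rw [volume_capt_congr al e e' (by rw [he, he'])]
  gcongr

/-- (3) -/
private theorem cap3_three {n : ℕ} (hn : 1 ≤ n) (e : Eu n) (he : ‖e‖ = 1) (w : Eu n) (D : ℝ)
    (hw : ‖w‖ ^ 2 ≤ 1 - D ^ 2 / 4) :
    volume (capt al w) ≤
      ENNReal.ofReal (Real.exp (-(((n : ℝ) - 1) * D ^ 2))) * volume (capt al e) := by
  obtain ⟨hb1, hb2, hb3⟩ := al_bounds
  have hsq := al_sq
  by_cases h0 : ‖w‖ ≤ al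
  · rw [cap3_empty al w h0, measure_empty]
    exact bot_le
  push Not at h0
  have hr : 0 < ‖w‖ := by linarith
  have hw0 : w ≠ 0 := norm_pos_iff.1 hr
  obtain ⟨e', he', hu'⟩ := cap3_unit w hw0
  set r := ‖w‖ with hrdef
  have hr1 : r ≤ 1 := by nlinarith [sq_nonneg D]
  have ht1 : al ≤ al / r := by
    rw [le_div_iff₀ hr]
    nlinarith
  have ht2 : al / r < 1 := by
    rw [div_lt_one hr]
    exact h0
  have h1 := volume_capt_expand hn al (al / r) (by linarith) ht1 ht2 e' he'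
  rw [hu', capt_smul al _ hr, volume_capt_congr al e e' (by rw [he, he'])]
  refine h1.trans ?_
  gcongr
  have h2 : Real.sqrt ((1 - (al / r) ^ 2) / (1 - al ^ 2)) ≤ Real.exp (-(D ^ 2)) := by
    rw [Real.sqrt_le_left (Real.exp_nonneg _), ← Real.exp_nat_mul]
    have h3 : al ^ 2 * (1 + D ^ 2 / 4) ≤ (al / r) ^ 2 := by
      rw [div_pow, le_div_iff₀ (by positivity)]
      have h4 : (1 + D ^ 2 / 4) * r ^ 2 ≤ 1 := by
        nlinarith [sq_nonneg D, sq_nonneg (D ^ 2)]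
      nlinarith [sq_nonneg al]
    have h5 : (1 - (al / r) ^ 2) / (1 - al ^ 2) ≤ 1 - 2 * D ^ 2 := by
      rw [div_le_iff₀ (by rw [hsq]; norm_num)]
      rw [hsq] at h3 ⊢
      nlinarith [sq_nonneg D]
    refine h5.trans ?_
    have := Real.add_one_le_exp (-(2 * D ^ 2))
    have e2 : ((2 : ℕ) : ℝ) * -D ^ 2 = -(2 * D ^ 2) := by push_cast; ring
    rw [e2]
    linarith
  calc Real.sqrt ((1 - (al / r) ^ 2) / (1 - al ^ 2)) ^ (n - 1) ≤
      Real.exp (-(D ^ 2)) ^ (n - 1) := pow_le_pow_left₀ (Real.sqrt_nonneg _) h2 _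
    _ = Real.exp (-(((n : ℝ) - 1) * D ^ 2)) := by
      rw [← Real.exp_nat_mul, Nat.cast_sub hn]
      congr 1
      push_cast
      ring

/-- The cap estimates. Proof, with `s = vol (capt al e)`, `e` any unit vector:
(1) `u = r e`, `0 < r ≤ 1`: `capt al u = capt (al / r) e ⊆ capt al e` up to rotation (`u = 0`: empty,
`al > 0`).
(2) `r = ‖u‖ ≥ 1 - 2^{-22}`: `t' = al / r`, `lam = (t' - al)/(1 - al) ≤ 2^{19} (1 - r) al / r ≤ 1/7`
(need `t' < 1`, true since `r > al`), `volume_capt_contract`, and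
`(1 - lam)^n ≥ exp (- 2 lam n) ≥ exp (-2^21 n (1 - r))` (`1 - x ≥ exp (-2x)` for `0 ≤ x ≤ 1/2`).
(3) `capt_inter_subset`; `w = (u+u')/2`, `|w|² ≤ 1 - D²/4`, `D = ‖u - u'‖`; if `|w| ≤ al` the cap is empty;
otherwise `t' = al/|w| < 1` and `volume_capt_expand` with
`(1 - t'²)/(1 - al²) = 1 - al² (1/|w|² - 1)/(1 - al²) ≤ 1 - (al²/(1-al²)) D²/4 ≤ exp (-2 D²)`
(`al²/(4 (1 - al²)) ≥ 2`), so the factor is `≤ exp (-D²)^{n-1}`.
(4) `{u : ‖u‖ ≤ 1, al < |⟨u, z⟩|} ⊆ capt al z ∪ -(capt al z)`. -/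
theorem cap_facts (n : ℕ) (hn : 2 ≤ n) : ∃ s : ℝ, 0 < s ∧
    (∀ u : Eu n, ‖u‖ ≤ 1 → (volume (capt al u)).toReal ≤ s) ∧
    (∀ u : Eu n, 1 - 1 / 2 ^ 22 ≤ ‖u‖ → ‖u‖ ≤ 1 →
      s * Real.exp (-(2 ^ 21 * n * (1 - ‖u‖))) ≤ (volume (capt al u)).toReal) ∧
    (∀ u u' : Eu n, ‖u‖ ≤ 1 → ‖u'‖ ≤ 1 →
      (volume (capt al u ∩ capt al u')).toReal ≤
        s * Real.exp (-(((n : ℝ) - 1) * ‖u - u'‖ ^ 2))) ∧
    (∀ z : Eu n, ‖z‖ ≤ 1 →
      (volume {u : Eu n | ‖u‖ ≤ 1 ∧ al < |inner ℝ u z|}).toReal ≤ 2 * s) := by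
  have hn1 : 1 ≤ n := by omega
  set e : Eu n := EuclideanSpace.single (⟨0, by omega⟩ : Fin n) (1 : ℝ) with he'
  have he : ‖e‖ = 1 := by
    rw [he', EuclideanSpace.norm_single, norm_one]
  have hfin : volume (capt al e) ≠ ⊤ := (volume_capt_lt_top al e).ne
  have hpos : 0 < volume (capt al e) := volume_capt_pos al al_bounds.2.1 e he
  have h1 : ∀ u : Eu n, ‖u‖ ≤ 1 →
      (volume (capt al u)).toReal ≤ (volume (capt al e)).toReal := fun u hu =>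
    ENNReal.toReal_mono hfin (cap3_one e he u hu)
  refine ⟨(volume (capt al e)).toReal, ENNReal.toReal_pos hpos.ne' hfin, h1, ?_, ?_, ?_⟩
  · intro u hu1 hu
    have h2 := ENNReal.toReal_mono (volume_capt_lt_top al u).ne (cap3_two e he u hu1 hu)
    rw [ENNReal.toReal_mul, ENNReal.toReal_ofReal (Real.exp_nonneg _)] at h2
    linarith
  · intro u u' hu hu'
    have h2 : ‖(1 / 2 : ℝ) • (u + u')‖ ^ 2 ≤ 1 - ‖u - u'‖ ^ 2 / 4 := by
      rw [norm_smul, mul_pow]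
      have h5 := parallelogram_law_with_norm ℝ u u'
      have h8 := norm_nonneg u
      have h9 := norm_nonneg u'
      have h10 : ‖u‖ * ‖u‖ ≤ 1 := by nlinarith
      have h11 : ‖u'‖ * ‖u'‖ ≤ 1 := by nlinarith
      have h12 : ‖(1 / 2 : ℝ)‖ = 1 / 2 := by
        rw [Real.norm_eq_abs, abs_of_pos (by norm_num)]
      rw [h12]
      nlinarith
    have h3 := (measure_mono (μ := volume) (capt_inter_subset u u')).trans
      (cap3_three hn1 e he _ _ h2)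
    have h4 := ENNReal.toReal_mono (ENNReal.mul_ne_top ENNReal.ofReal_ne_top hfin) h3
    rw [ENNReal.toReal_mul, ENNReal.toReal_ofReal (Real.exp_nonneg _)] at h4
    linarith
  · intro z hz
    have h2 : {u : Eu n | ‖u‖ ≤ 1 ∧ al < |inner ℝ u z|} ⊆ capt al z ∪ capt al (-z) := by
      rintro u ⟨hu, h3⟩
      rcases lt_abs.1 h3 with h4 | h4
      · left
        exact ⟨hu, by rw [real_inner_comm]; exact h4⟩
      · right
        exact ⟨hu, by rw [inner_neg_left, real_inner_comm]; exact h4⟩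
    have h3 : volume {u : Eu n | ‖u‖ ≤ 1 ∧ al < |inner ℝ u z|} ≤
        volume (capt al e) + volume (capt al e) :=
      (measure_mono h2).trans ((measure_union_le _ _).trans
        (add_le_add (cap3_one e he z hz) (cap3_one e he (-z) (by rwa [norm_neg]))))
    have h4 := ENNReal.toReal_mono (ENNReal.add_ne_top.2 ⟨hfin, hfin⟩) h3
    rw [ENNReal.toReal_add hfin hfin] at h4
    linarith

end Crest.Agent.CD
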