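import Crest.Agent.CD_LL

/-!
# CD-Clus: one cluster succeeds with probability `≥ 1/2`; many independent clusters
-/

set_option autoImplicit false

namespace Crest.Agent.CD

variable {ι : Type} [Fintype ι] [DecidableEq ι]

private theorem clus_exp : Real.exp (2 / 5) ≤ 3 / 2 := by
  have h1 : Real.exp (2 / 5) ^ 5 = Real.exp 1 ^ 2 := by
    rw [← Real.exp_nat_mul, ← Real.exp_nat_mul]
    norm_num
  have h2 := Real.exp_one_lt_d9
  have h3 := Real.exp_pos 1
  refine le_of_pow_le_pow_left₀ (n := 5) (by norm_num) (by norm_num) ?_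
  rw [h1]
  nlinarith

/-- Second moment method. Let `S Z = ∑_{x ∈ X} LL q (l x) Z ≥ 0`. `E S = |X|`,
`E S² = ∑_{x, x'} E L_x L_{x'} ≤ |X| V + |X|² (3/2)` (`exp (2/5) ≤ 3/2`) `≤ 2 |X|²`, and
Cauchy–Schwarz `(E S)² = (E S 1[S ≠ 0])² ≤ E S² P(S ≠ 0)`; `S Z ≠ 0` implies that some `L_x ≠ 0`, hence
`Z` meets all sets of `l x` (`LL_ne_zero`). -/
theorem cluster (q : ℝ) (hq : 0 < q) (hq1 : q ≤ 1) {κ : Type} (X : Finset κ)
    (l : κ → List (Finset ι)) (hne : ∀ x ∈ X, ∀ C ∈ l x, C.Nonempty) (V : ℝ)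
    (hV : ∀ x ∈ X, ((l x).map (fun C =>
      (1 + (q * (C.card : ℝ))⁻¹) ^ 2 * Real.exp (3 * q * (C.card : ℝ)))).prod ≤ V)
    (hoff : ∀ x ∈ X, ∀ x' ∈ X, x ≠ x' → ((l x).map (fun C => ((l x').map (fun C' =>
      ((C ∩ C').card : ℝ) / (q * (C.card : ℝ) * (C'.card : ℝ)))).sum)).sum ≤ 2 / 5)
    (hX : 2 * V ≤ X.card) (hX0 : X.Nonempty) :
    1 / 2 ≤ PZ q (fun Z => ∃ x ∈ X, ∀ C ∈ l x, (Z ∩ C).Nonempty) := by
  classical
  have hN : (0 : ℝ) < X.card := by exact_mod_cast hX0.card_pos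
  set S : Finset ι → ℝ := fun Z => ∑ x ∈ X, LL q (l x) Z with hS
  set g : Finset ι → ℝ := fun Z => if (∃ x ∈ X, ∀ C ∈ l x, (Z ∩ C).Nonempty) then 1 else 0 with hg
  have h1 : EZ q S = X.card := by
    rw [hS, EZ_sum]
    have : ∀ x ∈ X, EZ q (LL q (l x)) = 1 := fun x hx => EZ_LL q hq (l x) (hne x hx)
    rw [Finset.sum_congr rfl this]
    simp
  have h2 : EZ q (fun Z => S Z ^ 2) ≤ 2 * (X.card : ℝ) ^ 2 := by
    have e1 : (fun Z => S Z ^ 2) = fun Z => ∑ x ∈ X, ∑ x' ∈ X, LL q (l x) Z * LL q (l x') Z := by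
      funext Z
      rw [sq, hS]
      simp only
      rw [Finset.sum_mul_sum]
    rw [e1, EZ_sum]
    have e2 : ∀ x ∈ X, EZ q (fun Z => ∑ x' ∈ X, LL q (l x) Z * LL q (l x') Z) ≤
        V + X.card * (3 / 2) := by
      intro x hx
      rw [EZ_sum, ← Finset.add_sum_erase X _ hx]
      have e3 : EZ q (fun Z => LL q (l x) Z * LL q (l x) Z) ≤ V := by
        have := EZ_LL_diag q hq hq1 (l x)
        simp only [sq] at this ⊢
        refine this.trans ?_
        have h3 := hV x hx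
        simp only [sq] at h3
        exact h3
      have e4 : ∑ x' ∈ X.erase x, EZ q (fun Z => LL q (l x) Z * LL q (l x') Z) ≤
          ∑ x' ∈ X.erase x, (3 / 2 : ℝ) := by
        refine Finset.sum_le_sum fun x' hx' => ?_
        rw [Finset.mem_erase] at hx'
        refine (EZ_LL_cross q hq hq1 (l x) (l x')).trans (le_trans ?_ clus_exp)
        exact Real.exp_le_exp.2 (hoff x hx x' hx'.2 (Ne.symm hx'.1))
      rw [Finset.sum_const, nsmul_eq_mul] at e4
      have e5 : ((X.erase x).card : ℝ) ≤ X.card := by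
        exact_mod_cast Finset.card_le_card (Finset.erase_subset x X)
      have e6 : ((X.erase x).card : ℝ) * (3 / 2) ≤ X.card * (3 / 2) := by linarith
      exact add_le_add e3 (e4.trans e6)
    refine (Finset.sum_le_sum e2).trans ?_
    rw [Finset.sum_const, nsmul_eq_mul]
    nlinarith
  have h3 : (fun Z => S Z * g Z) = S := by
    funext Z
    by_cases h : ∃ x ∈ X, ∀ C ∈ l x, (Z ∩ C).Nonempty
    · simp only [hg, if_pos h, mul_one]
    · have h4 : S Z = 0 := by
        rw [hS]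
        refine Finset.sum_eq_zero fun x hx => ?_
        by_contra h5
        exact h ⟨x, hx, LL_ne_zero q (l x) Z h5⟩
      rw [h4, zero_mul]
  have h4 : (fun Z => g Z ^ 2) = g := by
    funext Z
    rw [hg]
    simp only
    split_ifs <;> norm_num
  have h5 : EZ q g = PZ q (fun Z => ∃ x ∈ X, ∀ C ∈ l x, (Z ∩ C).Nonempty) := by
    unfold PZ
    congr 1
    funext Z
    rw [hg]
    simp only
    congr
  have h6 := EZ_cs q hq.le hq1 S g
  rw [h3, h4, h1, h5] at h6
  have hP : 0 ≤ PZ q (fun Z => ∃ x ∈ X, ∀ C ∈ l x, (Z ∩ C).Nonempty) := by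
    rw [← h5]
    refine EZ_nonneg q hq.le hq1 fun Z => ?_
    rw [hg]
    simp only
    split_ifs <;> norm_num
  have h7 : (X.card : ℝ) ^ 2 ≤
      2 * (X.card : ℝ) ^ 2 * PZ q (fun Z => ∃ x ∈ X, ∀ C ∈ l x, (Z ∩ C).Nonempty) :=
    h6.trans (mul_le_mul_of_nonneg_right h2 hP)
  have h8 : (0 : ℝ) < (X.card : ℝ) ^ 2 := by positivity
  by_contra hcon
  push Not at hcon
  nlinarith

/-- Independent events: `p g` depends only on `Z ∩ H g`, the `H g` are pairwise disjoint and each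
has probability `≥ 1/2`; then all fail with probability `≤ 2^{-m}`. Induction on `m` with `EZ_indep`
(the product of the indicators of `¬ p g`, `g < m`). -/
theorem indep_fail (q : ℝ) (hq : 0 ≤ q) (hq1 : q ≤ 1) (m : ℕ)
    (p : Fin m → Finset ι → Prop) (H : Fin m → Finset ι)
    (hH : ∀ g g', g ≠ g' → Disjoint (H g) (H g'))
    (hp : ∀ g Z, p g Z ↔ p g (Z ∩ H g)) (hhalf : ∀ g, 1 / 2 ≤ PZ q (p g)) :
    PZ q (fun Z => ∀ g, ¬ p g Z) ≤ (1 / 2) ^ m := by
  classical
  induction m with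
  | zero =>
    have h1 : PZ q (fun Z : Finset ι => ∀ g : Fin 0, ¬ p g Z) =
        EZ q (fun _ : Finset ι => (1 : ℝ)) := by
      unfold PZ
      congr 1
      funext Z
      exact if_pos fun g => g.elim0
    rw [h1, EZ_const, pow_zero]
  | succ m ih =>
    have hind := ih (fun g => p g.succ) (fun g => H g.succ)
      (fun g g' h => hH _ _ fun h' => h (Fin.succ_inj.1 h')) (fun g Z => hp g.succ Z)
      (fun g => hhalf g.succ)
    set f : Finset ι → ℝ := fun Z => if ¬ p 0 Z then 1 else 0 with hf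
    set k : Finset ι → ℝ := fun Z => if (∀ g : Fin m, ¬ p g.succ Z) then 1 else 0 with hk
    have e1 : EZ q f = PZ q (fun Z => ¬ p 0 Z) := by
      unfold PZ
      congr 1
      funext Z
      rw [hf]
      simp only
      congr
    have e2 : EZ q k = PZ q (fun Z => ∀ g : Fin m, ¬ p g.succ Z) := by
      unfold PZ
      congr 1
      funext Z
      rw [hk]
      simp only
      congr
    have e3 : PZ q (fun Z => ∀ g, ¬ p g Z) = EZ q (fun Z => f Z * k Z) := by
      unfold PZ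
      congr 1
      funext Z
      rw [hf, hk]
      simp only
      by_cases h0 : p 0 Z
      · rw [if_neg fun h => h 0 h0, if_neg (not_not.2 h0), zero_mul]
      · by_cases h1 : ∀ g : Fin m, ¬ p g.succ Z
        · rw [if_pos h0, if_pos h1, mul_one, if_pos]
          intro g
          refine Fin.cases h0 (fun g => h1 g) g
        · rw [if_neg h1, mul_zero, if_neg]
          exact fun h => h1 fun g => h g.succ
    have hfd : ∀ Z, f Z = f (Z ∩ H 0) := by
      intro Z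
      rw [hf]
      simp only
      by_cases h0 : p 0 Z
      · rw [if_neg (not_not.2 h0), if_neg (not_not.2 ((hp 0 Z).1 h0))]
      · rw [if_pos h0, if_pos fun h => h0 ((hp 0 Z).2 h)]
    have hkd : ∀ Z, k Z = k (Z \ H 0) := by
      intro Z
      rw [hk]
      simp only
      have hpp : ∀ g : Fin m, p g.succ Z ↔ p g.succ (Z \ H 0) := by
        intro g
        rw [hp g.succ Z, hp g.succ (Z \ H 0)]
        have e4 : Z \ H 0 ∩ H g.succ = Z ∩ H g.succ := by
          ext a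
          simp only [Finset.mem_inter, Finset.mem_sdiff]
          constructor
          · rintro ⟨⟨h1, -⟩, h3⟩
            exact ⟨h1, h3⟩
          · rintro ⟨h1, h3⟩
            refine ⟨⟨h1, fun h2 => ?_⟩, h3⟩
            exact Finset.disjoint_left.1 (hH 0 g.succ (Fin.succ_ne_zero g).symm) h2 h3
        rw [e4]
      by_cases h1 : ∀ g : Fin m, ¬ p g.succ Z
      · rw [if_pos h1, if_pos fun g h => h1 g ((hpp g).2 h)]
      · rw [if_neg h1, if_neg fun h => h1 fun g h2 => h g ((hpp g).1 h2)]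
    rw [e3, EZ_indep q (H 0) f k hfd hkd, e1, e2, PZ_not]
    have h2 := hhalf 0
    have h3 : 0 ≤ PZ q (fun Z => ∀ g : Fin m, ¬ p g.succ Z) := by
      rw [← e2]
      refine EZ_nonneg q hq hq1 fun Z => ?_
      rw [hk]
      simp only
      split_ifs <;> norm_num
    rw [pow_succ, mul_comm ((1 / 2 : ℝ) ^ m)]
    exact mul_le_mul (by linarith) hind h3 (by norm_num)

/-- Combination of `cluster` and `indep_fail` (`H g` = union of all sets of `l x`, `x ∈ X g`). -/
theorem clusters_fail (q : ℝ) (hq : 0 < q) (hq1 : q ≤ 1) {κ : Type} (m : ℕ)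
    (X : Fin m → Finset κ) (l : κ → List (Finset ι))
    (hne : ∀ g, ∀ x ∈ X g, ∀ C ∈ l x, C.Nonempty) (V : ℝ)
    (hV : ∀ g, ∀ x ∈ X g, ((l x).map (fun C =>
      (1 + (q * (C.card : ℝ))⁻¹) ^ 2 * Real.exp (3 * q * (C.card : ℝ)))).prod ≤ V)
    (hoff : ∀ g, ∀ x ∈ X g, ∀ x' ∈ X g, x ≠ x' → ((l x).map (fun C => ((l x').map (fun C' =>
      ((C ∩ C').card : ℝ) / (q * (C.card : ℝ) * (C'.card : ℝ)))).sum)).sum ≤ 2 / 5)
    (hdisj : ∀ g g', g ≠ g' → ∀ x ∈ X g, ∀ x' ∈ X g', ∀ C ∈ l x, ∀ C' ∈ l x', Disjoint C C')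
    (hX : ∀ g, 2 * V ≤ (X g).card) (hX0 : ∀ g, (X g).Nonempty) :
    PZ q (fun Z => ∀ g, ∀ x ∈ X g, ∃ C ∈ l x, Z ∩ C = ∅) ≤ (1 / 2) ^ m := by
  classical
  set H : Fin m → Finset ι := fun g => (X g).biUnion fun x => (l x).toFinset.biUnion id with hH
  have hmem : ∀ g a, a ∈ H g ↔ ∃ x ∈ X g, ∃ C ∈ l x, a ∈ C := by
    intro g a
    simp [hH]
  have h1 := indep_fail q hq.le hq1 m
    (fun g Z => ∃ x ∈ X g, ∀ C ∈ l x, (Z ∩ C).Nonempty) H ?_ ?_
    (fun g => cluster q hq hq1 (X g) l (hne g) V (hV g) (hoff g) (hX g) (hX0 g))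
  · refine le_trans (PZ_mono q hq.le hq1 fun Z h => ?_) h1
    intro g
    rintro ⟨x, hx, h2⟩
    obtain ⟨C, hC, h3⟩ := h g x hx
    have := h2 C hC
    rw [h3] at this
    exact Finset.not_nonempty_empty this
  · intro g g' hgg
    rw [Finset.disjoint_left]
    intro a ha ha'
    obtain ⟨x, hx, C, hC, h2⟩ := (hmem g a).1 ha
    obtain ⟨x', hx', C', hC', h2'⟩ := (hmem g' a).1 ha'
    exact Finset.disjoint_left.1 (hdisj g g' hgg x hx x' hx' C hC C' hC') h2 h2'
  · intro g Z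
    have key : ∀ x ∈ X g, ∀ C ∈ l x, Z ∩ H g ∩ C = Z ∩ C := by
      intro x hx C hC
      ext a
      simp only [Finset.mem_inter]
      constructor
      · rintro ⟨⟨h2, -⟩, h3⟩
        exact ⟨h2, h3⟩
      · rintro ⟨h2, h3⟩
        exact ⟨⟨h2, (hmem g a).2 ⟨x, hx, C, hC, h3⟩⟩, h3⟩
    constructor
    · rintro ⟨x, hx, h2⟩
      exact ⟨x, hx, fun C hC => by rw [key x hx C hC]; exact h2 C hC⟩
    · rintro ⟨x, hx, h2⟩
      exact ⟨x, hx, fun C hC => by rw [← key x hx C hC]; exact h2 C hC⟩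

end Crest.Agent.CD
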