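import Crest.Agent.CD_Pack

/-!
# CD-Conf: clusters of test points for a dangerous configuration; number of configurations
-/

set_option autoImplicit false
open MeasureTheory Metric Filter

namespace Crest.Agent.CD

private theorem cdconf_subsets {α : Type*} [DecidableEq α] (G : Finset α) (S : ℕ)
    (F : Finset (Finset α)) (hF : ∀ Y ∈ F, Y ⊆ G ∧ Y.card ≤ S) :
    F.card ≤ (G.card + 1) ^ S := by
  classical
  have h1 : F ⊆ (Finset.range (S + 1)).biUnion (fun j => Finset.powersetCard j G) := by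
    intro Y hY
    obtain ⟨h, h'⟩ := hF Y hY
    rw [Finset.mem_biUnion]
    exact ⟨Y.card, Finset.mem_range.2 (by omega), Finset.mem_powersetCard.2 ⟨h, rfl⟩⟩
  calc F.card ≤ _ := Finset.card_le_card h1
    _ ≤ ∑ j ∈ Finset.range (S + 1), (Finset.powersetCard j G).card := Finset.card_biUnion_le
    _ ≤ ∑ j ∈ Finset.range (S + 1), G.card ^ j * 1 ^ (S - j) * (S.choose j) := by
        refine Finset.sum_le_sum fun j hj => ?_
        rw [Finset.card_powersetCard, one_pow, mul_one]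
        have h2 : 1 ≤ S.choose j := Nat.choose_pos (by rw [Finset.mem_range] at hj; omega)
        calc G.card.choose j ≤ G.card ^ j := Nat.choose_le_pow G.card j
          _ ≤ G.card ^ j * S.choose j := Nat.le_mul_of_pos_right _ h2
    _ = (G.card + 1) ^ S := (add_pow G.card 1 S).symm

private theorem cdconf_card_Gam (n : ℕ) : (Gam n).card ≤ (8 * n ^ 2 + 1) ^ n := by
  classical
  unfold Gam
  refine Finset.card_image_le.trans ?_
  rw [Fintype.card_piFinset]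
  simp only [Int.card_Icc, Finset.prod_const, Finset.card_univ, Fintype.card_fin]
  refine le_of_eq ?_
  congr 1
  have h : (4 * (n : ℤ) ^ 2 + 1 - -(4 * (n : ℤ) ^ 2)) = ((8 * n ^ 2 + 1 : ℕ) : ℤ) := by
    push_cast
    ring
  rw [h, Int.toNat_natCast]

/-- Number of configurations against number of clusters.
`#YY ≤ (#Gam + 1)^{4^n}` (number of subsets of cardinality `≤ S` of a set with `N` elements is
`≤ (N + 1)^S`), `#Gam ≤ (8 n² + 1)^n`. -/
theorem card_YY (n : ℕ) : ((YY n).card : ℝ) ≤ ((8 * (n : ℝ) ^ 2 + 1) ^ n + 1) ^ (4 ^ n) := by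
  classical
  have h1 : (YY n).card ≤ ((Gam n).card + 1) ^ (4 ^ n) := by
    apply cdconf_subsets
    intro Y hY
    unfold YY at hY
    rw [Finset.mem_filter, Finset.mem_powerset] at hY
    exact ⟨hY.1, hY.2.1⟩
  have h2 : (YY n).card ≤ ((8 * n ^ 2 + 1) ^ n + 1) ^ (4 ^ n) :=
    h1.trans (Nat.pow_le_pow_left (Nat.add_le_add_right (cdconf_card_Gam n) 1) _)
  exact_mod_cast h2

private theorem cdconf_n1 (n : ℕ) (hn : 10 ≤ n) : 8 * n ^ 2 + 1 ≤ 2 ^ n := by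
  induction n, hn using Nat.le_induction with
  | base => norm_num
  | succ n hn ih =>
    have : 8 * (n + 1) ^ 2 + 1 ≤ 2 * (8 * n ^ 2 + 1) := by nlinarith
    calc 8 * (n + 1) ^ 2 + 1 ≤ 2 * (8 * n ^ 2 + 1) := this
      _ ≤ 2 * 2 ^ n := Nat.mul_le_mul_left 2 ih
      _ = 2 ^ (n + 1) := by ring

private theorem cdconf_n2 (n : ℕ) (hn : 10 ≤ n) : (n ^ 2 + 1) * 4 ^ n + 2 ≤ 7 ^ n := by
  induction n, hn using Nat.le_induction with
  | base => norm_num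
  | succ n hn ih =>
    have h1 : ((n + 1) ^ 2 + 1) * 4 ≤ 7 * (n ^ 2 + 1) := by nlinarith
    calc ((n + 1) ^ 2 + 1) * 4 ^ (n + 1) + 2 = ((n + 1) ^ 2 + 1) * 4 * 4 ^ n + 2 := by ring
      _ ≤ 7 * (n ^ 2 + 1) * 4 ^ n + 14 :=
          Nat.add_le_add (Nat.mul_le_mul_right _ h1) (by norm_num)
      _ = 7 * ((n ^ 2 + 1) * 4 ^ n + 2) := by ring
      _ ≤ 7 * 7 ^ n := Nat.mul_le_mul_left 7 ih
      _ = 7 ^ (n + 1) := by ring

/-- `#YY * 2^{-7^n} < 1/2` for large `n`. -/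
theorem card_YY_lt : ∃ n₀ : ℕ, ∀ n : ℕ, n₀ ≤ n →
    ((YY n).card : ℝ) * (1 / 2) ^ (7 ^ n) < 1 / 2 := by
  refine ⟨10, fun n hn => ?_⟩
  have h1 := card_YY n
  have h2 : (8 * n ^ 2 + 1) ^ n + 1 ≤ 2 ^ (n ^ 2 + 1) := by
    have h3 : (8 * n ^ 2 + 1) ^ n ≤ 2 ^ (n ^ 2) := by
      calc (8 * n ^ 2 + 1) ^ n ≤ (2 ^ n) ^ n := Nat.pow_le_pow_left (cdconf_n1 n hn) n
        _ = 2 ^ (n ^ 2) := by rw [← pow_mul, sq]
    have h4 : 1 ≤ 2 ^ (n ^ 2) := Nat.one_le_two_pow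
    calc _ ≤ 2 ^ (n ^ 2) + 2 ^ (n ^ 2) := Nat.add_le_add h3 h4
      _ = 2 ^ (n ^ 2 + 1) := by ring
  have h3 : ((8 * (n : ℝ) ^ 2 + 1) ^ n + 1) ≤ 2 ^ (n ^ 2 + 1) := by exact_mod_cast h2
  have h4 : ((8 * (n : ℝ) ^ 2 + 1) ^ n + 1) ^ (4 ^ n) ≤ 2 ^ ((n ^ 2 + 1) * 4 ^ n) := by
    rw [pow_mul]
    exact pow_le_pow_left₀ (by positivity) h3 _
  have h5 : (2 : ℝ) ^ ((n ^ 2 + 1) * 4 ^ n) * (1 / 2) ^ (7 ^ n) ≤ 1 / 4 := by
    have h6 := cdconf_n2 n hn
    have h7 : (1 / 2 : ℝ) ^ (7 ^ n) ≤ (1 / 2) ^ ((n ^ 2 + 1) * 4 ^ n + 2) :=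
      pow_le_pow_of_le_one (by norm_num) (by norm_num) h6
    calc (2 : ℝ) ^ ((n ^ 2 + 1) * 4 ^ n) * (1 / 2) ^ (7 ^ n)
        ≤ (2 : ℝ) ^ ((n ^ 2 + 1) * 4 ^ n) * (1 / 2) ^ ((n ^ 2 + 1) * 4 ^ n + 2) :=
          mul_le_mul_of_nonneg_left h7 (by positivity)
      _ = 1 / 4 := by
          rw [pow_add, ← mul_assoc, ← mul_pow]
          norm_num
  calc ((YY n).card : ℝ) * (1 / 2) ^ (7 ^ n)
      ≤ 2 ^ ((n ^ 2 + 1) * 4 ^ n) * (1 / 2) ^ (7 ^ n) :=
        mul_le_mul_of_nonneg_right (h1.trans h4) (by positivity)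
    _ ≤ 1 / 4 := h5
    _ < 1 / 2 := by norm_num

/-- Numerical inequality for the clusters: `7^n (2·16^n) 128^{-n} ≤ 1/2`. -/
theorem num_clusters : ∃ n₀ : ℕ, ∀ n : ℕ, n₀ ≤ n →
    (7 : ℝ) ^ n * (2 * 16 ^ n) * (1 / 128) ^ n ≤ 1 / 2 := by
  refine ⟨11, fun n hn => ?_⟩
  have h1 : (7 : ℝ) ^ n * (2 * 16 ^ n) * (1 / 128) ^ n = 2 * (7 / 8) ^ n := by
    have : (7 / 8 : ℝ) = 7 * 16 * (1 / 128) := by norm_num
    rw [this, mul_pow, mul_pow]
    ring
  rw [h1]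
  have h2 : (7 / 8 : ℝ) ^ n ≤ (7 / 8) ^ 11 :=
    pow_le_pow_of_le_one (by norm_num) (by norm_num) hn
  have h3 : (7 / 8 : ℝ) ^ 11 ≤ 1 / 4 := by norm_num
  linarith

private theorem cdconf_log : ∃ n₀ : ℕ, ∀ n : ℕ, n₀ ≤ n →
    2 ^ 58 * Real.log n ≤ Real.sqrt n := by
  have h := isLittleO_log_rpow_atTop (r := 1 / 2) (by norm_num)
  have h1 := (h.bound (show (0 : ℝ) < 1 / 2 ^ 58 by positivity))
  have h2 := (tendsto_natCast_atTop_atTop (R := ℝ)).eventually h1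
  obtain ⟨n₀, hn₀⟩ := eventually_atTop.1 h2
  refine ⟨max n₀ 1, fun n hn => ?_⟩
  have h3 := hn₀ n (le_of_max_le_left hn)
  have hn1 : (1 : ℝ) ≤ n := by exact_mod_cast le_of_max_le_right hn
  have hl : 0 ≤ Real.log n := Real.log_nonneg hn1
  rw [Real.norm_of_nonneg hl, Real.norm_of_nonneg (by positivity), ← Real.sqrt_eq_rpow] at h3
  have h4 : (2 : ℝ) ^ 58 * Real.log n ≤ 2 ^ 58 * (1 / 2 ^ 58 * Real.sqrt n) :=
    mul_le_mul_of_nonneg_left h3 (by positivity)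
  calc _ ≤ _ := h4
    _ = Real.sqrt n := by ring

/-- Numerical inequality for the tests: `k = ⌈exp (n log n / 4)⌉₊` satisfies
`k (2·16^n) s0(n)^n ≤ (1/512)^n / 2`. (`k ≤ 2 exp (n log n /4)`; take logarithms:
`log (8) + n log n / 4 + n log 16 + n log 512 + n (13 log 2 + (log log n - log n)/2) ≤ 0`.) -/
theorem num_tests : ∃ n₀ : ℕ, ∀ n : ℕ, n₀ ≤ n →
    ((⌈Real.exp (n * Real.log n / 4)⌉₊ : ℕ) : ℝ) * (2 * 16 ^ n) * s0 n ^ n ≤
      (1 / 512) ^ n / 2 := by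
  obtain ⟨n₁, hn₁⟩ := cdconf_log
  refine ⟨max n₁ 2, fun n hn => ?_⟩
  have h1 := hn₁ n (le_of_max_le_left hn)
  have hn2 : 2 ≤ n := le_of_max_le_right hn
  have hnr : (2 : ℝ) ≤ n := by exact_mod_cast hn2
  have hnpos : (0 : ℝ) < n := by linarith
  have hl : 0 ≤ Real.log n := Real.log_nonneg (by linarith)
  set q : ℝ := Real.exp (Real.log n / 4) with hq
  have hq1 : 1 ≤ q := Real.one_le_exp (by positivity)
  have hqpos : 0 < q := Real.exp_pos _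
  have hexp : Real.exp (n * Real.log n / 4) = q ^ n := by
    rw [hq, ← Real.exp_nat_mul]
    congr 1
    ring
  have hk : ((⌈Real.exp (n * Real.log n / 4)⌉₊ : ℕ) : ℝ) ≤ 2 * q ^ n := by
    rw [hexp]
    have h2 := (Nat.ceil_lt_add_one (show (0 : ℝ) ≤ q ^ n by positivity)).le
    have h3 : 1 ≤ q ^ n := one_le_pow₀ hq1
    linarith
  have hs0 : 0 ≤ s0 n := by
    unfold s0
    positivity
  -- the main inequality
  have hq4 : q ^ 4 = n := by
    rw [hq, ← Real.exp_nat_mul]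
    have : ((4 : ℕ) : ℝ) * (Real.log n / 4) = Real.log n := by push_cast; ring
    rw [this, Real.exp_log hnpos]
  have hq2 : q ^ 2 = Real.sqrt n := by
    rw [← hq4]
    have : q ^ 4 = (q ^ 2) ^ 2 := by ring
    rw [this, Real.sqrt_sq (by positivity)]
  have hmain : 8 * (16 * 512 * q * s0 n) ≤ 1 := by
    unfold s0
    have h3 : (8 * (16 * 512 * q * (2 ^ 13 * Real.sqrt (Real.log n / n)))) ^ 2 ≤ 1 := by
      have e1 : (8 * (16 * 512 * q * (2 ^ 13 * Real.sqrt (Real.log n / n)))) ^ 2 =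
          2 ^ 58 * q ^ 2 * (Real.sqrt (Real.log n / n)) ^ 2 := by ring
      rw [e1, Real.sq_sqrt (by positivity), hq2]
      have e2 : (2 : ℝ) ^ 58 * Real.sqrt n * (Real.log n / n) =
          (2 ^ 58 * Real.log n) * Real.sqrt n / n := by ring
      rw [e2, div_le_one hnpos]
      calc (2 ^ 58 * Real.log n) * Real.sqrt n ≤ Real.sqrt n * Real.sqrt n :=
            mul_le_mul_of_nonneg_right h1 (Real.sqrt_nonneg _)
        _ = n := Real.mul_self_sqrt hnpos.le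
    exact (pow_le_one_iff_of_nonneg (by positivity) two_ne_zero).1 h3
  have h4 : (16 * 512 * q * s0 n) ^ n ≤ 1 / 8 := by
    have h5 : 16 * 512 * q * s0 n ≤ 1 / 8 := by linarith
    have h6 : 0 ≤ 16 * 512 * q * s0 n := by positivity
    calc (16 * 512 * q * s0 n) ^ n ≤ (1 / 8) ^ n := pow_le_pow_left₀ h6 h5 n
      _ ≤ (1 / 8) ^ 1 := pow_le_pow_of_le_one (by norm_num) (by norm_num) (by omega)
      _ = 1 / 8 := pow_one _
  calc ((⌈Real.exp (n * Real.log n / 4)⌉₊ : ℕ) : ℝ) * (2 * 16 ^ n) * s0 n ^ n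
      ≤ (2 * q ^ n) * (2 * 16 ^ n) * s0 n ^ n := by
        gcongr
    _ = 4 * (16 * 512 * q * s0 n) ^ n * (1 / 512) ^ n := by
        have : (16 * q * s0 n : ℝ) = (16 * 512 * q * s0 n) * (1 / 512) := by ring
        calc (2 * q ^ n) * (2 * 16 ^ n) * s0 n ^ n = 4 * (16 * q * s0 n) ^ n := by
              rw [mul_pow, mul_pow]; ring
          _ = _ := by rw [this, mul_pow _ (1 / 512)]; ring
    _ ≤ 4 * (1 / 8) * (1 / 512) ^ n := by gcongr
    _ = (1 / 512) ^ n / 2 := by ring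

private theorem cdconf_ball (n : ℕ) (s : ℝ) (hs : 0 < s) :
    volume (ball (0 : Eu n) s) = ENNReal.ofReal (s ^ n) * volume (ball (0 : Eu n) 1) := by
  rw [Measure.addHaar_ball_of_pos volume _ hs, finrank_euclideanSpace, Fintype.card_fin]

private theorem cdconf_cball (n : ℕ) (s : ℝ) (hs : 0 < s) :
    volume (closedBall (0 : Eu n) s) = ENNReal.ofReal (s ^ n) * volume (ball (0 : Eu n) 1) := by
  rw [Measure.addHaar_closedBall volume _ hs.le, finrank_euclideanSpace, Fintype.card_fin]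

/-- `k #W vol(ball s) ≤ r vol (ball 1) ` -/
private theorem cdconf_vol (n k : ℕ) (W : Finset (Eu n)) (hW : W.card ≤ 2 * 16 ^ n) (s r : ℝ)
    (hs : 0 < s) (h : (k : ℝ) * (2 * 16 ^ n) * s ^ n ≤ r / 2) :
    (k : ENNReal) * W.card * volume (ball (0 : Eu n) s) ≤
      ENNReal.ofReal r * volume (ball (0 : Eu n) 1) / 2 := by
  have hs' : 0 ≤ s ^ n := by positivity
  have h1 : (k : ENNReal) * W.card * ENNReal.ofReal (s ^ n) ≤ ENNReal.ofReal (r / 2) := by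
    rw [← ENNReal.ofReal_natCast, ← ENNReal.ofReal_natCast, ← ENNReal.ofReal_mul (by positivity),
      ← ENNReal.ofReal_mul (by positivity)]
    apply ENNReal.ofReal_le_ofReal
    have h2 : (W.card : ℝ) ≤ 2 * 16 ^ n := by exact_mod_cast hW
    calc (k : ℝ) * W.card * s ^ n ≤ (k : ℝ) * (2 * 16 ^ n) * s ^ n := by gcongr
      _ ≤ r / 2 := h
  rw [cdconf_ball n s hs, ← mul_assoc]
  calc _ ≤ ENNReal.ofReal (r / 2) * volume (ball (0 : Eu n) 1) := by gcongr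
    _ = _ := by
      rw [ENNReal.ofReal_div_of_pos (by norm_num), ENNReal.ofReal_ofNat]
      rw [ENNReal.div_eq_inv_mul, ENNReal.div_eq_inv_mul, mul_assoc]

/-- Clusters of tests. Proof: let `W = insert 0 (Y - Y)` (`Finset.image₂`), `#W ≤ 16^n + 1 ≤ 2·16^n`.
Centres: `exists_packing` with `A = Good' n Y`, `s = 1/128`, `k = 7^n`
(`volume (ball 0 s) = s^n volume (ball 0 1)`, `addHaar_ball`; `volume (Good' n Y) ≥ vol B / 2`;
`num_clusters`). For each centre `x₀`: `exists_packing` with `A = {x : ‖x - x₀‖ ≤ 1/512, x ∈ Good n Y}`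
(volume `≥ vol (closedBall 0 (1/512)) / 2`, by translation), `s = s0 n`, `k = ⌈exp (n log n/4)⌉₊`
(`num_tests`). Separation of different clusters: `1/128 - 2/512 = 1/256`. -/
theorem exists_clusters : ∃ n₀ : ℕ, ∀ n : ℕ, n₀ ≤ n → ∀ Y ∈ YY n,
    ∃ X : Fin (7 ^ n) → Finset (Eu n),
      (∀ g, ∀ x ∈ X g, ‖x‖ ≤ 1 + 1 / 512 ∧ x ∈ Good n Y) ∧
      (∀ g, Real.exp (n * Real.log n / 4) ≤ ((X g).card : ℝ)) ∧
      (∀ g, ∀ x ∈ X g, ∀ x' ∈ X g, x ≠ x' → ∀ w ∈ Y, ∀ w' ∈ Y,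
        s0 n ≤ ‖(x - w) - (x' - w')‖) ∧
      (∀ g g', g ≠ g' → ∀ x ∈ X g, ∀ x' ∈ X g', ∀ w ∈ Y, ∀ w' ∈ Y,
        1 / 256 ≤ ‖(x - w) - (x' - w')‖) := by
  classical
  obtain ⟨n₁, hn₁⟩ := num_clusters
  obtain ⟨n₂, hn₂⟩ := num_tests
  refine ⟨max (max n₁ n₂) 2, fun n hn Y hY => ?_⟩
  have hc := hn₁ n (le_trans (le_trans (le_max_left _ _) (le_max_left _ _)) hn)
  have ht := hn₂ n (le_trans (le_trans (le_max_right _ _) (le_max_left _ _)) hn)
  have hn2 : 2 ≤ n := le_trans (le_max_right _ _) hn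
  unfold YY at hY
  rw [Finset.mem_filter, Finset.mem_powerset] at hY
  obtain ⟨-, hYc, hYg⟩ := hY
  have hs0 : 0 < s0 n := by
    unfold s0
    have h2 : (1 : ℝ) < n := by exact_mod_cast (by omega : 1 < n)
    have := Real.log_pos h2
    positivity
  set W : Finset (Eu n) := insert 0 (Finset.image₂ (fun a b => a - b) Y Y) with hWdef
  have hW0 : (0 : Eu n) ∈ W := Finset.mem_insert_self _ _
  have hWm : ∀ a ∈ Y, ∀ b ∈ Y, a - b ∈ W := fun a ha b hb =>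
    Finset.mem_insert_of_mem (Finset.mem_image₂.2 ⟨a, ha, b, hb, rfl⟩)
  have hWn : ∀ w ∈ W, -w ∈ W := by
    intro w hw
    rcases Finset.mem_insert.1 hw with rfl | hw
    · rw [neg_zero]; exact hW0
    · obtain ⟨a, ha, b, hb, rfl⟩ := Finset.mem_image₂.1 hw
      rw [neg_sub]
      exact hWm b hb a ha
  have hWc : W.card ≤ 2 * 16 ^ n := by
    have h1 : W.card ≤ Y.card * Y.card + 1 :=
      (Finset.card_insert_le _ _).trans (Nat.add_le_add_right (Finset.card_image₂_le _ _ _) 1)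
    have h2 : Y.card * Y.card ≤ 4 ^ n * 4 ^ n := Nat.mul_le_mul hYc hYc
    have h3 : 4 ^ n * 4 ^ n = 16 ^ n := by rw [← mul_pow]; norm_num
    have h4 : 1 ≤ 16 ^ n := Nat.one_le_pow _ _ (by norm_num)
    omega
  -- the centres
  have hB : volume (closedBall (0 : Eu n) 1) = volume (ball (0 : Eu n) 1) := by
    rw [cdconf_cball n 1 one_pos, one_pow, ENNReal.ofReal_one, one_mul]
  have hk1 : ((7 ^ n : ℕ) : ENNReal) * W.card * volume (ball (0 : Eu n) (1 / 128)) ≤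
      volume (Good' n Y) := by
    have h1 := cdconf_vol n (7 ^ n) W hWc (1 / 128) 1 (by norm_num) (by
      rw [Nat.cast_pow]
      exact_mod_cast hc)
    rw [ENNReal.ofReal_one, one_mul, ← hB] at h1
    exact h1.trans hYg
  obtain ⟨C, hCA, hCc, hCs⟩ := exists_packing (Good' n Y) W hW0 hWn (1 / 128) (by norm_num)
    (7 ^ n) hk1
  -- tests for one centre
  have hone : ∀ x₀ ∈ C, ∃ X : Finset (Eu n), (∀ x ∈ X, ‖x - x₀‖ ≤ 1 / 512 ∧ x ∈ Good n Y) ∧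
      X.card = ⌈Real.exp (n * Real.log n / 4)⌉₊ ∧
      ∀ x ∈ X, ∀ x' ∈ X, x ≠ x' → ∀ w ∈ W, s0 n ≤ ‖x - x' - w‖ := by
    intro x₀ hx₀
    have hg := hCA x₀ hx₀
    apply exists_packing {x | ‖x - x₀‖ ≤ 1 / 512 ∧ x ∈ Good n Y} W hW0 hWn (s0 n) hs0
    have h1 := cdconf_vol n ⌈Real.exp (n * Real.log n / 4)⌉₊ W hWc (s0 n) ((1 / 512) ^ n) hs0 ht
    rw [← cdconf_cball n (1 / 512) (by norm_num)] at h1
    refine h1.trans (hg.2.trans (le_of_eq ?_))
    have h2 : {e : Eu n | ‖e‖ ≤ 1 / 512 ∧ x₀ + e ∈ Good n Y} =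
        (fun e => e + x₀) ⁻¹' {x | ‖x - x₀‖ ≤ 1 / 512 ∧ x ∈ Good n Y} := by
      ext e
      simp only [Set.mem_ofPred_eq, Set.mem_preimage, add_sub_cancel_right, add_comm x₀ e]
    rw [h2, measure_preimage_add_right]
  choose! X hX1 hX2 hX3 using hone
  let c : Fin (7 ^ n) → Eu n := fun g => (C.equivFinOfCardEq hCc).symm g
  have hc1 : ∀ g, c g ∈ C := fun g => ((C.equivFinOfCardEq hCc).symm g).2
  have hc2 : ∀ g g', g ≠ g' → c g ≠ c g' := by
    intro g g' hne h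
    exact hne ((C.equivFinOfCardEq hCc).symm.injective (Subtype.ext h))
  refine ⟨fun g => X (c g), ?_, ?_, ?_, ?_⟩
  · intro g x hx
    obtain ⟨h1, h2⟩ := hX1 (c g) (hc1 g) x hx
    refine ⟨?_, h2⟩
    have h3 : ‖c g‖ ≤ 1 := (hCA (c g) (hc1 g)).1
    calc ‖x‖ = ‖c g + (x - c g)‖ := by rw [add_sub_cancel]
      _ ≤ ‖c g‖ + ‖x - c g‖ := norm_add_le _ _
      _ ≤ 1 + 1 / 512 := add_le_add h3 h1
  · intro g
    rw [hX2 (c g) (hc1 g)]
    exact Nat.le_ceil _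
  · intro g x hx x' hx' hne w hw w' hw'
    have h1 := hX3 (c g) (hc1 g) x hx x' hx' hne (w - w') (hWm w hw w' hw')
    have e : x - w - (x' - w') = x - x' - (w - w') := by abel
    rw [e]
    exact h1
  · intro g g' hne x hx x' hx' w hw w' hw'
    have h1 := hCs (c g) (hc1 g) (c g') (hc1 g') (hc2 g g' hne) (w - w') (hWm w hw w' hw')
    have h2 := (hX1 (c g) (hc1 g) x hx).1
    have h3 := (hX1 (c g') (hc1 g') x' hx').1
    have e : c g - c g' - (w - w') = (x - w - (x' - w')) - (x - c g) + (x' - c g') := by abel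
    have h4 : ‖c g - c g' - (w - w')‖ ≤ ‖x - w - (x' - w')‖ + ‖x - c g‖ + ‖x' - c g'‖ := by
      rw [e]
      exact (norm_add_le _ _).trans (add_le_add_left (norm_sub_le _ _) _)
    linarith

end Crest.Agent.CD
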