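import Crest.Agent.CD_Defs

/-!
# CD-EZ1: basic facts on Bernoulli random subsets

Suggested tool: `Finset.prod_add` / `Fintype.sum_pow_mul_eq_add_pow`, or the bijection
`Finset ι ≃ (ι → Bool)` and `Finset.prod_univ_sum`. A convenient general lemma is
`∑ Z : Finset ι, (∏ i ∈ Z, a i) * (∏ i ∈ Zᶜ, b i) = ∏ i, (a i + b i)` (`Finset.prod_add`,
`Finset.powerset_univ`).
-/

set_option autoImplicit false
set_option linter.unusedSectionVars false

namespace Crest.Agent.CD

variable {ι : Type} [Fintype ι] [DecidableEq ι]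

private theorem ez1_w_nonneg (q : ℝ) (hq : 0 ≤ q) (hq1 : q ≤ 1) (n m : ℕ) :
    0 ≤ q ^ n * (1 - q) ^ m :=
  mul_nonneg (pow_nonneg hq _) (pow_nonneg (by linarith) _)

theorem EZ_mono (q : ℝ) (hq : 0 ≤ q) (hq1 : q ≤ 1) {f g : Finset ι → ℝ} (h : ∀ Z, f Z ≤ g Z) :
    EZ q f ≤ EZ q g :=
  Finset.sum_le_sum fun Z _ => mul_le_mul_of_nonneg_left (h Z) (ez1_w_nonneg q hq hq1 _ _)

theorem EZ_nonneg (q : ℝ) (hq : 0 ≤ q) (hq1 : q ≤ 1) {f : Finset ι → ℝ} (h : ∀ Z, 0 ≤ f Z) :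
    0 ≤ EZ q f :=
  Finset.sum_nonneg fun Z _ => mul_nonneg (ez1_w_nonneg q hq hq1 _ _) (h Z)

theorem EZ_const (q : ℝ) (c : ℝ) : EZ q (fun _ : Finset ι => c) = c := by
  unfold EZ
  rw [← Finset.sum_mul, Fintype.sum_pow_mul_eq_add_pow]
  simp

theorem EZ_add (q : ℝ) (f g : Finset ι → ℝ) :
    EZ q (fun Z => f Z + g Z) = EZ q f + EZ q g := by
  unfold EZ
  rw [← Finset.sum_add_distrib]
  exact Finset.sum_congr rfl fun Z _ => by ring

theorem EZ_mul (q : ℝ) (c : ℝ) (f : Finset ι → ℝ) :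
    EZ q (fun Z => c * f Z) = c * EZ q f := by
  unfold EZ
  rw [Finset.mul_sum]
  exact Finset.sum_congr rfl fun Z _ => by ring

theorem EZ_sum (q : ℝ) {κ : Type} (s : Finset κ) (f : κ → Finset ι → ℝ) :
    EZ q (fun Z => ∑ k ∈ s, f k Z) = ∑ k ∈ s, EZ q (f k) := by
  unfold EZ
  rw [Finset.sum_comm]
  exact Finset.sum_congr rfl fun Z _ => by rw [Finset.mul_sum]

/-- expectation of a product function -/
private theorem ez1_prod (q : ℝ) (c d : ι → ℝ) :
    EZ q (fun Z => (∏ i ∈ Z, c i) * ∏ i ∈ Finset.univ \ Z, d i) =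
      ∏ i, (q * c i + (1 - q) * d i) := by
  rw [Finset.prod_add, Finset.powerset_univ]
  unfold EZ
  refine Finset.sum_congr rfl fun Z _ => ?_
  rw [Finset.prod_mul_distrib, Finset.prod_mul_distrib, Finset.prod_const, Finset.prod_const,
    Finset.card_sdiff_of_subset (Finset.subset_univ Z), Finset.card_univ]
  ring

/-- `P(T ⊆ Z) = q^|T|`. -/
theorem EZ_subset (q : ℝ) (T : Finset ι) :
    EZ q (fun Z => if T ⊆ Z then (1 : ℝ) else 0) = q ^ T.card := by
  have h1 : (fun Z : Finset ι => if T ⊆ Z then (1 : ℝ) else 0) = fun Z =>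
      (∏ i ∈ Z, (1 : ℝ)) * ∏ i ∈ Finset.univ \ Z, if i ∈ T then (0 : ℝ) else 1 := by
    funext Z
    rw [Finset.prod_const_one, one_mul]
    split_ifs with h
    · symm
      apply Finset.prod_eq_one
      intro i hi
      rw [if_neg]
      intro hiT
      exact (Finset.mem_sdiff.1 hi).2 (h hiT)
    · rw [Finset.not_subset] at h
      obtain ⟨i, hi, hiZ⟩ := h
      symm
      apply Finset.prod_eq_zero (i := i) (Finset.mem_sdiff.2 ⟨Finset.mem_univ i, hiZ⟩)
      rw [if_pos hi]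
  rw [h1, ez1_prod]
  have h2 : ∀ i : ι, q * 1 + (1 - q) * (if i ∈ T then (0 : ℝ) else 1) =
      if i ∈ T then q else 1 := by
    intro i
    split_ifs <;> ring
  simp only [h2]
  rw [Finset.prod_ite_mem, Finset.univ_inter, Finset.prod_const]

/-- `E t^{|Z ∩ A|} = (1 + (t - 1) q)^|A|`. -/
theorem EZ_pow (q t : ℝ) (A : Finset ι) :
    EZ q (fun Z => t ^ (Z ∩ A).card) = (1 + (t - 1) * q) ^ A.card := by
  have h1 : (fun Z : Finset ι => t ^ (Z ∩ A).card) = fun Z =>
      (∏ i ∈ Z, if i ∈ A then t else 1) * ∏ i ∈ Finset.univ \ Z, (1 : ℝ) := by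
    funext Z
    rw [Finset.prod_const_one, mul_one, Finset.prod_ite_mem, Finset.prod_const]
  rw [h1, ez1_prod]
  have h2 : ∀ i : ι, q * (if i ∈ A then t else 1) + (1 - q) * 1 =
      if i ∈ A then 1 + (t - 1) * q else 1 := by
    intro i
    split_ifs <;> ring
  simp only [h2]
  rw [Finset.prod_ite_mem, Finset.univ_inter, Finset.prod_const]

private theorem ez1_indep_aux (q : ℝ) (A : Finset ι) (f g : Finset ι → ℝ)
    (hf : ∀ Z, f Z = f (Z ∩ A)) (hg : ∀ Z, g Z = g (Z \ A)) :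
    EZ q (fun Z => f Z * g Z) =
      (∑ B ∈ A.powerset, q ^ B.card * (1 - q) ^ (A.card - B.card) * f B) *
      ∑ C ∈ Aᶜ.powerset, q ^ C.card * (1 - q) ^ (Aᶜ.card - C.card) * g C := by
  unfold EZ
  rw [Finset.sum_mul_sum, ← Finset.sum_product']
  refine Finset.sum_nbij' (fun Z => (Z ∩ A, Z \ A)) (fun p => p.1 ∪ p.2) ?_ ?_ ?_ ?_ ?_
  · intro Z _
    rw [Finset.mem_product, Finset.mem_powerset, Finset.mem_powerset]
    refine ⟨Finset.inter_subset_right, fun x hx => ?_⟩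
    rw [Finset.mem_compl]
    exact (Finset.mem_sdiff.1 hx).2
  · intro p _
    exact Finset.mem_univ _
  · intro Z _
    show Z ∩ A ∪ Z \ A = Z
    rw [Finset.union_comm]
    exact Finset.sdiff_union_inter Z A
  · rintro ⟨B, C⟩ hp
    rw [Finset.mem_product, Finset.mem_powerset, Finset.mem_powerset] at hp
    obtain ⟨hB, hC⟩ := hp
    simp only at hB hC
    have hC' : ∀ x ∈ C, x ∉ A := fun x hx => Finset.mem_compl.1 (hC hx)
    apply Prod.ext
    · show (B ∪ C) ∩ A = B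
      ext x
      simp only [Finset.mem_inter, Finset.mem_union]
      constructor
      · rintro ⟨h | h, hA⟩
        · exact h
        · exact absurd hA (hC' x h)
      · exact fun h => ⟨Or.inl h, hB h⟩
    · show (B ∪ C) \ A = C
      ext x
      simp only [Finset.mem_sdiff, Finset.mem_union]
      constructor
      · rintro ⟨h | h, hA⟩
        · exact absurd (hB h) hA
        · exact h
      · exact fun h => ⟨Or.inr h, hC' x h⟩
  · intro Z _
    have h1 : Z.card = (Z ∩ A).card + (Z \ A).card := by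
      rw [add_comm]
      exact (Finset.card_sdiff_add_card_inter Z A).symm
    have h2 : Fintype.card ι = A.card + Aᶜ.card := (Finset.card_add_card_compl A).symm
    have h3 : (Z ∩ A).card ≤ A.card := Finset.card_le_card Finset.inter_subset_right
    have h4 : (Z \ A).card ≤ Aᶜ.card := by
      apply Finset.card_le_card
      intro x hx
      rw [Finset.mem_compl]
      exact (Finset.mem_sdiff.1 hx).2
    have h5 : Fintype.card ι - Z.card = (A.card - (Z ∩ A).card) + (Aᶜ.card - (Z \ A).card) := by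
      omega
    show q ^ Z.card * (1 - q) ^ (Fintype.card ι - Z.card) * (f Z * g Z) =
      (q ^ (Z ∩ A).card * (1 - q) ^ (A.card - (Z ∩ A).card) * f (Z ∩ A)) *
      (q ^ (Z \ A).card * (1 - q) ^ (Aᶜ.card - (Z \ A).card) * g (Z \ A))
    rw [h5, ← hf Z, ← hg Z, h1, pow_add, pow_add]
    ring

/-- Functions depending on disjoint parts of `Z` are independent. Split the sum over
`Z = (Z ∩ A) ∪ (Z \ A)` (`Finset.sum_bij'` or `Finset.powerset` of disjoint unions). -/
theorem EZ_indep (q : ℝ) (A : Finset ι) (f g : Finset ι → ℝ)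
    (hf : ∀ Z, f Z = f (Z ∩ A)) (hg : ∀ Z, g Z = g (Z \ A)) :
    EZ q (fun Z => f Z * g Z) = EZ q f * EZ q g := by
  have h1 := ez1_indep_aux q A f g hf hg
  have h2 := ez1_indep_aux q A f (fun _ => 1) hf (fun _ => rfl)
  have h3 := ez1_indep_aux q A (fun _ => 1) g (fun _ => rfl) hg
  simp only [mul_one, one_mul] at h2 h3
  rw [Finset.sum_pow_mul_eq_add_pow] at h2 h3
  rw [add_sub_cancel, one_pow, mul_one] at h2
  rw [add_sub_cancel, one_pow, one_mul] at h3
  rw [h1, ← h2, ← h3]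

/-- Cauchy–Schwarz. -/
theorem EZ_cs (q : ℝ) (hq : 0 ≤ q) (hq1 : q ≤ 1) (f g : Finset ι → ℝ) :
    (EZ q (fun Z => f Z * g Z)) ^ 2 ≤ EZ q (fun Z => f Z ^ 2) * EZ q (fun Z => g Z ^ 2) := by
  unfold EZ
  apply Finset.sum_sq_le_sum_mul_sum_of_sq_le_mul
  · exact fun Z _ => mul_nonneg (ez1_w_nonneg q hq hq1 _ _) (sq_nonneg _)
  · exact fun Z _ => mul_nonneg (ez1_w_nonneg q hq hq1 _ _) (sq_nonneg _)
  · intro Z _
    apply le_of_eq
    ring

theorem PZ_mono (q : ℝ) (hq : 0 ≤ q) (hq1 : q ≤ 1) {p r : Finset ι → Prop}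
    (h : ∀ Z, p Z → r Z) : PZ q p ≤ PZ q r := by
  apply EZ_mono q hq hq1
  intro Z
  by_cases hp : p Z
  · rw [if_pos hp, if_pos (h Z hp)]
  · rw [if_neg hp]
    split_ifs <;> norm_num

theorem PZ_not (q : ℝ) (p : Finset ι → Prop) : PZ q (fun Z => ¬ p Z) = 1 - PZ q p := by
  have h1 : PZ q (fun Z => ¬ p Z) + PZ q p = 1 := by
    unfold PZ
    rw [← EZ_add]
    have h2 := EZ_const (ι := ι) q 1
    rw [← h2]
    congr 1
    funext Z
    by_cases hp : p Z
    · rw [if_neg (not_not.2 hp), if_pos hp, h2]; norm_num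
    · rw [if_pos hp, if_neg hp, h2]; norm_num
  linarith

/-- Finite union bound together with Markov's inequality: if the bad events have total
probability `< 1/2` and `E v ≤ a / 4`, `v ≥ 0`, then some `Z` avoids all bad events and
has `v Z ≤ a / 2`. -/
theorem exists_good (q : ℝ) (hq : 0 ≤ q) (hq1 : q ≤ 1) {β : Type} (S : Finset β)
    (bad : β → Finset ι → Prop) (hbad : ∑ b ∈ S, PZ q (bad b) < 1 / 2)
    (v : Finset ι → ℝ) (hv : ∀ Z, 0 ≤ v Z) (a : ℝ) (ha : 0 < a) (hEv : EZ q v ≤ a / 4) :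
    ∃ Z : Finset ι, v Z ≤ a / 2 ∧ ∀ b ∈ S, ¬ bad b Z := by
  classical
  by_contra hcon
  push Not at hcon
  have h1 : ∀ Z : Finset ι, (1 : ℝ) ≤ (∑ b ∈ S, if bad b Z then (1 : ℝ) else 0) + 2 / a * v Z := by
    intro Z
    have hnn : ∀ b ∈ S, (0 : ℝ) ≤ if bad b Z then (1 : ℝ) else 0 := by
      intro b _
      split_ifs <;> norm_num
    by_cases hvZ : v Z ≤ a / 2
    · obtain ⟨b, hb, hbZ⟩ := hcon Z hvZ
      have h2 := Finset.single_le_sum hnn hb
      rw [if_pos hbZ] at h2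
      have h3 : 0 ≤ 2 / a * v Z := mul_nonneg (by positivity) (hv Z)
      linarith
    · push Not at hvZ
      have h2 : 0 ≤ ∑ b ∈ S, if bad b Z then (1 : ℝ) else 0 := Finset.sum_nonneg hnn
      have h3 : 1 ≤ 2 / a * v Z := by
        rw [div_mul_eq_mul_div, le_div_iff₀ ha]
        linarith
      linarith
  have h2 := EZ_mono q hq hq1 h1
  rw [EZ_const, EZ_add, EZ_sum, EZ_mul] at h2
  have h3 : ∑ b ∈ S, EZ q (fun Z => if bad b Z then (1 : ℝ) else 0) = ∑ b ∈ S, PZ q (bad b) := by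
    refine Finset.sum_congr rfl fun b _ => ?_
    unfold PZ
    congr 1
  rw [h3] at h2
  have h4 : 2 / a * EZ q v ≤ 2 / a * (a / 4) := mul_le_mul_of_nonneg_left hEv (by positivity)
  have h5 : 2 / a * (a / 4) = 1 / 2 := by
    field_simp
    norm_num
  linarith

end Crest.Agent.CD
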