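import Crest.Agent.CD_Defs

/-!
# CD-Samp: finite samples approximating a finite measure on finitely many sets
-/

set_option autoImplicit false
open MeasureTheory

namespace Crest.Agent.CD

/-- Proof. For a pattern `p : J → Prop` (or `p ∈ J.powerset`) let
`E_p = {x ∈ S : ∀ j ∈ J, x ∈ A j ↔ j ∈ p}`; these are finitely many disjoint measurable (up to `S`; use
`toMeasurable`/replace `μ E_p` by `μ` of the measurable set without `S`, since `μ Sᶜ = 0`) sets covering
`S`. For a large natural number `M` take `⌊M μ(E_p)⌋₊` copies of a point `z_p ∈ E_p` (patterns with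
`μ(E_p) > 0`, so that `E_p ≠ ∅`), `q = 1/M`. Then
`q #{i : z_i ∈ A j} = ∑_{p ∋ j} ⌊M μ(E_p)⌋ / M ∈ [μ(A j) - 2^{|J|}/M, μ(A j)]`.
Any finite type can be replaced by `Fin N` (`Fintype.equivFin`). -/
theorem exists_sample {E : Type} [MeasurableSpace E] (μ : Measure E) [IsFiniteMeasure μ]
    (S : Set E) (hS : μ Sᶜ = 0) {κ : Type} (J : Finset κ) (A : κ → Set E)
    (hA : ∀ j ∈ J, MeasurableSet (A j)) (ε : ℝ) (hε : 0 < ε) :
    ∃ (N : ℕ) (z : Fin N → E) (q : ℝ), 0 < q ∧ q ≤ ε ∧ (∀ i, z i ∈ S) ∧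
      ∀ j ∈ J, q * (Nat.card {i : Fin N // z i ∈ A j} : ℝ) ≤ (μ (A j)).toReal ∧
        (μ (A j)).toReal - ε ≤ q * (Nat.card {i : Fin N // z i ∈ A j} : ℝ) := by
  classical
  let f : E → Finset κ := fun x => J.filter (fun j => x ∈ A j)
  have hfmem : ∀ x j, j ∈ J → (j ∈ f x ↔ x ∈ A j) := by
    intro x j hj
    show j ∈ J.filter (fun j => x ∈ A j) ↔ x ∈ A j
    rw [Finset.mem_filter]
    exact ⟨fun h => h.2, fun h => ⟨hj, h⟩⟩
  have hfpow : ∀ x, f x ∈ J.powerset := fun x => Finset.mem_powerset.2 (Finset.filter_subset _ _)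
  have hmeas : ∀ P ∈ J.powerset, MeasurableSet (f ⁻¹' {P}) := by
    intro P hP
    rw [Finset.mem_powerset] at hP
    have h1 : f ⁻¹' {P} = ⋂ j ∈ J, {x | x ∈ A j ↔ j ∈ P} := by
      ext x
      simp only [Set.mem_preimage, Set.mem_singleton_iff, Set.mem_iInter, Set.mem_setOf_eq]
      constructor
      · intro h j hj
        rw [← h, hfmem x j hj]
      · intro h
        ext j
        constructor
        · intro hj
          have hjJ : j ∈ J := (Finset.mem_powerset.1 (hfpow x)) hj
          exact (h j hjJ).1 ((hfmem x j hjJ).1 hj)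
        · intro hj
          exact (hfmem x j (hP hj)).2 ((h j (hP hj)).2 hj)
    rw [h1]
    refine Finset.measurableSet_biInter J fun j hj => ?_
    by_cases hjP : j ∈ P
    · simp only [hjP, iff_true]
      exact hA j hj
    · simp only [hjP, iff_false]
      exact (hA j hj).compl
  have hsum : ∀ j ∈ J, (μ (A j)).toReal =
      ∑ P ∈ J.powerset, if j ∈ P then (μ (f ⁻¹' {P})).toReal else 0 := by
    intro j hj
    have h1 : A j = f ⁻¹' (↑(J.powerset.filter (fun P => j ∈ P)) : Set (Finset κ)) := by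
      ext x
      rw [Set.mem_preimage, Finset.mem_coe, Finset.mem_filter, hfmem x j hj]
      exact ⟨fun h => ⟨hfpow x, h⟩, fun h => h.2⟩
    have h2 := sum_measure_preimage_singleton (μ := μ) (f := f)
      (J.powerset.filter (fun P => j ∈ P)) (fun P hP => hmeas P (Finset.mem_filter.1 hP).1)
    rw [h1, ← h2, ENNReal.toReal_sum (fun P _ => measure_ne_top μ _), Finset.sum_filter]
  obtain ⟨M, hM⟩ := exists_nat_ge ((J.powerset.card : ℝ) / ε)
  have hcard : (1 : ℝ) ≤ J.powerset.card := by
    have : 0 < J.powerset.card := Finset.card_pos.2 ⟨∅, Finset.empty_mem_powerset J⟩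
    exact_mod_cast this
  have hM0 : (0 : ℝ) < M := lt_of_lt_of_le (by positivity) hM
  have hMε : (J.powerset.card : ℝ) ≤ M * ε := by
    rwa [div_le_iff₀ hε] at hM
  let c : Finset κ → ℕ := fun P => ⌊(M : ℝ) * (μ (f ⁻¹' {P})).toReal⌋₊
  let ι : Type := Σ P : {P // P ∈ J.powerset}, Fin (c P.1)
  have hz : ∀ x : ι, ∃ y : E, f y = x.1.1 ∧ y ∈ S := by
    rintro ⟨⟨P, hP⟩, i⟩
    have hc : 0 < c P := lt_of_le_of_lt (Nat.zero_le _) i.isLt
    have hc1 : 1 ≤ (M : ℝ) * (μ (f ⁻¹' {P})).toReal := by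
      have h1 := Nat.floor_pos.1 hc
      exact h1
    have hpos : μ (f ⁻¹' {P}) ≠ 0 := by
      intro h0
      rw [h0, ENNReal.toReal_zero, mul_zero] at hc1
      linarith
    by_contra hcon
    push Not at hcon
    apply hpos
    refine measure_mono_null ?_ hS
    intro y hy
    exact hcon y hy
  choose z' hz1 hz2 using hz
  let e : Fin (Fintype.card ι) ≃ ι := (Fintype.equivFin ι).symm
  have hcnt : ∀ j ∈ J, (Nat.card {i : Fin (Fintype.card ι) // z' (e i) ∈ A j} : ℝ) =
      ∑ P ∈ J.powerset, if j ∈ P then (c P : ℝ) else 0 := by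
    intro j hj
    have h1 : Nat.card {i : Fin (Fintype.card ι) // z' (e i) ∈ A j} =
        Nat.card {x : ι // j ∈ x.1.1} := by
      refine Nat.card_congr (e.subtypeEquiv fun i => ?_)
      rw [← hfmem _ j hj, hz1]
    rw [h1, Nat.card_eq_fintype_card, Fintype.card_subtype, Finset.card_filter,
      Fintype.sum_sigma]
    have h2 : ∀ P : {P // P ∈ J.powerset}, (∑ _i : Fin (c P.1), if j ∈ P.1 then 1 else 0) =
        if j ∈ P.1 then c P.1 else 0 := by
      intro P
      split_ifs <;> simp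
    rw [Finset.sum_congr rfl (fun P _ => h2 P), Nat.cast_sum,
      ← Finset.sum_coe_sort J.powerset (fun P => if j ∈ P then (c P : ℝ) else 0)]
    refine Finset.sum_congr rfl fun P _ => ?_
    split_ifs <;> simp
  refine ⟨Fintype.card ι, fun i => z' (e i), 1 / M, by positivity, ?_, fun i => hz2 _, ?_⟩
  · rw [div_le_iff₀ hM0, mul_comm]
    linarith
  · intro j hj
    rw [hcnt j hj, hsum j hj, Finset.mul_sum]
    constructor
    · refine Finset.sum_le_sum fun P _ => ?_
      split_ifs
      · rw [one_div, inv_mul_le_iff₀ hM0]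
        exact Nat.floor_le (by positivity)
      · simp
    · have h3 : ∀ P ∈ J.powerset, (if j ∈ P then (μ (f ⁻¹' {P})).toReal else 0) - 1 / M ≤
          1 / M * (if j ∈ P then (c P : ℝ) else 0) := by
        intro P _
        split_ifs
        · have h4 := Nat.lt_floor_add_one ((M : ℝ) * (μ (f ⁻¹' {P})).toReal)
          have h5 : (μ (f ⁻¹' {P})).toReal ≤ 1 / M * ((c P : ℝ) + 1) := by
            rw [one_div, le_inv_mul_iff₀ hM0]
            exact h4.le
          linarith
        · simp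
      have h4 := Finset.sum_le_sum h3
      rw [Finset.sum_sub_distrib, Finset.sum_const, nsmul_eq_mul] at h4
      have h5 : (J.powerset.card : ℝ) * (1 / M) ≤ ε := by
        rw [mul_one_div, div_le_iff₀ hM0, mul_comm]
        exact hMε
      linarith

end Crest.Agent.CD
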