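import Crest.Agent.CD_Cap3
import Crest.Agent.CD_Samp
import Crest.Agent.CD_EZ1

/-!
# CD-Fin: the finite structure used in the probabilistic argument
-/

set_option autoImplicit false
open MeasureTheory Metric

namespace Crest.Agent.CD

/-- The (finite) set of sample points in the cap of `u`. -/
noncomputable def Cs {n N : ℕ} (z : Fin N → Eu n) (u : Eu n) : Finset (Fin N) := by
  classical
  exact Finset.univ.filter (fun i => al < inner ℝ u (z i))

private theorem fin_card (N : ℕ) (C : Finset (Fin N)) (p : Fin N → Prop)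
    (h : ∀ i, i ∈ C ↔ p i) : Nat.card {i : Fin N // p i} = C.card := by
  classical
  rw [Nat.card_eq_fintype_card, Fintype.card_subtype]
  congr 1
  ext i
  simp [h]

private theorem fin_mem_Cs {n N : ℕ} (z : Fin N → Eu n) (u : Eu n) (i : Fin N) :
    i ∈ Cs z u ↔ al < inner ℝ u (z i) := by
  classical
  simp [Cs]

private theorem fin_vol_body {n N : ℕ} (s : ℝ) (z : Fin N → Eu n)
    (hz : ∀ i, ‖z i‖ ≤ 1)
    (h4 : ∀ z : Eu n, ‖z‖ ≤ 1 →
      (volume {u : Eu n | ‖u‖ ≤ 1 ∧ al < |inner ℝ u z|}).toReal ≤ 2 * s)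
    (Z : Finset (Fin N)) :
    (volume (closedBall (0 : Eu n) 1 \ body (z '' (Z : Set (Fin N))))).toReal ≤
      2 * s * (Z.card : ℝ) := by
  have hsub : closedBall (0 : Eu n) 1 \ body (z '' (Z : Set (Fin N))) ⊆
      ⋃ i ∈ Z, {u : Eu n | ‖u‖ ≤ 1 ∧ al < |inner ℝ u (z i)|} := by
    rintro x ⟨hx, hxb⟩
    rw [mem_closedBall_zero_iff] at hx
    simp only [body, Set.mem_setOf_eq, not_and, not_forall, not_le] at hxb
    obtain ⟨w, hw, hw2⟩ := hxb hx
    obtain ⟨i, hi, rfl⟩ := hw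
    simp only [Set.mem_iUnion]
    exact ⟨i, hi, hx, hw2⟩
  have hfin : ∀ i, volume {u : Eu n | ‖u‖ ≤ 1 ∧ al < |inner ℝ u (z i)|} ≠ ⊤ := by
    intro i
    refine ne_top_of_le_ne_top
      (measure_closedBall_lt_top (μ := volume) (x := (0 : Eu n)) (r := 1)).ne (measure_mono ?_)
    rintro u ⟨hu, _⟩
    rwa [mem_closedBall_zero_iff]
  calc (volume (closedBall (0 : Eu n) 1 \ body (z '' (Z : Set (Fin N))))).toReal
      ≤ (∑ i ∈ Z, volume {u : Eu n | ‖u‖ ≤ 1 ∧ al < |inner ℝ u (z i)|}).toReal := by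
        apply ENNReal.toReal_mono (ENNReal.sum_ne_top.2 fun i _ => hfin i)
        exact (measure_mono hsub).trans (measure_biUnion_finset_le _ _)
    _ = ∑ i ∈ Z, (volume {u : Eu n | ‖u‖ ≤ 1 ∧ al < |inner ℝ u (z i)|}).toReal :=
        ENNReal.toReal_sum fun i _ => hfin i
    _ ≤ ∑ i ∈ Z, 2 * s := Finset.sum_le_sum fun i _ => h4 _ (hz i)
    _ = 2 * s * (Z.card : ℝ) := by
        rw [Finset.sum_const, nsmul_eq_mul]
        ring

private theorem fin_EZ_card (N : ℕ) (q : ℝ) :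
    EZ q (fun Z : Finset (Fin N) => (Z.card : ℝ)) = q * N := by
  have h : (fun Z : Finset (Fin N) => (Z.card : ℝ)) = fun Z =>
      ∑ i ∈ (Finset.univ : Finset (Fin N)), (if {i} ⊆ Z then (1 : ℝ) else 0) := by
    funext Z
    simp only [Finset.singleton_subset_iff]
    rw [Finset.sum_ite_mem, Finset.univ_inter]
    simp
  rw [h, EZ_sum]
  simp only [EZ_subset, Finset.card_singleton, pow_one]
  rw [Finset.sum_const, Finset.card_univ, Fintype.card_fin, nsmul_eq_mul]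
  ring

/-- Proof. `exists_sample` for `μ = (8 s)⁻¹ • volume.restrict (closedBall 0 1)` (`s` from `cap_facts`),
`S = closedBall 0 1`, the sets `capt al u`, `capt al u ∩ capt al u'` (`u, u' ∈ D`) and `univ`
(`κ = Option (Eu n × Eu n)` for instance; `capt al u = capt al u ∩ capt al u`), and `ε ≤ 1` smaller
than half of `min_u μ (capt al u)`. The last statement:
`vol (B \ body Z) ≤ ∑_{i ∈ Z} vol {u ∈ B : al < |⟨u, z_i⟩|} ≤ 2 s |Z|`, `E |Z| = q N` (`EZ_sum`,
`EZ_subset` for singletons) and `q N ≤ μ univ = bv n / (8 s)`. -/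
theorem cap_sample (n : ℕ) (hn : 2 ≤ n) (D : Finset (Eu n))
    (hD : ∀ u ∈ D, ‖u‖ ≤ 1 ∧ 1 - 1 / 2 ^ 22 ≤ ‖u‖) :
    ∃ (N : ℕ) (z : Fin N → Eu n) (q : ℝ), 0 < q ∧ q ≤ 1 ∧ (∀ i, ‖z i‖ ≤ 1) ∧
      (∀ u ∈ D, q * ((Cs z u).card : ℝ) ≤ 1 / 8) ∧
      (∀ u ∈ D, Real.exp (-(2 ^ 21 * n * (1 - ‖u‖))) / 16 ≤ q * ((Cs z u).card : ℝ)) ∧
      (∀ u ∈ D, ∀ u' ∈ D, q * ((Cs z u ∩ Cs z u').card : ℝ) ≤
        Real.exp (-(((n : ℝ) - 1) * ‖u - u'‖ ^ 2)) / 8) ∧
      (∀ u ∈ D, ∀ u' ∈ D, 1 / 256 ≤ ‖u - u'‖ → Disjoint (Cs z u) (Cs z u')) ∧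
      EZ q (fun Z : Finset (Fin N) =>
        (volume (closedBall (0 : Eu n) 1 \ body (z '' (Z : Set (Fin N))))).toReal) ≤ bv n / 4 := by
  classical
  obtain ⟨s, hs, h1, h2, h3, h4⟩ := cap_facts n hn
  have h8s : 0 < (8 * s)⁻¹ := by positivity
  set μ : Measure (Eu n) :=
    ENNReal.ofReal ((8 * s)⁻¹) • volume.restrict (closedBall (0 : Eu n) 1) with hμ
  haveI hres : IsFiniteMeasure (volume.restrict (closedBall (0 : Eu n) 1)) :=
    isFiniteMeasure_restrict.2
      (measure_closedBall_lt_top (μ := volume) (x := (0 : Eu n)) (r := 1)).ne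
  haveI hμfin : IsFiniteMeasure μ := by
    refine ⟨?_⟩
    rw [hμ, Measure.smul_apply, smul_eq_mul]
    exact ENNReal.mul_lt_top ENNReal.ofReal_lt_top (measure_lt_top _ _)
  have hμset : ∀ A : Set (Eu n), A ⊆ closedBall (0 : Eu n) 1 →
      (μ A).toReal = (8 * s)⁻¹ * (volume A).toReal := by
    intro A hA
    rw [hμ, Measure.smul_apply, smul_eq_mul, ENNReal.toReal_mul, ENNReal.toReal_ofReal h8s.le,
      Measure.restrict_eq_self _ hA]
  have hμuniv : (μ Set.univ).toReal = (8 * s)⁻¹ * bv n := by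
    rw [hμ, Measure.smul_apply, smul_eq_mul, ENNReal.toReal_mul, ENNReal.toReal_ofReal h8s.le,
      Measure.restrict_apply_univ]
    rfl
  have hS : μ (closedBall (0 : Eu n) 1)ᶜ = 0 := by
    rw [hμ, Measure.smul_apply, smul_eq_mul, Measure.restrict_apply measurableSet_closedBall.compl]
    simp
  have hsubc : ∀ u : Eu n, capt al u ⊆ closedBall (0 : Eu n) 1 := by
    rintro u x ⟨hx, _⟩
    rwa [mem_closedBall_zero_iff]
  set A : Option (Eu n × Eu n) → Set (Eu n) := fun o =>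
    match o with
    | none => Set.univ
    | some p => capt al p.1 ∩ capt al p.2 with hAdef
  set J : Finset (Option (Eu n × Eu n)) := insert none ((D ×ˢ D).image some) with hJ
  have hAm : ∀ j ∈ J, MeasurableSet (A j) := by
    intro j _
    match j with
    | none => exact MeasurableSet.univ
    | some p => exact (measurableSet_capt al p.1).inter (measurableSet_capt al p.2)
  have hε : 0 < Real.exp (-((n : ℝ) / 2)) / 16 := by positivity
  obtain ⟨N, z, q, hq0, hqε, hz, hJz⟩ :=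
    exists_sample μ (closedBall (0 : Eu n) 1) hS J A hAm _ hε
  have hz1 : ∀ i, ‖z i‖ ≤ 1 := fun i => mem_closedBall_zero_iff.1 (hz i)
  have hq1 : q ≤ 1 := by
    have : Real.exp (-((n : ℝ) / 2)) ≤ 1 := Real.exp_le_one_iff.2 (by
      have : (0 : ℝ) ≤ n := Nat.cast_nonneg n
      linarith)
    linarith
  have hmem : ∀ (u : Eu n) (i : Fin N), i ∈ Cs z u ↔ z i ∈ capt al u := by
    intro u i
    rw [fin_mem_Cs]
    exact ⟨fun h => ⟨hz1 i, h⟩, fun h => h.2⟩
  have hpair : ∀ u ∈ D, ∀ u' ∈ D,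
      q * ((Cs z u ∩ Cs z u').card : ℝ) ≤ (8 * s)⁻¹ * (volume (capt al u ∩ capt al u')).toReal ∧
      (8 * s)⁻¹ * (volume (capt al u ∩ capt al u')).toReal - Real.exp (-((n : ℝ) / 2)) / 16 ≤
        q * ((Cs z u ∩ Cs z u').card : ℝ) := by
    intro u hu u' hu'
    have hj : some (u, u') ∈ J := by
      rw [hJ]
      exact Finset.mem_insert_of_mem (Finset.mem_image_of_mem _ (Finset.mk_mem_product hu hu'))
    have hc : Nat.card {i : Fin N // z i ∈ A (some (u, u'))} = (Cs z u ∩ Cs z u').card := by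
      apply fin_card
      intro i
      rw [Finset.mem_inter, hmem, hmem]
      rfl
    have h := hJz _ hj
    rw [hc] at h
    have hAe : A (some (u, u')) = capt al u ∩ capt al u' := rfl
    rw [hAe, hμset _ (Set.inter_subset_left.trans (hsubc u))] at h
    exact h
  have hsingle : ∀ u ∈ D,
      q * ((Cs z u).card : ℝ) ≤ (8 * s)⁻¹ * (volume (capt al u)).toReal ∧
      (8 * s)⁻¹ * (volume (capt al u)).toReal - Real.exp (-((n : ℝ) / 2)) / 16 ≤
        q * ((Cs z u).card : ℝ) := by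
    intro u hu
    have h := hpair u hu u hu
    rwa [Finset.inter_self, Set.inter_self] at h
  have hqN : q * (N : ℝ) ≤ (8 * s)⁻¹ * bv n := by
    have h := (hJz none (Finset.mem_insert_self _ _)).1
    have hc : Nat.card {i : Fin N // z i ∈ A none} = N := by
      rw [fin_card N Finset.univ (fun i => z i ∈ A none)
        (fun i => ⟨fun _ => Set.mem_univ _, fun _ => Finset.mem_univ _⟩)]
      simp
    rw [hc] at h
    have hAe : A none = Set.univ := rfl
    rw [hAe, hμuniv] at h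
    exact h
  refine ⟨N, z, q, hq0, hq1, hz1, ?_, ?_, ?_, ?_, ?_⟩
  · intro u hu
    refine (hsingle u hu).1.trans ?_
    have h := h1 u (hD u hu).1
    calc (8 * s)⁻¹ * (volume (capt al u)).toReal ≤ (8 * s)⁻¹ * s :=
          mul_le_mul_of_nonneg_left h h8s.le
      _ = 1 / 8 := by field_simp
  · intro u hu
    refine le_trans ?_ (hsingle u hu).2
    have h := h2 u (hD u hu).2 (hD u hu).1
    have h' : Real.exp (-(2 ^ 21 * n * (1 - ‖u‖))) / 8 ≤
        (8 * s)⁻¹ * (volume (capt al u)).toReal := by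
      calc Real.exp (-(2 ^ 21 * n * (1 - ‖u‖))) / 8
          = (8 * s)⁻¹ * (s * Real.exp (-(2 ^ 21 * n * (1 - ‖u‖)))) := by field_simp
        _ ≤ _ := mul_le_mul_of_nonneg_left h h8s.le
    have h'' : Real.exp (-((n : ℝ) / 2)) ≤ Real.exp (-(2 ^ 21 * n * (1 - ‖u‖))) := by
      apply Real.exp_le_exp.2
      have hn0 : (0 : ℝ) ≤ n := Nat.cast_nonneg n
      have h5 : 1 - ‖u‖ ≤ 1 / 2 ^ 22 := by
        have := (hD u hu).2
        linarith
      have h6 : (n : ℝ) * (1 - ‖u‖) ≤ n * (1 / 2 ^ 22) := mul_le_mul_of_nonneg_left h5 hn0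
      have h7 : (2 : ℝ) ^ 21 * n * (1 - ‖u‖) = 2 ^ 21 * (n * (1 - ‖u‖)) := by ring
      rw [h7]
      have h8 : (2 : ℝ) ^ 21 * (n * (1 - ‖u‖)) ≤ 2 ^ 21 * (n * (1 / 2 ^ 22)) :=
        mul_le_mul_of_nonneg_left h6 (by positivity)
      have h9 : (2 : ℝ) ^ 21 * ((n : ℝ) * (1 / 2 ^ 22)) = n / 2 := by
        ring
      linarith
    linarith
  · intro u hu u' hu'
    refine (hpair u hu u' hu').1.trans ?_
    have h := h3 u u' (hD u hu).1 (hD u' hu').1
    calc (8 * s)⁻¹ * (volume (capt al u ∩ capt al u')).toReal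
        ≤ (8 * s)⁻¹ * (s * Real.exp (-(((n : ℝ) - 1) * ‖u - u'‖ ^ 2))) :=
          mul_le_mul_of_nonneg_left h h8s.le
      _ = Real.exp (-(((n : ℝ) - 1) * ‖u - u'‖ ^ 2)) / 8 := by field_simp
  · intro u hu u' hu' hd
    have h := capt_disjoint u u' (hD u hu).1 (hD u' hu').1 hd
    rw [Finset.disjoint_left]
    intro i hi hi'
    exact Set.disjoint_left.1 h ((hmem u i).1 hi) ((hmem u' i).1 hi')
  · have hE := EZ_mono q hq0.le hq1 (fun Z : Finset (Fin N) => fin_vol_body s z hz1 h4 Z)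
    rw [EZ_mul, fin_EZ_card] at hE
    refine hE.trans ?_
    calc 2 * s * (q * (N : ℝ)) ≤ 2 * s * ((8 * s)⁻¹ * bv n) :=
          mul_le_mul_of_nonneg_left hqN (by positivity)
      _ = bv n / 4 := by
        field_simp
        ring

end Crest.Agent.CD
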