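import Crest.Agent.CD_Conf
import Crest.Agent.CD_Clus
import Crest.Agent.CD_Fin

/-!
# CD-Core: the random body defeats every dangerous configuration
-/

set_option autoImplicit false
open MeasureTheory Metric Filter

namespace Crest.Agent.CD

/-- `ff n 0 u ≥ 1` and `ff n 0 u ≥ n (1 - ‖u‖)` for `‖u‖ ≤ 1` (number of `k ≤ n` with
`k ≤ n (1 - ‖u‖)`). -/
theorem ff_ge {n : ℕ} (hn : 1 ≤ n) (u : Eu n) (hu : ‖u‖ ≤ 1) :
    1 ≤ ff n 0 u ∧ n * (1 - ‖u‖) ≤ ff n 0 u := by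
  have hn0 : (0 : ℝ) < n := by exact_mod_cast hn
  have hterm : ∀ k ∈ Finset.range (n + 1),
      (0 : ℝ) ≤ (if ‖u‖ ≤ 1 + 0 - (k : ℝ) / n then (1 : ℝ) else 0) := by
    intro k _
    split_ifs <;> norm_num
  have key : ∀ m : ℕ, m ≤ n → (m : ℝ) ≤ n * (1 - ‖u‖) → (m : ℝ) + 1 ≤ ff n 0 u := by
    intro m hm hmu
    unfold ff
    have h1 : ∑ k ∈ Finset.range (m + 1), (if ‖u‖ ≤ 1 + 0 - (k : ℝ) / n then (1 : ℝ) else 0) =
        (m : ℝ) + 1 := by
      have h2 : ∀ k ∈ Finset.range (m + 1),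
          (if ‖u‖ ≤ 1 + 0 - (k : ℝ) / n then (1 : ℝ) else 0) = 1 := by
        intro k hk
        rw [if_pos]
        have h3 : (k : ℝ) ≤ m := by
          have := Finset.mem_range.1 hk
          exact_mod_cast Nat.lt_succ_iff.1 this
        have h4 : (k : ℝ) / n ≤ 1 - ‖u‖ := by
          rw [div_le_iff₀ hn0]
          nlinarith
        linarith
      rw [Finset.sum_congr rfl h2]
      simp
    rw [← h1]
    refine Finset.sum_le_sum_of_subset_of_nonneg ?_ fun k hk _ => hterm k hk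
    intro k hk
    rw [Finset.mem_range] at hk ⊢
    omega
  constructor
  · have := key 0 (Nat.zero_le n) (by
      rw [Nat.cast_zero]
      exact mul_nonneg hn0.le (by linarith))
    simpa using this
  · have h0 : 0 ≤ n * (1 - ‖u‖) := mul_nonneg hn0.le (by linarith)
    have h1 : ((⌊n * (1 - ‖u‖)⌋₊ : ℕ) : ℝ) ≤ n * (1 - ‖u‖) := Nat.floor_le h0
    have h2 : n * (1 - ‖u‖) ≤ n := by
      have := norm_nonneg u
      nlinarith
    have h3 : ⌊n * (1 - ‖u‖)⌋₊ ≤ n := by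
      have : ((⌊n * (1 - ‖u‖)⌋₊ : ℕ) : ℝ) ≤ n := h1.trans h2
      exact_mod_cast this
    have h4 := key _ h3 h1
    have h5 := Nat.lt_floor_add_one (n * (1 - ‖u‖))
    linarith

theorem ff_nonneg (n : ℕ) (d : ℝ) (u : Eu n) : 0 ≤ ff n d u := by
  unfold ff
  refine Finset.sum_nonneg fun k _ => ?_
  split_ifs <;> norm_num

/-- Numerical part of the diagonal estimate. If `exp (-(2^21 n (1-‖u‖)))/16 ≤ m ≤ 1/8` then
`(1 + m⁻¹)² exp (3 m) ≤ exp (2^23 ff n 0 u)`: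
`1 + m⁻¹ ≤ 17 exp (2^21 n (1 - ‖u‖))`, `2 log 17 + 3/8 + 2^22 n (1 - ‖u‖) ≤ 7 + 2^22 n(1-‖u‖) ≤ 2^23 ff`. -/
theorem diag_num {n : ℕ} (hn : 1 ≤ n) (u : Eu n) (hu : ‖u‖ ≤ 1) (m : ℝ)
    (h1 : Real.exp (-(2 ^ 21 * n * (1 - ‖u‖))) / 16 ≤ m) (h2 : m ≤ 1 / 8) :
    (1 + m⁻¹) ^ 2 * Real.exp (3 * m) ≤ Real.exp (2 ^ 23 * ff n 0 u) := by
  obtain ⟨hf1, hf2⟩ := ff_ge hn u hu
  set t : ℝ := n * (1 - ‖u‖) with ht
  have ht0 : 0 ≤ t := mul_nonneg (Nat.cast_nonneg n) (by linarith)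
  have hE : Real.exp (-(2 ^ 21 * n * (1 - ‖u‖))) = Real.exp (-(2 ^ 21 * t)) := by
    congr 1; rw [ht]; ring
  rw [hE] at h1
  have hm0 : 0 < m := lt_of_lt_of_le (by positivity) h1
  have hinv : m⁻¹ ≤ 16 * Real.exp (2 ^ 21 * t) := by
    rw [inv_le_comm₀ hm0 (by positivity)]
    refine le_trans (le_of_eq ?_) h1
    rw [mul_inv, ← Real.exp_neg]
    ring
  have hexp1 : 1 ≤ Real.exp (2 ^ 21 * t) := Real.one_le_exp (by positivity)
  have h3 : 1 + m⁻¹ ≤ 17 * Real.exp (2 ^ 21 * t) := by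
    generalize Real.exp (2 ^ 21 * t) = E at hinv hexp1 ⊢
    linarith
  have h4 : (0 : ℝ) ≤ 1 + m⁻¹ := by positivity
  have h17 : (17 : ℝ) ^ 2 ≤ Real.exp 6 := by
    have e1 : Real.exp 6 = Real.exp 1 ^ 6 := by rw [← Real.exp_nat_mul]; norm_num
    have e2 := Real.exp_one_gt_d9
    rw [e1]
    calc (17 : ℝ) ^ 2 ≤ 2.7 ^ 6 := by norm_num
      _ ≤ Real.exp 1 ^ 6 := pow_le_pow_left₀ (by norm_num) (by linarith) 6
  calc (1 + m⁻¹) ^ 2 * Real.exp (3 * m)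
      ≤ (17 * Real.exp (2 ^ 21 * t)) ^ 2 * Real.exp 1 := by
        refine mul_le_mul (pow_le_pow_left₀ h4 h3 2) (Real.exp_le_exp.2 (by linarith))
          (Real.exp_pos _).le (by positivity)
    _ = 17 ^ 2 * (Real.exp (2 ^ 21 * t) ^ 2 * Real.exp 1) := by ring
    _ ≤ Real.exp 6 * (Real.exp (2 ^ 21 * t) ^ 2 * Real.exp 1) :=
        mul_le_mul_of_nonneg_right h17 (by positivity)
    _ = Real.exp (7 + 2 ^ 22 * t) := by
        rw [← Real.exp_nat_mul, ← Real.exp_add, ← Real.exp_add]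
        congr 1
        push_cast
        ring
    _ ≤ Real.exp (2 ^ 23 * ff n 0 u) := by
        refine Real.exp_le_exp.2 ?_
        nlinarith

/-- Numerical part of the off-diagonal estimate: for large `n`, if `u, u'` satisfy
`1 - th n < ‖u‖ ≤ 1`, the same for `u'`, `s0 n ≤ ‖u - u'‖`, `m, m'` as in `diag_num` and
`c ≤ exp (-((n-1) ‖u-u'‖²))/8`, then `c / (m m') ≤ (2/5) / T0 n ^ 2`:
`c/(m m') ≤ 32 exp (-(n-1) 2^26 log n / n + 2^22 · 3 log n) ≤ 32 n^{-2^24}`. -/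
theorem off_num : ∃ n₀ : ℕ, ∀ n : ℕ, n₀ ≤ n → ∀ (u u' : Eu n) (m m' c : ℝ),
    1 - th n < ‖u‖ → ‖u‖ ≤ 1 → 1 - th n < ‖u'‖ → ‖u'‖ ≤ 1 → s0 n ≤ ‖u - u'‖ →
    Real.exp (-(2 ^ 21 * n * (1 - ‖u‖))) / 16 ≤ m →
    Real.exp (-(2 ^ 21 * n * (1 - ‖u'‖))) / 16 ≤ m' → 0 ≤ c →
    c ≤ Real.exp (-(((n : ℝ) - 1) * ‖u - u'‖ ^ 2)) / 8 →
    c / (m * m') ≤ 2 / 5 / T0 n ^ 2 := by
  refine ⟨2, fun n hn u u' m m' c hu1 hu2 hu1' hu2' hs hm hm' hc hc' => ?_⟩
  have hn2 : (2 : ℝ) ≤ n := by exact_mod_cast hn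
  have hn0 : (0 : ℝ) < n := by linarith
  have hlog0 : 0 < Real.log n := Real.log_pos (by linarith)
  have hloglen : Real.log n ≤ n := (Real.log_le_sub_one_of_pos hn0).trans (by linarith)
  set Λ : ℝ := Real.log n with hΛ
  have key : ∀ (v : Eu n) (k : ℝ), 1 - th n < ‖v‖ →
      Real.exp (-(2 ^ 21 * n * (1 - ‖v‖))) / 16 ≤ k →
      Real.exp (-(2 ^ 21 * (3 * Λ))) / 16 ≤ k := by
    intro v k hv hk
    refine le_trans ?_ hk
    refine div_le_div_of_nonneg_right (Real.exp_le_exp.2 ?_) (by norm_num)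
    have h1 : n * (1 - ‖v‖) ≤ 3 * Λ := by
      unfold th at hv
      have h2 : 1 - ‖v‖ ≤ 3 * Λ / n := by linarith
      rw [le_div_iff₀ hn0] at h2
      linarith
    nlinarith
  have hk := key u m hu1 hm
  have hk' := key u' m' hu1' hm'
  have hm0 : 0 < m := lt_of_lt_of_le (by positivity) hk
  have hm0' : 0 < m' := lt_of_lt_of_le (by positivity) hk'
  have hs2 : 2 ^ 26 * Λ / n ≤ ‖u - u'‖ ^ 2 := by
    have h1 : s0 n ^ 2 ≤ ‖u - u'‖ ^ 2 := by
      refine pow_le_pow_left₀ ?_ hs 2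
      unfold s0
      positivity
    refine le_trans (le_of_eq ?_) h1
    unfold s0
    rw [mul_pow, Real.sq_sqrt (by positivity)]
    ring
  have hexp : 2 ^ 25 * Λ ≤ ((n : ℝ) - 1) * ‖u - u'‖ ^ 2 := by
    have h1 : ((n : ℝ) - 1) * (2 ^ 26 * Λ / n) ≤ ((n : ℝ) - 1) * ‖u - u'‖ ^ 2 :=
      mul_le_mul_of_nonneg_left hs2 (by linarith)
    refine le_trans ?_ h1
    rw [mul_div_assoc', le_div_iff₀ hn0]
    nlinarith
  have hcb : c ≤ Real.exp (-(2 ^ 25 * Λ)) / 8 := by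
    refine hc'.trans (div_le_div_of_nonneg_right (Real.exp_le_exp.2 ?_) (by norm_num))
    linarith
  have hmm : (Real.exp (-(2 ^ 21 * (3 * Λ))) / 16) ^ 2 ≤ m * m' := by
    rw [sq]
    exact mul_le_mul hk hk' (by positivity) hm0.le
  have h1 : c / (m * m') ≤ 32 * Real.exp (-(4 * Λ)) := by
    rw [div_le_iff₀ (mul_pos hm0 hm0')]
    calc c ≤ Real.exp (-(2 ^ 25 * Λ)) / 8 := hcb
      _ ≤ Real.exp (-(4 * Λ) + -(2 ^ 22 * (3 * Λ))) / 8 := by
          refine div_le_div_of_nonneg_right (Real.exp_le_exp.2 ?_) (by norm_num)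
          nlinarith
      _ = 32 * Real.exp (-(4 * Λ)) * (Real.exp (-(2 ^ 21 * (3 * Λ))) / 16) ^ 2 := by
          rw [div_pow, ← Real.exp_nat_mul, Real.exp_add]
          have e1 : ((2 : ℕ) : ℝ) * -(2 ^ 21 * (3 * Λ)) = -(2 ^ 22 * (3 * Λ)) := by
            push_cast; ring
          rw [e1]
          ring
      _ ≤ 32 * Real.exp (-(4 * Λ)) * (m * m') :=
          mul_le_mul_of_nonneg_left hmm (by positivity)
  refine h1.trans ?_
  have h2 : Real.exp (-(4 * Λ)) = ((n : ℝ) ^ 4)⁻¹ := by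
    rw [Real.exp_neg, show (4 : ℝ) * Λ = ((4 : ℕ) : ℝ) * Λ by norm_num, Real.exp_nat_mul, hΛ,
      Real.exp_log hn0]
  have h3 : T0 n ^ 2 ≤ (n : ℝ) ^ 4 / 2 ^ 52 := by
    unfold T0
    rw [← hΛ, div_pow, mul_pow]
    have : Λ ^ 2 ≤ (n : ℝ) ^ 2 := pow_le_pow_left₀ hlog0.le hloglen 2
    calc (n : ℝ) ^ 2 * Λ ^ 2 / (2 ^ 26) ^ 2 ≤ (n : ℝ) ^ 2 * (n : ℝ) ^ 2 / (2 ^ 26) ^ 2 := by
          refine div_le_div_of_nonneg_right ?_ (by positivity)
          exact mul_le_mul_of_nonneg_left this (by positivity)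
      _ = _ := by ring
  have hT : 0 < T0 n ^ 2 := by
    have : 0 < T0 n := by unfold T0; rw [← hΛ]; positivity
    positivity
  rw [h2, le_div_iff₀ hT]
  calc 32 * ((n : ℝ) ^ 4)⁻¹ * T0 n ^ 2 ≤ 32 * ((n : ℝ) ^ 4)⁻¹ * ((n : ℝ) ^ 4 / 2 ^ 52) :=
        mul_le_mul_of_nonneg_left h3 (by positivity)
    _ = 32 / 2 ^ 52 * (((n : ℝ) ^ 4)⁻¹ * (n : ℝ) ^ 4) := by ring
    _ = 32 / 2 ^ 52 := by rw [inv_mul_cancel₀ (by positivity), mul_one]
    _ ≤ 2 / 5 := by norm_num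

/-- One configuration fails with probability `≤ 2^{-7^n}`: apply `clusters_fail` with
`l x = ((Y.filter (‖x - w‖ ≤ 1)).toList).map (fun w => Cs z (x - w))`, `V = exp (n log n / 8)`:
product in `hV` is `≤ exp (2^23 ∑_{w ∈ Y} ff n 0 (x - w)) ≤ exp (2^23 T0 n) = V`; the double sum in `hoff`
has at most `T0 n ^ 2` terms (number of `w` with `‖x - w‖ ≤ 1` is `≤ ∑ ff ≤ T0 n`); sets are nonempty
because `q |C| > 0`; `2 V ≤ exp (n log n / 4)`. -/
theorem config_fail : ∃ n₀ : ℕ, ∀ n : ℕ, n₀ ≤ n → ∀ (Y : Finset (Eu n))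
    (X : Fin (7 ^ n) → Finset (Eu n)),
      (∀ g, ∀ x ∈ X g, ‖x‖ ≤ 1 + 1 / 512 ∧ x ∈ Good n Y) →
      (∀ g, Real.exp (n * Real.log n / 4) ≤ ((X g).card : ℝ)) →
      (∀ g, ∀ x ∈ X g, ∀ x' ∈ X g, x ≠ x' → ∀ w ∈ Y, ∀ w' ∈ Y,
        s0 n ≤ ‖(x - w) - (x' - w')‖) →
      (∀ g g', g ≠ g' → ∀ x ∈ X g, ∀ x' ∈ X g', ∀ w ∈ Y, ∀ w' ∈ Y,
        1 / 256 ≤ ‖(x - w) - (x' - w')‖) →
      ∀ (D : Finset (Eu n)), (∀ g, ∀ x ∈ X g, ∀ w ∈ Y, ‖x - w‖ ≤ 1 → x - w ∈ D) →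
      ∀ (N : ℕ) (z : Fin N → Eu n) (q : ℝ), 0 < q → q ≤ 1 → (∀ i, ‖z i‖ ≤ 1) →
      (∀ u ∈ D, q * ((Cs z u).card : ℝ) ≤ 1 / 8) →
      (∀ u ∈ D, Real.exp (-(2 ^ 21 * n * (1 - ‖u‖))) / 16 ≤ q * ((Cs z u).card : ℝ)) →
      (∀ u ∈ D, ∀ u' ∈ D, q * ((Cs z u ∩ Cs z u').card : ℝ) ≤
        Real.exp (-(((n : ℝ) - 1) * ‖u - u'‖ ^ 2)) / 8) →
      (∀ u ∈ D, ∀ u' ∈ D, 1 / 256 ≤ ‖u - u'‖ → Disjoint (Cs z u) (Cs z u')) →
      PZ q (fun Z : Finset (Fin N) => ∀ g, ∀ x ∈ X g, ∃ w ∈ Y, ‖x - w‖ ≤ 1 ∧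
        ∀ i ∈ Z, ¬ (al < inner ℝ (x - w) (z i))) ≤ (1 / 2) ^ (7 ^ n) := by
  classical
  obtain ⟨n₁, hoffn⟩ := off_num
  refine ⟨max 8 n₁, fun n hn Y X hX1 hX2 hX3 hX4 D hD N z q hq hq1 _ hd1 hd2 hd3 hd4 => ?_⟩
  have hn8 : 8 ≤ n := (le_max_left _ _).trans hn
  have hn1 : n₁ ≤ n := (le_max_right _ _).trans hn
  have hn8' : (8 : ℝ) ≤ n := by exact_mod_cast hn8
  have hn0 : (0 : ℝ) < n := by linarith
  have hlog1 : 1 ≤ Real.log n := by
    rw [Real.le_log_iff_exp_le hn0]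
    have := Real.exp_one_lt_d9
    linarith
  have hT : 0 < T0 n := by unfold T0; positivity
  set l : Eu n → List (Finset (Fin N)) := fun x =>
    ((Y.filter (fun w => ‖x - w‖ ≤ 1)).toList).map (fun w => Cs z (x - w)) with hl
  set F : Eu n → Finset (Eu n) := fun x => Y.filter (fun w => ‖x - w‖ ≤ 1) with hF
  have hFY : ∀ x w, w ∈ F x ↔ w ∈ Y ∧ ‖x - w‖ ≤ 1 := fun x w => by
    rw [hF]; exact Finset.mem_filter
  have hlmem : ∀ x C, C ∈ l x ↔ ∃ w ∈ F x, Cs z (x - w) = C := by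
    intro x C
    simp only [hl, hF, List.mem_map, Finset.mem_toList]
  have hDF : ∀ g, ∀ x ∈ X g, ∀ w ∈ F x, x - w ∈ D := fun g x hx w hw =>
    hD g x hx w ((hFY x w).1 hw).1 ((hFY x w).1 hw).2
  have hne : ∀ g, ∀ x ∈ X g, ∀ w ∈ F x, 0 < ((Cs z (x - w)).card : ℝ) := by
    intro g x hx w hw
    have h1 := hd2 _ (hDF g x hx w hw)
    have h2 : 0 < q * ((Cs z (x - w)).card : ℝ) := lt_of_lt_of_le (by positivity) h1
    exact (mul_pos_iff_of_pos_left hq).1 h2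
  have hsumF : ∀ g, ∀ x ∈ X g, ∑ w ∈ F x, ff n 0 (x - w) ≤ T0 n := by
    intro g x hx
    refine le_trans ?_ (hX1 g x hx).2.1
    refine Finset.sum_le_sum_of_subset_of_nonneg (Finset.filter_subset _ _) fun w _ _ =>
      ff_nonneg n 0 _
  have hcardF : ∀ g, ∀ x ∈ X g, ((F x).card : ℝ) ≤ T0 n := by
    intro g x hx
    refine le_trans ?_ (hsumF g x hx)
    have h1 : ∑ w ∈ F x, (1 : ℝ) ≤ ∑ w ∈ F x, ff n 0 (x - w) :=
      Finset.sum_le_sum fun w hw => (ff_ge (by omega) (x - w) ((hFY x w).1 hw).2).1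
    simpa using h1
  have hmain := clusters_fail q hq hq1 (7 ^ n) X l ?_ (Real.exp (n * Real.log n / 8)) ?_ ?_ ?_ ?_ ?_
  · refine le_trans (PZ_mono q hq.le hq1 fun Z h => ?_) hmain
    intro g x hx
    obtain ⟨w, hw, hw1, hw2⟩ := h g x hx
    refine ⟨Cs z (x - w), (hlmem x _).2 ⟨w, (hFY x w).2 ⟨hw, hw1⟩, rfl⟩, ?_⟩
    rw [Finset.eq_empty_iff_forall_notMem]
    intro i hi
    rw [Finset.mem_inter] at hi
    unfold Cs at hi
    exact hw2 i hi.1 (Finset.mem_filter.1 hi.2).2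
  · intro g x hx C hC
    obtain ⟨w, hw, rfl⟩ := (hlmem x C).1 hC
    have h1 := hne g x hx w hw
    exact Finset.card_pos.1 (by exact_mod_cast h1)
  · intro g x hx
    have h1 : ((l x).map (fun C => (1 + (q * (C.card : ℝ))⁻¹) ^ 2 *
        Real.exp (3 * q * (C.card : ℝ)))).prod =
        ∏ w ∈ F x, ((1 + (q * ((Cs z (x - w)).card : ℝ))⁻¹) ^ 2 *
          Real.exp (3 * q * ((Cs z (x - w)).card : ℝ))) := by
      rw [hl, List.map_map, ← Finset.prod_map_toList]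
      rfl
    rw [h1]
    have h2 : ∏ w ∈ F x, ((1 + (q * ((Cs z (x - w)).card : ℝ))⁻¹) ^ 2 *
          Real.exp (3 * q * ((Cs z (x - w)).card : ℝ))) ≤
        ∏ w ∈ F x, Real.exp (2 ^ 23 * ff n 0 (x - w)) := by
      refine Finset.prod_le_prod (fun w _ => by positivity) fun w hw => ?_
      have h3 := diag_num (n := n) (by omega) (x - w) ((hFY x w).1 hw).2
        (q * ((Cs z (x - w)).card : ℝ)) (hd2 _ (hDF g x hx w hw)) (hd1 _ (hDF g x hx w hw))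
      rw [← mul_assoc] at h3
      exact h3
    refine h2.trans ?_
    rw [← Real.exp_sum, ← Finset.mul_sum]
    refine Real.exp_le_exp.2 ?_
    calc (2 : ℝ) ^ 23 * ∑ w ∈ F x, ff n 0 (x - w) ≤ 2 ^ 23 * T0 n :=
          mul_le_mul_of_nonneg_left (hsumF g x hx) (by positivity)
      _ = n * Real.log n / 8 := by unfold T0; ring
  · intro g x hx x' hx' hxx
    have h1 : ((l x).map (fun C => ((l x').map (fun C' =>
        ((C ∩ C').card : ℝ) / (q * (C.card : ℝ) * (C'.card : ℝ)))).sum)).sum =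
        ∑ w ∈ F x, ∑ w' ∈ F x', ((Cs z (x - w) ∩ Cs z (x' - w')).card : ℝ) /
          (q * ((Cs z (x - w)).card : ℝ) * ((Cs z (x' - w')).card : ℝ)) := by
      rw [hl, List.map_map, ← Finset.sum_map_toList]
      congr 1
      refine List.map_congr_left fun w _ => ?_
      simp only [Function.comp_apply]
      rw [List.map_map, ← Finset.sum_map_toList]
      rfl
    rw [h1]
    have h2 : ∀ w ∈ F x, ∀ w' ∈ F x', ((Cs z (x - w) ∩ Cs z (x' - w')).card : ℝ) /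
          (q * ((Cs z (x - w)).card : ℝ) * ((Cs z (x' - w')).card : ℝ)) ≤ 2 / 5 / T0 n ^ 2 := by
      intro w hw w' hw'
      have hu := hDF g x hx w hw
      have hu' := hDF g x' hx' w' hw'
      have h3 := hoffn n hn1 (x - w) (x' - w') (q * ((Cs z (x - w)).card : ℝ))
        (q * ((Cs z (x' - w')).card : ℝ))
        (q * ((Cs z (x - w) ∩ Cs z (x' - w')).card : ℝ))
        ((hX1 g x hx).2.2 w ((hFY x w).1 hw).1) ((hFY x w).1 hw).2
        ((hX1 g x' hx').2.2 w' ((hFY x' w').1 hw').1) ((hFY x' w').1 hw').2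
        (hX3 g x hx x' hx' hxx w ((hFY x w).1 hw).1 w' ((hFY x' w').1 hw').1)
        (hd2 _ hu) (hd2 _ hu') (by positivity) (hd3 _ hu _ hu')
      refine le_trans (le_of_eq ?_) h3
      have e1 := (hne g x hx w hw).ne'
      have e2 := (hne g x' hx' w' hw').ne'
      have e3 := hq.ne'
      field_simp
    calc ∑ w ∈ F x, ∑ w' ∈ F x', ((Cs z (x - w) ∩ Cs z (x' - w')).card : ℝ) /
          (q * ((Cs z (x - w)).card : ℝ) * ((Cs z (x' - w')).card : ℝ))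
        ≤ ∑ w ∈ F x, ∑ w' ∈ F x', 2 / 5 / T0 n ^ 2 :=
          Finset.sum_le_sum fun w hw => Finset.sum_le_sum fun w' hw' => h2 w hw w' hw'
      _ = ((F x).card : ℝ) * ((F x').card : ℝ) * (2 / 5 / T0 n ^ 2) := by
          rw [Finset.sum_const, Finset.sum_const, nsmul_eq_mul, nsmul_eq_mul]; ring
      _ ≤ T0 n * T0 n * (2 / 5 / T0 n ^ 2) := by
          refine mul_le_mul_of_nonneg_right ?_ (by positivity)
          exact mul_le_mul (hcardF g x hx) (hcardF g x' hx') (Nat.cast_nonneg _) hT.le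
      _ = 2 / 5 := by
          field_simp
  · intro g g' hgg x hx x' hx' C hC C' hC'
    obtain ⟨w, hw, rfl⟩ := (hlmem x C).1 hC
    obtain ⟨w', hw', rfl⟩ := (hlmem x' C').1 hC'
    exact hd4 _ (hDF g x hx w hw) _ (hDF g' x' hx' w' hw')
      (hX4 g g' hgg x hx x' hx' w ((hFY x w).1 hw).1 w' ((hFY x' w').1 hw').1)
  · intro g
    refine le_trans ?_ (hX2 g)
    have h1 : Real.exp (n * Real.log n / 4) =
        Real.exp (n * Real.log n / 8) * Real.exp (n * Real.log n / 8) := by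
      rw [← Real.exp_add]; congr 1; ring
    rw [h1]
    refine mul_le_mul_of_nonneg_right ?_ (Real.exp_pos _).le
    have h2 : 1 ≤ n * Real.log n / 8 := by
      rw [le_div_iff₀ (by norm_num)]
      nlinarith
    have h3 := Real.add_one_le_exp (n * Real.log n / 8)
    linarith
  · intro g
    have h1 : (0 : ℝ) < ((X g).card : ℝ) := lt_of_lt_of_le (Real.exp_pos _) (hX2 g)
    exact Finset.card_pos.1 (by exact_mod_cast h1)

/-- The core theorem: choose clusters for all `Y ∈ YY n` (`exists_clusters`), let `D` be the finite set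
of all differences `x - w` with `‖x - w‖ ≤ 1` (these have `1 - th n < ‖x - w‖`, `th n ≤ 2^{-22}`), take the
sample of `cap_sample`, and apply `exists_good` with `S = YY n` (`config_fail`, `card_YY_lt`) and
`v Z = vol (B \ body)`, `a = bv n`. -/
theorem core : ∃ n₀ : ℕ, ∀ n : ℕ, n₀ ≤ n → ∃ Z : Finset (Eu n), (∀ z ∈ Z, ‖z‖ ≤ 1) ∧
    bv n / 2 ≤ (volume (body (Z : Set (Eu n)))).toReal ∧
    ∀ Y ∈ YY n, ∃ x : Eu n, ‖x‖ ≤ 2 ∧ ∀ w ∈ Y, x - w ∉ body (Z : Set (Eu n)) := by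
  classical
  obtain ⟨n₁, hclus⟩ := exists_clusters
  obtain ⟨n₂, hconf⟩ := config_fail
  obtain ⟨n₃, hcard⟩ := card_YY_lt
  have hth : ∃ n₄ : ℕ, ∀ n : ℕ, n₄ ≤ n → th n ≤ 1 / 2 ^ 22 := by
    have h1 : Tendsto (fun x : ℝ => Real.log x / x) atTop (nhds 0) := by
      have := Real.isLittleO_log_id_atTop.tendsto_div_nhds_zero
      exact this
    have h2 : Tendsto (fun n : ℕ => Real.log (n : ℝ) / (n : ℝ)) atTop (nhds 0) :=
      h1.comp tendsto_natCast_atTop_atTop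
    have h3 := (tendsto_order.1 h2).2 (1 / (3 * 2 ^ 22)) (by positivity)
    obtain ⟨n₄, h4⟩ := eventually_atTop.1 h3
    refine ⟨n₄, fun n hn => ?_⟩
    have h5 := h4 n hn
    unfold th
    rw [mul_div_assoc]
    linarith
  obtain ⟨n₄, hth⟩ := hth
  refine ⟨n₁ + n₂ + n₃ + n₄ + 2, fun n hn => ?_⟩
  have hn1 : n₁ ≤ n := by omega
  have hn2 : n₂ ≤ n := by omega
  have hn3 : n₃ ≤ n := by omega
  have hn4 : n₄ ≤ n := by omega
  have hn5 : 2 ≤ n := by omega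
  choose X hX using hclus n hn1
  -- the finite set of all differences
  set D : Finset (Eu n) := ((YY n).attach.biUnion fun Y =>
    Finset.univ.biUnion fun g => (X Y.1 Y.2 g).biUnion fun x => Y.1.image fun w => x - w).filter
      (fun u => ‖u‖ ≤ 1) with hD
  have hDm : ∀ Y (hY : Y ∈ YY n), ∀ g, ∀ x ∈ X Y hY g, ∀ w ∈ Y, ‖x - w‖ ≤ 1 → x - w ∈ D := by
    intro Y hY g x hx w hw h1
    rw [hD, Finset.mem_filter]
    refine ⟨?_, h1⟩
    simp only [Finset.mem_biUnion, Finset.mem_attach, Finset.mem_univ, true_and,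
      Finset.mem_image, Subtype.exists]
    exact ⟨Y, hY, g, x, hx, w, hw, rfl⟩
  have hDb : ∀ u ∈ D, ‖u‖ ≤ 1 ∧ 1 - 1 / 2 ^ 22 ≤ ‖u‖ := by
    intro u hu
    rw [hD, Finset.mem_filter] at hu
    obtain ⟨h1, h2⟩ := hu
    simp only [Finset.mem_biUnion, Finset.mem_attach, Finset.mem_univ, true_and,
      Finset.mem_image, Subtype.exists] at h1
    obtain ⟨Y, hY, g, x, hx, w, hw, rfl⟩ := h1
    refine ⟨h2, ?_⟩
    have h3 := ((hX Y hY).1 g x hx).2.2 w hw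
    have h4 := hth n hn4
    linarith
  obtain ⟨N, z, q, hq, hq1, hz, c1, c2, c3, c4, c5⟩ := cap_sample n hn5 D hDb
  have hbv : 0 < bv n := by
    unfold bv
    refine ENNReal.toReal_pos ?_ ?_
    · exact (measure_closedBall_pos volume (0 : Eu n) one_pos).ne'
    · exact measure_closedBall_lt_top.ne
  set bad : Finset (Eu n) → Finset (Fin N) → Prop := fun Y Z =>
    ∃ hY : Y ∈ YY n, ∀ g, ∀ x ∈ X Y hY g, ∃ w ∈ Y, ‖x - w‖ ≤ 1 ∧
      ∀ i ∈ Z, ¬ (al < inner ℝ (x - w) (z i)) with hbad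
  have hbadp : ∀ Y ∈ YY n, PZ q (bad Y) ≤ (1 / 2) ^ (7 ^ n) := by
    intro Y hY
    refine le_trans (PZ_mono q hq.le hq1 fun Z h => ?_)
      (hconf n hn2 Y (X Y hY) (hX Y hY).1 (hX Y hY).2.1 (hX Y hY).2.2.1 (hX Y hY).2.2.2 D
        (hDm Y hY) N z q hq hq1 hz c1 c2 c3 c4)
    obtain ⟨_, h2⟩ := h
    exact h2
  have hsum : ∑ Y ∈ YY n, PZ q (bad Y) < 1 / 2 := by
    refine lt_of_le_of_lt (Finset.sum_le_sum hbadp) ?_
    rw [Finset.sum_const, nsmul_eq_mul]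
    exact hcard n hn3
  obtain ⟨Z, hZ1, hZ2⟩ := exists_good q hq.le hq1 (YY n) bad hsum
    (fun Z : Finset (Fin N) =>
      (volume (closedBall (0 : Eu n) 1 \ body (z '' (Z : Set (Fin N))))).toReal)
    (fun _ => ENNReal.toReal_nonneg) (bv n) hbv c5
  refine ⟨Z.image z, ?_, ?_, ?_⟩
  · intro x hx
    obtain ⟨i, _, rfl⟩ := Finset.mem_image.1 hx
    exact hz i
  · rw [Finset.coe_image]
    set S : Set (Eu n) := body (z '' (Z : Set (Fin N))) with hS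
    have h1 : closedBall (0 : Eu n) 1 ⊆ (closedBall (0 : Eu n) 1 \ S) ∪ S := by
      intro x hx
      by_cases h : x ∈ S
      · exact Or.inr h
      · exact Or.inl ⟨hx, h⟩
    have hSs : S ⊆ closedBall (0 : Eu n) 1 := by
      intro x hx
      rw [mem_closedBall_zero_iff]
      exact hx.1
    have hfin1 : volume (closedBall (0 : Eu n) 1 \ S) ≠ ⊤ :=
      ((measure_mono Set.sdiff_subset).trans_lt measure_closedBall_lt_top).ne
    have hfin2 : volume S ≠ ⊤ := ((measure_mono hSs).trans_lt measure_closedBall_lt_top).ne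
    have h2 : volume (closedBall (0 : Eu n) 1) ≤
        volume (closedBall (0 : Eu n) 1 \ S) + volume S :=
      (measure_mono h1).trans (measure_union_le _ _)
    have h3 : bv n ≤ (volume (closedBall (0 : Eu n) 1 \ S)).toReal + (volume S).toReal := by
      unfold bv
      rw [← ENNReal.toReal_add hfin1 hfin2]
      exact ENNReal.toReal_mono (ENNReal.add_ne_top.2 ⟨hfin1, hfin2⟩) h2
    linarith
  · intro Y hY
    have h1 := hZ2 Y hY
    rw [hbad] at h1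
    simp only [not_exists] at h1
    have h2 := h1 hY
    push Not at h2
    obtain ⟨g, x, hx, h3⟩ := h2
    refine ⟨x, ?_, ?_⟩
    · have := ((hX Y hY).1 g x hx).1
      linarith
    · intro w hw hbody
      rw [Finset.coe_image] at hbody
      obtain ⟨i, hi, hi2⟩ := h3 w hw hbody.1
      have h4 := hbody.2 (z i) ⟨i, hi, rfl⟩
      have h5 := le_abs_self (inner ℝ (x - w) (z i))
      linarith

end Crest.Agent.CD
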