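import Mathlib

/-!
# S0348: definitions (owner helper11; prefix CD_)

Lower bound for translative covering densities: there is a centrally symmetric convex body in
`ℝ^n` every translative covering of which has density `≥ c n log n`.
Paper proof: notes rid = S0347 (helper5, notes 900 and 1032).
-/

set_option autoImplicit false
open MeasureTheory Metric
open scoped ENNReal

namespace Crest.Agent.CD

/-! ## Finite probability: a random subset `Z` of a finite type `ι`, each element kept
independently with probability `q`. -/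

section FiniteProb

variable {ι : Type} [Fintype ι] [DecidableEq ι]

/-- Expectation of `f Z`, `Z` a Bernoulli(`q`) random subset of `ι`. -/
noncomputable def EZ (q : ℝ) (f : Finset ι → ℝ) : ℝ :=
  ∑ Z : Finset ι, q ^ Z.card * (1 - q) ^ (Fintype.card ι - Z.card) * f Z

open Classical in
/-- Probability of an event. -/
noncomputable def PZ (q : ℝ) (p : Finset ι → Prop) : ℝ :=
  EZ q (fun Z => if p Z then 1 else 0)

end FiniteProb

section Sequential

variable {ι : Type} [DecidableEq ι]

/-- The sequential procedure: run through the list of sets; whenever the current set `T` does not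
meet the set `C`, add to `T` a uniformly random element of `C`. `Ex l T φ` is the expected value of
`φ` at the final set, starting from `T`. -/
noncomputable def Ex : List (Finset ι) → Finset ι → (Finset ι → ℝ) → ℝ
  | [], T, φ => φ T
  | C :: l, T, φ =>
      if (T ∩ C).Nonempty then Ex l T φ
      else (C.card : ℝ)⁻¹ * ∑ z ∈ C, Ex l (insert z T) φ

/-- The likelihood ratio of the planted model. -/
noncomputable def LL (q : ℝ) (l : List (Finset ι)) (Z : Finset ι) : ℝ :=
  Ex l ∅ (fun T => if T ⊆ Z then (q ^ T.card)⁻¹ else 0)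

/-- The weight `w(z) = ∑_{C ∈ l, z ∈ C} 1 / |C|`. -/
noncomputable def ww (l : List (Finset ι)) (z : ι) : ℝ :=
  (l.map (fun C => if z ∈ C then (C.card : ℝ)⁻¹ else 0)).sum

end Sequential

/-! ## Geometry -/

/-- Euclidean space. -/
abbrev Eu (n : ℕ) : Type := EuclideanSpace ℝ (Fin n)

/-- `α = √(1 - 2^{-18})`, so that `2 √(1 - α²) = 1/256`. -/
noncomputable def al : ℝ := Real.sqrt (1 - 1 / 262144)

/-- The set of unit-ball normals `z` with `⟨u, z⟩ > t`. -/
def capt {n : ℕ} (t : ℝ) (u : Eu n) : Set (Eu n) := {z | ‖z‖ ≤ 1 ∧ t < inner ℝ u z}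

/-- Volume of the unit ball, as a real number. -/
noncomputable def bv (n : ℕ) : ℝ := (volume (closedBall (0 : Eu n) 1)).toReal

/-- The body cut out of the unit ball by the slabs `|⟨x, z⟩| ≤ α`, `z ∈ Z`. -/
def body {n : ℕ} (Z : Set (Eu n)) : Set (Eu n) := {x | ‖x‖ ≤ 1 ∧ ∀ z ∈ Z, |inner ℝ x z| ≤ al}

/-- (generates the unfolding lemma in this module) -/
theorem body_def' {n : ℕ} (Z : Set (Eu n)) :
    body Z = {x | ‖x‖ ≤ 1 ∧ ∀ z ∈ Z, |inner ℝ x z| ≤ al} := by rw [body]

theorem body_def'' {n : ℕ} (Z : Set (Eu n)) :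
    body Z = {x | ‖x‖ ≤ 1 ∧ ∀ z ∈ Z, |inner ℝ x z| ≤ al} := by
  unfold body
  rfl

/-- `f(u) = #{k ≤ n : ‖u‖ ≤ 1 + d - k/n}` (`d = 0` or a small rounding error). -/
noncomputable def ff (n : ℕ) (d : ℝ) (u : Eu n) : ℝ :=
  ∑ k ∈ Finset.range (n + 1), (if ‖u‖ ≤ 1 + d - (k : ℝ) / n then (1 : ℝ) else 0)

/-- Threshold for the weighted number of translates near a test point. -/
noncomputable def T0 (n : ℕ) : ℝ := n * Real.log n / 2 ^ 26

/-- Depth below which a translate is not allowed near a test point. -/
noncomputable def th (n : ℕ) : ℝ := 3 * Real.log n / n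

/-- Separation of the test points inside a cluster. -/
noncomputable def s0 (n : ℕ) : ℝ := 2 ^ 13 * Real.sqrt (Real.log n / n)

/-- The good test points of a finite configuration `Y` of translates. -/
def Good (n : ℕ) (Y : Finset (Eu n)) : Set (Eu n) :=
  {x | ∑ w ∈ Y, ff n 0 (x - w) ≤ T0 n ∧ ∀ w ∈ Y, 1 - th n < ‖x - w‖}

/-- Points `x₀` around which at least half of the points at distance `≤ 1/512` are good. -/
def Good' (n : ℕ) (Y : Finset (Eu n)) : Set (Eu n) :=
  {x₀ | ‖x₀‖ ≤ 1 ∧ volume (closedBall (0 : Eu n) (1 / 512)) / 2 ≤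
    volume {e : Eu n | ‖e‖ ≤ 1 / 512 ∧ x₀ + e ∈ Good n Y}}

/-- The grid `n^{-2} ℤ^n` in the cube of half side `4`. -/
noncomputable def Gam (n : ℕ) : Finset (Eu n) := by
  classical
  exact (Fintype.piFinset (fun _ : Fin n =>
    Finset.Icc (-(4 * (n : ℤ) ^ 2) : ℤ) (4 * (n : ℤ) ^ 2))).image
    (fun k : Fin n → ℤ => (WithLp.toLp 2 (fun i => ((k i : ℤ) : ℝ) / (n : ℝ) ^ 2) : Eu n))

/-- The dangerous configurations: at most `4^n` grid points, and for at least half of the
`x₀` in the unit ball at least half of the nearby points are good test points. -/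
noncomputable def YY (n : ℕ) : Finset (Finset (Eu n)) := by
  classical
  exact (Gam n).powerset.filter (fun Y => Y.card ≤ 4 ^ n ∧
    volume (closedBall (0 : Eu n) 1) / 2 ≤ volume (Good' n Y))

end Crest.Agent.CD
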