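import Crest.Agent.CD_Defs

/-!
# CD-Ex1: basic facts on the sequential procedure `Ex`
All by induction on the list, `T` general (unfold `Ex`, `split_ifs`).
-/

set_option autoImplicit false

namespace Crest.Agent.CD

variable {ι : Type} [DecidableEq ι]

theorem Ex_mono (l : List (Finset ι)) (T : Finset ι) {φ ψ : Finset ι → ℝ}
    (h : ∀ T', φ T' ≤ ψ T') : Ex l T φ ≤ Ex l T ψ := by
  induction l generalizing T with
  | nil => exact h T
  | cons C l ih =>
    simp only [Ex]
    split_ifs
    · exact ih T
    · exact mul_le_mul_of_nonneg_left (Finset.sum_le_sum fun z _ => ih _)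
        (inv_nonneg.2 (Nat.cast_nonneg _))

theorem Ex_nonneg (l : List (Finset ι)) (T : Finset ι) {φ : Finset ι → ℝ}
    (h : ∀ T', 0 ≤ φ T') : 0 ≤ Ex l T φ := by
  induction l generalizing T with
  | nil => exact h T
  | cons C l ih =>
    simp only [Ex]
    split_ifs
    · exact ih T
    · exact mul_nonneg (inv_nonneg.2 (Nat.cast_nonneg _)) (Finset.sum_nonneg fun z _ => ih _)

theorem Ex_const (l : List (Finset ι)) (hl : ∀ C ∈ l, C.Nonempty) (T : Finset ι) (c : ℝ) :
    Ex l T (fun _ => c) = c := by
  induction l generalizing T with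
  | nil => rfl
  | cons C l ih =>
    have ih' := ih (fun C' hC' => hl C' (List.mem_cons_of_mem _ hC'))
    simp only [Ex]
    split_ifs
    · exact ih' T
    · rw [Finset.sum_congr rfl (fun z _ => ih' _), Finset.sum_const, nsmul_eq_mul, ← mul_assoc,
        inv_mul_cancel₀, one_mul]
      have h1 : 0 < C.card := (hl C List.mem_cons_self).card_pos
      exact_mod_cast h1.ne'

theorem Ex_add (l : List (Finset ι)) (T : Finset ι) (φ ψ : Finset ι → ℝ) :
    Ex l T (fun T' => φ T' + ψ T') = Ex l T φ + Ex l T ψ := by
  induction l generalizing T with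
  | nil => rfl
  | cons C l ih =>
    simp only [Ex]
    split_ifs
    · exact ih T
    · rw [Finset.sum_congr rfl (fun z _ => ih _), Finset.sum_add_distrib, mul_add]

theorem Ex_mul (l : List (Finset ι)) (T : Finset ι) (c : ℝ) (φ : Finset ι → ℝ) :
    Ex l T (fun T' => c * φ T') = c * Ex l T φ := by
  induction l generalizing T with
  | nil => rfl
  | cons C l ih =>
    simp only [Ex]
    split_ifs
    · exact ih T
    · rw [Finset.sum_congr rfl (fun z _ => ih _), ← Finset.mul_sum, mul_left_comm]

theorem Ex_sum {κ : Type} (s : Finset κ) (l : List (Finset ι)) (T : Finset ι)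
    (φ : κ → Finset ι → ℝ) :
    Ex l T (fun T' => ∑ k ∈ s, φ k T') = ∑ k ∈ s, Ex l T (φ k) := by
  induction l generalizing T with
  | nil => rfl
  | cons C l ih =>
    simp only [Ex]
    split_ifs
    · exact ih T
    · rw [Finset.sum_congr rfl (fun z _ => ih _), Finset.sum_comm, Finset.mul_sum]

theorem Ex_append (l l' : List (Finset ι)) (T : Finset ι) (φ : Finset ι → ℝ) :
    Ex (l ++ l') T φ = Ex l T (fun T' => Ex l' T' φ) := by
  induction l generalizing T with
  | nil => rfl
  | cons C l ih =>
    simp only [Ex, List.cons_append]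
    split_ifs
    · exact ih T
    · rw [Finset.sum_congr rfl (fun z _ => ih _)]

/-- Only final sets `T'` which contain `T`, meet every `C ∈ l` and consist of elements of `T` and
of the sets of `l` matter. -/
theorem Ex_congr (l : List (Finset ι)) (T : Finset ι) {φ ψ : Finset ι → ℝ}
    (h : ∀ T', T ⊆ T' → (∀ C ∈ l, (T' ∩ C).Nonempty) →
      (∀ z ∈ T', z ∈ T ∨ ∃ C ∈ l, z ∈ C) → φ T' = ψ T') :
    Ex l T φ = Ex l T ψ := by
  induction l generalizing T with
  | nil => exact h T (Finset.Subset.refl T) (by simp) (fun z hz => Or.inl hz)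
  | cons C l ih =>
    simp only [Ex]
    split_ifs with hTC
    · refine ih T fun T' h1 h2 h3 => h T' h1 ?_ ?_
      · intro C' hC'
        rcases List.mem_cons.1 hC' with rfl | hC'
        · obtain ⟨z, hz⟩ := hTC
          rw [Finset.mem_inter] at hz
          exact ⟨z, Finset.mem_inter.2 ⟨h1 hz.1, hz.2⟩⟩
        · exact h2 C' hC'
      · intro z hz
        rcases h3 z hz with h4 | ⟨C', hC', h4⟩
        · exact Or.inl h4
        · exact Or.inr ⟨C', List.mem_cons_of_mem _ hC', h4⟩
    · congr 1
      refine Finset.sum_congr rfl fun z hz => ih _ fun T' h1 h2 h3 => h T' ?_ ?_ ?_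
      · exact (Finset.subset_insert z T).trans h1
      · intro C' hC'
        rcases List.mem_cons.1 hC' with rfl | hC'
        · exact ⟨z, Finset.mem_inter.2 ⟨h1 (Finset.mem_insert_self z T), hz⟩⟩
        · exact h2 C' hC'
      · intro z' hz'
        rcases h3 z' hz' with h4 | ⟨C', hC', h4⟩
        · rcases Finset.mem_insert.1 h4 with rfl | h5
          · exact Or.inr ⟨C, List.mem_cons_self, hz⟩
          · exact Or.inl h5
        · exact Or.inr ⟨C', List.mem_cons_of_mem _ hC', h4⟩

end Crest.Agent.CD
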