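import Crest.Agent.CD_Ex1

/-!
# CD-Ex2: `P(U ⊆ T) ≤ ∏_{z ∈ U} w(z)`
-/

set_option autoImplicit false

namespace Crest.Agent.CD

variable {ι : Type} [DecidableEq ι]

theorem ww_nonneg (l : List (Finset ι)) (z : ι) : 0 ≤ ww l z := by
  unfold ww
  refine List.sum_nonneg fun x hx => ?_
  obtain ⟨C, -, rfl⟩ := List.mem_map.1 hx
  split_ifs
  · positivity
  · exact le_refl _

private theorem ww_nil (z : ι) : ww ([] : List (Finset ι)) z = 0 := by
  simp [ww]

private theorem ww_cons (C : Finset ι) (l : List (Finset ι)) (z : ι) :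
    ww (C :: l) z = ww l z + (if z ∈ C then (C.card : ℝ)⁻¹ else 0) := by
  simp [ww, add_comm]

private theorem prod_add_ge (a b : ι → ℝ) (ha : ∀ z, 0 ≤ a z) (hb : ∀ z, 0 ≤ b z)
    (s : Finset ι) : ∏ z ∈ s, a z + ∑ z ∈ s, b z * ∏ y ∈ s.erase z, a y ≤
      ∏ z ∈ s, (a z + b z) := by
  induction s using Finset.induction_on with
  | empty => simp
  | insert x s hx ih =>
    rw [Finset.prod_insert hx, Finset.prod_insert hx, Finset.sum_insert hx,
      Finset.erase_insert hx]
    have h1 : ∑ z ∈ s, b z * ∏ y ∈ (insert x s).erase z, a y =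
        a x * ∑ z ∈ s, b z * ∏ y ∈ s.erase z, a y := by
      rw [Finset.mul_sum]
      refine Finset.sum_congr rfl fun z hz => ?_
      have hne : x ≠ z := fun h => hx (h ▸ hz)
      rw [Finset.erase_insert_of_ne hne, Finset.prod_insert (fun h => hx (Finset.mem_of_mem_erase h))]
      ring
    rw [h1]
    have h2 : ∏ z ∈ s, a z ≤ ∏ z ∈ s, (a z + b z) :=
      Finset.prod_le_prod (fun z _ => ha z) (fun z _ => by linarith [hb z])
    have h3 := mul_le_mul_of_nonneg_left ih (ha x)
    have h4 := mul_le_mul_of_nonneg_left h2 (hb x)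
    nlinarith

/-- Proof. Induction on `l`, statement for general `T`: put `U' = U \ T`.
`l = []`: if `U ⊆ T` both sides are `1` (`U' = ∅`), else the left side is `0`.
`C :: l`, `T ∩ C ≠ ∅`: induction hypothesis and `ww l z ≤ ww (C :: l) z`.
`T ∩ C = ∅`: left side `≤ |C|⁻¹ ∑_{z ∈ C} ∏_{U \ insert z T} ww l`; for `z ∉ U'` the product is
`∏_{U'} ww l`, for `z ∈ U'` it is `∏_{U'.erase z} ww l`; so it is
`≤ ∏_{U'} ww l + ∑_{z ∈ U' ∩ C} |C|⁻¹ ∏_{U'.erase z} ww l ≤ ∏_{z ∈ U'} (ww l z + [z ∈ C] |C|⁻¹)`,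
the last step by expanding the product (`Finset.prod_add` keeping the terms with at most one
factor of the second kind, or a small induction on `U'`). -/
theorem Ex_subset_le' (l : List (Finset ι)) (T U : Finset ι) :
    Ex l T (fun T' => if U ⊆ T' then (1 : ℝ) else 0) ≤ ∏ z ∈ U \ T, ww l z := by
  induction l generalizing T with
  | nil =>
    show (if U ⊆ T then (1 : ℝ) else 0) ≤ _
    split_ifs with h
    · rw [Finset.sdiff_eq_empty_iff_subset.2 h, Finset.prod_empty]
    · exact Finset.prod_nonneg fun z _ => ww_nonneg _ z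
  | cons C l ih =>
    have hb0 : ∀ z, (0 : ℝ) ≤ (if z ∈ C then (C.card : ℝ)⁻¹ else 0) := by
      intro z
      split_ifs
      · positivity
      · exact le_refl _
    simp only [Ex, ww_cons]
    split_ifs with h
    · refine (ih T).trans (Finset.prod_le_prod (fun z _ => ww_nonneg _ z) fun z _ => ?_)
      linarith [hb0 z]
    · refine le_trans ?_ (prod_add_ge (ww l) (fun z => if z ∈ C then (C.card : ℝ)⁻¹ else 0)
        (ww_nonneg l) hb0 (U \ T))
      set P := ∏ z ∈ U \ T, ww l z with hP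
      have hP0 : 0 ≤ P := Finset.prod_nonneg fun z _ => ww_nonneg _ z
      have hE0 : ∀ z, 0 ≤ ∏ y ∈ (U \ T).erase z, ww l y :=
        fun z => Finset.prod_nonneg fun z _ => ww_nonneg _ z
      have h1 : ∑ z ∈ C, Ex l (insert z T) (fun T' => if U ⊆ T' then (1 : ℝ) else 0) ≤
          ∑ z ∈ C, (P + if z ∈ U \ T then ∏ y ∈ (U \ T).erase z, ww l y else 0) := by
        refine Finset.sum_le_sum fun z _ => (ih (insert z T)).trans ?_
        have h2 : U \ insert z T = (U \ T).erase z := by
          ext y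
          simp only [Finset.mem_sdiff, Finset.mem_insert, Finset.mem_erase]
          tauto
        rw [h2]
        by_cases hz : z ∈ U \ T
        · rw [if_pos hz]; linarith
        · rw [if_neg hz, Finset.erase_eq_of_notMem hz, add_zero]
      have h3 : (C.card : ℝ)⁻¹ * ∑ z ∈ C, (P + if z ∈ U \ T then
          ∏ y ∈ (U \ T).erase z, ww l y else 0) ≤
          P + ∑ z ∈ U \ T, (if z ∈ C then (C.card : ℝ)⁻¹ else 0) *
            ∏ y ∈ (U \ T).erase z, ww l y := by
        rw [Finset.sum_add_distrib, Finset.sum_const, nsmul_eq_mul, mul_add, ← mul_assoc]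
        have h4 : (C.card : ℝ)⁻¹ * (C.card : ℝ) * P ≤ P := by
          rcases eq_or_ne (C.card : ℝ) 0 with h0 | h0
          · rw [h0, mul_zero, zero_mul]; exact hP0
          · rw [inv_mul_cancel₀ h0, one_mul]
        have h5 : (C.card : ℝ)⁻¹ * ∑ z ∈ C, (if z ∈ U \ T then
            ∏ y ∈ (U \ T).erase z, ww l y else 0) =
            ∑ z ∈ U \ T, (if z ∈ C then (C.card : ℝ)⁻¹ else 0) *
              ∏ y ∈ (U \ T).erase z, ww l y := by
          rw [Finset.sum_ite_mem, Finset.mul_sum]
          simp only [ite_mul, zero_mul]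
          rw [Finset.sum_ite_mem, Finset.inter_comm]
        rw [h5]
        linarith
      exact (mul_le_mul_of_nonneg_left h1 (by positivity)).trans h3

theorem Ex_subset_le (l : List (Finset ι)) (U : Finset ι) :
    Ex l ∅ (fun T' => if U ⊆ T' then (1 : ℝ) else 0) ≤ ∏ z ∈ U, ww l z := by
  simpa using Ex_subset_le' l ∅ U

/-- `∑_z w(z) w'(z) = ∑_{C ∈ l} ∑_{C' ∈ l'} |C ∩ C'| / (|C| |C'|)`. Induction on `l` and `l'`. -/
theorem sum_ww_mul [Fintype ι] (l l' : List (Finset ι)) :
    ∑ z : ι, ww l z * ww l' z =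
      (l.map (fun C => (l'.map (fun C' =>
        ((C ∩ C').card : ℝ) / ((C.card : ℝ) * (C'.card : ℝ)))).sum)).sum := by
  have inner : ∀ (C : Finset ι) (l' : List (Finset ι)),
      ∑ z : ι, (if z ∈ C then (C.card : ℝ)⁻¹ else 0) * ww l' z =
        (l'.map (fun C' => ((C ∩ C').card : ℝ) / ((C.card : ℝ) * (C'.card : ℝ)))).sum := by
    intro C l'
    induction l' with
    | nil => simp [ww_nil]
    | cons C' l' ih =>
      simp only [ww_cons, mul_add, Finset.sum_add_distrib, ih, List.map_cons, List.sum_cons]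
      have h1 : ∑ z : ι, (if z ∈ C then (C.card : ℝ)⁻¹ else 0) *
          (if z ∈ C' then (C'.card : ℝ)⁻¹ else 0) =
          ((C ∩ C').card : ℝ) / ((C.card : ℝ) * (C'.card : ℝ)) := by
        have h2 : ∀ z : ι, (if z ∈ C then (C.card : ℝ)⁻¹ else 0) *
            (if z ∈ C' then (C'.card : ℝ)⁻¹ else 0) =
            if z ∈ C ∩ C' then (C.card : ℝ)⁻¹ * (C'.card : ℝ)⁻¹ else 0 := by
          intro z
          by_cases h1 : z ∈ C <;> by_cases h2 : z ∈ C' <;> simp [h1, h2]
        simp only [h2]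
        rw [Finset.sum_ite_mem, Finset.univ_inter, Finset.sum_const, nsmul_eq_mul,
          div_eq_mul_inv, mul_inv]
      rw [h1, add_comm]
  induction l with
  | nil => simp [ww_nil]
  | cons C l ih =>
    simp only [ww_cons, add_mul, Finset.sum_add_distrib, ih, List.map_cons, List.sum_cons, inner]
    rw [add_comm]

end Crest.Agent.CD
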