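import Crest.Agent.CD_Ex1

/-!
# CD-Ex3: pointwise bound for the law of the final set and for the likelihood ratio
-/

set_option autoImplicit false

namespace Crest.Agent.CD

variable {ι : Type} [DecidableEq ι]

private theorem ex3_step (C F T : Finset ι) :
    Ex [C] T (fun T => if T = F then (1 : ℝ) else 0) ≤
      (if T = F then (1 : ℝ) else 0) +
        (if F.card = (F \ C).card + 1 then (C.card : ℝ)⁻¹ else 0) *
          (if T = F \ C then (1 : ℝ) else 0) := by
  have hC0 : (0 : ℝ) ≤ (C.card : ℝ)⁻¹ := by positivity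
  have h2 : (0 : ℝ) ≤ (if F.card = (F \ C).card + 1 then (C.card : ℝ)⁻¹ else 0) *
          (if T = F \ C then (1 : ℝ) else 0) := by
    apply mul_nonneg
    · split_ifs <;> simp
    · split_ifs <;> simp
  simp only [Ex]
  by_cases hTC : (T ∩ C).Nonempty
  · rw [if_pos hTC]; linarith
  · rw [if_neg hTC]
    have hdisj : ∀ z ∈ C, z ∉ T := fun z hz hzT => hTC ⟨z, Finset.mem_inter.2 ⟨hzT, hz⟩⟩
    have h1 : (0 : ℝ) ≤ (if T = F then (1 : ℝ) else 0) := by split_ifs <;> simp
    by_cases hex : ∃ z ∈ C, insert z T = F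
    · obtain ⟨z0, hz0, hF⟩ := hex
      have hTF : T = F \ C := by
        rw [← hF]
        ext y
        simp only [Finset.mem_sdiff, Finset.mem_insert]
        constructor
        · intro hy
          exact ⟨Or.inr hy, fun hyC => hdisj y hyC hy⟩
        · rintro ⟨rfl | hy, hyC⟩
          · exact absurd hz0 hyC
          · exact hy
      have hcard : F.card = (F \ C).card + 1 := by
        rw [← hTF, ← hF, Finset.card_insert_of_notMem (hdisj z0 hz0)]
      rw [if_pos hcard, if_pos hTF, mul_one]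
      have hs : ∑ z ∈ C, (if insert z T = F then (1 : ℝ) else 0) ≤
          ∑ z ∈ C, (if z = z0 then (1 : ℝ) else 0) := by
        apply Finset.sum_le_sum
        intro z hz
        by_cases hzF : insert z T = F
        · have : z = z0 := by
            have h3 : z ∈ insert z0 T := by rw [hF, ← hzF]; exact Finset.mem_insert_self z T
            rcases Finset.mem_insert.1 h3 with h | h
            · exact h
            · exact absurd h (hdisj z hz)
          rw [if_pos hzF, if_pos this]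
        · rw [if_neg hzF]; split_ifs <;> simp
      have hs2 : ∑ z ∈ C, (if z = z0 then (1 : ℝ) else 0) = 1 := by
        rw [Finset.sum_ite_eq' C z0 (fun _ => (1 : ℝ)), if_pos hz0]
      have := mul_le_mul_of_nonneg_left (hs.trans hs2.le) hC0
      linarith
    · have hs : ∑ z ∈ C, (if insert z T = F then (1 : ℝ) else 0) = 0 := by
        apply Finset.sum_eq_zero
        intro z hz
        rw [if_neg]
        intro h
        exact hex ⟨z, hz, h⟩
      rw [hs, mul_zero]
      linarith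

private theorem ex3_prod_pos (q : ℝ) (hq : 0 < q) (l : List (Finset ι)) :
    1 ≤ (l.map (fun C => 1 + (q * (C.card : ℝ))⁻¹)).prod := by
  induction l with
  | nil => simp
  | cons C l ih =>
    rw [List.map_cons, List.prod_cons]
    have h : (0 : ℝ) ≤ (q * (C.card : ℝ))⁻¹ := by positivity
    nlinarith

/-- Proof. Induction on `l` from the right (`List.reverseRecOn` / `List.reverseRec`; `Ex_append`):
`Ex (l ++ [C]) ∅ 1[· = F] = Ex l ∅ φ'` with
`φ'(T) = if (T ∩ C).Nonempty then 1[T = F] else |C|⁻¹ ∑_{z ∈ C} 1[insert z T = F]`.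
If `T ∩ C = ∅`, `z ∈ C`, `insert z T = F` then `F ∩ C = {z}`, `T = F \ C`, `|F| = |F \ C| + 1`, and `z`
is unique; so `φ'(T) ≤ 1[T = F] + |C|⁻¹ 1[T = F \ C]` in all cases and the second term is only
needed if `|F| = |F \ C| + 1` (else use `φ' T ≤ 1[T = F]`). Hence
`q^{-|F|} p(l ++ [C], F) ≤ q^{-|F|} p(l, F) + (q |C|)⁻¹ q^{-|F \ C|} p(l, F \ C)`
`≤ ∏_l (1 + (q|C'|)⁻¹) * (1 + (q |C|)⁻¹)`. -/
theorem Ex_eq_le (q : ℝ) (hq : 0 < q) (l : List (Finset ι)) (F : Finset ι) :
    (q ^ F.card)⁻¹ * Ex l ∅ (fun T => if T = F then (1 : ℝ) else 0) ≤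
      (l.map (fun C => 1 + (q * (C.card : ℝ))⁻¹)).prod := by
  induction l using List.reverseRecOn generalizing F with
  | nil =>
    simp only [Ex, List.map_nil, List.prod_nil]
    by_cases h : (∅ : Finset ι) = F
    · rw [if_pos h, ← h]; simp
    · rw [if_neg h]; simp
  | append_singleton l C ih =>
    rw [Ex_append, List.map_append, List.prod_append, List.map_cons, List.map_nil, List.prod_cons,
      List.prod_nil, mul_one]
    have h1 : Ex l ∅ (fun T' => Ex [C] T' (fun T => if T = F then (1 : ℝ) else 0)) ≤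
        Ex l ∅ (fun T => if T = F then (1 : ℝ) else 0) +
          (if F.card = (F \ C).card + 1 then (C.card : ℝ)⁻¹ else 0) *
            Ex l ∅ (fun T => if T = F \ C then (1 : ℝ) else 0) := by
      rw [← Ex_mul, ← Ex_add]
      exact Ex_mono l ∅ (fun T' => ex3_step C F T')
    have hqF : (0 : ℝ) < (q ^ F.card)⁻¹ := by positivity
    have h2 := mul_le_mul_of_nonneg_left h1 hqF.le
    refine h2.trans ?_
    have ihF := ih F
    have ihC := ih (F \ C)
    set P := (l.map (fun C => 1 + (q * (C.card : ℝ))⁻¹)).prod with hP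
    have hP1 : 1 ≤ P := ex3_prod_pos q hq l
    have hc : (0 : ℝ) ≤ (q * (C.card : ℝ))⁻¹ := by positivity
    by_cases hcard : F.card = (F \ C).card + 1
    · rw [if_pos hcard]
      have e : (q ^ F.card)⁻¹ * (Ex l ∅ (fun T => if T = F then (1 : ℝ) else 0) +
          (C.card : ℝ)⁻¹ * Ex l ∅ (fun T => if T = F \ C then (1 : ℝ) else 0)) =
          (q ^ F.card)⁻¹ * Ex l ∅ (fun T => if T = F then (1 : ℝ) else 0) +
          (q * (C.card : ℝ))⁻¹ * ((q ^ (F \ C).card)⁻¹ *
            Ex l ∅ (fun T => if T = F \ C then (1 : ℝ) else 0)) := by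
        have : (q ^ F.card)⁻¹ = q⁻¹ * (q ^ (F \ C).card)⁻¹ := by
          rw [hcard, pow_succ, mul_inv]; ring
        rw [mul_add, mul_inv]
        congr 1
        rw [this]; ring
      rw [e]
      have := mul_le_mul_of_nonneg_left ihC hc
      nlinarith
    · rw [if_neg hcard, zero_mul, add_zero]
      nlinarith

/-- Proof. `LL q l Z = Ex l ∅ (T ↦ ∑_{F ⊆ Z ∩ A} 1[T = F] q^{-|F|})` (`Ex_congr`: final sets are
contained in the union `A` of the sets of `l`), then `Ex_sum`, `Ex_mul`, `Ex_eq_le` and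
`#(powerset (Z ∩ A)) = 2 ^ |Z ∩ A|`. -/
theorem LL_le (q : ℝ) (hq : 0 < q) (l : List (Finset ι)) (A Z : Finset ι)
    (hA : ∀ C ∈ l, C ⊆ A) :
    LL q l Z ≤ 2 ^ (Z ∩ A).card * (l.map (fun C => 1 + (q * (C.card : ℝ))⁻¹)).prod := by
  have h1 : LL q l Z = Ex l ∅ (fun T => ∑ F ∈ (Z ∩ A).powerset,
      (q ^ F.card)⁻¹ * (if T = F then (1 : ℝ) else 0)) := by
    unfold LL
    refine Ex_congr l ∅ ?_
    intro T' _ _ hT'
    have hTA : T' ⊆ A := by
      intro z hz
      rcases hT' z hz with h | ⟨C, hC, hzC⟩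
      · simp at h
      · exact hA C hC hzC
    have h2 : ∀ F ∈ (Z ∩ A).powerset, (q ^ F.card)⁻¹ * (if T' = F then (1 : ℝ) else 0) =
        if F = T' then (q ^ T'.card)⁻¹ else 0 := by
      intro F _
      by_cases h : T' = F
      · rw [if_pos h, if_pos h.symm, h, mul_one]
      · rw [if_neg h, if_neg (fun h' => h h'.symm), mul_zero]
    rw [Finset.sum_congr rfl h2, Finset.sum_ite_eq' (Z ∩ A).powerset T' (fun _ => (q ^ T'.card)⁻¹)]
    by_cases hTZ : T' ⊆ Z
    · rw [if_pos hTZ, if_pos (Finset.mem_powerset.2 (Finset.subset_inter hTZ hTA))]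
    · rw [if_neg hTZ, if_neg]
      intro h
      exact hTZ ((Finset.mem_powerset.1 h).trans Finset.inter_subset_left)
  rw [h1, Ex_sum (Z ∩ A).powerset l ∅
    (fun F T => (q ^ F.card)⁻¹ * (if T = F then (1 : ℝ) else 0))]
  have h3 : ∀ F ∈ (Z ∩ A).powerset,
      Ex l ∅ (fun T => (q ^ F.card)⁻¹ * (if T = F then (1 : ℝ) else 0)) ≤
      (l.map (fun C => 1 + (q * (C.card : ℝ))⁻¹)).prod := by
    intro F _
    rw [Ex_mul]
    exact Ex_eq_le q hq l F
  refine (Finset.sum_le_sum h3).trans ?_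
  rw [Finset.sum_const, Finset.card_powerset, nsmul_eq_mul]
  push_cast
  exact le_refl _

theorem LL_nonneg (q : ℝ) (hq : 0 < q) (l : List (Finset ι)) (Z : Finset ι) :
    0 ≤ LL q l Z := by
  unfold LL
  refine Ex_nonneg l ∅ fun T' => ?_
  split_ifs
  · positivity
  · exact le_refl _

/-- If the likelihood ratio is nonzero then `Z` meets all sets (`Ex_congr`: otherwise the function
vanishes on all relevant final sets). -/
theorem LL_ne_zero (q : ℝ) (l : List (Finset ι)) (Z : Finset ι) (h : LL q l Z ≠ 0) :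
    ∀ C ∈ l, (Z ∩ C).Nonempty := by
  intro C hC
  by_contra hne
  apply h
  unfold LL
  have h1 : Ex l ∅ (fun T => if T ⊆ Z then (q ^ T.card)⁻¹ else 0) =
      Ex l ∅ (fun T => 0 * (1 : ℝ)) := by
    refine Ex_congr l ∅ ?_
    intro T' _ hmeet _
    rw [if_neg, zero_mul]
    intro hTZ
    obtain ⟨z, hz⟩ := hmeet C hC
    rw [Finset.mem_inter] at hz
    exact hne ⟨z, Finset.mem_inter.2 ⟨hTZ hz.1, hz.2⟩⟩
  rw [h1, Ex_mul l ∅ 0 (fun _ => (1 : ℝ)), zero_mul]

end Crest.Agent.CD
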