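import Crest.Agent.CD_Ex2
import Crest.Agent.CD_Ex3
import Crest.Agent.CD_EZ1

/-!
# CD-LL: first and second moments of the likelihood ratio
(`EZ` and `Ex` commute: `EZ q (Z ↦ Ex l T (φ Z)) = Ex l T (T' ↦ EZ q (Z ↦ φ Z T'))`, by induction on
the list or from `Ex_sum`.)
-/

set_option autoImplicit false

namespace Crest.Agent.CD

variable {ι : Type} [Fintype ι] [DecidableEq ι]

theorem EZ_Ex_comm (q : ℝ) (l : List (Finset ι)) (T : Finset ι)
    (φ : Finset ι → Finset ι → ℝ) :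
    EZ q (fun Z => Ex l T (φ Z)) = Ex l T (fun T' => EZ q (fun Z => φ Z T')) := by
  unfold EZ
  rw [Ex_sum Finset.univ l T
    (fun (Z : Finset ι) T' => q ^ Z.card * (1 - q) ^ (Fintype.card ι - Z.card) * φ Z T')]
  refine Finset.sum_congr rfl fun Z _ => ?_
  rw [Ex_mul l T (q ^ Z.card * (1 - q) ^ (Fintype.card ι - Z.card)) (φ Z)]

/-- `E L = Ex (T ↦ q^{-|T|} P(T ⊆ Z)) = Ex 1 = 1`. -/
theorem EZ_LL (q : ℝ) (hq : 0 < q) (l : List (Finset ι)) (hl : ∀ C ∈ l, C.Nonempty) :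
    EZ q (LL q l) = 1 := by
  have h1 : EZ q (LL q l) =
      EZ q (fun Z => Ex l ∅ ((fun (Z : Finset ι) (T : Finset ι) =>
        if T ⊆ Z then (q ^ T.card)⁻¹ else 0) Z)) := rfl
  rw [h1, EZ_Ex_comm]
  have h2 : (fun T' : Finset ι => EZ q (fun Z : Finset ι =>
      if T' ⊆ Z then (q ^ T'.card)⁻¹ else 0)) = fun _ => (1 : ℝ) := by
    funext T'
    have h3 : (fun Z : Finset ι => if T' ⊆ Z then (q ^ T'.card)⁻¹ else 0) =
        fun Z : Finset ι => (q ^ T'.card)⁻¹ * (if T' ⊆ Z then (1 : ℝ) else 0) := by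
      funext Z
      split_ifs <;> simp
    rw [h3, EZ_mul, EZ_subset, inv_mul_cancel₀ (pow_pos hq _).ne']
  rw [h2, Ex_const l hl]

/-- `E L L' = Ex_T Ex_{T'} q^{-|T| - |T'|} P(T ∪ T' ⊆ Z) = Ex_T Ex_{T'} q^{-|T ∩ T'|}`. -/
theorem EZ_LL_mul (q : ℝ) (hq : 0 < q) (l l' : List (Finset ι)) :
    EZ q (fun Z => LL q l Z * LL q l' Z) =
      Ex l ∅ (fun T => Ex l' ∅ (fun T' => (q ^ (T ∩ T').card)⁻¹)) := by
  have h1 : (fun Z => LL q l Z * LL q l' Z) = fun Z =>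
      Ex l ∅ (fun T => Ex l' ∅ (fun T' => (if T ⊆ Z then (q ^ T.card)⁻¹ else 0) *
        (if T' ⊆ Z then (q ^ T'.card)⁻¹ else 0))) := by
    funext Z
    have h2 : ∀ T : Finset ι, Ex l' ∅ (fun T' => (if T ⊆ Z then (q ^ T.card)⁻¹ else 0) *
        (if T' ⊆ Z then (q ^ T'.card)⁻¹ else 0)) =
        LL q l' Z * (if T ⊆ Z then (q ^ T.card)⁻¹ else 0) := by
      intro T
      rw [Ex_mul, mul_comm]
      rfl
    simp only [h2]
    rw [Ex_mul, mul_comm]
    rfl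
  rw [h1, EZ_Ex_comm q l ∅ (fun Z T => Ex l' ∅ (fun T' => (if T ⊆ Z then (q ^ T.card)⁻¹ else 0) *
        (if T' ⊆ Z then (q ^ T'.card)⁻¹ else 0)))]
  congr 1
  funext T
  rw [EZ_Ex_comm q l' ∅ (fun Z T' => (if T ⊆ Z then (q ^ T.card)⁻¹ else 0) *
        (if T' ⊆ Z then (q ^ T'.card)⁻¹ else 0))]
  congr 1
  funext T'
  have h3 : (fun Z : Finset ι => (if T ⊆ Z then (q ^ T.card)⁻¹ else 0) *
        (if T' ⊆ Z then (q ^ T'.card)⁻¹ else 0)) =
      fun Z : Finset ι => ((q ^ T.card)⁻¹ * (q ^ T'.card)⁻¹) *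
        (if T ∪ T' ⊆ Z then (1 : ℝ) else 0) := by
    funext Z
    by_cases a : T ⊆ Z <;> by_cases b : T' ⊆ Z <;> simp [Finset.union_subset_iff, a, b]
  rw [h3, EZ_mul, EZ_subset]
  have h4 := Finset.card_union_add_card_inter T T'
  have h5 : q ^ T.card * q ^ T'.card = q ^ (T ∪ T').card * q ^ (T ∩ T').card := by
    rw [← pow_add, ← pow_add, h4]
  rw [← mul_inv, h5, mul_inv, mul_assoc, mul_comm (q ^ (T ∩ T').card)⁻¹, ← mul_assoc,
    inv_mul_cancel₀ (pow_pos hq _).ne', one_mul]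

/-- Proof: `q^{-|T ∩ T'|} = (1 + (1/q - 1))^{|T ∩ T'|} ≤ ∑_U (1/q)^{|U|} [U ⊆ T] [U ⊆ T']`
(`q ≤ 1`), then linearity (`Ex_sum`, `Ex_mul`), `Ex_subset_le` for both factors (all terms
nonnegative), `∑_U ∏_{z ∈ U} (w w'/q) = ∏_z (1 + w w'/q) ≤ exp (∑_z w w'/q)` and `sum_ww_mul`. -/
theorem EZ_LL_cross (q : ℝ) (hq : 0 < q) (hq1 : q ≤ 1) (l l' : List (Finset ι)) :
    EZ q (fun Z => LL q l Z * LL q l' Z) ≤
      Real.exp ((l.map (fun C => (l'.map (fun C' =>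
        ((C ∩ C').card : ℝ) / (q * (C.card : ℝ) * (C'.card : ℝ)))).sum)).sum) := by
  rw [EZ_LL_mul q hq]
  have hb : ∀ T T' : Finset ι, (q ^ (T ∩ T').card)⁻¹ ≤ ∑ U : Finset ι,
      (q ^ U.card)⁻¹ * (if U ⊆ T then (1 : ℝ) else 0) * (if U ⊆ T' then (1 : ℝ) else 0) := by
    intro T T'
    have h1 := Finset.single_le_sum (f := fun U : Finset ι =>
      (q ^ U.card)⁻¹ * (if U ⊆ T then (1 : ℝ) else 0) * (if U ⊆ T' then (1 : ℝ) else 0))
      (s := Finset.univ) (fun U _ => by positivity) (Finset.mem_univ (T ∩ T'))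
    simpa [Finset.inter_subset_left, Finset.inter_subset_right] using h1
  have h1 : Ex l ∅ (fun T => Ex l' ∅ (fun T' => (q ^ (T ∩ T').card)⁻¹)) ≤
      Ex l ∅ (fun T => Ex l' ∅ (fun T' => ∑ U : Finset ι,
      (q ^ U.card)⁻¹ * (if U ⊆ T then (1 : ℝ) else 0) * (if U ⊆ T' then (1 : ℝ) else 0))) :=
    Ex_mono l ∅ fun T => Ex_mono l' ∅ fun T' => hb T T'
  have h2 : Ex l ∅ (fun T => Ex l' ∅ (fun T' => ∑ U : Finset ι,
      (q ^ U.card)⁻¹ * (if U ⊆ T then (1 : ℝ) else 0) * (if U ⊆ T' then (1 : ℝ) else 0))) =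
      ∑ U : Finset ι, (q ^ U.card)⁻¹ * Ex l' ∅ (fun T' => if U ⊆ T' then (1 : ℝ) else 0) *
        Ex l ∅ (fun T => if U ⊆ T then (1 : ℝ) else 0) := by
    have e1 : ∀ T : Finset ι, Ex l' ∅ (fun T' => ∑ U : Finset ι,
        (q ^ U.card)⁻¹ * (if U ⊆ T then (1 : ℝ) else 0) * (if U ⊆ T' then (1 : ℝ) else 0)) =
        ∑ U : Finset ι, ((q ^ U.card)⁻¹ *
          Ex l' ∅ (fun T' => if U ⊆ T' then (1 : ℝ) else 0)) * (if U ⊆ T then (1 : ℝ) else 0) := by
      intro T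
      rw [Ex_sum Finset.univ l' ∅ (fun (U : Finset ι) T' =>
        (q ^ U.card)⁻¹ * (if U ⊆ T then (1 : ℝ) else 0) * (if U ⊆ T' then (1 : ℝ) else 0))]
      refine Finset.sum_congr rfl fun U _ => ?_
      rw [Ex_mul]
      ring
    simp only [e1]
    rw [Ex_sum Finset.univ l ∅ (fun (U : Finset ι) T => ((q ^ U.card)⁻¹ *
          Ex l' ∅ (fun T' => if U ⊆ T' then (1 : ℝ) else 0)) * (if U ⊆ T then (1 : ℝ) else 0))]
    refine Finset.sum_congr rfl fun U _ => ?_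
    rw [Ex_mul]
  have h3 : ∑ U : Finset ι, (q ^ U.card)⁻¹ * Ex l' ∅ (fun T' => if U ⊆ T' then (1 : ℝ) else 0) *
        Ex l ∅ (fun T => if U ⊆ T then (1 : ℝ) else 0) ≤
      ∑ U : Finset ι, ∏ z ∈ U, (q⁻¹ * (ww l z * ww l' z)) := by
    refine Finset.sum_le_sum fun U _ => ?_
    have a1 := Ex_subset_le l U
    have a2 := Ex_subset_le l' U
    have a3 : 0 ≤ Ex l ∅ (fun T => if U ⊆ T then (1 : ℝ) else 0) :=
      Ex_nonneg l ∅ fun T => by split_ifs <;> norm_num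
    have a4 : 0 ≤ Ex l' ∅ (fun T => if U ⊆ T then (1 : ℝ) else 0) :=
      Ex_nonneg l' ∅ fun T => by split_ifs <;> norm_num
    have a5 : 0 ≤ ∏ z ∈ U, ww l' z := Finset.prod_nonneg fun z _ => ww_nonneg l' z
    have a6 : (0 : ℝ) ≤ (q ^ U.card)⁻¹ := by positivity
    rw [Finset.prod_mul_distrib, Finset.prod_mul_distrib, Finset.prod_const, inv_pow]
    calc (q ^ U.card)⁻¹ * Ex l' ∅ (fun T' => if U ⊆ T' then (1 : ℝ) else 0) *
        Ex l ∅ (fun T => if U ⊆ T then (1 : ℝ) else 0)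
        ≤ (q ^ U.card)⁻¹ * (∏ z ∈ U, ww l' z) * ∏ z ∈ U, ww l z :=
          mul_le_mul (mul_le_mul_of_nonneg_left a2 a6) a1 a3 (mul_nonneg a6 a5)
      _ = (q ^ U.card)⁻¹ * ((∏ z ∈ U, ww l z) * ∏ z ∈ U, ww l' z) := by ring
  have h4 : ∑ U : Finset ι, ∏ z ∈ U, (q⁻¹ * (ww l z * ww l' z)) =
      ∏ z : ι, (1 + q⁻¹ * (ww l z * ww l' z)) := by
    rw [Finset.prod_one_add, Finset.powerset_univ]
  have h5 : ∏ z : ι, (1 + q⁻¹ * (ww l z * ww l' z)) ≤
      Real.exp (∑ z : ι, q⁻¹ * (ww l z * ww l' z)) := by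
    rw [Real.exp_sum]
    refine Finset.prod_le_prod (fun z _ => ?_) fun z _ => ?_
    · have := mul_nonneg (inv_nonneg.2 hq.le) (mul_nonneg (ww_nonneg l z) (ww_nonneg l' z))
      linarith
    · rw [add_comm]
      exact Real.add_one_le_exp _
  have h6 : ∑ z : ι, q⁻¹ * (ww l z * ww l' z) = (l.map (fun C => (l'.map (fun C' =>
        ((C ∩ C').card : ℝ) / (q * (C.card : ℝ) * (C'.card : ℝ)))).sum)).sum := by
    rw [← Finset.mul_sum, sum_ww_mul, ← List.sum_map_mul_left]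
    congr 1
    refine List.map_congr_left fun C _ => ?_
    rw [← List.sum_map_mul_left]
    congr 1
    refine List.map_congr_left fun C' _ => ?_
    rw [div_eq_mul_inv, div_eq_mul_inv, mul_assoc q, mul_inv q]
    ring
  rw [← h6]
  calc _ ≤ _ := h1
    _ = _ := h2
    _ ≤ _ := h3
    _ = _ := h4
    _ ≤ _ := h5

/-- Proof: `LL_le` with `A` the union of the sets of `l`,
`E 4^{|Z ∩ A|} = (1 + 3 q)^{|A|} ≤ exp (3 q |A|)`, `|A| ≤ ∑_{C ∈ l} |C|`. -/
theorem EZ_LL_diag (q : ℝ) (hq : 0 < q) (hq1 : q ≤ 1) (l : List (Finset ι)) :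
    EZ q (fun Z => LL q l Z ^ 2) ≤
      (l.map (fun C => (1 + (q * (C.card : ℝ))⁻¹) ^ 2 * Real.exp (3 * q * (C.card : ℝ)))).prod := by
  set A : Finset ι := l.toFinset.biUnion id with hA
  have hAs : ∀ C ∈ l, C ⊆ A := by
    intro C hC z hz
    rw [hA, Finset.mem_biUnion]
    exact ⟨C, List.mem_toFinset.2 hC, hz⟩
  set P : ℝ := (l.map (fun C => 1 + (q * (C.card : ℝ))⁻¹)).prod with hP
  have h1 : EZ q (fun Z => LL q l Z ^ 2) ≤ EZ q (fun Z => P ^ 2 * 4 ^ (Z ∩ A).card) := by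
    refine EZ_mono q hq.le hq1 fun Z => ?_
    have h2 := LL_le q hq l A Z hAs
    have h3 := LL_nonneg q hq l Z
    calc LL q l Z ^ 2 ≤ (2 ^ (Z ∩ A).card * P) ^ 2 := pow_le_pow_left₀ h3 h2 2
      _ = P ^ 2 * 4 ^ (Z ∩ A).card := by
          rw [show (4 : ℝ) = 2 ^ 2 by norm_num, ← pow_mul]
          ring
  have hcard : (A.card : ℝ) ≤ (l.map (fun C => (C.card : ℝ))).sum := by
    have h2 : ∀ l : List (Finset ι), (l.toFinset.biUnion id).card ≤ (l.map Finset.card).sum := by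
      intro l
      induction l with
      | nil => simp
      | cons C l ih =>
        rw [List.toFinset_cons, Finset.biUnion_insert, List.map_cons, List.sum_cons]
        exact le_trans (Finset.card_union_le _ _) (Nat.add_le_add_left ih _)
    have h3 := h2 l
    have h4 : ((l.map Finset.card).sum : ℝ) = (l.map (fun C => (C.card : ℝ))).sum := by
      rw [Nat.cast_list_sum, List.map_map]
      rfl
    rw [← h4]
    exact_mod_cast h3
  have hprod : ∀ l : List (Finset ι),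
      (l.map (fun C => (1 + (q * (C.card : ℝ))⁻¹) ^ 2 * Real.exp (3 * q * (C.card : ℝ)))).prod =
      ((l.map (fun C => 1 + (q * (C.card : ℝ))⁻¹)).prod) ^ 2 *
        Real.exp (3 * q * (l.map (fun C => (C.card : ℝ))).sum) := by
    intro l
    induction l with
    | nil => simp
    | cons C l ih =>
      rw [List.map_cons, List.prod_cons, ih, List.map_cons, List.prod_cons, List.map_cons,
        List.sum_cons, mul_add, Real.exp_add]
      ring
  have h5 : EZ q (fun Z : Finset ι => P ^ 2 * 4 ^ (Z ∩ A).card) =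
      P ^ 2 * (1 + (4 - 1) * q) ^ A.card := by
    rw [EZ_mul, EZ_pow]
  have h6 : (1 + (4 - 1) * q) ^ A.card ≤
      Real.exp (3 * q * (l.map (fun C => (C.card : ℝ))).sum) := by
    have h7 : 1 + (4 - 1) * q ≤ Real.exp (3 * q) := by
      have := Real.add_one_le_exp (3 * q)
      linarith
    calc (1 + (4 - 1) * q) ^ A.card ≤ Real.exp (3 * q) ^ A.card :=
          pow_le_pow_left₀ (by linarith) h7 _
      _ = Real.exp ((A.card : ℝ) * (3 * q)) := by rw [← Real.exp_nat_mul]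
      _ ≤ Real.exp (3 * q * (l.map (fun C => (C.card : ℝ))).sum) := by
          apply Real.exp_le_exp.2
          calc (A.card : ℝ) * (3 * q) ≤ (l.map (fun C => (C.card : ℝ))).sum * (3 * q) :=
                mul_le_mul_of_nonneg_right hcard (by linarith)
            _ = _ := by ring
  rw [hprod l]
  calc _ ≤ _ := h1
    _ = _ := h5
    _ ≤ _ := mul_le_mul_of_nonneg_left h6 (by positivity)

end Crest.Agent.CD
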