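import Crest.Agent.CD_Core
import Crest.Agent.CD_Avg
import Crest.Agent.CD_Body

/-!
# CD-Main: S0348
-/

set_option autoImplicit false
open MeasureTheory Metric Filter
open scoped ENNReal

namespace Crest.Agent.CD

/-- If the density is too small then for some large `R` the number of points in the cube is small.
`volume K * limsup < ofReal (c n log n)` implies: eventually
`volume K * (ncard / ofReal ((2R)^n)) < ofReal (c n log n)` (`ENNReal` limsup; note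
`volume K ≠ 0, ⊤`, write `limsup < ofReal (..) / volume K`, `Filter.eventually_lt_of_limsup_lt`), so
`ncard * (bv n / 4) ≤ c n log n (2R)^n`, `c = 2^{-34}`. -/
theorem small_density (n : ℕ) (hn : 2 ≤ n) (K : Set (Fin n → ℝ)) (hK : IsCompact K)
    (hvol : ENNReal.ofReal (bv n / 4) ≤ volume K) (X : Set (Fin n → ℝ))
    (hX : ∀ R : ℝ, (X ∩ {x | ∀ i, |x i| ≤ R}).Finite)
    (hlt : volume K * limsup (fun R : ℝ => ((X ∩ {x | ∀ i, |x i| ≤ R}).ncard : ℝ≥0∞) /
      ENNReal.ofReal ((2 * R) ^ n)) atTop < ENNReal.ofReal (1 / 2 ^ 34 * n * Real.log n)) :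
    ∃ R : ℝ, 10 * n ≤ R ∧
      ((X ∩ {x | ∀ i, |x i| ≤ R}).ncard : ℝ) * bv n ≤
        n * Real.log n / 2 ^ 32 * (2 * R) ^ n := by
  have hbv := bv_pos n
  have hV0 : volume K ≠ 0 := by
    intro h0
    rw [h0] at hvol
    have h1 : 0 < ENNReal.ofReal (bv n / 4) := ENNReal.ofReal_pos.2 (by positivity)
    exact absurd hvol (not_le.2 h1)
  have hVt : volume K ≠ ⊤ := hK.measure_lt_top.ne
  have h1 : limsup (fun R : ℝ => ((X ∩ {x | ∀ i, |x i| ≤ R}).ncard : ℝ≥0∞) /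
      ENNReal.ofReal ((2 * R) ^ n)) atTop <
      ENNReal.ofReal (1 / 2 ^ 34 * n * Real.log n) / volume K := by
    rw [ENNReal.lt_div_iff_mul_lt (Or.inl hV0) (Or.inl hVt), mul_comm]
    exact hlt
  have h2 := eventually_lt_of_limsup_lt h1
  obtain ⟨R, hR, hR10⟩ := (h2.and (eventually_ge_atTop (10 * (n : ℝ)))).exists
  refine ⟨R, hR10, ?_⟩
  have hnpos : (0 : ℝ) < n := by
    have : 0 < n := by omega
    exact_mod_cast this
  have hRpos : 0 < R := by linarith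
  have hD : 0 < (2 * R) ^ n := by positivity
  rw [ENNReal.lt_div_iff_mul_lt (Or.inl hV0) (Or.inl hVt)] at hR
  have h3 : ((X ∩ {x | ∀ i, |x i| ≤ R}).ncard : ℝ≥0∞) / ENNReal.ofReal ((2 * R) ^ n) *
      ENNReal.ofReal (bv n / 4) ≤ ENNReal.ofReal (1 / 2 ^ 34 * n * Real.log n) :=
    (mul_le_mul_right hvol _).trans hR.le
  have h4 := ENNReal.toReal_mono ENNReal.ofReal_ne_top h3
  rw [ENNReal.toReal_mul, ENNReal.toReal_div, ENNReal.toReal_natCast,
    ENNReal.toReal_ofReal hD.le, ENNReal.toReal_ofReal (by positivity),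
    ENNReal.toReal_ofReal (by have := Real.log_natCast_nonneg n; positivity)] at h4
  rw [div_mul_eq_mul_div, div_le_iff₀ hD] at h4
  calc ((X ∩ {x | ∀ i, |x i| ≤ R}).ncard : ℝ) * bv n =
        4 * (((X ∩ {x | ∀ i, |x i| ≤ R}).ncard : ℝ) * (bv n / 4)) := by ring
    _ ≤ 4 * (1 / 2 ^ 34 * n * Real.log n * (2 * R) ^ n) :=
        mul_le_mul_of_nonneg_left h4 (by norm_num)
    _ = n * Real.log n / 2 ^ 32 * (2 * R) ^ n := by ring

/-- Assembly: `core`, `avg` (for the image of `X` in Euclidean space), `small_density`, CD_Body. -/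
theorem main :
    ∃ c : ℝ, 0 < c ∧ ∃ n₀ : ℕ, ∀ n : ℕ, n₀ ≤ n →
      ∃ K : Set (Fin n → ℝ), IsCompact K ∧ Convex ℝ K ∧ (interior K).Nonempty ∧
        (∀ x ∈ K, -x ∈ K) ∧
        ∀ X : Set (Fin n → ℝ), (∀ R : ℝ, (X ∩ {x | ∀ i, |x i| ≤ R}).Finite) →
          (∀ y : Fin n → ℝ, ∃ x ∈ X, y - x ∈ K) →
          ENNReal.ofReal (c * n * Real.log n) ≤
            volume K * limsup (fun R : ℝ => ((X ∩ {x | ∀ i, |x i| ≤ R}).ncard : ℝ≥0∞) /
              ENNReal.ofReal ((2 * R) ^ n)) atTop := by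
  obtain ⟨n1, h1⟩ := core
  obtain ⟨n2, h2⟩ := avg
  refine ⟨1 / 2 ^ 34, by norm_num, n1 + n2 + 2, fun n hn => ?_⟩
  obtain ⟨Z, hZ, hvol, hcov⟩ := h1 n (by omega)
  have hvK := volume_KK (n := n) (by omega) (Z : Set (Eu n)) hvol
  have hKc := isCompact_KK (n := n) (by omega) (Z : Set (Eu n))
  refine ⟨KK n Z, hKc, convex_KK (by omega) _, interior_KK (by omega) _ hZ,
    fun x hx => neg_mem_KK _ x hx, fun X hX hcovX => ?_⟩
  by_contra hlt
  push Not at hlt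
  obtain ⟨R, hR, hcard⟩ := small_density n (by omega) (KK n Z) hKc hvK X hX hlt
  have himg : (WithLp.toLp 2 '' X : Set (Eu n)) ∩ {x | ∀ i, |x i| ≤ R} =
      WithLp.toLp 2 '' (X ∩ {x | ∀ i, |x i| ≤ R}) := by
    ext x
    constructor
    · rintro ⟨⟨y, hy, rfl⟩, hx⟩
      exact ⟨y, ⟨hy, hx⟩, rfl⟩
    · rintro ⟨y, ⟨hy, hy'⟩, rfl⟩
      exact ⟨⟨y, hy, rfl⟩, hy'⟩
  have hinj : Function.Injective (WithLp.toLp 2 : (Fin n → ℝ) → Eu n) := WithLp.toLp_injective 2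
  obtain ⟨Y, hY, hYc⟩ := h2 n (by omega) (body (Z : Set (Eu n))) (ball_subset_body _ hZ)
    (body_subset _) (convex_body _) (WithLp.toLp 2 '' X) R hR (by
      rw [himg]
      exact (hX R).image _) (by
      rw [himg, Set.ncard_image_of_injective _ hinj]
      exact hcard) (by
      intro y
      obtain ⟨x, hx, hxy⟩ := hcovX (WithLp.ofLp y)
      refine ⟨WithLp.toLp 2 x, ⟨x, hx, rfl⟩, ?_⟩
      exact hxy)
  obtain ⟨x, hx, hx'⟩ := hcov Y hY
  obtain ⟨w, hw, hw'⟩ := hYc x hx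
  exact hx' w hw hw'

end Crest.Agent.CD
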