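import Crest.Agent.CD_Defs

/-!
# CD-Pack: greedy packing modulo a finite set of vectors
-/

set_option autoImplicit false
open MeasureTheory Metric

namespace Crest.Agent.CD

/-- Induction on `k`: given `X` of cardinality `j < k` with the property, the union of the balls
`ball (x + w) s`, `x ∈ X`, `w ∈ W` has volume `≤ j |W| vol (ball 0 s) < vol A` (measure subadditivity;
`vol (ball 0 s) > 0`), so some `x' ∈ A` is outside; `‖x' - x - w‖ ≥ s` for all `w ∈ W`, and by symmetry
of `W` also `‖x - x' - w‖ ≥ s`. `x' ∉ X` since `0 ∈ W`. No measurability of `A` is needed. -/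
theorem exists_packing {n : ℕ} (A : Set (Eu n)) (W : Finset (Eu n)) (h0 : (0 : Eu n) ∈ W)
    (hW : ∀ w ∈ W, -w ∈ W) (s : ℝ) (hs : 0 < s) (k : ℕ)
    (hk : (k : ENNReal) * W.card * volume (ball (0 : Eu n) s) ≤ volume A) :
    ∃ X : Finset (Eu n), (∀ x ∈ X, x ∈ A) ∧ X.card = k ∧
      ∀ x ∈ X, ∀ x' ∈ X, x ≠ x' → ∀ w ∈ W, s ≤ ‖x - x' - w‖ := by
  classical
  induction k with
  | zero => exact ⟨∅, by simp, by simp, by simp⟩
  | succ k ih =>
    set v := volume (ball (0 : Eu n) s) with hv
    have hvpos : v ≠ 0 := (measure_ball_pos volume _ hs).ne'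
    have hvtop : v ≠ ⊤ := measure_ball_lt_top.ne
    have hkk : ((k + 1 : ℕ) : ENNReal) * W.card * v = (k : ENNReal) * W.card * v + W.card * v := by
      push_cast
      ring
    rw [hkk] at hk
    obtain ⟨X, hXA, hXc, hX⟩ := ih (le_trans le_self_add hk)
    have hnot : ∃ a ∈ A, ∀ x ∈ X, ∀ w ∈ W, s ≤ ‖a - x - w‖ := by
      by_contra hcon
      push Not at hcon
      have hsub : A ⊆ ⋃ x ∈ X, ⋃ w ∈ W, ball (x + w) s := by
        intro a ha
        obtain ⟨x, hx, w, hw, hlt⟩ := hcon a ha
        simp only [Set.mem_iUnion]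
        refine ⟨x, hx, w, hw, ?_⟩
        rw [mem_ball, dist_eq_norm, ← sub_sub]
        exact hlt
      have h1 : volume A ≤ (k : ENNReal) * W.card * v := by
        calc volume A ≤ volume (⋃ x ∈ X, ⋃ w ∈ W, ball (x + w) s) := measure_mono hsub
          _ ≤ ∑ x ∈ X, volume (⋃ w ∈ W, ball (x + w) s) := measure_biUnion_finset_le _ _
          _ ≤ ∑ x ∈ X, ∑ w ∈ W, volume (ball (x + w) s) :=
              Finset.sum_le_sum fun x _ => measure_biUnion_finset_le _ _
          _ = ∑ x ∈ X, ∑ w ∈ W, v := by
              refine Finset.sum_congr rfl fun x _ => Finset.sum_congr rfl fun w _ => ?_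
              rw [hv, Measure.addHaar_ball_center]
          _ = (k : ENNReal) * W.card * v := by
              rw [Finset.sum_const, Finset.sum_const, hXc, nsmul_eq_mul, nsmul_eq_mul, mul_assoc]
      have h2 : (W.card : ENNReal) * v ≠ 0 := by
        refine mul_ne_zero ?_ hvpos
        have : 0 < W.card := Finset.card_pos.2 ⟨0, h0⟩
        exact_mod_cast this.ne'
      have h3 : (k : ENNReal) * W.card * v ≠ ⊤ :=
        ENNReal.mul_ne_top (ENNReal.mul_ne_top (ENNReal.natCast_ne_top k)
          (ENNReal.natCast_ne_top _)) hvtop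
      exact absurd (hk.trans h1) (not_le.2 (ENNReal.lt_add_right h3 h2))
    obtain ⟨a, haA, ha⟩ := hnot
    have haX : a ∉ X := by
      intro haX
      have := ha a haX 0 h0
      simp only [sub_self, norm_zero] at this
      linarith
    refine ⟨insert a X, ?_, ?_, ?_⟩
    · intro x hx
      rcases Finset.mem_insert.1 hx with rfl | hx
      · exact haA
      · exact hXA x hx
    · rw [Finset.card_insert_of_notMem haX, hXc]
    · intro x hx x' hx' hne w hw
      rcases Finset.mem_insert.1 hx with h1 | h1
      · rcases Finset.mem_insert.1 hx' with h2 | h2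
        · exact absurd (h1.trans h2.symm) hne
        · rw [h1]
          exact ha x' h2 w hw
      · rcases Finset.mem_insert.1 hx' with h2 | h2
        · have h3 := ha x h1 (-w) (hW w hw)
          rw [h2, ← norm_neg]
          have e : -(x - a - w) = a - x - -w := by abel
          rw [e]
          exact h3
        · exact hX x h1 x' h2 hne w hw

end Crest.Agent.CD
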