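import Crest.Agent.CD_Win

/-!
# CD-Rnd: rounding a window to a grid configuration
-/

set_option autoImplicit false
open MeasureTheory Metric

namespace Crest.Agent.CD

/-- Rounding to the grid `n^{-2} ℤ^n`. -/
noncomputable def rnd (n : ℕ) (x : Eu n) : Eu n :=
  WithLp.toLp 2 (fun i => ((round ((n : ℝ) ^ 2 * x i) : ℤ) : ℝ) / (n : ℝ) ^ 2)

/-- `‖x - rnd x‖ ≤ √n / (2 n²) ≤ 1/(8n)` for `n ≥ 16`. -/
theorem norm_sub_rnd (n : ℕ) (hn : 16 ≤ n) (x : Eu n) : ‖x - rnd n x‖ ≤ 1 / (8 * n) := by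
  have hn' : (16 : ℝ) ≤ n := by exact_mod_cast hn
  have hnp : (0 : ℝ) < n := by linarith
  refine abs_le_of_sq_le_sq' ?_ (by positivity) |>.2
  rw [EuclideanSpace.norm_sq_eq]
  have h1 : ∀ i : Fin n, ‖(x - rnd n x).ofLp i‖ ^ 2 ≤ (1 / (2 * (n : ℝ) ^ 2)) ^ 2 := by
    intro i
    have h2 : (x - rnd n x).ofLp i =
        ((n : ℝ) ^ 2 * x i - (round ((n : ℝ) ^ 2 * x i) : ℤ)) / (n : ℝ) ^ 2 := by
      simp only [PiLp.sub_apply, rnd]
      field_simp
    rw [h2, Real.norm_eq_abs, abs_div, abs_of_pos (show (0 : ℝ) < (n : ℝ) ^ 2 by positivity)]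
    have h3 := abs_sub_round ((n : ℝ) ^ 2 * x i)
    refine pow_le_pow_left₀ (by positivity) ?_ 2
    rw [div_le_div_iff₀ (by positivity) (by positivity)]
    nlinarith [show (0 : ℝ) < (n : ℝ) ^ 2 by positivity]
  calc ∑ i, ‖(x - rnd n x).ofLp i‖ ^ 2 ≤ ∑ _i : Fin n, (1 / (2 * (n : ℝ) ^ 2)) ^ 2 :=
        Finset.sum_le_sum fun i _ => h1 i
    _ = 1 / (4 * (n : ℝ) ^ 3) := by
        rw [Finset.sum_const, Finset.card_univ, Fintype.card_fin, nsmul_eq_mul]
        field_simp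
        norm_num
    _ ≤ (1 / (8 * (n : ℝ))) ^ 2 := by
        rw [div_pow, one_pow, one_div_le_one_div (by positivity) (by positivity)]
        nlinarith [show (0 : ℝ) < (n : ℝ) ^ 2 by positivity]

theorem rnd_mem_Gam (n : ℕ) (hn : 16 ≤ n) (x : Eu n) (hx : ‖x‖ ≤ 3) : rnd n x ∈ Gam n := by
  have hn' : (16 : ℝ) ≤ n := by exact_mod_cast hn
  have hn2 : (1 : ℝ) ≤ (n : ℝ) ^ 2 := by nlinarith
  unfold Gam
  simp only [Finset.mem_image, Fintype.mem_piFinset, Finset.mem_Icc]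
  refine ⟨fun i => round ((n : ℝ) ^ 2 * x i), fun i => ?_, rfl⟩
  have h1 : |x i| ≤ 3 := by
    have := PiLp.norm_apply_le x i
    rw [Real.norm_eq_abs] at this
    linarith
  have h2 := abs_sub_round ((n : ℝ) ^ 2 * x i)
  rw [abs_le] at h1 h2
  have h3 : (n : ℝ) ^ 2 * x i ≤ (n : ℝ) ^ 2 * 3 := by
    exact mul_le_mul_of_nonneg_left h1.2 (by positivity)
  have h4 : (n : ℝ) ^ 2 * (-3) ≤ (n : ℝ) ^ 2 * x i :=
    mul_le_mul_of_nonneg_left h1.1 (by positivity)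
  constructor
  · have : (-(4 * (n : ℤ) ^ 2) : ℝ) ≤ (round ((n : ℝ) ^ 2 * x i) : ℝ) := by
      push_cast; linarith
    exact_mod_cast this
  · have : (round ((n : ℝ) ^ 2 * x i) : ℝ) ≤ (4 * (n : ℤ) ^ 2 : ℝ) := by
      push_cast; linarith
    exact_mod_cast this

theorem rnd_ff_nonneg (n : ℕ) (d : ℝ) (u : Eu n) : 0 ≤ ff n d u := by
  unfold ff
  refine Finset.sum_nonneg fun k _ => ?_
  split_ifs <;> norm_num

theorem rnd_ff_le (n : ℕ) (d d' : ℝ) (u u' : Eu n) (h : ‖u'‖ ≤ ‖u‖ + (d' - d)) :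
    ff n d u ≤ ff n d' u' := by
  unfold ff
  refine Finset.sum_le_sum fun k _ => ?_
  by_cases h1 : ‖u‖ ≤ 1 + d - (k : ℝ) / n
  · rw [if_pos h1, if_pos (by linarith)]
  · rw [if_neg h1]; split_ifs <;> norm_num

theorem rnd_sum_image {α β : Type*} [DecidableEq β] (s : Finset α) (f : α → β) (g : β → ℝ)
    (hg : ∀ b, 0 ≤ g b) : ∑ b ∈ s.image f, g b ≤ ∑ a ∈ s, g (f a) := by
  classical
  induction s using Finset.induction_on with
  | empty => simp
  | insert a s ha ih =>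
    rw [Finset.image_insert, Finset.sum_insert ha]
    by_cases h : f a ∈ s.image f
    · rw [Finset.insert_eq_of_mem h]
      linarith [hg (f a)]
    · rw [Finset.sum_insert h]
      linarith

/-- The rounded configuration is in `YY n`: `{x₀ | ...} ⊆ Good' n Y`; if `v + x₀ + e ∈ GoodF n F` then
`x = x₀ + e ∈ Good n Y`: `‖v + x - y‖ ≤ ‖x - rnd (y - v)‖ + 1/(8n)` (both conditions), and the sum over
the image `Y` is at most the sum over the filtered set, at most the sum over `F`. -/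
theorem round_config (n : ℕ) (hn : 16 ≤ n) (F : Finset (Eu n)) (v : Eu n)
    (h1 : (F.filter (fun y => ‖y - v‖ ≤ 3)).card ≤ 4 ^ n)
    (h2 : volume (closedBall (0 : Eu n) 1) / 2 ≤ volume {x₀ : Eu n | ‖x₀‖ ≤ 1 ∧
        volume (closedBall (0 : Eu n) (1 / 512)) / 2 ≤
          volume {e : Eu n | ‖e‖ ≤ 1 / 512 ∧ v + x₀ + e ∈ GoodF n F}}) :
    ∃ Y ∈ YY n, ∀ y ∈ F, ‖y - v‖ ≤ 3 → ∃ w ∈ Y, ‖(y - v) - w‖ ≤ 1 / (8 * n) := by
  classical
  refine ⟨(F.filter (fun y => ‖y - v‖ ≤ 3)).image (fun y => rnd n (y - v)), ?_, ?_⟩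
  · unfold YY
    simp only [Finset.mem_filter, Finset.mem_powerset]
    refine ⟨?_, Finset.card_image_le.trans h1, h2.trans (measure_mono ?_)⟩
    · intro w hw
      simp only [Finset.mem_image, Finset.mem_filter] at hw
      obtain ⟨y, ⟨-, hy⟩, rfl⟩ := hw
      exact rnd_mem_Gam n hn _ hy
    · rintro x₀ ⟨hx₀, hx⟩
      refine ⟨hx₀, hx.trans (measure_mono ?_)⟩
      rintro e ⟨he, hg1, hg2⟩
      have hkey : ∀ y, ‖v + x₀ + e - y‖ ≤ ‖x₀ + e - rnd n (y - v)‖ + 1 / (8 * n) := by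
        intro y
        have h3 : v + x₀ + e - y = (x₀ + e - rnd n (y - v)) - ((y - v) - rnd n (y - v)) := by
          abel
        rw [h3]
        exact (norm_sub_le _ _).trans (by gcongr; exact norm_sub_rnd n hn _)
      refine ⟨he, ?_, ?_⟩
      · have e1 := rnd_sum_image (F.filter (fun y => ‖y - v‖ ≤ 3)) (fun y => rnd n (y - v))
          (fun w => ff n 0 (x₀ + e - w)) (fun w => rnd_ff_nonneg n 0 _)
        have e2 : ∑ y ∈ F.filter (fun y => ‖y - v‖ ≤ 3), ff n 0 (x₀ + e - rnd n (y - v)) ≤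
            ∑ y ∈ F.filter (fun y => ‖y - v‖ ≤ 3), ff n (1 / (8 * n)) (v + x₀ + e - y) :=
          Finset.sum_le_sum fun y _ => rnd_ff_le n _ _ _ _ (by
            have := hkey y
            linarith)
        have e3 : ∑ y ∈ F.filter (fun y => ‖y - v‖ ≤ 3), ff n (1 / (8 * n)) (v + x₀ + e - y) ≤
            ∑ y ∈ F, ff n (1 / (8 * n)) (v + x₀ + e - y) :=
          Finset.sum_le_sum_of_subset_of_nonneg (Finset.filter_subset _ _)
            fun y _ _ => rnd_ff_nonneg n _ _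
        exact e1.trans (e2.trans (e3.trans hg1))
      · intro w hw
        simp only [Finset.mem_image, Finset.mem_filter] at hw
        obtain ⟨y, ⟨hyF, -⟩, rfl⟩ := hw
        have h3 := hg2 y hyF
        have h4 := hkey y
        linarith
  · intro y hy hyv
    refine ⟨rnd n (y - v), ?_, norm_sub_rnd n hn _⟩
    simp only [Finset.mem_image, Finset.mem_filter]
    exact ⟨y, ⟨hy, hyv⟩, rfl⟩

end Crest.Agent.CD
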