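import Crest.Agent.CD_Win2

/-!
# CD-Win: existence of a good window position (`exists_window`, `volume_cube` are in CD_Win2)
-/

set_option autoImplicit false
open MeasureTheory Metric

namespace Crest.Agent.CD

/-- Good points of a finite set `F` of (absolute) translates, with the rounding error `1/(8n)`. -/
def GoodF (n : ℕ) (F : Finset (Eu n)) : Set (Eu n) :=
  {x | ∑ y ∈ F, ff n (1 / (8 * n)) (x - y) ≤ T0 n ∧
    ∀ y ∈ F, 1 - th n + 1 / (8 * n) < ‖x - y‖}

private theorem measurable_ff (n : ℕ) (d : ℝ) : Measurable (fun x : Eu n => ff n d x) := by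
  unfold ff
  refine Finset.measurable_fun_sum _ fun k _ => ?_
  refine Measurable.ite ?_ measurable_const measurable_const
  exact measurableSet_le measurable_norm measurable_const

private theorem ff_nonneg' (n : ℕ) (d : ℝ) (x : Eu n) : 0 ≤ ff n d x := by
  unfold ff
  exact Finset.sum_nonneg fun k _ => by split_ifs <;> norm_num

private theorem vol_cB (n : ℕ) (y : Eu n) {r : ℝ} (hr : 0 ≤ r) :
    volume (closedBall y r) = ENNReal.ofReal (r ^ n) * volume (closedBall (0 : Eu n) 1) := by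
  have := Measure.addHaar_closedBall' (volume : Measure (Eu n)) y hr
  rwa [finrank_euclideanSpace_fin] at this

private theorem vol_eq_bv (n : ℕ) : volume (closedBall (0 : Eu n) 1) = ENNReal.ofReal (bv n) := by
  unfold bv
  rw [ENNReal.ofReal_toReal]
  exact measure_closedBall_lt_top.ne

private theorem pow_le_exp' {n : ℕ} {r : ℝ} (hr : 0 ≤ r) : r ^ n ≤ Real.exp (n * (r - 1)) := by
  rw [Real.exp_nat_mul]
  exact pow_le_pow_left₀ hr (by linarith [Real.add_one_le_exp (r - 1)]) n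

private theorem exp_eighth : Real.exp (1 / 8) ≤ 8 / 7 := by
  have h := Real.add_one_le_exp (-(1 / 8 : ℝ))
  rw [Real.exp_neg] at h
  have hp := Real.exp_pos (1 / 8)
  have h2 : (7 / 8 : ℝ) ≤ (Real.exp (1 / 8))⁻¹ := by linarith
  have h3 := mul_le_mul_of_nonneg_right h2 hp.le
  rw [inv_mul_cancel₀ hp.ne'] at h3
  linarith

private theorem exp_neg_one_le : Real.exp (-1) ≤ 37 / 100 := by
  rw [Real.exp_neg]
  have h := Real.exp_one_gt_d9
  have h3 : (Real.exp 1)⁻¹ ≤ (271828 / 100000 : ℝ)⁻¹ := inv_anti₀ (by norm_num) (by linarith)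
  norm_num at h3 ⊢
  linarith

theorem measurableSet_GoodF (n : ℕ) (F : Finset (Eu n)) : MeasurableSet (GoodF n F) := by
  have hG : GoodF n F = {x : Eu n | ∑ y ∈ F, ff n (1 / (8 * n)) (x - y) ≤ T0 n} ∩
      ⋂ y ∈ F, {x : Eu n | 1 - th n + 1 / (8 * n) < ‖x - y‖} := by
    ext x
    simp [GoodF]
  have hm : Measurable (fun x : Eu n => ∑ y ∈ F, ff n (1 / (8 * n)) (x - y)) :=
    Finset.measurable_fun_sum _ fun y _ => (measurable_ff n _).comp (measurable_id.sub_const y)
  rw [hG]
  refine MeasurableSet.inter (measurableSet_le hm measurable_const) ?_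
  refine Finset.measurableSet_biInter F fun y _ => ?_
  exact measurableSet_lt measurable_const (measurable_id.sub_const y).norm

/-- `∫ ff n (1/(8n)) = ∑_{k ≤ n} vol (closedBall 0 (1 + 1/(8n) - k/n)) ≤ 2 vol B`:
`(1 + 1/(8n) - k/n)^n ≤ exp (1/8 - k)` and `exp (1/8) / (1 - exp (-1)) ≤ 2`. -/
theorem lintegral_ff (n : ℕ) (hn : 1 ≤ n) :
    ∫⁻ x : Eu n, ENNReal.ofReal (ff n (1 / (8 * n)) x) ≤ 2 * volume (closedBall (0 : Eu n) 1) := by
  have hn0 : (0 : ℝ) < n := by exact_mod_cast hn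
  have e1 : ∀ x : Eu n, ENNReal.ofReal (ff n (1 / (8 * n)) x) =
      ∑ k ∈ Finset.range (n + 1), (closedBall (0 : Eu n) (1 + 1 / (8 * n) - (k : ℝ) / n)).indicator
        (fun _ => (1 : ENNReal)) x := by
    intro x
    unfold ff
    rw [ENNReal.ofReal_sum_of_nonneg (fun k _ => by split_ifs <;> norm_num)]
    refine Finset.sum_congr rfl fun k _ => ?_
    simp only [Set.indicator, mem_closedBall, dist_zero_right]
    split_ifs <;> simp
  simp_rw [e1]
  rw [lintegral_finsetSum _ (fun k _ => measurable_const.indicator measurableSet_closedBall)]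
  simp_rw [lintegral_indicator_const measurableSet_closedBall, one_mul]
  have e2 : ∀ k ∈ Finset.range (n + 1),
      volume (closedBall (0 : Eu n) (1 + 1 / (8 * n) - (k : ℝ) / n)) ≤
      ENNReal.ofReal (Real.exp (1 / 8) * Real.exp (-1) ^ k) * volume (closedBall (0 : Eu n) 1) := by
    intro k hk
    have hk' : (k : ℝ) ≤ n := by exact_mod_cast Nat.lt_succ_iff.1 (Finset.mem_range.1 hk)
    have hr : 0 ≤ 1 + 1 / (8 * n) - (k : ℝ) / n := by
      have h1 : (k : ℝ) / n ≤ 1 := (div_le_one hn0).2 hk'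
      have h2 : 0 ≤ 1 / (8 * (n : ℝ)) := by positivity
      linarith
    rw [vol_cB n _ hr]
    refine mul_le_mul' (ENNReal.ofReal_le_ofReal ?_) le_rfl
    refine (pow_le_exp' hr).trans (le_of_eq ?_)
    rw [← Real.exp_nat_mul, ← Real.exp_add]
    congr 1
    field_simp
    ring
  refine (Finset.sum_le_sum e2).trans ?_
  rw [← Finset.sum_mul, ← ENNReal.ofReal_sum_of_nonneg (fun k _ => by positivity)]
  refine mul_le_mul' ?_ le_rfl
  have h2 : (2 : ENNReal) = ENNReal.ofReal 2 := by norm_num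
  rw [h2]
  refine ENNReal.ofReal_le_ofReal ?_
  rw [← Finset.mul_sum]
  have hg := mul_neg_geom_sum (Real.exp (-1)) (n + 1)
  have hS : 0 ≤ ∑ k ∈ Finset.range (n + 1), Real.exp (-1) ^ k :=
    Finset.sum_nonneg fun k _ => by positivity
  have hp : 0 < Real.exp (-1) ^ (n + 1) := by positivity
  have hm := mul_le_mul_of_nonneg_right exp_neg_one_le hS
  have h3 := mul_le_mul_of_nonneg_right exp_eighth hS
  nlinarith

/-- Markov for the first condition (`lintegral_ff`, translation invariance), union bound and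
`(1 - th n + 1/(8n))^n ≤ exp (-3 log n + 1/8) ≤ 2 / n^3` for the second. -/
theorem volume_compl_GoodF : ∃ n₀ : ℕ, ∀ n : ℕ, n₀ ≤ n → ∀ F : Finset (Eu n),
    volume (GoodF n F)ᶜ ≤ ENNReal.ofReal (F.card * bv n * (2 / T0 n + 2 / n ^ 3)) := by
  refine ⟨2, fun n hn F => ?_⟩
  have hn2 : (2 : ℝ) ≤ n := by exact_mod_cast hn
  have hn0 : (0 : ℝ) < n := by linarith
  have hL : 0 < Real.log n := Real.log_pos (by linarith)
  have hT : 0 < T0 n := by unfold T0; positivity
  have hbv : 0 ≤ bv n := ENNReal.toReal_nonneg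
  have hsub : (GoodF n F)ᶜ ⊆
      {x | ENNReal.ofReal (T0 n) ≤ ∑ y ∈ F, ENNReal.ofReal (ff n (1 / (8 * n)) (x - y))} ∪
        ⋃ y ∈ F, closedBall y (1 - th n + 1 / (8 * n)) := by
    intro x hx
    rw [GoodF, Set.mem_compl_iff, Set.mem_ofPred_eq, not_and_or] at hx
    rcases hx with hx | hx
    · left
      rw [not_le] at hx
      rw [Set.mem_ofPred_eq, ← ENNReal.ofReal_sum_of_nonneg (fun y _ => ff_nonneg' n _ _)]
      exact ENNReal.ofReal_le_ofReal hx.le
    · right
      push Not at hx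
      obtain ⟨y, hy, hxy⟩ := hx
      refine Set.mem_biUnion (Finset.mem_coe.2 hy) ?_
      rwa [mem_closedBall, dist_eq_norm]
  have h1 : volume {x : Eu n | ENNReal.ofReal (T0 n) ≤
      ∑ y ∈ F, ENNReal.ofReal (ff n (1 / (8 * n)) (x - y))} ≤
        ENNReal.ofReal (F.card * bv n * (2 / T0 n)) := by
    have hmeas : ∀ y : Eu n, Measurable fun x : Eu n =>
        ENNReal.ofReal (ff n (1 / (8 * n)) (x - y)) := fun y =>
      ENNReal.measurable_ofReal.comp ((measurable_ff n _).comp (measurable_id.sub_const y))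
    refine (meas_ge_le_lintegral_div
      (Finset.measurable_fun_sum _ fun y _ => hmeas y).aemeasurable
      (ENNReal.ofReal_pos.2 hT).ne' ENNReal.ofReal_ne_top).trans ?_
    rw [lintegral_finsetSum _ (fun y _ => hmeas y)]
    have h3 : ∀ y ∈ F, ∫⁻ x : Eu n, ENNReal.ofReal (ff n (1 / (8 * n)) (x - y)) ≤
        ENNReal.ofReal (2 * bv n) := by
      intro y _
      rw [lintegral_sub_right_eq_self (fun x : Eu n => ENNReal.ofReal (ff n (1 / (8 * n)) x)) y]
      refine (lintegral_ff n (by omega)).trans (le_of_eq ?_)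
      rw [vol_eq_bv, ENNReal.ofReal_mul (by norm_num)]
      norm_num
    refine (ENNReal.div_le_div_right (Finset.sum_le_sum h3) _).trans (le_of_eq ?_)
    rw [Finset.sum_const, nsmul_eq_mul, ← ENNReal.ofReal_natCast,
      ← ENNReal.ofReal_mul (by positivity), ← ENNReal.ofReal_div_of_pos hT]
    congr 1
    ring
  have h2 : volume (⋃ y ∈ F, closedBall y (1 - th n + 1 / (8 * n))) ≤
      ENNReal.ofReal (F.card * bv n * (2 / n ^ 3)) := by
    refine (measure_biUnion_finset_le _ _).trans ?_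
    have h3 : ∀ y ∈ F, volume (closedBall y (1 - th n + 1 / (8 * n))) ≤
        ENNReal.ofReal (bv n * (2 / n ^ 3)) := by
      intro y _
      by_cases hr : 0 ≤ 1 - th n + 1 / (8 * n)
      · rw [vol_cB n y hr, vol_eq_bv, ← ENNReal.ofReal_mul (by positivity), mul_comm]
        refine ENNReal.ofReal_le_ofReal (mul_le_mul_of_nonneg_left ?_ hbv)
        refine (pow_le_exp' hr).trans ?_
        have e1 : (n : ℝ) * (1 - th n + 1 / (8 * n) - 1) = 1 / 8 + -(((3 : ℕ) : ℝ) * Real.log n) := by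
          unfold th
          push_cast
          field_simp
          ring
        rw [e1, Real.exp_add, Real.exp_neg, Real.exp_nat_mul, Real.exp_log hn0]
        have h4 := exp_eighth
        rw [← div_eq_mul_inv]
        exact div_le_div_of_nonneg_right (by linarith) (by positivity)
      · rw [closedBall_eq_empty.2 (by linarith), measure_empty]
        exact zero_le
    refine (Finset.sum_le_sum h3).trans (le_of_eq ?_)
    rw [Finset.sum_const, nsmul_eq_mul, ← ENNReal.ofReal_natCast,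
      ← ENNReal.ofReal_mul (by positivity)]
    congr 1
    ring
  refine (measure_mono hsub).trans ((measure_union_le _ _).trans ?_)
  refine (add_le_add h1 h2).trans (le_of_eq ?_)
  rw [← ENNReal.ofReal_add (by positivity) (by positivity), mul_add]

/-- Numbers: `2 Λ (8 / T0 n + 8 / n³ + (3/4)^n) < 1` for large `n`, `Λ = n log n / 2^32`,
`T0 n = n log n / 2^26`. -/
theorem window_num : ∃ n₀ : ℕ, ∀ n : ℕ, n₀ ≤ n →
    2 * (n * Real.log n / 2 ^ 32) * (8 / T0 n + 8 / n ^ 3 + (3 / 4) ^ n) < 1 := by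
  refine ⟨2, fun n hn => ?_⟩
  have hn2 : (2 : ℝ) ≤ n := by exact_mod_cast hn
  have hn0 : (0 : ℝ) < n := by linarith
  have hL : 0 < Real.log n := Real.log_pos (by linarith)
  have hLn : Real.log n ≤ n := (Real.log_le_sub_one_of_pos hn0).trans (by linarith)
  have h1 : 2 * (n * Real.log n / 2 ^ 32) * (8 / T0 n) = 1 / 4 := by
    unfold T0
    field_simp
    norm_num
  have h2 : 2 * (n * Real.log n / 2 ^ 32) * (8 / n ^ 3) ≤ 1 / 4 := by
    have e1 : 2 * (n * Real.log n / 2 ^ 32) * (8 / n ^ 3) =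
        16 / 2 ^ 32 * (Real.log n / n ^ 2) := by
      field_simp
      norm_num
    rw [e1]
    have e2 : Real.log n / n ^ 2 ≤ 1 := by
      rw [div_le_one (by positivity)]
      nlinarith
    nlinarith
  have h3 : (3 / 4 : ℝ) ^ n ≤ 32 / n ^ 2 := by
    have e1 := pow_le_exp' (n := n) (r := 3 / 4) (by norm_num)
    have e2 : (n : ℝ) * (3 / 4 - 1) = -((n : ℝ) / 4) := by ring
    rw [e2, Real.exp_neg] at e1
    refine e1.trans ?_
    have e3 := Real.quadratic_le_exp_of_nonneg (x := (n : ℝ) / 4) (by positivity)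
    have e4 : (n : ℝ) ^ 2 / 32 ≤ Real.exp ((n : ℝ) / 4) := by nlinarith
    refine (inv_anti₀ (by positivity) e4).trans (le_of_eq ?_)
    rw [inv_div]
  have h4 : 2 * (n * Real.log n / 2 ^ 32) * (3 / 4 : ℝ) ^ n ≤ 1 / 4 := by
    calc 2 * (n * Real.log n / 2 ^ 32) * (3 / 4 : ℝ) ^ n
        ≤ 2 * (n * Real.log n / 2 ^ 32) * (32 / n ^ 2) :=
          mul_le_mul_of_nonneg_left h3 (by positivity)
      _ = 64 / 2 ^ 32 * (Real.log n / n) := by
          field_simp
          norm_num
      _ ≤ 64 / 2 ^ 32 * 1 := by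
          refine mul_le_mul_of_nonneg_left ?_ (by norm_num)
          rwa [div_le_one hn0]
      _ ≤ 1 / 4 := by norm_num
  have h5 : 2 * (n * Real.log n / 2 ^ 32) * (8 / T0 n + 8 / n ^ 3 + (3 / 4) ^ n) =
      2 * (n * Real.log n / 2 ^ 32) * (8 / T0 n) + 2 * (n * Real.log n / 2 ^ 32) * (8 / n ^ 3) +
        2 * (n * Real.log n / 2 ^ 32) * (3 / 4 : ℝ) ^ n := by ring
  rw [h5]
  linarith

/-- Combination of the above (`vol (closedBall 0 3) = 3^n vol B`). -/
theorem window : ∃ n₀ : ℕ, ∀ n : ℕ, n₀ ≤ n → ∀ (R : ℝ), 0 < R → ∀ F : Finset (Eu n),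
    (F.card : ℝ) * bv n ≤ 2 * (n * Real.log n / 2 ^ 32) * (2 * R) ^ n →
    ∃ v : Eu n, (∀ i, |v i| ≤ R) ∧ (F.filter (fun y => ‖y - v‖ ≤ 3)).card ≤ 4 ^ n ∧
      volume (closedBall (0 : Eu n) 1) / 2 ≤ volume {x₀ : Eu n | ‖x₀‖ ≤ 1 ∧
        volume (closedBall (0 : Eu n) (1 / 512)) / 2 ≤
          volume {e : Eu n | ‖e‖ ≤ 1 / 512 ∧ v + x₀ + e ∈ GoodF n F}} := by
  obtain ⟨n1, h1⟩ := volume_compl_GoodF
  obtain ⟨n2, h2⟩ := window_num
  refine ⟨max (max n1 n2) 2, fun n hn R hR F hF => ?_⟩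
  have hn1 : n1 ≤ n := le_trans (le_trans (le_max_left _ _) (le_max_left _ _)) hn
  have hn2' : n2 ≤ n := le_trans (le_trans (le_max_right _ _) (le_max_left _ _)) hn
  have hn2 : (2 : ℝ) ≤ n := by exact_mod_cast le_trans (le_max_right _ _) hn
  have hn0 : (0 : ℝ) < n := by linarith
  have hL : 0 < Real.log n := Real.log_pos (by linarith)
  have hT : 0 < T0 n := by unfold T0; positivity
  have hbv : 0 ≤ bv n := ENNReal.toReal_nonneg
  have hQ : MeasurableSet {v : Eu n | ∀ i, |v i| ≤ R} := by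
    have : {v : Eu n | ∀ i, |v i| ≤ R} = ⋂ i, {v : Eu n | |v i| ≤ R} := by
      ext
      simp
    rw [this]
    refine MeasurableSet.iInter fun i => ?_
    refine measurableSet_le ?_ measurable_const
    fun_prop
  have key : 4 * volume (GoodF n F)ᶜ + F.card * volume (closedBall (0 : Eu n) 3) / 4 ^ n <
      volume {v : Eu n | ∀ i, |v i| ≤ R} := by
    rw [volume_cube n R hR.le]
    have e1 : (4 : ENNReal) * volume (GoodF n F)ᶜ ≤
        ENNReal.ofReal (4 * (F.card * bv n * (2 / T0 n + 2 / n ^ 3))) := by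
      rw [ENNReal.ofReal_mul (by norm_num)]
      refine mul_le_mul' (by norm_num) (h1 n hn1 F)
    have e2 : (F.card : ENNReal) * volume (closedBall (0 : Eu n) 3) / 4 ^ n =
        ENNReal.ofReal (F.card * bv n * (3 / 4) ^ n) := by
      rw [vol_cB n 0 (by norm_num : (0 : ℝ) ≤ 3), vol_eq_bv, ← ENNReal.ofReal_natCast,
        ← ENNReal.ofReal_mul (by positivity), ← ENNReal.ofReal_mul (by positivity)]
      have e3 : (4 : ENNReal) ^ n = ENNReal.ofReal (4 ^ n) := by
        rw [ENNReal.ofReal_pow (by norm_num)]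
        norm_num
      rw [e3, ← ENNReal.ofReal_div_of_pos (by positivity)]
      congr 1
      rw [div_pow]
      field_simp
    refine (add_le_add e1 e2.le).trans_lt ?_
    rw [← ENNReal.ofReal_add (by positivity) (by positivity)]
    refine (ENNReal.ofReal_lt_ofReal_iff (by positivity)).2 ?_
    have e4 : 4 * (F.card * bv n * (2 / T0 n + 2 / n ^ 3)) + F.card * bv n * (3 / 4) ^ n =
        (F.card * bv n) * (8 / T0 n + 8 / n ^ 3 + (3 / 4) ^ n) := by ring
    rw [e4]
    calc (F.card * bv n) * (8 / T0 n + 8 / n ^ 3 + (3 / 4) ^ n)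
        ≤ (2 * (n * Real.log n / 2 ^ 32) * (2 * R) ^ n) *
          (8 / T0 n + 8 / n ^ 3 + (3 / 4) ^ n) := mul_le_mul_of_nonneg_right hF (by positivity)
      _ = (2 * (n * Real.log n / 2 ^ 32) * (8 / T0 n + 8 / n ^ 3 + (3 / 4) ^ n)) *
          (2 * R) ^ n := by ring
      _ < 1 * (2 * R) ^ n := mul_lt_mul_of_pos_right (h2 n hn2') (by positivity)
      _ = (2 * R) ^ n := one_mul _
  obtain ⟨v, hv, hv2, hv3⟩ := exists_window (GoodF n F)ᶜ (measurableSet_GoodF n F).compl F _ hQ key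
  refine ⟨v, hv, hv2, ?_⟩
  simpa only [Set.mem_compl_iff, not_not] using hv3

end Crest.Agent.CD
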