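import Crest.Agent.CD_Defs

/-!
# CD-Win2: averaging over the window position; volume of a cube
-/

set_option autoImplicit false
open MeasureTheory Metric
open scoped ENNReal

namespace Crest.Agent.CD

/-- Averaging over `v ∈ Q`. Let
`G v = 4 ∫_{x₀ ∈ B} ∫_{e ∈ B'} 1[v + x₀ + e ∈ bad] / (vol B vol B') + #{y ∈ F : ‖y - v‖ ≤ 3} / 4^n`
(`B'` the ball of radius `1/512`). By Tonelli and translation invariance `∫_Q G < vol Q`, so
`G v < 1` for some `v ∈ Q`; then Markov in `x₀`. -/
theorem exists_window {n : ℕ} (bad : Set (Eu n)) (hbad : MeasurableSet bad)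
    (F : Finset (Eu n)) (Q : Set (Eu n)) (hQ : MeasurableSet Q)
    (h : 4 * volume bad + F.card * volume (closedBall (0 : Eu n) 3) / 4 ^ n < volume Q) :
    ∃ v ∈ Q, (F.filter (fun y => ‖y - v‖ ≤ 3)).card ≤ 4 ^ n ∧
      volume (closedBall (0 : Eu n) 1) / 2 ≤ volume {x₀ : Eu n | ‖x₀‖ ≤ 1 ∧
        volume (closedBall (0 : Eu n) (1 / 512)) / 2 ≤
          volume {e : Eu n | ‖e‖ ≤ 1 / 512 ∧ v + x₀ + e ∉ bad}} := by
  classical
  by_contra hcon
  push Not at hcon
  obtain ⟨β, hβ⟩ : ∃ β, β = volume (closedBall (0 : Eu n) 1) := ⟨_, rfl⟩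
  obtain ⟨β', hβ'⟩ : ∃ β', β' = volume (closedBall (0 : Eu n) (1 / 512)) := ⟨_, rfl⟩
  have hβ0 : β ≠ 0 := by
    rw [hβ]
    exact (measure_closedBall_pos volume _ (by norm_num)).ne'
  have hβt : β ≠ ⊤ := by
    rw [hβ]
    exact measure_closedBall_lt_top.ne
  have hβ'0 : β' ≠ 0 := by
    rw [hβ']
    exact (measure_closedBall_pos volume _ (by norm_num)).ne'
  have hβ't : β' ≠ ⊤ := by
    rw [hβ']
    exact measure_closedBall_lt_top.ne
  rw [← hβ, ← hβ'] at hcon
  -- the indicator
  let φ : Eu n → ℝ≥0∞ := bad.indicator 1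
  have hφm : Measurable φ := measurable_one.indicator hbad
  -- inner integral
  let f : Eu n → Eu n → ℝ≥0∞ := fun v x₀ => ∫⁻ e in closedBall (0 : Eu n) (1 / 512), φ (v + x₀ + e)
  have hfval : ∀ v x₀, f v x₀ = volume {e : Eu n | ‖e‖ ≤ 1 / 512 ∧ v + x₀ + e ∈ bad} := by
    intro v x₀
    have hm : MeasurableSet {e : Eu n | v + x₀ + e ∈ bad} :=
      (measurable_const_add (v + x₀)) hbad
    have e1 : ∀ e : Eu n, φ (v + x₀ + e) = {e : Eu n | v + x₀ + e ∈ bad}.indicator 1 e := by
      intro e
      rfl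
    show ∫⁻ e in closedBall (0 : Eu n) (1 / 512), φ (v + x₀ + e) = _
    simp only [e1]
    rw [lintegral_indicator_one hm, Measure.restrict_apply hm]
    congr 1
    ext e
    simp only [Set.mem_inter_iff, Set.mem_ofPred_eq, mem_closedBall_zero_iff]
    tauto
  let H : Eu n → ℝ≥0∞ := fun v => ∫⁻ x₀ in closedBall (0 : Eu n) 1, f v x₀
  have hjm : Measurable (fun p : (Eu n × Eu n) × Eu n => φ (p.1.1 + p.1.2 + p.2)) :=
    hφm.comp ((measurable_fst.fst.add measurable_fst.snd).add measurable_snd)
  have hfm2 : Measurable (fun p : Eu n × Eu n => f p.1 p.2) :=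
    Measurable.lintegral_prod_right' hjm
  have hfm : ∀ v, Measurable (f v) := fun v => hfm2.comp measurable_prodMk_left
  have hHm : Measurable H := Measurable.lintegral_prod_right' hfm2
  -- the count
  let cnt : Eu n → ℝ≥0∞ := fun v => ∑ y ∈ F, (closedBall y 3).indicator 1 v
  have hcm : Measurable cnt := by
    refine Finset.measurable_sum _ fun y _ => ?_
    exact measurable_one.indicator measurableSet_closedBall
  have hcnt : ∀ v, cnt v = ((F.filter (fun y => ‖y - v‖ ≤ 3)).card : ℝ≥0∞) := by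
    intro v
    rw [Finset.card_filter]
    push_cast
    refine Finset.sum_congr rfl fun y _ => ?_
    by_cases hy : ‖y - v‖ ≤ 3
    · rw [if_pos hy, Set.indicator_of_mem]
      · rfl
      · rw [mem_closedBall, dist_comm, dist_eq_norm]
        exact hy
    · rw [if_neg hy, Set.indicator_of_notMem]
      rw [mem_closedBall, dist_comm, dist_eq_norm]
      exact hy
  -- pointwise bound
  have hpt : ∀ v ∈ Q, β * β' ≤ 4 * H v + β * β' * (cnt v / 4 ^ n) := by
    intro v hv
    by_cases hc : (F.filter (fun y => ‖y - v‖ ≤ 3)).card ≤ 4 ^ n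
    · have h1 := hcon v hv hc
      -- Markov
      set S : Set (Eu n) := {x₀ | β' / 2 ≤ f v x₀} with hS
      have h2 : β ≤ volume {x₀ : Eu n | ‖x₀‖ ≤ 1 ∧
          β' / 2 ≤ volume {e : Eu n | ‖e‖ ≤ 1 / 512 ∧ v + x₀ + e ∉ bad}} +
          volume (S ∩ closedBall (0 : Eu n) 1) := by
        rw [hβ]
        refine (measure_mono ?_).trans (measure_union_le _ _)
        intro x₀ hx₀
        have hx₀' : ‖x₀‖ ≤ 1 := by simpa using hx₀
        by_cases h3 : β' / 2 ≤ volume {e : Eu n | ‖e‖ ≤ 1 / 512 ∧ v + x₀ + e ∉ bad}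
        · exact Or.inl ⟨hx₀', h3⟩
        · refine Or.inr ⟨?_, hx₀⟩
          show β' / 2 ≤ f v x₀
          rw [hfval]
          by_contra h4
          have h5 : β' ≤ volume {e : Eu n | ‖e‖ ≤ 1 / 512 ∧ v + x₀ + e ∉ bad} +
              volume {e : Eu n | ‖e‖ ≤ 1 / 512 ∧ v + x₀ + e ∈ bad} := by
            rw [hβ']
            refine (measure_mono ?_).trans (measure_union_le _ _)
            intro e he
            have he' : ‖e‖ ≤ 1 / 512 := by simpa using he
            by_cases h6 : v + x₀ + e ∈ bad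
            · exact Or.inr ⟨he', h6⟩
            · exact Or.inl ⟨he', h6⟩
          have h7 := ENNReal.add_lt_add (not_le.1 h3) (not_le.1 h4)
          rw [ENNReal.add_halves] at h7
          exact absurd h5 (not_le.2 h7)
      have h3 : β / 2 ≤ volume (S ∩ closedBall (0 : Eu n) 1) := by
        by_contra h4
        have h5 := ENNReal.add_lt_add h1 (not_le.1 h4)
        rw [ENNReal.add_halves] at h5
        exact absurd h2 (not_le.2 h5)
      have h4 : β' / 2 * volume (S ∩ closedBall (0 : Eu n) 1) ≤ H v := by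
        have h5 := mul_meas_ge_le_lintegral (μ := volume.restrict (closedBall (0 : Eu n) 1))
          (hfm v) (β' / 2)
        have h6 : MeasurableSet {x | β' / 2 ≤ f v x} := measurableSet_le measurable_const (hfm v)
        rw [Measure.restrict_apply h6] at h5
        exact h5
      have h5 : β * β' ≤ 4 * H v := by
        calc β * β' = (β / 2 + β / 2) * (β' / 2 + β' / 2) := by
              rw [ENNReal.add_halves, ENNReal.add_halves]
          _ = 4 * (β' / 2 * (β / 2)) := by ring
          _ ≤ 4 * (β' / 2 * volume (S ∩ closedBall (0 : Eu n) 1)) := by gcongr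
          _ ≤ 4 * H v := by gcongr
      exact h5.trans le_self_add
    · have h1 : (4 ^ n : ℝ≥0∞) ≤ cnt v := by
        rw [hcnt v]
        exact_mod_cast (not_le.1 hc).le
      have h2 : 1 ≤ cnt v / 4 ^ n := by
        rw [ENNReal.le_div_iff_mul_le (Or.inl (by positivity)) (Or.inl (by finiteness)), one_mul]
        exact h1
      calc β * β' = β * β' * 1 := (mul_one _).symm
        _ ≤ β * β' * (cnt v / 4 ^ n) := by gcongr
        _ ≤ _ := le_add_self
  -- integrate
  have hint := setLIntegral_mono' (μ := volume) hQ hpt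
  rw [setLIntegral_const] at hint
  have hH : ∫⁻ v in Q, H v ≤ β * β' * volume bad := by
    calc ∫⁻ v in Q, H v ≤ ∫⁻ v, H v := setLIntegral_le_lintegral _ _
      _ = ∫⁻ x₀ in closedBall (0 : Eu n) 1, ∫⁻ v, f v x₀ := by
          exact lintegral_lintegral_swap hfm2.aemeasurable
      _ = ∫⁻ x₀ in closedBall (0 : Eu n) 1, β' * volume bad := by
          refine lintegral_congr fun x₀ => ?_
          have hjm' : Measurable (fun p : Eu n × Eu n => φ (p.1 + x₀ + p.2)) :=
            hφm.comp ((measurable_fst.add_const x₀).add measurable_snd)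
          calc ∫⁻ v, f v x₀ = ∫⁻ e in closedBall (0 : Eu n) (1 / 512), ∫⁻ v, φ (v + x₀ + e) := by
                exact lintegral_lintegral_swap hjm'.aemeasurable
            _ = ∫⁻ e in closedBall (0 : Eu n) (1 / 512), volume bad := by
                refine lintegral_congr fun e => ?_
                have e2 : ∀ v : Eu n, φ (v + x₀ + e) = φ (v + (x₀ + e)) := fun v => by
                  rw [add_assoc]
                simp only [e2]
                rw [lintegral_add_right_eq_self φ (x₀ + e)]
                exact lintegral_indicator_one hbad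
            _ = β' * volume bad := by rw [setLIntegral_const, hβ', mul_comm]
      _ = β * β' * volume bad := by rw [setLIntegral_const, hβ]; ring
  have hC : ∫⁻ v in Q, cnt v ≤ F.card * volume (closedBall (0 : Eu n) 3) := by
    calc ∫⁻ v in Q, cnt v ≤ ∫⁻ v, cnt v := setLIntegral_le_lintegral _ _
      _ = ∑ y ∈ F, ∫⁻ v, (closedBall y 3).indicator 1 v :=
          lintegral_finsetSum _ fun y _ => measurable_one.indicator measurableSet_closedBall
      _ = ∑ y ∈ F, volume (closedBall (0 : Eu n) 3) := by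
          refine Finset.sum_congr rfl fun y _ => ?_
          rw [lintegral_indicator_one measurableSet_closedBall, Measure.addHaar_closedBall_center]
      _ = _ := by rw [Finset.sum_const, nsmul_eq_mul]
  have hsplit : ∫⁻ v in Q, (4 * H v + β * β' * (cnt v / 4 ^ n)) =
      4 * (∫⁻ v in Q, H v) + β * β' * ((∫⁻ v in Q, cnt v) / 4 ^ n) := by
    rw [lintegral_add_left (hHm.const_mul 4), lintegral_const_mul _ hHm,
      lintegral_const_mul _ (hcm.div_const _)]
    congr 2
    simp only [div_eq_mul_inv]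
    rw [lintegral_mul_const _ hcm]
  rw [hsplit] at hint
  have hfin : β * β' * volume Q ≤
      β * β' * (4 * volume bad + F.card * volume (closedBall (0 : Eu n) 3) / 4 ^ n) := by
    calc β * β' * volume Q ≤ 4 * (∫⁻ v in Q, H v) + β * β' * ((∫⁻ v in Q, cnt v) / 4 ^ n) := hint
      _ ≤ 4 * (β * β' * volume bad) +
          β * β' * ((F.card * volume (closedBall (0 : Eu n) 3)) / 4 ^ n) := by
          gcongr
      _ = _ := by ring
  have hββ0 : β * β' ≠ 0 := mul_ne_zero hβ0 hβ'0
  have hββt : β * β' ≠ ⊤ := ENNReal.mul_ne_top hβt hβ't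
  have hlt := (ENNReal.mul_lt_mul_iff_right hββ0 hββt).2 h
  exact absurd hfin (not_le.2 hlt)

/-- Volume of a cube in Euclidean space. -/
theorem volume_cube (n : ℕ) (R : ℝ) (hR : 0 ≤ R) :
    volume {v : Eu n | ∀ i, |v i| ≤ R} = ENNReal.ofReal ((2 * R) ^ n) := by
  have h1 : {v : Eu n | ∀ i, |v i| ≤ R} =
      (WithLp.ofLp : Eu n → (Fin n → ℝ)) ⁻¹' (Set.Icc (fun _ => -R) (fun _ => R)) := by
    ext v
    simp only [Set.mem_ofPred_eq, Set.mem_preimage, Set.mem_Icc, Pi.le_def, abs_le, forall_and]
  have h2 := (PiLp.volume_preserving_ofLp (Fin n)).measure_preimage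
    (s := Set.Icc (fun _ => -R) (fun _ => R)) measurableSet_Icc.nullMeasurableSet
  rw [h1]
  refine h2.trans ?_
  rw [Real.volume_Icc_pi, Finset.prod_const, Finset.card_univ, Fintype.card_fin,
    ← ENNReal.ofReal_pow (by linarith)]
  congr 2
  ring

end Crest.Agent.CD
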