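import Mathlib

/-!
# S0347: interfaces between the parts (owner helper5)

Parts: [A] `GaussMarg` (CVA_ files), [B] `BaseLemma` (CVB_ files), [D] `GP` (CVD_ files),
[C] assembly (CVC_ files).  Paper proof: notes rid = S0347 (helper5, 12:20Z, three notes).
CHANGE 12:40Z: tree nodes split a coordinate `c` into the two values `v` (left) and `v + 1` (right);
the weights `g c t` vanish for `ρ c * |t| > m / 2`.
-/

set_option autoImplicit false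
open MeasureTheory

namespace Crest.Agent.CV

/-- The standard normal density. -/
noncomputable def phi (w : ℝ) : ℝ := (Real.sqrt (2 * Real.pi))⁻¹ * Real.exp (-(w ^ 2) / 2)

/-- Binary trees of rows `a ∈ ℤ^m`. -/
inductive Tree (m : ℕ) : Type
  | leaf (a : Fin m → ℤ) : Tree m
  | node (c : Fin m) (v : ℤ) (t0 t1 : Tree m) : Tree m

namespace Tree

variable {m : ℕ}

/-- The rows (leaves) of a tree. -/
def rows : Tree m → List (Fin m → ℤ)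
  | leaf a => [a]
  | node _ _ t0 t1 => t0.rows ++ t1.rows

/-- Well-formed trees: at every node the coordinate `c` takes the value `v` on all rows of the
left subtree and the value `v + 1` on all rows of the right subtree. -/
def WF : Tree m → Prop
  | leaf _ => True
  | node c v t0 t1 =>
      (∀ a ∈ t0.rows, a c = v) ∧ (∀ a ∈ t1.rows, a c = v + 1) ∧ t0.WF ∧ t1.WF

end Tree

/-- Normalised mass of the row `a` at the offset `u`. -/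
noncomputable def mass {m : ℕ} (B : Matrix (Fin m) (Fin m) ℤ) (g : Fin m → ℤ → ℝ)
    (u a : Fin m → ℤ) : ℝ :=
  |(B.det : ℝ)| * ∏ c, g c (u c - B.mulVec a c)

/-- [D] The lossless tower of rows. -/
def GP : Prop :=
  ∃ c0 : ℝ, 0 < c0 ∧ ∃ C : ℕ, ∀ s : ℕ, 1 ≤ s →
    ∃ (m : ℕ) (ρ : Fin m → ℝ) (g : Fin m → ℤ → ℝ) (B : Matrix (Fin m) (Fin m) ℤ),
      s ≤ m ∧ m ≤ C * s ^ 2 ∧ (∀ c, 0 < ρ c ∧ ρ c ≤ 1) ∧ (∀ c t, 0 ≤ g c t) ∧
      (∀ c (t : ℤ) (w : ℝ), |w - ρ c * t| ≤ ρ c → g c t ≤ ρ c * phi w) ∧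
      (∀ c (t : ℤ), (m : ℝ) / 2 < ρ c * |(t : ℝ)| → g c t = 0) ∧
      B.det ≠ 0 ∧ |(B.det : ℝ)| ≤ Real.exp (C * (s : ℝ) ^ 8) ∧
      ∀ u : Fin m → ℤ, ∃ T : Tree m, T.WF ∧ T.rows.length ≤ 2 ^ m ∧
        (∀ a ∈ T.rows, mass B g u a ≤ (1 / 2 : ℝ) ^ s) ∧
        c0 ≤ (T.rows.map (mass B g u)).sum

/-- [A] Every convex body in `ℝ^(N+m)`, `m^8 ≤ log (N+m)`, has a linear position in which its
marginal on the last `m` coordinates dominates a constant times the standard Gaussian density on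
the cube `‖v‖_∞ ≤ m`. -/
def GaussMarg : Prop :=
  ∃ c1 : ℝ, 0 < c1 ∧ ∃ n0 : ℕ, ∀ (N m : ℕ), n0 ≤ N + m → 1 ≤ m →
    (m : ℝ) ^ 8 ≤ Real.log ((N + m : ℕ) : ℝ) →
    ∀ K : Set (Fin (N + m) → ℝ), IsCompact K → Convex ℝ K → (interior K).Nonempty →
      ∃ (L : (Fin (N + m) → ℝ) ≃ₗ[ℝ] ((Fin N → ℝ) × (Fin m → ℝ))) (x0 : Fin (N + m) → ℝ),
        (∀ (y : Fin N → ℝ) (v : Fin m → ℝ), (∀ i, |y i| ≤ (((N + m : ℕ) : ℝ) ^ 3)⁻¹) →
          (∀ j, |v j| ≤ (((N + m : ℕ) : ℝ) ^ 3)⁻¹) → (y, v) ∈ (fun x => L (x - x0)) '' K) ∧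
        (∀ z ∈ (fun x => L (x - x0)) '' K, (∀ i, |z.1 i| ≤ ((N + m : ℕ) : ℝ) ^ 3) ∧
          ∀ j, |z.2 j| ≤ ((N + m : ℕ) : ℝ) ^ 3) ∧
        ∀ v : Fin m → ℝ, (∀ j, |v j| ≤ m) →
          ENNReal.ofReal (c1 * ∏ j, phi (v j)) * volume ((fun x => L (x - x0)) '' K) ≤
            volume {y : Fin N → ℝ | (y, v) ∈ (fun x => L (x - x0)) '' K}

open Classical in
/-- [B] The base lemma: for `h ∈ F_p^N`, `α ∈ F_p` uniform, a union `X` of aligned `4`-cubes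
is missed by the random affine hyperplane lattice `⟨h, x⟩ = α` with probability at most
`3 exp (-|X|/p)` as long as `|X|/p ≤ N/(log N)^3`. -/
def BaseLemma : Prop :=
  ∃ n0 : ℕ, ∀ N : ℕ, n0 ≤ N → ∀ (p : ℕ) [Fact p.Prime], 2 ^ N ≤ p →
    ∀ X : Finset (Fin N → ℤ), (∀ x ∈ X, ∀ i, |x i| ≤ (N : ℤ) ^ 14) →
      (∀ x ∈ X, ∀ y : Fin N → ℤ, (∀ i, y i / 4 = x i / 4) → y ∈ X) →
      (X.card : ℝ) * (Real.log N) ^ 3 ≤ p * N →
      (((Finset.univ : Finset ((Fin N → ZMod p) × ZMod p)).filter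
        (fun w => ∀ x ∈ X, ∑ i, w.1 i * ((x i : ℤ) : ZMod p) ≠ w.2)).card : ℝ) ≤
        3 * (p : ℝ) ^ (N + 1) * Real.exp (-(X.card : ℝ) / p)

end Crest.Agent.CV
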