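import Mathlib
import Crest.Agent.CV_Defs

/-!
# S0347, part [A]: the Gaussian marginal of a convex body.  Definitions and small API.
(designer helper3; proof notes: rid = S0347)
-/

set_option autoImplicit false
open MeasureTheory

namespace Crest.Agent.CVA

/-- Squared euclidean norm on `Fin n → ℝ`. -/
noncomputable def nsq {n : ℕ} (x : Fin n → ℝ) : ℝ := ∑ i, x i ^ 2

/-- Density on `Fin m → ℝ` of the centred Gaussian with standard deviation `s`. -/
noncomputable def gd (m : ℕ) (s : ℝ) (v : Fin m → ℝ) : ℝ :=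
  ((Real.sqrt (2 * Real.pi) * s) ^ m)⁻¹ * Real.exp (-(nsq v) / (2 * s ^ 2))

/-- Convex bodies. -/
structure Body {n : ℕ} (K : Set (Fin n → ℝ)) : Prop where
  cpt : IsCompact K
  cvx : Convex ℝ K
  int : (interior K).Nonempty

/-- The uniform probability measure on `K`. -/
noncomputable def uK {n : ℕ} (K : Set (Fin n → ℝ)) : Measure (Fin n → ℝ) :=
  (volume K)⁻¹ • volume.restrict K

/-- Second moments of an isotropic measure. -/
structure Iso2 {n : ℕ} (μ : Measure (Fin n → ℝ)) : Prop where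
  int : ∀ i, Integrable (fun x : Fin n → ℝ => x i ^ 2) μ
  cov : ∀ i j, ∫ x, x i * x j ∂μ = if i = j then 1 else 0

/-- Isotropic convex bodies (of arbitrary volume). -/
structure Iso {n : ℕ} (K : Set (Fin n → ℝ)) : Prop where
  body : Body K
  mean : ∀ i, ∫ x, x i ∂(uK K) = 0
  cov : ∀ i j, ∫ x, x i * x j ∂(uK K) = if i = j then 1 else 0

/-- The smoothed marginal of `μ` under `G`. -/
noncomputable def hG {n m : ℕ} (μ : Measure (Fin n → ℝ)) (s : ℝ) (G : Matrix (Fin m) (Fin n) ℝ)
    (v : Fin m → ℝ) : ℝ := ∫ x, gd m s (v - G.mulVec x) ∂μ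

/-- The radius (standard deviation) of the mean smoothed marginal. -/
noncomputable def rad {n : ℕ} (s : ℝ) (x : Fin n → ℝ) : ℝ := Real.sqrt (s ^ 2 + nsq x / n)

/-- The mean of the smoothed marginals over the Gaussian random projection `G`. -/
noncomputable def hS {n : ℕ} (m : ℕ) (μ : Measure (Fin n → ℝ)) (s : ℝ) (v : Fin m → ℝ) : ℝ :=
  ∫ x, gd m (rad s x) v ∂μ

/-- Normalised section function of a body in `ℝ^N × ℝ^m`. -/
noncomputable def sec {N m : ℕ} (K : Set ((Fin N → ℝ) × (Fin m → ℝ))) (v : Fin m → ℝ) : ℝ :=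
  (volume {y : Fin N → ℝ | (y, v) ∈ K}).toReal / (volume K).toReal

section api

variable {n m : ℕ}

theorem nsq_nonneg (x : Fin n → ℝ) : 0 ≤ nsq x := Finset.sum_nonneg fun _ _ => sq_nonneg _

theorem nsq_smul (c : ℝ) (x : Fin n → ℝ) : nsq (c • x) = c ^ 2 * nsq x := by
  simp only [nsq, Pi.smul_apply, smul_eq_mul, mul_pow, Finset.mul_sum]

theorem nsq_neg (x : Fin n → ℝ) : nsq (-x) = nsq x := by simp [nsq]

theorem nsq_zero : nsq (0 : Fin n → ℝ) = 0 := by simp [nsq]

theorem nsq_eq_norm (x : Fin n → ℝ) : nsq x = ‖WithLp.toLp 2 x‖ ^ 2 := by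
  rw [EuclideanSpace.norm_sq_eq]
  simp [nsq]

theorem abs_le_of_nsq {x : Fin n → ℝ} {r : ℝ} (hr : 0 ≤ r) (h : nsq x ≤ r ^ 2) (i : Fin n) :
    |x i| ≤ r := by
  refine abs_le_of_sq_le_sq ?_ hr
  refine le_trans ?_ h
  exact Finset.single_le_sum (f := fun i => x i ^ 2) (fun _ _ => sq_nonneg _) (Finset.mem_univ i)

theorem nsq_le_of_abs {x : Fin n → ℝ} {r : ℝ} (h : ∀ i, |x i| ≤ r) : nsq x ≤ n * r ^ 2 := by
  have : ∀ i ∈ Finset.univ, x i ^ 2 ≤ r ^ 2 := fun i _ => by
    rw [← sq_abs]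
    exact pow_le_pow_left₀ (abs_nonneg _) (h i) 2
  calc nsq x ≤ ∑ _i : Fin n, r ^ 2 := Finset.sum_le_sum this
    _ = n * r ^ 2 := by simp

theorem continuous_nsq : Continuous (nsq : (Fin n → ℝ) → ℝ) := by
  unfold nsq; fun_prop

theorem measurable_nsq : Measurable (nsq : (Fin n → ℝ) → ℝ) := continuous_nsq.measurable

/-- Parallelogram inequality. -/
theorem nsq_mid (x y : Fin n → ℝ) : nsq ((1 / 2 : ℝ) • (x + y)) ≤ (nsq x + nsq y) / 2 := by
  unfold nsq
  rw [← Finset.sum_add_distrib, Finset.sum_div]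
  refine Finset.sum_le_sum fun i _ => ?_
  simp only [Pi.smul_apply, Pi.add_apply, smul_eq_mul]
  nlinarith [sq_nonneg (x i - y i)]

theorem gd_nonneg {s : ℝ} (hs : 0 ≤ s) (v : Fin m → ℝ) : 0 ≤ gd m s v := by
  unfold gd; positivity

theorem gd_pos {s : ℝ} (hs : 0 < s) (v : Fin m → ℝ) : 0 < gd m s v := by
  unfold gd; positivity

theorem gd_le {s : ℝ} (hs : 0 ≤ s) (v : Fin m → ℝ) :
    gd m s v ≤ ((Real.sqrt (2 * Real.pi) * s) ^ m)⁻¹ := by
  unfold gd
  refine mul_le_of_le_one_right (by positivity) ?_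
  rw [Real.exp_le_one_iff, neg_div, neg_nonpos]
  exact div_nonneg (nsq_nonneg _) (by positivity)

theorem continuous_gd (m : ℕ) (s : ℝ) : Continuous (gd m s) := by
  unfold gd nsq; fun_prop

theorem measurable_gd₂ (m : ℕ) (v : Fin m → ℝ) : Measurable (fun s : ℝ => gd m s v) := by
  unfold gd; fun_prop

theorem gd_one (v : Fin m → ℝ) : gd m 1 v = ∏ j, CV.phi (v j) := by
  unfold gd CV.phi nsq
  rw [Finset.prod_mul_distrib, Finset.prod_const, ← Real.exp_sum, Finset.card_univ,
    Fintype.card_fin, mul_one, inv_pow]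
  congr 2
  rw [← Finset.sum_div, Finset.sum_neg_distrib]
  norm_num

theorem rad_pos {s : ℝ} (hs : 0 < s) (x : Fin n → ℝ) : 0 < rad s x := by
  unfold rad
  have : 0 ≤ nsq x / n := div_nonneg (nsq_nonneg _) (Nat.cast_nonneg _)
  positivity

theorem le_rad {s : ℝ} (x : Fin n → ℝ) : s ≤ rad s x := by
  unfold rad
  refine Real.le_sqrt_of_sq_le ?_
  have : 0 ≤ nsq x / n := div_nonneg (nsq_nonneg _) (Nat.cast_nonneg _)
  linarith

theorem measurable_rad (s : ℝ) : Measurable (rad s : (Fin n → ℝ) → ℝ) := by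
  unfold rad
  exact ((measurable_nsq.div_const _).const_add _).sqrt

namespace Body

variable {K : Set (Fin n → ℝ)}

theorem vol_pos (h : Body K) : 0 < volume K :=
  (isOpen_interior.measure_pos volume h.int).trans_le (measure_mono interior_subset)

theorem vol_lt_top (h : Body K) : volume K < ⊤ := h.cpt.measure_lt_top

theorem vol_ne_zero (h : Body K) : volume K ≠ 0 := h.vol_pos.ne'

theorem vol_ne_top (h : Body K) : volume K ≠ ⊤ := h.vol_lt_top.ne

theorem toReal_pos (h : Body K) : 0 < (volume K).toReal :=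
  ENNReal.toReal_pos h.vol_ne_zero h.vol_ne_top

theorem meas (h : Body K) : MeasurableSet K := h.cpt.measurableSet

theorem isProb (h : Body K) : IsProbabilityMeasure (uK K) := by
  constructor
  simp only [uK, Measure.smul_apply, Measure.restrict_apply MeasurableSet.univ, Set.univ_inter,
    smul_eq_mul]
  exact ENNReal.inv_mul_cancel h.vol_ne_zero h.vol_ne_top

theorem ae_mem (h : Body K) : ∀ᵐ x ∂(uK K), x ∈ K := by
  unfold uK
  refine Measure.ae_smul_measure ?_ _
  exact ae_restrict_mem h.meas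

theorem integral_uK (_h : Body K) (f : (Fin n → ℝ) → ℝ) :
    ∫ x, f x ∂(uK K) = (∫ x in K, f x) / (volume K).toReal := by
  unfold uK
  rw [integral_smul_measure, ENNReal.toReal_inv, smul_eq_mul, div_eq_inv_mul]

theorem real_uK (_h : Body K) {A : Set (Fin n → ℝ)} :
    (uK K).real A = (volume.restrict K A).toReal / (volume K).toReal := by
  unfold uK
  rw [measureReal_def, Measure.smul_apply, smul_eq_mul, ENNReal.toReal_mul, ENNReal.toReal_inv,
    div_eq_inv_mul]

theorem integrable_of_continuous (h : Body K) {f : (Fin n → ℝ) → ℝ} (hf : Continuous f) :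
    Integrable f (uK K) := by
  unfold uK
  refine Integrable.smul_measure ?_ (ENNReal.inv_ne_top.2 h.vol_ne_zero)
  exact hf.continuousOn.integrableOn_compact h.cpt

end Body

theorem Iso.iso2 {K : Set (Fin n → ℝ)} (h : Iso K) : Iso2 (uK K) where
  int i := h.body.integrable_of_continuous (by fun_prop)
  cov := h.cov

theorem Iso.integral_nsq {K : Set (Fin n → ℝ)} (h : Iso K) : ∫ x, nsq x ∂(uK K) = n := by
  unfold nsq
  rw [integral_finsetSum _ (fun i _ => h.iso2.int i)]
  have : ∀ i : Fin n, ∫ x, x i ^ 2 ∂(uK K) = 1 := by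
    intro i
    have := h.cov i i
    simp only [if_true] at this
    rw [← this]
    refine integral_congr_ae (Filter.Eventually.of_forall fun x => ?_)
    simp only []
    ring
  simp [this]

end api

end Crest.Agent.CVA
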