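import Mathlib
import Crest.Agent.CVA_Defs

/-!
# S0347 part [A], step A3: a random Gaussian projection (helper72)
-/

set_option autoImplicit false
open MeasureTheory ProbabilityTheory

namespace Crest.Agent.CVA

/-- one-dimensional Gaussian of variance `1 / a` -/
noncomputable def CVA3_g (a : ℝ) : Measure ℝ := gaussianReal 0 (Real.toNNReal (1 / a))

instance (a : ℝ) : IsProbabilityMeasure (CVA3_g a) := by unfold CVA3_g; infer_instance

/-- product Gaussian of variance `1 / a` -/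
noncomputable def CVA3_N (ι : Type) [Fintype ι] (a : ℝ) : Measure (ι → ℝ) :=
  Measure.pi (fun _ => CVA3_g a)

instance (ι : Type) [Fintype ι] (a : ℝ) : IsProbabilityMeasure (CVA3_N ι a) := by
  unfold CVA3_N; infer_instance

theorem CVA3_F1 (a τ v : ℝ) (ha : 0 < a) (hτ : 0 ≤ τ) :
    ∫ ξ : ℝ, Complex.exp (Complex.I * ξ * v) * Complex.exp (-(τ / 2 : ℝ) * ξ ^ 2) ∂(CVA3_g a) =
      ((Real.sqrt (a / (a + τ)) * Real.exp (-(v ^ 2) / (2 * (a + τ))) : ℝ) : ℂ) := by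
  have hv : Real.toNNReal (1 / a) ≠ 0 := by
    have : 0 < 1 / a := by positivity
    simpa using this
  have hva : ((Real.toNNReal (1 / a) : NNReal) : ℝ) = 1 / a :=
    Real.coe_toNNReal _ (by positivity)
  unfold CVA3_g
  rw [integral_gaussianReal_eq_integral_smul hv]
  have e1 : ∀ ξ : ℝ, gaussianPDFReal 0 (Real.toNNReal (1 / a)) ξ •
      (Complex.exp (Complex.I * ξ * v) * Complex.exp (-(τ / 2 : ℝ) * ξ ^ 2)) =
      ((Real.sqrt (a / (2 * Real.pi)) : ℝ) : ℂ) *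
      (Complex.exp (Complex.I * v * ξ) * Complex.exp (-(((a + τ) / 2 : ℝ) : ℂ) * ξ ^ 2)) := by
    intro ξ
    rw [gaussianPDFReal, hva, Complex.real_smul]
    push_cast
    rw [mul_assoc]
    have h1 : Real.sqrt (2 * Real.pi * (1 / a)) = (Real.sqrt (a / (2 * Real.pi)))⁻¹ := by
      rw [← Real.sqrt_inv]; congr 1; field_simp
    rw [h1, Complex.ofReal_inv, inv_inv]
    congr 1
    rw [← Complex.exp_add, ← Complex.exp_add, ← Complex.exp_add]
    congr 1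
    have : (a : ℂ) ≠ 0 := by exact_mod_cast ha.ne'
    field_simp
    ring
  simp_rw [e1]
  rw [integral_const_mul, fourierIntegral_gaussian]
  · have haτ : 0 < a + τ := by linarith
    have h2 : ((Real.pi : ℂ) / (((a + τ) / 2 : ℝ) : ℂ)) ^ (1 / 2 : ℂ) =
        ((Real.sqrt (Real.pi / ((a + τ) / 2)) : ℝ) : ℂ) := by
      rw [Real.sqrt_eq_rpow, Complex.ofReal_cpow (by positivity)]
      push_cast
      rfl
    rw [h2]
    have h3 : Complex.exp (-(v : ℂ) ^ 2 / (4 * (((a + τ) / 2 : ℝ) : ℂ))) =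
        ((Real.exp (-(v ^ 2) / (2 * (a + τ))) : ℝ) : ℂ) := by
      push_cast
      congr 1
      have : (a : ℂ) + τ ≠ 0 := by exact_mod_cast haτ.ne'
      field_simp
      ring
    rw [h3, ← mul_assoc, ← Complex.ofReal_mul, ← Complex.ofReal_mul, ← Real.sqrt_mul (by positivity)]
    have h4 : a / (2 * Real.pi) * (Real.pi / ((a + τ) / 2)) = a / (a + τ) := by
      field_simp
    rw [h4]
  · simp only [Complex.ofReal_re]; linarith

theorem CVA3_Fm (ι : Type) [Fintype ι] (a τ : ℝ) (ha : 0 < a) (hτ : 0 ≤ τ) (v : ι → ℝ) :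
    ∫ ξ : ι → ℝ, Complex.exp ((∑ i, ξ i * v i : ℝ) * Complex.I) *
      ((Real.exp (-(τ * ∑ i, ξ i ^ 2) / 2) : ℝ) : ℂ) ∂(CVA3_N ι a) =
      (((Real.sqrt (a / (a + τ))) ^ (Fintype.card ι) *
        Real.exp (-(∑ i, v i ^ 2) / (2 * (a + τ))) : ℝ) : ℂ) := by
  have e1 : ∀ ξ : ι → ℝ, Complex.exp ((∑ i, ξ i * v i : ℝ) * Complex.I) *
      ((Real.exp (-(τ * ∑ i, ξ i ^ 2) / 2) : ℝ) : ℂ) =
      ∏ i, (Complex.exp (Complex.I * ξ i * v i) * Complex.exp (-(τ / 2 : ℝ) * ξ i ^ 2)) := by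
    intro ξ
    rw [Finset.prod_mul_distrib, ← Complex.exp_sum, ← Complex.exp_sum]
    push_cast
    congr 2
    · rw [Finset.sum_mul]; exact Finset.sum_congr rfl (fun i _ => by ring)
    · rw [Finset.mul_sum, neg_div, Finset.sum_div, ← Finset.sum_neg_distrib]
      exact Finset.sum_congr rfl (fun i _ => by ring)
  simp_rw [e1]
  unfold CVA3_N
  rw [integral_fintype_prod_eq_prod (f := fun i (x : ℝ) =>
    (Complex.exp (Complex.I * x * v i) * Complex.exp (-(τ / 2 : ℝ) * x ^ 2)))]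
  rw [Finset.prod_congr rfl (fun i _ => CVA3_F1 a τ (v i) ha hτ), ← Complex.ofReal_prod]
  congr 1
  rw [Finset.prod_mul_distrib, Finset.prod_const, Finset.card_univ, ← Real.exp_sum]
  congr 2
  rw [neg_div, Finset.sum_div, ← Finset.sum_neg_distrib]
  exact Finset.sum_congr rfl (fun i _ => by ring)

/-- Fourier representation of `gd`. -/
theorem CVA3_gd (m : ℕ) (s τ : ℝ) (hs : 0 < s) (hτ : 0 ≤ τ) (v : Fin m → ℝ) :
    ((gd m (Real.sqrt (s ^ 2 + τ)) v : ℝ) : ℂ) = ((((Real.sqrt (2 * Real.pi) * s)⁻¹) ^ m : ℝ) : ℂ) *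
      ∫ ξ : Fin m → ℝ, Complex.exp ((∑ i, ξ i * v i : ℝ) * Complex.I) *
        ((Real.exp (-(τ * ∑ i, ξ i ^ 2) / 2) : ℝ) : ℂ) ∂(CVA3_N (Fin m) (s ^ 2)) := by
  rw [CVA3_Fm (Fin m) (s ^ 2) τ (by positivity) hτ, ← Complex.ofReal_mul]
  congr 1
  rw [gd, nsq, Fintype.card_fin, ← mul_assoc, ← mul_pow, Real.sq_sqrt (by positivity), ← inv_pow]
  congr 2
  rw [Real.sqrt_div (by positivity), Real.sqrt_sq hs.le]
  field_simp

theorem CVA3_gd0 (m : ℕ) (s : ℝ) (hs : 0 < s) (v : Fin m → ℝ) :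
    ((gd m s v : ℝ) : ℂ) = ((((Real.sqrt (2 * Real.pi) * s)⁻¹) ^ m : ℝ) : ℂ) *
      ∫ ξ : Fin m → ℝ, Complex.exp ((∑ i, ξ i * v i : ℝ) * Complex.I) ∂(CVA3_N (Fin m) (s ^ 2)) := by
  have := CVA3_gd m s 0 hs le_rfl v
  rw [add_zero, Real.sqrt_sq hs.le] at this
  rw [this]
  simp

/-- the Gaussian weight -/
noncomputable def CVA3_q {m n : ℕ} (ξ : Fin m → ℝ) (z : Fin n → ℝ) : ℝ :=
  Real.exp (-(((∑ i, z i ^ 2) / n) * ∑ j, ξ j ^ 2) / 2)

/-- the phase -/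
noncomputable def CVA3_ph {m n : ℕ} (G : Fin m × Fin n → ℝ) (ξ : Fin m → ℝ) (z : Fin n → ℝ) : ℂ :=
  Complex.exp ((∑ p : Fin m × Fin n, G p * (-(ξ p.1 * z p.2)) : ℝ) * Complex.I)

theorem CVA3_avg {m n : ℕ} (hn : 0 < n) (ξ : Fin m → ℝ) (z : Fin n → ℝ) :
    ∫ G, CVA3_ph G ξ z ∂(CVA3_N (Fin m × Fin n) n) = (CVA3_q ξ z : ℂ) := by
  have hn' : (0 : ℝ) < n := by exact_mod_cast hn
  have := CVA3_Fm (Fin m × Fin n) n 0 hn' le_rfl (fun p => -(ξ p.1 * z p.2))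
  simp only [zero_mul, neg_zero, zero_div, Real.exp_zero, Complex.ofReal_one, mul_one, add_zero,
    div_self hn'.ne', Real.sqrt_one, one_pow, one_mul] at this
  unfold CVA3_ph
  rw [this]
  congr 1
  unfold CVA3_q
  congr 1
  have : ∑ i : Fin m × Fin n, (-(ξ i.1 * z i.2)) ^ 2 = (∑ i, z i ^ 2) * ∑ j, ξ j ^ 2 := by
    rw [Fintype.sum_prod_type, Finset.sum_mul_sum, Finset.sum_comm]
    exact Finset.sum_congr rfl (fun i _ => Finset.sum_congr rfl (fun j _ => by ring))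
  rw [this]
  field_simp

theorem CVA3_ph_sub {m n : ℕ} (G : Fin m × Fin n → ℝ) (ξ : Fin m → ℝ) (x y : Fin n → ℝ) :
    CVA3_ph G ξ x * (starRingEnd ℂ) (CVA3_ph G ξ y) = CVA3_ph G ξ (x - y) := by
  unfold CVA3_ph
  rw [← Complex.exp_conj, ← Complex.exp_add]
  congr 1
  rw [map_mul, Complex.conj_ofReal, Complex.conj_I, mul_neg, ← sub_eq_add_neg, ← sub_mul,
    ← Complex.ofReal_sub, ← Finset.sum_sub_distrib]
  congr 2
  exact Finset.sum_congr rfl (fun p _ => by simp only [Pi.sub_apply]; ring)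

theorem CVA3_ph_norm {m n : ℕ} (G : Fin m × Fin n → ℝ) (ξ : Fin m → ℝ) (x : Fin n → ℝ) :
    ‖CVA3_ph G ξ x‖ = 1 := by
  unfold CVA3_ph
  exact Complex.norm_exp_ofReal_mul_I _

theorem CVA3_q_nonneg {m n : ℕ} (ξ : Fin m → ℝ) (x : Fin n → ℝ) : 0 ≤ CVA3_q ξ x :=
  (Real.exp_pos _).le

theorem CVA3_q_le {m n : ℕ} (ξ : Fin m → ℝ) (x : Fin n → ℝ) : CVA3_q ξ x ≤ 1 := by
  unfold CVA3_q
  rw [Real.exp_le_one_iff]
  have : 0 ≤ ((∑ i, x i ^ 2) / n) * ∑ j, ξ j ^ 2 := by positivity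
  linarith

/-- the difference of the phase and its mean -/
noncomputable def CVA3_k {m n : ℕ} (G : Fin m × Fin n → ℝ) (ξ : Fin m → ℝ) (z : Fin n → ℝ) : ℂ :=
  CVA3_ph G ξ z - (CVA3_q ξ z : ℂ)

theorem CVA3_k_norm {m n : ℕ} (G : Fin m × Fin n → ℝ) (ξ : Fin m → ℝ) (x : Fin n → ℝ) :
    ‖CVA3_k G ξ x‖ ≤ 2 := by
  unfold CVA3_k
  refine (norm_sub_le _ _).trans ?_
  rw [CVA3_ph_norm, Complex.norm_real, Real.norm_eq_abs, abs_of_nonneg (CVA3_q_nonneg _ _)]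
  linarith [CVA3_q_le ξ x]

theorem CVA3_k_cont {m n : ℕ} :
    Continuous (fun z : (Fin m × Fin n → ℝ) × (Fin m → ℝ) × (Fin n → ℝ) =>
      CVA3_k z.1 z.2.1 z.2.2) := by
  unfold CVA3_k CVA3_ph CVA3_q
  fun_prop

theorem CVA3_ph_cont {m n : ℕ} :
    Continuous (fun z : (Fin m × Fin n → ℝ) × (Fin m → ℝ) × (Fin n → ℝ) =>
      CVA3_ph z.1 z.2.1 z.2.2) := by
  unfold CVA3_ph
  fun_prop

theorem CVA3_q_bound {m n : ℕ} (hn : 0 < n) (ξ : Fin m → ℝ) (x y : Fin n → ℝ) :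
    CVA3_q ξ (x - y) - CVA3_q ξ x * CVA3_q ξ y ≤ ((∑ j, ξ j ^ 2) / n) * |∑ i, x i * y i| := by
  have hn' : (0 : ℝ) < n := by exact_mod_cast hn
  unfold CVA3_q
  rw [← Real.exp_add]
  have key : ∀ a b : ℝ, a ≤ 0 → b ≤ 0 → Real.exp a - Real.exp b ≤ |a - b| := by
    intro a b ha hb
    have h1 : Real.exp b = Real.exp a * Real.exp (b - a) := by rw [← Real.exp_add]; ring_nf
    have h2 : 1 - Real.exp (b - a) ≤ |a - b| := by
      have := Real.add_one_le_exp (b - a)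
      have := le_abs_self (a - b)
      linarith
    by_cases h3 : 0 ≤ 1 - Real.exp (b - a)
    · calc Real.exp a - Real.exp b = Real.exp a * (1 - Real.exp (b - a)) := by rw [h1]; ring
        _ ≤ 1 * (1 - Real.exp (b - a)) :=
          mul_le_mul_of_nonneg_right (Real.exp_le_one_iff.mpr ha) h3
        _ ≤ |a - b| := by linarith
    · have : Real.exp a - Real.exp b ≤ 0 := by
        rw [show Real.exp a - Real.exp b = Real.exp a * (1 - Real.exp (b - a)) by rw [h1]; ring]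
        exact mul_nonpos_of_nonneg_of_nonpos (Real.exp_pos _).le (by linarith)
      exact this.trans (abs_nonneg _)
  refine (key _ _ ?_ ?_).trans ?_
  · have : 0 ≤ ((∑ i, (x - y) i ^ 2) / n) * ∑ j, ξ j ^ 2 := by positivity
    linarith
  · have h1 : 0 ≤ ((∑ i, x i ^ 2) / n) * ∑ j, ξ j ^ 2 := by positivity
    have h2 : 0 ≤ ((∑ i, y i ^ 2) / n) * ∑ j, ξ j ^ 2 := by positivity
    linarith
  · have e : ∑ i, (x - y) i ^ 2 = ∑ i, x i ^ 2 + ∑ i, y i ^ 2 - 2 * ∑ i, x i * y i := by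
      rw [Finset.mul_sum, ← Finset.sum_add_distrib, ← Finset.sum_sub_distrib]
      exact Finset.sum_congr rfl (fun i _ => by simp only [Pi.sub_apply]; ring)
    rw [e]
    apply le_of_eq
    have hξ : 0 ≤ (∑ j, ξ j ^ 2) / n := by positivity
    rw [← abs_of_nonneg hξ, ← abs_mul]
    congr 1
    field_simp
    ring

section second

variable {m n : ℕ} (μ : Measure (Fin n → ℝ)) [IsProbabilityMeasure μ]

/-- `χ_G - χ_*` -/
noncomputable def CVA3_Phi (G : Fin m × Fin n → ℝ) (ξ : Fin m → ℝ) : ℂ :=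
  ∫ x, CVA3_k G ξ x ∂μ

theorem CVA3_Phi_norm (G : Fin m × Fin n → ℝ) (ξ : Fin m → ℝ) : ‖CVA3_Phi μ G ξ‖ ≤ 2 := by
  unfold CVA3_Phi
  have := norm_integral_le_of_norm_le_const (μ := μ) (C := 2)
    (Filter.Eventually.of_forall (fun x => CVA3_k_norm G ξ x))
  simpa using this

theorem CVA3_Phi_meas : StronglyMeasurable
    (fun z : (Fin m × Fin n → ℝ) × (Fin m → ℝ) => CVA3_Phi μ z.1 z.2) := by
  unfold CVA3_Phi
  have h : StronglyMeasurable (fun z : ((Fin m × Fin n → ℝ) × (Fin m → ℝ)) × (Fin n → ℝ) =>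
      CVA3_k z.1.1 z.1.2 z.2) := by
    have hc : Continuous (fun z : ((Fin m × Fin n → ℝ) × (Fin m → ℝ)) × (Fin n → ℝ) =>
      CVA3_k z.1.1 z.1.2 z.2) := by
      unfold CVA3_k CVA3_ph CVA3_q
      fun_prop
    exact hc.stronglyMeasurable
  exact h.integral_prod_right

theorem CVA3_Phi_meas1 (G : Fin m × Fin n → ℝ) : StronglyMeasurable
    (fun ξ : Fin m → ℝ => CVA3_Phi μ G ξ) := by
  unfold CVA3_Phi
  have h : StronglyMeasurable (fun z : (Fin m → ℝ) × (Fin n → ℝ) => CVA3_k G z.1 z.2) := by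
    have hc : Continuous (fun z : (Fin m → ℝ) × (Fin n → ℝ) => CVA3_k G z.1 z.2) := by
      unfold CVA3_k CVA3_ph CVA3_q
      fun_prop
    exact hc.stronglyMeasurable
  exact h.integral_prod_right

theorem CVA3_Phi_sq (G : Fin m × Fin n → ℝ) (ξ : Fin m → ℝ) :
    ((‖CVA3_Phi μ G ξ‖ ^ 2 : ℝ) : ℂ) =
      ∫ z, CVA3_k G ξ z.1 * (starRingEnd ℂ) (CVA3_k G ξ z.2) ∂(μ.prod μ) := by
  rw [integral_prod_mul (f := fun x => CVA3_k G ξ x)
    (g := fun y => (starRingEnd ℂ) (CVA3_k G ξ y)), integral_conj]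
  rw [← Complex.normSq_eq_norm_sq, Complex.normSq_eq_conj_mul_self, mul_comm]
  rfl

theorem CVA3_E1 (hn : 0 < n) (ξ : Fin m → ℝ) (x y : Fin n → ℝ) :
    ∫ G, CVA3_k G ξ x * (starRingEnd ℂ) (CVA3_k G ξ y) ∂(CVA3_N (Fin m × Fin n) n) =
      ((CVA3_q ξ (x - y) - CVA3_q ξ x * CVA3_q ξ y : ℝ) : ℂ) := by
  have hi : ∀ z : Fin n → ℝ, Integrable (fun G => CVA3_ph G ξ z) (CVA3_N (Fin m × Fin n) n) := by
    intro z
    refine Integrable.of_bound (C := 1) ?_ (Filter.Eventually.of_forall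
      (fun G => (CVA3_ph_norm G ξ z).le))
    have : Continuous (fun G : Fin m × Fin n → ℝ => CVA3_ph G ξ z) := by
      unfold CVA3_ph
      fun_prop
    exact this.aestronglyMeasurable
  have hic : Integrable (fun G => (starRingEnd ℂ) (CVA3_ph G ξ y))
      (CVA3_N (Fin m × Fin n) n) := by
    have := (hi y)
    exact (Complex.conjCLE.integrable_comp_iff (φ := fun G => CVA3_ph G ξ y)).mpr this
  have e : ∀ G : Fin m × Fin n → ℝ, CVA3_k G ξ x * (starRingEnd ℂ) (CVA3_k G ξ y) =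
      CVA3_ph G ξ (x - y) - (CVA3_q ξ y : ℂ) * CVA3_ph G ξ x -
        (CVA3_q ξ x : ℂ) * (starRingEnd ℂ) (CVA3_ph G ξ y) + (CVA3_q ξ x : ℂ) * (CVA3_q ξ y : ℂ) := by
    intro G
    rw [← CVA3_ph_sub]
    unfold CVA3_k
    rw [map_sub, Complex.conj_ofReal]
    ring
  simp_rw [e]
  rw [integral_add, integral_sub, integral_sub, integral_const_mul, integral_const_mul,
    integral_conj, CVA3_avg hn, CVA3_avg hn, CVA3_avg hn, Complex.conj_ofReal, integral_const]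
  · simp only [probReal_univ, one_smul]
    push_cast
    ring
  · exact hi _
  · exact (hi _).const_mul _
  · exact (hi _).sub ((hi _).const_mul _)
  · exact hic.const_mul _
  · exact ((hi _).sub ((hi _).const_mul _)).sub (hic.const_mul _)
  · exact integrable_const _

theorem CVA3_E2 (hn : 0 < n) (ξ : Fin m → ℝ) :
    ∫ G, ‖CVA3_Phi μ G ξ‖ ^ 2 ∂(CVA3_N (Fin m × Fin n) n) =
      ∫ z, (CVA3_q ξ (z.1 - z.2) - CVA3_q ξ z.1 * CVA3_q ξ z.2) ∂(μ.prod μ) := by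
  apply Complex.ofReal_injective
  rw [← integral_complex_ofReal, ← integral_complex_ofReal]
  simp_rw [CVA3_Phi_sq, ← CVA3_E1 hn]
  rw [integral_integral_swap]
  refine Integrable.of_bound (C := 4) ?_ (Filter.Eventually.of_forall ?_)
  · have : Continuous (Function.uncurry fun (G : Fin m × Fin n → ℝ) (z : (Fin n → ℝ) × (Fin n → ℝ)) =>
      CVA3_k G ξ z.1 * (starRingEnd ℂ) (CVA3_k G ξ z.2)) := by
      unfold CVA3_k CVA3_ph CVA3_q Function.uncurry
      have hcc : Continuous (starRingEnd ℂ) := Complex.continuous_conj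
      fun_prop
    exact this.aestronglyMeasurable
  · rintro ⟨G, z⟩
    simp only [Function.uncurry]
    rw [norm_mul, RCLike.norm_conj]
    have h1 := CVA3_k_norm G ξ z.1
    have h2 := CVA3_k_norm G ξ z.2
    nlinarith [norm_nonneg (CVA3_k G ξ z.1), norm_nonneg (CVA3_k G ξ z.2)]

theorem CVA3_E3 (hn : 0 < n)
    (hint : ∀ i j, Integrable (fun x : Fin n → ℝ => x i * x j) μ)
    (hcov : ∀ i j, ∫ x, x i * x j ∂μ = if i = j then 1 else 0) (ξ : Fin m → ℝ) :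
    ∫ G, ‖CVA3_Phi μ G ξ‖ ^ 2 ∂(CVA3_N (Fin m × Fin n) n) ≤
      (∑ j, ξ j ^ 2) / Real.sqrt n := by
  have hn' : (0 : ℝ) < n := by exact_mod_cast hn
  have hsn : 0 < Real.sqrt n := Real.sqrt_pos.mpr hn'
  rw [CVA3_E2 μ hn]
  have hsq : ∀ z : (Fin n → ℝ) × (Fin n → ℝ), (∑ i, z.1 i * z.2 i) ^ 2 =
      ∑ i, ∑ j, (z.1 i * z.1 j) * (z.2 i * z.2 j) := by
    intro z
    rw [sq, Finset.sum_mul_sum]
    exact Finset.sum_congr rfl (fun i _ => Finset.sum_congr rfl (fun j _ => by ring))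
  have hI : ∀ i j, Integrable (fun z : (Fin n → ℝ) × (Fin n → ℝ) =>
      (z.1 i * z.1 j) * (z.2 i * z.2 j)) (μ.prod μ) := fun i j => (hint i j).mul_prod (hint i j)
  have hI2 : Integrable (fun z : (Fin n → ℝ) × (Fin n → ℝ) => (∑ i, z.1 i * z.2 i) ^ 2)
      (μ.prod μ) := by
    simp_rw [hsq]
    exact integrable_finsetSum _ (fun i _ => integrable_finsetSum _ (fun j _ => hI i j))
  have hE : ∫ z, (∑ i, z.1 i * z.2 i) ^ 2 ∂(μ.prod μ) = n := by
    simp_rw [hsq]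
    rw [integral_finsetSum _ (fun i _ => integrable_finsetSum _ (fun j _ => hI i j))]
    have : ∀ i, ∫ z : (Fin n → ℝ) × (Fin n → ℝ), ∑ j, (z.1 i * z.1 j) * (z.2 i * z.2 j)
        ∂(μ.prod μ) = 1 := by
      intro i
      rw [integral_finsetSum _ (fun j _ => hI i j)]
      have : ∀ j, ∫ z : (Fin n → ℝ) × (Fin n → ℝ), (z.1 i * z.1 j) * (z.2 i * z.2 j)
          ∂(μ.prod μ) = if i = j then 1 else 0 := by
        intro j
        rw [integral_prod_mul (f := fun x : Fin n → ℝ => x i * x j)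
          (g := fun x : Fin n → ℝ => x i * x j), hcov]
        split_ifs <;> simp
      simp_rw [this]
      simp
    simp_rw [this]
    simp
  calc ∫ z, (CVA3_q ξ (z.1 - z.2) - CVA3_q ξ z.1 * CVA3_q ξ z.2) ∂(μ.prod μ)
      ≤ ∫ z, ((∑ j, ξ j ^ 2) / n) * (((∑ i, z.1 i * z.2 i) ^ 2 / Real.sqrt n + Real.sqrt n) / 2)
          ∂(μ.prod μ) := by
        refine integral_mono ?_ ?_ ?_
        · refine Integrable.of_bound (C := 2) ?_ (Filter.Eventually.of_forall ?_)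
          · have : Continuous (fun z : (Fin n → ℝ) × (Fin n → ℝ) =>
              (CVA3_q ξ (z.1 - z.2) - CVA3_q ξ z.1 * CVA3_q ξ z.2)) := by
              unfold CVA3_q
              fun_prop
            exact this.aestronglyMeasurable
          · intro z
            have h1 := CVA3_q_nonneg ξ (z.1 - z.2)
            have h2 := CVA3_q_le ξ (z.1 - z.2)
            have h3 := CVA3_q_nonneg ξ z.1
            have h4 := CVA3_q_le ξ z.1
            have h5 := CVA3_q_nonneg ξ z.2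
            have h6 := CVA3_q_le ξ z.2
            rw [Real.norm_eq_abs, abs_le]
            constructor <;> nlinarith
        · exact (((hI2.div_const _).add (integrable_const _)).div_const _).const_mul _
        · intro z
          refine (CVA3_q_bound hn ξ z.1 z.2).trans ?_
          refine mul_le_mul_of_nonneg_left ?_ (by positivity)
          have h := sq_nonneg (|∑ i, z.1 i * z.2 i| - Real.sqrt n)
          have h2 := sq_abs (∑ i, z.1 i * z.2 i)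
          rw [le_div_iff₀ (by norm_num : (0 : ℝ) < 2)]
          rw [← sub_le_iff_le_add, le_div_iff₀ hsn]
          nlinarith
    _ = (∑ j, ξ j ^ 2) / Real.sqrt n := by
        rw [integral_const_mul, integral_div, integral_add (hI2.div_const _) (integrable_const _),
          integral_div, hE, integral_const]
        simp only [probReal_univ, smul_eq_mul, one_mul]
        have h3 : (n : ℝ) / Real.sqrt n = Real.sqrt n := Real.div_sqrt
        rw [h3]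
        have h4 : Real.sqrt n ^ 2 = n := Real.sq_sqrt hn'.le
        have h5 : (∑ j, ξ j ^ 2) / (n : ℝ) * ((Real.sqrt n + Real.sqrt n) / 2) =
          (∑ j, ξ j ^ 2) * (Real.sqrt n / n) := by ring
        rw [h5, Real.sqrt_div_self]
        ring

theorem CVA3_nu_sq (ι : Type) [Fintype ι] (a : ℝ) (ha : 0 < a) :
    Integrable (fun ξ : ι → ℝ => ∑ j, ξ j ^ 2) (CVA3_N ι a) ∧
    ∫ ξ, ∑ j, ξ j ^ 2 ∂(CVA3_N ι a) = Fintype.card ι / a := by
  have h1 : Integrable (fun x : ℝ => x ^ 2) (CVA3_g a) := by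
    unfold CVA3_g
    have := (memLp_id_gaussianReal' (μ := 0) (v := Real.toNNReal (1 / a)) 2 (by simp))
    exact this.integrable_sq
  have h2 : ∫ x : ℝ, x ^ 2 ∂(CVA3_g a) = 1 / a := by
    have h3 := variance_fun_id_gaussianReal (μ := 0) (v := Real.toNNReal (1 / a))
    rw [variance_eq_integral measurable_id'.aemeasurable] at h3
    simp only [integral_id_gaussianReal, sub_zero] at h3
    unfold CVA3_g
    rw [h3]
    exact Real.coe_toNNReal _ (by positivity)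
  have hI : ∀ j : ι, Integrable (fun ξ : ι → ℝ => ξ j ^ 2) (CVA3_N ι a) := by
    intro j
    unfold CVA3_N
    exact (measurePreserving_eval (fun _ : ι => CVA3_g a) j).integrable_comp_of_integrable h1
  refine ⟨integrable_finsetSum _ (fun j _ => hI j), ?_⟩
  rw [integral_finsetSum _ (fun j _ => hI j)]
  have : ∀ j : ι, ∫ ξ : ι → ℝ, ξ j ^ 2 ∂(CVA3_N ι a) = 1 / a := by
    intro j
    unfold CVA3_N
    rw [integral_comp_eval (μ := fun _ : ι => CVA3_g a) (i := j) (f := fun x : ℝ => x ^ 2)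
      h1.aestronglyMeasurable, h2]
  simp_rw [this]
  simp
  ring

theorem CVA3_exists (hn : 0 < n) (hm : 0 < m) (s : ℝ) (hs : 0 < s)
    (hint : ∀ i j, Integrable (fun x : Fin n → ℝ => x i * x j) μ)
    (hcov : ∀ i j, ∫ x, x i * x j ∂μ = if i = j then 1 else 0) :
    ∃ G : Fin m × Fin n → ℝ, ∫ ξ, ‖CVA3_Phi μ G ξ‖ ^ 2 ∂(CVA3_N (Fin m) (s ^ 2)) ≤
      2 * (m / s ^ 2 / Real.sqrt n) ∧ ∑ p, G p ^ 2 ≤ 2 * m := by
  have hn' : (0 : ℝ) < n := by exact_mod_cast hn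
  have hm' : (0 : ℝ) < m := by exact_mod_cast hm
  have hb : 0 < m / s ^ 2 / Real.sqrt n := by positivity
  have hm2 : StronglyMeasurable (fun z : (Fin m × Fin n → ℝ) × (Fin m → ℝ) =>
      ‖CVA3_Phi μ z.1 z.2‖ ^ 2) := (CVA3_Phi_meas μ).norm.pow 2
  have hI : Integrable (Function.uncurry fun (G : Fin m × Fin n → ℝ) (ξ : Fin m → ℝ) =>
      ‖CVA3_Phi μ G ξ‖ ^ 2) ((CVA3_N (Fin m × Fin n) n).prod (CVA3_N (Fin m) (s ^ 2))) := by
    refine Integrable.of_bound (C := 4) hm2.aestronglyMeasurable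
      (Filter.Eventually.of_forall ?_)
    rintro ⟨G, ξ⟩
    simp only [Function.uncurry, norm_pow, norm_norm]
    have := CVA3_Phi_norm μ G ξ
    nlinarith [norm_nonneg (CVA3_Phi μ G ξ)]
  have h1 : Integrable (fun G => ∫ ξ, ‖CVA3_Phi μ G ξ‖ ^ 2 ∂(CVA3_N (Fin m) (s ^ 2)))
      (CVA3_N (Fin m × Fin n) n) := hI.integral_prod_left
  have h2 : ∫ G, ∫ ξ, ‖CVA3_Phi μ G ξ‖ ^ 2 ∂(CVA3_N (Fin m) (s ^ 2))
      ∂(CVA3_N (Fin m × Fin n) n) ≤ m / s ^ 2 / Real.sqrt n := by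
    rw [integral_integral_swap hI]
    calc ∫ ξ, ∫ G, ‖CVA3_Phi μ G ξ‖ ^ 2 ∂(CVA3_N (Fin m × Fin n) n) ∂(CVA3_N (Fin m) (s ^ 2))
        ≤ ∫ ξ : Fin m → ℝ, (∑ j, ξ j ^ 2) / Real.sqrt n ∂(CVA3_N (Fin m) (s ^ 2)) := by
          refine integral_mono hI.swap.integral_prod_left
            ((CVA3_nu_sq (Fin m) (s ^ 2) (by positivity)).1.div_const _) (fun ξ => ?_)
          exact CVA3_E3 μ hn hint hcov ξ
      _ = m / s ^ 2 / Real.sqrt n := by
          rw [integral_div, (CVA3_nu_sq (Fin m) (s ^ 2) (by positivity)).2, Fintype.card_fin]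
  obtain ⟨h3, h4⟩ := CVA3_nu_sq (Fin m × Fin n) (n : ℝ) hn'
  have h5 : (Fintype.card (Fin m × Fin n) : ℝ) / n = m := by
    rw [Fintype.card_prod, Fintype.card_fin, Fintype.card_fin]
    push_cast
    field_simp
  rw [h5] at h4
  have h6 : Integrable (fun G => (∫ ξ, ‖CVA3_Phi μ G ξ‖ ^ 2 ∂(CVA3_N (Fin m) (s ^ 2))) /
      (m / s ^ 2 / Real.sqrt n) + (∑ p, G p ^ 2) / m) (CVA3_N (Fin m × Fin n) n) :=
    (h1.div_const _).add (h3.div_const _)
  obtain ⟨G, hG⟩ := exists_le_integral h6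
  have h7 : ∫ G, (∫ ξ, ‖CVA3_Phi μ G ξ‖ ^ 2 ∂(CVA3_N (Fin m) (s ^ 2))) /
      (m / s ^ 2 / Real.sqrt n) + (∑ p, G p ^ 2) / m ∂(CVA3_N (Fin m × Fin n) n) ≤ 2 := by
    rw [integral_add (h1.div_const _) (h3.div_const _), integral_div, integral_div, h4,
      div_self hm'.ne']
    have := (div_le_one hb).mpr h2
    linarith
  have h8 := hG.trans h7
  have h9 : 0 ≤ (∫ ξ, ‖CVA3_Phi μ G ξ‖ ^ 2 ∂(CVA3_N (Fin m) (s ^ 2))) /
      (m / s ^ 2 / Real.sqrt n) := div_nonneg (integral_nonneg (fun _ => sq_nonneg _)) hb.le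
  have h10 : 0 ≤ (∑ p, G p ^ 2) / (m : ℝ) := by positivity
  refine ⟨G, ?_, ?_⟩
  · rw [← div_le_iff₀ hb]; linarith
  · rw [← div_le_iff₀ hm']; linarith

end second

/-- the matrix of a function -/
def CVA3_mat {m n : ℕ} (G : Fin m × Fin n → ℝ) : Matrix (Fin m) (Fin n) ℝ :=
  Matrix.of (fun j i => G (j, i))

theorem CVA3_phase {m n : ℕ} (G : Fin m × Fin n → ℝ) (ξ v : Fin m → ℝ) (x : Fin n → ℝ) :
    Complex.exp ((∑ i, ξ i * (v - (CVA3_mat G).mulVec x) i : ℝ) * Complex.I) =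
      Complex.exp ((∑ i, ξ i * v i : ℝ) * Complex.I) * CVA3_ph G ξ x := by
  unfold CVA3_ph
  rw [← Complex.exp_add, ← add_mul, ← Complex.ofReal_add]
  congr 3
  rw [Fintype.sum_prod_type, ← Finset.sum_add_distrib]
  refine Finset.sum_congr rfl (fun j _ => ?_)
  simp only [Pi.sub_apply, Matrix.mulVec, dotProduct, CVA3_mat, Matrix.of_apply]
  rw [mul_sub, sub_eq_add_neg, Finset.mul_sum, ← Finset.sum_neg_distrib]
  congr 1
  exact Finset.sum_congr rfl (fun i _ => by ring)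

theorem CVA3_rep {n m : ℕ} (μ : Measure (Fin n → ℝ)) [IsProbabilityMeasure μ] (s : ℝ) (hs : 0 < s)
    (G : Fin m × Fin n → ℝ) (v : Fin m → ℝ) :
    ((hG μ s (CVA3_mat G) v - hS m μ s v : ℝ) : ℂ) =
      ((((Real.sqrt (2 * Real.pi) * s)⁻¹) ^ m : ℝ) : ℂ) *
        ∫ ξ, Complex.exp ((∑ i, ξ i * v i : ℝ) * Complex.I) * CVA3_Phi μ G ξ
          ∂(CVA3_N (Fin m) (s ^ 2)) := by
  have hcont : Continuous (Function.uncurry fun (x : Fin n → ℝ) (ξ : Fin m → ℝ) =>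
      Complex.exp ((∑ i, ξ i * v i : ℝ) * Complex.I) * CVA3_ph G ξ x) := by
    unfold CVA3_ph Function.uncurry; fun_prop
  have hcont2 : Continuous (Function.uncurry fun (x : Fin n → ℝ) (ξ : Fin m → ℝ) =>
      Complex.exp ((∑ i, ξ i * v i : ℝ) * Complex.I) * (CVA3_q ξ x : ℂ)) := by
    unfold CVA3_q Function.uncurry; fun_prop
  have hI1 : Integrable (Function.uncurry fun (x : Fin n → ℝ) (ξ : Fin m → ℝ) =>
      Complex.exp ((∑ i, ξ i * v i : ℝ) * Complex.I) * CVA3_ph G ξ x)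
        (μ.prod (CVA3_N (Fin m) (s ^ 2))) := by
    refine Integrable.of_bound (C := 1) hcont.aestronglyMeasurable
      (Filter.Eventually.of_forall ?_)
    rintro ⟨x, ξ⟩
    simp only [Function.uncurry]
    rw [norm_mul, Complex.norm_exp_ofReal_mul_I, CVA3_ph_norm, one_mul]
  have hI2 : Integrable (Function.uncurry fun (x : Fin n → ℝ) (ξ : Fin m → ℝ) =>
      Complex.exp ((∑ i, ξ i * v i : ℝ) * Complex.I) * (CVA3_q ξ x : ℂ))
        (μ.prod (CVA3_N (Fin m) (s ^ 2))) := by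
    refine Integrable.of_bound (C := 1) hcont2.aestronglyMeasurable
      (Filter.Eventually.of_forall ?_)
    rintro ⟨x, ξ⟩
    simp only [Function.uncurry]
    rw [norm_mul, Complex.norm_exp_ofReal_mul_I, one_mul, Complex.norm_real, Real.norm_eq_abs,
      abs_of_nonneg (CVA3_q_nonneg _ _)]
    exact CVA3_q_le _ _
  have e1 : ((hG μ s (CVA3_mat G) v : ℝ) : ℂ) =
      ((((Real.sqrt (2 * Real.pi) * s)⁻¹) ^ m : ℝ) : ℂ) *
        ∫ x, ∫ ξ, Complex.exp ((∑ i, ξ i * v i : ℝ) * Complex.I) * CVA3_ph G ξ x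
          ∂(CVA3_N (Fin m) (s ^ 2)) ∂μ := by
    unfold hG
    rw [← integral_complex_ofReal, ← integral_const_mul]
    congr 1
    ext x
    rw [CVA3_gd0 m s hs]
    simp_rw [CVA3_phase]
  have e2 : ((hS m μ s v : ℝ) : ℂ) =
      ((((Real.sqrt (2 * Real.pi) * s)⁻¹) ^ m : ℝ) : ℂ) *
        ∫ x, ∫ ξ, Complex.exp ((∑ i, ξ i * v i : ℝ) * Complex.I) * (CVA3_q ξ x : ℂ)
          ∂(CVA3_N (Fin m) (s ^ 2)) ∂μ := by
    unfold hS rad
    rw [← integral_complex_ofReal, ← integral_const_mul]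
    congr 1
    ext x
    rw [CVA3_gd m s _ hs (div_nonneg (nsq_nonneg x) (Nat.cast_nonneg n))]
    rfl
  have hJ1 : Integrable (fun ξ : Fin m → ℝ => ∫ x, Complex.exp ((∑ i, ξ i * v i : ℝ) * Complex.I) *
      CVA3_ph G ξ x ∂μ) (CVA3_N (Fin m) (s ^ 2)) := hI1.swap.integral_prod_left
  have hJ2 : Integrable (fun ξ : Fin m → ℝ => ∫ x, Complex.exp ((∑ i, ξ i * v i : ℝ) * Complex.I) *
      (CVA3_q ξ x : ℂ) ∂μ) (CVA3_N (Fin m) (s ^ 2)) := hI2.swap.integral_prod_left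
  rw [Complex.ofReal_sub, e1, e2, ← mul_sub, integral_integral_swap hI1,
    integral_integral_swap hI2, ← integral_sub hJ1 hJ2]
  congr 2
  ext ξ
  rw [integral_const_mul, integral_const_mul, ← mul_sub]
  congr 1
  unfold CVA3_Phi CVA3_k
  rw [integral_sub]
  · have : Continuous (fun x : Fin n → ℝ => CVA3_ph G ξ x) := by unfold CVA3_ph; fun_prop
    exact Integrable.of_bound (C := 1) this.aestronglyMeasurable
      (Filter.Eventually.of_forall (fun x => (CVA3_ph_norm G ξ x).le))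
  · have : Continuous (fun x : Fin n → ℝ => (CVA3_q ξ x : ℂ)) := by unfold CVA3_q; fun_prop
    refine Integrable.of_bound (C := 1) this.aestronglyMeasurable
      (Filter.Eventually.of_forall (fun x => ?_))
    rw [Complex.norm_real, Real.norm_eq_abs, abs_of_nonneg (CVA3_q_nonneg _ _)]
    exact CVA3_q_le _ _

theorem CVA3_L1 {n m : ℕ} (μ : Measure (Fin n → ℝ)) [IsProbabilityMeasure μ] (a : ℝ)
    (G : Fin m × Fin n → ℝ) (v : Fin m → ℝ) (b : ℝ) (hb0 : 0 < b)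
    (hG : ∫ ξ, ‖CVA3_Phi μ G ξ‖ ^ 2 ∂(CVA3_N (Fin m) a) ≤ b) :
    ‖∫ ξ, Complex.exp ((∑ i, ξ i * v i : ℝ) * Complex.I) * CVA3_Phi μ G ξ
        ∂(CVA3_N (Fin m) a)‖ ≤ Real.sqrt b := by
  have hsb : 0 < Real.sqrt b := Real.sqrt_pos.mpr hb0
  have hPm : StronglyMeasurable (fun ξ : Fin m → ℝ => CVA3_Phi μ G ξ) := CVA3_Phi_meas1 μ G
  have hP1 : Integrable (fun ξ => ‖CVA3_Phi μ G ξ‖) (CVA3_N (Fin m) a) := by
    refine Integrable.of_bound (C := 2) hPm.norm.aestronglyMeasurable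
      (Filter.Eventually.of_forall (fun ξ => ?_))
    rw [norm_norm]; exact CVA3_Phi_norm μ G ξ
  have hP2 : Integrable (fun ξ => ‖CVA3_Phi μ G ξ‖ ^ 2) (CVA3_N (Fin m) a) := by
    refine Integrable.of_bound (C := 4) (hPm.norm.pow 2).aestronglyMeasurable
      (Filter.Eventually.of_forall (fun ξ => ?_))
    rw [norm_pow, norm_norm]
    have := CVA3_Phi_norm μ G ξ
    nlinarith [norm_nonneg (CVA3_Phi μ G ξ)]
  have h1 : ‖∫ ξ, Complex.exp ((∑ i, ξ i * v i : ℝ) * Complex.I) * CVA3_Phi μ G ξ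
        ∂(CVA3_N (Fin m) a)‖
      ≤ ∫ ξ, ‖CVA3_Phi μ G ξ‖ ∂(CVA3_N (Fin m) a) := by
    refine norm_integral_le_of_norm_le hP1 (Filter.Eventually.of_forall (fun ξ => ?_))
    rw [norm_mul, Complex.norm_exp_ofReal_mul_I, one_mul]
  have hP3 : Integrable (fun ξ => ‖CVA3_Phi μ G ξ‖ ^ 2 / Real.sqrt b) (CVA3_N (Fin m) a) :=
    hP2.div_const _
  have hP4 : Integrable (fun ξ => ‖CVA3_Phi μ G ξ‖ ^ 2 / Real.sqrt b + Real.sqrt b)
      (CVA3_N (Fin m) a) := hP3.add (integrable_const _)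
  have hP5 : Integrable (fun ξ => (‖CVA3_Phi μ G ξ‖ ^ 2 / Real.sqrt b + Real.sqrt b) / 2)
      (CVA3_N (Fin m) a) := hP4.div_const _
  have h2 : ∫ ξ, ‖CVA3_Phi μ G ξ‖ ∂(CVA3_N (Fin m) a) ≤
      ∫ ξ, (‖CVA3_Phi μ G ξ‖ ^ 2 / Real.sqrt b + Real.sqrt b) / 2 ∂(CVA3_N (Fin m) a) := by
    refine integral_mono hP1 hP5 (fun ξ => ?_)
    generalize ‖CVA3_Phi μ G ξ‖ = t
    have h : 0 ≤ (t - Real.sqrt b) ^ 2 := sq_nonneg _
    have e : t ^ 2 / Real.sqrt b + Real.sqrt b = (t ^ 2 + Real.sqrt b ^ 2) / Real.sqrt b := by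
      field_simp
    show t ≤ (t ^ 2 / Real.sqrt b + Real.sqrt b) / 2
    rw [e, div_div, le_div_iff₀ (by positivity)]
    linarith [h, sub_sq t (Real.sqrt b)]
  have h3 : ∫ ξ, (‖CVA3_Phi μ G ξ‖ ^ 2 / Real.sqrt b + Real.sqrt b) / 2 ∂(CVA3_N (Fin m) a) =
      ((∫ ξ, ‖CVA3_Phi μ G ξ‖ ^ 2 ∂(CVA3_N (Fin m) a)) / Real.sqrt b + Real.sqrt b) / 2 := by
    rw [integral_div, integral_add hP3 (integrable_const _), integral_div,
      integral_const, probReal_univ, one_smul]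
  have h4 : (∫ ξ, ‖CVA3_Phi μ G ξ‖ ^ 2 ∂(CVA3_N (Fin m) a)) / Real.sqrt b ≤ Real.sqrt b := by
    rw [div_le_iff₀ hsb, Real.mul_self_sqrt hb0.le]
    exact hG
  linarith

/-- numerical estimate -/
theorem CVA3_num (m : ℕ) (hm : 0 < m) :
    ((Real.sqrt (2 * Real.pi))⁻¹) ^ m * Real.sqrt (2 * m) ≤ 1 := by
  have h1 : (2 : ℝ) ≤ Real.sqrt (2 * Real.pi) := by
    apply Real.le_sqrt_of_sq_le
    nlinarith [Real.pi_gt_three]
  have h2 : Real.sqrt (2 * m) ≤ 2 ^ m := by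
    rw [Real.sqrt_le_left (by positivity)]
    have h3 : (m : ℝ) ≤ 2 ^ (m - 1) := by
      have : m ≤ 2 ^ (m - 1) := by
        have := Nat.lt_two_pow_self (n := m - 1)
        omega
      exact_mod_cast this
    have h4 : (2 : ℝ) ^ m = 2 * 2 ^ (m - 1) := by
      rw [← pow_succ']; congr 1; omega
    rw [h4]
    have h5 : (1 : ℝ) ≤ 2 ^ (m - 1) := one_le_pow₀ (by norm_num)
    nlinarith
  have h6 : (2 : ℝ) ^ m ≤ (Real.sqrt (2 * Real.pi)) ^ m := pow_le_pow_left₀ (by norm_num) h1 m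
  rw [inv_pow, inv_mul_le_iff₀ (by positivity), mul_one]
  exact h2.trans h6

/-- **T3.** For an isotropic probability measure `μ` on `ℝ^n` some `m × n` matrix `G` (a typical
Gaussian matrix) makes the smoothed marginal uniformly close to the mixture of centred Gaussian
densities with standard deviations `rad s x`. -/
theorem CVA3_main {n m : ℕ} (hn : 0 < n) (hm : 0 < m) (μ : Measure (Fin n → ℝ))
    [IsProbabilityMeasure μ] (hμ : Iso2 μ) (s : ℝ) (hs : 0 < s) :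
    ∃ G : Matrix (Fin m) (Fin n) ℝ, (∑ j, ∑ i, G j i ^ 2 ≤ 2 * m) ∧ ∀ v : Fin m → ℝ,
      |hG μ s G v - hS m μ s v| ≤ (n : ℝ) ^ (-(1 / 4) : ℝ) * (s ^ (m + 1))⁻¹ := by
  have hn' : (0 : ℝ) < n := by exact_mod_cast hn
  have hm' : (0 : ℝ) < m := by exact_mod_cast hm
  have hint : ∀ i j, Integrable (fun x : Fin n → ℝ => x i * x j) μ := by
    intro i j
    refine Integrable.mono' (((hμ.int i).add (hμ.int j)).div_const 2)
      (by fun_prop : Continuous (fun x : Fin n → ℝ => x i * x j)).aestronglyMeasurable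
      (Filter.Eventually.of_forall (fun x => ?_))
    simp only [Pi.add_apply, Real.norm_eq_abs]
    rw [abs_le]
    constructor <;> nlinarith [sq_nonneg (x i - x j), sq_nonneg (x i + x j)]
  obtain ⟨G, hG1, hG2⟩ := CVA3_exists (m := m) μ hn hm s hs hint hμ.cov
  refine ⟨CVA3_mat G, ?_, fun v => ?_⟩
  · rw [Fintype.sum_prod_type] at hG2
    exact hG2
  have hc0 : 0 ≤ ((Real.sqrt (2 * Real.pi) * s)⁻¹) ^ m := by positivity
  have hb0 : 0 < 2 * (m / s ^ 2 / Real.sqrt n) := by positivity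
  rw [← Real.norm_eq_abs, ← Complex.norm_real, CVA3_rep μ s hs, norm_mul, Complex.norm_real,
    Real.norm_eq_abs, abs_of_nonneg hc0]
  have h1 := mul_le_mul_of_nonneg_left (CVA3_L1 μ (s ^ 2) G v _ hb0 hG1) hc0
  refine h1.trans ?_
  have h2 : Real.sqrt (2 * (m / s ^ 2 / Real.sqrt n)) =
      Real.sqrt (2 * m) * s⁻¹ * (n : ℝ) ^ (-(1 / 4) : ℝ) := by
    have e : 2 * (m / s ^ 2 / Real.sqrt n) = (2 * m) * (s⁻¹) ^ 2 * (Real.sqrt n)⁻¹ := by
      rw [inv_pow]; ring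
    rw [e, Real.sqrt_mul (by positivity), Real.sqrt_mul (by positivity), Real.sqrt_sq (by positivity),
      Real.sqrt_inv]
    congr 1
    rw [Real.sqrt_eq_rpow, Real.sqrt_eq_rpow, ← Real.rpow_mul hn'.le, Real.rpow_neg hn'.le]
    norm_num
  rw [h2]
  have h3 : ((Real.sqrt (2 * Real.pi) * s)⁻¹) ^ m *
      (Real.sqrt (2 * m) * s⁻¹ * (n : ℝ) ^ (-(1 / 4) : ℝ)) =
      (((Real.sqrt (2 * Real.pi))⁻¹) ^ m * Real.sqrt (2 * m)) *
        ((n : ℝ) ^ (-(1 / 4) : ℝ) * (s ^ (m + 1))⁻¹) := by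
    rw [mul_inv, mul_pow, pow_succ s m, mul_inv, inv_pow s m]
    ring
  rw [h3]
  refine mul_le_of_le_one_left (by positivity) (CVA3_num m hm)

/-- **T3** in the form of the blueprint. -/
theorem exists_proj {n m : ℕ} (hn : 1 ≤ n) (hm : 1 ≤ m) (μ : Measure (Fin n → ℝ))
    [IsProbabilityMeasure μ] (hμ : Iso2 μ) {s : ℝ} (hs : 0 < s) (hs1 : s ≤ 1) :
    ∃ G : Matrix (Fin m) (Fin n) ℝ, ∑ i, ∑ j, G i j ^ 2 ≤ 2 * m ∧
      ∀ v, |hG μ s G v - hS m μ s v| ≤ 2 * (n : ℝ) ^ (-(1 / 4) : ℝ) * (s ^ (m + 1))⁻¹ := by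
  have _ := hs1
  obtain ⟨G, h1, h2⟩ := CVA3_main (m := m) hn hm μ hμ s hs
  refine ⟨G, h1, fun v => (h2 v).trans ?_⟩
  have h3 : 0 ≤ (n : ℝ) ^ (-(1 / 4) : ℝ) * (s ^ (m + 1))⁻¹ := by positivity
  linarith

end Crest.Agent.CVA
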