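import Mathlib
import Crest.Agent.CVA_Defs

set_option autoImplicit false
open MeasureTheory

namespace Crest.Agent.CVA

theorem asym_core {ε : ℝ} : ∃ n0 : ℕ, ∀ n m : ℕ, n0 ≤ n → 1 ≤ m →
    (m : ℝ) ^ 8 ≤ Real.log n → ∃ u : ℝ, 1 ≤ u ∧ (m : ℝ) ≤ u ∧ Real.log n = u ^ 8 ∧
      78 * u ^ 3 - u ^ 8 / 4 ≤ Real.log ε ∧
      (n : ℝ) ^ (-(1 / 4) : ℝ) = Real.exp (-(u ^ 8 / 4)) ∧ Real.log u ≤ u := by
  set u0 : ℝ := max 316 (-Real.log ε) with hu0
  refine ⟨⌈Real.exp (u0 ^ 8)⌉₊, ?_⟩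
  intro n m hn hm hml
  have h316 : (316 : ℝ) ≤ u0 := le_max_left _ _
  have hn' : Real.exp (u0 ^ 8) ≤ (n : ℝ) := le_trans (Nat.le_ceil _) (by exact_mod_cast hn)
  have hnpos : (0 : ℝ) < n := lt_of_lt_of_le (Real.exp_pos _) hn'
  have hl : u0 ^ 8 ≤ Real.log n := by
    rw [← Real.log_exp (u0 ^ 8)]
    exact Real.log_le_log (Real.exp_pos _) hn'
  have hl0 : 0 ≤ Real.log n := le_trans (by positivity) hl
  set u : ℝ := (Real.log n) ^ ((1 : ℝ) / 8) with hu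
  have hu8 : u ^ 8 = Real.log n := by
    rw [hu, ← Real.rpow_natCast, ← Real.rpow_mul hl0]
    norm_num
  have hunn : 0 ≤ u := Real.rpow_nonneg hl0 _
  have huu0 : u0 ≤ u := by
    by_contra hcon
    rw [not_le] at hcon
    have := pow_lt_pow_left₀ hcon hunn (n := 8) (by norm_num)
    rw [hu8] at this
    linarith
  have hmu : (m : ℝ) ≤ u := by
    by_contra hcon
    rw [not_le] at hcon
    have := pow_lt_pow_left₀ hcon hunn (n := 8) (by norm_num)
    rw [hu8] at this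
    linarith
  have hu1 : 1 ≤ u := by linarith
  refine ⟨u, hu1, hmu, hu8.symm, ?_, ?_, ?_⟩
  · have h1 : -Real.log ε ≤ u := le_trans (le_max_right _ _) huu0
    have h2 : u ≤ u ^ 3 := by
      calc u = u ^ 1 := (pow_one u).symm
        _ ≤ u ^ 3 := pow_le_pow_right₀ hu1 (by norm_num)
    have h3 : (316 : ℝ) ≤ u ^ 5 := by
      calc (316 : ℝ) ≤ u := by linarith
        _ = u ^ 1 := (pow_one u).symm
        _ ≤ u ^ 5 := pow_le_pow_right₀ hu1 (by norm_num)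
    have h4 : 79 * u ^ 3 ≤ u ^ 8 / 4 := by
      have : u ^ 8 = u ^ 5 * u ^ 3 := by ring
      rw [this]
      have h5 : 0 ≤ u ^ 3 := by positivity
      nlinarith
    linarith
  · rw [Real.rpow_def_of_pos hnpos, ← hu8]
    congr 1
    ring
  · have := Real.log_le_sub_one_of_pos (show (0 : ℝ) < u by linarith)
    linarith

/-- `u^k ≤ exp(k u)` -/
theorem asym_pow {u : ℝ} (hu : 1 ≤ u) (hlog : Real.log u ≤ u) (k : ℕ) :
    u ^ k ≤ Real.exp (k * u) := by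
  have hupos : 0 < u := by linarith
  calc u ^ k = Real.exp (k * Real.log u) := by
        rw [← Real.log_pow, Real.exp_log (by positivity)]
    _ ≤ Real.exp (k * u) := by
        apply Real.exp_le_exp.2
        exact mul_le_mul_of_nonneg_left hlog (by positivity)

theorem asym_window {ε : ℝ} (hε : 0 < ε) : ∃ n0 : ℕ, ∀ n m : ℕ, n0 ≤ n → 1 ≤ m →
    (m : ℝ) ^ 8 ≤ Real.log n → ∀ s δ e1 B : ℝ, s = 1 / Real.log n →
      e1 = 2 * (n : ℝ) ^ (-(1 / 4) : ℝ) * (s ^ (2 * m ^ 2 + 1))⁻¹ →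
      B = ((Real.sqrt (2 * Real.pi) * s) ^ (2 * m ^ 2))⁻¹ →
      δ = 4 * e1 * B + 2 * e1 ^ 2 →
      (3 * m : ℝ) ^ 4 * (Real.exp 4 * 500 ^ (2 * m ^ 2) * δ) ≤ ε := by
  obtain ⟨n0, h⟩ := asym_core (ε := ε)
  refine ⟨n0, ?_⟩
  intro n m hn hm hml s δ e1 B hs he1 hB hδ
  obtain ⟨u, hu1, hmu, hl, hmain, hn4, hlogu⟩ := h n m hn hm hml
  have hupos : 0 < u := by linarith
  have hm1 : (1 : ℝ) ≤ m := by exact_mod_cast hm
  set l : ℝ := Real.log n with hldef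
  have hl1 : 1 ≤ l := by rw [hl]; exact one_le_pow₀ hu1
  have hlpos : 0 < l := by linarith
  set M : ℕ := 2 * m ^ 2 with hM
  have hMu : (M : ℝ) ≤ 2 * u ^ 2 := by
    rw [hM]; push_cast
    nlinarith
  set q : ℝ := Real.exp (-(u ^ 8 / 4)) with hq
  have hqpos : 0 < q := Real.exp_pos _
  have hq1 : q ≤ 1 := by
    rw [hq, Real.exp_le_one_iff]
    have : 0 ≤ u ^ 8 := by positivity
    linarith
  have hsinv : ∀ k : ℕ, (s ^ k)⁻¹ = l ^ k := by
    intro k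
    rw [hs, one_div, inv_pow, inv_inv]
  have he1' : e1 = 2 * q * l ^ (M + 1) := by
    rw [he1, hn4, hsinv]
  have hBle : B ≤ l ^ M := by
    rw [hB, mul_pow, mul_inv, hsinv]
    have hsq : 1 ≤ Real.sqrt (2 * Real.pi) := by
      rw [Real.one_le_sqrt]
      have := Real.pi_gt_three
      linarith
    have h1 : ((Real.sqrt (2 * Real.pi)) ^ M)⁻¹ ≤ 1 := inv_le_one_of_one_le₀ (one_le_pow₀ hsq)
    have h2 : 0 ≤ l ^ M := by positivity
    nlinarith
  have hlM : l ^ M ≤ l ^ (M + 1) := pow_le_pow_right₀ hl1 (Nat.le_succ M)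
  have hδle : δ ≤ 16 * q * (l ^ (M + 1)) ^ 2 := by
    rw [hδ, he1']
    have hL : 0 ≤ l ^ (M + 1) := by positivity
    have h1 : 4 * (2 * q * l ^ (M + 1)) * B ≤ 4 * (2 * q * l ^ (M + 1)) * l ^ (M + 1) := by
      apply mul_le_mul_of_nonneg_left (le_trans hBle hlM)
      positivity
    have h2 : q ^ 2 ≤ q := by nlinarith
    have h3 : 2 * (2 * q * l ^ (M + 1)) ^ 2 ≤ 8 * q * (l ^ (M + 1)) ^ 2 := by
      have : 2 * (2 * q * l ^ (M + 1)) ^ 2 = 8 * q ^ 2 * (l ^ (M + 1)) ^ 2 := by ring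
      rw [this]
      apply mul_le_mul_of_nonneg_right _ (by positivity)
      linarith
    calc _ ≤ 4 * (2 * q * l ^ (M + 1)) * l ^ (M + 1) + 8 * q * (l ^ (M + 1)) ^ 2 := add_le_add h1 h3
      _ = _ := by ring
  have hlpow : (l ^ (M + 1)) ^ 2 ≤ Real.exp (32 * u ^ 3 + 16 * u) := by
    rw [hl, ← pow_mul, ← pow_mul]
    refine le_trans (asym_pow hu1 hlogu _) ?_
    apply Real.exp_le_exp.2
    push_cast
    have h1 : 8 * (((M : ℝ) + 1) * 2) ≤ 8 * ((2 * u ^ 2 + 1) * 2) := by linarith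
    calc 8 * (((M : ℝ) + 1) * 2) * u ≤ 8 * ((2 * u ^ 2 + 1) * 2) * u :=
          mul_le_mul_of_nonneg_right h1 hupos.le
      _ = 32 * u ^ 3 + 16 * u := by ring
  have h500 : (500 : ℝ) ^ M ≤ Real.exp (14 * u ^ 2) := by
    have h5 : (500 : ℝ) ≤ Real.exp 7 := by
      have := Real.exp_one_gt_d9
      have h1 : Real.exp 7 = (Real.exp 1) ^ 7 := by rw [← Real.exp_nat_mul]; norm_num
      rw [h1]
      calc (500 : ℝ) ≤ (2.7 : ℝ) ^ 7 := by norm_num
        _ ≤ (Real.exp 1) ^ 7 := pow_le_pow_left₀ (by norm_num) (by linarith) 7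
    calc (500 : ℝ) ^ M ≤ (Real.exp 7) ^ M := pow_le_pow_left₀ (by norm_num) h5 M
      _ = Real.exp (M * 7) := by rw [← Real.exp_nat_mul]
      _ ≤ Real.exp (14 * u ^ 2) := by
        apply Real.exp_le_exp.2
        linarith
  have h3m : (3 * m : ℝ) ^ 4 ≤ Real.exp (5 + 4 * u) := by
    rw [mul_pow, Real.exp_add]
    apply mul_le_mul
    · have := Real.exp_one_gt_d9
      have h1 : Real.exp 5 = (Real.exp 1) ^ 5 := by rw [← Real.exp_nat_mul]; norm_num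
      rw [h1]
      calc (3 : ℝ) ^ 4 ≤ (2.7 : ℝ) ^ 5 := by norm_num
        _ ≤ (Real.exp 1) ^ 5 := pow_le_pow_left₀ (by norm_num) (by linarith) 5
    · calc (m : ℝ) ^ 4 ≤ u ^ 4 := pow_le_pow_left₀ (by positivity) hmu 4
        _ ≤ Real.exp ((4 : ℕ) * u) := asym_pow hu1 hlogu 4
        _ = Real.exp (4 * u) := by norm_num
    · positivity
    · positivity
  have h16 : (16 : ℝ) ≤ Real.exp 3 := by
    have := Real.exp_one_gt_d9
    have h1 : Real.exp 3 = (Real.exp 1) ^ 3 := by rw [← Real.exp_nat_mul]; norm_num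
    rw [h1]
    calc (16 : ℝ) ≤ (2.7 : ℝ) ^ 3 := by norm_num
      _ ≤ (Real.exp 1) ^ 3 := pow_le_pow_left₀ (by norm_num) (by linarith) 3
  have hδ2 : δ ≤ Real.exp 3 * q * Real.exp (32 * u ^ 3 + 16 * u) := by
    refine le_trans hδle ?_
    apply mul_le_mul
    · exact mul_le_mul_of_nonneg_right h16 hqpos.le
    · exact hlpow
    · positivity
    · positivity
  have hinner : Real.exp 4 * 500 ^ M * δ ≤
      Real.exp 4 * Real.exp (14 * u ^ 2) * (Real.exp 3 * q * Real.exp (32 * u ^ 3 + 16 * u)) := by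
    have hX : 0 ≤ Real.exp 3 * q * Real.exp (32 * u ^ 3 + 16 * u) := by positivity
    calc Real.exp 4 * 500 ^ M * δ ≤ Real.exp 4 * 500 ^ M *
          (Real.exp 3 * q * Real.exp (32 * u ^ 3 + 16 * u)) :=
          mul_le_mul_of_nonneg_left hδ2 (by positivity)
      _ ≤ _ := by
        apply mul_le_mul_of_nonneg_right _ hX
        exact mul_le_mul_of_nonneg_left h500 (Real.exp_pos _).le
  have htot : (3 * m : ℝ) ^ 4 * (Real.exp 4 * 500 ^ M * δ) ≤
      Real.exp (5 + 4 * u) * (Real.exp 4 * Real.exp (14 * u ^ 2) *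
        (Real.exp 3 * q * Real.exp (32 * u ^ 3 + 16 * u))) := by
    calc (3 * m : ℝ) ^ 4 * (Real.exp 4 * 500 ^ M * δ) ≤ (3 * m : ℝ) ^ 4 *
        (Real.exp 4 * Real.exp (14 * u ^ 2) *
        (Real.exp 3 * q * Real.exp (32 * u ^ 3 + 16 * u))) :=
          mul_le_mul_of_nonneg_left hinner (by positivity)
      _ ≤ _ := mul_le_mul_of_nonneg_right h3m (by positivity)
  refine le_trans htot ?_
  rw [hq, ← Real.exp_add, ← Real.exp_add, ← Real.exp_add, ← Real.exp_add, ← Real.exp_add]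
  rw [← Real.log_le_log_iff (Real.exp_pos _) hε, Real.log_exp]
  have h2 : u ≤ u ^ 3 := by
    calc u = u ^ 1 := (pow_one u).symm
      _ ≤ u ^ 3 := pow_le_pow_right₀ hu1 (by norm_num)
  have h3 : u ^ 2 ≤ u ^ 3 := pow_le_pow_right₀ hu1 (by norm_num)
  have h4 : 1 ≤ u ^ 3 := one_le_pow₀ hu1
  linarith

theorem asym_smooth {ε : ℝ} (hε : 0 < ε) : ∃ n0 : ℕ, ∀ n m : ℕ, n0 ≤ n → 1 ≤ m →
    (m : ℝ) ^ 8 ≤ Real.log n → ∀ v : Fin m → ℝ, (∀ i, |v i| ≤ 2 * m) →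
      6 ^ m * (2 * (n : ℝ) ^ (-(1 / 4) : ℝ) * ((1 / Real.log n) ^ (m + 1))⁻¹) ≤ ε * gd m 1 v := by
  obtain ⟨n0, h⟩ := asym_core (ε := ε)
  refine ⟨n0, ?_⟩
  intro n m hn hm hml v hv
  obtain ⟨u, hu1, hmu, hl, hmain, hn4, hlogu⟩ := h n m hn hm hml
  have hupos : 0 < u := by linarith
  have hm1 : (1 : ℝ) ≤ m := by exact_mod_cast hm
  set l : ℝ := Real.log n with hldef
  have hl1 : 1 ≤ l := by rw [hl]; exact one_le_pow₀ hu1
  have hlpos : 0 < l := by linarith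
  have hsinv : ((1 / l) ^ (m + 1))⁻¹ = l ^ (m + 1) := by
    rw [one_div, inv_pow, inv_inv]
  rw [hsinv, hn4]
  have hgd : Real.exp (-(u + 2 * u ^ 3)) ≤ gd m 1 v := by
    unfold gd
    have h1 : nsq v ≤ m * (2 * m : ℝ) ^ 2 := nsq_le_of_abs hv
    have h2 : nsq v ≤ 4 * u ^ 3 := by
      have : (m : ℝ) * (2 * m : ℝ) ^ 2 = 4 * (m : ℝ) ^ 3 := by ring
      rw [this] at h1
      have h3 : (m : ℝ) ^ 3 ≤ u ^ 3 := pow_le_pow_left₀ (by positivity) hmu 3
      linarith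
    have h3 : Real.sqrt (2 * Real.pi) ≤ Real.exp 1 := by
      have h4 := Real.exp_one_gt_d9
      have h5 := Real.pi_lt_d2
      rw [Real.sqrt_le_left (Real.exp_pos 1).le]
      nlinarith
    have h6 : (Real.sqrt (2 * Real.pi) * 1) ^ m ≤ Real.exp u := by
      rw [mul_one]
      calc (Real.sqrt (2 * Real.pi)) ^ m ≤ (Real.exp 1) ^ m :=
            pow_le_pow_left₀ (Real.sqrt_nonneg _) h3 m
        _ = Real.exp (m * 1) := by rw [← Real.exp_nat_mul]
        _ ≤ Real.exp u := by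
          apply Real.exp_le_exp.2
          linarith
    have h7 : 0 < (Real.sqrt (2 * Real.pi) * 1) ^ m := by positivity
    have h8 : Real.exp (-u) ≤ ((Real.sqrt (2 * Real.pi) * 1) ^ m)⁻¹ := by
      rw [Real.exp_neg]
      exact inv_anti₀ h7 h6
    have h9 : Real.exp (-(2 * u ^ 3)) ≤ Real.exp (-(nsq v) / (2 * 1 ^ 2)) := by
      apply Real.exp_le_exp.2
      linarith
    rw [neg_add, Real.exp_add]
    exact mul_le_mul h8 h9 (Real.exp_pos _).le (by positivity)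
  have h6 : (6 : ℝ) ^ m ≤ Real.exp (2 * u) := by
    have h5 : (6 : ℝ) ≤ Real.exp 2 := by
      have := Real.exp_one_gt_d9
      have h1 : Real.exp 2 = (Real.exp 1) ^ 2 := by rw [← Real.exp_nat_mul]; norm_num
      rw [h1]
      calc (6 : ℝ) ≤ (2.7 : ℝ) ^ 2 := by norm_num
        _ ≤ (Real.exp 1) ^ 2 := pow_le_pow_left₀ (by norm_num) (by linarith) 2
    calc (6 : ℝ) ^ m ≤ (Real.exp 2) ^ m := pow_le_pow_left₀ (by norm_num) h5 m
      _ = Real.exp (m * 2) := by rw [← Real.exp_nat_mul]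
      _ ≤ Real.exp (2 * u) := by
        apply Real.exp_le_exp.2
        linarith
  have hlpow : l ^ (m + 1) ≤ Real.exp (8 * u ^ 2 + 8 * u) := by
    rw [hl, ← pow_mul]
    refine le_trans (asym_pow hu1 hlogu _) ?_
    apply Real.exp_le_exp.2
    push_cast
    have : (8 * ((m : ℝ) + 1)) * u ≤ (8 * (u + 1)) * u := by
      apply mul_le_mul_of_nonneg_right _ hupos.le
      linarith
    calc (8 * ((m : ℝ) + 1)) * u ≤ (8 * (u + 1)) * u := this
      _ = 8 * u ^ 2 + 8 * u := by ring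
  have h2e : (2 : ℝ) ≤ Real.exp 1 := by
    have := Real.exp_one_gt_d9
    linarith
  have hLHS : (6 : ℝ) ^ m * (2 * Real.exp (-(u ^ 8 / 4)) * l ^ (m + 1)) ≤
      Real.exp (2 * u) * (Real.exp 1 * Real.exp (-(u ^ 8 / 4)) * Real.exp (8 * u ^ 2 + 8 * u)) := by
    apply mul_le_mul h6 _ (by positivity) (by positivity)
    apply mul_le_mul _ hlpow (by positivity) (by positivity)
    exact mul_le_mul_of_nonneg_right h2e (Real.exp_pos _).le
  refine le_trans hLHS ?_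
  refine le_trans ?_ (mul_le_mul_of_nonneg_left hgd hε.le)
  rw [← Real.log_le_log_iff (by positivity) (by positivity)]
  rw [← Real.exp_add, ← Real.exp_add, ← Real.exp_add, Real.log_exp,
    Real.log_mul hε.ne' (Real.exp_pos _).ne', Real.log_exp]
  have h2 : u ≤ u ^ 3 := by
    calc u = u ^ 1 := (pow_one u).symm
      _ ≤ u ^ 3 := pow_le_pow_right₀ hu1 (by norm_num)
  have h3 : u ^ 2 ≤ u ^ 3 := pow_le_pow_right₀ hu1 (by norm_num)
  have h4 : 1 ≤ u ^ 3 := one_le_pow₀ hu1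
  linarith

end Crest.Agent.CVA
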