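import Mathlib
import Crest.Agent.CVA_Defs

set_option autoImplicit false
open MeasureTheory

namespace Crest.Agent.CVA

/-! PROOF HINTS
Put l = log n, m <= l^(1/8), m^3 <= l^(3/8). asym_par: nsq (v + tau e) = nsq v + 2 tau <v,e> + tau^2 <= nsq v + 2 tau m^(3/2) + tau^2 (Cauchy-Schwarz; nsq v <= m^3), so
gd m 1 (v+tau e) >= gd m 1 v * exp(-tau sqrt(m^3) - tau^2/2) >= (3/4) gd m 1 v for large l (tau = l^(-1/2), sqrt(m^3) <= l^(3/16)). Remains
((sqrt(2pi) s)^m)^-1 exp(-tau^2/(2 s^2)) < (c/4) gd m 1 v: sqrt(2pi) s >= 1/(6 l) so the first factor <= (6 l)^m; tau^2/(2s^2) >= l/32 (s <= 4/l); gd m 1 v >= exp(-m - m^3/2)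
(sqrt(2pi) <= e). So need m log(6 l) + m + m^3/2 + log(4/c) < l/32: true for large l.
asym_sigma: c s^m e^(-1/2) >= c e^(-1/2) (6l)^(-m) = exp(-m log(6l) - C), exp(-1/(8 s^2)) <= exp(-l^2/128) and 4/n = 4 exp(-l): for large l,
exp(-m log(6 l) - C) >= 4 exp(-l) + exp(-l^2/128). Work with 'eventually in l' and n0 = ceil(exp l0).
-/

private theorem a2_pre (K : ℝ) : ∃ n0 : ℕ, ∀ n : ℕ, n0 ≤ n → 0 < n ∧
    ∃ R : ℝ, 240 ≤ R ∧ K ≤ R ∧ Real.log n = R ^ 2 ∧ Real.sqrt (Real.log n) = R := by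
  refine ⟨⌈Real.exp ((max 240 K) ^ 2)⌉₊, fun n hn => ?_⟩
  have h1 : Real.exp ((max 240 K) ^ 2) ≤ n := (Nat.le_ceil _).trans (by exact_mod_cast hn)
  have hn0 : (0 : ℝ) < n := (Real.exp_pos _).trans_le h1
  have h2 : (max 240 K) ^ 2 ≤ Real.log n := (Real.le_log_iff_exp_le hn0).2 h1
  have h3 : (0 : ℝ) ≤ max 240 K := le_max_of_le_left (by norm_num)
  have h4 : max 240 K ≤ Real.sqrt (Real.log n) := Real.le_sqrt_of_sq_le h2
  have h5 : 0 ≤ Real.log n := (sq_nonneg _).trans h2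
  exact ⟨by exact_mod_cast hn0, Real.sqrt (Real.log n), (le_max_left _ _).trans h4,
    (le_max_right _ _).trans h4, (Real.sq_sqrt h5).symm, rfl⟩

private theorem a2_log {R : ℝ} {m : ℕ} (hR : 240 ≤ R) (hm : 1 ≤ m) (hm8 : (m : ℝ) ^ 8 ≤ R ^ 2) :
    (m : ℝ) ^ 4 ≤ R ∧ (m : ℝ) * Real.log (6 * R ^ 2) ≤ 6 * R := by
  have hm1 : (1 : ℝ) ≤ m := by exact_mod_cast hm
  have hR0 : 0 < R := by linarith
  have h4 : (m : ℝ) ^ 4 ≤ R := by
    have : ((m : ℝ) ^ 4) ^ 2 ≤ R ^ 2 := by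
      rw [← pow_mul]
      exact hm8
    exact (pow_le_pow_iff_left₀ (by positivity) hR0.le (by norm_num)).1 this
  refine ⟨h4, ?_⟩
  have hsq : 0 < Real.sqrt R := Real.sqrt_pos.2 hR0
  have hsq2 : Real.sqrt R * Real.sqrt R = R := Real.mul_self_sqrt hR0.le
  have hmr : (m : ℝ) ≤ Real.sqrt R := by
    apply Real.le_sqrt_of_sq_le
    refine le_trans ?_ h4
    exact pow_le_pow_right₀ hm1 (by norm_num)
  have hlog6 : Real.log 6 ≤ 2 := by
    rw [Real.log_le_iff_le_exp (by norm_num)]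
    have h1 := Real.exp_one_gt_d9
    have h2 : Real.exp 2 = Real.exp 1 * Real.exp 1 := by
      rw [← Real.exp_add]
      norm_num
    rw [h2]
    nlinarith
  have hlogR : Real.log R ≤ 2 * Real.sqrt R := by
    have h1 : Real.log R = 2 * Real.log (Real.sqrt R) := by
      rw [Real.log_sqrt hR0.le]
      ring
    have h2 := Real.log_le_sub_one_of_pos hsq
    rw [h1]
    linarith
  have hlog : Real.log (6 * R ^ 2) ≤ 2 + 4 * Real.sqrt R := by
    rw [Real.log_mul (by norm_num) (by positivity), Real.log_pow]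
    push_cast
    linarith
  have hs1 : Real.sqrt R ≤ R := by
    have : 1 ≤ Real.sqrt R := Real.one_le_sqrt.2 (by linarith)
    nlinarith
  have hlog0 : 0 ≤ Real.log (6 * R ^ 2) := Real.log_nonneg (by nlinarith)
  calc (m : ℝ) * Real.log (6 * R ^ 2) ≤ Real.sqrt R * (2 + 4 * Real.sqrt R) :=
        mul_le_mul hmr hlog hlog0 hsq.le
    _ = 2 * Real.sqrt R + 4 * (Real.sqrt R * Real.sqrt R) := by ring
    _ ≤ 6 * R := by
        rw [hsq2]
        linarith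

/-- `exp (-6R) ≤ s^m`. -/
private theorem a2_spow {R s : ℝ} {m : ℕ} (hR : 240 ≤ R) (hm : 1 ≤ m)
    (hm8 : (m : ℝ) ^ 8 ≤ R ^ 2) (hs : 1 / (6 * R ^ 2) ≤ s) : Real.exp (-(6 * R)) ≤ s ^ m := by
  obtain ⟨-, h1⟩ := a2_log hR hm hm8
  have hR0 : 0 < R := by linarith
  have h6 : 0 < 6 * R ^ 2 := by positivity
  calc Real.exp (-(6 * R)) ≤ Real.exp (-((m : ℝ) * Real.log (6 * R ^ 2))) :=
        Real.exp_le_exp.2 (by linarith)
    _ = (1 / (6 * R ^ 2)) ^ m := by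
        rw [Real.exp_neg, Real.exp_nat_mul, Real.exp_log h6, one_div, inv_pow]
    _ ≤ s ^ m := pow_le_pow_left₀ (by positivity) hs m

theorem asym_par {c : ℝ} (hc : 0 < c) : ∃ n0 : ℕ, ∀ n m : ℕ, n0 ≤ n → 1 ≤ m →
    (m : ℝ) ^ 8 ≤ Real.log n → ∀ s τ : ℝ, 1 / (6 * Real.log n) ≤ s → s ≤ 4 / Real.log n →
      τ = 1 / Real.sqrt (Real.log n) → ∀ v : Fin m → ℝ, (∀ i, |v i| ≤ m) →
      ∀ e : Fin m → ℝ, nsq e = 1 →
      c / 2 * gd m 1 v + ((Real.sqrt (2 * Real.pi) * s) ^ m)⁻¹ * Real.exp (-(τ ^ 2) / (2 * s ^ 2))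
        < c * gd m 1 (v + τ • e) := by
  obtain ⟨n0, hn0⟩ := a2_pre (Real.log (4 / c) + 1)
  refine ⟨n0, fun n m hn hm hm8 s τ hs1 hs2 hτ v hv e he => ?_⟩
  obtain ⟨-, R, hR, hRc, hlog, hsqrt⟩ := hn0 n hn
  rw [hsqrt] at hτ
  rw [hlog] at hm8 hs1 hs2
  have hR0 : 0 < R := by linarith
  have hm1 : (1 : ℝ) ≤ m := by exact_mod_cast hm
  obtain ⟨hm4, -⟩ := a2_log hR hm hm8
  have hsp := a2_spow hR hm hm8 hs1
  have hs0 : 0 < s := lt_of_lt_of_le (by positivity) hs1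
  have hτ0 : 0 < τ := by rw [hτ]; positivity
  have hτR : τ * R = 1 := by rw [hτ]; field_simp
  -- the norm of the shifted point
  have hnv : nsq v ≤ (m : ℝ) ^ 3 := by
    refine (nsq_le_of_abs hv).trans (le_of_eq ?_)
    ring
  have hcs : (∑ i, v i * e i) ^ 2 ≤ nsq v * nsq e := Finset.sum_mul_sq_le_sq_mul_sq _ _ _
  have hve : ∑ i, v i * e i ≤ (m : ℝ) ^ 2 := by
    rw [he, mul_one] at hcs
    have h1 : (∑ i, v i * e i) ^ 2 ≤ ((m : ℝ) ^ 2) ^ 2 := by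
      refine hcs.trans (hnv.trans ?_)
      rw [← pow_mul]
      exact pow_le_pow_right₀ hm1 (by norm_num)
    exact le_of_sq_le_sq h1 (by positivity)
  have hns : nsq (v + τ • e) = nsq v + 2 * τ * (∑ i, v i * e i) + τ ^ 2 * nsq e := by
    unfold nsq
    rw [Finset.mul_sum, Finset.mul_sum, ← Finset.sum_add_distrib, ← Finset.sum_add_distrib]
    refine Finset.sum_congr rfl fun i _ => ?_
    simp only [Pi.add_apply, Pi.smul_apply, smul_eq_mul]
    ring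
  have hτm : τ * (m : ℝ) ^ 2 ≤ 1 / 8 := by
    have h1 : (τ * (m : ℝ) ^ 2) ^ 2 ≤ (1 / 8) ^ 2 := by
      have h2 : (τ * (m : ℝ) ^ 2) ^ 2 = τ ^ 2 * (m : ℝ) ^ 4 := by ring
      have h3 : τ ^ 2 * (m : ℝ) ^ 4 ≤ τ ^ 2 * R := mul_le_mul_of_nonneg_left hm4 (by positivity)
      have h4 : τ ^ 2 * R = τ := by
        rw [pow_two, mul_assoc, hτR, mul_one]
      have h5 : τ ≤ 1 / 240 := by
        rw [hτ]
        exact one_div_le_one_div_of_le (by norm_num) hR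
      rw [h2]
      refine h3.trans ?_
      rw [h4]
      refine h5.trans ?_
      norm_num
    exact le_of_sq_le_sq h1 (by norm_num)
  have hτ2 : τ ^ 2 ≤ 1 / 4 := by
    have h5 : τ ≤ 1 / 240 := by
      rw [hτ]
      exact one_div_le_one_div_of_le (by norm_num) hR
    nlinarith
  have hshift : nsq (v + τ • e) / 2 ≤ nsq v / 2 + 1 / 4 := by
    rw [hns, he]
    have : τ * (∑ i, v i * e i) ≤ τ * (m : ℝ) ^ 2 := mul_le_mul_of_nonneg_left hve hτ0.le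
    linarith
  -- the values
  set A : ℝ := (Real.sqrt (2 * Real.pi) ^ m)⁻¹ with hA
  have hA0 : 0 < A := by positivity
  have hg : ∀ u : Fin m → ℝ, gd m 1 u = A * Real.exp (-(nsq u / 2)) := by
    intro u
    unfold gd
    rw [hA, mul_one]
    congr 2
    rw [neg_div]
    norm_num
  have hg1 : 3 / 4 * Real.exp (-(nsq v / 2)) ≤ Real.exp (-(nsq (v + τ • e) / 2)) := by
    have h1 : Real.exp (-(nsq v / 2) + -(1 / 4)) ≤ Real.exp (-(nsq (v + τ • e) / 2)) :=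
      Real.exp_le_exp.2 (by linarith)
    rw [Real.exp_add] at h1
    have h2 := Real.add_one_le_exp (-(1 / 4) : ℝ)
    have h3 : 0 < Real.exp (-(nsq v / 2)) := Real.exp_pos _
    nlinarith
  have hfirst : ((Real.sqrt (2 * Real.pi) * s) ^ m)⁻¹ = A * (s ^ m)⁻¹ := by
    rw [mul_pow, mul_inv]
  have hsinv : (s ^ m)⁻¹ ≤ Real.exp (6 * R) := by
    rw [Real.exp_neg] at hsp
    exact inv_le_of_inv_le₀ (Real.exp_pos _) hsp
  have hexp : Real.exp (-(τ ^ 2) / (2 * s ^ 2)) ≤ Real.exp (-(R ^ 2 / 32)) := by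
    apply Real.exp_le_exp.2
    rw [neg_div, neg_le_neg_iff, le_div_iff₀ (by positivity)]
    have h1 : s ^ 2 ≤ (4 / R ^ 2) ^ 2 := pow_le_pow_left₀ hs0.le hs2 2
    have h2 : R ^ 2 / 32 * (2 * (4 / R ^ 2) ^ 2) = τ ^ 2 := by
      rw [hτ]
      field_simp
      norm_num
    rw [← h2]
    gcongr
  have hm3 : nsq v / 2 ≤ R / 2 := by
    have h1 : (m : ℝ) ^ 3 ≤ (m : ℝ) ^ 4 := pow_le_pow_right₀ hm1 (by norm_num)
    linarith
  have hkey : (s ^ m)⁻¹ * Real.exp (-(τ ^ 2) / (2 * s ^ 2)) <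
      c / 4 * Real.exp (-(nsq v / 2)) := by
    have h1 : (s ^ m)⁻¹ * Real.exp (-(τ ^ 2) / (2 * s ^ 2)) ≤
        Real.exp (6 * R) * Real.exp (-(R ^ 2 / 32)) :=
      mul_le_mul hsinv hexp (Real.exp_pos _).le (Real.exp_pos _).le
    have h2 : Real.exp (-(R / 2)) ≤ Real.exp (-(nsq v / 2)) := Real.exp_le_exp.2 (by linarith)
    have h3 : Real.exp (6 * R) * Real.exp (-(R ^ 2 / 32)) ≤
        Real.exp (-R) * Real.exp (-(R / 2)) := by
      rw [← Real.exp_add, ← Real.exp_add]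
      apply Real.exp_le_exp.2
      nlinarith
    have h4 : Real.exp (-R) < c / 4 := by
      have h5 : Real.log (4 / c) < R := by linarith
      rw [Real.log_lt_iff_lt_exp (by positivity)] at h5
      rw [Real.exp_neg, inv_lt_comm₀ (Real.exp_pos _) (by positivity), inv_div]
      exact h5
    have h6 : Real.exp (-R) * Real.exp (-(R / 2)) < c / 4 * Real.exp (-(R / 2)) :=
      mul_lt_mul_of_pos_right h4 (Real.exp_pos _)
    have h7 : c / 4 * Real.exp (-(R / 2)) ≤ c / 4 * Real.exp (-(nsq v / 2)) :=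
      mul_le_mul_of_nonneg_left h2 (by positivity)
    linarith
  rw [hg, hg, hfirst, mul_assoc A]
  have h8 : A * ((s ^ m)⁻¹ * Real.exp (-(τ ^ 2) / (2 * s ^ 2))) <
      A * (c / 4 * Real.exp (-(nsq v / 2))) := mul_lt_mul_of_pos_left hkey hA0
  have h9 : A * (3 / 4 * Real.exp (-(nsq v / 2))) ≤
      A * Real.exp (-(nsq (v + τ • e) / 2)) := mul_le_mul_of_nonneg_left hg1 hA0.le
  have h10 := mul_le_mul_of_nonneg_left h9 hc.le
  calc c / 2 * (A * Real.exp (-(nsq v / 2))) +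
      A * ((s ^ m)⁻¹ * Real.exp (-(τ ^ 2) / (2 * s ^ 2)))
      < c / 2 * (A * Real.exp (-(nsq v / 2))) + A * (c / 4 * Real.exp (-(nsq v / 2))) := by
        linarith
    _ = c * (A * (3 / 4 * Real.exp (-(nsq v / 2)))) := by ring
    _ ≤ _ := h10

theorem asym_sigma {c : ℝ} (hc : 0 < c) : ∃ n0 : ℕ, ∀ n m : ℕ, n0 ≤ n → 1 ≤ m →
    (m : ℝ) ^ 8 ≤ Real.log n → ∀ s : ℝ, 1 / (6 * Real.log n) ≤ s → s ≤ 4 / Real.log n →
      4 * (n : ℝ)⁻¹ ≤ c * s ^ m * Real.exp (-(1 / 2)) - Real.exp (-1 / (8 * s ^ 2)) := by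
  obtain ⟨n0, hn0⟩ := a2_pre (Real.log (5 * Real.exp (1 / 2) / c))
  refine ⟨n0, fun n m hn hm hm8 s hs1 hs2 => ?_⟩
  obtain ⟨hnpos, R, hR, hRc, hlog, hsqrt⟩ := hn0 n hn
  rw [hlog] at hm8 hs1 hs2
  have hR0 : 0 < R := by linarith
  have hsp := a2_spow hR hm hm8 hs1
  have hs0 : 0 < s := lt_of_lt_of_le (by positivity) hs1
  have hn' : (0 : ℝ) < n := by exact_mod_cast hnpos
  have h1 : (n : ℝ)⁻¹ = Real.exp (-(R ^ 2)) := by
    rw [← hlog, Real.exp_neg, Real.exp_log hn']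
  have h2 : Real.exp (-1 / (8 * s ^ 2)) ≤ Real.exp (-(R ^ 2)) := by
    apply Real.exp_le_exp.2
    rw [neg_div, neg_le_neg_iff, le_div_iff₀ (by positivity)]
    have h3 : s ^ 2 ≤ (4 / R ^ 2) ^ 2 := pow_le_pow_left₀ hs0.le hs2 2
    have h4 : R ^ 2 * (8 * (4 / R ^ 2) ^ 2) ≤ 1 := by
      have h5 : R ^ 2 * (8 * (4 / R ^ 2) ^ 2) = 128 / R ^ 2 := by
        field_simp
        norm_num
      rw [h5, div_le_one (by positivity)]
      nlinarith
    calc R ^ 2 * (8 * s ^ 2) ≤ R ^ 2 * (8 * (4 / R ^ 2) ^ 2) := by gcongr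
      _ ≤ 1 := h4
  have h6 : 5 * Real.exp (-(R ^ 2)) ≤ c * Real.exp (-(6 * R)) * Real.exp (-(1 / 2)) := by
    have h7 : 5 * Real.exp (1 / 2) / c ≤ Real.exp R :=
      (Real.log_le_iff_le_exp (by positivity)).1 hRc
    rw [div_le_iff₀ hc] at h7
    have h8 : Real.exp R * Real.exp (-(R ^ 2)) ≤ Real.exp (-(6 * R)) := by
      rw [← Real.exp_add]
      apply Real.exp_le_exp.2
      nlinarith
    have h9 : Real.exp (1 / 2) * Real.exp (-(1 / 2)) = 1 := by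
      rw [← Real.exp_add]
      norm_num
    have h10 : 0 < Real.exp (-(R ^ 2)) := Real.exp_pos _
    have h11 : 0 < Real.exp (-(1 / 2)) := Real.exp_pos _
    calc 5 * Real.exp (-(R ^ 2)) = (5 * Real.exp (1 / 2)) * Real.exp (-(R ^ 2)) *
          Real.exp (-(1 / 2)) := by
          rw [show (5 * Real.exp (1 / 2)) * Real.exp (-(R ^ 2)) * Real.exp (-(1 / 2)) =
            5 * Real.exp (-(R ^ 2)) * (Real.exp (1 / 2) * Real.exp (-(1 / 2))) by ring, h9,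
            mul_one]
      _ ≤ (Real.exp R * c) * Real.exp (-(R ^ 2)) * Real.exp (-(1 / 2)) := by gcongr
      _ = c * (Real.exp R * Real.exp (-(R ^ 2))) * Real.exp (-(1 / 2)) := by ring
      _ ≤ c * Real.exp (-(6 * R)) * Real.exp (-(1 / 2)) := by gcongr
  have h12 : c * Real.exp (-(6 * R)) * Real.exp (-(1 / 2)) ≤
      c * s ^ m * Real.exp (-(1 / 2)) := by gcongr
  rw [h1]
  linarith

end Crest.Agent.CVA
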