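import Mathlib
import Crest.Agent.CVA_Defs

set_option autoImplicit false
open MeasureTheory

namespace Crest.Agent.CVA

private noncomputable def cg (d : ℕ) : ℝ := if d ≤ 2500 then 6e-6 else 29.6 / (d : ℝ) ^ 2

private theorem cg_nonneg (d : ℕ) : 0 ≤ cg d := by
  unfold cg; split_ifs
  · norm_num
  · positivity

private theorem cg_sum_small (n : ℕ) (hn : n ≤ 2500) :
    ∑ k ∈ Finset.range n, cg (k + 1) ≤ (n : ℝ) * 6e-6 := by
  have h : ∀ k ∈ Finset.range n, cg (k + 1) ≤ 6e-6 := by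
    intro k hk
    unfold cg
    rw [if_pos (by have := Finset.mem_range.1 hk; omega)]
  refine (Finset.sum_le_sum h).trans ?_
  rw [Finset.sum_const, Finset.card_range, nsmul_eq_mul]

private theorem cg_sum_large (n : ℕ) (hn : 2500 ≤ n) :
    ∑ k ∈ Finset.range n, cg (k + 1) ≤ 2500 * 6e-6 + 29.6 / 2500 - 29.6 / (n : ℝ) := by
  induction n, hn using Nat.le_induction with
  | base =>
    refine (cg_sum_small 2500 le_rfl).trans ?_
    norm_num
  | succ n hn ih =>
    rw [Finset.sum_range_succ]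
    have hn0 : (0 : ℝ) < n := by
      have : 0 < n := by omega
      exact_mod_cast this
    have h1 : cg (n + 1) ≤ 29.6 / (n : ℝ) - 29.6 / ((n + 1 : ℕ) : ℝ) := by
      unfold cg
      rw [if_neg (by omega)]
      push_cast
      rw [div_sub_div _ _ hn0.ne' (by positivity), div_le_div_iff₀ (by positivity) (by positivity)]
      nlinarith
    linarith

private theorem cg_sum (n : ℕ) :
    ∑ k ∈ Finset.range n, cg (k + 1) ≤ 2500 * 6e-6 + 29.6 / 2500 := by
  rcases le_total n 2500 with h | h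
  · refine (cg_sum_small n h).trans ?_
    have : (n : ℝ) ≤ 2500 := by exact_mod_cast h
    nlinarith
  · refine (cg_sum_large n h).trans ?_
    have : (0 : ℝ) ≤ 29.6 / (n : ℝ) := by positivity
    linarith

private theorem cg_sum' (n : ℕ) :
    ∑ k ∈ Finset.range n, cg k ≤ 6e-6 + (2500 * 6e-6 + 29.6 / 2500) := by
  rcases Nat.eq_zero_or_pos n with rfl | h
  · simp; norm_num
  · obtain ⟨m, rfl⟩ : ∃ m, n = m + 1 := ⟨n - 1, by omega⟩
    rw [Finset.sum_range_succ']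
    have h0 : cg 0 = 6e-6 := by unfold cg; simp
    have := cg_sum m
    rw [h0]
    linarith

private theorem cg_row (N : ℕ) (i : ℕ) (hi : i < N) :
    ∑ j ∈ Finset.range N, cg (Nat.dist i j) ≤
      6e-6 + 2 * (2500 * 6e-6 + 29.6 / 2500) := by
  rw [Finset.range_eq_Ico, ← Finset.sum_Ico_consecutive _ (Nat.zero_le i) hi.le,
    ← Finset.range_eq_Ico]
  have h1 : ∑ j ∈ Finset.range i, cg (Nat.dist i j) = ∑ k ∈ Finset.range i, cg (k + 1) := by
    rw [← Finset.sum_range_reflect]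
    refine Finset.sum_congr rfl fun j hj => ?_
    have := Finset.mem_range.1 hj
    rw [Nat.dist_eq_sub_of_le_right (by omega)]
    congr 1
    omega
  have h2 : ∑ j ∈ Finset.Ico i N, cg (Nat.dist i j) = ∑ k ∈ Finset.range (N - i), cg k := by
    rw [Finset.sum_Ico_eq_sum_range]
    refine Finset.sum_congr rfl fun j hj => ?_
    rw [Nat.dist_eq_sub_of_le (by omega)]
    congr 1
    omega
  rw [h1, h2]
  have := cg_sum i
  have := cg_sum' (N - i)
  linarith

private theorem pair_bound {a b η D : ℝ} (ha : 0 ≤ a) (hb : 0 ≤ b) (ha1 : a ≤ 1) (hb1 : b ≤ 1)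
    (hη : 0 ≤ η) (hD : 0 < D)
    (h : a * b ≤ Real.exp 4 / (1 + D ^ 2 / 4) ^ 2 + η) :
    a * b ≤ (a + b) / 2 * (29.6 / D ^ 2) + Real.sqrt η := by
  have he : Real.exp 4 ≤ 7.4 ^ 2 := by
    have h1 : Real.exp 4 = Real.exp 1 ^ 4 := by rw [← Real.exp_nat_mul]; norm_num
    rw [h1]
    have h2 := Real.exp_one_lt_d9
    have h3 : (0:ℝ) ≤ Real.exp 1 := (Real.exp_pos 1).le
    calc Real.exp 1 ^ 4 ≤ 2.7182818286 ^ 4 := pow_le_pow_left₀ h3 h2.le 4
      _ ≤ 7.4 ^ 2 := by norm_num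
  set A : ℝ := 7.4 / (1 + D ^ 2 / 4) with hA
  have hA0 : 0 ≤ A := by positivity
  have hB0 : 0 ≤ Real.sqrt η := Real.sqrt_nonneg _
  have h1 : a * b ≤ (A + Real.sqrt η) ^ 2 := by
    have h2 : Real.exp 4 / (1 + D ^ 2 / 4) ^ 2 ≤ A ^ 2 := by
      rw [hA, div_pow]
      exact div_le_div_of_nonneg_right he (by positivity)
    have h3 : Real.sqrt η ^ 2 = η := Real.sq_sqrt hη
    nlinarith [mul_nonneg hA0 hB0]
  have h4 : Real.sqrt (a * b) ≤ A + Real.sqrt η := by
    rw [Real.sqrt_le_left (by positivity)]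
    exact h1
  have h5 : Real.sqrt (a * b) ≤ (a + b) / 2 := by
    rw [Real.sqrt_le_left (by positivity)]
    nlinarith [sq_nonneg (a - b)]
  have h6 : a * b = Real.sqrt (a * b) * Real.sqrt (a * b) :=
    (Real.mul_self_sqrt (mul_nonneg ha hb)).symm
  have h7 : A ≤ 29.6 / D ^ 2 := by
    rw [hA, div_le_div_iff₀ (by positivity) (by positivity)]
    nlinarith [sq_nonneg D]
  have hs0 := Real.sqrt_nonneg (a * b)
  calc a * b = Real.sqrt (a * b) * Real.sqrt (a * b) := h6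
    _ ≤ (a + b) / 2 * (A + Real.sqrt η) := mul_le_mul h5 h4 hs0 (by positivity)
    _ = (a + b) / 2 * A + (a + b) / 2 * Real.sqrt η := by ring
    _ ≤ (a + b) / 2 * (29.6 / D ^ 2) + 1 * Real.sqrt η := by
        refine add_le_add (mul_le_mul_of_nonneg_left h7 (by positivity))
          (mul_le_mul_of_nonneg_right (by linarith) hB0)
    _ = _ := by ring

/-! PROOF HINTS
Suppose all nu_i < x := 6e-6; S = sum nu in [.08,1], L := 2500. S^2 = sum_{i,j} nu_i nu_j. Pairs |i-j| <= L: <= x * nu_i each, at most 2L+1 j's: total <= (2L+1) x S.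
Pairs d = |i-j| > L: nu_i nu_j = sqrt(nu_i nu_j) * sqrt(nu_i nu_j) <= sqrt(nu_i nu_j) * (e^2/(1+d^2/4) + sqrt eta) <= (nu_i+nu_j)/2 * 4 e^2/d^2 + sqrt eta
(sqrt(a+b) <= sqrt a + sqrt b; sqrt(nu_i nu_j) <= (nu_i+nu_j)/2 <= 1). sum_{d>L} 1/d^2 <= 1/L on each side, so the first part <= S * 8 e^2/L; second <= N^2 sqrt eta <= .0016.
S^2 <= (2L+1) x S + 8 e^2 S/L + .0016, i.e. (divide by S >= .08) S <= .0301 + .0237 + .02 < .08. Contradiction. (e^2 <= 7.39: Real.exp_one_lt_d9.)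
Tip: sum over j of 1[|i-j|>L]/(i-j)^2 <= 2/L: telescoping 1/d^2 <= 1/(d-1) - 1/d, by comparison with sums over Finset.Ico / range.
-/

theorem comb (N : ℕ) (ν : Fin N → ℝ) (hν : ∀ i, 0 ≤ ν i) {η : ℝ} (hη : 0 ≤ η)
    (h1 : ∑ i, ν i ≤ 1) (h2 : 0.08 ≤ ∑ i, ν i)
    (h : ∀ i j : Fin N,
      ν i * ν j ≤ Real.exp 4 / (1 + ((i : ℝ) - (j : ℝ)) ^ 2 / 4) ^ 2 + η)
    (hN : (N : ℝ) ^ 4 * η ≤ 0.0016 ^ 2) : ∃ i, 6e-6 ≤ ν i := by
  by_contra hcon
  push Not at hcon
  have hdist : ∀ i j : Fin N, ((i : ℝ) - (j : ℝ)) ^ 2 = ((Nat.dist i j : ℕ) : ℝ) ^ 2 := by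
    intro i j
    rcases le_total (i : ℕ) (j : ℕ) with hij | hij
    · rw [Nat.dist_eq_sub_of_le hij, Nat.cast_sub hij]; ring
    · rw [Nat.dist_eq_sub_of_le_right hij, Nat.cast_sub hij]
  have hpair : ∀ i j : Fin N, ν i * ν j ≤ (ν i + ν j) / 2 * cg (Nat.dist i j) + Real.sqrt η := by
    intro i j
    by_cases hd : Nat.dist (i : ℕ) (j : ℕ) ≤ 2500
    · have hc : cg (Nat.dist i j) = 6e-6 := by unfold cg; rw [if_pos hd]
      rw [hc]
      have := Real.sqrt_nonneg η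
      nlinarith [hν i, hν j, hcon i, hcon j, mul_nonneg (hν i) (sub_nonneg.2 (hcon j).le),
        mul_nonneg (hν j) (sub_nonneg.2 (hcon i).le)]
    · have hc : cg (Nat.dist i j) = 29.6 / ((Nat.dist i j : ℕ) : ℝ) ^ 2 := by
        unfold cg; rw [if_neg hd]
      rw [hc]
      refine pair_bound (hν i) (hν j) (by have := hcon i; linarith) (by have := hcon j; linarith) hη
        ?_ ?_
      · have : 0 < Nat.dist (i : ℕ) (j : ℕ) := by omega
        exact_mod_cast this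
      · rw [← hdist]
        exact h i j
  set S : ℝ := ∑ i, ν i with hS
  have hrow : ∀ i : Fin N, ∑ j : Fin N, cg (Nat.dist i j) ≤
      6e-6 + 2 * (2500 * 6e-6 + 29.6 / 2500) := by
    intro i
    rw [Fin.sum_univ_eq_sum_range (fun j => cg (Nat.dist i j)) N]
    exact cg_row N i i.2
  have hS2 : S * S ≤ S * (6e-6 + 2 * (2500 * 6e-6 + 29.6 / 2500)) + (N : ℝ) ^ 2 * Real.sqrt η := by
    have e1 : S * S = ∑ i, ∑ j, ν i * ν j := by
      rw [hS, Finset.sum_mul_sum]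
    have e2 : ∑ i, ∑ j, ν i * ν j ≤
        ∑ i : Fin N, ∑ j : Fin N, ((ν i + ν j) / 2 * cg (Nat.dist i j) + Real.sqrt η) :=
      Finset.sum_le_sum fun i _ => Finset.sum_le_sum fun j _ => hpair i j
    have e3 : ∑ i : Fin N, ∑ j : Fin N, ((ν i + ν j) / 2 * cg (Nat.dist i j) + Real.sqrt η) =
        (∑ i : Fin N, ν i * ∑ j : Fin N, cg (Nat.dist i j)) + (N : ℝ) ^ 2 * Real.sqrt η := by
      have f1 : ∀ i j : Fin N, (ν i + ν j) / 2 * cg (Nat.dist i j) + Real.sqrt η =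
          ν i / 2 * cg (Nat.dist i j) + ν j / 2 * cg (Nat.dist i j) + Real.sqrt η := by
        intro i j; ring
      simp_rw [f1, Finset.sum_add_distrib]
      have f2 : ∑ i : Fin N, ∑ j : Fin N, ν j / 2 * cg (Nat.dist i j) =
          ∑ i : Fin N, ∑ j : Fin N, ν i / 2 * cg (Nat.dist i j) := by
        rw [Finset.sum_comm]
        refine Finset.sum_congr rfl fun i _ => Finset.sum_congr rfl fun j _ => ?_
        rw [Nat.dist_comm]
      rw [f2]
      simp only [Finset.sum_const, Finset.card_univ, Fintype.card_fin, nsmul_eq_mul,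
        Finset.mul_sum]
      rw [← Finset.sum_add_distrib]
      congr 1
      · refine Finset.sum_congr rfl fun i _ => ?_
        rw [← Finset.sum_add_distrib]
        refine Finset.sum_congr rfl fun j _ => ?_
        ring
      · ring
    have e4 : ∑ i : Fin N, ν i * ∑ j : Fin N, cg (Nat.dist i j) ≤
        S * (6e-6 + 2 * (2500 * 6e-6 + 29.6 / 2500)) := by
      rw [hS, Finset.sum_mul]
      exact Finset.sum_le_sum fun i _ => mul_le_mul_of_nonneg_left (hrow i) (hν i)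
    linarith
  have hη2 : (N : ℝ) ^ 2 * Real.sqrt η ≤ 0.0016 := by
    refine le_of_sq_le_sq ?_ (by norm_num)
    rw [mul_pow, Real.sq_sqrt hη]
    calc ((N : ℝ) ^ 2) ^ 2 * η = (N : ℝ) ^ 4 * η := by ring
      _ ≤ _ := hN
  norm_num at hS2 h2 hη2
  nlinarith

end Crest.Agent.CVA
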