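import Mathlib
import Crest.Agent.CVA_Defs

set_option autoImplicit false
open MeasureTheory

namespace Crest.Agent.CVA

/-- upper bound for mixtures of Gaussians -/
theorem gd_upper {M : ℕ} (hM : 1 ≤ M) {r : ℝ} (hr : 0 < r) {v : Fin M → ℝ} {ρ : ℝ} (hρ : 0 < ρ)
    (hv : nsq v = M * ρ ^ 2) :
    gd M r v ≤ ((Real.sqrt (2 * Real.pi) * ρ) ^ M)⁻¹ * Real.exp (-(M : ℝ) / 2) := by
  have _ := hM
  have ht : ρ / r ≤ Real.exp (((ρ / r) ^ 2 - 1) / 2) := by
    have h1 : (ρ / r) ^ 2 ≤ (Real.exp (((ρ / r) ^ 2 - 1) / 2)) ^ 2 := by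
      rw [← Real.exp_nat_mul]
      have h2 := Real.add_one_le_exp ((ρ / r) ^ 2 - 1)
      have h3 : ((2 : ℕ) : ℝ) * (((ρ / r) ^ 2 - 1) / 2) = (ρ / r) ^ 2 - 1 := by
        push_cast
        ring
      rw [h3]
      linarith
    exact le_of_sq_le_sq h1 (Real.exp_pos _).le
  have hc : 0 < Real.sqrt (2 * Real.pi) := Real.sqrt_pos.2 (by positivity)
  unfold gd
  rw [hv]
  have e1 : ((Real.sqrt (2 * Real.pi) * r) ^ M)⁻¹ * Real.exp (-((M : ℝ) * ρ ^ 2) / (2 * r ^ 2))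
      = ((Real.sqrt (2 * Real.pi) * ρ) ^ M)⁻¹ * ((ρ / r) ^ M *
        Real.exp (-((M : ℝ) * (ρ / r) ^ 2) / 2)) := by
    have : -((M : ℝ) * ρ ^ 2) / (2 * r ^ 2) = -((M : ℝ) * (ρ / r) ^ 2) / 2 := by
      field_simp
    rw [this, ← mul_assoc]
    congr 1
    rw [div_pow, mul_pow, mul_pow]
    field_simp
  rw [e1]
  refine mul_le_mul_of_nonneg_left ?_ (by positivity)
  have e2 : (ρ / r) ^ M ≤ Real.exp ((M : ℝ) * (((ρ / r) ^ 2 - 1) / 2)) := by
    rw [Real.exp_nat_mul]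
    exact pow_le_pow_left₀ (by positivity) ht M
  calc (ρ / r) ^ M * Real.exp (-((M : ℝ) * (ρ / r) ^ 2) / 2)
      ≤ Real.exp ((M : ℝ) * (((ρ / r) ^ 2 - 1) / 2)) * Real.exp (-((M : ℝ) * (ρ / r) ^ 2) / 2) :=
        mul_le_mul_of_nonneg_right e2 (Real.exp_pos _).le
    _ = Real.exp (-(M : ℝ) / 2) := by
        rw [← Real.exp_add]
        congr 1
        ring

/-- `e^{-y} ≤ 1 - y + y²/2` for `y ≥ 0`. -/
theorem exp_neg_le_quad {y : ℝ} (hy : 0 ≤ y) : Real.exp (-y) ≤ 1 - y + y ^ 2 / 2 := by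
  have h := Real.quadratic_le_exp_of_nonneg hy
  have hp : 0 < 1 + y + y ^ 2 / 2 := by positivity
  rw [Real.exp_neg]
  have h2 : (Real.exp y)⁻¹ ≤ (1 + y + y ^ 2 / 2)⁻¹ := inv_anti₀ hp h
  refine h2.trans ?_
  rw [inv_eq_one_div, div_le_iff₀ hp]
  nlinarith [sq_nonneg (y ^ 2)]

theorem gd_lower {m : ℕ} (hm : 1 ≤ m) {r : ℝ} {v : Fin (2 * m ^ 2) → ℝ} {ρ : ℝ}
    (hρ : 0 < ρ) (hv : nsq v = (2 * m ^ 2 : ℕ) * ρ ^ 2) (h1 : ρ ≤ r)
    (h2 : r ≤ ρ * Real.exp (1 / m)) :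
    Real.exp (-2) * (((Real.sqrt (2 * Real.pi) * ρ) ^ (2 * m ^ 2))⁻¹ *
      Real.exp (-((2 * m ^ 2 : ℕ) : ℝ) / 2)) ≤ gd (2 * m ^ 2) r v := by
  have hc : 0 < Real.sqrt (2 * Real.pi) := Real.sqrt_pos.2 (by positivity)
  have hr : 0 < r := lt_of_lt_of_le hρ h1
  have hm0 : (0 : ℝ) < m := by exact_mod_cast hm
  obtain ⟨u, hu⟩ : ∃ u : ℝ, u = Real.log (r / ρ) := ⟨_, rfl⟩
  have hru : r = ρ * Real.exp u := by
    rw [hu, Real.exp_log (by positivity)]
    field_simp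
  have hu0 : 0 ≤ u := by
    rw [hu]
    exact Real.log_nonneg ((one_le_div hρ).2 h1)
  have hu1 : u ≤ 1 / m := by
    have : Real.exp u ≤ Real.exp (1 / m) := by
      rw [hru] at h2
      exact le_of_mul_le_mul_left h2 hρ
    exact Real.exp_le_exp.1 this
  have hq := exp_neg_le_quad (y := 2 * u) (by positivity)
  generalize hM : (2 * m ^ 2 : ℕ) = M at *
  have hMr : (M : ℝ) = 2 * (m : ℝ) ^ 2 := by
    rw [← hM]
    push_cast
    ring
  have hMu : (M : ℝ) * u ^ 2 ≤ 2 := by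
    have h3 : (m : ℝ) * u ≤ 1 := by
      calc (m : ℝ) * u ≤ m * (1 / m) := mul_le_mul_of_nonneg_left hu1 hm0.le
        _ = 1 := by field_simp
    have h4 : ((m : ℝ) * u) ^ 2 ≤ 1 := by
      have h5 : 0 ≤ (m : ℝ) * u := by positivity
      nlinarith
    rw [hMr]
    nlinarith
  unfold gd
  rw [hv]
  have e1 : ((Real.sqrt (2 * Real.pi) * r) ^ M)⁻¹ * Real.exp (-((M : ℝ) * ρ ^ 2) / (2 * r ^ 2))
      = ((Real.sqrt (2 * Real.pi) * ρ) ^ M)⁻¹ * Real.exp (-((M : ℝ) * u) -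
        (M : ℝ) / 2 * Real.exp (-(2 * u))) := by
    have e2 : -((M : ℝ) * ρ ^ 2) / (2 * r ^ 2) = -((M : ℝ) / 2 * Real.exp (-(2 * u))) := by
      rw [hru, Real.exp_neg, mul_pow]
      have : Real.exp (2 * u) = Real.exp u ^ 2 := by
        rw [← Real.exp_nat_mul]
        norm_num
      rw [this]
      have := Real.exp_pos u
      field_simp
    rw [e2, sub_eq_add_neg, Real.exp_add, ← mul_assoc]
    congr 1
    rw [hru, Real.exp_neg, Real.exp_nat_mul, mul_pow, mul_pow, mul_pow]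
    field_simp
  rw [e1, mul_left_comm]
  refine mul_le_mul_of_nonneg_left ?_ (by positivity)
  rw [← Real.exp_add, Real.exp_le_exp]
  have hM0 : (0 : ℝ) ≤ M := Nat.cast_nonneg _
  have h6 : (M : ℝ) / 2 * Real.exp (-(2 * u)) ≤ (M : ℝ) / 2 * (1 - 2 * u + (2 * u) ^ 2 / 2) :=
    mul_le_mul_of_nonneg_left hq (by positivity)
  nlinarith

theorem hS_lower {n m : ℕ} (hm : 1 ≤ m) (μ : Measure (Fin n → ℝ)) [IsProbabilityMeasure μ]
    {s σ κ : ℝ} (hs : 0 < s) (hσ : 0 < σ)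
    (h : κ ≤ μ.real {x | σ ≤ rad s x ∧ rad s x < σ * Real.exp (1 / m)}) (v : Fin m → ℝ) :
    κ * Real.exp (-1) * gd m σ v ≤ hS m μ s v := by
  have hc : 0 < Real.sqrt (2 * Real.pi) := Real.sqrt_pos.2 (by positivity)
  have hm0 : (0 : ℝ) < m := by exact_mod_cast hm
  set A : Set (Fin n → ℝ) := {x | σ ≤ rad s x ∧ rad s x < σ * Real.exp (1 / m)} with hA
  have hAm : MeasurableSet A := by
    refine MeasurableSet.inter ?_ ?_
    · exact measurableSet_le measurable_const (measurable_rad s)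
    · exact measurableSet_lt (measurable_rad s) measurable_const
  have hint : Integrable (fun x : Fin n → ℝ => gd m (rad s x) v) μ := by
    refine Integrable.of_bound (C := ((Real.sqrt (2 * Real.pi) * s) ^ m)⁻¹) ?_ ?_
    · exact ((measurable_gd₂ m v).comp (measurable_rad s)).aestronglyMeasurable
    · refine Filter.Eventually.of_forall fun x => ?_
      have hp := rad_pos hs x
      rw [Real.norm_of_nonneg (gd_nonneg hp.le v)]
      refine (gd_le hp.le v).trans ?_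
      refine inv_anti₀ (by positivity) ?_
      exact pow_le_pow_left₀ (by positivity) (mul_le_mul_of_nonneg_left (le_rad x) hc.le) m
  have hpt : ∀ x ∈ A, Real.exp (-1) * gd m σ v ≤ gd m (rad s x) v := by
    intro x hx
    have hp := rad_pos hs x
    obtain ⟨hx1, hx2⟩ := hx
    unfold gd
    rw [← mul_assoc]
    refine mul_le_mul ?_ ?_ (Real.exp_pos _).le (by positivity)
    · have e1 : Real.exp (-1) * ((Real.sqrt (2 * Real.pi) * σ) ^ m)⁻¹ =
          ((Real.sqrt (2 * Real.pi) * (σ * Real.exp (1 / m))) ^ m)⁻¹ := by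
        rw [mul_pow, mul_pow, mul_pow, ← Real.exp_nat_mul]
        have : (m : ℝ) * (1 / m) = 1 := by field_simp
        rw [this, Real.exp_neg]
        have := Real.exp_pos 1
        field_simp
      rw [e1]
      refine inv_anti₀ (by positivity) ?_
      exact pow_le_pow_left₀ (by positivity) (mul_le_mul_of_nonneg_left hx2.le hc.le) m
    · rw [Real.exp_le_exp, neg_div, neg_div, neg_le_neg_iff]
      refine div_le_div_of_nonneg_left (nsq_nonneg v) (by positivity) ?_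
      have := pow_le_pow_left₀ hσ.le hx1 2
      linarith
  have hgd : 0 ≤ Real.exp (-1) * gd m σ v := mul_nonneg (Real.exp_pos _).le (gd_nonneg hσ.le v)
  calc κ * Real.exp (-1) * gd m σ v = κ * (Real.exp (-1) * gd m σ v) := by ring
    _ ≤ μ.real A * (Real.exp (-1) * gd m σ v) := mul_le_mul_of_nonneg_right h hgd
    _ = ∫ _x in A, (Real.exp (-1) * gd m σ v) ∂μ := by
        rw [setIntegral_const, smul_eq_mul]
    _ ≤ ∫ x in A, gd m (rad s x) v ∂μ := by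
        refine setIntegral_mono_on ?_ hint.integrableOn hAm hpt
        exact integrableOn_const
    _ ≤ ∫ x, gd m (rad s x) v ∂μ := by
        refine setIntegral_le_integral hint ?_
        exact Filter.Eventually.of_forall fun x => gd_nonneg (rad_pos hs x).le v
    _ = hS m μ s v := rfl

theorem gd_smul_inv {m : ℕ} {s σ : ℝ} (hs : 0 < s) (hσ : 0 < σ) (w : Fin m → ℝ) :
    gd m (s / σ) (σ⁻¹ • w) = σ ^ m * gd m s w := by
  have hc : 0 < Real.sqrt (2 * Real.pi) := Real.sqrt_pos.2 (by positivity)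
  unfold gd
  rw [nsq_smul]
  have e1 : -(σ⁻¹ ^ 2 * nsq w) / (2 * (s / σ) ^ 2) = -(nsq w) / (2 * s ^ 2) := by
    field_simp
  rw [e1, ← mul_assoc]
  congr 1
  rw [mul_pow, mul_pow, div_pow]
  field_simp

theorem hG_scale {n m : ℕ} (μ : Measure (Fin n → ℝ)) {s σ : ℝ} (hs : 0 < s) (hσ : 0 < σ)
    (G : Matrix (Fin m) (Fin n) ℝ) (v : Fin m → ℝ) :
    hG μ (s / σ) (σ⁻¹ • G) v = σ ^ m * hG μ s G (σ • v) := by
  unfold hG
  rw [← integral_const_mul]
  refine integral_congr_ae (Filter.Eventually.of_forall fun x => ?_)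
  simp only []
  rw [← gd_smul_inv hs hσ]
  congr 1
  rw [smul_sub, smul_smul, inv_mul_cancel₀ hσ.ne', one_smul, Matrix.smul_mulVec]

theorem gd_scale {m : ℕ} {σ : ℝ} (hσ : 0 < σ) (v : Fin m → ℝ) :
    σ ^ m * gd m σ (σ • v) = gd m 1 v := by
  rw [← gd_smul_inv hσ hσ, div_self hσ.ne', smul_smul, inv_mul_cancel₀ hσ.ne', one_smul]

end Crest.Agent.CVA
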