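import Mathlib
import Crest.Agent.CVA_Defs

set_option autoImplicit false
open MeasureTheory

namespace Crest.Agent.CVA

private theorem lin_nsq_eq_dot {n : ℕ} (x : Fin n → ℝ) : nsq x = x ⬝ᵥ x := by
  unfold nsq dotProduct
  exact Finset.sum_congr rfl fun i _ => by ring

private theorem lin_nsq_eq_zero {n : ℕ} {x : Fin n → ℝ} (h : nsq x ≤ 0) : x = 0 := by
  have h0 : nsq x = 0 := le_antisymm h (nsq_nonneg x)
  rw [lin_nsq_eq_dot] at h0
  exact dotProduct_self_eq_zero.1 h0

private theorem lin_dot_sq_le {n : ℕ} (x y : Fin n → ℝ) : (x ⬝ᵥ y) ^ 2 ≤ nsq x * nsq y := by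
  unfold dotProduct nsq
  exact Finset.sum_mul_sq_le_sq_mul_sq _ _ _

theorem exists_lin {N m : ℕ} (G : Matrix (Fin m) (Fin (N + m)) ℝ) {θ : ℝ} (hθ : 0 < θ)
    (hG : ∀ e : Fin m → ℝ, θ * nsq e ≤ nsq (G.transpose.mulVec e)) :
    ∃ L : (Fin (N + m) → ℝ) ≃ₗ[ℝ] ((Fin N → ℝ) × (Fin m → ℝ)),
      (∀ x, (L x).2 = G.mulVec x) ∧ (∀ x, nsq (L x).1 ≤ nsq x) ∧
      ∀ x, nsq x ≤ nsq (L x).1 + nsq (L x).2 / θ := by
  classical
  -- `G Gᵀ` is surjective
  have hinj : Function.Injective (G * G.transpose).mulVecLin := by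
    rw [injective_iff_map_eq_zero]
    intro e he
    rw [Matrix.mulVecLin_apply, ← Matrix.mulVec_mulVec] at he
    have h1 : nsq (G.transpose.mulVec e) = 0 := by
      rw [lin_nsq_eq_dot, Matrix.dotProduct_mulVec, Matrix.vecMul_transpose, he, zero_dotProduct]
    have h2 := hG e
    rw [h1] at h2
    refine lin_nsq_eq_zero ?_
    by_contra hcon
    push Not at hcon
    have := mul_pos hθ hcon
    linarith
  have hsurj : Function.Surjective (G * G.transpose).mulVecLin :=
    LinearMap.injective_iff_surjective.1 hinj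
  let ι : EuclideanSpace ℝ (Fin (N + m)) ≃ₗ[ℝ] (Fin (N + m) → ℝ) :=
    WithLp.linearEquiv 2 ℝ (Fin (N + m) → ℝ)
  let Gl : EuclideanSpace ℝ (Fin (N + m)) →ₗ[ℝ] (Fin m → ℝ) := G.mulVecLin ∘ₗ ι.toLinearMap
  have hGl : ∀ x, Gl x = G.mulVec (ι x) := fun x => rfl
  have hGsurj : Function.Surjective Gl := by
    intro y
    obtain ⟨e, he⟩ := hsurj y
    refine ⟨ι.symm (G.transpose.mulVec e), ?_⟩
    rw [hGl, LinearEquiv.apply_symm_apply, Matrix.mulVec_mulVec]
    exact he
  let W : Submodule ℝ (EuclideanSpace ℝ (Fin (N + m))) := LinearMap.ker Gl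
  have hW : Module.finrank ℝ W = N := by
    have h1 := LinearMap.finrank_range_add_finrank_ker Gl
    rw [LinearMap.range_eq_top.2 hGsurj, finrank_top, finrank_euclideanSpace, Fintype.card_fin,
      Module.finrank_fin_fun] at h1
    show Module.finrank ℝ (LinearMap.ker Gl) = N
    omega
  let b : OrthonormalBasis (Fin N) ℝ W := (stdOrthonormalBasis ℝ W).reindex (finCongr hW)
  let Pr : EuclideanSpace ℝ (Fin (N + m)) →ₗ[ℝ] W := (W.orthogonalProjectionOnto).toLinearMap
  let c : W →ₗ[ℝ] (Fin N → ℝ) :=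
    (WithLp.linearEquiv 2 ℝ (Fin N → ℝ)).toLinearMap ∘ₗ b.repr.toLinearEquiv.toLinearMap
  let L0 : (Fin (N + m) → ℝ) →ₗ[ℝ] ((Fin N → ℝ) × (Fin m → ℝ)) :=
    LinearMap.prod (c ∘ₗ Pr ∘ₗ ι.symm.toLinearMap) G.mulVecLin
  have hL2 : ∀ x, (L0 x).2 = G.mulVec x := fun x => rfl
  have hnorm : ∀ x : Fin (N + m) → ℝ, nsq x = ‖ι.symm x‖ ^ 2 := fun x => nsq_eq_norm x
  have hL1 : ∀ x, nsq (L0 x).1 = ‖W.orthogonalProjectionOnto (ι.symm x)‖ ^ 2 := by
    intro x
    rw [nsq_eq_norm]
    have h1 : (WithLp.toLp 2 (L0 x).1 : EuclideanSpace ℝ (Fin N)) =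
        b.repr (W.orthogonalProjectionOnto (ι.symm x)) := rfl
    rw [h1, LinearIsometryEquiv.norm_map]
  have hle : ∀ x, nsq (L0 x).1 ≤ nsq x := by
    intro x
    rw [hL1, hnorm]
    exact pow_le_pow_left₀ (norm_nonneg _) (W.norm_orthogonalProjectionOnto_apply_le _) 2
  have hge : ∀ x, nsq x ≤ nsq (L0 x).1 + nsq (L0 x).2 / θ := by
    intro x
    obtain ⟨e, he⟩ := hsurj (G.mulVec x)
    rw [Matrix.mulVecLin_apply, ← Matrix.mulVec_mulVec] at he
    set z : Fin (N + m) → ℝ := G.transpose.mulVec e with hz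
    -- `x - z ∈ W`, `z ⟂ W`
    have hmem : ι.symm (x - z) ∈ W := by
      rw [LinearMap.mem_ker, hGl, LinearEquiv.apply_symm_apply, Matrix.mulVec_sub, he, sub_self]
    have horth : ∀ w ∈ W, inner ℝ w (ι.symm z) = 0 := by
      intro w hw
      rw [LinearMap.mem_ker, hGl] at hw
      have h1 : inner ℝ w (ι.symm z) = z ⬝ᵥ (ι w) := by
        rw [EuclideanSpace.inner_eq_star_dotProduct]
        rfl
      rw [h1, hz, Matrix.mulVec_transpose, ← Matrix.dotProduct_mulVec, hw, dotProduct_zero]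
    have hproj : (W.orthogonalProjectionOnto (ι.symm x) : EuclideanSpace ℝ (Fin (N + m))) =
        ι.symm (x - z) := by
      refine Submodule.eq_starProjection_of_mem_orthogonal hmem ?_
      have h1 : ι.symm x - ι.symm (x - z) = ι.symm z := by
        rw [← map_sub]
        congr 1
        abel
      rw [h1, Submodule.mem_orthogonal]
      exact horth
    have hpyth : nsq x = nsq (L0 x).1 + nsq z := by
      have h1 : ι.symm x = ι.symm (x - z) + ι.symm z := by
        rw [← map_add]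
        congr 1
        abel
      rw [hL1, Submodule.coe_norm, hproj, hnorm x, hnorm z, h1,
        norm_add_sq_real, horth _ hmem]
      ring
    have hz1 : nsq z = e ⬝ᵥ G.mulVec x := by
      rw [lin_nsq_eq_dot, ← he]
      conv_lhs => rw [hz]
      rw [Matrix.mulVec_transpose, ← Matrix.dotProduct_mulVec, ← Matrix.mulVec_transpose]
    have hz2 : nsq z ^ 2 ≤ nsq e * nsq (G.mulVec x) := by
      rw [hz1]
      exact lin_dot_sq_le _ _
    have hz3 : nsq z ≤ nsq (G.mulVec x) / θ := by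
      rw [le_div_iff₀ hθ]
      rcases (nsq_nonneg z).eq_or_lt with h0 | h0
      · rw [← h0, zero_mul]
        exact nsq_nonneg _
      · have h3 := hG e
        rw [← hz] at h3
        have h4 : nsq z * (nsq z * θ) ≤ nsq z * nsq (G.mulVec x) := by
          calc nsq z * (nsq z * θ) = θ * nsq z ^ 2 := by ring
            _ ≤ θ * (nsq e * nsq (G.mulVec x)) := mul_le_mul_of_nonneg_left hz2 hθ.le
            _ = (θ * nsq e) * nsq (G.mulVec x) := by ring
            _ ≤ nsq z * nsq (G.mulVec x) := mul_le_mul_of_nonneg_right h3 (nsq_nonneg _)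
        exact le_of_mul_le_mul_left h4 h0
    rw [hpyth, hL2]
    linarith
  have hinjL : Function.Injective L0 := by
    rw [injective_iff_map_eq_zero]
    intro x hx
    refine lin_nsq_eq_zero ?_
    have h1 := hge x
    rw [hx] at h1
    simpa [nsq_zero] using h1
  have hdim : Module.finrank ℝ (Fin (N + m) → ℝ) =
      Module.finrank ℝ ((Fin N → ℝ) × (Fin m → ℝ)) := by
    rw [Module.finrank_prod, Module.finrank_fin_fun, Module.finrank_fin_fun,
      Module.finrank_fin_fun]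
  exact ⟨LinearEquiv.ofInjectiveOfFinrankEq L0 hinjL hdim, hL2, hle, hge⟩

end Crest.Agent.CVA
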