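import Mathlib
import Crest.Agent.CVA_Defs

set_option autoImplicit false
open MeasureTheory

namespace Crest.Agent.CVA

/-! PROOF HINTS
Let x0 in K, r^2 = nsq x0, e = x0/r (if nsq x0 = 0 trivial). S := image of K under y -> (1-1/n) y + (1/n) x0, S subset K (convexity),
volume S = (1-1/n)^n volume K (Measure.addHaar_smul, measure_preimage_add_right or addHaar_image_homothety: S = homothety x0 (1-1/n) '' K).
int_S <e,x> dx = (1-1/n)^n * (int_K <e,(1-1/n) y + x0/n> dy) = (1-1/n)^n * (volume K) * r / n (mean zero).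
int_S <e,x> <= int_K |<e,x>| <= volume K (Cauchy-Schwarz / |t| <= (1+t^2)/2 and int <e,x>^2 d(uK K) = 1 !!  with (1+t^2)/2 one gets exactly <= 1).
So (1-1/n)^n r <= n; (1-1/n)^n >= 1/4 for n >= 2 (monotone; e.g. Bernoulli: (1-1/n)^n = ((1-1/n)^(n/2))^2.. or one_sub_inv_pow bounds:
(1-1/n)^n = 1/(1+1/(n-1))^n and (1+1/(n-1))^n <= (1+1/(n-1)) e <= 4 for n>=4 + small cases; any proof) hence r <= 4n.
-/

/-- linear form -/
noncomputable def cvaL {n : ℕ} (a y : Fin n → ℝ) : ℝ := ∑ i, a i * y i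

theorem cvaL_continuous {n : ℕ} (a : Fin n → ℝ) : Continuous (cvaL a) := by
  unfold cvaL; fun_prop

theorem cvaL_self {n : ℕ} (a : Fin n → ℝ) : cvaL a a = nsq a := by
  unfold cvaL nsq
  exact Finset.sum_congr rfl fun i _ => (sq _).symm

theorem cvaL_add_smul {n : ℕ} (a y z : Fin n → ℝ) (c d : ℝ) :
    cvaL a (c • y + d • z) = c * cvaL a y + d * cvaL a z := by
  unfold cvaL
  rw [Finset.mul_sum, Finset.mul_sum, ← Finset.sum_add_distrib]
  refine Finset.sum_congr rfl fun i _ => ?_
  simp only [Pi.add_apply, Pi.smul_apply, smul_eq_mul]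
  ring

theorem Iso.cvaL_mean {n : ℕ} {K : Set (Fin n → ℝ)} (h : Iso K) (a : Fin n → ℝ) :
    ∫ x, cvaL a x ∂(uK K) = 0 := by
  unfold cvaL
  rw [integral_finsetSum _ (fun i _ => h.body.integrable_of_continuous (by fun_prop))]
  refine Finset.sum_eq_zero fun i _ => ?_
  rw [integral_const_mul, h.mean i, mul_zero]

theorem Iso.cvaL_sq {n : ℕ} {K : Set (Fin n → ℝ)} (h : Iso K) (a : Fin n → ℝ) :
    ∫ x, cvaL a x ^ 2 ∂(uK K) = nsq a := by
  have h1 : ∀ x : Fin n → ℝ, cvaL a x ^ 2 = ∑ i, ∑ j, (a i * a j) * (x i * x j) := by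
    intro x
    unfold cvaL
    rw [sq, Finset.sum_mul_sum]
    refine Finset.sum_congr rfl fun i _ => Finset.sum_congr rfl fun j _ => ?_
    ring
  simp only [h1]
  rw [integral_finsetSum _ (fun i _ => h.body.integrable_of_continuous (by fun_prop))]
  have h2 : ∀ i : Fin n, ∫ x, ∑ j, (a i * a j) * (x i * x j) ∂(uK K) = a i ^ 2 := by
    intro i
    rw [integral_finsetSum _ (fun j _ => h.body.integrable_of_continuous (by fun_prop))]
    have h3 : ∀ j : Fin n, ∫ x, (a i * a j) * (x i * x j) ∂(uK K) =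
        if i = j then a i * a j else 0 := by
      intro j
      rw [integral_const_mul, h.cov i j]
      split_ifs <;> simp
    simp only [h3]
    rw [Finset.sum_ite_eq Finset.univ i (fun j => a i * a j)]
    simp [sq]
  simp only [h2]
  rfl

theorem Iso.cvaL_abs {n : ℕ} {K : Set (Fin n → ℝ)} (h : Iso K) (a : Fin n → ℝ) :
    ∫ x, |cvaL a x| ∂(uK K) ≤ Real.sqrt (nsq a) := by
  have := h.body.isProb
  set r := Real.sqrt (nsq a) with hr
  have hr2 : r ^ 2 = nsq a := Real.sq_sqrt (nsq_nonneg a)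
  rcases (Real.sqrt_nonneg (nsq a)).eq_or_lt with h0 | h0
  · -- a = 0
    have hz : nsq a = 0 := by rw [← hr2, hr, ← h0]; norm_num
    have ha : ∀ i, a i = 0 := by
      intro i
      have := abs_le_of_nsq (x := a) (r := 0) le_rfl (by rw [hz]; norm_num) i
      exact abs_nonpos_iff.1 this
    have h1 : ∀ x, cvaL a x = 0 := by
      intro x
      unfold cvaL
      exact Finset.sum_eq_zero fun i _ => by rw [ha i, zero_mul]
    simp [h1, hr]
  · have h0' : 0 < r := h0
    have h1 : ∫ x, |cvaL a x| ∂(uK K) ≤ ∫ x, (r / 2 + (2 * r)⁻¹ * cvaL a x ^ 2) ∂(uK K) := by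
      refine integral_mono ?_ ?_ ?_
      · exact h.body.integrable_of_continuous (cvaL_continuous a).abs
      · exact h.body.integrable_of_continuous
          (continuous_const.add (continuous_const.mul ((cvaL_continuous a).pow 2)))
      · intro x
        show |cvaL a x| ≤ r / 2 + (2 * r)⁻¹ * cvaL a x ^ 2
        have h2 : 0 ≤ (|cvaL a x| - r) ^ 2 := sq_nonneg _
        have h3 : r / 2 + (2 * r)⁻¹ * cvaL a x ^ 2 - |cvaL a x| =
            (2 * r)⁻¹ * (|cvaL a x| - r) ^ 2 := by
          rw [← sq_abs (cvaL a x)]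
          field_simp
          ring
        have h4 : 0 ≤ (2 * r)⁻¹ * (|cvaL a x| - r) ^ 2 := by positivity
        linarith
    have h2 : ∫ x, (r / 2 + (2 * r)⁻¹ * cvaL a x ^ 2) ∂(uK K) = r := by
      have hi : Integrable (fun x => (2 * r)⁻¹ * cvaL a x ^ 2) (uK K) :=
        h.body.integrable_of_continuous (continuous_const.mul ((cvaL_continuous a).pow 2))
      rw [integral_add (integrable_const _) hi, integral_const_mul, h.cvaL_sq a, ← hr2]
      simp only [integral_const, probReal_univ, smul_eq_mul, one_mul]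
      field_simp
      ring
    linarith

theorem cva_bern {n : ℕ} (hn : 2 ≤ n) : (1 / 4 : ℝ) ≤ (1 - 1 / (n : ℝ)) ^ n := by
  have hn' : (2 : ℝ) ≤ n := by exact_mod_cast hn
  have h1 := one_add_mul_self_le_rpow_one_add (s := -(1 / (n : ℝ))) (by
    rw [neg_le_neg_iff, div_le_one (by linarith)]; linarith) (p := (n : ℝ) / 2) (by linarith)
  have h2 : 1 + (n : ℝ) / 2 * -(1 / (n : ℝ)) = 1 / 2 := by
    field_simp
    ring
  have h3 : (1 + -(1 / (n : ℝ))) = 1 - 1 / (n : ℝ) := by ring
  rw [h2, h3] at h1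
  have h0 : 0 ≤ 1 - 1 / (n : ℝ) := by
    rw [sub_nonneg, div_le_one (by linarith)]; linarith
  have h4 : ((1 - 1 / (n : ℝ)) ^ ((n : ℝ) / 2)) ^ 2 = (1 - 1 / (n : ℝ)) ^ n := by
    rw [← Real.rpow_natCast _ 2, ← Real.rpow_mul h0, ← Real.rpow_natCast _ n]
    congr 1
    push_cast
    ring
  rw [← h4]
  nlinarith

theorem iso_upper {n : ℕ} (hn : 2 ≤ n) {K : Set (Fin n → ℝ)} (h : Iso K) :
    ∀ x ∈ K, nsq x ≤ 16 * (n : ℝ) ^ 2 := by
  intro x0 hx0
  have hn' : (2 : ℝ) ≤ n := by exact_mod_cast hn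
  have hn0 : (0 : ℝ) < n := by linarith
  set r := Real.sqrt (nsq x0) with hr
  have hr2 : r ^ 2 = nsq x0 := Real.sq_sqrt (nsq_nonneg x0)
  have hr0 : 0 ≤ r := Real.sqrt_nonneg _
  set V := (volume K).toReal with hV
  have hVpos : 0 < V := h.body.toReal_pos
  set c : ℝ := 1 - 1 / (n : ℝ) with hc
  have hcpos : 0 < c := by
    rw [hc, sub_pos, div_lt_one hn0]; linarith
  set g : (Fin n → ℝ) → ℝ := fun x => K.indicator (fun x => |cvaL x0 x|) x with hg
  have hgint : Integrable g volume := by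
    rw [hg]
    exact (integrable_indicator_iff h.body.meas).2
      ((cvaL_continuous x0).abs.continuousOn.integrableOn_compact h.body.cpt)
  set b : Fin n → ℝ := (1 / (n : ℝ)) • x0 with hb
  -- the change of variables
  have h1 : ∫ y, g (c • y + b) = (c ^ n)⁻¹ * ∫ x, g x := by
    have e1 := Measure.integral_comp_smul (volume : Measure (Fin n → ℝ)) (fun x => g (x + b)) c
    rw [integral_add_right_eq_self g b, Module.finrank_fin_fun,
      abs_of_pos (inv_pos.2 (pow_pos hcpos n)), smul_eq_mul] at e1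
    exact e1
  have hTK : ∀ y ∈ K, c • y + b ∈ K := by
    intro y hy
    rw [hb]
    refine h.body.cvx hy hx0 hcpos.le (by positivity) ?_
    rw [hc]; ring
  have h2 : ∫ y in K, cvaL x0 (c • y + b) ≤ ∫ y, g (c • y + b) := by
    rw [← integral_indicator h.body.meas]
    refine integral_mono ?_ ?_ ?_
    · refine (integrable_indicator_iff h.body.meas).2 ?_
      have hcc : Continuous (fun y : Fin n → ℝ => cvaL x0 (c • y + b)) :=
        (cvaL_continuous x0).comp (by fun_prop)
      exact hcc.continuousOn.integrableOn_compact h.body.cpt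
    · exact (hgint.comp_add_right b).comp_smul hcpos.ne'
    · intro y
      by_cases hy : y ∈ K
      · rw [Set.indicator_of_mem hy]
        show _ ≤ K.indicator (fun x => |cvaL x0 x|) (c • y + b)
        rw [Set.indicator_of_mem (hTK y hy)]
        exact le_abs_self _
      · rw [Set.indicator_of_notMem hy]
        exact Set.indicator_nonneg (fun _ _ => abs_nonneg _) _
  have h3 : ∫ y in K, cvaL x0 (c • y + b) = r ^ 2 / n * V := by
    have e1 : ∀ y, cvaL x0 (c • y + b) = c * cvaL x0 y + r ^ 2 / n := by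
      intro y
      rw [hb, cvaL_add_smul, cvaL_self, hr2]
      ring
    simp only [e1]
    have e2 := h.body.integral_uK (fun y => c * cvaL x0 y + r ^ 2 / n)
    have := h.body.isProb
    rw [integral_add ((h.body.integrable_of_continuous (cvaL_continuous x0)).const_mul c)
      (integrable_const _), integral_const_mul, h.cvaL_mean] at e2
    simp only [mul_zero, integral_const, probReal_univ, smul_eq_mul, one_mul, zero_add] at e2
    rw [eq_div_iff hVpos.ne'] at e2
    exact e2.symm
  have h4 : ∫ x, g x ≤ r * V := by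
    have e2 := h.body.integral_uK (fun y => |cvaL x0 y|)
    have e3 := h.cvaL_abs x0
    rw [e2, div_le_iff₀ hVpos] at e3
    rw [hg, integral_indicator h.body.meas]
    exact e3
  have hbern := cva_bern hn
  rw [← hc] at hbern
  have hinv : (c ^ n)⁻¹ ≤ 4 := by
    rw [inv_le_comm₀ (pow_pos hcpos n) (by norm_num)]
    linarith
  have h5 : r ^ 2 / n * V ≤ 4 * (r * V) := by
    have hgn : 0 ≤ ∫ x, g x := integral_nonneg fun x =>
      Set.indicator_nonneg (fun _ _ => abs_nonneg _) _
    calc r ^ 2 / n * V = ∫ y in K, cvaL x0 (c • y + b) := h3.symm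
      _ ≤ (c ^ n)⁻¹ * ∫ x, g x := by rw [← h1]; exact h2
      _ ≤ 4 * ∫ x, g x := mul_le_mul_of_nonneg_right hinv hgn
      _ ≤ 4 * (r * V) := by linarith
  have h6 : r ^ 2 ≤ 4 * r * n := by
    have e1 : r ^ 2 / n * V ≤ 4 * r * V := by linarith
    have e2 := le_of_mul_le_mul_right e1 hVpos
    rwa [div_le_iff₀ hn0] at e2
  rw [← hr2]
  rcases hr0.eq_or_lt with h0 | h0
  · rw [← h0]; nlinarith
  · have h7 : r ≤ 4 * n := by
      have : r * r ≤ 4 * n * r := by nlinarith
      exact le_of_mul_le_mul_right this h0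
    nlinarith

end Crest.Agent.CVA
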