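import Mathlib
import Crest.Agent.CVA_Defs
import Crest.Agent.CVA_Upper
set_option autoImplicit false
open MeasureTheory

namespace Crest.Agent.CVA

/-! PROOF HINTS
Uses CVA-2 as a black box (iso_upper, file CVA_Upper.lean; if it has not landed yet put it as a hypothesis
`(hup : forall x in K, nsq x <= 16 * (n:R)^2)` in a private version and finish when it lands). Let x notin K, nsq x < 1/(64 n^2).
geometric_hahn_banach_point_compact / closed: linear f and u with f x < u < f b for all b in K (or the reverse); f = <a, .> (a i = f (Pi.single i 1)), a <> 0;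
normalise e = -a/|a|: <e,y> <= <e,x> for all y in K, |e|=1. Then <e,y> < 1/(8n) =: t on K (Cauchy-Schwarz |<e,x>| <= |x| < 1/(8n)).
Mean zero: E <e,y>_+ = E <e,y>_-, so E |<e,y>| = 2 E <e,y>_+ < 2 t (strict not needed if t is slightly bigger: use t' = |x| < 1/(8n)).
|<e,y>| <= |y| <= 4n on K so 1 = E <e,y>^2 <= 4n E|<e,y>| <= 4n * 2 |x| < 1. Contradiction.
-/

theorem cvaL_cs {n : ℕ} (a y : Fin n → ℝ) :
    |cvaL a y| ≤ Real.sqrt (nsq a) * Real.sqrt (nsq y) := by
  rw [← Real.sqrt_mul (nsq_nonneg a), ← Real.sqrt_sq_eq_abs]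
  exact Real.sqrt_le_sqrt (Finset.sum_mul_sq_le_sq_mul_sq _ _ _)

theorem iso_lower {n : ℕ} (hn : 2 ≤ n) {K : Set (Fin n → ℝ)} (h : Iso K) :
    ∀ x, nsq x < (64 * (n : ℝ) ^ 2)⁻¹ → x ∈ K := by
  intro x hx
  by_contra hxK
  have hn' : (2 : ℝ) ≤ n := by exact_mod_cast hn
  have hn0 : (0 : ℝ) < n := by linarith
  have := h.body.isProb
  obtain ⟨f, u, hf1, hf2⟩ := geometric_hahn_banach_closed_point h.body.cvx
    h.body.cpt.isClosed hxK
  set a : Fin n → ℝ := fun i => f (Pi.single i 1) with ha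
  have hfa : ∀ y, f y = cvaL a y := by
    intro y
    have h1 : y = ∑ i, y i • (Pi.single i (1 : ℝ) : Fin n → ℝ) := by
      conv_lhs => rw [← LinearMap.sum_single_apply (φ := fun _ : Fin n => ℝ) y]
      refine Finset.sum_congr rfl fun i _ => ?_
      rw [← Pi.single_smul, smul_eq_mul, mul_one]
    conv_lhs => rw [h1, map_sum]
    unfold cvaL
    refine Finset.sum_congr rfl fun i _ => ?_
    rw [map_smul, smul_eq_mul, mul_comm]
  set A := Real.sqrt (nsq a) with hA
  set t := Real.sqrt (nsq x) with ht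
  have hA2 : A ^ 2 = nsq a := Real.sq_sqrt (nsq_nonneg a)
  have ht2 : t ^ 2 = nsq x := Real.sq_sqrt (nsq_nonneg x)
  have hA0 : 0 ≤ A := Real.sqrt_nonneg _
  have ht0 : 0 ≤ t := Real.sqrt_nonneg _
  have hle : ∀ y ∈ K, cvaL a y ≤ A * t := by
    intro y hy
    have h1 := hf1 y hy
    rw [hfa] at h1 hf2
    have h2 := (le_abs_self _).trans (cvaL_cs a x)
    exact (h1.trans hf2).le.trans h2
  have hbig : ∀ y ∈ K, |cvaL a y| ≤ A * (4 * n) := by
    intro y hy
    refine (cvaL_cs a y).trans (mul_le_mul_of_nonneg_left ?_ hA0)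
    rw [Real.sqrt_le_left (by positivity)]
    have := iso_upper hn h y hy
    nlinarith
  have hApos : 0 < A := by
    rcases hA0.eq_or_lt with h0 | h0
    · exfalso
      obtain ⟨y, hy⟩ := h.body.int
      have hy' := interior_subset hy
      have h1 := hf1 y hy'
      rw [hfa] at h1 hf2
      have e1 := cvaL_cs a x
      have e2 := cvaL_cs a y
      rw [← hA, ← h0, zero_mul] at e1 e2
      have e1' := abs_nonpos_iff.1 e1
      have e2' := abs_nonpos_iff.1 e2
      rw [e1'] at hf2
      rw [e2'] at h1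
      linarith
    · exact h0
  have key : ∫ y, cvaL a y ^ 2 ∂(uK K) ≤
      ∫ y, (A * (4 * n)) * (2 * (A * t) - cvaL a y) ∂(uK K) := by
    refine integral_mono_ae ?_ ?_ ?_
    · exact h.body.integrable_of_continuous ((cvaL_continuous a).pow 2)
    · exact h.body.integrable_of_continuous
        (continuous_const.mul (continuous_const.sub (cvaL_continuous a)))
    · filter_upwards [h.body.ae_mem] with y hy
      have h1 := hle y hy
      have h2 := hbig y hy
      have h3 : |cvaL a y| ≤ 2 * (A * t) - cvaL a y := by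
        rcases abs_cases (cvaL a y) with ⟨e, _⟩ | ⟨e, _⟩
        · rw [e]; linarith
        · rw [e]
          have : 0 ≤ A * t := mul_nonneg hA0 ht0
          linarith
      calc cvaL a y ^ 2 = |cvaL a y| * |cvaL a y| := by rw [← sq_abs, sq]
        _ ≤ (A * (4 * n)) * (2 * (A * t) - cvaL a y) :=
            mul_le_mul h2 h3 (abs_nonneg _) (by positivity)
  have hi : Integrable (fun y => cvaL a y) (uK K) :=
    h.body.integrable_of_continuous (cvaL_continuous a)
  rw [h.cvaL_sq, integral_const_mul, integral_sub (integrable_const _) hi, h.cvaL_mean,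
    ← hA2] at key
  simp only [integral_const, probReal_univ, smul_eq_mul, one_mul, sub_zero] at key
  have h8 : A ^ 2 * 1 ≤ A ^ 2 * (8 * n * t) := by nlinarith
  have h9 : 1 ≤ 8 * n * t := le_of_mul_le_mul_left h8 (by positivity)
  have h10 : 1 ≤ 64 * (n : ℝ) ^ 2 * nsq x := by
    rw [← ht2]; nlinarith
  have h11 : 64 * (n : ℝ) ^ 2 * nsq x < 1 := by
    have h12 : (0 : ℝ) < 64 * (n : ℝ) ^ 2 := by positivity
    calc 64 * (n : ℝ) ^ 2 * nsq x < 64 * (n : ℝ) ^ 2 * (64 * (n : ℝ) ^ 2)⁻¹ :=
          mul_lt_mul_of_pos_left hx h12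
      _ = 1 := mul_inv_cancel₀ h12.ne'
  linarith

end Crest.Agent.CVA
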