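import Mathlib
import Crest.Agent.CVA_Defs

set_option autoImplicit false
open MeasureTheory

namespace Crest.Agent.CVA

/-! PROOF HINTS
b := mean of K (b i = int x i d(uK K)); C i j := covariance = int (x i - b i)(x j - b j) d(uK K), symmetric; positive definite:
e^T C e = int <e,x-b>^2 >= 0 and = 0 would force <e,x-b> = 0 a.e. on K, impossible for e <> 0 as K has nonempty interior (hyperplanes are
null sets, or: the continuous function <e,x-b>^2 vanishes a.e. on the open set interior K, hence everywhere on it). So C.PosDef; C = B^T B with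
B invertible (Matrix.PosSemidef.sqrt / Matrix.posDef... / CFC; any square root), T := (B^T)^-1, i.e. T C T^T = 1. Image body: compact, convex,
interior (T is a homeomorphism: use LinearEquiv.toContinuousLinearEquiv). Change of variables: for the affine homeo A x = T (x - b),
int_{A K} f = |det T| int_K f(A x), so uK (A '' K) = (uK K).map A; prove this map identity first (MeasureTheory.Measure.addHaar_image_linearMap /
addHaar_preimage, integral_image_eq_integral_abs_det_fderiv_smul or Measure.map on a linear equiv: Measure.map_linearMap_addHaar_eq_smul_addHaar),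
then mean and cov are finite sums of integrals over uK K (Body.integrable_of_continuous). n = 0 is fine too (everything vacuous).
-/

section helpers

variable {n : ℕ}

open scoped MatrixOrder Matrix.Norms.L2Operator in
private theorem cvap_sqrt (C : Matrix (Fin n) (Fin n) ℝ) (hC : C.PosDef) :
    ∃ B : Matrix (Fin n) (Fin n) ℝ, C = B.transpose * B ∧ IsUnit B.det := by
  obtain ⟨B, hB⟩ := CStarAlgebra.nonneg_iff_eq_star_mul_self.mp hC.posSemidef.nonneg
  have hB' : C = B.transpose * B := by
    rw [hB, Matrix.star_eq_conjTranspose, Matrix.conjTranspose_eq_transpose_of_trivial]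
  refine ⟨B, hB', ?_⟩
  have h1 : C.det ≠ 0 := hC.det_pos.ne'
  rw [hB', Matrix.det_mul, Matrix.det_transpose] at h1
  exact isUnit_iff_ne_zero.2 (fun h => h1 (by rw [h, mul_zero]))

/-- the affine map -/
private noncomputable def cvapA (T : (Fin n → ℝ) ≃ₗ[ℝ] (Fin n → ℝ)) (b : Fin n → ℝ) :
    (Fin n → ℝ) ≃ₜ (Fin n → ℝ) :=
  (Homeomorph.subRight b).trans T.toContinuousLinearEquiv.toHomeomorph

private theorem cvapA_apply (T : (Fin n → ℝ) ≃ₗ[ℝ] (Fin n → ℝ)) (b x : Fin n → ℝ) :
    cvapA T b x = T (x - b) := rfl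

private theorem cvap_vol (T : (Fin n → ℝ) ≃ₗ[ℝ] (Fin n → ℝ)) (b : Fin n → ℝ) (S : Set (Fin n → ℝ)) :
    volume (cvapA T b '' S) =
      ENNReal.ofReal |LinearMap.det (T : (Fin n → ℝ) →ₗ[ℝ] (Fin n → ℝ))| * volume S := by
  have h1 : cvapA T b '' S = (T : (Fin n → ℝ) →ₗ[ℝ] (Fin n → ℝ)) '' ((fun x => x + b) ⁻¹' S) := by
    ext y
    constructor
    · rintro ⟨x, hx, rfl⟩
      exact ⟨x - b, by simpa using hx, rfl⟩
    · rintro ⟨x, hx, rfl⟩
      exact ⟨x + b, hx, by simp [cvapA_apply]⟩
  rw [h1, Measure.addHaar_image_linearMap, measure_preimage_add_right]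

private theorem cvap_uK (T : (Fin n → ℝ) ≃ₗ[ℝ] (Fin n → ℝ)) (b : Fin n → ℝ) (K : Set (Fin n → ℝ)) :
    uK (cvapA T b '' K) = (uK K).map (cvapA T b) := by
  have hd : LinearMap.det (T : (Fin n → ℝ) →ₗ[ℝ] (Fin n → ℝ)) ≠ 0 := T.isUnit_det'.ne_zero
  have hd0 : ENNReal.ofReal |LinearMap.det (T : (Fin n → ℝ) →ₗ[ℝ] (Fin n → ℝ))| ≠ 0 := by
    simp [ENNReal.ofReal_eq_zero, not_le, hd]
  have hdt : ENNReal.ofReal |LinearMap.det (T : (Fin n → ℝ) →ₗ[ℝ] (Fin n → ℝ))| ≠ ⊤ :=
    ENNReal.ofReal_ne_top
  ext s hs
  rw [Measure.map_apply (cvapA T b).continuous.measurable hs]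
  unfold uK
  rw [Measure.smul_apply, Measure.smul_apply, Measure.restrict_apply hs,
    Measure.restrict_apply ((cvapA T b).continuous.measurable hs), cvap_vol, smul_eq_mul, smul_eq_mul]
  have h1 : s ∩ cvapA T b '' K = cvapA T b '' (cvapA T b ⁻¹' s ∩ K) := by
    rw [Set.image_preimage_inter]
  rw [h1, cvap_vol, ENNReal.mul_inv (Or.inl hd0) (Or.inl hdt)]
  rw [mul_mul_mul_comm, ENNReal.inv_mul_cancel hd0 hdt, one_mul]

private theorem cvap_body (T : (Fin n → ℝ) ≃ₗ[ℝ] (Fin n → ℝ)) (b : Fin n → ℝ) {K : Set (Fin n → ℝ)}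
    (hK : Body K) : Body (cvapA T b '' K) where
  cpt := hK.cpt.image (cvapA T b).continuous
  cvx := by
    have h1 : cvapA T b '' K = (T : (Fin n → ℝ) →ₗ[ℝ] (Fin n → ℝ)) '' ((fun x => -b + x) '' K) := by
      rw [Set.image_image]
      refine Set.image_congr fun x _ => ?_
      simp only [cvapA_apply, LinearEquiv.coe_coe]
      congr 1
      abel
    rw [h1]
    exact (hK.cvx.translate (-b)).linear_image _
  int := by
    obtain ⟨x, hx⟩ := hK.int
    refine ⟨cvapA T b x, ?_⟩
    have h2 : cvapA T b '' interior K ⊆ interior (cvapA T b '' K) :=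
      interior_maximal (Set.image_mono interior_subset)
        ((cvapA T b).isOpenMap _ isOpen_interior)
    exact h2 ⟨x, hx, rfl⟩

/-- the integral of the square of a nonzero affine function is positive -/
private theorem cvap_pos {K : Set (Fin n → ℝ)} (hK : Body K) (b e : Fin n → ℝ) (he : e ≠ 0) :
    0 < ∫ x, (∑ i, e i * (x i - b i)) ^ 2 ∂(uK K) := by
  have hc : Continuous (fun x : Fin n → ℝ => (∑ i, e i * (x i - b i)) ^ 2) := by fun_prop
  rw [integral_pos_iff_support_of_nonneg (fun x => sq_nonneg _) (hK.integrable_of_continuous hc)]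
  obtain ⟨y, hy⟩ := hK.int
  -- find a point of the interior in the support
  have hne : ∃ z ∈ interior K, (∑ i, e i * (z i - b i)) ^ 2 ≠ 0 := by
    by_contra hcon
    push_neg at hcon
    have h1 : ∀ z ∈ interior K, ∑ i, e i * (z i - b i) = 0 := fun z hz => by
      simpa using hcon z hz
    have hcont : Continuous (fun t : ℝ => y + t • e) := by fun_prop
    have hopen : IsOpen ((fun t : ℝ => y + t • e) ⁻¹' interior K) := isOpen_interior.preimage hcont
    have h0 : (0 : ℝ) ∈ (fun t : ℝ => y + t • e) ⁻¹' interior K := by simpa using hy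
    obtain ⟨ε, hε, hball⟩ := Metric.isOpen_iff.1 hopen 0 h0
    have ht : (ε / 2) ∈ Metric.ball (0 : ℝ) ε := by
      rw [Metric.mem_ball, dist_zero_right, Real.norm_eq_abs, abs_of_pos (by positivity)]
      linarith
    have h2 := h1 _ (hball ht)
    have h3 := h1 y hy
    have h4 : ∑ i, e i * ((y + (ε / 2) • e) i - b i) =
        ∑ i, e i * (y i - b i) + (ε / 2) * ∑ i, e i * e i := by
      rw [Finset.mul_sum, ← Finset.sum_add_distrib]
      refine Finset.sum_congr rfl fun i _ => ?_
      simp only [Pi.add_apply, Pi.smul_apply, smul_eq_mul]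
      ring
    rw [h4, h3, zero_add] at h2
    have h5 : ∑ i, e i * e i = 0 := by
      rcases mul_eq_zero.1 h2 with h | h
      · exfalso; linarith
      · exact h
    refine he ?_
    funext i
    have h6 := (Finset.sum_eq_zero_iff_of_nonneg (fun i _ => mul_self_nonneg (e i))).1 h5 i
      (Finset.mem_univ i)
    exact mul_self_eq_zero.1 h6
  obtain ⟨z, hz, hz'⟩ := hne
  have hsub : Function.support (fun x : Fin n → ℝ => (∑ i, e i * (x i - b i)) ^ 2) ∩ interior K ⊆
      Function.support (fun x : Fin n → ℝ => (∑ i, e i * (x i - b i)) ^ 2) := Set.inter_subset_left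
  have hop : IsOpen (Function.support (fun x : Fin n → ℝ => (∑ i, e i * (x i - b i)) ^ 2) ∩
      interior K) := (hc.isOpen_support).inter isOpen_interior
  refine lt_of_lt_of_le ?_ (measure_mono hsub)
  unfold uK
  rw [Measure.smul_apply, Measure.restrict_apply hop.measurableSet, smul_eq_mul]
  have h7 : Function.support (fun x : Fin n → ℝ => (∑ i, e i * (x i - b i)) ^ 2) ∩ interior K ∩ K =
      Function.support (fun x : Fin n → ℝ => (∑ i, e i * (x i - b i)) ^ 2) ∩ interior K := by
    rw [Set.inter_assoc, Set.inter_eq_left.2 interior_subset]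
  rw [h7]
  have h8 := hop.measure_pos volume ⟨z, hz', hz⟩
  exact ENNReal.mul_pos (ENNReal.inv_ne_zero.2 hK.vol_ne_top) h8.ne'

end helpers

theorem exists_iso {n : ℕ} (K : Set (Fin n → ℝ)) (hK : Body K) :
    ∃ (T : (Fin n → ℝ) ≃ₗ[ℝ] (Fin n → ℝ)) (b : Fin n → ℝ), Iso ((fun x => T (x - b)) '' K) := by
  haveI := hK.isProb
  set b : Fin n → ℝ := fun i => ∫ x, x i ∂(uK K) with hb
  set C : Matrix (Fin n) (Fin n) ℝ := Matrix.of fun i j => ∫ x, (x i - b i) * (x j - b j) ∂(uK K)
    with hC
  have hint : ∀ i j, Integrable (fun x : Fin n → ℝ => (x i - b i) * (x j - b j)) (uK K) :=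
    fun i j => hK.integrable_of_continuous (by fun_prop)
  have hquad : ∀ e f : Fin n → ℝ, ∫ x, (∑ i, e i * (x i - b i)) * (∑ j, f j * (x j - b j)) ∂(uK K) =
      ∑ i, ∑ j, e i * C i j * f j := by
    intro e f
    have h1 : ∀ x : Fin n → ℝ, (∑ i, e i * (x i - b i)) * (∑ j, f j * (x j - b j)) =
        ∑ i, ∑ j, (e i * f j) * ((x i - b i) * (x j - b j)) := by
      intro x
      rw [Finset.sum_mul_sum]
      refine Finset.sum_congr rfl fun i _ => Finset.sum_congr rfl fun j _ => ?_
      ring
    simp only [h1]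
    rw [integral_finsetSum _ (fun i _ => integrable_finsetSum _ fun j _ => (hint i j).const_mul _)]
    refine Finset.sum_congr rfl fun i _ => ?_
    rw [integral_finsetSum _ (fun j _ => (hint i j).const_mul _)]
    refine Finset.sum_congr rfl fun j _ => ?_
    rw [integral_const_mul, hC, Matrix.of_apply]
    ring
  have hpd : C.PosDef := by
    rw [Matrix.posDef_iff_dotProduct_mulVec]
    refine ⟨?_, fun e he => ?_⟩
    · ext i j
      rw [Matrix.conjTranspose_apply, hC, Matrix.of_apply, Matrix.of_apply, star_trivial]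
      refine integral_congr_ae (Filter.Eventually.of_forall fun x => ?_)
      simp only []
      ring
    · have h1 := cvap_pos hK b e he
      have h2 := hquad e e
      have h3 : ∫ x, (∑ i, e i * (x i - b i)) ^ 2 ∂(uK K) = star e ⬝ᵥ C.mulVec e := by
        simp only [sq]
        rw [h2]
        simp only [dotProduct, Matrix.mulVec, star_trivial, Finset.mul_sum]
        refine Finset.sum_congr rfl fun i _ => Finset.sum_congr rfl fun j _ => ?_
        ring
      rwa [h3] at h1
  obtain ⟨B, hB, hBu⟩ := cvap_sqrt C hpd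
  have hBt : IsUnit (B.transpose).det := by rwa [Matrix.det_transpose]
  set M : Matrix (Fin n) (Fin n) ℝ := (B.transpose)⁻¹ with hM
  have hM1 : M * B.transpose = 1 := Matrix.nonsing_inv_mul _ hBt
  have hM2 : B.transpose * M = 1 := Matrix.mul_nonsing_inv _ hBt
  have hMC : M * C * M.transpose = 1 := by
    rw [hB, ← Matrix.mul_assoc, hM1, Matrix.one_mul]
    have := congrArg Matrix.transpose hM1
    rwa [Matrix.transpose_mul, Matrix.transpose_transpose, Matrix.transpose_one] at this
  let T : (Fin n → ℝ) ≃ₗ[ℝ] (Fin n → ℝ) := Matrix.toLin'OfInv hM2 hM1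
  have hT : ∀ x i, T x i = ∑ k, M i k * x k := fun x i => by
    show Matrix.toLin' M x i = _
    rw [Matrix.toLin'_apply]
    rfl
  refine ⟨T, b, ?_⟩
  have himg : (fun x => T (x - b)) '' K = cvapA T b '' K := rfl
  rw [himg]
  have hmeas : Measurable (cvapA T b) := (cvapA T b).continuous.measurable
  have hTx : ∀ x i, cvapA T b x i = ∑ k, M i k * (x k - b k) := fun x i => by
    rw [cvapA_apply, hT]
    rfl
  refine ⟨cvap_body T b hK, fun i => ?_, fun i j => ?_⟩
  · rw [cvap_uK, integral_map hmeas.aemeasurable (by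
      exact (continuous_apply i).aestronglyMeasurable)]
    simp only [hTx]
    rw [integral_finsetSum _ (fun k _ => hK.integrable_of_continuous (by fun_prop))]
    refine Finset.sum_eq_zero fun k _ => ?_
    rw [integral_const_mul, integral_sub (hK.integrable_of_continuous (by fun_prop))
      (integrable_const _), integral_const]
    simp [hb]
  · rw [cvap_uK, integral_map hmeas.aemeasurable (by
      exact ((continuous_apply i).mul (continuous_apply j)).aestronglyMeasurable)]
    simp only [hTx]
    rw [hquad]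
    have h1 := congrFun (congrFun hMC i) j
    rw [Matrix.one_apply] at h1
    rw [← h1, Matrix.mul_apply]
    simp only [Matrix.mul_apply, Matrix.transpose_apply, Finset.sum_mul]
    rw [Finset.sum_comm]

end Crest.Agent.CVA
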