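import Mathlib

set_option autoImplicit false

namespace Crest.Agent.LibPL

open MeasureTheory Set
open scoped ENNReal NNReal Pointwise

/-- AM-GM in `ℝ≥0∞`. -/
theorem four_mul_le_sq (a b : ℝ≥0∞) : 4 * (a * b) ≤ (a + b) ^ 2 := by
  rcases le_total a b with h | h
  · obtain ⟨c, rfl⟩ := le_iff_exists_add.1 h
    calc 4 * (a * (a + c)) ≤ 4 * (a * (a + c)) + c ^ 2 := le_self_add
      _ = (a + (a + c)) ^ 2 := by ring
  · obtain ⟨c, rfl⟩ := le_iff_exists_add.1 h
    calc 4 * ((b + c) * b) ≤ 4 * ((b + c) * b) + c ^ 2 := le_self_add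
      _ = (b + c + b) ^ 2 := by ring

/-- One-dimensional Brunn–Minkowski (midpoint form) for compact sets. -/
theorem bm_compact (K L C : Set ℝ) (hK : IsCompact K) (hL : IsCompact L) (hKn : K.Nonempty)
    (hLn : L.Nonempty)
    (h : ∀ a ∈ K, ∀ b ∈ L, (1 / 2 : ℝ) * (a + b) ∈ C) :
    volume K + volume L ≤ 2 * volume C := by
  obtain ⟨a, haK, ha⟩ := hK.exists_isMaxOn hKn (continuous_id.continuousOn)
  obtain ⟨b, hbL, hb⟩ := hL.exists_isMinOn hLn (continuous_id.continuousOn)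
  have ha' : ∀ x ∈ K, x ≤ a := fun x hx => ha hx
  have hb' : ∀ x ∈ L, b ≤ x := fun x hx => hb hx
  -- the two pieces
  set m : ℝ := (1 / 2 : ℝ) * (a + b)
  have h1 : volume K ≤ 2 * volume (C ∩ Iic m) := by
    have hsub : (fun x : ℝ => (1 / 2 : ℝ) * (x + b)) '' K ⊆ C ∩ Iic m := by
      rintro _ ⟨x, hx, rfl⟩
      refine ⟨h x hx b hbL, ?_⟩
      simp only [mem_Iic, m]
      have := ha' x hx
      linarith
    have himg : (fun x : ℝ => (1 / 2 : ℝ) * (x + b)) '' K
        = (fun x : ℝ => x + (1/2 : ℝ) * b) '' ((fun x : ℝ => (1 / 2 : ℝ) • x) '' K) := by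
      rw [image_image]
      congr 1
      ext x
      simp only [smul_eq_mul]
      ring
    have hvol : volume ((fun x : ℝ => (1 / 2 : ℝ) * (x + b)) '' K) = (1/2 : ℝ≥0∞) * volume K := by
      rw [himg, image_add_right, measure_preimage_add_right, image_smul, Measure.addHaar_smul]
      simp
    calc volume K = 2 * ((1/2 : ℝ≥0∞) * volume K) := by
          rw [← mul_assoc]
          simp [ENNReal.mul_inv_cancel]
      _ ≤ 2 * volume (C ∩ Iic m) := by
          gcongr
          rw [← hvol]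
          exact measure_mono hsub
  have h2 : volume L ≤ 2 * volume (C \ Iic m) := by
    have hsub : (fun x : ℝ => (1 / 2 : ℝ) * (x + a)) '' L ⊆ C ∩ Ici m := by
      rintro _ ⟨x, hx, rfl⟩
      refine ⟨by have := h a haK x hx; rwa [add_comm a x] at this, ?_⟩
      simp only [mem_Ici, m]
      have := hb' x hx
      linarith
    have himg : (fun x : ℝ => (1 / 2 : ℝ) * (x + a)) '' L
        = (fun x : ℝ => x + (1/2 : ℝ) * a) '' ((fun x : ℝ => (1 / 2 : ℝ) • x) '' L) := by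
      rw [image_image]
      congr 1
      ext x
      simp only [smul_eq_mul]
      ring
    have hvol : volume ((fun x : ℝ => (1 / 2 : ℝ) * (x + a)) '' L) = (1/2 : ℝ≥0∞) * volume L := by
      rw [himg, image_add_right, measure_preimage_add_right, image_smul, Measure.addHaar_smul]
      simp
    have hae : volume (C ∩ Ici m) ≤ volume (C \ Iic m) := by
      have : C ∩ Ici m ⊆ (C \ Iic m) ∪ {m} := by
        rintro x ⟨hx, hxm⟩
        rcases eq_or_lt_of_le (show m ≤ x from hxm) with h | h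
        · right; simp [h]
        · left; exact ⟨hx, by simpa using h⟩
      calc volume (C ∩ Ici m) ≤ volume ((C \ Iic m) ∪ {m}) := measure_mono this
        _ ≤ volume (C \ Iic m) + volume {m} := measure_union_le _ _
        _ = volume (C \ Iic m) := by simp
    calc volume L = 2 * ((1/2 : ℝ≥0∞) * volume L) := by
          rw [← mul_assoc]
          simp [ENNReal.mul_inv_cancel]
      _ ≤ 2 * volume (C \ Iic m) := by
          gcongr
          rw [← hvol]
          exact (measure_mono hsub).trans hae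
  calc volume K + volume L ≤ 2 * volume (C ∩ Iic m) + 2 * volume (C \ Iic m) := add_le_add h1 h2
    _ = 2 * (volume (C ∩ Iic m) + volume (C \ Iic m)) := by ring
    _ = 2 * volume C := by rw [measure_inter_add_sdiff C measurableSet_Iic]

/-- One-dimensional Brunn–Minkowski (midpoint form) for measurable sets. -/
theorem bm_one (A B C : Set ℝ) (hA : MeasurableSet A) (hB : MeasurableSet B) (hAn : A.Nonempty)
    (hBn : B.Nonempty)
    (h : ∀ a ∈ A, ∀ b ∈ B, (1 / 2 : ℝ) * (a + b) ∈ C) :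
    volume A + volume B ≤ 2 * volume C := by
  obtain ⟨a0, ha0⟩ := hAn
  obtain ⟨b0, hb0⟩ := hBn
  have key : ∀ K ⊆ A, IsCompact K → ∀ L ⊆ B, IsCompact L → volume K + volume L ≤ 2 * volume C := by
    intro K hKA hK L hLB hL
    calc volume K + volume L ≤ volume (insert a0 K) + volume (insert b0 L) := by
          gcongr <;> exact subset_insert _ _
      _ ≤ 2 * volume C := by
          refine bm_compact _ _ C (hK.insert a0) (hL.insert b0) (insert_nonempty _ _)
            (insert_nonempty _ _) ?_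
          intro a ha b hb
          exact h a (insert_subset ha0 hKA ha) b (insert_subset hb0 hLB hb)
  rw [hA.measure_eq_iSup_isCompact, hB.measure_eq_iSup_isCompact]
  simp only [iSup_and']
  refine ENNReal.biSup_add_biSup_le' (p := fun K : Set ℝ => K ⊆ A ∧ IsCompact K)
    (q := fun K : Set ℝ => K ⊆ B ∧ IsCompact K) ⟨∅, by simp⟩ ⟨∅, by simp⟩ ?_
  intro K hK L hL
  exact key K hK.1 hK.2 L hL.1 hL.2

/-- Prékopa–Leindler on `ℝ`, normalised case: `sup f = sup g = 1` (not attained is fine). -/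
theorem pl_one_norm (f g h : ℝ → ℝ≥0∞) (hf : Measurable f) (hg : Measurable g) (hh : Measurable h)
    (H : ∀ x y, f x * g y ≤ h ((1/2 : ℝ) * (x + y)) ^ 2)
    (hf1 : ∀ x, f x ≤ 1) (hg1 : ∀ x, g x ≤ 1)
    (hf2 : ∀ c : ℝ≥0∞, c < 1 → ∃ x, c < f x) (hg2 : ∀ c : ℝ≥0∞, c < 1 → ∃ x, c < g x) :
    (∫⁻ x, f x) + (∫⁻ x, g x) ≤ 2 * ∫⁻ x, h x := by
  -- layer-cake formula for functions bounded by one
  have layer : ∀ u : ℝ → ℝ≥0∞, Measurable u → (∀ x, u x ≤ 1) →
      ∫⁻ x, u x = ∫⁻ t in Ioo (0:ℝ) 1, volume {x | ENNReal.ofReal t < u x} := by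
    intro u hu hu1
    have hfin : ∀ x, u x ≠ ∞ := fun x => ((hu1 x).trans_lt ENNReal.one_lt_top).ne
    have h1 : ∫⁻ x, u x = ∫⁻ x, ENNReal.ofReal ((u x).toReal) := by
      refine lintegral_congr fun x => ?_
      rw [ENNReal.ofReal_toReal (hfin x)]
    rw [h1, lintegral_eq_lintegral_meas_lt volume (Filter.Eventually.of_forall fun x =>
      ENNReal.toReal_nonneg) hu.ennreal_toReal.aemeasurable]
    have h2 : ∀ t ∈ Ioi (0:ℝ), {x | t < (u x).toReal} = {x | ENNReal.ofReal t < u x} := by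
      intro t ht
      ext x
      simp only [mem_ofPred_eq]
      rw [ENNReal.ofReal_lt_iff_lt_toReal (le_of_lt ht) (hfin x)]
    rw [setLIntegral_congr_fun measurableSet_Ioi (fun t ht => by rw [h2 t ht])]
    have hsplit : Ioi (0:ℝ) = Ioo 0 1 ∪ Ici 1 := by
      ext x; simp only [mem_Ioi, mem_union, mem_Ioo, mem_Ici]
      constructor
      · intro hx
        rcases lt_or_ge x 1 with h | h
        · exact Or.inl ⟨hx, h⟩
        · exact Or.inr h
      · rintro (h | h)
        · exact h.1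
        · linarith
    rw [hsplit, lintegral_union measurableSet_Ici (by
      rw [Set.disjoint_left]; intro x hx hx'; simp only [mem_Ioo, mem_Ici] at hx hx'; linarith)]
    have h3 : ∫⁻ t in Ici (1:ℝ), volume {x | ENNReal.ofReal t < u x} = 0 := by
      rw [setLIntegral_congr_fun (g := fun _ => 0) measurableSet_Ici]
      · simp
      · intro t ht
        have : {x | ENNReal.ofReal t < u x} = ∅ := by
          ext x
          simp only [mem_ofPred_eq, mem_empty_iff_false, iff_false, not_lt]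
          refine (hu1 x).trans ?_
          rw [← ENNReal.ofReal_one]
          exact ENNReal.ofReal_le_ofReal ht
        simp only [this, measure_empty]
    rw [h3, add_zero]
  set h' : ℝ → ℝ≥0∞ := fun x => min (h x) 1
  have hh' : Measurable h' := hh.min measurable_const
  have hmain : (∫⁻ x, f x) + (∫⁻ x, g x) ≤ 2 * ∫⁻ x, h' x := by
    rw [layer f hf hf1, layer g hg hg1, layer h' hh' (fun x => min_le_right _ _)]
    have hmf : Measurable fun t : ℝ => volume {x | ENNReal.ofReal t < f x} := by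
      refine Antitone.measurable ?_
      intro s t hst
      refine measure_mono ?_
      intro x hx
      exact lt_of_le_of_lt (ENNReal.ofReal_le_ofReal hst) hx
    rw [← lintegral_add_left hmf, ← lintegral_const_mul' _ _ (by simp)]
    refine setLIntegral_mono' measurableSet_Ioo ?_
    intro t ht
    have htlt : ENNReal.ofReal t < 1 := by
      rw [← ENNReal.ofReal_one]
      exact (ENNReal.ofReal_lt_ofReal_iff one_pos).2 ht.2
    refine bm_one _ _ _ (measurableSet_lt measurable_const hf) (measurableSet_lt measurable_const hg)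
      (hf2 _ htlt) (hg2 _ htlt) ?_
    intro a ha b hb
    simp only [mem_ofPred_eq] at ha hb ⊢
    refine lt_min ?_ htlt
    by_contra hcon
    rw [not_lt] at hcon
    have h1 := H a b
    have h2 : ENNReal.ofReal t * ENNReal.ofReal t < f a * g b := ENNReal.mul_lt_mul ha hb
    have h3 : h ((1/2 : ℝ) * (a + b)) ^ 2 ≤ ENNReal.ofReal t * ENNReal.ofReal t := by
      rw [sq]
      exact mul_le_mul' hcon hcon
    exact absurd (h1.trans h3) (not_le.2 h2)
  refine hmain.trans ?_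
  gcongr with x
  exact min_le_left _ _

/-- Prékopa–Leindler on `ℝ`, bounded case. -/
theorem pl_one_bdd (f g h : ℝ → ℝ≥0∞) (hf : Measurable f) (hg : Measurable g) (hh : Measurable h)
    (H : ∀ x y, f x * g y ≤ h ((1/2 : ℝ) * (x + y)) ^ 2)
    (F G : ℝ≥0∞) (hF : F ≠ ∞) (hG : G ≠ ∞)
    (hf1 : ∀ x, f x ≤ F) (hg1 : ∀ x, g x ≤ G) :
    (∫⁻ x, f x) * (∫⁻ x, g x) ≤ (∫⁻ x, h x) ^ 2 := by
  set F' := ⨆ x, f x
  set G' := ⨆ x, g x
  have hF' : F' ≠ ∞ := ((iSup_le hf1).trans_lt hF.lt_top).ne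
  have hG' : G' ≠ ∞ := ((iSup_le hg1).trans_lt hG.lt_top).ne
  rcases eq_or_ne F' 0 with h0 | h0
  · have : ∀ x, f x = 0 := fun x => le_antisymm (h0 ▸ le_iSup f x) zero_le
    simp [this]
  rcases eq_or_ne G' 0 with h0' | h0'
  · have : ∀ x, g x = 0 := fun x => le_antisymm (h0' ▸ le_iSup g x) zero_le
    simp [this]
  -- normalise
  obtain ⟨r, hr⟩ : ∃ r : ℝ≥0∞, r ^ 2 = F'⁻¹ * G'⁻¹ := by
    refine ⟨(F'⁻¹ * G'⁻¹) ^ (1/2 : ℝ), ?_⟩
    rw [← ENNReal.rpow_two, ← ENNReal.rpow_mul]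
    norm_num
  have hFi : F'⁻¹ ≠ ∞ := ENNReal.inv_ne_top.2 h0
  have hGi : G'⁻¹ ≠ ∞ := ENNReal.inv_ne_top.2 h0'
  have key := pl_one_norm (fun x => F'⁻¹ * f x) (fun x => G'⁻¹ * g x)
    (fun x => r * h x) (hf.const_mul _) (hg.const_mul _) (hh.const_mul _)
    ?_ ?_ ?_ ?_ ?_
  · rw [lintegral_const_mul _ hf, lintegral_const_mul _ hg, lintegral_const_mul _ hh] at key
    have h4 := four_mul_le_sq (F'⁻¹ * ∫⁻ x, f x) (G'⁻¹ * ∫⁻ x, g x)
    have h5 : 4 * (F'⁻¹ * (∫⁻ x, f x) * (G'⁻¹ * ∫⁻ x, g x))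
        ≤ (2 * (r * ∫⁻ x, h x)) ^ 2 := by
      refine h4.trans ?_
      gcongr
    have h6 : (2 * (r * ∫⁻ x, h x)) ^ 2
        = 4 * ((F'⁻¹ * G'⁻¹) * (∫⁻ x, h x) ^ 2) := by
      rw [mul_pow, mul_pow, hr]
      norm_num
    have h7 : (∫⁻ x, f x) * (∫⁻ x, g x) =
        (F' * G' / 4) * (4 * (F'⁻¹ * (∫⁻ x, f x) * (G'⁻¹ * ∫⁻ x, g x))) := by
      have e1 : F' * F'⁻¹ = 1 := ENNReal.mul_inv_cancel h0 hF'
      have e2 : G' * G'⁻¹ = 1 := ENNReal.mul_inv_cancel h0' hG'
      have e3 : (4:ℝ≥0∞)⁻¹ * 4 = 1 := ENNReal.inv_mul_cancel (by norm_num) (by norm_num)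
      calc (∫⁻ x, f x) * (∫⁻ x, g x)
          = (F' * F'⁻¹) * (G' * G'⁻¹) * ((4:ℝ≥0∞)⁻¹ * 4) * ((∫⁻ x, f x) * (∫⁻ x, g x)) := by
            rw [e1, e2, e3]; ring
        _ = _ := by rw [div_eq_mul_inv]; ring
    have h8 : (∫⁻ x, h x) ^ 2 = (F' * G' / 4) * (4 * ((F'⁻¹ * G'⁻¹) * (∫⁻ x, h x) ^ 2)) := by
      have e1 : F' * F'⁻¹ = 1 := ENNReal.mul_inv_cancel h0 hF'
      have e2 : G' * G'⁻¹ = 1 := ENNReal.mul_inv_cancel h0' hG'
      have e3 : (4:ℝ≥0∞)⁻¹ * 4 = 1 := ENNReal.inv_mul_cancel (by norm_num) (by norm_num)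
      calc (∫⁻ x, h x) ^ 2
          = (F' * F'⁻¹) * (G' * G'⁻¹) * ((4:ℝ≥0∞)⁻¹ * 4) * (∫⁻ x, h x) ^ 2 := by
            rw [e1, e2, e3]; ring
        _ = _ := by rw [div_eq_mul_inv]; ring
    rw [h7, h8, ← h6]
    gcongr
  · intro x y
    calc F'⁻¹ * f x * (G'⁻¹ * g y) = (F'⁻¹ * G'⁻¹) * (f x * g y) := by ring
      _ ≤ (F'⁻¹ * G'⁻¹) * h ((1/2 : ℝ) * (x + y)) ^ 2 := by gcongr; exact H x y
      _ = (r * h ((1/2 : ℝ) * (x + y))) ^ 2 := by rw [mul_pow, hr]
  · intro x
    calc F'⁻¹ * f x ≤ F'⁻¹ * F' := by gcongr; exact le_iSup f x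
      _ = 1 := ENNReal.inv_mul_cancel h0 hF'
  · intro x
    calc G'⁻¹ * g x ≤ G'⁻¹ * G' := by gcongr; exact le_iSup g x
      _ = 1 := ENNReal.inv_mul_cancel h0' hG'
  · intro c hc
    have : F' * c < F' := by
      calc F' * c < F' * 1 := ENNReal.mul_lt_mul_right h0 hF' hc
        _ = F' := mul_one _
    obtain ⟨x, hx⟩ := lt_iSup_iff.1 this
    refine ⟨x, ?_⟩
    calc c = F'⁻¹ * (F' * c) := by rw [← mul_assoc, ENNReal.inv_mul_cancel h0 hF', one_mul]
      _ < F'⁻¹ * f x := ENNReal.mul_lt_mul_right (ENNReal.inv_ne_zero.2 hF') hFi hx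
  · intro c hc
    have : G' * c < G' := by
      calc G' * c < G' * 1 := ENNReal.mul_lt_mul_right h0' hG' hc
        _ = G' := mul_one _
    obtain ⟨x, hx⟩ := lt_iSup_iff.1 this
    refine ⟨x, ?_⟩
    calc c = G'⁻¹ * (G' * c) := by rw [← mul_assoc, ENNReal.inv_mul_cancel h0' hG', one_mul]
      _ < G'⁻¹ * g x := ENNReal.mul_lt_mul_right (ENNReal.inv_ne_zero.2 hG') hGi hx

/-- Prékopa–Leindler on `ℝ`. -/
theorem pl_one (f g h : ℝ → ℝ≥0∞) (hf : Measurable f) (hg : Measurable g) (hh : Measurable h)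
    (H : ∀ x y, f x * g y ≤ h ((1/2 : ℝ) * (x + y)) ^ 2) :
    (∫⁻ x, f x) * (∫⁻ x, g x) ≤ (∫⁻ x, h x) ^ 2 := by
  have hsup : ∀ u : ℝ → ℝ≥0∞, Measurable u →
      ∫⁻ x, u x = ⨆ n : ℕ, ∫⁻ x, min (u x) n := by
    intro u hu
    rw [← lintegral_iSup (fun n => hu.min measurable_const)]
    · refine lintegral_congr fun x => ?_
      refine le_antisymm ?_ (iSup_le fun n => min_le_left _ _)
      rcases eq_or_ne (u x) ∞ with hx | hx
      · rw [hx]
        simp only [min_eq_right le_top]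
        rw [ENNReal.iSup_natCast]
      · obtain ⟨n, hn⟩ := ENNReal.exists_nat_gt hx
        refine le_iSup_of_le n ?_
        rw [min_eq_left hn.le]
    · intro m n hmn x
      simp only
      gcongr
  have hn : ∀ m n : ℕ, (∫⁻ x, min (f x) m) * (∫⁻ x, min (g x) n) ≤ (∫⁻ x, h x) ^ 2 := by
    intro m n
    refine pl_one_bdd _ _ h (hf.min measurable_const) (hg.min measurable_const) hh ?_ m n (by simp)
      (by simp) (fun x => min_le_right _ _) (fun x => min_le_right _ _)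
    intro x y
    exact (mul_le_mul' (min_le_left _ _) (min_le_left _ _)).trans (H x y)
  rw [hsup f hf, hsup g hg, ENNReal.iSup_mul]
  refine iSup_le fun m => ?_
  rw [ENNReal.mul_iSup]
  exact iSup_le fun n => hn m n

/-- Prékopa–Leindler on `Fin n → ℝ`. -/
theorem pl_pi : ∀ (n : ℕ) (f g h : (Fin n → ℝ) → ℝ≥0∞) (_ : Measurable f) (_ : Measurable g)
    (_ : Measurable h) (_ : ∀ x y, f x * g y ≤ h ((1/2 : ℝ) • (x + y)) ^ 2),
    (∫⁻ x, f x) * (∫⁻ x, g x) ≤ (∫⁻ x, h x) ^ 2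
  | 0, f, g, h, hf, hg, hh, H => by
    have hv : (volume : Measure (Fin 0 → ℝ)) = Measure.dirac 0 := Measure.volume_pi_eq_dirac 0
    rw [hv, lintegral_dirac, lintegral_dirac, lintegral_dirac]
    have := H 0 0
    simpa using this
  | n + 1, f, g, h, hf, hg, hh, H => by
    have mp := volume_preserving_piFinSuccAbove (fun _ : Fin (n + 1) => ℝ) 0
    set e := MeasurableEquiv.piFinSuccAbove (fun _ : Fin (n + 1) => ℝ) 0
    have conv : ∀ u : (Fin (n + 1) → ℝ) → ℝ≥0∞, Measurable u →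
        ∫⁻ x, u x = ∫⁻ s : ℝ, ∫⁻ y : Fin n → ℝ, u (e.symm (s, y)) := by
      intro u hu
      rw [← mp.symm.lintegral_comp hu]
      rw [Measure.volume_eq_prod]
      exact lintegral_prod (fun z => u (e.symm z)) (hu.comp e.symm.measurable).aemeasurable
    have hmeas : ∀ u : (Fin (n + 1) → ℝ) → ℝ≥0∞, Measurable u →
        Measurable fun s : ℝ => ∫⁻ y : Fin n → ℝ, u (e.symm (s, y)) := by
      intro u hu
      exact (hu.comp e.symm.measurable).lintegral_prod_right'
    rw [conv f hf, conv g hg, conv h hh]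
    refine pl_one _ _ _ (hmeas f hf) (hmeas g hg) (hmeas h hh) ?_
    intro s t
    have hlin : ∀ (x y : Fin n → ℝ), (1/2 : ℝ) • (e.symm (s, x) + e.symm (t, y))
        = e.symm ((1/2 : ℝ) * (s + t), (1/2 : ℝ) • (x + y)) := by
      intro x y
      ext i
      refine Fin.cases ?_ (fun j => ?_) i
      · simp [e, MeasurableEquiv.piFinSuccAbove]
      · simp [e, MeasurableEquiv.piFinSuccAbove]
        ring
    refine pl_pi n (fun y => f (e.symm (s, y))) (fun y => g (e.symm (t, y)))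
      (fun y => h (e.symm ((1/2 : ℝ) * (s + t), y))) ?_ ?_ ?_ ?_
    · exact (hf.comp e.symm.measurable).comp measurable_prodMk_left
    · exact (hg.comp e.symm.measurable).comp measurable_prodMk_left
    · exact (hh.comp e.symm.measurable).comp measurable_prodMk_left
    · intro x y
      have := H (e.symm (s, x)) (e.symm (t, y))
      rw [hlin] at this
      exact this

/-- Prékopa–Leindler inequality with parameter `1/2` in Euclidean space. -/
theorem prekopa_leindler_half {d : ℕ} (f g h : EuclideanSpace ℝ (Fin d) → ℝ≥0∞)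
    (hf : Measurable f) (hg : Measurable g) (hh : Measurable h)
    (H : ∀ x y, f x * g y ≤ h ((1/2 : ℝ) • (x + y)) ^ 2) :
    (∫⁻ x, f x) * (∫⁻ x, g x) ≤ (∫⁻ x, h x) ^ 2 := by
  have mp := PiLp.volume_preserving_toLp (Fin d)
  have conv : ∀ u : EuclideanSpace ℝ (Fin d) → ℝ≥0∞, Measurable u →
      ∫⁻ x, u x = ∫⁻ x : Fin d → ℝ, u (WithLp.toLp 2 x) := fun u hu =>
    (mp.lintegral_comp hu).symm
  rw [conv f hf, conv g hg, conv h hh]
  refine pl_pi d _ _ _ (hf.comp mp.measurable) (hg.comp mp.measurable) (hh.comp mp.measurable) ?_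
  intro x y
  have := H (WithLp.toLp 2 x) (WithLp.toLp 2 y)
  simpa using this

end Crest.Agent.LibPL
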