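import Mathlib
import Crest.Agent.CVA_Defs
import Crest.Agent.LibPL

/-! S0347 part [A]: the section function (CVA-13). -/

set_option autoImplicit false
open MeasureTheory

namespace Crest.Agent.CVA

theorem secSet_compact {N m : ℕ} {K : Set ((Fin N → ℝ) × (Fin m → ℝ))} (hK : IsCompact K)
    (v : Fin m → ℝ) : IsCompact {y : Fin N → ℝ | (y, v) ∈ K} := by
  have h3 : {y : Fin N → ℝ | (y, v) ∈ K} ⊆ Prod.fst '' K := fun y hy => ⟨_, hy, rfl⟩
  have h4 : IsClosed {y : Fin N → ℝ | (y, v) ∈ K} :=
    hK.isClosed.preimage (continuous_id.prodMk continuous_const)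
  exact (hK.image continuous_fst).of_isClosed_subset h4 h3

theorem secSet_lt_top {N m : ℕ} {K : Set ((Fin N → ℝ) × (Fin m → ℝ))} (hK : IsCompact K)
    (v : Fin m → ℝ) : volume {y : Fin N → ℝ | (y, v) ∈ K} < ⊤ :=
  (secSet_compact hK v).measure_lt_top

theorem sec_usc {N m : ℕ} {K : Set ((Fin N → ℝ) × (Fin m → ℝ))} (hK : IsCompact K) :
    UpperSemicontinuous (sec K) := by
  rcases (ENNReal.toReal_nonneg (a := volume K)).eq_or_lt with ha | ha
  · have : sec K = fun _ => 0 := by
      funext v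
      unfold sec
      rw [← ha, div_zero]
    rw [this]
    exact upperSemicontinuous_const
  · intro v y hy
    have hy' : (volume {y : Fin N → ℝ | (y, v) ∈ K}).toReal < y * (volume K).toReal := by
      unfold sec at hy
      rwa [div_lt_iff₀ ha] at hy
    have hlt : volume {y : Fin N → ℝ | (y, v) ∈ K} < ENNReal.ofReal (y * (volume K).toReal) := by
      rw [← ENNReal.ofReal_toReal (secSet_lt_top hK v).ne]
      exact (ENNReal.ofReal_lt_ofReal_iff (lt_of_le_of_lt ENNReal.toReal_nonneg hy')).2 hy'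
    obtain ⟨U, hU, hUo, hUlt⟩ := Set.exists_isOpen_lt_of_lt _ _ hlt
    have hC : IsCompact (K \ (U ×ˢ Set.univ)) := hK.diff (hUo.prod isOpen_univ)
    have hcl : IsClosed (Prod.snd '' (K \ (U ×ˢ Set.univ))) :=
      (hC.image continuous_snd).isClosed
    have hv : v ∉ Prod.snd '' (K \ (U ×ˢ Set.univ)) := by
      rintro ⟨⟨z, w⟩, ⟨hz, hz'⟩, rfl⟩
      exact hz' ⟨hU hz, trivial⟩
    filter_upwards [hcl.isOpen_compl.mem_nhds hv] with w hw
    have hsub : {y : Fin N → ℝ | (y, w) ∈ K} ⊆ U := by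
      intro z hz
      by_contra hzU
      exact hw ⟨(z, w), ⟨hz, fun h => hzU h.1⟩, rfl⟩
    have h1 : volume {y : Fin N → ℝ | (y, w) ∈ K} < ENNReal.ofReal (y * (volume K).toReal) :=
      (measure_mono hsub).trans_lt hUlt
    have hpos : 0 < y * (volume K).toReal := lt_of_le_of_lt ENNReal.toReal_nonneg hy'
    have h2 : (volume {y : Fin N → ℝ | (y, w) ∈ K}).toReal < y * (volume K).toReal := by
      have := (ENNReal.toReal_lt_toReal (secSet_lt_top hK w).ne ENNReal.ofReal_ne_top).2 h1
      rwa [ENNReal.toReal_ofReal hpos.le] at this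
    unfold sec
    rwa [div_lt_iff₀ ha]

theorem sec_mid {N m : ℕ} {K : Set ((Fin N → ℝ) × (Fin m → ℝ))} (hK : IsCompact K)
    (hc : Convex ℝ K) (v w : Fin m → ℝ) :
    sec K v * sec K w ≤ sec K ((1 / 2 : ℝ) • (v + w)) ^ 2 := by
  have hmv := (secSet_compact hK v).measurableSet
  have hmw := (secSet_compact hK w).measurableSet
  have hmm := (secSet_compact hK ((1 / 2 : ℝ) • (v + w))).measurableSet
  have key := Crest.Agent.LibPL.pl_pi N
    ({y : Fin N → ℝ | (y, v) ∈ K}.indicator 1) ({y : Fin N → ℝ | (y, w) ∈ K}.indicator 1)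
    ({y : Fin N → ℝ | (y, (1 / 2 : ℝ) • (v + w)) ∈ K}.indicator 1)
    (measurable_one.indicator hmv) (measurable_one.indicator hmw)
    (measurable_one.indicator hmm) (by
      intro x y
      by_cases hx : x ∈ {y : Fin N → ℝ | (y, v) ∈ K}
      · by_cases hy : y ∈ {y : Fin N → ℝ | (y, w) ∈ K}
        · have hxy : (1 / 2 : ℝ) • (x + y) ∈
              {y : Fin N → ℝ | (y, (1 / 2 : ℝ) • (v + w)) ∈ K} := by
            have h1 := hc hx hy (show (0 : ℝ) ≤ 1 / 2 by norm_num)
              (show (0 : ℝ) ≤ 1 / 2 by norm_num) (by norm_num)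
            change ((1 / 2 : ℝ) • (x + y), (1 / 2 : ℝ) • (v + w)) ∈ K
            rw [smul_add, smul_add]
            exact h1
          rw [Set.indicator_of_mem hx, Set.indicator_of_mem hy, Set.indicator_of_mem hxy]
          simp
        · rw [Set.indicator_of_notMem hy, mul_zero]
          exact zero_le
      · rw [Set.indicator_of_notMem hx, zero_mul]
        exact zero_le)
  rw [lintegral_indicator_one hmv, lintegral_indicator_one hmw, lintegral_indicator_one hmm] at key
  have h2 := ENNReal.toReal_mono (ENNReal.pow_ne_top (secSet_lt_top hK _).ne) key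
  rw [ENNReal.toReal_mul, ENNReal.toReal_pow] at h2
  unfold sec
  rw [div_mul_div_comm, div_pow, ← pow_two]
  exact div_le_div_of_nonneg_right h2 (by positivity)

theorem sec_lint {N m : ℕ} {K : Set ((Fin N → ℝ) × (Fin m → ℝ))} (hK : IsCompact K) :
    ∫⁻ v : Fin m → ℝ, volume {y : Fin N → ℝ | (y, v) ∈ K} = volume K := by
  have h := Measure.prod_apply_symm (μ := (volume : Measure (Fin N → ℝ)))
    (ν := (volume : Measure (Fin m → ℝ))) hK.measurableSet
  exact h.symm

theorem sec_meas {N m : ℕ} {K : Set ((Fin N → ℝ) × (Fin m → ℝ))} (hK : IsCompact K) :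
    Measurable (fun v : Fin m → ℝ => volume {y : Fin N → ℝ | (y, v) ∈ K}) :=
  measurable_measure_prodMk_right (μ := (volume : Measure (Fin N → ℝ))) hK.measurableSet

theorem sec_integrable {N m : ℕ} {K : Set ((Fin N → ℝ) × (Fin m → ℝ))} (hK : IsCompact K) :
    Integrable (sec K) := by
  have h1 : Integrable (fun v : Fin m → ℝ => (volume {y : Fin N → ℝ | (y, v) ∈ K}).toReal) :=
    integrable_toReal_of_lintegral_ne_top (sec_meas hK).aemeasurable
      (by rw [sec_lint hK]; exact hK.measure_lt_top.ne)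
  exact h1.div_const _

theorem sec_integral {N m : ℕ} {K : Set ((Fin N → ℝ) × (Fin m → ℝ))} (hK : IsCompact K)
    (hp : volume K ≠ 0) : ∫ v, sec K v = 1 := by
  unfold sec
  rw [integral_div, integral_toReal (sec_meas hK).aemeasurable
    (Filter.Eventually.of_forall fun v => secSet_lt_top hK v), sec_lint hK]
  exact div_self (ENNReal.toReal_ne_zero.2 ⟨hp, hK.measure_lt_top.ne⟩)

end Crest.Agent.CVA
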