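import Mathlib
import Crest.Agent.CVA_Defs

set_option autoImplicit false
open MeasureTheory

namespace Crest.Agent.CVA

/-! PROOF HINTS
Let c = the Haar factor of L: Measure.map L volume = c • volume on (Fin N -> R) x (Fin m -> R), 0 < c < oo (L is a continuous linear equiv: LinearEquiv.toContinuousLinearEquiv;
map of an additive Haar measure is additive Haar: ContinuousLinearEquiv.isAddHaarMeasure_map, and Measure.isAddHaarMeasure_eq_smul / addHaarMeasure uniqueness).
Then volume.restrict K mapped by L is c • volume.restrict (L '' K), volume K = c * volume (L '' K), so (uK K).map L = (volume (L''K))^-1 • volume.restrict (L '' K), and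
hG (uK K) s G v = int gd m s (v - (L x).2) d(uK K) = (1/vol(L''K)) int_{(y,w) in L''K} gd m s (v - w) = (1/vol) int_w gd m s (v-w) * vol{y | (y,w) in L''K} (Fubini, integral_prod_symm on the indicator;
the function is bounded and L''K compact). = int sec (L''K) w * gd m s (v-w).
-/

theorem sec_smooth {N m : ℕ} {K : Set (Fin (N + m) → ℝ)} (hK : Body K)
    (L : (Fin (N + m) → ℝ) ≃ₗ[ℝ] ((Fin N → ℝ) × (Fin m → ℝ))) (G : Matrix (Fin m) (Fin (N + m)) ℝ)
    (hL : ∀ x, (L x).2 = G.mulVec x) {s : ℝ} (hs : 0 < s) (v : Fin m → ℝ) :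
    hG (uK K) s G v = ∫ w, sec (L '' K) w * gd m s (v - w) := by
  let Lc : (Fin (N + m) → ℝ) ≃L[ℝ] ((Fin N → ℝ) × (Fin m → ℝ)) := L.toContinuousLinearEquiv
  have hLc : ∀ x, Lc x = L x := fun _ => rfl
  have hcont : Continuous L := Lc.continuous
  have hemb : MeasurableEmbedding L := Lc.toHomeomorph.measurableEmbedding
  have hcpt : IsCompact (L '' K) := hK.cpt.image hcont
  have hmeas : MeasurableSet (L '' K) := hcpt.measurableSet
  have hpre : L ⁻¹' (L '' K) = K := Set.preimage_image_eq K L.injective
  have hhaar : (Measure.map Lc (volume : Measure (Fin (N + m) → ℝ))).IsAddHaarMeasure :=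
    Lc.isAddHaarMeasure_map volume
  have hvolh : (volume : Measure ((Fin N → ℝ) × (Fin m → ℝ))).IsAddHaarMeasure := by
    rw [Measure.volume_eq_prod]
    exact @Measure.prod.instIsAddHaarMeasure (Fin N → ℝ) _ _ _ (Fin m → ℝ) _ _ _ volume volume
      _ _ _ _ _ _
  obtain ⟨c, hc0, hct, hc⟩ : ∃ c : ENNReal, c ≠ 0 ∧ c ≠ ⊤ ∧
      Measure.map Lc (volume : Measure (Fin (N + m) → ℝ)) = c • volume := by
    refine ⟨((Measure.addHaarScalarFactor (Measure.map Lc volume) volume : NNReal) : ENNReal),
      ?_, ENNReal.coe_ne_top, ?_⟩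
    · exact ENNReal.coe_ne_zero.2 (Measure.addHaarScalarFactor_pos_of_isAddHaarMeasure _ _).ne'
    · exact Measure.isAddLeftInvariant_eq_smul (Measure.map Lc volume) volume
  have hc' : Measure.map L (volume : Measure (Fin (N + m) → ℝ)) = c • volume := hc
  have hvol : volume K = c * volume (L '' K) := by
    have h1 : Measure.map L (volume : Measure (Fin (N + m) → ℝ)) (L '' K) = volume K := by
      rw [hemb.map_apply, hpre]
    rw [← h1, hc']
    rfl
  set g : (Fin m → ℝ) → ℝ := fun w => gd m s (v - w) with hg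
  have hgc : Continuous g := (continuous_gd m s).comp (continuous_const.sub continuous_id)
  have h2 : ∫ x in K, g (L x).2 = c.toReal * ∫ z in L '' K, g z.2 := by
    have h3 := hemb.setIntegral_map (μ := volume) (fun z : (Fin N → ℝ) × (Fin m → ℝ) => g z.2)
      (L '' K)
    rw [hpre] at h3
    rw [← h3, hc', Measure.restrict_smul, integral_smul_measure, smul_eq_mul]
  have hV0 : volume (L '' K) ≠ 0 := by
    intro h
    exact hK.vol_ne_zero (by rw [hvol, h, mul_zero])
  have hVt : volume (L '' K) ≠ ⊤ := hcpt.measure_lt_top.ne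
  have hVr : (volume (L '' K)).toReal ≠ 0 := (ENNReal.toReal_pos hV0 hVt).ne'
  have hcr : c.toReal ≠ 0 := (ENNReal.toReal_pos hc0 hct).ne'
  have h4 : hG (uK K) s G v = (∫ z in L '' K, g z.2) / (volume (L '' K)).toReal := by
    unfold hG
    rw [hK.integral_uK]
    have h5 : (∫ x in K, gd m s (v - G.mulVec x)) = ∫ x in K, g (L x).2 := by
      refine integral_congr_ae (Filter.Eventually.of_forall fun x => ?_)
      simp only [hg, hL]
    rw [h5, h2, hvol, ENNReal.toReal_mul]
    field_simp
  rw [h4]
  have hint : Integrable ((L '' K).indicator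
      (fun z : (Fin N → ℝ) × (Fin m → ℝ) => g z.2)) (volume.prod volume) := by
    rw [integrable_indicator_iff hmeas]
    exact (hgc.comp continuous_snd).continuousOn.integrableOn_compact hcpt
  have h6 : ∫ z in L '' K, g z.2 =
      ∫ w : Fin m → ℝ, (volume {y : Fin N → ℝ | (y, w) ∈ L '' K}).toReal * g w := by
    rw [← integral_indicator hmeas, Measure.volume_eq_prod, integral_prod_symm _ hint]
    refine integral_congr_ae (Filter.Eventually.of_forall fun w => ?_)
    show ∫ y : Fin N → ℝ, (L '' K).indicator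
      (fun z : (Fin N → ℝ) × (Fin m → ℝ) => g z.2) (y, w) = _
    have h7 : (fun y : Fin N → ℝ => (L '' K).indicator
        (fun z : (Fin N → ℝ) × (Fin m → ℝ) => g z.2) (y, w)) =
        ({y : Fin N → ℝ | (y, w) ∈ L '' K}).indicator (fun _ => g w) := by
      funext y
      by_cases h : (y, w) ∈ L '' K
      · rw [Set.indicator_of_mem h, Set.indicator_of_mem (show y ∈ {y | (y, w) ∈ L '' K} from h)]
      · rw [Set.indicator_of_notMem h,
          Set.indicator_of_notMem (show y ∉ {y | (y, w) ∈ L '' K} from h)]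
    have h8 : MeasurableSet {y : Fin N → ℝ | (y, w) ∈ L '' K} :=
      hmeas.preimage (measurable_id.prodMk measurable_const)
    rw [h7, integral_indicator_const _ h8, smul_eq_mul, measureReal_def]
  rw [h6]
  unfold sec
  rw [← integral_div]
  refine integral_congr_ae (Filter.Eventually.of_forall fun w => ?_)
  simp only [hg]
  ring

end Crest.Agent.CVA
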