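import Mathlib
import Crest.Agent.CVA_Defs

set_option autoImplicit false
open MeasureTheory

namespace Crest.Agent.CVA

/-! PROOF HINTS
sigma_min: |e_i| <= 1 <= 2m so c gd m 1 e <= hG e = int gd m s (e - G x) d(uK K). Let t(x) = <e, G x> = <G^T e, x>. nsq(e - G x) >= <e, e - Gx>^2 = (1 - t)^2 (Cauchy-Schwarz, nsq e = 1), so
gd m s (e - Gx) <= ((sqrt(2pi) s)^m)^-1 * exp(-(1-t)^2/(2s^2)) <= ((sqrt(2pi)s)^m)^-1 * (exp(-1/(8 s^2)) + 4 t^2) (if |t| <= 1/2 the first term, else 4 t^2 >= 1). Integrate: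
int t^2 d(uK K) = nsq (G^T e) (h.cov). Multiply by (sqrt(2pi) s)^m; gd m 1 e = (sqrt(2pi)^m)^-1 exp(-1/2). nsq_mulVec: Cauchy-Schwarz per row.
-/

private theorem sig_sq {n : ℕ} {K : Set (Fin n → ℝ)} (h : Iso K) (g : Fin n → ℝ) :
    ∫ x, (∑ j, g j * x j) ^ 2 ∂(uK K) = nsq g := by
  have e1 : ∀ x : Fin n → ℝ, (∑ j, g j * x j) ^ 2 = ∑ j, ∑ k, (g j * g k) * (x j * x k) := by
    intro x
    rw [sq, Finset.sum_mul_sum]
    refine Finset.sum_congr rfl fun j _ => Finset.sum_congr rfl fun k _ => ?_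
    ring
  have e2 : ∫ x, (∑ j, g j * x j) ^ 2 ∂(uK K) =
      ∫ x, ∑ j, ∑ k, (g j * g k) * (x j * x k) ∂(uK K) :=
    integral_congr_ae (Filter.Eventually.of_forall fun x => e1 x)
  have hint : ∀ j k : Fin n, Integrable (fun x : Fin n → ℝ => (g j * g k) * (x j * x k)) (uK K) :=
    fun j k => h.body.integrable_of_continuous (by fun_prop)
  rw [e2, integral_finsetSum _ fun j _ => integrable_finsetSum _ fun k _ => hint j k]
  unfold nsq
  refine Finset.sum_congr rfl fun j _ => ?_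
  rw [integral_finsetSum _ fun k _ => hint j k]
  have e3 : ∀ k, ∫ x, (g j * g k) * (x j * x k) ∂(uK K) = if j = k then g j * g k else 0 := by
    intro k
    rw [integral_const_mul, h.cov j k]
    split_ifs <;> simp
  rw [Finset.sum_congr rfl fun k _ => e3 k]
  simp [sq]

theorem sigma_min {n m : ℕ} (hm : 1 ≤ m) {K : Set (Fin n → ℝ)} (h : Iso K) {s c : ℝ} (hs : 0 < s)
    (hc : 0 < c) (G : Matrix (Fin m) (Fin n) ℝ)
    (hh : ∀ v : Fin m → ℝ, (∀ i, |v i| ≤ 2 * m) → c * gd m 1 v ≤ hG (uK K) s G v)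
    (e : Fin m → ℝ) (he : nsq e = 1) :
    c * s ^ m * Real.exp (-(1 / 2)) ≤
      Real.exp (-1 / (8 * s ^ 2)) + 4 * nsq (G.transpose.mulVec e) := by
  have := h.body.isProb
  have hm' : (1 : ℝ) ≤ m := by exact_mod_cast hm
  have hei : ∀ i, |e i| ≤ 2 * m := by
    intro i
    have h1 : |e i| ≤ 1 := abs_le_of_nsq zero_le_one (by rw [he]; norm_num) i
    linarith
  have h1 := hh e hei
  set a : ℝ := Real.sqrt (2 * Real.pi) with ha
  have ha0 : 0 < a := Real.sqrt_pos.2 (by positivity)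
  set g : Fin n → ℝ := G.transpose.mulVec e with hg
  set E : ℝ := Real.exp (-1 / (8 * s ^ 2)) with hE
  have ht : ∀ x : Fin n → ℝ, ∑ i, e i * G.mulVec x i = ∑ j, g j * x j := by
    intro x
    have := Matrix.dotProduct_mulVec e G x
    rw [← Matrix.mulVec_transpose] at this
    exact this
  have hpt : ∀ x : Fin n → ℝ, gd m s (e - G.mulVec x) ≤
      ((a * s) ^ m)⁻¹ * (E + 4 * (∑ j, g j * x j) ^ 2) := by
    intro x
    set t : ℝ := ∑ j, g j * x j with htdef
    have hcs : (1 - t) ^ 2 ≤ nsq (e - G.mulVec x) := by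
      have h2 := Finset.sum_mul_sq_le_sq_mul_sq Finset.univ e (fun i => (e - G.mulVec x) i)
      have h3 : ∑ i, e i * (e - G.mulVec x) i = 1 - t := by
        rw [htdef, ← ht x, ← he]
        unfold nsq
        rw [← Finset.sum_sub_distrib]
        refine Finset.sum_congr rfl fun i _ => ?_
        rw [Pi.sub_apply]
        ring
      rw [h3] at h2
      have h4 : ∑ i, e i ^ 2 = 1 := he
      rw [h4, one_mul] at h2
      exact h2
    unfold gd
    refine mul_le_mul_of_nonneg_left ?_ (by positivity)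
    have hs2 : 0 < 2 * s ^ 2 := by positivity
    rcases le_or_gt |t| (1 / 2) with hlt | hlt
    · have h5 : (1 : ℝ) / 4 ≤ (1 - t) ^ 2 := by
        have := (abs_le.1 hlt).2
        nlinarith
      have h6 : Real.exp (-(nsq (e - G.mulVec x)) / (2 * s ^ 2)) ≤ E := by
        rw [hE]
        apply Real.exp_le_exp.2
        rw [div_le_div_iff₀ hs2 (by positivity)]
        nlinarith
      have h7 : 0 ≤ 4 * t ^ 2 := by positivity
      linarith
    · have h5 : (1 : ℝ) ≤ 4 * t ^ 2 := by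
        have h8 : (1 / 2 : ℝ) ^ 2 < |t| ^ 2 := pow_lt_pow_left₀ hlt (by norm_num) (by norm_num)
        rw [sq_abs] at h8
        linarith
      have h6 : Real.exp (-(nsq (e - G.mulVec x)) / (2 * s ^ 2)) ≤ 1 := by
        rw [Real.exp_le_one_iff, neg_div, neg_nonpos]
        exact div_nonneg (nsq_nonneg _) hs2.le
      have h7 : 0 < E := Real.exp_pos _
      linarith
  have hcont1 : Continuous fun x : Fin n → ℝ => gd m s (e - G.mulVec x) := by
    refine (continuous_gd m s).comp ?_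
    refine continuous_const.sub ?_
    exact continuous_pi fun i => by
      unfold Matrix.mulVec dotProduct
      fun_prop
  have hcont2 : Continuous fun x : Fin n → ℝ => ((a * s) ^ m)⁻¹ * (E + 4 * (∑ j, g j * x j) ^ 2) := by
    fun_prop
  have hint : hG (uK K) s G e ≤ ((a * s) ^ m)⁻¹ * (E + 4 * nsq g) := by
    unfold hG
    refine (integral_mono (h.body.integrable_of_continuous hcont1)
      (h.body.integrable_of_continuous hcont2) hpt).trans (le_of_eq ?_)
    rw [integral_const_mul, integral_add (integrable_const _)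
      (h.body.integrable_of_continuous (by fun_prop)), integral_const, integral_const_mul, sig_sq h g]
    simp
  have h8 := h1.trans hint
  have h9 : gd m 1 e = (a ^ m)⁻¹ * Real.exp (-(1 / 2)) := by
    unfold gd
    rw [he, mul_one, ← ha]
    norm_num
  rw [h9, mul_pow, mul_inv] at h8
  have ham : 0 < a ^ m := pow_pos ha0 m
  have hsm : 0 < s ^ m := pow_pos hs m
  have h10 : (a ^ m * s ^ m) * (c * ((a ^ m)⁻¹ * Real.exp (-(1 / 2)))) ≤
      (a ^ m * s ^ m) * ((a ^ m)⁻¹ * (s ^ m)⁻¹ * (E + 4 * nsq g)) :=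
    mul_le_mul_of_nonneg_left h8 (by positivity)
  have e1 : (a ^ m * s ^ m) * (c * ((a ^ m)⁻¹ * Real.exp (-(1 / 2)))) =
      c * s ^ m * Real.exp (-(1 / 2)) := by
    field_simp
  have e2 : (a ^ m * s ^ m) * ((a ^ m)⁻¹ * (s ^ m)⁻¹ * (E + 4 * nsq g)) = E + 4 * nsq g := by
    field_simp
  rw [e1, e2] at h10
  exact h10

theorem nsq_mulVec {n m : ℕ} (G : Matrix (Fin m) (Fin n) ℝ) (x : Fin n → ℝ) :
    nsq (G.mulVec x) ≤ (∑ i, ∑ j, G i j ^ 2) * nsq x := by
  unfold nsq
  rw [Finset.sum_mul]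
  refine Finset.sum_le_sum fun i _ => ?_
  exact Finset.sum_mul_sq_le_sq_mul_sq Finset.univ (fun j => G i j) x

end Crest.Agent.CVA
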