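import Mathlib
import Crest.Agent.CVA_Defs
import Crest.Agent.LibPL
set_option autoImplicit false
open MeasureTheory

namespace Crest.Agent.CVA

/-! PROOF HINTS
Use Crest.Agent.LibPL.pl_pi (Crest/Agent/LibPL.lean, read its exact statement: measurable f g h : (Fin n -> R) -> ENNReal,
(forall x y, f x * g y <= h ((1/2:R)•(x+y))^2) -> (lintegral f)*(lintegral g) <= (lintegral h)^2).
(1) f x = indicator K (ofReal (gd m s (v - G x))), g x = indicator K (ofReal (gd m s (w - G x))), h x = indicator K (ofReal (gd m s ((v+w)/2 - G x))):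
gd a * gd b <= gd ((a+b)/2)^2 by nsq_mid (exponents), K convex. Convert hG (uK K) = (1/vol K) * (lintegral ..).toReal (everything bounded and nonneg,
ofReal_integral_eq_lintegral_ofReal). (2) the same with indicators of A cap K, B cap K, C cap K.
-/

private theorem pl_uK {n : ℕ} {K : Set (Fin n → ℝ)} (hK : Body K)
    (f g h : (Fin n → ℝ) → ENNReal) (hf : Measurable f) (hg : Measurable g) (hh : Measurable h)
    (H : ∀ x y, f x * g y ≤ h ((1 / 2 : ℝ) • (x + y)) ^ 2) :
    (∫⁻ x, f x ∂(uK K)) * (∫⁻ x, g x ∂(uK K)) ≤ (∫⁻ x, h x ∂(uK K)) ^ 2 := by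
  have key : ∀ u : (Fin n → ℝ) → ENNReal,
      ∫⁻ x, u x ∂(uK K) = (volume K)⁻¹ * ∫⁻ x, K.indicator u x := by
    intro u
    unfold uK
    rw [lintegral_smul_measure, lintegral_indicator hK.meas, smul_eq_mul]
  rw [key f, key g, key h]
  have h1 := LibPL.pl_pi n (K.indicator f) (K.indicator g) (K.indicator h)
    (hf.indicator hK.meas) (hg.indicator hK.meas) (hh.indicator hK.meas) (by
      intro x y
      by_cases hx : x ∈ K
      · by_cases hy : y ∈ K
        · have hxy : (1 / 2 : ℝ) • (x + y) ∈ K := by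
            rw [smul_add]
            exact hK.cvx hx hy (by norm_num) (by norm_num) (by norm_num)
          rw [Set.indicator_of_mem hx, Set.indicator_of_mem hy, Set.indicator_of_mem hxy]
          exact H x y
        · rw [Set.indicator_of_notMem hy]; simp
      · rw [Set.indicator_of_notMem hx]; simp)
  calc (volume K)⁻¹ * (∫⁻ x, K.indicator f x) * ((volume K)⁻¹ * ∫⁻ x, K.indicator g x)
      = (volume K)⁻¹ ^ 2 * ((∫⁻ x, K.indicator f x) * ∫⁻ x, K.indicator g x) := by ring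
    _ ≤ (volume K)⁻¹ ^ 2 * (∫⁻ x, K.indicator h x) ^ 2 := by gcongr
    _ = ((volume K)⁻¹ * ∫⁻ x, K.indicator h x) ^ 2 := by ring

private theorem gd_mid {m : ℕ} {s : ℝ} (hs : 0 < s) (a b : Fin m → ℝ) :
    gd m s a * gd m s b ≤ gd m s ((1 / 2 : ℝ) • (a + b)) ^ 2 := by
  unfold gd
  have h1 : ((Real.sqrt (2 * Real.pi) * s) ^ m)⁻¹ * Real.exp (-(nsq a) / (2 * s ^ 2)) *
      (((Real.sqrt (2 * Real.pi) * s) ^ m)⁻¹ * Real.exp (-(nsq b) / (2 * s ^ 2)))
      = (((Real.sqrt (2 * Real.pi) * s) ^ m)⁻¹) ^ 2 *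
        Real.exp (-(nsq a) / (2 * s ^ 2) + -(nsq b) / (2 * s ^ 2)) := by
    rw [Real.exp_add]; ring
  rw [h1, mul_pow (((Real.sqrt (2 * Real.pi) * s) ^ m)⁻¹), ← Real.exp_nat_mul]
  refine mul_le_mul_of_nonneg_left (Real.exp_le_exp.2 ?_) (by positivity)
  have h2 := nsq_mid a b
  have h3 : 0 < 2 * s ^ 2 := by positivity
  rw [← add_div, ← mul_div_assoc]
  refine div_le_div_of_nonneg_right ?_ h3.le
  push_cast
  linarith

theorem hG_mid {n m : ℕ} {K : Set (Fin n → ℝ)} (hK : Body K) {s : ℝ} (hs : 0 < s)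
    (G : Matrix (Fin m) (Fin n) ℝ) (v w : Fin m → ℝ) :
    hG (uK K) s G v * hG (uK K) s G w ≤ hG (uK K) s G ((1 / 2 : ℝ) • (v + w)) ^ 2 := by
  have hcG : Continuous fun x : Fin n → ℝ => G.mulVec x :=
    Continuous.matrix_mulVec continuous_const continuous_id
  have hc : ∀ v : Fin m → ℝ, Continuous fun x : Fin n → ℝ => gd m s (v - G.mulVec x) :=
    fun v => (continuous_gd m s).comp (continuous_const.sub hcG)
  have key : ∀ v : Fin m → ℝ,
      hG (uK K) s G v = (∫⁻ x, ENNReal.ofReal (gd m s (v - G.mulVec x)) ∂(uK K)).toReal := by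
    intro v
    unfold hG
    rw [integral_eq_lintegral_of_nonneg_ae (Filter.Eventually.of_forall fun x => gd_nonneg hs.le _)
      (hc v).aestronglyMeasurable]
  have hfin : ∀ v : Fin m → ℝ,
      (∫⁻ x, ENNReal.ofReal (gd m s (v - G.mulVec x)) ∂(uK K)) ≠ ⊤ := by
    intro v
    have := hK.isProb
    refine ne_top_of_le_ne_top (b := ENNReal.ofReal (((Real.sqrt (2 * Real.pi) * s) ^ m)⁻¹))
      ENNReal.ofReal_ne_top ?_
    calc ∫⁻ x, ENNReal.ofReal (gd m s (v - G.mulVec x)) ∂(uK K)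
        ≤ ∫⁻ _x, ENNReal.ofReal (((Real.sqrt (2 * Real.pi) * s) ^ m)⁻¹) ∂(uK K) :=
          lintegral_mono fun x => ENNReal.ofReal_le_ofReal (gd_le hs.le _)
      _ = ENNReal.ofReal (((Real.sqrt (2 * Real.pi) * s) ^ m)⁻¹) := by
          rw [lintegral_const, measure_univ, mul_one]
  rw [key v, key w, key ((1 / 2 : ℝ) • (v + w)), ← ENNReal.toReal_mul, ← ENNReal.toReal_pow]
  refine ENNReal.toReal_mono (ENNReal.pow_ne_top (hfin _)) ?_
  refine pl_uK hK _ _ _ (hc v).measurable.ennreal_ofReal (hc w).measurable.ennreal_ofReal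
    (hc _).measurable.ennreal_ofReal ?_
  intro x y
  rw [← ENNReal.ofReal_mul (gd_nonneg hs.le _), ← ENNReal.ofReal_pow (gd_nonneg hs.le _)]
  refine ENNReal.ofReal_le_ofReal ?_
  refine (gd_mid hs _ _).trans (le_of_eq ?_)
  congr 2
  rw [Matrix.mulVec_smul, Matrix.mulVec_add, ← smul_sub]
  congr 1
  abel

theorem uK_mid {n : ℕ} {K : Set (Fin n → ℝ)} (hK : Body K) {A B C : Set (Fin n → ℝ)}
    (hA : MeasurableSet A) (hB : MeasurableSet B) (hC : MeasurableSet C)
    (h : ∀ a ∈ A, ∀ b ∈ B, (1 / 2 : ℝ) • (a + b) ∈ C) :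
    (uK K).real A * (uK K).real B ≤ (uK K).real C ^ 2 := by
  have := hK.isProb
  rw [measureReal_def, measureReal_def, measureReal_def, ← ENNReal.toReal_mul,
    ← ENNReal.toReal_pow]
  refine ENNReal.toReal_mono (ENNReal.pow_ne_top (measure_ne_top _ _)) ?_
  rw [← lintegral_indicator_one hA, ← lintegral_indicator_one hB, ← lintegral_indicator_one hC]
  refine pl_uK hK _ _ _ (measurable_one.indicator hA) (measurable_one.indicator hB)
    (measurable_one.indicator hC) ?_
  intro x y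
  by_cases hx : x ∈ A
  · by_cases hy : y ∈ B
    · rw [Set.indicator_of_mem hx, Set.indicator_of_mem hy, Set.indicator_of_mem (h x hx y hy)]
      simp
    · rw [Set.indicator_of_notMem hy]; simp
  · rw [Set.indicator_of_notMem hx]; simp

end Crest.Agent.CVA
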