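import Mathlib
import Crest.Agent.CVA_Defs
import Crest.Agent.CVA_PL
set_option autoImplicit false
open MeasureTheory

namespace Crest.Agent.CVA

private theorem mid_far {n : ℕ} {a b : Fin n → ℝ} {r t : ℝ} (hr : 0 < r) (ht : 0 ≤ t)
    (ha : nsq a ≤ r ^ 2) (hb : ((2 * t + 1) * r) ^ 2 < nsq b) :
    (t * r) ^ 2 < nsq ((1 / 2 : ℝ) • (a + b)) := by
  rw [nsq_eq_norm] at ha hb ⊢
  have h1 : ‖WithLp.toLp 2 a‖ ≤ r := le_of_sq_le_sq ha hr.le
  have h2 : (2 * t + 1) * r < ‖WithLp.toLp 2 b‖ := lt_of_pow_lt_pow_left₀ 2 (norm_nonneg _) hb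
  have h3 : ‖WithLp.toLp 2 ((1 / 2 : ℝ) • (a + b))‖ = 1 / 2 * ‖WithLp.toLp 2 a + WithLp.toLp 2 b‖ := by
    rw [WithLp.toLp_smul, WithLp.toLp_add, norm_smul]
    norm_num
  have h4 : ‖WithLp.toLp 2 b‖ - ‖WithLp.toLp 2 a‖ ≤ ‖WithLp.toLp 2 a + WithLp.toLp 2 b‖ := by
    have := norm_sub_le (WithLp.toLp 2 a + WithLp.toLp 2 b) (WithLp.toLp 2 a)
    rw [add_sub_cancel_left] at this
    linarith
  rw [h3]
  exact pow_lt_pow_left₀ (by linarith) (by positivity) two_ne_zero

private noncomputable def tk (k : ℕ) : ℝ := 2 ^ (k + 1) - 1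

private theorem tk_zero : tk 0 = 1 := by unfold tk; norm_num

private theorem tk_succ (k : ℕ) : tk (k + 1) = 2 * tk k + 1 := by
  unfold tk; rw [pow_succ 2 (k + 1)]; ring

private theorem tk_nonneg (k : ℕ) : 0 ≤ tk k := by
  induction k with
  | zero => rw [tk_zero]; norm_num
  | succ k ih => rw [tk_succ]; linarith

private theorem tk_ge (k : ℕ) : (k : ℝ) + 1 ≤ tk k := by
  induction k with
  | zero => rw [tk_zero]; norm_num
  | succ k ih =>
    have := tk_nonneg k
    rw [tk_succ]; push_cast; linarith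

private theorem tk_sq_le (k : ℕ) : tk (k + 1) ^ 2 ≤ 16 * 4 ^ k := by
  have h1 : tk (k + 1) ≤ 4 * 2 ^ k := by
    unfold tk; rw [pow_succ, pow_succ]; linarith [pow_pos (show (0:ℝ) < 2 by norm_num) k]
  calc tk (k + 1) ^ 2 ≤ (4 * 2 ^ k) ^ 2 := pow_le_pow_left₀ (tk_nonneg _) h1 2
    _ = 16 * 4 ^ k := by
      rw [mul_pow, ← pow_mul, mul_comm k 2, pow_mul]
      norm_num

theorem small_ball {n : ℕ} (hn : 1 ≤ n) {K : Set (Fin n → ℝ)} (h : Iso K) :
    (uK K).real {x | nsq x ≤ n / 16} ≤ 0.85 := by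
  by_contra hcon
  push Not at hcon
  haveI := h.body.isProb
  have hn0 : (0 : ℝ) < n := by exact_mod_cast hn
  set r : ℝ := Real.sqrt (n / 16) with hr
  have hr0 : 0 < r := Real.sqrt_pos.2 (by positivity)
  have hr2 : r ^ 2 = n / 16 := Real.sq_sqrt (by positivity)
  set A : Set (Fin n → ℝ) := {x | nsq x ≤ n / 16} with hA
  have hAm : MeasurableSet A := measurableSet_le measurable_nsq measurable_const
  set C : ℕ → Set (Fin n → ℝ) := fun k => {x | (tk k * r) ^ 2 < nsq x} with hC
  have hCm : ∀ k, MeasurableSet (C k) := fun k => measurableSet_lt measurable_const measurable_nsq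
  have hstep : ∀ k, (uK K).real A * (uK K).real (C (k + 1)) ≤ (uK K).real (C k) ^ 2 := by
    intro k
    refine uK_mid h.body hAm (hCm _) (hCm _) ?_
    intro a ha b hb
    refine mid_far hr0 (tk_nonneg k) ?_ ?_
    · rw [hr2]; exact ha
    · rw [← tk_succ]; exact hb
  have hF0 : (uK K).real (C 0) ≤ 0.15 := by
    have h1 : C 0 = Aᶜ := by
      ext x
      simp only [hC, hA, tk_zero, one_mul, hr2, Set.mem_ofPred_eq, Set.mem_compl_iff, not_le]
    rw [h1, probReal_compl_eq_one_sub hAm]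
    linarith
  have hF : ∀ k, (uK K).real (C k) ≤ 0.153 * 0.18 ^ k := by
    intro k
    induction k with
    | zero => rw [pow_zero, mul_one]; linarith
    | succ k ih =>
      have h1 := hstep k
      have h2 : (0:ℝ) ≤ (uK K).real (C k) := measureReal_nonneg
      have h3 : (0:ℝ) ≤ (uK K).real (C (k + 1)) := measureReal_nonneg
      have h4 : (uK K).real (C k) ≤ 0.153 := by
        refine ih.trans ?_
        have : (0.18 : ℝ) ^ k ≤ 1 := pow_le_one₀ (by norm_num) (by norm_num)
        linarith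
      have h5 : 0.85 * (uK K).real (C (k + 1)) ≤ 0.153 * (uK K).real (C k) := by
        calc 0.85 * (uK K).real (C (k + 1)) ≤ (uK K).real A * (uK K).real (C (k + 1)) :=
              mul_le_mul_of_nonneg_right hcon.le h3
          _ ≤ (uK K).real (C k) ^ 2 := h1
          _ = (uK K).real (C k) * (uK K).real (C k) := sq _
          _ ≤ 0.153 * (uK K).real (C k) := mul_le_mul_of_nonneg_right h4 h2
      rw [pow_succ]
      linarith
  -- boundedness
  obtain ⟨M, hM⟩ : ∃ M, ∀ x ∈ K, nsq x ≤ M := by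
    obtain ⟨M, hM⟩ := h.body.cpt.bddAbove_image (f := nsq) continuous_nsq.continuousOn
    exact ⟨M, fun x hx => hM ⟨x, hx, rfl⟩⟩
  obtain ⟨k0, hk0⟩ : ∃ k0, M ≤ (tk k0 * r) ^ 2 := by
    obtain ⟨k0, hk0⟩ := exists_nat_ge (M / r ^ 2)
    refine ⟨k0, ?_⟩
    rw [div_le_iff₀ (by positivity)] at hk0
    refine hk0.trans ?_
    rw [mul_pow]
    refine mul_le_mul_of_nonneg_right ?_ (by positivity)
    have h1 := tk_ge k0
    have h2 : (0 : ℝ) ≤ k0 := Nat.cast_nonneg _
    nlinarith
  have hpt : ∀ k (x : Fin n → ℝ), nsq x ≤ (tk k * r) ^ 2 →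
      nsq x ≤ r ^ 2 + ∑ j ∈ Finset.range k, (C j).indicator (fun _ => (tk (j + 1) * r) ^ 2) x := by
    intro k
    induction k with
    | zero =>
      intro x hx
      rw [tk_zero, one_mul] at hx
      simpa using hx
    | succ k ih =>
      intro x hx
      rw [Finset.sum_range_succ]
      by_cases hxk : nsq x ≤ (tk k * r) ^ 2
      · have h1 := ih x hxk
        have h2 : 0 ≤ (C k).indicator (fun _ => (tk (k + 1) * r) ^ 2) x :=
          Set.indicator_nonneg (fun _ _ => by positivity) x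
        linarith
      · have h1 : x ∈ C k := not_le.1 hxk
        rw [Set.indicator_of_mem h1]
        have h2 : 0 ≤ ∑ j ∈ Finset.range k, (C j).indicator (fun _ => (tk (j + 1) * r) ^ 2) x :=
          Finset.sum_nonneg fun j _ => Set.indicator_nonneg (fun _ _ => by positivity) x
        have h3 : 0 ≤ r ^ 2 := by positivity
        linarith
  have hint : (n : ℝ) ≤ r ^ 2 + ∑ j ∈ Finset.range k0, (tk (j + 1) * r) ^ 2 * (uK K).real (C j) := by
    rw [← h.integral_nsq]
    have h1 : ∫ x, (r ^ 2 + ∑ j ∈ Finset.range k0,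
        (C j).indicator (fun _ => (tk (j + 1) * r) ^ 2) x) ∂(uK K) =
        r ^ 2 + ∑ j ∈ Finset.range k0, (tk (j + 1) * r) ^ 2 * (uK K).real (C j) := by
      rw [integral_add (integrable_const _) (integrable_finsetSum _ fun j _ =>
        (integrable_const _).indicator (hCm j)), integral_finsetSum _ (fun j _ =>
        (integrable_const _).indicator (hCm j))]
      congr 1
      · simp
      · refine Finset.sum_congr rfl fun j _ => ?_
        rw [integral_indicator_const _ (hCm j), smul_eq_mul, mul_comm]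
    rw [← h1]
    refine integral_mono_ae (h.body.integrable_of_continuous continuous_nsq)
      ((integrable_const _).add (integrable_finsetSum _ fun j _ =>
        (integrable_const _).indicator (hCm j))) ?_
    filter_upwards [h.body.ae_mem] with x hx
    exact hpt k0 x ((hM x hx).trans hk0)
  have hsum : ∑ j ∈ Finset.range k0, (tk (j + 1) * r) ^ 2 * (uK K).real (C j) ≤
      r ^ 2 * 8.75 := by
    have h1 : ∀ j ∈ Finset.range k0, (tk (j + 1) * r) ^ 2 * (uK K).real (C j) ≤
        r ^ 2 * (2.448 * 0.72 ^ j) := by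
      intro j _
      calc (tk (j + 1) * r) ^ 2 * (uK K).real (C j) ≤
          ((16 * 4 ^ j) * r ^ 2) * (0.153 * 0.18 ^ j) := by
            rw [mul_pow]
            exact mul_le_mul (mul_le_mul_of_nonneg_right (tk_sq_le j) (by positivity)) (hF j)
              measureReal_nonneg (by positivity)
        _ = r ^ 2 * (2.448 * 0.72 ^ j) := by
            have : (0.72 : ℝ) ^ j = 4 ^ j * 0.18 ^ j := by rw [← mul_pow]; norm_num
            rw [this]; ring
    refine (Finset.sum_le_sum h1).trans ?_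
    rw [← Finset.mul_sum, ← Finset.mul_sum]
    refine mul_le_mul_of_nonneg_left ?_ (by positivity)
    have h2 : ∑ j ∈ Finset.range k0, (0.72 : ℝ) ^ j ≤ 1 / (1 - 0.72) := by
      rw [geom_sum_eq (by norm_num)]
      have : (0 : ℝ) ≤ 0.72 ^ k0 := by positivity
      rw [div_le_iff_of_neg (by norm_num)]
      norm_num
    calc (2.448 : ℝ) * ∑ j ∈ Finset.range k0, (0.72 : ℝ) ^ j ≤ 2.448 * (1 / (1 - 0.72)) :=
          mul_le_mul_of_nonneg_left h2 (by norm_num)
      _ ≤ 8.75 := by norm_num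
  rw [hr2] at hint hsum
  linarith

theorem rad_prob {n : ℕ} (hn : 1 ≤ n) {K : Set (Fin n → ℝ)} (h : Iso K) {s : ℝ} (hs : 0 < s)
    (hs1 : s ≤ 1 / 10) :
    0.08 ≤ (uK K).real {x | rad s x ∈ Set.Icc (1 / 4 : ℝ) 4} := by
  haveI := h.body.isProb
  have hn0 : (0 : ℝ) < n := by exact_mod_cast hn
  have hEm : MeasurableSet {x : Fin n → ℝ | rad s x ∈ Set.Icc (1 / 4 : ℝ) 4} :=
    measurable_rad s measurableSet_Icc
  have h1 := small_ball hn h
  have h2 : (uK K).real {x | 15.9 * (n : ℝ) ≤ nsq x} ≤ 0.07 := by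
    have h3 := mul_meas_ge_le_integral_of_nonneg (μ := uK K) (f := nsq)
      (Filter.Eventually.of_forall fun x => nsq_nonneg x)
      (h.body.integrable_of_continuous continuous_nsq) (15.9 * (n : ℝ))
    rw [h.integral_nsq] at h3
    have h4 : 15.9 * (n : ℝ) * (uK K).real {x | 15.9 * (n : ℝ) ≤ nsq x} ≤ n := h3
    have h5 : (0:ℝ) ≤ (uK K).real {x | 15.9 * (n : ℝ) ≤ nsq x} := measureReal_nonneg
    by_contra hc
    push Not at hc
    nlinarith
  have h3 : {x : Fin n → ℝ | rad s x ∈ Set.Icc (1 / 4 : ℝ) 4}ᶜ ⊆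
      {x | nsq x ≤ n / 16} ∪ {x | 15.9 * (n : ℝ) ≤ nsq x} := by
    intro x hx
    simp only [Set.mem_compl_iff, Set.mem_ofPred_eq, Set.mem_Icc, not_and_or, not_le] at hx
    rcases hx with hx | hx
    · left
      unfold rad at hx
      rw [Real.sqrt_lt' (by norm_num)] at hx
      have h5 : nsq x / n < 1 / 16 := by nlinarith [sq_nonneg s]
      rw [div_lt_iff₀ hn0] at h5
      show nsq x ≤ n / 16
      linarith
    · right
      unfold rad at hx
      rw [Real.lt_sqrt (by norm_num)] at hx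
      have h5 : 15.9 < nsq x / n := by nlinarith
      rw [lt_div_iff₀ hn0] at h5
      exact h5.le
  have h4 : (uK K).real {x : Fin n → ℝ | rad s x ∈ Set.Icc (1 / 4 : ℝ) 4}ᶜ ≤ 0.85 + 0.07 :=
    (measureReal_mono h3).trans ((measureReal_union_le _ _).trans (add_le_add h1 h2))
  rw [probReal_compl_eq_one_sub hEm] at h4
  linarith

end Crest.Agent.CVA
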