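import Mathlib
import Crest.Agent.CVA_Defs
import Crest.Agent.CVA_Comb
import Crest.Agent.CVA_Gauss
set_option autoImplicit false
open MeasureTheory

namespace Crest.Agent.CVA

/-! # the window lemma -/

private noncomputable def Wsg (m : ℕ) (i : ℕ) : ℝ := Real.exp ((i : ℝ) / m) / 4

private theorem Wsg_pos (m i : ℕ) : 0 < Wsg m i := by
  unfold Wsg; positivity

private theorem Wsg_succ (m i : ℕ) : Wsg m i * Real.exp (1 / m) = Wsg m (i + 1) := by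
  unfold Wsg
  rw [div_mul_eq_mul_div, ← Real.exp_add]
  congr 2
  push_cast
  ring

private theorem Wsg_mono (m : ℕ) {i j : ℕ} (h : i ≤ j) : Wsg m i ≤ Wsg m j := by
  unfold Wsg
  have h1 : (i : ℝ) / m ≤ (j : ℝ) / m := by
    have : (i : ℝ) ≤ j := by exact_mod_cast h
    gcongr
  have := Real.exp_le_exp.mpr h1
  linarith

private theorem Wcosh (x y : ℝ) :
    (1 + (x - y) ^ 2 / 4) * (Real.exp x * Real.exp y) ≤ ((Real.exp x + Real.exp y) / 2) ^ 2 := by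
  have key : ∀ w : ℝ, w ^ 2 ≤ Real.sinh w ^ 2 := by
    intro w
    rcases le_total 0 w with h | h
    · exact pow_le_pow_left₀ h (Real.self_le_sinh_iff.mpr h) 2
    · have h1 := Real.self_le_sinh_iff.mpr (neg_nonneg.mpr h)
      have h2 := pow_le_pow_left₀ (neg_nonneg.mpr h) h1 2
      rw [Real.sinh_neg] at h2
      nlinarith
  have h1 := key ((x - y) / 2)
  have e1 : Real.sinh ((x - y) / 2) ^ 2 * (Real.exp x * Real.exp y) = ((Real.exp x - Real.exp y) / 2) ^ 2 := by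
    rw [Real.sinh_eq]
    have e2 : Real.exp x = Real.exp ((x - y) / 2) * Real.exp ((x + y) / 2) := by
      rw [← Real.exp_add]; congr 1; ring
    have e3 : Real.exp y = Real.exp (-((x - y) / 2)) * Real.exp ((x + y) / 2) := by
      rw [← Real.exp_add]; congr 1; ring
    have e4 : Real.exp ((x - y) / 2) * Real.exp (-((x - y) / 2)) = 1 := by
      rw [← Real.exp_add]; simp
    rw [e2, e3]
    linear_combination ((Real.exp ((x - y) / 2) - Real.exp (-((x - y) / 2))) / 2) ^ 2 *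
      Real.exp ((x + y) / 2) ^ 2 * e4
  have h2 : 0 ≤ Real.exp x * Real.exp y := by positivity
  have h3 := mul_le_mul_of_nonneg_right h1 h2
  nlinarith

private theorem Wratio {m : ℕ} (hm : 1 ≤ m) (i j : ℕ) :
    (1 + ((i : ℝ) - j) ^ 2 / 4) ^ 2 * (Wsg m i * Wsg m j) ^ (2 * m ^ 2) ≤
      (((Wsg m i + Wsg m j) / 2) ^ 2) ^ (2 * m ^ 2) := by
  have hm0 : (0 : ℝ) < m := by exact_mod_cast hm
  have h1 := Wcosh ((i : ℝ) / m) ((j : ℝ) / m)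
  have h2 : (1 + ((i : ℝ) / m - (j : ℝ) / m) ^ 2 / 4) * (Wsg m i * Wsg m j) ≤ ((Wsg m i + Wsg m j) / 2) ^ 2 := by
    unfold Wsg
    nlinarith
  have h3 : (1 + ((i : ℝ) - j) ^ 2 / 4) ≤ (1 + ((i : ℝ) / m - (j : ℝ) / m) ^ 2 / 4) ^ (m ^ 2) := by
    have h4 := one_add_mul_le_pow (R := ℝ) (a := ((i : ℝ) / m - (j : ℝ) / m) ^ 2 / 4)
      (by have := sq_nonneg ((i : ℝ) / m - (j : ℝ) / m); linarith) (m ^ 2)
    refine le_trans (le_of_eq ?_) h4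
    push_cast
    field_simp
  have h5 : (1 + ((i : ℝ) - j) ^ 2 / 4) ^ 2 ≤ (1 + ((i : ℝ) / m - (j : ℝ) / m) ^ 2 / 4) ^ (2 * m ^ 2) := by
    rw [mul_comm 2 (m ^ 2), pow_mul]
    exact pow_le_pow_left₀ (by positivity) h3 2
  have hs : 0 < Wsg m i * Wsg m j := mul_pos (Wsg_pos m i) (Wsg_pos m j)
  calc (1 + ((i : ℝ) - j) ^ 2 / 4) ^ 2 * (Wsg m i * Wsg m j) ^ (2 * m ^ 2)
      ≤ (1 + ((i : ℝ) / m - (j : ℝ) / m) ^ 2 / 4) ^ (2 * m ^ 2) * (Wsg m i * Wsg m j) ^ (2 * m ^ 2) :=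
        mul_le_mul_of_nonneg_right h5 (by positivity)
    _ = ((1 + ((i : ℝ) / m - (j : ℝ) / m) ^ 2 / 4) * (Wsg m i * Wsg m j)) ^ (2 * m ^ 2) :=
        (mul_pow _ _ _).symm
    _ ≤ _ := pow_le_pow_left₀ (by positivity) h2 _

private theorem Wint {Ω : Type*} [MeasurableSpace Ω] (P : Measure Ω) [IsProbabilityMeasure P]
    (R : Ω → ℝ) (hR : Measurable R) {s : ℝ} (hs : 0 < s) (hsR : ∀ ω, s ≤ R ω) (M : ℕ) (v : Fin M → ℝ) :
    Integrable (fun ω => gd M (R ω) v) P := by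
  refine Integrable.of_bound ((measurable_gd₂ M v).comp hR).aestronglyMeasurable
    ((Real.sqrt (2 * Real.pi) * s) ^ M)⁻¹ (Filter.Eventually.of_forall fun ω => ?_)
  have h0 : 0 < R ω := hs.trans_le (hsR ω)
  rw [Real.norm_eq_abs, abs_of_nonneg (gd_nonneg h0.le v)]
  refine (gd_le h0.le v).trans ?_
  have h1 : 0 < Real.sqrt (2 * Real.pi) := by positivity
  apply inv_anti₀ (by positivity)
  exact pow_le_pow_left₀ (by positivity) (mul_le_mul_of_nonneg_left (hsR ω) h1.le) M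

private theorem Walg {M : ℕ} {ν₁ ν₂ E c a b D δ e4 e2 : ℝ} (hE : 0 < E) (hc : 0 < c) (ha : 0 < a)
    (hb : 0 < b) (hδ : 0 ≤ δ) (hD : 0 < D)
    (h : ν₁ * (e2 * (((c * a) ^ M)⁻¹ * E)) * (ν₂ * (e2 * (((c * b) ^ M)⁻¹ * E))) ≤
      (((c * ((a + b) / 2)) ^ M)⁻¹ * E) ^ 2 + δ)
    (he : e4 * (e2 * e2) = 1) (he4 : 0 < e4)
    (hrat : D * (a * b) ^ M ≤ (((a + b) / 2) ^ 2) ^ M)
    (hW : (c ^ 2 * (a * b)) ^ M ≤ 500 ^ M * E ^ 2) : ν₁ * ν₂ ≤ e4 / D + e4 * 500 ^ M * δ := by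
  have hX : 0 < (a * b) ^ M := by positivity
  have hY : 0 < (((a + b) / 2) ^ 2) ^ M := by positivity
  have hC : 0 < (c ^ 2) ^ M := by positivity
  have e1 : ((c * a) ^ M)⁻¹ * ((c * b) ^ M)⁻¹ = ((c ^ 2) ^ M * (a * b) ^ M)⁻¹ := by
    rw [← mul_inv, ← mul_pow, ← mul_pow]
    congr 2
    ring
  have e2' : ((c * ((a + b) / 2)) ^ M)⁻¹ ^ 2 = ((c ^ 2) ^ M * (((a + b) / 2) ^ 2) ^ M)⁻¹ := by
    rw [inv_pow, ← pow_mul, mul_comm M 2, pow_mul, mul_pow, mul_pow]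
  have h1 : ν₁ * ν₂ * (e2 * e2) * (((c ^ 2) ^ M * (a * b) ^ M)⁻¹ * E ^ 2) ≤
      ((c ^ 2) ^ M * (((a + b) / 2) ^ 2) ^ M)⁻¹ * E ^ 2 + δ := by
    rw [← e1, ← e2']
    refine le_trans (le_of_eq ?_) (h.trans (le_of_eq ?_))
    · ring
    · ring
  have hK : 0 < e4 * ((c ^ 2) ^ M * (a * b) ^ M / E ^ 2) := by positivity
  have h2 := mul_le_mul_of_nonneg_left h1 hK.le
  have e3 : e4 * ((c ^ 2) ^ M * (a * b) ^ M / E ^ 2) *
      (ν₁ * ν₂ * (e2 * e2) * (((c ^ 2) ^ M * (a * b) ^ M)⁻¹ * E ^ 2)) = ν₁ * ν₂ := by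
    have : e4 * ((c ^ 2) ^ M * (a * b) ^ M / E ^ 2) *
      (ν₁ * ν₂ * (e2 * e2) * (((c ^ 2) ^ M * (a * b) ^ M)⁻¹ * E ^ 2)) =
        (e4 * (e2 * e2)) * (ν₁ * ν₂) * (((c ^ 2) ^ M * (a * b) ^ M) * ((c ^ 2) ^ M * (a * b) ^ M)⁻¹) *
          (E ^ 2 / E ^ 2) := by ring
    rw [this, he, mul_inv_cancel₀ (by positivity), div_self (by positivity)]
    ring
  have e4' : e4 * ((c ^ 2) ^ M * (a * b) ^ M / E ^ 2) *
      (((c ^ 2) ^ M * (((a + b) / 2) ^ 2) ^ M)⁻¹ * E ^ 2 + δ) =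
      e4 * ((a * b) ^ M / (((a + b) / 2) ^ 2) ^ M) + e4 * ((c ^ 2 * (a * b)) ^ M / E ^ 2) * δ := by
    rw [mul_pow (c ^ 2)]
    field_simp
  rw [e3, e4'] at h2
  refine h2.trans (add_le_add ?_ ?_)
  · rw [div_eq_mul_inv e4]
    refine mul_le_mul_of_nonneg_left ?_ he4.le
    rw [div_le_iff₀ hY, ← div_eq_inv_mul, le_div_iff₀ hD, mul_comm]
    exact hrat
  · refine mul_le_mul_of_nonneg_right (mul_le_mul_of_nonneg_left ?_ he4.le) hδ
    rw [div_le_iff₀ (by positivity)]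
    exact hW

theorem window {Ω : Type*} [MeasurableSpace Ω] (P : Measure Ω) [IsProbabilityMeasure P]
    (R : Ω → ℝ) (hR : Measurable R) {s : ℝ} (hs : 0 < s) (hsR : ∀ ω, s ≤ R ω) {m : ℕ}
    (hm : 1 ≤ m) {δ : ℝ} (hδ : 0 ≤ δ)
    (hH : ∀ v w : Fin (2 * m ^ 2) → ℝ,
      (∫ ω, gd (2 * m ^ 2) (R ω) v ∂P) * (∫ ω, gd (2 * m ^ 2) (R ω) w ∂P) ≤
        (∫ ω, gd (2 * m ^ 2) (R ω) ((1 / 2 : ℝ) • (v + w)) ∂P) ^ 2 + δ)
    (hP : 0.08 ≤ P.real {ω | R ω ∈ Set.Icc (1 / 4 : ℝ) 4})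
    (hδ2 : (3 * m : ℝ) ^ 4 * (Real.exp 4 * 500 ^ (2 * m ^ 2) * δ) ≤ 0.0016 ^ 2) :
    ∃ σ : ℝ, 1 / 4 ≤ σ ∧ σ ≤ 6 ∧
      6e-6 ≤ P.real {ω | σ ≤ R ω ∧ R ω < σ * Real.exp (1 / m)} := by
  have hm0 : (0 : ℝ) < m := by exact_mod_cast hm
  have hM1 : 1 ≤ 2 * m ^ 2 := by nlinarith [Nat.one_le_pow 2 m hm]
  have he1 : Real.exp 1 < 2.7182818286 := Real.exp_one_lt_d9
  have he1' : 2.7182818283 < Real.exp 1 := Real.exp_one_gt_d9
  have he3 : Real.exp 3 = Real.exp 1 ^ 3 := by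
    rw [← Real.exp_nat_mul]; norm_num
  -- the events
  let A : Fin (3 * m) → Set Ω := fun i => {ω | Wsg m i ≤ R ω ∧ R ω < Wsg m i * Real.exp (1 / m)}
  have hA : ∀ i, MeasurableSet (A i) := fun i =>
    (measurableSet_le measurable_const hR).inter (measurableSet_lt hR measurable_const)
  have hdis : Pairwise (Function.onFun Disjoint A) := by
    have key : ∀ i j : Fin (3 * m), i < j → Disjoint (A i) (A j) := by
      intro i j hij
      rw [Set.disjoint_left]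
      rintro ω ⟨-, h1⟩ ⟨h2, -⟩
      rw [Wsg_succ] at h1
      have h3 : Wsg m (i + 1) ≤ Wsg m j := Wsg_mono m (by exact_mod_cast hij)
      linarith
    intro i j hij
    rcases lt_or_gt_of_ne hij with h | h
    · exact key i j h
    · exact (key j i h).symm
  have hsum1 : ∑ i, P.real (A i) ≤ 1 := by
    rw [← measureReal_iUnion_fintype hdis hA]
    exact measureReal_le_one
  have hcov : {ω | R ω ∈ Set.Icc (1 / 4 : ℝ) 4} ⊆ ⋃ i, A i := by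
    intro ω hω
    obtain ⟨h1, h2⟩ := hω
    have hx : 0 < 4 * R ω := by linarith
    have hl0 : 0 ≤ Real.log (4 * R ω) := Real.log_nonneg (by linarith)
    have hl1 : Real.log (4 * R ω) < 3 := by
      rw [Real.log_lt_iff_lt_exp hx, he3]
      have : (2.7 : ℝ) ^ 3 ≤ Real.exp 1 ^ 3 := pow_le_pow_left₀ (by norm_num) (by linarith) 3
      norm_num at this
      linarith
    have hi : ⌊(m : ℝ) * Real.log (4 * R ω)⌋₊ < 3 * m := by
      rw [Nat.floor_lt (by positivity)]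
      push_cast
      nlinarith
    refine Set.mem_iUnion.mpr ⟨⟨_, hi⟩, ?_, ?_⟩
    · show Wsg m ⌊(m : ℝ) * Real.log (4 * R ω)⌋₊ ≤ R ω
      unfold Wsg
      have h3 : (⌊(m : ℝ) * Real.log (4 * R ω)⌋₊ : ℝ) / m ≤ Real.log (4 * R ω) := by
        rw [div_le_iff₀ hm0, mul_comm]
        exact Nat.floor_le (by positivity)
      have h4 := Real.exp_le_exp.mpr h3
      rw [Real.exp_log hx] at h4
      linarith
    · show R ω < Wsg m ⌊(m : ℝ) * Real.log (4 * R ω)⌋₊ * Real.exp (1 / m)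
      rw [Wsg_succ]
      unfold Wsg
      have h3 : Real.log (4 * R ω) < ((⌊(m : ℝ) * Real.log (4 * R ω)⌋₊ + 1 : ℕ) : ℝ) / m := by
        rw [lt_div_iff₀ hm0, mul_comm]
        push_cast
        exact Nat.lt_floor_add_one _
      have h4 := Real.exp_lt_exp.mpr h3
      rw [Real.exp_log hx] at h4
      linarith
  have hsum2 : 0.08 ≤ ∑ i, P.real (A i) := by
    rw [← measureReal_iUnion_fintype hdis hA]
    exact hP.trans (measureReal_mono hcov)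
  -- the vectors
  have hvec : ∀ c : ℝ, nsq (Pi.single (⟨0, hM1⟩ : Fin (2 * m ^ 2)) c) = c ^ 2 := by
    intro c
    unfold nsq
    rw [Finset.sum_eq_single (⟨0, hM1⟩ : Fin (2 * m ^ 2))]
    · simp
    · intro b _ hb
      simp [Pi.single_eq_of_ne hb]
    · simp
  have hpair : ∀ i j : Fin (3 * m), P.real (A i) * P.real (A j) ≤
      Real.exp 4 / (1 + ((i : ℝ) - (j : ℝ)) ^ 2 / 4) ^ 2 + Real.exp 4 * 500 ^ (2 * m ^ 2) * δ := by
    intro i j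
    have hMpos : (0 : ℝ) < ((2 * m ^ 2 : ℕ) : ℝ) := by exact_mod_cast hM1
    have hsq : Real.sqrt ((2 * m ^ 2 : ℕ) : ℝ) ^ 2 = ((2 * m ^ 2 : ℕ) : ℝ) := Real.sq_sqrt hMpos.le
    have hsi := Wsg_pos m i
    have hsj := Wsg_pos m j
    have hc0 : 0 < Real.sqrt (2 * Real.pi) := by positivity
    have hc0sq : Real.sqrt (2 * Real.pi) ^ 2 = 2 * Real.pi := Real.sq_sqrt (by positivity)
    have hnv : ∀ k : ℕ, nsq (Pi.single (⟨0, hM1⟩ : Fin (2 * m ^ 2))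
        (Real.sqrt ((2 * m ^ 2 : ℕ) : ℝ) * Wsg m k)) = ((2 * m ^ 2 : ℕ) : ℝ) * Wsg m k ^ 2 := by
      intro k
      rw [hvec, mul_pow, hsq]
    have hmid : (1 / 2 : ℝ) • ((Pi.single (⟨0, hM1⟩ : Fin (2 * m ^ 2))
        (Real.sqrt ((2 * m ^ 2 : ℕ) : ℝ) * Wsg m i) : Fin (2 * m ^ 2) → ℝ) +
        Pi.single (⟨0, hM1⟩ : Fin (2 * m ^ 2)) (Real.sqrt ((2 * m ^ 2 : ℕ) : ℝ) * Wsg m j)) =
        Pi.single (⟨0, hM1⟩ : Fin (2 * m ^ 2))
          (Real.sqrt ((2 * m ^ 2 : ℕ) : ℝ) * ((Wsg m i + Wsg m j) / 2)) := by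
      rw [← Pi.single_add, ← Pi.single_smul]
      congr 1
      rw [smul_eq_mul]
      ring
    have hnmid : nsq ((1 / 2 : ℝ) • ((Pi.single (⟨0, hM1⟩ : Fin (2 * m ^ 2))
        (Real.sqrt ((2 * m ^ 2 : ℕ) : ℝ) * Wsg m i) : Fin (2 * m ^ 2) → ℝ) +
        Pi.single (⟨0, hM1⟩ : Fin (2 * m ^ 2)) (Real.sqrt ((2 * m ^ 2 : ℕ) : ℝ) * Wsg m j))) =
        ((2 * m ^ 2 : ℕ) : ℝ) * ((Wsg m i + Wsg m j) / 2) ^ 2 := by
      rw [hmid, hvec, mul_pow, hsq]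
    have hlow : ∀ k : Fin (3 * m), P.real (A k) * (Real.exp (-2) *
        (((Real.sqrt (2 * Real.pi) * Wsg m k) ^ (2 * m ^ 2))⁻¹ *
          Real.exp (-((2 * m ^ 2 : ℕ) : ℝ) / 2))) ≤
        ∫ ω, gd (2 * m ^ 2) (R ω) (Pi.single (⟨0, hM1⟩ : Fin (2 * m ^ 2))
          (Real.sqrt ((2 * m ^ 2 : ℕ) : ℝ) * Wsg m k)) ∂P := by
      intro k
      rw [← smul_eq_mul (P.real (A k)), ← integral_indicator_const _ (hA k)]
      refine integral_mono ((integrable_const _).indicator (hA k)) (Wint P R hR hs hsR _ _) fun ω => ?_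
      by_cases hω : ω ∈ A k
      · rw [Set.indicator_of_mem hω]
        exact gd_lower hm (Wsg_pos m k) (hnv k) hω.1 hω.2.le
      · rw [Set.indicator_of_notMem hω]
        exact gd_nonneg (hs.le.trans (hsR ω)) _
    have hup : ∫ ω, gd (2 * m ^ 2) (R ω) ((1 / 2 : ℝ) • ((Pi.single (⟨0, hM1⟩ : Fin (2 * m ^ 2))
        (Real.sqrt ((2 * m ^ 2 : ℕ) : ℝ) * Wsg m i) : Fin (2 * m ^ 2) → ℝ) +
        Pi.single (⟨0, hM1⟩ : Fin (2 * m ^ 2)) (Real.sqrt ((2 * m ^ 2 : ℕ) : ℝ) * Wsg m j))) ∂P ≤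
        ((Real.sqrt (2 * Real.pi) * ((Wsg m i + Wsg m j) / 2)) ^ (2 * m ^ 2))⁻¹ *
          Real.exp (-((2 * m ^ 2 : ℕ) : ℝ) / 2) := by
      have h1 : ∫ _ω : Ω, (((Real.sqrt (2 * Real.pi) * ((Wsg m i + Wsg m j) / 2)) ^ (2 * m ^ 2))⁻¹ *
          Real.exp (-((2 * m ^ 2 : ℕ) : ℝ) / 2)) ∂P =
          ((Real.sqrt (2 * Real.pi) * ((Wsg m i + Wsg m j) / 2)) ^ (2 * m ^ 2))⁻¹ *
          Real.exp (-((2 * m ^ 2 : ℕ) : ℝ) / 2) := by
        simp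
      rw [← h1]
      refine integral_mono (Wint P R hR hs hsR _ _) (integrable_const _) fun ω => ?_
      exact gd_upper hM1 (hs.trans_le (hsR ω)) (by linarith) hnmid
    have hup0 : 0 ≤ ∫ ω, gd (2 * m ^ 2) (R ω) ((1 / 2 : ℝ) • ((Pi.single (⟨0, hM1⟩ : Fin (2 * m ^ 2))
        (Real.sqrt ((2 * m ^ 2 : ℕ) : ℝ) * Wsg m i) : Fin (2 * m ^ 2) → ℝ) +
        Pi.single (⟨0, hM1⟩ : Fin (2 * m ^ 2)) (Real.sqrt ((2 * m ^ 2 : ℕ) : ℝ) * Wsg m j))) ∂P :=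
      integral_nonneg fun ω => gd_nonneg (hs.le.trans (hsR ω)) _
    have hmain := hH (Pi.single (⟨0, hM1⟩ : Fin (2 * m ^ 2)) (Real.sqrt ((2 * m ^ 2 : ℕ) : ℝ) * Wsg m i))
      (Pi.single (⟨0, hM1⟩ : Fin (2 * m ^ 2)) (Real.sqrt ((2 * m ^ 2 : ℕ) : ℝ) * Wsg m j))
    have hrat := Wratio hm i j
    have h1 := mul_le_mul (hlow i) (hlow j) (mul_nonneg measureReal_nonneg (by positivity))
      (le_trans (mul_nonneg measureReal_nonneg (by positivity)) (hlow i))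
    have h2 := (h1.trans hmain).trans (add_le_add (pow_le_pow_left₀ hup0 hup 2) le_rfl)
    -- algebra
    have hE : Real.exp (-((2 * m ^ 2 : ℕ) : ℝ) / 2) * Real.exp (-((2 * m ^ 2 : ℕ) : ℝ) / 2) *
        Real.exp 1 ^ (2 * m ^ 2) = 1 := by
      rw [← Real.exp_nat_mul, ← Real.exp_add, ← Real.exp_add, Real.exp_eq_one_iff]
      ring
    have he4 : Real.exp 4 * (Real.exp (-2) * Real.exp (-2)) = 1 := by
      rw [← Real.exp_add, ← Real.exp_add, Real.exp_eq_one_iff]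
      norm_num
    have hle : ∀ k : Fin (3 * m), Wsg m k ≤ Real.exp 1 ^ 3 / 4 := by
      intro k
      unfold Wsg
      have h1 : ((k : ℕ) : ℝ) / (m : ℝ) ≤ 3 := by
        rw [div_le_iff₀ hm0]
        exact_mod_cast k.2.le
      have h2 := Real.exp_le_exp.mpr h1
      rw [he3] at h2
      linarith
    have hW : (Real.sqrt (2 * Real.pi) ^ 2 * (Wsg m i * Wsg m j)) ^ (2 * m ^ 2) ≤
        500 ^ (2 * m ^ 2) * Real.exp (-((2 * m ^ 2 : ℕ) : ℝ) / 2) ^ 2 := by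
      have h3 : (Real.sqrt (2 * Real.pi) ^ 2 * (Wsg m i * Wsg m j)) * Real.exp 1 ≤ 500 := by
        rw [hc0sq]
        have h4 : Wsg m i * Wsg m j ≤ (Real.exp 1 ^ 3 / 4) * (Real.exp 1 ^ 3 / 4) :=
          mul_le_mul (hle i) (hle j) hsj.le (by positivity)
        have h5 : Real.pi ≤ 3.15 := Real.pi_lt_d2.le
        have h6 : Real.exp 1 ≤ 2.72 := by linarith
        calc 2 * Real.pi * (Wsg m i * Wsg m j) * Real.exp 1
            ≤ 2 * 3.15 * ((2.72 ^ 3 / 4) * (2.72 ^ 3 / 4)) * 2.72 := by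
              have h7 : (Real.exp 1 ^ 3 / 4) ≤ 2.72 ^ 3 / 4 := by gcongr
              have h8 : Wsg m i * Wsg m j ≤ (2.72 ^ 3 / 4) * (2.72 ^ 3 / 4) :=
                h4.trans (mul_le_mul h7 h7 (by positivity) (by norm_num))
              gcongr
          _ ≤ 500 := by norm_num
      have h9 := pow_le_pow_left₀ (by positivity) h3 (2 * m ^ 2)
      rw [mul_pow _ (Real.exp 1)] at h9
      have h10 : 0 ≤ Real.exp (-((2 * m ^ 2 : ℕ) : ℝ) / 2) ^ 2 := by positivity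
      calc (Real.sqrt (2 * Real.pi) ^ 2 * (Wsg m i * Wsg m j)) ^ (2 * m ^ 2)
          = (Real.sqrt (2 * Real.pi) ^ 2 * (Wsg m i * Wsg m j)) ^ (2 * m ^ 2) *
            (Real.exp (-((2 * m ^ 2 : ℕ) : ℝ) / 2) * Real.exp (-((2 * m ^ 2 : ℕ) : ℝ) / 2) *
              Real.exp 1 ^ (2 * m ^ 2)) := by rw [hE, mul_one]
        _ = ((Real.sqrt (2 * Real.pi) ^ 2 * (Wsg m i * Wsg m j)) ^ (2 * m ^ 2) * Real.exp 1 ^ (2 * m ^ 2)) *
            Real.exp (-((2 * m ^ 2 : ℕ) : ℝ) / 2) ^ 2 := by ring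
        _ ≤ _ := mul_le_mul_of_nonneg_right h9 h10
    exact Walg (Real.exp_pos _) hc0 hsi hsj hδ (by positivity) h2 he4 (Real.exp_pos _) hrat hW
  obtain ⟨i, hi⟩ := comb (3 * m) (fun i => P.real (A i)) (fun i => measureReal_nonneg) (η := Real.exp 4 * 500 ^ (2 * m ^ 2) * δ)
    (by positivity) hsum1 hsum2 hpair (by push_cast; exact hδ2)
  refine ⟨Wsg m i, ?_, ?_, hi⟩
  · unfold Wsg
    have : (1 : ℝ) ≤ Real.exp ((i : ℕ) / (m : ℝ)) := Real.one_le_exp (by positivity)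
    linarith
  · unfold Wsg
    have h1 : ((i : ℕ) : ℝ) / (m : ℝ) ≤ 3 := by
      rw [div_le_iff₀ hm0]
      exact_mod_cast i.2.le
    have h2 := Real.exp_le_exp.mpr h1
    rw [he3] at h2
    have : Real.exp 1 ^ 3 ≤ (2.72 : ℝ) ^ 3 := pow_le_pow_left₀ (by positivity) (by linarith) 3
    norm_num at this
    linarith

end Crest.Agent.CVA
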