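import Mathlib
import Crest.Agent.CVA_Defs
import Crest.Agent.CVA3_Proj
import Crest.Agent.CVA_PL
import Crest.Agent.CVA_SmallBall
import Crest.Agent.CVA_Window
import Crest.Agent.CVA_Gauss
import Crest.Agent.CVA_Asym1

set_option autoImplicit false
open MeasureTheory

namespace Crest.Agent.CVA

theorem sm_mid {a b c a' b' c' e B : ℝ} (he : 0 ≤ e) (ha : 0 ≤ a) (hc : 0 ≤ c)
    (hb' : 0 ≤ b') (haB : a ≤ B) (hbB : b ≤ B) (hcB : c' ≤ B)
    (h1 : |a - a'| ≤ e) (h2 : |b - b'| ≤ e) (h3 : |c - c'| ≤ e) (h : a * b ≤ c ^ 2) :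
    a' * b' ≤ c' ^ 2 + (4 * e * B + 2 * e ^ 2) := by
  rw [abs_le] at h1 h2 h3
  have h4 : a' * b' ≤ (a + e) * (b + e) :=
    mul_le_mul (by linarith) (by linarith) hb' (by linarith)
  have h5 : c ^ 2 ≤ (c' + e) ^ 2 := pow_le_pow_left₀ hc (by linarith) 2
  have h6 : e * a ≤ e * B := mul_le_mul_of_nonneg_left haB he
  have h7 : e * b ≤ e * B := mul_le_mul_of_nonneg_left hbB he
  have h8 : e * c' ≤ e * B := mul_le_mul_of_nonneg_left hcB he
  nlinarith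

theorem hG_nonneg {n m : ℕ} (μ : Measure (Fin n → ℝ)) {s : ℝ} (hs : 0 ≤ s)
    (G : Matrix (Fin m) (Fin n) ℝ) (v : Fin m → ℝ) : 0 ≤ hG μ s G v :=
  integral_nonneg fun _ => gd_nonneg hs _

theorem hG_le {n m : ℕ} (μ : Measure (Fin n → ℝ)) [IsProbabilityMeasure μ] {s : ℝ} (hs : 0 ≤ s)
    (G : Matrix (Fin m) (Fin n) ℝ) (v : Fin m → ℝ) :
    hG μ s G v ≤ ((Real.sqrt (2 * Real.pi) * s) ^ m)⁻¹ := by
  have := integral_mono_of_nonneg (μ := μ) (f := fun x => gd m s (v - G.mulVec x))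
    (g := fun _ => ((Real.sqrt (2 * Real.pi) * s) ^ m)⁻¹)
    (Filter.Eventually.of_forall fun _ => gd_nonneg hs _) (integrable_const _)
    (Filter.Eventually.of_forall fun _ => gd_le hs _)
  simpa [hG] using this

theorem hS_nonneg {n : ℕ} (m : ℕ) (μ : Measure (Fin n → ℝ)) {s : ℝ} (hs : 0 < s)
    (v : Fin m → ℝ) : 0 ≤ hS m μ s v :=
  integral_nonneg fun x => gd_nonneg (rad_pos hs x).le _

theorem hS_le {n : ℕ} (m : ℕ) (μ : Measure (Fin n → ℝ)) [IsProbabilityMeasure μ] {s : ℝ}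
    (hs : 0 < s) (v : Fin m → ℝ) :
    hS m μ s v ≤ ((Real.sqrt (2 * Real.pi) * s) ^ m)⁻¹ := by
  have hp : 0 < Real.sqrt (2 * Real.pi) := Real.sqrt_pos.2 (by positivity)
  have := integral_mono_of_nonneg (μ := μ) (f := fun x => gd m (rad s x) v)
    (g := fun _ => ((Real.sqrt (2 * Real.pi) * s) ^ m)⁻¹)
    (Filter.Eventually.of_forall fun x => gd_nonneg (rad_pos hs x).le _) (integrable_const _)
    (Filter.Eventually.of_forall fun x => by
      refine (gd_le (rad_pos hs x).le _).trans ?_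
      refine inv_anti₀ (by positivity) ?_
      gcongr
      exact le_rad x)
  simpa [hS] using this

/-- The smoothed form of [A]. -/
theorem smoothed : ∃ c : ℝ, 0 < c ∧ ∃ n0 : ℕ, ∀ n m : ℕ, n0 ≤ n → 1 ≤ m →
    (m : ℝ) ^ 8 ≤ Real.log n → ∀ K : Set (Fin n → ℝ), Iso K →
      ∃ (G : Matrix (Fin m) (Fin n) ℝ) (s : ℝ), 1 / (6 * Real.log n) ≤ s ∧ s ≤ 4 / Real.log n ∧
        ∑ i, ∑ j, G i j ^ 2 ≤ 32 * m ∧
        ∀ v : Fin m → ℝ, (∀ i, |v i| ≤ 2 * m) → c * gd m 1 v ≤ hG (uK K) s G v := by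
  obtain ⟨n1, hn1⟩ := asym_window (ε := 0.0016 ^ 2) (by norm_num)
  obtain ⟨n2, hn2⟩ := asym_smooth (ε := 6e-6 / 10) (by norm_num)
  refine ⟨6e-6 / 4, by norm_num, max (max n1 n2) 59049, ?_⟩
  intro n m hn hm hml K hK
  have hnn1 : n1 ≤ n := le_trans (le_trans (le_max_left _ _) (le_max_left _ _)) hn
  have hnn2 : n2 ≤ n := le_trans (le_trans (le_max_right _ _) (le_max_left _ _)) hn
  have hn3 : 59049 ≤ n := le_trans (le_max_right _ _) hn
  have hl : 10 ≤ Real.log n := by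
    rw [Real.le_log_iff_exp_le (by positivity)]
    have h1 : Real.exp 10 = Real.exp 1 ^ 10 := by
      rw [← Real.exp_nat_mul]; norm_num
    rw [h1]
    calc Real.exp 1 ^ 10 ≤ 3 ^ 10 :=
          pow_le_pow_left₀ (Real.exp_pos 1).le (by linarith [Real.exp_one_lt_d9]) 10
      _ = 59049 := by norm_num
      _ ≤ n := by exact_mod_cast hn3
  set l := Real.log n with hldef
  have hl0 : 0 < l := by linarith
  set s0 : ℝ := 1 / l with hs0
  have hs0p : 0 < s0 := by positivity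
  have hs01 : s0 ≤ 1 / 10 := by
    rw [hs0]
    exact one_div_le_one_div_of_le (by norm_num) hl
  have hn0 : 1 ≤ n := by omega
  have := hK.body.isProb
  -- the window
  obtain ⟨G1, -, hG1⟩ := exists_proj (n := n) (m := 2 * m ^ 2) hn0
    (Nat.succ_le_of_lt (by positivity)) (uK K) hK.iso2
    hs0p (by linarith)
  set e1 : ℝ := 2 * (n : ℝ) ^ (-(1 / 4) : ℝ) * (s0 ^ (2 * m ^ 2 + 1))⁻¹ with he1
  set B : ℝ := ((Real.sqrt (2 * Real.pi) * s0) ^ (2 * m ^ 2))⁻¹ with hB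
  have he1p : 0 ≤ e1 := by positivity
  have hBp : 0 ≤ B := by positivity
  obtain ⟨σ, hσ1, hσ2, hσ3⟩ := window (uK K) (rad s0) (measurable_rad s0) hs0p
    (fun x => le_rad x) hm (δ := 4 * e1 * B + 2 * e1 ^ 2) (by positivity)
    (by
      intro v w
      exact sm_mid he1p (hG_nonneg _ hs0p.le G1 v) (hG_nonneg _ hs0p.le G1 _)
        (hS_nonneg _ _ hs0p _) (hG_le _ hs0p.le G1 v) (hG_le _ hs0p.le G1 w) (hS_le _ _ hs0p _)
        (hG1 v) (hG1 w) (hG1 _) (hG_mid hK.body hs0p G1 v w))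
    (rad_prob hn0 hK hs0p hs01)
    (hn1 n m hnn1 hm hml s0 _ e1 B rfl rfl rfl rfl)
  have hσp : 0 < σ := by linarith
  obtain ⟨G2, hG2s, hG2⟩ := exists_proj (n := n) (m := m) hn0 hm (uK K) hK.iso2
    hs0p (by linarith)
  refine ⟨σ⁻¹ • G2, s0 / σ, ?_, ?_, ?_, ?_⟩
  · rw [hs0, div_div]
    exact one_div_le_one_div_of_le (by positivity) (by nlinarith)
  · rw [hs0, div_div, div_le_div_iff₀ (by positivity) hl0]
    nlinarith
  · have h1 : ∑ i, ∑ j, (σ⁻¹ • G2) i j ^ 2 = (σ⁻¹) ^ 2 * ∑ i, ∑ j, G2 i j ^ 2 := by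
      simp only [Matrix.smul_apply, smul_eq_mul, mul_pow, Finset.mul_sum]
    rw [h1]
    have h2 : (σ⁻¹) ^ 2 ≤ 16 := by
      have : σ⁻¹ ≤ 4 := by
        rw [inv_le_comm₀ hσp (by norm_num)]; linarith
      have h0 : 0 ≤ σ⁻¹ := by positivity
      nlinarith
    calc (σ⁻¹) ^ 2 * ∑ i, ∑ j, G2 i j ^ 2 ≤ 16 * (2 * m) :=
          mul_le_mul h2 hG2s (Finset.sum_nonneg fun _ _ => Finset.sum_nonneg fun _ _ =>
            sq_nonneg _) (by norm_num)
      _ = 32 * m := by ring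
  · intro v hv
    rw [hG_scale _ hs0p hσp]
    have h1 := hS_lower (μ := uK K) hm hs0p hσp hσ3 (σ • v)
    have h2 := hG2 (σ • v)
    set e2 : ℝ := 2 * (n : ℝ) ^ (-(1 / 4) : ℝ) * (s0 ^ (m + 1))⁻¹ with he2
    have he2p : 0 ≤ e2 := by positivity
    rw [abs_le] at h2
    have h3 : 6e-6 * Real.exp (-1) * gd m σ (σ • v) - e2 ≤ hG (uK K) s0 G2 (σ • v) := by
      linarith
    have h4 : σ ^ m * (6e-6 * Real.exp (-1) * gd m σ (σ • v) - e2) ≤
        σ ^ m * hG (uK K) s0 G2 (σ • v) := mul_le_mul_of_nonneg_left h3 (by positivity)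
    have h5 : σ ^ m * (6e-6 * Real.exp (-1) * gd m σ (σ • v) - e2) =
        6e-6 * Real.exp (-1) * gd m 1 v - σ ^ m * e2 := by
      rw [← gd_scale hσp v]; ring
    have h6 : σ ^ m * e2 ≤ 6e-6 / 10 * gd m 1 v := by
      refine le_trans ?_ (hn2 n m hnn2 hm hml v hv)
      refine mul_le_mul_of_nonneg_right ?_ he2p
      exact pow_le_pow_left₀ hσp.le hσ2 m
    have h7 : (0.36 : ℝ) ≤ Real.exp (-1) := by
      rw [Real.exp_neg]
      rw [le_inv_comm₀ (by norm_num) (Real.exp_pos _)]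
      linarith [Real.exp_one_lt_d9]
    have h8 := gd_nonneg zero_le_one v
    have h9 : 0.36 * gd m 1 v ≤ Real.exp (-1) * gd m 1 v := mul_le_mul_of_nonneg_right h7 h8
    nlinarith

end Crest.Agent.CVA
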