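import Mathlib
import Crest.Agent.CVA_Defs

set_option autoImplicit false
open MeasureTheory

namespace Crest.Agent.CVA

private theorem gd_eq_prod (m : ℕ) (s : ℝ) (v : Fin m → ℝ) :
    gd m s v = ∏ i : Fin m, ((Real.sqrt (2 * Real.pi) * s)⁻¹ * Real.exp (-(1 / (2 * s ^ 2)) * v i ^ 2)) := by
  unfold gd nsq
  rw [Finset.prod_mul_distrib, Finset.prod_const, ← Real.exp_sum, Finset.card_univ,
    Fintype.card_fin, inv_pow]
  congr 2
  rw [← Finset.mul_sum]
  ring

private theorem integrable_gd {m : ℕ} {s : ℝ} (hs : 0 < s) : Integrable (gd m s) := by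
  have h1 : gd m s = fun v : Fin m → ℝ => ∏ i : Fin m,
      ((Real.sqrt (2 * Real.pi) * s)⁻¹ * Real.exp (-(1 / (2 * s ^ 2)) * v i ^ 2)) :=
    funext fun v => gd_eq_prod m s v
  rw [h1]
  refine Integrable.fintype_prod (f := fun (_ : Fin m) (x : ℝ) =>
    (Real.sqrt (2 * Real.pi) * s)⁻¹ * Real.exp (-(1 / (2 * s ^ 2)) * x ^ 2)) fun _ => ?_
  exact (integrable_exp_neg_mul_sq (by positivity)).const_mul _

theorem integral_gd {m : ℕ} {s : ℝ} (hs : 0 < s) : ∫ v, gd m s v = 1 := by
  have h1 : gd m s = fun v : Fin m → ℝ => ∏ i : Fin m,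
      ((Real.sqrt (2 * Real.pi) * s)⁻¹ * Real.exp (-(1 / (2 * s ^ 2)) * v i ^ 2)) :=
    funext fun v => gd_eq_prod m s v
  rw [h1]
  rw [integral_fintype_prod_volume_eq_prod (fun (_ : Fin m) (x : ℝ) =>
    (Real.sqrt (2 * Real.pi) * s)⁻¹ * Real.exp (-(1 / (2 * s ^ 2)) * x ^ 2))]
  apply Finset.prod_eq_one
  intro i _
  rw [integral_const_mul, integral_gaussian]
  have h2 : Real.pi / (1 / (2 * s ^ 2)) = 2 * Real.pi * s ^ 2 := by
    field_simp
  have h3 : Real.sqrt (2 * Real.pi * s ^ 2) = Real.sqrt (2 * Real.pi) * s := by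
    rw [Real.sqrt_mul (by positivity) (s ^ 2), Real.sqrt_sq hs.le]
  rw [h2, h3]
  exact inv_mul_cancel₀ (by positivity)

/-- A point outside a closed midpoint convex set is separated from it by a unit vector. -/
private theorem sep_unit {m : ℕ} (hm : 1 ≤ m) {C : Set (Fin m → ℝ)} (hcl : IsClosed C)
    (hmid : ∀ w ∈ C, ∀ w' ∈ C, (1 / 2 : ℝ) • (w + w') ∈ C) {v : Fin m → ℝ} (hv : v ∉ C) :
    ∃ e : Fin m → ℝ, nsq e = 1 ∧ ∀ w ∈ C, 0 ≤ ∑ i, (v i - w i) * e i := by
  rcases C.eq_empty_or_nonempty with rfl | ⟨w₁, hw₁⟩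
  · refine ⟨Pi.single ⟨0, hm⟩ 1, ?_, fun w hw => absurd hw (Set.notMem_empty w)⟩
    unfold nsq
    rw [Finset.sum_eq_single (⟨0, hm⟩ : Fin m)]
    · simp
    · intro b _ hb
      rw [Pi.single_eq_of_ne hb]
      norm_num
    · intro h
      exact absurd (Finset.mem_univ _) h
  · -- nearest point
    set R : ℝ := Real.sqrt (nsq (w₁ - v)) with hR
    have hR0 : 0 ≤ R := Real.sqrt_nonneg _
    have hcd : Continuous fun w : Fin m → ℝ => nsq (w - v) :=
      continuous_nsq.comp (continuous_id.sub continuous_const)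
    have hcpt : IsCompact (C ∩ {w | nsq (w - v) ≤ nsq (w₁ - v)}) := by
      apply Metric.isCompact_of_isClosed_isBounded
      · exact hcl.inter (isClosed_le hcd continuous_const)
      · refine (Metric.isBounded_closedBall (x := v) (r := R)).subset ?_
        rintro w ⟨_, hw⟩
        rw [Metric.mem_closedBall, dist_pi_le_iff hR0]
        intro i
        rw [Real.dist_eq]
        refine abs_le_of_nsq (x := w - v) hR0 ?_ i
        rw [hR, Real.sq_sqrt (nsq_nonneg _)]
        exact hw
    obtain ⟨w₀, hw₀, hmin⟩ := hcpt.exists_isMinOn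
      ⟨w₁, hw₁, le_refl (nsq (w₁ - v))⟩ hcd.continuousOn
    have hmin' : ∀ w ∈ C, nsq (w₀ - v) ≤ nsq (w - v) := by
      intro w hw
      by_cases h : nsq (w - v) ≤ nsq (w₁ - v)
      · exact hmin ⟨hw, h⟩
      · exact hw₀.2.trans (not_le.1 h).le
    have hne : w₀ ≠ v := fun h => hv (h ▸ hw₀.1)
    have hd : 0 < nsq (v - w₀) := by
      rcases (nsq_nonneg (v - w₀)).lt_or_eq with h | h
      · exact h
      · exfalso
        apply hne
        unfold nsq at h
        have h' := (Finset.sum_eq_zero_iff_of_nonneg (fun i _ => sq_nonneg ((v - w₀) i))).1 h.symm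
        funext i
        have := h' i (Finset.mem_univ i)
        have h3 : (v - w₀) i = 0 := by
          exact pow_eq_zero_iff (two_ne_zero) |>.1 this
        rw [Pi.sub_apply] at h3
        linarith
    set d : ℝ := Real.sqrt (nsq (v - w₀)) with hdd
    have hdpos : 0 < d := Real.sqrt_pos.2 hd
    have hd2 : d ^ 2 = nsq (v - w₀) := Real.sq_sqrt (nsq_nonneg _)
    refine ⟨d⁻¹ • (v - w₀), ?_, ?_⟩
    · rw [nsq_smul, ← hd2, inv_pow, inv_mul_cancel₀ (by positivity)]
    · intro w hw
      -- obtuse angle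
      have hseq : ∀ n : ℕ, w₀ + ((1 / 2 : ℝ) ^ n) • (w - w₀) ∈ C := by
        intro n
        induction n with
        | zero =>
          rw [pow_zero, one_smul, add_sub_cancel]
          exact hw
        | succ n ih =>
          have := hmid w₀ hw₀.1 _ ih
          convert this using 1
          funext i
          simp only [Pi.add_apply, Pi.smul_apply, Pi.sub_apply, smul_eq_mul, pow_succ]
          ring
      have hS : 0 ≤ ∑ i, (w₀ i - v i) * (w i - w₀ i) := by
        by_contra hneg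
        push Not at hneg
        set S : ℝ := ∑ i, (w₀ i - v i) * (w i - w₀ i) with hSdef
        have hexp : ∀ t : ℝ, nsq (w₀ + t • (w - w₀) - v) =
            nsq (w₀ - v) + 2 * t * S + t ^ 2 * nsq (w - w₀) := by
          intro t
          rw [hSdef]
          unfold nsq
          rw [Finset.mul_sum, Finset.mul_sum, ← Finset.sum_add_distrib, ← Finset.sum_add_distrib]
          refine Finset.sum_congr rfl fun i _ => ?_
          simp only [Pi.add_apply, Pi.smul_apply, Pi.sub_apply, smul_eq_mul]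
          ring
        have h1 : ∀ n : ℕ, 0 ≤ 2 * S + (1 / 2 : ℝ) ^ n * nsq (w - w₀) := by
          intro n
          have h2 := hmin' _ (hseq n)
          rw [hexp] at h2
          have h3 : 0 ≤ (1 / 2 : ℝ) ^ n * (2 * S + (1 / 2 : ℝ) ^ n * nsq (w - w₀)) := by
            nlinarith
          exact nonneg_of_mul_nonneg_right h3 (by positivity)
        have h4 : 0 < -S / (nsq (w - w₀) + 1) := by
          have := nsq_nonneg (w - w₀)
          apply div_pos <;> linarith
        obtain ⟨n, hn⟩ := exists_pow_lt_of_lt_one h4 (by norm_num : (1 / 2 : ℝ) < 1)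
        have h5 : 0 ≤ nsq (w - w₀) := nsq_nonneg _
        rw [lt_div_iff₀ (by linarith)] at hn
        have h6 := h1 n
        have h7 : 0 < (1 / 2 : ℝ) ^ n := by positivity
        nlinarith
      have h8 : ∑ i, (v i - w i) * (d⁻¹ • (v - w₀)) i =
          d⁻¹ * (nsq (v - w₀) + ∑ i, (w₀ i - v i) * (w i - w₀ i)) := by
        unfold nsq
        rw [← Finset.sum_add_distrib, Finset.mul_sum]
        refine Finset.sum_congr rfl fun i _ => ?_
        simp only [Pi.smul_apply, Pi.sub_apply, smul_eq_mul]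
        ring
      rw [h8]
      exact mul_nonneg (by positivity) (by linarith)

/-! PROOF HINTS
Suppose |v_i| <= m and f v < a := c/2 * gd m 1 v (a > 0). C := {w | a <= f w} is closed (husc), midpoint-convex by hlc (f w, f w' >= a > 0 => f(mid)^2 >= a^2 => f(mid) >= a), closed + midpoint convex
=> convex (dyadic; or IsClosed.. search 'midpoint' convex closed; or prove directly), v notin C. Separation (geometric_hahn_banach_point_closed / closed_point) gives a unit vector e with <w - v, e> <= 0 for all w in C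
(if C is empty take any unit vector; m >= 1). v1 := v + tau e, |v1_i| <= m + tau <= 2m. For w in C: nsq (v1 - w) >= <v1-w,e>^2 >= tau^2, so gd m s (v1-w) <= ((sqrt(2pi)s)^m)^-1 exp(-tau^2/(2s^2)) =: q.
Hence pointwise f w * gd m s (v1 - w) <= a * gd m s (v1-w) + q * f w; integrate: int f(w) gd(v1-w) <= a * 1 + q (need int gd m s (v1 - w) dw = 1 :
product of one-dim Gaussians, integral_fintype_prod_eq_prod / integral_gaussian, or Measure.pi; prove lemma `integral_gd (hs : 0 < s) : int gd m s = 1`, name it integral_gd). Contradiction with hsm v1 and hpar v _ e.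
-/

theorem unsmooth {m : ℕ} (f : (Fin m → ℝ) → ℝ) (hf0 : ∀ v, 0 ≤ f v) (hfi : Integrable f)
    (hf1 : ∫ v, f v = 1) (husc : UpperSemicontinuous f)
    (hlc : ∀ v w, f v * f w ≤ f ((1 / 2 : ℝ) • (v + w)) ^ 2) {s τ c : ℝ} (hs : 0 < s)
    (hτ : 0 < τ) (hτm : τ ≤ m) (hc : 0 < c) (hm : 1 ≤ m)
    (hsm : ∀ v : Fin m → ℝ, (∀ i, |v i| ≤ 2 * m) →
      c * gd m 1 v ≤ ∫ w, f w * gd m s (v - w))
    (hpar : ∀ v : Fin m → ℝ, (∀ i, |v i| ≤ m) → ∀ e : Fin m → ℝ, nsq e = 1 →
      c / 2 * gd m 1 v + ((Real.sqrt (2 * Real.pi) * s) ^ m)⁻¹ * Real.exp (-(τ ^ 2) / (2 * s ^ 2))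
        < c * gd m 1 (v + τ • e)) :
    ∀ v : Fin m → ℝ, (∀ i, |v i| ≤ m) → c / 2 * gd m 1 v ≤ f v := by
  intro v hv
  by_contra hcon
  push Not at hcon
  set a : ℝ := c / 2 * gd m 1 v with ha
  have ha0 : 0 < a := mul_pos (by linarith) (gd_pos one_pos v)
  set C : Set (Fin m → ℝ) := {w | a ≤ f w} with hC
  have hcl : IsClosed C := husc.isClosed_preimage a
  have hmid : ∀ w ∈ C, ∀ w' ∈ C, (1 / 2 : ℝ) • (w + w') ∈ C := by
    intro w hw w' hw'
    have hw1 : a ≤ f w := hw
    have hw2 : a ≤ f w' := hw'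
    show a ≤ f ((1 / 2 : ℝ) • (w + w'))
    have h1 := hlc w w'
    have h2 : a ^ 2 ≤ f ((1 / 2 : ℝ) • (w + w')) ^ 2 := by
      refine le_trans ?_ h1
      rw [sq]
      exact mul_le_mul hw1 hw2 ha0.le (hf0 _)
    exact le_of_sq_le_sq h2 (hf0 _)
  have hvC : v ∉ C := fun h => absurd (h : a ≤ f v) (not_le.2 hcon)
  obtain ⟨e, he, hsep⟩ := sep_unit hm hcl hmid hvC
  set q : ℝ := ((Real.sqrt (2 * Real.pi) * s) ^ m)⁻¹ * Real.exp (-(τ ^ 2) / (2 * s ^ 2)) with hq
  have hq0 : 0 ≤ q := by positivity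
  set v₁ : Fin m → ℝ := v + τ • e with hv₁
  have hv₁b : ∀ i, |v₁ i| ≤ 2 * m := by
    intro i
    have h1 : |e i| ≤ 1 := abs_le_of_nsq (by norm_num) (by rw [he]; norm_num) i
    have h2 : |v₁ i| ≤ |v i| + τ * |e i| := by
      rw [hv₁, Pi.add_apply, Pi.smul_apply, smul_eq_mul]
      refine (abs_add_le _ _).trans ?_
      rw [abs_mul, abs_of_pos hτ]
    have h3 := hv i
    have h4 : τ * |e i| ≤ τ * 1 := mul_le_mul_of_nonneg_left h1 hτ.le
    linarith
  have hgC : ∀ w ∈ C, gd m s (v₁ - w) ≤ q := by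
    intro w hw
    have h1 : τ ^ 2 ≤ nsq (v₁ - w) := by
      have h2 : nsq (v₁ - w) = nsq (v - w) + 2 * τ * ∑ i, (v i - w i) * e i + τ ^ 2 * nsq e := by
        unfold nsq
        rw [Finset.mul_sum, Finset.mul_sum, ← Finset.sum_add_distrib, ← Finset.sum_add_distrib]
        refine Finset.sum_congr rfl fun i _ => ?_
        rw [hv₁]
        simp only [Pi.add_apply, Pi.smul_apply, Pi.sub_apply, smul_eq_mul]
        ring
      rw [h2, he]
      have h3 := hsep w hw
      have h4 := nsq_nonneg (v - w)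
      have h5 : 0 ≤ 2 * τ * ∑ i, (v i - w i) * e i := by positivity
      linarith
    unfold gd
    rw [hq]
    apply mul_le_mul_of_nonneg_left _ (by positivity)
    rw [Real.exp_le_exp]
    apply div_le_div_of_nonneg_right _ (by positivity)
    linarith
  have hptw : ∀ w, f w * gd m s (v₁ - w) ≤ a * gd m s (v₁ - w) + q * f w := by
    intro w
    have hg0 := gd_nonneg hs.le (v₁ - w)
    by_cases hw : w ∈ C
    · have h1 := mul_le_mul_of_nonneg_left (hgC w hw) (hf0 w)
      have h2 : 0 ≤ a * gd m s (v₁ - w) := mul_nonneg ha0.le hg0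
      linarith
    · have h1 : f w < a := not_le.1 hw
      have h2 := mul_le_mul_of_nonneg_right h1.le hg0
      have h3 : 0 ≤ q * f w := mul_nonneg hq0 (hf0 w)
      linarith
  have hgi : Integrable fun w : Fin m → ℝ => gd m s (v₁ - w) :=
    (integrable_gd hs).comp_sub_left v₁
  have hgI : ∫ w : Fin m → ℝ, gd m s (v₁ - w) = 1 := by
    rw [integral_sub_left_eq_self (fun w => gd m s w) volume v₁, integral_gd hs]
  have hfg : Integrable fun w : Fin m → ℝ => f w * gd m s (v₁ - w) := by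
    refine hfi.mul_bdd (c := ((Real.sqrt (2 * Real.pi) * s) ^ m)⁻¹) ?_ ?_
    · exact ((continuous_gd m s).comp (continuous_const.sub continuous_id)).aestronglyMeasurable
    · refine Filter.Eventually.of_forall fun w => ?_
      rw [Real.norm_eq_abs, abs_of_nonneg (gd_nonneg hs.le _)]
      exact gd_le hs.le _
  have hint : ∫ w, f w * gd m s (v₁ - w) ≤ a + q := by
    have h1 : ∫ w, f w * gd m s (v₁ - w) ≤ ∫ w, (a * gd m s (v₁ - w) + q * f w) :=
      integral_mono hfg ((hgi.const_mul a).add (hfi.const_mul q)) hptw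
    rw [integral_add (hgi.const_mul a) (hfi.const_mul q), integral_const_mul, integral_const_mul,
      hgI, hf1, mul_one, mul_one] at h1
    exact h1
  have h1 := hsm v₁ hv₁b
  have h2 := hpar v hv e he
  linarith

end Crest.Agent.CVA
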