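import Mathlib
import Crest.Agent.CVA_Defs
import Crest.Agent.CVA_Smoothed
import Crest.Agent.CVA_Position
import Crest.Agent.CVA_Upper
import Crest.Agent.CVA_Lower
import Crest.Agent.CVA_Sigma
import Crest.Agent.CVA_Lin
import Crest.Agent.CVA_Sec
import Crest.Agent.CVA_SecSmooth
import Crest.Agent.CVA_Unsmooth
import Crest.Agent.CVA_Asym2

set_option autoImplicit false
open MeasureTheory

namespace Crest.Agent.CVA

/-- Lower bound for the smallest singular value of `G`. -/
theorem sigma_hom {n m : ℕ} {G : Matrix (Fin m) (Fin n) ℝ} {θ : ℝ}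
    (h : ∀ e : Fin m → ℝ, nsq e = 1 → θ ≤ nsq (G.transpose.mulVec e)) (e : Fin m → ℝ) :
    θ * nsq e ≤ nsq (G.transpose.mulVec e) := by
  rcases (nsq_nonneg e).eq_or_lt with h0 | h0
  · rw [← h0, mul_zero]; exact nsq_nonneg _
  · set r := Real.sqrt (nsq e) with hr
    have hrp : 0 < r := Real.sqrt_pos.2 h0
    have hr2 : r ^ 2 = nsq e := Real.sq_sqrt h0.le
    have h1 : nsq (r⁻¹ • e) = 1 := by
      rw [nsq_smul, ← hr2]; field_simp
    have h2 := h _ h1
    rw [Matrix.mulVec_smul, nsq_smul] at h2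
    have h3 : θ * r ^ 2 ≤ (r⁻¹) ^ 2 * nsq (G.transpose.mulVec e) * r ^ 2 :=
      mul_le_mul_of_nonneg_right h2 (by positivity)
    rw [← hr2]
    calc θ * r ^ 2 ≤ (r⁻¹) ^ 2 * nsq (G.transpose.mulVec e) * r ^ 2 := h3
      _ = nsq (G.transpose.mulVec e) := by field_simp

/-- Part [A] of S0347. -/
theorem gaussMarg : CV.GaussMarg := by
  obtain ⟨c, hc, n1, hn1⟩ := smoothed
  obtain ⟨n2, hn2⟩ := asym_par hc
  obtain ⟨n3, hn3⟩ := asym_sigma hc
  refine ⟨c / 2, by positivity, max n1 (max n2 (max n3 1000)), ?_⟩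
  intro N m hn hm hml K hKc hKv hKi
  have hnn1 : n1 ≤ N + m := le_trans (le_max_left _ _) hn
  have hnn2 : n2 ≤ N + m := le_trans ((le_max_left _ _).trans (le_max_right _ _)) hn
  have hnn3 : n3 ≤ N + m :=
    le_trans (((le_max_left _ _).trans (le_max_right _ _)).trans (le_max_right _ _)) hn
  have hn4 : 1000 ≤ N + m :=
    le_trans (((le_max_right _ _).trans (le_max_right _ _)).trans (le_max_right _ _)) hn
  obtain ⟨T, b, hI⟩ := exists_iso K ⟨hKc, hKv, hKi⟩
  set K1 : Set (Fin (N + m) → ℝ) := (fun x => T (x - b)) '' K with hK1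
  obtain ⟨G, s, hs1, hs2, hG2, hh⟩ := hn1 (N + m) m hnn1 hm hml K1 hI
  have hx : (1000 : ℝ) ≤ ((N + m : ℕ) : ℝ) := by exact_mod_cast hn4
  set x : ℝ := ((N + m : ℕ) : ℝ) with hxdef
  have hxp : 0 < x := by linarith
  have hmx : (m : ℝ) ≤ x := by rw [hxdef]; exact_mod_cast Nat.le_add_left m N
  have hNx : (N : ℝ) ≤ x := by rw [hxdef]; exact_mod_cast Nat.le_add_right N m
  have hl : 1 ≤ Real.log x := by
    rw [Real.le_log_iff_exp_le hxp]
    linarith [Real.exp_one_lt_d9]
  have hlp : 0 < Real.log x := by linarith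
  have hsp : 0 < s := lt_of_lt_of_le (by positivity) hs1
  -- smallest singular value
  have hσ : ∀ e : Fin m → ℝ, x⁻¹ * nsq e ≤ nsq (G.transpose.mulVec e) := by
    refine sigma_hom fun e he => ?_
    have h1 := sigma_min hm hI hsp hc G hh e he
    have h2 := hn3 (N + m) m hnn3 hm hml s hs1 hs2
    linarith
  obtain ⟨L, hL2, hL1, hL3⟩ := exists_lin G (θ := x⁻¹) (by positivity) hσ
  refine ⟨T.trans L, b, ?_⟩
  have himg : (fun z => (T.trans L) (z - b)) '' K = L '' K1 := by
    rw [hK1, Set.image_image]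
    rfl
  rw [himg]
  refine ⟨?_, ?_, ?_⟩
  · intro y v hy hv
    refine ⟨L.symm (y, v), ?_, by simp⟩
    refine iso_lower (by omega) hI _ ?_
    have h1 := hL3 (L.symm (y, v))
    simp only [LinearEquiv.apply_symm_apply] at h1
    refine lt_of_le_of_lt h1 ?_
    have h2 : nsq y ≤ N * ((x ^ 3)⁻¹) ^ 2 := nsq_le_of_abs hy
    have h3 : nsq v ≤ m * ((x ^ 3)⁻¹) ^ 2 := nsq_le_of_abs hv
    have h4 : nsq y ≤ (x ^ 5)⁻¹ := by
      refine h2.trans ?_
      calc (N : ℝ) * ((x ^ 3)⁻¹) ^ 2 ≤ x * ((x ^ 3)⁻¹) ^ 2 := by gcongr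
        _ = (x ^ 5)⁻¹ := by field_simp
    have h5 : nsq v / x⁻¹ ≤ (x ^ 4)⁻¹ := by
      rw [div_inv_eq_mul]
      calc nsq v * x ≤ (m * ((x ^ 3)⁻¹) ^ 2) * x := by gcongr
        _ ≤ (x * ((x ^ 3)⁻¹) ^ 2) * x := by gcongr
        _ = (x ^ 4)⁻¹ := by field_simp
    have h6 : (x ^ 5)⁻¹ ≤ (x ^ 4)⁻¹ := by
      apply inv_anti₀ (by positivity)
      exact pow_le_pow_right₀ (by linarith) (by norm_num)
    calc nsq y + nsq v / x⁻¹ ≤ 2 * (x ^ 4)⁻¹ := by linarith
      _ < (64 * x ^ 2)⁻¹ := by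
          rw [← one_div, ← one_div, mul_one_div, div_lt_div_iff₀ (by positivity) (by positivity)]
          have h7 : (1000 : ℝ) ^ 2 ≤ x ^ 2 := pow_le_pow_left₀ (by norm_num) hx 2
          have h8 : x ^ 4 = x ^ 2 * x ^ 2 := by ring
          have h9 : 0 < x ^ 2 := by positivity
          rw [h8]
          nlinarith
  · rintro z ⟨w, hw, rfl⟩
    have h1 : nsq w ≤ 16 * x ^ 2 := iso_upper (by omega) hI w hw
    have hx2 : 0 < x ^ 2 := by positivity
    have hx4 : 1000 * 16 ≤ x ^ 4 := by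
      have : (1000 : ℝ) ^ 4 ≤ x ^ 4 := pow_le_pow_left₀ (by norm_num) hx 4
      linarith
    refine ⟨fun i => abs_le_of_nsq (by positivity) ?_ i, fun j => abs_le_of_nsq (by positivity) ?_ j⟩
    · refine (hL1 w).trans (h1.trans ?_)
      calc 16 * x ^ 2 ≤ x ^ 4 * x ^ 2 := by gcongr; linarith
        _ = (x ^ 3) ^ 2 := by ring
    · rw [hL2]
      refine (nsq_mulVec G w).trans ?_
      calc (∑ i, ∑ j, G i j ^ 2) * nsq w ≤ (32 * m) * (16 * x ^ 2) :=
            mul_le_mul hG2 h1 (nsq_nonneg _) (by positivity)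
        _ ≤ (32 * x) * (16 * x ^ 2) := by gcongr
        _ = 512 * x ^ 3 := by ring
        _ ≤ x ^ 3 * x ^ 3 := by
            gcongr
            have : (1000 : ℝ) ^ 3 ≤ x ^ 3 := pow_le_pow_left₀ (by norm_num) hx 3
            linarith
        _ = (x ^ 3) ^ 2 := by ring
  · have hLc : Continuous L := LinearMap.continuous_of_finiteDimensional L.toLinearMap
    have hcomp : IsCompact (L '' K1) := hI.body.cpt.image hLc
    have hconv : Convex ℝ (L '' K1) := hI.body.cvx.linear_image L.toLinearMap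
    have hpos : volume (L '' K1) ≠ 0 := by
      have hopen : IsOpenMap L := L.toContinuousLinearEquiv.toHomeomorph.isOpenMap
      have h1 : IsOpen (L '' interior K1) := hopen _ isOpen_interior
      have h2 : (L '' interior K1).Nonempty := hI.body.int.image _
      exact ((h1.measure_pos volume h2).trans_le
        (measure_mono (Set.image_mono interior_subset))).ne'
    have htop : volume (L '' K1) ≠ ⊤ := hcomp.measure_lt_top.ne
    have hτp : 0 < 1 / Real.sqrt (Real.log x) := by positivity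
    have hτ1 : 1 / Real.sqrt (Real.log x) ≤ 1 := by
      rw [div_le_one (by positivity)]
      exact Real.one_le_sqrt.2 hl
    have hm1 : (1 : ℝ) ≤ m := by exact_mod_cast hm
    have key := unsmooth (sec (L '' K1)) (fun v => by unfold sec; positivity)
      (sec_integrable hcomp) (sec_integral hcomp hpos) (sec_usc hcomp) (sec_mid hcomp hconv)
      hsp hτp (hτ1.trans hm1) hc hm
      (fun v hv => by rw [← sec_smooth hI.body L G hL2 hsp v]; exact hh v hv)
      (hn2 (N + m) m hnn2 hm hml s _ hs1 hs2 rfl)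
    intro v hv
    have h1 := key v hv
    rw [gd_one, sec, le_div_iff₀ (ENNReal.toReal_pos hpos htop)] at h1
    calc ENNReal.ofReal (c / 2 * ∏ j, CV.phi (v j)) * volume (L '' K1)
        = ENNReal.ofReal (c / 2 * ∏ j, CV.phi (v j)) *
            ENNReal.ofReal (volume (L '' K1)).toReal := by rw [ENNReal.ofReal_toReal htop]
      _ = ENNReal.ofReal (c / 2 * (∏ j, CV.phi (v j)) * (volume (L '' K1)).toReal) := by
          rw [ENNReal.ofReal_mul' ENNReal.toReal_nonneg]
      _ ≤ ENNReal.ofReal (volume {y : Fin N → ℝ | (y, v) ∈ L '' K1}).toReal :=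
          ENNReal.ofReal_le_ofReal h1
      _ ≤ _ := ENNReal.ofReal_toReal_le

end Crest.Agent.CVA
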