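import Crest.Agent.CVB_Defs

/-! # CVB-8: few small integer points in a subspace -/

set_option autoImplicit false
open Classical

namespace Crest.Agent.CVB

private theorem cvb8_coord {J : Type} [Fintype J] : ∀ (r : ℕ) (W : Submodule ℚ (J → ℚ)),
    Module.finrank ℚ W ≤ r →
      ∃ I : Finset J, I.card ≤ r ∧ ∀ w ∈ W, (∀ i ∈ I, w i = 0) → w = 0 := by
  intro r
  induction r with
  | zero =>
    intro W hW
    refine ⟨∅, by simp, fun w hw _ => ?_⟩
    have h1 : W = ⊥ := Submodule.finrank_eq_zero.1 (Nat.le_zero.1 hW)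
    rw [h1] at hw
    exact (Submodule.mem_bot ℚ).1 hw
  | succ r ih =>
    intro W hW
    by_cases hbot : W = ⊥
    · refine ⟨∅, by simp, fun w hw _ => ?_⟩
      rw [hbot] at hw
      exact (Submodule.mem_bot ℚ).1 hw
    · obtain ⟨w0, hw0, hne⟩ := Submodule.exists_mem_ne_zero_of_ne_bot hbot
      obtain ⟨j, hj⟩ := Function.ne_iff.1 hne
      rw [Pi.zero_apply] at hj
      have hlt : W ⊓ LinearMap.ker (LinearMap.proj j : (J → ℚ) →ₗ[ℚ] ℚ) < W := by
        refine lt_of_le_of_ne inf_le_left fun h => ?_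
        rw [← h] at hw0
        exact hj hw0.2
      have h2 := Submodule.finrank_lt_finrank_of_lt hlt
      obtain ⟨I, hI, hI2⟩ := ih (W ⊓ LinearMap.ker (LinearMap.proj j : (J → ℚ) →ₗ[ℚ] ℚ))
        (by omega)
      refine ⟨insert j I, (Finset.card_insert_le _ _).trans (by omega), fun w hw h => ?_⟩
      have h3 : w j = 0 := h j (Finset.mem_insert_self _ _)
      exact hI2 w ⟨hw, h3⟩ fun i hi => h i (Finset.mem_insert_of_mem hi)

/-- integer version of the restricted vectors -/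
private noncomputable def cvb8_eta {N : ℕ} (S : Finset (Fin N)) (z : Fin N → ℤ) :
    Option (Fin N) → ℤ
  | none => 1
  | some k => if k ∈ S then z k else 0

/-- Task CVB-8.  PROOF: let `ξ'_z` be `(1, z)` restricted to `S` (zero outside `S`), `W ⊆
(Option (Fin N) → ℚ)` the span of the `r` vectors `ξ'_{y_t}`; `finrank W ≤ r`; every `z ∈ Z` has
`ξ'_z ∈ W` (as `c ≠ 0`).  The coordinate functionals restricted to `W` span the dual of `W`, so
there is a set `I` of `finrank W ≤ r` coordinates with `w ∈ W`, `w|_I = 0 → w = 0`; therefore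
`z ↦ ξ'_z|_I` is injective on `Z` (`z` vanishes outside `S`), with values in the box
`[-R,R]^I` (`1 ≤ R`), so `|Z| ≤ (2R+1)^|I| ≤ (2R+1)^r`. -/
theorem dep_count {N r : ℕ} (S : Finset (Fin N)) (y : Fin r → Fin N → ℤ) (R : ℕ) (hR1 : 1 ≤ R)
    (Z : Finset (Fin N → ℤ)) (hZR : ∀ z ∈ Z, ∀ i, |z i| ≤ (R : ℤ))
    (hZS : ∀ z ∈ Z, ∀ i ∉ S, z i = 0)
    (hZ : ∀ z ∈ Z, ∃ (c : ℤ) (b : Fin r → ℤ), c ≠ 0 ∧ c + ∑ t, b t = 0 ∧
      ∀ i ∈ S, c * z i + ∑ t, b t * y t i = 0) :
    Z.card ≤ (2 * R + 1) ^ r := by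
  let v : Fin r → Option (Fin N) → ℚ := fun t i => ((cvb8_eta S (y t) i : ℤ) : ℚ)
  obtain ⟨I, hI, hI2⟩ := cvb8_coord r (Submodule.span ℚ (Set.range v)) (by
    have h := finrank_range_le_card (R := ℚ) v
    rw [Fintype.card_fin] at h
    exact h)
  have hmem : ∀ z ∈ Z, (fun i => ((cvb8_eta S z i : ℤ) : ℚ)) ∈
      Submodule.span ℚ (Set.range v) := by
    intro z hz
    obtain ⟨c, b, hc, h1, h2⟩ := hZ z hz
    have hcq : (c : ℚ) ≠ 0 := by exact_mod_cast hc
    have e : (fun i => ((cvb8_eta S z i : ℤ) : ℚ)) = ∑ t, (-(b t : ℚ) / c) • v t := by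
      funext i
      rw [Finset.sum_apply]
      have e1 : c * cvb8_eta S z i + ∑ t, b t * cvb8_eta S (y t) i = 0 := by
        cases i with
        | none => simpa [cvb8_eta] using h1
        | some k =>
          by_cases hk : k ∈ S
          · simpa [cvb8_eta, hk] using h2 k hk
          · simp [cvb8_eta, hk]
      have e2 : (c : ℚ) * ((cvb8_eta S z i : ℤ) : ℚ) +
          ∑ t, (b t : ℚ) * ((cvb8_eta S (y t) i : ℤ) : ℚ) = 0 := by exact_mod_cast e1
      have e3 : ∑ t, ((-(b t : ℚ) / c) • v t) i =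
          -(∑ t, (b t : ℚ) * ((cvb8_eta S (y t) i : ℤ) : ℚ)) / c := by
        rw [neg_div, Finset.sum_div, ← Finset.sum_neg_distrib]
        refine Finset.sum_congr rfl fun t _ => ?_
        show -(b t : ℚ) / c * ((cvb8_eta S (y t) i : ℤ) : ℚ) = _
        ring
      rw [e3, eq_div_iff hcq]
      linarith
    rw [e]
    exact Submodule.sum_mem _ fun t _ => Submodule.smul_mem _ _ (Submodule.subset_span ⟨t, rfl⟩)
  have hbox : ∀ z ∈ Z, (fun i : I => cvb8_eta S z i) ∈
      Fintype.piFinset (fun _ : I => Finset.Icc (-(R : ℤ)) R) := by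
    intro z hz
    rw [Fintype.mem_piFinset]
    intro i
    rw [Finset.mem_Icc]
    obtain ⟨i, hi⟩ := i
    show -(R : ℤ) ≤ cvb8_eta S z i ∧ cvb8_eta S z i ≤ R
    have hR : (1 : ℤ) ≤ R := by exact_mod_cast hR1
    cases i with
    | none => simp only [cvb8_eta]; omega
    | some k =>
      have h3 := abs_le.1 (hZR z hz k)
      by_cases hk : k ∈ S
      · simp only [cvb8_eta, if_pos hk]; exact h3
      · simp only [cvb8_eta, if_neg hk]; omega
  have hinj : Set.InjOn (fun z : Fin N → ℤ => (fun i : I => cvb8_eta S z i)) Z := by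
    intro z hz z' hz' hzz
    have h3 : (fun i => ((cvb8_eta S z i : ℤ) : ℚ)) - (fun i => ((cvb8_eta S z' i : ℤ) : ℚ)) = 0 := by
      refine hI2 _ (Submodule.sub_mem _ (hmem z hz) (hmem z' hz')) fun i hi => ?_
      have h4 : cvb8_eta S z i = cvb8_eta S z' i := congrFun hzz ⟨i, hi⟩
      rw [Pi.sub_apply, h4, sub_self]
    funext k
    by_cases hk : k ∈ S
    · have h5 := congrFun h3 (some k)
      simp only [Pi.sub_apply, Pi.zero_apply, cvb8_eta, if_pos hk, sub_eq_zero] at h5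
      exact_mod_cast h5
    · rw [hZS z hz k hk, hZS z' hz' k hk]
  have h6 := Finset.card_le_card_of_injOn _ hbox hinj
  rw [Fintype.card_piFinset, Finset.prod_const, Int.card_Icc, Finset.card_univ,
    Fintype.card_coe] at h6
  have h7 : ((R : ℤ) + 1 - -(R : ℤ)).toNat = 2 * R + 1 := by omega
  rw [h7] at h6
  exact h6.trans (Nat.pow_le_pow_right (by omega) hI)

end Crest.Agent.CVB
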