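import Crest.Agent.CVB_AlphaT
import Crest.Agent.CVB_Span

/-! # CVB-11: relations with dependent first halves -/

set_option autoImplicit false
open Classical

namespace Crest.Agent.CVB

/-- Task CVB-11.  PROOF: fibre over `y = (x_1, …, x_r)` (`¬ IndS S y`, at most
`2^r |X|^r / 2^|S|` of them by `alpha_tuples`); for a given `y` the possible `x_0` form a set
`Z ⊆ X` to which `dep_count` applies with `S = univ` (`c = b 0 ≠ 0`, `b t.succ`,
`Fin.sum_univ_succ`), so there are at most `(2R+1)^r` of them.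
(`Finset.card_le_mul_card_image` or `Finset.card_eq_sum_card_fiberwise`.) -/
theorem alpha_card {N : ℕ} (X : Finset (Fin N → ℤ)) (hX : Cube4 X) (R : ℕ) (hR1 : 1 ≤ R)
    (hXR : ∀ x ∈ X, ∀ i, |x i| ≤ (R : ℤ)) (S : Finset (Fin N)) (r : ℕ) :
    ((Fintype.piFinset (fun _ : Fin (r + 1) => X)).filter
      (fun x => (∃ b : Fin (r + 1) → ℤ, Prim b ∧ Rel Finset.univ b x) ∧
        ¬ IndS S (fun t : Fin r => x t.succ))).card * 2 ^ S.card ≤
      2 ^ r * (2 * R + 1) ^ r * X.card ^ r := by
  set T := (Fintype.piFinset (fun _ : Fin (r + 1) => X)).filter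
      (fun x => (∃ b : Fin (r + 1) → ℤ, Prim b ∧ Rel Finset.univ b x) ∧
        ¬ IndS S (fun t : Fin r => x t.succ)) with hT
  set B := (Fintype.piFinset (fun _ : Fin r => X)).filter (fun y => ¬ IndS S y) with hB
  have hmem : ∀ x ∈ T, (∀ t, x t ∈ X) ∧ (∃ b : Fin (r + 1) → ℤ, Prim b ∧ Rel Finset.univ b x) ∧
      ¬ IndS S (fun t : Fin r => x t.succ) := by
    intro x hx
    rw [hT, Finset.mem_filter, Fintype.mem_piFinset] at hx
    exact hx
  have hcard : T.card ≤ (2 * R + 1) ^ r * B.card := by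
    apply Finset.card_le_mul_card_image_of_maps_to
      (f := fun (x : Fin (r + 1) → Fin N → ℤ) (t : Fin r) => x t.succ)
    · intro x hx
      obtain ⟨h1, _, h3⟩ := hmem x hx
      rw [hB, Finset.mem_filter, Fintype.mem_piFinset]
      exact ⟨fun t => h1 t.succ, h3⟩
    · intro y _
      have hinj : Set.InjOn (fun x : Fin (r + 1) → Fin N → ℤ => x 0)
          ↑(T.filter (fun x => (fun t : Fin r => x t.succ) = y)) := by
        intro x hx x' hx' h0
        have h1 := (Finset.mem_filter.1 (Finset.mem_coe.1 hx)).2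
        have h2 := (Finset.mem_filter.1 (Finset.mem_coe.1 hx')).2
        funext t
        refine Fin.cases h0 (fun i => ?_) t
        exact (congrFun h1 i).trans (congrFun h2 i).symm
      rw [← Finset.card_image_of_injOn hinj]
      apply dep_count Finset.univ y R hR1
      · intro z hz
        obtain ⟨x, hx, rfl⟩ := Finset.mem_image.1 hz
        exact hXR _ ((hmem x (Finset.mem_filter.1 hx).1).1 0)
      · intro z _ i hi
        exact absurd (Finset.mem_univ i) hi
      · intro z hz
        obtain ⟨x, hx, rfl⟩ := Finset.mem_image.1 hz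
        obtain ⟨hx1, hx2⟩ := Finset.mem_filter.1 hx
        obtain ⟨_, ⟨b, hb1, hb2, hb3⟩, _⟩ := hmem x hx1
        refine ⟨b 0, fun t => b t.succ, hb1.1 0, ?_, ?_⟩
        · rw [← hb2, Fin.sum_univ_succ]
        · intro i hi
          rw [← hb3 i hi, Fin.sum_univ_succ, ← hx2]
  have h2 := alpha_tuples X hX S r
  calc T.card * 2 ^ S.card ≤ ((2 * R + 1) ^ r * B.card) * 2 ^ S.card :=
        Nat.mul_le_mul_right _ hcard
    _ = (2 * R + 1) ^ r * (B.card * 2 ^ S.card) := by ring
    _ ≤ (2 * R + 1) ^ r * (2 ^ r * X.card ^ r) := Nat.mul_le_mul_left _ h2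
    _ = 2 ^ r * (2 * R + 1) ^ r * X.card ^ r := by ring

end Crest.Agent.CVB
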