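import Crest.Agent.CVB_Flip

/-! # CVB-10: few tuples have dependent first halves -/

set_option autoImplicit false
open Classical

namespace Crest.Agent.CVB

/-- A linearly dependent tuple (on the coordinates `S`) has a non-empty set of members whose sum is
even on `S`. -/
private theorem exists_even_of_not_indS {N r : ℕ} {S : Finset (Fin N)} {y : Fin r → Fin N → ℤ}
    (h : ¬ IndS S y) :
    ∃ J : Finset (Fin r), J.Nonempty ∧ ∀ i ∈ S, Even (∑ t ∈ J, y t i) := by
  unfold IndS at h
  push Not at h
  obtain ⟨c, hc, hc0⟩ := h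
  obtain ⟨t0, ht0⟩ : ∃ t, c t ≠ 0 := by
    by_contra hcon
    push Not at hcon
    exact hc0 (funext hcon)
  have hne : (Finset.univ : Finset (Fin r)).Nonempty := ⟨t0, Finset.mem_univ _⟩
  obtain ⟨g, hg, hg1⟩ := Finset.extract_gcd c hne
  have hG : (Finset.univ : Finset (Fin r)).gcd c ≠ 0 := by
    intro h0
    have := Finset.gcd_eq_zero_iff.1 h0 t0 (Finset.mem_univ _)
    exact ht0 this
  have hrel : ∀ i ∈ S, ∑ t, g t * y t i = 0 := by
    intro i hi
    have h1 := hc.2 i hi
    have h2 : ∑ t, c t * y t i = (Finset.univ : Finset (Fin r)).gcd c * ∑ t, g t * y t i := by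
      rw [Finset.mul_sum]
      refine Finset.sum_congr rfl fun t ht => ?_
      rw [hg t ht, mul_assoc]
    rw [h2] at h1
    exact (mul_eq_zero.1 h1).resolve_left hG
  refine ⟨Finset.univ.filter (fun t => Odd (g t)), ?_, ?_⟩
  · by_contra hcon
    rw [Finset.not_nonempty_iff_eq_empty, Finset.filter_eq_empty_iff] at hcon
    have h2 : (2 : ℤ) ∣ (Finset.univ : Finset (Fin r)).gcd g := by
      refine Finset.dvd_gcd fun t ht => ?_
      have := hcon ht
      rw [Int.not_odd_iff_even] at this
      exact this.two_dvd
    rw [hg1] at h2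
    norm_num at h2
  · intro i hi
    have h1 := hrel i hi
    have h2 : Even (∑ t ∈ Finset.univ.filter (fun t => Odd (g t)), y t i - ∑ t, g t * y t i) := by
      rw [Finset.sum_filter, ← Finset.sum_sub_distrib]
      refine Finset.even_sum _ fun t _ => ?_
      split_ifs with ho
      · have : y t i - g t * y t i = (1 - g t) * y t i := by ring
        rw [this]
        exact (Odd.sub_odd odd_one ho).mul_right _
      · rw [Int.not_odd_iff_even] at ho
        rw [zero_sub, even_neg]
        exact ho.mul_right _
    rwa [h1, sub_zero] at h2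

/-- For a fixed non-empty `J`. -/
private theorem card_even_mul_le {N : ℕ} (X : Finset (Fin N → ℤ)) (hX : Cube4 X)
    (S : Finset (Fin N)) (r : ℕ) (J : Finset (Fin r)) (hJ : J.Nonempty) :
    ((Fintype.piFinset (fun _ : Fin r => X)).filter
      (fun y => ∀ i ∈ S, Even (∑ t ∈ J, y t i))).card * 2 ^ S.card ≤ X.card ^ r := by
  obtain ⟨t0, ht0⟩ := hJ
  rw [← Finset.card_powerset, ← Finset.card_product]
  have hcard : (Fintype.piFinset (fun _ : Fin r => X)).card = X.card ^ r := by
    simp [Fintype.card_piFinset]
  rw [← hcard]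
  refine Finset.card_le_card_of_injOn
    (fun q => Function.update q.1 t0 (flipE q.2 (q.1 t0))) ?_ ?_
  · rintro ⟨y, E⟩ hq
    have hq' := Finset.mem_product.1 (Finset.mem_coe.1 hq)
    have hy := (Finset.mem_filter.1 hq'.1).1
    rw [Fintype.mem_piFinset] at hy
    refine Finset.mem_coe.2 (Fintype.mem_piFinset.2 fun t => ?_)
    by_cases ht : t = t0
    · subst ht
      simp only [Function.update_self]
      exact flipE_mem hX (hy t) E
    · simp only [Function.update_of_ne ht]
      exact hy t
  · rintro ⟨y, E⟩ hq ⟨y', E'⟩ hq' he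
    have hq1 := Finset.mem_product.1 (Finset.mem_coe.1 hq)
    have hq1' := Finset.mem_product.1 (Finset.mem_coe.1 hq')
    have hy := (Finset.mem_filter.1 hq1.1).2
    have hy' := (Finset.mem_filter.1 hq1'.1).2
    have hE : E ⊆ S := Finset.mem_powerset.1 hq1.2
    have hE' : E' ⊆ S := Finset.mem_powerset.1 hq1'.2
    simp only at he hy hy'
    have hne : ∀ t, t ≠ t0 → y t = y' t := by
      intro t ht
      have := congrFun he t
      simpa [Function.update_of_ne ht] using this
    have hfl : flipE E (y t0) = flipE E' (y' t0) := by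
      have := congrFun he t0
      simpa using this
    have hdvd : ∀ i, ((2 : ℕ) : ℤ) ∣ y t0 i - y' t0 i := by
      intro i
      by_cases hi : i ∈ S
      · have h1 := hy i hi
        have h2 := hy' i hi
        rw [← Finset.add_sum_erase J _ ht0] at h1 h2
        have h3 : ∑ t ∈ J.erase t0, y t i = ∑ t ∈ J.erase t0, y' t i := by
          refine Finset.sum_congr rfl fun t ht => ?_
          rw [hne t (Finset.ne_of_mem_erase ht)]
        rw [h3] at h1
        have h4 := h1.sub h2
        have h5 : y t0 i + ∑ t ∈ J.erase t0, y' t i - (y' t0 i + ∑ t ∈ J.erase t0, y' t i)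
            = y t0 i - y' t0 i := by ring
        rw [h5] at h4
        exact_mod_cast h4.two_dvd
      · have h1 := congrFun hfl i
        have h2 : i ∉ E := fun h => hi (hE h)
        have h3 : i ∉ E' := fun h => hi (hE' h)
        simp only [flipE, h2, h3, if_false] at h1
        rw [h1, sub_self]
        exact dvd_zero _
    obtain ⟨h1, h2⟩ := flipE_inj 2 le_rfl hdvd hfl
    have h3 : y = y' := by
      funext t
      by_cases ht : t = t0
      · rw [ht, h1]
      · exact hne t ht
    rw [h3, h2]

/-- Task CVB-10.  PROOF: if `IndS S y` fails there is a non zero integer relation `c` on the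
coordinates `S` (and `∑ c = 0`); dividing by the gcd we may assume that some `c_t` is odd, so with
`J = {t | c_t odd} ≠ ∅` we get `∑_{t ∈ J} y t i` even for all `i ∈ S`.  For a fixed non empty
`J ⊆ Fin r` choose `t0 ∈ J`; the map `(y, E) ↦ Function.update y t0 (flipE E (y t0))`, `E ⊆ S`, from
`{y ∈ X^r | ∀ i ∈ S, Even (∑_{t∈J} y t i)} × powerset S` to `X^r` is injective: the other
components determine `y t0 i` mod 2 for `i ∈ S`, and for `i ∉ S` the component `y t0 i` is not
changed, so `flipE_inj` with `q = 2` applies (`flipE_mem` for the values).  So the number of such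
`y` times `2^|S|` is `≤ |X|^r`; sum over the `≤ 2^r` sets `J`. -/
theorem alpha_tuples {N : ℕ} (X : Finset (Fin N → ℤ)) (hX : Cube4 X) (S : Finset (Fin N))
    (r : ℕ) :
    ((Fintype.piFinset (fun _ : Fin r => X)).filter (fun y => ¬ IndS S y)).card * 2 ^ S.card ≤
      2 ^ r * X.card ^ r := by
  have hsub : (Fintype.piFinset (fun _ : Fin r => X)).filter (fun y => ¬ IndS S y) ⊆
      ((Finset.univ : Finset (Finset (Fin r))).filter (fun J => J.Nonempty)).biUnion
        (fun J => (Fintype.piFinset (fun _ : Fin r => X)).filter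
          (fun y => ∀ i ∈ S, Even (∑ t ∈ J, y t i))) := by
    intro y hy
    obtain ⟨hy1, hy2⟩ := Finset.mem_filter.1 hy
    obtain ⟨J, hJ, hJ2⟩ := exists_even_of_not_indS hy2
    exact Finset.mem_biUnion.2 ⟨J, Finset.mem_filter.2 ⟨Finset.mem_univ _, hJ⟩,
      Finset.mem_filter.2 ⟨hy1, hJ2⟩⟩
  calc ((Fintype.piFinset (fun _ : Fin r => X)).filter (fun y => ¬ IndS S y)).card * 2 ^ S.card
      ≤ (∑ J ∈ (Finset.univ : Finset (Finset (Fin r))).filter (fun J => J.Nonempty),
        ((Fintype.piFinset (fun _ : Fin r => X)).filter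
          (fun y => ∀ i ∈ S, Even (∑ t ∈ J, y t i))).card) * 2 ^ S.card :=
        Nat.mul_le_mul_right _ ((Finset.card_le_card hsub).trans Finset.card_biUnion_le)
    _ = ∑ J ∈ (Finset.univ : Finset (Finset (Fin r))).filter (fun J => J.Nonempty),
        ((Fintype.piFinset (fun _ : Fin r => X)).filter
          (fun y => ∀ i ∈ S, Even (∑ t ∈ J, y t i))).card * 2 ^ S.card := Finset.sum_mul _ _ _
    _ ≤ ∑ _J ∈ (Finset.univ : Finset (Finset (Fin r))).filter (fun J => J.Nonempty),
        X.card ^ r := by
        refine Finset.sum_le_sum fun J hJ => ?_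
        exact card_even_mul_le X hX S r J (Finset.mem_filter.1 hJ).2
    _ = ((Finset.univ : Finset (Finset (Fin r))).filter (fun J => J.Nonempty)).card *
        X.card ^ r := by rw [Finset.sum_const, smul_eq_mul]
    _ ≤ 2 ^ r * X.card ^ r := by
        refine Nat.mul_le_mul_right _ ?_
        refine (Finset.card_filter_le _ _).trans ?_
        rw [Finset.card_univ, Fintype.card_finset, Fintype.card_fin]

end Crest.Agent.CVB
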