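import Crest.Agent.CVB_Defs

/-! # CVB-6: a rational dependence gives a primitive integer relation -/

set_option autoImplicit false
open Classical

namespace Crest.Agent.CVB

/-- Task CVB-6.  PROOF: `Fintype.not_linearIndependent_iff` gives rational `g ≠ 0` with
`∑ g_x ξ_x = 0`; multiply by the product of the denominators to get an integer relation
`b₀ ≠ 0`; `C := {x ∈ C0 | b₀ x ≠ 0}`; divide by the gcd (`Finset.gcd`) of the `b₀ x`, `x ∈ C`.
The coordinate `none` gives `∑ b = 0`, the coordinate `some i` gives `∑ b x * x i = 0`. -/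
theorem exists_prim_rel {N : ℕ} (C0 : Finset (Fin N → ℤ))
    (h : ¬ LinearIndependent ℚ (fun x : C0 => xi ℚ (x : Fin N → ℤ))) :
    ∃ C ⊆ C0, C.Nonempty ∧ ∃ b : (Fin N → ℤ) → ℤ, (∀ x ∈ C, b x ≠ 0) ∧
      (∀ q : ℕ, q.Prime → ∃ x ∈ C, ¬ ((q : ℤ) ∣ b x)) ∧ (∑ x ∈ C, b x = 0) ∧
      ∀ i, ∑ x ∈ C, b x * x i = 0 := by
  obtain ⟨g, hg, x0, hx0⟩ := Fintype.not_linearIndependent_iff.1 h
  obtain ⟨D, hD⟩ := IsLocalization.exist_integer_multiples_of_finite (nonZeroDivisors ℤ) g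
  choose z hz using hD
  have hD0 : ((D : ℤ) : ℚ) ≠ 0 := by
    have := nonZeroDivisors.ne_zero D.2
    exact_mod_cast this
  have hz' : ∀ x, ((z x : ℤ) : ℚ) = ((D : ℤ) : ℚ) * g x := by
    intro x
    have := hz x
    simpa [Algebra.smul_def, zsmul_eq_mul] using this
  set b1 : (Fin N → ℤ) → ℤ := fun x => if h : x ∈ C0 then z ⟨x, h⟩ else 0 with hb1
  have hb1z : ∀ x : C0, b1 (x : Fin N → ℤ) = z x := by
    intro x
    simp [hb1]
  have hsum : ∀ F : (Fin N → ℤ) → ℤ, (∑ x : C0, g x * ((F (x : Fin N → ℤ) : ℤ) : ℚ) = 0) →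
      ∑ x ∈ C0, b1 x * F x = 0 := by
    intro F hF
    have e : ∑ x ∈ C0, b1 x * F x = ∑ x : C0, z x * F (x : Fin N → ℤ) := by
      rw [← Finset.sum_coe_sort C0 (fun x => b1 x * F x)]
      exact Finset.sum_congr rfl fun x _ => by rw [hb1z]
    rw [e]
    have : ((∑ x : C0, z x * F (x : Fin N → ℤ) : ℤ) : ℚ) = 0 := by
      push_cast
      calc ∑ x : C0, ((z x : ℤ) : ℚ) * ((F (x : Fin N → ℤ) : ℤ) : ℚ)
          = ∑ x : C0, ((D : ℤ) : ℚ) * (g x * ((F (x : Fin N → ℤ) : ℤ) : ℚ)) :=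
            Finset.sum_congr rfl fun x _ => by rw [hz' x, mul_assoc]
        _ = 0 := by rw [← Finset.mul_sum, hF, mul_zero]
    exact_mod_cast this
  have h0 : ∑ x ∈ C0, b1 x = 0 := by
    have := hsum (fun _ => 1) (by
      have := congrFun hg none
      simpa [Finset.sum_apply] using this)
    simpa using this
  have hi : ∀ i, ∑ x ∈ C0, b1 x * x i = 0 := by
    intro i
    refine hsum (fun x => x i) ?_
    have := congrFun hg (some i)
    simpa [Finset.sum_apply] using this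
  set C : Finset (Fin N → ℤ) := C0.filter (fun x => b1 x ≠ 0) with hC
  have hCne : C.Nonempty := by
    refine ⟨x0, ?_⟩
    rw [hC, Finset.mem_filter]
    refine ⟨x0.2, ?_⟩
    rw [hb1z]
    intro h1
    have := hz' x0
    rw [h1] at this
    have h2 : ((D : ℤ) : ℚ) * g x0 = 0 := by rw [← this]; simp
    rcases mul_eq_zero.1 h2 with h3 | h3
    · exact hD0 h3
    · exact hx0 h3
  obtain ⟨b, hb, hgcd⟩ := Finset.extract_gcd b1 hCne
  have hd : C.gcd b1 ≠ 0 := by
    intro h1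
    obtain ⟨x, hx⟩ := hCne
    have := (Finset.gcd_eq_zero_iff).1 h1 x hx
    exact (Finset.mem_filter.1 hx).2 this
  have hfil : ∀ F : (Fin N → ℤ) → ℤ, ∑ x ∈ C0, b1 x * F x = ∑ x ∈ C, b1 x * F x := by
    intro F
    rw [hC, Finset.sum_filter]
    refine Finset.sum_congr rfl fun x _ => ?_
    by_cases hx : b1 x = 0
    · simp [hx]
    · simp [hx]
  have hfac : ∀ F : (Fin N → ℤ) → ℤ, ∑ x ∈ C0, b1 x * F x = 0 → ∑ x ∈ C, b x * F x = 0 := by
    intro F hF
    rw [hfil F] at hF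
    have e : ∑ x ∈ C, b1 x * F x = C.gcd b1 * ∑ x ∈ C, b x * F x := by
      rw [Finset.mul_sum]
      exact Finset.sum_congr rfl fun x hx => by rw [hb x hx]; ring
    rw [e] at hF
    exact (mul_eq_zero.1 hF).resolve_left hd
  refine ⟨C, Finset.filter_subset _ _, hCne, b, ?_, ?_, ?_, fun i => hfac (fun x => x i) (hi i)⟩
  · intro x hx h1
    have := hb x hx
    rw [h1, mul_zero] at this
    exact (Finset.mem_filter.1 hx).2 this
  · intro q hq
    by_contra hcon
    push Not at hcon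
    have h1 : (q : ℤ) ∣ C.gcd b := Finset.dvd_gcd hcon
    rw [hgcd] at h1
    have h2 : (q : ℤ) ∣ ((1 : ℕ) : ℤ) := by simpa using h1
    have h3 := Int.natCast_dvd_natCast.1 h2
    exact hq.one_lt.ne' (Nat.dvd_one.1 h3)
  · have := hfac (fun _ => 1) (by simpa using h0)
    simpa using this

end Crest.Agent.CVB
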