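import Crest.Agent.CVB_Lift
import Crest.Agent.CVB_PrimRel

/-! # CVB-7: bad sets are controlled by circuits -/

set_option autoImplicit false
open Classical

namespace Crest.Agent.CVB

/-- a relation set with a distinguished element gives an element of `circF` -/
private theorem circ_enum {N : ℕ} (X C : Finset (Fin N → ℤ)) (hCX : C ⊆ X)
    (b : (Fin N → ℤ) → ℤ) (hb : ∀ x ∈ C, b x ≠ 0)
    (hq : ∀ q : ℕ, q.Prime → ∃ x ∈ C, ¬ ((q : ℤ) ∣ b x)) (h0 : ∑ x ∈ C, b x = 0)
    (hi : ∀ i, ∑ x ∈ C, b x * x i = 0) (x0 : Fin N → ℤ) (hx0 : x0 ∈ C) (r : ℕ)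
    (hr : (C.erase x0).card = r) :
    ∃ x ∈ circF X r, Finset.univ.image (fun t : Fin r => x t.succ) = C.erase x0 := by
  set e : Fin r ≃ (C.erase x0 : Finset (Fin N → ℤ)) := ((C.erase x0).equivFinOfCardEq hr).symm
    with he
  set x : Fin (r + 1) → Fin N → ℤ := Fin.cons x0 (fun t => ((e t : _) : Fin N → ℤ)) with hx
  have hx_0 : x 0 = x0 := by rw [hx, Fin.cons_zero]
  have hx_s : ∀ t : Fin r, x t.succ = ((e t : _) : Fin N → ℤ) := fun t => by
    rw [hx, Fin.cons_succ]
  have himg : Finset.univ.image (fun t : Fin r => x t.succ) = C.erase x0 := by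
    ext y
    simp only [Finset.mem_image, Finset.mem_univ, true_and, hx_s]
    constructor
    · rintro ⟨t, rfl⟩
      exact (e t).2
    · intro hy
      exact ⟨e.symm ⟨y, hy⟩, by simp⟩
  have hinj : Function.Injective x := by
    rw [hx, Fin.cons_injective_iff]
    refine ⟨?_, fun s t hst => e.injective (Subtype.ext hst)⟩
    rintro ⟨t, ht⟩
    have := (e t).2
    have ht' : ((e t : _) : Fin N → ℤ) = x0 := ht
    rw [ht'] at this
    exact Finset.notMem_erase x0 C this
  have hxC : ∀ t, x t ∈ C := by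
    intro t
    refine Fin.cases ?_ (fun t => ?_) t
    · rw [hx_0]; exact hx0
    · rw [hx_s]; exact Finset.mem_of_mem_erase (e t).2
  have hC : Finset.univ.image x = C := by
    ext y
    simp only [Finset.mem_image, Finset.mem_univ, true_and]
    constructor
    · rintro ⟨t, rfl⟩
      exact hxC t
    · intro hy
      by_cases hyx : y = x0
      · exact ⟨0, by rw [hx_0, hyx]⟩
      · have : y ∈ Finset.univ.image (fun t : Fin r => x t.succ) := by
          rw [himg]; exact Finset.mem_erase.2 ⟨hyx, hy⟩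
        obtain ⟨t, -, ht⟩ := Finset.mem_image.1 this
        exact ⟨t.succ, ht⟩
  have hsum : ∀ F : (Fin N → ℤ) → ℤ, ∑ y ∈ C, F y = ∑ t, F (x t) := by
    intro F
    conv_lhs => rw [← hC]
    exact Finset.sum_image fun a _ b _ hab => hinj hab
  refine ⟨x, ?_, himg⟩
  unfold circF
  rw [Finset.mem_filter]
  refine ⟨Fintype.mem_piFinset.2 fun t => hCX (hxC t), hinj, fun t => b (x t), ⟨?_, ?_⟩, ?_, ?_⟩
  · exact fun t => hb _ (hxC t)
  · intro q hqp
    obtain ⟨y, hy, hy'⟩ := hq q hqp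
    rw [← hC] at hy
    obtain ⟨t, -, ht⟩ := Finset.mem_image.1 hy
    exact ⟨t, by
      change ¬ ((q : ℤ) ∣ b (x t))
      rw [ht]; exact hy'⟩
  · rw [← hsum b]; exact h0
  · intro i _
    rw [← hsum (fun y => b y * y i)]; exact hi i

/-- a bad set contains all but one point of a circuit -/
private theorem bad_cover (p : ℕ) [Fact p.Prime] {N : ℕ} (X : Finset (Fin N → ℤ)) (R : ℕ)
    (hR1 : 1 ≤ R) (hX : ∀ x ∈ X, ∀ i, |x i| ≤ (R : ℤ)) (j : ℕ)
    (hp : (j + 1).factorial * ((N + 1) * R ^ 2) ^ (j + 1) < p) (B : Finset (Fin N → ℤ))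
    (hBX : B ⊆ X) (hBj : B.card = j) (hbad : ¬ goodp p X B) :
    ∃ r ∈ Finset.Icc 1 j, ∃ x ∈ circF X r, ∃ C' ∈ X.powersetCard (j - r),
      B = Finset.univ.image (fun t : Fin r => x t.succ) ∪ C' := by
  -- a dependent set
  obtain ⟨xs, C0, hC0X, hC0B, hC0c, hC0d⟩ : ∃ (xs : Fin N → ℤ) (C0 : Finset (Fin N → ℤ)),
      C0 ⊆ X ∧ C0 ⊆ insert xs B ∧ C0.card ≤ j + 1 ∧ ¬ indp p C0 := by
    by_cases hB : indp p B
    · have : ∃ x ∈ X, xi (ZMod p) x ∈
          Submodule.span (ZMod p) ((xi (ZMod p)) '' (B : Set (Fin N → ℤ))) ∧ x ∉ B := by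
        by_contra hcon
        push Not at hcon
        exact hbad ⟨hB, hcon⟩
      obtain ⟨x, hxX, hxs, hxB⟩ := this
      refine ⟨x, insert x B, ?_, subset_rfl, ?_, ?_⟩
      · exact Finset.insert_subset hxX hBX
      · rw [Finset.card_insert_of_notMem hxB, hBj]
      · intro hli
        have h1 := LinearIndependent.notMem_span_image hli
          (s := {y : (insert x B : Finset (Fin N → ℤ)) | (y : Fin N → ℤ) ∈ B})
          (x := ⟨x, Finset.mem_insert_self x B⟩) (by simpa using hxB)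
        apply h1
        have e : (fun y : (insert x B : Finset (Fin N → ℤ)) => xi (ZMod p) (y : Fin N → ℤ)) ''
            {y | (y : Fin N → ℤ) ∈ B} = (xi (ZMod p)) '' (B : Set (Fin N → ℤ)) := by
          ext w
          constructor
          · rintro ⟨y, hy, rfl⟩
            exact ⟨y, hy, rfl⟩
          · rintro ⟨y, hy, rfl⟩
            exact ⟨⟨y, Finset.mem_insert_of_mem hy⟩, hy, rfl⟩
        rw [e]
        exact hxs
    · exact ⟨0, B, hBX, Finset.subset_insert _ _, by omega, hB⟩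
  have hK : 1 ≤ (N + 1) * R ^ 2 := Nat.mul_pos (Nat.succ_pos N) (pow_pos hR1 2)
  have hdep := dep_lift p C0 R hR1 (fun x hx => hX x (hC0X hx)) (lt_of_le_of_lt
    (Nat.mul_le_mul (Nat.factorial_le hC0c) (Nat.pow_le_pow_right hK hC0c)) hp) hC0d
  obtain ⟨C, hCC0, hCne, b, hb, hq, h0, hi⟩ := exists_prim_rel C0 hdep
  -- distinguished element
  obtain ⟨x0, hx0, hx0B⟩ : ∃ x0 ∈ C, C.erase x0 ⊆ B := by
    by_cases hxs : xs ∈ C
    · refine ⟨xs, hxs, fun y hy => ?_⟩
      have h1 := hC0B (hCC0 (Finset.mem_of_mem_erase hy))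
      rcases Finset.mem_insert.1 h1 with h2 | h2
      · exact absurd h2 (Finset.ne_of_mem_erase hy)
      · exact h2
    · obtain ⟨x0, hx0⟩ := hCne
      refine ⟨x0, hx0, fun y hy => ?_⟩
      have hyC := Finset.mem_of_mem_erase hy
      rcases Finset.mem_insert.1 (hC0B (hCC0 hyC)) with h2 | h2
      · exact absurd (h2 ▸ hyC) hxs
      · exact h2
  have hr1 : 1 ≤ (C.erase x0).card := by
    by_contra hcon
    have hc : (C.erase x0).card = 0 := by omega
    have he : C.erase x0 = ∅ := Finset.card_eq_zero.1 hc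
    have h1 : ∑ x ∈ C, b x = b x0 := by
      rw [← Finset.add_sum_erase C b hx0, he, Finset.sum_empty, add_zero]
    rw [h0] at h1
    exact hb x0 hx0 h1.symm
  obtain ⟨x, hx, himg⟩ := circ_enum X C (hCC0.trans hC0X) b hb hq h0 hi x0 hx0 _ rfl
  have hrj : (C.erase x0).card ≤ j := by
    rw [← hBj]; exact Finset.card_le_card hx0B
  refine ⟨(C.erase x0).card, Finset.mem_Icc.2 ⟨hr1, hrj⟩, x, hx, B \ C.erase x0, ?_, ?_⟩
  · rw [Finset.mem_powersetCard]
    refine ⟨(Finset.sdiff_subset).trans hBX, ?_⟩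
    rw [Finset.card_sdiff_of_subset hx0B, hBj]
  · rw [himg, Finset.union_sdiff_of_subset hx0B]

/-- Task CVB-7.  PROOF: let `B ⊆ X`, `|B| = j`, not good.  Either `ξ_B` is dependent over `F_p`
(put `C0 = B`), or some `x ∈ X \ B` has `ξ_x ∈ span ξ_B` (put `C0 = B ∪ {x}`, dependent over
`F_p`).  `|C0| ≤ j+1`, so by `dep_lift` (monotonicity of `k! K^k`) `C0` is dependent over `ℚ` and
`exists_prim_rel` gives `C ⊆ C0` with a primitive relation `b`, all coefficients non zero; since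
`∑ b = 0`, `|C| ≥ 2`; `|C| = r+1`.  Enumerate `C` by `Fin (r+1)` with `x_0 := x` if `x ∈ C` (any
element otherwise), so that `x_1, …, x_r ∈ B`; hence `r ≤ j`, `r ≥ 1`, `(x_t) ∈ circF X r`
and `B = {x_1,…,x_r} ∪ C'` with `C' = B \ {x_1..x_r} ∈ powersetCard (j-r) X`.  So the bad sets are
contained in the union over `r ∈ Icc 1 j` of the image of `circF X r ×ˢ powersetCard (j-r) X`
under `(x, C') ↦ image (x ∘ Fin.succ) univ ∪ C'`; take cardinalities. -/
theorem bad_card (p : ℕ) [Fact p.Prime] {N : ℕ} (X : Finset (Fin N → ℤ)) (R : ℕ) (hR1 : 1 ≤ R)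
    (hX : ∀ x ∈ X, ∀ i, |x i| ≤ (R : ℤ)) (j : ℕ)
    (hp : (j + 1).factorial * ((N + 1) * R ^ 2) ^ (j + 1) < p) :
    ((X.powersetCard j).filter (fun B => ¬ goodp p X B)).card ≤
      ∑ r ∈ Finset.Icc 1 j, (circF X r).card * (X.card).choose (j - r) := by
  have hsub : (X.powersetCard j).filter (fun B => ¬ goodp p X B) ⊆
      (Finset.Icc 1 j).biUnion fun r =>
        (circF X r ×ˢ X.powersetCard (j - r)).image
          (fun q => Finset.univ.image (fun t : Fin r => q.1 t.succ) ∪ q.2) := by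
    intro B hB
    obtain ⟨hB1, hB2⟩ := Finset.mem_filter.1 hB
    obtain ⟨hBX, hBj⟩ := Finset.mem_powersetCard.1 hB1
    obtain ⟨r, hr, x, hx, C', hC', e⟩ := bad_cover p X R hR1 hX j hp B hBX hBj hB2
    rw [Finset.mem_biUnion]
    exact ⟨r, hr, Finset.mem_image.2 ⟨(x, C'), Finset.mem_product.2 ⟨hx, hC'⟩, e.symm⟩⟩
  refine (Finset.card_le_card hsub).trans (Finset.card_biUnion_le.trans
    (Finset.sum_le_sum fun r _ => Finset.card_image_le.trans ?_))
  rw [Finset.card_product, Finset.card_powersetCard]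

end Crest.Agent.CVB
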