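import Crest.Agent.CVB_Defs

/-! # CVB-4: alternating binomial sums -/

set_option autoImplicit false

namespace Crest.Agent.CVB

private noncomputable def cvbS (x : ℝ) (l n : ℕ) : ℝ :=
  ∑ j ∈ Finset.range (l + 1), (-1) ^ j * ((n.choose j : ℕ) : ℝ) * x ^ j

private lemma cvbS_zero (x : ℝ) (n : ℕ) : cvbS x 0 n = 1 := by
  simp [cvbS]

private lemma cvbS_succ (x : ℝ) (l n : ℕ) :
    cvbS x (l + 1) (n + 1) = cvbS x (l + 1) n - x * cvbS x l n := by
  induction l with
  | zero =>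
    simp only [cvbS, Finset.sum_range_succ, Finset.sum_range_zero]
    simp
    ring
  | succ l ih =>
    have e1 : cvbS x (l + 1 + 1) (n + 1) = cvbS x (l + 1) (n + 1) +
        (-1) ^ (l + 2) * (((n + 1).choose (l + 2) : ℕ) : ℝ) * x ^ (l + 2) := by
      unfold cvbS
      rw [Finset.sum_range_succ]
    have e2 : cvbS x (l + 1 + 1) n = cvbS x (l + 1) n +
        (-1) ^ (l + 2) * ((n.choose (l + 2) : ℕ) : ℝ) * x ^ (l + 2) := by
      unfold cvbS
      rw [Finset.sum_range_succ]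
    have e3 : cvbS x (l + 1) n = cvbS x l n +
        (-1) ^ (l + 1) * ((n.choose (l + 1) : ℕ) : ℝ) * x ^ (l + 1) := by
      unfold cvbS
      rw [Finset.sum_range_succ]
    rw [e1, ih, e2, Nat.choose_succ_succ n (l + 1)]
    push_cast
    rw [show x * cvbS x (l + 1) n = x * (cvbS x l n +
        (-1) ^ (l + 1) * ((n.choose (l + 1) : ℕ) : ℝ) * x ^ (l + 1)) by rw [← e3]]
    ring

private lemma cvbR (x : ℝ) (hx0 : 0 ≤ x) (hx1 : x ≤ 1) (n : ℕ) : ∀ l : ℕ,
    0 ≤ (-1) ^ l * (cvbS x l n - (1 - x) ^ n) ∧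
    (-1) ^ l * (cvbS x l n - (1 - x) ^ n) ≤ ((n.choose (l + 1) : ℕ) : ℝ) * x ^ (l + 1) := by
  induction n with
  | zero =>
    intro l
    have h : cvbS x l 0 = 1 := by
      unfold cvbS
      rw [Finset.sum_range_succ']
      simp
    rw [h]
    simp
  | succ n ih =>
    intro l
    cases l with
    | zero =>
      have h0 := ih 0
      rw [cvbS_zero] at h0 ⊢
      have h1 : 0 ≤ (1 - x) ^ n := pow_nonneg (by linarith) n
      have h2 : (1 - x) ^ n ≤ 1 := pow_le_one₀ (by linarith) (by linarith)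
      have h3 : x * (1 - x) ^ n ≤ x * 1 := mul_le_mul_of_nonneg_left h2 hx0
      have h4 : 0 ≤ x * (1 - x) ^ n := mul_nonneg hx0 h1
      simp only [pow_zero, one_mul, zero_add, Nat.choose_one_right, pow_succ,
        Nat.cast_add, Nat.cast_one] at h0 ⊢
      constructor
      · nlinarith [h0.1]
      · nlinarith [h0.2]
    | succ l =>
      have h0 := ih (l + 1)
      have h1 := ih l
      have e : (-1 : ℝ) ^ (l + 1) * (cvbS x (l + 1) (n + 1) - (1 - x) ^ (n + 1)) =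
          (-1) ^ (l + 1) * (cvbS x (l + 1) n - (1 - x) ^ n) +
            x * ((-1) ^ l * (cvbS x l n - (1 - x) ^ n)) := by
        rw [cvbS_succ]
        ring
      rw [e]
      constructor
      · exact add_nonneg h0.1 (mul_nonneg hx0 h1.1)
      · have h2 := mul_le_mul_of_nonneg_left h1.2 hx0
        have h3 : (((n + 1).choose (l + 1 + 1) : ℕ) : ℝ) * x ^ (l + 1 + 1) =
            ((n.choose (l + 1 + 1) : ℕ) : ℝ) * x ^ (l + 1 + 1) +
              x * (((n.choose (l + 1) : ℕ) : ℝ) * x ^ (l + 1)) := by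
          rw [Nat.choose_succ_succ n (l + 1)]
          push_cast
          ring
        rw [h3]
        exact add_le_add h0.2 h2

/-- Task CVB-4.  PROOF: let `R_l(n) = Σ_{j≤l} (-1)^j C(n,j) x^j - (1-x)^n`.  By induction on `n`
(all `l`): `0 ≤ (-1)^l R_l(n) ≤ C(n,l+1) x^(l+1)`, from `R_l(n+1) = R_l(n) - x R_{l-1}(n)`
(Pascal) and `R_0(n) = 1-(1-x)^n ∈ [0, n x]`.  Then `(1-x)^n ≤ exp(-(n x))` and
`C(n,l+1) ≤ n^(l+1)/(l+1)!` (`Nat.choose_le_pow_div`). -/
theorem alt_binom (n l : ℕ) (hl : Even l) (x : ℝ) (hx0 : 0 ≤ x) (hx1 : x ≤ 1) :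
    ∑ j ∈ Finset.range (l + 1), (-1) ^ j * ((n.choose j : ℕ) : ℝ) * x ^ j ≤
      Real.exp (-(n * x)) + (n * x) ^ (l + 1) / ((l + 1).factorial : ℝ) := by
  have h := (cvbR x hx0 hx1 n l).2
  rw [hl.neg_one_pow, one_mul] at h
  have h1 : (1 - x) ^ n ≤ Real.exp (-(n * x)) := by
    have h2 : 1 - x ≤ Real.exp (-x) := by
      have := Real.add_one_le_exp (-x)
      linarith
    calc (1 - x) ^ n ≤ (Real.exp (-x)) ^ n := pow_le_pow_left₀ (by linarith) h2 n
      _ = Real.exp (-(n * x)) := by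
        rw [← Real.exp_nat_mul]
        congr 1
        ring
  have h3 : ((n.choose (l + 1) : ℕ) : ℝ) * x ^ (l + 1) ≤
      (n * x) ^ (l + 1) / ((l + 1).factorial : ℝ) := by
    have h4 : ((n.choose (l + 1) : ℕ) : ℝ) ≤ (n : ℝ) ^ (l + 1) / ((l + 1).factorial : ℝ) :=
      Nat.choose_le_pow_div (l + 1) n
    have h5 := mul_le_mul_of_nonneg_right h4 (pow_nonneg hx0 (l + 1))
    refine h5.trans (le_of_eq ?_)
    rw [mul_pow]
    ring
  have h6 : ∑ j ∈ Finset.range (l + 1), (-1) ^ j * ((n.choose j : ℕ) : ℝ) * x ^ j =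
      cvbS x l n := rfl
  rw [h6]
  linarith

end Crest.Agent.CVB
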