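import Crest.Agent.CVB_Defs

/-! # CVB-12: uniqueness of primitive relations -/

set_option autoImplicit false
open Classical

namespace Crest.Agent.CVB

private theorem prim_gcd {k : ℕ} (b : Fin k → ℤ) (hb : Prim b) :
    IsUnit ((Finset.univ : Finset (Fin k)).gcd b) := by
  rw [Int.isUnit_iff_natAbs_eq]
  by_contra hne
  obtain ⟨q, hq, hqd⟩ := Nat.exists_prime_and_dvd hne
  obtain ⟨t, ht⟩ := hb.2 q hq
  apply ht
  have h1 : (q : ℤ) ∣ (Finset.univ : Finset (Fin k)).gcd b := Int.natCast_dvd.mpr hqd
  exact h1.trans (Finset.gcd_dvd (Finset.mem_univ t))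

/-- Task CVB-12.  Uniqueness of the primitive relation when the first halves of `x_1, …, x_r` are independent.
PROOF: `b 0 • b' - b' 0 • b` is a relation on `S` with zero `0`-th coefficient, so its other
coefficients form a relation of `(x_1..x_r)` and vanish (`IndS`): `b 0 * b' t = b' 0 * b t` for
all `t`.  Primitivity of both gives `b' = b` or `b' = -b` (write `b 0 = g b₀`, `b' 0 = g b₀'` with
`b₀, b₀'` coprime; `b₀ ∣ b t` for all `t` so `b₀ = ±1`, same for `b₀'`). -/
theorem prim_unique {N r : ℕ} (S : Finset (Fin N)) (x : Fin (r + 1) → Fin N → ℤ)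
    (hx : IndS S (fun t : Fin r => x t.succ)) (b b' : Fin (r + 1) → ℤ)
    (hb : Prim b) (hb' : Prim b') (h : Rel S b x) (h' : Rel S b' x) : b' = b ∨ b' = -b := by
  have key : ∀ t, b 0 * b' t = b' 0 * b t := by
    have hc : (fun t : Fin r => b 0 * b' t.succ - b' 0 * b t.succ) = 0 := by
      apply hx
      constructor
      · have h1 := h.1
        have h2 := h'.1
        rw [Fin.sum_univ_succ] at h1 h2
        rw [Finset.sum_sub_distrib, ← Finset.mul_sum, ← Finset.mul_sum]
        have e1 : ∑ i : Fin r, b i.succ = - b 0 := by linarith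
        have e2 : ∑ i : Fin r, b' i.succ = - b' 0 := by linarith
        rw [e1, e2]; ring
      · intro i hi
        have h1 := h.2 i hi
        have h2 := h'.2 i hi
        rw [Fin.sum_univ_succ] at h1 h2
        have e : ∀ t : Fin r, (b 0 * b' t.succ - b' 0 * b t.succ) * x t.succ i =
            b 0 * (b' t.succ * x t.succ i) - b' 0 * (b t.succ * x t.succ i) := fun t => by ring
        simp only [e]
        rw [Finset.sum_sub_distrib, ← Finset.mul_sum, ← Finset.mul_sum]
        have e1 : ∑ t : Fin r, b t.succ * x t.succ i = - (b 0 * x 0 i) := by linarith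
        have e2 : ∑ t : Fin r, b' t.succ * x t.succ i = - (b' 0 * x 0 i) := by linarith
        rw [e1, e2]; ring
    intro t
    refine Fin.cases ?_ (fun t => ?_) t
    · ring
    · have := congrFun hc t
      simp only [Pi.zero_apply] at this
      linarith
  have hu := prim_gcd b hb
  have hu' := prim_gcd b' hb'
  have hgcd : (Finset.univ : Finset (Fin (r+1))).gcd (fun t => b 0 * b' t) =
      (Finset.univ : Finset (Fin (r+1))).gcd (fun t => b' 0 * b t) := by
    congr 1
    funext t; exact key t
  rw [Finset.gcd_mul_left, Finset.gcd_mul_left] at hgcd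
  have hass : Associated (b 0) (b' 0) := by
    have a1 : Associated (b 0) (normalize (b 0) * (Finset.univ : Finset (Fin (r+1))).gcd b') :=
      (associated_mul_unit_right _ _ hu').trans ((normalize_associated (b 0)).symm.mul_right _) 
    have a2 : Associated (b' 0) (normalize (b' 0) * (Finset.univ : Finset (Fin (r+1))).gcd b) :=
      (associated_mul_unit_right _ _ hu).trans ((normalize_associated (b' 0)).symm.mul_right _) 
    rw [hgcd] at a1
    exact a1.trans a2.symm
  rcases Int.associated_iff.mp hass with he | he
  · left
    funext t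
    have := key t
    rw [← he] at this
    exact mul_left_cancel₀ (hb.1 0) this
  · right
    funext t
    have := key t
    rw [he] at this
    have h0 := hb'.1 0
    have : b' 0 * (b' t) = b' 0 * (- b t) := by linarith
    exact mul_left_cancel₀ h0 this

end Crest.Agent.CVB
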