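import Crest.Agent.CVB_Flip
import Crest.Agent.CVB_Span
import Crest.Agent.CVB_PrimU

/-! # CVB-13: relations with a coefficient of absolute value at least two -/

set_option autoImplicit false
open Classical

namespace Crest.Agent.CVB

private noncomputable def b13_res {N : ℕ} (S : Finset (Fin N)) (x : Fin N → ℤ) : Fin N → ℤ :=
  fun i => if i ∈ S then x i else 0

private theorem b13_flip_res {N : ℕ} (S E : Finset (Fin N)) (hE : E ⊆ Sᶜ) (x : Fin N → ℤ) {i : Fin N}
    (hi : i ∈ S) : flipE E x i = x i := by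
  unfold flipE
  rw [if_neg]
  intro h
  exact (Finset.mem_compl.1 (hE h)) hi

private theorem b13_data {N r : ℕ} (S : Finset (Fin N)) (κ : Fin (r + 1) → Fin N → ℤ) :
    ∃ d : (Fin (r + 1) → ℤ) × Fin (r + 1) × ℕ × Fin (r + 1),
      (∃ b : Fin (r + 1) → ℤ, Prim b ∧ Rel S b κ ∧ ∃ t, 2 ≤ |b t|) →
        (Prim d.1 ∧ Rel S d.1 κ ∧ 2 ≤ |d.1 d.2.1| ∧ d.2.2.1.Prime ∧
          ((d.2.2.1 : ℕ) : ℤ) ∣ d.1 d.2.1 ∧ ¬ ((d.2.2.1 : ℕ) : ℤ) ∣ d.1 d.2.2.2) := by
  by_cases h : ∃ b : Fin (r + 1) → ℤ, Prim b ∧ Rel S b κ ∧ ∃ t, 2 ≤ |b t|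
  · obtain ⟨b, hb, hrel, t, ht⟩ := h
    have h1 : (b t).natAbs ≠ 1 := by
      intro h1
      have : |b t| = 1 := by rw [Int.abs_eq_natAbs, h1]; rfl
      omega
    obtain ⟨q, hq, hqd⟩ := Nat.exists_prime_and_dvd h1
    obtain ⟨s, hs⟩ := hb.2 q hq
    exact ⟨(b, t, q, s), fun _ => ⟨hb, hrel, ht, hq, Int.natCast_dvd.2 hqd, hs⟩⟩
  · exact ⟨(0, 0, 0, 0), fun h' => absurd h' h⟩

private noncomputable def b13_Z {N r : ℕ} (S : Finset (Fin N)) (R : ℕ) (y : Fin r → Fin N → ℤ) :
    Finset (Fin N → ℤ) :=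
  (Fintype.piFinset (fun _ : Fin N => Finset.Icc (-(R : ℤ)) R)).filter
    (fun z => (∀ i ∉ S, z i = 0) ∧ ∃ (c : ℤ) (b : Fin r → ℤ), c ≠ 0 ∧ c + ∑ t, b t = 0 ∧
      ∀ i ∈ S, c * z i + ∑ t, b t * y t i = 0)

private theorem b13_Z_card {N r : ℕ} (S : Finset (Fin N)) (R : ℕ) (hR1 : 1 ≤ R)
    (y : Fin r → Fin N → ℤ) : (b13_Z S R y).card ≤ (2 * R + 1) ^ r := by
  refine dep_count S y R hR1 (b13_Z S R y) ?_ ?_ ?_
  · intro z hz i
    have h := Fintype.mem_piFinset.1 (Finset.mem_filter.1 hz).1 i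
    rw [Finset.mem_Icc] at h
    exact abs_le.2 h
  · intro z hz
    exact (Finset.mem_filter.1 hz).2.1
  · intro z hz
    exact (Finset.mem_filter.1 hz).2.2

private theorem b13_main {N : ℕ} (X : Finset (Fin N → ℤ)) (hX : Cube4 X) (R : ℕ) (hR1 : 1 ≤ R)
    (hXR : ∀ x ∈ X, ∀ i, |x i| ≤ (R : ℤ)) (S : Finset (Fin N)) (r : ℕ)
    (d : (Fin (r + 1) → Fin N → ℤ) → (Fin (r + 1) → ℤ) × Fin (r + 1) × ℕ × Fin (r + 1))
    (hd : ∀ κ : Fin (r + 1) → Fin N → ℤ,
      (∃ b : Fin (r + 1) → ℤ, Prim b ∧ Rel S b κ ∧ ∃ t, 2 ≤ |b t|) →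
        (Prim (d κ).1 ∧ Rel S (d κ).1 κ ∧ 2 ≤ |(d κ).1 (d κ).2.1| ∧ (d κ).2.2.1.Prime ∧
          (((d κ).2.2.1 : ℕ) : ℤ) ∣ (d κ).1 (d κ).2.1 ∧
            ¬ (((d κ).2.2.1 : ℕ) : ℤ) ∣ (d κ).1 (d κ).2.2.2))
    (t0 : Fin (r + 1)) :
    (((Fintype.piFinset (fun _ : Fin (r + 1) => X)).filter
      (fun x => IndS S (fun t : Fin r => x t.succ) ∧
        ∃ b : Fin (r + 1) → ℤ, Prim b ∧ Rel Finset.univ b x ∧ ∃ t, 2 ≤ |b t|)).filter
          (fun x => (d (fun t => b13_res S (x t))).2.1 = t0)).card * 2 ^ (Sᶜ).card ≤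
      (2 * R + 1) ^ r * X.card ^ r := by
  set P := ((Fintype.piFinset (fun _ : Fin (r + 1) => X)).filter
      (fun x => IndS S (fun t : Fin r => x t.succ) ∧
        ∃ b : Fin (r + 1) → ℤ, Prim b ∧ Rel Finset.univ b x ∧ ∃ t, 2 ≤ |b t|)).filter
          (fun x => (d (fun t => b13_res S (x t))).2.1 = t0) with hP
  set κ : (Fin (r + 1) → Fin N → ℤ) → (Fin (r + 1) → Fin N → ℤ) :=
    fun x t => b13_res S (x t) with hκ
  -- properties of members of P
  have hmem : ∀ x ∈ P, (∀ t, x t ∈ X) ∧ (d (κ x)).2.1 = t0 ∧ Rel Finset.univ (d (κ x)).1 x ∧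
      (d (κ x)).1 t0 ≠ 0 ∧ (d (κ x)).2.2.1.Prime ∧ (((d (κ x)).2.2.1 : ℕ) : ℤ) ∣ (d (κ x)).1 t0 ∧
      ¬ (((d (κ x)).2.2.1 : ℕ) : ℤ) ∣ (d (κ x)).1 (d (κ x)).2.2.2 := by
    intro x hx
    obtain ⟨hx1, hx2⟩ := Finset.mem_filter.1 hx
    obtain ⟨hx3, hx4, b, hb, hrel, t, ht⟩ := Finset.mem_filter.1 hx1
    have hxX : ∀ t, x t ∈ X := Fintype.mem_piFinset.1 hx3
    have hrelκ : Rel S b (κ x) := by
      refine ⟨hrel.1, fun i hi => ?_⟩
      rw [← hrel.2 i (Finset.mem_univ i)]
      refine Finset.sum_congr rfl (fun u _ => ?_)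
      simp only [hκ, b13_res, if_pos hi]
    obtain ⟨h1, h2, h3, h4, h5, h6⟩ := hd (κ x) ⟨b, hb, hrelκ, t, ht⟩
    have hrelS : Rel S (d (κ x)).1 x := by
      refine ⟨h2.1, fun i hi => ?_⟩
      rw [← h2.2 i hi]
      refine Finset.sum_congr rfl (fun u _ => ?_)
      simp only [hκ, b13_res, if_pos hi]
    have hrelb : Rel S b x := ⟨hrel.1, fun i _ => hrel.2 i (Finset.mem_univ i)⟩
    have hrelU : Rel Finset.univ (d (κ x)).1 x := by
      rcases prim_unique S x hx4 b (d (κ x)).1 hb h1 hrelb hrelS with h | h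
      · rw [h]; exact hrel
      · rw [h]
        refine ⟨?_, fun i hi => ?_⟩
        · simp only [Pi.neg_apply, Finset.sum_neg_distrib, hrel.1, neg_zero]
        · simp only [Pi.neg_apply, neg_mul, Finset.sum_neg_distrib, hrel.2 i hi, neg_zero]
    have hx2' : (d (κ x)).2.1 = t0 := hx2
    rw [hx2'] at h3 h5
    refine ⟨hxX, hx2', hrelU, ?_, h4, h5, h6⟩
    intro h0
    rw [h0] at h3
    norm_num at h3
  -- the map
  let ψ : (Fin (r + 1) → Fin N → ℤ) × Finset (Fin N) →
      (Σ _ : (Fin r → Fin N → ℤ), (Fin N → ℤ)) := fun xE =>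
    ⟨fun u => if t0.succAbove u = (d (κ xE.1)).2.2.2 then flipE xE.2 (xE.1 (t0.succAbove u))
      else xE.1 (t0.succAbove u), κ xE.1 t0⟩
  set D : Finset (Σ _ : (Fin r → Fin N → ℤ), (Fin N → ℤ)) :=
    (Fintype.piFinset (fun _ : Fin r => X)).sigma (fun y => b13_Z S R y) with hD
  have hmaps : ∀ xE ∈ P ×ˢ (Sᶜ).powerset, ψ xE ∈ D := by
    rintro ⟨x, E⟩ hxE
    obtain ⟨hx, hE⟩ := Finset.mem_product.1 hxE
    have hE' : E ⊆ Sᶜ := Finset.mem_powerset.1 hE
    obtain ⟨hxX, ht0, hrel, hne, hq, hqd, hqs⟩ := hmem x hx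
    rw [hD, Finset.mem_sigma]
    refine ⟨?_, ?_⟩
    · rw [Fintype.mem_piFinset]
      intro u
      simp only [ψ]
      split_ifs
      · exact flipE_mem hX (hxX _) E
      · exact hxX _
    · simp only [ψ, b13_Z]
      rw [Finset.mem_filter, Fintype.mem_piFinset]
      refine ⟨fun i => ?_, fun i hi => ?_, (d (κ x)).1 t0,
        fun u => (d (κ x)).1 (t0.succAbove u), hne, ?_, fun i hi => ?_⟩
      · rw [Finset.mem_Icc]
        simp only [hκ, b13_res]
        split_ifs
        · exact abs_le.1 (hXR _ (hxX t0) i)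
        · constructor <;> omega
      · simp only [hκ, b13_res, if_neg hi]
      · have h1 := hrel.1
        rw [Fin.sum_univ_succAbove _ t0] at h1
        exact h1
      · have h1 := hrel.2 i (Finset.mem_univ i)
        rw [Fin.sum_univ_succAbove _ t0] at h1
        have h2 : κ x t0 i = x t0 i := by simp only [hκ, b13_res, if_pos hi]
        rw [h2, ← h1]
        congr 1
        refine Finset.sum_congr rfl (fun u _ => ?_)
        congr 1
        split_ifs
        · exact b13_flip_res S E hE' _ hi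
        · rfl
  have hinj : Set.InjOn ψ ((P ×ˢ (Sᶜ).powerset : Finset _) : Set _) := by
    rintro ⟨x, E⟩ hxE ⟨x', E'⟩ hxE' heq
    rw [Finset.mem_coe] at hxE hxE'
    obtain ⟨hx, hE⟩ := Finset.mem_product.1 hxE
    obtain ⟨hx', hE'⟩ := Finset.mem_product.1 hxE'
    have hEs : E ⊆ Sᶜ := Finset.mem_powerset.1 hE
    have hEs' : E' ⊆ Sᶜ := Finset.mem_powerset.1 hE'
    obtain ⟨hxX, ht0, hrel, hne, hq, hqd, hqs⟩ := hmem x hx
    obtain ⟨hxX', ht0', hrel', hne', hq', hqd', hqs'⟩ := hmem x' hx'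
    simp only [ψ, Sigma.mk.injEq, heq_eq_eq] at heq
    obtain ⟨hy, hz⟩ := heq
    have hyu : ∀ u : Fin r, (if t0.succAbove u = (d (κ x)).2.2.2 then flipE E (x (t0.succAbove u))
      else x (t0.succAbove u)) = (if t0.succAbove u = (d (κ x')).2.2.2 then
        flipE E' (x' (t0.succAbove u)) else x' (t0.succAbove u)) := fun u => congrFun hy u
    have hκeq : κ x = κ x' := by
      funext t
      rcases Fin.eq_self_or_eq_succAbove t0 t with h | ⟨u, h⟩
      · rw [h]; exact hz
      · rw [h]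
        funext i
        by_cases hi : i ∈ S
        · have h1 := congrFun (hyu u) i
          have h2 : (if t0.succAbove u = (d (κ x)).2.2.2 then flipE E (x (t0.succAbove u))
              else x (t0.succAbove u)) i = x (t0.succAbove u) i := by
            split_ifs
            · exact b13_flip_res S E hEs _ hi
            · rfl
          have h3 : (if t0.succAbove u = (d (κ x')).2.2.2 then flipE E' (x' (t0.succAbove u))
              else x' (t0.succAbove u)) i = x' (t0.succAbove u) i := by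
            split_ifs
            · exact b13_flip_res S E' hEs' _ hi
            · rfl
          rw [h2, h3] at h1
          simp only [hκ, b13_res, if_pos hi]
          exact h1
        · simp only [hκ, b13_res, if_neg hi]
    rw [← hκeq] at hyu hrel'
    set β := (d (κ x)).1 with hβ
    set q := (d (κ x)).2.2.1 with hqdef
    set s := (d (κ x)).2.2.2 with hsdef
    have hst : s ≠ t0 := by
      intro h
      rw [h] at hqs
      exact hqs hqd
    obtain ⟨us, hus⟩ := Fin.exists_succAbove_eq hst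
    have hother : ∀ t, t ≠ t0 → t ≠ s → x t = x' t := by
      intro t h1 h2
      obtain ⟨u, hu⟩ := Fin.exists_succAbove_eq h1
      have h3 := hyu u
      rw [hu, if_neg h2, if_neg h2] at h3
      exact h3
    have hsflip : flipE E (x s) = flipE E' (x' s) := by
      have h3 := hyu us
      rw [hus, if_pos rfl, if_pos rfl] at h3
      exact h3
    have hsub : ∀ i, β t0 * (x t0 i - x' t0 i) + β s * (x s i - x' s i) = 0 := by
      intro i
      have h1 := hrel.2 i (Finset.mem_univ i)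
      have h2 := hrel'.2 i (Finset.mem_univ i)
      have h3 : ∑ t, β t * (x t i - x' t i) = 0 := by
        have : ∑ t, β t * (x t i - x' t i) = ∑ t, β t * x t i - ∑ t, β t * x' t i := by
          rw [← Finset.sum_sub_distrib]
          exact Finset.sum_congr rfl (fun t _ => by ring)
        rw [this, h1, h2, sub_zero]
      rw [← h3, ← Finset.sum_subset (Finset.subset_univ ({t0, s} : Finset (Fin (r + 1)))),
        Finset.sum_pair hst.symm]
      intro t _ ht
      rw [Finset.mem_insert, Finset.mem_singleton, not_or] at ht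
      rw [hother t ht.1 ht.2, sub_self, mul_zero]
    have hdvd : ∀ i, (q : ℤ) ∣ x s i - x' s i := by
      intro i
      have h1 : (q : ℤ) ∣ β s * (x s i - x' s i) := by
        have h2 := hsub i
        have h3 : β s * (x s i - x' s i) = -(β t0 * (x t0 i - x' t0 i)) := by linarith
        rw [h3]
        exact (Dvd.dvd.mul_right hqd _).neg_right
      rcases (Nat.prime_iff_prime_int.1 hq).dvd_or_dvd h1 with h4 | h4
      · exact absurd h4 hqs
      · exact h4
    obtain ⟨hxs, hEE⟩ := flipE_inj q hq.two_le hdvd hsflip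
    have hxt0 : x t0 = x' t0 := by
      funext i
      have h2 := hsub i
      rw [hxs, sub_self, mul_zero, add_zero] at h2
      rcases mul_eq_zero.1 h2 with h3 | h3
      · exact absurd h3 hne
      · linarith
    have hxx : x = x' := by
      funext t
      by_cases h1 : t = t0
      · rw [h1]; exact hxt0
      · by_cases h2 : t = s
        · rw [h2]; exact hxs
        · exact hother t h1 h2
    rw [hxx, hEE]
  have hcard := Finset.card_le_card_of_injOn ψ hmaps hinj
  rw [Finset.card_product, Finset.card_powerset] at hcard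
  refine hcard.trans ?_
  rw [hD, Finset.card_sigma]
  calc ∑ y ∈ Fintype.piFinset (fun _ : Fin r => X), (b13_Z S R y).card
      ≤ ∑ _y ∈ Fintype.piFinset (fun _ : Fin r => X), (2 * R + 1) ^ r :=
        Finset.sum_le_sum (fun y _ => b13_Z_card S R hR1 y)
    _ = (2 * R + 1) ^ r * X.card ^ r := by
        rw [Finset.sum_const, Fintype.card_piFinset, Finset.prod_const, Finset.card_univ,
          Fintype.card_fin, smul_eq_mul, mul_comm]

/-- Task CVB-13.  PROOF: let `x'_t` be `x_t` restricted to `S` (zero outside).  For a tuple `x` in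
the set the primitive relation `b` is determined up to sign by `(x'_t)_t` (`prim_unique`), so
choose (by choice, as functions of `(x'_t)_t` only) a primitive relation `β`, an index `t` with
`2 ≤ |β t|`, a prime `q ∣ β t` and an index `s` with `¬ q ∣ β s` (so `s ≠ t`).  For fixed `t0`
consider the tuples with `t = t0` and the map
`(x, E) ↦ (x'_{t0}, (x_u)_{u ≠ t0} with x_s replaced by flipE E x_s)`, `E ⊆ Sᶜ`.  It is injective:
the image determines all `x'_u` (flips act outside `S`), hence `β, q, s`; the relation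
`∑ β_u x_u = 0` (holding for all coordinates, as `b = ±β`) mod `q` determines `x_s` mod `q` from the
`x_u`, `u ≠ s, t0`, so `flipE_inj` gives `x_s` and `E`; finally `x_{t0}` is determined by the
relation since `β t0 ≠ 0`.  The image lies in the set of pairs `(z, (y_u)_{u≠t0})`, `y_u ∈ X`, `z`
zero outside `S`, `|z i| ≤ R`, with a relation `c z + ∑ b_u y_u = 0` on `S`, `c ≠ 0`, and this set
has at most `|X|^r (2R+1)^r` elements by `dep_count` (index `u ≠ t0` by `Fin r` through
`Fin.succAbove t0`).  Sum over the `r+1` values of `t0`. -/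
theorem beta_card {N : ℕ} (X : Finset (Fin N → ℤ)) (hX : Cube4 X) (R : ℕ) (hR1 : 1 ≤ R)
    (hXR : ∀ x ∈ X, ∀ i, |x i| ≤ (R : ℤ)) (S : Finset (Fin N)) (r : ℕ) :
    ((Fintype.piFinset (fun _ : Fin (r + 1) => X)).filter
      (fun x => IndS S (fun t : Fin r => x t.succ) ∧
        ∃ b : Fin (r + 1) → ℤ, Prim b ∧ Rel Finset.univ b x ∧ ∃ t, 2 ≤ |b t|)).card *
        2 ^ (Sᶜ).card ≤
      (r + 1) * (2 * R + 1) ^ r * X.card ^ r := by
  choose d hd using b13_data (N := N) (r := r) S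
  set P := (Fintype.piFinset (fun _ : Fin (r + 1) => X)).filter
      (fun x => IndS S (fun t : Fin r => x t.succ) ∧
        ∃ b : Fin (r + 1) → ℤ, Prim b ∧ Rel Finset.univ b x ∧ ∃ t, 2 ≤ |b t|) with hP
  have h1 : P.card = ∑ t0 : Fin (r + 1),
      (P.filter (fun x => (d (fun t => b13_res S (x t))).2.1 = t0)).card :=
    Finset.card_eq_sum_card_fiberwise (fun x _ => Finset.mem_coe.2 (Finset.mem_univ _))
  rw [h1, Finset.sum_mul]
  calc ∑ t0 : Fin (r + 1), (P.filter (fun x => (d (fun t => b13_res S (x t))).2.1 = t0)).card *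
        2 ^ (Sᶜ).card
      ≤ ∑ _t0 : Fin (r + 1), (2 * R + 1) ^ r * X.card ^ r :=
        Finset.sum_le_sum (fun t0 _ => b13_main X hX R hR1 hXR S r d hd t0)
    _ = (r + 1) * (2 * R + 1) ^ r * X.card ^ r := by
        rw [Finset.sum_const, Finset.card_univ, Fintype.card_fin, smul_eq_mul, mul_assoc]

end Crest.Agent.CVB
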