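import Crest.Agent.CVB_Defs

/-! # CVB-21: shifted additive quadruples -/

set_option autoImplicit false
open Classical

namespace Crest.Agent.CVB

/-- number of representations as a sum -/
private noncomputable def cvb21_r {G : Type} [AddCommGroup G] (X : Finset G) (s : G) : ℕ :=
  ((X ×ˢ X).filter (fun q => q.1 + q.2 = s)).card

private theorem cvb21_count {G : Type} [AddCommGroup G] (X : Finset G) (c : G) :
    (((X ×ˢ X) ×ˢ (X ×ˢ X)).filter (fun q => q.1.1 + q.1.2 = q.2.1 + q.2.2 + c)).card =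
      ∑ s ∈ (X ×ˢ X).image (fun q => q.1 + q.2), cvb21_r X s * cvb21_r X (s - c) := by
  rw [Finset.card_filter, Finset.sum_product]
  have h : ∀ x ∈ X ×ˢ X, (∑ y ∈ X ×ˢ X, if x.1 + x.2 = y.1 + y.2 + c then 1 else 0) =
      cvb21_r X ((x.1 + x.2) - c) := by
    intro x _
    rw [← Finset.card_filter]
    unfold cvb21_r
    congr 1
    refine Finset.filter_congr fun y _ => ?_
    rw [eq_sub_iff_add_eq]
    exact eq_comm
  rw [Finset.sum_congr rfl h,
    Finset.sum_comp (fun s => cvb21_r X (s - c)) (fun q : G × G => q.1 + q.2)]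
  rfl

/-- Task CVB-21.  PROOF: with `r(s) = #{(y₁,y₂) ∈ X² | y₁+y₂ = s}` the left side is `∑_s r(s) r(s-c) ≤ ∑ r(s)²`
(AM-GM and shift). -/
theorem en_shift {G : Type} [AddCommGroup G] (X : Finset G) (c : G) :
    (((X ×ˢ X) ×ˢ (X ×ˢ X)).filter (fun q => q.1.1 + q.1.2 = q.2.1 + q.2.2 + c)).card ≤ en X := by
  set S := (X ×ˢ X).image (fun q => q.1 + q.2) with hS
  have h0 : en X = ∑ s ∈ S, cvb21_r X s * cvb21_r X s := by
    have h := cvb21_count X 0
    simp only [add_zero, sub_zero] at h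
    exact h
  have h1 : ∑ s ∈ S, cvb21_r X (s - c) * cvb21_r X (s - c) ≤
      ∑ s ∈ S, cvb21_r X s * cvb21_r X s := by
    have e : ∑ s ∈ S.image (fun s => s - c), cvb21_r X s * cvb21_r X s =
        ∑ s ∈ S, cvb21_r X (s - c) * cvb21_r X (s - c) :=
      Finset.sum_image fun a _ b _ h => sub_left_injective h
    rw [← e, ← Finset.sum_filter_add_sum_filter_not (S.image (fun s => s - c)) (fun s => s ∈ S)]
    have z : ∑ s ∈ S.image (fun s => s - c) with ¬ s ∈ S, cvb21_r X s * cvb21_r X s = 0 := by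
      refine Finset.sum_eq_zero fun s hs => ?_
      have hs' := (Finset.mem_filter.1 hs).2
      have : cvb21_r X s = 0 := by
        unfold cvb21_r
        rw [Finset.card_eq_zero, Finset.filter_eq_empty_iff]
        intro q hq hqs
        exact hs' (Finset.mem_image.2 ⟨q, hq, hqs⟩)
      rw [this, zero_mul]
    rw [z, add_zero]
    refine Finset.sum_le_sum_of_subset fun s hs => (Finset.mem_filter.1 hs).2
  rw [cvb21_count, h0, ← hS]
  have h2 : 2 * ∑ s ∈ S, cvb21_r X s * cvb21_r X (s - c) ≤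
      ∑ s ∈ S, cvb21_r X s * cvb21_r X s + ∑ s ∈ S, cvb21_r X (s - c) * cvb21_r X (s - c) := by
    rw [Finset.mul_sum, ← Finset.sum_add_distrib]
    refine Finset.sum_le_sum fun s _ => ?_
    have := two_mul_le_add_sq (cvb21_r X s) (cvb21_r X (s - c))
    nlinarith
  omega

end Crest.Agent.CVB
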