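import Crest.Agent.CVB_EPi
import Crest.Agent.CVB_EShift

/-! # CVB-22: relations with all coefficients `±1` -/

set_option autoImplicit false
open Classical

namespace Crest.Agent.CVB

private theorem gam_quad {k : ℕ} (b : Fin k → ℤ) (hb : ∀ t, |b t| = 1) (h0 : ∑ t, b t = 0)
    {N : ℕ} (x : Fin k → Fin N → ℤ) (hx : Function.Injective x) (hk : 0 < k)
    (hrel : ∀ i, ∑ t, b t * x t i = 0) :
    ∃ i1 i2 i3 i4 : Fin k, i1 ≠ i2 ∧ i1 ≠ i3 ∧ i1 ≠ i4 ∧ i2 ≠ i3 ∧ i2 ≠ i4 ∧ i3 ≠ i4 ∧
      b i1 = 1 ∧ b i2 = 1 ∧ b i3 = -1 ∧ b i4 = -1 := by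
  set P : Finset (Fin k) := Finset.univ.filter (fun t => b t = 1) with hP
  set Q : Finset (Fin k) := Finset.univ.filter (fun t => b t = -1) with hQ
  have hb' : ∀ t, b t = 1 ∨ b t = -1 := by
    intro t
    have h := hb t
    rcases abs_eq (by norm_num : (0:ℤ) ≤ 1) |>.1 h with h1 | h1
    · exact Or.inl h1
    · exact Or.inr h1
  have hPQ : Finset.univ.filter (fun t => ¬ b t = 1) = Q := by
    rw [hQ]
    ext t
    simp only [Finset.mem_filter, Finset.mem_univ, true_and]
    constructor
    · intro h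
      rcases hb' t with h1 | h1
      · exact absurd h1 h
      · exact h1
    · intro h h1
      rw [h] at h1
      norm_num at h1
  have hsum : ∀ g : Fin k → ℤ, ∑ t, b t * g t = ∑ t ∈ P, g t - ∑ t ∈ Q, g t := by
    intro g
    rw [← Finset.sum_filter_add_sum_filter_not Finset.univ (fun t => b t = 1), hPQ]
    have e1 : ∑ t ∈ Finset.univ.filter (fun t => b t = 1), b t * g t = ∑ t ∈ P, g t := by
      apply Finset.sum_congr rfl
      intro t ht
      rw [(Finset.mem_filter.1 ht).2, one_mul]
    have e2 : ∑ t ∈ Q, b t * g t = - ∑ t ∈ Q, g t := by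
      rw [← Finset.sum_neg_distrib]
      apply Finset.sum_congr rfl
      intro t ht
      rw [(Finset.mem_filter.1 ht).2]; ring
    rw [e1, e2]; ring
  have hcard : P.card = Q.card := by
    have h1 := hsum (fun _ => 1)
    simp only [mul_one, Finset.sum_const, nsmul_eq_mul] at h1
    rw [h0] at h1
    have : (P.card : ℤ) = Q.card := by linarith
    exact_mod_cast this
  have htot : P.card + Q.card = k := by
    rw [hP, ← hPQ, Finset.card_filter_add_card_filter_not]
    simp
  have hP1 : 1 < P.card := by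
    by_contra hcon
    have hP1 : P.card = 1 := by omega
    have hQ1 : Q.card = 1 := by omega
    obtain ⟨i, hi⟩ := Finset.card_eq_one.1 hP1
    obtain ⟨j, hj⟩ := Finset.card_eq_one.1 hQ1
    have hij : x i = x j := by
      funext c
      have h2 := hrel c
      rw [hsum, hi, hj, Finset.sum_singleton, Finset.sum_singleton] at h2
      linarith
    have hij' := hx hij
    have hiP : i ∈ P := by rw [hi]; exact Finset.mem_singleton_self i
    have hjQ : j ∈ Q := by rw [hj]; exact Finset.mem_singleton_self j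
    rw [hij'] at hiP
    have h3 := (Finset.mem_filter.1 hiP).2
    have h4 := (Finset.mem_filter.1 hjQ).2
    rw [h3] at h4
    norm_num at h4
  obtain ⟨i1, h1, i2, h2, h12⟩ := Finset.one_lt_card.1 hP1
  obtain ⟨i3, h3, i4, h4, h34⟩ := Finset.one_lt_card.1 (hcard ▸ hP1)
  have b1 := (Finset.mem_filter.1 h1).2
  have b2 := (Finset.mem_filter.1 h2).2
  have b3 := (Finset.mem_filter.1 h3).2
  have b4 := (Finset.mem_filter.1 h4).2
  refine ⟨i1, i2, i3, i4, h12, ?_, ?_, ?_, ?_, h34, b1, b2, b3, b4⟩
  · rintro rfl; rw [b1] at b3; norm_num at b3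
  · rintro rfl; rw [b1] at b4; norm_num at b4
  · rintro rfl; rw [b2] at b3; norm_num at b3
  · rintro rfl; rw [b2] at b4; norm_num at b4

private theorem gam_fib {N : ℕ} (X : Finset (Fin N → ℤ)) (r : ℕ) (b : Fin (r + 1) → ℤ)
    (i1 i2 i3 i4 : Fin (r + 1)) (h12 : i1 ≠ i2) (h13 : i1 ≠ i3) (h14 : i1 ≠ i4) (h23 : i2 ≠ i3)
    (h24 : i2 ≠ i4) (h34 : i3 ≠ i4) (b1 : b i1 = 1) (b2 : b i2 = 1) (b3 : b i3 = -1)
    (b4 : b i4 = -1) :
    ((Fintype.piFinset (fun _ : Fin (r + 1) => X)).filter
      (fun x => Rel Finset.univ b x)).card ≤ en X * X.card ^ (r - 3) := by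
  set F : Finset (Fin (r + 1)) := {i1, i2, i3, i4} with hF
  have hFcard : F.card = 4 := by
    rw [hF, Finset.card_insert_of_notMem, Finset.card_insert_of_notMem,
      Finset.card_insert_of_notMem, Finset.card_singleton]
    · simpa using h34
    · simp only [Finset.mem_insert, Finset.mem_singleton, not_or]; exact ⟨h23, h24⟩
    · simp only [Finset.mem_insert, Finset.mem_singleton, not_or]; exact ⟨h12, h13, h14⟩
  set f : (Fin (r + 1) → Fin N → ℤ) → (Fin (r + 1) → Fin N → ℤ) :=
    fun x t => if t ∈ F then 0 else x t with hf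
  set T : Finset (Fin (r + 1) → Fin N → ℤ) :=
    Fintype.piFinset (fun t => if t ∈ F then {0} else X) with hT
  have hTcard : T.card = X.card ^ (r - 3) := by
    rw [hT, Fintype.card_piFinset]
    have e1 : ∀ t : Fin (r + 1), (if t ∈ F then ({0} : Finset (Fin N → ℤ)) else X).card =
        if t ∈ F then 1 else X.card := by
      intro t; split_ifs <;> simp
    rw [Finset.prod_congr rfl (fun t _ => e1 t), Finset.prod_ite, Finset.prod_const_one, one_mul,
      Finset.prod_const]
    congr 1
    have e2 : Finset.univ.filter (fun t => ¬ t ∈ F) = Fᶜ := by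
      ext t; simp
    rw [e2, Finset.card_compl, hFcard, Fintype.card_fin]
    omega
  rw [← hTcard]
  refine Finset.card_le_mul_card_image_of_maps_to (f := f) ?_ (en X) ?_
  · intro x hx
    rw [Finset.mem_filter, Fintype.mem_piFinset] at hx
    rw [hT, Fintype.mem_piFinset]
    intro t
    simp only [hf]
    split_ifs with h
    · simp
    · exact hx.1 t
  · intro y _
    set c : Fin N → ℤ := - ∑ t ∈ Fᶜ, b t • y t with hc
    refine le_trans ?_ (en_shift X c)
    refine Finset.card_le_card_of_injOn (fun x => ((x i1, x i2), (x i3, x i4))) ?_ ?_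
    · intro x hx
      have hx' := Finset.mem_coe.1 hx
      rw [Finset.mem_filter, Finset.mem_filter, Fintype.mem_piFinset] at hx'
      obtain ⟨⟨hxX, hrel⟩, hxy⟩ := hx'
      apply Finset.mem_coe.2
      refine (@Finset.mem_filter _ _ (fun _ => Classical.propDecidable _) _ _).2 ⟨?_, ?_⟩
      · simp only [Finset.mem_product]
        exact ⟨⟨hxX i1, hxX i2⟩, hxX i3, hxX i4⟩
      · funext i
        have h1 := hrel.2 i (Finset.mem_univ i)
        rw [← Finset.sum_add_sum_compl F] at h1
        have h2 : ∑ t ∈ F, b t * x t i = x i1 i + x i2 i - x i3 i - x i4 i := by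
          rw [hF, Finset.sum_insert, Finset.sum_insert, Finset.sum_insert, Finset.sum_singleton,
            b1, b2, b3, b4]
          · ring
          · simpa using h34
          · simp only [Finset.mem_insert, Finset.mem_singleton, not_or]; exact ⟨h23, h24⟩
          · simp only [Finset.mem_insert, Finset.mem_singleton, not_or]; exact ⟨h12, h13, h14⟩
        have h3 : ∑ t ∈ Fᶜ, b t * x t i = ∑ t ∈ Fᶜ, b t * y t i := by
          apply Finset.sum_congr rfl
          intro t ht
          rw [← hxy]
          simp only [hf]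
          rw [if_neg (Finset.mem_compl.1 ht)]
        rw [h2, h3] at h1
        simp only [hc, Pi.add_apply, Pi.neg_apply, Finset.sum_apply, Pi.smul_apply, smul_eq_mul]
        linarith
    · intro x hx x' hx' hxx
      have hx1 := (Finset.mem_filter.1 (Finset.mem_coe.1 hx)).2
      have hx2 := (Finset.mem_filter.1 (Finset.mem_coe.1 hx')).2
      simp only [Prod.mk.injEq] at hxx
      obtain ⟨⟨e1, e2⟩, e3, e4⟩ := hxx
      funext t
      by_cases ht : t ∈ F
      · rw [hF] at ht
        simp only [Finset.mem_insert, Finset.mem_singleton] at ht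
        rcases ht with rfl | rfl | rfl | rfl
        · exact e1
        · exact e2
        · exact e3
        · exact e4
      · have := congrFun (hx1.trans hx2.symm) t
        simp only [hf] at this
        rwa [if_neg ht, if_neg ht] at this

/-- Task CVB-22.  PROOF: for a sign vector `b` (`|b t| = 1`, `∑ b = 0`, `2^(r+1)` sign vectors at
most): the numbers of `+` and `-` are equal; if `r+1 = 2` then `x_0 = x_1`, impossible for
injective `x`; so there are four distinct indices `i1,i2` (sign `+`), `i3,i4` (sign `-`).  Fibre the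
set `{x ∈ X^(r+1) | ∑ b_t x_t = 0}` over the restriction of `x` to the other `r-3` indices (at most
`|X|^(r-3)` values); the fibre injects into
`{q | q.1.1 + q.1.2 = q.2.1 + q.2.2 + c}`, `c = - ∑_{t other} b_t x_t`, so it has at most
`en X ≤ kap^N |X|³` elements (`en_shift`, `energy_le`).  `|X|^(r-3) |X|^3 = |X|^r`. -/
theorem gamma_card {N : ℕ} (X : Finset (Fin N → ℤ)) (hX : Cube4 X) (r : ℕ) :
    (((Fintype.piFinset (fun _ : Fin (r + 1) => X)).filter
      (fun x => Function.Injective x ∧
        ∃ b : Fin (r + 1) → ℤ, (∀ t, |b t| = 1) ∧ Rel Finset.univ b x)).card : ℝ) ≤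
      2 ^ (r + 1) * kap ^ N * (X.card : ℝ) ^ r := by
  set B : Finset (Fin (r + 1) → ℤ) :=
    Fintype.piFinset (fun _ : Fin (r + 1) => ({1, -1} : Finset ℤ)) with hB
  have hBcard : B.card = 2 ^ (r + 1) := by
    rw [hB, Fintype.card_piFinset_const]
    rfl
  set S : (Fin (r + 1) → ℤ) → Finset (Fin (r + 1) → Fin N → ℤ) := fun b =>
    (Fintype.piFinset (fun _ : Fin (r + 1) => X)).filter
      (fun x => Function.Injective x ∧ (∀ t, |b t| = 1) ∧ Rel Finset.univ b x) with hS
  have hsub : (Fintype.piFinset (fun _ : Fin (r + 1) => X)).filter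
      (fun x => Function.Injective x ∧
        ∃ b : Fin (r + 1) → ℤ, (∀ t, |b t| = 1) ∧ Rel Finset.univ b x) ⊆ B.biUnion S := by
    intro x hx
    rw [Finset.mem_filter] at hx
    obtain ⟨hxX, hinj, b, hb, hrel⟩ := hx
    rw [Finset.mem_biUnion]
    refine ⟨b, ?_, ?_⟩
    · rw [hB, Fintype.mem_piFinset]
      intro t
      rcases abs_eq (by norm_num : (0:ℤ) ≤ 1) |>.1 (hb t) with h1 | h1
      · rw [h1]; simp
      · rw [h1]; simp
    · rw [hS, Finset.mem_filter]
      exact ⟨hxX, hinj, hb, hrel⟩
  have hkN : 0 ≤ kap ^ N := pow_nonneg kap_pos.le N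
  have hone : ∀ b : Fin (r + 1) → ℤ, ((S b).card : ℝ) ≤ kap ^ N * (X.card : ℝ) ^ r := by
    intro b
    rcases (S b).eq_empty_or_nonempty with he | ⟨x, hx⟩
    · rw [he, Finset.card_empty, Nat.cast_zero]
      positivity
    · rw [hS, Finset.mem_filter] at hx
      obtain ⟨_, hinj, hb, hrel⟩ := hx
      obtain ⟨i1, i2, i3, i4, h12, h13, h14, h23, h24, h34, b1, b2, b3, b4⟩ :=
        gam_quad b hb hrel.1 x hinj (by omega) (fun i => hrel.2 i (Finset.mem_univ i))
      have h1 := gam_fib X r b i1 i2 i3 i4 h12 h13 h14 h23 h24 h34 b1 b2 b3 b4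
      have h2 : (S b).card ≤ ((Fintype.piFinset (fun _ : Fin (r + 1) => X)).filter
          (fun x => Rel Finset.univ b x)).card := by
        apply Finset.card_le_card
        intro z hz
        rw [hS, Finset.mem_filter] at hz
        rw [Finset.mem_filter]
        exact ⟨hz.1, hz.2.2.2⟩
      have hr : 3 ≤ r := by
        have h4 : ({i1, i2, i3, i4} : Finset (Fin (r + 1))).card ≤ r + 1 := by
          simpa using Finset.card_le_univ ({i1, i2, i3, i4} : Finset (Fin (r + 1)))
        rw [Finset.card_insert_of_notMem, Finset.card_insert_of_notMem,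
          Finset.card_insert_of_notMem, Finset.card_singleton] at h4
        · omega
        · simpa using h34
        · simp only [Finset.mem_insert, Finset.mem_singleton, not_or]; exact ⟨h23, h24⟩
        · simp only [Finset.mem_insert, Finset.mem_singleton, not_or]; exact ⟨h12, h13, h14⟩
      have h3 : ((S b).card : ℝ) ≤ (en X : ℝ) * (X.card : ℝ) ^ (r - 3) := by
        exact_mod_cast h2.trans h1
      refine h3.trans ?_
      have h5 := mul_le_mul_of_nonneg_right (energy_le X hX)
        (show (0 : ℝ) ≤ (X.card : ℝ) ^ (r - 3) by positivity)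
      refine h5.trans (le_of_eq ?_)
      rw [mul_assoc, ← pow_add]
      congr 2
      omega
  calc _ ≤ ((B.biUnion S).card : ℝ) := by exact_mod_cast Finset.card_le_card hsub
    _ ≤ ((∑ b ∈ B, (S b).card : ℕ) : ℝ) := by exact_mod_cast Finset.card_biUnion_le
    _ = ∑ b ∈ B, ((S b).card : ℝ) := by push_cast; rfl
    _ ≤ ∑ b ∈ B, kap ^ N * (X.card : ℝ) ^ r := Finset.sum_le_sum (fun b _ => hone b)
    _ = 2 ^ (r + 1) * kap ^ N * (X.card : ℝ) ^ r := by
      rw [Finset.sum_const, hBcard, nsmul_eq_mul]; push_cast; ring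

end Crest.Agent.CVB
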