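import Crest.Agent.CVB_Alpha
import Crest.Agent.CVB_Beta
import Crest.Agent.CVB_Gamma

/-! # CVB-23: number of circuits -/

set_option autoImplicit false
open Classical

namespace Crest.Agent.CVB

/-- `1 / 2^(N/2) ≤ 2 kap^N` -/
private theorem circ_half {N m : ℕ} (hm : N / 2 ≤ m) : (1 : ℝ) ≤ 2 ^ m * (2 * kap ^ N) := by
  have hk := kap_pos
  have hk1 : (1 / 2 : ℝ) ≤ kap := by unfold kap; norm_num
  have h1 : (1 / 2 : ℝ) ^ (N / 2) ≤ kap ^ (2 * (N / 2)) := by
    rw [pow_mul]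
    exact pow_le_pow_left₀ (by norm_num) half_le_kap_sq _
  have h2 : kap ^ (2 * (N / 2)) ≤ 2 * kap ^ N := by
    have h3 : N = 2 * (N / 2) ∨ N = 2 * (N / 2) + 1 := by omega
    rcases h3 with h3 | h3
    · have h4 : kap ^ (2 * (N / 2)) = kap ^ N := by rw [← h3]
      rw [h4]
      have : 0 ≤ kap ^ N := pow_nonneg hk.le N
      linarith
    · have h4 : kap ^ N = kap ^ (2 * (N / 2)) * kap := by
        rw [← pow_succ, ← h3]
      rw [h4]
      have : 0 ≤ kap ^ (2 * (N / 2)) := pow_nonneg hk.le _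
      nlinarith
  have h5 : (1 : ℝ) = 2 ^ (N / 2) * (1 / 2) ^ (N / 2) := by
    rw [← mul_pow]; norm_num
  calc (1 : ℝ) = 2 ^ (N / 2) * (1 / 2) ^ (N / 2) := h5
    _ ≤ 2 ^ (N / 2) * (2 * kap ^ N) := by
        apply mul_le_mul_of_nonneg_left (h1.trans h2) (by positivity)
    _ ≤ 2 ^ m * (2 * kap ^ N) := by
        apply mul_le_mul_of_nonneg_right _ (by positivity)
        exact pow_le_pow_right₀ (by norm_num) hm

/-- Task CVB-23.  PROOF: choose `S ⊆ Fin N` with `|S| = N/2`, so `|Sᶜ| ≥ N/2`.  `circF X r` is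
contained in the union of the sets of `alpha_card`, `beta_card`, `gamma_card` (if all `|b t| < 2`
then `|b t| = 1`).  `1 / 2^(N/2) ≤ 2 kap^N` (`half_le_kap_sq`), and
`2·2^r + 2(r+1) + 2^(r+1) ≤ 16^r` for `r ≥ 1`. -/
theorem circ_card {N : ℕ} (X : Finset (Fin N → ℤ)) (hX : Cube4 X) (R : ℕ) (hR1 : 1 ≤ R)
    (hXR : ∀ x ∈ X, ∀ i, |x i| ≤ (R : ℤ)) (r : ℕ) (hr : 1 ≤ r) :
    ((circF X r).card : ℝ) ≤ (16 * (2 * R + 1)) ^ r * (X.card : ℝ) ^ r * kap ^ N := by
  obtain ⟨S, -, hS⟩ := Finset.exists_subset_card_eq (s := (Finset.univ : Finset (Fin N)))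
    (n := N / 2) (by rw [Finset.card_univ, Fintype.card_fin]; omega)
  have hSc : N / 2 ≤ (Sᶜ).card := by
    rw [Finset.card_compl, Fintype.card_fin, hS]; omega
  have hA := alpha_card X hX R hR1 hXR S r
  have hB := beta_card X hX R hR1 hXR S r
  have hC := gamma_card X hX r
  set A := ((Fintype.piFinset (fun _ : Fin (r + 1) => X)).filter
      (fun x => (∃ b : Fin (r + 1) → ℤ, Prim b ∧ Rel Finset.univ b x) ∧
        ¬ IndS S (fun t : Fin r => x t.succ))) with hAdef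
  set B := ((Fintype.piFinset (fun _ : Fin (r + 1) => X)).filter
      (fun x => IndS S (fun t : Fin r => x t.succ) ∧
        ∃ b : Fin (r + 1) → ℤ, Prim b ∧ Rel Finset.univ b x ∧ ∃ t, 2 ≤ |b t|)) with hBdef
  set D := ((Fintype.piFinset (fun _ : Fin (r + 1) => X)).filter
      (fun x => Function.Injective x ∧
        ∃ b : Fin (r + 1) → ℤ, (∀ t, |b t| = 1) ∧ Rel Finset.univ b x)) with hDdef
  have hsub : circF X r ⊆ A ∪ B ∪ D := by
    intro x hx
    rw [circF, Finset.mem_filter] at hx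
    obtain ⟨hx1, hinj, b, hP, hrel⟩ := hx
    rw [Finset.mem_union, Finset.mem_union]
    by_cases h1 : IndS S (fun t : Fin r => x t.succ)
    · by_cases h2 : ∃ t, 2 ≤ |b t|
      · exact Or.inl (Or.inr (Finset.mem_filter.2 ⟨hx1, h1, b, hP, hrel, h2⟩))
      · refine Or.inr (Finset.mem_filter.2 ⟨hx1, hinj, b, fun t => ?_, hrel⟩)
        have h3 : |b t| < 2 := by
          by_contra h4
          exact h2 ⟨t, not_lt.1 h4⟩
        have h5 : 0 < |b t| := abs_pos.2 (hP.1 t)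
        omega
    · exact Or.inl (Or.inl (Finset.mem_filter.2 ⟨hx1, ⟨b, hP, hrel⟩, h1⟩))
  have hcard : ((circF X r).card : ℝ) ≤ A.card + B.card + D.card := by
    have h1 := (Finset.card_le_card hsub).trans (Finset.card_union_le _ _)
    have h2 := Finset.card_union_le A B
    have h3 : (circF X r).card ≤ A.card + B.card + D.card := h1.trans (by omega)
    exact_mod_cast h3
  have hA' : (A.card : ℝ) * 2 ^ S.card ≤ 2 ^ r * (2 * R + 1) ^ r * (X.card : ℝ) ^ r := by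
    exact_mod_cast hA
  have hB' : (B.card : ℝ) * 2 ^ (Sᶜ).card ≤ (r + 1) * (2 * R + 1) ^ r * (X.card : ℝ) ^ r := by
    exact_mod_cast hB
  set M : ℝ := (2 * (R : ℝ) + 1) ^ r * (X.card : ℝ) ^ r with hM
  have hM0 : 0 ≤ M := by positivity
  have hk := kap_pos
  have hkN : 0 ≤ kap ^ N := pow_nonneg hk.le N
  have hA2 : (A.card : ℝ) ≤ 2 ^ r * M * (2 * kap ^ N) := by
    have h1 := circ_half (N := N) (m := S.card) (by rw [hS])
    calc (A.card : ℝ) = A.card * 1 := (mul_one _).symm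
      _ ≤ A.card * (2 ^ S.card * (2 * kap ^ N)) :=
          mul_le_mul_of_nonneg_left h1 (Nat.cast_nonneg _)
      _ = (A.card * 2 ^ S.card) * (2 * kap ^ N) := by ring
      _ ≤ (2 ^ r * (2 * R + 1) ^ r * (X.card : ℝ) ^ r) * (2 * kap ^ N) :=
          mul_le_mul_of_nonneg_right hA' (by positivity)
      _ = 2 ^ r * M * (2 * kap ^ N) := by rw [hM]; ring
  have hB2 : (B.card : ℝ) ≤ (r + 1) * M * (2 * kap ^ N) := by
    have h1 := circ_half (N := N) (m := (Sᶜ).card) hSc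
    calc (B.card : ℝ) = B.card * 1 := (mul_one _).symm
      _ ≤ B.card * (2 ^ (Sᶜ).card * (2 * kap ^ N)) :=
          mul_le_mul_of_nonneg_left h1 (Nat.cast_nonneg _)
      _ = (B.card * 2 ^ (Sᶜ).card) * (2 * kap ^ N) := by ring
      _ ≤ ((r + 1) * (2 * R + 1) ^ r * (X.card : ℝ) ^ r) * (2 * kap ^ N) :=
          mul_le_mul_of_nonneg_right hB' (by positivity)
      _ = (r + 1) * M * (2 * kap ^ N) := by rw [hM]; ring
  have hX1 : (X.card : ℝ) ^ r ≤ M := by
    rw [hM]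
    have h1 : (1 : ℝ) ≤ (2 * (R : ℝ) + 1) ^ r := by
      apply one_le_pow₀
      have : (0 : ℝ) ≤ R := Nat.cast_nonneg R
      linarith
    have h2 : (0 : ℝ) ≤ (X.card : ℝ) ^ r := by positivity
    nlinarith
  have hD2 : (D.card : ℝ) ≤ 2 ^ (r + 1) * kap ^ N * M :=
    hC.trans (mul_le_mul_of_nonneg_left hX1 (by positivity))
  have hr1 : ((r : ℝ) + 1) ≤ 2 ^ r := by
    have h1 : r + 1 ≤ 2 ^ r := Nat.lt_two_pow_self
    exact_mod_cast h1
  have h16 : (6 : ℝ) * 2 ^ r ≤ 16 ^ r := by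
    have h1 : (16 : ℝ) ^ r = 8 ^ r * 2 ^ r := by rw [← mul_pow]; norm_num
    have h2 : (8 : ℝ) ≤ 8 ^ r := by
      calc (8 : ℝ) = 8 ^ 1 := (pow_one _).symm
        _ ≤ 8 ^ r := pow_le_pow_right₀ (by norm_num) hr
    rw [h1]
    have h3 : (0 : ℝ) < 2 ^ r := by positivity
    nlinarith
  have hMk : 0 ≤ M * kap ^ N := mul_nonneg hM0 hkN
  calc ((circF X r).card : ℝ) ≤ A.card + B.card + D.card := hcard
    _ ≤ 2 ^ r * M * (2 * kap ^ N) + (r + 1) * M * (2 * kap ^ N) + 2 ^ (r + 1) * kap ^ N * M :=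
        add_le_add (add_le_add hA2 hB2) hD2
    _ = (4 * 2 ^ r + 2 * (r + 1)) * (M * kap ^ N) := by ring
    _ ≤ (6 * 2 ^ r) * (M * kap ^ N) := by
        apply mul_le_mul_of_nonneg_right _ hMk
        linarith
    _ ≤ 16 ^ r * (M * kap ^ N) := mul_le_mul_of_nonneg_right h16 hMk
    _ = (16 * (2 * R + 1)) ^ r * (X.card : ℝ) ^ r * kap ^ N := by rw [hM, mul_pow]; ring

end Crest.Agent.CVB
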