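import Crest.Agent.CVB_Defs

/-! # CVB-24: numerics I -/

set_option autoImplicit false

namespace Crest.Agent.CVB

/-- Task CVB-24.  PROOF: `j+1 ≤ 10 D + 3 ≤ 10 N / (log N)³ + 3 =: k`; for large `N`,
`(j+1)! ≤ (j+1)^(j+1) ≤ N^(j+1)` and `(N+1) (N^14)² ≤ N^30`, so the left side is
`≤ N^(31 (j+1)) ≤ exp (31 k log N) ≤ exp (310 N / (log N)² + 93 log N) < 2^N` for large `N`. -/
theorem num_fact : ∃ n0 : ℕ, ∀ N : ℕ, n0 ≤ N → ∀ (D : ℝ) (l : ℕ), 0 ≤ D →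
    D * (Real.log N) ^ 3 ≤ N → (l : ℝ) ≤ 10 * D + 2 → ∀ j ≤ l,
      (j + 1).factorial * ((N + 1) * (N ^ 14) ^ 2) ^ (j + 1) < 2 ^ N := by
  have h1 : Filter.Tendsto (fun N : ℕ => Real.log (N:ℝ)) Filter.atTop Filter.atTop :=
    Real.tendsto_log_atTop.comp tendsto_natCast_atTop_atTop
  have h2 : ∀ᶠ N : ℕ in Filter.atTop, 93 * Real.log (N:ℝ) ≤ (N:ℝ) / 4 := by
    have h3 := (Real.isLittleO_log_id_atTop.comp_tendsto
      (tendsto_natCast_atTop_atTop (R := ℝ))).bound (c := 1/372) (by norm_num)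
    filter_upwards [h3] with N h4
    simp only [Function.comp, id, Real.norm_eq_abs] at h4
    have h5 := le_abs_self (Real.log (N:ℝ))
    have h6 : |((N:ℕ):ℝ)| = (N:ℝ) := abs_of_nonneg (Nat.cast_nonneg N)
    rw [h6] at h4
    linarith
  obtain ⟨n0, hn0⟩ := Filter.eventually_atTop.1
    (h2.and ((h1.eventually_ge_atTop 40).and (Filter.eventually_ge_atTop 10)))
  refine ⟨n0, fun N hN D l hD hDN hl j hj => ?_⟩
  obtain ⟨ha, hb, hc⟩ := hn0 N hN
  set L := Real.log (N:ℝ) with hL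
  have hN0 : (10:ℝ) ≤ (N:ℝ) := by exact_mod_cast hc
  have hL0 : (0:ℝ) < L := by linarith
  have hj1 : ((j + 1 : ℕ) : ℝ) ≤ 10 * D + 3 := by
    have : (j:ℝ) ≤ (l:ℝ) := by exact_mod_cast hj
    push_cast
    linarith
  -- D ≤ N / 64000
  have hL3 : (64000:ℝ) ≤ L ^ 3 := by
    have : (40:ℝ)^3 ≤ L^3 := pow_le_pow_left₀ (by norm_num) hb 3
    norm_num at this
    exact this
  have hD1 : D * 64000 ≤ N := le_trans (mul_le_mul_of_nonneg_left hL3 hD) hDN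
  have hjN : j + 1 ≤ N := by
    have : ((j + 1 : ℕ) : ℝ) ≤ (N:ℝ) := by linarith
    exact_mod_cast this
  have hDL : D * L * 1600 ≤ N := by
    have hL2 : (1600:ℝ) ≤ L ^ 2 := by
      have : (40:ℝ)^2 ≤ L^2 := pow_le_pow_left₀ (by norm_num) hb 2
      norm_num at this
      exact this
    calc D * L * 1600 ≤ D * L * L^2 := mul_le_mul_of_nonneg_left hL2 (mul_nonneg hD hL0.le)
      _ = D * L^3 := by ring
      _ ≤ N := hDN
  -- main bound in ℕ
  have hfact : (j + 1).factorial ≤ N ^ (j + 1) :=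
    le_trans (Nat.factorial_le_pow (j+1)) (Nat.pow_le_pow_left hjN (j+1))
  have hbase : (N + 1) * (N ^ 14) ^ 2 ≤ N ^ 30 := by
    have : N + 1 ≤ N ^ 2 := by nlinarith
    calc (N + 1) * (N ^ 14) ^ 2 ≤ N ^ 2 * (N ^ 14) ^ 2 := Nat.mul_le_mul_right _ this
      _ = N ^ 30 := by ring
  have hall : (j + 1).factorial * ((N + 1) * (N ^ 14) ^ 2) ^ (j + 1) ≤ N ^ (31 * (j + 1)) := by
    calc (j + 1).factorial * ((N + 1) * (N ^ 14) ^ 2) ^ (j + 1)
        ≤ N ^ (j + 1) * (N ^ 30) ^ (j + 1) :=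
          Nat.mul_le_mul hfact (Nat.pow_le_pow_left hbase _)
      _ = N ^ (31 * (j + 1)) := by
          rw [← pow_mul, ← pow_add]; congr 1; ring
  refine lt_of_le_of_lt hall ?_
  have key : ((N:ℝ)) ^ (31 * (j + 1)) < (2:ℝ) ^ N := by
    rw [← Real.log_lt_log_iff (by positivity) (by positivity), Real.log_pow, Real.log_pow]
    have h2' : (0.6931471803 : ℝ) < Real.log 2 := Real.log_two_gt_d9
    have : ((31 * (j + 1) : ℕ) : ℝ) * Real.log (N:ℝ) ≤ 310 * (D * L) + 93 * L := by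
      rw [← hL]
      have : ((31 * (j + 1) : ℕ) : ℝ) = 31 * ((j + 1 : ℕ) : ℝ) := by push_cast; ring
      rw [this]
      nlinarith
    have hx : (N:ℝ) * 0.6931471803 ≤ (N:ℝ) * Real.log 2 :=
      mul_le_mul_of_nonneg_left h2'.le (Nat.cast_nonneg N)
    nlinarith
  exact_mod_cast key

end Crest.Agent.CVB
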