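import Crest.Agent.CVB_Defs

/-! # CVB-25: numerics II -/

set_option autoImplicit false

namespace Crest.Agent.CVB

/-- Task CVB-25.  PROOF: `k = l+1 ≥ 10 D`, `k! ≥ (k/e)^k` (`Real`/`Nat.factorial` lower bound, or
`k^k / k! ≤ exp k` from the exponential series), so `D^k/k! ≤ (e D/k)^k ≤ (e/10)^k ≤ (1/3)^k ≤
exp(-k) ≤ exp(-D)`. -/
theorem num_tail (D : ℝ) (hD : 0 ≤ D) (l : ℕ) (hl : 10 * D ≤ l) :
    D ^ (l + 1) / ((l + 1).factorial : ℝ) ≤ Real.exp (-D) := by
  set k : ℕ := l + 1 with hk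
  have hk0 : (0 : ℝ) < k := by rw [hk]; positivity
  have hkl : (l : ℝ) ≤ k := by rw [hk]; push_cast; linarith
  have hDk : 10 * D ≤ k := hl.trans hkl
  have hf : (0 : ℝ) < (k.factorial : ℝ) := by exact_mod_cast Nat.factorial_pos k
  have h1 : (k : ℝ) ^ k / (k.factorial : ℝ) ≤ Real.exp k :=
    Real.pow_div_factorial_le_exp (k : ℝ) hk0.le k
  have h2 : D ^ k ≤ ((k : ℝ) / 10) ^ k := pow_le_pow_left₀ hD (by linarith) k
  have h3 : D ^ k / (k.factorial : ℝ) ≤ (1 / 10) ^ k * Real.exp k := by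
    calc D ^ k / (k.factorial : ℝ) ≤ ((k : ℝ) / 10) ^ k / (k.factorial : ℝ) :=
          div_le_div_of_nonneg_right h2 hf.le
      _ = (1 / 10) ^ k * ((k : ℝ) ^ k / (k.factorial : ℝ)) := by
          rw [div_eq_mul_one_div (k : ℝ) 10, mul_pow]
          ring
      _ ≤ (1 / 10) ^ k * Real.exp k := mul_le_mul_of_nonneg_left h1 (by positivity)
  have h4 : (1 / 10 : ℝ) ^ k * Real.exp k ≤ Real.exp (-(k : ℝ)) := by
    have e1 : Real.exp (k : ℝ) = Real.exp 1 ^ k := by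
      rw [← Real.exp_nat_mul, mul_one]
    have h5 : Real.exp 1 * Real.exp 1 ≤ 10 := by
      have := Real.exp_one_lt_d9
      have h0 := Real.exp_pos 1
      nlinarith
    have h6 : ((1 / 10 : ℝ) ^ k * Real.exp k) * Real.exp k ≤ 1 := by
      rw [e1, mul_assoc, ← mul_pow, ← mul_pow]
      refine pow_le_one₀ (by positivity) ?_
      linarith
    rw [Real.exp_neg]
    rw [← one_div, le_div_iff₀ (Real.exp_pos _)]
    exact h6
  have h7 : Real.exp (-(k : ℝ)) ≤ Real.exp (-D) := by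
    apply Real.exp_le_exp.2
    linarith
  exact h3.trans (h4.trans h7)

end Crest.Agent.CVB
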