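import Crest.Agent.CVB_Defs

/-! # CVB-26: numerics III -/

set_option autoImplicit false

namespace Crest.Agent.CVB

private theorem nb_term (N : ℕ) (hN : 48 ≤ N) (D : ℝ) (hD : 0 ≤ D) (hDN : D ≤ N) (l j r : ℕ)
    (hj : j ≤ l) (hr : r ≤ j) :
    (16 * (2 * (N : ℝ) ^ 14 + 1)) ^ r * kap ^ N * D ^ j ≤ (N : ℝ) ^ (16 * l) * kap ^ N := by
  have hN' : (48 : ℝ) ≤ N := by exact_mod_cast hN
  have hN1 : (1 : ℝ) ≤ N := by linarith
  have hk := kap_pos
  have h1 : 16 * (2 * (N : ℝ) ^ 14 + 1) ≤ (N : ℝ) ^ 15 := by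
    have : (1 : ℝ) ≤ (N : ℝ) ^ 14 := one_le_pow₀ hN1
    calc 16 * (2 * (N : ℝ) ^ 14 + 1) ≤ 48 * (N : ℝ) ^ 14 := by linarith
      _ ≤ N * (N : ℝ) ^ 14 := by nlinarith
      _ = (N : ℝ) ^ 15 := by ring
  have h2 : (16 * (2 * (N : ℝ) ^ 14 + 1)) ^ r ≤ (N : ℝ) ^ (15 * l) := by
    calc (16 * (2 * (N : ℝ) ^ 14 + 1)) ^ r ≤ ((N : ℝ) ^ 15) ^ r :=
          pow_le_pow_left₀ (by positivity) h1 r
      _ = (N : ℝ) ^ (15 * r) := by rw [pow_mul]
      _ ≤ (N : ℝ) ^ (15 * l) := pow_le_pow_right₀ hN1 (by omega)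
  have h3 : D ^ j ≤ (N : ℝ) ^ l := by
    calc D ^ j ≤ (N : ℝ) ^ j := pow_le_pow_left₀ hD hDN j
      _ ≤ (N : ℝ) ^ l := pow_le_pow_right₀ hN1 hj
  calc (16 * (2 * (N : ℝ) ^ 14 + 1)) ^ r * kap ^ N * D ^ j
      = ((16 * (2 * (N : ℝ) ^ 14 + 1)) ^ r * D ^ j) * kap ^ N := by ring
    _ ≤ ((N : ℝ) ^ (15 * l) * (N : ℝ) ^ l) * kap ^ N := by
        apply mul_le_mul_of_nonneg_right _ (by positivity)
        exact mul_le_mul h2 h3 (by positivity) (by positivity)
    _ = (N : ℝ) ^ (16 * l) * kap ^ N := by rw [← pow_add]; congr 2; ring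

private theorem nb_kap (N : ℕ) : kap ^ N ≤ Real.exp (-(N / 16384)) := by
  have h1 : kap ≤ Real.exp (-(1 / 16384)) := by
    have := Real.add_one_le_exp (-(1 / 16384 : ℝ))
    unfold kap; linarith
  calc kap ^ N ≤ (Real.exp (-(1 / 16384))) ^ N := pow_le_pow_left₀ kap_pos.le h1 N
    _ = Real.exp (-(N / 16384)) := by
        rw [← Real.exp_nat_mul]; congr 1; ring

/-- Task CVB-26.  PROOF: for large `N`: `16 (2 N^14 + 1) ≤ N^15`, `D ≤ N`, so every term is
`≤ N^(15 r) kap^N (max 1 D)^j ≤ N^(16 l) kap^N`, at most `(l+1)²` terms, `l ≤ 10 N/(log N)³ + 2`;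
`kap^N ≤ exp(-N/16384)`.  The sum is `≤ exp (log 2 + 2 log (l+1) + 16 l log N - N/16384) ≤
exp(-D)` for large `N`, as `l log N ≤ 10 N/(log N)² + 2 log N = o(N)` and `D ≤ N/(log N)³`. -/
theorem num_bad : ∃ n0 : ℕ, ∀ N : ℕ, n0 ≤ N → ∀ (D : ℝ) (l : ℕ), 0 ≤ D →
    D * (Real.log N) ^ 3 ≤ N → (l : ℝ) ≤ 10 * D + 2 →
      2 * ∑ j ∈ Finset.range (l + 1), ∑ r ∈ Finset.Icc 1 j,
        (16 * (2 * (N : ℝ) ^ 14 + 1)) ^ r * kap ^ N * D ^ j ≤ Real.exp (-D) := by
  have e1 : ∀ᶠ N : ℕ in Filter.atTop, (2400 : ℝ) ≤ Real.log N :=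
    (Real.tendsto_log_atTop.comp tendsto_natCast_atTop_atTop).eventually_ge_atTop 2400
  have e2 : ∀ᶠ N : ℕ in Filter.atTop, Real.log N ≤ (1 / 2000000) * (N : ℝ) := by
    have h := Real.isLittleO_log_id_atTop.def (show (0 : ℝ) < 1 / 2000000 by norm_num)
    have h' := (tendsto_natCast_atTop_atTop (R := ℝ)).eventually h
    filter_upwards [h', e1] with N hN h1
    simp only [id, Real.norm_eq_abs] at hN
    rw [abs_of_nonneg (by linarith), abs_of_nonneg (by positivity)] at hN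
    exact hN
  obtain ⟨n0, h0⟩ := Filter.eventually_atTop.mp (e1.and e2)
  refine ⟨max 48 n0, fun N hN D l hD hDN hl => ?_⟩
  have hN48 : 48 ≤ N := le_trans (le_max_left _ _) hN
  obtain ⟨hL, hLN⟩ := h0 N (le_trans (le_max_right _ _) hN)
  have hN' : (48 : ℝ) ≤ N := by exact_mod_cast hN48
  have hNpos : (0 : ℝ) < N := by linarith
  set L := Real.log N with hLdef
  have hL0 : 0 < L := by linarith
  have hDle : D ≤ N := by
    have : (1 : ℝ) ≤ L ^ 3 := one_le_pow₀ (by linarith)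
    nlinarith
  have hl1 : (l : ℝ) + 1 ≤ N ^ 2 := by nlinarith
  -- sum bound
  have hsum : ∑ j ∈ Finset.range (l + 1), ∑ r ∈ Finset.Icc 1 j,
        (16 * (2 * (N : ℝ) ^ 14 + 1)) ^ r * kap ^ N * D ^ j ≤
      ((l : ℝ) + 1) ^ 2 * ((N : ℝ) ^ (16 * l) * kap ^ N) := by
    have hk := kap_pos
    have hM : (0 : ℝ) ≤ (N : ℝ) ^ (16 * l) * kap ^ N := by positivity
    calc _ ≤ ∑ j ∈ Finset.range (l + 1), ((l : ℝ) + 1) * ((N : ℝ) ^ (16 * l) * kap ^ N) := by
          apply Finset.sum_le_sum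
          intro j hj
          have hj' : j ≤ l := by have := Finset.mem_range.mp hj; omega
          calc _ ≤ ∑ r ∈ Finset.Icc 1 j, ((N : ℝ) ^ (16 * l) * kap ^ N) := by
                apply Finset.sum_le_sum
                intro r hr
                exact nb_term N hN48 D hD hDle l j r hj' (Finset.mem_Icc.mp hr).2
            _ = (j : ℝ) * ((N : ℝ) ^ (16 * l) * kap ^ N) := by
                rw [Finset.sum_const, Nat.card_Icc]; simp
            _ ≤ ((l : ℝ) + 1) * ((N : ℝ) ^ (16 * l) * kap ^ N) := by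
                apply mul_le_mul_of_nonneg_right _ hM
                have : (j : ℝ) ≤ l := by exact_mod_cast hj'
                linarith
      _ = _ := by rw [Finset.sum_const, Finset.card_range]; simp; ring
  have hlog : (N : ℝ) = Real.exp L := by rw [hLdef, Real.exp_log hNpos]
  have hpow : ∀ k : ℕ, (N : ℝ) ^ k = Real.exp (k * L) := by
    intro k; rw [Real.exp_nat_mul, ← hlog]
  have hDL : D * L ≤ N / 5760000 := by
    have h1 : (5760000 : ℝ) ≤ L ^ 2 := by nlinarith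
    rw [le_div_iff₀ (by norm_num)]
    have h2 : D * L * L ^ 2 ≤ N := by nlinarith
    have h3 : 0 ≤ D * L := by positivity
    nlinarith
  have hDD : D ≤ D * L := by nlinarith
  calc _ ≤ 2 * (((l : ℝ) + 1) ^ 2 * ((N : ℝ) ^ (16 * l) * kap ^ N)) := by linarith
    _ ≤ N * ((N ^ 2) ^ 2 * ((N : ℝ) ^ (16 * l) * Real.exp (-(N / 16384)))) := by
        have hk := kap_pos
        have hl0 : (0 : ℝ) ≤ (l : ℝ) + 1 := by positivity
        apply mul_le_mul (by linarith) _ (by positivity) (by positivity)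
        apply mul_le_mul (pow_le_pow_left₀ hl0 hl1 2) _ (by positivity) (by positivity)
        exact mul_le_mul_of_nonneg_left (nb_kap N) (by positivity)
    _ = Real.exp ((5 + 16 * l) * L - N / 16384) := by
        have : (N : ℝ) * ((N ^ 2) ^ 2 * ((N : ℝ) ^ (16 * l) * Real.exp (-(N / 16384)))) =
            (N : ℝ) ^ (5 + 16 * l) * Real.exp (-(N / 16384)) := by rw [pow_add]; ring
        rw [this, hpow, ← Real.exp_add]
        congr 1
        push_cast
        ring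
    _ ≤ Real.exp (-D) := by
        apply Real.exp_le_exp.mpr
        have h1 : (l : ℝ) * L ≤ (10 * D + 2) * L := mul_le_mul_of_nonneg_right hl hL0.le
        have h2 : (5 + 16 * (l : ℝ)) * L ≤ 37 * L + 160 * (D * L) := by nlinarith
        have h3 : D ≤ N / 5760000 := by linarith
        linarith

end Crest.Agent.CVB
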