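import Crest.Agent.CVB_Defs

/-! # CVB-2: number of hyperplanes containing an independent set -/

set_option autoImplicit false
open Classical

namespace Crest.Agent.CVB

/-- The equivalence `(h, α) ↦ (-α, h)`. -/
private def hypEquiv (K : Type) [Field K] (N : ℕ) :
    ((Fin N → K) × K) ≃ (Option (Fin N) → K) where
  toFun w := fun o => match o with
    | none => - w.2
    | some i => w.1 i
  invFun v := (fun i => v (some i), - v none)
  left_inv w := by
    ext <;> simp
  right_inv v := by
    funext o
    cases o <;> simp

/-- Task CVB-2.  PROOF: the `F_p`-linear map `w = (h, α) ↦ (∑ i, h i * x i - α)_{x ∈ B}` from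
`(Fin N → F_p) × F_p` to `B → F_p` is surjective because the functionals
`w ↦ ⟨(−α, h), ξ_x⟩` are linearly independent (rows independent ⇒ full rank), so its kernel has
`p^(N+1-|B|)` elements (`Submodule.card_eq_card_quotient_mul_card`, first isomorphism theorem,
or `LinearMap.finrank_range_add_finrank_ker` + `Module.card_eq_pow_finrank`). -/
theorem card_hyper (p : ℕ) [Fact p.Prime] {N : ℕ} (B : Finset (Fin N → ℤ)) (hB : indp p B) :
    ((Finset.univ : Finset ((Fin N → ZMod p) × ZMod p)).filter
      (fun w => ∀ x ∈ B, ∑ i, w.1 i * ((x i : ℤ) : ZMod p) = w.2)).card * p ^ B.card =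
      p ^ (N + 1) := by
  set A : Matrix B (Option (Fin N)) (ZMod p) := fun x j => xi (ZMod p) (x : Fin N → ℤ) j with hA
  have hrank : A.rank = Fintype.card B := by
    apply LinearIndependent.rank_matrix
    exact hB
  have hsurj : Function.Surjective A.mulVecLin := by
    rw [← LinearMap.range_eq_top]
    apply Submodule.eq_top_of_finrank_eq
    rw [Module.finrank_fintype_fun_eq_card]
    exact hrank
  have h1 : Nat.card (LinearMap.ker A.mulVecLin) * p ^ B.card = p ^ (N + 1) := by
    have h := Submodule.card_eq_card_quotient_mul_card (LinearMap.ker A.mulVecLin)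
    have h2 : Nat.card ((Option (Fin N) → ZMod p) ⧸ LinearMap.ker A.mulVecLin)
        = Nat.card (B → ZMod p) :=
      Nat.card_congr (A.mulVecLin.quotKerEquivOfSurjective hsurj).toEquiv
    rw [h2] at h
    have h3 : Nat.card (B → ZMod p) = p ^ B.card := by
      rw [Nat.card_eq_fintype_card, Fintype.card_fun, ZMod.card, Fintype.card_coe]
    have h4 : Nat.card (Option (Fin N) → ZMod p) = p ^ (N + 1) := by
      rw [Nat.card_eq_fintype_card, Fintype.card_fun, ZMod.card, Fintype.card_option,
        Fintype.card_fin]
    rw [h3, h4] at h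
    rw [h]
  have h2 : ((Finset.univ : Finset ((Fin N → ZMod p) × ZMod p)).filter
      (fun w => ∀ x ∈ B, ∑ i, w.1 i * ((x i : ℤ) : ZMod p) = w.2)).card
      = Nat.card (LinearMap.ker A.mulVecLin) := by
    rw [← Fintype.card_subtype, ← Nat.card_eq_fintype_card]
    apply Nat.card_congr
    refine Equiv.subtypeEquiv (hypEquiv (ZMod p) N) ?_
    intro w
    rw [LinearMap.mem_ker, Matrix.mulVecLin_apply]
    constructor
    · intro h
      funext x
      have hx := h x.1 x.2
      simp only [Matrix.mulVec, dotProduct, Fintype.sum_option, hA, xi_none, xi_some, hypEquiv,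
        Equiv.coe_fn_mk, one_mul, Pi.zero_apply]
      rw [← hx, neg_add_eq_zero]
      exact Finset.sum_congr rfl (fun i _ => mul_comm _ _)
    · intro h x hx
      have := congrFun h ⟨x, hx⟩
      simp only [Matrix.mulVec, dotProduct, Fintype.sum_option, hA, xi_none, xi_some, hypEquiv,
        Equiv.coe_fn_mk, one_mul, Pi.zero_apply] at this
      rw [neg_add_eq_zero] at this
      rw [this]
      exact Finset.sum_congr rfl (fun i _ => mul_comm _ _)
  rw [h2, h1]

end Crest.Agent.CVB
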