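import Crest.Agent.CVB_Bonf
import Crest.Agent.CVB_Hyper

/-! # CVB-3: void probability via good and bad sets -/

set_option autoImplicit false
open Classical

namespace Crest.Agent.CVB

private theorem vd_good_empty (p : ℕ) [Fact p.Prime] {N : ℕ} (X : Finset (Fin N → ℤ)) :
    goodp p X ∅ := by
  refine ⟨linearIndependent_empty_type, fun x _ hx => ?_⟩
  exfalso
  rw [Finset.coe_empty, Set.image_empty, Submodule.span_empty, Submodule.mem_bot] at hx
  have h1 := congrFun hx none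
  rw [xi_none] at h1
  exact one_ne_zero h1

private theorem vd_indp_iff (p : ℕ) {N : ℕ} (B : Finset (Fin N → ℤ)) :
    indp p B ↔ LinearIndepOn (ZMod p) (xi (ZMod p)) (B : Set (Fin N → ℤ)) := Iff.rfl

private theorem vd_mono (p : ℕ) [Fact p.Prime] {N : ℕ} (X : Finset (Fin N → ℤ))
    {B C : Finset (Fin N → ℤ)} (hCB : C ⊆ B) (hB : goodp p X B) : goodp p X C := by
  obtain ⟨h1, h2⟩ := hB
  rw [vd_indp_iff] at h1
  have h3 : LinearIndepOn (ZMod p) (xi (ZMod p)) (C : Set (Fin N → ℤ)) :=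
    h1.mono (Finset.coe_subset.mpr hCB)
  refine ⟨h3, fun x hx hxs => ?_⟩
  have h4 : x ∈ B := h2 x hx (Submodule.span_mono (Set.image_mono (Finset.coe_subset.mpr hCB)) hxs)
  by_contra hxC
  have h5 : LinearIndepOn (ZMod p) (xi (ZMod p)) (insert x (C : Set (Fin N → ℤ))) := by
    refine h1.mono ?_
    rintro y (rfl | hy)
    · exact h4
    · exact hCB hy
  have h6 := (linearIndepOn_insert (by simpa using hxC)).mp h5
  exact h6.2 hxs

private theorem vd_ind (p : ℕ) [Fact p.Prime] {N : ℕ} (X : Finset (Fin N → ℤ))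
    {B : Finset (Fin N → ℤ)} {y : Fin N → ℤ} (hy : y ∈ X) (hyB : y ∉ B) (hB : goodp p X B) :
    indp p (insert y B) := by
  obtain ⟨h1, h2⟩ := hB
  rw [vd_indp_iff] at h1 ⊢
  rw [Finset.coe_insert, linearIndepOn_insert (by simpa using hyB)]
  exact ⟨h1, fun h => hyB (h2 y hy h)⟩

/-- exchange of sums -/
private theorem vd_swap (p : ℕ) [Fact p.Prime] {N : ℕ} (X : Finset (Fin N → ℤ)) (j : ℕ)
    (P : Finset (Fin N → ℤ) → Prop) [DecidablePred P] (hP : ∀ B, P B → indp p B) :
    ∑ w : (Fin N → ZMod p) × ZMod p,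
      ((((X.filter (fun x => ∑ i, w.1 i * ((x i : ℤ) : ZMod p) = w.2)).powersetCard j).filter
        P).card : ℝ) =
      (((X.powersetCard j).filter P).card : ℝ) * ((p : ℝ) ^ (N + 1) * (1 / (p : ℝ)) ^ j) := by
  have hp0 : (p : ℝ) ≠ 0 := by
    have := (Fact.out : p.Prime).ne_zero
    exact_mod_cast this
  have h1 : ∀ w : (Fin N → ZMod p) × ZMod p,
      ((((X.filter (fun x => ∑ i, w.1 i * ((x i : ℤ) : ZMod p) = w.2)).powersetCard j).filter
        P).card : ℝ) = ∑ B ∈ (X.powersetCard j).filter P,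
        (if ∀ x ∈ B, ∑ i, w.1 i * ((x i : ℤ) : ZMod p) = w.2 then (1 : ℝ) else 0) := by
    intro w
    rw [← Finset.sum_filter, Finset.sum_const, nsmul_eq_mul, mul_one]
    congr 2
    ext B
    simp only [Finset.mem_filter, Finset.mem_powersetCard]
    constructor
    · rintro ⟨⟨h2, h3⟩, h4⟩
      refine ⟨⟨⟨fun x hx => (Finset.mem_filter.mp (h2 hx)).1, h3⟩, h4⟩, fun x hx =>
        (Finset.mem_filter.mp (h2 hx)).2⟩
    · rintro ⟨⟨⟨h2, h3⟩, h4⟩, h5⟩
      exact ⟨⟨fun x hx => Finset.mem_filter.mpr ⟨h2 hx, h5 x hx⟩, h3⟩, h4⟩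
  rw [Finset.sum_congr rfl fun w _ => h1 w, Finset.sum_comm]
  have h2 : ∀ B ∈ (X.powersetCard j).filter P,
      ∑ w : (Fin N → ZMod p) × ZMod p,
        (if ∀ x ∈ B, ∑ i, w.1 i * ((x i : ℤ) : ZMod p) = w.2 then (1 : ℝ) else 0) =
      (p : ℝ) ^ (N + 1) * (1 / (p : ℝ)) ^ j := by
    intro B hB
    rw [Finset.mem_filter, Finset.mem_powersetCard] at hB
    obtain ⟨⟨_, hc⟩, hPB⟩ := hB
    rw [← Finset.sum_filter, Finset.sum_const, nsmul_eq_mul, mul_one]
    have h3 := card_hyper p B (hP B hPB)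
    rw [hc] at h3
    have h4 : ((((Finset.univ : Finset ((Fin N → ZMod p) × ZMod p)).filter
      (fun w => ∀ x ∈ B, ∑ i, w.1 i * ((x i : ℤ) : ZMod p) = w.2)).card : ℕ) : ℝ) * (p : ℝ) ^ j =
      (p : ℝ) ^ (N + 1) := by exact_mod_cast h3
    rw [← h4, one_div, inv_pow, mul_assoc, mul_inv_cancel₀ (pow_ne_zero _ hp0), mul_one]
  rw [Finset.sum_congr rfl h2, Finset.sum_const, nsmul_eq_mul]

/-- Task CVB-3.  PROOF: for `w = (h,α)` let `A(w) = X.filter (⟨h,x⟩ = α)`.  Apply `bonf` to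
`A(w)`, `good := goodp p X`, `ind := indp p` (`goodp ∅`: the empty family is independent and
`ξ_x ∉ span ∅ = ⊥` since `ξ_x none = 1`; hereditary: if `C ⊆ B`, `x ∈ X`, `ξ_x ∈ span ξ_C` then
`x ∈ B` by `goodp B`, and `x ∈ C` because `ξ_B` is independent; `hind`: `y ∈ X`, `y ∉ B` gives
`ξ_y ∉ span ξ_B`, so `ξ_{B ∪ y}` is independent).  Sum over `w`, exchange sums:
`∑_w #{B ∈ powersetCard j A(w) | P B} = ∑_{B ∈ powersetCard j X, P B} #{w | B ⊆ A(w)}` and for
`B` independent `#{w | B ⊆ A(w)} = p^(N+1)/p^j` (`card_hyper`).  Both `goodp B` and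
`¬goodp B ∧ indp B` sets are independent.  Finally `#good_j = C(|X|,j) - #bad_j`, so
`(-1)^j #good_j ≤ (-1)^j C(|X|,j) + #bad_j`. -/
theorem void_le (p : ℕ) [Fact p.Prime] {N : ℕ} (X : Finset (Fin N → ℤ)) (l : ℕ) (hl : Even l) :
    (((Finset.univ : Finset ((Fin N → ZMod p) × ZMod p)).filter
      (fun w => ∀ x ∈ X, ∑ i, w.1 i * ((x i : ℤ) : ZMod p) ≠ w.2)).card : ℝ) ≤
      (p : ℝ) ^ (N + 1) *
        (∑ j ∈ Finset.range (l + 1), (-1) ^ j * ((X.card.choose j : ℕ) : ℝ) * (1 / (p : ℝ)) ^ j +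
          2 * ∑ j ∈ Finset.range (l + 1),
            (((X.powersetCard j).filter (fun B => ¬ goodp p X B)).card : ℝ) *
              (1 / (p : ℝ)) ^ j) := by
  have hp0 : (0 : ℝ) < (p : ℝ) := by
    have := (Fact.out : p.Prime).pos
    exact_mod_cast this
  -- Bonferroni for every `w`
  have hb : ∀ w : (Fin N → ZMod p) × ZMod p,
      (if X.filter (fun x => ∑ i, w.1 i * ((x i : ℤ) : ZMod p) = w.2) = ∅ then (1 : ℝ) else 0) ≤
      ∑ j ∈ Finset.range (l + 1), (-1) ^ j *
        ((((X.filter (fun x => ∑ i, w.1 i * ((x i : ℤ) : ZMod p) = w.2)).powersetCard j).filter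
          (goodp p X)).card : ℝ) +
      ∑ j ∈ Finset.range (l + 1),
        ((((X.filter (fun x => ∑ i, w.1 i * ((x i : ℤ) : ZMod p) = w.2)).powersetCard j).filter
          (fun B => ¬ goodp p X B ∧ indp p B)).card : ℝ) := by
    intro w
    have hbonf := bonf (X.filter (fun x => ∑ i, w.1 i * ((x i : ℤ) : ZMod p) = w.2))
      (goodp p X) (indp p) (vd_good_empty p X) (fun B _ C hC hB => vd_mono p X hC hB)
      (fun B _ y hy hyB hB => by
        have hyX : y ∈ X := by
          exact (Finset.mem_filter.mp hy).1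
        have h := vd_ind p X hyX hyB hB
        convert h) l hl
    convert hbonf
  have h1 : (((Finset.univ : Finset ((Fin N → ZMod p) × ZMod p)).filter
      (fun w => ∀ x ∈ X, ∑ i, w.1 i * ((x i : ℤ) : ZMod p) ≠ w.2)).card : ℝ) =
      ∑ w : (Fin N → ZMod p) × ZMod p,
        (if X.filter (fun x => ∑ i, w.1 i * ((x i : ℤ) : ZMod p) = w.2) = ∅ then (1 : ℝ) else 0) := by
    rw [← Finset.sum_filter, Finset.sum_const, nsmul_eq_mul, mul_one]
    congr 2
    ext w
    simp only [Finset.mem_filter, Finset.mem_univ, true_and, Finset.filter_eq_empty_iff]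
  have h2 : ∑ w : (Fin N → ZMod p) × ZMod p,
      (∑ j ∈ Finset.range (l + 1), (-1) ^ j *
        ((((X.filter (fun x => ∑ i, w.1 i * ((x i : ℤ) : ZMod p) = w.2)).powersetCard j).filter
          (goodp p X)).card : ℝ) +
      ∑ j ∈ Finset.range (l + 1),
        ((((X.filter (fun x => ∑ i, w.1 i * ((x i : ℤ) : ZMod p) = w.2)).powersetCard j).filter
          (fun B => ¬ goodp p X B ∧ indp p B)).card : ℝ)) =
      (p : ℝ) ^ (N + 1) *
      (∑ j ∈ Finset.range (l + 1), (-1) ^ j *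
        (((X.powersetCard j).filter (goodp p X)).card : ℝ) * (1 / (p : ℝ)) ^ j +
      ∑ j ∈ Finset.range (l + 1),
        (((X.powersetCard j).filter (fun B => ¬ goodp p X B ∧ indp p B)).card : ℝ) *
          (1 / (p : ℝ)) ^ j) := by
    rw [Finset.sum_add_distrib, mul_add, Finset.sum_comm]
    rw [Finset.sum_comm (f := fun (w : (Fin N → ZMod p) × ZMod p) j =>
      ((((X.filter (fun x => ∑ i, w.1 i * ((x i : ℤ) : ZMod p) = w.2)).powersetCard j).filter
          (fun B => ¬ goodp p X B ∧ indp p B)).card : ℝ))]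
    rw [Finset.mul_sum, Finset.mul_sum]
    congr 1
    · refine Finset.sum_congr rfl fun j _ => ?_
      rw [← Finset.mul_sum, vd_swap p X j (goodp p X) (fun B hB => hB.1)]
      ring
    · refine Finset.sum_congr rfl fun j _ => ?_
      rw [vd_swap p X j (fun B => ¬ goodp p X B ∧ indp p B) (fun B hB => hB.2)]
      ring
  rw [h1]
  refine (Finset.sum_le_sum fun w _ => hb w).trans ?_
  rw [h2]
  refine mul_le_mul_of_nonneg_left ?_ (by positivity)
  have h3 : ∀ j : ℕ, (((X.powersetCard j).filter (goodp p X)).card : ℝ) =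
      ((X.card.choose j : ℕ) : ℝ) -
        (((X.powersetCard j).filter (fun B => ¬ goodp p X B)).card : ℝ) := by
    intro j
    have h4 := Finset.card_filter_add_card_filter_not (s := X.powersetCard j) (goodp p X)
    rw [Finset.card_powersetCard] at h4
    have h5 : (((X.powersetCard j).filter (goodp p X)).card : ℝ) +
        (((X.powersetCard j).filter (fun B => ¬ goodp p X B)).card : ℝ) =
        ((X.card.choose j : ℕ) : ℝ) := by exact_mod_cast h4
    linarith
  have h6 : ∀ j : ℕ, (((X.powersetCard j).filter (fun B => ¬ goodp p X B ∧ indp p B)).card : ℝ) ≤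
      (((X.powersetCard j).filter (fun B => ¬ goodp p X B)).card : ℝ) := by
    intro j
    have h7 : (X.powersetCard j).filter (fun B => ¬ goodp p X B ∧ indp p B) ⊆
        (X.powersetCard j).filter (fun B => ¬ goodp p X B) := by
      intro B hB
      rw [Finset.mem_filter] at hB ⊢
      exact ⟨hB.1, hB.2.1⟩
    exact_mod_cast Finset.card_le_card h7
  have hA : ∑ j ∈ Finset.range (l + 1), (-1) ^ j *
        (((X.powersetCard j).filter (goodp p X)).card : ℝ) * (1 / (p : ℝ)) ^ j ≤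
      ∑ j ∈ Finset.range (l + 1), ((-1) ^ j * ((X.card.choose j : ℕ) : ℝ) * (1 / (p : ℝ)) ^ j +
        (((X.powersetCard j).filter (fun B => ¬ goodp p X B)).card : ℝ) * (1 / (p : ℝ)) ^ j) := by
    refine Finset.sum_le_sum fun j _ => ?_
    rw [h3 j, ← add_mul]
    refine mul_le_mul_of_nonneg_right ?_ (by positivity)
    have h8 : (0 : ℝ) ≤ (((X.powersetCard j).filter (fun B => ¬ goodp p X B)).card : ℝ) :=
      Nat.cast_nonneg _
    rcases neg_one_pow_eq_or ℝ j with h9 | h9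
    · rw [h9]; linarith
    · rw [h9]; linarith
  rw [Finset.sum_add_distrib] at hA
  have hB : ∑ j ∈ Finset.range (l + 1),
        (((X.powersetCard j).filter (fun B => ¬ goodp p X B ∧ indp p B)).card : ℝ) *
          (1 / (p : ℝ)) ^ j ≤ ∑ j ∈ Finset.range (l + 1),
        (((X.powersetCard j).filter (fun B => ¬ goodp p X B)).card : ℝ) * (1 / (p : ℝ)) ^ j :=
    Finset.sum_le_sum fun j _ => mul_le_mul_of_nonneg_right (h6 j) (by positivity)
  linarith

end Crest.Agent.CVB
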