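import Crest.Agent.CV_Defs
import Crest.Agent.CVB_Void
import Crest.Agent.CVB_Binom
import Crest.Agent.CVB_Bad
import Crest.Agent.CVB_Circ
import Crest.Agent.CVB_Num1
import Crest.Agent.CVB_Num2
import Crest.Agent.CVB_Num3

/-! # CVB-27: the base lemma (assembly, helper17) -/

set_option autoImplicit false
open Classical

namespace Crest.Agent.CVB

private theorem bad_real {p : ℕ} [Fact p.Prime] {N : ℕ} (X : Finset (Fin N → ℤ))
    (hX : Cube4 X) (hXR : ∀ x ∈ X, ∀ i, |x i| ≤ ((N ^ 14 : ℕ) : ℤ)) (hN : 1 ≤ N) (j : ℕ)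
    (hp : (j + 1).factorial * ((N + 1) * (N ^ 14) ^ 2) ^ (j + 1) < p) :
    (((X.powersetCard j).filter (fun B => ¬ goodp p X B)).card : ℝ) * (1 / (p : ℝ)) ^ j ≤
      ∑ r ∈ Finset.Icc 1 j,
        (16 * (2 * (N : ℝ) ^ 14 + 1)) ^ r * kap ^ N * ((X.card : ℝ) / p) ^ j := by
  have hR1 : 1 ≤ N ^ 14 := Nat.one_le_pow _ _ hN
  have h1 := bad_card p X (N ^ 14) hR1 hXR j hp
  have hp0 : (0 : ℝ) < p := by exact_mod_cast (Fact.out : p.Prime).pos
  have h2 : (((X.powersetCard j).filter (fun B => ¬ goodp p X B)).card : ℝ) ≤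
      ∑ r ∈ Finset.Icc 1 j, ((circF X r).card : ℝ) * ((X.card.choose (j - r) : ℕ) : ℝ) := by
    exact_mod_cast h1
  have h3 : ∀ r ∈ Finset.Icc 1 j,
      ((circF X r).card : ℝ) * ((X.card.choose (j - r) : ℕ) : ℝ) * (1 / (p : ℝ)) ^ j ≤
        (16 * (2 * (N : ℝ) ^ 14 + 1)) ^ r * kap ^ N * ((X.card : ℝ) / p) ^ j := by
    intro r hr
    rw [Finset.mem_Icc] at hr
    have h4 := circ_card X hX (N ^ 14) hR1 hXR r hr.1
    have h5 : ((X.card.choose (j - r) : ℕ) : ℝ) ≤ (X.card : ℝ) ^ (j - r) := by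
      exact_mod_cast Nat.choose_le_pow _ _
    have h6 : ((X.card : ℝ) / p) ^ j = (X.card : ℝ) ^ r * (X.card : ℝ) ^ (j - r) * (1 / (p : ℝ)) ^ j := by
      rw [← pow_add, Nat.add_sub_cancel' hr.2, ← mul_pow]
      congr 1
      ring
    rw [h6]
    have h7 : (0 : ℝ) ≤ (1 / (p : ℝ)) ^ j := by positivity
    calc ((circF X r).card : ℝ) * ((X.card.choose (j - r) : ℕ) : ℝ) * (1 / (p : ℝ)) ^ j
        ≤ ((16 * (2 * ((N ^ 14 : ℕ) : ℝ) + 1)) ^ r * (X.card : ℝ) ^ r * kap ^ N) *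
            (X.card : ℝ) ^ (j - r) * (1 / (p : ℝ)) ^ j := by
          apply mul_le_mul_of_nonneg_right _ h7
          apply mul_le_mul h4 h5 (by positivity)
          have := kap_pos
          positivity
      _ = _ := by push_cast; ring
  calc (((X.powersetCard j).filter (fun B => ¬ goodp p X B)).card : ℝ) * (1 / (p : ℝ)) ^ j
      ≤ (∑ r ∈ Finset.Icc 1 j, ((circF X r).card : ℝ) * ((X.card.choose (j - r) : ℕ) : ℝ)) *
          (1 / (p : ℝ)) ^ j := by
        apply mul_le_mul_of_nonneg_right h2; positivity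
    _ = ∑ r ∈ Finset.Icc 1 j, ((circF X r).card : ℝ) * ((X.card.choose (j - r) : ℕ) : ℝ) *
          (1 / (p : ℝ)) ^ j := by rw [Finset.sum_mul]
    _ ≤ _ := Finset.sum_le_sum h3

theorem base : CV.BaseLemma := by
  obtain ⟨n1, h1⟩ := num_fact
  obtain ⟨n3, h3⟩ := num_bad
  refine ⟨max 1 (max n1 n3), fun N hN p hp hNp X hXR hX hcard => ?_⟩
  have hN1 : 1 ≤ N := le_trans (le_max_left _ _) hN
  have hNn1 : n1 ≤ N := le_trans (le_trans (le_max_left _ _) (le_max_right _ _)) hN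
  have hNn3 : n3 ≤ N := le_trans (le_trans (le_max_right _ _) (le_max_right _ _)) hN
  have hp0 : (0 : ℝ) < p := by exact_mod_cast (Fact.out : p.Prime).pos
  have hp1 : (1 : ℝ) ≤ p := by exact_mod_cast (Fact.out : p.Prime).one_lt.le
  set D : ℝ := (X.card : ℝ) / p with hD
  have hD0 : 0 ≤ D := by positivity
  have hDN : D * (Real.log N) ^ 3 ≤ N := by
    rw [hD, div_mul_eq_mul_div, div_le_iff₀ hp0]
    linarith [mul_comm (p : ℝ) N]
  set l : ℕ := 2 * ⌈5 * D⌉₊ with hl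
  have hleven : Even l := ⟨⌈5 * D⌉₊, by rw [hl]; ring⟩
  have hl1 : 10 * D ≤ (l : ℝ) := by
    have := Nat.le_ceil (5 * D)
    rw [hl]; push_cast; linarith
  have hl2 : (l : ℝ) ≤ 10 * D + 2 := by
    have := Nat.ceil_lt_add_one (show 0 ≤ 5 * D by positivity)
    rw [hl]; push_cast; linarith
  have hcube : Cube4 X := fun x hx y hy => hX x hx y hy
  have hXR' : ∀ x ∈ X, ∀ i, |x i| ≤ ((N ^ 14 : ℕ) : ℤ) := by
    intro x hx i
    have := hXR x hx i
    push_cast
    exact this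
  have hvoid := void_le p X l hleven
  have halt := alt_binom X.card l hleven (1 / (p : ℝ)) (by positivity)
    (by rw [div_le_one hp0]; exact hp1)
  have hDeq : (X.card : ℝ) * (1 / (p : ℝ)) = D := by rw [hD]; ring
  rw [hDeq] at halt
  have htail := num_tail D hD0 l hl1
  have hbad : 2 * ∑ j ∈ Finset.range (l + 1),
      (((X.powersetCard j).filter (fun B => ¬ goodp p X B)).card : ℝ) * (1 / (p : ℝ)) ^ j ≤
        Real.exp (-D) := by
    refine le_trans ?_ (h3 N hNn3 D l hD0 hDN hl2)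
    apply mul_le_mul_of_nonneg_left _ (by norm_num)
    apply Finset.sum_le_sum
    intro j hj
    have hj' : j ≤ l := by
      have := Finset.mem_range.mp hj; omega
    exact bad_real X hcube hXR' hN1 j (lt_of_lt_of_le (h1 N hNn1 D l hD0 hDN hl2 j hj') hNp)
  have hneg : -(X.card : ℝ) / p = -D := by rw [hD]; ring
  calc _ ≤ (p : ℝ) ^ (N + 1) *
        (∑ j ∈ Finset.range (l + 1), (-1) ^ j * ((X.card.choose j : ℕ) : ℝ) * (1 / (p : ℝ)) ^ j +
          2 * ∑ j ∈ Finset.range (l + 1),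
            (((X.powersetCard j).filter (fun B => ¬ goodp p X B)).card : ℝ) *
              (1 / (p : ℝ)) ^ j) := by
        convert hvoid using 2
    _ ≤ (p : ℝ) ^ (N + 1) * (3 * Real.exp (-D)) := by
        apply mul_le_mul_of_nonneg_left _ (by positivity)
        linarith
    _ = 3 * (p : ℝ) ^ (N + 1) * Real.exp (-(X.card : ℝ) / p) := by rw [hneg]; ring

end Crest.Agent.CVB
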