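import Crest.Agent.CVB_Defs

/-! # CVB-1: Bonferroni inequality for a hereditary family -/

set_option autoImplicit false
open Classical

namespace Crest.Agent.CVB

/-- number of `j`-subsets of `A` with property `P` -/
private noncomputable def bfc {α : Type} (A : Finset α) (P : Finset α → Prop) (j : ℕ) : ℝ :=
  (((A.powersetCard j).filter P).card : ℝ)

private theorem bfc_nonneg {α : Type} (A : Finset α) (P : Finset α → Prop) (j : ℕ) :
    0 ≤ bfc A P j := by
  unfold bfc; positivity

private theorem bfc_zero {α : Type} (A : Finset α) (P : Finset α → Prop) :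
    bfc A P 0 = if P ∅ then 1 else 0 := by
  unfold bfc
  rw [Finset.powersetCard_zero, Finset.filter_singleton]
  split_ifs <;> simp

private theorem bfc_succ {α : Type} {A : Finset α} {y : α} (hy : y ∉ A) (P : Finset α → Prop)
    (j : ℕ) : bfc (insert y A) P (j + 1) = bfc A P (j + 1) + bfc A (fun C => P (insert y C)) j := by
  unfold bfc
  rw [Finset.powersetCard_succ_insert hy, Finset.filter_union, Finset.card_union_of_disjoint]
  · push_cast
    congr 1
    rw [Finset.filter_image, Finset.card_image_of_injOn]
    intro B hB C hC hBC
    have hB' := (Finset.mem_powersetCard.1 (Finset.mem_filter.1 (Finset.mem_coe.1 hB)).1).1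
    have hC' := (Finset.mem_powersetCard.1 (Finset.mem_filter.1 (Finset.mem_coe.1 hC)).1).1
    have h1 : (insert y B).erase y = (insert y C).erase y := by
      have : insert y B = insert y C := hBC
      rw [this]
    rwa [Finset.erase_insert (fun h => hy (hB' h)), Finset.erase_insert (fun h => hy (hC' h))] at h1
  · rw [Finset.disjoint_left]
    intro B hB hB2
    have h1 := (Finset.mem_powersetCard.1 (Finset.mem_filter.1 hB).1).1
    obtain ⟨C, _, hC⟩ := Finset.mem_image.1 (Finset.mem_filter.1 hB2).1
    exact hy (h1 (hC ▸ Finset.mem_insert_self y C))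

/-- signed sum -/
private noncomputable def bfs {α : Type} (A : Finset α) (P : Finset α → Prop) (l : ℕ) : ℝ :=
  ∑ j ∈ Finset.range (l + 1), (-1) ^ j * bfc A P j

/-- unsigned sum -/
private noncomputable def bfu {α : Type} (A : Finset α) (P : Finset α → Prop) (l : ℕ) : ℝ :=
  ∑ j ∈ Finset.range (l + 1), bfc A P j

private theorem bfu_nonneg {α : Type} (A : Finset α) (P : Finset α → Prop) (l : ℕ) :
    0 ≤ bfu A P l := Finset.sum_nonneg fun _ _ => bfc_nonneg _ _ _

private theorem bfs_step {α : Type} {A : Finset α} {y : α} (hy : y ∉ A) (P : Finset α → Prop)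
    (l : ℕ) : bfs (insert y A) P (l + 1) = bfs A P (l + 1) - bfs A (fun C => P (insert y C)) l := by
  unfold bfs
  rw [Finset.sum_range_succ', Finset.sum_range_succ' (fun j => (-1) ^ j * bfc A P j), bfc_zero,
    bfc_zero]
  simp only [bfc_succ hy]
  have h1 : ∀ j : ℕ, (-1 : ℝ) ^ (j + 1) * (bfc A P (j + 1) + bfc A (fun C => P (insert y C)) j) =
      (-1) ^ (j + 1) * bfc A P (j + 1) - (-1) ^ j * bfc A (fun C => P (insert y C)) j := fun j => by
    ring
  simp only [h1]
  rw [Finset.sum_sub_distrib]
  ring

private theorem bfu_step {α : Type} {A : Finset α} {y : α} (hy : y ∉ A) (P : Finset α → Prop)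
    (l : ℕ) : bfu (insert y A) P (l + 1) = bfu A P (l + 1) + bfu A (fun C => P (insert y C)) l := by
  unfold bfu
  rw [Finset.sum_range_succ', Finset.sum_range_succ' (fun j => bfc A P j), bfc_zero, bfc_zero]
  simp only [bfc_succ hy]
  rw [Finset.sum_add_distrib]
  ring

private theorem bf_main {α : Type} (A : Finset α) : ∀ (good ind : Finset α → Prop)
    (_ : good ∅) (_ : ∀ B ⊆ A, ∀ C ⊆ B, good B → good C)
    (_ : ∀ B ⊆ A, ∀ y ∈ A, y ∉ B → good B → ind (insert y B)) (l : ℕ),
    (Even l → (if A = ∅ then (1 : ℝ) else 0) ≤
      bfs A good l + bfu A (fun B => ¬ good B ∧ ind B) l) ∧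
    (Odd l → bfs A good l - bfu A (fun B => ¬ good B ∧ ind B) l ≤
      (if A = ∅ then (1 : ℝ) else 0)) := by
  induction A using Finset.induction_on with
  | empty =>
    intro good ind h0 _ _ l
    have h1 : ∀ (P : Finset α → Prop) (j : ℕ), bfc ∅ P (j + 1) = 0 := by
      intro P j
      unfold bfc
      rw [Finset.powersetCard_eq_empty.2 (by simp)]
      simp
    have h2 : ∀ l, bfs ∅ good l = 1 := by
      intro l
      unfold bfs
      rw [Finset.sum_range_succ', bfc_zero, if_pos h0]
      simp [h1]
    rw [if_pos rfl, h2]
    have h3 := bfu_nonneg ∅ (fun B => ¬ good B ∧ ind B) l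
    exact ⟨fun _ => by linarith, fun _ => by linarith⟩
  | insert y A hy ih =>
    intro good ind h0 hmono hind l
    have hne : insert y A ≠ ∅ := Finset.insert_ne_empty y A
    rw [if_neg hne]
    have hsub : A ⊆ insert y A := Finset.subset_insert y A
    have hI := ih good ind h0 (fun B hB => hmono B (hB.trans hsub))
      (fun B hB z hz => hind B (hB.trans hsub) z (hsub hz))
    rcases l with _ | l
    · refine ⟨fun _ => ?_, fun h => absurd h (by decide)⟩
      have h1 : bfs (insert y A) good 0 = 1 := by
        unfold bfs
        rw [zero_add, Finset.sum_range_one, bfc_zero, if_pos h0]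
        norm_num
      rw [h1]
      have h3 := bfu_nonneg (insert y A) (fun B => ¬ good B ∧ ind B) 0
      linarith
    · rw [bfs_step hy, bfu_step hy]
      obtain ⟨hE, hO⟩ := hI (l + 1)
      have hInn : (0 : ℝ) ≤ if A = ∅ then (1 : ℝ) else 0 := by split_ifs <;> norm_num
      have hIle : (if A = ∅ then (1 : ℝ) else 0) ≤ 1 := by split_ifs <;> norm_num
      by_cases hgy : good (insert y ∅)
      · obtain ⟨hE2, hO2⟩ := ih (fun C => good (insert y C)) (fun C => ind (insert y C)) hgy
          (fun B hB C hC => hmono _ (Finset.insert_subset_insert y hB) _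
            (Finset.insert_subset_insert y hC))
          (fun B hB z hz hzB hg => by
            rw [Finset.insert_comm]
            refine hind (insert y B) (Finset.insert_subset_insert y hB) z (hsub hz) ?_ hg
            rw [Finset.mem_insert]
            rintro (rfl | h)
            · exact hy hz
            · exact hzB h) l
        constructor
        · intro hl
          have hl2 : Odd l := by
            rcases Nat.even_or_odd l with h | h
            · exact absurd hl (by rw [Nat.even_add_one]; exact not_not.2 h)
            · exact h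
          have := hE hl
          have := hO2 hl2
          linarith
        · intro hl
          have hl2 : Even l := by
            rcases Nat.even_or_odd l with h | h
            · exact h
            · exact absurd hl (by rw [Nat.odd_add_one]; exact not_not.2 h)
          have := hO hl
          have := hE2 hl2
          linarith
      · have h1 : ∀ j, bfc A (fun C => good (insert y C)) j = 0 := by
          intro j
          unfold bfc
          rw [Finset.filter_false_of_mem]
          · simp
          · intro C hC hg
            rw [Finset.mem_powersetCard] at hC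
            exact hgy (hmono (insert y C) (Finset.insert_subset_insert y hC.1) (insert y ∅)
              (Finset.insert_subset_insert y (Finset.empty_subset C)) hg)
        have h2 : bfs A (fun C => good (insert y C)) l = 0 := by
          unfold bfs
          simp [h1]
        have h3 := bfu_nonneg A (fun C => ¬ good (insert y C) ∧ ind (insert y C)) l
        rw [h2]
        constructor
        · intro hl
          have := hE hl
          linarith
        · intro hl
          have := hO hl
          have h4 : 1 ≤ bfu A (fun C => ¬ good (insert y C) ∧ ind (insert y C)) l := by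
            unfold bfu
            rw [Finset.sum_range_succ', bfc_zero, if_pos]
            · have : 0 ≤ ∑ k ∈ Finset.range l,
                  bfc A (fun C => ¬ good (insert y C) ∧ ind (insert y C)) (k + 1) :=
                Finset.sum_nonneg fun _ _ => bfc_nonneg _ _ _
              linarith
            · exact ⟨hgy, hind ∅ (Finset.empty_subset _) y (Finset.mem_insert_self y A)
                (Finset.notMem_empty y) h0⟩
          linarith

/-- Task CVB-1.  PROOF: prove simultaneously the upper bound (`l` even) and the lower bound
(`l` odd: `Σ_{j≤l} (-1)^j G_j - Σ_{j≤l} NB_j ≤ 1[A=∅]`) by `Finset.induction_on A` with `good`,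
`ind`, `l` generalized.  Write `A = A' ∪ {y}`, `good^y C := good (insert y C)`,
`ind^y C := ind (insert y C)`; then (Pascal for `powersetCard`, `Finset.powersetCard_succ_insert`)
`G_j(A) = G_j(A') + G^y_{j-1}(A')`, and `NB_j(A) = NB_j(A') + NB^y_{j-1}(A')` (`j ≥ 1`), so
`Σ_{j≤l} (-1)^j G_j(A) = Σ_{j≤l} (-1)^j G_j(A') - Σ_{j≤l-1} (-1)^j G^y_j(A')`.
If `good {y}`: the hypotheses hold for `(A', good^y, ind^y)`; use the induction hypothesis for
`(A',good,ind,l)` and `(A',good^y,ind^y,l-1)` (opposite parity); `1[A'=∅]` cancels and
`1[A=∅]=0`.  If not `good {y}`: all `G^y_j = 0` by `hmono`, and (for `l` odd, so `l ≥ 1`) `{y}` is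
non-good with `ind {y}` (`hind ∅ y`), so `NB_1(A) ≥ NB_1(A') + 1`.
Base `A = ∅`: only `j = 0` contributes: `powersetCard 0 ∅ = {∅}`, `good ∅`. -/
theorem bonf {α : Type} (A : Finset α) (good ind : Finset α → Prop)
    (h0 : good ∅) (hmono : ∀ B ⊆ A, ∀ C ⊆ B, good B → good C)
    (hind : ∀ B ⊆ A, ∀ y ∈ A, y ∉ B → good B → ind (insert y B)) (l : ℕ) (hl : Even l) :
    (if A = ∅ then (1 : ℝ) else 0) ≤
      ∑ j ∈ Finset.range (l + 1), (-1) ^ j * (((A.powersetCard j).filter good).card : ℝ) +
      ∑ j ∈ Finset.range (l + 1),
        (((A.powersetCard j).filter (fun B => ¬ good B ∧ ind B)).card : ℝ) := by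
  have h := (bf_main A good ind h0 hmono hind l).1 hl
  unfold bfs bfu bfc at h
  convert h

end Crest.Agent.CVB
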