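import Mathlib

/-!
# S0347 part [B] (base lemma): definitions (owner helper17)

Notation: points of `ℤ^N` are functions `Fin N → ℤ`, `ξ_x = (1, x)`.
Paper proof: notes rid = S0347 (helper5, note 2 of 3, "PART B") and the docstrings of the
`CVB_*` files.
-/

set_option autoImplicit false

namespace Crest.Agent.CVB

open Classical

/-- `ξ_x = (1, x)` over a ring `R`. -/
def xi (R : Type) [Ring R] {N : ℕ} (x : Fin N → ℤ) : Option (Fin N) → R
  | none => 1
  | some i => ((x i : ℤ) : R)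

@[simp] theorem xi_none (R : Type) [Ring R] {N : ℕ} (x : Fin N → ℤ) : xi R x none = 1 := rfl
@[simp] theorem xi_some (R : Type) [Ring R] {N : ℕ} (x : Fin N → ℤ) (i : Fin N) :
    xi R x (some i) = ((x i : ℤ) : R) := rfl

/-- Union of aligned `4`-cubes. -/
def Cube4 {N : ℕ} (X : Finset (Fin N → ℤ)) : Prop :=
  ∀ x ∈ X, ∀ y : Fin N → ℤ, (∀ i, y i / 4 = x i / 4) → y ∈ X

/-- `∑_t b_t ξ_{x_t} = 0` on the coordinates in `S` (and the coordinate `none`). -/
def Rel {N k : ℕ} (S : Finset (Fin N)) (b : Fin k → ℤ) (x : Fin k → Fin N → ℤ) : Prop :=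
  (∑ t, b t = 0) ∧ ∀ i ∈ S, ∑ t, b t * x t i = 0

/-- `b` is primitive and all its entries are non zero. -/
def Prim {k : ℕ} (b : Fin k → ℤ) : Prop :=
  (∀ t, b t ≠ 0) ∧ ∀ q : ℕ, q.Prime → ∃ t, ¬ ((q : ℤ) ∣ b t)

/-- The first halves (coordinates in `S`) of `ξ_{y_t}` are linearly independent over `ℤ`. -/
def IndS {N k : ℕ} (S : Finset (Fin N)) (y : Fin k → Fin N → ℤ) : Prop :=
  ∀ c : Fin k → ℤ, Rel S c y → c = 0

/-- The tuples `(x_0, …, x_r)` of distinct points of `X` with a relation all of whose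
coefficients are non zero. -/
noncomputable def circF {N : ℕ} (X : Finset (Fin N → ℤ)) (r : ℕ) :
    Finset (Fin (r + 1) → Fin N → ℤ) :=
  (Fintype.piFinset (fun _ : Fin (r + 1) => X)).filter
    (fun x => Function.Injective x ∧ ∃ b : Fin (r + 1) → ℤ, Prim b ∧ Rel Finset.univ b x)

/-- `ξ_x`, `x ∈ B`, are linearly independent over `F_p`. -/
def indp (p : ℕ) {N : ℕ} (B : Finset (Fin N → ℤ)) : Prop :=
  LinearIndependent (ZMod p) (fun x : B => xi (ZMod p) (x : Fin N → ℤ))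

/-- `B` is independent over `F_p` and the span of `ξ_B` contains no other `ξ_x`, `x ∈ X`. -/
def goodp (p : ℕ) {N : ℕ} (X B : Finset (Fin N → ℤ)) : Prop :=
  indp p B ∧ ∀ x ∈ X, xi (ZMod p) x ∈
    Submodule.span (ZMod p) ((xi (ZMod p)) '' (B : Set (Fin N → ℤ))) → x ∈ B

/-- Swap `2k` and `2k+1`. -/
def fl (t : ℤ) : ℤ := t + 1 - 2 * (t % 2)

/-- Flip the coordinates in `E`. -/
def flipE {N : ℕ} (E : Finset (Fin N)) (x : Fin N → ℤ) : Fin N → ℤ :=
  fun i => if i ∈ E then fl (x i) else x i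

/-- The energy constant. -/
noncomputable def kap : ℝ := 1 - 1 / 16384

theorem kap_pos : 0 < kap := by unfold kap; norm_num
theorem kap_lt_one : kap < 1 := by unfold kap; norm_num
theorem half_le_kap_sq : 1 / 2 ≤ kap ^ 2 := by unfold kap; norm_num

/-- Number of additive quadruples `y₁ + y₂ = y₃ + y₄`. -/
noncomputable def en {G : Type} [AddCommGroup G] (X : Finset G) : ℕ :=
  (((X ×ˢ X) ×ˢ (X ×ˢ X)).filter (fun q => q.1.1 + q.1.2 = q.2.1 + q.2.2)).card

/-- `Q(f₁,f₂,f₃,f₄) = ∑_{x+y=z+w} f₁(x) f₂(y) f₃(z) f₄(w)` (sums over `T`). -/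
noncomputable def Qf {G : Type} [AddCommGroup G] (T : Finset G) (f1 f2 f3 f4 : G → ℝ) : ℝ :=
  ∑ x ∈ T, ∑ y ∈ T, ∑ z ∈ T, f1 x * f2 y * f3 z * f4 (x + y - z)

/-- `N(F) = (∑ F⁴)^{1/4}`. -/
noncomputable def nrm {G : Type} (T : Finset G) (F : G → ℝ) : ℝ :=
  Real.sqrt (Real.sqrt (∑ x ∈ T, F x ^ 4))

/-- The energy inequality with constant `k` for non-negative functions supported in `T` and
constant on the classes of `blk`. -/
def EN (G : Type) [AddCommGroup G] (blk : G → G → Prop) (k : ℝ) : Prop :=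
  ∀ (T : Finset G) (F : Fin 4 → G → ℝ), (∀ i x, 0 ≤ F i x) → (∀ i, ∀ x ∉ T, F i x = 0) →
    (∀ i x y, blk x y → F i x = F i y) →
    Qf T (fun x => F 0 x ^ 3) (fun x => F 1 x ^ 3) (fun x => F 2 x ^ 3) (fun x => F 3 x ^ 3) ≤
      k * ∏ i, nrm T (F i) ^ 3

end Crest.Agent.CVB
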