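import Crest.Agent.CVB_Defs

/-! # CVB-15: one-dimensional energy inequality: affinities -/

set_option autoImplicit false
open Classical

namespace Crest.Agent.CVB

/-- Affinity of `F` and its reflection at `s`. -/
noncomputable def Aff (T : Finset ℤ) (F : ℤ → ℝ) (s : ℤ) : ℝ :=
  ∑ z ∈ T, F z ^ 2 * F (s - z) ^ 2

/-- reindexing by a reflection -/
theorem cvbE1_refl (T T' : Finset ℤ) (g : ℤ → ℝ) (hg : ∀ x ∉ T, g x = 0) (s : ℤ)
    (h : T.image (fun x => s - x) ⊆ T') : ∑ z ∈ T', g (s - z) = ∑ x ∈ T, g x := by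
  rw [← Finset.sum_subset h]
  · rw [Finset.sum_image (by intro x _ y _ h; simpa using h)]
    refine Finset.sum_congr rfl (fun x _ => by rw [sub_sub_cancel])
  · intro z _ hz
    apply hg
    intro h'
    apply hz
    rw [Finset.mem_image]
    exact ⟨s - z, h', by ring⟩

/-- reindexing by a reflection, inequality -/
theorem cvbE1_refl_le (T T' : Finset ℤ) (g : ℤ → ℝ) (hg0 : ∀ x, 0 ≤ g x) (hg : ∀ x ∉ T, g x = 0)
    (s : ℤ) : ∑ z ∈ T', g (s - z) ≤ ∑ x ∈ T, g x := by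
  rw [← cvbE1_refl T (T' ∪ T.image (fun x => s - x)) g hg s Finset.subset_union_right]
  exact Finset.sum_le_sum_of_subset_of_nonneg Finset.subset_union_left (fun _ _ _ => hg0 _)

/-- Cauchy-Schwarz. -/
theorem Aff_le_one (T : Finset ℤ) (F : ℤ → ℝ) (hF0 : ∀ x, 0 ≤ F x) (hT : ∀ x ∉ T, F x = 0)
    (hn : ∑ x ∈ T, F x ^ 4 = 1) (s : ℤ) : Aff T F s ≤ 1 := by
  have h1 : Aff T F s ≤ ∑ z ∈ T, (F z ^ 4 + F (s - z) ^ 4) / 2 := by
    unfold Aff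
    refine Finset.sum_le_sum (fun z _ => ?_)
    nlinarith [sq_nonneg (F z ^ 2 - F (s - z) ^ 2)]
  have h2 : ∑ z ∈ T, F (s - z) ^ 4 ≤ ∑ x ∈ T, F x ^ 4 :=
    cvbE1_refl_le T T (fun x => F x ^ 4) (fun x => by positivity) (fun x hx => by
      show F x ^ 4 = 0
      rw [hT x hx]; norm_num) s
  rw [← Finset.sum_div, Finset.sum_add_distrib] at h1
  linarith

/-- Task CVB-15.  PROOF: work on a finite set `T'` containing `T`, `s - T`, `s' - T`.  Let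
`P0 z = F z ^ 2`, `P1 z = F (s-z)^2`, `P2 z = F (s'-z)^2`: unit vectors of `ℓ²(T')`;
`Aff s = ⟨P0,P1⟩`, `Aff s' = ⟨P0,P2⟩`, so `‖P1-P2‖² ≤ 2‖P0-P1‖² + 2‖P0-P2‖² =
4 (2 - Aff s - Aff s')`.  With `U = {z | s - b ≤ z}`: `∑_U P1² = p(≤ b) ≥ 3/4` and
`∑_U P2² = p(≤ s' - s + b) ≤ p(≤ a) ≤ 1/2`, so `1/4 ≤ ∑_U (P1-P2)(P1+P2) ≤ ‖P1-P2‖ ‖P1+P2‖ ≤
2 ‖P1-P2‖`, hence `‖P1-P2‖² ≥ 1/64`. -/
theorem aff_pair (T : Finset ℤ) (F : ℤ → ℝ) (hF0 : ∀ x, 0 ≤ F x) (hT : ∀ x ∉ T, F x = 0)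
    (hn : ∑ x ∈ T, F x ^ 4 = 1) (a b : ℤ)
    (ha : ∑ x ∈ T.filter (fun x => x ≤ a), F x ^ 4 ≤ 1 / 2)
    (hb : 3 / 4 ≤ ∑ x ∈ T.filter (fun x => x ≤ b), F x ^ 4) (s s' : ℤ)
    (hs : s' + (b - a) ≤ s) : Aff T F s + Aff T F s' ≤ 2 - 1 / 256 := by
  set T' : Finset ℤ := T ∪ (T.image (fun x => s - x) ∪ T.image (fun x => s' - x)) with hT'
  have s0 : T ⊆ T' := Finset.subset_union_left
  have s1 : T.image (fun x => s - x) ⊆ T' :=
    Finset.subset_union_left.trans Finset.subset_union_right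
  have s2 : T.image (fun x => s' - x) ⊆ T' :=
    Finset.subset_union_right.trans Finset.subset_union_right
  have hT4 : ∀ x ∉ T, F x ^ 4 = 0 := fun x hx => by rw [hT x hx]; norm_num
  have n0 : ∑ z ∈ T', (F z ^ 2) ^ 2 = 1 := by
    rw [← hn, ← Finset.sum_subset s0 (f := fun z => (F z ^ 2) ^ 2)
      (fun z _ hz => by rw [hT z hz]; norm_num)]
    exact Finset.sum_congr rfl (fun x _ => by ring)
  have n1 : ∑ z ∈ T', (F (s - z) ^ 2) ^ 2 = 1 := by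
    rw [← hn, ← cvbE1_refl T T' (fun x => F x ^ 4) hT4 s s1]
    exact Finset.sum_congr rfl (fun x _ => by ring)
  have n2 : ∑ z ∈ T', (F (s' - z) ^ 2) ^ 2 = 1 := by
    rw [← hn, ← cvbE1_refl T T' (fun x => F x ^ 4) hT4 s' s2]
    exact Finset.sum_congr rfl (fun x _ => by ring)
  have a1 : ∑ z ∈ T', F z ^ 2 * F (s - z) ^ 2 = Aff T F s := by
    unfold Aff
    rw [← Finset.sum_subset s0 (fun z _ hz => by rw [hT z hz]; ring)]
  have a2 : ∑ z ∈ T', F z ^ 2 * F (s' - z) ^ 2 = Aff T F s' := by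
    unfold Aff
    rw [← Finset.sum_subset s0 (fun z _ hz => by rw [hT z hz]; ring)]
  have d1 : ∑ z ∈ T', (F (s - z) ^ 2 - F (s' - z) ^ 2) ^ 2 ≤ 8 - 4 * (Aff T F s + Aff T F s') := by
    have : ∑ z ∈ T', (F (s - z) ^ 2 - F (s' - z) ^ 2) ^ 2 ≤
        ∑ z ∈ T', (4 * (F z ^ 2) ^ 2 + 2 * (F (s - z) ^ 2) ^ 2 + 2 * (F (s' - z) ^ 2) ^ 2 -
          4 * (F z ^ 2 * F (s - z) ^ 2) - 4 * (F z ^ 2 * F (s' - z) ^ 2)) := by
      refine Finset.sum_le_sum (fun z _ => ?_)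
      nlinarith [sq_nonneg ((F z ^ 2 - F (s - z) ^ 2) + (F z ^ 2 - F (s' - z) ^ 2))]
    refine this.trans (le_of_eq ?_)
    rw [Finset.sum_sub_distrib, Finset.sum_sub_distrib, Finset.sum_add_distrib,
      Finset.sum_add_distrib, ← Finset.mul_sum, ← Finset.mul_sum, ← Finset.mul_sum,
      ← Finset.mul_sum, ← Finset.mul_sum, n0, n1, n2, a1, a2]
    ring
  have u1 : 3 / 4 ≤ ∑ z ∈ T'.filter (fun z => s - b ≤ z), (F (s - z) ^ 2) ^ 2 := by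
    refine hb.trans (le_of_eq ?_)
    rw [Finset.sum_filter, Finset.sum_filter,
      ← cvbE1_refl T T' (fun x => if x ≤ b then F x ^ 4 else 0)
        (fun x hx => by
          show (if x ≤ b then F x ^ 4 else 0) = 0
          rw [hT4 x hx, ite_self]) s s1]
    refine Finset.sum_congr rfl (fun z _ => ?_)
    show (if s - z ≤ b then F (s - z) ^ 4 else 0) = _
    by_cases h : s - z ≤ b
    · rw [if_pos h, if_pos (by omega)]; ring
    · rw [if_neg h, if_neg (by omega)]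
  have u2 : ∑ z ∈ T'.filter (fun z => s - b ≤ z), (F (s' - z) ^ 2) ^ 2 ≤ 1 / 2 := by
    refine le_trans ?_ ha
    rw [Finset.sum_filter, Finset.sum_filter,
      ← cvbE1_refl T T' (fun x => if x ≤ a then F x ^ 4 else 0)
        (fun x hx => by
          show (if x ≤ a then F x ^ 4 else 0) = 0
          rw [hT4 x hx, ite_self]) s' s2]
    refine Finset.sum_le_sum (fun z _ => ?_)
    show _ ≤ (if s' - z ≤ a then F (s' - z) ^ 4 else 0)
    by_cases h : s - b ≤ z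
    · rw [if_pos h, if_pos (by omega)]
      exact le_of_eq (by ring)
    · rw [if_neg h]
      split_ifs
      · positivity
      · exact le_rfl
  have c1 := Finset.sum_mul_sq_le_sq_mul_sq (T'.filter (fun z => s - b ≤ z))
    (fun z => F (s - z) ^ 2 - F (s' - z) ^ 2) (fun z => F (s - z) ^ 2 + F (s' - z) ^ 2)
  have c2 : ∑ z ∈ T'.filter (fun z => s - b ≤ z),
      (F (s - z) ^ 2 - F (s' - z) ^ 2) * (F (s - z) ^ 2 + F (s' - z) ^ 2) ≥ 1 / 4 := by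
    have : ∑ z ∈ T'.filter (fun z => s - b ≤ z),
      (F (s - z) ^ 2 - F (s' - z) ^ 2) * (F (s - z) ^ 2 + F (s' - z) ^ 2) =
      ∑ z ∈ T'.filter (fun z => s - b ≤ z), (F (s - z) ^ 2) ^ 2 -
      ∑ z ∈ T'.filter (fun z => s - b ≤ z), (F (s' - z) ^ 2) ^ 2 := by
      rw [← Finset.sum_sub_distrib]
      exact Finset.sum_congr rfl (fun z _ => by ring)
    rw [this]
    linarith
  have c3 : ∑ z ∈ T'.filter (fun z => s - b ≤ z), (F (s - z) ^ 2 - F (s' - z) ^ 2) ^ 2 ≤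
      ∑ z ∈ T', (F (s - z) ^ 2 - F (s' - z) ^ 2) ^ 2 :=
    Finset.sum_le_sum_of_subset_of_nonneg (Finset.filter_subset _ _) (fun _ _ _ => sq_nonneg _)
  have c4 : ∑ z ∈ T'.filter (fun z => s - b ≤ z), (F (s - z) ^ 2 + F (s' - z) ^ 2) ^ 2 ≤ 4 := by
    refine (Finset.sum_le_sum_of_subset_of_nonneg (Finset.filter_subset _ _)
      (fun _ _ _ => sq_nonneg _)).trans ?_
    have : ∑ z ∈ T', (F (s - z) ^ 2 + F (s' - z) ^ 2) ^ 2 ≤
        ∑ z ∈ T', (2 * (F (s - z) ^ 2) ^ 2 + 2 * (F (s' - z) ^ 2) ^ 2) := by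
      refine Finset.sum_le_sum (fun z _ => ?_)
      nlinarith [sq_nonneg (F (s - z) ^ 2 - F (s' - z) ^ 2)]
    refine this.trans (le_of_eq ?_)
    rw [Finset.sum_add_distrib, ← Finset.mul_sum, ← Finset.mul_sum, n1, n2]
    norm_num
  have e1 : (1 / 4 : ℝ) ^ 2 ≤ (∑ z ∈ T'.filter (fun z => s - b ≤ z),
      (F (s - z) ^ 2 - F (s' - z) ^ 2) * (F (s - z) ^ 2 + F (s' - z) ^ 2)) ^ 2 :=
    pow_le_pow_left₀ (by norm_num) c2 2
  have d0 : 0 ≤ ∑ z ∈ T'.filter (fun z => s - b ≤ z), (F (s - z) ^ 2 - F (s' - z) ^ 2) ^ 2 :=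
    Finset.sum_nonneg (fun _ _ => sq_nonneg _)
  have e2 : (∑ z ∈ T'.filter (fun z => s - b ≤ z), (F (s - z) ^ 2 - F (s' - z) ^ 2) ^ 2) *
      (∑ z ∈ T'.filter (fun z => s - b ≤ z), (F (s - z) ^ 2 + F (s' - z) ^ 2) ^ 2) ≤
      (∑ z ∈ T'.filter (fun z => s - b ≤ z), (F (s - z) ^ 2 - F (s' - z) ^ 2) ^ 2) * 4 :=
    mul_le_mul_of_nonneg_left c4 d0
  have e3 := (e1.trans c1).trans e2
  nlinarith

end Crest.Agent.CVB
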