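import Crest.Agent.CVB_Defs

/-! # CVB-14: quantiles of block-constant probabilities on the integers -/

set_option autoImplicit false
open Classical

namespace Crest.Agent.CVB

private theorem quant_atom (T : Finset ℤ) (F : ℤ → ℝ) (hF0 : ∀ x, 0 ≤ F x) (hT : ∀ x ∉ T, F x = 0)
    (hblk : ∀ x y : ℤ, x / 4 = y / 4 → F x = F y) (hn : ∑ x ∈ T, F x ^ 4 = 1) (x : ℤ) :
    F x ^ 4 ≤ 1 / 4 := by
  by_cases h0 : F x = 0
  · rw [h0]; norm_num
  set k := x / 4 with hk
  set B : Finset ℤ := {4 * k, 4 * k + 1, 4 * k + 2, 4 * k + 3} with hB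
  have hBF : ∀ y ∈ B, F y = F x := by
    intro y hy
    refine hblk y x ?_
    simp only [hB, Finset.mem_insert, Finset.mem_singleton] at hy
    omega
  have hBT : B ⊆ T := by
    intro y hy
    by_contra hyT
    exact h0 ((hBF y hy).symm.trans (hT y hyT))
  have h1 : ∑ y ∈ B, F y ^ 4 ≤ 1 := by
    rw [← hn]
    exact Finset.sum_le_sum_of_subset_of_nonneg hBT fun y _ _ => pow_nonneg (hF0 y) 4
  have h2 : ∑ y ∈ B, F y ^ 4 = 4 * F x ^ 4 := by
    rw [Finset.sum_congr rfl fun y hy => by rw [hBF y hy]]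
    have hc : B.card = 4 := by
      rw [hB, Finset.card_insert_of_notMem, Finset.card_insert_of_notMem,
        Finset.card_insert_of_notMem, Finset.card_singleton] <;> simp
    rw [Finset.sum_const, hc]
    simp
  linarith

/-- Task CVB-14.  PROOF: `p x = F x ^ 4` is a probability on `T` (extended by `0`), constant on
the blocks `{4k,..,4k+3}`, so every atom is `≤ 1/4`.  `a` := least integer with `p(≤ a) ≥ 1/4`
(so `p(< a) < 1/4`, `p(≤ a) ≤ 1/2`), `b` := largest integer with `p(≥ b) ≥ 1/4` (so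
`p(> b) < 1/4`, `p(≤ b) ≥ 3/4`).  E.g. `Int.exists_least_of_bdd`. -/
theorem quant (T : Finset ℤ) (F : ℤ → ℝ) (hF0 : ∀ x, 0 ≤ F x) (hT : ∀ x ∉ T, F x = 0)
    (hblk : ∀ x y : ℤ, x / 4 = y / 4 → F x = F y) (hn : ∑ x ∈ T, F x ^ 4 = 1) :
    ∃ a b : ℤ, 1 / 4 ≤ ∑ x ∈ T.filter (fun x => x ≤ a), F x ^ 4 ∧
      ∑ x ∈ T.filter (fun x => x ≤ a), F x ^ 4 ≤ 1 / 2 ∧
      1 / 4 ≤ ∑ x ∈ T.filter (fun x => b ≤ x), F x ^ 4 ∧
      3 / 4 ≤ ∑ x ∈ T.filter (fun x => x ≤ b), F x ^ 4 := by
  obtain ⟨m, hm⟩ := T.bddBelow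
  obtain ⟨M, hM⟩ := T.bddAbove
  have hm' : ∀ x ∈ T, m ≤ x := fun x hx => hm hx
  have hM' : ∀ x ∈ T, x ≤ M := fun x hx => hM hx
  have hat := quant_atom T F hF0 hT hblk hn
  obtain ⟨a, ha1, ha2⟩ := Int.exists_least_of_bdd
    (P := fun a => 1 / 4 ≤ ∑ x ∈ T.filter (fun x => x ≤ a), F x ^ 4)
    ⟨m, fun z hz => by
      by_contra hlt
      rw [not_le] at hlt
      have : T.filter (fun x => x ≤ z) = ∅ := by
        rw [Finset.filter_eq_empty_iff]
        intro x hx hxz
        have := hm' x hx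
        omega
      rw [this] at hz
      norm_num at hz⟩
    ⟨M, by
      have : T.filter (fun x => x ≤ M) = T := Finset.filter_true_of_mem hM'
      rw [this, hn]; norm_num⟩
  obtain ⟨b, hb1, hb2⟩ := Int.exists_greatest_of_bdd
    (P := fun b => 1 / 4 ≤ ∑ x ∈ T.filter (fun x => b ≤ x), F x ^ 4)
    ⟨M, fun z hz => by
      by_contra hlt
      rw [not_le] at hlt
      have : T.filter (fun x => z ≤ x) = ∅ := by
        rw [Finset.filter_eq_empty_iff]
        intro x hx hxz
        have := hM' x hx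
        omega
      rw [this] at hz
      norm_num at hz⟩
    ⟨m, by
      have : T.filter (fun x => m ≤ x) = T := Finset.filter_true_of_mem hm'
      rw [this, hn]; norm_num⟩
  refine ⟨a, b, ha1, ?_, hb1, ?_⟩
  · have h1 : ∑ x ∈ T.filter (fun x => x ≤ a - 1), F x ^ 4 < 1 / 4 := by
      by_contra h
      rw [not_lt] at h
      have := ha2 (a - 1) h
      omega
    have h2 : ∑ x ∈ T.filter (fun x => x ≤ a), F x ^ 4 ≤
        ∑ x ∈ T.filter (fun x => x ≤ a - 1), F x ^ 4 + F a ^ 4 := by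
      have h3 : T.filter (fun x => x ≤ a) ⊆ insert a (T.filter (fun x => x ≤ a - 1)) := by
        intro x hx
        simp only [Finset.mem_filter, Finset.mem_insert] at hx ⊢
        by_cases hxa : x = a
        · exact Or.inl hxa
        · exact Or.inr ⟨hx.1, by omega⟩
      refine (Finset.sum_le_sum_of_subset_of_nonneg h3 fun y _ _ => pow_nonneg (hF0 y) 4).trans ?_
      rw [Finset.sum_insert (by simp)]
      linarith
    have := hat a
    linarith
  · have h1 : ∑ x ∈ T.filter (fun x => b + 1 ≤ x), F x ^ 4 < 1 / 4 := by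
      by_contra h
      rw [not_lt] at h
      have := hb2 (b + 1) h
      omega
    have h2 := Finset.sum_filter_add_sum_filter_not T (fun x => x ≤ b) (fun x => F x ^ 4)
    have h3 : T.filter (fun x => ¬ x ≤ b) = T.filter (fun x => b + 1 ≤ x) := by
      refine Finset.filter_congr fun x _ => ?_
      omega
    rw [h3, hn] at h2
    linarith

end Crest.Agent.CVB
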