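import Crest.Agent.CVB_E1
import Crest.Agent.CVB_Quant

/-! # CVB-16: one-dimensional energy inequality -/

set_option autoImplicit false
open Classical

namespace Crest.Agent.CVB

/-- reindexing of a translated sum -/
theorem cvbE2_trans (T : Finset ℤ) (g h : ℤ → ℝ) (hg : ∀ x ∉ T, g x = 0) (hh : ∀ x ∉ T, h x = 0)
    (c : ℤ) : ∑ y ∈ T, g y * h (c + y) = ∑ w ∈ T, g (w - c) * h w := by
  set S : Finset ℤ := T ∪ T.image (fun y => y - c) with hS
  have h1 : ∑ y ∈ T, g y * h (c + y) = ∑ y ∈ S, g y * h (c + y) :=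
    Finset.sum_subset Finset.subset_union_left (fun y _ hy => by rw [hg y hy, zero_mul])
  have h2 : ∑ y ∈ S, g y * h (c + y) = ∑ y ∈ T.image (fun y => y - c), g y * h (c + y) := by
    symm
    refine Finset.sum_subset Finset.subset_union_right (fun y _ hy => ?_)
    rw [hh, mul_zero]
    intro h'
    apply hy
    rw [Finset.mem_image]
    exact ⟨c + y, h', by ring⟩
  rw [h1, h2, Finset.sum_image (by intro a _ b _ h; simpa using h)]
  refine Finset.sum_congr rfl (fun w _ => ?_)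
  rw [add_sub_cancel]

theorem cvbE2_le (T : Finset ℤ) (F : ℤ → ℝ) (hF0 : ∀ x, 0 ≤ F x) (hT : ∀ x ∉ T, F x = 0) :
    Qf T (fun x => F x ^ 3) (fun x => F x ^ 3) (fun x => F x ^ 3) (fun x => F x ^ 3) ≤
      ∑ x ∈ T, ∑ y ∈ T, F x ^ 4 * F y ^ 4 * Aff T F (x + y) := by
  have h1 : Qf T (fun x => F x ^ 3) (fun x => F x ^ 3) (fun x => F x ^ 3) (fun x => F x ^ 3) ≤
      ∑ x ∈ T, ∑ y ∈ T, ∑ z ∈ T, (F x ^ 4 * F y ^ 4 * (F z ^ 2 * F (x + y - z) ^ 2) / 2 +
        F x ^ 2 * F y ^ 2 * (F z ^ 4 * F (x + y - z) ^ 4) / 2) := by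
    unfold Qf
    refine Finset.sum_le_sum (fun x _ => Finset.sum_le_sum (fun y _ =>
      Finset.sum_le_sum (fun z _ => ?_)))
    show F x ^ 3 * F y ^ 3 * F z ^ 3 * F (x + y - z) ^ 3 ≤ _
    have hp : 0 ≤ F x * F y := mul_nonneg (hF0 _) (hF0 _)
    have hq : 0 ≤ F z * F (x + y - z) := mul_nonneg (hF0 _) (hF0 _)
    have e1 : F x ^ 3 * F y ^ 3 * F z ^ 3 * F (x + y - z) ^ 3 =
      (F x * F y) ^ 2 * (F z * F (x + y - z)) ^ 2 * ((F x * F y) * (F z * F (x + y - z))) := by ring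
    have e2 : F x ^ 4 * F y ^ 4 * (F z ^ 2 * F (x + y - z) ^ 2) / 2 +
        F x ^ 2 * F y ^ 2 * (F z ^ 4 * F (x + y - z) ^ 4) / 2 =
      (F x * F y) ^ 2 * (F z * F (x + y - z)) ^ 2 *
        (((F x * F y) ^ 2 + (F z * F (x + y - z)) ^ 2) / 2) := by ring
    rw [e1, e2]
    refine mul_le_mul_of_nonneg_left ?_ (by positivity)
    nlinarith [sq_nonneg (F x * F y - F z * F (x + y - z))]
  have h2 : ∑ x ∈ T, ∑ y ∈ T, ∑ z ∈ T, F x ^ 4 * F y ^ 4 * (F z ^ 2 * F (x + y - z) ^ 2) =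
      ∑ x ∈ T, ∑ y ∈ T, F x ^ 4 * F y ^ 4 * Aff T F (x + y) := by
    refine Finset.sum_congr rfl (fun x _ => Finset.sum_congr rfl (fun y _ => ?_))
    unfold Aff
    rw [Finset.mul_sum]
  have h3 : ∑ x ∈ T, ∑ y ∈ T, ∑ z ∈ T, F x ^ 2 * F y ^ 2 * (F z ^ 4 * F (x + y - z) ^ 4) =
      ∑ x ∈ T, ∑ y ∈ T, F x ^ 4 * F y ^ 4 * Aff T F (x + y) := by
    have a1 : ∀ x z : ℤ, ∑ y ∈ T, F x ^ 2 * F y ^ 2 * (F z ^ 4 * F (x + y - z) ^ 4) =
        ∑ w ∈ T, F z ^ 4 * F w ^ 4 * (F x ^ 2 * F (z + w - x) ^ 2) := by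
      intro x z
      have := cvbE2_trans T (fun y => F y ^ 2) (fun y => F y ^ 4)
        (fun y hy => by show F y ^ 2 = 0; rw [hT y hy]; norm_num)
        (fun y hy => by show F y ^ 4 = 0; rw [hT y hy]; norm_num) (x - z)
      calc ∑ y ∈ T, F x ^ 2 * F y ^ 2 * (F z ^ 4 * F (x + y - z) ^ 4)
          = (F x ^ 2 * F z ^ 4) * ∑ y ∈ T, F y ^ 2 * F (x - z + y) ^ 4 := by
            rw [Finset.mul_sum]
            refine Finset.sum_congr rfl (fun y _ => ?_)
            have e : x - z + y = x + y - z := by ring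
            rw [e]; ring
        _ = (F x ^ 2 * F z ^ 4) * ∑ w ∈ T, F (w - (x - z)) ^ 2 * F w ^ 4 := by rw [this]
        _ = _ := by
            rw [Finset.mul_sum]
            refine Finset.sum_congr rfl (fun w _ => ?_)
            have e : w - (x - z) = z + w - x := by ring
            rw [e]; ring
    calc ∑ x ∈ T, ∑ y ∈ T, ∑ z ∈ T, F x ^ 2 * F y ^ 2 * (F z ^ 4 * F (x + y - z) ^ 4)
        = ∑ x ∈ T, ∑ z ∈ T, ∑ y ∈ T, F x ^ 2 * F y ^ 2 * (F z ^ 4 * F (x + y - z) ^ 4) :=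
          Finset.sum_congr rfl (fun x _ => Finset.sum_comm)
      _ = ∑ x ∈ T, ∑ z ∈ T, ∑ w ∈ T, F z ^ 4 * F w ^ 4 * (F x ^ 2 * F (z + w - x) ^ 2) :=
          Finset.sum_congr rfl (fun x _ => Finset.sum_congr rfl (fun z _ => a1 x z))
      _ = ∑ z ∈ T, ∑ w ∈ T, ∑ x ∈ T, F z ^ 4 * F w ^ 4 * (F x ^ 2 * F (z + w - x) ^ 2) := by
          rw [Finset.sum_comm]
          exact Finset.sum_congr rfl (fun z _ => Finset.sum_comm)
      _ = _ := by
          refine Finset.sum_congr rfl (fun x _ => Finset.sum_congr rfl (fun y _ => ?_))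
          unfold Aff
          rw [Finset.mul_sum]
  refine h1.trans (le_of_eq ?_)
  simp_rw [Finset.sum_add_distrib, ← Finset.sum_div]
  rw [h2, h3]
  ring

theorem cvbE2_norm (T : Finset ℤ) (F : ℤ → ℝ) (hF0 : ∀ x, 0 ≤ F x) (hT : ∀ x ∉ T, F x = 0)
    (hblk : ∀ x y : ℤ, x / 4 = y / 4 → F x = F y) (hn : ∑ x ∈ T, F x ^ 4 = 1) :
    Qf T (fun x => F x ^ 3) (fun x => F x ^ 3) (fun x => F x ^ 3) (fun x => F x ^ 3) ≤ kap := by
  obtain ⟨a, b, qa1, qa2, qb1, qb2⟩ := quant T F hF0 hT hblk hn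
  refine (cvbE2_le T F hF0 hT).trans ?_
  set p : ℤ → ℝ := fun x => F x ^ 4 with hp
  have p0 : ∀ x, 0 ≤ p x := fun x => by positivity
  have hn' : ∑ x ∈ T, p x = 1 := hn
  set E := ∑ x ∈ T, ∑ y ∈ T, p x * p y * Aff T F (x + y) with hE
  show E ≤ kap
  -- four sums
  have h1 : 2 * E = ∑ x ∈ T, ∑ y ∈ T, ∑ x' ∈ T, ∑ y' ∈ T,
      p x * p y * (p x' * p y') * (Aff T F (x + y) + Aff T F (x' + y')) := by
    have g1 : ∑ x ∈ T, ∑ y ∈ T, ∑ x' ∈ T, ∑ y' ∈ T,
        p x * p y * (p x' * p y') * Aff T F (x + y) = E := by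
      rw [hE]
      refine Finset.sum_congr rfl (fun x _ => Finset.sum_congr rfl (fun y _ => ?_))
      have : ∀ x' y' : ℤ, p x * p y * (p x' * p y') * Aff T F (x + y) =
          (p x * p y * Aff T F (x + y)) * (p x' * p y') := fun _ _ => by ring
      simp_rw [this]
      simp_rw [← Finset.mul_sum]
      rw [← Finset.sum_mul, hn', one_mul, mul_one]
    have g2 : ∑ x ∈ T, ∑ y ∈ T, ∑ x' ∈ T, ∑ y' ∈ T,
        p x * p y * (p x' * p y') * Aff T F (x' + y') = E := by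
      have : ∀ x y : ℤ, ∑ x' ∈ T, ∑ y' ∈ T, p x * p y * (p x' * p y') * Aff T F (x' + y') =
          p x * p y * E := by
        intro x y
        rw [hE, Finset.mul_sum]
        refine Finset.sum_congr rfl (fun x' _ => ?_)
        rw [Finset.mul_sum]
        exact Finset.sum_congr rfl (fun y' _ => by ring)
      simp_rw [this]
      simp_rw [← Finset.sum_mul, ← Finset.mul_sum]
      rw [← Finset.sum_mul, hn']
      ring
    simp_rw [mul_add, Finset.sum_add_distrib]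
    rw [g1, g2]
    ring
  have h2 : 2 * E ≤ ∑ x ∈ T, ∑ y ∈ T, ∑ x' ∈ T, ∑ y' ∈ T,
      p x * p y * (p x' * p y') * (2 - (1 / 256) * ((if b ≤ x then 1 else 0) *
        (if x' ≤ a then 1 else 0) * (if y' ≤ y then 1 else 0))) := by
    rw [h1]
    refine Finset.sum_le_sum (fun x _ => Finset.sum_le_sum (fun y _ =>
      Finset.sum_le_sum (fun x' _ => Finset.sum_le_sum (fun y' _ => ?_))))
    refine mul_le_mul_of_nonneg_left ?_
      (mul_nonneg (mul_nonneg (p0 _) (p0 _)) (mul_nonneg (p0 _) (p0 _)))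
    by_cases c : b ≤ x ∧ x' ≤ a ∧ y' ≤ y
    · rw [if_pos c.1, if_pos c.2.1, if_pos c.2.2]
      have := aff_pair T F hF0 hT hn a b qa2 qb2 (x + y) (x' + y') (by
        obtain ⟨c1, c2, c3⟩ := c; omega)
      linarith
    · have h0 : (if b ≤ x then (1 : ℝ) else 0) * (if x' ≤ a then 1 else 0) *
        (if y' ≤ y then 1 else 0) = 0 := by
        by_contra hne
        apply c
        refine ⟨?_, ?_, ?_⟩
        · by_contra h; apply hne; rw [if_neg h]; ring
        · by_contra h; apply hne; rw [if_neg h]; ring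
        · by_contra h; apply hne; rw [if_neg h]; ring
      rw [h0]
      have a1 := Aff_le_one T F hF0 hT hn (x + y)
      have a2 := Aff_le_one T F hF0 hT hn (x' + y')
      linarith
  have h3 : ∑ x ∈ T, ∑ y ∈ T, ∑ x' ∈ T, ∑ y' ∈ T,
      p x * p y * (p x' * p y') * (2 - (1 / 256) * ((if b ≤ x then 1 else 0) *
        (if x' ≤ a then 1 else 0) * (if y' ≤ y then 1 else 0))) =
      2 - (1 / 256) * ((∑ x ∈ T, p x * (if b ≤ x then 1 else 0)) *
        (∑ x' ∈ T, p x' * (if x' ≤ a then 1 else 0)) *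
        (∑ y ∈ T, ∑ y' ∈ T, p y * p y' * (if y' ≤ y then 1 else 0))) := by
    have f1 : ∑ x ∈ T, ∑ y ∈ T, ∑ x' ∈ T, ∑ y' ∈ T, p x * p y * (p x' * p y') * 2 = 2 := by
      have : ∀ x y x' y' : ℤ, p x * p y * (p x' * p y') * 2 = 2 * (p x * (p y * (p x' * p y'))) :=
        fun _ _ _ _ => by ring
      simp_rw [this, ← Finset.mul_sum, hn', mul_one]
      simp only [mul_one, hn']
    have f2 : ∑ x ∈ T, ∑ y ∈ T, ∑ x' ∈ T, ∑ y' ∈ T, p x * p y * (p x' * p y') *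
        ((1 / 256) * ((if b ≤ x then 1 else 0) *
        (if x' ≤ a then 1 else 0) * (if y' ≤ y then 1 else 0))) =
        (1 / 256) * ((∑ x ∈ T, p x * (if b ≤ x then 1 else 0)) *
        (∑ x' ∈ T, p x' * (if x' ≤ a then 1 else 0)) *
        (∑ y ∈ T, ∑ y' ∈ T, p y * p y' * (if y' ≤ y then 1 else 0))) := by
      have e : ∀ x y x' y' : ℤ, p x * p y * (p x' * p y') *
        ((1 / 256) * ((if b ≤ x then 1 else 0) *
        (if x' ≤ a then 1 else 0) * (if y' ≤ y then 1 else 0))) =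
        (1 / 256) * ((p x * (if b ≤ x then 1 else 0)) * ((p x' * (if x' ≤ a then 1 else 0)) *
          (p y * p y' * (if y' ≤ y then 1 else 0)))) := fun _ _ _ _ => by ring
      simp_rw [e, ← Finset.mul_sum]
      congr 1
      have e2 : ∀ y : ℤ, ∑ x' ∈ T, (p x' * (if x' ≤ a then 1 else 0)) *
          ∑ y' ∈ T, (p y * p y' * (if y' ≤ y then 1 else 0)) =
          (∑ x' ∈ T, (p x' * (if x' ≤ a then 1 else 0))) *
          ∑ y' ∈ T, (p y * p y' * (if y' ≤ y then 1 else 0)) := fun y => by rw [Finset.sum_mul]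
      simp_rw [e2, ← Finset.mul_sum, ← Finset.sum_mul]
      ring
    simp_rw [mul_sub, Finset.sum_sub_distrib]
    rw [f1, f2]
  have k1 : 1 / 4 ≤ ∑ x ∈ T, p x * (if b ≤ x then 1 else 0) := by
    refine qb1.trans (le_of_eq ?_)
    rw [Finset.sum_filter]
    exact Finset.sum_congr rfl (fun x _ => by rw [mul_ite, mul_one, mul_zero])
  have k2 : 1 / 4 ≤ ∑ x ∈ T, p x * (if x ≤ a then 1 else 0) := by
    refine qa1.trans (le_of_eq ?_)
    rw [Finset.sum_filter]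
    exact Finset.sum_congr rfl (fun x _ => by rw [mul_ite, mul_one, mul_zero])
  have k3 : 1 / 2 ≤ ∑ y ∈ T, ∑ y' ∈ T, p y * p y' * (if y' ≤ y then 1 else 0) := by
    have s1 : ∑ y ∈ T, ∑ y' ∈ T, p y * p y' * (if y' ≤ y then 1 else 0) =
        ∑ y ∈ T, ∑ y' ∈ T, p y * p y' * (if y ≤ y' then 1 else 0) := by
      rw [Finset.sum_comm]
      exact Finset.sum_congr rfl (fun y _ => Finset.sum_congr rfl (fun y' _ => by ring))
    have s2 : (1 : ℝ) ≤ ∑ y ∈ T, ∑ y' ∈ T, p y * p y' * (if y' ≤ y then 1 else 0) +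
        ∑ y ∈ T, ∑ y' ∈ T, p y * p y' * (if y ≤ y' then 1 else 0) := by
      rw [← Finset.sum_add_distrib]
      simp_rw [← Finset.sum_add_distrib]
      have : (1 : ℝ) = ∑ y ∈ T, ∑ y' ∈ T, p y * p y' := by
        simp_rw [← Finset.mul_sum]
        rw [← Finset.sum_mul, hn']; norm_num
      refine this.le.trans ?_
      refine Finset.sum_le_sum (fun y _ => Finset.sum_le_sum (fun y' _ => ?_))
      have hpp : 0 ≤ p y * p y' := mul_nonneg (p0 _) (p0 _)
      rcases le_total y y' with h | h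
      · rw [if_pos h]
        split_ifs <;> linarith
      · rw [if_pos h]
        split_ifs <;> linarith
    linarith
  have k4 : (1 / 4 : ℝ) * (1 / 4) * (1 / 2) ≤ (∑ x ∈ T, p x * (if b ≤ x then 1 else 0)) *
        (∑ x' ∈ T, p x' * (if x' ≤ a then 1 else 0)) *
        (∑ y ∈ T, ∑ y' ∈ T, p y * p y' * (if y' ≤ y then 1 else 0)) := by
    have u1 : (0 : ℝ) ≤ ∑ x ∈ T, p x * (if b ≤ x then 1 else 0) := by linarith
    have u2 : (1 / 4 : ℝ) * (1 / 4) ≤ (∑ x ∈ T, p x * (if b ≤ x then 1 else 0)) *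
        (∑ x' ∈ T, p x' * (if x' ≤ a then 1 else 0)) :=
      mul_le_mul k1 k2 (by norm_num) u1
    exact mul_le_mul u2 k3 (by norm_num) (le_trans (by norm_num) u2)
  rw [h3] at h2
  unfold kap
  linarith

/-- Task CVB-16.  PROOF: both sides are homogeneous of degree 12 in `F`, so (unless
`∑ F⁴ = 0`, then everything vanishes) assume `∑_{x∈T} F x ^ 4 = 1`, `p = F⁴`.  With
`w = x+y-z`: `F(x)³F(y)³F(z)³F(w)³ ≤ ½ (p(x)p(y)F(z)²F(w)² + F(x)²F(y)²p(z)p(w))` and by symmetry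
(the sum over `x+y = z+w`, `x,y,z,w ∈ T`) `Qf ≤ ∑_{x,y∈T} p(x)p(y) Aff(x+y)
= ½ ∑_{x,y,x',y'∈T} p(x)p(y)p(x')p(y') (Aff(x+y)+Aff(x'+y'))`.  The bracket is `≤ 2` always
(`Aff_le_one`) and `≤ 2 - 1/256` when `b ≤ x`, `x' ≤ a`, `y' ≤ y` (`aff_pair`, `quant`), an event of
probability `≥ 1/4·1/4·1/2` (`p⊗p(y' ≤ y) ≥ 1/2` by symmetry).  So `Qf ≤ 1 - 1/16384 = kap`. -/
theorem en1 (T : Finset ℤ) (F : ℤ → ℝ) (hF0 : ∀ x, 0 ≤ F x) (hT : ∀ x ∉ T, F x = 0)
    (hblk : ∀ x y : ℤ, x / 4 = y / 4 → F x = F y) :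
    Qf T (fun x => F x ^ 3) (fun x => F x ^ 3) (fun x => F x ^ 3) (fun x => F x ^ 3) ≤
      kap * (∑ x ∈ T, F x ^ 4) ^ 3 := by
  set n := ∑ x ∈ T, F x ^ 4 with hn
  have n0 : 0 ≤ n := Finset.sum_nonneg (fun x _ => by positivity)
  rcases n0.eq_or_lt with h | h
  · have hz : ∀ x ∈ T, F x = 0 := by
      intro x hx
      have := (Finset.sum_eq_zero_iff_of_nonneg (fun x _ => by positivity)).1 h.symm x hx
      exact pow_eq_zero_iff (by norm_num) |>.1 this
    rw [← h]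
    refine le_of_eq ?_
    unfold Qf
    rw [Finset.sum_eq_zero]
    · ring
    · intro x hx
      refine Finset.sum_eq_zero (fun y _ => Finset.sum_eq_zero (fun z _ => ?_))
      show F x ^ 3 * F y ^ 3 * F z ^ 3 * F (x + y - z) ^ 3 = 0
      rw [hz x hx]; ring
  · set c := Real.sqrt (Real.sqrt n) with hc
    have hs : 0 < Real.sqrt n := Real.sqrt_pos.2 h
    have c0 : 0 < c := Real.sqrt_pos.2 hs
    have c4 : c ^ 4 = n := by
      have : c ^ 4 = (c ^ 2) ^ 2 := by ring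
      rw [this, hc, Real.sq_sqrt hs.le, Real.sq_sqrt h.le]
    have key := cvbE2_norm T (fun x => F x / c) (fun x => div_nonneg (hF0 x) c0.le)
      (fun x hx => by show F x / c = 0; rw [hT x hx, zero_div])
      (fun x y hxy => by show F x / c = F y / c; rw [hblk x y hxy]) (by
        simp_rw [div_pow]
        rw [← Finset.sum_div, c4, ← hn, div_self h.ne'])
    have e : Qf T (fun x => F x ^ 3) (fun x => F x ^ 3) (fun x => F x ^ 3) (fun x => F x ^ 3) =
        c ^ 12 * Qf T (fun x => (F x / c) ^ 3) (fun x => (F x / c) ^ 3) (fun x => (F x / c) ^ 3)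
          (fun x => (F x / c) ^ 3) := by
      unfold Qf
      simp_rw [Finset.mul_sum]
      refine Finset.sum_congr rfl (fun x _ => Finset.sum_congr rfl (fun y _ =>
        Finset.sum_congr rfl (fun z _ => ?_)))
      field_simp
    rw [e]
    have e2 : kap * n ^ 3 = c ^ 12 * kap := by rw [← c4]; ring
    rw [e2]
    exact mul_le_mul_of_nonneg_left key (by positivity)

end Crest.Agent.CVB
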