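import Crest.Agent.CVB_Defs

/-! # CVB-17: four functions and one function -/

set_option autoImplicit false
open Classical

namespace Crest.Agent.CVB

section
variable {G : Type} [AddCommGroup G]

/-- reindexing by a translation -/
theorem cvbE4_trans (T S : Finset G) (g h : G → ℝ) (hg : ∀ x ∉ T, g x = 0) (x : G)
    (hS : ∀ y ∈ T, x + y ∈ S) : ∑ s ∈ S, g (s - x) * h s = ∑ y ∈ T, g y * h (x + y) := by
  have h1 : T.image (fun y => x + y) ⊆ S := by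
    intro s hs
    rw [Finset.mem_image] at hs
    obtain ⟨y, hy, rfl⟩ := hs
    exact hS y hy
  rw [← Finset.sum_subset h1]
  · rw [Finset.sum_image (by intro a _ b _ h; simpa using h)]
    refine Finset.sum_congr rfl (fun y _ => by rw [add_sub_cancel_left])
  · intro z _ hz
    rw [hg, zero_mul]
    intro h'
    apply hz
    rw [Finset.mem_image]
    exact ⟨z - x, h', by abel⟩

theorem cvbE4_corr1 (T S : Finset G) (a b c d : G → ℝ) (hb : ∀ x ∉ T, b x = 0)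
    (hS : ∀ x ∈ T, ∀ y ∈ T, x + y ∈ S) :
    ∑ s ∈ S, (∑ x ∈ T, a x * b (s - x)) * (∑ z ∈ T, c z * d (s - z)) = Qf T a b c d := by
  have h1 : ∀ s, (∑ x ∈ T, a x * b (s - x)) * (∑ z ∈ T, c z * d (s - z)) =
      ∑ x ∈ T, ∑ z ∈ T, (a x * c z) * (b (s - x) * d (s - z)) := by
    intro s
    rw [Finset.sum_mul_sum]
    exact Finset.sum_congr rfl (fun x _ => Finset.sum_congr rfl (fun z _ => by ring))
  simp_rw [h1]
  rw [Finset.sum_comm]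
  unfold Qf
  refine Finset.sum_congr rfl (fun x hx => ?_)
  rw [Finset.sum_comm, Finset.sum_comm (s := T) (t := T)]
  refine Finset.sum_congr rfl (fun z _ => ?_)
  rw [← Finset.mul_sum, cvbE4_trans T S b (fun s => d (s - z)) hb x (hS x hx), Finset.mul_sum]
  refine Finset.sum_congr rfl (fun y _ => by ring)

theorem cvbE4_corr2 (T D : Finset G) (a b c d : G → ℝ) (ha : ∀ x ∉ T, a x = 0)
    (hD : ∀ x ∈ T, ∀ y ∈ T, x - y ∈ D) :
    ∑ t ∈ D, (∑ z ∈ T, a (t + z) * c z) * (∑ y ∈ T, b y * d (y + t)) = Qf T a b c d := by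
  have h1 : ∀ t, (∑ z ∈ T, a (t + z) * c z) * (∑ y ∈ T, b y * d (y + t)) =
      ∑ z ∈ T, ∑ y ∈ T, (b y * c z) * (a (t - (-z)) * d (y + t)) := by
    intro t
    rw [Finset.sum_mul_sum]
    refine Finset.sum_congr rfl (fun x _ => Finset.sum_congr rfl (fun z _ => ?_))
    rw [sub_neg_eq_add]; ring
  simp_rw [h1]
  have h2 : ∀ z ∈ T, ∀ y ∈ T, ∑ t ∈ D, (b y * c z) * (a (t - (-z)) * d (y + t)) =
      ∑ x ∈ T, a x * b y * c z * d (x + y - z) := by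
    intro z hz y _
    rw [← Finset.mul_sum, cvbE4_trans T D a (fun t => d (y + t)) ha (-z)
      (fun x hx => by rw [neg_add_eq_sub]; exact hD x hx z hz), Finset.mul_sum]
    refine Finset.sum_congr rfl (fun x _ => ?_)
    have : y + (-z + x) = x + y - z := by abel
    show b y * c z * (a x * d (y + (-z + x))) = _
    rw [this]; ring
  calc ∑ t ∈ D, ∑ z ∈ T, ∑ y ∈ T, (b y * c z) * (a (t - (-z)) * d (y + t))
      = ∑ z ∈ T, ∑ y ∈ T, ∑ t ∈ D, (b y * c z) * (a (t - (-z)) * d (y + t)) := by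
        rw [Finset.sum_comm]
        exact Finset.sum_congr rfl (fun z _ => Finset.sum_comm)
    _ = ∑ z ∈ T, ∑ y ∈ T, ∑ x ∈ T, a x * b y * c z * d (x + y - z) :=
        Finset.sum_congr rfl (fun z hz => Finset.sum_congr rfl (fun y hy => h2 z hz y hy))
    _ = Qf T a b c d := by
        unfold Qf
        rw [Finset.sum_comm]
        have : ∀ y ∈ T, ∑ z ∈ T, ∑ x ∈ T, a x * b y * c z * d (x + y - z) =
            ∑ x ∈ T, ∑ z ∈ T, a x * b y * c z * d (x + y - z) := fun y _ => Finset.sum_comm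
        rw [Finset.sum_congr rfl this, Finset.sum_comm]

theorem cvbE4_CS1 (T : Finset G) (a b c d : G → ℝ) (hb : ∀ x ∉ T, b x = 0) (hd : ∀ x ∉ T, d x = 0) :
    Qf T a b c d ^ 2 ≤ Qf T a b a b * Qf T c d c d ∧ 0 ≤ Qf T a b a b := by
  set S : Finset G := Finset.image₂ (· + ·) T T with hSdef
  have hS : ∀ x ∈ T, ∀ y ∈ T, x + y ∈ S := fun x hx y hy => Finset.mem_image₂_of_mem hx hy
  rw [← cvbE4_corr1 T S a b c d hb hS, ← cvbE4_corr1 T S a b a b hb hS,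
    ← cvbE4_corr1 T S c d c d hd hS]
  refine ⟨?_, Finset.sum_nonneg (fun _ _ => mul_self_nonneg _)⟩
  have := Finset.sum_mul_sq_le_sq_mul_sq S (fun s => ∑ x ∈ T, a x * b (s - x))
    (fun s => ∑ z ∈ T, c z * d (s - z))
  simpa only [sq] using this

theorem cvbE4_CS2 (T : Finset G) (a b : G → ℝ) (ha : ∀ x ∉ T, a x = 0) (hb : ∀ x ∉ T, b x = 0) :
    Qf T a b a b ^ 2 ≤ Qf T a a a a * Qf T b b b b := by
  set D : Finset G := Finset.image₂ (· - ·) T T with hDdef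
  have hD : ∀ x ∈ T, ∀ y ∈ T, x - y ∈ D := fun x hx y hy => Finset.mem_image₂_of_mem hx hy
  have e1 : ∀ (f : G → ℝ) (t : G), ∑ z ∈ T, f (t + z) * f z = ∑ y ∈ T, f y * f (y + t) := by
    intro f t
    refine Finset.sum_congr rfl (fun z _ => ?_)
    rw [add_comm t z, mul_comm]
  have h1 := cvbE4_corr2 T D a b a b ha hD
  have h2 := cvbE4_corr2 T D a a a a ha hD
  have h3 := cvbE4_corr2 T D b b b b hb hD
  simp_rw [e1] at h1 h2 h3
  rw [← h1, ← h2, ← h3]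
  have := Finset.sum_mul_sq_le_sq_mul_sq D (fun t => ∑ y ∈ T, a y * a (y + t))
    (fun t => ∑ y ∈ T, b y * b (y + t))
  simpa only [sq] using this

end

/-- Task CVB-17.  PROOF: `Q(f₁,f₂,f₃,f₄) = ∑_s r₁₂(s) r₃₄(s)` with `r_ij(s) = ∑_{x∈T} f_i(x)
f_j(s-x)` (`s` in a big finite set, e.g. `T + T`), so `Q² ≤ ∑ r₁₂² ∑ r₃₄²`.  And
`∑_s r₁₂(s)² = ∑_{x+y=z+w} f₁(x)f₂(y)f₁(z)f₂(w) = ∑_d c₁(d) c₂(d)`, `c_i(d) = ∑_{z∈T}
f_i(z) f_i(z+d)` (`x = z+d`, `w = y+d`), so `(∑ r₁₂²)² ≤ ∑ c₁² ∑ c₂²` and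
`∑_d c_i(d)² = Q(f_i,f_i,f_i,f_i)`. -/
theorem Qf_pow_le {G : Type} [AddCommGroup G] (T : Finset G) (f : Fin 4 → G → ℝ)
    (h0 : ∀ i x, 0 ≤ f i x) (hT : ∀ i, ∀ x ∉ T, f i x = 0) :
    (Qf T (f 0) (f 1) (f 2) (f 3)) ^ 4 ≤ ∏ i, Qf T (f i) (f i) (f i) (f i) := by
  obtain ⟨h1, p1⟩ := cvbE4_CS1 T (f 0) (f 1) (f 2) (f 3) (hT 1) (hT 3)
  have p2 := (cvbE4_CS1 T (f 2) (f 3) (f 2) (f 3) (hT 3) (hT 3)).2
  have h2 := cvbE4_CS2 T (f 0) (f 1) (hT 0) (hT 1)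
  have h3 := cvbE4_CS2 T (f 2) (f 3) (hT 2) (hT 3)
  have q0 := (cvbE4_CS1 T (f 0) (f 0) (f 0) (f 0) (hT 0) (hT 0)).2
  have q1 := (cvbE4_CS1 T (f 1) (f 1) (f 1) (f 1) (hT 1) (hT 1)).2
  rw [Fin.prod_univ_four]
  calc (Qf T (f 0) (f 1) (f 2) (f 3)) ^ 4 = ((Qf T (f 0) (f 1) (f 2) (f 3)) ^ 2) ^ 2 := by ring
    _ ≤ (Qf T (f 0) (f 1) (f 0) (f 1) * Qf T (f 2) (f 3) (f 2) (f 3)) ^ 2 :=
        pow_le_pow_left₀ (sq_nonneg _) h1 2
    _ = Qf T (f 0) (f 1) (f 0) (f 1) ^ 2 * Qf T (f 2) (f 3) (f 2) (f 3) ^ 2 := by ring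
    _ ≤ (Qf T (f 0) (f 0) (f 0) (f 0) * Qf T (f 1) (f 1) (f 1) (f 1)) *
        (Qf T (f 2) (f 2) (f 2) (f 2) * Qf T (f 3) (f 3) (f 3) (f 3)) :=
        mul_le_mul h2 h3 (sq_nonneg _) (mul_nonneg q0 q1)
    _ = _ := by ring

end Crest.Agent.CVB
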