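import Crest.Agent.CVB_Defs

/-! # CVB-19: transport of the energy inequality -/

set_option autoImplicit false
open Classical

namespace Crest.Agent.CVB

/-- Task CVB-19.  Transport along an additive equivalence.  PROOF: image of `T` under `e`. -/
theorem EN_equiv {G H : Type} [AddCommGroup G] [AddCommGroup H] (e : G ≃+ H)
    (bG : G → G → Prop) (bH : H → H → Prop) (k : ℝ) (hb : ∀ x y, bH (e x) (e y) → bG x y)
    (hH : EN H bH k) : EN G bG k := by
  intro T F h0 hT hblk
  have h := hH (T.map e.toEquiv.toEmbedding) (fun i y => F i (e.symm y))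
    (fun i x => h0 i _) (fun i y hy => hT i _ (fun hc => hy ?_)) (fun i x y hxy => hblk i _ _ ?_)
  · have h1 : ∀ i, nrm (T.map e.toEquiv.toEmbedding) (fun y => F i (e.symm y)) = nrm T (F i) := by
      intro i
      unfold nrm
      rw [Finset.sum_map]
      simp
    have h2 : Qf (T.map e.toEquiv.toEmbedding) (fun x => F 0 (e.symm x) ^ 3)
        (fun x => F 1 (e.symm x) ^ 3) (fun x => F 2 (e.symm x) ^ 3)
        (fun x => F 3 (e.symm x) ^ 3) = Qf T (fun x => F 0 x ^ 3) (fun x => F 1 x ^ 3)
          (fun x => F 2 x ^ 3) (fun x => F 3 x ^ 3) := by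
      unfold Qf
      rw [Finset.sum_map]
      refine Finset.sum_congr rfl fun x _ => ?_
      rw [Finset.sum_map]
      refine Finset.sum_congr rfl fun y _ => ?_
      rw [Finset.sum_map]
      refine Finset.sum_congr rfl fun z _ => ?_
      simp
    simp only [h1] at h
    rw [h2] at h
    exact h
  · rw [Finset.mem_map]
    exact ⟨e.symm y, hc, by simp⟩
  · apply hb
    simpa using hxy

end Crest.Agent.CVB
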