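import Crest.Agent.CVB_Defs

/-! # CVB-18: tensorisation of the energy inequality -/

set_option autoImplicit false
open Classical

namespace Crest.Agent.CVB

private theorem ep_nrm_pow4 {G : Type} (T : Finset G) (F : G → ℝ) : nrm T F ^ 4 = ∑ x ∈ T, F x ^ 4 := by
  unfold nrm
  have h1 : 0 ≤ ∑ x ∈ T, F x ^ 4 := Finset.sum_nonneg fun x _ => by positivity
  have h2 : Real.sqrt (Real.sqrt (∑ x ∈ T, F x ^ 4)) ^ 4 =
      (Real.sqrt (Real.sqrt (∑ x ∈ T, F x ^ 4)) ^ 2) ^ 2 := by ring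
  rw [h2, Real.sq_sqrt (Real.sqrt_nonneg _), Real.sq_sqrt h1]

private theorem ep_nrm_nonneg {G : Type} (T : Finset G) (F : G → ℝ) : 0 ≤ nrm T F := Real.sqrt_nonneg _

private theorem ep_nrm_congr {G : Type} (T T' : Finset G) (F : G → ℝ) (hTT : T ⊆ T') (h : ∀ x ∉ T, F x = 0) :
    nrm T F = nrm T' F := by
  unfold nrm
  congr 2
  apply Finset.sum_subset hTT
  intro x _ hx
  rw [h x hx]
  norm_num

private theorem ep_Qf_congr {G : Type} [AddCommGroup G] (T T' : Finset G) (f1 f2 f3 f4 : G → ℝ) (hTT : T ⊆ T')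
    (h1 : ∀ x ∉ T, f1 x = 0) (h2 : ∀ x ∉ T, f2 x = 0) (h3 : ∀ x ∉ T, f3 x = 0) :
    Qf T f1 f2 f3 f4 = Qf T' f1 f2 f3 f4 := by
  unfold Qf
  have e1 : ∀ x y : G, ∑ z ∈ T, f1 x * f2 y * f3 z * f4 (x + y - z) =
      ∑ z ∈ T', f1 x * f2 y * f3 z * f4 (x + y - z) := by
    intro x y
    apply Finset.sum_subset hTT
    intro z _ hz
    rw [h3 z hz]; ring
  have e2 : ∀ x : G, ∑ y ∈ T, ∑ z ∈ T, f1 x * f2 y * f3 z * f4 (x + y - z) =
      ∑ y ∈ T', ∑ z ∈ T', f1 x * f2 y * f3 z * f4 (x + y - z) := by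
    intro x
    rw [Finset.sum_congr rfl (fun y _ => e1 x y)]
    apply Finset.sum_subset hTT
    intro y _ hy
    apply Finset.sum_eq_zero
    intro z _
    rw [h2 y hy]; ring
  rw [Finset.sum_congr rfl (fun x _ => e2 x)]
  apply Finset.sum_subset hTT
  intro x _ hx
  apply Finset.sum_eq_zero
  intro y _
  apply Finset.sum_eq_zero
  intro z _
  rw [h1 x hx]; ring

private theorem ep_Qf_prod {G H : Type} [AddCommGroup G] [AddCommGroup H] (T1 : Finset G) (T2 : Finset H)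
    (f1 f2 f3 f4 : G × H → ℝ) :
    Qf (T1 ×ˢ T2) f1 f2 f3 f4 = ∑ x ∈ T1, ∑ y ∈ T1, ∑ z ∈ T1,
      Qf T2 (fun t => f1 (x, t)) (fun t => f2 (y, t)) (fun t => f3 (z, t)) (fun t => f4 (x + y - z, t)) := by
  unfold Qf
  rw [Finset.sum_product]
  apply Finset.sum_congr rfl
  intro x _
  have e1 : ∀ x2 : H, ∑ y ∈ T1 ×ˢ T2, ∑ z ∈ T1 ×ˢ T2, f1 (x, x2) * f2 y * f3 z * f4 ((x, x2) + y - z) =
      ∑ y1 ∈ T1, ∑ z1 ∈ T1, ∑ y2 ∈ T2, ∑ z2 ∈ T2,
        f1 (x, x2) * f2 (y1, y2) * f3 (z1, z2) * f4 (x + y1 - z1, x2 + y2 - z2) := by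
    intro x2
    rw [Finset.sum_product]
    apply Finset.sum_congr rfl
    intro y1 _
    have e2 : ∀ y2 : H, ∑ z ∈ T1 ×ˢ T2, f1 (x, x2) * f2 (y1, y2) * f3 z * f4 ((x, x2) + (y1, y2) - z) =
        ∑ z1 ∈ T1, ∑ z2 ∈ T2, f1 (x, x2) * f2 (y1, y2) * f3 (z1, z2) * f4 (x + y1 - z1, x2 + y2 - z2) := by
      intro y2
      rw [Finset.sum_product]
      rfl
    rw [Finset.sum_congr rfl (fun y2 _ => e2 y2), Finset.sum_comm]
  rw [Finset.sum_congr rfl (fun x2 _ => e1 x2), Finset.sum_comm]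
  apply Finset.sum_congr rfl
  intro y1 _
  rw [Finset.sum_comm]

/-- Task CVB-18.  PROOF: given `T ⊆ G × H` and `F_i`, let `T1`, `T2` be its projections; all sums
over `T` may be taken over `T1 ×ˢ T2` (the functions vanish off `T`).  `Qf (T1×T2) = ∑_{x1,y1,z1∈T1}
Qf T2 (F_0(x1,·)³) (F_1(y1,·)³) (F_2(z1,·)³) (F_3(x1+y1-z1,·)³) ≤ k2 ∑_{x1,y1,z1} g_0(x1)³ g_1(y1)³
g_2(z1)³ g_3(x1+y1-z1)³` with `g_i(x1) = nrm T2 (F_i(x1,·))` (by `hH`), `≤ k2 k1 ∏ nrm T1 g_i ^3`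
(by `hG`; `g_i` vanishes off `T1`, is constant on `bG`-classes) and
`∑_{x1∈T1} g_i(x1)⁴ = ∑_{T1×T2} F_i⁴`. -/
theorem EN_prod {G H : Type} [AddCommGroup G] [AddCommGroup H] (bG : G → G → Prop)
    (bH : H → H → Prop) (k1 k2 : ℝ) (hk1 : 0 ≤ k1) (hk2 : 0 ≤ k2) (rG : ∀ x, bG x x)
    (rH : ∀ x, bH x x) (hG : EN G bG k1) (hH : EN H bH k2) :
    EN (G × H) (fun x y => bG x.1 y.1 ∧ bH x.2 y.2) (k1 * k2) := by
  intro T F hF0 hFT hFb
  obtain ⟨T1, hT1⟩ : ∃ T1 : Finset G, T1 = T.image Prod.fst := ⟨_, rfl⟩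
  obtain ⟨T2, hT2⟩ : ∃ T2 : Finset H, T2 = T.image Prod.snd := ⟨_, rfl⟩
  have hsub : T ⊆ T1 ×ˢ T2 := by
    intro x hx
    rw [Finset.mem_product, hT1, hT2]
    exact ⟨Finset.mem_image_of_mem _ hx, Finset.mem_image_of_mem _ hx⟩
  have hz : ∀ (i : Fin 4) (x : G × H), x ∉ T → F i x ^ 3 = 0 := by
    intro i x hx
    rw [hFT i x hx]; norm_num
  have hz1 : ∀ (i : Fin 4) (x1 : G) (x2 : H), x1 ∉ T1 → F i (x1, x2) = 0 := by
    intro i x1 x2 hx
    apply hFT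
    intro h
    apply hx
    rw [hT1]
    exact Finset.mem_image_of_mem Prod.fst h
  have hz2 : ∀ (i : Fin 4) (x1 : G) (x2 : H), x2 ∉ T2 → F i (x1, x2) = 0 := by
    intro i x1 x2 hx
    apply hFT
    intro h
    apply hx
    rw [hT2]
    exact Finset.mem_image_of_mem Prod.snd h
  rw [ep_Qf_congr T (T1 ×ˢ T2) _ _ _ _ hsub (hz 0) (hz 1) (hz 2), ep_Qf_prod]
  -- inner inequality
  have hin : ∀ x y z : G, Qf T2 (fun t => F 0 (x, t) ^ 3) (fun t => F 1 (y, t) ^ 3) (fun t => F 2 (z, t) ^ 3)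
      (fun t => F 3 (x + y - z, t) ^ 3) ≤ k2 * (nrm T2 (fun t => F 0 (x, t)) ^ 3 *
        nrm T2 (fun t => F 1 (y, t)) ^ 3 * nrm T2 (fun t => F 2 (z, t)) ^ 3 *
        nrm T2 (fun t => F 3 (x + y - z, t)) ^ 3) := by
    intro x y z
    have h1 := hH T2 ![fun t => F 0 (x, t), fun t => F 1 (y, t), fun t => F 2 (z, t),
      fun t => F 3 (x + y - z, t)] ?_ ?_ ?_
    · rw [Fin.prod_univ_four] at h1
      exact h1
    · intro i t
      fin_cases i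
      · exact hF0 _ _
      · exact hF0 _ _
      · exact hF0 _ _
      · exact hF0 _ _
    · intro i t ht
      fin_cases i
      · exact hz2 _ _ _ ht
      · exact hz2 _ _ _ ht
      · exact hz2 _ _ _ ht
      · exact hz2 _ _ _ ht
    · intro i t t' htt
      fin_cases i
      · exact hFb 0 (x, t) (x, t') ⟨rG _, htt⟩
      · exact hFb 1 (y, t) (y, t') ⟨rG _, htt⟩
      · exact hFb 2 (z, t) (z, t') ⟨rG _, htt⟩
      · exact hFb 3 (x + y - z, t) (x + y - z, t') ⟨rG _, htt⟩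
  have hsum : ∑ x ∈ T1, ∑ y ∈ T1, ∑ z ∈ T1, Qf T2 (fun t => F 0 (x, t) ^ 3) (fun t => F 1 (y, t) ^ 3)
      (fun t => F 2 (z, t) ^ 3) (fun t => F 3 (x + y - z, t) ^ 3) ≤
      k2 * Qf T1 (fun x => nrm T2 (fun t => F 0 (x, t)) ^ 3) (fun x => nrm T2 (fun t => F 1 (x, t)) ^ 3)
        (fun x => nrm T2 (fun t => F 2 (x, t)) ^ 3) (fun x => nrm T2 (fun t => F 3 (x, t)) ^ 3) := by
    unfold Qf
    simp only [Finset.mul_sum]
    refine Finset.sum_le_sum fun x _ => Finset.sum_le_sum fun y _ => Finset.sum_le_sum fun z _ => ?_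
    have := hin x y z
    unfold Qf at this
    exact this
  refine hsum.trans ?_
  have hout := hG T1 (fun i x => nrm T2 (fun t => F i (x, t))) (fun i x => ep_nrm_nonneg _ _) ?_ ?_
  · have hnrm : ∀ i, nrm T1 (fun x => nrm T2 (fun t => F i (x, t))) = nrm T (F i) := by
      intro i
      rw [ep_nrm_congr T (T1 ×ˢ T2) (F i) hsub (hFT i)]
      unfold nrm
      congr 2
      rw [Finset.sum_product]
      apply Finset.sum_congr rfl
      intro x _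
      exact ep_nrm_pow4 T2 (fun t => F i (x, t))
    simp only [hnrm] at hout
    refine (mul_le_mul_of_nonneg_left hout hk2).trans (le_of_eq ?_)
    ring
  · intro i x hx
    unfold nrm
    rw [Finset.sum_eq_zero]
    · simp
    · intro t _
      change F i (x, t) ^ 4 = 0
      rw [hz1 i x t hx]; norm_num
  · intro i x y hxy
    unfold nrm
    congr 2
    apply Finset.sum_congr rfl
    intro t _
    change F i (x, t) ^ 4 = F i (y, t) ^ 4
    rw [hFb i (x, t) (y, t) ⟨hxy, rH t⟩]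

end Crest.Agent.CVB
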