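import Crest.Agent.CVB_E2
import Crest.Agent.CVB_E4
import Crest.Agent.CVB_EProd
import Crest.Agent.CVB_EEquiv

/-! # CVB-20: the energy of a union of aligned 4-cubes -/

set_option autoImplicit false
open Classical

namespace Crest.Agent.CVB

private theorem cvb20_nrm_pow {G : Type} (T : Finset G) (F : G → ℝ) :
    nrm T F ^ 4 = ∑ x ∈ T, F x ^ 4 := by
  have h : 0 ≤ ∑ x ∈ T, F x ^ 4 := Finset.sum_nonneg fun x _ => by positivity
  unfold nrm
  rw [show (4 : ℕ) = 2 * 2 from rfl, pow_mul, Real.sq_sqrt (Real.sqrt_nonneg _), Real.sq_sqrt]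
  exact h

private theorem cvb20_nrm_nonneg {G : Type} (T : Finset G) (F : G → ℝ) : 0 ≤ nrm T F :=
  Real.sqrt_nonneg _

/-- PROOF: `Qf_pow_le` with `f i = F i ^ 3` and `en1` for each `F i`: `Q⁴ ≤ ∏ kap (∑ F_i⁴)³ =
(kap ∏ nrm(F_i)³)⁴` since `nrm⁴ = ∑ F⁴`; take fourth roots (`pow_le_pow_left₀` inverse:
`le_of_pow_le_pow_left₀`/`pow_le_pow_iff_left₀`). -/
theorem EN_int : EN ℤ (fun x y => x / 4 = y / 4) kap := by
  intro T F h0 hT hb
  have h1 := Qf_pow_le T (fun i x => F i x ^ 3) (fun i x => pow_nonneg (h0 i x) 3)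
    (fun i x hx => by simp only [hT i x hx]; norm_num)
  have h2 : ∏ i : Fin 4, Qf T (fun x => F i x ^ 3) (fun x => F i x ^ 3) (fun x => F i x ^ 3)
      (fun x => F i x ^ 3) ≤ ∏ i : Fin 4, kap * (∑ x ∈ T, F i x ^ 4) ^ 3 := by
    refine Finset.prod_le_prod (fun i _ => ?_) fun i _ => en1 T (F i) (h0 i) (hT i) (hb i)
    unfold Qf
    refine Finset.sum_nonneg fun x _ => Finset.sum_nonneg fun y _ => Finset.sum_nonneg fun z _ => ?_
    have := h0 i
    exact mul_nonneg (mul_nonneg (mul_nonneg (pow_nonneg (this _) 3) (pow_nonneg (this _) 3))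
      (pow_nonneg (this _) 3)) (pow_nonneg (this _) 3)
  have h3 : ∏ i : Fin 4, kap * (∑ x ∈ T, F i x ^ 4) ^ 3 = (kap * ∏ i, nrm T (F i) ^ 3) ^ 4 := by
    rw [Finset.prod_mul_distrib, mul_pow, ← Finset.prod_pow, Finset.prod_const,
      Finset.card_univ, Fintype.card_fin]
    congr 1
    refine Finset.prod_congr rfl fun i _ => ?_
    rw [← cvb20_nrm_pow]
    ring
  refine le_of_pow_le_pow_left₀ (n := 4) (by norm_num) ?_ ((h1.trans h2).trans h3.le)
  exact mul_nonneg kap_pos.le (Finset.prod_nonneg fun i _ => pow_nonneg (cvb20_nrm_nonneg _ _) 3)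

private def cvb20_e (n : ℕ) : (Fin (n + 1) → ℤ) ≃+ ℤ × (Fin n → ℤ) where
  toFun x := (x 0, fun i => x i.succ)
  invFun p := Fin.cons p.1 p.2
  left_inv x := by
    funext i
    refine Fin.cases ?_ (fun j => ?_) i <;> simp
  right_inv p := by simp
  map_add' _ _ := rfl

private theorem cvb20_zero : EN (Fin 0 → ℤ) (fun x y => ∀ i, x i / 4 = y i / 4) 1 := by
  intro T F h0 hT hb
  rw [one_mul]
  rcases T.eq_empty_or_nonempty with rfl | ⟨a, ha⟩
  · simp only [Qf, Finset.sum_empty]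
    exact Finset.prod_nonneg fun i _ => pow_nonneg (cvb20_nrm_nonneg _ _) 3
  · have hT' : T = {a} := by
      ext x
      simp only [Finset.mem_singleton]
      exact ⟨fun _ => Subsingleton.elim _ _, fun h => h ▸ ha⟩
    subst hT'
    have hn : ∀ i, nrm {a} (F i) = F i a := by
      intro i
      unfold nrm
      rw [Finset.sum_singleton, show (F i a) ^ 4 = ((F i a) ^ 2) ^ 2 by ring,
        Real.sqrt_sq (sq_nonneg _), Real.sqrt_sq (h0 i a)]
    simp only [Qf, Finset.sum_singleton, hn, Fin.prod_univ_four]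
    rw [Subsingleton.elim (a + a - a) a]

/-- PROOF: induction on `n`; `n = 0`: the group is trivial, both sides are
`F_0³ F_1³ F_2³ F_3³` at the only point (or `0` if `T = ∅`); step: `EN_prod`, `EN_int` and
`EN_equiv` for `(Fin (n+1) → ℤ) ≃+ ℤ × (Fin n → ℤ)` (`x ↦ (x 0, fun i => x i.succ)`). -/
theorem EN_pi (n : ℕ) :
    EN (Fin n → ℤ) (fun x y => ∀ i, x i / 4 = y i / 4) (kap ^ n) := by
  induction n with
  | zero =>
    rw [pow_zero]
    exact cvb20_zero
  | succ n ih =>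
    rw [pow_succ']
    refine EN_equiv (cvb20_e n) _ (fun x y : ℤ × (Fin n → ℤ) => x.1 / 4 = y.1 / 4 ∧
      ∀ i, x.2 i / 4 = y.2 i / 4) _ ?_ ?_
    · rintro x y ⟨h1, h2⟩ i
      refine Fin.cases ?_ (fun j => ?_) i
      · exact h1
      · exact h2 j
    · exact EN_prod (fun x y : ℤ => x / 4 = y / 4) (fun x y : Fin n → ℤ => ∀ i, x i / 4 = y i / 4)
        kap (kap ^ n) kap_pos.le (pow_nonneg kap_pos.le n) (fun _ => rfl)
        (fun _ _ => rfl) EN_int ih

private theorem cvb20_en {G : Type} [AddCommGroup G] (X : Finset G) (f : G → ℝ)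
    (hf : ∀ x ∈ X, f x = 1) (hf0 : ∀ x ∉ X, f x = 0) : (en X : ℝ) = Qf X f f f f := by
  unfold en Qf
  rw [Finset.card_filter, Finset.sum_product, Finset.sum_product]
  push_cast
  refine Finset.sum_congr rfl fun x hx => Finset.sum_congr rfl fun y hy => ?_
  rw [Finset.sum_product]
  refine Finset.sum_congr rfl fun z hz => ?_
  rw [hf x hx, hf y hy, hf z hz, one_mul, one_mul, one_mul]
  by_cases h : x + y - z ∈ X
  · rw [hf _ h, Finset.sum_eq_single (x + y - z)]
    · simp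
    · intro w _ hw
      rw [if_neg]
      intro h2
      exact hw (by rw [h2]; simp)
    · intro h2
      exact absurd h h2
  · rw [hf0 _ h]
    refine Finset.sum_eq_zero fun w hw => ?_
    rw [if_neg]
    intro h2
    apply h
    rw [h2]
    simpa using hw

/-- PROOF: `EN_pi` with `T = X` and all `F i` the indicator of `X`:
`Qf X 1_X 1_X 1_X 1_X = en X`, `nrm X 1_X ^ 3 = (|X|^{1/4})³`. -/
theorem energy_le {N : ℕ} (X : Finset (Fin N → ℤ)) (hX : Cube4 X) :
    (en X : ℝ) ≤ kap ^ N * (X.card : ℝ) ^ 3 := by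
  set f : (Fin N → ℤ) → ℝ := fun x => if x ∈ X then 1 else 0 with hf
  have hf1 : ∀ x ∈ X, f x = 1 := fun x hx => by simp [hf, hx]
  have hf0 : ∀ x ∉ X, f x = 0 := fun x hx => by simp [hf, hx]
  have h := EN_pi N X (fun _ => f) (fun _ x => ?_) (fun _ x hx => hf0 x hx) (fun _ x y hxy => ?_)
  · have e3 : (fun x => f x ^ 3) = f := by
      funext x
      by_cases hx : x ∈ X
      · rw [hf1 x hx]; norm_num
      · rw [hf0 x hx]; norm_num
    simp only [e3] at h
    rw [← cvb20_en X f hf1 hf0] at h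
    refine h.trans (le_of_eq ?_)
    rw [Finset.prod_const, Finset.card_univ, Fintype.card_fin]
    congr 1
    rw [← pow_mul, mul_comm 3 4, pow_mul, cvb20_nrm_pow]
    congr 1
    rw [Finset.sum_congr rfl fun x hx => by rw [hf1 x hx]]
    simp
  · by_cases hx : x ∈ X
    · show 0 ≤ f x
      rw [hf1 x hx]; norm_num
    · show 0 ≤ f x
      rw [hf0 x hx]
  · show f x = f y
    have hiff : x ∈ X ↔ y ∈ X :=
      ⟨fun h => hX x h y fun i => (hxy i).symm, fun h => hX y h x fun i => hxy i⟩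
    by_cases hx : x ∈ X
    · rw [hf1 x hx, hf1 y (hiff.1 hx)]
    · rw [hf0 x hx, hf0 y (fun hy => hx (hiff.2 hy))]

end Crest.Agent.CVB
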