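import Crest.Agent.CVB_Defs

/-! # CVB-9: flips of coordinates -/

set_option autoImplicit false
open Classical

namespace Crest.Agent.CVB

/-- `fl t / 4 = t / 4`, so flips preserve unions of aligned 4-cubes. -/
theorem flipE_mem {N : ℕ} {X : Finset (Fin N → ℤ)} (hX : Cube4 X) {x : Fin N → ℤ} (hx : x ∈ X)
    (E : Finset (Fin N)) : flipE E x ∈ X := by
  refine hX x hx _ (fun i => ?_)
  unfold flipE fl
  split_ifs <;> omega

theorem fl_ne_mod (q : ℕ) (hq : 2 ≤ q) (s t : ℤ) (h : (q : ℤ) ∣ s - t) : fl s ≠ t := by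
  intro he
  have h1 : s - t = 1 ∨ s - t = -1 := by unfold fl at he; omega
  have hq' : (2 : ℤ) ≤ q := by exact_mod_cast hq
  rcases h1 with h1 | h1 <;> rw [h1] at h
  · have := Int.le_of_dvd (by norm_num) h; omega
  · have := Int.le_of_dvd (by norm_num) ((Int.dvd_neg).mpr h); simp at this; omega

theorem fl_inj {s t : ℤ} (h : fl s = fl t) : s = t := by
  unfold fl at h; omega

/-- Two points congruent modulo `q ≥ 2` with the same flip are equal, with the same flip set. -/
theorem flipE_inj {N : ℕ} (q : ℕ) (hq : 2 ≤ q) {x y : Fin N → ℤ} {E E' : Finset (Fin N)}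
    (h : ∀ i, (q : ℤ) ∣ x i - y i) (he : flipE E x = flipE E' y) : x = y ∧ E = E' := by
  have key : ∀ i, x i = y i ∧ (i ∈ E ↔ i ∈ E') := by
    intro i
    have h1 := congrFun he i
    unfold flipE at h1
    by_cases hE : i ∈ E <;> by_cases hE' : i ∈ E' <;> simp only [hE, hE', if_true, if_false] at h1
    · exact ⟨fl_inj h1, by simp [hE, hE']⟩
    · exact absurd h1 (fl_ne_mod q hq _ _ (h i))
    · exact absurd h1.symm (fl_ne_mod q hq _ _ (by
        have := (h i); rwa [← Int.dvd_neg, neg_sub] at this))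
    · exact ⟨h1, by simp [hE, hE']⟩
  exact ⟨funext (fun i => (key i).1), Finset.ext (fun i => (key i).2)⟩

end Crest.Agent.CVB
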