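import Crest.Agent.CVB_Defs

/-! # CVB-5: dependence modulo `p` of few small vectors lifts to `ℚ` -/

set_option autoImplicit false
open Classical

namespace Crest.Agent.CVB

/-- the matrix with rows `ξ_x`, `x ∈ B` -/
private def rowM (R : Type) [Ring R] {N : ℕ} (B : Finset (Fin N → ℤ)) :
    Matrix B (Option (Fin N)) R := fun x => xi R (x : Fin N → ℤ)

private theorem rowM_map (R : Type) [Ring R] {N : ℕ} (B : Finset (Fin N → ℤ)) :
    (rowM ℤ B).map (Int.castRingHom R) = rowM R B := by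
  ext x o
  cases o with
  | none => simp [rowM, Matrix.map_apply]
  | some i => simp [rowM, Matrix.map_apply]

private theorem gram_map (R : Type) [CommRing R] {N : ℕ} (B : Finset (Fin N → ℤ)) :
    (Int.castRingHom R) (rowM ℤ B * (rowM ℤ B).transpose).det =
      (rowM R B * (rowM R B).transpose).det := by
  rw [RingHom.map_det, RingHom.mapMatrix_apply, Matrix.map_mul, Matrix.transpose_map, rowM_map]

private theorem gram_ne {N : ℕ} (B : Finset (Fin N → ℤ))
    (h : LinearIndependent ℚ (fun x : B => xi ℚ (x : Fin N → ℤ))) :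
    (rowM ℚ B * (rowM ℚ B).transpose).det ≠ 0 := by
  intro h0
  obtain ⟨v, hv, hv0⟩ := Matrix.exists_vecMul_eq_zero_iff.2 h0
  have h1 : Matrix.vecMul v (rowM ℚ B) = 0 := by
    have h2 : Matrix.vecMul (Matrix.vecMul v (rowM ℚ B)) (rowM ℚ B).transpose = 0 := by
      rw [Matrix.vecMul_vecMul]; exact hv0
    have h3 : (Matrix.vecMul v (rowM ℚ B)) ⬝ᵥ (Matrix.vecMul v (rowM ℚ B)) = 0 := by
      have h4 : (Matrix.vecMul (Matrix.vecMul v (rowM ℚ B)) (rowM ℚ B).transpose) ⬝ᵥ v = 0 := by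
        rw [h2, zero_dotProduct]
      rw [← Matrix.dotProduct_mulVec, Matrix.mulVec_transpose] at h4
      exact h4
    exact dotProduct_self_eq_zero.1 h3
  have h5 : Function.Injective (fun w : B → ℚ => Matrix.vecMul w (rowM ℚ B)) :=
    Matrix.vecMul_injective_iff.2 h
  have h6 : Matrix.vecMul v (rowM ℚ B) = Matrix.vecMul 0 (rowM ℚ B) := by
    rw [h1, Matrix.zero_vecMul]
  exact hv (h5 h6)

/-- Task CVB-5.  PROOF: suppose `ξ_x`, `x ∈ B`, are independent over `ℚ`.  Let `M` be the integer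
matrix with rows `ξ_x` (index `B × Option (Fin N)`), `G = M Mᵀ`.  `det G ≠ 0` (otherwise some
non zero rational `v` has `v G = 0`, so `v G vᵀ = ∑ (vM)_i² = 0`, `v M = 0`).  Entries of `G` are
`≤ (N+1) R²`, so `|det G| ≤ |B|! ((N+1)R²)^|B| < p` (`Matrix.det_le`), hence `det G ≠ 0` in
`ZMod p`; then the rows of `M` mod `p` are independent (a relation `v M = 0` gives `v G = 0`),
contradiction. -/
theorem dep_lift (p : ℕ) [Fact p.Prime] {N : ℕ} (B : Finset (Fin N → ℤ)) (R : ℕ) (hR1 : 1 ≤ R)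
    (hB : ∀ x ∈ B, ∀ i, |x i| ≤ (R : ℤ))
    (hp : (B.card).factorial * ((N + 1) * R ^ 2) ^ B.card < p)
    (hdep : ¬ indp p B) :
    ¬ LinearIndependent ℚ (fun x : B => xi ℚ (x : Fin N → ℤ)) := by
  intro hli
  apply hdep
  have hq := gram_ne B hli
  have hz : (rowM ℤ B * (rowM ℤ B).transpose).det ≠ 0 := by
    intro h
    apply hq
    rw [← gram_map ℚ B, h, map_zero]
  -- entries
  have hent : ∀ x y : B, |(rowM ℤ B * (rowM ℤ B).transpose) x y| ≤ ((N + 1) * R ^ 2 : ℤ) := by
    intro x y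
    rw [Matrix.mul_apply, Fintype.sum_option]
    have h1 : ∀ i : Fin N, |rowM ℤ B x (some i) * (rowM ℤ B).transpose (some i) y| ≤
        (R : ℤ) ^ 2 := by
      intro i
      rw [Matrix.transpose_apply, abs_mul, sq]
      have hx : |rowM ℤ B x (some i)| ≤ (R : ℤ) := by
        have := hB x x.2 i
        simpa [rowM] using this
      have hy : |rowM ℤ B y (some i)| ≤ (R : ℤ) := by
        have := hB y y.2 i
        simpa [rowM] using this
      exact mul_le_mul hx hy (abs_nonneg _) (by positivity)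
    have h2 : rowM ℤ B x none * (rowM ℤ B).transpose none y = 1 := by
      simp [rowM, Matrix.transpose_apply]
    rw [h2]
    calc |1 + ∑ i : Fin N, rowM ℤ B x (some i) * (rowM ℤ B).transpose (some i) y| ≤
        |(1 : ℤ)| + |∑ i : Fin N, rowM ℤ B x (some i) * (rowM ℤ B).transpose (some i) y| :=
          abs_add_le _ _
      _ ≤ 1 + ∑ i : Fin N, |rowM ℤ B x (some i) * (rowM ℤ B).transpose (some i) y| := by
          rw [abs_one]
          exact add_le_add_right (Finset.abs_sum_le_sum_abs _ _) _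
      _ ≤ 1 + ∑ i : Fin N, (R : ℤ) ^ 2 :=
          add_le_add_right (Finset.sum_le_sum fun i _ => h1 i) _
      _ = 1 + N * (R : ℤ) ^ 2 := by simp
      _ ≤ (N + 1) * (R : ℤ) ^ 2 := by
          have : (1 : ℤ) ≤ (R : ℤ) ^ 2 := by
            have : (1 : ℤ) ≤ R := by exact_mod_cast hR1
            nlinarith
          linarith
  have hdet : |(rowM ℤ B * (rowM ℤ B).transpose).det| ≤
      (B.card.factorial : ℤ) * ((N + 1) * R ^ 2) ^ B.card := by
    have h := Matrix.det_le (abv := AbsoluteValue.abs) hent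
    rw [Fintype.card_coe, nsmul_eq_mul] at h
    exact h
  have hlt : |(rowM ℤ B * (rowM ℤ B).transpose).det| < (p : ℤ) := by
    refine lt_of_le_of_lt hdet ?_
    exact_mod_cast hp
  have hzp : (rowM (ZMod p) B * (rowM (ZMod p) B).transpose).det ≠ 0 := by
    rw [← gram_map (ZMod p) B]
    intro h
    have h1 : (p : ℤ) ∣ (rowM ℤ B * (rowM ℤ B).transpose).det := by
      rw [← ZMod.intCast_zmod_eq_zero_iff_dvd]
      exact h
    have h2 := Int.le_of_dvd (abs_pos.2 hz) ((dvd_abs _ _).2 h1)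
    exact absurd h2 (not_le.2 hlt)
  show LinearIndependent (ZMod p) (rowM (ZMod p) B).row
  rw [← Matrix.vecMul_injective_iff]
  intro v w hvw
  have h1 : Matrix.vecMul (v - w) (rowM (ZMod p) B) = 0 := by
    rw [Matrix.sub_vecMul]
    exact sub_eq_zero.2 hvw
  have h2 : Matrix.vecMul (v - w) (rowM (ZMod p) B * (rowM (ZMod p) B).transpose) = 0 := by
    rw [← Matrix.vecMul_vecMul, h1, Matrix.zero_vecMul]
  by_contra hne
  exact hzp (Matrix.exists_vecMul_eq_zero_iff.1 ⟨v - w, sub_ne_zero.2 hne, h2⟩)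

end Crest.Agent.CVB
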