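import Crest.Agent.CVC_Good

/-! S0347 part C: the core assembly for fixed parameters. -/

set_option autoImplicit false
namespace Crest.Agent.CV
open MeasureTheory Finset

/-- Core assembly (helper5 proves this). -/
theorem core (N m s Qn p : ℕ) [Fact p.Prime] (K : Set (Fin (N + m) → ℝ)) (hK : IsCompact K)
    (hconv : Convex ℝ K)
    (d c0 c1 T Kf : ℝ)
    (hcube : ∀ x : Fin (N + m) → ℝ, (∀ i, |x i| ≤ (((N + m : ℕ) : ℝ) ^ 3)⁻¹) → x ∈ K)
    (hbox : ∀ x ∈ K, ∀ i, |x i| ≤ ((N + m : ℕ) : ℝ) ^ 3)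
    (hmarg : ∀ v : Fin m → ℝ, (∀ j, |v j| ≤ m) → c1 * (∏ j, phi (v j)) * (volume K).toReal ≤
      (volume {y : Fin N → ℝ | (Fin.append y v : Fin (N + m) → ℝ) ∈ K}).toReal)
    (ρ : Fin m → ℝ) (g : Fin m → ℤ → ℝ) (B : Matrix (Fin m) (Fin m) ℤ)
    (hρ : ∀ c, 0 < ρ c ∧ ρ c ≤ 1) (hg0 : ∀ c t, 0 ≤ g c t)
    (hg : ∀ c (t : ℤ) (w : ℝ), |w - ρ c * t| ≤ ρ c → g c t ≤ ρ c * phi w)
    (hgs : ∀ c (t : ℤ), (m : ℝ) / 2 < ρ c * |(t : ℝ)| → g c t = 0)
    (hB : B.det ≠ 0)
    (htree : ∀ u : Fin m → ℤ, ∃ T : Tree m, T.WF ∧ T.rows.length ≤ 2 ^ m ∧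
        (∀ a ∈ T.rows, mass B g u a ≤ (1 / 2 : ℝ) ^ s) ∧
        c0 ≤ (T.rows.map (mass B g u)).sum)
    (hBL : ∀ X : Finset (Fin N → ℤ), (∀ x ∈ X, ∀ i, |x i| ≤ (N : ℤ) ^ 14) →
      (∀ x ∈ X, ∀ y : Fin N → ℤ, (∀ i, y i / 4 = x i / 4) → y ∈ X) →
      (X.card : ℝ) * (Real.log N) ^ 3 ≤ p * N →
      (∑ h : Fin N → ZMod p, ((missed h X).card : ℝ)) ≤
        3 * (p : ℝ) ^ (N + 1) * Real.exp (-(X.card : ℝ) / p))
    (hc0 : 0 < c0) (hc1 : 0 < c1) (hT : 0 < T) (hd : 0 < d) (hQ : 0 < Qn)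
    (hm : 4 ≤ m) (hn : 8 * m ^ 3 ≤ N + m) (hN : 2 ≤ N) (hp : 3 ≤ p)
    (hd2 : 4 * d * ((N + m : ℕ) : ℝ) ≤ (((N + m : ℕ) : ℝ) ^ 3)⁻¹)
    (hQd : 1 ≤ d * Qn) (hNd : ((N + m : ℕ) : ℝ) ^ 3 / d ≤ (N : ℝ) ^ 14)
    (hTD : T * (p * |(B.det : ℝ)| * (∏ c, ρ c) * d ^ N) ≤ c1 / 32 * (volume K).toReal)
    (hTs : T * (1 / 2 : ℝ) ^ s * (Real.log N) ^ 3 ≤ N)
    (hKf : 2 * (((Qn : ℝ) * |(B.det : ℝ)|) ^ m * 2 ^ m) + 1 ≤ Kf)
    (hp4 : (4 : ℝ) ^ N * 2 ^ m ≤ p)
    (hfin : Kf ^ (2 ^ m) * (3 * Kf) ^ (2 ^ m) * Real.exp (1 - T * c0) * p < 1) :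
    ∃ g : Matrix (Fin (N + m)) (Fin (N + m)) ℝ,
      |g.det| = d ^ N * (∏ c, ρ c) * |(B.det : ℝ)| * p ∧
      ∀ x : Fin (N + m) → ℝ, ∃ z : Fin (N + m) → ℤ, x - g.mulVec (fun i => (z i : ℝ)) ∈ K := by
  classical
  have hp0 : 0 < p := by omega
  have hpR : (0 : ℝ) < p := by exact_mod_cast hp0
  have hn0 : 0 < N + m := by omega
  have hnR : (0 : ℝ) < ((N + m : ℕ) : ℝ) := by exact_mod_cast hn0
  have hr : (0 : ℝ) < (((N + m : ℕ) : ℝ) ^ 3)⁻¹ := by positivity
  have hYex := fun U : Fin m → ℤ => Y_exists N m K hK hconv _ d c1 T hr hcube hm hn hd hd2 hc1 hT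
    hmarg ρ g B hρ hg0 hg hgs Qn p hQ hp0 hTD U
  choose Y hY1 hY2 hY3 hY4 using hYex
  choose T0 hT1 hT2 hT3 hT4 using htree
  set M : ℕ := Qn * B.det.natAbs with hM
  have hMR : (M : ℝ) = Qn * |(B.det : ℝ)| := by
    rw [hM]; push_cast
    rw [Nat.cast_natAbs]; push_cast; rfl
  have hKf1 : (1 : ℝ) ≤ Kf := by
    have : (0 : ℝ) ≤ 2 * (((Qn : ℝ) * |(B.det : ℝ)|) ^ m * 2 ^ m) := by positivity
    linarith
  let U0 : (Fin m → Fin M) → Fin m → ℤ := fun i c => ((i c : ℕ) : ℤ)
  let TT : (Fin m → Fin M) → Tree m := fun i => T0 (fun c => U0 i c / Qn)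
  let off : (Fin m → Fin M) → (Fin m → ℤ) → Fin m → ℤ :=
    fun i a c => U0 i c - Qn * B.mulVec a c
  let F : Finset (Fin m → ℤ) := Finset.univ.biUnion
    (fun i : Fin m → Fin M => (TT i).rows.toFinset.image (off i))
  have hQz : (Qn : ℤ) ≠ 0 := by exact_mod_cast hQ.ne'
  have hmass : ∀ i a, |(B.det : ℝ)| * ∏ c, g c (off i a c / Qn) =
      mass B g (fun c => U0 i c / Qn) a := by
    intro i a
    unfold mass
    congr 1
    refine Finset.prod_congr rfl fun c _ => ?_
    congr 1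
    show (U0 i c - Qn * B.mulVec a c) / (Qn : ℤ) = _
    rw [sub_eq_add_neg, ← mul_neg, Int.add_mul_ediv_left _ _ hQz, ← sub_eq_add_neg]
  have hcardσ : (Fintype.card (Fin m → Fin M) : ℝ) = ((Qn : ℝ) * |(B.det : ℝ)|) ^ m := by
    rw [← hMR]; simp
  have hFcard : (F.card : ℝ) ≤ ((Qn : ℝ) * |(B.det : ℝ)|) ^ m * 2 ^ m := by
    rw [← hcardσ]
    have h1 : F.card ≤ Fintype.card (Fin m → Fin M) * 2 ^ m := by
      refine (Finset.card_biUnion_le_card_mul _ _ (2 ^ m) ?_).trans (le_of_eq (by simp))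
      intro i _
      refine Finset.card_image_le.trans ((List.toFinset_card_le _).trans (hT2 _))
    exact_mod_cast h1
  -- the bound for the cardinals
  have hYle : ∀ i, ∀ a ∈ (TT i).rows, ((Y (off i a)).card : ℝ) ≤ T * p * (1 / 2 : ℝ) ^ s := by
    intro i a ha
    refine (hY4 (off i a)).trans ?_
    rw [hmass]
    have := hT3 _ a ha
    gcongr
  have hlogN : 0 ≤ Real.log N := Real.log_nonneg (by exact_mod_cast (by omega : 1 ≤ N))
  have hBase : ∀ u ∈ F, (∑ h : Fin N → ZMod p, ((missed h (Y u)).card : ℝ)) ≤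
      (p : ℝ) ^ (N + 1) * (2 * (3 / 2 * Real.exp (-((Y u).card : ℝ) / p))) := by
    intro u hu
    rw [Finset.mem_biUnion] at hu
    obtain ⟨i, -, hu⟩ := hu
    rw [Finset.mem_image] at hu
    obtain ⟨a, ha, rfl⟩ := hu
    rw [List.mem_toFinset] at ha
    refine (hBL (Y (off i a)) ?_ (hY2 _) ?_).trans (le_of_eq (by ring))
    · intro y hy j
      have h1 := hbox _ (hY1 _ y hy) (Fin.castAdd m j)
      simp only [Pi.smul_apply, Fin.append_left, smul_eq_mul, abs_mul] at h1
      have h2 : (1 : ℝ) ≤ |(1 - 1 / ((N + m : ℕ) : ℝ))⁻¹| := by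
        have h3 : (0 : ℝ) < 1 - 1 / ((N + m : ℕ) : ℝ) := by
          have : (2 : ℝ) ≤ ((N + m : ℕ) : ℝ) := by exact_mod_cast (by omega : 2 ≤ N + m)
          have : 1 / ((N + m : ℕ) : ℝ) ≤ 1 / 2 := one_div_le_one_div_of_le (by norm_num) this
          linarith
        rw [abs_of_pos (inv_pos.mpr h3)]
        have h4 : 1 - 1 / ((N + m : ℕ) : ℝ) ≤ 1 := by
          have : 0 ≤ 1 / ((N + m : ℕ) : ℝ) := by positivity
          linarith
        exact (one_le_inv₀ h3).mpr h4
      have h5 : |d| * |(y j : ℝ)| ≤ ((N + m : ℕ) : ℝ) ^ 3 := by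
        refine le_trans ?_ h1
        have : 0 ≤ |d| * |(y j : ℝ)| := by positivity
        nlinarith
      rw [abs_of_pos hd] at h5
      have h6 : |(y j : ℝ)| ≤ (N : ℝ) ^ 14 := by
        refine le_trans ?_ hNd
        rw [le_div_iff₀ hd]; linarith
      have h7 : ((|y j| : ℤ) : ℝ) ≤ (((N : ℤ) ^ 14 : ℤ) : ℝ) := by push_cast; exact h6
      exact_mod_cast h7
    · calc ((Y (off i a)).card : ℝ) * Real.log N ^ 3
          ≤ T * p * (1 / 2 : ℝ) ^ s * Real.log N ^ 3 :=
            mul_le_mul_of_nonneg_right (hYle i a ha) (by positivity)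
        _ = p * (T * (1 / 2 : ℝ) ^ s * Real.log N ^ 3) := by ring
        _ ≤ p * N := mul_le_mul_of_nonneg_left hTs hpR.le
  obtain ⟨h, hh, hgood⟩ := good_h hN hp F Y
    (fun u => 3 / 2 * Real.exp (-((Y u).card : ℝ) / p)) (fun u => by positivity) hBase Kf
    (le_trans (by linarith) hKf)
  obtain ⟨τ, hτ⟩ := tree_union (fun i a => missed h (Y (off i a))) TT (fun i => hT1 _) (2 ^ m)
    (fun i => hT2 _) Kf hKf1 (by
      rw [hcardσ]
      have h2m : ((2 ^ m : ℕ) : ℝ) = 2 ^ m := by norm_num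
      rw [h2m]
      have : (0 : ℝ) ≤ ((Qn : ℝ) * |(B.det : ℝ)|) ^ m * 2 ^ m := by positivity
      linarith)
  -- all values are covered
  have hempty : ∀ i, VT (fun a => missed h (Y (off i a))) τ (TT i) = ∅ := by
    intro i
    have hprod : ∀ (l : List (Fin m → ℤ)), (∀ a ∈ l, a ∈ (TT i).rows) →
        (l.map (fun a => ((missed h (Y (off i a))).card : ℝ) / p)).prod ≤
          (3 * Kf) ^ l.length *
            Real.exp (-((l.map (fun a => T * p * mass B g (fun c => U0 i c / Qn) a - 4 ^ N)).sum / p)) := by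
      intro l
      induction l with
      | nil => intro _; simp
      | cons a l ih =>
        intro hl
        have ha : a ∈ (TT i).rows := hl a (by simp)
        have ih' := ih (fun b hb => hl b (by simp [hb]))
        have hF : off i a ∈ F := by
          refine Finset.mem_biUnion.mpr ⟨i, Finset.mem_univ _, Finset.mem_image.mpr
            ⟨a, List.mem_toFinset.mpr ha, rfl⟩⟩
        have h1 : ((missed h (Y (off i a))).card : ℝ) / p ≤ (3 * Kf) *
            Real.exp (-((T * p * mass B g (fun c => U0 i c / Qn) a - 4 ^ N) / p)) := by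
          refine (hgood _ hF).trans ?_
          have h2 : Real.exp (-((Y (off i a)).card : ℝ) / p) ≤
              Real.exp (-((T * p * mass B g (fun c => U0 i c / Qn) a - 4 ^ N) / p)) := by
            apply Real.exp_le_exp.mpr
            rw [neg_div, neg_le_neg_iff]
            refine div_le_div_of_nonneg_right ?_ hpR.le
            rw [← hmass]
            exact hY3 (off i a)
          have : 0 ≤ Kf := by linarith
          nlinarith
        rw [List.map_cons, List.prod_cons, List.map_cons, List.sum_cons, List.length_cons,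
          pow_succ, add_div, neg_add, Real.exp_add]
        calc _ ≤ ((3 * Kf) * Real.exp (-((T * p * mass B g (fun c => U0 i c / Qn) a - 4 ^ N) / p))) *
              ((3 * Kf) ^ l.length * Real.exp (-((l.map (fun a => T * p *
                mass B g (fun c => U0 i c / Qn) a - 4 ^ N)).sum / p))) := by
                refine mul_le_mul h1 ih' ?_ ?_
                · exact List.prod_nonneg (by
                    intro x hx
                    rw [List.mem_map] at hx
                    obtain ⟨b, -, rfl⟩ := hx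
                    positivity)
                · have : 0 ≤ Kf := by linarith
                  positivity
          _ = _ := by ring
    have h1 := (hτ i).trans (mul_le_mul_of_nonneg_left (hprod _ (fun a ha => ha))
      (by positivity))
    have hsum : ∀ (l : List (Fin m → ℤ)),
        (l.map (fun a => T * p * mass B g (fun c => U0 i c / Qn) a - 4 ^ N)).sum =
          T * p * (l.map (mass B g (fun c => U0 i c / Qn))).sum - l.length * 4 ^ N := by
      intro l
      induction l with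
      | nil => simp
      | cons a l ih => simp [ih]; ring
    rw [hsum] at h1
    have hlen : ((TT i).rows.length : ℝ) ≤ 2 ^ m := by exact_mod_cast hT2 _
    have h2 : T * c0 - 1 ≤ (T * p * ((TT i).rows.map (mass B g (fun c => U0 i c / Qn))).sum -
        (TT i).rows.length * 4 ^ N) / p := by
      rw [le_div_iff₀ hpR]
      have h3 : c0 ≤ ((TT i).rows.map (mass B g (fun c => U0 i c / Qn))).sum := hT4 _
      have h4 : ((TT i).rows.length : ℝ) * 4 ^ N ≤ p := by
        calc ((TT i).rows.length : ℝ) * 4 ^ N ≤ 2 ^ m * 4 ^ N := by gcongr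
          _ = 4 ^ N * 2 ^ m := by ring
          _ ≤ p := hp4
      have h5 : T * p * c0 ≤ T * p * ((TT i).rows.map (mass B g (fun c => U0 i c / Qn))).sum := by
        gcongr
      nlinarith
    have h3 : ((VT (fun a => missed h (Y (off i a))) τ (TT i)).card : ℝ) / p ≤
        Kf ^ (2 ^ m) * ((3 * Kf) ^ (2 ^ m) * Real.exp (1 - T * c0)) := by
      refine h1.trans ?_
      have hK0 : 0 ≤ Kf := by linarith
      have h4 : (3 * Kf) ^ (TT i).rows.length ≤ (3 * Kf) ^ (2 ^ m) :=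
        pow_le_pow_right₀ (by linarith) (hT2 _)
      have h5 : Real.exp (-((T * p * ((TT i).rows.map (mass B g (fun c => U0 i c / Qn))).sum -
        (TT i).rows.length * 4 ^ N) / p)) ≤ Real.exp (1 - T * c0) := by
        apply Real.exp_le_exp.mpr; linarith
      gcongr
    have h4 : ((VT (fun a => missed h (Y (off i a))) τ (TT i)).card : ℝ) < 1 := by
      have h5 : ((VT (fun a => missed h (Y (off i a))) τ (TT i)).card : ℝ) ≤
          Kf ^ (2 ^ m) * (3 * Kf) ^ (2 ^ m) * Real.exp (1 - T * c0) * p := by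
        rw [div_le_iff₀ hpR] at h3
        linarith
      linarith
    have h5 : (VT (fun a => missed h (Y (off i a))) τ (TT i)).card = 0 := by
      have : (VT (fun a => missed h (Y (off i a))) τ (TT i)).card < 1 := by exact_mod_cast h4
      omega
    exact Finset.card_eq_zero.mp h5
  have hcovU : ∀ U : Fin m → ℤ, (∀ c, 0 ≤ U c ∧ U c < Qn * |B.det|) → ∀ α : ZMod p,
      ∃ a : Fin m → ℤ, ∃ y ∈ Y (fun c => U c - Qn * B.mulVec a c),
        ∑ i, h i * ((y i : ℤ) : ZMod p) = α + ∑ c, τ c * ((a c : ℤ) : ZMod p) := by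
    intro U hU α
    have hlt : ∀ c, (U c).toNat < M := by
      intro c
      have h1 := hU c
      have h2 : ((U c).toNat : ℤ) < (M : ℤ) := by
        rw [Int.toNat_of_nonneg h1.1, hM]
        push_cast
        rw [Int.abs_eq_natAbs] at h1
        simpa using h1.2
      exact_mod_cast h2
    set i : Fin m → Fin M := fun c => ⟨(U c).toNat, hlt c⟩ with hi
    have hUi : U0 i = U := by
      funext c
      show (((U c).toNat : ℕ) : ℤ) = U c
      exact Int.toNat_of_nonneg (hU c).1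
    have hα : α ∉ VT (fun a => missed h (Y (off i a))) τ (TT i) := by
      rw [hempty i]; simp
    unfold VT at hα
    simp only [Finset.mem_filter, Finset.mem_univ, true_and, not_forall] at hα
    obtain ⟨a, -, hα⟩ := hα
    unfold missed at hα
    simp only [Finset.mem_filter, Finset.mem_univ, true_and, not_forall, not_not] at hα
    obtain ⟨y, hy, hyα⟩ := hα
    refine ⟨a, y, ?_, hyα⟩
    have : off i a = fun c => U c - Qn * B.mulVec a c := by
      funext c
      show U0 i c - Qn * B.mulVec a c = _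
      rw [hUi]
    rwa [this] at hy
  have hdn : d * ((N + m : ℕ) : ℝ) ≤ (((N + m : ℕ) : ℝ) ^ 3)⁻¹ := by
    have : 0 ≤ d * ((N + m : ℕ) : ℝ) := by positivity
    linarith
  refine lattice_of_cover N m K d hd ρ B hB (fun c => (hρ c).1) p h hh τ ?_
  intro x
  refine cover_det N m (by omega) K hconv _ d d hcube hd le_rfl hdn ρ B hB (fun c => (hρ c).1)
    Qn p hQ ?_ Y hY1 h hh τ hcovU x
  intro c
  have hQR : (0 : ℝ) < Qn := by exact_mod_cast hQ
  rw [div_le_iff₀ hQR]
  linarith [(hρ c).2]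

end Crest.Agent.CV
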