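import Crest.Agent.CV_Defs

/-! S0347 part C: cubes of grid points inside a section of `K`. -/

set_option autoImplicit false
namespace Crest.Agent.CV
open MeasureTheory

private theorem cvc_cc_smul (N m : ℕ) (t : ℝ) (y : Fin N → ℝ) (w : Fin m → ℝ) :
    (Fin.append (t • y) (t • w) : Fin (N + m) → ℝ) = t • Fin.append y w := by
  funext i
  refine Fin.addCases (fun i => ?_) (fun i => ?_) i
  · simp [Fin.append_left]
  · simp [Fin.append_right]

private theorem cvc_cc_mem (N m : ℕ) (K : Set (Fin (N + m) → ℝ)) (hconv : Convex ℝ K)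
    (r d ε : ℝ) (hcube : ∀ x : Fin (N + m) → ℝ, (∀ i, |x i| ≤ r) → x ∈ K) (hr : 0 < r)
    (hε : 0 < ε) (hε2 : ε < 1 / 2) (hd : 0 < d) (hd2 : 4 * d ≤ ε * r) (w : Fin m → ℝ)
    (z : Fin N → ℝ) (hz : (1 - 2 * ε)⁻¹ • (Fin.append z w : Fin (N + m) → ℝ) ∈ K)
    (y : Fin N → ℤ) (hy : ∀ i, y i / 4 = ⌊z i / (4 * d)⌋) :
    (1 - ε)⁻¹ • (Fin.append (fun i => d * (y i : ℝ)) w : Fin (N + m) → ℝ) ∈ K := by
  have ht : 0 < 1 - 2 * ε := by linarith
  have h1 : 0 < 1 - ε := by linarith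
  have he : (ε⁻¹ • (Fin.append (fun i => d * (y i : ℝ) - z i) 0 : Fin (N + m) → ℝ)) ∈ K := by
    apply hcube
    intro i
    refine Fin.addCases (fun i => ?_) (fun i => ?_) i
    · rw [Pi.smul_apply, Fin.append_left, smul_eq_mul, abs_mul, abs_of_pos (inv_pos.2 hε)]
      rw [inv_mul_le_iff₀ hε]
      refine le_trans ?_ hd2
      have h4 : 0 < 4 * d := by linarith
      have a1 := Int.floor_le (z i / (4 * d))
      have a2 := Int.lt_floor_add_one (z i / (4 * d))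
      rw [← hy i] at a1 a2
      rw [le_div_iff₀ h4] at a1
      rw [div_lt_iff₀ h4] at a2
      have b1 : 4 * (y i / 4) ≤ y i := by omega
      have b2 : y i ≤ 4 * (y i / 4) + 3 := by omega
      have b1' : 4 * ((y i / 4 : ℤ) : ℝ) ≤ y i := by exact_mod_cast b1
      have b2' : (y i : ℝ) ≤ 4 * ((y i / 4 : ℤ) : ℝ) + 3 := by exact_mod_cast b2
      rw [abs_le]
      constructor
      · nlinarith
      · nlinarith
    · rw [Pi.smul_apply, Fin.append_right]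
      simp [hr.le]
  have hc := hconv hz he (a := (1 - 2 * ε) / (1 - ε)) (b := ε / (1 - ε)) (by positivity)
    (by positivity) (by field_simp; ring)
  have ht' : 1 - 2 * ε ≠ 0 := ht.ne'
  have h1' : 1 - ε ≠ 0 := h1.ne'
  have hε' : ε ≠ 0 := hε.ne'
  convert hc using 1
  funext i
  refine Fin.addCases (fun i => ?_) (fun i => ?_) i
  · simp only [Pi.smul_apply, Pi.add_apply, Fin.append_left, smul_eq_mul]
    rw [div_mul_eq_mul_div, mul_inv_cancel_left₀ ht', div_mul_eq_mul_div,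
      mul_inv_cancel_left₀ hε']
    field_simp
    ring
  · simp only [Pi.smul_apply, Pi.add_apply, Fin.append_right, smul_eq_mul, Pi.zero_apply]
    rw [div_mul_eq_mul_div, mul_inv_cancel_left₀ ht']
    field_simp
    ring

/-- TASK CVC-CC.  Aligned 4-cubes of grid points in the section of `(1-ε)K` at height `w`.
Let `t = 1 - 2ε`, `S = {y : Fin.append y (t⁻¹ • w) ∈ K}` (measurable, bounded) and
`t • S = {y : Fin.append y w ∈ t • K}`.  Let `Q` = set of all `k ∈ ℤ^N` such that all `y` with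
`y i / 4 = k i` satisfy the membership; it is finite because `K` is bounded (`d > 0`).
If `y* ∈ t • S` and `k i = ⌊y* i / (4 d)⌋` then every grid point `d y` of the cube of `k`
satisfies `|d y i - y* i| ≤ 4 d ≤ ε r`, so
`append (d y) w ∈ t K + ε {‖·‖ ≤ r} ⊆ (1-ε) K` (convexity: `t k1 + ε k2 = (1-ε)(...)`).  Hence
`t • S ⊆ ⋃_{k ∈ Q} ∏ [4 d k i, 4 d (k i + 1))`, volume `≤ |Q| (4 d)^N`, and
`vol (t • S) = t^N vol S`. -/
theorem cube_count (N m : ℕ) (K : Set (Fin (N + m) → ℝ)) (hK : IsCompact K)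
    (hconv : Convex ℝ K) (r d ε : ℝ) (hr : 0 < r)
    (hcube : ∀ x : Fin (N + m) → ℝ, (∀ i, |x i| ≤ r) → x ∈ K)
    (hε : 0 < ε) (hε2 : ε < 1 / 2) (hd : 0 < d) (hd2 : 4 * d ≤ ε * r) (w : Fin m → ℝ) :
    ∃ Q : Finset (Fin N → ℤ),
      (∀ k ∈ Q, ∀ y : Fin N → ℤ, (∀ i, y i / 4 = k i) →
        (1 - ε)⁻¹ • (Fin.append (fun i => d * (y i : ℝ)) w : Fin (N + m) → ℝ) ∈ K) ∧
      (1 - 2 * ε) ^ N *
        (volume {y : Fin N → ℝ | (Fin.append y ((1 - 2 * ε)⁻¹ • w) : Fin (N + m) → ℝ) ∈ K}).toReal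
        ≤ Q.card * (4 * d) ^ N := by
  classical
  have ht : 0 < 1 - 2 * ε := by linarith
  have h1 : 0 < 1 - ε := by linarith
  have h4 : 0 < 4 * d := by linarith
  obtain ⟨R, hR⟩ := hK.isBounded.exists_norm_le
  set P : Set (Fin N → ℤ) := {k | ∀ y : Fin N → ℤ, (∀ i, y i / 4 = k i) →
    (1 - ε)⁻¹ • (Fin.append (fun i => d * (y i : ℝ)) w : Fin (N + m) → ℝ) ∈ K} with hP
  have hfin : P.Finite := by
    refine (Set.finite_Icc (fun _ : Fin N => -⌈R / (4 * d)⌉) (fun _ => ⌈R / (4 * d)⌉)).subset ?_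
    intro k hk
    have h2 := hk (fun i => 4 * k i) (fun i => by omega)
    have h3 := hR _ h2
    have h5 : ∀ i, |(k i : ℝ)| ≤ R / (4 * d) := by
      intro i
      have h6 := (norm_le_pi_norm _ (Fin.castAdd m i)).trans h3
      rw [Pi.smul_apply, Fin.append_left, smul_eq_mul, Real.norm_eq_abs, abs_mul,
        abs_of_pos (inv_pos.2 h1), inv_mul_le_iff₀ h1, abs_mul, abs_of_pos hd] at h6
      push_cast at h6
      rw [abs_mul, abs_of_pos (by norm_num : (0:ℝ) < 4)] at h6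
      rw [le_div_iff₀ h4]
      have hR0 : 0 ≤ R := (norm_nonneg _).trans h3
      nlinarith [abs_nonneg (k i : ℝ)]
    rw [Set.mem_Icc, Pi.le_def, Pi.le_def]
    have h7 := fun i => abs_le.1 (h5 i)
    constructor
    · intro i
      have h8 := (h7 i).1
      have h9 := Int.le_ceil (R / (4 * d))
      have : (-(⌈R / (4 * d)⌉ : ℤ) : ℝ) ≤ k i := by linarith
      exact_mod_cast this
    · intro i
      have h8 := (h7 i).2
      have h9 := Int.le_ceil (R / (4 * d))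
      have : (k i : ℝ) ≤ (⌈R / (4 * d)⌉ : ℤ) := by linarith
      exact_mod_cast this
  refine ⟨hfin.toFinset, fun k hk => by simpa [hP] using hk, ?_⟩
  set S : Set (Fin N → ℝ) :=
    {y : Fin N → ℝ | (Fin.append y ((1 - 2 * ε)⁻¹ • w) : Fin (N + m) → ℝ) ∈ K} with hS
  have hA : volume ((fun y : Fin N → ℝ => (1 - 2 * ε)⁻¹ • y) ⁻¹' S) =
      ENNReal.ofReal ((1 - 2 * ε) ^ N) * volume S := by
    rw [Measure.addHaar_preimage_smul volume (inv_ne_zero ht.ne')]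
    congr 2
    rw [Module.finrank_fintype_fun_eq_card, Fintype.card_fin, inv_pow, inv_inv,
      abs_of_pos (pow_pos ht N)]
  have hsub : ((fun y : Fin N → ℝ => (1 - 2 * ε)⁻¹ • y) ⁻¹' S) ⊆
      ⋃ k ∈ hfin.toFinset, Set.pi Set.univ
        (fun i => Set.Ico (4 * d * (k i : ℝ)) (4 * d * ((k i : ℝ) + 1))) := by
    intro z hz
    have hz' : (1 - 2 * ε)⁻¹ • (Fin.append z w : Fin (N + m) → ℝ) ∈ K := by
      rw [← cvc_cc_smul]
      exact hz
    rw [Set.mem_iUnion₂]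
    refine ⟨fun i => ⌊z i / (4 * d)⌋, ?_, ?_⟩
    · rw [Set.Finite.mem_toFinset]
      intro y hy
      exact cvc_cc_mem N m K hconv r d ε hcube hr hε hε2 hd hd2 w z hz' y hy
    · intro i _
      have a1 := Int.floor_le (z i / (4 * d))
      have a2 := Int.lt_floor_add_one (z i / (4 * d))
      rw [le_div_iff₀ h4] at a1
      rw [div_lt_iff₀ h4] at a2
      rw [Set.mem_Ico]
      constructor <;> linarith
  have hvol : volume ((fun y : Fin N → ℝ => (1 - 2 * ε)⁻¹ • y) ⁻¹' S) ≤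
      ENNReal.ofReal (hfin.toFinset.card * (4 * d) ^ N) := by
    refine (measure_mono hsub).trans ((measure_biUnion_finset_le _ _).trans ?_)
    have hk : ∀ k ∈ hfin.toFinset, volume (Set.pi Set.univ
        (fun i => Set.Ico (4 * d * (k i : ℝ)) (4 * d * ((k i : ℝ) + 1)))) =
        ENNReal.ofReal ((4 * d) ^ N) := by
      intro k _
      rw [Real.volume_pi_Ico]
      have : ∀ i : Fin N, 4 * d * ((k i : ℝ) + 1) - 4 * d * (k i : ℝ) = 4 * d := by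
        intro i; ring
      simp only [this, Finset.prod_const, Finset.card_univ, Fintype.card_fin]
      rw [ENNReal.ofReal_pow h4.le]
    rw [Finset.sum_congr rfl hk, Finset.sum_const, nsmul_eq_mul,
      ENNReal.ofReal_mul (Nat.cast_nonneg _), ENNReal.ofReal_natCast]
  rw [hA] at hvol
  have h2 := ENNReal.toReal_mono ENNReal.ofReal_ne_top hvol
  rw [ENNReal.toReal_mul, ENNReal.toReal_ofReal (by positivity),
    ENNReal.toReal_ofReal (by positivity)] at h2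
  exact h2

private theorem ye_cubes (N : ℕ) (Q : Finset (Fin N → ℤ)) (X : ℝ) (hX : 0 ≤ X) (hXQ : X ≤ Q.card * 4 ^ N) :
    ∃ Y : Finset (Fin N → ℤ), (∀ y ∈ Y, (fun i => y i / 4) ∈ Q) ∧
      (∀ x ∈ Y, ∀ y : Fin N → ℤ, (∀ i, y i / 4 = x i / 4) → y ∈ Y) ∧
      X - 4 ^ N ≤ Y.card ∧ (Y.card : ℝ) ≤ X := by
  classical
  have h4 : (0 : ℝ) < 4 ^ N := by positivity
  have hν : ⌊X / 4 ^ N⌋₊ ≤ Q.card := by
    have h1 : X / 4 ^ N ≤ (Q.card : ℝ) := by
      rw [div_le_iff₀ h4]; exact hXQ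
    have h2 : (⌊X / 4 ^ N⌋₊ : ℝ) ≤ (Q.card : ℝ) := (Nat.floor_le (by positivity)).trans h1
    exact_mod_cast h2
  obtain ⟨Q', hQ', hcard⟩ := Finset.exists_subset_card_eq hν
  have hmem : ∀ (k y : Fin N → ℤ), y ∈ Fintype.piFinset (fun i => Finset.Ico (4 * k i) (4 * k i + 4)) ↔
      ∀ i, y i / 4 = k i := by
    intro k y
    rw [Fintype.mem_piFinset]
    refine forall_congr' fun i => ?_
    rw [Finset.mem_Ico]
    omega
  have hYcard : (Q'.biUnion (fun k => Fintype.piFinset (fun i => Finset.Ico (4 * k i) (4 * k i + 4)))).card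
      = Q'.card * 4 ^ N := by
    rw [Finset.card_biUnion]
    · rw [Finset.sum_const_nat (m := 4 ^ N)]
      intro k _
      rw [Fintype.card_piFinset]
      simp
    · intro k _ k' _ hkk
      rw [Function.onFun, Finset.disjoint_left]
      intro y hy hy'
      apply hkk
      rw [hmem] at hy hy'
      funext i
      rw [← hy i, ← hy' i]
  refine ⟨Q'.biUnion (fun k => Fintype.piFinset (fun i => Finset.Ico (4 * k i) (4 * k i + 4))), ?_, ?_, ?_, ?_⟩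
  · intro y hy
    rw [Finset.mem_biUnion] at hy
    obtain ⟨k, hk, hy⟩ := hy
    rw [hmem] at hy
    have : (fun i => y i / 4) = k := funext hy
    rw [this]
    exact hQ' hk
  · intro x hx y hy
    rw [Finset.mem_biUnion] at hx ⊢
    obtain ⟨k, hk, hx⟩ := hx
    refine ⟨k, hk, ?_⟩
    rw [hmem] at hx ⊢
    intro i
    rw [hy i, hx i]
  · rw [hYcard, hcard]
    push_cast
    have h1 : X / 4 ^ N < ⌊X / 4 ^ N⌋₊ + 1 := Nat.lt_floor_add_one _
    rw [div_lt_iff₀ h4] at h1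
    linarith
  · rw [hYcard, hcard]
    push_cast
    have h1 : (⌊X / 4 ^ N⌋₊ : ℝ) ≤ X / 4 ^ N := Nat.floor_le (by positivity)
    rw [le_div_iff₀ h4] at h1
    exact h1

private theorem ye_pow (n N : ℕ) (hn : 512 ≤ n) (hN : N ≤ n) : (1 : ℝ) / 16 ≤ (1 - 2 * (1 / (n : ℝ))) ^ N := by
  have hnr : (512 : ℝ) ≤ (n : ℝ) := by exact_mod_cast hn
  have hn0 : (0 : ℝ) < (n : ℝ) := by linarith
  have ht0 : (0 : ℝ) < 1 - 2 * (1 / (n : ℝ)) := by
    rw [sub_pos, mul_one_div, div_lt_one hn0]; linarith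
  have ht1 : 1 - 2 * (1 / (n : ℝ)) ≤ 1 := by
    have : 0 ≤ 2 * (1 / (n : ℝ)) := by positivity
    linarith
  have h1 : (1 - 2 * (1 / (n : ℝ))) ^ n ≤ (1 - 2 * (1 / (n : ℝ))) ^ N :=
    pow_le_pow_of_le_one ht0.le ht1 hN
  refine le_trans ?_ h1
  -- (1-2/n) ≥ exp (-(2/(n-2)))
  have h2 : Real.exp (-(2 / ((n : ℝ) - 2))) ≤ 1 - 2 * (1 / (n : ℝ)) := by
    rw [Real.exp_neg]
    have h3 : 1 + 2 / ((n : ℝ) - 2) ≤ Real.exp (2 / ((n : ℝ) - 2)) := by
      have := Real.add_one_le_exp (2 / ((n : ℝ) - 2)); linarith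
    have h4 : (0 : ℝ) < (n : ℝ) - 2 := by linarith
    have h5 : 1 + 2 / ((n : ℝ) - 2) = (1 - 2 * (1 / (n : ℝ)))⁻¹ := by
      field_simp
      ring
    rw [h5] at h3
    rw [inv_le_comm₀ (Real.exp_pos _) ht0]
    exact h3
  have h3 : Real.exp (-(2 / ((n : ℝ) - 2))) ^ n ≤ (1 - 2 * (1 / (n : ℝ))) ^ n :=
    pow_le_pow_left₀ (Real.exp_pos _).le h2 n
  refine le_trans ?_ h3
  rw [← Real.exp_nat_mul]
  have h4 : -(5 / 2 : ℝ) ≤ (n : ℝ) * -(2 / ((n : ℝ) - 2)) := by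
    have h4 : (0 : ℝ) < (n : ℝ) - 2 := by linarith
    rw [mul_neg, neg_le_neg_iff, ← mul_div_assoc, div_le_iff₀ h4]
    linarith
  have h5 : Real.exp (-(5 / 2 : ℝ)) ≤ Real.exp ((n : ℝ) * -(2 / ((n : ℝ) - 2))) := Real.exp_le_exp.mpr h4
  refine le_trans ?_ h5
  rw [Real.exp_neg, ← one_div]
  apply one_div_le_one_div_of_le (Real.exp_pos _)
  have h6 : Real.exp (5 / 2) = Real.exp 1 ^ 2 * Real.exp (1 / 2) := by
    rw [← Real.exp_nat_mul, ← Real.exp_add]; norm_num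
  have h7 : Real.exp (1 / 2) ^ 2 = Real.exp 1 := by
    rw [← Real.exp_nat_mul]; norm_num
  have h8 : Real.exp 1 < 2.7182818286 := Real.exp_one_lt_d9
  have h9 : Real.exp (1 / 2) ≤ 2 := by
    nlinarith [Real.exp_pos (1 / 2 : ℝ)]
  rw [h6]
  have h10 : Real.exp 1 ^ 2 ≤ 8 := by nlinarith [Real.exp_pos (1 : ℝ)]
  nlinarith [Real.exp_pos (1 / 2 : ℝ)]

private theorem ye_phi (m : ℕ) (t : ℝ) (n : ℕ) (hn : 8 * m ^ 3 ≤ n) (hm : 4 ≤ m) (ht : t = 1 - 2 * (1 / (n : ℝ)))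
    (w : Fin m → ℝ) (hw : ∀ j, |t⁻¹ * w j| ≤ m) :
    (1 / 2) * ∏ j, phi (w j) ≤ ∏ j, phi (t⁻¹ * w j) := by
  have hmr : (4 : ℝ) ≤ (m : ℝ) := by exact_mod_cast hm
  have hnr : 8 * (m : ℝ) ^ 3 ≤ (n : ℝ) := by exact_mod_cast hn
  have hn0 : (0 : ℝ) < (n : ℝ) := lt_of_lt_of_le (by positivity) hnr
  have hn512 : (512 : ℝ) ≤ (n : ℝ) := by
    refine le_trans ?_ hnr
    have : (4 : ℝ) ^ 3 ≤ (m : ℝ) ^ 3 := pow_le_pow_left₀ (by norm_num) hmr 3
    linarith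
  have ht0 : 0 < t := by
    rw [ht, sub_pos, mul_one_div, div_lt_one hn0]; linarith
  have ht1 : t ≤ 1 := by
    have : 0 ≤ 2 * (1 / (n : ℝ)) := by positivity
    rw [ht]; linarith
  have key : ∀ j, Real.exp (-(2 * (m : ℝ) ^ 2 / n)) * phi (w j) ≤ phi (t⁻¹ * w j) := by
    intro j
    obtain ⟨v, hv⟩ : ∃ v, v = t⁻¹ * w j := ⟨_, rfl⟩
    have hwv : w j = t * v := by rw [hv]; field_simp
    have hvm : v ^ 2 ≤ (m : ℝ) ^ 2 := by
      have := hw j
      rw [← hv] at this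
      rw [← sq_abs v]
      exact pow_le_pow_left₀ (abs_nonneg v) this 2
    rw [← hv, hwv]
    unfold phi
    rw [mul_left_comm, ← Real.exp_add]
    apply mul_le_mul_of_nonneg_left _ (by positivity)
    rw [Real.exp_le_exp]
    -- -(2 m^2/n) - (t v)^2/2 ≤ - v^2/2
    have h1 : 1 - t ^ 2 ≤ 4 / n := by
      have : 1 - t = 2 / n := by rw [ht]; ring
      have h2 : 1 - t ^ 2 = (1 - t) * (1 + t) := by ring
      rw [h2, this]
      have : 2 / (n : ℝ) * (1 + t) ≤ 2 / (n : ℝ) * 2 := by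
        apply mul_le_mul_of_nonneg_left _ (by positivity); linarith
      refine this.trans (le_of_eq ?_); ring
    have h3 : v ^ 2 * (1 - t ^ 2) ≤ (m : ℝ) ^ 2 * (4 / n) := by
      have h4 : 0 ≤ 1 - t ^ 2 := by nlinarith
      exact mul_le_mul hvm h1 h4 (by positivity)
    have h5 : (m : ℝ) ^ 2 * (4 / n) = 2 * (2 * (m : ℝ) ^ 2 / n) := by ring
    rw [h5] at h3
    have h6 : (t * v) ^ 2 = v ^ 2 * t ^ 2 := by ring
    rw [h6]
    linarith
  have hprod : ∏ j, (Real.exp (-(2 * (m : ℝ) ^ 2 / n)) * phi (w j)) ≤ ∏ j, phi (t⁻¹ * w j) := by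
    apply Finset.prod_le_prod
    · intro j _
      unfold phi
      positivity
    · intro j _
      exact key j
  refine le_trans ?_ hprod
  rw [Finset.prod_mul_distrib, Finset.prod_const, Finset.card_univ, Fintype.card_fin, ← Real.exp_nat_mul]
  apply mul_le_mul_of_nonneg_right
  · have h1 : -(1 / 4 : ℝ) ≤ (m : ℝ) * -(2 * (m : ℝ) ^ 2 / n) := by
      have h2 : (m : ℝ) * -(2 * (m : ℝ) ^ 2 / n) = -(2 * (m : ℝ) ^ 3 / n) := by ring
      rw [h2, neg_le_neg_iff, div_le_iff₀ hn0]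
      linarith
    refine le_trans ?_ (Real.exp_le_exp.mpr h1)
    have := Real.add_one_le_exp (-(1 / 4 : ℝ))
    linarith
  · apply Finset.prod_nonneg
    intro j _
    unfold phi
    positivity

/-- TASK CVC-YE.  The sets `Y` of grid points: exactly about `T p G` points, union of aligned
4-cubes.  `U` is a fine offset, `w c = ρ c * U c / Qn` the real height, `U c / Qn` (integer
division) the coarse index, `G = |det B| ∏ g c (U c / Qn)`.
Proof.  If `G = 0` take `Y = ∅`.  Otherwise all `g c (U c / Qn) ≠ 0`, so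
`ρ c * |U c / Qn| ≤ m/2` and `|w c| ≤ m/2 + 1 ≤ m (1-2/n)` (`m ≥ 4`, `n ≥ 8`), and
`g c (U c/Qn) ≤ ρ c * phi (w c)` (since `|w c - ρ c * (U c / Qn)| ≤ ρ c`).
`cube_count` with `ε = 1/n` gives `Q` with `|Q| (4d)^N ≥ (1-2/n)^N c1 ∏ phi (w c /(1-2/n)) vol K`;
`(1-2/n)^N ≥ (1-2/n)^n ≥ 1/16`, `phi (w/t) ≥ phi w * exp (-4 w²/n)` so the product loses at most
`exp(-4 m³/n) ≥ 1/2`.  Hence `|Q| ≥ (c1/32) ∏ phi (w c) vol K/(4d)^N ≥ T p G/4^N` by `hT`.
Take `ν = ⌊T p G / 4^N⌋ ≤ |Q|` of the cubes and let `Y` be the union: `|Y| = 4^N ν`. -/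
theorem Y_exists (N m : ℕ) (K : Set (Fin (N + m) → ℝ)) (hK : IsCompact K) (hconv : Convex ℝ K)
    (r d c1 T : ℝ) (hr : 0 < r)
    (hcube : ∀ x : Fin (N + m) → ℝ, (∀ i, |x i| ≤ r) → x ∈ K)
    (hm : 4 ≤ m) (hn : 8 * m ^ 3 ≤ N + m) (hd : 0 < d) (hd2 : 4 * d * ((N + m : ℕ) : ℝ) ≤ r)
    (hc1 : 0 < c1) (hT : 0 < T)
    (hmarg : ∀ v : Fin m → ℝ, (∀ j, |v j| ≤ m) → c1 * (∏ j, phi (v j)) * (volume K).toReal ≤
      (volume {y : Fin N → ℝ | (Fin.append y v : Fin (N + m) → ℝ) ∈ K}).toReal)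
    (ρ : Fin m → ℝ) (g : Fin m → ℤ → ℝ) (B : Matrix (Fin m) (Fin m) ℤ)
    (hρ : ∀ c, 0 < ρ c ∧ ρ c ≤ 1) (hg0 : ∀ c t, 0 ≤ g c t)
    (hg : ∀ c (t : ℤ) (w : ℝ), |w - ρ c * t| ≤ ρ c → g c t ≤ ρ c * phi w)
    (hgs : ∀ c (t : ℤ), (m : ℝ) / 2 < ρ c * |(t : ℝ)| → g c t = 0)
    (Qn p : ℕ) (hQ : 0 < Qn) (hp : 0 < p)
    (hTD : T * (p * |(B.det : ℝ)| * (∏ c, ρ c) * d ^ N) ≤ c1 / 32 * (volume K).toReal)
    (U : Fin m → ℤ) :
    ∃ Y : Finset (Fin N → ℤ),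
      (∀ y ∈ Y, (1 - 1 / ((N + m : ℕ) : ℝ))⁻¹ •
        (Fin.append (fun i => d * (y i : ℝ)) (fun c => ρ c * (U c : ℝ) / Qn) :
          Fin (N + m) → ℝ) ∈ K) ∧
      (∀ x ∈ Y, ∀ y : Fin N → ℤ, (∀ i, y i / 4 = x i / 4) → y ∈ Y) ∧
      T * p * (|(B.det : ℝ)| * ∏ c, g c (U c / Qn)) - 4 ^ N ≤ Y.card ∧
      (Y.card : ℝ) ≤ T * p * (|(B.det : ℝ)| * ∏ c, g c (U c / Qn)) := by
  obtain ⟨n, hndef⟩ : ∃ n : ℕ, n = N + m := ⟨_, rfl⟩
  rw [← hndef] at hn hd2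
  have hcast : ((N + m : ℕ) : ℝ) = (n : ℝ) := by rw [hndef]
  rw [hcast]
  have hmr : (4 : ℝ) ≤ (m : ℝ) := by exact_mod_cast hm
  have hnr : 8 * (m : ℝ) ^ 3 ≤ (n : ℝ) := by exact_mod_cast hn
  have hn0 : (0 : ℝ) < (n : ℝ) := lt_of_lt_of_le (by positivity) hnr
  have hn512 : 512 ≤ n := by
    refine le_trans ?_ hn
    have : 4 ^ 3 ≤ m ^ 3 := Nat.pow_le_pow_left hm 3
    omega
  have hn512r : (512 : ℝ) ≤ (n : ℝ) := by exact_mod_cast hn512
  have hQr : (0 : ℝ) < (Qn : ℝ) := by exact_mod_cast hQ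
  have hQz : (0 : ℤ) < (Qn : ℤ) := by exact_mod_cast hQ
  have hpr : (0 : ℝ) < (p : ℝ) := by exact_mod_cast hp
  by_cases hG : |(B.det : ℝ)| * ∏ c, g c (U c / Qn) = 0
  · refine ⟨∅, by simp, by simp, ?_, ?_⟩
    · rw [hG]
      simp
    · rw [hG]
      simp
  have hGc : ∀ c, g c (U c / Qn) ≠ 0 := by
    intro c hc
    apply hG
    rw [Finset.prod_eq_zero (Finset.mem_univ c) hc, mul_zero]
  have hwdiff : ∀ c, |ρ c * (U c : ℝ) / Qn - ρ c * ((U c / Qn : ℤ) : ℝ)| ≤ ρ c := by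
    intro c
    have h1 : (U c / Qn) * (Qn : ℤ) ≤ U c := Int.ediv_mul_le _ hQz.ne'
    have h2 : U c < (U c / Qn + 1) * (Qn : ℤ) := Int.lt_ediv_add_one_mul_self _ hQz
    have h1r : ((U c / Qn : ℤ) : ℝ) * (Qn : ℝ) ≤ (U c : ℝ) := by exact_mod_cast h1
    have h2r : (U c : ℝ) < (((U c / Qn : ℤ) : ℝ) + 1) * (Qn : ℝ) := by exact_mod_cast h2
    have h3 : ρ c * (U c : ℝ) / Qn - ρ c * ((U c / Qn : ℤ) : ℝ) =
        ρ c * ((U c : ℝ) / Qn - ((U c / Qn : ℤ) : ℝ)) := by ring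
    rw [h3, abs_mul, abs_of_pos (hρ c).1]
    have h4 : ((U c / Qn : ℤ) : ℝ) ≤ (U c : ℝ) / Qn := by rw [le_div_iff₀ hQr]; exact h1r
    have h5 : (U c : ℝ) / Qn ≤ ((U c / Qn : ℤ) : ℝ) + 1 := by rw [div_le_iff₀ hQr]; exact h2r.le
    have h6 : |(U c : ℝ) / Qn - ((U c / Qn : ℤ) : ℝ)| ≤ 1 := by
      rw [abs_le]; constructor <;> linarith
    calc ρ c * |(U c : ℝ) / Qn - ((U c / Qn : ℤ) : ℝ)| ≤ ρ c * 1 :=
          mul_le_mul_of_nonneg_left h6 (hρ c).1.le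
      _ = ρ c := mul_one _
  have hgle : ∀ c, g c (U c / Qn) ≤ ρ c * phi (ρ c * (U c : ℝ) / Qn) := fun c => hg c _ _ (hwdiff c)
  have hwb : ∀ c, |ρ c * (U c : ℝ) / Qn| ≤ (m : ℝ) / 2 + 1 := by
    intro c
    have h1 : ρ c * |((U c / Qn : ℤ) : ℝ)| ≤ (m : ℝ) / 2 := by
      by_contra h
      rw [not_le] at h
      exact hGc c (hgs c _ h)
    have h2 : |ρ c * ((U c / Qn : ℤ) : ℝ)| ≤ (m : ℝ) / 2 := by
      rw [abs_mul, abs_of_pos (hρ c).1]; exact h1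
    have h3 := hwdiff c
    have h4 : |ρ c * (U c : ℝ) / Qn| ≤ |ρ c * (U c : ℝ) / Qn - ρ c * ((U c / Qn : ℤ) : ℝ)| +
        |ρ c * ((U c / Qn : ℤ) : ℝ)| := by
      have := abs_add_le (ρ c * (U c : ℝ) / Qn - ρ c * ((U c / Qn : ℤ) : ℝ)) (ρ c * ((U c / Qn : ℤ) : ℝ))
      rwa [sub_add_cancel] at this
    linarith [(hρ c).2]
  obtain ⟨w, hwdef⟩ : ∃ w : Fin m → ℝ, w = fun c => ρ c * (U c : ℝ) / Qn := ⟨_, rfl⟩
  have hwc : ∀ c, w c = ρ c * (U c : ℝ) / Qn := fun c => by rw [hwdef]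
  obtain ⟨t, ht⟩ : ∃ t : ℝ, t = 1 - 2 * (1 / (n : ℝ)) := ⟨_, rfl⟩
  have ht0 : 0 < t := by
    rw [ht, sub_pos, mul_one_div, div_lt_one hn0]; linarith
  have ht1 : t ≤ 1 := by
    have : 0 ≤ 2 * (1 / (n : ℝ)) := by positivity
    rw [ht]; linarith
  have hvm : ∀ c, |t⁻¹ * w c| ≤ m := by
    intro c
    rw [abs_mul, abs_of_pos (inv_pos.mpr ht0), inv_mul_le_iff₀ ht0, hwc]
    refine (hwb c).trans ?_
    have h1 : (1 : ℝ) / n ≤ 1 / 512 := one_div_le_one_div_of_le (by norm_num) hn512r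
    rw [ht]
    nlinarith
  -- the cubes
  have hε2 : 1 / (n : ℝ) < 1 / 2 := one_div_lt_one_div_of_lt (by norm_num) (by linarith)
  have hdε : 4 * d ≤ 1 / (n : ℝ) * r := by
    rw [one_div, ← div_eq_inv_mul, le_div_iff₀ hn0]
    linarith
  obtain ⟨Q, hQ1, hQ2⟩ := cube_count N m K hK hconv r d (1 / (n : ℝ)) hr hcube (by positivity) hε2 hd hdε w
  have hmarg' := hmarg (t⁻¹ • w) (fun j => by
    rw [Pi.smul_apply, smul_eq_mul]; exact hvm j)
  rw [← ht] at hQ2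
  have hphi := ye_phi m t n hn hm ht w hvm
  have hpow : (1 : ℝ) / 16 ≤ t ^ N := by
    rw [ht]; exact ye_pow n N hn512 (by omega)
  have hK0 : 0 ≤ (volume K).toReal := ENNReal.toReal_nonneg
  have hphi0 : 0 ≤ ∏ j, phi (w j) := by
    apply Finset.prod_nonneg
    intro j _
    unfold phi
    positivity
  have hXQ : T * p * (|(B.det : ℝ)| * ∏ c, g c (U c / Qn)) ≤ Q.card * 4 ^ N := by
    have h1 : c1 / 32 * (volume K).toReal * ∏ j, phi (w j) ≤ Q.card * (4 * d) ^ N := by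
      refine le_trans ?_ hQ2
      have h2 : c1 * (1 / 2 * ∏ j, phi (w j)) * (volume K).toReal ≤
          c1 * (∏ j, phi ((t⁻¹ • w) j)) * (volume K).toReal := by
        apply mul_le_mul_of_nonneg_right _ hK0
        apply mul_le_mul_of_nonneg_left _ hc1.le
        simpa only [Pi.smul_apply, smul_eq_mul] using hphi
      have h3 := h2.trans hmarg'
      have h4 : (1 : ℝ) / 16 * (c1 * (1 / 2 * ∏ j, phi (w j)) * (volume K).toReal) ≤ t ^ N *
          (volume {y : Fin N → ℝ | (Fin.append y (t⁻¹ • w) : Fin (N + m) → ℝ) ∈ K}).toReal := by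
        apply mul_le_mul hpow h3 (by positivity) (by positivity)
      refine le_trans (le_of_eq ?_) h4
      ring
    have h2 : T * (p * |(B.det : ℝ)| * (∏ c, ρ c) * d ^ N) * ∏ j, phi (w j) ≤ Q.card * (4 * d) ^ N :=
      (mul_le_mul_of_nonneg_right hTD hphi0).trans h1
    have h3 : ∏ c, g c (U c / Qn) ≤ (∏ c, ρ c) * ∏ j, phi (w j) := by
      rw [← Finset.prod_mul_distrib]
      apply Finset.prod_le_prod
      · intro c _; exact hg0 c _
      · intro c _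
        rw [hwc]; exact hgle c
    have h4 : T * p * (|(B.det : ℝ)| * ∏ c, g c (U c / Qn)) * d ^ N ≤ (Q.card * 4 ^ N) * d ^ N := by
      calc T * p * (|(B.det : ℝ)| * ∏ c, g c (U c / Qn)) * d ^ N
          ≤ T * p * (|(B.det : ℝ)| * ((∏ c, ρ c) * ∏ j, phi (w j))) * d ^ N := by
            apply mul_le_mul_of_nonneg_right _ (by positivity)
            apply mul_le_mul_of_nonneg_left _ (by positivity)
            apply mul_le_mul_of_nonneg_left h3 (abs_nonneg _)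
        _ = T * (p * |(B.det : ℝ)| * (∏ c, ρ c) * d ^ N) * ∏ j, phi (w j) := by ring
        _ ≤ Q.card * (4 * d) ^ N := h2
        _ = (Q.card * 4 ^ N) * d ^ N := by rw [mul_pow]; ring
    exact le_of_mul_le_mul_right h4 (by positivity)
  have hX0 : 0 ≤ T * p * (|(B.det : ℝ)| * ∏ c, g c (U c / Qn)) := by
    have : 0 ≤ ∏ c, g c (U c / Qn) := Finset.prod_nonneg fun c _ => hg0 c _
    positivity
  obtain ⟨Y, hY1, hY2, hY3, hY4⟩ := ye_cubes N Q _ hX0 hXQ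
  refine ⟨Y, ?_, hY2, hY3, hY4⟩
  intro y hy
  rw [← hwdef]
  exact hQ1 _ (hY1 y hy) y (fun i => rfl)

end Crest.Agent.CV
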