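import Crest.Agent.CV_Defs

/-! S0347 part C: choice of the numerical parameters, proof of `num1`. -/

set_option autoImplicit false
namespace Crest.Agent.CV

private theorem num1_poly (K : ℝ) : ∃ s0 : ℕ, ∀ s : ℕ, s0 ≤ s →
    2 * (K * (s : ℝ) ^ 16) ^ 5 ≤ 2 ^ s := by
  have h := (tendsto_pow_const_div_const_pow_of_one_lt 80 (one_lt_two : (1 : ℝ) < 2)).const_mul
    (2 * K ^ 5)
  rw [mul_zero] at h
  have h1 := (h.eventually (gt_mem_nhds (zero_lt_one : (0 : ℝ) < 1)))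
  obtain ⟨s0, hs0⟩ := Filter.eventually_atTop.mp h1
  refine ⟨s0, fun s hs => ?_⟩
  have h2 := hs0 s hs
  have h3 : (0 : ℝ) < 2 ^ s := by positivity
  rw [← mul_div_assoc, div_lt_one h3] at h2
  have : 2 * (K * (s : ℝ) ^ 16) ^ 5 = 2 * K ^ 5 * (s : ℝ) ^ 80 := by ring
  rw [this]
  exact h2.le

theorem num1' (C : ℕ) (A : ℝ) (hA : 0 < A) (k0 : ℕ) :
    ∃ n1 : ℕ, ∀ n : ℕ, n1 ≤ n → ∃ s : ℕ, k0 ≤ s ∧ ∀ m : ℕ, m ≤ C * s ^ 2 →
      (m : ℝ) ^ 8 ≤ Real.log n ∧ 8 * m ^ 3 ≤ n ∧ 2 * m ≤ n ∧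
      (2 : ℝ) ^ m ≤ (n : ℝ) ^ (1 / 100 : ℝ) ∧
      Real.exp (C * (s : ℝ) ^ 8) ≤ (n : ℝ) ^ (1 / 100 : ℝ) ∧
      (m : ℝ) ^ 2 ≤ (n : ℝ) ^ (1 / 100 : ℝ) ∧
      A * n * Real.log n * (1 / 2 : ℝ) ^ s * (Real.log ((n - m : ℕ) : ℝ)) ^ 3 ≤
        ((n - m : ℕ) : ℝ) := by
  set K : ℝ := 100 * ((C : ℝ) + 1) ^ 8 with hK
  obtain ⟨s0, hs0⟩ := num1_poly K
  set M : ℕ := max (max k0 s0) 1 with hM
  set R : ℝ := max (max ((2 : ℝ) ^ M) (2 * A)) 4 with hR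
  refine ⟨⌈Real.exp R⌉₊, fun n hn => ?_⟩
  have hnR : Real.exp R ≤ n := (Nat.le_ceil _).trans (by exact_mod_cast hn)
  have hn0 : (0 : ℝ) < n := (Real.exp_pos R).trans_le hnR
  set L : ℝ := Real.log n with hL
  have hRL : R ≤ L := by
    rw [hL, Real.le_log_iff_exp_le hn0]
    exact hnR
  have hL1 : (2 : ℝ) ^ M ≤ L := ((le_max_left _ _).trans (le_max_left _ _)).trans hRL
  have hL2 : 2 * A ≤ L := ((le_max_right _ _).trans (le_max_left _ _)).trans hRL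
  have hL4 : 4 ≤ L := (le_max_right _ _).trans hRL
  have hLn : L ≤ n := by
    have := Real.log_le_sub_one_of_pos hn0
    linarith
  have hL5 : 1 ≤ L ^ 5 := one_le_pow₀ (by linarith)
  have hLL5 : L ≤ L ^ 5 := le_self_pow₀ (by linarith) (by norm_num)
  obtain ⟨k, hk1, hk2⟩ := exists_nat_pow_near hL5 (one_lt_two : (1 : ℝ) < 2)
  have hMk : M ≤ k + 1 := by
    have h1 : (2 : ℝ) ^ M < 2 ^ (k + 1) := (hL1.trans hLL5).trans_lt hk2
    exact ((pow_lt_pow_iff_right₀ (one_lt_two : (1 : ℝ) < 2)).mp h1).le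
  have hs1 : (2 : ℝ) ^ (k + 1) ≤ 2 * L ^ 5 := by rw [pow_succ]; linarith
  refine ⟨k + 1, ?_, ?_⟩
  · exact ((le_max_left _ _).trans (le_max_left _ _)).trans hMk
  set s : ℕ := k + 1 with hs
  have hs0' : s0 ≤ s := ((le_max_right _ _).trans (le_max_left _ _)).trans hMk
  have hs1' : 1 ≤ s := by omega
  have hs1r : (1 : ℝ) ≤ s := by exact_mod_cast hs1'
  -- the key inequality
  have hkey : K * (s : ℝ) ^ 16 ≤ L := by
    have h1 := (hs0 s hs0').trans hs1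
    have h2 : (K * (s : ℝ) ^ 16) ^ 5 ≤ L ^ 5 := by linarith
    exact le_of_pow_le_pow_left₀ (by norm_num) (by linarith) h2
  have hC0 : (0 : ℝ) ≤ C := Nat.cast_nonneg C
  have hC1 : (1 : ℝ) ≤ (C : ℝ) + 1 := by linarith
  -- general bound
  have hgen : ∀ (i j : ℕ), i ≤ 8 → j ≤ 16 → 100 * ((C : ℝ) ^ i * (s : ℝ) ^ j) ≤ L := by
    intro i j hi hj
    have h1 : (C : ℝ) ^ i ≤ ((C : ℝ) + 1) ^ 8 :=
      (pow_le_pow_left₀ hC0 (by linarith) i).trans (pow_le_pow_right₀ hC1 hi)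
    have h2 : (s : ℝ) ^ j ≤ (s : ℝ) ^ 16 := pow_le_pow_right₀ hs1r hj
    have h3 : (C : ℝ) ^ i * (s : ℝ) ^ j ≤ ((C : ℝ) + 1) ^ 8 * (s : ℝ) ^ 16 :=
      mul_le_mul h1 h2 (by positivity) (by positivity)
    calc 100 * ((C : ℝ) ^ i * (s : ℝ) ^ j) ≤ 100 * (((C : ℝ) + 1) ^ 8 * (s : ℝ) ^ 16) := by
          linarith
      _ = K * (s : ℝ) ^ 16 := by rw [hK]; ring
      _ ≤ L := hkey
  intro m hm
  have hmr : (m : ℝ) ≤ C * (s : ℝ) ^ 2 := by exact_mod_cast hm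
  have hm0 : (0 : ℝ) ≤ m := Nat.cast_nonneg m
  have hrpow : (n : ℝ) ^ (1 / 100 : ℝ) = Real.exp (L / 100) := by
    rw [Real.rpow_def_of_pos hn0, ← hL]
    congr 1
    ring
  have hm8 : (m : ℝ) ^ 8 ≤ L := by
    have h1 : (m : ℝ) ^ 8 ≤ (C * (s : ℝ) ^ 2) ^ 8 := pow_le_pow_left₀ hm0 hmr 8
    have h2 := hgen 8 16 le_rfl le_rfl
    have h3 : (0 : ℝ) ≤ (C : ℝ) ^ 8 * (s : ℝ) ^ 16 := by positivity
    have h4 : (C * (s : ℝ) ^ 2) ^ 8 = (C : ℝ) ^ 8 * (s : ℝ) ^ 16 := by ring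
    linarith
  have hm3 : 100 * (m : ℝ) ^ 3 ≤ L := by
    have h1 : (m : ℝ) ^ 3 ≤ (C * (s : ℝ) ^ 2) ^ 3 := pow_le_pow_left₀ hm0 hmr 3
    have h2 := hgen 3 6 (by norm_num) (by norm_num)
    have h4 : (C * (s : ℝ) ^ 2) ^ 3 = (C : ℝ) ^ 3 * (s : ℝ) ^ 6 := by ring
    linarith
  have hm2 : 100 * (m : ℝ) ^ 2 ≤ L := by
    have h1 : (m : ℝ) ^ 2 ≤ (C * (s : ℝ) ^ 2) ^ 2 := pow_le_pow_left₀ hm0 hmr 2
    have h2 := hgen 2 4 (by norm_num) (by norm_num)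
    have h4 : (C * (s : ℝ) ^ 2) ^ 2 = (C : ℝ) ^ 2 * (s : ℝ) ^ 4 := by ring
    linarith
  have hm1 : 100 * (m : ℝ) ≤ L := by
    have h2 := hgen 1 2 (by norm_num) (by norm_num)
    have h4 : (C : ℝ) ^ 1 * (s : ℝ) ^ 2 = C * (s : ℝ) ^ 2 := by ring
    rw [h4] at h2
    linarith
  have hL0 : 0 < L := by linarith
  have h2mn : 2 * (m : ℝ) ≤ n := by
    linarith
  have h2mn' : 2 * m ≤ n := by exact_mod_cast h2mn
  have hmn : m ≤ n := by omega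
  have hcast : ((n - m : ℕ) : ℝ) = n - m := Nat.cast_sub hmn
  have hnm : (n : ℝ) / 2 ≤ n - m := by linarith
  -- the density
  have hdens : A * n * L * (1 / 2 : ℝ) ^ s ≤ A * n / L ^ 4 := by
    have h1 : (1 / 2 : ℝ) ^ s ≤ 1 / L ^ 5 := by
      rw [one_div, inv_pow, ← one_div]
      exact one_div_le_one_div_of_le (by positivity) hk2.le
    calc A * n * L * (1 / 2 : ℝ) ^ s ≤ A * n * L * (1 / L ^ 5) :=
          mul_le_mul_of_nonneg_left h1 (by positivity)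
      _ = A * n / L ^ 4 := by
          field_simp
  refine ⟨hm8, ?_, h2mn', ?_, ?_, ?_, ?_⟩
  · have : (8 : ℝ) * (m : ℝ) ^ 3 ≤ n := by
      have : (0 : ℝ) ≤ (m : ℝ) ^ 3 := by positivity
      linarith
    exact_mod_cast this
  · rw [hrpow]
    have h1 : (2 : ℝ) ≤ Real.exp 1 := by
      have := Real.add_one_le_exp (1 : ℝ)
      linarith
    calc (2 : ℝ) ^ m ≤ (Real.exp 1) ^ m := pow_le_pow_left₀ (by norm_num) h1 m
      _ = Real.exp m := by rw [← Real.exp_nat_mul, mul_one]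
      _ ≤ Real.exp (L / 100) := Real.exp_le_exp.mpr (by linarith)
  · rw [hrpow]
    apply Real.exp_le_exp.mpr
    have h2 := hgen 1 8 (by norm_num) (by norm_num)
    rw [pow_one] at h2
    linarith
  · rw [hrpow]
    have := Real.add_one_le_exp (L / 100)
    linarith
  · have hn4 : (4 : ℝ) ≤ n := by linarith
    have hpos : 0 < Real.log ((n - m : ℕ) : ℝ) := by
      apply Real.log_pos
      rw [hcast]
      linarith
    rw [← le_div_iff₀ (by positivity)]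
    refine hdens.trans ?_
    have hle : Real.log ((n - m : ℕ) : ℝ) ≤ L := by
      rw [hL]
      apply Real.log_le_log
      · rw [hcast]; linarith
      · rw [hcast]; linarith
    calc A * n / L ^ 4 ≤ (n / 2) / L ^ 3 := by
          rw [div_le_div_iff₀ (by positivity) (by positivity)]
          have h1 : 0 ≤ (n : ℝ) * L ^ 3 := by positivity
          have h2 := mul_le_mul_of_nonneg_left hL2 h1
          calc A * n * L ^ 3 = n * L ^ 3 * (2 * A) / 2 := by ring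
            _ ≤ n * L ^ 3 * L / 2 := by linarith
            _ = n / 2 * L ^ 4 := by ring
      _ ≤ ((n - m : ℕ) : ℝ) / L ^ 3 := by
          rw [hcast]
          exact div_le_div_of_nonneg_right hnm (by positivity)
      _ ≤ ((n - m : ℕ) : ℝ) / (Real.log ((n - m : ℕ) : ℝ)) ^ 3 := by
          apply div_le_div_of_nonneg_left (Nat.cast_nonneg _) (by positivity)
          exact pow_le_pow_left₀ hpos.le hle 3

end Crest.Agent.CV
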