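import Crest.Agent.CV_Defs
import Crest.Agent.CVC_Num1

/-! S0347 part C: choice of the numerical parameters. -/

set_option autoImplicit false
namespace Crest.Agent.CV

/-- TASK CVC-N1.  For `n` large choose `s` with `(log n)^5 ≤ 2^s ≤ 2 (log n)^5`
(`s = ⌈5 log₂ log n⌉`); then every `m ≤ C s²` satisfies `m ≤ (log log n)^3`, hence all the
inequalities below (all are "for `n` large", `m` is tiny: `2^m ≤ n^(1/100)`,
`exp (C s^8) ≤ n^(1/100)`).  `A` is the density constant. -/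
theorem num1 (C : ℕ) (A : ℝ) (hA : 0 < A) (k0 : ℕ) :
    ∃ n1 : ℕ, ∀ n : ℕ, n1 ≤ n → ∃ s : ℕ, k0 ≤ s ∧ ∀ m : ℕ, m ≤ C * s ^ 2 →
      (m : ℝ) ^ 8 ≤ Real.log n ∧ 8 * m ^ 3 ≤ n ∧ 2 * m ≤ n ∧
      (2 : ℝ) ^ m ≤ (n : ℝ) ^ (1 / 100 : ℝ) ∧
      Real.exp (C * (s : ℝ) ^ 8) ≤ (n : ℝ) ^ (1 / 100 : ℝ) ∧
      (m : ℝ) ^ 2 ≤ (n : ℝ) ^ (1 / 100 : ℝ) ∧
      A * n * Real.log n * (1 / 2 : ℝ) ^ s * (Real.log ((n - m : ℕ) : ℝ)) ^ 3 ≤
        ((n - m : ℕ) : ℝ) :=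
  num1' C A hA k0

private theorem n2_basic (n m : ℕ) (hm : 1 ≤ m) (h2 : (2 : ℝ) ^ m ≤ (n : ℝ) ^ (1 / 100 : ℝ)) :
    ∃ q : ℝ, q = (n : ℝ) ^ (1 / 100 : ℝ) ∧ 2 ≤ q ∧ q ^ 100 = n := by
  refine ⟨(n : ℝ) ^ (1 / 100 : ℝ), rfl, ?_, ?_⟩
  · calc (2 : ℝ) = 2 ^ 1 := by norm_num
      _ ≤ 2 ^ m := pow_le_pow_right₀ (by norm_num) hm
      _ ≤ _ := h2
  · rw [← Real.rpow_natCast, ← Real.rpow_mul (Nat.cast_nonneg n)]
    norm_num

private theorem n2_big (n : ℕ) (q : ℝ) (hq2 : 2 ≤ q) (hq : q ^ 100 = n) :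
    2 ^ 98 * q ^ 2 ≤ (n : ℝ) ∧ q ≤ n := by
  have h1 : (2 : ℝ) ^ 98 ≤ q ^ 98 := pow_le_pow_left₀ (by norm_num) hq2 98
  constructor
  · rw [← hq]
    calc (2 : ℝ) ^ 98 * q ^ 2 ≤ q ^ 98 * q ^ 2 := mul_le_mul_of_nonneg_right h1 (by positivity)
      _ = q ^ 100 := by ring
  · rw [← hq]
    exact le_self_pow₀ (by linarith) (by norm_num)

/-- TASK CVC-N2.  The final choice.  `N = n - m`, `n ≥ n1`, `d = n^(-9)`, `Qn = n^9`.
`W = |det B| ∏ ρ` (given with `c0 / 2^m ≤ W ≤ exp (C s^8) ≤ n^(1/100)`), `V = vol K` with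
`(2/n^3)^n ≤ V ≤ (2 n^3)^n`.  `P0 = V/(A n log n · d^N · W)`; `n^(5n) ≤ P0 ≤ n^(14 n)`; take a
prime `p` with `P0/2 ≤ p ≤ P0` (Bertrand `Nat.exists_prime_lt_and_le_two_mul`).
Then `log p ≤ 14 n log n`; `T = c1/32 · A n log n`; with `A = 32*(20)/(c0 c1)`:
`T c0 = 20 n log n`.  `Kf = 4 (Qn D)^m 2^m` with `D = |det B| ≤ n^(1/100)`:
`log Kf ≤ m * 20 log n`, and `2^(m+1) * (log Kf + 1) ≤ n^(1/2)`. -/
theorem num2 (c0 c1 : ℝ) (hc0 : 0 < c0) (hc1 : 0 < c1) :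
    ∃ n1 : ℕ, ∀ n m : ℕ, n1 ≤ n → 1 ≤ m → 2 * m ≤ n → (2 : ℝ) ^ m ≤ (n : ℝ) ^ (1 / 100 : ℝ) →
      (m : ℝ) ^ 2 ≤ (n : ℝ) ^ (1 / 100 : ℝ) →
      ∀ (V W D : ℝ), (2 / (n : ℝ) ^ 3) ^ n ≤ V → V ≤ (2 * (n : ℝ) ^ 3) ^ n →
        c0 / 2 ^ m ≤ W → W ≤ (n : ℝ) ^ (1 / 100 : ℝ) → 1 ≤ D → D ≤ (n : ℝ) ^ (1 / 100 : ℝ) →
        ∃ (p : ℕ) (Kf : ℝ), p.Prime ∧ 3 ≤ p ∧ 2 ^ (n - m) ≤ p ∧ (4 : ℝ) ^ (n - m) * 2 ^ m ≤ p ∧
          2 * ((((n : ℝ) ^ 9) * D) ^ m * 2 ^ m) + 1 ≤ Kf ∧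
          (640 / (c0 * c1)) * n * Real.log n * (p * W * (((n : ℝ) ^ 9)⁻¹) ^ (n - m)) ≤ V ∧
          V ≤ 2 * (640 / (c0 * c1)) * n * Real.log n * (p * W * (((n : ℝ) ^ 9)⁻¹) ^ (n - m)) ∧
          Kf ^ (2 ^ m) * (3 * Kf) ^ (2 ^ m) * Real.exp (1 - 20 * n * Real.log n) * p < 1 := by
  set A : ℝ := 640 / (c0 * c1) with hA
  have hApos : 0 < A := by positivity
  refine ⟨⌈c1⌉₊ + ⌈2048 * A⌉₊ + 3, ?_⟩
  intro n m hn hm hmn h2m hm2 V W D hV1 hV2 hW1 hW2 hD1 hD2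
  obtain ⟨q, hq, hq2, hq100⟩ := n2_basic n m hm h2m
  rw [← hq] at h2m hm2 hW2 hD2
  obtain ⟨hbig, hqn⟩ := n2_big n q hq2 hq100
  have hnR : (4 : ℝ) ≤ n := by nlinarith [sq_nonneg q]
  have hn4 : 4 ≤ n := by exact_mod_cast hnR
  have hn0 : (0 : ℝ) < n := by linarith
  have hn1 : (1 : ℝ) ≤ n := by linarith
  have hc1n : c1 ≤ n := by
    have h1 : (⌈c1⌉₊ : ℝ) ≤ n := by exact_mod_cast (by omega : ⌈c1⌉₊ ≤ n)
    exact (Nat.le_ceil c1).trans h1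
  have hAn : 2048 * A ≤ n := by
    have h1 : (⌈2048 * A⌉₊ : ℝ) ≤ n := by exact_mod_cast (by omega : ⌈2048 * A⌉₊ ≤ n)
    exact (Nat.le_ceil _).trans h1
  have hL1 : 1 ≤ Real.log n := by
    rw [Real.le_log_iff_exp_le hn0]
    have := Real.exp_one_lt_d9
    linarith
  have hLn : Real.log n ≤ n := by
    have := Real.log_le_sub_one_of_pos hn0
    linarith
  have hL0 : 0 < Real.log n := by linarith
  have hW0 : 0 < W := lt_of_lt_of_le (by positivity) hW1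
  set N := n - m with hN
  have h9N : 4 * n ≤ 9 * N := by omega
  set e : ℝ := (((n : ℝ) ^ 9)⁻¹) ^ N with he
  have he0 : 0 < e := by positivity
  have heq : e = ((n : ℝ) ^ (9 * N))⁻¹ := by rw [he, inv_pow, ← pow_mul]
  set E : ℝ := A * n * Real.log n * (W * e) with hE
  have hE0 : 0 < E := by positivity
  have hV0 : 0 < V := lt_of_lt_of_le (by positivity) hV1
  have key8 : (8 : ℝ) ^ n * (2 * A * (n : ℝ) ^ 3) ≤ (2 * (n : ℝ)) ^ n := by
    have h1 : (2 * (n : ℝ)) ^ n = 8 ^ n * ((n : ℝ) / 4) ^ n := by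
      rw [← mul_pow]; congr 1; ring
    rw [h1]
    refine mul_le_mul_of_nonneg_left ?_ (by positivity)
    have h2 : ((n : ℝ) / 4) ^ 5 ≤ ((n : ℝ) / 4) ^ n := by
      refine pow_le_pow_right₀ ?_ ?_
      · rw [le_div_iff₀ (by norm_num)]; linarith
      · have : (5 : ℝ) ≤ n := by nlinarith [sq_nonneg q]
        exact_mod_cast this
    refine le_trans ?_ h2
    have h3 : ((n : ℝ) / 4) ^ 5 = (n : ℝ) ^ 3 * ((n : ℝ) ^ 2 / 1024) := by ring
    rw [h3, mul_comm (2 * A)]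
    refine mul_le_mul_of_nonneg_left ?_ (by positivity)
    rw [le_div_iff₀ (by norm_num)]
    nlinarith
  -- lower bound for `V / E`
  have hlow : 2 * 8 ^ n ≤ V / E := by
    rw [le_div_iff₀ hE0]
    refine le_trans ?_ hV1
    have h1 : E ≤ A * n * n * (n * e) := by
      rw [hE]
      have : W * e ≤ n * e := mul_le_mul_of_nonneg_right (hW2.trans hqn) he0.le
      have h3 : A * n * Real.log n ≤ A * n * n :=
        mul_le_mul_of_nonneg_left hLn (by positivity)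
      exact mul_le_mul h3 this (by positivity) (by positivity)
    have h4 : e ≤ ((n : ℝ) ^ (4 * n))⁻¹ := by
      rw [heq]
      exact inv_anti₀ (by positivity) (pow_le_pow_right₀ hn1 h9N)
    have h5 : 2 * 8 ^ n * E ≤ (8 ^ n * (2 * A * (n : ℝ) ^ 3)) * ((n : ℝ) ^ (4 * n))⁻¹ := by
      calc 2 * 8 ^ n * E ≤ 2 * 8 ^ n * (A * n * n * (n * e)) :=
            mul_le_mul_of_nonneg_left h1 (by positivity)
        _ = (8 ^ n * (2 * A * (n : ℝ) ^ 3)) * e := by ring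
        _ ≤ _ := mul_le_mul_of_nonneg_left h4 (by positivity)
    refine h5.trans ?_
    calc (8 ^ n * (2 * A * (n : ℝ) ^ 3)) * ((n : ℝ) ^ (4 * n))⁻¹ ≤
          (2 * (n : ℝ)) ^ n * ((n : ℝ) ^ (4 * n))⁻¹ :=
            mul_le_mul_of_nonneg_right key8 (by positivity)
      _ = (2 / (n : ℝ) ^ 3) ^ n := by
          rw [pow_mul, ← inv_pow, ← mul_pow]
          congr 1
          field_simp
  -- upper bound
  have hup : V / E ≤ (n : ℝ) ^ (14 * n) := by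
    rw [div_le_iff₀ hE0]
    refine hV2.trans ?_
    have h1 : 640 / c1 * ((2 : ℝ) ^ m)⁻¹ * ((n : ℝ) ^ (9 * n))⁻¹ ≤ E := by
      have h2 : ((n : ℝ) ^ (9 * n))⁻¹ ≤ e := by
        rw [heq]
        exact inv_anti₀ (by positivity) (pow_le_pow_right₀ hn1 (by omega))
      have h3 : A * 1 * 1 * ((c0 / 2 ^ m) * ((n : ℝ) ^ (9 * n))⁻¹) ≤ E := by
        rw [hE]
        refine mul_le_mul ?_ (mul_le_mul hW1 h2 (by positivity) hW0.le) (by positivity)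
          (by positivity)
        refine mul_le_mul ?_ hL1 (by norm_num) (by positivity)
        exact mul_le_mul_of_nonneg_left hn1 hApos.le
      refine le_trans (le_of_eq ?_) h3
      rw [hA]
      field_simp
    have h4 : (2 * (n : ℝ) ^ 3) ^ n ≤
        (n : ℝ) ^ (14 * n) * (640 / c1 * ((2 : ℝ) ^ m)⁻¹ * ((n : ℝ) ^ (9 * n))⁻¹) := by
      have h5 : (2 : ℝ) ^ n * 2 ^ m * c1 ≤ (n : ℝ) ^ (2 * n) := by
        have a1 : (2 : ℝ) ^ n ≤ (n : ℝ) ^ n := pow_le_pow_left₀ (by norm_num) (by linarith) n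
        have a2 : (2 : ℝ) ^ m * c1 ≤ (n : ℝ) ^ n := by
          calc (2 : ℝ) ^ m * c1 ≤ n * n :=
                mul_le_mul (h2m.trans hqn) hc1n hc1.le (by positivity)
            _ = (n : ℝ) ^ 2 := by ring
            _ ≤ (n : ℝ) ^ n := pow_le_pow_right₀ hn1 (by omega)
        calc (2 : ℝ) ^ n * 2 ^ m * c1 = 2 ^ n * (2 ^ m * c1) := by ring
          _ ≤ (n : ℝ) ^ n * (n : ℝ) ^ n := mul_le_mul a1 a2 (by positivity) (by positivity)
          _ = (n : ℝ) ^ (2 * n) := by rw [← pow_add]; congr 1; ring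
      have h6 : (n : ℝ) ^ (14 * n) = (n : ℝ) ^ (2 * n) * ((n : ℝ) ^ (3 * n) * (n : ℝ) ^ (9 * n)) := by
        rw [← pow_add, ← pow_add]; congr 1; ring
      rw [h6, mul_pow, ← pow_mul]
      have h7 : (n : ℝ) ^ (2 * n) * ((n : ℝ) ^ (3 * n) * (n : ℝ) ^ (9 * n)) *
          (640 / c1 * ((2 : ℝ) ^ m)⁻¹ * ((n : ℝ) ^ (9 * n))⁻¹) =
          (n : ℝ) ^ (3 * n) * ((n : ℝ) ^ (2 * n) * (640 / (c1 * 2 ^ m))) := by
        field_simp
      rw [h7, mul_comm]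
      refine mul_le_mul_of_nonneg_left ?_ (by positivity)
      rw [mul_div_assoc', le_div_iff₀ (by positivity)]
      nlinarith [h5, (by positivity : (0 : ℝ) ≤ (n : ℝ) ^ (2 * n))]
    exact h4.trans (mul_le_mul_of_nonneg_left h1 (by positivity))
  -- the prime
  have hk8 : 8 ^ n ≤ ⌊V / E / 2⌋₊ := by
    refine Nat.le_floor ?_
    rw [le_div_iff₀ (by norm_num)]
    push_cast
    linarith
  have hk0 : ⌊V / E / 2⌋₊ ≠ 0 := by
    have : 0 < 8 ^ n := by positivity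
    omega
  obtain ⟨p, hp, hkp, hp2k⟩ := Nat.exists_prime_lt_and_le_two_mul _ hk0
  have hp1 : (p : ℝ) ≤ V / E := by
    have h1 : (p : ℝ) ≤ 2 * (⌊V / E / 2⌋₊ : ℝ) := by exact_mod_cast hp2k
    have h2 : (⌊V / E / 2⌋₊ : ℝ) ≤ V / E / 2 := Nat.floor_le (by positivity)
    linarith
  have hp3 : V / E ≤ 2 * p := by
    have h1 : V / E / 2 < (⌊V / E / 2⌋₊ : ℝ) + 1 := Nat.lt_floor_add_one _
    have h2 : ((⌊V / E / 2⌋₊ : ℝ) + 1) ≤ p := by exact_mod_cast hkp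
    linarith
  refine ⟨p, 2 * ((((n : ℝ) ^ 9) * D) ^ m * 2 ^ m) + 1, hp, ?_, ?_, ?_, le_refl _, ?_, ?_, ?_⟩
  · have : 8 ^ 1 ≤ 8 ^ n := Nat.pow_le_pow_right (by norm_num) (by omega)
    omega
  · have : 2 ^ N ≤ 8 ^ n :=
      (Nat.pow_le_pow_left (by norm_num) N).trans (Nat.pow_le_pow_right (by norm_num) (by omega))
    omega
  · have h1 : (4 : ℝ) ^ N * 2 ^ m ≤ 8 ^ n := by
      calc (4 : ℝ) ^ N * 2 ^ m ≤ 4 ^ n * 2 ^ n :=
            mul_le_mul (pow_le_pow_right₀ (by norm_num) (by omega))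
              (pow_le_pow_right₀ (by norm_num) (by omega)) (by positivity) (by positivity)
        _ = 8 ^ n := by rw [← mul_pow]; norm_num
    have h2 : ((8 ^ n : ℕ) : ℝ) ≤ p := by exact_mod_cast hk8.trans hkp.le
    push_cast at h2
    exact h1.trans h2
  · have h1 : A * n * Real.log n * (p * W * e) = p * E := by rw [hE]; ring
    rw [h1]
    exact (le_div_iff₀ hE0).1 hp1
  · have h1 : 2 * A * n * Real.log n * (p * W * e) = 2 * p * E := by rw [hE]; ring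
    rw [h1]
    exact (div_le_iff₀ hE0).1 hp3
  · set Kf : ℝ := 2 * ((((n : ℝ) ^ 9) * D) ^ m * 2 ^ m) + 1 with hKf
    have hDn : D ≤ n := hD2.trans hqn
    have hKf0 : 0 < Kf := by positivity
    have hKf1 : Kf ≤ (n : ℝ) ^ (12 * m) := by
      have h1 : (1 : ℝ) ≤ (((n : ℝ) ^ 9) * D) ^ m * 2 ^ m := by
        have a1 : (1 : ℝ) ≤ (((n : ℝ) ^ 9) * D) ^ m :=
          one_le_pow₀ (one_le_mul_of_one_le_of_one_le (one_le_pow₀ hn1) hD1)
        exact one_le_mul_of_one_le_of_one_le a1 (one_le_pow₀ (by norm_num))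
      have h2 : Kf ≤ 3 * ((((n : ℝ) ^ 9) * D) ^ m * 2 ^ m) := by rw [hKf]; linarith
      refine h2.trans ?_
      have h3 : (3 : ℝ) ≤ 3 ^ m := by
        calc (3 : ℝ) = 3 ^ 1 := by norm_num
          _ ≤ 3 ^ m := pow_le_pow_right₀ (by norm_num) hm
      calc 3 * ((((n : ℝ) ^ 9) * D) ^ m * 2 ^ m) ≤ 3 ^ m * ((((n : ℝ) ^ 9) * D) ^ m * 2 ^ m) :=
            mul_le_mul_of_nonneg_right h3 (by positivity)
        _ = (6 * (((n : ℝ) ^ 9) * D)) ^ m := by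
            rw [← mul_pow, ← mul_pow]; congr 1; ring
        _ ≤ ((n : ℝ) ^ 12) ^ m := by
            refine pow_le_pow_left₀ (by positivity) ?_ m
            calc 6 * (((n : ℝ) ^ 9) * D) ≤ (n : ℝ) ^ 2 * (((n : ℝ) ^ 9) * n) := by
                  refine mul_le_mul ?_ (mul_le_mul_of_nonneg_left hDn (by positivity))
                    (by positivity) (by positivity)
                  nlinarith
              _ = (n : ℝ) ^ 12 := by ring
        _ = (n : ℝ) ^ (12 * m) := by rw [← pow_mul]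
    have h2Kf : 3 * Kf ≤ (n : ℝ) ^ (13 * m) := by
      have h1 : (n : ℝ) ^ (13 * m) = (n : ℝ) ^ m * (n : ℝ) ^ (12 * m) := by
        rw [← pow_add]; congr 1; ring
      rw [h1]
      refine mul_le_mul ?_ hKf1 hKf0.le (by positivity)
      calc (3 : ℝ) ≤ (n : ℝ) ^ 1 := by linarith
        _ ≤ (n : ℝ) ^ m := pow_le_pow_right₀ hn1 hm
    have hexp : Real.exp (1 - 20 * n * Real.log n) ≤ n * ((n : ℝ) ^ (20 * n))⁻¹ := by
      have h1 : 1 - 20 * n * Real.log n = 1 + (-(((20 * n : ℕ) : ℝ) * Real.log n)) := by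
        push_cast; ring
      rw [h1, Real.exp_add, Real.exp_neg, Real.exp_nat_mul, Real.exp_log hn0]
      refine mul_le_mul_of_nonneg_right ?_ (by positivity)
      have := Real.exp_one_lt_d9
      linarith
    have hexpo : 25 * m * 2 ^ m + 1 < 6 * n := by
      have a1 : (m : ℝ) ≤ q := by
        have : (m : ℝ) ≤ (m : ℝ) ^ 2 := by
          have : (1 : ℝ) ≤ m := by exact_mod_cast hm
          nlinarith
        exact this.trans hm2
      have a2 : (m : ℝ) * 2 ^ m ≤ q * q := mul_le_mul a1 h2m (by positivity) (by linarith)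
      have a3 : (25 * m * 2 ^ m + 1 : ℝ) < 6 * n := by nlinarith
      exact_mod_cast a3
    calc Kf ^ (2 ^ m) * (3 * Kf) ^ (2 ^ m) * Real.exp (1 - 20 * n * Real.log n) * p ≤
          ((n : ℝ) ^ (12 * m)) ^ (2 ^ m) * ((n : ℝ) ^ (13 * m)) ^ (2 ^ m) *
            (n * ((n : ℝ) ^ (20 * n))⁻¹) * (n : ℝ) ^ (14 * n) := by
          refine mul_le_mul (mul_le_mul (mul_le_mul ?_ ?_ (by positivity) (by positivity)) hexp
            (by positivity) (by positivity)) (hp1.trans hup) (by positivity) (by positivity)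
          · exact pow_le_pow_left₀ hKf0.le hKf1 _
          · exact pow_le_pow_left₀ (by positivity) h2Kf _
      _ = (n : ℝ) ^ (25 * m * 2 ^ m + 1) * ((n : ℝ) ^ (6 * n))⁻¹ := by
          have b1 : (n : ℝ) ^ (20 * n) = (n : ℝ) ^ (6 * n) * (n : ℝ) ^ (14 * n) := by
            rw [← pow_add]; congr 1; ring
          have b2 : (n : ℝ) ^ (25 * m * 2 ^ m + 1) =
              ((n : ℝ) ^ (12 * m)) ^ (2 ^ m) * ((n : ℝ) ^ (13 * m)) ^ (2 ^ m) * n := by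
            rw [← pow_mul, ← pow_mul, ← pow_add, ← pow_succ]; congr 1; ring
          rw [b1, b2]
          field_simp
      _ < 1 := by
          rw [← div_eq_mul_inv, div_lt_one (by positivity)]
          exact pow_lt_pow_right₀ (by linarith) hexpo

end Crest.Agent.CV
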