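import Crest.Agent.CVC_Core
import Crest.Agent.CVC_Num

/-! S0347 part C: final assembly (helper5). -/

set_option autoImplicit false
namespace Crest.Agent.CV
open MeasureTheory Finset

theorem phi_le_one (w : ℝ) : phi w ≤ 1 := by
  unfold phi
  have h1 : (1 : ℝ) ≤ Real.sqrt (2 * Real.pi) := by
    rw [Real.one_le_sqrt]
    linarith [Real.pi_gt_three]
  have h2 : (Real.sqrt (2 * Real.pi))⁻¹ ≤ 1 := inv_le_one_of_one_le₀ h1
  have h3 : Real.exp (-(w ^ 2) / 2) ≤ 1 := by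
    apply Real.exp_le_one_iff.mpr
    have : 0 ≤ w ^ 2 := sq_nonneg w
    linarith
  have h4 : 0 ≤ (Real.sqrt (2 * Real.pi))⁻¹ := by positivity
  have h5 : 0 ≤ Real.exp (-(w ^ 2) / 2) := (Real.exp_pos _).le
  nlinarith

theorem mass_le {m : ℕ} (B : Matrix (Fin m) (Fin m) ℤ) (g : Fin m → ℤ → ℝ) (ρ : Fin m → ℝ)
    (hρ : ∀ c, 0 < ρ c ∧ ρ c ≤ 1) (hg0 : ∀ c t, 0 ≤ g c t)
    (hg : ∀ c (t : ℤ) (w : ℝ), |w - ρ c * t| ≤ ρ c → g c t ≤ ρ c * phi w) (u a : Fin m → ℤ) :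
    mass B g u a ≤ |(B.det : ℝ)| * ∏ c, ρ c := by
  unfold mass
  refine mul_le_mul_of_nonneg_left ?_ (abs_nonneg _)
  refine Finset.prod_le_prod (fun c _ => hg0 c _) (fun c _ => ?_)
  refine (hg c _ (ρ c * ((u c - B.mulVec a c : ℤ) : ℝ)) (by simp [(hρ c).1.le])).trans ?_
  have := phi_le_one (ρ c * ((u c - B.mulVec a c : ℤ) : ℝ))
  nlinarith [(hρ c).1]

theorem cube_vol (n : ℕ) (r : ℝ) (hr : 0 ≤ r) :
    (volume {x : Fin n → ℝ | ∀ i, |x i| ≤ r}).toReal = (2 * r) ^ n := by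
  have : {x : Fin n → ℝ | ∀ i, |x i| ≤ r} = Set.Icc (fun _ => -r) (fun _ => r) := by
    ext x
    simp only [Set.mem_setOf_eq, abs_le, Set.mem_Icc, Pi.le_def]
    exact forall_and
  rw [this, Real.volume_Icc_pi_toReal (by intro i; simp only; linarith)]
  simp
  ring

set_option maxHeartbeats 1000000 in
theorem large_n (hG : GP) (hA : GaussMarg) (hB : BaseLemma) :
    ∃ C : ℝ, 0 < C ∧ ∃ n1 : ℕ, ∀ n : ℕ, n1 ≤ n → ∀ K : Set (Fin n → ℝ),
      IsCompact K → Convex ℝ K → (interior K).Nonempty →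
        ∃ g : Matrix (Fin n) (Fin n) ℝ, g.det ≠ 0 ∧
          (∀ x : Fin n → ℝ, ∃ z : Fin n → ℤ, x - g.mulVec (fun i => (z i : ℝ)) ∈ K) ∧
          (volume K).toReal / |g.det| ≤ C * n * Real.log n := by
  classical
  obtain ⟨c0, hc0, C, hGP⟩ := hG
  obtain ⟨c1, hc1, nA, hTr⟩ := transfer hA
  obtain ⟨nB, hBL⟩ := hB
  obtain ⟨k1, hnum1⟩ := num1 C (20 / c0) (by positivity) 4
  obtain ⟨k2, hnum2⟩ := num2 c0 c1 hc0 hc1
  refine ⟨2 * (640 / (c0 * c1)), by positivity, max (max (max k1 k2) nA) (max (2 * nB) 128), ?_⟩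
  intro n hn
  have hnk1 : k1 ≤ n := by omega
  have hnk2 : k2 ≤ n := by omega
  have hnA : nA ≤ n := by omega
  have hnB : 2 * nB ≤ n := by omega
  have hn128 : 128 ≤ n := by omega
  obtain ⟨s, hs4, hs⟩ := hnum1 n hnk1
  obtain ⟨m, ρ, g, B, hsm, hmC, hρ, hg0, hg, hgs, hBdet, hBdet2, htree⟩ := hGP s (by omega)
  obtain ⟨hm8, h8m, h2m, h2pow, hexp, hm2, hTs⟩ := hs m hmC
  obtain ⟨N, rfl⟩ : ∃ N, n = N + m := ⟨n - m, by omega⟩
  have hNm : N + m - m = N := by omega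
  rw [hNm] at hTs
  intro K hK hconv hint
  obtain ⟨A, x0, K', hAdet, hK', hconv', hAK, hvol, hcube, hbox, hmarg⟩ :=
    hTr N m hnA (by omega) hm8 K hK hconv hint
  have hnR : (128 : ℝ) ≤ ((N + m : ℕ) : ℝ) := by exact_mod_cast hn128
  have hnpos : (0 : ℝ) < ((N + m : ℕ) : ℝ) := by linarith
  -- volume bounds
  have hfin' : volume K' ≠ ⊤ := hK'.measure_lt_top.ne
  have hV1 : (2 / ((N + m : ℕ) : ℝ) ^ 3) ^ (N + m) ≤ (volume K').toReal := by
    have h1 := cube_vol (N + m) ((((N + m : ℕ) : ℝ) ^ 3)⁻¹) (by positivity)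
    rw [div_eq_mul_inv, ← h1]
    exact ENNReal.toReal_mono hfin' (measure_mono (fun x hx => hcube x hx))
  have hV2 : (volume K').toReal ≤ (2 * ((N + m : ℕ) : ℝ) ^ 3) ^ (N + m) := by
    have h1 := cube_vol (N + m) (((N + m : ℕ) : ℝ) ^ 3) (by positivity)
    rw [← h1]
    refine ENNReal.toReal_mono ?_ (measure_mono (fun x hx => hbox x hx))
    intro htop
    rw [htop] at h1
    simp only [ENNReal.toReal_top] at h1
    have : (0 : ℝ) < (2 * ((N + m : ℕ) : ℝ) ^ 3) ^ (N + m) := by positivity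
    linarith
  have hVpos : 0 < (volume K').toReal := lt_of_lt_of_le (by positivity) hV1
  -- W
  have hD1 : (1 : ℝ) ≤ |(B.det : ℝ)| := by
    have : (1 : ℤ) ≤ |B.det| := Int.one_le_abs hBdet
    exact_mod_cast this
  have hprodρ : ∏ c, ρ c ≤ 1 := Finset.prod_le_one (fun c _ => (hρ c).1.le) (fun c _ => (hρ c).2)
  have hprodρ0 : 0 < ∏ c, ρ c := Finset.prod_pos (fun c _ => (hρ c).1)
  have hD2 : |(B.det : ℝ)| ≤ ((N + m : ℕ) : ℝ) ^ (1 / 100 : ℝ) := hBdet2.trans hexp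
  have hW2 : |(B.det : ℝ)| * ∏ c, ρ c ≤ ((N + m : ℕ) : ℝ) ^ (1 / 100 : ℝ) := by
    refine le_trans ?_ hD2
    nlinarith
  have hW1 : c0 / 2 ^ m ≤ |(B.det : ℝ)| * ∏ c, ρ c := by
    obtain ⟨T, -, hT2, -, hT4⟩ := htree 0
    have h1 : (T.rows.map (mass B g 0)).sum ≤ T.rows.length * (|(B.det : ℝ)| * ∏ c, ρ c) := by
      have := List.sum_le_card_nsmul (T.rows.map (mass B g 0)) (|(B.det : ℝ)| * ∏ c, ρ c) (by
        intro x hx
        rw [List.mem_map] at hx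
        obtain ⟨a, -, rfl⟩ := hx
        exact mass_le B g ρ hρ hg0 hg 0 a)
      simpa using this
    have h2 : (T.rows.length : ℝ) ≤ 2 ^ m := by exact_mod_cast hT2
    rw [div_le_iff₀ (by positivity)]
    have h3 : 0 < |(B.det : ℝ)| * ∏ c, ρ c := by positivity
    nlinarith
  obtain ⟨p, Kf, hpp, hp3, hp2N, hp4, hKf, hVp1, hVp2, hfin⟩ :=
    hnum2 (N + m) m hnk2 (by omega) h2m h2pow hm2 (volume K').toReal
      (|(B.det : ℝ)| * ∏ c, ρ c) (|(B.det : ℝ)|) hV1 hV2 hW1 hW2 hD1 hD2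
  rw [hNm] at hp2N hp4 hVp1 hVp2
  have : Fact p.Prime := ⟨hpp⟩
  have hpR : (0 : ℝ) < p := by exact_mod_cast hpp.pos
  have hlog : 0 < Real.log ((N + m : ℕ) : ℝ) := Real.log_pos (by linarith)
  obtain ⟨T, hT⟩ : ∃ T : ℝ, T = 20 / c0 * ((N + m : ℕ) : ℝ) * Real.log ((N + m : ℕ) : ℝ) :=
    ⟨_, rfl⟩
  have hTpos : 0 < T := by rw [hT]; positivity
  have hTc0 : T * c0 = 20 * ((N + m : ℕ) : ℝ) * Real.log ((N + m : ℕ) : ℝ) := by
    rw [hT]; field_simp
  have hTD : T * (p * |(B.det : ℝ)| * (∏ c, ρ c) * ((((N + m : ℕ) : ℝ) ^ 9)⁻¹) ^ N) ≤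
      c1 / 32 * (volume K').toReal := by
    have h1 := mul_le_mul_of_nonneg_left hVp1 (by positivity : (0 : ℝ) ≤ c1 / 32)
    refine le_trans (le_of_eq ?_) h1
    rw [hT]; field_simp; ring
  obtain ⟨g', hg'det, hg'cov⟩ := core N m s ((N + m) ^ 9) p K' hK' hconv'
    ((((N + m : ℕ) : ℝ) ^ 9)⁻¹) c0 c1 T Kf hcube hbox hmarg ρ g B hρ hg0 hg hgs hBdet htree
    (by
      intro X hX1 hX2 hX3
      have h1 := hBL N (by omega) p hp2N X hX1 hX2 hX3
      refine le_trans (le_of_eq ?_) h1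
      rw [← Nat.cast_sum]
      congr 1
      have h2 : ∀ h : Fin N → ZMod p, (missed h X).card =
          ((Finset.univ : Finset (ZMod p)).filter
            (fun α => ∀ x ∈ X, ∑ i, h i * ((x i : ℤ) : ZMod p) ≠ α)).card := by
        intro h
        unfold missed
        congr
      rw [Finset.sum_congr rfl (fun h _ => h2 h)]
      simp_rw [Finset.card_filter]
      rw [← Finset.univ_product_univ, Finset.sum_product]
      refine Finset.sum_congr rfl fun h _ => Finset.sum_congr rfl fun α _ => ?_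
      congr)
    hc0 hc1 hTpos (by positivity) (by positivity) (by omega) h8m (by omega) hp3
    (by
      have h1 : (1 : ℝ) ≤ ((N + m : ℕ) : ℝ) := by linarith
      rw [show 4 * (((N + m : ℕ) : ℝ) ^ 9)⁻¹ * ((N + m : ℕ) : ℝ) =
        (((N + m : ℕ) : ℝ) ^ 3)⁻¹ * (4 * (((N + m : ℕ) : ℝ) ^ 5)⁻¹) by
          field_simp]
      have h2 : (4 : ℝ) * (((N + m : ℕ) : ℝ) ^ 5)⁻¹ ≤ 1 := by
        rw [← div_eq_mul_inv, div_le_one (by positivity)]
        calc (4 : ℝ) ≤ 128 ^ 5 := by norm_num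
          _ ≤ ((N + m : ℕ) : ℝ) ^ 5 := by gcongr
      have h3 : (0 : ℝ) < (((N + m : ℕ) : ℝ) ^ 3)⁻¹ := by positivity
      nlinarith)
    (by
      rw [show (((N + m) ^ 9 : ℕ) : ℝ) = ((N + m : ℕ) : ℝ) ^ 9 by push_cast; ring]
      rw [inv_mul_cancel₀ (by positivity)])
    (by
      rw [div_inv_eq_mul, ← pow_add]
      have h1 : ((N + m : ℕ) : ℝ) ≤ 2 * N := by
        have : N + m ≤ 2 * N := by omega
        exact_mod_cast this
      have h2 : (64 : ℝ) ≤ N := by linarith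
      calc ((N + m : ℕ) : ℝ) ^ (3 + 9) ≤ (2 * N : ℝ) ^ 12 := by gcongr
        _ = 4096 * (N : ℝ) ^ 12 := by ring
        _ ≤ (N : ℝ) ^ 2 * (N : ℝ) ^ 12 := by
          have : (4096 : ℝ) ≤ (N : ℝ) ^ 2 := by nlinarith
          gcongr
        _ = (N : ℝ) ^ 14 := by ring)
    hTD
    (by rw [hT]; exact hTs)
    (by
      rw [show (((N + m) ^ 9 : ℕ) : ℝ) = ((N + m : ℕ) : ℝ) ^ 9 by push_cast; ring]
      exact hKf)
    hp4
    (by rw [hTc0]; exact hfin)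
  have hg'pos : 0 < |g'.det| := by
    rw [hg'det]; positivity
  refine ⟨A * g', ?_, ?_, ?_⟩
  · rw [Matrix.det_mul]
    exact mul_ne_zero hAdet (abs_pos.mp hg'pos)
  · intro x
    obtain ⟨z, hz⟩ := hg'cov (A⁻¹.mulVec (x - x0))
    refine ⟨z, ?_⟩
    have h1 := hAK _ hz
    have hAu : IsUnit A.det := isUnit_iff_ne_zero.mpr hAdet
    rw [Matrix.mulVec_sub, Matrix.mulVec_mulVec, Matrix.mul_nonsing_inv _ hAu,
      Matrix.one_mulVec, Matrix.mulVec_mulVec] at h1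
    convert h1 using 1
    abel
  · rw [Matrix.det_mul, abs_mul, hvol, mul_div_mul_left _ _ (abs_pos.mpr hAdet).ne', hg'det]
    rw [div_le_iff₀ (by positivity)]
    refine hVp2.trans (le_of_eq ?_)
    ring

/-- The statement of S0347 from the three black boxes. -/
theorem lattice_covering (hG : GP) (hA : GaussMarg) (hB : BaseLemma) :
    ∃ C : ℝ, ∀ (n : ℕ), 2 ≤ n → ∀ (K : Set (Fin n → ℝ)),
      IsCompact K → Convex ℝ K → (interior K).Nonempty →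
        ∃ g : Matrix (Fin n) (Fin n) ℝ, g.det ≠ 0 ∧
          (∀ x : Fin n → ℝ, ∃ z : Fin n → ℤ, x - g.mulVec (fun i => (z i : ℝ)) ∈ K) ∧
          (volume K).toReal / |g.det| ≤ C * n * Real.log n := by
  obtain ⟨C, hC, n1, hlarge⟩ := large_n hG hA hB
  refine ⟨max C ((2 * n1 : ℝ) ^ n1), ?_⟩
  intro n hn K hK hconv hint
  have hnR : (2 : ℝ) ≤ n := by exact_mod_cast hn
  have hlog2 : Real.log 2 ≤ Real.log n := Real.log_le_log (by norm_num) hnR
  have hlog2' := Real.log_two_gt_d9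
  have hnlog : 1 ≤ (n : ℝ) * Real.log n := by nlinarith
  by_cases h : n1 ≤ n
  · obtain ⟨g, h1, h2, h3⟩ := hlarge n h K hK hconv hint
    refine ⟨g, h1, h2, h3.trans ?_⟩
    rw [mul_assoc, mul_assoc]
    exact mul_le_mul_of_nonneg_right (le_max_left _ _) (by linarith)
  · obtain ⟨g, h1, h2, h3⟩ := small_cover n (by omega) K hK hconv hint
    refine ⟨g, h1, h2, h3.trans ?_⟩
    push Not at h
    have hn1R : (n : ℝ) ≤ n1 := by exact_mod_cast h.le
    calc (2 * n : ℝ) ^ n ≤ (2 * n1 : ℝ) ^ n := by gcongr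
      _ ≤ (2 * n1 : ℝ) ^ n1 := pow_le_pow_right₀ (by linarith) h.le
      _ ≤ max C ((2 * n1 : ℝ) ^ n1) := le_max_right _ _
      _ = max C ((2 * n1 : ℝ) ^ n1) * 1 := by ring
      _ ≤ max C ((2 * n1 : ℝ) ^ n1) * (n * Real.log n) :=
          mul_le_mul_of_nonneg_left hnlog (le_trans hC.le (le_max_left _ _))
      _ = _ := by ring

end Crest.Agent.CV
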