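import Crest.Agent.CV_Defs

/-! S0347 part C: a basis of the lattice `⟨c, x⟩ ≡ 0 mod p`, and the trivial covering for small
dimensions. -/

set_option autoImplicit false
namespace Crest.Agent.CV
open MeasureTheory

/-- TASK CVC-LB.  Choose `i0` with `c i0 ≠ 0`; `M` = identity with the row `i0` replaced:
`M i0 i0 = p`, `M i0 j = - k j` (`j ≠ i0`), `k j ∈ ℤ` a lift of `(c i0)⁻¹ * c j`, `M i j = 1_{ij}`
otherwise.  `det M = p` (`Matrix.det_updateRow...` or expand along the row: only the diagonal
contributes because the other rows are unit vectors; e.g. `M = updateRow 1 i0 r`,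
`det (updateRow 1 i0 r) = r i0`: `Matrix.det_one`, `Matrix.det_updateRow_eq...` or
`Matrix.cramer`). Given `x` with `∑ c i x i = 0`, put `z j = x j` (`j ≠ i0`) and
`z i0 = (x i0 + ∑_{j≠i0} k j x j)/p`. -/
theorem lat_basis {ι : Type} [Fintype ι] [DecidableEq ι] (p : ℕ) [Fact p.Prime]
    (c : ι → ZMod p) (hc : c ≠ 0) :
    ∃ M : Matrix ι ι ℤ, |M.det| = p ∧
      ∀ x : ι → ℤ, (∑ i, c i * ((x i : ℤ) : ZMod p) = 0) → ∃ z : ι → ℤ, M.mulVec z = x := by
  obtain ⟨i0, hi0⟩ : ∃ i0, c i0 ≠ 0 := by
    by_contra h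
    push Not at h
    exact hc (funext h)
  obtain ⟨k, hk⟩ : ∃ k : ι → ℤ, ∀ j, ((k j : ℤ) : ZMod p) = (c i0)⁻¹ * c j := by
    refine ⟨fun j => (((c i0)⁻¹ * c j).val : ℤ), fun j => ?_⟩
    simp
  refine ⟨Matrix.updateRow 1 i0 (fun j => if j = i0 then (p : ℤ) else - k j), ?_, ?_⟩
  · have h : (Matrix.updateRow (1 : Matrix ι ι ℤ) i0 (fun j => if j = i0 then (p : ℤ) else - k j)).det = p := by
      rw [← Matrix.cramer_transpose_apply, Matrix.transpose_one, Matrix.cramer_one]
      simp
    rw [h]
    simp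
  · intro x hx
    have hdvd : (p : ℤ) ∣ x i0 + ∑ j ∈ Finset.univ.erase i0, k j * x j := by
      rw [← ZMod.intCast_zmod_eq_zero_iff_dvd]
      push_cast
      have h1 : ∑ j ∈ Finset.univ.erase i0, ((k j : ℤ) : ZMod p) * ((x j : ℤ) : ZMod p) =
          (c i0)⁻¹ * ∑ j ∈ Finset.univ.erase i0, c j * ((x j : ℤ) : ZMod p) := by
        rw [Finset.mul_sum]
        refine Finset.sum_congr rfl fun j _ => ?_
        rw [hk, mul_assoc]
      have h2 : ((x i0 : ℤ) : ZMod p) = (c i0)⁻¹ * (c i0 * ((x i0 : ℤ) : ZMod p)) := by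
        rw [← mul_assoc, inv_mul_cancel₀ hi0, one_mul]
      rw [h1, h2, ← mul_add, Finset.add_sum_erase _ (fun j => c j * ((x j : ℤ) : ZMod p)) (Finset.mem_univ i0),
        hx, mul_zero]
    obtain ⟨w, hw⟩ := hdvd
    refine ⟨Function.update x i0 w, ?_⟩
    ext i
    by_cases hi : i = i0
    · subst hi
      rw [Matrix.mulVec, Matrix.updateRow_self, dotProduct, ← Finset.add_sum_erase _ _ (Finset.mem_univ i)]
      have h3 : ∑ j ∈ Finset.univ.erase i, (if j = i then (p : ℤ) else - k j) * Function.update x i w j =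
          - ∑ j ∈ Finset.univ.erase i, k j * x j := by
        rw [← Finset.sum_neg_distrib]
        refine Finset.sum_congr rfl fun j hj => ?_
        have hj' : j ≠ i := (Finset.mem_erase.mp hj).1
        rw [if_neg hj', Function.update_of_ne hj']
        ring
      rw [h3]
      simp only [if_true, Function.update_self]
      linarith
    · rw [Matrix.mulVec, Matrix.updateRow_ne hi]
      simp [dotProduct, Matrix.one_apply, Function.update_of_ne hi]

/-- rows `X i - x0` -/
noncomputable def smM {n : ℕ} (x0 : Fin n → ℝ) (X : Fin n → Fin n → ℝ) : Matrix (Fin n) (Fin n) ℝ :=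
  Matrix.of fun i j => X i j - x0 j

theorem smM_row {n : ℕ} (x0 : Fin n → ℝ) (X : Fin n → Fin n → ℝ) (i : Fin n) :
    smM x0 X i = X i - x0 := rfl

theorem smM_update {n : ℕ} (x0 : Fin n → ℝ) (X : Fin n → Fin n → ℝ) (i : Fin n) (x : Fin n → ℝ) :
    smM x0 (Function.update X i x) = (smM x0 X).updateRow i (x - x0) := by
  ext a b
  by_cases h : a = i
  · subst h
    rw [Matrix.updateRow_self]
    simp [smM]
  · rw [Matrix.updateRow_ne h]
    simp [smM, Function.update_of_ne h]

theorem sm_max {n : ℕ} (K : Set (Fin n → ℝ)) (hK : IsCompact K) (hint : (interior K).Nonempty) :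
    ∃ x0 ∈ K, ∃ X : Fin n → Fin n → ℝ, (∀ i, X i ∈ K) ∧ 0 < |(smM x0 X).det| ∧
      ∀ y0 ∈ K, ∀ Y : Fin n → Fin n → ℝ, (∀ i, Y i ∈ K) → |(smM y0 Y).det| ≤ |(smM x0 X).det| := by
  let S : Set ((Fin n → ℝ) × (Fin n → Fin n → ℝ)) := K ×ˢ (Set.univ.pi fun _ => K)
  have hS : IsCompact S := hK.prod (isCompact_univ_pi fun _ => hK)
  have hcont : Continuous fun q : (Fin n → ℝ) × (Fin n → Fin n → ℝ) => |(smM q.1 q.2).det| := by
    apply Continuous.abs
    apply Continuous.matrix_det
    refine continuous_matrix fun i j => ?_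
    exact ((continuous_apply j).comp ((continuous_apply i).comp continuous_snd)).sub
      ((continuous_apply j).comp continuous_fst)
  obtain ⟨x, hx⟩ := hint
  obtain ⟨ε, hε, hb⟩ := Metric.isOpen_iff.1 isOpen_interior x hx
  have hmem : ∀ i : Fin n, x + Pi.single i (ε / 2) ∈ K := by
    intro i
    apply interior_subset
    apply hb
    rw [Metric.mem_ball, dist_eq_norm, add_sub_cancel_left]
    rw [pi_norm_lt_iff hε]
    intro j
    by_cases h : j = i
    · subst h
      rw [Pi.single_eq_same, Real.norm_eq_abs, abs_of_pos (by linarith)]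
      linarith
    · rw [Pi.single_eq_of_ne h, norm_zero]
      exact hε
  have hxK := interior_subset hx
  obtain ⟨q, hq, hmax⟩ := hS.exists_isMaxOn ⟨(x, fun i => x + Pi.single i (ε / 2)),
    Set.mk_mem_prod hxK (fun i _ => hmem i)⟩ hcont.continuousOn
  have hmax' : ∀ q' ∈ S, |(smM q'.1 q'.2).det| ≤ |(smM q.1 q.2).det| := fun q' hq' => hmax hq'
  refine ⟨q.1, hq.1, q.2, fun i => hq.2 i (Set.mem_univ i), ?_, ?_⟩
  · refine lt_of_lt_of_le ?_ (hmax' (x, fun i => x + Pi.single i (ε / 2))
      (Set.mk_mem_prod hxK (fun i _ => hmem i)))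
    have : smM x (fun i => x + Pi.single i (ε / 2)) = Matrix.diagonal fun _ => ε / 2 := by
      ext a b
      simp only [smM, Matrix.of_apply, Pi.add_apply, add_sub_cancel_left, Matrix.diagonal_apply,
        Pi.single_apply]
      by_cases h : a = b
      · subst h; simp
      · rw [if_neg h, if_neg (fun e => h e.symm)]
    simp only
    rw [this, Matrix.det_diagonal]
    simp only [Finset.prod_const, abs_pow]
    positivity
  · intro y0 hy0 Y hY
    exact hmax' (y0, Y) (Set.mk_mem_prod hy0 fun i _ => hY i)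

/-- TASK CVC-SM.  Trivial lattice covering in a fixed dimension.
Choose `x_0, …, x_n ∈ K` maximising `|det (x_i - x_0)|` (compactness of `K^(n+1)`, continuity);
the maximum is positive since `K` has interior points (it contains `x, x + ε e_i`).
By maximality (Cramer: replace `x_i` by `x ∈ K`) every `x ∈ K` is `x_0 + ∑ t_i (x_i - x_0)` with
`|t_i| ≤ 1`, so `vol K ≤ 2^n |det|`.  By convexity `K` contains `x_0 + ∑ t_i (x_i - x_0)` for
`t_i ≥ 0, ∑ t_i ≤ 1`, in particular for `0 ≤ t_i ≤ 1/n`.  Let `g` be the matrix with columns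
`(x_i - x_0)/n`: every `x` is `x_0 + g y`, `z = ⌊y⌋`, `x - g z = x_0 + g {y} ∈ K`.
`|det g| = |det|/n^n`. -/
theorem small_cover (n : ℕ) (hn : 1 ≤ n) (K : Set (Fin n → ℝ)) (hK : IsCompact K)
    (hconv : Convex ℝ K) (hint : (interior K).Nonempty) :
    ∃ g : Matrix (Fin n) (Fin n) ℝ, g.det ≠ 0 ∧
      (∀ x : Fin n → ℝ, ∃ z : Fin n → ℤ, x - g.mulVec (fun i => (z i : ℝ)) ∈ K) ∧
      (volume K).toReal / |g.det| ≤ (2 * n : ℝ) ^ n := by
  obtain ⟨x0, hx0, X, hX, hpos, hmax⟩ := sm_max K hK hint
  set A := smM x0 X with hA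
  have hn0 : (0 : ℝ) < n := by exact_mod_cast hn
  have hdet : A.det ≠ 0 := abs_pos.1 hpos
  have hunit : IsUnit A.det := isUnit_iff_ne_zero.2 hdet
  -- representation of points of K
  have hrep : ∀ x ∈ K, ∃ t : Fin n → ℝ, (∀ i, |t i| ≤ 1) ∧ x = x0 + Matrix.vecMul t A := by
    intro x hx
    refine ⟨Matrix.vecMul (x - x0) A⁻¹, ?_, ?_⟩
    · intro i
      set t := Matrix.vecMul (x - x0) A⁻¹ with ht
      have h1 : Matrix.vecMul t A = x - x0 := by
        rw [ht, Matrix.vecMul_vecMul, Matrix.nonsing_inv_mul _ hunit, Matrix.vecMul_one]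
      have h2 : (A.updateRow i (x - x0)).det = t i * A.det := by
        rw [← h1, Matrix.vecMul_eq_sum, Matrix.det_updateRow_sum, smul_eq_mul]
      have h3 := hmax x0 hx0 (Function.update X i x) (by
        intro j
        by_cases h : j = i
        · subst h; rw [Function.update_self]; exact hx
        · rw [Function.update_of_ne h]; exact hX j)
      rw [smM_update, ← hA, h2, abs_mul] at h3
      have h4 : |t i| * |A.det| ≤ 1 * |A.det| := by rw [one_mul]; exact h3
      exact le_of_mul_le_mul_right h4 hpos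
    · rw [Matrix.vecMul_vecMul, Matrix.nonsing_inv_mul _ hunit, Matrix.vecMul_one,
        add_sub_cancel]
  -- volume bound
  have hvol : (volume K).toReal ≤ 2 ^ n * |A.det| := by
    have hsub : K ⊆ (fun y => x0 + y) '' ((Matrix.toLin' A.transpose) ''
        (Set.Icc (fun _ => (-1 : ℝ)) (fun _ => (1 : ℝ)))) := by
      intro x hx
      obtain ⟨t, ht, hxt⟩ := hrep x hx
      refine ⟨Matrix.vecMul t A, ⟨t, ⟨fun i => (abs_le.1 (ht i)).1, fun i => (abs_le.1 (ht i)).2⟩, ?_⟩,
        hxt.symm⟩
      rw [Matrix.toLin'_apply, Matrix.mulVec_transpose]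
    have h1 : volume K ≤ ENNReal.ofReal |A.det| * 2 ^ n := by
      refine (measure_mono hsub).trans ?_
      rw [Set.image_add_left, measure_preimage_add, Measure.addHaar_image_linearMap,
        LinearMap.det_toLin', Matrix.det_transpose, Real.volume_Icc_pi]
      apply le_of_eq
      congr 1
      rw [Finset.prod_const, Finset.card_univ, Fintype.card_fin]
      norm_num
    have h2 := ENNReal.toReal_mono (by finiteness) h1
    rw [ENNReal.toReal_mul, ENNReal.toReal_ofReal (abs_nonneg _)] at h2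
    simp only [ENNReal.toReal_pow, ENNReal.toReal_ofNat] at h2
    linarith
  -- the lattice
  let g : Matrix (Fin n) (Fin n) ℝ := (1 / (n : ℝ)) • A.transpose
  have hgdet : g.det = (1 / (n : ℝ)) ^ n * A.det := by
    change ((1 / (n : ℝ)) • A.transpose).det = _
    rw [Matrix.det_smul, Matrix.det_transpose, Fintype.card_fin]
  have hgne : g.det ≠ 0 := by
    rw [hgdet]
    exact mul_ne_zero (pow_ne_zero _ (by positivity)) hdet
  refine ⟨g, hgne, ?_, ?_⟩
  · intro x
    let y := g⁻¹.mulVec (x - x0)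
    have hy : g.mulVec y = x - x0 := by
      change g.mulVec (g⁻¹.mulVec (x - x0)) = _
      rw [Matrix.mulVec_mulVec, Matrix.mul_nonsing_inv _ (isUnit_iff_ne_zero.2 hgne),
        Matrix.one_mulVec]
    refine ⟨fun i => ⌊y i⌋, ?_⟩
    have h1 : x - g.mulVec (fun i => ((⌊y i⌋ : ℤ) : ℝ)) =
        x0 + g.mulVec (fun i => Int.fract (y i)) := by
      have h2 : (fun i => Int.fract (y i)) = y - fun i => ((⌊y i⌋ : ℤ) : ℝ) := by
        funext i
        exact (Int.self_sub_floor (y i)).symm
      rw [h2, Matrix.mulVec_sub, hy]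
      abel
    rw [h1]
    -- convex combination
    let w : Option (Fin n) → ℝ := fun o => o.elim (1 - ∑ i, Int.fract (y i) / n)
      (fun i => Int.fract (y i) / n)
    let Z : Option (Fin n) → (Fin n → ℝ) := fun o => o.elim x0 X
    have hsum : ∑ i, Int.fract (y i) / n ≤ 1 := by
      calc ∑ i, Int.fract (y i) / (n : ℝ) ≤ ∑ _i : Fin n, 1 / (n : ℝ) := by
            refine Finset.sum_le_sum fun i _ => ?_
            exact div_le_div_of_nonneg_right (Int.fract_lt_one _).le hn0.le
        _ = 1 := by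
            rw [Finset.sum_const, Finset.card_univ, Fintype.card_fin, nsmul_eq_mul]
            field_simp
    have h3 := hconv.sum_mem (t := Finset.univ) (w := w) (z := Z) (by
        intro o _
        cases o with
        | none => exact sub_nonneg.2 hsum
        | some i => exact div_nonneg (Int.fract_nonneg _) hn0.le) (by
        rw [Fintype.sum_option]
        simp [w]) (by
        intro o _
        cases o with
        | none => exact hx0
        | some i => exact hX i)
    rw [Fintype.sum_option] at h3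
    have h4 : x0 + g.mulVec (fun i => Int.fract (y i)) =
        w none • Z none + ∑ i, w (some i) • Z (some i) := by
      change x0 + ((1 / (n : ℝ)) • A.transpose).mulVec (fun i => Int.fract (y i)) =
        (1 - ∑ i, Int.fract (y i) / n) • x0 + ∑ i, (Int.fract (y i) / n) • X i
      rw [Matrix.smul_mulVec, Matrix.mulVec_transpose, Matrix.vecMul_eq_sum]
      have h5 : ∀ i, A i = X i - x0 := fun i => rfl
      simp only [h5, smul_sub, Finset.sum_sub_distrib, ← Finset.sum_smul, sub_smul, one_smul,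
        Finset.smul_sum, smul_smul]
      have h6 : ∀ i, 1 / (n : ℝ) * Int.fract (y i) = Int.fract (y i) / n := fun i => by ring
      simp only [Finset.mul_sum, h6]
      abel
    rw [h4]
    exact h3
  · rw [hgdet, abs_mul, abs_pow, abs_of_pos (by positivity : (0 : ℝ) < 1 / n)]
    rw [div_le_iff₀ (by positivity)]
    calc (volume K).toReal ≤ 2 ^ n * |A.det| := hvol
      _ = (2 * (n : ℝ)) ^ n * ((1 / (n : ℝ)) ^ n * |A.det|) := by
        rw [mul_pow, one_div, inv_pow]
        field_simp

end Crest.Agent.CV
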