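import Crest.Agent.CVC_Tree
import Crest.Agent.CVC_Lat
import Crest.Agent.CVC_Cube

/-! S0347 part C: good `h`, covering of the grid, the lattice. -/

set_option autoImplicit false
namespace Crest.Agent.CV
open MeasureTheory Finset

/-- The values `α` missed by the grid points of `Y` (random vector `h`). -/
noncomputable def missed {N p : ℕ} [Fact p.Prime] (h : Fin N → ZMod p)
    (Y : Finset (Fin N → ℤ)) : Finset (ZMod p) := by
  classical
  exact Finset.univ.filter (fun α => ∀ x ∈ Y, ∑ i, h i * ((x i : ℤ) : ZMod p) ≠ α)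

/-- TASK CVC-GH.  A good `h ≠ 0` for finitely many sets `Y u`, `u ∈ F`: Markov.
`hB` is the base lemma for each `Y u`: `∑_h |missed h (Y u)| ≤ p^(N+1) * (2 e_u)`.
The number of `h` with `|missed| > Kf * 2 e_u * p` is `≤ p^N/Kf` for each `u`; total
`≤ |F| p^N/Kf ≤ p^N/2 < p^N - 1` and `h = 0` is one more. -/
theorem good_h {N p : ℕ} [Fact p.Prime] (hN : 2 ≤ N) (hp : 3 ≤ p) {σ : Type} (F : Finset σ)
    (Y : σ → Finset (Fin N → ℤ)) (e : σ → ℝ) (he : ∀ u, 0 < e u)
    (hB : ∀ u ∈ F, (∑ h : Fin N → ZMod p, ((missed h (Y u)).card : ℝ)) ≤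
      (p : ℝ) ^ (N + 1) * (2 * e u))
    (Kf : ℝ) (hK : 2 * (F.card : ℝ) + 1 ≤ Kf) :
    ∃ h : Fin N → ZMod p, h ≠ 0 ∧ ∀ u ∈ F, ((missed h (Y u)).card : ℝ) / p ≤ Kf * (2 * e u) := by
  classical
  by_contra hcon
  push Not at hcon
  have hp0 : (0 : ℝ) < p := by
    have : (3 : ℝ) ≤ p := by exact_mod_cast hp
    linarith
  have hF0 : (0 : ℝ) ≤ F.card := Nat.cast_nonneg _
  have hK0 : 0 < Kf := by linarith
  have hKe : ∀ u, 0 < Kf * (2 * e u) := fun u => mul_pos hK0 (by have := he u; linarith)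
  have hone : ∀ h : Fin N → ZMod p, h ≠ 0 →
      (1 : ℝ) ≤ ∑ u ∈ F, ((missed h (Y u)).card : ℝ) / p / (Kf * (2 * e u)) := by
    intro h h0
    obtain ⟨u, hu, hlt⟩ := hcon h h0
    have h1 : (1 : ℝ) ≤ ((missed h (Y u)).card : ℝ) / p / (Kf * (2 * e u)) := by
      rw [le_div_iff₀ (hKe u), one_mul]
      exact hlt.le
    refine h1.trans (Finset.single_le_sum
      (f := fun u => ((missed h (Y u)).card : ℝ) / p / (Kf * (2 * e u))) ?_ hu)
    intro v _
    have := hKe v
    positivity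
  have hsum1 : ((p : ℝ) ^ N - 1) ≤ ∑ h ∈ (Finset.univ.erase (0 : Fin N → ZMod p)),
      ∑ u ∈ F, ((missed h (Y u)).card : ℝ) / p / (Kf * (2 * e u)) := by
    have h2 : ∑ h ∈ (Finset.univ.erase (0 : Fin N → ZMod p)), (1 : ℝ) = (p : ℝ) ^ N - 1 := by
      rw [Finset.sum_const, Finset.card_erase_of_mem (Finset.mem_univ _), Finset.card_univ]
      simp only [Fintype.card_pi, ZMod.card, Finset.prod_const, Finset.card_univ, Fintype.card_fin,
        nsmul_eq_mul, mul_one]
      rw [Nat.cast_sub (Nat.one_le_pow _ _ (by omega))]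
      push_cast
      ring
    rw [← h2]
    exact Finset.sum_le_sum fun h hh => hone h (Finset.ne_of_mem_erase hh)
  have hsum2 : ∑ h ∈ (Finset.univ.erase (0 : Fin N → ZMod p)),
      ∑ u ∈ F, ((missed h (Y u)).card : ℝ) / p / (Kf * (2 * e u)) ≤
      ∑ h : Fin N → ZMod p,
      ∑ u ∈ F, ((missed h (Y u)).card : ℝ) / p / (Kf * (2 * e u)) := by
    refine Finset.sum_le_sum_of_subset_of_nonneg (Finset.erase_subset _ _) ?_
    intro h _ _
    refine Finset.sum_nonneg fun v _ => ?_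
    have := hKe v
    positivity
  have hsum3 : ∑ h : Fin N → ZMod p,
      ∑ u ∈ F, ((missed h (Y u)).card : ℝ) / p / (Kf * (2 * e u)) ≤
      (F.card : ℝ) * ((p : ℝ) ^ N / Kf) := by
    rw [Finset.sum_comm, ← nsmul_eq_mul]
    refine Finset.sum_le_card_nsmul F _ _ fun u hu => ?_
    rw [← Finset.sum_div, ← Finset.sum_div, div_le_iff₀ (hKe u), div_le_iff₀ hp0]
    refine (hB u hu).trans (le_of_eq ?_)
    field_simp
    ring
  have hlt : (F.card : ℝ) * ((p : ℝ) ^ N / Kf) ≤ (p : ℝ) ^ N / 2 := by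
    rw [mul_div_assoc', div_le_div_iff₀ hK0 (by norm_num)]
    have hpN : (0 : ℝ) ≤ (p : ℝ) ^ N := by positivity
    nlinarith
  have hbig : (9 : ℝ) ≤ (p : ℝ) ^ N := by
    have h3 : 9 ≤ p ^ N := by
      calc 9 = 3 ^ 2 := by norm_num
        _ ≤ p ^ 2 := Nat.pow_le_pow_left hp 2
        _ ≤ p ^ N := Nat.pow_le_pow_right (by omega) hN
    exact_mod_cast h3
  linarith

/-- TASK CVC-CD.  From the grid to all of `ℝ^(N+m)`.
Given `x`, put `y0 i = ⌊x i / d⌋` (`i < N`), `U c = ⌊x_(N+c) * Qn / ρ c⌋`; the grid point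
`x~ = append (d y0) (ρ U / Qn)` satisfies `0 ≤ x - x~ ≤ δ` coordinatewise (`δ ≥ d`,
`δ ≥ ρ c / Qn`).  Reduce `U` modulo `Qn * B ℤ^m` to the box `[0, Qn |det B|)^m`:
`U0 = U - Qn |det B| q'` with `q' c = U c / (Qn |det B|)`, and
`|det B| q' = B v`, `v = ± adj(B) q'`; so `U = U0 + Qn (B v)`.  Choose `y1` with
`∑ h i y1 i = - ∑ τ c v c` in `ZMod p` (`h ≠ 0`).  Apply `hcov` to `U0` and
`α = ∑ h i (y0 i - y1 i)`: get `a, y` with `y ∈ Y (U0 - Qn B a)`, `∑ h y = α + ∑ τ a`.
Then `y' = y0 - y`, `a' = a + v` satisfy `∑ h y' + ∑ τ a' = 0`: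
`∑ h (y0 - y) = ∑ h y0 - ∑ h (y0 - y1) - ∑ τ a = ∑ h y1 - ∑ τ a = -∑ τ v - ∑ τ a`, and
`x~ - append (d y') (ρ B a') = append (d y) (ρ (U0 - Qn B a)/Qn) ∈ (1 - 1/n) K`.
Finally `x - x~ ∈ (1/n) K` because `n δ ≤ r` and `hcube`; convexity. -/
theorem cover_det (N m : ℕ) (hNm : 2 ≤ N + m) (K : Set (Fin (N + m) → ℝ)) (hconv : Convex ℝ K)
    (r d δ : ℝ)
    (hcube : ∀ x : Fin (N + m) → ℝ, (∀ i, |x i| ≤ r) → x ∈ K)
    (hd : 0 < d) (hdδ : d ≤ δ) (hδ : δ * ((N + m : ℕ) : ℝ) ≤ r)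
    (ρ : Fin m → ℝ) (B : Matrix (Fin m) (Fin m) ℤ) (hB : B.det ≠ 0)
    (hρ : ∀ c, 0 < ρ c) (Qn p : ℕ) [Fact p.Prime] (hQ : 0 < Qn) (hρδ : ∀ c, ρ c / Qn ≤ δ)
    (Y : (Fin m → ℤ) → Finset (Fin N → ℤ))
    (hY : ∀ U, ∀ y ∈ Y U, (1 - 1 / ((N + m : ℕ) : ℝ))⁻¹ •
        (Fin.append (fun i => d * (y i : ℝ)) (fun c => ρ c * (U c : ℝ) / Qn) :
          Fin (N + m) → ℝ) ∈ K)
    (h : Fin N → ZMod p) (hh : h ≠ 0) (τ : Fin m → ZMod p)
    (hcov : ∀ U : Fin m → ℤ, (∀ c, 0 ≤ U c ∧ U c < Qn * |B.det|) → ∀ α : ZMod p,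
      ∃ a : Fin m → ℤ, ∃ y ∈ Y (fun c => U c - Qn * B.mulVec a c),
        ∑ i, h i * ((y i : ℤ) : ZMod p) = α + ∑ c, τ c * ((a c : ℤ) : ZMod p))
    (x : Fin (N + m) → ℝ) :
    ∃ (y : Fin N → ℤ) (a : Fin m → ℤ),
      (∑ i, h i * ((y i : ℤ) : ZMod p) + ∑ c, τ c * ((a c : ℤ) : ZMod p) = 0) ∧
      x - Fin.append (fun i => d * (y i : ℝ)) (fun c => ρ c * ((B.mulVec a c : ℤ) : ℝ)) ∈ K := by
  classical
  have hQ' : (0 : ℝ) < Qn := by exact_mod_cast hQ
  set n : ℝ := ((N + m : ℕ) : ℝ) with hn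
  have hn2 : (2 : ℝ) ≤ n := by rw [hn]; exact_mod_cast hNm
  have hn0 : 0 < n := by linarith
  -- the grid point below `x`
  set y0 : Fin N → ℤ := fun i => ⌊x (Fin.castAdd m i) / d⌋ with hy0
  set Ux : Fin m → ℤ := fun c => ⌊x (Fin.natAdd N c) * Qn / ρ c⌋ with hUx
  have hD : 0 < (Qn : ℤ) * |B.det| := mul_pos (by exact_mod_cast hQ) (abs_pos.2 hB)
  set D : ℤ := (Qn : ℤ) * |B.det| with hDdef
  set q' : Fin m → ℤ := fun c => Ux c / D with hq'
  set U0 : Fin m → ℤ := fun c => Ux c % D with hU0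
  set v : Fin m → ℤ := fun c => B.det.sign * (B.adjugate.mulVec q') c with hv
  have hBv : ∀ c, B.mulVec v c = |B.det| * q' c := by
    intro c
    have h1 : v = B.det.sign • (B.adjugate.mulVec q') := by
      funext c; simp [hv]
    rw [h1, Matrix.mulVec_smul, Matrix.mulVec_mulVec, Matrix.mul_adjugate, Matrix.smul_mulVec,
      Matrix.one_mulVec, Pi.smul_apply, Pi.smul_apply, smul_eq_mul, smul_eq_mul, ← mul_assoc,
      Int.sign_mul_self_eq_abs]
  have hUx2 : ∀ c, Ux c = U0 c + Qn * B.mulVec v c := by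
    intro c
    rw [hBv, ← mul_assoc, ← hDdef]
    exact (Int.emod_add_mul_ediv (Ux c) D).symm
  -- the correction `y1`
  obtain ⟨i0, hi0⟩ : ∃ i, h i ≠ 0 := by
    by_contra hcon
    push Not at hcon
    exact hh (funext hcon)
  obtain ⟨z, hz⟩ := ZMod.intCast_surjective (-(∑ c, τ c * ((v c : ℤ) : ZMod p)) / h i0)
  set y1 : Fin N → ℤ := Pi.single i0 z with hy1
  have hy1s : ∑ i, h i * ((y1 i : ℤ) : ZMod p) = -(∑ c, τ c * ((v c : ℤ) : ZMod p)) := by
    rw [Finset.sum_eq_single i0]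
    · rw [hy1, Pi.single_eq_same, hz, mul_div_cancel₀ _ hi0]
    · intro i _ hi
      rw [hy1, Pi.single_eq_of_ne hi, Int.cast_zero, mul_zero]
    · intro hi
      exact absurd (Finset.mem_univ _) hi
  obtain ⟨a, y, hy, hya⟩ := hcov U0
    (fun c => ⟨Int.emod_nonneg _ hD.ne', Int.emod_lt_of_pos _ hD⟩)
    (∑ i, h i * (((y0 i - y1 i : ℤ)) : ZMod p))
  refine ⟨fun i => y0 i - y i, fun c => a c + v c, ?_, ?_⟩
  · have e1 : ∑ i, h i * (((y0 i - y i : ℤ)) : ZMod p) =
        ∑ i, h i * ((y0 i : ℤ) : ZMod p) - ∑ i, h i * ((y i : ℤ) : ZMod p) := by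
      rw [← Finset.sum_sub_distrib]
      exact Finset.sum_congr rfl fun i _ => by rw [Int.cast_sub, mul_sub]
    have e2 : ∑ i, h i * (((y0 i - y1 i : ℤ)) : ZMod p) =
        ∑ i, h i * ((y0 i : ℤ) : ZMod p) - ∑ i, h i * ((y1 i : ℤ) : ZMod p) := by
      rw [← Finset.sum_sub_distrib]
      exact Finset.sum_congr rfl fun i _ => by rw [Int.cast_sub, mul_sub]
    have e3 : ∑ c, τ c * (((a c + v c : ℤ)) : ZMod p) =
        ∑ c, τ c * ((a c : ℤ) : ZMod p) + ∑ c, τ c * ((v c : ℤ) : ZMod p) := by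
      rw [← Finset.sum_add_distrib]
      exact Finset.sum_congr rfl fun i _ => by rw [Int.cast_add, mul_add]
    rw [e1, e3, hya, e2, hy1s]
    ring
  · set e : Fin (N + m) → ℝ := fun j => x j -
      (Fin.append (fun i => d * (y0 i : ℝ)) (fun c => ρ c * (Ux c : ℝ) / Qn) :
        Fin (N + m) → ℝ) j with he
    set Pt : Fin (N + m) → ℝ := Fin.append (fun i => d * (y i : ℝ))
      (fun c => ρ c * (((U0 c - Qn * B.mulVec a c : ℤ)) : ℝ) / Qn) with hPt
    have hsum : x - Fin.append (fun i => d * (((y0 i - y i : ℤ)) : ℝ))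
        (fun c => ρ c * ((B.mulVec (fun c => a c + v c) c : ℤ) : ℝ)) = e + Pt := by
      funext j
      refine Fin.addCases (fun i => ?_) (fun c => ?_) j
      · simp only [he, hPt, Pi.sub_apply, Pi.add_apply, Fin.append_left]
        push_cast
        ring
      · have h1 : B.mulVec (fun c => a c + v c) c = B.mulVec a c + B.mulVec v c := by
          have : (fun c => a c + v c) = a + v := rfl
          rw [this, Matrix.mulVec_add, Pi.add_apply]
        simp only [he, hPt, Pi.sub_apply, Pi.add_apply, Fin.append_right]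
        rw [h1, hUx2 c]
        push_cast
        field_simp
        ring
    have hePos : ∀ j, 0 ≤ e j ∧ e j ≤ δ := by
      intro j
      refine Fin.addCases (fun i => ?_) (fun c => ?_) j
      · simp only [he, Fin.append_left, hy0]
        have h1 := Int.floor_le (x (Fin.castAdd m i) / d)
        have h2 := Int.lt_floor_add_one (x (Fin.castAdd m i) / d)
        rw [le_div_iff₀ hd] at h1
        rw [div_lt_iff₀ hd] at h2
        constructor
        · linarith
        · nlinarith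
      · simp only [he, Fin.append_right, hUx]
        have h1 := Int.floor_le (x (Fin.natAdd N c) * Qn / ρ c)
        have h2 := Int.lt_floor_add_one (x (Fin.natAdd N c) * Qn / ρ c)
        rw [le_div_iff₀ (hρ c)] at h1
        rw [div_lt_iff₀ (hρ c)] at h2
        have h3 := hρδ c
        constructor
        · rw [sub_nonneg, div_le_iff₀ hQ']
          linarith
        · have h4 : x (Fin.natAdd N c) ≤
              ρ c * (⌊x (Fin.natAdd N c) * Qn / ρ c⌋ : ℝ) / Qn + ρ c / Qn := by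
            rw [← add_div, le_div_iff₀ hQ']
            linarith
          linarith
    have h1 : n • e ∈ K := by
      refine hcube _ fun j => ?_
      obtain ⟨h2, h3⟩ := hePos j
      rw [Pi.smul_apply, smul_eq_mul, abs_of_nonneg (mul_nonneg hn0.le h2)]
      calc n * e j ≤ n * δ := mul_le_mul_of_nonneg_left h3 hn0.le
        _ = δ * n := mul_comm _ _
        _ ≤ r := hδ
    have h2 : (1 - 1 / n)⁻¹ • Pt ∈ K := hY _ y hy
    have hn1 : 0 < 1 - 1 / n := by
      rw [sub_pos, div_lt_one hn0]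
      linarith
    have h3 := hconv h1 h2 (a := 1 / n) (b := 1 - 1 / n) (by positivity) hn1.le (by ring)
    rw [smul_smul, smul_smul, one_div, inv_mul_cancel₀ hn0.ne', one_smul, ← one_div,
      mul_inv_cancel₀ hn1.ne', one_smul] at h3
    rw [hsum]
    exact h3

/-- TASK CVC-LT.  The lattice matrix.  Let `M` be from `lat_basis` for
`c = Fin.append h τ : Fin (N+m) → ZMod p` and `D` the block matrix (indexed by `Fin (N+m)` via
`finSumFinEquiv`, `Matrix.reindex`/`submatrix`) with blocks `d • 1` and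
`Matrix.of fun c c' => ρ c * B c c'`; `g = D * M.map (Int.cast)`,
`|det g| = d^N * (∏ ρ) * |det B| * p`. -/
theorem lattice_of_cover (N m : ℕ) (K : Set (Fin (N + m) → ℝ)) (d : ℝ) (hd : 0 < d)
    (ρ : Fin m → ℝ) (B : Matrix (Fin m) (Fin m) ℤ) (hB : B.det ≠ 0) (hρ : ∀ c, 0 < ρ c)
    (p : ℕ) [Fact p.Prime] (h : Fin N → ZMod p) (hh : h ≠ 0) (τ : Fin m → ZMod p)
    (hcov : ∀ x : Fin (N + m) → ℝ, ∃ (y : Fin N → ℤ) (a : Fin m → ℤ),
      (∑ i, h i * ((y i : ℤ) : ZMod p) + ∑ c, τ c * ((a c : ℤ) : ZMod p) = 0) ∧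
      x - Fin.append (fun i => d * (y i : ℝ)) (fun c => ρ c * ((B.mulVec a c : ℤ) : ℝ)) ∈ K) :
    ∃ g : Matrix (Fin (N + m)) (Fin (N + m)) ℝ,
      |g.det| = d ^ N * (∏ c, ρ c) * |(B.det : ℝ)| * p ∧
      ∀ x : Fin (N + m) → ℝ, ∃ z : Fin (N + m) → ℤ, x - g.mulVec (fun i => (z i : ℝ)) ∈ K := by
  have hc : (Fin.append h τ : Fin (N + m) → ZMod p) ≠ 0 := by
    intro h0
    apply hh
    funext i
    have := congrFun h0 (Fin.castAdd m i)
    rwa [Fin.append_left] at this
  obtain ⟨M, hM, hM2⟩ := lat_basis p (Fin.append h τ : Fin (N + m) → ZMod p) hc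
  set D0 : Matrix (Fin N ⊕ Fin m) (Fin N ⊕ Fin m) ℝ :=
    Matrix.fromBlocks (d • (1 : Matrix (Fin N) (Fin N) ℝ)) 0 0
      (Matrix.of fun c c' => ρ c * (B c c' : ℝ)) with hD0
  set D : Matrix (Fin (N + m)) (Fin (N + m)) ℝ :=
    D0.submatrix finSumFinEquiv.symm finSumFinEquiv.symm with hD
  have hdetD : D.det = d ^ N * ((∏ c, ρ c) * (B.det : ℝ)) := by
    rw [hD, Matrix.det_submatrix_equiv_self, hD0, Matrix.det_fromBlocks_zero₂₁, Matrix.det_smul,
      Matrix.det_one, mul_one, Fintype.card_fin]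
    congr 1
    have e := Matrix.det_mul_column ρ (B.map (Int.cast : ℤ → ℝ))
    have e2 : (B.map (Int.cast : ℤ → ℝ)).det = (B.det : ℝ) :=
      ((Int.castRingHom ℝ).map_det B).symm
    rw [e2] at e
    exact e
  have hmul : ∀ (y : Fin N → ℤ) (a : Fin m → ℤ),
      D.mulVec (fun i => (((Fin.append y a : Fin (N + m) → ℤ) i : ℤ) : ℝ)) =
        Fin.append (fun i => d * (y i : ℝ)) (fun c => ρ c * ((B.mulVec a c : ℤ) : ℝ)) := by
    intro y a
    funext i
    have e1 : D.mulVec (fun i => (((Fin.append y a : Fin (N + m) → ℤ) i : ℤ) : ℝ)) i =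
        ∑ j : Fin N ⊕ Fin m, D0 (finSumFinEquiv.symm i) j *
          (((Fin.append y a : Fin (N + m) → ℤ) (finSumFinEquiv j) : ℤ) : ℝ) := by
      rw [← Equiv.sum_comp finSumFinEquiv.symm]
      simp only [Equiv.apply_symm_apply]
      rfl
    rw [e1, Fintype.sum_sum_type]
    simp only [finSumFinEquiv_apply_left, finSumFinEquiv_apply_right, Fin.append_left,
      Fin.append_right]
    refine Fin.addCases (fun i => ?_) (fun i => ?_) i
    · rw [finSumFinEquiv_symm_apply_castAdd, Fin.append_left]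
      simp only [hD0, Matrix.fromBlocks_apply₁₁, Matrix.fromBlocks_apply₁₂, Matrix.smul_apply,
        Matrix.one_apply, Matrix.zero_apply, zero_mul, Finset.sum_const_zero, add_zero, smul_eq_mul]
      simp
    · rw [finSumFinEquiv_symm_apply_natAdd, Fin.append_right]
      simp only [hD0, Matrix.fromBlocks_apply₂₁, Matrix.fromBlocks_apply₂₂, Matrix.zero_apply,
        zero_mul, Finset.sum_const_zero, zero_add, Matrix.of_apply, Matrix.mulVec, dotProduct]
      rw [Int.cast_sum, Finset.mul_sum]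
      refine Finset.sum_congr rfl fun j _ => ?_
      push_cast
      ring
  refine ⟨D * M.map (Int.cast : ℤ → ℝ), ?_, fun x => ?_⟩
  · have e2 : (M.map (Int.cast : ℤ → ℝ)).det = (M.det : ℝ) :=
      ((Int.castRingHom ℝ).map_det M).symm
    have e3 : |(M.det : ℝ)| = p := by
      have := congrArg (Int.cast : ℤ → ℝ) hM
      rw [Int.cast_abs] at this
      rw [this, Int.cast_natCast]
    rw [Matrix.det_mul, e2, abs_mul, e3, hdetD, abs_mul, abs_mul, abs_of_pos (pow_pos hd N),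
      abs_of_pos (Finset.prod_pos fun c _ => hρ c)]
    ring
  · obtain ⟨y, a, hya, hK⟩ := hcov x
    obtain ⟨z, hz⟩ := hM2 (Fin.append y a) (by
      rw [Fin.sum_univ_add]
      simp only [Fin.append_left, Fin.append_right]
      exact hya)
    refine ⟨z, ?_⟩
    have e : (D * M.map (Int.cast : ℤ → ℝ)).mulVec (fun i => (z i : ℝ)) =
        Fin.append (fun i => d * (y i : ℝ)) (fun c => ρ c * ((B.mulVec a c : ℤ) : ℝ)) := by
      rw [← Matrix.mulVec_mulVec, ← hmul y a]
      congr 1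
      funext i
      rw [← hz]
      simp only [Matrix.mulVec, dotProduct, Matrix.map_apply]
      push_cast
      rfl
    rw [e]
    exact hK

/-- coordinate splitting -/
noncomputable def splitL (N m : ℕ) :
    (Fin (N + m) → ℝ) ≃ₗ[ℝ] ((Fin N → ℝ) × (Fin m → ℝ)) where
  toFun x := (fun i => x (Fin.castAdd m i), fun j => x (Fin.natAdd N j))
  invFun p := Fin.append p.1 p.2
  map_add' x y := rfl
  map_smul' c x := rfl
  left_inv x := by
    funext i
    refine Fin.addCases (fun i => ?_) (fun j => ?_) i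
    · simp only [Fin.append_left]
    · simp only [Fin.append_right]
  right_inv p := by
    ext i
    · simp only [Fin.append_left]
    · simp only [Fin.append_right]

theorem splitL_mp (N m : ℕ) : MeasurePreserving (splitL N m) volume volume := by
  have h1 := (volume_measurePreserving_piCongrLeft (fun _ : Fin (N + m) => ℝ)
    (finSumFinEquiv (m := N) (n := m))).symm
  have h2 := volume_measurePreserving_sumPiEquivProdPi (fun _ : Fin N ⊕ Fin m => ℝ)
  exact h2.comp h1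

/-- TASK CVC-TR.  Consequence of `GaussMarg` in the coordinates `Fin (N + m) → ℝ`:
`Φ = L.symm ∘ split`, `split x = (x ∘ Fin.castAdd m, x ∘ Fin.natAdd N)` (measure preserving:
`MeasureTheory.volume_preserving_...`), `K' = Φ⁻¹(K - x0)`;
`vol K = |det Φ| vol K'` (`Measure.addHaar_image_linearMap`), `A` = matrix of `Φ`. -/
theorem transfer (hA : GaussMarg) :
    ∃ c1 : ℝ, 0 < c1 ∧ ∃ n0 : ℕ, ∀ (N m : ℕ), n0 ≤ N + m → 1 ≤ m →
      (m : ℝ) ^ 8 ≤ Real.log ((N + m : ℕ) : ℝ) →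
      ∀ K : Set (Fin (N + m) → ℝ), IsCompact K → Convex ℝ K → (interior K).Nonempty →
        ∃ (A : Matrix (Fin (N + m)) (Fin (N + m)) ℝ) (x0 : Fin (N + m) → ℝ)
          (K' : Set (Fin (N + m) → ℝ)),
          A.det ≠ 0 ∧ IsCompact K' ∧ Convex ℝ K' ∧ (∀ x ∈ K', A.mulVec x + x0 ∈ K) ∧
          (volume K).toReal = |A.det| * (volume K').toReal ∧
          (∀ x : Fin (N + m) → ℝ, (∀ i, |x i| ≤ (((N + m : ℕ) : ℝ) ^ 3)⁻¹) → x ∈ K') ∧
          (∀ x ∈ K', ∀ i, |x i| ≤ ((N + m : ℕ) : ℝ) ^ 3) ∧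
          ∀ v : Fin m → ℝ, (∀ j, |v j| ≤ m) →
            c1 * (∏ j, phi (v j)) * (volume K').toReal ≤
              (volume {y : Fin N → ℝ | (Fin.append y v : Fin (N + m) → ℝ) ∈ K'}).toReal := by
  obtain ⟨c1, hc1, n0, h0⟩ := hA
  refine ⟨c1, hc1, n0, fun N m hn hm hlog K hK hconv hint => ?_⟩
  obtain ⟨L, x0, hcube, hbd, hmarg⟩ := h0 N m hn hm hlog K hK hconv hint
  set Φ : (Fin (N + m) → ℝ) ≃ₗ[ℝ] (Fin (N + m) → ℝ) := (splitL N m).trans L.symm with hΦ
  set KL : Set ((Fin N → ℝ) × (Fin m → ℝ)) := (fun x => L (x - x0)) '' K with hKL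
  have mem_iff : ∀ x : Fin (N + m) → ℝ, Φ x + x0 ∈ K ↔ splitL N m x ∈ KL := by
    intro x
    constructor
    · intro h
      refine ⟨_, h, ?_⟩
      change L (Φ x + x0 - x0) = _
      rw [add_sub_cancel_right]
      exact L.apply_symm_apply _
    · rintro ⟨k, hk, hk'⟩
      have h1 : Φ x = k - x0 := by
        change L.symm (splitL N m x) = _
        rw [← hk']
        exact L.symm_apply_apply _
      rw [h1, sub_add_cancel]
      exact hk
  set K' : Set (Fin (N + m) → ℝ) := (splitL N m) ⁻¹' KL with hK'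
  have hK'mem : ∀ x, x ∈ K' ↔ Φ x + x0 ∈ K := fun x => (mem_iff x).symm
  have hcont : Continuous L := LinearMap.continuous_of_finiteDimensional L.toLinearMap
  have hcontS : Continuous (splitL N m) :=
    LinearMap.continuous_of_finiteDimensional (splitL N m).toLinearMap
  have hcontS' : Continuous (splitL N m).symm :=
    LinearMap.continuous_of_finiteDimensional (splitL N m).symm.toLinearMap
  have hKLc : IsCompact KL := hK.image (hcont.comp (continuous_id.sub continuous_const))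
  have hK'im : K' = (splitL N m).symm '' KL := by
    rw [hK', LinearEquiv.image_symm_eq_preimage]
  have hK'c : IsCompact K' := by
    rw [hK'im]; exact hKLc.image hcontS'
  have hdet : (LinearMap.toMatrix' (Φ : (Fin (N + m) → ℝ) →ₗ[ℝ] (Fin (N + m) → ℝ))).det =
      LinearMap.det (Φ : (Fin (N + m) → ℝ) →ₗ[ℝ] (Fin (N + m) → ℝ)) := LinearMap.det_toMatrix' _
  refine ⟨LinearMap.toMatrix' (Φ : (Fin (N + m) → ℝ) →ₗ[ℝ] (Fin (N + m) → ℝ)), x0, K', ?_, hK'c,
    ?_, ?_, ?_, ?_, ?_, ?_⟩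
  · rw [hdet]
    exact (LinearEquiv.isUnit_det' Φ).ne_zero
  · have h1 : Convex ℝ KL := by
      have h2 : KL = L '' ((fun x => -x0 + x) '' K) := by
        rw [hKL, ← Set.image_comp]
        refine Set.image_congr fun x _ => ?_
        change L (x - x0) = L (-x0 + x)
        rw [sub_eq_neg_add]
      rw [h2]
      exact (hconv.translate (-x0)).linear_image L.toLinearMap
    exact h1.linear_preimage (splitL N m).toLinearMap
  · intro x hx
    rw [LinearMap.toMatrix'_mulVec]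
    exact (hK'mem x).1 hx
  · rw [hdet]
    have h1 : K = (fun x => x + x0) '' ((Φ : (Fin (N + m) → ℝ) →ₗ[ℝ] (Fin (N + m) → ℝ)) '' K') := by
      ext k
      constructor
      · intro hk
        refine ⟨k - x0, ⟨Φ.symm (k - x0), ?_, ?_⟩, sub_add_cancel _ _⟩
        · rw [hK'mem, Φ.apply_symm_apply, sub_add_cancel]
          exact hk
        · exact Φ.apply_symm_apply _
      · rintro ⟨_, ⟨x, hx, rfl⟩, rfl⟩
        exact (hK'mem x).1 hx
    have h2 : volume K = ENNReal.ofReal |LinearMap.det (Φ : (Fin (N + m) → ℝ) →ₗ[ℝ]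
        (Fin (N + m) → ℝ))| * volume K' := by
      conv_lhs => rw [h1]
      rw [Set.image_add_right, measure_preimage_add_right, Measure.addHaar_image_linearMap]
    rw [h2, ENNReal.toReal_mul, ENNReal.toReal_ofReal (abs_nonneg _)]
  · intro x hx
    exact hcube _ _ (fun i => hx _) (fun j => hx _)
  · intro x hx i
    obtain ⟨h1, h2⟩ := hbd _ hx
    refine Fin.addCases (fun i => ?_) (fun j => ?_) i
    · exact h1 i
    · exact h2 j
  · intro v hv
    have h1 := hmarg v hv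
    have hset : {y : Fin N → ℝ | (Fin.append y v : Fin (N + m) → ℝ) ∈ K'} =
        {y : Fin N → ℝ | (y, v) ∈ KL} := by
      ext y
      change splitL N m ((splitL N m).symm (y, v)) ∈ KL ↔ (y, v) ∈ KL
      rw [LinearEquiv.apply_symm_apply]
    have hvol : volume K' = volume KL :=
      (splitL_mp N m).measure_preimage hKLc.measurableSet.nullMeasurableSet
    rw [hset, hvol]
    have hfin : volume {y : Fin N → ℝ | (y, v) ∈ KL} ≠ ⊤ := by
      have hc : IsCompact {y : Fin N → ℝ | (y, v) ∈ KL} := by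
        have h3 : {y : Fin N → ℝ | (y, v) ∈ KL} ⊆ Prod.fst '' KL := fun y hy => ⟨_, hy, rfl⟩
        have h4 : IsClosed {y : Fin N → ℝ | (y, v) ∈ KL} :=
          hKLc.isClosed.preimage (continuous_id.prodMk continuous_const)
        exact (hKLc.image continuous_fst).of_isClosed_subset h4 h3
      exact hc.measure_lt_top.ne
    have h2 := ENNReal.toReal_mono hfin h1
    rw [ENNReal.toReal_mul, ENNReal.toReal_ofReal] at h2
    · exact h2
    · exact mul_nonneg hc1.le (Finset.prod_nonneg fun j _ => by unfold phi; positivity)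

end Crest.Agent.CV
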