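import Crest.Agent.CV_Defs

/-! S0347 part C: the product lemma for trees of rows. -/

set_option autoImplicit false
namespace Crest.Agent.CV
open Finset

variable {m : ℕ} {p : ℕ} [Fact p.Prime]

/-- The values `α ∈ F_p` missed by all the rows of `T` (with shifts `τ`). -/
noncomputable def VT (W : (Fin m → ℤ) → Finset (ZMod p)) (τ : Fin m → ZMod p) (T : Tree m) :
    Finset (ZMod p) := by
  classical
  exact Finset.univ.filter (fun α => ∀ a ∈ T.rows, α + ∑ c, τ c * ((a c : ℤ) : ZMod p) ∈ W a)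

theorem cvt_mem_VT (W : (Fin m → ℤ) → Finset (ZMod p)) (τ : Fin m → ZMod p) (T : Tree m)
    (α : ZMod p) : α ∈ VT W τ T ↔ ∀ a ∈ T.rows, α + ∑ c, τ c * ((a c : ℤ) : ZMod p) ∈ W a := by
  simp [VT]

theorem cvt_mem_node (W : (Fin m → ℤ) → Finset (ZMod p)) (τ : Fin m → ZMod p) (c : Fin m) (v : ℤ)
    (t0 t1 : Tree m) (α : ZMod p) :
    α ∈ VT W τ (Tree.node c v t0 t1) ↔ α ∈ VT W τ t0 ∧ α ∈ VT W τ t1 := by
  simp only [cvt_mem_VT, Tree.rows, List.mem_append]
  constructor
  · intro h
    exact ⟨fun a ha => h a (Or.inl ha), fun a ha => h a (Or.inr ha)⟩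
  · rintro ⟨h0, h1⟩ a (ha | ha)
    · exact h0 a ha
    · exact h1 a ha

/-- the shift of one coordinate -/
def cvtSh (c : Fin m) (t : ZMod p) (τ : Fin m → ZMod p) : Fin m → ZMod p :=
  Function.update τ c (τ c + t)

theorem cvtSh_sum (c : Fin m) (t : ZMod p) (τ : Fin m → ZMod p) (a : Fin m → ℤ) :
    ∑ c', cvtSh c t τ c' * ((a c' : ℤ) : ZMod p) =
      ∑ c', τ c' * ((a c' : ℤ) : ZMod p) + t * ((a c : ℤ) : ZMod p) := by
  have h : ∀ c', cvtSh c t τ c' * ((a c' : ℤ) : ZMod p) =
      τ c' * ((a c' : ℤ) : ZMod p) + (if c' = c then t * ((a c : ℤ) : ZMod p) else 0) := by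
    intro c'
    unfold cvtSh
    by_cases hc : c' = c
    · subst hc
      simp; ring
    · simp [Function.update_of_ne hc, hc]
  rw [Finset.sum_congr rfl (fun c' _ => h c'), Finset.sum_add_distrib]
  simp

theorem cvtSh_bij (c : Fin m) (t : ZMod p) : Function.Bijective (cvtSh (m := m) (p := p) c t) := by
  constructor
  · intro τ σ h
    funext c'
    have := congrFun h c'
    unfold cvtSh at this
    by_cases hc : c' = c
    · subst hc
      simpa using this
    · simpa [Function.update_of_ne hc] using this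
  · intro σ
    refine ⟨cvtSh c (-t) σ, ?_⟩
    funext c'
    unfold cvtSh
    by_cases hc : c' = c
    · subst hc
      simp
    · simp [Function.update_of_ne hc]

theorem cvt_shift (W : (Fin m → ℤ) → Finset (ZMod p)) (c : Fin m) (v : ℤ) (T : Tree m)
    (h0 : ∀ a ∈ T.rows, a c = v) (t : ZMod p) (τ : Fin m → ZMod p) (α : ZMod p) :
    α ∈ VT W (cvtSh c t τ) T ↔ α + t * (v : ZMod p) ∈ VT W τ T := by
  simp only [cvt_mem_VT]
  refine forall_congr' fun a => forall_congr' fun ha => ?_
  rw [cvtSh_sum, h0 a ha]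
  rw [show α + (∑ c', τ c' * ((a c' : ℤ) : ZMod p) + t * (v : ZMod p)) =
    α + t * (v : ZMod p) + ∑ c', τ c' * ((a c' : ℤ) : ZMod p) by ring]

theorem cvt_shift_card (W : (Fin m → ℤ) → Finset (ZMod p)) (c : Fin m) (v : ℤ) (T : Tree m)
    (h0 : ∀ a ∈ T.rows, a c = v) (t : ZMod p) (τ : Fin m → ZMod p) :
    (VT W (cvtSh c t τ) T).card = (VT W τ T).card := by
  refine Finset.card_bij (fun α _ => α + t * (v : ZMod p)) ?_ ?_ ?_
  · intro α hα
    exact (cvt_shift W c v T h0 t τ α).1 hα
  · intro α _ β _ h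
    exact add_right_cancel h
  · intro β hβ
    refine ⟨β - t * (v : ZMod p), ?_, by ring⟩
    rw [cvt_shift W c v T h0 t τ]
    simpa using hβ

theorem cvt_count (A0 A1 : Finset (ZMod p)) (v : ZMod p) :
    ∑ t : ZMod p, ((univ.filter (fun α : ZMod p => α + t * v ∈ A0 ∧ α + t * (v + 1) ∈ A1)).card) =
      A0.card * A1.card := by
  classical
  rw [← Finset.card_product]
  rw [← Finset.card_sigma]
  refine Finset.card_bij (fun x _ => (x.2 + x.1 * v, x.2 + x.1 * (v + 1))) ?_ ?_ ?_
  · rintro ⟨t, α⟩ h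
    simp only [Finset.mem_sigma, Finset.mem_filter, Finset.mem_univ, true_and] at h
    simpa using h
  · rintro ⟨t, α⟩ _ ⟨s, β⟩ _ h
    simp only [Prod.mk.injEq] at h
    obtain ⟨h1, h2⟩ := h
    have ht : t = s := by
      have : (α + t * (v + 1)) - (α + t * v) = (β + s * (v + 1)) - (β + s * v) := by
        rw [h1, h2]
      linear_combination this
    subst ht
    have : α = β := by linear_combination h1
    subst this
    rfl
  · rintro ⟨x, y⟩ h
    simp only [Finset.mem_product] at h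
    refine ⟨⟨y - x, x - (y - x) * v⟩, ?_, ?_⟩
    · simp only [Finset.mem_sigma, Finset.mem_filter, Finset.mem_univ, true_and]
      constructor
      · convert h.1 using 1; ring
      · convert h.2 using 1; ring
    · simp only [Prod.mk.injEq]
      constructor <;> ring

/-- TASK CVC-T1.  One node.  Proof: translate `τ` by `t • e_c` (`Function.update τ c (τ c + t)`).
`VT W (τ + t e_c) t0 = VT W τ t0 - t*v` and `VT W (τ + t e_c) t1 = VT W τ t1 - t*(v+1)` (translates,
all rows of `t0` have `a c = v`, of `t1` have `a c = v+1`), and `VT` of the node is the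
intersection.  For fixed sets `A0 A1 ⊆ ZMod p`,
`∑_t |(A0 - t v) ∩ (A1 - t (v+1))| = |A0| * |A1|` (for each pair `(x, y) ∈ A0 × A1` exactly one
`t = y - x` works).  So on each line `{τ + t e_c}` (`p` elements, partition `F_p^m` into
`p^(m-1)` lines, e.g. via `Function.update` / sum over all `τ` of the sum over `t`,
`∑_τ F τ = ∑_τ F (τ + t e_c)`) the number `b` of bad `τ` satisfies
`b * Kf * |A0| |A1| ≤ p * |A0| |A1|`, and `b = 0` when `|A0||A1| = 0`.  (Slicker:
`∑_τ [bad] * Kf ≤ ∑_τ p |VT node| / (|VT t0| |VT t1|)` where the summand is `0` if the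
denominator is `0`; average the right side over `t`.) -/
theorem node_bad (W : (Fin m → ℤ) → Finset (ZMod p)) (c : Fin m) (v : ℤ) (t0 t1 : Tree m)
    (h0 : ∀ a ∈ t0.rows, a c = v) (h1 : ∀ a ∈ t1.rows, a c = v + 1) (Kf : ℝ) (hK : 0 < Kf) :
    Kf * ((univ.filter (fun τ : Fin m → ZMod p =>
      Kf * ((VT W τ t0).card : ℝ) * ((VT W τ t1).card : ℝ) <
        p * ((VT W τ (Tree.node c v t0 t1)).card : ℝ))).card : ℝ) ≤ (p : ℝ) ^ m := by
  classical
  set A0 : (Fin m → ZMod p) → ℕ := fun τ => (VT W τ t0).card with hA0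
  set A1 : (Fin m → ZMod p) → ℕ := fun τ => (VT W τ t1).card with hA1
  set F : (Fin m → ZMod p) → ℕ := fun τ => (VT W τ (Tree.node c v t0 t1)).card with hF
  set φ : (Fin m → ZMod p) → ℝ := fun τ => (F τ : ℝ) / ((A0 τ : ℝ) * (A1 τ : ℝ)) with hφ
  have hp : 0 < (p : ℝ) := by exact_mod_cast (Fact.out : p.Prime).pos
  have hφ0 : ∀ τ, 0 ≤ φ τ := fun τ => by positivity
  -- line sums
  have hline : ∀ τ, ∑ t : ZMod p, φ (cvtSh c t τ) ≤ 1 := by
    intro τ
    have e1 : ∀ t : ZMod p, φ (cvtSh c t τ) =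
        ((univ.filter (fun α : ZMod p => α + t * (v : ZMod p) ∈ VT W τ t0 ∧
          α + t * ((v : ZMod p) + 1) ∈ VT W τ t1)).card : ℝ) / ((A0 τ : ℝ) * (A1 τ : ℝ)) := by
      intro t
      have c0 : A0 (cvtSh c t τ) = A0 τ := cvt_shift_card W c v t0 h0 t τ
      have c1 : A1 (cvtSh c t τ) = A1 τ := cvt_shift_card W c (v + 1) t1 h1 t τ
      simp only [hφ]
      rw [c0, c1]
      congr 2
      simp only [hF]
      congr 1
      ext α
      rw [cvt_mem_node, cvt_shift W c v t0 h0, cvt_shift W c (v + 1) t1 h1]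
      simp
    rw [Finset.sum_congr rfl (fun t _ => e1 t), ← Finset.sum_div]
    have e2 := cvt_count (VT W τ t0) (VT W τ t1) (v : ZMod p)
    have e3 : ∑ t : ZMod p, ((univ.filter (fun α : ZMod p => α + t * (v : ZMod p) ∈ VT W τ t0 ∧
          α + t * ((v : ZMod p) + 1) ∈ VT W τ t1)).card : ℝ) = (A0 τ : ℝ) * (A1 τ : ℝ) := by
      have := congrArg (fun n : ℕ => (n : ℝ)) e2
      push_cast at this
      exact this
    rw [e3]
    exact div_self_le_one _
  have hsum : (p : ℝ) * ∑ τ, φ τ ≤ (p : ℝ) ^ m := by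
    have e1 : ∀ t : ZMod p, ∑ τ, φ (cvtSh c t τ) = ∑ τ, φ τ := by
      intro t
      exact (cvtSh_bij (m := m) c t).sum_comp φ
    have e2 : ∑ τ, ∑ t : ZMod p, φ (cvtSh c t τ) = (p : ℝ) * ∑ τ, φ τ := by
      rw [Finset.sum_comm, Finset.sum_congr rfl (fun t _ => e1 t)]
      simp [ZMod.card]
    rw [← e2]
    calc ∑ τ, ∑ t : ZMod p, φ (cvtSh c t τ) ≤ ∑ τ : Fin m → ZMod p, (1 : ℝ) :=
          Finset.sum_le_sum (fun τ _ => hline τ)
      _ = (p : ℝ) ^ m := by simp [ZMod.card]
  calc Kf * ((univ.filter (fun τ : Fin m → ZMod p =>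
      Kf * ((VT W τ t0).card : ℝ) * ((VT W τ t1).card : ℝ) <
        p * ((VT W τ (Tree.node c v t0 t1)).card : ℝ))).card : ℝ)
      = ∑ τ ∈ univ.filter (fun τ : Fin m → ZMod p =>
      Kf * ((VT W τ t0).card : ℝ) * ((VT W τ t1).card : ℝ) <
        p * ((VT W τ (Tree.node c v t0 t1)).card : ℝ)), Kf := by
        rw [Finset.sum_const, nsmul_eq_mul]; ring
    _ ≤ ∑ τ ∈ univ.filter (fun τ : Fin m → ZMod p =>
      Kf * ((VT W τ t0).card : ℝ) * ((VT W τ t1).card : ℝ) <
        p * ((VT W τ (Tree.node c v t0 t1)).card : ℝ)), (p : ℝ) * φ τ := by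
        refine Finset.sum_le_sum fun τ hτ => ?_
        rw [Finset.mem_filter] at hτ
        have hb := hτ.2
        by_cases hz : (A0 τ : ℝ) * (A1 τ : ℝ) = 0
        · exfalso
          have hF0 : F τ = 0 := by
            simp only [hF, Finset.card_eq_zero]
            rw [Finset.eq_empty_iff_forall_notMem]
            intro α hα
            rw [cvt_mem_node] at hα
            rcases mul_eq_zero.1 hz with h | h
            · have : (VT W τ t0).card = 0 := by exact_mod_cast h
              rw [Finset.card_eq_zero] at this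
              rw [this] at hα
              exact absurd hα.1 (Finset.notMem_empty _)
            · have : (VT W τ t1).card = 0 := by exact_mod_cast h
              rw [Finset.card_eq_zero] at this
              rw [this] at hα
              exact absurd hα.2 (Finset.notMem_empty _)
          have h1' : ((VT W τ (Tree.node c v t0 t1)).card : ℝ) = 0 := by
            have := hF0
            simp only [hF] at this
            rw [this]; simp
          rw [h1', mul_zero, mul_assoc] at hb
          have : ((VT W τ t0).card : ℝ) * ((VT W τ t1).card : ℝ) = 0 := hz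
          rw [this, mul_zero] at hb
          exact lt_irrefl _ hb
        · have hpos : 0 < (A0 τ : ℝ) * (A1 τ : ℝ) :=
            lt_of_le_of_ne (by positivity) (Ne.symm hz)
          simp only [hφ]
          rw [← mul_div_assoc, le_div_iff₀ hpos]
          have : Kf * ((A0 τ : ℝ) * (A1 τ : ℝ)) = Kf * (A0 τ : ℝ) * (A1 τ : ℝ) := by ring
          rw [this]
          exact hb.le
    _ ≤ ∑ τ, (p : ℝ) * φ τ :=
        Finset.sum_le_sum_of_subset_of_nonneg (Finset.filter_subset _ _)
          (fun τ _ _ => mul_nonneg hp.le (hφ0 τ))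
    _ = (p : ℝ) * ∑ τ, φ τ := by rw [Finset.mul_sum]
    _ ≤ (p : ℝ) ^ m := hsum

theorem cvt_rows_pos (T : Tree m) : 1 ≤ T.rows.length := by
  induction T with
  | leaf a => simp [Tree.rows]
  | node c v t0 t1 h0 h1 => simp [Tree.rows]; omega

theorem cvt_tree_bad_strong (W : (Fin m → ℤ) → Finset (ZMod p)) (T : Tree m) (hT : T.WF) (Kf : ℝ)
    (hK : 1 ≤ Kf) :
    Kf * ((univ.filter (fun τ : Fin m → ZMod p =>
      Kf ^ (T.rows.length - 1) * (T.rows.map (fun a => ((W a).card : ℝ) / p)).prod <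
        ((VT W τ T).card : ℝ) / p)).card : ℝ) ≤ ((T.rows.length : ℝ) - 1) * (p : ℝ) ^ m := by
  classical
  have hp : 0 < (p : ℝ) := by exact_mod_cast (Fact.out : p.Prime).pos
  induction T with
  | leaf a =>
    have hempty : (univ.filter (fun τ : Fin m → ZMod p =>
      Kf ^ ((Tree.leaf a).rows.length - 1) *
        ((Tree.leaf a).rows.map (fun a => ((W a).card : ℝ) / p)).prod <
        ((VT W τ (Tree.leaf a)).card : ℝ) / p)) = ∅ := by
      rw [Finset.filter_eq_empty_iff]
      intro τ _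
      simp only [Tree.rows, List.length_singleton, List.map_cons, List.map_nil, List.prod_cons,
        List.prod_nil, not_lt]
      have hcard : (VT W τ (Tree.leaf a)).card ≤ (W a).card := by
        refine Finset.card_le_card_of_injOn
          (fun α => α + ∑ c, τ c * ((a c : ℤ) : ZMod p)) ?_ ?_
        · intro α hα
          have := (cvt_mem_VT W τ (Tree.leaf a) α).1 hα a (by simp [Tree.rows])
          exact this
        · intro α _ β _ h
          exact add_right_cancel h
      have : ((VT W τ (Tree.leaf a)).card : ℝ) ≤ ((W a).card : ℝ) := by exact_mod_cast hcard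
      simp
      gcongr
    rw [hempty]
    simp [Tree.rows]
  | node c v t0 t1 ih0 ih1 =>
    obtain ⟨w0, w1, wt0, wt1⟩ := hT
    have i0 := ih0 wt0
    have i1 := ih1 wt1
    have nb := node_bad W c v t0 t1 w0 w1 Kf (by linarith)
    set P0 : ℝ := (t0.rows.map (fun a => ((W a).card : ℝ) / p)).prod with hP0
    set P1 : ℝ := (t1.rows.map (fun a => ((W a).card : ℝ) / p)).prod with hP1
    have hP0n : 0 ≤ P0 := by
      apply List.prod_nonneg
      intro x hx
      simp only [List.mem_map] at hx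
      obtain ⟨a, _, rfl⟩ := hx
      positivity
    set l0 := t0.rows.length with hl0
    set l1 := t1.rows.length with hl1
    have hl0p : 1 ≤ l0 := cvt_rows_pos t0
    have hl1p : 1 ≤ l1 := cvt_rows_pos t1
    have hlen : (Tree.node c v t0 t1).rows.length = l0 + l1 := by
      simp [Tree.rows, hl0, hl1]
    have hprod : ((Tree.node c v t0 t1).rows.map (fun a => ((W a).card : ℝ) / p)).prod =
        P0 * P1 := by
      simp [Tree.rows, hP0, hP1]
    rw [hlen, hprod]
    set S := univ.filter (fun τ : Fin m → ZMod p =>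
      Kf ^ (l0 + l1 - 1) * (P0 * P1) < ((VT W τ (Tree.node c v t0 t1)).card : ℝ) / p) with hS
    set S0 := univ.filter (fun τ : Fin m → ZMod p =>
      Kf ^ (l0 - 1) * P0 < ((VT W τ t0).card : ℝ) / p) with hS0
    set S1 := univ.filter (fun τ : Fin m → ZMod p =>
      Kf ^ (l1 - 1) * P1 < ((VT W τ t1).card : ℝ) / p) with hS1
    set S2 := univ.filter (fun τ : Fin m → ZMod p =>
      Kf * ((VT W τ t0).card : ℝ) * ((VT W τ t1).card : ℝ) <
        p * ((VT W τ (Tree.node c v t0 t1)).card : ℝ)) with hS2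
    have hsub : S ⊆ S0 ∪ S1 ∪ S2 := by
      intro τ hτ
      by_contra hcon
      simp only [Finset.mem_union, not_or] at hcon
      obtain ⟨⟨n0, n1⟩, n2⟩ := hcon
      simp only [hS0, hS1, hS2, Finset.mem_filter, Finset.mem_univ, true_and, not_lt] at n0 n1 n2
      simp only [hS, Finset.mem_filter, Finset.mem_univ, true_and] at hτ
      have key : ((VT W τ (Tree.node c v t0 t1)).card : ℝ) / p ≤
          Kf * (((VT W τ t0).card : ℝ) / p) * (((VT W τ t1).card : ℝ) / p) := by
        rw [div_le_iff₀ hp]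
        have : Kf * (((VT W τ t0).card : ℝ) / p) * (((VT W τ t1).card : ℝ) / p) * p =
          (Kf * ((VT W τ t0).card : ℝ) * ((VT W τ t1).card : ℝ)) / p := by
          field_simp
        rw [this, le_div_iff₀ hp]
        linarith
      have key2 : Kf * (((VT W τ t0).card : ℝ) / p) * (((VT W τ t1).card : ℝ) / p) ≤
          Kf * (Kf ^ (l0 - 1) * P0) * (Kf ^ (l1 - 1) * P1) := by
        have hk0 : 0 ≤ Kf := by linarith
        gcongr
      have key3 : Kf * (Kf ^ (l0 - 1) * P0) * (Kf ^ (l1 - 1) * P1) =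
          Kf ^ (l0 + l1 - 1) * (P0 * P1) := by
        have : l0 + l1 - 1 = (l0 - 1) + (l1 - 1) + 1 := by omega
        rw [this]
        ring
      linarith
    have hcard : (S.card : ℝ) ≤ S0.card + S1.card + S2.card := by
      have h := Finset.card_le_card hsub
      have h' := Finset.card_union_le (S0 ∪ S1) S2
      have h'' := Finset.card_union_le S0 S1
      have : S.card ≤ S0.card + S1.card + S2.card := by omega
      exact_mod_cast this
    have hk0 : 0 ≤ Kf := by linarith
    have hpm : 0 ≤ (p : ℝ) ^ m := by positivity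
    have h3 : Kf * (S.card : ℝ) ≤ Kf * S0.card + Kf * S1.card + Kf * S2.card := by
      nlinarith
    push_cast
    nlinarith

/-- TASK CVC-T2.  Induction on the tree with `node_bad`:
bad(node) ⊆ bad(t0) ∪ bad(t1) ∪ (bad set of `node_bad`); `Kf ≥ 1`, number of rows is additive and
`≥ 1`.  For a leaf `VT` is a translate of `W a`, so `|VT| = |W a|`. -/
theorem tree_bad (W : (Fin m → ℤ) → Finset (ZMod p)) (T : Tree m) (hT : T.WF) (Kf : ℝ)
    (hK : 1 ≤ Kf) :
    Kf * ((univ.filter (fun τ : Fin m → ZMod p =>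
      Kf ^ (T.rows.length - 1) * (T.rows.map (fun a => ((W a).card : ℝ) / p)).prod <
        ((VT W τ T).card : ℝ) / p)).card : ℝ) ≤ T.rows.length * (p : ℝ) ^ m := by
  have h := cvt_tree_bad_strong W T hT Kf hK
  have hpm : 0 ≤ (p : ℝ) ^ m := by positivity
  nlinarith

/-- TASK CVC-T3.  Union bound over a finite family of trees (from `tree_bad`). -/
theorem tree_union {ι : Type} [Fintype ι] (W : ι → (Fin m → ℤ) → Finset (ZMod p))
    (T : ι → Tree m) (hT : ∀ i, (T i).WF) (Lmax : ℕ) (hL : ∀ i, (T i).rows.length ≤ Lmax)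
    (Kf : ℝ) (hK : 1 ≤ Kf) (hK2 : (Fintype.card ι : ℝ) * Lmax < Kf) :
    ∃ τ : Fin m → ZMod p, ∀ i, ((VT (W i) τ (T i)).card : ℝ) / p ≤
      Kf ^ Lmax * ((T i).rows.map (fun a => ((W i a).card : ℝ) / p)).prod := by
  classical
  by_contra hcon
  push Not at hcon
  have hp : 0 < (p : ℝ) ^ m := by
    have := (Fact.out : p.Prime).pos
    positivity
  set bad : ι → Finset (Fin m → ZMod p) := fun i => univ.filter (fun τ : Fin m → ZMod p =>
      Kf ^ ((T i).rows.length - 1) * ((T i).rows.map (fun a => ((W i a).card : ℝ) / p)).prod <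
        ((VT (W i) τ (T i)).card : ℝ) / p) with hbad
  have h1 : (univ : Finset (Fin m → ZMod p)) ⊆ univ.biUnion bad := by
    intro τ _
    obtain ⟨i, hi⟩ := hcon τ
    refine mem_biUnion.2 ⟨i, mem_univ _, mem_filter.2 ⟨mem_univ _, lt_of_le_of_lt ?_ hi⟩⟩
    refine mul_le_mul_of_nonneg_right ?_ ?_
    · exact pow_le_pow_right₀ hK ((Nat.sub_le _ _).trans (hL i))
    · refine List.prod_nonneg fun x hx => ?_
      obtain ⟨a, _, rfl⟩ := List.mem_map.1 hx
      positivity
  have h2 : (p : ℝ) ^ m ≤ ∑ i, ((bad i).card : ℝ) := by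
    have h3 := (card_le_card h1).trans card_biUnion_le
    have h4 : (univ : Finset (Fin m → ZMod p)).card = p ^ m := by
      rw [card_univ, Fintype.card_fun, ZMod.card, Fintype.card_fin]
    rw [h4] at h3
    exact_mod_cast h3
  have h5 : Kf * ∑ i, ((bad i).card : ℝ) ≤ (Fintype.card ι : ℝ) * Lmax * (p : ℝ) ^ m := by
    rw [mul_sum]
    calc ∑ i, Kf * ((bad i).card : ℝ) ≤ ∑ _i : ι, (Lmax : ℝ) * (p : ℝ) ^ m := by
          refine sum_le_sum fun i _ => ?_
          refine (tree_bad (W i) (T i) (hT i) Kf hK).trans ?_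
          exact mul_le_mul_of_nonneg_right (by exact_mod_cast hL i) hp.le
      _ = (Fintype.card ι : ℝ) * Lmax * (p : ℝ) ^ m := by
          rw [sum_const, card_univ, nsmul_eq_mul, mul_assoc]
  have h6 : Kf * (p : ℝ) ^ m ≤ (Fintype.card ι : ℝ) * Lmax * (p : ℝ) ^ m :=
    (mul_le_mul_of_nonneg_left h2 (by linarith)).trans h5
  have h7 := le_of_mul_le_mul_right h6 hp
  linarith

end Crest.Agent.CV
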