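import Crest.Agent.CVD_G2

/-! # CVD_B1 (S0347 part D2): one coarse coordinate; `q` cells per period `H`, cell size `H / q`,
weights `G = gw (H/q) q` -/

set_option autoImplicit false
open Finset Crest.Agent.CV

namespace Crest.Agent.CVD

private theorem B1_sum_shift (q : ℕ) (a : ℤ) (f : ℤ → ℝ) :
    ∑ r ∈ Finset.range q, f (a + (r : ℤ)) = ∑ t ∈ Finset.Ico a (a + (q : ℤ)), f t := by
  refine Finset.sum_nbij' (fun r => a + (r : ℤ)) (fun t => (t - a).toNat) ?_ ?_ ?_ ?_ ?_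
  · intro r hr
    simp only [Finset.mem_range] at hr
    simp only [Finset.mem_Ico]
    omega
  · intro t ht
    simp only [Finset.mem_Ico] at ht
    simp only [Finset.mem_range]
    omega
  · intro r _
    simp
  · intro t ht
    simp only [Finset.mem_Ico] at ht
    have h0 := Int.toNat_of_nonneg (show 0 ≤ t - a by omega)
    rw [h0]
    ring
  · intro r _
    rfl

theorem sum_range_wt (q : ℕ) (f : ℤ → ℝ) :
    ∑ r ∈ Finset.range q, (f (r : ℤ) + f ((r : ℤ) - (q : ℤ))) =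
      ∑ t ∈ Finset.Ico (-(q : ℤ)) q, f t := by
  rw [Finset.sum_add_distrib]
  have h1 : ∑ r ∈ Finset.range q, f (r : ℤ) = ∑ t ∈ Finset.Ico (0 : ℤ) q, f t := by
    have := B1_sum_shift q 0 f
    simpa using this
  have h2 : ∑ r ∈ Finset.range q, f ((r : ℤ) - (q : ℤ)) = ∑ t ∈ Finset.Ico (-(q : ℤ)) 0, f t := by
    have h3 := B1_sum_shift q (-(q : ℤ)) f
    rw [neg_add_cancel] at h3
    rw [← h3]
    refine Finset.sum_congr rfl fun r _ => ?_
    congr 1
    ring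
  rw [h1, h2]
  have h4 : Finset.Ico (-(q : ℤ)) q = Finset.Ico (-(q : ℤ)) 0 ∪ Finset.Ico 0 (q : ℤ) := by
    ext t
    simp only [Finset.mem_union, Finset.mem_Ico]
    omega
  have h5 : Disjoint (Finset.Ico (-(q : ℤ)) 0) (Finset.Ico 0 (q : ℤ)) := by
    rw [Finset.disjoint_left]
    intro t ht ht'
    simp only [Finset.mem_Ico] at ht ht'
    omega
  rw [h4, Finset.sum_union h5, add_comm]

theorem sum_zmod_int (q : ℕ) [NeZero q] (f : ℤ → ℝ) :
    ∑ η : ZMod q, (f (η.val : ℤ) + f ((η.val : ℤ) - q)) = ∑ t ∈ Finset.Ico (-(q : ℤ)) q, f t := by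
  rw [← sum_range_wt]
  refine Finset.sum_nbij' (fun η => η.val) (fun r => (r : ZMod q)) ?_ ?_ ?_ ?_ ?_
  · intro η _
    exact Finset.mem_range.2 (ZMod.val_lt η)
  · intro r _
    exact Finset.mem_univ _
  · intro η _
    exact ZMod.natCast_zmod_val η
  · intro r hr
    exact ZMod.val_natCast_of_lt (Finset.mem_range.1 hr)
  · intro η _
    rfl

theorem wA_sum (q : ℕ) [NeZero q] (G : ℤ → ℝ) :
    ∑ η, wA q G η = q * ∑ t ∈ Finset.Ico (-(q : ℤ)) q, G t := by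
  rw [← sum_zmod_int, Finset.mul_sum]
  refine Finset.sum_congr rfl fun η _ => ?_
  simp only [wA, wt, Bool.false_eq_true, if_false, if_true, sub_zero]
  ring

private theorem B1_qpos (q : ℕ) [NeZero q] : (0 : ℝ) < q := by
  exact_mod_cast Nat.pos_of_ne_zero (NeZero.ne q)

theorem wA_sum_le (q : ℕ) [NeZero q] {H : ℝ} (hH : 0 < H) :
    ∑ η, wA q (gw (H / q) q) η ≤ q := by
  have hq := B1_qpos q
  rw [wA_sum]
  have h1 := gw_sum_le_one (div_pos hH hq) q (Finset.Ico (-(q : ℤ)) q)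
  nlinarith

theorem wA_sum_ge (q : ℕ) [NeZero q] {H : ℝ} (hH : 1 ≤ H) :
    q * (1 - (2 * phi H + 3 * (H / q))) ≤ ∑ η, wA q (gw (H / q) q) η := by
  have hq := B1_qpos q
  rw [wA_sum]
  have e : H / q * q = H := div_mul_cancel₀ H hq.ne'
  have h1 := gw_sum_ge (r := H / q) (div_pos (by linarith) hq) q (by rw [e]; exact hH)
  rw [e] at h1
  refine mul_le_mul_of_nonneg_left ?_ hq.le
  linarith

private theorem B1_gw_le (q : ℕ) [NeZero q] {H : ℝ} (hH : 0 < H) (t : ℤ) :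
    (q : ℝ) * gw (H / q) q t ≤ H / 2 := by
  have hq := B1_qpos q
  have e : H / q * q = H := div_mul_cancel₀ H hq.ne'
  unfold gw
  split_ifs
  · have h1 := phi_le_half (H / q * (|(t : ℝ)| + 1))
    have h2 : 0 < H / q := div_pos hH hq
    calc (q : ℝ) * (H / q * phi (H / q * (|(t : ℝ)| + 1)))
        = (H / q * q) * phi (H / q * (|(t : ℝ)| + 1)) := by ring
      _ = H * phi (H / q * (|(t : ℝ)| + 1)) := by rw [e]
      _ ≤ H * (1 / 2) := mul_le_mul_of_nonneg_left h1 hH.le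
      _ = H / 2 := by ring
  · rw [mul_zero]; linarith

/-- `wA η = H (φ(ρ(r+1)) + φ(ρ(q-r+1)))`, `ρ = H/q`, `r = η.val`, `0 ≤ r < q`; `φ ≤ 1/2`. -/
theorem wA_le (q : ℕ) [NeZero q] {H : ℝ} (hH : 0 < H) (η : ZMod q) :
    wA q (gw (H / q) q) η ≤ H := by
  unfold wA wt
  have h1 := B1_gw_le q hH ((η.val : ℤ) - (if false = true then (q : ℤ) else 0))
  have h2 := B1_gw_le q hH ((η.val : ℤ) - (if true = true then (q : ℤ) else 0))
  linarith

private theorem B1_exp {H x : ℝ} (hH : 3 ≤ H) (hx0 : 0 ≤ x) (hx : x ≤ H / 2 + 1) :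
    Real.exp (-(H ^ 2)) ≤ H * phi x := by
  have h1 := phi_ge x
  have h2 : Real.exp (-(H ^ 2)) ≤ Real.exp (-(x ^ 2) / 2) := by
    apply Real.exp_le_exp.2
    nlinarith
  have h3 : 0 < Real.exp (-(x ^ 2) / 2) := Real.exp_pos _
  nlinarith

private theorem B1_gw_ge (q : ℕ) [NeZero q] {H : ℝ} (hH : 3 ≤ H) (hq : H ≤ q) (t : ℤ)
    (ht : 2 * |t| ≤ (q : ℤ)) : Real.exp (-(H ^ 2)) ≤ (q : ℝ) * gw (H / q) q t := by
  have hq0 := B1_qpos q
  have e : H / q * q = H := div_mul_cancel₀ H hq0.ne'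
  have ht' : |t| ≤ (q : ℤ) := by
    have := abs_nonneg t
    omega
  rw [gw_eq ht']
  have h2 : 0 < H / q := div_pos (by linarith) hq0
  have h3 : H / q ≤ 1 := (div_le_one hq0).2 hq
  have h4 : 2 * |(t : ℝ)| ≤ q := by exact_mod_cast ht
  have h5 : H / q * (|(t : ℝ)| + 1) ≤ H / 2 + 1 := by
    have h6 : H / q * (2 * |(t : ℝ)|) ≤ H / q * q := mul_le_mul_of_nonneg_left h4 h2.le
    rw [e] at h6
    linarith
  have h7 := B1_exp hH (mul_nonneg h2.le (add_nonneg (abs_nonneg _) zero_le_one)) h5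
  calc Real.exp (-(H ^ 2)) ≤ H * phi (H / q * (|(t : ℝ)| + 1)) := h7
    _ = (H / q * q) * phi (H / q * (|(t : ℝ)| + 1)) := by rw [e]
    _ = (q : ℝ) * (H / q * phi (H / q * (|(t : ℝ)| + 1))) := by ring

/-- the smaller one of `r`, `q - r` is `≤ q/2`, so `wA η ≥ H φ(H/2 + 1) ≥ e^{-H²}`. -/
theorem wA_ge (q : ℕ) [NeZero q] {H : ℝ} (hH : 3 ≤ H) (hq : H ≤ q) (η : ZMod q) :
    Real.exp (-(H ^ 2)) ≤ wA q (gw (H / q) q) η := by
  have hq0 := B1_qpos q
  have h0 : 0 ≤ H / q := div_nonneg (by linarith) hq0.le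
  have hlt : η.val < q := ZMod.val_lt η
  unfold wA wt
  simp only [Bool.false_eq_true, if_false, if_true, sub_zero]
  have hn1 : 0 ≤ (q : ℝ) * gw (H / q) q (η.val : ℤ) := mul_nonneg hq0.le (gw_nonneg h0 _ _)
  have hn2 : 0 ≤ (q : ℝ) * gw (H / q) q ((η.val : ℤ) - q) := mul_nonneg hq0.le (gw_nonneg h0 _ _)
  rcases le_total (2 * η.val) q with h | h
  · have h1 := B1_gw_ge q hH hq (η.val : ℤ) (by rw [abs_of_nonneg (by positivity)]; exact_mod_cast h)
    linarith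
  · have h1 := B1_gw_ge q hH hq ((η.val : ℤ) - q) (by
      rw [abs_of_nonpos (by omega)]
      omega)
    linarith

end Crest.Agent.CVD
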