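import Crest.Agent.CVD_B1

/-! # CVD_B1c (S0347 part D2): the relative entropy of one coarse coordinate is large -/

set_option autoImplicit false
open Finset Crest.Agent.CV

namespace Crest.Agent.CVD

/-- `wA η = q G(r) + q G(r - q)` with `wA η ≥ q G(t)` for `t = r` and `t = r - q`; so (`sum_zmod_int`)
`∑ wA log wA ≥ q ∑_{t ∈ [-q,q)} G(t) log (q G(t))` and `q G(t) = H φ(w)`, `w = ρ(|t|+1)`,
`log (H φ(w)) ≥ log H - 1 - w²/2` (`log_phi_ge`), `∑ G(t) w² ≤ 4` (`gw_second`). -/
theorem wA_log_sum (q : ℕ) [NeZero q] {H : ℝ} (hH : 1 ≤ H) :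
    (∑ η, wA q (gw (H / q) q) η) * (Real.log H - 1) - 2 * q ≤
      ∑ η, wA q (gw (H / q) q) η * Real.log (wA q (gw (H / q) q) η) := by
  classical
  set G : ℤ → ℝ := gw (H / q) q with hG
  have hq0 : 0 < (q : ℝ) := by
    have := NeZero.pos q
    exact_mod_cast this
  have hH0 : 0 < H := by linarith
  have hr : 0 < H / q := div_pos hH0 hq0
  have hGn : ∀ t, 0 ≤ G t := fun t => gw_nonneg hr.le q t
  -- superadditivity
  have hsup : ∀ a b : ℝ, 0 ≤ a → 0 ≤ b →
      a * Real.log a + b * Real.log b ≤ (a + b) * Real.log (a + b) := by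
    intro a b ha hb
    rcases ha.eq_or_lt with h | ha'
    · subst h; simp
    rcases hb.eq_or_lt with h | hb'
    · subst h; simp
    have h1 : Real.log a ≤ Real.log (a + b) := Real.log_le_log ha' (by linarith)
    have h2 : Real.log b ≤ Real.log (a + b) := Real.log_le_log hb' (by linarith)
    nlinarith
  have h1 : ∑ t ∈ Finset.Ico (-(q : ℤ)) q, (q * G t) * Real.log (q * G t) ≤
      ∑ η : ZMod q, wA q G η * Real.log (wA q G η) := by
    rw [← sum_zmod_int q (fun t => (q * G t) * Real.log (q * G t))]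
    apply Finset.sum_le_sum
    intro η _
    have := hsup (q * G (η.val : ℤ)) (q * G ((η.val : ℤ) - q))
      (mul_nonneg hq0.le (hGn _)) (mul_nonneg hq0.le (hGn _))
    simpa [wA, wt] using this
  have h2 : ∀ t ∈ Finset.Ico (-(q : ℤ)) q,
      q * (G t * (Real.log H - 1)) - q / 2 * (G t * ((H / q) * (|(t : ℝ)| + 1)) ^ 2) ≤
        (q * G t) * Real.log (q * G t) := by
    intro t ht
    rw [Finset.mem_Ico] at ht
    have habs : |t| ≤ (q : ℤ) := abs_le.2 ⟨ht.1, ht.2.le⟩
    have e : G t = (H / q) * phi ((H / q) * (|(t : ℝ)| + 1)) := gw_eq habs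
    set w := (H / q) * (|(t : ℝ)| + 1) with hw
    have e2 : q * G t = H * phi w := by
      rw [e]; field_simp
    have h3 : Real.log (q * G t) = Real.log H + Real.log (phi w) := by
      rw [e2, Real.log_mul hH0.ne' (phi_pos w).ne']
    have h4 := log_phi_ge w
    have h5 : 0 ≤ q * G t := mul_nonneg hq0.le (hGn _)
    have h6 : Real.log H - 1 - w ^ 2 / 2 ≤ Real.log (q * G t) := by rw [h3]; linarith
    calc q * (G t * (Real.log H - 1)) - q / 2 * (G t * w ^ 2)
        = (q * G t) * (Real.log H - 1 - w ^ 2 / 2) := by ring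
      _ ≤ (q * G t) * Real.log (q * G t) := mul_le_mul_of_nonneg_left h6 h5
  have h3 := Finset.sum_le_sum h2
  rw [Finset.sum_sub_distrib, ← Finset.mul_sum, ← Finset.mul_sum, ← Finset.sum_mul] at h3
  have h4 := gw_second hr q (Finset.Ico (-(q : ℤ)) q)
  rw [← hG] at h4
  rw [wA_sum]
  have h5 : (q : ℝ) / 2 * ∑ t ∈ Finset.Ico (-(q : ℤ)) q, G t * ((H / q) * (|(t : ℝ)| + 1)) ^ 2
      ≤ q / 2 * 4 := mul_le_mul_of_nonneg_left h4 (by positivity)
  have h6 : (q : ℝ) * (∑ t ∈ Finset.Ico (-(q : ℤ)) q, G t) * (Real.log H - 1)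
      = q * ((∑ t ∈ Finset.Ico (-(q : ℤ)) q, G t) * (Real.log H - 1)) := by ring
  rw [h6]
  linarith

end Crest.Agent.CVD
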