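import Crest.Agent.CVD_B1

/-! # CVD_B1d (S0347 part D2): the two rows of one coarse coordinate are balanced with
probability `≥ c e^{-H²/8}/H` -/

set_option autoImplicit false
open Finset Crest.Agent.CV

namespace Crest.Agent.CVD

/-- For the residues `r ∈ [q/2, q/2 + q/H²]` (at least `q/H² - 1 ≥ q/(2H²)` many, all `< q`)
both `wt = H φ(ρ(|t|+1))`, `t = r, r - q`, have `ρ(|t|+1) ≤ H/2 + 1/H + ρ ≤ H/2 + 2/H`, so they
are `≥ H/3 · e^{-H²/8 - 1 - 2/H²}` (`phi_ge`, `phi_le_phi`).  Total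
`≥ q/(2H²) · (H/3) · e^{-H²/8} · e^{-1.3} ≥ q e^{-H²/8}/(200 H)`. -/
theorem wA_min_sum (q : ℕ) [NeZero q] {H : ℝ} (hH : 3 ≤ H) (hq : 2 * H ^ 2 ≤ q) :
    q * (Real.exp (-(H ^ 2) / 8) / (200 * H)) ≤
      ∑ η, min (wt q (gw (H / q) q) η false) (wt q (gw (H / q) q) η true) := by
  classical
  have hq0 : 0 < (q : ℝ) := by
    have := NeZero.pos q
    exact_mod_cast this
  have hH0 : 0 < H := by linarith
  have hr : 0 < H / q := div_pos hH0 hq0
  have hGn : ∀ t, 0 ≤ gw (H / q) q t := fun t => gw_nonneg hr.le q t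
  set a : ℕ := ⌈(q : ℝ) / 2⌉₊ with ha
  set b : ℕ := ⌊(q : ℝ) / 2 + q / H ^ 2⌋₊ with hb
  have hqH : (q : ℝ) / H ^ 2 ≤ q / 9 := by
    apply div_le_div_of_nonneg_left hq0.le (by norm_num)
    nlinarith
  have hbq : b < q := by
    have h1 : (b : ℝ) ≤ (q : ℝ) / 2 + q / H ^ 2 := Nat.floor_le (by positivity)
    have h2 : (b : ℝ) < q := by linarith
    exact_mod_cast h2
  have hinj : Set.InjOn (fun n : ℕ => (n : ZMod q)) (Finset.Icc a b : Set ℕ) := by
    intro m hm n hn h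
    simp only [Finset.coe_Icc, Set.mem_Icc] at hm hn
    have h1 := ZMod.val_natCast_of_lt (lt_of_le_of_lt hm.2 hbq)
    have h2 := ZMod.val_natCast_of_lt (lt_of_le_of_lt hn.2 hbq)
    simp only at h
    rw [← h1, ← h2, h]
  set F : ZMod q → ℝ := fun η => min (wt q (gw (H / q) q) η false) (wt q (gw (H / q) q) η true)
    with hF
  have hF0 : ∀ η, 0 ≤ F η := by
    intro η
    apply le_min
    · exact mul_nonneg hq0.le (hGn _)
    · exact mul_nonneg hq0.le (hGn _)
  set lb : ℝ := H / 3 * Real.exp (-(H ^ 2) / 8 - 7 / 8) with hlb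
  have hkey : ∀ x : ℝ, |x| ≤ H / 2 + 3 / (2 * H) → lb ≤ H * phi x := by
    intro x hx
    have h1 := phi_ge x
    have h2 : x ^ 2 ≤ H ^ 2 / 4 + 7 / 4 := by
      have h3 : x ^ 2 ≤ (H / 2 + 3 / (2 * H)) ^ 2 := by
        rw [← sq_abs x]
        exact pow_le_pow_left₀ (abs_nonneg _) hx 2
      have h4 : (H / 2 + 3 / (2 * H)) ^ 2 = H ^ 2 / 4 + 3 / 2 + 9 / (4 * H ^ 2) := by
        field_simp; ring
      have h5 : 9 / (4 * H ^ 2) ≤ 1 / 4 := by
        rw [div_le_div_iff₀ (by positivity) (by norm_num)]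
        nlinarith
      linarith
    have h3 : Real.exp (-(H ^ 2) / 8 - 7 / 8) ≤ Real.exp (-(x ^ 2) / 2) := by
      apply Real.exp_le_exp.2
      linarith
    calc lb = H * (1 / 3 * Real.exp (-(H ^ 2) / 8 - 7 / 8)) := by rw [hlb]; ring
      _ ≤ H * (1 / 3 * Real.exp (-(x ^ 2) / 2)) := by gcongr
      _ ≤ H * phi x := mul_le_mul_of_nonneg_left h1 hH0.le
  have hterm : ∀ n ∈ Finset.Icc a b, lb ≤ F (n : ZMod q) := by
    intro n hn
    rw [Finset.mem_Icc] at hn
    have hnq : n < q := lt_of_le_of_lt hn.2 hbq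
    have hval : ((n : ZMod q)).val = n := ZMod.val_natCast_of_lt hnq
    have hn1 : (q : ℝ) / 2 ≤ n := by
      have := Nat.le_ceil ((q : ℝ) / 2)
      have h2 : ((a : ℕ) : ℝ) ≤ n := by exact_mod_cast hn.1
      linarith
    have hn2 : (n : ℝ) ≤ (q : ℝ) / 2 + q / H ^ 2 := by
      have h1 : (b : ℝ) ≤ (q : ℝ) / 2 + q / H ^ 2 := Nat.floor_le (by positivity)
      have h2 : (n : ℝ) ≤ b := by exact_mod_cast hn.2
      linarith
    have hqle : H / q ≤ 1 / (2 * H) := by
      rw [div_le_div_iff₀ hq0 (by positivity)]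
      nlinarith
    have e3 : H / q * ((q : ℝ) / 2 + q / H ^ 2 + 1) = H / 2 + 1 / H + H / q := by
      field_simp
    have e4 : 1 / H + 1 / (2 * H) = 3 / (2 * H) := by field_simp; norm_num
    apply le_min
    · unfold wt
      rw [hval]
      simp only [Bool.false_eq_true, if_false, sub_zero]
      rw [gw_eq (by rw [abs_of_nonneg (by positivity)]; exact_mod_cast hnq.le)]
      have e : (q : ℝ) * (H / q * phi (H / q * (|((n : ℤ) : ℝ)| + 1))) =
        H * phi (H / q * (|((n : ℤ) : ℝ)| + 1)) := by field_simp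
      rw [e]
      apply hkey
      have h1 : |((n : ℤ) : ℝ)| = n := by
        rw [abs_of_nonneg] <;> simp
      rw [h1, abs_of_nonneg (by positivity)]
      calc H / q * ((n : ℝ) + 1) ≤ H / q * ((q : ℝ) / 2 + q / H ^ 2 + 1) := by gcongr
        _ = H / 2 + 1 / H + H / q := e3
        _ ≤ H / 2 + 3 / (2 * H) := by linarith
    · unfold wt
      rw [hval]
      simp only [if_true]
      have h0 : |(n : ℤ) - q| = q - n := by
        have h00 : (n : ℤ) < q := by exact_mod_cast hnq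
        rw [abs_of_nonpos (by linarith)]
        ring
      rw [gw_eq (by rw [h0]; linarith [Int.natCast_nonneg n])]
      have e : ∀ x, (q : ℝ) * (H / q * phi x) = H * phi x := by intro x; field_simp
      rw [e]
      apply hkey
      have h1 : |(((n : ℤ) - q : ℤ) : ℝ)| = q - n := by
        have : |(((n : ℤ) - q : ℤ) : ℝ)| = ((|(n : ℤ) - q| : ℤ) : ℝ) := by push_cast; rfl
        rw [this, h0]; push_cast; rfl
      rw [h1]
      have hnq' : (n : ℝ) < q := by exact_mod_cast hnq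
      rw [abs_of_nonneg (by apply mul_nonneg hr.le; linarith)]
      calc H / q * ((q : ℝ) - n + 1) ≤ H / q * ((q : ℝ) / 2 + q / H ^ 2 + 1) := by
            apply mul_le_mul_of_nonneg_left _ hr.le
            have : 0 ≤ (q : ℝ) / H ^ 2 := by positivity
            linarith
        _ = H / 2 + 1 / H + H / q := e3
        _ ≤ H / 2 + 3 / (2 * H) := by linarith
  have hsum : ∑ n ∈ Finset.Icc a b, F (n : ZMod q) ≤ ∑ η, F η := by
    rw [← Finset.sum_image (f := F) (g := fun n : ℕ => (n : ZMod q)) hinj]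
    exact Finset.sum_le_sum_of_subset_of_nonneg (Finset.subset_univ _) (fun η _ _ => hF0 η)
  have hcard : (q : ℝ) / (2 * H ^ 2) ≤ ((Finset.Icc a b).card : ℝ) := by
    rw [Nat.card_Icc]
    have h1 : (q : ℝ) / 2 + q / H ^ 2 < b + 1 := Nat.lt_floor_add_one _
    have h2 : (a : ℝ) < (q : ℝ) / 2 + 1 := Nat.ceil_lt_add_one (by positivity)
    have h3 : 2 ≤ (q : ℝ) / H ^ 2 := by
      rw [le_div_iff₀ (by positivity)]; exact hq
    have h4 : a ≤ b + 1 := by
      have : (a : ℝ) ≤ b + 1 := by linarith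
      exact_mod_cast this
    rw [Nat.cast_sub h4]
    push_cast
    have h5 : (q : ℝ) / (2 * H ^ 2) = q / H ^ 2 / 2 := by field_simp
    rw [h5]
    linarith
  have hlb0 : 0 ≤ lb := by positivity
  have h1 : (q : ℝ) / (2 * H ^ 2) * lb ≤ ∑ η, F η := by
    calc (q : ℝ) / (2 * H ^ 2) * lb ≤ ((Finset.Icc a b).card : ℝ) * lb :=
          mul_le_mul_of_nonneg_right hcard hlb0
      _ = ∑ n ∈ Finset.Icc a b, lb := by rw [Finset.sum_const, nsmul_eq_mul]
      _ ≤ ∑ n ∈ Finset.Icc a b, F (n : ZMod q) := Finset.sum_le_sum hterm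
      _ ≤ _ := hsum
  refine le_trans ?_ h1
  have h2 : Real.exp (-(H ^ 2) / 8 - 7 / 8) = Real.exp (-(H ^ 2) / 8) * Real.exp (-(7 / 8)) := by
    rw [← Real.exp_add]; rfl
  have h3 : 1 / 8 ≤ Real.exp (-(7 / 8)) := by
    have := Real.add_one_le_exp (-(7 / 8) : ℝ)
    linarith
  rw [hlb, h2]
  have h4 := Real.exp_pos (-(H ^ 2) / 8)
  calc (q : ℝ) * (Real.exp (-(H ^ 2) / 8) / (200 * H))
      ≤ q * (Real.exp (-(H ^ 2) / 8) / (48 * H)) := by gcongr; norm_num
    _ = (q : ℝ) / (2 * H ^ 2) * (H / 3 * (Real.exp (-(H ^ 2) / 8) * (1 / 8))) := by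
        field_simp
        try norm_num
    _ ≤ _ := by gcongr

end Crest.Agent.CVD
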