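import Mathlib

/-! # CVD_Cheb (S0347 part D2): Chebyshev's inequality for product weights -/

set_option autoImplicit false
open Finset

namespace Crest.Agent.CVD

private theorem second_moment {V : Type} [Fintype V] [DecidableEq V] (a : V → ℝ) (s : ℝ)
    (hs : ∑ v, a v = s) (h : V → ℝ) (h0 : ∑ v, a v * h v = 0) (k : ℕ) :
    ∑ η : Fin k → V, (∏ l, a (η l)) * (∑ l, h (η l)) ^ 2 =
      k * s ^ (k - 1) * ∑ v, a v * h v ^ 2 := by
  have hexp : ∀ η : Fin k → V, (∏ l, a (η l)) * (∑ l, h (η l)) ^ 2 =
      ∑ i : Fin k, ∑ j : Fin k, (∏ l, a (η l)) * (h (η i) * h (η j)) := by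
    intro η
    rw [sq, Finset.sum_mul_sum, Finset.mul_sum]
    apply Finset.sum_congr rfl
    intro i _
    rw [Finset.mul_sum]
  simp_rw [hexp]
  rw [Finset.sum_comm]
  have hterm : ∀ i : Fin k, ∑ η : Fin k → V, ∑ j : Fin k, (∏ l, a (η l)) * (h (η i) * h (η j)) =
      s ^ (k - 1) * ∑ v, a v * h v ^ 2 := by
    intro i
    rw [Finset.sum_comm]
    rw [Finset.sum_eq_single i]
    · -- diagonal
      have e : ∀ η : Fin k → V, (∏ l, a (η l)) * (h (η i) * h (η i)) =
          ∏ l, (if l = i then a (η l) * h (η l) ^ 2 else a (η l)) := by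
        intro η
        rw [← Finset.mul_prod_erase Finset.univ _ (Finset.mem_univ i),
          ← Finset.mul_prod_erase Finset.univ (fun l => if l = i then a (η l) * h (η l) ^ 2 else a (η l))
            (Finset.mem_univ i)]
        rw [if_pos rfl]
        have : ∏ x ∈ Finset.univ.erase i, (if x = i then a (η x) * h (η x) ^ 2 else a (η x)) =
            ∏ x ∈ Finset.univ.erase i, a (η x) := by
          apply Finset.prod_congr rfl
          intro x hx
          rw [if_neg (Finset.ne_of_mem_erase hx)]
        rw [this]; ring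
      simp_rw [e]
      have key := (Finset.prod_univ_sum (fun _ : Fin k => (Finset.univ : Finset V))
        (fun l v => if l = i then a v * h v ^ 2 else a v)).symm
      rw [Fintype.piFinset_univ] at key
      rw [key, ← Finset.mul_prod_erase Finset.univ _ (Finset.mem_univ i)]
      simp only [if_true]
      have : ∏ x ∈ Finset.univ.erase i, (∑ v, if x = i then a v * h v ^ 2 else a v) =
          s ^ (k - 1) := by
        rw [Finset.prod_congr rfl (g := fun _ => s)]
        · rw [Finset.prod_const, Finset.card_erase_of_mem (Finset.mem_univ i), Finset.card_univ,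
            Fintype.card_fin]
        · intro x hx
          simp only [if_neg (Finset.ne_of_mem_erase hx), hs]
      rw [this]; ring
    · -- off diagonal
      intro j _ hji
      have e : ∀ η : Fin k → V, (∏ l, a (η l)) * (h (η i) * h (η j)) =
          ∏ l, (if l = i then a (η l) * h (η l) else if l = j then a (η l) * h (η l) else a (η l)) := by
        intro η
        have hj : j ∈ Finset.univ.erase i := Finset.mem_erase.2 ⟨hji, Finset.mem_univ _⟩
        rw [← Finset.mul_prod_erase Finset.univ _ (Finset.mem_univ i),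
          ← Finset.mul_prod_erase Finset.univ (fun l => if l = i then a (η l) * h (η l) else
            if l = j then a (η l) * h (η l) else a (η l)) (Finset.mem_univ i),
          ← Finset.mul_prod_erase (Finset.univ.erase i) _ hj,
          ← Finset.mul_prod_erase (Finset.univ.erase i) (fun l => if l = i then a (η l) * h (η l) else
            if l = j then a (η l) * h (η l) else a (η l)) hj]
        rw [if_pos rfl, if_neg hji, if_pos rfl]
        have : ∏ x ∈ (Finset.univ.erase i).erase j, (if x = i then a (η x) * h (η x) else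
            if x = j then a (η x) * h (η x) else a (η x)) =
            ∏ x ∈ (Finset.univ.erase i).erase j, a (η x) := by
          apply Finset.prod_congr rfl
          intro x hx
          rw [if_neg (Finset.ne_of_mem_erase (Finset.mem_of_mem_erase hx)),
            if_neg (Finset.ne_of_mem_erase hx)]
        rw [this]; ring
      simp_rw [e]
      have key := (Finset.prod_univ_sum (fun _ : Fin k => (Finset.univ : Finset V))
        (fun l v => if l = i then a v * h v else if l = j then a v * h v else a v)).symm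
      rw [Fintype.piFinset_univ] at key
      rw [key]
      apply Finset.prod_eq_zero (Finset.mem_univ i)
      simp only [if_true]
      exact h0
    · intro hh; exact absurd (Finset.mem_univ i) hh
  rw [Finset.sum_congr rfl (fun i _ => hterm i), Finset.sum_const, Finset.card_univ,
    Fintype.card_fin, nsmul_eq_mul]
  ring

/-- Chebyshev for the product of the finite weights `a` (total mass `s`):
with `h v = f v - D`, `∑ a h = 0`, so `∑_η (∏ a(η_l)) (∑_l h(η_l))² = k s^{k-1} ∑ a h²
≤ k s^k b²` (the off-diagonal terms vanish, `∑ a h² = ∑ a f² - D² s ≤ b² s`);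
on the filtered set `(∑_l h(η_l))² > d²`. -/
theorem cheb {V : Type} [Fintype V] [DecidableEq V] (a : V → ℝ) (ha : ∀ v, 0 ≤ a v) (s : ℝ)
    (hs : ∑ v, a v = s) (hs0 : 0 < s) (f : V → ℝ) (b : ℝ) (hb : ∀ v, |f v| ≤ b) (D : ℝ)
    (hD : ∑ v, a v * f v = D * s) (k : ℕ) (d : ℝ) (hd : 0 < d) :
    ∑ η ∈ Finset.univ.filter (fun η : Fin k → V => d < |∑ l, f (η l) - k * D|), ∏ l, a (η l) ≤
      s ^ k * (k * b ^ 2 / d ^ 2) := by
  set h : V → ℝ := fun v => f v - D with hh
  have h0 : ∑ v, a v * h v = 0 := by
    simp only [hh, mul_sub, Finset.sum_sub_distrib]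
    rw [hD, ← Finset.sum_mul, hs]; ring
  have hm := second_moment a s hs h h0 k
  have hv : ∑ v, a v * h v ^ 2 ≤ b ^ 2 * s := by
    have e : ∑ v, a v * h v ^ 2 = ∑ v, a v * f v ^ 2 - D ^ 2 * s := by
      have : ∀ v, a v * h v ^ 2 = a v * f v ^ 2 - 2 * D * (a v * f v) + D ^ 2 * a v := by
        intro v; simp only [hh]; ring
      simp_rw [this]
      rw [Finset.sum_add_distrib, Finset.sum_sub_distrib, ← Finset.mul_sum, ← Finset.mul_sum, hD, hs]
      ring
    have e2 : ∑ v, a v * f v ^ 2 ≤ b ^ 2 * s := by
      rw [← hs, Finset.mul_sum]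
      apply Finset.sum_le_sum
      intro v _
      have : f v ^ 2 ≤ b ^ 2 := by
        rw [← sq_abs (f v)]
        exact pow_le_pow_left₀ (abs_nonneg _) (hb v) 2
      nlinarith [ha v]
    rw [e]
    have : 0 ≤ D ^ 2 * s := by positivity
    linarith
  have h1 : d ^ 2 * ∑ η ∈ Finset.univ.filter (fun η : Fin k → V => d < |∑ l, f (η l) - k * D|),
      ∏ l, a (η l) ≤ ∑ η : Fin k → V, (∏ l, a (η l)) * (∑ l, h (η l)) ^ 2 := by
    rw [Finset.mul_sum]
    refine le_trans ?_ (Finset.sum_le_sum_of_subset_of_nonneg (Finset.filter_subset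
      (fun η : Fin k → V => d < |∑ l, f (η l) - k * D|) Finset.univ) ?_)
    · apply Finset.sum_le_sum
      intro η hη
      rw [Finset.mem_filter] at hη
      have hp : 0 ≤ ∏ l, a (η l) := Finset.prod_nonneg fun l _ => ha _
      have e : ∑ l, h (η l) = ∑ l, f (η l) - k * D := by
        simp only [hh, Finset.sum_sub_distrib, Finset.sum_const, Finset.card_univ, Fintype.card_fin,
          nsmul_eq_mul]
      have h2 : d ^ 2 ≤ (∑ l, h (η l)) ^ 2 := by
        rw [e, ← sq_abs (∑ l, f (η l) - k * D)]
        exact pow_le_pow_left₀ hd.le hη.2.le 2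
      rw [mul_comm]
      exact mul_le_mul_of_nonneg_left h2 hp
    · intro η _ _
      exact mul_nonneg (Finset.prod_nonneg fun l _ => ha _) (sq_nonneg _)
  have h2 : (k : ℝ) * s ^ (k - 1) * ∑ v, a v * h v ^ 2 ≤ k * s ^ k * b ^ 2 := by
    rcases Nat.eq_zero_or_pos k with hk | hk
    · subst hk; simp
    · have : s ^ k = s ^ (k - 1) * s := by
        rw [← pow_succ, Nat.sub_add_cancel hk]
      rw [this]
      calc (k : ℝ) * s ^ (k - 1) * ∑ v, a v * h v ^ 2 ≤ k * s ^ (k - 1) * (b ^ 2 * s) := by
            gcongr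
        _ = _ := by ring
  have hd2 : 0 < d ^ 2 := by positivity
  have h3 := h1.trans (hm.le.trans h2)
  have e : s ^ k * (k * b ^ 2 / d ^ 2) = (k * s ^ k * b ^ 2) / d ^ 2 := by ring
  rw [e, le_div_iff₀ hd2, mul_comm]
  exact h3

end Crest.Agent.CVD
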