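import Crest.Agent.CVD_Defs
import Crest.Agent.CVD_Cheb

/-! # CVD_B2 (S0347 part D2): typical fibres -/

set_option autoImplicit false
open Finset Crest.Agent.CV

namespace Crest.Agent.CVD

/-- `typ = {η : |∑ log wA(η_l) - kD| ≤ d and c ≤ ∑ m(η_l)}`, `m(η) = min(wt false, wt true)/wA`.
Put `a = wA/q`, `s = ∑ a ∈ [1-δ, 1]`; `∑_η ∏ a(η_l) = s^k ≥ (1-δ)^k ≥ 1 - kδ` (Bernoulli).
`cheb` for `f = log wA` (bound `b`) and for `f = m` (bound `1 ≤ b`, mean
`E₂ = ∑ a m / s ≥ e/s ≥ e`, so `∑ m(η_l) < c ≤ k e - d` implies `|∑ m - k E₂| > d`):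
the two bad sets have mass `≤ k b²/d²` each (`s ≤ 1`).
`Th = exp (∑ log wA)`.  `max(wt false, wt true) = wA - min = wA (1 - m) ≤ wA e^{-m}`. -/
theorem typ_block {q : ℕ} [NeZero q] (G : ℤ → ℝ) (hG : ∀ t, 0 ≤ G t) (k : ℕ)
    (b δ D e c d : ℝ) (hb1 : 1 ≤ b) (hd : 0 < d) (hδ0 : 0 ≤ δ) (hδ1 : δ < 1)
    (hpos : ∀ η, 0 < wA q G η) (hsum : ∑ η, wA q G η ≤ q)
    (hsum' : q * (1 - δ) ≤ ∑ η, wA q G η)
    (hlog : ∀ η, |Real.log (wA q G η)| ≤ b)
    (hD : ∑ η, wA q G η * Real.log (wA q G η) = D * ∑ η, wA q G η)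
    (he : q * e ≤ ∑ η, min (wt q G η false) (wt q G η true)) (hke : c + d ≤ k * e) :
    ∃ typ : Finset (Fin k → ZMod q),
      (1 - (k * δ + 2 * (k * b ^ 2 / d ^ 2))) * (q : ℝ) ^ k ≤ ∑ η ∈ typ, Th q G η ∧
      ∀ η ∈ typ, Real.exp (k * D - d) ≤ Th q G η ∧ Th q G η ≤ Real.exp (k * D + d) ∧
        ∏ l, max (wt q G (η l) false) (wt q G (η l) true) ≤ Real.exp (-c) * Th q G η := by
  classical
  have hq0 : (0 : ℝ) < q := by
    have := Nat.pos_of_ne_zero (NeZero.ne q)
    exact_mod_cast this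
  have hwt : ∀ η e, 0 ≤ wt q G η e := fun η e => mul_nonneg hq0.le (hG _)
  let a : ZMod q → ℝ := fun η => wA q G η / q
  let m : ZMod q → ℝ := fun η => min (wt q G η false) (wt q G η true) / wA q G η
  obtain ⟨s, hs⟩ : ∃ s, ∑ v, a v = s := ⟨_, rfl⟩
  have hsq : s * q = ∑ v, wA q G v := by
    rw [← hs, Finset.sum_mul]
    exact Finset.sum_congr rfl fun v _ => div_mul_cancel₀ _ hq0.ne'
  have ha : ∀ v, 0 ≤ a v := fun v => div_nonneg (hpos v).le hq0.le
  have hs1 : s ≤ 1 := by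
    rw [← hsq] at hsum
    by_contra h
    have h := not_le.1 h
    nlinarith
  have hsδ : 1 - δ ≤ s := by
    rw [← hsq] at hsum'
    by_contra h
    have h := not_le.1 h
    nlinarith
  have hs0 : 0 < s := by linarith
  have hm0 : ∀ v, 0 ≤ m v := fun v =>
    div_nonneg (le_min (hwt v false) (hwt v true)) (hpos v).le
  have hmin_le : ∀ v, min (wt q G v false) (wt q G v true) ≤ wA q G v := by
    intro v
    refine (min_le_left _ _).trans ?_
    unfold wA
    linarith [hwt v true]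
  have hm1 : ∀ v, m v ≤ 1 := fun v => (div_le_one (hpos v)).2 (hmin_le v)
  -- the two Chebyshev bounds
  have hD' : ∑ v, a v * Real.log (wA q G v) = D * s := by
    have h1 : ∑ v, a v * Real.log (wA q G v) =
        (∑ v, wA q G v * Real.log (wA q G v)) / q := by
      rw [Finset.sum_div]
      exact Finset.sum_congr rfl fun v _ => by
        show wA q G v / q * _ = _
        ring
    rw [h1, hD, ← hsq]
    field_simp
  have c1 := cheb a ha s hs hs0 (fun v => Real.log (wA q G v)) b hlog D hD' k d hd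
  obtain ⟨E, hE⟩ : ∃ E, E = (∑ v, a v * m v) / s := ⟨_, rfl⟩
  have hE' : ∑ v, a v * m v = E * s := by rw [hE, div_mul_cancel₀ _ hs0.ne']
  have c2 := cheb a ha s hs hs0 m b (fun v => by
    rw [abs_of_nonneg (hm0 v)]
    exact (hm1 v).trans hb1) E hE' k d hd
  have ham : ∑ v, a v * m v = (∑ v, min (wt q G v false) (wt q G v true)) / q := by
    rw [Finset.sum_div]
    refine Finset.sum_congr rfl fun v _ => ?_
    show wA q G v / q * (min (wt q G v false) (wt q G v true) / wA q G v) = _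
    have := (hpos v).ne'
    field_simp
  have hEe : e ≤ E := by
    have h1 : e ≤ ∑ v, a v * m v := by
      rw [ham, le_div_iff₀ hq0]
      linarith
    have h2 : 0 ≤ ∑ v, a v * m v := Finset.sum_nonneg fun v _ => mul_nonneg (ha v) (hm0 v)
    rw [hE, le_div_iff₀ hs0]
    rcases le_or_gt e 0 with h | h
    · nlinarith
    · nlinarith
  -- the product
  have hprod : ∀ η : Fin k → ZMod q, ∏ l, a (η l) = Th q G η / (q : ℝ) ^ k := by
    intro η
    show ∏ l, wA q G (η l) / q = _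
    rw [Finset.prod_div_distrib, Finset.prod_const, Finset.card_univ, Fintype.card_fin]
    rfl
  have hTh : ∀ η : Fin k → ZMod q, Th q G η = Real.exp (∑ l, Real.log (wA q G (η l))) := by
    intro η
    rw [Real.exp_sum]
    exact Finset.prod_congr rfl fun l _ => (Real.exp_log (hpos _)).symm
  have htot : ∑ η : Fin k → ZMod q, ∏ l, a (η l) = s ^ k := by
    rw [← hs, Fintype.sum_pow]
  have hpi : ∀ η : Fin k → ZMod q, 0 ≤ ∏ l, a (η l) := fun η =>
    Finset.prod_nonneg fun l _ => ha _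
  set B₁ := Finset.univ.filter (fun η : Fin k → ZMod q =>
    d < |∑ l, Real.log (wA q G (η l)) - k * D|) with hB₁
  set B₂ := Finset.univ.filter (fun η : Fin k → ZMod q => d < |∑ l, m (η l) - k * E|) with hB₂
  have hsk1 : s ^ k ≤ 1 := pow_le_one₀ hs0.le hs1
  have hx0 : 0 ≤ k * b ^ 2 / d ^ 2 := by positivity
  have hbad : ∑ η ∈ B₁ ∪ B₂, ∏ l, a (η l) ≤ 2 * (k * b ^ 2 / d ^ 2) := by
    have h1 : ∑ η ∈ B₁ ∪ B₂, ∏ l, a (η l) ≤ ∑ η ∈ B₁, ∏ l, a (η l) + ∑ η ∈ B₂, ∏ l, a (η l) := by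
      rw [← Finset.sum_union_inter]
      exact le_add_of_nonneg_right (Finset.sum_nonneg fun η _ => hpi η)
    have h2 : s ^ k * (k * b ^ 2 / d ^ 2) ≤ 1 * (k * b ^ 2 / d ^ 2) :=
      mul_le_mul_of_nonneg_right hsk1 hx0
    linarith
  have hbern : 1 - k * δ ≤ s ^ k := by
    have h1 : 1 + (k : ℝ) * (-δ) ≤ (1 + (-δ)) ^ k :=
      one_add_mul_le_pow (by linarith) k
    have h2 : (1 + (-δ)) ^ k ≤ s ^ k := pow_le_pow_left₀ (by linarith) (by linarith) k
    linarith
  refine ⟨(B₁ ∪ B₂)ᶜ, ?_, ?_⟩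
  · have h1 : ∑ η ∈ (B₁ ∪ B₂)ᶜ, ∏ l, a (η l) = s ^ k - ∑ η ∈ B₁ ∪ B₂, ∏ l, a (η l) := by
      rw [← htot, ← Finset.sum_compl_add_sum (B₁ ∪ B₂)]
      ring
    have h2 : ∑ η ∈ (B₁ ∪ B₂)ᶜ, Th q G η = (∑ η ∈ (B₁ ∪ B₂)ᶜ, ∏ l, a (η l)) * (q : ℝ) ^ k := by
      rw [Finset.sum_mul]
      refine Finset.sum_congr rfl fun η _ => ?_
      rw [hprod η, div_mul_cancel₀ _ (by positivity)]
    rw [h2, h1]
    apply mul_le_mul_of_nonneg_right _ (by positivity)
    linarith
  · intro η hη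
    rw [Finset.mem_compl, Finset.mem_union, not_or, hB₁, hB₂, Finset.mem_filter,
      Finset.mem_filter] at hη
    simp only [Finset.mem_univ, true_and, not_lt] at hη
    obtain ⟨h1, h2⟩ := hη
    rw [abs_le] at h1 h2
    have h3 : c ≤ ∑ l, m (η l) := by
      have : (k : ℝ) * e ≤ k * E := mul_le_mul_of_nonneg_left hEe (Nat.cast_nonneg k)
      linarith [h2.1]
    refine ⟨?_, ?_, ?_⟩
    · rw [hTh η]
      exact Real.exp_le_exp.2 (by linarith [h1.1])
    · rw [hTh η]
      exact Real.exp_le_exp.2 (by linarith [h1.2])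
    · have h4 : ∀ v, max (wt q G v false) (wt q G v true) ≤ wA q G v * Real.exp (-m v) := by
        intro v
        have h5 : max (wt q G v false) (wt q G v true) = wA q G v * (1 - m v) := by
          have h6 := min_add_max (wt q G v false) (wt q G v true)
          have h7 : wA q G v * m v = min (wt q G v false) (wt q G v true) :=
            mul_div_cancel₀ _ (hpos v).ne'
          rw [mul_sub, h7, mul_one]
          unfold wA
          linarith
        rw [h5]
        apply mul_le_mul_of_nonneg_left _ (hpos v).le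
        have := Real.add_one_le_exp (-m v)
        linarith
      calc ∏ l, max (wt q G (η l) false) (wt q G (η l) true)
          ≤ ∏ l, wA q G (η l) * Real.exp (-m (η l)) :=
            Finset.prod_le_prod (fun l _ => le_max_of_le_left (hwt _ _)) fun l _ => h4 _
        _ = Th q G η * Real.exp (-∑ l, m (η l)) := by
            rw [Finset.prod_mul_distrib, ← Real.exp_sum, Finset.sum_neg_distrib]
            rfl
        _ ≤ Th q G η * Real.exp (-c) := by
            apply mul_le_mul_of_nonneg_left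
            · exact Real.exp_le_exp.2 (by linarith)
            · exact Finset.prod_nonneg fun l _ => (hpos _).le
        _ = _ := mul_comm _ _

end Crest.Agent.CVD
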