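import Crest.Agent.CVD_B1c
import Crest.Agent.CVD_B1d
import Crest.Agent.CVD_B2

/-! # CVD_B3 (S0347 part D2): the block numbers -/

set_option autoImplicit false
open Finset Crest.Agent.CV

namespace Crest.Agent.CVD

/-- the numeric facts for large `N`, `H = √(48 log N)`. -/
theorem num_H : ∃ N₀ : ℕ, ∀ N : ℕ, N₀ ≤ N → 12 ≤ N ∧ 6 ≤ Real.log (Real.sqrt (48 * Real.log N)) ∧
    (Real.sqrt (48 * Real.log N)) ^ 4 ≤ N := by
  have h1 : ∀ᶠ x : ℝ in Filter.atTop, 6 ≤ Real.log (Real.sqrt (48 * Real.log x)) := by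
    have t : Filter.Tendsto (fun x : ℝ => Real.log (Real.sqrt (48 * Real.log x)))
        Filter.atTop Filter.atTop :=
      Real.tendsto_log_atTop.comp (Real.tendsto_sqrt_atTop.comp
        (Real.tendsto_log_atTop.const_mul_atTop (by norm_num)))
    exact t.eventually_ge_atTop 6
  have h2 : ∀ᶠ x : ℝ in Filter.atTop, (Real.sqrt (48 * Real.log x)) ^ 4 ≤ x := by
    have t := (Real.isLittleO_pow_log_id_atTop (n := 2)).def (show (0 : ℝ) < 1 / 2304 by norm_num)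
    filter_upwards [t, Filter.eventually_ge_atTop (1 : ℝ)] with x hx hx1
    have hl : 0 ≤ Real.log x := Real.log_nonneg hx1
    have e : (Real.sqrt (48 * Real.log x)) ^ 4 = 2304 * Real.log x ^ 2 := by
      have : (Real.sqrt (48 * Real.log x)) ^ 4 = ((Real.sqrt (48 * Real.log x)) ^ 2) ^ 2 := by ring
      rw [this, Real.sq_sqrt (by positivity)]
      ring
    rw [e]
    simp only [Real.norm_eq_abs, id, abs_of_nonneg (sq_nonneg (Real.log x)),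
      abs_of_nonneg (show (0 : ℝ) ≤ x by linarith)] at hx
    linarith
  have h3 := (tendsto_natCast_atTop_atTop (R := ℝ)).eventually (h1.and h2)
  obtain ⟨N₀, hN₀⟩ := Filter.eventually_atTop.mp h3
  exact ⟨max N₀ 12, fun N hN => ⟨le_trans (le_max_right _ _) hN,
    (hN₀ N (le_trans (le_max_left _ _) hN)).1, (hN₀ N (le_trans (le_max_left _ _) hN)).2⟩⟩

/-- a prime `q` with `exp (N^21) ≤ q` and `log q ≤ N^40` -/
theorem exists_q (N : ℕ) (hN : 2 ≤ N) : ∃ q : ℕ, q.Prime ∧ Real.exp ((N : ℝ) ^ 21) ≤ q ∧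
    Real.log q ≤ (N : ℝ) ^ 40 := by
  obtain ⟨Q, hQ⟩ : ∃ Q, Q = ⌈Real.exp ((N : ℝ) ^ 21)⌉₊ := ⟨_, rfl⟩
  have hN' : (2 : ℝ) ≤ N := by exact_mod_cast hN
  have hQ0 : Q ≠ 0 := by
    rw [hQ]
    exact (Nat.ceil_pos.mpr (Real.exp_pos _)).ne'
  obtain ⟨p, hp, hp1, hp2⟩ := Nat.exists_prime_lt_and_le_two_mul Q hQ0
  refine ⟨p, hp, ?_, ?_⟩
  · have h1 : Real.exp ((N : ℝ) ^ 21) ≤ Q := by rw [hQ]; exact Nat.le_ceil _
    have h2 : (Q : ℝ) ≤ p := by exact_mod_cast hp1.le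
    linarith
  · have h1 : (p : ℝ) ≤ 2 * Q := by exact_mod_cast hp2
    have h2 : (Q : ℝ) ≤ Real.exp ((N : ℝ) ^ 21) + 1 := by
      rw [hQ]
      exact (Nat.ceil_lt_add_one (Real.exp_pos _).le).le
    have h3 : (1 : ℝ) ≤ Real.exp ((N : ℝ) ^ 21) := Real.one_le_exp (by positivity)
    have h4 : (4 : ℝ) ≤ Real.exp 2 := by
      have := Real.add_one_le_exp (1 : ℝ)
      have e2 : Real.exp 2 = Real.exp 1 * Real.exp 1 := by rw [← Real.exp_add]; norm_num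
      nlinarith
    have h5 : (p : ℝ) ≤ Real.exp ((N : ℝ) ^ 21 + 2) := by
      rw [Real.exp_add]
      nlinarith
    have hp0 : (0 : ℝ) < p := by exact_mod_cast hp.pos
    have h6 : Real.log p ≤ (N : ℝ) ^ 21 + 2 := by
      rw [← Real.log_exp ((N : ℝ) ^ 21 + 2)]
      exact Real.log_le_log hp0 h5
    have h7 : (N : ℝ) ^ 21 + 2 ≤ (N : ℝ) ^ 40 := by
      have h8 : (2 : ℝ) ^ 1 ≤ (N : ℝ) ^ 1 := by simpa using hN'
      have h9 : (1 : ℝ) ≤ (N : ℝ) ^ 20 := one_le_pow₀ (by linarith)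
      have h10 : (2 : ℝ) ≤ (N : ℝ) ^ 19 := by
        calc (2 : ℝ) ≤ (N : ℝ) := hN'
          _ = (N : ℝ) ^ 1 := (pow_one _).symm
          _ ≤ (N : ℝ) ^ 19 := pow_le_pow_right₀ (by linarith) (by norm_num)
      have h11 : (2 : ℝ) ≤ (N : ℝ) ^ 21 := by
        calc (2 : ℝ) ≤ (N : ℝ) := hN'
          _ = (N : ℝ) ^ 1 := (pow_one _).symm
          _ ≤ (N : ℝ) ^ 21 := pow_le_pow_right₀ (by linarith) (by norm_num)
      have h12 : (N : ℝ) ^ 40 = (N : ℝ) ^ 21 * (N : ℝ) ^ 19 := by rw [← pow_add]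
      rw [h12]
      nlinarith
    linarith

theorem exp_six : (400 : ℝ) ≤ Real.exp 6 := by
  have h := Real.exp_one_gt_d9
  have e : Real.exp 6 = Real.exp 1 ^ 6 := by rw [← Real.exp_nat_mul]; norm_num
  rw [e]
  calc (400 : ℝ) ≤ 2.7182818283 ^ 6 := by norm_num
    _ ≤ Real.exp 1 ^ 6 := pow_le_pow_left₀ (by norm_num) h.le 6

private theorem hHN_aux {N H : ℝ} (h400 : 400 ≤ H) (h4 : H ^ 4 ≤ N) : 400 * H ≤ N := by
  have h1 : H ^ 2 ≤ H ^ 4 := pow_le_pow_right₀ (by linarith) (by norm_num)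
  nlinarith

private theorem exp_log_mul (N : ℕ) (hN : (12 : ℝ) ≤ N) (a : ℕ) :
    Real.exp (a * Real.log N) = (N : ℝ) ^ a := by
  rw [Real.exp_nat_mul, Real.exp_log (by linarith)]

private theorem pow_ge {N : ℝ} (hN : 12 ≤ N) (a : ℕ) (ha : 1 ≤ a) : N ≤ N ^ a := by
  calc N = N ^ 1 := (pow_one _).symm
    _ ≤ N ^ a := pow_le_pow_right₀ (by linarith) ha

private theorem sq_half_le_exp {N : ℝ} (hN : 12 ≤ N) : N ^ 2 / 2 ≤ Real.exp N := by
  have := Real.quadratic_le_exp_of_nonneg (show (0 : ℝ) ≤ N by linarith)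
  linarith

private theorem aux1 {N L : ℝ} (hN : 12 ≤ N) (hL : L ≤ N) : N + 24 * L ≤ N ^ 21 := by
  have h1 : N ^ 21 = N * N ^ 20 := by ring
  have h2 : (25 : ℝ) ≤ N ^ 20 := by
    calc (25 : ℝ) ≤ 12 ^ 20 := by norm_num
      _ ≤ N ^ 20 := pow_le_pow_left₀ (by norm_num) hN 20
  rw [h1]
  have h3 : N * 25 ≤ N * N ^ 20 := mul_le_mul_of_nonneg_left h2 (by linarith)
  linarith

private theorem aux2 (N : ℕ) (q H : ℝ) (hN : (12 : ℝ) ≤ N) (hH : 400 ≤ H) (hHN : 400 * H ≤ N)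
    (hLN : Real.log N ≤ N) (hq : Real.exp ((N : ℝ) ^ 21) ≤ q) :
    2 * H ^ 2 ≤ q ∧ H ≤ q ∧ 3 * (H / q) ≤ ((N : ℝ) ^ 24)⁻¹ := by
  have hq0 : 0 < q := lt_of_lt_of_le (Real.exp_pos _) hq
  have h1 : Real.exp (N + 24 * Real.log N) ≤ q := (Real.exp_le_exp.mpr (aux1 hN hLN)).trans hq
  rw [Real.exp_add] at h1
  have e24 : Real.exp (24 * Real.log N) = (N : ℝ) ^ 24 := by
    have := exp_log_mul N hN 24
    push_cast at this
    exact this
  rw [e24] at h1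
  have h2 := sq_half_le_exp hN
  obtain ⟨W, hW⟩ : ∃ W, W = (N : ℝ) ^ 24 := ⟨_, rfl⟩
  rw [← hW] at h1 ⊢
  have h3 : 1 ≤ W := by rw [hW]; exact one_le_pow₀ (by linarith)
  obtain ⟨x, hx⟩ : ∃ x : ℝ, x = N := ⟨_, rfl⟩
  rw [← hx] at h1 h2 hN hHN
  have h4 : x ^ 2 / 2 * W ≤ q :=
    (mul_le_mul_of_nonneg_right h2 (by linarith)).trans h1
  have h5 : x ^ 2 / 2 ≤ q := by
    have : x ^ 2 / 2 * 1 ≤ x ^ 2 / 2 * W :=
      mul_le_mul_of_nonneg_left h3 (by positivity)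
    linarith
  have h6 : H ^ 2 * 160000 ≤ x ^ 2 := by
    have := pow_le_pow_left₀ (by linarith) hHN 2
    have e : (400 * H) ^ 2 = H ^ 2 * 160000 := by ring
    rwa [e] at this
  have hHH : 400 * H ≤ H ^ 2 := by
    rw [sq]; exact mul_le_mul_of_nonneg_right hH (by linarith)
  refine ⟨by linarith [sq_nonneg H], by linarith [sq_nonneg H], ?_⟩
  rw [← one_div, ← mul_div_assoc, div_le_div_iff₀ hq0 (by linarith)]
  have h7 : 3 * H ≤ x ^ 2 / 2 := by linarith [sq_nonneg H]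
  have h8 : 3 * H * W ≤ x ^ 2 / 2 * W := mul_le_mul_of_nonneg_right h7 (by linarith)
  linarith

private theorem exp_H (N : ℕ) (H : ℝ) (hN : (12 : ℝ) ≤ N) (hHsq : H ^ 2 = 48 * Real.log N) :
    Real.exp (-(H ^ 2) / 2) = ((N : ℝ) ^ 24)⁻¹ := by
  have e24 : Real.exp (24 * Real.log N) = (N : ℝ) ^ 24 := by
    have := exp_log_mul N hN 24
    push_cast at this
    exact this
  rw [hHsq, ← e24, ← Real.exp_neg]
  congr 1
  ring

private theorem exp_H8 (N : ℕ) (H : ℝ) (hN : (12 : ℝ) ≤ N) (hHsq : H ^ 2 = 48 * Real.log N) :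
    Real.exp (-(H ^ 2) / 8) = ((N : ℝ) ^ 6)⁻¹ := by
  have e24 : Real.exp (6 * Real.log N) = (N : ℝ) ^ 6 := by
    have := exp_log_mul N hN 6
    push_cast at this
    exact this
  rw [hHsq, ← e24, ← Real.exp_neg]
  congr 1
  ring

private theorem inv_pow_le {N : ℝ} (hN : 12 ≤ N) (a : ℕ) (ha : 1 ≤ a) :
    (N ^ a)⁻¹ ≤ 1 / 12 := by
  rw [← one_div]
  exact one_div_le_one_div_of_le (by norm_num) (le_trans hN (pow_ge hN a ha))

private theorem inv_pow_le' {N : ℝ} (hN : 12 ≤ N) (a : ℕ) (ha : 1 ≤ a) :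
    (N ^ (a + 1))⁻¹ ≤ 1 / 12 * (1 / N) := by
  have e4 : (N ^ (a + 1))⁻¹ = (N ^ a)⁻¹ * (1 / N) := by
    rw [one_div, ← mul_inv, ← pow_succ]
  rw [e4]
  exact mul_le_mul_of_nonneg_right (inv_pow_le hN a ha) (by positivity)

private theorem hke_aux {N H : ℝ} (hN : 12 ≤ N) (hH : 400 ≤ H) (hHN : 400 * H ≤ N) :
    N ^ 13 + N ^ 12 ≤ N ^ 20 * ((N ^ 6)⁻¹ / (200 * H)) := by
  have h1 : N ^ 20 * ((N ^ 6)⁻¹ / (200 * H)) = N ^ 14 / (200 * H) := by
    have : N ^ 20 = N ^ 14 * N ^ 6 := by rw [← pow_add]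
    rw [this]
    have hne : N ^ 6 ≠ 0 := by positivity
    field_simp
  rw [h1, le_div_iff₀ (by positivity)]
  have h2 : N ^ 14 = N ^ 13 * N := by rw [← pow_succ]
  have h3 : N ^ 12 ≤ N ^ 13 := pow_le_pow_right₀ (by linarith) (by norm_num)
  rw [h2]
  have h4 : 0 < N ^ 13 := by positivity
  calc (N ^ 13 + N ^ 12) * (200 * H) ≤ (N ^ 13 + N ^ 13) * (200 * H) :=
        mul_le_mul_of_nonneg_right (by linarith) (by linarith)
    _ = N ^ 13 * (400 * H) := by ring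
    _ ≤ N ^ 13 * N := mul_le_mul_of_nonneg_left hHN h4.le

private theorem K_aux {N K : ℝ} (hN : 12 ≤ N) (hK : N ^ 20 ≤ K) : -K + 2 * N ^ 12 ≤ -N := by
  have h2 : N ^ 20 = N ^ 12 * N ^ 8 := by rw [← pow_add]
  have h3 : (3 : ℝ) ≤ N ^ 8 := le_trans (by linarith) (pow_ge hN 8 (by norm_num))
  have h4 : N ≤ N ^ 12 := pow_ge hN 12 (by norm_num)
  have h5 : N ^ 12 * 3 ≤ N ^ 12 * N ^ 8 := mul_le_mul_of_nonneg_left h3 (by positivity)
  linarith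

private theorem eps_aux {N ε : ℝ} (hN : 12 ≤ N) (hε : ε ≤ Real.exp (-N)) :
    ε ≤ 2 / N ^ 2 := by
  have h2 := sq_half_le_exp hN
  refine hε.trans ?_
  rw [Real.exp_neg, show (2 : ℝ) / N ^ 2 = (N ^ 2 / 2)⁻¹ by rw [inv_div]]
  exact inv_anti₀ (by positivity) h2

private theorem eps_aux2 {N ε : ℝ} (hN : 12 ≤ N) (hεN : ε ≤ 2 / N ^ 2) : ε * N ≤ 1 / 6 := by
  have h1 : ε * N ≤ 2 / N ^ 2 * N := mul_le_mul_of_nonneg_right hεN (by linarith)
  have h2 : 2 / N ^ 2 * N = 2 / N := by field_simp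
  have h3 : 2 / N ≤ 2 / 12 := div_le_div_of_nonneg_left (by norm_num) (by norm_num) hN
  linarith

private theorem nq_aux {N H K ε : ℝ} {q : ℝ} (hN : 12 ≤ N) (hH : 400 ≤ H) (hHN : 400 * H ≤ N)
    (hε : ε = Real.exp (-K + 2 * N ^ 12)) (hK2 : K ≤ N ^ 20 * H)
    (hq : Real.exp (N ^ 21) ≤ q) {n : ℝ} (h1 : n ≤ H / ε + 1) : 2 * n < q := by
  have h2 : H / ε ≤ Real.exp H * Real.exp (N ^ 20 * H) := by
    rw [hε, div_eq_mul_inv, ← Real.exp_neg]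
    have h3 : H ≤ Real.exp H := by linarith [Real.add_one_le_exp H]
    have h4 : Real.exp (-(-K + 2 * N ^ 12)) ≤ Real.exp (N ^ 20 * H) := by
      apply Real.exp_le_exp.mpr
      have : 0 < N ^ 12 := by positivity
      linarith
    exact mul_le_mul h3 h4 (Real.exp_pos _).le (Real.exp_pos _).le
  rw [← Real.exp_add] at h2
  have h5 : (1 : ℝ) ≤ Real.exp (H + N ^ 20 * H) := Real.one_le_exp (by positivity)
  have h6 : 2 * n ≤ 4 * Real.exp (H + N ^ 20 * H) := by linarith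
  have h7 : 4 * Real.exp (H + N ^ 20 * H) < Real.exp 2 * Real.exp (H + N ^ 20 * H) := by
    apply mul_lt_mul_of_pos_right _ (Real.exp_pos _)
    have := Real.exp_one_gt_d9
    have e2 : Real.exp 2 = Real.exp 1 * Real.exp 1 := by rw [← Real.exp_add]; norm_num
    rw [e2]
    nlinarith
  rw [← Real.exp_add] at h7
  have h8 : 2 + (H + N ^ 20 * H) ≤ N ^ 21 := by
    have e1 : N ^ 21 = N ^ 20 * N := by rw [← pow_succ]
    have h9 : 1 ≤ N ^ 20 := one_le_pow₀ (by linarith)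
    rw [e1]
    have h10 : N ^ 20 * (400 * H) ≤ N ^ 20 * N := mul_le_mul_of_nonneg_left hHN (by linarith)
    have h11 : 1 * H ≤ N ^ 20 * H := mul_le_mul_of_nonneg_right h9 (by linarith)
    linarith
  linarith [Real.exp_le_exp.mpr h8]

private theorem omega_ge_aux (N : ℕ) {H ε z : ℝ} (hN : (12 : ℝ) ≤ N) (hHsq : H ^ 2 = 48 * Real.log N)
    (hH : 400 ≤ H) (hHN : 400 * H ≤ N) (hε0 : 0 < ε) (hε3 : ε * N ≤ 1 / 6) (hz0 : 0 ≤ z)
    (h1 : z ≤ H + 2 * ε) : ((N : ℝ) ^ 25)⁻¹ ≤ phi z := by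
  have h2 : phi (H + 2 * ε) ≤ phi z := by
    apply phi_le_phi
    rw [abs_of_nonneg hz0, abs_of_nonneg (by positivity)]
    exact h1
  refine le_trans ?_ h2
  refine le_trans ?_ (phi_ge _)
  have h3 : (H + 2 * ε) ^ 2 ≤ H ^ 2 + 2 := by
    have h4 : ε * H ≤ ε * N := mul_le_mul_of_nonneg_left (by linarith) hε0.le
    have h5 : ε * 400 ≤ ε * H := mul_le_mul_of_nonneg_left hH hε0.le
    have h6 : ε ≤ 1 := by linarith
    have h7 : ε * ε ≤ ε * 1 := mul_le_mul_of_nonneg_left h6 hε0.le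
    have e : (H + 2 * ε) ^ 2 = H ^ 2 + 4 * (ε * H) + 4 * (ε * ε) := by ring
    rw [e]
    linarith
  have h4 : Real.exp (-(H ^ 2 + 2) / 2) ≤ Real.exp (-((H + 2 * ε) ^ 2) / 2) :=
    Real.exp_le_exp.mpr (by linarith)
  have e1 : Real.exp (-(H ^ 2 + 2) / 2) = ((N : ℝ) ^ 24)⁻¹ * Real.exp (-1) := by
    rw [← exp_H N H hN hHsq, ← Real.exp_add]
    congr 1
    ring
  have e3 : (1 : ℝ) / 4 ≤ Real.exp (-1) := by
    rw [Real.exp_neg, one_div]
    apply inv_anti₀ (Real.exp_pos _)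
    linarith [Real.exp_one_lt_d9]
  have e4 : ((N : ℝ) ^ 25)⁻¹ = ((N : ℝ) ^ 24)⁻¹ * (N : ℝ)⁻¹ := by
    rw [← mul_inv, ← pow_succ]
  have e5 : (N : ℝ)⁻¹ ≤ 1 / 12 := by
    rw [← one_div]
    exact one_div_le_one_div_of_le (by norm_num) hN
  have hN24 : (0 : ℝ) < ((N : ℝ) ^ 24)⁻¹ := by positivity
  have e6 : ((N : ℝ) ^ 24)⁻¹ * (1 / 4) ≤ ((N : ℝ) ^ 24)⁻¹ * Real.exp (-1) :=
    mul_le_mul_of_nonneg_left e3 hN24.le
  calc ((N : ℝ) ^ 25)⁻¹ = ((N : ℝ) ^ 24)⁻¹ * (N : ℝ)⁻¹ := e4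
    _ ≤ ((N : ℝ) ^ 24)⁻¹ * (1 / 12) := mul_le_mul_of_nonneg_left e5 hN24.le
    _ ≤ 1 / 3 * (((N : ℝ) ^ 24)⁻¹ * Real.exp (-1)) := by linarith
    _ = 1 / 3 * Real.exp (-(H ^ 2 + 2) / 2) := by rw [e1]
    _ ≤ 1 / 3 * Real.exp (-((H + 2 * ε) ^ 2) / 2) := by linarith

private theorem typ_aux {N H δ : ℝ} (hN : 12 ≤ N) (hH4 : H ^ 4 ≤ N)
    (hδ1 : δ ≤ 2 * (N ^ 24)⁻¹) :
    1 - 1 / N ≤ 1 - (N ^ 20 * δ + 2 * (N ^ 20 * (H ^ 2) ^ 2 / (N ^ 12) ^ 2)) := by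
  have h1 : N ^ 20 * δ ≤ 2 * (N ^ 4)⁻¹ := by
    calc N ^ 20 * δ ≤ N ^ 20 * (2 * (N ^ 24)⁻¹) :=
          mul_le_mul_of_nonneg_left hδ1 (by positivity)
      _ = 2 * (N ^ 4)⁻¹ := by
          have : N ^ 24 = N ^ 20 * N ^ 4 := by rw [← pow_add]
          rw [this]
          have h20 : N ^ 20 ≠ 0 := by positivity
          field_simp
  have h2 : 2 * (N ^ 20 * (H ^ 2) ^ 2 / (N ^ 12) ^ 2) ≤ 2 * (N ^ 3)⁻¹ := by
    apply mul_le_mul_of_nonneg_left _ (by norm_num)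
    rw [div_le_iff₀ (by positivity)]
    have e1 : (H ^ 2) ^ 2 = H ^ 4 := by ring
    have e2 : (N ^ 3)⁻¹ * (N ^ 12) ^ 2 = N ^ 21 := by
      have : (N ^ 12) ^ 2 = N ^ 3 * N ^ 21 := by
        rw [← pow_mul, ← pow_add]
      rw [this]
      have h3 : N ^ 3 ≠ 0 := by positivity
      field_simp
    rw [e1, e2]
    calc N ^ 20 * H ^ 4 ≤ N ^ 20 * N := mul_le_mul_of_nonneg_left hH4 (by positivity)
      _ = N ^ 21 := by rw [← pow_succ]
  have h3 : (N ^ 4)⁻¹ ≤ 1 / 12 * (1 / N) := inv_pow_le' hN 3 (by norm_num)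
  have h4 : (N ^ 3)⁻¹ ≤ 1 / 12 * (1 / N) := inv_pow_le' hN 2 (by norm_num)
  have h5 : 0 < 1 / N := by positivity
  linarith

private theorem lo_aux (N : ℕ) {K ε : ℝ} (hN : (12 : ℝ) ≤ N) (hLN : Real.log N ≤ N)
    (hε : ε = Real.exp (-K + 2 * (N : ℝ) ^ 12)) :
    (N : ℝ) ≤ ε * ((N : ℝ) ^ 25)⁻¹ * Real.exp (K - (N : ℝ) ^ 12) := by
  have e1 : ε * ((N : ℝ) ^ 25)⁻¹ * Real.exp (K - (N : ℝ) ^ 12) =
      ((N : ℝ) ^ 25)⁻¹ * Real.exp ((N : ℝ) ^ 12) := by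
    rw [hε, mul_comm (Real.exp _) (((N : ℝ) ^ 25)⁻¹), mul_assoc, ← Real.exp_add]
    congr 2
    ring
  rw [e1]
  have h4 : (N : ℝ) ^ 26 ≤ Real.exp ((N : ℝ) ^ 12) := by
    have e26 : Real.exp (26 * Real.log N) = (N : ℝ) ^ 26 := by
      have := exp_log_mul N hN 26
      push_cast at this
      exact this
    rw [← e26]
    apply Real.exp_le_exp.mpr
    have h5 : (N : ℝ) ^ 12 = (N : ℝ) * (N : ℝ) ^ 11 := by ring
    have h6 : (26 : ℝ) ≤ (N : ℝ) ^ 11 := by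
      calc (26 : ℝ) ≤ 12 ^ 11 := by norm_num
        _ ≤ (N : ℝ) ^ 11 := pow_le_pow_left₀ (by norm_num) hN 11
    rw [h5]
    have h7 : (N : ℝ) * 26 ≤ (N : ℝ) * (N : ℝ) ^ 11 := mul_le_mul_of_nonneg_left h6 (by linarith)
    linarith
  rw [mul_comm, ← div_eq_mul_inv, le_div_iff₀ (by positivity)]
  calc (N : ℝ) * (N : ℝ) ^ 25 = (N : ℝ) ^ 26 := by ring
    _ ≤ _ := h4

/-- one coordinate: bounds for the mean logarithm `D` -/
private theorem D_aux (q : ℕ) [NeZero q] {H : ℝ} (hH : 400 ≤ H) (hHq : H ≤ q)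
    (hH6 : 6 ≤ Real.log H) (hS : q / 2 ≤ ∑ η, wA q (gw (H / q) q) η) :
    ∃ D : ℝ, 1 ≤ D ∧ D ≤ H ∧
      ∑ η, wA q (gw (H / q) q) η * Real.log (wA q (gw (H / q) q) η) =
        D * ∑ η, wA q (gw (H / q) q) η := by
  have hq0 : (0 : ℝ) < q := by linarith
  have hpos : ∀ η : ZMod q, 0 < wA q (gw (H / q) q) η := fun η =>
    lt_of_lt_of_le (Real.exp_pos _) (wA_ge q (by linarith) hHq η)
  have h1 := wA_log_sum q (H := H) (by linarith)
  have h2 : ∑ η, wA q (gw (H / q) q) η * Real.log (wA q (gw (H / q) q) η) ≤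
      H * ∑ η, wA q (gw (H / q) q) η := by
    rw [Finset.mul_sum]
    refine Finset.sum_le_sum fun η _ => ?_
    rw [mul_comm]
    refine mul_le_mul_of_nonneg_right ?_ (hpos η).le
    calc Real.log (wA q (gw (H / q) q) η) ≤ wA q (gw (H / q) q) η - 1 :=
          Real.log_le_sub_one_of_pos (hpos η)
      _ ≤ H := by linarith [wA_le q (H := H) (by linarith) η]
  obtain ⟨S, hSd⟩ : ∃ S, S = ∑ η, wA q (gw (H / q) q) η := ⟨_, rfl⟩
  obtain ⟨E, hE⟩ : ∃ E, E = ∑ η, wA q (gw (H / q) q) η * Real.log (wA q (gw (H / q) q) η) :=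
    ⟨_, rfl⟩
  rw [← hSd] at hS
  rw [← hSd, ← hE] at h1 h2 ⊢
  have hS0 : 0 < S := by linarith
  refine ⟨E / S, ?_, ?_, by field_simp⟩
  · rw [le_div_iff₀ hS0]
    have h3 : S * 6 ≤ S * Real.log H := mul_le_mul_of_nonneg_left hH6 hS0.le
    linarith
  · rw [div_le_iff₀ hS0]
    exact h2

private theorem log_aux (q : ℕ) [NeZero q] {H : ℝ} (hH : 400 ≤ H) (hHq : H ≤ q) (η : ZMod q) :
    |Real.log (wA q (gw (H / q) q) η)| ≤ H ^ 2 := by
  have h0 := wA_ge q (by linarith) hHq η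
  have hpos : 0 < wA q (gw (H / q) q) η := lt_of_lt_of_le (Real.exp_pos _) h0
  rw [abs_le]
  constructor
  · rw [← Real.log_exp (-(H ^ 2))]
    exact Real.log_le_log (Real.exp_pos _) h0
  · have h1 : Real.log (wA q (gw (H / q) q) η) ≤ wA q (gw (H / q) q) η - 1 :=
      Real.log_le_sub_one_of_pos hpos
    have h2 := wA_le q (H := H) (by linarith) η
    have h3 : 1 * H ≤ H * H := mul_le_mul_of_nonneg_right (by linarith) (by linarith)
    rw [sq]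
    linarith

theorem blockNumbers : BlockNumbers := by
  obtain ⟨N₀, hN₀⟩ := num_H
  refine ⟨N₀, fun N hN => ?_⟩
  obtain ⟨hN12, hH6, hH4⟩ := hN₀ N hN
  obtain ⟨H, hH⟩ : ∃ H, H = Real.sqrt (48 * Real.log N) := ⟨_, rfl⟩
  rw [← hH] at hH6 hH4
  obtain ⟨q, hqp, hqge, hqlog⟩ := exists_q N (by omega)
  have : NeZero q := ⟨hqp.ne_zero⟩
  have hNr : (12 : ℝ) ≤ N := by exact_mod_cast hN12
  have hL0 : 0 ≤ Real.log N := Real.log_nonneg (by linarith)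
  have hLN : Real.log N ≤ N := (Real.log_le_sub_one_of_pos (by linarith)).trans (by linarith)
  have hHsq : H ^ 2 = 48 * Real.log N := by rw [hH, Real.sq_sqrt (by positivity)]
  have hH0 : 0 ≤ H := by rw [hH]; exact Real.sqrt_nonneg _
  have hHpos : 0 < H := by
    rcases hH0.lt_or_eq with h | h
    · exact h
    · rw [← h, Real.log_zero] at hH6; linarith
  have hH400 : 400 ≤ H := by
    have := (Real.le_log_iff_exp_le hHpos).mp hH6
    linarith [exp_six]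
  have hHN : 400 * H ≤ N := hHN_aux hH400 hH4
  have hq0 : (0 : ℝ) < q := by exact_mod_cast hqp.pos
  obtain ⟨hq2, hHq1, hHq3⟩ := aux2 N q H hNr hH400 hHN hLN hqge
  -- the density at `H`
  have hphiH : phi H ≤ 1 / 2 * ((N : ℝ) ^ 24)⁻¹ := by
    have h1 := phi_le H
    rwa [exp_H N H hNr hHsq] at h1
  have hN24 : (0 : ℝ) < ((N : ℝ) ^ 24)⁻¹ := by positivity
  obtain ⟨δ, hδ⟩ : ∃ δ, δ = 2 * phi H + 3 * (H / q) := ⟨_, rfl⟩
  have hδ0 : 0 ≤ δ := by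
    rw [hδ]
    have := phi_pos H
    positivity
  have hδ1 : δ ≤ 2 * ((N : ℝ) ^ 24)⁻¹ := by rw [hδ]; linarith
  have hδ2 : δ ≤ 1 / 6 := by linarith [inv_pow_le hNr 24 (by norm_num)]
  -- the weights
  obtain ⟨ρ, hρ⟩ : ∃ ρ, ρ = H / q := ⟨_, rfl⟩
  have hρ0 : 0 < ρ := by rw [hρ]; positivity
  have hρ1 : ρ ≤ 1 := by rw [hρ]; exact div_le_one_of_le₀ hHq1 hq0.le
  obtain ⟨G, hG⟩ : ∃ G, G = gw ρ q := ⟨_, rfl⟩
  have hG' : G = gw (H / q) q := by rw [hG, hρ]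
  have hρq : ρ * q = H := by rw [hρ]; field_simp
  have hGn : ∀ t, 0 ≤ G t := fun t => by rw [hG]; exact gw_nonneg hρ0.le q t
  have hA0 : ∀ η : ZMod q, 0 < wA q G η := fun η => by
    rw [hG']
    exact lt_of_lt_of_le (Real.exp_pos _) (wA_ge q (by linarith) hHq1 η)
  have hSle : ∑ η, wA q G η ≤ q := by rw [hG']; exact wA_sum_le q hHpos
  have hSge : q * (1 - δ) ≤ ∑ η, wA q G η := by
    rw [hG', hδ]; exact wA_sum_ge q (by linarith)
  have hSq : q / 2 ≤ ∑ η, wA q G η := by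
    have : (q : ℝ) * (1 / 2) ≤ q * (1 - δ) := mul_le_mul_of_nonneg_left (by linarith) hq0.le
    linarith
  obtain ⟨D, hD1, hDH, hDS⟩ := D_aux q hH400 hHq1 hH6 (by rw [← hG']; exact hSq)
  rw [← hG'] at hDS
  have hlogb : ∀ η : ZMod q, |Real.log (wA q G η)| ≤ H ^ 2 := fun η => by
    rw [hG']; exact log_aux q hH400 hHq1 η
  -- typical fibres
  obtain ⟨e, he⟩ : ∃ e, e = Real.exp (-(H ^ 2) / 8) / (200 * H) := ⟨_, rfl⟩
  have hemin : q * e ≤ ∑ η, min (wt q G η false) (wt q G η true) := by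
    rw [he, hG']
    exact wA_min_sum q (by linarith) hq2
  have hke : (N : ℝ) ^ 13 + (N : ℝ) ^ 12 ≤ ((N ^ 20 : ℕ) : ℝ) * e := by
    rw [he, exp_H8 N H hNr hHsq]
    push_cast
    exact hke_aux hNr hH400 hHN
  have hH1 : 1 ≤ H ^ 2 := one_le_pow₀ (by linarith)
  obtain ⟨typ, htyp1, htyp2⟩ := typ_block G hGn (N ^ 20) (H ^ 2) δ D e ((N : ℝ) ^ 13)
    ((N : ℝ) ^ 12) hH1 (by positivity) hδ0 (by linarith) hA0 hSle hSge hlogb hDS hemin hke
  -- the fine coordinate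
  obtain ⟨K, hK⟩ : ∃ K, K = ((N ^ 20 : ℕ) : ℝ) * D := ⟨_, rfl⟩
  rw [← hK] at htyp2
  have hN20 : (0 : ℝ) < (N : ℝ) ^ 20 := by positivity
  have hK1 : (N : ℝ) ^ 20 ≤ K := by
    rw [hK]
    push_cast
    have := mul_le_mul_of_nonneg_left hD1 hN20.le
    linarith
  have hK2 : K ≤ (N : ℝ) ^ 20 * H := by
    rw [hK]
    push_cast
    exact mul_le_mul_of_nonneg_left hDH hN20.le
  obtain ⟨ε, hε⟩ : ∃ ε, ε = Real.exp (-K + 2 * (N : ℝ) ^ 12) := ⟨_, rfl⟩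
  have hε0 : 0 < ε := by rw [hε]; exact Real.exp_pos _
  have hεN : ε ≤ 2 / (N : ℝ) ^ 2 :=
    eps_aux hNr (by rw [hε]; exact Real.exp_le_exp.mpr (K_aux hNr hK1))
  have hε3 : ε * N ≤ 1 / 6 := eps_aux2 hNr hεN
  have hε1 : ε ≤ 1 := by
    have : ε * 12 ≤ ε * N := mul_le_mul_of_nonneg_left hNr hε0.le
    linarith
  obtain ⟨n, hn⟩ : ∃ n, n = ⌈H / ε⌉₊ := ⟨_, rfl⟩
  have hHε : 0 < H / ε := div_pos hHpos hε0
  have hn1 : H ≤ ε * n := by
    have := Nat.le_ceil (H / ε)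
    rw [← hn, div_le_iff₀ hε0] at this
    linarith
  have hn3 : (n : ℝ) ≤ H / ε + 1 := by
    have := (Nat.ceil_lt_add_one hHε.le).le
    rwa [← hn] at this
  have hn2 : ε * n ≤ H + ε := by
    calc ε * n ≤ ε * (H / ε + 1) := mul_le_mul_of_nonneg_left hn3 hε0.le
      _ = H + ε := by field_simp
  have hn0 : 0 < n := by
    rw [hn]
    exact Nat.ceil_pos.mpr hHε
  have hnq : 2 * (n : ℝ) < q := nq_aux hNr hH400 hHN hε hK2 hqge hn3
  obtain ⟨ω, hω⟩ : ∃ ω, ω = gw ε n := ⟨_, rfl⟩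
  obtain ⟨I, hI⟩ : ∃ I : Finset ℤ, I = Finset.Ico (-(n : ℤ)) n := ⟨_, rfl⟩
  have hNR : (N : ℝ) ≤ (N : ℝ) ^ 20 := pow_ge hNr 20 (by norm_num)
  -- lower bound for `ω`
  have hωge : ∀ i ∈ I, ε * ((N : ℝ) ^ 25)⁻¹ ≤ ω i := by
    intro i hi
    rw [hI, Finset.mem_Ico] at hi
    have hi' : |i| ≤ (n : ℤ) := abs_le.mpr ⟨hi.1, hi.2.le⟩
    rw [hω, gw_eq hi']
    refine mul_le_mul_of_nonneg_left ?_ hε0.le
    have hir : |(i : ℝ)| ≤ n := by exact_mod_cast hi'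
    have h1 : ε * (|(i : ℝ)| + 1) ≤ H + 2 * ε := by
      have : ε * (|(i : ℝ)| + 1) ≤ ε * (n + 1) :=
        mul_le_mul_of_nonneg_left (by linarith) hε0.le
      linarith
    exact omega_ge_aux N hNr hHsq hH400 hHN hε0 hε3
      (mul_nonneg hε0.le (by linarith [abs_nonneg (i : ℝ)])) h1
  have hωle : ∀ i, ω i ≤ ε := by
    intro i
    rw [hω]
    unfold gw
    split_ifs
    · have h1 := phi_le_half (ε * (|(i : ℝ)| + 1))
      have h2 : ε * phi (ε * (|(i : ℝ)| + 1)) ≤ ε * (1 / 2) :=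
        mul_le_mul_of_nonneg_left h1 hε0.le
      linarith
    · exact hε0.le
  refine ⟨q, ρ, ε, G, ω, I, typ, hqp, hqlog, ?_⟩
  refine
    { ρ_pos := hρ0
      ρ_le := hρ1
      ε_pos := hε0
      ε_le := hε1
      G_nonneg := hGn
      ω_nonneg := fun t => by rw [hω]; exact gw_nonneg hε0.le n t
      G_le := fun t w h => by rw [hG]; exact gw_le hρ0 q t w h
      ω_le := fun t w h => by rw [hω]; exact gw_le hε0 n t w h
      G_supp := fun t h => by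
        rw [hG]
        exact gw_supp hρ0 q (by rw [hρq]; linarith) t h
      ω_supp := fun t h => by
        rw [hω]
        exact gw_supp hε0 n (by linarith) t h
      wA_pos := hA0
      G_sum := by
        rw [sum_range_wt, hG]
        exact gw_sum_le_one hρ0 q _
      I_inj := ?_
      I_ne := ⟨0, by rw [hI, Finset.mem_Ico]; omega⟩
      ω_sum_le := by rw [hω]; exact gw_sum_le_one hε0 n I
      ω_sum_ge := ?_
      typ_mass := ?_
      lo_le := ?_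
      le_hi := ?_
      P_le := fun η hη => (htyp2 η hη).2.2 }
  · -- I_inj
    intro i hi j hj hij h0
    rw [hI, Finset.mem_Ico] at hi hj
    rw [ZMod.intCast_zmod_eq_zero_iff_dvd] at h0
    have hnq' : 2 * (n : ℤ) < q := by exact_mod_cast hnq
    have h1 : |i - j| < (q : ℤ) := by
      rw [abs_lt]
      constructor <;> omega
    exact hij (by have := Int.eq_zero_of_abs_lt_dvd h0 h1; omega)
  · -- ω_sum_ge
    have h1 := gw_sum_ge hε0 n (by linarith)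
    rw [hω, hI]
    refine le_trans ?_ h1
    have h2 : phi (ε * n) ≤ phi H := by
      apply phi_le_phi
      rw [abs_of_nonneg hH0, abs_of_nonneg (by positivity)]
      exact hn1
    have h3 : ((N : ℝ) ^ 24)⁻¹ ≤ 1 / 12 * (1 / N) := inv_pow_le' hNr 23 (by norm_num)
    have h4 : 3 * ε ≤ 1 / 2 * (1 / N) := by
      rw [mul_one_div, le_div_iff₀ (by linarith)]
      linarith
    have h5 : (0 : ℝ) < 1 / N := by positivity
    linarith
  · -- typ_mass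
    refine le_trans ?_ htyp1
    refine mul_le_mul_of_nonneg_right ?_ (by positivity)
    have h1 := typ_aux hNr hH4 hδ1
    push_cast
    exact h1
  · -- lo_le
    intro i hi η hη
    obtain ⟨h1, -, -⟩ := htyp2 η hη
    have h2 := hωge i hi
    have h3 : ε * ((N : ℝ) ^ 25)⁻¹ * Real.exp (K - (N : ℝ) ^ 12) ≤ ω i * Th q G η :=
      mul_le_mul h2 h1 (Real.exp_pos _).le (le_trans (by positivity) h2)
    exact le_trans (lo_aux N hNr hLN hε) h3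
  · -- le_hi
    intro i hi η hη
    obtain ⟨-, h1, -⟩ := htyp2 η hη
    have h0 : 0 ≤ Th q G η := Finset.prod_nonneg fun l _ => (hA0 _).le
    calc ω i * Th q G η ≤ ε * Real.exp (K + (N : ℝ) ^ 12) :=
          mul_le_mul (hωle i) h1 h0 hε0.le
      _ = Real.exp (3 * (N : ℝ) ^ 12) := by
          rw [hε, ← Real.exp_add]
          congr 1
          ring

end Crest.Agent.CVD
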