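/-
  CVD_Defs : definitions for PART [D] of S0347 (the lossless tower GP).   designers: helper19 (D1: structure, composition, tower, top),
  helper21 (D2: block numbers).

  * trees over an arbitrary index type `ι` of coordinates (transferred to `Fin m` at the end);
  * `Sys A` : a lattice of rows together with a class homomorphism onto the finite abelian group `A`;
  * `Sys.Ok` : every offset `u` has a tree with leaf masses `≤ κ` and total mass `≥ X (cls u)`;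
  * `IsBlock` : the numbers of one block (coarse coordinates: `k` of them, weights `G`, spacing `q` cells; one fine coordinate with weights `ω`).
-/
import Crest.Agent.CV_Defs

set_option autoImplicit false

namespace Crest.Agent.CVD
open Finset Crest.Agent.CV

/-- Binary trees of rows `a ∈ ℤ^ι`. -/
inductive Tr (ι : Type) : Type
  | leaf (a : ι → ℤ) : Tr ι
  | node (c : ι) (v0 v1 : ℤ) (t0 t1 : Tr ι) : Tr ι

namespace Tr
variable {ι : Type}

/-- The rows (leaves) of a tree. -/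
def rows : Tr ι → List (ι → ℤ)
  | leaf a => [a]
  | node _ _ _ t0 t1 => t0.rows ++ t1.rows

/-- Well-formed trees. -/
def WF : Tr ι → Prop
  | leaf _ => True
  | node c v0 v1 t0 t1 =>
      v1 = v0 + 1 ∧ (∀ a ∈ t0.rows, a c = v0) ∧ (∀ a ∈ t1.rows, a c = v1) ∧ t0.WF ∧ t1.WF

/-- (generates the unfolding lemmas in this module) -/
theorem rows_leaf (a : ι → ℤ) : (leaf a).rows = [a] := by
  unfold rows
  rfl

theorem rows_leaf' (a : ι → ℤ) : (leaf a).rows = [a] := by rw [rows]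

theorem WF_leaf (a : ι → ℤ) : (leaf a).WF = True := by
  unfold WF
  rfl

theorem WF_leaf' (a : ι → ℤ) : (leaf a).WF = True := by rw [WF]

end Tr

/-- A system of rows with classes in the group `A`. -/
structure Sys (A : Type) [AddCommGroup A] where
  ι : Type
  fι : Fintype ι
  dι : DecidableEq ι
  ρ : ι → ℝ
  g : ι → ℤ → ℝ
  B : Matrix ι ι ℤ
  cls : (ι → ℤ) →+ A
  sec : A → (ι → ℤ)

attribute [instance] Sys.fι Sys.dι

namespace Sys
variable {A : Type} [AddCommGroup A]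

/-- Normalised mass of the row `a` at the offset `u`. -/
noncomputable def mass (S : Sys A) (u a : S.ι → ℤ) : ℝ :=
  |(S.B.det : ℝ)| * ∏ c, S.g c (u c - S.B.mulVec a c)

/-- The capture property with leaf bound `κ` and capture function `X`. -/
def Cap (S : Sys A) (κ : ℝ) (X : A → ℝ) : Prop :=
  ∀ u : S.ι → ℤ, ∃ T : Tr S.ι, T.WF ∧ T.rows.length ≤ 2 ^ Fintype.card S.ι ∧
    (∀ a ∈ T.rows, S.mass u a ≤ κ) ∧ X (S.cls u) ≤ (T.rows.map (S.mass u)).sum

/-- Admissible system: cell sizes, weights below the Gaussian density, supports in `|ρ t| ≤ R`. -/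
structure Ok (S : Sys A) (R κ : ℝ) (X : A → ℝ) : Prop where
  sec_cls : ∀ b, S.cls (S.sec b) = b
  ρ_pos : ∀ c, 0 < S.ρ c
  ρ_le : ∀ c, S.ρ c ≤ 1
  g_nonneg : ∀ c t, 0 ≤ S.g c t
  g_le : ∀ c (t : ℤ) (w : ℝ), |w - S.ρ c * t| ≤ S.ρ c → S.g c t ≤ S.ρ c * phi w
  g_supp : ∀ c (t : ℤ), R < S.ρ c * |(t : ℝ)| → S.g c t = 0
  det_ne : S.B.det ≠ 0
  cap : S.Cap κ X

end Sys

/-- average over a finite type -/
noncomputable def mean {V : Type} [Fintype V] (f : V → ℝ) : ℝ := (∑ v, f v) / (Fintype.card V : ℝ)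

/-- the weight of the row `ε` of one coarse coordinate at the residue `η` (times `q`):
`e = false`: offset `η`, `e = true`: offset `η - q`. -/
noncomputable def wt (q : ℕ) (G : ℤ → ℝ) (η : ZMod q) (e : Bool) : ℝ :=
  (q : ℝ) * G ((η.val : ℤ) - (if e then (q : ℤ) else 0))

/-- sum of the two weights -/
noncomputable def wA (q : ℕ) (G : ℤ → ℝ) (η : ZMod q) : ℝ := wt q G η false + wt q G η true

/-- the mass of the fibre -/
noncomputable def Th (q : ℕ) (G : ℤ → ℝ) {k : ℕ} (η : Fin k → ZMod q) : ℝ := ∏ l, wA q G (η l)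

/-- The numbers of one block: `k` coarse coordinates with weights `G`, row spacing `q` cells (`q` prime), cell size `ρ`, and one
fine coordinate with weights `ω`, cell size `ε`. -/
structure IsBlock (k q : ℕ) (ρ ε : ℝ) (G ω : ℤ → ℝ) (I : Finset ℤ) (typ : Finset (Fin k → ZMod q))
    (R τ lo hi P : ℝ) : Prop where
  ρ_pos : 0 < ρ
  ρ_le : ρ ≤ 1
  ε_pos : 0 < ε
  ε_le : ε ≤ 1
  G_nonneg : ∀ t, 0 ≤ G t
  ω_nonneg : ∀ t, 0 ≤ ω t
  G_le : ∀ (t : ℤ) (w : ℝ), |w - ρ * t| ≤ ρ → G t ≤ ρ * phi w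
  ω_le : ∀ (t : ℤ) (w : ℝ), |w - ε * t| ≤ ε → ω t ≤ ε * phi w
  G_supp : ∀ t : ℤ, R < ρ * |(t : ℝ)| → G t = 0
  ω_supp : ∀ t : ℤ, R < ε * |(t : ℝ)| → ω t = 0
  /-- the two nearest rows have positive weight -/
  wA_pos : ∀ η : ZMod q, 0 < wA q G η
  /-- the total mass of the weights is at most 1 -/
  G_sum : ∑ r ∈ Finset.range q, (G (r : ℤ) + G ((r : ℤ) - (q : ℤ))) ≤ 1
  /-- different elements of `I` differ modulo `q` -/
  I_inj : ∀ i ∈ I, ∀ j ∈ I, i ≠ j → ((i - j : ℤ) : ZMod q) ≠ 0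
  I_ne : I.Nonempty
  ω_sum_le : ∑ i ∈ I, ω i ≤ 1
  ω_sum_ge : 1 - τ ≤ ∑ i ∈ I, ω i
  typ_mass : (1 - τ) * (q : ℝ) ^ k ≤ ∑ η ∈ typ, Th q G η
  lo_le : ∀ i ∈ I, ∀ η ∈ typ, lo ≤ ω i * Th q G η
  le_hi : ∀ i ∈ I, ∀ η ∈ typ, ω i * Th q G η ≤ hi
  /-- no row has more than the fraction `P` of the fibre -/
  P_le : ∀ η ∈ typ, ∏ l, max (wt q G (η l) false) (wt q G (η l) true) ≤ P * Th q G η

/-- D2 (helper21): the block numbers for `k = N^20`. -/
def BlockNumbers : Prop :=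
  ∃ N₀ : ℕ, ∀ N : ℕ, N₀ ≤ N → ∃ (q : ℕ) (ρ ε : ℝ) (G ω : ℤ → ℝ) (I : Finset ℤ)
    (typ : Finset (Fin (N ^ 20) → ZMod q)),
    q.Prime ∧ Real.log q ≤ (N : ℝ) ^ 40 ∧
    IsBlock (N ^ 20) q ρ ε G ω I typ ((N : ℝ) ^ 20 / 2) (1 / N) N (Real.exp (3 * (N : ℝ) ^ 12))
      (Real.exp (-((N : ℝ) ^ 13)))

end Crest.Agent.CVD
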