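/-
  CVD_R0 (S0347 part D): shifts.
-/
import Crest.Agent.CVD_Defs

set_option autoImplicit false

namespace Crest.Agent.CVD
open Finset

section
variable {A : Type} [AddCommGroup A] [Fintype A]

/-- the shift `Σ_l e_l b_l` -/
def shift {k : ℕ} (b : Fin k → A) (e : Fin k → Bool) : A := ∑ l, if e l then b l else 0

omit [Fintype A] in
/-- R0. -/
theorem shift_cons {k : ℕ} (b0 : A) (b : Fin k → A) (e0 : Bool) (e : Fin k → Bool) :
    shift (Fin.cons b0 b : Fin (k + 1) → A) (Fin.cons e0 e : Fin (k + 1) → Bool) =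
      (if e0 then b0 else 0) + shift b e := by
  simp [shift, Fin.sum_univ_succ]

end

end Crest.Agent.CVD
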