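/-
  CVD_R1 (S0347 part D): Jensen for one shift.
-/
import Crest.Agent.CVD_R0

set_option autoImplicit false

namespace Crest.Agent.CVD
open Finset

section
variable {A : Type} [AddCommGroup A] [Fintype A]

/-- R1. exact product: `E_b mean_z f(z) g(z-b) = mean f * mean g`. PROOF: swap the sums, `Equiv.subLeft`. -/
theorem mean_shift (f g : A → ℝ) :
    ∑ b : A, mean (fun z => f z * g (z - b)) = (Fintype.card A : ℝ) * (mean f * mean g) := by
  have hc : (0 : ℝ) < Fintype.card A := by
    have : Nonempty A := ⟨0⟩
    exact_mod_cast Fintype.card_pos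
  unfold mean
  rw [← Finset.sum_div, Finset.sum_comm]
  have h : ∀ z : A, ∑ b : A, f z * g (z - b) = f z * ∑ w : A, g w := by
    intro z
    rw [← Finset.mul_sum]
    congr 1
    exact Fintype.sum_equiv (Equiv.subLeft z) _ _ (fun b => by simp)
  simp_rw [h]
  rw [← Finset.sum_mul]
  field_simp

/-- R2. Jensen: `E_b log mean_z f(z) g(z-b) ≤ log mean f + log mean g` for positive `f, g`.
PROOF: `Real.log` is concave: average of the logs ≤ log of the average; elementary: with `M := mean f * mean g > 0` and
`x_b := mean (f · g(·-b)) > 0`: `log x_b ≤ log M + (x_b / M - 1)` (`Real.log_le_sub_one_of_pos`), sum over `b` with `mean_shift`. -/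
theorem log_mean_shift (f g : A → ℝ) (hf : ∀ z, 0 < f z) (hg : ∀ z, 0 < g z) :
    ∑ b : A, Real.log (mean (fun z => f z * g (z - b))) ≤
      (Fintype.card A : ℝ) * (Real.log (mean f) + Real.log (mean g)) := by
  have hne : Nonempty A := ⟨0⟩
  have hc : (0 : ℝ) < Fintype.card A := by
    exact_mod_cast Fintype.card_pos
  have hmean : ∀ h : A → ℝ, (∀ z, 0 < h z) → 0 < mean h := by
    intro h hh
    unfold mean
    exact div_pos (Finset.sum_pos (fun z _ => hh z) Finset.univ_nonempty) hc
  have hF := hmean f hf
  have hG := hmean g hg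
  set M : ℝ := mean f * mean g with hM
  have hMpos : 0 < M := mul_pos hF hG
  have hx : ∀ b : A, Real.log (mean (fun z => f z * g (z - b))) ≤
      Real.log M + (mean (fun z => f z * g (z - b)) / M - 1) := by
    intro b
    have hpos := hmean (fun z => f z * g (z - b)) (fun z => mul_pos (hf z) (hg _))
    have h1 := Real.log_le_sub_one_of_pos (div_pos hpos hMpos)
    rw [Real.log_div hpos.ne' hMpos.ne'] at h1
    linarith
  refine le_trans (Finset.sum_le_sum (fun b _ => hx b)) ?_
  rw [Finset.sum_add_distrib, Finset.sum_sub_distrib, ← Finset.sum_div, mean_shift, ← hM]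
  simp only [Finset.sum_const, Finset.card_univ, nsmul_eq_mul, mul_one]
  rw [mul_div_assoc, div_self hMpos.ne', mul_one, sub_self, add_zero, hM,
    Real.log_mul hF.ne' hG.ne']

end

end Crest.Agent.CVD
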