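/-
  CVD_R3 (S0347 part D): Jensen for a cube of shifts.
-/
import Crest.Agent.CVD_R1

set_option autoImplicit false

namespace Crest.Agent.CVD
open Finset

section

private theorem prod_cons_bool {k : ℕ} {M : Type} [CommMonoid M] (F : (Fin (k + 1) → Bool) → M) :
    ∏ e, F e = (∏ e : Fin k → Bool, F (Fin.cons false e : Fin (k + 1) → Bool)) *
      ∏ e : Fin k → Bool, F (Fin.cons true e : Fin (k + 1) → Bool) := by
  rw [← (Fin.consEquiv (fun _ : Fin (k + 1) => Bool)).prod_comp F, Fintype.prod_prod_type,
    Fintype.prod_bool, mul_comm]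
  rfl

private theorem sum_cons_bool {k : ℕ} {M : Type} [AddCommMonoid M] (F : (Fin (k + 1) → Bool) → M) :
    ∑ e, F e = (∑ e : Fin k → Bool, F (Fin.cons false e : Fin (k + 1) → Bool)) +
      ∑ e : Fin k → Bool, F (Fin.cons true e : Fin (k + 1) → Bool) := by
  rw [← (Fin.consEquiv (fun _ : Fin (k + 1) => Bool)).sum_comp F, Fintype.sum_prod_type,
    Fintype.sum_bool, add_comm]
  rfl

private theorem sum_cons_any {k : ℕ} {A : Type} [Fintype A] {M : Type} [AddCommMonoid M]
    (F : (Fin (k + 1) → A) → M) :
    ∑ b, F b = ∑ b : Fin k → A, ∑ b0 : A, F (Fin.cons b0 b : Fin (k + 1) → A) := by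
  rw [← (Fin.consEquiv (fun _ : Fin (k + 1) => A)).sum_comp F, Fintype.sum_prod_type,
    Finset.sum_comm]
  rfl

variable {A : Type} [AddCommGroup A] [Fintype A]

/-- R3. PROOF: induction on `k`. `k = 0`: one `b`, one `e`, `shift = 0`. `k+1`: write `b = Fin.cons b0 b'`, `e = Fin.cons e0 e'`;
`∏_e f e (z - shift b e) = g0 z * g1 (z - b0)` with `g0 z = ∏_{e'} f (cons false e') (z - shift b' e')`,
`g1 z = ∏_{e'} f (cons true e') (z - shift b' e')` (by `shift_cons`); sum over `b0` with `log_mean_shift`, then apply the induction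
hypothesis to `f ∘ cons false` and `f ∘ cons true`. -/
theorem log_mean_cube : ∀ (k : ℕ) (f : (Fin k → Bool) → A → ℝ), (∀ e z, 0 < f e z) →
    ∑ b : Fin k → A, Real.log (mean (fun z => ∏ e, f e (z - shift b e))) ≤
      (Fintype.card A : ℝ) ^ k * ∑ e, Real.log (mean (f e)) := by
  intro k
  induction k with
  | zero =>
    intro f hf
    have h1 : ∀ (b : Fin 0 → A) (e : Fin 0 → Bool), shift b e = 0 := by
      intro b e
      simp [shift]
    simp only [h1, sub_zero, pow_zero, one_mul]
    rw [Fintype.sum_unique, Fintype.sum_unique]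
    simp only [Fintype.prod_unique]
    exact le_rfl
  | succ k ih =>
    intro f hf
    have h0 := ih (fun e => f (Fin.cons false e : Fin (k + 1) → Bool)) (fun e z => hf _ z)
    have h1 := ih (fun e => f (Fin.cons true e : Fin (k + 1) → Bool)) (fun e z => hf _ z)
    have hcard : (0 : ℝ) ≤ (Fintype.card A : ℝ) := Nat.cast_nonneg _
    rw [sum_cons_any, sum_cons_bool]
    have key : ∀ b : Fin k → A,
        ∑ b0 : A, Real.log (mean (fun z => ∏ e, f e (z - shift (Fin.cons b0 b : Fin (k + 1) → A) e)))
          ≤ (Fintype.card A : ℝ) *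
            (Real.log (mean (fun z => ∏ e, f (Fin.cons false e : Fin (k + 1) → Bool) (z - shift b e)))
            + Real.log (mean (fun z => ∏ e, f (Fin.cons true e : Fin (k + 1) → Bool)
                (z - shift b e)))) := by
      intro b
      have h := log_mean_shift
        (fun z => ∏ e, f (Fin.cons false e : Fin (k + 1) → Bool) (z - shift b e))
        (fun z => ∏ e, f (Fin.cons true e : Fin (k + 1) → Bool) (z - shift b e))
        (fun z => Finset.prod_pos (fun e _ => hf _ _)) (fun z => Finset.prod_pos (fun e _ => hf _ _))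
      refine le_of_eq_of_le ?_ h
      refine Finset.sum_congr rfl (fun b0 _ => ?_)
      congr 2
      funext z
      rw [prod_cons_bool]
      congr 1
      · refine Finset.prod_congr rfl (fun e _ => ?_)
        rw [shift_cons]
        simp
      · refine Finset.prod_congr rfl (fun e _ => ?_)
        rw [shift_cons]
        simp only [if_true]
        rw [sub_add_eq_sub_sub]
    calc ∑ b : Fin k → A, ∑ b0 : A,
          Real.log (mean (fun z => ∏ e, f e (z - shift (Fin.cons b0 b : Fin (k + 1) → A) e)))
        ≤ ∑ b : Fin k → A, (Fintype.card A : ℝ) *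
            (Real.log (mean (fun z => ∏ e, f (Fin.cons false e : Fin (k + 1) → Bool) (z - shift b e)))
            + Real.log (mean (fun z => ∏ e, f (Fin.cons true e : Fin (k + 1) → Bool)
                (z - shift b e)))) := Finset.sum_le_sum (fun b _ => key b)
      _ = (Fintype.card A : ℝ) *
            ((∑ b : Fin k → A, Real.log (mean (fun z => ∏ e,
                f (Fin.cons false e : Fin (k + 1) → Bool) (z - shift b e))))
            + ∑ b : Fin k → A, Real.log (mean (fun z => ∏ e,
                f (Fin.cons true e : Fin (k + 1) → Bool) (z - shift b e)))) := by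
          rw [← Finset.mul_sum, Finset.sum_add_distrib]
      _ ≤ (Fintype.card A : ℝ) *
            ((Fintype.card A : ℝ) ^ k * ∑ e : Fin k → Bool,
                Real.log (mean (f (Fin.cons false e : Fin (k + 1) → Bool)))
            + (Fintype.card A : ℝ) ^ k * ∑ e : Fin k → Bool,
                Real.log (mean (f (Fin.cons true e : Fin (k + 1) → Bool)))) :=
          mul_le_mul_of_nonneg_left (add_le_add h0 h1) hcard
      _ = (Fintype.card A : ℝ) ^ (k + 1) *
            ((∑ e : Fin k → Bool, Real.log (mean (f (Fin.cons false e : Fin (k + 1) → Bool))))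
            + ∑ e : Fin k → Bool, Real.log (mean (f (Fin.cons true e : Fin (k + 1) → Bool)))) := by
          rw [pow_succ]
          ring

end

end Crest.Agent.CVD
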