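/-
  CVD_R4 (S0347 part D): log mean exp; product weights.
-/
import Crest.Agent.CVD_R0

set_option autoImplicit false

namespace Crest.Agent.CVD
open Finset

section
variable {A : Type} [AddCommGroup A] [Fintype A]

/-- R4. `log mean exp (-t X) ≤ -t mean X + t^2 M mean X / 2` for `0 ≤ X ≤ M`, `t ≥ 0`.
PROOF: `exp (-x) ≤ 1 - x + x^2/2` for `x ≥ 0`, `X^2 ≤ M X`, `log y ≤ y - 1`. -/
theorem log_mean_exp (X : A → ℝ) (M : ℝ) (hX0 : ∀ z, 0 ≤ X z) (hXM : ∀ z, X z ≤ M) (t : ℝ) (ht : 0 ≤ t) :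
    Real.log (mean (fun z => Real.exp (-(t * X z)))) ≤ -(t * mean X) + t ^ 2 * M * mean X / 2 := by
  have hcard : (0 : ℝ) < (Fintype.card A : ℝ) := by
    have : 0 < Fintype.card A := Fintype.card_pos_iff.mpr ⟨0⟩
    exact_mod_cast this
  have key : ∀ x : ℝ, 0 ≤ x → Real.exp (-x) ≤ 1 - x + x ^ 2 / 2 := by
    intro x hx
    have h1 := Real.quadratic_le_exp_of_nonneg hx
    rw [Real.exp_neg]
    have hpos : (0 : ℝ) < 1 + x + x ^ 2 / 2 := by positivity
    have h2 : (Real.exp x)⁻¹ ≤ (1 + x + x ^ 2 / 2)⁻¹ := inv_anti₀ hpos h1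
    have h3 : (1 + x + x ^ 2 / 2)⁻¹ ≤ 1 - x + x ^ 2 / 2 := by
      rw [inv_le_iff_one_le_mul₀ hpos]
      nlinarith [sq_nonneg (x ^ 2)]
    exact h2.trans h3
  have hsumpos : 0 < mean (fun z => Real.exp (-(t * X z))) := by
    unfold mean
    apply div_pos _ hcard
    exact Finset.sum_pos (fun z _ => Real.exp_pos _) ⟨0, Finset.mem_univ _⟩
  have h1 : Real.log (mean (fun z => Real.exp (-(t * X z)))) ≤
      mean (fun z => Real.exp (-(t * X z))) - 1 := Real.log_le_sub_one_of_pos hsumpos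
  have h2 : mean (fun z => Real.exp (-(t * X z))) ≤ 1 - t * mean X + t ^ 2 * M * mean X / 2 := by
    unfold mean
    rw [div_le_iff₀ hcard]
    have h3 : ∑ z, Real.exp (-(t * X z)) ≤ ∑ z, (1 - t * X z + t ^ 2 * M / 2 * X z) := by
      apply Finset.sum_le_sum
      intro z _
      have h4 := key (t * X z) (mul_nonneg ht (hX0 z))
      have h5 : X z ^ 2 ≤ M * X z := by
        have := mul_le_mul_of_nonneg_right (hXM z) (hX0 z)
        nlinarith
      have h6 : t ^ 2 * X z ^ 2 ≤ t ^ 2 * (M * X z) := mul_le_mul_of_nonneg_left h5 (sq_nonneg t)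
      nlinarith
    have h7 : ∑ z, (1 - t * X z + t ^ 2 * M / 2 * X z) =
        (Fintype.card A : ℝ) - t * ∑ z, X z + t ^ 2 * M / 2 * ∑ z, X z := by
      rw [Finset.sum_add_distrib, Finset.sum_sub_distrib, ← Finset.mul_sum, ← Finset.mul_sum]
      simp
    rw [h7] at h3
    refine h3.trans (le_of_eq ?_)
    field_simp
  linarith

/-- R5. product weights: `Σ_e ∏_l p l (e l) = ∏_l (p l false + p l true)`. -/
theorem sum_prod_bool {k : ℕ} (p : Fin k → Bool → ℝ) :
    ∑ e : Fin k → Bool, ∏ l, p l (e l) = ∏ l, (p l false + p l true) := by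
  have h := Finset.prod_univ_sum (fun _ : Fin k => (Finset.univ : Finset Bool)) p
  rw [Fintype.piFinset_univ] at h
  rw [← h]
  apply Finset.prod_congr rfl
  intro l _
  rw [Fintype.sum_bool, add_comm]

end

end Crest.Agent.CVD
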