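/-
  CVD_R6 (S0347 part D): the reliability lemma.
-/
import Crest.Agent.CVD_R3
import Crest.Agent.CVD_R4

set_option autoImplicit false

namespace Crest.Agent.CVD
open Finset

section
variable {A : Type} [AddCommGroup A] [Fintype A]

omit [AddCommGroup A] in
theorem cvdr6_mean_const [Nonempty A] (c : ℝ) : mean (fun _ : A => c) = c := by
  have h : (Fintype.card A : ℝ) ≠ 0 := by exact_mod_cast Fintype.card_ne_zero
  simp only [mean, Finset.sum_const, Finset.card_univ, nsmul_eq_mul]
  field_simp

theorem cvdr6_mean_S {k : ℕ} (w : (Fin k → Bool) → ℝ) (hw : ∑ e, w e = 1) (X : A → ℝ)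
    (b : Fin k → A) :
    mean (fun z => ∑ e, w e * X (z - shift b e)) = mean X := by
  unfold mean
  congr 1
  rw [Finset.sum_comm]
  have : ∀ e : Fin k → Bool, ∑ z : A, w e * X (z - shift b e) = w e * ∑ z, X z := by
    intro e
    rw [← Finset.mul_sum]
    congr 1
    exact Equiv.sum_comp (Equiv.subRight (shift b e)) X
  rw [Finset.sum_congr rfl fun e _ => this e, ← Finset.sum_mul, hw, one_mul]

/-- R6. THE RELIABILITY LEMMA (`P` bounds the largest product weight).
PROOF: `w e := ∏_l p l (e l) ∈ [0, P]`, `Σ_e w e = 1` (R5), `S_b z := Σ_e w e * X (z - shift b e)`, `mean S_b = mean X =: m`.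
If `card A = 1` then `S_b z = X 0 = m` and no `b` is bad. Otherwise `L := log (card A) > 0`, `t := 2 L / lam`.
`Y_b := log mean exp (-t S_b) + t m ≥ 0` (convexity of exp: `exp (-t S_b z) ≥ exp (-t m) (1 - t (S_b z - m))`).
If `b` is bad: `mean exp(-t S_b) ≥ exp (-t (m - lam)) / card A`, so `Y_b ≥ t lam - L = L`.
`Σ_b Y_b ≤ (card A)^k * Σ_e (-(t w_e m) + (t w_e)^2 M m / 2) + (card A)^k t m ≤ (card A)^k t^2 P M / 2` by R3, R4 (with
`f e z = exp (-(t w_e X z))`), `Σ w_e = 1`, `w_e^2 ≤ P w_e`, `m ≤ 1`. Markov: `#bad * L ≤ Σ_b Y_b`. -/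
theorem reliability {k : ℕ} (p : Fin k → Bool → ℝ) (hp0 : ∀ l e, 0 ≤ p l e)
    (hp1 : ∀ l, p l false + p l true = 1) (P : ℝ) (hP : ∏ l, max (p l false) (p l true) ≤ P)
    (X : A → ℝ) (M : ℝ) (hX0 : ∀ z, 0 ≤ X z) (hXM : ∀ z, X z ≤ M) (hm : mean X ≤ 1) (lam : ℝ) (hlam : 0 < lam)
    (Bad : Finset (Fin k → A))
    (hBad : ∀ b ∈ Bad, ∃ z, ∑ e : Fin k → Bool, (∏ l, p l (e l)) * X (z - shift b e) < mean X - lam) :
    (Bad.card : ℝ) ≤ (Fintype.card A : ℝ) ^ k * (2 * Real.log (Fintype.card A) * P * M / lam ^ 2) := by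
  classical
  have hA : Nonempty A := ⟨0⟩
  have hn0 : 0 < Fintype.card A := Fintype.card_pos
  set n : ℕ := Fintype.card A with hn
  have hnR : (0 : ℝ) < (n : ℝ) := by exact_mod_cast hn0
  set w : (Fin k → Bool) → ℝ := fun e => ∏ l, p l (e l) with hw
  have hw0 : ∀ e, 0 ≤ w e := fun e => Finset.prod_nonneg fun l _ => hp0 l (e l)
  have hwP : ∀ e, w e ≤ P := fun e => by
    refine le_trans (Finset.prod_le_prod (fun l _ => hp0 l (e l)) fun l _ => ?_) hP
    cases e l
    · exact le_max_left _ _
    · exact le_max_right _ _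
  have hws : ∑ e, w e = 1 := by
    rw [hw, sum_prod_bool]
    exact Finset.prod_eq_one fun l _ => hp1 l
  have hP0 : 0 ≤ P := le_trans (Finset.prod_nonneg fun l _ => le_max_of_le_left (hp0 l false)) hP
  have hM0 : 0 ≤ M := (hX0 0).trans (hXM 0)
  set m : ℝ := mean X with hmdef
  have hm0 : 0 ≤ m := div_nonneg (Finset.sum_nonneg fun z _ => hX0 z) hnR.le
  set S : (Fin k → A) → A → ℝ := fun b z => ∑ e : Fin k → Bool, w e * X (z - shift b e) with hS
  have hmS : ∀ b, mean (S b) = m := fun b => cvdr6_mean_S w hws X b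
  rcases Nat.lt_or_ge 1 n with h1 | h1
  swap
  · -- one element
    have hsub : Subsingleton A := Fintype.card_le_one_iff_subsingleton.1 h1
    have hem : Bad = ∅ := by
      rw [Finset.eq_empty_iff_forall_notMem]
      intro b hb
      obtain ⟨z, hz⟩ := hBad b hb
      have e1 : S b z = m := by
        rw [← hmS b]
        have : S b = fun _ => S b z := funext fun y => by rw [Subsingleton.elim y z]
        rw [this, cvdr6_mean_const]
      have : S b z < m - lam := hz
      linarith
    have hn1 : n = 1 := le_antisymm h1 hn0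
    rw [hem, hn1]
    simp
  have hL : 0 < Real.log n := Real.log_pos (by exact_mod_cast h1)
  set L : ℝ := Real.log n with hLdef
  set t : ℝ := 2 * L / lam with ht
  have ht0 : 0 < t := by positivity
  set E : (Fin k → A) → ℝ := fun b => mean (fun z => Real.exp (-(t * S b z))) with hE
  have hEpos : ∀ b, 0 < E b := fun b =>
    div_pos (Finset.sum_pos (fun z _ => Real.exp_pos _) Finset.univ_nonempty) hnR
  -- Jensen
  have hJ : ∀ b, 0 ≤ Real.log (E b) + t * m := by
    intro b
    have h2 : Real.exp (-(t * m)) ≤ E b := by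
      have h3 : ∀ z, Real.exp (-(t * m)) * (1 - t * (S b z - m)) ≤ Real.exp (-(t * S b z)) := by
        intro z
        have e1 : Real.exp (-(t * S b z)) = Real.exp (-(t * m)) * Real.exp (-(t * (S b z - m))) := by
          rw [← Real.exp_add]; congr 1; ring
        rw [e1]
        refine mul_le_mul_of_nonneg_left ?_ (Real.exp_pos _).le
        have := Real.add_one_le_exp (-(t * (S b z - m)))
        linarith
      have h4 : ∑ z, (Real.exp (-(t * m)) * (1 - t * (S b z - m))) ≤ ∑ z, Real.exp (-(t * S b z)) :=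
        Finset.sum_le_sum fun z _ => h3 z
      have h5 : ∑ z, S b z = n * m := by
        have := hmS b
        unfold mean at this
        rw [div_eq_iff hnR.ne'] at this
        rw [this, mul_comm]
      have h6 : ∑ z, (Real.exp (-(t * m)) * (1 - t * (S b z - m))) = n * Real.exp (-(t * m)) := by
        rw [← Finset.mul_sum]
        have : ∑ z, (1 - t * (S b z - m)) = n := by
          rw [Finset.sum_sub_distrib, ← Finset.mul_sum, Finset.sum_sub_distrib, h5]
          simp only [Finset.sum_const, Finset.card_univ, nsmul_eq_mul, ← hn]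
          ring
        rw [this, mul_comm]
      rw [h6] at h4
      show _ ≤ (∑ z, Real.exp (-(t * S b z))) / (n : ℝ)
      rw [le_div_iff₀ hnR]
      linarith
    have h7 := Real.log_le_log (Real.exp_pos _) h2
    rw [Real.log_exp] at h7
    linarith
  -- bad b
  have hB : ∀ b ∈ Bad, L ≤ Real.log (E b) + t * m := by
    intro b hb
    obtain ⟨z, hz⟩ := hBad b hb
    have hz' : S b z < m - lam := hz
    have h2 : Real.exp (-(t * (m - lam))) / n ≤ E b := by
      show _ ≤ (∑ z, Real.exp (-(t * S b z))) / (n : ℝ)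
      refine div_le_div_of_nonneg_right ?_ hnR.le
      refine le_trans ?_ (Finset.single_le_sum (f := fun z => Real.exp (-(t * S b z)))
        (fun z _ => (Real.exp_pos _).le) (Finset.mem_univ z))
      refine Real.exp_le_exp.2 (neg_le_neg (mul_le_mul_of_nonneg_left hz'.le ht0.le))
    have h3 := Real.log_le_log (div_pos (Real.exp_pos _) hnR) h2
    rw [Real.log_div (Real.exp_pos _).ne' hnR.ne', Real.log_exp] at h3
    have h4 : t * lam = 2 * L := by rw [ht]; field_simp
    have h5 : -(t * (m - lam)) = -(t * m) + t * lam := by ring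
    rw [h5, h4] at h3
    linarith
  -- the sum of the logarithms
  have hcube := log_mean_cube (A := A) k (fun e z => Real.exp (-((t * w e) * X z)))
    (fun e z => Real.exp_pos _)
  have hEeq : ∀ b, mean (fun z => ∏ e : Fin k → Bool, Real.exp (-((t * w e) * X (z - shift b e)))) = E b := by
    intro b
    show mean _ = mean _
    congr 1
    funext z
    rw [← Real.exp_sum]
    congr 1
    show _ = -(t * ∑ e : Fin k → Bool, w e * X (z - shift b e))
    rw [Finset.mul_sum, ← Finset.sum_neg_distrib]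
    exact Finset.sum_congr rfl fun e _ => by ring
  rw [Finset.sum_congr rfl fun b _ => by rw [hEeq b]] at hcube
  have hR4 : ∑ e : Fin k → Bool, Real.log (mean (fun z => Real.exp (-((t * w e) * X z)))) ≤
      -(t * m) + t ^ 2 * P * M / 2 := by
    have h1 : ∀ e : Fin k → Bool, Real.log (mean (fun z => Real.exp (-((t * w e) * X z)))) ≤
        -(t * m) * w e + (t ^ 2 * P * M / 2) * w e := by
      intro e
      have h2 := log_mean_exp X M hX0 hXM (t * w e) (mul_nonneg ht0.le (hw0 e))
      have h3 : (t * w e) ^ 2 * M * m ≤ t ^ 2 * P * M * w e := by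
        have h4 : w e ^ 2 ≤ P * w e := by
          rw [sq]; exact mul_le_mul_of_nonneg_right (hwP e) (hw0 e)
        have h5 : (t * w e) ^ 2 * M * m ≤ (t * w e) ^ 2 * M * 1 :=
          mul_le_mul_of_nonneg_left hm (by positivity)
        have h6 : (t * w e) ^ 2 * M * 1 = (t ^ 2 * M) * w e ^ 2 := by ring
        have h7 : (t ^ 2 * M) * w e ^ 2 ≤ (t ^ 2 * M) * (P * w e) :=
          mul_le_mul_of_nonneg_left h4 (by positivity)
        linarith
      have h8 : -(t * w e * m) = -(t * m) * w e := by ring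
      rw [← hmdef, h8] at h2
      linarith
    refine (Finset.sum_le_sum fun e _ => h1 e).trans ?_
    rw [Finset.sum_add_distrib, ← Finset.mul_sum, ← Finset.mul_sum, hws, mul_one, mul_one]
  have hpow : (0 : ℝ) ≤ (n : ℝ) ^ k := by positivity
  have hsum : ∑ b : Fin k → A, (Real.log (E b) + t * m) ≤ (n : ℝ) ^ k * (t ^ 2 * P * M / 2) := by
    rw [Finset.sum_add_distrib]
    have h1 : ∑ _b : Fin k → A, t * m = (n : ℝ) ^ k * (t * m) := by
      rw [Finset.sum_const, Finset.card_univ, Fintype.card_fun, Fintype.card_fin, nsmul_eq_mul,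
        Nat.cast_pow]
    have h2 := mul_le_mul_of_nonneg_left hR4 hpow
    have h3 := hcube.trans h2
    rw [h1]
    have h4 : (n : ℝ) ^ k * (-(t * m) + t ^ 2 * P * M / 2) =
      -((n : ℝ) ^ k * (t * m)) + (n : ℝ) ^ k * (t ^ 2 * P * M / 2) := by ring
    rw [h4] at h3
    linarith
  have hbad : (Bad.card : ℝ) * L ≤ ∑ b : Fin k → A, (Real.log (E b) + t * m) := by
    calc (Bad.card : ℝ) * L = ∑ _b ∈ Bad, L := by rw [Finset.sum_const, nsmul_eq_mul]
      _ ≤ ∑ b ∈ Bad, (Real.log (E b) + t * m) := Finset.sum_le_sum hB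
      _ ≤ _ := Finset.sum_le_sum_of_subset_of_nonneg (Finset.subset_univ _) fun b _ _ => hJ b
  have hfin := hbad.trans hsum
  have e1 : (n : ℝ) ^ k * (t ^ 2 * P * M / 2) = ((n : ℝ) ^ k * (2 * L * P * M / lam ^ 2)) * L := by
    rw [ht]; field_simp
  rw [e1] at hfin
  exact le_of_mul_le_mul_right hfin hL

end

end Crest.Agent.CVD
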