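/-
  CVD_S4 (S0347 part D): means of maxima and of `Th`.
-/
import Crest.Agent.CVD_Defs

set_option autoImplicit false

namespace Crest.Agent.CVD
open Finset

/-- S4. the average of the maximum is at most the average of the sum. -/
theorem sup_mean_le (k q : ℕ) [Fact q.Prime] (I : Finset ℤ) (hne : I.Nonempty) (ω : ℤ → ℝ) (hω : ∀ t, 0 ≤ ω t)
    (F : (Fin k → ZMod q) → ℝ) (hF : ∀ η, 0 ≤ F η) (s : Fin k → ZMod q) :
    mean (fun ξ : Fin k → ZMod q => I.sup' hne (fun j => ω j * F (fun l => ξ l + (j : ZMod q) * s l))) ≤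
      (∑ i ∈ I, ω i) * mean F := by
  unfold mean
  rw [← mul_div_assoc]
  apply div_le_div_of_nonneg_right _ (Nat.cast_nonneg _)
  have h1 : ∀ ξ : Fin k → ZMod q, I.sup' hne (fun j => ω j * F (fun l => ξ l + (j : ZMod q) * s l)) ≤
      ∑ j ∈ I, ω j * F (fun l => ξ l + (j : ZMod q) * s l) := by
    intro ξ
    apply Finset.sup'_le
    intro j hj
    exact Finset.single_le_sum (f := fun j => ω j * F (fun l => ξ l + (j : ZMod q) * s l))
      (fun i _ => mul_nonneg (hω i) (hF _)) hj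
  refine (Finset.sum_le_sum (fun ξ _ => h1 ξ)).trans ?_
  rw [Finset.sum_comm, Finset.sum_mul]
  apply le_of_eq
  apply Finset.sum_congr rfl
  intro j _
  rw [← Finset.mul_sum]
  congr 1
  exact Equiv.sum_comp (Equiv.addRight (fun l => (j : ZMod q) * s l)) F

/-- S5. the sum over the residues. PROOF: `Σ_{η : ZMod q} f (η.val) = Σ_{r ∈ range q} f r`. -/
theorem sum_zmod (q : ℕ) [NeZero q] (f : ℕ → ℝ) : ∑ η : ZMod q, f η.val = ∑ r ∈ range q, f r := by
  cases q with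
  | zero => exact absurd rfl (NeZero.ne 0)
  | succ n => exact Fin.sum_univ_eq_sum_range f (n + 1)

/-- S6. `mean Th ≤ 1`. PROOF: `Σ_η ∏_l wA (η l) = (Σ_{η : ZMod q} wA η)^k` (`Finset.prod_univ_sum`, `Fintype.piFinset_univ`) and
`Σ wA = q Σ_{r<q} (G r + G (r - q)) ≤ q`, all terms nonnegative. -/
theorem sum_Th_le (k q : ℕ) [Fact q.Prime] (G : ℤ → ℝ) (hG : ∀ t, 0 ≤ G t)
    (hsum : ∑ r ∈ range q, (G (r : ℤ) + G ((r : ℤ) - (q : ℤ))) ≤ 1) :
    ∑ η : Fin k → ZMod q, Th q G η ≤ (q : ℝ) ^ k := by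
  have h1 : ∑ η : Fin k → ZMod q, Th q G η = (∑ η : ZMod q, wA q G η) ^ k := by
    unfold Th
    have h2 := Finset.prod_univ_sum (fun _ : Fin k => (univ : Finset (ZMod q))) (fun _ η => wA q G η)
    rw [Fintype.piFinset_univ] at h2
    rw [← h2, Finset.prod_const, Finset.card_univ, Fintype.card_fin]
  have h3 : ∑ η : ZMod q, wA q G η = (q : ℝ) * ∑ r ∈ range q, (G (r : ℤ) + G ((r : ℤ) - (q : ℤ))) := by
    rw [← sum_zmod q (fun r => G (r : ℤ) + G ((r : ℤ) - (q : ℤ))), Finset.mul_sum]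
    apply Finset.sum_congr rfl
    intro η _
    unfold wA wt
    simp only [Bool.false_eq_true, if_false, if_true, sub_zero]
    ring
  have hq : (0:ℝ) ≤ q := Nat.cast_nonneg _
  have h4 : 0 ≤ ∑ η : ZMod q, wA q G η := by
    rw [h3]
    exact mul_nonneg hq (Finset.sum_nonneg (fun r _ => add_nonneg (hG _) (hG _)))
  rw [h1]
  apply pow_le_pow_left₀ h4
  rw [h3]
  calc (q:ℝ) * _ ≤ (q:ℝ) * 1 := mul_le_mul_of_nonneg_left hsum hq
    _ = q := mul_one _

end Crest.Agent.CVD
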