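/-
  CVD_C1 (S0347 part D): choice of the shifts `b`.  (proof by helper14)
-/
import Crest.Agent.CVD_R6
import Crest.Agent.CVD_S4

set_option autoImplicit false

namespace Crest.Agent.CVD
open Finset

/-- C1. Choice of `b`: for some `b` the fibres `η ∈ typ` for which the inner system is not reliable have small total mass.
PROOF: for `η ∈ typ` let `p l e = wt q G (η l) e / wA q G (η l)`; by `reliability` the number of `b` such that
`∃ z, Σ_e (∏_l p l (e l)) X (z - shift b e) < mean X - lam` is at most `(card A)^k τ`. Double counting: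
`Σ_b Σ_{η ∈ typ, η bad for b} Th η ≤ (card A)^k τ Σ_{η ∈ typ} Th η ≤ (card A)^k τ q^k`, so some `b` works. For `η` not bad multiply by
`Th η = ∏ wA`. -/
theorem exists_b {A : Type} [AddCommGroup A] [Fintype A] {k q : ℕ} [Fact q.Prime] {ρ ε : ℝ} {G ω : ℤ → ℝ} {I : Finset ℤ}
    {typ : Finset (Fin k → ZMod q)} {R τ lo hi P : ℝ} (hB : IsBlock k q ρ ε G ω I typ R τ lo hi P)
    (hτ0 : 0 ≤ τ) (X : A → ℝ) (M : ℝ) (hX0 : ∀ z, 0 ≤ X z) (hXM : ∀ z, X z ≤ M) (hm : mean X ≤ 1) (lam : ℝ) (hlam : 0 < lam)
    (hrel : 2 * Real.log (Fintype.card A) * P * M / lam ^ 2 ≤ τ) :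
    ∃ (b : Fin k → A) (good : Finset (Fin k → ZMod q)), good ⊆ typ ∧
      (1 - 2 * τ) * (q : ℝ) ^ k ≤ ∑ η ∈ good, Th q G η ∧
      ∀ η ∈ good, ∀ z, (mean X - lam) * Th q G η ≤
        ∑ e : Fin k → Bool, (∏ l, wt q G (η l) (e l)) * X (z - shift b e) := by
  classical
  have hwt : ∀ (x : ZMod q) (e : Bool), 0 ≤ wt q G x e := fun x e =>
    mul_nonneg (Nat.cast_nonneg _) (hB.G_nonneg _)
  have hTh : ∀ η : Fin k → ZMod q, 0 < Th q G η := fun η =>
    Finset.prod_pos fun l _ => hB.wA_pos (η l)
  set N : ℝ := (Fintype.card A : ℝ) ^ k with hN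
  have hcard : (0 : ℝ) < Fintype.card A := by
    have : 0 < Fintype.card A := Fintype.card_pos
    exact_mod_cast this
  have hNpos : 0 < N := pow_pos hcard k
  let p : (Fin k → ZMod q) → Fin k → Bool → ℝ := fun η l e => wt q G (η l) e / wA q G (η l)
  let bad : (Fin k → A) → (Fin k → ZMod q) → Prop := fun b η =>
    ∃ z, ∑ e : Fin k → Bool, (∏ l, p η l (e l)) * X (z - shift b e) < mean X - lam
  have hprod : ∀ (η : Fin k → ZMod q) (e : Fin k → Bool),
      (∏ l, p η l (e l)) * Th q G η = ∏ l, wt q G (η l) (e l) := by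
    intro η e
    unfold Th
    rw [← Finset.prod_mul_distrib]
    exact Finset.prod_congr rfl fun l _ => div_mul_cancel₀ _ (hB.wA_pos (η l)).ne'
  have hcount : ∀ η ∈ typ, ((univ.filter fun b => bad b η).card : ℝ) ≤ N * τ := by
    intro η hη
    have h1 := reliability (p η)
      (fun l e => div_nonneg (hwt _ _) (hB.wA_pos (η l)).le)
      (fun l => by
        show wt q G (η l) false / wA q G (η l) + wt q G (η l) true / wA q G (η l) = 1
        rw [← add_div]
        exact div_self (hB.wA_pos (η l)).ne') P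
      (by
        have h2 : ∀ l, max (p η l false) (p η l true) =
            max (wt q G (η l) false) (wt q G (η l) true) / wA q G (η l) := by
          intro l
          exact (max_div_div_right (hB.wA_pos (η l)).le _ _)
        simp only [h2]
        rw [Finset.prod_div_distrib]
        exact (div_le_iff₀ (hTh η)).2 (hB.P_le η hη))
      X M hX0 hXM hm lam hlam (univ.filter fun b => bad b η)
      (fun b hb => (Finset.mem_filter.1 hb).2)
    exact h1.trans (mul_le_mul_of_nonneg_left hrel hNpos.le)
  have hdc : ∑ b : Fin k → A, ∑ η ∈ typ.filter (fun η => bad b η), Th q G η ≤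
      ∑ _b : Fin k → A, τ * (q : ℝ) ^ k := by
    calc ∑ b : Fin k → A, ∑ η ∈ typ.filter (fun η => bad b η), Th q G η
        = ∑ η ∈ typ, ((univ.filter fun b => bad b η).card : ℝ) * Th q G η := by
          simp only [Finset.sum_filter]
          rw [Finset.sum_comm]
          refine Finset.sum_congr rfl fun η _ => ?_
          rw [← Finset.sum_filter, Finset.sum_const, nsmul_eq_mul]
      _ ≤ ∑ η ∈ typ, (N * τ) * Th q G η :=
          Finset.sum_le_sum fun η hη => mul_le_mul_of_nonneg_right (hcount η hη) (hTh η).le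
      _ = (N * τ) * ∑ η ∈ typ, Th q G η := by rw [Finset.mul_sum]
      _ ≤ (N * τ) * (q : ℝ) ^ k := by
          refine mul_le_mul_of_nonneg_left ?_ (mul_nonneg hNpos.le hτ0)
          refine le_trans ?_ (sum_Th_le k q G hB.G_nonneg hB.G_sum)
          exact Finset.sum_le_univ_sum_of_nonneg fun η => (hTh η).le
      _ = ∑ _b : Fin k → A, τ * (q : ℝ) ^ k := by
          rw [Finset.sum_const, Finset.card_univ, Fintype.card_fun, Fintype.card_fin, nsmul_eq_mul,
            hN]
          push_cast
          ring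
  obtain ⟨b, -, hb⟩ := Finset.exists_le_of_sum_le (s := univ) Finset.univ_nonempty hdc
  refine ⟨b, typ.filter (fun η => ¬ bad b η), Finset.filter_subset _ _, ?_, ?_⟩
  · have h1 := Finset.sum_filter_add_sum_filter_not typ (fun η => bad b η) (fun η => Th q G η)
    have h2 := hB.typ_mass
    linarith
  · intro η hη z
    have h1 : ¬ bad b η := (Finset.mem_filter.1 hη).2
    have h2 : mean X - lam ≤ ∑ e : Fin k → Bool, (∏ l, p η l (e l)) * X (z - shift b e) := by
      by_contra h
      exact h1 ⟨z, not_le.1 h⟩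
    calc (mean X - lam) * Th q G η
        ≤ (∑ e : Fin k → Bool, (∏ l, p η l (e l)) * X (z - shift b e)) * Th q G η :=
          mul_le_mul_of_nonneg_right h2 (hTh η).le
      _ = ∑ e : Fin k → Bool, (∏ l, wt q G (η l) (e l)) * X (z - shift b e) := by
          rw [Finset.sum_mul]
          refine Finset.sum_congr rfl fun e _ => ?_
          rw [← hprod η e]
          ring

end Crest.Agent.CVD
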