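/-
  CVD_Ext (S0347 part D): the system extended by an outer block (definitions only).
  New row `(a, i, a_in)`: position `(q a_l + i s̃_l)_l`, `i`, `B a_in + Σ_l a_l sec (b_l)`;  class of the offset `(x, y, u_in)` : `x - y s`.
-/
import Crest.Agent.CVD_Defs

set_option autoImplicit false

namespace Crest.Agent.CVD
open Finset

/-- the class homomorphism of the extended system -/
def extCls (κ : Type) (k q : ℕ) (s : Fin k → ZMod q) : (((Fin k ⊕ Unit) ⊕ κ) → ℤ) →+ (Fin k → ZMod q) where
  toFun u := fun l => (u (Sum.inl (Sum.inl l)) : ZMod q) - (u (Sum.inl (Sum.inr ())) : ZMod q) * s l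
  map_zero' := by
    funext l
    simp
  map_add' u v := by
    funext l
    simp only [Pi.add_apply, Int.cast_add]
    ring

/-- the system extended by a block -/
noncomputable def Sys.ext {A : Type} [AddCommGroup A] (S : Sys A) (k q : ℕ) (ρ ε : ℝ) (G ω : ℤ → ℝ)
    (s : Fin k → ZMod q) (b : Fin k → A) : Sys (Fin k → ZMod q) where
  ι := (Fin k ⊕ Unit) ⊕ S.ι
  fι := inferInstance
  dι := inferInstance
  ρ := Sum.elim (Sum.elim (fun _ => ρ) (fun _ => ε)) S.ρ
  g := Sum.elim (Sum.elim (fun _ => G) (fun _ => ω)) S.g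
  B := Matrix.fromBlocks
    (Matrix.fromBlocks ((q : ℤ) • (1 : Matrix (Fin k) (Fin k) ℤ)) (fun l _ => ((s l).val : ℤ)) 0 1) 0
    (fun c x => Sum.elim (fun l => S.sec (b l) c) (fun _ => 0) x) S.B
  cls := extCls S.ι k q s
  sec := fun η => Sum.elim (Sum.elim (fun l => ((η l).val : ℤ)) (fun _ => 0)) (fun _ => 0)

end Crest.Agent.CVD
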