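/-
  CVD_E1 (S0347 part D): determinant and masses of the extended system.
-/
import Crest.Agent.CVD_Ext

set_option autoImplicit false

namespace Crest.Agent.CVD
open Finset

section
variable {A : Type} [AddCommGroup A] (S : Sys A) (k q : ℕ) (ρ ε : ℝ) (G ω : ℤ → ℝ)
    (s : Fin k → ZMod q) (b : Fin k → A)

private theorem cve_sum3 {κ M : Type} [Fintype κ] [AddCommMonoid M]
    (f : (Fin k ⊕ Unit) ⊕ κ → M) : ∑ x, f x =
      (∑ l, f (Sum.inl (Sum.inl l)) + f (Sum.inl (Sum.inr ()))) + ∑ c, f (Sum.inr c) := by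
  rw [Fintype.sum_sum_type, Fintype.sum_sum_type, Fintype.sum_unique (ι := Unit)]

private theorem cve_prod3 {κ M : Type} [Fintype κ] [CommMonoid M]
    (f : (Fin k ⊕ Unit) ⊕ κ → M) : ∏ x, f x =
      ((∏ l, f (Sum.inl (Sum.inl l))) * f (Sum.inl (Sum.inr ()))) * ∏ c, f (Sum.inr c) := by
  rw [Fintype.prod_sum_type, Fintype.prod_sum_type, Fintype.prod_unique (ι := Unit)]

private def cveB : Matrix ((Fin k ⊕ Unit) ⊕ S.ι) ((Fin k ⊕ Unit) ⊕ S.ι) ℤ :=
  Matrix.fromBlocks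
    (Matrix.fromBlocks ((q : ℤ) • (1 : Matrix (Fin k) (Fin k) ℤ)) (fun l _ => ((s l).val : ℤ)) 0
      (1 : Matrix Unit Unit ℤ)) 0
    (fun (c : S.ι) x => Sum.elim (fun l => S.sec (b l) c) (fun _ => 0) x) S.B

private theorem cve_mv1 (a : (Fin k ⊕ Unit) ⊕ S.ι → ℤ) (l : Fin k) :
    (cveB S k q s b).mulVec a (Sum.inl (Sum.inl l)) =
      (q : ℤ) * a (Sum.inl (Sum.inl l)) + ((s l).val : ℤ) * a (Sum.inl (Sum.inr ())) := by
  show ∑ x : (Fin k ⊕ Unit) ⊕ S.ι, cveB S k q s b (Sum.inl (Sum.inl l)) x * a x = _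
  rw [cve_sum3]
  have e1 : ∑ x : S.ι, cveB S k q s b (Sum.inl (Sum.inl l)) (Sum.inr x) *
      a (Sum.inr x) = 0 := Finset.sum_eq_zero fun x _ => zero_mul _
  have e2 : ∑ x : Fin k, cveB S k q s b (Sum.inl (Sum.inl l))
      (Sum.inl (Sum.inl x)) * a (Sum.inl (Sum.inl x)) = (q : ℤ) * a (Sum.inl (Sum.inl l)) := by
    rw [Finset.sum_eq_single l]
    · show ((q : ℤ) • (1 : Matrix (Fin k) (Fin k) ℤ)) l l * _ = _
      rw [Matrix.smul_apply, Matrix.one_apply_eq, smul_eq_mul, mul_one]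
    · intro x _ hx
      show ((q : ℤ) • (1 : Matrix (Fin k) (Fin k) ℤ)) l x * _ = _
      rw [Matrix.smul_apply, Matrix.one_apply_ne hx.symm, smul_zero, zero_mul]
    · intro hl
      exact absurd (Finset.mem_univ l) hl
  rw [e1, e2, add_zero]
  rfl

private theorem cve_mv2 (a : (Fin k ⊕ Unit) ⊕ S.ι → ℤ) :
    (cveB S k q s b).mulVec a (Sum.inl (Sum.inr ())) = a (Sum.inl (Sum.inr ())) := by
  show ∑ x : (Fin k ⊕ Unit) ⊕ S.ι, cveB S k q s b (Sum.inl (Sum.inr ())) x * a x = _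
  rw [cve_sum3]
  have e1 : ∑ x : S.ι, cveB S k q s b (Sum.inl (Sum.inr ())) (Sum.inr x) *
      a (Sum.inr x) = 0 := Finset.sum_eq_zero fun x _ => zero_mul _
  have e2 : ∑ x : Fin k, cveB S k q s b (Sum.inl (Sum.inr ()))
      (Sum.inl (Sum.inl x)) * a (Sum.inl (Sum.inl x)) = 0 :=
    Finset.sum_eq_zero fun x _ => zero_mul _
  rw [e1, e2, add_zero, zero_add]
  show (1 : Matrix Unit Unit ℤ) () () * _ = _
  rw [Matrix.one_apply_eq, one_mul]

private theorem cve_mv3 (a : (Fin k ⊕ Unit) ⊕ S.ι → ℤ) (c : S.ι) :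
    (cveB S k q s b).mulVec a (Sum.inr c) =
      (∑ l, a (Sum.inl (Sum.inl l)) * S.sec (b l) c) + S.B.mulVec (fun c => a (Sum.inr c)) c := by
  show ∑ x : (Fin k ⊕ Unit) ⊕ S.ι, cveB S k q s b (Sum.inr c) x * a x = _
  rw [cve_sum3]
  have e1 : ∑ x : S.ι, cveB S k q s b (Sum.inr c) (Sum.inr x) *
      a (Sum.inr x) = S.B.mulVec (fun c => a (Sum.inr c)) c := rfl
  have e2 : ∑ x : Fin k, cveB S k q s b (Sum.inr c)
      (Sum.inl (Sum.inl x)) * a (Sum.inl (Sum.inl x)) =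
        ∑ l, a (Sum.inl (Sum.inl l)) * S.sec (b l) c :=
    Finset.sum_congr rfl fun x _ => mul_comm _ _
  have e3 : cveB S k q s b (Sum.inr c) (Sum.inl (Sum.inr ())) *
      a (Sum.inl (Sum.inr ())) = 0 := zero_mul _
  rw [e1, e2, e3, add_zero]

private theorem cve_det : (cveB S k q s b).det = (q : ℤ) ^ k * S.B.det := by
  unfold cveB
  rw [Matrix.det_fromBlocks_zero₁₂, Matrix.det_fromBlocks_zero₂₁, Matrix.det_smul, Matrix.det_one,
    Matrix.det_one, Fintype.card_fin, mul_one, mul_one]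

private theorem cve_mass (u a : (Fin k ⊕ Unit) ⊕ S.ι → ℤ) :
    |((cveB S k q s b).det : ℝ)| * ∏ c : (Fin k ⊕ Unit) ⊕ S.ι,
      (Sum.elim (Sum.elim (fun _ => G) (fun _ => ω)) S.g :
        (Fin k ⊕ Unit) ⊕ S.ι → ℤ → ℝ) c (u c - (cveB S k q s b).mulVec a c) =
      (∏ l, ((q : ℝ) * G (u (Sum.inl (Sum.inl l)) - (q : ℤ) * a (Sum.inl (Sum.inl l))
          - ((s l).val : ℤ) * a (Sum.inl (Sum.inr ()))))) *
        ω (u (Sum.inl (Sum.inr ())) - a (Sum.inl (Sum.inr ()))) *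
        S.mass (fun c => u (Sum.inr c) - ∑ l, a (Sum.inl (Sum.inl l)) * S.sec (b l) c)
          (fun c => a (Sum.inr c)) := by
  rw [cve_det, cve_prod3]
  have h1 : ∏ l : Fin k, (Sum.elim (Sum.elim (fun _ => G) (fun _ => ω)) S.g :
        (Fin k ⊕ Unit) ⊕ S.ι → ℤ → ℝ) (Sum.inl (Sum.inl l))
        (u (Sum.inl (Sum.inl l)) - (cveB S k q s b).mulVec a (Sum.inl (Sum.inl l))) =
      ∏ l, G (u (Sum.inl (Sum.inl l)) - (q : ℤ) * a (Sum.inl (Sum.inl l))
          - ((s l).val : ℤ) * a (Sum.inl (Sum.inr ()))) := by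
    refine Finset.prod_congr rfl fun l _ => ?_
    rw [cve_mv1]
    show G _ = G _
    congr 1
    ring
  have h3 : ∏ c : S.ι, (Sum.elim (Sum.elim (fun _ => G) (fun _ => ω)) S.g :
        (Fin k ⊕ Unit) ⊕ S.ι → ℤ → ℝ) (Sum.inr c)
        (u (Sum.inr c) - (cveB S k q s b).mulVec a (Sum.inr c)) =
      ∏ c, S.g c (u (Sum.inr c) - ∑ l, a (Sum.inl (Sum.inl l)) * S.sec (b l) c -
          S.B.mulVec (fun c => a (Sum.inr c)) c) := by
    refine Finset.prod_congr rfl fun c _ => ?_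
    rw [cve_mv3]
    show S.g c _ = S.g c _
    congr 1
    ring
  rw [h1, h3, cve_mv2]
  unfold Sys.mass
  rw [Finset.prod_mul_distrib, Finset.prod_const, Finset.card_univ, Fintype.card_fin]
  push_cast
  rw [abs_mul, abs_pow, Nat.abs_cast]
  simp only [Sum.elim_inl, Sum.elim_inr]
  ring

/-- E1. PROOF: `Matrix.det_fromBlocks_zero₁₂`, `Matrix.det_fromBlocks_zero₂₁`, `Matrix.det_smul`. -/
theorem ext_det : (S.ext k q ρ ε G ω s b).B.det = (q : ℤ) ^ k * S.B.det := by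
  exact cve_det S k q s b

/-- E2. the mass of a row, coordinate by coordinate.
PROOF: unfold `Sys.mass`, `Fintype.prod_sum_type`, compute `mulVec` of the block matrix (`Matrix.fromBlocks_mulVec` or `simp [Matrix.mulVec, dotProduct]`),
and `ext_det`; the offset of the `l`-th coarse coordinate is `u_l - (q a_l + s̃_l i)`. -/
theorem ext_mass (u a : (S.ext k q ρ ε G ω s b).ι → ℤ) :
    (S.ext k q ρ ε G ω s b).mass u a =
      (∏ l, ((q : ℝ) * G (u (Sum.inl (Sum.inl l)) - (q : ℤ) * a (Sum.inl (Sum.inl l))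
          - ((s l).val : ℤ) * a (Sum.inl (Sum.inr ()))))) *
        ω (u (Sum.inl (Sum.inr ())) - a (Sum.inl (Sum.inr ()))) *
        S.mass (fun c => u (Sum.inr c) - ∑ l, a (Sum.inl (Sum.inl l)) * S.sec (b l) c) (fun c => a (Sum.inr c)) := by
  exact cve_mass S k q G ω s b u a

end

end Crest.Agent.CVD
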