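/-
  CVD_T1 (S0347 part D): lifting and transferring trees.
-/
import Crest.Agent.CVD_Defs

set_option autoImplicit false

namespace Crest.Agent.CVD
open Finset

/-- T1. Adding coordinates with constant values `v`: every node `c` becomes `Sum.inr c`.
PROOF: induction on `T` (define the map recursively or give the tree in each case). -/
theorem Tr.lift {ι κ : Type} (v : κ → ℤ) (T : Tr ι) (hT : T.WF) :
    ∃ T' : Tr (κ ⊕ ι), T'.WF ∧ T'.rows = T.rows.map (fun a => Sum.elim v a) := by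
  induction T with
  | leaf a => exact ⟨Tr.leaf (Sum.elim v a), trivial, rfl⟩
  | node c v0 v1 t0 t1 ih0 ih1 =>
    obtain ⟨hne, h0, h1, w0, w1⟩ := hT
    obtain ⟨T0, W0, R0⟩ := ih0 w0
    obtain ⟨T1, W1, R1⟩ := ih1 w1
    refine ⟨Tr.node (Sum.inr c) v0 v1 T0 T1, ⟨hne, ?_, ?_, W0, W1⟩, ?_⟩
    · intro a ha
      rw [R0, List.mem_map] at ha
      obtain ⟨b, hb, rfl⟩ := ha
      exact h0 b hb
    · intro a ha
      rw [R1, List.mem_map] at ha
      obtain ⟨b, hb, rfl⟩ := ha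
      exact h1 b hb
    · show T0.rows ++ T1.rows = (t0.rows ++ t1.rows).map _
      rw [R0, R1, List.map_append]

/-- T3. Transfer to `Fin m`. PROOF: induction on `T`. -/
theorem Tr.toTree {ι : Type} {m : ℕ} (φ : ι ≃ Fin m) (T : Tr ι) (hT : T.WF) :
    ∃ T' : CV.Tree m, T'.WF ∧ T'.rows = T.rows.map (fun a => a ∘ φ.symm) := by
  induction T with
  | leaf a => exact ⟨CV.Tree.leaf (a ∘ φ.symm), trivial, rfl⟩
  | node c v0 v1 t0 t1 ih0 ih1 =>
    obtain ⟨hne, h0, h1, w0, w1⟩ := hT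
    obtain ⟨T0, W0, R0⟩ := ih0 w0
    obtain ⟨T1, W1, R1⟩ := ih1 w1
    refine ⟨CV.Tree.node (φ c) v0 T0 T1, ⟨?_, ?_, W0, W1⟩, ?_⟩
    · intro a ha
      rw [R0, List.mem_map] at ha
      obtain ⟨b, hb, rfl⟩ := ha
      show b (φ.symm (φ c)) = v0
      rw [Equiv.symm_apply_apply]
      exact h0 b hb
    · intro a ha
      rw [R1, List.mem_map] at ha
      obtain ⟨b, hb, rfl⟩ := ha
      show b (φ.symm (φ c)) = v0 + 1
      rw [Equiv.symm_apply_apply, h1 b hb, hne]
    · show T0.rows ++ T1.rows = (t0.rows ++ t1.rows).map _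
      rw [R0, R1, List.map_append]

end Crest.Agent.CVD
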