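/-
  CVD_T2 (S0347 part D): grafting trees.
-/
import Crest.Agent.CVD_Defs

set_option autoImplicit false

namespace Crest.Agent.CVD
open Finset

private theorem cvd_t2_sum_cons {M : Type} [AddCommMonoid M] (k : ℕ)
    (F : (Fin (k + 1) → Bool) → M) :
    ∑ e, F e = ∑ e : Fin k → Bool, F (Fin.cons false e) + ∑ e : Fin k → Bool, F (Fin.cons true e) := by
  have h := (Fin.consEquiv (fun _ : Fin (k + 1) => Bool)).sum_comp F
  rw [← h, Fintype.sum_prod_type, Fintype.sum_bool, add_comm]
  rfl

/-- T2. Grafting: split successively along the coordinates `c 0, …, c (k-1)` with values `v l true = v l false + 1`; the subtree at the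
leaf `e : Fin k → Bool` is `T e`.
PROOF: induction on `k`; `k = 0`: the only `e` is `Fin.elim0 …` (`Unique`); `k+1`: apply the induction hypothesis to `c ∘ succ`,
`v ∘ succ` and the families `fun e => T (Fin.cons false e)`, `fun e => T (Fin.cons true e)`, giving `T0`, `T1`, and take
`node (c 0) (v 0 false) (v 0 true) T0 T1`; sums over `Fin (k+1) → Bool` are split by `Fin.consEquiv`/`Fintype.sum_bool`
(e.g. `(Fin.consEquiv (fun _ => Bool)).sum_comp`, `Fintype.sum_prod_type`). -/
theorem graft {ι : Type} : ∀ (k : ℕ) (c : Fin k → ι) (v : Fin k → Bool → ℤ), (∀ l, v l true = v l false + 1) →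
    ∀ (T : (Fin k → Bool) → Tr ι), (∀ e, (T e).WF) → (∀ e, ∀ a ∈ (T e).rows, ∀ l, a (c l) = v l (e l)) →
    ∃ T' : Tr ι, T'.WF ∧ (∀ a, a ∈ T'.rows ↔ ∃ e, a ∈ (T e).rows) ∧
      T'.rows.length = ∑ e, (T e).rows.length ∧
      ∀ f : (ι → ℤ) → ℝ, (T'.rows.map f).sum = ∑ e, ((T e).rows.map f).sum := by
  intro k
  induction k with
  | zero =>
    intro c v hv T hT _
    refine ⟨T (@default _ Unique.instInhabited), hT _, fun a => ⟨fun h => ⟨_, h⟩, ?_⟩, ?_,
      fun f => ?_⟩
    · rintro ⟨e, he⟩
      rwa [Unique.eq_default e] at he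
    · exact (Fintype.sum_unique (fun e => (T e).rows.length)).symm
    · exact (Fintype.sum_unique (fun e => ((T e).rows.map f).sum)).symm
  | succ k ih =>
    intro c v hv T hT hr
    obtain ⟨T0, w0, m0, l0, s0⟩ := ih (fun l => c l.succ) (fun l => v l.succ) (fun l => hv l.succ)
      (fun e => T (Fin.cons false e)) (fun e => hT _) (fun e a ha l => by
        have := hr _ a ha l.succ
        rwa [Fin.cons_succ] at this)
    obtain ⟨T1, w1, m1, l1, s1⟩ := ih (fun l => c l.succ) (fun l => v l.succ) (fun l => hv l.succ)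
      (fun e => T (Fin.cons true e)) (fun e => hT _) (fun e a ha l => by
        have := hr _ a ha l.succ
        rwa [Fin.cons_succ] at this)
    refine ⟨Tr.node (c 0) (v 0 false) (v 0 true) T0 T1, ?_, ?_, ?_, ?_⟩
    · refine ⟨hv 0, fun a ha => ?_, fun a ha => ?_, w0, w1⟩
      · obtain ⟨e, he⟩ := (m0 a).1 ha
        have := hr _ a he 0
        rwa [Fin.cons_zero] at this
      · obtain ⟨e, he⟩ := (m1 a).1 ha
        have := hr _ a he 0
        rwa [Fin.cons_zero] at this
    · intro a
      rw [Tr.rows, List.mem_append, m0 a, m1 a]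
      constructor
      · rintro (⟨e, he⟩ | ⟨e, he⟩)
        · exact ⟨_, he⟩
        · exact ⟨_, he⟩
      · rintro ⟨e, he⟩
        cases hb : e 0 with
        | false =>
          left
          refine ⟨Fin.tail e, ?_⟩
          rw [← hb, Fin.cons_self_tail]
          exact he
        | true =>
          right
          refine ⟨Fin.tail e, ?_⟩
          rw [← hb, Fin.cons_self_tail]
          exact he
    · rw [Tr.rows, List.length_append, l0, l1, cvd_t2_sum_cons k (fun e => (T e).rows.length)]
    · intro f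
      rw [Tr.rows, List.map_append, List.sum_append, s0, s1,
        cvd_t2_sum_cons k (fun e => ((T e).rows.map f).sum)]

end Crest.Agent.CVD
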