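/-
  CVD_E3 (S0347 part D): the capture property of the extended system.
-/
import Crest.Agent.CVD_E1
import Crest.Agent.CVD_T1
import Crest.Agent.CVD_T2

set_option autoImplicit false

namespace Crest.Agent.CVD
open Finset

section
variable {A : Type} [AddCommGroup A] (S : Sys A) (k q : ℕ) (ρ ε : ℝ) (G ω : ℤ → ℝ)
    (s : Fin k → ZMod q) (b : Fin k → A)

/-- E3. CORE: for every offset `u` and every fibre `j` the extended system has a tree of rows with captured mass at least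
`ω j * Σ_e (∏_l wt (η_l) (e_l)) X (z - Σ_l e_l b_l)` for some `z`, where `η = cls u + j s`.
PROOF: `i := u_y - j`, `v_l := u_l - i s̃_l`, `v_l ≡ η_l` modulo `q` (`η_l = u_l - u_y s_l + j s_l`); `a0_l := v_l / q`, `v_l - q a0_l = (η_l).val`
(uniqueness of the remainder: `Int.emod_emod_of_dvd`, `ZMod.val_intCast`: `((v : ZMod q).val : ℤ) = v % q`).
`z := S.cls (u_in) - Σ_l a0_l b_l`. For `e : Fin k → Bool` put `a_l = a0_l + (if e l then 1 else 0)` and take the tree `T e` of `S` for the offset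
`u_in - Σ_l a_l sec (b_l)` whose class is `z - Σ_l (if e l then b l else 0)` (hypothesis `sec_cls`), lifted by `Tr.lift` with
`v := Sum.elim a (fun _ => i)`; graft them by `graft` along the coordinates `Sum.inl (Sum.inl l)` with the values `a0_l`, `a0_l + 1`.
By `ext_mass` the mass of a row is `(∏_l wt (η_l) (e_l)) * ω j * S.mass …` with `S.mass … ≤ κ`.
The number of rows is at most `Σ_e 2^{card S.ι} = 2^k * 2^{card S.ι}`. -/
theorem ext_cap [NeZero q] {R κ : ℝ} {X : A → ℝ} (hS : S.Ok R κ X) (hκ : 0 ≤ κ)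
    (hG : ∀ t, 0 ≤ G t) (hω : ∀ t, 0 ≤ ω t) (u : (S.ext k q ρ ε G ω s b).ι → ℤ) (j : ℤ) :
    ∃ T : Tr (S.ext k q ρ ε G ω s b).ι, T.WF ∧
      T.rows.length ≤ 2 ^ Fintype.card (S.ext k q ρ ε G ω s b).ι ∧
      (∀ a ∈ T.rows, (S.ext k q ρ ε G ω s b).mass u a ≤
        ω j * (∏ l, max (wt q G ((S.ext k q ρ ε G ω s b).cls u l + (j : ZMod q) * s l) false)
          (wt q G ((S.ext k q ρ ε G ω s b).cls u l + (j : ZMod q) * s l) true)) * κ) ∧
      ∃ z : A, ω j * ∑ e : Fin k → Bool,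
          (∏ l, wt q G ((S.ext k q ρ ε G ω s b).cls u l + (j : ZMod q) * s l) (e l)) *
            X (z - ∑ l, if e l then b l else 0) ≤
        (T.rows.map ((S.ext k q ρ ε G ω s b).mass u)).sum := by
  have hq0 : (0 : ℤ) < (q : ℤ) := by
    have := Nat.pos_of_ne_zero (NeZero.ne q)
    exact_mod_cast this
  have hqr : (0 : ℝ) ≤ (q : ℝ) := Nat.cast_nonneg q
  have hwt0 : ∀ (η : ZMod q) (e : Bool), 0 ≤ wt q G η e := fun η e => mul_nonneg hqr (hG _)
  obtain ⟨uy, huy⟩ : ∃ uy : ℤ, uy = u (Sum.inl (Sum.inr ())) := ⟨_, rfl⟩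
  obtain ⟨i, hi⟩ : ∃ i : ℤ, i = uy - j := ⟨_, rfl⟩
  obtain ⟨ul, hul⟩ : ∃ ul : Fin k → ℤ, ul = fun l => u (Sum.inl (Sum.inl l)) := ⟨_, rfl⟩
  obtain ⟨uin, huin⟩ : ∃ uin : S.ι → ℤ, uin = fun c => u (Sum.inr c) := ⟨_, rfl⟩
  obtain ⟨η, hη⟩ : ∃ η : Fin k → ZMod q, η = fun l => (S.ext k q ρ ε G ω s b).cls u l + (j : ZMod q) * s l :=
    ⟨_, rfl⟩
  have hηl : ∀ l, (S.ext k q ρ ε G ω s b).cls u l + (j : ZMod q) * s l = η l := fun l => by rw [hη]
  simp only [hηl]
  obtain ⟨M, hM⟩ : ∃ M : (((Fin k ⊕ Unit) ⊕ S.ι → ℤ) → ℝ), M = (S.ext k q ρ ε G ω s b).mass u := ⟨_, rfl⟩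
  have hMa : ∀ a : (Fin k ⊕ Unit) ⊕ S.ι → ℤ, M a =
      (∏ l, ((q : ℝ) * G (ul l - (q : ℤ) * a (Sum.inl (Sum.inl l))
          - ((s l).val : ℤ) * a (Sum.inl (Sum.inr ()))))) *
        ω (uy - a (Sum.inl (Sum.inr ()))) *
        S.mass (fun c => uin c - ∑ l, a (Sum.inl (Sum.inl l)) * S.sec (b l) c) (fun c => a (Sum.inr c)) := by
    intro a
    rw [hM, hul, huy, huin]
    exact ext_mass S k q ρ ε G ω s b u a
  suffices key : ∃ T : Tr ((Fin k ⊕ Unit) ⊕ S.ι), T.WF ∧
      T.rows.length ≤ 2 ^ Fintype.card ((Fin k ⊕ Unit) ⊕ S.ι) ∧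
      (∀ a ∈ T.rows, M a ≤ ω j * (∏ l, max (wt q G (η l) false) (wt q G (η l) true)) * κ) ∧
      ∃ z : A, ω j * ∑ e : Fin k → Bool, (∏ l, wt q G (η l) (e l)) * X (z - ∑ l, if e l then b l else 0) ≤
        (T.rows.map M).sum by
    rw [hM] at key
    exact key
  have hηv : ∀ l, (((ul l - i * ((s l).val : ℤ) : ℤ)) : ZMod q) = η l := by
    intro l
    rw [← hηl l]
    change _ = ((u (Sum.inl (Sum.inl l)) : ZMod q) - (u (Sum.inl (Sum.inr ())) : ZMod q) * s l) + (j : ZMod q) * s l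
    rw [hul, hi, huy]
    push_cast
    rw [ZMod.natCast_zmod_val]
    ring
  obtain ⟨a0, ha0⟩ : ∃ a0 : Fin k → ℤ, a0 = fun l => (ul l - i * ((s l).val : ℤ)) / (q : ℤ) := ⟨_, rfl⟩
  have hrem : ∀ l, ul l - i * ((s l).val : ℤ) - (q : ℤ) * a0 l = ((η l).val : ℤ) := by
    intro l
    rw [← hηv l, ZMod.val_intCast, ha0]
    have := Int.emod_add_mul_ediv (ul l - i * ((s l).val : ℤ)) (q : ℤ)
    linarith
  -- the value of the coarse coordinate
  obtain ⟨av, hav⟩ : ∃ av : Fin k → Bool → ℤ, av = fun l x => a0 l + (if x then 1 else 0) := ⟨_, rfl⟩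
  have havne : ∀ l, av l true = av l false + 1 := by
    intro l
    rw [hav]
    simp
  have hwt : ∀ (l : Fin k) (x : Bool),
      (q : ℝ) * G (ul l - (q : ℤ) * av l x - ((s l).val : ℤ) * i) = wt q G (η l) x := by
    intro l x
    unfold wt
    congr 2
    rw [← hrem l, hav]
    cases x <;> simp <;> ring
  obtain ⟨z, hz⟩ : ∃ z : A, z = S.cls uin - ∑ l, a0 l • b l := ⟨_, rfl⟩
  obtain ⟨u', hu'⟩ : ∃ u' : (Fin k → Bool) → (S.ι → ℤ),
      u' = fun e => (fun c => uin c - ∑ l, av l (e l) * S.sec (b l) c) := ⟨_, rfl⟩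
  have hcls : ∀ e, S.cls (u' e) = z - ∑ l, if e l then b l else 0 := by
    intro e
    have h1 : u' e = uin - ∑ l, av l (e l) • S.sec (b l) := by
      rw [hu']
      funext c
      simp only [Pi.sub_apply, Finset.sum_apply, Pi.smul_apply, smul_eq_mul]
    rw [h1, map_sub, map_sum, hz, sub_sub, ← Finset.sum_add_distrib]
    congr 1
    apply Finset.sum_congr rfl
    intro l _
    rw [map_zsmul, hS.sec_cls, hav]
    cases e l
    · simp
    · simp [add_smul]
  choose T0 hT0 using fun e => hS.cap (u' e)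
  choose T1 hT1 using fun e : Fin k → Bool =>
    Tr.lift (κ := Fin k ⊕ Unit) (Sum.elim (fun l => av l (e l)) (fun _ => i)) (T0 e) (hT0 e).1
  obtain ⟨T, hTW, hTmem, hTlen, hTsum⟩ := graft (ι := (Fin k ⊕ Unit) ⊕ S.ι) k (fun l => Sum.inl (Sum.inl l)) av havne T1
    (fun e => (hT1 e).1) (by
      intro e a ha l
      rw [(hT1 e).2, List.mem_map] at ha
      obtain ⟨a', _, rfl⟩ := ha
      rfl)
  have hmass : ∀ (e : Fin k → Bool) (a' : S.ι → ℤ),
      M (Sum.elim (Sum.elim (fun l => av l (e l)) (fun _ => i)) a') =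
        ω j * (∏ l, wt q G (η l) (e l)) * S.mass (u' e) a' := by
    intro e a'
    rw [hMa]
    have e2 : uy - i = j := by rw [hi]; ring
    have e3 : (fun c => uin c - ∑ l, av l (e l) * S.sec (b l) c) = u' e := by
      rw [hu']
    change (∏ l, ((q : ℝ) * G (ul l - (q : ℤ) * av l (e l) - ((s l).val : ℤ) * i))) * ω (uy - i) *
      S.mass (fun c => uin c - ∑ l, av l (e l) * S.sec (b l) c) (fun c => a' c) = _
    rw [e2, e3, Finset.prod_congr rfl (fun l _ => hwt l (e l))]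
    ring
  refine ⟨T, hTW, ?_, ?_, z, ?_⟩
  · rw [hTlen]
    have h1 : ∀ e ∈ (Finset.univ : Finset (Fin k → Bool)), (T1 e).rows.length ≤ 2 ^ Fintype.card S.ι := by
      intro e _
      rw [(hT1 e).2, List.length_map]
      exact (hT0 e).2.1
    refine (Finset.sum_le_card_nsmul _ _ _ h1).trans ?_
    rw [Finset.card_univ, Fintype.card_fun, Fintype.card_bool, Fintype.card_fin, smul_eq_mul, ← pow_add]
    apply Nat.pow_le_pow_right (by norm_num)
    rw [Fintype.card_sum, Fintype.card_sum, Fintype.card_fin]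
    omega
  · intro a ha
    rw [hTmem] at ha
    obtain ⟨e, ha⟩ := ha
    rw [(hT1 e).2, List.mem_map] at ha
    obtain ⟨a', ha', rfl⟩ := ha
    rw [hmass e a']
    have h1 := (hT0 e).2.2.1 a' ha'
    have h2 : ∏ l, wt q G (η l) (e l) ≤ ∏ l, max (wt q G (η l) false) (wt q G (η l) true) := by
      apply Finset.prod_le_prod
      · intro l _; exact hwt0 _ _
      · intro l _
        cases e l
        · exact le_max_left _ _
        · exact le_max_right _ _
    have h3 : 0 ≤ ∏ l, wt q G (η l) (e l) := Finset.prod_nonneg fun l _ => hwt0 _ _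
    calc ω j * (∏ l, wt q G (η l) (e l)) * S.mass (u' e) a'
        ≤ ω j * (∏ l, wt q G (η l) (e l)) * κ :=
          mul_le_mul_of_nonneg_left h1 (mul_nonneg (hω j) h3)
      _ ≤ ω j * (∏ l, max (wt q G (η l) false) (wt q G (η l) true)) * κ :=
          mul_le_mul_of_nonneg_right (mul_le_mul_of_nonneg_left h2 (hω j)) hκ
  · rw [hTsum, Finset.mul_sum]
    apply Finset.sum_le_sum
    intro e _
    have h3 : 0 ≤ ∏ l, wt q G (η l) (e l) := Finset.prod_nonneg fun l _ => hwt0 _ _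
    have h1 := (hT0 e).2.2.2
    rw [hcls e] at h1
    have h2 : ((T1 e).rows.map M).sum =
        ω j * (∏ l, wt q G (η l) (e l)) * ((T0 e).rows.map (S.mass (u' e))).sum := by
      rw [(hT1 e).2, List.map_map, ← List.sum_map_mul_left]
      congr 1
      apply List.map_congr_left
      intro a' _
      exact hmass e a'
    rw [h2, mul_assoc]
    apply mul_le_mul_of_nonneg_left _ (hω j)
    exact mul_le_mul_of_nonneg_left h1 h3

end

end Crest.Agent.CVD
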