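/-
  CVD_E4 (S0347 part D): the simple conditions for the extended system; a row of mass zero.
-/
import Crest.Agent.CVD_E1

set_option autoImplicit false

namespace Crest.Agent.CVD
open Finset

section
variable {A : Type} [AddCommGroup A] (S : Sys A) (k q : ℕ) (ρ ε : ℝ) (G ω : ℤ → ℝ)
    (s : Fin k → ZMod q) (b : Fin k → A)

/-- E4. the extended system satisfies all the conditions of `Ok` apart from the capture property.
PROOF: case distinction over the coordinates; `sec_cls`: `((η l).val : ZMod q) = η l`. -/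
theorem ext_ok [NeZero q] {R κ : ℝ} {X : A → ℝ} (hS : S.Ok R κ X) (R' τ lo hi P : ℝ) (hR : R' ≤ R) (I : Finset ℤ)
    (typ : Finset (Fin k → ZMod q)) (hB : IsBlock k q ρ ε G ω I typ R' τ lo hi P)
    (κ' : ℝ) (X' : (Fin k → ZMod q) → ℝ) (hcap : (S.ext k q ρ ε G ω s b).Cap κ' X') :
    (S.ext k q ρ ε G ω s b).Ok R κ' X' where
  sec_cls := by
    intro η
    funext l
    change ((((η l).val : ℕ) : ℤ) : ZMod q) - ((0 : ℤ) : ZMod q) * s l = η l
    rw [Int.cast_zero, zero_mul, sub_zero, Int.cast_natCast, ZMod.natCast_zmod_val]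
  ρ_pos := by
    rintro ((l | l) | c)
    · exact hB.ρ_pos
    · exact hB.ε_pos
    · exact hS.ρ_pos c
  ρ_le := by
    rintro ((l | l) | c)
    · exact hB.ρ_le
    · exact hB.ε_le
    · exact hS.ρ_le c
  g_nonneg := by
    rintro ((l | l) | c) t
    · exact hB.G_nonneg t
    · exact hB.ω_nonneg t
    · exact hS.g_nonneg c t
  g_le := by
    rintro ((l | l) | c) t w h
    · exact hB.G_le t w h
    · exact hB.ω_le t w h
    · exact hS.g_le c t w h
  g_supp := by
    rintro ((l | l) | c) t h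
    · exact hB.G_supp t (lt_of_le_of_lt hR h)
    · exact hB.ω_supp t (lt_of_le_of_lt hR h)
    · exact hS.g_supp c t h
  det_ne := by
    have h := ext_det S k q ρ ε G ω s b
    rw [h]
    exact mul_ne_zero (pow_ne_zero k (by exact_mod_cast NeZero.ne q)) hS.det_ne
  cap := hcap

end

/-- C2a. a row of mass zero. PROOF: some `t0` has `ω t0 = 0` (`ω_supp`, large `t0`); take the tree `leaf a` with
`a (inl (inr ())) = u (inl (inr ())) - t0`, `0` elsewhere; its mass is `0` by `ext_mass`. -/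
theorem exists_zero {A : Type} [AddCommGroup A] (S : Sys A) {k q : ℕ} {ρ ε : ℝ} {G ω : ℤ → ℝ} {I : Finset ℤ}
    {typ : Finset (Fin k → ZMod q)} {R τ lo hi P : ℝ} (hB : IsBlock k q ρ ε G ω I typ R τ lo hi P)
    (s : Fin k → ZMod q) (b : Fin k → A) (u : (S.ext k q ρ ε G ω s b).ι → ℤ) :
    ∃ T : Tr (S.ext k q ρ ε G ω s b).ι, T.WF ∧ T.rows.length = 1 ∧
      ∀ a ∈ T.rows, (S.ext k q ρ ε G ω s b).mass u a = 0 := by
  obtain ⟨n, hn⟩ := exists_nat_gt (R / ε)
  have hε := hB.ε_pos
  have hω : ω (n : ℤ) = 0 := by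
    apply hB.ω_supp
    rw [div_lt_iff₀ hε] at hn
    have h1 : |((n : ℤ) : ℝ)| = (n : ℝ) := by
      rw [Int.cast_natCast, abs_of_nonneg (Nat.cast_nonneg n)]
    rw [h1, mul_comm]
    exact hn
  let a : (S.ext k q ρ ε G ω s b).ι → ℤ := fun c => u c - (n : ℤ)
  refine ⟨Tr.leaf a, trivial, rfl, ?_⟩
  intro a' ha'
  have ha : a' = a := List.mem_singleton.1 ha'
  rw [ha]
  have h3 := ext_mass S k q ρ ε G ω s b u a
  rw [h3]
  have h2 : u (Sum.inl (Sum.inr ())) - a (Sum.inl (Sum.inr ())) = (n : ℤ) := by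
    simp only [a]
    ring
  rw [h2, hω, mul_zero, zero_mul]

end Crest.Agent.CVD
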