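/-
  CVD_S1 (S0347 part D): maximum versus sum.
-/
import Crest.Agent.CVD_Defs

set_option autoImplicit false

namespace Crest.Agent.CVD
open Finset

/-- S1. `max ≥ Σ - Σ_{i ≠ j} min` in the form needed. PROOF: let `m ∈ I` be the maximiser (`Finset.exists_mem_eq_sup'`);
`Σ_{j ∈ I} W j - W m = Σ_{j ≠ m} W j`, and `W j = min (W j) (W m) ≤ W j * W m / lo` (if both are nonzero, `W m ≥ lo`; otherwise `W j = 0`
since `W j ≤ W m`). -/
theorem sup_ge {ι : Type} [DecidableEq ι] (I : Finset ι) (hI : I.Nonempty) (W : ι → ℝ) (hW : ∀ i ∈ I, 0 ≤ W i) (lo : ℝ) (hlo : 0 < lo)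
    (h : ∀ i ∈ I, W i ≠ 0 → lo ≤ W i) :
    ∑ i ∈ I, W i - (∑ i ∈ I, ∑ j ∈ I.erase i, W i * W j) / lo ≤ I.sup' hI W := by
  classical
  obtain ⟨m, hm, hmax⟩ := Finset.exists_mem_eq_sup' hI W
  rw [hmax]
  have hle : ∀ j ∈ I, W j ≤ W m := fun j hj => by
    rw [← hmax]; exact Finset.le_sup' W hj
  have h1 : ∑ i ∈ I, W i = W m + ∑ j ∈ I.erase m, W j := (Finset.add_sum_erase I W hm).symm
  have h2 : ∑ j ∈ I.erase m, W j ≤ (∑ j ∈ I.erase m, W m * W j) / lo := by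
    rw [Finset.sum_div]
    refine Finset.sum_le_sum fun j hj => ?_
    have hj' := Finset.mem_of_mem_erase hj
    rcases eq_or_ne (W j) 0 with h0 | h0
    · rw [h0, mul_zero, zero_div]
    · have hWj : 0 < W j := lt_of_le_of_ne (hW j hj') (Ne.symm h0)
      have hWm : lo ≤ W m := h m hm (hWj.trans_le (hle j hj')).ne'
      rw [le_div_iff₀ hlo, mul_comm (W j) lo]
      exact mul_le_mul_of_nonneg_right hWm hWj.le
  have h3 : (∑ j ∈ I.erase m, W m * W j) ≤ ∑ i ∈ I, ∑ j ∈ I.erase i, W i * W j :=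
    Finset.single_le_sum (f := fun i => ∑ j ∈ I.erase i, W i * W j)
      (fun i hi => Finset.sum_nonneg fun j hj =>
        mul_nonneg (hW i hi) (hW j (Finset.mem_of_mem_erase hj))) hm
  have h4 := div_le_div_of_nonneg_right h3 hlo.le
  linarith

end Crest.Agent.CVD
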