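/-
  CVD_S2 (S0347 part D): pairwise independence of the fibres.
-/
import Crest.Agent.CVD_Defs

set_option autoImplicit false

namespace Crest.Agent.CVD
open Finset

/-- S2. pairwise independence of `(ξ + i s, ξ + j s)`. PROOF: the map `(ξ, s) ↦ (ξ + i s, ξ + j s)` is a bijection of
`(Fin k → ZMod q)^2` when `i - j` is invertible modulo the prime `q`. -/
theorem pair_indep (k q : ℕ) [Fact q.Prime] (i j : ℤ) (hij : ((i - j : ℤ) : ZMod q) ≠ 0)
    (F H : (Fin k → ZMod q) → ℝ) :
    ∑ s : Fin k → ZMod q, ∑ ξ : Fin k → ZMod q,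
      F (fun l => ξ l + (i : ZMod q) * s l) * H (fun l => ξ l + (j : ZMod q) * s l) =
      (∑ η, F η) * (∑ η, H η) := by
  have hc : ((j : ZMod q) - (i : ZMod q)) ≠ 0 := by
    intro h
    apply hij
    push_cast
    have : (i : ZMod q) - (j : ZMod q) = -((j : ZMod q) - (i : ZMod q)) := by ring
    rw [this, h, neg_zero]
  have h1 : ∀ s : Fin k → ZMod q, ∑ ξ : Fin k → ZMod q,
      F (fun l => ξ l + (i : ZMod q) * s l) * H (fun l => ξ l + (j : ZMod q) * s l) =
      ∑ η : Fin k → ZMod q, F η * H (fun l => η l + ((j : ZMod q) - (i : ZMod q)) * s l) := by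
    intro s
    have h := Equiv.sum_comp (Equiv.addRight (fun l => (i : ZMod q) * s l))
      (fun η : Fin k → ZMod q => F η * H (fun l => η l + ((j : ZMod q) - (i : ZMod q)) * s l))
    rw [← h]
    apply Finset.sum_congr rfl
    intro ξ _
    have e2 : (fun l => ξ l + (j : ZMod q) * s l) =
        (fun l => (Equiv.addRight (fun l => (i : ZMod q) * s l)) ξ l + ((j : ZMod q) - (i : ZMod q)) * s l) := by
      funext l
      simp only [Equiv.coe_addRight, Pi.add_apply]
      ring
    rw [e2]
    rfl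
  rw [Finset.sum_congr rfl (fun s _ => h1 s), Finset.sum_comm, Finset.sum_mul]
  apply Finset.sum_congr rfl
  intro η _
  rw [← Finset.mul_sum]
  congr 1
  let e : (Fin k → ZMod q) ≃ (Fin k → ZMod q) :=
    Equiv.piCongrRight (fun l => (Equiv.mulLeft₀ ((j : ZMod q) - (i : ZMod q)) hc).trans (Equiv.addLeft (η l)))
  exact Equiv.sum_comp e H

end Crest.Agent.CVD
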