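/-
  CVD_S3 (S0347 part D): the selection lemma.
-/
import Crest.Agent.CVD_S1
import Crest.Agent.CVD_S2

set_option autoImplicit false

namespace Crest.Agent.CVD
open Finset

private theorem sum_translate {k q : ℕ} [NeZero q] (j : ZMod q) (s : Fin k → ZMod q)
    (F : (Fin k → ZMod q) → ℝ) :
    ∑ ξ : Fin k → ZMod q, F (fun l => ξ l + j * s l) = ∑ η, F η :=
  Equiv.sum_comp (Equiv.addRight (fun l => j * s l)) F

/-- S3. THE SELECTION LEMMA.
PROOF: average over `s` : by S1 with `W j = ω j * F (ξ + j s)` the average of the `mean` over `s` is at least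
`Σ_j ω_j mean F - (Σ_{i≠j} ω_i ω_j (mean F)^2) / lo` by S2 (and `Σ_ξ F (ξ + j s) = Σ F`), and `Σ_{i ≠ j} ω_i ω_j ≤ (Σ ω)^2`;
then some `s` is at least as good as the average. -/
theorem selection (k q : ℕ) [Fact q.Prime] (I : Finset ℤ)
    (hI : ∀ i ∈ I, ∀ j ∈ I, i ≠ j → ((i - j : ℤ) : ZMod q) ≠ 0) (hne : I.Nonempty) (ω : ℤ → ℝ) (hω : ∀ t, 0 ≤ ω t)
    (F : (Fin k → ZMod q) → ℝ) (hF : ∀ η, 0 ≤ F η) (lo : ℝ) (hlo : 0 < lo)
    (h : ∀ i ∈ I, ∀ η, F η ≠ 0 → lo ≤ ω i * F η) :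
    ∃ s : Fin k → ZMod q, (∑ i ∈ I, ω i) * mean F - ((∑ i ∈ I, ω i) * mean F) ^ 2 / lo ≤
      mean (fun ξ : Fin k → ZMod q => I.sup' hne (fun j => ω j * F (fun l => ξ l + (j : ZMod q) * s l))) := by
  set n : ℝ := (Fintype.card (Fin k → ZMod q) : ℝ) with hn
  have hn0 : 0 < n := by
    rw [hn]
    exact_mod_cast Fintype.card_pos
  set SF : ℝ := ∑ η, F η with hSF
  have hSF0 : 0 ≤ SF := Finset.sum_nonneg (fun η _ => hF η)
  set Om : ℝ := ∑ i ∈ I, ω i with hOm
  have hmF : mean F = SF / n := rfl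
  -- pointwise bound
  have hpt : ∀ (s ξ : Fin k → ZMod q),
      ∑ j ∈ I, ω j * F (fun l => ξ l + (j : ZMod q) * s l) -
        (∑ i ∈ I, ∑ j ∈ I.erase i, (ω i * F (fun l => ξ l + (i : ZMod q) * s l)) *
          (ω j * F (fun l => ξ l + (j : ZMod q) * s l))) / lo ≤
        I.sup' hne (fun j => ω j * F (fun l => ξ l + (j : ZMod q) * s l)) := by
    intro s ξ
    apply sup_ge I hne (fun j => ω j * F (fun l => ξ l + (j : ZMod q) * s l))
    · intro i _
      exact mul_nonneg (hω i) (hF _)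
    · exact hlo
    · intro i hi hne0
      exact h i hi _ (right_ne_zero_of_mul hne0)
  -- the sum over s and ξ
  have hsum1 : ∑ s : Fin k → ZMod q, ∑ ξ : Fin k → ZMod q,
      ∑ j ∈ I, ω j * F (fun l => ξ l + (j : ZMod q) * s l) = n * (Om * SF) := by
    have h1 : ∀ s : Fin k → ZMod q, ∑ ξ : Fin k → ZMod q,
        ∑ j ∈ I, ω j * F (fun l => ξ l + (j : ZMod q) * s l) = Om * SF := by
      intro s
      rw [Finset.sum_comm, hOm, Finset.sum_mul]
      refine Finset.sum_congr rfl (fun j _ => ?_)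
      rw [← Finset.mul_sum, sum_translate]
    rw [Finset.sum_congr rfl (fun s _ => h1 s), Finset.sum_const, nsmul_eq_mul]
    rfl
  have hsum2 : ∑ s : Fin k → ZMod q, ∑ ξ : Fin k → ZMod q,
      ∑ i ∈ I, ∑ j ∈ I.erase i, (ω i * F (fun l => ξ l + (i : ZMod q) * s l)) *
          (ω j * F (fun l => ξ l + (j : ZMod q) * s l)) ≤ (Om * SF) ^ 2 := by
    have h1 : ∑ s : Fin k → ZMod q, ∑ ξ : Fin k → ZMod q,
      ∑ i ∈ I, ∑ j ∈ I.erase i, (ω i * F (fun l => ξ l + (i : ZMod q) * s l)) *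
          (ω j * F (fun l => ξ l + (j : ZMod q) * s l)) =
        ∑ i ∈ I, ∑ j ∈ I.erase i, ω i * ω j * (SF * SF) := by
      rw [Finset.sum_congr rfl (fun s _ => Finset.sum_comm), Finset.sum_comm]
      refine Finset.sum_congr rfl (fun i hi => ?_)
      rw [Finset.sum_congr rfl (fun s _ => Finset.sum_comm), Finset.sum_comm]
      refine Finset.sum_congr rfl (fun j hj => ?_)
      have hji := Finset.mem_erase.mp hj
      have h2 := pair_indep k q i j (hI i hi j hji.2 (fun e => hji.1 e.symm)) F F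
      rw [← hSF] at h2
      rw [← h2, Finset.mul_sum]
      refine Finset.sum_congr rfl (fun s _ => ?_)
      rw [Finset.mul_sum]
      refine Finset.sum_congr rfl (fun ξ _ => ?_)
      ring
    rw [h1]
    calc ∑ i ∈ I, ∑ j ∈ I.erase i, ω i * ω j * (SF * SF)
        ≤ ∑ i ∈ I, ∑ j ∈ I, ω i * ω j * (SF * SF) := by
          refine Finset.sum_le_sum (fun i _ => ?_)
          refine Finset.sum_le_sum_of_subset_of_nonneg (Finset.erase_subset _ _) ?_
          intro j _ _
          exact mul_nonneg (mul_nonneg (hω i) (hω j)) (mul_nonneg hSF0 hSF0)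
      _ = (Om * SF) ^ 2 := by
          rw [hOm]
          simp_rw [← Finset.sum_mul, ← Finset.mul_sum]
          rw [← Finset.sum_mul]
          ring
  have htot : n * (Om * SF) - (Om * SF) ^ 2 / lo ≤
      ∑ s : Fin k → ZMod q, ∑ ξ : Fin k → ZMod q,
        I.sup' hne (fun j => ω j * F (fun l => ξ l + (j : ZMod q) * s l)) := by
    calc n * (Om * SF) - (Om * SF) ^ 2 / lo
        ≤ n * (Om * SF) - (∑ s : Fin k → ZMod q, ∑ ξ : Fin k → ZMod q,
          ∑ i ∈ I, ∑ j ∈ I.erase i, (ω i * F (fun l => ξ l + (i : ZMod q) * s l)) *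
            (ω j * F (fun l => ξ l + (j : ZMod q) * s l))) / lo := by
          have := div_le_div_of_nonneg_right hsum2 hlo.le
          linarith
      _ = ∑ s : Fin k → ZMod q, ∑ ξ : Fin k → ZMod q,
          (∑ j ∈ I, ω j * F (fun l => ξ l + (j : ZMod q) * s l) -
        (∑ i ∈ I, ∑ j ∈ I.erase i, (ω i * F (fun l => ξ l + (i : ZMod q) * s l)) *
          (ω j * F (fun l => ξ l + (j : ZMod q) * s l))) / lo) := by
          rw [← hsum1, Finset.sum_div, ← Finset.sum_sub_distrib]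
          refine Finset.sum_congr rfl (fun s _ => ?_)
          rw [Finset.sum_div, ← Finset.sum_sub_distrib]
      _ ≤ _ := Finset.sum_le_sum (fun s _ => Finset.sum_le_sum (fun ξ _ => hpt s ξ))
  by_contra hcon
  push Not at hcon
  have hlt : ∑ s : Fin k → ZMod q, mean (fun ξ : Fin k → ZMod q =>
      I.sup' hne (fun j => ω j * F (fun l => ξ l + (j : ZMod q) * s l))) <
      ∑ _s : Fin k → ZMod q, (Om * mean F - (Om * mean F) ^ 2 / lo) :=
    Finset.sum_lt_sum_of_nonempty Finset.univ_nonempty (fun s _ => hcon s)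
  rw [Finset.sum_const, nsmul_eq_mul] at hlt
  have hcardn : ((Finset.univ : Finset (Fin k → ZMod q)).card : ℝ) = n := rfl
  rw [hcardn] at hlt
  have h3 : ∑ s : Fin k → ZMod q, mean (fun ξ : Fin k → ZMod q =>
      I.sup' hne (fun j => ω j * F (fun l => ξ l + (j : ZMod q) * s l))) =
      (∑ s : Fin k → ZMod q, ∑ ξ : Fin k → ZMod q,
        I.sup' hne (fun j => ω j * F (fun l => ξ l + (j : ZMod q) * s l))) / n := by
    rw [Finset.sum_div]
    rfl
  rw [h3, div_lt_iff₀ hn0] at hlt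
  have h4 : n * (Om * mean F - (Om * mean F) ^ 2 / lo) * n =
      n * (Om * SF) - (Om * SF) ^ 2 / lo := by
    rw [hmF]
    field_simp
  rw [h4] at hlt
  exact absurd htot (not_le.mpr hlt)

end Crest.Agent.CVD
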