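/-
  CVD_C2 (S0347 part D): the composition theorem.
-/
import Crest.Agent.CVD_C1
import Crest.Agent.CVD_S3
import Crest.Agent.CVD_E3
import Crest.Agent.CVD_E4

set_option autoImplicit false

namespace Crest.Agent.CVD
open Finset

set_option maxHeartbeats 1000000 in
/-- C2. THE COMPOSITION THEOREM.
PROOF: `v := mean X - lam > 0`; `b, good` from C1; `F η := v * Th η` for `η ∈ good`, `0` otherwise; `mean F ∈ [v (1 - 2τ), v]` (`sum_Th_le`).
`s` from `selection` with `lo' = lo * v` (nonzero values of `ω i * F η` are `≥ lo v`); `X' ξ := sup'_{j ∈ I} ω j * F (ξ + j s)`.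
`mean X' ≥ m1 - m1^2/(lo v)`, `m1 = (Σ ω) mean F ∈ [v (1-τ)(1-2τ), v]`, so `mean X' ≥ v - 3τ v - v / lo ≥ mean X - lam - 3 τ - 1/lo`.
`X' ≤ hi v ≤ hi`, `mean X' ≤ Σ ω mean F ≤ 1` (`sup_mean_le`).
Capture: given `u`, the sup at `ξ = cls u` is attained at some `j ∈ I`; if it is `0` use C2a (`κ * hi * P ≥ 0`: `typ` is nonempty by `typ_mass`, so
`hi ≥ lo > 0` and `P * Th η ≥ ∏ max > 0` give `P > 0`), otherwise `η = ξ + j s ∈ good ⊆ typ`: the leaf masses are
`≤ ω j * P * Th η * κ ≤ hi P κ` and the captured mass is `≥ ω j * v * Th η` by `ext_cap`. -/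
theorem compose {A : Type} [AddCommGroup A] [Fintype A] (S : Sys A) {R κ : ℝ} {X : A → ℝ} (hS : S.Ok R κ X) (hκ : 0 ≤ κ)
    {M : ℝ} (hX0 : ∀ z, 0 ≤ X z) (hXM : ∀ z, X z ≤ M) (hm : mean X ≤ 1)
    {k q : ℕ} [Fact q.Prime] {ρ ε : ℝ} {G ω : ℤ → ℝ} {I : Finset ℤ}
    {typ : Finset (Fin k → ZMod q)} {R' τ lo hi P : ℝ} (hB : IsBlock k q ρ ε G ω I typ R' τ lo hi P) (hR : R' ≤ R)
    (hτ0 : 0 ≤ τ) (hτ : τ ≤ 1 / 4) (hlo : 0 < lo) {lam : ℝ} (hlam : 0 < lam) (hv : lam < mean X)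
    (hrel : 2 * Real.log (Fintype.card A) * P * M / lam ^ 2 ≤ τ) :
    ∃ (S' : Sys (Fin k → ZMod q)) (X' : (Fin k → ZMod q) → ℝ), S'.Ok R (κ * hi * P) X' ∧
      (∀ ξ, 0 ≤ X' ξ) ∧ (∀ ξ, X' ξ ≤ hi) ∧ mean X' ≤ 1 ∧ mean X - lam - 3 * τ - 1 / lo ≤ mean X' ∧
      Fintype.card S'.ι = k + 1 + Fintype.card S.ι ∧ |(S'.B.det : ℝ)| = (q : ℝ) ^ k * |(S.B.det : ℝ)| := by
  classical
  obtain ⟨b, good, hgt, hgm, hgood⟩ := exists_b hB hτ0 X M hX0 hXM hm lam hlam hrel
  obtain ⟨v, hvdef⟩ : ∃ v : ℝ, v = mean X - lam := ⟨_, rfl⟩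
  rw [← hvdef] at hgood
  have hv0 : 0 < v := by linarith
  have hv1 : v ≤ 1 := by linarith
  have hq0 : (0:ℝ) < q := by exact_mod_cast (Fact.out : q.Prime).pos
  have hqk : (0:ℝ) < (q:ℝ) ^ k := pow_pos hq0 k
  have hTh : ∀ η : Fin k → ZMod q, 0 < Th q G η := fun η => Finset.prod_pos (fun l _ => hB.wA_pos _)
  have hcard : (Fintype.card (Fin k → ZMod q) : ℝ) = (q : ℝ) ^ k := by
    rw [Fintype.card_fun, ZMod.card, Fintype.card_fin]
    push_cast
    rfl
  obtain ⟨F, hFdef⟩ : ∃ F : (Fin k → ZMod q) → ℝ, F = fun η => if η ∈ good then v * Th q G η else 0 := ⟨_, rfl⟩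
  have hF1 : ∀ η, η ∈ good → F η = v * Th q G η := by
    intro η hη
    rw [hFdef]
    simp only [if_pos hη]
  have hF2 : ∀ η, η ∉ good → F η = 0 := by
    intro η hη
    rw [hFdef]
    simp only [if_neg hη]
  have hF0 : ∀ η, 0 ≤ F η := by
    intro η
    by_cases h : η ∈ good
    · rw [hF1 η h]; exact (mul_pos hv0 (hTh η)).le
    · rw [hF2 η h]
  -- `typ` is nonempty
  have htyp : typ.Nonempty := by
    by_contra h
    rw [Finset.not_nonempty_iff_eq_empty] at h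
    have h1 := hB.typ_mass
    rw [h, Finset.sum_empty] at h1
    nlinarith
  obtain ⟨η0, hη0⟩ := htyp
  obtain ⟨i0, hi0⟩ := hB.I_ne
  have hhi : 0 < hi := lt_of_lt_of_le hlo ((hB.lo_le i0 hi0 η0 hη0).trans (hB.le_hi i0 hi0 η0 hη0))
  have hP : 0 < P := by
    have h1 := hB.P_le η0 hη0
    have h2 : 0 < ∏ l, max (wt q G (η0 l) false) (wt q G (η0 l) true) := by
      apply Finset.prod_pos
      intro l _
      have h3 := hB.wA_pos (η0 l)
      unfold wA at h3
      by_contra h4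
      push Not at h4
      have h5 := le_max_left (wt q G (η0 l) false) (wt q G (η0 l) true)
      have h6 := le_max_right (wt q G (η0 l) false) (wt q G (η0 l) true)
      linarith
    by_contra h
    push Not at h
    have h3 := mul_nonpos_of_nonpos_of_nonneg h (hTh η0).le
    linarith
  -- averages of `F`
  have hsumF : ∑ η, F η = v * ∑ η ∈ good, Th q G η := by
    rw [Finset.mul_sum, ← Finset.sum_filter_add_sum_filter_not univ (fun η => η ∈ good)]
    have e1 : ∑ η ∈ univ.filter (fun η => η ∉ good), F η = 0 := by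
      apply Finset.sum_eq_zero
      intro η hη
      exact hF2 η (Finset.mem_filter.1 hη).2
    have e2 : univ.filter (fun η => η ∈ good) = good := by
      ext η
      simp
    rw [e1, e2, add_zero]
    exact Finset.sum_congr rfl (fun η hη => hF1 η hη)
  have hgle : ∑ η ∈ good, Th q G η ≤ (q:ℝ) ^ k := by
    refine le_trans ?_ (sum_Th_le k q G hB.G_nonneg hB.G_sum)
    exact Finset.sum_le_sum_of_subset_of_nonneg (Finset.subset_univ _) (fun η _ _ => (hTh η).le)
  have hmF : mean F = v * ((∑ η ∈ good, Th q G η) / (q:ℝ) ^ k) := by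
    unfold mean
    rw [hsumF, hcard, mul_div_assoc]
  obtain ⟨g, hg⟩ : ∃ g : ℝ, g = (∑ η ∈ good, Th q G η) / (q:ℝ) ^ k := ⟨_, rfl⟩
  have hg1 : g ≤ 1 := by
    rw [hg, div_le_one hqk]
    exact hgle
  have hg2 : 1 - 2 * τ ≤ g := by
    rw [hg, le_div_iff₀ hqk]
    exact hgm
  rw [← hg] at hmF
  obtain ⟨w, hw⟩ : ∃ w : ℝ, w = ∑ i ∈ I, ω i := ⟨_, rfl⟩
  have hw1 : w ≤ 1 := by rw [hw]; exact hB.ω_sum_le
  have hw2 : 1 - τ ≤ w := by rw [hw]; exact hB.ω_sum_ge
  have hlov : 0 < lo * v := mul_pos hlo hv0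
  obtain ⟨s, hs⟩ := selection k q I hB.I_inj hB.I_ne ω hB.ω_nonneg F hF0 (lo * v) hlov (by
    intro i hi η hη
    have hmem : η ∈ good := by
      by_contra h
      exact hη (hF2 η h)
    rw [hF1 η hmem]
    have h1 := hB.lo_le i hi η (hgt hmem)
    calc lo * v ≤ (ω i * Th q G η) * v := mul_le_mul_of_nonneg_right h1 hv0.le
      _ = ω i * (v * Th q G η) := by ring)
  rw [← hw, hmF] at hs
  have hup := sup_mean_le k q I hB.I_ne ω hB.ω_nonneg F hF0 s
  rw [← hw, hmF] at hup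
  obtain ⟨X', hX'⟩ : ∃ X' : (Fin k → ZMod q) → ℝ, X' =
    fun ξ => I.sup' hB.I_ne (fun j => ω j * F (fun l => ξ l + (j : ZMod q) * s l)) := ⟨_, rfl⟩
  rw [← hX'] at hs hup
  have hg0 : 0 ≤ g := by linarith
  have hw0 : 0 ≤ w := by linarith
  have hm1 : w * (v * g) ≤ v := by
    have h1 : w * g ≤ 1 := by nlinarith
    nlinarith
  have hm1' : 0 ≤ w * (v * g) := by positivity
  have hval : ∀ ξ, ∃ j ∈ I, X' ξ = ω j * F (fun l => ξ l + (j : ZMod q) * s l) := by
    intro ξ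
    rw [hX']
    obtain ⟨j, hj, hj2⟩ := Finset.exists_mem_eq_sup' hB.I_ne (fun j => ω j * F (fun l => ξ l + (j : ZMod q) * s l))
    exact ⟨j, hj, hj2⟩
  refine ⟨S.ext k q ρ ε G ω s b, X', ?_, ?_, ?_, ?_, ?_, ?_, ?_⟩
  · refine ext_ok S k q ρ ε G ω s b hS R' τ lo hi P hR I typ hB _ X' ?_
    intro u
    obtain ⟨j, hj, hXj⟩ := hval ((S.ext k q ρ ε G ω s b).cls u)
    by_cases hmem : (fun l => (S.ext k q ρ ε G ω s b).cls u l + (j : ZMod q) * s l) ∈ good
    · obtain ⟨T, hT1, hT2, hT3, z, hT4⟩ := ext_cap S k q ρ ε G ω s b hS hκ hB.G_nonneg hB.ω_nonneg u j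
      refine ⟨T, hT1, hT2, ?_, ?_⟩
      · intro a ha
        refine (hT3 a ha).trans ?_
        have h1 := hB.P_le _ (hgt hmem)
        have h2 := hB.le_hi j hj _ (hgt hmem)
        have h3 : ω j * ∏ l, max (wt q G ((S.ext k q ρ ε G ω s b).cls u l + (j : ZMod q) * s l) false)
            (wt q G ((S.ext k q ρ ε G ω s b).cls u l + (j : ZMod q) * s l) true) ≤ P * hi := by
          calc _ ≤ ω j * (P * Th q G (fun l => (S.ext k q ρ ε G ω s b).cls u l + (j : ZMod q) * s l)) :=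
                mul_le_mul_of_nonneg_left h1 (hB.ω_nonneg j)
            _ = P * (ω j * Th q G (fun l => (S.ext k q ρ ε G ω s b).cls u l + (j : ZMod q) * s l)) := by ring
            _ ≤ P * hi := mul_le_mul_of_nonneg_left h2 hP.le
        calc _ ≤ (P * hi) * κ := mul_le_mul_of_nonneg_right h3 hκ
          _ = κ * hi * P := by ring
      · refine le_trans ?_ hT4
        rw [hXj, hF1 _ hmem]
        apply mul_le_mul_of_nonneg_left _ (hB.ω_nonneg j)
        exact hgood _ hmem z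
    · obtain ⟨T, hT1, hT2, hT3⟩ := exists_zero S hB s b u
      refine ⟨T, hT1, ?_, ?_, ?_⟩
      · rw [hT2]
        exact Nat.one_le_two_pow
      · intro a ha
        rw [hT3 a ha]
        positivity
      · rw [hXj, hF2 _ hmem, mul_zero]
        apply List.sum_nonneg
        intro x hx
        rw [List.mem_map] at hx
        obtain ⟨a, ha, rfl⟩ := hx
        rw [hT3 a ha]
  · intro ξ
    obtain ⟨j, hj, hXj⟩ := hval ξ
    rw [hXj]
    exact mul_nonneg (hB.ω_nonneg j) (hF0 _)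
  · intro ξ
    obtain ⟨j, hj, hXj⟩ := hval ξ
    rw [hXj]
    by_cases hmem : (fun l => ξ l + (j : ZMod q) * s l) ∈ good
    · rw [hF1 _ hmem]
      have h2 := hB.le_hi j hj _ (hgt hmem)
      have h3 : 0 ≤ ω j * Th q G (fun l => ξ l + (j : ZMod q) * s l) := mul_nonneg (hB.ω_nonneg j) (hTh _).le
      calc ω j * (v * Th q G (fun l => ξ l + (j : ZMod q) * s l))
          = v * (ω j * Th q G (fun l => ξ l + (j : ZMod q) * s l)) := by ring
        _ ≤ 1 * (ω j * Th q G (fun l => ξ l + (j : ZMod q) * s l)) := mul_le_mul_of_nonneg_right hv1 h3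
        _ ≤ hi := by rw [one_mul]; exact h2
    · rw [hF2 _ hmem, mul_zero]
      exact hhi.le
  · linarith
  · refine le_trans ?_ hs
    have h1 : v - 3 * τ ≤ w * (v * g) := by
      have h2 : 1 - 3 * τ ≤ w * g := by nlinarith
      have h3 : w * (v * g) = v * (w * g) := by ring
      rw [h3]
      have h4 : v * (1 - 3 * τ) ≤ v * (w * g) := mul_le_mul_of_nonneg_left h2 hv0.le
      have h5 : v - 3 * τ ≤ v * (1 - 3 * τ) := by nlinarith
      linarith
    have h6 : (w * (v * g)) ^ 2 / (lo * v) ≤ 1 / lo := by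
      rw [div_le_div_iff₀ hlov hlo]
      have h7 : (w * (v * g)) ^ 2 ≤ v := by
        have h8 : (w * (v * g)) ^ 2 ≤ v ^ 2 := pow_le_pow_left₀ hm1' hm1 2
        have h9 : v ^ 2 ≤ v := by
          have h10 := mul_le_mul_of_nonneg_left hv1 hv0.le
          rw [mul_one] at h10
          rw [pow_two]
          exact h10
        exact h8.trans h9
      have h11 := mul_le_mul_of_nonneg_right h7 hlo.le
      calc (w * (v * g)) ^ 2 * lo ≤ v * lo := h11
        _ = 1 * (lo * v) := by ring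
    linarith
  · change Fintype.card ((Fin k ⊕ Unit) ⊕ S.ι) = _
    rw [Fintype.card_sum, Fintype.card_sum, Fintype.card_fin, Fintype.card_unit]
  · rw [ext_det]
    push_cast
    rw [abs_mul, abs_of_pos hqk]

end Crest.Agent.CVD
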