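import Crest.Agent.CVD_Defs

/-! # CVD_G1 (S0347 part D2): the standard normal density `phi` -/

set_option autoImplicit false
open Finset MeasureTheory Set Crest.Agent.CV

namespace Crest.Agent.CVD

theorem phi_pos (w : ℝ) : 0 < phi w := by
  unfold phi
  have : 0 < Real.sqrt (2 * Real.pi) := Real.sqrt_pos.2 (by positivity)
  positivity

theorem phi_neg (w : ℝ) : phi (-w) = phi w := by
  unfold phi
  rw [neg_sq]

theorem phi_le_phi {v w : ℝ} (h : |v| ≤ |w|) : phi w ≤ phi v := by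
  unfold phi
  have h0 : 0 ≤ (Real.sqrt (2 * Real.pi))⁻¹ := by positivity
  have h2 : v ^ 2 ≤ w ^ 2 := sq_le_sq.2 h
  apply mul_le_mul_of_nonneg_left _ h0
  apply Real.exp_le_exp.2
  linarith

private theorem c_le : (Real.sqrt (2 * Real.pi))⁻¹ ≤ 1 / 2 := by
  rw [one_div]
  apply inv_anti₀ (by norm_num)
  apply Real.le_sqrt_of_sq_le
  nlinarith [Real.pi_gt_three]

private theorem c_ge : 1 / 3 ≤ (Real.sqrt (2 * Real.pi))⁻¹ := by
  rw [one_div]
  have hp : 0 < Real.sqrt (2 * Real.pi) := Real.sqrt_pos.2 (by positivity)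
  apply inv_anti₀ hp
  rw [Real.sqrt_le_left (by norm_num)]
  nlinarith [Real.pi_lt_four]

/-- `1/√(2π) ≤ 1/2` -/
theorem phi_le (w : ℝ) : phi w ≤ 1 / 2 * Real.exp (-(w ^ 2) / 2) := by
  unfold phi
  exact mul_le_mul_of_nonneg_right c_le (Real.exp_pos _).le

theorem phi_le_half (w : ℝ) : phi w ≤ 1 / 2 := by
  refine (phi_le w).trans ?_
  have : Real.exp (-(w ^ 2) / 2) ≤ 1 := by
    rw [Real.exp_le_one_iff]
    nlinarith [sq_nonneg w]
  linarith

/-- `1/3 ≤ 1/√(2π)` -/
theorem phi_ge (w : ℝ) : 1 / 3 * Real.exp (-(w ^ 2) / 2) ≤ phi w := by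
  unfold phi
  exact mul_le_mul_of_nonneg_right c_ge (Real.exp_pos _).le

theorem continuous_phi : Continuous phi := by
  unfold phi
  fun_prop

theorem integrable_phi : Integrable phi := by
  unfold phi
  have h := (integrable_exp_neg_mul_sq (b := 1 / 2) (by norm_num)).const_mul
    ((Real.sqrt (2 * Real.pi))⁻¹)
  refine h.congr (Filter.Eventually.of_forall fun w => ?_)
  simp only
  congr 2
  ring

/-- `integral_gaussian_Ioi` -/
theorem integral_phi_Ioi : ∫ w in Ioi (0 : ℝ), phi w = 1 / 2 := by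
  have h := integral_gaussian_Ioi (1 / 2)
  have h2 : (fun w => phi w) = fun w => (Real.sqrt (2 * Real.pi))⁻¹ * Real.exp (-(1 / 2) * w ^ 2) := by
    funext w
    unfold phi
    congr 2
    ring
  rw [h2, integral_const_mul, h]
  have h3 : Real.pi / (1 / 2) = 2 * Real.pi := by ring
  rw [h3]
  have hp : Real.sqrt (2 * Real.pi) ≠ 0 := (Real.sqrt_pos.2 (by positivity)).ne'
  field_simp

/-- `∫_x^∞ φ ≤ ∫_x^∞ w φ(w) dw = φ(x)` (`integral_Ioi_of_hasDerivAt_of_tendsto`). -/
theorem integral_phi_Ioi_le {x : ℝ} (hx : 1 ≤ x) : ∫ w in Ioi x, phi w ≤ phi x := by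
  have hder : ∀ w ∈ Ici x, HasDerivAt (fun w => -phi w) (w * phi w) w := by
    intro w _
    have h1 : HasDerivAt (fun w : ℝ => -(w ^ 2) / 2) (-w) w := by
      have h0 : HasDerivAt (fun w : ℝ => -(w ^ 2) / 2) (-(((2 : ℕ) : ℝ) * w ^ (2 - 1)) / 2) w :=
        ((hasDerivAt_pow 2 w).neg).div_const 2
      have e : -(((2 : ℕ) : ℝ) * w ^ (2 - 1)) / 2 = -w := by
        norm_num
        ring
      rwa [e] at h0
    have h2 : HasDerivAt (fun w : ℝ => -((Real.sqrt (2 * Real.pi))⁻¹ * Real.exp (-(w ^ 2) / 2)))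
      (-((Real.sqrt (2 * Real.pi))⁻¹ * (Real.exp (-(w ^ 2) / 2) * -w))) w :=
      (h1.exp.const_mul ((Real.sqrt (2 * Real.pi))⁻¹)).neg
    have e2 : -((Real.sqrt (2 * Real.pi))⁻¹ * (Real.exp (-(w ^ 2) / 2) * -w)) = w * phi w := by
      unfold phi; ring
    rw [e2] at h2
    exact h2
  have htend : Filter.Tendsto (fun w => -phi w) Filter.atTop (nhds 0) := by
    have h1 : Filter.Tendsto (fun w : ℝ => Real.exp (-w)) Filter.atTop (nhds 0) :=
      Real.tendsto_exp_neg_atTop_nhds_zero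
    have h2 : Filter.Tendsto (fun w : ℝ => phi w) Filter.atTop (nhds 0) := by
      refine squeeze_zero' (Filter.Eventually.of_forall fun w => (phi_pos w).le) ?_ h1
      filter_upwards [Filter.eventually_ge_atTop (2 : ℝ)] with w hw
      refine (phi_le w).trans ?_
      have : Real.exp (-(w ^ 2) / 2) ≤ Real.exp (-w) := by
        apply Real.exp_le_exp.2
        nlinarith
      have h3 := Real.exp_pos (-(w ^ 2) / 2)
      linarith
    simpa using h2.neg
  have hint : IntegrableOn (fun w => w * phi w) (Ioi x) := by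
    refine integrableOn_Ioi_deriv_of_nonneg' hder ?_ htend
    intro w hw
    have : 0 < w := lt_of_lt_of_le (by linarith) (le_of_lt hw)
    exact mul_nonneg this.le (phi_pos w).le
  have h1 := integral_Ioi_of_hasDerivAt_of_tendsto' hder hint htend
  have h2 : ∫ w in Ioi x, phi w ≤ ∫ w in Ioi x, w * phi w := by
    refine setIntegral_mono_on integrable_phi.integrableOn hint measurableSet_Ioi ?_
    intro w hw
    have hw1 : 1 ≤ w := hx.trans (le_of_lt hw)
    nlinarith [phi_pos w]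
  rw [h1] at h2
  linarith

/-- `log φ(w) ≥ -1 - w²/2` -/
theorem log_phi_ge (w : ℝ) : -1 - w ^ 2 / 2 ≤ Real.log (phi w) := by
  unfold phi
  have hc : 0 < (Real.sqrt (2 * Real.pi))⁻¹ := by
    have : 0 < Real.sqrt (2 * Real.pi) := Real.sqrt_pos.2 (by positivity)
    positivity
  rw [Real.log_mul hc.ne' (Real.exp_pos _).ne', Real.log_exp]
  have h1 : -1 ≤ Real.log ((Real.sqrt (2 * Real.pi))⁻¹) := by
    rw [Real.log_inv, neg_le_neg_iff, Real.log_sqrt (by positivity)]
    have h2 : Real.log (2 * Real.pi) ≤ 2 := by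
      rw [Real.log_le_iff_le_exp (by positivity)]
      have h3 : Real.exp 2 = Real.exp 1 * Real.exp 1 := by
        rw [← Real.exp_add]; norm_num
      have := Real.exp_one_gt_d9
      rw [h3]
      nlinarith [Real.pi_lt_d2]
    linarith
  linarith

end Crest.Agent.CVD
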