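import Crest.Agent.CVD_G1

/-! # CVD_G2 (S0347 part D2): the discretised Gaussian weights `gw r n t` (cell size `r`, `|t| ≤ n`) -/

set_option autoImplicit false
open Finset MeasureTheory Crest.Agent.CV

namespace Crest.Agent.CVD

noncomputable def gw (r : ℝ) (n : ℕ) (t : ℤ) : ℝ :=
  if |t| ≤ (n : ℤ) then r * phi (r * (|(t : ℝ)| + 1)) else 0

theorem gw_nonneg {r : ℝ} (hr : 0 ≤ r) (n : ℕ) (t : ℤ) : 0 ≤ gw r n t := by
  unfold gw
  split_ifs
  · exact mul_nonneg hr (phi_pos _).le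
  · exact le_rfl

/-- `|w| ≤ r |t| + r` -/
theorem gw_le {r : ℝ} (hr : 0 < r) (n : ℕ) (t : ℤ) (w : ℝ) (h : |w - r * t| ≤ r) :
    gw r n t ≤ r * phi w := by
  unfold gw
  split_ifs
  · refine mul_le_mul_of_nonneg_left (phi_le_phi ?_) hr.le
    have h1 : |w| ≤ |w - r * t| + |r * (t : ℝ)| := by
      have := abs_add_le (w - r * t) (r * (t : ℝ))
      rwa [sub_add_cancel] at this
    rw [abs_mul r (t : ℝ), abs_of_pos hr] at h1
    rw [abs_of_nonneg (mul_nonneg hr.le (by positivity))]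
    linarith
  · exact mul_nonneg hr.le (phi_pos _).le

theorem gw_supp {r : ℝ} (hr : 0 < r) (n : ℕ) {R : ℝ} (h : r * n ≤ R) (t : ℤ)
    (ht : R < r * |(t : ℝ)|) : gw r n t = 0 := by
  unfold gw
  rw [if_neg]
  intro hn
  have h1 : |(t : ℝ)| ≤ n := by exact_mod_cast hn
  nlinarith

theorem gw_eq {r : ℝ} {n : ℕ} {t : ℤ} (ht : |t| ≤ (n : ℤ)) :
    gw r n t = r * phi (r * (|(t : ℝ)| + 1)) := by
  unfold gw
  rw [if_pos ht]

private theorem cvd_g2_sumZ (f : ℤ → ℝ) (n : ℕ) : ∑ t ∈ Finset.Ico (-(n : ℤ)) n, f t =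
    ∑ s ∈ Finset.range n, f s + ∑ s ∈ Finset.range n, f (-((s : ℤ) + 1)) := by
  induction n with
  | zero => simp
  | succ n ih =>
    have h : Finset.Ico (-((n + 1 : ℕ) : ℤ)) ((n + 1 : ℕ) : ℤ) =
        insert (-((n : ℤ) + 1)) (insert (n : ℤ) (Finset.Ico (-(n : ℤ)) n)) := by
      ext t
      simp only [Finset.mem_Ico, Finset.mem_insert]
      push_cast
      omega
    rw [h, Finset.sum_insert, Finset.sum_insert, ih, Finset.sum_range_succ, Finset.sum_range_succ]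
    · ring
    · simp
    · simp only [Finset.mem_Ico, Finset.mem_insert]
      omega

/-- bound over a finite set by the two half sums -/
private theorem cvd_g2_le_two (g : ℤ → ℝ) (f : ℕ → ℝ) (n : ℕ) (hg0 : ∀ t, 0 ≤ g t)
    (hg : ∀ t : ℤ, (n : ℤ) < |t| → g t = 0)
    (h1 : ∀ s : ℕ, s ≤ n → g s ≤ f s) (h2 : ∀ s : ℕ, s ≤ n → g (-((s : ℤ) + 1)) ≤ f s)
    (I : Finset ℤ) :
    ∑ t ∈ I, g t ≤ 2 * ∑ s ∈ Finset.range (n + 1), f s := by
  have e : ∑ t ∈ I, g t ≤ ∑ t ∈ Finset.Ico (-((n + 1 : ℕ) : ℤ)) ((n + 1 : ℕ) : ℤ), g t := by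
    rw [← Finset.sum_filter_add_sum_filter_not I (fun t => |t| ≤ (n : ℤ))]
    have z : ∑ t ∈ I with ¬ |t| ≤ (n : ℤ), g t = 0 := by
      refine Finset.sum_eq_zero fun t ht => hg t ?_
      exact lt_of_not_ge (Finset.mem_filter.1 ht).2
    rw [z, add_zero]
    refine Finset.sum_le_sum_of_subset_of_nonneg ?_ fun t _ _ => hg0 t
    intro t ht
    have h3 := abs_le.1 (Finset.mem_filter.1 ht).2
    rw [Finset.mem_Ico]
    push_cast
    omega
  refine e.trans ?_
  rw [cvd_g2_sumZ, two_mul]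
  refine add_le_add (Finset.sum_le_sum fun s hs => h1 s ?_) (Finset.sum_le_sum fun s hs => h2 s ?_)
  · have := Finset.mem_range.1 hs; omega
  · have := Finset.mem_range.1 hs; omega

private theorem cvd_g2_int (a b : ℝ) : IntervalIntegrable phi volume a b :=
  continuous_phi.intervalIntegrable a b

private theorem cvd_g2_step_le {r : ℝ} (hr : 0 < r) (a : ℝ) (ha : 0 ≤ a) :
    r * phi (a + r) ≤ ∫ w in a..(a + r), phi w := by
  have h : ∫ w in a..(a + r), phi (a + r) = r * phi (a + r) := by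
    rw [intervalIntegral.integral_const, smul_eq_mul]; ring
  rw [← h]
  refine intervalIntegral.integral_mono_on (by linarith) (by simp) (cvd_g2_int _ _) fun w hw => ?_
  refine phi_le_phi ?_
  rw [abs_of_nonneg (ha.trans hw.1), abs_of_nonneg (by linarith)]
  exact hw.2

private theorem cvd_g2_step_ge {r : ℝ} (hr : 0 < r) (a : ℝ) (ha : 0 ≤ a) :
    ∫ w in a..(a + r), phi w ≤ r * phi a := by
  have h : ∫ w in a..(a + r), phi a = r * phi a := by
    rw [intervalIntegral.integral_const, smul_eq_mul]; ring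
  rw [← h]
  refine intervalIntegral.integral_mono_on (by linarith) (cvd_g2_int _ _) (by simp) fun w hw => ?_
  refine phi_le_phi ?_
  rw [abs_of_nonneg (ha.trans hw.1), abs_of_nonneg ha]
  exact hw.1

private theorem cvd_g2_sum_le {r : ℝ} (hr : 0 < r) (n : ℕ) :
    ∑ s ∈ Finset.range n, r * phi (r * ((s : ℝ) + 1)) ≤ ∫ w in (0 : ℝ)..(r * n), phi w := by
  induction n with
  | zero => simp
  | succ n ih =>
    rw [Finset.sum_range_succ]
    have h := intervalIntegral.integral_add_adjacent_intervals (cvd_g2_int 0 (r * n))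
      (cvd_g2_int (r * n) (r * n + r))
    have h2 := cvd_g2_step_le hr (r * n) (by positivity)
    have e : r * ((n : ℝ) + 1) = r * n + r := by ring
    push_cast
    rw [e, ← h]
    exact add_le_add ih h2

private theorem cvd_g2_sum_ge {r : ℝ} (hr : 0 < r) (n : ℕ) :
    (∫ w in (0 : ℝ)..(r * (n + 1)), phi w) - (∫ w in (0 : ℝ)..r, phi w) ≤
      ∑ s ∈ Finset.range n, r * phi (r * ((s : ℝ) + 1)) := by
  induction n with
  | zero => simp
  | succ n ih =>
    rw [Finset.sum_range_succ]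
    have h := intervalIntegral.integral_add_adjacent_intervals (cvd_g2_int 0 (r * ((n : ℝ) + 1)))
      (cvd_g2_int (r * ((n : ℝ) + 1)) (r * ((n : ℝ) + 1) + r))
    have h2 := cvd_g2_step_ge hr (r * ((n : ℝ) + 1)) (by positivity)
    have e : r * ((n : ℝ) + 1 + 1) = r * ((n : ℝ) + 1) + r := by ring
    push_cast
    rw [e, ← h]
    linarith

private theorem cvd_g2_F_le {x : ℝ} (hx : 0 ≤ x) : ∫ w in (0 : ℝ)..x, phi w ≤ 1 / 2 := by
  rw [← integral_phi_Ioi, intervalIntegral.integral_of_le hx]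
  refine setIntegral_mono_set integrable_phi.integrableOn ?_ ?_
  · exact Filter.Eventually.of_forall fun w => (phi_pos w).le
  · exact (Set.Ioc_subset_Ioi_self).eventuallyLE

private theorem cvd_g2_F_ge {x : ℝ} (hx : 1 ≤ x) : 1 / 2 - phi x ≤ ∫ w in (0 : ℝ)..x, phi w := by
  have h := intervalIntegral.integral_interval_add_Ioi' (f := phi) (a := 0) (b := x) (μ := volume)
    (cvd_g2_int _ _) integrable_phi.integrableOn
  rw [integral_phi_Ioi] at h
  have h2 := integral_phi_Ioi_le hx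
  linarith

private theorem cvd_g2_F_small {x : ℝ} (hx : 0 ≤ x) : ∫ w in (0 : ℝ)..x, phi w ≤ x / 2 := by
  have h : ∫ w in (0 : ℝ)..x, (1 / 2 : ℝ) = x / 2 := by
    rw [intervalIntegral.integral_const, smul_eq_mul]; ring
  rw [← h]
  exact intervalIntegral.integral_mono_on hx (cvd_g2_int _ _) (by simp) fun w _ => phi_le_half w

private theorem cvd_g2_mono {r : ℝ} (hr : 0 < r) {a b : ℝ} (ha : 0 ≤ a) (h : a ≤ b) :
    phi (r * b) ≤ phi (r * a) := by
  refine phi_le_phi ?_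
  rw [abs_of_nonneg (by positivity), abs_of_nonneg (mul_nonneg hr.le (ha.trans h))]
  exact mul_le_mul_of_nonneg_left h hr.le

private theorem cvd_g2_nat {r : ℝ} {n s : ℕ} (h : s ≤ n) :
    gw r n (s : ℤ) = r * phi (r * ((s : ℝ) + 1)) := by
  rw [gw_eq (by rw [Nat.abs_cast]; exact_mod_cast h)]
  simp

private theorem cvd_g2_neg {r : ℝ} {n s : ℕ} (h : s + 1 ≤ n) :
    gw r n (-((s : ℤ) + 1)) = r * phi (r * ((s : ℝ) + 1 + 1)) := by
  rw [gw_eq]
  · push_cast
    rw [abs_neg, abs_of_nonneg (by positivity)]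
  · rw [abs_neg, abs_of_nonneg (by positivity)]
    exact_mod_cast h

private theorem cvd_g2_zero {r : ℝ} {n : ℕ} {t : ℤ} (h : (n : ℤ) < |t|) : gw r n t = 0 := by
  unfold gw
  rw [if_neg (not_le.2 h)]

/-- `∑_{t=0}^{n} r φ(r(t+1)) ≤ ∫_0^∞ φ = 1/2` and the same for the negative `t`
(`AntitoneOn.sum_le_integral` or by induction with
`r φ(r(t+1)) ≤ ∫_{rt}^{r(t+1)} φ`). -/
theorem gw_sum_le_one {r : ℝ} (hr : 0 < r) (n : ℕ) (I : Finset ℤ) : ∑ t ∈ I, gw r n t ≤ 1 := by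
  have h := cvd_g2_le_two (gw r n) (fun s => r * phi (r * ((s : ℝ) + 1))) n
    (gw_nonneg hr.le n) (fun t ht => cvd_g2_zero ht) (fun s hs => (cvd_g2_nat hs).le)
    (fun s hs => ?_) I
  · have h1 := cvd_g2_sum_le hr (n + 1)
    have h2 : ∫ w in (0 : ℝ)..(r * ((n + 1 : ℕ) : ℝ)), phi w ≤ 1 / 2 :=
      cvd_g2_F_le (by positivity)
    linarith
  · rcases Nat.lt_or_ge s n with h | h
    · rw [cvd_g2_neg h]
      exact mul_le_mul_of_nonneg_left (cvd_g2_mono hr (by positivity) (by linarith)) hr.le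
    · rw [cvd_g2_zero]
      · exact mul_nonneg hr.le (phi_pos _).le
      · rw [abs_neg, abs_of_nonneg (by positivity)]
        omega

/-- `∑_{t=0}^{n-1} r φ(r(t+1)) ≥ ∫_r^{r(n+1)} φ ≥ 1/2 - r/2 - ∫_{rn}^∞ φ`,
`∑_{t=1}^{n} r φ(r(t+1)) ≥ ∫_{2r}^{r(n+2)} φ ≥ 1/2 - r - ∫_{rn}^∞ φ`, `∫_{rn}^∞ φ ≤ φ(rn)`. -/
theorem gw_sum_ge {r : ℝ} (hr : 0 < r) (n : ℕ) (hn : 1 ≤ r * n) :
    1 - 2 * phi (r * n) - 3 * r ≤ ∑ t ∈ Finset.Ico (-(n : ℤ)) n, gw r n t := by
  rw [cvd_g2_sumZ]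
  have e1 : ∑ s ∈ Finset.range n, gw r n (s : ℤ) =
      ∑ s ∈ Finset.range n, r * phi (r * ((s : ℝ) + 1)) :=
    Finset.sum_congr rfl fun s hs => cvd_g2_nat (Finset.mem_range.1 hs).le
  have e2 : ∑ s ∈ Finset.range n, gw r n (-((s : ℤ) + 1)) =
      ∑ s ∈ Finset.range n, r * phi (r * ((s : ℝ) + 1 + 1)) :=
    Finset.sum_congr rfl fun s hs => cvd_g2_neg (Finset.mem_range.1 hs)
  have e3 := Finset.sum_range_succ' (fun s : ℕ => r * phi (r * ((s : ℝ) + 1))) n
  simp only [Nat.cast_add, Nat.cast_one, Nat.cast_zero, zero_add, mul_one] at e3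
  rw [e1, e2]
  have h1 := cvd_g2_sum_ge hr n
  have h2 := cvd_g2_sum_ge hr (n + 1)
  rw [e3] at h2
  have n1 : r * (n : ℝ) ≤ r * ((n : ℝ) + 1) := by nlinarith
  have n2 : r * (n : ℝ) ≤ r * (((n + 1 : ℕ) : ℝ) + 1) := by push_cast; nlinarith
  have h3 := cvd_g2_F_ge (hn.trans n1)
  have h4 := cvd_g2_F_ge (hn.trans n2)
  have h5 : phi (r * ((n : ℝ) + 1)) ≤ phi (r * n) :=
    cvd_g2_mono hr (by positivity) (by linarith)
  have h6 : phi (r * (((n + 1 : ℕ) : ℝ) + 1)) ≤ phi (r * n) :=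
    cvd_g2_mono hr (by positivity) (by push_cast; linarith)
  have h7 := cvd_g2_F_small hr.le
  have h8 := phi_le_half r
  have h9 : r * phi r ≤ r * (1 / 2) := mul_le_mul_of_nonneg_left h8 hr.le
  linarith

private theorem cvd_g2_w2 {w : ℝ} (hw : 0 ≤ w) : w ^ 2 * phi w ≤ 2 * Real.exp (-w) := by
  have h1 := phi_le w
  have h2 : w / 2 ≤ Real.exp (w / 2 - 1) := by
    have := Real.add_one_le_exp (w / 2 - 1)
    linarith
  have h3 : (w / 2) ^ 2 ≤ Real.exp (w - 2) := by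
    have : Real.exp (w - 2) = Real.exp (w / 2 - 1) ^ 2 := by
      rw [← Real.exp_nat_mul]; congr 1; push_cast; ring
    rw [this]
    exact pow_le_pow_left₀ (by positivity) h2 2
  have h4 : Real.exp (w - 2) * Real.exp (-(w ^ 2) / 2) ≤ Real.exp (-w) := by
    rw [← Real.exp_add, Real.exp_le_exp]
    nlinarith [sq_nonneg (w - 2)]
  calc w ^ 2 * phi w ≤ w ^ 2 * (1 / 2 * Real.exp (-(w ^ 2) / 2)) :=
        mul_le_mul_of_nonneg_left h1 (sq_nonneg w)
    _ = 2 * ((w / 2) ^ 2 * Real.exp (-(w ^ 2) / 2)) := by ring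
    _ ≤ 2 * (Real.exp (w - 2) * Real.exp (-(w ^ 2) / 2)) := by
        have := mul_le_mul_of_nonneg_right h3 (Real.exp_pos (-(w ^ 2) / 2)).le
        linarith
    _ ≤ 2 * Real.exp (-w) := by linarith

private theorem cvd_g2_geo {r : ℝ} (hr : 0 < r) (n : ℕ) :
    ∑ s ∈ Finset.range n, r * Real.exp (-(r * ((s : ℝ) + 1))) ≤ 1 - Real.exp (-(r * n)) := by
  induction n with
  | zero => simp
  | succ n ih =>
    rw [Finset.sum_range_succ]
    have h1 : Real.exp (-(r * n)) = Real.exp (-(r * ((n : ℝ) + 1))) * Real.exp r := by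
      rw [← Real.exp_add]; congr 1; ring
    have h2 := Real.add_one_le_exp r
    have h3 := Real.exp_pos (-(r * ((n : ℝ) + 1)))
    push_cast
    have h4 : Real.exp (-(r * ((n : ℝ) + 1))) * (r + 1) ≤ Real.exp (-(r * n)) := by
      rw [h1]
      exact mul_le_mul_of_nonneg_left h2 h3.le
    linarith

/-- second moment: `w² φ(w) ≤ 2 e^{-w}` for `w ≥ 0`, `∑_{t ≥ 0} r e^{-r(t+1)} ≤ 1`
(`e^r - 1 ≥ r`). -/
theorem gw_second {r : ℝ} (hr : 0 < r) (n : ℕ) (I : Finset ℤ) :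
    ∑ t ∈ I, gw r n t * (r * (|(t : ℝ)| + 1)) ^ 2 ≤ 4 := by
  have hb : ∀ x : ℝ, 0 ≤ x → r * phi (r * (x + 1)) * (r * (x + 1)) ^ 2 ≤
      2 * (r * Real.exp (-(r * (x + 1)))) := by
    intro x hx
    have h1 := cvd_g2_w2 (w := r * (x + 1)) (by positivity)
    have h2 := mul_le_mul_of_nonneg_left h1 hr.le
    calc r * phi (r * (x + 1)) * (r * (x + 1)) ^ 2 = r * ((r * (x + 1)) ^ 2 * phi (r * (x + 1))) := by
          ring
      _ ≤ r * (2 * Real.exp (-(r * (x + 1)))) := h2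
      _ = _ := by ring
  have h := cvd_g2_le_two (fun t => gw r n t * (r * (|(t : ℝ)| + 1)) ^ 2)
    (fun s => 2 * (r * Real.exp (-(r * ((s : ℝ) + 1))))) n
    (fun t => mul_nonneg (gw_nonneg hr.le n t) (by positivity))
    (fun t ht => by rw [cvd_g2_zero ht, zero_mul]) (fun s hs => ?_)
    (fun s hs => ?_) I
  · have h1 := cvd_g2_geo hr (n + 1)
    rw [← Finset.mul_sum] at h
    have h2 := Real.exp_pos (-(r * ((n + 1 : ℕ) : ℝ)))
    linarith
  · rw [cvd_g2_nat hs]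
    have := hb s (by positivity)
    simpa using this
  · rcases Nat.lt_or_ge s n with h | h
    · rw [cvd_g2_neg h]
      have h1 := hb ((s : ℝ) + 1) (by positivity)
      have h2 : |((-((s : ℤ) + 1) : ℤ) : ℝ)| = (s : ℝ) + 1 := by
        push_cast
        rw [abs_neg, abs_of_nonneg (by positivity)]
      rw [h2]
      refine h1.trans ?_
      have h3 : Real.exp (-(r * ((s : ℝ) + 1 + 1))) ≤ Real.exp (-(r * ((s : ℝ) + 1))) := by
        rw [Real.exp_le_exp]; nlinarith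
      have := mul_le_mul_of_nonneg_left h3 hr.le
      linarith
    · rw [cvd_g2_zero, zero_mul]
      · positivity
      · rw [abs_neg, abs_of_nonneg (by positivity)]
        omega

end Crest.Agent.CVD
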