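/-
  CVD_Top (S0347 part D): definitions for the top coordinates.
-/
import Crest.Agent.CVD_Defs

set_option autoImplicit false

namespace Crest.Agent.CVD
open Finset Crest.Agent.CV

/-- weights of a top coordinate: offsets `0` and `1` -/
noncomputable def gtop (t : ℤ) : ℝ := if t = 0 then phi 1 else if t = 1 then phi 2 else 0

/-- the class homomorphism -/
def topCls {A : Type} [AddCommGroup A] (S : Sys A) (b : A) : ((Unit ⊕ S.ι) → ℤ) →+ A where
  toFun u := S.cls (fun c => u (Sum.inr c)) - u (Sum.inl ()) • b
  map_zero' := by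
    have : (fun c : S.ι => (0 : (Unit ⊕ S.ι) → ℤ) (Sum.inr c)) = 0 := rfl
    rw [this]
    simp
  map_add' u v := by
    have : (fun c : S.ι => (u + v) (Sum.inr c)) = (fun c => u (Sum.inr c)) + (fun c => v (Sum.inr c)) := rfl
    rw [this, map_add, Pi.add_apply, add_smul]
    abel

/-- the system with one more coordinate: row `(a, a_in)` at the position `(a, B a_in + a sec b)` -/
noncomputable def Sys.top {A : Type} [AddCommGroup A] (S : Sys A) (b : A) : Sys A where
  ι := Unit ⊕ S.ι
  fι := inferInstance
  dι := inferInstance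
  ρ := Sum.elim (fun _ => 1) S.ρ
  g := Sum.elim (fun _ => gtop) S.g
  B := Matrix.fromBlocks 1 0 (fun c _ => S.sec b c) S.B
  cls := topCls S b
  sec := fun a => Sum.elim (fun _ => 0) (S.sec a)

end Crest.Agent.CVD
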