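/-
  CVD_P1 (S0347 part D): determinant and masses.
-/
import Crest.Agent.CVD_Top

set_option autoImplicit false

namespace Crest.Agent.CVD
open Finset Crest.Agent.CV

/-- P1. PROOF: `Matrix.det_fromBlocks_zero₁₂`. -/
theorem top_det {A : Type} [AddCommGroup A] (S : Sys A) (b : A) : (S.top b).B.det = S.B.det := by
  have h := Matrix.det_fromBlocks_zero₁₂ (1 : Matrix Unit Unit ℤ)
    (Matrix.of (fun c _ => S.sec b c) : Matrix S.ι Unit ℤ) S.B
  rw [Matrix.det_one, one_mul] at h
  exact h

/-- P2. -/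
theorem top_mass {A : Type} [AddCommGroup A] (S : Sys A) (b : A) (u a : (S.top b).ι → ℤ) :
    (S.top b).mass u a = gtop (u (Sum.inl ()) - a (Sum.inl ())) *
      S.mass (fun c => u (Sum.inr c) - a (Sum.inl ()) * S.sec b c) (fun c => a (Sum.inr c)) := by
  unfold Sys.mass
  rw [top_det]
  have h0 : (∏ c, (S.top b).g c (u c - (S.top b).B.mulVec a c)) =
      gtop (u (Sum.inl ()) - a (Sum.inl ())) *
      ∏ c, S.g c (u (Sum.inr c) - a (Sum.inl ()) * S.sec b c - S.B.mulVec (fun c => a (Sum.inr c)) c) := by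
    have h1 : (∏ c, (S.top b).g c (u c - (S.top b).B.mulVec a c)) =
      ∏ c : Unit ⊕ S.ι, (Sum.elim (fun _ => gtop) S.g : Unit ⊕ S.ι → ℤ → ℝ) c
        (u c - (Matrix.fromBlocks 1 0 (Matrix.of (fun c _ => S.sec b c)) S.B).mulVec a c) := rfl
    rw [h1, Fintype.prod_sum_type]
    congr 1
    · simp only [Finset.univ_unique, Finset.prod_singleton, Sum.elim_inl]
      congr 2
      simp [Matrix.mulVec, dotProduct, Fintype.sum_sum_type]
    · apply Finset.prod_congr rfl
      intro c _
      simp only [Sum.elim_inr]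
      congr 1
      simp [Matrix.mulVec, dotProduct, Fintype.sum_sum_type]
      ring
  rw [h0]
  ring

end Crest.Agent.CVD
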