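/-
  CVD_P3 (S0347 part D): one top step.
-/
import Crest.Agent.CVD_P1
import Crest.Agent.CVD_T1

set_option autoImplicit false

namespace Crest.Agent.CVD
open Finset Crest.Agent.CV

private theorem p3_phi_nonneg (w : ℝ) : 0 ≤ phi w := by
  unfold phi; positivity

private theorem p3_phi_anti {x w : ℝ} (_hx : 0 ≤ x) (h : |w| ≤ x) : phi x ≤ phi w := by
  unfold phi
  have : w ^ 2 ≤ x ^ 2 := by
    rw [← sq_abs w]
    exact pow_le_pow_left₀ (abs_nonneg w) h 2
  gcongr

private theorem p3_phi_le_one (w : ℝ) : phi w ≤ 1 := by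
  unfold phi
  have h1 : Real.exp (-(w ^ 2) / 2) ≤ 1 := by
    rw [Real.exp_le_one_iff]
    have := sq_nonneg w
    linarith
  have h2 : (Real.sqrt (2 * Real.pi))⁻¹ ≤ 1 := by
    apply inv_le_one_of_one_le₀
    rw [Real.one_le_sqrt]
    have := Real.pi_gt_three
    linarith
  calc (Real.sqrt (2 * Real.pi))⁻¹ * Real.exp (-(w ^ 2) / 2) ≤ 1 * 1 := by
        gcongr
    _ = 1 := one_mul 1

private theorem p3_gtop_nonneg (t : ℤ) : 0 ≤ gtop t := by
  unfold gtop
  split_ifs
  · exact p3_phi_nonneg _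
  · exact p3_phi_nonneg _
  · exact le_refl _

private theorem p3_gtop_le_one (t : ℤ) : gtop t ≤ 1 := by
  unfold gtop
  split_ifs
  · exact p3_phi_le_one _
  · exact p3_phi_le_one _
  · exact zero_le_one

/-- one tree at the row value `a` -/
private theorem p3_tree {A : Type} [AddCommGroup A] (S : Sys A) {κ : ℝ} {X : A → ℝ}
    (hκ : 0 ≤ κ) (hcap : S.Cap κ X) (b : A) (u : Unit ⊕ S.ι → ℤ) (a : ℤ) (x : ℝ)
    (hx : X (S.cls (fun c => u (Sum.inr c)) - a • b) = x)
    (hsec : S.cls (S.sec b) = b) (M : (Unit ⊕ S.ι → ℤ) → ℝ)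
    (hM : ∀ r, M r = gtop (u (Sum.inl ()) - r (Sum.inl ())) *
      S.mass (fun c => u (Sum.inr c) - r (Sum.inl ()) * S.sec b c) (fun c => r (Sum.inr c))) :
    ∃ T : Tr (Unit ⊕ S.ι), T.WF ∧ T.rows.length ≤ 2 ^ Fintype.card (Unit ⊕ S.ι) ∧
      (∀ r ∈ T.rows, M r ≤ κ) ∧
      gtop (u (Sum.inl ()) - a) * x ≤ (T.rows.map M).sum := by
  obtain ⟨T, hT, hlen, hmass, hsum⟩ := hcap (fun c => u (Sum.inr c) - a * S.sec b c)
  have hcls : S.cls (fun c => u (Sum.inr c) - a * S.sec b c) =
      S.cls (fun c => u (Sum.inr c)) - a • b := by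
    have e : (fun c => u (Sum.inr c) - a * S.sec b c) =
        (fun c => u (Sum.inr c)) - a • (S.sec b) := by
      funext c
      simp
    rw [e, map_sub, map_zsmul, hsec]
  rw [hcls, hx] at hsum
  obtain ⟨T', hT', hrows⟩ := Tr.lift (fun _ : Unit => a) T hT
  have hm : ∀ r ∈ T.rows, M (Sum.elim (fun _ : Unit => a) r) =
      gtop (u (Sum.inl ()) - a) * S.mass (fun c => u (Sum.inr c) - a * S.sec b c) r := by
    intro r _
    exact hM _
  refine ⟨T', hT', ?_, ?_, ?_⟩
  · have e1 : T'.rows.length = T.rows.length := by rw [hrows, List.length_map]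
    have e2 : Fintype.card (Unit ⊕ S.ι) = 1 + Fintype.card S.ι := by
      rw [Fintype.card_sum]; simp
    rw [e2]
    calc T'.rows.length = T.rows.length := e1
      _ ≤ 2 ^ Fintype.card S.ι := hlen
      _ ≤ 2 ^ (1 + Fintype.card S.ι) := Nat.pow_le_pow_right (by norm_num) (by omega)
  · intro r hr
    rw [hrows, List.mem_map] at hr
    obtain ⟨r0, hr0, rfl⟩ := hr
    rw [hm r0 hr0]
    calc gtop (u (Sum.inl ()) - a) * S.mass (fun c => u (Sum.inr c) - a * S.sec b c) r0
        ≤ gtop (u (Sum.inl ()) - a) * κ :=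
          mul_le_mul_of_nonneg_left (hmass r0 hr0) (p3_gtop_nonneg _)
      _ ≤ 1 * κ := mul_le_mul_of_nonneg_right (p3_gtop_le_one _) hκ
      _ = κ := one_mul κ
  · rw [hrows, List.map_map]
    have e3 : (T.rows.map (M ∘ fun r => Sum.elim (fun _ : Unit => a) r)) =
        T.rows.map (fun r => gtop (u (Sum.inl ()) - a) *
          S.mass (fun c => u (Sum.inr c) - a * S.sec b c) r) := by
      apply List.map_congr_left
      intro r hr
      exact hm r hr
    rw [e3, List.sum_map_mul_left]
    exact mul_le_mul_of_nonneg_left hsum (p3_gtop_nonneg _)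

/-- P3. one top step: the classes `z` with `z ∉ Bad` or `z + b ∉ Bad` capture `v * phi 2`.
PROOF: for the offset `u` with class `z' = cls u = S.cls u_in - u_x b`: the row value `a = u_x` (offset 0, weight `phi 1 ≥ phi 2`) has the inner class
`S.cls (u_in - a sec b) = z'`, the row value `a = u_x - 1` (offset 1, weight `phi 2`) has the inner class `z' + b`.
Take the tree of the inner system for one of them (lifted by `Tr.lift` with the constant value `a`; no node needed).
`phi 1 ≤ 1`, `phi 2 ≤ phi 1`. For the conditions `g_le`: `|w| ≤ 1 → phi 1 ≤ phi w`, `|w - 1| ≤ 1 → phi 2 ≤ phi w`. -/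
theorem top_step {A : Type} [AddCommGroup A] [DecidableEq A] (S : Sys A) {R κ v : ℝ} (Bad : Finset A) (hκ : 0 ≤ κ)
    (hR : 1 ≤ R) (hS : S.Ok R κ (fun z => if z ∈ Bad then 0 else v)) (hv : 0 ≤ v) (b : A) :
    (S.top b).Ok R κ (fun z => if z ∈ Bad ∧ z + b ∈ Bad then 0 else v * phi 2) := by
  have hcls0 : ∀ u : (S.top b).ι → ℤ, (S.top b).cls u =
      S.cls (fun c => u (Sum.inr c)) - u (Sum.inl ()) • b := fun u => rfl
  refine ⟨?_, ?_, ?_, ?_, ?_, ?_, ?_, ?_⟩
  · intro a
    rw [hcls0]
    show S.cls (fun c => S.sec a c) - (0 : ℤ) • b = a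
    rw [zero_smul, sub_zero]
    exact hS.sec_cls a
  · rintro (c | c)
    · show (0 : ℝ) < 1
      norm_num
    · exact hS.ρ_pos c
  · rintro (c | c)
    · show (1 : ℝ) ≤ 1
      exact le_refl _
    · exact hS.ρ_le c
  · rintro (c | c) t
    · exact p3_gtop_nonneg t
    · exact hS.g_nonneg c t
  · rintro (c | c) t w hw
    · show gtop t ≤ 1 * phi w
      have hw' : |w - 1 * (t : ℝ)| ≤ 1 := hw
      rw [one_mul] at hw' ⊢
      unfold gtop
      split_ifs with h0 h1
      · subst h0
        simp only [Int.cast_zero, sub_zero] at hw'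
        exact p3_phi_anti zero_le_one hw'
      · subst h1
        simp only [Int.cast_one] at hw'
        apply p3_phi_anti (by norm_num)
        have := abs_le.1 hw'
        rw [abs_le]
        constructor <;> linarith [this.1, this.2]
      · exact p3_phi_nonneg w
    · exact hS.g_le c t w hw
  · rintro (c | c) t ht
    · show gtop t = 0
      have ht' : R < 1 * |(t : ℝ)| := ht
      rw [one_mul] at ht'
      unfold gtop
      have h0 : t ≠ 0 := by
        rintro rfl
        simp at ht'
        linarith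
      have h1 : t ≠ 1 := by
        rintro rfl
        simp at ht'
        linarith
      simp [h0, h1]
    · exact hS.g_supp c t ht
  · have := top_det S b
    rw [this]
    exact hS.det_ne
  · intro u
    have hsec := hS.sec_cls b
    set z := (S.top b).cls u with hz
    by_cases hzB : z ∈ Bad
    · by_cases hzB' : z + b ∈ Bad
      · obtain ⟨T, h1, h2, h3, h4⟩ := p3_tree S hκ hS.cap b u (u (Sum.inl ())) 0 (by
          show (if S.cls (fun c => u (Sum.inr c)) - u (Sum.inl ()) • b ∈ Bad then 0 else v) = 0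
          rw [← hcls0 u, ← hz, if_pos hzB]) hsec ((S.top b).mass u) (top_mass S b u)
        refine ⟨T, h1, h2, h3, ?_⟩
        show (if z ∈ Bad ∧ z + b ∈ Bad then 0 else v * phi 2) ≤ _
        rw [if_pos ⟨hzB, hzB'⟩]
        rw [mul_zero] at h4
        exact h4
      · obtain ⟨T, h1, h2, h3, h4⟩ := p3_tree S hκ hS.cap b u (u (Sum.inl ()) - 1) v (by
          show (if S.cls (fun c => u (Sum.inr c)) - (u (Sum.inl ()) - 1) • b ∈ Bad then 0 else v) = v
          have : S.cls (fun c => u (Sum.inr c)) - (u (Sum.inl ()) - 1) • b = z + b := by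
            rw [hz, hcls0 u, sub_smul, one_smul]
            abel
          rw [this, if_neg hzB']) hsec ((S.top b).mass u) (top_mass S b u)
        refine ⟨T, h1, h2, h3, ?_⟩
        show (if z ∈ Bad ∧ z + b ∈ Bad then 0 else v * phi 2) ≤ _
        rw [if_neg (fun h => hzB' h.2)]
        have hg : gtop (u (Sum.inl ()) - (u (Sum.inl ()) - 1)) = phi 2 := by
          have : u (Sum.inl ()) - (u (Sum.inl ()) - 1) = 1 := by ring
          rw [this]
          simp [gtop]
        rw [hg] at h4
        rw [mul_comm] at h4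
        exact h4
    · obtain ⟨T, h1, h2, h3, h4⟩ := p3_tree S hκ hS.cap b u (u (Sum.inl ())) v (by
        show (if S.cls (fun c => u (Sum.inr c)) - u (Sum.inl ()) • b ∈ Bad then 0 else v) = v
        rw [← hcls0 u, ← hz, if_neg hzB]) hsec ((S.top b).mass u) (top_mass S b u)
      refine ⟨T, h1, h2, h3, ?_⟩
      show (if z ∈ Bad ∧ z + b ∈ Bad then 0 else v * phi 2) ≤ _
      rw [if_neg (fun h => hzB h.1)]
      have hg : gtop (u (Sum.inl ()) - u (Sum.inl ())) = phi 1 := by
        rw [sub_self]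
        simp [gtop]
      rw [hg] at h4
      have h12 : phi 2 ≤ phi 1 := p3_phi_anti (by norm_num) (by norm_num)
      calc v * phi 2 ≤ v * phi 1 := mul_le_mul_of_nonneg_left h12 hv
        _ = phi 1 * v := mul_comm _ _
        _ ≤ _ := h4

end Crest.Agent.CVD
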