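/-
  CVD_P4 (S0347 part D): averaging over the shift of a top coordinate.
-/
import Crest.Agent.CVD_Defs

set_option autoImplicit false

namespace Crest.Agent.CVD
open Finset Crest.Agent.CV

/-- P4. averaging: some `b` squares the density of the bad classes. -/
theorem exists_top_b {A : Type} [AddCommGroup A] [Fintype A] [DecidableEq A] (Bad : Finset A) :
    ∃ b : A, ((univ.filter (fun z => z ∈ Bad ∧ z + b ∈ Bad)).card : ℝ) * (Fintype.card A : ℝ) ≤
      (Bad.card : ℝ) ^ 2 := by
  classical
  by_contra hcon
  push Not at hcon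
  have hcard : 0 < Fintype.card A := Fintype.card_pos_iff.mpr ⟨0⟩
  -- total sum
  have hsum : ∑ b : A, (univ.filter (fun z => z ∈ Bad ∧ z + b ∈ Bad)).card = Bad.card ^ 2 := by
    have h1 : ∀ b : A, (univ.filter (fun z => z ∈ Bad ∧ z + b ∈ Bad)).card =
        ∑ z ∈ Bad, if z + b ∈ Bad then 1 else 0 := by
      intro b
      rw [Finset.card_filter]
      rw [← Finset.sum_filter_add_sum_filter_not Finset.univ (fun z => z ∈ Bad)]
      have h2 : (univ.filter (fun z => z ∈ Bad)) = Bad := by ext z; simp
      rw [h2]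
      have h3 : ∑ x ∈ univ.filter (fun z => ¬ z ∈ Bad), (if x ∈ Bad ∧ x + b ∈ Bad then 1 else 0) = 0 := by
        apply Finset.sum_eq_zero
        intro x hx
        simp only [Finset.mem_filter, Finset.mem_univ, true_and] at hx
        simp [hx]
      rw [h3, add_zero]
      apply Finset.sum_congr rfl
      intro x hx
      simp [hx]
    simp_rw [h1]
    rw [Finset.sum_comm]
    have h4 : ∀ z ∈ Bad, ∑ b : A, (if z + b ∈ Bad then 1 else 0) = Bad.card := by
      intro z _
      rw [← Finset.card_filter]
      apply Finset.card_bij (fun b _ => z + b)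
      · intro b hb
        simpa using hb
      · intro b _ b' _ h
        exact add_left_cancel h
      · intro c hc
        exact ⟨c - z, by simpa using hc, by simp⟩
    rw [Finset.sum_congr rfl h4, Finset.sum_const, smul_eq_mul, sq]
  have h5 : ∑ b : A, (((univ.filter (fun z => z ∈ Bad ∧ z + b ∈ Bad)).card : ℝ) * (Fintype.card A : ℝ)) =
      (Bad.card : ℝ) ^ 2 * Fintype.card A := by
    rw [← Finset.sum_mul]
    congr 1
    exact_mod_cast hsum
  have h6 : ∑ b : A, (Bad.card : ℝ) ^ 2 < ∑ b : A, (((univ.filter (fun z => z ∈ Bad ∧ z + b ∈ Bad)).card : ℝ) * (Fintype.card A : ℝ)) := by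
    apply Finset.sum_lt_sum_of_nonempty
    · exact ⟨0, Finset.mem_univ _⟩
    · intro b _
      exact hcon b
  rw [h5, Finset.sum_const, Finset.card_univ, nsmul_eq_mul] at h6
  linarith
end Crest.Agent.CVD
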