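/-
  CVD_P5 (S0347 part D): iteration of the top step.
-/
import Crest.Agent.CVD_P3
import Crest.Agent.CVD_P4

set_option autoImplicit false

namespace Crest.Agent.CVD
open Finset Crest.Agent.CV

private theorem p5_iter (β : ℝ) (A : Type) [AddCommGroup A] [Fintype A] [DecidableEq A]
    (S : Sys A) (R κ v : ℝ) (Bad : Finset A) (hκ : 0 ≤ κ) (hR : 1 ≤ R) (hv : 0 ≤ v)
    (hBad : (Bad.card : ℝ) ≤ β * Fintype.card A)
    (hS : S.Ok R κ (fun z => if z ∈ Bad then 0 else v)) (i : ℕ) :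
    ∃ (S' : Sys A) (Bad' : Finset A),
      S'.Ok R κ (fun z => if z ∈ Bad' then 0 else v * (phi 2) ^ i) ∧
      (Bad'.card : ℝ) ≤ β ^ (2 ^ i) * Fintype.card A ∧
      Fintype.card S'.ι = i + Fintype.card S.ι ∧ S'.B.det = S.B.det := by
  induction i with
  | zero =>
    refine ⟨S, Bad, ?_, ?_, by simp, rfl⟩
    · simpa using hS
    · simpa using hBad
  | succ i ih =>
    obtain ⟨S', Bad', hOk, hB, hc, hd⟩ := ih
    obtain ⟨b, hb⟩ := exists_top_b Bad'
    have hphi : 0 ≤ phi 2 := by unfold phi; positivity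
    have hstep := top_step S' Bad' hκ hR hOk (by positivity) b
    refine ⟨S'.top b, univ.filter (fun z => z ∈ Bad' ∧ z + b ∈ Bad'), ?_, ?_, ?_, ?_⟩
    · have e : (fun z => if z ∈ univ.filter (fun z => z ∈ Bad' ∧ z + b ∈ Bad') then (0 : ℝ)
          else v * (phi 2) ^ (i + 1)) =
          (fun z => if z ∈ Bad' ∧ z + b ∈ Bad' then 0 else v * (phi 2) ^ i * phi 2) := by
        funext z
        simp only [Finset.mem_filter, Finset.mem_univ, true_and, pow_succ, mul_assoc]
      rw [e]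
      exact hstep
    · have hA : 0 < (Fintype.card A : ℝ) := by
        have : 0 < Fintype.card A := Fintype.card_pos
        exact_mod_cast this
      have h1 : (Bad'.card : ℝ) ^ 2 ≤ (β ^ (2 ^ i) * Fintype.card A) ^ 2 :=
        pow_le_pow_left₀ (Nat.cast_nonneg _) hB 2
      have h2 : ((univ.filter (fun z => z ∈ Bad' ∧ z + b ∈ Bad')).card : ℝ) *
          (Fintype.card A : ℝ) ≤ (β ^ (2 ^ (i + 1)) * Fintype.card A) * Fintype.card A := by
        calc _ ≤ (Bad'.card : ℝ) ^ 2 := hb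
          _ ≤ (β ^ (2 ^ i) * Fintype.card A) ^ 2 := h1
          _ = _ := by rw [pow_succ 2 i, pow_mul]; ring
      exact le_of_mul_le_mul_right h2 hA
    · have : Fintype.card (S'.top b).ι = 1 + Fintype.card S'.ι := by
        show Fintype.card (Unit ⊕ S'.ι) = _
        rw [Fintype.card_sum]; simp
      rw [this, hc]
      ring
    · rw [top_det, hd]

/-- P5. iteration: for every bound `L` on the order of the group and `β < 1` there is a number `K` of steps (depending only on `L` and `β`)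
after which no class is bad. PROOF: iterate P3, P4: the density `β_i` of the bad classes satisfies `β_{i+1} ≤ β_i^2`, so `β_K ≤ β^(2^K) < 1/L`
for a suitable `K`, hence `Bad = ∅`. (Do the induction with `card Bad ≤ β^(2^i) * card A`.) -/
theorem top_iterate (L : ℕ) (β : ℝ) (hβ0 : 0 ≤ β) (hβ : β < 1) : ∃ K : ℕ,
    ∀ (A : Type) [AddCommGroup A] [Fintype A] [DecidableEq A] (S : Sys A) (R κ v : ℝ) (Bad : Finset A),
      Fintype.card A ≤ L → 0 ≤ κ → 1 ≤ R → 0 ≤ v → (Bad.card : ℝ) ≤ β * Fintype.card A →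
      S.Ok R κ (fun z => if z ∈ Bad then 0 else v) →
      ∃ S' : Sys A, S'.Ok R κ (fun _ => v * (phi 2) ^ K) ∧
        Fintype.card S'.ι = K + Fintype.card S.ι ∧ S'.B.det = S.B.det := by
  obtain ⟨K, hK⟩ := exists_pow_lt_of_lt_one (y := β) (x := (1 : ℝ) / (L + 1)) (by positivity) hβ
  refine ⟨K, ?_⟩
  intro A _ _ _ S R κ v Bad hL hκ hR hv hBad hS
  obtain ⟨S', Bad', hOk, hB, hc, hd⟩ := p5_iter β A S R κ v Bad hκ hR hv hBad hS K
  have hL' : (Fintype.card A : ℝ) ≤ L := by exact_mod_cast hL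
  have h1 : β ^ (2 ^ K) ≤ β ^ K :=
    pow_le_pow_of_le_one hβ0 hβ.le (Nat.lt_two_pow_self).le
  have h2 : (Bad'.card : ℝ) < 1 := by
    calc (Bad'.card : ℝ) ≤ β ^ (2 ^ K) * Fintype.card A := hB
      _ ≤ (1 / (L + 1)) * L := by
        have hK' : β ^ (2 ^ K) ≤ 1 / ((L : ℝ) + 1) := h1.trans hK.le
        have : 0 ≤ β ^ (2 ^ K) := by positivity
        have h0 : (0 : ℝ) ≤ Fintype.card A := Nat.cast_nonneg _
        calc β ^ (2 ^ K) * Fintype.card A ≤ (1 / ((L : ℝ) + 1)) * Fintype.card A :=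
              mul_le_mul_of_nonneg_right hK' h0
          _ ≤ (1 / ((L : ℝ) + 1)) * L := mul_le_mul_of_nonneg_left hL' (by positivity)
      _ < 1 := by
        have : (0 : ℝ) < (L : ℝ) + 1 := by positivity
        rw [div_mul_eq_mul_div, one_mul, div_lt_one this]
        linarith
  have h3 : Bad' = ∅ := by
    rw [← Finset.card_eq_zero]
    have : Bad'.card < 1 := by exact_mod_cast h2
    omega
  refine ⟨S', ?_, hc, hd⟩
  rw [h3] at hOk
  simpa using hOk

end Crest.Agent.CVD
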