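/-
  CVD_W0 (S0347 part D): the trivial system; monotonicity.
-/
import Crest.Agent.CVD_Defs

set_option autoImplicit false

namespace Crest.Agent.CVD
open Finset Crest.Agent.CV

/-- monotonicity of `Ok` -/
theorem Sys.Ok.mono {A : Type} [AddCommGroup A] {S : Sys A} {R κ κ' : ℝ} {X X' : A → ℝ} (h : S.Ok R κ X) (hκ : κ ≤ κ')
    (hX : ∀ z, X' z ≤ X z) : S.Ok R κ' X' := by
  refine ⟨h.sec_cls, h.ρ_pos, h.ρ_le, h.g_nonneg, h.g_le, h.g_supp, h.det_ne, ?_⟩
  intro u
  obtain ⟨T, h1, h2, h3, h4⟩ := h.cap u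
  exact ⟨T, h1, h2, fun a ha => (h3 a ha).trans hκ, (hX _).trans h4⟩

/-- W0. the innermost (trivial) system. -/
noncomputable def trivSys : Sys PUnit where
  ι := Empty
  fι := inferInstance
  dι := inferInstance
  ρ := fun x => x.elim
  g := fun x => x.elim
  B := 1
  cls := 0
  sec := fun _ x => x.elim

/-- W1. PROOF: the only row has mass `1`. -/
theorem triv_ok (R : ℝ) : trivSys.Ok R 1 (fun _ => 1) := by
  have : IsEmpty trivSys.ι := inferInstanceAs (IsEmpty Empty)
  refine ⟨?_, ?_, ?_, ?_, ?_, ?_, ?_, ?_⟩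
  · intro b
    rfl
  · intro c
    exact isEmptyElim c
  · intro c
    exact isEmptyElim c
  · intro c
    exact isEmptyElim c
  · intro c
    exact isEmptyElim c
  · intro c
    exact isEmptyElim c
  · rw [Matrix.det_isEmpty]
    exact one_ne_zero
  · intro u
    refine ⟨Tr.leaf u, trivial, ?_, ?_, ?_⟩
    · exact Nat.one_le_two_pow
    · intro a _
      unfold Sys.mass
      rw [Matrix.det_isEmpty, Finset.prod_of_isEmpty]
      simp
    · unfold Tr.rows
      rw [List.map_singleton, List.sum_singleton]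
      unfold Sys.mass
      rw [Matrix.det_isEmpty, Finset.prod_of_isEmpty]
      simp

end Crest.Agent.CVD
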