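/-
  CVD_TowerDef (S0347 part D): the inductive statement.
-/
import Crest.Agent.CVD_C2
import Crest.Agent.CVD_W0

set_option autoImplicit false

namespace Crest.Agent.CVD
open Finset Crest.Agent.CV

/-- the inductive statement after the block `N = 2^j` (outermost so far) of a tower with innermost block `2^J` -/
def TowerAt (J j : ℕ) : Prop :=
  ∃ (q : ℕ) (S : Sys (Fin ((2 ^ j) ^ 20) → ZMod q)) (X : (Fin ((2 ^ j) ^ 20) → ZMod q) → ℝ) (_ : Fact q.Prime),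
    Real.log q ≤ ((2 : ℝ) ^ j) ^ 40 ∧
    S.Ok (((2 : ℝ) ^ J) ^ 20 / 2) (Real.exp (-(((2 : ℝ) ^ J) ^ 12))) X ∧
    (∀ ξ, 0 ≤ X ξ) ∧ (∀ ξ, X ξ ≤ Real.exp (3 * ((2 : ℝ) ^ j) ^ 12)) ∧ mean X ≤ 1 ∧
    1 - 10 / (2 : ℝ) ^ j + 5 / (2 : ℝ) ^ J ≤ mean X ∧
    (2 ^ J) ^ 20 ≤ Fintype.card S.ι ∧ Fintype.card S.ι + (2 ^ j) ^ 20 ≤ 4 * (2 ^ J) ^ 20 ∧
    |(S.B.det : ℝ)| ≤ Real.exp (4 * ((2 : ℝ) ^ J) ^ 60 - ((2 : ℝ) ^ j) ^ 60)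

end Crest.Agent.CVD
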