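/-
  CVD_W2 (S0347 part D): numerical inequalities for the tower.
-/
import Crest.Agent.CVD_Defs

set_option autoImplicit false

namespace Crest.Agent.CVD
open Finset Crest.Agent.CV

/-- W2. the numerical inequalities for one step of the tower. PROOF: growth comparison, `N ≥ N₁`. -/
theorem tower_numbers : ∃ N₁ : ℕ, 20 ≤ N₁ ∧ ∀ N : ℕ, N₁ ≤ N →
    2 * (((2 * N : ℕ) : ℝ) ^ 60) * Real.exp (-((N : ℝ) ^ 13)) * Real.exp (3 * ((2 * N : ℕ) : ℝ) ^ 12) / (1 / (N : ℝ)) ^ 2 ≤ 1 / N ∧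
    Real.exp (3 * (N : ℝ) ^ 12) * Real.exp (-((N : ℝ) ^ 13)) ≤ Real.exp (-((N : ℝ) ^ 12)) := by
  refine ⟨20000, by norm_num, ?_⟩
  intro N hN
  have hN' : (20000 : ℝ) ≤ (N : ℝ) := by exact_mod_cast hN
  have hpos : (0 : ℝ) < (N : ℝ) := by linarith
  set x : ℝ := (N : ℝ) with hx
  have h12 : x ≤ x ^ 12 := by
    have h1 : (1 : ℝ) ≤ x ^ 11 := one_le_pow₀ (by linarith)
    calc x = x * 1 := (mul_one x).symm
      _ ≤ x * x ^ 11 := mul_le_mul_of_nonneg_left h1 hpos.le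
      _ = x ^ 12 := by ring
  have h12pos : (0 : ℝ) < x ^ 12 := by positivity
  constructor
  · have hcast : ((2 * N : ℕ) : ℝ) = 2 * x := by push_cast; ring
    rw [hcast]
    have e1 : 2 * (2 * x) ^ 60 * Real.exp (-(x ^ 13)) * Real.exp (3 * (2 * x) ^ 12) / (1 / x) ^ 2 =
        (2 : ℝ) ^ 61 * x ^ 62 * Real.exp (12288 * x ^ 12 - x ^ 13) := by
      have : Real.exp (-(x ^ 13)) * Real.exp (3 * (2 * x) ^ 12) = Real.exp (12288 * x ^ 12 - x ^ 13) := by
        rw [← Real.exp_add]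
        congr 1
        ring
      rw [← this]
      field_simp
    rw [e1, le_div_iff₀ hpos]
    have h2 : (2 : ℝ) ^ 61 ≤ Real.exp 61 := by
      have h3 : (2 : ℝ) ≤ Real.exp 1 := by
        have := Real.add_one_le_exp (1 : ℝ)
        linarith
      calc (2 : ℝ) ^ 61 ≤ (Real.exp 1) ^ 61 := pow_le_pow_left₀ (by norm_num) h3 61
        _ = Real.exp 61 := by rw [← Real.exp_nat_mul]; norm_num
    have h4 : x ^ 63 ≤ Real.exp (63 * x) := by
      have h5 : x ≤ Real.exp x := by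
        have := Real.add_one_le_exp x
        linarith
      calc x ^ 63 ≤ (Real.exp x) ^ 63 := pow_le_pow_left₀ hpos.le h5 63
        _ = Real.exp (63 * x) := by rw [← Real.exp_nat_mul]; norm_num
    have h6 : (2 : ℝ) ^ 61 * x ^ 62 * Real.exp (12288 * x ^ 12 - x ^ 13) * x =
        ((2 : ℝ) ^ 61 * x ^ 63) * Real.exp (12288 * x ^ 12 - x ^ 13) := by ring
    rw [h6]
    have h7 : (2 : ℝ) ^ 61 * x ^ 63 ≤ Real.exp 61 * Real.exp (63 * x) :=
      mul_le_mul h2 h4 (by positivity) (Real.exp_pos _).le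
    calc ((2 : ℝ) ^ 61 * x ^ 63) * Real.exp (12288 * x ^ 12 - x ^ 13)
        ≤ (Real.exp 61 * Real.exp (63 * x)) * Real.exp (12288 * x ^ 12 - x ^ 13) :=
          mul_le_mul_of_nonneg_right h7 (Real.exp_pos _).le
      _ = Real.exp (61 + 63 * x + (12288 * x ^ 12 - x ^ 13)) := by
          rw [← Real.exp_add, ← Real.exp_add]
      _ ≤ Real.exp 0 := by
          apply Real.exp_le_exp.mpr
          have h8 : x ^ 13 = x ^ 12 * x := by ring
          have h9 : x ^ 12 * 20000 ≤ x ^ 12 * x := mul_le_mul_of_nonneg_left hN' h12pos.le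
          nlinarith
      _ = 1 := Real.exp_zero
  · rw [← Real.exp_add]
    apply Real.exp_le_exp.mpr
    have h8 : x ^ 13 = x ^ 12 * x := by ring
    have h9 : x ^ 12 * 20000 ≤ x ^ 12 * x := mul_le_mul_of_nonneg_left hN' h12pos.le
    nlinarith

end Crest.Agent.CVD
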