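/-
  CVD_W3 (S0347 part D): first block of the tower.
-/
import Crest.Agent.CVD_TowerDef
import Crest.Agent.CVD_W2

set_option autoImplicit false

namespace Crest.Agent.CVD
open Finset Crest.Agent.CV

/-- W3. the first block (`S = trivSys`). PROOF: `compose` with `trivSys`, `lam = 1/N`, `M = 1`, `N = 2^J`; `log 1 = 0`.
`mean X ≥ 1 - 1/N - 3/N - 1/N = 1 - 5/N`. `card S.ι = N^20 + 1`, `|det| = q^(N^20) ≤ exp (N^60)`. -/
theorem tower_base (hBN : BlockNumbers) : ∃ j₀ : ℕ, ∀ J : ℕ, j₀ ≤ J → TowerAt J J := by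
  obtain ⟨N₀, hN₀⟩ := hBN
  obtain ⟨N₁, hN₁, hW2⟩ := tower_numbers
  refine ⟨max N₀ N₁, fun J hJ => ?_⟩
  have hJ2 : J < 2 ^ J := Nat.lt_two_pow_self
  have hA : N₀ ≤ 2 ^ J := ((le_max_left _ _).trans hJ).trans hJ2.le
  have hB1 : N₁ ≤ 2 ^ J := ((le_max_right _ _).trans hJ).trans hJ2.le
  have hN20 : 20 ≤ 2 ^ J := hN₁.trans hB1
  obtain ⟨q, ρ, ε, G, ω, I, typ, hq, hlogq, hBl⟩ := hN₀ (2 ^ J) hA
  obtain ⟨-, hw⟩ := hW2 (2 ^ J) hB1
  have : Fact q.Prime := ⟨hq⟩
  have hcast : ((2 ^ J : ℕ) : ℝ) = (2 : ℝ) ^ J := by push_cast; rfl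
  have hx20 : (20 : ℝ) ≤ (2 : ℝ) ^ J := by rw [← hcast]; exact_mod_cast hN20
  set x : ℝ := (2 : ℝ) ^ J with hx
  have hx0 : 0 < x := by linarith
  rw [hcast] at hlogq hBl hw
  have hmean : mean (fun _ : PUnit => (1 : ℝ)) = 1 := by
    unfold mean
    simp
  have hlam : 1 / x < 1 := by
    rw [div_lt_one hx0]
    linarith
  obtain ⟨S', X', h1, h2, h3, h4, h5, h6, h7⟩ :=
    compose (A := PUnit) trivSys (R := x ^ 20 / 2) (κ := 1) (X := fun _ => 1) (triv_ok _) zero_le_one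
      (M := 1) (fun _ => zero_le_one) (fun _ => le_refl _) (le_of_eq hmean) hBl (le_refl _)
      (τ := 1 / x) (by positivity) (by
        rw [div_le_div_iff₀ hx0 (by norm_num)]
        linarith) hx0 (lam := 1 / x) (by positivity) (by rw [hmean]; exact hlam) (by
        have : Real.log ((Fintype.card PUnit : ℕ) : ℝ) = 0 := by simp
        rw [this]
        simp only [mul_zero, zero_mul, zero_div]
        positivity)
  have hcard0 : Fintype.card trivSys.ι = 0 := by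
    show Fintype.card Empty = 0
    exact Fintype.card_empty
  have hdet0 : trivSys.B.det = 1 := by
    show (1 : Matrix Empty Empty ℤ).det = 1
    exact Matrix.det_one
  rw [hcard0, add_zero] at h6
  refine ⟨q, S', X', this, hlogq, ?_, h2, h3, h4, ?_, ?_, ?_, ?_⟩
  · refine h1.mono ?_ fun _ => le_refl _
    rw [one_mul]
    exact hw
  · rw [hmean] at h5
    refine le_trans (le_of_eq ?_) h5
    field_simp
    ring
  · rw [h6]
    omega
  · rw [h6]
    have : 1 ≤ (2 ^ J) ^ 20 := Nat.one_le_pow _ _ (by positivity)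
    omega
  · rw [h7, hdet0]
    simp only [Int.cast_one, abs_one, mul_one]
    have hq0 : (0 : ℝ) < q := by exact_mod_cast hq.pos
    have e1 : ((q : ℝ)) ^ ((2 ^ J) ^ 20) = Real.exp (((2 ^ J) ^ 20 : ℕ) * Real.log q) := by
      rw [Real.exp_nat_mul, Real.exp_log hq0]
    rw [e1]
    apply Real.exp_le_exp.2
    have e2 : (((2 ^ J) ^ 20 : ℕ) : ℝ) = x ^ 20 := by
      push_cast
      rfl
    rw [e2]
    have h8 : x ^ 20 * Real.log q ≤ x ^ 20 * x ^ 40 :=
      mul_le_mul_of_nonneg_left hlogq (by positivity)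
    have h9 : x ^ 20 * x ^ 40 = x ^ 60 := by ring
    have h10 : 0 < x ^ 60 := by positivity
    linarith

end Crest.Agent.CVD
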