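/-
  CVD_W4 (S0347 part D): one step of the tower.
-/
import Crest.Agent.CVD_TowerDef
import Crest.Agent.CVD_W2

set_option autoImplicit false

namespace Crest.Agent.CVD
open Finset Crest.Agent.CV

/-- W4. one step: from `2^(j+1)` to `2^j`. PROOF: `compose` with `N = 2^j`, `lam = 1/N`; `log (card A) = (2N)^20 log q ≤ (2N)^60`,
`M = exp (3 (2N)^12)`, `P = exp (-N^13)`, W2; `κ' = κ hi P ≤ κ`; the loss is `5/N` and `1 - 10/(2N) + 5/2^J - 5/N = 1 - 10/N + 5/2^J`.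
`1/4`-conditions: `N ≥ 20` gives `mean X ≥ 1/2 > lam`. `card' = N^20 + 1 + card`, `card' + N^20 ≤ card + (2N)^20 ≤ 4 (2^J)^20`,
`|det'| = q^(N^20) |det| ≤ exp (N^60 + 4 (2^J)^60 - (2N)^60) ≤ exp (4 (2^J)^60 - N^60)`. -/
theorem tower_step (hBN : BlockNumbers) : ∃ j₀ : ℕ, ∀ j J : ℕ, j₀ ≤ j → j + 1 ≤ J → TowerAt J (j + 1) → TowerAt J j := by
  obtain ⟨N₀, hN₀⟩ := hBN
  obtain ⟨N₁, hN₁20, hN₁⟩ := tower_numbers
  refine ⟨N₀ + N₁, fun j J hj hJ hT => ?_⟩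
  obtain ⟨q0, S, X, hq0, hlog0, hOk, hX0, hXM, hXm, hXm', hcard, hcard', hdet⟩ := hT
  have hjN : j ≤ 2 ^ j := (Nat.lt_two_pow_self).le
  obtain ⟨q, ρ, ε, G, ω, I, typ, hq, hlogq, hB⟩ := hN₀ (2 ^ j) (by omega)
  obtain ⟨num1, num2⟩ := hN₁ (2 ^ j) (by omega)
  haveI : Fact q.Prime := ⟨hq⟩
  haveI := hq0
  have hN20 : (20 : ℝ) ≤ (2 : ℝ) ^ j := by
    have h1 : 20 ≤ 2 ^ j := by omega
    exact_mod_cast h1
  have hNc : ((2 ^ j : ℕ) : ℝ) = (2 : ℝ) ^ j := by push_cast; rfl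
  have hNc2 : ((2 * 2 ^ j : ℕ) : ℝ) = 2 * (2 : ℝ) ^ j := by push_cast; rfl
  rw [hNc] at hlogq hB
  rw [hNc, hNc2] at num1
  rw [hNc] at num2
  set N : ℝ := (2 : ℝ) ^ j with hN
  have hNpos : 0 < N := by linarith
  have hpow : (2 : ℝ) ^ (j + 1) = 2 * N := by rw [hN, pow_succ]; ring
  rw [hpow] at hlog0 hXM hXm' hdet
  set R0 : ℝ := (2 : ℝ) ^ J with hR0
  have hR0N : 2 * N ≤ R0 := by
    rw [← hpow, hR0]
    exact pow_le_pow_right₀ (by norm_num) hJ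
  have hR0pos : 0 < R0 := by linarith
  have hq0pos : (0 : ℝ) < q0 := by exact_mod_cast hq0.out.pos
  have hqpos : (0 : ℝ) < q := by exact_mod_cast hq.pos
  have hcardA : Real.log (Fintype.card (Fin ((2 ^ (j + 1)) ^ 20) → ZMod q0)) ≤ (2 * N) ^ 60 := by
    rw [Fintype.card_fun, Fintype.card_fin, ZMod.card]
    push_cast
    rw [Real.log_pow]
    push_cast
    rw [hpow]
    calc (2 * N) ^ 20 * Real.log q0 ≤ (2 * N) ^ 20 * (2 * N) ^ 40 :=
          mul_le_mul_of_nonneg_left hlog0 (by positivity)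
      _ = (2 * N) ^ 60 := by ring
  have h5 : 0 ≤ 5 / R0 := by positivity
  have h10 : 10 / (2 * N) = 5 / N := by field_simp; norm_num
  have h5N : 5 / N ≤ 1 / 4 := by
    rw [div_le_iff₀ hNpos]; linarith
  have h1N : 1 / N ≤ 1 / 20 := one_div_le_one_div_of_le (by norm_num) hN20
  have hXm2 : 3 / 4 ≤ mean X := by rw [h10] at hXm'; linarith
  obtain ⟨S', X', hOk', hX0', hXM', hXm1, hXm2', hc', hd'⟩ := compose S hOk (Real.exp_pos _).le
    hX0 hXM hXm hB (R' := N ^ 20 / 2) (R := R0 ^ 20 / 2)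
    (div_le_div_of_nonneg_right (pow_le_pow_left₀ hNpos.le (by linarith) 20) (by norm_num))
    (by positivity) (by linarith) hNpos (lam := 1 / N) (by positivity) (by linarith) (by
      refine le_trans ?_ num1
      have : 0 < (1 / N) ^ 2 := by positivity
      refine div_le_div_of_nonneg_right ?_ this.le
      refine mul_le_mul_of_nonneg_right ?_ (Real.exp_pos _).le
      refine mul_le_mul_of_nonneg_right ?_ (Real.exp_pos _).le
      linarith)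
  have hle1 : Real.exp (3 * N ^ 12) * Real.exp (-(N ^ 13)) ≤ 1 := by
    refine num2.trans ?_
    rw [Real.exp_le_one_iff]
    have : 0 < N ^ 12 := by positivity
    linarith
  have hκ : Real.exp (-(R0 ^ 12)) * Real.exp (3 * N ^ 12) * Real.exp (-(N ^ 13)) ≤
      Real.exp (-(R0 ^ 12)) := by
    rw [mul_assoc]
    exact mul_le_of_le_one_right (Real.exp_pos _).le hle1
  refine ⟨q, S', X', ⟨hq⟩, hlogq, ?_, hX0', hXM', hXm1, ?_, ?_, ?_, ?_⟩
  · refine { hOk' with cap := ?_ }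
    intro u
    obtain ⟨T, h1, h2, h3, h4⟩ := hOk'.cap u
    exact ⟨T, h1, h2, fun a ha => (h3 a ha).trans hκ, h4⟩
  · refine le_trans ?_ hXm2'
    rw [h10] at hXm'
    have e1 : 10 / N = 5 / N + 5 * (1 / N) := by ring
    have e2 : (1 : ℝ) / N = 1 / N := rfl
    rw [e1]
    linarith
  · rw [hc']; omega
  · rw [hc']
    have e1 : (2 ^ (j + 1)) ^ 20 = 2 ^ 20 * (2 ^ j) ^ 20 := by rw [← mul_pow, pow_succ]; ring
    obtain ⟨cS, hcS⟩ : ∃ c, c = Fintype.card S.ι := ⟨_, rfl⟩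
    rw [← hcS] at hcard' ⊢
    rw [e1] at hcard'
    have e2 : 1 ≤ (2 ^ j) ^ 20 := Nat.one_le_pow _ _ (by positivity)
    have e3 : 3 * (2 ^ j) ^ 20 ≤ 2 ^ 20 * (2 ^ j) ^ 20 := Nat.mul_le_mul_right _ (by norm_num)
    omega
  · rw [hd']
    have e1 : (q : ℝ) ^ ((2 ^ j) ^ 20) ≤ Real.exp (N ^ 60) := by
      rw [← Real.exp_log (show (0 : ℝ) < (q : ℝ) ^ ((2 ^ j) ^ 20) by positivity), Real.log_pow]
      push_cast
      refine Real.exp_le_exp.2 ?_
      calc (N) ^ 20 * Real.log q ≤ N ^ 20 * N ^ 40 :=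
            mul_le_mul_of_nonneg_left hlogq (by positivity)
        _ = N ^ 60 := by ring
    calc (q : ℝ) ^ ((2 ^ j) ^ 20) * |(S.B.det : ℝ)| ≤
          Real.exp (N ^ 60) * Real.exp (4 * R0 ^ 60 - (2 * N) ^ 60) :=
          mul_le_mul e1 hdet (abs_nonneg _) (Real.exp_pos _).le
      _ = Real.exp (N ^ 60 + (4 * R0 ^ 60 - (2 * N) ^ 60)) := (Real.exp_add _ _).symm
      _ ≤ Real.exp (4 * R0 ^ 60 - N ^ 60) := by
          refine Real.exp_le_exp.2 ?_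
          have h60 : 0 ≤ N ^ 60 := by positivity
          have : (2 * N) ^ 60 = 2 ^ 60 * N ^ 60 := mul_pow _ _ _
          rw [this]
          nlinarith

end Crest.Agent.CVD
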