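/-
  CVD_W5 (S0347 part D): the whole tower.
-/
import Crest.Agent.CVD_W3
import Crest.Agent.CVD_W4

set_option autoImplicit false

namespace Crest.Agent.CVD
open Finset Crest.Agent.CV

/-- W5. -/
theorem tower_all (hBN : BlockNumbers) : ∃ j₀ : ℕ, 5 ≤ j₀ ∧ ∀ J : ℕ, j₀ ≤ J → TowerAt J j₀ := by
  obtain ⟨j₁, h1⟩ := tower_base hBN
  obtain ⟨j₂, h2⟩ := tower_step hBN
  refine ⟨max 5 (max j₁ j₂), le_max_left _ _, ?_⟩
  intro J hJ
  have key : ∀ d : ℕ, ∀ j : ℕ, max 5 (max j₁ j₂) ≤ j → j + d = J → TowerAt J j := by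
    intro d
    induction d with
    | zero =>
      intro j hj hjd
      have : j = J := by omega
      subst this
      exact h1 j ((le_max_left _ _).trans ((le_max_right _ _).trans hj))
    | succ d ih =>
      intro j hj hjd
      refine h2 j J ((le_max_right _ _).trans ((le_max_right _ _).trans hj)) (by omega) ?_
      exact ih (j + 1) (by omega) (by omega)
  exact key (J - max 5 (max j₁ j₂)) _ le_rfl (by omega)

end Crest.Agent.CVD
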