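/-
  CVD_W6 (S0347 part D): the tower with the top coordinates.
-/
import Crest.Agent.CVD_W5
import Crest.Agent.CVD_P5

set_option autoImplicit false

namespace Crest.Agent.CVD
open Finset Crest.Agent.CV

private theorem cvd_w6_aux {A : Type} [AddCommGroup A] [Fintype A] [DecidableEq A] (S : Sys A)
    (X : A → ℝ) {R κ : ℝ} (hOk : S.Ok R κ X) (hX0 : ∀ z, 0 ≤ X z) (M₀ : ℝ) (hM0 : 0 < M₀)
    (hXM : ∀ z, X z ≤ M₀) (hm2 : 1 / 2 ≤ mean X) :
    ∃ Bad : Finset A, (Bad.card : ℝ) ≤ (1 - 1 / (4 * M₀)) * Fintype.card A ∧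
      S.Ok R κ (fun z => if z ∈ Bad then 0 else 1 / 4) := by
  classical
  set Bad : Finset A := univ.filter (fun z => X z < 1 / 4) with hBad
  have hcA : (0 : ℝ) < Fintype.card A := by
    have : 0 < Fintype.card A := Fintype.card_pos
    exact_mod_cast this
  have hsum : (1 / 2 : ℝ) * Fintype.card A ≤ ∑ z, X z := by
    unfold mean at hm2
    rwa [le_div_iff₀ hcA] at hm2
  refine ⟨Bad, ?_, ?_⟩
  · have h1 : ∑ z, X z ≤ ∑ z : A, ((1 / 4 : ℝ) + if z ∈ Bad then 0 else M₀) := by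
      refine Finset.sum_le_sum fun z _ => ?_
      by_cases hz : z ∈ Bad
      · rw [if_pos hz, add_zero]
        exact ((Finset.mem_filter.1 hz).2).le
      · rw [if_neg hz]
        linarith [hXM z]
    rw [Finset.sum_add_distrib, Finset.sum_const, Finset.card_univ, nsmul_eq_mul,
      Finset.sum_ite, Finset.sum_const_zero, zero_add, Finset.sum_const, nsmul_eq_mul] at h1
    have h2 : ((univ.filter (fun z => z ∉ Bad)).card : ℝ) = Fintype.card A - Bad.card := by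
      have h3 : (univ.filter (fun z => z ∉ Bad)) = Badᶜ := by
        ext z; simp
      rw [h3, Finset.card_compl, Nat.cast_sub (Finset.card_le_univ Bad)]
    rw [h2] at h1
    have h4 : (1 / 4 : ℝ) * Fintype.card A ≤ (Fintype.card A - Bad.card) * M₀ := by linarith
    have h5 : 1 / (4 * M₀) * Fintype.card A ≤ Fintype.card A - Bad.card := by
      have h6 : 1 / (4 * M₀) * (Fintype.card A : ℝ) = (1 / 4 * Fintype.card A) / M₀ := by
        field_simp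
      rw [h6, div_le_iff₀ hM0]
      exact h4
    linarith
  · refine ⟨hOk.sec_cls, hOk.ρ_pos, hOk.ρ_le, hOk.g_nonneg, hOk.g_le, hOk.g_supp, hOk.det_ne, ?_⟩
    intro u
    obtain ⟨T, h1, h2, h3, h4⟩ := hOk.cap u
    refine ⟨T, h1, h2, h3, le_trans ?_ h4⟩
    show (if S.cls u ∈ Bad then (0 : ℝ) else 1 / 4) ≤ X (S.cls u)
    split_ifs with hz
    · exact hX0 _
    · by_contra hcon
      exact hz (Finset.mem_filter.2 ⟨Finset.mem_univ _, not_le.1 hcon⟩)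

/-- W6. after the top coordinates: every offset captures at least `c0`. PROOF: `tower_all`, `mean X ≥ 1/2`, `X ≤ M₀ := exp (3 (2^j0)^12)`:
`Bad := {z | X z < 1/4}` has at most `(1 - 1/(4 M₀)) card A` elements; `X ≥ (1/4) 1[z ∉ Bad]`; `top_iterate` with
`L := ⌊exp ((2^j0)^60)⌋`, `β := 1 - 1/(4 M₀)`. -/
theorem tower_top (hBN : BlockNumbers) : ∃ (c0 : ℝ) (j₀ K : ℕ), 0 < c0 ∧ ∀ J : ℕ, j₀ ≤ J →
    ∃ (A : Type) (_ : AddCommGroup A) (S : Sys A),
      S.Ok (((2 : ℝ) ^ J) ^ 20 / 2) (Real.exp (-(((2 : ℝ) ^ J) ^ 12))) (fun _ => c0) ∧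
      (2 ^ J) ^ 20 ≤ Fintype.card S.ι ∧ Fintype.card S.ι ≤ 4 * (2 ^ J) ^ 20 + K ∧
      |(S.B.det : ℝ)| ≤ Real.exp (4 * ((2 : ℝ) ^ J) ^ 60) := by
  classical
  obtain ⟨j₀, hj5, hT⟩ := tower_all hBN
  set M₀ : ℝ := Real.exp (3 * ((2 : ℝ) ^ j₀) ^ 12) with hM₀
  have hM1 : 1 ≤ M₀ := Real.one_le_exp (by positivity)
  have hM0 : 0 < M₀ := Real.exp_pos _
  have hinv : 0 < 1 / (4 * M₀) := by positivity
  have hinv1 : 1 / (4 * M₀) ≤ 1 := by
    rw [div_le_one (by positivity)]; linarith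
  obtain ⟨K, hK⟩ := top_iterate ⌊Real.exp (((2 : ℝ) ^ j₀) ^ 60)⌋₊ (1 - 1 / (4 * M₀))
    (by linarith) (by linarith)
  have hphi : 0 < phi 2 := by unfold phi; positivity
  refine ⟨1 / 4 * phi 2 ^ K, j₀, K, by positivity, fun J hJ => ?_⟩
  obtain ⟨q, S, X, hq, hlog, hOk, hX0, hXM, -, hmean, hc1, hc2, hdet⟩ := hT J hJ
  have hq2 : 2 ≤ q := hq.out.two_le
  have : NeZero q := ⟨by omega⟩
  have hq0 : (0 : ℝ) < q := by positivity
  -- the order of the group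
  have hcard : Fintype.card (Fin ((2 ^ j₀) ^ 20) → ZMod q) ≤
      ⌊Real.exp (((2 : ℝ) ^ j₀) ^ 60)⌋₊ := by
    apply Nat.le_floor
    rw [Fintype.card_fun, ZMod.card, Fintype.card_fin, Nat.cast_pow,
      ← Real.exp_log (pow_pos hq0 _), Real.log_pow]
    apply Real.exp_le_exp.2
    have h2 : (((2 ^ j₀) ^ 20 : ℕ) : ℝ) = ((2 : ℝ) ^ j₀) ^ 20 := by push_cast; ring
    rw [h2]
    calc ((2 : ℝ) ^ j₀) ^ 20 * Real.log q ≤ ((2 : ℝ) ^ j₀) ^ 20 * ((2 : ℝ) ^ j₀) ^ 40 :=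
          mul_le_mul_of_nonneg_left hlog (by positivity)
      _ = ((2 : ℝ) ^ j₀) ^ 60 := by ring
  -- the mean is at least 1/2
  have h32 : (32 : ℝ) ≤ (2 : ℝ) ^ j₀ := by
    calc (32 : ℝ) = 2 ^ 5 := by norm_num
      _ ≤ 2 ^ j₀ := pow_le_pow_right₀ (by norm_num) hj5
  have hm2 : 1 / 2 ≤ mean X := by
    have h1 : 10 / (2 : ℝ) ^ j₀ ≤ 1 / 2 := by
      rw [div_le_div_iff₀ (by positivity) (by norm_num)]
      linarith
    have h2 : 0 ≤ 5 / (2 : ℝ) ^ J := by positivity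
    linarith
  obtain ⟨Bad, hBadc, hOk'⟩ := cvd_w6_aux S X hOk hX0 M₀ hM0 hXM hm2
  obtain ⟨S', hS', hι, hdet'⟩ := hK _ S _ _ (1 / 4) Bad hcard (Real.exp_pos _).le
    (by
      have h32J : (32 : ℝ) ≤ (2 : ℝ) ^ J :=
        h32.trans (pow_le_pow_right₀ (by norm_num) hJ)
      have h2J : (2 : ℝ) ^ J ≤ ((2 : ℝ) ^ J) ^ 20 := le_self_pow₀ (by linarith) (by norm_num)
      linarith) (by norm_num) hBadc hOk'
  refine ⟨_, inferInstance, S', hS', ?_, ?_, ?_⟩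
  · rw [hι]; omega
  · rw [hι]; omega
  · rw [hdet']
    refine hdet.trans (Real.exp_le_exp.2 ?_)
    have : (0 : ℝ) ≤ ((2 : ℝ) ^ j₀) ^ 60 := by positivity
    linarith

end Crest.Agent.CVD
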