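/-
  CVD_W7 (S0347 part D): transfer to `Fin m`.
-/
import Crest.Agent.CVD_T1

set_option autoImplicit false

namespace Crest.Agent.CVD
open Finset Crest.Agent.CV

/-- W7. transfer to `Fin m`. PROOF: `m = card S.ι`, `φ = Fintype.equivFin S.ι`, `ρ' = ρ ∘ φ.symm`, `B' = Matrix.reindex φ φ B`
(`Matrix.det_reindex_self`), `Tr.toTree`. -/
theorem transfer {A : Type} [AddCommGroup A] (S : Sys A) {R κ c0 : ℝ} (hS : S.Ok R κ (fun _ => c0)) :
    ∃ (ρ : Fin (Fintype.card S.ι) → ℝ) (g : Fin (Fintype.card S.ι) → ℤ → ℝ)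
      (B : Matrix (Fin (Fintype.card S.ι)) (Fin (Fintype.card S.ι)) ℤ),
      (∀ c, 0 < ρ c ∧ ρ c ≤ 1) ∧ (∀ c t, 0 ≤ g c t) ∧
      (∀ c (t : ℤ) (w : ℝ), |w - ρ c * t| ≤ ρ c → g c t ≤ ρ c * phi w) ∧
      (∀ c (t : ℤ), R < ρ c * |(t : ℝ)| → g c t = 0) ∧
      B.det = S.B.det ∧
      ∀ u : Fin (Fintype.card S.ι) → ℤ, ∃ T : CV.Tree (Fintype.card S.ι), T.WF ∧
        T.rows.length ≤ 2 ^ (Fintype.card S.ι) ∧
        (∀ a ∈ T.rows, CV.mass B g u a ≤ κ) ∧
        c0 ≤ (T.rows.map (CV.mass B g u)).sum := by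
  classical
  set φ : S.ι ≃ Fin (Fintype.card S.ι) := Fintype.equivFin S.ι with hφ
  have hdet : (Matrix.reindex φ φ S.B).det = S.B.det := Matrix.det_reindex_self φ S.B
  have hmass : ∀ (u : Fin (Fintype.card S.ι) → ℤ) (a : S.ι → ℤ),
      CV.mass (Matrix.reindex φ φ S.B) (fun c => S.g (φ.symm c)) u (a ∘ φ.symm) = S.mass (u ∘ φ) a := by
    intro u a
    unfold CV.mass Sys.mass
    rw [hdet]
    congr 1
    rw [← Equiv.prod_comp φ]
    apply Finset.prod_congr rfl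
    intro c _
    simp only [Equiv.symm_apply_apply, Function.comp]
    congr 2
    have h1 : (Matrix.reindex φ φ S.B).mulVec (fun i => a (φ.symm i)) (φ c) =
        ∑ j, S.B c (φ.symm j) * a (φ.symm j) := by
      simp only [Matrix.mulVec, dotProduct, Matrix.reindex_apply, Matrix.submatrix_apply,
        Equiv.symm_apply_apply]
    have h2 : S.B.mulVec a c = ∑ j, S.B c j * a j := rfl
    rw [h2]
    refine h1.trans ?_
    exact Equiv.sum_comp φ.symm (fun j => S.B c j * a j)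
  refine ⟨S.ρ ∘ φ.symm, fun c => S.g (φ.symm c), Matrix.reindex φ φ S.B, ?_, ?_, ?_, ?_, hdet, ?_⟩
  · intro c
    exact ⟨hS.ρ_pos _, hS.ρ_le _⟩
  · intro c t
    exact hS.g_nonneg _ t
  · intro c t w h
    exact hS.g_le _ t w h
  · intro c t h
    exact hS.g_supp _ t h
  · intro u
    obtain ⟨T0, hWF, hlen, hκ, hsum⟩ := hS.cap (u ∘ φ)
    obtain ⟨T, hTWF, hrows⟩ := Tr.toTree φ T0 hWF
    refine ⟨T, hTWF, ?_, ?_, ?_⟩
    · rw [hrows, List.length_map]
      exact hlen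
    · intro a ha
      rw [hrows, List.mem_map] at ha
      obtain ⟨a0, ha0, rfl⟩ := ha
      rw [hmass]
      exact hκ a0 ha0
    · rw [hrows, List.map_map]
      have h3 : (CV.mass (Matrix.reindex φ φ S.B) (fun c => S.g (φ.symm c)) u) ∘ (fun a : S.ι → ℤ => a ∘ φ.symm) =
          S.mass (u ∘ φ) := by
        funext a
        exact hmass u a
      rw [h3]
      exact hsum

end Crest.Agent.CVD
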