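/-
  CVD_W8 (S0347 part D): GP from the block numbers.
-/
import Crest.Agent.CVD_W6
import Crest.Agent.CVD_W7

set_option autoImplicit false

namespace Crest.Agent.CVD
open Finset Crest.Agent.CV

private theorem w8_choice (j₀ s : ℕ) : ∃ J : ℕ, j₀ ≤ J ∧ s ≤ (2 ^ J) ^ 12 ∧
    (2 ^ J) ^ 20 ≤ (2 ^ j₀) ^ 20 + 2 ^ 24 * s ^ 2 ∧
    (2 ^ J) ^ 60 ≤ (2 ^ j₀) ^ 60 + 2 ^ 60 * s ^ 5 := by
  classical
  have hex : ∃ J : ℕ, j₀ ≤ J ∧ s ≤ (2 ^ J) ^ 12 := by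
    refine ⟨max j₀ s, le_max_left _ _, ?_⟩
    have h1 : s ≤ 2 ^ (max j₀ s) :=
      (Nat.lt_two_pow_self).le.trans (Nat.pow_le_pow_right (by norm_num) (le_max_right _ _))
    exact h1.trans (Nat.le_self_pow (by norm_num) _)
  obtain ⟨h1, h2⟩ := Nat.find_spec hex
  set J := Nat.find hex with hJ
  refine ⟨J, h1, h2, ?_⟩
  rcases Nat.eq_or_lt_of_le h1 with h3 | h3
  · rw [← h3]
    exact ⟨Nat.le_add_right _ _, Nat.le_add_right _ _⟩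
  · have h4 := Nat.find_min hex (m := J - 1) (by omega)
    have h5 : (2 ^ (J - 1)) ^ 12 < s := by
      by_contra h6
      exact h4 ⟨by omega, by omega⟩
    have h6 : (2 : ℕ) ^ J = 2 * 2 ^ (J - 1) := by
      rw [← pow_succ']
      congr 1
      omega
    have h7 : ((2 : ℕ) ^ J) ^ 12 ≤ 2 ^ 12 * s := by
      rw [h6, mul_pow]
      exact Nat.mul_le_mul_left _ h5.le
    have hT : 1 ≤ (2 : ℕ) ^ J := Nat.one_le_two_pow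
    constructor
    · calc ((2 : ℕ) ^ J) ^ 20 ≤ (2 ^ J) ^ 24 := Nat.pow_le_pow_right hT (by norm_num)
        _ = ((2 ^ J) ^ 12) ^ 2 := by ring
        _ ≤ (2 ^ 12 * s) ^ 2 := Nat.pow_le_pow_left h7 2
        _ = 2 ^ 24 * s ^ 2 := by ring
        _ ≤ _ := Nat.le_add_left _ _
    · calc ((2 : ℕ) ^ J) ^ 60 = ((2 ^ J) ^ 12) ^ 5 := by ring
        _ ≤ (2 ^ 12 * s) ^ 5 := Nat.pow_le_pow_left h7 5
        _ = 2 ^ 60 * s ^ 5 := by ring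
        _ ≤ _ := Nat.le_add_left _ _

/-- W8. GP. PROOF: given `s` let `J ≥ j₀` be minimal with `s ≤ (2^J)^12`; `exp (-(2^J)^12) ≤ (1/2)^s`; if `J > j₀` then `(2^(J-1))^12 < s`,
so `(2^J)^12 ≤ 2^12 s`, `(2^J)^20 ≤ (2^J)^24 ≤ 2^24 s^2`, `(2^J)^60 ≤ 2^60 s^5`; `s ≤ (2^J)^12 ≤ (2^J)^20 ≤ m`. -/
theorem gp_of (hBN : BlockNumbers) : CV.GP := by
  obtain ⟨c0, j₀, K, hc0, htower⟩ := tower_top hBN
  refine ⟨c0, hc0, 2 ^ 62 + K + 4 * (2 ^ j₀) ^ 20 + 4 * (2 ^ j₀) ^ 60, ?_⟩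
  intro s hs
  obtain ⟨J, hJ, hsJ, h20, h60⟩ := w8_choice j₀ s
  obtain ⟨A, iA, S, hOk, hcard1, hcard2, hdet⟩ := htower J hJ
  obtain ⟨ρ, g, B, hρ, hg0, hg1, hsupp, hBdet, hcap⟩ := transfer S hOk
  have hs2 : 1 ≤ s ^ 2 := Nat.one_le_pow _ _ hs
  have hs8 : 1 ≤ s ^ 8 := Nat.one_le_pow _ _ hs
  have hs58 : s ^ 5 ≤ s ^ 8 := Nat.pow_le_pow_right hs (by norm_num)
  have hT : 1 ≤ (2 : ℕ) ^ J := Nat.one_le_two_pow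
  refine ⟨Fintype.card S.ι, ρ, g, B, ?_, ?_, hρ, hg0, hg1, ?_, ?_, ?_, ?_⟩
  · exact (hsJ.trans (Nat.pow_le_pow_right hT (by norm_num))).trans hcard1
  · refine hcard2.trans ?_
    have e1 : 4 * (2 ^ j₀) ^ 20 ≤ 4 * (2 ^ j₀) ^ 20 * s ^ 2 := Nat.le_mul_of_pos_right _ hs2
    have e2 : K ≤ K * s ^ 2 := Nat.le_mul_of_pos_right _ hs2
    have e3 : 4 * (2 ^ 24 * s ^ 2) ≤ 2 ^ 62 * s ^ 2 := by
      rw [← mul_assoc]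
      exact Nat.mul_le_mul_right _ (by norm_num)
    calc 4 * (2 ^ J) ^ 20 + K ≤ 4 * ((2 ^ j₀) ^ 20 + 2 ^ 24 * s ^ 2) + K := by omega
      _ = 4 * (2 ^ j₀) ^ 20 + 4 * (2 ^ 24 * s ^ 2) + K := by ring
      _ ≤ 4 * (2 ^ j₀) ^ 20 * s ^ 2 + 2 ^ 62 * s ^ 2 + K * s ^ 2 := by omega
      _ ≤ 4 * (2 ^ j₀) ^ 20 * s ^ 2 + 2 ^ 62 * s ^ 2 + K * s ^ 2 + 4 * (2 ^ j₀) ^ 60 * s ^ 2 :=
          Nat.le_add_right _ _
      _ = (2 ^ 62 + K + 4 * (2 ^ j₀) ^ 20 + 4 * (2 ^ j₀) ^ 60) * s ^ 2 := by ring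
  · intro c t ht
    apply hsupp c t
    refine lt_of_le_of_lt ?_ ht
    have : (((2 : ℝ) ^ J) ^ 20) ≤ (Fintype.card S.ι : ℝ) := by exact_mod_cast hcard1
    linarith
  · rw [hBdet]
    exact hOk.det_ne
  · rw [hBdet]
    refine hdet.trans (Real.exp_le_exp.mpr ?_)
    have h1 : 4 * (2 ^ J) ^ 60 ≤
        (2 ^ 62 + K + 4 * (2 ^ j₀) ^ 20 + 4 * (2 ^ j₀) ^ 60) * s ^ 8 := by
      have e1 : 4 * (2 ^ j₀) ^ 60 ≤ 4 * (2 ^ j₀) ^ 60 * s ^ 8 := Nat.le_mul_of_pos_right _ hs8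
      have e3 : 4 * (2 ^ 60 * s ^ 5) ≤ 2 ^ 62 * s ^ 8 := by
        calc 4 * (2 ^ 60 * s ^ 5) = 2 ^ 62 * s ^ 5 := by ring
          _ ≤ 2 ^ 62 * s ^ 8 := Nat.mul_le_mul_left _ hs58
      calc 4 * (2 ^ J) ^ 60 ≤ 4 * ((2 ^ j₀) ^ 60 + 2 ^ 60 * s ^ 5) :=
            Nat.mul_le_mul_left _ h60
        _ = 4 * (2 ^ j₀) ^ 60 + 4 * (2 ^ 60 * s ^ 5) := by ring
        _ ≤ 4 * (2 ^ j₀) ^ 60 * s ^ 8 + 2 ^ 62 * s ^ 8 := Nat.add_le_add e1 e3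
        _ ≤ 4 * (2 ^ j₀) ^ 60 * s ^ 8 + 2 ^ 62 * s ^ 8 + (K + 4 * (2 ^ j₀) ^ 20) * s ^ 8 :=
            Nat.le_add_right _ _
        _ = (2 ^ 62 + K + 4 * (2 ^ j₀) ^ 20 + 4 * (2 ^ j₀) ^ 60) * s ^ 8 := by ring
    exact_mod_cast h1
  · intro u
    obtain ⟨T, hWF, hlen, hκ, hsum⟩ := hcap u
    refine ⟨T, hWF, hlen, ?_, hsum⟩
    intro a ha
    refine (hκ a ha).trans ?_
    have h1 : (s : ℝ) ≤ ((2 : ℝ) ^ J) ^ 12 := by exact_mod_cast hsJ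
    have h2 : Real.exp (-1) ≤ 1 / 2 := by
      rw [Real.exp_neg, one_div]
      apply inv_anti₀ (by norm_num)
      have := Real.add_one_le_exp (1 : ℝ)
      linarith
    calc Real.exp (-(((2 : ℝ) ^ J) ^ 12)) ≤ Real.exp (-(s : ℝ)) :=
          Real.exp_le_exp.mpr (by linarith)
      _ = (Real.exp (-1)) ^ s := by
          rw [← Real.exp_nat_mul]
          congr 1
          ring
      _ ≤ (1 / 2) ^ s := pow_le_pow_left₀ (Real.exp_pos _).le h2 s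

end Crest.Agent.CVD
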