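import Mathlib

/-! S0118 blueprint, file FE_Ball: Gaussian Markov bound for volumes of (sheared) products of
balls. -/

set_option autoImplicit false

namespace Crest.Agent.FE

open Finset MeasureTheory
open scoped ENNReal

private theorem Ball_integrable1 (ρ : ℝ) (hρ : 0 < ρ) :
    Integrable (fun t : ℝ => Real.exp (1 / 2) * Real.exp (-(1 / (2 * ρ)) * t ^ 2)) :=
  (integrable_exp_neg_mul_sq (by positivity)).const_mul _

private theorem Ball_integral1 (ρ : ℝ) (hρ : 0 < ρ) :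
    ∫ t : ℝ, Real.exp (1 / 2) * Real.exp (-(1 / (2 * ρ)) * t ^ 2) =
      (2 * Real.pi * Real.exp 1 * ρ) ^ ((1 : ℝ) / 2) := by
  rw [integral_const_mul, integral_gaussian]
  have h1 : Real.pi / (1 / (2 * ρ)) = 2 * Real.pi * ρ := by
    field_simp
  have h2 : Real.exp (1 / 2) = √(Real.exp 1) := by
    rw [Real.exp_half]
  rw [h1, h2, ← Real.sqrt_mul (Real.exp_pos 1).le, Real.sqrt_eq_rpow]
  congr 1
  ring

private theorem Ball_prod_eq {I : Type} [Fintype I] (ρ : ℝ) (x : I → ℝ) :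
    Real.exp ((Fintype.card I : ℝ) / 2 - (∑ i, x i ^ 2) / (2 * ρ)) =
      ∏ i, (Real.exp (1 / 2) * Real.exp (-(1 / (2 * ρ)) * x i ^ 2)) := by
  have h : ∀ i, Real.exp (1 / 2) * Real.exp (-(1 / (2 * ρ)) * x i ^ 2) =
      Real.exp (1 / 2 + -(1 / (2 * ρ)) * x i ^ 2) := fun i => (Real.exp_add _ _).symm
  simp_rw [h]
  rw [← Real.exp_sum, Finset.sum_add_distrib, ← Finset.mul_sum]
  congr 1
  simp
  ring

private theorem Ball_gauss {I : Type} [Fintype I] (ρ : ℝ) (hρ : 0 < ρ) :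
    ∫⁻ x : I → ℝ, ENNReal.ofReal
      (Real.exp ((Fintype.card I : ℝ) / 2 - (∑ i, x i ^ 2) / (2 * ρ))) =
      ENNReal.ofReal ((2 * Real.pi * Real.exp 1 * ρ) ^ ((Fintype.card I : ℝ) / 2)) := by
  simp_rw [Ball_prod_eq]
  rw [← ofReal_integral_eq_lintegral_ofReal]
  · congr 1
    rw [integral_fintype_prod_volume_eq_pow
      (fun t : ℝ => Real.exp (1 / 2) * Real.exp (-(1 / (2 * ρ)) * t ^ 2)), Ball_integral1 ρ hρ,
      ← Real.rpow_natCast, ← Real.rpow_mul (by positivity)]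
    congr 1
    ring
  · exact Integrable.fintype_prod (fun _ => Ball_integrable1 ρ hρ)
  · exact Filter.Eventually.of_forall fun x => Finset.prod_nonneg fun i _ => by positivity

private theorem Ball_meas {I : Type} [Fintype I] (ρ : ℝ) :
    Measurable (fun x : I → ℝ => ENNReal.ofReal
      (Real.exp ((Fintype.card I : ℝ) / 2 - (∑ i, x i ^ 2) / (2 * ρ)))) := by
  fun_prop

private theorem Ball_measSet {I₁ I₂ : Type} [Fintype I₁] [Fintype I₂]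
    (φ : (I₁ → ℝ) → (I₂ → ℝ)) (hφ : Measurable φ) (ρ₁ ρ₂ : ℝ) :
    MeasurableSet {z : (I₁ → ℝ) × (I₂ → ℝ) | ∑ i, z.1 i ^ 2 ≤ Fintype.card I₁ * ρ₁ ∧
      ∑ j, (z.2 j - φ z.1 j) ^ 2 ≤ Fintype.card I₂ * ρ₂} := by
  have hsub : Measurable (fun z : (I₁ → ℝ) × (I₂ → ℝ) => z.2 - φ z.1) :=
    measurable_snd.sub (hφ.comp measurable_fst)
  have m1 : Measurable (fun z : (I₁ → ℝ) × (I₂ → ℝ) => ∑ i, z.1 i ^ 2) := by
    apply Finset.measurable_sum
    intro j _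
    exact ((measurable_pi_apply j).comp measurable_fst).pow_const 2
  have m2 : Measurable (fun z : (I₁ → ℝ) × (I₂ → ℝ) => ∑ j, (z.2 j - φ z.1 j) ^ 2) := by
    apply Finset.measurable_sum
    intro j _
    exact ((measurable_pi_apply j).comp hsub).pow_const 2
  exact (measurableSet_le m1 measurable_const).inter (measurableSet_le m2 measurable_const)

/-- PROOF. On the set, `1 ≤ exp(K₁/2 - ∑x²/(2ρ₁)) * exp(K₂/2 - ∑(y-φ x)²/(2ρ₂))`; integrate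
(Tonelli, translation invariance in `y`, Gaussian integral `∫ exp(-x²/(2ρ)) = √(2πρ)`). -/
theorem vol_shear_le {I₁ I₂ : Type} [Fintype I₁] [Fintype I₂] (φ : (I₁ → ℝ) → (I₂ → ℝ))
    (hφ : Measurable φ) (ρ₁ ρ₂ : ℝ) (h₁ : 0 < ρ₁) (h₂ : 0 < ρ₂) :
    volume {z : (I₁ → ℝ) × (I₂ → ℝ) | ∑ i, z.1 i ^ 2 ≤ Fintype.card I₁ * ρ₁ ∧
      ∑ j, (z.2 j - φ z.1 j) ^ 2 ≤ Fintype.card I₂ * ρ₂} ≤
    ENNReal.ofReal ((2 * Real.pi * Real.exp 1 * ρ₁) ^ ((Fintype.card I₁ : ℝ) / 2) *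
      (2 * Real.pi * Real.exp 1 * ρ₂) ^ ((Fintype.card I₂ : ℝ) / 2)) := by
  set S := {z : (I₁ → ℝ) × (I₂ → ℝ) | ∑ i, z.1 i ^ 2 ≤ Fintype.card I₁ * ρ₁ ∧
      ∑ j, (z.2 j - φ z.1 j) ^ 2 ≤ Fintype.card I₂ * ρ₂} with hS
  set F : (I₁ → ℝ) → ℝ≥0∞ := fun x => ENNReal.ofReal
      (Real.exp ((Fintype.card I₁ : ℝ) / 2 - (∑ i, x i ^ 2) / (2 * ρ₁))) with hF
  set G : (I₂ → ℝ) → ℝ≥0∞ := fun x => ENNReal.ofReal
      (Real.exp ((Fintype.card I₂ : ℝ) / 2 - (∑ i, x i ^ 2) / (2 * ρ₂))) with hG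
  have hFm : Measurable F := Ball_meas ρ₁
  have hGm : Measurable G := Ball_meas ρ₂
  have hsub : Measurable (fun z : (I₁ → ℝ) × (I₂ → ℝ) => z.2 - φ z.1) :=
    measurable_snd.sub (hφ.comp measurable_fst)
  have hSm : MeasurableSet S := Ball_measSet φ hφ ρ₁ ρ₂
  have hle : ∀ z, S.indicator (fun _ => (1 : ℝ≥0∞)) z ≤ F z.1 * G (z.2 - φ z.1) := by
    intro z
    by_cases hz : z ∈ S
    · rw [Set.indicator_of_mem hz, hF, hG, ← ENNReal.ofReal_mul (Real.exp_pos _).le]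
      rw [ENNReal.one_le_ofReal]
      have e1 : 1 ≤ Real.exp ((Fintype.card I₁ : ℝ) / 2 - (∑ i, z.1 i ^ 2) / (2 * ρ₁)) := by
        apply Real.one_le_exp
        rw [sub_nonneg, div_le_iff₀ (by positivity)]
        have := hz.1
        linarith
      have e2 : 1 ≤ Real.exp ((Fintype.card I₂ : ℝ) / 2 -
          (∑ i, (z.2 - φ z.1) i ^ 2) / (2 * ρ₂)) := by
        apply Real.one_le_exp
        rw [sub_nonneg, div_le_iff₀ (by positivity)]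
        have := hz.2
        simp only [Pi.sub_apply]
        linarith
      exact one_le_mul_of_one_le_of_one_le e1 e2
    · rw [Set.indicator_of_notMem hz]
      simp
  calc volume S = ∫⁻ z, S.indicator (fun _ => (1 : ℝ≥0∞)) z := by
        rw [lintegral_indicator hSm]; simp
    _ ≤ ∫⁻ z : (I₁ → ℝ) × (I₂ → ℝ), F z.1 * G (z.2 - φ z.1) := lintegral_mono hle
    _ = ∫⁻ x : I₁ → ℝ, ∫⁻ y : I₂ → ℝ, F x * G (y - φ x) := by
        rw [Measure.volume_eq_prod, lintegral_prod]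
        exact ((hFm.comp measurable_fst).mul (hGm.comp hsub)).aemeasurable
    _ = ∫⁻ x : I₁ → ℝ, F x * ∫⁻ y : I₂ → ℝ, G y := by
        apply lintegral_congr
        intro x
        have hGx : Measurable (fun y : I₂ → ℝ => G (y - φ x)) :=
          hGm.comp (measurable_id.sub_const _)
        rw [lintegral_const_mul _ hGx]
        rw [lintegral_sub_right_eq_self (μ := (volume : Measure (I₂ → ℝ))) G (φ x)]
    _ = (∫⁻ x : I₁ → ℝ, F x) * ∫⁻ y : I₂ → ℝ, G y := by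
        rw [lintegral_mul_const _ hFm]
    _ = _ := by
        rw [hF, hG, Ball_gauss ρ₁ h₁, Ball_gauss ρ₂ h₂, ← ENNReal.ofReal_mul (by positivity)]

/-- the same on `EuclideanSpace ℝ P` with a partition of the coordinates -/
theorem vol_euclid_le {P I₁ I₂ : Type} [Fintype P] [Fintype I₁] [Fintype I₂] (e : P ≃ I₁ ⊕ I₂)
    (φ : (I₁ → ℝ) → (I₂ → ℝ))
    (hφ : Measurable φ) (ρ₁ ρ₂ : ℝ) (h₁ : 0 < ρ₁) (h₂ : 0 < ρ₂) :
    volume {a : EuclideanSpace ℝ P | ∑ i, a (e.symm (Sum.inl i)) ^ 2 ≤ Fintype.card I₁ * ρ₁ ∧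
      ∑ j, (a (e.symm (Sum.inr j)) - φ (fun i => a (e.symm (Sum.inl i))) j) ^ 2 ≤
        Fintype.card I₂ * ρ₂} ≤
    ENNReal.ofReal ((2 * Real.pi * Real.exp 1 * ρ₁) ^ ((Fintype.card I₁ : ℝ) / 2) *
      (2 * Real.pi * Real.exp 1 * ρ₂) ^ ((Fintype.card I₂ : ℝ) / 2)) := by
  refine le_trans (le_of_eq ?_) (vol_shear_le φ hφ ρ₁ ρ₂ h₁ h₂)
  have m1 : MeasurePreserving (WithLp.ofLp : EuclideanSpace ℝ P → (P → ℝ)) :=
    PiLp.volume_preserving_ofLp P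
  have m2 : MeasurePreserving (MeasurableEquiv.piCongrLeft (fun _ : I₁ ⊕ I₂ => ℝ) e) :=
    volume_measurePreserving_piCongrLeft (fun _ : I₁ ⊕ I₂ => ℝ) e
  have m3 : MeasurePreserving (MeasurableEquiv.sumPiEquivProdPi (fun _ : I₁ ⊕ I₂ => ℝ)) :=
    volume_measurePreserving_sumPiEquivProdPi (fun _ : I₁ ⊕ I₂ => ℝ)
  have m := m3.comp (m2.comp m1)
  have hval : ∀ (a : EuclideanSpace ℝ P) (s : I₁ ⊕ I₂),
      MeasurableEquiv.piCongrLeft (fun _ : I₁ ⊕ I₂ => ℝ) e (WithLp.ofLp a) s = a (e.symm s) := by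
    intro a s
    have := Equiv.piCongrLeft_apply_apply (fun _ : I₁ ⊕ I₂ => ℝ) e (WithLp.ofLp a) (e.symm s)
    rw [Equiv.apply_symm_apply] at this
    rw [MeasurableEquiv.coe_piCongrLeft]
    exact this
  have hSm : MeasurableSet {z : (I₁ → ℝ) × (I₂ → ℝ) |
      ∑ i, z.1 i ^ 2 ≤ Fintype.card I₁ * ρ₁ ∧
      ∑ j, (z.2 j - φ z.1 j) ^ 2 ≤ Fintype.card I₂ * ρ₂} := by
    exact Ball_measSet φ hφ ρ₁ ρ₂
  rw [← m.measure_preimage hSm.nullMeasurableSet]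
  congr 1
  ext a
  simp only [Set.mem_preimage, Set.mem_ofPred_eq, Function.comp_apply]
  have e1 : ∀ i, (MeasurableEquiv.sumPiEquivProdPi (fun _ : I₁ ⊕ I₂ => ℝ)
      (MeasurableEquiv.piCongrLeft (fun _ : I₁ ⊕ I₂ => ℝ) e (WithLp.ofLp a))).1 i =
      a (e.symm (Sum.inl i)) := fun i => hval a (Sum.inl i)
  have e2 : ∀ i, (MeasurableEquiv.sumPiEquivProdPi (fun _ : I₁ ⊕ I₂ => ℝ)
      (MeasurableEquiv.piCongrLeft (fun _ : I₁ ⊕ I₂ => ℝ) e (WithLp.ofLp a))).2 i =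
      a (e.symm (Sum.inr i)) := fun i => hval a (Sum.inr i)
  have e3 : (MeasurableEquiv.sumPiEquivProdPi (fun _ : I₁ ⊕ I₂ => ℝ)
      (MeasurableEquiv.piCongrLeft (fun _ : I₁ ⊕ I₂ => ℝ) e (WithLp.ofLp a))).1 =
      fun i => a (e.symm (Sum.inl i)) := funext e1
  simp only [e2, e3]

end Crest.Agent.FE
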