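import Mathlib
import Crest.Prelude.Def_FreeEntropy

/-! S0118 blueprint, file FE_CutLow: from volume bounds to `chiCutoff` (lower bound). -/

set_option autoImplicit false

namespace Crest.Agent.FE

open Finset Crest.OpAlg MeasureTheory
open scoped NNReal ENNReal

/-- logarithms and limsup (EReal arithmetic) -/
theorem chiCutoff_ge {n : ℕ} {A : Type*} [Ring A] [Algebra ℂ A] (τ : A →ₗ[ℂ] ℂ)
    (X : Fin n → A) (R ρ : ℝ) (hρ : 0 < ρ)
    (h : ∀ (K : ℕ) (δ : ℝ), 0 < δ → ∀ᶠ d : ℕ in Filter.atTop,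
      ENNReal.ofReal (1 / 2 * ρ ^ (d ^ 2) * (2 * Real.pi / d) ^ ((n : ℝ) * d ^ 2 / 2)) ≤
        volume (microstates τ X R K d δ)) :
    ((Real.log ρ + (n : ℝ) / 2 * Real.log (2 * Real.pi) - 1 : ℝ) : EReal) ≤
      chiCutoff τ X R := by
  unfold chiCutoff
  refine le_iInf fun K => le_iInf fun δ => le_iInf fun hδ => ?_
  refine Filter.le_limsup_of_frequently_le' (Filter.Eventually.frequently ?_)
  filter_upwards [h K δ hδ, Filter.eventually_ge_atTop 1] with d hd hd1
  have hd0 : (1 : ℝ) ≤ d := by exact_mod_cast hd1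
  have hd0' : (0 : ℝ) < d := by linarith
  have hpi := Real.pi_pos
  have h2pd : 0 < 2 * Real.pi / d := by positivity
  set B : ℝ := 1 / 2 * ρ ^ (d ^ 2) * (2 * Real.pi / d) ^ ((n : ℝ) * d ^ 2 / 2) with hB
  have hB0 : 0 < B := by positivity
  have hlog : Real.log B = -Real.log 2 + (d : ℝ) ^ 2 * Real.log ρ +
      ((n : ℝ) * d ^ 2 / 2) * (Real.log (2 * Real.pi) - Real.log d) := by
    rw [hB, Real.log_mul (by positivity) (by positivity), Real.log_mul (by norm_num) (by positivity),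
      Real.log_pow, Real.log_rpow h2pd, Real.log_div (by positivity) hd0'.ne']
    have : Real.log (1 / 2) = - Real.log 2 := by rw [one_div, Real.log_inv]
    rw [this]
    push_cast
    ring
  have h1 : ((Real.log B : ℝ) : EReal) ≤ (volume (microstates τ X R K d δ)).log := by
    have h2 := ENNReal.log_monotone hd
    rw [ENNReal.log_ofReal, if_neg (not_le.2 hB0)] at h2
    exact h2
  have hinv : (0 : ℝ) ≤ ((d : ℝ) ^ 2)⁻¹ := by positivity
  have h3 : ((((d : ℝ) ^ 2)⁻¹ * Real.log B : ℝ) : EReal) ≤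
      ((((d : ℝ) ^ 2)⁻¹ : ℝ) : EReal) * (volume (microstates τ X R K d δ)).log := by
    rw [EReal.coe_mul]
    exact mul_le_mul_of_nonneg_left h1 (by exact_mod_cast hinv)
  have h4 : (Real.log ρ + (n : ℝ) / 2 * Real.log (2 * Real.pi) - 1 : ℝ) ≤
      ((d : ℝ) ^ 2)⁻¹ * Real.log B + (n : ℝ) / 2 * Real.log d := by
    rw [hlog]
    have h5 : ((d : ℝ) ^ 2)⁻¹ * (-Real.log 2 + (d : ℝ) ^ 2 * Real.log ρ +
      ((n : ℝ) * d ^ 2 / 2) * (Real.log (2 * Real.pi) - Real.log d)) + (n : ℝ) / 2 * Real.log d =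
      Real.log ρ + (n : ℝ) / 2 * Real.log (2 * Real.pi) - Real.log 2 / (d : ℝ) ^ 2 := by
      field_simp
      ring
    rw [h5]
    have h6 : Real.log 2 / (d : ℝ) ^ 2 ≤ 1 := by
      rw [div_le_one (by positivity)]
      have : Real.log 2 < 1 := by
        have := Real.log_two_lt_d9; linarith
      nlinarith
    linarith
  calc ((Real.log ρ + (n : ℝ) / 2 * Real.log (2 * Real.pi) - 1 : ℝ) : EReal)
      ≤ ((((d : ℝ) ^ 2)⁻¹ * Real.log B + (n : ℝ) / 2 * Real.log d : ℝ) : EReal) := by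
        exact_mod_cast h4
    _ = ((((d : ℝ) ^ 2)⁻¹ * Real.log B : ℝ) : EReal) + (((n : ℝ) / 2 * Real.log d : ℝ) : EReal) := by
        rw [EReal.coe_add]
    _ ≤ _ := by gcongr

end Crest.Agent.FE
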