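import Mathlib
import Crest.Prelude.Def_FreeEntropy

/-! S0118 blueprint, file FE_Herm: hermitian matrices in the coordinates `hermitianOfCoords`. -/

set_option autoImplicit false

namespace Crest.Agent.FE

open Finset Crest.OpAlg Matrix

variable {d : ℕ}

theorem isHermitian_hermitianOfCoords (a : EuclideanSpace ℝ (Fin d × Fin d)) :
    (hermitianOfCoords a).IsHermitian := by
  ext i j
  simp only [Matrix.conjTranspose_apply, hermitianOfCoords]
  rcases lt_trichotomy i j with h | h | h
  · rw [if_neg h.ne', if_neg (not_lt.2 h.le), if_neg h.ne, if_pos h]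
    simp [sub_eq_add_neg]
  · subst h
    simp
  · rw [if_neg h.ne, if_pos h, if_neg h.ne', if_neg (not_lt.2 h.le)]
    simp [sub_eq_add_neg]

theorem hermitianOfCoords_add (a b : EuclideanSpace ℝ (Fin d × Fin d)) :
    hermitianOfCoords (a + b) = hermitianOfCoords a + hermitianOfCoords b := by
  ext i j
  simp only [Matrix.add_apply, hermitianOfCoords, PiLp.add_apply]
  split_ifs <;> (push_cast; ring)

theorem hermitianOfCoords_sub (a b : EuclideanSpace ℝ (Fin d × Fin d)) :
    hermitianOfCoords (a - b) = hermitianOfCoords a - hermitianOfCoords b := by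
  ext i j
  simp only [Matrix.sub_apply, hermitianOfCoords, PiLp.sub_apply]
  split_ifs <;> (push_cast; ring)

theorem hermitianOfCoords_smul (r : ℝ) (a : EuclideanSpace ℝ (Fin d × Fin d)) :
    hermitianOfCoords (r • a) = (r : ℂ) • hermitianOfCoords a := by
  ext i j
  simp only [Matrix.smul_apply, hermitianOfCoords, PiLp.smul_apply, smul_eq_mul]
  split_ifs <;> (push_cast; ring)

private theorem herm_sqrt_two_mul : ((Real.sqrt 2 : ℝ) : ℂ) * ((Real.sqrt 2 : ℝ) : ℂ) = 2 := by
  rw [← Complex.ofReal_mul, Real.mul_self_sqrt (by norm_num)]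
  norm_num

private theorem herm_sqrt_two_ne : ((Real.sqrt 2 : ℝ) : ℂ) ≠ 0 := by
  rw [Ne, Complex.ofReal_eq_zero]
  exact (Real.sqrt_pos.2 (by norm_num)).ne'

private theorem herm_mul_entry (a : EuclideanSpace ℝ (Fin d × Fin d)) (i j : Fin d) :
    hermitianOfCoords a i j * hermitianOfCoords a j i
      = (((a (i, j) ^ 2 + a (j, i) ^ 2) / 2 : ℝ) : ℂ) := by
  have key : ∀ x y : ℝ, ((x : ℂ) + (y : ℂ) * Complex.I) / (Real.sqrt 2 : ℂ)
      * (((x : ℂ) - (y : ℂ) * Complex.I) / (Real.sqrt 2 : ℂ)) = (((x ^ 2 + y ^ 2) / 2 : ℝ) : ℂ) := by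
    intro x y
    rw [div_mul_div_comm, herm_sqrt_two_mul]
    have : ((x : ℂ) + (y : ℂ) * Complex.I) * ((x : ℂ) - (y : ℂ) * Complex.I)
        = (x : ℂ) ^ 2 + (y : ℂ) ^ 2 := by
      have h := Complex.I_mul_I
      linear_combination (-(y : ℂ) ^ 2) * h
    rw [this]
    push_cast
    ring
  unfold hermitianOfCoords
  rcases lt_trichotomy i j with h | h | h
  · rw [if_neg h.ne, if_pos h, if_neg h.ne', if_neg (not_lt.2 h.le)]
    exact key _ _
  · subst h
    simp only [if_true]
    push_cast
    ring
  · rw [if_neg h.ne', if_neg (not_lt.2 h.le), if_neg h.ne, if_pos h, mul_comm, key]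
    congr 2
    ring

/-- `∑ a_p² = Tr M²` -/
theorem sum_sq_coords (a : EuclideanSpace ℝ (Fin d × Fin d)) :
    ∑ p, a p ^ 2 = (Matrix.trace (hermitianOfCoords a * hermitianOfCoords a)).re := by
  have h1 : Matrix.trace (hermitianOfCoords a * hermitianOfCoords a)
      = ((∑ i, ∑ j, (a (i, j) ^ 2 + a (j, i) ^ 2) / 2 : ℝ) : ℂ) := by
    rw [Matrix.trace]
    simp only [Matrix.diag_apply, Matrix.mul_apply, herm_mul_entry]
    push_cast
    rfl
  rw [h1, Complex.ofReal_re, Fintype.sum_prod_type]
  have h2 : ∑ i, ∑ j, (a (i, j) ^ 2 + a (j, i) ^ 2) / 2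
      = (∑ i, ∑ j, a (i, j) ^ 2) / 2 + (∑ i, ∑ j, a (j, i) ^ 2) / 2 := by
    rw [Finset.sum_div, Finset.sum_div, ← Finset.sum_add_distrib]
    refine Finset.sum_congr rfl fun i _ => ?_
    rw [Finset.sum_div, Finset.sum_div, ← Finset.sum_add_distrib]
    exact Finset.sum_congr rfl fun j _ => by ring
  rw [h2, Finset.sum_comm (f := fun i j => a (j, i) ^ 2)]
  ring

/-- coordinates of a matrix (inverse of `hermitianOfCoords` on hermitian matrices) -/
noncomputable def coordsOf (Q : Matrix (Fin d) (Fin d) ℂ) : EuclideanSpace ℝ (Fin d × Fin d) :=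
  WithLp.toLp 2 fun p => if p.1 = p.2 then (Q p.1 p.2).re
    else if p.1 < p.2 then √2 * (Q p.1 p.2).re else √2 * (Q p.2 p.1).im

theorem hermitianOfCoords_coordsOf (Q : Matrix (Fin d) (Fin d) ℂ) (hQ : Q.IsHermitian) :
    hermitianOfCoords (coordsOf Q) = Q := by
  ext i j
  simp only [hermitianOfCoords, coordsOf]
  have hst : ∀ k l, star (Q k l) = Q l k := fun k l => hQ.apply l k
  have hs := herm_sqrt_two_ne
  rcases lt_trichotomy i j with h | h | h
  · rw [if_neg h.ne, if_pos h, if_neg h.ne, if_pos h, if_neg h.ne', if_neg (not_lt.2 h.le)]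
    rw [div_eq_iff hs]
    push_cast
    rw [mul_comm (Q i j)]
    conv_rhs => rw [← Complex.re_add_im (Q i j)]
    ring
  · subst h
    simp only [if_true]
    have := hst i i
    rw [Complex.star_def] at this
    exact Complex.conj_eq_iff_re.1 this
  · rw [if_neg h.ne', if_neg (not_lt.2 h.le), if_neg h.ne, if_pos h, if_neg h.ne',
      if_neg (not_lt.2 h.le)]
    rw [div_eq_iff hs]
    push_cast
    rw [← hst j i, Complex.star_def]
    apply Complex.ext <;> simp <;> ring

theorem continuous_coordsOf :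
    Continuous (coordsOf : Matrix (Fin d) (Fin d) ℂ → EuclideanSpace ℝ (Fin d × Fin d)) := by
  unfold coordsOf
  refine (PiLp.continuous_toLp 2 _).comp ?_
  refine continuous_pi fun p => ?_
  have h : ∀ i j : Fin d, Continuous fun Q : Matrix (Fin d) (Fin d) ℂ => Q i j :=
    fun i j => (continuous_apply j).comp (continuous_apply i)
  split_ifs
  · exact Complex.continuous_re.comp (h _ _)
  · exact continuous_const.mul (Complex.continuous_re.comp (h _ _))
  · exact continuous_const.mul (Complex.continuous_im.comp (h _ _))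

theorem continuous_hermitianOfCoords :
    Continuous (hermitianOfCoords : EuclideanSpace ℝ (Fin d × Fin d) → Matrix (Fin d) (Fin d) ℂ) := by
  refine continuous_pi fun i => continuous_pi fun j => ?_
  have h : ∀ p : Fin d × Fin d, Continuous fun a : EuclideanSpace ℝ (Fin d × Fin d) => ((a p : ℝ) : ℂ) :=
    fun p => Complex.continuous_ofReal.comp (PiLp.continuous_apply 2 _ p)
  unfold hermitianOfCoords
  split_ifs
  · exact h _
  · exact ((h _).add ((h _).mul continuous_const)).div_const _
  · exact ((h _).sub ((h _).mul continuous_const)).div_const _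

/-- basis matrices -/
noncomputable def Bp (p : Fin d × Fin d) : Matrix (Fin d) (Fin d) ℂ :=
  hermitianOfCoords (EuclideanSpace.single p (1 : ℝ))

theorem hermitianOfCoords_eq_sum (a : EuclideanSpace ℝ (Fin d × Fin d)) :
    hermitianOfCoords a = ∑ p, (a p : ℂ) • Bp p := by
  have h0 : hermitianOfCoords (0 : EuclideanSpace ℝ (Fin d × Fin d)) = 0 := by
    have := hermitianOfCoords_sub (0 : EuclideanSpace ℝ (Fin d × Fin d)) 0
    simpa using this
  have hsum : ∀ (s : Finset (Fin d × Fin d)) (f : Fin d × Fin d → EuclideanSpace ℝ (Fin d × Fin d)),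
      hermitianOfCoords (∑ p ∈ s, f p) = ∑ p ∈ s, hermitianOfCoords (f p) := by
    intro s f
    classical
    induction s using Finset.induction_on with
    | empty => simpa using h0
    | insert q s hq ih => rw [Finset.sum_insert hq, Finset.sum_insert hq, hermitianOfCoords_add, ih]
  have ha : a = ∑ p, (a p) • EuclideanSpace.single p (1 : ℝ) := by
    ext q
    simp [Finset.sum_apply, Pi.single_apply]
  conv_lhs => rw [ha]
  rw [hsum]
  refine Finset.sum_congr rfl fun p _ => ?_
  rw [hermitianOfCoords_smul]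
  rfl

end Crest.Agent.FE
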