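import Mathlib
import Crest.Prelude.Def_FreeEntropy

/-! S0118 blueprint, file FE_WordsA: finite sets of words of given length and sums over them. -/

set_option autoImplicit false

namespace Crest.Agent.FE

open Finset Crest.OpAlg

/-! ### finite sets of words -/

section words
variable {α : Type*} [Fintype α] [DecidableEq α]

/-- all words of length exactly `l` -/
def wEq (l : ℕ) : Finset (List α) := (Finset.univ : Finset (Fin l → α)).image List.ofFn

/-- all words of length at most `L` -/
def wLE (L : ℕ) : Finset (List α) := (Finset.range (L + 1)).biUnion wEq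

theorem mem_wEq {l : ℕ} {w : List α} : w ∈ wEq l ↔ w.length = l := by
  constructor
  · intro h
    obtain ⟨f, -, rfl⟩ := Finset.mem_image.1 h
    simp
  · rintro rfl
    exact Finset.mem_image.2 ⟨w.get, Finset.mem_univ _, by simp⟩

theorem mem_wLE {L : ℕ} {w : List α} : w ∈ wLE L ↔ w.length ≤ L := by
  simp [wLE, mem_wEq]

variable {M : Type*} [AddCommMonoid M]

private theorem sum_wEq_fun (l : ℕ) (f : List α → M) :
    ∑ w ∈ wEq (α := α) l, f w = ∑ g : Fin l → α, f (List.ofFn g) := by
  unfold wEq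
  rw [Finset.sum_image]
  intro a _ b _ h
  exact List.ofFn_injective h

theorem sum_wEq_zero (f : List α → M) : ∑ w ∈ wEq (α := α) 0, f w = f [] := by
  rw [sum_wEq_fun]
  simp

theorem sum_wEq_succ (l : ℕ) (f : List α → M) :
    ∑ w ∈ wEq (α := α) (l + 1), f w = ∑ a : α, ∑ w ∈ wEq l, f (a :: w) := by
  simp only [sum_wEq_fun]
  rw [← Fintype.sum_prod_type', ← (Fin.consEquiv (fun _ : Fin (l + 1) => α)).sum_comp]
  refine Finset.sum_congr rfl fun x _ => ?_
  congr 1
  rw [List.ofFn_succ]
  simp [Fin.consEquiv]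

theorem sum_wEq_succ' (l : ℕ) (f : List α → M) :
    ∑ w ∈ wEq (α := α) (l + 1), f w = ∑ w ∈ wEq l, ∑ a : α, f (w ++ [a]) := by
  induction l generalizing f with
  | zero => rw [sum_wEq_succ, sum_wEq_zero]; simp [sum_wEq_zero]
  | succ l ih =>
    rw [sum_wEq_succ, sum_wEq_succ]
    refine Finset.sum_congr rfl fun a _ => ?_
    rw [ih]
    rfl

theorem sum_wEq_add (k l : ℕ) (f : List α → M) :
    ∑ w ∈ wEq (α := α) (k + l), f w = ∑ u ∈ wEq k, ∑ v ∈ wEq l, f (u ++ v) := by
  induction k generalizing f with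
  | zero => rw [sum_wEq_zero, Nat.zero_add]; rfl
  | succ k ih =>
    rw [show k + 1 + l = (k + l) + 1 by ring, sum_wEq_succ, sum_wEq_succ]
    refine Finset.sum_congr rfl fun a _ => ?_
    rw [ih]
    rfl

theorem sum_wLE (L : ℕ) (f : List α → M) :
    ∑ w ∈ wLE (α := α) L, f w = ∑ l ∈ Finset.range (L + 1), ∑ w ∈ wEq l, f w := by
  unfold wLE
  rw [Finset.sum_biUnion]
  intro i _ j _ hij
  rw [Function.onFun, Finset.disjoint_left]
  intro w hw hw'
  rw [mem_wEq] at hw hw'
  exact hij (hw.symm.trans hw')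

theorem sum_wLE_zero (f : List α → M) : ∑ w ∈ wLE (α := α) 0, f w = f [] := by
  rw [sum_wLE, Nat.zero_add, Finset.sum_range_one, sum_wEq_zero]

theorem sum_wLE_succ (L : ℕ) (f : List α → M) :
    ∑ w ∈ wLE (α := α) (L + 1), f w = f [] + ∑ a : α, ∑ w ∈ wLE L, f (a :: w) := by
  rw [sum_wLE, Finset.sum_range_succ', sum_wEq_zero, add_comm]
  congr 1
  simp only [sum_wEq_succ, sum_wLE]
  rw [Finset.sum_comm]

theorem card_wEq (l : ℕ) : (wEq (α := α) l).card = Fintype.card α ^ l := by
  unfold wEq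
  rw [Finset.card_image_of_injective _ (fun a b h => List.ofFn_injective h), Finset.card_univ]
  simp

end words

end Crest.Agent.FE
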