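import Mathlib
import Crest.Agent.FE_WordsA

/-! S0118 blueprint, file FE_Spl: splittings `W = A k B` (`spl`) and decompositions
`V = A ++ B` (`dec`). -/

set_option autoImplicit false

namespace Crest.Agent.FE

open Finset Crest.OpAlg

/-! ### splittings -/

section splits
variable {α : Type*} [DecidableEq α] {M : Type*} [AddCommMonoid M]

/-- `spl k F W = ∑_{W = A k B} F A B` -/
def spl (k : α) : (List α → List α → M) → List α → M
  | _, [] => 0
  | F, (j :: W) => (if j = k then F [] W else 0) + spl k (fun A B => F (j :: A) B) W

@[simp] theorem spl_nil (k : α) (F : List α → List α → M) : spl k F [] = 0 := rfl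

@[simp] theorem spl_cons (k : α) (F : List α → List α → M) (j : α) (W : List α) :
    spl k F (j :: W) = (if j = k then F [] W else 0) + spl k (fun A B => F (j :: A) B) W := rfl

theorem spl_congr {k : α} {F G : List α → List α → M} {W : List α}
    (h : ∀ A B, W = A ++ k :: B → F A B = G A B) : spl k F W = spl k G W := by
  induction W generalizing F G with
  | nil => rfl
  | cons j W ih =>
    rw [spl_cons, spl_cons]
    congr 1
    · by_cases hj : j = k
      · rw [if_pos hj, if_pos hj, h [] W (by rw [hj]; rfl)]
      · rw [if_neg hj, if_neg hj]
    · apply ih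
      intro A B hW
      exact h (j :: A) B (by rw [hW]; rfl)

theorem spl_zero (k : α) (W : List α) : spl k (fun _ _ => (0 : M)) W = 0 := by
  induction W with
  | nil => rfl
  | cons j W ih => rw [spl_cons, ih]; simp

theorem spl_eq_zero {k : α} {F : List α → List α → M} {W : List α}
    (h : ∀ A B, W = A ++ k :: B → F A B = 0) : spl k F W = 0 :=
  (spl_congr h).trans (spl_zero k W)

theorem spl_add (k : α) (F G : List α → List α → M) (W : List α) :
    spl k (fun A B => F A B + G A B) W = spl k F W + spl k G W := by
  induction W generalizing F G with
  | nil => simp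
  | cons j W ih =>
    rw [spl_cons, spl_cons, spl_cons, ih]
    split_ifs
    · abel
    · abel

theorem spl_mul_left {R : Type*} [Semiring R] (k : α) (c : R) (F : List α → List α → R)
    (W : List α) : spl k (fun A B => c * F A B) W = c * spl k F W := by
  induction W generalizing F with
  | nil => simp
  | cons j W ih =>
    rw [spl_cons, spl_cons, ih, mul_add]
    split_ifs
    · rfl
    · rw [mul_zero]

theorem spl_mul_right {R : Type*} [Semiring R] (k : α) (c : R) (F : List α → List α → R)
    (W : List α) : spl k (fun A B => F A B * c) W = spl k F W * c := by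
  induction W generalizing F with
  | nil => simp
  | cons j W ih =>
    rw [spl_cons, spl_cons, ih, add_mul]
    split_ifs
    · rfl
    · rw [zero_mul]

theorem spl_finset_sum {β : Type*} (s : Finset β) (k : α) (F : β → List α → List α → M)
    (W : List α) : spl k (fun A B => ∑ b ∈ s, F b A B) W = ∑ b ∈ s, spl k (F b) W := by
  induction W generalizing F with
  | nil => simp
  | cons j W ih =>
    rw [spl_cons, ih]
    simp only [spl_cons]
    rw [Finset.sum_add_distrib]
    congr 1
    split_ifs
    · rfl
    · simp

/-- additive maps commute with `spl` -/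
theorem map_spl {M' : Type*} [AddCommMonoid M'] (φ : M →+ M') (k : α)
    (F : List α → List α → M) (W : List α) : φ (spl k F W) = spl k (fun A B => φ (F A B)) W := by
  induction W generalizing F with
  | nil => simp
  | cons j W ih =>
    rw [spl_cons, spl_cons, map_add, ih]
    congr 1
    split_ifs
    · rfl
    · simp

/-- coassociativity of splittings -/
theorem spl_spl (j k : α) (F : List α → List α → List α → M) (W : List α) :
    spl k (fun A B => spl j (fun C D => F A C D) B) W =
      spl j (fun A D => spl k (fun B C => F B C D) A) W := by
  induction W generalizing F with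
  | nil => simp
  | cons i W ih =>
    rw [spl_cons, spl_cons]
    simp only [spl_cons, spl_nil, ite_self, zero_add]
    rw [spl_add, ih (fun A C D => F (i :: A) C D)]
    congr 1
    by_cases hik : i = k
    · simp only [hik, if_true]
    · simp only [hik, if_false]
      rw [spl_zero]

theorem spl_append (k : α) (F : List α → List α → M) (U W : List α) :
    spl k F (U ++ W) = spl k (fun A B => F A (B ++ W)) U + spl k (fun A B => F (U ++ A) B) W := by
  induction U generalizing F with
  | nil => simp
  | cons j U ih =>
    rw [List.cons_append, spl_cons, spl_cons, ih (fun A B => F (j :: A) B), add_assoc]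
    rfl

/-- limits of splittings -/
theorem tendsto_spl {β : Type*} {l : Filter β} {k : α} {F : β → List α → List α → ℂ}
    {G : List α → List α → ℂ} {W : List α}
    (h : ∀ A B, W = A ++ k :: B → Filter.Tendsto (fun b => F b A B) l (nhds (G A B))) :
    Filter.Tendsto (fun b => spl k (F b) W) l (nhds (spl k G W)) := by
  induction W generalizing F G with
  | nil => simpa using tendsto_const_nhds
  | cons j W ih =>
    simp only [spl_cons]
    apply Filter.Tendsto.add
    · by_cases hj : j = k
      · simp only [hj, if_true]
        exact h [] W (by rw [hj]; rfl)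
      · simp only [hj, if_false]
        exact tendsto_const_nhds
    · apply ih (F := fun b A B => F b (j :: A) B) (G := fun A B => G (j :: A) B)
      intro A B hW
      exact h (j :: A) B (by rw [hW]; rfl)

/-- `spl` as a sum over positions -/
theorem sum_range_eq_spl (k : α) (F : List α → List α → M) (W : List α) :
    (∑ i ∈ Finset.range W.length,
      if W[i]? = some k then F (W.take i) (W.drop (i + 1)) else 0) = spl k F W := by
  induction W generalizing F with
  | nil => simp
  | cons j W ih =>
    rw [List.length_cons, Finset.sum_range_succ', spl_cons, ← ih (fun A B => F (j :: A) B),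
      add_comm]
    congr 1
    simp

end splits

/-! ### decompositions -/

section decs
variable {α : Type*}

/-- `dec F V = ∑_{V = A ++ B} F A B` -/
def dec : (List α → List α → ℂ) → List α → ℂ
  | F, [] => F [] []
  | F, (j :: V) => F [] (j :: V) + dec (fun A B => F (j :: A) B) V

@[simp] theorem dec_nil (F : List α → List α → ℂ) : dec F [] = F [] [] := rfl

@[simp] theorem dec_cons (F : List α → List α → ℂ) (j : α) (V : List α) :
    dec F (j :: V) = F [] (j :: V) + dec (fun A B => F (j :: A) B) V := rfl

theorem dec_congr {F G : List α → List α → ℂ} {V : List α}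
    (h : ∀ A B, V = A ++ B → F A B = G A B) : dec F V = dec G V := by
  induction V generalizing F G with
  | nil => rw [dec_nil, dec_nil, h [] [] rfl]
  | cons j V ih =>
    rw [dec_cons, dec_cons, h [] (j :: V) rfl]
    congr 1
    apply ih
    intro A B hV
    exact h (j :: A) B (by rw [hV]; rfl)

theorem dec_mul_left (c : ℂ) (F : List α → List α → ℂ) (W : List α) :
    dec (fun A B => c * F A B) W = c * dec F W := by
  induction W generalizing F with
  | nil => simp
  | cons j W ih => rw [dec_cons, dec_cons, ih (fun A B => F (j :: A) B), mul_add]

theorem dec_mul_right (c : ℂ) (F : List α → List α → ℂ) (W : List α) :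
    dec (fun A B => F A B * c) W = dec F W * c := by
  induction W generalizing F with
  | nil => simp
  | cons j W ih => rw [dec_cons, dec_cons, ih (fun A B => F (j :: A) B), add_mul]

/-- `dec` as a sum over cut positions -/
theorem sum_fin_eq_dec (F : List α → List α → ℂ) (V : List α) :
    (∑ i : Fin (V.length + 1), F (V.take i) (V.drop i)) = dec F V := by
  rw [Fin.sum_univ_eq_sum_range (fun i => F (V.take i) (V.drop i)) (V.length + 1)]
  induction V generalizing F with
  | nil => simp
  | cons j V ih =>
    rw [List.length_cons, Finset.sum_range_succ', dec_cons, ← ih (fun A B => F (j :: A) B),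
      add_comm]
    simp

theorem sum_range_eq_dec (F : List α → List α → ℂ) (V : List α) :
    (∑ i ∈ Finset.range (V.length + 1), F (V.take i) (V.drop i)) = dec F V := by
  rw [← sum_fin_eq_dec, Fin.sum_univ_eq_sum_range (fun i => F (V.take i) (V.drop i))
    (V.length + 1)]

/-- the sum over `V` with `|V| ≤ L` of all decompositions, when the summand vanishes on long
words, is a double sum over all pairs -/
theorem sum_dec_eq [Fintype α] [DecidableEq α] (L L' : ℕ) (F : List α → List α → ℂ)
    (hF : ∀ A B, L < A.length + B.length → F A B = 0) (hL : L ≤ L') :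
    ∑ V ∈ wLE (α := α) L, dec F V =
      ∑ A ∈ wLE (α := α) L, ∑ B ∈ wLE (α := α) L', F A B := by
  have key : ∀ (L : ℕ) (F : List α → List α → ℂ),
      (∀ A B, L < A.length + B.length → F A B = 0) → L ≤ L' →
      ∑ B ∈ wLE (α := α) L, F [] B = ∑ B ∈ wLE (α := α) L', F [] B := by
    intro L F hF hL
    apply Finset.sum_subset
    · intro B hB
      rw [mem_wLE] at hB ⊢
      omega
    · intro B _ hB
      apply hF
      rw [mem_wLE] at hB
      simp only [List.length_nil]
      omega
  induction L generalizing F with
  | zero =>
    rw [sum_wLE_zero, sum_wLE_zero, dec_nil, ← key 0 F hF hL, sum_wLE_zero]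
  | succ L ih =>
    rw [sum_wLE_succ, sum_wLE_succ, ← key (L + 1) F hF hL, sum_wLE_succ, dec_nil, add_assoc]
    congr 1
    rw [← Finset.sum_add_distrib]
    apply Finset.sum_congr rfl
    intro a _
    rw [← ih (fun A B => F (a :: A) B) (fun A B hAB => hF (a :: A) B (by
      rw [List.length_cons]; omega)) (by omega), ← Finset.sum_add_distrib]
    rfl

end decs

end Crest.Agent.FE
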