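import Mathlib
import Crest.Agent.FE_Spl

/-! S0118 blueprint, file FE_Eval: products along words, and the link with
`wordEval`, `splitPairing`, `polyEval`. -/

set_option autoImplicit false

namespace Crest.Agent.FE

open Finset Crest.OpAlg

/-! ### products along words -/

section wd
variable {α : Type*} {A : Type*} [Monoid A]

/-- product of `X` along the word `w` -/
def wd (X : α → A) (w : List α) : A := (w.map X).prod

@[simp] theorem wd_nil (X : α → A) : wd X [] = 1 := rfl

@[simp] theorem wd_cons (X : α → A) (a : α) (w : List α) : wd X (a :: w) = X a * wd X w := by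
  simp [wd]

theorem wd_append (X : α → A) (u v : List α) : wd X (u ++ v) = wd X u * wd X v := by
  simp [wd]

theorem wd_singleton (X : α → A) (a : α) : wd X [a] = X a := by simp [wd]

end wd

section eval
variable {n : ℕ} {A : Type*} [Ring A] [Algebra ℂ A]

theorem wordEval_eq (X : Fin n → A) (w : FreeMonoid (Fin n)) :
    wordEval X w = wd X (FreeMonoid.toList w) := by
  unfold wordEval wd
  rw [FreeMonoid.lift_apply]

theorem wordEval_symm (X : Fin n → A) (w : List (Fin n)) :
    wordEval X (FreeMonoid.toList.symm w) = wd X w := by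
  rw [wordEval_eq]
  rfl

/-- evaluation of polynomials, word by word -/
theorem polyEval_eq (X : Fin n → A) (P : NCPoly n) :
    polyEval X P = P.coeff.sum fun w c => c • wd X (FreeMonoid.toList w) := by
  unfold polyEval
  rw [MonoidAlgebra.lift_apply]
  refine Finsupp.sum_congr fun w _ => ?_
  rw [← wordEval_eq]
  rfl

/-- splitPairing, word by word -/
theorem splitPairing_eq (τ : A →ₗ[ℂ] ℂ) (X : Fin n → A) (i : Fin n) (P : NCPoly n) :
    splitPairing τ X i P = P.coeff.sum fun w c =>
      c * spl i (fun U V => τ (wd X U) * τ (wd X V)) (FreeMonoid.toList w) := by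
  unfold splitPairing
  refine Finsupp.sum_congr fun w _ => ?_
  rw [← sum_range_eq_spl]
  congr 1
  refine Finset.sum_congr rfl fun k _ => ?_
  simp only [wordEval_symm]

theorem star_wd [StarRing A] (X : Fin n → A) (hX : ∀ i, IsSelfAdjoint (X i))
    (w : List (Fin n)) : star (wd X w) = wd X w.reverse := by
  induction w with
  | nil => simp
  | cons a w ih =>
    rw [wd_cons, star_mul, ih, (hX a).star_eq, List.reverse_cons, wd_append, wd_singleton]

theorem polyEval_single (X : Fin n → A) (w : FreeMonoid (Fin n)) (c : ℂ) :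
    polyEval X (MonoidAlgebra.single w c) = c • wd X (FreeMonoid.toList w) := by
  unfold polyEval
  rw [MonoidAlgebra.lift_single, ← wordEval_eq]
  rfl

theorem polyEval_polyStar [StarRing A] [StarModule ℂ A] (X : Fin n → A)
    (hX : ∀ i, IsSelfAdjoint (X i)) (P : NCPoly n) :
    polyEval X (polyStar P) = star (polyEval X P) := by
  rw [polyEval_eq X P]
  unfold polyStar
  unfold Finsupp.sum
  have h1 : polyEval X (∑ w ∈ P.coeff.support, MonoidAlgebra.single
      (FreeMonoid.toList.symm (FreeMonoid.toList w).reverse) (starRingEnd ℂ (P.coeff w))) =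
      ∑ w ∈ P.coeff.support, polyEval X (MonoidAlgebra.single
      (FreeMonoid.toList.symm (FreeMonoid.toList w).reverse) (starRingEnd ℂ (P.coeff w))) := by
    unfold polyEval
    rw [map_sum]
  rw [h1, star_sum]
  refine Finset.sum_congr rfl fun w _ => ?_
  rw [polyEval_single, star_smul, star_wd X hX]
  rfl

theorem isSelfAdjoint_polyEval [StarRing A] [StarModule ℂ A] (X : Fin n → A)
    (hX : ∀ i, IsSelfAdjoint (X i)) (P : NCPoly n) (hP : polyStar P = P) :
    IsSelfAdjoint (polyEval X P) := by
  have h := polyEval_polyStar X hX P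
  rw [hP] at h
  exact h.symm

theorem wd_map {α B : Type*} [Ring B] [Algebra ℂ B] (π : A →ₐ[ℂ] B) (X : α → A)
    (w : List α) : wd (fun i => π (X i)) w = π (wd X w) := by
  unfold wd
  rw [map_list_prod, List.map_map]
  rfl

/-- `polyEval` commutes with algebra homomorphisms -/
theorem polyEval_map {B : Type*} [Ring B] [Algebra ℂ B] (π : A →ₐ[ℂ] B) (X : Fin n → A)
    (P : NCPoly n) : polyEval (fun i => π (X i)) P = π (polyEval X P) := by
  rw [polyEval_eq, polyEval_eq]
  unfold Finsupp.sum
  rw [map_sum]
  refine Finset.sum_congr rfl fun w _ => ?_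
  beta_reduce
  rw [wd_map, map_smul]

end eval

end Crest.Agent.FE
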