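import Mathlib

/-! S0118 blueprint, file FE_L2: finite ℓ² norms (Minkowski, Cauchy-Schwarz, products) and
the bound `catalan k ≤ 4 ^ k`. -/

set_option autoImplicit false

namespace Crest.Agent.FE

open Finset

variable {β γ : Type*}

/-- finite ℓ² norm -/
noncomputable def nrm (s : Finset β) (f : β → ℂ) : ℝ := √(∑ x ∈ s, ‖f x‖ ^ 2)

theorem nrm_nonneg (s : Finset β) (f : β → ℂ) : 0 ≤ nrm s f := Real.sqrt_nonneg _

theorem nrm_sq (s : Finset β) (f : β → ℂ) : nrm s f ^ 2 = ∑ x ∈ s, ‖f x‖ ^ 2 := by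
  unfold nrm
  rw [Real.sq_sqrt]
  exact Finset.sum_nonneg fun x _ => by positivity

theorem nrm_le_iff (s : Finset β) (f : β → ℂ) {c : ℝ} (hc : 0 ≤ c) :
    nrm s f ≤ c ↔ ∑ x ∈ s, ‖f x‖ ^ 2 ≤ c ^ 2 := by
  unfold nrm
  exact Real.sqrt_le_left hc

private theorem nrm_eq (s : Finset β) (f : β → ℂ) :
    nrm s f = ‖(WithLp.toLp 2 (fun x : s => f x) : EuclideanSpace ℂ s)‖ := by
  unfold nrm
  rw [EuclideanSpace.norm_eq]
  congr 1
  exact (Finset.sum_coe_sort s (fun x => ‖f x‖ ^ 2)).symm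

/-- Minkowski (e.g. through `EuclideanSpace ℂ s`, or `Real.Lp_add_le`) -/
theorem nrm_add_le (s : Finset β) (f g : β → ℂ) :
    nrm s (fun x => f x + g x) ≤ nrm s f + nrm s g := by
  rw [nrm_eq, nrm_eq, nrm_eq]
  exact norm_add_le (WithLp.toLp 2 (fun x : s => f x) : EuclideanSpace ℂ s)
    (WithLp.toLp 2 (fun x : s => g x))

theorem nrm_sub_le (s : Finset β) (f g : β → ℂ) :
    nrm s (fun x => f x - g x) ≤ nrm s f + nrm s g := by
  rw [nrm_eq, nrm_eq, nrm_eq]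
  exact norm_sub_le (WithLp.toLp 2 (fun x : s => f x) : EuclideanSpace ℂ s)
    (WithLp.toLp 2 (fun x : s => g x))

theorem nrm_sum_le (s : Finset β) (t : Finset γ) (f : γ → β → ℂ) :
    nrm s (fun x => ∑ i ∈ t, f i x) ≤ ∑ i ∈ t, nrm s (f i) := by
  classical
  induction t using Finset.induction_on with
  | empty => simp [nrm]
  | insert a t ha ih =>
    simp only [Finset.sum_insert ha]
    exact (nrm_add_le s _ _).trans (by linarith)

/-- Cauchy-Schwarz -/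
theorem norm_sum_mul_sq_le (s : Finset β) (f g : β → ℂ) :
    ‖∑ x ∈ s, f x * g x‖ ^ 2 ≤ (∑ x ∈ s, ‖f x‖ ^ 2) * ∑ x ∈ s, ‖g x‖ ^ 2 := by
  have h1 : ‖∑ x ∈ s, f x * g x‖ ≤ ∑ x ∈ s, ‖f x‖ * ‖g x‖ :=
    (norm_sum_le _ _).trans (le_of_eq (Finset.sum_congr rfl fun x _ => norm_mul _ _))
  calc ‖∑ x ∈ s, f x * g x‖ ^ 2 ≤ (∑ x ∈ s, ‖f x‖ * ‖g x‖) ^ 2 :=
        pow_le_pow_left₀ (norm_nonneg _) h1 2
    _ ≤ _ := Finset.sum_mul_sq_le_sq_mul_sq s _ _

theorem catalan_le_four_pow (k : ℕ) : catalan k ≤ 4 ^ k := by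
  rw [catalan_eq_centralBinom_div]
  refine (Nat.div_le_self _ _).trans ?_
  rw [Nat.centralBinom]
  calc (2 * k).choose k ≤ 2 ^ (2 * k) := Nat.choose_le_two_pow (2 * k) k
    _ = 4 ^ k := by rw [pow_mul]; norm_num

/-- the convolution recursion of the Catalan numbers over `range` -/
theorem catalan_succ_range (k : ℕ) :
    catalan (k + 1) = ∑ i ∈ Finset.range (k + 1), catalan i * catalan (k - i) := by
  rw [catalan_succ, Finset.sum_range]

end Crest.Agent.FE
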