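import Mathlib
import Crest.Agent.FE_Eval
import Crest.Agent.FE_L2

/-! S0118 blueprint, file FE_Mom: moments of a free semicircular family (given by the
Schwinger-Dyson recursion) and their ℓ² bound. -/

set_option autoImplicit false

namespace Crest.Agent.FE

open Finset

/-- the Schwinger-Dyson recursion of free semicircular moments -/
structure IsSC {α : Type*} [DecidableEq α] (mom : List α → ℂ) : Prop where
  nil : mom [] = 1
  cons : ∀ k W, mom (k :: W) = spl k (fun A B => mom A * mom B) W

variable {α : Type*} [DecidableEq α]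

/-- uniqueness (strong induction on the length) -/
theorem IsSC.unique {mom mom' : List α → ℂ} (h : IsSC mom) (h' : IsSC mom') :
    ∀ W, mom W = mom' W := by
  have key : ∀ n : ℕ, ∀ W : List α, W.length ≤ n → mom W = mom' W := by
    intro n
    induction n with
    | zero =>
      intro W hW
      have : W = [] := List.length_eq_zero_iff.mp (by omega)
      rw [this, h.nil, h'.nil]
    | succ n ih =>
      intro W hW
      cases W with
      | nil => rw [h.nil, h'.nil]
      | cons k W =>
        rw [h.cons, h'.cons]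
        apply spl_congr
        intro A B hAB
        have hlen : W.length = A.length + (B.length + 1) := by
          rw [hAB, List.length_append, List.length_cons]
        rw [List.length_cons] at hW
        rw [ih A (by omega), ih B (by omega)]
  intro W
  exact key W.length W le_rfl

theorem fmom_spl_map {β : Type*} [DecidableEq β] (φ : β → α) (hφ : Function.Injective φ)
    (k : β) (W : List β) : ∀ F : List α → List α → ℂ,
      spl (φ k) F (W.map φ) = spl k (fun A B => F (A.map φ) (B.map φ)) W := by
  induction W with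
  | nil => intro F; simp
  | cons j W ih =>
    intro F
    rw [List.map_cons, spl_cons, spl_cons, ih]
    simp only [hφ.eq_iff, List.map_nil, List.map_cons]

/-- restriction of the letters along an injective map (the recursion only sees equality of
letters; induct on `W` to transport `spl`) -/
theorem IsSC.comp {β : Type*} [DecidableEq β] {mom : List α → ℂ} (h : IsSC mom) (φ : β → α)
    (hφ : Function.Injective φ) : IsSC (fun w : List β => mom (w.map φ)) := by
  constructor
  · simp [h.nil]
  · intro k W
    simp only [List.map_cons]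
    rw [h.cons, fmom_spl_map φ hφ]

/-- the `i`-th term of the recursion -/
noncomputable def fmomTerm (mom : List α → ℂ) (i : ℕ) : List α → ℂ
  | [] => 0
  | (k :: W) => if W[i]? = some k then mom (W.take i) * mom (W.drop (i + 1)) else 0

theorem fmom_eq_sum {mom : List α → ℂ} (h : IsSC mom) (L : ℕ) (w : List α)
    (hw : w.length = L + 2) : mom w = ∑ i ∈ Finset.range (L + 1), fmomTerm mom i w := by
  cases w with
  | nil => simp at hw
  | cons k W =>
    rw [h.cons, ← sum_range_eq_spl]
    have : W.length = L + 1 := by rw [List.length_cons] at hw; omega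
    rw [this]
    rfl

theorem fmomTerm_sq [Fintype α] (mom : List α → ℂ) (L i : ℕ) (hi : i ≤ L) :
    ∑ w ∈ wEq (α := α) (L + 2), ‖fmomTerm mom i w‖ ^ 2 =
      (Fintype.card α : ℝ) * ((∑ w ∈ wEq (α := α) i, ‖mom w‖ ^ 2) *
        ∑ w ∈ wEq (α := α) (L - i), ‖mom w‖ ^ 2) := by
  rw [sum_wEq_succ]
  have h1 : L + 1 = i + ((L - i) + 1) := by omega
  have h2 : ∀ k : α, ∑ W ∈ wEq (α := α) (L + 1), ‖fmomTerm mom i (k :: W)‖ ^ 2 =
      (∑ w ∈ wEq (α := α) i, ‖mom w‖ ^ 2) * ∑ w ∈ wEq (α := α) (L - i), ‖mom w‖ ^ 2 := by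
    intro k
    rw [h1, sum_wEq_add, Finset.sum_mul_sum]
    apply Finset.sum_congr rfl
    intro U hU
    rw [mem_wEq] at hU
    rw [sum_wEq_succ]
    rw [Finset.sum_eq_single k]
    · apply Finset.sum_congr rfl
      intro V _
      have e1 : (U ++ k :: V)[i]? = some k := by
        rw [List.getElem?_append_right (by omega), hU]; simp
      have e2 : (U ++ k :: V).take i = U := by
        rw [← hU]; exact List.take_left
      have e3 : (U ++ k :: V).drop (i + 1) = V := by
        rw [← hU, ← List.drop_drop]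
        simp
      simp only [fmomTerm, e1, if_true, e2, e3]
      rw [norm_mul, mul_pow]
    · intro j _ hj
      apply Finset.sum_eq_zero
      intro V _
      have e1 : (U ++ j :: V)[i]? = some j := by
        rw [List.getElem?_append_right (by omega), hU]; simp
      have : ¬ ((some j : Option α) = some k) := by
        intro h; exact hj (Option.some.inj h)
      simp [fmomTerm, e1, hj]
    · intro h; exact absurd (Finset.mem_univ k) h
  rw [Finset.sum_congr rfl (fun k _ => h2 k), Finset.sum_const, Finset.card_univ, nsmul_eq_mul]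

theorem fmomTerm_nrm [Fintype α] (mom : List α → ℂ) (L i : ℕ) (hi : i ≤ L) :
    nrm (wEq (α := α) (L + 2)) (fmomTerm mom i) =
      √(Fintype.card α) * (nrm (wEq (α := α) i) mom * nrm (wEq (α := α) (L - i)) mom) := by
  unfold nrm
  rw [fmomTerm_sq mom L i hi, Real.sqrt_mul (by positivity), Real.sqrt_mul]
  exact Finset.sum_nonneg (fun x _ => by positivity)

theorem fmom_rec [Fintype α] {mom : List α → ℂ} (h : IsSC mom) (L : ℕ) :
    nrm (wEq (α := α) (L + 2)) mom ≤ ∑ i ∈ Finset.range (L + 1),
      √(Fintype.card α) * (nrm (wEq (α := α) i) mom * nrm (wEq (α := α) (L - i)) mom) := by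
  have h1 : nrm (wEq (α := α) (L + 2)) mom =
      nrm (wEq (α := α) (L + 2)) (fun w => ∑ i ∈ Finset.range (L + 1), fmomTerm mom i w) := by
    unfold nrm
    congr 1
    apply Finset.sum_congr rfl
    intro w hw
    rw [fmom_eq_sum h L w (mem_wEq.mp hw)]
  rw [h1]
  refine (nrm_sum_le _ _ _).trans (le_of_eq ?_)
  apply Finset.sum_congr rfl
  intro i hi
  exact fmomTerm_nrm mom L i (by rw [Finset.mem_range] at hi; omega)

/-- the majorant -/
noncomputable def fmomC (s : ℝ) (L : ℕ) : ℝ :=
  if Even L then (catalan (L / 2) : ℝ) * s ^ (L / 2) else 0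

theorem fmomC_even (s : ℝ) (j : ℕ) : fmomC s (2 * j) = (catalan j : ℝ) * s ^ j := by
  unfold fmomC
  rw [if_pos (by simp), Nat.mul_div_cancel_left j (by norm_num)]

theorem fmomC_odd (s : ℝ) (L : ℕ) (h : ¬ Even L) : fmomC s L = 0 := by
  unfold fmomC
  rw [if_neg h]

theorem fmomC_nonneg (s : ℝ) (hs : 0 ≤ s) (L : ℕ) : 0 ≤ fmomC s L := by
  unfold fmomC
  split_ifs
  · positivity
  · exact le_rfl

theorem fmom_sum_even (f : ℕ → ℝ) (hf : ∀ i, ¬ Even i → f i = 0) (j : ℕ) :
    ∑ i ∈ Finset.range (2 * j + 1), f i = ∑ a ∈ Finset.range (j + 1), f (2 * a) := by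
  induction j with
  | zero => simp
  | succ j ih =>
    rw [show 2 * (j + 1) + 1 = (2 * j + 1) + 1 + 1 by ring, Finset.sum_range_succ,
      Finset.sum_range_succ, ih, Finset.sum_range_succ _ (j + 1),
      hf (2 * j + 1) (by rw [Nat.not_even_iff_odd]; exact ⟨j, rfl⟩), add_zero]
    rfl

theorem fmomC_rec (s : ℝ) (L : ℕ) :
    ∑ i ∈ Finset.range (L + 1), s * (fmomC s i * fmomC s (L - i)) = fmomC s (L + 2) := by
  by_cases hL : Even L
  · obtain ⟨j, hj⟩ := hL
    have hj' : L = 2 * j := by omega
    subst hj'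
    rw [fmom_sum_even (fun i => s * (fmomC s i * fmomC s (2 * j - i)))
      (fun i hi => by rw [fmomC_odd s i hi]; ring)]
    rw [show 2 * j + 2 = 2 * (j + 1) by ring, fmomC_even, catalan_succ_range]
    push_cast
    rw [Finset.sum_mul]
    apply Finset.sum_congr rfl
    intro a ha
    rw [Finset.mem_range] at ha
    rw [fmomC_even, show 2 * j - 2 * a = 2 * (j - a) by omega, fmomC_even]
    have hp : s ^ (j + 1) = s * (s ^ a * s ^ (j - a)) := by
      rw [← pow_add, ← pow_succ', show a + (j - a) = j by omega]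
    rw [hp]
    ring
  · rw [fmomC_odd s (L + 2) (by
      rw [Nat.not_even_iff_odd] at hL ⊢
      exact hL.add_even (by decide))]
    apply Finset.sum_eq_zero
    intro i hi
    rw [Finset.mem_range] at hi
    by_cases h1 : Even i
    · have h2 : ¬ Even (L - i) := by
        intro h2
        apply hL
        have : L = i + (L - i) := by omega
        rw [this]
        exact h1.add h2
      rw [fmomC_odd s (L - i) h2]; ring
    · rw [fmomC_odd s i h1]; ring

theorem fmom_nrm_le [Fintype α] {mom : List α → ℂ} (h : IsSC mom) :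
    ∀ L : ℕ, nrm (wEq (α := α) L) mom ≤ fmomC (√(Fintype.card α)) L := by
  intro L
  induction L using Nat.strong_induction_on with
  | _ L ih =>
    rcases L with _ | _ | L
    · unfold nrm
      rw [sum_wEq_zero, h.nil]
      simp [fmomC]
    · unfold nrm
      rw [sum_wEq_succ]
      simp only [sum_wEq_zero]
      have : ∀ a : α, mom [a] = 0 := by
        intro a; rw [h.cons]; simp
      simp [this, fmomC]
    · refine (fmom_rec h L).trans ?_
      rw [show L + 1 + 1 = L + 2 by rfl, ← fmomC_rec]
      apply Finset.sum_le_sum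
      intro i hi
      rw [Finset.mem_range] at hi
      apply mul_le_mul_of_nonneg_left _ (Real.sqrt_nonneg _)
      exact mul_le_mul (ih i (by omega)) (ih (L - i) (by omega)) (nrm_nonneg _ _)
        (fmomC_nonneg _ (Real.sqrt_nonneg _) _)

/-- PROOF. `M_L = nrm (wEq L) mom`, `m = card α`. `M_0 = 1`, `M_1 = 0`, and for `L ≥ 0`
`M_{L+2} ≤ √m ∑_{i ≤ L} M_i M_{L-i}`: for `w = k :: W`, `|W| = L+1`,
`mom (k :: W) = ∑_{i ≤ L} [W_i = k] mom (W_{<i}) mom (W_{>i})` (`sum_range_eq_spl` reversed);
Minkowski (`nrm_sum_le`); the `i`-th term has square norm `m * M_i^2 * M_{L-i}^2` (choose `k`,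
then `W = U ++ k :: V`; use `sum_wEq_add`, `sum_wEq_succ`). By strong induction `M_L = 0` for odd
`L` and `M_{2j} ≤ catalan j * (√m)^j` (`catalan_succ_range`), then `catalan_le_four_pow`:
`M_{2j}^2 ≤ 16^j m^j = (4√m)^{2j}`. -/
theorem IsSC.sum_sq_le [Fintype α] {mom : List α → ℂ} (h : IsSC mom) (L : ℕ) :
    ∑ w ∈ wEq (α := α) L, ‖mom w‖ ^ 2 ≤ (4 * √(Fintype.card α)) ^ L := by
  rw [← nrm_sq]
  have h1 := fmom_nrm_le h L
  have h0 := nrm_nonneg (wEq (α := α) L) mom
  by_cases hL : Even L
  · obtain ⟨j, hj⟩ := hL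
    have hj' : L = 2 * j := by omega
    subst hj'
    rw [fmomC_even] at h1
    have h2 : (catalan j : ℝ) ≤ 4 ^ j := by exact_mod_cast catalan_le_four_pow j
    have h3 : nrm (wEq (α := α) (2 * j)) mom ≤ (4 * √(Fintype.card α)) ^ j := by
      rw [mul_pow]
      exact h1.trans (mul_le_mul_of_nonneg_right h2 (by positivity))
    calc nrm (wEq (α := α) (2 * j)) mom ^ 2 ≤ ((4 * √(Fintype.card α)) ^ j) ^ 2 :=
          pow_le_pow_left₀ h0 h3 2
      _ = (4 * √(Fintype.card α)) ^ (2 * j) := by rw [← pow_mul, mul_comm j 2]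
  · rw [fmomC_odd _ _ hL] at h1
    have h2 : nrm (wEq (α := α) L) mom = 0 := le_antisymm h1 h0
    rw [h2, zero_pow two_ne_zero]
    positivity

end Crest.Agent.FE
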