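import Mathlib
import Crest.Agent.FE_Mom

/-! S0118 blueprint, file FE_TBound: the cubic family `T` and the ℓ² bound of its moments. -/

set_option autoImplicit false

namespace Crest.Agent.FE

open Finset

/-- the index set: `m` linear letters and `m ^ 3` cubic letters -/
abbrev JJ (m : ℕ) : Type := Fin m ⊕ (Fin m × Fin m × Fin m)

/-- `T_a = s_a`, `T_(a,b,c) = s_a s_b s_c + s_c s_b s_a` -/
def Tc {m : ℕ} {A : Type*} [Ring A] (s : Fin m → A) : JJ m → A :=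
  Sum.elim s (fun p => s p.1 * s p.2.1 * s p.2.2 + s p.2.2 * s p.2.1 * s p.1)

/-- `q + 4 q^3`, `q = 4 √m` -/
noncomputable def NN (m : ℕ) : ℝ := 4 * √(m : ℝ) + 4 * (4 * √(m : ℝ)) ^ 3

theorem NN_le (m : ℕ) : NN m ≤ 260 * (m : ℝ) * √(m : ℝ) := by
  unfold NN
  rcases Nat.eq_zero_or_pos m with rfl | hm
  · simp
  · have h1 : (1 : ℝ) ≤ m := by exact_mod_cast hm
    have h0 : 0 ≤ √(m : ℝ) := Real.sqrt_nonneg _
    have h2 : √(m : ℝ) ^ 2 = m := Real.sq_sqrt (by positivity)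
    have h3 : √(m : ℝ) ^ 3 = m * √(m : ℝ) := by rw [pow_succ, h2]
    have h4 : √(m : ℝ) ≤ m * √(m : ℝ) := by nlinarith
    calc 4 * √(m : ℝ) + 4 * (4 * √(m : ℝ)) ^ 3 = 4 * √(m : ℝ) + 256 * √(m : ℝ) ^ 3 := by ring
      _ = 4 * √(m : ℝ) + 256 * (m * √(m : ℝ)) := by rw [h3]
      _ ≤ 4 * (m * √(m : ℝ)) + 256 * (m * √(m : ℝ)) := by linarith
      _ = 260 * (m : ℝ) * √(m : ℝ) := by ring

theorem ftb_norm_add_sq (x y : ℂ) : ‖x + y‖ ^ 2 ≤ 2 * ‖x‖ ^ 2 + 2 * ‖y‖ ^ 2 := by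
  have h := norm_add_le x y
  have h0 := norm_nonneg (x + y)
  have h1 := norm_nonneg x
  have h2 := norm_nonneg y
  nlinarith [sq_nonneg (‖x‖ - ‖y‖)]

theorem ftb_gen {m : ℕ} {A : Type*} [Ring A] [Algebra ℂ A] (τ : A →ₗ[ℂ] ℂ) (s : Fin m → A)
    (hs : IsSC (fun w => τ (wd s w))) (k : ℕ) : ∀ L : ℕ,
    ∑ p ∈ wEq (α := Fin m) L, ∑ U ∈ wEq (α := JJ m) k, ‖τ (wd s p * wd (Tc s) U)‖ ^ 2 ≤
      (4 * √(m : ℝ)) ^ L * NN m ^ k := by
  induction k with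
  | zero =>
    intro L
    have h := hs.sum_sq_le L
    rw [Fintype.card_fin] at h
    simpa [sum_wEq_zero] using h
  | succ k ih =>
    intro L
    have e1 : ∀ p : List (Fin m), ∑ U ∈ wEq (α := JJ m) (k + 1),
        ‖τ (wd s p * wd (Tc s) U)‖ ^ 2 =
        (∑ a : Fin m, ∑ U ∈ wEq (α := JJ m) k, ‖τ (wd s (p ++ [a]) * wd (Tc s) U)‖ ^ 2) +
        ∑ a : Fin m, ∑ b : Fin m, ∑ c : Fin m, ∑ U ∈ wEq (α := JJ m) k,
          ‖τ (wd s (p ++ [a] ++ [b] ++ [c]) * wd (Tc s) U) +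
            τ (wd s (p ++ [c] ++ [b] ++ [a]) * wd (Tc s) U)‖ ^ 2 := by
      intro p
      rw [sum_wEq_succ, Fintype.sum_sum_type]
      congr 1
      · refine Finset.sum_congr rfl fun a _ => Finset.sum_congr rfl fun U _ => ?_
        rw [wd_cons, wd_append, wd_singleton]
        simp only [Tc, Sum.elim_inl, mul_assoc]
      · rw [Fintype.sum_prod_type]
        refine Finset.sum_congr rfl fun a _ => ?_
        rw [Fintype.sum_prod_type]
        refine Finset.sum_congr rfl fun b _ => Finset.sum_congr rfl fun c _ =>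
          Finset.sum_congr rfl fun U _ => ?_
        rw [← map_add]
        congr 3
        simp only [wd_cons, wd_append, wd_nil, Tc, Sum.elim_inr]
        noncomm_ring
    have e2 : ∑ p ∈ wEq (α := Fin m) L, ∑ a : Fin m, ∑ U ∈ wEq (α := JJ m) k,
        ‖τ (wd s (p ++ [a]) * wd (Tc s) U)‖ ^ 2 ≤ (4 * √(m : ℝ)) ^ (L + 1) * NN m ^ k := by
      have := ih (L + 1)
      rwa [sum_wEq_succ'] at this
    have e3 : ∑ p ∈ wEq (α := Fin m) L, ∑ a : Fin m, ∑ b : Fin m, ∑ c : Fin m,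
        ∑ U ∈ wEq (α := JJ m) k,
        ‖τ (wd s (p ++ [a] ++ [b] ++ [c]) * wd (Tc s) U)‖ ^ 2 ≤
          (4 * √(m : ℝ)) ^ (L + 3) * NN m ^ k := by
      have := ih (L + 3)
      rwa [sum_wEq_succ', sum_wEq_succ', sum_wEq_succ'] at this
    have e4 : ∑ p ∈ wEq (α := Fin m) L, ∑ a : Fin m, ∑ b : Fin m, ∑ c : Fin m,
        ∑ U ∈ wEq (α := JJ m) k,
        ‖τ (wd s (p ++ [c] ++ [b] ++ [a]) * wd (Tc s) U)‖ ^ 2 ≤
          (4 * √(m : ℝ)) ^ (L + 3) * NN m ^ k := by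
      refine le_trans (le_of_eq ?_) e3
      refine Finset.sum_congr rfl fun p _ => ?_
      calc ∑ a : Fin m, ∑ b : Fin m, ∑ c : Fin m, ∑ U ∈ wEq (α := JJ m) k,
            ‖τ (wd s (p ++ [c] ++ [b] ++ [a]) * wd (Tc s) U)‖ ^ 2 =
          ∑ a : Fin m, ∑ c : Fin m, ∑ b : Fin m, ∑ U ∈ wEq (α := JJ m) k,
            ‖τ (wd s (p ++ [c] ++ [b] ++ [a]) * wd (Tc s) U)‖ ^ 2 := by
            refine Finset.sum_congr rfl fun a _ => ?_
            rw [Finset.sum_comm]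
        _ = ∑ c : Fin m, ∑ a : Fin m, ∑ b : Fin m, ∑ U ∈ wEq (α := JJ m) k,
            ‖τ (wd s (p ++ [c] ++ [b] ++ [a]) * wd (Tc s) U)‖ ^ 2 := by
            rw [Finset.sum_comm]
        _ = _ := by
            refine Finset.sum_congr rfl fun a _ => ?_
            rw [Finset.sum_comm]
    simp only [e1]
    rw [Finset.sum_add_distrib]
    have e5 : ∑ p ∈ wEq (α := Fin m) L, ∑ a : Fin m, ∑ b : Fin m, ∑ c : Fin m,
        ∑ U ∈ wEq (α := JJ m) k,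
          ‖τ (wd s (p ++ [a] ++ [b] ++ [c]) * wd (Tc s) U) +
            τ (wd s (p ++ [c] ++ [b] ++ [a]) * wd (Tc s) U)‖ ^ 2 ≤
        2 * ((4 * √(m : ℝ)) ^ (L + 3) * NN m ^ k) + 2 * ((4 * √(m : ℝ)) ^ (L + 3) * NN m ^ k) := by
      refine le_trans ?_ (add_le_add (mul_le_mul_of_nonneg_left e3 (by norm_num : (0:ℝ) ≤ 2))
        (mul_le_mul_of_nonneg_left e4 (by norm_num : (0:ℝ) ≤ 2)))
      simp only [Finset.mul_sum, ← Finset.sum_add_distrib]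
      refine Finset.sum_le_sum fun p _ => Finset.sum_le_sum fun a _ => Finset.sum_le_sum fun b _ =>
        Finset.sum_le_sum fun c _ => Finset.sum_le_sum fun U _ => ?_
      exact ftb_norm_add_sq _ _
    refine (add_le_add e2 e5).trans (le_of_eq ?_)
    rw [pow_succ (NN m) k]
    conv_rhs => rw [show NN m ^ k * NN m = NN m ^ k * (4 * √(m : ℝ) + 4 * (4 * √(m : ℝ)) ^ 3) from rfl]
    ring

/-- PROOF. More generally for every `L`:
`∑_{p ∈ wEq L} ∑_{U ∈ wEq k} ‖τ (wd s p * wd (Tc s) U)‖^2 ≤ q^L N^k` (`q = 4√m`, `N = NN m`), by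
induction on `k` (all `L`). `k = 0`: `IsSC.sum_sq_le`. Step `U = j :: U'`: `j = inl a`:
`wd s p * s a = wd s (p ++ [a])`, use `sum_wEq_succ'` (`q^{L+1} N^k`). `j = inr (a,b,c)`:
`‖x + y‖^2 ≤ 2‖x‖^2 + 2‖y‖^2`, each of the two sums over `p, a, b, c` is the sum over `wEq (L+3)`
(`q^{L+3} N^k` each, total `4 q^{L+3} N^k`). Then `L = 0`. -/
theorem tbound_J {m : ℕ} {A : Type*} [Ring A] [Algebra ℂ A] (τ : A →ₗ[ℂ] ℂ) (s : Fin m → A)
    (hs : IsSC (fun w => τ (wd s w))) (k : ℕ) :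
    ∑ U ∈ wEq (α := JJ m) k, ‖τ (wd (Tc s) U)‖ ^ 2 ≤ NN m ^ k := by
  have h := ftb_gen τ s hs k 0
  rw [sum_wEq_zero] at h
  simpa using h

theorem ftb_reindex {α β : Type*} [Fintype α] [DecidableEq α] [Fintype β] [DecidableEq β]
    (e : α ≃ β) (k : ℕ) : ∀ f : List β → ℝ,
    ∑ U ∈ wEq (α := α) k, f (U.map e) = ∑ V ∈ wEq (α := β) k, f V := by
  induction k with
  | zero => intro f; simp [sum_wEq_zero]
  | succ k ih =>
    intro f
    rw [sum_wEq_succ, sum_wEq_succ, ← Equiv.sum_comp e]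
    refine Finset.sum_congr rfl fun a _ => ?_
    rw [← ih (fun V => f (e a :: V))]
    simp only [List.map_cons]

/-- reindexed version -/
theorem tbound {m n : ℕ} (e : Fin n ≃ JJ m) {A : Type*} [Ring A] [Algebra ℂ A] (τ : A →ₗ[ℂ] ℂ)
    (s : Fin m → A) (hs : IsSC (fun w => τ (wd s w))) (k : ℕ) :
    ∑ U ∈ wEq (α := Fin n) k, ‖τ (wd (fun i => Tc s (e i)) U)‖ ^ 2 ≤ NN m ^ k := by
  have h := ftb_reindex e k (fun V => ‖τ (wd (Tc s) V)‖ ^ 2)
  refine le_trans (le_of_eq ?_) (tbound_J τ s hs k)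
  rw [← h]
  refine Finset.sum_congr rfl fun U _ => ?_
  congr 3
  simp [wd, List.map_map, Function.comp_def]

end Crest.Agent.FE
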