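import Mathlib
import Crest.Agent.FE_TBound
import Crest.Agent.FE_Herm

/-! S0118 blueprint, file FE_Comb: the tuple `X` as a combination of words. -/

set_option autoImplicit false

namespace Crest.Agent.FE

open Finset Crest.OpAlg MeasureTheory
open scoped NNReal ENNReal

/-- `X_k = T_k + r_k s'_k` with `T` the cubic family of the base letters -/
noncomputable def comb {m n : ℕ} (e : Fin n ≃ JJ m) (r : Fin n → ℝ) {A : Type*} [Ring A]
    [Algebra ℂ A] (s : Fin m ⊕ Fin n → A) : Fin n → A :=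
  fun k => Tc (fun a => s (Sum.inl a)) (e k) + (r k : ℂ) • s (Sum.inr k)

theorem fec_term {A B : Type*} [Ring A] [Algebra ℂ A] [Ring B] [Algebra ℂ B] (τ : A →ₗ[ℂ] ℂ)
    (σ : B →ₗ[ℂ] ℂ) (x : A) (y : B) (r : ℝ) (hr : |r| ≤ 1) (C : ℝ) (h : ‖τ x - σ y‖ ≤ C) :
    ‖τ ((r : ℂ) • x) - σ ((r : ℂ) • y)‖ ≤ C := by
  rw [map_smul, map_smul, ← smul_sub, norm_smul, Complex.norm_real, Real.norm_eq_abs]
  have h0 := norm_nonneg (τ x - σ y)
  nlinarith [abs_nonneg r]

theorem fec_gen {m n : ℕ} (e : Fin n ≃ JJ m) (r : Fin n → ℝ) (hr : ∀ k, |r k| ≤ 1)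
    {A B : Type*} [Ring A] [Algebra ℂ A] [Ring B] [Algebra ℂ B] (τ : A →ₗ[ℂ] ℂ) (σ : B →ₗ[ℂ] ℂ)
    (s : Fin m ⊕ Fin n → A) (t : Fin m ⊕ Fin n → B) (K : ℕ) (δ : ℝ) (hδ : 0 ≤ δ)
    (h : ∀ w : List (Fin m ⊕ Fin n), w.length ≤ 3 * K → ‖τ (wd s w) - σ (wd t w)‖ ≤ δ)
    (W : List (Fin n)) : ∀ p : List (Fin m ⊕ Fin n), p.length + 3 * W.length ≤ 3 * K →
    ‖τ (wd s p * wd (comb e r s) W) - σ (wd t p * wd (comb e r t) W)‖ ≤ 3 ^ W.length * δ := by
  induction W with
  | nil =>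
    intro p hp
    simpa using h p (by simpa using hp)
  | cons k W ih =>
    intro p hp
    simp only [List.length_cons] at hp
    have hpos : 0 ≤ 3 ^ W.length * δ := by positivity
    have hgoal : 3 ^ (k :: W).length * δ = 3 ^ W.length * δ + 3 ^ W.length * δ + 3 ^ W.length * δ := by
      rw [List.length_cons, pow_succ]; ring
    have hS := ih (p ++ [Sum.inr k]) (by simp; omega)
    have hS' := fec_term τ σ _ _ (r k) (hr k) _ hS
    rcases hek : e k with a | ⟨a, b, c⟩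
    · have hA := ih (p ++ [Sum.inl a]) (by simp; omega)
      have es : wd s p * wd (comb e r s) (k :: W) =
          wd s (p ++ [Sum.inl a]) * wd (comb e r s) W +
          (r k : ℂ) • (wd s (p ++ [Sum.inr k]) * wd (comb e r s) W) := by
        rw [wd_cons, wd_append, wd_append, wd_singleton, wd_singleton, comb, hek]
        simp only [Tc, Sum.elim_inl, add_mul, mul_add, smul_mul_assoc, mul_smul_comm, mul_assoc]
      have et : wd t p * wd (comb e r t) (k :: W) =
          wd t (p ++ [Sum.inl a]) * wd (comb e r t) W +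
          (r k : ℂ) • (wd t (p ++ [Sum.inr k]) * wd (comb e r t) W) := by
        rw [wd_cons, wd_append, wd_append, wd_singleton, wd_singleton, comb, hek]
        simp only [Tc, Sum.elim_inl, add_mul, mul_add, smul_mul_assoc, mul_smul_comm, mul_assoc]
      rw [es, et, map_add, map_add, hgoal]
      generalize τ (wd s (p ++ [Sum.inl a]) * wd (comb e r s) W) = x1 at hA ⊢
      generalize σ (wd t (p ++ [Sum.inl a]) * wd (comb e r t) W) = y1 at hA ⊢
      generalize τ ((r k : ℂ) • (wd s (p ++ [Sum.inr k]) * wd (comb e r s) W)) = x2 at hS' ⊢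
      generalize σ ((r k : ℂ) • (wd t (p ++ [Sum.inr k]) * wd (comb e r t) W)) = y2 at hS' ⊢
      calc ‖x1 + x2 - (y1 + y2)‖ = ‖(x1 - y1) + (x2 - y2)‖ := by congr 1; ring
        _ ≤ ‖x1 - y1‖ + ‖x2 - y2‖ := norm_add_le _ _
        _ ≤ _ := by linarith
    · have hA := ih (p ++ [Sum.inl a, Sum.inl b, Sum.inl c]) (by simp; omega)
      have hB := ih (p ++ [Sum.inl c, Sum.inl b, Sum.inl a]) (by simp; omega)
      have es : wd s p * wd (comb e r s) (k :: W) =
          wd s (p ++ [Sum.inl a, Sum.inl b, Sum.inl c]) * wd (comb e r s) W +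
          wd s (p ++ [Sum.inl c, Sum.inl b, Sum.inl a]) * wd (comb e r s) W +
          (r k : ℂ) • (wd s (p ++ [Sum.inr k]) * wd (comb e r s) W) := by
        rw [wd_cons, wd_append, wd_append, wd_append, wd_singleton, comb, hek]
        simp only [Tc, Sum.elim_inr, add_mul, mul_add, smul_mul_assoc, mul_smul_comm, mul_assoc,
          wd_cons, wd_nil, mul_one]
      have et : wd t p * wd (comb e r t) (k :: W) =
          wd t (p ++ [Sum.inl a, Sum.inl b, Sum.inl c]) * wd (comb e r t) W +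
          wd t (p ++ [Sum.inl c, Sum.inl b, Sum.inl a]) * wd (comb e r t) W +
          (r k : ℂ) • (wd t (p ++ [Sum.inr k]) * wd (comb e r t) W) := by
        rw [wd_cons, wd_append, wd_append, wd_append, wd_singleton, comb, hek]
        simp only [Tc, Sum.elim_inr, add_mul, mul_add, smul_mul_assoc, mul_smul_comm, mul_assoc,
          wd_cons, wd_nil, mul_one]
      rw [es, et, map_add, map_add, map_add, map_add, hgoal]
      generalize τ (wd s (p ++ [Sum.inl a, Sum.inl b, Sum.inl c]) * wd (comb e r s) W) = x1 at hA ⊢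
      generalize σ (wd t (p ++ [Sum.inl a, Sum.inl b, Sum.inl c]) * wd (comb e r t) W) = y1 at hA ⊢
      generalize τ (wd s (p ++ [Sum.inl c, Sum.inl b, Sum.inl a]) * wd (comb e r s) W) = x3 at hB ⊢
      generalize σ (wd t (p ++ [Sum.inl c, Sum.inl b, Sum.inl a]) * wd (comb e r t) W) = y3 at hB ⊢
      generalize τ ((r k : ℂ) • (wd s (p ++ [Sum.inr k]) * wd (comb e r s) W)) = x2 at hS' ⊢
      generalize σ ((r k : ℂ) • (wd t (p ++ [Sum.inr k]) * wd (comb e r t) W)) = y2 at hS' ⊢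
      calc ‖x1 + x3 + x2 - (y1 + y3 + y2)‖ = ‖(x1 - y1) + (x3 - y3) + (x2 - y2)‖ := by
            congr 1; ring
        _ ≤ ‖x1 - y1‖ + ‖x3 - y3‖ + ‖x2 - y2‖ := norm_add₃_le
        _ ≤ _ := by linarith

/-- PROOF. More generally for a prefix `p` with `|p| + 3|W| ≤ 3K` the error of
`τ (wd s p * wd (comb e r s) W)` is `≤ 3^|W| δ`: induction on `W`, expanding the first factor in
at most three words with coefficients of modulus `≤ 1`. -/
theorem comb_error {m n : ℕ} (e : Fin n ≃ JJ m) (r : Fin n → ℝ) (hr : ∀ k, |r k| ≤ 1)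
    {A B : Type*} [Ring A] [Algebra ℂ A] [Ring B] [Algebra ℂ B] (τ : A →ₗ[ℂ] ℂ) (σ : B →ₗ[ℂ] ℂ)
    (s : Fin m ⊕ Fin n → A) (t : Fin m ⊕ Fin n → B) (K : ℕ) (δ : ℝ) (hδ : 0 ≤ δ)
    (h : ∀ w : List (Fin m ⊕ Fin n), w.length ≤ 3 * K → ‖τ (wd s w) - σ (wd t w)‖ ≤ δ)
    (W : List (Fin n)) (hW : W.length ≤ K) :
    ‖τ (wd (comb e r s) W) - σ (wd (comb e r t) W)‖ ≤ 3 ^ K * δ := by
  have h1 := fec_gen e r hr τ σ s t K δ hδ h W [] (by simp; omega)
  simp only [wd_nil, one_mul] at h1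
  refine h1.trans (mul_le_mul_of_nonneg_right ?_ hδ)
  exact pow_le_pow_right₀ (by norm_num) hW

/-- cubic combinations of matrices with norms `≤ 32` have norms `≤ 65568 = 2*32^3+32`
(`Matrix.toEuclideanCLM` is a star algebra equivalence, so norms are submultiplicative) -/
theorem comb_norm {m n d : ℕ} (e : Fin n ≃ JJ m) (r : Fin n → ℝ) (hr : ∀ k, |r k| ≤ 1)
    (M : Fin m ⊕ Fin n → Matrix (Fin d) (Fin d) ℂ)
    (hM : ∀ k, ‖Matrix.toEuclideanCLM (n := Fin d) (𝕜 := ℂ) (M k)‖ ≤ 32) (k : Fin n) :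
    ‖Matrix.toEuclideanCLM (n := Fin d) (𝕜 := ℂ) (comb e r M k)‖ ≤ 65568 := by
  have hs : ‖Matrix.toEuclideanCLM (n := Fin d) (𝕜 := ℂ) ((r k : ℂ) • M (Sum.inr k))‖ ≤ 32 := by
    rw [map_smul, norm_smul, Complex.norm_real, Real.norm_eq_abs]
    have h1 := hM (Sum.inr k)
    have h2 := hr k
    have h3 := abs_nonneg (r k)
    have h4 := norm_nonneg (Matrix.toEuclideanCLM (n := Fin d) (𝕜 := ℂ) (M (Sum.inr k)))
    nlinarith
  have hmul : ∀ x y z : Fin m ⊕ Fin n,
      ‖Matrix.toEuclideanCLM (n := Fin d) (𝕜 := ℂ) (M x * M y * M z)‖ ≤ 32 * 32 * 32 := by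
    intro x y z
    rw [map_mul, map_mul]
    refine (norm_mul_le _ _).trans ?_
    refine mul_le_mul ((norm_mul_le _ _).trans ?_) (hM z) (norm_nonneg _) (by norm_num)
    exact mul_le_mul (hM x) (hM y) (norm_nonneg _) (by norm_num)
  rw [comb, map_add]
  refine (norm_add_le _ _).trans ?_
  rcases hek : e k with a | ⟨a, b, c⟩
  · simp only [Tc, Sum.elim_inl]
    have := hM (Sum.inl a)
    linarith
  · simp only [Tc, Sum.elim_inr]
    rw [map_add]
    have h1 := hmul (Sum.inl a) (Sum.inl b) (Sum.inl c)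
    have h2 := hmul (Sum.inl c) (Sum.inl b) (Sum.inl a)
    have h3 := norm_add_le (Matrix.toEuclideanCLM (n := Fin d) (𝕜 := ℂ)
      (M (Sum.inl a) * M (Sum.inl b) * M (Sum.inl c))) (Matrix.toEuclideanCLM (n := Fin d) (𝕜 := ℂ)
      (M (Sum.inl c) * M (Sum.inl b) * M (Sum.inl a)))
    linarith

end Crest.Agent.FE
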