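import Mathlib

/-! S0118 blueprint, file FE_Gauss: product Gaussian measures, Gaussian integration by parts
for polynomials. -/

set_option autoImplicit false

namespace Crest.Agent.FE

open Finset MeasureTheory ProbabilityTheory
open scoped ENNReal NNReal

variable {P : Type} [Fintype P]

/-- product of centred Gaussians of variance `v` -/
noncomputable def gam (P : Type) [Fintype P] (v : ℝ≥0) : Measure (P → ℝ) :=
  Measure.pi fun _ => gaussianReal 0 v

instance (v : ℝ≥0) : IsProbabilityMeasure (gam P v) := by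
  unfold gam; infer_instance

/-- 1-D moments: `∫ x^(k+2) = v (k+1) ∫ x^k` (integration by parts, or from Mathlib's Gaussian
moments / mgf), and all moments are finite -/
theorem integrable_pow_gaussian (v : ℝ≥0) (k : ℕ) :
    Integrable (fun x : ℝ => x ^ k) (gaussianReal 0 v) := by
  have h := (memLp_id_gaussianReal' (μ := 0) (v := v) (k : ℝ≥0∞) (by simp)).integrable_norm_pow'
  have h2 : AEStronglyMeasurable (fun x : ℝ => x ^ k) (gaussianReal 0 v) :=
    (by fun_prop : Measurable (fun x : ℝ => x ^ k)).aestronglyMeasurable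
  refine h.mono h2 (Filter.Eventually.of_forall fun x => ?_)
  simp

theorem moment_one_gaussian (v : ℝ≥0) : ∫ x, x ∂(gaussianReal 0 v) = 0 := by
  exact integral_id_gaussianReal

private theorem hasDerivAt_pdf (v : ℝ≥0) (hv : v ≠ 0) (x : ℝ) :
    HasDerivAt (fun y : ℝ => -(v : ℝ) * gaussianPDFReal 0 v y) (x * gaussianPDFReal 0 v x) x := by
  have hv' : (v : ℝ) ≠ 0 := by exact_mod_cast hv
  have h1 : HasDerivAt (fun y : ℝ => -(y - 0) ^ 2 / (2 * (v : ℝ))) (-(x / v)) x := by
    have h := (((hasDerivAt_id x).sub_const (0 : ℝ)).pow 2).neg.div_const (2 * (v : ℝ))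
    refine h.congr_deriv ?_
    simp
    field_simp
  have h2 := (h1.exp.const_mul ((√(2 * Real.pi * v))⁻¹)).const_mul (-(v : ℝ))
  refine h2.congr_deriv ?_
  rw [gaussianPDFReal]
  field_simp

private theorem integrable_pow_mul_pdf (v : ℝ≥0) (hv : v ≠ 0) (k : ℕ) :
    Integrable (fun x : ℝ => x ^ k * gaussianPDFReal 0 v x) := by
  have h := integrable_pow_gaussian v k
  rw [gaussianReal_of_var_ne_zero _ hv, integrable_withDensity_iff_integrable_smul'
    (measurable_gaussianPDF _ _) (ae_of_all _ fun _ ↦ gaussianPDF_lt_top)] at h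
  refine h.congr (Filter.Eventually.of_forall fun x => ?_)
  simp only [toReal_gaussianPDF, smul_eq_mul]
  ring

theorem moment_gaussian (v : ℝ≥0) (k : ℕ) :
    ∫ x, x ^ (k + 2) ∂(gaussianReal 0 v) = v * (k + 1) * ∫ x, x ^ k ∂(gaussianReal 0 v) := by
  by_cases hv : v = 0
  · subst hv
    simp [gaussianReal_zero_var]
  · have hp := integrable_pow_mul_pdf v hv
    have key := integral_mul_deriv_eq_deriv_mul_of_integrable
      (u := fun x : ℝ => x ^ (k + 1)) (v := fun x : ℝ => -(v : ℝ) * gaussianPDFReal 0 v x)
      (u' := fun x : ℝ => ((k : ℝ) + 1) * x ^ k) (v' := fun x : ℝ => x * gaussianPDFReal 0 v x)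
      (fun x _ => by
        have := hasDerivAt_pow (k + 1) x
        simpa using this)
      (fun x _ => hasDerivAt_pdf v hv x)
      (by
        refine (hp (k + 2)).congr (Filter.Eventually.of_forall fun x => ?_)
        simp only [Pi.mul_apply]; ring)
      (by
        refine ((hp k).const_mul (-(v : ℝ) * (k + 1))).congr
          (Filter.Eventually.of_forall fun x => ?_)
        simp only [Pi.mul_apply]; ring)
      (by
        refine ((hp (k + 1)).const_mul (-(v : ℝ))).congr
          (Filter.Eventually.of_forall fun x => ?_)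
        simp only [Pi.mul_apply]; ring)
    rw [integral_gaussianReal_eq_integral_smul hv, integral_gaussianReal_eq_integral_smul hv]
    have e1 : ∫ x, gaussianPDFReal 0 v x • x ^ (k + 2) =
        ∫ x, x ^ (k + 1) * (x * gaussianPDFReal 0 v x) := by
      refine integral_congr_ae (Filter.Eventually.of_forall fun x => ?_)
      simp only [smul_eq_mul]; ring
    have e2 : ∫ x, (((k : ℝ) + 1) * x ^ k) * (-(v : ℝ) * gaussianPDFReal 0 v x) =
        -(v * (k + 1)) * ∫ x, gaussianPDFReal 0 v x • x ^ k := by
      rw [← integral_const_mul]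
      refine integral_congr_ae (Filter.Eventually.of_forall fun x => ?_)
      simp only [smul_eq_mul]; ring
    rw [e1, key, e2]
    ring

private theorem eval_monomial' (s : P →₀ ℕ) (a : ℂ) (g : P → ℝ) :
    MvPolynomial.eval (fun p => (g p : ℂ)) (MvPolynomial.monomial s a) =
      a * ∏ p, (g p : ℂ) ^ s p := by
  rw [MvPolynomial.eval_monomial, Finsupp.prod_fintype]
  intro i; simp

private theorem integrable_cpow (v : ℝ≥0) (k : ℕ) :
    Integrable (fun x : ℝ => (x : ℂ) ^ k) (gaussianReal 0 v) := by
  have h := (integrable_pow_gaussian v k).ofReal (𝕜 := ℂ)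
  refine h.congr (Filter.Eventually.of_forall fun x => ?_)
  simp

/-- polynomials are integrable (monomials: `Integrable.fintype_prod`) -/
theorem integrable_eval (v : ℝ≥0) (f : MvPolynomial P ℂ) :
    Integrable (fun g : P → ℝ => MvPolynomial.eval (fun p => (g p : ℂ)) f) (gam P v) := by
  induction f using MvPolynomial.induction_on' with
  | monomial s a =>
    simp only [eval_monomial']
    refine Integrable.const_mul ?_ a
    exact Integrable.fintype_prod (f := fun (p : P) (x : ℝ) => (x : ℂ) ^ s p)
      (fun p => integrable_cpow v (s p))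
  | add p q hp hq =>
    simp only [map_add]
    exact hp.add hq

/-- the expectation functional on polynomials -/
noncomputable def EE (P : Type) [Fintype P] (v : ℝ≥0) : MvPolynomial P ℂ →ₗ[ℂ] ℂ where
  toFun f := ∫ g, MvPolynomial.eval (fun p => (g p : ℂ)) f ∂(gam P v)
  map_add' := by
    intro f g
    simp only [map_add]
    exact integral_add (integrable_eval v f) (integrable_eval v g)
  map_smul' := by
    intro c f
    simp only [MvPolynomial.smul_eval, RingHom.id_apply, smul_eq_mul]
    exact integral_const_mul _ _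

theorem EE_apply (v : ℝ≥0) (f : MvPolynomial P ℂ) :
    EE P v f = ∫ g, MvPolynomial.eval (fun p => (g p : ℂ)) f ∂(gam P v) := rfl

theorem EE_one (v : ℝ≥0) : EE P v 1 = 1 := by
  rw [EE_apply]
  simp

private theorem EE_monomial (v : ℝ≥0) (s : P →₀ ℕ) (a : ℂ) :
    EE P v (MvPolynomial.monomial s a) =
      a * ∏ p, ((∫ x, x ^ s p ∂(gaussianReal 0 v) : ℝ) : ℂ) := by
  rw [EE_apply]
  simp only [eval_monomial']
  rw [integral_const_mul]
  congr 1
  have h := integral_fintype_prod_eq_prod (𝕜 := ℂ) (μ := fun _ : P => gaussianReal 0 v)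
    (fun (p : P) (x : ℝ) => (x : ℂ) ^ s p)
  unfold gam
  rw [h]
  refine Finset.prod_congr rfl fun p _ => ?_
  rw [← integral_complex_ofReal]
  refine integral_congr_ae (Filter.Eventually.of_forall fun x => ?_)
  simp

/-- Gaussian integration by parts: `E[X_p f] = v E[∂_p f]`. PROOF: linear in `f`, so `f` a
monomial; the expectation of a monomial is the product of 1-D moments
(`integral_fintype_prod_eq_prod`), then `moment_gaussian`/`moment_one_gaussian`. -/
theorem EE_X_mul [DecidableEq P] (v : ℝ≥0) (p : P) (f : MvPolynomial P ℂ) :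
    EE P v (MvPolynomial.X p * f) = v * EE P v (MvPolynomial.pderiv p f) := by
  induction f using MvPolynomial.induction_on' with
  | monomial s a =>
    rw [MvPolynomial.pderiv_monomial, MvPolynomial.X, MvPolynomial.monomial_mul, EE_monomial,
      EE_monomial]
    rw [← Finset.mul_prod_erase Finset.univ _ (Finset.mem_univ p),
      ← Finset.mul_prod_erase (a := p) Finset.univ
        (fun q => ((∫ x, x ^ ((s - Finsupp.single p 1 : P →₀ ℕ) q) ∂(gaussianReal 0 v) : ℝ) : ℂ))
        (Finset.mem_univ p)]
    have h1 : ∏ q ∈ Finset.univ.erase p,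
        ((∫ x, x ^ ((Finsupp.single p 1 + s : P →₀ ℕ) q) ∂(gaussianReal 0 v) : ℝ) : ℂ) =
        ∏ q ∈ Finset.univ.erase p, ((∫ x, x ^ s q ∂(gaussianReal 0 v) : ℝ) : ℂ) := by
      refine Finset.prod_congr rfl fun q hq => ?_
      rw [Finset.mem_erase] at hq
      rw [Finsupp.add_apply, Finsupp.single_eq_of_ne hq.1, zero_add]
    have h2 : ∏ q ∈ Finset.univ.erase p,
        ((∫ x, x ^ ((s - Finsupp.single p 1 : P →₀ ℕ) q) ∂(gaussianReal 0 v) : ℝ) : ℂ) =
        ∏ q ∈ Finset.univ.erase p, ((∫ x, x ^ s q ∂(gaussianReal 0 v) : ℝ) : ℂ) := by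
      refine Finset.prod_congr rfl fun q hq => ?_
      rw [Finset.mem_erase] at hq
      rw [Finsupp.tsub_apply, Finsupp.single_eq_of_ne hq.1, Nat.sub_zero]
    rw [h1, h2, Finsupp.add_apply, Finsupp.single_eq_same, Finsupp.tsub_apply,
      Finsupp.single_eq_same]
    rcases Nat.eq_zero_or_pos (s p) with h | h
    · rw [h]
      have h3 := moment_one_gaussian v
      simp [h3]
    · obtain ⟨k, hk⟩ : ∃ k, s p = k + 1 := ⟨s p - 1, by omega⟩
      rw [hk, show 1 + (k + 1) = k + 2 by ring, moment_gaussian, show k + 1 - 1 = k by omega]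
      push_cast
      ring
  | add f g hf hg =>
    rw [mul_add, map_add, map_add, map_add, hf, hg]
    ring

end Crest.Agent.FE
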