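import Mathlib
import Crest.Agent.FE_Gauss

/-! S0118 blueprint, file FE_GaussVol: Gaussian measure versus volume, slices. -/

set_option autoImplicit false

namespace Crest.Agent.FE

open Finset MeasureTheory ProbabilityTheory
open scoped ENNReal NNReal

variable {P : Type} [Fintype P]

private theorem pi_smul_volume (c : P → ℝ≥0) :
    Measure.pi (fun p => c p • (volume : Measure ℝ)) = (∏ p, c p) • (volume : Measure (P → ℝ)) := by
  refine Measure.pi_eq fun s _ => ?_
  rw [Measure.smul_apply, volume_pi_pi]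
  simp only [Measure.smul_apply, ENNReal.smul_def, smul_eq_mul]
  rw [Finset.prod_mul_distrib, ENNReal.ofNNReal_finsetProd]

private theorem pi_le_pi (μ ν : P → Measure ℝ) [∀ p, SigmaFinite (μ p)] (h : ∀ p, μ p ≤ ν p)
    (G : Set (P → ℝ)) (hG : MeasurableSet G) : Measure.pi μ G ≤ Measure.pi ν G := by
  have h1 : (Measure.pi μ).toOuterMeasure ≤
      OuterMeasure.pi (fun p => (ν p).toOuterMeasure) := by
    rw [OuterMeasure.le_pi]
    intro s _
    have h2 : (Measure.pi μ).toOuterMeasure (Set.pi Set.univ s) = ∏ p, μ p (s p) :=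
      Measure.pi_pi μ s
    rw [h2]
    exact Finset.prod_le_prod' fun p _ => h p (s p)
  have h3 : Measure.pi ν G = OuterMeasure.pi (fun p => (ν p).toOuterMeasure) G := by
    rw [Measure.pi_def, toMeasure_apply _ _ hG]
  rw [h3]
  exact h1 G

private theorem gaussian_le (v : ℝ≥0) (hv : 0 < v) :
    gaussianReal 0 v ≤ Real.toNNReal ((√(2 * Real.pi * v))⁻¹) • (volume : Measure ℝ) := by
  rw [gaussianReal_of_var_ne_zero _ hv.ne']
  have h1 : (volume : Measure ℝ).withDensity (gaussianPDF 0 v) ≤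
      volume.withDensity (fun _ => ENNReal.ofReal ((√(2 * Real.pi * v))⁻¹)) := by
    refine withDensity_mono (ae_of_all _ fun x => ?_)
    rw [gaussianPDF_def]
    apply ENNReal.ofReal_le_ofReal
    rw [gaussianPDFReal]
    have : Real.exp (-(x - 0) ^ 2 / (2 * v)) ≤ 1 := by
      apply Real.exp_le_one_iff.mpr
      have h2 : 0 ≤ (x - 0) ^ 2 / (2 * (v : ℝ)) := by positivity
      have h3 : -(x - 0) ^ 2 / (2 * (v : ℝ)) = -((x - 0) ^ 2 / (2 * (v : ℝ))) := by ring
      rw [h3]; linarith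
    calc (√(2 * Real.pi * v))⁻¹ * Real.exp (-(x - 0) ^ 2 / (2 * v))
        ≤ (√(2 * Real.pi * v))⁻¹ * 1 :=
          mul_le_mul_of_nonneg_left this (by positivity)
      _ = _ := mul_one _
  rw [withDensity_const] at h1
  exact h1

/-- the density of `gam P v` is at most `(2πv)^{-|P|/2}` -/
theorem gam_le_volume (v : ℝ≥0) (hv : 0 < v) (G : Set (P → ℝ)) (hG : MeasurableSet G) :
    gam P v G ≤ ENNReal.ofReal ((2 * Real.pi * v) ^ (-(Fintype.card P : ℝ) / 2)) * volume G := by
  have hv' : (0 : ℝ) < v := by exact_mod_cast hv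
  have h1 := pi_le_pi (fun _ : P => gaussianReal 0 v)
    (fun _ : P => Real.toNNReal ((√(2 * Real.pi * v))⁻¹) • (volume : Measure ℝ))
    (fun _ => gaussian_le v hv) G hG
  rw [pi_smul_volume, Finset.prod_const, Finset.card_univ, Measure.smul_apply,
    ENNReal.smul_def, smul_eq_mul] at h1
  refine h1.trans (le_of_eq ?_)
  congr 1
  rw [ENNReal.ofReal, ENNReal.coe_inj, ← Real.toNNReal_pow (by positivity)]
  congr 1
  have h2 : (0 : ℝ) ≤ 2 * Real.pi * v := by positivity
  rw [Real.sqrt_eq_rpow, ← Real.rpow_neg h2, ← Real.rpow_natCast, ← Real.rpow_mul h2]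
  congr 1
  ring

/-- volume of an affine image of a set of Gaussian measure at least `1/2` -/
theorem vol_of_gauss (v : ℝ≥0) (hv : 0 < v) (G : Set (P → ℝ)) (hG : MeasurableSet G)
    (h : ENNReal.ofReal (1 / 2) ≤ gam P v G) (b c : P → ℝ) (hc : ∀ p, 0 < c p) :
    ENNReal.ofReal (1 / 2 * (∏ p, c p) * (2 * Real.pi * v) ^ ((Fintype.card P : ℝ) / 2)) ≤
      volume {x : P → ℝ | (fun p => (x p - b p) / c p) ∈ G} := by
  have hv' : (0 : ℝ) < v := by exact_mod_cast hv
  have hmap : ∀ p, (volume : Measure ℝ).map (fun x => (x - b p) / c p) =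
      Real.toNNReal (c p) • (volume : Measure ℝ) := by
    intro p
    have h1 : (fun x : ℝ => (x - b p) / c p) = (fun x => (c p)⁻¹ * x) ∘ (fun x => x - b p) := by
      funext x
      simp only [Function.comp]
      rw [div_eq_inv_mul]
    rw [h1, ← Measure.map_map (by fun_prop) (by fun_prop)]
    have h2 : Measure.map (fun x : ℝ => x - b p) volume = volume :=
      (measurePreserving_sub_right (volume : Measure ℝ) (b p)).map_eq
    rw [h2, Real.map_volume_mul_left (inv_ne_zero (hc p).ne'), inv_inv, abs_of_pos (hc p)]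
    rfl
  have hsig : ∀ p, SigmaFinite ((volume : Measure ℝ).map (fun x => (x - b p) / c p)) := by
    intro p; rw [hmap]; infer_instance
  have h1 := Measure.pi_map_pi (μ := fun _ : P => (volume : Measure ℝ))
    (f := fun (p : P) (x : ℝ) => (x - b p) / c p) (fun p => by fun_prop)
  simp only [hmap] at h1
  rw [pi_smul_volume] at h1
  have h2 : volume {x : P → ℝ | (fun p => (x p - b p) / c p) ∈ G} =
      (Measure.map (fun (x : P → ℝ) p => (x p - b p) / c p) (Measure.pi fun _ => volume)) G := by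
    rw [Measure.map_apply (by fun_prop) hG]
    rfl
  rw [h2, h1, Measure.smul_apply, ENNReal.smul_def, smul_eq_mul]
  have h3 : ((∏ p, Real.toNNReal (c p) : ℝ≥0) : ℝ≥0∞) = ENNReal.ofReal (∏ p, c p) := by
    rw [ENNReal.ofReal_prod_of_nonneg (fun p _ => (hc p).le), ENNReal.ofNNReal_finsetProd]
    rfl
  rw [h3]
  have hprod : 0 < ∏ p, c p := Finset.prod_pos fun p _ => hc p
  have ha : (0 : ℝ) < 2 * Real.pi * v := by positivity
  have h4 : ENNReal.ofReal (1 / 2 * (∏ p, c p) * (2 * Real.pi * v) ^ ((Fintype.card P : ℝ) / 2)) =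
      ENNReal.ofReal (∏ p, c p) * (ENNReal.ofReal ((2 * Real.pi * v) ^ ((Fintype.card P : ℝ) / 2)) *
        ENNReal.ofReal (1 / 2)) := by
    rw [← ENNReal.ofReal_mul (by positivity), ← ENNReal.ofReal_mul (by positivity)]
    congr 1
    ring
  rw [h4]
  gcongr
  have h5 := h.trans (gam_le_volume v hv G hG)
  calc ENNReal.ofReal ((2 * Real.pi * v) ^ ((Fintype.card P : ℝ) / 2)) * ENNReal.ofReal (1 / 2)
      ≤ ENNReal.ofReal ((2 * Real.pi * v) ^ ((Fintype.card P : ℝ) / 2)) *
        (ENNReal.ofReal ((2 * Real.pi * v) ^ (-(Fintype.card P : ℝ) / 2)) * volume G) := by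
        gcongr
    _ = volume G := by
        rw [← mul_assoc, ← ENNReal.ofReal_mul (by positivity), ← Real.rpow_add ha]
        have : (Fintype.card P : ℝ) / 2 + -(Fintype.card P : ℝ) / 2 = 0 := by ring
        rw [this, Real.rpow_zero, ENNReal.ofReal_one, one_mul]

/-- good slices (Fubini for `gam (I₁ ⊕ I₂) = gam I₁ ⊗ gam I₂`) -/
theorem exists_slice {I₁ I₂ : Type} [Fintype I₁] [Fintype I₂] (v : ℝ≥0)
    (G : Set (I₁ ⊕ I₂ → ℝ)) (hG : MeasurableSet G)
    (h : ENNReal.ofReal (1 / 2) ≤ gam (I₁ ⊕ I₂) v G) :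
    ∃ y : I₁ → ℝ, ENNReal.ofReal (1 / 2) ≤ gam I₂ v {y' | Sum.elim y y' ∈ G} := by
  have hmp := measurePreserving_sumPiEquivProdPi_symm (X := fun _ : I₁ ⊕ I₂ => ℝ)
    (fun _ : I₁ ⊕ I₂ => gaussianReal 0 v)
  have h1 : gam (I₁ ⊕ I₂) v G = ((gam I₁ v).prod (gam I₂ v))
      ((MeasurableEquiv.sumPiEquivProdPi (fun _ : I₁ ⊕ I₂ => ℝ)).symm ⁻¹' G) := by
    unfold gam
    rw [← hmp.map_eq, Measure.map_apply hmp.measurable hG]
  have hmeas : MeasurableSet ((MeasurableEquiv.sumPiEquivProdPi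
      (fun _ : I₁ ⊕ I₂ => ℝ)).symm ⁻¹' G) := hmp.measurable hG
  rw [Measure.prod_apply hmeas] at h1
  obtain ⟨y, hy⟩ := exists_lintegral_le (μ := gam I₁ v)
    (f := fun y => gam I₂ v (Prod.mk y ⁻¹' ((MeasurableEquiv.sumPiEquivProdPi
      (fun _ : I₁ ⊕ I₂ => ℝ)).symm ⁻¹' G))) (by rw [← h1]; exact measure_ne_top _ _)
  refine ⟨y, (h.trans (h1.le.trans hy)).trans (le_of_eq ?_)⟩
  congr 1

end Crest.Agent.FE
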