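import Mathlib
import Crest.Agent.FE_Herm

/-! S0118 blueprint, file FE_Fierz: completeness relation of the orthonormal basis `Bp`. -/

set_option autoImplicit false

namespace Crest.Agent.FE

open Finset Crest.OpAlg Matrix

variable {d : ℕ}

theorem Fierz_Bp_apply (p : Fin d × Fin d) (i j : Fin d) :
    Bp p i j = if i = j then (if p = (i, i) then 1 else 0)
      else if i < j then ((if p = (i, j) then 1 else 0) + (if p = (j, i) then 1 else 0) * Complex.I) /
        (√2 : ℂ)
      else ((if p = (j, i) then 1 else 0) - (if p = (i, j) then 1 else 0) * Complex.I) / (√2 : ℂ) := by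
  unfold Bp hermitianOfCoords
  have h : ∀ q : Fin d × Fin d, (((EuclideanSpace.single p (1 : ℝ) : EuclideanSpace ℝ (Fin d × Fin d)) q : ℝ) : ℂ) =
      if p = q then 1 else 0 := by
    intro q
    rw [EuclideanSpace.single_apply]
    by_cases hq : p = q
    · simp [hq]
    · rw [if_neg hq, if_neg (fun e => hq e.symm)]
      simp
  simp only [h]

theorem Fierz_sum (i j : Fin d) (f : Fin d × Fin d → ℂ) :
    ∑ p : Fin d × Fin d, Bp p i j * f p = if i = j then f (i, i)
      else if i < j then (f (i, j) + f (j, i) * Complex.I) / (√2 : ℂ)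
      else (f (j, i) - f (i, j) * Complex.I) / (√2 : ℂ) := by
  simp only [Fierz_Bp_apply]
  split_ifs with h1 h2
  · simp [ite_mul]
  · have : ∀ p : Fin d × Fin d, ((if p = (i, j) then (1 : ℂ) else 0) +
        (if p = (j, i) then 1 else 0) * Complex.I) / (√2 : ℂ) * f p =
        (if p = (i, j) then f p / (√2 : ℂ) else 0) + (if p = (j, i) then f p * Complex.I / (√2 : ℂ) else 0) := by
      intro p
      split_ifs <;> ring
    simp only [this]
    rw [Finset.sum_add_distrib]
    simp only [Finset.sum_ite_eq', Finset.mem_univ, if_true]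
    ring
  · have : ∀ p : Fin d × Fin d, ((if p = (j, i) then (1 : ℂ) else 0) -
        (if p = (i, j) then 1 else 0) * Complex.I) / (√2 : ℂ) * f p =
        (if p = (j, i) then f p / (√2 : ℂ) else 0) + (if p = (i, j) then - (f p * Complex.I / (√2 : ℂ)) else 0) := by
      intro p
      split_ifs <;> ring
    simp only [this]
    rw [Finset.sum_add_distrib]
    simp only [Finset.sum_ite_eq', Finset.mem_univ, if_true]
    ring

/-- Fierz / completeness relation of the orthonormal basis `Bp` of hermitian matrices: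
`∑_p (B_p)_{ij} (B_p)_{kl} = δ_{il} δ_{jk}` (the sum over `p = (a,a)` and over the pairs
`p = (a,b), (b,a)`, `a < b`) -/
theorem fierz (i j k l : Fin d) :
    ∑ p : Fin d × Fin d, Bp p i j * Bp p k l = if i = l ∧ j = k then 1 else 0 := by
  rw [Fierz_sum]
  have h2 : (√2 : ℂ) * (√2 : ℂ) = 2 := by
    rw [← Complex.ofReal_mul, Real.mul_self_sqrt (by norm_num)]
    norm_num
  have h2' : (√2 : ℂ) ≠ 0 := by
    intro h
    rw [h] at h2
    norm_num at h2
  simp only [Fierz_Bp_apply, Prod.mk.injEq]
  by_cases hij : i = j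
  · subst hij
    by_cases hkl : k = l
    · subst hkl
      by_cases hik : i = k
      · simp [hik]
      · simp [hik]
    · have h3 : ¬ (i = l ∧ i = k) := fun h => hkl (h.2.symm.trans h.1)
      have h4 : ¬ (i = k ∧ i = l) := fun h => hkl (h.1.symm.trans h.2)
      simp [hkl, h3, h4]
  · by_cases hkl : k = l
    · subst hkl
      have h3 : ¬ (i = k ∧ j = k) := fun h => hij (h.1.trans h.2.symm)
      have h4 : ¬ (j = k ∧ i = k) := fun h => hij (h.2.trans h.1.symm)
      simp [hij, h3, h4]
    · by_cases h5 : i = k ∧ j = l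
      · obtain ⟨rfl, rfl⟩ := h5
        have h6 : ¬ (i = j ∧ j = i) := fun h => hij h.1
        have h7 : ¬ (j = i ∧ i = j) := fun h => hij h.2
        rcases lt_or_gt_of_ne hij with hlt | hgt
        · simp only [hij, hlt, if_false, if_true, h6, h7, and_self]
          field_simp
          simp
        · have hn : ¬ i < j := not_lt.2 hgt.le
          simp only [hij, hn, if_false, if_true, h6, h7, and_self]
          field_simp
          simp
      · by_cases h6 : i = l ∧ j = k
        · obtain ⟨rfl, rfl⟩ := h6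
          have h7 : ¬ j = i := fun h => hij h.symm
          have h8 : ¬ (i = j ∧ j = i) := fun h => hij h.1
          have h9 : ¬ (j = i ∧ i = j) := fun h => hij h.2
          rcases lt_or_gt_of_ne hij with hlt | hgt
          · have hn : ¬ j < i := not_lt.2 hlt.le
            simp only [hij, hlt, hn, if_false, if_true, h7, h8, h9, and_self]
            field_simp
            rw [sq, h2]
            simp
            norm_num
          · have hn : ¬ i < j := not_lt.2 hgt.le
            simp only [hij, hgt, hn, if_false, if_true, h7, h8, h9, and_self]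
            field_simp
            rw [sq, h2]
            simp
            norm_num
        · have h7 : ¬ (j = k ∧ i = l) := fun h => h6 ⟨h.2, h.1⟩
          have h8 : ¬ (j = l ∧ i = k) := fun h => h5 ⟨h.2, h.1⟩
          simp [hij, hkl, h5, h6, h7, h8]

theorem Fierz_contract {R : Type*} [CommRing R] (b : Fin d × Fin d → Fin d → Fin d → R)
    (hb : ∀ i j k l : Fin d, ∑ p : Fin d × Fin d, b p i j * b p k l = if i = l ∧ j = k then 1 else 0)
    (f : Fin d → Fin d → Fin d → Fin d → R) :
    ∑ p : Fin d × Fin d, ∑ i, ∑ j, ∑ k, ∑ l, f i j k l * (b p i j * b p k l) =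
      ∑ i, ∑ j, f i j j i := by
  rw [Finset.sum_comm]
  refine Finset.sum_congr rfl fun i _ => ?_
  rw [Finset.sum_comm]
  refine Finset.sum_congr rfl fun j _ => ?_
  rw [Finset.sum_comm]
  have h : ∀ k : Fin d, ∑ p : Fin d × Fin d, ∑ l, f i j k l * (b p i j * b p k l) =
      if j = k then f i j k i else 0 := by
    intro k
    rw [Finset.sum_comm]
    simp only [← Finset.mul_sum, hb]
    by_cases hjk : j = k
    · simp [hjk]
    · simp [hjk]
  simp only [h]
  simp

section alg
variable {R : Type*} [CommRing R] [Algebra ℂ R]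

theorem Fierz_alg (i j k l : Fin d) :
    ∑ p : Fin d × Fin d, algebraMap ℂ R (Bp p i j) * algebraMap ℂ R (Bp p k l) =
      if i = l ∧ j = k then 1 else 0 := by
  simp only [← map_mul]
  rw [← map_sum, fierz]
  split_ifs <;> simp

/-- `∑_p B_p A B_p = Tr(A) 1` over any commutative `ℂ`-algebra -/
theorem sum_Bp_mul_mul (A : Matrix (Fin d) (Fin d) R) :
    ∑ p : Fin d × Fin d, (Bp p).map (algebraMap ℂ R) * A * (Bp p).map (algebraMap ℂ R) =
      A.trace • (1 : Matrix (Fin d) (Fin d) R) := by
  ext i l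
  rw [Matrix.sum_apply]
  have h : ∀ p : Fin d × Fin d, ((Bp p).map (algebraMap ℂ R) * A * (Bp p).map (algebraMap ℂ R)) i l =
      ∑ k, ∑ j, A j k * (algebraMap ℂ R (Bp p i j) * algebraMap ℂ R (Bp p k l)) := by
    intro p
    rw [Matrix.mul_apply]
    refine Finset.sum_congr rfl fun k _ => ?_
    rw [Matrix.mul_apply, Finset.sum_mul]
    refine Finset.sum_congr rfl fun j _ => ?_
    rw [Matrix.map_apply, Matrix.map_apply]
    ring
  simp only [h]
  rw [Finset.sum_comm]
  have h2 : ∀ k : Fin d, ∑ p : Fin d × Fin d, ∑ j, A j k * (algebraMap ℂ R (Bp p i j) *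
      algebraMap ℂ R (Bp p k l)) = if i = l then A k k else 0 := by
    intro k
    rw [Finset.sum_comm]
    simp only [← Finset.mul_sum, Fierz_alg]
    by_cases hil : i = l
    · simp [hil]
    · simp [hil]
  simp only [h2]
  rw [Matrix.smul_apply, Matrix.trace]
  by_cases hil : i = l
  · subst hil
    simp
  · simp [hil, Matrix.one_apply_ne hil]

/-- `∑_p Tr(B_p A) Tr(B_p C) = Tr(A C)` -/
theorem sum_trace_Bp (A C : Matrix (Fin d) (Fin d) R) :
    ∑ p : Fin d × Fin d, ((Bp p).map (algebraMap ℂ R) * A).trace *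
      ((Bp p).map (algebraMap ℂ R) * C).trace = (A * C).trace := by
  have h : ∀ p : Fin d × Fin d, ((Bp p).map (algebraMap ℂ R) * A).trace *
      ((Bp p).map (algebraMap ℂ R) * C).trace =
      ∑ i, ∑ j, ∑ k, ∑ l, (A j i * C l k) *
        (algebraMap ℂ R (Bp p i j) * algebraMap ℂ R (Bp p k l)) := by
    intro p
    simp only [Matrix.trace, Matrix.diag_apply, Matrix.mul_apply, Matrix.map_apply,
      Finset.sum_mul]
    refine Finset.sum_congr rfl fun i _ => Finset.sum_congr rfl fun j _ => ?_
    rw [Finset.mul_sum]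
    refine Finset.sum_congr rfl fun k _ => ?_
    rw [Finset.mul_sum]
    refine Finset.sum_congr rfl fun l _ => ?_
    ring
  simp only [h]
  rw [Fierz_contract (fun p i j => algebraMap ℂ R (Bp p i j)) Fierz_alg
    (fun i j k l => A j i * C l k)]
  simp only [Matrix.trace, Matrix.diag_apply, Matrix.mul_apply]
  rw [Finset.sum_comm]

/-- `∑_p Tr(B_p A B_p C) = Tr(A) Tr(C)` -/
theorem sum_trace_Bp' (A C : Matrix (Fin d) (Fin d) R) :
    ∑ p : Fin d × Fin d, ((Bp p).map (algebraMap ℂ R) * A *
      ((Bp p).map (algebraMap ℂ R) * C)).trace = A.trace * C.trace := by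
  have h : ∀ p : Fin d × Fin d, ((Bp p).map (algebraMap ℂ R) * A *
      ((Bp p).map (algebraMap ℂ R) * C)) = ((Bp p).map (algebraMap ℂ R) * A *
      (Bp p).map (algebraMap ℂ R)) * C := by
    intro p
    simp only [Matrix.mul_assoc]
  simp only [h]
  rw [← Matrix.trace_sum, ← Finset.sum_mul, sum_Bp_mul_mul, Matrix.smul_mul, Matrix.one_mul,
    Matrix.trace_smul, smul_eq_mul]

end alg

theorem Fierz_Bp_conj (p : Fin d × Fin d) (i j : Fin d) :
    starRingEnd ℂ (Bp p i j) = Bp p j i := by
  have h : (Bp p).IsHermitian := isHermitian_hermitianOfCoords _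
  have := h.apply j i
  rw [← this]
  rfl

/-- `∑_p |⟨x, B_p y⟩|² = ‖x‖² ‖y‖²` -/
theorem sum_inner_Bp (x y : Fin d → ℂ) :
    ∑ p : Fin d × Fin d, ‖star x ⬝ᵥ (Bp p) *ᵥ y‖ ^ 2 =
      (∑ i, ‖x i‖ ^ 2) * ∑ i, ‖y i‖ ^ 2 := by
  have hz : ∀ p : Fin d × Fin d, star x ⬝ᵥ (Bp p) *ᵥ y =
      ∑ i, ∑ j, starRingEnd ℂ (x i) * y j * Bp p i j := by
    intro p
    simp only [dotProduct, Matrix.mulVec, Pi.star_apply, Finset.mul_sum]
    refine Finset.sum_congr rfl fun i _ => Finset.sum_congr rfl fun j _ => ?_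
    simp only [RCLike.star_def]
    ring
  have hz' : ∀ p : Fin d × Fin d, starRingEnd ℂ (star x ⬝ᵥ (Bp p) *ᵥ y) =
      ∑ k, ∑ l, starRingEnd ℂ (y k) * x l * Bp p k l := by
    intro p
    rw [hz p, map_sum, Finset.sum_comm]
    refine Finset.sum_congr rfl fun i _ => ?_
    rw [map_sum]
    refine Finset.sum_congr rfl fun j _ => ?_
    rw [map_mul, map_mul, Fierz_Bp_conj, Complex.conj_conj]
    ring
  have hc : ((∑ p : Fin d × Fin d, ‖star x ⬝ᵥ (Bp p) *ᵥ y‖ ^ 2 : ℝ) : ℂ) =
      (((∑ i, ‖x i‖ ^ 2) * ∑ i, ‖y i‖ ^ 2 : ℝ) : ℂ) := by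
    push_cast
    have h1 : ∀ p : Fin d × Fin d, ((‖star x ⬝ᵥ (Bp p) *ᵥ y‖ : ℝ) : ℂ) ^ 2 =
        ∑ i, ∑ j, ∑ k, ∑ l, (starRingEnd ℂ (x i) * y j * (starRingEnd ℂ (y k) * x l)) *
          (Bp p i j * Bp p k l) := by
      intro p
      rw [← Complex.mul_conj', hz' p, hz p]
      rw [Finset.sum_mul]
      refine Finset.sum_congr rfl fun i _ => ?_
      rw [Finset.sum_mul]
      refine Finset.sum_congr rfl fun j _ => ?_
      rw [Finset.mul_sum]
      refine Finset.sum_congr rfl fun k _ => ?_
      rw [Finset.mul_sum]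
      refine Finset.sum_congr rfl fun l _ => ?_
      ring
    simp only [h1]
    rw [Fierz_contract (fun p i j => Bp p i j) fierz
      (fun i j k l => starRingEnd ℂ (x i) * y j * (starRingEnd ℂ (y k) * x l)), Finset.sum_mul_sum]
    refine Finset.sum_congr rfl fun i _ => Finset.sum_congr rfl fun j _ => ?_
    rw [← Complex.mul_conj', ← Complex.mul_conj']
    ring
  exact_mod_cast hc

end Crest.Agent.FE
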