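import Mathlib
import Crest.Agent.FE_Gauss

/-! S0118 blueprint, file FE_GaussTail: tail of linear functionals of Gaussian vectors. -/

set_option autoImplicit false

namespace Crest.Agent.FE

open Finset MeasureTheory ProbabilityTheory
open scoped ENNReal NNReal

variable {P : Type} [Fintype P]

private theorem integrable_exp_lin (v : ℝ≥0) (c : P → ℝ) (s : ℝ) :
    Integrable (fun g : P → ℝ => Real.exp (s * ∑ p, c p * g p)) (gam P v) := by
  have h : (fun g : P → ℝ => Real.exp (s * ∑ p, c p * g p)) =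
      fun g : P → ℝ => ∏ p, (fun (p : P) (x : ℝ) => Real.exp ((s * c p) * x)) p (g p) := by
    funext g
    rw [Finset.mul_sum, Real.exp_sum]
    refine Finset.prod_congr rfl fun p _ => ?_
    simp only
    ring_nf
  rw [h]
  exact Integrable.fintype_prod (f := fun (p : P) (x : ℝ) => Real.exp ((s * c p) * x))
      (fun p => integrable_exp_mul_gaussianReal (s * c p))

private theorem mgf_lin (v : ℝ≥0) (c : P → ℝ) (s : ℝ) :
    mgf (fun g : P → ℝ => ∑ p, c p * g p) (gam P v) s =
      Real.exp (v * s ^ 2 * (∑ p, c p ^ 2) / 2) := by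
  have h : (fun g : P → ℝ => Real.exp (s * ∑ p, c p * g p)) =
      fun g : P → ℝ => ∏ p, (fun (p : P) (x : ℝ) => Real.exp ((s * c p) * x)) p (g p) := by
    funext g
    rw [Finset.mul_sum, Real.exp_sum]
    refine Finset.prod_congr rfl fun p _ => ?_
    simp only
    ring_nf
  unfold mgf
  rw [h]
  have h1 := integral_fintype_prod_eq_prod (𝕜 := ℝ) (μ := fun _ : P => gaussianReal 0 v)
    (fun (p : P) (x : ℝ) => Real.exp ((s * c p) * x))
  unfold gam
  rw [h1]
  have h2 : ∀ p : P, ∫ x, Real.exp ((s * c p) * x) ∂(gaussianReal 0 v) =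
      Real.exp (v * (s * c p) ^ 2 / 2) := by
    intro p
    have h3 := congrFun (mgf_fun_id_gaussianReal (μ := 0) (v := v)) (s * c p)
    unfold mgf at h3
    rw [h3]
    congr 1
    ring
  simp only [h2]
  rw [← Real.exp_sum]
  congr 1
  rw [Finset.mul_sum, Finset.sum_div]
  refine Finset.sum_congr rfl fun p _ => ?_
  ring

private theorem tail_one (v : ℝ≥0) (hv : 0 < v) (c : P → ℝ) (C t : ℝ) (hC : 0 < C) (ht : 0 ≤ t)
    (hc : ∑ p, c p ^ 2 ≤ C) :
    (gam P v).real {g | t ≤ ∑ p, c p * g p} ≤ Real.exp (-(t ^ 2 / (2 * v * C))) := by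
  have hv' : (0 : ℝ) < v := by exact_mod_cast hv
  have h := measure_ge_le_exp_mul_mgf (μ := gam P v) (X := fun g : P → ℝ => ∑ p, c p * g p)
    (t := t / (v * C)) t (by positivity) (integrable_exp_lin v c _)
  refine h.trans ?_
  rw [mgf_lin, ← Real.exp_add]
  apply Real.exp_le_exp.mpr
  have h1 : v * (t / (v * C)) ^ 2 * (∑ p, c p ^ 2) / 2 ≤ v * (t / (v * C)) ^ 2 * C / 2 := by
    have : 0 ≤ v * (t / (v * C)) ^ 2 := by positivity
    have := mul_le_mul_of_nonneg_left hc this
    linarith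
  have h2 : -(t / (v * C)) * t + v * (t / (v * C)) ^ 2 * C / 2 = -(t ^ 2 / (2 * v * C)) := by
    field_simp
    ring
  linarith

/-- tail of a linear functional (Chernoff; `mgf_gaussianReal`, independence of coordinates):
`P(|∑ c_p g_p| > t) ≤ 2 exp(-t²/(2 v C))` when `∑ c_p² ≤ C` -/
theorem tail_linear (v : ℝ≥0) (hv : 0 < v) (c : P → ℝ) (C t : ℝ) (hC : 0 < C) (ht : 0 ≤ t)
    (hc : ∑ p, c p ^ 2 ≤ C) :
    gam P v {g | t < |∑ p, c p * g p|} ≤ ENNReal.ofReal (2 * Real.exp (-(t ^ 2 / (2 * v * C)))) := by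
  have h1 := tail_one v hv c C t hC ht hc
  have h2 := tail_one v hv (fun p => - c p) C t hC ht (by simpa using hc)
  have hsub : {g : P → ℝ | t < |∑ p, c p * g p|} ⊆
      {g | t ≤ ∑ p, c p * g p} ∪ {g | t ≤ ∑ p, -c p * g p} := by
    intro g hg
    have hg' : t < |∑ p, c p * g p| := hg
    rcases lt_abs.mp hg' with h | h
    · left; exact h.le
    · right
      show t ≤ ∑ p, -c p * g p
      simp only [neg_mul, Finset.sum_neg_distrib]
      exact h.le
  refine (measure_mono hsub).trans ((measure_union_le _ _).trans ?_)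
  have e : ∀ S : Set (P → ℝ), gam P v S = ENNReal.ofReal ((gam P v).real S) := by
    intro S
    rw [measureReal_def, ENNReal.ofReal_toReal (measure_ne_top _ _)]
  rw [e, e, ← ENNReal.ofReal_add measureReal_nonneg measureReal_nonneg]
  apply ENNReal.ofReal_le_ofReal
  linarith

end Crest.Agent.FE
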