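import Mathlib

/-! S0118 blueprint, file FE_Net: nets of the sphere and operator norms. -/

set_option autoImplicit false

namespace Crest.Agent.FE

open Finset
open scoped InnerProductSpace

/-- a finite 1/2-net of the unit sphere with at most `25 ^ d` points, contained in the unit
sphere. PROOF: take a 1/2-separated subset of the unit sphere of maximal cardinality (the
cardinalities are bounded by `5 ^ finrank ℝ E = 25 ^ d`, `Besicovitch.card_le_of_separated`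
applied to `2 • s`, `E = EuclideanSpace ℂ (Fin d)`, `finrank ℝ E = 2 d`); by maximality it is a
1/2-net. -/
theorem exists_net (d : ℕ) : ∃ 𝒩 : Finset (EuclideanSpace ℂ (Fin d)),
    𝒩.card ≤ 25 ^ d ∧ (∀ x ∈ 𝒩, ‖x‖ = 1) ∧
    ∀ x : EuclideanSpace ℂ (Fin d), ‖x‖ = 1 → ∃ y ∈ 𝒩, ‖x - y‖ ≤ 1 / 2 := by
  classical
  have hfin : Module.finrank ℝ (EuclideanSpace ℂ (Fin d)) = 2 * d := by
    rw [finrank_real_of_complex]
    simp
  have hcard : ∀ s : Finset (EuclideanSpace ℂ (Fin d)), (∀ x ∈ s, ‖x‖ = 1) →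
      (∀ x ∈ s, ∀ y ∈ s, x ≠ y → 1 / 2 ≤ ‖x - y‖) → s.card ≤ 25 ^ d := by
    intro s hs1 hs2
    have h2 : Function.Injective (fun x : EuclideanSpace ℂ (Fin d) => (2 : ℝ) • x) := by
      intro x y hxy
      exact smul_right_injective _ (two_ne_zero) hxy
    have := Besicovitch.card_le_of_separated (s.image (fun x => (2 : ℝ) • x)) (by
      intro c hc
      obtain ⟨x, hx, rfl⟩ := Finset.mem_image.1 hc
      rw [norm_smul, hs1 x hx]; norm_num) (by
      intro c hc e he hne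
      obtain ⟨x, hx, rfl⟩ := Finset.mem_image.1 hc
      obtain ⟨y, hy, rfl⟩ := Finset.mem_image.1 he
      have hxy : x ≠ y := by
        rintro rfl; exact hne rfl
      have := hs2 x hx y hy hxy
      rw [← smul_sub, norm_smul]
      norm_num
      linarith)
    rw [Finset.card_image_of_injective _ h2, hfin, pow_mul] at this
    norm_num at this
    exact this
  let P : ℕ → Prop := fun k => ∃ s : Finset (EuclideanSpace ℂ (Fin d)), s.card = k ∧
    (∀ x ∈ s, ‖x‖ = 1) ∧ (∀ x ∈ s, ∀ y ∈ s, x ≠ y → 1 / 2 ≤ ‖x - y‖)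
  have hP0 : P 0 := ⟨∅, by simp, by simp, by simp⟩
  have hmax := Nat.findGreatest_spec (P := P) (Nat.zero_le (25 ^ d)) hP0
  obtain ⟨s, hsc, hs1, hs2⟩ := hmax
  refine ⟨s, hcard s hs1 hs2, hs1, ?_⟩
  intro x hx
  by_contra hcon
  push Not at hcon
  have hxs : x ∉ s := by
    intro hxs
    have := hcon x hxs
    simp at this
    norm_num at this
  have hP : P (s.card + 1) := by
    refine ⟨insert x s, Finset.card_insert_of_notMem hxs, ?_, ?_⟩
    · intro y hy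
      rcases Finset.mem_insert.1 hy with rfl | hy
      · exact hx
      · exact hs1 y hy
    · intro y hy z hz hyz
      rcases Finset.mem_insert.1 hy with hy' | hy'
      · rcases Finset.mem_insert.1 hz with hz' | hz'
        · exact absurd (hy'.trans hz'.symm) hyz
        · rw [hy']; exact (hcon z hz').le
      · rcases Finset.mem_insert.1 hz with hz' | hz'
        · rw [hz', norm_sub_rev]; exact (hcon y hy').le
        · exact hs2 y hy' z hz' hyz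
  have hle : s.card + 1 ≤ 25 ^ d := by
    obtain ⟨t, ht, h1, h2⟩ := hP
    rw [← ht]; exact hcard t h1 h2
  have := Nat.le_findGreatest hle hP
  omega

/-- norm from a net: `‖T‖ ≤ 4 max |⟨x, T y⟩|`. PROOF: `‖T‖ ≤ sup_{y ∈ 𝒩} ‖T y‖ + ‖T‖/2`
(write `x = y + (x - y)`), and `‖T y‖ ≤ 2 sup_{x ∈ 𝒩} |⟨x, T y⟩|` in the same way. -/
theorem norm_le_of_net {d : ℕ} (𝒩 : Finset (EuclideanSpace ℂ (Fin d)))
    (h𝒩 : ∀ x : EuclideanSpace ℂ (Fin d), ‖x‖ = 1 → ∃ y ∈ 𝒩, ‖x - y‖ ≤ 1 / 2)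
    (T : EuclideanSpace ℂ (Fin d) →L[ℂ] EuclideanSpace ℂ (Fin d)) (c : ℝ) (hc : 0 ≤ c)
    (h : ∀ x ∈ 𝒩, ∀ y ∈ 𝒩, ‖⟪x, T y⟫_ℂ‖ ≤ c) : ‖T‖ ≤ 4 * c := by
  have h1 : ∀ y ∈ 𝒩, ‖T y‖ ≤ 2 * c := by
    intro y hy
    by_cases h0 : T y = 0
    · rw [h0, norm_zero]; positivity
    have hpos : 0 < ‖T y‖ := norm_pos_iff.2 h0
    set v : EuclideanSpace ℂ (Fin d) := ((‖T y‖ : ℂ)⁻¹) • T y with hv
    have hvn : ‖v‖ = 1 := by
      rw [hv, norm_smul, norm_inv, Complex.norm_real, norm_norm]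
      exact inv_mul_cancel₀ hpos.ne'
    obtain ⟨x, hx, hxv⟩ := h𝒩 v hvn
    have hTy : T y = (‖T y‖ : ℂ) • v := by
      rw [hv, smul_smul, mul_inv_cancel₀, one_smul]
      exact_mod_cast hpos.ne'
    have hin : ‖⟪v, T y⟫_ℂ‖ = ‖T y‖ := by
      conv_lhs => rw [hTy]
      rw [inner_smul_right, inner_self_eq_norm_sq_to_K, hvn]
      simp
    have hsplit : ⟪v, T y⟫_ℂ = ⟪x, T y⟫_ℂ + ⟪v - x, T y⟫_ℂ := by
      rw [← inner_add_left]; congr 1; abel
    have hle : ‖T y‖ ≤ c + 1 / 2 * ‖T y‖ := by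
      calc ‖T y‖ = ‖⟪x, T y⟫_ℂ + ⟪v - x, T y⟫_ℂ‖ := by rw [← hsplit, hin]
        _ ≤ ‖⟪x, T y⟫_ℂ‖ + ‖⟪v - x, T y⟫_ℂ‖ := norm_add_le _ _
        _ ≤ c + ‖v - x‖ * ‖T y‖ := add_le_add (h x hx y hy) (norm_inner_le_norm _ _)
        _ ≤ c + 1 / 2 * ‖T y‖ := by gcongr
    linarith
  have h2 : ‖T‖ ≤ 2 * c + ‖T‖ / 2 := by
    refine ContinuousLinearMap.opNorm_le_of_unit_norm (𝕜 := ℂ) (by positivity) ?_
    intro x hx
    obtain ⟨y, hy, hxy⟩ := h𝒩 x hx
    have : T x = T y + T (x - y) := by rw [← map_add]; congr 1; abel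
    calc ‖T x‖ = ‖T y + T (x - y)‖ := by rw [← this]
      _ ≤ ‖T y‖ + ‖T (x - y)‖ := norm_add_le _ _
      _ ≤ 2 * c + ‖T‖ * ‖x - y‖ := add_le_add (h1 y hy) (T.le_opNorm _)
      _ ≤ 2 * c + ‖T‖ * (1 / 2) := by gcongr
      _ = 2 * c + ‖T‖ / 2 := by ring
  linarith

end Crest.Agent.FE
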