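import Mathlib
import Crest.Agent.FE_Fierz
import Crest.Agent.FE_Net
import Crest.Agent.FE_GaussTail

/-! S0118 blueprint, file FE_Norm: the operator norm of a GUE matrix is bounded with high
probability (1/2-nets). -/

set_option autoImplicit false

namespace Crest.Agent.FE

open Finset Crest.OpAlg MeasureTheory
open scoped NNReal ENNReal InnerProductSpace Matrix

theorem Norm_inner {d : ℕ} (a : EuclideanSpace ℝ (Fin d × Fin d)) (x y : EuclideanSpace ℂ (Fin d)) :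
    ⟪x, Matrix.toEuclideanCLM (n := Fin d) (𝕜 := ℂ) (hermitianOfCoords a) y⟫_ℂ =
      ∑ p, (a p : ℂ) * (star (WithLp.ofLp x) ⬝ᵥ (Bp p) *ᵥ (WithLp.ofLp y)) := by
  rw [EuclideanSpace.inner_eq_star_dotProduct, Matrix.ofLp_toEuclideanCLM, dotProduct_comm,
    hermitianOfCoords_eq_sum, Matrix.sum_mulVec, dotProduct_sum]
  refine Finset.sum_congr rfl fun p _ => ?_
  rw [Matrix.smul_mulVec, dotProduct_smul, smul_eq_mul]

theorem Norm_split {z : ℂ} (h : 8 < ‖z‖) : 5 < |z.re| ∨ 5 < |z.im| := by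
  by_contra hcon
  push Not at hcon
  obtain ⟨h1, h2⟩ := hcon
  have h3 : ‖z‖ ^ 2 = z.re ^ 2 + z.im ^ 2 := by
    rw [← Complex.normSq_eq_norm_sq, Complex.normSq_apply]
    ring
  have h4 : z.re ^ 2 ≤ 25 := by
    rw [← sq_abs]; nlinarith [abs_nonneg z.re]
  have h5 : z.im ^ 2 ≤ 25 := by
    rw [← sq_abs]; nlinarith [abs_nonneg z.im]
  nlinarith

theorem Norm_pair {κ : Type} [Fintype κ] (k : κ) {d : ℕ} (hd : 1 ≤ d)
    (z : Fin d × Fin d → ℂ) (hz : ∑ p, ‖z p‖ ^ 2 = 1) :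
    gam (κ × (Fin d × Fin d)) ((d : ℝ≥0)⁻¹)
      {g | 8 < ‖∑ p, (g (k, p) : ℂ) * z p‖} ≤
      ENNReal.ofReal (4 * Real.exp (-(25 / 2 * (d : ℝ)))) := by
  classical
  have hv : (0 : ℝ≥0) < (d : ℝ≥0)⁻¹ := by
    have : (0 : ℝ≥0) < d := by exact_mod_cast hd
    positivity
  have hd' : (0 : ℝ) < d := by exact_mod_cast hd
  -- general one-coordinate bound
  have key : ∀ c : Fin d × Fin d → ℝ, ∑ p, c p ^ 2 ≤ 1 →
      gam (κ × (Fin d × Fin d)) ((d : ℝ≥0)⁻¹) {g | 5 < |∑ p, c p * g (k, p)|} ≤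
        ENNReal.ofReal (2 * Real.exp (-(25 / 2 * (d : ℝ)))) := by
    intro c hc
    have hs : ∀ f : κ × (Fin d × Fin d) → ℝ, ∑ q : κ × (Fin d × Fin d), (if q.1 = k then f q else 0) =
        ∑ p, f (k, p) := by
      intro f
      rw [Fintype.sum_prod_type]
      simp only
      rw [Finset.sum_eq_single k]
      · simp
      · intro b _ hb
        simp [hb]
      · simp
    have h := tail_linear ((d : ℝ≥0)⁻¹) hv (fun q : κ × (Fin d × Fin d) =>
      if q.1 = k then c q.2 else 0) 1 5 one_pos (by norm_num) (by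
        have : ∀ q : κ × (Fin d × Fin d), (if q.1 = k then c q.2 else 0) ^ 2 =
            if q.1 = k then c q.2 ^ 2 else 0 := by
          intro q; split_ifs <;> simp
        simp only [this]
        rw [hs (fun q => c q.2 ^ 2)]
        exact hc)
    have e1 : ∀ g : κ × (Fin d × Fin d) → ℝ, ∑ q : κ × (Fin d × Fin d),
        (if q.1 = k then c q.2 else 0) * g q = ∑ p, c p * g (k, p) := by
      intro g
      rw [← hs (fun q => c q.2 * g q)]
      refine Finset.sum_congr rfl fun q _ => ?_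
      split_ifs <;> simp
    simp only [e1] at h
    refine h.trans (ENNReal.ofReal_le_ofReal ?_)
    have e2 : (5 : ℝ) ^ 2 / (2 * (((d : ℝ≥0)⁻¹ : ℝ≥0) : ℝ) * 1) = 25 / 2 * d := by
      push_cast
      field_simp
      norm_num
    rw [e2]
  have hre : ∀ g : κ × (Fin d × Fin d) → ℝ, (∑ p, (g (k, p) : ℂ) * z p).re =
      ∑ p, (z p).re * g (k, p) := by
    intro g
    rw [Complex.re_sum]
    refine Finset.sum_congr rfl fun p _ => ?_
    rw [Complex.re_ofReal_mul]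
    ring
  have him : ∀ g : κ × (Fin d × Fin d) → ℝ, (∑ p, (g (k, p) : ℂ) * z p).im =
      ∑ p, (z p).im * g (k, p) := by
    intro g
    rw [Complex.im_sum]
    refine Finset.sum_congr rfl fun p _ => ?_
    rw [Complex.im_ofReal_mul]
    ring
  have hzz : ∀ p, ‖z p‖ ^ 2 = (z p).re ^ 2 + (z p).im ^ 2 := by
    intro p
    rw [← Complex.normSq_eq_norm_sq, Complex.normSq_apply]
    ring
  have h1 : ∑ p, (z p).re ^ 2 ≤ 1 := by
    rw [← hz]
    refine Finset.sum_le_sum fun p _ => ?_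
    rw [hzz]
    nlinarith [sq_nonneg (z p).im]
  have h2 : ∑ p, (z p).im ^ 2 ≤ 1 := by
    rw [← hz]
    refine Finset.sum_le_sum fun p _ => ?_
    rw [hzz]
    nlinarith [sq_nonneg (z p).re]
  have hsub : {g : κ × (Fin d × Fin d) → ℝ | 8 < ‖∑ p, (g (k, p) : ℂ) * z p‖} ⊆
      {g | 5 < |∑ p, (z p).re * g (k, p)|} ∪ {g | 5 < |∑ p, (z p).im * g (k, p)|} := by
    intro g hg
    rcases Norm_split hg with h | h
    · left
      rw [hre] at h
      exact h
    · right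
      rw [him] at h
      exact h
  refine (measure_mono hsub).trans ((measure_union_le _ _).trans ?_)
  refine (add_le_add (key _ h1) (key _ h2)).trans ?_
  rw [← ENNReal.ofReal_add (by positivity) (by positivity)]
  apply ENNReal.ofReal_le_ofReal
  linarith

theorem Norm_bound {κ : Type} [Fintype κ] (k : κ) {d : ℕ} (hd : 1 ≤ d) :
    gam (κ × (Fin d × Fin d)) ((d : ℝ≥0)⁻¹)
      {g | 32 < ‖Matrix.toEuclideanCLM (n := Fin d) (𝕜 := ℂ)
        (hermitianOfCoords (WithLp.toLp 2 fun p => g (k, p)))‖} ≤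
      ENNReal.ofReal (4 * (625 * Real.exp (-(25 / 2))) ^ d) := by
  obtain ⟨𝒩, hcard, hunit, hnet⟩ := exists_net d
  set T : (κ × (Fin d × Fin d) → ℝ) → EuclideanSpace ℂ (Fin d) →L[ℂ] EuclideanSpace ℂ (Fin d) :=
    fun g => Matrix.toEuclideanCLM (n := Fin d) (𝕜 := ℂ)
        (hermitianOfCoords (WithLp.toLp 2 fun p => g (k, p))) with hT
  have hsub : {g | 32 < ‖T g‖} ⊆ ⋃ q ∈ 𝒩 ×ˢ 𝒩, {g | 8 < ‖⟪q.1, T g q.2⟫_ℂ‖} := by
    intro g hg
    by_contra hcon
    simp only [Set.mem_iUnion, Set.mem_ofPred_eq, not_exists, not_lt, Finset.mem_product] at hcon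
    have := norm_le_of_net 𝒩 hnet (T g) 8 (by norm_num) fun x hx y hy => hcon (x, y) ⟨hx, hy⟩
    have hg' : 32 < ‖T g‖ := hg
    linarith
  refine (measure_mono hsub).trans ((measure_biUnion_finset_le _ _).trans ?_)
  have hone : ∀ q ∈ 𝒩 ×ˢ 𝒩, gam (κ × (Fin d × Fin d)) ((d : ℝ≥0)⁻¹) {g | 8 < ‖⟪q.1, T g q.2⟫_ℂ‖} ≤
      ENNReal.ofReal (4 * Real.exp (-(25 / 2 * (d : ℝ)))) := by
    intro q hq
    rw [Finset.mem_product] at hq
    have hx := hunit _ hq.1
    have hy := hunit _ hq.2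
    have hz : ∑ p : Fin d × Fin d, ‖star (WithLp.ofLp q.1) ⬝ᵥ (Bp p) *ᵥ (WithLp.ofLp q.2)‖ ^ 2 = 1 := by
      rw [sum_inner_Bp, ← EuclideanSpace.norm_sq_eq, ← EuclideanSpace.norm_sq_eq, hx, hy]
      norm_num
    have h := Norm_pair k hd _ hz
    have e : ∀ g : κ × (Fin d × Fin d) → ℝ, ⟪q.1, T g q.2⟫_ℂ =
        ∑ p, (g (k, p) : ℂ) * (star (WithLp.ofLp q.1) ⬝ᵥ (Bp p) *ᵥ (WithLp.ofLp q.2)) := fun g =>
      Norm_inner _ _ _
    simp only [e]
    exact h
  refine (Finset.sum_le_sum hone).trans ?_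
  rw [Finset.sum_const, nsmul_eq_mul, Finset.card_product]
  have h1 : ((𝒩.card * 𝒩.card : ℕ) : ℝ≥0∞) ≤ ((25 ^ d * 25 ^ d : ℕ) : ℝ≥0∞) := by
    exact_mod_cast Nat.mul_le_mul hcard hcard
  refine (mul_le_mul_left h1 _).trans ?_
  have h2 : ((25 ^ d * 25 ^ d : ℕ) : ℝ≥0∞) = ENNReal.ofReal (625 ^ d : ℝ) := by
    rw [← ENNReal.ofReal_natCast]
    congr 1
    push_cast
    rw [← mul_pow]
    norm_num
  rw [h2, ← ENNReal.ofReal_mul (by positivity)]
  apply ENNReal.ofReal_le_ofReal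
  have h3 : Real.exp (-(25 / 2 * (d : ℝ))) = Real.exp (-(25 / 2)) ^ d := by
    rw [← Real.exp_nat_mul]
    congr 1
    ring
  rw [h3, mul_pow]
  exact le_of_eq (by ring)

/-- union bound. PROOF: `⟨x, M_k y⟩ = ∑_p g(k,p) ⟨x, B_p y⟩` (`hermitianOfCoords_eq_sum`),
`∑_p |⟨x, B_p y⟩|² = 1` (`sum_inner_Bp`). If `|⟨x, M y⟩| > 8` then its real or its imaginary part
exceeds `5` in absolute value, probability `≤ 4 exp(-25 d / 2)` (`tail_linear`, `v = 1/d`,
`C = 1`). `‖M‖ > 32` implies some pair of net points has `|⟨x, M y⟩| > 8`: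
`25^(2d) * 4 exp(-25 d/2) → 0` because `2 log 25 < 25/2`. -/
theorem tendsto_norm {κ : Type} [Fintype κ] (k : κ) :
    Filter.Tendsto (fun d : ℕ => gam (κ × (Fin d × Fin d)) ((d : ℝ≥0)⁻¹)
      {g | 32 < ‖Matrix.toEuclideanCLM (n := Fin d) (𝕜 := ℂ)
        (hermitianOfCoords (WithLp.toLp 2 fun p => g (k, p)))‖}) Filter.atTop (nhds 0) := by
  have hr : 625 * Real.exp (-(25 / 2)) < 1 := by
    have h1 : (2 : ℝ) ^ 12 ≤ Real.exp (25 / 2) := by
      have h2 : Real.exp 12 ≤ Real.exp (25 / 2) := Real.exp_le_exp.2 (by norm_num)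
      have h3 : (2 : ℝ) ≤ Real.exp 1 := by
        have := Real.add_one_le_exp 1
        linarith
      have h4 : Real.exp 12 = Real.exp 1 ^ 12 := by
        rw [← Real.exp_nat_mul]
        norm_num
      calc (2 : ℝ) ^ 12 ≤ Real.exp 1 ^ 12 := pow_le_pow_left₀ (by norm_num) h3 12
        _ = Real.exp 12 := h4.symm
        _ ≤ _ := h2
    rw [Real.exp_neg, ← div_eq_mul_inv, div_lt_one (Real.exp_pos _)]
    norm_num at h1 ⊢
    linarith
  have hlim : Filter.Tendsto (fun d : ℕ => ENNReal.ofReal (4 * (625 * Real.exp (-(25 / 2))) ^ d))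
      Filter.atTop (nhds 0) := by
    have h1 := (tendsto_pow_atTop_nhds_zero_of_lt_one (by positivity) hr).const_mul 4
    rw [mul_zero] at h1
    have h2 := ENNReal.tendsto_ofReal h1
    rwa [ENNReal.ofReal_zero] at h2
  refine tendsto_of_tendsto_of_tendsto_of_le_of_le' tendsto_const_nhds hlim
    (Filter.Eventually.of_forall fun d => zero_le) ?_
  filter_upwards [Filter.eventually_ge_atTop 1] with d hd
  exact Norm_bound k hd

end Crest.Agent.FE
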