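import Mathlib
import Crest.Agent.FE_Fierz
import Crest.Agent.FE_Gauss
import Crest.Agent.FE_Mom

/-! S0118 blueprint, file FE_Loop: loop equations of independent GUE matrices, at the level of
polynomials in the matrix coordinates. -/

set_option autoImplicit false

namespace Crest.Agent.FE

open Finset Crest.OpAlg MvPolynomial
open scoped NNReal

variable (κ : Type) [Fintype κ] [DecidableEq κ] (d : ℕ)

/-- polynomials in the coordinates of the matrices -/
abbrev Pol : Type := MvPolynomial (κ × (Fin d × Fin d)) ℂ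

variable {κ} {d}

/-- generic hermitian matrices -/
noncomputable def GM (k : κ) : Matrix (Fin d) (Fin d) (Pol κ d) :=
  ∑ p : Fin d × Fin d, (X (k, p) : Pol κ d) • (Bp p).map (algebraMap ℂ (Pol κ d))

/-- normalised trace of a word -/
noncomputable def trd (W : List κ) : Pol κ d := C ((d : ℂ)⁻¹) * (wd GM W).trace

/-- expectation -/
noncomputable def Ed (κ : Type) [Fintype κ] (d : ℕ) : Pol κ d →ₗ[ℂ] ℂ :=
  EE (κ × (Fin d × Fin d)) ((d : ℝ≥0)⁻¹)

theorem trd_nil (hd : 1 ≤ d) : trd ([] : List κ) = (1 : Pol κ d) := by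
  unfold trd
  rw [wd_nil, Matrix.trace_one, Fintype.card_fin]
  have h : ((d : ℕ) : Pol κ d) = C ((d : ℂ)) := by simp
  rw [h, ← C_mul, inv_mul_cancel₀ (by exact_mod_cast (by omega : d ≠ 0)), C_1]

theorem map_derivation_mul {R A : Type*} [CommSemiring R] [CommSemiring A] [Algebra R A]
    (D : Derivation R A A) {n : ℕ} (M N : Matrix (Fin n) (Fin n) A) :
    (M * N).map D = M.map D * N + M * N.map D := by
  ext i j
  simp only [Matrix.map_apply, Matrix.mul_apply, Matrix.add_apply, map_sum, Derivation.leibniz,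
    smul_eq_mul]
  rw [← Finset.sum_add_distrib]
  refine Finset.sum_congr rfl fun x _ => ?_
  ring

theorem pderiv_GM (j k : κ) (p : Fin d × Fin d) :
    (GM j : Matrix (Fin d) (Fin d) (Pol κ d)).map (pderiv (k, p)) =
      if j = k then (Bp p).map (algebraMap ℂ (Pol κ d)) else 0 := by
  refine Matrix.ext fun a b => ?_
  have h : (GM j : Matrix (Fin d) (Fin d) (Pol κ d)) a b =
      ∑ q : Fin d × Fin d, (X (j, q) : Pol κ d) * C (Bp q a b) := by
    unfold GM
    rw [Matrix.sum_apply]
    refine Finset.sum_congr rfl fun q _ => ?_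
    rw [Matrix.smul_apply, smul_eq_mul, Matrix.map_apply, MvPolynomial.algebraMap_eq]
  rw [Matrix.map_apply, h, map_sum]
  have h2 : ∀ q : Fin d × Fin d, pderiv (k, p) ((X (j, q) : Pol κ d) * C (Bp q a b)) =
      if (j, q) = (k, p) then C (Bp q a b) else 0 := by
    intro q
    rw [Derivation.leibniz, pderiv_C, smul_zero, zero_add, pderiv_X, smul_eq_mul,
      Pi.single_apply]
    by_cases hq : (j, q) = (k, p)
    · rw [if_pos hq, if_pos hq, mul_one]
    · rw [if_neg hq, if_neg hq, mul_zero]
  simp only [h2]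
  by_cases hjk : j = k
  · subst hjk
    simp only [Prod.mk.injEq, true_and]
    rw [Finset.sum_ite_eq' Finset.univ p]
    simp
  · simp [hjk]

/-- derivative of a matrix word, entrywise: `∂_{(k,p)} (GM_W) = ∑_{W = A k B} GM_A B_p GM_B` -/
theorem pderiv_word (k : κ) (p : Fin d × Fin d) (W : List κ) :
    (wd GM W : Matrix (Fin d) (Fin d) (Pol κ d)).map (pderiv (k, p)) =
      spl k (fun A B => wd GM A * (Bp p).map (algebraMap ℂ (Pol κ d)) * wd GM B) W := by
  induction W with
  | nil =>
    rw [wd_nil, spl_nil]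
    refine Matrix.ext fun a b => ?_
    rw [Matrix.map_apply, Matrix.zero_apply, Matrix.one_apply]
    split_ifs
    · exact (pderiv (k, p)).map_one_eq_zero
    · exact map_zero _
  | cons j W ih =>
    rw [wd_cons, map_derivation_mul, pderiv_GM, ih, spl_cons]
    congr 1
    · by_cases hjk : j = k
      · rw [if_pos hjk, if_pos hjk, wd_nil, Matrix.one_mul]
      · rw [if_neg hjk, if_neg hjk, Matrix.zero_mul]
    · rw [← spl_mul_left]
      refine spl_congr fun A B _ => ?_
      rw [wd_cons, Matrix.mul_assoc, Matrix.mul_assoc, Matrix.mul_assoc]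

theorem pderiv_trace (k : κ) (p : Fin d × Fin d) (M : Matrix (Fin d) (Fin d) (Pol κ d)) :
    pderiv (k, p) M.trace = (M.map (pderiv (k, p))).trace := by
  unfold Matrix.trace
  rw [map_sum]
  rfl

theorem trace_spl (k : κ) (F : List κ → List κ → Matrix (Fin d) (Fin d) (Pol κ d)) (W : List κ) :
    (spl k F W).trace = spl k (fun A B => (F A B).trace) W :=
  map_spl (Matrix.traceAddMonoidHom (Fin d) (Pol κ d)) k F W

theorem pderiv_trd (k : κ) (p : Fin d × Fin d) (W : List κ) :
    pderiv (k, p) (trd W : Pol κ d) = C ((d : ℂ)⁻¹) *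
      spl k (fun A B => ((Bp p).map (algebraMap ℂ (Pol κ d)) * wd GM (B ++ A)).trace) W := by
  unfold trd
  rw [Derivation.leibniz, pderiv_C, smul_zero, add_zero, smul_eq_mul, pderiv_trace, pderiv_word,
    trace_spl]
  congr 1
  refine spl_congr fun A B _ => ?_
  rw [wd_append, Matrix.mul_assoc, Matrix.trace_mul_comm, Matrix.mul_assoc]

/-- the cut terms: `cut k W R F = ∑_{V ∈ R} ∑_{V = A k B} F (R with V replaced by W B A)` -/
def cut {κ : Type} [DecidableEq κ] {M : Type} [AddCommMonoid M] (k : κ) (W : List κ) :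
    List (List κ) → (List (List κ) → M) → M
  | [], _ => 0
  | V :: R, F => spl k (fun A B => F ((W ++ B ++ A) :: R)) V + cut k W R (fun R' => F (V :: R'))

theorem map_cut {κ : Type} [DecidableEq κ] {M M' : Type} [AddCommMonoid M] [AddCommMonoid M']
    (φ : M →+ M') (k : κ) (W : List κ) (R : List (List κ)) (F : List (List κ) → M) :
    φ (cut k W R F) = cut k W R (fun R' => φ (F R')) := by
  induction R generalizing F with
  | nil => exact map_zero φ
  | cons V R ih => rw [cut, cut, map_add, map_spl, ih]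

theorem cut_mul_left {κ : Type} [DecidableEq κ] {M : Type} [Semiring M] (c : M)
    (k : κ) (W : List κ) (R : List (List κ)) (F : List (List κ) → M) :
    cut k W R (fun R' => c * F R') = c * cut k W R F :=
  (map_cut (AddMonoidHom.mulLeft c) k W R F).symm

/-- the second sum of the loop equation -/
theorem sum_cut (k : κ) (W : List κ) (R : List (List κ)) :
    ∑ p : Fin d × Fin d, ((Bp p).map (algebraMap ℂ (Pol κ d)) * wd GM W).trace *
      pderiv (k, p) ((R.map trd).prod : Pol κ d) = cut k W R (fun R' => (R'.map trd).prod) := by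
  induction R with
  | nil =>
    simp only [List.map_nil, List.prod_nil, cut]
    refine Finset.sum_eq_zero fun p _ => ?_
    rw [(pderiv (k, p)).map_one_eq_zero, mul_zero]
  | cons V R ih =>
    simp only [List.map_cons, List.prod_cons, cut]
    rw [cut_mul_left, ← ih, Finset.mul_sum]
    have h1 : ∀ p : Fin d × Fin d, ((Bp p).map (algebraMap ℂ (Pol κ d)) * wd GM W).trace *
        pderiv (k, p) (trd V * (R.map trd).prod : Pol κ d) =
        ((Bp p).map (algebraMap ℂ (Pol κ d)) * wd GM W).trace * pderiv (k, p) (trd V) *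
          (R.map trd).prod +
        trd V * (((Bp p).map (algebraMap ℂ (Pol κ d)) * wd GM W).trace *
          pderiv (k, p) ((R.map trd).prod : Pol κ d)) := by
      intro p
      rw [Derivation.leibniz, smul_eq_mul, smul_eq_mul]
      ring
    simp only [h1]
    rw [Finset.sum_add_distrib]
    congr 1
    rw [← Finset.sum_mul]
    refine Eq.trans ?_ (spl_mul_right k ((R.map trd).prod : Pol κ d)
      (fun A B => trd (W ++ B ++ A)) V).symm
    refine congrArg (fun t : Pol κ d => t * ((R.map trd).prod : Pol κ d)) ?_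
    have h2 : ∀ p : Fin d × Fin d, ((Bp p).map (algebraMap ℂ (Pol κ d)) * wd GM W).trace *
        pderiv (k, p) (trd V : Pol κ d) =
        spl k (fun A B => C ((d : ℂ)⁻¹) * (((Bp p).map (algebraMap ℂ (Pol κ d)) * wd GM W).trace *
          ((Bp p).map (algebraMap ℂ (Pol κ d)) * wd GM (B ++ A)).trace)) V := by
      intro p
      rw [pderiv_trd, spl_mul_left, spl_mul_left]
      ring
    simp only [h2]
    rw [← spl_finset_sum]
    refine spl_congr fun A B _ => ?_
    rw [← Finset.mul_sum, sum_trace_Bp]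
    unfold trd
    rw [← wd_append, List.append_assoc]

/-- LOOP EQUATION. PROOF. `trd (k :: W) = d⁻¹ ∑_p X_{(k,p)} Tr(B_p GM_W)`; by `EE_X_mul`
(variance `1/d`) and Leibniz the expectation with `F = ∏_{V ∈ R} trd V` is
`d⁻² ∑_p E[∂(Tr(B_p GM_W)) F] + d⁻² ∑_p E[Tr(B_p GM_W) ∂F]`. First sum: `pderiv_word`,
`sum_trace_Bp'`: `d⁻² Tr(GM_A) Tr(GM_B) = trd A * trd B`. Second: `pderiv_trd`, `sum_trace_Bp`:
each factor `V` gives `d⁻³ Tr(GM_W GM_B GM_A) = d⁻² trd (W ++ B ++ A)` (induction on `R` for a
version with an arbitrary extra polynomial factor). -/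
theorem loop_eq (hd : 1 ≤ d) (k : κ) (W : List κ) (R : List (List κ)) :
    Ed κ d (trd (k :: W) * (R.map trd).prod) =
      spl k (fun A B => Ed κ d (trd A * trd B * (R.map trd).prod)) W +
        ((d : ℂ) ^ 2)⁻¹ * cut k W R (fun R' => Ed κ d ((R'.map trd).prod)) := by
  set F : Pol κ d := (R.map trd).prod with hF
  -- expansion of the trace
  have h1 : (trd (k :: W) : Pol κ d) * F = ∑ p : Fin d × Fin d, X (k, p) *
      (C ((d : ℂ)⁻¹) * (((Bp p).map (algebraMap ℂ (Pol κ d)) * wd GM W).trace * F)) := by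
    unfold trd
    rw [wd_cons]
    have e1 : (GM k : Matrix (Fin d) (Fin d) (Pol κ d)) * wd GM W =
        ∑ p : Fin d × Fin d, (X (k, p) : Pol κ d) •
          ((Bp p).map (algebraMap ℂ (Pol κ d)) * wd GM W) := by
      conv_lhs => rw [GM]
      rw [Finset.sum_mul]
      refine Finset.sum_congr rfl fun p _ => ?_
      rw [Matrix.smul_mul]
    rw [e1, Matrix.trace_sum, Finset.mul_sum, Finset.sum_mul]
    refine Finset.sum_congr rfl fun p _ => ?_
    rw [Matrix.trace_smul, smul_eq_mul]
    ring
  have hv : (((d : ℝ≥0)⁻¹ : ℝ≥0) : ℂ) = (d : ℂ)⁻¹ := by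
    push_cast
    rfl
  have h2 : ∀ p : Fin d × Fin d, Ed κ d (X (k, p) *
      (C ((d : ℂ)⁻¹) * (((Bp p).map (algebraMap ℂ (Pol κ d)) * wd GM W).trace * F))) =
      ((d : ℂ) ^ 2)⁻¹ * Ed κ d (pderiv (k, p)
        ((Bp p).map (algebraMap ℂ (Pol κ d)) * wd GM W).trace * F) +
      ((d : ℂ) ^ 2)⁻¹ * Ed κ d (((Bp p).map (algebraMap ℂ (Pol κ d)) * wd GM W).trace *
        pderiv (k, p) F) := by
    intro p
    unfold Ed
    rw [EE_X_mul, Derivation.leibniz, pderiv_C, smul_zero, add_zero, smul_eq_mul,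
      Derivation.leibniz, smul_eq_mul, smul_eq_mul, ← MvPolynomial.smul_eq_C_mul, map_smul,
      map_add, smul_eq_mul, hv, mul_comm F]
    ring
  rw [h1, map_sum]
  simp only [h2]
  rw [Finset.sum_add_distrib, ← Finset.mul_sum, ← Finset.mul_sum, ← map_sum, ← map_sum]
  congr 1
  · -- first sum
    have h3 : ∑ p : Fin d × Fin d, pderiv (k, p)
        ((Bp p).map (algebraMap ℂ (Pol κ d)) * wd GM W).trace =
        spl k (fun A B => (wd GM A).trace * (wd GM B).trace) W := by
      have h4 : ∀ p : Fin d × Fin d, pderiv (k, p)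
          ((Bp p).map (algebraMap ℂ (Pol κ d)) * wd GM W).trace =
          spl k (fun A B => ((Bp p).map (algebraMap ℂ (Pol κ d)) * wd GM A *
            ((Bp p).map (algebraMap ℂ (Pol κ d)) * wd GM B)).trace) W := by
        intro p
        rw [pderiv_trace, map_derivation_mul]
        have e0 : ((Bp p).map (algebraMap ℂ (Pol κ d))).map (pderiv (k, p)) = 0 := by
          refine Matrix.ext fun a b => ?_
          rw [Matrix.map_apply, Matrix.map_apply, MvPolynomial.algebraMap_eq, pderiv_C]
          rfl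
        rw [e0, Matrix.zero_mul, zero_add, pderiv_word, ← spl_mul_left, trace_spl]
        refine spl_congr fun A B _ => ?_
        simp only [Matrix.mul_assoc]
      simp only [h4]
      rw [← spl_finset_sum]
      refine spl_congr fun A B _ => ?_
      rw [sum_trace_Bp']
    rw [← Finset.sum_mul, h3, ← spl_mul_right]
    have h5 := map_spl (Ed κ d).toAddMonoidHom k
      (fun A B => (wd GM A : Matrix (Fin d) (Fin d) (Pol κ d)).trace * (wd GM B).trace * F) W
    have h6 : (Ed κ d) (spl k (fun A B =>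
        (wd GM A : Matrix (Fin d) (Fin d) (Pol κ d)).trace * (wd GM B).trace * F) W) =
        spl k (fun A B => Ed κ d ((wd GM A).trace * (wd GM B).trace * F)) W := h5
    rw [h6, ← spl_mul_left]
    refine spl_congr fun A B _ => ?_
    unfold trd
    have e7 : C ((d : ℂ)⁻¹) * (wd GM A : Matrix (Fin d) (Fin d) (Pol κ d)).trace *
        (C ((d : ℂ)⁻¹) * (wd GM B).trace) * F =
        (((d : ℂ) ^ 2)⁻¹) • ((wd GM A).trace * (wd GM B).trace * F) := by
      rw [MvPolynomial.smul_eq_C_mul]
      have : C (((d : ℂ) ^ 2)⁻¹) = (C ((d : ℂ)⁻¹) * C ((d : ℂ)⁻¹) : Pol κ d) := by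
        rw [← C_mul, ← mul_inv, sq]
      rw [this]
      ring
    rw [e7, map_smul, smul_eq_mul]
  · -- second sum
    rw [sum_cut]
    congr 1
    exact map_cut (Ed κ d).toAddMonoidHom k W R (fun R' => (R'.map trd).prod)

end Crest.Agent.FE
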