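import Mathlib
import Crest.Agent.FE_Loop

/-! S0118 blueprint, file FE_Conv: convergence of GUE moments to free semicircular moments. -/

set_option autoImplicit false

namespace Crest.Agent.FE

open Finset Crest.OpAlg MvPolynomial
open scoped NNReal

variable {κ : Type} [Fintype κ] [DecidableEq κ]

/-- limits of `cut` -/
theorem tendsto_cut {β : Type} {l : Filter β} (k : κ) (W : List κ) (R : List (List κ))
    (F : β → List (List κ) → ℂ) (G : List (List κ) → ℂ)
    (h : ∀ R' : List (List κ), (R'.map List.length).sum < (W.length + 1) + (R.map List.length).sum →
      Filter.Tendsto (fun b => F b R') l (nhds (G R'))) :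
    Filter.Tendsto (fun b => cut k W R (F b)) l (nhds (cut k W R G)) := by
  induction R generalizing F G with
  | nil => exact tendsto_const_nhds
  | cons V R ih =>
    unfold cut
    refine Filter.Tendsto.add ?_ ?_
    · refine tendsto_spl fun A B hAB => ?_
      refine h _ ?_
      subst hAB
      simp only [List.map_cons, List.sum_cons, List.length_append, List.length_cons]
      omega
    · refine ih (fun b R' => F b (V :: R')) (fun R' => G (V :: R')) fun R' hR' => ?_
      refine h _ ?_
      simp only [List.map_cons, List.sum_cons]
      omega

/-- CONVERGENCE: expectations of products of traces converge to products of free moments.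
PROOF: strong induction on the total length of the words in `Ws`. If some word is empty drop it
(`trd_nil`, `IsSC.nil`); if all are empty, trivial; else `Ws = (k :: W) :: R` and use `loop_eq`
(valid for `d ≥ 1`): the `spl` term converges by induction (total length decreases by 2) to
`spl k (mom A * mom B) * ∏ mom = mom (k :: W) * ∏ mom`, the `cut` term is `d⁻²` times a convergent
sequence. -/
theorem tendsto_moments {mom : List κ → ℂ} (hmom : IsSC mom) (Ws : List (List κ)) :
    Filter.Tendsto (fun d : ℕ => Ed κ d ((Ws.map trd).prod)) Filter.atTop
      (nhds ((Ws.map mom).prod)) := by
  obtain ⟨n, hn⟩ : ∃ n, (Ws.map List.length).sum = n := ⟨_, rfl⟩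
  induction n using Nat.strong_induction_on generalizing Ws with
  | _ n ih =>
    induction Ws with
    | nil =>
      simp only [List.map_nil, List.prod_nil]
      have : ∀ d : ℕ, Ed κ d 1 = 1 := fun d => EE_one _
      simp only [this]
      exact tendsto_const_nhds
    | cons V R ihR =>
      cases V with
      | nil =>
        have h1 := ihR (by simpa using hn)
        simp only [List.map_cons, List.prod_cons, hmom.nil, one_mul]
        refine h1.congr' ?_
        filter_upwards [Filter.eventually_ge_atTop 1] with d hd
        rw [trd_nil hd, one_mul]
      | cons k W =>
        simp only [List.map_cons, List.sum_cons, List.length_cons] at hn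
        have hspl : Filter.Tendsto (fun d : ℕ =>
            spl k (fun A B => Ed κ d (trd A * trd B * (R.map trd).prod)) W) Filter.atTop
            (nhds (spl k (fun A B => mom A * mom B * (R.map mom).prod) W)) := by
          refine tendsto_spl fun A B hAB => ?_
          have := ih ((((A :: B :: R) : List (List κ)).map List.length).sum) (by
            rw [← hn, hAB]
            simp only [List.map_cons, List.sum_cons, List.length_append, List.length_cons]
            omega) (A :: B :: R) rfl
          simp only [List.map_cons, List.prod_cons, ← mul_assoc] at this
          exact this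
        have hcut : Filter.Tendsto (fun d : ℕ =>
            cut k W R (fun R' => Ed κ d ((R'.map trd).prod))) Filter.atTop
            (nhds (cut k W R (fun R' => (R'.map mom).prod))) := by
          refine tendsto_cut k W R _ _ fun R' hR' => ?_
          exact ih _ (by rw [← hn]; exact hR') R' rfl
        have hd0 : Filter.Tendsto (fun d : ℕ => ((d : ℂ) ^ 2)⁻¹) Filter.atTop (nhds 0) := by
          have h1 : Filter.Tendsto (fun d : ℕ => ((d : ℂ)⁻¹) ^ 2) Filter.atTop (nhds (0 ^ 2)) :=
            (tendsto_inv_atTop_nhds_zero_nat (𝕜 := ℂ)).pow 2
          rw [zero_pow two_ne_zero] at h1
          exact h1.congr fun d => inv_pow _ _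
        have hall := hspl.add (hd0.mul hcut)
        rw [zero_mul, add_zero, spl_mul_right, ← hmom.cons] at hall
        simp only [List.map_cons, List.prod_cons]
        refine hall.congr' ?_
        filter_upwards [Filter.eventually_ge_atTop 1] with d hd
        exact (loop_eq hd k W R).symm

end Crest.Agent.FE
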