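import Mathlib
import Crest.Agent.FE_Conv

/-! S0118 blueprint, file FE_Prob: convergence in probability of the traces of words in
independent GUE matrices. -/

set_option autoImplicit false

namespace Crest.Agent.FE

open Finset Crest.OpAlg MeasureTheory
open scoped NNReal ENNReal

variable {κ : Type} [Fintype κ] [DecidableEq κ]

/-- the matrices with coordinates `g` -/
noncomputable def Mg {κ : Type} {d : ℕ} (g : κ × (Fin d × Fin d) → ℝ) : κ → Matrix (Fin d) (Fin d) ℂ :=
  fun k => hermitianOfCoords (WithLp.toLp 2 fun p => g (k, p))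

/-- normalised trace of a word of concrete matrices -/
noncomputable def ntr {κ : Type} {d : ℕ} (M : κ → Matrix (Fin d) (Fin d) ℂ) (W : List κ) : ℂ :=
  (d : ℂ)⁻¹ * (wd M W).trace

/-- evaluation of the generic matrices -/
theorem prob_map_GM {d : ℕ} (g : κ × (Fin d × Fin d) → ℝ) (k : κ) :
    (GM k : Matrix (Fin d) (Fin d) (Pol κ d)).map (MvPolynomial.eval (fun p => (g p : ℂ))) =
      Mg g k := by
  unfold Mg GM
  rw [hermitianOfCoords_eq_sum]
  ext i j
  simp [Matrix.sum_apply, MvPolynomial.algebraMap_eq]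

theorem prob_map_wd {d : ℕ} (g : κ × (Fin d × Fin d) → ℝ) (W : List κ) :
    (wd GM W : Matrix (Fin d) (Fin d) (Pol κ d)).map (MvPolynomial.eval (fun p => (g p : ℂ))) =
      wd (Mg g) W := by
  induction W with
  | nil =>
    rw [wd_nil, wd_nil]
    exact Matrix.map_one _ (map_zero _) (map_one _)
  | cons k W ih =>
    rw [wd_cons, wd_cons, Matrix.map_mul, ih, prob_map_GM]

/-- evaluation of the generic traces (`RingHom.map` on matrices, `hermitianOfCoords_eq_sum`) -/
theorem eval_trd {d : ℕ} (g : κ × (Fin d × Fin d) → ℝ) (W : List κ) :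
    MvPolynomial.eval (fun p => (g p : ℂ)) (trd W : Pol κ d) = ntr (Mg g) W := by
  unfold trd ntr
  rw [map_mul, MvPolynomial.eval_C, ← prob_map_wd]
  congr 1
  simp [Matrix.trace]

omit [Fintype κ] [DecidableEq κ] in
theorem prob_conjTranspose_wd {d : ℕ} (M : κ → Matrix (Fin d) (Fin d) ℂ)
    (hM : ∀ k, (M k).IsHermitian) (W : List κ) :
    (wd M W).conjTranspose = wd M W.reverse := by
  induction W with
  | nil => simp
  | cons k W ih =>
    rw [wd_cons, Matrix.conjTranspose_mul, ih, (hM k).eq, List.reverse_cons, wd_append,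
      wd_singleton]

/-- hermitian matrices: the trace of the reversed word is the conjugate -/
theorem ntr_reverse {d : ℕ} (g : κ × (Fin d × Fin d) → ℝ) (W : List κ) :
    ntr (Mg g) W.reverse = starRingEnd ℂ (ntr (Mg g) W) := by
  unfold ntr
  rw [← prob_conjTranspose_wd (Mg g) (fun k => isHermitian_hermitianOfCoords _),
    Matrix.trace_conjTranspose, map_mul, map_inv₀, Complex.conj_natCast]
  rfl

theorem continuous_ntr {d : ℕ} (W : List κ) :
    Continuous fun g : κ × (Fin d × Fin d) → ℝ => ntr (Mg g) W := by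
  have : (fun g : κ × (Fin d × Fin d) → ℝ => ntr (Mg g) W) =
      fun g => MvPolynomial.eval (fun p => (g p : ℂ)) (trd W : Pol κ d) := by
    funext g; rw [eval_trd]
  rw [this]
  exact (MvPolynomial.continuous_eval (trd W : Pol κ d)).comp
    (continuous_pi fun p => Complex.continuous_ofReal.comp (continuous_apply p))

/-- the polynomial whose expectation is the second moment -/
noncomputable def probPol (κ : Type) [Fintype κ] [DecidableEq κ] (d : ℕ) (m : ℂ) (W : List κ) :
    Pol κ d :=
  (trd W - MvPolynomial.C m) * (trd W.reverse - MvPolynomial.C (starRingEnd ℂ m))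

theorem eval_probPol {d : ℕ} (m : ℂ) (g : κ × (Fin d × Fin d) → ℝ) (W : List κ) :
    MvPolynomial.eval (fun p => (g p : ℂ)) (probPol κ d m W) =
      ((‖ntr (Mg g) W - m‖ ^ 2 : ℝ) : ℂ) := by
  unfold probPol
  rw [map_mul, map_sub, map_sub, MvPolynomial.eval_C, MvPolynomial.eval_C, eval_trd, eval_trd,
    ntr_reverse, ← map_sub, Complex.mul_conj, Complex.normSq_eq_norm_sq]

theorem prob_integral {d : ℕ} (m : ℂ) (W : List κ) :
    ((∫ g, ‖ntr (Mg g) W - m‖ ^ 2 ∂(gam (κ × (Fin d × Fin d)) ((d : ℝ≥0)⁻¹)) : ℝ) : ℂ) =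
      Ed κ d (probPol κ d m W) := by
  unfold Ed
  rw [EE_apply, ← integral_complex_ofReal]
  refine integral_congr_ae (Filter.Eventually.of_forall fun g => ?_)
  exact (eval_probPol m g W).symm

theorem prob_integrable {d : ℕ} (m : ℂ) (W : List κ) :
    Integrable (fun g => ‖ntr (Mg g) W - m‖ ^ 2) (gam (κ × (Fin d × Fin d)) ((d : ℝ≥0)⁻¹)) := by
  have h := (integrable_eval ((d : ℝ≥0)⁻¹) (probPol κ d m W)).re
  refine h.congr (Filter.Eventually.of_forall fun g => ?_)
  simp only
  rw [eval_probPol]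
  exact Complex.ofReal_re _

/-- second moment. PROOF: `∫ ‖ntr - mom W‖² = ∫ (trd W - mom W)(trd W.reverse - conj (mom W))`
is a combination of four expectations, converging by `tendsto_moments` (lists `[W, W.reverse]`,
`[W]`, `[W.reverse]`, `[]`) to `(mom W - mom W)(mom W.reverse - conj (mom W)) = 0`
(so `IsSC.conj` is not even needed). -/
theorem tendsto_second_moment {mom : List κ → ℂ} (hmom : IsSC mom) (W : List κ) :
    Filter.Tendsto (fun d : ℕ => ∫ g, ‖ntr (Mg g) W - mom W‖ ^ 2
      ∂(gam (κ × (Fin d × Fin d)) ((d : ℝ≥0)⁻¹))) Filter.atTop (nhds 0) := by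
  have h1 := tendsto_moments hmom [W, W.reverse]
  have h2 := tendsto_moments hmom [W]
  have h3 := tendsto_moments hmom [W.reverse]
  have h4 := tendsto_moments hmom []
  simp only [List.map_cons, List.map_nil, List.prod_cons, List.prod_nil, mul_one] at h1 h2 h3 h4
  have h5 := ((h1.sub (h2.const_mul (starRingEnd ℂ (mom W)))).sub (h3.const_mul (mom W))).add
    (h4.const_mul (mom W * starRingEnd ℂ (mom W)))
  have h6 : Filter.Tendsto (fun d : ℕ => Ed κ d (probPol κ d (mom W) W)) Filter.atTop (nhds 0) := by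
    refine (h5.congr fun d => ?_).trans_eq ?_
    · unfold probPol
      have : (trd W - MvPolynomial.C (mom W)) *
          (trd W.reverse - MvPolynomial.C (starRingEnd ℂ (mom W))) =
          (trd W * trd W.reverse - (starRingEnd ℂ (mom W)) • trd W - (mom W) • trd W.reverse +
            (mom W * starRingEnd ℂ (mom W)) • (1 : Pol κ d) : Pol κ d) := by
        simp only [MvPolynomial.smul_eq_C_mul, map_mul]
        ring
      rw [this, map_add, map_sub, map_sub, map_smul, map_smul, map_smul]
      rfl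
    · congr 1
      ring
  have h7 := (Complex.continuous_re.tendsto 0).comp h6
  refine h7.congr fun d => ?_
  simp only [Function.comp]
  rw [← prob_integral]
  exact Complex.ofReal_re _

/-- Chebyshev -/
theorem tendsto_prob {mom : List κ → ℂ} (hmom : IsSC mom) (W : List κ) (δ : ℝ) (hδ : 0 < δ) :
    Filter.Tendsto (fun d : ℕ => gam (κ × (Fin d × Fin d)) ((d : ℝ≥0)⁻¹)
      {g | δ ≤ ‖ntr (Mg g) W - mom W‖}) Filter.atTop (nhds 0) := by
  have h1 := (tendsto_second_moment hmom W).const_mul ((δ ^ 2)⁻¹)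
  rw [mul_zero] at h1
  have h2 := ENNReal.tendsto_ofReal h1
  rw [ENNReal.ofReal_zero] at h2
  refine tendsto_of_tendsto_of_tendsto_of_le_of_le tendsto_const_nhds h2
    (fun d => zero_le) (fun d => ?_)
  have h3 := mul_meas_ge_le_integral_of_nonneg (μ := gam (κ × (Fin d × Fin d)) ((d : ℝ≥0)⁻¹))
    (f := fun g => ‖ntr (Mg g) W - mom W‖ ^ 2)
    (Filter.Eventually.of_forall fun g => by positivity) (prob_integrable (mom W) W) (δ ^ 2)
  have h4 : {g : κ × (Fin d × Fin d) → ℝ | δ ^ 2 ≤ ‖ntr (Mg g) W - mom W‖ ^ 2} =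
      {g | δ ≤ ‖ntr (Mg g) W - mom W‖} := by
    ext g
    simp only [Set.mem_ofPred_eq]
    exact pow_le_pow_iff_left₀ hδ.le (norm_nonneg _) two_ne_zero
  rw [h4] at h3
  simp only
  rw [← ENNReal.ofReal_toReal (measure_ne_top _ {g | δ ≤ ‖ntr (Mg g) W - mom W‖})]
  apply ENNReal.ofReal_le_ofReal
  rw [← div_eq_inv_mul, le_div_iff₀ (by positivity), mul_comm]
  exact h3

end Crest.Agent.FE
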