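import Mathlib
import Crest.Agent.FE_Prob
import Crest.Agent.FE_Norm

/-! S0118 blueprint, file FE_Good: good events have probability at least 1/2. -/

set_option autoImplicit false

namespace Crest.Agent.FE

open Finset Crest.OpAlg MeasureTheory
open scoped NNReal ENNReal

/-- the good event -/
def Good {κ : Type} [Fintype κ] [DecidableEq κ] (mom : List κ → ℂ) (K d : ℕ) (δ : ℝ) :
    Set (κ × (Fin d × Fin d) → ℝ) :=
  {g | (∀ W ∈ wLE (α := κ) K, ‖ntr (Mg g) W - mom W‖ < δ) ∧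
    ∀ k, ‖Matrix.toEuclideanCLM (n := Fin d) (𝕜 := ℂ) (Mg g k)‖ ≤ 32}

theorem good_continuous_norm {κ : Type} [Fintype κ] {d : ℕ} (k : κ) :
    Continuous fun g : κ × (Fin d × Fin d) → ℝ =>
      ‖Matrix.toEuclideanCLM (n := Fin d) (𝕜 := ℂ) (Mg g k)‖ := by
  have h1 : Continuous (fun M : Matrix (Fin d) (Fin d) ℂ =>
      Matrix.toEuclideanCLM (n := Fin d) (𝕜 := ℂ) M) :=
    LinearMap.continuous_of_finiteDimensional
      ((Matrix.toEuclideanCLM (n := Fin d) (𝕜 := ℂ)).toAlgEquiv.toLinearMap)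
  have h2 : Continuous fun g : κ × (Fin d × Fin d) → ℝ => Mg g k := by
    unfold Mg
    refine continuous_hermitianOfCoords.comp ?_
    exact (PiLp.continuous_toLp 2 _).comp (continuous_pi fun p => continuous_apply (k, p))
  exact (h1.comp h2).norm

theorem measurableSet_Good {κ : Type} [Fintype κ] [DecidableEq κ] (mom : List κ → ℂ) (K d : ℕ)
    (δ : ℝ) : MeasurableSet (Good mom K d δ) := by
  unfold Good
  refine MeasurableSet.inter (s₁ := {g | ∀ W ∈ wLE (α := κ) K, ‖ntr (Mg g) W - mom W‖ < δ})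
    (s₂ := {g | ∀ k, ‖Matrix.toEuclideanCLM (n := Fin d) (𝕜 := ℂ) (Mg g k)‖ ≤ 32}) ?_ ?_
  · have e : {g : κ × (Fin d × Fin d) → ℝ | ∀ W ∈ wLE (α := κ) K, ‖ntr (Mg g) W - mom W‖ < δ} =
        ⋂ W ∈ wLE (α := κ) K, {g | ‖ntr (Mg g) W - mom W‖ < δ} := by
      ext g; simp
    rw [e]
    refine Finset.measurableSet_biInter _ fun W _ => ?_
    exact (isOpen_lt (((continuous_ntr W).sub continuous_const).norm)
      continuous_const).measurableSet
  · have e : {g : κ × (Fin d × Fin d) → ℝ |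
        ∀ k, ‖Matrix.toEuclideanCLM (n := Fin d) (𝕜 := ℂ) (Mg g k)‖ ≤ 32} =
        ⋂ k, {g | ‖Matrix.toEuclideanCLM (n := Fin d) (𝕜 := ℂ) (Mg g k)‖ ≤ 32} := by
      ext g; simp
    rw [e]
    refine MeasurableSet.iInter fun k => ?_
    exact (isClosed_le (good_continuous_norm k) continuous_const).measurableSet

/-- union bound with `tendsto_prob` and `tendsto_norm` -/
theorem good_prob {κ : Type} [Fintype κ] [DecidableEq κ] {mom : List κ → ℂ} (hmom : IsSC mom)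
    (K : ℕ) (δ : ℝ) (hδ : 0 < δ) :
    ∀ᶠ d : ℕ in Filter.atTop, ENNReal.ofReal (1 / 2) ≤
      gam (κ × (Fin d × Fin d)) ((d : ℝ≥0)⁻¹) (Good mom K d δ) := by
  have h1 : Filter.Tendsto (fun d : ℕ => (∑ W ∈ wLE (α := κ) K,
      gam (κ × (Fin d × Fin d)) ((d : ℝ≥0)⁻¹) {g | δ ≤ ‖ntr (Mg g) W - mom W‖}) +
      ∑ k : κ, gam (κ × (Fin d × Fin d)) ((d : ℝ≥0)⁻¹)
      {g | 32 < ‖Matrix.toEuclideanCLM (n := Fin d) (𝕜 := ℂ)
        (hermitianOfCoords (WithLp.toLp 2 fun p => g (k, p)))‖}) Filter.atTop (nhds 0) := by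
    have h2 := (tendsto_finsetSum (wLE (α := κ) K) fun W _ => tendsto_prob hmom W δ hδ).add
      (tendsto_finsetSum (Finset.univ : Finset κ) fun k _ => tendsto_norm k)
    simpa using h2
  have h3 : (0 : ℝ≥0∞) < ENNReal.ofReal (1 / 2) := by
    rw [ENNReal.ofReal_pos]; norm_num
  filter_upwards [h1.eventually (gt_mem_nhds h3)] with d hd
  have h4 : (Good mom K d δ)ᶜ ⊆ (⋃ W ∈ wLE (α := κ) K, {g | δ ≤ ‖ntr (Mg g) W - mom W‖}) ∪
      ⋃ k : κ, {g | 32 < ‖Matrix.toEuclideanCLM (n := Fin d) (𝕜 := ℂ)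
        (hermitianOfCoords (WithLp.toLp 2 fun p => g (k, p)))‖} := by
    intro g hg
    by_contra hcon
    apply hg
    simp only [Set.mem_union, Set.mem_iUnion, not_or, not_exists, Set.mem_setOf_eq, not_le,
      not_lt] at hcon
    exact ⟨fun W hW => hcon.1 W hW, fun k => hcon.2 k⟩
  have h5 : gam (κ × (Fin d × Fin d)) ((d : ℝ≥0)⁻¹) (Good mom K d δ)ᶜ ≤ ENNReal.ofReal (1 / 2) := by
    refine (measure_mono h4).trans ((measure_union_le _ _).trans (le_trans ?_ hd.le))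
    exact add_le_add (measure_biUnion_finset_le _ _) (measure_iUnion_fintype_le _ _)
  have h6 := prob_compl_eq_one_sub (μ := gam (κ × (Fin d × Fin d)) ((d : ℝ≥0)⁻¹))
    (measurableSet_Good mom K d δ)
  rw [h6] at h5
  have h7 : (1 : ℝ≥0∞) ≤ ENNReal.ofReal (1 / 2) +
      gam (κ × (Fin d × Fin d)) ((d : ℝ≥0)⁻¹) (Good mom K d δ) := tsub_le_iff_right.1 h5
  have h8 : (1 : ℝ≥0∞) = ENNReal.ofReal (1 / 2) + ENNReal.ofReal (1 / 2) := by
    rw [← ENNReal.ofReal_add (by norm_num) (by norm_num)]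
    norm_num
  rw [h8] at h7
  exact (ENNReal.add_le_add_iff_left ENNReal.ofReal_ne_top).1 h7

end Crest.Agent.FE
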