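import Mathlib
import Crest.Agent.FE_Comb
import Crest.Agent.FE_Good
import Crest.Agent.FE_GaussVol

/-! S0118 blueprint, file FE_MicroLow: volume of microstates from below. -/

set_option autoImplicit false

namespace Crest.Agent.FE

open Finset Crest.OpAlg MeasureTheory
open scoped NNReal ENNReal

/-- reindexing does not change the product Gaussian measure -/
theorem gam_reindex {P P' : Type} [Fintype P] [Fintype P'] (v : ℝ≥0) (E : P ≃ P')
    (G : Set (P → ℝ)) :
    gam P' v {g | (fun p => g (E p)) ∈ G} = gam P v G := by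
  have hmp := measurePreserving_piCongrLeft (α := fun _ : P' => ℝ)
    (fun _ : P' => ProbabilityTheory.gaussianReal 0 v) E
  have h1 := hmp.measure_preimage_equiv {g : P' → ℝ | (fun p => g (E p)) ∈ G}
  unfold gam
  rw [← h1]
  congr 1
  ext f
  simp only [Set.mem_preimage, Set.mem_ofPred_eq]
  have h2 : (fun p => (MeasurableEquiv.piCongrLeft (fun _ : P' => ℝ) E) f (E p)) = f := by
    funext p
    rw [MeasurableEquiv.coe_piCongrLeft]
    exact Equiv.piCongrLeft_apply_apply (P := fun _ : P' => ℝ) E f p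
  rw [h2]

theorem isHermitian_Tc {m d : ℕ} (Y : Fin m → Matrix (Fin d) (Fin d) ℂ)
    (hY : ∀ a, (Y a).IsHermitian) (j : JJ m) : (Tc Y j).IsHermitian := by
  rcases j with a | ⟨a, b, c⟩
  · exact hY a
  · unfold Matrix.IsHermitian
    simp only [Tc, Sum.elim_inr]
    rw [Matrix.conjTranspose_add, Matrix.conjTranspose_mul, Matrix.conjTranspose_mul,
      Matrix.conjTranspose_mul, Matrix.conjTranspose_mul, (hY a).eq, (hY b).eq, (hY c).eq,
      add_comm, Matrix.mul_assoc, Matrix.mul_assoc]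

/-- the matrices of the affine image -/
theorem matrixTuple_eq_comb {m n d : ℕ} (e : Fin n ≃ JJ m) (r : Fin n → ℝ) (hr0 : ∀ k, 0 < r k)
    (g : (Fin m ⊕ Fin n) × (Fin d × Fin d) → ℝ) (x : Fin n × (Fin d × Fin d) → ℝ)
    (hx : ∀ k p, g (Sum.inr k, p) =
      (x (k, p) - coordsOf (Tc (fun a => Mg g (Sum.inl a)) (e k)) p) / r k) (k : Fin n) :
    matrixTuple (WithLp.toLp 2 x) k = comb e r (Mg g) k := by
  have hT : (Tc (fun a => Mg g (Sum.inl a)) (e k)).IsHermitian :=
    isHermitian_Tc _ (fun a => isHermitian_hermitianOfCoords _) _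
  have h1 : (WithLp.toLp 2 fun p => x (k, p) : EuclideanSpace ℝ (Fin d × Fin d)) =
      coordsOf (Tc (fun a => Mg g (Sum.inl a)) (e k)) +
        r k • (WithLp.toLp 2 fun p => g (Sum.inr k, p)) := by
    ext p
    simp only [PiLp.add_apply, PiLp.smul_apply, smul_eq_mul]
    rw [hx k p, mul_div_cancel₀ _ (hr0 k).ne']
    ring
  unfold matrixTuple comb
  have h2 : (WithLp.toLp 2 fun p => (WithLp.toLp 2 x : EuclideanSpace ℝ (Fin n × (Fin d × Fin d)))
      (k, p) : EuclideanSpace ℝ (Fin d × Fin d)) = WithLp.toLp 2 fun p => x (k, p) := rfl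
  rw [h2, h1, hermitianOfCoords_add, hermitianOfCoords_smul, hermitianOfCoords_coordsOf _ hT]
  rfl

/-- the good affine images are microstates -/
theorem mem_microstates_of_good {m n d : ℕ} (e : Fin n ≃ JJ m) (r : Fin n → ℝ)
    (hr0 : ∀ k, 0 < r k) (hr1 : ∀ k, r k ≤ 1) {A : Type*} [Ring A] [Algebra ℂ A]
    (τ : A →ₗ[ℂ] ℂ) (s : Fin m ⊕ Fin n → A) (K : ℕ) (δ : ℝ) (hδ : 0 < δ)
    (g : (Fin m ⊕ Fin n) × (Fin d × Fin d) → ℝ)
    (hg : g ∈ Good (fun w => τ (wd s w)) (3 * K) d (δ / (2 * 3 ^ K)))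
    (x : Fin n × (Fin d × Fin d) → ℝ)
    (hx : ∀ k p, g (Sum.inr k, p) =
      (x (k, p) - coordsOf (Tc (fun a => Mg g (Sum.inl a)) (e k)) p) / r k) :
    WithLp.toLp 2 x ∈ microstates τ (comb e r s) 65568 K d δ := by
  have hr : ∀ k, |r k| ≤ 1 := fun k => by rw [abs_of_pos (hr0 k)]; exact hr1 k
  have hM := matrixTuple_eq_comb e r hr0 g x hx
  refine ⟨fun l => ?_, fun w hw => ?_⟩
  · rw [hM l]
    exact comb_norm e r hr (Mg g) hg.2 l
  · set σ : Matrix (Fin d) (Fin d) ℂ →ₗ[ℂ] ℂ := ((d : ℂ)⁻¹) • Matrix.traceLinearMap (Fin d) ℂ ℂ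
      with hσ
    have h1 : matrixMoment (matrixTuple (WithLp.toLp 2 x)) w =
        σ (wd (comb e r (Mg g)) (FreeMonoid.toList w)) := by
      unfold matrixMoment
      rw [wordEval_eq]
      have : (matrixTuple (WithLp.toLp 2 x) : Fin n → Matrix (Fin d) (Fin d) ℂ) =
          comb e r (Mg g) := funext hM
      rw [this]
      rfl
    have h2 := comb_error e r hr τ σ s (Mg g) K (δ / (2 * 3 ^ K)) (by positivity)
      (fun w hw => by
        have h3 := hg.1 w (mem_wLE.2 hw)
        rw [norm_sub_rev] at h3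
        exact h3.le) (FreeMonoid.toList w) hw
    rw [h1, wordEval_eq, norm_sub_rev]
    refine lt_of_le_of_lt h2 ?_
    have h3 : (3 : ℝ) ^ K * (δ / (2 * 3 ^ K)) = δ / 2 := by
      field_simp
    rw [h3]
    linarith

/-- volume of microstates from below.
PROOF. `κ = Fin m ⊕ Fin n`, `δ' = δ / (2 * 3^K)`, `Good mom (3K) d δ'` has probability `≥ 1/2`
eventually (`good_prob`). Reindex `κ × Q ≃ (Fin m × Q) ⊕ (Fin n × Q)`
(`Equiv.sumProdDistrib`, `MeasureTheory.measurePreserving_piCongrLeft`-type invariance of `gam`)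
and take a slice `y` (`exists_slice`); let `Y a` be the matrices of `y`, `b (k, p)` the
coordinates (`coordsOf`) of the hermitian matrix `Tc Y (e k)` and `c (k, p) = r k`. If
`x ∈ EuclideanSpace` has `(x - b)/c ∈ slice` then with `Y'` the matrices of `(x-b)/c` the matrix
tuple of `x` is `comb e r (Y, Y')` (`hermitianOfCoords_coordsOf`, linearity), so
`comb_error` (with `σ = ` normalised trace) and `comb_norm` show that `x` is a microstate
(`matrixMoment`, `wordEval_eq`). Conclude with `vol_of_gauss` (`v = 1/d`) and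
`EuclideanSpace.volume_preserving_symm_measurableEquiv_toLp` (or similar). -/
theorem volume_microstates_ge {m n : ℕ} (e : Fin n ≃ JJ m) (r : Fin n → ℝ)
    (hr0 : ∀ k, 0 < r k) (hr1 : ∀ k, r k ≤ 1) {A : Type*} [Ring A] [Algebra ℂ A]
    (τ : A →ₗ[ℂ] ℂ) (s : Fin m ⊕ Fin n → A) (hs : IsSC (fun w => τ (wd s w)))
    (K : ℕ) (δ : ℝ) (hδ : 0 < δ) :
    ∀ᶠ d : ℕ in Filter.atTop,
      ENNReal.ofReal (1 / 2 * (∏ k, r k) ^ (d ^ 2) *
        (2 * Real.pi / d) ^ ((n : ℝ) * d ^ 2 / 2)) ≤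
      volume (microstates τ (comb e r s) 65568 K d δ) := by
  have hδ' : 0 < δ / (2 * 3 ^ K) := by positivity
  filter_upwards [good_prob hs (3 * K) (δ / (2 * 3 ^ K)) hδ', Filter.eventually_ge_atTop 1]
    with d hd hd1
  have hv : (0 : ℝ≥0) < (d : ℝ≥0)⁻¹ := by
    have : (0 : ℝ≥0) < d := by exact_mod_cast (by omega : 0 < d)
    exact inv_pos.2 this
  set E := Equiv.sumProdDistrib (Fin m) (Fin n) (Fin d × Fin d) with hE
  set G := Good (fun w => τ (wd s w)) (3 * K) d (δ / (2 * 3 ^ K)) with hG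
  have hGm : MeasurableSet G := measurableSet_Good _ _ _ _
  set G' : Set ((Fin m × (Fin d × Fin d)) ⊕ (Fin n × (Fin d × Fin d)) → ℝ) :=
    {g | (fun p => g (E p)) ∈ G} with hG'
  have hG'm : MeasurableSet G' :=
    hGm.preimage (measurable_pi_lambda _ fun p => measurable_pi_apply _)
  have h1 : ENNReal.ofReal (1 / 2) ≤
      gam ((Fin m × (Fin d × Fin d)) ⊕ (Fin n × (Fin d × Fin d))) ((d : ℝ≥0)⁻¹) G' := by
    rw [hG', gam_reindex]
    exact hd
  obtain ⟨y, hy⟩ := exists_slice _ G' hG'm h1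
  set S : Set (Fin n × (Fin d × Fin d) → ℝ) := {y' | Sum.elim y y' ∈ G'} with hS
  have hSm : MeasurableSet S := by
    refine hG'm.preimage (measurable_pi_lambda _ fun p => ?_)
    rcases p with p | p
    · exact measurable_const
    · exact measurable_pi_apply _
  set Y : Fin m → Matrix (Fin d) (Fin d) ℂ :=
    fun a => hermitianOfCoords (WithLp.toLp 2 fun p => y (a, p)) with hY
  set b : Fin n × (Fin d × Fin d) → ℝ := fun kp => coordsOf (Tc Y (e kp.1)) kp.2 with hb
  have h2 := vol_of_gauss _ hv S hSm hy b (fun kp => r kp.1) (fun kp => hr0 kp.1)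
  have h3 : (∏ p : Fin n × (Fin d × Fin d), r p.1) = (∏ k, r k) ^ (d ^ 2) := by
    rw [Fintype.prod_prod_type]
    simp only [Finset.prod_const, Finset.card_univ, Fintype.card_prod, Fintype.card_fin]
    rw [Finset.prod_pow, sq]
  have h4 : ((Fintype.card (Fin n × (Fin d × Fin d)) : ℕ) : ℝ) / 2 = (n : ℝ) * d ^ 2 / 2 := by
    simp only [Fintype.card_prod, Fintype.card_fin]
    push_cast
    ring
  have h5 : 2 * Real.pi * (((d : ℝ≥0)⁻¹ : ℝ≥0) : ℝ) = 2 * Real.pi / d := by
    push_cast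
    rw [div_eq_mul_inv]
  rw [h3, h4, h5] at h2
  refine h2.trans ?_
  have h6 := (PiLp.volume_preserving_toLp (Fin n × (Fin d × Fin d))).measure_preimage_equiv
    (f := (MeasurableEquiv.toLp 2 (Fin n × (Fin d × Fin d) → ℝ)))
    (microstates τ (comb e r s) 65568 K d δ)
  rw [← h6]
  refine measure_mono fun x hx => ?_
  rw [Set.mem_preimage]
  have hx' : Sum.elim y (fun p => (x p - b p) / r p.1) ∈ G' := hx
  have hx'' : (fun p => Sum.elim y (fun p => (x p - b p) / r p.1) (E p)) ∈ G := hx'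
  refine mem_microstates_of_good e r hr0 hr1 τ s K δ hδ _ hx'' x fun k p => ?_
  rfl

end Crest.Agent.FE
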