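import Mathlib
import Crest.Agent.FE_MicroLow
import Crest.Agent.FE_CutLow

/-! S0118 blueprint, file FE_ChiLow: `χ > -∞`. -/

set_option autoImplicit false

namespace Crest.Agent.FE

open Finset Crest.OpAlg MeasureTheory
open scoped NNReal ENNReal

theorem chi_gt_bot {m n : ℕ} (e : Fin n ≃ JJ m) (r : Fin n → ℝ)
    (hr0 : ∀ k, 0 < r k) (hr1 : ∀ k, r k ≤ 1) {A : Type*} [Ring A] [Algebra ℂ A]
    (τ : A →ₗ[ℂ] ℂ) (s : Fin m ⊕ Fin n → A) (hs : IsSC (fun w => τ (wd s w))) :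
    ⊥ < chi τ (comb e r s) := by
  have h1 := chiCutoff_ge τ (comb e r s) 65568 (∏ k, r k) (Finset.prod_pos fun k _ => hr0 k)
    (fun K δ hδ => volume_microstates_ge e r hr0 hr1 τ s hs K δ hδ)
  have h2 : chiCutoff τ (comb e r s) 65568 ≤ chi τ (comb e r s) := by
    unfold chi
    exact le_iSup₂ (f := fun (R : ℝ) (_ : 0 < R) => chiCutoff τ (comb e r s) R) 65568
      (by norm_num)
  exact lt_of_lt_of_le (EReal.bot_lt_coe _) (h1.trans h2)

end Crest.Agent.FE
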