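import Mathlib
import Crest.Agent.FE_Mom

/-! S0118 blueprint, file FE_K: the coefficients `K (m, V)` and their ℓ² bound. -/

set_option autoImplicit false

namespace Crest.Agent.FE

open Finset

section
variable {α A : Type*} [Ring A] [Algebra ℂ A]

/-- `K(m, []) = τ m`, `K(m, k :: V) = K(m T_k, V) - ∑_{V = A ++ B} K(T_k, A) K(m, B)` -/
noncomputable def KK (τ : A →ₗ[ℂ] ℂ) (T : α → A) (m : A) : List α → ℂ
  | [] => τ m
  | (k :: V) => KK τ T (m * T k) V -
      ∑ i : Fin (V.length + 1), KK τ T (T k) (V.take i) * KK τ T m (V.drop i)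
termination_by V => V.length
decreasing_by
  all_goals simp

theorem KK_nil (τ : A →ₗ[ℂ] ℂ) (T : α → A) (m : A) : KK τ T m [] = τ m := by
  rw [KK]

theorem KK_cons (τ : A →ₗ[ℂ] ℂ) (T : α → A) (m : A) (k : α) (V : List α) :
    KK τ T m (k :: V) = KK τ T (m * T k) V -
      dec (fun U W => KK τ T (T k) U * KK τ T m W) V := by
  rw [KK, ← sum_fin_eq_dec]

/-- the ℓ² norms -/
private noncomputable def XX [Fintype α] [DecidableEq α] (τ : A →ₗ[ℂ] ℂ) (T : α → A)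
    (k l : ℕ) : ℝ :=
  √(∑ U ∈ wEq (α := α) k, ∑ V ∈ wEq (α := α) l, ‖KK τ T (wd T U) V‖ ^ 2)

private theorem XX_nonneg [Fintype α] [DecidableEq α] (τ : A →ₗ[ℂ] ℂ) (T : α → A) (k l : ℕ) :
    0 ≤ XX τ T k l := Real.sqrt_nonneg _

private theorem XX_sq [Fintype α] [DecidableEq α] (τ : A →ₗ[ℂ] ℂ) (T : α → A) (k l : ℕ) :
    XX τ T k l ^ 2 = ∑ U ∈ wEq (α := α) k, ∑ V ∈ wEq (α := α) l, ‖KK τ T (wd T U) V‖ ^ 2 := by
  unfold XX
  rw [Real.sq_sqrt]
  positivity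

private theorem sqrt_mul_of {x y z : ℝ} (hy : 0 ≤ y) (hz : 0 ≤ z) (h : x = y ^ 2 * z ^ 2) :
    √x = y * z := by
  rw [h, ← mul_pow, Real.sqrt_sq (mul_nonneg hy hz)]

private theorem XX_rec [Fintype α] [DecidableEq α] (τ : A →ₗ[ℂ] ℂ) (T : α → A) (k l : ℕ) :
    XX τ T k (l + 1) ≤ XX τ T (k + 1) l +
      ∑ i ∈ Finset.range (l + 1), XX τ T 1 i * XX τ T k (l - i) := by
  obtain ⟨S, hS⟩ : ∃ S : Finset (List α × (α × List α)),
    S = wEq (α := α) k ×ˢ ((Finset.univ : Finset α) ×ˢ wEq (α := α) l) := ⟨_, rfl⟩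
  have hsum : ∀ g : List α → α → List α → ℝ,
      ∑ p ∈ S, g p.1 p.2.1 p.2.2 = ∑ U ∈ wEq (α := α) k, ∑ a : α, ∑ V ∈ wEq (α := α) l, g U a V := by
    intro g
    rw [hS, Finset.sum_product]
    refine Finset.sum_congr rfl fun U _ => ?_
    rw [Finset.sum_product]
  have h1 : XX τ T k (l + 1) = nrm S (fun p => KK τ T (wd T p.1 * T p.2.1) p.2.2 -
      ∑ i ∈ Finset.range (l + 1),
        KK τ T (T p.2.1) (p.2.2.take i) * KK τ T (wd T p.1) (p.2.2.drop i)) := by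
    unfold nrm XX
    congr 1
    rw [hsum (fun U a V => ‖KK τ T (wd T U * T a) V - ∑ i ∈ Finset.range (l + 1),
        KK τ T (T a) (V.take i) * KK τ T (wd T U) (V.drop i)‖ ^ 2)]
    refine Finset.sum_congr rfl fun U _ => ?_
    rw [sum_wEq_succ]
    refine Finset.sum_congr rfl fun a _ => ?_
    refine Finset.sum_congr rfl fun V hV => ?_
    rw [mem_wEq] at hV
    rw [KK_cons, ← sum_range_eq_dec, hV]
  have h2 : nrm S (fun p => KK τ T (wd T p.1 * T p.2.1) p.2.2) = XX τ T (k + 1) l := by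
    unfold nrm XX
    congr 1
    rw [hsum (fun U a V => ‖KK τ T (wd T U * T a) V‖ ^ 2), sum_wEq_succ']
    refine Finset.sum_congr rfl fun U _ => Finset.sum_congr rfl fun a _ =>
      Finset.sum_congr rfl fun V _ => ?_
    rw [wd_append, wd_singleton]
  have h3 : ∀ i ∈ Finset.range (l + 1), nrm S (fun p =>
      KK τ T (T p.2.1) (p.2.2.take i) * KK τ T (wd T p.1) (p.2.2.drop i)) =
      XX τ T 1 i * XX τ T k (l - i) := by
    intro i hi
    rw [Finset.mem_range] at hi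
    unfold nrm
    apply sqrt_mul_of (XX_nonneg _ _ _ _) (XX_nonneg _ _ _ _)
    rw [hsum (fun U a V => ‖KK τ T (T a) (V.take i) * KK τ T (wd T U) (V.drop i)‖ ^ 2)]
    rw [XX_sq, XX_sq, sum_wEq_succ]
    simp only [sum_wEq_zero]
    have e1 : ∀ a U, ∑ V ∈ wEq (α := α) l,
        ‖KK τ T (T a) (V.take i) * KK τ T (wd T U) (V.drop i)‖ ^ 2 =
        (∑ V ∈ wEq (α := α) i, ‖KK τ T (wd T [a]) V‖ ^ 2) *
          ∑ V ∈ wEq (α := α) (l - i), ‖KK τ T (wd T U) V‖ ^ 2 := by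
      intro a U
      have hl : wEq (α := α) l = wEq (i + (l - i)) := by congr 1; omega
      rw [hl, sum_wEq_add, Finset.sum_mul_sum]
      refine Finset.sum_congr rfl fun V hV => Finset.sum_congr rfl fun W _ => ?_
      rw [mem_wEq] at hV
      rw [← hV, List.take_left, List.drop_left, norm_mul, mul_pow, wd_singleton]
    simp only [e1]
    rw [Finset.sum_mul_sum, Finset.sum_comm]
  rw [h1]
  refine (nrm_sub_le _ _ _).trans ?_
  rw [h2]
  gcongr
  refine (nrm_sum_le _ _ _).trans (le_of_eq ?_)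
  exact Finset.sum_congr rfl h3

private theorem XX_le [Fintype α] [DecidableEq α] (τ : A →ₗ[ℂ] ℂ) (T : α → A) (N : ℝ)
    (hN0 : 0 ≤ N) (hN : ∀ k, ∑ U ∈ wEq (α := α) k, ‖τ (wd T U)‖ ^ 2 ≤ N ^ k) (l : ℕ) :
    ∀ k : ℕ, XX τ T k l ≤ (2 ^ l * (catalan l : ℝ)) * (√N) ^ (k + l) := by
  induction l using Nat.strong_induction_on with
  | _ l ih =>
    intro k
    rcases l with _ | l
    · unfold XX
      simp only [sum_wEq_zero, KK_nil]
      rw [pow_zero, catalan_zero, Nat.cast_one, mul_one, one_mul, add_zero]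
      calc √(∑ U ∈ wEq (α := α) k, ‖τ (wd T U)‖ ^ 2) ≤ √(N ^ k) := Real.sqrt_le_sqrt (hN k)
        _ = (√N) ^ k := by
          rw [Real.sqrt_eq_iff_mul_self_eq (by positivity) (by positivity), ← mul_pow,
            Real.mul_self_sqrt hN0]
    · refine (XX_rec τ T k l).trans ?_
      have s0 : 0 ≤ √N := Real.sqrt_nonneg N
      have b1 : XX τ T (k + 1) l ≤ (2 ^ l * (catalan l : ℝ)) * (√N) ^ (k + (l + 1)) := by
        have := ih l (by omega) (k + 1)
        rwa [show k + 1 + l = k + (l + 1) by ring] at this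
      have b2 : ∀ i ∈ Finset.range (l + 1), XX τ T 1 i * XX τ T k (l - i) ≤
          2 ^ l * ((catalan i * catalan (l - i) : ℕ) : ℝ) * (√N) ^ (k + (l + 1)) := by
        intro i hi
        rw [Finset.mem_range] at hi
        have c1 := ih i (by omega) 1
        have c2 := ih (l - i) (by omega) k
        calc XX τ T 1 i * XX τ T k (l - i)
            ≤ ((2 ^ i * (catalan i : ℝ)) * (√N) ^ (1 + i)) *
              ((2 ^ (l - i) * (catalan (l - i) : ℝ)) * (√N) ^ (k + (l - i))) :=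
              mul_le_mul c1 c2 (XX_nonneg _ _ _ _) (by positivity)
          _ = (2 ^ i * 2 ^ (l - i)) * ((catalan i : ℝ) * (catalan (l - i) : ℝ)) *
              ((√N) ^ (1 + i) * (√N) ^ (k + (l - i))) := by ring
          _ = _ := by
              rw [← pow_add, ← pow_add, show i + (l - i) = l by omega,
                show 1 + i + (k + (l - i)) = k + (l + 1) by omega]
              push_cast
              ring
      have b3 : ∑ i ∈ Finset.range (l + 1), XX τ T 1 i * XX τ T k (l - i) ≤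
          2 ^ l * (catalan (l + 1) : ℝ) * (√N) ^ (k + (l + 1)) := by
        refine (Finset.sum_le_sum b2).trans (le_of_eq ?_)
        rw [← Finset.sum_mul, ← Finset.mul_sum, catalan_succ_range]
        push_cast
        rfl
      have b4 : (catalan l : ℝ) ≤ (catalan (l + 1) : ℝ) := by
        have : catalan l ≤ catalan (l + 1) := by
          rw [catalan_succ_range]
          calc catalan l = catalan 0 * catalan (l - 0) := by rw [catalan_zero, one_mul, Nat.sub_zero]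
            _ ≤ _ := Finset.single_le_sum (f := fun i => catalan i * catalan (l - i))
                (fun i _ => Nat.zero_le _) (Finset.mem_range.mpr (by omega))
        exact_mod_cast this
      have b5 : (2 ^ l * (catalan l : ℝ)) * (√N) ^ (k + (l + 1)) ≤
          2 ^ l * (catalan (l + 1) : ℝ) * (√N) ^ (k + (l + 1)) := by gcongr
      calc XX τ T (k + 1) l + ∑ i ∈ Finset.range (l + 1), XX τ T 1 i * XX τ T k (l - i)
          ≤ 2 ^ l * (catalan (l + 1) : ℝ) * (√N) ^ (k + (l + 1)) +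
            2 ^ l * (catalan (l + 1) : ℝ) * (√N) ^ (k + (l + 1)) := by linarith
        _ = _ := by rw [pow_succ 2 l]; ring

/-- PROOF. `x k l = √(∑_{U ∈ wEq k} ∑_{V ∈ wEq l} ‖K(T_U, V)‖²)`. `x k 0 ≤ N^{k/2}` is `hN`.
By `KK_cons` (`dec` as a sum over `i ≤ l`: `sum_range_eq_dec`), `wd T U * T k = wd T (U ++ [k])`
and Minkowski over the index set `(U, k, V)`:
`x k (l+1) ≤ x (k+1) l + ∑_{i ≤ l} x 1 i * x k (l-i)` (for fixed `i` split `V = A ++ B` with
`sum_wEq_add`; the sum over `(U, k, A, B)` factorises). Induction on `l` (all `k`) gives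
`x k l ≤ d l * (√N)^(k+l)` where `d l = 2^l * catalan l`:
`d l + ∑_{i ≤ l} d i d (l-i) ≤ 2 ∑_{i ≤ l} d i d (l-i) = 2^{l+1} catalan (l+1)` as `d 0 = 1`. -/
theorem kk_bound [Fintype α] [DecidableEq α] (τ : A →ₗ[ℂ] ℂ) (T : α → A) (N : ℝ) (hN0 : 0 ≤ N)
    (hN : ∀ k, ∑ U ∈ wEq (α := α) k, ‖τ (wd T U)‖ ^ 2 ≤ N ^ k) (k l : ℕ) :
    ∑ U ∈ wEq (α := α) k, ∑ V ∈ wEq (α := α) l, ‖KK τ T (wd T U) V‖ ^ 2 ≤
      (2 ^ l * (catalan l : ℝ)) ^ 2 * N ^ (k + l) := by
  rw [← XX_sq]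
  calc XX τ T k l ^ 2 ≤ ((2 ^ l * (catalan l : ℝ)) * (√N) ^ (k + l)) ^ 2 :=
        pow_le_pow_left₀ (XX_nonneg _ _ _ _) (XX_le τ T N hN0 hN l k) 2
    _ = _ := by
      rw [mul_pow, ← pow_mul, mul_comm (k + l) 2, pow_mul, Real.sq_sqrt hN0]

/-- Consequence: geometric series with ratio `64 N / s ≤ 1/2`; uses `kk_bound` with `k = 1`
(`sum_wEq_succ`, `sum_wEq_zero`), `catalan_le_four_pow`, `sum_wLE`. -/
theorem kappa_bound [Fintype α] [DecidableEq α] (τ : A →ₗ[ℂ] ℂ) (T : α → A) (N : ℝ) (hN0 : 0 ≤ N)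
    (hN : ∀ k, ∑ U ∈ wEq (α := α) k, ‖τ (wd T U)‖ ^ 2 ≤ N ^ k) (s : ℝ) (hs : 0 < s)
    (hsN : 128 * N ≤ s) (L : ℕ) :
    ∑ i : α, ∑ V ∈ wLE (α := α) L, ‖KK τ T (T i) V‖ ^ 2 * (1 / s) ^ V.length ≤ 2 * N := by
  have h1 : ∑ i : α, ∑ V ∈ wLE (α := α) L, ‖KK τ T (T i) V‖ ^ 2 * (1 / s) ^ V.length =
      ∑ l ∈ Finset.range (L + 1), (1 / s) ^ l *
        ∑ U ∈ wEq (α := α) 1, ∑ V ∈ wEq (α := α) l, ‖KK τ T (wd T U) V‖ ^ 2 := by
    simp only [sum_wLE]
    rw [Finset.sum_comm]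
    refine Finset.sum_congr rfl fun l _ => ?_
    rw [sum_wEq_succ, Finset.mul_sum]
    simp only [sum_wEq_zero, wd_singleton]
    refine Finset.sum_congr rfl fun i _ => ?_
    rw [Finset.mul_sum]
    refine Finset.sum_congr rfl fun V hV => ?_
    rw [mem_wEq] at hV
    rw [hV]; ring
  have h2 : ∀ l ∈ Finset.range (L + 1), (1 / s) ^ l *
        ∑ U ∈ wEq (α := α) 1, ∑ V ∈ wEq (α := α) l, ‖KK τ T (wd T U) V‖ ^ 2 ≤
        N * (1 / 2) ^ l := by
    intro l _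
    have h3 := kk_bound τ T N hN0 hN 1 l
    have h4 : (catalan l : ℝ) ≤ 4 ^ l := by exact_mod_cast catalan_le_four_pow l
    have h5 : (2 ^ l * (catalan l : ℝ)) ^ 2 ≤ 64 ^ l := by
      calc (2 ^ l * (catalan l : ℝ)) ^ 2 ≤ (2 ^ l * 4 ^ l) ^ 2 := by gcongr
        _ = 64 ^ l := by
          rw [← mul_pow, ← pow_mul, mul_comm l 2, pow_mul]; norm_num
    calc (1 / s) ^ l * ∑ U ∈ wEq (α := α) 1, ∑ V ∈ wEq (α := α) l, ‖KK τ T (wd T U) V‖ ^ 2
        ≤ (1 / s) ^ l * ((2 ^ l * (catalan l : ℝ)) ^ 2 * N ^ (1 + l)) := by gcongr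
      _ ≤ (1 / s) ^ l * (64 ^ l * N ^ (1 + l)) := by gcongr
      _ = N * (64 * N / s) ^ l := by
          rw [div_pow, div_pow, mul_pow, one_pow, pow_add, pow_one]
          ring
      _ ≤ N * (1 / 2) ^ l := by
          have h7 : 64 * N / s ≤ 1 / 2 := by
            rw [div_le_div_iff₀ hs (by norm_num)]
            linarith
          have h8 : 0 ≤ 64 * N / s := by positivity
          exact mul_le_mul_of_nonneg_left (pow_le_pow_left₀ h8 h7 l) hN0
  rw [h1]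
  refine (Finset.sum_le_sum h2).trans ?_
  rw [← Finset.mul_sum]
  have h6 : ∑ l ∈ Finset.range (L + 1), (1 / 2 : ℝ) ^ l ≤ 2 := by
    rw [geom_sum_eq (by norm_num)]
    have : (0 : ℝ) < (1 / 2) ^ (L + 1) := by positivity
    have e : ((1 / 2 : ℝ) ^ (L + 1) - 1) / (1 / 2 - 1) = 2 - 2 * (1 / 2) ^ (L + 1) := by ring
    rw [e]
    linarith
  calc N * ∑ l ∈ Finset.range (L + 1), (1 / 2 : ℝ) ^ l ≤ N * 2 := by gcongr
    _ = 2 * N := by ring

end

end Crest.Agent.FE
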