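import Mathlib
import Crest.Agent.FE_K

/-! S0118 blueprint, file FE_Ident: the key algebraic identity
`τ(m Z_W) = ∑_V K(m,V) g(V) c_V(Z_W)`. -/

set_option autoImplicit false

namespace Crest.Agent.FE

open Finset

variable {α : Type*}

/-- `g(V) = ∏_{k ∈ V} (√v_k)⁻¹` -/
noncomputable def gw (v : α → ℝ) (V : List α) : ℝ := (V.map fun k => (√(v k))⁻¹).prod

@[simp] theorem gw_nil (v : α → ℝ) : gw v [] = 1 := rfl

@[simp] theorem gw_cons (v : α → ℝ) (k : α) (V : List α) :
    gw v (k :: V) = (√(v k))⁻¹ * gw v V := by simp [gw]

theorem gw_append (v : α → ℝ) (U V : List α) : gw v (U ++ V) = gw v U * gw v V := by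
  simp [gw]

variable [DecidableEq α]

/-- abstract hypotheses of the identity (words `W` stand for `Z_W`):
`c V W` is the `V`-th coefficient of `Z_W`. -/
structure CData {A : Type*} [Ring A] [Algebra ℂ A] (τ : A →ₗ[ℂ] ℂ) (T Z : α → A) (v : α → ℝ)
    (𝒜 : Subalgebra ℂ A) (c : List α → List α → ℂ) : Prop where
  one : τ 1 = 1
  tr : ∀ a b, τ (a * b) = τ (b * a)
  hT : ∀ k, T k ∈ 𝒜
  hv : ∀ k, 0 < v k
  c0 : ∀ W, c [] W = τ (wd Z W)
  cc : ∀ k V W, c (k :: V) W = (√(v k) : ℂ) * spl k (fun A B => τ (wd Z A) * c V B) W
  SD : ∀ k W, ∀ m ∈ 𝒜, τ ((Z k - T k) * wd Z W * m) =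
    (v k : ℂ) * spl k (fun A B => τ (wd Z A) * τ (wd Z B * m)) W

section
variable {A : Type*} [Ring A] [Algebra ℂ A] {τ : A →ₗ[ℂ] ℂ} {T Z : α → A} {v : α → ℝ}
    {𝒜 : Subalgebra ℂ A} {c : List α → List α → ℂ}

/-- coefficients of long words vanish (induction on `V`) -/
theorem CData.eq_zero (h : CData τ T Z v 𝒜 c) (V W : List α) (hVW : W.length < V.length) :
    c V W = 0 := by
  induction V generalizing W with
  | nil => simp at hVW
  | cons k V ih =>
    rw [h.cc]
    have : spl k (fun A B => τ (wd Z A) * c V B) W = 0 := by
      apply spl_eq_zero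
      intro A B hW
      have hB : B.length < V.length := by
        rw [hW] at hVW
        simp at hVW
        omega
      rw [ih B hB, mul_zero]
    rw [this, mul_zero]

/-- coproduct formula (induction on `U`, `spl_spl`) -/
theorem CData.coproduct (h : CData τ T Z v 𝒜 c) (U : List α) (j : α) (V W : List α) :
    c (U ++ j :: V) W = (√(v j) : ℂ) * spl j (fun A B => c U A * c V B) W := by
  induction U generalizing W with
  | nil =>
    rw [List.nil_append, h.cc]
    congr 1
    apply spl_congr
    intro A B _
    rw [h.c0]
  | cons k U ih =>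
    rw [List.cons_append, h.cc]
    have h1 : spl k (fun A B => τ (wd Z A) * c (U ++ j :: V) B) W
        = spl k (fun A B => spl j (fun C D =>
            (√(v j) : ℂ) * (τ (wd Z A) * c U C * c V D)) B) W := by
      apply spl_congr
      intro A B _
      rw [ih, spl_mul_left, ← spl_mul_left]
      rw [← spl_mul_left, ← spl_mul_left]
      apply spl_congr
      intro C D _
      ring
    rw [h1, spl_spl j k (fun A C D => (√(v j) : ℂ) * (τ (wd Z A) * c U C * c V D)) W]
    rw [← spl_mul_left, ← spl_mul_left]
    apply spl_congr
    intro A D _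
    rw [h.cc, spl_mul_left, spl_mul_right]
    ring

/-- THE IDENTITY. -/
theorem CData.ident [Fintype α] (h : CData τ T Z v 𝒜 c) (W : List α) (L : ℕ)
    (hL : W.length ≤ L) (m : A) (hm : m ∈ 𝒜) :
    τ (m * wd Z W) = ∑ V ∈ wLE (α := α) L, KK τ T m V * (gw v V : ℂ) * c V W := by
  induction hn : W.length using Nat.strong_induction_on generalizing W L m with
  | _ n IH =>
  have IH' : ∀ W' : List α, W'.length < n → ∀ L : ℕ, W'.length ≤ L → ∀ m ∈ 𝒜,
      τ (m * wd Z W') = ∑ V ∈ wLE (α := α) L, KK τ T m V * (gw v V : ℂ) * c V W' :=
    fun W' h1 L h2 m h3 => IH W'.length h1 W' L h2 m h3 rfl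
  clear IH
  cases W with
  | nil =>
    rw [Finset.sum_eq_single []]
    · rw [h.c0, wd_nil, h.one, KK_nil, gw_nil]
      simp
    · intro V _ hV
      have : c V [] = 0 := h.eq_zero V [] (by
        simp only [List.length_nil]
        exact List.length_pos_iff.2 hV)
      rw [this, mul_zero]
    · intro hcon
      exact absurd (mem_wLE.2 (by simp)) hcon
  | cons k W =>
    obtain ⟨L, rfl⟩ : ∃ L', L = L' + 1 := ⟨L - 1, by simp at hL; omega⟩
    have hWL : W.length ≤ L := by simp at hL; exact hL
    have hWn : W.length < n := by rw [← hn]; simp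
    have hone : (1 : A) ∈ 𝒜 := 𝒜.one_mem
    -- square roots
    have hsq : ∀ j, ((√(v j) : ℝ) : ℂ) ≠ 0 := fun j => by
      have := Real.sqrt_pos.2 (h.hv j)
      exact_mod_cast this.ne'
    -- LHS
    have e1 : m * wd Z (k :: W) = (m * T k) * wd Z W + m * ((Z k - T k) * wd Z W) := by
      rw [wd_cons]; noncomm_ring
    rw [e1, map_add]
    -- first term
    have t1 : τ ((m * T k) * wd Z W) =
        ∑ V ∈ wLE (α := α) L, KK τ T m (k :: V) * (gw v V : ℂ) * c V W +
        (KK τ T m [] * τ (T k * wd Z W) + ∑ j : α, ∑ V ∈ wLE (α := α) L,
          KK τ T m (j :: V) * (gw v V : ℂ) *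
            spl j (fun A B => τ (T k * wd Z A) * c V B) W) := by
      rw [IH' W hWn L hWL (m * T k) (𝒜.mul_mem hm (h.hT k))]
      have a1 : ∀ V : List α, KK τ T (m * T k) V * (gw v V : ℂ) * c V W =
          KK τ T m (k :: V) * (gw v V : ℂ) * c V W +
          dec (fun A B => KK τ T (T k) A * KK τ T m B * ((gw v A : ℂ) * (gw v B : ℂ)) *
            c (A ++ B) W) V := by
        intro V
        have b1 : KK τ T (m * T k) V = KK τ T m (k :: V) +
            dec (fun U W => KK τ T (T k) U * KK τ T m W) V := by
          rw [KK_cons]; ring
        have b2 : dec (fun A B => KK τ T (T k) A * KK τ T m B * ((gw v A : ℂ) * (gw v B : ℂ)) *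
            c (A ++ B) W) V = dec (fun U W => KK τ T (T k) U * KK τ T m W) V *
              ((gw v V : ℂ) * c V W) := by
          rw [← dec_mul_right]
          apply dec_congr
          intro A B hV
          rw [hV, gw_append]
          push_cast
          ring
        rw [b1, b2]
        ring
      rw [Finset.sum_congr rfl fun V _ => a1 V, Finset.sum_add_distrib]
      congr 1
      rw [sum_dec_eq L (L + 1) _ _ (Nat.le_succ L)]
      · rw [Finset.sum_comm, sum_wLE_succ]
        congr 1
        · rw [IH' W hWn L hWL (T k) (h.hT k), Finset.mul_sum]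
          apply Finset.sum_congr rfl
          intro A _
          rw [List.append_nil, gw_nil]
          push_cast
          ring
        · apply Finset.sum_congr rfl
          intro j _
          apply Finset.sum_congr rfl
          intro V _
          have b3 : spl j (fun A B => τ (T k * wd Z A) * c V B) W =
              ∑ X ∈ wLE (α := α) L, spl j (fun A B => (KK τ T (T k) X * (gw v X : ℂ)) *
                (c X A * c V B)) W := by
            rw [← spl_finset_sum]
            apply spl_congr
            intro A B hW
            have hA : A.length < W.length := by rw [hW]; simp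
            rw [IH' A (by omega) L (by omega) (T k) (h.hT k), Finset.sum_mul]
            apply Finset.sum_congr rfl
            intro X _
            ring
          rw [b3, Finset.mul_sum]
          apply Finset.sum_congr rfl
          intro X _
          rw [h.coproduct, spl_mul_left, gw_cons]
          have := hsq j
          push_cast
          field_simp
      · intro A B hAB
        rw [h.eq_zero (A ++ B) W (by rw [List.length_append]; omega), mul_zero]
    -- second term
    have t2 : τ (m * ((Z k - T k) * wd Z W)) =
        KK τ T m [] * τ ((Z k - T k) * wd Z W) + ∑ j : α, ∑ V ∈ wLE (α := α) L,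
          KK τ T m (j :: V) * (gw v V : ℂ) *
            spl j (fun A B => τ ((Z k - T k) * wd Z A) * c V B) W := by
      rw [h.tr, h.SD k W m hm]
      have a1 : spl k (fun A B => τ (wd Z A) * τ (wd Z B * m)) W =
          ∑ V ∈ wLE (α := α) (L + 1), (KK τ T m V * (gw v V : ℂ)) *
            spl k (fun A B => τ (wd Z A) * c V B) W := by
        have b1 : ∀ V : List α, (KK τ T m V * (gw v V : ℂ)) *
            spl k (fun A B => τ (wd Z A) * c V B) W =
            spl k (fun A B => (KK τ T m V * (gw v V : ℂ)) * (τ (wd Z A) * c V B)) W :=
          fun V => (spl_mul_left _ _ _ _).symm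
        rw [Finset.sum_congr rfl fun V _ => b1 V, ← spl_finset_sum]
        apply spl_congr
        intro A B hW
        have hB : B.length < W.length := by rw [hW]; simp; omega
        rw [h.tr (wd Z B) m, IH' B (by omega) (L + 1) (by omega) m hm, Finset.mul_sum]
        apply Finset.sum_congr rfl
        intro V _
        ring
      have sd1 : ∀ X : List α, (v k : ℂ) * spl k (fun A B => τ (wd Z A) * τ (wd Z B)) X =
          τ ((Z k - T k) * wd Z X) := by
        intro X
        have := h.SD k X 1 hone
        simp only [mul_one] at this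
        exact this.symm
      rw [a1, sum_wLE_succ, mul_add]
      congr 1
      · have b2 : spl k (fun A B => τ (wd Z A) * c [] B) W =
            spl k (fun A B => τ (wd Z A) * τ (wd Z B)) W := by
          apply spl_congr
          intro A B _
          rw [h.c0]
        rw [b2, ← sd1 W, gw_nil]
        push_cast
        ring
      · rw [Finset.mul_sum]
        apply Finset.sum_congr rfl
        intro j _
        rw [Finset.mul_sum]
        apply Finset.sum_congr rfl
        intro V _
        have b3 : spl k (fun A B => τ (wd Z A) * c (j :: V) B) W =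
            spl k (fun A B => spl j (fun C D =>
              (√(v j) : ℂ) * (τ (wd Z A) * τ (wd Z C) * c V D)) B) W := by
          apply spl_congr
          intro A B _
          rw [h.cc, ← spl_mul_left, ← spl_mul_left]
          apply spl_congr
          intro C D _
          ring
        rw [b3, spl_spl j k (fun A C D => (√(v j) : ℂ) * (τ (wd Z A) * τ (wd Z C) * c V D)) W,
          gw_cons]
        have b4 : spl j (fun A D => spl k (fun B C =>
            (√(v j) : ℂ) * (τ (wd Z B) * τ (wd Z C) * c V D)) A) W =
            (√(v j) : ℂ) * spl j (fun A D => spl k (fun B C => τ (wd Z B) * τ (wd Z C)) A *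
              c V D) W := by
          rw [← spl_mul_left]
          apply spl_congr
          intro A D _
          rw [spl_mul_left, spl_mul_right]
        have b5 : (v k : ℂ) * spl j (fun A D => spl k (fun B C => τ (wd Z B) * τ (wd Z C)) A *
              c V D) W = spl j (fun A B => τ ((Z k - T k) * wd Z A) * c V B) W := by
          rw [← spl_mul_left]
          apply spl_congr
          intro A D _
          rw [← sd1 A]
          ring
        rw [b4, ← b5]
        have := hsq j
        push_cast
        field_simp
    -- right-hand side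
    rw [t1, t2, sum_wLE_succ, h.c0, wd_cons]
    have r1 : ∀ (j : α) (V : List α), KK τ T m (j :: V) * (gw v (j :: V) : ℂ) * c (j :: V) (k :: W)
        = (if k = j then KK τ T m (j :: V) * (gw v V : ℂ) * c V W else 0) +
          (KK τ T m (j :: V) * (gw v V : ℂ) * spl j (fun A B => τ (T k * wd Z A) * c V B) W +
          KK τ T m (j :: V) * (gw v V : ℂ) *
            spl j (fun A B => τ ((Z k - T k) * wd Z A) * c V B) W) := by
      intro j V
      rw [h.cc, spl_cons, gw_cons]
      have b1 : spl j (fun A B => τ (wd Z (k :: A)) * c V B) W =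
          spl j (fun A B => τ (T k * wd Z A) * c V B) W +
          spl j (fun A B => τ ((Z k - T k) * wd Z A) * c V B) W := by
        rw [← spl_add]
        apply spl_congr
        intro A B _
        rw [wd_cons, ← add_mul, ← map_add]
        congr 3
        noncomm_ring
      rw [b1, wd_nil, h.one]
      have := hsq j
      push_cast
      split_ifs
      · field_simp
      · field_simp
        ring
    simp only [r1, Finset.sum_add_distrib]
    have r2 : ∑ j : α, ∑ V ∈ wLE (α := α) L,
        (if k = j then KK τ T m (j :: V) * (gw v V : ℂ) * c V W else 0) =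
        ∑ V ∈ wLE (α := α) L, KK τ T m (k :: V) * (gw v V : ℂ) * c V W := by
      rw [Finset.sum_eq_single k]
      · simp
      · intro j _ hj
        simp [Ne.symm hj]
      · intro hcon
        exact absurd (Finset.mem_univ k) hcon
    have r3 : τ (Z k * wd Z W) = τ (T k * wd Z W) + τ ((Z k - T k) * wd Z W) := by
      rw [← map_add]; congr 1; noncomm_ring
    rw [r2, r3, gw_nil]
    push_cast
    ring

end

end Crest.Agent.FE
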