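import Mathlib
import Crest.Agent.FE_Ident
import Crest.Prelude.Def_CStarRep

/-! S0118 blueprint, file FE_FisherA: the three bounds for the free Fisher information, from
abstract data. -/

set_option autoImplicit false

namespace Crest.Agent.FE

open Finset Crest.OpAlg
open scoped ENNReal

/-- abstract data of `Z = T + G` at a fixed time: `T_k` in the algebra `𝒜`, `G = Z - T`
semicircular of variances `v`, and coefficient functionals `c V` -/
structure HD {n : ℕ} {A : Type*} [CStarAlgebra A] (τ : A →ₗ[ℂ] ℂ) (T Z : Fin n → A)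
    (v : Fin n → ℝ) (𝒜 : Subalgebra ℂ A) (c : List (Fin n) → (A →ₗ[ℂ] ℂ)) : Prop where
  tr : IsFaithfulTracialState τ
  hT : ∀ k, T k ∈ 𝒜
  saT : ∀ k, IsSelfAdjoint (T k)
  saZ : ∀ k, IsSelfAdjoint (Z k)
  hv : ∀ k, 0 < v k
  SD : ∀ k W, ∀ m ∈ 𝒜, τ ((Z k - T k) * wd Z W * m) =
    (v k : ℂ) * spl k (fun A B => τ (wd Z A) * τ (wd Z B * m)) W
  c0 : ∀ Y, c [] Y = τ Y
  cc : ∀ k V W, c (k :: V) (wd Z W) =
    (√(v k) : ℂ) * spl k (fun A B => τ (wd Z A) * c V (wd Z B)) W
  bessel : ∀ L Y, ∑ V ∈ wLE (α := Fin n) L, ‖c V Y‖ ^ 2 ≤ (τ (Y * star Y)).re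

section
variable {n : ℕ} {A : Type*} [CStarAlgebra A] {τ : A →ₗ[ℂ] ℂ} {T Z : Fin n → A}
    {v : Fin n → ℝ} {𝒜 : Subalgebra ℂ A} {c : List (Fin n) → (A →ₗ[ℂ] ℂ)}

/-- positive semidefinite form `⟨a, b⟩ = τ(a⋆ b)`: hermitian symmetry
(polarization of `(τ (a⋆a)).im = 0`) -/
theorem tau_star (hτ : IsFaithfulTracialState τ) (a : A) : τ (star a) = starRingEnd ℂ (τ a) := by
  obtain ⟨h1, hpos, -, -⟩ := hτ
  have ha := (hpos a).1
  have e1 := (hpos (1 + a)).1
  have e2 := (hpos (1 + Complex.I • a)).1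
  have x1 : τ (star (1 + a) * (1 + a)) = τ 1 + τ a + τ (star a) + τ (star a * a) := by
    rw [star_add, star_one, add_mul, mul_add, mul_add, one_mul, one_mul, mul_one, map_add, map_add,
      map_add]
    ring
  have x2 : τ (star (1 + Complex.I • a) * (1 + Complex.I • a)) =
      τ 1 + Complex.I * τ a - Complex.I * τ (star a) + τ (star a * a) := by
    rw [star_add, star_one, star_smul, add_mul, mul_add, mul_add, one_mul, one_mul, mul_one,
      map_add, map_add, map_add, smul_mul_smul_comm, map_smul, map_smul, map_smul]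
    simp only [smul_eq_mul, RCLike.star_def, Complex.conj_I]
    have : -Complex.I * Complex.I = 1 := by rw [neg_mul, Complex.I_mul_I, neg_neg]
    rw [this]
    ring
  rw [x1, h1] at e1
  rw [x2, h1] at e2
  simp only [Complex.add_im, Complex.one_im, ha] at e1
  simp only [Complex.add_im, Complex.sub_im, Complex.one_im, Complex.mul_im, Complex.I_re,
    Complex.I_im, ha] at e2
  apply Complex.ext
  · rw [Complex.conj_re]; linarith
  · rw [Complex.conj_im]; linarith

theorem HD.cdata (h : HD τ T Z v 𝒜 c) : CData τ T Z v 𝒜 (fun V W => c V (wd Z W)) where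
  one := h.tr.1
  tr := h.tr.2.2.2
  hT := h.hT
  hv := h.hv
  c0 := fun W => h.c0 _
  cc := fun k V => h.cc k V
  SD := h.SD

/-- `(τ ⊗ τ)(∂_i P(Z)) = τ(G_i P(Z)) / v_i` (`splitPairing_eq`, `polyEval_eq`, `SD` with `m = 1`) -/
theorem HD.splitPairing_eq (h : HD τ T Z v 𝒜 c) (i : Fin n) (P : NCPoly n) :
    splitPairing τ Z i P = (v i : ℂ)⁻¹ * τ ((Z i - T i) * polyEval Z P) := by
  have hv : (v i : ℂ) ≠ 0 := by exact_mod_cast (h.hv i).ne'
  rw [FE.splitPairing_eq, polyEval_eq]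
  unfold Finsupp.sum
  rw [Finset.mul_sum, map_sum, Finset.mul_sum]
  refine Finset.sum_congr rfl fun w _ => ?_
  have hS := h.SD i (FreeMonoid.toList w) 1 𝒜.one_mem
  simp only [mul_one] at hS
  rw [mul_smul_comm, map_smul, hS, smul_eq_mul]
  field_simp

/-- `τ(G_i G_i) = v_i`, `τ(G_i m) = 0` -/
theorem HD.tau_GG (h : HD τ T Z v 𝒜 c) (i : Fin n) :
    τ ((Z i - T i) * (Z i - T i)) = v i := by
  have h1 := h.SD i [i] 1 𝒜.one_mem
  have h2 := h.SD i [] (T i) (h.hT i)
  simp only [wd_cons, wd_nil, mul_one, spl_cons, spl_nil, if_true, add_zero, h.tr.1,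
    mul_zero] at h1 h2
  rw [mul_sub, map_sub, h1, h2, sub_zero]

theorem HD.tau_Gm (h : HD τ T Z v 𝒜 c) (i : Fin n) (m : A) (hm : m ∈ 𝒜) :
    τ ((Z i - T i) * m) = 0 := by
  have h2 := h.SD i [] m hm
  simpa using h2

/-- one term of the variational formula -/
theorem HD.term_le (h : HD τ T Z v 𝒜 c) (i : Fin n) (P : NCPoly n) (hP : polyStar P = P) :
    (2 * splitPairing τ Z i P - τ (polyEval Z P * polyEval Z P)).re ≤ 1 / v i := by
  have hv := h.hv i
  have hG : star (Z i - T i) = Z i - T i := by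
    rw [star_sub, (h.saZ i).star_eq, (h.saT i).star_eq]
  have hp : star (polyEval Z P) = polyEval Z P := (isSelfAdjoint_polyEval Z h.saZ P hP).star_eq
  rw [h.splitPairing_eq]
  set G := Z i - T i with hGdef
  set p := polyEval Z P with hpdef
  have hpos := (h.tr.2.1 (p - ((v i : ℂ)⁻¹) • G)).2
  have hcomm : τ (p * G) = τ (G * p) := h.tr.2.2.2 _ _
  have hGG : τ (G * G) = v i := h.tau_GG i
  have hst : star (((v i : ℂ)⁻¹) • G) = ((v i : ℂ)⁻¹) • G := by
    rw [star_smul, hG]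
    congr 1
    simp
  have e : τ (star (p - ((v i : ℂ)⁻¹) • G) * (p - ((v i : ℂ)⁻¹) • G)) =
      τ (p * p) - 2 * ((v i : ℂ)⁻¹ * τ (G * p)) + (v i : ℂ)⁻¹ := by
    rw [star_sub, hp, hst, sub_mul, mul_sub, mul_sub, map_sub, map_sub, map_sub,
      mul_smul_comm, smul_mul_assoc, smul_mul_smul_comm, map_smul, map_smul, map_smul, hcomm, hGG]
    simp only [smul_eq_mul]
    have hv' : (v i : ℂ) ≠ 0 := by exact_mod_cast hv.ne'
    field_simp
    ring
  rw [e] at hpos
  have hinv : ((v i : ℂ)⁻¹).re = 1 / v i := by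
    rw [← Complex.ofReal_inv, Complex.ofReal_re, one_div]
  rw [Complex.add_re, Complex.sub_re, hinv] at hpos
  rw [Complex.sub_re]
  linarith

/-- (i) PROOF: `G = Z_i - T_i`, `p = P_i(Z)` self-adjoint
(`isSelfAdjoint_polyEval`). `2 τ(G p)/v - τ(p p) ≤ τ(G G)/v² = 1/v`
because `0 ≤ τ((p - G/v)⋆(p - G/v))`. -/
theorem HD.fisher_le (h : HD τ T Z v 𝒜 c) :
    freeFisher τ Z ≤ ENNReal.ofReal (∑ i, 1 / v i) := by
  unfold freeFisher
  refine iSup_le fun P => iSup_le fun hP => ?_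
  apply ENNReal.ofReal_le_ofReal
  rw [Complex.re_sum]
  exact Finset.sum_le_sum fun i _ => h.term_le i (P i) (hP i)

theorem ffa_tau_GT (h : HD τ T Z v 𝒜 c) (i : Fin n) :
    τ (Z i * Z i) = τ (T i * T i) + v i := by
  have h1 := h.tau_GG i
  have h2 := h.tau_Gm i (T i) (h.hT i)
  have h3 : τ (T i * (Z i - T i)) = 0 := by rw [h.tr.2.2.2, h2]
  have e : Z i * Z i = (Z i - T i) * (Z i - T i) + (Z i - T i) * T i + T i * (Z i - T i) +
      T i * T i := by noncomm_ring
  rw [e, map_add, map_add, map_add, h1, h2, h3]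
  ring

theorem ffa_polyEval_single (X : Fin n → A) (i : Fin n) (r : ℂ) :
    polyEval X (MonoidAlgebra.single (FreeMonoid.of i) r) = r • X i := by
  unfold polyEval
  rw [MonoidAlgebra.lift_single]
  simp

theorem ffa_polyStar_single (i : Fin n) (r : ℝ) :
    polyStar (MonoidAlgebra.single (FreeMonoid.of i) (r : ℂ) : NCPoly n) =
      MonoidAlgebra.single (FreeMonoid.of i) (r : ℂ) := by
  unfold polyStar
  have : ((MonoidAlgebra.single (FreeMonoid.of i) (r : ℂ) : NCPoly n)).coeff =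
      Finsupp.single (FreeMonoid.of i) (r : ℂ) := by
    rfl
  rw [this, Finsupp.sum_single_index]
  · simp [FreeMonoid.toList_of]
  · simp

/-- (ii) PROOF: test polynomials `P_i = r • Z_i`, `r = n / D`,
`D = ∑ (τ(T_i T_i).re + v_i)`: `splitPairing = r`, `∑ τ(P_i(Z)²) = r² D`. -/
theorem HD.fisher_ge (h : HD τ T Z v 𝒜 c) (hn : 1 ≤ n) :
    ENNReal.ofReal ((n : ℝ) ^ 2 / ∑ i, ((τ (T i * T i)).re + v i)) ≤ freeFisher τ Z := by
  set D : ℝ := ∑ i, ((τ (T i * T i)).re + v i) with hD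
  have hDpos : 0 < D := by
    rw [hD]
    have : Nonempty (Fin n) := ⟨⟨0, hn⟩⟩
    refine Finset.sum_pos (fun i _ => ?_) Finset.univ_nonempty
    have h1 := (h.tr.2.1 (T i)).2
    rw [(h.saT i).star_eq] at h1
    have h2 := h.hv i
    linarith
  set r : ℝ := n / D with hr
  unfold freeFisher
  refine le_trans (le_of_eq ?_) (le_iSup₂ (f := fun (P : Fin n → NCPoly n)
    (_ : ∀ i, polyStar (P i) = P i) => ENNReal.ofReal (∑ i, (2 * splitPairing τ Z i (P i) -
      τ (polyEval Z (P i) * polyEval Z (P i)))).re)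
    (fun i => MonoidAlgebra.single (FreeMonoid.of i) (r : ℂ)) (fun i => ffa_polyStar_single i r))
  congr 1
  rw [Complex.re_sum]
  have hterm : ∀ i : Fin n, (2 * splitPairing τ Z i (MonoidAlgebra.single (FreeMonoid.of i) (r : ℂ)) -
      τ (polyEval Z (MonoidAlgebra.single (FreeMonoid.of i) (r : ℂ)) *
        polyEval Z (MonoidAlgebra.single (FreeMonoid.of i) (r : ℂ)))).re =
      2 * r - r ^ 2 * ((τ (T i * T i)).re + v i) := by
    intro i
    have hv : (v i : ℂ) ≠ 0 := by exact_mod_cast (h.hv i).ne'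
    rw [h.splitPairing_eq, ffa_polyEval_single, mul_smul_comm, map_smul, smul_mul_smul_comm,
      map_smul, ffa_tau_GT h]
    have h1 : τ ((Z i - T i) * Z i) = v i := by
      have h2 := h.tau_GG i
      have h3 := h.tau_Gm i (T i) (h.hT i)
      have e : (Z i - T i) * Z i = (Z i - T i) * (Z i - T i) + (Z i - T i) * T i := by
        noncomm_ring
      rw [e, map_add, h2, h3, add_zero]
    rw [h1]
    simp only [smul_eq_mul]
    have e2 : 2 * ((v i : ℂ)⁻¹ * ((r : ℂ) * (v i : ℂ))) = ((2 * r : ℝ) : ℂ) := by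
      push_cast
      field_simp
    have e3 : (r : ℂ) * (r : ℂ) = ((r ^ 2 : ℝ) : ℂ) := by push_cast; ring
    rw [e2, e3, Complex.sub_re, Complex.ofReal_re, Complex.re_ofReal_mul, Complex.add_re,
      Complex.ofReal_re]
  rw [Finset.sum_congr rfl (fun i _ => hterm i), Finset.sum_sub_distrib, ← Finset.mul_sum,
    ← Finset.mul_sum, ← hD, Finset.sum_const, Finset.card_univ, Fintype.card_fin, nsmul_eq_mul, hr]
  field_simp
  ring

end

end Crest.Agent.FE
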