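import Mathlib
import Crest.Agent.FE_Eval
import Crest.Prelude.Def_CStarRep

/-! S0118 blueprint, file FE_Fock: full Fock space `ℓ²(List ι)`, left and right creation
operators. -/

set_option autoImplicit false

namespace Crest.Agent.FE

open Finset Crest.OpAlg
open scoped ENNReal InnerProductSpace

/-- full Fock space -/
abbrev Fock (ι : Type) : Type := lp (fun _ : List ι => ℂ) 2

/-- bounded operators -/
abbrev BH (ι : Type) : Type := Fock ι →L[ℂ] Fock ι

variable {ι : Type}

theorem summable_sq (f : Fock ι) : Summable fun w => ‖f w‖ ^ (2 : ℝ) := by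
  have := lp.memℓp f
  rw [memℓp_gen_iff (by norm_num)] at this
  simpa using this

theorem memℓp_comp (φ : List ι → List ι) (hφ : Function.Injective φ) (f : Fock ι) :
    Memℓp (fun w => f (φ w)) 2 := by
  have h := (summable_sq f).comp_injective hφ
  refine memℓp_gen ?_
  simpa [Function.comp_def] using h

/-- composition with an injective map of words -/
noncomputable def pullVec (φ : List ι → List ι) (hφ : Function.Injective φ) (f : Fock ι) :
    Fock ι := ⟨fun w => f (φ w), memℓp_comp φ hφ f⟩

theorem pullVec_apply (φ : List ι → List ι) (hφ : Function.Injective φ) (f : Fock ι)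
    (w : List ι) : pullVec φ hφ f w = f (φ w) := rfl

/-- composition with an injective map of words, as an operator -/
noncomputable def pull (φ : List ι → List ι) (hφ : Function.Injective φ) : BH ι :=
  LinearMap.mkContinuous
    { toFun := pullVec φ hφ
      map_add' := fun f g => by ext w; simp [pullVec]
      map_smul' := fun c f => by ext w; simp [pullVec] } 1 (by
    intro f
    rw [one_mul]
    have h2 : (0:ℝ) < (2:ℝ≥0∞).toReal := by norm_num
    have h := (summable_sq f)
    have hl := lp.norm_rpow_eq_tsum h2 (pullVec φ hφ f)
    have hr := lp.norm_rpow_eq_tsum h2 f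
    simp only [ENNReal.toReal_ofNat, pullVec_apply] at hl hr
    have hle : (∑' w, ‖f (φ w)‖ ^ (2:ℝ)) ≤ ∑' w, ‖f w‖ ^ (2:ℝ) := by
      refine Summable.tsum_le_tsum_of_inj φ hφ (fun c _ => by positivity) (fun i => le_rfl)
        (h.comp_injective hφ) h
    have : ‖pullVec φ hφ f‖ ^ (2:ℝ) ≤ ‖f‖ ^ (2:ℝ) := by
      rw [hl, hr]; exact hle
    exact (Real.rpow_le_rpow_iff (norm_nonneg _) (norm_nonneg _) (by norm_num)).1 this)

@[simp] theorem pull_apply (φ : List ι → List ι) (hφ : Function.Injective φ) (f : Fock ι)
    (w : List ι) : pull φ hφ f w = f (φ w) := rfl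

/-- left annihilation operator: `(la i f) w = f (i :: w)` -/
noncomputable def la (i : ι) : BH ι := pull (fun w => i :: w) (List.cons_injective)

/-- right annihilation operator: `(ra i f) w = f (w ++ [i])` -/
noncomputable def ra (i : ι) : BH ι := pull (fun w => w ++ [i]) (List.append_left_injective [i])

/-- left creation operator -/
noncomputable def lc (i : ι) : BH ι := star (la i)

/-- right creation operator -/
noncomputable def rc (i : ι) : BH ι := star (ra i)

@[simp] theorem la_apply (i : ι) (f : Fock ι) (w : List ι) : la i f w = f (i :: w) := rfl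

@[simp] theorem ra_apply (i : ι) (f : Fock ι) (w : List ι) : ra i f w = f (w ++ [i]) := rfl

theorem star_lc (i : ι) : star (lc i) = la i := star_star _

theorem star_rc (i : ι) : star (rc i) = ra i := star_star _

open Classical in
/-- basis vector -/
noncomputable def dl (w : List ι) : Fock ι := lp.single 2 w (1 : ℂ)

open Classical in
@[simp] theorem dl_apply (w x : List ι) : dl w x = if x = w then (1 : ℂ) else 0 := by
  unfold dl
  simp [lp.single_apply, Pi.single_apply]

/-- vacuum vector -/
noncomputable def vac : Fock ι := dl []

open Classical in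
/-- coordinates as inner products -/
theorem inner_dl (w : List ι) (f : Fock ι) : ⟪dl w, f⟫_ℂ = f w := by
  unfold dl
  rw [lp.inner_single_left]; simp

open Classical in
theorem lc_nil (i : ι) (f : Fock ι) : lc i f [] = 0 := by
  rw [← inner_dl, lc, ContinuousLinearMap.star_eq_adjoint, ContinuousLinearMap.adjoint_inner_right]
  have : la i (dl ([] : List ι)) = 0 := by ext w; simp
  simp [this]

open Classical in
theorem lc_cons (i j : ι) (f : Fock ι) (w : List ι) :
    lc i f (j :: w) = if j = i then f w else 0 := by
  rw [← inner_dl, lc, ContinuousLinearMap.star_eq_adjoint, ContinuousLinearMap.adjoint_inner_right]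
  have : la i (dl (j :: w)) = if j = i then dl w else 0 := by
    ext x
    by_cases h : j = i
    · subst h; simp
    · have : ¬ (i = j) := fun h' => h h'.symm
      simp [h, this]
  rw [this]
  split_ifs with h
  · rw [inner_dl]
  · simp

open Classical in
theorem rc_nil (i : ι) (f : Fock ι) : rc i f [] = 0 := by
  rw [← inner_dl, rc, ContinuousLinearMap.star_eq_adjoint, ContinuousLinearMap.adjoint_inner_right]
  have : ra i (dl ([] : List ι)) = 0 := by ext w; simp
  simp [this]

open Classical in
theorem rc_snoc (i j : ι) (f : Fock ι) (w : List ι) :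
    rc i f (w ++ [j]) = if j = i then f w else 0 := by
  rw [← inner_dl, rc, ContinuousLinearMap.star_eq_adjoint, ContinuousLinearMap.adjoint_inner_right]
  have : ra i (dl (w ++ [j])) = if j = i then dl w else 0 := by
    ext x
    by_cases h : j = i
    · subst h; simp
    · have : ¬ (i = j) := fun h' => h h'.symm
      simp [h, this]
  rw [this]
  split_ifs with h
  · rw [inner_dl]
  · simp

end Crest.Agent.FE
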