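import Mathlib
import Crest.Agent.FE_Fock

/-! S0118 blueprint, file FE_FockRel: relations between left semicirculars and right creation
operators. -/

set_option autoImplicit false

namespace Crest.Agent.FE

open Finset Crest.OpAlg
open scoped ENNReal InnerProductSpace

variable {ι : Type}

/-- projection onto the vacuum -/
noncomputable def PO : BH ι := (innerSL ℂ (vac : Fock ι)).smulRight vac

theorem PO_apply (f : Fock ι) : PO f = f [] • vac := by
  simp only [PO, ContinuousLinearMap.smulRight_apply, innerSL_apply_apply]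
  rw [vac, inner_dl]

/-- semicircular operators -/
noncomputable def sc (i : ι) : BH ι := lc i + la i

theorem isSelfAdjoint_sc (i : ι) : IsSelfAdjoint (sc i) := by
  unfold IsSelfAdjoint sc
  rw [star_add, star_lc, lc, add_comm]

theorem norm_pull_le (φ : List ι → List ι) (hφ : Function.Injective φ) : ‖pull φ hφ‖ ≤ 1 :=
  LinearMap.mkContinuous_norm_le _ zero_le_one _

theorem norm_la_le (i : ι) : ‖la i‖ ≤ 1 := norm_pull_le _ _

theorem norm_lc_le (i : ι) : ‖lc i‖ ≤ 1 := by
  rw [lc, ContinuousLinearMap.star_eq_adjoint, LinearIsometryEquiv.norm_map]; exact norm_la_le i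

theorem norm_ra_le (i : ι) : ‖ra i‖ ≤ 1 := norm_pull_le _ _

theorem norm_rc_le (i : ι) : ‖rc i‖ ≤ 1 := by
  rw [rc, ContinuousLinearMap.star_eq_adjoint, LinearIsometryEquiv.norm_map]; exact norm_ra_le i

theorem norm_sc_le (i : ι) : ‖sc i‖ ≤ 2 := by
  calc ‖sc i‖ ≤ ‖lc i‖ + ‖la i‖ := norm_add_le _ _
    _ ≤ 1 + 1 := add_le_add (norm_lc_le i) (norm_la_le i)
    _ = 2 := by norm_num

open Classical in
theorem ra_mul_rc (i j : ι) : ra i * rc j = if i = j then 1 else 0 := by
  ext f w
  rw [mul_apply_eq_comp, ra_apply, rc_snoc]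
  split_ifs <;> simp

theorem ra_vac (i : ι) : ra i vac = 0 := by
  ext w
  simp [vac]

theorem la_vac (i : ι) : la i vac = 0 := by
  ext w
  simp [vac]

theorem lc_dl (i : ι) (w : List ι) : lc i (dl w) = dl (i :: w) := by
  classical
  ext x
  cases x with
  | nil => rw [lc_nil]; simp
  | cons a x =>
    rw [lc_cons, dl_apply, dl_apply]
    by_cases h : a = i <;> by_cases h' : x = w <;> simp [h, h']

theorem rc_dl (i : ι) (w : List ι) : rc i (dl w) = dl (w ++ [i]) := by
  classical
  ext x
  rcases List.eq_nil_or_concat x with rfl | ⟨x, a, rfl⟩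
  · rw [rc_nil]; simp
  · rw [List.concat_eq_append, rc_snoc, dl_apply, dl_apply]
    by_cases h : a = i <;> by_cases h' : x = w <;> simp [h, h']

theorem sc_vac (i : ι) : sc i vac = rc i vac := by
  rw [sc, add_apply, la_vac, add_zero, vac, lc_dl, rc_dl]; rfl

open Classical in
theorem sc_mul_rc (i j : ι) : sc j * rc i = rc i * sc j + if i = j then PO else 0 := by
  ext f w
  have hif : ∀ w, ((if i = j then PO else 0 : BH ι) f) w =
      if i = j then f [] * (vac : Fock ι) w else 0 := by
    intro w; split_ifs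
    · rw [PO_apply]; simp
    · simp
  simp only [mul_apply_eq_comp, add_apply, sc, lp.coeFn_add,
    Pi.add_apply, hif]
  rw [map_add, lp.coeFn_add, Pi.add_apply, la_apply]
  rcases List.eq_nil_or_concat w with rfl | ⟨x, a, rfl⟩
  · rw [lc_nil, rc_nil, rc_nil]
    have := rc_snoc i j f []
    rw [List.nil_append] at this
    rw [this]
    by_cases h : i = j
    · subst h; simp [vac]
    · have h2 : ¬ (j = i) := fun h' => h h'.symm
      simp [h, h2]
  · rw [List.concat_eq_append]
    have h1 : rc i f (j :: (x ++ [a])) = if a = i then f (j :: x) else 0 := by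
      rw [← List.cons_append, rc_snoc]
    have h2 : (vac : Fock ι) (x ++ [a]) = 0 := by simp [vac]
    rw [h1, rc_snoc, rc_snoc, la_apply, h2]
    cases x with
    | nil =>
      rw [List.nil_append, lc_cons, lc_nil, rc_nil]
      by_cases h : i = j <;> simp [h]
    | cons b x =>
      rw [List.cons_append, lc_cons, lc_cons, rc_snoc]
      by_cases h : i = j <;> by_cases h' : b = j <;> by_cases h'' : a = i <;> simp [h, h', h'']

open Classical in
theorem PO_star : star (PO : BH ι) = PO := by
  rw [ContinuousLinearMap.star_eq_adjoint]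
  refine (ContinuousLinearMap.eq_adjoint_iff _ _).2 ?_ |>.symm
  intro x y
  rw [PO_apply, PO_apply, inner_smul_left, inner_smul_right, vac, inner_dl]
  rw [← inner_conj_symm x (dl []), inner_dl]
  ring

open Classical in
theorem ra_mul_sc (i j : ι) : ra i * sc j = sc j * ra i + if i = j then PO else 0 := by
  have h := congrArg star (sc_mul_rc i j)
  rw [star_mul, star_add, star_mul, star_rc, (isSelfAdjoint_sc j).star_eq] at h
  rw [h]
  congr 1
  split_ifs
  · exact PO_star
  · simp

/-- right semicirculars commute with left semicirculars -/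
theorem sc_comm_rr (i j : ι) : sc j * (rc i + ra i) = (rc i + ra i) * sc j := by
  classical
  rw [mul_add, add_mul, sc_mul_rc, ra_mul_sc]
  abel

/-- the vacuum functional on bounded operators -/
noncomputable def tauB : BH ι →ₗ[ℂ] ℂ where
  toFun T := T vac []
  map_add' := by intro S T; simp
  map_smul' := by intro c T; simp

theorem tauB_apply (T : BH ι) : tauB T = T vac [] := rfl

theorem tauB_eq_inner (T : BH ι) : tauB T = ⟪(vac : Fock ι), T vac⟫_ℂ := by
  rw [tauB_apply, ← inner_dl]; rfl

theorem continuous_tauB : Continuous (tauB : BH ι → ℂ) := by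
  have : (tauB : BH ι → ℂ) = fun T => ⟪(vac : Fock ι), T vac⟫_ℂ := by
    funext T; exact tauB_eq_inner T
  rw [this]
  fun_prop

theorem tauB_one : tauB (1 : BH ι) = 1 := by
  rw [tauB_apply]; simp [vac]

theorem tauB_star (T : BH ι) : tauB (star T) = starRingEnd ℂ (tauB T) := by
  rw [tauB_eq_inner, tauB_eq_inner, ContinuousLinearMap.star_eq_adjoint,
    ContinuousLinearMap.adjoint_inner_right, inner_conj_symm]

/-- `⟨Ω, T S Ω⟩ = ⟨T⋆ Ω, S Ω⟩` -/
theorem tauB_mul (T S : BH ι) : tauB (T * S) = ⟪star T vac, S vac⟫_ℂ := by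
  rw [tauB_eq_inner, ContinuousLinearMap.star_eq_adjoint, ContinuousLinearMap.adjoint_inner_left]
  rfl

end Crest.Agent.FE
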