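import Mathlib
import Crest.Agent.FE_FockRel

/-! S0118 blueprint, file FE_FockWord: commutation along words; separating vacuum. -/

set_option autoImplicit false

namespace Crest.Agent.FE

open Finset Crest.OpAlg
open scoped ENNReal InnerProductSpace

variable {ι : Type}

theorem eq_zero_of_dl (T : BH ι) (h : ∀ w, T (dl w) = 0) : T = 0 := by
  classical
  ext1 f
  have hs := lp.hasSum_single (p := 2) (by norm_num) f
  have hs' := T.hasSum hs
  have hz : (fun w => T (lp.single 2 w (f w))) = fun _ => (0 : Fock ι) := by
    funext w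
    have : lp.single 2 w (f w) = f w • (dl w : Fock ι) := by
      unfold dl
      rw [← lp.single_smul]
      simp
    rw [this, map_smul, h, smul_zero]
  rw [hz] at hs'
  simpa using hs'.unique hasSum_zero

theorem ra_dl (i : ι) (u : List ι) :
    ra i (dl u) = 0 ∨ ∃ v, v.length < u.length ∧ ra i (dl u) = dl v := by
  classical
  rcases List.eq_nil_or_concat u with rfl | ⟨v, j, rfl⟩
  · exact Or.inl (ra_vac i)
  · by_cases h : j = i
    · subst h
      right
      refine ⟨v, by simp, ?_⟩
      ext x
      simp
    · left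
      ext x
      have : ¬ (i = j) := fun h' => h h'.symm
      simp [this]

/-- a bounded operator commuting with all right semicirculars and killing the vacuum is zero
(the vectors `dl w` are limits/linear combinations of right words applied to the vacuum:
`(rc i + ra i) (dl w) = dl (w ++ [i]) + (0 or dl (w.dropLast))`; induct to get `T (dl w) = 0`
for all `w`, then density of finitely supported vectors) -/
theorem eq_zero_of_vac (T : BH ι) (hT : ∀ i, T * (rc i + ra i) = (rc i + ra i) * T)
    (h0 : T vac = 0) : T = 0 := by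
  refine eq_zero_of_dl T ?_
  intro w
  induction hn : w.length using Nat.strong_induction_on generalizing w with
  | _ n ih =>
    rcases List.eq_nil_or_concat w with rfl | ⟨u, i, rfl⟩
    · exact h0
    · rw [List.concat_eq_append] at hn ⊢
      simp only [List.length_append, List.length_cons, List.length_nil] at hn
      have hu : T (dl u) = 0 := ih u.length (by omega) u rfl
      have h1 := congrArg (fun S : BH ι => S (dl u)) (hT i)
      simp only [mul_apply_eq_comp, add_apply, hu, map_zero, rc_dl, map_add] at h1
      have h2 : T (ra i (dl u)) = 0 := by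
        rcases ra_dl i u with h | ⟨v, hv, h⟩
        · rw [h, map_zero]
        · rw [h]; exact ih v.length (by omega) v rfl
      rw [h2, add_zero] at h1
      exact h1

/-- `T ↦ (T f) []` as an additive map -/
noncomputable def evalNil (f : Fock ι) : BH ι →+ ℂ where
  toFun T := T f []
  map_zero' := by simp
  map_add' S T := by simp

theorem evalNil_apply (f : Fock ι) (T : BH ι) : evalNil f T = T f [] := rfl

theorem mul_PO_mul_apply (S T : BH ι) (f : Fock ι) :
    ((S * PO * T : BH ι) f : List ι → ℂ) [] = tauB S * T f [] := by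
  rw [mul_apply_eq_comp, mul_apply_eq_comp, PO_apply, map_smul, tauB_apply]
  simp [mul_comm]

theorem wd_mul_right {α : Type*} [DecidableEq α] (k : α) (Z : α → BH ι) (R : BH ι) (x : ℂ)
    (hZ : ∀ j, Z j * R = R * Z j + if j = k then x • PO else 0) (W : List α) :
    wd Z W * R = R * wd Z W + x • spl k (fun A B => wd Z A * PO * wd Z B) W := by
  induction W with
  | nil => simp
  | cons j W ih =>
    rw [wd_cons, mul_assoc, ih, mul_add, ← mul_assoc, hZ j, spl_cons, mul_smul_comm,
      ← spl_mul_left, smul_add, add_mul, mul_assoc]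
    simp only [wd_cons, wd_nil, one_mul, mul_assoc, add_assoc]
    congr 1
    congr 1
    split_ifs
    · rw [smul_mul_assoc]
    · simp

theorem wd_mul_left {α : Type*} [DecidableEq α] (k : α) (Z : α → BH ι) (S : BH ι) (x : ℂ)
    (hZ : ∀ j, S * Z j = Z j * S + if j = k then x • PO else 0) (W : List α) :
    S * wd Z W = wd Z W * S + x • spl k (fun A B => wd Z A * PO * wd Z B) W := by
  induction W with
  | nil => simp
  | cons j W ih =>
    rw [wd_cons, ← mul_assoc, hZ j, add_mul, mul_assoc, ih, mul_add, spl_cons, mul_smul_comm,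
      ← spl_mul_left, smul_add, mul_assoc]
    simp only [wd_cons, wd_nil, one_mul, mul_assoc, add_assoc]
    congr 1
    rw [add_comm]
    congr 1
    split_ifs
    · rw [smul_mul_assoc]
    · simp

/-- general commutation along words: if `Z_j R = R Z_j + λ_j P_Ω` then
`Z_W R = R Z_W + ∑_{W = A j B} λ_j Z_A P_Ω Z_B`; paired with the vacuum when
`⟨Ω, R g⟩ = 0` for all `g`. -/
theorem word_mul_right {α : Type*} [DecidableEq α] (k : α) (Z : α → BH ι) (R : BH ι) (x : ℂ)
    (hZ : ∀ j, Z j * R = R * Z j + if j = k then x • PO else 0)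
    (hR : ∀ g : Fock ι, R g [] = 0) (W : List α) (f : Fock ι) :
    (wd Z W * R) f [] = x * spl k (fun A B => tauB (wd Z A) * (wd Z B) f []) W := by
  rw [wd_mul_right k Z R x hZ W]
  have h : (R * wd Z W + x • spl k (fun A B => wd Z A * PO * wd Z B) W) f [] =
      (R * wd Z W) f [] + x * evalNil f (spl k (fun A B => wd Z A * PO * wd Z B) W) := by
    rfl
  rw [h, mul_apply_eq_comp, hR, zero_add, map_spl]
  congr 1
  refine spl_congr ?_
  intro A B _
  rw [evalNil_apply, mul_PO_mul_apply]

/-- adjoint version: if `S Z_j = Z_j S + λ_j P_Ω`, `S m = m S`, `S Ω = 0` then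
`⟨Ω, S Z_W m Ω⟩ = λ ∑_{W = A k B} τ(Z_A) τ(Z_B m)` -/
theorem word_mul_left {α : Type*} [DecidableEq α] (k : α) (Z : α → BH ι) (S : BH ι) (x : ℂ)
    (hZ : ∀ j, S * Z j = Z j * S + if j = k then x • PO else 0)
    (hS : S vac = 0) (m : BH ι) (hm : S * m = m * S) (W : List α) :
    tauB (S * wd Z W * m) = x * spl k (fun A B => tauB (wd Z A) * tauB (wd Z B * m)) W := by
  rw [wd_mul_left k Z S x hZ W, add_mul, mul_assoc, hm, map_add]
  have h1 : tauB (wd Z W * (m * S)) = 0 := by
    rw [tauB_apply, mul_apply_eq_comp, mul_apply_eq_comp, hS]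
    simp
  rw [h1, zero_add, smul_mul_assoc, map_smul, smul_eq_mul, ← spl_mul_right]
  congr 1
  have h2 : ∀ T : BH ι, tauB T = evalNil vac T := fun _ => rfl
  rw [h2, map_spl]
  refine spl_congr ?_
  intro A B _
  rw [evalNil_apply, mul_assoc (wd Z A * PO), mul_PO_mul_apply, ← tauB_apply (wd Z B * m)]

end Crest.Agent.FE
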