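import Mathlib
import Crest.Agent.FE_FockWord
import Crest.Agent.FE_Mom

/-! S0118 blueprint, file FE_FAlg: the C⋆-algebra generated by the semicirculars, its faithful
tracial state, and the semicircular moments. -/

set_option autoImplicit false

namespace Crest.Agent.FE

open Finset Crest.OpAlg
open scoped ENNReal InnerProductSpace

variable {ι : Type}

/-- the C⋆-algebra generated by the semicirculars -/
noncomputable def FAlg (ι : Type) : StarSubalgebra ℂ (BH ι) :=
  (StarAlgebra.adjoin ℂ (Set.range (sc : ι → BH ι))).topologicalClosure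

instance : IsClosed ((FAlg ι : StarSubalgebra ℂ (BH ι)) : Set (BH ι)) :=
  StarSubalgebra.isClosed_topologicalClosure _

noncomputable instance : CStarAlgebra (FAlg ι) :=
  StarSubalgebra.cstarAlgebra (FAlg ι) (h_closed := StarSubalgebra.isClosed_topologicalClosure _)

theorem sc_mem (i : ι) : sc i ∈ FAlg ι :=
  StarSubalgebra.le_topologicalClosure _ (StarAlgebra.subset_adjoin ℂ _ ⟨i, rfl⟩)

/-- the semicirculars as elements of the algebra -/
noncomputable def sa (i : ι) : FAlg ι := ⟨sc i, sc_mem i⟩

@[simp] theorem coe_sa (i : ι) : ((sa i : FAlg ι) : BH ι) = sc i := rfl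

theorem isSelfAdjoint_sa (i : ι) : IsSelfAdjoint (sa i) := by
  apply Subtype.ext
  exact isSelfAdjoint_sc i

theorem norm_sa_le (i : ι) : ‖sa i‖ ≤ 2 := norm_sc_le i

/-- the elements of the algebra commute with a self-adjoint operator commuting with generators -/
theorem FAlg_comm (R : BH ι) (hR : star R = R) (h : ∀ j, sc j * R = R * sc j) {a : BH ι}
    (ha : a ∈ FAlg ι) : a * R = R * a := by
  have h1 : FAlg ι ≤ StarSubalgebra.centralizer ℂ {R} := by
    refine StarSubalgebra.topologicalClosure_minimal ?_ ?_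
    · refine StarAlgebra.adjoin_le ?_
      rintro _ ⟨j, rfl⟩
      rw [SetLike.mem_coe, StarSubalgebra.mem_centralizer_iff]
      intro g hg
      rw [Set.mem_singleton_iff] at hg
      subst hg
      rw [hR]
      exact ⟨(h j).symm, (h j).symm⟩
    · rw [StarSubalgebra.coe_centralizer]
      exact Set.isClosed_centralizer _
  have h2 := h1 ha
  rw [StarSubalgebra.mem_centralizer_iff] at h2
  exact (h2 R rfl).1.symm

theorem star_rr (i : ι) : star (rc i + ra i) = rc i + ra i := by
  rw [star_add, star_rc]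
  exact add_comm _ _

/-- elements commute with the right semicirculars (closed condition, true on generators) -/
theorem comm_rr (a : FAlg ι) (i : ι) : (a : BH ι) * (rc i + ra i) = (rc i + ra i) * a :=
  FAlg_comm _ (star_rr i) (fun j => sc_comm_rr i j) a.2

/-- the trace -/
noncomputable def tau : FAlg ι →ₗ[ℂ] ℂ := tauB ∘ₗ (FAlg ι).subtype.toLinearMap

theorem tau_apply (a : FAlg ι) : tau a = tauB (a : BH ι) := rfl

theorem tau_one : tau (1 : FAlg ι) = 1 := by
  rw [tau_apply, OneMemClass.coe_one]
  exact tauB_one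

theorem continuous_tau : Continuous (tau : FAlg ι → ℂ) :=
  continuous_tauB.comp continuous_subtype_val

/-- `τ(s_i a) = (a Ω)_i` -/
theorem tauB_sc_mul (i : ι) (a : BH ι) : tauB (sc i * a) = (a vac) [i] := by
  rw [tauB_apply]
  show (lc i + la i) (a vac) [] = _
  rw [ContinuousLinearMap.add_apply, lp.coeFn_add, Pi.add_apply, lc_nil, la_apply, zero_add]

/-- `τ(a s_i) = (a Ω)_i` -/
theorem tauB_mul_sc (i : ι) (a : BH ι) (ha : a ∈ FAlg ι) : tauB (a * sc i) = (a vac) [i] := by
  have h1 : sc i (vac : Fock ι) = (rc i + ra i) vac := by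
    rw [ContinuousLinearMap.add_apply, ra_vac, add_zero, sc_vac]
  have h2 : (a * (rc i + ra i)) vac = ((rc i + ra i) * a) vac := by
    rw [FAlg_comm _ (star_rr i) (fun j => sc_comm_rr i j) ha]
  rw [tauB_apply]
  show (a (sc i vac)) [] = _
  rw [h1]
  have h3 : a ((rc i + ra i) vac) = (rc i + ra i) (a vac) := h2
  rw [h3, ContinuousLinearMap.add_apply, lp.coeFn_add, Pi.add_apply, rc_nil, ra_apply, zero_add]
  rfl

/-- PROOF. `τ(a s_i) = ⟨Ω, a r_i Ω⟩ = ⟨Ω, r_i a Ω⟩ = ⟨r_i Ω, a Ω⟩ = ⟨s_i Ω, a Ω⟩ = τ(s_i a)`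
(`sc_vac`, `ra_vac`, `comm_rr`). The set of `b` with `τ(ab) = τ(ba)` for all `a` is a closed
star-stable subalgebra-like set (if `b1, b2` are in it so is `b1 b2`: `τ(a b1 b2) = τ(b2 a b1) =
τ(b1 b2 a)`). -/
theorem tau_comm (a b : FAlg ι) : tau (a * b) = tau (b * a) := by
  have key : ∀ b ∈ FAlg ι, ∀ a ∈ FAlg ι, tauB (a * b) = tauB (b * a) := by
    have h0 : ∀ b ∈ StarAlgebra.adjoin ℂ (Set.range (sc : ι → BH ι)), ∀ a ∈ FAlg ι,
        tauB (a * b) = tauB (b * a) := by
      intro b hb
      induction hb using StarAlgebra.adjoin_induction with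
      | mem x hx =>
        obtain ⟨i, rfl⟩ := hx
        intro a ha
        rw [tauB_mul_sc i a ha, tauB_sc_mul]
      | algebraMap r =>
        intro a ha
        rw [← Algebra.commutes]
      | add x y hx hy h1 h2 =>
        intro a ha
        rw [mul_add, add_mul, map_add, map_add, h1 a ha, h2 a ha]
      | mul x y hx hy h1 h2 =>
        intro a ha
        have hx' : x ∈ FAlg ι := StarSubalgebra.le_topologicalClosure _ hx
        have hy' : y ∈ FAlg ι := StarSubalgebra.le_topologicalClosure _ hy
        rw [← mul_assoc, h2 (a * x) (mul_mem ha hx'), ← mul_assoc, h1 (y * a) (mul_mem hy' ha),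
          mul_assoc]
      | star x hx h1 =>
        intro a ha
        have h2 := h1 (star a) (star_mem ha)
        have h3 := congrArg (starRingEnd ℂ) h2
        rw [← tauB_star, ← tauB_star, star_mul, star_mul, star_star] at h3
        exact h3.symm
    intro b hb a ha
    have hcl : IsClosed {b : BH ι | tauB (a * b) = tauB (b * a)} := by
      refine isClosed_eq ?_ ?_
      · exact continuous_tauB.comp (continuous_const.mul continuous_id)
      · exact continuous_tauB.comp (continuous_id.mul continuous_const)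
    have hsub : ((StarAlgebra.adjoin ℂ (Set.range (sc : ι → BH ι)) : StarSubalgebra ℂ (BH ι)) :
        Set (BH ι)) ⊆ {b : BH ι | tauB (a * b) = tauB (b * a)} := fun b hb => h0 b hb a ha
    exact closure_minimal hsub hcl hb
  exact key b b.2 a a.2

theorem tauB_star_mul_self (a : BH ι) :
    tauB (star a * a) = ((‖a vac‖ ^ 2 : ℝ) : ℂ) := by
  rw [tauB_mul, star_star, inner_self_eq_norm_sq_to_K]
  push_cast
  rfl

/-- with `τ(a⋆a) = ‖a Ω‖²` and `eq_zero_of_vac` -/
theorem isFaithfulTracialState_tau : IsFaithfulTracialState (tau : FAlg ι →ₗ[ℂ] ℂ) := by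
  have h1 : ∀ a : FAlg ι, tau (star a * a) = ((‖(a : BH ι) vac‖ ^ 2 : ℝ) : ℂ) :=
    fun a => tauB_star_mul_self (a : BH ι)
  refine ⟨tau_one, ?_, ?_, tau_comm⟩
  · intro a
    rw [h1]
    exact ⟨Complex.ofReal_im _, by rw [Complex.ofReal_re]; positivity⟩
  · intro a ha
    rw [h1, Complex.ofReal_eq_zero] at ha
    have h2 : (a : BH ι) vac = 0 := by
      rw [← norm_eq_zero]
      exact pow_eq_zero_iff (two_ne_zero) |>.1 ha
    exact Subtype.ext (eq_zero_of_vac _ (fun i => comm_rr a i) h2)

/-- Schwinger-Dyson for the semicirculars: `word_mul_left` with `S = ra k`, `x = 1`, `m = 1`,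
and `τ(s_k Y) = ⟨s_k Ω, Y Ω⟩ = ⟨rc k Ω, Y Ω⟩ = τ(ra k Y)` -/
theorem isSC_sa [DecidableEq ι] : IsSC (fun w : List ι => tau (wd sa w)) := by
  have hwd : ∀ w : List ι, ((wd sa w : FAlg ι) : BH ι) = wd sc w := by
    intro w
    exact (wd_map (FAlg ι).subtype.toAlgHom sa w).symm
  refine ⟨?_, ?_⟩
  · rw [wd_nil]
    exact tau_one
  · intro k W
    have h1 := word_mul_left k (sc : ι → BH ι) (ra k) 1 (fun j => by
      rw [ra_mul_sc k j]
      by_cases h : j = k
      · subst h; simp
      · have h' : ¬ (k = j) := fun e => h e.symm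
        simp [h, h']) (ra_vac k) 1 (by simp) W
    have h2 : ((wd sa (k :: W) : FAlg ι) : BH ι) = sc k * wd sc W := by
      rw [hwd, wd_cons]
    simp only [tau_apply, hwd] at h2 ⊢
    simp only [mul_one, one_mul] at h1
    rw [← h1, h2, tauB_sc_mul]
    rfl

theorem sum_even_odd (f : ℕ → ℂ) (k : ℕ) (hf : ∀ j, 2 * j + 1 < 2 * k + 1 → f (2 * j + 1) = 0) :
    ∑ j ∈ Finset.range (2 * k + 1), f j = ∑ j ∈ Finset.range (k + 1), f (2 * j) := by
  induction k with
  | zero => simp
  | succ k ih =>
    rw [Finset.sum_range_succ _ (k + 1), ← ih (fun j hj => hf j (by omega)),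
      show 2 * (k + 1) + 1 = 2 * k + 1 + 1 + 1 by ring, Finset.sum_range_succ,
      Finset.sum_range_succ, hf k (by omega), add_zero]
    rfl

/-- by the recursion `τ(s^{k+1}) = ∑_{i+j=k-1} τ(s^i) τ(s^j)` (constant words) -/
theorem standardSC {n : ℕ} (φ : Fin n → ι) :
    IsStandardSemicircular (tau : FAlg ι →ₗ[ℂ] ℂ) (fun i => sa (φ i)) := by
  classical
  refine ⟨fun i => isSelfAdjoint_sa _, fun i => ?_⟩
  set c : ι := φ i with hc
  have hpow : ∀ m : ℕ, (sa c : FAlg ι) ^ m = wd sa (List.replicate m c) := by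
    intro m
    simp [wd]
  set f : ℕ → ℂ := fun m => tau ((sa c : FAlg ι) ^ m) with hf
  have hrec : ∀ m, f (m + 1) = ∑ j ∈ Finset.range m, f j * f (m - 1 - j) := by
    intro m
    have h1 := (isSC_sa (ι := ι)).cons c (List.replicate m c)
    rw [← sum_range_eq_spl] at h1
    simp only [hf, hpow]
    rw [List.replicate_succ, h1, List.length_replicate]
    refine Finset.sum_congr rfl fun j hj => ?_
    rw [Finset.mem_range] at hj
    rw [if_pos (by rw [List.getElem?_replicate, if_pos hj]), List.take_replicate,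
      List.drop_replicate, min_eq_left hj.le]
    congr 4
    omega
  have h0 : f 0 = 1 := by
    simp only [hf, pow_zero]
    exact tau_one
  have key : ∀ k : ℕ, f (2 * k) = (catalan k : ℂ) ∧ f (2 * k + 1) = 0 := by
    intro k
    induction k using Nat.strong_induction_on with
    | _ k ih =>
      have hodd : f (2 * k + 1) = 0 := by
        rw [hrec]
        refine Finset.sum_eq_zero fun j hj => ?_
        rw [Finset.mem_range] at hj
        rcases Nat.even_or_odd' j with ⟨l, hl | hl⟩
        · have h2 : 2 * k - 1 - j = 2 * (k - 1 - l) + 1 := by omega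
          rw [h2, (ih (k - 1 - l) (by omega)).2, mul_zero]
        · rw [hl, (ih l (by omega)).2, zero_mul]
      refine ⟨?_, hodd⟩
      cases k with
      | zero => simp [h0]
      | succ k =>
        have h3 : 2 * (k + 1) = (2 * k + 1) + 1 := by ring
        rw [h3, hrec, catalan_succ_range]
        have h4 : ∀ j ∈ Finset.range (2 * k + 1), f j * f (2 * k + 1 - 1 - j) =
            f j * f (2 * k - j) := by
          intro j hj
          rfl
        rw [Finset.sum_congr rfl h4, sum_even_odd (fun j => f j * f (2 * k - j)) k]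
        · push_cast
          refine Finset.sum_congr rfl fun j hj => ?_
          rw [Finset.mem_range] at hj
          have h5 : 2 * k - 2 * j = 2 * (k - j) := by omega
          rw [h5, (ih j (by omega)).1, (ih (k - j) (by omega)).1]
        · intro j hj
          rw [(ih j (by omega)).2, zero_mul]
  exact key

end Crest.Agent.FE
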