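import Mathlib
import Crest.Agent.FE_FAlg

/-! S0118 blueprint, file FE_Free: freeness of subalgebras generated by disjoint sets of
letters. -/

set_option autoImplicit false

namespace Crest.Agent.FE

open Finset Crest.OpAlg
open scoped ENNReal InnerProductSpace

variable {ι : Type}

/-- vectors supported on (nonempty) words whose first letter lies in `B` -/
def headIn (B : Set ι) : Submodule ℂ (Fock ι) where
  carrier := {f | ∀ w, (∀ i t, w = i :: t → i ∉ B) → f w = 0}
  zero_mem' := by intro w _; simp
  add_mem' := by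
    intro f g hf hg w hw
    simp [hf w hw, hg w hw]
  smul_mem' := by
    intro c f hf w hw
    simp [hf w hw]

/-- vectors supported on words which are empty or start with a letter outside `B` -/
def headOut (B : Set ι) : Submodule ℂ (Fock ι) where
  carrier := {f | ∀ i t, i ∈ B → f (i :: t) = 0}
  zero_mem' := by intro i t _; simp
  add_mem' := by
    intro f g hf hg i t hi
    simp [hf i t hi, hg i t hi]
  smul_mem' := by
    intro c f hf i t hi
    simp [hf i t hi]

/-- the coisometry `(U_w f) x = f (x ++ w)` -/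
private noncomputable def Uw (w : List ι) : BH ι :=
  pull (fun x => x ++ w) (List.append_left_injective w)

private theorem Uw_apply (w : List ι) (f : Fock ι) (x : List ι) : Uw w f x = f (x ++ w) := rfl

private theorem Uw_comm (B : Set ι) (w : List ι) (hw : ∀ i t, w = i :: t → i ∉ B) (i : ι)
    (hi : i ∈ B) : Uw w * sc i = sc i * Uw w := by
  classical
  ext f x
  show (sc i f) (x ++ w) = (sc i (Uw w f)) x
  show (lc i f) (x ++ w) + (la i f) (x ++ w) = (lc i (Uw w f)) x + (la i (Uw w f)) x
  rw [la_apply, la_apply, Uw_apply]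
  congr 1
  cases x with
  | cons j x' =>
    rw [List.cons_append, lc_cons, lc_cons, Uw_apply]
  | nil =>
    rw [List.nil_append, lc_nil]
    cases w with
    | nil => rw [lc_nil]
    | cons j t =>
      rw [lc_cons, if_neg]
      intro h
      exact hw j t rfl (h ▸ hi)

private theorem star_Uw_comm (B : Set ι) (w : List ι) (hw : ∀ i t, w = i :: t → i ∉ B)
    (y : BH ι) (hy : y ∈ Algebra.adjoin ℂ ((sc : ι → BH ι) '' B)) :
    y * star (Uw w) = star (Uw w) * y := by
  induction hy using Algebra.adjoin_induction with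
  | mem x hx =>
    obtain ⟨i, hi, rfl⟩ := hx
    have h := congrArg star (Uw_comm B w hw i hi)
    rw [star_mul, star_mul, (isSelfAdjoint_sc i).star_eq] at h
    exact h
  | algebraMap r => exact Algebra.commutes r _
  | add x y _ _ hx hy => rw [add_mul, mul_add, hx, hy]
  | mul x y _ _ hx hy => rw [mul_assoc, hy, ← mul_assoc, hx, mul_assoc]

open Classical in
private theorem star_Uw_apply (w u : List ι) (f : Fock ι) :
    star (Uw w) f u = ⟪Uw w (dl u), f⟫_ℂ := by
  rw [← inner_dl, ContinuousLinearMap.star_eq_adjoint, ContinuousLinearMap.adjoint_inner_right]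

private theorem star_Uw_append (w x : List ι) (f : Fock ι) :
    star (Uw w) f (x ++ w) = f x := by
  rw [star_Uw_apply]
  have : Uw w (dl (x ++ w)) = dl x := by
    ext z
    rw [Uw_apply, dl_apply, dl_apply]
    by_cases hz : z = x
    · rw [if_pos hz, if_pos (by rw [hz])]
    · rw [if_neg hz, if_neg (fun h => hz (List.append_cancel_right h))]
  rw [this, inner_dl]

private theorem star_Uw_ne (w u : List ι) (h : ∀ x, u ≠ x ++ w) (f : Fock ι) :
    star (Uw w) f u = 0 := by
  rw [star_Uw_apply]
  have : Uw w (dl u) = 0 := by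
    ext z
    rw [Uw_apply, dl_apply, if_neg (fun h' => h z h'.symm)]
    rfl
  rw [this, inner_zero_left]

private theorem star_Uw_vac (w : List ι) : star (Uw w) vac = dl w := by
  ext u
  by_cases h : ∃ x, u = x ++ w
  · obtain ⟨x, rfl⟩ := h
    rw [star_Uw_append, vac, dl_apply, dl_apply]
    simp
  · push Not at h
    rw [star_Uw_ne w u h, dl_apply, if_neg]
    intro h'
    exact h [] (by simpa using h')

/-- vectors supported on words with letters in `B` -/
private def suppIn (B : Set ι) : Submodule ℂ (Fock ι) where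
  carrier := {f | ∀ w, (∃ i ∈ w, i ∉ B) → f w = 0}
  zero_mem' := by intro w _; simp
  add_mem' := by
    intro f g hf hg w hw
    simp [hf w hw, hg w hw]
  smul_mem' := by
    intro c f hf w hw
    simp [hf w hw]

private theorem suppIn_map (B : Set ι) (y : BH ι)
    (hy : y ∈ Algebra.adjoin ℂ ((sc : ι → BH ι) '' B)) :
    ∀ f ∈ suppIn B, y f ∈ suppIn B := by
  classical
  induction hy using Algebra.adjoin_induction with
  | mem x hx =>
    obtain ⟨i, hi, rfl⟩ := hx
    intro f hf w hw
    show (lc i f) w + (la i f) w = 0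
    rw [la_apply, hf (i :: w) (by obtain ⟨j, hj, hjB⟩ := hw; exact ⟨j, List.mem_cons_of_mem _ hj, hjB⟩),
      add_zero]
    cases w with
    | nil => rw [lc_nil]
    | cons j t =>
      rw [lc_cons]
      split_ifs with h
      · refine hf t ?_
        obtain ⟨k, hk, hkB⟩ := hw
        rw [List.mem_cons] at hk
        rcases hk with rfl | hk
        · exact absurd (h ▸ hi) hkB
        · exact ⟨k, hk, hkB⟩
      · rfl
  | algebraMap r =>
    intro f hf
    have : (algebraMap ℂ (BH ι) r) f = r • f := by
      rw [Algebra.algebraMap_eq_smul_one]; rfl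
    rw [this]
    exact Submodule.smul_mem _ _ hf
  | add x y _ _ hx hy =>
    intro f hf
    exact Submodule.add_mem _ (hx f hf) (hy f hf)
  | mul x y _ _ hx hy =>
    intro f hf
    exact hx _ (hy f hf)

private theorem vac_mem_suppIn (B : Set ι) : (vac : Fock ι) ∈ suppIn B := by
  intro w hw
  obtain ⟨i, hi, -⟩ := hw
  rw [vac, dl_apply, if_neg]
  rintro rfl
  simp at hi

/-- KEY STEP. PROOF. For a word `w` not starting with a letter of `B` (or empty) let `V_w` be the
isometry `dl x ↦ dl (x ++ w)` (`V_w = star (pull (· ++ w))`; coordinates: `(V_w f)(x ++ w) = f x`,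
`0` on words which do not end with `w`). For `i ∈ B`: `sc i * V_w = V_w * sc i` (check on
coordinates / basis vectors), so every `y` in the algebra generated by `sc i`, `i ∈ B`, commutes
with `V_w`, and `y (dl w) = V_w (y Ω)`. Moreover `y Ω` is supported on words with all letters in
`B` and, as `τ(y) = 0`, on nonempty ones. So `y (dl w) ∈ headIn B`. `headIn B` is closed, and
`f = ∑ f w • dl w` (`lp.hasSum_single`), so `y f ∈ headIn B` for all `f ∈ headOut B`. -/
theorem mem_headIn_of_centred (B : Set ι) (y : BH ι)
    (hy : y ∈ Algebra.adjoin ℂ ((sc : ι → BH ι) '' B)) (h0 : tauB y = 0) (f : Fock ι)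
    (hf : f ∈ headOut B) : y f ∈ headIn B := by
  classical
  have key : ∀ w : List ι, (∀ i t, w = i :: t → i ∉ B) → y (dl w) ∈ headIn B := by
    intro w hw u hu
    have h1 : y (dl w) = star (Uw w) (y vac) := by
      rw [← star_Uw_vac w]
      exact congrArg (fun T : BH ι => T vac) (star_Uw_comm B w hw y hy)
    rw [h1]
    by_cases h : ∃ x, u = x ++ w
    · obtain ⟨x, rfl⟩ := h
      rw [star_Uw_append]
      cases x with
      | nil => exact h0
      | cons i t =>
        exact suppIn_map B y hy vac (vac_mem_suppIn B) (i :: t)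
          ⟨i, List.mem_cons_self, hu i (t ++ w) rfl⟩
    · push Not at h
      exact star_Uw_ne w u h _
  intro u hu
  have h1 : HasSum (fun w => lp.single 2 w (f w)) f := lp.hasSum_single (by norm_num) f
  have h2 := ((innerSL ℂ (dl u)).comp y).hasSum h1
  have h3 : ∀ w, ((innerSL ℂ (dl u)).comp y) (lp.single 2 w (f w)) = 0 := by
    intro w
    by_cases hw : ∀ i t, w = i :: t → i ∉ B
    · have e : lp.single 2 w (f w) = (f w) • (dl w : Fock ι) := by
        unfold dl
        rw [← lp.single_smul, smul_eq_mul, mul_one]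
      rw [e, map_smul]
      have : ((innerSL ℂ (dl u)).comp y) (dl w) = 0 := by
        show ⟪dl u, y (dl w)⟫_ℂ = 0
        rw [inner_dl]
        exact key w hw u hu
      rw [this, smul_zero]
    · push Not at hw
      obtain ⟨i, t, rfl, hi⟩ := hw
      rw [hf i t hi]
      simp
  have h4 : HasSum (fun w : List ι => ((innerSL ℂ (dl u)).comp y) (lp.single 2 w (f w))) 0 := by
    simp only [h3]
    exact hasSum_zero
  have h5 := h2.unique h4
  have h6 : ⟪dl u, y f⟫_ℂ = 0 := h5
  rw [inner_dl] at h6
  exact h6

theorem headIn_le_headOut {B C : Set ι} (h : Disjoint B C) : headIn B ≤ headOut C := by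
  intro f hf i t hi
  refine hf (i :: t) ?_
  intro j s hjs
  rw [List.cons.injEq] at hjs
  rw [← hjs.1]
  exact fun hB => Set.disjoint_left.1 h hB hi

theorem vac_mem_headOut (B : Set ι) : (vac : Fock ι) ∈ headOut B := by
  intro i t hi
  rw [vac, dl_apply, if_neg (by simp)]

/-- freeness: alternating products of centred elements have trace zero (induction on the list:
`(product) Ω ∈ headIn (first block)`) -/
theorem free_blocks {β : Type*} (blk : β → Set ι)
    (hblk : ∀ b c, b ≠ c → Disjoint (blk b) (blk c)) (l : List (β × BH ι)) (hl : l ≠ [])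
    (hc : l.IsChain (fun a b => a.1 ≠ b.1))
    (hmem : ∀ e ∈ l, e.2 ∈ Algebra.adjoin ℂ ((sc : ι → BH ι) '' blk e.1))
    (h0 : ∀ e ∈ l, tauB e.2 = 0) : tauB (l.map fun e => e.2).prod = 0 := by
  have key : ∀ (l : List (β × BH ι)) (e : β × BH ι), (e :: l).IsChain (fun a b => a.1 ≠ b.1) →
      (∀ e' ∈ e :: l, e'.2 ∈ Algebra.adjoin ℂ ((sc : ι → BH ι) '' blk e'.1)) →
      (∀ e' ∈ e :: l, tauB e'.2 = 0) →
      (((e :: l).map fun e => e.2).prod : BH ι) vac ∈ headIn (blk e.1) := by
    intro l
    induction l with
    | nil =>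
      intro e _ hm h0
      simp only [List.map_cons, List.map_nil, List.prod_cons, List.prod_nil, mul_one]
      exact mem_headIn_of_centred _ _ (hm e (by simp)) (h0 e (by simp)) _ (vac_mem_headOut _)
    | cons e' l ih =>
      intro e hc hm h0
      rw [List.isChain_cons_cons] at hc
      have h1 := ih e' hc.2 (fun x hx => hm x (List.mem_cons_of_mem _ hx))
        (fun x hx => h0 x (List.mem_cons_of_mem _ hx))
      rw [List.map_cons, List.prod_cons]
      exact mem_headIn_of_centred _ _ (hm e (by simp)) (h0 e (by simp)) _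
        (headIn_le_headOut (hblk _ _ hc.1.symm) h1)
  cases l with
  | nil => exact absurd rfl hl
  | cons e l =>
    rw [tauB_apply]
    exact key l e hc hmem h0 [] (by simp)

/-- in the form of the statement (`polyEval` of a tuple in the algebra generated by the
semicirculars of block `t`; `polyEval_map` for the inclusion `FAlg ι → BH ι`) -/
theorem isFreeFamily_of_blocks {β : Type*} {n : ℕ} (blk : β → Set ι)
    (hblk : ∀ b c, b ≠ c → Disjoint (blk b) (blk c)) (gens : β → (Fin n → FAlg ι))
    (hg : ∀ b i, ((gens b i : FAlg ι) : BH ι) ∈ Algebra.adjoin ℂ ((sc : ι → BH ι) '' blk b)) :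
    IsFreeFamily (tau : FAlg ι →ₗ[ℂ] ℂ) gens := by
  intro l hl hc h0
  have hpoly : ∀ b (P : NCPoly n), ((polyEval (gens b) P : FAlg ι) : BH ι) ∈
      Algebra.adjoin ℂ ((sc : ι → BH ι) '' blk b) := by
    intro b P
    have h1 : ((polyEval (gens b) P : FAlg ι) : BH ι)
        = polyEval (fun i => ((gens b i : FAlg ι) : BH ι)) P :=
      (polyEval_map ((FAlg ι).subtype : FAlg ι →⋆ₐ[ℂ] BH ι).toAlgHom (gens b) P).symm
    rw [h1]
    have h2 := polyEval_map (Algebra.adjoin ℂ ((sc : ι → BH ι) '' blk b)).val
      (fun i => ⟨((gens b i : FAlg ι) : BH ι), hg b i⟩) P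
    have h3 : (fun i : Fin n => (Algebra.adjoin ℂ ((sc : ι → BH ι) '' blk b)).val
      ⟨((gens b i : FAlg ι) : BH ι), hg b i⟩) = fun i => ((gens b i : FAlg ι) : BH ι) := rfl
    rw [h3] at h2
    rw [h2]
    exact Subtype.property _
  have h1 := free_blocks blk hblk
    (l.map fun e => (e.1, ((polyEval (gens e.1) e.2 : FAlg ι) : BH ι))) (by simpa using hl)
    (by rw [List.isChain_map]; exact hc)
    (by
      intro e he
      rw [List.mem_map] at he
      obtain ⟨e', -, rfl⟩ := he
      exact hpoly _ _)
    (by
      intro e he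
      rw [List.mem_map] at he
      obtain ⟨e', he', rfl⟩ := he
      exact h0 e' he')
  rw [tau_apply]
  have h2 : (((l.map fun e => polyEval (gens e.1) e.2).prod : FAlg ι) : BH ι)
      = ((l.map fun e => (e.1, ((polyEval (gens e.1) e.2 : FAlg ι) : BH ι))).map
        fun e => e.2).prod := by
    have h3 := map_list_prod ((FAlg ι).subtype : FAlg ι →⋆ₐ[ℂ] BH ι)
      (l.map fun e => polyEval (gens e.1) e.2)
    rw [List.map_map] at h3
    rw [List.map_map]
    exact h3
  rw [h2]
  exact h1

end Crest.Agent.FE
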