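import Mathlib
import Crest.Agent.FE_Free
import Crest.Agent.FE_FisherA

/-! S0118 blueprint, file FE_Heat: the concrete tuple `X`, the noise `S`, and the abstract data
`HD` of `X + √s S`. Letters: `ι = L ⊕ (Fin n ⊕ Fin n)`. -/

set_option autoImplicit false

namespace Crest.Agent.FE

open Finset Crest.OpAlg
open scoped ENNReal InnerProductSpace

/-- letters -/
abbrev Lt (L : Type) (n : ℕ) : Type := L ⊕ (Fin n ⊕ Fin n)

section
variable {L : Type} {n : ℕ}

/-- base letter -/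
noncomputable def sL (a : L) : FAlg (Lt L n) := sa (Sum.inl a)
/-- base noise -/
noncomputable def sB (k : Fin n) : FAlg (Lt L n) := sa (Sum.inr (Sum.inl k))
/-- heat noise -/
noncomputable def sS (k : Fin n) : FAlg (Lt L n) := sa (Sum.inr (Sum.inr k))

/-- the algebra generated by the base letters -/
noncomputable def algL (L : Type) (n : ℕ) : Subalgebra ℂ (FAlg (Lt L n)) :=
  Algebra.adjoin ℂ (Set.range (sL : L → FAlg (Lt L n)))

/-- the tuple `X_k = T_k + √u_k s'_k` -/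
noncomputable def XX (T : Fin n → FAlg (Lt L n)) (u : Fin n → ℝ) : Fin n → FAlg (Lt L n) :=
  fun k => T k + (√(u k) : ℂ) • sB k

/-- right creation operators of the total noise -/
noncomputable def Rh (L : Type) {n : ℕ} (u : Fin n → ℝ) (s : ℝ) (k : Fin n) : BH (Lt L n) :=
  ((√(u k + s))⁻¹ : ℂ) • ((√(u k) : ℂ) • rc (Sum.inr (Sum.inl k)) +
    (√s : ℂ) • rc (Sum.inr (Sum.inr k)))

theorem sqrt_mul_sqrt_c {x : ℝ} (hx : 0 ≤ x) : (√x : ℂ) * (√x : ℂ) = (x : ℂ) := by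
  rw [← Complex.ofReal_mul, Real.mul_self_sqrt hx]

theorem inv_sqrt_mul_c {x : ℝ} (hx : 0 < x) : ((√x)⁻¹ : ℂ) * (x : ℂ) = (√x : ℂ) := by
  rw [← sqrt_mul_sqrt_c hx.le, ← mul_assoc, inv_mul_cancel₀, one_mul]
  rw [Ne, Complex.ofReal_eq_zero]
  exact (Real.sqrt_pos.2 hx).ne'

theorem inv_sqrt_mul_inv_sqrt_c {x : ℝ} (hx : 0 < x) :
    ((√x)⁻¹ : ℂ) * ((√x)⁻¹ : ℂ) * (x : ℂ) = 1 := by
  have h : (√x : ℂ) ≠ 0 := by
    rw [Ne, Complex.ofReal_eq_zero]
    exact (Real.sqrt_pos.2 hx).ne'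
  rw [mul_assoc, inv_sqrt_mul_c hx, inv_mul_cancel₀ h]

theorem star_Rh (u : Fin n → ℝ) (s : ℝ) (k : Fin n) :
    star (Rh L u s k) = ((√(u k + s))⁻¹ : ℂ) • ((√(u k) : ℂ) • ra (Sum.inr (Sum.inl k)) +
      (√s : ℂ) • ra (Sum.inr (Sum.inr k))) := by
  unfold Rh
  rw [star_smul, star_add, star_smul, star_smul, star_rc, star_rc]
  congr 1
  · rw [Complex.star_def, map_inv₀, Complex.conj_ofReal]
  · congr 1
    · rw [Complex.star_def, Complex.conj_ofReal]
    · rw [Complex.star_def, Complex.conj_ofReal]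

theorem star_Rh_mul_Rh (u : Fin n → ℝ) (hu : ∀ k, 0 < u k) (s : ℝ) (hs : 0 ≤ s) (j k : Fin n) :
    star (Rh L u s j) * Rh L u s k = if j = k then 1 else 0 := by
  rw [star_Rh, Rh]
  simp only [smul_mul_assoc, mul_smul_comm, add_mul, mul_add, ra_mul_rc, smul_smul, smul_add]
  by_cases hjk : j = k
  · subst hjk
    simp only [if_true, reduceCtorEq, Sum.inr.injEq, if_false, smul_zero, add_zero, zero_add]
    rw [← add_smul]
    have h1 : (√(u j + s) : ℂ)⁻¹ * (√(u j) : ℂ) * ((√(u j + s) : ℂ)⁻¹ * (√(u j) : ℂ)) +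
        (√(u j + s) : ℂ)⁻¹ * (√s : ℂ) * ((√(u j + s) : ℂ)⁻¹ * (√s : ℂ)) = 1 := by
      rw [← inv_sqrt_mul_inv_sqrt_c (show 0 < u j + s by linarith [hu j]), Complex.ofReal_add,
        ← sqrt_mul_sqrt_c (hu j).le, ← sqrt_mul_sqrt_c hs]
      ring
    rw [h1, one_smul]
  · simp only [Sum.inr.injEq, Sum.inl.injEq, hjk, if_false, reduceCtorEq, smul_zero, add_zero]

theorem star_Rh_vac (u : Fin n → ℝ) (s : ℝ) (k : Fin n) : star (Rh L u s k) vac = 0 := by
  rw [star_Rh]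
  simp only [smul_apply, add_apply, ra_vac, smul_zero,
    add_zero]

theorem Rh_apply_nil (u : Fin n → ℝ) (s : ℝ) (k : Fin n) (f : Fock (Lt L n)) :
    Rh L u s k f [] = 0 := by
  unfold Rh
  simp only [smul_apply, add_apply, lp.coeFn_smul,
    lp.coeFn_add, Pi.smul_apply, Pi.add_apply, rc_nil, smul_zero, add_zero]

/-- `sc (inl a)` commutes with `Rh` -/
theorem sc_comm_Rh (u : Fin n → ℝ) (s : ℝ) (k : Fin n) (a : L) :
    sc (Sum.inl a) * Rh L u s k = Rh L u s k * sc (Sum.inl a) := by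
  unfold Rh
  simp only [smul_mul_assoc, mul_smul_comm, add_mul, mul_add, sc_mul_rc, reduceCtorEq, if_false,
    add_zero]

theorem algL_comm_Rh (u : Fin n → ℝ) (s : ℝ) (k : Fin n) (m : FAlg (Lt L n))
    (hm : m ∈ algL L n) : (m : BH (Lt L n)) * Rh L u s k = Rh L u s k * m := by
  unfold algL at hm
  induction hm using Algebra.adjoin_induction with
  | mem x hx =>
    obtain ⟨a, rfl⟩ := hx
    exact sc_comm_Rh u s k a
  | algebraMap r => exact Algebra.commutes r _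
  | add x y _ _ hx hy =>
    have : ((x + y : FAlg (Lt L n)) : BH (Lt L n)) = x + y := rfl
    rw [this, add_mul, mul_add, hx, hy]
  | mul x y _ _ hx hy =>
    have : ((x * y : FAlg (Lt L n)) : BH (Lt L n)) = x * y := rfl
    rw [this, mul_assoc, hy, ← mul_assoc, hx, mul_assoc]

theorem star_Rh_comm (u : Fin n → ℝ) (s : ℝ) (k : Fin n) (m : FAlg (Lt L n))
    (hm : m ∈ algL L n) : star (Rh L u s k) * (m : BH (Lt L n)) = m * star (Rh L u s k) := by
  unfold algL at hm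
  induction hm using Algebra.adjoin_induction with
  | mem x hx =>
    obtain ⟨a, rfl⟩ := hx
    have h := congrArg star (sc_comm_Rh u s k a)
    rw [star_mul, star_mul, (isSelfAdjoint_sc _).star_eq] at h
    exact h
  | algebraMap r => exact (Algebra.commutes r _).symm
  | add x y _ _ hx hy =>
    have : ((x + y : FAlg (Lt L n)) : BH (Lt L n)) = x + y := rfl
    rw [this, add_mul, mul_add, hx, hy]
  | mul x y _ _ hx hy =>
    have : ((x * y : FAlg (Lt L n)) : BH (Lt L n)) = x * y := rfl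
    rw [this, mul_assoc, ← hy, ← mul_assoc, hx, mul_assoc]

theorem coe_heat (T : Fin n → FAlg (Lt L n)) (u : Fin n → ℝ) (s : ℝ) (j : Fin n) :
    ((heatTuple (XX T u) sS s j : FAlg (Lt L n)) : BH (Lt L n)) =
      (T j : BH (Lt L n)) + ((√(u j) : ℂ) • sc (Sum.inr (Sum.inl j)) +
        (√s : ℂ) • sc (Sum.inr (Sum.inr j))) := by
  rw [← add_assoc]
  rfl

theorem noise_mul_Rh (u : Fin n → ℝ) (hu : ∀ k, 0 < u k) (s : ℝ) (hs : 0 ≤ s) (j k : Fin n) :
    ((√(u j) : ℂ) • sc (Sum.inr (Sum.inl j)) + (√s : ℂ) • sc (Sum.inr (Sum.inr j))) *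
        Rh L u s k =
      Rh L u s k * ((√(u j) : ℂ) • sc (Sum.inr (Sum.inl j)) +
        (√s : ℂ) • sc (Sum.inr (Sum.inr j))) +
        if j = k then (√(u k + s) : ℂ) • PO else 0 := by
  unfold Rh
  simp only [smul_mul_assoc, mul_smul_comm, add_mul, mul_add, sc_mul_rc, smul_smul, smul_add]
  by_cases hjk : j = k
  · subst hjk
    simp only [if_true, reduceCtorEq, Sum.inr.injEq, if_false, smul_zero, add_zero]
    have h1 : (√(u j + s) : ℂ)⁻¹ * (√(u j) : ℂ) * (√(u j) : ℂ) +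
        (√(u j + s) : ℂ)⁻¹ * (√s : ℂ) * (√s : ℂ) = (√(u j + s) : ℂ) := by
      have h2 := inv_sqrt_mul_c (show 0 < u j + s by linarith [hu j])
      rw [Complex.ofReal_add, ← sqrt_mul_sqrt_c (hu j).le, ← sqrt_mul_sqrt_c hs] at h2
      linear_combination h2
    generalize (√(u j + s) : ℂ)⁻¹ = c at h1 ⊢
    rw [← h1, add_smul]
    simp only [mul_comm, mul_left_comm]
    abel
  · have hkj : ¬ k = j := fun h => hjk h.symm
    simp only [Sum.inr.injEq, Sum.inl.injEq, hjk, hkj, if_false, reduceCtorEq, smul_zero,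
      add_zero]
    simp only [mul_comm, mul_left_comm]
    abel

/-- `Z_j Rh_k = Rh_k Z_j + √v_k δ_{jk} P_Ω`, `Z = heatTuple (XX T u) S s` -/
theorem heat_mul_Rh (T : Fin n → FAlg (Lt L n)) (hT : ∀ k, T k ∈ algL L n) (u : Fin n → ℝ)
    (hu : ∀ k, 0 < u k) (s : ℝ) (hs : 0 ≤ s) (j k : Fin n) :
    ((heatTuple (XX T u) sS s j : FAlg (Lt L n)) : BH (Lt L n)) * Rh L u s k =
      Rh L u s k * ((heatTuple (XX T u) sS s j : FAlg (Lt L n)) : BH (Lt L n)) +
        if j = k then (√(u k + s) : ℂ) • PO else 0 := by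
  rw [coe_heat, add_mul, mul_add, noise_mul_Rh u hu s hs j k, algL_comm_Rh u s k _ (hT j),
    add_assoc]

theorem star_Rh_mul_heat (T : Fin n → FAlg (Lt L n)) (hT : ∀ k, T k ∈ algL L n) (u : Fin n → ℝ)
    (hu : ∀ k, 0 < u k) (s : ℝ) (hs : 0 ≤ s) (j k : Fin n) :
    star (Rh L u s k) * ((heatTuple (XX T u) sS s j : FAlg (Lt L n)) : BH (Lt L n)) =
      ((heatTuple (XX T u) sS s j : FAlg (Lt L n)) : BH (Lt L n)) * star (Rh L u s k) +
        if j = k then (√(u k + s) : ℂ) • PO else 0 := by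
  have h := congrArg star (noise_mul_Rh (L := L) u hu s hs j k)
  have h2 : star ((√(u j) : ℂ) • sc (Sum.inr (Sum.inl j)) +
      (√s : ℂ) • sc (Sum.inr (Sum.inr j)) : BH (Lt L n)) =
      (√(u j) : ℂ) • sc (Sum.inr (Sum.inl j)) + (√s : ℂ) • sc (Sum.inr (Sum.inr j)) := by
    rw [star_add, star_smul, star_smul, (isSelfAdjoint_sc _).star_eq,
      (isSelfAdjoint_sc _).star_eq, Complex.star_def, Complex.conj_ofReal, Complex.conj_ofReal]
  have h3 : star (if j = k then (√(u k + s) : ℂ) • PO else 0 : BH (Lt L n)) =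
      if j = k then (√(u k + s) : ℂ) • PO else 0 := by
    split_ifs
    · rw [star_smul, PO_star, Complex.star_def, Complex.conj_ofReal]
    · exact star_zero _
  rw [coe_heat]
  generalize (√(u j) : ℂ) • sc (Sum.inr (Sum.inl j)) +
      (√s : ℂ) • sc (Sum.inr (Sum.inr j)) = NZ at h h2 ⊢
  rw [star_mul, star_add, star_mul, h2, h3] at h
  rw [mul_add, add_mul, h, star_Rh_comm u s k _ (hT j), add_assoc]

/-- `G_k Ω = √v_k Rh_k Ω` -/
theorem GG_vac (T : Fin n → FAlg (Lt L n)) (u : Fin n → ℝ)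
    (hu : ∀ k, 0 < u k) (s : ℝ) (hs : 0 ≤ s) (k : Fin n) :
    ((heatTuple (XX T u) sS s k - T k : FAlg (Lt L n)) : BH (Lt L n)) vac =
      (√(u k + s) : ℂ) • Rh L u s k vac := by
  have h1 : ((heatTuple (XX T u) sS s k - T k : FAlg (Lt L n)) : BH (Lt L n)) =
      (√(u k) : ℂ) • sc (Sum.inr (Sum.inl k)) + (√s : ℂ) • sc (Sum.inr (Sum.inr k)) := by
    have : ((heatTuple (XX T u) sS s k - T k : FAlg (Lt L n)) : BH (Lt L n)) =
      ((heatTuple (XX T u) sS s k : FAlg (Lt L n)) : BH (Lt L n)) - (T k : BH (Lt L n)) := rfl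
    rw [this, coe_heat, add_sub_cancel_left]
  have h : (√(u k + s) : ℂ) ≠ 0 := by
    rw [Ne, Complex.ofReal_eq_zero]
    exact (Real.sqrt_pos.2 (by linarith [hu k])).ne'
  rw [h1]
  unfold Rh
  simp only [smul_apply, add_apply, sc_vac]
  rw [smul_smul, mul_inv_cancel₀ h, one_smul]

end

end Crest.Agent.FE
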