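import Mathlib
import Crest.Agent.FE_Heat

/-! S0118 blueprint, file FE_HeatHD: Bessel inequality, coefficient functionals, the abstract data
`HD` of `X + √s S`, freeness of `X, S_1, ..., S_n`. -/

set_option autoImplicit false

namespace Crest.Agent.FE

open Finset Crest.OpAlg
open scoped ENNReal InnerProductSpace

section
variable {L : Type} {n : ℕ}

/-- the vectors `f_[] = Ω`, `f_{k :: V} = Rh_k f_V` -/
noncomputable def ff (L : Type) {n : ℕ} (u : Fin n → ℝ) (s : ℝ) : List (Fin n) → Fock (Lt L n)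
  | [] => vac
  | (k :: V) => Rh L u s k (ff L u s V)

theorem heatHD_norm_vac {ι : Type} : ‖(vac : Fock ι)‖ = 1 := by
  classical
  unfold vac dl
  rw [lp.norm_single (by norm_num)]
  simp

theorem heatHD_inner_vac_vac {ι : Type} : ⟪(vac : Fock ι), vac⟫_ℂ = 1 := by
  rw [inner_self_eq_norm_sq_to_K, heatHD_norm_vac]; simp

/-- moving a star across the inner product -/
theorem heatHD_inner_star {ι : Type} (T : BH ι) (f g : Fock ι) :
    ⟪star T f, g⟫_ℂ = ⟪f, T g⟫_ℂ := by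
  rw [ContinuousLinearMap.star_eq_adjoint, ContinuousLinearMap.adjoint_inner_left]

theorem heatHD_inner_star' {ι : Type} (T : BH ι) (f g : Fock ι) :
    ⟪T f, g⟫_ℂ = ⟪f, star T g⟫_ℂ := by
  rw [ContinuousLinearMap.star_eq_adjoint, ContinuousLinearMap.adjoint_inner_right]

/-- one step of the Bessel inequality -/
theorem heatHD_step (u : Fin n → ℝ) (hu : ∀ k, 0 < u k) (s : ℝ) (hs : 0 ≤ s)
    (ξ : Fock (Lt L n)) :
    ‖⟪(vac : Fock (Lt L n)), ξ⟫_ℂ‖ ^ 2 + ∑ k, ‖star (Rh L u s k) ξ‖ ^ 2 ≤ ‖ξ‖ ^ 2 := by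
  classical
  set a : ℂ := ⟪(vac : Fock (Lt L n)), ξ⟫_ℂ with ha
  set g : Fin n → Fock (Lt L n) := fun k => star (Rh L u s k) ξ with hg
  set η : Fock (Lt L n) := a • vac + ∑ k, Rh L u s k (g k) with hη
  have h1 : ⟪η, ξ⟫_ℂ = ((‖a‖ ^ 2 + ∑ k, ‖g k‖ ^ 2 : ℝ) : ℂ) := by
    rw [hη, inner_add_left, inner_smul_left, ← ha, sum_inner]
    have : ∀ k, ⟪Rh L u s k (g k), ξ⟫_ℂ = ((‖g k‖ ^ 2 : ℝ) : ℂ) := by
      intro k
      rw [heatHD_inner_star']
      change ⟪g k, g k⟫_ℂ = _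
      rw [inner_self_eq_norm_sq_to_K]
      push_cast; rfl
    simp only [this]
    push_cast
    rw [← Complex.normSq_eq_conj_mul_self, Complex.normSq_eq_norm_sq]
    push_cast
    rfl
  have h2 : ⟪η, η⟫_ℂ = ((‖a‖ ^ 2 + ∑ k, ‖g k‖ ^ 2 : ℝ) : ℂ) := by
    have hv : ⟪(vac : Fock (Lt L n)), η⟫_ℂ = a := by
      rw [hη, inner_add_right, inner_smul_right, heatHD_inner_vac_vac, inner_sum]
      have : ∀ k, ⟪(vac : Fock (Lt L n)), Rh L u s k (g k)⟫_ℂ = 0 := by
        intro k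
        rw [← heatHD_inner_star, star_Rh_vac, inner_zero_left]
      simp [this]
    have hr : ∀ k, star (Rh L u s k) η = g k := by
      intro k
      rw [hη, map_add, map_smul, star_Rh_vac, smul_zero, zero_add, map_sum]
      have : ∀ j, star (Rh L u s k) (Rh L u s j (g j)) = if k = j then g j else 0 := by
        intro j
        have := congrArg (fun T : BH (Lt L n) => T (g j)) (star_Rh_mul_Rh (L := L) u hu s hs k j)
        refine Eq.trans this ?_
        split_ifs <;> simp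
      simp [this]
    have e0 : ⟪η, η⟫_ℂ = ⟪a • vac + ∑ k, Rh L u s k (g k), η⟫_ℂ := by rw [← hη]
    rw [e0, inner_add_left, inner_smul_left, hv, sum_inner]
    have : ∀ k, ⟪Rh L u s k (g k), η⟫_ℂ = ((‖g k‖ ^ 2 : ℝ) : ℂ) := by
      intro k
      rw [heatHD_inner_star', hr, inner_self_eq_norm_sq_to_K]
      push_cast; rfl
    simp only [this]
    push_cast
    rw [← Complex.normSq_eq_conj_mul_self, Complex.normSq_eq_norm_sq]
    push_cast
    rfl
  have h3 : 0 ≤ ‖ξ - η‖ ^ 2 := by positivity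
  rw [@norm_sub_sq ℂ] at h3
  have h4 : RCLike.re ⟪ξ, η⟫_ℂ = ‖a‖ ^ 2 + ∑ k, ‖g k‖ ^ 2 := by
    rw [← inner_conj_symm, h1, Complex.conj_ofReal]
    exact Complex.ofReal_re _
  have h5 : ‖η‖ ^ 2 = ‖a‖ ^ 2 + ∑ k, ‖g k‖ ^ 2 := by
    have := inner_self_eq_norm_sq_to_K (𝕜 := ℂ) η
    rw [h2] at this
    have h6 : ((‖a‖ ^ 2 + ∑ k, ‖g k‖ ^ 2 : ℝ) : ℂ) = ((‖η‖ ^ 2 : ℝ) : ℂ) := by
      rw [this]; push_cast; rfl
    exact (Complex.ofReal_injective h6).symm
  rw [h4, h5] at h3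
  linarith

/-- Bessel inequality, by induction on `K`:
`|⟨Ω, ξ⟩|² + ∑_k ‖Rh_k⋆ ξ‖² ≤ ‖ξ‖²` and `⟨f_{k::V}, ξ⟩ = ⟨f_V, Rh_k⋆ ξ⟩` -/
theorem ff_bessel (u : Fin n → ℝ) (hu : ∀ k, 0 < u k) (s : ℝ) (hs : 0 ≤ s)
    (ξ : Fock (Lt L n)) (K : ℕ) :
    ∑ V ∈ wLE (α := Fin n) K, ‖⟪ff L u s V, ξ⟫_ℂ‖ ^ 2 ≤ ‖ξ‖ ^ 2 := by
  induction K generalizing ξ with
  | zero =>
    rw [sum_wLE_zero]
    have := norm_inner_le_norm (𝕜 := ℂ) (ff L u s []) ξ
    rw [show ff L u s [] = vac from rfl, heatHD_norm_vac, one_mul] at this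
    exact pow_le_pow_left₀ (norm_nonneg _) this 2
  | succ K ih =>
    rw [sum_wLE_succ]
    refine le_trans ?_ (heatHD_step u hu s hs ξ)
    refine add_le_add (le_of_eq rfl) (Finset.sum_le_sum fun k _ => ?_)
    have : ∀ V, ⟪ff L u s (k :: V), ξ⟫_ℂ = ⟪ff L u s V, star (Rh L u s k) ξ⟫_ℂ := by
      intro V
      rw [← heatHD_inner_star']; rfl
    simp only [this]
    exact ih _

/-- coefficient functionals `c_V(Y) = ⟨Ω, Y f_V⟩` -/
noncomputable def cV (L : Type) {n : ℕ} (u : Fin n → ℝ) (s : ℝ) (V : List (Fin n)) :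
    FAlg (Lt L n) →ₗ[ℂ] ℂ where
  toFun Y := (Y : BH (Lt L n)) (ff L u s V) []
  map_add' := by intro a b; simp
  map_smul' := by intro r a; simp

theorem cV_apply (u : Fin n → ℝ) (s : ℝ) (V : List (Fin n)) (Y : FAlg (Lt L n)) :
    cV L u s V Y = (Y : BH (Lt L n)) (ff L u s V) [] := rfl

theorem heatHD_coe_wd {α : Type*} (Z : α → FAlg (Lt L n)) (W : List α) :
    ((wd Z W : FAlg (Lt L n)) : BH (Lt L n)) = wd (fun i => ((Z i : FAlg (Lt L n)) : BH (Lt L n))) W := by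
  induction W with
  | nil => rfl
  | cons a W ih => rw [wd_cons, wd_cons, ← ih]; rfl

theorem heatHD_isSA_smul (r : ℝ) (a : FAlg (Lt L n)) (ha : IsSelfAdjoint a) :
    IsSelfAdjoint ((r : ℂ) • a) := by
  rw [IsSelfAdjoint, star_smul, ha.star_eq]
  simp

/-- `X` is self-adjoint etc.: the abstract data at time `s` (`word_mul_right`,
`word_mul_left`, `ff_bessel` with `ξ = Y⋆ Ω`) -/
theorem heatHD (T : Fin n → FAlg (Lt L n)) (hT : ∀ k, T k ∈ algL L n)
    (hTs : ∀ k, IsSelfAdjoint (T k)) (u : Fin n → ℝ)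
    (hu : ∀ k, 0 < u k) (s : ℝ) (hs : 0 ≤ s) :
    HD (tau : FAlg (Lt L n) →ₗ[ℂ] ℂ) T (heatTuple (XX T u) sS s) (fun k => u k + s) (algL L n)
      (cV L u s) := by
  have hsa : ∀ k, IsSelfAdjoint (heatTuple (XX T u) sS s k) := by
    intro k
    exact ((hTs k).add (heatHD_isSA_smul _ _ (isSelfAdjoint_sa _))).add
      (heatHD_isSA_smul _ _ (isSelfAdjoint_sa _))
  have hpos : ∀ k, 0 < u k + s := fun k => by have := hu k; linarith
  refine ⟨isFaithfulTracialState_tau, hT, hTs, hsa, hpos, ?_, ?_, ?_, ?_⟩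
  · intro k W m hm
    set Z := heatTuple (XX T u) sS s with hZ
    have e1 : tau ((Z k - T k) * wd Z W * m) =
        (√(u k + s) : ℂ) * tauB (star (Rh L u s k) *
          wd (fun i => ((Z i : FAlg (Lt L n)) : BH (Lt L n))) W * (m : BH (Lt L n))) := by
      rw [mul_assoc, tau_apply]
      have : (((Z k - T k) * (wd Z W * m) : FAlg (Lt L n)) : BH (Lt L n)) =
        ((Z k - T k : FAlg (Lt L n)) : BH (Lt L n)) *
          (wd (fun i => ((Z i : FAlg (Lt L n)) : BH (Lt L n))) W * (m : BH (Lt L n))) := by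
        rw [← heatHD_coe_wd]; rfl
      rw [this, tauB_mul]
      have hst : star ((Z k - T k : FAlg (Lt L n)) : BH (Lt L n)) =
          ((Z k - T k : FAlg (Lt L n)) : BH (Lt L n)) := by
        have := ((hsa k).sub (hTs k)).star_eq
        exact congrArg (fun x : FAlg (Lt L n) => (x : BH (Lt L n))) this
      rw [hst, GG_vac T u hu s hs k, inner_smul_left, mul_assoc, tauB_mul, star_star]
      simp
    rw [e1, word_mul_left k _ (star (Rh L u s k)) (√(u k + s) : ℂ)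
      (fun j => ?_) (star_Rh_vac u s k) _ (star_Rh_comm u s k m hm)]
    · rw [← mul_assoc]
      congr 1
      · have := Real.mul_self_sqrt (hpos k).le
        exact_mod_cast this
      · apply spl_congr
        intro A B _
        rw [tau_apply, tau_apply, heatHD_coe_wd]
        congr 2
        rw [← heatHD_coe_wd]; rfl
    · exact star_Rh_mul_heat T hT u hu s hs j k
  · intro Y
    rfl
  · intro k V W
    set Z := heatTuple (XX T u) sS s with hZ
    have := word_mul_right k (fun i => ((Z i : FAlg (Lt L n)) : BH (Lt L n))) (Rh L u s k)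
      (√(u k + s) : ℂ) (fun j => heat_mul_Rh T hT u hu s hs j k) (Rh_apply_nil u s k) W
      (ff L u s V)
    rw [cV_apply, heatHD_coe_wd]
    refine this.trans ?_
    congr 1
    apply spl_congr
    intro A B _
    rw [tau_apply, cV_apply, heatHD_coe_wd, heatHD_coe_wd]
  · intro K Y
    have h1 : ∀ V, ‖cV L u s V Y‖ = ‖⟪ff L u s V, star (Y : BH (Lt L n)) vac⟫_ℂ‖ := by
      intro V
      rw [cV_apply, ← heatHD_inner_star', ← inner_dl, ← inner_conj_symm, RCLike.norm_conj]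
      rfl
    simp only [h1]
    refine (ff_bessel u hu s hs _ K).trans (le_of_eq ?_)
    rw [tau_apply]
    have : ((Y * star Y : FAlg (Lt L n)) : BH (Lt L n)) =
      (Y : BH (Lt L n)) * star (Y : BH (Lt L n)) := rfl
    rw [this, tauB_mul, inner_self_eq_norm_sq_to_K]
    norm_cast

/-- blocks of letters -/
def blkN (L : Type) (n : ℕ) : Option (Fin n) → Set (Lt L n)
  | none => {x | (∃ a, x = Sum.inl a) ∨ ∃ k, x = Sum.inr (Sum.inl k)}
  | some i => {Sum.inr (Sum.inr i)}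

/-- freeness of `X, S_1, ..., S_n`: blocks `none ↦ {inl a} ∪ {inr (inl k)}`,
`some i ↦ {inr (inr i)}` -/
theorem free_withNoise (T : Fin n → FAlg (Lt L n)) (hT : ∀ k, T k ∈ algL L n)
    (u : Fin n → ℝ) : IsFreeFamily (tau : FAlg (Lt L n) →ₗ[ℂ] ℂ) (withNoise (XX T u) sS) := by
  refine isFreeFamily_of_blocks (blkN L n) ?_ _ ?_
  · intro b c hbc
    rw [Set.disjoint_left]
    intro x hx hx'
    cases b <;> cases c
    · exact hbc rfl
    · simp only [blkN, Set.mem_ofPred_eq, Set.mem_singleton_iff] at hx hx'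
      subst hx'
      simp at hx
    · simp only [blkN, Set.mem_ofPred_eq, Set.mem_singleton_iff] at hx hx'
      subst hx
      simp at hx'
    · simp only [blkN, Set.mem_singleton_iff] at hx hx'
      subst hx
      simp only [Sum.inr.injEq] at hx'
      exact hbc (by rw [hx'])
  · intro b i
    cases b with
    | none =>
      show ((XX T u i : FAlg (Lt L n)) : BH (Lt L n)) ∈ _
      have hTi : ((T i : FAlg (Lt L n)) : BH (Lt L n)) ∈
          Algebra.adjoin ℂ ((sc : Lt L n → BH (Lt L n)) '' blkN L n none) := by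
        have h := hT i
        unfold algL at h
        have h2 : ((FAlg (Lt L n)).subtype : FAlg (Lt L n) →⋆ₐ[ℂ] BH (Lt L n)).toAlgHom (T i) ∈
            (Algebra.adjoin ℂ (Set.range (sL : L → FAlg (Lt L n)))).map
              ((FAlg (Lt L n)).subtype : FAlg (Lt L n) →⋆ₐ[ℂ] BH (Lt L n)).toAlgHom :=
          ⟨T i, h, rfl⟩
        rw [AlgHom.map_adjoin] at h2
        refine Algebra.adjoin_mono ?_ h2
        rintro _ ⟨_, ⟨a, rfl⟩, rfl⟩
        exact ⟨Sum.inl a, Or.inl ⟨a, rfl⟩, rfl⟩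
      have hB : (sc (Sum.inr (Sum.inl i)) : BH (Lt L n)) ∈
          Algebra.adjoin ℂ ((sc : Lt L n → BH (Lt L n)) '' blkN L n none) :=
        Algebra.subset_adjoin ⟨_, Or.inr ⟨i, rfl⟩, rfl⟩
      exact Subalgebra.add_mem _ hTi (Subalgebra.smul_mem _ hB _)
    | some j =>
      exact Algebra.subset_adjoin ⟨_, rfl, rfl⟩

end

end Crest.Agent.FE
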