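import Mathlib
import Crest.Agent.FE_HeatHD
import Crest.Agent.FE_TBound

/-! S0118 blueprint, file FE_Vals: the concrete example and its second moments. -/

set_option autoImplicit false

namespace Crest.Agent.FE

open Finset Crest.OpAlg

/-- variances: `ε²` for the linear letters, `1` for the cubic ones -/
def uu {m : ℕ} (ε : ℝ) : JJ m → ℝ := Sum.elim (fun _ => ε ^ 2) (fun _ => 1)

/-- the cubic family in the base letters `Fin m` -/
noncomputable def TT {m n : ℕ} (e : Fin n ≃ JJ m) : Fin n → FAlg (Lt (Fin m) n) :=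
  fun k => Tc (sL : Fin m → FAlg (Lt (Fin m) n)) (e k)

/-- the example tuple -/
noncomputable def Xex {m n : ℕ} (e : Fin n ≃ JJ m) (ε : ℝ) : Fin n → FAlg (Lt (Fin m) n) :=
  XX (TT e) (fun k => uu ε (e k))

theorem sL_mem_algL {m n : ℕ} (a : Fin m) :
    (sL a : FAlg (Lt (Fin m) n)) ∈ algL (Fin m) n :=
  Algebra.subset_adjoin ⟨a, rfl⟩

theorem TT_mem {m n : ℕ} (e : Fin n ≃ JJ m) (k : Fin n) : TT e k ∈ algL (Fin m) n := by
  unfold TT
  rcases e k with a | p
  · exact sL_mem_algL a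
  · exact add_mem (mul_mem (mul_mem (sL_mem_algL _) (sL_mem_algL _)) (sL_mem_algL _))
      (mul_mem (mul_mem (sL_mem_algL _) (sL_mem_algL _)) (sL_mem_algL _))

theorem isSelfAdjoint_sL {m n : ℕ} (a : Fin m) :
    IsSelfAdjoint (sL a : FAlg (Lt (Fin m) n)) := isSelfAdjoint_sa _

theorem isSelfAdjoint_sB {L : Type} {n : ℕ} (k : Fin n) :
    IsSelfAdjoint (sB k : FAlg (Lt L n)) := isSelfAdjoint_sa _

theorem isSelfAdjoint_cub {A : Type*} [Ring A] [StarRing A] (x y z : A)
    (hx : IsSelfAdjoint x) (hy : IsSelfAdjoint y) (hz : IsSelfAdjoint z) :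
    IsSelfAdjoint (x * y * z + z * y * x) := by
  unfold IsSelfAdjoint
  rw [star_add, star_mul, star_mul, star_mul, star_mul, hx.star_eq, hy.star_eq, hz.star_eq,
    add_comm, mul_assoc, mul_assoc]

theorem isSelfAdjoint_TT {m n : ℕ} (e : Fin n ≃ JJ m) (k : Fin n) : IsSelfAdjoint (TT e k) := by
  unfold TT
  rcases e k with a | p
  · exact isSelfAdjoint_sL a
  · exact isSelfAdjoint_cub _ _ _ (isSelfAdjoint_sL _) (isSelfAdjoint_sL _) (isSelfAdjoint_sL _)

theorem isSelfAdjoint_ofReal_smul {A : Type*} [Ring A] [StarRing A] [Algebra ℂ A]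
    [StarModule ℂ A] (r : ℝ) (x : A) (hx : IsSelfAdjoint x) :
    IsSelfAdjoint ((r : ℂ) • x) := by
  unfold IsSelfAdjoint
  rw [star_smul, hx.star_eq]
  congr 1
  exact Complex.conj_ofReal r

theorem isSelfAdjoint_Xex {m n : ℕ} (e : Fin n ≃ JJ m) (ε : ℝ) (k : Fin n) :
    IsSelfAdjoint (Xex e ε k) := by
  unfold Xex XX
  exact (isSelfAdjoint_TT e k).add (isSelfAdjoint_ofReal_smul _ _ (isSelfAdjoint_sB k))

/-- `isSC_sa` restricted to the base letters (`IsSC.comp`, `Sum.inl_injective`) -/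
theorem isSC_sL (m n : ℕ) :
    IsSC (fun w : List (Fin m) => (tau : FAlg (Lt (Fin m) n) →ₗ[ℂ] ℂ) (wd sL w)) := by
  have h := (isSC_sa (ι := Lt (Fin m) n)).comp (Sum.inl : Fin m → Lt (Fin m) n)
    Sum.inl_injective
  have e : (fun w : List (Fin m) => (tau : FAlg (Lt (Fin m) n) →ₗ[ℂ] ℂ) (wd sL w)) =
      fun w : List (Fin m) => (tau : FAlg (Lt (Fin m) n) →ₗ[ℂ] ℂ)
        (wd sa (w.map (Sum.inl : Fin m → Lt (Fin m) n))) := by
    funext w
    unfold wd
    rw [List.map_map]
    rfl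
  rw [e]
  exact h

theorem IsSC.two {α : Type*} [DecidableEq α] {mom : List α → ℂ} (h : IsSC mom) (a b : α) :
    mom [a, b] = if b = a then 1 else 0 := by
  rw [h.cons]; simp [h.nil]

theorem IsSC.four {α : Type*} [DecidableEq α] {mom : List α → ℂ} (h : IsSC mom) (a b c d : α) :
    mom [a, b, c, d] = (if b = a then (if d = c then 1 else 0) else 0) +
      (if d = a then (if c = b then 1 else 0) else 0) := by
  have h1 : ∀ x, mom [x] = 0 := by intro x; rw [h.cons]; simp
  rw [h.cons]; simp [h.nil, h.two, h1]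

theorem IsSC.six {α : Type*} [DecidableEq α] {mom : List α → ℂ} (h : IsSC mom)
    (a b c d e f : α) :
    mom [a, b, c, d, e, f] = (if b = a then mom [c, d, e, f] else 0) +
      (if d = a then mom [b, c] * mom [e, f] else 0) +
      (if f = a then mom [b, c, d, e] else 0) := by
  have h1 : ∀ x, mom [x] = 0 := by intro x; rw [h.cons]; simp
  have h3 : ∀ x y z, mom [x, y, z] = 0 := by
    intro x y z; rw [h.cons]; simp [h1]
  rw [h.cons]; simp [h.nil, h1, h3, add_assoc]

/-- the coefficient of `T_k Ω` at the word `[a]` resp. `[a,b,c]` is `≥ 1`; `τ(T²) = ‖T Ω‖²` -/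
theorem one_le_tau_TT {m n : ℕ} (e : Fin n ≃ JJ m) (k : Fin n) :
    1 ≤ ((tau : FAlg (Lt (Fin m) n) →ₗ[ℂ] ℂ) (TT e k * TT e k)).re := by
  unfold TT
  have h := isSC_sL m n
  rcases e k with a | ⟨a, b, c⟩
  · have h2 := h.two a a
    simp only [wd_cons, wd_nil, mul_one, if_true] at h2
    change 1 ≤ ((tau : FAlg (Lt (Fin m) n) →ₗ[ℂ] ℂ) (sL a * sL a)).re
    rw [h2]; simp
  · have key : ∀ x y z u v w : Fin m,
        (tau : FAlg (Lt (Fin m) n) →ₗ[ℂ] ℂ) ((sL x * sL y * sL z) * (sL u * sL v * sL w)) =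
        tau (wd (sL : Fin m → FAlg (Lt (Fin m) n)) [x, y, z, u, v, w]) := by
      intro x y z u v w
      simp only [wd_cons, wd_nil, mul_one, mul_assoc]
    have hsum : (tau : FAlg (Lt (Fin m) n) →ₗ[ℂ] ℂ)
        (Tc (sL : Fin m → FAlg (Lt (Fin m) n)) (Sum.inr (a, b, c)) *
          Tc (sL : Fin m → FAlg (Lt (Fin m) n)) (Sum.inr (a, b, c))) =
        tau (wd (sL : Fin m → FAlg (Lt (Fin m) n)) [a, b, c, a, b, c]) +
        tau (wd (sL : Fin m → FAlg (Lt (Fin m) n)) [a, b, c, c, b, a]) +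
        tau (wd (sL : Fin m → FAlg (Lt (Fin m) n)) [c, b, a, a, b, c]) +
        tau (wd (sL : Fin m → FAlg (Lt (Fin m) n)) [c, b, a, c, b, a]) := by
      rw [← key, ← key, ← key, ← key, ← map_add, ← map_add, ← map_add]
      congr 1
      change (sL a * sL b * sL c + sL c * sL b * sL a) *
        (sL a * sL b * sL c + sL c * sL b * sL a) = _
      rw [add_mul, mul_add, mul_add, add_assoc, add_assoc, add_assoc]
    rw [hsum]
    have h6 := h.six
    have h4 := h.four
    have h2 := h.two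
    rw [h6 a b c a b c, h6 a b c c b a, h6 c b a a b c, h6 c b a c b a]
    simp only [h4, h2]
    have e1 : (b = a) = (a = b) := propext eq_comm
    have e2 : (c = a) = (a = c) := propext eq_comm
    have e3 : (c = b) = (b = c) := propext eq_comm
    simp only [e1, e2, e3]
    clear h6 h4 h2 hsum key h e1 e2 e3
    by_cases hab : a = b
    · by_cases hbc : b = c
      · simp [hab, hbc]; norm_num
      · simp [hab, hbc]
        norm_num
    · by_cases hbc : b = c
      · by_cases hac : a = c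
        · exact absurd (hac.trans hbc.symm) hab
        · simp [hbc, hac]
          norm_num
      · by_cases hac : a = c
        · have hcb : ¬ c = b := fun h => hbc h.symm
          simp [hbc, hac, hcb]
          norm_num
        · simp [hab, hbc, hac]

/-- `τ(X_a²) = 1 + ε²` -/
theorem tau_Xex_lin {m n : ℕ} (e : Fin n ≃ JJ m) (ε : ℝ) (hε : 0 ≤ ε) (a : Fin m) :
    ((tau : FAlg (Lt (Fin m) n) →ₗ[ℂ] ℂ)
      (Xex e ε (e.symm (Sum.inl a)) * Xex e ε (e.symm (Sum.inl a)))).re = 1 + ε ^ 2 := by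
  set k := e.symm (Sum.inl a) with hk
  have hX : Xex e ε k = sL a + (ε : ℂ) • sB k := by
    unfold Xex XX TT
    simp only [hk, Equiv.apply_symm_apply, Tc, uu, Sum.elim_inl, Real.sqrt_sq hε]
  have h := isSC_sa (ι := Lt (Fin m) n)
  have h2 := h.two
  simp only [wd_cons, wd_nil, mul_one] at h2
  have e1 : (tau : FAlg (Lt (Fin m) n) →ₗ[ℂ] ℂ) (sL a * sL a) = 1 := by
    have := h2 (Sum.inl a) (Sum.inl a)
    change tau (sL a * sL a) = _ at this
    rw [this]; simp
  have e2 : (tau : FAlg (Lt (Fin m) n) →ₗ[ℂ] ℂ) (sL a * sB k) = 0 := by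
    have := h2 (Sum.inl a) (Sum.inr (Sum.inl k))
    change tau (sL a * sB k) = _ at this
    rw [this]; simp
  have e3 : (tau : FAlg (Lt (Fin m) n) →ₗ[ℂ] ℂ) (sB k * sL a) = 0 := by
    have := h2 (Sum.inr (Sum.inl k)) (Sum.inl a)
    change tau (sB k * sL a) = _ at this
    rw [this]; simp
  have e4 : (tau : FAlg (Lt (Fin m) n) →ₗ[ℂ] ℂ) (sB k * sB k) = 1 := by
    have := h2 (Sum.inr (Sum.inl k)) (Sum.inr (Sum.inl k))
    change tau (sB k * sB k) = _ at this
    rw [this]; simp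
  rw [hX, mul_add, add_mul, add_mul, smul_mul_assoc, mul_smul_comm, smul_mul_assoc,
    mul_smul_comm, map_add, map_add, map_add, map_smul, map_smul, map_smul, map_smul,
    e1, e2, e3, e4]
  simp [sq]

/-- the cubic expression in the linear components -/
def cubic {m n : ℕ} {A : Type*} [Ring A] (e : Fin n ≃ JJ m) (X : Fin n → A)
    (p : Fin m × Fin m × Fin m) : A :=
  X (e.symm (Sum.inl p.1)) * X (e.symm (Sum.inl p.2.1)) * X (e.symm (Sum.inl p.2.2)) +
    X (e.symm (Sum.inl p.2.2)) * X (e.symm (Sum.inl p.2.1)) * X (e.symm (Sum.inl p.1))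

end Crest.Agent.FE
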