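import Mathlib
import Crest.Agent.FE_Herm
import Crest.Agent.FE_Vals

/-! S0118 blueprint, file FE_MicroUp: microstates satisfy two ball conditions. -/

set_option autoImplicit false

namespace Crest.Agent.FE

open Finset Crest.OpAlg MeasureTheory
open scoped NNReal ENNReal

/-- total second moment of the linear components -/
noncomputable def a1 {m n : ℕ} {A : Type*} [Ring A] [Algebra ℂ A] (τ : A →ₗ[ℂ] ℂ)
    (e : Fin n ≃ JJ m) (X : Fin n → A) : ℝ :=
  ∑ a : Fin m, (τ (X (e.symm (Sum.inl a)) * X (e.symm (Sum.inl a)))).re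

/-- total second moment of the cubic defects -/
noncomputable def a2 {m n : ℕ} {A : Type*} [Ring A] [Algebra ℂ A] (τ : A →ₗ[ℂ] ℂ)
    (e : Fin n ≃ JJ m) (X : Fin n → A) : ℝ :=
  ∑ p : Fin m × Fin m × Fin m, (τ ((X (e.symm (Sum.inr p)) - cubic e X p) *
    (X (e.symm (Sum.inr p)) - cubic e X p))).re

/-- normalised trace -/
noncomputable def mntr (d : ℕ) : Matrix (Fin d) (Fin d) ℂ →ₗ[ℂ] ℂ :=
  ((d : ℂ)⁻¹) • Matrix.traceLinearMap (Fin d) ℂ ℂ

theorem mntr_apply {d : ℕ} (Q : Matrix (Fin d) (Fin d) ℂ) :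
    mntr d Q = (d : ℂ)⁻¹ * Matrix.trace Q := rfl

theorem re_trace_eq {d : ℕ} (hd : 1 ≤ d) (Q : Matrix (Fin d) (Fin d) ℂ) :
    (Matrix.trace Q).re = d * (mntr d Q).re := by
  have h0 : (d : ℂ) ≠ 0 := by
    have : d ≠ 0 := by omega
    exact_mod_cast this
  have h1 : Matrix.trace Q = ((d : ℝ) : ℂ) * mntr d Q := by
    rw [mntr_apply, Complex.ofReal_natCast, mul_inv_cancel_left₀ h0]
  rw [h1, Complex.re_ofReal_mul]

theorem micro_word {n d : ℕ} {A : Type*} [Ring A] [Algebra ℂ A] (τ : A →ₗ[ℂ] ℂ)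
    (X : Fin n → A) (R δ : ℝ)
    (x : EuclideanSpace ℝ (Fin n × (Fin d × Fin d))) (hx : x ∈ microstates τ X R 6 d δ)
    (W : List (Fin n)) (hW : W.length ≤ 6) :
    ‖mntr d (wd (matrixTuple x) W) - τ (wd X W)‖ ≤ δ := by
  have h := hx.2 (FreeMonoid.toList.symm W) (by simpa using hW)
  rw [matrixMoment, wordEval_symm, wordEval_symm] at h
  exact h.le

theorem sq_cubic_eq {m n : ℕ} {A : Type*} [Ring A] (e : Fin n ≃ JJ m) (X : Fin n → A)
    (p : Fin m × Fin m × Fin m) (a b c w : Fin n) (ha : a = e.symm (Sum.inl p.1))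
    (hb : b = e.symm (Sum.inl p.2.1)) (hc : c = e.symm (Sum.inl p.2.2))
    (hw : w = e.symm (Sum.inr p)) :
    (X (e.symm (Sum.inr p)) - cubic e X p) * (X (e.symm (Sum.inr p)) - cubic e X p) =
      wd X [w, w] - wd X [w, a, b, c] - wd X [w, c, b, a] - wd X [a, b, c, w] -
        wd X [c, b, a, w] + wd X [a, b, c, a, b, c] + wd X [a, b, c, c, b, a] +
        wd X [c, b, a, a, b, c] + wd X [c, b, a, c, b, a] := by
  subst ha hb hc hw
  simp only [cubic, wd_cons, wd_nil, mul_one]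
  noncomm_ring

theorem isHermitian_cubic {m n d : ℕ} (e : Fin n ≃ JJ m)
    (M : Fin n → Matrix (Fin d) (Fin d) ℂ) (hM : ∀ k, (M k).IsHermitian)
    (p : Fin m × Fin m × Fin m) : (cubic e M p).IsHermitian := by
  unfold cubic Matrix.IsHermitian
  rw [Matrix.conjTranspose_add, Matrix.conjTranspose_mul, Matrix.conjTranspose_mul,
    Matrix.conjTranspose_mul, Matrix.conjTranspose_mul, (hM _).eq, (hM _).eq, (hM _).eq,
    add_comm, mul_assoc, mul_assoc]

/-- PROOF: `∑_p a(k,p)² = Tr(M_k M_k) = d * matrixMoment [k,k]`. -/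
theorem micro_lin {m n d : ℕ} {A : Type*} [Ring A] [Algebra ℂ A] (τ : A →ₗ[ℂ] ℂ)
    (e : Fin n ≃ JJ m) (X : Fin n → A) (R δ : ℝ) (hd : 1 ≤ d)
    (x : EuclideanSpace ℝ (Fin n × (Fin d × Fin d))) (hx : x ∈ microstates τ X R 6 d δ) :
    ∑ i : Fin m × (Fin d × Fin d), x (e.symm (Sum.inl i.1), i.2) ^ 2 ≤
      d * (a1 τ e X + m * δ) := by
  rw [Fintype.sum_prod_type]
  have h1 : ∀ a : Fin m, ∑ p : Fin d × Fin d, x (e.symm (Sum.inl a), p) ^ 2 ≤
      d * ((τ (X (e.symm (Sum.inl a)) * X (e.symm (Sum.inl a)))).re + δ) := by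
    intro a
    have h2 := sum_sq_coords (WithLp.toLp 2 fun p => x (e.symm (Sum.inl a), p))
    have h3 : hermitianOfCoords (WithLp.toLp 2 fun p => x (e.symm (Sum.inl a), p)) =
        matrixTuple x (e.symm (Sum.inl a)) := rfl
    rw [h3] at h2
    have h4 : ∑ p : Fin d × Fin d, x (e.symm (Sum.inl a), p) ^ 2 =
        (Matrix.trace (matrixTuple x (e.symm (Sum.inl a)) *
          matrixTuple x (e.symm (Sum.inl a)))).re := h2
    rw [h4, re_trace_eq hd]
    refine mul_le_mul_of_nonneg_left ?_ (Nat.cast_nonneg d)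
    have h5 := micro_word τ X R δ x hx [e.symm (Sum.inl a), e.symm (Sum.inl a)] (by simp)
    simp only [wd_cons, wd_nil, mul_one] at h5
    have h6 := (Complex.abs_re_le_norm _).trans h5
    rw [Complex.sub_re] at h6
    have h7 := (abs_le.1 h6).2
    linarith
  refine (Finset.sum_le_sum fun a _ => h1 a).trans (le_of_eq ?_)
  rw [← Finset.mul_sum, Finset.sum_add_distrib, a1]
  simp

/-- PROOF: for `M = matrixTuple x`, `M_w - P_w(M)` is hermitian with coordinates
`x(w,·) - coordsOf (P_w(M))`; sum of squares `= Tr((M_w - P_w(M))²)`, expand into 9 words of length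
`2, 4, 6`, each within `d δ` of the trace of the corresponding word in `X`. -/
theorem micro_cub {m n d : ℕ} {A : Type*} [Ring A] [Algebra ℂ A] (τ : A →ₗ[ℂ] ℂ)
    (e : Fin n ≃ JJ m) (X : Fin n → A) (R δ : ℝ) (hd : 1 ≤ d)
    (x : EuclideanSpace ℝ (Fin n × (Fin d × Fin d))) (hx : x ∈ microstates τ X R 6 d δ) :
    ∑ j : (Fin m × Fin m × Fin m) × (Fin d × Fin d),
      (x (e.symm (Sum.inr j.1), j.2) - coordsOf (cubic e (matrixTuple x) j.1) j.2) ^ 2 ≤
      d * (a2 τ e X + 9 * m ^ 3 * δ) := by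
  rw [Fintype.sum_prod_type]
  have h1 : ∀ p : Fin m × Fin m × Fin m, ∑ q : Fin d × Fin d,
      (x (e.symm (Sum.inr p), q) - coordsOf (cubic e (matrixTuple x) p) q) ^ 2 ≤
      d * ((τ ((X (e.symm (Sum.inr p)) - cubic e X p) *
        (X (e.symm (Sum.inr p)) - cubic e X p))).re + 9 * δ) := by
    intro p
    have hherm : (cubic e (matrixTuple x) p).IsHermitian :=
      isHermitian_cubic e _ (fun k => isHermitian_hermitianOfCoords _) p
    have h2 := sum_sq_coords ((WithLp.toLp 2 fun q => x (e.symm (Sum.inr p), q)) -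
      coordsOf (cubic e (matrixTuple x) p))
    rw [hermitianOfCoords_sub, hermitianOfCoords_coordsOf _ hherm] at h2
    have h3 : hermitianOfCoords (WithLp.toLp 2 fun q => x (e.symm (Sum.inr p), q)) =
        matrixTuple x (e.symm (Sum.inr p)) := rfl
    rw [h3] at h2
    have h4 : ∑ q : Fin d × Fin d,
        (x (e.symm (Sum.inr p), q) - coordsOf (cubic e (matrixTuple x) p) q) ^ 2 =
        (Matrix.trace ((matrixTuple x (e.symm (Sum.inr p)) - cubic e (matrixTuple x) p) *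
          (matrixTuple x (e.symm (Sum.inr p)) - cubic e (matrixTuple x) p))).re := h2
    rw [h4, re_trace_eq hd]
    refine mul_le_mul_of_nonneg_left ?_ (Nat.cast_nonneg d)
    obtain ⟨a, ha⟩ : ∃ a, a = e.symm (Sum.inl p.1) := ⟨_, rfl⟩
    obtain ⟨b, hb⟩ : ∃ b, b = e.symm (Sum.inl p.2.1) := ⟨_, rfl⟩
    obtain ⟨c, hc⟩ : ∃ c, c = e.symm (Sum.inl p.2.2) := ⟨_, rfl⟩
    obtain ⟨w, hw⟩ : ∃ w, w = e.symm (Sum.inr p) := ⟨_, rfl⟩
    rw [sq_cubic_eq e X p a b c w ha hb hc hw,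
      sq_cubic_eq e (matrixTuple x) p a b c w ha hb hc hw]
    have key : ∀ W : List (Fin n), W.length ≤ 6 →
        |(mntr d (wd (matrixTuple x) W)).re - (τ (wd X W)).re| ≤ δ := by
      intro W hW
      rw [← Complex.sub_re]
      exact (Complex.abs_re_le_norm _).trans (micro_word τ X R δ x hx W hW)
    have k1 := (abs_le.1 (key [w, w] (by simp)))
    have k2 := (abs_le.1 (key [w, a, b, c] (by simp)))
    have k3 := (abs_le.1 (key [w, c, b, a] (by simp)))
    have k4 := (abs_le.1 (key [a, b, c, w] (by simp)))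
    have k5 := (abs_le.1 (key [c, b, a, w] (by simp)))
    have k6 := (abs_le.1 (key [a, b, c, a, b, c] (by simp)))
    have k7 := (abs_le.1 (key [a, b, c, c, b, a] (by simp)))
    have k8 := (abs_le.1 (key [c, b, a, a, b, c] (by simp)))
    have k9 := (abs_le.1 (key [c, b, a, c, b, a] (by simp)))
    simp only [map_add, map_sub, Complex.add_re, Complex.sub_re]
    linarith [k1.2, k2.1, k3.1, k4.1, k5.1, k6.2, k7.2, k8.2, k9.2]
  refine (Finset.sum_le_sum fun a _ => h1 a).trans (le_of_eq ?_)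
  rw [← Finset.mul_sum, Finset.sum_add_distrib, a2]
  simp
  left
  ring

end Crest.Agent.FE
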