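import Mathlib
import Crest.Agent.FE_MicroUp
import Crest.Agent.FE_Ball

/-! S0118 blueprint, file FE_MicroVol: volume of microstates from above. -/

set_option autoImplicit false

namespace Crest.Agent.FE

open Finset Crest.OpAlg MeasureTheory
open scoped NNReal ENNReal

/-- the matrices of the linear components -/
noncomputable def microH {m d : ℕ} (z : Fin m × (Fin d × Fin d) → ℝ) (a : Fin m) :
    Matrix (Fin d) (Fin d) ℂ :=
  hermitianOfCoords (WithLp.toLp 2 fun p => z (a, p))

/-- the coordinates of the cubic expressions -/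
noncomputable def microPhi {m d : ℕ} (z : Fin m × (Fin d × Fin d) → ℝ) :
    (Fin m × Fin m × Fin m) × (Fin d × Fin d) → ℝ :=
  fun j => coordsOf (microH z j.1.1 * microH z j.1.2.1 * microH z j.1.2.2 +
    microH z j.1.2.2 * microH z j.1.2.1 * microH z j.1.1) j.2

theorem continuous_microH {m d : ℕ} (a : Fin m) :
    Continuous (fun z : Fin m × (Fin d × Fin d) → ℝ => microH z a) := by
  unfold microH
  refine continuous_hermitianOfCoords.comp ?_
  refine (PiLp.continuous_toLp 2 _).comp ?_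
  exact continuous_pi fun p => continuous_apply _

theorem continuous_microPhi {m d : ℕ} :
    Continuous (microPhi : (Fin m × (Fin d × Fin d) → ℝ) → _) := by
  refine continuous_pi fun j => ?_
  unfold microPhi
  have h : Continuous (fun z : Fin m × (Fin d × Fin d) → ℝ =>
      microH z j.1.1 * microH z j.1.2.1 * microH z j.1.2.2 +
      microH z j.1.2.2 * microH z j.1.2.1 * microH z j.1.1) :=
    (((continuous_microH _).matrix_mul (continuous_microH _)).matrix_mul
      (continuous_microH _)).add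
      (((continuous_microH _).matrix_mul (continuous_microH _)).matrix_mul
      (continuous_microH _))
  have h2 := continuous_coordsOf.comp h
  exact (continuous_apply j.2).comp ((PiLp.continuous_ofLp 2 _).comp h2)

/-- PROOF: `vol_euclid_le` with `I₁ = Fin m × (Fin d × Fin d)`,
`I₂ = (Fin m × Fin m × Fin m) × (Fin d × Fin d)`, `φ` = coordinates of the cubic expressions
(continuous), `ρ₁ = (a1 + m δ)/(m d)`, `ρ₂ = (a2 + 9 m³ δ)/(m³ d)`. -/
theorem volume_microstates_le {m n d : ℕ} (hm : 1 ≤ m) (hd : 1 ≤ d) {A : Type*} [Ring A]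
    [Algebra ℂ A] (τ : A →ₗ[ℂ] ℂ) (e : Fin n ≃ JJ m) (X : Fin n → A) (R δ : ℝ) (hδ : 0 < δ)
    (h1 : 0 < a1 τ e X) (h2 : 0 < a2 τ e X) :
    volume (microstates τ X R 6 d δ) ≤
      ENNReal.ofReal ((2 * Real.pi * Real.exp 1 * ((a1 τ e X + m * δ) / (m * d))) ^
          ((m : ℝ) * d ^ 2 / 2) *
        (2 * Real.pi * Real.exp 1 * ((a2 τ e X + 9 * m ^ 3 * δ) / (m ^ 3 * d))) ^
          ((m : ℝ) ^ 3 * d ^ 2 / 2)) := by
  have hm0 : (0 : ℝ) < m := by exact_mod_cast hm
  have hd0 : (0 : ℝ) < d := by exact_mod_cast hd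
  set ρ₁ : ℝ := (a1 τ e X + m * δ) / (m * d) with hρ₁
  set ρ₂ : ℝ := (a2 τ e X + 9 * m ^ 3 * δ) / (m ^ 3 * d) with hρ₂
  have hρ₁0 : 0 < ρ₁ := by positivity
  have hρ₂0 : 0 < ρ₂ := by positivity
  let e' : Fin n × (Fin d × Fin d) ≃
      (Fin m × (Fin d × Fin d)) ⊕ ((Fin m × Fin m × Fin m) × (Fin d × Fin d)) :=
    (Equiv.prodCongr e (Equiv.refl _)).trans (Equiv.sumProdDistrib _ _ _)
  have he1 : ∀ i : Fin m × (Fin d × Fin d), e'.symm (Sum.inl i) = (e.symm (Sum.inl i.1), i.2) := by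
    intro i
    rfl
  have he2 : ∀ j : (Fin m × Fin m × Fin m) × (Fin d × Fin d),
      e'.symm (Sum.inr j) = (e.symm (Sum.inr j.1), j.2) := by
    intro j
    rfl
  have hc1 : (Fintype.card (Fin m × (Fin d × Fin d)) : ℝ) = m * d ^ 2 := by
    simp only [Fintype.card_prod, Fintype.card_fin]
    push_cast
    ring
  have hc2 : (Fintype.card ((Fin m × Fin m × Fin m) × (Fin d × Fin d)) : ℝ) = m ^ 3 * d ^ 2 := by
    simp only [Fintype.card_prod, Fintype.card_fin]
    push_cast
    ring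
  have key := vol_euclid_le e' (microPhi (m := m) (d := d)) continuous_microPhi.measurable
    ρ₁ ρ₂ hρ₁0 hρ₂0
  rw [hc1, hc2] at key
  refine (measure_mono ?_).trans key
  intro x hx
  have k1 := micro_lin τ e X R δ hd x hx
  have k2 := micro_cub τ e X R δ hd x hx
  refine ⟨?_, ?_⟩
  · have : (m : ℝ) * d ^ 2 * ρ₁ = d * (a1 τ e X + m * δ) := by
      rw [hρ₁]; field_simp
    rw [this]
    exact k1
  · have : (m : ℝ) ^ 3 * d ^ 2 * ρ₂ = d * (a2 τ e X + 9 * m ^ 3 * δ) := by
      rw [hρ₂]; field_simp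
    rw [this]
    exact k2

end Crest.Agent.FE
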