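import Mathlib
import Crest.Agent.FE_MicroVol

/-! S0118 blueprint, file FE_ChiUp: upper bound of the microstates entropy by ball volumes. -/

set_option autoImplicit false

namespace Crest.Agent.FE

open Finset Crest.OpAlg MeasureTheory
open scoped NNReal ENNReal

/-- the constant -/
noncomputable def ChiUp_C (m : ℕ) (u v δ : ℝ) : ℝ :=
  (m : ℝ) / 2 * Real.log (2 * Real.pi * Real.exp 1 * ((u + m * δ) / m)) +
      (m : ℝ) ^ 3 / 2 * Real.log (2 * Real.pi * Real.exp 1 * ((v + 9 * m ^ 3 * δ) / m ^ 3))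

theorem ChiUp_log {m d : ℕ} (hm : 1 ≤ m) (hd : 1 ≤ d) {u v δ : ℝ} (hu : 0 < u) (hv : 0 < v)
    (hδ : 0 < δ) :
    (((d : ℝ) ^ 2)⁻¹) * Real.log ((2 * Real.pi * Real.exp 1 * ((u + m * δ) / (m * d))) ^
          ((m : ℝ) * d ^ 2 / 2) *
        (2 * Real.pi * Real.exp 1 * ((v + 9 * m ^ 3 * δ) / (m ^ 3 * d))) ^
          ((m : ℝ) ^ 3 * d ^ 2 / 2)) + (((m + m ^ 3 : ℕ) : ℝ) / 2 * Real.log d) =
      ChiUp_C m u v δ := by
  have hm' : (0 : ℝ) < m := by exact_mod_cast hm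
  have hd' : (0 : ℝ) < d := by exact_mod_cast hd
  have hπ := Real.pi_pos
  have he := Real.exp_pos 1
  have h1 : 2 * Real.pi * Real.exp 1 * ((u + m * δ) / (m * d)) =
      (2 * Real.pi * Real.exp 1 * ((u + m * δ) / m)) / d := by field_simp
  have h2 : 2 * Real.pi * Real.exp 1 * ((v + 9 * m ^ 3 * δ) / (m ^ 3 * d)) =
      (2 * Real.pi * Real.exp 1 * ((v + 9 * m ^ 3 * δ) / m ^ 3)) / d := by field_simp
  have hp1 : 0 < 2 * Real.pi * Real.exp 1 * ((u + m * δ) / m) := by positivity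
  have hp2 : 0 < 2 * Real.pi * Real.exp 1 * ((v + 9 * m ^ 3 * δ) / m ^ 3) := by positivity
  rw [h1, h2]
  unfold ChiUp_C
  generalize 2 * Real.pi * Real.exp 1 * ((u + m * δ) / m) = p at *
  generalize 2 * Real.pi * Real.exp 1 * ((v + 9 * m ^ 3 * δ) / m ^ 3) = q at *
  rw [Real.log_mul (Real.rpow_pos_of_pos (by positivity) _).ne'
    (Real.rpow_pos_of_pos (by positivity) _).ne', Real.log_rpow (by positivity),
    Real.log_rpow (by positivity), Real.log_div hp1.ne' hd'.ne', Real.log_div hp2.ne' hd'.ne']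
  push_cast
  field_simp
  ring

theorem ChiUp_cutoff {m n : ℕ} (hm : 1 ≤ m) {A : Type*} [Ring A] [Algebra ℂ A]
    (τ : A →ₗ[ℂ] ℂ) (e : Fin n ≃ JJ m) (X : Fin n → A)
    (h1 : 0 < a1 τ e X) (h2 : 0 < a2 τ e X) (R : ℝ) {δ : ℝ} (hδ : 0 < δ) :
    chiCutoff τ X R ≤ ((ChiUp_C m (a1 τ e X) (a2 τ e X) δ : ℝ) : EReal) := by
  unfold chiCutoff
  refine (iInf_le _ 6).trans ((iInf_le _ δ).trans ((iInf_le _ hδ).trans ?_))
  refine Filter.limsup_le_of_le (by isBoundedDefault) ?_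
  filter_upwards [Filter.eventually_ge_atTop 1] with d hd
  have hn : n = m + m ^ 3 := by
    have h := Fintype.card_congr e
    simp only [Fintype.card_fin, Fintype.card_sum, Fintype.card_prod] at h
    rw [h]
    ring
  have hvol := volume_microstates_le (d := d) hm hd τ e X R δ hδ h1 h2
  have hm' : (0 : ℝ) < m := by exact_mod_cast hm
  have hd' : (0 : ℝ) < d := by exact_mod_cast hd
  set B : ℝ := (2 * Real.pi * Real.exp 1 * ((a1 τ e X + m * δ) / (m * d))) ^
          ((m : ℝ) * d ^ 2 / 2) *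
        (2 * Real.pi * Real.exp 1 * ((a2 τ e X + 9 * m ^ 3 * δ) / (m ^ 3 * d))) ^
          ((m : ℝ) ^ 3 * d ^ 2 / 2) with hB
  have hB0 : 0 < B := by
    have hπ := Real.pi_pos
    have he := Real.exp_pos 1
    exact mul_pos (Real.rpow_pos_of_pos (by positivity) _) (Real.rpow_pos_of_pos (by positivity) _)
  have hlog : (volume (microstates τ X R 6 d δ)).log ≤ ((Real.log B : ℝ) : EReal) := by
    rw [← ENNReal.log_ofReal_of_pos hB0]
    exact ENNReal.log_monotone hvol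
  have hkey := ChiUp_log hm hd h1 h2 hδ
  rw [← hB, ← hn] at hkey
  rw [← hkey, EReal.coe_add, EReal.coe_mul]
  refine add_le_add_left (mul_le_mul_of_nonneg_left hlog ?_) _
  exact_mod_cast (by positivity : (0 : ℝ) ≤ ((d : ℝ) ^ 2)⁻¹)

/-- PROOF: for every `d ≥ 1` the quantity under the limsup (with `K = 6` and `δ`) is at most
`(m/2) log(2πe (a1 + mδ)/m) + (m³/2) log(2πe (a2 + 9m³δ)/m³)` (`n = m + m³`:
`Fintype.card_congr e`), so is `chiCutoff`; let `δ → 0`. -/
theorem chi_le {m n : ℕ} (hm : 1 ≤ m) {A : Type*} [Ring A] [Algebra ℂ A]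
    (τ : A →ₗ[ℂ] ℂ) (e : Fin n ≃ JJ m) (X : Fin n → A)
    (h1 : 0 < a1 τ e X) (h2 : 0 < a2 τ e X) :
    chi τ X ≤ (((m : ℝ) / 2 * Real.log (2 * Real.pi * Real.exp 1 * (a1 τ e X / m)) +
      (m : ℝ) ^ 3 / 2 * Real.log (2 * Real.pi * Real.exp 1 * (a2 τ e X / m ^ 3)) : ℝ) : EReal) := by
  have hm' : (0 : ℝ) < m := by exact_mod_cast hm
  unfold chi
  refine iSup_le fun R => iSup_le fun _ => ?_
  set u := a1 τ e X with hu
  set v := a2 τ e X with hv
  have hπ := Real.pi_pos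
  have he := Real.exp_pos 1
  have hcont : ContinuousAt (ChiUp_C m u v) 0 := by
    unfold ChiUp_C
    refine ContinuousAt.add ?_ ?_
    · refine ContinuousAt.mul continuousAt_const (ContinuousAt.log (by fun_prop) ?_)
      have : 0 < 2 * Real.pi * Real.exp 1 * ((u + m * 0) / m) := by
        rw [mul_zero, add_zero]; positivity
      exact this.ne'
    · refine ContinuousAt.mul continuousAt_const (ContinuousAt.log (by fun_prop) ?_)
      have : 0 < 2 * Real.pi * Real.exp 1 * ((v + 9 * m ^ 3 * 0) / m ^ 3) := by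
        rw [mul_zero, add_zero]; positivity
      exact this.ne'
  have h0 : ChiUp_C m u v 0 = (m : ℝ) / 2 * Real.log (2 * Real.pi * Real.exp 1 * (u / m)) +
      (m : ℝ) ^ 3 / 2 * Real.log (2 * Real.pi * Real.exp 1 * (v / m ^ 3)) := by
    unfold ChiUp_C
    simp
  have hlim : Filter.Tendsto (fun δ : ℝ => ((ChiUp_C m u v δ : ℝ) : EReal)) (nhdsWithin 0 (Set.Ioi 0))
      (nhds ((ChiUp_C m u v 0 : ℝ) : EReal)) :=
    (continuous_coe_real_ereal.tendsto _).comp (hcont.tendsto.mono_left nhdsWithin_le_nhds)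
  rw [← h0]
  refine ge_of_tendsto hlim ?_
  filter_upwards [self_mem_nhdsWithin] with δ hδ
  exact ChiUp_cutoff hm τ e X h1 h2 R hδ

end Crest.Agent.FE
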