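import Mathlib
import Crest.Agent.FE_FisherA

/-! S0118 blueprint, file FE_FisherB: the sharp upper bound for the free Fisher information. -/

set_option autoImplicit false

namespace Crest.Agent.FE

open Finset Crest.OpAlg
open scoped ENNReal

section
variable {n : ℕ} {A : Type*} [CStarAlgebra A] {τ : A →ₗ[ℂ] ℂ} {T Z : Fin n → A}
    {v : Fin n → ℝ} {𝒜 : Subalgebra ℂ A} {c : List (Fin n) → (A →ₗ[ℂ] ℂ)}

theorem FB_expand (h : HD τ T Z v 𝒜 c) (m : A) (hm : m ∈ 𝒜) (L : ℕ) (P : NCPoly n)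
    (hL : ∀ w ∈ P.coeff.support, (FreeMonoid.toList w).length ≤ L) :
    τ (m * polyEval Z P) =
      ∑ V ∈ wLE (α := Fin n) L, KK τ T m V * (gw v V : ℂ) * c V (polyEval Z P) := by
  rw [polyEval_eq, Finsupp.sum, Finset.mul_sum, map_sum]
  have h1 : ∀ w ∈ P.coeff.support, τ (m * (P.coeff w • wd Z (FreeMonoid.toList w))) =
      ∑ V ∈ wLE (α := Fin n) L, KK τ T m V * (gw v V : ℂ) *
        (P.coeff w * c V (wd Z (FreeMonoid.toList w))) := by
    intro w hw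
    rw [mul_smul_comm, map_smul, smul_eq_mul, h.cdata.ident (FreeMonoid.toList w) L (hL w hw) m hm,
      Finset.mul_sum]
    apply Finset.sum_congr rfl
    intro V _
    ring
  rw [Finset.sum_congr rfl h1, Finset.sum_comm]
  apply Finset.sum_congr rfl
  intro V _
  rw [map_sum, Finset.mul_sum]
  apply Finset.sum_congr rfl
  intro w _
  rw [map_smul, smul_eq_mul]

theorem FB_expand_one (h : HD τ T Z v 𝒜 c) (m : A) (hm : m ∈ 𝒜) (L : ℕ) (hL : 1 ≤ L) (i : Fin n) :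
    τ (m * Z i) = ∑ V ∈ wLE (α := Fin n) L, KK τ T m V * (gw v V : ℂ) * c V (Z i) := by
  have h1 := h.cdata.ident [i] L (by simpa using hL) m hm
  simpa only [wd_singleton] using h1

theorem FB_gw_sq (v : Fin n → ℝ) (s : ℝ) (hs : 0 < s) (hsv : ∀ i, s ≤ v i) (V : List (Fin n)) :
    0 ≤ gw v V ∧ gw v V ^ 2 ≤ (1 / s) ^ V.length := by
  induction V with
  | nil => simp
  | cons k V ih =>
    obtain ⟨ih0, ih1⟩ := ih
    have hv : 0 < v k := lt_of_lt_of_le hs (hsv k)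
    rw [gw_cons, List.length_cons]
    refine ⟨mul_nonneg (by positivity) ih0, ?_⟩
    have h1 : (√(v k))⁻¹ ^ 2 ≤ 1 / s := by
      rw [inv_pow, Real.sq_sqrt hv.le, ← one_div]
      exact one_div_le_one_div_of_le hs (hsv k)
    calc ((√(v k))⁻¹ * gw v V) ^ 2 = gw v V ^ 2 * (√(v k))⁻¹ ^ 2 := by ring
      _ ≤ (1 / s) ^ V.length * (1 / s) := mul_le_mul ih1 h1 (by positivity) (by positivity)
      _ = (1 / s) ^ (V.length + 1) := (pow_succ _ _).symm

theorem FB_real {a ρ κ v s : ℝ} (ha : 0 ≤ a) (hρ : 0 ≤ ρ) (hκ : 0 ≤ κ) (hs : 0 < s) (hsv : s ≤ v)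
    (hc : a ^ 2 ≤ κ * ρ) : -ρ + 2 * v⁻¹ * a ≤ κ / s ^ 2 := by
  have hv : 0 < v := lt_of_lt_of_le hs hsv
  have h1 : κ / v ^ 2 ≤ κ / s ^ 2 := by
    apply div_le_div_of_nonneg_left hκ (by positivity)
    exact pow_le_pow_left₀ hs.le hsv 2
  refine le_trans ?_ h1
  rcases hκ.eq_or_lt with h0 | h0
  · rw [← h0] at hc ⊢
    have : a = 0 := by nlinarith
    rw [this]
    simp [hρ]
  · have h2 : 0 ≤ (a - κ * v⁻¹) ^ 2 := sq_nonneg _
    have h3 : 0 ≤ κ * (ρ - 2 * v⁻¹ * a + κ * (v⁻¹) ^ 2) := by nlinarith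
    have h4 := nonneg_of_mul_nonneg_right h3 h0
    have h5 : κ / v ^ 2 = κ * (v⁻¹) ^ 2 := by
      rw [inv_pow]; rfl
    rw [h5]
    linarith

theorem FB_single (h : HD τ T Z v 𝒜 c) (s : ℝ) (hs : 0 < s) (hsv : ∀ i, s ≤ v i)
    (i : Fin n) (P : NCPoly n) (hP : polyStar P = P) (L : ℕ) (hL1 : 1 ≤ L)
    (hL : ∀ w ∈ P.coeff.support, (FreeMonoid.toList w).length ≤ L) :
    (2 * splitPairing τ Z i P - τ (polyEval Z P * polyEval Z P)).re ≤
      (v i - (τ (T i * T i)).re) / v i ^ 2 +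
        (∑ V ∈ wLE (α := Fin n) L, ‖KK τ T (T i) V‖ ^ 2 * (1 / s) ^ V.length) / s ^ 2 := by
  have hv : 0 < v i := h.hv i
  have hvC : (v i : ℂ) ≠ 0 := by exact_mod_cast hv.ne'
  have hTi := h.hT i
  obtain ⟨τ1, τpos, -, τtr⟩ := h.tr
  set q : A := polyEval Z P with hq
  have hqsa : IsSelfAdjoint q := isSelfAdjoint_polyEval Z h.saZ P hP
  set r : A := q - (v i : ℂ)⁻¹ • Z i with hr
  have hq' : q = r + (v i : ℂ)⁻¹ • Z i := by rw [hr]; abel
  have hrsa : star r = r := by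
    rw [hr, star_sub, star_smul, hqsa.star_eq, (h.saZ i).star_eq]
    congr 2
    rw [star_inv₀]
    congr 1
    exact Complex.conj_ofReal _
  have eGG := h.tau_GG i
  have eGT := h.tau_Gm i (T i) hTi
  have eTG : τ (T i * (Z i - T i)) = 0 := by rw [τtr]; exact eGT
  have eGZ : τ ((Z i - T i) * Z i) = v i := by
    have : (Z i - T i) * Z i = (Z i - T i) * (Z i - T i) + (Z i - T i) * T i := by noncomm_ring
    rw [this, map_add, eGG, eGT, add_zero]
  have eZZ : τ (Z i * Z i) = τ (T i * T i) + v i := by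
    have : Z i * Z i = T i * T i + T i * (Z i - T i) + (Z i - T i) * T i +
        (Z i - T i) * (Z i - T i) := by noncomm_ring
    rw [this, map_add, map_add, map_add, eGG, eGT, eTG]
    ring
  have e1 : τ ((Z i - T i) * q) = τ (Z i * r) - τ (T i * r) + 1 := by
    rw [hq', mul_add, map_add, mul_smul_comm, map_smul, eGZ, smul_eq_mul, inv_mul_cancel₀ hvC,
      sub_mul, map_sub]
  have e2 : τ (q * q) = τ (r * r) + 2 * (v i : ℂ)⁻¹ * τ (Z i * r) +
      (v i : ℂ)⁻¹ * (v i : ℂ)⁻¹ * (τ (T i * T i) + v i) := by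
    rw [hq', mul_add, add_mul, add_mul, mul_smul_comm, smul_mul_assoc, mul_smul_comm,
      smul_mul_assoc, map_add, map_add, map_add, map_smul, map_smul, map_smul, map_smul, eZZ,
      τtr r (Z i)]
    simp only [smul_eq_mul]
    ring
  have e3 : 2 * splitPairing τ Z i P - τ (q * q) =
      -τ (r * r) - 2 * (v i : ℂ)⁻¹ * τ (T i * r) + ((v i : ℂ)⁻¹ - (v i : ℂ)⁻¹ * (v i : ℂ)⁻¹ *
        τ (T i * T i)) := by
    rw [h.splitPairing_eq i P, ← hq, e1, e2]
    field_simp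
    ring
  have e4 : (2 * splitPairing τ Z i P - τ (q * q)).re =
      -(τ (r * r)).re - 2 * (v i)⁻¹ * (τ (T i * r)).re +
        ((v i)⁻¹ - (v i)⁻¹ * (v i)⁻¹ * (τ (T i * T i)).re) := by
    rw [e3]
    have a1 : (2 * (v i : ℂ)⁻¹ * τ (T i * r)) = ((2 * (v i)⁻¹ : ℝ) : ℂ) * τ (T i * r) := by
      push_cast; ring
    have a2 : ((v i : ℂ)⁻¹ - (v i : ℂ)⁻¹ * (v i : ℂ)⁻¹ * τ (T i * T i)) =
        (((v i)⁻¹ : ℝ) : ℂ) - (((v i)⁻¹ * (v i)⁻¹ : ℝ) : ℂ) * τ (T i * T i) := by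
      push_cast; ring
    rw [a1, a2, Complex.add_re, Complex.sub_re, Complex.sub_re, Complex.neg_re,
      Complex.re_ofReal_mul, Complex.re_ofReal_mul, Complex.ofReal_re]
  -- the expansion of `τ (T_i r)`
  have e5 : τ (T i * r) =
      ∑ V ∈ wLE (α := Fin n) L, (KK τ T (T i) V * (gw v V : ℂ)) * c V r := by
    rw [hr, mul_sub, map_sub, mul_smul_comm, map_smul, smul_eq_mul, hq,
      FB_expand h (T i) hTi L P hL, FB_expand_one h (T i) hTi L hL1 i, Finset.mul_sum,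
      ← Finset.sum_sub_distrib]
    apply Finset.sum_congr rfl
    intro V _
    rw [map_sub, map_smul, smul_eq_mul]
    ring
  set κ : ℝ := ∑ V ∈ wLE (α := Fin n) L, ‖KK τ T (T i) V‖ ^ 2 * (1 / s) ^ V.length with hκ
  have hκ0 : 0 ≤ κ := Finset.sum_nonneg fun V _ => by positivity
  have hb : ∑ V ∈ wLE (α := Fin n) L, ‖c V r‖ ^ 2 ≤ (τ (r * r)).re := by
    have := h.bessel L r
    rwa [hrsa] at this
  have hρ0 : 0 ≤ (τ (r * r)).re :=
    le_trans (Finset.sum_nonneg fun V _ => by positivity) hb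
  have hcs : ‖τ (T i * r)‖ ^ 2 ≤ κ * (τ (r * r)).re := by
    rw [e5]
    refine (norm_sum_mul_sq_le _ _ _).trans ?_
    apply mul_le_mul _ hb (Finset.sum_nonneg fun V _ => by positivity) hκ0
    apply Finset.sum_le_sum
    intro V _
    obtain ⟨g0, g1⟩ := FB_gw_sq v s hs hsv V
    rw [norm_mul, mul_pow, Complex.norm_real, Real.norm_eq_abs, sq_abs]
    exact mul_le_mul_of_nonneg_left g1 (by positivity)
  have hfin := FB_real (norm_nonneg (τ (T i * r))) hρ0 hκ0 hs (hsv i) hcs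
  have hre : -(τ (T i * r)).re ≤ ‖τ (T i * r)‖ := by
    have := Complex.abs_re_le_norm (τ (T i * r))
    exact (neg_le_abs _).trans this
  rw [e4]
  have e6 : (v i - (τ (T i * T i)).re) / v i ^ 2 =
      (v i)⁻¹ - (v i)⁻¹ * (v i)⁻¹ * (τ (T i * T i)).re := by
    field_simp
  rw [e6]
  have h7 : 2 * (v i)⁻¹ * (-(τ (T i * r)).re) ≤ 2 * (v i)⁻¹ * ‖τ (T i * r)‖ :=
    mul_le_mul_of_nonneg_left hre (by positivity)
  linarith

/-- (iii) PROOF: `q = P_i(Z)`, `r = q - Z_i/v_i` (again a polynomial in `Z`, self-adjoint).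
`2τ(G_i q)/v_i - τ(q²) = (t_i+v_i)/v_i² - 2 t_i/v_i² - ‖r‖² - 2 τ(T_i r)/v_i`
(as `τ(T_i Z_i) = t_i`, `τ(Z_i²) = t_i + v_i`), and by `CData.ident` (extended linearly to the
polynomial `r`, `L` = maximal length) and Cauchy-Schwarz (`norm_sum_mul_sq_le`) and `bessel`
`‖τ(T_i r)‖² ≤ κ_i ‖r‖²`, `κ_i = ∑_{V ∈ wLE L} ‖K(T_i,V)‖² gw(V)²`, `gw(V)² ≤ (1/s)^|V|`;
`-‖r‖² + 2 √κ_i ‖r‖/v_i ≤ κ_i/v_i² ≤ κ_i/s²`. Take one `L` for all `i`. -/
theorem HD.fisher_le' (h : HD τ T Z v 𝒜 c) (s K0 : ℝ) (hs : 0 < s) (hsv : ∀ i, s ≤ v i)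
    (hK : ∀ L, ∑ i : Fin n, ∑ V ∈ wLE (α := Fin n) L,
      ‖KK τ T (T i) V‖ ^ 2 * (1 / s) ^ V.length ≤ K0) :
    freeFisher τ Z ≤ ENNReal.ofReal (∑ i, (v i - (τ (T i * T i)).re) / v i ^ 2 + K0 / s ^ 2) := by
  unfold freeFisher
  refine iSup₂_le fun P hP => ENNReal.ofReal_le_ofReal ?_
  -- a common bound for the lengths of the words
  obtain ⟨L, hL1, hL⟩ : ∃ L : ℕ, 1 ≤ L ∧ ∀ i, ∀ w ∈ (P i).coeff.support,
      (FreeMonoid.toList w).length ≤ L := by
    classical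
    refine ⟨(Finset.univ.sup fun i : Fin n => (P i).coeff.support.sup fun w =>
      (FreeMonoid.toList w).length) + 1, by omega, fun i w hw => ?_⟩
    have h1 : (FreeMonoid.toList w).length ≤ (P i).coeff.support.sup fun w =>
        (FreeMonoid.toList w).length :=
      Finset.le_sup (f := fun w : FreeMonoid (Fin n) => (FreeMonoid.toList w).length) hw
    have h2 := Finset.le_sup (f := fun i : Fin n => (P i).coeff.support.sup fun w =>
      (FreeMonoid.toList w).length) (Finset.mem_univ i)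
    omega
  rw [Complex.re_sum]
  have hsum : ∑ i, (2 * splitPairing τ Z i (P i) -
      τ (polyEval Z (P i) * polyEval Z (P i))).re ≤
      ∑ i, ((v i - (τ (T i * T i)).re) / v i ^ 2 +
        (∑ V ∈ wLE (α := Fin n) L, ‖KK τ T (T i) V‖ ^ 2 * (1 / s) ^ V.length) / s ^ 2) :=
    Finset.sum_le_sum fun i _ => FB_single h s hs hsv i (P i) (hP i) L hL1 (hL i)
  rw [Finset.sum_add_distrib, ← Finset.sum_div] at hsum
  have hK' := div_le_div_of_nonneg_right (hK L) (sq_nonneg s)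
  linarith

end

end Crest.Agent.FE
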