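import Mathlib
import Crest.Agent.FE_FisherA

/-! S0118 blueprint, file FE_Meas: measurability of the free Fisher information along the
heat path. -/

set_option autoImplicit false

namespace Crest.Agent.FE

open Finset Crest.OpAlg MeasureTheory
open scoped ENNReal

theorem Meas_continuous_heatTuple {n : ℕ} {A : Type*} [CStarAlgebra A] (X S : Fin n → A)
    (i : Fin n) : Continuous fun s : ℝ => heatTuple X S s i := by
  unfold heatTuple
  have h : Continuous fun s : ℝ => ((Real.sqrt s : ℝ) : ℂ) :=
    Complex.continuous_ofReal.comp Real.continuous_sqrt
  exact continuous_const.add (h.smul continuous_const)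

theorem Meas_continuous_wordEval {n : ℕ} {A : Type*} [CStarAlgebra A] (X S : Fin n → A)
    (w : FreeMonoid (Fin n)) : Continuous fun s : ℝ => wordEval (heatTuple X S s) w := by
  simp only [wordEval, FreeMonoid.lift_apply]
  exact continuous_list_prod _ fun i _ => Meas_continuous_heatTuple X S i

theorem Meas_continuous_polyEval {n : ℕ} {A : Type*} [CStarAlgebra A] (X S : Fin n → A)
    (P : NCPoly n) : Continuous fun s : ℝ => polyEval (heatTuple X S s) P := by
  simp only [polyEval, MonoidAlgebra.lift_apply, Finsupp.sum]
  exact continuous_finsetSum _ fun w _ =>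
    continuous_const.smul (Meas_continuous_wordEval X S w)

theorem Meas_continuous_splitPairing {n : ℕ} {A : Type*} [CStarAlgebra A] (τ : A →ₗ[ℂ] ℂ)
    (hτ : Continuous τ) (X S : Fin n → A) (i : Fin n) (P : NCPoly n) :
    Continuous fun s : ℝ => splitPairing τ (heatTuple X S s) i P := by
  simp only [splitPairing, Finsupp.sum]
  refine continuous_finsetSum _ fun w _ => continuous_const.mul
    (continuous_finsetSum _ fun k _ => ?_)
  by_cases h : (FreeMonoid.toList w)[k]? = some i
  · simp only [h, if_true]
    exact (hτ.comp (Meas_continuous_wordEval X S _)).mul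
      (hτ.comp (Meas_continuous_wordEval X S _))
  · simp only [h, if_false]
    exact continuous_const

/-- PROOF: `freeFisher` is a supremum of the functions
`s ↦ ENNReal.ofReal (∑ ...).re`, each continuous in `s` (finite sums of products of
`τ (wordEval (heatTuple X S s) w)`, continuous since `√s` is and products/sums in `A` and `τ`
are). `lowerSemicontinuous_iSup` (twice), `LowerSemicontinuous.measurable`. -/
theorem measurable_freeFisher_heat {n : ℕ} {A : Type*} [CStarAlgebra A] (τ : A →ₗ[ℂ] ℂ)
    (hτ : Continuous τ) (X S : Fin n → A) :
    Measurable fun s : ℝ => freeFisher τ (heatTuple X S s) := by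
  apply LowerSemicontinuous.measurable
  unfold freeFisher
  refine lowerSemicontinuous_iSup fun P => lowerSemicontinuous_iSup fun _ => ?_
  apply Continuous.lowerSemicontinuous
  refine ENNReal.continuous_ofReal.comp (Complex.continuous_re.comp
    (continuous_finsetSum _ fun i _ => ?_))
  exact (continuous_const.mul (Meas_continuous_splitPairing τ hτ X S i (P i))).sub
    (hτ.comp ((Meas_continuous_polyEval X S (P i)).mul (Meas_continuous_polyEval X S (P i))))

end Crest.Agent.FE
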