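import Mathlib
import Crest.Agent.FE_TBound

/-! S0118 blueprint, file FE_Num: choice of `m`. -/

set_option autoImplicit false

namespace Crest.Agent.FE

/-- PROOF. `log(1+x) ≤ x` makes the first two terms `≤ 1 + 112²` in total
(`m³ (112/m²)² = 112²/m`), `m log (1/m²) = -2 m log m`, and
`(m + m³)/(8 * 128 * NN m) ≥ m³/(8*128*260*m*√m) = c m^{3/2}` (`NN_le`), which dominates:
eventually in `m` (`isLittleO_log_rpow_atTop` etc). -/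
theorem exists_m : ∃ m : ℕ, 1 ≤ m ∧ 8 * NN m ≤ (m : ℝ) + m ^ 3 ∧ 3 ≤ 128 * NN m ∧
    (m : ℝ) / 2 * Real.log (1 + (1 / (m : ℝ) ^ 2) ^ 2) +
      (m : ℝ) ^ 3 / 2 * Real.log (1 + (112 * (1 / (m : ℝ) ^ 2)) ^ 2) + 1 / 2 ≤
    (m : ℝ) * Real.log (1 / (m : ℝ) ^ 2) + ((m : ℝ) + m ^ 3) / (8 * (128 * NN m)) := by
  have hsq : √(((2 ^ 50 : ℕ) : ℕ) : ℝ) = 2 ^ 25 := by
    rw [show (((2 ^ 50 : ℕ) : ℕ) : ℝ) = ((2 : ℝ) ^ 25) ^ 2 by norm_num]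
    exact Real.sqrt_sq (by positivity)
  have hNN : NN (2 ^ 50) = 4 * 2 ^ 25 + 4 * (4 * 2 ^ 25) ^ 3 := by
    unfold NN
    rw [hsq]
  have hm : (((2 ^ 50 : ℕ) : ℕ) : ℝ) = 2 ^ 50 := by norm_num
  refine ⟨2 ^ 50, by norm_num, ?_, ?_, ?_⟩
  · rw [hNN, hm]; norm_num
  · rw [hNN]; norm_num
  · rw [hNN, hm]
    have h1 : Real.log (1 + (1 / ((2 : ℝ) ^ 50) ^ 2) ^ 2) ≤ (1 / ((2 : ℝ) ^ 50) ^ 2) ^ 2 := by
      have := Real.log_le_sub_one_of_pos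
        (show (0 : ℝ) < 1 + (1 / ((2 : ℝ) ^ 50) ^ 2) ^ 2 by positivity)
      linarith
    have h2 : Real.log (1 + (112 * (1 / ((2 : ℝ) ^ 50) ^ 2)) ^ 2) ≤
        (112 * (1 / ((2 : ℝ) ^ 50) ^ 2)) ^ 2 := by
      have := Real.log_le_sub_one_of_pos
        (show (0 : ℝ) < 1 + (112 * (1 / ((2 : ℝ) ^ 50) ^ 2)) ^ 2 by positivity)
      linarith
    have h3 : Real.log (1 / ((2 : ℝ) ^ 50) ^ 2) = -(100 * Real.log 2) := by
      rw [one_div, Real.log_inv, ← pow_mul, Real.log_pow]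
      norm_num
    have h4 := Real.log_two_lt_d9
    rw [h3]
    have h5 : (2 : ℝ) ^ 50 / 2 * Real.log (1 + (1 / ((2 : ℝ) ^ 50) ^ 2) ^ 2) ≤ 
        (2 : ℝ) ^ 50 / 2 * (1 / ((2 : ℝ) ^ 50) ^ 2) ^ 2 :=
      mul_le_mul_of_nonneg_left h1 (by positivity)
    have h6 : ((2 : ℝ) ^ 50) ^ 3 / 2 * Real.log (1 + (112 * (1 / ((2 : ℝ) ^ 50) ^ 2)) ^ 2) ≤ 
        ((2 : ℝ) ^ 50) ^ 3 / 2 * (112 * (1 / ((2 : ℝ) ^ 50) ^ 2)) ^ 2 :=
      mul_le_mul_of_nonneg_left h2 (by positivity)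
    have h7 : (2 : ℝ) ^ 50 * (-(100 * Real.log 2)) ≥ (2 : ℝ) ^ 50 * (-(100 * 0.6931471808)) := by
      apply mul_le_mul_of_nonneg_left _ (by positivity)
      linarith
    refine le_trans (add_le_add (add_le_add h5 h6) (le_refl _)) (le_trans ?_
      (add_le_add h7 (le_refl _)))
    norm_num

end Crest.Agent.FE
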