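import Mathlib

/-! S0118 blueprint, file FE_Path: real analysis of the heat path (pure calculus). -/

set_option autoImplicit false

namespace Crest.Agent.FE

open Finset MeasureTheory
open scoped ENNReal

/-- `∫_0^∞ (1/(1+s) - 1/(u+s)) ds = log u` for `0 < u` (antiderivative
`log ((1+s)/(u+s)) → 0` at infinity; the integrand has constant sign:
`integral_Ioi_of_hasDerivAt_of_nonpos/nonneg` style lemmas) -/
theorem integral_log (u : ℝ) (hu : 0 < u) :
    IntegrableOn (fun s : ℝ => 1 / (1 + s) - 1 / (u + s)) (Set.Ioi 0) ∧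
      ∫ s in Set.Ioi (0 : ℝ), (1 / (1 + s) - 1 / (u + s)) = Real.log u := by
  set g : ℝ → ℝ := fun s => Real.log (1 + s) - Real.log (u + s) with hg
  have hder : ∀ s, 0 ≤ s → HasDerivAt g (1 / (1 + s) - 1 / (u + s)) s := by
    intro s hs
    have h1 : HasDerivAt (fun s : ℝ => 1 + s) 1 s := by
      simpa using (hasDerivAt_id s).const_add 1
    have h2 : HasDerivAt (fun s : ℝ => u + s) 1 s := by
      simpa using (hasDerivAt_id s).const_add u
    exact (h1.log (by positivity)).sub (h2.log (by positivity))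
  have hcont : ContinuousWithinAt g (Set.Ici 0) 0 :=
    (hder 0 le_rfl).continuousAt.continuousWithinAt
  have hlim : Filter.Tendsto g Filter.atTop (nhds 0) := by
    have h1 : Filter.Tendsto (fun s : ℝ => Real.log ((1 + s) / (u + s))) Filter.atTop
        (nhds (Real.log 1)) := by
      apply Filter.Tendsto.log _ one_ne_zero
      have h2 : Filter.Tendsto (fun s : ℝ => 1 + (1 - u) / (u + s)) Filter.atTop (nhds (1 + 0)) := by
        apply Filter.Tendsto.add tendsto_const_nhds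
        apply Filter.Tendsto.div_atTop tendsto_const_nhds
        exact Filter.tendsto_atTop_add_const_left _ u Filter.tendsto_id
      rw [add_zero] at h2
      refine h2.congr' ?_
      filter_upwards [Filter.eventually_gt_atTop 0] with s hs
      have : u + s ≠ 0 := by positivity
      field_simp
      ring
    rw [Real.log_one] at h1
    refine h1.congr' ?_
    filter_upwards [Filter.eventually_gt_atTop 0] with s hs
    rw [Real.log_div (by positivity) (by positivity)]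
  have hg0 : 0 - g 0 = Real.log u := by simp [hg]
  rcases le_total 1 u with h | h
  · have hpos : ∀ s ∈ Set.Ioi (0 : ℝ), 0 ≤ 1 / (1 + s) - 1 / (u + s) := by
      intro s hs
      have hs' : (0 : ℝ) < s := hs
      rw [sub_nonneg]
      exact one_div_le_one_div_of_le (by positivity) (by linarith)
    refine ⟨integrableOn_Ioi_deriv_of_nonneg hcont (fun s hs => hder s (le_of_lt hs)) hpos hlim, ?_⟩
    rw [integral_Ioi_of_hasDerivAt_of_nonneg hcont (fun s hs => hder s (le_of_lt hs)) hpos hlim, hg0]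
  · have hneg : ∀ s ∈ Set.Ioi (0 : ℝ), 1 / (1 + s) - 1 / (u + s) ≤ 0 := by
      intro s hs
      have hs' : (0 : ℝ) < s := hs
      rw [sub_nonpos]
      exact one_div_le_one_div_of_le (by positivity) (by linarith)
    refine ⟨integrableOn_Ioi_deriv_of_nonpos hcont (fun s hs => hder s (le_of_lt hs)) hneg hlim, ?_⟩
    rw [integral_Ioi_of_hasDerivAt_of_nonpos hcont (fun s hs => hder s (le_of_lt hs)) hneg hlim, hg0]

/-- the sum version of `integral_log` -/
theorem FEPath_sum_log {n : ℕ} (u : Fin n → ℝ) (hu : ∀ i, 0 < u i) :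
    IntegrableOn (fun s : ℝ => (n : ℝ) / (1 + s) - ∑ i, 1 / (u i + s)) (Set.Ioi 0) ∧
      ∫ s in Set.Ioi (0 : ℝ), ((n : ℝ) / (1 + s) - ∑ i, 1 / (u i + s)) = ∑ i, Real.log (u i) := by
  have e : (fun s : ℝ => (n : ℝ) / (1 + s) - ∑ i, 1 / (u i + s)) =
      fun s : ℝ => ∑ i, (1 / (1 + s) - 1 / (u i + s)) := by
    funext s
    rw [Finset.sum_sub_distrib]
    congr 1
    rw [Finset.sum_const, Finset.card_univ, Fintype.card_fin, nsmul_eq_mul]
    ring
  rw [e]
  constructor
  · exact integrable_finsetSum _ fun i _ => (integral_log (u i) (hu i)).1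
  · rw [integral_finsetSum _ fun i _ => (integral_log (u i) (hu i)).1]
    exact Finset.sum_congr rfl fun i _ => (integral_log (u i) (hu i)).2

/-- pure real analysis: integrability. PROOF: `(φ s).toReal` lies between
`n²/(c0 + n s)` and `∑ 1/(u_i+s)`; `|n/(1+s) - (φ s).toReal|` is dominated by
`|n/(1+s) - ∑ 1/(u_i+s)| + |n/(1+s) - n²/(c0+n s)|`, both integrable by `integral_log`
(`n²/(c0+ns) = n/(c0/n + s)`). -/
theorem integrable_path {n : ℕ} (hn : 1 ≤ n) (φ : ℝ → ℝ≥0∞) (hφ : Measurable φ)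
    (u : Fin n → ℝ) (hu : ∀ i, 0 < u i) (c0 : ℝ) (hc0 : 0 < c0)
    (h1 : ∀ s, 0 < s → φ s ≤ ENNReal.ofReal (∑ i, 1 / (u i + s)))
    (h2 : ∀ s, 0 < s → ENNReal.ofReal ((n : ℝ) ^ 2 / (c0 + n * s)) ≤ φ s) :
    IntegrableOn (fun s : ℝ => (n : ℝ) / (1 + s) - (φ s).toReal) (Set.Ioi 0) := by
  have hn' : (0 : ℝ) < n := by exact_mod_cast hn
  have i1 := (FEPath_sum_log u hu).1
  have i2 : IntegrableOn (fun s : ℝ => (n : ℝ) / (1 + s) - (n : ℝ) ^ 2 / (c0 + n * s))
      (Set.Ioi 0) := by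
    have h : IntegrableOn (fun s : ℝ => (n : ℝ) * (1 / (1 + s) - 1 / (c0 / n + s))) (Set.Ioi 0) :=
      ((integral_log (c0 / n) (by positivity)).1).const_mul (n : ℝ)
    refine h.congr_fun ?_ measurableSet_Ioi
    intro s hs
    have hs' : (0 : ℝ) < s := hs
    have h1 : c0 + n * s ≠ 0 := by positivity
    have h2 : c0 / n + s ≠ 0 := by positivity
    have h3 : (1 : ℝ) + s ≠ 0 := by positivity
    have h4 : (n : ℝ) ≠ 0 := hn'.ne'
    have h5 : (n : ℝ) ^ 2 / (c0 + n * s) = n * (1 / (c0 / n + s)) := by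
      field_simp
    simp only
    rw [h5]
    ring
  refine Integrable.mono' (i1.abs.add i2.abs) ?_ ?_
  · apply Measurable.aestronglyMeasurable
    exact (measurable_const.div (measurable_const.add measurable_id)).sub hφ.ennreal_toReal
  · rw [ae_restrict_iff' measurableSet_Ioi]
    filter_upwards with s hs
    have hs' : (0 : ℝ) < s := hs
    have hb : 0 ≤ ∑ i, 1 / (u i + s) := by
      apply Finset.sum_nonneg
      intro i _
      have := hu i
      positivity
    have a1 : (φ s).toReal ≤ ∑ i, 1 / (u i + s) := by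
      have := ENNReal.toReal_mono ENNReal.ofReal_ne_top (h1 s hs')
      rwa [ENNReal.toReal_ofReal hb] at this
    have hfin : φ s ≠ ⊤ := ne_top_of_le_ne_top ENNReal.ofReal_ne_top (h1 s hs')
    have a2 : (n : ℝ) ^ 2 / (c0 + n * s) ≤ (φ s).toReal := by
      have := ENNReal.toReal_mono hfin (h2 s hs')
      rwa [ENNReal.toReal_ofReal (by positivity)] at this
    simp only [Pi.add_apply, Real.norm_eq_abs]
    rw [abs_le]
    constructor
    · have b1 := neg_abs_le ((n : ℝ) / (1 + s) - ∑ i, 1 / (u i + s))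
      have b2 := abs_nonneg ((n : ℝ) / (1 + s) - (n : ℝ) ^ 2 / (c0 + n * s))
      linarith
    · have b1 := abs_nonneg ((n : ℝ) / (1 + s) - ∑ i, 1 / (u i + s))
      have b2 := le_abs_self ((n : ℝ) / (1 + s) - (n : ℝ) ^ 2 / (c0 + n * s))
      linarith

/-- pure real analysis: lower bound of the integral.
PROOF: `n/(1+s) - (φ s).toReal ≥ ∑ (1/(1+s) - 1/(u_i+s)) + (if v0 < s then n/(4 s²) else 0)`
on `Ioi 0`; `∫_{v0}^∞ n/(4s²) = n/(4 v0)`. -/
theorem integral_path_ge {n : ℕ} (hn : 1 ≤ n) (φ : ℝ → ℝ≥0∞) (hφ : Measurable φ)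
    (u : Fin n → ℝ) (hu : ∀ i, 0 < u i) (c0 : ℝ) (hc0 : 0 < c0)
    (h1 : ∀ s, 0 < s → φ s ≤ ENNReal.ofReal (∑ i, 1 / (u i + s)))
    (h2 : ∀ s, 0 < s → ENNReal.ofReal ((n : ℝ) ^ 2 / (c0 + n * s)) ≤ φ s)
    (v0 : ℝ) (hv0 : 0 < v0)
    (h3 : ∀ s, v0 ≤ s → φ s ≤ ENNReal.ofReal (∑ i, 1 / (u i + s) - n / (4 * s ^ 2)))
    (h3' : ∀ s, v0 ≤ s → 0 ≤ ∑ i, 1 / (u i + s) - n / (4 * s ^ 2)) :
    ∑ i, Real.log (u i) + n / (4 * v0) ≤
      ∫ s in Set.Ioi (0 : ℝ), ((n : ℝ) / (1 + s) - (φ s).toReal) := by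
  have hint := integrable_path hn φ hφ u hu c0 hc0 h1 h2
  obtain ⟨i1, e1⟩ := FEPath_sum_log u hu
  -- the tail term
  set g : ℝ → ℝ := fun s => -(n : ℝ) / (4 * s) with hg
  have hder : ∀ s ∈ Set.Ici v0, HasDerivAt g ((n : ℝ) / (4 * s ^ 2)) s := by
    intro s hs
    have hs' : 0 < s := lt_of_lt_of_le hv0 hs
    have h4 : HasDerivAt (fun s : ℝ => 4 * s) 4 s := by
      simpa using (hasDerivAt_id s).const_mul 4
    have h5 := (hasDerivAt_const s (-(n : ℝ))).div h4 (by positivity)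
    refine h5.congr_deriv ?_
    field_simp
    ring
  have hcont : ContinuousWithinAt g (Set.Ici v0) v0 :=
    (hder v0 Set.self_mem_Ici).continuousAt.continuousWithinAt
  have hlim : Filter.Tendsto g Filter.atTop (nhds 0) := by
    apply Filter.Tendsto.div_atTop tendsto_const_nhds
    exact Filter.Tendsto.const_mul_atTop (by norm_num) Filter.tendsto_id
  have hpos : ∀ s ∈ Set.Ioi v0, 0 ≤ (n : ℝ) / (4 * s ^ 2) := by
    intro s _
    positivity
  have hder' : ∀ s ∈ Set.Ioi v0, HasDerivAt g ((n : ℝ) / (4 * s ^ 2)) s :=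
    fun s hs => hder s (Set.Ioi_subset_Ici_self hs)
  have i2 := integrableOn_Ioi_deriv_of_nonneg hcont hder' hpos hlim
  have e2 := integral_Ioi_of_hasDerivAt_of_nonneg hcont hder' hpos hlim
  have e2' : ∫ s in Set.Ioi v0, (n : ℝ) / (4 * s ^ 2) = n / (4 * v0) := by
    rw [e2, hg]
    ring
  -- as an indicator integral over `Ioi 0`
  have hsub : Set.Ioi v0 ⊆ Set.Ioi (0 : ℝ) := Set.Ioi_subset_Ioi hv0.le
  have i3 : IntegrableOn ((Set.Ioi v0).indicator fun s : ℝ => (n : ℝ) / (4 * s ^ 2))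
      (Set.Ioi 0) := by
    rw [IntegrableOn, integrable_indicator_iff measurableSet_Ioi, IntegrableOn,
      Measure.restrict_restrict measurableSet_Ioi, Set.inter_eq_left.2 hsub]
    exact i2
  have e3 : ∫ s in Set.Ioi (0 : ℝ), (Set.Ioi v0).indicator (fun s : ℝ => (n : ℝ) / (4 * s ^ 2)) s =
      n / (4 * v0) := by
    rw [setIntegral_indicator measurableSet_Ioi, Set.inter_eq_right.2 hsub, e2']
  rw [← e1, ← e3, ← integral_add i1 i3]
  apply setIntegral_mono_on (i1.add i3) hint measurableSet_Ioi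
  intro s hs
  have hs' : (0 : ℝ) < s := hs
  rw [Pi.add_apply]
  by_cases hv : s ∈ Set.Ioi v0
  · rw [Set.indicator_of_mem hv]
    have hv' : v0 ≤ s := le_of_lt hv
    have a1 : (φ s).toReal ≤ ∑ i, 1 / (u i + s) - n / (4 * s ^ 2) := by
      have := ENNReal.toReal_mono ENNReal.ofReal_ne_top (h3 s hv')
      rwa [ENNReal.toReal_ofReal (h3' s hv')] at this
    linarith
  · rw [Set.indicator_of_notMem hv]
    have hb : 0 ≤ ∑ i, 1 / (u i + s) := by
      apply Finset.sum_nonneg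
      intro i _
      have := hu i
      positivity
    have a1 : (φ s).toReal ≤ ∑ i, 1 / (u i + s) := by
      have := ENNReal.toReal_mono ENNReal.ofReal_ne_top (h1 s hs')
      rwa [ENNReal.toReal_ofReal hb] at this
    linarith

/-- elementary inequality turning `HD.fisher_le'` into the hypothesis `h3` above -/
theorem path_ineq {n : ℕ} (u t : Fin n → ℝ) (hu : ∀ i, 0 < u i) (hu1 : ∀ i, u i ≤ 1)
    (ht : ∀ i, 1 ≤ t i) (K0 s : ℝ) (hs : 3 ≤ s) (hK : 4 * K0 ≤ n) :
    ∑ i, ((u i + s) - t i) / (u i + s) ^ 2 + K0 / s ^ 2 ≤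
      ∑ i, 1 / (u i + s) - n / (4 * s ^ 2) := by
  have hs0 : 0 < s := by linarith
  have key : ∀ i, ((u i + s) - t i) / (u i + s) ^ 2 ≤ 1 / (u i + s) - 9 / (16 * s ^ 2) := by
    intro i
    have hui := hu i
    have hui1 := hu1 i
    have hti := ht i
    have hp : 0 < u i + s := by positivity
    have e : ((u i + s) - t i) / (u i + s) ^ 2 = 1 / (u i + s) - t i / (u i + s) ^ 2 := by
      field_simp
    rw [e]
    have h9 : 9 / (16 * s ^ 2) ≤ t i / (u i + s) ^ 2 := by
      rw [div_le_div_iff₀ (by positivity) (by positivity)]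
      have h10 : (u i + s) ^ 2 ≤ (1 + s) ^ 2 := by
        apply pow_le_pow_left₀ hp.le
        linarith
      have h11 : 9 * (1 + s) ^ 2 ≤ 16 * s ^ 2 := by nlinarith
      have h12 : 16 * s ^ 2 ≤ t i * (16 * s ^ 2) := by
        have : 0 ≤ 16 * s ^ 2 := by positivity
        nlinarith
      nlinarith
    linarith
  have hsum : ∑ i, ((u i + s) - t i) / (u i + s) ^ 2 ≤
      ∑ i, (1 / (u i + s) - 9 / (16 * s ^ 2)) := Finset.sum_le_sum fun i _ => key i
  rw [Finset.sum_sub_distrib, Finset.sum_const, Finset.card_univ, Fintype.card_fin,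
    nsmul_eq_mul] at hsum
  have hK' : K0 / s ^ 2 ≤ (n / 4) / s ^ 2 := by
    apply div_le_div_of_nonneg_right _ (by positivity)
    linarith
  have e1 : (n / 4 : ℝ) / s ^ 2 = (n : ℝ) * (1 / (4 * s ^ 2)) := by
    field_simp
  have e2 : (n : ℝ) / (4 * s ^ 2) = n * (1 / (4 * s ^ 2)) := by
    field_simp
  have e3 : (n : ℝ) * (9 / (16 * s ^ 2)) = n * (1 / (4 * s ^ 2)) * (9 / 4) := by
    field_simp
    norm_num
  have hn0 : (0 : ℝ) ≤ n * (1 / (4 * s ^ 2)) := by positivity
  rw [e2]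
  rw [e3] at hsum
  rw [e1] at hK'
  linarith

theorem path_nonneg {n : ℕ} (u : Fin n → ℝ) (hu : ∀ i, 0 < u i) (hu1 : ∀ i, u i ≤ 1)
    (s : ℝ) (hs : 3 ≤ s) : 0 ≤ ∑ i, 1 / (u i + s) - n / (4 * s ^ 2) := by
  have hs0 : 0 < s := by linarith
  have key : ∀ i, 1 / (4 * s ^ 2) ≤ 1 / (u i + s) := by
    intro i
    have hui := hu i
    have hui1 := hu1 i
    apply one_div_le_one_div_of_le (by positivity)
    nlinarith
  have hsum : ∑ _i : Fin n, 1 / (4 * s ^ 2) ≤ ∑ i, 1 / (u i + s) :=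
    Finset.sum_le_sum fun i _ => key i
  rw [Finset.sum_const, Finset.card_univ, Fintype.card_fin, nsmul_eq_mul] at hsum
  have e2 : (n : ℝ) / (4 * s ^ 2) = n * (1 / (4 * s ^ 2)) := by
    field_simp
  rw [e2]
  linarith

end Crest.Agent.FE
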