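import Mathlib
import Crest.Agent.FE_Vals

/-! S0118 blueprint, file FE_ValsCub: second moments of the cubic defects. -/

set_option autoImplicit false

namespace Crest.Agent.FE

open Finset Crest.OpAlg
open scoped ENNReal InnerProductSpace

theorem valsCub_comm {ι : Type} {i j : ι} (h : j ≠ i) : Commute (ra i) (sc j : BH ι) := by
  classical
  unfold Commute SemiconjBy
  rw [ra_mul_sc, if_neg (fun h' => h h'.symm), add_zero]

/-- `τ(s_i Y) = 0` when `Y` commutes with `ra i` -/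
theorem valsCub_tau {ι : Type} (i : ι) (Y : FAlg ι) (hY : Commute (ra i) (Y : BH ι)) :
    tau (sa i * Y) = 0 := by
  rw [tau_apply]
  have h1 : ((sa i * Y : FAlg ι) : BH ι) = sc i * (Y : BH ι) := rfl
  rw [h1, tauB_mul, (isSelfAdjoint_sc i).star_eq, sc_vac, rc,
    ContinuousLinearMap.star_eq_adjoint, ContinuousLinearMap.adjoint_inner_left]
  have h2 : ra i ((Y : BH ι) vac) = (Y : BH ι) (ra i vac) := by
    have := congrArg (fun T : BH ι => T vac) hY.eq
    simpa using this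
  rw [h2, ra_vac, map_zero, inner_zero_right]

/-- `τ(a²)` for self-adjoint `a` is between `0` and `‖a‖²` -/
theorem valsCub_sq {ι : Type} (D : FAlg ι) (hD : IsSelfAdjoint D) :
    0 ≤ (tau (D * D)).re ∧ (tau (D * D)).re ≤ ‖D‖ ^ 2 := by
  rw [tau_apply]
  have h1 : ((D * D : FAlg ι) : BH ι) = (D : BH ι) * (D : BH ι) := rfl
  have h2 : star (D : BH ι) = (D : BH ι) := by
    have := congrArg (fun x : FAlg ι => (x : BH ι)) hD.star_eq
    exact this
  rw [h1, tauB_mul, h2, inner_self_eq_norm_sq_to_K]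
  have h3 : ‖(D : BH ι) vac‖ ≤ ‖D‖ := by
    have h4 := (D : BH ι).le_opNorm (vac : Fock ι)
    have h5 : ‖(vac : Fock ι)‖ ≤ 1 := by
      have h7 : ‖(vac : Fock ι)‖ ^ 2 = 1 := by
        have h8 := inner_dl ([] : List ι) (vac : Fock ι)
        have h9 : ⟪(vac : Fock ι), (vac : Fock ι)⟫_ℂ = 1 := by
          rw [show ⟪(vac : Fock ι), (vac : Fock ι)⟫_ℂ = ⟪(dl [] : Fock ι), vac⟫_ℂ from rfl, h8]
          simp [vac]
        rw [inner_self_eq_norm_sq_to_K] at h9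
        have h10 := congrArg Complex.re h9
        change ((((‖(vac : Fock ι)‖ : ℝ) : ℂ)) ^ 2).re = (1 : ℂ).re at h10
        rw [← Complex.ofReal_pow, Complex.ofReal_re, Complex.one_re] at h10
        exact h10
      nlinarith [norm_nonneg (vac : Fock ι)]
    calc ‖(D : BH ι) vac‖ ≤ ‖(D : BH ι)‖ * ‖(vac : Fock ι)‖ := h4
      _ ≤ ‖(D : BH ι)‖ * 1 := by gcongr
      _ = ‖D‖ := by rw [mul_one]; rfl
  have h6 : (((‖(D : BH ι) vac‖ : ℝ) : ℂ) ^ 2).re = ‖(D : BH ι) vac‖ ^ 2 := by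
    rw [← Complex.ofReal_pow, Complex.ofReal_re]
  constructor
  · change 0 ≤ (((‖(D : BH ι) vac‖ : ℝ) : ℂ) ^ 2).re
    rw [h6]; positivity
  · change (((‖(D : BH ι) vac‖ : ℝ) : ℂ) ^ 2).re ≤ _
    rw [h6]
    exact pow_le_pow_left₀ (norm_nonneg _) h3 2

theorem valsCub_norm3 {A : Type*} [NormedRing A] (s t r x y z : A) (ε : ℝ)
    (hs : ‖s‖ ≤ 2) (ht : ‖t‖ ≤ 2) (hy : ‖y‖ ≤ 4) (hz : ‖z‖ ≤ 4)
    (h1 : ‖s - x‖ ≤ 2 * ε) (h2 : ‖t - y‖ ≤ 2 * ε) (h3 : ‖r - z‖ ≤ 2 * ε) (hε : 0 ≤ ε) :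
    ‖s * t * r - x * y * z‖ ≤ 56 * ε := by
  have e : s * t * r - x * y * z = (s - x) * y * z + s * (t - y) * z + s * t * (r - z) := by
    noncomm_ring
  have n1 : ‖(s - x) * y * z‖ ≤ (2 * ε) * 4 * 4 := by
    refine (norm_mul_le _ _).trans ?_
    refine mul_le_mul ((norm_mul_le _ _).trans ?_) hz (norm_nonneg _) (by positivity)
    exact mul_le_mul h1 hy (norm_nonneg _) (by positivity)
  have n2 : ‖s * (t - y) * z‖ ≤ 2 * (2 * ε) * 4 := by
    refine (norm_mul_le _ _).trans ?_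
    refine mul_le_mul ((norm_mul_le _ _).trans ?_) hz (norm_nonneg _) (by positivity)
    exact mul_le_mul hs h2 (norm_nonneg _) (by positivity)
  have n3 : ‖s * t * (r - z)‖ ≤ 2 * 2 * (2 * ε) := by
    refine (norm_mul_le _ _).trans ?_
    refine mul_le_mul ((norm_mul_le _ _).trans ?_) h3 (norm_nonneg _) (by positivity)
    exact mul_le_mul hs ht (norm_nonneg _) (by positivity)
  rw [e]
  calc _ ≤ ‖(s - x) * y * z‖ + ‖s * (t - y) * z‖ + ‖s * t * (r - z)‖ := norm_add₃_le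
    _ ≤ _ := by linarith

/-- `X_w - P_w(X) = s'_w + D` with `D = T_w - P_w(s + ε s')` a polynomial in the
semicirculars other than `s'_w` (so `τ(s'_w D) = 0`, e.g. by `free`ness or by
`word_mul_left`/`HD.tau_Gm`-style argument) and `‖D‖ ≤ 112 ε`:
`τ((X_w - P_w(X))²) = 1 + τ(D²) ≤ 1 + (112 ε)²`; also `≥ 1 > 0` (`D` self-adjoint). -/
theorem tau_Xex_cub {m n : ℕ} (e : Fin n ≃ JJ m) (ε : ℝ) (hε : 0 ≤ ε) (hε1 : ε ≤ 1)
    (p : Fin m × Fin m × Fin m) :
    1 ≤ ((tau : FAlg (Lt (Fin m) n) →ₗ[ℂ] ℂ)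
      ((Xex e ε (e.symm (Sum.inr p)) - cubic e (Xex e ε) p) *
        (Xex e ε (e.symm (Sum.inr p)) - cubic e (Xex e ε) p))).re ∧
    ((tau : FAlg (Lt (Fin m) n) →ₗ[ℂ] ℂ)
      ((Xex e ε (e.symm (Sum.inr p)) - cubic e (Xex e ε) p) *
        (Xex e ε (e.symm (Sum.inr p)) - cubic e (Xex e ε) p))).re ≤ 1 + (112 * ε) ^ 2 := by
  obtain ⟨a, b, c⟩ := p
  set w := e.symm (Sum.inr (a, b, c)) with hw
  have hX : ∀ d : Fin m, Xex e ε (e.symm (Sum.inl d)) =
      sL d + (ε : ℂ) • sB (e.symm (Sum.inl d)) := by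
    intro d
    unfold Xex XX TT
    simp only [Equiv.apply_symm_apply, Tc, uu, Sum.elim_inl, Real.sqrt_sq hε]
  have hXw : Xex e ε w = (sL a * sL b * sL c + sL c * sL b * sL a) + sB w := by
    unfold Xex XX TT
    simp only [hw, Equiv.apply_symm_apply, Tc, uu, Sum.elim_inr, Real.sqrt_one,
      Complex.ofReal_one, one_smul]
  have hself : ∀ k, IsSelfAdjoint (Xex e ε k) := isSelfAdjoint_Xex e ε
  have hnX : ∀ d : Fin m, ‖Xex e ε (e.symm (Sum.inl d))‖ ≤ 4 := by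
    intro d
    rw [hX]
    calc ‖(sL d + (ε : ℂ) • sB (e.symm (Sum.inl d)) : FAlg (Lt (Fin m) n))‖
        ≤ ‖(sL d : FAlg (Lt (Fin m) n))‖ +
          ‖((ε : ℂ) • sB (e.symm (Sum.inl d)) : FAlg (Lt (Fin m) n))‖ := norm_add_le _ _
      _ ≤ 2 + 1 * 2 := by
          rw [norm_smul]
          refine add_le_add (norm_sa_le _) (mul_le_mul ?_ (norm_sa_le _) (norm_nonneg _)
            zero_le_one)
          rw [Complex.norm_real, Real.norm_of_nonneg hε]; exact hε1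
      _ = 4 := by norm_num
  have hnd : ∀ d : Fin m, ‖(sL d : FAlg (Lt (Fin m) n)) - Xex e ε (e.symm (Sum.inl d))‖ ≤
      2 * ε := by
    intro d
    rw [hX, sub_add_cancel_left, norm_neg, norm_smul, Complex.norm_real,
      Real.norm_of_nonneg hε, mul_comm]
    exact mul_le_mul_of_nonneg_right (norm_sa_le _) hε
  set xa := Xex e ε (e.symm (Sum.inl a)) with hxa
  set xb := Xex e ε (e.symm (Sum.inl b)) with hxb
  set xc := Xex e ε (e.symm (Sum.inl c)) with hxc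
  set D : FAlg (Lt (Fin m) n) := (sL a * sL b * sL c + sL c * sL b * sL a) -
    (xa * xb * xc + xc * xb * xa) with hD
  have hE : Xex e ε w - cubic e (Xex e ε) (a, b, c) = sB w + D := by
    rw [hXw, hD]
    simp only [cubic]
    rw [← hxa, ← hxb, ← hxc]
    abel
  rw [hE]
  have hDs : IsSelfAdjoint D :=
    (isSelfAdjoint_cub _ _ _ (isSelfAdjoint_sL _) (isSelfAdjoint_sL _)
      (isSelfAdjoint_sL _)).sub (isSelfAdjoint_cub _ _ _ (hself _) (hself _) (hself _))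
  have hDn : ‖D‖ ≤ 112 * ε := by
    have e1 : D = (sL a * sL b * sL c - xa * xb * xc) + (sL c * sL b * sL a - xc * xb * xa) := by
      rw [hD]; abel
    rw [e1]
    calc _ ≤ ‖(sL a * sL b * sL c - xa * xb * xc : FAlg (Lt (Fin m) n))‖ +
        ‖(sL c * sL b * sL a - xc * xb * xa : FAlg (Lt (Fin m) n))‖ := norm_add_le _ _
      _ ≤ 56 * ε + 56 * ε := by
        refine add_le_add ?_ ?_
        · exact valsCub_norm3 _ _ _ _ _ _ ε (norm_sa_le _) (norm_sa_le _) (hnX b) (hnX c)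
            (hnd a) (hnd b) (hnd c) hε
        · exact valsCub_norm3 _ _ _ _ _ _ ε (norm_sa_le _) (norm_sa_le _) (hnX b) (hnX a)
            (hnd c) (hnd b) (hnd a) hε
      _ = _ := by ring
  -- commutation
  have hcL : ∀ d : Fin m, Commute (ra (Sum.inr (Sum.inl w)))
      ((sL d : FAlg (Lt (Fin m) n)) : BH (Lt (Fin m) n)) := by
    intro d
    exact valsCub_comm (by simp)
  have hcX : ∀ d : Fin m, Commute (ra (Sum.inr (Sum.inl w)))
      ((Xex e ε (e.symm (Sum.inl d)) : FAlg (Lt (Fin m) n)) : BH (Lt (Fin m) n)) := by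
    intro d
    rw [hX]
    change Commute _ (((sL d : FAlg (Lt (Fin m) n)) : BH (Lt (Fin m) n)) +
      (ε : ℂ) • ((sB (e.symm (Sum.inl d)) : FAlg (Lt (Fin m) n)) : BH (Lt (Fin m) n)))
    refine (hcL d).add_right (Commute.smul_right ?_ _)
    refine valsCub_comm ?_
    intro h
    have h1 : e.symm (Sum.inl d) = w := Sum.inl_injective (Sum.inr_injective h)
    have h2 : (Sum.inl d : JJ m) = Sum.inr (a, b, c) := e.symm.injective (h1.trans hw)
    cases h2
  have hcD : Commute (ra (Sum.inr (Sum.inl w))) (D : BH (Lt (Fin m) n)) := by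
    have e2 : (D : BH (Lt (Fin m) n)) =
        (((sL a : FAlg (Lt (Fin m) n)) : BH (Lt (Fin m) n)) * ((sL b : FAlg (Lt (Fin m) n)) :
          BH (Lt (Fin m) n)) * ((sL c : FAlg (Lt (Fin m) n)) : BH (Lt (Fin m) n)) +
        ((sL c : FAlg (Lt (Fin m) n)) : BH (Lt (Fin m) n)) * ((sL b : FAlg (Lt (Fin m) n)) :
          BH (Lt (Fin m) n)) * ((sL a : FAlg (Lt (Fin m) n)) : BH (Lt (Fin m) n))) -
        ((xa : BH (Lt (Fin m) n)) * (xb : BH (Lt (Fin m) n)) * (xc : BH (Lt (Fin m) n)) +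
          (xc : BH (Lt (Fin m) n)) * (xb : BH (Lt (Fin m) n)) * (xa : BH (Lt (Fin m) n))) := rfl
    rw [e2]
    have ca := hcX a
    have cb := hcX b
    have cc := hcX c
    exact ((((hcL a).mul_right (hcL b)).mul_right (hcL c)).add_right
      (((hcL c).mul_right (hcL b)).mul_right (hcL a))).sub_right
      (((ca.mul_right cb).mul_right cc).add_right ((cc.mul_right cb).mul_right ca))
  have h0 : (tau : FAlg (Lt (Fin m) n) →ₗ[ℂ] ℂ) (sB w * D) = 0 := valsCub_tau _ D hcD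
  have h0' : (tau : FAlg (Lt (Fin m) n) →ₗ[ℂ] ℂ) (D * sB w) = 0 := by
    rw [tau_comm]; exact h0
  have h1 : (tau : FAlg (Lt (Fin m) n) →ₗ[ℂ] ℂ) (sB w * sB w) = 1 := by
    have h2 := (isSC_sa (ι := Lt (Fin m) n)).two (Sum.inr (Sum.inl w)) (Sum.inr (Sum.inl w))
    simp only [wd_cons, wd_nil, mul_one] at h2
    change tau (sB w * sB w) = _ at h2
    rw [h2]; simp
  have hexp : (tau : FAlg (Lt (Fin m) n) →ₗ[ℂ] ℂ) ((sB w + D) * (sB w + D)) =
      1 + tau (D * D) := by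
    rw [mul_add, add_mul, add_mul, map_add, map_add, map_add, h0, h0', h1]
    ring
  rw [hexp, Complex.add_re, Complex.one_re]
  obtain ⟨h3, h4⟩ := valsCub_sq D hDs
  have h5 : ‖D‖ ^ 2 ≤ (112 * ε) ^ 2 := pow_le_pow_left₀ (norm_nonneg _) hDn 2
  constructor <;> linarith

end Crest.Agent.FE
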