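import Mathlib
import Crest.Agent.FE_ValsCub
import Crest.Agent.FE_HeatHD
import Crest.Agent.FE_FisherB
import Crest.Agent.FE_Meas
import Crest.Agent.FE_Path
import Crest.Agent.FE_Num
import Crest.Agent.FE_ChiUp
import Crest.Agent.FE_ChiLow

/-! S0118 blueprint, file FE_Main: assembly. -/

set_option autoImplicit false

namespace Crest.Agent.FE

open Finset Crest.OpAlg MeasureTheory
open scoped NNReal ENNReal

section
variable {m n : ℕ} (e : Fin n ≃ JJ m) (ε : ℝ)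

/-- letters `Fin m ⊕ Fin n` inside the full set of letters -/
def emb (m n : ℕ) : Fin m ⊕ Fin n → Lt (Fin m) n := Sum.map id Sum.inl

theorem emb_injective : Function.Injective (emb m n) :=
  Sum.map_injective.2 ⟨fun _ _ h => h, Sum.inl_injective⟩

theorem Xex_eq_comb : Xex e ε = comb e (fun k => √(uu ε (e k))) (fun x => sa (emb m n x)) := by
  rfl

theorem isSC_emb : IsSC (fun w : List (Fin m ⊕ Fin n) =>
    (tau : FAlg (Lt (Fin m) n) →ₗ[ℂ] ℂ) (wd (fun x => sa (emb m n x)) w)) := by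
  have h := (isSC_sa (ι := Lt (Fin m) n)).comp (emb m n) emb_injective
  have : (fun w : List (Fin m ⊕ Fin n) =>
      (tau : FAlg (Lt (Fin m) n) →ₗ[ℂ] ℂ) (wd (fun x => sa (emb m n x)) w)) =
      fun w : List (Fin m ⊕ Fin n) => tau (wd sa (w.map (emb m n))) := by
    funext w
    simp only [wd, List.map_map]
    rfl
  rw [this]
  exact h

variable {ε}

theorem uu_pos (hε : 0 < ε) (j : JJ m) : 0 < uu ε j := by
  cases j with
  | inl a => exact pow_pos hε 2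
  | inr p => exact one_pos

theorem uu_le_one (hε : 0 < ε) (hε1 : ε ≤ 1) (j : JJ m) : uu ε j ≤ 1 := by
  cases j with
  | inl a => exact pow_le_one₀ hε.le hε1
  | inr p => exact le_rfl

theorem HD_ex (hε : 0 < ε) (s : ℝ) (hs : 0 ≤ s) :
    HD (tau : FAlg (Lt (Fin m) n) →ₗ[ℂ] ℂ) (TT e) (heatTuple (Xex e ε) sS s)
      (fun k => uu ε (e k) + s) (algL (Fin m) n) (cV (Fin m) (fun k => uu ε (e k)) s) :=
  heatHD (TT e) (TT_mem e) (isSelfAdjoint_TT e) _ (fun k => uu_pos hε (e k)) s hs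

/-- the free Fisher information along the path -/
noncomputable def phi (ε : ℝ) (s : ℝ) : ℝ≥0∞ :=
  freeFisher (tau : FAlg (Lt (Fin m) n) →ₗ[ℂ] ℂ) (heatTuple (Xex e ε) sS s)

theorem phi_le (hε : 0 < ε) (s : ℝ) (hs : 0 < s) :
    phi e ε s ≤ ENNReal.ofReal (∑ i, 1 / (uu ε (e i) + s)) :=
  (HD_ex e hε s hs.le).fisher_le

/-- `∑ (t_i + u_i)` -/
noncomputable def c0 (ε : ℝ) : ℝ :=
  ∑ i, (((tau : FAlg (Lt (Fin m) n) →ₗ[ℂ] ℂ) (TT e i * TT e i)).re + uu ε (e i))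

theorem c0_pos (hn : 1 ≤ n) (hε : 0 < ε) : 0 < c0 e ε := by
  unfold c0
  have : Nonempty (Fin n) := ⟨⟨0, hn⟩⟩
  refine Finset.sum_pos (fun i _ => ?_) Finset.univ_nonempty
  have := one_le_tau_TT e i
  have := uu_pos hε (e i)
  linarith

theorem le_phi (hn : 1 ≤ n) (hε : 0 < ε) (s : ℝ) (hs : 0 < s) :
    ENNReal.ofReal ((n : ℝ) ^ 2 / (c0 e ε + n * s)) ≤ phi e ε s := by
  have h := (HD_ex e hε s hs.le).fisher_ge hn
  have h2 : ∑ i, (((tau : FAlg (Lt (Fin m) n) →ₗ[ℂ] ℂ) (TT e i * TT e i)).re +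
      (uu ε (e i) + s)) = c0 e ε + n * s := by
    unfold c0
    simp only [← add_assoc]
    rw [Finset.sum_add_distrib]
    simp
  rw [h2] at h
  exact h

theorem phi_le' (hε : 0 < ε) (hε1 : ε ≤ 1) (hm : 8 * NN m ≤ (n : ℝ))
    (hm3 : 3 ≤ 128 * NN m) (s : ℝ) (hs : 128 * NN m ≤ s) :
    phi e ε s ≤ ENNReal.ofReal (∑ i, 1 / (uu ε (e i) + s) - n / (4 * s ^ 2)) := by
  have hs0 : 0 < s := by linarith
  have hN0 : 0 ≤ NN m := by linarith
  have hK := kappa_bound (tau : FAlg (Lt (Fin m) n) →ₗ[ℂ] ℂ) (TT e) (NN m) hN0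
    (fun k => tbound e tau sL (isSC_sL m n) k) s hs0 hs
  have h := (HD_ex e hε s hs0.le).fisher_le' s (2 * NN m) hs0
    (fun i => by have := uu_pos hε (e i); linarith) hK
  refine h.trans (ENNReal.ofReal_le_ofReal ?_)
  exact path_ineq (fun i => uu ε (e i)) _ (fun i => uu_pos hε (e i))
    (fun i => uu_le_one hε hε1 (e i)) (fun i => one_le_tau_TT e i) (2 * NN m) s (by linarith)
    (by linarith)

theorem phi_measurable : Measurable (phi e ε) :=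
  measurable_freeFisher_heat _ continuous_tau _ _

theorem phi_integrable (hn : 1 ≤ n) (hε : 0 < ε) :
    IntegrableOn (fun s : ℝ => (n : ℝ) / (1 + s) - (phi e ε s).toReal) (Set.Ioi 0) :=
  integrable_path hn _ (phi_measurable e) _ (fun i => uu_pos hε (e i)) (c0 e ε) (c0_pos e hn hε)
    (phi_le e hε) (le_phi e hn hε)

theorem sum_log_uu (_hε : 0 < ε) :
    ∑ i, Real.log (uu ε (e i)) = 2 * (m * Real.log ε) := by
  rw [Equiv.sum_comp e (fun j => Real.log (uu ε j)), Fintype.sum_sum_type]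
  simp [uu, Real.log_pow]
  ring

theorem chiStar_ge (hn : 1 ≤ n) (hε : 0 < ε) (hε1 : ε ≤ 1) (hm : 8 * NN m ≤ (n : ℝ))
    (hm3 : 3 ≤ 128 * NN m) :
    (n : ℝ) / 2 * Real.log (2 * Real.pi * Real.exp 1) + m * Real.log ε +
      n / (8 * (128 * NN m)) ≤
    chiStar (tau : FAlg (Lt (Fin m) n) →ₗ[ℂ] ℂ) (Xex e ε) sS := by
  have h := integral_path_ge hn _ (phi_measurable e) _ (fun i => uu_pos hε (e i)) (c0 e ε)
    (c0_pos e hn hε) (phi_le e hε) (le_phi e hn hε) (128 * NN m) (by linarith)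
    (phi_le' e hε hε1 hm hm3)
    (fun s hs => path_nonneg (fun i => uu ε (e i)) (fun i => uu_pos hε (e i))
      (fun i => uu_le_one hε hε1 (e i)) s (by linarith))
  rw [sum_log_uu e hε] at h
  unfold chiStar
  have h8 : (n : ℝ) / (8 * (128 * NN m)) = 1 / 2 * (n / (4 * (128 * NN m))) := by
    rw [div_mul_div_comm, one_mul]; congr 1; ring
  have h3 : ∫ s in Set.Ioi (0 : ℝ), ((n : ℝ) / (1 + s) -
      (freeFisher (tau : FAlg (Lt (Fin m) n) →ₗ[ℂ] ℂ) (heatTuple (Xex e ε) sS s)).toReal) =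
      ∫ s in Set.Ioi (0 : ℝ), ((n : ℝ) / (1 + s) - (phi e ε s).toReal) := rfl
  rw [h3, h8]
  linarith

theorem a1_Xex (hε : 0 < ε) : a1 (tau : FAlg (Lt (Fin m) n) →ₗ[ℂ] ℂ) e (Xex e ε) =
    m * (1 + ε ^ 2) := by
  unfold a1
  simp [tau_Xex_lin e ε hε.le]
  ring

theorem le_a2_Xex (hε : 0 < ε) (hε1 : ε ≤ 1) :
    (m : ℝ) ^ 3 ≤ a2 (tau : FAlg (Lt (Fin m) n) →ₗ[ℂ] ℂ) e (Xex e ε) := by
  unfold a2
  calc (m : ℝ) ^ 3 = ∑ _p : Fin m × Fin m × Fin m, (1 : ℝ) := by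
        simp; ring
    _ ≤ _ := Finset.sum_le_sum fun p _ => (tau_Xex_cub e ε hε.le hε1 p).1

theorem a2_Xex_le (hε : 0 < ε) (hε1 : ε ≤ 1) :
    a2 (tau : FAlg (Lt (Fin m) n) →ₗ[ℂ] ℂ) e (Xex e ε) ≤ m ^ 3 * (1 + (112 * ε) ^ 2) := by
  unfold a2
  calc _ ≤ ∑ _p : Fin m × Fin m × Fin m, (1 + (112 * ε) ^ 2) :=
        Finset.sum_le_sum fun p _ => (tau_Xex_cub e ε hε.le hε1 p).2
    _ = m ^ 3 * (1 + (112 * ε) ^ 2) := by
        simp; ring

end

theorem main : ∃ (A : Type) (_ : CStarAlgebra A) (τ : A →ₗ[ℂ] ℂ) (n : ℕ) (X S : Fin n → A),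
      Crest.OpAlg.IsFaithfulTracialState τ ∧ 2 ≤ n ∧ (∀ i, IsSelfAdjoint (X i)) ∧
      Crest.OpAlg.IsStandardSemicircular τ S ∧ Crest.OpAlg.IsFreeFamily τ (Crest.OpAlg.withNoise X S) ∧
      (∀ s : ℝ, 0 < s → Crest.OpAlg.freeFisher τ (Crest.OpAlg.heatTuple X S s) < ⊤) ∧
      MeasureTheory.IntegrableOn
        (fun s : ℝ => (n : ℝ) / (1 + s) - (Crest.OpAlg.freeFisher τ (Crest.OpAlg.heatTuple X S s)).toReal)
        (Set.Ioi 0) ∧
      ⊥ < Crest.OpAlg.chi τ X ∧ Crest.OpAlg.chi τ X ≤ ((Crest.OpAlg.chiStar τ X S - 1 / 2 : ℝ) : EReal) := by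
  obtain ⟨m, hm1, hm8, hm3, hgap⟩ := exists_m
  have hmR : (1 : ℝ) ≤ m := by exact_mod_cast hm1
  set n : ℕ := m + m ^ 3 with hn
  have hcard : Fintype.card (JJ m) = n := by
    simp [JJ, hn]; ring
  let e : Fin n ≃ JJ m := (Fintype.equivFinOfCardEq hcard).symm
  have hnR : (n : ℝ) = m + m ^ 3 := by simp [hn]
  set ε : ℝ := 1 / (m : ℝ) ^ 2 with hεdef
  have hε : 0 < ε := by positivity
  have hε1 : ε ≤ 1 := by
    rw [hεdef, div_le_one (by positivity)]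
    nlinarith
  have hn2 : 2 ≤ n := by
    have : 1 ≤ m ^ 3 := Nat.one_le_pow _ _ hm1
    omega
  have hn1 : 1 ≤ n := by omega
  have hm8' : 8 * NN m ≤ (n : ℝ) := by rw [hnR]; exact hm8
  refine ⟨FAlg (Lt (Fin m) n), inferInstance, tau, n, Xex e ε, sS,
    isFaithfulTracialState_tau, hn2, isSelfAdjoint_Xex e ε, standardSC _,
    free_withNoise (TT e) (TT_mem e) _, fun s hs => ?_, phi_integrable e hn1 hε, ?_, ?_⟩
  · exact lt_of_le_of_lt (phi_le e hε s hs) ENNReal.ofReal_lt_top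
  · rw [Xex_eq_comb]
    refine chi_gt_bot e _ (fun k => Real.sqrt_pos.2 (uu_pos hε (e k)))
      (fun k => Real.sqrt_le_one.2 (uu_le_one hε hε1 (e k))) _ _ isSC_emb
  · have ha1 := a1_Xex e hε
    have ha2 := le_a2_Xex e hε hε1
    have ha2' := a2_Xex_le e hε hε1
    have hm3p : (0 : ℝ) < (m : ℝ) ^ 3 := by positivity
    have h1 : 0 < a1 (tau : FAlg (Lt (Fin m) n) →ₗ[ℂ] ℂ) e (Xex e ε) := by
      rw [ha1]; positivity
    have h2 : 0 < a2 (tau : FAlg (Lt (Fin m) n) →ₗ[ℂ] ℂ) e (Xex e ε) := lt_of_lt_of_le hm3p ha2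
    refine (chi_le hm1 _ e _ h1 h2).trans ?_
    rw [EReal.coe_le_coe_iff]
    have hstar := chiStar_ge e hn1 hε hε1 hm8' hm3
    have hpe : 0 < 2 * Real.pi * Real.exp 1 := by positivity
    have hl1 : Real.log (2 * Real.pi * Real.exp 1 *
        (a1 (tau : FAlg (Lt (Fin m) n) →ₗ[ℂ] ℂ) e (Xex e ε) / m)) =
        Real.log (2 * Real.pi * Real.exp 1) + Real.log (1 + ε ^ 2) := by
      rw [ha1, mul_div_cancel_left₀ _ (by positivity), Real.log_mul hpe.ne' (by positivity)]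
    have hl2 : Real.log (2 * Real.pi * Real.exp 1 *
        (a2 (tau : FAlg (Lt (Fin m) n) →ₗ[ℂ] ℂ) e (Xex e ε) / m ^ 3)) ≤
        Real.log (2 * Real.pi * Real.exp 1) + Real.log (1 + (112 * ε) ^ 2) := by
      rw [Real.log_mul hpe.ne' (by positivity)]
      gcongr
      rw [div_le_iff₀ hm3p]
      linarith
    rw [hl1]
    have hl2' := mul_le_mul_of_nonneg_left hl2 (show (0:ℝ) ≤ (m : ℝ) ^ 3 / 2 by positivity)
    have hgap' : (m : ℝ) / 2 * Real.log (1 + ε ^ 2) +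
      (m : ℝ) ^ 3 / 2 * Real.log (1 + (112 * ε) ^ 2) + 1 / 2 ≤
      (m : ℝ) * Real.log ε + (n : ℝ) / (8 * (128 * NN m)) := by
      rw [hnR]; exact hgap
    rw [hnR] at hstar
    rw [hnR] at hgap'
    nlinarith [hstar, hgap', hl2']

end Crest.Agent.FE
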