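import Mathlib
import Crest.Prelude.Def_Cost

set_option autoImplicit false

/-! # Cheap actions (upper bound half of S0291) -/

open MeasureTheory Crest.Dynamics
open scoped ENNReal

namespace Crest.Agent.FPC

section Bern
variable (Γ : Type) [Group Γ]

/-- The Bernoulli space `[0,1]^Γ`. -/
def Bern : Type := Γ → unitInterval

instance : MeasurableSpace (Bern Γ) := inferInstanceAs (MeasurableSpace (Γ → unitInterval))

instance [Countable Γ] : StandardBorelSpace (Bern Γ) :=
  inferInstanceAs (StandardBorelSpace (Γ → unitInterval))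

noncomputable def bernMeasure : Measure (Bern Γ) :=
  Measure.infinitePi (fun _ : Γ => (volume : Measure unitInterval))

instance : IsProbabilityMeasure (bernMeasure Γ) :=
  inferInstanceAs (IsProbabilityMeasure (Measure.infinitePi (fun _ : Γ => (volume : Measure unitInterval))))

instance : MulAction Γ (Bern Γ) where
  smul g w := fun h => w (g⁻¹ * h)
  one_smul w := by funext h; show w (1⁻¹ * h) = w h; simp
  mul_smul a b w := by
    funext h; show w ((a * b)⁻¹ * h) = w (b⁻¹ * (a⁻¹ * h)); simp [mul_assoc]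

variable {Γ}

theorem smul_apply (g : Γ) (w : Bern Γ) (h : Γ) : (g • w) h = w (g⁻¹ * h) := rfl

theorem measurable_eval (h : Γ) : Measurable (fun w : Bern Γ => w h) :=
  measurable_pi_apply (X := fun _ : Γ => unitInterval) h

theorem measurePreserving_smul (g : Γ) :
    MeasurePreserving (fun w : Bern Γ => g • w) (bernMeasure Γ) (bernMeasure Γ) := by
  refine ⟨?_, ?_⟩
  · exact measurable_pi_lambda _ fun h => measurable_eval (g⁻¹ * h)
  · exact Measure.map_infinitePi_infinitePi_of_inj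
      (P := fun _ : Γ => (volume : Measure unitInterval)) (f := fun h => g⁻¹ * h)
      (mul_right_injective g⁻¹)

theorem diag_null (a b : Γ) (hab : a ≠ b) : bernMeasure Γ {w | w a = w b} = 0 := by
  have h1 := Measure.infinitePi_map_eval_prod (P := fun _ : Γ => (volume : Measure unitInterval)) hab
  have hm : MeasurableSet {p : unitInterval × unitInterval | p.1 = p.2} :=
    measurableSet_eq_fun measurable_fst measurable_snd
  have h2 : bernMeasure Γ {w | w a = w b} =
      ((volume : Measure unitInterval).prod (volume : Measure unitInterval)) {p | p.1 = p.2} := by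
    rw [← h1, Measure.map_apply _ hm]
    · rfl
    · exact Measurable.prodMk (measurable_pi_apply a) (measurable_pi_apply b)
  rw [h2, Measure.measure_prod_null hm]
  refine Filter.Eventually.of_forall fun x => ?_
  show volume (Prod.mk x ⁻¹' {p : unitInterval × unitInterval | p.1 = p.2}) = 0
  have : (Prod.mk x ⁻¹' {p : unitInterval × unitInterval | p.1 = p.2}) = {x} := by
    ext y; simp [eq_comm]
  rw [this]
  simp

theorem bern_free (g : Γ) (hg : g ≠ 1) : bernMeasure Γ {w | g • w = w} = 0 := by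
  have : {w : Bern Γ | g • w = w} ⊆ {w | w g⁻¹ = w 1} := by
    intro w hw
    have := congrFun (show (g • w) = w from hw) 1
    rw [smul_apply] at this
    simpa using this
  exact measure_mono_null this (diag_null _ _ (by simpa using hg))

/-- the points whose `y`-orbit never meets `{w | w 1 < ε}` form a null set -/
theorem section_null (y : Γ) (hy : ∀ n : ℕ, n ≠ 0 → y ^ n ≠ 1) (ε : ℝ) (hε : 0 < ε) (hε1 : ε ≤ 1) :
    bernMeasure Γ {w | ∀ k : ℕ, ¬ ((((y ^ k) • w) 1 : unitInterval) : ℝ) < ε} = 0 := by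
  classical
  have hinj : Function.Injective (fun k : ℕ => (y ^ k)⁻¹) := by
    intro i j hij
    have h1 : y ^ i = y ^ j := inv_injective hij
    by_contra hne
    rcases lt_or_gt_of_ne hne with h | h
    · apply hy (j - i) (by omega)
      have : y ^ i * y ^ (j - i) = y ^ i * 1 := by
        rw [← pow_add, mul_one, Nat.add_sub_cancel' h.le, h1]
      exact mul_left_cancel this
    · apply hy (i - j) (by omega)
      have : y ^ j * y ^ (i - j) = y ^ j * 1 := by
        rw [← pow_add, mul_one, Nat.add_sub_cancel' h.le, h1]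
      exact mul_left_cancel this
  set t : Set unitInterval := {x | ¬ (x : ℝ) < ε} with ht
  have htm : MeasurableSet t := by
    apply MeasurableSet.compl
    exact measurableSet_lt measurable_subtype_coe measurable_const
  have htv : (volume : Measure unitInterval) t = ENNReal.ofReal (1 - ε) := by
    have : t = Set.Icc (⟨ε, hε.le, hε1⟩ : unitInterval) 1 := by
      ext x
      simp only [ht, Set.mem_ofPred_eq, not_lt, Set.mem_Icc]
      constructor
      · intro h; exact ⟨h, x.2.2⟩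
      · intro h; exact h.1
    rw [this, unitInterval.volume_Icc]
    simp
  have key : ∀ n : ℕ, bernMeasure Γ {w | ∀ k : ℕ, ¬ ((((y ^ k) • w) 1 : unitInterval) : ℝ) < ε}
      ≤ (ENNReal.ofReal (1 - ε)) ^ n := by
    intro n
    have h1 : {w : Bern Γ | ∀ k : ℕ, ¬ ((((y ^ k) • w) 1 : unitInterval) : ℝ) < ε} ⊆
        Set.pi (↑((Finset.range n).image (fun k : ℕ => (y ^ k)⁻¹)) : Set Γ) (fun _ => t) := by
      intro w hw
      refine Set.mem_pi.2 ?_
      intro i hi
      rw [Finset.mem_coe, Finset.mem_image] at hi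
      obtain ⟨k, _, rfl⟩ := hi
      have := hw k
      rw [smul_apply] at this
      simpa [ht] using this
    refine (measure_mono h1).trans (le_of_eq ?_)
    have h2 := Measure.infinitePi_pi (μ := fun _ : Γ => (volume : Measure unitInterval))
      (s := (Finset.range n).image (fun k : ℕ => (y ^ k)⁻¹)) (t := fun _ => t) (fun _ _ => htm)
    refine h2.trans ?_
    rw [Finset.prod_const, Finset.card_image_of_injective _ hinj, Finset.card_range, htv]
  have hlt : ENNReal.ofReal (1 - ε) < 1 := by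
    rw [← ENNReal.ofReal_one]
    exact (ENNReal.ofReal_lt_ofReal_iff one_pos).2 (by linarith)
  have hlim := ENNReal.tendsto_pow_atTop_nhds_zero_of_lt_one hlt
  exact le_antisymm (ge_of_tendsto' hlim key) zero_le

theorem small_set (ε : ℝ) (hε : 0 < ε) (hε1 : ε ≤ 1) :
    bernMeasure Γ {w | ((w 1 : unitInterval) : ℝ) < ε} = ENNReal.ofReal ε := by
  have h1 := Measure.infinitePi_map_eval (μ := fun _ : Γ => (volume : Measure unitInterval)) 1
  have hm : MeasurableSet {x : unitInterval | (x : ℝ) < ε} :=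
    measurableSet_lt measurable_subtype_coe measurable_const
  have h2 : bernMeasure Γ {w | ((w 1 : unitInterval) : ℝ) < ε} =
      (volume : Measure unitInterval) {x | (x : ℝ) < ε} := by
    conv_rhs => rw [← h1, Measure.map_apply (measurable_pi_apply 1) hm]
    rfl
  have h3 : {x : unitInterval | (x : ℝ) < ε} = Set.Ico 0 (⟨ε, hε.le, hε1⟩ : unitInterval) := by
    ext x
    simp only [Set.mem_ofPred_eq, Set.mem_Ico]
    constructor
    · intro h; exact ⟨x.2.1, h⟩
    · intro h; exact h.2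
  rw [h2, h3, unitInterval.volume_Ico]
  simp

end Bern

section Cheap

variable {Γ : Type} [Group Γ]

/-- The space `ZMod K × [0,1]^Γ` on which `Γ` acts through `φ : Γ → ℤ` on the first factor and by the
shift on the second one. -/
def CY (K : ℕ) (_φ : Γ →* Multiplicative ℤ) : Type := ZMod K × Bern Γ

variable (K : ℕ) (φ : Γ →* Multiplicative ℤ)

instance : MeasurableSpace (CY K φ) := inferInstanceAs (MeasurableSpace (ZMod K × Bern Γ))

instance [Countable Γ] [NeZero K] : StandardBorelSpace (CY K φ) :=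
  haveI : DiscreteMeasurableSpace (ZMod K) := ⟨fun _ => trivial⟩
  haveI : StandardBorelSpace (ZMod K) := standardBorelSpace_of_discreteMeasurableSpace
  inferInstanceAs (StandardBorelSpace (ZMod K × Bern Γ))

noncomputable def cyMeasure : Measure (CY K φ) :=
  ((K : ℝ≥0∞)⁻¹ • (Measure.count : Measure (ZMod K))).prod (bernMeasure Γ)

instance : MulAction Γ (CY K φ) where
  smul g p := (((Multiplicative.toAdd (φ g) : ℤ) : ZMod K) + p.1, g • p.2)
  one_smul p := by
    show (((Multiplicative.toAdd (φ 1) : ℤ) : ZMod K) + p.1, (1 : Γ) • p.2) = p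
    simp only [map_one, toAdd_one, Int.cast_zero, zero_add, one_smul]
    rfl
  mul_smul a b p := by
    show (((Multiplicative.toAdd (φ (a * b)) : ℤ) : ZMod K) + p.1, (a * b) • p.2) =
      (((Multiplicative.toAdd (φ a) : ℤ) : ZMod K) +
        (((Multiplicative.toAdd (φ b) : ℤ) : ZMod K) + p.1), a • b • p.2)
    simp [mul_smul, add_assoc]

theorem cy_fst (g : Γ) (p : CY K φ) :
    (g • p).1 = ((Multiplicative.toAdd (φ g) : ℤ) : ZMod K) + p.1 := rfl

theorem cy_snd (g : Γ) (p : CY K φ) : (g • p).2 = g • p.2 := rfl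

variable [NeZero K]

instance : IsProbabilityMeasure ((K : ℝ≥0∞)⁻¹ • (Measure.count : Measure (ZMod K))) := by
  refine ⟨?_⟩
  have hK : (K : ℝ≥0∞) ≠ 0 := by exact_mod_cast (NeZero.ne K)
  rw [Measure.smul_apply, Measure.count_apply_finite _ Set.finite_univ]
  simp only [Set.Finite.toFinset_univ, Finset.card_univ, ZMod.card, smul_eq_mul]
  exact ENNReal.inv_mul_cancel hK (ENNReal.natCast_ne_top K)

instance : IsProbabilityMeasure (cyMeasure K φ) := by
  unfold cyMeasure
  exact inferInstanceAs (IsProbabilityMeasure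
    (((K : ℝ≥0∞)⁻¹ • (Measure.count : Measure (ZMod K))).prod (bernMeasure Γ)))

theorem cy_isFree [Countable Γ] : IsFreePMPAction Γ (CY K φ) (cyMeasure K φ) := by
  constructor
  · intro g
    have h1 : MeasurePreserving (fun k : ZMod K => ((Multiplicative.toAdd (φ g) : ℤ) : ZMod K) + k)
        ((K : ℝ≥0∞)⁻¹ • (Measure.count : Measure (ZMod K)))
        ((K : ℝ≥0∞)⁻¹ • (Measure.count : Measure (ZMod K))) := by
      exact (measurePreserving_add_left (Measure.count : Measure (ZMod K)) _).smul_measure _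
    exact h1.prod (measurePreserving_smul g)
  · intro g hg
    have : {p : CY K φ | g • p = p} ⊆ (Set.univ : Set (ZMod K)) ×ˢ {w : Bern Γ | g • w = w} := by
      intro p hp
      refine ⟨trivial, ?_⟩
      exact congrArg Prod.snd (show g • p = p from hp)
    refine measure_mono_null this ?_
    show (((K : ℝ≥0∞)⁻¹ • (Measure.count : Measure (ZMod K))).prod (bernMeasure Γ)) _ = 0
    rw [Measure.prod_prod, bern_free g hg, mul_zero]

omit [NeZero K] in
/-- steps of a graphing give a relation that is closed under the group as soon as it is on a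
generating set -/
theorem eqvGen_of_generators (Φ : ℕ → Γ × Set (CY K φ)) (N : Set (CY K φ))
    (hN : ∀ p, p ∉ N → ∀ g : Γ, g • p ∉ N) (S : Set Γ) (hS : Subgroup.closure S = ⊤)
    (h : ∀ g ∈ S, ∀ p, p ∉ N → Relation.EqvGen (GraphingStep Φ) p (g • p)) :
    ∀ p, p ∉ N → ∀ g : Γ, Relation.EqvGen (GraphingStep Φ) p (g • p) := by
  intro p hp g
  have hg : g ∈ Subgroup.closure S := by rw [hS]; trivial
  revert p
  induction hg using Subgroup.closure_induction with
  | mem x hx => intro p hp; exact h x hx p hp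
  | one => intro p hp; rw [one_smul]; exact Relation.EqvGen.refl _
  | mul a b _ _ iha ihb =>
    intro p hp
    rw [mul_smul]
    exact (ihb p hp).trans _ _ _ (iha _ (hN p hp b))
  | inv a _ iha =>
    intro p hp
    have := iha (a⁻¹ • p) (hN p hp a⁻¹)
    rw [smul_inv_smul] at this
    exact this.symm _ _

omit [NeZero K] in
theorem graph_generates [NeZero K] (D : ℕ) (hD : 2 ≤ D) (y : Γ) (u : ℕ → Γ)
    (hu0 : u 0 = 1) (huD : u D = 1)
    (hcomm : ∀ j < D, Commute y (u (j + 1) * (u j)⁻¹ * (u 1)⁻¹))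
    (hφ : ∀ j < D, φ (u j) = Multiplicative.ofAdd (j : ℤ))
    (Φ : ℕ → Γ × Set (CY K φ)) (ε : ℝ)
    (hΦ0 : ∀ p, GraphingStep Φ p (y • p))
    (hΦ1 : ∀ p : CY K φ, ∀ l : ℕ, l + 1 < D → p.1 = (l : ZMod K) → GraphingStep Φ p (u 1 • p))
    (hΦ2 : ∀ j < D, ∀ p : CY K φ, ((p.2 1 : unitInterval) : ℝ) < ε →
      GraphingStep Φ p ((u (j + 1) * (u j)⁻¹ * (u 1)⁻¹) • p))
    (N : Set (CY K φ)) (hN : ∀ p, p ∉ N → ∀ g : Γ, g • p ∉ N)
    (hNy : ∀ p, p ∉ N → ∃ k : ℕ, ((((y ^ k) • p).2 1 : unitInterval) : ℝ) < ε) :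
    ∀ j ≤ D, ∀ p, p ∉ N → Relation.EqvGen (GraphingStep Φ) p (u j • p) := by
  -- `R p q` abbreviates the generated relation
  have hyk : ∀ (k : ℕ) (p : CY K φ), Relation.EqvGen (GraphingStep Φ) p ((y ^ k) • p) := by
    intro k
    induction k with
    | zero => intro p; rw [pow_zero, one_smul]; exact Relation.EqvGen.refl _
    | succ k ih =>
      intro p
      rw [pow_succ', mul_smul]
      exact (ih p).trans _ _ _ (Relation.EqvGen.rel _ _ (hΦ0 _))
  -- step A
  have hA : ∀ j < D, ∀ p, p ∉ N →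
      Relation.EqvGen (GraphingStep Φ) p ((u (j + 1) * (u j)⁻¹ * (u 1)⁻¹) • p) := by
    intro j hj p hp
    obtain ⟨k, hk⟩ := hNy p hp
    have h1 := hyk k p
    have h2 : Relation.EqvGen (GraphingStep Φ) ((y ^ k) • p)
        ((u (j + 1) * (u j)⁻¹ * (u 1)⁻¹) • (y ^ k) • p) := Relation.EqvGen.rel _ _ (hΦ2 j hj _ hk)
    have h3 := hyk k ((u (j + 1) * (u j)⁻¹ * (u 1)⁻¹) • p)
    have h4 : (u (j + 1) * (u j)⁻¹ * (u 1)⁻¹) • (y ^ k) • p =
        (y ^ k) • (u (j + 1) * (u j)⁻¹ * (u 1)⁻¹) • p := by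
      rw [← mul_smul, ← mul_smul, ((hcomm j hj).pow_left k).eq]
    rw [h4] at h2
    exact (h1.trans _ _ _ h2).trans _ _ _ (h3.symm _ _)
  have hA' : ∀ j < D, ∀ p, p ∉ N →
      Relation.EqvGen (GraphingStep Φ) (u 1 • u j • p) (u (j + 1) • p) := by
    intro j hj p hp
    have := hA j hj (u 1 • u j • p) (hN _ (hN _ hp _) _)
    have e : (u (j + 1) * (u j)⁻¹ * (u 1)⁻¹) • u 1 • u j • p = u (j + 1) • p := by
      rw [← mul_smul, ← mul_smul]; congr 1; group
    rwa [e] at this
  -- step B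
  have hB : ∀ l : ℕ, ∀ p, p ∉ N → p.1 = (l : ZMod K) →
      Relation.EqvGen (GraphingStep Φ) p (u 1 • p) := by
    intro l
    induction l using Nat.strong_induction_on with
    | _ l ih =>
      intro p hp hl
      by_cases hlD : l + 1 < D
      · exact Relation.EqvGen.rel _ _ (hΦ1 p l hlD hl)
      · obtain ⟨m, rfl⟩ : ∃ m, l = m + (D - 1) := ⟨l - (D - 1), by omega⟩
        set x := (u (D - 1))⁻¹ • p with hx
        have hxN : x ∉ N := hN _ hp _
        have hpx : p = u (D - 1) • x := by rw [hx, smul_inv_smul]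
        have hx1 : x.1 = (m : ZMod K) := by
          rw [hx, cy_fst, map_inv, hφ (D - 1) (by omega), hl]
          simp
        have chain : ∀ j ≤ D - 1, Relation.EqvGen (GraphingStep Φ) x (u j • x) := by
          intro j
          induction j with
          | zero => intro _; rw [hu0, one_smul]; exact Relation.EqvGen.refl _
          | succ j ihj =>
            intro hj
            have h1 := ihj (by omega)
            have h2 : Relation.EqvGen (GraphingStep Φ) (u j • x) (u 1 • u j • x) := by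
              refine ih (m + j) (by omega) _ (hN _ hxN _) ?_
              rw [cy_fst, hφ j (by omega), hx1]
              simp [add_comm]
            exact (h1.trans _ _ _ h2).trans _ _ _ (hA' j (by omega) x hxN)
        have h1 := chain (D - 1) le_rfl
        have h2 := hA' (D - 1) (by omega) x hxN
        rw [show D - 1 + 1 = D by omega, huD, one_smul] at h2
        rw [hpx]
        exact (h1.symm _ _).trans _ _ _ (h2.symm _ _)
  have hB' : ∀ p, p ∉ N → Relation.EqvGen (GraphingStep Φ) p (u 1 • p) := by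
    intro p hp
    refine hB (ZMod.val p.1) p hp ?_
    rw [ZMod.natCast_zmod_val]
  -- step C
  intro j
  induction j with
  | zero => intro _ p _; rw [hu0, one_smul]; exact Relation.EqvGen.refl _
  | succ j ih =>
    intro hj p hp
    exact ((ih (by omega) p hp).trans _ _ _ (hB' _ (hN _ hp _))).trans _ _ _
      (hA' j (by omega) p hp)

/-- the graphing: `y` everywhere, `u 1` on the layers `0..D-2`, the elements
`s j = u (j+1) (u j)⁻¹ (u 1)⁻¹` on a small set. -/
noncomputable def cheapGraph (D : ℕ) (y : Γ) (u : ℕ → Γ) (ε : ℝ) : ℕ → Γ × Set (CY K φ)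
  | 0 => (y, Set.univ)
  | 1 => (u 1, {p | ∃ l : ℕ, l + 1 < D ∧ p.1 = (l : ZMod K)})
  | (j + 2) => if j < D then (u (j + 1) * (u j)⁻¹ * (u 1)⁻¹,
      {p : CY K φ | ((p.2 1 : unitInterval) : ℝ) < ε}) else (1, ∅)

theorem small_meas (ε : ℝ) (hε : 0 < ε) (hε1 : ε ≤ 1) :
    cyMeasure K φ {p : CY K φ | ((p.2 1 : unitInterval) : ℝ) < ε} = ENNReal.ofReal ε := by
  have : {p : CY K φ | ((p.2 1 : unitInterval) : ℝ) < ε} =
      (Set.univ : Set (ZMod K)) ×ˢ {w : Bern Γ | ((w 1 : unitInterval) : ℝ) < ε} := by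
    ext p
    constructor
    · intro h; exact ⟨trivial, h⟩
    · intro h; exact h.2
  rw [this]
  show (((K : ℝ≥0∞)⁻¹ • (Measure.count : Measure (ZMod K))).prod (bernMeasure Γ)) _ = _
  rw [Measure.prod_prod, small_set ε hε hε1, measure_univ, one_mul]

theorem layer_meas (D : ℕ) :
    cyMeasure K φ {p : CY K φ | ∃ l : ℕ, l + 1 < D ∧ p.1 = (l : ZMod K)} ≤
      ((D - 1 : ℕ) : ℝ≥0∞) * (K : ℝ≥0∞)⁻¹ := by
  have h1 : {p : CY K φ | ∃ l : ℕ, l + 1 < D ∧ p.1 = (l : ZMod K)} ⊆
      ⋃ l ∈ Finset.range (D - 1), ({(l : ZMod K)} : Set (ZMod K)) ×ˢ (Set.univ : Set (Bern Γ)) := by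
    rintro p ⟨l, hl, hp⟩
    refine Set.mem_iUnion.2 ⟨l, Set.mem_iUnion.2 ⟨Finset.mem_range.2 (by omega), ?_⟩⟩
    exact ⟨hp, trivial⟩
  refine (measure_mono h1).trans ((measure_biUnion_finset_le _ _).trans ?_)
  have h2 : ∀ l ∈ Finset.range (D - 1),
      cyMeasure K φ (({(l : ZMod K)} : Set (ZMod K)) ×ˢ (Set.univ : Set (Bern Γ))) =
        (K : ℝ≥0∞)⁻¹ := by
    intro l _
    show (((K : ℝ≥0∞)⁻¹ • (Measure.count : Measure (ZMod K))).prod (bernMeasure Γ)) _ = _
    rw [Measure.prod_prod, measure_univ, mul_one, Measure.smul_apply, Measure.count_singleton]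
    simp
  rw [Finset.sum_congr rfl h2]
  simp

/-- **Cheap actions.** -/
theorem cheap_action [Countable Γ] (D : ℕ) (hD : 2 ≤ D) (y : Γ) (u : ℕ → Γ)
    (hu0 : u 0 = 1) (huD : u D = 1)
    (hgen : Subgroup.closure ({y} ∪ u '' {j | j ≤ D}) = ⊤)
    (hy : ∀ n : ℕ, n ≠ 0 → y ^ n ≠ 1)
    (hcomm : ∀ j < D, Commute y (u (j + 1) * (u j)⁻¹ * (u 1)⁻¹))
    (hφ : ∀ j < D, φ (u j) = Multiplicative.ofAdd (j : ℤ))
    (ε : ℝ) (hε : 0 < ε) (hε1 : ε ≤ 1) :
    actionCost Γ (CY K φ) (cyMeasure K φ) ≤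
      1 + ((D - 1 : ℕ) : ℝ≥0∞) * (K : ℝ≥0∞)⁻¹ + (D : ℝ≥0∞) * ENNReal.ofReal ε := by
  set Φ := cheapGraph K φ D y u ε with hΦ
  have e0 : Φ 0 = (y, Set.univ) := rfl
  have e1 : Φ 1 = (u 1, {p | ∃ l : ℕ, l + 1 < D ∧ p.1 = (l : ZMod K)}) := rfl
  have e2 : ∀ j < D, Φ (j + 2) = (u (j + 1) * (u j)⁻¹ * (u 1)⁻¹,
      {p : CY K φ | ((p.2 1 : unitInterval) : ℝ) < ε}) := by
    intro j hj
    show (if j < D then _ else _) = _
    rw [if_pos hj]
  have e3 : ∀ j, D ≤ j → Φ (j + 2) = (1, ∅) := by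
    intro j hj
    show (if j < D then _ else _) = _
    rw [if_neg (by omega)]
  have hmB : MeasurableSet {p : CY K φ | ((p.2 1 : unitInterval) : ℝ) < ε} := by
    refine measurableSet_lt ?_ measurable_const
    exact measurable_subtype_coe.comp ((measurable_eval (1 : Γ)).comp measurable_snd)
  have hmL : MeasurableSet {p : CY K φ | ∃ l : ℕ, l + 1 < D ∧ p.1 = (l : ZMod K)} := by
    have : {p : CY K φ | ∃ l : ℕ, l + 1 < D ∧ p.1 = (l : ZMod K)} =
        (fun p : CY K φ => p.1) ⁻¹' {k : ZMod K | ∃ l : ℕ, l + 1 < D ∧ k = (l : ZMod K)} := rfl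
    rw [this]
    exact measurable_fst trivial
  -- cost
  have hcost : graphingCost (cyMeasure K φ) Φ ≤
      1 + ((D - 1 : ℕ) : ℝ≥0∞) * (K : ℝ≥0∞)⁻¹ + (D : ℝ≥0∞) * ENNReal.ofReal ε := by
    unfold graphingCost
    rw [tsum_eq_sum (s := Finset.range (D + 2))]
    · rw [Finset.sum_range_succ', Finset.sum_range_succ']
      simp only [zero_add]
      rw [e0, e1]
      have h1 : ∑ k ∈ Finset.range D, (cyMeasure K φ) (Φ (k + 1 + 1)).2 =
          (D : ℝ≥0∞) * ENNReal.ofReal ε := by
        have : ∀ k ∈ Finset.range D, (cyMeasure K φ) (Φ (k + 1 + 1)).2 = ENNReal.ofReal ε := by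
          intro k hk
          rw [show k + 1 + 1 = k + 2 from rfl, e2 k (Finset.mem_range.1 hk)]
          exact small_meas K φ ε hε hε1
        rw [Finset.sum_congr rfl this]
        simp
      rw [h1]
      have h2 := layer_meas K φ D
      have h3 : (cyMeasure K φ) (Set.univ : Set (CY K φ)) = 1 := measure_univ
      simp only [h3]
      calc (D : ℝ≥0∞) * ENNReal.ofReal ε +
            (cyMeasure K φ) {p : CY K φ | ∃ l : ℕ, l + 1 < D ∧ p.1 = (l : ZMod K)} + 1
          ≤ (D : ℝ≥0∞) * ENNReal.ofReal ε + ((D - 1 : ℕ) : ℝ≥0∞) * (K : ℝ≥0∞)⁻¹ + 1 := by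
            gcongr
        _ = _ := by ring
    · intro b hb
      rw [Finset.mem_range, not_lt] at hb
      obtain ⟨j, rfl⟩ : ∃ j, b = j + 2 := ⟨b - 2, by omega⟩
      rw [e3 j (by omega)]
      simp
  -- generation
  have hgenr : Generates (Γ := Γ) (cyMeasure K φ) Φ := by
    constructor
    · intro i
      match i with
      | 0 => rw [e0]; exact MeasurableSet.univ
      | 1 => rw [e1]; exact hmL
      | (j + 2) =>
        by_cases hj : j < D
        · rw [e2 j hj]; exact hmB
        · rw [e3 j (by omega)]; exact MeasurableSet.empty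
    · -- the null set
      set N0 : Set (CY K φ) := {p | ∀ k : ℕ, ¬ ((((y ^ k) • p).2 1 : unitInterval) : ℝ) < ε} with hN0
      have hN0' : cyMeasure K φ N0 = 0 := by
        have : N0 ⊆ (Set.univ : Set (ZMod K)) ×ˢ
            {w : Bern Γ | ∀ k : ℕ, ¬ ((((y ^ k) • w) 1 : unitInterval) : ℝ) < ε} := by
          intro p hp
          exact ⟨trivial, hp⟩
        refine measure_mono_null this ?_
        show (((K : ℝ≥0∞)⁻¹ • (Measure.count : Measure (ZMod K))).prod (bernMeasure Γ)) _ = 0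
        rw [Measure.prod_prod, section_null y hy ε hε hε1, mul_zero]
      set N : Set (CY K φ) := ⋃ g : Γ, (fun p : CY K φ => g • p) ⁻¹' N0 with hNdef
      have hNnull : cyMeasure K φ N = 0 := by
        rw [hNdef, measure_iUnion_null_iff]
        intro g
        exact ((cy_isFree K φ).1 g).quasiMeasurePreserving.preimage_null hN0'
      have hNinv : ∀ p, p ∉ N → ∀ g : Γ, g • p ∉ N := by
        intro p hp g hg
        rw [hNdef, Set.mem_iUnion] at hg
        obtain ⟨h, hh⟩ := hg
        apply hp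
        rw [hNdef, Set.mem_iUnion]
        refine ⟨h * g, ?_⟩
        rw [Set.mem_preimage, mul_smul]
        exact hh
      have hNy : ∀ p, p ∉ N → ∃ k : ℕ, ((((y ^ k) • p).2 1 : unitInterval) : ℝ) < ε := by
        intro p hp
        by_contra hcon
        push Not at hcon
        apply hp
        rw [hNdef, Set.mem_iUnion]
        refine ⟨1, ?_⟩
        rw [Set.mem_preimage, one_smul]
        intro k
        exact not_lt.2 (hcon k)
      refine ⟨N, hNnull, ?_⟩
      refine eqvGen_of_generators K φ Φ N hNinv _ hgen ?_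
      have hΦ0 : ∀ p, GraphingStep Φ p (y • p) := fun p => ⟨0, by rw [e0]; trivial, by rw [e0]⟩
      have hΦ1 : ∀ p : CY K φ, ∀ l : ℕ, l + 1 < D → p.1 = (l : ZMod K) →
          GraphingStep Φ p (u 1 • p) := by
        intro p l hl hp
        refine ⟨1, ?_, by rw [e1]⟩
        have hq : p ∈ {p : CY K φ | ∃ l : ℕ, l + 1 < D ∧ p.1 = (l : ZMod K)} :=
          Set.mem_ofPred_eq.mpr ⟨l, hl, hp⟩
        rw [e1]
        exact hq
      have hΦ2 : ∀ j < D, ∀ p : CY K φ, ((p.2 1 : unitInterval) : ℝ) < ε →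
          GraphingStep Φ p ((u (j + 1) * (u j)⁻¹ * (u 1)⁻¹) • p) := by
        intro j hj p hp
        refine ⟨j + 2, ?_, by rw [e2 j hj]⟩
        rw [e2 j hj]
        exact hp
      have hmain := graph_generates K φ D hD y u hu0 huD hcomm hφ Φ ε hΦ0 hΦ1 hΦ2 N hNinv hNy
      intro g hg p hp
      rcases hg with hg | ⟨j, hj, rfl⟩
      · rw [Set.mem_singleton_iff] at hg
        rw [hg]
        exact Relation.EqvGen.rel _ _ (hΦ0 p)
      · exact hmain j hj p hp
  unfold actionCost
  refine le_trans (sInf_le ?_) hcost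
  exact ⟨Φ, hgenr, rfl⟩

end Cheap

/-- **Upper bound half of S0291**: cheap free pmp actions. -/
theorem exists_cheap (Γ : Type) [Group Γ] [Countable Γ] (D : ℕ) (hD : 2 ≤ D) (y : Γ) (u : ℕ → Γ)
    (hu0 : u 0 = 1) (huD : u D = 1)
    (hgen : Subgroup.closure ({y} ∪ u '' {j | j ≤ D}) = ⊤)
    (hy : ∀ n : ℕ, n ≠ 0 → y ^ n ≠ 1)
    (hcomm : ∀ j < D, Commute y (u (j + 1) * (u j)⁻¹ * (u 1)⁻¹))
    (φ : Γ →* Multiplicative ℤ)
    (hφ : ∀ j < D, φ (u j) = Multiplicative.ofAdd (j : ℤ))
    (M : ℕ) (hM : 100 < M) :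
    ∃ (Y : Type) (_ : MeasurableSpace Y) (_ : StandardBorelSpace Y) (ν : MeasureTheory.Measure Y)
      (_ : MeasureTheory.IsProbabilityMeasure ν) (_ : MulAction Γ Y),
      Crest.Dynamics.IsFreePMPAction Γ Y ν ∧
      Crest.Dynamics.actionCost Γ Y ν ≤ 1 + 99 / (M : ENNReal) := by
  have hMD : M * D ≠ 0 := Nat.mul_ne_zero (by omega) (by omega)
  have : NeZero (M * D) := ⟨hMD⟩
  refine ⟨CY (M * D) φ, inferInstance, inferInstance, cyMeasure (M * D) φ, inferInstance,
    inferInstance, cy_isFree _ _, ?_⟩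
  have hM0 : (0 : ℝ) < M := by exact_mod_cast (by omega : 0 < M)
  have hD0 : (0 : ℝ) < D := by exact_mod_cast (by omega : 0 < D)
  set ε : ℝ := 98 / (M * D) with hε
  have hε0 : 0 < ε := by positivity
  have hε1 : ε ≤ 1 := by
    rw [hε, div_le_one (by positivity)]
    have h1 : (100 : ℝ) < M := by exact_mod_cast hM
    have h2 : (2 : ℝ) ≤ D := by exact_mod_cast hD
    nlinarith
  refine (cheap_action (M * D) φ D hD y u hu0 huD hgen hy hcomm hφ ε hε0 hε1).trans ?_
  have h1 : ((D - 1 : ℕ) : ℝ≥0∞) * ((M * D : ℕ) : ℝ≥0∞)⁻¹ ≤ 1 / (M : ℝ≥0∞) := by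
    have hDn : (D : ℝ≥0∞) ≠ 0 := by exact_mod_cast (by omega : D ≠ 0)
    calc ((D - 1 : ℕ) : ℝ≥0∞) * ((M * D : ℕ) : ℝ≥0∞)⁻¹
        ≤ (D : ℝ≥0∞) * ((M * D : ℕ) : ℝ≥0∞)⁻¹ := by
          gcongr; exact Nat.sub_le _ _
      _ = 1 / (M : ℝ≥0∞) := by
          rw [Nat.cast_mul, ENNReal.mul_inv (Or.inr (ENNReal.natCast_ne_top D))
            (Or.inl (ENNReal.natCast_ne_top M)), mul_comm, mul_assoc,
            ENNReal.inv_mul_cancel hDn (ENNReal.natCast_ne_top D), mul_one, one_div]
  have h2 : (D : ℝ≥0∞) * ENNReal.ofReal ε = 98 / (M : ℝ≥0∞) := by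
    rw [← ENNReal.ofReal_natCast, ← ENNReal.ofReal_mul hD0.le]
    have : (D : ℝ) * ε = 98 / M := by rw [hε]; field_simp
    rw [this, ENNReal.ofReal_div_of_pos hM0, ENNReal.ofReal_natCast]
    norm_num
  rw [h2]
  calc 1 + ((D - 1 : ℕ) : ℝ≥0∞) * ((M * D : ℕ) : ℝ≥0∞)⁻¹ + 98 / (M : ℝ≥0∞)
      ≤ 1 + 1 / (M : ℝ≥0∞) + 98 / (M : ℝ≥0∞) := by gcongr
    _ = 1 + 99 / (M : ℝ≥0∞) := by
      rw [add_assoc, ← ENNReal.add_div]; norm_num

end Crest.Agent.FPC
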