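import Mathlib
import Crest.Prelude.Def_Cost

/-!
# Definitions for S0291 (a finitely generated group without fixed price)

See the notes (rid S0291, helper68) for the paper proof.  Everything lives on a free (everywhere)
p.m.p. action `Γ ↷ (X, μ)`.  `X` is used as the (uncountable) index set of the `z`-edges of the
polygon complexes of all orbits at the same time: the `z`-edge `x` goes from the vertex `A x` to the
vertex `A z x`; the polygon `y` has the edges `u_j y`, `j : ZMod D`.
-/

set_option autoImplicit false

open MeasureTheory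
open scoped ENNReal

namespace Crest.Agent.FP

/-! ### measurable relations and integrals over `X × ι` -/

section Basic

variable {X : Type} [MeasurableSpace X]

/-- A subset of `X × ι` is (slicewise) measurable. -/
def MSet {ι : Type} (P : Set (X × ι)) : Prop := ∀ i, MeasurableSet {x | (x, i) ∈ P}

/-- A relation between `X × ι` and `X × κ` supported on orbits and measurable. -/
def MRel (Γ : Type) [Group Γ] [MulAction Γ X] {ι κ : Type} (R : X × ι → X × κ → Prop) : Prop :=
  (∀ p q, R p q → ∃ g : Γ, q.1 = g • p.1) ∧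
  ∀ (g : Γ) (i : ι) (k : κ), MeasurableSet {x | R (x, i) (g • x, k)}

/-- Integral over `X × ι` with respect to `μ × counting`. -/
noncomputable def sint (μ : Measure X) {ι : Type} (f : X × ι → ℝ≥0∞) : ℝ≥0∞ :=
  ∑' i, ∫⁻ x, f (x, i) ∂μ

/-- Measure of a subset of `X × ι` with respect to `μ × counting`. -/
noncomputable def smeas (μ : Measure X) {ι : Type} (P : Set (X × ι)) : ℝ≥0∞ :=
  ∑' i, μ {x | (x, i) ∈ P}

end Basic

/-! ### the group data -/

/-- The group-theoretic input: a subgroup `A`, an element `z`, and elements `u_j` (`j : ZMod D`)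
such that for every `γ` the edges `u_j γ` (from `A u_j γ` to `A z u_j γ = A u_{j+1} γ`) form a closed
`D`-gon, plus the geometric fact `geo`. -/
structure PolyData (Γ : Type) [Group Γ] (D : ℕ) [NeZero D] where
  /-- the vertex group -/
  A : Subgroup Γ
  /-- the edge element -/
  z : Γ
  /-- the polygon elements -/
  u : ZMod D → Γ

namespace PolyData

variable {Γ : Type} [Group Γ] {D : ℕ} [NeZero D] (G : PolyData Γ D)

/-- A step `(γ, true)` traverses the edge `γ` forward (from `A γ` to `A z γ`), `(γ, false)` backward.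
`src` is (a representative of) its first vertex. -/
def src (s : Γ × Bool) : Γ := if s.2 then s.1 else G.z * s.1

/-- (a representative of) the last vertex of a step. -/
def tgt (s : Γ × Bool) : Γ := if s.2 then G.z * s.1 else s.1

/-- `G.IsPath g l h`: the list of steps `l` is a path from the vertex `A g` to the vertex `A h`. -/
def IsPath : Γ → List (Γ × Bool) → Γ → Prop
  | g, [], h => h * g⁻¹ ∈ G.A
  | g, s :: l, h => G.src s * g⁻¹ ∈ G.A ∧ IsPath (G.tgt s) l h

/-- `D - 1` consecutive edges of the polygon `h`, all but the edge `j`, in forward direction. -/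
def run (h : Γ) (j : ZMod D) : List (Γ × Bool) :=
  List.ofFn (fun t : Fin (D - 1) => (G.u (j + 1 + (t : ℕ)) * h, true))

/-- The same path backwards. -/
def revRun (h : Γ) (j : ZMod D) : List (Γ × Bool) :=
  ((G.run h j).map (fun s => (s.1, false))).reverse

/-- The axioms used in the lower bound. -/
structure Good : Prop where
  hD : 4 ≤ D
  u_zero : G.u 0 = 1
  u_succ : ∀ j, G.u (j + 1) * (G.z * G.u j)⁻¹ ∈ G.A
  corner_inj : Function.Injective (fun j : ZMod D => G.u (j + 1) * (G.u j)⁻¹)
  gen : Subgroup.closure ((G.A : Set Γ) ∪ {G.z}) = ⊤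
  /-- Geometry: a path from the start to the end of the edge `1` is this edge, or backtracks, or
  contains `D - 1` consecutive edges of a polygon. -/
  geo : ∀ l : List (Γ × Bool), G.IsPath 1 l G.z →
    l = [(1, true)] ∨
    (∃ l₁ l₂ g b, l = l₁ ++ (g, b) :: (g, !b) :: l₂) ∨
    (∃ l₁ l₂ h j, l = l₁ ++ G.run h j ++ l₂ ∨ l = l₁ ++ G.revRun h j ++ l₂)

end PolyData

/-! ### complexes -/

/-- Points: base points `(x, none)`, and the two ends `(x, some (i, false))` (origin) and
`(x, some (i, true))` (terminus) of the slot `(x, i)`, a potential edge over the `z`-edge `x`. -/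
abbrev Pt (X : Type) := X × Option (ℕ × Bool)

section Cx

variable {Γ X : Type} [Group Γ] [MulAction Γ X] {D : ℕ} [NeZero D] (G : PolyData Γ D)

/-- The location of a point: `x` for base points and origins over `x`, `z x` for termini. -/
def loc (p : Pt X) : X :=
  match p.2 with
  | none => p.1
  | some (_, false) => p.1
  | some (_, true) => G.z • p.1

/-- Active points: base points, and ends of edges of `E`. -/
def Act (E : Set (X × ℕ)) (p : Pt X) : Prop := ∀ i b, p.2 = some (i, b) → (p.1, i) ∈ E

/-- `Reach E r n p q`: there is a path with exactly `n` edges of `E` from the class of `p` to the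
class of `q`. -/
def Reach (E : Set (X × ℕ)) (r : Pt X → Pt X → Prop) : ℕ → Pt X → Pt X → Prop
  | 0, p, q => r p q
  | n + 1, p, q => ∃ x i b, (x, i) ∈ E ∧ Reach E r n p (x, some (i, b)) ∧ r (x, some (i, !b)) q

/-- A pre-complex (= measured graph over the polygon complexes): a measurable set `E` of slots and an
equivalence relation `r` on the active points, whose classes are the vertices; the class of the base
points `a • x`, `a ∈ A`, is the base vertex `A x`. -/
structure IsPre [MeasurableSpace X] (μ : Measure X) (E : Set (X × ℕ)) (r : Pt X → Pt X → Prop) :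
    Prop where
  measE : MSet E
  finE : smeas μ E ≠ ∞
  multE : ∀ x, {i | (x, i) ∈ E}.Finite
  refl : ∀ p, Act E p → r p p
  symm : ∀ p q, r p q → r q p
  trans : ∀ p q s, r p q → r q s → r p s
  supp : ∀ p q, r p q → Act E p
  rloc : ∀ p q, r p q → ∃ a ∈ G.A, loc G q = a • loc G p
  base : ∀ x, ∀ a ∈ G.A, r (x, none) (a • x, none)
  measr : ∀ (g : Γ) k k', MeasurableSet {x | r (x, k) (g • x, k')}
  conn_base : ∀ x : X, ∃ n, Reach E r n (x, none) (G.z • x, none)
  conn : ∀ p, Act E p → ∃ n y, Reach E r n p (y, none)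

/-- Immersed: two edges over the same `z`-edge with a common origin (or terminus) are equal. -/
def Immersed (E : Set (X × ℕ)) (r : Pt X → Pt X → Prop) : Prop :=
  ∀ x i i' b, (x, i) ∈ E → (x, i') ∈ E → r (x, some (i, b)) (x, some (i', b)) → i = i'

/-- `c` describes a closed lift of the polygon `y`: its `j`-th edge is the slot `(u_j y, c j)`. -/
def IsCell (E : Set (X × ℕ)) (r : Pt X → Pt X → Prop) (y : X) (c : ZMod D → ℕ) : Prop :=
  ∀ j, (G.u j • y, c j) ∈ E ∧
    r (G.u j • y, some (c j, true)) (G.u (j + 1) • y, some (c (j + 1), false))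

/-- A complex: an immersed pre-complex with a set `F` of (designated) cells; a cell is recorded by its
`0`-th edge `(y, i) = (u_0 y, c 0)`. -/
structure IsCx [MeasurableSpace X] (μ : Measure X) (E : Set (X × ℕ)) (r : Pt X → Pt X → Prop)
    (F : Set (X × ℕ)) : Prop extends IsPre G μ E r where
  imm : Immersed E r
  measF : MSet F
  cell : ∀ y i, (y, i) ∈ F → ∃ c : ZMod D → ℕ, c 0 = i ∧ IsCell G E r y c

/-- Rows (extra relators): finitely supported rational chains on `E`, one for each `n ∈ N`. -/
structure IsRows (Γ : Type) [Group Γ] [MulAction Γ X] [MeasurableSpace X] {ι κ : Type}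
    (N : Set (X × κ)) (s : X × κ → (X × ι →₀ ℚ)) : Prop where
  measN : MSet N
  orb : ∀ n ∈ N, ∀ e ∈ (s n).support, ∃ g : Γ, e.1 = g • n.1
  meass : ∀ (g : Γ) k i (a : ℚ), MeasurableSet {x | (x, k) ∈ N ∧ s (x, k) (g • x, i) = a}

/-- The value of a cochain `β` on a row. -/
noncomputable def pair {ι U : Type} [AddCommGroup U] [Module ℚ U] (c : X × ι →₀ ℚ)
    (β : X × ι → U) : U := c.sum (fun e a => a • β e)

/-- Homological generation: every cochain killing all cells and all rows is exact, with a potential
vanishing at the base. -/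
def Gen (E : Set (X × ℕ)) (r : Pt X → Pt X → Prop) (F : Set (X × ℕ)) (N : Set (X × ℕ))
    (s : X × ℕ → (X × ℕ →₀ ℚ)) : Prop :=
  ∀ (U : Type) [AddCommGroup U] [Module ℚ U] (β : X × ℕ → U),
    (∀ y i, (y, i) ∈ F → ∀ c : ZMod D → ℕ, c 0 = i → IsCell G E r y c →
      ∑ j, β (G.u j • y, c j) = 0) →
    (∀ n ∈ N, pair (s n) β = 0) →
    ∃ φ : Pt X → U, (∀ x, φ (x, none) = 0) ∧ (∀ p q, r p q → φ p = φ q) ∧
      ∀ x i, (x, i) ∈ E → β (x, i) = φ (x, some (i, true)) - φ (x, some (i, false))

/-- The number of ends (of edges) in the class of `p`. -/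
noncomputable def deg (r : Pt X → Pt X → Prop) (p : Pt X) : ℝ≥0∞ :=
  open Classical in ∑' q : X × (ℕ × Bool), if r p (q.1, some q.2) then 1 else 0

/-- The class of `p` is a base vertex. -/
def IsBase (r : Pt X → Pt X → Prop) (p : Pt X) : Prop := ∃ y, r p (y, none)

/-- Weight of a point: `0` at base vertices, `1 / deg` elsewhere (`0` for infinite degree). -/
noncomputable def wt (r : Pt X → Pt X → Prop) (p : Pt X) : ℝ≥0∞ :=
  open Classical in if IsBase r p then 0 else (deg r p)⁻¹

/-- The ends of the edges of `E`, as a subset of `X × (ℕ × Bool)`. -/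
def Ends (E : Set (X × ℕ)) : Set (X × (ℕ × Bool)) := {q | (q.1, q.2.1) ∈ E}

/-- The measure of the set of nonbase vertices of finite degree. -/
noncomputable def Vm [MeasurableSpace X] (μ : Measure X) (E : Set (X × ℕ))
    (r : Pt X → Pt X → Prop) : ℝ≥0∞ :=
  sint μ (fun q : X × (ℕ × Bool) => (Ends E).indicator (fun q => wt r (q.1, some q.2)) q)

end Cx

/-! ### the standing hypotheses on the action -/

/-- A free (everywhere) pmp action of a countable group, with a label function injective on orbits and
the spectral inequality `SM`. -/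
structure IsGoodAction {Γ : Type} [Group Γ] {D : ℕ} [NeZero D] (G : PolyData Γ D)
    (X : Type) [MulAction Γ X] [MeasurableSpace X] (μ : Measure X) (f : X → ℝ) : Prop where
  free : ∀ (g : Γ) (x : X), g • x = x → g = 1
  mp : ∀ g : Γ, MeasurePreserving (fun x : X => g • x) μ μ
  measf : Measurable f
  f_mem : ∀ x, f x ∈ Set.Ico (0 : ℝ) 1
  f_inj : ∀ (g : Γ) (x : X), f (g • x) = f x → g • x = x
  /-- the label is uniformly distributed -/
  f_unif : ∀ t ∈ Set.Icc (0 : ℝ) 1, μ {x | f x < t} = ENNReal.ofReal t
  /-- every orbit of `A` contains points with arbitrarily small labels -/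
  f_small : ∀ t > (0 : ℝ), ∀ x : X, ∃ a ∈ G.A, f (a • x) < t
  /-- spectral inequality -/
  sm : ∀ S T : Set X, MeasurableSet S → MeasurableSet T →
    ∑ j : ZMod D, (μ (S ∩ {x | G.u j • x ∈ T})).toReal ≤
      (1 + 2 * Real.sqrt D) * Real.sqrt ((μ S).toReal * (μ T).toReal) +
        D * (μ S).toReal * (μ T).toReal

end Crest.Agent.FP
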