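import Mathlib
import Crest.Agent.FP_Defs

/-!
# The group `Γ = FreeGroup (B ⧸ C) ⋊ B` (= `B *_C (C × ℤ)`)

`B` is free on `u_1, …, u_{D-1}`, `u_0 = 1`, `z = u_1`, `s_j = u_{j+1} u_j⁻¹ z⁻¹` (`j : ZMod D`),
`C = ⟨s_j⟩`.  The generator `y` is `FreeGroup.of (1 C)`; it commutes exactly with `C` in `B`.
-/

set_option autoImplicit false

open MeasureTheory
open scoped ENNReal

namespace Crest.Agent.FP

variable (D : ℕ) [NeZero D]

/-- The free group `B`. -/
abbrev BGrp : Type := FreeGroup (Fin (D - 1))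

/-- `u_0 = 1`, `u_j` = the `j`-th generator for `1 ≤ j ≤ D - 1`. -/
def uB (j : ZMod D) : BGrp D :=
  if h : ZMod.val j = 0 then 1
  else FreeGroup.of ⟨ZMod.val j - 1, by have := ZMod.val_lt j; omega⟩

/-- `z = u_1`. -/
def zB : BGrp D := uB D 1

/-- `s_j = u_{j+1} u_j⁻¹ z⁻¹`. -/
def sB (j : ZMod D) : BGrp D := uB D (j + 1) * (uB D j)⁻¹ * (zB D)⁻¹

/-- The subgroup `C`. -/
def CB : Subgroup (BGrp D) := Subgroup.closure (Set.range (sB D))

/-- The action of `B` on the free group over `B ⧸ C` by permutation of the generators. -/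
def actB : BGrp D →* MulAut (FreeGroup (BGrp D ⧸ CB D)) where
  toFun b := FreeGroup.freeGroupCongr (MulAction.toPerm b)
  map_one' := by
    ext x
    induction x using FreeGroup.induction_on with
    | C1 => simp
    | of a => simp
    | inv_of a ih => simp
    | mul a b iha ihb => simp only [map_mul, iha, ihb]
  map_mul' a b := by
    ext x
    induction x using FreeGroup.induction_on with
    | C1 => simp
    | of c => simp [mul_smul]
    | inv_of a ih => simp [mul_smul]
    | mul c d ihc ihd => simp only [map_mul, ihc, ihd]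

/-- The group `Γ`. -/
abbrev GGrp : Type := FreeGroup (BGrp D ⧸ CB D) ⋊[actB D] BGrp D

/-- The element `y`. -/
def yG : GGrp D :=
  SemidirectProduct.inl (FreeGroup.of (QuotientGroup.mk (1 : BGrp D) : BGrp D ⧸ CB D))

/-- The inclusion of `B`. -/
def iB : BGrp D →* GGrp D := SemidirectProduct.inr

/-- The generator `y` inside the free group on `B ⧸ C`. -/
def yF : FreeGroup (BGrp D ⧸ CB D) :=
  FreeGroup.of (QuotientGroup.mk (1 : BGrp D) : BGrp D ⧸ CB D)

theorem actB_yF {c : BGrp D} (hc : c ∈ CB D) : actB D c (yF D) = yF D := by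
  have h : c • (QuotientGroup.mk (1 : BGrp D) : BGrp D ⧸ CB D) = QuotientGroup.mk (1 : BGrp D) := by
    rw [MulAction.Quotient.smul_mk, QuotientGroup.eq]
    simpa using hc
  show FreeGroup.freeGroupCongr (MulAction.toPerm c) (yF D) = yF D
  simp [yF, h]

theorem actB_zpowers {c : BGrp D} (hc : c ∈ CB D) {x : FreeGroup (BGrp D ⧸ CB D)}
    (hx : x ∈ Subgroup.zpowers (yF D)) : actB D c x = x := by
  obtain ⟨n, rfl⟩ := Subgroup.mem_zpowers_iff.mp hx
  rw [map_zpow, actB_yF D hc]

/-- The subgroup `A = C × ⟨y⟩`. -/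
def AG : Subgroup (GGrp D) where
  carrier := {g | g.left ∈ Subgroup.zpowers (yF D) ∧ g.right ∈ CB D}
  mul_mem' := by
    rintro a b ⟨ha, ha'⟩ ⟨hb, hb'⟩
    refine ⟨?_, ?_⟩
    · rw [SemidirectProduct.mul_left, actB_zpowers D ha' hb]
      exact mul_mem ha hb
    · rw [SemidirectProduct.mul_right]
      exact mul_mem ha' hb'
  one_mem' := ⟨by simp, by simp⟩
  inv_mem' := by
    rintro a ⟨ha, ha'⟩
    refine ⟨?_, ?_⟩
    · rw [SemidirectProduct.inv_left, actB_zpowers D (inv_mem ha') (inv_mem ha)]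
      exact inv_mem ha
    · rw [SemidirectProduct.inv_right]
      exact inv_mem ha'

/-- The polygon data of `Γ`. -/
def polyG : PolyData (GGrp D) D where
  A := AG D
  z := iB D (zB D)
  u := fun j => iB D (uB D j)

end Crest.Agent.FP
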