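import Mathlib
import Crest.Agent.FP_GrpDefs
import Crest.Agent.FP_Cheap

/-!
# Task FP-G1: elementary facts on the group `Γ`, and the cheap actions of `Γ`
-/

set_option autoImplicit false

open MeasureTheory
open scoped ENNReal

namespace Crest.Agent.FP

variable (D : ℕ) [NeZero D]

section lift
variable {H : Type} [Group H]

/-- homomorphism `B → H` with prescribed values on the `u_j` -/
def liftB (a : ZMod D → H) : BGrp D →* H :=
  FreeGroup.lift (fun i : Fin (D - 1) => a (((i : ℕ) : ZMod D) + 1))

theorem liftB_uB (a : ZMod D → H) (ha : a 0 = 1) (j : ZMod D) : liftB D a (uB D j) = a j := by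
  unfold uB
  split_ifs with h
  · rw [map_one]
    have : j = 0 := by
      have := ZMod.natCast_zmod_val j
      rw [h] at this
      simpa using this.symm
    rw [this, ha]
  · unfold liftB
    rw [FreeGroup.lift_apply_of]
    congr 1
    have h1 : ((ZMod.val j - 1 : ℕ) : ZMod D) + 1 = ((ZMod.val j - 1 + 1 : ℕ) : ZMod D) := by
      push_cast; rfl
    show ((ZMod.val j - 1 : ℕ) : ZMod D) + 1 = j
    rw [h1, Nat.sub_add_cancel (by omega), ZMod.natCast_zmod_val]

end lift

theorem uB_zero : uB D 0 = 1 := by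
  unfold uB
  rw [dif_pos]
  simp

/-- every subgroup of `B` containing all `u_j` is everything -/
theorem subgroupB_eq_top (K : Subgroup (BGrp D)) (h : ∀ j, uB D j ∈ K) : K = ⊤ := by
  rw [eq_top_iff]
  intro b hb'
  clear hb'
  induction b using FreeGroup.induction_on with
  | C1 => exact K.one_mem
  | of i =>
    have hi : FreeGroup.of i = uB D (((i : ℕ) + 1 : ℕ) : ZMod D) := by
      unfold uB
      have hlt : (i : ℕ) + 1 < D := by have := i.2; omega
      have hv : ZMod.val (((i : ℕ) + 1 : ℕ) : ZMod D) = (i : ℕ) + 1 := ZMod.val_natCast_of_lt hlt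
      rw [dif_neg (by rw [hv]; omega)]
      congr 1
      apply Fin.ext
      simp only
      rw [hv]; omega
    rw [hi]
    exact h _
  | inv_of i ih => exact K.inv_mem ih
  | mul a b ha hb => exact K.mul_mem ha hb

/-- every subgroup of `Γ` containing `y` and all `u_j` is everything -/
theorem subgroupG_eq_top (K : Subgroup (GGrp D)) (hy : yG D ∈ K) (h : ∀ j, iB D (uB D j) ∈ K) :
    K = ⊤ := by
  have hB : ∀ b : BGrp D, iB D b ∈ K := by
    intro b
    have := subgroupB_eq_top D (K.comap (iB D)) (fun j => h j)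
    have hb : b ∈ K.comap (iB D) := by rw [this]; trivial
    exact hb
  have hL : ∀ x : FreeGroup (BGrp D ⧸ CB D),
      (SemidirectProduct.inl x : GGrp D) ∈ K := by
    intro x
    induction x using FreeGroup.induction_on with
    | C1 => rw [map_one]; exact K.one_mem
    | of q =>
      induction q using QuotientGroup.induction_on with
      | H b =>
        have h1 : (FreeGroup.of (QuotientGroup.mk b : BGrp D ⧸ CB D)) = actB D b (yF D) := by
          show _ = FreeGroup.freeGroupCongr (MulAction.toPerm b) (yF D)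
          unfold yF
          rw [FreeGroup.freeGroupCongr_apply, FreeGroup.map.of]
          congr 1
          show _ = b • (QuotientGroup.mk (1 : BGrp D) : BGrp D ⧸ CB D)
          rw [MulAction.Quotient.smul_mk]
          simp
        rw [h1, SemidirectProduct.inl_aut]
        exact K.mul_mem (K.mul_mem (hB b) hy) (hB b⁻¹)
    | inv_of q ih => rw [map_inv]; exact K.inv_mem ih
    | mul a b ha hb => rw [map_mul]; exact K.mul_mem ha hb
  rw [eq_top_iff]
  intro g _
  rw [← SemidirectProduct.inl_left_mul_inr_right g]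
  exact K.mul_mem (hL _) (hB _)

/-- (G1a) `Γ` is generated by the finite set `u_j`, `y`. -/
theorem grp_fg' : Group.FG (GGrp D) := by
  rw [Group.fg_iff]
  refine ⟨{yG D} ∪ Set.range (fun j => iB D (uB D j)), ?_, ?_⟩
  · exact subgroupG_eq_top D _ (Subgroup.subset_closure (Or.inl rfl))
      (fun j => Subgroup.subset_closure (Or.inr ⟨j, rfl⟩))
  · exact (Set.finite_singleton _).union (Set.finite_range _)

/-- (G1c) -/
theorem grp_u_zero' : (polyG D).u 0 = 1 := by
  show iB D (uB D 0) = 1
  rw [uB_zero, map_one]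

theorem iB_mem_AG {c : BGrp D} (hc : c ∈ CB D) : iB D c ∈ AG D := by
  refine ⟨?_, ?_⟩
  · show (SemidirectProduct.inr c : GGrp D).left ∈ _
    rw [SemidirectProduct.left_inr]
    exact one_mem _
  · show (SemidirectProduct.inr c : GGrp D).right ∈ _
    rw [SemidirectProduct.right_inr]
    exact hc

theorem sB_mem (j : ZMod D) : sB D j ∈ CB D := Subgroup.subset_closure ⟨j, rfl⟩

/-- (G1d) -/
theorem grp_u_succ' (j : ZMod D) :
    (polyG D).u (j + 1) * ((polyG D).z * (polyG D).u j)⁻¹ ∈ (polyG D).A := by
  show iB D (uB D (j + 1)) * (iB D (zB D) * iB D (uB D j))⁻¹ ∈ AG D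
  have : iB D (uB D (j + 1)) * (iB D (zB D) * iB D (uB D j))⁻¹ = iB D (sB D j) := by
    unfold sB
    rw [map_mul, map_mul, map_inv, map_inv, mul_inv_rev, mul_assoc]
  rw [this]
  exact iB_mem_AG D (sB_mem D j)

theorem yG_mem : yG D ∈ AG D := by
  refine ⟨?_, ?_⟩
  · show (SemidirectProduct.inl (yF D) : GGrp D).left ∈ _
    rw [SemidirectProduct.left_inl]
    exact Subgroup.mem_zpowers _
  · show (SemidirectProduct.inl (yF D) : GGrp D).right ∈ _
    rw [SemidirectProduct.right_inl]
    exact one_mem _

/-- (G1b) `C ∪ ⟨y⟩ ⊆ A` and `z` generate. -/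
theorem grp_gen' : Subgroup.closure (((polyG D).A : Set (GGrp D)) ∪ {(polyG D).z}) = ⊤ := by
  apply subgroupG_eq_top
  · exact Subgroup.subset_closure (Or.inl (yG_mem D))
  · have key : ∀ n : ℕ, iB D (uB D (n : ZMod D)) ∈
        Subgroup.closure (((polyG D).A : Set (GGrp D)) ∪ {(polyG D).z}) := by
      intro n
      induction n with
      | zero => rw [Nat.cast_zero, uB_zero, map_one]; exact one_mem _
      | succ n ih =>
        have h1 : iB D (uB D ((n + 1 : ℕ) : ZMod D)) =
            iB D (sB D (n : ZMod D)) * iB D (zB D) * iB D (uB D (n : ZMod D)) := by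
          rw [← map_mul, ← map_mul]
          congr 1
          unfold sB
          rw [Nat.cast_succ]
          group
        rw [h1]
        refine mul_mem (mul_mem ?_ ?_) ih
        · exact Subgroup.subset_closure (Or.inl (iB_mem_AG D (sB_mem D _)))
        · exact Subgroup.subset_closure (Or.inr rfl)
    intro j
    have := key (ZMod.val j)
    rwa [ZMod.natCast_zmod_val] at this

theorem corner_injB (hD : 2 ≤ D) : Function.Injective (fun j : ZMod D => uB D (j + 1) * (uB D j)⁻¹) := by
  intro j k hjk
  by_contra hne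
  have hone : (1 : ZMod D) ≠ 0 := by
    have : Fact (1 < D) := ⟨by omega⟩
    exact one_ne_zero
  -- the potential
  let g : ZMod D → ℤ := fun i => if i = j + 1 then 1 else 0
  let a : ZMod D → Multiplicative ℤ := fun i => Multiplicative.ofAdd (g i - g 0)
  have ha : a 0 = 1 := by simp [a]
  have h1 := congrArg (liftB D a) hjk
  simp only [map_mul, map_inv, liftB_uB D a ha] at h1
  have h2 : (g (j + 1) - g 0) - (g j - g 0) = (g (k + 1) - g 0) - (g k - g 0) := by
    have := congrArg Multiplicative.toAdd h1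
    simpa [a, sub_eq_add_neg] using this
  have h3 : g (j + 1) = 1 := by simp [g]
  have h4 : g j = 0 := by
    have : j ≠ j + 1 := fun h => hone (by simpa using h.symm)
    simp [g, this]
  have h5 : g (k + 1) = 0 := by
    have : k + 1 ≠ j + 1 := fun h => hne (add_right_cancel h).symm
    simp only [g, if_neg this]
  have h6 : 0 ≤ g k := by
    simp only [g]; split_ifs <;> norm_num
  omega

/-- (G1e) -/
theorem grp_corner_inj' (hD : 4 ≤ D) :
    Function.Injective (fun j : ZMod D => (polyG D).u (j + 1) * ((polyG D).u j)⁻¹) := by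
  intro j k hjk
  apply corner_injB D (by omega)
  have h1 : iB D (uB D (j + 1) * (uB D j)⁻¹) = iB D (uB D (k + 1) * (uB D k)⁻¹) := by
    rw [map_mul, map_mul, map_inv, map_inv]; exact hjk
  exact SemidirectProduct.inr_injective h1

/-- (G1f) `z ∉ C`. -/
theorem zB_not_mem' (hD : 4 ≤ D) : zB D ∉ CB D := by
  intro h
  let a : ZMod D → Multiplicative (ZMod D) := fun i => Multiplicative.ofAdd i
  have ha : a 0 = 1 := rfl
  have hk : CB D ≤ (liftB D a).ker := by
    unfold CB
    rw [Subgroup.closure_le]
    rintro _ ⟨j, rfl⟩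
    show liftB D a (sB D j) = 1
    unfold sB zB
    rw [map_mul, map_mul, map_inv, map_inv, liftB_uB D a ha, liftB_uB D a ha, liftB_uB D a ha]
    show Multiplicative.ofAdd ((j + 1) + -j + -1) = 1
    have : (j + 1) + -j + -1 = 0 := by ring
    rw [this]; rfl
  have h1 : liftB D a (zB D) = 1 := hk h
  unfold zB at h1
  rw [liftB_uB D a ha] at h1
  have hone : (1 : ZMod D) ≠ 0 := by
    have : Fact (1 < D) := ⟨by omega⟩
    exact one_ne_zero
  exact hone h1

theorem yG_pow_ne (n : ℕ) (hn : n ≠ 0) : (yG D) ^ n ≠ 1 := by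
  intro h
  have h1 : (SemidirectProduct.inl ((yF D) ^ n) : GGrp D) = SemidirectProduct.inl 1 := by
    rw [map_pow, map_one]; exact h
  have h2 := SemidirectProduct.inl_injective h1
  let f : FreeGroup (BGrp D ⧸ CB D) →* Multiplicative ℤ :=
    FreeGroup.lift (fun _ : BGrp D ⧸ CB D => Multiplicative.ofAdd (1 : ℤ))
  have h3 := congrArg f h2
  have hf : f (yF D) = Multiplicative.ofAdd (1 : ℤ) := by
    simp only [f, yF, FreeGroup.lift_apply_of]
  rw [map_pow f, map_one f, hf] at h3
  have h4 : n • (1 : ℤ) = 0 := congrArg Multiplicative.toAdd h3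
  have h5 : (n : ℤ) = 0 := by
    rw [nsmul_eq_mul, mul_one] at h4
    exact h4
  exact hn (by exact_mod_cast h5)

theorem yG_comm {c : BGrp D} (hc : c ∈ CB D) : Commute (yG D) (iB D c) := by
  have h1 : (SemidirectProduct.inl (actB D c (yF D)) : GGrp D) =
      iB D c * yG D * (iB D c)⁻¹ := by
    rw [SemidirectProduct.inl_aut, ← map_inv]; rfl
  rw [actB_yF D hc] at h1
  show yG D * iB D c = iB D c * yG D
  have h2 : yG D = iB D c * yG D * (iB D c)⁻¹ := h1
  calc yG D * iB D c = (iB D c * yG D * (iB D c)⁻¹) * iB D c := by rw [← h2]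
    _ = iB D c * yG D := by group

instance : Countable (BGrp D) :=
  Quot.mk_surjective.countable (f := Quot.mk (FreeGroup.Red.Step (α := Fin (D - 1))))

instance : Countable (BGrp D ⧸ CB D) :=
  (QuotientGroup.mk_surjective (s := CB D)).countable

instance : Countable (FreeGroup (BGrp D ⧸ CB D)) :=
  Quot.mk_surjective.countable (f := Quot.mk (FreeGroup.Red.Step (α := BGrp D ⧸ CB D)))

instance : Countable (GGrp D) :=
  Function.Injective.countable (f := fun g : GGrp D => (g.left, g.right))
    (fun _ _ h => SemidirectProduct.ext (congrArg Prod.fst h) (congrArg Prod.snd h))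

/-- **Cheap actions of `Γ`.** -/
theorem grp_cheap (hD : 4 ≤ D) (M : ℕ) (hM : 100 < M) :
    ∃ (Y : Type) (_ : MeasurableSpace Y) (_ : StandardBorelSpace Y) (ν : MeasureTheory.Measure Y)
      (_ : MeasureTheory.IsProbabilityMeasure ν) (_ : MulAction (GGrp D) Y),
      Crest.Dynamics.IsFreePMPAction (GGrp D) Y ν ∧
      Crest.Dynamics.actionCost (GGrp D) Y ν ≤ 1 + 99 / (M : ENNReal) := by
  let a : ZMod D → Multiplicative ℤ := fun i => Multiplicative.ofAdd ((ZMod.val i : ℕ) : ℤ)
  have ha : a 0 = 1 := by simp [a]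
  refine Crest.Agent.FPC.exists_cheap (GGrp D) D (by omega) (yG D)
    (fun n => iB D (uB D (n : ZMod D))) ?_ ?_ ?_ (yG_pow_ne D) ?_
    ((liftB D a).comp SemidirectProduct.rightHom) ?_ M hM
  · simp [uB_zero]
  · simp [uB_zero]
  · apply subgroupG_eq_top
    · exact Subgroup.subset_closure (Or.inl rfl)
    · intro j
      refine Subgroup.subset_closure (Or.inr ⟨ZMod.val j, (ZMod.val_lt j).le, ?_⟩)
      simp
  · intro j _
    have h1 : iB D (uB D ((j + 1 : ℕ) : ZMod D)) * (iB D (uB D (j : ZMod D)))⁻¹ *
        (iB D (uB D ((1 : ℕ) : ZMod D)))⁻¹ = iB D (sB D (j : ZMod D)) := by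
      unfold sB zB
      rw [map_mul, map_mul, map_inv, map_inv, Nat.cast_succ, Nat.cast_one]
    rw [h1]
    exact yG_comm D (sB_mem D _)
  · intro j hj
    show liftB D a (SemidirectProduct.rightHom (iB D (uB D (j : ZMod D)))) = _
    have h1 : SemidirectProduct.rightHom (iB D (uB D (j : ZMod D))) = uB D (j : ZMod D) := by
      show (SemidirectProduct.inr (uB D (j : ZMod D)) : GGrp D).right = _
      rw [SemidirectProduct.right_inr]
    rw [h1, liftB_uB D a ha]
    show Multiplicative.ofAdd ((ZMod.val (j : ZMod D) : ℕ) : ℤ) = _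
    rw [ZMod.val_natCast_of_lt hj]

end Crest.Agent.FP
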