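import Mathlib

/-!
Spectral inequality for the Bernoulli action of a free group (module SM of S0291).
-/

set_option autoImplicit false

open MeasureTheory
open scoped ENNReal BigOperators

namespace Crest.Agent.S0291SM

/-! ### The `ℓ²` bound on the free group -/

/-- the generator `j` (if `b = true`) or its inverse (if `b = false`) -/
def lett {k : ℕ} (j : Fin k) (b : Bool) : FreeGroup (Fin k) := FreeGroup.mk [(j, b)]

lemma lett_inv {k : ℕ} (j : Fin k) (b : Bool) : (lett j b)⁻¹ = lett j (!b) := by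
  simp [lett, FreeGroup.inv_mk, FreeGroup.invRev]

lemma lett_true {k : ℕ} (j : Fin k) : lett j true = FreeGroup.of j := rfl

lemma toWord_lett_mul {k : ℕ} (j : Fin k) (b : Bool) (η : FreeGroup (Fin k)) :
    (lett j b * η).toWord = FreeGroup.reduce ((j, b) :: η.toWord) := by
  have : (lett j b).toWord = [(j, b)] := by
    simp [lett, FreeGroup.toWord_mk]
  rw [FreeGroup.toWord_mul, this]; rfl

/-- if the word of `η` does not start with the inverse letter of `(j,b)`, then the word of
`lett j b * η` starts with `(j,b)` -/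
lemma head_lett_mul {k : ℕ} (j : Fin k) (b : Bool) (η : FreeGroup (Fin k))
    (h : η.toWord.head? ≠ some (j, !b)) : (lett j b * η).toWord.head? = some (j, b) := by
  rw [toWord_lett_mul, FreeGroup.reduce.cons, FreeGroup.reduce_toWord]
  rcases hη : η.toWord with _ | ⟨⟨i, c⟩, L⟩
  · simp
  · rw [hη] at h
    simp only [List.head?_cons, ne_eq, Option.some.injEq, Prod.mk.injEq] at h
    have : ¬ (j = i ∧ b = !c) := by
      rintro ⟨rfl, rfl⟩
      exact h ⟨rfl, by simp⟩
    simp [this]

/-- squared `ℓ²` norm -/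
noncomputable def sq2 {k : ℕ} (Ψ : FreeGroup (Fin k) → ℝ) : ℝ≥0∞ :=
  ∑' γ, ENNReal.ofReal (Ψ γ ^ 2)

lemma sq2_shift {k : ℕ} (Ψ : FreeGroup (Fin k) → ℝ) (a : FreeGroup (Fin k)) :
    ∑' γ, ENNReal.ofReal (Ψ (a * γ) ^ 2) = sq2 Ψ :=
  (Equiv.mulLeft a).tsum_eq (fun γ => ENNReal.ofReal (Ψ γ ^ 2))

lemma sq2_step {k : ℕ} (Ψ : FreeGroup (Fin k) → ℝ) (b : Bool) :
    sq2 (fun γ => ∑ j, Ψ (lett j b * γ)) ≤ (4 * k : ℝ≥0∞) * sq2 Ψ := by
  classical
  -- pointwise bound
  have hpt : ∀ γ : FreeGroup (Fin k), ENNReal.ofReal ((∑ j, Ψ (lett j b * γ)) ^ 2) ≤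
      2 * ∑ j, ENNReal.ofReal (Ψ (lett j b * γ) ^ 2) +
      2 * k * ∑ j, (if γ.toWord.head? = some (j, !b) then 0 else
        ENNReal.ofReal (Ψ (lett j b * γ) ^ 2)) := by
    intro γ
    set A := (Finset.univ : Finset (Fin k)).filter (fun j => γ.toWord.head? = some (j, !b)) with hA
    set B := (Finset.univ : Finset (Fin k)).filter (fun j => ¬ γ.toWord.head? = some (j, !b)) with hB
    have hsplit : (∑ j, Ψ (lett j b * γ)) = (∑ j ∈ A, Ψ (lett j b * γ)) + ∑ j ∈ B, Ψ (lett j b * γ) :=
      (Finset.sum_filter_add_sum_filter_not _ _ _).symm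
    have hAc : A.card ≤ 1 := by
      refine Finset.card_le_one.2 ?_
      intro i hi j hj
      simp only [hA, Finset.mem_filter, Finset.mem_univ, true_and] at hi hj
      rw [hi] at hj
      simpa using hj
    have hBc : B.card ≤ k := (Finset.card_le_univ B).trans (by simp)
    have h1 : (∑ j ∈ A, Ψ (lett j b * γ)) ^ 2 ≤ ∑ j, Ψ (lett j b * γ) ^ 2 := by
      refine sq_sum_le_card_mul_sum_sq.trans ?_
      have hs : ∑ j ∈ A, Ψ (lett j b * γ) ^ 2 ≤ ∑ j, Ψ (lett j b * γ) ^ 2 :=
        Finset.sum_le_univ_sum_of_nonneg (fun j => sq_nonneg _)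
      have h0 : 0 ≤ ∑ j ∈ A, Ψ (lett j b * γ) ^ 2 := Finset.sum_nonneg (fun j _ => sq_nonneg _)
      have : (A.card : ℝ) ≤ 1 := by exact_mod_cast hAc
      calc (A.card : ℝ) * ∑ j ∈ A, Ψ (lett j b * γ) ^ 2 ≤ 1 * ∑ j ∈ A, Ψ (lett j b * γ) ^ 2 :=
            mul_le_mul_of_nonneg_right this h0
        _ ≤ _ := by rw [one_mul]; exact hs
    have h2 : (∑ j ∈ B, Ψ (lett j b * γ)) ^ 2 ≤ k * ∑ j, (if γ.toWord.head? = some (j, !b) then 0 else
        Ψ (lett j b * γ) ^ 2) := by
      refine sq_sum_le_card_mul_sum_sq.trans ?_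
      have hs : ∑ j ∈ B, Ψ (lett j b * γ) ^ 2 = ∑ j, (if γ.toWord.head? = some (j, !b) then 0 else
        Ψ (lett j b * γ) ^ 2) := by
        rw [hB, Finset.sum_filter]
        refine Finset.sum_congr rfl (fun j _ => ?_)
        by_cases hj : γ.toWord.head? = some (j, !b) <;> simp [hj]
      rw [hs]
      refine mul_le_mul_of_nonneg_right (by exact_mod_cast hBc) ?_
      refine Finset.sum_nonneg (fun j _ => ?_)
      split_ifs
      · exact le_rfl
      · exact sq_nonneg _
    have h3 : (∑ j, Ψ (lett j b * γ)) ^ 2 ≤ 2 * ∑ j, Ψ (lett j b * γ) ^ 2 +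
        2 * k * ∑ j, (if γ.toWord.head? = some (j, !b) then 0 else Ψ (lett j b * γ) ^ 2) := by
      rw [hsplit]
      nlinarith [sq_nonneg ((∑ j ∈ A, Ψ (lett j b * γ)) - ∑ j ∈ B, Ψ (lett j b * γ))]
    refine (ENNReal.ofReal_le_ofReal h3).trans ?_
    have hnn : 0 ≤ ∑ j, Ψ (lett j b * γ) ^ 2 := Finset.sum_nonneg (fun j _ => sq_nonneg _)
    have hnn2 : 0 ≤ ∑ j, (if γ.toWord.head? = some (j, !b) then 0 else Ψ (lett j b * γ) ^ 2) := by
      refine Finset.sum_nonneg (fun j _ => ?_)
      split_ifs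
      · exact le_rfl
      · exact sq_nonneg _
    rw [ENNReal.ofReal_add (by positivity) (by positivity), ENNReal.ofReal_mul (by norm_num),
      ENNReal.ofReal_mul (by positivity), ENNReal.ofReal_mul (by norm_num),
      ENNReal.ofReal_sum_of_nonneg (fun j _ => sq_nonneg _),
      ENNReal.ofReal_sum_of_nonneg (fun j _ => by split_ifs; exacts [le_rfl, sq_nonneg _])]
    have e2 : ENNReal.ofReal 2 = 2 := by norm_num
    have ek : ENNReal.ofReal (k : ℝ) = (k : ℝ≥0∞) := ENNReal.ofReal_natCast k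
    rw [e2, ek]
    refine le_of_eq ?_
    congr 2
    refine Finset.sum_congr rfl (fun j _ => ?_)
    split_ifs <;> simp
  calc sq2 (fun γ => ∑ j, Ψ (lett j b * γ))
      ≤ ∑' γ : FreeGroup (Fin k), (2 * ∑ j, ENNReal.ofReal (Ψ (lett j b * γ) ^ 2) +
      2 * k * ∑ j, (if γ.toWord.head? = some (j, !b) then 0 else
        ENNReal.ofReal (Ψ (lett j b * γ) ^ 2))) := ENNReal.tsum_le_tsum hpt
    _ = 2 * ∑ j : Fin k, ∑' γ : FreeGroup (Fin k), ENNReal.ofReal (Ψ (lett j b * γ) ^ 2) +
      2 * k * ∑ j : Fin k, ∑' γ : FreeGroup (Fin k), (if γ.toWord.head? = some (j, !b) then 0 else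
        ENNReal.ofReal (Ψ (lett j b * γ) ^ 2)) := by
        rw [ENNReal.tsum_add, ENNReal.tsum_mul_left, ENNReal.tsum_mul_left]
        congr 2
        · exact Summable.tsum_finsetSum (fun _ _ => ENNReal.summable)
        · exact Summable.tsum_finsetSum (fun _ _ => ENNReal.summable)
    _ ≤ 2 * (k * sq2 Ψ) + 2 * k * sq2 Ψ := by
        gcongr
        · simp only [sq2_shift]
          simp
        · -- unique head
          have hz : ∀ j : Fin k, ∑' γ : FreeGroup (Fin k), (if γ.toWord.head? = some (j, !b) then 0 else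
              ENNReal.ofReal (Ψ (lett j b * γ) ^ 2)) ≤
              ∑' ζ : FreeGroup (Fin k), (if ζ.toWord.head? = some (j, b) then
                ENNReal.ofReal (Ψ ζ ^ 2) else 0) := by
            intro j
            rw [← (Equiv.mulLeft (lett j b)).tsum_eq (fun ζ : FreeGroup (Fin k) =>
              (if ζ.toWord.head? = some (j, b) then ENNReal.ofReal (Ψ ζ ^ 2) else 0))]
            refine ENNReal.tsum_le_tsum (fun γ => ?_)
            by_cases hg : γ.toWord.head? = some (j, !b)
            · simp [hg]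
            · have := head_lett_mul j b γ hg
              simp [hg, this]
          refine (Finset.sum_le_sum (fun j _ => hz j)).trans ?_
          rw [← Summable.tsum_finsetSum (fun _ _ => ENNReal.summable)]
          refine ENNReal.tsum_le_tsum (fun ζ => ?_)
          rcases hh : ζ.toWord.head? with _ | ⟨i, c⟩
          · simp
          · have : ∀ j : Fin k, (if some (i, c) = some (j, b) then ENNReal.ofReal (Ψ ζ ^ 2) else 0)
                ≤ (if j = i then ENNReal.ofReal (Ψ ζ ^ 2) else 0) := by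
              intro j
              by_cases hj : j = i
              · subst hj
                rw [if_pos rfl]
                split_ifs
                · exact le_rfl
                · exact zero_le
              · have : ¬ (some (i, c) = some (j, b)) := by
                  intro h; simp only [Option.some.injEq, Prod.mk.injEq] at h; exact hj h.1.symm
                rw [if_neg this, if_neg hj]
            refine (Finset.sum_le_sum (fun j _ => this j)).trans ?_
            simp
    _ = (4 * k : ℝ≥0∞) * sq2 Ψ := by ring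

/-! ### The abstract spectral bound -/

section Abstract

set_option linter.unusedSectionVars false

variable {X : Type*} [MeasurableSpace X] {μ : Measure X} [IsProbabilityMeasure μ] {k : ℕ}
  (T : FreeGroup (Fin k) → X → X)

/-- the operator `f ↦ ∑ j f ∘ T (lett j b)` -/
noncomputable def opA (b : Bool) (f : X → ℝ) : X → ℝ := fun x => ∑ j, f (T (lett j b) x)

/-- bounded measurable functions -/
def BM (f : X → ℝ) : Prop := Measurable f ∧ ∃ C : ℝ, ∀ x, |f x| ≤ C

lemma BM.mul {f g : X → ℝ} (hf : BM f) (hg : BM g) : BM (fun x => f x * g x) := by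
  obtain ⟨hf1, C, hC⟩ := hf
  obtain ⟨hg1, D, hD⟩ := hg
  refine ⟨hf1.mul hg1, C * D, fun x => ?_⟩
  rw [abs_mul]
  exact mul_le_mul (hC x) (hD x) (abs_nonneg _) ((abs_nonneg _).trans (hC x))

lemma BM.integrable {f : X → ℝ} (hf : BM f) : Integrable f μ := by
  obtain ⟨hf1, C, hC⟩ := hf
  exact Integrable.of_bound hf1.aestronglyMeasurable C (Filter.Eventually.of_forall hC)

lemma BM.comp {f : X → ℝ} (hf : BM f) {S : X → X} (hS : Measurable S) : BM (fun x => f (S x)) := by
  obtain ⟨hf1, C, hC⟩ := hf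
  exact ⟨hf1.comp hS, C, fun x => hC _⟩

lemma BM.sum {ι : Type*} (s : Finset ι) {f : ι → X → ℝ} (hf : ∀ i ∈ s, BM (f i)) :
    BM (fun x => ∑ i ∈ s, f i x) := by
  classical
  induction s using Finset.induction_on with
  | empty => exact ⟨by simp, 0, by simp⟩
  | insert a s ha ih =>
    obtain ⟨h1, C, hC⟩ := ih (fun i hi => hf i (Finset.mem_insert_of_mem hi))
    obtain ⟨h2, D, hD⟩ := hf a (Finset.mem_insert_self _ _)
    simp only [Finset.sum_insert ha]
    refine ⟨h2.add h1, D + C, fun x => (abs_add_le _ _).trans (add_le_add (hD x) (hC x))⟩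

variable (h1 : ∀ x, T 1 x = x) (hmul : ∀ a b x, T (a * b) x = T a (T b x))
  (hmp : ∀ a, MeasurePreserving (T a) μ μ)

include hmp in
lemma BM.opA {f : X → ℝ} (hf : BM f) (b : Bool) : BM (opA T b f) := by
  refine BM.sum _ (fun j _ => hf.comp (hmp _).measurable)

include h1 hmul hmp in
/-- shift of variables -/
lemma integral_shift {f g : X → ℝ} (hf : BM f) (hg : BM g) (a : FreeGroup (Fin k)) :
    ∫ x, f (T a x) * g x ∂μ = ∫ x, f x * g (T a⁻¹ x) ∂μ := by
  have hinv : ∀ x, T a⁻¹ (T a x) = x := fun x => by rw [← hmul, inv_mul_cancel, h1]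
  have e : ∀ x, f (T a x) * g x = (fun y => f y * g (T a⁻¹ y)) (T a x) := by
    intro x; simp only [hinv]
  simp_rw [e]
  have hm : AEStronglyMeasurable (fun y => f y * g (T a⁻¹ y)) μ :=
    ((hf.1).mul (hg.1.comp (hmp _).measurable)).aestronglyMeasurable
  have := integral_map (μ := μ) (φ := T a) (hmp a).measurable.aemeasurable
    (f := fun y => f y * g (T a⁻¹ y)) (by rw [(hmp a).map_eq]; exact hm)
  rw [(hmp a).map_eq] at this
  exact this.symm

/-- matrix coefficients -/
noncomputable def coef (μ : Measure X) (g f : X → ℝ) (γ : FreeGroup (Fin k)) : ℝ :=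
  ∫ x, g x * f (T γ⁻¹ x) ∂μ

include h1 hmul hmp in
lemma coef_step {f g : X → ℝ} (hf : BM f) (hg : BM g) (b : Bool) :
    coef T μ (opA T b g) f = fun γ => ∑ j, coef T μ g f (lett j b * γ) := by
  funext γ
  have hfγ : BM (fun x => f (T γ⁻¹ x)) := hf.comp (hmp _).measurable
  have : ∀ x, opA T b g x * f (T γ⁻¹ x) = ∑ j, g (T (lett j b) x) * f (T γ⁻¹ x) := by
    intro x; simp [opA, Finset.sum_mul]
  unfold coef
  simp_rw [this]
  rw [integral_finsetSum _ (fun j _ => ((hg.comp (hmp _).measurable).mul hfγ).integrable)]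
  refine Finset.sum_congr rfl (fun j _ => ?_)
  rw [integral_shift T h1 hmul hmp hg hfγ]
  congr 1
  funext x
  rw [mul_inv_rev, hmul]

include h1 hmul hmp in
lemma integral_opA {f g : X → ℝ} (hf : BM f) (hg : BM g) (b : Bool) :
    ∫ x, opA T b f x * g x ∂μ = ∫ x, f x * opA T (!b) g x ∂μ := by
  have e1 : ∀ x, opA T b f x * g x = ∑ j, f (T (lett j b) x) * g x := by
    intro x; simp [opA, Finset.sum_mul]
  have e2 : ∀ x, f x * opA T (!b) g x = ∑ j, f x * g (T (lett j b)⁻¹ x) := by
    intro x; simp [opA, Finset.mul_sum, lett_inv]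
  simp_rw [e1, e2]
  rw [integral_finsetSum _ (fun j _ => ((hf.comp (hmp _).measurable).mul hg).integrable),
    integral_finsetSum _ (fun j _ => (hf.mul (hg.comp (hmp _).measurable)).integrable)]
  exact Finset.sum_congr rfl (fun j _ => integral_shift T h1 hmul hmp hf hg _)

/-- `(A* A)^n f` -/
noncomputable def itA (n : ℕ) (f : X → ℝ) : X → ℝ := (fun g => opA T false (opA T true g))^[n] f

include hmp in
lemma BM.itA {f : X → ℝ} (hf : BM f) (n : ℕ) : BM (itA T n f) := by
  induction n with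
  | zero => exact hf
  | succ n ih =>
    have : S0291SM.itA T (n+1) f = S0291SM.opA T false (S0291SM.opA T true (S0291SM.itA T n f)) := by
      simp only [S0291SM.itA, Function.iterate_succ_apply']
    rw [this]
    exact BM.opA T hmp (BM.opA T hmp ih true) false

lemma itA_succ (n : ℕ) (f : X → ℝ) : itA T (n+1) f = opA T false (opA T true (itA T n f)) := by
  simp only [itA, Function.iterate_succ_apply']

include h1 hmul hmp in
lemma itA_symm {f g : X → ℝ} (hf : BM f) (hg : BM g) (n : ℕ) :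
    ∫ x, itA T n f x * g x ∂μ = ∫ x, f x * itA T n g x ∂μ := by
  induction n generalizing f g with
  | zero => rfl
  | succ n ih =>
    have e : itA T (n+1) g = itA T n (opA T false (opA T true g)) := by
      simp only [itA, Function.iterate_succ_apply]
    rw [itA_succ, e]
    have hi := BM.itA T hmp hf n
    rw [integral_opA T h1 hmul hmp (BM.opA T hmp hi true) hg false,
      integral_opA T h1 hmul hmp hi (BM.opA T hmp hg _) true]
    exact ih hf (BM.opA T hmp (BM.opA T hmp hg _) _)

include h1 hmul hmp in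
lemma sq2_coef_itA {f : X → ℝ} (hf : BM f) (n : ℕ) :
    sq2 (coef T μ (itA T n f) f) ≤ ((4 * k : ℝ≥0∞)^2)^n * sq2 (coef T μ f f) := by
  induction n with
  | zero => simp [itA]
  | succ n ih =>
    have hi := BM.itA T hmp hf n
    rw [itA_succ, coef_step T h1 hmul hmp hf (BM.opA T hmp hi true)]
    refine (sq2_step _ _).trans ?_
    rw [coef_step T h1 hmul hmp hf hi]
    calc (4 * k : ℝ≥0∞) * sq2 (fun γ => ∑ j, coef T μ (itA T n f) f (lett j true * γ))
        ≤ (4 * k : ℝ≥0∞) * ((4 * k : ℝ≥0∞) * sq2 (coef T μ (itA T n f) f)) := by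
          gcongr; exact sq2_step _ _
      _ ≤ (4 * k : ℝ≥0∞) * ((4 * k : ℝ≥0∞) * (((4 * k : ℝ≥0∞)^2)^n * sq2 (coef T μ f f))) := by
          gcongr
      _ = _ := by ring

/-- Cauchy–Schwarz for bounded measurable functions -/
lemma cs {f g : X → ℝ} (hf : BM f) (hg : BM g) :
    (∫ x, f x * g x ∂μ) ^ 2 ≤ (∫ x, f x ^ 2 ∂μ) * ∫ x, g x ^ 2 ∂μ := by
  have hff : Integrable (fun x => f x ^ 2) μ := by
    have := (hf.mul hf).integrable (μ := μ); simpa [sq] using this
  have hgg : Integrable (fun x => g x ^ 2) μ := by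
    have := (hg.mul hg).integrable (μ := μ); simpa [sq] using this
  have hfg : Integrable (fun x => f x * g x) μ := (hf.mul hg).integrable
  set a := ∫ x, f x ^ 2 ∂μ
  set b := ∫ x, f x * g x ∂μ
  set c := ∫ x, g x ^ 2 ∂μ
  have key : ∀ t : ℝ, 0 ≤ c * (t * t) + (2 * b) * t + a := by
    intro t
    have : c * (t * t) + (2 * b) * t + a = ∫ x, (f x + t * g x) ^ 2 ∂μ := by
      have e : ∀ x, (f x + t * g x) ^ 2 = f x ^ 2 + (2 * t) * (f x * g x) + (t * t) * g x ^ 2 := by
        intro x; ring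
      simp_rw [e]
      have hi1 : Integrable (fun x => f x ^ 2 + (2 * t) * (f x * g x)) μ :=
        hff.add (hfg.const_mul (2 * t))
      have hi2 : Integrable (fun x => (t * t) * g x ^ 2) μ := hgg.const_mul (t * t)
      have hi3 : Integrable (fun x => (2 * t) * (f x * g x)) μ := hfg.const_mul (2 * t)
      have s1 : ∫ x, (f x ^ 2 + (2 * t) * (f x * g x) + (t * t) * g x ^ 2) ∂μ =
          ∫ x, (f x ^ 2 + (2 * t) * (f x * g x)) ∂μ + ∫ x, (t * t) * g x ^ 2 ∂μ :=
        integral_add hi1 hi2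
      have s2 : ∫ x, (f x ^ 2 + (2 * t) * (f x * g x)) ∂μ =
          ∫ x, f x ^ 2 ∂μ + ∫ x, (2 * t) * (f x * g x) ∂μ := integral_add hff hi3
      rw [s1, s2, integral_const_mul, integral_const_mul]
      ring
    rw [this]
    exact integral_nonneg (fun x => sq_nonneg _)
  have := discrim_le_zero key
  unfold discrim at this
  nlinarith

include h1 hmul hmp in
/-- The abstract spectral bound: if the matrix coefficient of `f` has finite support then
`‖A f‖² ≤ 4 k ‖f‖²`. -/
theorem norm_opA_le {f : X → ℝ} (hf : BM f)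
    (hfin : {γ : FreeGroup (Fin k) | ∫ x, f x * f (T γ⁻¹ x) ∂μ ≠ 0}.Finite) :
    ∫ x, (opA T true f x) ^ 2 ∂μ ≤ 4 * k * ∫ x, f x ^ 2 ∂μ := by
  set b : ℕ → ℝ := fun n => ∫ x, f x * itA T n f x ∂μ with hb
  have hb0 : b 0 = ∫ x, f x ^ 2 ∂μ := by simp [hb, itA, sq]
  have hb1 : b 1 = ∫ x, (opA T true f x) ^ 2 ∂μ := by
    have : itA T 1 f = opA T false (opA T true f) := by simp [itA]
    simp only [hb, this]
    have := integral_opA T h1 hmul hmp hf (BM.opA T hmp hf true) true
    simp only [Bool.not_true] at this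
    rw [← this]
    simp [sq]
  have hb2 : ∀ n, b (2 * n) = ∫ x, (itA T n f x) ^ 2 ∂μ := by
    intro n
    have e : itA T (2 * n) f = itA T n (itA T n f) := by
      simp only [itA, ← Function.iterate_add_apply, two_mul]
    simp only [hb, e]
    rw [← itA_symm T h1 hmul hmp hf (BM.itA T hmp hf n)]
    simp [sq]
  have hb0n : 0 ≤ b 0 := by rw [hb0]; exact integral_nonneg (fun x => sq_nonneg _)
  have hb1n : 0 ≤ b 1 := by rw [hb1]; exact integral_nonneg (fun x => sq_nonneg _)
  have hcs : ∀ n, (b n) ^ 2 ≤ b 0 * b (2 * n) := by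
    intro n
    rw [hb0, hb2]
    exact cs hf (BM.itA T hmp hf n)
  -- growth bound
  have hS0 : sq2 (coef T μ f f) ≠ ⊤ := by
    have : sq2 (coef T μ f f) = ∑ γ ∈ hfin.toFinset, ENNReal.ofReal ((coef T μ f f γ) ^ 2) := by
      refine tsum_eq_sum (fun γ hγ => ?_)
      have : coef T μ f f γ = 0 := by
        by_contra h
        exact hγ (by simpa [coef] using h)
      simp [this]
    rw [this]
    exact (ENNReal.sum_lt_top.2 (fun _ _ => ENNReal.ofReal_lt_top)).ne
  set S0 : ℝ := (sq2 (coef T μ f f)).toReal with hS0d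
  have hbn : ∀ n, (b n) ^ 2 ≤ ((4 * k : ℝ) ^ n) ^ 2 * S0 := by
    intro n
    have e : b n = coef T μ (itA T n f) f 1 := by
      simp only [hb, coef, inv_one, h1]
      congr 1; funext x; ring
    have h2 : ENNReal.ofReal ((b n) ^ 2) ≤ sq2 (coef T μ (itA T n f) f) := by
      rw [e]
      exact ENNReal.le_tsum (f := fun γ => ENNReal.ofReal (coef T μ (itA T n f) f γ ^ 2)) 1
    have h3 := h2.trans (sq2_coef_itA T h1 hmul hmp hf n)
    have h4 : ((4 * k : ℝ≥0∞)^2)^n * sq2 (coef T μ f f) = ENNReal.ofReal (((4 * k : ℝ) ^ n) ^ 2 * S0) := by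
      rw [ENNReal.ofReal_mul (by positivity), hS0d, ENNReal.ofReal_toReal hS0]
      congr 1
      rw [ENNReal.ofReal_pow (by positivity), ENNReal.ofReal_pow (by positivity),
        ENNReal.ofReal_mul (by norm_num), ENNReal.ofReal_natCast]
      norm_num
      rw [← pow_mul, ← pow_mul, mul_comm 2 n]
    rw [h4] at h3
    exact (ENNReal.ofReal_le_ofReal_iff (by positivity)).1 h3
  -- iterate
  have hit : ∀ n : ℕ, (b 1) ^ (2 ^ n) ≤ (b 0) ^ (2 ^ n - 1) * b (2 ^ n) := by
    intro n
    induction n with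
    | zero => simp
    | succ n ih =>
      have hb2n : 0 ≤ b (2 ^ n) := by
        rcases Nat.eq_zero_or_pos n with rfl | hn
        · simpa using hb1n
        · obtain ⟨m, rfl⟩ : ∃ m, n = m + 1 := ⟨n - 1, by omega⟩
          rw [pow_succ, mul_comm, hb2]
          exact integral_nonneg (fun x => sq_nonneg _)
      have h5 : ((b 1) ^ (2 ^ n)) ^ 2 ≤ ((b 0) ^ (2 ^ n - 1) * b (2 ^ n)) ^ 2 :=
        pow_le_pow_left₀ (pow_nonneg hb1n _) ih 2
      calc (b 1) ^ (2 ^ (n+1)) = ((b 1) ^ (2 ^ n)) ^ 2 := by rw [← pow_mul, pow_succ]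
        _ ≤ ((b 0) ^ (2 ^ n - 1) * b (2 ^ n)) ^ 2 := h5
        _ = ((b 0) ^ (2 ^ n - 1)) ^ 2 * (b (2 ^ n)) ^ 2 := by ring
        _ ≤ ((b 0) ^ (2 ^ n - 1)) ^ 2 * (b 0 * b (2 * 2 ^ n)) :=
            mul_le_mul_of_nonneg_left (hcs _) (by positivity)
        _ = (b 0) ^ (2 ^ (n+1) - 1) * b (2 ^ (n+1)) := by
            have e1 : 2 ^ (n+1) - 1 = (2 ^ n - 1) * 2 + 1 := by
              have : 1 ≤ 2 ^ n := Nat.one_le_two_pow
              omega
            rw [e1, pow_succ (b 0), pow_mul (b 0), pow_succ 2 n, mul_comm (2 ^ n) 2, mul_assoc]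
  rw [← hb0, ← hb1]
  by_contra hcon
  push Not at hcon
  have hb1p : 0 < b 1 := lt_of_le_of_lt (by positivity) hcon
  -- b 0 > 0
  have hb0p : 0 < b 0 := by
    rcases hb0n.lt_or_eq with h | h
    · exact h
    · exfalso
      have := hcs 1
      rw [← h, zero_mul] at this
      have : (b 1) ^ 2 = 0 := le_antisymm this (sq_nonneg _)
      exact hb1p.ne' (by simpa using this)
  have hk : 0 < (4 * k : ℝ) := by
    rcases Nat.eq_zero_or_pos k with rfl | hk
    · exfalso
      have := hbn 1
      simp at this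
      have : b 1 = 0 := by nlinarith [sq_nonneg (b 1)]
      exact hb1p.ne' this
    · positivity
  set q : ℝ := b 1 / (4 * k * b 0) with hq
  have hq1 : 1 < q := by
    rw [hq, one_lt_div (by positivity)]
    exact hcon
  -- q^(2^n) bounded
  have hqb : ∀ n : ℕ, (q ^ (2 ^ n)) ^ 2 ≤ S0 / (b 0) ^ 2 := by
    intro n
    have h6 : ((b 1) ^ (2 ^ n)) ^ 2 ≤ ((b 0) ^ (2 ^ n - 1)) ^ 2 * (((4 * k : ℝ) ^ (2 ^ n)) ^ 2 * S0) := by
      calc ((b 1) ^ (2 ^ n)) ^ 2 ≤ ((b 0) ^ (2 ^ n - 1) * b (2 ^ n)) ^ 2 :=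
            pow_le_pow_left₀ (pow_nonneg hb1n _) (hit n) 2
        _ = ((b 0) ^ (2 ^ n - 1)) ^ 2 * (b (2 ^ n)) ^ 2 := by ring
        _ ≤ _ := mul_le_mul_of_nonneg_left (hbn _) (by positivity)
    have e2 : (b 0) ^ (2 ^ n) = (b 0) ^ (2 ^ n - 1) * b 0 := by
      rw [← pow_succ]; congr 1
      have : 1 ≤ 2 ^ n := Nat.one_le_two_pow
      omega
    rw [hq, div_pow, div_pow, mul_pow, mul_pow, e2, div_le_div_iff₀ (by positivity) (by positivity)]
    calc ((b 1) ^ (2 ^ n)) ^ 2 * (b 0) ^ 2
        ≤ (((b 0) ^ (2 ^ n - 1)) ^ 2 * (((4 * k : ℝ) ^ (2 ^ n)) ^ 2 * S0)) * (b 0) ^ 2 :=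
          mul_le_mul_of_nonneg_right h6 (by positivity)
      _ = _ := by ring
  have hq2 : 1 < q ^ 2 := one_lt_pow₀ hq1 (by norm_num)
  obtain ⟨n, hn⟩ := pow_unbounded_of_one_lt (S0 / (b 0) ^ 2) hq2
  have h7 : (q ^ 2) ^ n ≤ (q ^ (2 ^ n)) ^ 2 := by
    rw [← pow_mul, ← pow_mul]
    refine pow_le_pow_right₀ hq1.le ?_
    have : n ≤ 2 ^ n := Nat.lt_two_pow_self.le
    omega
  linarith [hqb n]

end Abstract

/-! ### Bernoulli actions -/

section Bernoulli

set_option linter.unusedSectionVars false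
set_option linter.deprecated false

variable {I Ω : Type*} [MeasurableSpace Ω] (ν : Measure Ω) [IsProbabilityMeasure ν] {k : ℕ}
  [MulAction (FreeGroup (Fin k)) I]

/-- the shift -/
def sh (Ω : Type*) (γ : FreeGroup (Fin k)) (x : I → Ω) : I → Ω := fun i => x (γ⁻¹ • i)

lemma sh_one (x : I → Ω) : sh Ω (1 : FreeGroup (Fin k)) x = x := by
  funext i; simp [sh]

lemma sh_mul (a b : FreeGroup (Fin k)) (x : I → Ω) : sh Ω (a * b) x = sh Ω a (sh Ω b x) := by
  funext i; simp [sh, mul_smul]

lemma sh_mp (γ : FreeGroup (Fin k)) :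
    MeasurePreserving (sh Ω γ : (I → Ω) → (I → Ω)) (Measure.infinitePi (fun _ : I => ν))
      (Measure.infinitePi (fun _ : I => ν)) := by
  refine ⟨by unfold sh; fun_prop, ?_⟩
  exact Measure.map_infinitePi_infinitePi_of_inj (P := fun _ : I => ν) (MulAction.injective γ⁻¹)

lemma coef_zero (hfree : ∀ (γ : FreeGroup (Fin k)) (i : I), γ • i = i → γ = 1)
    (f : (I → Ω) → ℝ) (W : Finset I) (F : ((i : W) → Ω) → ℝ) (hF : Measurable F)
    (hfF : ∀ x, f x = F (fun i => x i)) (h0 : ∫ x, f x ∂(Measure.infinitePi (fun _ : I => ν)) = 0) :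
    {γ : FreeGroup (Fin k) | ∫ x, f x * f (sh Ω γ⁻¹ x) ∂(Measure.infinitePi (fun _ : I => ν)) ≠ 0}.Finite := by
  classical
  set μ := Measure.infinitePi (fun _ : I => ν) with hμ
  have hsub : {γ : FreeGroup (Fin k) | ∫ x, f x * f (sh Ω γ⁻¹ x) ∂μ ≠ 0} ⊆
      ⋃ p ∈ (W ×ˢ W : Finset (I × I)), {γ : FreeGroup (Fin k) | γ • p.1 = p.2} := by
    intro γ hγ
    by_contra hcon
    simp only [Set.mem_iUnion, Set.mem_setOf_eq, not_exists] at hcon
    apply hγ
    -- disjoint windows
    set W' : Finset I := W.image (fun i => γ • i) with hW'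
    have hdisj : Disjoint W W' := by
      rw [Finset.disjoint_left]
      intro i hi hi'
      obtain ⟨j, hj, hji⟩ := Finset.mem_image.1 hi'
      exact hcon (j, i) (Finset.mk_mem_product hj hi) hji
    have hind : ProbabilityTheory.iIndepFun (fun (i : I) (x : I → Ω) => x i) μ :=
      ProbabilityTheory.iIndepFun_infinitePi (X := fun _ ω => ω) (P := fun _ : I => ν) (by fun_prop)
    have hind2 := hind.indepFun_finset W W' hdisj (by fun_prop)
    have hm : ∀ i : W, γ • (i : I) ∈ W' := fun i => Finset.mem_image_of_mem _ i.2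
    have hind3 := hind2.comp (φ := F) (ψ := fun y : ((i : W') → Ω) => F (fun i => y ⟨γ • (i : I), hm i⟩))
      hF (hF.comp (by fun_prop))
    have e1 : ∀ x, f x = (F ∘ fun (a : I → Ω) (i : W) => a i) x := by
      intro x; exact hfF x
    have e2 : ∀ x, f (sh Ω γ⁻¹ x) = ((fun y : ((i : W') → Ω) => F (fun i => y ⟨γ • (i : I), hm i⟩)) ∘
        fun (a : I → Ω) (i : W') => a i) x := by
      intro x
      rw [hfF]
      simp only [sh, Function.comp, inv_inv]
    have hfm : Measurable f := by
      have : f = F ∘ fun (a : I → Ω) (i : W) => a i := funext e1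
      rw [this]; exact hF.comp (by fun_prop)
    have e3 : ∫ x, f x * f (sh Ω γ⁻¹ x) ∂μ = (∫ x, f x ∂μ) * ∫ x, f (sh Ω γ⁻¹ x) ∂μ := by
      have h5 := hind3.integral_fun_mul_eq_mul_integral
        (by rw [← funext e1]; exact hfm.aestronglyMeasurable)
        (by rw [← funext e2]; exact (hfm.comp (sh_mp ν γ⁻¹).measurable).aestronglyMeasurable)
      simp only [← e1, ← e2] at h5
      exact h5
    rw [e3, h0, zero_mul]
  refine Set.Finite.subset ?_ hsub
  refine Set.Finite.biUnion (Finset.finite_toSet _) (fun p _ => ?_)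
  refine Set.Subsingleton.finite ?_
  intro a ha b hb
  simp only [Set.mem_setOf_eq] at ha hb
  have : (b⁻¹ * a) • p.1 = p.1 := by rw [mul_smul, ha, ← hb, inv_smul_smul]
  have := hfree _ _ this
  exact (inv_mul_eq_one.1 this).symm

/-- Spectral inequality, cylinder version. -/
lemma spectral_cyl (hfree : ∀ (γ : FreeGroup (Fin k)) (i : I), γ • i = i → γ = 1)
    (S T : Set (I → Ω)) (hS : MeasurableSet S) (hT : T ∈ measurableCylinders (fun _ : I => Ω)) :
    ∑ j : Fin k, (Measure.infinitePi (fun _ : I => ν)).real (S ∩ {x | sh Ω (lett j true) x ∈ T}) ≤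
      2 * √k * √((Measure.infinitePi (fun _ : I => ν)).real S *
        (Measure.infinitePi (fun _ : I => ν)).real T) +
      k * ((Measure.infinitePi (fun _ : I => ν)).real S *
        (Measure.infinitePi (fun _ : I => ν)).real T) := by
  classical
  set μ := Measure.infinitePi (fun _ : I => ν) with hμ
  obtain ⟨W, S0, hS0, hTW⟩ := (mem_measurableCylinders _).1 hT
  have hTm : MeasurableSet T := by rw [hTW]; exact hS0.cylinder _
  set t := μ.real T with ht
  set s := μ.real S with hs
  have ht0 : 0 ≤ t := measureReal_nonneg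
  have ht1 : t ≤ 1 := measureReal_le_one
  have hs0 : 0 ≤ s := measureReal_nonneg
  set f : (I → Ω) → ℝ := fun x => T.indicator (fun _ => (1:ℝ)) x - t with hf
  set F : ((i : W) → Ω) → ℝ := fun y => S0.indicator (fun _ => (1:ℝ)) y - t with hFdef
  have hF : Measurable F := (measurable_const.indicator hS0).sub_const _
  have hfF : ∀ x, f x = F (fun i => x i) := by
    intro x
    simp only [hf, hFdef, hTW]
    congr 1
  have hTi : Integrable (T.indicator (fun _ => (1:ℝ))) μ :=
    (integrable_const _).indicator hTm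
  have hint : ∫ x, T.indicator (fun _ => (1:ℝ)) x ∂μ = t := by
    rw [integral_indicator hTm, setIntegral_const]; simp [ht]
  have h0 : ∫ x, f x ∂μ = 0 := by
    simp only [hf]
    rw [integral_sub hTi (integrable_const _), hint]
    simp
  have hfBM : BM f := by
    refine ⟨(measurable_const.indicator hTm).sub_const _, 2, fun x => ?_⟩
    simp only [hf]
    by_cases hx : x ∈ T
    · rw [Set.indicator_of_mem hx, abs_le]; constructor <;> linarith
    · rw [Set.indicator_of_notMem hx, abs_le]; constructor <;> linarith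
  have hgBM : BM (S.indicator (fun _ => (1:ℝ))) := by
    refine ⟨measurable_const.indicator hS, 1, fun x => ?_⟩
    by_cases hx : x ∈ S
    · rw [Set.indicator_of_mem hx]; simp
    · rw [Set.indicator_of_notMem hx]; simp
  have hfin := coef_zero ν hfree f W F hF hfF h0
  have hspec := norm_opA_le (μ := μ) (sh Ω) sh_one sh_mul (sh_mp ν) hfBM hfin
  have hf2 : ∫ x, f x ^ 2 ∂μ = t - t ^ 2 := by
    have e : ∀ x, f x ^ 2 = T.indicator (fun _ => (1:ℝ)) x * (1 - 2 * t) + t ^ 2 := by
      intro x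
      simp only [hf]
      by_cases hx : x ∈ T
      · rw [Set.indicator_of_mem hx]; ring
      · rw [Set.indicator_of_notMem hx]; ring
    simp_rw [e]
    rw [integral_add (hTi.mul_const _) (integrable_const _), integral_mul_const, hint]
    simp; ring
  -- LHS as integral
  have hL : ∑ j : Fin k, μ.real (S ∩ {x | sh Ω (lett j true) x ∈ T}) =
      ∫ x, S.indicator (fun _ => (1:ℝ)) x * opA (k := k) (sh Ω) true f x ∂μ + k * (s * t) := by
    have e : ∀ x, S.indicator (fun _ => (1:ℝ)) x * opA (k := k) (sh Ω) true f x =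
        ∑ j : Fin k, ((S ∩ {x | sh Ω (lett j true) x ∈ T}).indicator (fun _ => (1:ℝ)) x -
          t * S.indicator (fun _ => (1:ℝ)) x) := by
      intro x
      simp only [opA, hf, Finset.mul_sum]
      refine Finset.sum_congr rfl (fun j _ => ?_)
      by_cases hx : x ∈ S
      · by_cases hx2 : sh Ω (lett j true) x ∈ T
        · rw [Set.indicator_of_mem hx, Set.indicator_of_mem hx2,
            Set.indicator_of_mem (show x ∈ S ∩ {x | sh Ω (lett j true) x ∈ T} from ⟨hx, hx2⟩)]
          ring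
        · rw [Set.indicator_of_mem hx, Set.indicator_of_notMem hx2,
            Set.indicator_of_notMem (show x ∉ S ∩ {x | sh Ω (lett j true) x ∈ T} from
              fun h => hx2 h.2)]
          ring
      · rw [Set.indicator_of_notMem hx,
            Set.indicator_of_notMem (show x ∉ S ∩ {x | sh Ω (lett j true) x ∈ T} from
              fun h => hx h.1)]
        ring
    simp_rw [e]
    have hmj : ∀ j : Fin k, MeasurableSet (S ∩ {x | sh Ω (lett j true) x ∈ T}) := fun j =>
      hS.inter ((sh_mp ν (lett j true)).measurable hTm)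
    have hSi : Integrable (S.indicator (fun _ => (1:ℝ))) μ := (integrable_const _).indicator hS
    rw [integral_finsetSum]
    · have : ∀ j : Fin k, ∫ x, ((S ∩ {x | sh Ω (lett j true) x ∈ T}).indicator (fun _ => (1:ℝ)) x -
          t * S.indicator (fun _ => (1:ℝ)) x) ∂μ = μ.real (S ∩ {x | sh Ω (lett j true) x ∈ T}) - t * s := by
        intro j
        rw [integral_sub ((integrable_const _).indicator (hmj j)) (hSi.const_mul _),
          integral_const_mul, integral_indicator (hmj j), integral_indicator hS, setIntegral_const,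
          setIntegral_const]
        simp [hs]
      simp_rw [this]
      rw [Finset.sum_sub_distrib]
      simp
      ring
    · intro j _
      exact ((integrable_const _).indicator (hmj j)).sub (hSi.const_mul _)
  rw [hL]
  have hcs := cs (μ := μ) hgBM (BM.opA (k := k) (sh Ω) (sh_mp ν) hfBM true)
  have hg2 : ∫ x, (S.indicator (fun _ => (1:ℝ)) x) ^ 2 ∂μ = s := by
    have e : ∀ x, (S.indicator (fun _ => (1:ℝ)) x) ^ 2 = S.indicator (fun _ => (1:ℝ)) x := by
      intro x
      by_cases hx : x ∈ S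
      · rw [Set.indicator_of_mem hx]; norm_num
      · rw [Set.indicator_of_notMem hx]; norm_num
    simp_rw [e]
    rw [integral_indicator hS, setIntegral_const]; simp [hs]
  rw [hg2] at hcs
  have hb : ∫ x, S.indicator (fun _ => (1:ℝ)) x * opA (k := k) (sh Ω) true f x ∂μ ≤ 2 * √k * √(s * t) := by
    have h3 : (∫ x, S.indicator (fun _ => (1:ℝ)) x * opA (k := k) (sh Ω) true f x ∂μ) ^ 2 ≤
        (2 * √k * √(s * t)) ^ 2 := by
      calc (∫ x, S.indicator (fun _ => (1:ℝ)) x * opA (k := k) (sh Ω) true f x ∂μ) ^ 2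
          ≤ s * ∫ x, (opA (k := k) (sh Ω) true f x) ^ 2 ∂μ := hcs
        _ ≤ s * (4 * k * ∫ x, f x ^ 2 ∂μ) := mul_le_mul_of_nonneg_left hspec hs0
        _ ≤ s * (4 * k * t) := by
            rw [hf2]
            gcongr
            nlinarith [sq_nonneg t]
        _ = (2 * √k * √(s * t)) ^ 2 := by
            rw [mul_pow, mul_pow, Real.sq_sqrt (by positivity), Real.sq_sqrt (by positivity)]
            ring
    exact (le_abs_self _).trans (abs_le_of_sq_le_sq h3 (by positivity))
  linarith

/-- **Spectral inequality** for Bernoulli actions of free groups. -/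
theorem spectral_bernoulli (hfree : ∀ (γ : FreeGroup (Fin k)) (i : I), γ • i = i → γ = 1)
    (S T : Set (I → Ω)) (hS : MeasurableSet S) (hT : MeasurableSet T) :
    ∑ j : Fin k, (Measure.infinitePi (fun _ : I => ν)).real
        (S ∩ {x | (fun i => x ((FreeGroup.of j)⁻¹ • i)) ∈ T}) ≤
      2 * √k * √((Measure.infinitePi (fun _ : I => ν)).real S *
        (Measure.infinitePi (fun _ : I => ν)).real T) +
      k * ((Measure.infinitePi (fun _ : I => ν)).real S *
        (Measure.infinitePi (fun _ : I => ν)).real T) := by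
  classical
  set μ := Measure.infinitePi (fun _ : I => ν) with hμ
  set s := μ.real S with hs
  set t := μ.real T with ht
  have hs0 : 0 ≤ s := measureReal_nonneg
  have ht0 : 0 ≤ t := measureReal_nonneg
  have hdense : μ.MeasureDense (measurableCylinders (fun _ : I => Ω)) :=
    Measure.MeasureDense.of_generateFrom_isSetAlgebra_finite μ isSetAlgebra_measurableCylinders
      generateFrom_measurableCylinders.symm
  have key : ∀ ε : ℝ, 0 < ε → ∑ j : Fin k, μ.real (S ∩ {x | (fun i => x ((FreeGroup.of j)⁻¹ • i)) ∈ T}) ≤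
      k * ε + (2 * √k * √(s * (t + ε)) + k * (s * (t + ε))) := by
    intro ε hε
    obtain ⟨T', hT', hTT'⟩ := hdense.approx T hT (measure_ne_top _ _) ε hε
    have hT'm := hdense.measurable T' hT'
    have hd : μ.real (symmDiff T T') < ε := by
      rw [measureReal_def]
      exact (ENNReal.toReal_lt_of_lt_ofReal hTT')
    have h1 := spectral_cyl ν hfree S T' hS hT'
    have ht' : μ.real T' ≤ t + ε := by
      have : μ.real T' ≤ μ.real (T ∪ symmDiff T T') := by
        refine measureReal_mono ?_ (measure_ne_top _ _)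
        intro x hx
        by_cases hxT : x ∈ T
        · exact Or.inl hxT
        · exact Or.inr (Or.inr ⟨hx, hxT⟩)
      have h2 := measureReal_union_le (μ := μ) T (symmDiff T T')
      linarith
    have h3 : ∀ j : Fin k, μ.real (S ∩ {x | (fun i => x ((FreeGroup.of j)⁻¹ • i)) ∈ T}) ≤
        μ.real (S ∩ {x | sh Ω (lett j true) x ∈ T'}) + ε := by
      intro j
      have hsub : S ∩ {x | (fun i => x ((FreeGroup.of j)⁻¹ • i)) ∈ T} ⊆
          (S ∩ {x | sh Ω (lett j true) x ∈ T'}) ∪ (sh Ω (lett j true)) ⁻¹' (symmDiff T T') := by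
        rintro x ⟨hxS, hxT⟩
        by_cases hx : sh Ω (lett j true) x ∈ T'
        · exact Or.inl ⟨hxS, hx⟩
        · exact Or.inr (Or.inl ⟨hxT, hx⟩)
      have h4 : μ.real ((sh Ω (lett j true)) ⁻¹' (symmDiff T T')) = μ.real (symmDiff T T') :=
        (sh_mp ν (lett j true)).measureReal_preimage
          ((hT.symmDiff hT'm).nullMeasurableSet)
      have h5 := measureReal_mono (μ := μ) hsub (measure_ne_top _ _)
      have h6 := measureReal_union_le (μ := μ) (S ∩ {x | sh Ω (lett j true) x ∈ T'})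
        ((sh Ω (lett j true)) ⁻¹' (symmDiff T T'))
      linarith
    calc ∑ j : Fin k, μ.real (S ∩ {x | (fun i => x ((FreeGroup.of j)⁻¹ • i)) ∈ T})
        ≤ ∑ j : Fin k, (μ.real (S ∩ {x | sh Ω (lett j true) x ∈ T'}) + ε) :=
          Finset.sum_le_sum (fun j _ => h3 j)
      _ = ∑ j : Fin k, μ.real (S ∩ {x | sh Ω (lett j true) x ∈ T'}) + k * ε := by
          rw [Finset.sum_add_distrib]; simp
      _ ≤ (2 * √k * √(s * μ.real T') + k * (s * μ.real T')) + k * ε := by gcongr
      _ ≤ (2 * √k * √(s * (t + ε)) + k * (s * (t + ε))) + k * ε := by gcongr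
      _ = _ := by ring
  have hcont : Filter.Tendsto (fun ε : ℝ => k * ε + (2 * √k * √(s * (t + ε)) + k * (s * (t + ε))))
      (nhdsWithin 0 (Set.Ioi 0)) (nhds (k * 0 + (2 * √k * √(s * (t + 0)) + k * (s * (t + 0))))) := by
    refine Filter.Tendsto.mono_left ?_ nhdsWithin_le_nhds
    have : Continuous (fun ε : ℝ => k * ε + (2 * √k * √(s * (t + ε)) + k * (s * (t + ε)))) := by
      fun_prop
    exact this.tendsto 0
  have hfinal := ge_of_tendsto hcont (Filter.eventually_of_mem self_mem_nhdsWithin (fun ε hε => key ε hε))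
  simpa using hfinal

end Bernoulli

/-! ### Groups containing a free group -/

section Group

variable {Γ Ω : Type*} [Group Γ] [MeasurableSpace Ω] (ν : Measure Ω) [IsProbabilityMeasure ν]
  {k : ℕ}

/-- Spectral inequality for the Bernoulli shift `(g • w) h = w (g⁻¹ * h)` of a group `Γ`
containing a free group on `u 1, …, u k`. -/
theorem spectral_group (φ : FreeGroup (Fin k) →* Γ) (hφ : Function.Injective φ)
    (S T : Set (Γ → Ω)) (hS : MeasurableSet S) (hT : MeasurableSet T) :
    ∑ j : Fin k, (Measure.infinitePi (fun _ : Γ => ν)).real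
        (S ∩ {w | (fun h => w ((φ (FreeGroup.of j))⁻¹ * h)) ∈ T}) ≤
      2 * √k * √((Measure.infinitePi (fun _ : Γ => ν)).real S *
        (Measure.infinitePi (fun _ : Γ => ν)).real T) +
      k * ((Measure.infinitePi (fun _ : Γ => ν)).real S *
        (Measure.infinitePi (fun _ : Γ => ν)).real T) := by
  letI : MulAction (FreeGroup (Fin k)) Γ := MulAction.compHom Γ φ
  have hsm : ∀ (γ : FreeGroup (Fin k)) (h : Γ), γ • h = φ γ * h := fun γ h => rfl
  have hfree : ∀ (γ : FreeGroup (Fin k)) (i : Γ), γ • i = i → γ = 1 := by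
    intro γ i h
    rw [hsm] at h
    have h1 : φ γ = 1 := by simpa using h
    exact hφ (by rw [h1, map_one])
  have := spectral_bernoulli ν hfree S T hS hT
  simpa only [hsm, map_inv] using this

/-- Version with the extra element `u 0 = 1`. -/
theorem spectral_group_one (φ : FreeGroup (Fin k) →* Γ) (hφ : Function.Injective φ)
    (S T : Set (Γ → Ω)) (hS : MeasurableSet S) (hT : MeasurableSet T) :
    (Measure.infinitePi (fun _ : Γ => ν)).real (S ∩ T) +
    ∑ j : Fin k, (Measure.infinitePi (fun _ : Γ => ν)).real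
        (S ∩ {w | (fun h => w ((φ (FreeGroup.of j))⁻¹ * h)) ∈ T}) ≤
      (1 + 2 * √k) * √((Measure.infinitePi (fun _ : Γ => ν)).real S *
        (Measure.infinitePi (fun _ : Γ => ν)).real T) +
      k * ((Measure.infinitePi (fun _ : Γ => ν)).real S *
        (Measure.infinitePi (fun _ : Γ => ν)).real T) := by
  have h := spectral_group ν φ hφ S T hS hT
  set μ := Measure.infinitePi (fun _ : Γ => ν) with hμ
  have h1 : μ.real (S ∩ T) ≤ √(μ.real S * μ.real T) := by
    apply Real.le_sqrt_of_sq_le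
    have ha : μ.real (S ∩ T) ≤ μ.real S := measureReal_mono Set.inter_subset_left (measure_ne_top _ _)
    have hb : μ.real (S ∩ T) ≤ μ.real T := measureReal_mono Set.inter_subset_right (measure_ne_top _ _)
    have hc : 0 ≤ μ.real (S ∩ T) := measureReal_nonneg
    rw [sq]
    exact mul_le_mul ha hb hc (hc.trans ha)
  linarith

end Group

end Crest.Agent.S0291SM
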