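import Mathlib
import Crest.Agent.FP_GrpDefs
import Crest.Agent.FP_G1
import Crest.Agent.FP_Cheap
import Crest.Agent.S0291_SM

/-!
# Task FP-B (helper3): the Bernoulli action is a good action

`X` = the set of `w : Γ → [0,1]` with values in `[0,1)`, injective, such that every `y`-orbit of
`Γ • w` contains points with arbitrarily small value at `1`; product Lebesgue measure,
`(g • w) h = w (g⁻¹ h)`, `f w = w 1`.
-/

set_option autoImplicit false

open MeasureTheory
open scoped ENNReal

namespace Crest.Agent.FP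

open Crest.Agent.FPC

section Bern

variable (D : ℕ) [NeZero D]

/-- the good set -/
def GS : Set (Bern (GGrp D)) :=
  {w | (∀ h, ((w h : unitInterval) : ℝ) < 1) ∧ (∀ a b, a ≠ b → w a ≠ w b) ∧
    ∀ (g : GGrp D) (n : ℕ), ∃ k : ℕ, ((((yG D) ^ k • (g • w)) 1 : unitInterval) : ℝ) < 1 / (n + 1)}

theorem GS_smul {w : Bern (GGrp D)} (hw : w ∈ GS D) (g : GGrp D) : g • w ∈ GS D := by
  obtain ⟨h1, h2, h3⟩ := hw
  refine ⟨fun h => h1 _, fun a b hab => h2 _ _ (fun h => hab (mul_left_cancel h)), fun g' n => ?_⟩
  have := h3 (g' * g) n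
  simpa [mul_smul] using this

theorem GS_smul_iff {w : Bern (GGrp D)} (g : GGrp D) : g • w ∈ GS D ↔ w ∈ GS D := by
  refine ⟨fun h => ?_, fun h => GS_smul D h g⟩
  have := GS_smul D h g⁻¹
  rwa [inv_smul_smul] at this

theorem GS_meas : MeasurableSet (GS D) := by
  have e : GS D = (⋂ h, {w : Bern (GGrp D) | ((w h : unitInterval) : ℝ) < 1}) ∩
      (⋂ a, ⋂ b, {w : Bern (GGrp D) | a ≠ b → w a ≠ w b}) ∩
      (⋂ g : GGrp D, ⋂ n : ℕ, ⋃ k : ℕ, {w : Bern (GGrp D) |
        ((((yG D) ^ k • (g • w)) 1 : unitInterval) : ℝ) < 1 / (n + 1)}) := by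
    ext w
    simp only [GS, Set.mem_ofPred_eq, Set.mem_inter_iff, Set.mem_iInter, Set.mem_iUnion]
    tauto
  rw [e]
  refine ((MeasurableSet.iInter fun h => ?_).inter
    (MeasurableSet.iInter fun a => MeasurableSet.iInter fun b => ?_)).inter
    (MeasurableSet.iInter fun g => MeasurableSet.iInter fun n => MeasurableSet.iUnion fun k => ?_)
  · exact measurableSet_lt (measurable_subtype_coe.comp (measurable_eval h)) measurable_const
  · by_cases hab : a = b
    · simp [hab]
    · have : {w : Bern (GGrp D) | a ≠ b → w a ≠ w b} = {w : Bern (GGrp D) | w a = w b}ᶜ := by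
        ext w; simp [hab]
      rw [this]
      exact (measurableSet_eq_fun (measurable_eval a) (measurable_eval b)).compl
  · refine measurableSet_lt (measurable_subtype_coe.comp ?_) measurable_const
    exact (measurable_eval 1).comp ((measurePreserving_smul ((yG D) ^ k)).measurable.comp
      (measurePreserving_smul g).measurable)

theorem GS_compl : bernMeasure (GGrp D) (GS D)ᶜ = 0 := by
  have hsub : (GS D)ᶜ ⊆ (⋃ h, {w : Bern (GGrp D) | ¬ ((w h : unitInterval) : ℝ) < 1}) ∪
      (⋃ a, ⋃ b, {w : Bern (GGrp D) | a ≠ b ∧ w a = w b}) ∪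
      (⋃ g : GGrp D, ⋃ n : ℕ, {w : Bern (GGrp D) | ∀ k : ℕ,
        ¬ ((((yG D) ^ k • (g • w)) 1 : unitInterval) : ℝ) < 1 / (n + 1)}) := by
    intro w hw
    by_contra hcon
    apply hw
    simp only [Set.mem_union, Set.mem_iUnion, Set.mem_ofPred_eq, not_or, not_exists, not_and,
      not_forall, not_not] at hcon
    exact ⟨hcon.1.1, fun a b hab h => hcon.1.2 a b hab h, fun g n => hcon.2 g n⟩
  refine measure_mono_null hsub ?_
  refine measure_union_null (measure_union_null ?_ ?_) ?_
  · refine measure_iUnion_null fun h => ?_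
    have h1 := Measure.infinitePi_map_eval (μ := fun _ : GGrp D => (volume : Measure unitInterval)) h
    have hm : MeasurableSet {x : unitInterval | ¬ (x : ℝ) < 1} :=
      (measurableSet_lt measurable_subtype_coe measurable_const).compl
    have h2 : bernMeasure (GGrp D) {w | ¬ ((w h : unitInterval) : ℝ) < 1} =
        (volume : Measure unitInterval) {x | ¬ (x : ℝ) < 1} := by
      conv_rhs => rw [← h1, Measure.map_apply (measurable_pi_apply h) hm]
      rfl
    rw [h2]
    have h3 : {x : unitInterval | ¬ (x : ℝ) < 1} = {1} := by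
      ext x
      simp only [Set.mem_ofPred_eq, not_lt, Set.mem_singleton_iff]
      constructor
      · intro hx; exact Subtype.ext (le_antisymm x.2.2 hx)
      · intro hx; rw [hx]; simp
    rw [h3]
    simp
  · refine measure_iUnion_null fun a => measure_iUnion_null fun b => ?_
    by_cases hab : a = b
    · simp [hab]
    · simp only [ne_eq, hab, not_false_iff, true_and]
      exact diag_null a b hab
  · refine measure_iUnion_null fun g => measure_iUnion_null fun n => ?_
    have h1 := section_null (yG D) (yG_pow_ne D) (1 / ((n : ℝ) + 1)) (by positivity)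
      (by rw [div_le_one (by positivity)]; linarith [n.cast_nonneg (α := ℝ)])
    have hm : MeasurableSet {w : Bern (GGrp D) | ∀ k : ℕ,
        ¬ ((((yG D) ^ k • w) 1 : unitInterval) : ℝ) < 1 / ((n : ℝ) + 1)} := by
      have : {w : Bern (GGrp D) | ∀ k : ℕ,
        ¬ ((((yG D) ^ k • w) 1 : unitInterval) : ℝ) < 1 / ((n : ℝ) + 1)} = ⋂ k : ℕ,
        {w : Bern (GGrp D) | ((((yG D) ^ k • w) 1 : unitInterval) : ℝ) < 1 / ((n : ℝ) + 1)}ᶜ := by
        ext w; simp
      rw [this]
      refine MeasurableSet.iInter fun k => (measurableSet_lt (measurable_subtype_coe.comp ?_)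
        measurable_const).compl
      exact (measurable_eval 1).comp (measurePreserving_smul ((yG D) ^ k)).measurable
    have h2 := (measurePreserving_smul (Γ := GGrp D) g).measure_preimage hm.nullMeasurableSet
    rw [h1] at h2
    exact h2

/-- the space -/
abbrev XG : Type := ↥(GS D)

instance instXGstd : StandardBorelSpace (XG D) := (GS_meas D).standardBorel

/-- the measure -/
noncomputable def muG : Measure (XG D) := (bernMeasure (GGrp D)).comap Subtype.val

theorem bernEmb : MeasurableEmbedding (Subtype.val : XG D → Bern (GGrp D)) :=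
  MeasurableEmbedding.subtype_coe (GS_meas D)

theorem muG_apply (S : Set (XG D)) : muG D S = bernMeasure (GGrp D) (Subtype.val '' S) :=
  (bernEmb D).comap_apply _ _

theorem bern_GS : bernMeasure (GGrp D) (GS D) = 1 := by
  have h := prob_compl_eq_zero_iff (μ := bernMeasure (GGrp D)) (GS_meas D)
  exact h.1 (GS_compl D)

instance : IsProbabilityMeasure (muG D) := by
  constructor
  rw [muG_apply, Set.image_univ]
  have : Set.range (Subtype.val : XG D → Bern (GGrp D)) = GS D := Subtype.range_val
  rw [this, bern_GS]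

instance : MulAction (GGrp D) (XG D) where
  smul g x := ⟨g • x.1, GS_smul D x.2 g⟩
  one_smul _ := Subtype.ext (one_smul _ _)
  mul_smul _ _ _ := Subtype.ext (mul_smul _ _ _)

theorem coe_smul (g : GGrp D) (x : XG D) : (g • x).1 = g • x.1 := rfl

theorem image_inter (S T : Set (XG D)) (g : GGrp D) :
    (Subtype.val '' (S ∩ {x | g • x ∈ T}) : Set (Bern (GGrp D))) =
      (Subtype.val '' S) ∩ {w | g • w ∈ (Subtype.val '' T : Set (Bern (GGrp D)))} := by
  ext w
  constructor
  · rintro ⟨x, ⟨hx1, hx2⟩, rfl⟩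
    exact ⟨⟨x, hx1, rfl⟩, ⟨g • x, hx2, rfl⟩⟩
  · rintro ⟨⟨x, hx1, rfl⟩, ⟨y, hy, hxy⟩⟩
    refine ⟨x, ⟨hx1, ?_⟩, rfl⟩
    have : y = g • x := Subtype.ext hxy
    show g • x ∈ T
    rw [← this]
    exact hy

theorem mpG (g : GGrp D) : MeasurePreserving (fun x : XG D => g • x) (muG D) (muG D) := by
  have hm : Measurable (fun x : XG D => g • x) := by
    refine Measurable.subtype_mk ?_
    exact (measurePreserving_smul g).measurable.comp measurable_subtype_coe
  refine ⟨hm, ?_⟩
  ext S hS
  rw [Measure.map_apply hm hS, muG_apply, muG_apply]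
  have h1 := image_inter D Set.univ S g
  rw [Set.univ_inter] at h1
  have h2 : (fun x : XG D => g • x) ⁻¹' S = {x | g • x ∈ S} := rfl
  rw [h2, h1, Set.image_univ]
  have h3 : Set.range (Subtype.val : XG D → Bern (GGrp D)) = GS D := Subtype.range_val
  rw [h3]
  have h4 : GS D ∩ {w | g • w ∈ (Subtype.val '' S : Set (Bern (GGrp D)))} =
      (fun w : Bern (GGrp D) => g • w) ⁻¹' (Subtype.val '' S) := by
    ext w
    refine ⟨fun h => h.2, fun h => ⟨?_, h⟩⟩
    obtain ⟨y, _, hxy⟩ := h
    rw [← GS_smul_iff D g]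
    have : g • w = y.1 := hxy.symm
    rw [this]
    exact y.2
  rw [h4]
  exact (measurePreserving_smul g).measure_preimage
    ((bernEmb D).measurableSet_image.2 hS).nullMeasurableSet

end Bern

theorem exists_good_action (D : ℕ) [NeZero D] (hD : 4 ≤ D) :
    ∃ (X : Type) (_ : MeasurableSpace X) (_ : StandardBorelSpace X) (μ : Measure X)
      (_ : IsProbabilityMeasure μ) (_ : MulAction (GGrp D) X) (f : X → ℝ),
      IsGoodAction (polyG D) X μ f := by
  refine ⟨XG D, inferInstance, inferInstance, muG D, inferInstance, inferInstance,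
    fun x => ((x.1 1 : unitInterval) : ℝ), ?_⟩
  refine ⟨?_, mpG D, ?_, ?_, ?_, ?_, ?_, ?_⟩
  · intro g x hx
    by_contra hg
    have h1 : (g • x).1 1 = x.1 1 := by rw [hx]
    rw [coe_smul, FPC.smul_apply, mul_one] at h1
    exact x.2.2.1 _ _ (by simpa using hg) h1
  · exact measurable_subtype_coe.comp ((measurable_eval 1).comp measurable_subtype_coe)
  · intro x
    exact ⟨(x.1 1).2.1, x.2.1 1⟩
  · intro g x hx
    have h1 : (g • x).1 1 = x.1 1 := Subtype.ext hx
    rw [coe_smul, FPC.smul_apply, mul_one] at h1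
    have hg : g = 1 := by
      by_contra hg
      exact x.2.2.1 _ _ (by simpa using hg) h1
    rw [hg, one_smul]
  · intro t ht
    rw [muG_apply]
    have h1 : (Subtype.val '' {x : XG D | ((x.1 1 : unitInterval) : ℝ) < t} : Set (Bern (GGrp D))) =
        {w | ((w 1 : unitInterval) : ℝ) < t} ∩ GS D := by
      ext w
      constructor
      · rintro ⟨x, hx, rfl⟩
        exact ⟨hx, x.2⟩
      · rintro ⟨hw, hw2⟩
        exact ⟨⟨w, hw2⟩, hw, rfl⟩
    rw [h1]
    have h2 : bernMeasure (GGrp D) ({w | ((w 1 : unitInterval) : ℝ) < t} ∩ GS D) =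
        bernMeasure (GGrp D) {w | ((w 1 : unitInterval) : ℝ) < t} := by
      exact measure_inter_conull (GS_compl D)
    rw [h2]
    rcases ht.1.lt_or_eq with h0 | h0
    · exact small_set t h0 ht.2
    · rw [← h0]
      have : {w : Bern (GGrp D) | ((w 1 : unitInterval) : ℝ) < 0} = ∅ := by
        ext w
        simp only [Set.mem_ofPred_eq, Set.mem_empty_iff_false, iff_false, not_lt]
        exact (w 1).2.1
      rw [this]
      simp
  · intro t ht x
    obtain ⟨n, hn⟩ := exists_nat_one_div_lt ht
    obtain ⟨k, hk⟩ := x.2.2.2 1 n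
    refine ⟨(yG D) ^ k, (polyG D).A.pow_mem (yG_mem D) k, ?_⟩
    rw [one_smul] at hk
    exact hk.trans hn
  · intro S T hS hT
    obtain ⟨d, rfl⟩ : ∃ d, D = d + 1 := ⟨D - 1, by omega⟩
    have hS' : MeasurableSet (Subtype.val '' S : Set (Bern (GGrp (d + 1)))) :=
      (bernEmb (d + 1)).measurableSet_image.2 hS
    have hT' : MeasurableSet (Subtype.val '' T : Set (Bern (GGrp (d + 1)))) :=
      (bernEmb (d + 1)).measurableSet_image.2 hT
    have hinj : Function.Injective (iB (d + 1)) := SemidirectProduct.inr_injective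
    have key := S0291SM.spectral_group_one (volume : Measure unitInterval) (k := d) (iB (d + 1)) hinj
      _ _ hS' hT'
    have hconv : ∀ g : GGrp (d + 1), (muG (d + 1) (S ∩ {x | g • x ∈ T})).toReal =
        (Measure.infinitePi (fun _ : GGrp (d + 1) => (volume : Measure unitInterval))).real
          ((Subtype.val '' S : Set (Bern (GGrp (d + 1)))) ∩
            {w | (fun h => w (g⁻¹ * h)) ∈ (Subtype.val '' T : Set (Bern (GGrp (d + 1))))}) := by
      intro g
      rw [muG_apply, image_inter]
      rfl
    have hS2 : (muG (d + 1) S).toReal =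
        (Measure.infinitePi (fun _ : GGrp (d + 1) => (volume : Measure unitInterval))).real
          (Subtype.val '' S : Set (Bern (GGrp (d + 1)))) := by
      rw [muG_apply]; rfl
    have hT2 : (muG (d + 1) T).toReal =
        (Measure.infinitePi (fun _ : GGrp (d + 1) => (volume : Measure unitInterval))).real
          (Subtype.val '' T : Set (Bern (GGrp (d + 1)))) := by
      rw [muG_apply]; rfl
    rw [hS2, hT2]
    set s := (Measure.infinitePi (fun _ : GGrp (d + 1) => (volume : Measure unitInterval))).real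
          (Subtype.val '' S : Set (Bern (GGrp (d + 1)))) with hs
    set t := (Measure.infinitePi (fun _ : GGrp (d + 1) => (volume : Measure unitInterval))).real
          (Subtype.val '' T : Set (Bern (GGrp (d + 1)))) with ht
    have hs0 : 0 ≤ s := measureReal_nonneg
    have ht0 : 0 ≤ t := measureReal_nonneg
    have hsum : ∑ j : ZMod (d + 1), (muG (d + 1) (S ∩ {x | (polyG (d + 1)).u j • x ∈ T})).toReal =
        (Measure.infinitePi (fun _ : GGrp (d + 1) => (volume : Measure unitInterval))).real
          ((Subtype.val '' S : Set (Bern (GGrp (d + 1)))) ∩ (Subtype.val '' T)) +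
        ∑ j : Fin d, (Measure.infinitePi (fun _ : GGrp (d + 1) => (volume : Measure unitInterval))).real
          ((Subtype.val '' S : Set (Bern (GGrp (d + 1)))) ∩
            {w | (fun h => w ((iB (d + 1) (FreeGroup.of j))⁻¹ * h)) ∈
              (Subtype.val '' T : Set (Bern (GGrp (d + 1))))}) := by
      have e1 : ∑ j : ZMod (d + 1), (muG (d + 1) (S ∩ {x | (polyG (d + 1)).u j • x ∈ T})).toReal =
          ∑ j : Fin (d + 1), (muG (d + 1) (S ∩ {x | iB (d + 1) (uB (d + 1) (show ZMod (d + 1) from j)) • x ∈ T})).toReal := rfl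
      rw [e1, Fin.sum_univ_succ]
      congr 1
      · rw [hconv]
        have : uB (d + 1) (show ZMod (d + 1) from (0 : Fin (d + 1))) = 1 := uB_zero (d + 1)
        rw [this, map_one]
        simp only [inv_one, one_mul]
        rfl
      · refine Finset.sum_congr rfl (fun j _ => ?_)
        rw [hconv]
        have : uB (d + 1) (show ZMod (d + 1) from j.succ) = FreeGroup.of j := by
          unfold uB
          have hv : ZMod.val (show ZMod (d + 1) from j.succ) = (j : ℕ) + 1 := rfl
          rw [dif_neg (by rw [hv]; omega)]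
          congr 1
        rw [this]
    rw [hsum]
    refine key.trans ?_
    have hsq : Real.sqrt (d : ℝ) ≤ Real.sqrt ((d + 1 : ℕ) : ℝ) := by
      apply Real.sqrt_le_sqrt
      push_cast
      linarith
    have h1 : (1 + 2 * Real.sqrt (d : ℝ)) * Real.sqrt (s * t) ≤
        (1 + 2 * Real.sqrt ((d + 1 : ℕ) : ℝ)) * Real.sqrt (s * t) := by
      gcongr
    have h2 : (d : ℝ) * (s * t) ≤ ((d + 1 : ℕ) : ℝ) * s * t := by
      push_cast
      nlinarith [mul_nonneg hs0 ht0]
    exact add_le_add h1 h2

end Crest.Agent.FP
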