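import Mathlib
import Crest.Agent.FP_Defs

/-!
# Mass transport, measurable relations
-/

set_option autoImplicit false

open MeasureTheory
open scoped ENNReal

namespace Crest.Agent.FP

variable {Γ X : Type} [Group Γ] [MulAction Γ X]

/-- A sum over the orbit of `x`, for a free action. -/
theorem tsum_orbit {κ : Type} (hfree : ∀ (g : Γ) (x : X), g • x = x → g = 1) (x : X)
    (F : X × κ → ℝ≥0∞) (hF : ∀ q, F q ≠ 0 → ∃ g : Γ, q.1 = g • x) :
    ∑' q, F q = ∑' g : Γ, ∑' k, F (g • x, k) := by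
  classical
  let e : Γ × κ → X × κ := fun p => (p.1 • x, p.2)
  have hinj : Function.Injective e := by
    rintro ⟨g, k⟩ ⟨g', k'⟩ h
    simp only [e, Prod.mk.injEq] at h
    obtain ⟨h1, h2⟩ := h
    have : (g'⁻¹ * g) • x = x := by rw [mul_smul, h1, inv_smul_smul]
    have := hfree _ _ this
    rw [inv_mul_eq_one] at this
    simp [this, h2]
  rw [← ENNReal.tsum_prod (f := fun (g : Γ) (k : κ) => F (g • x, k))]
  symm
  exact hinj.tsum_eq (f := F) (by
    intro q hq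
    obtain ⟨g, hg⟩ := hF q hq
    exact ⟨(g, q.2), by simp [e, ← hg]⟩)

variable [MeasurableSpace X] {μ : Measure X}

theorem sint_mono {ι : Type} {f g : X × ι → ℝ≥0∞} (h : ∀ p, f p ≤ g p) :
    sint μ f ≤ sint μ g :=
  ENNReal.tsum_le_tsum fun _ => lintegral_mono fun _ => h _

theorem sint_add {ι : Type} {f g : X × ι → ℝ≥0∞} (hf : ∀ i, Measurable fun x => f (x, i)) :
    sint μ (fun p => f p + g p) = sint μ f + sint μ g := by
  unfold sint
  rw [← ENNReal.tsum_add]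
  congr 1
  ext i
  exact lintegral_add_left (hf i) _

theorem smeas_eq_sint {ι : Type} {P : Set (X × ι)} (hP : MSet P) :
    smeas μ P = sint μ (P.indicator 1) := by
  unfold smeas sint
  congr 1
  ext i
  rw [← lintegral_indicator_one (hP i)]
  rfl

theorem smeas_mono {ι : Type} {P Q : Set (X × ι)} (h : P ⊆ Q) : smeas μ P ≤ smeas μ Q :=
  ENNReal.tsum_le_tsum fun _ => measure_mono fun _ hx => h hx

/-- **Mass transport principle.** -/
theorem mtp [Countable Γ] {ι κ : Type} [Countable ι] [Countable κ]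
    (hfree : ∀ (g : Γ) (x : X), g • x = x → g = 1)
    (hmp : ∀ g : Γ, MeasurePreserving (fun x : X => g • x) μ μ)
    (F : X × ι → X × κ → ℝ≥0∞) (hF : ∀ p q, F p q ≠ 0 → ∃ g : Γ, q.1 = g • p.1)
    (hm : ∀ (g : Γ) i k, Measurable fun x => F (x, i) (g • x, k)) :
    sint μ (fun p => ∑' q, F p q) = sint μ (fun q => ∑' p, F p q) := by
  have h1 : ∀ i : ι, ∫⁻ x, ∑' q, F (x, i) q ∂μ = ∑' (g : Γ) (k : κ), ∫⁻ x, F (x, i) (g • x, k) ∂μ := by
    intro i
    have : ∀ x, ∑' q, F (x, i) q = ∑' (g : Γ) (k : κ), F (x, i) (g • x, k) := fun x =>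
      tsum_orbit hfree x (F (x, i)) (fun q hq => hF _ _ hq)
    simp_rw [this]
    rw [lintegral_tsum (fun g => (Measurable.tsum fun k => hm g i k).aemeasurable)]
    congr 1
    ext g
    rw [lintegral_tsum (fun k => (hm g i k).aemeasurable)]
  have hm' : ∀ (g : Γ) i k, Measurable fun x => F (g • x, i) (x, k) := by
    intro g i k
    have := (hm g⁻¹ i k).comp (hmp g).measurable
    simpa [Function.comp_def] using this
  have h2 : ∀ k : κ, ∫⁻ x, ∑' p, F p (x, k) ∂μ = ∑' (g : Γ) (i : ι), ∫⁻ x, F (g • x, i) (x, k) ∂μ := by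
    intro k
    have : ∀ x, ∑' p, F p (x, k) = ∑' (g : Γ) (i : ι), F (g • x, i) (x, k) := fun x =>
      tsum_orbit hfree x (fun p => F p (x, k)) (fun p hp => by
        obtain ⟨g, hg⟩ := hF _ _ hp
        refine ⟨g⁻¹, ?_⟩
        simp only at hg
        rw [hg, inv_smul_smul])
    simp_rw [this]
    rw [lintegral_tsum (fun g => (Measurable.tsum fun i => hm' g i k).aemeasurable)]
    congr 1
    ext g
    rw [lintegral_tsum (fun i => (hm' g i k).aemeasurable)]
  unfold sint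
  simp only [h1, h2]
  have h3 : ∀ (g : Γ) (i : ι) (k : κ), ∫⁻ x, F (x, i) (g • x, k) ∂μ =
      ∫⁻ x, F (g⁻¹ • x, i) (x, k) ∂μ := by
    intro g i k
    have := (hmp g).lintegral_comp (f := fun x => F (g⁻¹ • x, i) (x, k)) (hm' g⁻¹ i k)
    rw [← this]
    simp
  simp only [h3]
  have h4 : ∀ i : ι, ∑' (g : Γ) (k : κ), ∫⁻ x, F (g⁻¹ • x, i) (x, k) ∂μ =
      ∑' (g : Γ) (k : κ), ∫⁻ x, F (g • x, i) (x, k) ∂μ := fun i =>
    (Equiv.inv Γ).tsum_eq (fun g : Γ => ∑' k : κ, ∫⁻ x, F (g • x, i) (x, k) ∂μ)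
  simp only [h4]
  have h5 : ∀ i : ι, ∑' (g : Γ) (k : κ), ∫⁻ x, F (g • x, i) (x, k) ∂μ =
      ∑' (k : κ) (g : Γ), ∫⁻ x, F (g • x, i) (x, k) ∂μ := fun i => ENNReal.tsum_comm
  simp only [h5]
  rw [ENNReal.tsum_comm]
  congr 1
  ext k
  rw [ENNReal.tsum_comm]

/-! ### closure properties of measurable relations -/

section Rel

variable {ι κ τ : Type}

theorem MRel.swap (hmp : ∀ g : Γ, MeasurePreserving (fun x : X => g • x) μ μ)
    {R : X × ι → X × κ → Prop} (hR : MRel Γ R) : MRel Γ (fun q p => R p q) := by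
  refine ⟨fun p q h => ?_, fun g k i => ?_⟩
  · obtain ⟨g, hg⟩ := hR.1 _ _ h
    exact ⟨g⁻¹, by rw [hg, inv_smul_smul]⟩
  · have := (hmp g).measurable (hR.2 g⁻¹ i k)
    simpa [Set.preimage] using this

theorem MRel.or {R S : X × ι → X × κ → Prop} (hR : MRel Γ R) (hS : MRel Γ S) :
    MRel Γ (fun p q => R p q ∨ S p q) := by
  refine ⟨fun p q h => h.elim (hR.1 _ _) (hS.1 _ _), fun g i k => ?_⟩
  exact (hR.2 g i k).union (hS.2 g i k)

theorem MRel.and_left {R : X × ι → X × κ → Prop} {P : X × ι → Prop} (hR : MRel Γ R)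
    (hP : MSet {p | P p}) : MRel Γ (fun p q => R p q ∧ P p) :=
  ⟨fun _ _ h => hR.1 _ _ h.1, fun g i k => (hR.2 g i k).inter (hP i)⟩

theorem MRel.and_right (hmp : ∀ g : Γ, MeasurePreserving (fun x : X => g • x) μ μ)
    {R : X × ι → X × κ → Prop} {P : X × κ → Prop} (hR : MRel Γ R)
    (hP : MSet {p | P p}) : MRel Γ (fun p q => R p q ∧ P q) :=
  ⟨fun _ _ h => hR.1 _ _ h.1, fun g i k =>
    (hR.2 g i k).inter ((hmp g).measurable (hP k))⟩

theorem MRel.and {R S : X × ι → X × κ → Prop} (hR : MRel Γ R) (hS : MRel Γ S) :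
    MRel Γ (fun p q => R p q ∧ S p q) :=
  ⟨fun _ _ h => hR.1 _ _ h.1, fun g i k => (hR.2 g i k).inter (hS.2 g i k)⟩

theorem MRel.diff {R S : X × ι → X × κ → Prop} (hR : MRel Γ R) (hS : MRel Γ S) :
    MRel Γ (fun p q => R p q ∧ ¬ S p q) :=
  ⟨fun _ _ h => hR.1 _ _ h.1, fun g i k => (hR.2 g i k).diff (hS.2 g i k)⟩

theorem MRel.comp [Countable Γ] [Countable κ]
    (hmp : ∀ g : Γ, MeasurePreserving (fun x : X => g • x) μ μ)
    {R : X × ι → X × κ → Prop} {S : X × κ → X × τ → Prop} (hR : MRel Γ R) (hS : MRel Γ S) :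
    MRel Γ (fun p s => ∃ q, R p q ∧ S q s) := by
  refine ⟨?_, fun g i t => ?_⟩
  · rintro p s ⟨q, h1, h2⟩
    obtain ⟨g, hg⟩ := hR.1 _ _ h1
    obtain ⟨g', hg'⟩ := hS.1 _ _ h2
    exact ⟨g' * g, by rw [hg', hg, mul_smul]⟩
  · have : {x | ∃ q, R (x, i) q ∧ S q (g • x, t)} =
        ⋃ (h : Γ) (k : κ), {x | R (x, i) (h • x, k)} ∩
          (fun x => h • x) ⁻¹' {x | S (x, k) ((g * h⁻¹) • x, t)} := by
      ext x
      simp only [Set.mem_setOf_eq, Set.mem_iUnion, Set.mem_inter_iff, Set.mem_preimage]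
      constructor
      · rintro ⟨q, h1, h2⟩
        obtain ⟨h, hh⟩ := hR.1 _ _ h1
        refine ⟨h, q.2, ?_, ?_⟩
        · rw [← hh]; exact h1
        · rw [mul_smul, inv_smul_smul, ← hh]; exact h2
      · rintro ⟨h, k, h1, h2⟩
        rw [mul_smul, inv_smul_smul] at h2
        exact ⟨_, h1, h2⟩
    rw [this]
    exact MeasurableSet.iUnion fun h => MeasurableSet.iUnion fun k =>
      (hR.2 h i k).inter ((hmp h).measurable (hS.2 _ k t))

theorem MRel.iUnion {α : Type} [Countable α] {R : α → X × ι → X × κ → Prop}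
    (hR : ∀ a, MRel Γ (R a)) : MRel Γ (fun p q => ∃ a, R a p q) := by
  refine ⟨fun p q ⟨a, h⟩ => (hR a).1 _ _ h, fun g i k => ?_⟩
  have : {x | ∃ a, R a (x, i) (g • x, k)} = ⋃ a, {x | R a (x, i) (g • x, k)} := by
    ext x; simp
  rw [this]
  exact MeasurableSet.iUnion fun a => (hR a).2 g i k

/-- The domain of a measurable relation is measurable. -/
theorem MRel.dom [Countable Γ] [Countable κ] {R : X × ι → X × κ → Prop} (hR : MRel Γ R) :
    MSet {p | ∃ q, R p q} := by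
  intro i
  have : {x | (x, i) ∈ {p | ∃ q, R p q}} = ⋃ (g : Γ) (k : κ), {x | R (x, i) (g • x, k)} := by
    ext x
    simp only [Set.mem_setOf_eq, Set.mem_iUnion]
    constructor
    · rintro ⟨q, h⟩
      obtain ⟨g, hg⟩ := hR.1 _ _ h
      exact ⟨g, q.2, by rw [← hg]; exact h⟩
    · rintro ⟨g, k, h⟩
      exact ⟨_, h⟩
  rw [this]
  exact MeasurableSet.iUnion fun g => MeasurableSet.iUnion fun k => hR.2 g i k

/-- Relations between points given by a fixed group element and fixed indices are measurable. -/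
theorem MRel.graph {P : Set X} (hP : MeasurableSet P) (hfree : ∀ (g : Γ) (x : X), g • x = x → g = 1)
    (g₀ : Γ) (i₀ : ι) (k₀ : κ) :
    MRel Γ (fun p q : X × _ => p.1 ∈ P ∧ p.2 = i₀ ∧ q.1 = g₀ • p.1 ∧ q.2 = k₀) := by
  refine ⟨fun p q h => ⟨g₀, h.2.2.1⟩, fun g i k => ?_⟩
  by_cases h : i = i₀ ∧ g = g₀ ∧ k = k₀
  · obtain ⟨rfl, rfl, rfl⟩ := h
    simpa using hP
  · convert MeasurableSet.empty
    ext x
    simp only [Set.mem_setOf_eq, Set.mem_empty_iff_false, iff_false]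
    rintro ⟨_, rfl, h3, rfl⟩
    refine h ⟨rfl, ?_, rfl⟩
    have : (g₀⁻¹ * g) • x = x := by rw [mul_smul, h3, inv_smul_smul]
    exact (inv_mul_eq_one.mp (hfree _ _ this)).symm

end Rel

end Crest.Agent.FP
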