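import Mathlib
import Crest.Agent.FP_MTP

/-!
# Definitions of the operations on complexes (restriction, folding, completion at spots)
-/

set_option autoImplicit false

open MeasureTheory
open scoped ENNReal

namespace Crest.Agent.FP

variable {Γ X : Type} [Group Γ] [MulAction Γ X] {D : ℕ} [NeZero D] (G : PolyData Γ D)

/-- Rows + support in `E` + homological generation. -/
structure GenBy [MeasurableSpace X] (E : Set (X × ℕ)) (r : Pt X → Pt X → Prop)
    (F : Set (X × ℕ)) (N : Set (X × ℕ)) (s : X × ℕ → (X × ℕ →₀ ℚ)) : Prop where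
  rows : IsRows Γ N s
  supp : ∀ n ∈ N, ∀ e ∈ (s n).support, e ∈ E
  gen : Gen G E r F N s

/-! ### restriction -/

/-- The relation `r` restricted to the active points of `E'`. -/
def resR (E' : Set (X × ℕ)) (r : Pt X → Pt X → Prop) : Pt X → Pt X → Prop :=
  fun p q => r p q ∧ Act E' p ∧ Act E' q

/-- Ends of `E` whose vertex has no end of an edge of `E'`. -/
def Lost (E E' : Set (X × ℕ)) (r : Pt X → Pt X → Prop) : Set (X × (ℕ × Bool)) :=
  {q | q ∈ Ends E ∧ ∀ q' : X × (ℕ × Bool), r (q.1, some q.2) (q'.1, some q'.2) → q' ∉ Ends E'}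

/-! ### folding -/

/-- Complete folding of `r`. -/
inductive FoldRel (E : Set (X × ℕ)) (r : Pt X → Pt X → Prop) : Pt X → Pt X → Prop
  | base {p q : Pt X} : r p q → FoldRel E r p q
  | symm {p q : Pt X} : FoldRel E r p q → FoldRel E r q p
  | trans {p q s : Pt X} : FoldRel E r p q → FoldRel E r q s → FoldRel E r p s
  | fold {x : X} {i i' : ℕ} {b : Bool} : (x, i) ∈ E → (x, i') ∈ E →
      FoldRel E r (x, some (i, b)) (x, some (i', b)) →
      FoldRel E r (x, some (i, !b)) (x, some (i', !b))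

/-- The least slot over the same `z`-edge which is folded onto the given one. -/
noncomputable def rep (E : Set (X × ℕ)) (r : Pt X → Pt X → Prop) (q : X × ℕ) : ℕ :=
  sInf {i' | (q.1, i') ∈ E ∧ FoldRel E r (q.1, some (q.2, false)) (q.1, some (i', false))}

/-- `rep` on points. -/
noncomputable def repPt (E : Set (X × ℕ)) (r : Pt X → Pt X → Prop) (p : Pt X) : Pt X :=
  (p.1, p.2.map fun ib => (rep E r (p.1, ib.1), ib.2))

/-- The edges of the folded complex. -/
def foldE (E : Set (X × ℕ)) (r : Pt X → Pt X → Prop) : Set (X × ℕ) :=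
  {q | q ∈ E ∧ rep E r q = q.2}

/-- The vertex relation of the folded complex. -/
def foldR (E : Set (X × ℕ)) (r : Pt X → Pt X → Prop) : Pt X → Pt X → Prop :=
  resR (foldE E r) (FoldRel E r)

/-! ### spots and completion -/

/-- `D - 1` consecutive edges of the polygon `y` (all but the `j`-th) are present: `c k` is the index
of the `k`-th edge, `k ≠ j`. -/
def IsSpotData (E : Set (X × ℕ)) (r : Pt X → Pt X → Prop) (y : X) (j : ZMod D) (c : ZMod D → ℕ) :
    Prop :=
  (∀ k, k ≠ j → (G.u k • y, c k) ∈ E) ∧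
  ∀ k, k ≠ j → k + 1 ≠ j →
    r (G.u k • y, some (c k, true)) (G.u (k + 1) • y, some (c (k + 1), false))

/-- A spot `(y, (j, i))`: the polygon `y` lacks the edge `j`, the edge after it has index `i`. -/
def IsSpot (E : Set (X × ℕ)) (r : Pt X → Pt X → Prop) (q : X × (ZMod D × ℕ)) : Prop :=
  ∃ c : ZMod D → ℕ, c (q.2.1 + 1) = q.2.2 ∧ IsSpotData G E r q.1 q.2.1 c

open Classical in
/-- The indices of the edges at a spot. -/
noncomputable def spotC (E : Set (X × ℕ)) (r : Pt X → Pt X → Prop) (q : X × (ZMod D × ℕ)) :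
    ZMod D → ℕ :=
  if h : IsSpot G E r q then h.choose else fun _ => 0

/-- Index of the new slot at a spot (odd numbers; the old slot `(x, i)` becomes `(x, 2 i)`). -/
def newIdx (j : ZMod D) (i : ℕ) : ℕ := 2 * Nat.pair (ZMod.val j) i + 1

/-- The edges of the completed pre-complex: old edges, and for every spot `(y, (j, i))` in `S` a new
edge over the `z`-edge `u_j y`. -/
def compE (E : Set (X × ℕ)) (S : Set (X × (ZMod D × ℕ))) : Set (X × ℕ) :=
  {q | (∃ i, q.2 = 2 * i ∧ (q.1, i) ∈ E) ∨
    ∃ j i, q.2 = newIdx j i ∧ ((G.u j)⁻¹ • q.1, (j, i)) ∈ S}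

/-- The point of the old complex to which a point of the completed complex is attached: the new edge at
the spot `(y, (j, i))` goes from the terminus of the edge `j - 1` to the origin of the edge
`j + 1`. -/
noncomputable def compLift (E : Set (X × ℕ)) (r : Pt X → Pt X → Prop) (p : Pt X) : Pt X :=
  match p.2 with
  | none => p
  | some (m, b) =>
    if m % 2 = 0 then (p.1, some (m / 2, b))
    else
      let j : ZMod D := ((Nat.unpair (m / 2)).1 : ZMod D)
      let i : ℕ := (Nat.unpair (m / 2)).2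
      let y : X := (G.u j)⁻¹ • p.1
      if b then (G.u (j + 1) • y, some (i, false))
      else (G.u (j - 1) • y, some (spotC G E r (y, (j, i)) (j - 1), true))

/-- The vertex relation of the completed pre-complex. -/
def compR (E : Set (X × ℕ)) (r : Pt X → Pt X → Prop) (S : Set (X × (ZMod D × ℕ))) :
    Pt X → Pt X → Prop :=
  fun p q => r (compLift G E r p) (compLift G E r q) ∧ Act (compE G E S) p ∧ Act (compE G E S) q

/-- Old points as points of the completed pre-complex. -/
def upPt (p : Pt X) : Pt X := (p.1, p.2.map fun ib => (2 * ib.1, ib.2))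

/-! ### distances, geodesics -/

/-- Distance between the base vertices `A x` and `A z x`. -/
noncomputable def dK (E : Set (X × ℕ)) (r : Pt X → Pt X → Prop) (x : X) : ℕ :=
  sInf {n | Reach E r n (x, none) (G.z • x, none)}

/-! ### cells, private edges, good cells -/

/-- `Inc e (y, (j, i))`: the edge `e` is the `j`-th edge of the cell `(y, i)`. -/
def Inc (E : Set (X × ℕ)) (r : Pt X → Pt X → Prop) (F : Set (X × ℕ)) (e : X × ℕ)
    (q : X × (ZMod D × ℕ)) : Prop :=
  (q.1, q.2.2) ∈ F ∧ ∃ c : ZMod D → ℕ, c 0 = q.2.2 ∧ IsCell G E r q.1 c ∧ e = (G.u q.2.1 • q.1, c q.2.1)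

/-- The edge `e` lies in exactly one cell (as exactly one of its edges). -/
def Priv (E : Set (X × ℕ)) (r : Pt X → Pt X → Prop) (F : Set (X × ℕ)) (e : X × ℕ) : Prop :=
  ∃! q, Inc G E r F e q

/-- The edge `e` lies in at least two cells. -/
def Shared (E : Set (X × ℕ)) (r : Pt X → Pt X → Prop) (F : Set (X × ℕ)) (e : X × ℕ) : Prop :=
  ∃ q q', q ≠ q' ∧ Inc G E r F e q ∧ Inc G E r F e q'

/-- The corner between the edges `j` and `j + 1` of the cell `(y, i)` is free: both edges are private
and the vertex between them is nonbase of degree exactly two. -/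
def FreeCorner (E : Set (X × ℕ)) (r : Pt X → Pt X → Prop) (F : Set (X × ℕ))
    (q : X × (ZMod D × ℕ)) : Prop :=
  (q.1, q.2.2) ∈ F ∧ ∃ c : ZMod D → ℕ, c 0 = q.2.2 ∧ IsCell G E r q.1 c ∧
    Priv G E r F (G.u q.2.1 • q.1, c q.2.1) ∧
    Priv G E r F (G.u (q.2.1 + 1) • q.1, c (q.2.1 + 1)) ∧
    wt r (G.u q.2.1 • q.1, some (c q.2.1, true)) = 2⁻¹

/-- Good cells: cells with a free corner. -/
def GoodCells (E : Set (X × ℕ)) (r : Pt X → Pt X → Prop) (F : Set (X × ℕ)) : Set (X × ℕ) :=
  {q | ∃ j, FreeCorner G E r F (q.1, (j, q.2))}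

/-! ### leaves, big ends -/

/-- The ends of degree one (nonbase). -/
def Leaves (E : Set (X × ℕ)) (r : Pt X → Pt X → Prop) : Set (X × (ℕ × Bool)) :=
  {q | q ∈ Ends E ∧ wt r (q.1, some q.2) = 1}

/-- (N1) the ends of weight `≤ 1/3` -/
def BigEnds (E : Set (X × ℕ)) (r : Pt X → Pt X → Prop) : Set (X × (ℕ × Bool)) :=
  {q | q ∈ Ends E ∧ wt r (q.1, some q.2) ≤ 3⁻¹}

end Crest.Agent.FP
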