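import Mathlib
import Crest.Agent.FP_Ops

/-!
# Task FP-F1: complete folding, combinatorial part

Everything about `FoldRel` is proved by induction on the inductive predicate.
-/

set_option autoImplicit false

open MeasureTheory
open scoped ENNReal

namespace Crest.Agent.FP

variable {Γ X : Type} [Group Γ] [Countable Γ] [MulAction Γ X] [MeasurableSpace X]
  {D : ℕ} [NeZero D] {G : PolyData Γ D} {μ : Measure X} [IsProbabilityMeasure μ] {f : X → ℝ}
  {E : Set (X × ℕ)} {r : Pt X → Pt X → Prop}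

theorem fold_act_some {x : X} {i : ℕ} {b : Bool} : Act E ((x, some (i, b)) : Pt X) ↔ (x, i) ∈ E := by
  constructor
  · intro h
    exact h i b rfl
  · intro h i' b' he
    simp only [Option.some.injEq, Prod.mk.injEq] at he
    obtain ⟨rfl, rfl⟩ := he
    exact h

theorem fold_act_none {x : X} : Act E ((x, none) : Pt X) := by
  intro i b h
  simp at h

theorem foldRel_supp (hK : IsPre G μ E r) {p q : Pt X} (h : FoldRel E r p q) :
    Act E p ∧ Act E q := by
  induction h with
  | base h => exact ⟨hK.supp _ _ h, hK.supp _ _ (hK.symm _ _ h)⟩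
  | symm _ ih => exact ⟨ih.2, ih.1⟩
  | trans _ _ ih1 ih2 => exact ⟨ih1.1, ih2.2⟩
  | fold hi hi' _ _ => exact ⟨fold_act_some.2 hi, fold_act_some.2 hi'⟩

theorem foldRel_loc (hK : IsPre G μ E r) {p q : Pt X} (h : FoldRel E r p q) :
    ∃ a ∈ G.A, loc G q = a • loc G p := by
  induction h with
  | base h => exact hK.rloc _ _ h
  | symm _ ih =>
    obtain ⟨a, ha, h⟩ := ih
    exact ⟨a⁻¹, G.A.inv_mem ha, by rw [h, inv_smul_smul]⟩
  | trans _ _ ih1 ih2 =>
    obtain ⟨a, ha, h⟩ := ih1
    obtain ⟨a', ha', h'⟩ := ih2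
    exact ⟨a' * a, G.A.mul_mem ha' ha, by rw [h', h, mul_smul]⟩
  | @fold x i i' b hi hi' _ _ =>
    refine ⟨1, G.A.one_mem, ?_⟩
    rw [one_smul]
    cases b <;> rfl

theorem fold_rel_both {x : X} {i i' : ℕ} (hi : (x, i) ∈ E) (hi' : (x, i') ∈ E) {b : Bool}
    (h : FoldRel E r (x, some (i, b)) (x, some (i', b))) (b' : Bool) :
    FoldRel E r (x, some (i, b')) (x, some (i', b')) := by
  by_cases hb : b' = b
  · subst hb; exact h
  · have : b' = !b := by cases b <;> cases b' <;> simp_all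
    subst this
    exact FoldRel.fold hi hi' h

theorem fold_rep_mem (hK : IsPre G μ E r) {x : X} {i : ℕ} (hi : (x, i) ∈ E) :
    (x, rep E r (x, i)) ∈ E ∧
      FoldRel E r (x, some (i, false)) (x, some (rep E r (x, i), false)) := by
  have hne : {i' | (x, i') ∈ E ∧
      FoldRel E r (x, some (i, false)) (x, some (i', false))}.Nonempty :=
    ⟨i, hi, FoldRel.base (hK.refl _ (fold_act_some.2 hi))⟩
  exact Nat.sInf_mem hne

theorem rep_eq_iff (hK : IsPre G μ E r) {x : X} {i i' : ℕ} (hi : (x, i) ∈ E) (hi' : (x, i') ∈ E) :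
    rep E r (x, i) = rep E r (x, i') ↔ FoldRel E r (x, some (i, false)) (x, some (i', false)) := by
  constructor
  · intro h
    have h1 := (fold_rep_mem hK hi).2
    have h2 := (fold_rep_mem hK hi').2
    rw [← h] at h2
    exact FoldRel.trans h1 (FoldRel.symm h2)
  · intro h
    unfold rep
    congr 1
    ext k
    simp only [Set.mem_ofPred_eq]
    constructor
    · rintro ⟨h1, h2⟩
      exact ⟨h1, FoldRel.trans (FoldRel.symm h) h2⟩
    · rintro ⟨h1, h2⟩
      exact ⟨h1, FoldRel.trans h h2⟩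

theorem fold_rep_rep (hK : IsPre G μ E r) {x : X} {i : ℕ} (hi : (x, i) ∈ E) :
    rep E r (x, rep E r (x, i)) = rep E r (x, i) := by
  obtain ⟨h1, h2⟩ := fold_rep_mem hK hi
  exact ((rep_eq_iff hK hi h1).2 h2).symm

/-- the representative slot is in the folded complex and is folded with the given one -/
theorem rep_spec (hK : IsPre G μ E r) {x : X} {i : ℕ} (hi : (x, i) ∈ E) :
    (x, rep E r (x, i)) ∈ foldE E r ∧
      ∀ b, FoldRel E r (x, some (i, b)) (x, some (rep E r (x, i), b)) := by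
  obtain ⟨h1, h2⟩ := fold_rep_mem hK hi
  exact ⟨⟨h1, fold_rep_rep hK hi⟩, fun b => fold_rel_both hi h1 h2 b⟩

theorem repPt_spec (hK : IsPre G μ E r) {p : Pt X} (hp : Act E p) :
    Act (foldE E r) (repPt E r p) ∧ FoldRel E r p (repPt E r p) := by
  obtain ⟨x, _ | ⟨i, b⟩⟩ := p
  · exact ⟨fold_act_none, FoldRel.base (hK.refl _ hp)⟩
  · have hi : (x, i) ∈ E := fold_act_some.1 hp
    obtain ⟨h1, h2⟩ := rep_spec hK hi
    exact ⟨fold_act_some.2 h1, h2 b⟩

theorem fold_imm (hK : IsPre G μ E r) : Immersed (foldE E r) (foldR E r) := by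
  intro x i i' b hi hi' h
  have h1 : FoldRel E r (x, some (i, false)) (x, some (i', false)) :=
    fold_rel_both hi.1 hi'.1 h.1 false
  have h2 := (rep_eq_iff hK hi.1 hi'.1).2 h1
  have h3 : rep E r (x, i) = i := hi.2
  have h4 : rep E r (x, i') = i' := hi'.2
  rw [h3, h4] at h2
  exact h2

theorem fold_foldR_rep (hK : IsPre G μ E r) {p q : Pt X} (h : FoldRel E r p q) :
    foldR E r (repPt E r p) (repPt E r q) := by
  obtain ⟨hp, hq⟩ := foldRel_supp hK h
  obtain ⟨h1, h2⟩ := repPt_spec hK hp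
  obtain ⟨h3, h4⟩ := repPt_spec hK hq
  exact ⟨FoldRel.trans (FoldRel.symm h2) (FoldRel.trans h h4), h1, h3⟩

theorem fold_reach (hK : IsPre G μ E r) {n : ℕ} {p q : Pt X} (h : Reach E r n p q) :
    Reach (foldE E r) (foldR E r) n (repPt E r p) (repPt E r q) := by
  induction n generalizing q with
  | zero => exact fold_foldR_rep hK (FoldRel.base h)
  | succ n ih =>
    obtain ⟨x, i, b, hi, h1, h2⟩ := h
    exact ⟨x, rep E r (x, i), b, (rep_spec hK hi).1, ih h1, fold_foldR_rep hK (FoldRel.base h2)⟩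

/-- potentials are constant on fold classes if the cochain is -/
theorem fold_phi {U : Type} [AddCommGroup U] (hK : IsPre G μ E r) (β : X × ℕ → U) (φ : Pt X → U)
    (hr : ∀ p q, r p q → φ p = φ q)
    (hβ : ∀ x i, (x, i) ∈ E → β (x, i) = φ (x, some (i, true)) - φ (x, some (i, false)))
    (hrep : ∀ x i, (x, i) ∈ E → β (x, i) = β (x, rep E r (x, i)))
    {p q : Pt X} (h : FoldRel E r p q) : φ p = φ q := by
  induction h with
  | base h => exact hr _ _ h
  | symm _ ih => exact ih.symm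
  | trans _ _ ih1 ih2 => exact ih1.trans ih2
  | @fold x i i' b hi hi' hf ih =>
    have h1 : rep E r (x, i) = rep E r (x, i') :=
      (rep_eq_iff hK hi hi').2 (fold_rel_both hi hi' hf false)
    have h2 : β (x, i) = β (x, i') := by rw [hrep x i hi, hrep x i' hi', h1]
    rw [hβ x i hi, hβ x i' hi'] at h2
    cases b
    · rw [ih] at h2
      exact sub_left_inj.1 h2
    · rw [ih] at h2
      exact sub_right_inj.1 h2

/-- homological generation passes to the folded complex (pull back `β` by `rep`) -/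
theorem fold_gen (hK : IsPre G μ E r) (F' N : Set (X × ℕ)) (s' : X × ℕ → (X × ℕ →₀ ℚ))
    (hs' : ∀ n ∈ N, ∀ e ∈ (s' n).support, e ∈ foldE E r)
    (h : ∀ (U : Type) [AddCommGroup U] [Module ℚ U] (β : X × ℕ → U),
      (∀ x i, (x, i) ∈ E → β (x, i) = β (x, rep E r (x, i))) →
      (∀ y i, (y, i) ∈ F' → ∀ c : ZMod D → ℕ, c 0 = i →
        IsCell G (foldE E r) (foldR E r) y c → ∑ j, β (G.u j • y, c j) = 0) →
      (∀ n ∈ N, pair (s' n) β = 0) →
      ∃ φ : Pt X → U, (∀ x, φ (x, none) = 0) ∧ (∀ p q, r p q → φ p = φ q) ∧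
        ∀ x i, (x, i) ∈ E → β (x, i) = φ (x, some (i, true)) - φ (x, some (i, false))) :
    Gen G (foldE E r) (foldR E r) F' N s' := by
  intro U _ _ β hcell hrow
  let β' : X × ℕ → U := fun e => β (e.1, rep E r e)
  have hβ' : ∀ e : X × ℕ, e ∈ foldE E r → β' e = β e := by
    rintro ⟨x, i⟩ he
    have : rep E r (x, i) = i := he.2
    simp only [β', this]
  have hrep' : ∀ x i, (x, i) ∈ E → β' (x, i) = β' (x, rep E r (x, i)) := by
    intro x i hi
    simp only [β', fold_rep_rep hK hi]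
  obtain ⟨φ, h0, hr, hφ⟩ := h U β' hrep'
    (by
      intro y i hy c hc hcl
      rw [← hcell y i hy c hc hcl]
      exact Finset.sum_congr rfl fun j _ => hβ' _ (hcl j).1)
    (by
      intro n hn
      rw [← hrow n hn]
      unfold pair Finsupp.sum
      exact Finset.sum_congr rfl fun e he => congrArg (fun t => (s' n) e • t) (hβ' e (hs' n hn e he)))
  refine ⟨φ, h0, ?_, ?_⟩
  · intro p q hpq
    exact fold_phi hK β' φ hr hφ hrep' hpq.1
  · intro x i hi
    rw [← hβ' _ hi]
    exact hφ x i hi.1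

end Crest.Agent.FP
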