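import Mathlib
import Crest.Agent.FP_Fold
import Crest.Agent.FP_MTP

/-!
# Task FP-F2: complete folding, measurability

Measurability of `FoldRel`: define `F 0 = r`, `F (n+1) = F n ∨ swap (F n) ∨ (F n) ∘ (F n) ∨ fold rule applied
to F n`; `FoldRel = ⋃ F n` (use the closure lemmas `MRel.*` of `FP_MTP`; the fold rule only concerns points
over the same `x`).
-/

set_option autoImplicit false

open MeasureTheory
open scoped ENNReal

namespace Crest.Agent.FP

variable {Γ X : Type} [Group Γ] [Countable Γ] [MulAction Γ X] [MeasurableSpace X]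
  {D : ℕ} [NeZero D] {G : PolyData Γ D} {μ : Measure X} [IsProbabilityMeasure μ] {f : X → ℝ}
  {E : Set (X × ℕ)} {r : Pt X → Pt X → Prop}

/-- the group element from the base of a point to its location -/
def foldM_off (G : PolyData Γ D) (k : Option (ℕ × Bool)) : Γ :=
  match k with
  | none => 1
  | some (_, false) => 1
  | some (_, true) => G.z

theorem foldM_loc (p : Pt X) : loc G p = foldM_off G p.2 • p.1 := by
  obtain ⟨x, _ | ⟨i, _ | _⟩⟩ := p <;> simp [loc, foldM_off]

/-- relations of a pre-complex are measurable relations -/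
theorem IsPre.mrel (hK : IsPre G μ E r) : MRel Γ r := by
  refine ⟨fun p q h => ?_, hK.measr⟩
  obtain ⟨a, -, ha⟩ := hK.rloc p q h
  rw [foldM_loc, foldM_loc] at ha
  refine ⟨(foldM_off G q.2)⁻¹ * a * foldM_off G p.2, ?_⟩
  rw [mul_smul, mul_smul, ← ha, inv_smul_smul]

/-- the fold rule -/
def foldM_rule (E : Set (X × ℕ)) (R : Pt X → Pt X → Prop) : Pt X → Pt X → Prop :=
  fun p q => ∃ x i i' b, (x, i) ∈ E ∧ (x, i') ∈ E ∧ R (x, some (i, b)) (x, some (i', b)) ∧
    p = (x, some (i, !b)) ∧ q = (x, some (i', !b))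

theorem foldM_rule_mrel (hfree : ∀ (g : Γ) (x : X), g • x = x → g = 1) (hE : MSet E)
    {R : Pt X → Pt X → Prop} (hR : MRel Γ R) : MRel Γ (foldM_rule E R) := by
  refine ⟨?_, ?_⟩
  · rintro p q ⟨x, i, i', b, _, _, _, rfl, rfl⟩
    exact ⟨1, by simp⟩
  · intro g k k'
    by_cases hg : g = 1
    · subst hg
      obtain _ | ⟨i, b⟩ := k
      · convert MeasurableSet.empty
        ext x
        simp [foldM_rule]
      · obtain _ | ⟨i', b'⟩ := k'
        · convert MeasurableSet.empty
          ext x
          simp [foldM_rule]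
        · by_cases hb : b = b'
          · subst hb
            have : {x : X | foldM_rule E R (x, some (i, b)) ((1 : Γ) • x, some (i', b))} =
                {x | (x, i) ∈ E} ∩ {x | (x, i') ∈ E} ∩
                  {x | R (x, some (i, !b)) ((1 : Γ) • x, some (i', !b))} := by
              ext x
              simp only [foldM_rule, one_smul, Set.mem_inter_iff, Set.mem_ofPred_eq,
                Prod.mk.injEq, Option.some.injEq]
              constructor
              · rintro ⟨x', j, j', c, h1, h2, h3, ⟨rfl, rfl, rfl⟩, ⟨-, rfl, -⟩⟩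
                rw [Bool.not_not]
                exact ⟨⟨h1, h2⟩, h3⟩
              · rintro ⟨⟨h1, h2⟩, h3⟩
                exact ⟨x, i, i', !b, h1, h2, h3, ⟨rfl, rfl, by simp⟩, ⟨rfl, rfl, by simp⟩⟩
            rw [this]
            exact ((hE i).inter (hE i')).inter (hR.2 1 _ _)
          · convert MeasurableSet.empty
            ext x
            simp only [foldM_rule, Prod.mk.injEq, Option.some.injEq, Set.mem_ofPred_eq,
              Set.mem_empty_iff_false, iff_false]
            rintro ⟨x', j, j', c, h1, h2, h3, ⟨rfl, rfl, rfl⟩, ⟨-, rfl, h⟩⟩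
            exact hb h.symm
    · convert MeasurableSet.empty
      ext x
      simp only [foldM_rule, Prod.mk.injEq, Set.mem_ofPred_eq,
              Set.mem_empty_iff_false, iff_false]
      rintro ⟨x', j, j', c, h1, h2, h3, ⟨rfl, -⟩, ⟨h, -⟩⟩
      exact hg (hfree _ _ h)

/-- stages of the folding relation -/
def foldM_F (E : Set (X × ℕ)) (r : Pt X → Pt X → Prop) : ℕ → Pt X → Pt X → Prop
  | 0 => r
  | n + 1 => fun p q => ((foldM_F E r n p q ∨ foldM_F E r n q p) ∨
      (∃ s, foldM_F E r n p s ∧ foldM_F E r n s q)) ∨ foldM_rule E (foldM_F E r n) p q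

theorem foldM_F_mono {m n : ℕ} (hmn : m ≤ n) {p q : Pt X} (h : foldM_F E r m p q) :
    foldM_F E r n p q := by
  induction n, hmn using Nat.le_induction with
  | base => exact h
  | succ n _ ih => exact Or.inl (Or.inl (Or.inl ih))

theorem foldM_iff {p q : Pt X} : FoldRel E r p q ↔ ∃ n, foldM_F E r n p q := by
  constructor
  · intro h
    induction h with
    | base h => exact ⟨0, h⟩
    | symm _ ih =>
      obtain ⟨n, hn⟩ := ih
      exact ⟨n + 1, Or.inl (Or.inl (Or.inr hn))⟩
    | @trans p q s _ _ ih1 ih2 =>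
      obtain ⟨n, hn⟩ := ih1
      obtain ⟨m, hm⟩ := ih2
      exact ⟨max n m + 1, Or.inl (Or.inr ⟨q, foldM_F_mono (le_max_left _ _) hn,
        foldM_F_mono (le_max_right _ _) hm⟩)⟩
    | @fold x i i' b hi hi' _ ih =>
      obtain ⟨n, hn⟩ := ih
      exact ⟨n + 1, Or.inr ⟨x, i, i', b, hi, hi', hn, rfl, rfl⟩⟩
  · rintro ⟨n, h⟩
    induction n generalizing p q with
    | zero => exact FoldRel.base h
    | succ n ih =>
      rcases h with ((h | h) | ⟨s, h1, h2⟩) | ⟨x, i, i', b, hi, hi', h, rfl, rfl⟩
      · exact ih h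
      · exact FoldRel.symm (ih h)
      · exact FoldRel.trans (ih h1) (ih h2)
      · exact FoldRel.fold hi hi' (ih h)

theorem foldRel_mrel (hG : G.Good) (hX : IsGoodAction G X μ f) (hK : IsPre G μ E r) :
    MRel Γ (FoldRel E r) := by
  have hF : ∀ n, MRel Γ (foldM_F E r n) := by
    intro n
    induction n with
    | zero => exact hK.mrel
    | succ n ih =>
      exact ((ih.or (MRel.swap hX.mp ih)).or (MRel.comp hX.mp ih ih)).or
        (foldM_rule_mrel hX.free hK.measE ih)
  have : FoldRel E r = fun p q => ∃ n, foldM_F E r n p q := by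
    funext p q
    exact propext foldM_iff
  rw [this]
  exact MRel.iUnion hF

theorem meas_rep (hG : G.Good) (hX : IsGoodAction G X μ f) (hK : IsPre G μ E r) (i k : ℕ) :
    MeasurableSet {x | (x, i) ∈ E ∧ rep E r (x, i) = k} := by
  have hm : ∀ m : ℕ, MeasurableSet {x | (x, m) ∈ E ∧
      FoldRel E r (x, some (i, false)) (x, some (m, false))} := by
    intro m
    have h := (foldRel_mrel hG hX hK).2 1 (some (i, false)) (some (m, false))
    simp only [one_smul] at h
    exact (hK.measE m).inter h
  have : {x | (x, i) ∈ E ∧ rep E r (x, i) = k} = {x | (x, i) ∈ E} ∩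
      ({x | (x, k) ∈ E ∧ FoldRel E r (x, some (i, false)) (x, some (k, false))} ∩
        ⋂ m ∈ Finset.range k, {x | (x, m) ∈ E ∧
          FoldRel E r (x, some (i, false)) (x, some (m, false))}ᶜ) := by
    ext x
    simp only [Set.mem_ofPred_eq, Set.mem_inter_iff, Set.mem_iInter, Finset.mem_range,
      Set.mem_compl_iff]
    constructor
    · rintro ⟨h1, h2⟩
      refine ⟨h1, ?_, ?_⟩
      · rw [← h2]
        exact fold_rep_mem hK h1
      · intro m hm
        rw [← h2] at hm
        exact Nat.notMem_of_lt_sInf hm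
    · rintro ⟨h1, h2, h3⟩
      refine ⟨h1, ?_⟩
      apply le_antisymm
      · exact Nat.sInf_le h2
      · by_contra hlt
        exact h3 _ (not_le.1 hlt) (fold_rep_mem hK h1)
  rw [this]
  exact (hK.measE i).inter ((hm k).inter
    (Finset.measurableSet_biInter _ fun m _ => (hm m).compl))

theorem fold_smeas (hK : IsPre G μ E r) : smeas μ (foldE E r) ≤ smeas μ E :=
  smeas_mono fun _ h => h.1

theorem foldM_act_meas {E' : Set (X × ℕ)} (hE : MSet E') : MSet {p : Pt X | Act E' p} := by
  intro k
  obtain _ | ⟨i, b⟩ := k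
  · convert MeasurableSet.univ
    ext x
    simp only [Set.mem_ofPred_eq, Set.mem_univ, iff_true]
    exact fold_act_none
  · have : {x : X | ((x, some (i, b)) : Pt X) ∈ {p : Pt X | Act E' p}} = {x | (x, i) ∈ E'} := by
      ext x
      exact fold_act_some
    rw [this]
    exact hE i

theorem foldM_repPt {p : Pt X} (hp : Act (foldE E r) p) : repPt E r p = p := by
  obtain ⟨x, _ | ⟨i, b⟩⟩ := p
  · rfl
  · have : rep E r (x, i) = i := (fold_act_some.1 hp).2
    simp [repPt, this]

theorem fold_isPre (hG : G.Good) (hX : IsGoodAction G X μ f) (hK : IsPre G μ E r) :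
    IsPre G μ (foldE E r) (foldR E r) := by
  have hME : MSet (foldE E r) := fun i => meas_rep hG hX hK i i
  refine
    { measE := hME
      finE := ne_top_of_le_ne_top hK.finE (fold_smeas hK)
      multE := fun x => (hK.multE x).subset fun i hi => hi.1
      refl := ?_
      symm := fun p q h => ⟨FoldRel.symm h.1, h.2.2, h.2.1⟩
      trans := fun p q s h h' => ⟨FoldRel.trans h.1 h'.1, h.2.1, h'.2.2⟩
      supp := fun p q h => h.2.1
      rloc := fun p q h => foldRel_loc hK h.1
      base := fun x a ha => ⟨FoldRel.base (hK.base x a ha), fold_act_none, fold_act_none⟩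
      measr := ?_
      conn_base := ?_
      conn := ?_ }
  · intro p hp
    refine ⟨FoldRel.base (hK.refl p ?_), hp, hp⟩
    intro i b h
    exact (hp i b h).1
  · have h := MRel.and_right hX.mp (MRel.and_left (foldRel_mrel hG hX hK) (foldM_act_meas hME))
      (foldM_act_meas hME)
    intro g k k'
    have h' := h.2 g k k'
    convert h' using 1
    ext x
    simp only [foldR, resR, Set.mem_ofPred_eq, and_assoc]
  · intro x
    obtain ⟨n, hn⟩ := hK.conn_base x
    exact ⟨n, fold_reach hK hn⟩
  · intro p hp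
    obtain ⟨n, y, hn⟩ := hK.conn p (fun i b h => (hp i b h).1)
    refine ⟨n, y, ?_⟩
    have h := fold_reach hK hn
    rw [foldM_repPt hp] at h
    exact h

end Crest.Agent.FP
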