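import Mathlib
import Crest.Agent.FP_MTP
import Crest.Agent.FP_Ops

/-!
# Task FP-U: degrees and weights (utility lemmas)
-/

set_option autoImplicit false

open MeasureTheory
open scoped ENNReal

namespace Crest.Agent.FP

variable {Γ X : Type} [Group Γ] [Countable Γ] [MulAction Γ X] [MeasurableSpace X]
  {D : ℕ} [NeZero D] {G : PolyData Γ D} {μ : Measure X} [IsProbabilityMeasure μ] {f : X → ℝ}
  {E : Set (X × ℕ)} {r : Pt X → Pt X → Prop}

omit [Countable Γ] [IsProbabilityMeasure μ] in
/-- related points lie in the same orbit -/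
theorem pre_orb (hK : IsPre G μ E r) {p q : Pt X} (h : r p q) : ∃ g : Γ, q.1 = g • p.1 := by
  obtain ⟨a, _, ha⟩ := hK.rloc p q h
  have hl : ∀ p : Pt X, ∃ g : Γ, loc G p = g • p.1 := by
    rintro ⟨x, o⟩
    rcases o with _ | ⟨i, b⟩
    · exact ⟨1, by simp [loc]⟩
    · cases b
      · exact ⟨1, by simp [loc]⟩
      · exact ⟨G.z, by simp [loc]⟩
  obtain ⟨g, hg⟩ := hl p
  obtain ⟨g', hg'⟩ := hl q
  rw [hg, hg'] at ha
  exact ⟨g'⁻¹ * a * g, by rw [mul_smul, mul_smul, ← ha, inv_smul_smul]⟩

theorem tsum_ite_encard {α : Type} (P : α → Prop) [DecidablePred P] :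
    (∑' a : α, if P a then (1 : ℝ≥0∞) else 0) = (({a | P a} : Set α).encard : ℝ≥0∞) := by
  rw [← ENNReal.tsum_set_one]
  have := tsum_subtype {a | P a} (fun _ => (1 : ℝ≥0∞))
  rw [this]
  refine tsum_congr fun a => ?_
  by_cases h : P a
  · rw [if_pos h, Set.indicator_of_mem (by exact h)]
  · rw [if_neg h, Set.indicator_of_notMem (by exact h)]

omit [Countable Γ] [MeasurableSpace X] [Group Γ] [MulAction Γ X] in
theorem deg_eq_encard (r : Pt X → Pt X → Prop) (p : Pt X) :
    deg r p = (({q : X × (ℕ × Bool) | r p (q.1, some q.2)} : Set _).encard : ℝ≥0∞) := by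
  classical
  unfold deg
  convert tsum_ite_encard (fun q : X × (ℕ × Bool) => r p (q.1, some q.2))

/-- `deg` is a measurable function. -/
theorem meas_deg (hX : IsGoodAction G X μ f) (hK : IsPre G μ E r) (k : Option (ℕ × Bool)) :
    Measurable fun x : X => deg r (x, k) := by
  classical
  have h1 : ∀ x : X, deg r (x, k) = ∑' (g : Γ) (k' : ℕ × Bool),
      if r (x, k) (g • x, some k') then (1 : ℝ≥0∞) else 0 := by
    intro x
    unfold deg
    have := tsum_orbit (Γ := Γ) hX.free x (F := fun q : X × (ℕ × Bool) =>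
      if r (x, k) (q.1, some q.2) then (1 : ℝ≥0∞) else 0) (by
        intro q hq
        have h2 : r (x, k) (q.1, some q.2) := by
          by_contra h
          exact hq (if_neg h)
        exact pre_orb hK h2)
    convert this
  simp_rw [h1]
  refine Measurable.tsum fun g => Measurable.tsum fun k' => ?_
  exact Measurable.ite (hK.measr g k (some k')) measurable_const measurable_const

omit [IsProbabilityMeasure μ] in
theorem meas_isBase (hK : IsPre G μ E r) (k : Option (ℕ × Bool)) :
    MeasurableSet {x : X | IsBase r (x, k)} := by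
  have : {x : X | IsBase r (x, k)} = ⋃ g : Γ, {x | r (x, k) (g • x, none)} := by
    ext x
    simp only [Set.mem_iUnion]
    constructor
    · rintro ⟨y, hy⟩
      obtain ⟨g, hg⟩ := pre_orb hK hy
      refine ⟨g, ?_⟩
      simp only at hg
      rw [hg] at hy
      exact hy
    · rintro ⟨g, hg⟩
      exact ⟨_, hg⟩
  rw [this]
  exact MeasurableSet.iUnion fun g => hK.measr g k none

/-- `wt` is a measurable function. -/
theorem meas_wt (hG : G.Good) (hX : IsGoodAction G X μ f) (hK : IsPre G μ E r) (k : Option (ℕ × Bool)) :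
    Measurable fun x : X => wt r (x, k) := by
  classical
  have h1 : ∀ x : X, wt r (x, k) = if IsBase r (x, k) then 0 else (deg r (x, k))⁻¹ := by
    intro x
    unfold wt
    congr
  simp_rw [h1]
  exact Measurable.ite (meas_isBase hK k) measurable_const (meas_deg hX hK k).inv

omit [MulAction Γ X] [Group Γ] [Countable Γ] [IsProbabilityMeasure μ] in
/-- the total measure of the ends -/
theorem smeas_ends : smeas μ (Ends E) = 2 * smeas μ E := by
  unfold smeas
  rw [ENNReal.tsum_prod', ← ENNReal.tsum_mul_left]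
  refine tsum_congr fun i => ?_
  rw [tsum_fintype, Fintype.sum_bool, two_mul]
  rfl

omit [MulAction Γ X] [Group Γ] [Countable Γ] in
theorem mset_Ends (hE : MSet E) : MSet (Ends E) := fun q => hE q.1

omit [Countable Γ] [IsProbabilityMeasure μ] in
theorem ends_refl (hK : IsPre G μ E r) {q : X × (ℕ × Bool)} (hq : q ∈ Ends E) :
    r (q.1, some q.2) (q.1, some q.2) := by
  refine hK.refl _ ?_
  intro i b h
  have h1 : q.2 = (i, b) := Option.some.inj h
  have h2 : (q.1, q.2.1) ∈ E := hq
  rw [h1] at h2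
  exact h2

/-- possible values of weights -/
theorem wt_values (hK : IsPre G μ E r) {q : X × (ℕ × Bool)} (hq : q ∈ Ends E) :
    wt r (q.1, some q.2) = 0 ∨ ∃ n : ℕ, 1 ≤ n ∧ deg r (q.1, some q.2) = n ∧
      wt r (q.1, some q.2) = (n : ℝ≥0∞)⁻¹ := by
  classical
  by_cases hb : IsBase r (q.1, some q.2)
  · left
    unfold wt
    rw [if_pos hb]
  · have h1 : wt r (q.1, some q.2) = (deg r (q.1, some q.2))⁻¹ := by
      unfold wt
      rw [if_neg hb]
    have hne : ({q' : X × (ℕ × Bool) | r (q.1, some q.2) (q'.1, some q'.2)}).Nonempty :=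
      ⟨q, ends_refl hK hq⟩
    have h2 := deg_eq_encard r (q.1, some q.2)
    rcases eq_or_ne ({q' : X × (ℕ × Bool) | r (q.1, some q.2) (q'.1, some q'.2)}).encard ⊤ with h | h
    · left
      rw [h1, h2, h]
      simp
    · right
      obtain ⟨n, hn⟩ := ENat.ne_top_iff_exists.1 h
      rw [← hn] at h2
      have h3 : deg r (q.1, some q.2) = n := by rw [h2]; simp
      refine ⟨n, ?_, h3, by rw [h1, h3]⟩
      by_contra h0
      have h4 : n = 0 := by omega
      rw [h4] at hn
      have h5 := Set.encard_ne_zero.2 hne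
      exact h5 (by rw [← hn]; rfl)

theorem wt_le_one (hK : IsPre G μ E r) {q : X × (ℕ × Bool)} (hq : q ∈ Ends E) :
    wt r (q.1, some q.2) ≤ 1 := by
  rcases wt_values hK hq with h | ⟨n, hn, _, h⟩
  · rw [h]; exact bot_le
  · rw [h]
    rw [ENNReal.inv_le_one]
    exact_mod_cast hn

theorem Vm_le (hK : IsPre G μ E r) : Vm μ E r ≤ 2 * smeas μ E := by
  rw [← smeas_ends, smeas_eq_sint (mset_Ends hK.measE)]
  unfold Vm
  refine sint_mono fun q => ?_
  by_cases hq : q ∈ Ends E
  · rw [Set.indicator_of_mem hq, Set.indicator_of_mem hq]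
    exact wt_le_one hK hq
  · rw [Set.indicator_of_notMem hq]
    exact bot_le

omit [Countable Γ] [IsProbabilityMeasure μ] in
theorem deg_congr (hK : IsPre G μ E r) {p q : Pt X} (h : r p q) : deg r p = deg r q := by
  rw [deg_eq_encard, deg_eq_encard]
  congr 2
  ext t
  exact ⟨fun h' => hK.trans _ _ _ (hK.symm _ _ h) h', fun h' => hK.trans _ _ _ h h'⟩

omit [Countable Γ] [IsProbabilityMeasure μ] in
theorem isBase_congr (hK : IsPre G μ E r) {p q : Pt X} (h : r p q) : IsBase r p ↔ IsBase r q :=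
  ⟨fun ⟨y, hy⟩ => ⟨y, hK.trans _ _ _ (hK.symm _ _ h) hy⟩, fun ⟨y, hy⟩ => ⟨y, hK.trans _ _ _ h hy⟩⟩

omit [Countable Γ] [IsProbabilityMeasure μ] in
theorem wt_congr (hK : IsPre G μ E r) {p q : Pt X} (h : r p q) : wt r p = wt r q := by
  classical
  unfold wt
  by_cases hb : IsBase r p
  · rw [if_pos hb, if_pos ((isBase_congr hK h).1 hb)]
  · rw [if_neg hb, if_neg (fun hb' => hb ((isBase_congr hK h).2 hb')), deg_congr hK h]

omit [MeasurableSpace X] [Group Γ] [MulAction Γ X] [Countable Γ] in
/-- `n` different ends in the class of `p` give `deg ≥ n` -/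
theorem card_le_deg (p : Pt X) (t : Finset (X × (ℕ × Bool)))
    (ht : ∀ q ∈ t, r p (q.1, some q.2)) : (t.card : ℝ≥0∞) ≤ deg r p := by
  rw [deg_eq_encard]
  have h1 : (t : Set (X × (ℕ × Bool))) ⊆ {q | r p (q.1, some q.2)} := fun q hq => ht q hq
  have h2 := Set.encard_le_encard h1
  rw [Set.encard_coe_eq_coe_finsetCard] at h2
  have h3 := ENat.toENNReal_le.2 h2
  exact_mod_cast h3

end Crest.Agent.FP
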