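import Mathlib
import Crest.Agent.FP_FoldM
import Crest.Agent.FP_Wt

/-!
# Task FP-K1: cells, measurability of private edges etc.
-/

set_option autoImplicit false
set_option linter.unusedSectionVars false
set_option linter.unusedVariables false

open MeasureTheory
open scoped ENNReal

namespace Crest.Agent.FP

variable {Γ X : Type} [Group Γ] [Countable Γ] [MulAction Γ X] [MeasurableSpace X]
  {D : ℕ} [NeZero D] {G : PolyData Γ D} {μ : Measure X} [IsProbabilityMeasure μ] {f : X → ℝ}
  {E F N : Set (X × ℕ)} {r : Pt X → Pt X → Prop} {s : X × ℕ → (X × ℕ →₀ ℚ)}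

/-- cell data are unique in an immersed complex -/
theorem cell_unique (hG : G.Good) (hK : IsCx G μ E r F) {y : X} {c c' : ZMod D → ℕ}
    (hc : IsCell G E r y c) (hc' : IsCell G E r y c') (j : ZMod D) (h : c j = c' j) : c = c' := by
  have hn : ∀ n : ℕ, c (j + n) = c' (j + n) := by
    intro n
    induction n with
    | zero => simpa using h
    | succ n ih =>
      have e : j + ((n + 1 : ℕ) : ZMod D) = j + (n : ZMod D) + 1 := by push_cast; ring
      rw [e]
      obtain ⟨h1, h2⟩ := hc (j + n)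
      obtain ⟨h1', h2'⟩ := hc' (j + n)
      rw [← ih] at h2'
      have h3 := hK.trans _ _ _ (hK.symm _ _ h2) h2'
      exact hK.imm _ _ _ _ (hc (j + n + 1)).1 (hc' (j + n + 1)).1 h3
  funext k
  have := hn (k - j).val
  rw [ZMod.natCast_zmod_val] at this
  simpa using this

theorem cellm_smul_meas (hX : IsGoodAction G X μ f) (g : Γ) {P : X → Prop}
    (hP : MeasurableSet {x | P x}) : MeasurableSet {x | P (g • x)} :=
  (hX.mp g).measurable hP

theorem cellm_isCell (hX : IsGoodAction G X μ f) (hK : IsCx G μ E r F) (c : ZMod D → ℕ) :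
    MeasurableSet {x | IsCell G E r x c} := by
  have : {x | IsCell G E r x c} = ⋂ j : ZMod D, ({x | (G.u j • x, c j) ∈ E} ∩
      {x | r (G.u j • x, some (c j, true)) (G.u (j + 1) • x, some (c (j + 1), false))}) := by
    ext x
    simp only [IsCell, Set.mem_ofPred_eq, Set.mem_iInter, Set.mem_inter_iff]
  rw [this]
  refine MeasurableSet.iInter fun j => MeasurableSet.inter ?_ ?_
  · exact cellm_smul_meas hX (G.u j) (P := fun x => (x, c j) ∈ E) (hK.measE (c j))
  · have h1 := hK.measr (G.u (j + 1) * (G.u j)⁻¹) (some (c j, true)) (some (c (j + 1), false))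
    have h2 := cellm_smul_meas hX (G.u j) (P := fun x => r (x, some (c j, true))
      ((G.u (j + 1) * (G.u j)⁻¹) • x, some (c (j + 1), false))) h1
    simpa [mul_smul] using h2

/-- `Inc`, `Priv`, `Shared`, `FreeCorner` and `GoodCells` are measurable. -/
theorem inc_mrel (hG : G.Good) (hX : IsGoodAction G X μ f) (hK : IsCx G μ E r F) :
    MRel Γ (Inc G E r F) := by
  refine ⟨?_, ?_⟩
  · rintro e q ⟨_, c, _, _, he⟩
    refine ⟨(G.u q.2.1)⁻¹, ?_⟩
    rw [he]
    simp
  · rintro g i ⟨j, k⟩
    by_cases hg : G.u j * g = 1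
    · have : {x | Inc G E r F (x, i) (g • x, (j, k))} = {x | (g • x, k) ∈ F} ∩
          ⋃ c : ZMod D → ℕ, {x | c 0 = k ∧ c j = i ∧ IsCell G E r (g • x) c} := by
        ext x
        have hx : G.u j • g • x = x := by rw [← mul_smul, hg, one_smul]
        simp only [Inc, Set.mem_ofPred_eq, Set.mem_inter_iff, Set.mem_iUnion, hx, Prod.mk.injEq,
          true_and]
        constructor
        · rintro ⟨h1, c, h2, h3, h4⟩
          exact ⟨h1, c, h2, h4.symm, h3⟩
        · rintro ⟨h1, c, h2, h3, h4⟩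
          exact ⟨h1, c, h2, h4, h3.symm⟩
      rw [this]
      refine (cellm_smul_meas hX g (P := fun x => (x, k) ∈ F) (hK.measF k)).inter
        (MeasurableSet.iUnion fun c => ?_)
      by_cases hc : c 0 = k ∧ c j = i
      · have h3 := cellm_smul_meas hX g (cellm_isCell hX hK c)
        simpa [hc.1, hc.2] using h3
      · convert MeasurableSet.empty
        ext x
        simp only [Set.mem_ofPred_eq, Set.mem_empty_iff_false, iff_false]
        rintro ⟨h1, h2, _⟩
        exact hc ⟨h1, h2⟩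
    · convert MeasurableSet.empty
      ext x
      simp only [Set.mem_ofPred_eq, Set.mem_empty_iff_false, iff_false]
      rintro ⟨_, c, _, _, he⟩
      have h1 : x = G.u j • g • x := congrArg Prod.fst he
      rw [← mul_smul] at h1
      exact hg (hX.free _ _ h1.symm)

theorem meas_shared (hG : G.Good) (hX : IsGoodAction G X μ f) (hK : IsCx G μ E r F) :
    MSet {e | Shared G E r F e} := by
  intro i
  have hI := inc_mrel hG hX hK
  have : {x | (x, i) ∈ {e | Shared G E r F e}} = ⋃ (p : Γ × (ZMod D × ℕ)) (p' : Γ × (ZMod D × ℕ))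
      (_ : p ≠ p'), {x | Inc G E r F (x, i) (p.1 • x, p.2)} ∩ {x | Inc G E r F (x, i) (p'.1 • x, p'.2)} := by
    ext x
    simp only [Set.mem_ofPred_eq, Set.mem_iUnion, Set.mem_inter_iff]
    constructor
    · rintro ⟨q, q', hne, h1, h2⟩
      obtain ⟨g, hg⟩ := hI.1 _ _ h1
      obtain ⟨g', hg'⟩ := hI.1 _ _ h2
      simp only at hg hg'
      refine ⟨(g, q.2), (g', q'.2), ?_, ?_, ?_⟩
      · intro h
        apply hne
        simp only [Prod.mk.injEq] at h
        exact Prod.ext (by rw [hg, hg', h.1]) h.2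
      · simp only; rw [← hg]; exact h1
      · simp only; rw [← hg']; exact h2
    · rintro ⟨p, p', hne, h1, h2⟩
      refine ⟨_, _, ?_, h1, h2⟩
      intro h
      apply hne
      simp only [Prod.mk.injEq] at h
      have h3 : (p'.1⁻¹ * p.1) • x = x := by rw [mul_smul, h.1, inv_smul_smul]
      have h4 := hX.free _ _ h3
      exact Prod.ext (inv_mul_eq_one.1 h4).symm h.2
  rw [this]
  exact MeasurableSet.iUnion fun p => MeasurableSet.iUnion fun p' => MeasurableSet.iUnion fun _ =>
    (hI.2 _ _ _).inter (hI.2 _ _ _)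

theorem meas_priv (hG : G.Good) (hX : IsGoodAction G X μ f) (hK : IsCx G μ E r F) :
    MSet {e | Priv G E r F e} := by
  intro i
  have hI := (inc_mrel hG hX hK).dom
  have : {x | (x, i) ∈ {e | Priv G E r F e}} = {x | (x, i) ∈ {e | ∃ q, Inc G E r F e q}} \
      {x | (x, i) ∈ {e | Shared G E r F e}} := by
    ext x
    simp only [Set.mem_ofPred_eq, Set.mem_sdiff, Priv, Shared]
    constructor
    · rintro ⟨q, hq, hu⟩
      refine ⟨⟨q, hq⟩, ?_⟩
      rintro ⟨a, b, hab, ha, hb⟩
      exact hab ((hu a ha).trans (hu b hb).symm)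
    · rintro ⟨⟨q, hq⟩, h⟩
      refine ⟨q, hq, fun q' hq' => ?_⟩
      by_contra hne
      exact h ⟨q', q, hne, hq', hq⟩
  rw [this]
  exact (hI i).diff (meas_shared hG hX hK i)

theorem meas_freeCorner (hG : G.Good) (hX : IsGoodAction G X μ f) (hK : IsCx G μ E r F) :
    MSet {q | FreeCorner G E r F q} := by
  rintro ⟨j, k⟩
  have : {x | (x, (j, k)) ∈ {q : X × (ZMod D × ℕ) | FreeCorner G E r F q}} = {x | (x, k) ∈ F} ∩
      ⋃ c : ZMod D → ℕ, ({x | c 0 = k ∧ IsCell G E r x c} ∩ {x | Priv G E r F (G.u j • x, c j)} ∩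
        {x | Priv G E r F (G.u (j + 1) • x, c (j + 1))} ∩
        {x | wt r (G.u j • x, some (c j, true)) = 2⁻¹}) := by
    ext x
    simp only [FreeCorner, Set.mem_ofPred_eq, Set.mem_inter_iff, Set.mem_iUnion]
    constructor
    · rintro ⟨h1, c, h2, h3, h4, h5, h6⟩
      exact ⟨h1, c, ⟨⟨⟨h2, h3⟩, h4⟩, h5⟩, h6⟩
    · rintro ⟨h1, c, ⟨⟨⟨h2, h3⟩, h4⟩, h5⟩, h6⟩
      exact ⟨h1, c, h2, h3, h4, h5, h6⟩
  rw [this]
  refine (hK.measF k).inter (MeasurableSet.iUnion fun c => ((MeasurableSet.inter ?_ ?_).inter ?_).inter ?_)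
  · by_cases hc : c 0 = k
    · simpa [hc] using cellm_isCell hX hK c
    · simp [hc]
  · exact cellm_smul_meas hX (G.u j) (P := fun x => Priv G E r F (x, c j)) (meas_priv hG hX hK (c j))
  · exact cellm_smul_meas hX (G.u (j + 1)) (P := fun x => Priv G E r F (x, c (j + 1)))
      (meas_priv hG hX hK (c (j + 1)))
  · have h1 := meas_wt hG hX hK.toIsPre (some (c j, true))
    have h2 : MeasurableSet {x : X | wt r (x, some (c j, true)) = 2⁻¹} := h1 (measurableSet_singleton _)
    exact cellm_smul_meas hX (G.u j) (P := fun x => wt r (x, some (c j, true)) = 2⁻¹) h2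

theorem meas_good (hG : G.Good) (hX : IsGoodAction G X μ f) (hK : IsCx G μ E r F) :
    MSet (GoodCells G E r F) := by
  intro i
  have : {x | (x, i) ∈ GoodCells G E r F} = ⋃ j : ZMod D,
      {x | (x, (j, i)) ∈ {q : X × (ZMod D × ℕ) | FreeCorner G E r F q}} := by
    ext x
    simp only [GoodCells, Set.mem_ofPred_eq, Set.mem_iUnion]
  rw [this]
  exact MeasurableSet.iUnion fun j => meas_freeCorner hG hX hK (j, i)

end Crest.Agent.FP
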