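import Mathlib
import Crest.Agent.FP_Ops

/-!
# Task FP-R1: restriction of a complex to a subset of its edges
-/

set_option autoImplicit false

open MeasureTheory
open scoped ENNReal

namespace Crest.Agent.FP

variable {Γ X : Type} [Group Γ] [Countable Γ] [MulAction Γ X] [MeasurableSpace X]
  {D : ℕ} [NeZero D] {G : PolyData Γ D} {μ : Measure X} [IsProbabilityMeasure μ] {f : X → ℝ}
  {E E' F F' : Set (X × ℕ)} {r : Pt X → Pt X → Prop}
  {N : Set (X × ℕ)} {s : X × ℕ → (X × ℕ →₀ ℚ)}

omit [Group Γ] [Countable Γ] [MulAction Γ X] [MeasurableSpace X] in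
theorem act_none (E' : Set (X × ℕ)) (x : X) : Act E' ((x, none) : Pt X) := by
  intro i b h
  simp at h

omit [Group Γ] [Countable Γ] [MulAction Γ X] [MeasurableSpace X] in
theorem act_some_iff (E' : Set (X × ℕ)) (x : X) (i : ℕ) (b : Bool) :
    Act E' ((x, some (i, b)) : Pt X) ↔ (x, i) ∈ E' := by
  constructor
  · intro h
    exact h i b rfl
  · intro h j c hjc
    simp only [Option.some.injEq, Prod.mk.injEq] at hjc
    rw [← hjc.1]; exact h

omit [Group Γ] [Countable Γ] [MulAction Γ X] in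
theorem measAct {E' : Set (X × ℕ)} (hm : MSet E') (k : Option (ℕ × Bool)) :
    MeasurableSet {x : X | Act E' ((x, k) : Pt X)} := by
  rcases k with _ | ⟨i, b⟩
  · convert MeasurableSet.univ
    ext x
    simp [act_none]
  · have := hm i
    convert this using 2
    ext x
    exact act_some_iff E' x i b

theorem res_isPre (hK : IsPre G μ E r) (hsub : E' ⊆ E) (hm : MSet E')
    (hmp : ∀ g : Γ, MeasurePreserving (fun x : X => g • x) μ μ)
    (hcb : ∀ x : X, ∃ n, Reach E' (resR E' r) n (x, none) (G.z • x, none))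
    (hc : ∀ p, Act E' p → ∃ n y, Reach E' (resR E' r) n p (y, none)) :
    IsPre G μ E' (resR E' r) where
  measE := hm
  finE := by
    have h1 : smeas μ E' ≤ smeas μ E := smeas_mono hsub
    exact ne_top_of_le_ne_top hK.finE h1
  multE x := (hK.multE x).subset fun i hi => hsub hi
  refl p hp := ⟨hK.refl p fun i b h => hsub (hp i b h), hp, hp⟩
  symm p q h := ⟨hK.symm _ _ h.1, h.2.2, h.2.1⟩
  trans p q s h1 h2 := ⟨hK.trans _ _ _ h1.1 h2.1, h1.2.1, h2.2.2⟩
  supp p q h := h.2.1
  rloc p q h := hK.rloc p q h.1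
  base x a ha := ⟨hK.base x a ha, act_none _ _, act_none _ _⟩
  measr g k k' := by
    have h1 := hK.measr g k k'
    have h2 := measAct hm k
    have h3 := (hmp g).measurable (measAct hm k')
    exact h1.inter (h2.inter h3)
  conn_base := hcb
  conn := hc

/-- Restriction of a complex, cells `F' ⊆ F` all of whose edges stay. -/
theorem res_isCx (hK : IsCx G μ E r F) (hsub : E' ⊆ E) (hm : MSet E')
    (hmp : ∀ g : Γ, MeasurePreserving (fun x : X => g • x) μ μ)
    (hcb : ∀ x : X, ∃ n, Reach E' (resR E' r) n (x, none) (G.z • x, none))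
    (hc : ∀ p, Act E' p → ∃ n y, Reach E' (resR E' r) n p (y, none))
    (hF : F' ⊆ F) (hmF : MSet F')
    (hcell : ∀ y i, (y, i) ∈ F' → ∀ c : ZMod D → ℕ, c 0 = i → IsCell G E r y c →
      ∀ j, (G.u j • y, c j) ∈ E') :
    IsCx G μ E' (resR E' r) F' where
  toIsPre := res_isPre hK.toIsPre hsub hm hmp hcb hc
  imm x i i' b h1 h2 h3 := hK.imm x i i' b (hsub h1) (hsub h2) h3.1
  measF := hmF
  cell y i hyi := by
    obtain ⟨c, hc0, hcc⟩ := hK.cell y i (hF hyi)
    have h := hcell y i hyi c hc0 hcc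
    exact ⟨c, hc0, fun j => ⟨h j, (hcc j).2, (act_some_iff _ _ _ _).2 (h j),
      (act_some_iff _ _ _ _).2 (h (j + 1))⟩⟩

/-- Homological generation of a restriction: `ρ` is the push-forward of slots to chains on `E'`; a
cochain `β'` on `E'` is extended to `E` by `β(e) = pair (ρ e) β'`. -/
theorem res_gen (hg : GenBy G E r F N s) (hsub : E' ⊆ E) (hF : F' ⊆ F)
    (ρ : X × ℕ → (X × ℕ →₀ ℚ))
    (hρ : ∀ e ∈ E', ρ e = Finsupp.single e 1)
    (hρs : ∀ e ∈ E, ∀ e' ∈ (ρ e).support, e' ∈ E')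
    (hcell' : ∀ y i, (y, i) ∈ F' → ∀ c : ZMod D → ℕ, c 0 = i → IsCell G E r y c →
      IsCell G E' (resR E' r) y c)
    (hkill : ∀ y i, (y, i) ∈ F → (y, i) ∉ F' → ∀ c : ZMod D → ℕ, c 0 = i → IsCell G E r y c →
      ∑ j, ρ (G.u j • y, c j) = 0) :
    Gen G E' (resR E' r) F' N (fun n => (s n).sum fun e a => a • ρ e) := by
  intro U _ _ β' hcells hrows
  have hadd : ∀ c₁ c₂ : X × ℕ →₀ ℚ, pair (c₁ + c₂) β' = pair c₁ β' + pair c₂ β' := by
    intro c₁ c₂
    exact Finsupp.sum_add_index' (fun _ => zero_smul _ _) (fun _ _ _ => add_smul _ _ _)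
  have hsingle : ∀ e, pair (Finsupp.single e (1 : ℚ)) β' = β' e := by
    intro e
    unfold pair
    rw [Finsupp.sum_single_index (by simp), one_smul]
  have hzero : pair (0 : X × ℕ →₀ ℚ) β' = 0 := Finsupp.sum_zero_index
  have hsmul : ∀ (a : ℚ) (c : X × ℕ →₀ ℚ), pair (a • c) β' = a • pair c β' := by
    intro a c
    unfold pair
    rw [Finsupp.sum_smul_index' (fun _ => by simp), Finsupp.smul_sum]
    simp only [smul_smul, smul_eq_mul]
  have hsum : ∀ {α : Type} (t : Finset α) (g : α → (X × ℕ →₀ ℚ)),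
      pair (∑ a ∈ t, g a) β' = ∑ a ∈ t, pair (g a) β' := by
    intro α t g
    classical
    induction t using Finset.induction_on with
    | empty => simpa using hzero
    | insert a t ha ih => rw [Finset.sum_insert ha, Finset.sum_insert ha, hadd, ih]
  have hpush : ∀ c : X × ℕ →₀ ℚ, pair (c.sum fun e a => a • ρ e) β' =
      pair c (fun e => pair (ρ e) β') := by
    intro c
    unfold Finsupp.sum
    rw [hsum]
    simp only [hsmul]
    rfl
  obtain ⟨φ, h1, h2, h3⟩ := hg.gen U (fun e => pair (ρ e) β') (by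
    intro y i hyi c hc0 hcc
    by_cases hF' : (y, i) ∈ F'
    · have h4 := hcell' y i hF' c hc0 hcc
      have h5 := hcells y i hF' c hc0 h4
      rw [← h5]
      refine Finset.sum_congr rfl fun j _ => ?_
      rw [hρ _ (h4 j).1, hsingle]
    · rw [← hsum, hkill y i hyi hF' c hc0 hcc, hzero]) (by
    intro n hn
    rw [← hpush]
    exact hrows n hn)
  refine ⟨φ, h1, fun p q h => h2 p q h.1, fun x i hxi => ?_⟩
  have h6 := h3 x i (hsub hxi)
  rw [← h6, hρ _ hxi, hsingle]

end Crest.Agent.FP
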