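import Mathlib
import Crest.Agent.FP_Restrict
import Crest.Agent.FP_MTP

/-!
# Task FP-R2: vertices of a restriction
-/

set_option autoImplicit false

open MeasureTheory
open scoped ENNReal

namespace Crest.Agent.FP

variable {Γ X : Type} [Group Γ] [Countable Γ] [MulAction Γ X] [MeasurableSpace X]
  {D : ℕ} [NeZero D] {G : PolyData Γ D} {μ : Measure X} [IsProbabilityMeasure μ] {f : X → ℝ}
  {E E' F F' : Set (X × ℕ)} {r : Pt X → Pt X → Prop}
  {N : Set (X × ℕ)} {s : X × ℕ → (X × ℕ →₀ ℚ)}

/-! ### auxiliary lemmas (no structure assumed) -/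

section aux

set_option linter.unusedSectionVars false

theorem VmRes_deg_congr {r : Pt X → Pt X → Prop} {p q : Pt X} (h : ∀ s, r p s ↔ r q s) :
    deg r p = deg r q := by
  unfold deg
  refine tsum_congr fun s => ?_
  by_cases hs : r q (s.1, some s.2)
  · have := (h _).2 hs
    simp [hs, this]
  · have : ¬ r p (s.1, some s.2) := fun h' => hs ((h _).1 h')
    simp [hs, this]

theorem VmRes_wt_congr {r : Pt X → Pt X → Prop} {p q : Pt X} (h : ∀ s, r p s ↔ r q s) :
    wt r p = wt r q := by
  have hb : IsBase r p ↔ IsBase r q := exists_congr fun y => h _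
  unfold wt
  rw [VmRes_deg_congr h]
  by_cases h' : IsBase r q
  · simp [h', hb.2 h']
  · have : ¬ IsBase r p := fun h'' => h' (hb.1 h'')
    simp [h', this]

/-- degree and weight of an end: the product is at most one -/
theorem VmRes_deg_mul_wt_le {r : Pt X → Pt X → Prop} (p : Pt X) : deg r p * wt r p ≤ 1 := by
  unfold wt
  split_ifs with h
  · simp
  · exact ENNReal.mul_inv_le_one _

/-- sum of the weights of a class -/
theorem VmRes_sum_wt {r : Pt X → Pt X → Prop} (p : Pt X)
    (h : ∀ q, r p q → ∀ s, r p s ↔ r q s) (F : X × (ℕ × Bool) → ℝ≥0∞)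
    (hF : ∀ q : X × (ℕ × Bool), r p (q.1, some q.2) → F q = wt r (q.1, some q.2))
    (hF0 : ∀ q : X × (ℕ × Bool), ¬ r p (q.1, some q.2) → F q = 0) :
    ∑' q, F q = deg r p * wt r p := by
  classical
  unfold deg
  rw [← ENNReal.tsum_mul_right]
  refine tsum_congr fun q => ?_
  by_cases hq : r p (q.1, some q.2)
  · rw [hF q hq, ← VmRes_wt_congr (h _ hq)]
    simp [hq]
  · rw [hF0 q hq]
    simp [hq]

theorem VmRes_meas_deg (hfree : ∀ (g : Γ) (x : X), g • x = x → g = 1)
    {r : Pt X → Pt X → Prop} (hr : MRel Γ r) (k : Option (ℕ × Bool)) :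
    Measurable fun x : X => deg r (x, k) := by
  classical
  have : (fun x : X => deg r (x, k)) = fun x => ∑' (g : Γ) (j : ℕ × Bool),
      if r (x, k) (g • x, some j) then (1 : ℝ≥0∞) else 0 := by
    funext x
    unfold deg
    refine tsum_orbit hfree x
      (fun q : X × (ℕ × Bool) => if r (x, k) (q.1, some q.2) then (1 : ℝ≥0∞) else 0) ?_
    intro q hq
    by_cases h : r (x, k) (q.1, some q.2)
    · exact hr.1 _ _ h
    · simp [h] at hq
  rw [this]
  exact Measurable.tsum fun g => Measurable.tsum fun j =>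
    Measurable.ite (hr.2 g k (some j)) measurable_const measurable_const

theorem VmRes_meas_wt (hfree : ∀ (g : Γ) (x : X), g • x = x → g = 1)
    {r : Pt X → Pt X → Prop} (hr : MRel Γ r) (k : Option (ℕ × Bool)) :
    Measurable fun x : X => wt r (x, k) := by
  classical
  unfold wt
  refine Measurable.ite ?_ measurable_const (VmRes_meas_deg hfree hr k).inv
  have : {x : X | IsBase r (x, k)} = ⋃ g : Γ, {x | r (x, k) (g • x, none)} := by
    ext x
    simp only [IsBase, Set.mem_ofPred_eq, Set.mem_iUnion]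
    constructor
    · rintro ⟨y, hy⟩
      obtain ⟨g, hg⟩ := hr.1 _ _ hy
      exact ⟨g, by rw [← show y = g • x from hg]; exact hy⟩
    · rintro ⟨g, hg⟩
      exact ⟨_, hg⟩
  rw [this]
  exact MeasurableSet.iUnion fun g => hr.2 g k none

theorem VmRes_mrel (hK : IsPre G μ E r) : MRel Γ r := by
  refine ⟨fun p q h => ?_, fun g i k => hK.measr g i k⟩
  obtain ⟨a, -, ha⟩ := hK.rloc p q h
  have hl : ∀ p : Pt X, ∃ g : Γ, loc G p = g • p.1 := by
    rintro ⟨x, k⟩
    rcases k with _ | ⟨i, _ | _⟩
    · exact ⟨1, by simp [loc]⟩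
    · exact ⟨1, by simp [loc]⟩
    · exact ⟨G.z, by simp [loc]⟩
  obtain ⟨g, hg⟩ := hl p
  obtain ⟨g', hg'⟩ := hl q
  refine ⟨g'⁻¹ * (a * g), ?_⟩
  rw [mul_smul, mul_smul, ← hg, ← ha, hg', inv_smul_smul]

theorem VmRes_act_iff (x : X) (i : ℕ) (b : Bool) : Act E' (x, some (i, b)) ↔ (x, i) ∈ E' := by
  refine ⟨fun h => h i b rfl, fun h i' b' hh => ?_⟩
  simp only [Option.some.injEq, Prod.mk.injEq] at hh
  rw [← hh.1]; exact h

theorem VmRes_act_meas (hm : MSet E') : MSet {p : Pt X | Act E' p} := by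
  intro k
  rcases k with _ | ⟨i, b⟩
  · convert MeasurableSet.univ
    simp [Act]
  · convert hm i using 1
    ext x
    exact VmRes_act_iff x i b

theorem VmRes_sint_zero {ι : Type} {h : X × ι → ℝ≥0∞} (hm : ∀ i, Measurable fun x => h (x, i))
    (hfin : sint μ (fun p => h p * ∞) ≠ ∞) : sint μ h = 0 := by
  unfold sint at hfin ⊢
  rw [ENNReal.tsum_eq_zero]
  intro i
  have h1 : ∫⁻ x, h (x, i) * ∞ ∂μ ≠ ∞ := fun h0 => hfin (ENNReal.tsum_eq_top_of_eq_top ⟨i, h0⟩)
  rw [lintegral_mul_const _ (hm i)] at h1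
  by_contra h2
  exact h1 (ENNReal.mul_top h2)

theorem VmRes_smeas_ends : smeas μ (Ends E) = 2 * smeas μ E := by
  unfold smeas Ends
  rw [ENNReal.tsum_prod' (f := fun k : ℕ × Bool => μ {x | (x, k) ∈ {q : X × (ℕ × Bool) | (q.1, q.2.1) ∈ E}})]
  rw [← ENNReal.tsum_mul_left]
  refine tsum_congr fun i => ?_
  rw [tsum_bool]
  simp [two_mul]

end aux

/-- **Vertices of a restriction.**  PROOF: mass transport.  Let `w' = wt (resR E' r)`, `w = wt r`.
(1) The set `B` of ends `p` of `E'` with `w' p ≠ 0` whose `r`-class is infinite is null: transport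
`F(q, p) = w'(p)` for `q` an end of `E` in the class of `p ∈ B`: received `∞ · w'(p) = ∞`, sent
`≤ 1`, and `smeas (Ends E) = 2 smeas E < ∞`.
(2) For classes of finite degree transport `F(p, q) = w'(p) w(q)`, `p` end of `E'`, `q` end of `E` in
the same nonbase class: sum over `q` is `w'(p)`, sum over `p` is `w(q)` if the class has an end of `E'`
(i.e. `q ∉ Lost`). -/
theorem Vm_res (hX : IsGoodAction G X μ f) (hK : IsPre G μ E r) (hsub : E' ⊆ E) (hm : MSet E') :
    Vm μ E' (resR E' r) +
      sint μ (fun q : X × (ℕ × Bool) =>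
        (Lost E E' r).indicator (fun q => wt r (q.1, some q.2)) q) ≤ Vm μ E r := by
  classical
  have hrm : MRel Γ r := VmRes_mrel hK
  have hr'm : MRel Γ (resR E' r) :=
    (hrm.and_left (P := fun p => Act E' p) (VmRes_act_meas hm)).and_right hX.mp
      (P := fun p => Act E' p) (VmRes_act_meas hm) |> fun h => by
        refine ⟨fun p q hpq => hrm.1 p q hpq.1, fun g i k => ?_⟩
        have := h.2 g i k
        simpa [resR, and_assoc] using this
  -- classes
  have hcl : ∀ p q, r p q → ∀ s, r p s ↔ r q s := fun p q h s =>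
    ⟨fun h' => hK.trans _ _ _ (hK.symm _ _ h) h', fun h' => hK.trans _ _ _ h h'⟩
  have hcl' : ∀ p q, resR E' r p q → ∀ s, resR E' r p s ↔ resR E' r q s := fun p q h s =>
    ⟨fun h' => ⟨(hcl _ _ h.1 s).1 h'.1, h.2.2, h'.2.2⟩,
      fun h' => ⟨(hcl _ _ h.1 s).2 h'.1, h.2.1, h'.2.2⟩⟩
  have hsym' : ∀ p q, resR E' r p q → resR E' r q p := fun p q h =>
    ⟨hK.symm _ _ h.1, h.2.2, h.2.1⟩
  have hend : ∀ q : X × (ℕ × Bool), q ∈ Ends E ↔ Act E (q.1, some q.2) := fun q =>
    (VmRes_act_iff q.1 q.2.1 q.2.2).symm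
  have hend' : ∀ q : X × (ℕ × Bool), q ∈ Ends E' ↔ Act E' (q.1, some q.2) := fun q =>
    (VmRes_act_iff q.1 q.2.1 q.2.2).symm
  have hsubE : Ends E' ⊆ Ends E := fun q hq => hsub hq
  have hbase : ∀ p : Pt X, Act E' p → IsBase r p → IsBase (resR E' r) p := by
    rintro p hp ⟨y, hy⟩
    exact ⟨y, hy, hp, fun i b h => by simp at h⟩
  -- the sum of the new weights in a class of `r`
  have hsum' : ∀ q : X × (ℕ × Bool),
      ∑' p : X × (ℕ × Bool), (if p ∈ Ends E' ∧ r (p.1, some p.2) (q.1, some q.2) then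
        wt (resR E' r) (p.1, some p.2) else 0) ≤ 1 := by
    intro q
    by_cases hex : ∃ p : X × (ℕ × Bool), p ∈ Ends E' ∧ r (p.1, some p.2) (q.1, some q.2)
    · obtain ⟨p0, hp0, hr0⟩ := hex
      refine le_trans (le_of_eq ?_) (VmRes_deg_mul_wt_le (r := resR E' r) (p0.1, some p0.2))
      refine VmRes_sum_wt _ (hcl' _) _ (fun p hp => ?_) (fun p hp => ?_)
      · rw [if_pos]
        exact ⟨(hend' p).2 hp.2.2, hK.trans _ _ _ (hK.symm _ _ hp.1) hr0⟩
      · rw [if_neg]
        rintro ⟨h1, h2⟩
        exact hp ⟨hK.trans _ _ _ hr0 (hK.symm _ _ h2), (hend' p0).1 hp0, (hend' p).1 h1⟩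
    · refine le_trans (le_of_eq ?_) zero_le_one
      rw [ENNReal.tsum_eq_zero]
      intro p
      rw [if_neg]
      exact fun h => hex ⟨p, h⟩
  have hmEnds' : ∀ k : ℕ × Bool, MeasurableSet {x | (x, k) ∈ Ends E'} := fun k => hm k.1
  have hmEnds : ∀ k : ℕ × Bool, MeasurableSet {x | (x, k) ∈ Ends E} := fun k => hK.measE k.1
  have hmg : ∀ g : Γ, Measurable fun x : X => g • x := fun g => (hX.mp g).measurable
  -- (1)
  let B : X × (ℕ × Bool) → Prop := fun p => p ∈ Ends E' ∧ deg r (p.1, some p.2) = ∞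
  have hmB : ∀ k : ℕ × Bool, MeasurableSet {x | B (x, k)} := fun k =>
    (hmEnds' k).inter ((VmRes_meas_deg hX.free hrm (some k)) (measurableSet_singleton ∞))
  have h1 : sint μ (fun p : X × (ℕ × Bool) =>
      if B p then wt (resR E' r) (p.1, some p.2) else 0) = 0 := by
    refine VmRes_sint_zero (fun k => Measurable.ite (hmB k)
      (VmRes_meas_wt hX.free hr'm (some k)) measurable_const) ?_
    have hmt := mtp (μ := μ) (ι := ℕ × Bool) (κ := ℕ × Bool) hX.free hX.mp
      (fun q p : X × (ℕ × Bool) => if B p ∧ r (q.1, some q.2) (p.1, some p.2) then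
        wt (resR E' r) (p.1, some p.2) else 0)
      (fun q p h => by
        by_cases h' : B p ∧ r (q.1, some q.2) (p.1, some p.2)
        · exact hrm.1 _ _ h'.2
        · exact absurd (if_neg h') h)
      (fun g i k => by
        refine Measurable.ite ?_ ?_ measurable_const
        · exact ((hmg g) (hmB k)).inter (hrm.2 g (some i) (some k))
        · exact (VmRes_meas_wt hX.free hr'm (some k)).comp (hmg g))
    have hR : (fun p : X × (ℕ × Bool) => ∑' q : X × (ℕ × Bool),
        (if B p ∧ r (q.1, some q.2) (p.1, some p.2) then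
        wt (resR E' r) (p.1, some p.2) else 0)) =
        fun p : X × (ℕ × Bool) => (if B p then wt (resR E' r) (p.1, some p.2) else 0) * ∞ := by
      funext p
      by_cases hp : B p
      · simp only [hp, true_and, if_true]
        have hd := hp.2
        unfold deg at hd
        rw [← hd, ← ENNReal.tsum_mul_left]
        refine tsum_congr fun q => ?_
        by_cases hq : r (q.1, some q.2) (p.1, some p.2)
        · simp [hq, hK.symm _ _ hq]
        · have : ¬ r (p.1, some p.2) (q.1, some q.2) := fun h => hq (hK.symm _ _ h)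
          simp [hq, this]
      · simp [hp]
    rw [← hR, ← hmt]
    have hle : sint μ (fun q : X × (ℕ × Bool) => ∑' p : X × (ℕ × Bool),
        (if B p ∧ r (q.1, some q.2) (p.1, some p.2) then
        wt (resR E' r) (p.1, some p.2) else 0)) ≤ smeas μ (Ends E) := by
      rw [smeas_eq_sint (P := Ends E) hmEnds]
      refine sint_mono fun q => ?_
      by_cases hq : q ∈ Ends E
      · rw [Set.indicator_of_mem hq, Pi.one_apply]
        refine le_trans (ENNReal.tsum_le_tsum fun p => ?_) (hsum' q)
        by_cases h : B p ∧ r (q.1, some q.2) (p.1, some p.2)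
        · rw [if_pos h, if_pos ⟨h.1.1, hK.symm _ _ h.2⟩]
        · rw [if_neg h]; exact zero_le
      · rw [Set.indicator_of_notMem hq]
        refine le_of_eq (ENNReal.tsum_eq_zero.2 fun p => if_neg fun h => ?_)
        exact hq ((hend q).2 (hK.supp _ _ h.2))
    refine ne_top_of_le_ne_top ?_ hle
    rw [VmRes_smeas_ends]
    exact ENNReal.mul_ne_top (by simp) hK.finE
  -- (2)
  have h2 := mtp (μ := μ) (ι := ℕ × Bool) (κ := ℕ × Bool) hX.free hX.mp
    (fun p q : X × (ℕ × Bool) => if p ∈ Ends E' ∧ r (p.1, some p.2) (q.1, some q.2) then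
      wt (resR E' r) (p.1, some p.2) * wt r (q.1, some q.2) else 0)
    (fun p q h => by
      by_cases h' : p ∈ Ends E' ∧ r (p.1, some p.2) (q.1, some q.2)
      · exact hrm.1 _ _ h'.2
      · exact absurd (if_neg h') h)
    (fun g i k => by
      refine Measurable.ite ?_ ?_ measurable_const
      · exact (hmEnds' i).inter (hrm.2 g (some i) (some k))
      · exact (VmRes_meas_wt hX.free hr'm (some i)).mul
          ((VmRes_meas_wt hX.free hrm (some k)).comp (hmg g)))
  have hL : ∀ p : X × (ℕ × Bool), ∑' q : X × (ℕ × Bool),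
      (if p ∈ Ends E' ∧ r (p.1, some p.2) (q.1, some q.2) then
      wt (resR E' r) (p.1, some p.2) * wt r (q.1, some q.2) else 0) =
      if p ∈ Ends E' ∧ deg r (p.1, some p.2) ≠ ∞ then wt (resR E' r) (p.1, some p.2) else 0 := by
    intro p
    by_cases hp : p ∈ Ends E'
    · have e1 : ∑' q : X × (ℕ × Bool),
        (if p ∈ Ends E' ∧ r (p.1, some p.2) (q.1, some q.2) then
          wt (resR E' r) (p.1, some p.2) * wt r (q.1, some q.2) else 0) =
          wt (resR E' r) (p.1, some p.2) * ∑' q : X × (ℕ × Bool),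
          (if r (p.1, some p.2) (q.1, some q.2) then wt r (q.1, some q.2) else 0) := by
        rw [← ENNReal.tsum_mul_left]
        refine tsum_congr fun q => ?_
        simp [hp]
      rw [e1, VmRes_sum_wt _ (hcl _) _ (fun q hq => if_pos hq) (fun q hq => if_neg hq)]
      by_cases hb : IsBase r (p.1, some p.2)
      · have : wt (resR E' r) (p.1, some p.2) = 0 := by
          unfold wt
          exact if_pos (hbase _ ((hend' p).1 hp) hb)
        simp [this]
      · have hw : wt r (p.1, some p.2) = (deg r (p.1, some p.2))⁻¹ := by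
          unfold wt
          exact if_neg hb
        rw [hw]
        by_cases hd : deg r (p.1, some p.2) = ∞
        · simp [hd]
        · have hd0 : deg r (p.1, some p.2) ≠ 0 := by
            unfold deg
            intro h0
            rw [ENNReal.tsum_eq_zero] at h0
            have := h0 p
            rw [if_pos (hK.refl _ ((hend p).1 (hsubE hp)))] at this
            exact one_ne_zero this
          rw [ENNReal.mul_inv_cancel hd0 hd]
          simp [hp, hd]
    · simp [hp]
  simp only [hL] at h2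
  have hR : sint μ (fun q : X × (ℕ × Bool) => ∑' p : X × (ℕ × Bool),
      (if p ∈ Ends E' ∧ r (p.1, some p.2) (q.1, some q.2) then
      wt (resR E' r) (p.1, some p.2) * wt r (q.1, some q.2) else 0)) ≤
      sint μ (fun q : X × (ℕ × Bool) => (Ends E \ Lost E E' r).indicator
        (fun q => wt r (q.1, some q.2)) q) := by
    refine sint_mono fun q => ?_
    by_cases hq : q ∈ Ends E \ Lost E E' r
    · rw [Set.indicator_of_mem hq]
      have e2 : ∑' p : X × (ℕ × Bool),
        (if p ∈ Ends E' ∧ r (p.1, some p.2) (q.1, some q.2) then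
        wt (resR E' r) (p.1, some p.2) * wt r (q.1, some q.2) else 0) =
        (∑' p : X × (ℕ × Bool), (if p ∈ Ends E' ∧ r (p.1, some p.2) (q.1, some q.2) then
        wt (resR E' r) (p.1, some p.2) else 0)) * wt r (q.1, some q.2) := by
        rw [← ENNReal.tsum_mul_right]
        refine tsum_congr fun p => ?_
        split_ifs <;> simp
      rw [e2]
      calc _ ≤ 1 * wt r (q.1, some q.2) := by gcongr; exact hsum' q
        _ = _ := one_mul _
    · rw [Set.indicator_of_notMem hq]
      refine le_of_eq (ENNReal.tsum_eq_zero.2 fun p => if_neg ?_)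
      rintro ⟨h3, h4⟩
      refine hq ⟨(hend q).2 (hK.supp _ _ (hK.symm _ _ h4)), fun h5 => ?_⟩
      exact h5.2 p (hK.symm _ _ h4) h3
  have h3 : Vm μ E' (resR E' r) = sint μ (fun p : X × (ℕ × Bool) =>
      if p ∈ Ends E' ∧ deg r (p.1, some p.2) ≠ ∞ then wt (resR E' r) (p.1, some p.2) else 0) := by
    have e3 : Vm μ E' (resR E' r) = sint μ (fun p : X × (ℕ × Bool) =>
        (if p ∈ Ends E' ∧ deg r (p.1, some p.2) ≠ ∞ then wt (resR E' r) (p.1, some p.2) else 0) +
        (if B p then wt (resR E' r) (p.1, some p.2) else 0)) := by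
      unfold Vm
      congr 1
      funext p
      by_cases hp : p ∈ Ends E'
      · rw [Set.indicator_of_mem hp]
        by_cases hd : deg r (p.1, some p.2) = ∞
        · simp [B, hp, hd]
        · simp [B, hp, hd]
      · rw [Set.indicator_of_notMem hp]
        simp [B, hp]
    rw [e3, sint_add, h1, add_zero]
    intro k
    refine Measurable.ite ?_ (VmRes_meas_wt hX.free hr'm (some k)) measurable_const
    exact (hmEnds' k).inter
      ((VmRes_meas_deg hX.free hrm (some k)) (measurableSet_singleton ∞).compl)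
  rw [h3, h2]
  refine le_trans (add_le_add_left hR _) ?_
  unfold Vm sint
  rw [← ENNReal.tsum_add]
  refine ENNReal.tsum_le_tsum fun k => ?_
  refine le_trans (le_lintegral_add _ _) (lintegral_mono fun x => ?_)
  by_cases hq : (x, k) ∈ Ends E
  · by_cases hl : (x, k) ∈ Lost E E' r
    · simp [hq, hl]
    · simp [hq, hl]
  · have hl : (x, k) ∉ Lost E E' r := fun h => hq h.1
    simp [hq, hl]

end Crest.Agent.FP
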