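import Mathlib
import Crest.Agent.FP_Ops

/-!
# Task FP-ROW: pushing rows forward by a measurable kernel
-/

set_option autoImplicit false

open MeasureTheory
open scoped ENNReal

namespace Crest.Agent.FP

variable {Γ X : Type} [Group Γ] [Countable Γ] [MulAction Γ X] [MeasurableSpace X]
  {μ : Measure X}

/-- A measurable kernel: every slot is sent to a finite rational combination of slots of its orbit. -/
structure IsKer (Γ : Type) [Group Γ] [MulAction Γ X] {ι κ : Type} (ρ : X × ι → (X × κ →₀ ℚ)) :
    Prop where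
  orb : ∀ e, ∀ e' ∈ (ρ e).support, ∃ g : Γ, e'.1 = g • e.1
  meas : ∀ (g : Γ) i k (a : ℚ), MeasurableSet {x | ρ (x, i) (g • x, k) = a}

/-- PROOF: for fixed `k g i'` the function `x ↦ (∑_e s(x,k)(e) ρ(e))(g x, i')` is the (pointwise
eventually constant) limit of the finite partial sums over `(h, i) ∈ Γ × ι`,
`s(x,k)(h x, i) * ρ(h x, i)(g x, i')`, hence measurable into `ℚ` with the discrete σ-algebra
(`ρ(h x,i)(g x,i') = ρ(x', i)((g h⁻¹) x', i')` at `x' = h x`). -/
theorem IsRows.push {ι κ τ : Type} [Countable ι] [Countable κ] [Countable τ]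
    (hfree : ∀ (g : Γ) (x : X), g • x = x → g = 1)
    (hmp : ∀ g : Γ, MeasurePreserving (fun x : X => g • x) μ μ)
    {N : Set (X × κ)} {s : X × κ → (X × ι →₀ ℚ)} {ρ : X × ι → (X × τ →₀ ℚ)}
    (hs : IsRows Γ N s) (hρ : IsKer Γ ρ) :
    IsRows Γ N (fun n => (s n).sum fun e a => a • ρ e) := by
  classical
  refine ⟨hs.measN, ?_, ?_⟩
  · intro n hn e he
    have h1 := Finsupp.support_sum he
    rw [Finset.mem_biUnion] at h1
    obtain ⟨e0, he0, he1⟩ := h1
    obtain ⟨g, hg⟩ := hs.orb n hn e0 he0
    have h2 := Finsupp.support_smul he1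
    obtain ⟨g', hg'⟩ := hρ.orb e0 e h2
    exact ⟨g' * g, by rw [hg', hg, mul_smul]⟩
  · intro g k i' a
    -- the terms
    let u : Γ × ι → X → ℚ := fun p x => if (x, k) ∈ N then s (x, k) (p.1 • x, p.2) else 0
    let v : Γ × ι → X → ℚ := fun p x => ρ (p.1 • x, p.2) (g • x, i')
    have hNk : MeasurableSet {x | (x, k) ∈ N} := hs.measN k
    have hu : ∀ p, Measurable (u p) := by
      intro p
      refine measurable_to_countable' fun b => ?_
      have : u p ⁻¹' {b} = {x | (x, k) ∈ N ∧ s (x, k) (p.1 • x, p.2) = b} ∪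
          ({x | (x, k) ∈ N}ᶜ ∩ {x | (0 : ℚ) = b}) := by
        ext x
        by_cases hx : (x, k) ∈ N <;> simp [u, hx]
      rw [this]
      exact (hs.meass p.1 k p.2 b).union (hNk.compl.inter (MeasurableSet.const _))
    have hv : ∀ p, Measurable (v p) := by
      intro p
      refine measurable_to_countable' fun b => ?_
      have : v p ⁻¹' {b} = (fun x : X => p.1 • x) ⁻¹'
          {x | ρ (x, p.2) ((g * p.1⁻¹) • x, i') = b} := by
        ext x
        simp [v, mul_smul]
      rw [this]
      exact (hmp p.1).measurable (hρ.meas _ _ _ _)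
    let P : Finset (Γ × ι) → X → ℚ := fun T x => ∑ p ∈ T, u p x * v p x
    have hP : ∀ T, Measurable (P T) := by
      intro T
      refine Finset.measurable_sum _ fun p _ => ?_
      exact (hu p).mul (hv p)
    let φ : X → Γ × ι → X × ι := fun x p => (p.1 • x, p.2)
    have hφ : ∀ x, Function.Injective (φ x) := by
      rintro x ⟨h, i⟩ ⟨h', i''⟩ hh
      simp only [φ, Prod.mk.injEq] at hh
      obtain ⟨h1, h2⟩ := hh
      have : (h'⁻¹ * h) • x = x := by rw [mul_smul, h1, inv_smul_smul]
      have := hfree _ _ this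
      rw [inv_mul_eq_one] at this
      simp [this, h2]
    have key : ∀ x, (x, k) ∈ N → ∀ T : Finset (Γ × ι),
        (s (x, k)).support.preimage (φ x) (hφ x).injOn ⊆ T →
        P T x = ((s (x, k)).sum fun e a => a • ρ e) (g • x, i') := by
      intro x hx T hT
      have h1 : P T x = ∑ p ∈ (s (x, k)).support.preimage (φ x) (hφ x).injOn, u p x * v p x := by
        symm
        refine Finset.sum_subset hT fun p _ hp => ?_
        rw [Finset.mem_preimage, Finsupp.mem_support_iff, not_not] at hp
        have : u p x = 0 := by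
          simp only [u, hx, if_true]
          exact hp
        rw [this, zero_mul]
      rw [h1, Finsupp.sum, Finsupp.finset_sum_apply]
      have h2 := Finset.sum_preimage (φ x) (s (x, k)).support (hφ x).injOn
        (fun e => (s (x, k) e) * ρ e (g • x, i')) (by
          intro e he hne
          exfalso
          apply hne
          obtain ⟨h, hh⟩ := hs.orb (x, k) hx e he
          exact ⟨(h, e.2), by simp [φ, ← hh]⟩)
      rw [show (∑ e ∈ (s (x, k)).support, ((s (x, k)) e • ρ e) (g • x, i')) =
        ∑ e ∈ (s (x, k)).support, (s (x, k) e) * ρ e (g • x, i') from rfl, ← h2]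
      refine Finset.sum_congr rfl fun p _ => ?_
      simp only [u, v, hx, if_true, φ]
    have hset : {x | (x, k) ∈ N ∧ ((s (x, k)).sum fun e a => a • ρ e) (g • x, i') = a} =
        {x | (x, k) ∈ N} ∩ ⋃ T : Finset (Γ × ι), ⋂ T' : {T' : Finset (Γ × ι) // T ⊆ T'},
          P T' ⁻¹' {a} := by
      ext x
      constructor
      · rintro ⟨hx, hxa⟩
        refine ⟨hx, ?_⟩
        refine Set.mem_iUnion.2 ⟨(s (x, k)).support.preimage (φ x) (hφ x).injOn, ?_⟩
        refine Set.mem_iInter.2 fun T' => ?_
        change P T' x = a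
        rw [key x hx T' T'.2, hxa]
      · rintro ⟨hx, hx2⟩
        refine ⟨hx, ?_⟩
        obtain ⟨T, hT⟩ := Set.mem_iUnion.1 hx2
        have hT2 := Set.mem_iInter.1 hT
          ⟨T ∪ (s (x, k)).support.preimage (φ x) (hφ x).injOn, Finset.subset_union_left⟩
        change P _ x = a at hT2
        rw [← hT2]
        exact (key x hx _ Finset.subset_union_right).symm
    change MeasurableSet {x | (x, k) ∈ N ∧ ((s (x, k)).sum fun e a => a • ρ e) (g • x, i') = a}
    rw [hset]
    refine hNk.inter (MeasurableSet.iUnion fun T => MeasurableSet.iInter fun T' => ?_)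
    exact hP _ (measurableSet_singleton a)

/-- The kernel `e ↦ single (h e) 1` of a slot map. -/
theorem isKer_map {ι κ : Type} [Countable ι] [Countable κ]
    (hfree : ∀ (g : Γ) (x : X), g • x = x → g = 1)
    (h : X × ι → X × κ) (P : Set (X × ι)) (hP : MSet P)
    (horb : ∀ e, ∃ g : Γ, (h e).1 = g • e.1)
    (hm : ∀ (g : Γ) i k, MeasurableSet {x | h (x, i) = (g • x, k)}) :
    open Classical in
    IsKer Γ (fun e => if e ∈ P then Finsupp.single (h e) (1 : ℚ) else 0) := by
  classical
  refine ⟨?_, ?_⟩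
  · intro e e' he'
    by_cases he : e ∈ P
    · simp only [he, if_true] at he'
      have h1 := Finsupp.support_single_subset he'
      rw [Finset.mem_singleton] at h1
      rw [h1]
      exact horb e
    · simp [he] at he'
  · intro g i k a
    have : {x | (if (x, i) ∈ P then Finsupp.single (h (x, i)) (1 : ℚ) else 0) (g • x, k) = a} =
        (({x | (x, i) ∈ P} ∩ {x | h (x, i) = (g • x, k)}) ∩ {x | (1 : ℚ) = a}) ∪
        (({x | (x, i) ∈ P} ∩ {x | h (x, i) = (g • x, k)})ᶜ ∩ {x | (0 : ℚ) = a}) := by
      ext x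
      by_cases hx : (x, i) ∈ P <;> by_cases hx2 : h (x, i) = (g • x, k) <;>
        simp [hx, hx2, Finsupp.single_apply]
    rw [this]
    exact (((hP i).inter (hm g i k)).inter (MeasurableSet.const _)).union
      (((hP i).inter (hm g i k)).compl.inter (MeasurableSet.const _))

theorem pair_push {ι κ U : Type} [AddCommGroup U] [Module ℚ U]
    (c : X × ι →₀ ℚ) (ρ : X × ι → (X × κ →₀ ℚ)) (β : X × κ → U) :
    pair (c.sum fun e a => a • ρ e) β = pair c (fun e => pair (ρ e) β) := by
  have hp : ∀ (d : X × κ →₀ ℚ), pair d β = Finsupp.linearCombination ℚ β d := fun d => rfl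
  rw [hp, map_finsuppSum]
  unfold pair
  refine Finsupp.sum_congr fun e _ => ?_
  rw [map_smul]
  rfl

end Crest.Agent.FP
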