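import Mathlib
import Crest.Agent.FP_CellM
import Crest.Agent.FP_RestrictV
import Crest.Agent.FP_Rows
import Crest.Agent.FP_Wt

/-!
# Task FP-K2: collapsing the good cells

For every good cell `(y, i)` (cell data `c`) choose the least `j` (w.r.t. `ZMod.val`) such that
`(y, (j, i))` is a free corner, and remove the two edges `e_j, e_{j+1}` of the cell (with the vertex of
degree two between them) and the cell.  `F' = F \ GoodCells`.

* The removed edges are private, so they belong to no other cell: removed pairs of different good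
  cells are disjoint, the cells of `F'` keep all their edges (`res_isCx`), and all the other `D - 2`
  edges of the cell stay; they join the outer ends of `e_j` and `e_{j+1}`.
* Connectivity: every path can be rerouted (a path of `E` can use the two removed edges of a cell only
  one right after the other - or turn back in the middle - because the vertex in between has degree two
  and is not base).
* Rows: `ρ e = single e 1` for `e ∈ E'`; for a removed pair of the cell `c`: `ρ e_j = - ∑_{k ≠ j, j+1}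
  single e_k 1`, `ρ e_{j+1} = 0`.  Then `∑_k ρ e_k = 0` for good cells.  (`res_gen`, `IsRows.push`.)
* Vertices: `Vm_res`; the two ends at the free corner vertex are in `Lost` and have weight `1/2` each,
  so `Vm' + smeas (good cells) ≤ Vm` (the map (good cell) ↦ end `(e_j, true)` is injective and
  moves along orbits, likewise `(e_{j+1}, false)`: mass transport).
-/

set_option autoImplicit false
set_option linter.unusedSectionVars false

open MeasureTheory
open scoped ENNReal

namespace Crest.Agent.FP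

/-! ### paths -/

section ReachLemmas

variable {X : Type} {E : Set (X × ℕ)} {r : Pt X → Pt X → Prop}

theorem clp_right (ht : ∀ p q s, r p q → r q s → r p s) {n : ℕ} {p q q' : Pt X}
    (h : Reach E r n p q) (hq : r q q') : Reach E r n p q' := by
  cases n with
  | zero => exact ht _ _ _ h hq
  | succ n =>
    obtain ⟨x, i, b, h1, h2, h3⟩ := h
    exact ⟨x, i, b, h1, h2, ht _ _ _ h3 hq⟩

theorem clp_left (ht : ∀ p q s, r p q → r q s → r p s) {n : ℕ} {p p' q : Pt X}
    (hp : r p p') (h : Reach E r n p' q) : Reach E r n p q := by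
  induction n generalizing q with
  | zero => exact ht _ _ _ hp h
  | succ n ih =>
    obtain ⟨x, i, b, h1, h2, h3⟩ := h
    exact ⟨x, i, b, h1, ih h2, h3⟩

theorem clp_trans (ht : ∀ p q s, r p q → r q s → r p s) {n m : ℕ} {p q s : Pt X}
    (h : Reach E r n p q) (h' : Reach E r m q s) : Reach E r (n + m) p s := by
  induction m generalizing s with
  | zero => exact clp_right ht h h'
  | succ m ih =>
    obtain ⟨x, i, b, h1, h2, h3⟩ := h'
    exact ⟨x, i, b, h1, ih h2, h3⟩

theorem clp_symm (hr : ∀ p, Act E p → r p p) (hs : ∀ p q, r p q → r q p)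
    (ht : ∀ p q s, r p q → r q s → r p s) {n : ℕ} {p q : Pt X}
    (h : Reach E r n p q) : Reach E r n q p := by
  induction n generalizing q with
  | zero => exact hs _ _ h
  | succ n ih =>
    obtain ⟨x, i, b, h1, h2, h3⟩ := h
    have h4 := ih h2
    have h5 : Reach E r 1 q (x, some (i, b)) := by
      refine ⟨x, i, !b, h1, hs _ _ h3, ?_⟩
      rw [Bool.not_not]
      apply hr
      intro i' b' h
      simp only [Option.some.injEq, Prod.mk.injEq] at h
      rw [← h.1]
      exact h1
    have := clp_trans ht h5 h4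
    rwa [Nat.add_comm] at this

end ReachLemmas

variable {Γ X : Type} [Group Γ] [Countable Γ] [MulAction Γ X] [MeasurableSpace X]
  {D : ℕ} [NeZero D] {G : PolyData Γ D} {μ : Measure X} [IsProbabilityMeasure μ] {f : X → ℝ}
  {E F N : Set (X × ℕ)} {r : Pt X → Pt X → Prop} {s : X × ℕ → (X × ℕ →₀ ℚ)}

/-! ### selected free corners -/

/-- The first free corner of a cell. -/
def Sel (G : PolyData Γ D) (E : Set (X × ℕ)) (r : Pt X → Pt X → Prop) (F : Set (X × ℕ))
    (q : X × (ZMod D × ℕ)) : Prop :=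
  FreeCorner G E r F q ∧
    ∀ j' : ZMod D, ZMod.val j' < ZMod.val q.2.1 → ¬ FreeCorner G E r F (q.1, (j', q.2.2))

/-- Selected free corners with the cell data. -/
def SelC (G : PolyData Γ D) (E : Set (X × ℕ)) (r : Pt X → Pt X → Prop) (F : Set (X × ℕ))
    (y : X) (j : ZMod D) (c : ZMod D → ℕ) : Prop :=
  Sel G E r F (y, (j, c 0)) ∧ IsCell G E r y c

/-- The removed edges. -/
def Rem (G : PolyData Γ D) (E : Set (X × ℕ)) (r : Pt X → Pt X → Prop) (F : Set (X × ℕ))
    (e : X × ℕ) : Prop :=
  ∃ y j c, SelC G E r F y j c ∧ (e = (G.u j • y, c j) ∨ e = (G.u (j + 1) • y, c (j + 1)))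

/-- The remaining edges. -/
def clpE (G : PolyData Γ D) (E : Set (X × ℕ)) (r : Pt X → Pt X → Prop) (F : Set (X × ℕ)) :
    Set (X × ℕ) := {e | e ∈ E ∧ ¬ Rem G E r F e}

omit [Countable Γ] [MeasurableSpace X] in
theorem clp_one_ne (hG : G.Good) : (1 : ZMod D) ≠ 0 := by
  have hD := hG.hD
  have : Fact (1 < D) := ⟨by omega⟩
  exact one_ne_zero

theorem SelC.props (hG : G.Good) (hK : IsCx G μ E r F) {y : X} {j : ZMod D} {c : ZMod D → ℕ}
    (h : SelC G E r F y j c) : (y, c 0) ∈ F ∧ Priv G E r F (G.u j • y, c j) ∧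
      Priv G E r F (G.u (j + 1) • y, c (j + 1)) ∧ wt r (G.u j • y, some (c j, true)) = 2⁻¹ := by
  obtain ⟨⟨⟨h1, c', h2, h3, h4, h5, h6⟩, -⟩, h7⟩ := h
  have : c' = c := cell_unique hG hK h3 h7 0 h2
  subst this
  exact ⟨h1, h4, h5, h6⟩

theorem SelC.inc (hG : G.Good) (hK : IsCx G μ E r F) {y : X} {j : ZMod D} {c : ZMod D → ℕ}
    (h : SelC G E r F y j c) (k : ZMod D) : Inc G E r F (G.u k • y, c k) (y, (k, c 0)) :=
  ⟨(h.props hG hK).1, c, rfl, h.2, rfl⟩

theorem clp_exists {y : X} {i : ℕ} (h : (y, i) ∈ GoodCells G E r F) :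
    ∃ j c, c 0 = i ∧ SelC G E r F y j c := by
  obtain ⟨j, hj, hmin⟩ := Set.exists_min_image {j : ZMod D | FreeCorner G E r F (y, (j, i))}
    ZMod.val (Set.toFinite _) h
  have hj' := hj
  obtain ⟨h1, c, h2, h3, h4⟩ := hj
  simp only at h2
  refine ⟨j, c, h2, ⟨?_, ?_⟩, h3⟩
  · rw [h2]; exact hj'
  · intro j' hlt hf
    simp only at hlt hf
    rw [h2] at hf
    exact absurd (hmin j' hf) (by omega)

theorem Sel.exists_cell (hK : IsCx G μ E r F) {y : X} {j : ZMod D} {i : ℕ}
    (h : Sel G E r F (y, (j, i))) : ∃ c, c 0 = i ∧ SelC G E r F y j c := by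
  obtain ⟨c, hc, hcc⟩ := hK.cell y i h.1.1
  refine ⟨c, hc, ?_, hcc⟩
  rw [hc]
  exact h

omit [Countable Γ] [MeasurableSpace X] in
theorem Sel.unique {y : X} {j j' : ZMod D} {i : ℕ}
    (h : Sel G E r F (y, (j, i))) (h' : Sel G E r F (y, (j', i))) : j = j' := by
  apply ZMod.val_injective D
  rcases lt_trichotomy (ZMod.val j) (ZMod.val j') with hlt | heq | hlt
  · exact absurd h.1 (h'.2 j hlt)
  · exact heq
  · exact absurd h'.1 (h.2 j' hlt)

theorem SelC.unique (hG : G.Good) (hK : IsCx G μ E r F) {y : X} {j j' : ZMod D} {c c' : ZMod D → ℕ}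
    (h : SelC G E r F y j c) (h' : SelC G E r F y j' c') (h0 : c 0 = c' 0) : j = j' ∧ c = c' := by
  have h1 := h.1
  rw [h0] at h1
  exact ⟨h1.unique h'.1, cell_unique hG hK h.2 h'.2 0 h0⟩

/-- removed edges are private -/
theorem Rem.inc (hG : G.Good) (hK : IsCx G μ E r F) {e : X × ℕ} (h : Rem G E r F e)
    {y : X} {k : ZMod D} {i : ℕ} (hi : Inc G E r F e (y, (k, i))) :
    ∃ j c, SelC G E r F y j c ∧ c 0 = i ∧ (k = j ∨ k = j + 1) := by
  obtain ⟨y', j', c', h1, h2⟩ := h
  rcases h2 with h2 | h2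
  · have h3 := h1.inc hG hK j'
    rw [← h2] at h3
    have h4 := (h1.props hG hK).2.1
    rw [← h2] at h4
    have := h4.unique hi h3
    simp only [Prod.mk.injEq] at this
    obtain ⟨rfl, rfl, rfl⟩ := this
    exact ⟨_, c', h1, rfl, Or.inl rfl⟩
  · have h3 := h1.inc hG hK (j' + 1)
    rw [← h2] at h3
    have h4 := (h1.props hG hK).2.2.1
    rw [← h2] at h4
    have := h4.unique hi h3
    simp only [Prod.mk.injEq] at this
    obtain ⟨rfl, rfl, rfl⟩ := this
    exact ⟨_, c', h1, rfl, Or.inr rfl⟩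

theorem SelC.mem (hG : G.Good) (hK : IsCx G μ E r F) {y : X} {j : ZMod D} {c : ZMod D → ℕ}
    (h : SelC G E r F y j c) {k : ZMod D} (h1 : k ≠ j) (h2 : k ≠ j + 1) :
    (G.u k • y, c k) ∈ clpE G E r F := by
  refine ⟨(h.2 k).1, fun hr => ?_⟩
  obtain ⟨j', c', h3, h4, h5⟩ := hr.inc hG hK (h.inc hG hK k)
  obtain ⟨rfl, rfl⟩ := h.unique hG hK h3 h4.symm
  rcases h5 with h5 | h5
  · exact h1 h5
  · exact h2 h5

/-- the ends at a selected corner -/
theorem SelC.ends (hG : G.Good) (hK : IsCx G μ E r F) {y : X} {j : ZMod D} {c : ZMod D → ℕ}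
    (h : SelC G E r F y j c) {x : X} {k : ℕ × Bool}
    (hr : r (G.u j • y, some (c j, true)) (x, some k)) :
    (x, k) = (G.u j • y, (c j, true)) ∨ (x, k) = (G.u (j + 1) • y, (c (j + 1), false)) := by
  classical
  by_contra hcon
  push Not at hcon
  have hw := (h.props hG hK).2.2.2
  have hnb : ¬ IsBase r (G.u j • y, some (c j, true)) := by
    intro hb
    rw [wt, if_pos hb] at hw
    exact absurd hw.symm (by simp)
  rw [wt, if_neg hnb] at hw
  have hd : deg r (G.u j • y, some (c j, true)) = 2 := inv_injective hw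
  have hc := card_le_deg (r := r) (G.u j • y, some (c j, true))
    {(G.u j • y, (c j, true)), (G.u (j + 1) • y, (c (j + 1), false)), (x, k)} (by
      intro q hq
      simp only [Finset.mem_insert, Finset.mem_singleton] at hq
      rcases hq with rfl | rfl | rfl
      · apply hK.refl
        intro i b hi
        simp only [Option.some.injEq, Prod.mk.injEq] at hi
        rw [← hi.1]
        exact (h.2 j).1
      · exact (h.2 j).2
      · exact hr)
  rw [Finset.card_insert_of_notMem, Finset.card_insert_of_notMem, Finset.card_singleton, hd] at hc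
  · norm_num at hc
  · simp only [Finset.mem_singleton]
    exact fun h => hcon.2 h.symm
  · simp only [Finset.mem_insert, Finset.mem_singleton, not_or]
    refine ⟨?_, fun h => hcon.1 h.symm⟩
    intro h
    simp at h

theorem SelC.not_base (hG : G.Good) (hK : IsCx G μ E r F) {y : X} {j : ZMod D} {c : ZMod D → ℕ}
    (h : SelC G E r F y j c) {x : X} (hr : r (G.u j • y, some (c j, true)) (x, none)) : False := by
  have hw := (h.props hG hK).2.2.2
  rw [wt, if_pos ⟨x, hr⟩] at hw
  exact absurd hw.symm (by simp)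

theorem SelC.rem1 {y : X} {j : ZMod D} {c : ZMod D → ℕ}
    (h : SelC G E r F y j c) : Rem G E r F (G.u j • y, c j) := ⟨y, j, c, h, Or.inl rfl⟩

theorem SelC.rem2 {y : X} {j : ZMod D} {c : ZMod D → ℕ}
    (h : SelC G E r F y j c) : Rem G E r F (G.u (j + 1) • y, c (j + 1)) :=
  ⟨y, j, c, h, Or.inr rfl⟩

/-- selected corners are dead -/
theorem SelC.dead (hG : G.Good) (hK : IsCx G μ E r F) {y : X} {j : ZMod D} {c : ZMod D → ℕ}
    (h : SelC G E r F y j c) {q : Pt X} (hr : r q (G.u j • y, some (c j, true)))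
    (hq : Act (clpE G E r F) q) : False := by
  have hr' := hK.symm _ _ hr
  obtain ⟨x, k⟩ := q
  cases k with
  | none => exact h.not_base hG hK hr'
  | some k =>
    have h1 := hq k.1 k.2 rfl
    rcases h.ends hG hK hr' with h2 | h2
    · simp only [Prod.mk.injEq] at h2
      obtain ⟨rfl, rfl⟩ := h2
      exact h1.2 h.rem1
    · simp only [Prod.mk.injEq] at h2
      obtain ⟨rfl, rfl⟩ := h2
      exact h1.2 h.rem2

/-! ### connectivity -/

/-- Connected in the remaining complex. -/
def CConn (G : PolyData Γ D) (E : Set (X × ℕ)) (r : Pt X → Pt X → Prop) (F : Set (X × ℕ))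
    (p q : Pt X) : Prop :=
  ∃ n, Reach (clpE G E r F) (resR (clpE G E r F) r) n p q

omit [Countable Γ] in
theorem clp_actE {p : Pt X} (h : Act (clpE G E r F) p) : Act E p := fun i b hi => (h i b hi).1

omit [Countable Γ] in
theorem clp_act {x : X} {i : ℕ} {b : Bool} (h : (x, i) ∈ clpE G E r F) :
    Act (clpE G E r F) (x, some (i, b)) := by
  intro i' b' hi
  simp only [Option.some.injEq, Prod.mk.injEq] at hi
  rw [← hi.1]
  exact h

theorem clp_res_trans (hK : IsCx G μ E r F) (p q s : Pt X) :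
    resR (clpE G E r F) r p q → resR (clpE G E r F) r q s → resR (clpE G E r F) r p s :=
  fun h1 h2 => ⟨hK.trans _ _ _ h1.1 h2.1, h1.2.1, h2.2.2⟩

theorem clp_res_symm (hK : IsCx G μ E r F) (p q : Pt X) :
    resR (clpE G E r F) r p q → resR (clpE G E r F) r q p :=
  fun h1 => ⟨hK.symm _ _ h1.1, h1.2.2, h1.2.1⟩

theorem clp_res_refl (hK : IsCx G μ E r F) (p : Pt X) (h : Act (clpE G E r F) p) :
    resR (clpE G E r F) r p p :=
  ⟨hK.refl _ (clp_actE h), h, h⟩

theorem CConn.trans (hK : IsCx G μ E r F) {p q s : Pt X} (h1 : CConn G E r F p q)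
    (h2 : CConn G E r F q s) : CConn G E r F p s := by
  obtain ⟨n, h1⟩ := h1
  obtain ⟨m, h2⟩ := h2
  exact ⟨n + m, clp_trans (clp_res_trans hK) h1 h2⟩

theorem CConn.symm (hK : IsCx G μ E r F) {p q : Pt X} (h1 : CConn G E r F p q) :
    CConn G E r F q p := by
  obtain ⟨n, h1⟩ := h1
  exact ⟨n, clp_symm (clp_res_refl hK) (clp_res_symm hK) (clp_res_trans hK) h1⟩

theorem CConn.of_r {p q : Pt X} (h : r p q) (hp : Act (clpE G E r F) p)
    (hq : Act (clpE G E r F) q) : CConn G E r F p q := ⟨0, h, hp, hq⟩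

theorem CConn.edge (hK : IsCx G μ E r F) {x : X} {i : ℕ} (b : Bool) (h : (x, i) ∈ clpE G E r F) :
    CConn G E r F (x, some (i, b)) (x, some (i, !b)) :=
  ⟨1, x, i, b, h, clp_res_refl hK _ (clp_act h), clp_res_refl hK _ (clp_act h)⟩

omit [Countable Γ] [MeasurableSpace X] in
theorem clp_ne (hG : G.Good) (j : ZMod D) (n : ℕ) (h0 : 0 < n) (h1 : n < D) :
    j + (n : ZMod D) ≠ j := by
  intro h
  have h2 : (n : ZMod D) = 0 := by simpa using h
  rw [ZMod.natCast_eq_zero_iff] at h2
  exact absurd (Nat.le_of_dvd h0 h2) (by omega)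

theorem SelC.walk (hG : G.Good) (hK : IsCx G μ E r F) {y : X} {j : ZMod D} {c : ZMod D → ℕ}
    (h : SelC G E r F y j c) (t : ℕ) (ht : t + 3 ≤ D) :
    CConn G E r F (G.u (j + 2) • y, some (c (j + 2), false))
      (G.u (j + 2 + t) • y, some (c (j + 2 + t), true)) := by
  have hmem : ∀ t : ℕ, t + 3 ≤ D → (G.u (j + 2 + t) • y, c (j + 2 + t)) ∈ clpE G E r F := by
    intro t ht
    apply h.mem hG hK
    · intro h'
      refine clp_ne hG j (t + 2) (by omega) (by omega) ?_
      have : j + ((t + 2 : ℕ) : ZMod D) = j + 2 + t := by push_cast; ring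
      rw [this]
      exact h'
    · intro h'
      refine clp_ne hG (j + 1) (t + 1) (by omega) (by omega) ?_
      have : j + 1 + ((t + 1 : ℕ) : ZMod D) = j + 2 + t := by push_cast; ring
      rw [this]
      exact h'
  induction t with
  | zero =>
    have := hmem 0 ht
    simp only [Nat.cast_zero, add_zero] at this ⊢
    exact CConn.edge hK false this
  | succ t ih =>
    have h1 := ih (by omega)
    have h2 := hmem t (by omega)
    have h3 := hmem (t + 1) ht
    have h4 := (h.2 (j + 2 + t)).2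
    have e1 : j + 2 + (t : ZMod D) + 1 = j + 2 + ((t + 1 : ℕ) : ZMod D) := by push_cast; ring
    rw [e1] at h4
    exact (h1.trans hK (CConn.of_r h4 (clp_act h2) (clp_act h3))).trans hK
      (CConn.edge hK false h3)

/-- the two outer ends of a removed pair stay connected -/
theorem SelC.outer (hG : G.Good) (hK : IsCx G μ E r F) {y : X} {j : ZMod D} {c : ZMod D → ℕ}
    (h : SelC G E r F y j c) :
    CConn G E r F (G.u (j + 2) • y, some (c (j + 2), false))
      (G.u (j - 1) • y, some (c (j - 1), true)) := by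
  have hD := hG.hD
  have h1 := h.walk hG hK (D - 3) (by omega)
  have e1 : j + 2 + ((D - 3 : ℕ) : ZMod D) = j - 1 := by
    rw [Nat.cast_sub (by omega)]
    simp
    ring
  rwa [e1] at h1

theorem clp_cast_ne (n : ℕ) (h0 : 0 < n) (h1 : n < D) : (n : ZMod D) ≠ 0 := by
  intro h2
  rw [ZMod.natCast_eq_zero_iff] at h2
  exact absurd (Nat.le_of_dvd h0 h2) (by omega)

theorem SelC.mem_prev (hG : G.Good) (hK : IsCx G μ E r F) {y : X} {j : ZMod D} {c : ZMod D → ℕ}
    (h : SelC G E r F y j c) : (G.u (j - 1) • y, c (j - 1)) ∈ clpE G E r F := by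
  have hD := hG.hD
  apply h.mem hG hK
  · intro h'
    refine clp_cast_ne (D := D) 1 (by omega) (by omega) ?_
    push_cast
    linear_combination -h'
  · intro h'
    refine clp_cast_ne (D := D) 2 (by omega) (by omega) ?_
    push_cast
    linear_combination -h'

theorem SelC.mem_next (hG : G.Good) (hK : IsCx G μ E r F) {y : X} {j : ZMod D} {c : ZMod D → ℕ}
    (h : SelC G E r F y j c) : (G.u (j + 2) • y, c (j + 2)) ∈ clpE G E r F := by
  have hD := hG.hD
  apply h.mem hG hK
  · intro h'
    refine clp_cast_ne (D := D) 2 (by omega) (by omega) ?_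
    push_cast
    linear_combination h'
  · intro h'
    refine clp_cast_ne (D := D) 1 (by omega) (by omega) ?_
    push_cast
    linear_combination h'

theorem SelC.r_prev {y : X} {j : ZMod D} {c : ZMod D → ℕ}
    (h : SelC G E r F y j c) : r (G.u (j - 1) • y, some (c (j - 1), true))
      (G.u j • y, some (c j, false)) := by
  have := (h.2 (j - 1)).2
  rwa [sub_add_cancel] at this

theorem SelC.r_next {y : X} {j : ZMod D} {c : ZMod D → ℕ}
    (h : SelC G E r F y j c) : r (G.u (j + 1) • y, some (c (j + 1), true))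
      (G.u (j + 2) • y, some (c (j + 2), false)) := by
  have := (h.2 (j + 1)).2
  rwa [show j + 1 + 1 = j + 2 by ring] at this

theorem clp_conn (hG : G.Good) (hK : IsCx G μ E r F) {n : ℕ} {p q : Pt X}
    (hp : Act (clpE G E r F) p) (h : Reach E r n p q) :
    (∀ q', Act (clpE G E r F) q' → r q q' → CConn G E r F p q') ∧
    (∀ y j c, SelC G E r F y j c → r q (G.u j • y, some (c j, true)) →
      CConn G E r F p (G.u (j - 1) • y, some (c (j - 1), true))) := by
  induction n generalizing q with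
  | zero =>
    refine ⟨fun q' hq' hr => CConn.of_r (hK.trans _ _ _ h hr) hp hq', fun y j c hs hr => ?_⟩
    exact (hs.dead hG hK (hK.trans _ _ _ h hr) hp).elim
  | succ n ih =>
    obtain ⟨x, i, b, h1, h2, h3⟩ := h
    obtain ⟨W1, W2⟩ := ih h2
    by_cases hx : (x, i) ∈ clpE G E r F
    · have h4 := W1 _ (clp_act (b := b) hx) (hK.refl _ (clp_actE (clp_act hx)))
      have h5 := h4.trans hK (CConn.edge hK b hx)
      refine ⟨fun q' hq' hr => ?_, fun y j c hs hr => ?_⟩
      · exact h5.trans hK (CConn.of_r (hK.trans _ _ _ h3 hr) (clp_act hx) hq')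
      · exact (hs.dead hG hK (hK.trans _ _ _ h3 hr) (clp_act hx)).elim
    · have hrem : Rem G E r F (x, i) := by
        by_contra hc
        exact hx ⟨h1, hc⟩
      obtain ⟨y, j, c, hs, hxx⟩ := hrem
      have ho := hs.outer hG hK
      have ao := clp_act (b := true) (hs.mem_prev hG hK)
      have ao' := clp_act (b := false) (hs.mem_next hG hK)
      have hmid := (hs.2 j).2
      -- connected to the outer point
      have h6 : CConn G E r F p (G.u (j - 1) • y, some (c (j - 1), true)) := by
        rcases hxx with hxx | hxx <;> simp only [Prod.mk.injEq] at hxx <;>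
          obtain ⟨rfl, rfl⟩ := hxx <;> cases b
        · exact W1 _ ao (hK.symm _ _ hs.r_prev)
        · exact W2 y j c hs (hK.refl _ (by
            intro i b hi
            simp only [Option.some.injEq, Prod.mk.injEq] at hi
            rw [← hi.1]
            exact h1))
        · exact W2 y j c hs (hK.symm _ _ hmid)
        · exact (W1 _ ao' hs.r_next).trans hK ho
      have h7 := h6.trans hK (ho.symm hK)
      -- the other end
      have h8 : r q (G.u (j - 1) • y, some (c (j - 1), true)) ∨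
          r q (G.u j • y, some (c j, true)) ∨
          r q (G.u (j + 2) • y, some (c (j + 2), false)) := by
        rcases hxx with hxx | hxx <;> simp only [Prod.mk.injEq] at hxx <;>
          obtain ⟨rfl, rfl⟩ := hxx <;> cases b <;> simp only [Bool.not_true, Bool.not_false] at h3
        · exact Or.inr (Or.inl (hK.symm _ _ h3))
        · exact Or.inl (hK.symm _ _ (hK.trans _ _ _ hs.r_prev h3))
        · exact Or.inr (Or.inr (hK.trans _ _ _ (hK.symm _ _ h3) hs.r_next))
        · exact Or.inr (Or.inl (hK.symm _ _ (hK.trans _ _ _ hmid h3)))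
      refine ⟨fun q' hq' hr => ?_, fun y' j' c' hs' hr => ?_⟩
      · rcases h8 with h8 | h8 | h8
        · exact h6.trans hK (CConn.of_r (hK.trans _ _ _ (hK.symm _ _ h8) hr) ao hq')
        · exact (hs.dead hG hK (hK.trans _ _ _ (hK.symm _ _ hr) h8) hq').elim
        · exact h7.trans hK (CConn.of_r (hK.trans _ _ _ (hK.symm _ _ h8) hr) ao' hq')
      · rcases h8 with h8 | h8 | h8
        · exact (hs'.dead hG hK (hK.trans _ _ _ (hK.symm _ _ h8) hr) ao).elim
        · have h9 := hK.trans _ _ _ (hK.symm _ _ hr) h8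
          have h10 : (G.u j • y, c j) = (G.u j' • y', c' j') := by
            rcases hs'.ends hG hK h9 with h11 | h11
            · simp only [Prod.mk.injEq] at h11
              rw [h11.1, h11.2.1]
            · simp at h11
          have h11 := (hs.props hG hK).2.1
          have h12 := hs.inc hG hK j
          have h13 := hs'.inc hG hK j'
          rw [← h10] at h13
          have h14 := h11.unique h12 h13
          simp only [Prod.mk.injEq] at h14
          obtain ⟨rfl, rfl, h14⟩ := h14
          obtain ⟨-, rfl⟩ := hs.unique hG hK hs' h14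
          exact h6
        · exact (hs'.dead hG hK (hK.trans _ _ _ (hK.symm _ _ h8) hr) ao').elim

/-! ### measurability -/

theorem meas_sel (hG : G.Good) (hX : IsGoodAction G X μ f) (hK : IsCx G μ E r F) :
    MSet {q | Sel G E r F q} := by
  have hfc := meas_freeCorner hG hX hK
  rintro ⟨j, i⟩
  have : {x | (x, (j, i)) ∈ {q | Sel G E r F q}} =
      {x | (x, (j, i)) ∈ {q | FreeCorner G E r F q}} ∩
        ⋂ j' : ZMod D, ⋂ (_ : ZMod.val j' < ZMod.val j),
          {x | (x, (j', i)) ∈ {q | FreeCorner G E r F q}}ᶜ := by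
    ext x
    simp only [Sel, Set.mem_ofPred_eq, Set.mem_inter_iff, Set.mem_iInter, Set.mem_compl_iff]
  rw [this]
  exact (hfc (j, i)).inter (MeasurableSet.iInter fun j' => MeasurableSet.iInter fun _ =>
    (hfc (j', i)).compl)

theorem sel_inc_eq (hG : G.Good) (hK : IsCx G μ E r F) {e : X × ℕ} {y : X} {j k : ZMod D} {i : ℕ}
    (hs : Sel G E r F (y, (j, i))) (hi : Inc G E r F e (y, (k, i))) :
    ∃ c, c 0 = i ∧ SelC G E r F y j c ∧ e = (G.u k • y, c k) := by
  obtain ⟨c, hc, hsc⟩ := hs.exists_cell hK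
  obtain ⟨h1, c', h2, h3, h4⟩ := hi
  simp only at h2 h3 h4
  have : c' = c := cell_unique hG hK h3 hsc.2 0 (h2.trans hc.symm)
  subst this
  exact ⟨c', h2, hsc, h4⟩

theorem rem_iff (hG : G.Good) (hK : IsCx G μ E r F) (e : X × ℕ) :
    Rem G E r F e ↔ (∃ q, Inc G E r F e q ∧ Sel G E r F q) ∨
      (∃ q, Inc G E r F e q ∧ Sel G E r F (q.1, (q.2.1 - 1, q.2.2))) := by
  constructor
  · rintro ⟨y, j, c, h1, h2 | h2⟩
    · left
      refine ⟨(y, (j, c 0)), ?_, h1.1⟩
      rw [h2]
      exact h1.inc hG hK j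
    · right
      refine ⟨(y, (j + 1, c 0)), ?_, ?_⟩
      · rw [h2]
        exact h1.inc hG hK (j + 1)
      · simp only [add_sub_cancel_right]
        exact h1.1
  · rintro (⟨⟨y, ⟨j, i⟩⟩, h1, h2⟩ | ⟨⟨y, ⟨j, i⟩⟩, h1, h2⟩)
    · obtain ⟨c, -, h3, h4⟩ := sel_inc_eq hG hK h2 h1
      exact ⟨y, j, c, h3, Or.inl h4⟩
    · obtain ⟨c, -, h3, h4⟩ := sel_inc_eq hG hK h2 h1
      exact ⟨y, j - 1, c, h3, Or.inr (by rw [sub_add_cancel]; exact h4)⟩

theorem meas_rem (hG : G.Good) (hX : IsGoodAction G X μ f) (hK : IsCx G μ E r F) :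
    MSet {e | Rem G E r F e} := by
  have h1 := (inc_mrel hG hX hK).and_right (μ := μ) hX.mp (meas_sel hG hX hK)
  have h2 : MSet {q : X × (ZMod D × ℕ) | Sel G E r F (q.1, (q.2.1 - 1, q.2.2))} := by
    rintro ⟨j, i⟩
    exact meas_sel hG hX hK (j - 1, i)
  have h3 := (inc_mrel hG hX hK).and_right (μ := μ) hX.mp h2
  intro i
  have := (h1.dom i).union (h3.dom i)
  convert this using 1
  ext x
  simp only [Set.mem_ofPred_eq, Set.mem_union]
  exact rem_iff hG hK (x, i)

theorem meas_clpE (hG : G.Good) (hX : IsGoodAction G X μ f) (hK : IsCx G μ E r F) :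
    MSet (clpE G E r F) := by
  intro i
  exact (hK.measE i).diff (meas_rem hG hX hK i)

/-! ### vertices -/

/-- The transport: a good cell sends mass to its two removed inner ends. -/
def clpT (G : PolyData Γ D) (E : Set (X × ℕ)) (r : Pt X → Pt X → Prop) (F : Set (X × ℕ))
    (q : X × ℕ) (e : X × (ℕ × Bool)) : Prop :=
  ∃ j, Sel G E r F (q.1, (j, q.2)) ∧ ((Inc G E r F (e.1, e.2.1) (q.1, (j, q.2)) ∧ e.2.2 = true) ∨
    (Inc G E r F (e.1, e.2.1) (q.1, (j + 1, q.2)) ∧ e.2.2 = false))

theorem clpT_mrel (hG : G.Good) (hX : IsGoodAction G X μ f) (hK : IsCx G μ E r F) :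
    MRel Γ (clpT G E r F) := by
  constructor
  · rintro ⟨y, i⟩ ⟨x, k, b⟩ ⟨j, h1, ⟨h2, h3⟩ | ⟨h2, h3⟩⟩
    · exact ((inc_mrel hG hX hK).swap hX.mp).1 _ _ h2
    · exact ((inc_mrel hG hX hK).swap hX.mp).1 _ _ h2
  · rintro g i ⟨k, b⟩
    have hI := ((inc_mrel hG hX hK).swap hX.mp).2
    have : {x | clpT G E r F (x, i) (g • x, (k, b))} =
        ⋃ j : ZMod D, {x | (x, (j, i)) ∈ {q | Sel G E r F q}} ∩
          (({x | Inc G E r F (g • x, k) (x, (j, i))} ∩ {_x | b = true}) ∪
          ({x | Inc G E r F (g • x, k) (x, (j + 1, i))} ∩ {_x | b = false})) := by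
      ext x
      simp only [clpT, Set.mem_ofPred_eq, Set.mem_iUnion, Set.mem_inter_iff, Set.mem_union]
    rw [this]
    exact MeasurableSet.iUnion fun j => (meas_sel hG hX hK (j, i)).inter
      (((hI g (j, i) k).inter (MeasurableSet.const _)).union
      ((hI g (j + 1, i) k).inter (MeasurableSet.const _)))

theorem clpT_data (hG : G.Good) (hK : IsCx G μ E r F) {y : X} {i : ℕ}
    {e : X × (ℕ × Bool)} (h : clpT G E r F (y, i) e) : ∃ j c, c 0 = i ∧ SelC G E r F y j c ∧
      (e = (G.u j • y, (c j, true)) ∨ e = (G.u (j + 1) • y, (c (j + 1), false))) := by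
  obtain ⟨x, k, b⟩ := e
  obtain ⟨j, h1, ⟨h2, h3⟩ | ⟨h2, h3⟩⟩ := h
  · obtain ⟨c, h4, h5, h6⟩ := sel_inc_eq hG hK h1 h2
    simp only at h3
    simp only [Prod.mk.injEq] at h6
    exact ⟨j, c, h4, h5, Or.inl (by rw [h6.1, h6.2, h3])⟩
  · obtain ⟨c, h4, h5, h6⟩ := sel_inc_eq hG hK h1 h2
    simp only at h3
    simp only [Prod.mk.injEq] at h6
    exact ⟨j, c, h4, h5, Or.inr (by rw [h6.1, h6.2, h3])⟩

theorem clpT_lost (hG : G.Good) (hK : IsCx G μ E r F) {q : X × ℕ}
    {e : X × (ℕ × Bool)} (h : clpT G E r F q e) :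
    e ∈ Lost E (clpE G E r F) r ∧ wt r (e.1, some e.2) = 2⁻¹ := by
  obtain ⟨y, i⟩ := q
  obtain ⟨j, c, hc, hs, he⟩ := clpT_data hG hK h
  have hmid := (hs.2 j).2
  have hw := (hs.props hG hK).2.2.2
  have hr0 : r (G.u j • y, some (c j, true)) (G.u j • y, some (c j, true)) := by
    apply hK.refl
    intro i b hi
    simp only [Option.some.injEq, Prod.mk.injEq] at hi
    rw [← hi.1]
    exact (hs.2 j).1
  have hr : r (e.1, some e.2) (G.u j • y, some (c j, true)) := by
    rcases he with rfl | rfl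
    · exact hr0
    · exact hK.symm _ _ hmid
  refine ⟨⟨?_, fun q' hq' hE => ?_⟩, ?_⟩
  · rcases he with rfl | rfl
    · exact (hs.2 j).1
    · exact (hs.2 (j + 1)).1
  · refine hs.dead hG hK (hK.trans _ _ _ (hK.symm _ _ hq') hr) ?_
    intro i' b' hi'
    simp only [Option.some.injEq] at hi'
    have : q' = (q'.1, q'.2) := rfl
    rw [hi'] at this
    rw [this] at hE
    exact hE
  · rw [wt_congr hK.toIsPre hr]
    exact hw

theorem clpT_unique (hG : G.Good) (hK : IsCx G μ E r F) {q q' : X × ℕ}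
    {e : X × (ℕ × Bool)} (h : clpT G E r F q e) (h' : clpT G E r F q' e) : q = q' := by
  obtain ⟨y, i⟩ := q
  obtain ⟨y', i'⟩ := q'
  obtain ⟨j, c, hc, hs, he⟩ := clpT_data hG hK h
  obtain ⟨j', c', hc', hs', he'⟩ := clpT_data hG hK h'
  have key : ∃ k k', (G.u k • y, c k) = (G.u k' • y', c' k') ∧ Priv G E r F (G.u k • y, c k) := by
    rcases he with rfl | rfl
    · rcases he' with he' | he'
      · simp only [Prod.mk.injEq, and_true] at he'
        exact ⟨j, j', by rw [he'.1, he'.2], (hs.props hG hK).2.1⟩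
      · simp at he'
    · rcases he' with he' | he'
      · simp at he'
      · simp only [Prod.mk.injEq, and_true] at he'
        exact ⟨j + 1, j' + 1, by rw [he'.1, he'.2], (hs.props hG hK).2.2.1⟩
  obtain ⟨k, k', h1, h2⟩ := key
  have h3 := hs.inc hG hK k
  have h4 := hs'.inc hG hK k'
  rw [← h1] at h4
  have h5 := h2.unique h3 h4
  simp only [Prod.mk.injEq] at h5
  obtain ⟨rfl, -, h6⟩ := h5
  rw [← hc, ← hc', h6]

theorem clp_Vm (hG : G.Good) (hX : IsGoodAction G X μ f) (hK : IsCx G μ E r F) :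
    smeas μ (GoodCells G E r F) ≤
      sint μ (fun q : X × (ℕ × Bool) =>
        (Lost E (clpE G E r F) r).indicator (fun q => wt r (q.1, some q.2)) q) := by
  classical
  set T : X × ℕ → X × (ℕ × Bool) → ℝ≥0∞ := fun q e => if clpT G E r F q e then 2⁻¹ else 0 with hT
  have hm := clpT_mrel hG hX hK
  have h1 := mtp (μ := μ) hX.free hX.mp T (by
    intro p q h
    by_cases h' : clpT G E r F p q
    · exact hm.1 _ _ h'
    · simp [hT, h'] at h) (by
    intro g i k
    exact Measurable.ite (hm.2 g i k) measurable_const measurable_const)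
  rw [smeas_eq_sint (meas_good hG hX hK)]
  calc sint μ ((GoodCells G E r F).indicator 1) ≤ sint μ (fun p => ∑' q, T p q) := by
        apply sint_mono
        intro q
        by_cases hq : q ∈ GoodCells G E r F
        · rw [Set.indicator_of_mem hq]
          obtain ⟨y, i⟩ := q
          obtain ⟨j, c, rfl, hs⟩ := clp_exists hq
          have h2 : clpT G E r F (y, c 0) (G.u j • y, (c j, true)) :=
            ⟨j, hs.1, Or.inl ⟨hs.inc hG hK j, rfl⟩⟩
          have h3 : clpT G E r F (y, c 0) (G.u (j + 1) • y, (c (j + 1), false)) :=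
            ⟨j, hs.1, Or.inr ⟨hs.inc hG hK (j + 1), rfl⟩⟩
          have h4 := ENNReal.sum_le_tsum (f := T (y, c 0))
            {(G.u j • y, (c j, true)), (G.u (j + 1) • y, (c (j + 1), false))}
          rw [Finset.sum_pair (by simp)] at h4
          simp only [hT, h2, h3, if_true] at h4
          rw [ENNReal.inv_two_add_inv_two] at h4
          exact h4
        · rw [Set.indicator_of_notMem hq]
          exact zero_le
    _ = sint μ (fun q => ∑' p, T p q) := h1
    _ ≤ _ := by
        apply sint_mono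
        intro e
        by_cases he : ∃ q, clpT G E r F q e
        · obtain ⟨q, hq⟩ := he
          obtain ⟨h2, h3⟩ := clpT_lost hG hK hq
          rw [tsum_eq_single q (fun q' hne => by
            have : ¬ clpT G E r F q' e := fun h => hne (clpT_unique hG hK h hq)
            simp [hT, this])]
          rw [Set.indicator_of_mem h2, h3]
          simp [hT, hq]
        · push Not at he
          have : ∑' p, T p e = 0 := by
            rw [ENNReal.tsum_eq_zero]
            intro q
            simp [hT, he q]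
          rw [this]
          exact zero_le

/-! ### the kernel -/

/-- The value of a functional relation, as a chain. -/
noncomputable def clpPick (R : X × ℕ → X × ℕ → Prop) (e : X × ℕ) : X × ℕ →₀ ℚ :=
  open Classical in if h : ∃ e', R e e' then Finsupp.single h.choose 1 else 0

theorem clpPick_of {R : X × ℕ → X × ℕ → Prop} (hf : ∀ e e' e'', R e e' → R e e'' → e' = e'')
    {e e' : X × ℕ} (h : R e e') : clpPick R e = Finsupp.single e' 1 := by
  have h1 : ∃ e', R e e' := ⟨e', h⟩
  rw [clpPick, dif_pos h1, hf _ _ _ h1.choose_spec h]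

theorem clpPick_zero {R : X × ℕ → X × ℕ → Prop} {e : X × ℕ} (h : ∀ e', ¬ R e e') :
    clpPick R e = 0 := by
  rw [clpPick, dif_neg (by push Not; exact h)]

open Classical in
theorem clpPick_apply {R : X × ℕ → X × ℕ → Prop} (hf : ∀ e e' e'', R e e' → R e e'' → e' = e'')
    (e e' : X × ℕ) : clpPick R e e' = if R e e' then 1 else 0 := by
  by_cases h : R e e'
  · rw [clpPick_of hf h, if_pos h, Finsupp.single_eq_same]
  · rw [if_neg h]
    by_cases h1 : ∃ e'', R e e''
    · obtain ⟨e'', h1⟩ := h1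
      rw [clpPick_of hf h1, Finsupp.single_apply, if_neg]
      rintro rfl
      exact h h1
    · push Not at h1
      rw [clpPick_zero h1]
      rfl

/-- kernel relation on the remaining edges -/
def clpR0 (G : PolyData Γ D) (E : Set (X × ℕ)) (r : Pt X → Pt X → Prop) (F : Set (X × ℕ))
    (e e' : X × ℕ) : Prop := e ∈ clpE G E r F ∧ e' = e

/-- kernel relation on the first removed edge of a cell -/
def clpR1 (G : PolyData Γ D) (E : Set (X × ℕ)) (r : Pt X → Pt X → Prop) (F : Set (X × ℕ))
    (t : ZMod D) (e e' : X × ℕ) : Prop :=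
  ∃ q : X × (ZMod D × ℕ), (Inc G E r F e q ∧ (Sel G E r F q ∧ t ≠ q.2.1 ∧ t ≠ q.2.1 + 1)) ∧
    Inc G E r F e' (q.1, (t, q.2.2))

/-- The kernel. -/
noncomputable def clpRho (G : PolyData Γ D) (E : Set (X × ℕ)) (r : Pt X → Pt X → Prop)
    (F : Set (X × ℕ)) (e : X × ℕ) : X × ℕ →₀ ℚ :=
  clpPick (clpR0 G E r F) e - ∑ t : ZMod D, clpPick (clpR1 G E r F t) e

theorem clpR0_fun (e e' e'' : X × ℕ) (h : clpR0 G E r F e e') (h' : clpR0 G E r F e e'') :
    e' = e'' := by rw [h.2, h'.2]

theorem clpR1_data (hG : G.Good) (hK : IsCx G μ E r F) {t : ZMod D} {e e' : X × ℕ}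
    (h : clpR1 G E r F t e e') : ∃ y j c, SelC G E r F y j c ∧ e = (G.u j • y, c j) ∧
      t ≠ j ∧ t ≠ j + 1 ∧ e' = (G.u t • y, c t) := by
  obtain ⟨⟨y, ⟨j, i⟩⟩, ⟨h1, h2, h3, h4⟩, h5⟩ := h
  obtain ⟨c, hc, hs, h6⟩ := sel_inc_eq hG hK h2 h1
  obtain ⟨c', hc', hs', h7⟩ := sel_inc_eq hG hK h2 h5
  have : c' = c := cell_unique hG hK hs'.2 hs.2 0 (hc'.trans hc.symm)
  subst this
  exact ⟨y, j, c', hs, h6, h3, h4, h7⟩

theorem clpR1_of (hG : G.Good) (hK : IsCx G μ E r F) {t : ZMod D} {y : X} {j : ZMod D}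
    {c : ZMod D → ℕ} (hs : SelC G E r F y j c) (h1 : t ≠ j) (h2 : t ≠ j + 1) :
    clpR1 G E r F t (G.u j • y, c j) (G.u t • y, c t) :=
  ⟨(y, (j, c 0)), ⟨hs.inc hG hK j, hs.1, h1, h2⟩, hs.inc hG hK t⟩

theorem clpR1_inc (hG : G.Good) (hK : IsCx G μ E r F) {t : ZMod D} {e e' : X × ℕ}
    {y : X} {k : ZMod D} {i : ℕ} (hi : Inc G E r F e (y, (k, i)))
    (h : clpR1 G E r F t e e') : ∃ c, c 0 = i ∧ SelC G E r F y k c ∧ e = (G.u k • y, c k) ∧
      t ≠ k ∧ t ≠ k + 1 ∧ e' = (G.u t • y, c t) := by
  obtain ⟨y', j, c, hs, h1, h2, h3, h4⟩ := clpR1_data hG hK h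
  have h5 := hs.inc hG hK j
  have h6 := (hs.props hG hK).2.1
  rw [← h1] at h5 h6
  have h7 := h6.unique hi h5
  simp only [Prod.mk.injEq] at h7
  obtain ⟨rfl, rfl, rfl⟩ := h7
  exact ⟨c, rfl, hs, h1, h2, h3, h4⟩

theorem clpR1_fun (hG : G.Good) (hK : IsCx G μ E r F) (t : ZMod D) (e e' e'' : X × ℕ)
    (h : clpR1 G E r F t e e') (h' : clpR1 G E r F t e e'') : e' = e'' := by
  obtain ⟨y, j, c, hs, h1, h2, h3, h4⟩ := clpR1_data hG hK h
  have h5 := hs.inc hG hK j
  rw [← h1] at h5
  obtain ⟨c', hc', hs', -, -, -, h6⟩ := clpR1_inc hG hK h5 h'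
  have : c' = c := cell_unique hG hK hs'.2 hs.2 0 hc'
  subst this
  rw [h4, h6]

theorem clpR1_rem (hG : G.Good) (hK : IsCx G μ E r F) {t : ZMod D} {e e' : X × ℕ}
    (h : clpR1 G E r F t e e') : e ∉ clpE G E r F := by
  obtain ⟨y, j, c, hs, h1, h2, h3, h4⟩ := clpR1_data hG hK h
  rw [h1]
  exact fun h => h.2 hs.rem1

theorem clpRho_of_mem (hG : G.Good) (hK : IsCx G μ E r F) {e : X × ℕ} (he : e ∈ clpE G E r F) :
    clpRho G E r F e = Finsupp.single e 1 := by
  rw [clpRho, clpPick_of clpR0_fun (e' := e) ⟨he, rfl⟩, Finset.sum_eq_zero, sub_zero]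
  intro t _
  exact clpPick_zero fun e' h => clpR1_rem hG hK h he

theorem clpRho_ne (hG : G.Good) (hK : IsCx G μ E r F) {e e' : X × ℕ}
    (h : e' ∈ (clpRho G E r F e).support) :
    clpR0 G E r F e e' ∨ ∃ t, clpR1 G E r F t e e' := by
  classical
  by_contra hcon
  push Not at hcon
  rw [Finsupp.mem_support_iff] at h
  apply h
  rw [clpRho, Finsupp.sub_apply, clpPick_apply clpR0_fun, if_neg hcon.1, Finsupp.finsetSum_apply,
    Finset.sum_eq_zero, sub_zero]
  intro t _
  rw [clpPick_apply (clpR1_fun hG hK t), if_neg (hcon.2 t)]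

theorem clpR0_mrel (hG : G.Good) (hX : IsGoodAction G X μ f) (hK : IsCx G μ E r F) :
    MRel Γ (clpR0 G E r F) := by
  constructor
  · rintro p q ⟨-, rfl⟩
    exact ⟨1, by simp⟩
  · intro g i k
    by_cases h : g = 1 ∧ k = i
    · obtain ⟨rfl, rfl⟩ := h
      convert meas_clpE hG hX hK k using 1
      ext x
      simp [clpR0]
    · convert MeasurableSet.empty using 1
      ext x
      simp only [clpR0, Set.mem_ofPred_eq, Set.mem_empty_iff_false, iff_false]
      rintro ⟨-, h2⟩
      simp only [Prod.mk.injEq] at h2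
      exact h ⟨hX.free _ _ h2.1, h2.2⟩

theorem clpR1_mrel (hG : G.Good) (hX : IsGoodAction G X μ f) (hK : IsCx G μ E r F) (t : ZMod D) :
    MRel Γ (clpR1 G E r F t) := by
  have h2 : MSet {q : X × (ZMod D × ℕ) | Sel G E r F q ∧ t ≠ q.2.1 ∧ t ≠ q.2.1 + 1} := by
    rintro ⟨j, i⟩
    exact (meas_sel hG hX hK (j, i)).inter (MeasurableSet.const (t ≠ j ∧ t ≠ j + 1))
  have h3 := (inc_mrel hG hX hK).and_right (μ := μ) hX.mp h2
  have hI := (inc_mrel hG hX hK).swap (μ := μ) hX.mp
  have h4 : MRel Γ (fun (q : X × (ZMod D × ℕ)) (e' : X × ℕ) =>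
      Inc G E r F e' (q.1, (t, q.2.2))) := by
    constructor
    · intro p q h
      exact hI.1 (p.1, (t, p.2.2)) q h
    · rintro g ⟨j, i⟩ k
      exact hI.2 g (t, i) k
  exact h3.comp hX.mp h4

theorem clpRho_ker (hG : G.Good) (hX : IsGoodAction G X μ f) (hK : IsCx G μ E r F) :
    IsKer Γ (clpRho G E r F) := by
  classical
  constructor
  · intro e e' h
    rcases clpRho_ne hG hK h with h | ⟨t, h⟩
    · exact (clpR0_mrel hG hX hK).1 _ _ h
    · exact (clpR1_mrel hG hX hK t).1 _ _ h
  · intro g i k a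
    have h1 : Measurable fun x : X => clpRho G E r F (x, i) (g • x, k) := by
      have : (fun x : X => clpRho G E r F (x, i) (g • x, k)) = fun x =>
          (if clpR0 G E r F (x, i) (g • x, k) then (1 : ℚ) else 0) -
            ∑ t : ZMod D, if clpR1 G E r F t (x, i) (g • x, k) then (1 : ℚ) else 0 := by
        ext x
        rw [clpRho, Finsupp.sub_apply, clpPick_apply clpR0_fun, Finsupp.finsetSum_apply]
        congr 1
        apply Finset.sum_congr rfl
        intro t _
        rw [clpPick_apply (clpR1_fun hG hK t)]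
      rw [this]
      refine Measurable.sub (Measurable.ite ((clpR0_mrel hG hX hK).2 g i k) measurable_const
        measurable_const) (Finset.measurable_sum _ fun t _ => ?_)
      exact Measurable.ite ((clpR1_mrel hG hX hK t).2 g i k) measurable_const measurable_const
    exact h1 (measurableSet_singleton a)

theorem collapse (hG : G.Good) (hX : IsGoodAction G X μ f) (hK : IsCx G μ E r F)
    (hg : GenBy G E r F N s) :
    ∃ E' r' s', IsCx G μ E' r' (F \ GoodCells G E r F) ∧
      GenBy G E' r' (F \ GoodCells G E r F) N s' ∧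
      Vm μ E' r' + smeas μ (GoodCells G E r F) ≤ Vm μ E r := by
  classical
  have hsub : clpE G E r F ⊆ E := fun e he => he.1
  have hsE : ∀ e ∈ E, ∀ e' ∈ (clpRho G E r F e).support, e' ∈ clpE G E r F := by
    intro e he e' h
    rcases clpRho_ne hG hK h with h | ⟨t, h⟩
    · rw [h.2]; exact h.1
    · obtain ⟨y, j, c, hs, h1, h2, h3, h4⟩ := clpR1_data hG hK h
      rw [h4]
      exact hs.mem hG hK h2 h3
  -- cells
  have hcellE : ∀ y i, (y, i) ∈ F \ GoodCells G E r F → ∀ c : ZMod D → ℕ, c 0 = i →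
      IsCell G E r y c → ∀ j, (G.u j • y, c j) ∈ clpE G E r F := by
    intro y i hy c hc hcell j
    refine ⟨(hcell j).1, fun hrem => ?_⟩
    obtain ⟨j', c', h1, h2, h3⟩ := hrem.inc hG hK (y := y) (k := j) (i := i)
      ⟨hy.1, c, hc, hcell, rfl⟩
    apply hy.2
    refine ⟨j', ?_⟩
    simp only
    rw [← h2]
    exact h1.1.1
  have hcx : IsCx G μ (clpE G E r F) (resR (clpE G E r F) r) (F \ GoodCells G E r F) := by
    refine res_isCx hK hsub (meas_clpE hG hX hK) hX.mp ?_ ?_ Set.sdiff_subset ?_ hcellE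
    · intro x
      obtain ⟨n, hn⟩ := hK.conn_base x
      have hb : ∀ z : X, Act (clpE G E r F) (z, none) := by
        intro z i b h
        simp at h
      exact (clp_conn hG hK (hb x) hn).1 _ (hb _) (hK.refl _ (clp_actE (hb _)))
    · intro p hp
      obtain ⟨n, y, hn⟩ := hK.conn p (clp_actE hp)
      have hb : Act (clpE G E r F) (y, none) := by
        intro i b h
        simp at h
      obtain ⟨m, hm⟩ := (clp_conn hG hK hp hn).1 _ hb (hK.refl _ (clp_actE hb))
      exact ⟨m, y, hm⟩
    · intro i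
      exact (hK.measF i).diff (meas_good hG hX hK i)
  refine ⟨clpE G E r F, resR (clpE G E r F) r, fun n => (s n).sum fun e a => a • clpRho G E r F e,
    hcx, ⟨?_, ?_, ?_⟩, ?_⟩
  · exact hg.rows.push (μ := μ) hX.free hX.mp (clpRho_ker hG hX hK)
  · intro n hn e he
    have h1 := Finsupp.support_sum he
    simp only [Finset.mem_biUnion] at h1
    obtain ⟨e', h1, h2⟩ := h1
    exact hsE e' (hg.supp n hn e' h1) e (Finsupp.support_smul h2)
  · refine res_gen hg hsub Set.sdiff_subset (clpRho G E r F)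
      (fun e he => clpRho_of_mem hG hK he) hsE ?_ ?_
    · intro y i hy c hc hcell j
      exact ⟨hcellE y i hy c hc hcell j, (hcell j).2, clp_act (hcellE y i hy c hc hcell j),
        clp_act (hcellE y i hy c hc hcell (j + 1))⟩
    · intro y i hyF hy c hc hcell
      have hgood : (y, i) ∈ GoodCells G E r F := by
        by_contra h
        exact hy ⟨hyF, h⟩
      obtain ⟨j, c', hc', hs⟩ := clp_exists hgood
      have : c' = c := cell_unique hG hK hs.2 hcell 0 (hc'.trans hc.symm)
      subst this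
      have hne : j + 1 ≠ j := by
        have := clp_ne hG j 1 (by omega) (by have := hG.hD; omega)
        simpa using this
      have e2 : clpRho G E r F (G.u (j + 1) • y, c' (j + 1)) = 0 := by
        rw [clpRho, clpPick_zero, Finset.sum_eq_zero, sub_zero]
        · intro t _
          apply clpPick_zero
          intro e' h
          obtain ⟨c'', h1, h2, -⟩ := clpR1_inc hG hK (hs.inc hG hK (j + 1)) h
          exact hne (h2.unique hG hK hs h1).1
        · intro e' h
          exact h.1.2 hs.rem2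
      have e1 : clpRho G E r F (G.u j • y, c' j) =
          - ∑ t ∈ (Finset.univ.erase j).erase (j + 1), Finsupp.single (G.u t • y, c' t) 1 := by
        rw [clpRho, clpPick_zero (fun e' h => h.1.2 hs.rem1), zero_sub]
        congr 1
        rw [← Finset.add_sum_erase _ _ (Finset.mem_univ j),
          ← Finset.add_sum_erase _ _ (Finset.mem_erase.mpr ⟨hne, Finset.mem_univ (j + 1)⟩)]
        rw [clpPick_zero (R := clpR1 G E r F j), clpPick_zero (R := clpR1 G E r F (j + 1)),
          zero_add, zero_add]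
        · apply Finset.sum_congr rfl
          intro t ht
          simp only [Finset.mem_erase, Finset.mem_univ, and_true] at ht
          exact clpPick_of (clpR1_fun hG hK t) (clpR1_of hG hK hs ht.2 ht.1)
        · intro e' h
          obtain ⟨c'', h1, h2, -, -, h3, -⟩ := clpR1_inc hG hK (hs.inc hG hK j) h
          exact h3 rfl
        · intro e' h
          obtain ⟨c'', h1, h2, -, h3, -, -⟩ := clpR1_inc hG hK (hs.inc hG hK j) h
          exact h3 rfl
      rw [← Finset.add_sum_erase _ _ (Finset.mem_univ j),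
        ← Finset.add_sum_erase _ _ (Finset.mem_erase.mpr ⟨hne, Finset.mem_univ (j + 1)⟩),
        e1, e2, zero_add]
      rw [neg_add_eq_zero]
      apply Finset.sum_congr rfl
      intro t ht
      simp only [Finset.mem_erase, Finset.mem_univ, and_true] at ht
      rw [clpRho_of_mem hG hK (hs.mem hG hK ht.2 ht.1)]
  · calc Vm μ (clpE G E r F) (resR (clpE G E r F) r) + smeas μ (GoodCells G E r F)
        ≤ Vm μ (clpE G E r F) (resR (clpE G E r F) r) + sint μ (fun q : X × (ℕ × Bool) =>
        (Lost E (clpE G E r F) r).indicator (fun q => wt r (q.1, some q.2)) q) := by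
          gcongr
          exact clp_Vm hG hX hK
      _ ≤ Vm μ E r := Vm_res hX hK.toIsPre hsub (meas_clpE hG hX hK)

end Crest.Agent.FP
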