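import Mathlib
import Crest.Agent.FP_FoldM

/-!
# Task FP-C1: the completed pre-complex

`K = (E, r)` immersed, `S` a measurable set of spots, `compE`, `compR` as in `FP_Ops`.
-/

set_option autoImplicit false

open MeasureTheory
open scoped ENNReal

namespace Crest.Agent.FP

variable {Γ X : Type} [Group Γ] [Countable Γ] [MulAction Γ X] [MeasurableSpace X]
  {D : ℕ} [NeZero D] {G : PolyData Γ D} {μ : Measure X} [IsProbabilityMeasure μ] {f : X → ℝ}
  {E F N : Set (X × ℕ)} {r : Pt X → Pt X → Prop} {s : X × ℕ → (X × ℕ →₀ ℚ)}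
  {S : Set (X × (ZMod D × ℕ))}

omit [Countable Γ] [IsProbabilityMeasure μ] in
/-- In an immersed complex the data of a spot are unique (away from the missing index). -/
theorem spot_unique (hG : G.Good) (hK : IsPre G μ E r) (hi : Immersed E r) {y : X} {j : ZMod D}
    {c c' : ZMod D → ℕ} (hc : IsSpotData G E r y j c) (hc' : IsSpotData G E r y j c')
    (h : c (j + 1) = c' (j + 1)) {k : ZMod D} (hk : k ≠ j) : c k = c' k := by
  have key : ∀ n : ℕ, n + 1 < D → c (j + ((n + 1 : ℕ) : ZMod D)) = c' (j + ((n + 1 : ℕ) : ZMod D)) := by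
    intro n
    induction n with
    | zero => intro _; simpa using h
    | succ n ih =>
      intro hn
      have h1 := ih (by omega)
      have hne : ∀ m : ℕ, 0 < m → m < D → j + ((m : ℕ) : ZMod D) ≠ j := by
        intro m hm0 hmD hcon
        have h2 : ((m : ℕ) : ZMod D) = 0 := by simpa using hcon
        rw [ZMod.natCast_eq_zero_iff] at h2
        exact absurd (Nat.le_of_dvd hm0 h2) (by omega)
      have h3 := hne (n + 1) (by omega) (by omega)
      have h4 := hne (n + 1 + 1) (by omega) hn
      have e4 : j + ((n + 1 + 1 : ℕ) : ZMod D) = j + ((n + 1 : ℕ) : ZMod D) + 1 := by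
        push_cast; ring
      rw [e4] at h4 ⊢
      have r1 := hc.2 _ h3 h4
      have r2 := hc'.2 _ h3 h4
      rw [← h1] at r2
      have r3 := hK.trans _ _ _ (hK.symm _ _ r1) r2
      exact hi _ _ _ _ (hc.1 _ h4) (hc'.1 _ h4) r3
  have hkj : k - j ≠ 0 := sub_ne_zero.mpr hk
  have hv0 : ZMod.val (k - j) ≠ 0 := by
    intro h0
    exact hkj ((ZMod.val_eq_zero _).mp h0)
  have hvD : ZMod.val (k - j) < D := ZMod.val_lt _
  have := key (ZMod.val (k - j) - 1) (by omega)
  have e : ZMod.val (k - j) - 1 + 1 = ZMod.val (k - j) := by omega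
  rw [e, ZMod.natCast_zmod_val] at this
  simpa using this

omit [Countable Γ] [MeasurableSpace X] in
theorem spotC_spec {q : X × (ZMod D × ℕ)} (h : IsSpot G E r q) :
    spotC G E r q (q.2.1 + 1) = q.2.2 ∧ IsSpotData G E r q.1 q.2.1 (spotC G E r q) := by
  unfold spotC
  rw [dif_pos h]
  exact h.choose_spec

/-- `u_j y` slices of measurable relations -/
theorem meas_rel_at (hX : IsGoodAction G X μ f) (hK : IsPre G μ E r) (g g' : Γ) (k k' : Option (ℕ × Bool)) :
    MeasurableSet {y | r (g • y, k) (g' • y, k')} := by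
  have h1 := hK.measr (g' * g⁻¹) k k'
  have h2 := (hX.mp g).measurable h1
  simpa [Set.preimage, mul_smul] using h2

theorem meas_spotData (hX : IsGoodAction G X μ f) (hK : IsPre G μ E r) (j : ZMod D)
    (c : ZMod D → ℕ) : MeasurableSet {y | IsSpotData G E r y j c} := by
  have : {y | IsSpotData G E r y j c} =
      (⋂ k : ZMod D, {y | k ≠ j → (G.u k • y, c k) ∈ E}) ∩
      (⋂ k : ZMod D, {y | k ≠ j → k + 1 ≠ j →
        r (G.u k • y, some (c k, true)) (G.u (k + 1) • y, some (c (k + 1), false))}) := by
    ext y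
    simp only [IsSpotData, Set.mem_setOf_eq, Set.mem_inter_iff, Set.mem_iInter]
  rw [this]
  refine (MeasurableSet.iInter fun k => ?_).inter (MeasurableSet.iInter fun k => ?_)
  · by_cases hk : k = j
    · simp [hk]
    · simp only [ne_eq, hk, not_false_eq_true, forall_const]
      exact (hX.mp (G.u k)).measurable (hK.measE (c k))
  · by_cases hk : k = j
    · simp [hk]
    · by_cases hk1 : k + 1 = j
      · simp [hk1]
      · simp only [ne_eq, hk, hk1, not_false_eq_true, forall_const]
        exact meas_rel_at hX hK _ _ _ _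

/-- measurability of the set of all spots, and of the chosen data -/
theorem meas_spotC (hG : G.Good) (hX : IsGoodAction G X μ f) (hK : IsPre G μ E r)
    (hi : Immersed E r) (j : ZMod D) (i : ℕ) (k : ZMod D) (hk : k ≠ j) (m : ℕ) :
    MeasurableSet {y | IsSpot G E r (y, (j, i)) ∧ spotC G E r (y, (j, i)) k = m} := by
  have : {y | IsSpot G E r (y, (j, i)) ∧ spotC G E r (y, (j, i)) k = m} =
      ⋃ c : ZMod D → ℕ, {y | (c (j + 1) = i ∧ c k = m) ∧ IsSpotData G E r y j c} := by
    ext y
    simp only [Set.mem_setOf_eq, Set.mem_iUnion]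
    constructor
    · rintro ⟨h1, h2⟩
      obtain ⟨h3, h4⟩ := spotC_spec h1
      exact ⟨_, ⟨h3, h2⟩, h4⟩
    · rintro ⟨c, ⟨h1, h2⟩, h3⟩
      have hs : IsSpot G E r (y, (j, i)) := ⟨c, h1, h3⟩
      refine ⟨hs, ?_⟩
      obtain ⟨h4, h5⟩ := spotC_spec hs
      rw [← h2]
      exact spot_unique hG hK hi h5 h3 (h4.trans h1.symm) hk
  rw [this]
  refine MeasurableSet.iUnion fun c => ?_
  by_cases h : c (j + 1) = i ∧ c k = m
  · simp only [h, and_self, true_and]
    exact meas_spotData hX hK j c
  · simp only [h, false_and, Set.setOf_false, MeasurableSet.empty]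

/-! ### indices -/

theorem newIdx_inj {j j' : ZMod D} {i i' : ℕ} (h : newIdx j i = newIdx j' i') : j = j' ∧ i = i' := by
  unfold newIdx at h
  have h1 : Nat.pair (ZMod.val j) i = Nat.pair (ZMod.val j') i' := by omega
  rw [Nat.pair_eq_pair] at h1
  exact ⟨ZMod.val_injective D h1.1, h1.2⟩

theorem newIdx_odd (j : ZMod D) (i : ℕ) : newIdx j i % 2 = 1 := by
  unfold newIdx; omega

theorem newIdx_div (j : ZMod D) (i : ℕ) : newIdx j i / 2 = Nat.pair (ZMod.val j) i := by
  unfold newIdx; omega

theorem mem_compE_even {x : X} {i : ℕ} : (x, 2 * i) ∈ compE G E S ↔ (x, i) ∈ E := by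
  unfold compE
  simp only [Set.mem_setOf_eq]
  constructor
  · rintro (⟨i', h1, h2⟩ | ⟨j, i', h1, h2⟩)
    · have : i = i' := by omega
      rw [this]; exact h2
    · have := newIdx_odd j i'
      omega
  · intro h
    exact Or.inl ⟨i, rfl, h⟩

theorem mem_compE_new {x : X} {j : ZMod D} {i : ℕ} :
    (x, newIdx j i) ∈ compE G E S ↔ ((G.u j)⁻¹ • x, (j, i)) ∈ S := by
  unfold compE
  simp only [Set.mem_setOf_eq]
  constructor
  · rintro (⟨i', h1, h2⟩ | ⟨j', i', h1, h2⟩)
    · have := newIdx_odd j i
      omega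
    · obtain ⟨rfl, rfl⟩ := newIdx_inj h1
      exact h2
  · intro h
    exact Or.inr ⟨j, i, rfl, h⟩

theorem compLift_even {x : X} {i : ℕ} {b : Bool} :
    compLift G E r (x, some (2 * i, b)) = (x, some (i, b)) := by
  have h1 : 2 * i % 2 = 0 := by omega
  have h2 : 2 * i / 2 = i := by omega
  simp only [compLift, h1, h2, if_true]

theorem compLift_none {x : X} : compLift G E r (x, none) = (x, none) := rfl

theorem compLift_true {x : X} {j : ZMod D} {i : ℕ} :
    compLift G E r (x, some (newIdx j i, true)) =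
      (G.u (j + 1) • (G.u j)⁻¹ • x, some (i, false)) := by
  have h1 := newIdx_odd j i
  have h2 := newIdx_div j i
  simp only [compLift, h1, h2, Nat.unpair_pair, ZMod.natCast_zmod_val, one_ne_zero, if_false, if_true]

theorem compLift_false {x : X} {j : ZMod D} {i : ℕ} :
    compLift G E r (x, some (newIdx j i, false)) =
      (G.u (j - 1) • (G.u j)⁻¹ • x,
        some (spotC G E r ((G.u j)⁻¹ • x, (j, i)) (j - 1), true)) := by
  have h1 := newIdx_odd j i
  have h2 := newIdx_div j i
  simp only [compLift, h1, h2, Nat.unpair_pair, ZMod.natCast_zmod_val, one_ne_zero, if_false,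
    Bool.false_eq_true]

theorem compLift_upPt (p : Pt X) : compLift G E r (upPt p) = p := by
  obtain ⟨x, k⟩ := p
  cases k with
  | none => rfl
  | some ib => exact compLift_even

theorem act_upPt {p : Pt X} (h : Act E p) : Act (compE G E S) (upPt p) := by
  obtain ⟨x, k⟩ := p
  cases k with
  | none => intro i b h'; simp [upPt] at h'
  | some ib =>
    intro i b h'
    simp only [upPt, Option.map_some, Option.some.injEq, Prod.mk.injEq] at h'
    obtain ⟨rfl, rfl⟩ := h'
    exact mem_compE_even.mpr (h _ _ rfl)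

/-- The points of the completed pre-complex: base points, old ends, new ends. -/
theorem act_cases {p : Pt X} (h : Act (compE G E S) p) :
    (∃ x, p = (x, none)) ∨ (∃ x i b, (x, i) ∈ E ∧ p = (x, some (2 * i, b))) ∨
    (∃ x j i b, ((G.u j)⁻¹ • x, (j, i)) ∈ S ∧ p = (x, some (newIdx j i, b))) := by
  obtain ⟨x, k⟩ := p
  cases k with
  | none => exact Or.inl ⟨x, rfl⟩
  | some mb =>
    obtain ⟨m, b⟩ := mb
    have h1 : (x, m) ∈ compE G E S := h m b rfl
    rcases h1 with ⟨i, hi, h2⟩ | ⟨j, i, hi, h2⟩
    · simp only at hi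
      subst hi
      exact Or.inr (Or.inl ⟨x, i, b, h2, rfl⟩)
    · simp only at hi
      subst hi
      exact Or.inr (Or.inr ⟨x, j, i, b, h2, rfl⟩)

theorem succ_ne (hG : G.Good) (j : ZMod D) : j + 1 ≠ j := by
  have : Fact (1 < D) := ⟨by have := hG.hD; omega⟩
  intro h
  have : (1 : ZMod D) = 0 := by simpa using h
  exact one_ne_zero this

theorem pred_ne (hG : G.Good) (j : ZMod D) : j - 1 ≠ j := by
  intro h
  have := succ_ne hG (j - 1)
  rw [sub_add_cancel] at this
  exact this h.symm

theorem act_compLift (hG : G.Good) (hsp : ∀ q ∈ S, IsSpot G E r q) {p : Pt X}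
    (h : Act (compE G E S) p) : Act E (compLift G E r p) := by
  rcases act_cases h with ⟨x, rfl⟩ | ⟨x, i, b, h1, rfl⟩ | ⟨x, j, i, b, h1, rfl⟩
  · intro i b h'; simp [compLift_none] at h'
  · rw [compLift_even]
    intro i' b' h'
    simp only [Option.some.injEq, Prod.mk.injEq] at h'
    obtain ⟨rfl, rfl⟩ := h'
    exact h1
  · have hs := hsp _ h1
    obtain ⟨h2, h3⟩ := spotC_spec hs
    simp only at h2 h3
    cases b with
    | false =>
      rw [compLift_false]
      intro i' b' h'
      simp only [Option.some.injEq, Prod.mk.injEq] at h'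
      obtain ⟨rfl, rfl⟩ := h'
      exact h3.1 _ (pred_ne hG j)
    | true =>
      rw [compLift_true]
      intro i' b' h'
      simp only [Option.some.injEq, Prod.mk.injEq] at h'
      obtain ⟨rfl, rfl⟩ := h'
      have := h3.1 _ (succ_ne hG j)
      rw [h2] at this
      exact this

theorem loc_compLift (hG : G.Good) {p : Pt X} (h : Act (compE G E S) p) :
    ∃ a ∈ G.A, loc G (compLift G E r p) = a • loc G p := by
  rcases act_cases h with ⟨x, rfl⟩ | ⟨x, i, b, h1, rfl⟩ | ⟨x, j, i, b, h1, rfl⟩
  · exact ⟨1, G.A.one_mem, by simp [compLift_none]⟩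
  · rw [compLift_even]
    refine ⟨1, G.A.one_mem, ?_⟩
    rw [one_smul]
    cases b <;> rfl
  · cases b with
    | false =>
      rw [compLift_false]
      have h2 := hG.u_succ (j - 1)
      rw [sub_add_cancel] at h2
      refine ⟨_, G.A.inv_mem h2, ?_⟩
      simp only [loc, mul_inv_rev, inv_inv, smul_smul]
      group
    | true =>
      rw [compLift_true]
      refine ⟨_, hG.u_succ j, ?_⟩
      simp only [loc, mul_inv_rev, smul_smul]
      group

theorem compR_up {p q : Pt X} (hp : Act E p) (hq : Act E q) (h : r p q) :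
    compR G E r S (upPt p) (upPt q) := by
  refine ⟨?_, act_upPt hp, act_upPt hq⟩
  rw [compLift_upPt, compLift_upPt]
  exact h

theorem compR_trans (hK : IsPre G μ E r) {p q t : Pt X} (h1 : compR G E r S p q)
    (h2 : compR G E r S q t) : compR G E r S p t :=
  ⟨hK.trans _ _ _ h1.1 h2.1, h1.2.1, h2.2.2⟩

theorem comp_reach_aux (hK : IsPre G μ E r) {n : ℕ} {p q : Pt X}
    (h : Reach E r n p q) :
    Reach (compE G E S) (compR G E r S) n (upPt p) (upPt q) := by
  induction n generalizing q with
  | zero =>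
    have h' : r p q := h
    exact compR_up (hK.supp _ _ h') (hK.supp _ _ (hK.symm _ _ h')) h'
  | succ n ih =>
    obtain ⟨x, i, b, h1, h2, h3⟩ := h
    refine ⟨x, 2 * i, b, mem_compE_even.mpr h1, ih h2, ?_⟩
    exact compR_up (hK.supp _ _ h3) (hK.supp _ _ (hK.symm _ _ h3)) h3

theorem comp_reach_left (hK : IsPre G μ E r) {n : ℕ} {p p' q : Pt X}
    (hp : compR G E r S p p') (h : Reach (compE G E S) (compR G E r S) n p' q) :
    Reach (compE G E S) (compR G E r S) n p q := by
  induction n generalizing q with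
  | zero => exact compR_trans hK hp h
  | succ n ih =>
    obtain ⟨x, i, b, h1, h2, h3⟩ := h
    exact ⟨x, i, b, h1, ih h2, h3⟩

theorem mset_compE (hX : IsGoodAction G X μ f) (hK : IsPre G μ E r) (hS : MSet S) :
    MSet (compE G E S) := by
  intro m
  have : {x | (x, m) ∈ compE G E S} = (⋃ i : ℕ, {x | m = 2 * i ∧ (x, i) ∈ E}) ∪
      ⋃ (j : ZMod D) (i : ℕ), {x | m = newIdx j i ∧ ((G.u j)⁻¹ • x, (j, i)) ∈ S} := by
    ext x
    simp only [compE, Set.mem_setOf_eq, Set.mem_union, Set.mem_iUnion]
  rw [this]
  refine (MeasurableSet.iUnion fun i => ?_).union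
    (MeasurableSet.iUnion fun j => MeasurableSet.iUnion fun i => ?_)
  · exact (MeasurableSet.const _).inter (hK.measE i)
  · exact (MeasurableSet.const _).inter ((hX.mp (G.u j)⁻¹).measurable (hS (j, i)))

/-- The graph of `compLift` on the active points. -/
theorem compLift_mrel (hG : G.Good) (hX : IsGoodAction G X μ f) (hK : IsPre G μ E r)
    (hi : Immersed E r) (hS : MSet S) (hsp : ∀ q ∈ S, IsSpot G E r q) :
    MRel Γ (fun p q : Pt X => Act (compE G E S) p ∧ compLift G E r p = q) := by
  have hsm : ∀ (g g' : Γ) (x : X), g • x = g' • x ↔ g = g' := by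
    intro g g' x
    constructor
    · intro h
      have : (g'⁻¹ * g) • x = x := by rw [mul_smul, h, inv_smul_smul]
      exact (inv_mul_eq_one.mp (hX.free _ _ this)).symm
    · rintro rfl; rfl
  refine ⟨?_, ?_⟩
  · rintro p q ⟨h, rfl⟩
    rcases act_cases h with ⟨x, rfl⟩ | ⟨x, i, b, h1, rfl⟩ | ⟨x, j, i, b, h1, rfl⟩
    · exact ⟨1, by simp [compLift_none]⟩
    · rw [compLift_even]; exact ⟨1, by simp⟩
    · cases b with
      | false => rw [compLift_false]; exact ⟨G.u (j - 1) * (G.u j)⁻¹, by simp [mul_smul]⟩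
      | true => rw [compLift_true]; exact ⟨G.u (j + 1) * (G.u j)⁻¹, by simp [mul_smul]⟩
  · intro g k k'
    cases k with
    | none =>
      have : {x : X | Act (compE G E S) (x, none) ∧ compLift G E r (x, none) = (g • x, k')} =
          {x : X | (1 : Γ) = g ∧ none = k'} := by
        ext x
        simp only [Set.mem_setOf_eq, compLift_none, Prod.mk.injEq]
        constructor
        · rintro ⟨-, h1, h2⟩
          exact ⟨(hsm _ _ x).mp (by rw [one_smul]; exact h1), h2⟩
        · rintro ⟨rfl, h2⟩
          exact ⟨(by intro i b h'; simp at h'), by simp, h2⟩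
      rw [this]
      exact MeasurableSet.const _
    | some mb =>
      obtain ⟨m, b⟩ := mb
      have hact : ∀ x : X, Act (compE G E S) (x, some (m, b)) ↔ (x, m) ∈ compE G E S := by
        intro x
        constructor
        · intro h; exact h m b rfl
        · intro h i' b' h'
          simp only [Option.some.injEq, Prod.mk.injEq] at h'
          obtain ⟨rfl, rfl⟩ := h'
          exact h
      rcases Nat.even_or_odd' m with ⟨i, rfl | rfl⟩
      · have : {x : X | Act (compE G E S) (x, some (2 * i, b)) ∧
            compLift G E r (x, some (2 * i, b)) = (g • x, k')} =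
            {x : X | (x, 2 * i) ∈ compE G E S} ∩ {x : X | (1 : Γ) = g ∧ some (i, b) = k'} := by
          ext x
          simp only [Set.mem_setOf_eq, compLift_even, Prod.mk.injEq, hact, Set.mem_inter_iff]
          constructor
          · rintro ⟨h0, h1, h2⟩
            exact ⟨h0, (hsm _ _ x).mp (by rw [one_smul]; exact h1), h2⟩
          · rintro ⟨h0, rfl, h2⟩
            exact ⟨h0, by simp, h2⟩
        rw [this]
        exact (mset_compE hX hK hS _).inter (MeasurableSet.const _)
      · by_cases hj : (Nat.unpair i).1 < D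
        · -- the index is `newIdx j i'`
          obtain ⟨j, i', hji⟩ : ∃ (j : ZMod D) (i' : ℕ), 2 * i + 1 = newIdx j i' := by
            refine ⟨((Nat.unpair i).1 : ZMod D), (Nat.unpair i).2, ?_⟩
            unfold newIdx
            rw [ZMod.val_natCast_of_lt hj, Nat.pair_unpair]
          simp only [hji] at hact ⊢
          cases b with
          | true =>
            have : {x : X | Act (compE G E S) (x, some (newIdx j i', true)) ∧
                compLift G E r (x, some (newIdx j i', true)) = (g • x, k')} =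
                {x : X | (x, newIdx j i') ∈ compE G E S} ∩
                  {x : X | G.u (j + 1) * (G.u j)⁻¹ = g ∧ some (i', false) = k'} := by
              ext x
              simp only [Set.mem_setOf_eq, compLift_true, Prod.mk.injEq, hact, Set.mem_inter_iff]
              constructor
              · rintro ⟨h0, h1, h2⟩
                exact ⟨h0, (hsm _ _ x).mp (by rw [mul_smul]; exact h1), h2⟩
              · rintro ⟨h0, rfl, h2⟩
                exact ⟨h0, by rw [mul_smul], h2⟩
            rw [this]
            exact (mset_compE hX hK hS _).inter (MeasurableSet.const _)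
          | false =>
            have : {x : X | Act (compE G E S) (x, some (newIdx j i', false)) ∧
                compLift G E r (x, some (newIdx j i', false)) = (g • x, k')} =
                {x : X | (x, newIdx j i') ∈ compE G E S} ∩
                  ⋃ m' : ℕ, ((fun x => (G.u j)⁻¹ • x) ⁻¹' {y | IsSpot G E r (y, (j, i')) ∧
                    spotC G E r (y, (j, i')) (j - 1) = m'} ∩
                  {x : X | G.u (j - 1) * (G.u j)⁻¹ = g ∧ some (m', true) = k'}) := by
              ext x
              simp only [Set.mem_setOf_eq, compLift_false, Prod.mk.injEq, hact, Set.mem_inter_iff,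
                Set.mem_iUnion, Set.mem_preimage]
              constructor
              · rintro ⟨h0, h1, h2⟩
                exact ⟨h0, _, ⟨hsp _ (mem_compE_new.mp h0), rfl⟩,
                  (hsm _ _ x).mp (by rw [mul_smul]; exact h1), h2⟩
              · rintro ⟨h0, m', ⟨h3, rfl⟩, rfl, h2⟩
                exact ⟨h0, by rw [mul_smul], h2⟩
            rw [this]
            refine (mset_compE hX hK hS _).inter (MeasurableSet.iUnion fun m' => ?_)
            exact ((hX.mp (G.u j)⁻¹).measurable
              (meas_spotC hG hX hK hi j i' (j - 1) (pred_ne hG j) m')).inter (MeasurableSet.const _)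
        · -- the index is not an index of the completed complex
          have : {x : X | Act (compE G E S) (x, some (2 * i + 1, b)) ∧
              compLift G E r (x, some (2 * i + 1, b)) = (g • x, k')} = ∅ := by
            ext x
            simp only [Set.mem_setOf_eq, Set.mem_empty_iff_false, iff_false, hact, not_and]
            intro h
            exfalso
            rcases h with ⟨i', h1, h2⟩ | ⟨j, i', h1, h2⟩
            · simp only at h1; omega
            · simp only at h1
              apply hj
              have h3 : i = Nat.pair (ZMod.val j) i' := by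
                unfold newIdx at h1; omega
              rw [h3, Nat.unpair_pair]
              exact ZMod.val_lt j
          rw [this]
          exact MeasurableSet.empty

theorem comp_smeas (hX : IsGoodAction G X μ f) :
    smeas μ (compE G E S) ≤ smeas μ E + smeas μ S := by
  have hstep : ∀ m : ℕ, μ {x | (x, m) ∈ compE G E S} ≤
      (∑' i : ℕ, if m = 2 * i then μ {x | (x, i) ∈ E} else 0) +
      ∑' ji : ZMod D × ℕ, if m = newIdx ji.1 ji.2 then μ {x | (x, ji) ∈ S} else 0 := by
    intro m
    have hsub : {x | (x, m) ∈ compE G E S} ⊆ (⋃ i : ℕ, {x | m = 2 * i ∧ (x, i) ∈ E}) ∪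
        ⋃ ji : ZMod D × ℕ, {x | m = newIdx ji.1 ji.2 ∧ ((G.u ji.1)⁻¹ • x, ji) ∈ S} := by
      rintro x (⟨i, h1, h2⟩ | ⟨j, i, h1, h2⟩)
      · exact Or.inl (Set.mem_iUnion.mpr ⟨i, h1, h2⟩)
      · exact Or.inr (Set.mem_iUnion.mpr ⟨(j, i), h1, h2⟩)
    refine (measure_mono hsub).trans ((measure_union_le _ _).trans (add_le_add ?_ ?_))
    · refine (measure_iUnion_le _).trans (ENNReal.tsum_le_tsum fun i => ?_)
      by_cases h : m = 2 * i
      · simp [h]
      · simp [h]
    · refine (measure_iUnion_le _).trans (ENNReal.tsum_le_tsum fun ji => ?_)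
      by_cases h : m = newIdx ji.1 ji.2
      · simp only [← h, true_and, if_true]
        have h1 : {x | ((G.u ji.1)⁻¹ • x, ji) ∈ S} ⊆
            (fun x : X => (G.u ji.1)⁻¹ • x) ⁻¹' (toMeasurable μ {x | (x, ji) ∈ S}) := by
          intro x hx
          exact subset_toMeasurable μ _ hx
        refine (measure_mono h1).trans ?_
        rw [(hX.mp (G.u ji.1)⁻¹).measure_preimage (measurableSet_toMeasurable _ _).nullMeasurableSet,
          measure_toMeasurable]
      · simp [h]
  unfold smeas
  refine (ENNReal.tsum_le_tsum hstep).trans ?_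
  rw [ENNReal.tsum_add]
  refine add_le_add ?_ ?_
  · rw [ENNReal.tsum_comm]
    refine ENNReal.tsum_le_tsum fun i => ?_
    rw [tsum_ite_eq]
  · rw [ENNReal.tsum_comm]
    refine ENNReal.tsum_le_tsum fun ji => ?_
    rw [tsum_ite_eq]

theorem comp_isPre (hG : G.Good) (hX : IsGoodAction G X μ f) (hK : IsPre G μ E r)
    (hi : Immersed E r) (hS : MSet S) (hfin : smeas μ S ≠ ∞) (hsp : ∀ q ∈ S, IsSpot G E r q) :
    IsPre G μ (compE G E S) (compR G E r S) where
  measE := mset_compE hX hK hS
  finE := by
    have h1 := comp_smeas (G := G) (E := E) (S := S) hX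
    exact ne_top_of_le_ne_top (ENNReal.add_ne_top.mpr ⟨hK.finE, hfin⟩) h1
  multE := by
    intro x
    have : {m | (x, m) ∈ compE G E S} ⊆ ((fun i => 2 * i) '' {i | (x, i) ∈ E}) ∪
        ⋃ j : ZMod D, (fun i => newIdx j i) '' {i | (G.u (j + 1) • (G.u j)⁻¹ • x, i) ∈ E} := by
      rintro m (⟨i, h1, h2⟩ | ⟨j, i, h1, h2⟩)
      · exact Or.inl ⟨i, h2, h1.symm⟩
      · right
        rw [Set.mem_iUnion]
        refine ⟨j, i, ?_, h1.symm⟩
        obtain ⟨h3, h4⟩ := spotC_spec (hsp _ h2)
        have := h4.1 _ (succ_ne hG j)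
        rw [h3] at this
        exact this
    refine Set.Finite.subset ?_ this
    exact ((hK.multE x).image _).union (Set.finite_iUnion fun j => (hK.multE _).image _)
  refl := fun p hp => ⟨hK.refl _ (act_compLift hG hsp hp), hp, hp⟩
  symm := fun p q h => ⟨hK.symm _ _ h.1, h.2.2, h.2.1⟩
  trans := fun p q t h1 h2 => compR_trans hK h1 h2
  supp := fun p q h => h.2.1
  rloc := by
    rintro p q ⟨h1, h2, h3⟩
    obtain ⟨a, ha, h4⟩ := hK.rloc _ _ h1
    obtain ⟨b, hb, h5⟩ := loc_compLift (r := r) hG h2
    obtain ⟨c, hc, h6⟩ := loc_compLift (r := r) hG h3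
    refine ⟨c⁻¹ * (a * b), G.A.mul_mem (G.A.inv_mem hc) (G.A.mul_mem ha hb), ?_⟩
    rw [mul_smul, mul_smul, ← h5, ← h4, h6, inv_smul_smul]
  base := by
    intro x a ha
    refine ⟨hK.base x a ha, ?_, ?_⟩
    · intro i b h'; simp at h'
    · intro i b h'; simp at h'
  measr := by
    have hL := compLift_mrel (f := f) hG hX hK hi hS hsp
    have hr : MRel Γ r := hK.mrel
    have h1 := (hL.comp hX.mp hr).comp hX.mp (hL.swap hX.mp)
    intro g k k'
    convert h1.2 g k k' using 1
    ext x
    simp only [Set.mem_setOf_eq, compR]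
    constructor
    · rintro ⟨h1, h2, h3⟩
      exact ⟨_, ⟨_, ⟨h2, rfl⟩, h1⟩, h3, rfl⟩
    · rintro ⟨q, ⟨p, ⟨h2, rfl⟩, h1⟩, h3, rfl⟩
      exact ⟨h1, h2, h3⟩
  conn_base := by
    intro x
    obtain ⟨n, hn⟩ := hK.conn_base x
    exact ⟨n, comp_reach_aux (S := S) hK hn⟩
  conn := by
    intro p hp
    obtain ⟨n, y, hn⟩ := hK.conn _ (act_compLift hG hsp hp)
    refine ⟨n, y, comp_reach_left hK ?_ (comp_reach_aux (S := S) hK hn)⟩
    refine ⟨?_, hp, act_upPt (act_compLift hG hsp hp)⟩
    rw [compLift_upPt]
    exact hK.refl _ (act_compLift hG hsp hp)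

end Crest.Agent.FP
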