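import Mathlib
import Crest.Agent.FP_Comp1
import Crest.Agent.FP_Wt

/-!
# Task FP-C2: paths, the new edges, and vertices of the completed pre-complex
-/

set_option autoImplicit false
set_option linter.unusedSectionVars false
set_option linter.unusedVariables false

open MeasureTheory
open scoped ENNReal

namespace Crest.Agent.FP

variable {Γ X : Type} [Group Γ] [Countable Γ] [MulAction Γ X] [MeasurableSpace X]
  {D : ℕ} [NeZero D] {G : PolyData Γ D} {μ : Measure X} [IsProbabilityMeasure μ] {f : X → ℝ}
  {E F N : Set (X × ℕ)} {r : Pt X → Pt X → Prop} {s : X × ℕ → (X × ℕ →₀ ℚ)}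
  {S : Set (X × (ZMod D × ℕ))}

theorem upPt_some (x : X) (i : ℕ) (b : Bool) :
    upPt ((x, some (i, b)) : Pt X) = (x, some (2 * i, b)) := rfl

theorem upPt_none (x : X) : upPt ((x, none) : Pt X) = (x, none) := rfl

theorem act_of_upPt {p : Pt X} (h : Act (compE G E S) (upPt p)) : Act E p := by
  obtain ⟨x, o⟩ := p
  intro i b hib
  simp only at hib
  subst hib
  have h1 := h (2 * i) b rfl
  rcases h1 with ⟨i', h2, h3⟩ | ⟨j, i', h2, h3⟩
  · simp only [upPt_some] at h2 h3
    have : i' = i := by omega
    rw [this] at h3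
    exact h3
  · simp only [newIdx] at h2
    omega

theorem act_end {x : X} {i : ℕ} {b : Bool} (h : (x, i) ∈ E) : Act E (x, some (i, b)) := by
  intro i' b' hib
  simp only [Option.some.injEq, Prod.mk.injEq] at hib
  rw [← hib.1]
  exact h

theorem compR_upPt (hK : IsPre G μ E r) {p q : Pt X} (h : r p q) :
    compR G E r S (upPt p) (upPt q) := by
  refine ⟨?_, act_upPt (hK.supp _ _ h), act_upPt (hK.supp _ _ (hK.symm _ _ h))⟩
  rw [compLift_upPt, compLift_upPt]
  exact h

/-- paths stay -/
theorem comp_reach (hG : G.Good) (hK : IsPre G μ E r) {n : ℕ} {p q : Pt X}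
    (h : Reach E r n p q) :
    Reach (compE G E S) (compR G E r S) n (upPt p) (upPt q) := by
  induction n generalizing q with
  | zero => exact compR_upPt hK h
  | succ n ih =>
    obtain ⟨x, i, b, h1, h2, h3⟩ := h
    exact ⟨x, 2 * i, b, Or.inl ⟨i, rfl, h1⟩, ih h2, compR_upPt hK h3⟩

theorem compLift_new_true (G : PolyData Γ D) (E : Set (X × ℕ)) (r : Pt X → Pt X → Prop)
    (x : X) (j : ZMod D) (i : ℕ) :
    compLift G E r (x, some (newIdx j i, true)) =
      (G.u (j + 1) • (G.u j)⁻¹ • x, some (i, false)) := by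
  have h1 : ¬ newIdx j i % 2 = 0 := by unfold newIdx; omega
  have h2 : newIdx j i / 2 = Nat.pair (ZMod.val j) i := by unfold newIdx; omega
  simp only [compLift, h1, h2, if_false, Nat.unpair_pair, ZMod.natCast_zmod_val, if_true]

theorem compLift_new_false (G : PolyData Γ D) (E : Set (X × ℕ)) (r : Pt X → Pt X → Prop)
    (x : X) (j : ZMod D) (i : ℕ) :
    compLift G E r (x, some (newIdx j i, false)) =
      (G.u (j - 1) • (G.u j)⁻¹ • x,
        some (spotC G E r ((G.u j)⁻¹ • x, (j, i)) (j - 1), true)) := by
  have h1 : ¬ newIdx j i % 2 = 0 := by unfold newIdx; omega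
  have h2 : newIdx j i / 2 = Nat.pair (ZMod.val j) i := by unfold newIdx; omega
  simp [compLift, h1, h2]

theorem good_sub_ne (hG : G.Good) (j : ZMod D) : j - 1 ≠ j := by
  intro h
  have h1 : (1 : ZMod D) = 0 := by
    have := congrArg (fun t => j - t) h
    simpa using this
  have : Fact (1 < D) := ⟨by have := hG.hD; omega⟩
  exact one_ne_zero h1

theorem good_add_ne (hG : G.Good) (j : ZMod D) : j + 1 ≠ j := by
  intro h
  have h1 : (1 : ZMod D) = 0 := by
    have := congrArg (fun t => t - j) h
    simpa using this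
  have : Fact (1 < D) := ⟨by have := hG.hD; omega⟩
  exact one_ne_zero h1

/-- the new edge -/
theorem comp_new (hG : G.Good) (hK : IsPre G μ E r) (hi : Immersed E r)
    (hsp : ∀ q ∈ S, IsSpot G E r q) {y : X} {j : ZMod D} {i : ℕ} (hq : (y, (j, i)) ∈ S)
    {c : ZMod D → ℕ} (hc : IsSpotData G E r y j c) (hci : c (j + 1) = i) :
    (G.u j • y, newIdx j i) ∈ compE G E S ∧
    compR G E r S (G.u j • y, some (newIdx j i, false))
      (upPt (G.u (j - 1) • y, some (c (j - 1), true))) ∧
    compR G E r S (G.u j • y, some (newIdx j i, true))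
      (upPt (G.u (j + 1) • y, some (c (j + 1), false))) := by
  have hE : (G.u j • y, newIdx j i) ∈ compE G E S := by
    right
    refine ⟨j, i, rfl, ?_⟩
    simp only [inv_smul_smul]
    exact hq
  have hsub := good_sub_ne hG j
  have hadd := good_add_ne hG j
  obtain ⟨h1, h2⟩ := spotC_spec (hsp _ hq)
  refine ⟨hE, ⟨?_, act_end hE, act_upPt (act_end (hc.1 _ hsub))⟩,
    ⟨?_, act_end hE, act_upPt (act_end (hc.1 _ hadd))⟩⟩
  · rw [compLift_upPt, compLift_new_false, inv_smul_smul]
    have h3 : spotC G E r (y, (j, i)) (j - 1) = c (j - 1) :=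
      spot_unique hG hK hi h2 hc (by simp only at h1; rw [h1, hci]) hsub
    rw [h3]
    exact hK.refl _ (act_end (hc.1 _ hsub))
  · rw [compLift_upPt, compLift_new_true, inv_smul_smul, hci]
    refine hK.refl _ (act_end ?_)
    rw [← hci]
    exact hc.1 _ hadd

/-- Every active end of the completed complex is attached to an end of an old edge. -/
theorem compLift_end (hG : G.Good) (hsp : ∀ q ∈ S, IsSpot G E r q) {x : X} {m : ℕ} {b : Bool}
    (h : (x, m) ∈ compE G E S) :
    ∃ q : X × (ℕ × Bool), q ∈ Ends E ∧ compLift G E r (x, some (m, b)) = (q.1, some q.2) := by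
  rcases h with ⟨i, h1, h2⟩ | ⟨j, i, h1, h2⟩
  · simp only at h1 h2
    subst h1
    exact ⟨(x, (i, b)), h2, compLift_upPt (G := G) (E := E) (r := r) (x, some (i, b))⟩
  · simp only at h1 h2
    subst h1
    obtain ⟨h3, h4⟩ := spotC_spec (hsp _ h2)
    simp only at h3 h4
    cases b
    · rw [compLift_new_false]
      exact ⟨(_, (_, _)), h4.1 _ (good_sub_ne hG j), rfl⟩
    · rw [compLift_new_true]
      refine ⟨(_, (_, _)), ?_, rfl⟩
      have := h4.1 _ (good_add_ne hG j)
      rw [h3] at this
      exact this

theorem comp_deg_le (hK : IsPre G μ E r) {p : Pt X} (hp : Act (compE G E S) p) :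
    deg r (compLift G E r p) ≤ deg (compR G E r S) p := by
  rw [deg_eq_encard, deg_eq_encard]
  refine ENat.toENNReal_le.2 ?_
  let e : X × (ℕ × Bool) → X × (ℕ × Bool) := fun q => (q.1, (2 * q.2.1, q.2.2))
  have he : Function.Injective e := by
    rintro ⟨x, i, b⟩ ⟨x', i', b'⟩ h
    simp only [e, Prod.mk.injEq] at h
    obtain ⟨h1, h2, h3⟩ := h
    have : i = i' := by omega
    rw [h1, this, h3]
  rw [← he.encard_image]
  refine Set.encard_le_encard ?_
  rintro _ ⟨q, hq, rfl⟩
  have h1 : r (compLift G E r p) (q.1, some q.2) := hq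
  refine ⟨?_, hp, ?_⟩
  · have := compLift_upPt (G := G) (E := E) (r := r) (q.1, some q.2)
    have h2 : upPt ((q.1, some q.2) : Pt X) = ((e q).1, some (e q).2) := rfl
    rw [h2] at this
    rw [this]
    exact h1
  · have h2 : upPt ((q.1, some q.2) : Pt X) = ((e q).1, some (e q).2) := rfl
    rw [← h2]
    exact act_upPt (hK.supp _ _ (hK.symm _ _ h1))

theorem comp_isBase {p : Pt X} (hp : Act (compE G E S) p) :
    IsBase (compR G E r S) p ↔ IsBase r (compLift G E r p) := by
  constructor
  · rintro ⟨y, hy⟩
    exact ⟨y, hy.1⟩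
  · rintro ⟨y, hy⟩
    refine ⟨y, hy, hp, ?_⟩
    intro i b h
    simp at h

/-- sum of a class function over the ends of a class -/
theorem tsum_class_le (hK : IsPre G μ E r) (p : Pt X) :
    (open Classical in ∑' q : X × (ℕ × Bool), if r (q.1, some q.2) p then wt r (q.1, some q.2) else 0)
      ≤ 1 := by
  classical
  have h1 : ∀ q : X × (ℕ × Bool), (if r (q.1, some q.2) p then wt r (q.1, some q.2) else 0) =
      wt r p * (if r p (q.1, some q.2) then 1 else 0) := by
    intro q
    by_cases h : r (q.1, some q.2) p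
    · rw [if_pos h, if_pos (hK.symm _ _ h), wt_congr hK h, mul_one]
    · rw [if_neg h, if_neg (fun h' => h (hK.symm _ _ h')), mul_zero]
  have h2 : (∑' q : X × (ℕ × Bool), if r p (q.1, some q.2) then (1 : ℝ≥0∞) else 0) = deg r p := by
    unfold deg
    congr!
  calc _ = ∑' q : X × (ℕ × Bool), wt r p * (if r p (q.1, some q.2) then 1 else 0) := by
        refine tsum_congr fun q => ?_
        rw [← h1]
    _ = wt r p * deg r p := by rw [ENNReal.tsum_mul_left, h2]
    _ ≤ 1 := by
        unfold wt
        by_cases hb : IsBase r p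
        · rw [if_pos hb, zero_mul]; exact bot_le
        · rw [if_neg hb]
          exact ENNReal.inv_mul_le_one _

/-- **Completion does not increase `Vm`** (mass transport: a finite nonbase class of `compR` contains
at least one end of an old edge, and its old ends form one class of `r`). -/
theorem comp_Vm (hG : G.Good) (hX : IsGoodAction G X μ f) (hK : IsPre G μ E r)
    (hi : Immersed E r) (hS : MSet S) (hfin : smeas μ S ≠ ∞) (hsp : ∀ q ∈ S, IsSpot G E r q) :
    Vm μ (compE G E S) (compR G E r S) ≤ Vm μ E r := by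
  classical
  have hC := comp_isPre hG hX hK hi hS hfin hsp
  let F : X × (ℕ × Bool) → X × (ℕ × Bool) → ℝ≥0∞ := fun p q =>
    if compR G E r S (p.1, some p.2) (upPt (q.1, some q.2)) then
      wt (compR G E r S) (p.1, some p.2) * wt r (q.1, some q.2) else 0
  have hF0 : ∀ p q, F p q ≠ 0 → compR G E r S (p.1, some p.2) (upPt (q.1, some q.2)) := by
    intro p q h
    by_contra h'
    exact h (if_neg h')
  have hF : ∀ p q, F p q ≠ 0 → ∃ g : Γ, q.1 = g • p.1 := by
    intro p q h
    exact pre_orb hC (hF0 p q h)
  have hm : ∀ (g : Γ) i k, Measurable fun x => F (x, i) (g • x, k) := by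
    intro g i k
    refine Measurable.ite (hC.measr g (some i) (some (2 * k.1, k.2))) ?_ measurable_const
    exact (meas_wt hG hX hC (some i)).mul ((meas_wt hG hX hK (some k)).comp (hX.mp g).measurable)
  have key := mtp (μ := μ) hX.free hX.mp F hF hm
  -- the first marginal
  have h1 : Vm μ (compE G E S) (compR G E r S) ≤ sint μ (fun p => ∑' q, F p q) := by
    refine sint_mono fun p => ?_
    by_cases hp : p ∈ Ends (compE G E S)
    swap
    · rw [Set.indicator_of_notMem hp]; exact bot_le
    rw [Set.indicator_of_mem hp]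
    by_cases hw : wt (compR G E r S) (p.1, some p.2) = 0
    · rw [hw]; exact bot_le
    have hact : Act (compE G E S) (p.1, some p.2) := act_end hp
    have hb : ¬ IsBase (compR G E r S) (p.1, some p.2) := by
      intro hb
      exact hw (by unfold wt; rw [if_pos hb])
    have hwt : wt (compR G E r S) (p.1, some p.2) = (deg (compR G E r S) (p.1, some p.2))⁻¹ := by
      unfold wt; rw [if_neg hb]
    have hd : deg (compR G E r S) (p.1, some p.2) ≠ ∞ := by
      intro h
      rw [hwt, h] at hw
      simp at hw
    obtain ⟨q₀, hq₀, hq₁⟩ := compLift_end (b := p.2.2) hG hsp hp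
    have hd' : deg r (q₀.1, some q₀.2) ≠ ∞ := by
      rw [← hq₁]
      exact ne_top_of_le_ne_top hd (comp_deg_le hK hact)
    have hd0 : deg r (q₀.1, some q₀.2) ≠ 0 := by
      have := card_le_deg (r := r) (q₀.1, some q₀.2) {q₀} (by
        intro q hq
        rw [Finset.mem_singleton] at hq
        rw [hq]
        exact ends_refl hK hq₀)
      intro h
      rw [h] at this
      simp at this
    have hb' : ¬ IsBase r (q₀.1, some q₀.2) := by
      intro h
      refine hb ((comp_isBase hact).2 ?_)
      rw [← hq₁] at h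
      exact h
    have h2 : ∀ q, F p q = wt (compR G E r S) (p.1, some p.2) * (deg r (q₀.1, some q₀.2))⁻¹ *
        (if r (q₀.1, some q₀.2) (q.1, some q.2) then 1 else 0) := by
      intro q
      simp only [F]
      by_cases h : r (q₀.1, some q₀.2) (q.1, some q.2)
      · rw [if_pos h, if_pos]
        · have : wt r (q.1, some q.2) = (deg r (q₀.1, some q₀.2))⁻¹ := by
            rw [← wt_congr hK h]
            unfold wt
            rw [if_neg hb']
          rw [this, mul_one]
        · refine ⟨?_, hact, act_upPt (hK.supp _ _ (hK.symm _ _ h))⟩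
          rw [compLift_upPt]
          have h3 : compLift G E r (p.1, some p.2) = (q₀.1, some q₀.2) := hq₁
          rw [h3]
          exact h
      · rw [if_neg h, if_neg]
        · simp
        · rintro ⟨h3, _, _⟩
          rw [compLift_upPt] at h3
          have h4 : compLift G E r (p.1, some p.2) = (q₀.1, some q₀.2) := hq₁
          rw [h4] at h3
          exact h h3
    have h3 : (∑' q : X × (ℕ × Bool), if r (q₀.1, some q₀.2) (q.1, some q.2) then (1 : ℝ≥0∞) else 0) =
        deg r (q₀.1, some q₀.2) := by
      unfold deg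
      congr!
    simp_rw [h2]
    rw [ENNReal.tsum_mul_left, h3, mul_assoc, ENNReal.inv_mul_cancel hd0 hd', mul_one]
  -- the second marginal
  have h2 : sint μ (fun q => ∑' p, F p q) ≤ Vm μ E r := by
    refine sint_mono fun q => ?_
    by_cases hq : q ∈ Ends E
    · rw [Set.indicator_of_mem hq]
      have h3 : ∀ p, F p q = wt r (q.1, some q.2) *
          (if compR G E r S (p.1, some p.2) (upPt (q.1, some q.2)) then
            wt (compR G E r S) (p.1, some p.2) else 0) := by
        intro p
        simp only [F]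
        split_ifs
        · rw [mul_comm]
        · rw [mul_zero]
      simp_rw [h3]
      rw [ENNReal.tsum_mul_left]
      have h4 := tsum_class_le hC (upPt (q.1, some q.2))
      calc _ ≤ wt r (q.1, some q.2) * 1 := by
            refine mul_le_mul' le_rfl ?_
            convert h4
        _ = _ := mul_one _
    · rw [Set.indicator_of_notMem hq]
      refine le_of_eq (ENNReal.tsum_eq_zero.2 fun p => ?_)
      by_contra h
      have h3 := hF0 p q h
      have h4 := act_of_upPt h3.2.2
      exact hq (h4 q.2.1 q.2.2 rfl)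
  exact h1.trans (key.le.trans h2)

end Crest.Agent.FP
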