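import Mathlib
import Crest.Agent.FP_Ops

/-!
# cells and rows of the completed complex (definitions)
-/

set_option autoImplicit false

open MeasureTheory
open scoped ENNReal

namespace Crest.Agent.FP

variable {Γ X : Type} [Group Γ] [Countable Γ] [MulAction Γ X] [MeasurableSpace X]
  {D : ℕ} [NeZero D] {G : PolyData Γ D} {μ : Measure X} [IsProbabilityMeasure μ] {f : X → ℝ}
  {E F N : Set (X × ℕ)} {r : Pt X → Pt X → Prop} {s : X × ℕ → (X × ℕ →₀ ℚ)}
  {S : Set (X × (ZMod D × ℕ))}

/-- The cells of the new complex: images of the old cells, and the completed polygons at the spots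
(a cell is recorded by its `0`-th edge; `u_0 = 1`). -/
def compF (G : PolyData Γ D) (E : Set (X × ℕ)) (r : Pt X → Pt X → Prop) (F : Set (X × ℕ))
    (S : Set (X × (ZMod D × ℕ))) : Set (X × ℕ) :=
  {q | (∃ i, (q.1, i) ∈ F ∧ q.2 = rep (compE G E S) (compR G E r S) (q.1, 2 * i)) ∨
    ∃ j i, (q.1, (j, i)) ∈ S ∧ q.2 = rep (compE G E S) (compR G E r S)
      (q.1, if j = 0 then newIdx j i else 2 * spotC G E r (q.1, (j, i)) 0)}

/-- The rows of the new complex. -/
noncomputable def compS (G : PolyData Γ D) (E : Set (X × ℕ)) (r : Pt X → Pt X → Prop)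
    (S : Set (X × (ZMod D × ℕ))) (s : X × ℕ → (X × ℕ →₀ ℚ)) : X × ℕ → (X × ℕ →₀ ℚ) :=
  fun n => (s n).mapDomain fun e => (e.1, rep (compE G E S) (compR G E r S) (e.1, 2 * e.2))

end Crest.Agent.FP
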