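import Mathlib
import Crest.Agent.FP_FoldM
import Crest.Agent.FP_Wt

/-!
# Task FP-F3: folding does not increase `Vm`
-/

set_option autoImplicit false

open MeasureTheory
open scoped ENNReal

namespace Crest.Agent.FP

variable {Γ X : Type} [Group Γ] [Countable Γ] [MulAction Γ X] [MeasurableSpace X]
  {D : ℕ} [NeZero D] {G : PolyData Γ D} {μ : Measure X} [IsProbabilityMeasure μ] {f : X → ℝ}
  {E : Set (X × ℕ)} {r : Pt X → Pt X → Prop}

omit [Countable Γ] [MeasurableSpace X] in
private theorem foldV_deg_orbit (hfree : ∀ (g : Γ) (x : X), g • x = x → g = 1)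
    {R : Pt X → Pt X → Prop} (hR : ∀ p q, R p q → ∃ g : Γ, q.1 = g • p.1)
    (x : X) (k : Option (ℕ × Bool)) :
    deg R (x, k) = ∑' (g : Γ) (j : ℕ × Bool),
      (open Classical in if R (x, k) (g • x, some j) then (1 : ℝ≥0∞) else 0) := by
  classical
  unfold deg
  rw [tsum_orbit (Γ := Γ) hfree x]
  intro q hq
  by_cases h : R (x, k) (q.1, some q.2)
  · exact hR _ _ h
  · simp [h] at hq

private theorem foldV_meas_deg (hX : IsGoodAction G X μ f)
    {R : Pt X → Pt X → Prop} (hR : MRel Γ R) (k : Option (ℕ × Bool)) :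
    Measurable fun x : X => deg R (x, k) := by
  classical
  have h : (fun x : X => deg R (x, k)) = fun x => ∑' (g : Γ) (j : ℕ × Bool),
      (if R (x, k) (g • x, some j) then (1 : ℝ≥0∞) else 0) := by
    funext x
    rw [foldV_deg_orbit hX.free hR.1 x k]
  rw [h]
  refine Measurable.tsum fun g => Measurable.tsum fun j => ?_
  exact Measurable.ite (hR.2 g k (some j)) measurable_const measurable_const

/-- The degree is finite iff the class has finitely many ends. -/
private theorem foldV_deg_fin {R : Pt X → Pt X → Prop} {p : Pt X} (h : deg R p ≠ ∞) :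
    {q : X × (ℕ × Bool) | R p (q.1, some q.2)}.Finite := by
  classical
  by_contra hinf
  apply h
  refine ENNReal.eq_top_of_forall_nnreal_le fun n => ?_
  obtain ⟨m, hm⟩ := exists_nat_ge n
  obtain ⟨t, ht, hc⟩ := (Set.Infinite.exists_subset_card_eq hinf m)
  have h1 : (t.card : ℝ≥0∞) ≤ deg R p := card_le_deg p t (fun q hq => ht hq)
  refine le_trans ?_ h1
  rw [hc]
  exact_mod_cast hm

private theorem foldV_deg_ne_top {R : Pt X → Pt X → Prop} {p : Pt X}
    (h : {q : X × (ℕ × Bool) | R p (q.1, some q.2)}.Finite) : deg R p ≠ ∞ := by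
  classical
  unfold deg
  rw [tsum_eq_sum (s := h.toFinset)]
  · exact ENNReal.sum_ne_top.mpr fun q _ => by split_ifs <;> simp
  · intro q hq
    simp only [Set.Finite.mem_toFinset, Set.mem_setOf_eq] at hq
    simp [hq]

/-- **Folding does not increase the number of (nonbase, finite) vertices.**
PROOF: mass transport.  Let `w` be the weight for `r`, `w'` for `foldR`.  A nonbase `foldR`-class `c'`
of finite degree contains only finitely many ends of `E` (finite multiplicities: `multE`, and
different locations/types stay different in `foldE`), all nonbase for `r` and of finite degree.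
`F(q', q) = w'(q') / #{ends of E folded with q'}` for `q'` an end of `foldE`, `q` an end of `E`,
`FoldRel q' q`, `q'` nonbase of finite degree.  Sum over `q` is `w'(q')`; sum over `q'` is
`1 / #{ends of E folded with q} ≤ 1 / deg r q = w(q)`. -/
theorem fold_Vm (hG : G.Good) (hX : IsGoodAction G X μ f) (hK : IsPre G μ E r) :
    Vm μ (foldE E r) (foldR E r) ≤ Vm μ E r := by
  classical
  have hmr := foldRel_mrel hG hX hK
  have hK' := fold_isPre hG hX hK
  set w' : X × (ℕ × Bool) → ℝ≥0∞ := fun q =>
    (Ends (foldE E r)).indicator (fun q => wt (foldR E r) (q.1, some q.2)) q with hw'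
  set F : X × (ℕ × Bool) → X × (ℕ × Bool) → ℝ≥0∞ := fun q' q =>
    if FoldRel E r (q'.1, some q'.2) (q.1, some q.2) then
      w' q' * (deg (FoldRel E r) (q'.1, some q'.2))⁻¹ else 0 with hF
  have hfoldE : ∀ q : X × (ℕ × Bool), q ∈ Ends (foldE E r) → q ∈ Ends E := fun q hq => hq.1
  have hact : ∀ q : X × (ℕ × Bool), ∀ E₀ : Set (X × ℕ), Act E₀ (q.1, some q.2) ↔ q ∈ Ends E₀ := by
    intro q E₀
    constructor
    · intro h
      exact h q.2.1 q.2.2 rfl
    · intro h i b hib
      simp only [Option.some.injEq] at hib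
      have : q.2.1 = i := by rw [hib]
      rw [← this]
      exact h
  have hactn : ∀ (x : X) (E₀ : Set (X × ℕ)), Act E₀ ((x, none) : Pt X) := by
    intro x E₀ i b h
    simp at h
  have hdegcongr : ∀ p q, FoldRel E r p q → deg (FoldRel E r) p = deg (FoldRel E r) q := by
    intro p q h
    unfold deg
    congr 1
    funext s
    have : FoldRel E r p (s.1, some s.2) ↔ FoldRel E r q (s.1, some s.2) :=
      ⟨fun h' => (h.symm).trans h', fun h' => h.trans h'⟩
    simp only [this]
  -- nonzero weight
  have hne : ∀ q' : X × (ℕ × Bool), w' q' ≠ 0 → q' ∈ Ends (foldE E r) ∧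
      ¬ IsBase (foldR E r) (q'.1, some q'.2) ∧ deg (foldR E r) (q'.1, some q'.2) ≠ ∞ ∧
      w' q' = (deg (foldR E r) (q'.1, some q'.2))⁻¹ := by
    intro q' h
    have h1 : q' ∈ Ends (foldE E r) := by
      by_contra h'
      exact h (by simp [hw', h'])
    have h2 : w' q' = wt (foldR E r) (q'.1, some q'.2) := by
      simp [hw', h1]
    have h3 : ¬ IsBase (foldR E r) (q'.1, some q'.2) := by
      intro hb
      apply h
      rw [h2]
      unfold wt
      rw [if_pos hb]
    have h4 : w' q' = (deg (foldR E r) (q'.1, some q'.2))⁻¹ := by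
      rw [h2]
      unfold wt
      rw [if_neg h3]
    refine ⟨h1, h3, ?_, h4⟩
    intro ht
    apply h
    rw [h4, ht, ENNReal.inv_top]
  -- sum over q
  have hsum1 : ∀ q', ∑' q, F q' q = w' q' := by
    intro q'
    by_cases h0 : w' q' = 0
    · simp [hF, h0]
    obtain ⟨h1, h3, h5, h4⟩ := hne q' h0
    have hfin : deg (FoldRel E r) (q'.1, some q'.2) ≠ ∞ := by
      apply foldV_deg_ne_top
      have hS' := foldV_deg_fin h5
      -- union over S' of the fibers
      have hU : (⋃ s ∈ {q : X × (ℕ × Bool) | foldR E r (q'.1, some q'.2) (q.1, some q.2)},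
          (fun i : ℕ => ((s.1, (i, s.2.2)) : X × (ℕ × Bool))) '' {i | (s.1, i) ∈ E}).Finite :=
        hS'.biUnion fun s _ => (hK.multE s.1).image _
      refine hU.subset ?_
      intro q hq
      simp only [Set.mem_setOf_eq] at hq
      have hqE : q ∈ Ends E := (hact q E).mp (foldRel_supp hK hq).2
      have hrep := rep_spec hK (x := q.1) (i := q.2.1) hqE
      simp only [Set.mem_iUnion, Set.mem_image, Set.mem_setOf_eq, exists_prop]
      refine ⟨(q.1, (rep E r (q.1, q.2.1), q.2.2)), ?_, q.2.1, hqE, rfl⟩
      refine ⟨hq.trans (hrep.2 q.2.2), (hact _ _).mpr h1, ?_⟩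
      exact (hact (q.1, (rep E r (q.1, q.2.1), q.2.2)) _).mpr hrep.1
    have hpos : deg (FoldRel E r) (q'.1, some q'.2) ≠ 0 := by
      have := card_le_deg (r := FoldRel E r) (q'.1, some q'.2) {q'} (by
        intro q hq
        rw [Finset.mem_singleton] at hq
        subst hq
        exact FoldRel.base (hK.refl _ ((hact _ _).mpr (hfoldE _ h1))))
      intro h
      rw [h] at this
      simp at this
    have : ∀ q, F q' q = (w' q' * (deg (FoldRel E r) (q'.1, some q'.2))⁻¹) *
        (if FoldRel E r (q'.1, some q'.2) (q.1, some q.2) then 1 else 0) := by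
      intro q
      simp only [hF]
      split_ifs <;> simp
    simp_rw [this]
    rw [ENNReal.tsum_mul_left]
    have hd : ∑' q : X × (ℕ × Bool),
        (if FoldRel E r (q'.1, some q'.2) (q.1, some q.2) then (1 : ℝ≥0∞) else 0) =
        deg (FoldRel E r) (q'.1, some q'.2) := by
      unfold deg
      congr 1
    rw [hd, mul_assoc, ENNReal.inv_mul_cancel hpos hfin, mul_one]
  -- sum over q'
  have hsum2 : ∀ q, ∑' q', F q' q ≤ (Ends E).indicator (fun q => wt r (q.1, some q.2)) q := by
    intro q
    by_cases hall : ∀ q', F q' q = 0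
    · simp [hall]
    push_neg at hall
    obtain ⟨q₀, hq₀⟩ := hall
    have hrel₀ : FoldRel E r (q₀.1, some q₀.2) (q.1, some q.2) := by
      by_contra h
      exact hq₀ (by simp [hF, h])
    have hw₀ : w' q₀ ≠ 0 := by
      intro h
      exact hq₀ (by simp [hF, h])
    obtain ⟨h1, h3, h5, h4⟩ := hne q₀ hw₀
    have hqE : q ∈ Ends E := (hact q E).mp (foldRel_supp hK hrel₀).2
    have hnb : ¬ IsBase r (q.1, some q.2) := by
      rintro ⟨y, hy⟩
      exact h3 ⟨y, hrel₀.trans (FoldRel.base hy), (hact _ _).mpr h1, hactn _ _⟩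
    have hle : ∀ q', F q' q ≤ ((deg (FoldRel E r) (q.1, some q.2))⁻¹ *
        (deg (foldR E r) (q₀.1, some q₀.2))⁻¹) *
        (if foldR E r (q₀.1, some q₀.2) (q'.1, some q'.2) then 1 else 0) := by
      intro q'
      by_cases hz : F q' q = 0
      · rw [hz]; exact zero_le
      have hrel' : FoldRel E r (q'.1, some q'.2) (q.1, some q.2) := by
        by_contra h
        exact hz (by simp [hF, h])
      have hwz : w' q' ≠ 0 := by
        intro h
        exact hz (by simp [hF, h])
      obtain ⟨h1', h3', h5', h4'⟩ := hne q' hwz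
      have hr' : foldR E r (q₀.1, some q₀.2) (q'.1, some q'.2) :=
        ⟨hrel₀.trans hrel'.symm, (hact _ _).mpr h1, (hact _ _).mpr h1'⟩
      rw [if_pos hr', mul_one]
      simp only [hF]
      rw [if_pos hrel', hdegcongr _ _ hrel', h4', deg_congr hK' hr', mul_comm]
    refine le_trans (ENNReal.tsum_le_tsum hle) ?_
    rw [ENNReal.tsum_mul_left]
    have hd : ∑' q' : X × (ℕ × Bool),
        (if foldR E r (q₀.1, some q₀.2) (q'.1, some q'.2) then (1 : ℝ≥0∞) else 0) =
        deg (foldR E r) (q₀.1, some q₀.2) := by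
      unfold deg
      congr 1
    rw [hd, mul_assoc]
    have hle1 : (deg (foldR E r) (q₀.1, some q₀.2))⁻¹ * deg (foldR E r) (q₀.1, some q₀.2) ≤ 1 := by
      rw [mul_comm]
      exact ENNReal.mul_inv_le_one _
    refine le_trans (mul_le_mul' le_rfl hle1) ?_
    rw [mul_one, Set.indicator_of_mem hqE]
    have : wt r (q.1, some q.2) = (deg r (q.1, some q.2))⁻¹ := by
      unfold wt
      rw [if_neg hnb]
    rw [this]
    apply ENNReal.inv_le_inv.mpr
    unfold deg
    refine ENNReal.tsum_le_tsum fun s => ?_
    by_cases hs : r (q.1, some q.2) (s.1, some s.2)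
    · rw [if_pos hs, if_pos (FoldRel.base hs)]
    · rw [if_neg hs]; exact zero_le
  have hV : Vm μ (foldE E r) (foldR E r) = sint μ (fun q' => ∑' q, F q' q) := by
    unfold Vm
    congr 1
    funext q'
    rw [hsum1]
  rw [hV, mtp (Γ := Γ) hX.free hX.mp F]
  · exact sint_mono hsum2
  · intro p q h
    by_cases hrel : FoldRel E r (p.1, some p.2) (q.1, some q.2)
    · exact hmr.1 _ _ hrel
    · exact absurd (by simp [hF, hrel]) h
  · intro g i k
    have hm1 : MeasurableSet {x | FoldRel E r (x, some i) (g • x, some k)} :=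
      hmr.2 g (some i) (some k)
    have hm2 : Measurable fun x : X => w' (x, i) := by
      have ha := meas_wt hG hX hK' (some i)
      have hb : MeasurableSet {x | (x, i.1) ∈ foldE E r} := hK'.measE i.1
      have : (fun x : X => w' (x, i)) =
          {x | (x, i.1) ∈ foldE E r}.indicator (fun x => wt (foldR E r) (x, some i)) := by
        funext x
        simp only [hw', Set.indicator_apply]
        rfl
      rw [this]
      exact ha.indicator hb
    have hm3 := foldV_meas_deg hX hmr (some i)
    exact Measurable.ite hm1 (hm2.mul hm3.inv) measurable_const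

end Crest.Agent.FP
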