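import Mathlib
import Crest.Agent.FP_Comp2
import Crest.Agent.FP_CompDefs
import Crest.Agent.FP_FoldV

/-!
# Task FP-C3: the new complex is a complex
-/

set_option autoImplicit false

open MeasureTheory
open scoped ENNReal

namespace Crest.Agent.FP

section C3Img

set_option linter.unusedSectionVars false

variable {X : Type} [MeasurableSpace X] {μ : Measure X}

/-- image of a subset of `X × ι` under a (measurable) change of the index -/
def C3img {ι : Type} (P : Set (X × ι)) (h : X × ι → ℕ) : Set (X × ℕ) :=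
  {q | ∃ i, (q.1, i) ∈ P ∧ q.2 = h (q.1, i)}

theorem C3img_slice {ι : Type} (P : Set (X × ι)) (h : X × ι → ℕ) (m : ℕ) :
    {x | (x, m) ∈ C3img P h} = ⋃ i, {x | (x, i) ∈ P ∧ h (x, i) = m} := by
  ext x
  simp only [C3img, Set.mem_setOf_eq, Set.mem_iUnion]
  exact exists_congr fun i => and_congr_right fun _ => eq_comm

theorem C3img_meas {ι : Type} [Countable ι] {P : Set (X × ι)} {h : X × ι → ℕ}
    (hm : ∀ i m, MeasurableSet {x | (x, i) ∈ P ∧ h (x, i) = m}) : MSet (C3img P h) := by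
  intro m
  rw [C3img_slice]
  exact MeasurableSet.iUnion fun i => hm i m

theorem C3img_smeas {ι : Type} [Countable ι] {P : Set (X × ι)} {h : X × ι → ℕ}
    (hm : ∀ i m, MeasurableSet {x | (x, i) ∈ P ∧ h (x, i) = m}) :
    smeas μ (C3img P h) ≤ smeas μ P := by
  unfold smeas
  calc ∑' m, μ {x | (x, m) ∈ C3img P h}
      ≤ ∑' m, ∑' i, μ {x | (x, i) ∈ P ∧ h (x, i) = m} := by
        refine ENNReal.tsum_le_tsum fun m => ?_
        rw [C3img_slice]
        exact measure_iUnion_le _
    _ = ∑' i, ∑' m, μ {x | (x, i) ∈ P ∧ h (x, i) = m} := ENNReal.tsum_comm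
    _ ≤ ∑' i, μ {x | (x, i) ∈ P} := by
        refine ENNReal.tsum_le_tsum fun i => ?_
        have hd : Pairwise (Function.onFun Disjoint
            (fun m => {x | (x, i) ∈ P ∧ h (x, i) = m})) := by
          intro m m' hne
          simp only [Function.onFun]
          rw [Set.disjoint_left]
          rintro x ⟨_, h1⟩ ⟨_, h2⟩
          exact hne (h1.symm.trans h2)
        rw [← measure_iUnion hd (fun m => hm i m)]
        refine measure_mono ?_
        intro x hx
        obtain ⟨m, hm'⟩ := Set.mem_iUnion.1 hx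
        exact hm'.1

theorem C3smeas_union {ι : Type} (P Q : Set (X × ι)) :
    smeas μ (P ∪ Q) ≤ smeas μ P + smeas μ Q := by
  unfold smeas
  rw [← ENNReal.tsum_add]
  exact ENNReal.tsum_le_tsum fun i => measure_union_le _ _

end C3Img

variable {Γ X : Type} [Group Γ] [Countable Γ] [MulAction Γ X] [MeasurableSpace X]
  {D : ℕ} [NeZero D] {G : PolyData Γ D} {μ : Measure X} [IsProbabilityMeasure μ] {f : X → ℝ}
  {E F N : Set (X × ℕ)} {r : Pt X → Pt X → Prop} {s : X × ℕ → (X × ℕ →₀ ℚ)}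
  {S : Set (X × (ZMod D × ℕ))}

theorem C3_compF_eq : compF G E r F S =
    C3img F (fun q => rep (compE G E S) (compR G E r S) (q.1, 2 * q.2)) ∪
    C3img S (fun q => rep (compE G E S) (compR G E r S)
      (q.1, if q.2.1 = 0 then newIdx q.2.1 q.2.2 else 2 * spotC G E r q 0)) := by
  ext q
  constructor
  · rintro (h | ⟨j, i, h⟩)
    · exact Or.inl h
    · exact Or.inr ⟨(j, i), h⟩
  · rintro (h | ⟨⟨j, i⟩, h⟩)
    · exact Or.inl h
    · exact Or.inr ⟨j, i, h⟩

theorem C3_memE_old {x : X} {i : ℕ} (h : (x, i) ∈ E) : (x, 2 * i) ∈ compE G E S :=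
  Or.inl ⟨i, rfl, h⟩

theorem C3_memE_F (hG : G.Good) (hK : IsCx G μ E r F) {x : X} {i : ℕ} (h : (x, i) ∈ F) :
    (x, 2 * i) ∈ compE G E S := by
  obtain ⟨c, h0, hc⟩ := hK.cell x i h
  have := (hc 0).1
  rw [hG.u_zero, one_smul, h0] at this
  exact C3_memE_old this

theorem C3_memE_S (hG : G.Good) (hsp : ∀ q ∈ S, IsSpot G E r q) {x : X} {j : ZMod D} {i : ℕ}
    (h : (x, (j, i)) ∈ S) :
    (x, if j = 0 then newIdx j i else 2 * spotC G E r (x, (j, i)) 0) ∈ compE G E S := by
  by_cases hj : j = 0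
  · subst hj
    simp only [if_true]
    refine Or.inr ⟨0, i, rfl, ?_⟩
    simpa [hG.u_zero] using h
  · simp only [hj, if_false]
    obtain ⟨_, h2⟩ := spotC_spec (hsp _ h)
    have := h2.1 0 (Ne.symm hj)
    rw [hG.u_zero, one_smul] at this
    exact C3_memE_old this

theorem C3_meas1 (hG : G.Good) (hX : IsGoodAction G X μ f) (hK : IsCx G μ E r F)
    (hS : MSet S) (hfin : smeas μ S ≠ ∞) (hsp : ∀ q ∈ S, IsSpot G E r q) (i m : ℕ) :
    MeasurableSet {x | (x, i) ∈ F ∧
      rep (compE G E S) (compR G E r S) (x, 2 * i) = m} := by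
  have hP := comp_isPre hG hX hK.toIsPre hK.imm hS hfin hsp
  have h1 : {x | (x, i) ∈ F ∧ rep (compE G E S) (compR G E r S) (x, 2 * i) = m} =
      {x | (x, i) ∈ F} ∩
        {x | (x, 2 * i) ∈ compE G E S ∧ rep (compE G E S) (compR G E r S) (x, 2 * i) = m} := by
    ext x
    constructor
    · rintro ⟨h1, h2⟩
      exact ⟨h1, C3_memE_F hG hK h1, h2⟩
    · rintro ⟨h1, _, h2⟩
      exact ⟨h1, h2⟩
  rw [h1]
  exact (hK.measF i).inter (meas_rep hG hX hP _ _)

theorem C3_meas2 (hG : G.Good) (hX : IsGoodAction G X μ f) (hK : IsCx G μ E r F)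
    (hS : MSet S) (hfin : smeas μ S ≠ ∞) (hsp : ∀ q ∈ S, IsSpot G E r q) (j : ZMod D) (i m : ℕ) :
    MeasurableSet {x | (x, (j, i)) ∈ S ∧
      rep (compE G E S) (compR G E r S)
        (x, if j = 0 then newIdx j i else 2 * spotC G E r (x, (j, i)) 0) = m} := by
  have hP := comp_isPre hG hX hK.toIsPre hK.imm hS hfin hsp
  by_cases hj : j = 0
  · have h1 : {x | (x, (j, i)) ∈ S ∧
        rep (compE G E S) (compR G E r S)
          (x, if j = 0 then newIdx j i else 2 * spotC G E r (x, (j, i)) 0) = m} =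
        {x | (x, (j, i)) ∈ S} ∩
        {x | (x, newIdx j i) ∈ compE G E S ∧
          rep (compE G E S) (compR G E r S) (x, newIdx j i) = m} := by
      ext x
      simp only [Set.mem_setOf_eq, Set.mem_inter_iff]
      constructor
      · rintro ⟨h1, h2⟩
        have h3 := C3_memE_S hG hsp h1
        simp only [hj, if_true] at h2 h3 ⊢
        subst hj
        exact ⟨h1, h3, h2⟩
      · rintro ⟨h1, _, h2⟩
        simp only [hj, if_true] at h2 ⊢
        subst hj
        exact ⟨h1, h2⟩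
    rw [h1]
    exact (hS (j, i)).inter (meas_rep hG hX hP _ _)
  · have h1 : {x | (x, (j, i)) ∈ S ∧
        rep (compE G E S) (compR G E r S)
          (x, if j = 0 then newIdx j i else 2 * spotC G E r (x, (j, i)) 0) = m} =
        {x | (x, (j, i)) ∈ S} ∩ ⋃ t : ℕ,
          ({x | IsSpot G E r (x, (j, i)) ∧ spotC G E r (x, (j, i)) 0 = t} ∩
          {x | (x, 2 * t) ∈ compE G E S ∧
            rep (compE G E S) (compR G E r S) (x, 2 * t) = m}) := by
      ext x
      simp only [hj, if_false, Set.mem_setOf_eq, Set.mem_inter_iff, Set.mem_iUnion]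
      constructor
      · rintro ⟨h1, h2⟩
        have h3 := C3_memE_S hG hsp h1
        simp only [hj, if_false] at h3
        exact ⟨h1, _, ⟨hsp _ h1, rfl⟩, h3, h2⟩
      · rintro ⟨h1, t, ⟨_, h2⟩, _, h3⟩
        rw [h2]
        exact ⟨h1, h3⟩
    rw [h1]
    exact (hS (j, i)).inter (MeasurableSet.iUnion fun t =>
      (meas_spotC hG hX hK.toIsPre hK.imm j i 0 (Ne.symm hj) t).inter (meas_rep hG hX hP _ _))

theorem compF_smeas (hG : G.Good) (hX : IsGoodAction G X μ f) (hK : IsCx G μ E r F)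
    (hS : MSet S) (hfin : smeas μ S ≠ ∞) (hsp : ∀ q ∈ S, IsSpot G E r q) :
    smeas μ (compF G E r F S) ≤ smeas μ F + smeas μ S := by
  rw [C3_compF_eq]
  refine (C3smeas_union _ _).trans (add_le_add ?_ ?_)
  · exact C3img_smeas fun i m => C3_meas1 hG hX hK hS hfin hsp i m
  · exact C3img_smeas fun q m => C3_meas2 hG hX hK hS hfin hsp q.1 q.2 m

theorem C3_cell_fold {E' : Set (X × ℕ)} {r' : Pt X → Pt X → Prop} (hK : IsPre G μ E' r')
    {y : X} {c : ZMod D → ℕ} (hc : IsCell G E' r' y c) :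
    IsCell G (foldE E' r') (foldR E' r') y (fun j => rep E' r' (G.u j • y, c j)) := by
  intro j
  refine ⟨(rep_spec hK (hc j).1).1, ?_⟩
  exact fold_foldR_rep hK (FoldRel.base (hc j).2)

theorem C3_cell_old (hG : G.Good) (hK : IsPre G μ E r) {y : X} {c : ZMod D → ℕ}
    (hc : IsCell G E r y c) : IsCell G (compE G E S) (compR G E r S) y (fun j => 2 * c j) := by
  intro j
  refine ⟨C3_memE_old (hc j).1, ?_⟩
  exact comp_reach (n := 0) hG hK (hc j).2

theorem C3_succ_ne (hG : G.Good) (j : ZMod D) : j + 1 ≠ j := by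
  have hD := hG.hD
  haveI : Fact (1 < D) := ⟨by omega⟩
  intro h
  exact one_ne_zero (add_eq_left.mp h)

theorem C3_cell_new (hG : G.Good) (hK : IsPre G μ E r) (hi : Immersed E r)
    (hsp : ∀ q ∈ S, IsSpot G E r q) {y : X} {j : ZMod D} {i : ℕ} (hq : (y, (j, i)) ∈ S) :
    IsCell G (compE G E S) (compR G E r S) y
      (fun k => if k = j then newIdx j i else 2 * spotC G E r (y, (j, i)) k) := by
  obtain ⟨h1, h2⟩ := spotC_spec (hsp _ hq)
  simp only at h1 h2
  obtain ⟨h3, h4, h5⟩ := comp_new hG hK hi hsp hq h2 h1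
  intro k
  by_cases hk : k = j
  · subst hk
    simp only [if_true, C3_succ_ne hG k, if_false]
    exact ⟨h3, h5⟩
  · simp only [hk, if_false]
    refine ⟨C3_memE_old (h2.1 k hk), ?_⟩
    by_cases hk1 : k + 1 = j
    · simp only [hk1, if_true]
      have hk2 : j - 1 = k := by rw [← hk1]; ring
      rw [hk2] at h4
      have hP : compR G E r S (upPt (G.u k • y, some (spotC G E r (y, (j, i)) k, true)))
          (G.u j • y, some (newIdx j i, false)) := ⟨hK.symm _ _ h4.1, h4.2.2, h4.2.1⟩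
      exact hP
    · simp only [hk1, if_false]
      exact comp_reach (n := 0) hG hK (h2.2 k hk hk1)

theorem comp_isCx (hG : G.Good) (hX : IsGoodAction G X μ f) (hK : IsCx G μ E r F)
    (hS : MSet S) (hfin : smeas μ S ≠ ∞) (hsp : ∀ q ∈ S, IsSpot G E r q) :
    IsCx G μ (foldE (compE G E S) (compR G E r S)) (foldR (compE G E S) (compR G E r S))
      (compF G E r F S) := by
  have hP := comp_isPre hG hX hK.toIsPre hK.imm hS hfin hsp
  refine ⟨fold_isPre hG hX hP, fold_imm hP, ?_, ?_⟩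
  · rw [C3_compF_eq]
    intro m
    have hA : MSet (C3img F (fun q => rep (compE G E S) (compR G E r S) (q.1, 2 * q.2))) :=
      C3img_meas fun i m => C3_meas1 hG hX hK hS hfin hsp i m
    have hB : MSet (C3img S (fun q => rep (compE G E S) (compR G E r S)
        (q.1, if q.2.1 = 0 then newIdx q.2.1 q.2.2 else 2 * spotC G E r q 0))) :=
      C3img_meas fun q m => C3_meas2 hG hX hK hS hfin hsp q.1 q.2 m
    exact (hA m).union (hB m)
  · rintro y i (⟨i', h1, h2⟩ | ⟨j, i', h1, h2⟩)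
    · obtain ⟨c, h0, hc⟩ := hK.cell y i' h1
      refine ⟨_, ?_, C3_cell_fold hP (C3_cell_old hG hK.toIsPre hc)⟩
      simp only [hG.u_zero, one_smul, h0]
      exact h2.symm
    · refine ⟨_, ?_, C3_cell_fold hP (C3_cell_new hG hK.toIsPre hK.imm hsp h1)⟩
      simp only [hG.u_zero, one_smul]
      simp only at h2
      rw [h2]
      by_cases hj : j = 0
      · simp [hj]
      · have hj' : (0 : ZMod D) ≠ j := Ne.symm hj
        simp [hj, hj']

end Crest.Agent.FP
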