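import Mathlib
import Crest.Agent.FP_Comp2
import Crest.Agent.FP_CompDefs
import Crest.Agent.FP_FoldV
import Crest.Agent.FP_Rows

/-!
# Task FP-C4: generation of the new complex

PROOF of `Gen`: use `fold_gen` for the pre-complex `(compE, compR)`.  Given `β` on `compE` (constant on
folded slots) killing the cells of `compF` and the rows, let `β₀ (x, i) = β (x, 2 i)`; it kills the cells of
`F` and the rows `s`, so there is a potential `φ₀` for `(E, r)`; put `φ p = φ₀ (compLift p)`.  For a new edge
at the spot `(y, (j, i))` the equation `β(new) = φ₀(o e_{j+1}) - φ₀(t e_{j-1})` follows from the cell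
equation of the completed polygon and `β₀ (e_k) = φ₀ (t e_k) - φ₀ (o e_k)`, `φ₀ (t e_k) = φ₀ (o e_{k+1})` for the
other edges (telescoping sum over `k ≠ j`).
-/

set_option autoImplicit false

open MeasureTheory
open scoped ENNReal

namespace Crest.Agent.FP

variable {Γ X : Type} [Group Γ] [Countable Γ] [MulAction Γ X] [MeasurableSpace X]
  {D : ℕ} [NeZero D] {G : PolyData Γ D} {μ : Measure X} [IsProbabilityMeasure μ] {f : X → ℝ}
  {E F N : Set (X × ℕ)} {r : Pt X → Pt X → Prop} {s : X × ℕ → (X × ℕ →₀ ℚ)}
  {S : Set (X × (ZMod D × ℕ))}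

omit [Countable Γ] [MeasurableSpace X] in
theorem compE_up {x : X} {i : ℕ} (h : (x, i) ∈ E) : (x, 2 * i) ∈ compE G E S :=
  Or.inl ⟨i, rfl, h⟩

omit [Countable Γ] in
theorem isRows_congr {N : Set (X × ℕ)} {s s' : X × ℕ → (X × ℕ →₀ ℚ)}
    (h : ∀ n ∈ N, s n = s' n) (hs : IsRows Γ N s) : IsRows Γ N s' where
  measN := hs.measN
  orb n hn e he := hs.orb n hn e (by rw [h n hn]; exact he)
  meass g k i a := by
    have := hs.meass g k i a
    convert this using 1
    ext x
    simp only [Set.mem_ofPred_eq]
    constructor
    · rintro ⟨h1, h2⟩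
      exact ⟨h1, by rw [h _ h1]; exact h2⟩
    · rintro ⟨h1, h2⟩
      exact ⟨h1, by rw [← h _ h1]; exact h2⟩

/-- `rep` is measurable. -/
theorem meas_rep' {E' : Set (X × ℕ)} {r' : Pt X → Pt X → Prop}
    (hG : G.Good) (hX : IsGoodAction G X μ f) (hK : IsPre G μ E' r') (i k : ℕ) :
    MeasurableSet {x | rep E' r' (x, i) = k} := by
  have h1 := meas_rep hG hX hK i k
  have h2 : MeasurableSet {x | (x, i) ∈ E'}ᶜ := (hK.measE i).compl
  have h3 : ∀ x, (x, i) ∉ E' → rep E' r' (x, i) = 0 := by
    intro x hx
    unfold rep
    have : {i' | ((x, i).1, i') ∈ E' ∧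
        FoldRel E' r' ((x, i).1, some ((x, i).2, false)) ((x, i).1, some (i', false))} = ∅ := by
      ext i'
      simp only [Set.mem_ofPred_eq, Set.mem_empty_iff_false, iff_false]
      rintro ⟨_, h⟩
      exact hx (fold_act_some.1 (foldRel_supp hK h).1)
    rw [this, Nat.sInf_empty]
  by_cases hk : k = 0
  · subst hk
    convert h1.union h2 using 1
    ext x
    simp only [Set.mem_ofPred_eq, Set.mem_union, Set.mem_compl_iff]
    by_cases hx : (x, i) ∈ E'
    · simp [hx]
    · simp [hx, h3 x hx]
  · convert h1 using 1
    ext x
    simp only [Set.mem_ofPred_eq]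
    by_cases hx : (x, i) ∈ E'
    · simp [hx]
    · simp only [hx, false_and, iff_false, h3 x hx]
      exact fun h => hk h.symm

theorem comp_rows (hG : G.Good) (hX : IsGoodAction G X μ f)
    (hK' : IsPre G μ (compE G E S) (compR G E r S)) (hE : MSet E)
    (hrows : IsRows Γ N s) (hsupp : ∀ n ∈ N, ∀ e ∈ (s n).support, e ∈ E) :
    IsRows Γ N (compS G E r S s) := by
  classical
  have hker : IsKer Γ (fun e : X × ℕ => if e ∈ E then
      Finsupp.single ((e.1, rep (compE G E S) (compR G E r S) (e.1, 2 * e.2)) : X × ℕ) (1 : ℚ)
      else 0) := by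
    have := isKer_map (Γ := Γ) hX.free
      (fun e : X × ℕ => ((e.1, rep (compE G E S) (compR G E r S) (e.1, 2 * e.2)) : X × ℕ)) E hE
      (fun e => ⟨1, by simp⟩)
      (by
        intro g i k
        by_cases hg : g = 1
        · subst hg
          have := meas_rep' hG hX hK' (2 * i) k
          convert this using 1
          ext x
          simp
        · have : {x : X | ((x, rep (compE G E S) (compR G E r S) (x, 2 * i)) : X × ℕ) = (g • x, k)}
              = ∅ := by
            ext x
            simp only [Prod.mk.injEq, Set.mem_ofPred_eq, Set.mem_empty_iff_false, iff_false,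
              not_and]
            intro h
            exact absurd (hX.free g x h.symm) hg
          rw [this]
          exact MeasurableSet.empty)
    convert this using 2
  refine isRows_congr ?_ (IsRows.push hX.free hX.mp hrows hker)
  intro n hn
  unfold compS Finsupp.mapDomain
  unfold Finsupp.sum
  refine Finset.sum_congr rfl fun e he => ?_
  simp only [hsupp n hn e he, if_true]
  rw [Finsupp.smul_single, smul_eq_mul, mul_one]

theorem comp_genBy (hG : G.Good) (hX : IsGoodAction G X μ f) (hK : IsCx G μ E r F)
    (hg : GenBy G E r F N s)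
    (hS : MSet S) (hfin : smeas μ S ≠ ∞) (hsp : ∀ q ∈ S, IsSpot G E r q) :
    GenBy G (foldE (compE G E S) (compR G E r S)) (foldR (compE G E S) (compR G E r S))
      (compF G E r F S) N (compS G E r S s) := by
  have hPre : IsPre G μ E r := hK.toIsPre
  have hK' : IsPre G μ (compE G E S) (compR G E r S) :=
    comp_isPre hG hX hPre hK.imm hS hfin hsp
  have hup : ∀ p q, r p q → compR G E r S (upPt p) (upPt q) := fun p q h =>
    comp_reach (S := S) hG hPre (n := 0) h
  have hsup : ∀ n ∈ N, ∀ e ∈ (compS G E r S s n).support,
      e ∈ foldE (compE G E S) (compR G E r S) := by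
    classical
    intro n hn e he
    have := Finsupp.mapDomain_support he
    obtain ⟨e', he', rfl⟩ := Finset.mem_image.1 this
    exact (rep_spec hK' (compE_up (hg.supp n hn e' he'))).1
  refine ⟨comp_rows hG hX hK' hPre.measE hg.rows hg.supp, hsup, ?_⟩
  refine fold_gen hK' _ _ _ hsup ?_
  intro U _ _ β hrep hcell hrow
  -- the old cochain
  obtain ⟨φ₀, h0, hr, hφ⟩ := hg.gen U (fun e => β (e.1, 2 * e.2))
    (by
      intro y i hy c hc hcl
      set c' : ZMod D → ℕ := fun k =>
        rep (compE G E S) (compR G E r S) (G.u k • y, 2 * c k) with hc'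
      have hcl' : IsCell G (foldE (compE G E S) (compR G E r S))
          (foldR (compE G E S) (compR G E r S)) y c' := by
        intro k
        refine ⟨(rep_spec hK' (compE_up (hcl k).1)).1, ?_⟩
        exact fold_foldR_rep hK' (FoldRel.base (hup _ _ (hcl k).2))
      have := hcell y (rep (compE G E S) (compR G E r S) (y, 2 * i))
        (Or.inl ⟨i, hy, rfl⟩) c' (by simp only [hc', hG.u_zero, one_smul, hc]) hcl'
      rw [← this]
      refine Finset.sum_congr rfl fun k _ => ?_
      exact hrep _ _ (compE_up (hcl k).1))
    (by
      intro n hn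
      rw [← hrow n hn]
      unfold pair compS
      rw [Finsupp.sum_mapDomain_index (h := fun e a => a • β e) (fun _ => zero_smul _ _)
        (fun _ _ _ => add_smul _ _ _)]
      unfold Finsupp.sum
      refine Finset.sum_congr rfl fun e he => ?_
      exact congrArg (fun t => (s n) e • t) (hrep _ _ (compE_up (hg.supp n hn e he))))
  -- the new potential
  have hcr : ∀ p q, compR G E r S p q → φ₀ (compLift G E r p) = φ₀ (compLift G E r q) :=
    fun p q h => hr _ _ h.1
  have heven : ∀ (x : X) (i : ℕ) (b : Bool),
      compLift G E r (x, some (2 * i, b)) = (x, some (i, b)) := by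
    intro x i b
    simp [compLift]
  refine ⟨fun p => φ₀ (compLift G E r p), fun x => h0 x, hcr, ?_⟩
  rintro x m (⟨i, hm, hi⟩ | ⟨j, i, hm, hq⟩)
  · simp only at hm hi
    subst hm
    show β (x, 2 * i) = φ₀ (compLift G E r (x, some (2 * i, true)))
      - φ₀ (compLift G E r (x, some (2 * i, false)))
    rw [heven, heven]
    exact hφ x i hi
  · simp only at hm hq
    subst hm
    set y : X := (G.u j)⁻¹ • x with hy
    have hxy : x = G.u j • y := by rw [hy, smul_inv_smul]
    obtain ⟨hci, hc⟩ := spotC_spec (G := G) (hsp _ hq)
    simp only at hci hc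
    set c := spotC G E r (y, (j, i)) with hcdef
    obtain ⟨hnew, hnf, hnt⟩ := comp_new hG hPre hK.imm hsp hq hc hci
    -- the completed polygon
    set e : ZMod D → ℕ := fun k => if k = j then newIdx j i else 2 * c k with he
    have heE : ∀ k, (G.u k • y, e k) ∈ compE G E S := by
      intro k
      by_cases hk : k = j
      · subst hk
        simp only [he, if_true]
        exact hnew
      · simp only [he, if_neg hk]
        exact compE_up (hc.1 k hk)
    have h1ne : (1 : ZMod D) ≠ 0 := by
      have : Fact (1 < D) := ⟨by have := hG.hD; omega⟩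
      exact one_ne_zero
    have heR : ∀ k, compR G E r S (G.u k • y, some (e k, true))
        (G.u (k + 1) • y, some (e (k + 1), false)) := by
      intro k
      by_cases hk : k = j
      · subst hk
        have h1 : k + 1 ≠ k := by
          intro h
          exact h1ne (by simpa using h)
        simp only [he, if_true, if_neg h1]
        exact hnt
      · by_cases hk' : k + 1 = j
        · subst hk'
          have h1 : k + 1 - 1 = k := by ring
          rw [h1] at hnf
          simp only [he, if_true, if_neg hk]
          exact hK'.symm _ _ hnf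
        · simp only [he, if_neg hk, if_neg hk']
          exact hup _ _ (hc.2 k hk hk')
    have hsum : ∑ k, β (G.u k • y, e k) = 0 := by
      set c' : ZMod D → ℕ := fun k =>
        rep (compE G E S) (compR G E r S) (G.u k • y, e k) with hc'
      have hcl' : IsCell G (foldE (compE G E S) (compR G E r S))
          (foldR (compE G E S) (compR G E r S)) y c' := by
        intro k
        refine ⟨(rep_spec hK' (heE k)).1, ?_⟩
        exact fold_foldR_rep hK' (FoldRel.base (heR k))
      have := hcell y (rep (compE G E S) (compR G E r S)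
          (y, if j = 0 then newIdx j i else 2 * spotC G E r (y, (j, i)) 0))
        (Or.inr ⟨j, i, hq, rfl⟩) c'
        (by
          simp only [hc', hG.u_zero, one_smul, he, hcdef]
          congr 2
          by_cases hj : j = 0
          · subst hj
            simp
          · rw [if_neg hj, if_neg (fun h => hj h.symm)]) hcl'
      rw [← this]
      exact Finset.sum_congr rfl fun k _ => hrep _ _ (heE k)
    -- telescoping
    set φ : Pt X → U := fun p => φ₀ (compLift G E r p) with hφdef
    have htel : ∑ k, (φ (G.u k • y, some (e k, true)) - φ (G.u k • y, some (e k, false))) = 0 := by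
      rw [Finset.sum_sub_distrib, sub_eq_zero]
      rw [← Equiv.sum_comp (Equiv.addRight (1 : ZMod D))
        (fun k => φ (G.u k • y, some (e k, false)))]
      exact Finset.sum_congr rfl fun k _ => hcr _ _ (heR k)
    have hother : ∀ k, k ≠ j → β (G.u k • y, e k) =
        φ (G.u k • y, some (e k, true)) - φ (G.u k • y, some (e k, false)) := by
      intro k hk
      simp only [hφdef, he, if_neg hk]
      rw [heven, heven]
      exact hφ _ _ (hc.1 k hk)
    have hdiff := sub_eq_zero.2 (hsum.trans htel.symm)
    rw [← Finset.sum_sub_distrib, Finset.sum_eq_single j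
      (fun k _ hk => by rw [hother k hk, sub_self])
      (fun h => absurd (Finset.mem_univ j) h), sub_eq_zero] at hdiff
    have hej : e j = newIdx j i := by simp [he]
    rw [hej, ← hxy] at hdiff
    exact hdiff

end Crest.Agent.FP
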