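import Mathlib
import Crest.Agent.FP_Comp3
import Crest.Agent.FP_Comp4

/-!
# Task FP-C5: the completion step (assembly of FP-C1 … FP-C4, FP-F1 … FP-F3)
-/

set_option autoImplicit false

open MeasureTheory
open scoped ENNReal

namespace Crest.Agent.FP

variable {Γ X : Type} [Group Γ] [Countable Γ] [MulAction Γ X] [MeasurableSpace X]
  {D : ℕ} [NeZero D] {G : PolyData Γ D} {μ : Measure X} [IsProbabilityMeasure μ] {f : X → ℝ}
  {E F N : Set (X × ℕ)} {r : Pt X → Pt X → Prop} {s : X × ℕ → (X × ℕ →₀ ℚ)}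
  {S : Set (X × (ZMod D × ℕ))}

theorem compStep_reach_right (hK : IsPre G μ E r) {n : ℕ} {p q q' : Pt X} (h : Reach E r n p q)
    (h' : r q q') : Reach E r n p q' := by
  cases n with
  | zero => exact hK.trans _ _ _ h h'
  | succ n =>
    obtain ⟨x, i, b, hi, h1, h2⟩ := h
    exact ⟨x, i, b, hi, h1, hK.trans _ _ _ h2 h'⟩

theorem compStep_reach_trans (hK : IsPre G μ E r) {n m : ℕ} {p q q' : Pt X} (h : Reach E r n p q)
    (h' : Reach E r m q q') : Reach E r (n + m) p q' := by
  induction m generalizing q' with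
  | zero => exact compStep_reach_right hK h h'
  | succ m ih =>
    obtain ⟨x, i, b, hi, h1, h2⟩ := h'
    exact ⟨x, i, b, hi, ih h1, h2⟩

/-- One completion step. -/
theorem comp_step (hG : G.Good) (hX : IsGoodAction G X μ f) (hK : IsCx G μ E r F)
    (hg : GenBy G E r F N s)
    (hS : MSet S) (hfin : smeas μ S ≠ ∞) (hsp : ∀ q ∈ S, IsSpot G E r q) :
    ∃ E' r' F' s', IsCx G μ E' r' F' ∧ GenBy G E' r' F' N s' ∧ Vm μ E' r' ≤ Vm μ E r ∧
      smeas μ F' ≤ smeas μ F + smeas μ S ∧
      (∀ n x y, Reach E r n (x, none) (y, none) → Reach E' r' n (x, none) (y, none)) ∧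
      (∀ y j i c x x' n₁ n₂, (y, (j, i)) ∈ S → IsSpotData G E r y j c → c (j + 1) = i →
        Reach E r n₁ (x, none) (G.u (j + 1) • y, some (c (j + 1), false)) →
        Reach E r n₂ (G.u (j - 1) • y, some (c (j - 1), true)) (x', none) →
        Reach E' r' (n₁ + 1 + n₂) (x, none) (x', none)) := by
  have hpre := comp_isPre hG hX hK.toIsPre hK.imm hS hfin hsp
  refine ⟨foldE (compE G E S) (compR G E r S), foldR (compE G E S) (compR G E r S),
    compF G E r F S, compS G E r S s, comp_isCx hG hX hK hS hfin hsp,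
    comp_genBy hG hX hK hg hS hfin hsp,
    (fold_Vm hG hX hpre).trans (comp_Vm hG hX hK.toIsPre hK.imm hS hfin hsp),
    compF_smeas hG hX hK hS hfin hsp, ?_, ?_⟩
  · intro n x y h
    exact fold_reach hpre (comp_reach hG hK.toIsPre h)
  · intro y j i c x x' n₁ n₂ hq hc hci h1 h2
    obtain ⟨hn, ho, ht⟩ := comp_new hG hK.toIsPre hK.imm hsp hq hc hci
    have h1' : Reach (compE G E S) (compR G E r S) n₁ (x, none)
        (G.u j • y, some (newIdx j i, true)) :=
      compStep_reach_right hpre (comp_reach hG hK.toIsPre h1) (hpre.symm _ _ ht)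
    have h2' : Reach (compE G E S) (compR G E r S) n₂
        (upPt (G.u (j - 1) • y, some (c (j - 1), true))) (x', none) :=
      comp_reach hG hK.toIsPre h2
    have h3 : Reach (compE G E S) (compR G E r S) (n₁ + 1) (x, none)
        (upPt (G.u (j - 1) • y, some (c (j - 1), true))) :=
      ⟨_, _, true, hn, h1', ho⟩
    exact fold_reach hpre (compStep_reach_trans hpre h3 h2')

end Crest.Agent.FP
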