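import Mathlib

/-!
# S0291, module RL (rank lemma)

For a free probability measure preserving action of a countable group `Γ` on `X`, if all the
points `δ_e`, `e ∈ E`, of a measurable family `E ⊆ X × ℕ` are in the span of a measurable family
of finitely supported chains `s n`, `n ∈ N ⊆ X × ℕ`, then `μ E ≤ μ N`.

The proof is by operators on the discrete space `(X × ℕ) →₀ ℝ`, with a trace given by `μ`.
-/

namespace Crest.Agent.S0291_RL

open MeasureTheory Finset
open scoped ENNReal

/-- Finitely supported real functions on `X × ℕ`. -/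
abbrev V (X : Type*) := (X × ℕ) →₀ ℝ

/-- basis vector -/
noncomputable def dl {X : Type*} (e : X × ℕ) : V X := Finsupp.single e 1

section ip
variable {X : Type*}

/-- inner product -/
noncomputable def ip (u v : V X) : ℝ := u.sum fun a b => b * v a

lemma ip_add_left (u u' v : V X) : ip (u + u') v = ip u v + ip u' v := by
  unfold ip
  rw [Finsupp.sum_add_index']
  · intro a; simp
  · intro a b c; ring

lemma ip_smul_left (c : ℝ) (u v : V X) : ip (c • u) v = c * ip u v := by
  unfold ip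
  rw [Finsupp.sum_smul_index (by simp), Finsupp.mul_sum]
  exact Finsupp.sum_congr (fun a _ => by ring)

lemma ip_add_right (u v v' : V X) : ip u (v + v') = ip u v + ip u v' := by
  unfold ip
  rw [← Finsupp.sum_add]
  exact Finsupp.sum_congr (fun a _ => by simp; ring)

lemma ip_smul_right (c : ℝ) (u v : V X) : ip u (c • v) = c * ip u v := by
  unfold ip
  rw [Finsupp.mul_sum]
  exact Finsupp.sum_congr (fun a _ => by simp; ring)

lemma ip_dl_left (e : X × ℕ) (v : V X) : ip (dl e) v = v e := by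
  unfold ip dl
  rw [Finsupp.sum_single_index] <;> simp

lemma ip_comm (u v : V X) : ip u v = ip v u := by
  classical
  unfold ip
  rw [Finsupp.sum_of_support_subset u (s := u.support ∪ v.support) subset_union_left _ (by simp),
    Finsupp.sum_of_support_subset v (s := u.support ∪ v.support) subset_union_right _ (by simp)]
  exact Finset.sum_congr rfl (fun a _ => by ring)

lemma ip_dl_right (e : X × ℕ) (v : V X) : ip v (dl e) = v e := by
  rw [ip_comm, ip_dl_left]

lemma ip_self_eq (u : V X) (s : Finset (X × ℕ)) (h : u.support ⊆ s) :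
    ip u u = ∑ a ∈ s, u a ^ 2 := by
  unfold ip
  rw [Finsupp.sum_of_support_subset u h _ (by simp)]
  exact Finset.sum_congr rfl (fun a _ => by ring)

lemma ip_self_nonneg (u : V X) : 0 ≤ ip u u := by
  rw [ip_self_eq u _ subset_rfl]
  exact Finset.sum_nonneg (fun a _ => sq_nonneg _)

/-- `ip` as a bilinear map -/
noncomputable def ipB : V X →ₗ[ℝ] V X →ₗ[ℝ] ℝ :=
  LinearMap.mk₂ ℝ ip ip_add_left ip_smul_left ip_add_right ip_smul_right

lemma lin_ext {M : Type*} [AddCommMonoid M] [Module ℝ M] {f g : V X →ₗ[ℝ] M}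
    (h : ∀ e, f (dl e) = g (dl e)) : f = g := by
  apply Finsupp.lhom_ext'
  intro a
  apply LinearMap.ext_ring
  simpa [dl] using h a

lemma adj_of_basis {T T' : V X →ₗ[ℝ] V X} (h : ∀ e f, T (dl e) f = T' (dl f) e) (u v : V X) :
    ip (T u) v = ip u (T' v) := by
  have : (ipB.comp T) = (ipB.flip.comp T').flip := by
    apply lin_ext
    intro e
    apply lin_ext
    intro f
    simp only [LinearMap.comp_apply, LinearMap.flip_apply, ipB, LinearMap.mk₂_apply]
    rw [ip_dl_right, ip_dl_left, h]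
  have h2 := congrArg (fun L => L u v) this
  simpa [ipB] using h2

end ip

section nice

variable {Γ : Type*} [Group Γ] {X : Type*} [MeasurableSpace X] [MulAction Γ X]

/-- local, bounded, measurable operators -/
structure Nice (F : Finset Γ) (r : ℕ) (C : ℝ) (T : V X →ₗ[ℝ] V X) : Prop where
  src : ∀ e : X × ℕ, r ≤ e.2 → T (dl e) = 0
  loc : ∀ e f : X × ℕ, T (dl e) f ≠ 0 → f.2 < r ∧ ∃ g ∈ F, f.1 = g • e.1
  bdd : ∀ e f : X × ℕ, |T (dl e) f| ≤ C
  meas : ∀ (g : Γ) (i j : ℕ), Measurable fun x : X => T (dl (x, i)) (g • x, j)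

namespace Nice

variable {F : Finset Γ} {r : ℕ} {C : ℝ} {T : V X →ₗ[ℝ] V X}

lemma mono_F (h : Nice F r C T) {F' : Finset Γ} (hF : F ⊆ F') : Nice F' r C T where
  src := h.src
  loc := fun e f hne => ⟨(h.loc e f hne).1, by
    obtain ⟨g, hg, hgf⟩ := (h.loc e f hne).2
    exact ⟨g, hF hg, hgf⟩⟩
  bdd := h.bdd
  meas := h.meas

lemma mono_C (h : Nice F r C T) {C' : ℝ} (hC : C ≤ C') : Nice F r C' T where
  src := h.src
  loc := h.loc
  bdd := fun e f => (h.bdd e f).trans hC
  meas := h.meas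

lemma expand (h : Nice F r C T) (hfree : ∀ (g : Γ) (x : X), g • x = x → g = 1) (e : X × ℕ) :
    T (dl e) = ∑ p ∈ F ×ˢ range r, T (dl e) (p.1 • e.1, p.2) • dl (p.1 • e.1, p.2) := by
  classical
  ext f
  rw [Finsupp.finsetSum_apply]
  simp only [dl, Finsupp.smul_apply, Finsupp.single_apply, smul_eq_mul, mul_ite, mul_one, mul_zero]
  by_cases hne : T (Finsupp.single e 1) f = 0
  · rw [hne, Finset.sum_eq_zero]
    intro p _
    split_ifs with hp
    · rw [hp]; exact hne
    · rfl
  · obtain ⟨hr, g, hg, hgf⟩ := h.loc e f hne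
    rw [Finset.sum_eq_single (g, f.2)]
    · rw [if_pos (by rw [Prod.ext_iff]; exact ⟨hgf.symm, rfl⟩)]
      simp only
      rw [← hgf]
    · intro p _ hpne
      rw [if_neg]
      intro hpf
      apply hpne
      have h1 : p.1 • e.1 = g • e.1 := by rw [← hgf, ← hpf]
      have h2 : p.2 = f.2 := by rw [← hpf]
      have h3 : (g⁻¹ * p.1) • e.1 = e.1 := by rw [mul_smul, h1, inv_smul_smul]
      have h4 := hfree _ _ h3
      have h5 : p.1 = g := by
        have := congrArg (g * ·) h4
        simpa using this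
      exact Prod.ext h5 h2
    · intro hcon
      exact absurd (by simp [hg, hr]) hcon

lemma comp_apply (h : Nice F r C T) (hfree : ∀ (g : Γ) (x : X), g • x = x → g = 1)
    (S : V X →ₗ[ℝ] V X) (e f : X × ℕ) :
    S (T (dl e)) f = ∑ p ∈ F ×ˢ range r, T (dl e) (p.1 • e.1, p.2) *
      S (dl (p.1 • e.1, p.2)) f := by
  conv_lhs => rw [h.expand hfree e]
  rw [map_sum, Finsupp.finsetSum_apply]
  exact Finset.sum_congr rfl (fun p _ => by rw [map_smul, Finsupp.smul_apply, smul_eq_mul])

lemma comp [DecidableEq Γ] (h : Nice F r C T) (hfree : ∀ (g : Γ) (x : X), g • x = x → g = 1)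
    (hact : ∀ g : Γ, Measurable fun x : X => g • x) (hC : 0 ≤ C)
    {F' : Finset Γ} {C' : ℝ} {S : V X →ₗ[ℝ] V X} (h' : Nice F' r C' S) :
    Nice ((F' ×ˢ F).image fun p => p.1 * p.2) r (F.card * r * (C * C')) (S ∘ₗ T) where
  src := fun e he => by
    rw [LinearMap.comp_apply, h.src e he, map_zero]
  loc := fun e f hne => by
    rw [LinearMap.comp_apply, h.comp_apply hfree] at hne
    obtain ⟨p, hp, hp2⟩ := Finset.exists_ne_zero_of_sum_ne_zero hne
    have h1 : S (dl (p.1 • e.1, p.2)) f ≠ 0 := right_ne_zero_of_mul hp2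
    obtain ⟨hr, g, hg, hgf⟩ := h'.loc _ _ h1
    refine ⟨hr, g * p.1, ?_, ?_⟩
    · rw [Finset.mem_image]
      exact ⟨(g, p.1), Finset.mem_product.2 ⟨hg, (Finset.mem_product.1 hp).1⟩, rfl⟩
    · rw [hgf, mul_smul]
  bdd := fun e f => by
    rw [LinearMap.comp_apply, h.comp_apply hfree]
    calc |∑ p ∈ F ×ˢ range r, T (dl e) (p.1 • e.1, p.2) * S (dl (p.1 • e.1, p.2)) f|
        ≤ ∑ p ∈ F ×ˢ range r, |T (dl e) (p.1 • e.1, p.2) * S (dl (p.1 • e.1, p.2)) f| :=
          Finset.abs_sum_le_sum_abs _ _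
      _ ≤ ∑ p ∈ F ×ˢ range r, C * C' := by
          apply Finset.sum_le_sum
          intro p _
          rw [abs_mul]
          exact mul_le_mul (h.bdd _ _) (h'.bdd _ _) (abs_nonneg _) hC
      _ = F.card * r * (C * C') := by
          rw [Finset.sum_const, Finset.card_product, Finset.card_range, nsmul_eq_mul]
          push_cast; ring
  meas := fun g i j => by
    have : (fun x : X => (S ∘ₗ T) (dl (x, i)) (g • x, j)) = fun x : X =>
        ∑ p ∈ F ×ˢ range r, T (dl (x, i)) (p.1 • x, p.2) *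
          S (dl (p.1 • x, p.2)) (g • x, j) := by
      ext x
      rw [LinearMap.comp_apply, h.comp_apply hfree]
    rw [this]
    apply Finset.measurable_sum
    intro p _
    apply Measurable.mul (h.meas _ _ _)
    have h2 := (h'.meas (g * p.1⁻¹) p.2 j).comp (hact p.1)
    have h3 : ((fun x : X => S (dl (x, p.2)) ((g * p.1⁻¹) • x, j)) ∘ fun x => p.1 • x) =
        fun x : X => S (dl (p.1 • x, p.2)) (g • x, j) := by
      ext x
      simp only [Function.comp_apply]
      rw [mul_smul, inv_smul_smul]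
    rw [h3] at h2
    exact h2

lemma add (h : Nice F r C T) [DecidableEq Γ]
    {F' : Finset Γ} {C' : ℝ} {S : V X →ₗ[ℝ] V X} (h' : Nice F' r C' S) :
    Nice (F ∪ F') r (C + C') (T + S) where
  src := fun e he => by
    rw [LinearMap.add_apply, h.src e he, h'.src e he, add_zero]
  loc := fun e f hne => by
    rw [LinearMap.add_apply, Finsupp.add_apply] at hne
    by_cases h0 : T (dl e) f = 0
    · rw [h0, zero_add] at hne
      obtain ⟨hr, g, hg, hgf⟩ := h'.loc _ _ hne
      exact ⟨hr, g, Finset.mem_union_right _ hg, hgf⟩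
    · obtain ⟨hr, g, hg, hgf⟩ := h.loc _ _ h0
      exact ⟨hr, g, Finset.mem_union_left _ hg, hgf⟩
  bdd := fun e f => by
    rw [LinearMap.add_apply, Finsupp.add_apply]
    exact (abs_add_le _ _).trans (add_le_add (h.bdd _ _) (h'.bdd _ _))
  meas := fun g i j => by
    have := (h.meas g i j).add (h'.meas g i j)
    simp only [LinearMap.add_apply, Finsupp.add_apply]
    exact this

lemma smul (h : Nice F r C T) (c : ℝ) : Nice F r (|c| * C) (c • T) where
  src := fun e he => by
    rw [LinearMap.smul_apply, h.src e he, smul_zero]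
  loc := fun e f hne => by
    rw [LinearMap.smul_apply, Finsupp.smul_apply, smul_eq_mul] at hne
    exact h.loc _ _ (right_ne_zero_of_mul hne)
  bdd := fun e f => by
    rw [LinearMap.smul_apply, Finsupp.smul_apply, smul_eq_mul, abs_mul]
    exact mul_le_mul_of_nonneg_left (h.bdd _ _) (abs_nonneg _)
  meas := fun g i j => by
    simpa only [LinearMap.smul_apply, Finsupp.smul_apply, smul_eq_mul] using
      (h.meas g i j).const_mul c

end Nice

lemma nice_zero (r : ℕ) : Nice (∅ : Finset Γ) r 0 (0 : V X →ₗ[ℝ] V X) where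
  src := fun e _ => by simp
  loc := fun e f hne => absurd (by simp) hne
  bdd := fun e f => by simp
  meas := fun g i j => by simp

/-- projection to a set of indices -/
noncomputable def proj (E : Set (X × ℕ)) : V X →ₗ[ℝ] V X :=
  open scoped Classical in
  Finsupp.linearCombination ℝ (fun e => if e ∈ E then dl e else 0)

omit [MeasurableSpace X] in
lemma proj_dl_mem {E : Set (X × ℕ)} {e : X × ℕ} (he : e ∈ E) : proj E (dl e) = dl e := by
  unfold proj
  rw [dl, Finsupp.linearCombination_single, one_smul, if_pos he]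
  rfl

omit [MeasurableSpace X] in
lemma proj_dl_not_mem {E : Set (X × ℕ)} {e : X × ℕ} (he : e ∉ E) : proj E (dl e) = 0 := by
  unfold proj
  rw [dl, Finsupp.linearCombination_single, one_smul, if_neg he]

lemma nice_proj {E : Set (X × ℕ)} (r : ℕ) (hE : ∀ e ∈ E, e.2 < r)
    (hfree : ∀ (g : Γ) (x : X), g • x = x → g = 1)
    (hm : ∀ i, MeasurableSet {x | (x, i) ∈ E}) :
    Nice ({1} : Finset Γ) r 1 (proj E) where
  src := fun e he => by
    apply proj_dl_not_mem
    intro hcon
    exact absurd (hE e hcon) (by omega)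
  loc := fun e f hne => by
    classical
    by_cases he : e ∈ E
    · rw [proj_dl_mem he, dl, Finsupp.single_apply] at hne
      have hef : e = f := by
        by_contra hcon
        exact hne (if_neg hcon)
      subst hef
      exact ⟨hE e he, 1, Finset.mem_singleton_self _, (one_smul _ _).symm⟩
    · rw [proj_dl_not_mem he] at hne
      exact absurd rfl hne
  bdd := fun e f => by
    classical
    by_cases he : e ∈ E
    · rw [proj_dl_mem he, dl, Finsupp.single_apply]
      split_ifs <;> simp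
    · rw [proj_dl_not_mem he]; simp
  meas := fun g i j => by
    classical
    by_cases hg : g = 1
    · by_cases hij : i = j
      · subst hg; subst hij
        have : (fun x : X => proj E (dl (x, i)) ((1 : Γ) • x, i)) =
            {x | (x, i) ∈ E}.indicator (fun _ => (1 : ℝ)) := by
          ext x
          by_cases hx : (x, i) ∈ E
          · have hx' : x ∈ {x | (x, i) ∈ E} := hx
            rw [proj_dl_mem hx, Set.indicator_of_mem hx', one_smul, dl, Finsupp.single_eq_same]
          · have hx' : x ∉ {x | (x, i) ∈ E} := hx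
            rw [proj_dl_not_mem hx, Set.indicator_of_notMem hx']; rfl
        rw [this]
        exact measurable_const.indicator (hm i)
      · have : (fun x : X => proj E (dl (x, i)) (g • x, j)) = fun _ => 0 := by
          ext x
          by_cases hx : (x, i) ∈ E
          · rw [proj_dl_mem hx, dl, Finsupp.single_apply, if_neg]
            intro hcon
            exact hij (Prod.ext_iff.1 hcon).2
          · rw [proj_dl_not_mem hx]; rfl
        rw [this]
        exact measurable_const
    · have : (fun x : X => proj E (dl (x, i)) (g • x, j)) = fun _ => 0 := by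
        ext x
        by_cases hx : (x, i) ∈ E
        · rw [proj_dl_mem hx, dl, Finsupp.single_apply, if_neg]
          intro hcon
          exact hg (hfree g x (Prod.ext_iff.1 hcon).1.symm)
        · rw [proj_dl_not_mem hx]; rfl
      rw [this]
      exact measurable_const

/-- the operator with given matrix entries -/
noncomputable def ofFun (F : Finset Γ) (r : ℕ) (t : X × ℕ → X × ℕ → ℝ) : V X →ₗ[ℝ] V X :=
  Finsupp.linearCombination ℝ (fun e : X × ℕ =>
    if e.2 < r then ∑ p ∈ F ×ˢ range r, t e (p.1 • e.1, p.2) • dl (p.1 • e.1, p.2) else 0)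

omit [MeasurableSpace X] in
lemma ofFun_apply (hfree : ∀ (g : Γ) (x : X), g • x = x → g = 1)
    (F : Finset Γ) (r : ℕ) (t : X × ℕ → X × ℕ → ℝ)
    (ht : ∀ e f, t e f ≠ 0 → e.2 < r ∧ f.2 < r ∧ ∃ g ∈ F, f.1 = g • e.1) (e f : X × ℕ) :
    ofFun F r t (dl e) f = t e f := by
  classical
  unfold ofFun
  rw [dl, Finsupp.linearCombination_single, one_smul]
  by_cases he : e.2 < r
  · rw [if_pos he, Finsupp.finsetSum_apply]
    simp only [dl, Finsupp.smul_apply, Finsupp.single_apply, smul_eq_mul, mul_ite, mul_one,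
      mul_zero]
    by_cases hne : t e f = 0
    · rw [hne, Finset.sum_eq_zero]
      intro p _
      split_ifs with hp
      · rw [hp]; exact hne
      · rfl
    · obtain ⟨_, hr, g, hg, hgf⟩ := ht e f hne
      rw [Finset.sum_eq_single (g, f.2)]
      · rw [if_pos (by rw [Prod.ext_iff]; exact ⟨hgf.symm, rfl⟩)]
        simp only
        rw [← hgf]
      · intro p _ hpne
        rw [if_neg]
        intro hpf
        apply hpne
        have h1 : p.1 • e.1 = g • e.1 := by rw [← hgf, ← hpf]
        have h2 : p.2 = f.2 := by rw [← hpf]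
        have h3 : (g⁻¹ * p.1) • e.1 = e.1 := by rw [mul_smul, h1, inv_smul_smul]
        have h4 := hfree _ _ h3
        have h5 : p.1 = g := by
          have := congrArg (g * ·) h4
          simpa using this
        exact Prod.ext h5 h2
      · intro hcon
        exact absurd (by simp [hg, hr]) hcon
  · rw [if_neg he]
    by_contra hcon
    exact he (ht e f (fun h0 => hcon (by rw [h0]; rfl))).1

lemma nice_ofFun (hfree : ∀ (g : Γ) (x : X), g • x = x → g = 1)
    (F : Finset Γ) (r : ℕ) (C : ℝ) (t : X × ℕ → X × ℕ → ℝ)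
    (ht : ∀ e f, t e f ≠ 0 → e.2 < r ∧ f.2 < r ∧ ∃ g ∈ F, f.1 = g • e.1)
    (hb : ∀ e f, |t e f| ≤ C)
    (hm : ∀ (g : Γ) (i j : ℕ), Measurable fun x : X => t (x, i) (g • x, j)) :
    Nice F r C (ofFun F r t) where
  src := fun e he => by
    ext f
    rw [ofFun_apply hfree F r t ht]
    by_contra hcon
    exact absurd (ht e f hcon).1 (by omega)
  loc := fun e f hne => by
    rw [ofFun_apply hfree F r t ht] at hne
    exact (ht e f hne).2
  bdd := fun e f => by
    rw [ofFun_apply hfree F r t ht]; exact hb e f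
  meas := fun g i j => by
    have : (fun x : X => ofFun F r t (dl (x, i)) (g • x, j)) = fun x => t (x, i) (g • x, j) := by
      ext x
      rw [ofFun_apply hfree F r t ht]
    rw [this]
    exact hm g i j

namespace Nice
variable {F : Finset Γ} {r : ℕ} {C : ℝ} {T : V X →ₗ[ℝ] V X}

lemma exists_adj [DecidableEq Γ] (h : Nice F r C T)
    (hfree : ∀ (g : Γ) (x : X), g • x = x → g = 1)
    (hact : ∀ g : Γ, Measurable fun x : X => g • x) :
    ∃ T' : V X →ₗ[ℝ] V X, Nice (F.image fun g => g⁻¹) r C T' ∧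
      ∀ e f, T (dl e) f = T' (dl f) e := by
  have ht : ∀ e f : X × ℕ, T (dl f) e ≠ 0 →
      e.2 < r ∧ f.2 < r ∧ ∃ g ∈ F.image fun g => g⁻¹, f.1 = g • e.1 := by
    intro e f hne
    obtain ⟨hr, g, hg, hgf⟩ := h.loc _ _ hne
    refine ⟨hr, ?_, g⁻¹, Finset.mem_image.2 ⟨g, hg, rfl⟩, ?_⟩
    · by_contra hcon
      rw [h.src f (by omega)] at hne
      exact hne rfl
    · rw [hgf, inv_smul_smul]
  refine ⟨ofFun (F.image fun g => g⁻¹) r (fun e f => T (dl f) e), ?_, ?_⟩
  · apply nice_ofFun hfree _ _ _ _ ht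
    · intro e f; exact h.bdd _ _
    · intro g i j
      have h2 := (h.meas g⁻¹ j i).comp (hact g)
      have h3 : ((fun x : X => T (dl (x, j)) (g⁻¹ • x, i)) ∘ fun x => g • x) =
          fun x : X => T (dl (g • x, j)) (x, i) := by
        ext x
        simp only [Function.comp_apply]
        rw [inv_smul_smul]
      rw [h3] at h2
      exact h2
  · intro e f
    rw [ofFun_apply hfree _ _ _ ht]

/-- row sums -/
lemma row_sum (h : Nice F r C T) (hC : 0 ≤ C) (e : X × ℕ) (A : Finset (X × ℕ)) :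
    ∑ f ∈ A, |T (dl e) f| ≤ F.card * r * C := by
  classical
  have h1 : ∑ f ∈ A, |T (dl e) f| ≤
      ∑ f ∈ (F ×ˢ range r).image (fun p => (p.1 • e.1, p.2)), |T (dl e) f| := by
    rw [← Finset.sum_filter_add_sum_filter_not A
      (fun f => f ∈ (F ×ˢ range r).image (fun p => (p.1 • e.1, p.2)))]
    have h2 : ∑ f ∈ A with f ∉ (F ×ˢ range r).image (fun p => (p.1 • e.1, p.2)),
        |T (dl e) f| = 0 := by
      apply Finset.sum_eq_zero
      intro f hf
      rw [Finset.mem_filter] at hf
      by_contra hcon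
      have hne : T (dl e) f ≠ 0 := fun h0 => hcon (by rw [h0, abs_zero])
      obtain ⟨hr, g, hg, hgf⟩ := h.loc _ _ hne
      apply hf.2
      rw [Finset.mem_image]
      exact ⟨(g, f.2), by simp [hg, hr], by rw [← hgf]⟩
    rw [h2, add_zero]
    apply Finset.sum_le_sum_of_subset_of_nonneg
    · intro f hf
      exact (Finset.mem_filter.1 hf).2
    · intro f _ _; exact abs_nonneg _
  calc ∑ f ∈ A, |T (dl e) f| ≤ _ := h1
    _ ≤ ∑ f ∈ (F ×ˢ range r).image (fun p => (p.1 • e.1, p.2)), C :=
        Finset.sum_le_sum (fun f _ => h.bdd _ _)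
    _ = ((F ×ˢ range r).image (fun p : Γ × ℕ => (p.1 • e.1, p.2))).card * C := by
        rw [Finset.sum_const, nsmul_eq_mul]
    _ ≤ F.card * r * C := by
        apply mul_le_mul_of_nonneg_right _ hC
        have := Finset.card_image_le (s := F ×ˢ range r)
          (f := fun p : Γ × ℕ => (p.1 • e.1, p.2))
        rw [Finset.card_product, Finset.card_range] at this
        exact_mod_cast this

/-- boundedness -/
lemma bound [DecidableEq Γ] (h : Nice F r C T)
    (hfree : ∀ (g : Γ) (x : X), g • x = x → g = 1)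
    (hact : ∀ g : Γ, Measurable fun x : X => g • x) (hC : 0 ≤ C) :
    ∃ K : ℝ, 1 ≤ K ∧ ∀ u, ip (T u) (T u) ≤ K * ip u u := by
  classical
  obtain ⟨T', hT', hadj⟩ := h.exists_adj hfree hact
  set R : ℝ := F.card * r * C with hR
  have hR0 : 0 ≤ R := by positivity
  have hrow : ∀ e (A : Finset (X × ℕ)), ∑ f ∈ A, |T (dl e) f| ≤ R := fun e A => h.row_sum hC e A
  have hcol : ∀ f (A : Finset (X × ℕ)), ∑ e ∈ A, |T (dl e) f| ≤ R := by
    intro f A
    have h1 := hT'.row_sum hC f A
    have h2 : ∑ e ∈ A, |T (dl e) f| = ∑ e ∈ A, |T' (dl f) e| :=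
      Finset.sum_congr rfl (fun e _ => by rw [hadj])
    rw [h2]
    refine h1.trans ?_
    rw [hR]
    apply mul_le_mul_of_nonneg_right _ hC
    apply mul_le_mul_of_nonneg_right _ (Nat.cast_nonneg _)
    exact_mod_cast Finset.card_image_le
  refine ⟨R * R + 1, by nlinarith [mul_nonneg hR0 hR0], ?_⟩
  intro u
  have hTu : ∀ f, T u f = ∑ e ∈ u.support, u e * T (dl e) f := by
    intro f
    have hu : u = ∑ e ∈ u.support, u e • dl e := by
      conv_lhs => rw [← Finsupp.sum_single u]
      unfold Finsupp.sum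
      apply Finset.sum_congr rfl
      intro e _
      rw [dl, Finsupp.smul_single, smul_eq_mul, mul_one]
    conv_lhs => rw [hu]
    rw [map_sum, Finsupp.finsetSum_apply]
    exact Finset.sum_congr rfl (fun e _ => by rw [map_smul, Finsupp.smul_apply, smul_eq_mul])
  have hpt : ∀ f, T u f ^ 2 ≤ R * ∑ e ∈ u.support, u e ^ 2 * |T (dl e) f| := by
    intro f
    rw [hTu]
    have hcs := Finset.sum_mul_sq_le_sq_mul_sq u.support
      (fun e => |u e| * √|T (dl e) f|) (fun e => √|T (dl e) f|)
    have h1 : |∑ e ∈ u.support, u e * T (dl e) f| ≤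
        ∑ e ∈ u.support, (|u e| * √|T (dl e) f|) * √|T (dl e) f| := by
      refine (Finset.abs_sum_le_sum_abs _ _).trans (Finset.sum_le_sum fun e _ => ?_)
      rw [abs_mul, mul_assoc, Real.mul_self_sqrt (abs_nonneg _)]
    have h2 : (∑ e ∈ u.support, u e * T (dl e) f) ^ 2 ≤
        (∑ e ∈ u.support, (|u e| * √|T (dl e) f|) * √|T (dl e) f|) ^ 2 := by
      rw [← sq_abs (∑ e ∈ u.support, u e * T (dl e) f)]
      exact pow_le_pow_left₀ (abs_nonneg _) h1 2
    refine h2.trans (hcs.trans ?_)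
    have h3 : ∑ e ∈ u.support, √|T (dl e) f| ^ 2 ≤ R := by
      refine le_trans (le_of_eq (Finset.sum_congr rfl fun e _ => ?_)) (hcol f u.support)
      rw [Real.sq_sqrt (abs_nonneg _)]
    have h4 : ∑ e ∈ u.support, (|u e| * √|T (dl e) f|) ^ 2 =
        ∑ e ∈ u.support, u e ^ 2 * |T (dl e) f| := by
      apply Finset.sum_congr rfl
      intro e _
      rw [mul_pow, Real.sq_sqrt (abs_nonneg _), sq_abs]
    rw [h4, mul_comm]
    exact mul_le_mul_of_nonneg_right h3 (Finset.sum_nonneg fun e _ => by positivity)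
  rw [ip_self_eq (T u) _ subset_rfl]
  calc ∑ f ∈ (T u).support, T u f ^ 2
      ≤ ∑ f ∈ (T u).support, R * ∑ e ∈ u.support, u e ^ 2 * |T (dl e) f| :=
        Finset.sum_le_sum fun f _ => hpt f
    _ = R * ∑ e ∈ u.support, u e ^ 2 * ∑ f ∈ (T u).support, |T (dl e) f| := by
        rw [← Finset.mul_sum, Finset.sum_comm]
        congr 1
        exact Finset.sum_congr rfl fun e _ => by rw [Finset.mul_sum]
    _ ≤ R * ∑ e ∈ u.support, u e ^ 2 * R := by
        apply mul_le_mul_of_nonneg_left _ hR0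
        exact Finset.sum_le_sum fun e _ => mul_le_mul_of_nonneg_left (hrow _ _) (sq_nonneg _)
    _ = (R * R) * ip u u := by
        rw [ip_self_eq u _ subset_rfl, ← Finset.sum_mul]; ring
    _ ≤ (R * R + 1) * ip u u := by
        nlinarith [ip_self_nonneg u]

end Nice

/-- trace -/
noncomputable def tr (μ : Measure X) (r : ℕ) (T : V X →ₗ[ℝ] V X) : ℝ :=
  ∑ i ∈ range r, ∫ x, T (dl (x, i)) (x, i) ∂μ

namespace Nice
variable {F : Finset Γ} {r : ℕ} {C : ℝ} {T : V X →ₗ[ℝ] V X}

lemma integrable (h : Nice F r C T) (μ : Measure X) [IsFiniteMeasure μ] (i : ℕ) :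
    Integrable (fun x => T (dl (x, i)) (x, i)) μ := by
  have hm := h.meas 1 i i
  simp only [one_smul] at hm
  refine Integrable.of_bound hm.aestronglyMeasurable C (Filter.Eventually.of_forall fun x => ?_)
  rw [Real.norm_eq_abs]
  exact h.bdd _ _

lemma tr_add (h : Nice F r C T) (μ : Measure X) [IsFiniteMeasure μ]
    {F' : Finset Γ} {C' : ℝ} {S : V X →ₗ[ℝ] V X} (h' : Nice F' r C' S) :
    tr μ r (T + S) = tr μ r T + tr μ r S := by
  unfold tr
  rw [← Finset.sum_add_distrib]
  apply Finset.sum_congr rfl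
  intro i _
  rw [← integral_add (h.integrable μ i) (h'.integrable μ i)]
  rfl

lemma tr_comp (h : Nice F r C T) (hfree : ∀ (g : Γ) (x : X), g • x = x → g = 1)
    (hact : ∀ g : Γ, Measurable fun x : X => g • x) (hC : 0 ≤ C)
    (μ : Measure X) [IsFiniteMeasure μ]
    {F' : Finset Γ} {C' : ℝ} {S : V X →ₗ[ℝ] V X} (h' : Nice F' r C' S) (G : Finset Γ)
    (hG : F ⊆ G) :
    tr μ r (S ∘ₗ T) = ∑ i ∈ range r, ∑ p ∈ G ×ˢ range r,
      ∫ x, T (dl (x, i)) (p.1 • x, p.2) * S (dl (p.1 • x, p.2)) (x, i) ∂μ := by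
  unfold tr
  apply Finset.sum_congr rfl
  intro i _
  rw [← integral_finsetSum]
  · apply integral_congr_ae
    refine Filter.Eventually.of_forall fun x => ?_
    simp only
    rw [LinearMap.comp_apply, (h.mono_F hG).comp_apply hfree]
  · intro p _
    have h2 := (h'.meas (p.1⁻¹) p.2 i).comp (hact p.1)
    have h3 : ((fun x : X => S (dl (x, p.2)) ((p.1⁻¹) • x, i)) ∘ fun x => p.1 • x) =
        fun x : X => S (dl (p.1 • x, p.2)) (x, i) := by
      ext x
      simp only [Function.comp_apply]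
      rw [inv_smul_smul]
    rw [h3] at h2
    refine Integrable.of_bound ((h.meas p.1 i p.2).mul h2).aestronglyMeasurable (C * C')
      (Filter.Eventually.of_forall fun x => ?_)
    rw [Real.norm_eq_abs, abs_mul]
    exact mul_le_mul (h.bdd _ _) (h'.bdd _ _) (abs_nonneg _) hC

lemma tr_comm [DecidableEq Γ] (h : Nice F r C T) (hfree : ∀ (g : Γ) (x : X), g • x = x → g = 1)
    (hC : 0 ≤ C)
    (μ : Measure X) [IsFiniteMeasure μ] (hmp : ∀ g : Γ, MeasurePreserving (fun x : X => g • x) μ μ)
    {F' : Finset Γ} {C' : ℝ} (hC' : 0 ≤ C') {S : V X →ₗ[ℝ] V X} (h' : Nice F' r C' S) :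
    tr μ r (S ∘ₗ T) = tr μ r (T ∘ₗ S) := by
  have hact : ∀ g : Γ, Measurable fun x : X => g • x := fun g => (hmp g).measurable
  set G : Finset Γ := (F ∪ F') ∪ (F ∪ F').image (fun g => g⁻¹) with hGdef
  have hG1 : F ⊆ G := fun g hg => by
    simp [hGdef, hg]
  have hG2 : F' ⊆ G := fun g hg => by
    simp [hGdef, hg]
  have hGinv : ∀ g ∈ G, g⁻¹ ∈ G := by
    intro g hg
    simp only [hGdef, Finset.mem_union, Finset.mem_image] at hg ⊢
    rcases hg with hg | ⟨a, ha, hag⟩
    · right; exact ⟨g, hg, rfl⟩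
    · left; rw [← hag, inv_inv]; exact ha
  rw [h.tr_comp hfree hact hC μ h' G hG1, h'.tr_comp hfree hact hC' μ h G hG2]
  simp only [Finset.sum_product]
  have key : ∀ (i k : ℕ), ∑ g ∈ G, ∫ x, T (dl (x, i)) (g • x, k) * S (dl (g • x, k)) (x, i) ∂μ =
      ∑ g ∈ G, ∫ x, S (dl (x, k)) (g • x, i) * T (dl (g • x, i)) (x, k) ∂μ := by
    intro i k
    apply Finset.sum_bij (fun g _ => g⁻¹) (fun g hg => hGinv g hg)
      (fun g _ g' _ hgg => inv_injective hgg)
      (fun g hg => ⟨g⁻¹, hGinv g hg, inv_inv g⟩)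
    intro g hg
    have hemb : MeasurableEmbedding (fun x : X => g • x) := by
      let e : X ≃ᵐ X :=
        { toFun := fun x => g • x
          invFun := fun x => g⁻¹ • x
          left_inv := fun x => by simp
          right_inv := fun x => by simp
          measurable_toFun := hact g
          measurable_invFun := hact g⁻¹ }
      exact e.measurableEmbedding
    rw [← (hmp g).integral_comp hemb
      (fun x => S (dl (x, k)) (g⁻¹ • x, i) * T (dl (g⁻¹ • x, i)) (x, k))]
    apply integral_congr_ae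
    refine Filter.Eventually.of_forall fun x => ?_
    simp only
    rw [inv_smul_smul, mul_comm]
  calc ∑ i ∈ range r, ∑ g ∈ G, ∑ k ∈ range r,
        ∫ x, T (dl (x, i)) (g • x, k) * S (dl (g • x, k)) (x, i) ∂μ
      = ∑ i ∈ range r, ∑ k ∈ range r, ∑ g ∈ G,
        ∫ x, T (dl (x, i)) (g • x, k) * S (dl (g • x, k)) (x, i) ∂μ := by
        exact Finset.sum_congr rfl fun i _ => Finset.sum_comm
    _ = ∑ i ∈ range r, ∑ k ∈ range r, ∑ g ∈ G,
        ∫ x, S (dl (x, k)) (g • x, i) * T (dl (g • x, i)) (x, k) ∂μ :=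
        Finset.sum_congr rfl fun i _ => Finset.sum_congr rfl fun k _ => key i k
    _ = ∑ k ∈ range r, ∑ i ∈ range r, ∑ g ∈ G,
        ∫ x, S (dl (x, k)) (g • x, i) * T (dl (g • x, i)) (x, k) ∂μ := Finset.sum_comm
    _ = _ := Finset.sum_congr rfl fun i _ => Finset.sum_comm

end Nice

/-- nice operators, without constants -/
def IsNice (Γ : Type*) [Group Γ] {X : Type*} [MeasurableSpace X] [MulAction Γ X]
    (r : ℕ) (T : V X →ₗ[ℝ] V X) : Prop :=
  ∃ (F : Finset Γ) (C : ℝ), 0 ≤ C ∧ Nice F r C T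

namespace IsNice
variable {r : ℕ} {T S : V X →ₗ[ℝ] V X}

lemma add (h : IsNice Γ r T) (h' : IsNice Γ r S) : IsNice Γ r (T + S) := by
  classical
  obtain ⟨F, C, hC, h⟩ := h
  obtain ⟨F', C', hC', h'⟩ := h'
  exact ⟨_, _, add_nonneg hC hC', h.add h'⟩

lemma smul (h : IsNice Γ r T) (c : ℝ) : IsNice Γ r (c • T) := by
  obtain ⟨F, C, hC, h⟩ := h
  exact ⟨_, _, by positivity, h.smul c⟩

lemma comp (h : IsNice Γ r T) (h' : IsNice Γ r S)
    (hfree : ∀ (g : Γ) (x : X), g • x = x → g = 1)
    (hact : ∀ g : Γ, Measurable fun x : X => g • x) : IsNice Γ r (T ∘ₗ S) := by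
  classical
  obtain ⟨F, C, hC, h⟩ := h
  obtain ⟨F', C', hC', h'⟩ := h'
  exact ⟨_, _, by positivity, h'.comp hfree hact hC' h⟩

end IsNice

omit [MeasurableSpace X] in
lemma ip_cs (u v : V X) : ip u v ^ 2 ≤ ip u u * ip v v := by
  classical
  have h1 : ip u v = ∑ a ∈ u.support ∪ v.support, u a * v a := by
    unfold ip
    rw [Finsupp.sum_of_support_subset u Finset.subset_union_left _ (by simp)]
  rw [h1, ip_self_eq u _ Finset.subset_union_left, ip_self_eq v _ Finset.subset_union_right]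
  exact Finset.sum_mul_sq_le_sq_mul_sq _ _ _

omit [MeasurableSpace X] in
lemma ip_sub_self (u v : V X) : ip (u - v) (u - v) = ip u u - 2 * ip u v + ip v v := by
  have h1 : ∀ a b c : V X, ip (a - b) c = ip a c - ip b c := by
    intro a b c
    rw [sub_eq_add_neg, ← neg_one_smul ℝ b, ip_add_left, ip_smul_left]; ring
  have h3 : ∀ a b c : V X, ip c (a - b) = ip c a - ip c b := by
    intro a b c
    rw [ip_comm, h1, ip_comm a, ip_comm b]
  rw [h1, h3, h3, ip_comm v u]; ring

lemma tr_mul_two_nonneg (μ : Measure X) (r : ℕ) {T : V X →ₗ[ℝ] V X}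
    (hsym : ∀ u v, ip (T u) v = ip u (T v)) (m : ℕ) :
    0 ≤ tr μ r ((T : Module.End ℝ (V X)) ^ (2 * m)) := by
  unfold tr
  apply Finset.sum_nonneg
  intro i _
  apply integral_nonneg
  intro x
  simp only [Pi.zero_apply]
  have hpow : ∀ (n : ℕ) (u v : V X), ip (((T : Module.End ℝ (V X)) ^ n) u) v =
      ip u (((T : Module.End ℝ (V X)) ^ n) v) := by
    intro n
    induction n with
    | zero => intro u v; simp
    | succ n ih =>
      intro u v
      rw [pow_succ, Module.End.mul_apply, ih, hsym, ← Module.End.mul_apply, ← pow_succ',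
        pow_succ]
  rw [← ip_dl_left, two_mul, pow_add, Module.End.mul_apply, ← hpow]
  exact ip_self_nonneg _

lemma ring_id1 {R : Type*} [Ring R] [Algebra ℝ R] (k : ℝ) (PE PN a b Q : R)
    (e1 : PE * a = a) (e2 : a * PN = a) (e3 : b * PE = b) (e5 : PE * PE = PE) :
    (PE - a * Q * b) * (PE - k • (a * b)) =
      PE - a * (Q + (k • PN + (-k) • (Q * b * a))) * b := by
  have : (PE - a * Q * b) * (PE - k • (a * b)) =
      PE * PE - k • ((PE * a) * b) - a * Q * (b * PE) + k • (a * (Q * b * a) * b) := by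
    simp only [sub_mul, mul_sub, mul_smul_comm, mul_assoc, smul_sub]
    abel
  rw [this, e5, e1, e3]
  have h3 : a * (Q + (k • PN + (-k) • (Q * b * a))) * b =
      a * Q * b + k • (a * PN * b) - k • (a * (Q * b * a) * b) := by
    simp only [mul_add, add_mul, mul_smul_comm, smul_mul_assoc, neg_smul, mul_neg, neg_mul]
    abel
  rw [h3, e2]
  abel

lemma ring_id2 {R : Type*} [Ring R] [Algebra ℝ R] (k : ℝ) (PN a b Q : R)
    (e2 : a * PN = a) (e4 : PN * b = b) (e6 : PN * PN = PN) :
    (PN - Q * b * a) * (PN - k • (b * a)) =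
      PN - (Q + (k • PN + (-k) • (Q * b * a))) * b * a := by
  have : (PN - Q * b * a) * (PN - k • (b * a)) =
      PN * PN - k • ((PN * b) * a) - Q * b * (a * PN) + k • ((Q * b * a) * b * a) := by
    simp only [sub_mul, mul_sub, mul_smul_comm, mul_assoc, smul_sub]
    abel
  rw [this, e6, e4, e2]
  have h3 : (Q + (k • PN + (-k) • (Q * b * a))) * b * a =
      Q * b * a + k • (PN * b * a) - k • ((Q * b * a) * b * a) := by
    simp only [add_mul, smul_mul_assoc, neg_smul, neg_mul]
    abel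
  rw [h3, e4]
  abel

lemma ring_id3 {R : Type*} [Ring R] [Algebra ℝ R] (k : ℝ) (PE a b : R)
    (e1 : PE * a = a) (e5 : PE * PE = PE) :
    PE * (PE - k • (a * b)) = PE - k • (a * b) := by
  rw [mul_sub, e5, mul_smul_comm, ← mul_assoc, e1]

lemma ring_id4 {R : Type*} [Ring R] [Algebra ℝ R] (k : ℝ) (PE a b : R)
    (e3 : b * PE = b) (e5 : PE * PE = PE) :
    (PE - k • (a * b)) * PE = PE - k • (a * b) := by
  rw [sub_mul, e5, smul_mul_assoc, mul_assoc, e3]

/-- The core inequality, for truncated data. -/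
theorem core (hfree : ∀ (g : Γ) (x : X), g • x = x → g = 1)
    (μ : Measure X) [IsProbabilityMeasure μ]
    (hmp : ∀ g : Γ, MeasurePreserving (fun x : X => g • x) μ μ)
    (r : ℕ) (E N : Set (X × ℕ)) (hE : ∀ e ∈ E, e.2 < r) (hN : ∀ e ∈ N, e.2 < r)
    (hEm : ∀ i, MeasurableSet {x | (x, i) ∈ E}) (hNm : ∀ i, MeasurableSet {x | (x, i) ∈ N})
    (A C : V X →ₗ[ℝ] V X) (hA : IsNice Γ r A) (hC : IsNice Γ r C)
    (hAC : A ∘ₗ C = proj E) (hEA : proj E ∘ₗ A = A) (hAN : A ∘ₗ proj N = A) :
    ∑ i ∈ range r, μ.real {x | (x, i) ∈ E} ≤ ∑ i ∈ range r, μ.real {x | (x, i) ∈ N} := by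
  classical
  have hact : ∀ g : Γ, Measurable fun x : X => g • x := fun g => (hmp g).measurable
  obtain ⟨FA, cA, hcA, hA'⟩ := hA
  obtain ⟨FC, cC, hcC, hC'⟩ := hC
  have hA : IsNice Γ r A := ⟨FA, cA, hcA, hA'⟩
  obtain ⟨B, hB', hadj⟩ := hA'.exists_adj hfree hact
  have hB : IsNice Γ r B := ⟨_, cA, hcA, hB'⟩
  have hadj' : ∀ u v, ip (A u) v = ip u (B v) := adj_of_basis hadj
  obtain ⟨K, hK1, hK⟩ := hA'.bound hfree hact hcA
  obtain ⟨L, hL1, hL⟩ := hC'.bound hfree hact hcC
  have hPE : IsNice Γ r (proj E) := ⟨_, 1, zero_le_one, nice_proj (Γ := Γ) r hE hfree hEm⟩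
  have hPN : IsNice Γ r (proj N) := ⟨_, 1, zero_le_one, nice_proj (Γ := Γ) r hN hfree hNm⟩
  -- algebra
  have projsym : ∀ (S : Set (X × ℕ)) (e f : X × ℕ), proj S (dl e) f = proj S (dl f) e := by
    intro S e f
    by_cases he : e ∈ S
    · by_cases hf : f ∈ S
      · rw [proj_dl_mem he, proj_dl_mem hf]
        simp only [dl, Finsupp.single_apply, eq_comm]
      · rw [proj_dl_mem he, proj_dl_not_mem hf, dl, Finsupp.single_apply, if_neg]
        · rfl
        · rintro rfl; exact hf he
    · by_cases hf : f ∈ S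
      · rw [proj_dl_not_mem he, proj_dl_mem hf, dl, Finsupp.single_apply, if_neg]
        · rfl
        · rintro rfl; exact he hf
      · rw [proj_dl_not_mem he, proj_dl_not_mem hf]; rfl
  have psym : ∀ (S : Set (X × ℕ)) (u v : V X), ip (proj S u) v = ip u (proj S v) :=
    fun S => adj_of_basis (projsym S)
  have nondeg : ∀ u v : V X, (∀ w, ip w u = ip w v) → u = v := by
    intro u v h
    ext e
    have := h (dl e)
    rwa [ip_dl_left, ip_dl_left] at this
  have hBE : B ∘ₗ proj E = B := by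
    ext1 e
    apply LinearMap.ext_ring
    apply nondeg
    intro w
    change ip w (B (proj E (Finsupp.single e 1))) = ip w (B (Finsupp.single e 1))
    rw [← hadj', ← hadj', ← psym]
    have : proj E (A w) = A w := congrArg (fun L => L w) hEA
    rw [this]
  have hNB : proj N ∘ₗ B = B := by
    ext1 e
    apply LinearMap.ext_ring
    apply nondeg
    intro w
    change ip w (proj N (B (Finsupp.single e 1))) = ip w (B (Finsupp.single e 1))
    rw [← psym, ← hadj', ← hadj']
    have : A (proj N w) = A w := congrArg (fun L => L w) hAN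
    rw [this]
  have idem : ∀ (S : Set (X × ℕ)), proj S ∘ₗ proj S = proj S := by
    intro S
    apply lin_ext
    intro e
    by_cases he : e ∈ S
    · rw [LinearMap.comp_apply, proj_dl_mem he, proj_dl_mem he]
    · rw [LinearMap.comp_apply, proj_dl_not_mem he, map_zero]
  set k : ℝ := K⁻¹ with hk
  have hk0 : 0 < k := by positivity
  let PE : Module.End ℝ (V X) := proj E
  let PN : Module.End ℝ (V X) := proj N
  let a : Module.End ℝ (V X) := A
  let b : Module.End ℝ (V X) := B
  have e1 : PE * a = a := hEA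
  have e2 : a * PN = a := hAN
  have e3 : b * PE = b := hBE
  have e4 : PN * b = b := hNB
  have e5 : PE * PE = PE := idem E
  have e6 : PN * PN = PN := idem N
  let T1 : Module.End ℝ (V X) := PE - k • (a * b)
  let T2 : Module.End ℝ (V X) := PN - k • (b * a)
  have key : ∀ n : ℕ, ∃ Q : Module.End ℝ (V X), IsNice Γ r Q ∧
      T1 ^ (n + 1) = PE - a * Q * b ∧ T2 ^ (n + 1) = PN - Q * b * a := by
    intro n
    induction n with
    | zero =>
      refine ⟨k • PN, hPN.smul k, ?_, ?_⟩
      · rw [zero_add, pow_one]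
        simp only [T1]
        rw [mul_smul_comm, smul_mul_assoc, e2]
      · rw [zero_add, pow_one]
        simp only [T2]
        rw [smul_mul_assoc, smul_mul_assoc, e4]
    | succ n ih =>
      obtain ⟨Q, hQ, h1, h2⟩ := ih
      refine ⟨Q + (k • PN + (-k) • (Q * b * a)), ?_, ?_, ?_⟩
      · exact hQ.add ((hPN.smul k).add
          (((hQ.comp hB hfree hact).comp hA hfree hact).smul (-k)))
      · rw [pow_succ, h1]
        exact ring_id1 k PE PN a b Q e1 e2 e3 e5
      · rw [pow_succ, h2]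
        exact ring_id2 k PN a b Q e2 e4 e6
  -- the trace identity
  have trPE : tr μ r (proj E) = ∑ i ∈ range r, μ.real {x | (x, i) ∈ E} := by
    unfold tr
    apply Finset.sum_congr rfl
    intro i _
    have : (fun x => proj E (dl (x, i)) (x, i)) = {x | (x, i) ∈ E}.indicator (fun _ => (1:ℝ)) := by
      ext x
      by_cases hx : (x, i) ∈ E
      · have hx' : x ∈ {x | (x, i) ∈ E} := hx
        rw [proj_dl_mem hx, Set.indicator_of_mem hx', dl, Finsupp.single_eq_same]
      · have hx' : x ∉ {x | (x, i) ∈ E} := hx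
        rw [proj_dl_not_mem hx, Set.indicator_of_notMem hx']; rfl
    rw [this, integral_indicator (hEm i)]
    simp
  have trPN : tr μ r (proj N) = ∑ i ∈ range r, μ.real {x | (x, i) ∈ N} := by
    unfold tr
    apply Finset.sum_congr rfl
    intro i _
    have : (fun x => proj N (dl (x, i)) (x, i)) = {x | (x, i) ∈ N}.indicator (fun _ => (1:ℝ)) := by
      ext x
      by_cases hx : (x, i) ∈ N
      · have hx' : x ∈ {x | (x, i) ∈ N} := hx
        rw [proj_dl_mem hx, Set.indicator_of_mem hx', dl, Finsupp.single_eq_same]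
      · have hx' : x ∉ {x | (x, i) ∈ N} := hx
        rw [proj_dl_not_mem hx, Set.indicator_of_notMem hx']; rfl
    rw [this, integral_indicator (hNm i)]
    simp
  have trsub : ∀ S T : V X →ₗ[ℝ] V X, IsNice Γ r S → IsNice Γ r T →
      tr μ r (S - T) = tr μ r S - tr μ r T := by
    intro S T hS hT
    obtain ⟨_, _, _, hS⟩ := hS
    obtain ⟨_, _, _, hT⟩ := hT
    unfold tr
    rw [← Finset.sum_sub_distrib]
    apply Finset.sum_congr rfl
    intro i _
    rw [← integral_sub (hS.integrable μ i) (hT.integrable μ i)]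
    rfl
  have hdiff : ∀ n : ℕ, tr μ r (T1 ^ (n + 1)) - tr μ r (T2 ^ (n + 1)) =
      ∑ i ∈ range r, μ.real {x | (x, i) ∈ E} - ∑ i ∈ range r, μ.real {x | (x, i) ∈ N} := by
    intro n
    obtain ⟨Q, hQ, h1, h2⟩ := key n
    have hQb : IsNice Γ r (Q ∘ₗ B) := hQ.comp hB hfree hact
    rw [h1, h2, ← trPE, ← trPN]
    have s1 : tr μ r (PE - a * Q * b) = tr μ r (proj E) - tr μ r (A ∘ₗ (Q ∘ₗ B)) :=
      trsub _ _ hPE (hA.comp hQb hfree hact)
    have s2 : tr μ r (PN - Q * b * a) = tr μ r (proj N) - tr μ r ((Q ∘ₗ B) ∘ₗ A) :=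
      trsub _ _ hPN (hQb.comp hA hfree hact)
    have s3 : tr μ r (A ∘ₗ (Q ∘ₗ B)) = tr μ r ((Q ∘ₗ B) ∘ₗ A) := by
      obtain ⟨F', c', hc', hn⟩ := hQb
      exact hn.tr_comm hfree hc' μ hmp hcA hA'
    rw [s1, s2, s3]; ring
  -- symmetric
  have T2sym : ∀ u v, ip (T2 u) v = ip u (T2 v) := by
    intro u v
    have h1 : T2 u = proj N u - k • B (A u) := rfl
    have h2 : T2 v = proj N v - k • B (A v) := rfl
    have hs : ∀ a b c : V X, ip (a - k • b) c = ip a c - k * ip b c := by
      intro a b c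
      rw [sub_eq_add_neg, ← neg_smul, ip_add_left, ip_smul_left]; ring
    rw [h1, h2, hs, ip_comm u, hs, psym, ip_comm (B (A u)), ← hadj', ip_comm (B (A v)),
      ← hadj', ip_comm (A v), ip_comm u]
  have T1sym : ∀ u v, ip (T1 u) v = ip u (T1 v) := by
    intro u v
    have h1 : T1 u = proj E u - k • A (B u) := rfl
    have h2 : T1 v = proj E v - k • A (B v) := rfl
    have hs : ∀ a b c : V X, ip (a - k • b) c = ip a c - k * ip b c := by
      intro a b c
      rw [sub_eq_add_neg, ← neg_smul, ip_add_left, ip_smul_left]; ring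
    rw [h1, h2, hs, ip_comm u, hs, psym, hadj', ip_comm (A (B v)), ip_comm u, ← ip_comm (A (B v)),
      hadj', ip_comm (B v)]
  have hpos : ∀ m : ℕ, 0 ≤ tr μ r (T2 ^ (2 * m)) := fun m => tr_mul_two_nonneg μ r T2sym m
  -- contraction
  set q : ℝ := 1 - (K * L)⁻¹ with hq
  have hKL : 1 ≤ K * L := by nlinarith
  have hq0 : 0 ≤ q := by
    rw [hq, sub_nonneg]
    exact inv_le_one_of_one_le₀ hKL
  have hq1 : q < 1 := by
    rw [hq]
    have : 0 < (K * L)⁻¹ := by positivity
    linarith
  have contr : ∀ u : V X, proj E u = u → ip (T1 u) (T1 u) ≤ q * ip u u := by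
    intro u hu
    have h1 : T1 u = u - k • A (B u) := by
      change proj E u - k • A (B u) = _
      rw [hu]
    have h2 : ip (T1 u) (T1 u) = ip u u - 2 * k * ip (B u) (B u) +
        k ^ 2 * ip (A (B u)) (A (B u)) := by
      rw [h1, ip_sub_self, ip_smul_right, ip_smul_left, ip_smul_right, ip_comm u (A (B u)),
        hadj']
      ring
    have h3 : ip (A (B u)) (A (B u)) ≤ K * ip (B u) (B u) := hK _
    have h4 : ip u u ≤ L * ip (B u) (B u) := by
      have h5 : ip u u = ip (C u) (B u) := by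
        rw [← hadj']
        have : A (C u) = proj E u := congrArg (fun T => T u) hAC
        rw [this, hu]
      have h6 := ip_cs (C u) (B u)
      rw [← h5] at h6
      have h7 := hL u
      have h8 := ip_self_nonneg (B u)
      have h9 := ip_self_nonneg u
      rcases h9.eq_or_lt with h0 | h0
      · rw [← h0]; positivity
      · have h10 : ip u u ^ 2 ≤ (L * ip u u) * ip (B u) (B u) :=
          h6.trans (mul_le_mul_of_nonneg_right h7 h8)
        have h11 : ip u u * ip u u ≤ ip u u * (L * ip (B u) (B u)) := by nlinarith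
        exact le_of_mul_le_mul_left h11 h0
    have hkK : k * K = 1 := by rw [hk]; field_simp
    have h5 : ip (T1 u) (T1 u) ≤ ip u u - k * ip (B u) (B u) := by
      rw [h2]
      have : k ^ 2 * ip (A (B u)) (A (B u)) ≤ k ^ 2 * (K * ip (B u) (B u)) :=
        mul_le_mul_of_nonneg_left h3 (sq_nonneg _)
      have h6 : k ^ 2 * (K * ip (B u) (B u)) = k * ip (B u) (B u) := by
        calc k ^ 2 * (K * ip (B u) (B u)) = k * (k * K) * ip (B u) (B u) := by ring
          _ = _ := by rw [hkK, mul_one]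
      linarith
    have h6 : (K * L)⁻¹ * ip u u ≤ k * ip (B u) (B u) := by
      have : (K * L)⁻¹ * ip u u ≤ (K * L)⁻¹ * (L * ip (B u) (B u)) :=
        mul_le_mul_of_nonneg_left h4 (by positivity)
      refine this.trans (le_of_eq ?_)
      rw [hk]
      field_simp
    rw [hq]
    linarith
  have T1E : ∀ u : V X, proj E (T1 u) = T1 u := by
    intro u
    have : PE * T1 = T1 := ring_id3 k PE a b e1 e5
    exact congrArg (fun T => T u) this
  have T1pow : ∀ (m : ℕ) (u : V X), proj E u = u →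
      ip ((T1 ^ m) u) ((T1 ^ m) u) ≤ q ^ m * ip u u ∧ proj E ((T1 ^ m) u) = (T1 ^ m) u := by
    intro m u hu
    induction m with
    | zero => simp [hu]
    | succ m ih =>
      rw [pow_succ', Module.End.mul_apply]
      refine ⟨(contr _ ih.2).trans ?_, T1E _⟩
      rw [pow_succ']
      have := mul_le_mul_of_nonneg_left ih.1 hq0
      linarith
  have hpow : ∀ (n : ℕ) (u v : V X), ip ((T1 ^ n) u) v = ip u ((T1 ^ n) v) := by
    intro n
    induction n with
    | zero => intro u v; simp
    | succ n ih =>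
      intro u v
      rw [pow_succ, Module.End.mul_apply, ih, T1sym, ← Module.End.mul_apply, ← pow_succ',
        pow_succ]
  have hup : ∀ m : ℕ, tr μ r (T1 ^ (2 * (m + 1))) ≤ r * q ^ (m + 1) := by
    intro m
    unfold tr
    have hint : ∀ i ∈ range r, ∫ x, (T1 ^ (2 * (m + 1))) (dl (x, i)) (x, i) ∂μ ≤ q ^ (m + 1) := by
      intro i _
      have hpt : ∀ x, (T1 ^ (2 * (m + 1))) (dl (x, i)) (x, i) ≤ q ^ (m + 1) := by
        intro x
        rw [← ip_dl_left, two_mul, pow_add, Module.End.mul_apply, ← hpow]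
        by_cases hx : (x, i) ∈ E
        · have := (T1pow (m + 1) (dl (x, i)) (proj_dl_mem hx)).1
          rw [ip_dl_left (x, i) (dl (x, i))] at this
          simpa [dl] using this
        · have h0 : T1 (dl (x, i)) = 0 := by
            have : T1 * PE = T1 := ring_id4 k PE a b e3 e5
            have h2 := congrArg (fun T => T (dl (x, i))) this
            have h3 : T1 (proj E (dl (x, i))) = T1 (dl (x, i)) := h2
            rw [← h3, proj_dl_not_mem hx, map_zero]
          rw [pow_succ, Module.End.mul_apply, h0, map_zero]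
          have : ip (0 : V X) 0 = 0 := by simp [ip]
          rw [this]; positivity
      have hbd : ∫ x, (T1 ^ (2 * (m + 1))) (dl (x, i)) (x, i) ∂μ ≤ ∫ _ : X, q ^ (m + 1) ∂μ := by
        apply integral_mono_of_nonneg
        · refine Filter.Eventually.of_forall fun x => ?_
          simp only [Pi.zero_apply]
          rw [← ip_dl_left, two_mul, pow_add, Module.End.mul_apply, ← hpow]
          exact ip_self_nonneg _
        · exact integrable_const _
        · exact Filter.Eventually.of_forall hpt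
      refine hbd.trans (le_of_eq ?_)
      simp
    calc _ ≤ ∑ i ∈ range r, q ^ (m + 1) := Finset.sum_le_sum hint
      _ = r * q ^ (m + 1) := by rw [Finset.sum_const, Finset.card_range, nsmul_eq_mul]
  -- conclusion
  have hfin : ∀ m : ℕ, ∑ i ∈ range r, μ.real {x | (x, i) ∈ E} -
      ∑ i ∈ range r, μ.real {x | (x, i) ∈ N} ≤ r * q ^ (m + 1) := by
    intro m
    have h1 := hdiff (2 * m + 1)
    have h2 : 2 * m + 1 + 1 = 2 * (m + 1) := by ring
    rw [h2] at h1
    have h3 := hup m
    have h4 := hpos (m + 1)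
    linarith
  have hlim : Filter.Tendsto (fun m : ℕ => (r : ℝ) * q ^ (m + 1)) Filter.atTop (nhds 0) := by
    have := (tendsto_pow_atTop_nhds_zero_of_lt_one hq0 hq1).comp (Filter.tendsto_add_atTop_nat 1)
    simpa using this.const_mul (r : ℝ)
  have := ge_of_tendsto' hlim hfin
  linarith

/-! ### The truncation -/

/-- truncated rows -/
def NK (N : Set (X × ℕ)) (s : X × ℕ → (X × ℕ →₀ ℚ)) (dec : ℕ → ((Γ × ℕ) →₀ ℚ)) (k : ℕ) :
    Set (X × ℕ) :=
  {n | n ∈ N ∧ n.2 < k ∧ ∃ m < k, ∀ (g : Γ) (i : ℕ), s n (g • n.1, i) = dec m (g, i)}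

/-- a valid combination -/
def Valid (N : Set (X × ℕ)) (s : X × ℕ → (X × ℕ →₀ ℚ)) (dec : ℕ → ((Γ × ℕ) →₀ ℚ)) (k : ℕ)
    (c : (Γ × ℕ) →₀ ℚ) (e : X × ℕ) : Prop :=
  (∀ p ∈ c.support, (p.1 • e.1, p.2) ∈ NK N s dec k) ∧
    ∀ (h : Γ) (l : ℕ), ∑ p ∈ c.support, c p * s (p.1 • e.1, p.2) (h • e.1, l) =
      open scoped Classical in if h = 1 ∧ l = e.2 then 1 else 0

/-- truncated points -/
def EK (E N : Set (X × ℕ)) (s : X × ℕ → (X × ℕ →₀ ℚ)) (dec : ℕ → ((Γ × ℕ) →₀ ℚ)) (k : ℕ) :
    Set (X × ℕ) :=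
  {e | e ∈ E ∧ e.2 < k ∧ ∃ m < k, Valid N s dec k (dec m) e}

section trunc

variable {E N : Set (X × ℕ)} {s : X × ℕ → (X × ℕ →₀ ℚ)}
  {dec : ℕ → ((Γ × ℕ) →₀ ℚ)}

lemma s_meas (hsm : ∀ (g : Γ) (i j : ℕ) (q : ℚ), MeasurableSet {x : X | s (x, j) (g • x, i) = q})
    (g : Γ) (i j : ℕ) : Measurable fun x : X => s (x, j) (g • x, i) :=
  measurable_to_countable' fun q => hsm g i j q

lemma NK_meas [Countable Γ] (hNm : ∀ i, MeasurableSet {x | (x, i) ∈ N})
    (hsm : ∀ (g : Γ) (i j : ℕ) (q : ℚ), MeasurableSet {x : X | s (x, j) (g • x, i) = q})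
    (k j : ℕ) : MeasurableSet {x | (x, j) ∈ NK N s dec k} := by
  have : {x | (x, j) ∈ NK N s dec k} = {x | (x, j) ∈ N} ∩ ({_x | j < k} ∩
      ⋃ m : ℕ, ({_x | m < k} ∩ ⋂ g : Γ, ⋂ i : ℕ,
        {x : X | s (x, j) (g • x, i) = dec m (g, i)})) := by
    ext x
    simp [NK]
    tauto
  rw [this]
  exact (hNm j).inter ((MeasurableSet.const _).inter (MeasurableSet.iUnion fun σ =>
    (MeasurableSet.const _).inter (MeasurableSet.iInter fun g => MeasurableSet.iInter fun i =>
      hsm g i j _)))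

lemma shift_meas (hact : ∀ g : Γ, Measurable fun x : X => g • x)
    (hsm : ∀ (g : Γ) (i j : ℕ) (q : ℚ), MeasurableSet {x : X | s (x, j) (g • x, i) = q})
    (g h : Γ) (i j : ℕ) : Measurable fun x : X => s (g • x, j) (h • x, i) := by
  have h1 := (s_meas hsm (h * g⁻¹) i j).comp (hact g)
  have h2 : ((fun x : X => s (x, j) ((h * g⁻¹) • x, i)) ∘ fun x => g • x) =
      fun x : X => s (g • x, j) (h • x, i) := by
    ext x
    simp only [Function.comp_apply]
    rw [mul_smul, inv_smul_smul]
  rwa [h2] at h1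

lemma Valid_meas [Countable Γ] (hact : ∀ g : Γ, Measurable fun x : X => g • x)
    (hNm : ∀ i, MeasurableSet {x | (x, i) ∈ N})
    (hsm : ∀ (g : Γ) (i j : ℕ) (q : ℚ), MeasurableSet {x : X | s (x, j) (g • x, i) = q})
    (k : ℕ) (c : (Γ × ℕ) →₀ ℚ) (i : ℕ) : MeasurableSet {x | Valid N s dec k c (x, i)} := by
  classical
  have : {x | Valid N s dec k c (x, i)} =
      (⋂ p : Γ × ℕ, ({_x | p ∉ c.support} ∪ (fun x : X => p.1 • x) ⁻¹'
        {x | (x, p.2) ∈ NK N s dec k})) ∩
      ⋂ h : Γ, ⋂ l : ℕ, {x : X | ∑ p ∈ c.support, c p * s (p.1 • x, p.2) (h • x, l) =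
        if h = 1 ∧ l = i then 1 else 0} := by
    ext x
    simp only [Valid, Set.mem_ofPred_eq, Set.mem_inter_iff, Set.mem_iInter, Set.mem_union,
      Set.mem_preimage]
    constructor
    · rintro ⟨h1, h2⟩
      refine ⟨fun p => ?_, fun h l => ?_⟩
      · by_cases hp : p ∈ c.support
        · right; exact h1 p hp
        · left; exact hp
      · rw [h2 h l]
    · rintro ⟨h1, h2⟩
      refine ⟨fun p hp => ?_, fun h l => ?_⟩
      · rcases h1 p with h | h
        · exact absurd hp h
        · exact h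
      · rw [h2 h l]
  rw [this]
  apply MeasurableSet.inter
  · exact MeasurableSet.iInter fun p => (MeasurableSet.const _).union
      ((hact p.1) (NK_meas hNm hsm k p.2))
  · apply MeasurableSet.iInter
    intro h
    apply MeasurableSet.iInter
    intro l
    have : Measurable fun x : X => ∑ p ∈ c.support, c p * s (p.1 • x, p.2) (h • x, l) :=
      Finset.measurable_sum _ fun p _ => (shift_meas hact hsm p.1 h l p.2).const_mul _
    exact this (MeasurableSet.singleton _)

lemma EK_meas [Countable Γ] (hact : ∀ g : Γ, Measurable fun x : X => g • x)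
    (hEm : ∀ i, MeasurableSet {x | (x, i) ∈ E})
    (hNm : ∀ i, MeasurableSet {x | (x, i) ∈ N})
    (hsm : ∀ (g : Γ) (i j : ℕ) (q : ℚ), MeasurableSet {x : X | s (x, j) (g • x, i) = q})
    (k j : ℕ) : MeasurableSet {x | (x, j) ∈ EK E N s dec k} := by
  have : {x | (x, j) ∈ EK E N s dec k} = {x | (x, j) ∈ E} ∩ ({_x | j < k} ∩
      ⋃ m : ℕ, ({_x | m < k} ∩ {x | Valid N s dec k (dec m) (x, j)})) := by
    ext x
    simp [EK]
    tauto
  rw [this]
  exact (hEm j).inter ((MeasurableSet.const _).inter (MeasurableSet.iUnion fun σ =>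
    (MeasurableSet.const _).inter (Valid_meas hact hNm hsm k _ j)))

omit [MeasurableSpace X] in
lemma NK_mono {k k' : ℕ} (h : k ≤ k') : NK N s dec k ⊆ NK N s dec k' := by
  rintro n ⟨h1, h2, m, h3, h4⟩
  exact ⟨h1, h2.trans_le h, m, h3.trans_le h, h4⟩

omit [MeasurableSpace X] in
lemma Valid_mono {k k' : ℕ} (h : k ≤ k') {c : (Γ × ℕ) →₀ ℚ} {e : X × ℕ}
    (hv : Valid N s dec k c e) : Valid N s dec k' c e :=
  ⟨fun p hp => NK_mono h (hv.1 p hp), hv.2⟩

omit [MeasurableSpace X] in
lemma EK_mono {k k' : ℕ} (h : k ≤ k') : EK E N s dec k ⊆ EK E N s dec k' := by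
  rintro n ⟨h1, h2, m, h3, h4⟩
  exact ⟨h1, h2.trans_le h, m, h3.trans_le h, Valid_mono h h4⟩

omit [MeasurableSpace X] in
lemma act_inj (hfree : ∀ (g : Γ) (x : X), g • x = x → g = 1) (x : X) {g h : Γ}
    (hgh : g • x = h • x) : g = h := by
  have h3 : (h⁻¹ * g) • x = x := by rw [mul_smul, hgh, inv_smul_smul]
  have h4 := hfree _ _ h3
  have := congrArg (h * ·) h4
  simpa using this

omit [MeasurableSpace X] in
lemma place_inj (hfree : ∀ (g : Γ) (x : X), g • x = x → g = 1) (x : X) :
    Function.Injective (fun p : Γ × ℕ => ((p.1 • x, p.2) : X × ℕ)) := by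
  rintro ⟨g, i⟩ ⟨h, j⟩ hgh
  simp only [Prod.mk.injEq] at hgh
  rw [act_inj hfree x hgh.1, hgh.2]

omit [MeasurableSpace X] in
/-- every point is caught by some truncation. -/
lemma exists_EK (hfree : ∀ (g : Γ) (x : X), g • x = x → g = 1)
    (hdec : Function.Surjective dec)
    (hsupp : ∀ n ∈ N, ∀ e ∈ (s n).support, ∃ g : Γ, e.1 = g • n.1)
    (hspan : ∀ e ∈ E, Finsupp.single e (1 : ℚ) ∈ Submodule.span ℚ (s '' N))
    (e : X × ℕ) (he : e ∈ E) : ∃ k, e ∈ EK E N s dec k := by
  classical
  obtain ⟨l, hl, hl2⟩ := (Finsupp.mem_span_image_iff_linearCombination ℚ).1 (hspan e he)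
  have hinj := place_inj hfree e.1
  set c : (Γ × ℕ) →₀ ℚ := Finsupp.comapDomain (fun p : Γ × ℕ => ((p.1 • e.1, p.2) : X × ℕ)) l
    hinj.injOn with hc
  have hcN : ∀ p ∈ c.support, (p.1 • e.1, p.2) ∈ N := by
    intro p hp
    apply hl
    rw [Finsupp.mem_support_iff] at hp
    rw [Finset.mem_coe, Finsupp.mem_support_iff]
    exact hp
  have hsum : ∀ (h : Γ) (i : ℕ), ∑ p ∈ c.support, c p * s (p.1 • e.1, p.2) (h • e.1, i) =
      if h = 1 ∧ i = e.2 then 1 else 0 := by
    intro h i
    have h1 : (Finsupp.linearCombination ℚ s l) (h • e.1, i) =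
        (Finsupp.single e (1 : ℚ)) (h • e.1, i) := by rw [hl2]
    rw [Finsupp.linearCombination_apply, Finsupp.sum_apply, Finsupp.sum] at h1
    have h2 : (Finsupp.single e (1 : ℚ)) (h • e.1, i) = if h = 1 ∧ i = e.2 then 1 else 0 := by
      rw [Finsupp.single_apply]
      congr 1
      rw [eq_iff_iff]
      constructor
      · intro h3
        rw [Prod.ext_iff] at h3
        exact ⟨hfree _ _ h3.1.symm, h3.2.symm⟩
      · rintro ⟨rfl, rfl⟩
        rw [one_smul]
    rw [← h2, ← h1]
    have h3 : ∑ p ∈ c.support, c p * s (p.1 • e.1, p.2) (h • e.1, i) =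
        ∑ n ∈ c.support.image (fun p : Γ × ℕ => ((p.1 • e.1, p.2) : X × ℕ)),
          l n * s n (h • e.1, i) := by
      rw [Finset.sum_image (fun a _ b _ hab => hinj hab)]
      rfl
    rw [h3]
    apply Finset.sum_subset
    · intro n hn
      rw [Finset.mem_image] at hn
      obtain ⟨p, hp, rfl⟩ := hn
      rw [Finsupp.mem_support_iff] at hp ⊢
      exact hp
    · intro n hn hn2
      by_contra hne
      apply hn2
      have h4 : s n (h • e.1, i) ≠ 0 := right_ne_zero_of_mul hne
      obtain ⟨g, hg⟩ := hsupp n (hl hn) _ (Finsupp.mem_support_iff.2 h4)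
      have h5 : n = ((g⁻¹ * h) • e.1, n.2) := by
        apply Prod.ext
        · simp only at hg ⊢
          rw [mul_smul, hg, inv_smul_smul]
        · rfl
      rw [Finset.mem_image]
      refine ⟨(g⁻¹ * h, n.2), ?_, h5.symm⟩
      rw [Finsupp.mem_support_iff, hc, Finsupp.comapDomain_apply]
      rw [← h5]
      exact Finsupp.mem_support_iff.1 hn
  have hpat : ∀ n ∈ N, ∃ m, ∀ (g : Γ) (i : ℕ), s n (g • n.1, i) = dec m (g, i) := by
    intro n _
    obtain ⟨m, hm⟩ := hdec (Finsupp.comapDomain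
      (fun p : Γ × ℕ => ((p.1 • n.1, p.2) : X × ℕ)) (s n) (place_inj hfree n.1).injOn)
    refine ⟨m, fun g i => ?_⟩
    rw [hm, Finsupp.comapDomain_apply]
  have hk : ∀ p ∈ c.support, ∃ k, (p.1 • e.1, p.2) ∈ NK N s dec k := by
    intro p hp
    obtain ⟨m, hm⟩ := hpat _ (hcN p hp)
    exact ⟨max (p.2 + 1) (m + 1), hcN p hp, lt_of_lt_of_le (Nat.lt_succ_self _) (le_max_left _ _),
      m, lt_of_lt_of_le (Nat.lt_succ_self _) (le_max_right _ _), hm⟩
  choose! kf hkf using hk
  obtain ⟨m, hm⟩ := hdec c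
  set k := max (max (e.2 + 1) (m + 1)) (c.support.sup kf) with hkdef
  refine ⟨k, he, ?_, m, ?_, ?_⟩
  · exact lt_of_lt_of_le (Nat.lt_succ_self _) ((le_max_left _ _).trans (le_max_left _ _))
  · exact lt_of_lt_of_le (Nat.lt_succ_self _) ((le_max_right _ _).trans (le_max_left _ _))
  · rw [hm]
    refine ⟨fun p hp => ?_, fun h l => ?_⟩
    · exact NK_mono ((Finset.le_sup hp).trans (le_max_right _ _)) (hkf p hp)
    · rw [hsum h l]

/-- the core inequality for truncated families -/
lemma core_trunc [Countable Γ] (hfree : ∀ (g : Γ) (x : X), g • x = x → g = 1)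
    (μ : Measure X) [IsProbabilityMeasure μ]
    (hmp : ∀ g : Γ, MeasurePreserving (fun x : X => g • x) μ μ)
    (hEm : ∀ i, MeasurableSet {x | (x, i) ∈ E}) (hNm : ∀ i, MeasurableSet {x | (x, i) ∈ N})
    (hsupp : ∀ n ∈ N, ∀ e ∈ (s n).support, ∃ g : Γ, e.1 = g • n.1)
    (hsm : ∀ (g : Γ) (i j : ℕ) (q : ℚ), MeasurableSet {x : X | s (x, j) (g • x, i) = q})
    (k : ℕ) :
    ∑ i ∈ range k, μ.real {x | (x, i) ∈ EK E N s dec k} ≤
      ∑ i ∈ range k, μ.real {x | (x, i) ∈ NK N s dec k} := by
  classical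
  have hact : ∀ g : Γ, Measurable fun x : X => g • x := fun g => (hmp g).measurable
  have hEKm := EK_meas (dec := dec) hact hEm hNm hsm k
  have hNKm := NK_meas (dec := dec) hNm hsm k
  -- group elements occurring
  set F : Finset Γ := (range k).biUnion fun m => (dec m).support.image Prod.fst with hF
  set CC : ℝ := ∑ m ∈ range k, ∑ p ∈ (dec m).support, |((dec m p : ℚ) : ℝ)| with hCC
  have hCC0 : 0 ≤ CC := Finset.sum_nonneg fun m _ => Finset.sum_nonneg fun p _ => abs_nonneg _
  have hbound : ∀ m < k, ∀ p, |((dec m p : ℚ) : ℝ)| ≤ CC := by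
    intro m hm p
    by_cases hp : p ∈ (dec m).support
    · calc |((dec m p : ℚ) : ℝ)| ≤ ∑ p ∈ (dec m).support, |((dec m p : ℚ) : ℝ)| :=
            Finset.single_le_sum (f := fun p => |((dec m p : ℚ) : ℝ)|)
              (fun p _ => abs_nonneg _) hp
        _ ≤ CC := Finset.single_le_sum
            (f := fun m => ∑ p ∈ (dec m).support, |((dec m p : ℚ) : ℝ)|)
            (fun m _ => Finset.sum_nonneg fun p _ => abs_nonneg _) (Finset.mem_range.2 hm)
    · rw [Finsupp.notMem_support_iff.1 hp]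
      simpa using hCC0
  have hmemF : ∀ m < k, ∀ (g : Γ) (i : ℕ), dec m (g, i) ≠ 0 → g ∈ F := by
    intro m hm g i hne
    rw [hF, Finset.mem_biUnion]
    exact ⟨m, Finset.mem_range.2 hm, Finset.mem_image.2 ⟨(g, i), Finsupp.mem_support_iff.2 hne, rfl⟩⟩
  -- the operator A
  let tA : X × ℕ → X × ℕ → ℝ := fun n e =>
    if n ∈ NK N s dec k ∧ e ∈ EK E N s dec k then ((s n e : ℚ) : ℝ) else 0
  have tA_ne : ∀ n e, tA n e ≠ 0 → n ∈ NK N s dec k ∧ e ∈ EK E N s dec k ∧ s n e ≠ 0 := by
    intro n e hne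
    simp only [tA] at hne
    split_ifs at hne with h
    · exact ⟨h.1, h.2, fun h0 => hne (by rw [h0]; simp)⟩
    · exact absurd rfl hne
  have htA : ∀ n e, tA n e ≠ 0 → n.2 < k ∧ e.2 < k ∧ ∃ g ∈ F, e.1 = g • n.1 := by
    intro n e hne
    obtain ⟨h1, h2, h3⟩ := tA_ne n e hne
    refine ⟨h1.2.1, h2.2.1, ?_⟩
    obtain ⟨g, hg⟩ := hsupp n h1.1 e (Finsupp.mem_support_iff.2 h3)
    obtain ⟨_, _, m, hm, hpat⟩ := h1
    refine ⟨g, hmemF m hm g e.2 ?_, hg⟩
    rw [← hpat, ← hg]
    exact h3
  have htAb : ∀ n e, |tA n e| ≤ CC := by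
    intro n e
    by_cases hne : tA n e = 0
    · rw [hne, abs_zero]; exact hCC0
    · obtain ⟨h1, h2, h3⟩ := tA_ne n e hne
      obtain ⟨g, hg⟩ := hsupp n h1.1 e (Finsupp.mem_support_iff.2 h3)
      have h4 : tA n e = ((s n e : ℚ) : ℝ) := if_pos ⟨h1, h2⟩
      obtain ⟨_, _, m, hm, hpat⟩ := h1
      rw [h4]
      have h5 : s n e = dec m (g, e.2) := by
        rw [← hpat, ← hg]
      rw [h5]
      exact hbound m hm _
  have htAm : ∀ (g : Γ) (i j : ℕ), Measurable fun x : X => tA (x, i) (g • x, j) := by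
    intro g i j
    have h1 : MeasurableSet ({x : X | (x, i) ∈ NK N s dec k} ∩
        (fun x : X => g • x) ⁻¹' {x | (x, j) ∈ EK E N s dec k}) :=
      (hNKm i).inter (hact g (hEKm j))
    have h2 : Measurable fun x : X => ((s (x, i) (g • x, j) : ℚ) : ℝ) :=
      (measurable_of_countable (fun q : ℚ => (q : ℝ))).comp (s_meas hsm g j i)
    exact Measurable.ite h1 h2 measurable_const
  -- the operator C
  have hex : ∀ e, ∃ m, (m < k ∧ Valid N s dec k (dec m) e) ∨ e ∉ EK E N s dec k := by
    intro e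
    by_cases he : e ∈ EK E N s dec k
    · obtain ⟨_, _, m, hm, hv⟩ := he
      exact ⟨m, Or.inl ⟨hm, hv⟩⟩
    · exact ⟨0, Or.inr he⟩
  let cf : X × ℕ → ((Γ × ℕ) →₀ ℚ) := fun e => dec (Nat.find (hex e))
  have hcf : ∀ e ∈ EK E N s dec k, Valid N s dec k (cf e) e ∧ ∃ m < k, cf e = dec m := by
    intro e he
    rcases Nat.find_spec (hex e) with h | h
    · exact ⟨h.2, _, h.1, rfl⟩
    · exact absurd he h
  let tC : X × ℕ → X × ℕ → ℝ := fun e n =>
    if e ∈ EK E N s dec k then
      (((cf e).mapDomain (fun p : Γ × ℕ => ((p.1 • e.1, p.2) : X × ℕ)) n : ℚ) : ℝ) else 0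
  have tC_app : ∀ e ∈ EK E N s dec k, ∀ p : Γ × ℕ,
      tC e (p.1 • e.1, p.2) = ((cf e p : ℚ) : ℝ) := by
    intro e he p
    simp only [tC]
    rw [if_pos he]
    congr 1
    exact Finsupp.mapDomain_apply (place_inj hfree e.1) _ p
  have tC_ne : ∀ e n, tC e n ≠ 0 → e ∈ EK E N s dec k ∧ ∃ p : Γ × ℕ, n = (p.1 • e.1, p.2) ∧
      p ∈ (cf e).support := by
    intro e n hne
    by_cases he : e ∈ EK E N s dec k
    · refine ⟨he, ?_⟩
      by_cases hr : n ∈ Set.range (fun p : Γ × ℕ => ((p.1 • e.1, p.2) : X × ℕ))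
      · obtain ⟨p, rfl⟩ := hr
        refine ⟨p, rfl, ?_⟩
        rw [Finsupp.mem_support_iff]
        intro h0
        apply hne
        rw [tC_app e he p, h0, Rat.cast_zero]
      · exfalso
        apply hne
        simp only [tC]
        rw [if_pos he, Finsupp.mapDomain_of_notMem_range _ _ hr, Rat.cast_zero]
    · exact absurd (if_neg he) hne
  have htC : ∀ e n, tC e n ≠ 0 → e.2 < k ∧ n.2 < k ∧ ∃ g ∈ F, n.1 = g • e.1 := by
    intro e n hne
    obtain ⟨he, p, rfl, hp⟩ := tC_ne e n hne
    obtain ⟨hv, m, hm, hcm⟩ := hcf e he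
    refine ⟨he.2.1, (hv.1 p hp).2.1, p.1, hmemF m hm p.1 p.2 ?_, rfl⟩
    rw [← hcm]
    exact Finsupp.mem_support_iff.1 hp
  have htCb : ∀ e n, |tC e n| ≤ CC := by
    intro e n
    by_cases hne : tC e n = 0
    · rw [hne, abs_zero]; exact hCC0
    · obtain ⟨he, p, rfl, hp⟩ := tC_ne e n hne
      obtain ⟨hv, m, hm, hcm⟩ := hcf e he
      rw [tC_app e he, hcm]
      exact hbound m hm p
  have htCm : ∀ (g : Γ) (i j : ℕ), Measurable fun x : X => tC (x, i) (g • x, j) := by
    intro g i j
    have h1 : (fun x : X => tC (x, i) (g • x, j)) = fun x : X =>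
        if (x, i) ∈ EK E N s dec k then ((dec (Nat.find (hex (x, i))) (g, j) : ℚ) : ℝ) else 0 := by
      ext x
      by_cases hx : (x, i) ∈ EK E N s dec k
      · rw [if_pos hx]
        exact tC_app (x, i) hx (g, j)
      · rw [if_neg hx]
        exact if_neg hx
    rw [h1]
    apply Measurable.ite (hEKm i) _ measurable_const
    have h2 : Measurable fun x : X => ((dec (Nat.find (hex (x, i))) (g, j) : ℚ) : ℝ) :=
      Measurable.find (α := X) (β := ℝ)
      (f := fun m _ => ((dec m (g, j) : ℚ) : ℝ))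
      (p := fun m x => (m < k ∧ Valid N s dec k (dec m) (x, i)) ∨ (x, i) ∉ EK E N s dec k)
      (fun m => measurable_const)
      (fun m => by
        have : {x : X | (m < k ∧ Valid N s dec k (dec m) (x, i)) ∨ (x, i) ∉ EK E N s dec k} =
            ({_x | m < k} ∩ {x | Valid N s dec k (dec m) (x, i)}) ∪
              {x | (x, i) ∈ EK E N s dec k}ᶜ := by
          ext x
          simp
        rw [this]
        exact ((MeasurableSet.const _).inter (Valid_meas hact hNm hsm k _ i)).union (hEKm i).compl)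
      (fun x => hex (x, i))
    exact h2
  -- apply the core theorem
  have hniceA := nice_ofFun hfree F k CC tA htA htAb htAm
  have hniceC := nice_ofFun hfree F k CC tC htC htCb htCm
  have hAapp := ofFun_apply hfree F k tA htA
  have hCapp := ofFun_apply hfree F k tC htC
  apply core hfree μ hmp k (EK E N s dec k) (NK N s dec k) (fun e he => he.2.1)
    (fun e he => he.2.1) hEKm hNKm (ofFun F k tA) (ofFun F k tC) ⟨F, CC, hCC0, hniceA⟩
    ⟨F, CC, hCC0, hniceC⟩
  · apply lin_ext
    intro e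
    ext f
    rw [LinearMap.comp_apply, hniceC.comp_apply hfree]
    by_cases he : e ∈ EK E N s dec k
    · rw [proj_dl_mem he]
      obtain ⟨hv, m, hm, hcm⟩ := hcf e he
      have h1 : ∑ p ∈ F ×ˢ range k, ofFun F k tC (dl e) (p.1 • e.1, p.2) *
          ofFun F k tA (dl (p.1 • e.1, p.2)) f =
          ∑ p ∈ (cf e).support, ((cf e p : ℚ) : ℝ) * tA (p.1 • e.1, p.2) f := by
        have hsub : (cf e).support ⊆ F ×ˢ range k := by
          intro p hp
          rw [Finset.mem_product, Finset.mem_range]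
          refine ⟨hmemF m hm p.1 p.2 ?_, (hv.1 p hp).2.1⟩
          rw [← hcm]
          exact Finsupp.mem_support_iff.1 hp
        rw [← Finset.sum_subset hsub]
        · apply Finset.sum_congr rfl
          intro p _
          rw [hCapp, hAapp, tC_app e he]
        · intro p _ hp
          rw [hCapp, tC_app e he, Finsupp.notMem_support_iff.1 hp, Rat.cast_zero, zero_mul]
      rw [h1]
      by_cases hf : f ∈ EK E N s dec k
      · have h2 : ∀ p ∈ (cf e).support, ((cf e p : ℚ) : ℝ) * tA (p.1 • e.1, p.2) f =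
            ((cf e p * s (p.1 • e.1, p.2) f : ℚ) : ℝ) := by
          intro p hp
          have : tA (p.1 • e.1, p.2) f = ((s (p.1 • e.1, p.2) f : ℚ) : ℝ) :=
            if_pos ⟨hv.1 p hp, hf⟩
          rw [this]
          push_cast
          ring
        rw [Finset.sum_congr rfl h2, ← Rat.cast_sum]
        by_cases horb : ∃ h : Γ, f.1 = h • e.1
        · obtain ⟨h, hh⟩ := horb
          have hf2 : f = (h • e.1, f.2) := by
            rw [← hh]
          rw [hf2, hv.2 h f.2, dl, Finsupp.single_apply]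
          by_cases h1l : h = 1 ∧ f.2 = e.2
          · rw [if_pos h1l, if_pos, Rat.cast_one]
            rw [h1l.1, h1l.2, one_smul]
          · rw [if_neg h1l, if_neg, Rat.cast_zero]
            intro hcon
            apply h1l
            rw [Prod.ext_iff] at hcon
            exact ⟨hfree _ _ hcon.1.symm, hcon.2.symm⟩
        · have h3 : ∑ p ∈ (cf e).support, cf e p * s (p.1 • e.1, p.2) f = 0 := by
            apply Finset.sum_eq_zero
            intro p hp
            by_contra hcon
            have h4 : s (p.1 • e.1, p.2) f ≠ 0 := right_ne_zero_of_mul hcon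
            obtain ⟨g, hg⟩ := hsupp _ (hv.1 p hp).1 f (Finsupp.mem_support_iff.2 h4)
            apply horb
            refine ⟨g * p.1, ?_⟩
            rw [mul_smul]
            exact hg
          rw [h3, Rat.cast_zero, dl, Finsupp.single_apply, if_neg]
          intro hcon
          apply horb
          exact ⟨1, by rw [one_smul, hcon]⟩
      · have h2 : ∀ p ∈ (cf e).support, ((cf e p : ℚ) : ℝ) * tA (p.1 • e.1, p.2) f = 0 := by
          intro p _
          have : tA (p.1 • e.1, p.2) f = 0 := if_neg fun h => hf h.2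
          rw [this, mul_zero]
        rw [Finset.sum_eq_zero h2, dl, Finsupp.single_apply, if_neg]
        rintro rfl
        exact hf he
    · rw [proj_dl_not_mem he, Finset.sum_eq_zero]
      · rfl
      · intro p _
        rw [hCapp]
        have : tC e (p.1 • e.1, p.2) = 0 := if_neg he
        rw [this, zero_mul]
  · apply lin_ext
    intro n
    ext f
    rw [LinearMap.comp_apply]
    have hsym : ∀ (u : V X) (f : X × ℕ), proj (EK E N s dec k) u f =
        if f ∈ EK E N s dec k then u f else 0 := by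
      intro u f
      induction u using Finsupp.induction_linear with
      | zero => simp
      | add u v hu hv =>
        rw [map_add, Finsupp.add_apply, hu, hv, Finsupp.add_apply]
        split_ifs <;> simp
      | single a b =>
        have : (Finsupp.single a b : V X) = b • dl a := by
          rw [dl, Finsupp.smul_single, smul_eq_mul, mul_one]
        rw [this, map_smul, Finsupp.smul_apply, Finsupp.smul_apply]
        by_cases ha : a ∈ EK E N s dec k
        · rw [proj_dl_mem ha]
          by_cases hf : f ∈ EK E N s dec k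
          · rw [if_pos hf]
          · rw [if_neg hf, dl, Finsupp.single_apply, if_neg (by rintro rfl; exact hf ha)]
            simp
        · rw [proj_dl_not_mem ha]
          by_cases hf : f ∈ EK E N s dec k
          · rw [if_pos hf, dl, Finsupp.single_apply, if_neg (by rintro rfl; exact ha hf)]
            simp
          · rw [if_neg hf]; simp
    rw [hsym]
    split_ifs with hf
    · rfl
    · rw [hAapp]
      exact (if_neg fun h => hf h.2).symm
  · apply lin_ext
    intro n
    rw [LinearMap.comp_apply]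
    by_cases hn : n ∈ NK N s dec k
    · rw [proj_dl_mem hn]
    · rw [proj_dl_not_mem hn, map_zero]
      ext f
      rw [hAapp]
      exact (if_neg fun h => hn h.1).symm

end trunc

end nice

/-- **Rank lemma.** -/
theorem rank_lemma {Γ : Type*} [Group Γ] [Countable Γ] {X : Type*} [MeasurableSpace X]
    [MulAction Γ X] (hfree : ∀ (g : Γ) (x : X), g • x = x → g = 1)
    (μ : Measure X) [IsProbabilityMeasure μ]
    (hmp : ∀ g : Γ, MeasurePreserving (fun x : X => g • x) μ μ)
    (E N : Set (X × ℕ))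
    (hEm : ∀ i, MeasurableSet {x | (x, i) ∈ E}) (hNm : ∀ i, MeasurableSet {x | (x, i) ∈ N})
    (s : X × ℕ → (X × ℕ →₀ ℚ))
    (hsupp : ∀ n ∈ N, ∀ e ∈ (s n).support, ∃ g : Γ, e.1 = g • n.1)
    (hsm : ∀ (g : Γ) (i j : ℕ) (q : ℚ), MeasurableSet {x : X | s (x, j) (g • x, i) = q})
    (hspan : ∀ e ∈ E, Finsupp.single e (1 : ℚ) ∈ Submodule.span ℚ (s '' N)) :
    ∑' i, μ {x | (x, i) ∈ E} ≤ ∑' i, μ {x | (x, i) ∈ N} := by
  classical
  have : Nonempty ((Γ × ℕ) →₀ ℚ) := ⟨0⟩
  obtain ⟨dec, hdec⟩ := exists_surjective_nat ((Γ × ℕ) →₀ ℚ)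
  have hact : ∀ g : Γ, Measurable fun x : X => g • x := fun g => (hmp g).measurable
  rw [ENNReal.tsum_eq_iSup_nat]
  apply iSup_le
  intro m
  have hlim : Filter.Tendsto (fun k : ℕ => ∑ i ∈ range m, μ {x | (x, i) ∈ EK E N s dec k})
      Filter.atTop (nhds (∑ i ∈ range m, μ {x | (x, i) ∈ E})) := by
    apply tendsto_finsetSum
    intro i _
    have h1 : {x | (x, i) ∈ E} = ⋃ k, {x | (x, i) ∈ EK E N s dec k} := by
      ext x
      simp only [Set.mem_ofPred_eq, Set.mem_iUnion]
      constructor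
      · intro hx
        exact exists_EK hfree hdec hsupp hspan _ hx
      · rintro ⟨k, hk⟩
        exact hk.1
    rw [h1]
    apply tendsto_measure_iUnion_atTop
    intro k k' hkk x hx
    exact EK_mono hkk hx
  apply le_of_tendsto hlim
  filter_upwards [Filter.eventually_ge_atTop m] with k hk
  have h1 := core_trunc (dec := dec) hfree μ hmp hEm hNm hsupp hsm k
  have h2 : ∀ S : Set (X × ℕ), ∑ i ∈ range k, μ {x | (x, i) ∈ S} =
      ENNReal.ofReal (∑ i ∈ range k, μ.real {x | (x, i) ∈ S}) := by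
    intro S
    rw [ENNReal.ofReal_sum_of_nonneg (fun i _ => measureReal_nonneg)]
    apply Finset.sum_congr rfl
    intro i _
    rw [ofReal_measureReal]
  calc ∑ i ∈ range m, μ {x | (x, i) ∈ EK E N s dec k}
      ≤ ∑ i ∈ range k, μ {x | (x, i) ∈ EK E N s dec k} :=
        Finset.sum_le_sum_of_subset (Finset.range_mono hk)
    _ ≤ ∑ i ∈ range k, μ {x | (x, i) ∈ NK N s dec k} := by
        rw [h2, h2]
        exact ENNReal.ofReal_le_ofReal h1
    _ ≤ ∑ i ∈ range k, μ {x | (x, i) ∈ N} :=
        Finset.sum_le_sum fun i _ => measure_mono fun x hx => hx.1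
    _ ≤ ∑' i, μ {x | (x, i) ∈ N} := ENNReal.sum_le_tsum _

end Crest.Agent.S0291_RL
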