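import Mathlib
import Crest.Agent.FP_Ops
import Crest.Agent.S0291_RL

/-!
# Task FP-E: the Euler characteristic inequality (uses the rank lemma `S0291_RL.lean`)

Let `(E, r, F)` be a complex, `N, s` rows with `Gen`.  `eu_D r n p`: the class of `p` is at distance
at most `n` from the base.  An end `q = (x, (i, b))` of an edge is *descending* (`eu_Desc`) if, for
some `n`, the other end of `(x, i)` is at distance at most `n` but `q` is not.
Label of an end: `eu_lab (x, (i, b)) = f x + code (i, b)`, injective on orbits.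

`eu_Att` = descending ends whose label is minimal among the descending ends of their class;
`eu_AttN n` = descending ends with label `< label q' + 1/(n+1)` for all descending ends `q'` of their
class.
(a) `AttN n ↓ Att`, so `smeas (AttN n) → smeas Att`.
(b) `smeas Att ≤ Vm`, (c) `Vm ≤ smeas Att`: mass transport.
(d) Rank lemma with rows: `δ_{edge q}`, `q ∈ AttN n`; cell boundaries; `s`.
(e) `bb_ineq`: `q ↦ edge q` is injective on `Att` with values in the edges that are not base-base.
-/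

set_option autoImplicit false
set_option linter.unusedSectionVars false
set_option linter.unusedVariables false

open MeasureTheory
open scoped ENNReal

namespace Crest.Agent.FP

/-! ### the rank lemma for a countable index type -/

section rank

variable {Γ X : Type} [Group Γ] [Countable Γ] [MulAction Γ X] [MeasurableSpace X]

theorem eu_rank (hfree : ∀ (g : Γ) (x : X), g • x = x → g = 1)
    (μ : Measure X) [IsProbabilityMeasure μ]
    (hmp : ∀ g : Γ, MeasurePreserving (fun x : X => g • x) μ μ) {κ : Type} [Countable κ]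
    (E : Set (X × ℕ)) (N : Set (X × κ)) (hE : MSet E) (hN : MSet N)
    (s : X × κ → (X × ℕ →₀ ℚ))
    (hsupp : ∀ n ∈ N, ∀ e ∈ (s n).support, ∃ g : Γ, e.1 = g • n.1)
    (hsm : ∀ (g : Γ) (i : ℕ) (k : κ) (q : ℚ),
      MeasurableSet {x : X | (x, k) ∈ N ∧ s (x, k) (g • x, i) = q})
    (hspan : ∀ e ∈ E, Finsupp.single e (1 : ℚ) ∈ Submodule.span ℚ (s '' N)) :
    smeas μ E ≤ smeas μ N := by
  classical
  obtain ⟨c, hc⟩ := exists_injective_nat κ
  -- the encoded family
  let N' : Set (X × ℕ) := {n | ∃ k, c k = n.2 ∧ (n.1, k) ∈ N}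
  let s' : X × ℕ → (X × ℕ →₀ ℚ) := fun n =>
    if h : ∃ k, c k = n.2 ∧ (n.1, k) ∈ N then s (n.1, h.choose) else 0
  have hs' : ∀ (x : X) (k : κ), (x, k) ∈ N → s' (x, c k) = s (x, k) := by
    intro x k hk
    have hex : ∃ k', c k' = (x, c k).2 ∧ ((x, c k).1, k') ∈ N := ⟨k, rfl, hk⟩
    have h1 : s' (x, c k) = s (x, hex.choose) := dif_pos hex
    rw [h1]
    have h2 : hex.choose = k := hc hex.choose_spec.1
    rw [h2]
  have hmem : ∀ (x : X) (k : κ), (x, c k) ∈ N' ↔ (x, k) ∈ N := by
    intro x k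
    constructor
    · rintro ⟨k', hk', h⟩
      have := hc hk'
      subst this
      exact h
    · intro h
      exact ⟨k, rfl, h⟩
  have hN'm : ∀ i, MeasurableSet {x | (x, i) ∈ N'} := by
    intro i
    by_cases hi : ∃ k, c k = i
    · obtain ⟨k, rfl⟩ := hi
      simpa only [hmem] using hN k
    · convert MeasurableSet.empty (α := X)
      ext x
      simp only [Set.mem_ofPred_eq, Set.mem_empty_iff_false, iff_false]
      rintro ⟨k, hk, _⟩
      exact hi ⟨k, hk⟩
  have key := S0291_RL.rank_lemma hfree μ hmp E N' hE hN'm s' (by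
    rintro ⟨x, i⟩ ⟨k, hk, hn⟩ e he
    simp only at hk hn
    subst hk
    rw [hs' x k hn] at he
    exact hsupp _ hn e he) (by
    intro g i j q
    by_cases hi : ∃ k, c k = j
    · obtain ⟨k, rfl⟩ := hi
      have : {x : X | s' (x, c k) (g • x, i) = q} =
          {x : X | (x, k) ∈ N ∧ s (x, k) (g • x, i) = q} ∪
          ({x : X | (x, k) ∈ N}ᶜ ∩ {_x : X | (0 : ℚ) = q}) := by
        ext x
        simp only [Set.mem_ofPred_eq, Set.mem_union, Set.mem_inter_iff, Set.mem_compl_iff]
        by_cases hx : (x, k) ∈ N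
        · rw [hs' x k hx]; simp [hx]
        · have h0 : s' (x, c k) = 0 := by
            apply dif_neg
            rintro ⟨k', hk', h⟩
            have := hc hk'
            subst this
            exact hx h
          rw [h0]; simp [hx]
      rw [this]
      exact (hsm g i k q).union ((hN k).compl.inter (MeasurableSet.const _))
    · have : {x : X | s' (x, j) (g • x, i) = q} = {_x : X | (0 : ℚ) = q} := by
        ext x
        have h0 : s' (x, j) = 0 := by
          apply dif_neg
          rintro ⟨k', hk', h⟩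
          exact hi ⟨k', hk'⟩
        simp only [Set.mem_ofPred_eq]
        rw [h0]; rfl
      rw [this]
      exact MeasurableSet.const _) (by
    intro e he
    refine Submodule.span_mono ?_ (hspan e he)
    rintro _ ⟨⟨x, k⟩, hn, rfl⟩
    exact ⟨(x, c k), (hmem x k).2 hn, hs' x k hn⟩)
  refine key.trans ?_
  unfold smeas
  have h1 : ∑' k, μ {x | (x, k) ∈ N} = ∑' k, μ {x | (x, c k) ∈ N'} := by
    congr 1
    ext k
    simp only [hmem]
  rw [h1]
  refine le_of_eq ((Function.Injective.tsum_eq hc (f := fun i => μ {x | (x, i) ∈ N'}) ?_).symm)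
  intro i hi
  by_contra hcon
  apply hi
  have : {x | (x, i) ∈ N'} = ∅ := by
    ext x
    simp only [Set.mem_ofPred_eq, Set.mem_empty_iff_false, iff_false]
    rintro ⟨k, hk, _⟩
    exact hcon ⟨k, hk⟩
  change μ {x | (x, i) ∈ N'} = 0
  rw [this]
  exact measure_empty

end rank

section reach

variable {Γ X : Type} [Group Γ] [Countable Γ] [MulAction Γ X] [MeasurableSpace X]
  {D : ℕ} [NeZero D] {G : PolyData Γ D} {μ : Measure X} {f : X → ℝ}
  {E F N : Set (X × ℕ)} {r : Pt X → Pt X → Prop} {s : X × ℕ → (X × ℕ →₀ ℚ)}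

theorem eu_loc (G : PolyData Γ D) (p : Pt X) : ∃ g : Γ, loc G p = g • p.1 := by
  rcases p with ⟨x, _ | ⟨i, _ | _⟩⟩
  · exact ⟨1, (one_smul _ _).symm⟩
  · exact ⟨1, (one_smul _ _).symm⟩
  · exact ⟨G.z, rfl⟩

theorem eu_mrel (hK : IsPre G μ E r) : MRel Γ r := by
  refine ⟨fun p q h => ?_, fun g k k' => hK.measr g k k'⟩
  obtain ⟨a, _, h⟩ := hK.rloc p q h
  obtain ⟨g, hg⟩ := eu_loc G p
  obtain ⟨g', hg'⟩ := eu_loc G q
  refine ⟨g'⁻¹ * (a * g), ?_⟩
  rw [mul_smul, mul_smul, ← hg, ← h, hg', inv_smul_smul]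

theorem eu_reach_left (hK : IsPre G μ E r) {n : ℕ} {p p' q : Pt X} (hp : r p' p)
    (h : Reach E r n p q) : Reach E r n p' q := by
  induction n generalizing q with
  | zero => exact hK.trans _ _ _ hp h
  | succ n ih =>
    obtain ⟨x, i, b, he, h1, h2⟩ := h
    exact ⟨x, i, b, he, ih h1, h2⟩

theorem eu_reach_head (hK : IsPre G μ E r) {n : ℕ} {p q : Pt X} (h : Reach E r (n + 1) p q) :
    ∃ x i b, (x, i) ∈ E ∧ r p (x, some (i, b)) ∧ Reach E r n (x, some (i, !b)) q := by
  induction n generalizing q with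
  | zero => exact h
  | succ n ih =>
    obtain ⟨x, i, b, he, h1, h2⟩ := h
    obtain ⟨x', i', b', he', h3, h4⟩ := ih h1
    exact ⟨x', i', b', he', h3, x, i, b, he, h4, h2⟩

/-- flipping an end -/
def eu_Flip (E : Set (X × ℕ)) (p q : Pt X) : Prop :=
  ∃ x i b, (x, i) ∈ E ∧ p = (x, some (i, b)) ∧ q = (x, some (i, !b))

theorem eu_flip_mrel (hfree : ∀ (g : Γ) (x : X), g • x = x → g = 1) (hE : MSet E) :
    MRel Γ (eu_Flip E) := by
  refine ⟨?_, fun g k k' => ?_⟩
  · rintro _ _ ⟨x, i, b, _, rfl, rfl⟩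
    exact ⟨1, (one_smul _ _).symm⟩
  · by_cases h : g = 1 ∧ ∃ i b, k = some (i, b) ∧ k' = some (i, !b)
    · obtain ⟨rfl, i, b, rfl, rfl⟩ := h
      have : {x : X | eu_Flip E (x, some (i, b)) ((1 : Γ) • x, some (i, !b))} =
          {x | (x, i) ∈ E} := by
        ext x
        simp only [Set.mem_ofPred_eq]
        constructor
        · rintro ⟨x', i', b', he, h1, h2⟩
          simp only [Prod.mk.injEq, Option.some.injEq] at h1
          obtain ⟨rfl, rfl, rfl⟩ := h1
          exact he
        · intro he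
          exact ⟨x, i, b, he, rfl, by rw [one_smul]⟩
      rw [this]
      exact hE i
    · convert MeasurableSet.empty (α := X)
      ext x
      simp only [Set.mem_ofPred_eq, Set.mem_empty_iff_false, iff_false]
      rintro ⟨x', i', b', he, h1, h2⟩
      simp only [Prod.mk.injEq] at h1 h2
      obtain ⟨rfl, rfl⟩ := h1
      obtain ⟨h2, rfl⟩ := h2
      exact h ⟨hfree _ _ h2, i', b', rfl, rfl⟩

theorem eu_reach_mrel (hfree : ∀ (g : Γ) (x : X), g • x = x → g = 1)
    (hmp : ∀ g : Γ, MeasurePreserving (fun x : X => g • x) μ μ)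
    (hK : IsPre G μ E r) (n : ℕ) : MRel Γ (Reach E r n) := by
  induction n with
  | zero => exact eu_mrel hK
  | succ n ih =>
    have h1 := (ih.comp hmp (eu_flip_mrel hfree hK.measE)).comp hmp (eu_mrel hK)
    have h2 : Reach E r (n + 1) = fun p s => ∃ q, (∃ q', Reach E r n p q' ∧ eu_Flip E q' q) ∧
        r q s := by
      ext p s
      constructor
      · rintro ⟨x, i, b, he, h1, h2⟩
        exact ⟨_, ⟨_, h1, x, i, b, he, rfl, rfl⟩, h2⟩
      · rintro ⟨_, ⟨_, h1, x, i, b, he, rfl, rfl⟩, h2⟩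
        exact ⟨x, i, b, he, h1, h2⟩
    rw [h2]
    exact h1

/-- the class of `p` is at distance at most `n` from the base -/
def eu_D (E : Set (X × ℕ)) (r : Pt X → Pt X → Prop) (n : ℕ) (p : Pt X) : Prop :=
  ∃ m ≤ n, ∃ y, Reach E r m p (y, none)

theorem eu_D_mono {n m : ℕ} (h : n ≤ m) {p : Pt X} (hp : eu_D E r n p) : eu_D E r m p := by
  obtain ⟨k, hk, y, hy⟩ := hp
  exact ⟨k, hk.trans h, y, hy⟩

theorem eu_D_congr (hK : IsPre G μ E r) {n : ℕ} {p q : Pt X} (hpq : r p q)
    (hp : eu_D E r n q) : eu_D E r n p := by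
  obtain ⟨k, hk, y, hy⟩ := hp
  exact ⟨k, hk, y, eu_reach_left hK hpq hy⟩

theorem eu_D_zero {p : Pt X} (hp : eu_D E r 0 p) : IsBase r p := by
  obtain ⟨k, hk, y, hy⟩ := hp
  obtain rfl : k = 0 := by omega
  exact ⟨y, hy⟩

theorem eu_D_base {n : ℕ} {p : Pt X} (hp : IsBase r p) : eu_D E r n p := by
  obtain ⟨y, hy⟩ := hp
  exact ⟨0, Nat.zero_le _, y, hy⟩

theorem eu_D_meas (hfree : ∀ (g : Γ) (x : X), g • x = x → g = 1)
    (hmp : ∀ g : Γ, MeasurePreserving (fun x : X => g • x) μ μ)
    (hK : IsPre G μ E r) (n : ℕ) : MSet {p | eu_D E r n p} := by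
  have h1 : ∀ m : ℕ, MSet {p : Pt X | ∃ q : Pt X, Reach E r m p q ∧ q.2 = none} := by
    intro m
    have h0 : MRel Γ (fun p q : Pt X => Reach E r m p q ∧ q.2 = none) :=
      MRel.and_right hmp (eu_reach_mrel hfree hmp hK m) (P := fun q => q.2 = none)
        (fun k => MeasurableSet.const (k = none))
    exact h0.dom
  intro k
  have h2 : {x | (x, k) ∈ {p | eu_D E r n p}} =
      ⋃ m : ℕ, ({_x | m ≤ n} ∩ {x | (x, k) ∈ {p : Pt X | ∃ q : Pt X, Reach E r m p q ∧
        q.2 = none}}) := by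
    ext x
    simp only [Set.mem_ofPred_eq, Set.mem_iUnion, Set.mem_inter_iff]
    constructor
    · rintro ⟨m, hm, y, hy⟩
      exact ⟨m, hm, _, hy, rfl⟩
    · rintro ⟨m, hm, ⟨y, _⟩, hy, rfl⟩
      exact ⟨m, hm, y, hy⟩
  rw [h2]
  exact MeasurableSet.iUnion fun m => (MeasurableSet.const _).inter (h1 m k)

/-- descending ends -/
def eu_Desc (E : Set (X × ℕ)) (r : Pt X → Pt X → Prop) : Set (X × (ℕ × Bool)) :=
  {q | (q.1, q.2.1) ∈ E ∧ ∃ n, eu_D E r n (q.1, some (q.2.1, !q.2.2)) ∧
    ¬ eu_D E r n (q.1, some q.2)}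

theorem eu_desc_nonbase {q : X × (ℕ × Bool)} (h : q ∈ eu_Desc E r) :
    ¬ IsBase r (q.1, some q.2) := by
  obtain ⟨_, n, _, h2⟩ := h
  exact fun hb => h2 (eu_D_base hb)

theorem eu_desc_meas (hfree : ∀ (g : Γ) (x : X), g • x = x → g = 1)
    (hmp : ∀ g : Γ, MeasurePreserving (fun x : X => g • x) μ μ)
    (hK : IsPre G μ E r) : MSet (eu_Desc E r) := by
  rintro ⟨i, b⟩
  have : {x | (x, (i, b)) ∈ eu_Desc E r} = {x | (x, i) ∈ E} ∩ ⋃ n : ℕ,
      ({x | (x, some (i, !b)) ∈ {p | eu_D E r n p}} \ {x | (x, some (i, b)) ∈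
        {p | eu_D E r n p}}) := by
    ext x
    simp [eu_Desc]
  rw [this]
  exact (hK.measE i).inter (MeasurableSet.iUnion fun n =>
    (eu_D_meas hfree hmp hK n _).diff (eu_D_meas hfree hmp hK n _))

/-- every nonbase active class has a descending end -/
theorem eu_exists_desc (hK : IsPre G μ E r) {p : Pt X} (hp : Act E p) (hb : ¬ IsBase r p) :
    ∃ q ∈ eu_Desc E r, r p (q.1, some q.2) := by
  classical
  have hex : ∃ n, ∃ y, Reach E r n p (y, none) := by
    obtain ⟨n, y, h⟩ := hK.conn p hp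
    exact ⟨n, y, h⟩
  have h1 := Nat.find_spec hex
  have h2 := fun m => Nat.find_min hex (m := m)
  set n := Nat.find hex with hn
  obtain ⟨y, hy⟩ := h1
  match n, hy, h2 with
  | 0, hy, _ => exact absurd ⟨y, hy⟩ hb
  | n + 1, hy, h2 =>
    obtain ⟨x, i, b, he, h3, h4⟩ := eu_reach_head hK hy
    refine ⟨(x, (i, b)), ⟨he, n, ⟨n, le_rfl, y, h4⟩, ?_⟩, h3⟩
    intro h5
    obtain ⟨m, hm, y', hy'⟩ := eu_D_congr hK h3 h5
    exact h2 m (by omega) ⟨y', hy'⟩

theorem eu_desc_not_both {x : X} {i : ℕ} {b : Bool} (h : (x, (i, b)) ∈ eu_Desc E r)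
    (h' : (x, (i, !b)) ∈ eu_Desc E r) : False := by
  obtain ⟨_, n, h1, h2⟩ := h
  obtain ⟨_, m, h3, h4⟩ := h'
  simp only [Bool.not_not] at h1 h2 h3 h4
  rcases le_total n m with hnm | hnm
  · exact h4 (eu_D_mono hnm h1)
  · exact h2 (eu_D_mono hnm h3)

/-! ### labels -/

/-- a numbering of `ℕ × Bool` -/
def eu_code (k : ℕ × Bool) : ℕ := 2 * k.1 + (if k.2 then 1 else 0)

theorem eu_code_inj {k k' : ℕ × Bool} (h : eu_code k = eu_code k') : k = k' := by
  obtain ⟨i, b⟩ := k
  obtain ⟨i', b'⟩ := k'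
  unfold eu_code at h
  cases b <;> cases b' <;> simp at h <;> first | (subst h; rfl) | omega

/-- the label of an end -/
def eu_lab (f : X → ℝ) (q : X × (ℕ × Bool)) : ℝ := f q.1 + eu_code q.2

theorem eu_lab_inj (hX : IsGoodAction G X μ f) {q q' : X × (ℕ × Bool)}
    (h : ∃ g : Γ, q'.1 = g • q.1) (he : eu_lab f q = eu_lab f q') : q = q' := by
  obtain ⟨x, k⟩ := q
  obtain ⟨x', k'⟩ := q'
  obtain ⟨g, hg⟩ := h
  simp only at hg
  subst hg
  unfold eu_lab at he
  simp only at he
  have h1 := hX.f_mem x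
  have h2 := hX.f_mem (g • x)
  have h3 : eu_code k = eu_code k' := by
    have h4 : ((eu_code k : ℤ) : ℝ) - ((eu_code k' : ℤ) : ℝ) = f (g • x) - f x := by
      push_cast; linarith
    have h5 : ((eu_code k : ℤ) : ℝ) - ((eu_code k' : ℤ) : ℝ) < 1 := by
      rw [h4]; linarith [h1.1, h2.2]
    have h6 : (-1 : ℝ) < ((eu_code k : ℤ) : ℝ) - ((eu_code k' : ℤ) : ℝ) := by
      rw [h4]; linarith [h1.2, h2.1]
    have h7 : (eu_code k : ℤ) - (eu_code k' : ℤ) < 1 := by exact_mod_cast h5
    have h8 : (-1 : ℤ) < (eu_code k : ℤ) - (eu_code k' : ℤ) := by exact_mod_cast h6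
    omega
  have h4 := eu_code_inj h3
  subst h4
  have h5 : f (g • x) = f x := by linarith
  rw [hX.f_inj g x h5]

theorem eu_lab_meas (hX : IsGoodAction G X μ f) (k : ℕ × Bool) :
    Measurable fun x => eu_lab f (x, k) := by
  have := hX.measf.add_const ((eu_code k : ℕ) : ℝ)
  exact this

theorem eu_lab_nonneg (hX : IsGoodAction G X μ f) (q : X × (ℕ × Bool)) : 0 ≤ eu_lab f q := by
  unfold eu_lab
  have := (hX.f_mem q.1).1
  positivity

/-- descending ends with minimal label -/
def eu_Att (f : X → ℝ) (E : Set (X × ℕ)) (r : Pt X → Pt X → Prop) : Set (X × (ℕ × Bool)) :=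
  {q | q ∈ eu_Desc E r ∧ ∀ q' ∈ eu_Desc E r, r (q.1, some q.2) (q'.1, some q'.2) →
    eu_lab f q ≤ eu_lab f q'}

/-- descending ends with almost minimal label -/
def eu_AttN (f : X → ℝ) (E : Set (X × ℕ)) (r : Pt X → Pt X → Prop) (n : ℕ) :
    Set (X × (ℕ × Bool)) :=
  {q | q ∈ eu_Desc E r ∧ ∀ q' ∈ eu_Desc E r, r (q.1, some q.2) (q'.1, some q'.2) →
    eu_lab f q < eu_lab f q' + 1 / (n + 1 : ℝ)}

theorem eu_att_eq : eu_Att f E r = ⋂ n, eu_AttN f E r n := by
  ext q
  simp only [eu_Att, eu_AttN, Set.mem_iInter, Set.mem_ofPred_eq]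
  constructor
  · rintro ⟨h1, h2⟩ n
    refine ⟨h1, fun q' hq' hr => ?_⟩
    have := h2 q' hq' hr
    have h3 : (0 : ℝ) < 1 / (n + 1 : ℝ) := by positivity
    linarith
  · intro h
    refine ⟨(h 0).1, fun q' hq' hr => ?_⟩
    apply le_of_forall_pos_lt_add
    intro ε hε
    obtain ⟨n, hn⟩ := exists_nat_one_div_lt hε
    have := (h n).2 q' hq' hr
    linarith

theorem eu_attN_anti {n m : ℕ} (h : n ≤ m) : eu_AttN f E r m ⊆ eu_AttN f E r n := by
  rintro q ⟨h1, h2⟩
  refine ⟨h1, fun q' hq' hr => ?_⟩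
  have h3 := h2 q' hq' hr
  have h4 : 1 / (m + 1 : ℝ) ≤ 1 / (n + 1 : ℝ) := by
    apply one_div_le_one_div_of_le (by positivity)
    have : (n : ℝ) ≤ m := by exact_mod_cast h
    linarith
  linarith

theorem eu_exists_attN (hX : IsGoodAction G X μ f) (hK : IsPre G μ E r) (n : ℕ) {p : Pt X}
    (hp : Act E p) (hb : ¬ IsBase r p) : ∃ q ∈ eu_AttN f E r n, r p (q.1, some q.2) := by
  obtain ⟨q₀, hq₀, hr₀⟩ := eu_exists_desc hK hp hb
  set L : Set ℝ := {t | ∃ q ∈ eu_Desc E r, r p (q.1, some q.2) ∧ eu_lab f q = t} with hL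
  have hne : L.Nonempty := ⟨_, q₀, hq₀, hr₀, rfl⟩
  have hbd : BddBelow L := ⟨0, by
    rintro _ ⟨q, _, _, rfl⟩
    exact eu_lab_nonneg hX q⟩
  obtain ⟨_, ⟨q, hq, hr, rfl⟩, hlt⟩ := Real.lt_sInf_add_pos hne
    (show (0 : ℝ) < 1 / (n + 1 : ℝ) by positivity)
  refine ⟨q, ⟨hq, fun q' hq' hr' => ?_⟩, hr⟩
  have : sInf L ≤ eu_lab f q' := csInf_le hbd ⟨q', hq', hK.trans _ _ _ hr hr', rfl⟩
  linarith

/-- ends as measurable relation -/
theorem eu_rel_ends (hK : IsPre G μ E r) :
    MRel Γ (fun p q : X × (ℕ × Bool) => r (p.1, some p.2) (q.1, some q.2)) :=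
  ⟨fun p q h => (eu_mrel hK).1 _ _ h, fun g i k => hK.measr g (some i) (some k)⟩

theorem eu_attN_meas (hX : IsGoodAction G X μ f) (hK : IsPre G μ E r) (n : ℕ) :
    MSet (eu_AttN f E r n) := by
  have hmp := hX.mp
  have hD := eu_desc_meas hX.free hX.mp hK
  have hRel : MRel Γ (fun p q : X × (ℕ × Bool) => (r (p.1, some p.2) (q.1, some q.2) ∧
      q ∈ eu_Desc E r) ∧ eu_lab f q + 1 / (n + 1 : ℝ) ≤ eu_lab f p) := by
    refine ⟨fun p q h => (eu_mrel hK).1 _ _ h.1.1, fun g i k => ?_⟩
    have h1 := (MRel.and_right hmp (eu_rel_ends hK) (P := fun q => q ∈ eu_Desc E r) hD).2 g i k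
    have h2 : MeasurableSet {x : X | eu_lab f (g • x, k) + 1 / (n + 1 : ℝ) ≤ eu_lab f (x, i)} :=
      measurableSet_le (((eu_lab_meas hX k).comp (hmp g).measurable).add_const _)
        (eu_lab_meas hX i)
    exact h1.inter h2
  intro i
  have : {x | (x, i) ∈ eu_AttN f E r n} = {x | (x, i) ∈ eu_Desc E r} \ {x | (x, i) ∈
      {p : X × (ℕ × Bool) | ∃ q : X × (ℕ × Bool), (r (p.1, some p.2) (q.1, some q.2) ∧
      q ∈ eu_Desc E r) ∧ eu_lab f q + 1 / (n + 1 : ℝ) ≤ eu_lab f p}} := by
    ext x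
    simp only [eu_AttN, Set.mem_ofPred_eq, Set.mem_sdiff, not_exists, not_and, not_le]
    constructor
    · rintro ⟨h1, h2⟩
      exact ⟨h1, fun q hq => h2 q hq.2 hq.1⟩
    · rintro ⟨h1, h2⟩
      exact ⟨h1, fun q hq hr => h2 q ⟨hr, hq⟩⟩
  rw [this]
  exact (hD i).diff (hRel.dom i)

theorem eu_att_meas (hX : IsGoodAction G X μ f) (hK : IsPre G μ E r) :
    MSet (eu_Att f E r) := by
  intro i
  have : {x | (x, i) ∈ eu_Att f E r} = ⋂ n, {x | (x, i) ∈ eu_AttN f E r n} := by
    ext x
    rw [eu_att_eq]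
    simp only [Set.mem_ofPred_eq, Set.mem_iInter]
  rw [this]
  exact MeasurableSet.iInter fun n => eu_attN_meas hX hK n i

theorem eu_deg_congr (hK : IsPre G μ E r) {p q : Pt X} (h : r p q) : deg r p = deg r q := by
  classical
  unfold deg
  congr 1
  ext s
  by_cases hs : r p (s.1, some s.2)
  · rw [if_pos hs, if_pos (hK.trans _ _ _ (hK.symm _ _ h) hs)]
  · rw [if_neg hs, if_neg (fun h' => hs (hK.trans _ _ _ h h'))]

theorem eu_base_congr (hK : IsPre G μ E r) {p q : Pt X} (h : r p q) : IsBase r p ↔ IsBase r q :=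
  ⟨fun ⟨y, hy⟩ => ⟨y, hK.trans _ _ _ (hK.symm _ _ h) hy⟩, fun ⟨y, hy⟩ => ⟨y, hK.trans _ _ _ h hy⟩⟩

theorem eu_wt_congr (hK : IsPre G μ E r) {p q : Pt X} (h : r p q) : wt r p = wt r q := by
  unfold wt
  rw [eu_deg_congr hK h]
  by_cases hb : IsBase r q
  · rw [if_pos hb, if_pos ((eu_base_congr hK h).2 hb)]
  · rw [if_neg hb, if_neg (fun h' => hb ((eu_base_congr hK h).1 h'))]

theorem eu_deg_meas (hX : IsGoodAction G X μ f) (hK : IsPre G μ E r) (k : Option (ℕ × Bool)) :
    Measurable fun x : X => deg r (x, k) := by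
  classical
  have : (fun x : X => deg r (x, k)) = fun x : X => ∑' (g : Γ), ∑' (k' : ℕ × Bool),
      if r (x, k) (g • x, some k') then (1 : ℝ≥0∞) else 0 := by
    ext x
    unfold deg
    rw [tsum_orbit (Γ := Γ) hX.free x]
    intro q hq
    have h1 : r (x, k) (q.1, some q.2) := by
      by_contra hcon
      exact hq (if_neg hcon)
    exact (eu_mrel hK).1 _ _ h1
  rw [this]
  exact Measurable.tsum fun g => Measurable.tsum fun k' =>
    Measurable.ite (hK.measr g k (some k')) measurable_const measurable_const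

theorem eu_base_meas (hX : IsGoodAction G X μ f) (hK : IsPre G μ E r) :
    MSet {p | IsBase r p} := by
  have h0 : MRel Γ (fun p q : Pt X => r p q ∧ q.2 = none) :=
    MRel.and_right hX.mp (eu_mrel hK) (P := fun q => q.2 = none)
      (fun k => MeasurableSet.const (k = none))
  have h1 := h0.dom
  have h2 : {p | IsBase r p} = {p : Pt X | ∃ q : Pt X, r p q ∧ q.2 = none} := by
    ext p
    simp only [Set.mem_ofPred_eq]
    constructor
    · rintro ⟨y, hy⟩
      exact ⟨_, hy, rfl⟩
    · rintro ⟨⟨y, _⟩, hy, rfl⟩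
      exact ⟨y, hy⟩
  rw [h2]
  exact h1

theorem eu_wt_meas (hX : IsGoodAction G X μ f) (hK : IsPre G μ E r) (k : Option (ℕ × Bool)) :
    Measurable fun x : X => wt r (x, k) := by
  classical
  have h : Measurable (fun x : X => if (x, k) ∈ {p | IsBase r p} then (0 : ℝ≥0∞) else
      (deg r (x, k))⁻¹) :=
    Measurable.ite (eu_base_meas hX hK k) measurable_const (eu_deg_meas hX hK k).inv
  have h2 : (fun x : X => wt r (x, k)) = fun x : X => if (x, k) ∈ {p | IsBase r p} then
      (0 : ℝ≥0∞) else (deg r (x, k))⁻¹ := by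
    ext x
    unfold wt
    by_cases hb : IsBase r (x, k)
    · rw [if_pos hb, if_pos (by exact hb)]
    · rw [if_neg hb, if_neg (by exact hb)]
  rw [h2]
  exact h

theorem eu_ends_of_rel (hK : IsPre G μ E r) {p : Pt X} {q : X × (ℕ × Bool)}
    (h : r p (q.1, some q.2)) : q ∈ Ends E :=
  hK.supp _ _ (hK.symm _ _ h) q.2.1 q.2.2 rfl

theorem eu_act_ends {q : X × (ℕ × Bool)} (h : q ∈ Ends E) : Act E (q.1, some q.2) := by
  intro i b hib
  simp only [Option.some.injEq] at hib
  have : (q.1, q.2.1) ∈ E := h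
  rw [hib] at this
  exact this

theorem eu_ends_meas (hE : MSet E) : MSet (Ends E) := fun k => hE k.1

theorem eu_smeas_ends : smeas μ (Ends E) = 2 * smeas μ E := by
  unfold smeas Ends
  rw [ENNReal.tsum_prod (f := fun (i : ℕ) (b : Bool) =>
    μ {x | (x, (i, b)) ∈ {q : X × (ℕ × Bool) | (q.1, q.2.1) ∈ E}}), ← ENNReal.tsum_mul_left]
  congr 1
  ext i
  rw [tsum_bool]
  simp only [Set.mem_ofPred_eq]
  rw [two_mul]

/-- a nonbase class of finite degree has a minimal descending end -/
theorem eu_exists_att (hK : IsPre G μ E r) {p : Pt X} (hp : Act E p) (hb : ¬ IsBase r p)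
    (hd : deg r p ≠ ∞) : ∃ q ∈ eu_Att f E r, r p (q.1, some q.2) := by
  classical
  have hfin : {q : X × (ℕ × Bool) | r p (q.1, some q.2)}.Finite := by
    have := ENNReal.finite_const_le_of_tsum_ne_top hd one_ne_zero
    refine this.subset ?_
    intro q hq
    simp only [Set.mem_ofPred_eq] at hq ⊢
    rw [if_pos hq]
  have hfin2 : {q : X × (ℕ × Bool) | q ∈ eu_Desc E r ∧ r p (q.1, some q.2)}.Finite :=
    hfin.subset fun q hq => hq.2
  obtain ⟨q₀, hq₀, hr₀⟩ := eu_exists_desc hK hp hb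
  obtain ⟨q, hq, hmin⟩ := Set.exists_min_image _ (eu_lab f) hfin2 ⟨q₀, hq₀, hr₀⟩
  exact ⟨q, ⟨hq.1, fun q' hq' hr' => hmin q' ⟨hq', hK.trans _ _ _ hq.2 hr'⟩⟩, hq.2⟩

/-- uniqueness of the minimal descending end -/
theorem eu_att_unique (hX : IsGoodAction G X μ f) (hK : IsPre G μ E r)
    {q q' : X × (ℕ × Bool)} (hq : q ∈ eu_Att f E r) (hq' : q' ∈ eu_Att f E r)
    (hr : r (q.1, some q.2) (q'.1, some q'.2)) : q = q' := by
  have h1 := hq.2 q' hq'.1 hr
  have h2 := hq'.2 q hq.1 (hK.symm _ _ hr)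
  exact eu_lab_inj hX ((eu_mrel hK).1 _ _ hr) (le_antisymm h1 h2)

theorem eu_tsum_class (hK : IsPre G μ E r) (p : Pt X) (c : ℝ≥0∞) :
    open Classical in
    ∑' q : X × (ℕ × Bool), (if r p (q.1, some q.2) then c else 0) = deg r p * c := by
  classical
  unfold deg
  rw [← ENNReal.tsum_mul_right]
  congr 1
  ext q
  split_ifs <;> simp

/-- (c) -/
theorem eu_Vm_le_att (hX : IsGoodAction G X μ f) (hK : IsPre G μ E r) :
    Vm μ E r ≤ smeas μ (eu_Att f E r) := by
  classical
  have hmp := hX.mp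
  let T : X × (ℕ × Bool) → X × (ℕ × Bool) → ℝ≥0∞ := fun p q =>
    if r (p.1, some p.2) (q.1, some q.2) ∧ q ∈ eu_Att f E r then wt r (p.1, some p.2) else 0
  have hT : ∀ p q, T p q ≠ 0 → ∃ g : Γ, q.1 = g • p.1 := by
    intro p q hne
    have : r (p.1, some p.2) (q.1, some q.2) ∧ q ∈ eu_Att f E r := by
      by_contra hcon
      exact hne (if_neg hcon)
    exact (eu_mrel hK).1 _ _ this.1
  have hTm : ∀ (g : Γ) i k, Measurable fun x => T (x, i) (g • x, k) := by
    intro g i k
    exact Measurable.ite ((hK.measr g (some i) (some k)).inter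
      ((hmp g).measurable (eu_att_meas hX hK k))) (eu_wt_meas hX hK (some i)) measurable_const
  have key := mtp hX.free hmp T hT hTm
  have h1 : Vm μ E r ≤ sint μ (fun p => ∑' q, T p q) := by
    apply sint_mono
    intro p
    by_cases hp : p ∈ Ends E
    · rw [Set.indicator_of_mem hp]
      by_cases hw : wt r (p.1, some p.2) = 0
      · rw [hw]; exact bot_le
      · have hb : ¬ IsBase r (p.1, some p.2) := by
          intro hb
          apply hw
          unfold wt
          rw [if_pos hb]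
        have hd : deg r (p.1, some p.2) ≠ ∞ := by
          intro hd
          apply hw
          unfold wt
          rw [if_neg hb, hd, ENNReal.inv_top]
        obtain ⟨q, hq, hr⟩ := eu_exists_att (f := f) hK (eu_act_ends hp) hb hd
        have : wt r (p.1, some p.2) = T p q := (if_pos ⟨hr, hq⟩).symm
        rw [this]
        exact ENNReal.le_tsum q
    · rw [Set.indicator_of_notMem hp]; exact bot_le
  have h2 : sint μ (fun q => ∑' p, T p q) ≤ smeas μ (eu_Att f E r) := by
    rw [smeas_eq_sint (eu_att_meas hX hK)]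
    apply sint_mono
    intro q
    by_cases hq : q ∈ eu_Att f E r
    · rw [Set.indicator_of_mem hq]
      have : ∀ p, T p q = if r (q.1, some q.2) (p.1, some p.2) then wt r (q.1, some q.2) else 0 := by
        intro p
        by_cases hr : r (p.1, some p.2) (q.1, some q.2)
        · have hr' := hK.symm _ _ hr
          rw [if_pos hr', eu_wt_congr hK hr']
          exact if_pos ⟨hr, hq⟩
        · have hr' : ¬ r (q.1, some q.2) (p.1, some p.2) := fun h => hr (hK.symm _ _ h)
          rw [if_neg hr']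
          exact if_neg fun h => hr h.1
      simp only [this]
      rw [eu_tsum_class hK]
      unfold wt
      simp only [Pi.one_apply]
      split_ifs
      · simp
      · exact ENNReal.mul_inv_le_one _
    · rw [Set.indicator_of_notMem hq]
      have : ∀ p, T p q = 0 := fun p => if_neg fun h => hq h.2
      simp [this]
  exact h1.trans (key.le.trans h2)

/-- (b) -/
theorem eu_att_le_Vm (hX : IsGoodAction G X μ f) (hK : IsPre G μ E r) :
    smeas μ (eu_Att f E r) ≤ Vm μ E r := by
  classical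
  have hmp := hX.mp
  have hAm := eu_att_meas hX hK (f := f)
  have hself : ∀ q ∈ eu_Att f E r, r (q.1, some q.2) (q.1, some q.2) := by
    intro q hq
    exact hK.refl _ (eu_act_ends hq.1.1)
  have hdeg1 : ∀ q ∈ eu_Att f E r, deg r (q.1, some q.2) ≠ 0 := by
    intro q hq h0
    unfold deg at h0
    rw [ENNReal.tsum_eq_zero] at h0
    have := h0 q
    rw [if_pos (hself q hq)] at this
    exact one_ne_zero this
  set B : Set (X × (ℕ × Bool)) := {q | q ∈ eu_Att f E r ∧ deg r (q.1, some q.2) = ∞} with hB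
  have hBm : MSet B := fun k => (hAm k).inter
    ((eu_deg_meas hX hK (some k)) (MeasurableSet.singleton ∞))
  -- infinite classes
  have hBnull : smeas μ B = 0 := by
    let T : X × (ℕ × Bool) → X × (ℕ × Bool) → ℝ≥0∞ := fun p q =>
      if r (p.1, some p.2) (q.1, some q.2) ∧ q ∈ B then 1 else 0
    have hT : ∀ p q, T p q ≠ 0 → ∃ g : Γ, q.1 = g • p.1 := by
      intro p q hne
      have : r (p.1, some p.2) (q.1, some q.2) ∧ q ∈ B := by
        by_contra hcon
        exact hne (if_neg hcon)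
      exact (eu_mrel hK).1 _ _ this.1
    have hTm : ∀ (g : Γ) i k, Measurable fun x => T (x, i) (g • x, k) := by
      intro g i k
      exact Measurable.ite ((hK.measr g (some i) (some k)).inter
        ((hmp g).measurable (hBm k))) measurable_const measurable_const
    have key := mtp hX.free hmp T hT hTm
    have h1 : sint μ (fun p => ∑' q, T p q) ≤ smeas μ (Ends E) := by
      rw [smeas_eq_sint (eu_ends_meas hK.measE)]
      apply sint_mono
      intro p
      by_cases hex : ∃ q, r (p.1, some p.2) (q.1, some q.2) ∧ q ∈ B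
      · obtain ⟨q, hr, hq⟩ := hex
        have hp : p ∈ Ends E := eu_ends_of_rel hK (hK.symm _ _ hr)
        rw [Set.indicator_of_mem hp, tsum_eq_single q]
        · simp only [Pi.one_apply]
          exact (if_pos (⟨hr, hq⟩ : _ ∧ _)).le
        · intro q' hne
          apply if_neg
          rintro ⟨hr', hq'⟩
          exact hne (eu_att_unique hX hK hq'.1 hq.1 (hK.trans _ _ _ (hK.symm _ _ hr') hr))
      · have : ∀ q, T p q = 0 := fun q => if_neg fun h => hex ⟨q, h⟩
        simp [this]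
    have h2 : sint μ (fun q => ∑' p, T p q) = ∞ * smeas μ B := by
      rw [smeas_eq_sint hBm]
      unfold sint
      rw [← ENNReal.tsum_mul_left]
      congr 1
      ext k
      rw [← lintegral_const_mul]
      · congr 1
        ext x
        by_cases hq : ((x, k) : X × (ℕ × Bool)) ∈ B
        · rw [Set.indicator_of_mem hq]
          have : ∀ p, T p (x, k) = if r (x, some k) (p.1, some p.2) then 1 else 0 := by
            intro p
            by_cases hr : r (p.1, some p.2) (x, some k)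
            · have hr' := hK.symm _ _ hr
              rw [if_pos hr']
              exact if_pos ⟨hr, hq⟩
            · have hr' : ¬ r (x, some k) (p.1, some p.2) := fun h => hr (hK.symm _ _ h)
              rw [if_neg hr']
              exact if_neg fun h => hr h.1
          simp only [this]
          rw [eu_tsum_class hK]
          have := hq.2
          simp only at this
          rw [this]
          simp
        · rw [Set.indicator_of_notMem hq]
          have : ∀ p, T p (x, k) = 0 := fun p => if_neg fun h => hq h.2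
          simp [this]
      · exact measurable_one.indicator (hBm k)
    have h3 : ∞ * smeas μ B ≠ ∞ := by
      rw [← h2, ← key]
      refine ne_top_of_le_ne_top ?_ h1
      rw [eu_smeas_ends]
      exact ENNReal.mul_ne_top (by simp) hK.finE
    by_contra hne
    exact h3 (ENNReal.top_mul hne)
  -- finite classes
  let T : X × (ℕ × Bool) → X × (ℕ × Bool) → ℝ≥0∞ := fun q p =>
    if q ∈ eu_Att f E r ∧ r (q.1, some q.2) (p.1, some p.2) then wt r (p.1, some p.2) else 0
  have hT : ∀ p q, T p q ≠ 0 → ∃ g : Γ, q.1 = g • p.1 := by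
    intro p q hne
    have : p ∈ eu_Att f E r ∧ r (p.1, some p.2) (q.1, some q.2) := by
      by_contra hcon
      exact hne (if_neg hcon)
    exact (eu_mrel hK).1 _ _ this.2
  have hTm : ∀ (g : Γ) i k, Measurable fun x => T (x, i) (g • x, k) := by
    intro g i k
    exact Measurable.ite ((hAm i).inter (hK.measr g (some i) (some k)))
      ((eu_wt_meas hX hK (some k)).comp (hmp g).measurable) measurable_const
  have key := mtp hX.free hmp T hT hTm
  have h1 : smeas μ (eu_Att f E r \ B) ≤ sint μ (fun q => ∑' p, T q p) := by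
    have hABm : MSet (eu_Att f E r \ B) := fun k => (hAm k).diff (hBm k)
    rw [smeas_eq_sint hABm]
    apply sint_mono
    intro q
    by_cases hq : q ∈ eu_Att f E r \ B
    · rw [Set.indicator_of_mem hq]
      have : ∀ p, T q p = if r (q.1, some q.2) (p.1, some p.2) then wt r (q.1, some q.2) else 0 := by
        intro p
        by_cases hr : r (q.1, some q.2) (p.1, some p.2)
        · rw [if_pos hr, eu_wt_congr hK hr]
          exact if_pos ⟨hq.1, hr⟩
        · rw [if_neg hr]
          exact if_neg fun h => hr h.2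
      simp only [this]
      rw [eu_tsum_class hK]
      unfold wt
      rw [if_neg (eu_desc_nonbase hq.1.1), ENNReal.mul_inv_cancel (hdeg1 q hq.1)]
      · rfl
      · intro h
        exact hq.2 ⟨hq.1, h⟩
    · rw [Set.indicator_of_notMem hq]; exact bot_le
  have h2 : sint μ (fun p => ∑' q, T q p) ≤ Vm μ E r := by
    apply sint_mono
    intro p
    by_cases hex : ∃ q, q ∈ eu_Att f E r ∧ r (q.1, some q.2) (p.1, some p.2)
    · obtain ⟨q, hq, hr⟩ := hex
      have hp : p ∈ Ends E := eu_ends_of_rel hK hr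
      rw [Set.indicator_of_mem hp, tsum_eq_single q]
      · exact (if_pos (⟨hq, hr⟩ : _ ∧ _)).le
      · intro q' hne
        apply if_neg
        rintro ⟨hq', hr'⟩
        exact hne (eu_att_unique hX hK hq' hq (hK.trans _ _ _ hr' (hK.symm _ _ hr)))
    · have : ∀ q, T q p = 0 := fun q => if_neg fun h => hex ⟨q, h⟩
      simp [this]
  calc smeas μ (eu_Att f E r) ≤ smeas μ ((eu_Att f E r \ B) ∪ B) := by
        apply smeas_mono
        intro q hq
        by_cases h : q ∈ B
        · exact Or.inr h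
        · exact Or.inl ⟨hq, h⟩
    _ ≤ smeas μ (eu_Att f E r \ B) + smeas μ B := by
        unfold smeas
        rw [← ENNReal.tsum_add]
        exact ENNReal.tsum_le_tsum fun k => measure_union_le _ _
    _ ≤ Vm μ E r := by
        rw [hBnull, add_zero]
        exact h1.trans (key.le.trans h2)

/-! ### cell rows -/

theorem eu_cell_unique (hK : IsPre G μ E r) (hi : Immersed E r) {y : X} {c c' : ZMod D → ℕ}
    (hc : IsCell G E r y c) (hc' : IsCell G E r y c') (h : c 0 = c' 0) : c = c' := by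
  have hstep : ∀ n : ℕ, c (n : ZMod D) = c' (n : ZMod D) := by
    intro n
    induction n with
    | zero => simpa using h
    | succ n ih =>
      have h1 := (hc (n : ZMod D)).2
      have h2 := (hc' (n : ZMod D)).2
      rw [← ih] at h2
      have h3 := hi (G.u ((n : ZMod D) + 1) • y) (c ((n : ZMod D) + 1)) (c' ((n : ZMod D) + 1))
        false (hc _).1 (hc' _).1 (hK.trans _ _ _ (hK.symm _ _ h1) h2)
      push_cast
      exact h3
  ext j
  have := hstep j.val
  simpa using this

/-- the boundary chain of a cell -/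
noncomputable def eu_bd (G : PolyData Γ D) (y : X) (c : ZMod D → ℕ) : X × ℕ →₀ ℚ :=
  ∑ j, Finsupp.single (G.u j • y, c j) (1 : ℚ)

theorem eu_bd_apply (hfree : ∀ (g : Γ) (x : X), g • x = x → g = 1) (y : X) (c : ZMod D → ℕ)
    (g : Γ) (l : ℕ) :
    open Classical in
    eu_bd G y c (g • y, l) = ((Finset.univ.filter fun j => G.u j = g ∧ c j = l).card : ℚ) := by
  classical
  unfold eu_bd
  rw [Finsupp.finsetSum_apply, Finset.card_filter]
  push_cast
  apply Finset.sum_congr rfl
  intro j _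
  rw [Finsupp.single_apply]
  have : (G.u j • y, c j) = (g • y, l) ↔ G.u j = g ∧ c j = l := by
    rw [Prod.mk.injEq]
    constructor
    · rintro ⟨h1, h2⟩
      refine ⟨?_, h2⟩
      have h3 : (g⁻¹ * G.u j) • y = y := by rw [mul_smul, h1, inv_smul_smul]
      have h4 := hfree _ _ h3
      rw [inv_mul_eq_one] at h4
      exact h4.symm
    · rintro ⟨h1, h2⟩
      rw [h1, h2]; exact ⟨rfl, rfl⟩
  by_cases h : G.u j = g ∧ c j = l
  · rw [if_pos (this.2 h), if_pos h]
  · rw [if_neg (fun h' => h (this.1 h')), if_neg h]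

theorem eu_isCell_meas (hX : IsGoodAction G X μ f) (hK : IsPre G μ E r) (c : ZMod D → ℕ) :
    MeasurableSet {y | IsCell G E r y c} := by
  have : {y | IsCell G E r y c} = ⋂ j : ZMod D, ((fun y : X => G.u j • y) ⁻¹' {x | (x, c j) ∈ E}) ∩
      ((fun y : X => G.u j • y) ⁻¹' {x | r (x, some (c j, true))
        ((G.u (j + 1) * (G.u j)⁻¹) • x, some (c (j + 1), false))}) := by
    ext y
    simp only [IsCell, Set.mem_ofPred_eq, Set.mem_iInter, Set.mem_inter_iff, Set.mem_preimage]
    constructor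
    · intro h j
      refine ⟨(h j).1, ?_⟩
      rw [mul_smul, inv_smul_smul]
      exact (h j).2
    · intro h j
      have h2 := (h j).2
      rw [mul_smul, inv_smul_smul] at h2
      exact ⟨(h j).1, h2⟩
  rw [this]
  exact MeasurableSet.iInter fun j => ((hX.mp _).measurable (hK.measE _)).inter
    ((hX.mp _).measurable (hK.measr _ _ _))

/-- the boundary row of a cell -/
noncomputable def eu_cellRow (G : PolyData Γ D) (E : Set (X × ℕ)) (r : Pt X → Pt X → Prop)
    (q : X × ℕ) : X × ℕ →₀ ℚ :=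
  open Classical in
  if h : ∃ c : ZMod D → ℕ, c 0 = q.2 ∧ IsCell G E r q.1 c then eu_bd G q.1 h.choose else 0

theorem eu_cellRow_eq (hK : IsPre G μ E r) (hi : Immersed E r) {y : X} {i : ℕ}
    {c : ZMod D → ℕ} (hc0 : c 0 = i) (hc : IsCell G E r y c) :
    eu_cellRow G E r (y, i) = eu_bd G y c := by
  have hex : ∃ c : ZMod D → ℕ, c 0 = (y, i).2 ∧ IsCell G E r (y, i).1 c := ⟨c, hc0, hc⟩
  unfold eu_cellRow
  rw [dif_pos hex]
  have h1 := hex.choose_spec
  have h2 : hex.choose = c := eu_cell_unique hK hi h1.2 hc (h1.1.trans hc0.symm)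
  rw [h2]

theorem eu_cellRow_meas (hX : IsGoodAction G X μ f) (hK : IsCx G μ E r F) (g : Γ) (l i : ℕ)
    (a : ℚ) : MeasurableSet {y | (y, i) ∈ F ∧ eu_cellRow G E r (y, i) (g • y, l) = a} := by
  classical
  have : {y | (y, i) ∈ F ∧ eu_cellRow G E r (y, i) (g • y, l) = a} =
      {y | (y, i) ∈ F} ∩ ⋃ c : ZMod D → ℕ, ({_y | c 0 = i} ∩
        {_y | ((Finset.univ.filter fun j => G.u j = g ∧ c j = l).card : ℚ) = a} ∩
        {y | IsCell G E r y c}) := by
    ext y
    simp only [Set.mem_ofPred_eq, Set.mem_iUnion, Set.mem_inter_iff]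
    constructor
    · rintro ⟨hF, ha⟩
      obtain ⟨c, hc0, hc⟩ := hK.cell y i hF
      rw [eu_cellRow_eq hK.toIsPre hK.imm hc0 hc, eu_bd_apply hX.free] at ha
      refine ⟨hF, c, ⟨hc0, ?_⟩, hc⟩
      rw [← ha]
    · rintro ⟨hF, c, ⟨hc0, ha⟩, hc⟩
      refine ⟨hF, ?_⟩
      rw [eu_cellRow_eq hK.toIsPre hK.imm hc0 hc, eu_bd_apply hX.free]
      rw [← ha]
  rw [this]
  exact (hK.measF i).inter (MeasurableSet.iUnion fun c =>
    ((MeasurableSet.const _).inter (MeasurableSet.const _)).inter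
      (eu_isCell_meas hX hK.toIsPre c))

/-! ### the inequality with `AttN` -/

theorem eu_phi_zero (hX : IsGoodAction G X μ f) (hK : IsPre G μ E r) (n : ℕ)
    {U : Type} [AddCommGroup U] [Module ℚ U] (β : X × ℕ → U) (φ : Pt X → U)
    (hβ : ∀ q ∈ eu_AttN f E r n, β (q.1, q.2.1) = 0)
    (h0 : ∀ x, φ (x, none) = 0) (hr : ∀ p q, r p q → φ p = φ q)
    (hφ : ∀ x i, (x, i) ∈ E → β (x, i) = φ (x, some (i, true)) - φ (x, some (i, false)))
    (p : Pt X) (hp : Act E p) : φ p = 0 := by
  have key : ∀ m : ℕ, ∀ p : Pt X, Act E p → eu_D E r m p → φ p = 0 := by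
    intro m
    induction m with
    | zero =>
      intro p hp hD
      obtain ⟨y, hy⟩ := eu_D_zero hD
      rw [hr _ _ hy, h0]
    | succ m ih =>
      intro p hp hD
      by_cases hb : IsBase r p
      · obtain ⟨y, hy⟩ := hb
        rw [hr _ _ hy, h0]
      · obtain ⟨q, hq, hpq⟩ := eu_exists_attN hX hK n hp hb
        obtain ⟨⟨x, i, b⟩, hqE⟩ : ∃ q' : X × (ℕ × Bool), q' = q := ⟨q, rfl⟩
        subst hqE
        have hE : (x, i) ∈ E := hq.1.1
        obtain ⟨k, hk1, hk2⟩ := hq.1.2
        simp only at hk1 hk2 hpq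
        have hk : k ≤ m := by
          by_contra hcon
          exact hk2 (eu_D_mono (by omega) (eu_D_congr hK (hK.symm _ _ hpq) hD))
        have hact : Act E (x, some (i, !b)) := by
          intro i' b' hib
          simp only [Option.some.injEq, Prod.mk.injEq] at hib
          rw [← hib.1]; exact hE
        have h1 : φ (x, some (i, !b)) = 0 := ih _ hact (eu_D_mono hk hk1)
        have h2 : β (x, i) = 0 := hβ _ hq
        have h3 := hφ x i hE
        rw [h2] at h3
        rw [hr _ _ hpq]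
        cases b
        · simp only [Bool.not_false] at h1
          rw [h1, zero_sub, eq_comm, neg_eq_zero] at h3
          exact h3
        · simp only [Bool.not_true] at h1
          rw [h1, sub_zero] at h3
          exact h3.symm
  obtain ⟨m, y, hy⟩ := hK.conn p hp
  exact key m p hp ⟨m, le_rfl, y, hy⟩

/-- all rows -/
noncomputable def eu_rows (G : PolyData Γ D) (E : Set (X × ℕ)) (r : Pt X → Pt X → Prop)
    (s : X × ℕ → (X × ℕ →₀ ℚ)) : X × ((ℕ × Bool) ⊕ (ℕ ⊕ ℕ)) → (X × ℕ →₀ ℚ)
  | (x, Sum.inl k) => Finsupp.single (x, k.1) 1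
  | (x, Sum.inr (Sum.inl k)) => eu_cellRow G E r (x, k)
  | (x, Sum.inr (Sum.inr k)) => s (x, k)

/-- index set of all rows -/
def eu_rowSet (A : Set (X × (ℕ × Bool))) (F N : Set (X × ℕ)) :
    Set (X × ((ℕ × Bool) ⊕ (ℕ ⊕ ℕ))) :=
  {q | (∃ k, q.2 = Sum.inl k ∧ (q.1, k) ∈ A) ∨ (∃ k, q.2 = Sum.inr (Sum.inl k) ∧ (q.1, k) ∈ F) ∨
    ∃ k, q.2 = Sum.inr (Sum.inr k) ∧ (q.1, k) ∈ N}

theorem eu_ineq_n [IsProbabilityMeasure μ] (hG : G.Good) (hX : IsGoodAction G X μ f)
    (hK : IsCx G μ E r F) (hg : GenBy G E r F N s) (n : ℕ) :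
    smeas μ E ≤ smeas μ (eu_AttN f E r n) + smeas μ F + smeas μ N := by
  classical
  have hAm := eu_attN_meas hX hK.toIsPre n
  set A := eu_AttN f E r n with hA
  have hA1 : ∀ x k, ((x, Sum.inl k) : X × ((ℕ × Bool) ⊕ (ℕ ⊕ ℕ))) ∈ eu_rowSet A F N ↔
      (x, k) ∈ A := by
    intro x k
    constructor
    · rintro (⟨k', hk, h⟩ | ⟨k', hk, h⟩ | ⟨k', hk, h⟩)
      · simp only [Sum.inl.injEq] at hk
        subst hk
        exact h
      · simp at hk
      · simp at hk
    · intro h
      exact Or.inl ⟨k, rfl, h⟩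
  have hA2 : ∀ x k, ((x, Sum.inr (Sum.inl k)) : X × ((ℕ × Bool) ⊕ (ℕ ⊕ ℕ))) ∈
      eu_rowSet A F N ↔ (x, k) ∈ F := by
    intro x k; simp [eu_rowSet]
  have hA3 : ∀ x k, ((x, Sum.inr (Sum.inr k)) : X × ((ℕ × Bool) ⊕ (ℕ ⊕ ℕ))) ∈
      eu_rowSet A F N ↔ (x, k) ∈ N := by
    intro x k; simp [eu_rowSet]
  have hRm : MSet (eu_rowSet A F N) := by
    rintro (k | k | k)
    · simpa only [hA1] using hAm k
    · simpa only [hA2] using hK.measF k
    · simpa only [hA3] using hg.rows.measN k
  have key := eu_rank hX.free μ hX.mp E (eu_rowSet A F N) hK.measE hRm (eu_rows G E r s) (by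
    rintro ⟨x, k | k | k⟩ hn e he
    · rw [hA1] at hn
      simp only [eu_rows] at he
      have := Finsupp.support_single_subset he
      rw [Finset.mem_singleton] at this
      rw [this]
      exact ⟨1, (one_smul _ _).symm⟩
    · rw [hA2] at hn
      simp only [eu_rows] at he
      obtain ⟨c, hc0, hc⟩ := hK.cell x k hn
      rw [eu_cellRow_eq hK.toIsPre hK.imm hc0 hc] at he
      unfold eu_bd at he
      have := Finsupp.support_finsetSum he
      simp only [Finset.mem_biUnion, Finset.mem_univ, true_and] at this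
      obtain ⟨j, hj⟩ := this
      have h2 := Finsupp.support_single_subset hj
      rw [Finset.mem_singleton] at h2
      rw [h2]
      exact ⟨G.u j, rfl⟩
    · rw [hA3] at hn
      exact hg.rows.orb _ hn _ he) (by
    intro g i k a
    rcases k with k | k | k
    · simp only [hA1, eu_rows]
      by_cases h : g = 1 ∧ k.1 = i
      · obtain ⟨rfl, rfl⟩ := h
        have : {x : X | (x, k) ∈ A ∧ (Finsupp.single (x, k.1) (1 : ℚ)) ((1 : Γ) • x, k.1) = a} =
            {x | (x, k) ∈ A} ∩ {_x | (1 : ℚ) = a} := by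
          ext x
          simp only [one_smul, Finsupp.single_eq_same, Set.mem_ofPred_eq, Set.mem_inter_iff]
        rw [this]
        exact (hAm k).inter (MeasurableSet.const _)
      · have : {x : X | (x, k) ∈ A ∧ (Finsupp.single (x, k.1) (1 : ℚ)) (g • x, i) = a} =
            {x | (x, k) ∈ A} ∩ {_x | (0 : ℚ) = a} := by
          ext x
          simp only [Set.mem_ofPred_eq, Set.mem_inter_iff]
          rw [Finsupp.single_apply, if_neg]
          intro hcon
          rw [Prod.mk.injEq] at hcon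
          exact h ⟨hX.free _ _ hcon.1.symm, hcon.2⟩
        rw [this]
        exact (hAm k).inter (MeasurableSet.const _)
    · simp only [hA2, eu_rows]
      exact eu_cellRow_meas hX hK g i k a
    · simp only [hA3, eu_rows]
      exact hg.rows.meass g k i a) (by
    intro e he
    set W := Submodule.span ℚ (eu_rows G E r s '' eu_rowSet A F N) with hW
    let β : X × ℕ → (X × ℕ →₀ ℚ) ⧸ W := fun e => W.mkQ (Finsupp.single e 1)
    have hpair : ∀ c : X × ℕ →₀ ℚ, pair c β = W.mkQ c := by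
      intro c
      unfold pair
      conv_rhs => rw [← Finsupp.sum_single c]
      unfold Finsupp.sum
      rw [map_sum]
      apply Finset.sum_congr rfl
      intro e _
      simp only [β]
      rw [← map_smul, Finsupp.smul_single, smul_eq_mul, mul_one]
    have hmem : ∀ q ∈ eu_rowSet A F N, W.mkQ (eu_rows G E r s q) = 0 := by
      intro q hq
      rw [Submodule.mkQ_apply, Submodule.Quotient.mk_eq_zero]
      exact Submodule.subset_span ⟨q, hq, rfl⟩
    obtain ⟨φ, h0, hr, hφ⟩ := hg.gen _ β (by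
      intro y i hF c hc0 hc
      have h1 := hmem (y, Sum.inr (Sum.inl i)) ((hA2 y i).2 hF)
      simp only [eu_rows] at h1
      rw [eu_cellRow_eq hK.toIsPre hK.imm hc0 hc] at h1
      unfold eu_bd at h1
      rw [map_sum] at h1
      exact h1) (by
      rintro ⟨x, k⟩ hn
      rw [hpair]
      exact hmem (x, Sum.inr (Sum.inr k)) ((hA3 x k).2 hn))
    have hzero := eu_phi_zero hX hK.toIsPre n β φ (by
      rintro ⟨x, k⟩ hq
      exact hmem (x, Sum.inl k) ((hA1 x k).2 hq)) h0 hr hφ
    obtain ⟨x, i⟩ := e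
    have hβ : β (x, i) = 0 := by
      have hact : ∀ b, Act E (x, some (i, b)) := by
        intro b i' b' hib
        simp only [Option.some.injEq, Prod.mk.injEq] at hib
        rw [← hib.1]; exact he
      rw [hφ x i he, hzero _ (hact true), hzero _ (hact false), sub_zero]
    rw [← Submodule.Quotient.mk_eq_zero]
    exact hβ)
  refine key.trans (le_of_eq ?_)
  unfold smeas
  rw [ENNReal.summable.tsum_sum ENNReal.summable, ENNReal.summable.tsum_sum ENNReal.summable]
  simp only [hA1, hA2, hA3]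
  rw [add_assoc]

theorem eu_tendsto [IsProbabilityMeasure μ] (hX : IsGoodAction G X μ f) (hK : IsPre G μ E r) :
    Filter.Tendsto (fun n => smeas μ (eu_AttN f E r n)) Filter.atTop
      (nhds (smeas μ (eu_Att f E r))) := by
  unfold smeas
  have hfin : ∑' k, μ {x | (x, k) ∈ Ends E} ≠ ∞ := by
    have := eu_smeas_ends (μ := μ) (E := E)
    unfold smeas at this
    rw [this]
    exact ENNReal.mul_ne_top (by simp) hK.finE
  have hlim : ∀ k, Filter.Tendsto (fun n => μ {x | (x, k) ∈ eu_AttN f E r n}) Filter.atTop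
      (nhds (μ {x | (x, k) ∈ eu_Att f E r})) := by
    intro k
    have : {x | (x, k) ∈ eu_Att f E r} = ⋂ n, {x | (x, k) ∈ eu_AttN f E r n} := by
      ext x
      rw [eu_att_eq]
      simp only [Set.mem_ofPred_eq, Set.mem_iInter]
    rw [this]
    apply tendsto_measure_iInter_atTop
    · intro n
      exact (eu_attN_meas hX hK n k).nullMeasurableSet
    · intro n m hnm x hx
      exact eu_attN_anti hnm hx
    · exact ⟨0, measure_ne_top _ _⟩
  have h1 : ∀ F : ℕ × Bool → ℝ≥0∞, ∑' k, F k = ∫⁻ k, F k ∂(Measure.count) := by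
    intro F
    rw [lintegral_count]
  simp only [h1]
  apply tendsto_lintegral_of_dominated_convergence (fun k => μ {x | (x, k) ∈ Ends E})
  · intro n
    exact measurable_of_countable _
  · intro n
    exact Filter.Eventually.of_forall fun k => measure_mono fun x hx => hx.1.1
  · rw [← h1]; exact hfin
  · exact Filter.Eventually.of_forall hlim

end reach

variable {Γ X : Type} [Group Γ] [Countable Γ] [MulAction Γ X] [MeasurableSpace X]
  {D : ℕ} [NeZero D] {G : PolyData Γ D} {μ : Measure X} [IsProbabilityMeasure μ] {f : X → ℝ}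
  {E F N : Set (X × ℕ)} {r : Pt X → Pt X → Prop} {s : X × ℕ → (X × ℕ →₀ ℚ)}

theorem euler_ineq (hG : G.Good) (hX : IsGoodAction G X μ f) (hK : IsCx G μ E r F)
    (hg : GenBy G E r F N s) :
    smeas μ E ≤ Vm μ E r + smeas μ F + smeas μ N := by
  have h1 : smeas μ E ≤ smeas μ (eu_Att f E r) + smeas μ F + smeas μ N := by
    have h2 := ((eu_tendsto hX hK.toIsPre).add
      (tendsto_const_nhds (x := smeas μ F))).add (tendsto_const_nhds (x := smeas μ N))
    exact ge_of_tendsto' h2 (fun n => eu_ineq_n hG hX hK hg n)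
  refine h1.trans ?_
  gcongr
  exact eu_att_le_Vm hX hK.toIsPre

theorem bb_ineq (hG : G.Good) (hX : IsGoodAction G X μ f) (hK : IsPre G μ E r) :
    smeas μ {q : X × ℕ | q ∈ E ∧ IsBase r (q.1, some (q.2, false)) ∧
      IsBase r (q.1, some (q.2, true))} + Vm μ E r ≤ smeas μ E := by
  have h1 := eu_Vm_le_att (f := f) hX hK
  have hA := eu_att_meas (f := f) hX hK
  refine (add_le_add le_rfl h1).trans ?_
  unfold smeas
  rw [ENNReal.tsum_prod (f := fun (i : ℕ) (b : Bool) => μ {x | (x, (i, b)) ∈ eu_Att f E r}),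
    ← ENNReal.tsum_add]
  apply ENNReal.tsum_le_tsum
  intro i
  rw [tsum_bool]
  have hbb : MeasurableSet {x : X | (x, i) ∈ {q : X × ℕ | q ∈ E ∧
      IsBase r (q.1, some (q.2, false)) ∧ IsBase r (q.1, some (q.2, true))}} :=
    (hK.measE i).inter ((eu_base_meas hX hK (some (i, false))).inter
      (eu_base_meas hX hK (some (i, true))))
  have hd1 : Disjoint {x : X | (x, (i, false)) ∈ eu_Att f E r}
      {x : X | (x, (i, true)) ∈ eu_Att f E r} := by
    rw [Set.disjoint_left]
    intro x h1 h2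
    exact eu_desc_not_both h1.1 h2.1
  have hd2 : Disjoint {x : X | (x, i) ∈ {q : X × ℕ | q ∈ E ∧
      IsBase r (q.1, some (q.2, false)) ∧ IsBase r (q.1, some (q.2, true))}}
      ({x : X | (x, (i, false)) ∈ eu_Att f E r} ∪ {x : X | (x, (i, true)) ∈ eu_Att f E r}) := by
    rw [Set.disjoint_left]
    rintro x ⟨_, h1, h2⟩ (h3 | h3)
    · exact eu_desc_nonbase h3.1 h1
    · exact eu_desc_nonbase h3.1 h2
  rw [← measure_union hd1 (hA _), ← measure_union hd2 ((hA _).union (hA _))]
  apply measure_mono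
  rintro x (h | h | h)
  · exact h.1
  · exact h.1.1
  · exact h.1.1

end Crest.Agent.FP
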