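import Mathlib
import Crest.Agent.FP_Euler
import Crest.Agent.FP_Wt

/-!
# Task FP-N1: few ends of weight at most 1/3 (see FP_Count.lean)
-/

set_option autoImplicit false

open MeasureTheory
open scoped ENNReal

namespace Crest.Agent.FP

variable {Γ X : Type} [Group Γ] [Countable Γ] [MulAction Γ X] [MeasurableSpace X]
  {D : ℕ} [NeZero D] {G : PolyData Γ D} {μ : Measure X} [IsProbabilityMeasure μ] {f : X → ℝ}
  {E F N : Set (X × ℕ)} {r : Pt X → Pt X → Prop} {s : X × ℕ → (X × ℕ →₀ ℚ)}

omit [MulAction Γ X] [Group Γ] [Countable Γ] [IsProbabilityMeasure μ] in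
theorem sint_const_mul' {ι : Type} (c : ℝ≥0∞) (hc : c ≠ ∞) (f : X × ι → ℝ≥0∞) :
    sint μ (fun p => c * f p) = c * sint μ f := by
  unfold sint
  rw [← ENNReal.tsum_mul_left]
  exact tsum_congr fun i => lintegral_const_mul' _ _ hc

theorem mset_wt (hG : G.Good) (hX : IsGoodAction G X μ f) (hK : IsPre G μ E r) (T : Set ℝ≥0∞)
    (hT : MeasurableSet T) : MSet {q : X × (ℕ × Bool) | q ∈ Ends E ∧ wt r (q.1, some q.2) ∈ T} :=
  fun k => (mset_Ends hK.measE k).inter (meas_wt hG hX hK (some k) hT)

theorem mset_bigEnds (hG : G.Good) (hX : IsGoodAction G X μ f) (hK : IsPre G μ E r) :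
    MSet (BigEnds E r) :=
  mset_wt hG hX hK {t | t ≤ 3⁻¹} measurableSet_Iic

theorem mset_leaves (hG : G.Good) (hX : IsGoodAction G X μ f) (hK : IsPre G μ E r) :
    MSet (Leaves E r) :=
  mset_wt hG hX hK {1} (measurableSet_singleton 1)

theorem bigEnds_le (hG : G.Good) (hX : IsGoodAction G X μ f) (hK : IsCx G μ E r F)
    (hg : GenBy G E r F N s) (hV : Vm μ E r ≠ ∞) :
    smeas μ (BigEnds E r) ≤ 6 * smeas μ F + 6 * smeas μ N + 3 * smeas μ (Leaves E r) := by
  have hPre : IsPre G μ E r := hK.toIsPre
  have hmB := mset_bigEnds hG hX hPre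
  have hmL := mset_leaves hG hX hPre
  have hmE := mset_Ends hPre.measE
  -- pointwise inequality
  have hpt : ∀ q : X × (ℕ × Bool),
      (BigEnds E r).indicator 1 q +
        6 * (Ends E).indicator (fun q => wt r (q.1, some q.2)) q ≤
      3 * (Ends E).indicator 1 q + 3 * (Leaves E r).indicator 1 q := by
    intro q
    by_cases hq : q ∈ Ends E
    · rw [Set.indicator_of_mem hq, Set.indicator_of_mem hq]
      by_cases hB : q ∈ BigEnds E r
      · rw [Set.indicator_of_mem hB]
        have h1 : wt r (q.1, some q.2) ≤ 3⁻¹ := hB.2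
        calc (1 : X × (ℕ × Bool) → ℝ≥0∞) q + 6 * wt r (q.1, some q.2)
            ≤ 1 + 6 * 3⁻¹ := by
              rw [Pi.one_apply]; gcongr
          _ = 3 * (1 : X × (ℕ × Bool) → ℝ≥0∞) q := by
              rw [Pi.one_apply, mul_one]
              have : (6 : ℝ≥0∞) * 3⁻¹ = 2 := by
                rw [show (6 : ℝ≥0∞) = 2 * 3 by norm_num, mul_assoc,
                  ENNReal.mul_inv_cancel (by norm_num) (by norm_num), mul_one]
              rw [this]; norm_num
          _ ≤ _ := le_self_add
      · rw [Set.indicator_of_notMem hB, zero_add]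
        have hnot : ¬ wt r (q.1, some q.2) ≤ 3⁻¹ := fun h => hB ⟨hq, h⟩
        rcases wt_values hPre hq with h | ⟨n, hn, _, h⟩
        · exact absurd (h ▸ bot_le) hnot
        · rw [h] at hnot
          have hn3 : n < 3 := by
            by_contra h3
            exact hnot (ENNReal.inv_le_inv.2 (by exact_mod_cast (not_lt.1 h3)))
          interval_cases n
          · -- a leaf
            have hL : q ∈ Leaves E r := ⟨hq, by rw [h]; simp⟩
            rw [Set.indicator_of_mem hL, h]
            simp only [Pi.one_apply, Nat.cast_one, inv_one, mul_one]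
            norm_num
          · have hL : q ∉ Leaves E r := by
              intro hL
              have h1 : wt r (q.1, some q.2) = 1 := hL.2
              rw [h] at h1
              have : ((2 : ℕ) : ℝ≥0∞)⁻¹ < 1 := by
                rw [ENNReal.inv_lt_one]; norm_num
              exact absurd h1 this.ne
            rw [Set.indicator_of_notMem hL, h, Pi.one_apply, mul_one, mul_zero, add_zero]
            have : (6 : ℝ≥0∞) * ((2 : ℕ) : ℝ≥0∞)⁻¹ = 3 := by
              rw [show (6 : ℝ≥0∞) = 3 * 2 by norm_num, mul_assoc, Nat.cast_ofNat,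
                ENNReal.mul_inv_cancel (by norm_num) (by norm_num), mul_one]
            rw [this]
    · have hB : q ∉ BigEnds E r := fun h => hq h.1
      rw [Set.indicator_of_notMem hB, Set.indicator_of_notMem hq, mul_zero, add_zero]
      exact bot_le
  have h1 := sint_mono (μ := μ) hpt
  rw [sint_add (μ := μ) (f := (BigEnds E r).indicator 1) (g := fun q => 6 *
      (Ends E).indicator (fun q => wt r (q.1, some q.2)) q)
      (fun i => measurable_one.indicator (hmB i)),
    sint_add (μ := μ) (f := fun q => 3 * (Ends E).indicator 1 q) (g := fun q => 3 *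
      (Leaves E r).indicator 1 q)
      (fun i => (measurable_one.indicator (hmE i)).const_mul 3),
    sint_const_mul' 6 (by norm_num), sint_const_mul' 3 (by norm_num),
    sint_const_mul' 3 (by norm_num), ← smeas_eq_sint hmB, ← smeas_eq_sint hmE,
    ← smeas_eq_sint hmL, smeas_ends] at h1
  have h2 : sint μ (fun q => (Ends E).indicator (fun q => wt r (q.1, some q.2)) q) = Vm μ E r := rfl
  rw [h2] at h1
  have h3 := euler_ineq hG hX hK hg
  have h4 : smeas μ (BigEnds E r) + 6 * Vm μ E r ≤
      (6 * smeas μ F + 6 * smeas μ N + 3 * smeas μ (Leaves E r)) + 6 * Vm μ E r := by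
    calc smeas μ (BigEnds E r) + 6 * Vm μ E r
        ≤ 3 * (2 * smeas μ E) + 3 * smeas μ (Leaves E r) := h1
      _ ≤ 3 * (2 * (Vm μ E r + smeas μ F + smeas μ N)) + 3 * smeas μ (Leaves E r) := by gcongr
      _ = _ := by ring
  exact (ENNReal.add_le_add_iff_right (ENNReal.mul_ne_top (by norm_num) hV)).1 h4

end Crest.Agent.FP
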