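import Mathlib
import Crest.Agent.FP_CellM
import Crest.Agent.FP_Wt

/-!
# Task FP-N2: shared edges have big ends (see FP_Count.lean)
-/

set_option autoImplicit false

open MeasureTheory
open scoped ENNReal

namespace Crest.Agent.FP

variable {Γ X : Type} [Group Γ] [Countable Γ] [MulAction Γ X] [MeasurableSpace X]
  {D : ℕ} [NeZero D] {G : PolyData Γ D} {μ : Measure X} [IsProbabilityMeasure μ] {f : X → ℝ}
  {E F N : Set (X × ℕ)} {r : Pt X → Pt X → Prop} {s : X × ℕ → (X × ℕ →₀ ℚ)}

/-- three different ends in the class of an end: the weight is at most `1/3`. -/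
theorem wt_le_third (hK : IsPre G μ E r) {q q₁ q₂ : X × (ℕ × Bool)} (hq : q ∈ Ends E)
    (h1 : r (q.1, some q.2) (q₁.1, some q₁.2)) (h2 : r (q.1, some q.2) (q₂.1, some q₂.2))
    (n1 : q ≠ q₁) (n2 : q ≠ q₂) (n3 : q₁ ≠ q₂) : wt r (q.1, some q.2) ≤ 3⁻¹ := by
  classical
  rcases wt_values hK hq with h | ⟨n, hn, hd, h⟩
  · rw [h]; exact bot_le
  · rw [h]
    have hc : (({q, q₁, q₂} : Finset (X × (ℕ × Bool))).card : ℝ≥0∞) ≤ deg r (q.1, some q.2) := by
      refine card_le_deg _ _ ?_
      intro t ht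
      simp only [Finset.mem_insert, Finset.mem_singleton] at ht
      rcases ht with rfl | rfl | rfl
      · exact ends_refl hK hq
      · exact h1
      · exact h2
    have hcard : ({q, q₁, q₂} : Finset (X × (ℕ × Bool))).card = 3 := by
      rw [Finset.card_insert_of_notMem, Finset.card_insert_of_notMem, Finset.card_singleton]
      · simpa using n3
      · simp only [Finset.mem_insert, Finset.mem_singleton, not_or]
        exact ⟨n1, n2⟩
    rw [hcard, hd] at hc
    rw [ENNReal.inv_le_inv]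
    exact_mod_cast hc

/-- (N2) -/
theorem shared_le (hG : G.Good) (hX : IsGoodAction G X μ f) (hK : IsCx G μ E r F) :
    2 * smeas μ {e | Shared G E r F e} ≤ smeas μ (BigEnds E r) := by
  classical
  rw [← smeas_ends (E := {e | Shared G E r F e})]
  refine smeas_mono ?_
  rintro ⟨x, k, b⟩ hq
  obtain ⟨⟨y, j, i⟩, ⟨y', j', i'⟩, hne, ⟨hF1, c, hc0, hc, he⟩, ⟨hF2, c', hc0', hc', he'⟩⟩ := hq
  simp only at hF1 hc0 hc he hF2 hc0' hc' he'
  obtain ⟨hx, hk⟩ := Prod.mk.inj he
  obtain ⟨hx', hk'⟩ := Prod.mk.inj he'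
  have hy : y = (G.u j)⁻¹ • x := by rw [hx, inv_smul_smul]
  have hy' : y' = (G.u j')⁻¹ • x := by rw [hx', inv_smul_smul]
  have hjj : j ≠ j' := by
    intro hj
    subst hj
    have h1 : y = y' := by rw [hy, hy']
    subst h1
    have h2 : c = c' := cell_unique hG hK hc hc' j (by rw [← hk, ← hk'])
    subst h2
    exact hne (by rw [← hc0, ← hc0'])
  have hE : (x, k) ∈ E := by
    rw [hx, hk]
    exact (hc j).1
  have hends : ((x, k, b) : X × (ℕ × Bool)) ∈ Ends E := hE
  refine ⟨hends, ?_⟩
  cases b with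
  | true =>
    refine wt_le_third hK.toIsPre hends (q₁ := (G.u (j + 1) • y, (c (j + 1), false)))
      (q₂ := (G.u (j' + 1) • y', (c' (j' + 1), false))) ?_ ?_ ?_ ?_ ?_
    · have h1 := (hc j).2
      rw [← hx, ← hk] at h1
      exact h1
    · have h1 := (hc' j').2
      rw [← hx', ← hk'] at h1
      exact h1
    · intro h
      have h1 := congrArg (fun t : X × (ℕ × Bool) => t.2.2) h
      simp at h1
    · intro h
      have h1 := congrArg (fun t : X × (ℕ × Bool) => t.2.2) h
      simp at h1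
    · intro h
      have h1 : G.u (j + 1) • y = G.u (j' + 1) • y' := congrArg (fun t => t.1) h
      rw [hy, hy', smul_smul, smul_smul] at h1
      have h2 : ((G.u (j' + 1) * (G.u j')⁻¹)⁻¹ * (G.u (j + 1) * (G.u j)⁻¹)) • x = x := by
        rw [mul_smul, h1, inv_smul_smul]
      have h3 := hX.free _ _ h2
      rw [inv_mul_eq_one] at h3
      exact hjj (hG.corner_inj h3).symm
  | false =>
    refine wt_le_third hK.toIsPre hends (q₁ := (G.u (j - 1) • y, (c (j - 1), true)))
      (q₂ := (G.u (j' - 1) • y', (c' (j' - 1), true))) ?_ ?_ ?_ ?_ ?_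
    · have h1 := (hc (j - 1)).2
      rw [sub_add_cancel, ← hx, ← hk] at h1
      exact hK.symm _ _ h1
    · have h1 := (hc' (j' - 1)).2
      rw [sub_add_cancel, ← hx', ← hk'] at h1
      exact hK.symm _ _ h1
    · intro h
      have h1 := congrArg (fun t : X × (ℕ × Bool) => t.2.2) h
      simp at h1
    · intro h
      have h1 := congrArg (fun t : X × (ℕ × Bool) => t.2.2) h
      simp at h1
    · intro h
      have h1 : G.u (j - 1) • y = G.u (j' - 1) • y' := congrArg (fun t => t.1) h
      rw [hy, hy', smul_smul, smul_smul] at h1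
      have h2 : ((G.u (j' - 1) * (G.u j')⁻¹)⁻¹ * (G.u (j - 1) * (G.u j)⁻¹)) • x = x := by
        rw [mul_smul, h1, inv_smul_smul]
      have h3 := hX.free _ _ h2
      rw [inv_mul_eq_one] at h3
      have h4 : G.u ((j - 1) + 1) * (G.u (j - 1))⁻¹ = G.u ((j' - 1) + 1) * (G.u (j' - 1))⁻¹ := by
        have h5 := congrArg (fun g => g⁻¹) h3
        simp only [mul_inv_rev, inv_inv] at h5
        rw [sub_add_cancel, sub_add_cancel]
        exact h5.symm
      have h5 := hG.corner_inj h4
      exact hjj (sub_left_injective h5)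

end Crest.Agent.FP
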