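import Mathlib
import Crest.Agent.FP_CellM
import Crest.Agent.FP_MTP
import Crest.Agent.FP_Wt

/-!
# Task FP-N3: incidences of cells with shared edges, from the spectral inequality (see FP_Count.lean)
-/

set_option autoImplicit false

open MeasureTheory
open scoped ENNReal

namespace Crest.Agent.FP

variable {Γ X : Type} [Group Γ] [Countable Γ] [MulAction Γ X] [MeasurableSpace X]
  {D : ℕ} [NeZero D] {G : PolyData Γ D} {μ : Measure X} [IsProbabilityMeasure μ] {f : X → ℝ}
  {E F N : Set (X × ℕ)} {r : Pt X → Pt X → Prop} {s : X × ℕ → (X × ℕ →₀ ℚ)}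

/-- layer cake for extended natural numbers -/
theorem enat_layer (a : ℕ∞) :
    (∑' k : ℕ, if ((k + 1 : ℕ) : ℕ∞) ≤ a then (1 : ℝ≥0∞) else 0) = (a : ℝ≥0∞) := by
  classical
  rw [tsum_ite_encard (fun k : ℕ => ((k + 1 : ℕ) : ℕ∞) ≤ a)]
  congr 1
  induction a using ENat.recTopCoe with
  | top =>
    have : ({k : ℕ | ((k + 1 : ℕ) : ℕ∞) ≤ ⊤} : Set ℕ) = Set.univ := by
      ext k; simp
    rw [this, Set.encard_univ, ENat.card_eq_top_of_infinite]
  | coe n =>
    have : ({k : ℕ | ((k + 1 : ℕ) : ℕ∞) ≤ (n : ℕ∞)} : Set ℕ) = ((Finset.range n : Finset ℕ) : Set ℕ) := by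
      ext k
      rw [Finset.mem_coe, Finset.mem_range]
      constructor
      · intro h
        have h' : ((k + 1 : ℕ) : ℕ∞) ≤ (n : ℕ∞) := h
        have := Nat.cast_le.1 h'
        omega
      · intro h
        show ((k + 1 : ℕ) : ℕ∞) ≤ (n : ℕ∞)
        exact Nat.cast_le.2 h
    rw [this, Set.encard_coe_eq_coe_finsetCard, Finset.card_range]

/-- the number of slots of `P` over `x` -/
noncomputable def slots {X ι : Type} (P : Set (X × ι)) (x : X) : ℕ∞ :=
  ({i : ι | (x, i) ∈ P} : Set ι).encard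

omit [Countable Γ] [Group Γ] [MulAction Γ X] [IsProbabilityMeasure μ] in
theorem slots_meas {ι : Type} [Countable ι] {P : Set (X × ι)} (hP : MSet P) (k : ℕ) :
    MeasurableSet {x | (k : ℕ∞) ≤ slots P x} := by
  classical
  have h1 : Measurable fun x : X => ∑' i : ι, if (x, i) ∈ P then (1 : ℝ≥0∞) else 0 :=
    Measurable.tsum fun i => Measurable.ite (hP i) measurable_const measurable_const
  have h2 : {x | (k : ℕ∞) ≤ slots P x} =
      {x : X | (k : ℝ≥0∞) ≤ ∑' i : ι, if (x, i) ∈ P then (1 : ℝ≥0∞) else 0} := by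
    ext x
    show (k : ℕ∞) ≤ slots P x ↔ (k : ℝ≥0∞) ≤ ∑' i : ι, if (x, i) ∈ P then (1 : ℝ≥0∞) else 0
    rw [tsum_ite_encard (fun i : ι => (x, i) ∈ P)]
    unfold slots
    rw [← ENat.toENNReal_le]
    rfl
  rw [h2]
  exact measurableSet_le measurable_const h1

omit [Countable Γ] [Group Γ] [MulAction Γ X] [IsProbabilityMeasure μ] in
theorem smeas_eq_slots {ι : Type} [Countable ι] {P : Set (X × ι)} (hP : MSet P) :
    smeas μ P = ∫⁻ x, (slots P x : ℝ≥0∞) ∂μ := by
  classical
  have h1 : ∀ x, (slots P x : ℝ≥0∞) = ∑' i : ι, ({x | (x, i) ∈ P} : Set X).indicator 1 x := by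
    intro x
    unfold slots
    rw [← tsum_ite_encard (fun i : ι => (x, i) ∈ P)]
    refine tsum_congr fun i => ?_
    by_cases h : (x, i) ∈ P
    · rw [if_pos h, Set.indicator_of_mem (by exact h)]; rfl
    · rw [if_neg h, Set.indicator_of_notMem (by exact h)]
  simp_rw [h1]
  rw [lintegral_tsum (fun i => (measurable_one.indicator (hP i)).aemeasurable)]
  unfold smeas
  refine tsum_congr fun i => ?_
  rw [lintegral_indicator_one (hP i)]

omit [Countable Γ] [Group Γ] [MulAction Γ X] [IsProbabilityMeasure μ] in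
theorem smeas_layer {ι : Type} [Countable ι] {P : Set (X × ι)} (hP : MSet P) :
    ∑' k : ℕ, μ {x | ((k + 1 : ℕ) : ℕ∞) ≤ slots P x} = smeas μ P := by
  classical
  rw [smeas_eq_slots hP]
  have h1 : ∀ x, (slots P x : ℝ≥0∞) =
      ∑' k : ℕ, ({x | ((k + 1 : ℕ) : ℕ∞) ≤ slots P x} : Set X).indicator 1 x := by
    intro x
    rw [← enat_layer (slots P x)]
    refine tsum_congr fun k => ?_
    by_cases h : ((k + 1 : ℕ) : ℕ∞) ≤ slots P x
    · rw [if_pos h, Set.indicator_of_mem (by exact h)]; rfl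
    · rw [if_neg h, Set.indicator_of_notMem (by exact h)]
  simp_rw [h1]
  rw [lintegral_tsum (fun k => (measurable_one.indicator (slots_meas hP (k + 1))).aemeasurable)]
  refine tsum_congr fun k => ?_
  rw [lintegral_indicator_one (slots_meas hP (k + 1))]

/-- (N3) incidences with shared edges -/
theorem incShared_le (hG : G.Good) (hX : IsGoodAction G X μ f) (hK : IsCx G μ E r F)
    (t : ℝ) (ht : 0 < t) (hF : smeas μ F ≠ ∞) (hE : smeas μ {e | Shared G E r F e} ≠ ∞) :
    (smeas μ {q : X × (ZMod D × ℕ) | ∃ e, Inc G E r F e q ∧ Shared G E r F e}).toReal ≤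
      (1 + 2 * Real.sqrt D) / 2 * (t * (smeas μ F).toReal +
        (smeas μ {e | Shared G E r F e}).toReal / t) +
      D * (smeas μ F).toReal * (smeas μ {e | Shared G E r F e}).toReal := by
  classical
  set Sh : Set (X × ℕ) := {e | Shared G E r F e} with hSh
  set IS : Set (X × (ZMod D × ℕ)) := {q | ∃ e, Inc G E r F e q ∧ Shared G E r F e} with hIS
  have hmSh : MSet Sh := meas_shared hG hX hK
  have hmF : MSet F := hK.measF
  have hmIS : MSet IS := (((inc_mrel hG hX hK).swap hX.mp).and_right hX.mp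
    (P := fun e => e ∈ Sh) hmSh).dom
  -- the fibres
  set ISj : ZMod D → Set (X × ℕ) := fun j => {p | (p.1, (j, p.2)) ∈ IS} with hISj
  have hmISj : ∀ j, MSet (ISj j) := fun j i => hmIS (j, i)
  have hfib : ∀ (j : ZMod D) (y : X), slots (ISj j) y ≤ slots F y ∧
      slots (ISj j) y ≤ slots Sh (G.u j • y) := by
    intro j y
    have hdata : ∀ i, (y, i) ∈ ISj j → (y, i) ∈ F ∧ ∃ c : ZMod D → ℕ, c 0 = i ∧
        IsCell G E r y c ∧ (G.u j • y, c j) ∈ Sh := by
      rintro i ⟨e, ⟨h1, c, hc0, hc, he⟩, h2⟩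
      refine ⟨h1, c, hc0, hc, ?_⟩
      rw [he] at h2
      exact h2
    constructor
    · exact Set.encard_le_encard (fun i hi => (hdata i hi).1)
    · set φ : ℕ → ℕ := fun i => if h : (y, i) ∈ ISj j then (hdata i h).2.choose j else 0 with hφ
      have hφ' : ∀ i (h : (y, i) ∈ ISj j), φ i = (hdata i h).2.choose j := by
        intro i h
        rw [hφ]
        exact dif_pos h
      refine Set.encard_le_encard_of_injOn (f := φ) ?_ ?_
      · intro i hi
        have h1 := (hdata i hi).2.choose_spec.2.2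
        rw [← hφ' i hi] at h1
        exact h1
      · intro i hi i' hi' he
        rw [hφ' i hi, hφ' i' hi'] at he
        have h1 := (hdata i hi).2.choose_spec
        have h2 := (hdata i' hi').2.choose_spec
        have h3 := cell_unique hG hK h1.2.1 h2.2.1 j he
        rw [← h1.1, ← h2.1, h3]
  set S : ℕ → Set X := fun k => {x | ((k + 1 : ℕ) : ℕ∞) ≤ slots F x} with hS
  set T : ℕ → Set X := fun k => {x | ((k + 1 : ℕ) : ℕ∞) ≤ slots Sh x} with hT
  have hmS : ∀ k, MeasurableSet (S k) := fun k => slots_meas hmF (k + 1)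
  have hmT : ∀ k, MeasurableSet (T k) := fun k => slots_meas hmSh (k + 1)
  have hsumS : ∑' k, μ (S k) = smeas μ F := smeas_layer hmF
  have hsumT : ∑' k, μ (T k) = smeas μ Sh := smeas_layer hmSh
  -- the bound for `IS`
  have h1 : smeas μ IS ≤ ∑' k : ℕ, ∑ j : ZMod D, μ (S k ∩ {x | G.u j • x ∈ T k}) := by
    have h2 : smeas μ IS = ∑ j : ZMod D, smeas μ (ISj j) := by
      unfold smeas
      rw [ENNReal.tsum_prod', tsum_fintype]
      rfl
    rw [h2, Summable.tsum_finsetSum (fun _ _ => ENNReal.summable)]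
    refine Finset.sum_le_sum fun j _ => ?_
    rw [← smeas_layer (hmISj j)]
    refine ENNReal.tsum_le_tsum fun k => measure_mono ?_
    intro x hx
    exact ⟨le_trans hx (hfib j x).1, le_trans hx (hfib j x).2⟩
  -- real numbers
  set a : ℕ → ℝ := fun k => (μ (S k)).toReal with ha
  set b : ℕ → ℝ := fun k => (μ (T k)).toReal with hb
  set α : ℝ := (smeas μ F).toReal with hα
  set β : ℝ := (smeas μ Sh).toReal with hβ
  have ha0 : ∀ k, 0 ≤ a k := fun k => ENNReal.toReal_nonneg
  have hb0 : ∀ k, 0 ≤ b k := fun k => ENNReal.toReal_nonneg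
  have hsa : HasSum a α := by
    have h2 : Summable a := ENNReal.summable_toReal (by rw [hsumS]; exact hF)
    have h3 : ∑' k, a k = α := by
      rw [hα, ← hsumS, ENNReal.tsum_toReal_eq (fun k => measure_ne_top μ _)]
    rw [← h3]
    exact h2.hasSum
  have hsb : HasSum b β := by
    have h2 : Summable b := ENNReal.summable_toReal (by rw [hsumT]; exact hE)
    have h3 : ∑' k, b k = β := by
      rw [hβ, ← hsumT, ENNReal.tsum_toReal_eq (fun k => measure_ne_top μ _)]
    rw [← h3]
    exact h2.hasSum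
  have hbβ : ∀ k, b k ≤ β := fun k => le_hasSum hsb k (fun k _ => hb0 k)
  set C : ℝ := 1 + 2 * Real.sqrt D with hC
  have hC0 : 0 ≤ C := by positivity
  set g : ℕ → ℝ := fun k => C / 2 * (t * a k + b k / t) + D * a k * β with hg
  have hg0 : ∀ k, 0 ≤ g k := by
    intro k
    have h2 := ha0 k
    have h3 := hb0 k
    have h4 : 0 ≤ β := ENNReal.toReal_nonneg
    rw [hg]
    positivity
  have hsg : HasSum g (C / 2 * (t * α + β / t) + D * α * β) := by
    have h2 : HasSum (fun k => C / 2 * (t * a k + b k / t)) (C / 2 * (t * α + β / t)) :=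
      ((hsa.mul_left t).add (hsb.div_const t)).mul_left (C / 2)
    have h3 : HasSum (fun k => D * a k * β) (D * α * β) := (hsa.mul_left (D : ℝ)).mul_right β
    exact h2.add h3
  have hk : ∀ k, ∑ j : ZMod D, μ (S k ∩ {x | G.u j • x ∈ T k}) ≤ ENNReal.ofReal (g k) := by
    intro k
    have h2 := hX.sm (S k) (T k) (hmS k) (hmT k)
    have h3 : (∑ j : ZMod D, μ (S k ∩ {x | G.u j • x ∈ T k})).toReal ≤ g k := by
      rw [ENNReal.toReal_sum (fun j _ => measure_ne_top μ _)]
      refine h2.trans ?_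
      have h4 : Real.sqrt (a k * b k) ≤ (t * a k + b k / t) / 2 := by
        rw [Real.sqrt_le_left (by have := ha0 k; have := hb0 k; positivity)]
        have h5 : a k * b k = (t * a k) * (b k / t) := by field_simp
        rw [h5]
        nlinarith [sq_nonneg (t * a k - b k / t)]
      have h6 : C * Real.sqrt (a k * b k) ≤ C / 2 * (t * a k + b k / t) := by
        have := mul_le_mul_of_nonneg_left h4 hC0
        linarith
      have h7 : (D : ℝ) * a k * b k ≤ D * a k * β :=
        mul_le_mul_of_nonneg_left (hbβ k) (by have := ha0 k; positivity)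
      exact add_le_add h6 h7
    rw [← ENNReal.ofReal_toReal (a := ∑ j : ZMod D, μ (S k ∩ {x | G.u j • x ∈ T k}))]
    · exact ENNReal.ofReal_le_ofReal h3
    · exact (ENNReal.sum_lt_top.2 fun j _ => measure_lt_top μ _).ne
  have h5 : smeas μ IS ≤ ENNReal.ofReal (C / 2 * (t * α + β / t) + D * α * β) := by
    refine h1.trans ((ENNReal.tsum_le_tsum hk).trans ?_)
    rw [← hsg.tsum_eq, ENNReal.ofReal_tsum_of_nonneg hg0 hsg.summable]
  have h6 : 0 ≤ C / 2 * (t * α + β / t) + D * α * β := hsg.nonneg hg0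
  exact ENNReal.toReal_le_of_le_ofReal h6 h5

end Crest.Agent.FP
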