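import Mathlib
import Crest.Agent.FP_CellM
import Crest.Agent.FP_Wt

/-!
# Task FP-N4: bad cells (see FP_Count.lean)
-/

set_option autoImplicit false

open MeasureTheory
open scoped ENNReal

namespace Crest.Agent.FP

variable {Γ X : Type} [Group Γ] [Countable Γ] [MulAction Γ X] [MeasurableSpace X]
  {D : ℕ} [NeZero D] {G : PolyData Γ D} {μ : Measure X} [IsProbabilityMeasure μ] {f : X → ℝ}
  {E F N : Set (X × ℕ)} {r : Pt X → Pt X → Prop} {s : X × ℕ → (X × ℕ →₀ ℚ)}

omit [IsProbabilityMeasure μ] in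
/-- injection lemma: an orbit preserving measurable correspondence from `P` to `Q` which is injective
gives `smeas P ≤ smeas Q` -/
theorem smeas_le_of_rel {ι κ : Type} [Countable ι] [Countable κ]
    (hfree : ∀ (g : Γ) (x : X), g • x = x → g = 1)
    (hmp : ∀ g : Γ, MeasurePreserving (fun x : X => g • x) μ μ)
    (R : X × ι → X × κ → Prop) (hR : MRel Γ R) (P : Set (X × ι)) (Q : Set (X × κ))
    (hP : MSet P) (hQ : MSet Q) (h1 : ∀ p ∈ P, ∃ q ∈ Q, R p q)
    (h2 : ∀ q ∈ Q, ∀ p ∈ P, ∀ p' ∈ P, R p q → R p' q → p = p') :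
    smeas μ P ≤ smeas μ Q := by
  classical
  set H : X × ι → X × κ → ℝ≥0∞ := fun p q => if p ∈ P ∧ q ∈ Q ∧ R p q then 1 else 0 with hH
  have hF : ∀ p q, H p q ≠ 0 → ∃ g : Γ, q.1 = g • p.1 := by
    intro p q h
    by_contra hcon
    apply h
    rw [hH]
    exact if_neg (fun h' => hcon (hR.1 _ _ h'.2.2))
  have hm : ∀ (g : Γ) i k, Measurable fun x => H (x, i) (g • x, k) := by
    intro g i k
    refine Measurable.ite ?_ measurable_const measurable_const
    exact (hP i).inter (((hmp g).measurable (hQ k)).inter (hR.2 g i k))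
  have key := mtp (μ := μ) hfree hmp H hF hm
  rw [smeas_eq_sint hP, smeas_eq_sint hQ]
  calc sint μ (P.indicator 1) ≤ sint μ (fun p => ∑' q, H p q) := by
        refine sint_mono fun p => ?_
        by_cases hp : p ∈ P
        · rw [Set.indicator_of_mem hp]
          obtain ⟨q, hq, hpq⟩ := h1 p hp
          refine le_trans ?_ (ENNReal.le_tsum q)
          rw [hH]
          simp only
          rw [if_pos ⟨hp, hq, hpq⟩]
          exact le_rfl
        · rw [Set.indicator_of_notMem hp]; exact bot_le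
    _ = sint μ (fun q => ∑' p, H p q) := key
    _ ≤ sint μ (Q.indicator 1) := by
        refine sint_mono fun q => ?_
        by_cases hq : q ∈ Q
        · rw [Set.indicator_of_mem hq, hH]
          rw [tsum_ite_encard (fun p => p ∈ P ∧ q ∈ Q ∧ R p q)]
          have : ({p | p ∈ P ∧ q ∈ Q ∧ R p q} : Set (X × ι)).encard ≤ 1 := by
            rw [Set.encard_le_one_iff]
            intro a b ha hb
            exact h2 q hq a ha.1 b hb.1 ha.2.2 hb.2.2
          have h3 := ENat.toENNReal_le.2 this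
          rw [Pi.one_apply]
          exact_mod_cast h3
        · rw [Set.indicator_of_notMem hq]
          refine le_of_eq ?_
          rw [ENNReal.tsum_eq_zero]
          intro p
          rw [hH]
          exact if_neg (fun h => hq h.2.1)

omit [MulAction Γ X] [Group Γ] [Countable Γ] [IsProbabilityMeasure μ] in
theorem smeas_union_le {ι : Type} (P Q : Set (X × ι)) :
    smeas μ (P ∪ Q) ≤ smeas μ P + smeas μ Q := by
  unfold smeas
  rw [← ENNReal.tsum_add]
  exact ENNReal.tsum_le_tsum fun i => measure_union_le _ _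

omit [Countable Γ] in
/-- an edge relation extended to ends with a given direction -/
theorem MRel.toEnd {ι : Type} {S : X × ι → X × ℕ → Prop} (hS : MRel Γ S) (b : Bool) :
    MRel Γ (fun (q : X × ι) (p : X × (ℕ × Bool)) => S q (p.1, p.2.1) ∧ p.2.2 = b) := by
  refine ⟨fun p q h => hS.1 _ _ h.1, ?_⟩
  rintro g i ⟨k, b'⟩
  by_cases h : b' = b
  · have : {x | S (x, i) ((g • x, (k, b')).1, (g • x, (k, b')).2.1) ∧ (g • x, (k, b')).2.2 = b} =
        {x : X | S (x, i) (g • x, k)} := by
      ext x; exact ⟨fun h' => h'.1, fun h' => ⟨h', h⟩⟩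
    rw [this]
    exact hS.2 g i k
  · have : {x | S (x, i) ((g • x, (k, b')).1, (g • x, (k, b')).2.1) ∧ (g • x, (k, b')).2.2 = b} =
        (∅ : Set X) := by
      ext x; exact ⟨fun h' => h h'.2, fun h' => h'.elim⟩
    rw [this]
    exact MeasurableSet.empty

/-- an edge of a cell which is not shared is private -/
theorem priv_of_not_shared {e : X × ℕ} {q : X × (ZMod D × ℕ)} (h : Inc G E r F e q)
    (hs : ¬ Shared G E r F e) : Priv G E r F e := by
  refine ⟨q, h, ?_⟩
  intro q' hq'
  by_contra hne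
  exact hs ⟨q', q, hne, hq', h⟩

/-- (N4) bad cells -/
theorem bad_le (hG : G.Good) (hX : IsGoodAction G X μ f) (hK : IsCx G μ E r F) :
    D * smeas μ (F \ GoodCells G E r F) ≤
      2 * smeas μ {q : X × (ZMod D × ℕ) | ∃ e, Inc G E r F e q ∧ Shared G E r F e} +
        smeas μ (BigEnds E r) := by
  have hPre : IsPre G μ E r := hK.toIsPre
  set IS : Set (X × (ZMod D × ℕ)) := {q | ∃ e, Inc G E r F e q ∧ Shared G E r F e} with hIS
  set IS' : Set (X × (ZMod D × ℕ)) := {q | (q.1, (q.2.1 + 1, q.2.2)) ∈ IS} with hIS'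
  set P : Set (X × (ZMod D × ℕ)) := {q | (q.1, q.2.2) ∈ F \ GoodCells G E r F} with hP
  -- the correspondence
  have hRe : MRel Γ (fun (q : X × (ZMod D × ℕ)) (e : X × ℕ) => Inc G E r F e q ∧ Priv G E r F e) :=
    ((inc_mrel hG hX hK).swap hX.mp).and_right hX.mp (meas_priv hG hX hK)
  have hR := MRel.toEnd hRe true
  have hmB : MSet (BigEnds E r) := by
    intro k
    exact (mset_Ends hPre.measE k).inter (meas_wt hG hX hPre (some k) measurableSet_Iic)
  have hR' := hR.and_right hX.mp (P := fun p => p ∈ BigEnds E r) hmB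
  have hdom := hR'.dom
  set Q : Set (X × (ZMod D × ℕ)) := {q | ∃ p : X × (ℕ × Bool),
    ((Inc G E r F (p.1, p.2.1) q ∧ Priv G E r F (p.1, p.2.1)) ∧ p.2.2 = true) ∧
      p ∈ BigEnds E r} with hQ
  have hQle : smeas μ Q ≤ smeas μ (BigEnds E r) := by
    refine smeas_le_of_rel hX.free hX.mp _ hR Q (BigEnds E r) hdom hmB ?_ ?_
    · rintro q ⟨p, hp1, hp2⟩
      exact ⟨p, hp2, hp1⟩
    · intro p _ q _ q' _ h h'
      obtain ⟨t, _, ht⟩ := h.1.2
      rw [ht q h.1.1, ht q' h'.1.1]
  -- the covering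
  have hcov : P ⊆ IS ∪ IS' ∪ Q := by
    rintro ⟨y, j, i⟩ ⟨hq1, hq2⟩
    simp only at hq1 hq2
    obtain ⟨c, hc0, hc⟩ := hK.cell y i hq1
    have hinc : ∀ k, Inc G E r F (G.u k • y, c k) (y, (k, i)) :=
      fun k => ⟨hq1, c, hc0, hc, rfl⟩
    by_cases hs1 : Shared G E r F (G.u j • y, c j)
    · exact Or.inl (Or.inl ⟨_, hinc j, hs1⟩)
    by_cases hs2 : Shared G E r F (G.u (j + 1) • y, c (j + 1))
    · exact Or.inl (Or.inr ⟨_, hinc (j + 1), hs2⟩)
    right
    have hp1 := priv_of_not_shared (hinc j) hs1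
    have hp2 := priv_of_not_shared (hinc (j + 1)) hs2
    have hw2 : wt r (G.u j • y, some (c j, true)) ≠ 2⁻¹ := by
      intro h
      exact hq2 ⟨j, hq1, c, hc0, hc, hp1, hp2, h⟩
    have hend : ((G.u j • y, (c j, true)) : X × (ℕ × Bool)) ∈ Ends E := (hc j).1
    refine ⟨(G.u j • y, (c j, true)), ⟨⟨hinc j, hp1⟩, rfl⟩, hend, ?_⟩
    rcases wt_values hPre hend with h | ⟨n, hn, hdeg, h⟩
    · simp only at h
      rw [h]; exact bot_le
    · simp only at h hdeg
      have hn2 : 2 ≤ n := by
        classical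
        have hne : ((G.u j • y, (c j, true)) : X × (ℕ × Bool)) ≠
            (G.u (j + 1) • y, (c (j + 1), false)) := by
          intro h'
          have := congrArg (fun t : X × (ℕ × Bool) => t.2.2) h'
          simp at this
        have h5 := card_le_deg (r := r) (G.u j • y, some (c j, true))
          ({(G.u j • y, (c j, true)), (G.u (j + 1) • y, (c (j + 1), false))} :
            Finset (X × (ℕ × Bool))) (by
              intro q hq
              rw [Finset.mem_insert, Finset.mem_singleton] at hq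
              rcases hq with rfl | rfl
              · exact ends_refl hPre hend
              · exact (hc j).2)
        rw [Finset.card_pair hne, hdeg] at h5
        exact_mod_cast h5
      have hn2' : n ≠ 2 := by
        rintro rfl
        exact hw2 (by rw [h]; norm_num)
      rw [h]
      exact ENNReal.inv_le_inv.2 (by exact_mod_cast (by omega : 3 ≤ n))
  -- measures
  have h1 : smeas μ P = D * smeas μ (F \ GoodCells G E r F) := by
    unfold smeas
    rw [ENNReal.tsum_prod', tsum_fintype]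
    have : ∀ j : ZMod D, (∑' i : ℕ, μ {x : X | (x, (j, i)) ∈ P}) =
        ∑' i : ℕ, μ {x : X | (x, i) ∈ F \ GoodCells G E r F} := fun j => rfl
    rw [Finset.sum_congr rfl (fun j _ => this j), Finset.sum_const, Finset.card_univ, ZMod.card,
      nsmul_eq_mul]
  have h2 : smeas μ IS' = smeas μ IS := by
    unfold smeas
    rw [ENNReal.tsum_prod', ENNReal.tsum_prod']
    exact (Equiv.addRight (1 : ZMod D)).tsum_eq
      (fun j : ZMod D => ∑' i : ℕ, μ {x : X | (x, (j, i)) ∈ IS})
  calc D * smeas μ (F \ GoodCells G E r F) = smeas μ P := h1.symm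
    _ ≤ smeas μ (IS ∪ IS' ∪ Q) := smeas_mono hcov
    _ ≤ smeas μ IS + smeas μ IS' + smeas μ Q :=
        (smeas_union_le _ _).trans (add_le_add_left (smeas_union_le _ _) _)
    _ ≤ smeas μ IS + smeas μ IS + smeas μ (BigEnds E r) := by
        rw [h2]; gcongr
    _ = 2 * smeas μ IS + smeas μ (BigEnds E r) := by rw [two_mul]

end Crest.Agent.FP
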