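import Mathlib
import Crest.Agent.FP_Count1
import Crest.Agent.FP_Count2
import Crest.Agent.FP_Count3
import Crest.Agent.FP_Count4

/-!
# Task FP-N5: few bad cells

Numbers: `D = 10000`, `smeas F = φ ∈ (2·10⁻⁵, 3·10⁻⁵]`, `smeas N ≤ 10⁻⁶`, `δ = smeas Leaves ≤ 10⁻⁶`.

Let `a₃` = measure of the ends (of edges of `E`) of weight `≤ 1/3` (weights are `0, 1, 1/2, 1/3, …`), `a₁ = δ`
(weight `1`), `a₂` (weight `1/2`).  `a₁ + a₂ + a₃ = 2 E`, `V ≤ a₁ + a₂/2 + a₃/3`, so
`a₃ ≤ 6 (E - V) + 3 δ ≤ 6 (φ + 10⁻⁶) + 3 · 10⁻⁶ ≤ 6.45 φ` by `euler_ineq`.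

Shared edges: both ends have weight `≤ 1/3`: if `e` is the `j`-th edge of `f` and the `j'`-th edge of
`f'`, `(f, j) ≠ (f', j')`, then `j ≠ j'` (immersed), and at the terminus of `e` the ends `(e, true)`,
`(e_{j+1}(f), false)`, `(e_{j'+1}(f'), false)` are different since `u_{j+1} u_j⁻¹ ≠ u_{j'+1} u_{j'}⁻¹`
(`corner_inj`); similarly at the origin.  So `2 E_s ≤ a₃`, `E_s` = measure of shared edges.

Incidences of cells with shared edges: `I_s = smeas {(y,(j,i)) | (y,i) ∈ F, e_j shared}`.  For fixed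
`j` and `y` their number is at most `min (n y) (σ (u_j y))`, `n y = #{i | (y,i) ∈ F}`,
`σ x = #{shared edges over x}`.  With `S_k = {n ≥ k}`, `T_k = {σ ≥ k}` (`k ≥ 1`), the spectral
inequality `hX.sm` and `2 √(ab) ≤ t a + b / t`:
`I_s ≤ ∑_k ∑_j μ (S_k ∩ u_j⁻¹ T_k) ≤ 201/2 (t φ + E_s / t) + 10⁴ φ E_s`; with `t = 1.8`:
`E_s ≤ 3.225 φ`, `I_s ≤ (181 + 181) φ + 0.97 φ`.

A bad cell has for every `j`: `e_j` shared, or `e_{j+1}` shared, or both private and the vertex between
them has weight `≤ 1/3` (its weight is not `1` as it has two ends).  The last kind of corners is counted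
injectively by the end `(e_j, true)` of the private edge `e_j`, so is at most `a₃`.
Hence `D · smeas (bad) ≤ 2 I_s + a₃ ≤ 740 φ`, `smeas (bad) ≤ 0.074 · 3 · 10⁻⁵ ≤ 10⁻⁵`.
-/

set_option autoImplicit false

open MeasureTheory
open scoped ENNReal

namespace Crest.Agent.FP

variable {Γ X : Type} [Group Γ] [Countable Γ] [MulAction Γ X] [MeasurableSpace X]
  {D : ℕ} [NeZero D] {G : PolyData Γ D} {μ : Measure X} [IsProbabilityMeasure μ] {f : X → ℝ}
  {E F N : Set (X × ℕ)} {r : Pt X → Pt X → Prop} {s : X × ℕ → (X × ℕ →₀ ℚ)}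

/-- (N5) numerics -/
theorem bad_small (hG : G.Good) (hX : IsGoodAction G X μ f) (hK : IsCx G μ E r F)
    (hg : GenBy G E r F N s) (hV : Vm μ E r ≠ ∞) (hD : D = 10000)
    (hF : ENNReal.ofReal (2 / 100000) < smeas μ F) (hF' : smeas μ F ≤ ENNReal.ofReal (3 / 100000))
    (hN : smeas μ N ≤ ENNReal.ofReal (1 / 1000000))
    (hL : smeas μ (Leaves E r) ≤ ENNReal.ofReal (1 / 1000000)) :
    smeas μ (F \ GoodCells G E r F) ≤ ENNReal.ofReal (1 / 100000) := by
  have hFfin : smeas μ F ≠ ∞ := ne_top_of_le_ne_top ENNReal.ofReal_ne_top hF'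
  have hNfin : smeas μ N ≠ ∞ := ne_top_of_le_ne_top ENNReal.ofReal_ne_top hN
  have hLfin : smeas μ (Leaves E r) ≠ ∞ := ne_top_of_le_ne_top ENNReal.ofReal_ne_top hL
  have h1 := bigEnds_le hG hX hK hg hV
  have h2 := shared_le hG hX hK
  have hBfin : smeas μ (BigEnds E r) ≠ ∞ := by
    refine ne_top_of_le_ne_top ?_ h1
    exact ENNReal.add_ne_top.2 ⟨ENNReal.add_ne_top.2 ⟨ENNReal.mul_ne_top (by norm_num) hFfin,
      ENNReal.mul_ne_top (by norm_num) hNfin⟩, ENNReal.mul_ne_top (by norm_num) hLfin⟩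
  have hSfin : smeas μ {e | Shared G E r F e} ≠ ∞ := by
    have h3 : smeas μ {e | Shared G E r F e} ≤ 2 * smeas μ {e | Shared G E r F e} := by
      conv_lhs => rw [← one_mul (smeas μ {e | Shared G E r F e})]
      gcongr
      norm_num
    exact ne_top_of_le_ne_top hBfin (h3.trans h2)
  have h4 := incShared_le hG hX hK (9/5) (by norm_num) hFfin hSfin
  have h5 := bad_le hG hX hK
  set I := smeas μ {q : X × (ZMod D × ℕ) | ∃ e, Inc G E r F e q ∧ Shared G E r F e} with hI
  have hIfin : I ≠ ∞ := by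
    have h6 : I ≤ D * smeas μ F := by
      calc I ≤ ∑' q : ZMod D × ℕ, μ {x | (x, q.2) ∈ F} := by
            refine ENNReal.tsum_le_tsum fun q => measure_mono ?_
            rintro x ⟨e, he, _⟩
            exact he.1
        _ = ∑' (j : ZMod D) (i : ℕ), μ {x | (x, i) ∈ F} :=
            ENNReal.tsum_prod (f := fun (_ : ZMod D) (i : ℕ) => μ {x | (x, i) ∈ F})
        _ = D * smeas μ F := by
            rw [tsum_fintype]
            simp only [Finset.sum_const, Finset.card_univ, ZMod.card, nsmul_eq_mul]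
            rfl
    exact ne_top_of_le_ne_top (ENNReal.mul_ne_top (ENNReal.natCast_ne_top D) hFfin) h6
  -- to real numbers
  set φ := (smeas μ F).toReal with hφ
  set es := (smeas μ {e | Shared G E r F e}).toReal with hes
  have hφ1 : 2 / 100000 ≤ φ := by
    rw [hφ]
    exact (ENNReal.ofReal_le_iff_le_toReal hFfin).1 hF.le
  have hφ2 : φ ≤ 3 / 100000 := by
    rw [hφ]
    exact ENNReal.toReal_le_of_le_ofReal (by norm_num) hF'
  have hn : (smeas μ N).toReal ≤ 1 / 1000000 := ENNReal.toReal_le_of_le_ofReal (by norm_num) hN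
  have hl : (smeas μ (Leaves E r)).toReal ≤ 1 / 1000000 :=
    ENNReal.toReal_le_of_le_ofReal (by norm_num) hL
  have hB : (smeas μ (BigEnds E r)).toReal ≤
      6 * φ + 6 * (smeas μ N).toReal + 3 * (smeas μ (Leaves E r)).toReal := by
    have h7 := ENNReal.toReal_mono (ENNReal.add_ne_top.2 ⟨ENNReal.add_ne_top.2
      ⟨ENNReal.mul_ne_top (by norm_num) hFfin,
      ENNReal.mul_ne_top (by norm_num) hNfin⟩, ENNReal.mul_ne_top (by norm_num) hLfin⟩) h1
    rw [ENNReal.toReal_add (ENNReal.add_ne_top.2 ⟨ENNReal.mul_ne_top (by norm_num) hFfin,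
      ENNReal.mul_ne_top (by norm_num) hNfin⟩) (ENNReal.mul_ne_top (by norm_num) hLfin),
      ENNReal.toReal_add (ENNReal.mul_ne_top (by norm_num) hFfin)
      (ENNReal.mul_ne_top (by norm_num) hNfin), ENNReal.toReal_mul, ENNReal.toReal_mul,
      ENNReal.toReal_mul] at h7
    simpa using h7
  have hS : 2 * es ≤ (smeas μ (BigEnds E r)).toReal := by
    have h7 := ENNReal.toReal_mono hBfin h2
    rw [ENNReal.toReal_mul] at h7
    simpa using h7
  have hes0 : 0 ≤ es := ENNReal.toReal_nonneg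
  have hsq : Real.sqrt (D : ℝ) = 100 := by
    rw [hD]
    rw [show ((10000 : ℕ) : ℝ) = 100 ^ 2 by norm_num]
    exact Real.sqrt_sq (by norm_num)
  have hDr : (D : ℝ) = 10000 := by rw [hD]; norm_num
  rw [hsq, hDr] at h4
  have hIle : I.toReal ≤ 400 * φ := by
    have h8 : es ≤ 4 * φ := by linarith
    have h9 : 10000 * φ * es ≤ 0.3 * es := by nlinarith
    nlinarith
  have hbad : smeas μ (F \ GoodCells G E r F) ≠ ∞ := by
    refine ne_top_of_le_ne_top hFfin ?_
    exact ENNReal.tsum_le_tsum fun i => measure_mono fun x hx => hx.1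
  have h10 : 10000 * (smeas μ (F \ GoodCells G E r F)).toReal ≤
      2 * I.toReal + (smeas μ (BigEnds E r)).toReal := by
    have h7 := ENNReal.toReal_mono (ENNReal.add_ne_top.2
      ⟨ENNReal.mul_ne_top (by norm_num) hIfin, hBfin⟩) h5
    rw [ENNReal.toReal_add (ENNReal.mul_ne_top (by norm_num) hIfin) hBfin, ENNReal.toReal_mul,
      ENNReal.toReal_mul, ENNReal.toReal_natCast, hDr] at h7
    simpa using h7
  rw [← ENNReal.ofReal_toReal hbad]
  apply ENNReal.ofReal_le_ofReal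
  nlinarith

end Crest.Agent.FP
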