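import Mathlib
import Crest.Agent.FP_RestrictV
import Crest.Agent.FP_Rows
import Crest.Agent.FP_Wt

/-!
# Task FP-P: pruning vertices of degree one
-/

set_option autoImplicit false

open MeasureTheory
open scoped ENNReal

namespace Crest.Agent.FP

variable {Γ X : Type} [Group Γ] [Countable Γ] [MulAction Γ X] [MeasurableSpace X]
  {D : ℕ} [NeZero D] {G : PolyData Γ D} {μ : Measure X} [IsProbabilityMeasure μ] {f : X → ℝ}
  {E F N : Set (X × ℕ)} {r : Pt X → Pt X → Prop} {s : X × ℕ → (X × ℕ →₀ ℚ)}

omit [Countable Γ] [IsProbabilityMeasure μ] in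
/-- The class of a leaf contains exactly one end. -/
theorem leaf_unique {q q' : X × (ℕ × Bool)} (hK : IsPre G μ E r) (hq : q ∈ Leaves E r)
    (h : r (q.1, some q.2) (q'.1, some q'.2)) : q' = q := by
  classical
  by_contra hne
  have hact : Act E ((q.1, some q.2) : Pt X) := by
    intro i b hib
    have h1 := hq.1
    simp only [Option.some.injEq] at hib
    have : (q.1, q.2.1) ∈ E := h1
    rw [hib] at this
    exact this
  have hrefl := hK.refl _ hact
  have hcard := card_le_deg (r := r) ((q.1, some q.2) : Pt X) {q, q'} (by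
    intro p hp
    simp only [Finset.mem_insert, Finset.mem_singleton] at hp
    rcases hp with rfl | rfl
    · exact hrefl
    · exact h)
  have h2 : wt r ((q.1, some q.2) : Pt X) = 1 := hq.2
  unfold wt at h2
  split_ifs at h2 with hb
  · exact zero_ne_one h2
  · rw [ENNReal.inv_eq_one] at h2
    rw [h2, Finset.card_pair (fun h => hne h.symm)] at hcard
    norm_num at hcard

omit [Countable Γ] [IsProbabilityMeasure μ] [MulAction Γ X] [MeasurableSpace X] [Group Γ] in
theorem leaf_not_base {q : X × (ℕ × Bool)} (hq : q ∈ Leaves E r) {y : X}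
    (h : r (q.1, some q.2) (y, none)) : False := by
  classical
  have h2 : wt r ((q.1, some q.2) : Pt X) = 1 := hq.2
  unfold wt at h2
  rw [if_pos ⟨y, h⟩] at h2
  exact zero_ne_one h2

/-- The edges without an end in `Leaves`. -/
def prE (E : Set (X × ℕ)) (r : Pt X → Pt X → Prop) : Set (X × ℕ) :=
  {e | e ∈ E ∧ ∀ b, (e.1, (e.2, b)) ∉ Leaves E r}

omit [Countable Γ] [IsProbabilityMeasure μ] in
/-- A point in the class of a leaf is not active for the pruned edge set. -/
theorem leaf_not_act {q : X × (ℕ × Bool)} (hK : IsPre G μ E r) (hq : q ∈ Leaves E r)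
    {p : Pt X} (hp : Act (prE E r) p) (h : r (q.1, some q.2) p) : False := by
  rcases p with ⟨y, _ | k⟩
  · exact leaf_not_base hq h
  · have h1 := leaf_unique (q' := (y, k)) hK hq h
    subst h1
    exact (hp k.1 k.2 rfl).2 k.2 hq

omit [Countable Γ] [IsProbabilityMeasure μ] in
theorem reach_r (hK : IsPre G μ E r) {n : ℕ} {p q q' : Pt X} (h : Reach E r n p q) (h' : r q q') :
    Reach E r n p q' := by
  cases n with
  | zero => exact hK.trans _ _ _ h h'
  | succ n =>
    obtain ⟨x, i, b, h1, h2, h3⟩ := h
    exact ⟨x, i, b, h1, h2, hK.trans _ _ _ h3 h'⟩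

omit [Countable Γ] [IsProbabilityMeasure μ] in
theorem reach_prune (hK : IsPre G μ E r) (n : ℕ) : ∀ {p q : Pt X}, Act (prE E r) p →
    Act (prE E r) q → Reach E r n p q → ∃ m, Reach (prE E r) (resR (prE E r) r) m p q := by
  induction n using Nat.strong_induction_on with
  | _ n ih =>
    intro p q hp hq h
    cases n with
    | zero => exact ⟨0, h, hp, hq⟩
    | succ n =>
      obtain ⟨x, i, b, h1, h2, h3⟩ := h
      by_cases hx : (x, i) ∈ prE E r
      · have hact : ∀ b' : Bool, Act (prE E r) ((x, some (i, b')) : Pt X) := by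
          intro b' j c hjc
          simp only [Option.some.injEq, Prod.mk.injEq] at hjc
          rw [← hjc.1]; exact hx
        obtain ⟨m, hm⟩ := ih n (Nat.lt_succ_self n) hp (hact b) h2
        exact ⟨m + 1, x, i, b, hx, hm, h3, hact _, hq⟩
      · -- one of the ends is a leaf
        have hleaf : ∃ c, (x, (i, c)) ∈ Leaves E r := by
          by_contra hcon
          push Not at hcon
          exact hx ⟨h1, hcon⟩
        obtain ⟨c, hc⟩ := hleaf
        by_cases hcb : c = b
        · subst hcb
          cases n with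
          | zero =>
            exact absurd (leaf_not_act hK hc hp (hK.symm _ _ h2)) not_false
          | succ n =>
            obtain ⟨x', i', b', h1', h2', h3'⟩ := h2
            have := leaf_unique (q' := (x', (i', !b'))) hK hc (hK.symm _ _ h3')
            simp only [Prod.mk.injEq] at this
            obtain ⟨rfl, rfl, rfl⟩ := this
            rw [Bool.not_not] at h3
            exact ih n (by omega) hp hq (reach_r hK h2' h3)
        · have hcb' : c = !b := by
            cases b <;> cases c <;> simp_all
          subst hcb'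
          exact absurd (leaf_not_act hK hc hq h3) not_false

omit [IsProbabilityMeasure μ] in
theorem measLeaves [IsProbabilityMeasure μ] (hG : G.Good) (hX : IsGoodAction G X μ f)
    (hK : IsPre G μ E r) : MSet (Leaves E r) := by
  intro k
  have h1 : MeasurableSet {x : X | (x, k.1) ∈ E} := hK.measE k.1
  have h2 : MeasurableSet {x : X | wt r ((x, some k) : Pt X) = 1} :=
    (meas_wt hG hX hK (some k)) (measurableSet_singleton _)
  exact h1.inter h2

theorem measPrE (hG : G.Good) (hX : IsGoodAction G X μ f)
    (hK : IsPre G μ E r) : MSet (prE E r) := by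
  intro i
  have h := measLeaves hG hX hK
  have : {x | (x, i) ∈ prE E r} = {x | (x, i) ∈ E} ∩ ⋂ b : Bool, {x | (x, (i, b)) ∈ Leaves E r}ᶜ := by
    ext x
    simp only [prE, Set.mem_ofPred_eq, Set.mem_inter_iff, Set.mem_iInter, Set.mem_compl_iff]
  rw [this]
  exact (hK.measE i).inter (MeasurableSet.iInter fun b => (h (i, b)).compl)

/-- **One pruning.**  `E' = ` edges without an end in `Leaves`, `F` stays (cells do not use such
edges: at a vertex of a cell there are at least two ends), rows are restricted to `E'`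
(`ρ e = single e 1` for `e ∈ E'`, `0` otherwise; use `res_isCx`, `res_gen`, `IsRows.push`, `Vm_res`).
Connectivity: a shortest path (between base points, or from an active point of `E'` to the base) does
not traverse an edge with an end in `Leaves`. -/
theorem prune_step (hG : G.Good) (hX : IsGoodAction G X μ f) (hK : IsCx G μ E r F)
    (hg : GenBy G E r F N s) :
    ∃ E' r' s', IsCx G μ E' r' F ∧ GenBy G E' r' F N s' ∧
      Vm μ E' r' + smeas μ (Leaves E r) ≤ Vm μ E r := by
  classical
  have hP : IsPre G μ E r := hK.toIsPre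
  have hsub : prE E r ⊆ E := fun e he => he.1
  have hm : MSet (prE E r) := measPrE hG hX hP
  have hbase : ∀ y : X, Act (prE E r) ((y, none) : Pt X) := by
    intro y i b h
    simp at h
  -- edges of cells stay
  have hstay : ∀ y (c : ZMod D → ℕ), IsCell G E r y c → ∀ j, (G.u j • y, c j) ∈ prE E r := by
    intro y c hc j
    refine ⟨(hc j).1, ?_⟩
    intro b hb
    cases b with
    | true =>
      have h1 := leaf_unique (q' := (G.u (j + 1) • y, (c (j + 1), false))) hP hb (hc j).2
      simp at h1
    | false =>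
      have h1 := (hc (j - 1)).2
      rw [sub_add_cancel] at h1
      have h2 := leaf_unique (q' := (G.u (j - 1) • y, (c (j - 1), true))) hP hb (hP.symm _ _ h1)
      simp at h2
  have hcb : ∀ x : X, ∃ n, Reach (prE E r) (resR (prE E r) r) n (x, none) (G.z • x, none) := by
    intro x
    obtain ⟨n, hn⟩ := hP.conn_base x
    exact reach_prune hP n (hbase _) (hbase _) hn
  have hc : ∀ p, Act (prE E r) p → ∃ n y, Reach (prE E r) (resR (prE E r) r) n p (y, none) := by
    intro p hp
    have hp' : Act E p := fun i b hib => (hp i b hib).1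
    obtain ⟨n, y, hn⟩ := hP.conn p hp'
    obtain ⟨m, hm⟩ := reach_prune hP n hp (hbase y) hn
    exact ⟨m, y, hm⟩
  have hCx : IsCx G μ (prE E r) (resR (prE E r) r) F :=
    res_isCx hK hsub hm hX.mp hcb hc subset_rfl hK.measF
      (fun y i _ c _ hcell j => hstay y c hcell j)
  set ρ : X × ℕ → (X × ℕ →₀ ℚ) := fun e => if e ∈ prE E r then Finsupp.single (id e) (1 : ℚ) else 0
    with hρdef
  have hker : IsKer Γ ρ := by
    have := isKer_map (Γ := Γ) hX.free (id : X × ℕ → X × ℕ) (prE E r) hm
      (fun e => ⟨1, by simp⟩) (by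
        intro g i k
        by_cases hgk : g = 1 ∧ i = k
        · obtain ⟨rfl, rfl⟩ := hgk
          convert MeasurableSet.univ
          ext x
          simp
        · convert MeasurableSet.empty
          ext x
          simp only [id, Prod.mk.injEq, Set.mem_ofPred_eq, Set.mem_empty_iff_false, iff_false]
          rintro ⟨h1, h2⟩
          exact hgk ⟨hX.free g x h1.symm, h2⟩)
    convert this
  have hρs : ∀ e, ∀ e' ∈ (ρ e).support, e' ∈ prE E r := by
    intro e e' he'
    simp only [hρdef] at he'
    split_ifs at he' with h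
    · have := Finsupp.support_single_subset he'
      simp only [id, Finset.mem_singleton] at this
      rw [this]; exact h
    · simp at he'
  refine ⟨prE E r, resR (prE E r) r, fun n => (s n).sum fun e a => a • ρ e, hCx, ⟨?_, ?_, ?_⟩, ?_⟩
  · exact hg.rows.push hX.free hX.mp hker
  · intro n hn e he
    have h1 : e ∈ ((s n).support).biUnion (fun e₀ => ((s n e₀) • ρ e₀).support) :=
      Finsupp.support_finsetSum he
    obtain ⟨e₀, _, he₀⟩ := Finset.mem_biUnion.1 h1
    exact hρs e₀ e (Finsupp.support_smul he₀)
  · refine res_gen hg hsub subset_rfl ρ ?_ (fun e _ => hρs e) ?_ ?_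
    · intro e he
      simp only [hρdef]
      rw [if_pos he]
      rfl
    · intro y i _ c _ hcell j
      refine ⟨hstay y c hcell j, (hcell j).2, ?_, ?_⟩
      · intro i b hib
        simp only [Option.some.injEq, Prod.mk.injEq] at hib
        rw [← hib.1]; exact hstay y c hcell j
      · intro i b hib
        simp only [Option.some.injEq, Prod.mk.injEq] at hib
        rw [← hib.1]; exact hstay y c hcell (j + 1)
    · intro y i h1 h2
      exact absurd h1 h2
  · refine le_trans ?_ (Vm_res hX hP hsub hm)
    gcongr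
    rw [smeas_eq_sint (measLeaves hG hX hP)]
    refine sint_mono fun q => ?_
    by_cases hq : q ∈ Leaves E r
    · have hq2 : q ∈ Lost E (prE E r) r := by
        refine ⟨hq.1, fun q' h hq' => ?_⟩
        have h1 := leaf_unique hP hq h
        subst h1
        exact hq'.2 q'.2.2 hq
      rw [Set.indicator_of_mem hq, Set.indicator_of_mem hq2, hq.2]
      rfl
    · rw [Set.indicator_of_notMem hq]
      exact zero_le

/-- Prune until the leaves have measure at most `δ` (each pruning lowers `Vm < ∞` by more than `δ`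
otherwise). -/
theorem prune (hG : G.Good) (hX : IsGoodAction G X μ f) (hK : IsCx G μ E r F)
    (hg : GenBy G E r F N s) (hV : Vm μ E r ≠ ∞) (δ : ℝ) (hδ : 0 < δ) :
    ∃ E' r' s', IsCx G μ E' r' F ∧ GenBy G E' r' F N s' ∧
      Vm μ E' r' ≤ Vm μ E r ∧ smeas μ (Leaves E' r') ≤ ENNReal.ofReal δ := by
  classical
  by_contra hcon
  have key : ∀ n : ℕ, ∃ E' r' s', IsCx G μ E' r' F ∧ GenBy G E' r' F N s' ∧
      Vm μ E' r' + n * ENNReal.ofReal δ ≤ Vm μ E r := by
    intro n
    induction n with
    | zero => exact ⟨E, r, s, hK, hg, by simp⟩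
    | succ n ih =>
      obtain ⟨E₁, r₁, s₁, h1, h2, h3⟩ := ih
      have h4 : ENNReal.ofReal δ < smeas μ (Leaves E₁ r₁) := by
        by_contra h5
        exact hcon ⟨E₁, r₁, s₁, h1, h2, le_trans le_self_add h3, not_lt.1 h5⟩
      obtain ⟨E₂, r₂, s₂, h5, h6, h7⟩ := prune_step hG hX h1 h2
      refine ⟨E₂, r₂, s₂, h5, h6, ?_⟩
      calc Vm μ E₂ r₂ + ((n + 1 : ℕ) : ℝ≥0∞) * ENNReal.ofReal δ
          = (Vm μ E₂ r₂ + ENNReal.ofReal δ) + n * ENNReal.ofReal δ := by
            push_cast; ring
        _ ≤ (Vm μ E₂ r₂ + smeas μ (Leaves E₁ r₁)) + n * ENNReal.ofReal δ := by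
            gcongr
        _ ≤ Vm μ E₁ r₁ + n * ENNReal.ofReal δ := by gcongr
        _ ≤ Vm μ E r := h3
  have hpos : ENNReal.ofReal δ ≠ 0 := by
    simp [hδ]
  obtain ⟨n, hn⟩ := ENNReal.exists_nat_mul_gt hpos hV
  obtain ⟨E', r', s', _, _, h3⟩ := key n
  exact absurd (lt_of_lt_of_le hn (le_trans le_add_self h3)) (lt_irrefl _)

end Crest.Agent.FP
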