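import Mathlib
import Crest.Agent.FP_Ops

/-!
# Task FP-W1: geodesics contain spots
-/

set_option autoImplicit false

open MeasureTheory
open scoped ENNReal

namespace Crest.Agent.FP

variable {Γ X : Type} [Group Γ] [Countable Γ] [MulAction Γ X] [MeasurableSpace X]
  {D : ℕ} [NeZero D] {G : PolyData Γ D} {μ : Measure X} [IsProbabilityMeasure μ] {f : X → ℝ}
  {E F N : Set (X × ℕ)} {r : Pt X → Pt X → Prop} {s : X × ℕ → (X × ℕ →₀ ℚ)}

/-! ### basic facts on `Reach` -/

omit [IsProbabilityMeasure μ] [Countable Γ] in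
theorem reach_right (hK : IsPre G μ E r) {n : ℕ} {p q q' : Pt X} (h : Reach E r n p q)
    (h' : r q q') : Reach E r n p q' := by
  cases n with
  | zero => exact hK.trans _ _ _ h h'
  | succ n =>
    obtain ⟨y, i, b, h1, h2, h3⟩ := h
    exact ⟨y, i, b, h1, h2, hK.trans _ _ _ h3 h'⟩

omit [IsProbabilityMeasure μ] [Countable Γ] in
theorem reach_left (hK : IsPre G μ E r) {n : ℕ} {p p' q : Pt X} (h' : r p' p)
    (h : Reach E r n p q) : Reach E r n p' q := by
  induction n generalizing q with
  | zero => exact hK.trans _ _ _ h' h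
  | succ n ih =>
    obtain ⟨y, i, b, h1, h2, h3⟩ := h
    exact ⟨y, i, b, h1, ih h2, h3⟩

omit [IsProbabilityMeasure μ] [Countable Γ] in
theorem reach_cons (hK : IsPre G μ E r) {n : ℕ} {p q : Pt X} {y : X} {i : ℕ} {b : Bool}
    (hE : (y, i) ∈ E) (h' : r p (y, some (i, b))) (h : Reach E r n (y, some (i, !b)) q) :
    Reach E r (n + 1) p q := by
  induction n generalizing q with
  | zero => exact ⟨y, i, b, hE, h', h⟩
  | succ n ih =>
    obtain ⟨y', i', b', h1, h2, h3⟩ := h
    exact ⟨y', i', b', h1, ih h2, h3⟩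

theorem reach_symm (hK : IsPre G μ E r) {n : ℕ} {p q : Pt X} (h : Reach E r n p q) :
    Reach E r n q p := by
  induction n generalizing q with
  | zero => exact hK.symm _ _ h
  | succ n ih =>
    obtain ⟨y, i, b, h1, h2, h3⟩ := h
    refine reach_cons hK (b := !b) h1 (hK.symm _ _ h3) ?_
    rw [Bool.not_not]
    exact ih h2

theorem reach_trans (hK : IsPre G μ E r) {n m : ℕ} {p q t : Pt X} (h : Reach E r n p q)
    (h' : Reach E r m q t) : Reach E r (n + m) p t := by
  induction m generalizing t with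
  | zero => exact reach_right hK h h'
  | succ m ih =>
    obtain ⟨y, i, b, h1, h2, h3⟩ := h'
    exact ⟨y, i, b, h1, ih h2, h3⟩

omit [IsProbabilityMeasure μ] [Countable Γ] in
theorem reach_loc (hK : IsPre G μ E r) {n : ℕ} {p q : Pt X} (h : Reach E r n p q) :
    ∃ g : Γ, loc G q = g • loc G p := by
  induction n generalizing q with
  | zero =>
    obtain ⟨a, -, ha⟩ := hK.rloc _ _ h
    exact ⟨a, ha⟩
  | succ n ih =>
    obtain ⟨y, i, b, h1, h2, h3⟩ := h
    obtain ⟨g, hg⟩ := ih h2
    obtain ⟨a, -, ha⟩ := hK.rloc _ _ h3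
    cases b with
    | false =>
      have e1 : loc G (y, some (i, false)) = y := rfl
      have e2 : loc G (y, some (i, !false)) = G.z • y := rfl
      rw [e1] at hg
      rw [e2, hg] at ha
      exact ⟨a * G.z * g, by rw [ha, mul_smul, mul_smul]⟩
    | true =>
      have e1 : loc G (y, some (i, true)) = G.z • y := rfl
      have e2 : loc G (y, some (i, !true)) = y := rfl
      rw [e1] at hg
      have hy : y = G.z⁻¹ • g • loc G p := by rw [← hg, inv_smul_smul]
      rw [e2, hy] at ha
      exact ⟨a * G.z⁻¹ * g, by rw [ha, mul_smul, mul_smul]⟩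

/-! ### paths as lists of steps -/

/-- `EPath x E r p l q`: the list `l` of steps `(g, i, d)` (slot `(g • x, i)`, traversed forward if
`d = true`) is a path from `p` to `q`. -/
def EPath (x : X) (E : Set (X × ℕ)) (r : Pt X → Pt X → Prop) :
    Pt X → List (Γ × ℕ × Bool) → Pt X → Prop
  | p, [], q => r p q
  | p, s :: l, q => (s.1 • x, s.2.1) ∈ E ∧ r p (s.1 • x, some (s.2.1, !s.2.2)) ∧
      EPath x E r (s.1 • x, some (s.2.1, s.2.2)) l q

section EPath

variable {x : X}

omit [IsProbabilityMeasure μ] [Countable Γ] in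
theorem epath_act (hK : IsPre G μ E r) {p q : Pt X} {l : List (Γ × ℕ × Bool)}
    (h : EPath x E r p l q) : Act E p := by
  cases l with
  | nil => exact hK.supp _ _ h
  | cons s l => exact hK.supp _ _ h.2.1

omit [IsProbabilityMeasure μ] [Countable Γ] in
theorem epath_left (hK : IsPre G μ E r) {p p' q : Pt X} {l : List (Γ × ℕ × Bool)} (h' : r p' p)
    (h : EPath x E r p l q) : EPath x E r p' l q := by
  cases l with
  | nil => exact hK.trans _ _ _ h' h
  | cons s l => exact ⟨h.1, hK.trans _ _ _ h' h.2.1, h.2.2⟩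

omit [IsProbabilityMeasure μ] [Countable Γ] in
theorem epath_append (hK : IsPre G μ E r) {p q : Pt X} {l₁ l₂ : List (Γ × ℕ × Bool)}
    (h : EPath x E r p (l₁ ++ l₂) q) : ∃ m, EPath x E r p l₁ m ∧ EPath x E r m l₂ q := by
  induction l₁ generalizing p with
  | nil => exact ⟨p, hK.refl _ (epath_act hK h), h⟩
  | cons s l ih =>
    obtain ⟨h1, h2, h3⟩ := h
    obtain ⟨m, h4, h5⟩ := ih h3
    exact ⟨m, ⟨h1, h2, h4⟩, h5⟩

omit [IsProbabilityMeasure μ] [Countable Γ] in
theorem epath_append' (hK : IsPre G μ E r) {p m q : Pt X} {l₁ l₂ : List (Γ × ℕ × Bool)}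
    (h : EPath x E r p l₁ m) (h' : EPath x E r m l₂ q) : EPath x E r p (l₁ ++ l₂) q := by
  induction l₁ generalizing p with
  | nil => exact epath_left hK h h'
  | cons s l ih => exact ⟨h.1, h.2.1, ih h.2.2⟩

omit [IsProbabilityMeasure μ] [Countable Γ] in
theorem epath_reach (hK : IsPre G μ E r) {p q : Pt X} {l : List (Γ × ℕ × Bool)}
    (h : EPath x E r p l q) : Reach E r l.length p q := by
  induction l generalizing p with
  | nil => exact h
  | cons s l ih =>
    refine reach_cons hK (b := !s.2.2) h.1 h.2.1 ?_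
    rw [Bool.not_not]
    exact ih h.2.2

omit [IsProbabilityMeasure μ] [Countable Γ] in
theorem reach_epath (hK : IsPre G μ E r) {n : ℕ} {p q : Pt X} (hp : ∃ g : Γ, loc G p = g • x)
    (h : Reach E r n p q) : ∃ l : List (Γ × ℕ × Bool), l.length = n ∧ EPath x E r p l q := by
  induction n generalizing q with
  | zero => exact ⟨[], rfl, h⟩
  | succ n ih =>
    obtain ⟨y, i, b, h1, h2, h3⟩ := h
    obtain ⟨l, hl, hl'⟩ := ih h2
    obtain ⟨g₀, hg₀⟩ := hp
    obtain ⟨g₁, hg₁⟩ := reach_loc hK h2
    have hy : ∃ g : Γ, y = g • x := by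
      cases b with
      | false =>
        have e1 : loc G (y, some (i, false)) = y := rfl
        rw [e1, hg₀] at hg₁
        exact ⟨g₁ * g₀, by rw [hg₁, mul_smul]⟩
      | true =>
        have e1 : loc G (y, some (i, true)) = G.z • y := rfl
        rw [e1, hg₀] at hg₁
        exact ⟨G.z⁻¹ * g₁ * g₀, by rw [mul_smul, mul_smul, ← hg₁, inv_smul_smul]⟩
    obtain ⟨g, rfl⟩ := hy
    refine ⟨l ++ [(g, i, !b)], by simp [hl], ?_⟩
    refine epath_append' hK hl' ⟨h1, ?_, h3⟩
    change r (g • x, some (i, b)) (g • x, some (i, !!b))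
    rw [Bool.not_not]
    refine hK.refl _ ?_
    intro i' b' hib
    simp only [Option.some.injEq, Prod.mk.injEq] at hib
    obtain ⟨rfl, rfl⟩ := hib
    exact h1

/-- forgetting the indices -/
def stepProj (s : Γ × ℕ × Bool) : Γ × Bool := (s.1, s.2.2)

omit [IsProbabilityMeasure μ] [Countable Γ] in
theorem epath_isPath (hX : IsGoodAction G X μ f) (hK : IsPre G μ E r) {p q : Pt X}
    {l : List (Γ × ℕ × Bool)} (h : EPath x E r p l q) {g k : Γ} (hp : loc G p = g • x)
    (hq : loc G q = k • x) : G.IsPath g (l.map stepProj) k := by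
  have hfree : ∀ g g' : Γ, g • x = g' • x → g = g' := by
    intro g g' h
    have h2 : (g'⁻¹ * g) • x = x := by rw [mul_smul, h, inv_smul_smul]
    have h3 := hX.free _ _ h2
    exact (inv_mul_eq_one.1 h3).symm
  induction l generalizing p g with
  | nil =>
    obtain ⟨a, ha, hpq⟩ := hK.rloc _ _ h
    rw [hp, hq, ← mul_smul] at hpq
    have := hfree _ _ hpq
    change k * g⁻¹ ∈ G.A
    rw [this, mul_inv_cancel_right]
    exact ha
  | cons s l ih =>
    obtain ⟨g₁, i, d⟩ := s
    obtain ⟨h1, h2, h3⟩ := h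
    simp only at h1 h2 h3
    have hsrc : loc G ((g₁ • x, some (i, !d)) : Pt X) = G.src (g₁, d) • x := by
      cases d with
      | false =>
        change G.z • g₁ • x = (G.z * g₁) • x
        rw [mul_smul]
      | true => rfl
    have htgt : loc G ((g₁ • x, some (i, d)) : Pt X) = G.tgt (g₁, d) • x := by
      cases d with
      | false => rfl
      | true =>
        change G.z • g₁ • x = (G.z * g₁) • x
        rw [mul_smul]
    refine ⟨?_, ih h3 htgt⟩
    obtain ⟨a, ha, hpq⟩ := hK.rloc _ _ h2
    rw [hsrc, hp, ← mul_smul] at hpq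
    have := hfree _ _ hpq
    change G.src (g₁, d) * g⁻¹ ∈ G.A
    rw [this, mul_inv_cancel_right]
    exact ha

/-- the reversed list of steps -/
def revSteps (l : List (Γ × ℕ × Bool)) : List (Γ × ℕ × Bool) :=
  (l.map fun s => (s.1, s.2.1, !s.2.2)).reverse

omit [IsProbabilityMeasure μ] [Countable Γ] in
theorem epath_reverse (hK : IsPre G μ E r) {p q : Pt X} {l : List (Γ × ℕ × Bool)}
    (h : EPath x E r p l q) : EPath x E r q (revSteps l) p := by
  induction l generalizing p with
  | nil => exact hK.symm _ _ h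
  | cons s l ih =>
    obtain ⟨g, i, d⟩ := s
    obtain ⟨h1, h2, h3⟩ := h
    simp only at h1 h2 h3
    have e : revSteps ((g, i, d) :: l) = revSteps l ++ [(g, i, !d)] := by
      simp [revSteps]
    rw [e]
    refine epath_append' hK (ih h3) ⟨h1, ?_, hK.symm _ _ h2⟩
    change r (g • x, some (i, d)) (g • x, some (i, !!d))
    rw [Bool.not_not]
    refine hK.refl _ ?_
    intro i' b' hib
    simp only [Option.some.injEq, Prod.mk.injEq] at hib
    obtain ⟨rfl, rfl⟩ := hib
    exact h1

omit [Countable Γ] [MulAction Γ X] [MeasurableSpace X] in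
theorem revSteps_length (l : List (Γ × ℕ × Bool)) : (revSteps l).length = l.length := by
  simp [revSteps]

/-- data at an index -/
theorem epath_get {p q : Pt X} {l : List (Γ × ℕ × Bool)}
    (h : EPath x E r p l q) (t : ℕ) (ht : t < l.length) :
    (l[t].1 • x, l[t].2.1) ∈ E ∧ (t = 0 → r p (l[t].1 • x, some (l[t].2.1, !l[t].2.2))) ∧
    (∀ ht' : t + 1 < l.length, r (l[t].1 • x, some (l[t].2.1, l[t].2.2))
      (l[t + 1].1 • x, some (l[t + 1].2.1, !l[t + 1].2.2))) ∧
    (t + 1 = l.length → r (l[t].1 • x, some (l[t].2.1, l[t].2.2)) q) := by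
  induction l generalizing p t with
  | nil => simp at ht
  | cons s l ih =>
    obtain ⟨h1, h2, h3⟩ := h
    cases t with
    | zero =>
      refine ⟨h1, fun _ => h2, ?_, ?_⟩
      · intro ht'
        cases l with
        | nil => simp at ht'
        | cons s' l => exact h3.2.1
      · intro ht'
        cases l with
        | nil => exact h3
        | cons s' l => simp at ht'
    | succ t =>
      have ht2 : t < l.length := by simpa using ht
      obtain ⟨h4, -, h6, h7⟩ := ih h3 t ht2
      refine ⟨h4, fun h0 => by omega, ?_, ?_⟩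
      · intro ht'
        exact h6 (by simpa using ht')
      · intro ht'
        exact h7 (by simpa using ht')

end EPath

/-! ### values on `ZMod D` -/

omit [NeZero D] in
theorem val_sub_lt [NeZero D] {j k : ZMod D} (h : k ≠ j) : (k - (j + 1)).val < D - 1 := by
  have h1 := ZMod.val_lt (k - (j + 1))
  by_contra hcon
  have h2 : (k - (j + 1)).val = D - 1 := by omega
  have h3 : (((k - (j + 1)).val : ℕ) : ZMod D) = k - (j + 1) := ZMod.natCast_zmod_val _
  have hD : 0 < D := Nat.pos_of_ne_zero (NeZero.ne D)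
  rw [h2, Nat.cast_sub (by omega), Nat.cast_one, ZMod.natCast_self, zero_sub] at h3
  apply h
  have h4 : k = k - (j + 1) + (j + 1) := by ring
  rw [h4, ← h3]
  ring

/-- The spot data carried by a run. -/
theorem run_spot (hD : 4 ≤ D) {x : X} {p q : Pt X} {R : List (Γ × ℕ × Bool)} {h : Γ} {j : ZMod D}
    (hp : EPath x E r p R q) (hR : R.map stepProj = G.run h j) :
    ∃ c : ZMod D → ℕ, IsSpotData G E r (h • x) j c ∧
      r p (G.u (j + 1) • h • x, some (c (j + 1), false)) ∧
      r (G.u (j - 1) • h • x, some (c (j - 1), true)) q := by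
  have hlen : R.length = D - 1 := by
    have := congrArg List.length hR
    simpa [PolyData.run] using this
  have hget : ∀ t (ht : t < R.length), R[t].1 = G.u (j + 1 + (t : ℕ)) * h ∧ R[t].2.2 = true := by
    intro t ht
    have h1 : (R.map stepProj)[t]'(by simpa using ht) =
        (G.run h j)[t]'(by rw [← hR]; simpa using ht) := by
      congr 1
    rw [List.getElem_map] at h1
    simp only [PolyData.run, List.getElem_ofFn, stepProj] at h1
    rw [Prod.ext_iff] at h1
    exact h1
  set c : ZMod D → ℕ := fun k => (R.getD (k - (j + 1)).val (1, 0, true)).2.1 with hc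
  have hcget : ∀ (k : ZMod D) (hk : k ≠ j),
      ∃ ht : (k - (j + 1)).val < R.length, c k = R[(k - (j + 1)).val].2.1 ∧
        R[(k - (j + 1)).val].1 • x = G.u k • h • x := by
    intro k hk
    have ht : (k - (j + 1)).val < R.length := by rw [hlen]; exact val_sub_lt hk
    refine ⟨ht, ?_, ?_⟩
    · simp only [hc]
      rw [List.getD_eq_getElem _ _ ht]
    · rw [(hget _ ht).1, ZMod.natCast_zmod_val, mul_smul]
      congr 2
      ring
  have hsucc : ∀ (k : ZMod D), k ≠ j → (k + 1 - (j + 1)).val = (k - (j + 1)).val + 1 := by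
    intro k hk
    have h1 := val_sub_lt hk
    have h2 : k + 1 - (j + 1) = (((k - (j + 1)).val + 1 : ℕ) : ZMod D) := by
      rw [Nat.cast_add, ZMod.natCast_zmod_val, Nat.cast_one]
      ring
    rw [h2, ZMod.val_cast_of_lt (by omega)]
  refine ⟨c, ⟨?_, ?_⟩, ?_, ?_⟩
  · intro k hk
    obtain ⟨ht, h1, h2⟩ := hcget k hk
    have := (epath_get hp _ ht).1
    rwa [← h1, h2] at this
  · intro k hk hk1
    obtain ⟨ht, h1, h2⟩ := hcget k hk
    obtain ⟨ht', h1', h2'⟩ := hcget (k + 1) hk1
    have hs := hsucc k hk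
    have ht'' : (k - (j + 1)).val + 1 < R.length := by rw [← hs]; exact ht'
    have h3 := (epath_get hp _ ht).2.2.1 ht''
    have h4 := (hget _ ht).2
    have h5 := (hget _ ht'').2
    simp only [hs] at h1' h2'
    rw [h4, h5, ← h1, h2, ← h1', h2'] at h3
    exact h3
  · have hne : j + 1 ≠ j := by
      intro h0
      have h1 : (1 : ZMod D) = 0 := by
        have : j + 1 = j + 0 := by rw [h0, add_zero]
        exact add_left_cancel this
      haveI : Fact (1 < D) := ⟨by omega⟩
      exact one_ne_zero h1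
    obtain ⟨ht, h1, h2⟩ := hcget (j + 1) hne
    have h0 : (j + 1 - (j + 1)).val = 0 := by rw [sub_self, ZMod.val_zero]
    have h3 := (epath_get hp _ ht).2.1 h0
    have h4 := (hget _ ht).2
    rw [h4, ← h1, h2] at h3
    exact h3
  · have hne : j - 1 ≠ j := by
      intro h0
      have h1 : (1 : ZMod D) = 0 := by
        have : j - 1 + 1 = j - 1 + 0 := by rw [sub_add_cancel, add_zero, h0]
        exact add_left_cancel this
      haveI : Fact (1 < D) := ⟨by omega⟩
      exact one_ne_zero h1
    obtain ⟨ht, h1, h2⟩ := hcget (j - 1) hne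
    have hs := hsucc (j - 1) hne
    have h6 : (j - 1 + 1 - (j + 1)).val = D - 1 := by
      have : j - 1 + 1 - (j + 1) = ((D - 1 : ℕ) : ZMod D) := by
        rw [Nat.cast_sub (by omega), ZMod.natCast_self, Nat.cast_one]
        ring
      rw [this, ZMod.val_cast_of_lt (by omega)]
    have h3 := (epath_get hp _ ht).2.2.2 (by rw [← hs, h6, hlen])
    have h4 := (hget _ ht).2
    rw [h4, ← h1, h2] at h3
    exact h3

omit [Countable Γ] in
theorem revSteps_run {R : List (Γ × ℕ × Bool)} {h : Γ} {j : ZMod D}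
    (hR : R.map stepProj = G.revRun h j) : (revSteps R).map stepProj = G.run h j := by
  have h1 : (revSteps R).map stepProj
      = ((R.map stepProj).map (fun s => (s.1, !s.2))).reverse := by
    simp only [revSteps, List.map_reverse, List.map_map]
    rfl
  rw [h1, hR]
  simp only [PolyData.revRun, List.map_reverse, List.reverse_reverse, List.map_map]
  rw [PolyData.run, List.map_ofFn]
  rfl

/-- `z ∉ A` -/
theorem z_notMem (hG : G.Good) : G.z ∉ G.A := by
  intro hz
  have hp : G.IsPath 1 [] G.z := by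
    change G.z * 1⁻¹ ∈ G.A
    rwa [inv_one, mul_one]
  have hD := hG.hD
  rcases hG.geo [] hp with h | ⟨l₁, l₂, g, b, h⟩ | ⟨l₁, l₂, h', j, h | h⟩
  · simp at h
  · have := congrArg List.length h
    simp at this
  · have := congrArg List.length h
    simp [PolyData.run] at this
    omega
  · have := congrArg List.length h
    simp [PolyData.revRun, PolyData.run] at this
    omega

/-- `dK x ≥ 1`, and `dK x = 1` only if there is a base-base edge over `x` itself. -/
theorem dK_small (hG : G.Good) (hX : IsGoodAction G X μ f) (hK : IsPre G μ E r) (x : X)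
    (h : dK G E r x ≤ 1) :
    ∃ i, (x, i) ∈ E ∧ IsBase r (x, some (i, false)) ∧ IsBase r (x, some (i, true)) := by
  have hreach : Reach E r (dK G E r x) (x, none) (G.z • x, none) :=
    Nat.sInf_mem (hK.conn_base x)
  have hD := hG.hD
  obtain ⟨l, hl, hpath⟩ := reach_epath (x := x) hK ⟨1, by rw [one_smul]; rfl⟩ hreach
  have hP := epath_isPath hX hK hpath (g := 1) (k := G.z) (by rw [one_smul]; rfl) rfl
  rcases hG.geo _ hP with h1 | ⟨l₁, l₂, g, b, h1⟩ | ⟨l₁, l₂, h', j, h1 | h1⟩
  · -- the edge itself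
    rw [List.map_eq_singleton_iff] at h1
    obtain ⟨⟨g, i, d⟩, rfl, hs⟩ := h1
    simp only [stepProj, Prod.mk.injEq] at hs
    obtain ⟨rfl, rfl⟩ := hs
    obtain ⟨h2, h3, h4⟩ := hpath
    simp only [one_smul, Bool.not_true] at h2 h3 h4
    exact ⟨i, h2, ⟨x, hK.symm _ _ h3⟩, ⟨G.z • x, h4⟩⟩
  · have := congrArg List.length h1
    simp at this
    omega
  · have := congrArg List.length h1
    simp [PolyData.run] at this
    omega
  · have := congrArg List.length h1
    simp [PolyData.revRun, PolyData.run] at this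
    omega

/-- **A geodesic of length `≥ 2` contains a spot.**  PROOF: write a shortest path as a list of
slots `(g_k • x, i_k)` with directions; by freeness it is a path of `G.IsPath 1 l G.z`.  Apply
`hG.geo`: `l = [(1,true)]` has length one; a backtrack gives two edges over the same `z`-edge with a
common end, so (immersed) the same edge traversed twice, contradiction to minimality; a run (or
reversed run) is a spot with `y = h • x`. -/
theorem geodesic_spot (hG : G.Good) (hX : IsGoodAction G X μ f) (hK : IsPre G μ E r)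
    (hi : Immersed E r) (x : X) (h : 2 ≤ dK G E r x) :
    ∃ (g : Γ) (j : ZMod D) (c : ZMod D → ℕ) (n₁ n₂ : ℕ),
      IsSpotData G E r (g • x) j c ∧ n₁ + 1 + n₂ < dK G E r x ∧
      ((Reach E r n₁ (x, none) (G.u (j + 1) • g • x, some (c (j + 1), false)) ∧
        Reach E r n₂ (G.u (j - 1) • g • x, some (c (j - 1), true)) (G.z • x, none)) ∨
       (Reach E r n₁ (G.z • x, none) (G.u (j + 1) • g • x, some (c (j + 1), false)) ∧
        Reach E r n₂ (G.u (j - 1) • g • x, some (c (j - 1), true)) (x, none))) := by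
  have hreach : Reach E r (dK G E r x) (x, none) (G.z • x, none) :=
    Nat.sInf_mem (hK.conn_base x)
  have hmin : ∀ n, Reach E r n (x, none) (G.z • x, none) → dK G E r x ≤ n :=
    fun n hn => Nat.sInf_le hn
  have hD := hG.hD
  obtain ⟨l, hl, hpath⟩ := reach_epath (x := x) hK ⟨1, by rw [one_smul]; rfl⟩ hreach
  have hP := epath_isPath hX hK hpath (g := 1) (k := G.z) (by rw [one_smul]; rfl) rfl
  rcases hG.geo _ hP with h1 | ⟨l₁, l₂, g, b, h1⟩ | ⟨l₁, l₂, h', j, h1 | h1⟩
  · exfalso
    have := congrArg List.length h1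
    simp at this
    omega
  · exfalso
    obtain ⟨L₁, L', rfl, -, h2⟩ := List.map_eq_append_iff.1 h1
    obtain ⟨⟨g₁, i₁, d₁⟩, L'', rfl, hs, h3⟩ := List.map_eq_cons_iff.1 h2
    obtain ⟨⟨g₂, i₂, d₂⟩, L₂, rfl, hs', h4⟩ := List.map_eq_cons_iff.1 h3
    simp only [stepProj, Prod.mk.injEq] at hs hs'
    obtain ⟨rfl, rfl⟩ := hs
    obtain ⟨rfl, rfl⟩ := hs'
    obtain ⟨m, hm1, hm2⟩ := epath_append hK hpath
    obtain ⟨hE1, hr1, hE2, hr2, hrest⟩ := hm2
    simp only [Bool.not_not] at hE1 hr1 hE2 hr2 hrest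
    have hii := hi _ _ _ _ hE1 hE2 hr2
    subst hii
    have hnew : EPath x E r (x, none) (L₁ ++ L₂) (G.z • x, none) :=
      epath_append' hK hm1 (epath_left hK hr1 hrest)
    have h5 := hmin _ (epath_reach hK hnew)
    rw [← hl] at h5
    simp at h5
  · obtain ⟨L', L₂, rfl, h2, -⟩ := List.map_eq_append_iff.1 h1
    obtain ⟨L₁, R, rfl, -, hR⟩ := List.map_eq_append_iff.1 h2
    obtain ⟨m', hm', hm2⟩ := epath_append hK hpath
    obtain ⟨m, hm1, hmR⟩ := epath_append hK hm'
    obtain ⟨c, hspot, hc1, hc2⟩ := run_spot hD hmR hR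
    have hlen : R.length = D - 1 := by
      have := congrArg List.length hR
      simpa [PolyData.run] using this
    refine ⟨h', j, c, L₁.length, L₂.length, hspot, ?_, Or.inl ⟨?_, ?_⟩⟩
    · rw [← hl]
      simp only [List.length_append, hlen]
      omega
    · exact reach_right hK (epath_reach hK hm1) hc1
    · exact reach_left hK hc2 (epath_reach hK hm2)
  · obtain ⟨L', L₂, rfl, h2, -⟩ := List.map_eq_append_iff.1 h1
    obtain ⟨L₁, R, rfl, -, hR⟩ := List.map_eq_append_iff.1 h2
    obtain ⟨m', hm', hm2⟩ := epath_append hK hpath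
    obtain ⟨m, hm1, hmR⟩ := epath_append hK hm'
    obtain ⟨c, hspot, hc1, hc2⟩ := run_spot hD (epath_reverse hK hmR) (revSteps_run hR)
    have hlen : R.length = D - 1 := by
      have := congrArg List.length hR
      simpa [PolyData.run, PolyData.revRun] using this
    refine ⟨h', j, c, L₂.length, L₁.length, hspot, ?_, Or.inr ⟨?_, ?_⟩⟩
    · rw [← hl]
      simp only [List.length_append, hlen]
      omega
    · exact reach_right hK (reach_symm hK (epath_reach hK hm2)) hc1
    · exact reach_left hK hc2 (reach_symm hK (epath_reach hK hm1))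

end Crest.Agent.FP
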