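import Mathlib
import Crest.Agent.FP_Comp
import Crest.Agent.FP_Geod

/-!
# Task FP-W2: one step of the process
-/

set_option autoImplicit false

open MeasureTheory
open scoped ENNReal

namespace Crest.Agent.FP

variable {Γ X : Type} [Group Γ] [Countable Γ] [MulAction Γ X] [MeasurableSpace X]
  {D : ℕ} [NeZero D] {G : PolyData Γ D} {μ : Measure X} [IsProbabilityMeasure μ] {f : X → ℝ}
  {E F N : Set (X × ℕ)} {r : Pt X → Pt X → Prop} {s : X × ℕ → (X × ℕ →₀ ℚ)}

/-- The truncated total distance. -/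
noncomputable def Psi (G : PolyData Γ D) (μ : Measure X) (L : ℕ) (E : Set (X × ℕ))
    (r : Pt X → Pt X → Prop) : ℝ≥0∞ := ∫⁻ x, (min (dK G E r x) L : ℕ) ∂μ

omit [Countable Γ] [IsProbabilityMeasure μ] in
private theorem ws_loc_orb (p : Pt X) : ∃ g : Γ, loc G p = g • p.1 := by
  rcases p with ⟨x, _ | ⟨i, _ | _⟩⟩
  · exact ⟨1, by simp [loc]⟩
  · exact ⟨1, by simp [loc]⟩
  · exact ⟨G.z, by simp [loc]⟩

omit [Countable Γ] [IsProbabilityMeasure μ] in
private theorem ws_mrel_r (hK : IsPre G μ E r) : MRel Γ r := by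
  refine ⟨fun p q h => ?_, fun g i k => hK.measr g i k⟩
  obtain ⟨a, _, ha⟩ := hK.rloc p q h
  obtain ⟨g, hg⟩ := ws_loc_orb (G := G) p
  obtain ⟨g', hg'⟩ := ws_loc_orb (G := G) q
  refine ⟨g'⁻¹ * (a * g), ?_⟩
  rw [mul_smul, mul_smul, ← hg, ← ha, hg', inv_smul_smul]

omit [IsProbabilityMeasure μ] in
private theorem ws_mrel_reach (hmp : ∀ g : Γ, MeasurePreserving (fun x : X => g • x) μ μ)
    (hfree : ∀ (g : Γ) (x : X), g • x = x → g = 1)
    (hK : IsPre G μ E r) (n : ℕ) : MRel Γ (Reach E r n) := by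
  induction n with
  | zero => exact ws_mrel_r hK
  | succ n ih =>
    have hr := ws_mrel_r hK
    -- the step relation: from `(x, some (i,b))` to `(x, some (i, !b))` with `(x,i) ∈ E`
    have hst : MRel Γ (fun p q : Pt X => ∃ ib : ℕ × Bool,
        p.1 ∈ {x | (x, ib.1) ∈ E} ∧ p.2 = some (ib.1, ib.2) ∧ q.1 = (1 : Γ) • p.1 ∧
          q.2 = some (ib.1, !ib.2)) := by
      refine MRel.iUnion (fun ib => ?_)
      exact MRel.graph (hK.measE ib.1) hfree 1 _ _
    have h1 := MRel.comp hmp ih (MRel.comp hmp hst hr)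
    have h2 : Reach E r (n + 1) = fun p s => ∃ q, Reach E r n p q ∧ ∃ q', (∃ ib : ℕ × Bool,
        q.1 ∈ {x | (x, ib.1) ∈ E} ∧ q.2 = some (ib.1, ib.2) ∧ q'.1 = (1 : Γ) • q.1 ∧
          q'.2 = some (ib.1, !ib.2)) ∧ r q' s := by
      funext p t
      refine propext ⟨?_, ?_⟩
      · rintro ⟨x, i, b, hE, h1, h2⟩
        exact ⟨(x, some (i, b)), h1, (x, some (i, !b)), ⟨(i, b), hE, rfl, by simp, rfl⟩, h2⟩
      · rintro ⟨⟨x, k⟩, h1, ⟨x', k'⟩, ⟨⟨i, b⟩, hE, hk, hx, hk'⟩, h2⟩
        simp only [one_smul] at hx hk hk'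
        subst hx hk hk'
        exact ⟨x', i, b, hE, h1, h2⟩
    rw [h2]
    exact h1

theorem meas_dK (hG : G.Good) (hX : IsGoodAction G X μ f) (hK : IsPre G μ E r) :
    Measurable (dK G E r) := by
  classical
  have h : dK G E r = fun x => Nat.find (hK.conn_base x) := by
    funext x
    unfold dK
    exact Nat.sInf_def (hK.conn_base x)
  rw [h]
  exact measurable_find _ (fun n => (ws_mrel_reach hX.mp hX.free hK n).2 G.z none none)

omit [Countable Γ] [IsProbabilityMeasure μ] in
private theorem ws_reach_dK (hK : IsPre G μ E r) (x : X) :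
    Reach E r (dK G E r x) (x, none) (G.z • x, none) :=
  Nat.sInf_mem (hK.conn_base x)

/-- a measurable subset of exactly given measure -/
private theorem ws_subset (hX : IsGoodAction G X μ f) {P : Set X} (hP : MeasurableSet P) (t : ℝ)
    (ht : 0 ≤ t) (htP : ENNReal.ofReal t ≤ μ P) :
    ∃ P' ⊆ P, MeasurableSet P' ∧ μ P' = ENNReal.ofReal t := by
  -- `φ a = μ (P ∩ {f < a})`
  set φ : ℝ → ℝ := fun a => μ.real (P ∩ {x | f x < a}) with hφ
  have hms : ∀ a, MeasurableSet {x | f x < a} := fun a => hX.measf measurableSet_Iio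
  have hlip : ∀ a ∈ Set.Icc (0:ℝ) 1, ∀ b ∈ Set.Icc (0:ℝ) 1, a ≤ b → φ a ≤ φ b ∧ φ b ≤ φ a + (b - a) := by
    intro a ha b hb hab
    refine ⟨measureReal_mono (Set.inter_subset_inter_right _ (fun x hx => lt_of_lt_of_le hx hab)), ?_⟩
    have h1 : P ∩ {x | f x < b} ⊆ (P ∩ {x | f x < a}) ∪ ({x | f x < b} \ {x | f x < a}) := by
      rintro x ⟨hx, hx'⟩
      by_cases hxa : f x < a
      · exact Or.inl ⟨hx, hxa⟩
      · exact Or.inr ⟨hx', hxa⟩
    have h2 : μ.real ({x | f x < b} \ {x | f x < a}) = b - a := by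
      have hsub : {x | f x < a} ⊆ {x | f x < b} := fun x hx => lt_of_lt_of_le hx hab
      rw [measureReal_diff hsub (hms a)]
      simp only [measureReal_def, hX.f_unif _ ha, hX.f_unif _ hb,
        ENNReal.toReal_ofReal ha.1, ENNReal.toReal_ofReal hb.1]
    calc φ b ≤ μ.real ((P ∩ {x | f x < a}) ∪ ({x | f x < b} \ {x | f x < a})) := measureReal_mono h1
      _ ≤ φ a + μ.real ({x | f x < b} \ {x | f x < a}) := measureReal_union_le _ _
      _ = φ a + (b - a) := by rw [h2]
  have hcont : ContinuousOn φ (Set.Icc (0:ℝ) 1) := by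
    refine LipschitzOnWith.continuousOn (K := 1) ?_
    refine LipschitzOnWith.of_dist_le_mul (fun a ha b hb => ?_)
    rw [Real.dist_eq, Real.dist_eq]
    rcases le_total a b with hab | hab
    · have := hlip a ha b hb hab
      rw [abs_of_nonpos (by linarith), abs_of_nonpos (by linarith)]
      simp only [NNReal.coe_one]
      linarith [this.2]
    · have := hlip b hb a ha hab
      rw [abs_of_nonneg (by linarith), abs_of_nonneg (by linarith)]
      simp only [NNReal.coe_one]
      linarith [this.2]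
  have h0 : φ 0 = 0 := by
    have : P ∩ {x | f x < 0} = ∅ := by
      ext x
      simp only [Set.mem_inter_iff, Set.mem_ofPred_eq, Set.mem_empty_iff_false, iff_false, not_and,
        not_lt]
      exact fun _ => (hX.f_mem x).1
    simp [hφ, this]
  have h1 : φ 1 = μ.real P := by
    have : P ∩ {x | f x < 1} = P := by
      ext x
      simp only [Set.mem_inter_iff, Set.mem_ofPred_eq, and_iff_left_iff_imp]
      exact fun _ => (hX.f_mem x).2
    simp [hφ, this]
  have ht1 : t ≤ μ.real P := by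
    rw [measureReal_def]
    exact (ENNReal.ofReal_le_iff_le_toReal (measure_ne_top μ P)).1 htP
  obtain ⟨a, _, ha⟩ := intermediate_value_Icc (zero_le_one) hcont (show t ∈ Set.Icc (φ 0) (φ 1) by
    rw [h0, h1]; exact ⟨ht, ht1⟩)
  refine ⟨P ∩ {x | f x < a}, Set.inter_subset_left, hP.inter (hms a), ?_⟩
  rw [← ha, hφ]
  simp [measureReal_def]

/-- **One step.**  PROOF: let `P = {x | 2 ≤ dK x ≤ L}`, `μ P ≥ t`.  Choose measurably (first in an
enumeration of `Γ × ZMod D × ℕ × …`) for every `x ∈ P` a spot as in `geodesic_spot` (take the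
spot index `(g • x, (j, c (j+1)))`); choose `P' ⊆ P` measurable with `μ P' = t` (use `f`, which is
uniformly distributed: `P ∩ {f < a}`), and let `S` = the set of chosen spots of points of `P'`:
`smeas S ≤ μ P' = t` (push-forward of a map that moves along orbits; mass transport).  Apply
`comp_step`: all distances do not increase and for `x ∈ P'` the distance drops by at least one. -/
theorem window_step (hG : G.Good) (hX : IsGoodAction G X μ f) (hK : IsCx G μ E r F)
    (hg : GenBy G E r F N s) (L : ℕ) (t : ℝ) (ht : 0 ≤ t)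
    (hP : ENNReal.ofReal t ≤ μ {x | 2 ≤ dK G E r x ∧ dK G E r x ≤ L}) :
    ∃ E' r' F' s', IsCx G μ E' r' F' ∧ GenBy G E' r' F' N s' ∧ Vm μ E' r' ≤ Vm μ E r ∧
      smeas μ F' ≤ smeas μ F + ENNReal.ofReal t ∧
      (∀ x, dK G E' r' x ≤ dK G E r x) ∧
      Psi G μ L E' r' + ENNReal.ofReal t ≤ Psi G μ L E r := by
  classical
  have hKp : IsPre G μ E r := hK.toIsPre
  have hmd := meas_dK hG hX hKp
  set P : Set X := {x | 2 ≤ dK G E r x ∧ dK G E r x ≤ L} with hPdef
  have hPm : MeasurableSet P := by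
    have : P = dK G E r ⁻¹' (Set.Icc 2 L) := by ext x; simp [hPdef]
    rw [this]
    exact hmd (measurableSet_Icc)
  obtain ⟨P', hP'P, hP'm, hP't⟩ := ws_subset hX hPm t ht hP
  -- reachability is measurable
  have hreach : ∀ n, MRel Γ (Reach E r n) := ws_mrel_reach hX.mp hX.free hKp
  have hreach' : ∀ (n : ℕ) (g h : Γ) k k', MeasurableSet {x | Reach E r n (g • x, k) (h • x, k')} := by
    intro n g h k k'
    have := (hX.mp g).measurable ((hreach n).2 (h * g⁻¹) k k')
    simpa [Set.preimage, mul_smul] using this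
  have hr' : ∀ (g h : Γ) k k', MeasurableSet {x | r (g • x, k) (h • x, k')} := fun g h k k' =>
    hreach' 0 g h k k'
  -- index type
  let T := Γ × ZMod D × (ZMod D → ℕ) × ℕ × ℕ
  let Q : T → X → Prop := fun τ x =>
    IsSpotData G E r (τ.1 • x) τ.2.1 τ.2.2.1 ∧ τ.2.2.2.1 + 1 + τ.2.2.2.2 < dK G E r x ∧
      ((Reach E r τ.2.2.2.1 (x, none) (G.u (τ.2.1 + 1) • τ.1 • x, some (τ.2.2.1 (τ.2.1 + 1), false)) ∧
        Reach E r τ.2.2.2.2 (G.u (τ.2.1 - 1) • τ.1 • x, some (τ.2.2.1 (τ.2.1 - 1), true))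
          (G.z • x, none)) ∨
       (Reach E r τ.2.2.2.1 (G.z • x, none) (G.u (τ.2.1 + 1) • τ.1 • x,
          some (τ.2.2.1 (τ.2.1 + 1), false)) ∧
        Reach E r τ.2.2.2.2 (G.u (τ.2.1 - 1) • τ.1 • x, some (τ.2.2.1 (τ.2.1 - 1), true)) (x, none)))
  have hQm : ∀ τ : T, MeasurableSet {x | Q τ x} := by
    rintro ⟨g, j, c, n₁, n₂⟩
    have e1 : ∀ (k : ZMod D) (x : X), G.u k • g • x = (G.u k * g) • x := fun k x => (mul_smul _ _ _).symm
    have hsd : MeasurableSet {x | IsSpotData G E r (g • x) j c} := by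
      have : {x | IsSpotData G E r (g • x) j c} =
          (⋂ k : ZMod D, {x | k ≠ j → ((G.u k * g) • x, c k) ∈ E}) ∩
          (⋂ k : ZMod D, {x | k ≠ j → k + 1 ≠ j → r ((G.u k * g) • x, some (c k, true))
            ((G.u (k + 1) * g) • x, some (c (k + 1), false))}) := by
        ext x
        simp only [IsSpotData, e1, Set.mem_ofPred_eq, Set.mem_inter_iff, Set.mem_iInter]
      rw [this]
      refine (MeasurableSet.iInter fun k => ?_).inter (MeasurableSet.iInter fun k => ?_)
      · by_cases hk : k = j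
        · simp [hk]
        · simp only [ne_eq, hk, not_false_eq_true, forall_const]
          exact (hX.mp (G.u k * g)).measurable (hKp.measE (c k))
      · by_cases hk : k = j
        · simp [hk]
        · by_cases hk' : k + 1 = j
          · simp [hk']
          · simp only [ne_eq, hk, not_false_eq_true, forall_const, hk']
            exact hr' _ _ _ _
    have m0 : MeasurableSet {x | n₁ + 1 + n₂ < dK G E r x} := hmd (measurableSet_Ioi)
    have m1 : MeasurableSet {x | Reach E r n₁ (x, none)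
        (G.u (j + 1) • g • x, some (c (j + 1), false))} := by
      have := hreach' n₁ 1 (G.u (j + 1) * g) none (some (c (j + 1), false))
      simpa only [one_smul, mul_smul] using this
    have m2 : MeasurableSet {x | Reach E r n₂ (G.u (j - 1) • g • x, some (c (j - 1), true))
        (G.z • x, none)} := by
      have := hreach' n₂ (G.u (j - 1) * g) G.z (some (c (j - 1), true)) none
      simpa only [one_smul, mul_smul] using this
    have m3 : MeasurableSet {x | Reach E r n₁ (G.z • x, none)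
        (G.u (j + 1) • g • x, some (c (j + 1), false))} := by
      have := hreach' n₁ G.z (G.u (j + 1) * g) none (some (c (j + 1), false))
      simpa only [one_smul, mul_smul] using this
    have m4 : MeasurableSet {x | Reach E r n₂ (G.u (j - 1) • g • x, some (c (j - 1), true))
        (x, none)} := by
      have := hreach' n₂ (G.u (j - 1) * g) 1 (some (c (j - 1), true)) none
      simpa only [one_smul, mul_smul] using this
    exact hsd.inter (m0.inter ((m1.inter m2).union (m3.inter m4)))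
  have : Countable T := inferInstance
  have : Nonempty T := ⟨(1, 0, fun _ => 0, 0, 0)⟩
  obtain ⟨e, he⟩ := exists_surjective_nat T
  -- disjoint pieces
  let A : ℕ → Set X := fun n => P' ∩ {x | Q (e n) x}
  have hAm : ∀ n, MeasurableSet (A n) := fun n => hP'm.inter (hQm _)
  let B : ℕ → Set X := disjointed A
  have hBm : ∀ n, MeasurableSet (B n) := fun n => MeasurableSet.disjointed hAm n
  have hBA : ∀ n, B n ⊆ A n := fun n => disjointed_subset A n
  have hBU : ⋃ n, B n = P' := by
    have h1 : ⋃ n, B n = ⋃ n, A n := iUnion_disjointed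
    rw [h1]
    ext x
    simp only [Set.mem_iUnion, A, Set.mem_inter_iff, Set.mem_ofPred_eq]
    constructor
    · rintro ⟨n, h, _⟩
      exact h
    · intro hx
      have hx2 : 2 ≤ dK G E r x := (hP'P hx).1
      obtain ⟨g, j, c, n₁, n₂, h1, h2, h3⟩ := geodesic_spot hG hX hKp hK.imm x hx2
      obtain ⟨n, hn⟩ := he (g, j, c, n₁, n₂)
      refine ⟨n, hx, ?_⟩
      rw [hn]
      exact ⟨h1, h2, h3⟩
  have hBd : Pairwise (Function.onFun Disjoint B) := disjoint_disjointed A
  -- the spots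
  let S : Set (X × (ZMod D × ℕ)) := {q | ∃ n, q.2 = ((e n).2.1, (e n).2.2.1 ((e n).2.1 + 1)) ∧
    (e n).1⁻¹ • q.1 ∈ B n}
  have hSm : MSet S := by
    intro ji
    have : {x | (x, ji) ∈ S} = ⋃ n, {x | ji = ((e n).2.1, (e n).2.2.1 ((e n).2.1 + 1)) ∧
        (e n).1⁻¹ • x ∈ B n} := by
      ext x; simp [S]
    rw [this]
    refine MeasurableSet.iUnion fun n => ?_
    by_cases h : ji = ((e n).2.1, (e n).2.2.1 ((e n).2.1 + 1))
    · simp only [h, true_and]
      exact (hX.mp _).measurable (hBm n)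
    · simp [h]
  have hSt : smeas μ S ≤ ENNReal.ofReal t := by
    have h1 : ∀ ji : ZMod D × ℕ, μ {x | (x, ji) ∈ S} ≤
        ∑' n, if ji = ((e n).2.1, (e n).2.2.1 ((e n).2.1 + 1)) then μ (B n) else 0 := by
      intro ji
      have : {x | (x, ji) ∈ S} = ⋃ n, {x | ji = ((e n).2.1, (e n).2.2.1 ((e n).2.1 + 1)) ∧
          (e n).1⁻¹ • x ∈ B n} := by
        ext x; simp [S]
      rw [this]
      refine (measure_iUnion_le _).trans (ENNReal.tsum_le_tsum fun n => ?_)
      by_cases h : ji = ((e n).2.1, (e n).2.2.1 ((e n).2.1 + 1))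
      · simp only [h, true_and, if_true]
        exact le_of_eq ((hX.mp _).measure_preimage (hBm n).nullMeasurableSet)
      · simp [h]
    calc smeas μ S ≤ ∑' ji : ZMod D × ℕ, ∑' n,
          (if ji = ((e n).2.1, (e n).2.2.1 ((e n).2.1 + 1)) then μ (B n) else 0) :=
          ENNReal.tsum_le_tsum h1
      _ = ∑' n, ∑' ji : ZMod D × ℕ,
          (if ji = ((e n).2.1, (e n).2.2.1 ((e n).2.1 + 1)) then μ (B n) else 0) :=
          ENNReal.tsum_comm
      _ = ∑' n, μ (B n) := by
          congr 1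
          ext n
          rw [tsum_ite_eq]
      _ = μ P' := by rw [← hBU, measure_iUnion hBd hBm]
      _ = ENNReal.ofReal t := hP't
  have hSfin : smeas μ S ≠ ∞ := ne_top_of_le_ne_top ENNReal.ofReal_ne_top hSt
  have hSsp : ∀ q ∈ S, IsSpot G E r q := by
    rintro ⟨y, j, i⟩ ⟨n, h1, h2⟩
    simp only [Prod.mk.injEq] at h1 h2
    obtain ⟨rfl, rfl⟩ := h1
    have h3 := (hBA n h2).2.1
    simp only [smul_inv_smul] at h3
    exact ⟨(e n).2.2.1, rfl, h3⟩
  obtain ⟨E', r', F', s', c1, c2, c3, c4, c5, c6⟩ := comp_step hG hX hK hg hSm hSfin hSsp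
  have hK' : IsPre G μ E' r' := c1.toIsPre
  have hle : ∀ x, dK G E' r' x ≤ dK G E r x := fun x =>
    Nat.sInf_le (c5 _ _ _ (ws_reach_dK hKp x))
  have hlt : ∀ x ∈ P', dK G E' r' x + 1 ≤ dK G E r x := by
    intro x hx
    rw [← hBU] at hx
    obtain ⟨n, hn⟩ := Set.mem_iUnion.1 hx
    obtain ⟨q1, q2, q3⟩ := (hBA n hn).2
    have hmem : ((e n).1 • x, ((e n).2.1, (e n).2.2.1 ((e n).2.1 + 1))) ∈ S :=
      ⟨n, rfl, by simpa using hn⟩
    have hr : Reach E' r' ((e n).2.2.2.1 + 1 + (e n).2.2.2.2) (x, none) (G.z • x, none) := by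
      rcases q3 with ⟨h1, h2⟩ | ⟨h1, h2⟩
      · exact c6 _ _ _ _ _ _ _ _ hmem q1 rfl h1 h2
      · exact reach_symm hK' (c6 _ _ _ _ _ _ _ _ hmem q1 rfl h1 h2)
    have : dK G E' r' x ≤ (e n).2.2.2.1 + 1 + (e n).2.2.2.2 := Nat.sInf_le hr
    omega
  refine ⟨E', r', F', s', c1, c2, c3, c4.trans (by gcongr), hle, ?_⟩
  have hpt : ∀ x, ((min (dK G E' r' x) L : ℕ) : ℝ≥0∞) + P'.indicator 1 x ≤
      ((min (dK G E r x) L : ℕ) : ℝ≥0∞) := by
    intro x
    by_cases hx : x ∈ P'
    · have h1 := hlt x hx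
      have h2 : dK G E r x ≤ L := (hP'P hx).2
      rw [Set.indicator_of_mem hx, Pi.one_apply]
      have h3 : min (dK G E' r' x) L + 1 ≤ min (dK G E r x) L := by omega
      exact_mod_cast h3
    · rw [Set.indicator_of_notMem hx, add_zero]
      have h1 := hle x
      have h3 : min (dK G E' r' x) L ≤ min (dK G E r x) L := by omega
      exact_mod_cast h3
  calc Psi G μ L E' r' + ENNReal.ofReal t
      = ∫⁻ x, (((min (dK G E' r' x) L : ℕ) : ℝ≥0∞) + P'.indicator 1 x) ∂μ := by
        rw [lintegral_add_right _ (measurable_one.indicator hP'm), lintegral_indicator_one hP'm, hP't]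
        rfl
    _ ≤ Psi G μ L E r := lintegral_mono hpt

end Crest.Agent.FP
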