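import Mathlib
import Crest.Agent.FP_WinStep
import Crest.Agent.FP_Euler

/-!
# Task FP-W3: the window
-/

set_option autoImplicit false

open MeasureTheory
open scoped ENNReal

namespace Crest.Agent.FP

variable {Γ X : Type} [Group Γ] [Countable Γ] [MulAction Γ X] [MeasurableSpace X]
  {D : ℕ} [NeZero D] {G : PolyData Γ D} {μ : Measure X} [IsProbabilityMeasure μ] {f : X → ℝ}
  {E F N : Set (X × ℕ)} {r : Pt X → Pt X → Prop} {s : X × ℕ → (X × ℕ →₀ ℚ)}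

/-- By `bb_ineq`, `dK_small` and `euler_ineq`: `μ {dK ≤ 1} ≤ F + N`. -/
theorem dK_one_le (hG : G.Good) (hX : IsGoodAction G X μ f) (hK : IsCx G μ E r F)
    (hg : GenBy G E r F N s) (hV : Vm μ E r ≠ ∞) :
    μ {x | dK G E r x ≤ 1} ≤ smeas μ F + smeas μ N := by
  set BB : Set (X × ℕ) := {q : X × ℕ | q ∈ E ∧ IsBase r (q.1, some (q.2, false)) ∧
      IsBase r (q.1, some (q.2, true))} with hBB
  have h1 : μ {x | dK G E r x ≤ 1} ≤ smeas μ BB := by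
    have hsub : {x | dK G E r x ≤ 1} ⊆ ⋃ i, {x | (x, i) ∈ BB} := by
      intro x hx
      obtain ⟨i, hi⟩ := dK_small hG hX hK.toIsPre x hx
      exact Set.mem_iUnion.mpr ⟨i, hi⟩
    exact (measure_mono hsub).trans (measure_iUnion_le _)
  have h2 : smeas μ BB + Vm μ E r ≤ smeas μ F + smeas μ N + Vm μ E r := by
    refine (bb_ineq hG hX hK.toIsPre).trans ((euler_ineq hG hX hK hg).trans (le_of_eq ?_))
    ring
  exact h1.trans ((ENNReal.add_le_add_iff_right hV).mp h2)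

/-- **The window.**  PROOF: choose `L` with `μ {dK > L} ≤ 1/4`.  As long as
`smeas F ≤ 2 F₁`, `dK_one_le` gives `μ {2 ≤ dK ≤ L} ≥ 1/4 ≥ F₁`; apply `window_step` with
`t = F₁`; `Psi ≤ L` drops by `F₁` each time, so after finitely many steps `smeas F > 2 F₁`, and at the
first such moment `smeas F ≤ 3 F₁`. -/
theorem window (hG : G.Good) (hX : IsGoodAction G X μ f) (hK : IsCx G μ E r F)
    (hg : GenBy G E r F N s) (hV : Vm μ E r ≠ ∞) (F₁ : ℝ) (hF₁ : 0 < F₁) (hF₁' : F₁ ≤ 1 / 10)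
    (hF : smeas μ F ≤ ENNReal.ofReal F₁) (hN : smeas μ N ≤ ENNReal.ofReal F₁) :
    ∃ E' r' F' s', IsCx G μ E' r' F' ∧ GenBy G E' r' F' N s' ∧ Vm μ E' r' ≤ Vm μ E r ∧
      ENNReal.ofReal (2 * F₁) < smeas μ F' ∧ smeas μ F' ≤ ENNReal.ofReal (3 * F₁) := by
  -- choice of `L`
  obtain ⟨L, hL⟩ : ∃ L : ℕ, μ {x | L < dK G E r x} ≤ ENNReal.ofReal (1 / 4) := by
    have hmeas : Measurable (dK G E r) := meas_dK hG hX hK.toIsPre
    have hanti : Antitone fun L : ℕ => {x | L < dK G E r x} := by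
      intro a b hab x hx
      exact lt_of_le_of_lt hab hx
    have ht := tendsto_measure_iInter_atTop (μ := μ) (s := fun L : ℕ => {x | L < dK G E r x})
      (fun L => (hmeas measurableSet_Ioi).nullMeasurableSet) hanti ⟨0, measure_ne_top _ _⟩
    have hempty : (⋂ L : ℕ, {x | L < dK G E r x}) = ∅ := by
      ext x
      simp only [Set.mem_iInter, Set.mem_ofPred_eq, Set.mem_empty_iff_false, iff_false, not_forall,
        not_lt]
      exact ⟨_, le_rfl⟩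
    rw [hempty, measure_empty] at ht
    have := ht.eventually (gt_mem_nhds (show (0 : ℝ≥0∞) < ENNReal.ofReal (1 / 4) by simp))
    obtain ⟨L, hL⟩ := this.exists
    exact ⟨L, hL.le⟩
  -- there is always enough room
  have hstep : ∀ (E₁ : Set (X × ℕ)) (r₁ : Pt X → Pt X → Prop) (F₀ : Set (X × ℕ))
      (s₁ : X × ℕ → (X × ℕ →₀ ℚ)), IsCx G μ E₁ r₁ F₀ → GenBy G E₁ r₁ F₀ N s₁ →
      Vm μ E₁ r₁ ≤ Vm μ E r → (∀ x, dK G E₁ r₁ x ≤ dK G E r x) →
      smeas μ F₀ ≤ ENNReal.ofReal (2 * F₁) →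
      ENNReal.ofReal F₁ ≤ μ {x | 2 ≤ dK G E₁ r₁ x ∧ dK G E₁ r₁ x ≤ L} := by
    intro E₁ r₁ F₀ s₁ hK₁ hg₁ hV₁ hd hF₀
    by_contra hlt
    rw [not_le] at hlt
    have h1 := dK_one_le hG hX hK₁ hg₁ (ne_top_of_le_ne_top hV hV₁)
    have h2 : μ {x | L < dK G E₁ r₁ x} ≤ ENNReal.ofReal (1 / 4) :=
      (measure_mono fun x hx => lt_of_lt_of_le hx (hd x)).trans hL
    have hcov : (Set.univ : Set X) ⊆ ({x | dK G E₁ r₁ x ≤ 1} ∪ {x | L < dK G E₁ r₁ x}) ∪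
        {x | 2 ≤ dK G E₁ r₁ x ∧ dK G E₁ r₁ x ≤ L} := by
      intro x _
      simp only [Set.mem_union, Set.mem_ofPred_eq]
      omega
    have h3 : (1 : ℝ≥0∞) ≤ (ENNReal.ofReal (2 * F₁) + ENNReal.ofReal F₁ + ENNReal.ofReal (1 / 4)) +
        μ {x | 2 ≤ dK G E₁ r₁ x ∧ dK G E₁ r₁ x ≤ L} := by
      calc (1 : ℝ≥0∞) = μ Set.univ := measure_univ.symm
        _ ≤ μ (({x | dK G E₁ r₁ x ≤ 1} ∪ {x | L < dK G E₁ r₁ x}) ∪
          {x | 2 ≤ dK G E₁ r₁ x ∧ dK G E₁ r₁ x ≤ L}) := measure_mono hcov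
        _ ≤ μ ({x | dK G E₁ r₁ x ≤ 1} ∪ {x | L < dK G E₁ r₁ x}) + _ := measure_union_le _ _
        _ ≤ (μ {x | dK G E₁ r₁ x ≤ 1} + μ {x | L < dK G E₁ r₁ x}) + _ := by
          gcongr
          exact measure_union_le _ _
        _ ≤ _ := by
          gcongr
          exact h1.trans (add_le_add hF₀ hN)
    have h4 : (1 : ℝ≥0∞) < 1 := by
      calc (1 : ℝ≥0∞) ≤ _ := h3
        _ < (ENNReal.ofReal (2 * F₁) + ENNReal.ofReal F₁ + ENNReal.ofReal (1 / 4)) +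
            ENNReal.ofReal F₁ := by
          refine ENNReal.add_lt_add_left ?_ hlt
          finiteness
        _ = ENNReal.ofReal (4 * F₁ + 1 / 4) := by
          rw [← ENNReal.ofReal_add (by linarith) (by linarith),
            ← ENNReal.ofReal_add (by linarith) (by linarith),
            ← ENNReal.ofReal_add (by linarith) (by linarith)]
          ring_nf
        _ ≤ ENNReal.ofReal 1 := ENNReal.ofReal_le_ofReal (by linarith)
        _ = 1 := by simp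
    exact lt_irrefl _ h4
  -- the induction
  have key : ∀ (n : ℕ) (E₁ : Set (X × ℕ)) (r₁ : Pt X → Pt X → Prop) (F₀ : Set (X × ℕ))
      (s₁ : X × ℕ → (X × ℕ →₀ ℚ)), IsCx G μ E₁ r₁ F₀ → GenBy G E₁ r₁ F₀ N s₁ →
      Vm μ E₁ r₁ ≤ Vm μ E r → (∀ x, dK G E₁ r₁ x ≤ dK G E r x) →
      smeas μ F₀ ≤ ENNReal.ofReal (2 * F₁) → Psi G μ L E₁ r₁ ≤ n * ENNReal.ofReal F₁ →
      ∃ E' r' F' s', IsCx G μ E' r' F' ∧ GenBy G E' r' F' N s' ∧ Vm μ E' r' ≤ Vm μ E r ∧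
      ENNReal.ofReal (2 * F₁) < smeas μ F' ∧ smeas μ F' ≤ ENNReal.ofReal (3 * F₁) := by
    intro n
    induction n with
    | zero =>
      intro E₁ r₁ F₀ s₁ hK₁ hg₁ hV₁ hd hF₀ hPsi
      have hP := hstep E₁ r₁ F₀ s₁ hK₁ hg₁ hV₁ hd hF₀
      obtain ⟨E₂, r₂, F₂, s₂, hK₂, hg₂, hV₂, hF₂, hd₂, hPsi₂⟩ :=
        window_step hG hX hK₁ hg₁ L F₁ hF₁.le hP
      exfalso
      have h1 : ENNReal.ofReal F₁ ≤ 0 := by
        calc ENNReal.ofReal F₁ ≤ Psi G μ L E₂ r₂ + ENNReal.ofReal F₁ := le_add_self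
          _ ≤ Psi G μ L E₁ r₁ := hPsi₂
          _ ≤ _ := hPsi
          _ = 0 := by simp
      simp at h1
      linarith
    | succ n ih =>
      intro E₁ r₁ F₀ s₁ hK₁ hg₁ hV₁ hd hF₀ hPsi
      have hP := hstep E₁ r₁ F₀ s₁ hK₁ hg₁ hV₁ hd hF₀
      obtain ⟨E₂, r₂, F₂, s₂, hK₂, hg₂, hV₂, hF₂, hd₂, hPsi₂⟩ :=
        window_step hG hX hK₁ hg₁ L F₁ hF₁.le hP
      by_cases hc : smeas μ F₂ ≤ ENNReal.ofReal (2 * F₁)
      · refine ih E₂ r₂ F₂ s₂ hK₂ hg₂ (hV₂.trans hV₁) (fun x => (hd₂ x).trans (hd x)) hc ?_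
        have h1 : Psi G μ L E₂ r₂ + ENNReal.ofReal F₁ ≤
            n * ENNReal.ofReal F₁ + ENNReal.ofReal F₁ := by
          refine hPsi₂.trans (hPsi.trans (le_of_eq ?_))
          push_cast
          ring
        exact (ENNReal.add_le_add_iff_right ENNReal.ofReal_ne_top).mp h1
      · refine ⟨E₂, r₂, F₂, s₂, hK₂, hg₂, hV₂.trans hV₁, not_le.mp hc, hF₂.trans ?_⟩
        calc smeas μ F₀ + ENNReal.ofReal F₁ ≤ ENNReal.ofReal (2 * F₁) + ENNReal.ofReal F₁ := by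
              gcongr
          _ = ENNReal.ofReal (3 * F₁) := by
              rw [← ENNReal.ofReal_add (by linarith) hF₁.le]; ring_nf
  -- start
  have hPsi : Psi G μ L E r ≤ L := by
    calc Psi G μ L E r ≤ ∫⁻ _, (L : ℝ≥0∞) ∂μ := by
          refine lintegral_mono fun x => ?_
          exact Nat.cast_le.mpr (min_le_right _ _)
      _ = L := by simp
  obtain ⟨n, hn⟩ := ENNReal.exists_nat_mul_gt
    (show ENNReal.ofReal F₁ ≠ 0 by simpa using hF₁) (ENNReal.natCast_ne_top L)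
  refine key n E r F s hK hg le_rfl (fun _ => le_rfl) (hF.trans (ENNReal.ofReal_le_ofReal
    (by linarith))) (hPsi.trans hn.le)

end Crest.Agent.FP
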