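import Mathlib
import Crest.Agent.FP_Window
import Crest.Agent.FP_Prune
import Crest.Agent.FP_Collapse
import Crest.Agent.FP_Count

/-!
# The descent argument
-/

set_option autoImplicit false

open MeasureTheory
open scoped ENNReal

namespace Crest.Agent.FP

variable {Γ X : Type} [Group Γ] [Countable Γ] [MulAction Γ X] [MeasurableSpace X]
  {D : ℕ} [NeZero D] {G : PolyData Γ D} {μ : Measure X} [IsProbabilityMeasure μ] {f : X → ℝ}
  {E F N : Set (X × ℕ)} {r : Pt X → Pt X → Prop} {s : X × ℕ → (X × ℕ →₀ ℚ)}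

/-- one round of the descent -/
theorem descent (hG : G.Good) (hX : IsGoodAction G X μ f) (hD : D = 10000) (hK : IsCx G μ E r F)
    (hg : GenBy G E r F N s) (hV : Vm μ E r ≠ ∞)
    (hF : smeas μ F ≤ ENNReal.ofReal (1 / 100000))
    (hN : smeas μ N ≤ ENNReal.ofReal (1 / 1000000)) :
    ∃ E' r' F' s', IsCx G μ E' r' F' ∧ GenBy G E' r' F' N s' ∧
      smeas μ F' ≤ ENNReal.ofReal (1 / 100000) ∧
      Vm μ E' r' + ENNReal.ofReal (1 / 100000) ≤ Vm μ E r := by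
  have hN' : smeas μ N ≤ ENNReal.ofReal (1 / 100000) :=
    hN.trans (ENNReal.ofReal_le_ofReal (by norm_num))
  obtain ⟨E₁, r₁, F₁, s₁, hK₁, hg₁, hV₁, hF₁, hF₁'⟩ :=
    window hG hX hK hg hV (1 / 100000) (by norm_num) (by norm_num) hF hN'
  have hV₁' : Vm μ E₁ r₁ ≠ ∞ := ne_top_of_le_ne_top hV hV₁
  obtain ⟨E₂, r₂, s₂, hK₂, hg₂, hV₂, hL₂⟩ :=
    prune hG hX hK₁ hg₁ hV₁' (1 / 1000000) (by norm_num)
  have hV₂' : Vm μ E₂ r₂ ≠ ∞ := ne_top_of_le_ne_top hV₁' hV₂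
  have hb : smeas μ (F₁ \ GoodCells G E₂ r₂ F₁) ≤ ENNReal.ofReal (1 / 100000) := by
    refine bad_small hG hX hK₂ hg₂ hV₂' hD ?_ ?_ hN hL₂
    · convert hF₁ using 2; norm_num
    · convert hF₁' using 2; norm_num
  obtain ⟨E₃, r₃, s₃, hK₃, hg₃, hV₃⟩ := collapse hG hX hK₂ hg₂
  refine ⟨E₃, r₃, _, s₃, hK₃, hg₃, hb, ?_⟩
  have hgood : ENNReal.ofReal (1 / 100000) ≤ smeas μ (GoodCells G E₂ r₂ F₁) := by
    have hle : smeas μ F₁ ≤ smeas μ (F₁ \ GoodCells G E₂ r₂ F₁) +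
        smeas μ (GoodCells G E₂ r₂ F₁) := by
      unfold smeas
      rw [← ENNReal.tsum_add]
      refine ENNReal.tsum_le_tsum fun i => (measure_mono ?_).trans (measure_union_le _ _)
      intro x hx
      by_cases h : (x, i) ∈ GoodCells G E₂ r₂ F₁
      · exact Or.inr h
      · exact Or.inl ⟨hx, h⟩
    have h2 : ENNReal.ofReal (2 * (1 / 100000)) ≤
        ENNReal.ofReal (1 / 100000) + smeas μ (GoodCells G E₂ r₂ F₁) :=
      hF₁.le.trans (hle.trans (by gcongr))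
    rw [show (2 * (1 / 100000) : ℝ) = 1 / 100000 + 1 / 100000 by norm_num,
      ENNReal.ofReal_add (by norm_num) (by norm_num)] at h2
    exact (ENNReal.add_le_add_iff_left ENNReal.ofReal_ne_top).mp h2
  calc Vm μ E₃ r₃ + ENNReal.ofReal (1 / 100000)
      ≤ Vm μ E₃ r₃ + smeas μ (GoodCells G E₂ r₂ F₁) := by gcongr
    _ ≤ Vm μ E₂ r₂ := hV₃
    _ ≤ Vm μ E₁ r₁ := hV₂
    _ ≤ Vm μ E r := hV₁

theorem no_small (hG : G.Good) (hX : IsGoodAction G X μ f) (hD : D = 10000) (hK : IsCx G μ E r F)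
    (hg : GenBy G E r F N s) (hV : Vm μ E r ≠ ∞)
    (hF : smeas μ F ≤ ENNReal.ofReal (1 / 100000))
    (hN : smeas μ N ≤ ENNReal.ofReal (1 / 1000000)) : False := by
  have key : ∀ n : ℕ, ∃ E' r' F' s', IsCx G μ E' r' F' ∧ GenBy G E' r' F' N s' ∧
      smeas μ F' ≤ ENNReal.ofReal (1 / 100000) ∧
      Vm μ E' r' + n * ENNReal.ofReal (1 / 100000) ≤ Vm μ E r := by
    intro n
    induction n with
    | zero => exact ⟨E, r, F, s, hK, hg, hF, by simp⟩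
    | succ n ih =>
      obtain ⟨E₁, r₁, F₁, s₁, hK₁, hg₁, hF₁, hV₁⟩ := ih
      have hV₁' : Vm μ E₁ r₁ ≠ ∞ := ne_top_of_le_ne_top hV (le_self_add.trans hV₁)
      obtain ⟨E₂, r₂, F₂, s₂, hK₂, hg₂, hF₂, hV₂⟩ := descent hG hX hD hK₁ hg₁ hV₁' hF₁ hN
      refine ⟨E₂, r₂, F₂, s₂, hK₂, hg₂, hF₂, ?_⟩
      calc Vm μ E₂ r₂ + (n + 1 : ℕ) * ENNReal.ofReal (1 / 100000)
          = (Vm μ E₂ r₂ + ENNReal.ofReal (1 / 100000)) + n * ENNReal.ofReal (1 / 100000) := by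
            push_cast; ring
        _ ≤ Vm μ E₁ r₁ + n * ENNReal.ofReal (1 / 100000) := by gcongr
        _ ≤ Vm μ E r := hV₁
  have hb : ∀ n : ℕ, (n : ℝ≥0∞) * ENNReal.ofReal (1 / 100000) ≤ Vm μ E r := fun n => by
    obtain ⟨E', r', F', s', -, -, -, h⟩ := key n
    exact le_add_self.trans h
  have h0 : ENNReal.ofReal (1 / 100000) ≠ 0 := by
    simp
  obtain ⟨n, hn⟩ := ENNReal.exists_nat_mul_gt h0 hV
  exact absurd (hb n) (not_le.mpr hn)

end Crest.Agent.FP
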