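import Mathlib
import Crest.Agent.FP_FoldV
import Crest.Agent.FP_Rows
import Crest.Agent.FP_Wt

/-!
# Task FP-S2: folding the initial pre-complex

`E' = foldE E r`, `r' = foldR E r`, `F' = ∅`, `s' n = (s n).mapDomain (fun e => (e.1, rep E r e))`
(`IsRows.push` + `isKer_map` for the measurability of the rows, `fold_gen` for `Gen`, `fold_Vm` and
`Vm_le` for finiteness).
-/

set_option autoImplicit false

open MeasureTheory
open scoped ENNReal

namespace Crest.Agent.FP

variable {Γ X : Type} [Group Γ] [Countable Γ] [MulAction Γ X] [MeasurableSpace X]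
  {D : ℕ} [NeZero D] {G : PolyData Γ D} {μ : Measure X} [IsProbabilityMeasure μ] {f : X → ℝ}
  {E F N : Set (X × ℕ)} {r : Pt X → Pt X → Prop} {s : X × ℕ → (X × ℕ →₀ ℚ)}

theorem start_cx (hG : G.Good) (hX : IsGoodAction G X μ f) (hK : IsPre G μ E r)
    (hs : IsRows Γ N s) (hsupp : ∀ n ∈ N, ∀ e ∈ (s n).support, e ∈ E) (hgen : Gen G E r ∅ N s) :
    ∃ E' r' s', IsCx G μ E' r' ∅ ∧ GenBy G E' r' ∅ N s' ∧ Vm μ E' r' ≠ ∞ := by
  classical
  let h : X × ℕ → X × ℕ := fun e => (e.1, if e ∈ E then rep E r e else 0)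
  have hm : ∀ (g : Γ) (i k : ℕ), MeasurableSet {x | h (x, i) = (g • x, k)} := by
    intro g i k
    by_cases hg : g = 1
    · subst hg
      have : {x | h (x, i) = ((1 : Γ) • x, k)} =
          {x | (x, i) ∈ E ∧ rep E r (x, i) = k} ∪ ({x | (x, i) ∈ E}ᶜ ∩ {_x | 0 = k}) := by
        ext x
        by_cases hx : (x, i) ∈ E
        · simp [h, hx]
        · simp [h, hx]
      rw [this]
      exact (meas_rep hG hX hK i k).union ((hK.measE i).compl.inter (MeasurableSet.const _))
    · have : {x | h (x, i) = (g • x, k)} = ∅ := by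
        ext x
        simp only [Set.mem_ofPred_eq, Set.mem_empty_iff_false, iff_false]
        intro he
        have h1 : x = g • x := congrArg Prod.fst he
        exact hg (hX.free g x h1.symm)
      rw [this]
      exact MeasurableSet.empty
  have hker := isKer_map (Γ := Γ) hX.free h E hK.measE (fun e => ⟨1, by simp [h]⟩) hm
  set ρ : X × ℕ → (X × ℕ →₀ ℚ) := fun e => if e ∈ E then Finsupp.single (h e) (1 : ℚ) else 0 with hρ
  have hker' : IsKer Γ ρ := by
    convert hker
  have hrows : IsRows Γ N (fun n => (s n).sum fun e a => a • ρ e) := hs.push hX.free hX.mp hker'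
  have hsupp' : ∀ n ∈ N, ∀ e ∈ ((s n).sum fun e a => a • ρ e).support, e ∈ foldE E r := by
    intro n hn e he
    rw [Finsupp.mem_support_iff] at he
    have h1 : ((s n).sum fun e a => a • ρ e) e = (s n).sum fun e' a => a • ρ e' e := by
      rw [Finsupp.sum_apply]
      rfl
    rw [h1] at he
    obtain ⟨e', he', hne⟩ := Finset.exists_ne_zero_of_sum_ne_zero he
    have hE' := hsupp n hn e' he'
    simp only [hρ, if_pos hE'] at hne
    have h2 : e = h e' := by
      by_contra hne'
      rw [Finsupp.single_apply, if_neg (fun h => hne' h.symm)] at hne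
      simp at hne
    rw [h2]
    obtain ⟨x, i⟩ := e'
    simp only [h, if_pos hE']
    exact (rep_spec hK hE').1
  refine ⟨foldE E r, foldR E r, _, ⟨fold_isPre hG hX hK, fold_imm hK, ?_, ?_⟩,
    ⟨hrows, hsupp', ?_⟩, ?_⟩
  · intro i
    simp
  · intro y i hy
    simp at hy
  · refine fold_gen hK ∅ N _ hsupp' ?_
    intro U _ _ β hβ hcell hrow
    refine hgen U β (fun y i hy => by simp at hy) ?_
    intro n hn
    have h1 := hrow n hn
    rw [pair_push] at h1
    rw [← h1]
    unfold pair Finsupp.sum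
    refine Finset.sum_congr rfl fun e he => ?_
    have hE' := hsupp n hn e he
    simp only [hρ, if_pos hE']
    have h2 := hβ e.1 e.2 hE'
    rw [h2]
    simp [h, hE']
  · refine ne_top_of_le_ne_top ?_ ((fold_Vm hG hX hK).trans (Vm_le hK))
    exact ENNReal.mul_ne_top (by simp) hK.finE

end Crest.Agent.FP
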