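import Mathlib
import Crest.Prelude.Def_Cost

/-!
# S0291: paths of a graphing (definition-independent part of module START, helper76)

`Pd Φ p` is the set of points from which the path `p` (a list of steps `(i, b)`; `b = true` means
the step `x ↦ (Φ i).1 • x`, `x ∈ (Φ i).2`, `b = false` the inverse step) can be followed, and
`Pe Φ p` is the group element realised by the path (it does not depend on the point).
-/

set_option autoImplicit false
set_option linter.unusedSectionVars false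

namespace Crest.Agent.S0291P

open MeasureTheory Crest.Dynamics

variable {Γ X : Type*} [Group Γ] [MulAction Γ X]

/-- the group element of a step. -/
def Se (Φ : ℕ → Γ × Set X) (s : ℕ × Bool) : Γ :=
  if s.2 then (Φ s.1).1 else (Φ s.1).1⁻¹

/-- the domain of a step. -/
def Sd (Φ : ℕ → Γ × Set X) (s : ℕ × Bool) : Set X :=
  if s.2 then (Φ s.1).2 else {x | (Φ s.1).1⁻¹ • x ∈ (Φ s.1).2}

/-- the group element of a path. -/
def Pe (Φ : ℕ → Γ × Set X) : List (ℕ × Bool) → Γ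
  | [] => 1
  | s :: p => Pe Φ p * Se Φ s

/-- the domain of a path. -/
def Pd (Φ : ℕ → Γ × Set X) : List (ℕ × Bool) → Set X
  | [] => Set.univ
  | s :: p => {x | x ∈ Sd Φ s ∧ Se Φ s • x ∈ Pd Φ p}

@[simp] lemma Pe_nil (Φ : ℕ → Γ × Set X) : Pe Φ [] = 1 := rfl
@[simp] lemma Pe_cons (Φ : ℕ → Γ × Set X) (s : ℕ × Bool) (p : List (ℕ × Bool)) :
    Pe Φ (s :: p) = Pe Φ p * Se Φ s := rfl
@[simp] lemma Pd_nil (Φ : ℕ → Γ × Set X) : Pd Φ [] = Set.univ := rfl
@[simp] lemma mem_Pd_cons (Φ : ℕ → Γ × Set X) (s : ℕ × Bool) (p : List (ℕ × Bool)) (x : X) :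
    x ∈ Pd Φ (s :: p) ↔ x ∈ Sd Φ s ∧ Se Φ s • x ∈ Pd Φ p := Iff.rfl

lemma Pe_append (Φ : ℕ → Γ × Set X) (p q : List (ℕ × Bool)) :
    Pe Φ (p ++ q) = Pe Φ q * Pe Φ p := by
  induction p with
  | nil => simp
  | cons s p ih => simp [ih, mul_assoc]

lemma mem_Pd_append (Φ : ℕ → Γ × Set X) (p q : List (ℕ × Bool)) (x : X) :
    x ∈ Pd Φ (p ++ q) ↔ x ∈ Pd Φ p ∧ Pe Φ p • x ∈ Pd Φ q := by
  induction p generalizing x with
  | nil => simp
  | cons s p ih => simp [ih, and_assoc, mul_smul]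

/-- the reversed step. -/
def Srev (s : ℕ × Bool) : ℕ × Bool := (s.1, !s.2)

lemma Se_rev (Φ : ℕ → Γ × Set X) (s : ℕ × Bool) : Se Φ (Srev s) = (Se Φ s)⁻¹ := by
  rcases s with ⟨i, b⟩
  cases b <;> simp [Se, Srev]

lemma mem_Sd_rev (Φ : ℕ → Γ × Set X) (s : ℕ × Bool) (x : X) :
    Se Φ s • x ∈ Sd Φ (Srev s) ↔ x ∈ Sd Φ s := by
  rcases s with ⟨i, b⟩
  cases b <;> simp [Se, Sd, Srev]

/-- the reversed path. -/
def Prev (p : List (ℕ × Bool)) : List (ℕ × Bool) := (p.map Srev).reverse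

lemma Pe_rev (Φ : ℕ → Γ × Set X) (p : List (ℕ × Bool)) : Pe Φ (Prev p) = (Pe Φ p)⁻¹ := by
  induction p with
  | nil => simp [Prev]
  | cons s p ih =>
    have : Prev (s :: p) = Prev p ++ [Srev s] := by simp [Prev]
    rw [this, Pe_append, ih]
    simp [Se_rev]

lemma mem_Pd_rev (Φ : ℕ → Γ × Set X) (p : List (ℕ × Bool)) (x : X) :
    Pe Φ p • x ∈ Pd Φ (Prev p) ↔ x ∈ Pd Φ p := by
  induction p generalizing x with
  | nil => simp [Prev]
  | cons s p ih =>
    have : Prev (s :: p) = Prev p ++ [Srev s] := by simp [Prev]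
    rw [this, mem_Pd_append, Pe_rev, Pe_cons, mul_smul, ih, mem_Pd_cons]
    simp only [inv_smul_smul, mem_Pd_cons, mem_Sd_rev, Pd_nil, Set.mem_univ, and_true]
    exact and_comm

lemma step_of_mem_Sd {Φ : ℕ → Γ × Set X} {s : ℕ × Bool} {x : X} (h : x ∈ Sd Φ s) :
    Relation.EqvGen (GraphingStep Φ) x (Se Φ s • x) := by
  rcases s with ⟨i, b⟩
  cases b
  · refine Relation.EqvGen.symm _ _ (Relation.EqvGen.rel _ _ ⟨i, ?_, ?_⟩)
    · simpa [Sd, Se] using h
    · simp [Se]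
  · exact Relation.EqvGen.rel _ _ ⟨i, by simpa [Sd] using h, by simp [Se]⟩

/-- the relation generated by a graphing = joined by a path. -/
theorem eqvGen_iff (Φ : ℕ → Γ × Set X) (x y : X) :
    Relation.EqvGen (GraphingStep Φ) x y ↔ ∃ p : List (ℕ × Bool), x ∈ Pd Φ p ∧ Pe Φ p • x = y := by
  constructor
  · intro h
    induction h with
    | rel x y h =>
      obtain ⟨i, hi, rfl⟩ := h
      exact ⟨[(i, true)], by simp [Sd, hi], by simp [Se]⟩
    | refl x => exact ⟨[], by simp, by simp⟩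
    | symm x y _ ih =>
      obtain ⟨p, hp, rfl⟩ := ih
      exact ⟨Prev p, (mem_Pd_rev Φ p x).2 hp, by rw [Pe_rev, inv_smul_smul]⟩
    | trans x y z _ _ ih1 ih2 =>
      obtain ⟨p, hp, rfl⟩ := ih1
      obtain ⟨q, hq, rfl⟩ := ih2
      exact ⟨p ++ q, (mem_Pd_append Φ p q x).2 ⟨hp, hq⟩, by rw [Pe_append, mul_smul]⟩
  · rintro ⟨p, hp, rfl⟩
    induction p generalizing x with
    | nil => simpa using Relation.EqvGen.refl _
    | cons s p ih =>
      rw [mem_Pd_cons] at hp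
      have h1 := step_of_mem_Sd hp.1
      have h2 := ih _ hp.2
      rw [Pe_cons, mul_smul]
      exact Relation.EqvGen.trans _ _ _ h1 h2

section meas

variable [MeasurableSpace X]

lemma measurableSet_Sd (hm : ∀ g : Γ, Measurable (fun x : X => g • x)) {Φ : ℕ → Γ × Set X}
    (hΦ : ∀ i, MeasurableSet (Φ i).2) (s : ℕ × Bool) : MeasurableSet (Sd Φ s) := by
  rcases s with ⟨i, b⟩
  cases b
  · simp only [Sd, Bool.false_eq_true, if_false]
    exact hm _ (hΦ i)
  · simpa [Sd] using hΦ i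

lemma measurableSet_Pd (hm : ∀ g : Γ, Measurable (fun x : X => g • x)) {Φ : ℕ → Γ × Set X}
    (hΦ : ∀ i, MeasurableSet (Φ i).2) (p : List (ℕ × Bool)) : MeasurableSet (Pd Φ p) := by
  induction p with
  | nil => simp
  | cons s p ih =>
    exact (measurableSet_Sd hm hΦ s).inter (hm _ ih)

/-- The truncated graphing: only the first `N` pieces. -/
def trunc (Φ : ℕ → Γ × Set X) (N : ℕ) : ℕ → Γ × Set X :=
  fun i => if i < N then Φ i else (1, ∅)

lemma mem_Pd_trunc (Φ : ℕ → Γ × Set X) (N : ℕ) (p : List (ℕ × Bool)) (hp : ∀ s ∈ p, s.1 < N)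
    (x : X) : x ∈ Pd (trunc Φ N) p ↔ x ∈ Pd Φ p := by
  induction p generalizing x with
  | nil => simp
  | cons s p ih =>
    have hs : s.1 < N := hp s (by simp)
    have h1 : Se (trunc Φ N) s = Se Φ s := by simp [Se, trunc, hs]
    have h2 : Sd (trunc Φ N) s = Sd Φ s := by simp [Sd, trunc, hs]
    rw [mem_Pd_cons, mem_Pd_cons, h1, h2, ih (fun t ht => hp t (by simp [ht]))]

lemma Pe_trunc (Φ : ℕ → Γ × Set X) (N : ℕ) (p : List (ℕ × Bool)) (hp : ∀ s ∈ p, s.1 < N) :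
    Pe (trunc Φ N) p = Pe Φ p := by
  induction p with
  | nil => simp
  | cons s p ih =>
    have hs : s.1 < N := hp s (by simp)
    have h1 : Se (trunc Φ N) s = Se Φ s := by simp [Se, trunc, hs]
    rw [Pe_cons, Pe_cons, h1, ih (fun t ht => hp t (by simp [ht]))]

end meas

end Crest.Agent.S0291P
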