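import Mathlib
import Crest.Agent.FP_Defs
import Crest.Agent.S0291_Paths

/-!
# Module START, part 0 (helper76): paths in the polygon complex and general facts on `Reach`
-/

set_option autoImplicit false
set_option linter.unusedSectionVars false
set_option linter.unusedVariables false

open MeasureTheory
open scoped ENNReal

namespace Crest.Agent.FP

section Path

variable {Γ : Type} [Group Γ] {D : ℕ} [NeZero D] (G : PolyData Γ D)

theorem IsPath.end_mul {h a : Γ} (ha : a ∈ G.A) : ∀ {l : List (Γ × Bool)} {g : Γ},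
    G.IsPath g l h → G.IsPath g l (a * h)
  | [], g, hp => by
    simp only [PolyData.IsPath] at hp ⊢
    rw [mul_assoc]
    exact mul_mem ha hp
  | s :: l, g, hp => by
    simp only [PolyData.IsPath] at hp ⊢
    exact ⟨hp.1, IsPath.end_mul ha hp.2⟩

theorem IsPath.snoc {h : Γ} (s : Γ × Bool) (hs : G.src s * h⁻¹ ∈ G.A) :
    ∀ {l : List (Γ × Bool)} {g : Γ}, G.IsPath g l h → G.IsPath g (l ++ [s]) (G.tgt s)
  | [], g, hp => by
    simp only [PolyData.IsPath, List.nil_append] at hp ⊢
    refine ⟨?_, by simp⟩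
    have := mul_mem hs hp
    rwa [mul_assoc, inv_mul_cancel_left] at this
  | t :: l, g, hp => by
    simp only [PolyData.IsPath, List.cons_append] at hp ⊢
    exact ⟨hp.1, IsPath.snoc s hs hp.2⟩

/-- every group element is the endpoint of a path. -/
theorem exists_path (hgen : Subgroup.closure ((G.A : Set Γ) ∪ {G.z}) = ⊤) (g : Γ) :
    ∃ l : List (Γ × Bool), G.IsPath 1 l g := by
  have hg : g ∈ Subgroup.closure ((G.A : Set Γ) ∪ {G.z}) := by rw [hgen]; trivial
  induction hg using Subgroup.closure_induction_left with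
  | one => exact ⟨[], by simp [PolyData.IsPath]⟩
  | mul_left x hx y _ ih =>
    obtain ⟨l, hl⟩ := ih
    rcases hx with hx | hx
    · exact ⟨l, IsPath.end_mul G hx hl⟩
    · rw [Set.mem_singleton_iff] at hx
      subst hx
      exact ⟨l ++ [(y, true)], IsPath.snoc G (y, true) (by simp [PolyData.src]) hl⟩
  | inv_mul_cancel x hx y _ ih =>
    obtain ⟨l, hl⟩ := ih
    rcases hx with hx | hx
    · exact ⟨l, IsPath.end_mul G (inv_mem hx) hl⟩
    · rw [Set.mem_singleton_iff] at hx
      subst hx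
      exact ⟨l ++ [(G.z⁻¹ * y, false)],
        IsPath.snoc G (G.z⁻¹ * y, false) (by simp [PolyData.src]) hl⟩

theorem exists_path_ne (hgen : Subgroup.closure ((G.A : Set Γ) ∪ {G.z}) = ⊤) (g : Γ) :
    ∃ l : List (Γ × Bool), l ≠ [] ∧ G.IsPath 1 l g := by
  obtain ⟨l, hl⟩ := exists_path G hgen g
  refine ⟨(1, true) :: (1, false) :: l, by simp, ?_⟩
  simp only [PolyData.IsPath, PolyData.src, PolyData.tgt]
  simpa using hl

theorem IsPath.head {g h : Γ} {l : List (Γ × Bool)} (hl : G.IsPath g l h) (h0 : 0 < l.length) :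
    G.src (l[0]) * g⁻¹ ∈ G.A := by
  cases l with
  | nil => simp at h0
  | cons s l => exact hl.1

theorem IsPath.succ {h : Γ} : ∀ {l : List (Γ × Bool)} {g : Γ}, G.IsPath g l h → ∀ (p : ℕ)
    (hp : p + 1 < l.length), G.src (l[p + 1]) * (G.tgt (l[p]))⁻¹ ∈ G.A
  | [], g, _, p, hp => by simp at hp
  | s :: l, g, hl, 0, hp => by
    have h0 : 0 < l.length := by simpa using hp
    have := IsPath.head G hl.2 h0
    simpa using this
  | s :: l, g, hl, p + 1, hp => by
    have := IsPath.succ hl.2 p (by simpa using hp)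
    simpa using this

theorem IsPath.last {h : Γ} : ∀ {l : List (Γ × Bool)} {g : Γ}, G.IsPath g l h → ∀ (p : ℕ)
    (hp : p + 1 = l.length), h * (G.tgt (l[p]))⁻¹ ∈ G.A
  | [], g, _, p, hp => by simp at hp
  | [s], g, hl, p, hp => by
    have : p = 0 := by simpa using hp
    subst this
    simpa [PolyData.IsPath] using hl.2
  | s :: t :: l, g, hl, 0, hp => by simp at hp
  | s :: t :: l, g, hl, p + 1, hp => by
    have := IsPath.last hl.2 p (by simpa using hp)
    simpa using this

end Path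

section ReachLemmas

variable {X : Type} {E : Set (X × ℕ)} {r : Pt X → Pt X → Prop}

theorem Reach.trans_left (htr : ∀ p q s, r p q → r q s → r p s) {p p' : Pt X} (hp : r p p') :
    ∀ {n : ℕ} {q : Pt X}, Reach E r n p' q → Reach E r n p q
  | 0, q, h => htr _ _ _ hp h
  | n + 1, q, ⟨x, i, b, hx, h, hq⟩ => ⟨x, i, b, hx, Reach.trans_left htr hp h, hq⟩

theorem Reach.trans_right (htr : ∀ p q s, r p q → r q s → r p s) {p q q' : Pt X} (hq : r q q') :
    ∀ {n : ℕ}, Reach E r n p q → Reach E r n p q'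
  | 0, h => htr _ _ _ h hq
  | n + 1, ⟨x, i, b, hx, h, hq1⟩ => ⟨x, i, b, hx, h, htr _ _ _ hq1 hq⟩

theorem Reach.trans (htr : ∀ p q s, r p q → r q s → r p s) {p q : Pt X} {n : ℕ}
    (h1 : Reach E r n p q) : ∀ {m : ℕ} {s : Pt X}, Reach E r m q s → Reach E r (n + m) p s
  | 0, s, h => Reach.trans_right htr h h1
  | m + 1, s, ⟨x, i, b, hx, h, hq⟩ => ⟨x, i, b, hx, Reach.trans htr h1 h, hq⟩

theorem Reach.prefix {p : Pt X} {x : X} {i : ℕ} {b : Bool} (hx : (x, i) ∈ E)
    (hp : r p (x, some (i, b))) :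
    ∀ {n : ℕ} {q : Pt X}, Reach E r n (x, some (i, !b)) q → Reach E r (n + 1) p q
  | 0, q, h => ⟨x, i, b, hx, hp, h⟩
  | n + 1, q, ⟨x', i', b', hx', h, hq⟩ => ⟨x', i', b', hx', Reach.prefix hx hp h, hq⟩

theorem Reach.symm' (hsy : ∀ p q, r p q → r q p) {p : Pt X} :
    ∀ {n : ℕ} {q : Pt X}, Reach E r n p q → Reach E r n q p
  | 0, q, h => hsy _ _ h
  | n + 1, q, ⟨x, i, b, hx, h, hq⟩ => by
    have h1 := Reach.symm' hsy h
    refine Reach.prefix (b := !b) hx (hsy _ _ hq) ?_
    rwa [Bool.not_not]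

end ReachLemmas

end Crest.Agent.FP
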