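import Mathlib
import Crest.Agent.FP_Start0

/-!
# Module START, part 1 (helper76): the pre-complex of a truncated graphing
-/

set_option autoImplicit false
set_option linter.unusedSectionVars false
set_option linter.unusedVariables false

open MeasureTheory
open scoped ENNReal

namespace Crest.Agent.FP

/-- Start data: finitely many pieces `(g i, B i)`, `i < K`, a path `l i` from `A` to `A (g i)` for each
of them, the set `T` of points identified with base vertices and the set `S0` of additional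
`z`-edges. -/
structure SD (Γ X : Type) [Group Γ] [MulAction Γ X] where
  K : ℕ
  g : ℕ → Γ
  B : ℕ → Set X
  l : ℕ → List (Γ × Bool)
  T : Set X
  S0 : Set X

/-- kinds of vertices: `none` = base, `some none` = a point of `X` outside `T`,
`some (some (i, P))` = the `P`-th inner vertex of the path of a piece `i`. -/
abbrev Kd : Type := Option (Option (ℕ × ℕ))

namespace SD

variable {Γ X : Type} [Group Γ] [MulAction Γ X] {D : ℕ} [NeZero D] (G : PolyData Γ D)
  (d : SD Γ X)

/-- the `p`-th step of the path of the piece `i`. -/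
def stp (i p : ℕ) : Γ × Bool := (d.l i).getD p (1, true)

/-- The slots. -/
def ES : ℕ → Set X
  | 0 => d.S0
  | k + 1 => {x | k.unpair.2 < (d.l k.unpair.1).length ∧
      (d.stp k.unpair.1 k.unpair.2).1⁻¹ • x ∈ d.B k.unpair.1}

/-- The edge set. -/
def E : Set (X × ℕ) := {q | q.1 ∈ d.ES q.2}

/-- slot of the step `p` of the piece `i`. -/
def code (i p : ℕ) : ℕ := Nat.pair i p + 1

open Classical in
/-- vertex of the point `y` of `X`. -/
noncomputable def pv (y : X) : Kd × X := if y ∈ d.T then (none, y) else (some none, y)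

/-- the `P`-th vertex of the path of the piece `i` started at `x`. -/
noncomputable def pathv (i P : ℕ) (x : X) : Kd × X :=
  if P = (d.l i).length then d.pv (d.g i • x)
  else if P = 0 then d.pv x
  else (some (some (i, P)), x)

/-- the position of an end of the `p`-th edge on the path `i`. -/
def pos (i p : ℕ) (b : Bool) : ℕ := if b = (d.stp i p).2 then p + 1 else p

/-- the vertex of a point. -/
noncomputable def vx (q : Pt X) : Kd × X :=
  match q.2 with
  | none => (none, q.1)
  | some (0, b) => (none, if b then G.z • q.1 else q.1)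
  | some (k + 1, b) =>
      d.pathv k.unpair.1 (d.pos k.unpair.1 k.unpair.2 b)
        ((d.stp k.unpair.1 k.unpair.2).1⁻¹ • q.1)

/-- same vertex -/
def VR (u v : Kd × X) : Prop :=
  u.1 = v.1 ∧ (if u.1 = none then ∃ a ∈ G.A, v.2 = a • u.2 else v.2 = u.2)

/-- the equivalence relation. -/
def r (p q : Pt X) : Prop := Act d.E p ∧ Act d.E q ∧ VR G (d.vx G p) (d.vx G q)

lemma VR.refl (u : Kd × X) : VR G u u := by
  refine ⟨rfl, ?_⟩
  split_ifs with h
  · exact ⟨1, G.A.one_mem, by simp⟩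
  · rfl

lemma VR.symm {u v : Kd × X} (h : VR G u v) : VR G v u := by
  obtain ⟨h1, h2⟩ := h
  refine ⟨h1.symm, ?_⟩
  split_ifs with h3
  · rw [← h1] at h3
    rw [if_pos h3] at h2
    obtain ⟨a, ha, h4⟩ := h2
    exact ⟨a⁻¹, inv_mem ha, by rw [h4]; simp⟩
  · rw [← h1] at h3
    rw [if_neg h3] at h2
    exact h2.symm

lemma VR.trans {u v w : Kd × X} (h : VR G u v) (h' : VR G v w) : VR G u w := by
  obtain ⟨h1, h2⟩ := h
  obtain ⟨h3, h4⟩ := h'
  refine ⟨h1.trans h3, ?_⟩
  split_ifs with h5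
  · rw [if_pos h5] at h2
    rw [← h1, if_pos h5] at h4
    obtain ⟨a, ha, h6⟩ := h2
    obtain ⟨b, hb, h7⟩ := h4
    exact ⟨b * a, mul_mem hb ha, by rw [h7, h6, mul_smul]⟩
  · rw [if_neg h5] at h2
    rw [← h1, if_neg h5] at h4
    rw [h4, h2]

lemma r_symm (p q : Pt X) (h : d.r G p q) : d.r G q p := ⟨h.2.1, h.1, h.2.2.symm⟩

lemma r_trans (p q s : Pt X) (h : d.r G p q) (h' : d.r G q s) : d.r G p s :=
  ⟨h.1, h'.2.1, h.2.2.trans G h'.2.2⟩

/-- The hypotheses on the start data. -/
structure Ok : Prop where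
  lne : ∀ i, d.l i ≠ []
  lpath : ∀ i, G.IsPath 1 (d.l i) (d.g i)
  hB : ∀ i, d.K ≤ i → d.B i = ∅

variable {G d}

lemma mem_E_zero {x : X} : (x, 0) ∈ d.E ↔ x ∈ d.S0 := Iff.rfl

lemma mem_E_code {x : X} {i p : ℕ} : (x, code i p) ∈ d.E ↔
    p < (d.l i).length ∧ (d.stp i p).1⁻¹ • x ∈ d.B i := by
  show x ∈ d.ES (code i p) ↔ _
  simp [code, ES]

lemma vx_code {x : X} {i p : ℕ} {b : Bool} : d.vx G (x, some (code i p, b)) =
    d.pathv i (d.pos i p b) ((d.stp i p).1⁻¹ • x) := by
  simp [vx, code]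

@[simp] lemma vx_none {x : X} : d.vx G (x, none) = (none, x) := rfl

lemma vx_zero {x : X} {b : Bool} : d.vx G (x, some (0, b)) =
    (none, if b then G.z • x else x) := rfl

lemma act_none (x : X) : Act d.E (x, none) := by
  intro i b h
  simp at h

lemma act_some {x : X} {k : ℕ} {b : Bool} : Act d.E (x, some (k, b)) ↔ (x, k) ∈ d.E := by
  constructor
  · intro h
    exact h k b rfl
  · intro h i b' h'
    simp only [Option.some.injEq, Prod.mk.injEq] at h'
    obtain ⟨rfl, rfl⟩ := h'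
    exact h

lemma length_pos (ok : d.Ok G) (i : ℕ) : 0 < (d.l i).length :=
  List.length_pos_iff.2 (ok.lne i)

lemma stp_eq {i p : ℕ} (hp : p < (d.l i).length) : d.stp i p = (d.l i)[p] := by
  simp [stp, List.getD_eq_getElem?_getD, List.getElem?_eq_getElem hp]

/-- the location of the `P`-th vertex of a path: `lv i P • x` up to `A`. -/
def lv (d : SD Γ X) (G : PolyData Γ D) (c : Kd) : Γ :=
  match c with
  | none => 1
  | some none => 1
  | some (some (i, P)) => G.src (d.stp i P)

lemma pv_snd (y : X) : (d.pv y).2 = y := by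
  unfold pv; split_ifs <;> rfl

lemma lv_pv (y : X) : lv d G (d.pv y).1 = 1 := by
  unfold pv; split_ifs <;> rfl

lemma loc_code {x : X} {i p : ℕ} {b : Bool} : loc G (x, some (code i p, b)) =
    (if b = (d.stp i p).2 then G.tgt (d.stp i p) else G.src (d.stp i p)) •
      ((d.stp i p).1⁻¹ • x) := by
  rcases h : d.stp i p with ⟨γ, c⟩
  cases b <;> cases c <;> simp [loc, PolyData.src, PolyData.tgt, mul_smul]

/-- location of a point in terms of its vertex. -/
lemma loc_vx (ok : d.Ok G) (q : Pt X) (hq : Act d.E q) :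
    ∃ a ∈ G.A, loc G q = a • (lv d G (d.vx G q).1 • (d.vx G q).2) := by
  rcases q with ⟨x, k⟩
  rcases k with _ | ⟨k, b⟩
  · exact ⟨1, G.A.one_mem, by simp [lv, loc]⟩
  · rcases k with _ | k
    · refine ⟨1, G.A.one_mem, ?_⟩
      rw [vx_zero]
      cases b <;> simp [lv, loc]
    · obtain ⟨i, p, rfl⟩ : ∃ i p, k = Nat.pair i p := ⟨_, _, (Nat.pair_unpair k).symm⟩
      change Act d.E (x, some (code i p, b)) at hq
      change ∃ a ∈ G.A, loc G (x, some (code i p, b)) =
        a • (lv d G (d.vx G (x, some (code i p, b))).1 • (d.vx G (x, some (code i p, b))).2)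
      rw [act_some, mem_E_code] at hq
      obtain ⟨hp, hx⟩ := hq
      rw [loc_code (d := d), vx_code]
      set y := (d.stp i p).1⁻¹ • x with hy
      have h0 := length_pos ok i
      unfold pathv pos
      by_cases hb : b = (d.stp i p).2
      · rw [if_pos hb, if_pos hb]
        by_cases hP : p + 1 = (d.l i).length
        · rw [if_pos hP, lv_pv, pv_snd, one_smul]
          have := IsPath.last G (ok.lpath i) p hP
          rw [← stp_eq hp] at this
          refine ⟨(d.g i * (G.tgt (d.stp i p))⁻¹)⁻¹, inv_mem this, ?_⟩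
          simp [mul_smul]
        · rw [if_neg hP, if_neg (by omega)]
          have h1 : p + 1 < (d.l i).length := by omega
          have := IsPath.succ G (ok.lpath i) p h1
          rw [← stp_eq hp, ← stp_eq h1] at this
          refine ⟨_, inv_mem this, ?_⟩
          simp [lv, mul_smul]
      · rw [if_neg hb, if_neg hb, if_neg (by omega)]
        by_cases hP : p = 0
        · subst hP
          rw [if_pos rfl, lv_pv, pv_snd, one_smul]
          have := IsPath.head G (ok.lpath i) h0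
          rw [← stp_eq hp, inv_one, mul_one] at this
          exact ⟨_, this, rfl⟩
        · rw [if_neg hP]
          exact ⟨1, G.A.one_mem, by simp [lv]⟩

lemma rloc (ok : d.Ok G) (p q : Pt X) (h : d.r G p q) : ∃ a ∈ G.A, loc G q = a • loc G p := by
  obtain ⟨hp, hq, h1, h2⟩ := h
  obtain ⟨a, ha, h3⟩ := loc_vx ok p hp
  obtain ⟨b, hb, h4⟩ := loc_vx ok q hq
  by_cases h5 : (d.vx G p).1 = none
  · rw [if_pos h5] at h2
    obtain ⟨c, hc, h6⟩ := h2
    have h5' : (d.vx G q).1 = none := by rw [← h1, h5]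
    refine ⟨b * c * a⁻¹, mul_mem (mul_mem hb hc) (inv_mem ha), ?_⟩
    rw [h4, h3, h5', h5, h6]
    simp [lv, mul_smul]
  · rw [if_neg h5] at h2
    refine ⟨b * a⁻¹, mul_mem hb (inv_mem ha), ?_⟩
    rw [h4, h3, ← h1, h2]
    simp [mul_smul]

/-! ### measurability -/

section meas

variable [MeasurableSpace X]

/-- measurability hypotheses -/
structure Meas (Γ : Type) {X : Type} [Group Γ] [MulAction Γ X] [MeasurableSpace X] (d : SD Γ X) :
    Prop where
  act : ∀ g : Γ, Measurable (fun x : X => g • x)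
  B : ∀ i, MeasurableSet (d.B i)
  T : MeasurableSet d.T
  S0 : MeasurableSet d.S0

lemma measurableSet_ES (hm : Meas Γ d) (k : ℕ) : MeasurableSet (d.ES k) := by
  rcases k with _ | k
  · exact hm.S0
  · unfold ES
    by_cases h : k.unpair.2 < (d.l k.unpair.1).length
    · simp only [h, true_and]
      exact hm.act _ (hm.B _)
    · simp [h]

lemma pv_meas (hm : Meas Γ d) (c : Kd) : MeasurableSet {y : X | (d.pv y).1 = c} := by
  have hT := hm.T
  have : {y : X | (d.pv y).1 = c} =
      (d.T ∩ {y | (none : Kd) = c}) ∪ (d.Tᶜ ∩ {y | (some none : Kd) = c}) := by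
    ext y
    unfold pv
    by_cases hy : y ∈ d.T <;> simp [hy]
  rw [this]
  exact (hT.inter (MeasurableSet.const _)).union (hT.compl.inter (MeasurableSet.const _))

lemma pathv_form (hm : Meas Γ d) (i P : ℕ) : ∃ δ : Γ, (∀ x : X, (d.pathv i P x).2 = δ • x) ∧
    ∀ c : Kd, MeasurableSet {x : X | (d.pathv i P x).1 = c} := by
  by_cases h : P = (d.l i).length
  · refine ⟨d.g i, fun x => by simp [pathv, h, pv_snd], fun c => ?_⟩
    have : {x : X | (d.pathv i P x).1 = c} = (fun x => d.g i • x) ⁻¹' {y | (d.pv y).1 = c} := by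
      ext x; simp [pathv, h]
    rw [this]
    exact hm.act _ (pv_meas hm c)
  · by_cases h' : P = 0
    · refine ⟨1, fun x => by rw [pathv, if_neg h, if_pos h', pv_snd, one_smul], fun c => ?_⟩
      have : {x : X | (d.pathv i P x).1 = c} = {y | (d.pv y).1 = c} := by
        ext x; simp only [pathv, if_neg h, if_pos h', Set.mem_setOf_eq]
      rw [this]
      exact pv_meas hm c
    · refine ⟨1, fun x => by rw [pathv, if_neg h, if_neg h', one_smul], fun c => ?_⟩
      have : {x : X | (d.pathv i P x).1 = c} = {y | (some (some (i, P)) : Kd) = c} := by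
        ext x; simp only [pathv, if_neg h, if_neg h', Set.mem_setOf_eq]
      rw [this]
      exact MeasurableSet.const _

lemma vx_form (hm : Meas Γ d) (k : Option (ℕ × Bool)) : ∃ δ : Γ,
    (∀ x : X, (d.vx G (x, k)).2 = δ • x) ∧
    ∀ c : Kd, MeasurableSet {x : X | (d.vx G (x, k)).1 = c} := by
  rcases k with _ | ⟨k, b⟩
  · exact ⟨1, fun x => by simp, fun c => by simpa using MeasurableSet.const _⟩
  · rcases k with _ | k
    · refine ⟨if b then G.z else 1, fun x => ?_, fun c => ?_⟩
      · rw [vx_zero]; cases b <;> simp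
      · simp only [vx_zero]; exact MeasurableSet.const _
    · obtain ⟨i, p, rfl⟩ : ∃ i p, k = Nat.pair i p := ⟨_, _, (Nat.pair_unpair k).symm⟩
      change ∃ δ : Γ, (∀ x : X, (d.vx G (x, some (code i p, b))).2 = δ • x) ∧
        ∀ c : Kd, MeasurableSet {x : X | (d.vx G (x, some (code i p, b))).1 = c}
      obtain ⟨δ, h1, h2⟩ := pathv_form hm i (d.pos i p b)
      refine ⟨δ * (d.stp i p).1⁻¹, fun x => ?_, fun c => ?_⟩
      · rw [vx_code, h1, mul_smul]
      · simp only [vx_code]
        exact hm.act _ (h2 c)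

lemma act_meas (hm : Meas Γ d) (k : Option (ℕ × Bool)) : MeasurableSet {x : X | Act d.E (x, k)} := by
  rcases k with _ | ⟨k, b⟩
  · simp [act_none]
  · simp only [act_some]
    exact measurableSet_ES hm k

lemma measr (hm : Meas Γ d) (hfree : ∀ (g : Γ) (x : X), g • x = x → g = 1)
    (g : Γ) (k k' : Option (ℕ × Bool)) :
    MeasurableSet {x : X | d.r G (x, k) (g • x, k')} := by
  obtain ⟨δ, h1, h2⟩ := vx_form (G := G) hm k
  obtain ⟨δ', h1', h2'⟩ := vx_form (G := G) hm k'
  have hfree' : ∀ (a b : Γ) (x : X), a • x = b • x ↔ a = b := by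
    intro a b x
    constructor
    · intro h
      have : (b⁻¹ * a) • x = x := by rw [mul_smul, h, inv_smul_smul]
      have := hfree _ _ this
      exact (inv_mul_eq_one.1 this).symm
    · rintro rfl; rfl
  have : {x : X | d.r G (x, k) (g • x, k')} =
      {x : X | Act d.E (x, k)} ∩ ((fun x => g • x) ⁻¹' {x : X | Act d.E (x, k')} ∩
        ⋃ c : Kd, ({x : X | (d.vx G (x, k)).1 = c} ∩
          ((fun x => g • x) ⁻¹' {x : X | (d.vx G (x, k')).1 = c} ∩
            {x : X | if c = none then ∃ a ∈ G.A, δ' * g = a * δ else δ' * g = δ}))) := by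
    ext x
    simp only [r, VR, h1, h1', Set.mem_setOf_eq, Set.mem_inter_iff, Set.mem_preimage,
      Set.mem_iUnion]
    refine and_congr_right fun _ => and_congr_right fun _ => ?_
    have e1 : (∃ a ∈ G.A, δ' • g • x = a • δ • x) ↔ ∃ a ∈ G.A, δ' * g = a * δ := by
      refine exists_congr fun a => and_congr_right fun _ => ?_
      rw [← mul_smul, ← mul_smul, hfree']
    have e2 : (δ' • g • x = δ • x) ↔ δ' * g = δ := by
      rw [← mul_smul, hfree']
    rw [e1, e2]
    constructor
    · rintro ⟨h3, h4⟩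
      exact ⟨_, rfl, h3.symm, h4⟩
    · rintro ⟨c, h3, h4, h5⟩
      subst h3
      exact ⟨h4.symm, h5⟩
  rw [this]
  refine (act_meas hm k).inter (((hm.act g) (act_meas hm k')).inter ?_)
  refine MeasurableSet.iUnion fun c => (h2 c).inter ((hm.act g (h2' c)).inter ?_)
  exact MeasurableSet.const _

end meas

/-! ### connectivity -/

/-- `p` represents the point `x` of the graphing. -/
def Rep (G : PolyData Γ D) (d : SD Γ X) (p : Pt X) (x : X) : Prop :=
  Act d.E p ∧ VR G (d.vx G p) (d.pv x)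

lemma Rep.r {p q : Pt X} {x : X} (h : Rep G d p x) (h' : Rep G d q x) : d.r G p q :=
  ⟨h.1, h'.1, h.2.trans G h'.2.symm⟩

/-- start end of the `p`-th edge. -/
def pS (d : SD Γ X) (i p : ℕ) (x : X) : Pt X :=
  ((d.stp i p).1 • x, some (code i p, !(d.stp i p).2))

/-- final end of the `p`-th edge. -/
def pF (d : SD Γ X) (i p : ℕ) (x : X) : Pt X :=
  ((d.stp i p).1 • x, some (code i p, (d.stp i p).2))

lemma edge_mem {i p : ℕ} {x : X} (hx : x ∈ d.B i) (hp : p < (d.l i).length) :
    ((d.stp i p).1 • x, code i p) ∈ d.E := by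
  rw [mem_E_code]
  exact ⟨hp, by simpa using hx⟩

lemma vx_pS (i p : ℕ) (x : X) : d.vx G (pS d i p x) = d.pathv i p x := by
  unfold pS
  rw [vx_code]
  simp [pos]

lemma vx_pF (i p : ℕ) (x : X) : d.vx G (pF d i p x) = d.pathv i (p + 1) x := by
  unfold pF
  rw [vx_code]
  simp [pos]

lemma reach_pS (i : ℕ) {x : X} (hx : x ∈ d.B i) : ∀ p, p < (d.l i).length →
    Reach d.E (d.r G) p (pS d i 0 x) (pS d i p x)
  | 0, hp => ⟨act_some.2 (edge_mem hx hp), act_some.2 (edge_mem hx hp), VR.refl G _⟩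
  | p + 1, hp => by
    have h := reach_pS i hx p (by omega)
    refine ⟨(d.stp i p).1 • x, code i p, !(d.stp i p).2, edge_mem hx (by omega), h, ?_⟩
    rw [Bool.not_not]
    refine ⟨act_some.2 (edge_mem hx (by omega)), act_some.2 (edge_mem hx hp), ?_⟩
    have h1 := vx_pF (G := G) (d := d) i p x
    have h2 := vx_pS (G := G) (d := d) i (p + 1) x
    unfold pF at h1
    rw [h1, h2]
    exact VR.refl G _

lemma reach_pF (i : ℕ) {x : X} (hx : x ∈ d.B i) (p : ℕ) (hp : p < (d.l i).length) :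
    Reach d.E (d.r G) (p + 1) (pS d i 0 x) (pF d i p x) := by
  refine ⟨(d.stp i p).1 • x, code i p, !(d.stp i p).2, edge_mem hx hp, reach_pS i hx p hp, ?_⟩
  rw [Bool.not_not]
  exact ⟨act_some.2 (edge_mem hx hp), act_some.2 (edge_mem hx hp), VR.refl G _⟩

lemma rep_start (ok : d.Ok G) (i : ℕ) {x : X} (hx : x ∈ d.B i) : Rep G d (pS d i 0 x) x := by
  have h0 := length_pos ok i
  refine ⟨act_some.2 (edge_mem hx h0), ?_⟩
  rw [vx_pS, pathv, if_neg (by omega), if_pos rfl]
  exact VR.refl G _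

lemma rep_end (ok : d.Ok G) (i : ℕ) {x : X} (hx : x ∈ d.B i) :
    Rep G d (pF d i ((d.l i).length - 1) x) (d.g i • x) := by
  have h0 := length_pos ok i
  refine ⟨act_some.2 (edge_mem hx (by omega)), ?_⟩
  rw [vx_pF, pathv, if_pos (by omega)]
  exact VR.refl G _

/-- one forward step of the graphing. -/
lemma reach_step (ok : d.Ok G) (i : ℕ) {x : X} (hx : x ∈ d.B i) {p q : Pt X}
    (hp : Rep G d p x) (hq : Rep G d q (d.g i • x)) :
    ∃ n, Reach d.E (d.r G) n p q := by
  have h0 := length_pos ok i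
  have h1 := reach_pF (G := G) i hx ((d.l i).length - 1) (by omega)
  exact ⟨_, Reach.trans_right (r_trans G d) ((rep_end ok i hx).r hq)
    (Reach.trans_left (r_trans G d) (hp.r (rep_start ok i hx)) h1)⟩

/-- every point which is an endpoint of an edge of the graphing has a representative. -/
lemma exists_rep_of_mem (ok : d.Ok G) (i : ℕ) {x : X} (hx : x ∈ d.B i) : ∃ p, Rep G d p x :=
  ⟨_, rep_start ok i hx⟩

lemma exists_rep_of_mem' (ok : d.Ok G) (i : ℕ) {x : X} (hx : x ∈ d.B i) :
    ∃ p, Rep G d p (d.g i • x) := ⟨_, rep_end ok i hx⟩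

lemma rep_T {x : X} (hx : x ∈ d.T) {a : Γ} (ha : a ∈ G.A) : Rep G d (a • x, none) x := by
  refine ⟨act_none _, ?_⟩
  rw [vx_none, pv, if_pos hx]
  exact ⟨rfl, by rw [if_pos rfl]; exact ⟨a⁻¹, inv_mem ha, by simp⟩⟩

/-- steps of the truncated graphing. -/
def gr (d : SD Γ X) : ℕ → Γ × Set X := fun i => (d.g i, d.B i)

/-- following a path of the graphing. -/
lemma reach_path (ok : d.Ok G) : ∀ (l : List (ℕ × Bool)) {x : X}, x ∈ S0291P.Pd (gr d) l →
    ∀ {p q : Pt X}, Rep G d p x → Rep G d q (S0291P.Pe (gr d) l • x) →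
    ∃ n, Reach d.E (d.r G) n p q
  | [], x, hx, p, q, hp, hq => by
    simp only [S0291P.Pe_nil, one_smul] at hq
    exact ⟨0, hp.r hq⟩
  | (i, true) :: l, x, hx, p, q, hp, hq => by
    rw [S0291P.mem_Pd_cons] at hx
    have h1 : x ∈ d.B i := by simpa [S0291P.Sd, gr] using hx.1
    have h2 : S0291P.Se (gr d) (i, true) = d.g i := by simp [S0291P.Se, gr]
    rw [h2] at hx
    rw [S0291P.Pe_cons, mul_smul, h2] at hq
    obtain ⟨q', hq'⟩ := exists_rep_of_mem' ok i h1
    obtain ⟨n, hn⟩ := reach_step ok i h1 hp hq'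
    obtain ⟨m, hm⟩ := reach_path ok l hx.2 hq' hq
    exact ⟨n + m, Reach.trans (r_trans G d) hn hm⟩
  | (i, false) :: l, x, hx, p, q, hp, hq => by
    rw [S0291P.mem_Pd_cons] at hx
    have h1 : (d.g i)⁻¹ • x ∈ d.B i := by simpa [S0291P.Sd, gr] using hx.1
    have h2 : S0291P.Se (gr d) (i, false) = (d.g i)⁻¹ := by simp [S0291P.Se, gr]
    rw [h2] at hx
    rw [S0291P.Pe_cons, mul_smul, h2] at hq
    obtain ⟨q', hq'⟩ := exists_rep_of_mem ok i h1
    obtain ⟨n, hn⟩ := reach_step ok i h1 hq' (by rwa [smul_inv_smul])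
    obtain ⟨m, hm⟩ := reach_path ok l hx.2 hq' hq
    exact ⟨n + m, Reach.trans (r_trans G d) (Reach.symm' (r_symm G d) hn) hm⟩

/-- The connectivity hypotheses. -/
structure Conn (G : PolyData Γ D) (d : SD Γ X) : Prop where
  /-- every point of the graphing is joined to `T` -/
  toT : ∀ i, ∀ x ∈ d.B i, ∃ l, x ∈ S0291P.Pd (gr d) l ∧ S0291P.Pe (gr d) l • x ∈ d.T
  /-- `z`-edges outside `S0` -/
  zz : ∀ x, x ∉ d.S0 → ∃ a ∈ G.A, ∃ a' ∈ G.A, ∃ l, a • x ∈ d.T ∧ a' • G.z • x ∈ d.T ∧
    a • x ∈ S0291P.Pd (gr d) l ∧ S0291P.Pe (gr d) l • a • x = a' • G.z • x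

lemma conn_base (ok : d.Ok G) (hc : Conn G d) (x : X) :
    ∃ n, Reach d.E (d.r G) n (x, none) (G.z • x, none) := by
  by_cases hx : x ∈ d.S0
  · refine ⟨1, x, 0, false, hx, ⟨act_none _, act_some.2 hx, ?_⟩,
      ⟨act_some.2 hx, act_none _, ?_⟩⟩
    · rw [vx_none, vx_zero]
      exact VR.refl G _
    · rw [vx_none, vx_zero]
      exact VR.refl G _
  · obtain ⟨a, ha, a', ha', l, h1, h2, h3, h4⟩ := hc.zz x hx
    refine reach_path ok l h3 (p := (x, none)) (q := (G.z • x, none)) ?_ ?_
    · have := rep_T (d := d) (G := G) h1 (inv_mem ha)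
      rwa [inv_smul_smul] at this
    · rw [h4]
      have := rep_T (d := d) (G := G) h2 (inv_mem ha')
      rwa [inv_smul_smul] at this

lemma conn_rep (ok : d.Ok G) {x : X}
    (hx : ∃ l, x ∈ S0291P.Pd (gr d) l ∧ S0291P.Pe (gr d) l • x ∈ d.T) {p : Pt X}
    (hp : Rep G d p x) : ∃ n y, Reach d.E (d.r G) n p (y, none) := by
  obtain ⟨l, h1, h2⟩ := hx
  have h3 := rep_T (d := d) (G := G) h2 (one_mem G.A)
  obtain ⟨n, hn⟩ := reach_path ok l h1 hp h3
  exact ⟨n, _, hn⟩

lemma conn_T {x : X} (hx : x ∈ d.T) :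
    ∃ l, x ∈ S0291P.Pd (gr d) l ∧ S0291P.Pe (gr d) l • x ∈ d.T := ⟨[], by simp, by simpa⟩

lemma toT' (hc : Conn G d) (i : ℕ) (x : X) (hx : x ∈ d.B i) :
    ∃ l, d.g i • x ∈ S0291P.Pd (gr d) l ∧ S0291P.Pe (gr d) l • d.g i • x ∈ d.T := by
  obtain ⟨l, h1, h2⟩ := hc.toT i x hx
  refine ⟨(i, false) :: l, ?_, ?_⟩
  · rw [S0291P.mem_Pd_cons]
    simp only [S0291P.Sd, S0291P.Se, gr, Bool.false_eq_true, if_false, Set.mem_setOf_eq,
      inv_smul_smul]
    exact ⟨hx, h1⟩
  · rw [S0291P.Pe_cons, mul_smul]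
    simp only [S0291P.Se, gr, Bool.false_eq_true, if_false, inv_smul_smul]
    exact h2

lemma conn (ok : d.Ok G) (hc : Conn G d) (q : Pt X) (hq : Act d.E q) :
    ∃ n y, Reach d.E (d.r G) n q (y, none) := by
  rcases q with ⟨x, k⟩
  rcases k with _ | ⟨k, b⟩
  · exact ⟨0, x, act_none _, act_none _, VR.refl G _⟩
  · rcases k with _ | k
    · refine ⟨0, if b then G.z • x else x, hq, act_none _, ?_⟩
      rw [vx_none, vx_zero]
      exact VR.refl G _
    · obtain ⟨i, p, rfl⟩ : ∃ i p, k = Nat.pair i p := ⟨_, _, (Nat.pair_unpair k).symm⟩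
      change Act d.E (x, some (code i p, b)) at hq
      change ∃ n y, Reach d.E (d.r G) n (x, some (code i p, b)) (y, none)
      have hq' := hq
      rw [act_some, mem_E_code] at hq'
      obtain ⟨hp, hx⟩ := hq'
      obtain ⟨n, y, hn⟩ := conn_rep ok (hc.toT i _ hx) (rep_start ok i hx)
      have e : (d.stp i p).1 • (d.stp i p).1⁻¹ • x = x := smul_inv_smul _ _
      by_cases hb : b = (d.stp i p).2
      · have h1 := reach_pF (G := G) i hx p hp
        unfold pF at h1
        rw [e, ← hb] at h1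
        exact ⟨_, y, Reach.trans (r_trans G d) (Reach.symm' (r_symm G d) h1) hn⟩
      · have h1 := reach_pS (G := G) i hx p hp
        have hb' : b = !(d.stp i p).2 := by
          cases b <;> cases h : (d.stp i p).2 <;> simp_all
        unfold pS at h1
        rw [e, ← hb'] at h1
        exact ⟨_, y, Reach.trans (r_trans G d) (Reach.symm' (r_symm G d) h1) hn⟩

end SD

end Crest.Agent.FP
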