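import Mathlib
import Crest.Agent.FP_Start1

/-!
# Module START, part 2 (helper76): forest, rows and homological generation
-/

set_option autoImplicit false
set_option linter.unusedSectionVars false
set_option linter.unusedVariables false
set_option linter.deprecated false

open MeasureTheory
open scoped ENNReal

namespace Crest.Agent.FP

namespace SD

variable {Γ X : Type} [Group Γ] [MulAction Γ X] {D : ℕ} [NeZero D] (G : PolyData Γ D)
  (d : SD Γ X)

open S0291P

/-- joined to `T` by a path of length `n`. -/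
def Dn (n : ℕ) : Set X := {x | ∃ l : List (ℕ × Bool), l.length = n ∧ x ∈ Pd (gr d) l ∧
  Pe (gr d) l • x ∈ d.T}

/-- at distance exactly `n` from `T`. -/
def Dx (n : ℕ) : Set X := {x | x ∈ d.Dn n ∧ ∀ m < n, x ∉ d.Dn m}

/-- joined to `T`. -/
def C : Set X := {x | ∃ n, x ∈ d.Dn n}

/-- `s` is a good step at `x`: it decreases the distance. -/
def GoodStep (x : X) (s : ℕ × Bool) : Prop :=
  x ∈ Sd (gr d) s ∧ ∃ n, Se (gr d) s • x ∈ d.Dx n ∧ x ∈ d.Dx (n + 1)

open Classical in
/-- the parent step. -/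
noncomputable def par (x : X) : ℕ × Bool :=
  if h : ∃ n : ℕ, ∃ s, Encodable.encode s = n ∧ d.GoodStep x s then
    Classical.choose (Nat.find_spec h) else (0, true)

open Classical in
/-- distance to `T`. -/
noncomputable def dist (x : X) : ℕ := if h : ∃ n, x ∈ d.Dn n then Nat.find h else 0

/-- the forest path. -/
noncomputable def pth : ℕ → X → List (ℕ × Bool)
  | 0, _ => []
  | n + 1, x => d.par x :: pth n (Se (gr d) (d.par x) • x)

/-- the forest path. -/
noncomputable def fp (x : X) : List (ℕ × Bool) := d.pth (d.dist x) x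

variable {G d}

lemma dist_eq {x : X} {n : ℕ} (h : x ∈ d.Dx n) : d.dist x = n := by
  classical
  have h' : ∃ n, x ∈ d.Dn n := ⟨n, h.1⟩
  rw [dist, dif_pos h']
  exact (Nat.find_eq_iff h').2 h

lemma exists_Dx {x : X} (h : x ∈ d.C) : ∃ n, x ∈ d.Dx n := by
  classical
  have h' : ∃ n, x ∈ d.Dn n := h
  exact ⟨Nat.find h', Nat.find_spec h', fun m hm => Nat.find_min h' hm⟩

lemma Dx_zero {x : X} : x ∈ d.Dx 0 ↔ x ∈ d.T := by
  constructor
  · rintro ⟨⟨l, hl, _, h⟩, _⟩
    rw [List.length_eq_zero_iff] at hl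
    subst hl
    simpa using h
  · intro h
    exact ⟨⟨[], rfl, by simp, by simpa⟩, fun m hm => absurd hm (by omega)⟩

lemma Dx_unique {x : X} {n m : ℕ} (h : x ∈ d.Dx n) (h' : x ∈ d.Dx m) : n = m := by
  rw [← dist_eq h, ← dist_eq h']

lemma exists_goodStep {x : X} {n : ℕ} (h : x ∈ d.Dx (n + 1)) : ∃ s, d.GoodStep x s := by
  obtain ⟨⟨l, hl, h1, h2⟩, h3⟩ := h
  cases l with
  | nil => simp at hl
  | cons s l =>
    rw [mem_Pd_cons] at h1
    rw [Pe_cons, mul_smul] at h2
    simp only [List.length_cons, add_left_inj] at hl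
    refine ⟨s, h1.1, n, ⟨⟨l, hl, h1.2, h2⟩, ?_⟩, ⟨⟨s :: l, by simp [hl], by simpa using h1, ?_⟩, h3⟩⟩
    · rintro m hm ⟨l', hl', h4, h5⟩
      refine h3 (m + 1) (by omega) ⟨s :: l', by simp [hl'], ?_, ?_⟩
      · rw [mem_Pd_cons]; exact ⟨h1.1, h4⟩
      · rw [Pe_cons, mul_smul]; exact h5
    · rw [Pe_cons, mul_smul]; exact h2

lemma par_spec {x : X} {n : ℕ} (h : x ∈ d.Dx (n + 1)) : d.GoodStep x (d.par x) := by
  classical
  obtain ⟨s, hs⟩ := exists_goodStep h
  have h' : ∃ n : ℕ, ∃ s, Encodable.encode s = n ∧ d.GoodStep x s := ⟨_, s, rfl, hs⟩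
  rw [par, dif_pos h']
  exact (Classical.choose_spec (Nat.find_spec h')).2

lemma par_eq_iff {x : X} {s : ℕ × Bool} (hx : ∃ s, d.GoodStep x s) : d.par x = s ↔
    d.GoodStep x s ∧ ∀ s', Encodable.encode s' < Encodable.encode s → ¬ d.GoodStep x s' := by
  classical
  obtain ⟨s0, hs0⟩ := hx
  have h' : ∃ n : ℕ, ∃ s, Encodable.encode s = n ∧ d.GoodStep x s := ⟨_, s0, rfl, hs0⟩
  have h1 := Classical.choose_spec (Nat.find_spec h')
  have h2 : d.par x = Classical.choose (Nat.find_spec h') := by rw [par, dif_pos h']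
  rw [← h2] at h1
  constructor
  · rintro rfl
    refine ⟨h1.2, fun s' hs' hg => ?_⟩
    rw [h1.1] at hs'
    exact Nat.find_min h' hs' ⟨s', rfl, hg⟩
  · rintro ⟨h3, h4⟩
    have h5 : Nat.find h' ≤ Encodable.encode s := Nat.find_min' h' ⟨s, rfl, h3⟩
    have h6 : ¬ Encodable.encode (d.par x) < Encodable.encode s := fun h => h4 _ h h1.2
    rw [h1.1] at h6
    have h7 : Encodable.encode (d.par x) = Encodable.encode s := by rw [h1.1]; omega
    exact Encodable.encode_injective h7

lemma fp_T {x : X} (h : x ∈ d.T) : d.fp x = [] := by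
  rw [fp, dist_eq (Dx_zero.2 h)]
  rfl

lemma fp_succ {x : X} {n : ℕ} (h : x ∈ d.Dx (n + 1)) :
    d.fp x = d.par x :: d.fp (Se (gr d) (d.par x) • x) := by
  obtain ⟨_, m, h1, h2⟩ := par_spec h
  have h3 : m = n := by
    have := Dx_unique h h2
    omega
  subst h3
  rw [fp, dist_eq h, fp, dist_eq h1]
  rfl

lemma fp_Pd {n : ℕ} : ∀ {x : X}, x ∈ d.Dx n → x ∈ Pd (gr d) (d.fp x) := by
  induction n with
  | zero =>
    intro x hx
    rw [fp_T (Dx_zero.1 hx)]
    simp
  | succ n ih =>
    intro x hx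
    rw [fp_succ hx, mem_Pd_cons]
    obtain ⟨h0, m, h1, h2⟩ := par_spec hx
    have h3 : m = n := by
      have := Dx_unique hx h2
      omega
    subst h3
    exact ⟨h0, ih h1⟩

lemma not_T_iff {x : X} (hx : x ∈ d.C) (hT : x ∉ d.T) : ∃ n, x ∈ d.Dx (n + 1) := by
  obtain ⟨n, hn⟩ := exists_Dx hx
  cases n with
  | zero => exact absurd (Dx_zero.1 hn) hT
  | succ n => exact ⟨n, hn⟩

/-! ### chains -/

/-- sign -/
def sgn (b : Bool) : ℚ := if b then 1 else -1

/-- relative chain of the piece `i`. -/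
def ec (d : SD Γ X) (i : ℕ) : List (Γ × ℕ × ℚ) :=
  (List.range (d.l i).length).map (fun p => ((d.stp i p).1, code i p, sgn (d.stp i p).2))

/-- shift of a relative chain. -/
def sh (c : List (Γ × ℕ × ℚ)) (h : Γ) : List (Γ × ℕ × ℚ) := c.map (fun t => (t.1 * h, t.2.1, t.2.2))

/-- negation of a relative chain. -/
def ng (c : List (Γ × ℕ × ℚ)) : List (Γ × ℕ × ℚ) := c.map (fun t => (t.1, t.2.1, -t.2.2))

/-- relative chain of a step. -/
def sc (d : SD Γ X) (s : ℕ × Bool) : List (Γ × ℕ × ℚ) :=
  if s.2 then ec d s.1 else ng (sh (ec d s.1) (d.g s.1)⁻¹)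

/-- relative chain of a path. -/
def pc (d : SD Γ X) : List (ℕ × Bool) → List (Γ × ℕ × ℚ)
  | [] => []
  | s :: l => sc d s ++ sh (pc d l) (Se (gr d) s)

/-- the chain at `x`. -/
noncomputable def toF (c : List (Γ × ℕ × ℚ)) (x : X) : X × ℕ →₀ ℚ :=
  (c.map (fun t => Finsupp.single (t.1 • x, t.2.1) t.2.2)).sum

lemma toF_append (c c' : List (Γ × ℕ × ℚ)) (x : X) : toF (c ++ c') x = toF c x + toF c' x := by
  simp [toF]

lemma toF_sh (c : List (Γ × ℕ × ℚ)) (h : Γ) (x : X) : toF (sh c h) x = toF c (h • x) := by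
  simp [toF, sh, Function.comp_def, mul_smul]

lemma toF_ng (c : List (Γ × ℕ × ℚ)) (x : X) : toF (ng c) x = - toF c x := by
  induction c with
  | nil => simp [toF, ng]
  | cons t c ih =>
    have h1 : toF (ng (t :: c)) x = Finsupp.single (t.1 • x, t.2.1) (-t.2.2) + toF (ng c) x := by
      simp [toF, ng]
    have h2 : toF (t :: c) x = Finsupp.single (t.1 • x, t.2.1) t.2.2 + toF c x := by
      simp [toF]
    rw [h1, h2, ih, Finsupp.single_neg, neg_add]

open Classical in
/-- coefficients of a relative chain. -/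
noncomputable def cf (c : List (Γ × ℕ × ℚ)) (g : Γ) (k : ℕ) : ℚ :=
  (c.map (fun t => if t.1 = g ∧ t.2.1 = k then t.2.2 else 0)).sum

lemma toF_apply (hfree : ∀ (g : Γ) (x : X), g • x = x → g = 1) (c : List (Γ × ℕ × ℚ)) (x : X)
    (g : Γ) (k : ℕ) : toF c x (g • x, k) = cf c g k := by
  classical
  have hfree' : ∀ (a b : Γ) (x : X), a • x = b • x ↔ a = b := by
    intro a b x
    constructor
    · intro h
      have : (b⁻¹ * a) • x = x := by rw [mul_smul, h, inv_smul_smul]
      have := hfree _ _ this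
      exact (inv_mul_eq_one.1 this).symm
    · rintro rfl; rfl
  induction c with
  | nil => simp [toF, cf]
  | cons t c ih =>
    have h2 : toF (t :: c) x = Finsupp.single (t.1 • x, t.2.1) t.2.2 + toF c x := by
      simp [toF]
    rw [h2, Finsupp.add_apply, ih, cf, cf, List.map_cons, List.sum_cons, Finsupp.single_apply]
    simp only [Prod.mk.injEq, hfree']

lemma toF_support {c : List (Γ × ℕ × ℚ)} {x : X} {e : X × ℕ} (he : e ∈ (toF c x).support) :
    ∃ t ∈ c, e = (t.1 • x, t.2.1) := by
  classical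
  induction c with
  | nil => simp [toF] at he
  | cons t c ih =>
    have h2 : toF (t :: c) x = Finsupp.single (t.1 • x, t.2.1) t.2.2 + toF c x := by
      simp [toF]
    rw [h2] at he
    have := Finsupp.support_add he
    rw [Finset.mem_union] at this
    rcases this with h | h
    · have := Finsupp.support_single_subset h
      rw [Finset.mem_singleton] at this
      exact ⟨t, by simp, this⟩
    · obtain ⟨t', ht', h3⟩ := ih h
      exact ⟨t', by simp [ht'], h3⟩

lemma ec_E {i : ℕ} {x : X} (hx : x ∈ d.B i) {t : Γ × ℕ × ℚ} (ht : t ∈ ec d i) :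
    (t.1 • x, t.2.1) ∈ d.E := by
  simp only [ec, List.mem_map, List.mem_range] at ht
  obtain ⟨p, hp, rfl⟩ := ht
  exact edge_mem hx hp

lemma pc_E : ∀ (l : List (ℕ × Bool)) {x : X}, x ∈ Pd (gr d) l → ∀ t ∈ pc d l,
    (t.1 • x, t.2.1) ∈ d.E
  | [], x, hx, t, ht => by simp [pc] at ht
  | (i, b) :: l, x, hx, t, ht => by
    rw [mem_Pd_cons] at hx
    simp only [pc, List.mem_append] at ht
    rcases ht with ht | ht
    · cases b
      · have h1 : (d.g i)⁻¹ • x ∈ d.B i := by simpa [Sd, gr] using hx.1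
        simp only [sc, ng, sh, Bool.false_eq_true, if_false, List.mem_map] at ht
        obtain ⟨t', ⟨t'', ht'', rfl⟩, rfl⟩ := ht
        have := ec_E h1 ht''
        simpa [mul_smul] using this
      · have h1 : x ∈ d.B i := by simpa [Sd, gr] using hx.1
        simp only [sc, if_true] at ht
        exact ec_E h1 ht
    · simp only [sh, List.mem_map] at ht
      obtain ⟨t', ht', rfl⟩ := ht
      have := pc_E l hx.2 t' ht'
      simpa [mul_smul] using this

/-! ### rows -/

/-- the row sets. -/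
def NS (d : SD Γ X) : ℕ → Set X
  | 0 => d.S0
  | i + 1 => {x | x ∈ d.B i ∧ ¬ (x ∉ d.T ∧ d.par x = (i, true)) ∧
      ¬ (d.g i • x ∉ d.T ∧ d.par (d.g i • x) = (i, false))}

/-- the index set of the rows. -/
def N (d : SD Γ X) : Set (X × ℕ) := {q | q.1 ∈ d.NS q.2}

/-- the rows. -/
noncomputable def row (d : SD Γ X) (q : X × ℕ) : X × ℕ →₀ ℚ :=
  match q.2 with
  | 0 => Finsupp.single (q.1, 0) 1
  | i + 1 => toF (ec d i) q.1 + toF (pc d (d.fp (d.g i • q.1))) (d.g i • q.1) -
      toF (pc d (d.fp q.1)) q.1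

lemma mem_C_of_conn (hc : Conn G d) {i : ℕ} {x : X} (hx : x ∈ d.B i) : x ∈ d.C := by
  obtain ⟨l, h1, h2⟩ := hc.toT i x hx
  exact ⟨_, l, rfl, h1, h2⟩

lemma mem_C_of_conn' (hc : Conn G d) {i : ℕ} {x : X} (hx : x ∈ d.B i) : d.g i • x ∈ d.C := by
  obtain ⟨l, h1, h2⟩ := toT' hc i x hx
  exact ⟨_, l, rfl, h1, h2⟩

lemma row_E (hc : Conn G d) : ∀ n ∈ d.N, ∀ e ∈ (d.row n).support, e ∈ d.E := by
  classical
  rintro ⟨x, k⟩ hn e he
  rcases k with _ | i
  · simp only [row] at he
    have := Finsupp.support_single_subset he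
    rw [Finset.mem_singleton] at this
    subst this
    exact hn
  · simp only [row] at he
    have hx : x ∈ d.B i := hn.1
    obtain ⟨n1, h1⟩ := exists_Dx (mem_C_of_conn hc hx)
    obtain ⟨n2, h2⟩ := exists_Dx (mem_C_of_conn' hc hx)
    have := Finsupp.support_sub he
    rw [Finset.mem_union] at this
    rcases this with h | h
    · have := Finsupp.support_add h
      rw [Finset.mem_union] at this
      rcases this with h | h
      · obtain ⟨t, ht, rfl⟩ := toF_support h
        exact ec_E hx ht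
      · obtain ⟨t, ht, rfl⟩ := toF_support h
        exact pc_E _ (fp_Pd h2) t ht
    · obtain ⟨t, ht, rfl⟩ := toF_support h
      exact pc_E _ (fp_Pd h1) t ht

lemma row_orb : ∀ n ∈ d.N, ∀ e ∈ (d.row n).support, ∃ g : Γ, e.1 = g • n.1 := by
  classical
  rintro ⟨x, k⟩ hn e he
  rcases k with _ | i
  · simp only [row] at he
    have := Finsupp.support_single_subset he
    rw [Finset.mem_singleton] at this
    subst this
    exact ⟨1, by simp⟩
  · simp only [row] at he
    have := Finsupp.support_sub he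
    rw [Finset.mem_union] at this
    rcases this with h | h
    · have := Finsupp.support_add h
      rw [Finset.mem_union] at this
      rcases this with h | h
      · obtain ⟨t, ht, rfl⟩ := toF_support h
        exact ⟨_, rfl⟩
      · obtain ⟨t, ht, rfl⟩ := toF_support h
        exact ⟨t.1 * d.g i, by simp [mul_smul]⟩
    · obtain ⟨t, ht, rfl⟩ := toF_support h
      exact ⟨_, rfl⟩

/-! ### homological generation -/

section gen

variable {U : Type} [AddCommGroup U] [Module ℚ U] (β : X × ℕ → U)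

lemma pair_eq (c : X × ℕ →₀ ℚ) : pair c β = Finsupp.linearCombination ℚ β c := rfl

/-- potential at the points of the graphing. -/
noncomputable def phi0 (d : SD Γ X) (x : X) : U :=
  - Finsupp.linearCombination ℚ β (toF (pc d (d.fp x)) x)

/-- partial sums along the path of a piece. -/
noncomputable def psum (d : SD Γ X) (i : ℕ) (x : X) (P : ℕ) : U :=
  ∑ q ∈ Finset.range P, sgn (d.stp i q).2 • β ((d.stp i q).1 • x, code i q)

lemma lc_ec (i : ℕ) (x : X) :
    Finsupp.linearCombination ℚ β (toF (ec d i) x) = psum β d i x (d.l i).length := by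
  unfold toF ec psum
  rw [List.map_map]
  generalize (d.l i).length = n
  induction n with
  | zero => simp
  | succ n ih =>
    rw [List.range_succ, List.map_append, List.sum_append, map_add, ih, Finset.sum_range_succ]
    simp

lemma phi0_T {x : X} (hx : x ∈ d.T) : phi0 β d x = 0 := by
  simp [phi0, fp_T hx, pc, toF]

/-- the edge identity. -/
lemma phi0_edge (hc : Conn G d) (hβ : ∀ n ∈ d.N, pair (d.row n) β = 0) {i : ℕ} {x : X}
    (hx : x ∈ d.B i) :
    phi0 β d (d.g i • x) = phi0 β d x + psum β d i x (d.l i).length := by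
  by_cases h1 : x ∉ d.T ∧ d.par x = (i, true)
  · obtain ⟨n, hn⟩ := not_T_iff (mem_C_of_conn hc hx) h1.1
    have h2 := fp_succ hn
    rw [h1.2] at h2
    have h3 : Se (gr d) (i, true) = d.g i := by simp [Se, gr]
    rw [h3] at h2
    have h4 : phi0 β d x = - psum β d i x (d.l i).length + phi0 β d (d.g i • x) := by
      rw [phi0, h2, pc, toF_append, toF_sh, h3, map_add, phi0]
      simp only [sc, if_true]
      rw [lc_ec]
      abel
    rw [h4]; abel
  · by_cases h2 : d.g i • x ∉ d.T ∧ d.par (d.g i • x) = (i, false)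
    · obtain ⟨n, hn⟩ := not_T_iff (mem_C_of_conn' hc hx) h2.1
      have h5 := fp_succ hn
      rw [h2.2] at h5
      have h3 : Se (gr d) (i, false) = (d.g i)⁻¹ := by simp [Se, gr]
      rw [h3, inv_smul_smul] at h5
      rw [phi0, h5, pc, toF_append, toF_sh, h3, inv_smul_smul, map_add, phi0]
      simp only [sc, Bool.false_eq_true, if_false]
      rw [toF_ng, toF_sh, inv_smul_smul, map_neg, lc_ec]
      abel
    · have h3 : (x, i + 1) ∈ d.N := ⟨hx, h1, h2⟩
      have h4 := hβ _ h3
      rw [pair_eq] at h4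
      simp only [row, map_add, map_sub] at h4
      rw [lc_ec] at h4
      rw [phi0, phi0]
      have : Finsupp.linearCombination ℚ β (toF (pc d (d.fp (d.g i • x))) (d.g i • x)) =
          Finsupp.linearCombination ℚ β (toF (pc d (d.fp x)) x) -
            psum β d i x (d.l i).length := by
        rw [← sub_eq_zero]
        rw [← h4]
        abel
      rw [this]
      abel

/-- potential of a vertex. -/
noncomputable def vval (d : SD Γ X) (v : Kd × X) : U :=
  match v.1 with
  | none => 0
  | some none => phi0 β d v.2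
  | some (some (i, P)) => phi0 β d v.2 + psum β d i v.2 P

lemma vval_pv (x : X) : vval β d (d.pv x) = phi0 β d x := by
  unfold pv
  split_ifs with h
  · simp [vval, phi0_T β h]
  · simp [vval]

lemma vval_pathv (hc : Conn G d) (hβ : ∀ n ∈ d.N, pair (d.row n) β = 0) {i : ℕ} {x : X}
    (hx : x ∈ d.B i) {P : ℕ} (hP : P ≤ (d.l i).length) :
    vval β d (d.pathv i P x) = phi0 β d x + psum β d i x P := by
  unfold pathv
  split_ifs with h h'
  · rw [vval_pv, phi0_edge β hc hβ hx, h]
  · rw [vval_pv, h']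
    simp [psum]
  · simp [vval]

lemma vval_VR {u v : Kd × X} (h : VR G u v) : vval β d u = vval β d v := by
  obtain ⟨h1, h2⟩ := h
  rcases u with ⟨c, x⟩
  rcases v with ⟨c', y⟩
  simp only at h1 h2
  subst h1
  rcases c with _ | c
  · rfl
  · simp only [reduceCtorEq, if_false] at h2
    subst h2
    rfl

end gen

theorem gen_start (ok : d.Ok G) (hc : Conn G d) : Gen G d.E (d.r G) ∅ d.N d.row := by
  intro U _ _ β _ hβ
  refine ⟨fun q => vval β d (d.vx G q), fun x => by simp [vval], fun p q h => vval_VR β h.2.2, ?_⟩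
  intro x k hk
  rcases k with _ | k
  · have h1 := hβ (x, 0) hk
    rw [pair_eq] at h1
    simp only [row] at h1
    rw [Finsupp.linearCombination_single, one_smul] at h1
    beta_reduce
    rw [h1, vx_zero, vx_zero]
    simp [vval]
  · obtain ⟨i, p, rfl⟩ : ∃ i p, k = Nat.pair i p := ⟨_, _, (Nat.pair_unpair k).symm⟩
    change (x, code i p) ∈ d.E at hk
    change β (x, code i p) = vval β d (d.vx G (x, some (code i p, true))) -
      vval β d (d.vx G (x, some (code i p, false)))
    rw [mem_E_code] at hk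
    obtain ⟨hp, hx⟩ := hk
    rw [vx_code, vx_code]
    have e : (d.stp i p).1 • (d.stp i p).1⁻¹ • x = x := smul_inv_smul _ _
    set y := (d.stp i p).1⁻¹ • x with hy
    have h1 := vval_pathv β hc hβ hx (P := p) (by omega)
    have h2 := vval_pathv β hc hβ hx (P := p + 1) (by omega)
    have h3 : psum β d i y (p + 1) = psum β d i y p + sgn (d.stp i p).2 • β (x, code i p) := by
      unfold psum
      rw [Finset.sum_range_succ, e]
    unfold pos
    rcases hb : (d.stp i p).2 with _ | _
    · rw [if_neg (by simp), if_pos rfl, h1, h2, h3, hb]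
      simp [sgn]
    · rw [if_pos rfl, if_neg (by simp), h1, h2, h3, hb]
      simp [sgn]

end SD

end Crest.Agent.FP
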