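import Mathlib
import Crest.Agent.FP_Start2

/-!
# Module START, part 3 (helper76): measurability, measures, the final theorem
-/

set_option autoImplicit false
set_option linter.unusedSectionVars false
set_option linter.unusedVariables false
set_option linter.deprecated false

open MeasureTheory
open scoped ENNReal

namespace Crest.Agent.FP

namespace SD

variable {Γ X : Type} [Group Γ] [MulAction Γ X] {D : ℕ} [NeZero D] {G : PolyData Γ D}
  {d : SD Γ X} [MeasurableSpace X]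

open S0291P

lemma meas_Sd (hm : Meas Γ d) (s : ℕ × Bool) : MeasurableSet (Sd (gr d) s) :=
  measurableSet_Sd hm.act (fun i => hm.B i) s

lemma meas_Pd (hm : Meas Γ d) (l : List (ℕ × Bool)) : MeasurableSet (Pd (gr d) l) :=
  measurableSet_Pd hm.act (fun i => hm.B i) l

lemma meas_Dn (hm : Meas Γ d) (n : ℕ) : MeasurableSet (d.Dn n) := by
  have : d.Dn n = ⋃ l : List (ℕ × Bool), ({x | l.length = n} ∩ (Pd (gr d) l ∩
      (fun x => Pe (gr d) l • x) ⁻¹' d.T)) := by
    ext x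
    simp only [Dn, Set.mem_setOf_eq, Set.mem_iUnion, Set.mem_inter_iff, Set.mem_preimage]
  rw [this]
  exact MeasurableSet.iUnion fun l => (MeasurableSet.const _).inter
    ((meas_Pd hm l).inter (hm.act _ hm.T))

lemma meas_Dx (hm : Meas Γ d) (n : ℕ) : MeasurableSet (d.Dx n) := by
  have : d.Dx n = d.Dn n ∩ ⋂ m : ℕ, ⋂ _ : m < n, (d.Dn m)ᶜ := by
    ext x
    simp [Dx]
  rw [this]
  exact (meas_Dn hm n).inter (MeasurableSet.iInter fun m => MeasurableSet.iInter fun _ =>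
    (meas_Dn hm m).compl)

lemma meas_C (hm : Meas Γ d) : MeasurableSet d.C := by
  have : d.C = ⋃ n, d.Dn n := by ext x; simp [C]
  rw [this]
  exact MeasurableSet.iUnion fun n => meas_Dn hm n

lemma meas_good (hm : Meas Γ d) (s : ℕ × Bool) : MeasurableSet {x | d.GoodStep x s} := by
  have : {x | d.GoodStep x s} = Sd (gr d) s ∩ ⋃ n, ((fun x => Se (gr d) s • x) ⁻¹' d.Dx n ∩
      d.Dx (n + 1)) := by
    ext x
    simp [GoodStep]
  rw [this]
  exact (meas_Sd hm s).inter (MeasurableSet.iUnion fun n => (hm.act _ (meas_Dx hm n)).inter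
    (meas_Dx hm (n + 1)))

lemma meas_par (hm : Meas Γ d) (s : ℕ × Bool) : MeasurableSet {x | d.par x = s} := by
  classical
  have : {x | d.par x = s} = ((⋃ s', {x | d.GoodStep x s'}) ∩ ({x | d.GoodStep x s} ∩
      ⋂ s' : ℕ × Bool, ⋂ _ : Encodable.encode s' < Encodable.encode s,
        {x | d.GoodStep x s'}ᶜ)) ∪ ((⋃ s', {x | d.GoodStep x s'})ᶜ ∩ {x | (0, true) = s}) := by
    ext x
    by_cases h : ∃ s', d.GoodStep x s'
    · rw [Set.mem_setOf_eq, par_eq_iff h]
      simp only [Set.mem_union, Set.mem_inter_iff, Set.mem_iUnion, Set.mem_setOf_eq, h, true_and,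
        Set.mem_iInter, Set.mem_compl_iff, not_true, false_and, or_false]
    · have h' : ¬ ∃ n : ℕ, ∃ s, Encodable.encode s = n ∧ d.GoodStep x s := by
        rintro ⟨n, s, _, hs⟩; exact h ⟨s, hs⟩
      have h2 : d.par x = (0, true) := by rw [par, dif_neg h']
      simp only [Set.mem_union, Set.mem_inter_iff, Set.mem_iUnion, Set.mem_setOf_eq, h, false_and,
        Set.mem_compl_iff, not_false_eq_true, true_and, false_or, h2]
  rw [this]
  have hU : MeasurableSet (⋃ s', {x | d.GoodStep x s'}) :=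
    MeasurableSet.iUnion fun s' => meas_good hm s'
  exact (hU.inter ((meas_good hm s).inter (MeasurableSet.iInter fun s' =>
    MeasurableSet.iInter fun _ => (meas_good hm s').compl))).union
    (hU.compl.inter (MeasurableSet.const _))

lemma meas_pth (hm : Meas Γ d) : ∀ (n : ℕ) (l : List (ℕ × Bool)),
    MeasurableSet {x | d.pth n x = l}
  | 0, l => by
    simp only [pth]
    exact MeasurableSet.const _
  | n + 1, [] => by
    simp [pth]
  | n + 1, s :: l => by
    have : {x | d.pth (n + 1) x = s :: l} = {x | d.par x = s} ∩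
        (fun x => Se (gr d) s • x) ⁻¹' {x | d.pth n x = l} := by
      ext x
      simp only [pth, List.cons.injEq, Set.mem_setOf_eq, Set.mem_inter_iff, Set.mem_preimage]
      constructor
      · rintro ⟨h1, h2⟩
        rw [h1] at h2
        exact ⟨h1, h2⟩
      · rintro ⟨h1, h2⟩
        refine ⟨h1, ?_⟩
        rw [h1]
        exact h2
    rw [this]
    exact (meas_par hm s).inter (hm.act _ (meas_pth hm n l))

lemma meas_dist (hm : Meas Γ d) (n : ℕ) : MeasurableSet {x | d.dist x = n} := by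
  classical
  have : {x | d.dist x = n} = d.Dx n ∪ (d.Cᶜ ∩ {x | 0 = n}) := by
    ext x
    by_cases h : x ∈ d.C
    · obtain ⟨m, hm⟩ := exists_Dx h
      rw [Set.mem_setOf_eq, dist_eq hm]
      constructor
      · rintro rfl; exact Or.inl hm
      · rintro (h' | h')
        · exact Dx_unique hm h'
        · exact absurd h h'.1
    · have h' : ¬ ∃ n, x ∈ d.Dn n := h
      rw [Set.mem_setOf_eq, dist, dif_neg h']
      constructor
      · intro h2; exact Or.inr ⟨h, h2⟩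
      · rintro (h2 | h2)
        · exact absurd ⟨n, h2.1⟩ h'
        · exact h2.2
  rw [this]
  exact (meas_Dx hm n).union ((meas_C hm).compl.inter (MeasurableSet.const _))

lemma meas_fp (hm : Meas Γ d) (l : List (ℕ × Bool)) : MeasurableSet {x | d.fp x = l} := by
  have : {x | d.fp x = l} = ⋃ n, ({x | d.dist x = n} ∩ {x | d.pth n x = l}) := by
    ext x
    simp [fp]
  rw [this]
  exact MeasurableSet.iUnion fun n => (meas_dist hm n).inter (meas_pth hm n l)

lemma meas_NS (hm : Meas Γ d) (k : ℕ) : MeasurableSet (d.NS k) := by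
  rcases k with _ | i
  · exact hm.S0
  · have : d.NS (i + 1) = d.B i ∩ ((d.Tᶜ ∩ {x | d.par x = (i, true)})ᶜ ∩
        ((fun x => d.g i • x) ⁻¹' (d.Tᶜ ∩ {x | d.par x = (i, false)}))ᶜ) := by
      ext x
      simp [NS]
      tauto
    rw [this]
    exact (hm.B i).inter (((hm.T.compl.inter (meas_par hm _)).compl).inter
      (hm.act _ (hm.T.compl.inter (meas_par hm _))).compl)

lemma row_meas (hm : Meas Γ d) (hfree : ∀ (g : Γ) (x : X), g • x = x → g = 1) (g : Γ) (k i : ℕ)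
    (a : ℚ) : MeasurableSet {x | (x, k) ∈ d.N ∧ d.row (x, k) (g • x, i) = a} := by
  classical
  rcases k with _ | k
  · have : {x | (x, 0) ∈ d.N ∧ d.row (x, 0) (g • x, i) = a} = d.NS 0 ∩
        {x | cf [((1 : Γ), 0, 1)] g i = a} := by
      ext x
      have h1 : d.row (x, 0) = toF [((1 : Γ), 0, 1)] x := by simp [row, toF]
      simp only [Set.mem_setOf_eq, Set.mem_inter_iff, h1, toF_apply hfree]
      rfl
    rw [this]
    exact (meas_NS hm 0).inter (MeasurableSet.const _)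
  · have : {x | (x, k + 1) ∈ d.N ∧ d.row (x, k + 1) (g • x, i) = a} =
        ⋃ l : List (ℕ × Bool), ⋃ l' : List (ℕ × Bool), (d.NS (k + 1) ∩
          ({x | d.fp x = l} ∩ ((fun x => d.g k • x) ⁻¹' {x | d.fp x = l'} ∩
          {x | cf (ec d k ++ (sh (pc d l') (d.g k) ++ ng (pc d l))) g i = a}))) := by
      ext x
      have h1 : d.row (x, k + 1) = toF (ec d k ++ (sh (pc d (d.fp (d.g k • x))) (d.g k) ++
          ng (pc d (d.fp x)))) x := by
        rw [toF_append, toF_append, toF_sh, toF_ng]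
        simp only [row]
        abel
      simp only [Set.mem_setOf_eq, Set.mem_inter_iff, h1, toF_apply hfree, Set.mem_iUnion,
        Set.mem_preimage]
      constructor
      · rintro ⟨h2, h3⟩
        exact ⟨_, _, h2, rfl, rfl, h3⟩
      · rintro ⟨l, l', h2, h3, h4, h5⟩
        rw [h3, h4]
        exact ⟨h2, h5⟩
    rw [this]
    exact MeasurableSet.iUnion fun l => MeasurableSet.iUnion fun l' => (meas_NS hm _).inter
      ((meas_fp hm l).inter ((hm.act _ (meas_fp hm l')).inter (MeasurableSet.const _)))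

theorem isRows (hm : Meas Γ d) (hfree : ∀ (g : Γ) (x : X), g • x = x → g = 1) :
    IsRows Γ d.N d.row where
  measN k := meas_NS hm k
  orb := row_orb
  meass g k i a := row_meas hm hfree g k i a

/-! ### measure of the rows -/

variable [Countable Γ]

/-- the forest step sets -/
def Fp (d : SD Γ X) (i : ℕ) : Set X := {x | x ∈ d.B i ∧ x ∉ d.T ∧ d.par x = (i, true)}

/-- the forest step sets -/
def Fm (d : SD Γ X) (i : ℕ) : Set X :=
  {x | x ∈ d.B i ∧ d.g i • x ∉ d.T ∧ d.par (d.g i • x) = (i, false)}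

lemma meas_Fp (hm : Meas Γ d) (i : ℕ) : MeasurableSet (d.Fp i) :=
  (hm.B i).inter (hm.T.compl.inter (meas_par hm _))

lemma meas_Fm (hm : Meas Γ d) (i : ℕ) : MeasurableSet (d.Fm i) :=
  (hm.B i).inter (hm.act _ (hm.T.compl.inter (meas_par hm _)))

lemma measure_split (μ : Measure X) (hm : Meas Γ d) (hc : Conn G d) (i : ℕ) :
    μ (d.NS (i + 1)) + (μ (d.Fp i) + μ (d.Fm i)) ≤ μ (d.B i) := by
  have h1 : Disjoint (d.Fp i) (d.Fm i) := by
    rw [Set.disjoint_left]
    rintro x ⟨hx, hT, hp⟩ ⟨_, hT', hp'⟩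
    obtain ⟨n, hn⟩ := not_T_iff (mem_C_of_conn hc hx) hT
    obtain ⟨m, hm'⟩ := not_T_iff (mem_C_of_conn' hc hx) hT'
    obtain ⟨_, n1, h1, h2⟩ := par_spec hn
    obtain ⟨_, m1, h3, h4⟩ := par_spec hm'
    rw [hp] at h1
    rw [hp'] at h3
    have e1 : Se (gr d) (i, true) = d.g i := by simp [Se, gr]
    have e2 : Se (gr d) (i, false) = (d.g i)⁻¹ := by simp [Se, gr]
    rw [e1] at h1
    rw [e2, inv_smul_smul] at h3
    have := Dx_unique h1 h4
    have := Dx_unique h3 h2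
    omega
  have h2 : Disjoint (d.NS (i + 1)) (d.Fp i ∪ d.Fm i) := by
    rw [Set.disjoint_left]
    rintro x ⟨_, hx1, hx2⟩ (⟨_, h3, h4⟩ | ⟨_, h3, h4⟩)
    · exact hx1 ⟨h3, h4⟩
    · exact hx2 ⟨h3, h4⟩
  rw [← measure_union h1 (meas_Fm hm i), ← measure_union h2 ((meas_Fp hm i).union (meas_Fm hm i))]
  apply measure_mono
  rintro x (h | h | h)
  · exact h.1
  · exact h.1
  · exact h.1

lemma measure_C_le (μ : Measure X) (hm : Meas Γ d)
    (hmp : ∀ g : Γ, MeasurePreserving (fun x : X => g • x) μ μ) :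
    μ (d.C \ d.T) ≤ ∑' i, (μ (d.Fp i) + μ (d.Fm i)) := by
  have h1 : d.C \ d.T ⊆ (⋃ i, d.Fp i) ∪ ⋃ i, (fun x => (d.g i)⁻¹ • x) ⁻¹' d.Fm i := by
    rintro x ⟨hx, hT⟩
    obtain ⟨n, hn⟩ := not_T_iff hx hT
    obtain ⟨h1, _⟩ := par_spec hn
    rcases hp : d.par x with ⟨i, b⟩
    rw [hp] at h1
    cases b
    · right
      rw [Set.mem_iUnion]
      refine ⟨i, ?_⟩
      have h2 : (d.g i)⁻¹ • x ∈ d.B i := by simpa [Sd, gr] using h1
      refine ⟨h2, ?_, ?_⟩
      · simpa using hT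
      · simpa using hp
    · left
      rw [Set.mem_iUnion]
      exact ⟨i, by simpa [Sd, gr] using h1, hT, hp⟩
  calc μ (d.C \ d.T) ≤ μ ((⋃ i, d.Fp i) ∪ ⋃ i, (fun x => (d.g i)⁻¹ • x) ⁻¹' d.Fm i) :=
        measure_mono h1
    _ ≤ μ (⋃ i, d.Fp i) + μ (⋃ i, (fun x => (d.g i)⁻¹ • x) ⁻¹' d.Fm i) := measure_union_le _ _
    _ ≤ (∑' i, μ (d.Fp i)) + ∑' i, μ ((fun x => (d.g i)⁻¹ • x) ⁻¹' d.Fm i) :=
        add_le_add (measure_iUnion_le _) (measure_iUnion_le _)
    _ = (∑' i, μ (d.Fp i)) + ∑' i, μ (d.Fm i) := by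
        congr 1
        refine tsum_congr fun i => ?_
        exact (hmp _).measure_preimage (meas_Fm hm i).nullMeasurableSet
    _ = ∑' i, (μ (d.Fp i) + μ (d.Fm i)) := ENNReal.tsum_add.symm

lemma smeas_N_add (μ : Measure X) (hm : Meas Γ d) (hc : Conn G d)
    (hmp : ∀ g : Γ, MeasurePreserving (fun x : X => g • x) μ μ) :
    smeas μ d.N + μ (d.C \ d.T) ≤ μ d.S0 + ∑' i, μ (d.B i) := by
  have h1 : smeas μ d.N = μ d.S0 + ∑' i, μ (d.NS (i + 1)) := by
    have h0 : smeas μ d.N = ∑' k, μ (d.NS k) := rfl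
    rw [h0, tsum_eq_zero_add' ENNReal.summable]
    rfl
  rw [h1, add_assoc]
  gcongr
  calc (∑' i, μ (d.NS (i + 1))) + μ (d.C \ d.T)
      ≤ (∑' i, μ (d.NS (i + 1))) + ∑' i, (μ (d.Fp i) + μ (d.Fm i)) := by
        gcongr
        exact measure_C_le μ hm hmp
    _ = ∑' i, (μ (d.NS (i + 1)) + (μ (d.Fp i) + μ (d.Fm i))) := ENNReal.tsum_add.symm
    _ ≤ ∑' i, μ (d.B i) := ENNReal.tsum_le_tsum fun i => measure_split μ hm hc i

/-! ### the pre-complex -/

/-- the finite set of slots in use. -/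
def slots (d : SD Γ X) : Finset ℕ :=
  insert 0 ((Finset.range d.K).biUnion fun i => (Finset.range (d.l i).length).image (code i))

lemma ES_empty (ok : d.Ok G) {k : ℕ} (hk : k ∉ d.slots) : d.ES k = ∅ := by
  rcases k with _ | k
  · exact absurd (Finset.mem_insert_self _ _) hk
  · obtain ⟨i, p, rfl⟩ : ∃ i p, k = Nat.pair i p := ⟨_, _, (Nat.pair_unpair k).symm⟩
    rw [Set.eq_empty_iff_forall_notMem]
    intro x hx
    have hx' : (x, code i p) ∈ d.E := hx
    rw [mem_E_code] at hx'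
    apply hk
    rw [slots, Finset.mem_insert]
    right
    rw [Finset.mem_biUnion]
    refine ⟨i, ?_, ?_⟩
    · rw [Finset.mem_range]
      by_contra h
      have := ok.hB i (by omega)
      rw [this] at hx'
      exact hx'.2
    · rw [Finset.mem_image]
      exact ⟨p, Finset.mem_range.2 hx'.1, rfl⟩

theorem isPre (μ : Measure X) [IsProbabilityMeasure μ] (ok : d.Ok G) (hc : Conn G d)
    (hm : Meas Γ d) (hfree : ∀ (g : Γ) (x : X), g • x = x → g = 1) :
    IsPre G μ d.E (d.r G) where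
  measE k := measurableSet_ES hm k
  finE := by
    have h0 : smeas μ d.E = ∑' k, μ (d.ES k) := rfl
    rw [h0, tsum_eq_sum (s := d.slots) (fun k hk => by rw [ES_empty ok hk]; simp)]
    exact ENNReal.sum_ne_top.2 fun k _ => measure_ne_top μ _
  multE x := by
    refine Set.Finite.subset d.slots.finite_toSet fun k hk => ?_
    by_contra h
    have := ES_empty ok (k := k) h
    have hk' : x ∈ d.ES k := hk
    rw [this] at hk'
    exact hk'
  refl p hp := ⟨hp, hp, VR.refl G _⟩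
  symm := r_symm G d
  trans := r_trans G d
  supp p q h := h.1
  rloc p q h := rloc ok p q h
  base x a ha := ⟨act_none _, act_none _, rfl, by
    rw [vx_none, if_pos rfl]
    exact ⟨a, ha, rfl⟩⟩
  measr g k k' := measr hm hfree g k k'
  conn_base x := conn_base ok hc x
  conn q hq := conn ok hc q hq

end SD

/-! ### the final theorem -/

section Final

open SD S0291P

variable {Γ X : Type} [Group Γ] [Countable Γ] [MulAction Γ X] [MeasurableSpace X]
  {D : ℕ} [NeZero D]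

/-- points joined to `T` by a path of the first `K` pieces. -/
def CK (Φ : ℕ → Γ × Set X) (T : Set X) (K : ℕ) : Set X :=
  {x | ∃ l : List (ℕ × Bool), (∀ s ∈ l, s.1 < K) ∧ x ∈ Pd Φ l ∧ Pe Φ l • x ∈ T}

/-- `z`-edges not served by the first `K` pieces. -/
def SK (G : PolyData Γ D) (Φ : ℕ → Γ × Set X) (T : Set X) (K : ℕ) : Set X :=
  {x | ¬ ∃ a ∈ G.A, ∃ a' ∈ G.A, ∃ l : List (ℕ × Bool), (∀ s ∈ l, s.1 < K) ∧ a • x ∈ T ∧
    a' • G.z • x ∈ T ∧ a • x ∈ Pd Φ l ∧ Pe Φ l • a • x = a' • G.z • x}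

open Classical in
/-- the start data. -/
noncomputable def mkSD (G : PolyData Γ D) (l : Γ → List (Γ × Bool)) (Φ : ℕ → Γ × Set X)
    (T : Set X) (K : ℕ) : SD Γ X where
  K := K
  g i := (Φ i).1
  B i := if i < K then (Φ i).2 ∩ CK Φ T K else ∅
  l i := l (Φ i).1
  T := T
  S0 := SK G Φ T K

lemma path_mk (G : PolyData Γ D) (w : Γ → List (Γ × Bool)) (Φ : ℕ → Γ × Set X) (T : Set X)
    (K : ℕ) : ∀ (l : List (ℕ × Bool)) {x : X}, (∀ s ∈ l, s.1 < K) → x ∈ Pd Φ l →
    Pe Φ l • x ∈ T → x ∈ Pd (gr (mkSD G w Φ T K)) l ∧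
      Pe (gr (mkSD G w Φ T K)) l = Pe Φ l
  | [], x, _, _, _ => by simp
  | (i, b) :: l, x, hK, hx, hT => by
    have hi : i < K := hK (i, b) (by simp)
    have hK' : ∀ s ∈ l, s.1 < K := fun s hs => hK s (by simp [hs])
    have hxC : x ∈ CK Φ T K := ⟨(i, b) :: l, hK, hx, hT⟩
    rw [mem_Pd_cons] at hx
    rw [Pe_cons, mul_smul] at hT
    obtain ⟨h1, h2⟩ := path_mk G w Φ T K l hK' hx.2 hT
    have hxC' : Se Φ (i, b) • x ∈ CK Φ T K := ⟨l, hK', hx.2, hT⟩
    have e1 : Se (gr (mkSD G w Φ T K)) (i, b) = Se Φ (i, b) := by simp [Se, gr, mkSD]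
    rw [mem_Pd_cons, Pe_cons, Pe_cons, e1, h2]
    refine ⟨⟨?_, h1⟩, rfl⟩
    cases b
    · have h3 : (Φ i).1⁻¹ • x ∈ (Φ i).2 := by simpa [Sd] using hx.1
      have h4 : (Φ i).1⁻¹ • x ∈ CK Φ T K := by simpa [Se] using hxC'
      simp only [Sd, gr, mkSD, Bool.false_eq_true, if_false, if_pos hi]
      exact ⟨h3, h4⟩
    · have h3 : x ∈ (Φ i).2 := by simpa [Sd] using hx.1
      simp only [Sd, gr, mkSD, if_true, if_pos hi]
      exact ⟨h3, hxC⟩

lemma mk_conn (G : PolyData Γ D) (w : Γ → List (Γ × Bool)) (Φ : ℕ → Γ × Set X) (T : Set X)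
    (K : ℕ) : Conn G (mkSD G w Φ T K) where
  toT i x hx := by
    by_cases hi : i < K
    · simp only [mkSD, if_pos hi] at hx
      obtain ⟨l, h1, h2, h3⟩ := hx.2
      obtain ⟨h4, h5⟩ := path_mk G w Φ T K l h1 h2 h3
      exact ⟨l, h4, by rw [h5]; exact h3⟩
    · simp only [mkSD, if_neg hi] at hx
      exact absurd hx (Set.notMem_empty _)
  zz x hx := by
    simp only [mkSD, SK, Set.mem_setOf_eq, not_not] at hx
    obtain ⟨a, ha, a', ha', l, h1, h2, h3, h4, h5⟩ := hx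
    obtain ⟨h6, h7⟩ := path_mk G w Φ T K l h1 h4 (by rw [h5]; exact h3)
    exact ⟨a, ha, a', ha', l, h2, h3, h6, by rw [h7]; exact h5⟩

lemma meas_CK (hact : ∀ g : Γ, Measurable (fun x : X => g • x)) {Φ : ℕ → Γ × Set X}
    (hΦ : ∀ i, MeasurableSet (Φ i).2) {T : Set X} (hT : MeasurableSet T) (K : ℕ) :
    MeasurableSet (CK Φ T K) := by
  have : CK Φ T K = ⋃ l : List (ℕ × Bool), ({x | ∀ s ∈ l, s.1 < K} ∩ (Pd Φ l ∩
      (fun x => Pe Φ l • x) ⁻¹' T)) := by
    ext x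
    simp only [CK, Set.mem_setOf_eq, Set.mem_iUnion, Set.mem_inter_iff, Set.mem_preimage]
  rw [this]
  exact MeasurableSet.iUnion fun l => (MeasurableSet.const _).inter
    ((measurableSet_Pd hact hΦ l).inter (hact _ hT))

lemma meas_SK (G : PolyData Γ D) (hact : ∀ g : Γ, Measurable (fun x : X => g • x))
    (hfree : ∀ (g : Γ) (x : X), g • x = x → g = 1) {Φ : ℕ → Γ × Set X}
    (hΦ : ∀ i, MeasurableSet (Φ i).2) {T : Set X} (hT : MeasurableSet T) (K : ℕ) :
    MeasurableSet (SK G Φ T K) := by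
  have hfree' : ∀ (a b : Γ) (x : X), a • x = b • x ↔ a = b := by
    intro a b x
    constructor
    · intro h
      have : (b⁻¹ * a) • x = x := by rw [mul_smul, h, inv_smul_smul]
      have := hfree _ _ this
      exact (inv_mul_eq_one.1 this).symm
    · rintro rfl; rfl
  have : SK G Φ T K = (⋃ a : Γ, ⋃ a' : Γ, ⋃ l : List (ℕ × Bool),
      ({x | a ∈ G.A ∧ a' ∈ G.A ∧ (∀ s ∈ l, s.1 < K) ∧ Pe Φ l * a = a' * G.z} ∩
        ((fun x => a • x) ⁻¹' T ∩ ((fun x => (a' * G.z) • x) ⁻¹' T ∩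
          (fun x => a • x) ⁻¹' Pd Φ l))))ᶜ := by
    ext x
    simp only [SK, Set.mem_setOf_eq, Set.mem_compl_iff, Set.mem_iUnion, Set.mem_inter_iff,
      Set.mem_preimage]
    refine not_congr ?_
    constructor
    · rintro ⟨a, ha, a', ha', l, h1, h2, h3, h4, h5⟩
      refine ⟨a, a', l, ⟨ha, ha', h1, ?_⟩, h2, by rwa [mul_smul], h4⟩
      rw [← mul_smul, ← mul_smul, hfree'] at h5
      exact h5
    · rintro ⟨a, a', l, ⟨ha, ha', h1, h5⟩, h2, h3, h4⟩
      refine ⟨a, ha, a', ha', l, h1, h2, by rwa [← mul_smul], h4, ?_⟩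
      rw [← mul_smul, ← mul_smul, h5]
  rw [this]
  refine (MeasurableSet.iUnion fun a => MeasurableSet.iUnion fun a' =>
    MeasurableSet.iUnion fun l => (MeasurableSet.const _).inter ((hact _ hT).inter
      ((hact _ hT).inter (hact _ (measurableSet_Pd hact hΦ l))))).compl

lemma CK_mono (Φ : ℕ → Γ × Set X) (T : Set X) {K L : ℕ} (h : K ≤ L) : CK Φ T K ⊆ CK Φ T L := by
  rintro x ⟨l, h1, h2⟩
  exact ⟨l, fun s hs => (h1 s hs).trans_le h, h2⟩

lemma SK_anti (G : PolyData Γ D) (Φ : ℕ → Γ × Set X) (T : Set X) {K L : ℕ} (h : K ≤ L) :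
    SK G Φ T L ⊆ SK G Φ T K := by
  rintro x hx ⟨a, ha, a', ha', l, h1, h2⟩
  exact hx ⟨a, ha, a', ha', l, fun s hs => (h1 s hs).trans_le h, h2⟩

lemma exists_bound (l : List (ℕ × Bool)) : ∃ K, ∀ s ∈ l, s.1 < K := by
  induction l with
  | nil => exact ⟨0, by simp⟩
  | cons t l ih =>
    obtain ⟨K, hK⟩ := ih
    refine ⟨max K (t.1 + 1), fun s hs => ?_⟩
    rw [List.mem_cons] at hs
    rcases hs with rfl | hs
    · exact (Nat.lt_succ_self _).trans_le (le_max_right _ _)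
    · exact (hK s hs).trans_le (le_max_left _ _)

theorem exists_start_aux (G : PolyData Γ D) (hG : G.Good) (μ : Measure X)
    [IsProbabilityMeasure μ]
    {f : X → ℝ} (ha : IsGoodAction G X μ f) (Φ : ℕ → Γ × Set X)
    (hΦ : Crest.Dynamics.Generates μ Φ) {m : ℝ≥0∞}
    (hc : Crest.Dynamics.graphingCost μ Φ < 1 + m) :
    ∃ (E : Set (X × ℕ)) (r : Pt X → Pt X → Prop) (N : Set (X × ℕ)) (s : X × ℕ → (X × ℕ →₀ ℚ)),
      IsPre G μ E r ∧ IsRows Γ N s ∧ (∀ n ∈ N, ∀ e ∈ (s n).support, e ∈ E) ∧ smeas μ N < m ∧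
      Gen G E r ∅ N s := by
  classical
  have hact : ∀ g : Γ, Measurable (fun x : X => g • x) := fun g => (ha.mp g).measurable
  obtain ⟨hΦm, Nn, hNn, hgen⟩ := hΦ
  -- words
  choose w hw0 hw1 using exists_path_ne G hG.gen
  -- choice of epsilon
  set c := Crest.Dynamics.graphingCost μ Φ with hcdef
  have hcfin : c ≠ ∞ := ne_top_of_lt hc
  obtain ⟨ε, hε0, hε⟩ : ∃ ε : ℝ≥0∞, 0 < ε ∧ ε + ε + ε + c < 1 + m := by
    obtain ⟨c', hc1, hc2⟩ := exists_between hc
    have hpos : 0 < c' - c := tsub_pos_of_lt hc1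
    refine ⟨(c' - c) / 3, ENNReal.div_pos hpos.ne' (by norm_num), ?_⟩
    have h3 : (c' - c) / 3 + (c' - c) / 3 + (c' - c) / 3 = c' - c := ENNReal.add_thirds _
    rw [h3, tsub_add_cancel_of_le hc1.le]
    exact hc2
  -- the set T
  obtain ⟨t, ht0, ht1, htε⟩ : ∃ t : ℝ, 0 < t ∧ t ≤ 1 ∧ ENNReal.ofReal t ≤ ε := by
    by_cases h : ε = ∞
    · exact ⟨1, one_pos, le_rfl, by rw [h]; exact le_top⟩
    · refine ⟨min 1 ε.toReal, lt_min one_pos (ENNReal.toReal_pos hε0.ne' h), min_le_left _ _, ?_⟩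
      rw [ENNReal.ofReal_le_iff_le_toReal h]
      exact min_le_right _ _
  set T : Set X := {x | f x < t} with hTdef
  have hTm : MeasurableSet T := ha.measf measurableSet_Iio
  have hTμ : μ T ≤ ε := by
    rw [hTdef, ha.f_unif t ⟨ht0.le, ht1⟩]
    exact htε
  have hTA : ∀ x : X, ∃ a ∈ G.A, a • x ∈ T := fun x => ha.f_small t ht0 x
  -- bad null set
  set Z : Set X := ⋃ g : Γ, (fun x : X => g • x) ⁻¹' Nn with hZ
  have hZ0 : μ Z = 0 := by
    rw [hZ, measure_iUnion_null_iff]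
    intro g
    exact (ha.mp g).quasiMeasurePreserving.preimage_null hNn
  have hpath : ∀ x ∉ Z, ∀ g h : Γ, ∃ l, g • x ∈ Pd Φ l ∧ Pe Φ l • g • x = h • x := by
    intro x hx g h
    have h1 : g • x ∉ Nn := by
      intro h2
      exact hx (Set.mem_iUnion.2 ⟨g, h2⟩)
    have h2 := hgen (g • x) h1 (h * g⁻¹)
    rw [eqvGen_iff] at h2
    obtain ⟨l, h3, h4⟩ := h2
    exact ⟨l, h3, by rw [h4, mul_smul, inv_smul_smul]⟩
  -- limits
  have hlim : ∀ (s : ℕ → Set X), (∀ k, MeasurableSet (s k)) → Antitone s →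
      (⋂ k, s k) ⊆ Z → ∃ K, ∀ k ≥ K, μ (s k) ≤ ε := by
    intro s hs1 hs2 hs3
    have h1 := tendsto_measure_iInter_atTop (μ := μ) (s := s)
      (fun k => (hs1 k).nullMeasurableSet) hs2 ⟨0, measure_ne_top μ _⟩
    have h2 : μ (⋂ k, s k) = 0 := measure_mono_null hs3 hZ0
    rw [h2] at h1
    have h3 := (ENNReal.tendsto_atTop_zero.1 h1) ε hε0
    exact h3
  obtain ⟨K1, hK1⟩ := hlim (fun k => (CK Φ T k)ᶜ) (fun k => (meas_CK hact hΦm hTm k).compl)
    (fun i j hij => Set.compl_subset_compl.2 (CK_mono Φ T hij)) (by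
      intro x hx
      by_contra hxZ
      obtain ⟨a, ha1, ha2⟩ := hTA x
      obtain ⟨l, h1, h2⟩ := hpath x hxZ 1 a
      rw [one_smul] at h1 h2
      obtain ⟨K, hK⟩ := exists_bound l
      rw [Set.mem_iInter] at hx
      exact hx K ⟨l, hK, h1, by rw [h2]; exact ha2⟩)
  obtain ⟨K2, hK2⟩ := hlim (fun k => SK G Φ T k)
    (fun k => meas_SK G hact ha.free hΦm hTm k)
    (fun i j hij => SK_anti G Φ T hij) (by
      intro x hx
      by_contra hxZ
      obtain ⟨a, ha1, ha2⟩ := hTA x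
      obtain ⟨a', ha1', ha2'⟩ := hTA (G.z • x)
      obtain ⟨l, h1, h2⟩ := hpath x hxZ a (a' * G.z)
      obtain ⟨K, hK⟩ := exists_bound l
      rw [Set.mem_iInter] at hx
      exact hx K ⟨a, ha1, a', ha1', l, hK, ha2, ha2', h1, by rw [h2, mul_smul]⟩)
  set K := max K1 K2 with hKdef
  set d := mkSD G w Φ T K with hd
  have ok : d.Ok G :=
    { lne := fun i => hw0 _
      lpath := fun i => hw1 _
      hB := fun i hi => by
        have hi' : ¬ i < K := not_lt.2 hi
        simp only [hd, mkSD, if_neg hi'] }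
  have hcn : Conn G d := mk_conn G w Φ T K
  have hCKm := meas_CK hact hΦm hTm K
  have hm : Meas Γ d :=
    { act := hact
      B := fun i => by
        simp only [hd, mkSD]
        split_ifs
        · exact (hΦm i).inter hCKm
        · exact MeasurableSet.empty
      T := hTm
      S0 := meas_SK G hact ha.free hΦm hTm K }
  refine ⟨d.E, d.r G, d.N, d.row, SD.isPre μ ok hcn hm ha.free, isRows hm ha.free,
    row_E hcn, ?_, gen_start ok hcn⟩
  have h1 := smeas_N_add μ hm hcn ha.mp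
  have h2 : μ d.S0 ≤ ε := hK2 K (le_max_right _ _)
  have h3 : μ (CK Φ T K)ᶜ ≤ ε := hK1 K (le_max_left _ _)
  have h4 : ∑' i, μ (d.B i) ≤ c := by
    refine ENNReal.tsum_le_tsum fun i => measure_mono ?_
    simp only [hd, mkSD]
    split_ifs
    · exact Set.inter_subset_left
    · exact Set.empty_subset _
  have h5 : CK Φ T K ⊆ d.C := by
    rintro x ⟨l, h6, h7, h8⟩
    obtain ⟨h9, h10⟩ := path_mk G w Φ T K l h6 h7 h8
    exact ⟨_, l, rfl, h9, by rw [h10]; exact h8⟩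
  have h6 : (1 : ℝ≥0∞) ≤ μ (d.C \ d.T) + (ε + ε) := by
    have h7 : (Set.univ : Set X) ⊆ (d.C \ d.T) ∪ ((CK Φ T K)ᶜ ∪ T) := by
      intro x _
      by_cases hx : x ∈ CK Φ T K
      · by_cases hx' : x ∈ T
        · exact Or.inr (Or.inr hx')
        · exact Or.inl ⟨h5 hx, hx'⟩
      · exact Or.inr (Or.inl hx)
    calc (1 : ℝ≥0∞) = μ Set.univ := measure_univ.symm
      _ ≤ μ ((d.C \ d.T) ∪ ((CK Φ T K)ᶜ ∪ T)) := measure_mono h7
      _ ≤ μ (d.C \ d.T) + μ ((CK Φ T K)ᶜ ∪ T) := measure_union_le _ _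
      _ ≤ μ (d.C \ d.T) + (μ (CK Φ T K)ᶜ + μ T) := by gcongr; exact measure_union_le _ _
      _ ≤ _ := by gcongr
  have h7 : 1 + smeas μ d.N < 1 + m := by
    calc 1 + smeas μ d.N ≤ (μ (d.C \ d.T) + (ε + ε)) + smeas μ d.N := by gcongr
      _ = (smeas μ d.N + μ (d.C \ d.T)) + (ε + ε) := by ring
      _ ≤ (μ d.S0 + ∑' i, μ (d.B i)) + (ε + ε) := by gcongr
      _ ≤ (ε + c) + (ε + ε) := by gcongr
      _ = ε + ε + ε + c := by ring
      _ < 1 + m := hε
  exact (ENNReal.add_lt_add_iff_left ENNReal.one_ne_top).1 h7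

end Final

end Crest.Agent.FP
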