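import Mathlib
import Crest.Agent.FP_Ops
import Crest.Agent.FP_Start3

/-!
# Task FP-S1 (helper76): from a cheap graphing to a pre-complex with cheap generation
-/

set_option autoImplicit false

open MeasureTheory
open scoped ENNReal

namespace Crest.Agent.FP

variable {Γ X : Type} [Group Γ] [Countable Γ] [MulAction Γ X] [MeasurableSpace X]
  {D : ℕ} [NeZero D]

theorem exists_start (G : PolyData Γ D) (hG : G.Good) (μ : Measure X) [IsProbabilityMeasure μ]
    {f : X → ℝ} (ha : IsGoodAction G X μ f) (Φ : ℕ → Γ × Set X)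
    (hΦ : Crest.Dynamics.Generates μ Φ) {m : ℝ≥0∞}
    (hc : Crest.Dynamics.graphingCost μ Φ < 1 + m) :
    ∃ (E : Set (X × ℕ)) (r : Pt X → Pt X → Prop) (N : Set (X × ℕ)) (s : X × ℕ → (X × ℕ →₀ ℚ)),
      IsPre G μ E r ∧ IsRows Γ N s ∧ (∀ n ∈ N, ∀ e ∈ (s n).support, e ∈ E) ∧ smeas μ N < m ∧
      Gen G E r ∅ N s :=
  exists_start_aux G hG μ ha Φ hΦ hc

end Crest.Agent.FP
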