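import Mathlib
import Crest.Agent.FP_Descent
import Crest.Agent.FP_StartStmt
import Crest.Agent.FP_StartCx

/-!
# The lower bound
-/

set_option autoImplicit false

open MeasureTheory
open scoped ENNReal

namespace Crest.Agent.FP

variable {Γ X : Type} [Group Γ] [Countable Γ] [MulAction Γ X] [MeasurableSpace X]
  {D : ℕ} [NeZero D] {G : PolyData Γ D} {μ : Measure X} [IsProbabilityMeasure μ] {f : X → ℝ}

theorem lower_bound (hG : G.Good) (hX : IsGoodAction G X μ f) (hD : D = 10000) :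
    1 + ENNReal.ofReal (1 / 1000000) ≤ Crest.Dynamics.actionCost Γ X μ := by
  refine le_sInf ?_
  rintro c ⟨Φ, hΦ, rfl⟩
  by_contra hlt
  rw [not_le] at hlt
  obtain ⟨E, r, N, s, hK, hs, hsupp, hN, hgen⟩ := exists_start G hG μ hX Φ hΦ hlt
  obtain ⟨E', r', s', hK', hg', hV'⟩ := start_cx hG hX hK hs hsupp hgen
  exact no_small hG hX hD hK' hg' hV' (by simp [smeas]) hN.le

/-- The numerical condition of the statement forces `α / 100 ≤ 10⁻⁶`. -/
theorem alpha_small (α : ℝ) (h0 : 0 < α)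
    (h : Real.exp 96 * 96 ^ 99 * α ^ 3 / 95 ^ 95 < 1 / 2) : α / 100 ≤ 1 / 1000000 := by
  by_contra hc
  have hα : (1 : ℝ) / 10000 < α := by
    rw [not_le] at hc
    have := hc
    rw [div_lt_div_iff₀ (by norm_num) (by norm_num)] at this
    rw [div_lt_iff₀ (by norm_num)]
    linarith
  have h1 : (1 / 10000 : ℝ) ^ 3 < α ^ 3 := by gcongr
  have h2 : (2 : ℝ) ^ 96 ≤ Real.exp 96 := by
    have := Real.add_one_le_exp (1 : ℝ)
    calc (2 : ℝ) ^ 96 ≤ (Real.exp 1) ^ 96 := by gcongr; linarith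
      _ = Real.exp 96 := by rw [← Real.exp_nat_mul]; norm_num
  have h3 : (2 : ℝ) ^ 96 * 96 ^ 99 * (1 / 10000) ^ 3 / 95 ^ 95 ≤
      Real.exp 96 * 96 ^ 99 * α ^ 3 / 95 ^ 95 := by gcongr
  have h4 : (1 : ℝ) / 2 < 2 ^ 96 * 96 ^ 99 * (1 / 10000) ^ 3 / 95 ^ 95 := by norm_num
  linarith

end Crest.Agent.FP
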