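import Mathlib
import Crest.Agent.FP_GrpDefs

set_option autoImplicit false
set_option linter.unusedSectionVars false
set_option linter.unusedSimpArgs false

namespace Crest.Agent.FP.G2

variable {D : ℕ} [NeZero D]

/-! ### toggling lists -/

/-- `a_i • L` -/
def tg (i : ZMod D) : List (ZMod D) → List (ZMod D)
  | [] => [i]
  | k :: L => if k = i then L else i :: k :: L

lemma tg_chain (i : ZMod D) (L : List (ZMod D)) (h : L.IsChain (· ≠ ·)) :
    (tg i L).IsChain (· ≠ ·) := by
  cases L with
  | nil => simp [tg]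
  | cons k L =>
    by_cases hk : k = i
    · simp only [tg, hk, if_true]
      exact h.tail
    · simp only [tg, hk, if_false]
      exact List.IsChain.cons_cons (Ne.symm hk) h

lemma tg_tg (i : ZMod D) (L : List (ZMod D)) (h : L.IsChain (· ≠ ·)) : tg i (tg i L) = L := by
  cases L with
  | nil => simp [tg]
  | cons k L =>
    by_cases hk : k = i
    · subst hk
      cases L with
      | nil => simp [tg]
      | cons m L =>
        have : m ≠ k := by
          have := List.isChain_cons_cons.1 h
          exact fun h => this.1 h.symm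
        simp [tg, this]
    · simp [tg, hk]

lemma tg_parity (i : ZMod D) (L : List (ZMod D)) : Even (tg i L).length ↔ ¬ Even L.length := by
  cases L with
  | nil => simp [tg]
  | cons k L =>
    by_cases hk : k = i
    · simp [tg, hk, Nat.even_add_one]
    · simp [tg, hk, Nat.even_add_one]

variable (D) in
/-- reduced lists -/
def RL : Type := {L : List (ZMod D) // L.IsChain (· ≠ ·)}

/-- the involution `a_i` -/
def Tp (i : ZMod D) : Equiv.Perm (RL D) where
  toFun L := ⟨tg i L.1, tg_chain i L.1 L.2⟩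
  invFun L := ⟨tg i L.1, tg_chain i L.1 L.2⟩
  left_inv L := Subtype.ext (tg_tg i L.1 L.2)
  right_inv L := Subtype.ext (tg_tg i L.1 L.2)

lemma Tp_mul_self (i : ZMod D) : Tp i * Tp i = 1 := by
  ext L
  exact Subtype.ext (tg_tg i L.1 L.2)

lemma Tp_inv (i : ZMod D) : (Tp i)⁻¹ = Tp i := by
  rw [inv_eq_iff_mul_eq_one]; exact Tp_mul_self i

variable (D) in
/-- the action of `B` -/
def rhoB : BGrp D →* Equiv.Perm (RL D) :=
  FreeGroup.lift (fun k : Fin (D - 1) => Tp (((k : ℕ) + 1 : ℕ) : ZMod D) * Tp 0)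

lemma rhoB_u (j : ZMod D) : rhoB D (uB D j) = Tp j * Tp 0 := by
  unfold uB
  split_ifs with h
  · have : j = 0 := (ZMod.val_eq_zero j).1 h
    rw [map_one, this, Tp_mul_self]
  · have hj : ((ZMod.val j - 1 + 1 : ℕ) : ZMod D) = j := by
      rw [Nat.sub_add_cancel (Nat.one_le_iff_ne_zero.2 h), ZMod.natCast_zmod_val]
    simp only [rhoB, FreeGroup.lift_apply_of]
    rw [hj]

/-- letters -/
def yy (j : ZMod D) : BGrp D := uB D (j + 1) * (uB D j)⁻¹

lemma rhoB_yy (j : ZMod D) : rhoB D (yy j) = Tp (j + 1) * Tp j := by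
  rw [yy, map_mul, map_inv, rhoB_u, rhoB_u, mul_inv_rev, Tp_inv, Tp_inv]
  calc Tp (j + 1) * Tp 0 * (Tp 0 * Tp j) = Tp (j+1) * (Tp 0 * Tp 0) * Tp j := by group
    _ = _ := by rw [Tp_mul_self, mul_one]

/-- the word of `b` -/
def Lw (b : BGrp D) : List (ZMod D) := (rhoB D b ⟨[], by simp⟩ : RL D).1

lemma Lw_chain (b : BGrp D) : (Lw b).IsChain (· ≠ ·) := (rhoB D b ⟨[], by simp⟩ : RL D).2

lemma Lw_one : Lw (1 : BGrp D) = [] := by
  unfold Lw
  rw [map_one]
  rfl

/-- psi -/
def psi : List (ZMod D) → BGrp D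
  | [] => 1
  | l :: L => if Even L.length then (uB D l)⁻¹ * psi L else uB D l * psi L

lemma uB_zero : uB D (0 : ZMod D) = 1 := by simp [uB]

lemma psi_tg (i : ZMod D) (L : List (ZMod D)) :
    psi (tg i L) = if Even L.length then (uB D i)⁻¹ * psi L else uB D i * psi L := by
  cases L with
  | nil => simp [tg, psi]
  | cons k L =>
    by_cases hk : k = i
    · subst hk
      by_cases hE : Even L.length
      · have : ¬ Even (k :: L).length := by simp [Nat.even_add_one, hE]
        rw [if_neg this]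
        simp only [tg, if_true, psi, hE]
        group
      · have : Even (k :: L).length := by simp [Nat.even_add_one, hE]
        rw [if_pos this]
        simp only [tg, if_true, psi, hE, if_false]
        group
    · simp only [tg, hk, if_false, psi, List.length_cons]

lemma psi_rho (b : BGrp D) : ∀ L : RL D, Even L.1.length →
    (Even (rhoB D b L).1.length ∧ psi (rhoB D b L).1 = b * psi L.1) := by
  have hgen : ∀ j : ZMod D, ∀ L : RL D, Even L.1.length →
    (Even (rhoB D (uB D j) L).1.length ∧ psi (rhoB D (uB D j) L).1 = uB D j * psi L.1) := by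
    intro j L hL
    rw [rhoB_u]
    have e : ((Tp j * Tp 0 : Equiv.Perm (RL D)) L).1 = tg j (tg 0 L.1) := rfl
    rw [e, tg_parity, tg_parity, psi_tg, psi_tg, if_pos hL]
    have h1 : ¬ Even (tg (0 : ZMod D) L.1).length := by rw [tg_parity]; simpa using hL
    rw [if_neg h1, uB_zero]
    simp [hL]
  have hgeninv : ∀ j : ZMod D, ∀ L : RL D, Even L.1.length →
    (Even (rhoB D (uB D j)⁻¹ L).1.length ∧ psi (rhoB D (uB D j)⁻¹ L).1 = (uB D j)⁻¹ * psi L.1) := by
    intro j L hL
    rw [map_inv, rhoB_u, mul_inv_rev, Tp_inv, Tp_inv]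
    have e : ((Tp 0 * Tp j : Equiv.Perm (RL D)) L).1 = tg 0 (tg j L.1) := rfl
    rw [e, tg_parity, tg_parity, psi_tg, psi_tg, if_pos hL]
    have h1 : ¬ Even (tg j L.1).length := by rw [tg_parity]; simpa using hL
    rw [if_neg h1, uB_zero]
    simp [hL]
  have hof : ∀ k : Fin (D - 1), ∃ j : ZMod D, FreeGroup.of k = uB D j := by
    intro k
    refine ⟨(((k : ℕ) + 1 : ℕ) : ZMod D), ?_⟩
    have hk : (k : ℕ) + 1 < D := by have := k.2; omega
    have hv : ZMod.val (((k : ℕ) + 1 : ℕ) : ZMod D) = (k : ℕ) + 1 := ZMod.val_natCast_of_lt hk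
    unfold uB
    rw [dif_neg (by rw [hv]; omega)]
    congr 1
    apply Fin.ext
    simp only [hv]
    omega
  induction b using FreeGroup.induction_on with
  | C1 => intro L hL; simp [hL]
  | of k => obtain ⟨j, hj⟩ := hof k; rw [hj]; exact hgen j
  | inv_of k _ => obtain ⟨j, hj⟩ := hof k; rw [hj]; exact hgeninv j
  | mul a b iha ihb =>
    intro L hL
    rw [map_mul]
    have h1 := ihb L hL
    have h2 := iha (rhoB D b L) h1.1
    refine ⟨h2.1, ?_⟩
    show psi (rhoB D a (rhoB D b L)).1 = a * b * psi L.1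
    rw [h2.2, h1.2, mul_assoc]

lemma psi_Lw (b : BGrp D) : psi (Lw b) = b := by
  have := (psi_rho b ⟨[], by simp⟩ (by simp)).2
  simpa [psi, Lw] using this

lemma Lw_eq_nil {b : BGrp D} (h : Lw b = []) : b = 1 := by
  rw [← psi_Lw b, h]; rfl

lemma Lw_even (b : BGrp D) : Even (Lw b).length := (psi_rho b ⟨[], by simp⟩ (by simp)).1

/-! ### letters and alternating products -/

/-- `y_j^σ` -/
def letter (j : ZMod D) (σ : Bool) : BGrp D := if σ then yy j else (yy j)⁻¹

def fA (σ : Bool) (j : ZMod D) : ZMod D := if σ then j else j + 1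
def sA (σ : Bool) (j : ZMod D) : ZMod D := if σ then j + 1 else j

lemma Lw_letter (j : ZMod D) (σ : Bool) (b : BGrp D) :
    Lw (letter j σ * b) = tg (sA σ j) (tg (fA σ j) (Lw b)) := by
  cases σ
  · have e : rhoB D (letter j false * b) = Tp j * Tp (j + 1) * rhoB D b := by
      rw [map_mul]
      congr 1
      show rhoB D (yy j)⁻¹ = _
      rw [map_inv, rhoB_yy, mul_inv_rev, Tp_inv, Tp_inv]
    unfold Lw
    rw [e]
    rfl
  · have e : rhoB D (letter j true * b) = Tp (j + 1) * Tp j * rhoB D b := by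
      rw [map_mul]
      congr 1
      show rhoB D (yy j) = _
      rw [rhoB_yy]
    unfold Lw
    rw [e]
    rfl

/-- alternating product -/
def P : Bool → List (ZMod D) → BGrp D
  | _, [] => 1
  | σ, j :: K => P (!σ) K * letter j σ

def app : Bool → List (ZMod D) → List (ZMod D) → List (ZMod D)
  | _, [], x => x
  | σ, j :: J, x => app (!σ) J (tg (sA σ j) (tg (fA σ j) x))

lemma Lw_P (σ : Bool) (J : List (ZMod D)) (b : BGrp D) : Lw (P σ J * b) = app σ J (Lw b) := by
  induction J generalizing σ b with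
  | nil => simp [P, app]
  | cons j J ih =>
    rw [P, app, mul_assoc, ih, Lw_letter]

lemma letter_mul_not (j : ZMod D) (σ : Bool) : letter j (!σ) * letter j σ = 1 := by
  cases σ <;> simp [letter]

lemma P_red (K : List (ZMod D)) (σ : Bool) : ∃ J : List (ZMod D), J.IsChain (· ≠ ·) ∧
    P σ J = P σ K ∧ (Even J.length ↔ Even K.length) := by
  induction K generalizing σ with
  | nil => exact ⟨[], by simp, rfl, Iff.rfl⟩
  | cons j K ih =>
    obtain ⟨J, hJ, hP, hE⟩ := ih (!σ)
    cases J with
    | nil =>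
      refine ⟨[j], by simp, ?_, ?_⟩
      · simp only [P] at hP ⊢
        rw [← hP]
      · simp only [List.length_cons, List.length_nil, Nat.even_add_one]
        simp only [List.length_nil] at hE
        simp [← hE]
    | cons k J =>
      by_cases hk : k = j
      · subst hk
        refine ⟨J, hJ.tail, ?_, ?_⟩
        · simp only [P, Bool.not_not] at hP ⊢
          rw [← hP, mul_assoc, letter_mul_not, mul_one]
        · simp only [List.length_cons, Nat.even_add_one] at hE ⊢
          tauto
      · refine ⟨j :: k :: J, List.IsChain.cons_cons (Ne.symm hk) hJ, ?_, ?_⟩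
        · simp only [P] at hP ⊢
          rw [← hP]
        · simp only [List.length_cons, Nat.even_add_one] at hE ⊢
          tauto

lemma fA_ne_sA (hD : 4 ≤ D) (σ : Bool) (j : ZMod D) : fA σ j ≠ sA σ j := by
  have h1 : (1 : ZMod D) ≠ 0 := by
    intro h
    have : (1 : ZMod D) = ((1 : ℕ) : ZMod D) := by simp
    rw [this, ZMod.natCast_eq_zero_iff] at h
    have := Nat.le_of_dvd one_pos h
    omega
  cases σ
  · simp [fA, sA, h1]
  · simp [fA, sA, h1]

lemma sA_ne_fA_not (σ : Bool) {j k : ZMod D} (h : j ≠ k) : sA σ j ≠ fA (!σ) k := by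
  cases σ <;> simpa [sA, fA] using h

lemma app_grow (hD : 4 ≤ D) (J : List (ZMod D)) (σ : Bool) (j : ZMod D) (x : List (ZMod D))
    (hJ : (j :: J).IsChain (· ≠ ·)) (hx : x.head? ≠ some (fA σ j)) :
    (app σ (j :: J) x).length = x.length + 2 * (J.length + 1) := by
  have h1 : tg (fA σ j) x = fA σ j :: x := by
    cases x with
    | nil => rfl
    | cons k x =>
      have : k ≠ fA σ j := by simpa using hx
      simp [tg, this]
  have h2 : tg (sA σ j) (fA σ j :: x) = sA σ j :: fA σ j :: x := by
    simp [tg, fA_ne_sA hD]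
  induction J generalizing σ j x with
  | nil => simp [app, h1, h2]
  | cons k J ih =>
    rw [app, h1, h2]
    have hjk : j ≠ k := (List.isChain_cons_cons.1 hJ).1
    have hne : (sA σ j :: fA σ j :: x).head? ≠ some (fA (!σ) k) := by
      simpa using sA_ne_fA_not σ hjk
    have hne' : sA σ j ≠ fA (!σ) k := sA_ne_fA_not σ hjk
    rw [ih (!σ) k _ hJ.tail hne (by simp [tg, hne']) (by simp [tg, fA_ne_sA hD])]
    simp only [List.length_cons]
    ring

/-- the main local lemma -/
lemma app_short (hD : 4 ≤ D) (J : List (ZMod D)) (σ : Bool) (j p : ZMod D) (v : List (ZMod D))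
    (hJ : (j :: J).IsChain (· ≠ ·)) (hlen : (app σ (j :: J) (p :: v)).length ≤ (p :: v).length)
    (hv : v.head? ≠ some (sA σ j)) :
    fA σ j = p ∧ J = [] ∧ app σ (j :: J) (p :: v) = sA σ j :: v := by
  have hp : fA σ j = p := by
    by_contra hne
    have := app_grow hD J σ j (p :: v) hJ (by simpa using fun h => hne h.symm)
    omega
  have h1 : tg (fA σ j) (p :: v) = v := by simp [tg, hp]
  have h2 : tg (sA σ j) v = sA σ j :: v := by
    cases v with
    | nil => rfl
    | cons k v =>
      have : k ≠ sA σ j := by simpa using hv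
      simp [tg, this]
  cases J with
  | nil => exact ⟨hp, rfl, by simp [app, h1, h2]⟩
  | cons k J =>
    exfalso
    have hjk : j ≠ k := (List.isChain_cons_cons.1 hJ).1
    rw [app, h1, h2] at hlen
    have := app_grow hD J (!σ) k (sA σ j :: v) hJ.tail (by simpa using sA_ne_fA_not σ hjk)
    rw [this] at hlen
    simp only [List.length_cons] at hlen
    omega

/-! ### turns -/

def srcB (s : BGrp D × Bool) : BGrp D := if s.2 then s.1 else zB D * s.1
def tgtB (s : BGrp D × Bool) : BGrp D := if s.2 then zB D * s.1 else s.1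

def Turn (s s' : BGrp D × Bool) : Prop := srcB s' * (tgtB s)⁻¹ ∈ CB D

def rv (s : BGrp D × Bool) : BGrp D × Bool := (s.1, !s.2)

lemma srcB_rv (s : BGrp D × Bool) : srcB (rv s) = tgtB s := by
  obtain ⟨b, ε⟩ := s
  cases ε <;> simp [srcB, tgtB, rv]

lemma tgtB_rv (s : BGrp D × Bool) : tgtB (rv s) = srcB s := by
  obtain ⟨b, ε⟩ := s
  cases ε <;> simp [srcB, tgtB, rv]

lemma Turn.rv {s s' : BGrp D × Bool} (h : Turn s s') : Turn (rv s') (rv s) := by
  unfold Turn at *
  rw [srcB_rv, tgtB_rv]
  have := inv_mem h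
  rwa [mul_inv_rev, inv_inv] at this

lemma P_append (K L : List (ZMod D)) (σ : Bool) :
    P σ (K ++ L) = P (if Even K.length then σ else !σ) L * P σ K := by
  induction K generalizing σ with
  | nil => simp [P]
  | cons k K ih =>
    rw [List.cons_append, P, ih, P, mul_assoc]
    congr 2
    simp only [List.length_cons, Nat.even_add_one]
    by_cases h : Even K.length <;> simp [h]

lemma zB_eq : zB D = yy 0 := by
  unfold zB yy
  rw [uB_zero, inv_one, mul_one, zero_add]

lemma sB_eq (j : ZMod D) : sB D j = P false [0, j] := by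
  unfold sB
  rw [zB_eq]
  simp [P, letter, yy]

lemma sB_inv_eq (j : ZMod D) : (sB D j)⁻¹ = P false [j, 0] := by
  unfold sB
  rw [zB_eq]
  simp [P, letter, yy]

lemma C_alt {c : BGrp D} (hc : c ∈ CB D) : ∃ K : List (ZMod D), Even K.length ∧ P false K = c := by
  unfold CB at hc
  induction hc using Subgroup.closure_induction_left with
  | one => exact ⟨[], by simp, rfl⟩
  | mul_left x hx y hy ih =>
    obtain ⟨j, rfl⟩ := hx
    obtain ⟨K, hK, rfl⟩ := ih
    refine ⟨K ++ [0, j], ?_, ?_⟩
    · rw [List.length_append]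
      exact hK.add (by simp)
    · rw [P_append, if_pos hK, sB_eq]
  | inv_mul_cancel x hx y hy ih =>
    obtain ⟨j, rfl⟩ := hx
    obtain ⟨K, hK, rfl⟩ := ih
    refine ⟨K ++ [j, 0], ?_, ?_⟩
    · rw [List.length_append]
      exact hK.add (by simp)
    · rw [P_append, if_pos hK, sB_inv_eq]

lemma turn_alt' {s s' : BGrp D × Bool} (h : Turn s s') : ∃ K : List (ZMod D),
    s'.1 = P s.2 K * s.1 ∧ (Even K.length ↔ s'.2 ≠ s.2) := by
  obtain ⟨K, hK, hc⟩ := C_alt h
  obtain ⟨b, ε⟩ := s
  obtain ⟨b', ε'⟩ := s'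
  cases ε <;> cases ε'
  · -- false false
    simp only [srcB, tgtB, if_false, Bool.false_eq_true] at hc ⊢
    refine ⟨K ++ [0], ?_, ?_⟩
    · rw [P_append, if_pos hK, hc, zB_eq]
      simp [P, letter]
      group
    · simp [Nat.even_add_one, hK]
  · simp only [srcB, tgtB, if_false, if_true, Bool.false_eq_true] at hc ⊢
    refine ⟨K, ?_, ?_⟩
    · rw [hc]; group
    · simp [hK]
  · simp only [srcB, tgtB, if_false, if_true, Bool.false_eq_true] at hc ⊢
    refine ⟨0 :: (K ++ [0]), ?_, ?_⟩
    · rw [P, Bool.not_true, P_append, if_pos hK, hc, zB_eq]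
      simp [P, letter]
      group
    · simp [Nat.even_add_one, hK]
  · simp only [srcB, tgtB, if_false, if_true, Bool.false_eq_true] at hc ⊢
    refine ⟨0 :: K, ?_, ?_⟩
    · rw [P, Bool.not_true, hc, zB_eq]
      simp [letter]
      group
    · simp [Nat.even_add_one, hK]

lemma turn_alt {s s' : BGrp D × Bool} (h : Turn s s') : ∃ J : List (ZMod D), J.IsChain (· ≠ ·) ∧
    s'.1 = P s.2 J * s.1 ∧ (Even J.length ↔ s'.2 ≠ s.2) := by
  obtain ⟨K, h1, h2⟩ := turn_alt' h
  obtain ⟨J, hJ, hP, hE⟩ := P_red K s.2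
  exact ⟨J, hJ, by rw [hP, h1], hE.trans h2⟩

def nxt (σ : Bool) (p : ZMod D) : ZMod D := if σ then p + 1 else p - 1

/-- neighbour lemma -/
lemma nbr (hD : 4 ≤ D) {s s' : BGrp D × Bool} {p q : ZMod D} {v : List (ZMod D)}
    (hs : Lw s.1 = p :: q :: v) (hT : Turn s s') (hlen : (Lw s'.1).length ≤ (Lw s.1).length)
    (hnb : s' ≠ rv s) (hq : nxt s.2 p ≠ q) :
    s' = (uB D (nxt s.2 p) * (uB D p)⁻¹ * s.1, s.2) ∧ Lw s'.1 = nxt s.2 p :: q :: v := by
  obtain ⟨J, hJ, h1, h2⟩ := turn_alt hT
  cases J with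
  | nil =>
    exfalso
    apply hnb
    have h3 : s'.1 = s.1 := by simpa [P] using h1
    have h4 : s'.2 ≠ s.2 := h2.1 (by simp)
    have h5 : s'.2 = !s.2 := by
      cases hh : s.2 <;> cases hh' : s'.2 <;> simp_all
    exact Prod.ext h3 h5
  | cons j J =>
    have happ : Lw s'.1 = app s.2 (j :: J) (p :: q :: v) := by rw [h1, Lw_P, hs]
    have hp : fA s.2 j = p := by
      by_contra hne
      have := app_grow hD J s.2 j (p :: q :: v) hJ (by simpa using fun h => hne h.symm)
      rw [happ, hs, this] at hlen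
      omega
    have hsA : sA s.2 j = nxt s.2 p := by
      cases hh : s.2
      · rw [hh] at hp
        simp only [fA, if_false, Bool.false_eq_true] at hp
        simp [sA, nxt, ← hp]
      · rw [hh] at hp
        simp only [fA, if_true] at hp
        simp [sA, nxt, ← hp]
    obtain ⟨-, hJ0, h6⟩ := app_short hD J s.2 j p (q :: v) hJ (by rw [← happ, ← hs]; exact hlen)
      (by rw [hsA]; simpa using fun h => hq h.symm)
    subst hJ0
    have hε : s'.2 = s.2 := by
      by_contra hne
      have := h2.2 hne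
      simp at this
    refine ⟨Prod.ext ?_ hε, ?_⟩
    · rw [h1]
      simp only [P, one_mul]
      congr 1
      cases hh : s.2
      · rw [hh] at hp
        simp only [fA, if_false, Bool.false_eq_true] at hp
        simp [letter, yy, nxt, ← hp]
      · rw [hh] at hp
        simp only [fA, if_true] at hp
        simp [letter, yy, nxt, ← hp]
    · rw [happ, h6, hsA]

def pos (σ : Bool) (p : ZMod D) (t : ℕ) : ZMod D := if σ then p + t else p - t

lemma nxt_pos (σ : Bool) (p : ZMod D) (t : ℕ) : nxt σ (pos σ p t) = pos σ p (t + 1) := by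
  cases σ <;> simp [nxt, pos] <;> ring

/-- number of further steps -/
def rr (σ : Bool) (p q : ZMod D) : ℕ := (if σ then q - p else p - q).val - 1

lemma pos_ne (σ : Bool) (p q : ZMod D) (hpq : p ≠ q) (t : ℕ) (ht : t + 1 ≤ rr σ p q) :
    pos σ p (t + 1) ≠ q := by
  intro h
  unfold rr at ht
  have hval : ∀ a : ZMod D, ((t + 1 : ℕ) : ZMod D) = a → a.val - 1 < t + 1 := by
    intro a ha
    have h1 : a.val ≤ t + 1 := by
      rw [← ha, ZMod.val_natCast]
      exact Nat.mod_le _ _
    omega
  cases σ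
  · simp only [pos, if_false, Bool.false_eq_true] at h ht
    have := hval (p - q) (by rw [← h]; ring)
    omega
  · simp only [pos, if_true] at h ht
    have := hval (q - p) (by rw [← h]; ring)
    omega

lemma rr_add (p q : ZMod D) (hpq : p ≠ q) (σ : Bool) : rr σ p q + rr (!σ) p q + 2 = D := by
  have h1 : (q - p).val + (p - q).val = D := by
    have h2 : p - q = -(q - p) := by ring
    have h3 : q - p ≠ 0 := sub_ne_zero.2 (Ne.symm hpq)
    haveI : NeZero (q - p) := ⟨h3⟩
    rw [h2, ZMod.neg_val, if_neg h3]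
    have := (q - p).val_lt
    omega
  have h4 : 0 < (q - p).val := by
    rw [Nat.pos_iff_ne_zero, Ne, ZMod.val_eq_zero]; exact sub_ne_zero.2 (Ne.symm hpq)
  have h5 : 0 < (p - q).val := by
    rw [Nat.pos_iff_ne_zero, Ne, ZMod.val_eq_zero]; exact sub_ne_zero.2 hpq
  cases σ <;> simp only [rr, Bool.not_false, Bool.not_true, if_true, if_false,
    Bool.false_eq_true] <;> omega

lemma pos_shift (σ : Bool) (p q : ZMod D) (R : ℕ) (h : pos (!σ) p (R + 1) = q) (t : ℕ) :
    (t < R → pos (!σ) p (R - t) = pos σ q (t + 1)) ∧ (R ≤ t → pos σ p (t - R) = pos σ q (t + 1)) := by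
  subst h
  constructor
  · intro hlt
    cases σ
    · simp only [pos, Bool.not_false, if_true, if_false, Bool.false_eq_true]
      rw [Nat.cast_sub hlt.le]
      push_cast
      ring
    · simp only [pos, Bool.not_true, if_true, if_false, Bool.false_eq_true]
      rw [Nat.cast_sub hlt.le]
      push_cast
      ring
  · intro hge
    cases σ
    · simp only [pos, Bool.not_false, if_true, if_false, Bool.false_eq_true]
      rw [Nat.cast_sub hge]
      push_cast
      ring
    · simp only [pos, Bool.not_true, if_true, if_false, Bool.false_eq_true]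
      rw [Nat.cast_sub hge]
      push_cast
      ring

/-- The run in function form. -/
lemma run_exists (hD : 4 ≤ D) (f : ℕ → BGrp D × Bool) (n : ℕ)
    (h0 : (f 0).1 = 1) (hn1 : (f (n + 1)).1 = 1)
    (hT : ∀ i, i ≤ n → Turn (f i) (f (i + 1)))
    (hnb : ∀ i, 1 ≤ i → i < n → f (i + 1) ≠ rv (f i))
    (i0 : ℕ) (hi0 : 1 ≤ i0) (hi0n : i0 ≤ n)
    (hmax : ∀ i, 1 ≤ i → i ≤ n → (Lw (f i).1).length ≤ (Lw (f i0).1).length)
    (hpos : Lw (f i0).1 ≠ []) :
    ∃ (i1 : ℕ) (q : ZMod D) (h : BGrp D) (σ : Bool), 1 ≤ i1 ∧ i1 + (D - 1) ≤ n + 1 ∧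
      ∀ t, t < D - 1 → f (i1 + t) = (uB D (nxt σ (pos σ q t)) * h, σ) := by
  obtain ⟨p, q, v, hx⟩ : ∃ p q v, Lw (f i0).1 = p :: q :: v := by
    rcases hL : Lw (f i0).1 with _ | ⟨p, _ | ⟨q, v⟩⟩
    · exact absurd hL hpos
    · have := Lw_even (f i0).1
      rw [hL] at this
      simp at this
    · exact ⟨p, q, v, rfl⟩
  have hpq : p ≠ q := by
    have := Lw_chain (f i0).1
    rw [hx] at this
    exact (List.isChain_cons_cons.1 this).1
  have hmax' : ∀ i, i ≤ n + 1 → (Lw (f i).1).length ≤ (Lw (f i0).1).length := by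
    intro i hi
    rcases Nat.eq_zero_or_pos i with rfl | h1
    · rw [h0, Lw_one]; simp
    · rcases Nat.lt_or_ge n i with h2 | h2
      · have : i = n + 1 := by omega
        rw [this, hn1, Lw_one]; simp
      · exact hmax i h1 h2
  set σ := (f i0).2 with hσ
  set b0 := (f i0).1 with hb0
  -- forward
  have hF : ∀ t, t ≤ rr σ p q → i0 + t ≤ n ∧
      f (i0 + t) = (uB D (pos σ p t) * (uB D p)⁻¹ * b0, σ) ∧
      Lw (f (i0 + t)).1 = pos σ p t :: q :: v := by
    intro t
    induction t with
    | zero =>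
      intro _
      refine ⟨by simpa using hi0n, ?_, ?_⟩
      · refine Prod.ext ?_ rfl
        simp [pos, hb0]
      · simpa [pos] using hx
    | succ t ih =>
      intro ht
      obtain ⟨h1, h2, h3⟩ := ih (by omega)
      have hlen : (Lw (f (i0 + t + 1)).1).length ≤ (Lw (f (i0 + t)).1).length := by
        rw [h3]
        refine (hmax' (i0 + t + 1) (by omega)).trans ?_
        rw [hx]; simp
      have hne : f (i0 + t + 1) ≠ rv (f (i0 + t)) := by
        rcases Nat.lt_or_ge (i0 + t) n with h4 | h4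
        · exact hnb (i0 + t) (by omega) h4
        · intro h5
          have h6 : (f (i0 + t + 1)).1 = (f (i0 + t)).1 := by rw [h5]; rfl
          have h7 : i0 + t + 1 = n + 1 := by omega
          rw [h7, hn1] at h6
          rw [← h6, Lw_one] at h3
          exact absurd h3 (by simp)
      have hs2 : (f (i0 + t)).2 = σ := by rw [h2]
      have hnx : nxt (f (i0 + t)).2 (pos σ p t) = pos σ p (t + 1) := by rw [hs2, nxt_pos]
      have := nbr hD h3 (hT (i0 + t) h1) hlen hne (by rw [hnx]; exact pos_ne σ p q hpq t ht)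
      rw [hnx, hs2] at this
      obtain ⟨h8, h9⟩ := this
      have e : i0 + (t + 1) = i0 + t + 1 := by ring
      rw [e]
      refine ⟨?_, ?_, h9⟩
      · by_contra hcon
        have h7 : i0 + t + 1 = n + 1 := by omega
        rw [h7, hn1, Lw_one] at h9
        exact absurd h9 (by simp)
      · rw [h8, h2]
        refine Prod.ext ?_ rfl
        simp only
        group
  -- backward
  have hB : ∀ t, t ≤ rr (!σ) p q → t < i0 ∧
      f (i0 - t) = (uB D (pos (!σ) p t) * (uB D p)⁻¹ * b0, σ) ∧
      Lw (f (i0 - t)).1 = pos (!σ) p t :: q :: v := by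
    intro t
    induction t with
    | zero =>
      intro _
      refine ⟨by omega, ?_, ?_⟩
      · refine Prod.ext ?_ rfl
        simp [pos, hb0]
      · simpa [pos] using hx
    | succ t ih =>
      intro ht
      obtain ⟨h1, h2, h3⟩ := ih (by omega)
      have e1 : i0 - (t + 1) + 1 = i0 - t := by omega
      have hlen : (Lw (rv (f (i0 - (t + 1)))).1).length ≤ (Lw (rv (f (i0 - t))).1).length := by
        show (Lw (f (i0 - (t + 1))).1).length ≤ (Lw (f (i0 - t)).1).length
        rw [h3]
        refine (hmax' (i0 - (t + 1)) (by omega)).trans ?_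
        rw [hx]; simp
      have hne : rv (f (i0 - (t + 1))) ≠ rv (rv (f (i0 - t))) := by
        rcases Nat.eq_zero_or_pos (i0 - (t + 1)) with h4 | h4
        · intro h5
          have h6 : (f (i0 - (t + 1))).1 = (f (i0 - t)).1 := by
            have h6' := congrArg Prod.fst h5
            exact h6'
          rw [h4, h0] at h6
          rw [← h6, Lw_one] at h3
          exact absurd h3 (by simp)
        · intro h5
          refine hnb (i0 - (t + 1)) (by omega) (by omega) ?_
          rw [e1]
          have h6 : rv (rv (f (i0 - t))) = f (i0 - t) := by simp [rv]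
          rw [h6] at h5
          exact h5.symm
      have hs2 : (rv (f (i0 - t))).2 = !σ := by rw [h2]; rfl
      have hnx : nxt (rv (f (i0 - t))).2 (pos (!σ) p t) = pos (!σ) p (t + 1) := by rw [hs2, nxt_pos]
      have hT' : Turn (rv (f (i0 - t))) (rv (f (i0 - (t + 1)))) := by
        have := (hT (i0 - (t + 1)) (by omega)).rv
        rwa [e1] at this
      have := nbr hD (s := rv (f (i0 - t))) h3 hT' hlen hne
        (by rw [hnx]; exact pos_ne (!σ) p q hpq t ht)
      rw [hnx, hs2] at this
      obtain ⟨h8, h9⟩ := this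
      have h8' : f (i0 - (t + 1)) = (uB D (pos (!σ) p (t + 1)) * (uB D (pos (!σ) p t))⁻¹ *
          (rv (f (i0 - t))).1, σ) := by
        have h10 := congrArg rv h8
        have h11 : rv (rv (f (i0 - (t + 1)))) = f (i0 - (t + 1)) := by simp [rv]
        rw [h11] at h10
        rw [h10]
        simp [rv]
      refine ⟨?_, ?_, h9⟩
      · by_contra hcon
        have h7 : i0 - (t + 1) = 0 := by omega
        have h9' : Lw (f (i0 - (t + 1))).1 = pos (!σ) p (t + 1) :: q :: v := h9
        rw [h7, h0, Lw_one] at h9'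
        exact absurd h9' (by simp)
      · rw [h8']
        refine Prod.ext ?_ rfl
        show uB D (pos (!σ) p (t + 1)) * (uB D (pos (!σ) p t))⁻¹ * (f (i0 - t)).1 = _
        rw [h2]
        simp only
        group
  have hsum := rr_add p q hpq σ
  have hlast := hF (rr σ p q) le_rfl
  have hfirst := hB (rr (!σ) p q) le_rfl
  refine ⟨i0 - rr (!σ) p q, q, (uB D p)⁻¹ * b0, σ, by omega, by omega, ?_⟩
  intro t ht
  -- the position of the first one
  have hq1 : ∀ m : ℕ, m = rr (!σ) p q + 1 → pos (!σ) p m = q := by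
    intro m hm
    cases hh : σ
    · rw [hh] at hm
      simp only [rr, Bool.not_false, if_true] at hm
      have h5 : 0 < (q - p).val := by
        rw [Nat.pos_iff_ne_zero, Ne, ZMod.val_eq_zero]; exact sub_ne_zero.2 (Ne.symm hpq)
      have h6 : m = (q - p).val := by omega
      simp only [pos, Bool.not_false, if_true, h6, ZMod.natCast_zmod_val]
      ring
    · rw [hh] at hm
      simp only [rr, Bool.not_true, if_false, Bool.false_eq_true] at hm
      have h5 : 0 < (p - q).val := by
        rw [Nat.pos_iff_ne_zero, Ne, ZMod.val_eq_zero]; exact sub_ne_zero.2 hpq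
      have h6 : m = (p - q).val := by omega
      simp only [pos, Bool.not_true, if_false, Bool.false_eq_true, h6, ZMod.natCast_zmod_val]
      ring
  have hq2 := hq1 _ rfl
  rcases Nat.lt_or_ge t (rr (!σ) p q) with hlt | hge
  · have e2 : i0 - rr (!σ) p q + t = i0 - (rr (!σ) p q - t) := by omega
    rw [e2, (hB _ (Nat.sub_le _ _)).2.1]
    refine Prod.ext ?_ rfl
    show uB D (pos (!σ) p (rr (!σ) p q - t)) * (uB D p)⁻¹ * b0 = uB D (nxt σ (pos σ q t)) * ((uB D p)⁻¹ * b0)
    rw [mul_assoc, nxt_pos, (pos_shift σ p q _ hq2 t).1 hlt]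
  · have e2 : i0 - rr (!σ) p q + t = i0 + (t - rr (!σ) p q) := by omega
    rw [e2, (hF _ (by omega)).2.1]
    refine Prod.ext ?_ rfl
    show uB D (pos σ p (t - rr (!σ) p q)) * (uB D p)⁻¹ * b0 = uB D (nxt σ (pos σ q t)) * ((uB D p)⁻¹ * b0)
    rw [mul_assoc, nxt_pos, (pos_shift σ p q _ hq2 t).2 hge]

end Crest.Agent.FP.G2
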