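import Mathlib
import Crest.Agent.FP_GrpDefs
import Crest.Agent.FP_G2

/-!
# Task FP-G2: geometry of one piece (the tree of polygons of the free group `B`)

The piece: vertices `C \ B` (cosets `C b`), edges `B` (`b` goes from `C b` to `C z b`), polygons `B`
(`h` has the edges `u_j h`).  Incidence "edge `e` is an edge of the polygon `h`" is the `D`-regular
tree `T`: `B` acts simply transitively on the even reduced words in letters `a_i`, `i : ZMod D`,
`a_i² = 1` (`u_i u_j⁻¹` acts as `a_i a_j`; so `u_j` acts as `a_j a_0`).

PROOF of `piece_geo`.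
(1) Lists: let `RL` = lists over `ZMod D` with no two equal neighbours. `a_i • L = tail` if `head = i`,
else `i :: L`. This is an involution of `RL`. `B` acts on `RL` by `u_j ↦ a_j a_0` (lift from the free
group). Put `Lw e = e • []` (even length). `e = ψ (Lw e)` where `ψ [l₁, l₂, …, l_{2n}] =
u_{l₁} u_{l₂}⁻¹ u_{l₃} u_{l₄}⁻¹ ⋯` (induction on the word `e`; check `ψ (a_i • a_j • L) = u_i u_j⁻¹ ψ L`
for even `L`). In particular `Lw e = [] → e = 1`.
(2) Link lemma: `(e, true)` = terminal end, `(e, false)` = origin end. Corner steps:
`(e, true) ~ (u_{j+1} u_j⁻¹ e, false)`. Ends of edges at the same vertex (`C e = C e'` for two origins,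
`C z e = C e'` for terminus/origin, …) are connected by corner steps, because
`u_{j+1} u_j⁻¹ = s_j z`, `s_0 = 1` and `C = ⟨s_j⟩`. Deleting repetitions, one gets a chain of corners with
consecutive polygons different, so `Lw e' = a_{j_n'} a_{j_n} ⋯ a_{j_1'} a_{j_1} • Lw e` with the word
`j_n' j_n ⋯ j_1' j_1` reduced (`j_k' = j_k ± 1`, `j_{k+1} ≠ j_k'`), where `n = 0` iff the ends coincide.
(3) Take an edge `e_i` of the path `l` with `Lw` of maximal length `2 d`.  If `d = 0` all edges are
`1`, so without backtracking `l = [(1, true)]` or `[(1, false)]` (two consecutive traversals of the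
edge `1` in the same direction would give a nontrivial reduced word equal to 1 by (2)).
If `d > 0`, `Lw e_i = l₁ :: l₂ :: …`; let `p = a_{l₁} e_i` (parent polygon), `e* = a_{l₂} p` (parent
edge). The next edge `e_{i+1}` is joined to `e_i` by a reduced chain as in (2); if its first letter
`j_1` is not `l₁` the length grows to `> 2d`, contradiction; so `j_1 = l₁`, `j_1' = l₁ ± 1`, and if
`j_1' ≠ l₂` then `n = 1`, i.e. `e_{i+1} = a_{l₁ ± 1} p` is the next edge of the same polygon, again
of maximal length.  Continue in both directions until the neighbour of the parent edge is reached.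
The path cannot end before: its endpoints are ends of the edge `1 = []`, and the same argument
applied to the chain from the last edge to (an end of) the edge `1` shows `j_1' = l₂`.
So all `D - 1` edges of `p` other than `e*` are traversed consecutively.
-/

set_option autoImplicit false

namespace Crest.Agent.FP

variable (D : ℕ) [NeZero D]

/-- The polygon data of the free group `B`. -/
def polyB : PolyData (BGrp D) D where
  A := CB D
  z := zB D
  u := uB D

open G2 in
/-- paths as chains of turns -/
lemma isPath_chain (l : List (BGrp D × Bool)) (g h : BGrp D) (s0 s1 : BGrp D × Bool)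
    (h0 : tgtB s0 = g) (h1 : srcB s1 = h) (hp : (polyB D).IsPath g l h) :
    List.IsChain Turn (s0 :: (l ++ [s1])) := by
  induction l generalizing g s0 with
  | nil =>
    simp only [List.nil_append, List.isChain_cons_cons, List.isChain_singleton, and_true]
    unfold Turn
    rw [h0, h1]
    exact hp
  | cons s l ih =>
    rw [List.cons_append, List.isChain_cons_cons]
    refine ⟨?_, ih (tgtB s) s rfl hp.2⟩
    unfold Turn
    rw [h0]
    exact hp.1

open G2 in
/-- from the function form of a run to the list form -/
lemma list_run (l : List (BGrp D × Bool)) (i : ℕ) (q : ZMod D) (h : BGrp D) (σ : Bool)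
    (hi : i + (D - 1) ≤ l.length)
    (hr : ∀ t, t < D - 1 → l[i + t]? = some (uB D (nxt σ (pos σ q t)) * h, σ)) :
    ∃ l₁ l₂ h j, l = l₁ ++ (polyB D).run h j ++ l₂ ∨ l = l₁ ++ (polyB D).revRun h j ++ l₂ := by
  have hsplit : l = l.take i ++ (l.drop i).take (D - 1) ++ l.drop (i + (D - 1)) := by
    rw [List.append_assoc]
    conv_lhs => rw [← List.take_append_drop i l]
    congr 1
    rw [← List.drop_drop]
    exact (List.take_append_drop _ _).symm
  refine ⟨l.take i, l.drop (i + (D - 1)), h, q, ?_⟩
  cases σ
  · right
    have : (l.drop i).take (D - 1) = (polyB D).revRun h q := by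
      apply List.ext_getElem?
      intro t
      rw [List.getElem?_take]
      split_ifs with ht
      · rw [List.getElem?_drop, hr t ht]
        have hlen : t < ((polyB D).revRun h q).length := by
          simp [PolyData.revRun, PolyData.run, ht]
        rw [List.getElem?_eq_getElem hlen]
        congr 1
        simp only [PolyData.revRun, PolyData.run, polyB, List.getElem_reverse, List.getElem_map,
          List.getElem_ofFn, List.length_map, List.length_ofFn]
        refine Prod.ext ?_ rfl
        simp only
        congr 2
        simp only [nxt, pos, if_false, Bool.false_eq_true]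
        have e : D - 1 - 1 - t = D - (t + 2) := by omega
        rw [e, Nat.cast_sub (by omega)]
        push_cast
        rw [ZMod.natCast_self]
        ring
      · rw [List.getElem?_eq_none]
        simp only [PolyData.revRun, PolyData.run, List.length_reverse, List.length_map,
          List.length_ofFn]
        omega
    rw [← this]
    exact hsplit
  · left
    have : (l.drop i).take (D - 1) = (polyB D).run h q := by
      apply List.ext_getElem?
      intro t
      rw [List.getElem?_take]
      split_ifs with ht
      · rw [List.getElem?_drop, hr t ht]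
        have hlen : t < ((polyB D).run h q).length := by
          simp [PolyData.run, ht]
        rw [List.getElem?_eq_getElem hlen]
        congr 1
        simp only [PolyData.run, polyB, List.getElem_ofFn]
        refine Prod.ext ?_ rfl
        simp only
        congr 2
        simp only [nxt, pos, if_true]
        ring
      · rw [List.getElem?_eq_none]
        simp only [PolyData.run, List.length_ofFn]
        omega
    rw [← this]
    exact hsplit

open G2 in
theorem piece_geo (hD : 4 ≤ D) (l : List (BGrp D × Bool)) (g h : BGrp D)
    (hg : g = 1 ∨ g = zB D) (hh : h = 1 ∨ h = zB D) (hne : l ≠ [])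
    (hp : (polyB D).IsPath g l h) :
    l = [(1, true)] ∨ l = [(1, false)] ∨
    (∃ l₁ l₂ g b, l = l₁ ++ (g, b) :: (g, !b) :: l₂) ∨
    (∃ l₁ l₂ h j, l = l₁ ++ (polyB D).run h j ++ l₂ ∨ l = l₁ ++ (polyB D).revRun h j ++ l₂) := by
  classical
  obtain ⟨s0, hs0, hs0'⟩ : ∃ s0 : BGrp D × Bool, s0.1 = 1 ∧ tgtB s0 = g := by
    rcases hg with rfl | rfl
    · exact ⟨(1, false), rfl, by simp [tgtB]⟩
    · exact ⟨(1, true), rfl, by simp [tgtB]⟩
  obtain ⟨s1, hs1, hs1'⟩ : ∃ s1 : BGrp D × Bool, s1.1 = 1 ∧ srcB s1 = h := by
    rcases hh with rfl | rfl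
    · exact ⟨(1, true), rfl, by simp [srcB]⟩
    · exact ⟨(1, false), rfl, by simp [srcB]⟩
  have hch := isPath_chain D l g h s0 s1 hs0' hs1' hp
  by_cases hback : ∃ l₁ l₂ g b, l = l₁ ++ (g, b) :: (g, !b) :: l₂
  · exact Or.inr (Or.inr (Or.inl hback))
  set n := l.length with hn
  have hn0 : 0 < n := List.length_pos_iff.2 hne
  set L : List (BGrp D × Bool) := s0 :: (l ++ [s1]) with hL
  have hLlen : L.length = n + 2 := by simp [hL, hn]
  let f : ℕ → BGrp D × Bool := fun i => L.getD i (1, true)
  have hfL : ∀ i, i < n + 2 → L[i]? = some (f i) := by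
    intro i hi
    have : i < L.length := by omega
    simp only [f, List.getD_eq_getElem?_getD]
    rw [List.getElem?_eq_getElem this]
    rfl
  have hfl : ∀ i, i < n → l[i]? = some (f (i + 1)) := by
    intro i hi
    have h1 := hfL (i + 1) (by omega)
    rw [hL, List.getElem?_cons_succ, List.getElem?_append_left (by omega)] at h1
    exact h1
  have hf0 : (f 0).1 = 1 := by
    have h1 := hfL 0 (by omega)
    rw [hL, List.getElem?_cons_zero] at h1
    rw [← Option.some.inj h1, hs0]
  have hfn1 : (f (n + 1)).1 = 1 := by
    have h1 := hfL (n + 1) (by omega)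
    rw [hL, List.getElem?_cons_succ, List.getElem?_append_right (by omega)] at h1
    simp only [← hn, Nat.sub_self, List.getElem?_cons_zero] at h1
    rw [← Option.some.inj h1, hs1]
  have hT : ∀ i, i ≤ n → Turn (f i) (f (i + 1)) := by
    intro i hi
    have h1 : i + 1 < L.length := by omega
    have h2 := (List.isChain_iff_getElem.1 hch) i h1
    have h3 := hfL i (by omega)
    have h4 := hfL (i + 1) (by omega)
    rw [List.getElem?_eq_getElem (by omega)] at h3 h4
    rw [← Option.some.inj h3, ← Option.some.inj h4]
    exact h2
  have hnb : ∀ i, 1 ≤ i → i < n → f (i + 1) ≠ rv (f i) := by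
    intro i hi hin hcon
    apply hback
    have h1 := hfl (i - 1) (by omega)
    have h2 := hfl i hin
    rw [Nat.sub_add_cancel hi] at h1
    refine ⟨l.take (i - 1), l.drop (i + 1), (f i).1, (f i).2, ?_⟩
    have h3 : l.drop (i - 1) = f i :: l.drop i := by
      have := List.drop_eq_getElem_cons (l := l) (i := i - 1) (by omega)
      rw [this, Nat.sub_add_cancel hi]
      congr 1
      rw [List.getElem?_eq_getElem (by omega)] at h1
      exact Option.some.inj h1
    have h4 : l.drop i = f (i + 1) :: l.drop (i + 1) := by
      have := List.drop_eq_getElem_cons (l := l) (i := i) (by omega)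
      rw [this]
      congr 1
      rw [List.getElem?_eq_getElem (by omega)] at h2
      exact Option.some.inj h2
    conv_lhs => rw [← List.take_append_drop (i - 1) l, h3, h4, hcon]
    rfl
  obtain ⟨i0, hi0, hmax⟩ := Finset.exists_max_image (Finset.Icc 1 n)
    (fun i => (Lw (f i).1).length) ⟨1, by simp; omega⟩
  rw [Finset.mem_Icc] at hi0
  have hmax' : ∀ i, 1 ≤ i → i ≤ n → (Lw (f i).1).length ≤ (Lw (f i0).1).length := by
    intro i h1 h2
    exact hmax i (Finset.mem_Icc.2 ⟨h1, h2⟩)
  by_cases hpos : Lw (f i0).1 = []
  · -- all edges are `1`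
    have hall : ∀ i, 1 ≤ i → i ≤ n → (f i).1 = 1 := by
      intro i h1 h2
      have := hmax' i h1 h2
      rw [hpos] at this
      exact Lw_eq_nil (List.length_eq_zero_iff.1 (Nat.le_zero.1 this))
    have hn1 : n = 1 := by
      by_contra hne1
      have h2 : 2 ≤ n := by omega
      obtain ⟨J, hJ, h3, h4⟩ := turn_alt (hT 1 (by omega))
      cases J with
      | nil =>
        apply hnb 1 le_rfl (by omega)
        have h5 : (f (1 + 1)).2 ≠ (f 1).2 := h4.1 (by simp)
        refine Prod.ext ?_ ?_
        · rw [hall (1 + 1) (by omega) (by omega)]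
          show 1 = (f 1).1
          rw [hall 1 le_rfl (by omega)]
        · show (f (1 + 1)).2 = !(f 1).2
          cases hx : (f 1).2 <;> cases hy : (f (1 + 1)).2 <;> simp_all
      | cons j J =>
        have h5 := congrArg Lw h3
        rw [Lw_P, hall (1 + 1) (by omega) (by omega), hall 1 le_rfl (by omega), Lw_one] at h5
        have h6 := app_grow hD J (f 1).2 j [] hJ (by simp)
        rw [← h5] at h6
        simp at h6
    have h1 : l = [f 1] := by
      have h2 := hfl 0 (by omega)
      rcases l with _ | ⟨a, _ | ⟨b, l⟩⟩
      · simp at hn; omega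
      · simp at h2; rw [h2]
      · simp at hn; omega
    have h2 := hall 1 le_rfl (by omega)
    cases hx : (f 1).2
    · right; left
      rw [h1]; congr 1; exact Prod.ext h2 hx
    · left
      rw [h1]; congr 1; exact Prod.ext h2 hx
  · obtain ⟨i1, q, h, σ, h1, h2, h3⟩ := run_exists hD f n hf0 hfn1 hT hnb i0 hi0.1 hi0.2 hmax' hpos
    right; right; right
    refine list_run D l (i1 - 1) q h σ (by omega) ?_
    intro t ht
    rw [hfl (i1 - 1 + t) (by omega), ← h3 t ht]
    congr 2
    omega

end Crest.Agent.FP
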