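import Mathlib
import Crest.Agent.FP_G1
import Crest.Agent.FP_Piece

/-!
# Task FP-G3: geometry of `Γ` from the geometry of the pieces
-/

set_option autoImplicit false

namespace Crest.Agent.FP

section FreeGroupLemmas
variable {α : Type} [DecidableEq α]

theorem toWord_mk_mul (q : α) (c : Bool) (x : FreeGroup α)
    (h : ∀ t, x.toWord.head? = some t → t.1 = q → t.2 = c) :
    (FreeGroup.mk [(q, c)] * x).toWord = (q, c) :: x.toWord := by
  rw [FreeGroup.toWord_mul, FreeGroup.toWord_mk, FreeGroup.reduce_singleton,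
    List.singleton_append, FreeGroup.reduce.cons, FreeGroup.reduce_toWord]
  cases hx : x.toWord with
  | nil => rfl
  | cons t L =>
    have h1 := h t (by rw [hx]; rfl)
    show (if (q, c).1 = t.1 ∧ (q, c).2 = !t.2 then L else (q, c) :: t :: L) = _
    rw [if_neg]
    rintro ⟨h2, h3⟩
    have h4 := h1 h2.symm
    simp only at h3
    rw [h4] at h3
    cases c <;> simp at h3

theorem toWord_pow_mul (q : α) (c : Bool) (x : FreeGroup α)
    (h : ∀ t, x.toWord.head? = some t → t.1 ≠ q) (k : ℕ) :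
    ((FreeGroup.mk [(q, c)]) ^ k * x).toWord = List.replicate k (q, c) ++ x.toWord := by
  induction k with
  | zero => simp
  | succ k ih =>
    rw [pow_succ', mul_assoc, toWord_mk_mul, ih, List.replicate_succ, List.cons_append]
    intro t ht hq
    rw [ih] at ht
    cases k with
    | zero =>
      simp only [List.replicate_zero, List.nil_append] at ht
      exact absurd hq (h t ht)
    | succ k =>
      rw [List.replicate_succ, List.cons_append, List.head?_cons] at ht
      rw [← Option.some.inj ht]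

theorem norm_zpow_mul (q : α) (x : FreeGroup α)
    (h : ∀ t, x.toWord.head? = some t → t.1 ≠ q) (n : ℤ) :
    ((FreeGroup.of q) ^ n * x).norm = n.natAbs + x.norm := by
  have key : ∀ (c : Bool) (k : ℕ),
      ((FreeGroup.mk [(q, c)]) ^ k * x).norm = k + x.norm := by
    intro c k
    unfold FreeGroup.norm
    rw [toWord_pow_mul q c x h k]
    simp
  rcases n with k | k
  · have := key true k
    simpa [FreeGroup.of] using this
  · have h1 : (FreeGroup.of q) ^ (Int.negSucc k) = (FreeGroup.mk [(q, false)]) ^ (k + 1) := by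
      rw [zpow_negSucc, ← inv_pow]
      rfl
    rw [h1, key false (k + 1)]
    rfl

/-- if multiplying by a nontrivial power of `q` does not increase the norm, `q` is the first letter -/
theorem first_letter (q : α) (x : FreeGroup α) (n : ℤ) (hn : n ≠ 0)
    (hle : ((FreeGroup.of q) ^ n * x).norm ≤ x.norm) :
    ∃ t, x.toWord.head? = some t ∧ t.1 = q := by
  by_contra hcon
  push Not at hcon
  rw [norm_zpow_mul q x hcon n] at hle
  have : n.natAbs ≠ 0 := Int.natAbs_ne_zero.2 hn
  omega

end FreeGroupLemmas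

/-! ### paths -/

namespace PolyData

variable {Γ : Type} [Group Γ] {D : ℕ} [NeZero D] (G : PolyData Γ D)

/-- end vertex of a path -/
def pend (g : Γ) (l : List (Γ × Bool)) : Γ := l.foldl (fun _ s => G.tgt s) g

theorem pend_nil (g : Γ) : G.pend g [] = g := rfl
theorem pend_cons (g : Γ) (s) (l : List (Γ × Bool)) : G.pend g (s :: l) = G.pend (G.tgt s) l := rfl

theorem isPath_self (g : Γ) : G.IsPath g [] g := by
  show g * g⁻¹ ∈ G.A
  rw [mul_inv_cancel]; exact G.A.one_mem

theorem isPath_append {g h : Γ} {l₁ l₂ : List (Γ × Bool)} (hp : G.IsPath g (l₁ ++ l₂) h) :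
    G.IsPath g l₁ (G.pend g l₁) ∧ G.IsPath (G.pend g l₁) l₂ h := by
  induction l₁ generalizing g with
  | nil => exact ⟨G.isPath_self g, hp⟩
  | cons s l ih =>
    have h1 : G.src s * g⁻¹ ∈ G.A := hp.1
    have h2 := ih (g := G.tgt s) hp.2
    exact ⟨⟨h1, h2.1⟩, h2.2⟩

theorem src_mul (s : Γ × Bool) (b : Γ) : G.src (s.1 * b, s.2) = G.src s * b := by
  unfold src
  split_ifs with h1 <;> simp_all [mul_assoc]

theorem tgt_mul (s : Γ × Bool) (b : Γ) : G.tgt (s.1 * b, s.2) = G.tgt s * b := by
  unfold tgt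
  split_ifs with h1 <;> simp_all [mul_assoc]

theorem isPath_mul_right {g h : Γ} {l : List (Γ × Bool)} (b : Γ) (hp : G.IsPath g l h) :
    G.IsPath (g * b) (l.map (fun s => (s.1 * b, s.2))) (h * b) := by
  induction l generalizing g with
  | nil =>
    show h * b * (g * b)⁻¹ ∈ G.A
    have : h * b * (g * b)⁻¹ = h * g⁻¹ := by group
    rw [this]; exact hp
  | cons s l ih =>
    refine ⟨?_, ?_⟩
    · rw [src_mul]
      have : G.src s * b * (g * b)⁻¹ = G.src s * g⁻¹ := by group
      rw [this]; exact hp.1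
    · rw [tgt_mul]
      exact ih hp.2

end PolyData

variable (D : ℕ) [NeZero D]

/-- the free group part of the normal form `g = iB (g.right) * inl (lam g)` -/
def lam (g : GGrp D) : FreeGroup (BGrp D ⧸ CB D) := actB D g.right⁻¹ g.left

theorem lam_spec (g : GGrp D) : g = iB D g.right * SemidirectProduct.inl (lam D g) := by
  unfold lam iB
  rw [SemidirectProduct.inl_aut]
  have := SemidirectProduct.inl_left_mul_inr_right g
  conv_lhs => rw [← this]
  simp [mul_assoc]

theorem lam_iB_mul (c : BGrp D) (g : GGrp D) : lam D (iB D c * g) = lam D g := by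
  unfold lam iB
  rw [SemidirectProduct.mul_left, SemidirectProduct.mul_right, SemidirectProduct.right_inr,
    SemidirectProduct.left_inr, one_mul, ← MulAut.mul_apply, ← map_mul]
  congr 2
  group

theorem actB_yF' (b : BGrp D) :
    actB D b (yF D) = FreeGroup.of (QuotientGroup.mk b : BGrp D ⧸ CB D) := by
  show FreeGroup.freeGroupCongr (MulAction.toPerm b) (yF D) = _
  unfold yF
  rw [FreeGroup.freeGroupCongr_apply, FreeGroup.map.of]
  congr 1
  show b • (QuotientGroup.mk (1 : BGrp D) : BGrp D ⧸ CB D) = _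
  rw [MulAction.Quotient.smul_mk]
  simp

theorem lam_A_mul (a : GGrp D) (ha : a ∈ AG D) (g : GGrp D) :
    ∃ n : ℤ, lam D (a * g) =
      (FreeGroup.of (QuotientGroup.mk g.right⁻¹ : BGrp D ⧸ CB D)) ^ n * lam D g := by
  obtain ⟨ha1, ha2⟩ := ha
  obtain ⟨n, hn⟩ := Subgroup.mem_zpowers_iff.mp ha1
  refine ⟨n, ?_⟩
  unfold lam
  rw [SemidirectProduct.mul_left, SemidirectProduct.mul_right, ← hn, map_mul, map_zpow, actB_yF']
  congr 1
  · congr 2
    rw [QuotientGroup.eq]
    simpa using ha2
  · rw [← MulAut.mul_apply, ← map_mul]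
    congr 2
    group

/-- the projection to `B` -/
def pr (s : GGrp D × Bool) : BGrp D × Bool := (s.1.right, s.2)

theorem pr_src (s : GGrp D × Bool) : ((polyG D).src s).right = (polyB D).src (pr D s) := by
  unfold PolyData.src pr
  rcases s with ⟨g, b⟩
  cases b
  · show (iB D (zB D) * g).right = zB D * g.right
    rw [SemidirectProduct.mul_right]; rfl
  · rfl

theorem pr_tgt (s : GGrp D × Bool) : ((polyG D).tgt s).right = (polyB D).tgt (pr D s) := by
  unfold PolyData.tgt pr
  rcases s with ⟨g, b⟩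
  cases b
  · rfl
  · show (iB D (zB D) * g).right = zB D * g.right
    rw [SemidirectProduct.mul_right]; rfl

theorem lam_src (s : GGrp D × Bool) : lam D ((polyG D).src s) = lam D s.1 := by
  unfold PolyData.src
  rcases s with ⟨g, b⟩
  cases b
  · exact lam_iB_mul D (zB D) g
  · rfl

theorem lam_tgt (s : GGrp D × Bool) : lam D ((polyG D).tgt s) = lam D s.1 := by
  unfold PolyData.tgt
  rcases s with ⟨g, b⟩
  cases b
  · rfl
  · exact lam_iB_mul D (zB D) g

theorem isPath_pr {g h : GGrp D} {l : List (GGrp D × Bool)} (hp : (polyG D).IsPath g l h) :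
    (polyB D).IsPath g.right (l.map (pr D)) h.right := by
  induction l generalizing g with
  | nil =>
    show h.right * g.right⁻¹ ∈ CB D
    have h1 : h * g⁻¹ ∈ AG D := hp
    have h2 := h1.2
    rwa [SemidirectProduct.mul_right, SemidirectProduct.inv_right] at h2
  | cons s l ih =>
    refine ⟨?_, ?_⟩
    · rw [← pr_src]
      have h1 : (polyG D).src s * g⁻¹ ∈ AG D := hp.1
      have h2 := h1.2
      rwa [SemidirectProduct.mul_right, SemidirectProduct.inv_right] at h2
    · rw [← pr_tgt]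
      exact ih hp.2

/-- the embedding of the piece through `γ₀` -/
def emb (γ₀ : GGrp D) (s : BGrp D × Bool) : GGrp D × Bool := (iB D s.1 * γ₀, s.2)

theorem emb_run (γ₀ : GGrp D) (h : BGrp D) (j : ZMod D) :
    ((polyB D).run h j).map (emb D γ₀) = (polyG D).run (iB D h * γ₀) j := by
  unfold PolyData.run emb polyB polyG
  rw [List.map_ofFn]
  congr 1
  funext t
  simp [mul_assoc]

theorem emb_revRun (γ₀ : GGrp D) (h : BGrp D) (j : ZMod D) :
    ((polyB D).revRun h j).map (emb D γ₀) = (polyG D).revRun (iB D h * γ₀) j := by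
  unfold PolyData.revRun
  rw [← emb_run, List.map_reverse, List.map_map, List.map_map]
  rfl

/-- The conclusion (apart from the trivial path) -/
def Conc (l : List (GGrp D × Bool)) : Prop :=
  (∃ l₁ l₂ g b, l = l₁ ++ (g, b) :: (g, !b) :: l₂) ∨
    (∃ l₁ l₂ h j, l = l₁ ++ (polyG D).run h j ++ l₂ ∨ l = l₁ ++ (polyG D).revRun h j ++ l₂)

theorem conc_of_sub {l m l₁ l₂ : List (GGrp D × Bool)} (hl : l = l₁ ++ m ++ l₂) (h : Conc D m) :
    Conc D l := by
  rcases h with ⟨k₁, k₂, g, b, rfl⟩ | ⟨k₁, k₂, h, j, rfl | rfl⟩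
  · exact Or.inl ⟨l₁ ++ k₁, k₂ ++ l₂, g, b, by rw [hl]; simp⟩
  · exact Or.inr ⟨l₁ ++ k₁, k₂ ++ l₂, h, j, Or.inl (by rw [hl]; simp)⟩
  · exact Or.inr ⟨l₁ ++ k₁, k₂ ++ l₂, h, j, Or.inr (by rw [hl]; simp)⟩

/-- Use of the piece geometry for a block of steps with the same `lam`. -/
theorem block (hD : 4 ≤ D) (m : List (GGrp D × Bool)) (x : FreeGroup (BGrp D ⧸ CB D))
    (hm : ∀ s ∈ m, lam D s.1 = x) (p q b₀ : BGrp D)
    (hp : (polyB D).IsPath p (m.map (pr D)) q) (hne : m ≠ [])
    (hg : p * b₀⁻¹ = 1 ∨ p * b₀⁻¹ = zB D)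
    (hh : q * b₀⁻¹ = 1 ∨ q * b₀⁻¹ = zB D) :
    Conc D m ∨ m = [(iB D b₀ * SemidirectProduct.inl x, true)] ∨
      m = [(iB D b₀ * SemidirectProduct.inl x, false)] := by
  set γ₀ : GGrp D := iB D b₀ * SemidirectProduct.inl x with hγ
  set L : List (BGrp D × Bool) := (m.map (pr D)).map (fun s => (s.1 * b₀⁻¹, s.2)) with hL
  have hmL : m = L.map (emb D γ₀) := by
    rw [hL, List.map_map, List.map_map]
    conv_lhs => rw [← List.map_id m]
    apply List.map_congr_left
    intro s hs
    have h1 := lam_spec D s.1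
    rw [hm s hs] at h1
    show s = (iB D (s.1.right * b₀⁻¹) * γ₀, s.2)
    rw [hγ]
    have h2 : iB D (s.1.right * b₀⁻¹) * (iB D b₀ * SemidirectProduct.inl x) = s.1 := by
      conv_rhs => rw [h1]
      rw [← mul_assoc, ← map_mul]
      congr 2
      group
    rw [h2]
  have hpath := (polyB D).isPath_mul_right b₀⁻¹ hp
  have hLne : L ≠ [] := by
    intro h
    rw [h] at hmL
    exact hne hmL
  rcases piece_geo D hD L _ _ hg hh hLne hpath with h | h | ⟨k₁, k₂, g, b, h⟩ | ⟨k₁, k₂, h', j, h | h⟩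
  · right; left
    rw [hmL, h]
    simp [emb]
  · right; right
    rw [hmL, h]
    simp [emb]
  · left
    refine Or.inl ⟨k₁.map (emb D γ₀), k₂.map (emb D γ₀), iB D g * γ₀, b, ?_⟩
    rw [hmL, h]
    simp [emb]
  · left
    refine Or.inr ⟨k₁.map (emb D γ₀), k₂.map (emb D γ₀), iB D h' * γ₀, j, Or.inl ?_⟩
    rw [hmL, h, List.map_append, List.map_append, emb_run]
  · left
    refine Or.inr ⟨k₁.map (emb D γ₀), k₂.map (emb D γ₀), iB D h' * γ₀, j, Or.inr ?_⟩
    rw [hmL, h, List.map_append, List.map_append, emb_revRun]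

theorem decomp2 {α : Type} (P : α → Prop) (l : List α) :
    ∃ m l₂, l = m ++ l₂ ∧ (∀ t ∈ m, P t) ∧ (∀ t, l₂.head? = some t → ¬ P t) := by
  induction l with
  | nil => exact ⟨[], [], rfl, by simp, by simp⟩
  | cons a l ih =>
    by_cases ha : P a
    · obtain ⟨m, l₂, h1, h2, h3⟩ := ih
      refine ⟨a :: m, l₂, by rw [h1]; rfl, ?_, h3⟩
      intro t ht
      rcases List.mem_cons.1 ht with rfl | ht
      · exact ha
      · exact h2 t ht
    · refine ⟨[], a :: l, rfl, by simp, ?_⟩
      intro t ht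
      rw [List.head?_cons] at ht
      rw [← Option.some.inj ht]
      exact ha

theorem decomp1 {α : Type} (P : α → Prop) (l : List α) (h : ∃ s ∈ l, P s) :
    ∃ l₁ s m l₂, l = l₁ ++ (s :: m) ++ l₂ ∧ (∀ t ∈ l₁, ¬ P t) ∧ P s ∧ (∀ t ∈ m, P t) ∧
      (∀ t, l₂.head? = some t → ¬ P t) := by
  induction l with
  | nil => simp at h
  | cons a l ih =>
    by_cases ha : P a
    · obtain ⟨m, l₂, h1, h2, h3⟩ := decomp2 P l
      exact ⟨[], a, m, l₂, by rw [h1]; rfl, by simp, ha, h2, h3⟩
    · have h' : ∃ s ∈ l, P s := by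
        obtain ⟨s, hs, hPs⟩ := h
        rcases List.mem_cons.1 hs with rfl | hs
        · exact absurd hPs ha
        · exact ⟨s, hs, hPs⟩
      obtain ⟨l₁, s, m, l₂, h1, h2, h3, h4, h5⟩ := ih h'
      refine ⟨a :: l₁, s, m, l₂, by rw [h1]; rfl, ?_, h3, h4, h5⟩
      intro t ht
      rcases List.mem_cons.1 ht with rfl | ht
      · exact ha
      · exact h2 t ht

theorem pend_cases {Γ : Type} [Group Γ] {D : ℕ} [NeZero D] (G : PolyData Γ D) (g : Γ)
    (l : List (Γ × Bool)) : (l = [] ∧ G.pend g l = g) ∨ ∃ s ∈ l, G.pend g l = G.tgt s := by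
  induction l generalizing g with
  | nil => exact Or.inl ⟨rfl, rfl⟩
  | cons a l ih =>
    right
    rw [PolyData.pend_cons]
    rcases ih (G.tgt a) with ⟨_, h⟩ | ⟨s, hs, h⟩
    · exact ⟨a, List.mem_cons_self, h⟩
    · exact ⟨s, List.mem_cons_of_mem _ hs, h⟩

theorem isPath_change {Γ : Type} [Group Γ] {D : ℕ} [NeZero D] (G : PolyData Γ D) {g h h' : Γ}
    {l : List (Γ × Bool)} (hp : G.IsPath g l h) (hh : h' * h⁻¹ ∈ G.A) : G.IsPath g l h' := by
  induction l generalizing g with
  | nil =>
    show h' * g⁻¹ ∈ G.A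
    have h1 : h * g⁻¹ ∈ G.A := hp
    have : h' * g⁻¹ = (h' * h⁻¹) * (h * g⁻¹) := by group
    rw [this]
    exact G.A.mul_mem hh h1
  | cons s l ih => exact ⟨hp.1, ih hp.2⟩

theorem grp_geo' (hD : 4 ≤ D) (l : List (GGrp D × Bool)) (hl : (polyG D).IsPath 1 l (polyG D).z) :
    l = [(1, true)] ∨
    (∃ l₁ l₂ g b, l = l₁ ++ (g, b) :: (g, !b) :: l₂) ∨
    (∃ l₁ l₂ h j, l = l₁ ++ (polyG D).run h j ++ l₂ ∨ l = l₁ ++ (polyG D).revRun h j ++ l₂) := by
  classical
  have hz : zB D ∉ CB D := zB_not_mem' D hD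
  by_cases hall : ∀ s ∈ l, lam D s.1 = 1
  · -- one piece
    have hne : l ≠ [] := by
      rintro rfl
      have h1 : (polyG D).z * (1 : GGrp D)⁻¹ ∈ AG D := hl
      rw [inv_one, mul_one] at h1
      exact hz h1.2
    have hp := isPath_pr D hl
    have h1 : (1 : GGrp D).right = 1 := rfl
    have h2 : ((polyG D).z).right = zB D := rfl
    rcases block D hD l 1 hall _ _ 1 hp hne (Or.inl (by rw [h1]; simp))
      (Or.inr (by rw [h2]; simp)) with h | h | h
    · exact Or.inr h
    · left
      rw [h]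
      simp
    · exfalso
      rw [h] at hl
      have h3 : (polyG D).src (iB D 1 * SemidirectProduct.inl 1, false) * (1 : GGrp D)⁻¹ ∈ AG D :=
        hl.1
      have h4 : ((polyG D).src (iB D 1 * SemidirectProduct.inl 1, false) * (1 : GGrp D)⁻¹).right =
          zB D := by
        rw [inv_one, mul_one, map_one, map_one, one_mul]
        show (iB D (zB D) * 1).right = zB D
        rw [mul_one]; rfl
      apply hz
      rw [← h4]
      exact h3.2
  · -- maximal block
    push Not at hall
    obtain ⟨s₀, hs₀, hs₀'⟩ := hall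
    obtain ⟨s₁, hs₁, hmax⟩ := Finset.exists_max_image l.toFinset (fun s => (lam D s.1).norm)
      ⟨s₀, List.mem_toFinset.2 hs₀⟩
    have hmax' : ∀ s ∈ l, (lam D s.1).norm ≤ (lam D s₁.1).norm :=
      fun s hs => hmax s (List.mem_toFinset.2 hs)
    set x := lam D s₁.1 with hx
    have hx1 : x ≠ 1 := by
      intro h
      have h1 := hmax' s₀ hs₀
      rw [h, FreeGroup.norm_one] at h1
      exact hs₀' (FreeGroup.norm_eq_zero.1 (by omega))
    obtain ⟨l₁, s, m, l₂, hdec, hl₁, hs, hm, hl₂⟩ := decomp1 (fun t => lam D t.1 = x) l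
      ⟨s₁, List.mem_toFinset.1 hs₁, rfl⟩
    have hlam1 : lam D (1 : GGrp D) = 1 := by
      unfold lam; simp
    have hlamz : lam D ((polyG D).z) = 1 := by
      have := lam_iB_mul D (zB D) 1
      rw [mul_one, hlam1] at this
      exact this
    have hl' := hl
    rw [hdec, List.append_assoc] at hl'
    obtain ⟨hp1, hp2⟩ := (polyG D).isPath_append hl'
    set p₀ := (polyG D).pend 1 l₁ with hp₀
    obtain ⟨hp3, hp4⟩ := (polyG D).isPath_append hp2
    set pm := (polyG D).pend p₀ (s :: m) with hpm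
    -- lam at p₀
    have hlp₀ : lam D p₀ ≠ x ∧ (lam D p₀).norm ≤ x.norm := by
      rcases pend_cases (polyG D) 1 l₁ with ⟨_, h⟩ | ⟨t, ht, h⟩
      · rw [hp₀, h, hlam1]
        exact ⟨fun h' => hx1 h'.symm, by rw [FreeGroup.norm_one]; omega⟩
      · rw [hp₀, h, lam_tgt]
        exact ⟨hl₁ t ht, hmax' t (by rw [hdec]; simp [ht])⟩
    have hlpm : lam D pm = x := by
      rcases pend_cases (polyG D) p₀ (s :: m) with ⟨h, _⟩ | ⟨t, ht, h⟩
      · exact absurd h (by simp)
      · rw [hpm, h, lam_tgt]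
        rcases List.mem_cons.1 ht with rfl | ht
        · exact hs
        · exact hm t ht
    -- entering
    have hent : ∃ t, x.toWord.head? = some t ∧
        t.1 = (QuotientGroup.mk p₀.right⁻¹ : BGrp D ⧸ CB D) := by
      have h1 : (polyG D).src s * p₀⁻¹ ∈ AG D := hp3.1
      obtain ⟨n, hn⟩ := lam_A_mul D _ h1 p₀
      rw [inv_mul_cancel_right, lam_src, hs] at hn
      have hn0 : n ≠ 0 := by
        rintro rfl
        rw [zpow_zero, one_mul] at hn
        exact hlp₀.1 hn.symm
      have h2 : lam D p₀ =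
          (FreeGroup.of (QuotientGroup.mk p₀.right⁻¹ : BGrp D ⧸ CB D)) ^ (-n) * x := by
        rw [hn, ← mul_assoc, ← zpow_add, neg_add_cancel, zpow_zero, one_mul]
      exact first_letter _ x (-n) (neg_ne_zero.2 hn0) (by rw [← h2]; exact hlp₀.2)
    -- leaving
    have hlea : ∃ t, x.toWord.head? = some t ∧
        t.1 = (QuotientGroup.mk pm.right⁻¹ : BGrp D ⧸ CB D) := by
      have h1 : ∃ n₀ : GGrp D, n₀ * pm⁻¹ ∈ AG D ∧ lam D n₀ ≠ x ∧ (lam D n₀).norm ≤ x.norm := by
        cases hl2 : l₂ with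
        | nil =>
          rw [hl2] at hp4
          refine ⟨(polyG D).z, hp4, ?_, ?_⟩
          · rw [hlamz]; exact fun h' => hx1 h'.symm
          · rw [hlamz, FreeGroup.norm_one]; omega
        | cons t l₃ =>
          rw [hl2] at hp4
          refine ⟨(polyG D).src t, hp4.1, ?_, ?_⟩
          · rw [lam_src]
            exact hl₂ t (by rw [hl2]; rfl)
          · rw [lam_src]
            exact hmax' t (by rw [hdec, hl2]; simp)
      obtain ⟨n₀, h1, h2, h3⟩ := h1
      obtain ⟨n, hn⟩ := lam_A_mul D _ h1 pm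
      rw [inv_mul_cancel_right, hlpm] at hn
      have hn0 : n ≠ 0 := by
        rintro rfl
        rw [zpow_zero, one_mul] at hn
        exact h2 hn
      exact first_letter _ x n hn0 (by rw [← hn]; exact h3)
    obtain ⟨t, ht1, ht2⟩ := hent
    obtain ⟨t', ht1', ht2'⟩ := hlea
    have htt : t = t' := Option.some.inj (ht1.symm.trans ht1')
    have hq : (QuotientGroup.mk p₀.right⁻¹ : BGrp D ⧸ CB D) = QuotientGroup.mk pm.right⁻¹ := by
      rw [← ht2, htt, ht2']
    rw [QuotientGroup.eq, inv_inv] at hq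
    have hpB := isPath_pr D hp3
    have hpB' : (polyB D).IsPath p₀.right ((s :: m).map (pr D)) p₀.right :=
      isPath_change (polyB D) hpB hq
    have hm' : ∀ t ∈ s :: m, lam D t.1 = x := by
      intro t ht
      rcases List.mem_cons.1 ht with rfl | ht
      · exact hs
      · exact hm t ht
    rcases block D hD (s :: m) x hm' _ _ p₀.right hpB' (by simp) (Or.inl (by simp))
      (Or.inl (by simp)) with h | h | h
    · exact Or.inr (conc_of_sub D hdec h)
    · exfalso
      rw [h] at hpB'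
      have h3 : p₀.right * ((polyB D).tgt
        (pr D (iB D p₀.right * SemidirectProduct.inl x, true)))⁻¹ ∈ CB D := hpB'.2
      have h4 : (polyB D).tgt (pr D (iB D p₀.right * SemidirectProduct.inl x, true)) =
          zB D * p₀.right := by
        show zB D * (iB D p₀.right * SemidirectProduct.inl x).right = _
        rw [SemidirectProduct.mul_right, SemidirectProduct.right_inl, mul_one]; rfl
      rw [h4, mul_inv_rev, mul_inv_cancel_left] at h3
      exact hz ((CB D).inv_mem_iff.1 h3)
    · exfalso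
      rw [h] at hpB'
      have h3 : (polyB D).src
        (pr D (iB D p₀.right * SemidirectProduct.inl x, false)) * p₀.right⁻¹ ∈ CB D := hpB'.1
      have h4 : (polyB D).src (pr D (iB D p₀.right * SemidirectProduct.inl x, false)) =
          zB D * p₀.right := by
        show zB D * (iB D p₀.right * SemidirectProduct.inl x).right = _
        rw [SemidirectProduct.mul_right, SemidirectProduct.right_inl, mul_one]; rfl
      rw [h4, mul_inv_cancel_right] at h3
      exact hz h3

end Crest.Agent.FP
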