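import Mathlib
import Crest.Agent.FP_Piece
import Crest.Agent.FP_G1
import Crest.Agent.FP_G3

/-!
# Tasks FP-G1, FP-G3: the group `Γ` satisfies the axioms `PolyData.Good`
-/

set_option autoImplicit false

namespace Crest.Agent.FP

variable (D : ℕ) [NeZero D]

/-! ## Task FP-G1 (elementary facts) -/

/-- (G1a) `Γ` is generated by the finite set `u_j`, `y` (`b y_{1C} b⁻¹ = y_{bC}`). -/
theorem grp_fg : Group.FG (GGrp D) := grp_fg' D

/-- (G1b) `C ∪ ⟨y⟩ ⊆ A` and `z` generate. -/
theorem grp_gen (hD : 4 ≤ D) : Subgroup.closure (((polyG D).A : Set (GGrp D)) ∪ {(polyG D).z}) = ⊤ :=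
  grp_gen' D

/-- (G1c) -/
theorem grp_u_zero : (polyG D).u 0 = 1 := grp_u_zero' D

/-- (G1d) -/
theorem grp_u_succ (hD : 4 ≤ D) (j : ZMod D) :
    (polyG D).u (j + 1) * ((polyG D).z * (polyG D).u j)⁻¹ ∈ (polyG D).A :=
  grp_u_succ' D j

/-- (G1e) the elements `u_{j+1} u_j⁻¹` are pairwise different (already in the free group `B`). -/
theorem grp_corner_inj (hD : 4 ≤ D) :
    Function.Injective (fun j : ZMod D => (polyG D).u (j + 1) * ((polyG D).u j)⁻¹) :=
  grp_corner_inj' D hD

/-- (G1f) `z ∉ C` (use the homomorphism `u_j ↦ j` to `ZMod D`, which kills all `s_j`). -/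
theorem zB_not_mem (hD : 4 ≤ D) : zB D ∉ CB D := zB_not_mem' D hD

/-! ## Task FP-G3 (geometry of `Γ` from the geometry of the pieces)

PROOF.  Let `l = [(γ₁, ε₁), …, (γ_k, ε_k)]` be a path from `A` to `A z`.  Write the transitions as
`src s₁ = a₀`, `src s_{i+1} = a_i · tgt s_i`, `z = a_k · tgt s_k` with `a_i ∈ A`, `a_i = y^{n_i} c_i`
(`left = y^{n_i}`, `right = c_i ∈ C`).  Hence `z = a_k z^{ε_k} a_{k-1} ⋯ z^{ε_1} a_0` in `Γ`.
Left (free group) components: `∏ y_{p_i}^{n_i} = 1` in `FreeGroup (B ⧸ C)` where `p_i = b_i C`,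
`b_i` = right component of the part of the product to the left of `a_i` (up to `C`).
If all `n_i = 0`, then all `γ_i` are in `B` (`left = 1`) and `l` is the image of a `B`-path from `C` to
`C z`: use `piece_geo` (`[(1,false)]` is impossible because `z ∉ C`).
Otherwise, since a nonempty reduced word is nontrivial in a free group, there are consecutive
indices `i < j` with `n_i ≠ 0`, `n_j ≠ 0`, all `n` in between `0`, and `p_i = p_j`; this means that the
part `s_{i+1}, …, s_j` of the path (nonempty) is, after right multiplication by a suitable element, the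
image of a closed path from `C` to `C` in `B`: use `piece_geo` with `g = h = 1`. -/
theorem grp_geo (hD : 4 ≤ D) (l : List (GGrp D × Bool)) (hl : (polyG D).IsPath 1 l (polyG D).z) :
    l = [(1, true)] ∨
    (∃ l₁ l₂ g b, l = l₁ ++ (g, b) :: (g, !b) :: l₂) ∨
    (∃ l₁ l₂ h j, l = l₁ ++ (polyG D).run h j ++ l₂ ∨ l = l₁ ++ (polyG D).revRun h j ++ l₂) :=
  grp_geo' D hD l hl

theorem grp_good (hD : 4 ≤ D) : (polyG D).Good where
  hD := hD
  u_zero := grp_u_zero D
  u_succ := grp_u_succ D hD
  corner_inj := grp_corner_inj D hD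
  gen := grp_gen D hD
  geo := grp_geo D hD

end Crest.Agent.FP
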