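import Crest.Agent.GasPackGeo

/-! Module F3 (GasCluster): volume of zero-energy clusters in a small cube. -/

set_option autoImplicit false

namespace Crest.Agent.Gas

open MeasureTheory Crest.ProbabilityR.Continuum

theorem exists_room {m : ℕ} {sc sd : ℝ} (c : Fin m → Pt)
    (hc : ∀ i j, i ≠ j → sc < dist (c i) (c j) ∧ dist (c i) (c j) < sd) :
    ∃ ξ : ℝ, 0 < ξ ∧ ξ ≤ 1 ∧ ∀ i j, i ≠ j →
      sc + 2 * ξ < dist (c i) (c j) ∧ dist (c i) (c j) < sd - 2 * ξ := by
  have h1 : ∀ᶠ ε in nhdsWithin (0 : ℝ) (Set.Ioi 0), ∀ i j, i ≠ j →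
      sc + 2 * ε < dist (c i) (c j) ∧ dist (c i) (c j) < sd - 2 * ε := by
    rw [Filter.eventually_all]
    intro i
    rw [Filter.eventually_all]
    intro j
    by_cases hij : i = j
    · exact Filter.Eventually.of_forall fun ε h => absurd hij h
    · have h := hc i j hij
      have t1 : Filter.Tendsto (fun ε : ℝ => sc + 2 * ε) (nhdsWithin (0 : ℝ) (Set.Ioi 0))
          (nhds sc) := by
        have : Filter.Tendsto (fun ε : ℝ => sc + 2 * ε) (nhds (0 : ℝ)) (nhds (sc + 2 * 0)) :=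
          (continuous_const.add (continuous_const.mul continuous_id)).tendsto 0
        simpa using this.mono_left nhdsWithin_le_nhds
      have t2 : Filter.Tendsto (fun ε : ℝ => sd - 2 * ε) (nhdsWithin (0 : ℝ) (Set.Ioi 0))
          (nhds sd) := by
        have : Filter.Tendsto (fun ε : ℝ => sd - 2 * ε) (nhds (0 : ℝ)) (nhds (sd - 2 * 0)) :=
          (continuous_const.sub (continuous_const.mul continuous_id)).tendsto 0
        simpa using this.mono_left nhdsWithin_le_nhds
      filter_upwards [t1.eventually_lt_const h.1, t2.eventually_const_lt h.2] with ε h1 h2 _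
      exact ⟨h1, h2⟩
  have h2 : ∀ᶠ ε in nhdsWithin (0 : ℝ) (Set.Ioi 0), ε ∈ Set.Ioc (0 : ℝ) 1 :=
    Ioc_mem_nhdsGT one_pos
  obtain ⟨ξ, h3, h4⟩ := (h1.and h2).exists
  exact ⟨ξ, h4.1, h4.2, h3⟩

/-- The set of good cluster configurations. -/
def clusterSet {n : ℕ} (c : Fin (n + 1) → Pt) (C : Set Pt) (r η : ℝ) : Set (Fin (n + 1) → Pt) :=
  {x | x 0 ∈ C ∧ ∀ i : Fin n, x i.succ ∈ Metric.ball (x 0 + r • (c i.succ - c 0)) η}

theorem measurableSet_clusterSet {n : ℕ} (c : Fin (n + 1) → Pt) {C : Set Pt}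
    (hC : MeasurableSet C) (r η : ℝ) : MeasurableSet (clusterSet c C r η) := by
  unfold clusterSet
  have h1 : MeasurableSet {x : Fin (n + 1) → Pt | x 0 ∈ C} := (measurable_pi_apply 0) hC
  have h2 : ∀ i : Fin n, MeasurableSet
      {x : Fin (n + 1) → Pt | x i.succ ∈ Metric.ball (x 0 + r • (c i.succ - c 0)) η} := by
    intro i
    have : {x : Fin (n + 1) → Pt | x i.succ ∈ Metric.ball (x 0 + r • (c i.succ - c 0)) η}
        = {x : Fin (n + 1) → Pt | dist (x i.succ) (x 0 + r • (c i.succ - c 0)) < η} := rfl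
    rw [this]
    exact measurableSet_lt ((measurable_pi_apply _).dist ((measurable_pi_apply _).add_const _))
      measurable_const
  have : {x : Fin (n + 1) → Pt | x 0 ∈ C ∧
      ∀ i : Fin n, x i.succ ∈ Metric.ball (x 0 + r • (c i.succ - c 0)) η}
      = {x : Fin (n + 1) → Pt | x 0 ∈ C} ∩
        ⋂ i : Fin n, {x : Fin (n + 1) → Pt | x i.succ ∈ Metric.ball (x 0 + r • (c i.succ - c 0)) η} := by
    ext x
    simp
  rw [this]
  exact h1.inter (MeasurableSet.iInter h2)

theorem volume_clusterSet {n : ℕ} (c : Fin (n + 1) → Pt) {C : Set Pt}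
    (hC : MeasurableSet C) (r η : ℝ) :
    volume (clusterSet c C r η) = volume C * (volume (Metric.ball (0 : Pt) η)) ^ n := by
  have hmp := volume_preserving_piFinSuccAbove (fun _ : Fin (n + 1) => Pt) 0
  have hA := measurableSet_clusterSet c hC r η
  have hmps := hmp.symm
  rw [← hmps.measure_preimage hA.nullMeasurableSet]
  rw [Measure.volume_eq_prod]
  rw [Measure.prod_apply ((MeasurableEquiv.measurable _) hA)]
  have h1 : ∀ y : Pt, (volume : Measure (Fin n → Pt)) (Prod.mk y ⁻¹'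
      ((MeasurableEquiv.piFinSuccAbove (fun _ : Fin (n + 1) => Pt) 0).symm ⁻¹'
        (clusterSet c C r η))) = C.indicator (fun _ => (volume (Metric.ball (0 : Pt) η)) ^ n) y := by
    intro y
    by_cases hy : y ∈ C
    · have : Prod.mk y ⁻¹' ((MeasurableEquiv.piFinSuccAbove (fun _ : Fin (n + 1) => Pt) 0).symm ⁻¹'
        (clusterSet c C r η)) = Set.pi Set.univ
          (fun i : Fin n => Metric.ball (y + r • (c i.succ - c 0)) η) := by
        ext z
        simp [clusterSet, hy, Set.mem_pi]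
      rw [this, volume_pi_pi, Set.indicator_of_mem hy]
      simp only [Measure.addHaar_ball_center]
      simp
    · have : Prod.mk y ⁻¹' ((MeasurableEquiv.piFinSuccAbove (fun _ : Fin (n + 1) => Pt) 0).symm ⁻¹'
        (clusterSet c C r η)) = ∅ := by
        ext z
        simp [clusterSet, hy]
      rw [this, Set.indicator_of_notMem hy]
      simp
  simp only [h1]
  rw [lintegral_indicator hC, setLIntegral_const, mul_comm]

theorem volume_subcube {ℓ : ℝ} (hℓ : 0 ≤ ℓ) :
    MeasurableSet {y : Pt | ∀ k, ℓ / 4 ≤ y k ∧ y k ≤ 3 * ℓ / 4} ∧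
    volume {y : Pt | ∀ k, ℓ / 4 ≤ y k ∧ y k ≤ 3 * ℓ / 4} = ENNReal.ofReal ((ℓ / 2) ^ 3) := by
  have h : {y : Pt | ∀ k, ℓ / 4 ≤ y k ∧ y k ≤ 3 * ℓ / 4}
      = (fun y : Pt => y - (WithLp.toLp 2 (fun _ => ℓ / 4) : Pt)) ⁻¹' cube (ℓ / 2) := by
    ext y
    simp only [cube, Set.mem_preimage, Set.mem_ofPred_eq, PiLp.sub_apply]
    refine forall_congr' fun k => ?_
    constructor
    · rintro ⟨h1, h2⟩
      constructor <;> linarith
    · rintro ⟨h1, h2⟩
      constructor <;> linarith
  constructor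
  · rw [h]
    exact (measurable_id.sub_const _) (measurableSet_cube _)
  · rw [h, (measurePreserving_sub_right volume _).measure_preimage
      (measurableSet_cube _).nullMeasurableSet, volume_cube (by linarith)]

/-- `Z(cube ℓ; m) ≥ (1/m!) (ℓ/2)³ |B_{ξ r}|^(m-1)`: one particle in the central sub-cube, the other
ones within `ξ r` of their ideal position relative to it. -/
theorem Zf_cluster_ge {m : ℕ} (hm : 1 ≤ m) {sc sd : ℝ} (hsc : 0 < sc) (hsd : sd < 1)
    (c : Fin m → Pt) (hc : ∀ i j, i ≠ j → sc < dist (c i) (c j) ∧ dist (c i) (c j) < sd) :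
    ∃ ξ : ℝ, 0 < ξ ∧ ξ ≤ 1 ∧ ∀ (φ : ℝ → ℝ) (r ℓ : ℝ), Measurable φ → 0 < r → 8 * r ≤ ℓ →
      (∀ s, sc * r ≤ s → s ≤ sd * r → φ s = 0) →
      ENNReal.ofReal ((1 / (m.factorial : ℝ)) * (ℓ / 2) ^ 3 * (volB (ξ * r)) ^ (m - 1)) ≤
        Zf (rad φ) (cube ℓ) m := by
  obtain ⟨ξ, hξ0, hξ1, hξ⟩ := exists_room c hc
  refine ⟨ξ, hξ0, hξ1, ?_⟩
  intro φ r ℓ _ hr hℓ hφ
  obtain ⟨n, rfl⟩ : ∃ n, m = n + 1 := ⟨m - 1, by omega⟩
  have hℓ0 : 0 < ℓ := by linarith
  set C : Set Pt := {y : Pt | ∀ k, ℓ / 4 ≤ y k ∧ y k ≤ 3 * ℓ / 4} with hCdef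
  obtain ⟨hCm, hCv⟩ := volume_subcube hℓ0.le
  rw [← hCdef] at hCm hCv
  set A := clusterSet c C r (ξ * r) with hA
  have hAm : MeasurableSet A := measurableSet_clusterSet c hCm r (ξ * r)
  -- error representation
  have hdist : ∀ x ∈ A, ∀ i, dist (x i) (x 0 + r • (c i - c 0)) < ξ * r := by
    intro x hx i
    refine Fin.cases ?_ (fun j => ?_) i
    · simp only [sub_self, smul_zero, add_zero, dist_self]
      positivity
    · exact hx.2 j
  have hzero : ∀ x ∈ A, ∀ i j, i ≠ j → φ (dist (x i) (x j)) = 0 := by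
    intro x hx i j hij
    have hi := hdist x hx i
    have hj := hdist x hx j
    obtain ⟨h1, h2⟩ := hξ i j hij
    have h3 : dist (x 0 + r • (c i - c 0)) (x 0 + r • (c j - c 0)) = r * dist (c i) (c j) := by
      rw [dist_add_left, dist_smul₀, dist_sub_right, Real.norm_of_nonneg hr.le]
    have h4 : dist (x i) (x j) ≤ dist (x i) (x 0 + r • (c i - c 0)) +
        dist (x 0 + r • (c i - c 0)) (x 0 + r • (c j - c 0)) +
        dist (x 0 + r • (c j - c 0)) (x j) := dist_triangle4 _ _ _ _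
    have h5 : dist (x 0 + r • (c i - c 0)) (x 0 + r • (c j - c 0)) ≤
        dist (x 0 + r • (c i - c 0)) (x i) + dist (x i) (x j) +
        dist (x j) (x 0 + r • (c j - c 0)) := dist_triangle4 _ _ _ _
    rw [dist_comm (x 0 + r • (c j - c 0)) (x j)] at h4
    rw [dist_comm (x 0 + r • (c i - c 0)) (x i)] at h5
    rw [h3] at h4 h5
    apply hφ
    · have := mul_lt_mul_of_pos_left h1 hr
      nlinarith
    · have := mul_lt_mul_of_pos_left h2 hr
      nlinarith
  have hsub : A ⊆ Set.pi Set.univ (fun _ : Fin (n + 1) => cube ℓ) := by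
    intro x hx i _ k
    have h0 := hx.1 k
    have hi := hdist x hx i
    have h6 : |x i k - x 0 k| ≤ 2 * r := by
      have h7 : dist (x i) (x 0) ≤ 2 * r := by
        have h8 : dist (x i) (x 0) ≤ dist (x i) (x 0 + r • (c i - c 0)) +
          dist (x 0 + r • (c i - c 0)) (x 0) := dist_triangle _ _ _
        have h9 : dist (x 0 + r • (c i - c 0)) (x 0) = r * dist (c i) (c 0) := by
          rw [dist_self_add_left, norm_smul, Real.norm_of_nonneg hr.le, dist_eq_norm]
        have h10 : dist (c i) (c 0) ≤ 1 := by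
          by_cases h : i = 0
          · subst h; simp
          · exact ((hc i 0 h).2.trans hsd).le
        have h11 : r * dist (c i) (c 0) ≤ r * 1 := mul_le_mul_of_nonneg_left h10 hr.le
        have h12 : ξ * r ≤ 1 * r := mul_le_mul_of_nonneg_right hξ1 hr.le
        linarith
      have h8 : |x i k - x 0 k| ≤ dist (x i) (x 0) := by
        rw [dist_eq_norm, ← Real.norm_eq_abs, ← PiLp.sub_apply]
        exact PiLp.norm_apply_le _ _
      linarith
    have h9 := abs_le.1 h6
    constructor <;> linarith [h0.1, h0.2, h9.1, h9.2]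
  have henergy : ∀ x ∈ A, pairE (rad φ) x = 0 := by
    intro x hx
    rw [pairE_eq_erase]
    rw [Finset.sum_eq_zero, mul_zero]
    intro i _
    refine Finset.sum_eq_zero fun j hj => ?_
    exact hzero x hx i j (Finset.ne_of_mem_erase hj).symm
  have hvolB : volume (Metric.ball (0 : Pt) (ξ * r)) = ENNReal.ofReal (volB (ξ * r)) := by
    unfold volB
    rw [ENNReal.ofReal_toReal measure_ball_lt_top.ne]
  have hvol : volume A = ENNReal.ofReal ((ℓ / 2) ^ 3 * volB (ξ * r) ^ n) := by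
    have h0 : 0 ≤ volB (ξ * r) := ENNReal.toReal_nonneg
    rw [hA, volume_clusterSet c hCm, hCv, hvolB, ENNReal.ofReal_mul (by positivity),
      ENNReal.ofReal_pow h0]
  calc ENNReal.ofReal ((1 / ((n + 1).factorial : ℝ)) * (ℓ / 2) ^ 3 * (volB (ξ * r)) ^ (n + 1 - 1))
      = (((n + 1).factorial : ℕ) : ENNReal)⁻¹ * volume A := by
        rw [hvol, Nat.add_sub_cancel, mul_assoc, ENNReal.ofReal_mul (by positivity), one_div,
          ENNReal.ofReal_inv_of_pos (by positivity), ENNReal.ofReal_natCast]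
    _ = (((n + 1).factorial : ℕ) : ENNReal)⁻¹ * ∫⁻ x in A, 1 := by rw [setLIntegral_one]
    _ = (((n + 1).factorial : ℕ) : ENNReal)⁻¹ *
        ∫⁻ x in A, ENNReal.ofReal (Real.exp (-(pairE (rad φ) x))) := by
        congr 1
        refine setLIntegral_congr_fun hAm fun x hx => ?_
        simp [henergy x hx]
    _ ≤ Zf (rad φ) (cube ℓ) (n + 1) := by
        unfold Zf
        gcongr

end Crest.Agent.Gas
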