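import Crest.Agent.GasBasic

/-! Module C: the ball-overlap kernel `KK R r = |B_R ∩ (B_R + r e1)| / |B_R|²`.

Key identity: `|B|² ∑_{i,j} KK R (dist x_i x_j) = ∫ n(B(y))² dy`, `n(B(y)) = #{i | x_i ∈ ball y R}`.
`KK_pair_ge` is Cauchy-Schwarz for the integral over the `R`-neighbourhood of the cube (of volume
`≤ (L+2R)³`); `KK_pair_le` is Cauchy-Schwarz for `n(B(y)) ≤ ∑_{cells meeting B(y)} n_cell`. -/

set_option autoImplicit false

namespace Crest.Agent.Gas

open MeasureTheory Crest.ProbabilityR.Continuum

theorem norm_e1 : ‖e1‖ = 1 := by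
  simp [e1]

theorem volB_pos {R : ℝ} (hR : 0 < R) : 0 < volB R := by
  unfold volB
  exact ENNReal.toReal_pos (Metric.measure_ball_pos volume 0 hR).ne' measure_ball_lt_top.ne

theorem volB_eq {R : ℝ} (hR : 0 ≤ R) : volB R = volB 1 * R ^ 3 := by
  unfold volB
  rw [Measure.addHaar_ball volume (0 : Pt) hR, ENNReal.toReal_mul,
    ENNReal.toReal_ofReal (by positivity)]
  simp [mul_comm]

theorem vol_ball_toReal (x : Pt) (R : ℝ) : (volume (Metric.ball x R)).toReal = volB R := by
  unfold volB
  rw [Measure.addHaar_ball_center]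

theorem KK_nonneg (R r : ℝ) : 0 ≤ KK R r := by
  unfold KK
  positivity

theorem KK_zero {R : ℝ} (hR : 0 < R) : KK R 0 = 1 / volB R := by
  have h := volB_pos hR
  have : KK R 0 = volB R / (volB R) ^ 2 := by
    unfold KK
    rw [zero_smul, Set.inter_self]
    rfl
  rw [this]
  field_simp

theorem KK_le {R : ℝ} (hR : 0 < R) (r : ℝ) : KK R r ≤ 1 / volB R := by
  have h := volB_pos hR
  have h1 : (volume (Metric.ball (0 : Pt) R ∩ Metric.ball (r • e1) R)).toReal ≤ volB R := by
    unfold volB
    exact ENNReal.toReal_mono measure_ball_lt_top.ne (measure_mono Set.inter_subset_left)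
  have h2 : (1 : ℝ) / volB R = volB R / (volB R) ^ 2 := by field_simp
  rw [h2]
  unfold KK
  gcongr

theorem KK_eq_zero {R r : ℝ} (hR : 0 < R) (hr : 2 * R ≤ |r|) : KK R r = 0 := by
  have h : Disjoint (Metric.ball (0 : Pt) R) (Metric.ball (r • e1) R) := by
    apply Metric.ball_disjoint_ball
    rw [dist_zero_left, norm_smul, norm_e1, Real.norm_eq_abs]
    linarith
  unfold KK
  rw [h.inter_eq]
  simp

theorem KK_pos {R r : ℝ} (hR : 0 < R) (hr : |r| < 2 * R) : 0 < KK R r := by
  have h := volB_pos hR
  have h1 : 0 < (volume (Metric.ball (0 : Pt) R ∩ Metric.ball (r • e1) R)).toReal := by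
    apply ENNReal.toReal_pos
    · apply (IsOpen.measure_pos volume (Metric.isOpen_ball.inter Metric.isOpen_ball) _).ne'
      refine ⟨(r / 2) • e1, ?_, ?_⟩
      · rw [Metric.mem_ball, dist_zero_right, norm_smul, norm_e1, Real.norm_eq_abs, abs_div]
        norm_num
        linarith
      · rw [Metric.mem_ball, dist_eq_norm, ← sub_smul, norm_smul, norm_e1, Real.norm_eq_abs]
        have : r / 2 - r = -(r / 2) := by ring
        rw [this, abs_neg, abs_div]
        norm_num
        linarith
    · exact ((measure_mono Set.inter_subset_left).trans_lt measure_ball_lt_top).ne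
  unfold KK
  positivity

theorem KK_eq_integral (R r : ℝ) :
    KK R r = (∫ y : Pt, (Metric.ball (0 : Pt) R).indicator 1 y *
      (Metric.ball (0 : Pt) R).indicator (1 : Pt → ℝ) (y - r • e1)) / (volB R) ^ 2 := by
  unfold KK
  congr 1
  have : (fun y : Pt => (Metric.ball (0 : Pt) R).indicator 1 y *
      (Metric.ball (0 : Pt) R).indicator (1 : Pt → ℝ) (y - r • e1)) =
      (Metric.ball (0 : Pt) R ∩ Metric.ball (r • e1) R).indicator 1 := by
    ext y
    have hiff : y - r • e1 ∈ Metric.ball (0 : Pt) R ↔ y ∈ Metric.ball (r • e1) R := by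
      rw [Metric.mem_ball, dist_zero_right, ← dist_eq_norm, Metric.mem_ball]
    by_cases h1 : y ∈ Metric.ball (0 : Pt) R
    · by_cases h2 : y ∈ Metric.ball (r • e1) R
      · rw [Set.indicator_of_mem h1, Set.indicator_of_mem (hiff.2 h2),
          Set.indicator_of_mem (Set.mem_inter h1 h2)]
        simp
      · rw [Set.indicator_of_notMem (fun h => h2 (hiff.1 h)),
          Set.indicator_of_notMem (fun h => h2 (Set.mem_of_mem_inter_right h))]
        simp
    · rw [Set.indicator_of_notMem h1,
          Set.indicator_of_notMem (fun h => h1 (Set.mem_of_mem_inter_left h))]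
      simp
  rw [this, integral_indicator_one (measurableSet_ball.inter measurableSet_ball)]
  rfl

theorem continuous_KK {R : ℝ} (hR : 0 < R) : Continuous (KK R) := by
  have h0 : KK R = fun r => (∫ y : Pt, (Metric.ball (0 : Pt) R).indicator 1 y *
      (Metric.ball (0 : Pt) R).indicator (1 : Pt → ℝ) (y - r • e1)) / (volB R) ^ 2 := by
    ext r; exact KK_eq_integral R r
  rw [h0]
  apply Continuous.div_const
  rw [continuous_iff_continuousAt]
  intro r0
  apply continuousAt_of_dominated (bound := (Metric.ball (0 : Pt) R).indicator 1)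
  · refine Filter.Eventually.of_forall fun r => ?_
    apply Measurable.aestronglyMeasurable
    apply Measurable.mul
    · exact measurable_one.indicator measurableSet_ball
    · exact (measurable_one.indicator measurableSet_ball).comp (measurable_id.sub_const _)
  · refine Filter.Eventually.of_forall fun r => ?_
    refine Filter.Eventually.of_forall fun y => ?_
    rw [norm_mul]
    have h1 : ‖(Metric.ball (0 : Pt) R).indicator (1 : Pt → ℝ) (y - r • e1)‖ ≤ 1 := by
      refine (norm_indicator_le_norm_self _ _).trans ?_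
      simp
    have h2 : ‖(Metric.ball (0 : Pt) R).indicator (1 : Pt → ℝ) y‖ =
        (Metric.ball (0 : Pt) R).indicator (1 : Pt → ℝ) y := by
      rw [Real.norm_eq_abs, abs_of_nonneg]
      exact Set.indicator_nonneg (fun _ _ => zero_le_one) _
    rw [h2]
    have h3 : 0 ≤ (Metric.ball (0 : Pt) R).indicator (1 : Pt → ℝ) y :=
      Set.indicator_nonneg (fun _ _ => zero_le_one) _
    nlinarith
  · rw [integrable_indicator_iff measurableSet_ball]
    refine integrableOn_const ?_ ?_
    · exact measure_ball_lt_top.ne
    · simp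
  · have hs : volume (Metric.sphere (r0 • e1 : Pt) R) = 0 := Measure.addHaar_sphere _ _ _
    have hs' : ∀ᵐ y : Pt ∂volume, y ∉ Metric.sphere (r0 • e1 : Pt) R := by
      rw [ae_iff]
      simp only [not_not]
      exact hs
    filter_upwards [hs'] with y hy
    apply ContinuousAt.mul continuousAt_const
    have hc : ContinuousAt (fun r : ℝ => y - r • e1) r0 := by fun_prop
    have hg : ContinuousAt ((Metric.ball (0 : Pt) R).indicator (1 : Pt → ℝ)) (y - r0 • e1) := by
      rw [Metric.mem_sphere, dist_eq_norm] at hy
      rcases lt_or_gt_of_ne hy with h | h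
      · have : y - r0 • e1 ∈ Metric.ball (0 : Pt) R := by
          rw [Metric.mem_ball, dist_zero_right]; exact h
        have hn := Metric.isOpen_ball.mem_nhds this
        have he : (Metric.ball (0 : Pt) R).indicator (1 : Pt → ℝ) =ᶠ[nhds (y - r0 • e1)] fun _ => 1 := by
          filter_upwards [hn] with z hz
          rw [Set.indicator_of_mem hz]; rfl
        exact (continuousAt_const).congr he.symm
      · have : y - r0 • e1 ∈ (Metric.closedBall (0 : Pt) R)ᶜ := by
          rw [Set.mem_compl_iff, Metric.mem_closedBall, dist_zero_right]; exact not_le.mpr h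
        have hn := Metric.isClosed_closedBall.isOpen_compl.mem_nhds this
        have he : (Metric.ball (0 : Pt) R).indicator (1 : Pt → ℝ) =ᶠ[nhds (y - r0 • e1)] fun _ => 0 := by
          filter_upwards [hn] with z hz
          rw [Set.indicator_of_notMem]
          intro hz'
          exact hz (Metric.ball_subset_closedBall hz')
        exact (continuousAt_const).congr he.symm
    exact ContinuousAt.comp (f := fun r : ℝ => y - r • e1) hg hc

theorem KK_antitone {R : ℝ} (hR : 0 < R) {r s : ℝ} (hr : 0 ≤ r) (hrs : r ≤ s) :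
    KK R s ≤ KK R r := by
  rcases eq_or_lt_of_le (hr.trans hrs) with hs0 | hs0
  · have : r = s := le_antisymm hrs (by linarith)
    rw [this]
  have key : volume (Metric.ball (0 : Pt) R ∩ Metric.ball (s • e1) R) ≤
      volume (Metric.ball (0 : Pt) R ∩ Metric.ball (r • e1) R) := by
    set t : ℝ := (s - r) / 2 with ht
    have hpre : (Metric.ball (0 : Pt) R ∩ Metric.ball (s • e1) R) ⊆
        (fun y : Pt => y + (-t) • e1) ⁻¹' (Metric.ball (0 : Pt) R ∩ Metric.ball (r • e1) R) := by
      intro y hy
      have hy1 : ‖y‖ < R := by simpa using hy.1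
      have hy2 : ‖y - s • e1‖ < R := by rw [← dist_eq_norm]; exact hy.2
      have conv : ∀ c : ℝ, 0 ≤ c → c ≤ s → ‖y - c • e1‖ < R := by
        intro c hc0 hcs
        have hl : y - c • e1 = (1 - c / s) • y + (c / s) • (y - s • e1) := by
          rw [smul_sub, smul_smul, sub_smul, one_smul]
          have : c / s * s = c := by field_simp
          rw [this]
          abel
        have hcs0 : 0 ≤ c / s := by positivity
        have hcs1 : c / s ≤ 1 := by rw [div_le_one hs0]; exact hcs
        have hb : Convex ℝ (Metric.ball (0 : Pt) R) := convex_ball _ _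
        have := hb (x := y) (by simpa using hy1) (y := y - s • e1)
          (by rw [Metric.mem_ball, dist_zero_right]; exact hy2)
          (a := 1 - c / s) (b := c / s) (by linarith) hcs0 (by ring)
        rw [← hl, Metric.mem_ball, dist_zero_right] at this
        exact this
      constructor
      · rw [Metric.mem_ball, dist_zero_right]
        have : y + (-t) • e1 = y - t • e1 := by rw [neg_smul]; abel
        show ‖y + (-t) • e1‖ < R
        rw [this]
        exact conv t (by rw [ht]; linarith) (by rw [ht]; linarith)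
      · rw [Metric.mem_ball, dist_eq_norm]
        have : y + (-t) • e1 - r • e1 = y - (t + r) • e1 := by
          rw [neg_smul, add_smul]; abel
        rw [this]
        exact conv (t + r) (by rw [ht]; linarith) (by rw [ht]; linarith)
    refine (measure_mono hpre).trans ?_
    rw [measure_preimage_add_right]
  unfold KK
  have h := volB_pos hR
  have : (volume (Metric.ball (0 : Pt) R ∩ Metric.ball (s • e1) R)).toReal ≤
      (volume (Metric.ball (0 : Pt) R ∩ Metric.ball (r • e1) R)).toReal := by
    apply ENNReal.toReal_mono _ key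
    exact ((measure_mono Set.inter_subset_left).trans_lt measure_ball_lt_top).ne
  gcongr

theorem KK_dist {R : ℝ} (hR : 0 < R) (x y : Pt) :
    KK R (dist x y) = (volume (Metric.ball x R ∩ Metric.ball y R)).toReal / (volB R) ^ 2 := by
  unfold KK
  congr 2
  -- translate
  have h1 : volume (Metric.ball x R ∩ Metric.ball y R) =
      volume (Metric.ball (0 : Pt) R ∩ Metric.ball (y - x) R) := by
    have : (fun z : Pt => z + x) ⁻¹' (Metric.ball x R ∩ Metric.ball y R) =
        Metric.ball (0 : Pt) R ∩ Metric.ball (y - x) R := by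
      ext z
      simp only [Set.mem_preimage, Set.mem_inter_iff, Metric.mem_ball, dist_eq_norm]
      have e1' : z + x - x = z - 0 := by abel
      have e2' : z + x - y = z - (y - x) := by abel
      rw [e1', e2']
    rw [← this, measure_preimage_add_right]
  rw [h1]
  have hn : ‖(dist x y) • e1‖ = ‖y - x‖ := by
    rw [norm_smul, norm_e1, mul_one, Real.norm_eq_abs, abs_of_nonneg dist_nonneg, dist_comm,
      dist_eq_norm]
  set T : Pt ≃ₗᵢ[ℝ] Pt := Submodule.reflection (Submodule.span ℝ {(dist x y) • e1 - (y - x)})ᗮ with hT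
  have hTv : T ((dist x y) • e1) = y - x := Submodule.reflection_sub hn
  have h2 : T ⁻¹' (Metric.ball (0 : Pt) R ∩ Metric.ball (y - x) R) =
      Metric.ball (0 : Pt) R ∩ Metric.ball ((dist x y) • e1) R := by
    ext z
    simp only [Set.mem_preimage, Set.mem_inter_iff, Metric.mem_ball]
    rw [← hTv, T.dist_map]
    have : dist (T z) 0 = dist z 0 := by
      rw [dist_zero_right, dist_zero_right, T.norm_map]
    rw [this]
  rw [← h2]
  exact (T.measurePreserving.measure_preimage
    (measurableSet_ball.inter measurableSet_ball).nullMeasurableSet)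

theorem volume_boxIcc (a c : ℝ) (h : a ≤ c) :
    volume {y : Pt | ∀ k : Fin 3, a ≤ y k ∧ y k ≤ c} = ENNReal.ofReal ((c - a) ^ 3) := by
  have h1 : {y : Pt | ∀ k : Fin 3, a ≤ y k ∧ y k ≤ c} =
      (WithLp.ofLp : Pt → (Fin 3 → ℝ)) ⁻¹' (Set.pi Set.univ fun _ => Set.Icc a c) := by
    ext y
    simp only [Set.mem_ofPred_eq, Set.mem_preimage, Set.mem_pi, Set.mem_univ, forall_true_left,
      Set.mem_Icc]
  rw [h1, (PiLp.volume_preserving_ofLp (Fin 3)).measure_preimage
    (MeasurableSet.univ_pi fun _ => measurableSet_Icc).nullMeasurableSet, volume_pi_pi]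
  simp only [Real.volume_Icc, Finset.prod_const, Finset.card_univ, Fintype.card_fin]
  rw [ENNReal.ofReal_pow (by linarith)]

theorem volume_boxIco (a : Fin 3 → ℝ) (b : ℝ) (hb : 0 ≤ b) :
    volume {y : Pt | ∀ k : Fin 3, a k ≤ y k ∧ y k < a k + b} = ENNReal.ofReal (b ^ 3) := by
  have h1 : {y : Pt | ∀ k : Fin 3, a k ≤ y k ∧ y k < a k + b} =
      (WithLp.ofLp : Pt → (Fin 3 → ℝ)) ⁻¹' (Set.pi Set.univ fun k => Set.Ico (a k) (a k + b)) := by
    ext y
    simp [Set.mem_pi]
  rw [h1, (PiLp.volume_preserving_ofLp (Fin 3)).measure_preimage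
    (MeasurableSet.univ_pi fun _ => measurableSet_Ico).nullMeasurableSet, volume_pi_pi]
  simp only [Real.volume_Ico, add_sub_cancel_left, Finset.prod_const, Finset.card_univ,
    Fintype.card_fin]
  rw [ENNReal.ofReal_pow hb]

/-- indicator of the intersection of two balls -/
noncomputable def GG (R : ℝ) {ι : Type} (x : ι → Pt) (i j : ι) (y : Pt) : ℝ :=
  (Metric.ball (x i) R ∩ Metric.ball (x j) R).indicator 1 y

theorem integrable_GG (R : ℝ) {ι : Type} (x : ι → Pt) (i j : ι) :
    Integrable (GG R x i j) := by
  unfold GG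
  refine (integrable_indicator_iff (measurableSet_ball.inter measurableSet_ball)).2 ?_
  refine integrableOn_const ?_ ?_
  · exact ((measure_mono Set.inter_subset_left).trans_lt measure_ball_lt_top).ne
  · simp

theorem integral_GG (R : ℝ) {ι : Type} (x : ι → Pt) (i j : ι) :
    ∫ y, GG R x i j y = (volume (Metric.ball (x i) R ∩ Metric.ball (x j) R)).toReal := by
  unfold GG
  exact integral_indicator_one (measurableSet_ball.inter measurableSet_ball)

theorem integral_GG_self (R : ℝ) {ι : Type} (x : ι → Pt) (i : ι) :
    ∫ y, GG R x i i y = volB R := by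
  rw [integral_GG, Set.inter_self, vol_ball_toReal]

theorem GG_eq_mul (R : ℝ) {ι : Type} (x : ι → Pt) (i j : ι) (y : Pt) :
    GG R x i j y = GG R x i i y * GG R x j j y := by
  unfold GG
  rw [Set.inter_self, Set.inter_self, Set.inter_indicator_one]
  rfl

theorem sum_GG (R : ℝ) {ι : Type} [Fintype ι] (x : ι → Pt) (y : Pt) :
    ∑ i, ∑ j, GG R x i j y = (∑ i, GG R x i i y) ^ 2 := by
  rw [sq, Finset.sum_mul_sum]
  exact Finset.sum_congr rfl fun i _ => Finset.sum_congr rfl fun j _ => GG_eq_mul R x i j y

/-- Positive definiteness bound (valid for every configuration in the cube). -/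
theorem KK_pair_ge {R L : ℝ} (hR : 0 < R) (hL : 0 ≤ L) {N : ℕ} (x : Fin N → Pt)
    (hx : ∀ i, x i ∈ cube L) :
    (N : ℝ) ^ 2 / (L + 2 * R) ^ 3 ≤ ∑ i, ∑ j, KK R (dist (x i) (x j)) := by
  have hB := volB_pos hR
  set A : Set Pt := {y : Pt | ∀ k : Fin 3, -R ≤ y k ∧ y k ≤ L + R} with hA
  have hAm : MeasurableSet A := by
    have : A = ⋂ k : Fin 3, {y : Pt | -R ≤ y k ∧ y k ≤ L + R} := by
      ext y; simp [hA]
    rw [this]
    refine MeasurableSet.iInter fun k => ?_
    have hk : Measurable fun y : Pt => y k := by fun_prop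
    exact (measurableSet_le measurable_const hk).inter (measurableSet_le hk measurable_const)
  have hAv : volume A = ENNReal.ofReal ((L + 2 * R) ^ 3) := by
    rw [hA, volume_boxIcc (-R) (L + R) (by linarith)]
    congr 1; ring
  set t : ℝ := N * volB R / (L + 2 * R) ^ 3 with ht
  have hLR : 0 < (L + 2 * R) ^ 3 := by positivity
  have hpt : ∀ y : Pt, 2 * t * (∑ i, GG R x i i y) - t ^ 2 * A.indicator 1 y ≤
      ∑ i, ∑ j, GG R x i j y := by
    intro y
    rw [sum_GG]
    by_cases hy : y ∈ A
    · rw [Set.indicator_of_mem hy]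
      simp only [Pi.one_apply]
      nlinarith [sq_nonneg ((∑ i, GG R x i i y) - t)]
    · rw [Set.indicator_of_notMem hy]
      have : ∑ i, GG R x i i y = 0 := by
        refine Finset.sum_eq_zero fun i _ => ?_
        unfold GG
        rw [Set.inter_self]
        apply Set.indicator_of_notMem
        intro hyi
        apply hy
        intro k
        have h1 : |y k - x i k| < R := by
          have h2 : ‖(y - x i) k‖ ≤ ‖y - x i‖ := PiLp.norm_apply_le _ _
          rw [Metric.mem_ball, dist_eq_norm] at hyi
          have h3 : (y - x i) k = y k - x i k := rfl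
          rw [h3, Real.norm_eq_abs] at h2
          linarith
        have h4 := hx i k
        rw [abs_lt] at h1
        constructor <;> linarith
      rw [this]
      simp
  have hint := integral_mono (μ := volume) (f := fun y => 2 * t * (∑ i, GG R x i i y) - t ^ 2 * A.indicator 1 y)
    (g := fun y => ∑ i, ∑ j, GG R x i j y) ?_ ?_ hpt
  · have hl : ∫ y : Pt, (2 * t * (∑ i, GG R x i i y) - t ^ 2 * A.indicator 1 y) =
        2 * t * (N * volB R) - t ^ 2 * (L + 2 * R) ^ 3 := by
      rw [integral_sub, integral_const_mul, integral_const_mul,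
        integral_finsetSum _ (fun i _ => integrable_GG R x i i)]
      · simp only [integral_GG_self, Finset.sum_const, Finset.card_univ, Fintype.card_fin,
          nsmul_eq_mul]
        rw [integral_indicator_one hAm, Measure.real, hAv, ENNReal.toReal_ofReal hLR.le]
      · exact (integrable_finsetSum _ fun i _ => integrable_GG R x i i).const_mul _
      · apply Integrable.const_mul
        refine (integrable_indicator_iff hAm).2 ?_
        refine integrableOn_const ?_ ?_
        · rw [hAv]; exact ENNReal.ofReal_ne_top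
        · simp
    have hr : ∫ y : Pt, (∑ i, ∑ j, GG R x i j y) =
        (volB R) ^ 2 * ∑ i, ∑ j, KK R (dist (x i) (x j)) := by
      rw [integral_finsetSum _ (fun i _ => integrable_finsetSum _ fun j _ => integrable_GG R x i j),
        Finset.mul_sum]
      refine Finset.sum_congr rfl fun i _ => ?_
      rw [integral_finsetSum _ (fun j _ => integrable_GG R x i j), Finset.mul_sum]
      refine Finset.sum_congr rfl fun j _ => ?_
      rw [integral_GG, KK_dist hR]
      field_simp
    rw [hl, hr] at hint
    have h5 : 2 * t * (N * volB R) - t ^ 2 * (L + 2 * R) ^ 3 =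
        (volB R) ^ 2 * ((N : ℝ) ^ 2 / (L + 2 * R) ^ 3) := by
      rw [ht]; field_simp; ring
    rw [h5] at hint
    exact le_of_mul_le_mul_left hint (by positivity)
  · apply Integrable.sub
    · exact (integrable_finsetSum _ fun i _ => integrable_GG R x i i).const_mul _
    · apply Integrable.const_mul
      refine (integrable_indicator_iff hAm).2 ?_
      refine integrableOn_const ?_ ?_
      · rw [hAv]; exact ENNReal.ofReal_ne_top
      · simp
  · exact integrable_finsetSum _ fun i _ => integrable_finsetSum _ fun j _ => integrable_GG R x i j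

theorem volume_cell (b : ℝ) (hb : 0 < b) (τ : Fin 3 → ℝ) (k : Fin 3 → ℤ) :
    volume {y : Pt | cellIdx b τ y = k} = ENNReal.ofReal (b ^ 3) := by
  rw [← volume_boxIco (fun i => τ i + b * k i) b hb.le]
  congr 1
  ext y
  simp only [Set.mem_ofPred_eq, cellIdx, funext_iff]
  refine forall_congr' fun i => ?_
  rw [Int.floor_eq_iff, le_div_iff₀ hb, div_lt_iff₀ hb]
  constructor <;> rintro ⟨h1, h2⟩ <;> constructor <;> nlinarith

theorem measurableSet_cell (b : ℝ) (τ : Fin 3 → ℝ) (k : Fin 3 → ℤ) :
    MeasurableSet {y : Pt | cellIdx b τ y = k} := by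
  have : {y : Pt | cellIdx b τ y = k} = ⋂ i : Fin 3, {y : Pt | ⌊(y i - τ i) / b⌋ = k i} := by
    ext y; simp [cellIdx, funext_iff]
  rw [this]
  refine MeasurableSet.iInter fun i => ?_
  have hk : Measurable fun y : Pt => ⌊(y i - τ i) / b⌋ := by
    apply Int.measurable_floor.comp
    fun_prop
  exact hk (measurableSet_singleton (k i))

theorem dist_lt_of_cellIdx_eq {b : ℝ} (hb : 0 < b) (τ : Fin 3 → ℝ) {y z : Pt}
    (h : cellIdx b τ y = cellIdx b τ z) : dist y z < 2 * b := by
  have hk : ∀ i : Fin 3, |y i - z i| ≤ b := by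
    intro i
    have h1 : ⌊(y i - τ i) / b⌋ = ⌊(z i - τ i) / b⌋ := congr_fun h i
    have h2 := Int.abs_sub_lt_one_of_floor_eq_floor h1
    rw [← sub_div, abs_div, abs_of_pos hb, div_lt_one hb] at h2
    have h3 : y i - τ i - (z i - τ i) = y i - z i := by ring
    rw [h3] at h2
    exact h2.le
  rw [EuclideanSpace.dist_eq, Fin.sum_univ_three]
  have h2b : (2 * b) = Real.sqrt ((2 * b) ^ 2) := by rw [Real.sqrt_sq (by linarith)]
  rw [h2b]
  apply Real.sqrt_lt_sqrt (by positivity)
  have hd : ∀ i : Fin 3, dist (y i) (z i) ^ 2 ≤ b ^ 2 := by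
    intro i
    rw [Real.dist_eq]
    exact pow_le_pow_left₀ (abs_nonneg _) (hk i) 2
  have := hd 0
  have := hd 1
  have := hd 2
  nlinarith [sq_pos_of_pos hb]

/-- Cell bound: `∑_{i,j} KK R ≤ (1 + 2 b / R)^6 b⁻³ #{(i,j) in the same cell of side b}`. -/
theorem KK_pair_le {R b : ℝ} (hR : 0 < R) (hb : 0 < b) (τ : Fin 3 → ℝ) {N : ℕ} (x : Fin N → Pt) :
    ∑ i, ∑ j, KK R (dist (x i) (x j)) ≤ (1 + 2 * b / R) ^ 6 / b ^ 3 * Qc b τ x := by
  classical
  have hB := volB_pos hR
  set M : ℝ := volB (R + 2 * b) / b ^ 3 with hM
  have hpt : ∀ y : Pt, ∑ i, ∑ j, GG R x i j y ≤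
      M * ∑ i, ∑ j, (if cellIdx b τ (x i) = cellIdx b τ (x j) then (1 : ℝ) else 0) * GG R x i j y := by
    intro y
    rw [sum_GG]
    set I : Finset (Fin N) := Finset.univ.filter (fun i => y ∈ Metric.ball (x i) R) with hI
    have hG : ∀ i, GG R x i i y = if i ∈ I then 1 else 0 := by
      intro i
      unfold GG
      rw [Set.inter_self]
      simp [Set.indicator_apply, hI]
    set c : Fin N → (Fin 3 → ℤ) := fun i => cellIdx b τ (x i) with hc
    have hsum1 : ∑ i, GG R x i i y = (I.card : ℝ) := by
      simp [hG]
    have hsum2 : ∑ i, ∑ j, (if cellIdx b τ (x i) = cellIdx b τ (x j) then (1 : ℝ) else 0) *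
        GG R x i j y = ∑ k ∈ I.image c, ((I.filter (fun i => c i = k)).card : ℝ) ^ 2 := by
      have h1 : ∀ k ∈ I.image c, ((I.filter (fun i => c i = k)).card : ℝ) ^ 2 =
          ∑ i ∈ I, ∑ j ∈ I, if c i = k ∧ c j = k then (1 : ℝ) else 0 := by
        intro k _
        have : ((I.filter (fun i => c i = k)).card : ℝ) = ∑ i ∈ I, if c i = k then (1 : ℝ) else 0 := by
          simp
        rw [this, sq, Finset.sum_mul_sum]
        refine Finset.sum_congr rfl fun i _ => Finset.sum_congr rfl fun j _ => ?_
        by_cases h1 : c i = k <;> by_cases h2 : c j = k <;> simp [h1, h2]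
      rw [Finset.sum_congr rfl h1, Finset.sum_comm (s := I.image c) (t := I)]
      have h2 : ∀ i ∈ I, ∑ k ∈ I.image c, ∑ j ∈ I, (if c i = k ∧ c j = k then (1 : ℝ) else 0) =
          ∑ j ∈ I, if c i = c j then (1 : ℝ) else 0 := by
        intro i hi
        rw [Finset.sum_comm]
        refine Finset.sum_congr rfl fun j hj => ?_
        rw [Finset.sum_eq_single (c i)]
        · by_cases h : c i = c j
          · simp [h]
          · have h' : ¬ (c j = c i) := fun h'' => h h''.symm
            simp [h, h']
        · intro k _ hk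
          rw [if_neg]
          rintro ⟨h, _⟩
          exact hk h.symm
        · intro h
          exact absurd (Finset.mem_image_of_mem c hi) h
      rw [Finset.sum_congr rfl h2]
      rw [← Finset.sum_filter_add_sum_filter_not Finset.univ (fun i => i ∈ I)]
      have h3 : ∑ i ∈ Finset.univ.filter (fun i => ¬ i ∈ I), ∑ j,
          (if cellIdx b τ (x i) = cellIdx b τ (x j) then (1 : ℝ) else 0) * GG R x i j y = 0 := by
        refine Finset.sum_eq_zero fun i hi => Finset.sum_eq_zero fun j _ => ?_
        rw [Finset.mem_filter] at hi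
        rw [GG_eq_mul, hG i, if_neg hi.2]
        simp
      rw [h3, add_zero]
      have h4 : Finset.univ.filter (fun i => i ∈ I) = I := by
        ext i; simp
      rw [h4]
      refine Finset.sum_congr rfl fun i hi => ?_
      rw [← Finset.sum_filter_add_sum_filter_not Finset.univ (fun i => i ∈ I), h4]
      have h5 : ∑ j ∈ Finset.univ.filter (fun i => ¬ i ∈ I),
          (if cellIdx b τ (x i) = cellIdx b τ (x j) then (1 : ℝ) else 0) * GG R x i j y = 0 := by
        refine Finset.sum_eq_zero fun j hj => ?_
        rw [Finset.mem_filter] at hj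
        rw [GG_eq_mul, hG j, if_neg hj.2]
        simp
      rw [h5, add_zero]
      refine Finset.sum_congr rfl fun j hj => ?_
      rw [GG_eq_mul, hG i, hG j, if_pos hi, if_pos hj]
      simp [hc]
    rw [hsum1, hsum2]
    have hcard : (I.card : ℝ) = ∑ k ∈ I.image c, ((I.filter (fun i => c i = k)).card : ℝ) := by
      have := Finset.card_eq_sum_card_image c I
      exact_mod_cast this
    rw [hcard]
    refine (sq_sum_le_card_mul_sum_sq).trans ?_
    apply mul_le_mul_of_nonneg_right _ (Finset.sum_nonneg fun _ _ => by positivity)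
    -- number of cells
    have hdisj : Set.PairwiseDisjoint (↑(I.image c)) (fun k => {z : Pt | cellIdx b τ z = k}) := by
      intro k _ l _ hkl
      rw [Function.onFun, Set.disjoint_left]
      intro z hz hz'
      exact hkl (hz.symm.trans hz')
    have hvol := measure_biUnion_finset (μ := (volume : Measure Pt)) hdisj
      (fun k _ => measurableSet_cell b τ k)
    have hsub : (⋃ k ∈ I.image c, {z : Pt | cellIdx b τ z = k}) ⊆ Metric.ball y (R + 2 * b) := by
      intro z hz
      simp only [Set.mem_iUnion, Set.mem_ofPred_eq, Finset.mem_image, exists_prop] at hz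
      obtain ⟨k, ⟨i, hi, hik⟩, hz⟩ := hz
      have h1 : cellIdx b τ z = cellIdx b τ (x i) := by rw [hz, ← hik]
      have h2 := dist_lt_of_cellIdx_eq hb τ h1
      rw [hI, Finset.mem_filter, Metric.mem_ball] at hi
      rw [Metric.mem_ball]
      calc dist z y ≤ dist z (x i) + dist (x i) y := dist_triangle _ _ _
        _ < R + 2 * b := by rw [dist_comm (x i) y]; linarith [hi.2]
    have hle := measure_mono (μ := (volume : Measure Pt)) hsub
    rw [hvol] at hle
    simp only [volume_cell b hb τ, Finset.sum_const, nsmul_eq_mul] at hle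
    have hle' := ENNReal.toReal_mono measure_ball_lt_top.ne hle
    rw [ENNReal.toReal_mul, ENNReal.toReal_natCast, ENNReal.toReal_ofReal (by positivity),
      vol_ball_toReal] at hle'
    rw [hM, le_div_iff₀ (by positivity)]
    exact hle'
  have hint := integral_mono (μ := volume) (f := fun y => ∑ i, ∑ j, GG R x i j y)
    (g := fun y => M * ∑ i, ∑ j,
      (if cellIdx b τ (x i) = cellIdx b τ (x j) then (1 : ℝ) else 0) * GG R x i j y) ?_ ?_ hpt
  · have hl : ∫ y : Pt, (∑ i, ∑ j, GG R x i j y) =
        (volB R) ^ 2 * ∑ i, ∑ j, KK R (dist (x i) (x j)) := by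
      rw [integral_finsetSum _ (fun i _ => integrable_finsetSum _ fun j _ => integrable_GG R x i j),
        Finset.mul_sum]
      refine Finset.sum_congr rfl fun i _ => ?_
      rw [integral_finsetSum _ (fun j _ => integrable_GG R x i j), Finset.mul_sum]
      refine Finset.sum_congr rfl fun j _ => ?_
      rw [integral_GG, KK_dist hR]
      field_simp
    have hr : ∫ y : Pt, (M * ∑ i, ∑ j,
        (if cellIdx b τ (x i) = cellIdx b τ (x j) then (1 : ℝ) else 0) * GG R x i j y) =
        M * ∑ i, ∑ j, (if cellIdx b τ (x i) = cellIdx b τ (x j) then (1 : ℝ) else 0) *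
          (volume (Metric.ball (x i) R ∩ Metric.ball (x j) R)).toReal := by
      rw [integral_const_mul, integral_finsetSum _
        (fun i _ => integrable_finsetSum _ fun j _ => (integrable_GG R x i j).const_mul _)]
      congr 1
      refine Finset.sum_congr rfl fun i _ => ?_
      rw [integral_finsetSum _ (fun j _ => (integrable_GG R x i j).const_mul _)]
      refine Finset.sum_congr rfl fun j _ => ?_
      rw [integral_const_mul, integral_GG]
    rw [hl, hr] at hint
    have hM0 : 0 ≤ M := by
      rw [hM]
      have := volB_pos (show 0 < R + 2 * b by positivity)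
      positivity
    have h1 : ∑ i, ∑ j, (if cellIdx b τ (x i) = cellIdx b τ (x j) then (1 : ℝ) else 0) *
          (volume (Metric.ball (x i) R ∩ Metric.ball (x j) R)).toReal ≤ Qc b τ x * volB R := by
      unfold Qc
      rw [Finset.sum_mul]
      refine Finset.sum_le_sum fun i _ => ?_
      rw [Finset.sum_mul]
      refine Finset.sum_le_sum fun j _ => ?_
      have : (volume (Metric.ball (x i) R ∩ Metric.ball (x j) R)).toReal ≤ volB R := by
        rw [← vol_ball_toReal (x i) R]
        exact ENNReal.toReal_mono measure_ball_lt_top.ne (measure_mono Set.inter_subset_left)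
      by_cases h : cellIdx b τ (x i) = cellIdx b τ (x j)
      · simp [h, this]
      · simp [h]
    have hQ : 0 ≤ Qc b τ x := by
      unfold Qc
      refine Finset.sum_nonneg fun i _ => Finset.sum_nonneg fun j _ => ?_
      split_ifs <;> norm_num
    have h2 : (volB R) ^ 2 * ∑ i, ∑ j, KK R (dist (x i) (x j)) ≤ M * (Qc b τ x * volB R) :=
      hint.trans (mul_le_mul_of_nonneg_left h1 hM0)
    have h3 : M * (Qc b τ x * volB R) =
        (volB R) ^ 2 * ((1 + 2 * b / R) ^ 3 / b ^ 3 * Qc b τ x) := by
      rw [hM, volB_eq (show 0 ≤ R + 2 * b by positivity), volB_eq hR.le]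
      field_simp
    rw [h3] at h2
    have h4 := le_of_mul_le_mul_left h2 (by positivity)
    refine h4.trans ?_
    apply mul_le_mul_of_nonneg_right _ hQ
    apply div_le_div_of_nonneg_right _ (by positivity)
    exact pow_le_pow_right₀ (by have : 0 ≤ 2 * b / R := by positivity
                                linarith) (by norm_num)
  · exact integrable_finsetSum _ fun i _ => integrable_finsetSum _ fun j _ => integrable_GG R x i j
  · apply Integrable.const_mul
    exact integrable_finsetSum _ fun i _ => integrable_finsetSum _ fun j _ =>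
      (integrable_GG R x i j).const_mul _

end Crest.Agent.Gas
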