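import Crest.Agent.GasDefs

/-! Module H (GasPacking): packing numbers of the cube. -/

set_option autoImplicit false

namespace Crest.Agent.Gas

open MeasureTheory Crest.ProbabilityR.Continuum Filter

theorem abs_coord_le_dist (x y : Pt) (k : Fin 3) : |x k - y k| ≤ dist x y := by
  rw [dist_eq_norm]
  have := PiLp.norm_apply_le (x - y) k
  simpa using this

theorem dist_lt_one_of_coord {x y : Pt} (h : ∀ k : Fin 3, |x k - y k| < 1 / 2) :
    dist x y < 1 := by
  rw [EuclideanSpace.dist_eq, Fin.sum_univ_three]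
  have h0 := h 0
  have h1 := h 1
  have h2 := h 2
  have e0 : dist (x 0) (y 0) = |x 0 - y 0| := Real.dist_eq _ _
  have e1 : dist (x 1) (y 1) = |x 1 - y 1| := Real.dist_eq _ _
  have e2 : dist (x 2) (y 2) = |x 2 - y 2| := Real.dist_eq _ _
  rw [e0, e1, e2]
  rw [Real.sqrt_lt' one_pos]
  have a0 := abs_nonneg (x 0 - y 0)
  have a1 := abs_nonneg (x 1 - y 1)
  have a2 := abs_nonneg (x 2 - y 2)
  nlinarith

theorem card_le_cells {L : ℝ} (X : Finset Pt) (h₁ : ∀ x ∈ X, x ∈ cube L)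
    (h₂ : ∀ x ∈ X, ∀ y ∈ X, x ≠ y → 1 ≤ dist x y) : X.card ≤ (⌊2 * L⌋₊ + 1) ^ 3 := by
  classical
  have key : X.card ≤ (Finset.univ : Finset (Fin 3 → Fin (⌊2 * L⌋₊ + 1))).card := by
    apply Finset.card_le_card_of_injOn
      (fun x k => (⟨min ⌊2 * x k⌋₊ ⌊2 * L⌋₊, by omega⟩ : Fin (⌊2 * L⌋₊ + 1)))
    · intro x _
      simp
    · intro x hx y hy hxy
      by_contra hne
      have hd := h₂ x hx y hy hne
      have : dist x y < 1 := by
        apply dist_lt_one_of_coord
        intro k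
        have hk := congrFun hxy k
        simp only [Fin.mk.injEq] at hk
        have hx1 := (h₁ x hx k)
        have hy1 := (h₁ y hy k)
        have fx : ⌊2 * x k⌋₊ ≤ ⌊2 * L⌋₊ := Nat.floor_le_floor (by linarith)
        have fy : ⌊2 * y k⌋₊ ≤ ⌊2 * L⌋₊ := Nat.floor_le_floor (by linarith)
        rw [min_eq_left fx, min_eq_left fy] at hk
        have ax := Nat.floor_le (show (0:ℝ) ≤ 2 * x k by linarith)
        have ay := Nat.floor_le (show (0:ℝ) ≤ 2 * y k by linarith)
        have bx := Nat.lt_floor_add_one (2 * x k)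
        have bY := Nat.lt_floor_add_one (2 * y k)
        rw [hk] at ax bx
        rw [abs_lt]
        constructor <;> linarith
      linarith
  have hc : (Finset.univ : Finset (Fin 3 → Fin (⌊2 * L⌋₊ + 1))).card = (⌊2 * L⌋₊ + 1) ^ 3 := by
    simp
  rwa [hc] at key

theorem packingSet_bddAbove (L : ℝ) : BddAbove (packingSet L) := by
  rcases lt_or_ge L 0 with hL | hL
  · refine ⟨0, ?_⟩
    rintro n ⟨X, rfl, h₁, -⟩
    have : X = ∅ := by
      apply Finset.eq_empty_of_forall_notMem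
      intro x hx
      have := h₁ x hx 0
      linarith [this.1, this.2]
    simp [this]
  · refine ⟨(⌊2 * L⌋₊ + 1) ^ 3, ?_⟩
    rintro n ⟨X, rfl, h₁, h₂⟩
    exact card_le_cells X h₁ h₂

/-- The packing number is attained. -/
theorem exists_packing (L : ℝ) :
    ∃ X : Finset Pt, X.card = packingNumber L ∧ (∀ x ∈ X, x ∈ cube L) ∧
      ∀ x ∈ X, ∀ y ∈ X, x ≠ y → 1 ≤ dist x y := by
  have hne : (packingSet L).Nonempty := ⟨0, ∅, by simp, by simp, by simp⟩
  exact Nat.sSup_mem hne (packingSet_bddAbove L)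

theorem card_le_packingNumber {L : ℝ} (X : Finset Pt) (h₁ : ∀ x ∈ X, x ∈ cube L)
    (h₂ : ∀ x ∈ X, ∀ y ∈ X, x ≠ y → 1 ≤ dist x y) : X.card ≤ packingNumber L :=
  le_csSup (packingSet_bddAbove L) ⟨X, rfl, h₁, h₂⟩

theorem packingNumber_le {L : ℝ} (hL : 0 ≤ L) : (packingNumber L : ℝ) ≤ 8 * (L + 1) ^ 3 := by
  obtain ⟨X, hX, h₁, h₂⟩ := exists_packing L
  have h := card_le_cells X h₁ h₂
  rw [hX] at h
  have h' : (packingNumber L : ℝ) ≤ ((⌊2 * L⌋₊ : ℝ) + 1) ^ 3 := by
    exact_mod_cast h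
  have hf := Nat.floor_le (show (0:ℝ) ≤ 2 * L by linarith)
  have hf0 : (0:ℝ) ≤ (⌊2 * L⌋₊ : ℝ) := Nat.cast_nonneg _
  calc (packingNumber L : ℝ) ≤ ((⌊2 * L⌋₊ : ℝ) + 1) ^ 3 := h'
    _ ≤ (2 * (L + 1)) ^ 3 := by gcongr; linarith
    _ = 8 * (L + 1) ^ 3 := by ring

theorem packingNumber_mono {L L' : ℝ} (h : L ≤ L') : packingNumber L ≤ packingNumber L' := by
  obtain ⟨X, hX, h₁, h₂⟩ := exists_packing L
  rw [← hX]
  exact card_le_packingNumber X (fun x hx k => ⟨(h₁ x hx k).1, (h₁ x hx k).2.trans h⟩) h₂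

theorem one_le_packingNumber {L : ℝ} (hL : 0 ≤ L) : 1 ≤ packingNumber L := by
  have h := card_le_packingNumber (L := L) ({0} : Finset Pt)
    (by intro x hx; rw [Finset.mem_singleton] at hx; subst hx; intro k; simpa using hL)
    (by
      intro x hx y hy hxy
      rw [Finset.mem_singleton] at hx hy
      exact absurd (hx.trans hy.symm) hxy)
  simpa using h

theorem packingNumber_mul {M : ℝ} (hM : 0 ≤ M) (k : ℕ) :
    k ^ 3 * packingNumber M ≤ packingNumber (k * (M + 1)) := by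
  classical
  obtain ⟨X, hX, h₁, h₂⟩ := exists_packing M
  let S : Finset ((Fin 3 → Fin k) × Pt) := Finset.univ ×ˢ X
  let F : (Fin 3 → Fin k) × Pt → Pt := fun p =>
    p.2 + WithLp.toLp 2 (fun i => (M + 1) * ((p.1 i : ℕ) : ℝ))
  have hF : ∀ p i, F p i = p.2 i + (M + 1) * ((p.1 i : ℕ) : ℝ) := by
    intro p i; simp [F]
  have hsep : ∀ p ∈ S, ∀ q ∈ S, p ≠ q → 1 ≤ dist (F p) (F q) := by
    rintro ⟨v, x⟩ hp ⟨w, y⟩ hq hne
    have hx : x ∈ X := (Finset.mem_product.1 hp).2
    have hy : y ∈ X := (Finset.mem_product.1 hq).2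
    by_cases hvw : v = w
    · subst hvw
      have hxy : x ≠ y := fun h => hne (by rw [h])
      have : dist (F (v, x)) (F (v, y)) = dist x y := by
        simp [F]
      rw [this]
      exact h₂ x hx y hy hxy
    · obtain ⟨i, hi⟩ := Function.ne_iff.1 hvw
      refine le_trans ?_ (abs_coord_le_dist _ _ i)
      rw [hF, hF]
      have hx1 := h₁ x hx i
      have hy1 := h₁ y hy i
      have hi' : (v i : ℕ) ≠ (w i : ℕ) := fun h => hi (Fin.ext h)
      rcases lt_or_gt_of_ne hi' with hlt | hlt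
      · have : ((v i : ℕ) : ℝ) + 1 ≤ ((w i : ℕ) : ℝ) := by exact_mod_cast hlt
        rw [abs_sub_comm]
        refine le_trans ?_ (le_abs_self _)
        simp only
        nlinarith [hx1.1, hx1.2, hy1.1, hy1.2]
      · have : ((w i : ℕ) : ℝ) + 1 ≤ ((v i : ℕ) : ℝ) := by exact_mod_cast hlt
        refine le_trans ?_ (le_abs_self _)
        simp only
        nlinarith [hx1.1, hx1.2, hy1.1, hy1.2]
  have hinj : Set.InjOn F S := by
    intro p hp q hq hpq
    by_contra hne
    have := hsep p hp q hq hne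
    rw [hpq, dist_self] at this
    linarith
  have hcard : (S.image F).card = k ^ 3 * packingNumber M := by
    rw [Finset.card_image_of_injOn hinj, Finset.card_product, hX]
    simp
  rw [← hcard]
  apply card_le_packingNumber
  · intro z hz
    obtain ⟨⟨v, x⟩, hp, rfl⟩ := Finset.mem_image.1 hz
    have hx : x ∈ X := (Finset.mem_product.1 hp).2
    intro i
    have hx1 := h₁ x hx i
    rw [hF]
    have hv : ((v i : ℕ) : ℝ) + 1 ≤ (k : ℝ) := by exact_mod_cast (v i).2
    have hv0 : (0:ℝ) ≤ ((v i : ℕ) : ℝ) := Nat.cast_nonneg _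
    constructor
    · simp only
      nlinarith [hx1.1, hx1.2]
    · simp only
      nlinarith [hx1.1, hx1.2]
  · intro z hz z' hz' hne
    obtain ⟨p, hp, rfl⟩ := Finset.mem_image.1 hz
    obtain ⟨q, hq, rfl⟩ := Finset.mem_image.1 hz'
    exact hsep p hp q hq (fun h => hne (by rw [h]))

theorem exists_packing_limit :
    ∃ p : ℝ, 1 ≤ p ∧
      Tendsto (fun L : ℝ => (packingNumber L : ℝ) / L ^ 3) atTop (nhds p) := by
  let g : ℝ → ℝ := fun L => (packingNumber L : ℝ) / (L + 1) ^ 3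
  have hbdd : BddAbove (g '' Set.Ici 0) := by
    refine ⟨8, ?_⟩
    rintro _ ⟨L, hL, rfl⟩
    have hL' : (0:ℝ) ≤ L := hL
    have : (0:ℝ) < (L + 1) ^ 3 := by positivity
    simp only [g]
    rw [div_le_iff₀ this]
    exact packingNumber_le hL'
  set p := sSup (g '' Set.Ici 0) with hp
  have hle : ∀ L : ℝ, 0 ≤ L → g L ≤ p := fun L hL => le_csSup hbdd ⟨L, hL, rfl⟩
  have hp1 : 1 ≤ p := by
    have h0 := hle 0 le_rfl
    have h1 : (1:ℝ) ≤ (packingNumber 0 : ℝ) := by exact_mod_cast one_le_packingNumber le_rfl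
    simp only [g] at h0
    norm_num at h0
    linarith
  refine ⟨p, hp1, ?_⟩
  rw [tendsto_order]
  constructor
  · intro a ha
    have hne : (g '' Set.Ici 0).Nonempty := ⟨g 0, 0, Set.mem_Ici.2 le_rfl, rfl⟩
    obtain ⟨_, ⟨M, hM, rfl⟩, haM⟩ := exists_lt_of_lt_csSup hne ha
    have hM' : (0:ℝ) ≤ M := hM
    have hM1 : (0:ℝ) < M + 1 := by linarith
    -- lower bound function
    have hlim : Tendsto (fun L : ℝ => (1 / (M + 1) - 1 / L) ^ 3 * (packingNumber M : ℝ)) atTop
        (nhds (g M)) := by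
      have h1 : Tendsto (fun L : ℝ => 1 / L) atTop (nhds 0) := by
        simpa using tendsto_inv_atTop_zero (𝕜 := ℝ)
      have h2 : Tendsto (fun L : ℝ => (1 / (M + 1) - 1 / L) ^ 3 * (packingNumber M : ℝ)) atTop
          (nhds ((1 / (M + 1) - 0) ^ 3 * (packingNumber M : ℝ))) :=
        ((tendsto_const_nhds.sub h1).pow 3).mul_const _
      have e : (1 / (M + 1) - 0) ^ 3 * (packingNumber M : ℝ) = g M := by
        simp only [g]
        field_simp
        ring
      rwa [e] at h2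
    have hev := hlim.eventually (lt_mem_nhds haM)
    filter_upwards [hev, eventually_gt_atTop (M + 1), eventually_gt_atTop (0:ℝ)] with L h1 h2 h3
    refine lt_of_lt_of_le h1 ?_
    set k := ⌊L / (M + 1)⌋₊ with hk
    have hk1 : (k : ℝ) ≤ L / (M + 1) := Nat.floor_le (by positivity)
    have hk2 : L / (M + 1) < k + 1 := Nat.lt_floor_add_one _
    have hkL : (k : ℝ) * (M + 1) ≤ L := by
      rwa [le_div_iff₀ hM1] at hk1
    have hmul := (packingNumber_mul hM' k).trans (packingNumber_mono hkL)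
    have hmul' : (k : ℝ) ^ 3 * (packingNumber M : ℝ) ≤ (packingNumber L : ℝ) := by
      exact_mod_cast hmul
    have hL3 : (0:ℝ) < L ^ 3 := by positivity
    rw [le_div_iff₀ hL3]
    refine le_trans ?_ hmul'
    have e : (1 / (M + 1) - 1 / L) ^ 3 * (packingNumber M : ℝ) * L ^ 3
        = (L / (M + 1) - 1) ^ 3 * (packingNumber M : ℝ) := by
      field_simp
    rw [e]
    have h5 : (0:ℝ) ≤ L / (M + 1) - 1 := by
      rw [sub_nonneg, le_div_iff₀ hM1]
      linarith
    have hn : (0:ℝ) ≤ (packingNumber M : ℝ) := Nat.cast_nonneg _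
    gcongr
    linarith
  · intro a ha
    have hlim : Tendsto (fun L : ℝ => p * (1 + 1 / L) ^ 3) atTop (nhds p) := by
      have h1 : Tendsto (fun L : ℝ => 1 / L) atTop (nhds 0) := by
        simpa using tendsto_inv_atTop_zero (𝕜 := ℝ)
      have h2 : Tendsto (fun L : ℝ => p * (1 + 1 / L) ^ 3) atTop
          (nhds (p * (1 + 0) ^ 3)) :=
        ((tendsto_const_nhds.add h1).pow 3).const_mul _
      simpa using h2
    have hev := hlim.eventually (gt_mem_nhds ha)
    filter_upwards [hev, eventually_gt_atTop (0:ℝ)] with L h1 h3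
    refine lt_of_le_of_lt ?_ h1
    have h4 := hle L h3.le
    have hL1 : (0:ℝ) < (L + 1) ^ 3 := by positivity
    simp only [g] at h4
    rw [div_le_iff₀ hL1] at h4
    have hL3 : (0:ℝ) < L ^ 3 := by positivity
    rw [div_le_iff₀ hL3]
    have e : p * (1 + 1 / L) ^ 3 * L ^ 3 = p * (L + 1) ^ 3 := by
      field_simp
    rw [e]
    exact h4

end Crest.Agent.Gas
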