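import Crest.Agent.GasThermo
import Crest.Agent.GasPacking

/-! Module B2 (GasPackFe): free energy upper bound from a packing of clusters. -/

set_option autoImplicit false

namespace Crest.Agent.Gas

open MeasureTheory Crest.ProbabilityR.Continuum Filter

private theorem Zf_lt_top'' {u : ℝ → ℝ} (hu : Adm u) {L : ℝ} (hL : 0 ≤ L) (N : ℕ) :
    Zf (rad u) (cube L) N < ⊤ := by
  obtain ⟨B, hB⟩ := hu.stable
  refine (Zf_le_of_stable (measurableSet_cube L) N (B * N) (fun x _ => hB N x)).trans_lt ?_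
  rw [volume_cube hL]
  apply ENNReal.div_lt_top
  · exact ENNReal.mul_ne_top ENNReal.ofReal_ne_top (ENNReal.pow_ne_top ENNReal.ofReal_ne_top)
  · exact_mod_cast N.factorial_ne_zero

private theorem Zf_cube_pos'' {u : ℝ → ℝ} (hu : Adm u) {L : ℝ} (hL : 0 < L) (N : ℕ) :
    0 < Zf (rad u) (cube L) N := by
  apply Zf_pos (measurable_rad hu.meas) (measurableSet_cube L)
  rw [volume_cube hL.le]
  exact ENNReal.ofReal_pos.2 (by positivity)

/-- two points of a cube of side `ℓ` are at distance at most `2 ℓ` -/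
private theorem norm_sub_le_of_cube {ℓ : ℝ} (hℓ : 0 ≤ ℓ) {s t : Pt} (hs : s ∈ cube ℓ)
    (ht : t ∈ cube ℓ) : ‖s - t‖ ≤ 2 * ℓ := by
  rw [EuclideanSpace.norm_eq, Real.sqrt_le_left (by positivity)]
  have h : ∀ i : Fin 3, ‖(s - t) i‖ ^ 2 ≤ ℓ ^ 2 := by
    intro i
    have h1 := hs i
    have h2 := ht i
    rw [PiLp.sub_apply, Real.norm_eq_abs, sq_abs]
    have h3 : |s i - t i| ≤ ℓ := abs_sub_le_iff.2 ⟨by linarith [h1.2, h2.1], by linarith [h1.1, h2.2]⟩
    rw [← sq_abs]
    exact pow_le_pow_left₀ (abs_nonneg _) h3 2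
  rw [Fin.sum_univ_three]
  have := h 0
  have := h 1
  have := h 2
  nlinarith [sq_nonneg ℓ]

private theorem pack_Zf_ge {u : ℝ → ℝ} (hu : Adm u) (n₀ : ℕ) {ℓ : ℝ} (hℓ : 0 < ℓ) (j : ℕ) :
    (Zf (rad u) (cube ℓ) n₀) ^ (packingNumber (j : ℝ)) ≤
      Zf (rad u) (cube ((1 + 2 * ℓ) * j + ℓ)) (packingNumber (j : ℝ) * n₀) := by
  classical
  obtain ⟨X, hcard, hin, hsep⟩ := exists_packing (j : ℝ)
  set a : ℝ := 1 + 2 * ℓ with ha
  have ha0 : 0 < a := by positivity
  set D : Pt → Set Pt := fun x => (fun y => y - a • x) ⁻¹' cube ℓ with hD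
  have hmeas : ∀ x, MeasurableSet (D x) := by
    intro x
    exact measurableSet_cube ℓ |>.preimage (measurable_id.sub_const _)
  have hdist : ∀ x ∈ X, ∀ y ∈ X, x ≠ y → ∀ s ∈ D x, ∀ t ∈ D y, 1 ≤ dist s t := by
    intro x hx y hy hxy s hs t ht
    have h1 := hsep x hx y hy hxy
    have h2 : ‖(s - a • x) - (t - a • y)‖ ≤ 2 * ℓ := norm_sub_le_of_cube hℓ.le hs ht
    have h3 : a * dist x y = ‖a • x - a • y‖ := by
      rw [← smul_sub, norm_smul, Real.norm_eq_abs, abs_of_pos ha0, dist_eq_norm]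
    have h4 : ‖a • x - a • y‖ ≤ ‖s - t‖ + ‖(s - a • x) - (t - a • y)‖ := by
      have : a • x - a • y = (s - t) - ((s - a • x) - (t - a • y)) := by abel
      rw [this]
      exact norm_sub_le _ _
    rw [dist_eq_norm]
    have h5 : a ≤ a * dist x y := le_mul_of_one_le_right ha0.le h1
    linarith
  have h1 := Zf_biUnion_ge (measurable_rad hu.meas) (fun a b => by simp [rad, dist_comm]) X D
    (fun _ => n₀) (fun x _ => hmeas x)
    (by
      intro x hx y hy hxy
      rw [Set.disjoint_left]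
      intro s hs ht
      have := hdist x hx y hy hxy s hs s ht
      rw [dist_self] at this
      linarith)
    (by
      intro x hx y hy hxy s hs t ht
      exact hu.tail _ (hdist x hx y hy hxy s hs t ht))
  have h2 : ∏ x ∈ X, Zf (rad u) (D x) n₀ = (Zf (rad u) (cube ℓ) n₀) ^ (packingNumber (j : ℝ)) := by
    rw [← hcard, ← Finset.prod_const]
    apply Finset.prod_congr rfl
    intro x _
    exact Zf_translate u (cube ℓ) (a • x) n₀
  rw [h2, Finset.sum_const, hcard, smul_eq_mul] at h1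
  refine h1.trans (Zf_mono_set _ ?_ _)
  intro s hs
  simp only [Set.mem_iUnion] at hs
  obtain ⟨x, hx, hs⟩ := hs
  intro k
  have h3 := hin x hx k
  have h4 := hs k
  simp only [PiLp.sub_apply, PiLp.smul_apply, smul_eq_mul] at h4
  have h5 : a * x k ≤ a * j := mul_le_mul_of_nonneg_left h3.2 ha0.le
  have h6 : 0 ≤ a * x k := mul_nonneg ha0.le h3.1
  constructor
  · linarith [h4.1]
  · linarith [h4.2]

/-- Put clusters of `n₀` particles, each in a small cube of side `ℓ`, on a packing scaled by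
`1 + 2ℓ` (points of different clusters are at distance `≥ (1+2ℓ) - √3 ℓ ≥ 1`). -/
theorem Fe_le_packing {u : ℝ → ℝ} (hu : Adm u) {p : ℝ}
    (hp : Tendsto (fun L : ℝ => (packingNumber L : ℝ) / L ^ 3) atTop (nhds p)) (n₀ : ℕ)
    {ℓ : ℝ} (hℓ : 0 < ℓ) :
    Fe u (n₀ * (p / (1 + 2 * ℓ) ^ 3)) ≤
      p / (1 + 2 * ℓ) ^ 3 * -(Real.log (Zf (rad u) (cube ℓ) n₀).toReal) := by
  have ha0 : 0 < 1 + 2 * ℓ := by positivity
  have hp0 : 0 ≤ p := by
    apply ge_of_tendsto hp
    filter_upwards [eventually_gt_atTop 0] with L hL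
    positivity
  set c₀ : ℝ := -(Real.log (Zf (rad u) (cube ℓ) n₀).toReal) with hc₀
  set Lj : ℕ → ℝ := fun j => (1 + 2 * ℓ) * j + ℓ with hLj
  have hLtop : Tendsto Lj atTop atTop := by
    apply tendsto_atTop_add_const_right
    exact Tendsto.const_mul_atTop ha0 tendsto_natCast_atTop_atTop
  have hratio : Tendsto (fun j : ℕ => (packingNumber (j : ℝ) : ℝ) / (Lj j) ^ 3) atTop
      (nhds (p / (1 + 2 * ℓ) ^ 3)) := by
    have h1 : Tendsto (fun j : ℕ => (packingNumber (j : ℝ) : ℝ) / (j : ℝ) ^ 3) atTop (nhds p) :=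
      hp.comp tendsto_natCast_atTop_atTop
    have h2 : Tendsto (fun j : ℕ => (j : ℝ) / Lj j) atTop (nhds (1 / (1 + 2 * ℓ))) := by
      have h3 : Tendsto (fun j : ℕ => 1 / (1 + 2 * ℓ) * (1 - ℓ / Lj j)) atTop
          (nhds (1 / (1 + 2 * ℓ) * (1 - 0))) := by
        apply Tendsto.const_mul
        apply Tendsto.sub tendsto_const_nhds
        exact Tendsto.div_atTop tendsto_const_nhds hLtop
      rw [sub_zero, mul_one] at h3
      refine h3.congr fun j => ?_
      have : Lj j ≠ 0 := by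
        rw [hLj]
        positivity
      field_simp
      rw [hLj]
      ring
    have h4 := h1.mul (h2.pow 3)
    have h5 : p * (1 / (1 + 2 * ℓ)) ^ 3 = p / (1 + 2 * ℓ) ^ 3 := by
      rw [div_pow, one_pow]
      ring
    rw [h5] at h4
    refine h4.congr' ?_
    filter_upwards [eventually_gt_atTop 0] with j hj
    have h6 : (j : ℝ) ≠ 0 := by positivity
    have h7 : Lj j ≠ 0 := by
      rw [hLj]
      positivity
    field_simp
  have hmain : ∀ j : ℕ, -(Real.log (Zf (rad u) (cube (Lj j))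
      (packingNumber (j : ℝ) * n₀)).toReal) / (Lj j) ^ 3 ≤
        (packingNumber (j : ℝ) : ℝ) / (Lj j) ^ 3 * c₀ := by
    intro j
    have hLpos : 0 < Lj j := by
      rw [hLj]
      positivity
    have h1 := pack_Zf_ge hu n₀ hℓ j
    have hpos := Zf_cube_pos'' hu hℓ n₀
    have hfin := Zf_lt_top'' hu hℓ.le n₀
    have hfin' := Zf_lt_top'' hu hLpos.le (packingNumber (j : ℝ) * n₀)
    have h2 := ENNReal.toReal_mono hfin'.ne h1
    rw [ENNReal.toReal_pow] at h2
    have hp' : 0 < (Zf (rad u) (cube ℓ) n₀).toReal := ENNReal.toReal_pos hpos.ne' hfin.ne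
    have h3 := Real.log_le_log (by positivity) h2
    rw [Real.log_pow] at h3
    rw [div_mul_eq_mul_div]
    apply div_le_div_of_nonneg_right _ (by positivity)
    rw [hc₀]
    linarith
  have hρ : 0 ≤ n₀ * (p / (1 + 2 * ℓ) ^ 3) := by positivity
  apply le_of_forall_pos_le_add
  intro δ hδ
  apply Fe_le_of_tendsto hu hρ Lj (fun j => packingNumber (j : ℝ) * n₀) hLtop
  · have := hratio.const_mul (n₀ : ℝ)
    refine this.congr fun j => ?_
    push_cast
    ring
  · have h1 : Tendsto (fun j : ℕ => (packingNumber (j : ℝ) : ℝ) / (Lj j) ^ 3 * c₀) atTop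
        (nhds (p / (1 + 2 * ℓ) ^ 3 * c₀)) := hratio.mul_const c₀
    have h2 := h1.eventually_lt_const (show p / (1 + 2 * ℓ) ^ 3 * c₀ <
      p / (1 + 2 * ℓ) ^ 3 * c₀ + δ by linarith)
    filter_upwards [h2] with j hj
    exact (hmain j).trans hj.le

end Crest.Agent.Gas
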