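import Crest.Agent.GasBaseLow
import Crest.Agent.GasCluster
import Crest.Agent.GasPackFe
import Crest.Agent.GasKernel

/-! Module F4 (GasBase): summary of the estimates on the core with large parameter `Λ`:
`A = Ah Λ`, `r = exp(-(m p / 6) Λ)`, `t = 1/Λ`.  With `σ = m p / 2`, `Fe ≈ Λ σ (ρ - p)_+` on
`[0, m p]`. Inputs: `Fe_core_ge` (a), `Fe_le_packing` with `n₀ = 1, m`, `ℓ = 1/Λ`, `Zf_cluster_ge`
(b), (c), `energy_ge_excess` + `le_Fe_of_energy` (d). -/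

set_option autoImplicit false

namespace Crest.Agent.Gas

open MeasureTheory Crest.ProbabilityR.Continuum Filter

theorem pairE_nonneg_of_core {φ : ℝ → ℝ} {A r t sa sc sd : ℝ} (hφ : IsCore φ A r t sa sc sd)
    {N : ℕ} (x : Fin N → Pt) : 0 ≤ pairE (rad φ) x := by
  rw [pairE_eq_erase]
  refine mul_nonneg (by norm_num) (Finset.sum_nonneg fun i _ => Finset.sum_nonneg fun j _ => ?_)
  exact hφ.nonneg _

theorem IsCore.adm_smul {φ : ℝ → ℝ} {A r t sa sc sd β : ℝ} (hφ : IsCore φ A r t sa sc sd)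
    (hβ : 0 ≤ β) : Adm (fun s => β * φ s) where
  meas := hφ.meas.const_mul β
  tail := fun s hs => by simp [hφ.far s hs]
  core := by
    have h1 : ∀ z : Pt, ENNReal.ofReal (β * φ ‖z‖) = ENNReal.ofReal β * ENNReal.ofReal (φ ‖z‖) :=
      fun z => ENNReal.ofReal_mul hβ
    simp only [h1]
    rw [lintegral_const_mul' _ _ ENNReal.ofReal_ne_top]
    exact ENNReal.mul_lt_top ENNReal.ofReal_lt_top hφ.core
  stable := ⟨0, fun N x => by
    rw [pairE_smul]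
    have := pairE_nonneg_of_core hφ x
    have := mul_nonneg hβ this
    linarith⟩

/-! ### eventual inequalities -/

private theorem ev_mul_le {f : ℝ → ℝ} (hf : Tendsto f atTop (nhds 0)) {θ : ℝ} (hθ : 0 < θ) :
    ∀ᶠ Λ : ℝ in atTop, f Λ * Λ ≤ θ * Λ := by
  filter_upwards [hf.eventually_lt_const hθ, eventually_gt_atTop 0] with Λ h1 h2
  exact mul_le_mul_of_nonneg_right h1.le h2.le

private theorem tendsto_exp_decay {c : ℝ} (hc : 0 < c) :
    Tendsto (fun Λ : ℝ => Real.exp (-c * Λ)) atTop (nhds 0) := by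
  have h := Real.tendsto_exp_neg_atTop_nhds_zero.comp (tendsto_id.const_mul_atTop hc)
  refine h.congr fun Λ => ?_
  simp

private theorem tendsto_mul_exp_decay {c : ℝ} (hc : 0 < c) :
    Tendsto (fun Λ : ℝ => Λ * Real.exp (-c * Λ)) atTop (nhds 0) := by
  have h := (Real.tendsto_pow_mul_exp_neg_atTop_nhds_zero 1).comp
    (tendsto_id.const_mul_atTop hc)
  have h2 := h.const_mul (1 / c)
  rw [mul_zero] at h2
  refine h2.congr fun Λ => ?_
  simp only [Function.comp_apply, id, pow_one]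
  rw [neg_mul]
  field_simp

private theorem tendsto_P (p : ℝ) : Tendsto (fun Λ : ℝ => p / (1 - 1 / Λ) ^ 3) atTop (nhds p) := by
  have h1 : Tendsto (fun Λ : ℝ => 1 / Λ) atTop (nhds 0) :=
    tendsto_const_nhds.div_atTop tendsto_id
  have h2 : Tendsto (fun Λ : ℝ => p / (1 - 1 / Λ) ^ 3) atTop (nhds (p / (1 - 0) ^ 3)) :=
    tendsto_const_nhds.div ((tendsto_const_nhds.sub h1).pow 3) (by norm_num)
  simpa using h2

private theorem tendsto_P' (p : ℝ) :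
    Tendsto (fun Λ : ℝ => p / (1 + 2 * (1 / Λ)) ^ 3) atTop (nhds p) := by
  have h1 : Tendsto (fun Λ : ℝ => 1 / Λ) atTop (nhds 0) :=
    tendsto_const_nhds.div_atTop tendsto_id
  have h2 : Tendsto (fun Λ : ℝ => p / (1 + 2 * (1 / Λ)) ^ 3) atTop (nhds (p / (1 + 2 * 0) ^ 3)) :=
    tendsto_const_nhds.div ((tendsto_const_nhds.add (h1.const_mul 2)).pow 3) (by norm_num)
  simpa using h2

private theorem tendsto_log_div : Tendsto (fun Λ : ℝ => Real.log Λ / Λ) atTop (nhds 0) := by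
  have := Real.isLittleO_log_id_atTop.tendsto_div_nhds_zero
  simpa using this

/-! ### the four estimates -/

theorem base_a {φ : ℝ → ℝ} {Λ Ah sa sc sd β p R1 θ : ℝ} {m : ℕ}
    (hφ : IsCore φ (Ah * Λ) (Real.exp (-(m * p / 6) * Λ)) (1 / Λ) sa sc sd)
    (hΛ : 1 ≤ Λ) (hp1 : 1 ≤ p)
    (hp : Tendsto (fun L : ℝ => (packingNumber L : ℝ) / L ^ 3) atTop (nhds p))
    (hAh : m * p ≤ Ah) (hβ : 7 / 8 ≤ β)
    (hr' : 2 * Real.exp (-(m * p / 6) * Λ) < 1 - 1 / Λ)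
    (hω1 : 2 * volB 1 * Real.exp (-(m * p / 2) * Λ) ≤ 1)
    (hE : (m * p / 2) * (p / (1 - 1 / Λ) ^ 3 - p) * Λ +
      (|Real.log (2 * volB 1)| * R1 + 1 + p / (1 - 1 / Λ) ^ 3) ≤ θ * Λ)
    {ρ : ℝ} (hρ : 0 ≤ ρ) (hρ1 : ρ ≤ R1) :
    Λ * (m * p / 2 * max (ρ - p) 0 - θ) ≤ Fe (fun s => β * φ s) ρ := by
  have hβ0 : 0 < β := by linarith
  have hΛ0 : 0 < Λ := by linarith
  have hmp : 0 ≤ (m : ℝ) * p := by positivity
  have hA0 : 0 ≤ Ah * Λ := mul_nonneg (hmp.trans hAh) hΛ0.le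
  have hv : 0 < volB 1 := volB_pos one_pos
  have hω : volB (Real.exp (-(m * p / 6) * Λ)) + volB 1 * Real.exp (-(β * (Ah * Λ))) ≤
      2 * volB 1 * Real.exp (-(m * p / 2) * Λ) := by
    have h1 : volB (Real.exp (-(m * p / 6) * Λ)) = volB 1 * Real.exp (-(m * p / 2) * Λ) := by
      rw [volB_eq (Real.exp_pos _).le, ← Real.exp_nat_mul]
      congr 2
      push_cast
      ring
    have h2 : Real.exp (-(β * (Ah * Λ))) ≤ Real.exp (-(m * p / 2) * Λ) := by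
      apply Real.exp_le_exp.2
      have h3 : 7 / 8 * (m * p * Λ) ≤ β * (Ah * Λ) := by
        apply mul_le_mul hβ _ (by positivity) hβ0.le
        exact mul_le_mul_of_nonneg_right hAh hΛ0.le
      nlinarith [mul_nonneg hmp hΛ0.le]
    rw [h1]
    nlinarith [mul_le_mul_of_nonneg_left h2 hv.le]
  have hmain := Fe_core_ge hφ (hφ.adm_smul hβ0.le) hA0 (Real.exp_pos _) hr'
    (by positivity) hβ0 hω hω1 hp hρ
  refine le_trans ?_ hmain
  have hlog : Real.log (2 * volB 1 * Real.exp (-(m * p / 2) * Λ)) =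
      Real.log (2 * volB 1) - m * p / 2 * Λ := by
    rw [Real.log_mul (by positivity) (Real.exp_pos _).ne', Real.log_exp]
    ring
  rw [hlog]
  set P : ℝ := p / (1 - 1 / Λ) ^ 3 with hP
  set C1 : ℝ := Real.log (2 * volB 1) with hC1
  have ht1 : 0 < 1 - 1 / Λ := by
    have := Real.exp_pos (-(m * p / 6) * Λ)
    linarith
  have hP0 : 0 ≤ P := by positivity
  have hM0 : 0 ≤ max (ρ - P) 0 := le_max_right _ _
  have hM1 : max (ρ - P) 0 ≤ R1 := max_le (by linarith) (by linarith)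
  have hM2 : max (ρ - p) 0 - (P - p) ≤ max (ρ - P) 0 := by
    have hPp : p ≤ P := by
      rw [hP, le_div_iff₀ (by positivity)]
      have h1 : (1 - 1 / Λ) ^ 3 ≤ 1 := by
        apply pow_le_one₀ ht1.le
        have : 0 < 1 / Λ := by positivity
        linarith
      nlinarith
    rcases le_total (ρ - p) 0 with h | h
    · rw [max_eq_right h]
      linarith
    · rw [max_eq_left h]
      have := le_max_left (ρ - P) 0
      linarith
  have h1 : max (ρ - P) 0 * C1 ≤ |C1| * R1 := by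
    calc max (ρ - P) 0 * C1 ≤ max (ρ - P) 0 * |C1| :=
          mul_le_mul_of_nonneg_left (le_abs_self _) hM0
      _ ≤ R1 * |C1| := mul_le_mul_of_nonneg_right hM1 (abs_nonneg _)
      _ = |C1| * R1 := mul_comm _ _
  have h2 : (m * p / 2) * Λ * (max (ρ - p) 0 - (P - p)) ≤ (m * p / 2) * Λ * max (ρ - P) 0 :=
    mul_le_mul_of_nonneg_left hM2 (by positivity)
  nlinarith

theorem base_b {φ : ℝ → ℝ} {Λ Ah r sa sc sd β p θ : ℝ}
    (hφ : IsCore φ (Ah * Λ) r (1 / Λ) sa sc sd)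
    (hΛ : 1 ≤ Λ) (hp1 : 1 ≤ p)
    (hp : Tendsto (fun L : ℝ => (packingNumber L : ℝ) / L ^ 3) atTop (nhds p))
    (hβ : 7 / 8 ≤ β) (hE : (3 * p * (Real.log Λ / Λ)) * Λ ≤ θ * Λ) :
    Fe (fun s => β * φ s) (p / (1 + 2 * (1 / Λ)) ^ 3) ≤ Λ * θ := by
  have hβ0 : 0 < β := by linarith
  have hΛ0 : 0 < Λ := by linarith
  have h := Fe_le_packing (hφ.adm_smul hβ0.le) hp 1 (ℓ := 1 / Λ) (by positivity)
  rw [Nat.cast_one, one_mul, Zf_one, volume_cube (by positivity),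
    ENNReal.toReal_ofReal (by positivity)] at h
  refine h.trans ?_
  have hlog : -Real.log ((1 / Λ) ^ 3) = 3 * Real.log Λ := by
    rw [Real.log_pow, one_div, Real.log_inv]
    push_cast
    ring
  rw [hlog]
  have hl : 0 ≤ 3 * Real.log Λ := mul_nonneg (by norm_num) (Real.log_nonneg hΛ)
  have h1 : p / (1 + 2 * (1 / Λ)) ^ 3 ≤ p := by
    apply div_le_self (by linarith)
    apply one_le_pow₀
    have : 0 < 1 / Λ := by positivity
    linarith
  have h2 : p / (1 + 2 * (1 / Λ)) ^ 3 * (3 * Real.log Λ) ≤ p * (3 * Real.log Λ) :=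
    mul_le_mul_of_nonneg_right h1 hl
  have h3 : (3 * p * (Real.log Λ / Λ)) * Λ = p * (3 * Real.log Λ) := by
    field_simp
  rw [h3] at hE
  linarith

theorem base_c {φ : ℝ → ℝ} {Λ Ah sa sc sd β p θ ξ : ℝ} {m : ℕ} (hm : 1 ≤ m)
    (hφ : IsCore φ (Ah * Λ) (Real.exp (-(m * p / 6) * Λ)) (1 / Λ) sa sc sd)
    (hΛ : 1 ≤ Λ) (hp1 : 1 ≤ p)
    (hp : Tendsto (fun L : ℝ => (packingNumber L : ℝ) / L ^ 3) atTop (nhds p))
    (hβ : 7 / 8 ≤ β) (hξ0 : 0 < ξ)
    (hξ : ∀ (φ : ℝ → ℝ) (r ℓ : ℝ), Measurable φ → 0 < r → 8 * r ≤ ℓ →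
      (∀ s, sc * r ≤ s → s ≤ sd * r → φ s = 0) →
      ENNReal.ofReal ((1 / (m.factorial : ℝ)) * (ℓ / 2) ^ 3 * (volB (ξ * r)) ^ (m - 1)) ≤
        Zf (rad φ) (cube ℓ) m)
    (h8 : 8 * Real.exp (-(m * p / 6) * Λ) ≤ 1 / Λ)
    (hE : (p * (Real.log m.factorial + 3 * Real.log 2 + (m - 1) * |Real.log (volB 1 * ξ ^ 3)|) / Λ +
      3 * p * (Real.log Λ / Λ)) * Λ ≤ θ * Λ) :
    Fe (fun s => β * φ s) (m * (p / (1 + 2 * (1 / Λ)) ^ 3)) ≤
      Λ * (m * p / 2 * (m * p - p) + θ) := by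
  have hβ0 : 0 < β := by linarith
  have hΛ0 : 0 < Λ := by linarith
  have hv : 0 < volB 1 := volB_pos one_pos
  have hadm := hφ.adm_smul hβ0.le
  have h := Fe_le_packing hadm hp m (ℓ := 1 / Λ) (by positivity)
  refine h.trans ?_
  have hZ := hξ (fun s => β * φ s) (Real.exp (-(m * p / 6) * Λ)) (1 / Λ) hadm.meas
    (Real.exp_pos _) h8 (fun s h1 h2 => by simp [hφ.window s h1 h2])
  have hfin : Zf (rad (fun s => β * φ s)) (cube (1 / Λ)) m ≠ ⊤ := by
    have hle := Zf_le_of_stable (U := rad (fun s => β * φ s)) (measurableSet_cube (1 / Λ)) m 0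
      (fun x _ => by
        rw [pairE_smul, neg_zero]
        exact mul_nonneg hβ0.le (pairE_nonneg_of_core hφ x))
    refine (hle.trans_lt ?_).ne
    rw [volume_cube (by positivity)]
    apply ENNReal.div_lt_top
    · exact ENNReal.mul_ne_top ENNReal.ofReal_ne_top (ENNReal.pow_ne_top ENNReal.ofReal_ne_top)
    · exact_mod_cast m.factorial_ne_zero
  have hpos : 0 < (1 / (m.factorial : ℝ)) * ((1 / Λ) / 2) ^ 3 *
      (volB (ξ * Real.exp (-(m * p / 6) * Λ))) ^ (m - 1) := by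
    have := volB_pos (mul_pos hξ0 (Real.exp_pos (-(m * p / 6) * Λ)))
    positivity
  have hZ' := (ENNReal.ofReal_le_iff_le_toReal hfin).1 hZ
  have hlog := Real.log_le_log hpos hZ'
  have hcalc : Real.log ((1 / (m.factorial : ℝ)) * ((1 / Λ) / 2) ^ 3 *
      (volB (ξ * Real.exp (-(m * p / 6) * Λ))) ^ (m - 1)) =
      -Real.log m.factorial - 3 * Real.log Λ - 3 * Real.log 2 +
        (m - 1) * (Real.log (volB 1 * ξ ^ 3) - m * p / 2 * Λ) := by
    have h1 : volB (ξ * Real.exp (-(m * p / 6) * Λ)) =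
        (volB 1 * ξ ^ 3) * Real.exp (-(m * p / 2) * Λ) := by
      rw [volB_eq (by positivity), mul_pow, ← Real.exp_nat_mul, mul_assoc]
      congr 3
      push_cast
      ring
    rw [h1, Real.log_mul (by positivity) (by positivity), Real.log_mul (by positivity)
      (by positivity), Real.log_pow, Real.log_pow, Real.log_mul (by positivity)
      (Real.exp_pos _).ne', Real.log_exp, one_div, Real.log_inv, Real.log_div (by positivity)
      (by norm_num), one_div, Real.log_inv, Nat.cast_sub hm]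
    push_cast
    ring
  rw [hcalc] at hlog
  have hm1 : (0 : ℝ) ≤ (m : ℝ) - 1 := by
    have : (1 : ℝ) ≤ m := by exact_mod_cast hm
    linarith
  have hlogle : -(Real.log (Zf (rad (fun s => β * φ s)) (cube (1 / Λ)) m).toReal) ≤
      Real.log m.factorial + 3 * Real.log 2 + (m - 1) * |Real.log (volB 1 * ξ ^ 3)| +
        3 * Real.log Λ + (m - 1) * (m * p / 2 * Λ) := by
    have h1 : -((m - 1 : ℝ) * |Real.log (volB 1 * ξ ^ 3)|) ≤
        (m - 1 : ℝ) * Real.log (volB 1 * ξ ^ 3) := by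
      have := mul_le_mul_of_nonneg_left (neg_abs_le (Real.log (volB 1 * ξ ^ 3))) hm1
      linarith
    nlinarith
  have hX0 : 0 ≤ Real.log m.factorial + 3 * Real.log 2 + (m - 1) * |Real.log (volB 1 * ξ ^ 3)| +
        3 * Real.log Λ + (m - 1) * (m * p / 2 * Λ) := by
    have h1 : 0 ≤ Real.log (m.factorial : ℝ) := Real.log_nonneg (by
      exact_mod_cast Nat.one_le_iff_ne_zero.2 m.factorial_ne_zero)
    have h2 : 0 ≤ Real.log Λ := Real.log_nonneg hΛ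
    have h3 : 0 ≤ Real.log 2 := Real.log_nonneg (by norm_num)
    have h4 : 0 ≤ (m - 1 : ℝ) * |Real.log (volB 1 * ξ ^ 3)| := mul_nonneg hm1 (abs_nonneg _)
    have h5 : 0 ≤ (m - 1 : ℝ) * (m * p / 2 * Λ) := mul_nonneg hm1 (by positivity)
    linarith
  have hP1 : p / (1 + 2 * (1 / Λ)) ^ 3 ≤ p := by
    apply div_le_self (by linarith)
    apply one_le_pow₀
    have : 0 < 1 / Λ := by positivity
    linarith
  have hP0 : 0 ≤ p / (1 + 2 * (1 / Λ)) ^ 3 := by positivity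
  have hfinal : p / (1 + 2 * (1 / Λ)) ^ 3 *
      -(Real.log (Zf (rad (fun s => β * φ s)) (cube (1 / Λ)) m).toReal) ≤
      p * (Real.log m.factorial + 3 * Real.log 2 + (m - 1) * |Real.log (volB 1 * ξ ^ 3)| +
        3 * Real.log Λ + (m - 1) * (m * p / 2 * Λ)) :=
    (mul_le_mul_of_nonneg_left hlogle hP0).trans (mul_le_mul_of_nonneg_right hP1 hX0)
  refine hfinal.trans ?_
  have h3 : (p * (Real.log m.factorial + 3 * Real.log 2 + (m - 1) * |Real.log (volB 1 * ξ ^ 3)|) / Λ +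
      3 * p * (Real.log Λ / Λ)) * Λ = p * (Real.log m.factorial + 3 * Real.log 2 +
        (m - 1) * |Real.log (volB 1 * ξ ^ 3)|) + 3 * p * Real.log Λ := by
    field_simp
  rw [h3] at hE
  nlinarith

theorem base_d {φ : ℝ → ℝ} {Λ Ah r sa sc sd β p θ R1 : ℝ} {m : ℕ}
    (hφ : IsCore φ (Ah * Λ) r (1 / Λ) sa sc sd) (hcap : HasCap m sa)
    (hΛ : 1 ≤ Λ) (hp1 : 1 ≤ p) (hθ : 0 < θ)
    (hp : Tendsto (fun L : ℝ => (packingNumber L : ℝ) / L ^ 3) atTop (nhds p))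
    (hβ : 7 / 8 ≤ β) (hAh : 0 ≤ Ah) (hr : 0 < r) (hr' : 2 * r < 1 - 1 / Λ)
    (hE : (7 / 8 * Ah * m * (p / (1 - 1 / Λ) ^ 3 - p) + 1 / Λ) * Λ ≤ θ * Λ)
    {ρ : ℝ} (hρ : 0 ≤ ρ) (hρ1 : ρ ≤ R1) :
    7 / 8 * Ah * Λ * (ρ - m * p) - θ * Λ ≤ Fe (fun s => β * φ s) ρ := by
  have hβ0 : 0 < β := by linarith
  have hΛ0 : 0 < Λ := by linarith
  have hA0 : 0 ≤ Ah * Λ := mul_nonneg hAh hΛ0.le
  have hadm := hφ.adm_smul hβ0.le
  have ht : 0 < 1 / Λ := by positivity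
  have ht1 : 0 < 1 - 1 / Λ := by linarith
  set P : ℝ := p / (1 - 1 / Λ) ^ 3 with hP
  have hP0 : 0 ≤ P := by positivity
  have hE' : 7 / 8 * (Ah * Λ) * m * (P - p) + 1 ≤ θ * Λ := by
    have : (7 / 8 * Ah * m * (P - p) + 1 / Λ) * Λ = 7 / 8 * (Ah * Λ) * m * (P - p) + 1 := by
      field_simp
    linarith
  rcases eq_or_lt_of_le hρ with h0 | hρ0
  · rw [← h0, Fe_zero hadm]
    have : 0 ≤ 7 / 8 * Ah * Λ * (m * p) := by positivity
    nlinarith
  have hent : -1 ≤ ρ * Real.log ρ - ρ := by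
    have h1 := Real.one_sub_inv_le_log_of_pos hρ0
    have h2 := mul_le_mul_of_nonneg_left h1 hρ0.le
    have h3 : ρ * (1 - ρ⁻¹) = ρ - 1 := by field_simp
    linarith
  rcases le_total (ρ - m * P) 0 with hneg | hpos
  · have hlow := le_Fe_of_energy hadm (e := 0) hρ0 (by
      intro δ hδ
      filter_upwards [eventually_gt_atTop 0] with L hL x _
      rw [pairE_smul]
      have := mul_nonneg hβ0.le (pairE_nonneg_of_core hφ x)
      have h3 : 0 < δ * L ^ 3 := by positivity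
      linarith)
    refine le_trans ?_ hlow
    have h4 : 7 / 8 * Ah * Λ * (ρ - m * p) ≤ 7 / 8 * (Ah * Λ) * m * (P - p) := by
      have : 7 / 8 * (Ah * Λ) * (ρ - m * P) ≤ 0 :=
        mul_nonpos_of_nonneg_of_nonpos (by positivity) hneg
      nlinarith
    linarith
  · have hPlim : Tendsto (fun L : ℝ => (packingNumber (L / (1 - 1 / Λ)) : ℝ) / L ^ 3) atTop
        (nhds P) := by
      have h1 : Tendsto (fun L : ℝ => L / (1 - 1 / Λ)) atTop atTop :=
        tendsto_id.atTop_div_const ht1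
      have h2 := (hp.comp h1).div_const ((1 - 1 / Λ) ^ 3)
      refine h2.congr' ?_
      filter_upwards [eventually_gt_atTop 0] with L hL
      simp only [Function.comp_apply]
      have h3 : (1 - 1 / Λ) ≠ 0 := ht1.ne'
      have h4 : L ≠ 0 := hL.ne'
      rw [div_pow, div_div, div_mul_cancel₀]
      exact pow_ne_zero _ h3
    have hlow := le_Fe_of_energy hadm (e := β * (Ah * Λ) * (ρ - m * P)) hρ0 (by
      intro δ hδ
      set K : ℝ := β * (Ah * Λ) with hK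
      have hK0 : 0 ≤ K := mul_nonneg hβ0.le hA0
      have h1 : Tendsto (fun L : ℝ => K * (ρ - 1 / L ^ 3 -
          m * ((packingNumber (L / (1 - 1 / Λ)) : ℝ) / L ^ 3))) atTop
          (nhds (K * (ρ - 0 - m * P))) := by
        refine Tendsto.const_mul _ ((tendsto_const_nhds.sub ?_).sub (hPlim.const_mul _))
        exact tendsto_const_nhds.div_atTop (tendsto_pow_atTop (by norm_num))
      have h2 := h1.eventually_const_lt (show K * (ρ - m * P) - δ < K * (ρ - 0 - m * P) by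
        rw [sub_zero]; linarith)
      filter_upwards [h2, eventually_gt_atTop 0] with L hL hL0 x hx
      rw [pairE_smul]
      have h3 := energy_ge_excess hA0 hφ hcap hr hr' ht hL0.le x hx
      have h4 := mul_le_mul_of_nonneg_left h3 hβ0.le
      have hL3 : 0 < L ^ 3 := by positivity
      have h5 : ρ * L ^ 3 - 1 ≤ (⌊ρ * L ^ 3⌋₊ : ℝ) := (Nat.sub_one_lt_floor _).le
      have h6 := mul_lt_mul_of_pos_right hL hL3
      have h7 : K * (ρ - 1 / L ^ 3 - m * ((packingNumber (L / (1 - 1 / Λ)) : ℝ) / L ^ 3)) * L ^ 3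
          = K * (ρ * L ^ 3 - 1 - m * packingNumber (L / (1 - 1 / Λ))) := by
        field_simp
      rw [h7] at h6
      have h8 : K * (ρ * L ^ 3 - 1 - m * packingNumber (L / (1 - 1 / Λ))) ≤
          K * ((⌊ρ * L ^ 3⌋₊ : ℝ) - m * packingNumber (L / (1 - 1 / Λ))) :=
        mul_le_mul_of_nonneg_left (by linarith) hK0
      have h9 : β * (Ah * Λ * ((⌊ρ * L ^ 3⌋₊ : ℝ) - m * packingNumber (L / (1 - 1 / Λ)))) =
          K * ((⌊ρ * L ^ 3⌋₊ : ℝ) - m * packingNumber (L / (1 - 1 / Λ))) := by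
        rw [hK]; ring
      linarith)
    refine le_trans ?_ hlow
    have h4 : 7 / 8 * (Ah * Λ) * (ρ - m * P) ≤ β * (Ah * Λ) * (ρ - m * P) := by
      have : 0 ≤ (Ah * Λ) * (ρ - m * P) := mul_nonneg hA0 hpos
      nlinarith
    nlinarith

theorem base_estimates {m : ℕ} {sa sc sd p : ℝ} (hm : 2 ≤ m) (hsa : 1 / 2 ≤ sa) (hac : sa < sc)
    (hcd : sc < sd) (hd : sd < 1) (hcap : HasCap m sa)
    (hc : ∃ c : Fin m → Pt, ∀ i j, i ≠ j → sc < dist (c i) (c j) ∧ dist (c i) (c j) < sd)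
    (hp1 : 1 ≤ p)
    (hp : Tendsto (fun L : ℝ => (packingNumber L : ℝ) / L ^ 3) atTop (nhds p))
    (R1 Ah θ : ℝ) (hθ : 0 < θ) (hR1 : 0 ≤ R1) (hAh : m * p ≤ Ah) :
    ∃ Λ₀ : ℝ, 1 ≤ Λ₀ ∧ ∀ Λ : ℝ, Λ₀ ≤ Λ →
      ∃ p' q' : ℝ, p - θ ≤ p' ∧ p' ≤ p ∧ m * p - θ ≤ q' ∧ q' ≤ m * p ∧
      2 * Real.exp (-(m * p / 6) * Λ) < 1 - 1 / Λ ∧ 1 / Λ ≤ 1 / 10 ∧
      ∀ φ : ℝ → ℝ, IsCore φ (Ah * Λ) (Real.exp (-(m * p / 6) * Λ)) (1 / Λ) sa sc sd →
      ∀ β : ℝ, 7 / 8 ≤ β → β ≤ 9 / 8 →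
        (∀ ρ, 0 ≤ ρ → ρ ≤ R1 → Λ * (m * p / 2 * max (ρ - p) 0 - θ) ≤ Fe (fun s => β * φ s) ρ) ∧
        Fe (fun s => β * φ s) p' ≤ Λ * θ ∧
        Fe (fun s => β * φ s) q' ≤ Λ * (m * p / 2 * (m * p - p) + θ) ∧
        (∀ ρ, 0 ≤ ρ → ρ ≤ R1 → 7 / 8 * Ah * Λ * (ρ - m * p) - θ * Λ ≤ Fe (fun s => β * φ s) ρ) := by
  obtain ⟨c, hc⟩ := hc
  obtain ⟨ξ, hξ0, _, hξ⟩ := Zf_cluster_ge (by omega : 1 ≤ m) (by linarith : 0 < sc) hd c hc
  have hm0 : (0 : ℝ) < m := by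
    have : 0 < m := by omega
    exact_mod_cast this
  have hmp : 0 < (m : ℝ) * p := by positivity
  have hinv : Tendsto (fun Λ : ℝ => 1 / Λ) atTop (nhds 0) :=
    tendsto_const_nhds.div_atTop tendsto_id
  -- E1
  have E1 : ∀ᶠ Λ : ℝ in atTop, 1 / Λ ≤ 1 / 10 := by
    filter_upwards [hinv.eventually_lt_const (show (0 : ℝ) < 1 / 10 by norm_num)] with Λ h
    exact h.le
  -- E2
  have E2 : ∀ᶠ Λ : ℝ in atTop, 2 * Real.exp (-(m * p / 6) * Λ) < 1 - 1 / Λ := by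
    have h1 : Tendsto (fun Λ : ℝ => 2 * Real.exp (-(m * p / 6) * Λ) - (1 - 1 / Λ)) atTop
        (nhds (2 * 0 - (1 - 0))) :=
      ((tendsto_exp_decay (by positivity)).const_mul 2).sub (tendsto_const_nhds.sub hinv)
    filter_upwards [h1.eventually_lt_const (show (2 * 0 - (1 - 0) : ℝ) < 0 by norm_num)] with Λ h
    linarith
  -- E3
  have E3 : ∀ᶠ Λ : ℝ in atTop, 8 * Real.exp (-(m * p / 6) * Λ) ≤ 1 / Λ := by
    have h1 := (tendsto_mul_exp_decay (show 0 < (m : ℝ) * p / 6 by positivity)).const_mul 8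
    rw [mul_zero] at h1
    filter_upwards [h1.eventually_lt_const (show (0 : ℝ) < 1 by norm_num),
      eventually_gt_atTop 0] with Λ h hΛ
    rw [le_div_iff₀ hΛ]
    linarith
  -- E4
  have E4 : ∀ᶠ Λ : ℝ in atTop, 2 * volB 1 * Real.exp (-(m * p / 2) * Λ) ≤ 1 := by
    have h1 := (tendsto_exp_decay (show 0 < (m : ℝ) * p / 2 by positivity)).const_mul (2 * volB 1)
    rw [mul_zero] at h1
    filter_upwards [h1.eventually_lt_const (show (0 : ℝ) < 1 by norm_num)] with Λ h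
    exact h.le
  -- E5
  have E5 : ∀ᶠ Λ : ℝ in atTop, (m * p / 2) * (p / (1 - 1 / Λ) ^ 3 - p) * Λ +
      (|Real.log (2 * volB 1)| * R1 + 1 + p / (1 - 1 / Λ) ^ 3) ≤ θ * Λ := by
    have h1 : Tendsto (fun Λ : ℝ => (m * p / 2) * (p / (1 - 1 / Λ) ^ 3 - p) +
        (|Real.log (2 * volB 1)| * R1 + 1 + p / (1 - 1 / Λ) ^ 3) / Λ) atTop
        (nhds ((m * p / 2) * (p - p) + 0)) := by
      refine Tendsto.add (((tendsto_P p).sub_const p).const_mul _) ?_
      exact (tendsto_const_nhds.add (tendsto_P p)).div_atTop tendsto_id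
    rw [sub_self, mul_zero, add_zero] at h1
    filter_upwards [ev_mul_le h1 hθ, eventually_gt_atTop 0] with Λ h hΛ
    rw [add_mul, div_mul_cancel₀ _ hΛ.ne'] at h
    exact h
  -- E6
  have E6 : ∀ᶠ Λ : ℝ in atTop, p - θ ≤ p / (1 + 2 * (1 / Λ)) ^ 3 := by
    filter_upwards [(tendsto_P' p).eventually_const_lt (show p - θ < p by linarith)] with Λ h
    exact h.le
  have E6' : ∀ᶠ Λ : ℝ in atTop, m * p - θ ≤ m * (p / (1 + 2 * (1 / Λ)) ^ 3) := by
    filter_upwards [((tendsto_P' p).const_mul (m : ℝ)).eventually_const_lt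
      (show m * p - θ < m * p by linarith)] with Λ h
    exact h.le
  -- E7
  have E7 : ∀ᶠ Λ : ℝ in atTop, (3 * p * (Real.log Λ / Λ)) * Λ ≤ θ * Λ := by
    have h1 := tendsto_log_div.const_mul (3 * p)
    rw [mul_zero] at h1
    exact ev_mul_le h1 hθ
  -- E8
  have E8 : ∀ᶠ Λ : ℝ in atTop, (p * (Real.log m.factorial + 3 * Real.log 2 +
      (m - 1) * |Real.log (volB 1 * ξ ^ 3)|) / Λ + 3 * p * (Real.log Λ / Λ)) * Λ ≤ θ * Λ := by
    have h1 := tendsto_log_div.const_mul (3 * p)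
    rw [mul_zero] at h1
    have h2 : Tendsto (fun Λ : ℝ => p * (Real.log m.factorial + 3 * Real.log 2 +
      (m - 1) * |Real.log (volB 1 * ξ ^ 3)|) / Λ) atTop (nhds 0) :=
      tendsto_const_nhds.div_atTop tendsto_id
    have h3 := h2.add h1
    rw [add_zero] at h3
    exact ev_mul_le h3 hθ
  -- E9
  have E9 : ∀ᶠ Λ : ℝ in atTop,
      (7 / 8 * Ah * m * (p / (1 - 1 / Λ) ^ 3 - p) + 1 / Λ) * Λ ≤ θ * Λ := by
    have h1 : Tendsto (fun Λ : ℝ => 7 / 8 * Ah * m * (p / (1 - 1 / Λ) ^ 3 - p) + 1 / Λ) atTop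
        (nhds (7 / 8 * Ah * m * (p - p) + 0)) :=
      (((tendsto_P p).sub_const p).const_mul _).add hinv
    rw [sub_self, mul_zero, add_zero] at h1
    exact ev_mul_le h1 hθ
  have hall := E1.and (E2.and (E3.and (E4.and (E5.and (E6.and (E6'.and (E7.and (E8.and E9))))))))
  obtain ⟨Λ₁, hΛ₁⟩ := eventually_atTop.1 hall
  refine ⟨max 1 Λ₁, le_max_left _ _, fun Λ hΛ => ?_⟩
  have hΛ1 : 1 ≤ Λ := (le_max_left _ _).trans hΛ
  have hΛ0 : 0 < Λ := by linarith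
  obtain ⟨e1, e2, e3, e4, e5, e6, e6', e7, e8, e9⟩ := hΛ₁ Λ ((le_max_right _ _).trans hΛ)
  have hP1 : p / (1 + 2 * (1 / Λ)) ^ 3 ≤ p := by
    apply div_le_self (by linarith)
    apply one_le_pow₀
    have : 0 < 1 / Λ := by positivity
    linarith
  refine ⟨p / (1 + 2 * (1 / Λ)) ^ 3, m * (p / (1 + 2 * (1 / Λ)) ^ 3), e6, hP1, e6',
    mul_le_mul_of_nonneg_left hP1 hm0.le, e2, e1, ?_⟩
  intro φ hφ β hβ _
  refine ⟨fun ρ hρ hρ1 => ?_, ?_, ?_, fun ρ hρ hρ1 => ?_⟩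
  · exact base_a hφ hΛ1 hp1 hp hAh hβ e2 e4 e5 hρ hρ1
  · exact base_b hφ hΛ1 hp1 hp hβ e7
  · exact base_c (by omega) hφ hΛ1 hp1 hp hβ hξ0 hξ e3 e8
  · exact base_d hφ hcap hΛ1 hp1 hθ hp hβ (hmp.le.trans hAh) (Real.exp_pos _) e2 e9 hρ hρ1

end Crest.Agent.Gas
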