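import Mathlib

/-! Module Z (GasJump): from one-sided linear bounds to a jump of one-sided derivatives. -/

set_option autoImplicit false

namespace Crest.Agent.Gas

open Set Filter Topology

theorem deriv_jump {G : ℝ → ℝ} (hG : ConcaveOn ℝ (Ioi 0) G) {tc a' b' eL eR : ℝ} (h0 : 0 < a')
    (ha : a' < tc) (hb : tc < b') (he : eR < eL)
    (hl : ∀ t, a' ≤ t → t < tc → G t ≤ G tc - eL * (tc - t))
    (hr : ∀ t, tc < t → t ≤ b' → G t ≤ G tc + eR * (t - tc)) :
    ∃ Dl Dr : ℝ, HasDerivWithinAt (fun β => 1 / β * G β) Dl (Iio tc) tc ∧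
      HasDerivWithinAt (fun β => 1 / β * G β) Dr (Ioi tc) tc ∧ Dr < Dl := by
  have htc : 0 < tc := h0.trans ha
  have hint : tc ∈ interior (Ioi (0:ℝ)) := by
    rw [interior_Ioi]; exact htc
  have hcv : ConvexOn ℝ (Ioi 0) (-G) := hG.neg
  obtain ⟨dl, hdl⟩ : ∃ d, HasDerivWithinAt G d (Iio tc) tc := by
    have := (hcv.hasDerivWithinAt_leftDeriv_of_mem_interior hint).neg
    rw [neg_neg] at this
    exact ⟨_, this⟩
  obtain ⟨dr, hdr⟩ : ∃ d, HasDerivWithinAt G d (Ioi tc) tc := by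
    have := (hcv.hasDerivWithinAt_rightDeriv_of_mem_interior hint).neg
    rw [neg_neg] at this
    exact ⟨_, this⟩
  have hdl' : eL ≤ dl := by
    have h1 := (hasDerivWithinAt_iff_tendsto_slope' (by simp)).1 hdl
    refine ge_of_tendsto h1 ?_
    filter_upwards [Ioo_mem_nhdsLT ha] with t ht
    rw [slope_def_field, le_div_iff_of_neg (by linarith [ht.2])]
    have := hl t ht.1.le ht.2
    linarith
  have hdr' : dr ≤ eR := by
    have h1 := (hasDerivWithinAt_iff_tendsto_slope' (by simp)).1 hdr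
    refine le_of_tendsto h1 ?_
    filter_upwards [Ioo_mem_nhdsGT hb] with t ht
    rw [slope_def_field, div_le_iff₀ (by linarith [ht.1])]
    have := hr t ht.1 ht.2.le
    linarith
  have hinv : HasDerivAt (fun β : ℝ => 1 / β) (-(tc ^ 2)⁻¹) tc := by
    simpa using hasDerivAt_inv htc.ne'
  refine ⟨_, _, hinv.hasDerivWithinAt.mul hdl, hinv.hasDerivWithinAt.mul hdr, ?_⟩
  have h2 : 0 < 1 / tc := by positivity
  have h3 : 1 / tc * dr < 1 / tc * dl := mul_lt_mul_of_pos_left (by linarith) h2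
  linarith

end Crest.Agent.Gas
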