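import Crest.Agent.GasLowerE

/-! Module E: lower bound on the free energy when a kernel of long range `R` is subtracted.

Sketch.  `u0 ≥ 0` has range 1, `Ψ ≥ 0` has range `D0`, grid of side `b` (`D0 ≪ b ≪ R`), translates
`τ ∈ {0..b-1}³`.  A pair at distance `< D0` is cut by at most a fraction `x = 3 (D0+1)/b` of the
translates, so for each configuration there is `τ` with `(1+s) Ψ^τ_same-cell ≥ Ψ_total`,
`s = 6 (D0+1)/b ≤ 1/2`.  With `KK_pair_le` (`c = ε (1+2b/R)^6 b⁻³`):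
`pairE (u0 - Ψ - ε KK) x ≥ pairE (U^τ) x - c N / 2`, where
`U^τ y z = u0 (dist y z) - [same cell] ((1+s) Ψ (dist y z) + c)`, and `U^τ ≥ 0` across cells.
`Zf_biUnion_le` over the cells gives `Z(L,N) e^{μN} ≤ b³ Σ^m`, `m = (⌊L/b⌋+2)³`,
`Σ = ∑_n e^{μ n + c n²/2} Zf(rad (u0-(1+s)Ψ)) (cube b) n`, hence `Fe ρ ≥ μ ρ - b⁻³ log Σ`.
For `n ≤ R1 b³`: Hölder with `u0-(1+s)Ψ = (1-s)(u0-Ψ) + s (u0-2Ψ)`, stability of `u0-2Ψ`, and
`Zf (rad (u0-Ψ)) (cube b) n ≤ exp(-(b+1)³ Fe(n/(b+1)³))` (`Fe_le_box`); if `Fe` is larger than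
`2 (μm R1 + ε R1²)` the term is `≤ exp(small)`.  For `n > R1 b³`: superstability
`Qc (1/2) 0 x ≥ n²/(2b+1)³ ≥ n²/(27 b³)` gives `≤ e^{-n}`. The case `b/R > 1/20` is settled by
superstability alone. -/

set_option autoImplicit false

namespace Crest.Agent.Gas

open MeasureTheory Crest.ProbabilityR.Continuum Filter

namespace Lower

/-- the one-cell sum, given a bound on the small terms -/
theorem Sig_le {a0 b0 μm εm R1 : ℝ} (ha0 : 0 < a0) (h54 : 54 * εm ≤ a0)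
    (hR1 : Real.exp 1 ≤ R1) (hR1' : 54 * (μm + b0 + 2) ≤ a0 * R1) {u0 Ψ : ℝ → ℝ} {b : ℕ}
    (hb : 1 ≤ b) (h0 : ∀ r, 0 ≤ Ψ r) {s : ℝ} (hs : s ≤ 1)
    (hst : ∀ (N : ℕ) (x : Fin N → Pt),
        a0 * Qc (1 / 2) 0 x - b0 * N ≤ pairE (rad (fun r => u0 r - 2 * Ψ r)) x)
    {μ c : ℝ} (hμ : |μ| ≤ μm) (hc : c ≤ 2 * εm / b ^ 3) {E : ℝ} (hE : 0 ≤ E)
    (hsmall : ∀ n : ℕ, (n : ℝ) ≤ R1 * b ^ 3 →
      Zf (rad (fun r => u0 r - (1 + s) * Ψ r)) (cube b) n *
        ENNReal.ofReal (Real.exp (μ * n + c * n ^ 2 / 2)) ≤ ENNReal.ofReal (Real.exp E)) :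
    Sig (fun r => u0 r - (1 + s) * Ψ r) b c μ ≤
      ENNReal.ofReal (Real.exp (E + (Real.log (R1 + 3) + 3) * b)) := by
  have hb' : (1 : ℝ) ≤ b := by exact_mod_cast hb
  have hb0 : (0 : ℝ) < b := by linarith
  have hR1pos : 0 < R1 := lt_of_lt_of_le (Real.exp_pos 1) hR1
  set M := ⌊R1 * (b : ℝ) ^ 3⌋₊ with hM
  have hterm : ∀ n : ℕ, Zf (rad (fun r => u0 r - (1 + s) * Ψ r)) (cube b) n *
        ENNReal.ofReal (Real.exp (μ * n + c * n ^ 2 / 2)) ≤
        (if n ∈ Finset.range (M + 1) then ENNReal.ofReal (Real.exp E) else 0) +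
          (2⁻¹ : ENNReal) ^ n := by
    intro n
    by_cases hn : n ∈ Finset.range (M + 1)
    · rw [if_pos hn]
      refine (hsmall n ?_).trans le_self_add
      rw [Finset.mem_range, Nat.lt_succ_iff, hM] at hn
      exact (Nat.le_floor_iff (by positivity)).1 hn
    · rw [if_neg hn, zero_add]
      rw [Finset.mem_range, not_lt] at hn
      have hn' : R1 * (b : ℝ) ^ 3 ≤ n := by
        have h1 : R1 * (b : ℝ) ^ 3 < M + 1 := Nat.lt_floor_add_one _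
        have h2 : ((M + 1 : ℕ) : ℝ) ≤ n := by exact_mod_cast hn
        push_cast at h2
        linarith
      refine (tail_term ha0 h54 hR1 hR1' hb h0 hs hst hμ hc hn').trans ?_
      have h3 : Real.exp (-2 * n) ≤ (1 / 2) ^ n := by
        have h4 : Real.exp (-2 * n) = (Real.exp (-2)) ^ n := by
          rw [← Real.exp_nat_mul]
          congr 1
          ring
        rw [h4]
        have h5 : Real.exp (-2) ≤ 1 / 2 := by
          rw [Real.exp_neg]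
          have : (2 : ℝ) ≤ Real.exp 2 := by
            have := Real.add_one_le_exp (2 : ℝ)
            linarith
          rw [inv_eq_one_div]
          exact one_div_le_one_div_of_le (by norm_num) this
        gcongr
      calc ENNReal.ofReal (Real.exp (-2 * n)) ≤ ENNReal.ofReal ((1 / 2) ^ n) :=
            ENNReal.ofReal_le_ofReal h3
        _ = (2⁻¹ : ENNReal) ^ n := by
            rw [ENNReal.ofReal_pow (by norm_num)]
            congr 1
            rw [one_div, ENNReal.ofReal_inv_of_pos (by norm_num)]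
            simp
  have hsum : Sig (fun r => u0 r - (1 + s) * Ψ r) b c μ ≤
      (M + 1 : ENNReal) * ENNReal.ofReal (Real.exp E) + 2 := by
    unfold Sig
    refine (ENNReal.tsum_le_tsum hterm).trans ?_
    rw [ENNReal.tsum_add, ENNReal.tsum_geometric_two]
    gcongr
    rw [tsum_eq_sum (s := Finset.range (M + 1)) (fun n hn => if_neg hn)]
    rw [Finset.sum_congr rfl (fun n hn => if_pos hn)]
    simp
  refine hsum.trans ?_
  have h6 : (M + 1 : ENNReal) * ENNReal.ofReal (Real.exp E) + 2 =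
      ENNReal.ofReal ((M + 1) * Real.exp E + 2) := by
    rw [ENNReal.ofReal_add (by positivity) (by norm_num), ENNReal.ofReal_mul (by positivity),
      ENNReal.ofReal_add (by positivity) (by norm_num)]
    simp
  rw [h6]
  apply ENNReal.ofReal_le_ofReal
  have h7 : (M : ℝ) ≤ R1 * b ^ 3 := Nat.floor_le (by positivity)
  have h8 : 1 ≤ Real.exp E := Real.one_le_exp hE
  have hb3 : (1 : ℝ) ≤ b ^ 3 := one_le_pow₀ hb'
  calc ((M : ℝ) + 1) * Real.exp E + 2 ≤ (R1 * b ^ 3 + b ^ 3) * Real.exp E + 2 * (b ^ 3 * Real.exp E) := by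
        have h9 : 1 ≤ (b : ℝ) ^ 3 * Real.exp E := by nlinarith
        have h10 : ((M : ℝ) + 1) * Real.exp E ≤ (R1 * b ^ 3 + b ^ 3) * Real.exp E := by gcongr
        linarith
    _ = (R1 + 3) * b ^ 3 * Real.exp E := by ring
    _ = Real.exp (E + (Real.log (R1 + 3) + 3 * Real.log b)) := by
        rw [Real.exp_add, Real.exp_add, Real.exp_log (by positivity),
          show 3 * Real.log (b : ℝ) = ((3 : ℕ) : ℝ) * Real.log b by norm_num, Real.exp_nat_mul,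
          Real.exp_log hb0]
        ring
    _ ≤ Real.exp (E + (Real.log (R1 + 3) + 3) * b) := by
        apply Real.exp_le_exp.2
        have h11 : Real.log b ≤ b := (Real.log_le_sub_one_of_pos hb0).trans (by linarith)
        have h12 : 0 ≤ Real.log (R1 + 3) := Real.log_nonneg (by linarith)
        have h13 : Real.log (R1 + 3) ≤ Real.log (R1 + 3) * b := le_mul_of_one_le_right h12 hb'
        linarith

/-- The bound from superstability alone. -/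
theorem Fe_trivial {a0 b0 μm εm : ℝ} (ha0 : 0 < a0) (hb0 : 0 ≤ b0) (hμm : 0 ≤ μm)
    (h54 : 54 * εm ≤ a0) {u0 Ψ : ℝ → ℝ} (h0 : ∀ r, 0 ≤ Ψ r) {ε R : ℝ}
    (hv : Adm (fun r => u0 r - Ψ r - ε * KK R r))
    (hst : ∀ (N : ℕ) (x : Fin N → Pt),
        a0 * Qc (1 / 2) 0 x - b0 * N ≤ pairE (rad (fun r => u0 r - 2 * Ψ r)) x)
    (hε : 0 ≤ ε) (hε' : ε ≤ εm) (hR : 24 ≤ R) {μ ρ : ℝ} (hμ : |μ| ≤ μm) (hρ : 0 ≤ ρ) :
    μ * ρ - (1 + 27 * (b0 + μm) ^ 2 / a0) ≤ Fe (fun r => u0 r - Ψ r - ε * KK R r) ρ := by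
  have hR0 : 0 < R := by linarith
  have hen : ∀ (N : ℕ) (x : Fin N → Pt), a0 / 2 * Qc (1 / 2) 0 x - b0 * N ≤
      pairE (rad (fun r => u0 r - Ψ r - ε * KK R r)) x := by
    intro N x
    have h1 : pairE (rad (fun r => u0 r - Ψ r - ε * KK R r)) x =
        pairE (rad (fun r => u0 r - (1 + 0) * Ψ r)) x - ε * pairE (rad (KK R)) x := by
      have h2 : rad (fun r => u0 r - Ψ r - ε * KK R r) = fun y z =>
          1 * rad (fun r => u0 r - (1 + 0) * Ψ r) y z + (-ε) * rad (KK R) y z := by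
        funext y z
        unfold rad
        ring
      rw [h2, pairE_lin]
      ring
    have h3 := (hst N x).trans (pairE_two_le (u0 := u0) h0 (zero_le_one) x)
    have h4 : pairE (rad (KK R)) x ≤ 1 / 2 * (11 * Qc (1 / 2) 0 x) := by
      unfold pairE
      have h5 := KK_pair_le hR0 (show (0 : ℝ) < 1 / 2 by norm_num) 0 x
      have h6 : 0 ≤ ∑ i, rad (KK R) (x i) (x i) := Finset.sum_nonneg fun i _ => KK_nonneg _ _
      have h7 : ∑ i, ∑ j, rad (KK R) (x i) (x j) = ∑ i, ∑ j, KK R (dist (x i) (x j)) := rfl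
      have h8 : (1 + 2 * (1 / 2) / R) ^ 6 / (1 / 2) ^ 3 ≤ (11 : ℝ) := by
        have h9 : 1 + 2 * (1 / 2) / R ≤ 25 / 24 := by
          have : 1 / R ≤ 1 / 24 := one_div_le_one_div_of_le (by norm_num) hR
          have h10 : 2 * (1 / 2) / R = 1 / R := by ring
          rw [h10]
          linarith
        have h11 : 0 ≤ 1 + 2 * (1 / 2) / R := by positivity
        calc (1 + 2 * (1 / 2) / R) ^ 6 / (1 / 2) ^ 3 ≤ (25 / 24) ^ 6 / (1 / 2) ^ 3 := by gcongr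
          _ ≤ 11 := by norm_num
      have hQ := Qc_nonneg (1 / 2) 0 x
      have h12 := mul_le_mul_of_nonneg_right h8 hQ
      rw [h7]
      linarith
    have hQ := Qc_nonneg (1 / 2) 0 x
    have h13 : ε * pairE (rad (KK R)) x ≤ a0 / 2 * Qc (1 / 2) 0 x := by
      calc ε * pairE (rad (KK R)) x ≤ ε * (1 / 2 * (11 * Qc (1 / 2) 0 x)) := by gcongr
        _ ≤ a0 / 54 * (1 / 2 * (11 * Qc (1 / 2) 0 x)) := by
            gcongr
            linarith
        _ ≤ a0 / 2 * Qc (1 / 2) 0 x := by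
            have : 0 ≤ a0 * Qc (1 / 2) 0 x := by positivity
            linarith
    rw [h1]
    linarith
  rcases eq_or_lt_of_le hρ with h | h
  · rw [← h, Fe_zero hv, mul_zero]
    have : 0 ≤ 27 * (b0 + μm) ^ 2 / a0 := by positivity
    linarith
  · have hkey := le_Fe_of_energy hv (ρ := ρ) (e := a0 * ρ ^ 2 / 54 - b0 * ρ) h ?_
    · have h1 : -1 ≤ ρ * Real.log ρ - ρ := by
        have h2 := Real.one_sub_inv_le_log_of_pos h
        have h3 : ρ * (1 - ρ⁻¹) ≤ ρ * Real.log ρ := by gcongr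
        have h4 : ρ * (1 - ρ⁻¹) = ρ - 1 := by field_simp
        linarith
      have h5 : μ * ρ ≤ μm * ρ := by
        have : μ ≤ μm := (le_abs_self μ).trans hμ
        gcongr
      have h6 : 0 ≤ a0 * ρ ^ 2 / 54 - (b0 + μm) * ρ + 27 * (b0 + μm) ^ 2 / a0 := by
        have h7 : a0 * ρ ^ 2 / 54 - (b0 + μm) * ρ + 27 * (b0 + μm) ^ 2 / a0 =
            (1 / (54 * a0)) * ((a0 * ρ - 27 * (b0 + μm)) ^ 2 + 729 * (b0 + μm) ^ 2) := by
          field_simp
          ring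
        rw [h7]
        positivity
      linarith
    · intro δ hδ
      have hlim : Tendsto (fun L : ℝ => L ^ 3) atTop atTop := tendsto_pow_atTop (by norm_num)
      filter_upwards [eventually_ge_atTop 1, hlim.eventually_ge_atTop (a0 * ρ / (27 * δ)),
        hlim.eventually_ge_atTop (1 / ρ)] with L hL hL2 hL3
      have hL0 : 0 < L := by linarith
      have hL30 : 0 < L ^ 3 := by positivity
      have hN1 : ((⌊ρ * L ^ 3⌋₊ : ℕ) : ℝ) ≤ ρ * L ^ 3 := Nat.floor_le (by positivity)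
      have hN2 : ρ * L ^ 3 - 1 ≤ ((⌊ρ * L ^ 3⌋₊ : ℕ) : ℝ) := by
        have := Nat.lt_floor_add_one (ρ * L ^ 3)
        linarith
      generalize ⌊ρ * L ^ 3⌋₊ = N at hN1 hN2 ⊢
      intro x hx
      refine le_trans ?_ (hen _ x)
      have hN3 : 0 ≤ ρ * L ^ 3 - 1 := by
        rw [div_le_iff₀ h] at hL3
        linarith
      have hQ := Qc_half_ge hL0.le x hx
      have hQ0 := Qc_nonneg (1 / 2) 0 x
      have h27 : (2 * L + 1) ^ 3 ≤ 27 * L ^ 3 := by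
        calc (2 * L + 1) ^ 3 ≤ (3 * L) ^ 3 := by
              gcongr
              linarith
          _ = 27 * L ^ 3 := by ring
      have hQ' : (N : ℝ) ^ 2 ≤ 27 * L ^ 3 * Qc (1 / 2) 0 x := hQ.trans (by gcongr)
      have hN4 : (ρ * L ^ 3) ^ 2 - 2 * (ρ * L ^ 3) ≤ (N : ℝ) ^ 2 := by
        have : (ρ * L ^ 3 - 1) ^ 2 ≤ (N : ℝ) ^ 2 := by gcongr
        linarith [this, show (ρ * L ^ 3 - 1) ^ 2 = (ρ * L ^ 3) ^ 2 - 2 * (ρ * L ^ 3) + 1 by ring]
      have h8 : ρ ^ 2 * L ^ 3 - 2 * ρ ≤ 27 * Qc (1 / 2) 0 x := by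
        have h9 : (ρ ^ 2 * L ^ 3 - 2 * ρ) * L ^ 3 ≤ (27 * Qc (1 / 2) 0 x) * L ^ 3 := by
          linarith [hN4, hQ', show (ρ ^ 2 * L ^ 3 - 2 * ρ) * L ^ 3 = (ρ * L ^ 3) ^ 2 - 2 * (ρ * L ^ 3) by ring]
        exact le_of_mul_le_mul_right h9 hL30
      have h10 : a0 * ρ / 27 ≤ δ * L ^ 3 := by
        rw [div_le_iff₀ (by positivity)] at hL2
        rw [div_le_iff₀ (by norm_num)]
        linarith
      have h11 : a0 / 54 * (ρ ^ 2 * L ^ 3 - 2 * ρ) ≤ a0 / 54 * (27 * Qc (1 / 2) 0 x) := by gcongr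
      have h12 : b0 * N ≤ b0 * (ρ * L ^ 3) := by gcongr
      have h13 : (a0 * ρ ^ 2 / 54 - b0 * ρ - δ) * L ^ 3 =
        a0 / 54 * (ρ ^ 2 * L ^ 3 - 2 * ρ) + a0 * ρ / 27 - b0 * (ρ * L ^ 3) - δ * L ^ 3 := by ring
      rw [h13]
      linarith

end Lower

open Lower

theorem Fe_lower_step (a0 b0 μm εm Sm R1 : ℝ) (ha0 : 0 < a0) (hb0 : 0 ≤ b0) (hμm : 0 ≤ μm)
    (hεm : 0 ≤ εm) (hSm : 0 ≤ Sm) (h54 : 54 * εm ≤ a0) (hR1 : Real.exp 1 ≤ R1)
    (hR1' : 54 * (μm + b0 + 2) ≤ a0 * R1) :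
    ∃ C : ℝ, 0 ≤ C ∧ ∀ (u0 Ψ : ℝ → ℝ) (D0 ε R : ℝ) (b : ℕ),
      (∀ r, 0 ≤ u0 r) → (∀ r, 1 ≤ r → u0 r = 0) → Measurable u0 →
      (∀ r, 0 ≤ Ψ r) → (∀ r, D0 ≤ r → Ψ r = 0) → Measurable Ψ → 1 ≤ D0 →
      Adm (fun r => u0 r - Ψ r) → 
      Adm (fun r => u0 r - Ψ r - ε * KK R r) →
      (∀ (N : ℕ) (x : Fin N → Pt),
        a0 * Qc (1 / 2) 0 x - b0 * N ≤ pairE (rad (fun r => u0 r - 2 * Ψ r)) x) →
      0 ≤ ε → ε ≤ εm → 12 * (D0 + 1) ≤ b → (b : ℝ) ≤ R →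
      ∀ μ S ρ : ℝ, |μ| ≤ μm → 0 ≤ S → S ≤ Sm → 0 ≤ ρ →
        (∀ ρ' : ℝ, 0 ≤ ρ' → ρ' ≤ R1 → μ * ρ' - Fe (fun r => u0 r - Ψ r) ρ' + ε * ρ' ^ 2 / 2 ≤ S) →
        μ * ρ - S - C * ((D0 + 1) / b + b / R) ≤ Fe (fun r => u0 r - Ψ r - ε * KK R r) ρ := by
  have hR1pos : 0 < R1 := lt_of_lt_of_le (Real.exp_pos 1) hR1
  obtain ⟨A1, hA1⟩ : ∃ A1, A1 = 7 * Sm + 24000 * εm * R1 ^ 2 := ⟨_, rfl⟩
  obtain ⟨A2, hA2⟩ : ∃ A2, A2 = 8 * (2 * (μm * R1 + εm * R1 ^ 2)) + (b0 * R1 + 1) := ⟨_, rfl⟩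
  obtain ⟨A3, hA3⟩ : ∃ A3, A3 = Real.log (R1 + 3) + 3 := ⟨_, rfl⟩
  obtain ⟨A4, hA4⟩ : ∃ A4, A4 = 1 + 27 * (b0 + μm) ^ 2 / a0 := ⟨_, rfl⟩
  have hA1' : 0 ≤ A1 := by rw [hA1]; positivity
  have hA2' : 0 ≤ A2 := by rw [hA2]; positivity
  have hA3' : 0 ≤ A3 := by
    rw [hA3]
    have := Real.log_nonneg (show 1 ≤ R1 + 3 by linarith)
    linarith
  have hA4' : 0 ≤ A4 := by rw [hA4]; positivity
  refine ⟨A1 + 6 * A2 + A3 + 20 * A4, by positivity, ?_⟩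
  intro u0 Ψ D0 ε R b hu0 hu1 hum hΨ0 hΨD hΨm hD0 hAdm hAdmv hst hε hε' hb hbR μ S ρ hμ hS hS' hρ
    hF
  have hb24 : (24 : ℝ) ≤ b := by linarith
  have hbpos : (0 : ℝ) < b := by linarith
  have hb1 : 1 ≤ b := by exact_mod_cast (by linarith : (1 : ℝ) ≤ b)
  have hRpos : 0 < R := by linarith
  obtain ⟨q, hq⟩ : ∃ q, q = (D0 + 1) / b := ⟨_, rfl⟩
  obtain ⟨x, hx⟩ : ∃ x, x = (b : ℝ) / R := ⟨_, rfl⟩
  have hq0 : 0 ≤ q := by rw [hq]; positivity
  have hx0 : 0 ≤ x := by rw [hx]; positivity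
  rw [← hq, ← hx]
  by_cases hxs : x ≤ 1 / 20
  · -- main case
    have hs : 6 * (D0 + 1) / (b : ℝ) = 6 * q := by rw [hq]; ring
    have hq12 : q ≤ 1 / 12 := by
      rw [hq, div_le_iff₀ hbpos]
      linarith
    have hy : 1 / (b : ℝ) ≤ q := by
      rw [hq]
      gcongr
      linarith
    set c := ε * ((1 + 2 * (b : ℝ) / R) ^ 6 / (b : ℝ) ^ 3) with hc
    have hb3 : (0 : ℝ) < (b : ℝ) ^ 3 := by positivity
    have hcle : c ≤ 2 * εm / b ^ 3 := by
      have h1 : (1 + 2 * (b : ℝ) / R) ^ 6 ≤ 2 := by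
        have h2 : 1 + 2 * (b : ℝ) / R ≤ 11 / 10 := by
          have : 2 * (b : ℝ) / R = 2 * x := by rw [hx]; ring
          rw [this]
          linarith
        have h3 : 0 ≤ 1 + 2 * (b : ℝ) / R := by positivity
        calc (1 + 2 * (b : ℝ) / R) ^ 6 ≤ (11 / 10) ^ 6 := by gcongr
          _ ≤ 2 := by norm_num
      calc c = ε * (1 + 2 * (b : ℝ) / R) ^ 6 / (b : ℝ) ^ 3 := by rw [hc]; ring
        _ ≤ εm * 2 / b ^ 3 := by gcongr
        _ = 2 * εm / b ^ 3 := by ring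
    set E := (b : ℝ) ^ 3 * (S + (A1 + 6 * A2) * (q + x)) with hE
    have hE0 : 0 ≤ E := by rw [hE]; positivity
    have hsmall : ∀ n : ℕ, (n : ℝ) ≤ R1 * b ^ 3 →
      Zf (rad (fun r => u0 r - (1 + 6 * (D0 + 1) / (b : ℝ)) * Ψ r)) (cube b) n *
        ENNReal.ofReal (Real.exp (μ * n + c * n ^ 2 / 2)) ≤ ENNReal.ofReal (Real.exp E) := by
      intro n hn
      refine (small_term ha0 hb1 (by rw [hs]; positivity) (by rw [hs]; linarith) hum hΨm hAdm hst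
        μ c n).trans ?_
      apply ENNReal.ofReal_le_ofReal
      apply Real.exp_le_exp.2
      have hr0 : 0 ≤ (n : ℝ) / ((b : ℝ) + 1) ^ 3 := by positivity
      have hr1 : (n : ℝ) / ((b : ℝ) + 1) ^ 3 ≤ R1 := by
        rw [div_le_iff₀ (by positivity)]
        refine hn.trans ?_
        gcongr
        linarith
      have h1 := exponent_le hb0 hμm hεm hSm hR1pos.le (b := b)
        (s := 6 * (D0 + 1) / (b : ℝ)) (ε := ε) (R := R)
        (μ := μ) (S := S) (F := Fe (fun r => u0 r - Ψ r) ((n : ℝ) / ((b : ℝ) + 1) ^ 3)) (n := n)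
        (by linarith) hbR (by rw [hs]; positivity) (by rw [hs]; linarith) hε hε' hμ hS hS'
        (by positivity) hn (hF _ hr0 hr1)
      refine h1.trans ?_
      rw [hE, hs, ← hA1, ← hA2, ← hx]
      have h2 : A1 * (1 / (b : ℝ) + x) ≤ A1 * (q + x) := by gcongr
      have h3 : A2 * (6 * q) ≤ 6 * A2 * (q + x) := by
        have : 0 ≤ 6 * A2 * x := by positivity
        linarith
      apply mul_le_mul_of_nonneg_left _ hb3.le
      linarith
    have hSig := Sig_le (u0 := u0) (Ψ := Ψ) (s := 6 * (D0 + 1) / (b : ℝ)) (μ := μ) (c := c)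
      (E := E) ha0 h54 hR1 hR1' hb1 hΨ0 (by rw [hs]; linarith) hst hμ hcle hE0 hsmall
    have hT0 : 0 ≤ E + (Real.log (R1 + 3) + 3) * b := by
      rw [← hA3]
      positivity
    have hfin := Fe_ge_of_Sig (μ := μ) hu0 hΨ0 hΨD hD0 hb hRpos hε hum hΨm hAdmv hT0 hSig hρ
    refine le_trans ?_ hfin
    rw [← hA3]
    have h4 : (E + A3 * b) / (b : ℝ) ^ 3 ≤ S + (A1 + 6 * A2 + A3) * (q + x) := by
      rw [add_div, hE]
      have h5 : (b : ℝ) ^ 3 * (S + (A1 + 6 * A2) * (q + x)) / (b : ℝ) ^ 3 =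
        S + (A1 + 6 * A2) * (q + x) := by field_simp
      have h6 : A3 * (b : ℝ) / (b : ℝ) ^ 3 ≤ A3 * (q + x) := by
        have h7 : A3 * (b : ℝ) / (b : ℝ) ^ 3 = A3 * (1 / (b : ℝ) * (1 / (b : ℝ))) := by
          field_simp
        rw [h7]
        have h8 : 1 / (b : ℝ) * (1 / (b : ℝ)) ≤ q + x := by
          have h9 : 1 / (b : ℝ) ≤ 1 := by
            rw [div_le_one hbpos]
            linarith
          have h10 : 1 / (b : ℝ) * (1 / (b : ℝ)) ≤ 1 / (b : ℝ) * 1 := by gcongr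
          linarith
        gcongr
      rw [h5]
      linarith
    have h11 : (A1 + 6 * A2 + A3 + 20 * A4) * (q + x) = (A1 + 6 * A2 + A3) * (q + x) +
      20 * A4 * (q + x) := by ring
    have h12 : 0 ≤ 20 * A4 * (q + x) := by positivity
    rw [h11]
    linarith
  · -- trivial case
    push Not at hxs
    have h1 := Fe_trivial ha0 hb0 hμm h54 hΨ0 hAdmv hst hε hε' (by linarith) hμ hρ
    rw [← hA4] at h1
    refine le_trans ?_ h1
    have h2 : A4 ≤ 20 * A4 * x := by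
      have : A4 * 1 ≤ A4 * (20 * x) := by
        gcongr
        linarith
      linarith
    have h3 : (A1 + 6 * A2 + A3 + 20 * A4) * (q + x) = (A1 + 6 * A2 + A3) * (q + x) +
      20 * A4 * q + 20 * A4 * x := by ring
    have h4 : 0 ≤ (A1 + 6 * A2 + A3) * (q + x) := by positivity
    have h5 : 0 ≤ 20 * A4 * q := by positivity
    rw [h3]
    linarith

end Crest.Agent.Gas
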