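import Mathlib

/-! Module W (GasSeq): choice of the scales. -/

set_option autoImplicit false

namespace Crest.Agent.Gas

open Finset

theorem sum_half_le {c : ℝ} (hc : 0 ≤ c) {f : ℕ → ℝ} (hf : ∀ j, f j ≤ c / 2 ^ (j + 1)) (k : ℕ) :
    ∑ j ∈ range k, f j ≤ c := by
  have h : ∀ k : ℕ, ∑ j ∈ range k, c / 2 ^ (j + 1) = c - c / 2 ^ k := by
    intro k
    induction k with
    | zero => simp
    | succ k ih =>
      rw [sum_range_succ, ih]
      rw [pow_succ]
      field_simp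
      ring
  calc ∑ j ∈ range k, f j ≤ ∑ j ∈ range k, c / 2 ^ (j + 1) := sum_le_sum (fun j _ => hf j)
    _ = c - c / 2 ^ k := h k
    _ ≤ c := by
      have : 0 ≤ c / 2 ^ k := by positivity
      linarith

theorem exists_seq {Λ κ θ h0 κ3 a' C CL : ℝ} (hΛ : 0 < Λ) (hκ : 0 < κ) (hθ : 0 < θ)
    (hh0 : 0 < h0) (hκ3 : 0 < κ3) (ha' : 0 < a') (hC : 0 ≤ C) (hCL : 0 ≤ CL) :
    ∃ (ε L δ h η D : ℕ → ℝ) (b : ℕ → ℕ),
      ε 0 = Λ ∧ (∀ k, 0 < ε k) ∧ (∀ k, ∑ j ∈ range k, ε (j + 1) ≤ 2 * κ * Λ) ∧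
      (∀ k, 100 ≤ L k) ∧ (∀ k, 2 * L k ≤ L (k + 1)) ∧
      (∃ C' : ℝ, ∀ k, ε k ≤ C' * (L k) ^ (-(1 / 32 : ℝ))) ∧
      (∀ k, 0 ≤ δ k) ∧ (∀ k, 0 < h k) ∧ (∀ k, 0 ≤ η k) ∧
      (∀ k, 4 * (δ k + CL * h k) ≤ a' * ε (k + 1) * (η k) ^ 2) ∧
      (∀ k, ∑ j ∈ range k, η j ≤ θ) ∧ (∀ k, ∑ j ∈ range k, h j ≤ h0) ∧
      (∀ k, ∑ j ∈ range k, 2 * δ j / h j ≤ κ3) ∧
      (∀ k, 1 ≤ D k) ∧ (∀ k j, j < k → 2 * L j ≤ D k) ∧ (∀ k, 12 * (D k + 1) ≤ b k) ∧
      (∀ k, (b k : ℝ) ≤ L k) ∧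
      (∀ k, C * ((D k + 1) / b k + b k / L k) ≤ δ k) ∧ (∀ k, C / (L k) ^ 3 ≤ δ k) := by
  obtain ⟨W, hW⟩ := exists_nat_ge (64 + 128 * C / (a' * κ * Λ * θ ^ 2) + 32 * C / (κ3 * h0) +
    512 * (CL + 1) * C / (κ3 * (a' * κ * Λ * θ ^ 2)))
  have g1 : 0 ≤ 128 * C / (a' * κ * Λ * θ ^ 2) := by positivity
  have g2 : 0 ≤ 32 * C / (κ3 * h0) := by positivity
  have g3 : 0 ≤ 512 * (CL + 1) * C / (κ3 * (a' * κ * Λ * θ ^ 2)) := by positivity
  have W64 : (64 : ℝ) ≤ W := by linarith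
  have hW1 : 128 * C ≤ W * (a' * κ * Λ * θ ^ 2) := by
    have : 128 * C / (a' * κ * Λ * θ ^ 2) ≤ W := by linarith
    rwa [div_le_iff₀ (by positivity)] at this
  have hW2 : 32 * C ≤ W * (κ3 * h0) := by
    have : 32 * C / (κ3 * h0) ≤ W := by linarith
    rwa [div_le_iff₀ (by positivity)] at this
  have hW3 : 512 * (CL + 1) * C ≤ W * (κ3 * (a' * κ * Λ * θ ^ 2)) := by
    have : 512 * (CL + 1) * C / (κ3 * (a' * κ * Λ * θ ^ 2)) ≤ W := by linarith
    rwa [div_le_iff₀ (by positivity)] at this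
  obtain ⟨X, hX⟩ : ∃ X : ℕ → ℝ, X = fun k => (W : ℝ) ^ (2 ^ k) := ⟨_, rfl⟩
  have X0 : X 0 = W := by simp [hX]
  have Xs : ∀ k, X (k + 1) = X k ^ 2 := by
    intro k
    simp only [hX]
    rw [← pow_mul, pow_succ]
  have XW : ∀ k, (W : ℝ) * 8 ^ k ≤ X k := by
    intro k
    simp only [hX]
    have h1 : k + 1 ≤ 2 ^ k := Nat.lt_two_pow_self
    calc (W : ℝ) * 8 ^ k ≤ W * W ^ k := by
          apply mul_le_mul_of_nonneg_left _ (by positivity)
          exact pow_le_pow_left₀ (by norm_num) (by linarith) k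
      _ = (W : ℝ) ^ (k + 1) := by ring
      _ ≤ (W : ℝ) ^ (2 ^ k) := pow_le_pow_right₀ (by linarith) h1
  have one8 : ∀ k : ℕ, (1 : ℝ) ≤ 8 ^ k := fun k => one_le_pow₀ (by norm_num)
  have XW' : ∀ k, (W : ℝ) ≤ X k := by
    intro k
    have := XW k
    have := one8 k
    nlinarith
  have X64 : ∀ k, 64 ≤ X k := fun k => W64.trans (XW' k)
  have Xpos : ∀ k, 0 < X k := fun k => by linarith [X64 k]
  have X8 : ∀ k, (8 : ℝ) ^ k ≤ X k := by
    intro k
    have h1 := XW k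
    have h2 := one8 k
    nlinarith
  have Wpos : (0 : ℝ) < W := by linarith
  obtain ⟨ε, hε⟩ : ∃ ε : ℕ → ℝ, ε = fun k => Nat.casesOn k Λ (fun j => κ * Λ * W / X j) := ⟨_, rfl⟩
  have ε0 : ε 0 = Λ := by simp [hε]
  have εs : ∀ k, ε (k + 1) = κ * Λ * W / X k := by intro k; simp [hε]
  obtain ⟨D, hD⟩ : ∃ D : ℕ → ℝ, D = fun k => Nat.casesOn k 1 (fun j => 2 * X j ^ 8) := ⟨_, rfl⟩
  have D0 : D 0 = 1 := by simp [hD]
  have Ds : ∀ k, D (k + 1) = 2 * X k ^ 8 := by intro k; simp [hD]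
  have εpos : ∀ k, 0 < ε k := by
    intro k
    cases k with
    | zero => rw [ε0]; exact hΛ
    | succ k =>
      rw [εs]
      have := Xpos k
      positivity
  have Lgrow : ∀ k, 2 * X k ^ 8 ≤ X (k + 1) ^ 8 := by
    intro k
    rw [Xs]
    have h1 := X64 k
    have h2 : 1 ≤ X k ^ 7 := one_le_pow₀ (by linarith)
    have h3 : 2 ≤ X k ^ 8 := by
      calc (2 : ℝ) ≤ X k * 1 := by linarith
        _ ≤ X k * X k ^ 7 := mul_le_mul_of_nonneg_left h2 (by linarith)
        _ = X k ^ 8 := by ring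
    calc 2 * X k ^ 8 ≤ X k ^ 8 * X k ^ 8 := mul_le_mul_of_nonneg_right h3 (by positivity)
      _ = _ := by ring
  have Lmono : ∀ k j, j < k → 2 * X j ^ 8 ≤ D k := by
    intro k
    induction k with
    | zero => intro j hj; exact absurd hj (Nat.not_lt_zero _)
    | succ k ih =>
      intro j hj
      rw [Ds]
      rcases Nat.lt_succ_iff_lt_or_eq.1 hj with h | h
      · have h1 := ih j h
        have h2 : D k ≤ 2 * X k ^ 8 := by
          cases k with
          | zero => exact absurd h (Nat.not_lt_zero _)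
          | succ k =>
            rw [Ds]
            have := Lgrow k
            have h3 : 0 ≤ X (k + 1) ^ 8 := by have := Xpos (k + 1); positivity
            linarith
        linarith
      · rw [h]
  have Dle : ∀ k, D k + 1 ≤ 3 * X k ^ 4 := by
    intro k
    cases k with
    | zero =>
      rw [D0]
      have : 1 ≤ X 0 ^ 4 := one_le_pow₀ (by linarith [X64 0])
      linarith
    | succ k =>
      rw [Ds, Xs]
      have : 1 ≤ X k ^ 8 := one_le_pow₀ (by linarith [X64 k])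
      have e : (X k ^ 2) ^ 4 = X k ^ 8 := by ring
      rw [e]
      linarith
  have D1 : ∀ k, 1 ≤ D k := by
    intro k
    cases k with
    | zero => rw [D0]
    | succ k =>
      rw [Ds]
      have : 1 ≤ X k ^ 8 := one_le_pow₀ (by linarith [X64 k])
      linarith
  obtain ⟨h, hh⟩ : ∃ h : ℕ → ℝ, h = fun k => min (h0 / 2 ^ (k + 1))
    (a' * ε (k + 1) * (θ / 2 ^ (k + 1)) ^ 2 / (8 * (CL + 1))) := ⟨_, rfl⟩
  have hpos : ∀ k, 0 < h k := by
    intro k
    rw [hh]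
    have := εpos (k + 1)
    simp only [lt_min_iff]
    constructor <;> positivity
  refine ⟨ε, fun k => X k ^ 8, fun k => 4 * C / X k ^ 2, h, fun k => θ / 2 ^ (k + 1), D,
    fun k => W ^ (6 * 2 ^ k), ε0, εpos, ?_, ?_, Lgrow, ?_, ?_, hpos, ?_, ?_, ?_, ?_, ?_, D1, Lmono,
    ?_, ?_, ?_, ?_⟩
  · apply sum_half_le (by positivity)
    intro j
    rw [εs, div_le_div_iff₀ (Xpos j) (by positivity)]
    have h1 := XW j
    have h2 : (2 : ℝ) ^ j ≤ 8 ^ j := pow_le_pow_left₀ (by norm_num) (by norm_num) j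
    have h3 : (W : ℝ) * 2 ^ j ≤ X j := by
      have := mul_le_mul_of_nonneg_left h2 Wpos.le
      linarith
    have h4 := mul_le_mul_of_nonneg_left h3 (by positivity : 0 ≤ 2 * κ * Λ)
    calc κ * Λ * W * 2 ^ (j + 1) = 2 * κ * Λ * (W * 2 ^ j) := by ring
      _ ≤ _ := h4
  · intro k
    have h1 := X64 k
    have h2 : 64 ^ 8 ≤ X k ^ 8 := pow_le_pow_left₀ (by norm_num) h1 8
    simp only
    linarith
  · refine ⟨Λ * W + κ * Λ * W, ?_⟩
    intro k
    have hXp := Xpos k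
    have e1 : (X k ^ 8) ^ (-(1 / 32 : ℝ)) = X k ^ (-(1 / 4 : ℝ)) := by
      rw [← Real.rpow_natCast, ← Real.rpow_mul hXp.le]
      norm_num
    simp only [e1]
    cases k with
    | zero =>
      rw [ε0, X0]
      have h1 : (1 : ℝ) ≤ W * (W : ℝ) ^ (-(1 / 4 : ℝ)) := by
        have e2 : (W : ℝ) * (W : ℝ) ^ (-(1 / 4 : ℝ)) = (W : ℝ) ^ (3 / 4 : ℝ) := by
          nth_rewrite 1 [← Real.rpow_one (W : ℝ)]
          rw [← Real.rpow_add Wpos]
          norm_num
        rw [e2]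
        exact Real.one_le_rpow (by linarith) (by norm_num)
      have h2 : 0 ≤ (W : ℝ) ^ (-(1 / 4 : ℝ)) := Real.rpow_nonneg Wpos.le _
      have h3 := mul_le_mul_of_nonneg_left h1 hΛ.le
      have h4 : 0 ≤ κ * Λ * W * (W : ℝ) ^ (-(1 / 4 : ℝ)) := by positivity
      linarith
    | succ k =>
      have hXk := Xpos k
      have e2 : X (k + 1) ^ (-(1 / 4 : ℝ)) = X k ^ (-(1 / 2 : ℝ)) := by
        rw [Xs, ← Real.rpow_natCast, ← Real.rpow_mul hXk.le]
        norm_num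
      rw [εs, e2]
      have h1 : (X k)⁻¹ ≤ X k ^ (-(1 / 2 : ℝ)) := by
        rw [← Real.rpow_neg_one]
        exact Real.rpow_le_rpow_of_exponent_le (by linarith [X64 k]) (by norm_num)
      have h2 : 0 ≤ X k ^ (-(1 / 2 : ℝ)) := Real.rpow_nonneg hXk.le _
      have h3 := mul_le_mul_of_nonneg_left h1 (by positivity : 0 ≤ κ * Λ * W)
      have h4 : 0 ≤ Λ * W * X k ^ (-(1 / 2 : ℝ)) := by positivity
      rw [div_eq_mul_inv]
      linarith
  · intro k
    have := Xpos k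
    positivity
  · intro k
    positivity
  · -- ηh
    intro k
    have hXp := Xpos k
    have h1 : h k ≤ a' * ε (k + 1) * (θ / 2 ^ (k + 1)) ^ 2 / (8 * (CL + 1)) := by
      rw [hh]; exact min_le_right _ _
    have hE : 0 < a' * ε (k + 1) * (θ / 2 ^ (k + 1)) ^ 2 := by
      have := εpos (k + 1)
      positivity
    have h2 : 4 * (CL * h k) ≤ a' * ε (k + 1) * (θ / 2 ^ (k + 1)) ^ 2 / 2 := by
      have h3 : CL * h k ≤ (CL + 1) * h k := by
        have := (hpos k).le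
        nlinarith
      have h4 : (CL + 1) * h k ≤ a' * ε (k + 1) * (θ / 2 ^ (k + 1)) ^ 2 / 8 := by
        rw [le_div_iff₀ (by positivity)] at h1 ⊢
        linarith
      linarith
    have h3 : 4 * (4 * C / X k ^ 2) ≤ a' * ε (k + 1) * (θ / 2 ^ (k + 1)) ^ 2 / 2 := by
      rw [εs]
      have e : a' * (κ * Λ * W / X k) * (θ / 2 ^ (k + 1)) ^ 2 / 2 =
          (W * (a' * κ * Λ * θ ^ 2)) / (8 * 4 ^ k * X k) := by
        have : (2 : ℝ) ^ (k + 1) = 2 * 2 ^ k := by ring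
        rw [this]
        have h4 : (4 : ℝ) ^ k = (2 ^ k) ^ 2 := by
          rw [← pow_mul, mul_comm k 2, pow_mul]; norm_num
        rw [h4]
        field_simp
        ring
      rw [e]
      have e2 : 4 * (4 * C / X k ^ 2) = (128 * C) / (8 * X k * X k) := by
        field_simp
        ring
      rw [e2]
      apply div_le_div₀ _ hW1 (by positivity)
      · have h4 : (4 : ℝ) ^ k ≤ X k :=
          (pow_le_pow_left₀ (by norm_num) (by norm_num) k).trans (X8 k)
        have := mul_le_mul_of_nonneg_right h4 hXp.le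
        linarith
      · positivity
    linarith
  · intro k
    exact sum_half_le hθ.le (fun j => le_rfl) k
  · intro k
    apply sum_half_le hh0.le
    intro j
    rw [hh]
    exact min_le_left _ _
  · intro k
    apply sum_half_le hκ3.le
    intro j
    have hXp := Xpos j
    rw [div_le_iff₀ (hpos j)]
    have h1 : 2 * (4 * C / X j ^ 2) ≤ κ3 / 2 ^ (j + 1) * (h0 / 2 ^ (j + 1)) := by
      have e1 : κ3 / 2 ^ (j + 1) * (h0 / 2 ^ (j + 1)) = W * (κ3 * h0) / (W * (4 * 4 ^ j)) := by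
        have : (2 : ℝ) ^ (j + 1) = 2 * 2 ^ j := by ring
        rw [this]
        have h4 : (4 : ℝ) ^ j = (2 ^ j) ^ 2 := by
          rw [← pow_mul, mul_comm j 2, pow_mul]; norm_num
        rw [h4]
        field_simp
        ring
      have e2 : 2 * (4 * C / X j ^ 2) = 32 * C / (4 * X j ^ 2) := by
        field_simp
        ring
      rw [e1, e2]
      apply div_le_div₀ _ hW2 (by positivity)
      · have h4 : (4 : ℝ) ^ j ≤ X j :=
          (pow_le_pow_left₀ (by norm_num) (by norm_num) j).trans (X8 j)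
        have h5 : W * (4 : ℝ) ^ j ≤ X j * X j := mul_le_mul (XW' j) h4 (by positivity) hXp.le
        linarith
      · positivity
    have h2 : 2 * (4 * C / X j ^ 2) ≤ κ3 / 2 ^ (j + 1) *
        (a' * ε (j + 1) * (θ / 2 ^ (j + 1)) ^ 2 / (8 * (CL + 1))) := by
      rw [εs]
      have e1 : κ3 / 2 ^ (j + 1) *
        (a' * (κ * Λ * W / X j) * (θ / 2 ^ (j + 1)) ^ 2 / (8 * (CL + 1))) =
          W * (κ3 * (a' * κ * Λ * θ ^ 2)) / (64 * (CL + 1) * (8 ^ j * X j)) := by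
        have : (2 : ℝ) ^ (j + 1) = 2 * 2 ^ j := by ring
        rw [this]
        have h4 : (8 : ℝ) ^ j = (2 ^ j) ^ 3 := by
          rw [← pow_mul, mul_comm j 3, pow_mul]; norm_num
        rw [h4]
        field_simp
        ring
      have e2 : 2 * (4 * C / X j ^ 2) = 512 * (CL + 1) * C / (64 * (CL + 1) * (X j * X j)) := by
        field_simp
        ring
      rw [e1, e2]
      apply div_le_div₀ _ hW3 (by positivity)
      · have h5 := mul_le_mul_of_nonneg_right (X8 j) hXp.le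
        exact mul_le_mul_of_nonneg_left h5 (by positivity)
      · positivity
    have h3 : h j = min (h0 / 2 ^ (j + 1))
        (a' * ε (j + 1) * (θ / 2 ^ (j + 1)) ^ 2 / (8 * (CL + 1))) := by rw [hh]
    rw [h3]
    rcases min_choice (h0 / 2 ^ (j + 1))
        (a' * ε (j + 1) * (θ / 2 ^ (j + 1)) ^ 2 / (8 * (CL + 1))) with h4 | h4
    · rw [h4]; exact h1
    · rw [h4]; exact h2
  · intro k
    have e : ((W ^ (6 * 2 ^ k) : ℕ) : ℝ) = X k ^ 6 := by
      push_cast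
      simp only [hX]
      rw [← pow_mul, mul_comm]
    rw [e]
    have h1 := Dle k
    have h2 : 36 * X k ^ 4 ≤ X k ^ 6 := by
      have h3 : 36 ≤ X k ^ 2 := by
        have := X64 k
        nlinarith
      calc 36 * X k ^ 4 ≤ X k ^ 2 * X k ^ 4 := mul_le_mul_of_nonneg_right h3 (by positivity)
        _ = _ := by ring
    linarith
  · intro k
    have e : ((W ^ (6 * 2 ^ k) : ℕ) : ℝ) = X k ^ 6 := by
      push_cast
      simp only [hX]
      rw [← pow_mul, mul_comm]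
    rw [e]
    exact pow_le_pow_right₀ (by linarith [X64 k]) (by norm_num)
  · intro k
    have e : ((W ^ (6 * 2 ^ k) : ℕ) : ℝ) = X k ^ 6 := by
      push_cast
      simp only [hX]
      rw [← pow_mul, mul_comm]
    rw [e]
    have hXp := Xpos k
    have h1 : (D k + 1) / X k ^ 6 ≤ 3 / X k ^ 2 := by
      rw [div_le_div_iff₀ (by positivity) (by positivity)]
      have := mul_le_mul_of_nonneg_right (Dle k) (by positivity : 0 ≤ X k ^ 2)
      calc (D k + 1) * X k ^ 2 ≤ _ := this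
        _ = _ := by ring
    have h2 : X k ^ 6 / X k ^ 8 = 1 / X k ^ 2 := by
      field_simp
    rw [h2]
    have h3 : (D k + 1) / X k ^ 6 + 1 / X k ^ 2 ≤ 4 / X k ^ 2 := by
      have : (4 : ℝ) / X k ^ 2 = 3 / X k ^ 2 + 1 / X k ^ 2 := by ring
      linarith
    have h4 := mul_le_mul_of_nonneg_left h3 hC
    calc _ ≤ _ := h4
      _ = _ := by ring
  · intro k
    have hXp := Xpos k
    have h1 : X k ^ 2 ≤ (X k ^ 8) ^ 3 := by
      rw [← pow_mul]
      exact pow_le_pow_right₀ (by linarith [X64 k]) (by norm_num)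
    apply div_le_div₀ (by positivity) (by linarith) (by positivity) h1

end Crest.Agent.Gas
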