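import Crest.Agent.GasThermo
import Crest.Agent.GasKernel

/-! Module D: subtracting a kernel lowers the free energy at least by its mean field value:
`∑_{i<j} KK = (1/2)(∑_{i,j} KK - N KK(0)) ≥ (1/2)(N²/(L+2R)³ - N/volB R)` for every configuration. -/

set_option autoImplicit false

namespace Crest.Agent.Gas

open MeasureTheory Crest.ProbabilityR.Continuum Filter

private theorem Zf_lt_top' {u : ℝ → ℝ} (hu : Adm u) {L : ℝ} (hL : 0 ≤ L) (N : ℕ) :
    Zf (rad u) (cube L) N < ⊤ := by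
  obtain ⟨B, hB⟩ := hu.stable
  refine (Zf_le_of_stable (measurableSet_cube L) N (B * N) (fun x _ => hB N x)).trans_lt ?_
  rw [volume_cube hL]
  apply ENNReal.div_lt_top
  · exact ENNReal.mul_ne_top ENNReal.ofReal_ne_top (ENNReal.pow_ne_top ENNReal.ofReal_ne_top)
  · exact_mod_cast N.factorial_ne_zero

private theorem Zf_cube_pos' {u : ℝ → ℝ} (hu : Adm u) {L : ℝ} (hL : 0 < L) (N : ℕ) :
    0 < Zf (rad u) (cube L) N := by
  apply Zf_pos (measurable_rad hu.meas) (measurableSet_cube L)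
  rw [volume_cube hL.le]
  exact ENNReal.ofReal_pos.2 (by positivity)

private theorem pairE_sub_kernel_le {u : ℝ → ℝ} {ε R L : ℝ} (hε : 0 ≤ ε) (hR : 0 < R)
    (hL : 0 ≤ L) {N : ℕ} (x : Fin N → Pt) (hx : ∀ i, x i ∈ cube L) :
    pairE (rad (fun r => u r - ε * KK R r)) x ≤
      pairE (rad u) x - ε / 2 * ((N : ℝ) ^ 2 / (L + 2 * R) ^ 3 - N / volB R) := by
  have h1 := KK_pair_ge hR hL x hx
  have h2 : pairE (rad (fun r => u r - ε * KK R r)) x = pairE (rad u) x -
      ε / 2 * ((∑ i, ∑ j, KK R (dist (x i) (x j))) - N / volB R) := by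
    unfold pairE rad
    simp only [Finset.sum_sub_distrib, ← Finset.mul_sum, dist_self, KK_zero hR, Finset.sum_const,
      Finset.card_univ, Fintype.card_fin, nsmul_eq_mul]
    ring
  rw [h2]
  have h3 : 0 ≤ ε / 2 := by linarith
  have := mul_le_mul_of_nonneg_left h1 h3
  nlinarith

private theorem feL_sub_kernel_le {u : ℝ → ℝ} {ε R ρ L : ℝ} (hε : 0 ≤ ε) (hR : 0 < R)
    (hu : Adm u) (hv : Adm (fun r => u r - ε * KK R r)) (hL : 0 < L) :
    feL (fun r => u r - ε * KK R r) ρ L ≤ feL u ρ L -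
      ε / 2 * ((⌊ρ * L ^ 3⌋₊ : ℝ) ^ 2 / (L + 2 * R) ^ 3 - (⌊ρ * L ^ 3⌋₊ : ℝ) / volB R) / L ^ 3 := by
  set N := ⌊ρ * L ^ 3⌋₊ with hN
  set c : ℝ := ε / 2 * ((N : ℝ) ^ 2 / (L + 2 * R) ^ 3 - N / volB R) with hc
  have h2 : ENNReal.ofReal (Real.exp c) * Zf (rad u) (cube L) N ≤
      Zf (rad (fun r => u r - ε * KK R r)) (cube L) N := by
    unfold Zf
    rw [mul_left_comm]
    gcongr
    rw [← lintegral_const_mul' _ _ ENNReal.ofReal_ne_top]
    apply setLIntegral_mono' (MeasurableSet.univ_pi fun _ => measurableSet_cube L)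
    intro x hx
    rw [← ENNReal.ofReal_mul (Real.exp_pos c).le, ← Real.exp_add]
    apply ENNReal.ofReal_le_ofReal
    apply Real.exp_le_exp.2
    have := pairE_sub_kernel_le (u := u) hε hR hL.le x (fun i => hx i (Set.mem_univ i))
    rw [← hc] at this
    linarith
  have hpos := Zf_cube_pos' hu hL N
  have hfin := Zf_lt_top' hu hL.le N
  have hfin' := Zf_lt_top' hv hL.le N
  have h3 : c + Real.log (Zf (rad u) (cube L) N).toReal ≤
      Real.log (Zf (rad (fun r => u r - ε * KK R r)) (cube L) N).toReal := by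
    have hp : 0 < (Zf (rad u) (cube L) N).toReal := ENNReal.toReal_pos hpos.ne' hfin.ne
    rw [← Real.log_exp c, ← Real.log_mul (Real.exp_pos _).ne' hp.ne']
    apply Real.log_le_log (by positivity)
    have := ENNReal.toReal_mono hfin'.ne h2
    rwa [ENNReal.toReal_mul, ENNReal.toReal_ofReal (Real.exp_pos _).le] at this
  unfold feL
  rw [← sub_div]
  apply div_le_div_of_nonneg_right _ (by positivity)
  linarith

theorem Fe_sub_kernel_le {u : ℝ → ℝ} {ε R ρ : ℝ} (hε : 0 ≤ ε) (hR : 0 < R) (hρ : 0 ≤ ρ)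
    (hu : Adm u) (hv : Adm (fun r => u r - ε * KK R r)) :
    Fe (fun r => u r - ε * KK R r) ρ ≤ Fe u ρ - ε * ρ ^ 2 / 2 + ε * ρ / (2 * volB R) := by
  have hVB := volB_pos hR
  have hfloor : Tendsto (fun L : ℝ => (⌊ρ * L ^ 3⌋₊ : ℝ) / L ^ 3) atTop (nhds ρ) := by
    have h1 : Tendsto (fun x : ℝ => (⌊ρ * x⌋₊ : ℝ) / x) atTop (nhds ρ) :=
      tendsto_nat_floor_mul_div_atTop hρ
    exact h1.comp (tendsto_pow_atTop (by norm_num))
  have hratio : Tendsto (fun L : ℝ => L ^ 3 / (L + 2 * R) ^ 3) atTop (nhds 1) := by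
    have h1 : Tendsto (fun L : ℝ => (L / (L + 2 * R)) ^ 3) atTop (nhds (1 ^ 3)) := by
      apply Tendsto.pow
      have h2 : Tendsto (fun L : ℝ => 1 - 2 * R / (L + 2 * R)) atTop (nhds (1 - 0)) := by
        apply Tendsto.sub tendsto_const_nhds
        apply Tendsto.div_atTop tendsto_const_nhds
        exact tendsto_atTop_add_const_right _ _ tendsto_id
      rw [sub_zero] at h2
      refine h2.congr' ?_
      filter_upwards [eventually_gt_atTop 0] with L hL
      have : L + 2 * R ≠ 0 := by positivity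
      field_simp
      ring
    rw [one_pow] at h1
    refine h1.congr fun L => ?_
    rw [div_pow]
  have h1 := hv.tendsto_Fe hρ
  have h2 := hu.tendsto_Fe hρ
  have h3 : Tendsto (fun L : ℝ => feL u ρ L -
      ε / 2 * ((⌊ρ * L ^ 3⌋₊ : ℝ) ^ 2 / (L + 2 * R) ^ 3 - (⌊ρ * L ^ 3⌋₊ : ℝ) / volB R) / L ^ 3)
      atTop (nhds (Fe u ρ - ε / 2 * (ρ ^ 2 * 1 - ρ / volB R))) := by
    apply Tendsto.sub h2
    have h4 : Tendsto (fun L : ℝ => ε / 2 * (((⌊ρ * L ^ 3⌋₊ : ℝ) / L ^ 3) ^ 2 *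
        (L ^ 3 / (L + 2 * R) ^ 3) - ((⌊ρ * L ^ 3⌋₊ : ℝ) / L ^ 3) / volB R)) atTop
        (nhds (ε / 2 * (ρ ^ 2 * 1 - ρ / volB R))) := by
      apply Tendsto.const_mul
      apply Tendsto.sub
      · exact (hfloor.pow 2).mul hratio
      · exact hfloor.div_const _
    refine h4.congr' ?_
    filter_upwards [eventually_gt_atTop 0] with L hL
    have : L + 2 * R ≠ 0 := by positivity
    field_simp
  have h5 := le_of_tendsto_of_tendsto h1 h3 (by
    filter_upwards [eventually_gt_atTop 0] with L hL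
    exact feL_sub_kernel_le hε hR hu hv hL)
  refine h5.trans (le_of_eq ?_)
  field_simp
  ring

end Crest.Agent.Gas
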