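import Crest.Agent.GasKink

/-! Module V (GasVer): verification of the level-zero hypotheses of `KinkHyp` (pure real analysis). -/

set_option autoImplicit false

namespace Crest.Agent.Gas

open Set Filter

structure BaseHyp (F0 : ℝ → ℝ → ℝ) (Λ p q p' q' θ θ1 R Cμ Ah : ℝ) : Prop where
  Λ1 : 1 ≤ Λ
  p1 : 1 ≤ p
  q2 : 2 * p ≤ q
  θpos : 0 < θ
  θ1pos : 0 < θ1
  θp : 16 * θ ≤ p
  θq : 128 * θ ≤ q
  θqp : 32 * θ ≤ q - p
  θhalf : θ ≤ 1 / 2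
  hθ1 : 16 * (q + 2) * θ1 ≤ θ ^ 2
  hR : q + 1 ≤ R
  p'l : p - θ1 ≤ p'
  p'u : p' ≤ p
  q'l : q - θ1 ≤ q'
  q'u : q' ≤ q
  Cμ0 : 0 ≤ Cμ
  hAh : q / 2 * (q - p) + 2 * θ1 + 2 * Cμ * R + 9 / 16 * R ^ 2 < 7 / 8 * Ah * θ
  zero : ∀ t, 7 / 8 ≤ t → t ≤ 9 / 8 → F0 t 0 = 0
  fa : ∀ t ρ, 7 / 8 ≤ t → t ≤ 9 / 8 → 0 ≤ ρ → ρ ≤ R →
    Λ * (q / 2 * max (ρ - p) 0 - θ1) ≤ F0 t ρ
  fb : ∀ t, 7 / 8 ≤ t → t ≤ 9 / 8 → F0 t p' ≤ Λ * θ1
  fc : ∀ t, 7 / 8 ≤ t → t ≤ 9 / 8 → F0 t q' ≤ Λ * (q / 2 * (q - p) + θ1)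
  fd : ∀ t ρ, 7 / 8 ≤ t → t ≤ 9 / 8 → 0 ≤ ρ → ρ ≤ R →
    7 / 8 * Ah * Λ * (ρ - q) - θ1 * Λ ≤ F0 t ρ

section

variable {F0 : ℝ → ℝ → ℝ} {Λ p q p' q' θ θ1 R Cμ Ah : ℝ}

theorem BaseHyp.θ1small (B : BaseHyp F0 Λ p q p' q' θ θ1 R Cμ Ah) : 128 * θ1 ≤ θ := by
  have h1 := B.hθ1
  have h2 := B.θ1pos
  have h3 := B.θhalf
  have h4 := B.θpos
  have h5 := B.q2
  have h6 := B.p1
  have h7 : 64 * θ1 ≤ 16 * (q + 2) * θ1 := by nlinarith
  have h8 : θ ^ 2 ≤ θ * (1 / 2) := by nlinarith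
  linarith

theorem BaseHyp.lowA (B : BaseHyp F0 Λ p q p' q' θ θ1 R Cμ Ah) {t ρ : ℝ} (ht : 7 / 8 ≤ t)
    (ht' : t ≤ 9 / 8) (hρ : 0 ≤ ρ) (hρ' : ρ ≤ R) : -(Λ * θ1) ≤ F0 t ρ := by
  have h := B.fa t ρ ht ht' hρ hρ'
  have hΛ := B.Λ1
  have hq := B.q2
  have hp := B.p1
  have h1 : 0 ≤ Λ * (q / 2 * max (ρ - p) 0) := by
    have : 0 ≤ max (ρ - p) 0 := le_max_right _ _
    have : 0 ≤ q / 2 := by linarith
    positivity
  nlinarith

theorem BaseHyp.lowB (B : BaseHyp F0 Λ p q p' q' θ θ1 R Cμ Ah) {t ρ : ℝ} (ht : 7 / 8 ≤ t)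
    (ht' : t ≤ 9 / 8) (hρ : 0 ≤ ρ) (hρ' : ρ ≤ R) : Λ * (q / 2 * (ρ - p) - θ1) ≤ F0 t ρ := by
  have h := B.fa t ρ ht ht' hρ hρ'
  have hΛ := B.Λ1
  have hq := B.q2
  have hp := B.p1
  have h2 : ρ - p ≤ max (ρ - p) 0 := le_max_left _ _
  have h3 : q / 2 * (ρ - p) ≤ q / 2 * max (ρ - p) 0 :=
    mul_le_mul_of_nonneg_left h2 (by linarith)
  have h4 : Λ * (q / 2 * (ρ - p) - θ1) ≤ Λ * (q / 2 * max (ρ - p) 0 - θ1) :=
    mul_le_mul_of_nonneg_left (by linarith) (by linarith)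
  linarith

/-- The mixture inequality: combining contact inequalities at two points `u < v` around `x`. -/
theorem contact_mix {F : ℝ → ℝ → ℝ} {ε R t μ x u v : ℝ} (h : Contact F ε R t μ x)
    (hu0 : 0 ≤ u) (huR : u ≤ R) (hv0 : 0 ≤ v) (hvR : v ≤ R) (hux : u ≤ x) (hxv : x ≤ v) :
    (v - u) * F t x ≤ (v - x) * F t u + (x - u) * F t v
      - t * ε / 2 * ((v - u) * ((x - u) * (v - x))) := by
  obtain ⟨_, _, h3⟩ := h
  have h1 := mul_le_mul_of_nonneg_left (h3 u hu0 huR) (sub_nonneg.2 hxv)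
  have h2 := mul_le_mul_of_nonneg_left (h3 v hv0 hvR) (sub_nonneg.2 hux)
  nlinarith

theorem BaseHyp.H1a (B : BaseHyp F0 Λ p q p' q' θ θ1 R Cμ Ah) {t μ x : ℝ} (ht : 7 / 8 ≤ t)
    (ht' : t ≤ 9 / 8) (hx : Contact F0 Λ R t μ x) (hc1 : θ < x) (hxp' : x < p - θ) : False := by
  have hs := B.θ1small
  obtain ⟨Λ1, p1, q2, θpos, θ1pos, θp, θq, θqp, θhalf, hθ1, hR, p'l, p'u, q'l, q'u, Cμ0, hAh,
    hz, fa, fb, fc, fd⟩ := id B
  obtain ⟨hx0, hxR, hxc⟩ := id hx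
  have hΛ0 : 0 < Λ := by linarith
  have hp'0 : 0 ≤ p' := by linarith
  have hp'R : p' ≤ R := by linarith
  have F0x := B.lowA ht ht' hx0 hxR
  have Fb := fb t ht ht'
  have Fz := hz t ht ht'
  have hm := contact_mix hx le_rfl (by linarith : (0:ℝ) ≤ R) hp'0 hp'R hx0 (by linarith)
  rw [Fz] at hm
  simp only [sub_zero, mul_zero, zero_add] at hm
  have h1 : p' * (-(Λ * θ1)) ≤ p' * F0 t x := mul_le_mul_of_nonneg_left F0x hp'0
  have h2 : x * F0 t p' ≤ x * (Λ * θ1) := mul_le_mul_of_nonneg_left Fb hx0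
  have h3 : θ * (θ / 2) ≤ x * (p' - x) := by
    apply mul_le_mul hc1.le (by linarith) (by positivity) hx0
  have hpos : 0 < p' := by linarith
  have h4 : 7 / 8 * Λ / 2 * (p' * (θ * (θ / 2))) ≤ t * Λ / 2 * (p' * (x * (p' - x))) := by
    have e0 : 7 / 8 * Λ / 2 ≤ t * Λ / 2 := by
      have := mul_le_mul_of_nonneg_right ht hΛ0.le
      linarith
    apply mul_le_mul e0 (mul_le_mul_of_nonneg_left h3 hp'0) (by positivity) (by positivity)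
  have h5 : x * (Λ * θ1) ≤ p' * (Λ * θ1) :=
    mul_le_mul_of_nonneg_right (by linarith) (by positivity)
  have h6 : 7 / 8 * Λ / 2 * (p' * (θ * (θ / 2))) ≤ 2 * (p' * (Λ * θ1)) := by linarith
  have h7 : (p' * Λ) * (7 / 32 * θ ^ 2) ≤ (p' * Λ) * (2 * θ1) := by linarith
  have h8 : 7 / 32 * θ ^ 2 ≤ 2 * θ1 := le_of_mul_le_mul_left h7 (by positivity)
  have h9 : 64 * θ1 ≤ 16 * (q + 2) * θ1 := by
    apply mul_le_mul_of_nonneg_right _ θ1pos.le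
    linarith
  have h10 : 0 < θ ^ 2 := by positivity
  linarith

theorem BaseHyp.H1b (B : BaseHyp F0 Λ p q p' q' θ θ1 R Cμ Ah) {t μ x : ℝ} (ht : 7 / 8 ≤ t)
    (ht' : t ≤ 9 / 8) (hx : Contact F0 Λ R t μ x) (hxp' : p + θ < x) (hxq' : x < q - θ) :
    False := by
  have hs := B.θ1small
  obtain ⟨Λ1, p1, q2, θpos, θ1pos, θp, θq, θqp, θhalf, hθ1, hR, p'l, p'u, q'l, q'u, Cμ0, hAh,
    hz, fa, fb, fc, fd⟩ := id B
  obtain ⟨hx0, hxR, hxc⟩ := id hx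
  have hΛ0 : 0 < Λ := by linarith
  have hp'0 : 0 ≤ p' := by linarith
  have hq'0 : 0 ≤ q' := by linarith
  have hp'R : p' ≤ R := by linarith
  have hq'R : q' ≤ R := by linarith
  have Fb := fb t ht ht'
  have Fc := fc t ht ht'
  have hm := contact_mix hx hp'0 hp'R hq'0 hq'R (by linarith) (by linarith)
  have F0x' := B.lowB ht ht' hx0 hxR
  have h1 : (q' - p') * (Λ * (q / 2 * (x - p) - θ1)) ≤ (q' - p') * F0 t x :=
    mul_le_mul_of_nonneg_left F0x' (by linarith)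
  have h2 : (q' - x) * F0 t p' ≤ (q' - x) * (Λ * θ1) :=
    mul_le_mul_of_nonneg_left Fb (by linarith)
  have h3 : (x - p') * F0 t q' ≤ (x - p') * (Λ * (q / 2 * (q - p) + θ1)) :=
    mul_le_mul_of_nonneg_left Fc (by linarith)
  have h4 : θ * (θ / 2) ≤ (x - p') * (q' - x) := by
    apply mul_le_mul (by linarith) (by linarith) (by positivity) (by linarith)
  have hqp : 0 < q' - p' := by linarith
  have h5 : 7 / 8 * Λ / 2 * ((q' - p') * (θ * (θ / 2))) ≤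
      t * Λ / 2 * ((q' - p') * ((x - p') * (q' - x))) := by
    have e0 : 7 / 8 * Λ / 2 ≤ t * Λ / 2 := by
      have := mul_le_mul_of_nonneg_right ht hΛ0.le
      linarith
    apply mul_le_mul e0 (mul_le_mul_of_nonneg_left h4 hqp.le) (by positivity) (by positivity)
  have h6 : Λ * (q / 2 * ((x - p') * (q - p) - (q' - p') * (x - p))) ≤
      Λ * (q / 2 * (2 * θ1 * (q' - p'))) := by
    apply mul_le_mul_of_nonneg_left _ hΛ0.le
    apply mul_le_mul_of_nonneg_left _ (by linarith)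
    have e1 : (x - p') * (q - p) - (q' - p') * (x - p) =
        (p - p') * (q - x) + (q - q') * (x - p) := by ring
    rw [e1]
    have e2 : (p - p') * (q - x) ≤ θ1 * (q - x) :=
      mul_le_mul_of_nonneg_right (by linarith) (by linarith)
    have e3 : (q - q') * (x - p) ≤ θ1 * (x - p) :=
      mul_le_mul_of_nonneg_right (by linarith) (by linarith)
    have e4 : θ1 * (q - x) + θ1 * (x - p) = θ1 * (q - p) := by ring
    have e5 : θ1 * (q - p) ≤ θ1 * (2 * (q' - p')) :=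
      mul_le_mul_of_nonneg_left (by linarith) θ1pos.le
    linarith
  have h7 : ((q' - p') * Λ) * (7 / 32 * θ ^ 2) ≤ ((q' - p') * Λ) * ((q + 2) * θ1) := by
    linarith
  have h8 := le_of_mul_le_mul_left h7 (by positivity)
  have h10 : 0 < θ ^ 2 := by positivity
  linarith

theorem BaseHyp.H1c (B : BaseHyp F0 Λ p q p' q' θ θ1 R Cμ Ah) {t μ x : ℝ} (ht : 7 / 8 ≤ t)
    (ht' : t ≤ 9 / 8) (hμ : |μ| ≤ 2 * Cμ * Λ) (hx : Contact F0 Λ R t μ x) (hxq' : q + θ < x) :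
    False := by
  have hs := B.θ1small
  obtain ⟨Λ1, p1, q2, θpos, θ1pos, θp, θq, θqp, θhalf, hθ1, hR, p'l, p'u, q'l, q'u, Cμ0, hAh,
    hz, fa, fb, fc, fd⟩ := id B
  obtain ⟨hx0, hxR, hxc⟩ := id hx
  have hΛ0 : 0 < Λ := by linarith
  have hq'0 : 0 ≤ q' := by linarith
  have hq'R : q' ≤ R := by linarith
  have Fc := fc t ht ht'
  have hμ' := abs_le.1 hμ
  have Fd := fd t x ht ht' hx0 hxR
  have hc := hxc q' hq'0 hq'R
  have hR0 : 0 ≤ R := by linarith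
  have hAh0 : 0 < Ah := by
    have h0 : 0 < 7 / 8 * Ah * θ := by
      have h1 : 0 ≤ q / 2 * (q - p) := mul_nonneg (by linarith) (by linarith)
      have h2 : 0 ≤ 2 * Cμ * R := by positivity
      have h3 : 0 ≤ 9 / 16 * R ^ 2 := by positivity
      linarith
    have h1 : 0 < 7 / 8 * Ah := (mul_pos_iff_of_pos_right θpos).1 h0
    linarith
  have h1 : 7 / 8 * Ah * Λ * θ ≤ 7 / 8 * Ah * Λ * (x - q) :=
    mul_le_mul_of_nonneg_left (by linarith) (by positivity)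
  have h2 : μ * (x - q') ≤ 2 * Cμ * Λ * R := by
    calc μ * (x - q') ≤ 2 * Cμ * Λ * (x - q') :=
          mul_le_mul_of_nonneg_right hμ'.2 (by linarith)
      _ ≤ _ := mul_le_mul_of_nonneg_left (by linarith) (by positivity)
  have h3 : t * Λ * x ^ 2 / 2 ≤ 9 / 16 * Λ * R ^ 2 := by
    have e1 : x ^ 2 ≤ R ^ 2 := pow_le_pow_left₀ hx0 hxR 2
    have h : t * Λ ≤ 9 / 8 * Λ := mul_le_mul_of_nonneg_right ht' hΛ0.le
    have : t * Λ * x ^ 2 ≤ 9 / 8 * Λ * R ^ 2 :=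
      mul_le_mul h e1 (sq_nonneg _) (by positivity)
    linarith
  have h4 : 0 ≤ t * Λ * q' ^ 2 / 2 := by positivity
  have h5 : Λ * (7 / 8 * Ah * θ) ≤
      Λ * (q / 2 * (q - p) + 2 * θ1 + 2 * Cμ * R + 9 / 16 * R ^ 2) := by linarith
  have h6 := le_of_mul_le_mul_left h5 hΛ0
  linarith

theorem BaseHyp.H1 (B : BaseHyp F0 Λ p q p' q' θ θ1 R Cμ Ah) {t μ x : ℝ} (ht : 7 / 8 ≤ t)
    (ht' : t ≤ 9 / 8) (hμ : |μ| ≤ 2 * Cμ * Λ) (hx : Contact F0 Λ R t μ x) :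
    x ≤ θ ∨ |x - p| ≤ θ ∨ |x - q| ≤ θ := by
  by_contra hcon
  push Not at hcon
  obtain ⟨hc1, hc2, hc3⟩ := hcon
  rcases lt_abs.1 hc2 with h | h
  · rcases lt_abs.1 hc3 with h' | h'
    · exact B.H1c ht ht' hμ hx (by linarith)
    · exact B.H1b ht ht' hx (by linarith) (by linarith)
  · exact B.H1a ht ht' hx hc1 (by linarith)

/-- upper bound at a contact point, comparing with `z`. -/
theorem contact_le {F : ℝ → ℝ → ℝ} {Λ R t μ x z Cμ d : ℝ} (h : Contact F Λ R t μ x)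
    (ht : 0 ≤ t) (ht' : t ≤ 9 / 8) (hΛ : 0 < Λ) (hCμ : 0 ≤ Cμ) (hμ : |μ| ≤ 2 * Cμ * Λ)
    (hz : 0 ≤ z) (hzR : z ≤ R) (hd : |x - z| ≤ d) :
    F t x ≤ F t z + Λ * (9 / 8 * R * d + 2 * Cμ * d) := by
  obtain ⟨hx0, hxR, hxc⟩ := h
  have hd0 : 0 ≤ d := (abs_nonneg _).trans hd
  have hc := hxc z hz hzR
  have hR : 0 ≤ R := hz.trans hzR
  have h1 : μ * (x - z) ≤ 2 * Cμ * Λ * d := by
    calc μ * (x - z) ≤ |μ * (x - z)| := le_abs_self _
      _ = |μ| * |x - z| := abs_mul _ _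
      _ ≤ _ := mul_le_mul hμ hd (abs_nonneg _) (by positivity)
  have h2 : t * Λ * ((x - z) * (x + z)) / 2 ≤ 9 / 8 * Λ * (d * (2 * R)) / 2 := by
    have e1 : (x - z) * (x + z) ≤ d * (2 * R) := by
      calc (x - z) * (x + z) ≤ |x - z| * (x + z) :=
            mul_le_mul_of_nonneg_right (le_abs_self _) (by linarith)
        _ ≤ _ := mul_le_mul hd (by linarith) (by linarith) hd0
    have e2 : t * Λ * ((x - z) * (x + z)) ≤ t * Λ * (d * (2 * R)) :=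
      mul_le_mul_of_nonneg_left e1 (by positivity)
    have e3 : t * Λ * (d * (2 * R)) ≤ 9 / 8 * Λ * (d * (2 * R)) := by
      apply mul_le_mul_of_nonneg_right _ (by positivity)
      exact mul_le_mul_of_nonneg_right ht' hΛ.le
    linarith
  have h3 : t * Λ * x ^ 2 / 2 - t * Λ * z ^ 2 / 2 = t * Λ * ((x - z) * (x + z)) / 2 := by ring
  linarith

theorem BaseHyp.H2 (B : BaseHyp F0 Λ p q p' q' θ θ1 R Cμ Ah) {t t' μ x : ℝ} (ht : 7 / 8 ≤ t)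
    (ht' : t ≤ 9 / 8) (hs : 7 / 8 ≤ t') (hs' : t' ≤ 9 / 8)
    (hμ : |μ| ≤ 2 * Cμ * Λ) (hx : Contact F0 Λ R t μ x) :
    F0 t x - F0 t' x ≤ Λ * θ * (1 + q / 2 + 9 / 4 * R + 4 * Cμ) := by
  have hs1 := B.θ1small
  have hH := B.H1 ht ht' hμ hx
  obtain ⟨Λ1, p1, q2, θpos, θ1pos, θp, θq, θqp, θhalf, hθ1, hR, p'l, p'u, q'l, q'u, Cμ0, hAh,
    hz, fa, fb, fc, fd⟩ := id B
  obtain ⟨hx0, hxR, hxc⟩ := id hx
  have hΛ0 : 0 < Λ := by linarith
  have hp'0 : 0 ≤ p' := by linarith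
  have hq'0 : 0 ≤ q' := by linarith
  have hp'R : p' ≤ R := by linarith
  have hq'R : q' ≤ R := by linarith
  have F0x := B.lowA hs hs' hx0 hxR
  have hR0 : 0 ≤ R := by linarith
  have e0 : 0 ≤ Λ * θ * (q / 2) := by
    have : 0 ≤ q := by linarith
    positivity
  have e1 : 0 ≤ Λ * (θ - 2 * θ1) := mul_nonneg hΛ0.le (by linarith)
  have e2 : 0 ≤ Λ * (9 / 8 * R * θ) := by positivity
  have e3 : 0 ≤ Λ * (2 * Cμ * θ) := by positivity
  have e4 : 0 ≤ Λ * θ1 := by positivity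
  rcases hH with h | h | h
  · have hle := contact_le hx (by linarith) ht' hΛ0 Cμ0 hμ le_rfl hR0
      (d := θ) (by rw [sub_zero, abs_of_nonneg hx0]; exact h)
    rw [hz t ht ht'] at hle
    linarith
  · have hd : |x - p'| ≤ 2 * θ := by
      have := abs_le.1 h
      exact abs_le.2 ⟨by linarith [this.1], by linarith [this.2]⟩
    have hle := contact_le hx (by linarith) ht' hΛ0 Cμ0 hμ hp'0 hp'R hd
    have Fb := fb t ht ht'
    linarith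
  · have hd : |x - q'| ≤ 2 * θ := by
      have := abs_le.1 h
      exact abs_le.2 ⟨by linarith [this.1], by linarith [this.2]⟩
    have hle := contact_le hx (by linarith) ht' hΛ0 Cμ0 hμ hq'0 hq'R hd
    have Fc := fc t ht ht'
    have F0x' := B.lowB hs hs' hx0 hxR
    have h5 : Λ * (q / 2 * (q - p)) - Λ * (q / 2 * (x - p)) ≤ Λ * θ * (q / 2) := by
      have : (Λ * (q / 2)) * (q - x) ≤ (Λ * (q / 2)) * θ := by
        apply mul_le_mul_of_nonneg_left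
        · linarith [(abs_le.1 h).1]
        · have : 0 ≤ q := by linarith
          positivity
      linarith
    linarith

theorem BaseHyp.H3 (B : BaseHyp F0 Λ p q p' q' θ θ1 R Cμ Ah) {μ' μ'' x' x'' κ2 : ℝ}
    (hx' : Contact F0 Λ R (15 / 16) μ' x') (hx'' : Contact F0 Λ R (15 / 16) μ'' x'')
    (h1 : x' ≤ θ) (h2 : |x'' - q| ≤ θ) (hκ : 128 * κ2 < Λ * q) (hμ : |μ' - μ''| ≤ 2 * κ2) :
    False := by
  have hs1 := B.θ1small
  obtain ⟨Λ1, p1, q2, θpos, θ1pos, θp, θq, θqp, θhalf, hθ1, hR, p'l, p'u, q'l, q'u, Cμ0, hAh,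
    hz, fa, fb, fc, fd⟩ := id B
  obtain ⟨hx0, hxR, hxc⟩ := id hx'
  obtain ⟨hy0, hyR, hyc⟩ := id hx''
  have hΛ0 : 0 < Λ := by linarith
  have hp'0 : 0 ≤ p' := by linarith
  have hp'R : p' ≤ R := by linarith
  have c1 := hxc p' hp'0 hp'R
  have c2 := hyc p' hp'0 hp'R
  have Fb := fb (15 / 16) (by norm_num) (by norm_num)
  have l1 := B.lowA (t := 15 / 16) (by norm_num) (by norm_num) hx0 hxR
  have l2 := B.lowB (t := 15 / 16) (by norm_num) (by norm_num) hy0 hyR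
  have hx2 := abs_le.1 h2
  have hμ2 := abs_le.1 hμ
  have d1 : 1 / 2 ≤ p' - x' := by linarith
  have d2 : 1 / 2 ≤ x'' - p' := by linarith
  -- μ' ≤ Λ (4 θ1 - 15/32 p')
  have m1 : μ' ≤ Λ * (4 * θ1 - 15 / 32 * p') := by
    have e1 : μ' * (p' - x') ≤ Λ * (4 * θ1 - 15 / 32 * p') * (p' - x') := by
      have e2 : μ' * (p' - x') ≤ 2 * (Λ * θ1) - 15 / 32 * Λ * ((p' - x') * (p' + x')) := by
        linarith
      have e3 : 2 * (Λ * θ1) ≤ Λ * (4 * θ1) * (p' - x') := by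
        have := mul_le_mul_of_nonneg_left d1 (by positivity : 0 ≤ Λ * (4 * θ1))
        linarith
      have e4 : 15 / 32 * Λ * ((p' - x') * p') ≤ 15 / 32 * Λ * ((p' - x') * (p' + x')) := by
        apply mul_le_mul_of_nonneg_left _ (by positivity)
        apply mul_le_mul_of_nonneg_left _ (by linarith)
        linarith
      linarith
    exact le_of_mul_le_mul_right e1 (by linarith)
  -- μ'' ≥ Λ (q/2 - (q+4) θ1 - 15/32 (x'' + p'))
  have m2 : Λ * (q / 2 - (q + 4) * θ1 - 15 / 32 * (x'' + p')) ≤ μ'' := by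
    have e1 : Λ * (q / 2 - (q + 4) * θ1 - 15 / 32 * (x'' + p')) * (x'' - p') ≤
        μ'' * (x'' - p') := by
      have e2 : Λ * (q / 2 * (x'' - p)) - 2 * (Λ * θ1) -
          15 / 32 * Λ * ((x'' + p') * (x'' - p')) ≤ μ'' * (x'' - p') := by
        linarith
      have hq0 : 0 ≤ q := by linarith
      have e3 : Λ * (q / 2 * (p - p')) ≤ Λ * (q / 2 * θ1) := by
        apply mul_le_mul_of_nonneg_left _ hΛ0.le
        apply mul_le_mul_of_nonneg_left _ (by positivity)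
        linarith
      have e4 : Λ * ((q + 4) * θ1) * (1 / 2) ≤ Λ * ((q + 4) * θ1) * (x'' - p') :=
        mul_le_mul_of_nonneg_left d2 (by positivity)
      linarith
    exact le_of_mul_le_mul_right e1 (by linarith)
  have m3 : Λ * (q / 2 - (q + 8) * θ1 - 15 / 32 * x'') ≤ 2 * κ2 := by
    linarith [hμ2.1]
  have m4 : Λ * (q / 64) ≤ Λ * (q / 2 - (q + 8) * θ1 - 15 / 32 * x'') := by
    apply mul_le_mul_of_nonneg_left _ hΛ0.le
    have e1 : (q + 8) * θ1 ≤ 4 * (q + 2) * θ1 := by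
      apply mul_le_mul_of_nonneg_right _ θ1pos.le
      linarith
    have e2 : θ ^ 2 ≤ θ * (1 / 2) := by
      rw [pow_two]
      exact mul_le_mul_of_nonneg_left θhalf θpos.le
    linarith [hx2.2]
  linarith

theorem BaseHyp.H4 (B : BaseHyp F0 Λ p q p' q' θ θ1 R Cμ Ah) {μ x : ℝ}
    (hx : Contact F0 Λ R (17 / 16) μ x) (h1 : |x - p| ≤ θ) : False := by
  have hs1 := B.θ1small
  obtain ⟨Λ1, p1, q2, θpos, θ1pos, θp, θq, θqp, θhalf, hθ1, hR, p'l, p'u, q'l, q'u, Cμ0, hAh,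
    hz, fa, fb, fc, fd⟩ := id B
  obtain ⟨hx0, hxR, hxc⟩ := id hx
  have hΛ0 : 0 < Λ := by linarith
  have hq'0 : 0 ≤ q' := by linarith
  have hq'R : q' ≤ R := by linarith
  have hxp := abs_le.1 h1
  have hm := contact_mix hx le_rfl (by linarith : (0:ℝ) ≤ R) hq'0 hq'R hx0 (by linarith [hxp.2])
  rw [hz _ (by norm_num) (by norm_num)] at hm
  simp only [sub_zero, mul_zero, zero_add] at hm
  have l1 := B.lowA (t := 17 / 16) (by norm_num) (by norm_num) hx0 hxR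
  have Fc := fc (17 / 16) (by norm_num) (by norm_num)
  have h2 : q' * (-(Λ * θ1)) ≤ q' * F0 (17 / 16) x := mul_le_mul_of_nonneg_left l1 hq'0
  have h3 : x * F0 (17 / 16) q' ≤ x * (Λ * (q / 2 * (q - p) + θ1)) :=
    mul_le_mul_of_nonneg_left Fc hx0
  have hx12 : 1 / 2 ≤ x := by linarith [hxp.1]
  -- 17/32 q' (q' - x) x ≤ x (q/2 (q-p) + θ1) + q' θ1
  have h4 : Λ * (17 / 32 * (q' * (x * (q' - x)))) ≤
      Λ * (x * (q / 2 * (q - p) + θ1) + q' * θ1) := by linarith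
  have h5 := le_of_mul_le_mul_left h4 hΛ0
  have h6 : q' * θ1 ≤ x * (2 * q' * θ1) := by
    have := mul_le_mul_of_nonneg_right hx12 (by positivity : 0 ≤ 2 * q' * θ1)
    linarith
  have h7 : x * (17 / 32 * (q' * (q' - x))) ≤ x * (q / 2 * (q - p) + θ1 + 2 * q' * θ1) := by
    linarith
  have h8 := le_of_mul_le_mul_left h7 (by linarith)
  -- q' (q' - x) ≥ (q - θ1)(q - p - 2 θ) ≥ q(q-p) - 2 q θ - θ1 (q - p)
  have h9 : (q - θ1) * (q - p - 2 * θ) ≤ q' * (q' - x) := by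
    apply mul_le_mul q'l (by linarith [hxp.2]) (by linarith) hq'0
  have h10 : q * θ ≤ q * ((q - p) / 32) := mul_le_mul_of_nonneg_left (by linarith) (by linarith)
  -- better estimate of x: x ≤ p + θ, so q' - x ≥ q - p - θ - θ1
  have h9' : (q - θ1) * (q - p - θ - θ1) ≤ q' * (q' - x) := by
    apply mul_le_mul q'l (by linarith [hxp.2]) (by linarith) hq'0
  have h11 : q * θ1 * 16 ≤ θ ^ 2 := by
    have : 16 * q * θ1 ≤ 16 * (q + 2) * θ1 := by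
      apply mul_le_mul_of_nonneg_right _ θ1pos.le
      linarith
    linarith
  have h12 : θ ^ 2 ≤ θ * (1 / 2) := by
    rw [pow_two]
    exact mul_le_mul_of_nonneg_left θhalf θpos.le
  have h13 : q' * θ1 ≤ q * θ1 := mul_le_mul_of_nonneg_right q'u θ1pos.le
  have h14 : θ1 * (q - p) ≤ θ1 * q := mul_le_mul_of_nonneg_left (by linarith) θ1pos.le
  have h15 : 0 ≤ θ1 * θ := by positivity
  have h15' : 0 ≤ θ1 * θ1 := by positivity
  have h16 : 2 * θ ≤ q * θ := mul_le_mul_of_nonneg_right (by linarith) θpos.le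
  have h17 : 0 < q * θ := by
    have : 0 < q := by linarith
    positivity
  linarith

theorem fin_ineq {Λ p q θ R Cμ κ x0 x1 x2 ρ : ℝ} (hΛ : 0 < Λ) (p1 : 1 ≤ p) (q2 : 2 * p ≤ q)
    (θpos : 0 < θ) (θp : 32 * θ ≤ p) (θhalf : θ ≤ 1 / 2) (hκ0 : 0 ≤ κ) (hκ : 128 * κ * (q + 1) ^ 2 ≤ p ^ 2)
    (hθ : 64 * θ * (9 * q + 5 + 128 * (1 + q / 2 + 9 / 4 * R + 4 * Cμ)) ≤ p ^ 2)
    (hx0 : 0 ≤ x0) (hx0' : x0 ≤ 2 * θ) (hx1 : |x1 - p| ≤ 2 * θ) (hx2 : |x2 - q| ≤ 2 * θ)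
    (hρ : 3 / 2 * p ≤ ρ) (hρ' : ρ ≤ 7 / 4 * p) :
    ((x2 - ρ) * ((1 + 2 * κ) * Λ * (x1 + θ) ^ 2 / 2 + Λ * p ^ 2 / 256) +
      (ρ - x1) * ((1 + 2 * κ) * Λ * (x2 + θ) ^ 2 / 2 + Λ * p ^ 2 / 256)) / (x2 - x1)
      + ((x2 - ρ) * (Λ * θ * (1 + q / 2 + 9 / 4 * R + 4 * Cμ) / (1 / 64) + Λ * p ^ 2 / 256) +
        (ρ - x0) * (Λ * θ * (1 + q / 2 + 9 / 4 * R + 4 * Cμ) / (1 / 64) + Λ * p ^ 2 / 256
          - Λ * (x2 - θ) ^ 2 / 2)) / (x2 - x0) < 0 := by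
  obtain ⟨a1, a2⟩ := abs_le.1 hx1
  obtain ⟨b1, b2⟩ := abs_le.1 hx2
  have hq0 : 0 ≤ q := by linarith
  have d1 : 0 < x2 - x1 := by linarith
  have d2 : 0 < x2 - x0 := by linarith
  have e1 : ((x2 - ρ) * ((1 + 2 * κ) * Λ * (x1 + θ) ^ 2 / 2 + Λ * p ^ 2 / 256) +
      (ρ - x1) * ((1 + 2 * κ) * Λ * (x2 + θ) ^ 2 / 2 + Λ * p ^ 2 / 256)) / (x2 - x1) =
      Λ * p ^ 2 / 256 + (1 + 2 * κ) * Λ / 2 *
        ((ρ + θ) * (x1 + x2 + 2 * θ) - (x1 + θ) * (x2 + θ)) := by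
    rw [div_eq_iff d1.ne']
    ring
  -- bound of the first bracket
  have t1 : (ρ + θ) * (x1 + x2 + 2 * θ) - (x1 + θ) * (x2 + θ) ≤
      p * ρ + q * (ρ - p) + θ * (4 * q + 5 * θ) := by
    have e2 : (x2 + θ - (ρ + θ)) * (p - θ) ≤ (x2 + θ - (ρ + θ)) * (x1 + θ) :=
      mul_le_mul_of_nonneg_left (by linarith) (by linarith)
    have e3 : (x2 + θ) * (ρ + 2 * θ - p) ≤ (q + 3 * θ) * (ρ + 2 * θ - p) :=
      mul_le_mul_of_nonneg_right (by linarith) (by linarith)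
    have e4 : θ * (ρ - p) ≤ θ * q := mul_le_mul_of_nonneg_left (by linarith) θpos.le
    linarith
  have t1' : p * ρ + q * (ρ - p) + θ * (4 * q + 5 * θ) ≤ 5 * (q + 1) ^ 2 := by
    have h1 : p * ρ ≤ q * q := mul_le_mul (by linarith) (by linarith) (by linarith) (by linarith)
    have h2 : q * (ρ - p) ≤ q * q := mul_le_mul_of_nonneg_left (by linarith) (by linarith)
    have h3 : θ * (4 * q + 5 * θ) ≤ q * (4 * q + 5 * q) / 32 := by
      have : θ * (4 * q + 5 * θ) ≤ (q / 32) * (4 * q + 5 * q) := by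
        apply mul_le_mul (by linarith) (by linarith) (by positivity) (by linarith)
      linarith
    nlinarith
  have e5 : ((x2 - ρ) * (Λ * θ * (1 + q / 2 + 9 / 4 * R + 4 * Cμ) / (1 / 64) + Λ * p ^ 2 / 256) +
        (ρ - x0) * (Λ * θ * (1 + q / 2 + 9 / 4 * R + 4 * Cμ) / (1 / 64) + Λ * p ^ 2 / 256
          - Λ * (x2 - θ) ^ 2 / 2)) / (x2 - x0) =
      64 * (Λ * θ * (1 + q / 2 + 9 / 4 * R + 4 * Cμ)) + Λ * p ^ 2 / 256 -
        Λ / 2 * ((ρ - x0) * (x2 - θ) ^ 2 / (x2 - x0)) := by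
    field_simp
    ring
  have t2 : (ρ - 2 * θ) * (q - 3 * θ) ≤ (ρ - x0) * (x2 - θ) ^ 2 / (x2 - x0) := by
    rw [le_div_iff₀ d2]
    have h1 : (x2 - x0) * (ρ - 2 * θ) ≤ (ρ - x0) * (x2 - θ) := by
      have h2 : 0 ≤ (2 * θ - x0) * (x2 - ρ) := mul_nonneg (by linarith) (by linarith)
      have h3 : 0 ≤ θ * (ρ - x0) := mul_nonneg θpos.le (by linarith)
      linarith
    have h4 : 0 ≤ (x2 - x0) * (ρ - 2 * θ) := mul_nonneg d2.le (by linarith)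
    calc (ρ - 2 * θ) * (q - 3 * θ) * (x2 - x0) = ((x2 - x0) * (ρ - 2 * θ)) * (q - 3 * θ) := by ring
      _ ≤ ((ρ - x0) * (x2 - θ)) * (x2 - θ) := by
          apply mul_le_mul h1 (by linarith) (by linarith)
          apply mul_nonneg (by linarith) (by linarith)
      _ = _ := by ring
  rw [e1, e5]
  have t3 : (1 + 2 * κ) * Λ / 2 * ((ρ + θ) * (x1 + x2 + 2 * θ) - (x1 + θ) * (x2 + θ)) ≤
      (1 + 2 * κ) * Λ / 2 * (p * ρ + q * (ρ - p) + θ * (4 * q + 5 * θ)) :=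
    mul_le_mul_of_nonneg_left t1 (by positivity)
  have t4 : κ * Λ * (p * ρ + q * (ρ - p) + θ * (4 * q + 5 * θ)) ≤ κ * Λ * (5 * (q + 1) ^ 2) :=
    mul_le_mul_of_nonneg_left t1' (by positivity)
  have t5 : Λ / 2 * ((ρ - 2 * θ) * (q - 3 * θ)) ≤
      Λ / 2 * ((ρ - x0) * (x2 - θ) ^ 2 / (x2 - x0)) :=
    mul_le_mul_of_nonneg_left t2 (by positivity)
  have t6 : Λ * (128 * κ * (q + 1) ^ 2) ≤ Λ * p ^ 2 := mul_le_mul_of_nonneg_left hκ hΛ.le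
  have t7 : Λ * (64 * θ * (9 * q + 5 + 128 * (1 + q / 2 + 9 / 4 * R + 4 * Cμ))) ≤ Λ * p ^ 2 :=
    mul_le_mul_of_nonneg_left hθ hΛ.le
  have t8 : 0 < Λ * p ^ 2 := by positivity
  have t9 : Λ * (p * (7 / 4 * p)) ≥ Λ * (p * ρ) :=
    mul_le_mul_of_nonneg_left (mul_le_mul_of_nonneg_left hρ' (by linarith)) hΛ.le
  have t10 : Λ * (p * (2 * p)) ≤ Λ * (p * q) :=
    mul_le_mul_of_nonneg_left (mul_le_mul_of_nonneg_left q2 (by linarith)) hΛ.le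
  have t11 : Λ * (θ * ρ) ≤ Λ * (θ * q) :=
    mul_le_mul_of_nonneg_left (mul_le_mul_of_nonneg_left (by linarith) θpos.le) hΛ.le
  have t13 : Λ * (θ * θ) ≤ Λ * (θ * 1) :=
    mul_le_mul_of_nonneg_left (mul_le_mul_of_nonneg_left (by linarith) θpos.le) hΛ.le
  have t14 : 0 ≤ Λ * (θ * θ) := by positivity
  linarith

end

end Crest.Agent.Gas
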