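import Crest.Agent.GasFam2
import Crest.Agent.GasBase
import Crest.Agent.GasLower
import Crest.Agent.GasUpper
import Crest.Agent.GasVer
import Crest.Agent.GasSeq
import Crest.Agent.GasJump

/-! Module Y1 (GasAsm1): uniform bounds, Lipschitz, limit, lower step for the family. -/

set_option autoImplicit false

namespace Crest.Agent.Gas

open MeasureTheory Crest.ProbabilityR.Continuum Filter Set

section

variable {φ : ℝ → ℝ} {A r t0 sa sc sd a0 : ℝ} {m : ℕ} {L : ℕ → ℝ}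

/-- uniform bound -/
theorem CoreSetup.abs_le (S : CoreSetup φ A r t0 sa sc sd a0 m L) {K : ℝ} (hK0 : 0 ≤ K)
    (hK : ∫⁻ z : Pt, ENNReal.ofReal (φ ‖z‖) ≤ ENNReal.ofReal K) {β1 R : ℝ}
    {w : ℕ → ℝ} (hw0 : ∀ j, 0 ≤ w j) (hw : Summable w) (hwa : 9 / 2 * ∑' j, w j ≤ a0)
    {β : ℝ} (hβ : 0 < β) (hβ1 : β ≤ β1) {ρ : ℝ} (hρ : 0 ≤ ρ) (hρR : ρ ≤ R) :
    |Fe (fun x => β * fam φ w L x) ρ| ≤
      R ^ 2 + β1 * K * R ^ 2 / 2 + β1 * (2 * m * a0 * R) + 1 := by
  have h1 := S.upper hK0 hK hw0 hw hwa hβ hρ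
  have h2 := S.lower hw0 hw hwa hβ hρ
  have ha0 := S.a0_nonneg
  have hβ10 : 0 ≤ β1 := hβ.le.trans hβ1
  have hR0 : 0 ≤ R := hρ.trans hρR
  have e1 : ρ ^ 2 ≤ R ^ 2 := pow_le_pow_left₀ hρ hρR 2
  have e2 : β * K * ρ ^ 2 / 2 ≤ β1 * K * R ^ 2 / 2 := by
    have : β * K * ρ ^ 2 ≤ β1 * K * R ^ 2 :=
      mul_le_mul (mul_le_mul_of_nonneg_right hβ1 hK0) e1 (by positivity) (by positivity)
    linarith
  have e3 : β * (2 * m * a0 * ρ) ≤ β1 * (2 * m * a0 * R) := by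
    apply mul_le_mul hβ1 _ (by positivity) hβ10
    exact mul_le_mul_of_nonneg_left hρR (by positivity)
  have e4 : 0 ≤ β * ((a0 - 9 / 2 * ∑' j, w j) / 8 * ρ ^ 2) := by
    have : 0 ≤ a0 - 9 / 2 * ∑' j, w j := by linarith
    positivity
  have e5 : 0 ≤ β1 * (2 * m * a0 * R) := by positivity
  have e6 : 0 ≤ β1 * K * R ^ 2 / 2 := by positivity
  have e7 : 0 ≤ R ^ 2 := by positivity
  rw [_root_.abs_le]
  constructor
  · have : β * ((a0 - 9 / 2 * ∑' j, w j) / 8 * ρ ^ 2 - 2 * m * a0 * ρ) =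
      β * ((a0 - 9 / 2 * ∑' j, w j) / 8 * ρ ^ 2) - β * (2 * m * a0 * ρ) := by ring
    linarith
  · linarith

/-- Lipschitz bound for a bounded concave function -/
theorem concave_lip {G : ℝ → ℝ} (hG : ConcaveOn ℝ (Ioi 0) G) {a' b' M : ℝ} (ha' : 0 < a')
    (hab : a' ≤ b') (hM : ∀ t, a' / 2 ≤ t → t ≤ 2 * b' → |G t| ≤ M) {t t' : ℝ} (ht : a' ≤ t)
    (ht2 : t ≤ b') (ht' : a' ≤ t') (ht2' : t' ≤ b') :
    |G t - G t'| ≤ 4 * M / a' * |t - t'| := by
  have hM0 : 0 ≤ M := (abs_nonneg _).trans (hM a' (by linarith) (by linarith))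
  -- wlog
  have key : ∀ t t', a' ≤ t → t < t' → t' ≤ b' → |G t - G t'| ≤ 4 * M / a' * |t - t'| := by
    intro t t' h1 h2 h3
    have hd : 0 < t' - t := by linarith
    have u1 := abs_le.1 (hM (a' / 2) le_rfl (by linarith))
    have u2 := abs_le.1 (hM t (by linarith) (by linarith))
    have u3 := abs_le.1 (hM t' (by linarith) (by linarith))
    have u4 := abs_le.1 (hM (2 * b') (by linarith) le_rfl)
    have s1 := hG.slope_anti_adjacent (x := a' / 2) (y := t) (z := t') (mem_Ioi.2 (by linarith))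
      (mem_Ioi.2 (by linarith)) (by linarith) h2
    have s2 := hG.slope_anti_adjacent (x := t) (y := t') (z := 2 * b') (mem_Ioi.2 (by linarith))
      (mem_Ioi.2 (by linarith)) h2 (by linarith)
    have b1 : (G t' - G t) / (t' - t) ≤ 4 * M / a' := by
      refine s1.trans ?_
      rw [div_le_div_iff₀ (by linarith) ha']
      have : (G t - G (a' / 2)) * a' ≤ 2 * M * a' :=
        mul_le_mul_of_nonneg_right (by linarith [u1.1, u2.2]) ha'.le
      have e : 2 * M * a' = 4 * M * (a' / 2) := by ring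
      have : 4 * M * (a' / 2) ≤ 4 * M * (t - a' / 2) :=
        mul_le_mul_of_nonneg_left (by linarith) (by linarith)
      linarith
    have b2 : -(4 * M / a') ≤ (G t' - G t) / (t' - t) := by
      refine le_trans ?_ s2
      rw [le_div_iff₀ (by linarith), neg_mul, neg_le, div_mul_eq_mul_div, le_div_iff₀ ha']
      have : -(G (2 * b') - G t') * a' ≤ 2 * M * a' :=
        mul_le_mul_of_nonneg_right (by linarith [u4.1, u3.2]) ha'.le
      have e : 2 * M * a' ≤ 4 * M * (2 * b' - t') := by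
        have : 4 * M * (a' / 2) ≤ 4 * M * (2 * b' - t') :=
          mul_le_mul_of_nonneg_left (by linarith) (by linarith)
        linarith
      linarith
    rw [div_le_iff₀ hd] at b1
    rw [le_div_iff₀ hd] at b2
    rw [abs_sub_comm t t', abs_of_pos hd, abs_le]
    constructor <;> linarith
  rcases lt_trichotomy t t' with h | h | h
  · exact key t t' ht h ht2'
  · subst h; simp
  · have := key t' t ht' h ht2
    rw [abs_sub_comm (G t), abs_sub_comm t]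
    exact this

theorem CoreSetup.lip (S : CoreSetup φ A r t0 sa sc sd a0 m L) {K : ℝ} (hK0 : 0 ≤ K)
    (hK : ∫⁻ z : Pt, ENNReal.ofReal (φ ‖z‖) ≤ ENNReal.ofReal K) {R a' b' : ℝ} (ha' : 0 < a')
    (hab : a' ≤ b')
    {w : ℕ → ℝ} (hw0 : ∀ j, 0 ≤ w j) (hw : Summable w) (hwa : 9 / 2 * ∑' j, w j ≤ a0)
    {t t' : ℝ} (ht : a' ≤ t)
    (ht2 : t ≤ b') (ht' : a' ≤ t') (ht2' : t' ≤ b') {ρ : ℝ} (hρ : 0 ≤ ρ) (hρR : ρ ≤ R) :
    |Fe (fun x => t * fam φ w L x) ρ - Fe (fun x => t' * fam φ w L x) ρ| ≤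
      4 * (R ^ 2 + (2 * b') * K * R ^ 2 / 2 + (2 * b') * (2 * m * a0 * R) + 1) / a' * |t - t'| :=
  concave_lip (S.concave hw0 hw hwa hρ) ha' hab
    (fun s hs hs' => S.abs_le hK0 hK hw0 hw hwa (by linarith) hs' hρ hρR) ht ht2 ht' ht2'

/-- convergence of the truncations -/
theorem CoreSetup.lim (S : CoreSetup φ A r t0 sa sc sd a0 m L) {K : ℝ} (hK0 : 0 ≤ K)
    (hK : ∫⁻ z : Pt, ENNReal.ofReal (φ ‖z‖) ≤ ENNReal.ofReal K) {R a' b' Λ : ℝ} (ha' : 0 < a')
    (hab : a' ≤ b') (hR : 0 ≤ R) (hΛ : 0 < Λ)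
    {ε : ℕ → ℝ} (hε0 : ∀ j, 0 < ε j) (hε : Summable ε) (hεa : 9 / 2 * (∑' j, ε j + Λ) ≤ a0)
    (e : ℝ) (he : 0 < e) :
    ∃ K : ℕ, ∀ k, K ≤ k → ∀ t ρ, a' ≤ t → t ≤ b' → 0 ≤ ρ → ρ ≤ R →
      |Fe (fun x => t * fam φ (wtr ε k) L x) ρ - Fe (fun x => t * fam φ ε L x) ρ| ≤ e := by
  set M := R ^ 2 + b' * K * R ^ 2 / 2 + b' * (2 * m * a0 * R) + 1 with hM
  have ha0 := S.a0_nonneg
  have hb' : 0 < b' := lt_of_lt_of_le ha' hab
  have hM1 : 1 ≤ M := by
    have : 0 ≤ R ^ 2 + b' * K * R ^ 2 / 2 + b' * (2 * m * a0 * R) := by positivity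
    linarith
  -- the tails
  have htail : Tendsto (fun k => ∑' j, ε (j + k)) atTop (nhds 0) := tendsto_sum_nat_add ε
  have hev : ∀ᶠ k in atTop, ∑' j, ε (j + k) < min Λ (e * Λ / (2 * M)) :=
    htail.eventually_lt_const (by positivity)
  obtain ⟨K0, hK0'⟩ := eventually_atTop.1 hev
  refine ⟨K0, ?_⟩
  intro k hk t ρ ht ht' hρ hρR
  have hk' := hK0' k hk
  set T := ∑' j, ε (j + k) with hT
  have hsT : Summable (fun j => ε (j + k)) := (summable_nat_add_iff k).2 hε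
  have hT0 : 0 < T := hsT.tsum_pos (fun j => (hε0 _).le) 0 (hε0 _)
  have hT1 : T < Λ := lt_of_lt_of_le hk' (min_le_left _ _)
  have hT2 : T < e * Λ / (2 * M) := lt_of_lt_of_le hk' (min_le_right _ _)
  have hsum : ∑ j ∈ Finset.range k, ε j + T = ∑' j, ε j := hε.sum_add_tsum_nat_add k
  set s := T / Λ with hs
  have hs0 : 0 < s := by positivity
  have hs1 : s < 1 := by rw [hs, div_lt_one hΛ]; exact hT1
  have ht0 : 0 < t := lt_of_lt_of_le ha' ht
  -- weights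
  have hw0 : ∀ j, 0 ≤ wtr ε k j := wtr_nonneg (fun j => (hε0 j).le) k
  have hw := summable_wtr ε k
  have hwa : 9 / 2 * ∑' j, wtr ε k j ≤ a0 := by
    rw [tsum_wtr]
    linarith
  have hεa' : 9 / 2 * ∑' j, ε j ≤ a0 := by linarith
  set w' : ℕ → ℝ := fun j => wtr ε k j + (ε j - wtr ε k j) / s with hw'
  have hw'0 : ∀ j, 0 ≤ w' j := by
    intro j
    have h1 := hw0 j
    have h2 := wtr_le (fun j => (hε0 j).le) k j
    have : 0 ≤ (ε j - wtr ε k j) / s := div_nonneg (by linarith) hs0.le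
    simp only [hw']
    linarith
  have hw's : Summable w' := hw.add ((hε.sub hw).div_const s)
  have hw't : ∑' j, w' j = ∑ j ∈ Finset.range k, ε j + Λ := by
    simp only [hw']
    rw [hw.tsum_add ((hε.sub hw).div_const s), tsum_div_const, hε.tsum_sub hw, tsum_wtr, ← hsum]
    have : (∑ j ∈ Finset.range k, ε j + T - ∑ j ∈ Finset.range k, ε j) / s = Λ := by
      rw [add_sub_cancel_left, hs]
      field_simp
    rw [this]
  have hw'a : 9 / 2 * ∑' j, w' j ≤ a0 := by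
    rw [hw't]
    linarith
  have hmix := S.mix hw0 hw hwa hw'0 hw's hw'a hs0.le hs1.le ht0 hρ
  have e1 : (fun j => (1 - s) * wtr ε k j + s * w' j) = ε := by
    funext j
    simp only [hw']
    field_simp
    ring
  rw [e1] at hmix
  have hmono := S.mono hw0 (wtr_le (fun j => (hε0 j).le) k) hε hεa' ht0 hρ
  have b1 := _root_.abs_le.1 (S.abs_le hK0 hK hw0 hw hwa ht0 ht' hρ hρR)
  have b2 := _root_.abs_le.1 (S.abs_le hK0 hK hw'0 hw's hw'a ht0 ht' hρ hρR)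
  rw [← hM] at b1 b2
  rw [abs_of_nonneg (by linarith)]
  have hse : s * (2 * M) ≤ e := by
    rw [hs, div_mul_eq_mul_div, div_le_iff₀ hΛ]
    rw [lt_div_iff₀ (by positivity)] at hT2
    exact hT2.le
  have h5 : s * (Fe (fun x => t * fam φ (wtr ε k) L x) ρ - Fe (fun x => t * fam φ w' L x) ρ) ≤
      s * (2 * M) := mul_le_mul_of_nonneg_left (by linarith [b1.2, b2.1]) hs0.le
  linarith

/-- The free energy of the truncated family. -/
noncomputable def FF (φ : ℝ → ℝ) (ε L : ℕ → ℝ) (k : ℕ) (t ρ : ℝ) : ℝ :=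
  Fe (fun x => t * fam φ (wtr ε k) L x) ρ

theorem CoreSetup.upStep (S : CoreSetup φ A r t0 sa sc sd a0 m L)
    {ε : ℕ → ℝ} (hε0 : ∀ j, 0 < ε j) {E E0 R b' : ℝ} (hE : ∀ k, ∑ j ∈ Finset.range k, ε j ≤ E)
    (hEa : 9 / 2 * E ≤ a0) (hE0 : ∀ k, ε k ≤ E0) (k : ℕ) {t ρ : ℝ} (ht : 0 < t) (htb : t ≤ b')
    (hρ : 0 ≤ ρ) (hρR : ρ ≤ R) :
    FF φ ε L (k + 1) t ρ ≤ FF φ ε L k t ρ - t * ε k * ρ ^ 2 / 2 +
      (b' * E0 * R / (2 * volB 1)) / (L k) ^ 3 := by
  have hwa : ∀ k, 9 / 2 * ∑' j, wtr ε k j ≤ a0 := by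
    intro k
    rw [tsum_wtr]
    have := hE k
    linarith
  have adm : ∀ k, Adm (fun x => t * fam φ (wtr ε k) L x) := fun k =>
    S.adm (wtr_nonneg (fun j => (hε0 j).le) k) (summable_wtr ε k) (hwa k) ht
  have hLk : 0 < L k := by linarith [S.hL k]
  have e1 : (fun x => t * fam φ (wtr ε (k + 1)) L x) =
      (fun x => (fun x => t * fam φ (wtr ε k) L x) x - (t * ε k) * KK (L k) x) := by
    funext x
    simp only [fam_wtr_succ]
    ring
  have a1 := adm (k + 1)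
  rw [e1] at a1
  have h := Fe_sub_kernel_le (mul_nonneg ht.le (hε0 k).le) hLk hρ (adm k) a1
  unfold FF
  rw [e1]
  refine h.trans ?_
  have hv := volB_pos (R := 1) one_pos
  have h2 : t * ε k * ρ / (2 * volB (L k)) ≤ (b' * E0 * R / (2 * volB 1)) / (L k) ^ 3 := by
    rw [volB_eq hLk.le, div_div]
    have e3 : 2 * (volB 1 * L k ^ 3) = 2 * volB 1 * L k ^ 3 := by ring
    rw [e3]
    apply div_le_div_of_nonneg_right _ (by positivity)
    have hb' : 0 ≤ b' := ht.le.trans htb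
    have hE00 : 0 ≤ E0 := (hε0 k).le.trans (hE0 k)
    exact mul_le_mul (mul_le_mul htb (hE0 k) (hε0 k).le hb') hρR hρ (by positivity)
  linarith

theorem exists_lowStep {a0s b0s μm εm Sm R a' b' a0 E E0 : ℝ} {m : ℕ} (ha0s : 0 < a0s)
    (hb0s : 0 ≤ b0s) (hμm : 0 ≤ μm)
    (hεm : 0 ≤ εm) (hSm : 0 ≤ Sm) (h54 : 54 * εm ≤ a0s) (hR1 : Real.exp 1 ≤ R)
    (hR1' : 54 * (μm + b0s + 2) ≤ a0s * R) (ha' : 0 < a') (hab' : a' ≤ b')
    (ha0' : 0 ≤ a0) (hc1 : a0s ≤ a' * (a0 - 9 * E)) (hc2 : b' * (2 * m * a0) ≤ b0s)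
    (hc3 : b' * E0 ≤ εm) (hc4 : μm * R + (b0s * R + 1) + εm * R ^ 2 / 2 ≤ Sm) :
    ∃ C : ℝ, 0 ≤ C ∧ ∀ (φ : ℝ → ℝ) (A r t0 sa sc sd : ℝ) (L : ℕ → ℝ),
      CoreSetup φ A r t0 sa sc sd a0 m L → ∀ (ε D : ℕ → ℝ) (b : ℕ → ℕ), (∀ j, 0 < ε j) →
      (∀ k, ∑ j ∈ Finset.range k, ε j ≤ E) → (∀ k, ε k ≤ E0) →
      (∀ k, 1 ≤ D k) → (∀ k j, j < k → 2 * L j ≤ D k) → (∀ k, 12 * (D k + 1) ≤ b k) →
      (∀ k, (b k : ℝ) ≤ L k) →
      ∀ k t μ y ρ, a' ≤ t → t ≤ b' → |μ| ≤ μm → Contact (FF φ ε L k) (ε k) R t μ y →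
        0 ≤ ρ → ρ ≤ R → FF φ ε L k t y - t * ε k * y ^ 2 / 2 + μ * (ρ - y) -
          C * ((D k + 1) / b k + b k / L k) ≤ FF φ ε L (k + 1) t ρ := by
  obtain ⟨C, hC0, hC⟩ := Fe_lower_step a0s b0s μm εm Sm R ha0s hb0s hμm hεm hSm h54 hR1 hR1'
  refine ⟨C, hC0, ?_⟩
  intro φ A r t0 sa sc sd L S ε D b hε0 hE hE0 hD1 hLD hDb hbL k t μ y ρ ht ht' hμ hy hρ hρR
  have ht0 : 0 < t := lt_of_lt_of_le ha' ht
  have hb'0 : 0 < b' := lt_of_lt_of_le ha' hab'
  have hE9 : 0 < a0 - 9 * E := by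
    by_contra hcon
    push Not at hcon
    nlinarith
  have hEnn : 0 ≤ E := by simpa using hE 0
  have hwa : ∀ k, 9 / 2 * ∑' j, wtr ε k j ≤ a0 := by
    intro k
    rw [tsum_wtr]
    have := hE k
    linarith
  have adm : ∀ k, Adm (fun x => t * fam φ (wtr ε k) L x) := fun k =>
    S.adm (wtr_nonneg (fun j => (hε0 j).le) k) (summable_wtr ε k) (hwa k) ht0
  have e0 : (fun x => t * fam φ (wtr ε k) L x) =
      (fun x => (fun x => t * φ x) x - (fun x => t * ∑' j, wtr ε k j * KK (L j) x) x) := by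
    funext x
    simp only [fam]
    ring
  have e1 : (fun x => t * fam φ (wtr ε (k + 1)) L x) =
      (fun x => (fun x => t * φ x) x - (fun x => t * ∑' j, wtr ε k j * KK (L j) x) x -
        (t * ε k) * KK (L k) x) := by
    funext x
    rw [fam_wtr_succ]
    simp only [fam]
    ring
  have e2 : (fun x => t * fam φ (fun j => 2 * wtr ε k j) L x) =
      (fun x => (fun x => t * φ x) x - 2 * (fun x => t * ∑' j, wtr ε k j * KK (L j) x) x) := by
    funext x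
    simp only [fam]
    have : ∑' j, 2 * wtr ε k j * KK (L j) x = 2 * ∑' j, wtr ε k j * KK (L j) x := by
      rw [← tsum_mul_left]
      congr 1
      funext j
      ring
    rw [this]
    ring
  have a0' := adm k
  have a1' := adm (k + 1)
  rw [e0] at a0'
  rw [e1] at a1'
  have hE00 : 0 ≤ E0 := (hε0 k).le.trans (hE0 k)
  have htε : t * ε k ≤ εm := (mul_le_mul ht' (hE0 k) (hε0 k).le hb'0.le).trans hc3
  obtain ⟨hy0, hyR, hyc⟩ := id hy
  have hR0 : 0 ≤ R := hy0.trans hyR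
  -- bounds for S
  have hSlow := S.lower (wtr_nonneg (fun j => (hε0 j).le) k) (summable_wtr ε k) (hwa k) ht0 hy0
  have hc0 := hyc 0 le_rfl hR0
  have hF0 : FF φ ε L k t 0 = 0 := Fe_zero (adm k)
  rw [hF0] at hc0
  have key := hC (fun x => t * φ x) (fun x => t * ∑' j, wtr ε k j * KK (L j) x) (D k)
    (t * ε k) (L k) (b k) (fun s => mul_nonneg ht0.le (S.core.nonneg s))
    (fun s hs => by simp only [S.core.far s hs, mul_zero]) (S.core.meas.const_mul t)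
    (fun s => mul_nonneg ht0.le (tail_nonneg (wtr_nonneg (fun j => (hε0 j).le) k) s)) ?_
    ((continuous_tail (wtr_nonneg (fun j => (hε0 j).le) k) (summable_wtr ε k)
      S.hL).measurable.const_mul t) (hD1 k) a0' a1' ?_ (mul_nonneg ht0.le (hε0 k).le) htε
      (hDb k) (hbL k) μ (μ * y - (FF φ ε L k t y - t * ε k * y ^ 2 / 2)) ρ hμ ?_ ?_ hρ ?_
  · unfold FF at key ⊢
    rw [e1]
    linarith
  · intro s hs
    change t * ∑' j, wtr ε k j * KK (L j) s = 0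
    rw [tsum_wtr_mul]
    have : ∑ j ∈ Finset.range k, ε j * KK (L j) s = 0 := by
      apply Finset.sum_eq_zero
      intro j hj
      have h1 := hLD k j (Finset.mem_range.1 hj)
      rw [KK_eq_zero (by linarith [S.hL j]) ((h1.trans hs).trans (le_abs_self s)), mul_zero]
    rw [this, mul_zero]
  · intro N x
    rw [← e2, pairE_smul_fam]
    have h1 := fam_superstable S.hm S.core S.cap S.r_pos S.r_lt S.t_pos S.t_le S.a0_nonneg S.hA
      (w := fun j => 2 * wtr ε k j)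
      (fun j => mul_nonneg (by norm_num) (wtr_nonneg (fun j => (hε0 j).le) k j))
      ((summable_wtr ε k).mul_left 2) S.hL x
    have h2 : ∑' j, 2 * wtr ε k j = 2 * ∑ j ∈ Finset.range k, ε j := by
      rw [tsum_mul_left, tsum_wtr]
    rw [h2] at h1
    have hQ := famaux_Qc_nonneg (1 / 2) 0 x
    have h3 : (a0 - 9 * E) * Qc (1 / 2) 0 x ≤
        (a0 - 9 / 2 * (2 * ∑ j ∈ Finset.range k, ε j)) * Qc (1 / 2) 0 x := by
      apply mul_le_mul_of_nonneg_right _ hQ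
      linarith [hE k]
    have h4 : (a0 - 9 * E) * Qc (1 / 2) 0 x - 2 * m * a0 * N ≤
        pairE (rad (fam φ (fun j => 2 * wtr ε k j) L)) x := by linarith
    have h5 := mul_le_mul_of_nonneg_left h4 ht0.le
    have h6 : a0s * Qc (1 / 2) 0 x ≤ t * ((a0 - 9 * E) * Qc (1 / 2) 0 x) := by
      calc a0s * Qc (1 / 2) 0 x ≤ (a' * (a0 - 9 * E)) * Qc (1 / 2) 0 x :=
            mul_le_mul_of_nonneg_right hc1 hQ
        _ ≤ (t * (a0 - 9 * E)) * Qc (1 / 2) 0 x := by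
            apply mul_le_mul_of_nonneg_right _ hQ
            exact mul_le_mul_of_nonneg_right ht hE9.le
        _ = _ := by ring
    have h7 : t * (2 * m * a0 * N) ≤ b0s * N := by
      calc t * (2 * m * a0 * N) = (t * (2 * m * a0)) * N := by ring
        _ ≤ (b' * (2 * m * a0)) * N := by
            apply mul_le_mul_of_nonneg_right _ (by positivity)
            exact mul_le_mul_of_nonneg_right ht' (by positivity)
        _ ≤ _ := mul_le_mul_of_nonneg_right hc2 (by positivity)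
    linarith
  · -- 0 ≤ S
    have : t * ε k * 0 ^ 2 / 2 = 0 := by ring
    linarith
  · -- S ≤ Sm
    have g1 : μ * y ≤ μm * R := by
      calc μ * y ≤ |μ| * y := mul_le_mul_of_nonneg_right (le_abs_self μ) hy0
        _ ≤ _ := mul_le_mul hμ hyR hy0 hμm
    have g2 : -(b0s * R + 1) ≤ FF φ ε L k t y := by
      have g3 : 0 ≤ t * ((a0 - 9 / 2 * ∑' j, wtr ε k j) / 8 * y ^ 2) := by
        have := hwa k
        have : 0 ≤ a0 - 9 / 2 * ∑' j, wtr ε k j := by linarith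
        positivity
      have g4 : t * (2 * m * a0 * y) ≤ b0s * R := by
        calc t * (2 * m * a0 * y) = (t * (2 * m * a0)) * y := by ring
          _ ≤ (b' * (2 * m * a0)) * R := by
              apply mul_le_mul _ hyR hy0 (by positivity)
              exact mul_le_mul_of_nonneg_right ht' (by positivity)
          _ ≤ _ := mul_le_mul_of_nonneg_right hc2 hR0
      unfold FF
      linarith
    have g5 : t * ε k * y ^ 2 / 2 ≤ εm * R ^ 2 / 2 := by
      have : t * ε k * y ^ 2 ≤ εm * R ^ 2 :=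
        mul_le_mul htε (pow_le_pow_left₀ hy0 hyR 2) (by positivity) hεm
      linarith
    linarith
  · intro ρ' h0 h1
    have := hyc ρ' h0 h1
    rw [← e0]
    unfold FF at this ⊢
    linarith

end

end Crest.Agent.Gas
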