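import Crest.Agent.GasAsm1

/-! Module Y2 (GasAsm2): the main theorem for a given core. -/

set_option autoImplicit false

namespace Crest.Agent.Gas

open MeasureTheory Crest.ProbabilityR.Continuum Filter Set

theorem FF_zero_eq (φ : ℝ → ℝ) (ε L : ℕ → ℝ) (t ρ : ℝ) :
    FF φ ε L 0 t ρ = Fe (fun s => t * φ s) ρ := by
  unfold FF
  simp only [fam_wtr_zero]

/-- numerical constants -/
structure Cst (m : ℕ) (p q Cμ R S θ θ1 Ah κ : ℝ) : Prop where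
  hq : q = m * p
  hCμ : Cμ = 225 * m * p + q ^ 2 + 5
  hR : R = 2 * Cμ + 225 * m + q + 6
  hS : S = 9 * q + 5 + 128 * (1 + q / 2 + 9 / 4 * R + 4 * Cμ)
  hθ : 64 * θ * S = 1
  θpos : 0 < θ
  hθ1 : 16 * (q + 2) * θ1 = θ ^ 2
  hAh : Ah * θ = (400 * m + q) * θ + 2 * (q / 2 * (q - p) + 2 * θ1 + 2 * Cμ * R + 9 / 16 * R ^ 2)
  κpos : 0 < κ
  κ1 : 300 * R * κ ≤ q
  κ2 : 128 * κ * (q + 1) ^ 2 ≤ p ^ 2
  κ3 : κ ≤ 1 / 20

theorem exists_cst (m : ℕ) (p : ℝ) (hm : 2 ≤ m) (hp : 1 ≤ p) :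
    ∃ q Cμ R S θ θ1 Ah κ : ℝ, Cst m p q Cμ R S θ θ1 Ah κ := by
  have hm' : (2 : ℝ) ≤ m := by exact_mod_cast hm
  obtain ⟨q, hq⟩ : ∃ q, q = m * p := ⟨_, rfl⟩
  have hq2 : 2 ≤ q := by rw [hq]; nlinarith
  obtain ⟨Cμ, hCμ⟩ : ∃ Cμ, Cμ = 225 * m * p + q ^ 2 + 5 := ⟨_, rfl⟩
  have hCμ0 : 0 < Cμ := by rw [hCμ]; positivity
  obtain ⟨R, hR⟩ : ∃ R, R = 2 * Cμ + 225 * m + q + 6 := ⟨_, rfl⟩
  have hR0 : 0 < R := by rw [hR]; positivity
  obtain ⟨S, hS⟩ : ∃ S, S = 9 * q + 5 + 128 * (1 + q / 2 + 9 / 4 * R + 4 * Cμ) := ⟨_, rfl⟩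
  have hS0 : 0 < S := by rw [hS]; positivity
  obtain ⟨θ, hθ⟩ : ∃ θ, θ = 1 / (64 * S) := ⟨_, rfl⟩
  have hθ0 : 0 < θ := by rw [hθ]; positivity
  obtain ⟨θ1, hθ1⟩ : ∃ θ1, θ1 = θ ^ 2 / (16 * (q + 2)) := ⟨_, rfl⟩
  obtain ⟨κ, hκ⟩ : ∃ κ, κ = min (q / (300 * R)) (min (p ^ 2 / (128 * (q + 1) ^ 2)) (1 / 20)) :=
    ⟨_, rfl⟩
  have hκ0 : 0 < κ := by
    rw [hκ]
    simp only [lt_min_iff]
    refine ⟨by positivity, by positivity, by norm_num⟩
  refine ⟨q, Cμ, R, S, θ, θ1, 400 * m + q + 2 * (q / 2 * (q - p) + 2 * θ1 + 2 * Cμ * R +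
    9 / 16 * R ^ 2) / θ, κ, hq, hCμ, hR, hS, ?_, hθ0, ?_, ?_, hκ0, ?_, ?_, ?_⟩
  · rw [hθ]; field_simp
  · rw [hθ1]; field_simp
  · field_simp
  · have h1 : κ ≤ q / (300 * R) := by rw [hκ]; exact min_le_left _ _
    rw [le_div_iff₀ (by positivity)] at h1
    linarith
  · have h1 : κ ≤ p ^ 2 / (128 * (q + 1) ^ 2) := by
      rw [hκ]; exact (min_le_right _ _).trans (min_le_left _ _)
    rw [le_div_iff₀ (by positivity)] at h1
    linarith
  · rw [hκ]; exact (min_le_right _ _).trans (min_le_right _ _)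

section

variable {m : ℕ} {p q Cμ R S θ θ1 Ah κ : ℝ}

/-- consequences -/
structure Cst2 (m : ℕ) (p q Cμ R S θ θ1 Ah κ : ℝ) : Prop extends
    Cst m p q Cμ R S θ θ1 Ah κ where
  m2 : (2 : ℝ) ≤ m
  p1 : 1 ≤ p
  q2 : 2 * p ≤ q
  Cμpos : 0 < Cμ
  Rpos : 0 < R
  θ256 : θ ≤ 1 / 256
  θ1pos : 0 < θ1
  hX : q / 2 * (q - p) + 2 * θ1 + 2 * Cμ * R + 9 / 16 * R ^ 2 < 7 / 8 * Ah * θ
  hAh1 : 400 * m + q ≤ Ah
  hCm : 225 * m + 1 ≤ Cμ
  hCm2 : 225 * m * p / 2 + 1 + q * (q - p) / 2 + 1 ≤ Cμ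

theorem Cst.two (C : Cst m p q Cμ R S θ θ1 Ah κ) (hm : 2 ≤ m) (hp : 1 ≤ p) :
    Cst2 m p q Cμ R S θ θ1 Ah κ := by
  have hm' : (2 : ℝ) ≤ m := by exact_mod_cast hm
  obtain ⟨hq, hCμ, hR, hS, hθ, θpos, hθ1, hAh, κpos, κ1, κ2, κ3⟩ := id C
  have hmp : (m : ℝ) ≤ m * p := by nlinarith
  have hq2 : 2 * p ≤ q := by rw [hq]; nlinarith
  have hq0 : 0 < q := by linarith
  have hmp0 : 0 < (m : ℝ) * p := by positivity
  have hCμ0 : 0 < Cμ := by rw [hCμ]; positivity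
  have hR0 : 0 < R := by rw [hR]; positivity
  have hS0 : 133 ≤ S := by
    rw [hS]
    have : 0 ≤ 9 * q + 128 * (q / 2 + 9 / 4 * R + 4 * Cμ) := by positivity
    linarith
  have hθ256 : θ ≤ 1 / 256 := by
    have h1 : 64 * θ * 133 ≤ 64 * θ * S := mul_le_mul_of_nonneg_left hS0 (by positivity)
    linarith
  have hθ1pos : 0 < θ1 := by
    have h1 : 0 < θ ^ 2 := by positivity
    rw [← hθ1] at h1
    exact (mul_pos_iff_of_pos_left (by positivity)).1 h1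
  have hX0 : 0 < q / 2 * (q - p) + 2 * θ1 + 2 * Cμ * R + 9 / 16 * R ^ 2 := by
    have h1 : 0 < q - p := by linarith
    positivity
  refine ⟨C, hm', hp, hq2, hCμ0, hR0, hθ256, hθ1pos, ?_, ?_, ?_, ?_⟩
  · have h1 : 0 ≤ (400 * m + q) * θ := by positivity
    linarith
  · have h1 : (400 * m + q) * θ ≤ Ah * θ := by linarith
    exact le_of_mul_le_mul_right h1 θpos
  · rw [hCμ]
    have h1 : 0 ≤ q ^ 2 := by positivity
    linarith
  · rw [hCμ]
    have h1 : q * (q - p) / 2 ≤ q ^ 2 / 2 := by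
      have := mul_le_mul_of_nonneg_left (by linarith : q - p ≤ q) hq0.le
      rw [pow_two]
      linarith
    have h2 : 0 ≤ q ^ 2 := by positivity
    have h3 : 0 ≤ 225 * m * p := by positivity
    linarith

theorem Cst2.base (C : Cst2 m p q Cμ R S θ θ1 Ah κ) {Λ p' q' : ℝ} (hΛ : 1 ≤ Λ)
    (hp'l : p - θ1 ≤ p') (hp'u : p' ≤ p) (hq'l : q - θ1 ≤ q') (hq'u : q' ≤ q)
    {φ : ℝ → ℝ} {ε L : ℕ → ℝ} (hadm : ∀ t : ℝ, 0 < t → Adm (fun s => t * φ s))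
    (h : ∀ β : ℝ, 7 / 8 ≤ β → β ≤ 9 / 8 →
        (∀ ρ, 0 ≤ ρ → ρ ≤ R → Λ * (q / 2 * max (ρ - p) 0 - θ1) ≤ Fe (fun s => β * φ s) ρ) ∧
        Fe (fun s => β * φ s) p' ≤ Λ * θ1 ∧
        Fe (fun s => β * φ s) q' ≤ Λ * (q / 2 * (q - p) + θ1) ∧
        (∀ ρ, 0 ≤ ρ → ρ ≤ R → 7 / 8 * Ah * Λ * (ρ - q) - θ1 * Λ ≤ Fe (fun s => β * φ s) ρ)) :
    BaseHyp (FF φ ε L 0) Λ p q p' q' θ θ1 R Cμ Ah where
  Λ1 := hΛ
  p1 := C.p1
  q2 := C.q2
  θpos := C.θpos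
  θ1pos := C.θ1pos
  θp := by have := C.θ256; have := C.p1; linarith
  θq := by have := C.θ256; have := C.p1; have := C.q2; linarith
  θqp := by have := C.θ256; have := C.p1; have := C.q2; linarith
  θhalf := by have := C.θ256; linarith
  hθ1 := C.hθ1.le
  hR := by
    have := C.hR
    have := C.Cμpos
    have := C.m2
    linarith
  p'l := hp'l
  p'u := hp'u
  q'l := hq'l
  q'u := hq'u
  Cμ0 := C.Cμpos.le
  hAh := C.hX
  zero := by
    intro t ht ht'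
    rw [FF_zero_eq, Fe_zero (hadm t (by linarith))]
  fa := by
    intro t ρ ht ht' h0 hR
    rw [FF_zero_eq]
    exact (h t ht ht').1 ρ h0 hR
  fb := by
    intro t ht ht'
    rw [FF_zero_eq]
    exact (h t ht ht').2.1
  fc := by
    intro t ht ht'
    rw [FF_zero_eq]
    exact (h t ht ht').2.2.1
  fd := by
    intro t ρ ht ht' h0 hR
    rw [FF_zero_eq]
    exact (h t ht ht').2.2.2 ρ h0 hR

theorem Cst2.kink (C : Cst2 m p q Cμ R S θ θ1 Ah κ) {Λ p' q' : ℝ} (hΛ : 1 ≤ Λ)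
    {φ : ℝ → ℝ} {A r t0 sa sc sd : ℝ} {ε L δ h η : ℕ → ℝ}
    (B : BaseHyp (FF φ ε L 0) Λ p q p' q' θ θ1 R Cμ Ah)
    (T : CoreSetup φ A r t0 sa sc sd (100 * Λ) m L) {K CL : ℝ} (hK0 : 0 ≤ K)
    (hK : ∫⁻ z : Pt, ENNReal.ofReal (φ ‖z‖) ≤ ENNReal.ofReal K)
    (hCL : CL = 4 * (R ^ 2 + (2 * (9 / 8)) * K * R ^ 2 / 2 +
      (2 * (9 / 8)) * (2 * m * (100 * Λ) * R) + 1) / (7 / 8))
    (hε00 : ε 0 = Λ) (hε0 : ∀ j, 0 < ε j)
    (hεs : ∀ k, ∑ j ∈ Finset.range k, ε (j + 1) ≤ 2 * κ * Λ)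
    (hE : ∀ k, ∑ j ∈ Finset.range k, ε j ≤ (1 + 2 * κ) * Λ)
    (hδ : ∀ k, 0 ≤ δ k) (hh : ∀ k, 0 < h k) (hη : ∀ k, 0 ≤ η k)
    (hηh : ∀ k, 4 * (δ k + CL * h k) ≤ 7 / 8 * ε (k + 1) * (η k) ^ 2)
    (hsη : ∀ k, ∑ j ∈ Finset.range k, η j ≤ θ)
    (hsh : ∀ k, ∑ j ∈ Finset.range k, h j ≤ 1 / 64)
    (hsδ : ∀ k, ∑ j ∈ Finset.range k, 2 * δ j / h j ≤ Λ * p ^ 2 / 256)
    (hup : ∀ k t ρ, 7 / 8 ≤ t → t ≤ 9 / 8 → 0 ≤ ρ → ρ ≤ R →
      FF φ ε L (k + 1) t ρ ≤ FF φ ε L k t ρ - t * ε k * ρ ^ 2 / 2 + δ k)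
    (hlow : ∀ k t μ y ρ, 7 / 8 ≤ t → t ≤ 9 / 8 → |μ| ≤ 2 * Cμ * Λ →
      Contact (FF φ ε L k) (ε k) R t μ y →
      0 ≤ ρ → ρ ≤ R → FF φ ε L k t y - t * ε k * y ^ 2 / 2 + μ * (ρ - y) - δ k ≤
        FF φ ε L (k + 1) t ρ) :
    KinkHyp (FF φ ε L) ε δ h η R p q θ (Cμ * Λ) (2 * Cμ * Λ) CL
      (Λ * θ * (1 + q / 2 + 9 / 4 * R + 4 * Cμ)) (9 / 8 * R * (2 * κ * Λ)) (Λ * p ^ 2 / 256)
      (7 / 8) (15 / 16) (17 / 16) (9 / 8) (1 / 64) ((1 + 2 * κ) * Λ) := by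
  have hΛ0 : 0 < Λ := by linarith
  have hθ := C.θ256
  have hp1 := C.p1
  have hq2 := C.q2
  have hκ := C.κpos
  have hκ3 := C.κ3
  have hR0 := C.Rpos
  have hCμ0 := C.Cμpos
  have hm2 := C.m2
  have hκΛ : κ * Λ ≤ 1 / 20 * Λ := mul_le_mul_of_nonneg_right hκ3 hΛ0.le
  have hκ2 : 128 * (9 / 8 * R * (2 * κ * Λ)) < Λ * q := by
    have h1 := mul_le_mul_of_nonneg_right C.κ1 hΛ0.le
    have h2 : 0 < R * κ * Λ := by positivity
    linarith
  have hEa : 9 / 2 * ((1 + 2 * κ) * Λ) ≤ 100 * Λ := by linarith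
  have hwa : ∀ k, 9 / 2 * ∑' j, wtr ε k j ≤ 100 * Λ := by
    intro k
    rw [tsum_wtr]
    have := hE k
    linarith
  have hw0 : ∀ k j, 0 ≤ wtr ε k j := fun k => wtr_nonneg (fun j => (hε0 j).le) k
  have adm : ∀ k t, 0 < t → Adm (fun x => t * fam φ (wtr ε k) L x) := fun k t ht =>
    T.adm (hw0 k) (summable_wtr ε k) (hwa k) ht
  have hεle : ∀ k, ε k ≤ Λ := by
    intro k
    cases k with
    | zero => rw [hε00]
    | succ k =>
      have h1 : ε (k + 1) ≤ ∑ j ∈ Finset.range (k + 1), ε (j + 1) :=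
        Finset.single_le_sum (f := fun j => ε (j + 1)) (fun j _ => (hε0 _).le)
          (Finset.mem_range.2 (Nat.lt_succ_self k))
      have h2 := hεs (k + 1)
      linarith
  -- lower bound incl. the quadratic term
  have hlb : ∀ k t ρ, 7 / 8 ≤ t → t ≤ 9 / 8 → 0 ≤ ρ →
      -(225 * m * Λ * ρ + 1) ≤ FF φ ε L k t ρ - t * ε k * ρ ^ 2 / 2 := by
    intro k t ρ ht ht' hρ
    have h1 := T.lower (hw0 k) (summable_wtr ε k) (hwa k) (by linarith : 0 < t) hρ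
    have h2 : 10 * Λ ≤ (100 * Λ - 9 / 2 * ∑' j, wtr ε k j) / 8 := by
      rw [tsum_wtr]
      have := hE k
      linarith
    have h3 : t * ε k * ρ ^ 2 / 2 ≤ t * ((100 * Λ - 9 / 2 * ∑' j, wtr ε k j) / 8 * ρ ^ 2) := by
      have h4 : ε k * ρ ^ 2 / 2 ≤ (100 * Λ - 9 / 2 * ∑' j, wtr ε k j) / 8 * ρ ^ 2 := by
        have h5 : ε k / 2 ≤ (100 * Λ - 9 / 2 * ∑' j, wtr ε k j) / 8 := by
          have := hεle k
          linarith
        have := mul_le_mul_of_nonneg_right h5 (sq_nonneg ρ)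
        linarith
      have := mul_le_mul_of_nonneg_left h4 (by linarith : 0 ≤ t)
      linarith
    have h6 : t * (2 * m * (100 * Λ) * ρ) ≤ 9 / 8 * (2 * m * (100 * Λ) * ρ) :=
      mul_le_mul_of_nonneg_right ht' (by positivity)
    unfold FF
    linarith
  exact
  { a'_pos := by norm_num
    h0_pos := by norm_num
    a'a := by norm_num
    ab := by norm_num
    bb' := by norm_num
    θpos := C.θpos
    pθ := by linarith
    qθ := by linarith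
    qR := by have := B.hR; linarith
    εpos := hε0
    δ0 := hδ
    hpos := hh
    η0 := hη
    CL0 := by rw [hCL]; positivity
    κ1_0 := by
      have : 0 < θ := C.θpos
      have : 0 < q := by linarith
      positivity
    κ2_0 := by positivity
    μ0_0 := by positivity
    conc := by
      intro k ρ h0 hR
      exact (T.concave (hw0 k) (summable_wtr ε k) (hwa k) h0).subset
        (fun x hx => lt_of_lt_of_le (by norm_num) hx.1) (convex_Icc _ _)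
    cont := by
      intro k t ht ht'
      exact (Fe_continuousOn (adm k t (by linarith))).mono (fun x hx => hx.1)
    lip := by
      intro k t t' ρ h1 h2 h3 h4 h5 h6
      rw [hCL]
      exact T.lip hK0 hK (by norm_num) (by norm_num) (hw0 k) (summable_wtr ε k) (hwa k) h1 h2 h3 h4
        h5 h6
    upper := hup
    lower := hlow
    ηh := hηh
    sumη := hsη
    sumh := hsh
    sumδ := hsδ
    sumε := by
      intro k
      exact mul_le_mul_of_nonneg_left (hεs k) (by positivity)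
    sumE := hE
    μsum := by
      have h1 : q ≤ Cμ := by
        rw [C.hCμ]
        have h2 : 0 ≤ 225 * m * p := by positivity
        nlinarith [sq_nonneg (q - 1)]
      have h3 : 9 / 8 * R * (2 * κ * Λ) ≤ Cμ * Λ := by
        have := mul_le_mul_of_nonneg_right h1 hΛ0.le
        have h4 : 0 < q * Λ := by
          have : 0 < q := by linarith
          positivity
        linarith
      linarith
    H1 := by
      intro t μ x ht ht' hμ hx
      rw [hε00] at hx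
      exact B.H1 ht ht' hμ hx
    H2 := by
      intro t μ x ht ht' hμ hx
      rw [hε00] at hx
      exact B.H2 (by linarith) ht' (by linarith) (by linarith) hμ hx
    H2' := by
      intro ρ t t' h0 hR ht htt ht'
      rw [FF_zero_eq, FF_zero_eq]
      apply Fe_mono (T.adm0 (by linarith)) (T.adm0 (by linarith)) _ h0
      intro s _
      exact mul_le_mul_of_nonneg_right htt (T.core.nonneg s)
    H3 := by
      intro μ' μ'' x' x'' _ _ h1 h2 h3 h4 h5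
      rw [hε00] at h1 h2
      exact B.H3 h1 h2 h3 h4 hκ2 h5
    H4 := by
      intro μ x _ h1 h2
      rw [hε00] at h1
      exact B.H4 h1 h2
    rootm := by
      intro k t ρ ht ht' hρ hρR
      have hF0 : FF φ ε L k t 0 = 0 := Fe_zero (adm k t (by linarith))
      rw [hF0]
      have h1 := hlb k t ρ (by linarith) (by linarith) (by linarith)
      have h2 : (225 * m + 1) * (Λ * ρ) ≤ Cμ * (Λ * ρ) := by
        apply mul_le_mul_of_nonneg_right C.hCm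
        apply mul_nonneg hΛ0.le
        linarith
      have h3 : 1 * 1 ≤ Λ * ρ := mul_le_mul hΛ (by linarith) (by norm_num) hΛ0.le
      linarith
    rootp := by
      intro k t ht ht'
      have b1 := B.q'l
      have b2 := B.q'u
      have b3 := B.θ1small
      have b4 := B.θqp
      have hθp := B.θpos
      refine ⟨q', by linarith, by linarith [B.hR], ?_⟩
      intro ρ h0 hρ
      have h1 := hlb k t ρ (by linarith) (by linarith) h0
      have h2 : FF φ ε L k t q' ≤ FF φ ε L 0 t q' := by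
        apply T.mono (hw0 0) _ (summable_wtr ε k) (hwa k) (by linarith) (by linarith)
        intro j
        simpa [wtr] using hw0 k j
      have h3 := B.fc t (by linarith) (by linarith)
      have h4 : 0 ≤ t * ε k * q' ^ 2 / 2 := by
        have := hε0 k
        have : 0 < t := by linarith
        positivity
      -- Cμ Λ (q' - ρ) ≥ 225 m Λ ρ + 1 + Λ (q/2 (q-p) + θ1)
      have h5 : Cμ * Λ * 1 ≤ Cμ * Λ * (q' - ρ) :=
        mul_le_mul_of_nonneg_left (by linarith) (by positivity)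
      have h6 : (225 * m * p / 2 + 1 + q * (q - p) / 2 + 1) * Λ ≤ Cμ * Λ :=
        mul_le_mul_of_nonneg_right C.hCm2 hΛ0.le
      have h7 : 225 * m * Λ * ρ ≤ 225 * m * Λ * (p / 2) :=
        mul_le_mul_of_nonneg_left hρ (by positivity)
      have h8 : Λ * θ1 ≤ Λ * 1 := mul_le_mul_of_nonneg_left (by linarith) hΛ0.le
      linarith }

end

end Crest.Agent.Gas
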