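import Crest.Agent.GasAsm2

/-! Module Y3 (GasAsm3): the main theorem for a given core. -/

set_option autoImplicit false

namespace Crest.Agent.Gas

open MeasureTheory Crest.ProbabilityR.Continuum Filter Set

theorem main_kink {m : ℕ} {sa sc sd p : ℝ} (hm : 2 ≤ m) (hsa : 1 / 2 ≤ sa) (hac : sa < sc)
    (hcd : sc < sd) (hd : sd < 1) (hcap : HasCap m sa)
    (hc : ∃ c : Fin m → Pt, ∀ i j, i ≠ j → sc < dist (c i) (c j) ∧ dist (c i) (c j) < sd)
    (hp1 : 1 ≤ p)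
    (hp : Tendsto (fun L : ℝ => (packingNumber L : ℝ) / L ^ 3) atTop (nhds p)) :
    ∃ A r t0 a0 : ℝ, 0 ≤ A ∧ 0 < r ∧ 2 * r < 1 - t0 ∧ 0 < t0 ∧
      ∀ φ : ℝ → ℝ, IsCore φ A r t0 sa sc sd → ∃ ε L : ℕ → ℝ,
        CoreSetup φ A r t0 sa sc sd a0 m L ∧ (∀ j, 0 < ε j) ∧ Summable ε ∧
        9 / 2 * ∑' j, ε j ≤ a0 ∧ (∀ j, 2 * L j ≤ L (j + 1)) ∧
        (∃ C : ℝ, ∀ j, ε j ≤ C * (L j) ^ (-(1 / 32 : ℝ))) ∧
        ∃ tc, 15 / 16 ≤ tc ∧ tc ≤ 17 / 16 ∧ ∀ ρ, 3 / 2 * p ≤ ρ → ρ ≤ 7 / 4 * p →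
          ∃ eL eR, eR < eL ∧
          (∀ t, 7 / 8 ≤ t → t < tc → Fe (fun x => t * fam φ ε L x) ρ ≤
            Fe (fun x => tc * fam φ ε L x) ρ - eL * (tc - t)) ∧
          (∀ t, tc < t → t ≤ 9 / 8 → Fe (fun x => t * fam φ ε L x) ρ ≤
            Fe (fun x => tc * fam φ ε L x) ρ + eR * (t - tc)) := by
  obtain ⟨q, Cμ, R, S, θ, θ1, Ah, κ, hcst⟩ := exists_cst m p hm hp1
  have C := hcst.two hm hp1
  have hq : q = m * p := C.hq
  have hR0 := C.Rpos
  have hκ := C.κpos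
  have hκ3 := C.κ3
  have hCμ0 := C.Cμpos
  have hm2 := C.m2
  have hq2 := C.q2
  have hθ0 := C.θpos
  have hmp0 : 0 ≤ (m : ℝ) := by linarith
  obtain ⟨Λ, hΛ, hb⟩ := base_estimates hm hsa hac hcd hd hcap hc hp1 hp R Ah θ1 C.θ1pos hR0.le
    (by rw [← hq]; have := C.hAh1; nlinarith)
  obtain ⟨p', q', hp'l, hp'u, hq'l, hq'u, hr2, ht10, hb⟩ := hb Λ le_rfl
  rw [← hq] at hq'l hq'u hr2 hb
  have hΛ0 : 0 < Λ := by linarith
  have hAh0 : 0 < Ah := by have := C.hAh1; nlinarith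
  have hκΛ : κ * Λ ≤ 1 / 20 * Λ := mul_le_mul_of_nonneg_right hκ3 hΛ0.le
  have hκΛ0 : 0 < κ * Λ := by positivity
  -- the lower step
  obtain ⟨C1, hC1, hstep⟩ := exists_lowStep (a0s := 78 * Λ) (b0s := 225 * m * Λ)
    (μm := 2 * Cμ * Λ) (εm := 9 / 8 * Λ)
    (Sm := 2 * Cμ * Λ * R + (225 * m * Λ * R + 1) + 9 / 8 * Λ * R ^ 2 / 2) (R := R)
    (a' := 7 / 8) (b' := 9 / 8) (a0 := 100 * Λ) (E := (1 + 2 * κ) * Λ) (E0 := Λ) (m := m)
    (by positivity) (by positivity) (by positivity) (by positivity) (by positivity)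
    (by linarith) (by
      have h1 := Real.exp_one_lt_d9
      have h2 := C.hR
      linarith) (by
      rw [C.hR]
      have h1 : 0 ≤ Λ * Cμ := by positivity
      have h2 : 0 ≤ Λ * m := by positivity
      have h3 : 0 ≤ Λ * q := by
        have : 0 ≤ q := by linarith
        positivity
      linarith) (by norm_num) (by norm_num) (by positivity) (by linarith) (by linarith)
      (by linarith) le_rfl
  refine ⟨Ah * Λ, Real.exp (-(q / 6) * Λ), 1 / Λ, 100 * Λ, by positivity, Real.exp_pos _, hr2,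
    by positivity, ?_⟩
  intro φ hφ
  obtain ⟨K, hK0, hK⟩ : ∃ K : ℝ, 0 ≤ K ∧ ∫⁻ z : Pt, ENNReal.ofReal (φ ‖z‖) ≤ ENNReal.ofReal K :=
    ⟨_, ENNReal.toReal_nonneg, (ENNReal.ofReal_toReal hφ.core.ne).ge⟩
  obtain ⟨CL, hCL⟩ : ∃ CL : ℝ, CL = 4 * (R ^ 2 + (2 * (9 / 8)) * K * R ^ 2 / 2 +
      (2 * (9 / 8)) * (2 * m * (100 * Λ) * R) + 1) / (7 / 8) := ⟨_, rfl⟩
  have hCL0 : 0 ≤ CL := by rw [hCL]; positivity
  have hv := volB_pos (R := 1) one_pos
  obtain ⟨C2, hC2⟩ : ∃ C2 : ℝ, C2 = 9 / 8 * Λ * R / (2 * volB 1) := ⟨_, rfl⟩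
  have hC20 : 0 ≤ C2 := by rw [hC2]; positivity
  obtain ⟨ε, L, δ, h, η, D, b, hε00, hε0, hεs, hL, hLL, hdec, hδ0, hh0, hη0, hηh, hsη, hsh, hsδ,
    hD1, hLD, hDb, hbL, hCδ, hCδ'⟩ := exists_seq (Λ := Λ) (κ := κ) (θ := θ) (h0 := 1 / 64)
    (κ3 := Λ * p ^ 2 / 256) (a' := 7 / 8) (C := C1 + C2) (CL := CL) hΛ0 hκ hθ0 (by norm_num)
    (by positivity) (by norm_num) (by linarith) hCL0
  have hE : ∀ k, ∑ j ∈ Finset.range k, ε j ≤ (1 + 2 * κ) * Λ := by
    intro k
    cases k with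
    | zero => simp only [Finset.range_zero, Finset.sum_empty]; positivity
    | succ k =>
      rw [Finset.sum_range_succ', hε00]
      have := hεs k
      linarith
  have hεle : ∀ k, ε k ≤ Λ := by
    intro k
    cases k with
    | zero => rw [hε00]
    | succ k =>
      have h1 : ε (k + 1) ≤ ∑ j ∈ Finset.range (k + 1), ε (j + 1) :=
        Finset.single_le_sum (f := fun j => ε (j + 1)) (fun j _ => (hε0 _).le)
          (Finset.mem_range.2 (Nat.lt_succ_self k))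
      have h2 := hεs (k + 1)
      linarith
  have hsum : Summable ε := summable_of_sum_range_le (fun j => (hε0 j).le) hE
  have htsum : ∑' j, ε j ≤ (1 + 2 * κ) * Λ :=
    Real.tsum_le_of_sum_range_le (fun j => (hε0 j).le) hE
  have hεa : 9 / 2 * (∑' j, ε j + Λ) ≤ 100 * Λ := by linarith
  have hεa' : 9 / 2 * ∑' j, ε j ≤ 100 * Λ := by linarith
  have T : CoreSetup φ (Ah * Λ) (Real.exp (-(q / 6) * Λ)) (1 / Λ) sa sc sd (100 * Λ) m L :=
    { hm := by omega
      core := hφ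
      cap := hcap
      r_pos := Real.exp_pos _
      r_lt := hr2
      t_pos := by positivity
      t_le := ht10
      a0_nonneg := by positivity
      hA := by
        have h1 : (400 * (m : ℝ)) * Λ ≤ Ah * Λ := by
          apply mul_le_mul_of_nonneg_right _ hΛ0.le
          have := C.hAh1
          linarith
        linarith
      hL := hL }
  refine ⟨ε, L, T, hε0, hsum, hεa', hLL, hdec, ?_⟩
  have B : BaseHyp (FF φ ε L 0) Λ p q p' q' θ θ1 R Cμ Ah :=
    C.base hΛ hp'l hp'u hq'l hq'u (fun t ht => T.adm0 ht) (hb φ hφ)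
  have H := C.kink hΛ B T hK0 hK hCL hε00 hε0 hεs hE hδ0 hh0 hη0 hηh hsη hsh hsδ
    (by
      intro k t ρ ht ht' h0 hR
      have h1 := T.upStep hε0 hE (by linarith) hεle k (by linarith : 0 < t) ht' h0 hR
      have h2 : (9 / 8 * Λ * R / (2 * volB 1)) / (L k) ^ 3 ≤ δ k := by
        refine le_trans ?_ (hCδ' k)
        rw [← hC2]
        have : 0 < L k := by linarith [hL k]
        apply div_le_div_of_nonneg_right _ (by positivity)
        linarith
      linarith)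
    (by
      intro k t μ y ρ ht ht' hμ hy h0 hR
      have h1 := hstep φ _ _ _ _ _ _ L T ε D b hε0 hE hεle hD1 hLD hDb hbL k t μ y ρ ht ht' hμ hy
        h0 hR
      have h2 : C1 * ((D k + 1) / b k + b k / L k) ≤ δ k := by
        refine le_trans ?_ (hCδ k)
        apply mul_le_mul_of_nonneg_right (by linarith)
        have : 0 < L k := by linarith [hL k]
        have := hD1 k
        positivity
      linarith)
  have hmain := H.main (fun t ρ => Fe (fun x => t * fam φ ε L x) ρ)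
    (by
      intro t ht ht'
      exact (Fe_convexOn (T.adm (fun j => (hε0 j).le) hsum hεa' (by linarith))).subset
        (fun x hx => hx.1) (convex_Icc _ _))
    (by
      intro e he
      exact T.lim hK0 hK (by norm_num) (by norm_num) hR0.le hΛ0 hε0 hsum hεa e he)
    hsum.tendsto_atTop_zero (3 / 2 * p) (7 / 4 * p)
    (by have := C.θ256; linarith) (by have := C.θ256; linarith)
    (by
      intro x0 x1 x2 ρ h1 h2 h3 h4 h5 h6
      rw [hε00]
      exact fin_ineq hΛ0 hp1 hq2 hθ0 (by have := C.θ256; linarith) (by have := C.θ256; linarith)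
        hκ.le C.κ2 (by
          have h7 := C.hθ
          rw [C.hS] at h7
          rw [h7]
          nlinarith) h1 h2 h3 h4 h5 h6)
  exact hmain

end Crest.Agent.Gas
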