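import Crest.Agent.GasBasic
import Crest.Agent.GasPacking

/-! Module F1 (GasPackGeo): deterministic geometry: cluster capacity `m`, energy lower bounds,
superstability. -/

set_option autoImplicit false

namespace Crest.Agent.Gas

open MeasureTheory Crest.ProbabilityR.Continuum

/-- `m` bounds the size of families with pairwise distances in `(sa, 1)`. -/
def HasCap (m : ℕ) (sa : ℝ) : Prop :=
  ∀ (n : ℕ) (y : Fin n → Pt), (∀ i j, i ≠ j → sa < dist (y i) (y j) ∧ dist (y i) (y j) < 1) → n ≤ m

/-! ### Auxiliary geometry -/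

/-- Two points with coordinates within `δ` are at distance at most `√3 δ`. -/
theorem dist_sq_le_of_coord {a b : Pt} {δ : ℝ} (h : ∀ k, |a k - b k| ≤ δ) :
    dist a b ^ 2 ≤ 3 * δ ^ 2 := by
  rw [EuclideanSpace.dist_eq, Real.sq_sqrt (Finset.sum_nonneg fun i _ => sq_nonneg _)]
  have hk : ∀ k : Fin 3, dist (a k) (b k) ^ 2 ≤ δ ^ 2 := by
    intro k
    rw [Real.dist_eq]
    have := h k
    have h0 := abs_nonneg (a k - b k)
    nlinarith
  calc ∑ i, dist (a i) (b i) ^ 2 ≤ ∑ _i : Fin 3, δ ^ 2 := Finset.sum_le_sum fun i _ => hk i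
    _ = 3 * δ ^ 2 := by simp

/-- Two reals in the same cell of side `b` differ by less than `b`. -/
theorem abs_sub_lt_of_floor_eq {b u v : ℝ} (hb : 0 < b) (h : ⌊u / b⌋ = ⌊v / b⌋) : |u - v| < b := by
  have := Int.abs_sub_lt_one_of_floor_eq_floor h
  rw [← sub_div, abs_div, abs_of_pos hb, div_lt_one hb] at this
  exact this

theorem card_le_of_sep {n : ℕ} (y : Fin n → Pt)
    (hy : ∀ i j, i ≠ j → 1 / 2 < dist (y i) (y j) ∧ dist (y i) (y j) < 1) : n ≤ 512 := by
  classical
  rcases Nat.eq_zero_or_pos n with h0 | h0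
  · omega
  let i0 : Fin n := ⟨0, h0⟩
  have hd : ∀ i, dist (y i) (y i0) < 1 := by
    intro i
    by_cases h : i = i0
    · rw [h, dist_self]; norm_num
    · exact (hy i i0 h).2
  let f : Fin n → (Fin 3 → ℤ) := fun i k => ⌊(y i k - y i0 k) / (1 / 4)⌋
  have hinj : Function.Injective f := by
    intro i j hij
    by_contra hne
    have h1 := (hy i j hne).1
    have h2 : ∀ k, |y i k - y j k| ≤ 1 / 4 := by
      intro k
      have := congrFun hij k
      have h3 := abs_sub_lt_of_floor_eq (b := 1 / 4) (by norm_num) this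
      have h4 : y i k - y i0 k - (y j k - y i0 k) = y i k - y j k := by ring
      rw [h4] at h3
      exact h3.le
    have h5 := dist_sq_le_of_coord h2
    nlinarith
  have hmem : ∀ i, f i ∈ Fintype.piFinset (fun _ : Fin 3 => Finset.Icc (-4 : ℤ) 3) := by
    intro i
    rw [Fintype.mem_piFinset]
    intro k
    rw [Finset.mem_Icc]
    have h1 : |y i k - y i0 k| < 1 := (abs_coord_le_dist _ _ k).trans_lt (hd i)
    rw [abs_lt] at h1
    constructor
    · apply Int.le_floor.mpr
      push_cast
      linarith [h1.1]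
    · apply Int.lt_add_one_iff.mp
      apply Int.floor_lt.mpr
      push_cast
      linarith [h1.2]
  have := Finset.card_le_card_of_injOn (s := Finset.univ) f (fun i _ => hmem i) hinj.injOn
  simpa using this

/-- Capacity of a cluster, with some room in the thresholds.
(Let `M(s)` = max size of a family with pairwise distances in `(s,1)`; `M` is antitone with values in
`[2, 4096]` on `[1/2, 9/10]`, so `M(s) = M(s')` for some `s < s'`.) -/
theorem exists_capacity :
    ∃ (m : ℕ) (sa sc sd : ℝ), 2 ≤ m ∧ 1 / 2 ≤ sa ∧ sa < sc ∧ sc < sd ∧ sd < 1 ∧ HasCap m sa ∧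
      ∃ c : Fin m → Pt, ∀ i j, i ≠ j → sc < dist (c i) (c j) ∧ dist (c i) (c j) < sd := by
  classical
  let P : ℝ → ℕ → Prop := fun s n =>
    ∃ y : Fin n → Pt, ∀ i j, i ≠ j → s < dist (y i) (y j) ∧ dist (y i) (y j) < 1
  have hP512 : ∀ s n, 1 / 2 ≤ s → P s n → n ≤ 512 := by
    rintro s n hs ⟨y, hy⟩
    exact card_le_of_sep y (fun i j hij => ⟨hs.trans_lt (hy i j hij).1, (hy i j hij).2⟩)
  have hP2 : ∀ s, s ≤ 9 / 10 → P s 2 := by
    intro s hs
    refine ⟨![0, EuclideanSpace.single 0 (19 / 20 : ℝ)], ?_⟩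
    have hd : dist (0 : Pt) (EuclideanSpace.single 0 (19 / 20 : ℝ)) = 19 / 20 := by
      rw [dist_eq_norm, zero_sub, norm_neg, PiLp.norm_single]
      norm_num
    intro i j hij
    have : dist ((![0, EuclideanSpace.single 0 (19 / 20 : ℝ)] : Fin 2 → Pt) i)
        ((![0, EuclideanSpace.single 0 (19 / 20 : ℝ)] : Fin 2 → Pt) j) = 19 / 20 := by
      fin_cases i <;> fin_cases j <;> simp_all [dist_comm]
    rw [this]
    constructor
    · linarith
    · norm_num
  let M : ℝ → ℕ := fun s => Nat.findGreatest (P s) 512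
  have hM1 : ∀ s, s ≤ 9 / 10 → P s (M s) := fun s hs =>
    Nat.findGreatest_spec (P := P s) (by norm_num : 2 ≤ 512) (hP2 s hs)
  have hM2 : ∀ s, s ≤ 9 / 10 → 2 ≤ M s := fun s hs =>
    Nat.le_findGreatest (P := P s) (by norm_num : 2 ≤ 512) (hP2 s hs)
  have hM3 : ∀ s n, 1 / 2 ≤ s → P s n → n ≤ M s := fun s n hs h =>
    Nat.le_findGreatest (hP512 s n hs h) h
  have hinf : (Set.Icc (1 / 2 : ℝ) (9 / 10)).Infinite := Set.Icc_infinite (by norm_num)
  have hmaps : Set.MapsTo M (Set.Icc (1 / 2 : ℝ) (9 / 10)) (Set.Iic 512) := by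
    intro s _
    exact Nat.findGreatest_le 512
  obtain ⟨s, hs, s', hs', hne, heq⟩ :=
    hinf.exists_ne_map_eq_of_mapsTo hmaps (Set.finite_Iic 512)
  wlog hlt : s < s' generalizing s s'
  · exact this s' hs' s hs hne.symm heq.symm (lt_of_le_of_ne (not_lt.mp hlt) hne.symm)
  obtain ⟨c, hc⟩ := hM1 s' hs'.2
  have hm2 : 2 ≤ M s' := hM2 s' hs'.2
  -- the largest distance
  have hfin : (Set.range (fun p : Fin (M s') × Fin (M s') => dist (c p.1) (c p.2))).Finite :=
    Set.finite_range _
  let i0 : Fin (M s') := ⟨0, by omega⟩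
  let i1 : Fin (M s') := ⟨1, by omega⟩
  have h01 : i0 ≠ i1 := by
    intro h
    have := congrArg Fin.val h
    simp [i0, i1] at this
  obtain ⟨p, _, hp⟩ := Finset.exists_max_image (Finset.univ : Finset (Fin (M s') × Fin (M s')))
    (fun p => dist (c p.1) (c p.2)) ⟨(i0, i0), Finset.mem_univ _⟩
  have hp1 : dist (c p.1) (c p.2) < 1 := by
    by_cases h : p.1 = p.2
    · rw [h, dist_self]; norm_num
    · exact (hc _ _ h).2
  have hps : s' < dist (c p.1) (c p.2) :=
    (hc i0 i1 h01).1.trans_le (hp (i0, i1) (Finset.mem_univ _))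
  refine ⟨M s', s, s', (dist (c p.1) (c p.2) + 1) / 2, hm2, hs.1, hlt, by linarith, by linarith,
    ?_, c, ?_⟩
  · intro n y hy
    rw [← heq]
    exact hM3 s n hs.1 ⟨y, hy⟩
  · intro i j hij
    refine ⟨(hc i j hij).1, ?_⟩
    have := hp (i, j) (Finset.mem_univ _)
    simp only at this
    linarith

/-! ### Weighted greedy Turan -/

section Turan

variable {ι : Type} [DecidableEq ι]

/-- total off-diagonal weight inside `s` -/
noncomputable def offW (W : ι → ι → ℝ) (s : Finset ι) : ℝ :=
  ∑ i ∈ s, ∑ j ∈ s, if i = j then 0 else W i j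

/-- independence with respect to the threshold `A` -/
def Indep (W : ι → ι → ℝ) (A : ℝ) (T : Finset ι) : Prop :=
  ∀ i ∈ T, ∀ j ∈ T, i ≠ j → W i j < A

theorem exists_max_indep (W : ι → ι → ℝ) (hsym : ∀ i j, W i j = W j i) (A : ℝ) (s : Finset ι) :
    ∃ T ⊆ s, Indep W A T ∧ (∀ j ∈ s \ T, ∃ i ∈ T, A ≤ W i j) := by
  classical
  have hne : (s.powerset.filter (fun T => Indep W A T)).Nonempty :=
    ⟨∅, by
      rw [Finset.mem_filter]
      exact ⟨Finset.empty_mem_powerset _, fun i hi => absurd hi (Finset.notMem_empty i)⟩⟩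
  obtain ⟨T, hT, hmax⟩ := Finset.exists_max_image _ (fun T => T.card) hne
  rw [Finset.mem_filter, Finset.mem_powerset] at hT
  refine ⟨T, hT.1, hT.2, ?_⟩
  intro j hj
  rw [Finset.mem_sdiff] at hj
  by_contra hcon
  push Not at hcon
  have hI : Indep W A (insert j T) := by
    intro a ha b hb hab
    rw [Finset.mem_insert] at ha hb
    rcases ha with rfl | ha
    · rcases hb with rfl | hb
      · exact absurd rfl hab
      · rw [hsym]; exact hcon b hb
    · rcases hb with rfl | hb
      · exact hcon a ha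
      · exact hT.2 a ha b hb hab
  have := hmax (insert j T) (by
    rw [Finset.mem_filter, Finset.mem_powerset]
    exact ⟨Finset.insert_subset hj.1 hT.1, hI⟩)
  rw [Finset.card_insert_of_notMem hj.2] at this
  omega

theorem offW_nonneg (W : ι → ι → ℝ) (hW : ∀ i j, 0 ≤ W i j) (s : Finset ι) : 0 ≤ offW W s := by
  refine Finset.sum_nonneg fun i _ => Finset.sum_nonneg fun j _ => ?_
  split_ifs
  · exact le_rfl
  · exact hW i j

theorem offW_split (W : ι → ι → ℝ) (hW : ∀ i j, 0 ≤ W i j) (hsym : ∀ i j, W i j = W j i)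
    {A : ℝ} {s T : Finset ι} (hT : T ⊆ s) (hmax : ∀ j ∈ s \ T, ∃ i ∈ T, A ≤ W i j) :
    2 * A * (s \ T).card + offW W (s \ T) ≤ offW W s := by
  classical
  set V : ι → ι → ℝ := fun i j => if i = j then 0 else W i j with hV
  have hV0 : ∀ i j, 0 ≤ V i j := by
    intro i j
    simp only [hV]
    split_ifs
    · exact le_rfl
    · exact hW i j
  have hVs : ∀ i j, V i j = V j i := by
    intro i j
    simp only [hV]
    by_cases h : i = j
    · simp [h]
    · rw [if_neg h, if_neg (Ne.symm h), hsym]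
  have hcross : A * (s \ T).card ≤ ∑ j ∈ s \ T, ∑ i ∈ T, V i j := by
    calc A * (s \ T).card = ∑ _j ∈ s \ T, A := by
          rw [Finset.sum_const, nsmul_eq_mul, mul_comm]
      _ ≤ ∑ j ∈ s \ T, ∑ i ∈ T, V i j := by
          refine Finset.sum_le_sum fun j hj => ?_
          obtain ⟨i, hi, hA⟩ := hmax j hj
          have hij : i ≠ j := by
            rintro rfl
            exact (Finset.mem_sdiff.mp hj).2 hi
          calc A ≤ W i j := hA
            _ = V i j := by simp only [hV]; rw [if_neg hij]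
            _ ≤ _ := Finset.single_le_sum (f := fun i => V i j) (fun i _ => hV0 i j) hi
  have hs : ∀ f : ι → ℝ, ∑ i ∈ s, f i = ∑ i ∈ s \ T, f i + ∑ i ∈ T, f i := fun f =>
    (Finset.sum_sdiff hT).symm
  have h1 : offW W s = ∑ i ∈ s \ T, ∑ j ∈ s \ T, V i j + ∑ i ∈ s \ T, ∑ j ∈ T, V i j
      + (∑ i ∈ T, ∑ j ∈ s \ T, V i j + ∑ i ∈ T, ∑ j ∈ T, V i j) := by
    change ∑ i ∈ s, ∑ j ∈ s, V i j = _
    rw [hs]
    simp_rw [hs]
    rw [Finset.sum_add_distrib, Finset.sum_add_distrib]
  have h2 : ∑ i ∈ s \ T, ∑ j ∈ T, V i j = ∑ j ∈ s \ T, ∑ i ∈ T, V i j := by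
    refine Finset.sum_congr rfl fun i _ => Finset.sum_congr rfl fun j _ => hVs i j
  have h3 : ∑ i ∈ T, ∑ j ∈ s \ T, V i j = ∑ j ∈ s \ T, ∑ i ∈ T, V i j := Finset.sum_comm
  have h4 : 0 ≤ ∑ i ∈ T, ∑ j ∈ T, V i j :=
    Finset.sum_nonneg fun i _ => Finset.sum_nonneg fun j _ => hV0 i j
  have h5 : offW W (s \ T) = ∑ i ∈ s \ T, ∑ j ∈ s \ T, V i j := rfl
  rw [h1, h2, h3, h5]
  linarith

theorem turan_weight (W : ι → ι → ℝ) (hW : ∀ i j, 0 ≤ W i j) (hsym : ∀ i j, W i j = W j i)
    {A : ℝ} (hA : 0 ≤ A) {m : ℕ} (hm : 1 ≤ m) (s : Finset ι)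
    (hind : ∀ T ⊆ s, Indep W A T → T.card ≤ m) :
    A * ((s.card : ℝ) ^ 2 / m - s.card) ≤ offW W s := by
  classical
  induction s using Finset.strongInduction with
  | H s ih =>
    rcases s.eq_empty_or_nonempty with h0 | hne
    · subst h0
      simp [offW]
    obtain ⟨T, hTs, hTI, hTmax⟩ := exists_max_indep W hsym A s
    have hTne : T.Nonempty := by
      by_contra hT
      rw [Finset.not_nonempty_iff_eq_empty] at hT
      obtain ⟨a, ha⟩ := hne
      obtain ⟨i, hi, _⟩ := hTmax a (by simp [hT, ha])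
      simp [hT] at hi
    have hss : s \ T ⊂ s := by
      rw [Finset.ssubset_iff_subset_ne]
      refine ⟨Finset.sdiff_subset, ?_⟩
      intro h
      obtain ⟨a, ha⟩ := hTne
      have := hTs ha
      rw [← h, Finset.mem_sdiff] at this
      exact this.2 ha
    have h1 := ih (s \ T) hss (fun T' hT' => hind T' (hT'.trans Finset.sdiff_subset))
    have h2 := offW_split W hW hsym hTs hTmax
    have hk : (T.card : ℝ) ≤ m := by exact_mod_cast hind T hTs hTI
    have hcard : ((s \ T).card : ℝ) = s.card - T.card := by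
      rw [Finset.card_sdiff_of_subset hTs, Nat.cast_sub (Finset.card_le_card hTs)]
    rw [hcard] at h1 h2
    have hm0 : (0 : ℝ) < m := by exact_mod_cast hm
    have hkn : (T.card : ℝ) ≤ s.card := by exact_mod_cast Finset.card_le_card hTs
    have hk0 : (0 : ℝ) ≤ T.card := Nat.cast_nonneg _
    set n : ℝ := (s.card : ℝ)
    set k : ℝ := (T.card : ℝ)
    have h3 : n ^ 2 / m - n ≤ 2 * (n - k) + ((n - k) ^ 2 / m - (n - k)) := by
      have h4 : n ^ 2 / m - (n - k) ^ 2 / m = k / m * (2 * n - k) := by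
        field_simp
        ring
      have h5 : k / m ≤ 1 := by
        rw [div_le_one hm0]; exact hk
      have h6 : k / m * (2 * n - k) ≤ 1 * (2 * n - k) :=
        mul_le_mul_of_nonneg_right h5 (by linarith)
      linarith
    have h7 := mul_le_mul_of_nonneg_left h3 hA
    linarith

end Turan

theorem pairE_eq_offW (U : Pt → Pt → ℝ) {ι : Type} [Fintype ι] [DecidableEq ι] (x : ι → Pt) :
    pairE U x = (1 / 2) * offW (fun i j => U (x i) (x j)) Finset.univ := by
  unfold pairE offW
  congr 1
  rw [sub_eq_iff_eq_add, ← Finset.sum_add_distrib]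
  refine Finset.sum_congr rfl fun i _ => ?_
  rw [← Finset.add_sum_erase _ _ (Finset.mem_univ i),
    ← Finset.add_sum_erase _ (fun j => if i = j then 0 else U (x i) (x j))
      (Finset.mem_univ i)]
  simp only [if_true, zero_add]
  rw [add_comm]
  congr 1
  refine Finset.sum_congr rfl fun j hj => ?_
  rw [if_neg (Finset.ne_of_mem_erase hj).symm]

/-- The core `φ`: nonnegative, vanishing beyond `1` and on the window `[sc r, sd r]`, at least `A`
on `[0, sa r]` and on `[r, 1 - t]`. -/
structure IsCore (φ : ℝ → ℝ) (A r t sa sc sd : ℝ) : Prop where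
  meas : Measurable φ
  nonneg : ∀ s, 0 ≤ φ s
  far : ∀ s, 1 ≤ s → φ s = 0
  window : ∀ s, sc * r ≤ s → s ≤ sd * r → φ s = 0
  inner : ∀ s, 0 ≤ s → s ≤ sa * r → A ≤ φ s
  outer : ∀ s, r ≤ s → s ≤ 1 - t → A ≤ φ s
  core : ∫⁻ z : Pt, ENNReal.ofReal (φ ‖z‖) < ⊤

/-- pairs of low energy at distance at most `1 - t` are at distance in `(sa r, r)`. -/
theorem IsCore.near {φ : ℝ → ℝ} {A r t sa sc sd : ℝ} (hφ : IsCore φ A r t sa sc sd) {s : ℝ}
    (hs0 : 0 ≤ s) (hs : s ≤ 1 - t) (hA : φ s < A) : sa * r < s ∧ s < r := by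
  constructor
  · by_contra h
    exact absurd (hφ.inner s hs0 (not_lt.mp h)) (not_le.mpr hA)
  · by_contra h
    exact absurd (hφ.outer s (not_lt.mp h) hs) (not_le.mpr hA)

/-- A finite independent family of diameter at most `1 - t` has at most `m` members. -/
theorem card_le_of_indep {φ : ℝ → ℝ} {A r t sa sc sd : ℝ} {m : ℕ}
    (hφ : IsCore φ A r t sa sc sd) (hcap : HasCap m sa) (hr : 0 < r) {ι : Type} [DecidableEq ι]
    (x : ι → Pt) (T : Finset ι)
    (hI : Indep (fun i j => rad φ (x i) (x j)) A T)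
    (hd : ∀ i ∈ T, ∀ j ∈ T, i ≠ j → dist (x i) (x j) ≤ 1 - t) : T.card ≤ m := by
  classical
  let e := T.equivFin.symm
  refine hcap T.card (fun k => (1 / r) • x (e k).1) ?_
  intro a b hab
  have hne : (e a).1 ≠ (e b).1 := by
    intro h
    exact hab (e.injective (Subtype.ext h))
  have h1 := hφ.near dist_nonneg (hd _ (e a).2 _ (e b).2 hne) (hI _ (e a).2 _ (e b).2 hne)
  have h2 : dist ((1 / r) • x (e a).1) ((1 / r) • x (e b).1)
      = (1 / r) * dist (x (e a).1) (x (e b).1) := by
    rw [dist_smul₀, Real.norm_of_nonneg (by positivity)]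
  rw [h2]
  constructor
  · rw [one_div, ← div_eq_inv_mul, lt_div_iff₀ hr]
    exact h1.1
  · rw [one_div, ← div_eq_inv_mul, div_lt_one hr]
    exact h1.2

/-- Energy of excess particles: at least `A (N - m n_p)`, `n_p = packingNumber (L / (1-t))`.
(Take a maximal set `T` of particles without pair of energy `≥ A`; every other particle has a bad
pair with a member of `T`, and `|T| ≤ m n_p`: choose a maximal `(1-t)`-separated `S ⊆ T`; the others
are within `r` of a point of `S`, giving groups with pairwise distances in `(sa r, r)`.) -/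
theorem energy_ge_excess {φ : ℝ → ℝ} {A r t sa sc sd : ℝ} {m : ℕ} (hA : 0 ≤ A)
    (hφ : IsCore φ A r t sa sc sd) (hcap : HasCap m sa) (hr : 0 < r)
    (hr' : 2 * r < 1 - t) (ht : 0 < t) {L : ℝ} (hL : 0 ≤ L) {N : ℕ} (x : Fin N → Pt)
    (hx : ∀ i, x i ∈ cube L) :
    A * ((N : ℝ) - m * packingNumber (L / (1 - t))) ≤ pairE (rad φ) x := by
  classical
  set W : Fin N → Fin N → ℝ := fun i j => rad φ (x i) (x j) with hWdef
  have hW0 : ∀ i j, 0 ≤ W i j := fun i j => hφ.nonneg _
  have hWs : ∀ i j, W i j = W j i := fun i j => by simp only [hWdef, rad, dist_comm]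
  have ht1 : 0 < 1 - t := by linarith
  obtain ⟨T, hT, hTI, hTmax⟩ := exists_max_indep W hWs A Finset.univ
  have h1 := offW_split W hW0 hWs hT hTmax
  have h2 := offW_nonneg W hW0 (Finset.univ \ T)
  -- maximal separated subset
  have hne : (T.powerset.filter (fun S => ∀ i ∈ S, ∀ j ∈ S, i ≠ j → 1 - t ≤ dist (x i) (x j))).Nonempty :=
    ⟨∅, by simp⟩
  obtain ⟨S, hS, hSmax⟩ := Finset.exists_max_image _ (fun S => S.card) hne
  rw [Finset.mem_filter, Finset.mem_powerset] at hS
  obtain ⟨hST, hSsep⟩ := hS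
  have hnear : ∀ j ∈ T, ∃ i ∈ S, dist (x j) (x i) < r := by
    intro j hj
    by_cases hjS : j ∈ S
    · exact ⟨j, hjS, by rw [dist_self]; exact hr⟩
    by_contra hcon
    push Not at hcon
    have hI : ∀ a ∈ insert j S, ∀ b ∈ insert j S, a ≠ b → 1 - t ≤ dist (x a) (x b) := by
      have key : ∀ i ∈ S, 1 - t ≤ dist (x j) (x i) := by
        intro i hi
        by_contra hlt
        push Not at hlt
        have hij : j ≠ i := by rintro rfl; exact hjS hi
        have := hφ.near dist_nonneg hlt.le (hTI j hj i (hST hi) hij)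
        exact absurd this.2 (not_lt.mpr (hcon i hi))
      intro a ha b hb hab
      rw [Finset.mem_insert] at ha hb
      rcases ha with rfl | ha
      · rcases hb with rfl | hb
        · exact absurd rfl hab
        · exact key b hb
      · rcases hb with rfl | hb
        · rw [dist_comm]; exact key a ha
        · exact hSsep a ha b hb hab
    have := hSmax (insert j S) (by
      rw [Finset.mem_filter, Finset.mem_powerset]
      exact ⟨Finset.insert_subset hj hST, hI⟩)
    rw [Finset.card_insert_of_notMem hjS] at this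
    omega
  choose! g hg1 hg2 using hnear
  have hTS : T.card ≤ m * S.card := by
    have := Finset.card_le_mul_card_image_of_maps_to (s := T) (t := S) (f := g)
      (fun j hj => hg1 j hj) m ?_
    · exact this
    · intro b hb
      apply card_le_of_indep hφ hcap hr x
      · intro i hi j hj hij
        exact hTI i (Finset.mem_filter.mp hi).1 j (Finset.mem_filter.mp hj).1 hij
      · intro i hi j hj hij
        rw [Finset.mem_filter] at hi hj
        have h3 := hg2 i hi.1
        have h4 := hg2 j hj.1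
        rw [hi.2] at h3
        rw [hj.2] at h4
        have h5 := dist_triangle_right (x i) (x j) (x b)
        linarith
  have hSp : S.card ≤ packingNumber (L / (1 - t)) := by
    have hinj : Set.InjOn (fun i => (1 / (1 - t)) • x i) (S : Set (Fin N)) := by
      intro i hi j hj hij
      by_contra hne
      have h3 := hSsep i hi j hj hne
      simp only at hij
      have h4 : x i = x j := by
        have hc : (1 / (1 - t)) ≠ 0 := by positivity
        exact smul_right_injective Pt hc hij
      rw [h4, dist_self] at h3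
      linarith
    have h3 : (S.image (fun i => (1 / (1 - t)) • x i)).card = S.card :=
      Finset.card_image_of_injOn hinj
    rw [← h3]
    apply card_le_packingNumber
    · intro y hy
      rw [Finset.mem_image] at hy
      obtain ⟨i, _, rfl⟩ := hy
      intro k
      have h4 := hx i k
      rw [PiLp.smul_apply, smul_eq_mul]
      constructor
      · exact mul_nonneg (by positivity) h4.1
      · rw [one_div, ← div_eq_inv_mul]
        gcongr
        exact h4.2
    · intro y hy z hz hyz
      rw [Finset.mem_image] at hy hz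
      obtain ⟨i, hi, rfl⟩ := hy
      obtain ⟨j, hj, rfl⟩ := hz
      have hij : i ≠ j := by rintro rfl; exact hyz rfl
      rw [dist_smul₀, Real.norm_of_nonneg (by positivity), one_div, ← div_eq_inv_mul,
        one_le_div ht1]
      exact hSsep i hi j hj hij
  rw [pairE_eq_offW]
  have hTN : T.card ≤ m * packingNumber (L / (1 - t)) :=
    hTS.trans (Nat.mul_le_mul_left m hSp)
  have hcard : ((Finset.univ \ T).card : ℝ) = N - T.card := by
    rw [Finset.card_sdiff_of_subset hT, Nat.cast_sub (Finset.card_le_card hT)]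
    simp
  rw [hcard] at h1
  have hTN' : (T.card : ℝ) ≤ m * packingNumber (L / (1 - t)) := by exact_mod_cast hTN
  have h3 : A * ((N : ℝ) - m * packingNumber (L / (1 - t))) ≤ A * (N - T.card) :=
    mul_le_mul_of_nonneg_left (by linarith) hA
  change A * ((N : ℝ) - m * packingNumber (L / (1 - t))) ≤ 1 / 2 * offW W Finset.univ
  linarith

/-- Superstability with constants independent of the height `A` of the core. Cells of side `1/2`
have diameter `< 1 - t`; in a cell with `n` particles the graph of pairs of energy `≥ A` has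
independence number `≤ m`, so the energy is `≥ A (n²/(2m) - n/2)` (greedy Turan) and `≥ 0`. -/
theorem superstable {φ : ℝ → ℝ} {A r t sa sc sd a0 : ℝ} {m : ℕ} (hm : 1 ≤ m)
    (hφ : IsCore φ A r t sa sc sd) (hcap : HasCap m sa) (hr : 0 < r)
    (hr' : 2 * r < 1 - t) (ht : 0 < t) (ht' : t ≤ 1 / 10) (ha0 : 0 ≤ a0) (hA : 4 * m * a0 ≤ A)
    {N : ℕ} (x : Fin N → Pt) :
    a0 * Qc (1 / 2) 0 x - 2 * m * a0 * N ≤ pairE (rad φ) x := by
  classical
  set W : Fin N → Fin N → ℝ := fun i j => rad φ (x i) (x j) with hWdef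
  have hW0 : ∀ i j, 0 ≤ W i j := fun i j => hφ.nonneg _
  have hWs : ∀ i j, W i j = W j i := fun i j => by simp only [hWdef, rad, dist_comm]
  have hm0 : (0 : ℝ) < m := by exact_mod_cast hm
  have hA0 : 0 ≤ A := le_trans (by positivity) hA
  set κ : Fin N → (Fin 3 → ℤ) := fun i => cellIdx (1 / 2) 0 (x i) with hκ
  set cells : Finset (Fin 3 → ℤ) := Finset.univ.image κ with hcells
  set F : (Fin 3 → ℤ) → Finset (Fin N) := fun c => Finset.univ.filter (fun i => κ i = c) with hF
  have hmaps : ∀ i ∈ (Finset.univ : Finset (Fin N)), κ i ∈ cells := fun i _ =>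
    Finset.mem_image_of_mem _ (Finset.mem_univ i)
  -- the cell sums
  have hQ : Qc (1 / 2) 0 x = ∑ c ∈ cells, ((F c).card : ℝ) ^ 2 := by
    unfold Qc
    rw [← Finset.sum_fiberwise_of_maps_to hmaps]
    refine Finset.sum_congr rfl fun c _ => ?_
    have h1 : ∀ i ∈ F c, (∑ j, if cellIdx (1 / 2) 0 (x i) = cellIdx (1 / 2) 0 (x j) then (1 : ℝ) else 0)
        = (F c).card := by
      intro i hi
      rw [hF, Finset.mem_filter] at hi
      rw [Finset.sum_ite, Finset.sum_const_zero, add_zero, Finset.sum_const, nsmul_eq_mul, mul_one]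
      congr 2
      ext j
      simp only [Finset.mem_filter, Finset.mem_univ, true_and, hF]
      constructor
      · intro h
        rw [← hi.2]
        exact h.symm
      · intro h
        exact hi.2.trans h.symm
    rw [Finset.sum_congr rfl h1, Finset.sum_const, nsmul_eq_mul]
    ring
  have hN : (N : ℝ) = ∑ c ∈ cells, ((F c).card : ℝ) := by
    have := Finset.card_eq_sum_card_fiberwise (f := κ) (s := Finset.univ) (t := cells)
      (fun i hi => hmaps i hi)
    rw [Finset.card_univ, Fintype.card_fin] at this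
    exact_mod_cast this
  -- the energy is at least the sum of the energies of the cells
  have hE : ∑ c ∈ cells, offW W (F c) ≤ offW W Finset.univ := by
    unfold offW
    rw [← Finset.sum_fiberwise_of_maps_to hmaps (fun i => ∑ j, if i = j then 0 else W i j)]
    refine Finset.sum_le_sum fun c _ => Finset.sum_le_sum fun i _ => ?_
    refine Finset.sum_le_sum_of_subset_of_nonneg (Finset.subset_univ _) fun j _ _ => ?_
    split_ifs
    · exact le_rfl
    · exact hW0 i j
  have hcell : ∀ c ∈ cells, 2 * (a0 * ((F c).card : ℝ) ^ 2 - 2 * m * a0 * (F c).card)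
      ≤ offW W (F c) := by
    intro c _
    have h0 := offW_nonneg W hW0 (F c)
    by_cases hn : ((F c).card : ℝ) < 2 * m
    · have h1 : a0 * ((F c).card : ℝ) ^ 2 - 2 * m * a0 * (F c).card
          = - (a0 * (F c).card * (2 * m - (F c).card)) := by ring
      have h2 : 0 ≤ a0 * (F c).card * (2 * m - (F c).card) :=
        mul_nonneg (mul_nonneg ha0 (Nat.cast_nonneg _)) (by linarith)
      rw [h1]
      linarith
    · push Not at hn
      have h1 := turan_weight W hW0 hWs hA0 hm (F c) (by
        intro T hT hTI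
        apply card_le_of_indep hφ hcap hr x T hTI
        intro i hi j hj hij
        have hi' := hT hi
        have hj' := hT hj
        rw [hF, Finset.mem_filter] at hi' hj'
        have hij' : κ i = κ j := hi'.2.trans hj'.2.symm
        have h2 : ∀ k, |x i k - x j k| ≤ 1 / 2 := by
          intro k
          have h3 : ⌊(x i k - (0 : Fin 3 → ℝ) k) / (1 / 2)⌋
              = ⌊(x j k - (0 : Fin 3 → ℝ) k) / (1 / 2)⌋ := congrFun hij' k
          have h4 := abs_sub_lt_of_floor_eq (by norm_num) h3
          simp only [Pi.zero_apply, sub_zero] at h4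
          exact h4.le
        have h3 := dist_sq_le_of_coord h2
        have h4 : dist (x i) (x j) ≤ 9 / 10 := by
          by_contra h5
          push Not at h5
          nlinarith
        linarith)
      set n : ℝ := ((F c).card : ℝ)
      have h2 : 2 * a0 * n ^ 2 ≤ A * (n ^ 2 / m - n) := by
        have h3 : n ^ 2 / (2 * m) ≤ n ^ 2 / m - n := by
          have h4 : n ^ 2 / m = 2 * (n ^ 2 / (2 * m)) := by field_simp
          have h5 : n ≤ n ^ 2 / (2 * m) := by
            rw [le_div_iff₀ (by positivity)]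
            nlinarith [Nat.cast_nonneg (α := ℝ) (F c).card]
          linarith
        have h4 : 0 ≤ n ^ 2 / (2 * m) := by positivity
        calc 2 * a0 * n ^ 2 = 4 * m * a0 * (n ^ 2 / (2 * m)) := by field_simp; ring
          _ ≤ A * (n ^ 2 / (2 * m)) := mul_le_mul_of_nonneg_right hA h4
          _ ≤ A * (n ^ 2 / m - n) := mul_le_mul_of_nonneg_left h3 hA0
      have h3 : 0 ≤ m * a0 * n := by positivity
      linarith
  rw [pairE_eq_offW]
  have h1 := Finset.sum_le_sum hcell
  rw [← Finset.mul_sum, Finset.sum_sub_distrib, ← Finset.mul_sum, ← Finset.mul_sum, ← hQ,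
    ← hN] at h1
  change a0 * Qc (1 / 2) 0 x - 2 * m * a0 * N ≤ 1 / 2 * offW W Finset.univ
  linarith

end Crest.Agent.Gas
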