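import Crest.Agent.GasThermo
import Crest.Agent.GasPackGeo

/-! Module F2 (GasBaseLow): entropic lower bound on the free energy of the core.

Sketch. For `x ∈ (cube L)^N` choose a maximal set `S` of indices with pairwise distances `> 1 - t`
(so `|S| ≤ n_p := packingNumber (L/(1-t))`); each `i ∉ S` has some `s(i) ∈ S` at distance `≤ 1 - t`,
and `pairE (rad φ) x ≥ ∑_{i ∉ S} φ(dist (x i) (x (s i)))`.  Hence
`exp(-β pairE) ≤ ∑_{S, |S| ≤ n_p} ∏_{i ∉ S} ∑_{j ∈ S} 1[dist ≤ 1-t] exp(-β φ(dist (x i) (x j)))`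
and integrating, `N! Z ≤ ∑_S |S|^(N-|S|) V^|S| ω^(N-|S|)`,
`ω = volB r + volB 1 exp(-β A) ≥ ∫_{‖z‖ ≤ 1-t} exp(-β φ ‖z‖) dz`. So
`Z ≤ ∑_{n ≤ n_p} V^n/n! · n^(N-n)/(N-n)! · ω^(N-n) ≤ (n_p+1) e^(V+n_p) ω^((N-n_p)_+)`. -/

set_option autoImplicit false

namespace Crest.Agent.Gas

open MeasureTheory Crest.ProbabilityR.Continuum Filter

/-! ### iterated integrals of products -/

theorem lmarginal_prod_le {ι α : Type*} [DecidableEq ι] [MeasurableSpace α] (μ : Measure α)
    [SigmaFinite μ] (S : Finset ι) (G : α → (ι → α) → ENNReal)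
    (hG : Measurable (Function.uncurry G))
    (hdep : ∀ y x x', (∀ i ∈ S, x i = x' i) → G y x = G y x') (K : ENNReal)
    (hK : ∀ x, ∫⁻ y, G y x ∂μ ≤ K) (T : Finset ι) :
    Disjoint S T → ∀ x, (∫⋯∫⁻_T, (fun x => ∏ i ∈ T, G (x i) x) ∂(fun _ => μ)) x ≤ K ^ T.card := by
  induction T using Finset.induction_on with
  | empty =>
    intro _ x
    rw [lmarginal_empty]
    simp
  | insert i T hi ih =>
    intro hd x
    have hd' : Disjoint S T := hd.mono_right (Finset.subset_insert i T)
    have hiS : i ∉ S := fun h => Finset.disjoint_left.1 hd h (Finset.mem_insert_self i T)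
    have hmeas : ∀ T' : Finset ι, Measurable (fun x : ι → α => ∏ i ∈ T', G (x i) x) := by
      intro T'
      refine Finset.measurable_prod _ (fun j _ => ?_)
      exact hG.comp (f := fun x : ι → α => (x j, x)) ((measurable_pi_apply j).prodMk measurable_id)
    rw [lmarginal_insert _ (hmeas _) hi]
    have hinner : ∀ y, (∫⋯∫⁻_T, (fun x => ∏ j ∈ insert i T, G (x j) x) ∂(fun _ => μ))
        (Function.update x i y) ≤ G y x * K ^ T.card := by
      intro y
      have h1 : (∫⋯∫⁻_T, (fun x => ∏ j ∈ insert i T, G (x j) x) ∂(fun _ => μ))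
          (Function.update x i y) =
          G y x * (∫⋯∫⁻_T, (fun x => ∏ j ∈ T, G (x j) x) ∂(fun _ => μ))
            (Function.update x i y) := by
        unfold lmarginal
        rw [← lintegral_const_mul]
        · refine lintegral_congr (fun z => ?_)
          beta_reduce
          rw [Finset.prod_insert hi]
          congr 1
          have e1 : Function.updateFinset (Function.update x i y) T z i = y := by
            rw [Function.updateFinset_def]
            simp [hi]
          rw [e1]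
          apply hdep
          intro j hj
          have hjT : j ∉ T := Finset.disjoint_left.1 hd' hj
          have hji : j ≠ i := fun h => hiS (h ▸ hj)
          rw [Function.updateFinset_def]
          simp [hjT, hji]
        · exact (hmeas T).comp measurable_updateFinset
      rw [h1]
      gcongr
      exact ih hd' _
    calc ∫⁻ y, (∫⋯∫⁻_T, (fun x => ∏ j ∈ insert i T, G (x j) x) ∂(fun _ => μ))
          (Function.update x i y) ∂μ
      _ ≤ ∫⁻ y, G y x * K ^ T.card ∂μ := lintegral_mono hinner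
      _ = (∫⁻ y, G y x ∂μ) * K ^ T.card := by
          rw [lintegral_mul_const]
          exact hG.comp (measurable_id.prodMk measurable_const)
      _ ≤ K * K ^ T.card := by gcongr; exact hK x
      _ = K ^ (insert i T).card := by
          rw [Finset.card_insert_of_notMem hi, pow_succ, mul_comm]

theorem lintegral_prod_compl_le {ι α : Type*} [Fintype ι] [DecidableEq ι] [MeasurableSpace α]
    (μ : Measure α) [SigmaFinite μ] (S : Finset ι) (G : α → (ι → α) → ENNReal)
    (hG : Measurable (Function.uncurry G))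
    (hdep : ∀ y x x', (∀ i ∈ S, x i = x' i) → G y x = G y x') (K : ENNReal)
    (hK : ∀ x, ∫⁻ y, G y x ∂μ ≤ K) :
    ∫⁻ x, ∏ i ∈ Sᶜ, G (x i) x ∂(Measure.pi (fun _ : ι => μ)) ≤
      (μ Set.univ) ^ S.card * K ^ (Sᶜ).card := by
  have hmeas : Measurable (fun x : ι → α => ∏ i ∈ Sᶜ, G (x i) x) := by
    refine Finset.measurable_prod _ (fun j _ => ?_)
    exact hG.comp (f := fun x : ι → α => (x j, x)) ((measurable_pi_apply j).prodMk measurable_id)
  by_cases hne : Nonempty (ι → α)
  · obtain ⟨x0⟩ := hne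
    rw [lintegral_eq_lmarginal_univ x0, ← Finset.union_compl S,
      lmarginal_union (fun _ => μ) _ hmeas disjoint_compl_right]
    calc (∫⋯∫⁻_S, ∫⋯∫⁻_Sᶜ, (fun x => ∏ i ∈ Sᶜ, G (x i) x) ∂(fun _ => μ) ∂(fun _ => μ)) x0
        ≤ (∫⋯∫⁻_S, (fun _ => K ^ (Sᶜ).card) ∂(fun _ => μ)) x0 :=
          lmarginal_mono (fun x =>
            lmarginal_prod_le μ S G hG hdep K hK Sᶜ disjoint_compl_right x) x0
      _ = (μ Set.univ) ^ S.card * K ^ (Sᶜ).card := by
          unfold lmarginal
          rw [lintegral_const, ← Set.pi_univ, Measure.pi_pi, mul_comm]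
          simp
  · have : (Measure.pi (fun _ : ι => μ)) = 0 := by
      rw [not_nonempty_iff] at hne
      exact Measure.eq_zero_of_isEmpty _
    rw [this]
    simp

/-! ### the Boltzmann factor -/

/-- truncated Boltzmann factor -/
noncomputable def gB (φ : ℝ → ℝ) (β t : ℝ) (z : Pt) : ENNReal :=
  (Metric.closedBall (0 : Pt) (1 - t)).indicator
    (fun z => ENNReal.ofReal (Real.exp (-(β * φ ‖z‖)))) z

theorem measurable_gB {φ : ℝ → ℝ} (hφ : Measurable φ) (β t : ℝ) : Measurable (gB φ β t) := by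
  unfold gB
  refine Measurable.indicator ?_ measurableSet_closedBall
  fun_prop

theorem gB_of_le {φ : ℝ → ℝ} {β t : ℝ} {z : Pt} (h : ‖z‖ ≤ 1 - t) :
    gB φ β t z = ENNReal.ofReal (Real.exp (-(β * φ ‖z‖))) := by
  unfold gB
  rw [Set.indicator_of_mem]
  simpa using h

theorem lintegral_gB_le {φ : ℝ → ℝ} {A r t sa sc sd β ω : ℝ} (hφ : IsCore φ A r t sa sc sd)
    (ht : 0 < t) (hβ : 0 < β)
    (hω : volB r + volB 1 * Real.exp (-(β * A)) ≤ ω) :
    ∫⁻ z, gB φ β t z ≤ ENNReal.ofReal ω := by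
  have h1 : ∀ z, gB φ β t z ≤ (Metric.ball (0 : Pt) r).indicator (fun _ => (1 : ENNReal)) z +
      (Metric.ball (0 : Pt) 1).indicator (fun _ => ENNReal.ofReal (Real.exp (-(β * A)))) z := by
    intro z
    by_cases hz : ‖z‖ ≤ 1 - t
    · rw [gB_of_le hz]
      have hφ0 := hφ.nonneg ‖z‖
      by_cases hz2 : ‖z‖ < r
      · rw [Set.indicator_of_mem (by simpa using hz2)]
        refine le_add_right ?_
        rw [ENNReal.ofReal_le_one]
        rw [Real.exp_le_one_iff]
        nlinarith
      · push Not at hz2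
        rw [Set.indicator_of_mem (s := Metric.ball (0 : Pt) 1) (by
          simp only [Metric.mem_ball, dist_zero_right]; linarith)]
        refine le_add_left ?_
        apply ENNReal.ofReal_le_ofReal
        apply Real.exp_le_exp.2
        have := hφ.outer ‖z‖ hz2 hz
        nlinarith
    · unfold gB
      rw [Set.indicator_of_notMem (by simpa using hz)]
      exact zero_le
  calc ∫⁻ z, gB φ β t z ≤ ∫⁻ z, ((Metric.ball (0 : Pt) r).indicator (fun _ => (1 : ENNReal)) z +
      (Metric.ball (0 : Pt) 1).indicator (fun _ => ENNReal.ofReal (Real.exp (-(β * A)))) z) :=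
        lintegral_mono h1
    _ = volume (Metric.ball (0 : Pt) r) +
        ENNReal.ofReal (Real.exp (-(β * A))) * volume (Metric.ball (0 : Pt) 1) := by
        rw [lintegral_add_left (measurable_const.indicator measurableSet_ball),
          lintegral_indicator_const measurableSet_ball,
          lintegral_indicator_const measurableSet_ball, one_mul]
    _ = ENNReal.ofReal (volB r) + ENNReal.ofReal (Real.exp (-(β * A))) * ENNReal.ofReal (volB 1) := by
        unfold volB
        rw [ENNReal.ofReal_toReal measure_ball_lt_top.ne, ENNReal.ofReal_toReal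
          measure_ball_lt_top.ne]
    _ = ENNReal.ofReal (volB r + volB 1 * Real.exp (-(β * A))) := by
        have hv : ∀ R, 0 ≤ volB R := fun R => ENNReal.toReal_nonneg
        rw [← ENNReal.ofReal_mul (Real.exp_nonneg _), ← ENNReal.ofReal_add (hv r)
          (mul_nonneg (Real.exp_nonneg _) (hv 1)), mul_comm (volB 1)]
    _ ≤ ENNReal.ofReal ω := ENNReal.ofReal_le_ofReal hω

/-! ### energy -/

theorem pairE_ge_cross {φ : ℝ → ℝ} (h0 : ∀ s, 0 ≤ φ s) {N : ℕ} (x : Fin N → Pt)
    (S : Finset (Fin N)) :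
    ∑ i ∈ Sᶜ, ∑ j ∈ S, φ (dist (x i) (x j)) ≤ pairE (rad φ) x := by
  unfold pairE rad
  set f : Fin N → Fin N → ℝ := fun i j => φ (dist (x i) (x j)) with hf
  have hf0 : ∀ i j, 0 ≤ f i j := fun i j => h0 _
  have hsymm : ∀ i j, f i j = f j i := fun i j => by simp only [hf, dist_comm]
  have e1 : ∑ i, ∑ j, f i j = (∑ i ∈ S, ∑ j ∈ S, f i j) + (∑ i ∈ S, ∑ j ∈ Sᶜ, f i j) +
      ((∑ i ∈ Sᶜ, ∑ j ∈ S, f i j) + ∑ i ∈ Sᶜ, ∑ j ∈ Sᶜ, f i j) := by
    rw [← Finset.sum_add_sum_compl S, ← Finset.sum_add_distrib, ← Finset.sum_add_distrib]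
    congr 1 <;> (refine Finset.sum_congr rfl (fun i _ => ?_); rw [Finset.sum_add_sum_compl])
  have e2 : ∑ i, f i i = (∑ i ∈ S, f i i) + ∑ i ∈ Sᶜ, f i i := by
    rw [Finset.sum_add_sum_compl]
  have h1 : ∀ T : Finset (Fin N), ∑ i ∈ T, f i i ≤ ∑ i ∈ T, ∑ j ∈ T, f i j := by
    intro T
    refine Finset.sum_le_sum (fun i hi => ?_)
    exact Finset.single_le_sum (fun j _ => hf0 i j) hi
  have h2 : ∑ i ∈ S, ∑ j ∈ Sᶜ, f i j = ∑ i ∈ Sᶜ, ∑ j ∈ S, f i j := by
    rw [Finset.sum_comm]
    refine Finset.sum_congr rfl (fun i _ => Finset.sum_congr rfl (fun j _ => hsymm _ _))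
  have h3 := h1 S
  have h4 := h1 Sᶜ
  show ∑ i ∈ Sᶜ, ∑ j ∈ S, f i j ≤ 1 / 2 * ((∑ i, ∑ j, f i j) - ∑ i, f i i)
  rw [e1, e2]
  linarith

theorem pairE_smul (φ : ℝ → ℝ) (β : ℝ) {N : ℕ} (x : Fin N → Pt) :
    pairE (rad (fun s => β * φ s)) x = β * pairE (rad φ) x := by
  unfold pairE rad
  simp only [← Finset.mul_sum]
  ring

/-! ### the maximal separated family -/

theorem exists_separated {t : ℝ} (ht1 : 0 < 1 - t) {L : ℝ} {N : ℕ} (x : Fin N → Pt)
    (hx : ∀ i, x i ∈ cube L) :
    ∃ S : Finset (Fin N), S.card ≤ packingNumber (L / (1 - t)) ∧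
      ∀ i ∉ S, ∃ j ∈ S, dist (x i) (x j) ≤ 1 - t := by
  classical
  let P : Finset (Fin N) → Prop := fun S => ∀ i ∈ S, ∀ j ∈ S, i ≠ j → 1 - t < dist (x i) (x j)
  obtain ⟨S, hS, hmax⟩ := Finset.exists_max_image (Finset.univ.filter P) Finset.card
    ⟨∅, by simp [P]⟩
  have hSP : P S := (Finset.mem_filter.1 hS).2
  refine ⟨S, ?_, ?_⟩
  · have hinj : Set.InjOn (fun i => (1 - t)⁻¹ • x i) (S : Set (Fin N)) := by
      intro i hi j hj hij
      by_contra hne
      have h1 := hSP i hi j hj hne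
      have h2 : x i = x j := smul_right_injective _ (inv_ne_zero ht1.ne') hij
      rw [h2, dist_self] at h1
      linarith
    rw [← Finset.card_image_of_injOn hinj]
    apply card_le_packingNumber
    · intro y hy
      obtain ⟨i, hi, rfl⟩ := Finset.mem_image.1 hy
      intro k
      have := hx i k
      simp only [PiLp.smul_apply, smul_eq_mul]
      constructor
      · exact mul_nonneg (inv_nonneg.2 ht1.le) this.1
      · rw [div_eq_inv_mul]
        exact mul_le_mul_of_nonneg_left this.2 (inv_nonneg.2 ht1.le)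
    · intro y hy z hz hyz
      obtain ⟨i, hi, rfl⟩ := Finset.mem_image.1 hy
      obtain ⟨j, hj, rfl⟩ := Finset.mem_image.1 hz
      have hne : i ≠ j := fun h => hyz (by rw [h])
      have h1 := hSP i hi j hj hne
      show 1 ≤ dist ((1 - t)⁻¹ • x i) ((1 - t)⁻¹ • x j)
      rw [dist_smul₀, Real.norm_of_nonneg (inv_nonneg.2 ht1.le)]
      rw [← div_eq_inv_mul, le_div_iff₀ ht1]
      linarith
  · intro i hi
    by_contra hcon
    push Not at hcon
    have hP : P (insert i S) := by
      intro a ha b hb hab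
      rw [Finset.mem_insert] at ha hb
      rcases ha with rfl | ha <;> rcases hb with rfl | hb
      · exact absurd rfl hab
      · exact hcon b hb
      · rw [dist_comm]; exact hcon a ha
      · exact hSP a ha b hb hab
    have := hmax (insert i S) (by simp [hP])
    rw [Finset.card_insert_of_notMem hi] at this
    omega

theorem boltzmann_le {φ : ℝ → ℝ} {A r t sa sc sd β : ℝ} (hφ : IsCore φ A r t sa sc sd)
    (ht1 : 0 < 1 - t) (hβ : 0 < β) {L : ℝ} {N : ℕ} (x : Fin N → Pt)
    (hx : ∀ i, x i ∈ cube L) :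
    ENNReal.ofReal (Real.exp (-(pairE (rad (fun s => β * φ s)) x))) ≤
      ∑ S ∈ (Finset.univ : Finset (Finset (Fin N))).filter
        (fun S => S.card ≤ packingNumber (L / (1 - t))),
        ∏ i ∈ Sᶜ, ∑ j ∈ S, gB φ β t (x i - x j) := by
  classical
  obtain ⟨S, hcard, hS⟩ := exists_separated ht1 x hx
  choose! s hs1 hs2 using hS
  refine le_trans ?_ (Finset.single_le_sum
    (f := fun S : Finset (Fin N) => ∏ i ∈ Sᶜ, ∑ j ∈ S, gB φ β t (x i - x j))
    (fun _ _ => zero_le) (Finset.mem_filter.2 ⟨Finset.mem_univ S, hcard⟩))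
  have hE : β * ∑ i ∈ Sᶜ, φ (dist (x i) (x (s i))) ≤ pairE (rad (fun s => β * φ s)) x := by
    rw [pairE_smul]
    refine mul_le_mul_of_nonneg_left ?_ hβ.le
    refine le_trans (Finset.sum_le_sum (fun i hi => ?_)) (pairE_ge_cross hφ.nonneg x S)
    exact Finset.single_le_sum (f := fun j => φ (dist (x i) (x j))) (fun j _ => hφ.nonneg _)
      (hs1 i (Finset.mem_compl.1 hi))
  calc ENNReal.ofReal (Real.exp (-(pairE (rad (fun s => β * φ s)) x)))
      ≤ ENNReal.ofReal (∏ i ∈ Sᶜ, Real.exp (-(β * φ (dist (x i) (x (s i)))))) := by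
        apply ENNReal.ofReal_le_ofReal
        rw [← Real.exp_sum, Finset.sum_neg_distrib, ← Finset.mul_sum]
        exact Real.exp_le_exp.2 (neg_le_neg hE)
    _ = ∏ i ∈ Sᶜ, ENNReal.ofReal (Real.exp (-(β * φ (dist (x i) (x (s i)))))) := by
        rw [ENNReal.ofReal_prod_of_nonneg (fun i _ => Real.exp_nonneg _)]
    _ ≤ ∏ i ∈ Sᶜ, ∑ j ∈ S, gB φ β t (x i - x j) := by
        refine Finset.prod_le_prod' (fun i hi => ?_)
        have hi' := Finset.mem_compl.1 hi
        have e : ENNReal.ofReal (Real.exp (-(β * φ (dist (x i) (x (s i)))))) =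
            gB φ β t (x i - x (s i)) := by
          rw [gB_of_le (by rw [← dist_eq_norm]; exact hs2 i hi'), dist_eq_norm]
        rw [e]
        exact Finset.single_le_sum (f := fun j => gB φ β t (x i - x j)) (fun _ _ => zero_le)
          (hs1 i hi')

theorem lintegral_S_le {φ : ℝ → ℝ} {A r t sa sc sd β ω : ℝ} (hφ : IsCore φ A r t sa sc sd)
    (ht : 0 < t) (hβ : 0 < β) (hω : volB r + volB 1 * Real.exp (-(β * A)) ≤ ω)
    {L : ℝ} (hL : 0 < L) {N : ℕ} (S : Finset (Fin N)) :
    ∫⁻ x in Set.pi Set.univ (fun _ : Fin N => cube L),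
        ∏ i ∈ Sᶜ, ∑ j ∈ S, gB φ β t (x i - x j) ≤
      ENNReal.ofReal (L ^ 3) ^ S.card * ((S.card : ENNReal) * ENNReal.ofReal ω) ^ (N - S.card) := by
  have hmg := measurable_gB hφ.meas β t
  have h1 : (volume : Measure (Fin N → Pt)).restrict (Set.pi Set.univ (fun _ : Fin N => cube L)) =
      Measure.pi (fun _ : Fin N => (volume : Measure Pt).restrict (cube L)) := by
    rw [volume_pi, Measure.restrict_pi_pi]
  rw [h1]
  have := lintegral_prod_compl_le ((volume : Measure Pt).restrict (cube L)) S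
    (fun y x => ∑ j ∈ S, gB φ β t (y - x j)) (by
      refine Finset.measurable_sum _ (fun j _ => ?_)
      exact hmg.comp (measurable_fst.sub ((measurable_pi_apply j).comp measurable_snd)))
    (by
      intro y x x' h
      exact Finset.sum_congr rfl (fun j hj => by rw [h j hj]))
    ((S.card : ENNReal) * ENNReal.ofReal ω)
    (by
      intro x
      calc ∫⁻ y, ∑ j ∈ S, gB φ β t (y - x j) ∂((volume : Measure Pt).restrict (cube L))
          ≤ ∫⁻ y, ∑ j ∈ S, gB φ β t (y - x j) := lintegral_mono' Measure.restrict_le_self le_rfl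
        _ = ∑ j ∈ S, ∫⁻ y, gB φ β t (y - x j) := by
            rw [lintegral_finsetSum]
            intro j _
            exact hmg.comp (measurable_id.sub measurable_const)
        _ = ∑ j ∈ S, ∫⁻ y, gB φ β t y := by
            refine Finset.sum_congr rfl (fun j _ => ?_)
            exact lintegral_sub_right_eq_self (gB φ β t) (x j)
        _ ≤ ∑ j ∈ S, ENNReal.ofReal ω :=
            Finset.sum_le_sum (fun j _ => lintegral_gB_le hφ ht hβ hω)
        _ = (S.card : ENNReal) * ENNReal.ofReal ω := by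
            rw [Finset.sum_const, nsmul_eq_mul])
  rw [Measure.restrict_apply_univ, volume_cube hL.le, Finset.card_compl, Fintype.card_fin] at this
  exact this

theorem comb_sum_le {V ω : ℝ} (hV : 0 ≤ V) (hω0 : 0 ≤ ω) (hω1 : ω ≤ 1) (N n : ℕ) :
    (N.factorial : ℝ)⁻¹ * ∑ S ∈ (Finset.univ : Finset (Finset (Fin N))).filter
        (fun S => S.card ≤ n), V ^ S.card * ((S.card : ℝ) * ω) ^ (N - S.card) ≤
      (n + 1) * Real.exp (V + n) * ω ^ (N - n) := by
  have h1 : ∑ S ∈ (Finset.univ : Finset (Finset (Fin N))).filter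
        (fun S => S.card ≤ n), V ^ S.card * ((S.card : ℝ) * ω) ^ (N - S.card) =
      ∑ m ∈ Finset.range (N + 1), (N.choose m : ℝ) *
        (if m ≤ n then V ^ m * ((m : ℝ) * ω) ^ (N - m) else 0) := by
    rw [Finset.sum_filter]
    have := Finset.sum_powerset_apply_card (fun m => if m ≤ n then
      V ^ m * ((m : ℝ) * ω) ^ (N - m) else 0) (x := (Finset.univ : Finset (Fin N)))
    rw [Finset.powerset_univ] at this
    rw [this, Finset.card_univ, Fintype.card_fin]
    refine Finset.sum_congr rfl (fun m _ => ?_)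
    rw [nsmul_eq_mul]
  rw [h1, Finset.mul_sum]
  have h2 : ∀ m ∈ Finset.range (N + 1), (N.factorial : ℝ)⁻¹ * ((N.choose m : ℝ) *
        (if m ≤ n then V ^ m * ((m : ℝ) * ω) ^ (N - m) else 0)) ≤
      if m ≤ n then Real.exp (V + n) * ω ^ (N - n) else 0 := by
    intro m hm
    have hmN : m ≤ N := Nat.lt_succ_iff.1 (Finset.mem_range.1 hm)
    split_ifs with hmn
    · have e1 : (N.factorial : ℝ)⁻¹ * (N.choose m : ℝ) =
          (m.factorial : ℝ)⁻¹ * ((N - m).factorial : ℝ)⁻¹ := by
        rw [Nat.cast_choose ℝ hmN]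
        have := Nat.factorial_ne_zero N
        field_simp
      have e2 : (N.factorial : ℝ)⁻¹ * ((N.choose m : ℝ) * (V ^ m * ((m : ℝ) * ω) ^ (N - m))) =
          (V ^ m / m.factorial) * ((m : ℝ) ^ (N - m) / (N - m).factorial) * ω ^ (N - m) := by
        rw [← mul_assoc, e1, mul_pow]
        ring
      rw [e2]
      have b1 : V ^ m / m.factorial ≤ Real.exp V := Real.pow_div_factorial_le_exp V hV m
      have b2 : (m : ℝ) ^ (N - m) / (N - m).factorial ≤ Real.exp m :=
        Real.pow_div_factorial_le_exp m (Nat.cast_nonneg m) (N - m)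
      have b3 : Real.exp (m : ℝ) ≤ Real.exp n := Real.exp_le_exp.2 (by exact_mod_cast hmn)
      have b4 : ω ^ (N - m) ≤ ω ^ (N - n) := pow_le_pow_of_le_one hω0 hω1 (by omega)
      rw [Real.exp_add]
      gcongr
      exact b2.trans b3
    · simp
  refine (Finset.sum_le_sum h2).trans ?_
  rw [← Finset.sum_filter]
  rw [Finset.sum_const, nsmul_eq_mul, mul_assoc]
  have hc : (((Finset.range (N + 1)).filter (fun m => m ≤ n)).card : ℝ) ≤ n + 1 := by
    have : ((Finset.range (N + 1)).filter (fun m => m ≤ n)).card ≤ (Finset.range (n + 1)).card := by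
      apply Finset.card_le_card
      intro m hm
      rw [Finset.mem_filter] at hm
      exact Finset.mem_range.2 (by omega)
    rw [Finset.card_range] at this
    exact_mod_cast this
  have hp : 0 ≤ ω ^ (N - n) := pow_nonneg hω0 _
  gcongr

theorem Zf_core_le {φ : ℝ → ℝ} {A r t sa sc sd β ω : ℝ} (hφ : IsCore φ A r t sa sc sd)
    (hA : 0 ≤ A) (hr : 0 < r) (hr' : 2 * r < 1 - t) (ht : 0 < t) (hβ : 0 < β)
    (hω : volB r + volB 1 * Real.exp (-(β * A)) ≤ ω) (hω1 : ω ≤ 1) {L : ℝ} (hL : 0 < L) (N : ℕ) :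
    Zf (rad (fun s => β * φ s)) (cube L) N ≤
      ENNReal.ofReal ((packingNumber (L / (1 - t)) + 1) *
        Real.exp (L ^ 3 + packingNumber (L / (1 - t))) *
        ω ^ (N - packingNumber (L / (1 - t)))) := by
  have ht1 : 0 < 1 - t := by linarith
  have hω0 : 0 ≤ ω := by
    refine le_trans ?_ hω
    have hv : ∀ R, 0 ≤ volB R := fun R => ENNReal.toReal_nonneg
    exact add_nonneg (hv r) (mul_nonneg (hv 1) (Real.exp_nonneg _))
  set n := packingNumber (L / (1 - t)) with hn
  have hmg := measurable_gB hφ.meas β t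
  have hD : MeasurableSet (Set.pi Set.univ (fun _ : Fin N => cube L)) :=
    MeasurableSet.univ_pi (fun _ => measurableSet_cube L)
  unfold Zf
  calc ((N.factorial : ℕ) : ENNReal)⁻¹ *
      ∫⁻ x in Set.pi Set.univ (fun _ : Fin N => cube L),
        ENNReal.ofReal (Real.exp (-(pairE (rad (fun s => β * φ s)) x)))
      ≤ ((N.factorial : ℕ) : ENNReal)⁻¹ *
      ∫⁻ x in Set.pi Set.univ (fun _ : Fin N => cube L),
        ∑ S ∈ (Finset.univ : Finset (Finset (Fin N))).filter (fun S => S.card ≤ n),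
        ∏ i ∈ Sᶜ, ∑ j ∈ S, gB φ β t (x i - x j) := by
        refine mul_le_mul_right (setLIntegral_mono' hD (fun x hx => ?_)) _
        exact boltzmann_le hφ ht1 hβ x (fun i => hx i (Set.mem_univ i))
    _ = ((N.factorial : ℕ) : ENNReal)⁻¹ *
        ∑ S ∈ (Finset.univ : Finset (Finset (Fin N))).filter (fun S => S.card ≤ n),
        ∫⁻ x in Set.pi Set.univ (fun _ : Fin N => cube L),
        ∏ i ∈ Sᶜ, ∑ j ∈ S, gB φ β t (x i - x j) := by
        rw [lintegral_finsetSum]
        intro S _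
        refine Finset.measurable_prod _ (fun i _ => Finset.measurable_sum _ (fun j _ => ?_))
        exact hmg.comp ((measurable_pi_apply i).sub (measurable_pi_apply j))
    _ ≤ ((N.factorial : ℕ) : ENNReal)⁻¹ *
        ∑ S ∈ (Finset.univ : Finset (Finset (Fin N))).filter (fun S => S.card ≤ n),
        ENNReal.ofReal (L ^ 3) ^ S.card * ((S.card : ENNReal) * ENNReal.ofReal ω) ^ (N - S.card) := by
        gcongr with S _
        exact lintegral_S_le hφ ht hβ hω hL S
    _ = ENNReal.ofReal ((N.factorial : ℝ)⁻¹ *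
        ∑ S ∈ (Finset.univ : Finset (Finset (Fin N))).filter (fun S => S.card ≤ n),
          (L ^ 3) ^ S.card * ((S.card : ℝ) * ω) ^ (N - S.card)) := by
        rw [ENNReal.ofReal_mul (by positivity), ENNReal.ofReal_inv_of_pos (by positivity),
          ENNReal.ofReal_natCast, ENNReal.ofReal_sum_of_nonneg]
        · congr 1
          refine Finset.sum_congr rfl (fun S _ => ?_)
          have hL3 : 0 ≤ L ^ 3 := by positivity
          have hc : 0 ≤ (S.card : ℝ) * ω := by positivity
          rw [ENNReal.ofReal_mul (pow_nonneg hL3 _), ENNReal.ofReal_pow hL3,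
            ENNReal.ofReal_pow hc, ENNReal.ofReal_mul (by positivity),
            ENNReal.ofReal_natCast]
        · intro S _
          positivity
    _ ≤ _ := by
        apply ENNReal.ofReal_le_ofReal
        exact comb_sum_le (by positivity) hω0 hω1 N n

theorem Fe_core_ge {φ : ℝ → ℝ} {A r t sa sc sd β ω p : ℝ} (hφ : IsCore φ A r t sa sc sd)
    (hu : Adm (fun s => β * φ s))
    (hA : 0 ≤ A) (hr : 0 < r) (hr' : 2 * r < 1 - t) (ht : 0 < t) (hβ : 0 < β)
    (hω : volB r + volB 1 * Real.exp (-(β * A)) ≤ ω) (hω1 : ω ≤ 1)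
    (hp : Tendsto (fun L : ℝ => (packingNumber L : ℝ) / L ^ 3) atTop (nhds p)) {ρ : ℝ}
    (hρ : 0 ≤ ρ) :
    (max (ρ - p / (1 - t) ^ 3) 0) * (-Real.log ω) - 1 - p / (1 - t) ^ 3 ≤
      Fe (fun s => β * φ s) ρ := by
  have ht1 : 0 < 1 - t := by linarith
  have hω0 : 0 < ω := by
    refine lt_of_lt_of_le ?_ hω
    have hv : ∀ R, 0 ≤ volB R := fun R => ENNReal.toReal_nonneg
    have hv1 : 0 < volB r := by
      unfold volB
      exact ENNReal.toReal_pos (Metric.measure_ball_pos _ _ hr).ne' measure_ball_lt_top.ne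
    exact add_pos_of_pos_of_nonneg hv1 (mul_nonneg (hv 1) (Real.exp_nonneg _))
  set np : ℝ → ℕ := fun L => packingNumber (L / (1 - t)) with hnp
  -- limits
  have hnp1 : Tendsto (fun L : ℝ => (np L : ℝ) / L ^ 3) atTop (nhds (p / (1 - t) ^ 3)) := by
    have h1 : Tendsto (fun L : ℝ => L / (1 - t)) atTop atTop :=
      tendsto_id.atTop_div_const ht1
    have h2 := (hp.comp h1).div_const ((1 - t) ^ 3)
    refine h2.congr' ?_
    filter_upwards [eventually_gt_atTop 0] with L hL
    simp only [Function.comp, hnp]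
    field_simp
  have hinv : Tendsto (fun L : ℝ => (L ^ 3)⁻¹) atTop (nhds 0) :=
    tendsto_inv_atTop_zero.comp (tendsto_pow_atTop (by norm_num))
  have hlog : Tendsto (fun L : ℝ => Real.log ((np L : ℝ) + 1) / L ^ 3) atTop (nhds 0) := by
    have hub : Tendsto (fun L : ℝ => 2 * (Real.sqrt ((np L : ℝ) / L ^ 3 + (L ^ 3)⁻¹) *
        Real.sqrt ((L ^ 3)⁻¹))) atTop (nhds 0) := by
      have h1 := ((Real.continuous_sqrt.tendsto _).comp (hnp1.add hinv)).mul
        ((Real.continuous_sqrt.tendsto _).comp hinv)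
      have h2 := h1.const_mul 2
      simp only [Real.sqrt_zero, mul_zero] at h2
      exact h2
    refine tendsto_of_tendsto_of_tendsto_of_le_of_le' tendsto_const_nhds hub ?_ ?_
    · filter_upwards [eventually_gt_atTop 0] with L hL
      have : 0 ≤ Real.log ((np L : ℝ) + 1) := Real.log_nonneg (by
        have : (0 : ℝ) ≤ np L := Nat.cast_nonneg _
        linarith)
      positivity
    · filter_upwards [eventually_gt_atTop 0] with L hL
      have hy : (0 : ℝ) < (np L : ℝ) + 1 := by positivity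
      have h1 : Real.log ((np L : ℝ) + 1) ≤ 2 * Real.sqrt ((np L : ℝ) + 1) := by
        have hs : 0 < Real.sqrt ((np L : ℝ) + 1) := Real.sqrt_pos.2 hy
        have h2 : Real.log ((np L : ℝ) + 1) = 2 * Real.log (Real.sqrt ((np L : ℝ) + 1)) := by
          rw [Real.log_sqrt hy.le]; ring
        rw [h2]
        have h3 := Real.log_le_sub_one_of_pos hs
        linarith
      have hL3 : 0 < L ^ 3 := by positivity
      have h4 : Real.sqrt ((np L : ℝ) / L ^ 3 + (L ^ 3)⁻¹) * Real.sqrt ((L ^ 3)⁻¹) =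
          Real.sqrt ((np L : ℝ) + 1) / L ^ 3 := by
        rw [← Real.sqrt_mul (by positivity)]
        have h5 : ((np L : ℝ) / L ^ 3 + (L ^ 3)⁻¹) * (L ^ 3)⁻¹ = ((np L : ℝ) + 1) / (L ^ 3) ^ 2 := by
          field_simp
        rw [h5, Real.sqrt_div (by positivity), Real.sqrt_sq hL3.le]
      rw [h4, ← mul_div_assoc]
      gcongr
  have hN : Tendsto (fun L : ℝ => (⌊ρ * L ^ 3⌋₊ : ℝ) / L ^ 3) atTop (nhds ρ) :=
    (tendsto_nat_floor_mul_div_atTop hρ).comp (tendsto_pow_atTop (by norm_num))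
  have hlow : Tendsto (fun L : ℝ =>
      (max ((⌊ρ * L ^ 3⌋₊ : ℝ) / L ^ 3 - (np L : ℝ) / L ^ 3) 0) * (-Real.log ω) - 1 -
        (np L : ℝ) / L ^ 3 - Real.log ((np L : ℝ) + 1) / L ^ 3) atTop
      (nhds ((max (ρ - p / (1 - t) ^ 3) 0) * (-Real.log ω) - 1 - p / (1 - t) ^ 3 - 0)) :=
    (((((hN.sub hnp1).max tendsto_const_nhds).mul_const _).sub_const 1).sub hnp1).sub hlog
  rw [sub_zero] at hlow
  refine le_of_tendsto_of_tendsto hlow (hu.tendsto_Fe hρ) ?_
  filter_upwards [eventually_gt_atTop 0] with L hL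
  have hL3 : 0 < L ^ 3 := by positivity
  set N := ⌊ρ * L ^ 3⌋₊ with hNdef
  have hZ := Zf_core_le hφ hA hr hr' ht hβ hω hω1 hL N
  set M : ℝ := (packingNumber (L / (1 - t)) + 1) *
        Real.exp (L ^ 3 + packingNumber (L / (1 - t))) *
        ω ^ (N - packingNumber (L / (1 - t))) with hM
  have hMpos : 0 < M := by positivity
  have hZpos : 0 < (Zf (rad (fun s => β * φ s)) (cube L) N).toReal := by
    apply ENNReal.toReal_pos
    · refine (Zf_pos (measurable_rad hu.meas) (measurableSet_cube L) ?_ N).ne'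
      rw [volume_cube hL.le]
      simpa using hL3
    · exact (hZ.trans_lt ENNReal.ofReal_lt_top).ne
  have hZ' : (Zf (rad (fun s => β * φ s)) (cube L) N).toReal ≤ M :=
    ENNReal.toReal_le_of_le_ofReal hMpos.le hZ
  have hlogZ := Real.log_le_log hZpos hZ'
  have hlogM : Real.log M = Real.log ((np L : ℝ) + 1) + (L ^ 3 + np L) +
      ((N - np L : ℕ) : ℝ) * Real.log ω := by
    rw [hM, Real.log_mul (by positivity) (by positivity), Real.log_mul (by positivity)
      (by positivity), Real.log_exp, Real.log_pow]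
  unfold feL
  have hcast : ((N - np L : ℕ) : ℝ) = max ((N : ℝ) - np L) 0 := by
    rcases le_total (np L) N with h | h
    · rw [Nat.cast_sub h, max_eq_left]
      have : (np L : ℝ) ≤ N := by exact_mod_cast h
      linarith
    · rw [Nat.sub_eq_zero_of_le h, max_eq_right]
      · simp
      · have : (N : ℝ) ≤ np L := by exact_mod_cast h
        linarith
  have hmax : max ((N : ℝ) / L ^ 3 - (np L : ℝ) / L ^ 3) 0 = max ((N : ℝ) - np L) 0 / L ^ 3 := by
    rw [← sub_div, ← max_div_div_right hL3.le, zero_div]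
  rw [hmax, ← hcast, le_div_iff₀ hL3]
  have e : (((N - np L : ℕ) : ℝ) / L ^ 3 * -Real.log ω - 1 - (np L : ℝ) / L ^ 3 -
      Real.log ((np L : ℝ) + 1) / L ^ 3) * L ^ 3 =
      -(Real.log ((np L : ℝ) + 1) + (L ^ 3 + np L) + ((N - np L : ℕ) : ℝ) * Real.log ω) := by
    field_simp
    ring
  rw [e, ← hlogM]
  exact neg_le_neg hlogZ

end Crest.Agent.Gas
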