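import Crest.Agent.GasDefs

/-! Module A (GasBasic): basic facts on `pairE`, `Zf`. -/

set_option autoImplicit false

namespace Crest.Agent.Gas

open MeasureTheory Crest.ProbabilityR.Continuum

/-! ### A1: pair energy -/

theorem energy_eq_pairE (φ : ℝ → ℝ) {N : ℕ} (x : Fin N → Pt) :
    energy φ x = pairE (rad φ) x := by
  unfold energy pairE rad
  set f : Fin N → Fin N → ℝ := fun i j => φ (dist (x i) (x j)) with hf
  have hsymm : ∀ i j, f i j = f j i := fun i j => by simp [hf, dist_comm]
  have h1 : (∑ p : {p : Fin N × Fin N // p.1 < p.2}, φ (dist (x p.1.1) (x p.1.2)))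
      = ∑ i, ∑ j, if i < j then f i j else 0 := by
    rw [← Finset.sum_subtype (Finset.univ.filter (fun p : Fin N × Fin N => p.1 < p.2))
      (by simp) (fun p : Fin N × Fin N => φ (dist (x p.1) (x p.2)))]
    rw [Finset.sum_filter, Fintype.sum_prod_type]
  have h2 : (∑ i, ∑ j, if i < j then f i j else 0) = ∑ i, ∑ j, if j < i then f i j else 0 := by
    rw [Finset.sum_comm]
    refine Finset.sum_congr rfl fun i _ => Finset.sum_congr rfl fun j _ => ?_
    by_cases h : j < i
    · simp [h, hsymm i j]
    · simp [h]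
  have h3 : (∑ i, f i i) = ∑ i, ∑ j, if i = j then f i j else 0 := by
    refine Finset.sum_congr rfl fun i _ => ?_
    simp
  have h4 : (∑ i, ∑ j, f i j) = (∑ i, ∑ j, if i < j then f i j else 0) +
      (∑ i, ∑ j, if j < i then f i j else 0) + ∑ i, ∑ j, if i = j then f i j else 0 := by
    rw [← Finset.sum_add_distrib, ← Finset.sum_add_distrib]
    refine Finset.sum_congr rfl fun i _ => ?_
    rw [← Finset.sum_add_distrib, ← Finset.sum_add_distrib]
    refine Finset.sum_congr rfl fun j _ => ?_
    rcases lt_trichotomy i j with h | h | h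
    · simp [h, h.not_gt, h.ne]
    · simp [h]
    · simp [h, h.not_gt, h.ne']
  rw [h1, h4, h3, ← h2]
  ring

theorem pairE_eq_erase (U : Pt → Pt → ℝ) {ι : Type} [Fintype ι] [DecidableEq ι] (x : ι → Pt) :
    pairE U x = (1 / 2) * ∑ i, ∑ j ∈ Finset.univ.erase i, U (x i) (x j) := by
  unfold pairE
  congr 1
  rw [← Finset.sum_sub_distrib]
  refine Finset.sum_congr rfl fun i _ => ?_
  rw [← Finset.add_sum_erase Finset.univ _ (Finset.mem_univ i)]
  ring

theorem pairE_mono {U V : Pt → Pt → ℝ} {ι : Type} [Fintype ι] (x : ι → Pt)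
    (h : ∀ i j, i ≠ j → U (x i) (x j) ≤ V (x i) (x j)) : pairE U x ≤ pairE V x := by
  classical
  rw [pairE_eq_erase, pairE_eq_erase]
  refine mul_le_mul_of_nonneg_left ?_ (by norm_num)
  refine Finset.sum_le_sum fun i _ => Finset.sum_le_sum fun j hj => h i j ?_
  exact (Finset.ne_of_mem_erase hj).symm

theorem pairE_lin (s t : ℝ) (U V : Pt → Pt → ℝ) {ι : Type} [Fintype ι] (x : ι → Pt) :
    pairE (fun a b => s * U a b + t * V a b) x = s * pairE U x + t * pairE V x := by
  unfold pairE
  simp only [Finset.sum_add_distrib, ← Finset.mul_sum]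
  ring

theorem measurable_pairE {U : Pt → Pt → ℝ} (hU : Measurable (Function.uncurry U))
    {ι : Type} [Fintype ι] : Measurable (fun x : ι → Pt => pairE U x) := by
  unfold pairE
  have h : ∀ i j : ι, Measurable (fun x : ι → Pt => U (x i) (x j)) := fun i j => by
    have h1 : Measurable (fun x : ι → Pt => (x i, x j)) :=
      (measurable_pi_apply i).prodMk (measurable_pi_apply j)
    exact hU.comp h1
  refine Measurable.const_mul ?_ _
  refine Measurable.sub ?_ ?_
  · exact Finset.measurable_sum _ fun i _ => Finset.measurable_sum _ fun j _ => h i j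
  · exact Finset.measurable_sum _ fun i _ => h i i

theorem measurable_rad {u : ℝ → ℝ} (hu : Measurable u) : Measurable (Function.uncurry (rad u)) := by
  have : Function.uncurry (rad u) = fun p : Pt × Pt => u (dist p.1 p.2) := rfl
  rw [this]
  exact hu.comp measurable_dist

/-! ### A2: link with the frozen definition -/

theorem partitionFn_eq {φ : ℝ → ℝ} (hφ : Measurable φ) (L : ℝ) (N : ℕ) (β : ℝ) :
    partitionFn φ L N β = (Zf (rad (fun r => β * φ r)) (cube L) N).toReal := by
  have he : ∀ x : Fin N → Pt, -β * energy φ x = -(pairE (rad fun r => β * φ r) x) := by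
    intro x
    rw [energy_eq_pairE]
    have := pairE_lin β 0 (rad φ) (rad φ) x
    simp only [zero_mul, add_zero] at this
    have h2 : (rad fun r => β * φ r) = fun a b => β * rad φ a b := rfl
    rw [h2, this]
    ring
  have hm : Measurable (fun x : Fin N → Pt => Real.exp (-(pairE (rad fun r => β * φ r) x))) :=
    Real.measurable_exp.comp (measurable_pairE (measurable_rad (hφ.const_mul β))).neg
  unfold partitionFn Zf
  simp only [he]
  rw [integral_eq_lintegral_of_nonneg_ae (Filter.Eventually.of_forall fun x => (Real.exp_pos _).le)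
    hm.aestronglyMeasurable]
  rw [ENNReal.toReal_mul, ENNReal.toReal_inv, ENNReal.toReal_natCast, one_div]

/-! ### A3: the cube -/

theorem cube_eq_preimage (L : ℝ) :
    cube L = (MeasurableEquiv.toLp 2 (Fin 3 → ℝ)).symm ⁻¹'
      (Set.Icc (fun _ => (0 : ℝ)) (fun _ => L)) := by
  ext x
  simp only [cube, Set.mem_ofPred_eq, Set.mem_preimage, Set.mem_Icc, Pi.le_def]
  constructor
  · intro h
    exact ⟨fun i => (h i).1, fun i => (h i).2⟩
  · intro h k
    exact ⟨h.1 k, h.2 k⟩

theorem measurableSet_cube (L : ℝ) : MeasurableSet (cube L) := by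
  rw [cube_eq_preimage]
  exact (MeasurableEquiv.measurable _) measurableSet_Icc

theorem volume_cube {L : ℝ} (hL : 0 ≤ L) : volume (cube L) = ENNReal.ofReal (L ^ 3) := by
  rw [cube_eq_preimage]
  have h := (EuclideanSpace.volume_preserving_symm_measurableEquiv_toLp (Fin 3)).measure_preimage
    (s := Set.Icc (fun _ => (0 : ℝ)) (fun _ => L)) measurableSet_Icc.nullMeasurableSet
  rw [h, Real.volume_Icc_pi]
  simp [ENNReal.ofReal_pow hL]

/-! ### A4: elementary properties of `Zf` -/

theorem Zf_zero (U : Pt → Pt → ℝ) (D : Set Pt) : Zf U D 0 = 1 := by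
  unfold Zf
  have h1 : ∀ x : Fin 0 → Pt, pairE U x = 0 := fun x => by simp [pairE]
  simp only [h1]
  rw [setLIntegral_const, volume_pi_pi]
  simp

theorem Zf_one (U : Pt → Pt → ℝ) (D : Set Pt) : Zf U D 1 = volume D := by
  unfold Zf
  have h1 : ∀ x : Fin 1 → Pt, pairE U x = 0 := fun x => by simp [pairE]
  simp only [h1]
  rw [setLIntegral_const, volume_pi_pi]
  simp

theorem Zf_mono_set (U : Pt → Pt → ℝ) {D D' : Set Pt} (h : D ⊆ D') (N : ℕ) :
    Zf U D N ≤ Zf U D' N := by
  unfold Zf
  gcongr

theorem Zf_anti {U V : Pt → Pt → ℝ} {D : Set Pt} (hD : MeasurableSet D) (N : ℕ)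
    (h : ∀ a ∈ D, ∀ b ∈ D, U a b ≤ V a b) : Zf V D N ≤ Zf U D N := by
  unfold Zf
  refine mul_le_mul_right ?_ _
  refine setLIntegral_mono' (MeasurableSet.univ_pi fun _ => hD) fun x hx => ?_
  refine ENNReal.ofReal_le_ofReal (Real.exp_le_exp.2 (neg_le_neg ?_))
  exact pairE_mono x fun i j _ => h _ (hx i (Set.mem_univ i)) _ (hx j (Set.mem_univ j))

theorem pairE_rad_sub (u : ℝ → ℝ) (a : Pt) {ι : Type} [Fintype ι] (x : ι → Pt) :
    pairE (rad u) (fun i => x i - a) = pairE (rad u) x := by
  unfold pairE rad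
  simp

theorem Zf_translate (u : ℝ → ℝ) (D : Set Pt) (a : Pt) (N : ℕ) :
    Zf (rad u) ((fun y => y - a) ⁻¹' D) N = Zf (rad u) D N := by
  unfold Zf
  congr 1
  have hmp : MeasurePreserving (fun x : Fin N → Pt => x - fun _ => a) volume volume :=
    measurePreserving_sub_right volume (fun _ : Fin N => a)
  have hemb : MeasurableEmbedding (fun x : Fin N → Pt => x - fun _ => a) :=
    (MeasurableEquiv.subRight (fun _ : Fin N => a)).measurableEmbedding
  have h := hmp.setLIntegral_comp_preimage_emb hemb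
    (fun x => ENNReal.ofReal (Real.exp (-(pairE (rad u) x))))
    (Set.pi Set.univ (fun _ : Fin N => D))
  rw [← h]
  have hset : (fun x : Fin N → Pt => x - fun _ => a) ⁻¹' (Set.pi Set.univ (fun _ : Fin N => D))
      = Set.pi Set.univ (fun _ : Fin N => (fun y => y - a) ⁻¹' D) := by
    ext x
    simp [Set.mem_pi]
  rw [hset]
  have hfun : ∀ x : Fin N → Pt, pairE (rad u) (x - fun _ => a) = pairE (rad u) x := fun x =>
    pairE_rad_sub u a x
  simp only [hfun]

theorem Zf_pos {U : Pt → Pt → ℝ} (hU : Measurable (Function.uncurry U)) {D : Set Pt}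
    (hD : MeasurableSet D) (h0 : 0 < volume D) (N : ℕ) : 0 < Zf U D N := by
  unfold Zf
  refine ENNReal.mul_pos ?_ ?_
  · exact ENNReal.inv_ne_zero.2 (ENNReal.natCast_ne_top _)
  · refine ne_of_gt ?_
    have hm : Measurable (fun x : Fin N → Pt => ENNReal.ofReal (Real.exp (-(pairE U x)))) :=
      (Real.measurable_exp.comp (measurable_pairE hU).neg).ennreal_ofReal
    rw [lintegral_pos_iff_support hm]
    have hs : Function.support (fun x : Fin N → Pt => ENNReal.ofReal (Real.exp (-(pairE U x))))
        = Set.univ := by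
      ext x
      simp [Real.exp_pos]
    rw [hs, Measure.restrict_apply_univ, volume_pi_pi]
    simp only [Finset.prod_const, Finset.card_univ, Fintype.card_fin]
    exact ENNReal.pow_pos h0 N

/-- Stability bound: `Z ≤ e^c |D|^N / N!` if the energy is `≥ -c` on `D^N`. -/
theorem Zf_le_of_stable {U : Pt → Pt → ℝ} {D : Set Pt} (hD : MeasurableSet D) (N : ℕ) (c : ℝ)
    (h : ∀ x : Fin N → Pt, (∀ i, x i ∈ D) → -c ≤ pairE U x) :
    Zf U D N ≤ ENNReal.ofReal (Real.exp c) * (volume D) ^ N / (N.factorial : ENNReal) := by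
  unfold Zf
  have h1 : (∫⁻ x in Set.pi Set.univ (fun _ : Fin N => D),
      ENNReal.ofReal (Real.exp (-(pairE U x)))) ≤ ENNReal.ofReal (Real.exp c) * (volume D) ^ N := by
    calc (∫⁻ x in Set.pi Set.univ (fun _ : Fin N => D),
      ENNReal.ofReal (Real.exp (-(pairE U x))))
        ≤ ∫⁻ x in Set.pi Set.univ (fun _ : Fin N => D), ENNReal.ofReal (Real.exp c) := by
          refine setLIntegral_mono' (MeasurableSet.univ_pi fun _ => hD) fun x hx => ?_
          refine ENNReal.ofReal_le_ofReal (Real.exp_le_exp.2 ?_)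
          have := h x (fun i => hx i (Set.mem_univ i))
          linarith
      _ = ENNReal.ofReal (Real.exp c) * (volume D) ^ N := by
          rw [setLIntegral_const, volume_pi_pi]
          simp
  rw [div_eq_mul_inv, mul_comm]
  gcongr

end Crest.Agent.Gas
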