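import Crest.Agent.GasPackGeo

/-! Module I (GasCores): existence of the two cores (bounded continuous, and divergent at 0).
Continuous: `A * max (clamp ((sc r - s)/(sc r - sa r))) (min (clamp ((s - sd r)/(r - sd r))) (clamp ((1 - s)/t)))`.
Divergent: add `max (1/s - 1/(sa r)) 0` (value `0` at `s = 0`, `1/0 = 0`); integrable in dimension 3. -/

set_option autoImplicit false

namespace Crest.Agent.Gas

open MeasureTheory Crest.ProbabilityR.Continuum Filter

/-- A radial function which vanishes beyond `1` and is `≤ C / s²`-integrable has a finite integral. -/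
theorem lintegral_radial_lt_top {g : ℝ → ℝ} (hg : Measurable g) (hg0 : ∀ s, 0 ≤ g s)
    (hfar : ∀ s, 1 ≤ s → g s = 0) {C : ℝ} (hC : ∀ s, 0 < s → s ^ 2 * g s ≤ C) :
    ∫⁻ z : Pt, ENNReal.ofReal (g ‖z‖) < ⊤ := by
  have h1 : Integrable (fun z : Pt => g ‖z‖) := by
    rw [integrable_fun_norm_addHaar]
    have hdim : Module.finrank ℝ Pt = 3 := by simp [Pt]
    rw [hdim]
    have h2 : IntegrableOn (fun y : ℝ => y ^ (3 - 1) • g y) (Set.Ioo (0 : ℝ) 1) := by
      refine Measure.integrableOn_of_bounded (M := C) (by simp) ?_ ?_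
      · exact ((measurable_id.pow_const 2).mul hg).aestronglyMeasurable
      · rw [ae_restrict_iff' measurableSet_Ioo]
        refine Eventually.of_forall fun s hs => ?_
        rw [Real.norm_of_nonneg (smul_nonneg (pow_nonneg hs.1.le _) (hg0 s))]
        exact hC s hs.1
    have h3 : IntegrableOn (fun y : ℝ => y ^ (3 - 1) • g y) (Set.Ici (1 : ℝ)) := by
      refine (integrableOn_congr_fun (g := fun _ => (0 : ℝ)) ?_ measurableSet_Ici).2 ?_
      · intro s hs
        simp [hfar s hs]
      · exact integrableOn_zero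
    have h4 : Set.Ioi (0 : ℝ) = Set.Ioo 0 1 ∪ Set.Ici 1 := by
      rw [Set.Ioo_union_Ici_eq_Ioi one_pos]
    rw [h4]
    exact h2.union h3
  have h5 := h1.hasFiniteIntegral
  rw [hasFiniteIntegral_iff_norm] at h5
  refine lt_of_le_of_lt (lintegral_mono fun z => ?_) h5
  rw [Real.norm_of_nonneg (hg0 _)]

/-- Truncation to `[0, 1]`. -/
noncomputable def clampU (x : ℝ) : ℝ := max 0 (min 1 x)

theorem clampU_nonneg (x : ℝ) : 0 ≤ clampU x := le_max_left _ _

theorem clampU_le_one (x : ℝ) : clampU x ≤ 1 := by
  unfold clampU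
  exact max_le zero_le_one (min_le_left _ _)

theorem clampU_of_nonpos {x : ℝ} (h : x ≤ 0) : clampU x = 0 := by
  unfold clampU
  exact max_eq_left ((min_le_right _ _).trans h)

theorem clampU_of_one_le {x : ℝ} (h : 1 ≤ x) : clampU x = 1 := by
  unfold clampU
  rw [min_eq_left h, max_eq_right zero_le_one]

theorem continuous_clampU : Continuous clampU := by
  unfold clampU
  fun_prop

/-- The continuous core. -/
noncomputable def contCore (A r t sa sc sd : ℝ) (s : ℝ) : ℝ :=
  A * max (clampU ((sc * r - s) / (sc * r - sa * r)))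
    (min (clampU ((s - sd * r) / (r - sd * r))) (clampU ((1 - s) / t)))

theorem continuous_contCore (A r t sa sc sd : ℝ) : Continuous (contCore A r t sa sc sd) := by
  unfold contCore
  have h := continuous_clampU
  refine continuous_const.mul (Continuous.max (h.comp (by fun_prop))
    (Continuous.min (h.comp (by fun_prop)) (h.comp (by fun_prop))))

theorem contCore_nonneg {A : ℝ} (hA : 0 ≤ A) (r t sa sc sd s : ℝ) :
    0 ≤ contCore A r t sa sc sd s :=
  mul_nonneg hA (le_max_of_le_left (clampU_nonneg _))

theorem contCore_le {A : ℝ} (hA : 0 ≤ A) (r t sa sc sd s : ℝ) :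
    contCore A r t sa sc sd s ≤ A := by
  unfold contCore
  have h : max (clampU ((sc * r - s) / (sc * r - sa * r)))
    (min (clampU ((s - sd * r) / (r - sd * r))) (clampU ((1 - s) / t))) ≤ 1 :=
    max_le (clampU_le_one _) ((min_le_left _ _).trans (clampU_le_one _))
  calc _ ≤ A * 1 := mul_le_mul_of_nonneg_left h hA
    _ = A := mul_one A

theorem isCore_contCore {A r t sa sc sd : ℝ} (hA : 0 ≤ A) (hr : 0 < r) (hr' : 2 * r < 1 - t)
    (ht : 0 < t) (_hsa : 0 < sa) (hac : sa < sc) (hcd : sc < sd) (hd : sd < 1) :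
    IsCore (contCore A r t sa sc sd) A r t sa sc sd := by
  have h0 := contCore_nonneg hA r t sa sc sd
  have hfar : ∀ s, 1 ≤ s → contCore A r t sa sc sd s = 0 := by
    intro s hs
    unfold contCore
    have hsc : sc * r ≤ s := by nlinarith
    rw [clampU_of_nonpos (x := (1 - s) / t) (div_nonpos_of_nonpos_of_nonneg (by linarith) ht.le),
      clampU_of_nonpos (x := (sc * r - s) / (sc * r - sa * r))
        (div_nonpos_of_nonpos_of_nonneg (by linarith) (by nlinarith)),
      min_eq_right (clampU_nonneg _), max_self, mul_zero]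
  refine ⟨(continuous_contCore A r t sa sc sd).measurable, h0, hfar, ?_, ?_, ?_, ?_⟩
  · intro s hs1 hs2
    unfold contCore
    rw [clampU_of_nonpos (x := (s - sd * r) / (r - sd * r))
        (div_nonpos_of_nonpos_of_nonneg (by linarith) (by nlinarith)),
      clampU_of_nonpos (x := (sc * r - s) / (sc * r - sa * r))
        (div_nonpos_of_nonpos_of_nonneg (by linarith) (by nlinarith)),
      min_eq_left (clampU_nonneg _), max_self, mul_zero]
  · intro s _ hs2
    unfold contCore
    have hpos : 0 < sc * r - sa * r := by nlinarith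
    rw [clampU_of_one_le (x := (sc * r - s) / (sc * r - sa * r))
      ((one_le_div hpos).2 (by linarith))]
    calc A = A * 1 := (mul_one A).symm
      _ ≤ _ := mul_le_mul_of_nonneg_left (le_max_left _ _) hA
  · intro s hs1 hs2
    unfold contCore
    have hpos : 0 < r - sd * r := by nlinarith
    rw [clampU_of_one_le (x := (s - sd * r) / (r - sd * r)) ((one_le_div hpos).2 (by linarith)),
      clampU_of_one_le (x := (1 - s) / t) ((one_le_div ht).2 (by linarith)), min_self]
    calc A = A * 1 := (mul_one A).symm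
      _ ≤ _ := mul_le_mul_of_nonneg_left (le_max_right _ _) hA
  · refine lintegral_radial_lt_top (continuous_contCore A r t sa sc sd).measurable h0 hfar
      (C := A) ?_
    intro s hs
    rcases le_or_gt 1 s with h | h
    · rw [hfar s h]; simpa using hA
    · have h1 := contCore_le hA r t sa sc sd s
      have h2 := h0 s
      have h3 : s ^ 2 ≤ 1 := by nlinarith
      calc s ^ 2 * contCore A r t sa sc sd s ≤ 1 * contCore A r t sa sc sd s :=
            mul_le_mul_of_nonneg_right h3 h2
        _ ≤ A := by linarith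

theorem exists_cont_core {A r t sa sc sd : ℝ} (hA : 0 ≤ A) (hr : 0 < r) (hr' : 2 * r < 1 - t)
    (ht : 0 < t) (hsa : 0 < sa) (hac : sa < sc) (hcd : sc < sd) (hd : sd < 1) :
    ∃ φ : ℝ → ℝ, IsCore φ A r t sa sc sd ∧ Continuous φ ∧ ∀ s, φ s ≤ A :=
  ⟨contCore A r t sa sc sd, isCore_contCore hA hr hr' ht hsa hac hcd hd,
    continuous_contCore A r t sa sc sd, contCore_le hA r t sa sc sd⟩

/-- The divergent bump, supported in `(0, c)`. -/
noncomputable def divBump (c s : ℝ) : ℝ := max (1 / s - 1 / c) 0

theorem divBump_nonneg (c s : ℝ) : 0 ≤ divBump c s := le_max_right _ _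

theorem measurable_divBump (c : ℝ) : Measurable (divBump c) := by
  unfold divBump
  fun_prop

theorem divBump_of_le {c s : ℝ} (hc : 0 < c) (h : c ≤ s) : divBump c s = 0 := by
  unfold divBump
  refine max_eq_right (sub_nonpos.2 ?_)
  exact one_div_le_one_div_of_le hc h

theorem divBump_le {c s : ℝ} (hc : 0 < c) (hs : 0 < s) : divBump c s ≤ 1 / s := by
  unfold divBump
  refine max_le ?_ (by positivity)
  have : 0 < 1 / c := by positivity
  linarith

theorem exists_div_core {A r t sa sc sd : ℝ} (hA : 0 ≤ A) (hr : 0 < r) (hr' : 2 * r < 1 - t)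
    (ht : 0 < t) (hsa : 0 < sa) (hac : sa < sc) (hcd : sc < sd) (hd : sd < 1) :
    ∃ φ : ℝ → ℝ, IsCore φ A r t sa sc sd ∧
      Tendsto φ (nhdsWithin 0 (Set.Ioi 0)) atTop ∧ ∀ δ > 0, ∃ M : ℝ, ∀ s, δ ≤ s → φ s ≤ M := by
  have hcore := isCore_contCore hA hr hr' ht hsa hac hcd hd
  have hle := contCore_le hA r t sa sc sd
  have hc : 0 < sa * r := by positivity
  set f := contCore A r t sa sc sd with hf
  refine ⟨fun s => f s + divBump (sa * r) s, ⟨?_, ?_, ?_, ?_, ?_, ?_, ?_⟩, ?_, ?_⟩
  · exact hcore.meas.add (measurable_divBump _)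
  · intro s
    exact add_nonneg (hcore.nonneg s) (divBump_nonneg _ _)
  · intro s hs
    have h1 : sa * r ≤ s := by nlinarith
    simp only [hcore.far s hs, divBump_of_le hc h1, add_zero]
  · intro s hs1 hs2
    have h1 : sa * r ≤ s := by nlinarith
    simp only [hcore.window s hs1 hs2, divBump_of_le hc h1, add_zero]
  · intro s hs1 hs2
    have := hcore.inner s hs1 hs2
    have := divBump_nonneg (sa * r) s
    show A ≤ f s + divBump (sa * r) s
    linarith
  · intro s hs1 hs2
    have := hcore.outer s hs1 hs2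
    have := divBump_nonneg (sa * r) s
    show A ≤ f s + divBump (sa * r) s
    linarith
  · refine lintegral_radial_lt_top (g := fun s => f s + divBump (sa * r) s)
      (hcore.meas.add (measurable_divBump _))
      (fun s => add_nonneg (hcore.nonneg s) (divBump_nonneg _ _)) ?_ (C := A + 1) ?_
    · intro s hs
      have h1 : sa * r ≤ s := by nlinarith
      simp only [hcore.far s hs, divBump_of_le hc h1, add_zero]
    · intro s hs
      rcases le_or_gt 1 s with h | h
      · have h1 : sa * r ≤ s := by nlinarith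
        simp only [hcore.far s h, divBump_of_le hc h1, add_zero, mul_zero]
        linarith
      · have h1 := hle s
        have h2 := hcore.nonneg s
        have h3 : s ^ 2 ≤ 1 := by nlinarith
        have h4 : s ^ 2 * divBump (sa * r) s ≤ 1 := by
          calc s ^ 2 * divBump (sa * r) s ≤ s ^ 2 * (1 / s) :=
                mul_le_mul_of_nonneg_left (divBump_le hc hs) (by positivity)
            _ = s := by field_simp
            _ ≤ 1 := h.le
        have h5 : s ^ 2 * f s ≤ A := by
          calc s ^ 2 * f s ≤ 1 * f s := mul_le_mul_of_nonneg_right h3 h2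
            _ ≤ A := by linarith
        show s ^ 2 * (f s + divBump (sa * r) s) ≤ A + 1
        rw [mul_add]
        linarith
  · have h1 : Tendsto (fun s : ℝ => s⁻¹ - 1 / (sa * r)) (nhdsWithin 0 (Set.Ioi 0)) atTop := by
      exact tendsto_atTop_add_const_right _ _ tendsto_inv_nhdsGT_zero
    refine tendsto_atTop_mono (fun s => ?_) h1
    have h2 := hcore.nonneg s
    have h3 : s⁻¹ - 1 / (sa * r) ≤ divBump (sa * r) s := by
      unfold divBump
      rw [← one_div]
      exact le_max_left _ _
    show s⁻¹ - 1 / (sa * r) ≤ f s + divBump (sa * r) s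
    linarith
  · intro δ hδ
    refine ⟨A + 1 / δ, fun s hs => ?_⟩
    have hs0 : 0 < s := lt_of_lt_of_le hδ hs
    have h1 := hle s
    have h2 := divBump_le hc hs0
    have h3 : 1 / s ≤ 1 / δ := one_div_le_one_div_of_le hδ hs
    show f s + divBump (sa * r) s ≤ A + 1 / δ
    linarith

end Crest.Agent.Gas
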