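import Mathlib
import Crest.Prelude.Def_PairPotential
import Crest.Prelude.Def_UnitPacking

/-!
Shared definitions for S0209 / S0210 (owner: helper41).
Interactions are general functions `U : Pt → Pt → ℝ` (the inverse temperature is absorbed in `U`).
-/

set_option autoImplicit false

namespace Crest.Agent.Gas

open MeasureTheory Crest.ProbabilityR.Continuum

/-- Pair energy of a configuration for a (symmetric) pair interaction `U`:
half the sum over ordered pairs of distinct indices. -/
noncomputable def pairE (U : Pt → Pt → ℝ) {ι : Type} [Fintype ι] (x : ι → Pt) : ℝ :=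
  (1 / 2) * ((∑ i, ∑ j, U (x i) (x j)) - ∑ i, U (x i) (x i))

/-- Canonical partition function of `N` particles in the region `D` (temperature absorbed in `U`). -/
noncomputable def Zf (U : Pt → Pt → ℝ) (D : Set Pt) (N : ℕ) : ENNReal :=
  ((N.factorial : ℕ) : ENNReal)⁻¹ *
    ∫⁻ x in Set.pi Set.univ (fun _ : Fin N => D), ENNReal.ofReal (Real.exp (-(pairE U x)))

/-- The radial interaction associated with a function of the distance. -/
noncomputable def rad (u : ℝ → ℝ) : Pt → Pt → ℝ := fun a b => u (dist a b)

/-- Admissible radial potentials (temperature absorbed): measurable, nonpositive beyond distance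
one, positive part integrable in space, stable. -/
structure Adm (u : ℝ → ℝ) : Prop where
  meas : Measurable u
  tail : ∀ r : ℝ, 1 ≤ r → u r ≤ 0
  core : ∫⁻ z : Pt, ENNReal.ofReal (u ‖z‖) < ⊤
  stable : ∃ B : ℝ, ∀ (N : ℕ) (x : Fin N → Pt), -(B * N) ≤ pairE (rad u) x

/-- `-log Z / L^3` in the cube `[0,L]^3` at density `ρ`. -/
noncomputable def feL (u : ℝ → ℝ) (ρ L : ℝ) : ℝ :=
  -(Real.log (Zf (rad u) (cube L) ⌊ρ * L ^ 3⌋₊).toReal) / L ^ 3

/-- The infinite volume free energy density (temperature absorbed, so it is `β f`). -/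
noncomputable def Fe (u : ℝ → ℝ) (ρ : ℝ) : ℝ := by
  classical exact
  if h : ∃ F : ℝ, Filter.Tendsto (fun L : ℝ => feL u ρ L) Filter.atTop (nhds F)
  then Classical.choose h else 0

/-- Volume of the ball of radius `R`. -/
noncomputable def volB (R : ℝ) : ℝ := (volume (Metric.ball (0 : Pt) R)).toReal

/-- A unit vector. -/
noncomputable def e1 : Pt := EuclideanSpace.single 0 1

/-- The normalised ball-overlap kernel: `|B_R ∩ (B_R + r e1)| / |B_R|^2` (integral one). -/
noncomputable def KK (R r : ℝ) : ℝ :=
  (volume (Metric.ball (0 : Pt) R ∩ Metric.ball (r • e1) R)).toReal / (volB R) ^ 2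

/-- Index of the cell of side `b` (grid shifted by `τ`) containing `y`. -/
noncomputable def cellIdx (b : ℝ) (τ : Fin 3 → ℝ) (y : Pt) : Fin 3 → ℤ :=
  fun i => ⌊(y i - τ i) / b⌋

open Classical in
/-- Sum over cells of the squared occupation numbers: the number of ordered pairs `(i,j)`
(including `i = j`) lying in the same cell of side `b` (grid shifted by `τ`). -/
noncomputable def Qc (b : ℝ) (τ : Fin 3 → ℝ) {ι : Type} [Fintype ι] (x : ι → Pt) : ℝ :=
  ∑ i, ∑ j, if cellIdx b τ (x i) = cellIdx b τ (x j) then (1 : ℝ) else 0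

end Crest.Agent.Gas
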