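import Crest.Agent.GasKernel
import Crest.Agent.GasPackGeo

/-! Module J1 (GasFamily): the family `φ - ∑' j, w j * KK (L j)`. -/

set_option autoImplicit false

namespace Crest.Agent.Gas

open MeasureTheory Crest.ProbabilityR.Continuum

/-- core minus a superposition of kernels -/
noncomputable def fam (φ : ℝ → ℝ) (w L : ℕ → ℝ) : ℝ → ℝ := fun r => φ r - ∑' j, w j * KK (L j) r

theorem famaux_KK_le {R : ℝ} (hR : 100 ≤ R) (r : ℝ) : KK R r ≤ 1 / volB 1 := by
  have hR0 : (0:ℝ) < R := by linarith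
  have h1 := KK_le hR0 r
  have h2 : volB 1 ≤ volB R := by
    rw [volB_eq hR0.le]
    have := volB_pos (R := 1) one_pos
    have h3 : (1:ℝ) ≤ R ^ 3 := one_le_pow₀ (by linarith)
    nlinarith
  exact h1.trans (one_div_le_one_div_of_le (volB_pos one_pos) h2)

theorem summable_fam {w L : ℕ → ℝ} (hw0 : ∀ j, 0 ≤ w j) (hw : Summable w)
    (hL : ∀ j, 100 ≤ L j) (r : ℝ) : Summable (fun j => w j * KK (L j) r) := by
  refine Summable.of_nonneg_of_le (fun j => mul_nonneg (hw0 j) (KK_nonneg _ _))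
    (fun j => mul_le_mul_of_nonneg_left (famaux_KK_le (hL j) r) (hw0 j)) (hw.mul_right _)

theorem continuous_tail {w L : ℕ → ℝ} (hw0 : ∀ j, 0 ≤ w j) (hw : Summable w)
    (hL : ∀ j, 100 ≤ L j) : Continuous (fun r => ∑' j, w j * KK (L j) r) := by
  refine continuous_tsum (u := fun j => w j * (1 / volB 1)) (fun j => ?_) (hw.mul_right _) ?_
  · exact continuous_const.mul (continuous_KK (by linarith [hL j]))
  · intro j r
    rw [Real.norm_of_nonneg (mul_nonneg (hw0 j) (KK_nonneg _ _))]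
    exact mul_le_mul_of_nonneg_left (famaux_KK_le (hL j) r) (hw0 j)

theorem tail_nonneg {w L : ℕ → ℝ} (hw0 : ∀ j, 0 ≤ w j) (r : ℝ) :
    0 ≤ ∑' j, w j * KK (L j) r :=
  tsum_nonneg (fun j => mul_nonneg (hw0 j) (KK_nonneg _ _))

theorem famaux_Qc_nonneg (b : ℝ) (τ : Fin 3 → ℝ) {ι : Type} [Fintype ι] (x : ι → Pt) :
    0 ≤ Qc b τ x := by
  unfold Qc
  refine Finset.sum_nonneg (fun i _ => Finset.sum_nonneg (fun j _ => ?_))
  split_ifs <;> norm_num

/-- the total attraction is controlled by the cell sums (cells of side `1/2`; `KK_pair_le`). -/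
theorem pairE_tail_le {w L : ℕ → ℝ} (hw0 : ∀ j, 0 ≤ w j) (hw : Summable w)
    (hL : ∀ j, 100 ≤ L j) {N : ℕ} (x : Fin N → Pt) :
    pairE (rad (fun r => ∑' j, w j * KK (L j) r)) x ≤ 9 / 2 * (∑' j, w j) * Qc (1 / 2) 0 x := by
  have hQ := famaux_Qc_nonneg (1 / 2) 0 x
  have h1 : pairE (rad (fun r => ∑' j, w j * KK (L j) r)) x
      ≤ (1 / 2) * ∑ i, ∑ k, ∑' j, w j * KK (L j) (dist (x i) (x k)) := by
    unfold pairE rad
    have : 0 ≤ ∑ i, ∑' j, w j * KK (L j) (dist (x i) (x i)) :=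
      Finset.sum_nonneg (fun i _ => tail_nonneg hw0 _)
    linarith
  have h2 : ∑ i, ∑ k, ∑' j, w j * KK (L j) (dist (x i) (x k))
      = ∑' j, w j * ∑ i, ∑ k, KK (L j) (dist (x i) (x k)) := by
    have e1 : ∀ i, ∑ k, ∑' j, w j * KK (L j) (dist (x i) (x k))
        = ∑' j, ∑ k, w j * KK (L j) (dist (x i) (x k)) := fun i =>
      (Summable.tsum_finsetSum (fun k _ => summable_fam hw0 hw hL _)).symm
    simp_rw [e1]
    rw [← Summable.tsum_finsetSum]
    · congr 1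
      ext j
      simp_rw [Finset.mul_sum]
    · intro i _
      exact summable_sum (fun k _ => summable_fam hw0 hw hL _)
  have h3 : ∀ j, w j * ∑ i, ∑ k, KK (L j) (dist (x i) (x k)) ≤ w j * (9 * Qc (1 / 2) 0 x) := by
    intro j
    refine mul_le_mul_of_nonneg_left ?_ (hw0 j)
    have hLj := hL j
    refine (KK_pair_le (by linarith : (0:ℝ) < L j) (by norm_num : (0:ℝ) < 1 / 2) 0 x).trans ?_
    refine mul_le_mul_of_nonneg_right ?_ hQ
    have h4 : 2 * (1 / 2 : ℝ) / L j ≤ 1 / 100 := by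
      rw [div_le_div_iff₀ (by linarith) (by norm_num)]
      linarith
    have h5 : 0 ≤ 2 * (1 / 2 : ℝ) / L j := by positivity
    have h6 : (1 + 2 * (1 / 2 : ℝ) / L j) ^ 6 ≤ (1 + 1 / 100) ^ 6 :=
      pow_le_pow_left₀ (by linarith) (by linarith) 6
    have h7 : ((1:ℝ) + 1 / 100) ^ 6 ≤ 9 / 8 := by norm_num
    rw [div_le_iff₀ (by norm_num)]
    calc _ ≤ ((1:ℝ) + 1 / 100) ^ 6 := h6
      _ ≤ 9 / 8 := h7
      _ = _ := by norm_num
  have hs2 : Summable (fun j => w j * (9 * Qc (1 / 2) 0 x)) := hw.mul_right _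
  have hs1 : Summable (fun j => w j * ∑ i, ∑ k, KK (L j) (dist (x i) (x k))) :=
    Summable.of_nonneg_of_le (fun j => mul_nonneg (hw0 j)
      (Finset.sum_nonneg (fun i _ => Finset.sum_nonneg (fun k _ => KK_nonneg _ _)))) h3 hs2
  have h8 := hs1.tsum_le_tsum h3 hs2
  rw [tsum_mul_right] at h8
  rw [h2] at h1
  calc _ ≤ _ := h1
    _ ≤ (1 / 2) * ((∑' j, w j) * (9 * Qc (1 / 2) 0 x)) := by linarith
    _ = _ := by ring

/-- superstability of the family. -/
theorem fam_superstable {φ : ℝ → ℝ} {A r t sa sc sd a0 : ℝ} {m : ℕ} (hm : 1 ≤ m)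
    (hφ : IsCore φ A r t sa sc sd) (hcap : HasCap m sa) (hr : 0 < r)
    (hr' : 2 * r < 1 - t) (ht : 0 < t) (ht' : t ≤ 1 / 10) (ha0 : 0 ≤ a0) (hA : 4 * m * a0 ≤ A)
    {w L : ℕ → ℝ} (hw0 : ∀ j, 0 ≤ w j) (hw : Summable w) (hL : ∀ j, 100 ≤ L j)
    {N : ℕ} (x : Fin N → Pt) :
    (a0 - 9 / 2 * ∑' j, w j) * Qc (1 / 2) 0 x - 2 * m * a0 * N ≤ pairE (rad (fam φ w L)) x := by
  have h1 := superstable hm hφ hcap hr hr' ht ht' ha0 hA x
  have h2 := pairE_tail_le hw0 hw hL x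
  have h3 : pairE (rad (fam φ w L)) x
      = pairE (rad φ) x - pairE (rad (fun r => ∑' j, w j * KK (L j) r)) x := by
    have := pairE_lin 1 (-1) (rad φ) (rad (fun r => ∑' j, w j * KK (L j) r)) x
    have e : (fun a b => 1 * rad φ a b + -1 * rad (fun r => ∑' j, w j * KK (L j) r) a b)
        = rad (fam φ w L) := by
      funext a b
      simp only [rad, fam]
      ring
    rw [e] at this
    rw [this]; ring
  rw [h3]
  linarith

theorem Adm_fam {φ : ℝ → ℝ} {A r t sa sc sd a0 : ℝ} {m : ℕ} (hm : 1 ≤ m)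
    (hφ : IsCore φ A r t sa sc sd) (hcap : HasCap m sa) (hr : 0 < r)
    (hr' : 2 * r < 1 - t) (ht : 0 < t) (ht' : t ≤ 1 / 10) (ha0 : 0 ≤ a0) (hA : 4 * m * a0 ≤ A)
    {w L : ℕ → ℝ} (hw0 : ∀ j, 0 ≤ w j) (hw : Summable w) (hL : ∀ j, 100 ≤ L j)
    (hwa : 9 / 2 * ∑' j, w j ≤ a0) {β : ℝ} (hβ : 0 < β) :
    Adm (fun r => β * fam φ w L r) := by
  refine ⟨?_, ?_, ?_, ?_⟩
  · exact (hφ.meas.sub (continuous_tail hw0 hw hL).measurable).const_mul β
  · intro s hs
    have h1 := hφ.far s hs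
    have h2 := tail_nonneg (L := L) hw0 s
    have h3 : fam φ w L s ≤ 0 := by
      unfold fam
      linarith
    exact mul_nonpos_of_nonneg_of_nonpos hβ.le h3
  · have h1 : ∀ z : Pt, ENNReal.ofReal (β * fam φ w L ‖z‖)
        ≤ ENNReal.ofReal β * ENNReal.ofReal (φ ‖z‖) := by
      intro z
      rw [← ENNReal.ofReal_mul hβ.le]
      refine ENNReal.ofReal_le_ofReal (mul_le_mul_of_nonneg_left ?_ hβ.le)
      have h2 := tail_nonneg (L := L) hw0 ‖z‖
      unfold fam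
      linarith
    refine (lintegral_mono h1).trans_lt ?_
    rw [lintegral_const_mul' _ _ ENNReal.ofReal_ne_top]
    exact ENNReal.mul_lt_top ENNReal.ofReal_lt_top hφ.core
  · refine ⟨β * (2 * m * a0), fun N x => ?_⟩
    have h1 := fam_superstable hm hφ hcap hr hr' ht ht' ha0 hA hw0 hw hL x
    have hQ := famaux_Qc_nonneg (1 / 2) 0 x
    have h2 : pairE (rad (fun r => β * fam φ w L r)) x = β * pairE (rad (fam φ w L)) x := by
      have := pairE_lin β 0 (rad (fam φ w L)) (rad (fam φ w L)) x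
      have e : (fun a b => β * rad (fam φ w L) a b + 0 * rad (fam φ w L) a b)
          = rad (fun r => β * fam φ w L r) := by
        funext a b
        simp only [rad]
        ring
      rw [e] at this
      rw [this]; ring
    rw [h2]
    have h3 : 0 ≤ (a0 - 9 / 2 * ∑' j, w j) * Qc (1 / 2) 0 x :=
      mul_nonneg (by linarith) hQ
    have h4 : -(2 * m * a0 * N) ≤ pairE (rad (fam φ w L)) x := by linarith
    have h5 := mul_le_mul_of_nonneg_left h4 hβ.le
    linarith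

/-- number of cells: `Qc ≥ N² / (2 L + 2)³` in `cube L`. -/
theorem Qc_ge {L : ℝ} (hL : 0 ≤ L) {N : ℕ} (x : Fin N → Pt) (hx : ∀ i, x i ∈ cube L) :
    (N : ℝ) ^ 2 / (2 * L + 1) ^ 3 ≤ Qc (1 / 2) 0 x := by
  classical
  -- the cells
  let c : Fin N → (Fin 3 → ℤ) := fun i => cellIdx (1 / 2) 0 (x i)
  let S : Finset (Fin 3 → ℤ) := Fintype.piFinset (fun _ => Finset.Icc 0 ⌊2 * L⌋)
  have hcS : ∀ i, c i ∈ S := by
    intro i
    simp only [S, Fintype.mem_piFinset, Finset.mem_Icc, c, cellIdx]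
    intro k
    have h1 := (hx i k).1
    have h2 := (hx i k).2
    have e : (x i k - (0 : Fin 3 → ℝ) k) / (1 / 2) = 2 * x i k := by
      simp only [Pi.zero_apply]
      ring
    rw [e]
    constructor
    · exact Int.floor_nonneg.mpr (by linarith)
    · exact Int.floor_le_floor (by linarith)
  have hScard : (S.card : ℝ) ≤ (2 * L + 1) ^ 3 := by
    have h0 : 0 ≤ ⌊2 * L⌋ := Int.floor_nonneg.mpr (by linarith)
    have h1 : S.card = (⌊2 * L⌋ + 1).toNat ^ 3 := by
      simp [S, Fintype.card_piFinset]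
    rw [h1]
    push_cast
    refine pow_le_pow_left₀ (by positivity) ?_ 3
    have h2 : (((⌊2 * L⌋ + 1).toNat : ℤ) : ℝ) = ((⌊2 * L⌋ + 1 : ℤ) : ℝ) := by
      rw [Int.toNat_of_nonneg (by omega)]
    have h3 : (((⌊2 * L⌋ + 1).toNat : ℕ) : ℝ) = ((⌊2 * L⌋ + 1 : ℤ) : ℝ) := by
      rw [← h2]; exact (Int.cast_natCast _).symm
    rw [h3]
    push_cast
    have := Int.floor_le (2 * L)
    linarith
  -- Qc as sum of squares
  let n : (Fin 3 → ℤ) → ℝ := fun s => ∑ i, if c i = s then (1:ℝ) else 0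
  have hQ : Qc (1 / 2) 0 x = ∑ s ∈ S, n s ^ 2 := by
    have e1 : ∀ i j, (if c i = c j then (1:ℝ) else 0)
        = ∑ s ∈ S, (if c i = s then (1:ℝ) else 0) * (if c j = s then (1:ℝ) else 0) := by
      intro i j
      have : ∀ s ∈ S, (if c i = s then (1:ℝ) else 0) * (if c j = s then (1:ℝ) else 0)
          = if c i = s then (if c j = c i then (1:ℝ) else 0) else 0 := by
        intro s _
        by_cases h : c i = s
        · subst h; simp
        · simp [h]
      rw [Finset.sum_congr rfl this, Finset.sum_ite_eq, if_pos (hcS i)]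
      by_cases h : c i = c j
      · simp [h]
      · simp [h, Ne.symm h]
    have e2 : Qc (1 / 2) 0 x = ∑ i, ∑ j, (if c i = c j then (1:ℝ) else 0) := by
      unfold Qc
      rfl
    rw [e2]
    simp_rw [e1]
    have e3 : ∀ i, ∑ j, ∑ s ∈ S, (if c i = s then (1:ℝ) else 0) * (if c j = s then (1:ℝ) else 0)
        = ∑ s ∈ S, (if c i = s then (1:ℝ) else 0) * n s := by
      intro i
      rw [Finset.sum_comm]
      refine Finset.sum_congr rfl (fun s _ => ?_)
      rw [← Finset.mul_sum]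
    simp_rw [e3]
    rw [Finset.sum_comm]
    refine Finset.sum_congr rfl (fun s _ => ?_)
    rw [← Finset.sum_mul, sq]
  have hN : (N : ℝ) = ∑ s ∈ S, n s := by
    simp only [n]
    rw [Finset.sum_comm]
    have : ∀ i, ∑ s ∈ S, (if c i = s then (1:ℝ) else 0) = 1 := by
      intro i
      rw [Finset.sum_ite_eq, if_pos (hcS i)]
    simp [this]
  have hCS : (∑ s ∈ S, n s) ^ 2 ≤ S.card * ∑ s ∈ S, n s ^ 2 := sq_sum_le_card_mul_sum_sq
  rw [← hN, ← hQ] at hCS
  rw [div_le_iff₀ (by positivity)]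
  have hQ0 := famaux_Qc_nonneg (1 / 2) 0 x
  calc (N:ℝ) ^ 2 ≤ S.card * Qc (1 / 2) 0 x := hCS
    _ ≤ (2 * L + 1) ^ 3 * Qc (1 / 2) 0 x := mul_le_mul_of_nonneg_right hScard hQ0
    _ = _ := mul_comm _ _

/-- decay of the tail when `w j ≤ C (L j)^(-1/32)` and `L` grows at least geometrically. -/
theorem tail_decay {w L : ℕ → ℝ} (hw0 : ∀ j, 0 ≤ w j) (hw : Summable w)
    (hL : ∀ j, 100 ≤ L j) (hL2 : ∀ j, 2 * L j ≤ L (j + 1)) {C : ℝ}
    (hC : ∀ j, w j ≤ C * (L j) ^ (-(1 / 32 : ℝ))) :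
    ∃ C' : ℝ, ∀ r : ℝ, 1 ≤ r → ∑' j, w j * KK (L j) r ≤ C' * r ^ (-(3 + 1 / 32 : ℝ)) := by
  classical
  have hL0 : ∀ j, 0 < L j := fun j => by linarith [hL j]
  have hC0 : 0 ≤ C := by
    by_contra h
    push Not at h
    have h1 := hC 0
    have h2 : 0 < (L 0) ^ (-(1 / 32 : ℝ)) := Real.rpow_pos_of_pos (hL0 0) _
    have h3 := hw0 0
    nlinarith
  have hgrow : ∀ j k, 2 ^ k * L j ≤ L (j + k) := by
    intro j k
    induction k with
    | zero => simp
    | succ k ih =>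
      have := hL2 (j + k)
      rw [pow_succ]
      calc 2 ^ k * 2 * L j = 2 * (2 ^ k * L j) := by ring
        _ ≤ 2 * L (j + k) := by linarith
        _ ≤ L (j + k + 1) := this
        _ = L (j + (k + 1)) := by rw [add_assoc]
  have hvol := volB_pos (R := 1) one_pos
  refine ⟨C / volB 1 * (2 * 2 ^ (3 + 1 / 32 : ℝ)), fun r hr => ?_⟩
  have hr0 : 0 < r := by linarith
  -- first index
  have hex : ∃ j, r / 2 < L j := by
    obtain ⟨k, hk⟩ := pow_unbounded_of_one_lt (r / 2) (one_lt_two (α := ℝ))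
    refine ⟨0 + k, lt_of_lt_of_le hk ((?_ : (2:ℝ) ^ k ≤ 2 ^ k * L 0).trans (hgrow 0 k))⟩
    have : (0:ℝ) < 2 ^ k := by positivity
    nlinarith [hL 0]
  let j0 := Nat.find hex
  have hj0 : r / 2 < L j0 := Nat.find_spec hex
  have hzero : ∀ j, j < j0 → w j * KK (L j) r = 0 := by
    intro j hj
    have h1 : ¬ r / 2 < L j := Nat.find_min hex hj
    rw [KK_eq_zero (hL0 j), mul_zero]
    rw [abs_of_pos hr0]
    linarith [not_lt.mp h1]
  have hs := summable_fam hw0 hw hL r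
  have h1 : ∑' j, w j * KK (L j) r = ∑' k, w (k + j0) * KK (L (k + j0)) r := by
    rw [← hs.sum_add_tsum_nat_add j0]
    rw [Finset.sum_eq_zero (fun j hj => hzero j (Finset.mem_range.mp hj)), zero_add]
  have hterm : ∀ k, w (k + j0) * KK (L (k + j0)) r
      ≤ (C / volB 1 * (r / 2) ^ (-(3 + 1 / 32 : ℝ))) * (1 / 2) ^ k := by
    intro k
    have hLk : 0 < L (k + j0) := hL0 _
    have hb1 : KK (L (k + j0)) r ≤ 1 / (volB 1 * L (k + j0) ^ 3) := by
      have := KK_le hLk r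
      rwa [volB_eq hLk.le] at this
    have hb2 := hC (k + j0)
    have hlow : 2 ^ k * (r / 2) ≤ L (k + j0) := by
      have := hgrow j0 k
      rw [add_comm k j0]
      refine le_trans ?_ this
      exact mul_le_mul_of_nonneg_left hj0.le (by positivity)
    have hpos : 0 < 2 ^ k * (r / 2) := by positivity
    calc w (k + j0) * KK (L (k + j0)) r
        ≤ (C * (L (k + j0)) ^ (-(1 / 32 : ℝ))) * (1 / (volB 1 * L (k + j0) ^ 3)) :=
          mul_le_mul hb2 hb1 (KK_nonneg _ _) (by positivity)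
      _ = C / volB 1 * (L (k + j0)) ^ (-(3 + 1 / 32 : ℝ)) := by
          have e : (L (k + j0)) ^ (-(3 + 1 / 32 : ℝ))
              = (L (k + j0)) ^ (-(1 / 32 : ℝ)) * (L (k + j0) ^ 3)⁻¹ := by
            rw [show (-(3 + 1 / 32 : ℝ)) = -(1 / 32 : ℝ) + (-(3:ℕ) : ℝ) by push_cast; ring,
              Real.rpow_add hLk, Real.rpow_neg hLk.le (3:ℕ), Real.rpow_natCast]
          rw [e]
          field_simp
      _ ≤ C / volB 1 * (2 ^ k * (r / 2)) ^ (-(3 + 1 / 32 : ℝ)) := by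
          refine mul_le_mul_of_nonneg_left ?_ (by positivity)
          exact Real.rpow_le_rpow_of_nonpos hpos hlow (by norm_num)
      _ = (C / volB 1 * (r / 2) ^ (-(3 + 1 / 32 : ℝ))) * ((2:ℝ) ^ k) ^ (-(3 + 1 / 32 : ℝ)) := by
          rw [Real.mul_rpow (by positivity) (by positivity)]
          ring
      _ ≤ (C / volB 1 * (r / 2) ^ (-(3 + 1 / 32 : ℝ))) * (1 / 2) ^ k := by
          refine mul_le_mul_of_nonneg_left ?_ (by positivity)
          have h2k : (1:ℝ) ≤ 2 ^ k := one_le_pow₀ (by norm_num)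
          calc ((2:ℝ) ^ k) ^ (-(3 + 1 / 32 : ℝ)) ≤ ((2:ℝ) ^ k) ^ (-1 : ℝ) :=
                Real.rpow_le_rpow_of_exponent_le h2k (by norm_num)
            _ = (1 / 2) ^ k := by
                rw [Real.rpow_neg_one]
                simp
  have hgeo : Summable (fun k : ℕ => (C / volB 1 * (r / 2) ^ (-(3 + 1 / 32 : ℝ))) * (1 / 2 : ℝ) ^ k) :=
    (summable_geometric_of_lt_one (by norm_num) (by norm_num)).mul_left _
  have hs' : Summable (fun k => w (k + j0) * KK (L (k + j0)) r) :=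
    (summable_nat_add_iff j0).mpr hs
  rw [h1]
  calc ∑' k, w (k + j0) * KK (L (k + j0)) r
      ≤ ∑' k : ℕ, (C / volB 1 * (r / 2) ^ (-(3 + 1 / 32 : ℝ))) * (1 / 2 : ℝ) ^ k :=
        hs'.tsum_le_tsum hterm hgeo
    _ = (C / volB 1 * (r / 2) ^ (-(3 + 1 / 32 : ℝ))) * 2 := by
        rw [tsum_mul_left, tsum_geometric_of_lt_one (by norm_num) (by norm_num)]
        norm_num
    _ = C / volB 1 * (2 * 2 ^ (3 + 1 / 32 : ℝ)) * r ^ (-(3 + 1 / 32 : ℝ)) := by
        rw [show r / 2 = r * (1 / 2) by ring, Real.mul_rpow hr0.le (by norm_num)]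
        have : ((1:ℝ) / 2) ^ (-(3 + 1 / 32 : ℝ)) = 2 ^ (3 + 1 / 32 : ℝ) := by
          rw [one_div, Real.inv_rpow (by norm_num), Real.rpow_neg (by norm_num), inv_inv]
        rw [this]
        ring

end Crest.Agent.Gas
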