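import Crest.Agent.GasThermo
import Crest.Agent.GasFamily

/-! Module J2 (GasFam2): free energy of the family. -/

set_option autoImplicit false

namespace Crest.Agent.Gas

open MeasureTheory Crest.ProbabilityR.Continuum Filter

structure CoreSetup (φ : ℝ → ℝ) (A r t sa sc sd a0 : ℝ) (m : ℕ) (L : ℕ → ℝ) : Prop where
  hm : 1 ≤ m
  core : IsCore φ A r t sa sc sd
  cap : HasCap m sa
  r_pos : 0 < r
  r_lt : 2 * r < 1 - t
  t_pos : 0 < t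
  t_le : t ≤ 1 / 10
  a0_nonneg : 0 ≤ a0
  hA : 4 * m * a0 ≤ A
  hL : ∀ j, 100 ≤ L j

section

variable {φ : ℝ → ℝ} {A r t sa sc sd a0 : ℝ} {m : ℕ} {L : ℕ → ℝ}

theorem CoreSetup.adm (S : CoreSetup φ A r t sa sc sd a0 m L) {w : ℕ → ℝ} (hw0 : ∀ j, 0 ≤ w j)
    (hw : Summable w) (hwa : 9 / 2 * ∑' j, w j ≤ a0) {β : ℝ} (hβ : 0 < β) :
    Adm (fun r => β * fam φ w L r) :=
  Adm_fam S.hm S.core S.cap S.r_pos S.r_lt S.t_pos S.t_le S.a0_nonneg S.hA hw0 hw S.hL hwa hβ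

theorem pairE_smul_fam (β : ℝ) (u : ℝ → ℝ) {N : ℕ} (x : Fin N → Pt) :
    pairE (rad (fun r => β * u r)) x = β * pairE (rad u) x := by
  have := pairE_lin β 0 (rad u) (rad u) x
  have e : (fun a b => β * rad u a b + 0 * rad u a b) = rad (fun r => β * u r) := by
    funext a b
    simp only [rad]
    ring
  rw [e] at this
  rw [this]; ring

/-- elementary: `ρ log ρ - ρ ≥ -1` -/
theorem xlogx_ge {ρ : ℝ} (hρ : 0 < ρ) : -1 ≤ ρ * Real.log ρ - ρ := by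
  have h := Real.log_le_sub_one_of_pos (x := 1 / ρ) (by positivity)
  rw [Real.log_div one_ne_zero hρ.ne', Real.log_one, zero_sub] at h
  have h2 : ρ * -Real.log ρ ≤ ρ * (1 / ρ - 1) := mul_le_mul_of_nonneg_left h hρ.le
  have h3 : ρ * (1 / ρ - 1) = 1 - ρ := by field_simp
  linarith

theorem xlogx_le {ρ : ℝ} (hρ : 0 < ρ) : ρ * Real.log ρ - ρ ≤ ρ ^ 2 := by
  have h := Real.log_le_sub_one_of_pos hρ
  nlinarith

theorem CoreSetup.lower (S : CoreSetup φ A r t sa sc sd a0 m L) {w : ℕ → ℝ} (hw0 : ∀ j, 0 ≤ w j)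
    (hw : Summable w) (hwa : 9 / 2 * ∑' j, w j ≤ a0) {β : ℝ} (hβ : 0 < β) {ρ : ℝ} (hρ : 0 ≤ ρ) :
    β * ((a0 - 9 / 2 * ∑' j, w j) / 8 * ρ ^ 2 - 2 * m * a0 * ρ) - 1 ≤
      Fe (fun r => β * fam φ w L r) ρ := by
  have hadm := S.adm hw0 hw hwa hβ
  rcases eq_or_lt_of_le hρ with h0 | h0
  · rw [← h0, Fe_zero hadm]; norm_num
  set c := a0 - 9 / 2 * ∑' j, w j with hc
  have hc0 : 0 ≤ c := by linarith
  have ha0 := S.a0_nonneg
  have key := le_Fe_of_energy hadm (ρ := ρ) (e := β * (c / 8 * ρ ^ 2 - 2 * m * a0 * ρ)) h0 ?_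
  · have := xlogx_ge h0
    linarith
  intro δ hδ
  -- N²/((2L+1)³ L³) → ρ²/8
  have t1 : Tendsto (fun L : ℝ => ((⌊ρ * L ^ 3⌋₊ : ℕ) : ℝ) / L ^ 3) atTop (nhds ρ) := tendsto_N hρ
  have t2 : Tendsto (fun L : ℝ => (L / (2 * L + 1)) ^ 3) atTop (nhds ((1 / 2) ^ 3)) := by
    apply Tendsto.pow
    have h1 : Tendsto (fun L : ℝ => 1 / (2 + L⁻¹)) atTop (nhds (1 / (2 + 0))) := by
      apply Tendsto.div tendsto_const_nhds (tendsto_const_nhds.add tendsto_inv_atTop_zero)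
      norm_num
    have h2 : (fun L : ℝ => 1 / (2 + L⁻¹)) =ᶠ[atTop] (fun L : ℝ => L / (2 * L + 1)) := by
      filter_upwards [eventually_gt_atTop 0] with L hL
      field_simp
    have := h1.congr' h2
    simpa using this
  have t3 : Tendsto (fun L : ℝ => β * (c * ((((⌊ρ * L ^ 3⌋₊ : ℕ) : ℝ) / L ^ 3) ^ 2 *
      (L / (2 * L + 1)) ^ 3))) atTop (nhds (β * (c * (ρ ^ 2 * (1 / 2) ^ 3)))) :=
    tendsto_const_nhds.mul (tendsto_const_nhds.mul ((t1.pow 2).mul t2))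
  have e1 : β * (c * (ρ ^ 2 * (1 / 2) ^ 3)) = β * (c / 8 * ρ ^ 2) := by ring
  rw [e1] at t3
  have h3 := (tendsto_order.1 t3).1 (β * (c / 8 * ρ ^ 2) - δ) (by linarith)
  filter_upwards [h3, eventually_gt_atTop 0] with L' hL' hL0 x hx
  rw [pairE_smul_fam]
  have h4 := fam_superstable S.hm S.core S.cap S.r_pos S.r_lt S.t_pos S.t_le S.a0_nonneg S.hA hw0
    hw S.hL x
  rw [← hc] at h4
  have h5 := Qc_ge hL0.le x hx
  have h6 := mul_le_mul_of_nonneg_left h5 hc0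
  have hN : ((⌊ρ * L' ^ 3⌋₊ : ℕ) : ℝ) ≤ ρ * L' ^ 3 := Nat.floor_le (by positivity)
  set N : ℝ := ((⌊ρ * L' ^ 3⌋₊ : ℕ) : ℝ) with hNdef
  have e2 : c * ((N / L' ^ 3) ^ 2 * (L' / (2 * L' + 1)) ^ 3) * L' ^ 3 =
      c * (N ^ 2 / (2 * L' + 1) ^ 3) := by
    field_simp
  have h7 : (β * (c / 8 * ρ ^ 2) - δ) * L' ^ 3 ≤ β * (c * (N ^ 2 / (2 * L' + 1) ^ 3)) := by
    have := mul_le_mul_of_nonneg_right hL'.le (by positivity : 0 ≤ L' ^ 3)
    calc _ ≤ _ := this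
      _ = β * (c * ((N / L' ^ 3) ^ 2 * (L' / (2 * L' + 1)) ^ 3) * L' ^ 3) := by ring
      _ = _ := by rw [e2]
  have h8 : (2 * m * a0) * N ≤ (2 * m * a0) * (ρ * L' ^ 3) :=
    mul_le_mul_of_nonneg_left hN (by positivity)
  have h9 : c * (N ^ 2 / (2 * L' + 1) ^ 3) - 2 * m * a0 * (ρ * L' ^ 3) ≤
      pairE (rad (fam φ w L)) x := by linarith
  have h10 := mul_le_mul_of_nonneg_left h9 hβ.le
  nlinarith

theorem CoreSetup.adm0 (S : CoreSetup φ A r t sa sc sd a0 m L) {β : ℝ} (hβ : 0 < β) :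
    Adm (fun r => β * φ r) := by
  have := S.adm (w := fun _ => 0) (fun _ => le_rfl) summable_zero (by
    simpa using S.a0_nonneg) hβ
  simpa [fam] using this

theorem CoreSetup.mono (S : CoreSetup φ A r t sa sc sd a0 m L) {w w' : ℕ → ℝ}
    (hw0 : ∀ j, 0 ≤ w j) (hww : ∀ j, w j ≤ w' j)
    (hw' : Summable w') (hwa : 9 / 2 * ∑' j, w' j ≤ a0) {β : ℝ} (hβ : 0 < β) {ρ : ℝ}
    (hρ : 0 ≤ ρ) :
    Fe (fun r => β * fam φ w' L r) ρ ≤ Fe (fun r => β * fam φ w L r) ρ := by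
  have hw'0 : ∀ j, 0 ≤ w' j := fun j => (hw0 j).trans (hww j)
  have hw : Summable w := Summable.of_nonneg_of_le hw0 hww hw'
  have hwa0 : 9 / 2 * ∑' j, w j ≤ a0 := by
    have : ∑' j, w j ≤ ∑' j, w' j := hw.tsum_le_tsum hww hw'
    linarith
  apply Fe_mono (S.adm hw'0 hw' hwa hβ) (S.adm hw0 hw hwa0 hβ) _ hρ
  intro s _
  apply mul_le_mul_of_nonneg_left _ hβ.le
  unfold fam
  have : ∑' j, w j * KK (L j) s ≤ ∑' j, w' j * KK (L j) s :=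
    (summable_fam hw0 hw S.hL s).tsum_le_tsum
      (fun j => mul_le_mul_of_nonneg_right (hww j) (KK_nonneg _ _)) (summable_fam hw'0 hw' S.hL s)
  linarith

theorem CoreSetup.upper (S : CoreSetup φ A r t sa sc sd a0 m L) {K : ℝ} (hK0 : 0 ≤ K)
    (hK : ∫⁻ z : Pt, ENNReal.ofReal (φ ‖z‖) ≤ ENNReal.ofReal K) {w : ℕ → ℝ}
    (hw0 : ∀ j, 0 ≤ w j) (hw : Summable w) (hwa : 9 / 2 * ∑' j, w j ≤ a0) {β : ℝ} (hβ : 0 < β)
    {ρ : ℝ} (hρ : 0 ≤ ρ) :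
    Fe (fun r => β * fam φ w L r) ρ ≤ ρ ^ 2 + β * K * ρ ^ 2 / 2 := by
  rcases eq_or_lt_of_le hρ with h0 | h0
  · rw [← h0, Fe_zero (S.adm hw0 hw hwa hβ)]; norm_num
  have h1 := S.mono (w := fun _ => 0) (fun _ => le_rfl) hw0 hw hwa hβ hρ
  have h2 : Fe (fun r => β * fam φ (fun _ => 0) L r) ρ = Fe (fun r => β * φ r) ρ := by
    simp [fam]
  rw [h2] at h1
  have h3 := Fe_upper (S.adm0 hβ) (K := β * K) (by positivity) (by
    calc ∫⁻ z : Pt, ENNReal.ofReal (β * φ ‖z‖)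
        = ∫⁻ z : Pt, ENNReal.ofReal β * ENNReal.ofReal (φ ‖z‖) := by
          apply lintegral_congr
          intro z
          rw [ENNReal.ofReal_mul hβ.le]
      _ = ENNReal.ofReal β * ∫⁻ z : Pt, ENNReal.ofReal (φ ‖z‖) :=
          lintegral_const_mul' _ _ ENNReal.ofReal_ne_top
      _ ≤ ENNReal.ofReal β * ENNReal.ofReal K := by gcongr
      _ = ENNReal.ofReal (β * K) := by rw [ENNReal.ofReal_mul hβ.le]) h0
  have h4 := xlogx_le h0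
  linarith

theorem CoreSetup.concave (S : CoreSetup φ A r t sa sc sd a0 m L) {w : ℕ → ℝ}
    (hw0 : ∀ j, 0 ≤ w j) (hw : Summable w) (hwa : 9 / 2 * ∑' j, w j ≤ a0) {ρ : ℝ} (hρ : 0 ≤ ρ) :
    ConcaveOn ℝ (Set.Ioi 0) (fun β => Fe (fun r => β * fam φ w L r) ρ) := by
  refine ⟨convex_Ioi 0, ?_⟩
  intro x hx y hy a b ha hb hab
  have h1 : a = 1 - b := by linarith
  have h2 : b ≤ 1 := by linarith
  have := Fe_concave (S.adm hw0 hw hwa hx) (S.adm hw0 hw hwa hy) hb h2 hρ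
  simp only [smul_eq_mul]
  rw [h1]
  refine this.trans (le_of_eq ?_)
  congr 1
  funext s
  ring

theorem CoreSetup.mix (S : CoreSetup φ A r t sa sc sd a0 m L) {w w' : ℕ → ℝ}
    (hw0 : ∀ j, 0 ≤ w j) (hw : Summable w) (hwa : 9 / 2 * ∑' j, w j ≤ a0)
    (hw0' : ∀ j, 0 ≤ w' j) (hw' : Summable w') (hwa' : 9 / 2 * ∑' j, w' j ≤ a0)
    {s : ℝ} (hs0 : 0 ≤ s) (hs1 : s ≤ 1) {β : ℝ} (hβ : 0 < β) {ρ : ℝ} (hρ : 0 ≤ ρ) :
    (1 - s) * Fe (fun r => β * fam φ w L r) ρ + s * Fe (fun r => β * fam φ w' L r) ρ ≤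
      Fe (fun r => β * fam φ (fun j => (1 - s) * w j + s * w' j) L r) ρ := by
  have := Fe_concave (S.adm hw0 hw hwa hβ) (S.adm hw0' hw' hwa' hβ) hs0 hs1 hρ
  refine this.trans (le_of_eq ?_)
  congr 1
  funext x
  unfold fam
  have h1 := summable_fam hw0 hw S.hL x
  have h2 := summable_fam hw0' hw' S.hL x
  have h3 : ∑' j, ((1 - s) * w j + s * w' j) * KK (L j) x =
      (1 - s) * ∑' j, w j * KK (L j) x + s * ∑' j, w' j * KK (L j) x := by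
    rw [← tsum_mul_left, ← tsum_mul_left, ← (h1.mul_left _).tsum_add (h2.mul_left _)]
    congr 1
    funext j
    ring
  rw [h3]
  ring

/-- truncation of the weights -/
noncomputable def wtr (ε : ℕ → ℝ) (k : ℕ) : ℕ → ℝ := fun j => if j < k then ε j else 0

theorem wtr_nonneg {ε : ℕ → ℝ} (h : ∀ j, 0 ≤ ε j) (k j : ℕ) : 0 ≤ wtr ε k j := by
  unfold wtr; split_ifs <;> simp [h]

theorem wtr_le {ε : ℕ → ℝ} (h : ∀ j, 0 ≤ ε j) (k j : ℕ) : wtr ε k j ≤ ε j := by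
  unfold wtr; split_ifs <;> simp [h]

theorem summable_wtr (ε : ℕ → ℝ) (k : ℕ) : Summable (wtr ε k) := by
  apply summable_of_ne_finset_zero (s := Finset.range k)
  intro b hb
  simp only [Finset.mem_range, not_lt] at hb
  simp [wtr, Nat.not_lt.2 hb]

theorem tsum_wtr_mul (ε g : ℕ → ℝ) (k : ℕ) :
    ∑' j, wtr ε k j * g j = ∑ j ∈ Finset.range k, ε j * g j := by
  rw [tsum_eq_sum (s := Finset.range k)]
  · apply Finset.sum_congr rfl
    intro j hj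
    simp [wtr, Finset.mem_range.1 hj]
  · intro b hb
    simp only [Finset.mem_range, not_lt] at hb
    simp [wtr, Nat.not_lt.2 hb]

theorem tsum_wtr (ε : ℕ → ℝ) (k : ℕ) : ∑' j, wtr ε k j = ∑ j ∈ Finset.range k, ε j := by
  have := tsum_wtr_mul ε (fun _ => 1) k
  simpa using this

theorem fam_wtr_succ (φ : ℝ → ℝ) (ε L : ℕ → ℝ) (k : ℕ) (x : ℝ) :
    fam φ (wtr ε (k + 1)) L x = fam φ (wtr ε k) L x - ε k * KK (L k) x := by
  unfold fam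
  rw [tsum_wtr_mul, tsum_wtr_mul, Finset.sum_range_succ]
  ring

theorem fam_wtr_zero (φ : ℝ → ℝ) (ε L : ℕ → ℝ) (x : ℝ) : fam φ (wtr ε 0) L x = φ x := by
  unfold fam
  rw [tsum_wtr_mul]
  simp

end

end Crest.Agent.Gas
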