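import Crest.Agent.GasAsm3
import Crest.Agent.GasCores

/-! Module Y4 (GasFinal): final facts about the total potential, used by S0209 and S0210. -/

set_option autoImplicit false

namespace Crest.Agent.Gas

open MeasureTheory Crest.ProbabilityR.Continuum Filter Set

theorem tendsto_f {u : ℝ → ℝ} (hu : Measurable u) {β ρ : ℝ} (hadm : Adm (fun x => β * u x))
    (hρ : 0 ≤ ρ) :
    Tendsto (fun L : ℝ => -(1 / (β * L ^ 3)) *
      Real.log (partitionFn u L ⌊ρ * L ^ 3⌋₊ β)) atTop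
      (nhds (1 / β * Fe (fun x => β * u x) ρ)) := by
  have h := (hadm.tendsto_Fe hρ).const_mul (1 / β)
  refine h.congr ?_
  intro L
  rw [partitionFn_eq hu]
  unfold feL
  rw [one_div_mul_eq_div, div_div, one_div, neg_mul, neg_div, mul_comm (L ^ 3) β,
    inv_mul_eq_div]

section

variable {φ : ℝ → ℝ} {A r t0 sa sc sd a0 : ℝ} {m : ℕ} {L ε : ℕ → ℝ}

theorem CoreSetup.meas_tot (S : CoreSetup φ A r t0 sa sc sd a0 m L) (hε0 : ∀ j, 0 < ε j)
    (hε : Summable ε) : Measurable (fam φ ε L) :=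
  S.core.meas.sub (continuous_tail (fun j => (hε0 j).le) hε S.hL).measurable

theorem CoreSetup.stable_tot (S : CoreSetup φ A r t0 sa sc sd a0 m L) (hε0 : ∀ j, 0 < ε j)
    (hε : Summable ε) (hεa : 9 / 2 * ∑' j, ε j ≤ a0) :
    ∃ B : ℝ, ∀ (N : ℕ) (x : Fin N → Pt), -B * N ≤ energy (fam φ ε L) x := by
  refine ⟨2 * m * a0, ?_⟩
  intro N x
  rw [energy_eq_pairE]
  have h1 := fam_superstable S.hm S.core S.cap S.r_pos S.r_lt S.t_pos S.t_le S.a0_nonneg S.hA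
    (fun j => (hε0 j).le) hε S.hL x
  have hQ := famaux_Qc_nonneg (1 / 2) 0 x
  have h2 : 0 ≤ (a0 - 9 / 2 * ∑' j, ε j) * Qc (1 / 2) 0 x :=
    mul_nonneg (by linarith) hQ
  linarith

theorem tail_le {L : ℕ → ℝ} (hL : ∀ j, 100 ≤ L j) (hε0 : ∀ j, 0 < ε j)
    (hε : Summable ε) (x : ℝ) : ∑' j, ε j * KK (L j) x ≤ (∑' j, ε j) * (1 / volB 1) := by
  rw [← tsum_mul_right]
  apply (summable_fam (fun j => (hε0 j).le) hε hL x).tsum_le_tsum _ (hε.mul_right _)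
  intro j
  exact mul_le_mul_of_nonneg_left (famaux_KK_le (hL j) x) (hε0 j).le

theorem CoreSetup.decay_tot (S : CoreSetup φ A r t0 sa sc sd a0 m L) (hε0 : ∀ j, 0 < ε j)
    (hε : Summable ε) (hLL : ∀ j, 2 * L j ≤ L (j + 1))
    (hdec : ∃ C : ℝ, ∀ j, ε j ≤ C * (L j) ^ (-(1 / 32 : ℝ))) :
    ∃ C : ℝ, 0 ≤ C ∧ ∀ x : ℝ, 1 ≤ x → |fam φ ε L x| ≤ C * x ^ (-(3 + 1 / 32 : ℝ)) := by
  obtain ⟨C, hC⟩ := hdec
  obtain ⟨C', hC'⟩ := tail_decay (fun j => (hε0 j).le) hε S.hL hLL hC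
  have h0 : 0 ≤ C' := by
    have := hC' 1 le_rfl
    rw [Real.one_rpow, mul_one] at this
    exact (tail_nonneg (L := L) (fun j => (hε0 j).le) 1).trans this
  refine ⟨C', h0, ?_⟩
  intro x hx
  have h1 : fam φ ε L x = -(∑' j, ε j * KK (L j) x) := by
    unfold fam
    rw [S.core.far x hx]
    ring
  rw [h1, abs_neg, abs_of_nonneg (tail_nonneg (L := L) (fun j => (hε0 j).le) x)]
  exact hC' x hx

theorem CoreSetup.jump (S : CoreSetup φ A r t0 sa sc sd a0 m L) (hε0 : ∀ j, 0 < ε j)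
    (hε : Summable ε) (hεa : 9 / 2 * ∑' j, ε j ≤ a0) {tc ρ eL eR : ℝ} (h1 : 15 / 16 ≤ tc)
    (h2 : tc ≤ 17 / 16) (hρ : 0 ≤ ρ) (he : eR < eL)
    (hl : ∀ t, 7 / 8 ≤ t → t < tc → Fe (fun x => t * fam φ ε L x) ρ ≤
            Fe (fun x => tc * fam φ ε L x) ρ - eL * (tc - t))
    (hr : ∀ t, tc < t → t ≤ 9 / 8 → Fe (fun x => t * fam φ ε L x) ρ ≤
            Fe (fun x => tc * fam φ ε L x) ρ + eR * (t - tc)) :
    ∃ Dl Dr : ℝ,
      HasDerivWithinAt (fun β => 1 / β * Fe (fun x => β * fam φ ε L x) ρ) Dl (Iio tc) tc ∧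
      HasDerivWithinAt (fun β => 1 / β * Fe (fun x => β * fam φ ε L x) ρ) Dr (Ioi tc) tc ∧
      Dr < Dl :=
  deriv_jump (S.concave (fun j => (hε0 j).le) hε hεa hρ) (by norm_num) (by linarith)
    (by linarith) he hl hr

end

end Crest.Agent.Gas
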