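import Crest.Agent.GasBasic

/-! Module A7/A8 (GasHolder): Hölder and adding a particle. -/

set_option autoImplicit false

namespace Crest.Agent.Gas

open MeasureTheory Crest.ProbabilityR.Continuum

/-- Log-convexity in the interaction (Hölder). -/
theorem Zf_holder {U V : Pt → Pt → ℝ} (hU : Measurable (Function.uncurry U))
    (hV : Measurable (Function.uncurry V)) {D : Set Pt} (N : ℕ) {t : ℝ} (ht0 : 0 ≤ t)
    (ht1 : t ≤ 1) :
    Zf (fun a b => (1 - t) * U a b + t * V a b) D N ≤ (Zf U D N) ^ (1 - t) * (Zf V D N) ^ t := by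
  have hpair : ∀ x : Fin N → Pt,
      ENNReal.ofReal (Real.exp (-(pairE (fun a b => (1 - t) * U a b + t * V a b) x))) =
        ENNReal.ofReal (Real.exp (-(pairE U x))) ^ (1 - t) *
          ENNReal.ofReal (Real.exp (-(pairE V x))) ^ t := by
    intro x
    rw [pairE_lin (1 - t) t U V x, ENNReal.ofReal_rpow_of_pos (Real.exp_pos _),
      ENNReal.ofReal_rpow_of_pos (Real.exp_pos _), ← ENNReal.ofReal_mul (by positivity),
      ← Real.exp_mul, ← Real.exp_mul, ← Real.exp_add]
    congr 2
    ring
  have hmU : Measurable (fun x : Fin N → Pt => ENNReal.ofReal (Real.exp (-(pairE U x)))) :=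
    (Real.measurable_exp.comp (measurable_pairE hU).neg).ennreal_ofReal
  have hmV : Measurable (fun x : Fin N → Pt => ENNReal.ofReal (Real.exp (-(pairE V x)))) :=
    (Real.measurable_exp.comp (measurable_pairE hV).neg).ennreal_ofReal
  have h1t : 0 ≤ 1 - t := by linarith
  unfold Zf
  simp_rw [hpair]
  have hH := ENNReal.lintegral_mul_norm_pow_le
    (μ := volume.restrict (Set.pi Set.univ (fun _ : Fin N => D)))
    hmU.aemeasurable hmV.aemeasurable h1t ht0 (by ring)
  rw [ENNReal.mul_rpow_of_nonneg _ _ h1t, ENNReal.mul_rpow_of_nonneg _ _ ht0]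
  have hc : (((N.factorial : ℕ) : ENNReal)⁻¹) =
      (((N.factorial : ℕ) : ENNReal)⁻¹) ^ (1 - t) * (((N.factorial : ℕ) : ENNReal)⁻¹) ^ t := by
    rw [← ENNReal.rpow_add_of_nonneg _ _ h1t ht0]
    simp
  calc (((N.factorial : ℕ) : ENNReal)⁻¹) * _ ≤ (((N.factorial : ℕ) : ENNReal)⁻¹) *
        ((∫⁻ x in Set.pi Set.univ (fun _ : Fin N => D), ENNReal.ofReal (Real.exp (-(pairE U x)))) ^ (1 - t)
        * (∫⁻ x in Set.pi Set.univ (fun _ : Fin N => D),
          ENNReal.ofReal (Real.exp (-(pairE V x)))) ^ t) := by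
        gcongr
    _ = _ := by
        conv_lhs => rw [hc]
        ring

theorem pairE_cons (u : ℝ → ℝ) {N : ℕ} (y : Pt) (x : Fin N → Pt) :
    pairE (rad u) (Fin.cons y x : Fin (N + 1) → Pt) =
      pairE (rad u) x + ∑ i, u (dist y (x i)) := by
  unfold pairE rad
  simp only [Fin.sum_univ_succ, Fin.cons_zero, Fin.cons_succ, Finset.sum_add_distrib]
  have : ∑ i, u (dist (x i) y) = ∑ i, u (dist y (x i)) := by
    simp_rw [dist_comm]
  rw [this]
  ring

/-- The one-particle integral in the field of the others. -/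
theorem lintegral_one_ge {u : ℝ → ℝ} (hu : Measurable u) {K : ℝ} (hK0 : 0 ≤ K)
    (hK : ∫⁻ z : Pt, ENNReal.ofReal (u ‖z‖) ≤ ENNReal.ofReal K) {D : Set Pt}
    {V : ℝ} (hV : 0 < V) (hDV : volume D = ENNReal.ofReal V) {N : ℕ}
    (x : Fin N → Pt) :
    ENNReal.ofReal (V * Real.exp (-(N * K / V))) ≤
      ∫⁻ y in D, ENNReal.ofReal (Real.exp (-(∑ i, u (dist y (x i))))) := by
  set a : ℝ := N * K / V with ha
  have ha0 : 0 ≤ a := by positivity
  set w : Pt → ENNReal := fun y => ∑ i, ENNReal.ofReal (u (dist y (x i))) with hw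
  have hwm : Measurable w := by
    refine Finset.measurable_sum _ (fun i _ => ?_)
    exact (hu.comp (measurable_id.dist measurable_const)).ennreal_ofReal
  -- integral of w
  have hwint : ∫⁻ y in D, w y ≤ ENNReal.ofReal (N * K) := by
    have hsum : ∫⁻ y in D, w y = ∑ i, ∫⁻ y in D, ENNReal.ofReal (u (dist y (x i))) := by
      rw [hw]
      exact lintegral_finsetSum _
        (fun i _ => (hu.comp (measurable_id.dist measurable_const)).ennreal_ofReal)
    rw [hsum]
    have h1 : ∀ i : Fin N, ∫⁻ y in D, ENNReal.ofReal (u (dist y (x i))) ≤ ENNReal.ofReal K := by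
      intro i
      refine le_trans (setLIntegral_le_lintegral _ _) ?_
      refine le_trans (le_of_eq ?_) hK
      have := lintegral_sub_right_eq_self (μ := (volume : Measure Pt))
        (fun z : Pt => ENNReal.ofReal (u ‖z‖)) (x i)
      rw [← this]
      refine lintegral_congr (fun y => ?_)
      rw [dist_eq_norm]
    refine le_trans (Finset.sum_le_sum (fun i _ => h1 i)) ?_
    rw [Finset.sum_const, Finset.card_univ, Fintype.card_fin, nsmul_eq_mul,
      ENNReal.ofReal_mul (by positivity), ENNReal.ofReal_natCast]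
  -- pointwise tangent line inequality
  have hpt : ∀ y : Pt, ENNReal.ofReal (Real.exp (-a) * (1 + a)) ≤
      ENNReal.ofReal (Real.exp (-(∑ i, u (dist y (x i))))) + ENNReal.ofReal (Real.exp (-a)) * w y := by
    intro y
    have hsum : w y = ENNReal.ofReal (∑ i, max (u (dist y (x i))) 0) := by
      rw [ENNReal.ofReal_sum_of_nonneg (fun i _ => le_max_right _ _)]
      refine Finset.sum_congr rfl (fun i _ => ?_)
      rw [ENNReal.ofReal_max]
      simp
    rw [hsum, ← ENNReal.ofReal_mul (Real.exp_pos _).le, ← ENNReal.ofReal_add (Real.exp_pos _).le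
      (mul_nonneg (Real.exp_pos _).le (Finset.sum_nonneg (fun i _ => le_max_right _ _)))]
    apply ENNReal.ofReal_le_ofReal
    set W := ∑ i, max (u (dist y (x i))) 0 with hW
    have hle : ∑ i, u (dist y (x i)) ≤ W := Finset.sum_le_sum (fun i _ => le_max_left _ _)
    have h1 : Real.exp (-W) ≤ Real.exp (-(∑ i, u (dist y (x i)))) :=
      Real.exp_le_exp.mpr (by linarith)
    have h2 : Real.exp (-a) * (1 + a - W) ≤ Real.exp (-W) := by
      have h3 : (1 + a - W) ≤ Real.exp (a - W) := by
        have := Real.add_one_le_exp (a - W)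
        linarith
      calc Real.exp (-a) * (1 + a - W) ≤ Real.exp (-a) * Real.exp (a - W) := by
            gcongr
        _ = Real.exp (-W) := by
            rw [← Real.exp_add]; congr 1; ring
    nlinarith
  -- integrate
  have hint : ENNReal.ofReal (Real.exp (-a) * (1 + a)) * volume D ≤
      (∫⁻ y in D, ENNReal.ofReal (Real.exp (-(∑ i, u (dist y (x i)))))) +
        ENNReal.ofReal (Real.exp (-a)) * ENNReal.ofReal (N * K) := by
    calc ENNReal.ofReal (Real.exp (-a) * (1 + a)) * volume D
        = ∫⁻ _y in D, ENNReal.ofReal (Real.exp (-a) * (1 + a)) := by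
          rw [setLIntegral_const]
      _ ≤ ∫⁻ y in D, (ENNReal.ofReal (Real.exp (-(∑ i, u (dist y (x i))))) +
            ENNReal.ofReal (Real.exp (-a)) * w y) := lintegral_mono (fun y => hpt y)
      _ = (∫⁻ y in D, ENNReal.ofReal (Real.exp (-(∑ i, u (dist y (x i)))))) +
            ENNReal.ofReal (Real.exp (-a)) * ∫⁻ y in D, w y := by
          rw [lintegral_add_right _ (hwm.const_mul _), lintegral_const_mul _ hwm]
      _ ≤ _ := by gcongr
  rw [hDV, ← ENNReal.ofReal_mul (by positivity), ← ENNReal.ofReal_mul (by positivity)] at hint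
  have hfin : ENNReal.ofReal (Real.exp (-a) * (N * K)) ≠ ⊤ := ENNReal.ofReal_ne_top
  have hkey : ENNReal.ofReal (V * Real.exp (-a)) + ENNReal.ofReal (Real.exp (-a) * (N * K)) =
      ENNReal.ofReal (Real.exp (-a) * (1 + a) * V) := by
    rw [← ENNReal.ofReal_add (by positivity) (by positivity)]
    congr 1
    have : a * V = N * K := by rw [ha]; field_simp
    calc V * Real.exp (-a) + Real.exp (-a) * (N * K) = Real.exp (-a) * (V + N * K) := by ring
      _ = Real.exp (-a) * (V + a * V) := by rw [this]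
      _ = _ := by ring
  rw [← hkey] at hint
  exact (ENNReal.add_le_add_iff_right hfin).mp hint

/-- Adding a particle (Jensen in the position of the new particle):
`Z(D; N+1) ≥ Z(D; N) * (V/(N+1)) * exp(-N K / V)`, `K ≥ ∫ u⁺`, `V = |D|`. -/
theorem Zf_succ_ge {u : ℝ → ℝ} (hu : Measurable u) {K : ℝ} (hK0 : 0 ≤ K)
    (hK : ∫⁻ z : Pt, ENNReal.ofReal (u ‖z‖) ≤ ENNReal.ofReal K) {D : Set Pt}
    (hD : MeasurableSet D) {V : ℝ} (hV : 0 < V) (hDV : volume D = ENNReal.ofReal V) (N : ℕ) :
    Zf (rad u) D N * ENNReal.ofReal (V / (N + 1) * Real.exp (-(N * K / V))) ≤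
      Zf (rad u) D (N + 1) := by
  have hm : Measurable (fun x : Fin (N + 1) → Pt =>
      ENNReal.ofReal (Real.exp (-(pairE (rad u) x)))) :=
    (Real.measurable_exp.comp (measurable_pairE (measurable_rad hu)).neg).ennreal_ofReal
  have hm' : Measurable (fun x : Fin N → Pt =>
      ENNReal.ofReal (Real.exp (-(pairE (rad u) x)))) :=
    (Real.measurable_exp.comp (measurable_pairE (measurable_rad hu)).neg).ennreal_ofReal
  -- the (N+1)-fold integral
  have hpres := volume_preserving_piFinSuccAbove (fun _ : Fin (N + 1) => Pt) 0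
  have hsplit : ∫⁻ x in Set.pi Set.univ (fun _ : Fin (N + 1) => D),
      ENNReal.ofReal (Real.exp (-(pairE (rad u) x))) =
      ∫⁻ x in Set.pi Set.univ (fun _ : Fin N => D), ∫⁻ y in D,
        ENNReal.ofReal (Real.exp (-(pairE (rad u) (Fin.cons y x : Fin (N + 1) → Pt)))) := by
    set e := MeasurableEquiv.piFinSuccAbove (fun _ : Fin (N + 1) => Pt) 0 with he
    have hpre : Set.pi Set.univ (fun _ : Fin (N + 1) => D) =
        e ⁻¹' (D ×ˢ Set.pi Set.univ (fun _ : Fin N => D)) := by
      ext x
      simp only [Set.mem_pi, Set.mem_univ, forall_true_left, Set.mem_preimage, Set.mem_prod]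
      constructor
      · intro h
        exact ⟨h _, fun j => h _⟩
      · rintro ⟨h0, h1⟩ i
        refine Fin.cases ?_ (fun j => ?_) i
        · exact h0
        · exact h1 j
    have hxe : ∀ x : Fin (N + 1) → Pt, ENNReal.ofReal (Real.exp (-(pairE (rad u) x))) =
        (fun p : Pt × (Fin N → Pt) =>
          ENNReal.ofReal (Real.exp (-(pairE (rad u) (Fin.cons p.1 p.2 : Fin (N + 1) → Pt))))) (e x) := by
      intro x
      have : (Fin.cons (e x).1 (e x).2 : Fin (N + 1) → Pt) = x := by
        have h2 : (e x).1 = x 0 := rfl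
        have h3 : (e x).2 = fun j => x (Fin.succ j) := rfl
        rw [h2, h3]
        exact Fin.cons_self_tail x
      simp only [this]
    rw [hpre, setLIntegral_congr_fun (e.measurable (hD.prod (MeasurableSet.univ_pi (fun _ => hD))))
      (fun x _ => hxe x)]
    refine (hpres.setLIntegral_comp_preimage_emb e.measurableEmbedding
      (fun p : Pt × (Fin N → Pt) =>
          ENNReal.ofReal (Real.exp (-(pairE (rad u) (Fin.cons p.1 p.2 : Fin (N + 1) → Pt)))))
      (D ×ˢ Set.pi Set.univ (fun _ : Fin N => D))).trans ?_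
    rw [Measure.volume_eq_prod, ← Measure.prod_restrict]
    rw [lintegral_prod_symm]
    have : Measurable (fun p : Pt × (Fin N → Pt) =>
          ENNReal.ofReal (Real.exp (-(pairE (rad u) (Fin.cons p.1 p.2 : Fin (N + 1) → Pt))))) := by
      have hcomp : (fun p : Pt × (Fin N → Pt) =>
          ENNReal.ofReal (Real.exp (-(pairE (rad u) (Fin.cons p.1 p.2 : Fin (N + 1) → Pt))))) =
          (fun x : Fin (N + 1) → Pt =>
            ENNReal.ofReal (Real.exp (-(pairE (rad u) x)))) ∘ (fun p => e.symm p) := by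
        funext p
        have : (Fin.cons p.1 p.2 : Fin (N + 1) → Pt) = e.symm p := by
          apply e.injective
          rw [e.apply_symm_apply]
          rfl
        simp [this]
      rw [hcomp]
      exact hm.comp e.symm.measurable
    exact this.aemeasurable
  unfold Zf
  rw [hsplit]
  have hfac : (((N + 1).factorial : ℕ) : ENNReal)⁻¹ =
      (((N.factorial : ℕ) : ENNReal)⁻¹) * ENNReal.ofReal (1 / ((N : ℝ) + 1)) := by
    rw [Nat.factorial_succ, Nat.cast_mul, ENNReal.mul_inv (by left; positivity) (by left; simp)]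
    rw [mul_comm]
    congr 1
    rw [one_div, ENNReal.ofReal_inv_of_pos (by positivity)]
    congr 1
    rw [ENNReal.ofReal_add (by positivity) (by norm_num), ENNReal.ofReal_natCast, ENNReal.ofReal_one]
    push_cast
    rfl
  rw [hfac]
  have hstep : ∀ x : Fin N → Pt, ENNReal.ofReal (Real.exp (-(pairE (rad u) x))) *
      ENNReal.ofReal (V * Real.exp (-(N * K / V))) ≤ ∫⁻ y in D,
        ENNReal.ofReal (Real.exp (-(pairE (rad u) (Fin.cons y x : Fin (N + 1) → Pt)))) := by
    intro x
    have : ∀ y : Pt, ENNReal.ofReal (Real.exp (-(pairE (rad u) (Fin.cons y x : Fin (N + 1) → Pt)))) =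
        ENNReal.ofReal (Real.exp (-(pairE (rad u) x))) *
          ENNReal.ofReal (Real.exp (-(∑ i, u (dist y (x i))))) := by
      intro y
      rw [pairE_cons, ← ENNReal.ofReal_mul (Real.exp_pos _).le, ← Real.exp_add]
      congr 2
      ring
    simp_rw [this]
    rw [lintegral_const_mul]
    · gcongr
      exact lintegral_one_ge hu hK0 hK hV hDV x
    · refine (Real.measurable_exp.comp (Measurable.neg ?_)).ennreal_ofReal
      exact Finset.measurable_sum _ (fun i _ => hu.comp (measurable_id.dist measurable_const))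
  calc (((N.factorial : ℕ) : ENNReal)⁻¹ *
          ∫⁻ x in Set.pi Set.univ (fun _ : Fin N => D), ENNReal.ofReal (Real.exp (-(pairE (rad u) x)))) *
        ENNReal.ofReal (V / (N + 1) * Real.exp (-(N * K / V)))
      = (((N.factorial : ℕ) : ENNReal)⁻¹) * ENNReal.ofReal (1 / ((N : ℝ) + 1)) *
          ((∫⁻ x in Set.pi Set.univ (fun _ : Fin N => D),
            ENNReal.ofReal (Real.exp (-(pairE (rad u) x)))) *
              ENNReal.ofReal (V * Real.exp (-(N * K / V)))) := by
        have : ENNReal.ofReal (V / (N + 1) * Real.exp (-(N * K / V))) =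
            ENNReal.ofReal (1 / ((N : ℝ) + 1)) * ENNReal.ofReal (V * Real.exp (-(N * K / V))) := by
          rw [← ENNReal.ofReal_mul (by positivity)]
          congr 1
          ring
        rw [this]
        ring
    _ = (((N.factorial : ℕ) : ENNReal)⁻¹) * ENNReal.ofReal (1 / ((N : ℝ) + 1)) *
          (∫⁻ x in Set.pi Set.univ (fun _ : Fin N => D),
            ENNReal.ofReal (Real.exp (-(pairE (rad u) x))) *
              ENNReal.ofReal (V * Real.exp (-(N * K / V)))) := by
        rw [lintegral_mul_const _ hm']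
    _ ≤ _ := by
        gcongr with x
        exact hstep x

end Crest.Agent.Gas
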