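import Mathlib

/-! Module G (GasKink): abstract convex analysis for S0209/S0210. Pure real analysis. -/

set_option autoImplicit false

namespace Crest.Agent.Gas

open Set Filter

/-- `x` minimises `F t ρ - t ε ρ²/2 - μ ρ` on `[0,R]`. -/
def Contact (F : ℝ → ℝ → ℝ) (ε R t μ x : ℝ) : Prop :=
  0 ≤ x ∧ x ≤ R ∧ ∀ ρ, 0 ≤ ρ → ρ ≤ R →
    F t x - t * ε * x ^ 2 / 2 + μ * (ρ - x) ≤ F t ρ - t * ε * ρ ^ 2 / 2

theorem exists_contact {F : ℝ → ℝ → ℝ} {R : ℝ} (hR : 0 ≤ R) {t : ℝ}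
    (hF : ContinuousOn (F t) (Icc 0 R)) (ε μ : ℝ) : ∃ y, Contact F ε R t μ y := by
  have hne : (Icc (0:ℝ) R).Nonempty := ⟨0, ⟨le_rfl, hR⟩⟩
  have hc : ContinuousOn (fun ρ => F t ρ - t * ε * ρ ^ 2 / 2 - μ * ρ) (Icc 0 R) := by
    have h2 : Continuous (fun ρ : ℝ => t * ε * ρ ^ 2 / 2) := by fun_prop
    have h3 : Continuous (fun ρ : ℝ => μ * ρ) := by fun_prop
    exact (hF.sub h2.continuousOn).sub h3.continuousOn
  obtain ⟨y, hy, hmin⟩ := isCompact_Icc.exists_isMinOn hne hc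
  refine ⟨y, hy.1, hy.2, fun ρ h0 h1 => ?_⟩
  have := isMinOn_iff.1 hmin ρ ⟨h0, h1⟩
  linarith [this]

/-- All hypotheses of the abstract theorem. Level `k` has function
`G k t ρ = F k t ρ - t ε_k ρ²/2`; `F (k+1)` is close to the convex hull of `G k`. -/
structure KinkHyp (F : ℕ → ℝ → ℝ → ℝ) (ε δ h η : ℕ → ℝ)
    (R p q θ μ0 μm CL κ1 κ2 κ3 a' a b b' h0 E : ℝ) : Prop where
  a'_pos : 0 < a'
  h0_pos : 0 < h0
  a'a : a' + 2 * h0 ≤ a
  ab : a < b
  bb' : b + 2 * h0 ≤ b'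
  θpos : 0 < θ
  pθ : 8 * θ ≤ p
  qθ : p + 8 * θ ≤ q
  qR : q + θ ≤ R
  εpos : ∀ k, 0 < ε k
  δ0 : ∀ k, 0 ≤ δ k
  hpos : ∀ k, 0 < h k
  η0 : ∀ k, 0 ≤ η k
  CL0 : 0 ≤ CL
  κ1_0 : 0 ≤ κ1
  κ2_0 : 0 ≤ κ2
  μ0_0 : 0 ≤ μ0
  conc : ∀ k ρ, 0 ≤ ρ → ρ ≤ R → ConcaveOn ℝ (Icc a' b') (fun t => F k t ρ)
  cont : ∀ k t, a' ≤ t → t ≤ b' → ContinuousOn (F k t) (Icc 0 R)
  lip : ∀ k t t' ρ, a' ≤ t → t ≤ b' → a' ≤ t' → t' ≤ b' → 0 ≤ ρ → ρ ≤ R →
    |F k t ρ - F k t' ρ| ≤ CL * |t - t'|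
  upper : ∀ k t ρ, a' ≤ t → t ≤ b' → 0 ≤ ρ → ρ ≤ R →
    F (k + 1) t ρ ≤ F k t ρ - t * ε k * ρ ^ 2 / 2 + δ k
  lower : ∀ k t μ y ρ, a' ≤ t → t ≤ b' → |μ| ≤ μm → Contact (F k) (ε k) R t μ y →
    0 ≤ ρ → ρ ≤ R → F k t y - t * ε k * y ^ 2 / 2 + μ * (ρ - y) - δ k ≤ F (k + 1) t ρ
  ηh : ∀ k, 4 * (δ k + CL * h k) ≤ a' * ε (k + 1) * (η k) ^ 2
  sumη : ∀ k, ∑ j ∈ Finset.range k, η j ≤ θ
  sumh : ∀ k, ∑ j ∈ Finset.range k, h j ≤ h0
  sumδ : ∀ k, ∑ j ∈ Finset.range k, 2 * δ j / h j ≤ κ3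
  sumε : ∀ k, b' * R * ∑ j ∈ Finset.range k, ε (j + 1) ≤ κ2
  sumE : ∀ k, ∑ j ∈ Finset.range k, ε j ≤ E
  μsum : μ0 + κ2 ≤ μm
  /-- level-zero contact points are near `0`, `p` or `q` -/
  H1 : ∀ t μ x, a' ≤ t → t ≤ b' → |μ| ≤ μm → Contact (F 0) (ε 0) R t μ x →
    x ≤ θ ∨ |x - p| ≤ θ ∨ |x - q| ≤ θ
  H2 : ∀ t μ x, a' + h0 ≤ t → t ≤ b' → |μ| ≤ μm → Contact (F 0) (ε 0) R t μ x →
    F 0 t x - F 0 (t - h0) x ≤ κ1
  H2' : ∀ ρ t t', 0 ≤ ρ → ρ ≤ R → a' ≤ t → t ≤ t' → t' ≤ b' → F 0 t ρ ≤ F 0 t' ρ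
  H3 : ∀ μ' μ'' x' x'', |μ'| ≤ μm → |μ''| ≤ μm → Contact (F 0) (ε 0) R a μ' x' →
    Contact (F 0) (ε 0) R a μ'' x'' → x' ≤ θ → |x'' - q| ≤ θ → |μ' - μ''| ≤ 2 * κ2 → False
  H4 : ∀ μ x, |μ| ≤ μm → Contact (F 0) (ε 0) R b μ x → |x - p| ≤ θ → False
  rootm : ∀ k t ρ, a ≤ t → t ≤ b → (p + q) / 2 ≤ ρ → ρ ≤ R →
    -μ0 * ρ - (F k t ρ - t * ε k * ρ ^ 2 / 2) ≤ -(F k t 0)
  rootp : ∀ k t, a ≤ t → t ≤ b → ∃ ρ₁, (p + q) / 2 ≤ ρ₁ ∧ ρ₁ ≤ R ∧ ∀ ρ, 0 ≤ ρ → ρ ≤ p / 2 →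
    μ0 * ρ - (F k t ρ - t * ε k * ρ ^ 2 / 2) ≤ μ0 * ρ₁ - (F k t ρ₁ - t * ε k * ρ₁ ^ 2 / 2)

section

variable {F : ℕ → ℝ → ℝ → ℝ} {ε δ h η : ℕ → ℝ}
    {R p q θ μ0 μm CL κ1 κ2 κ3 a' a b b' h0 E : ℝ}

theorem KinkHyp.Rpos (H : KinkHyp F ε δ h η R p q θ μ0 μm CL κ1 κ2 κ3 a' a b b' h0 E) : 0 ≤ R := by
  have := H.θpos; have := H.pθ; have := H.qθ; have := H.qR; linarith

/-- Descending one level (with a time shift). -/
theorem KinkHyp.descend (H : KinkHyp F ε δ h η R p q θ μ0 μm CL κ1 κ2 κ3 a' a b b' h0 E)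
    {k : ℕ} {t t' μ x : ℝ} (ht : a' ≤ t) (ht2 : t ≤ b') (ht' : a' ≤ t') (ht2' : t' ≤ b')
    (hx : Contact (F (k + 1)) (ε (k + 1)) R t μ x)
    (hμ : |μ + t * ε (k + 1) * x| ≤ μm) (htt : |t - t'| ≤ h k) :
    ∃ y, Contact (F k) (ε k) R t' (μ + t * ε (k + 1) * x) y ∧ |y - x| ≤ η k ∧
      F (k + 1) t y ≤ F k t y - t * ε k * y ^ 2 / 2 + δ k ∧
      F k t' y - t' * ε k * y ^ 2 / 2 + (μ + t * ε (k + 1) * x) * (x - y) - δ k
        ≤ F (k + 1) t' x ∧
      F (k + 1) t x + (μ + t * ε (k + 1) * x) * (y - x) ≤ F (k + 1) t y := by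
  obtain ⟨y, hy⟩ := exists_contact H.Rpos (H.cont k t' ht' ht2') (ε k) (μ + t * ε (k + 1) * x)
  obtain ⟨hx0, hxR, hxc⟩ := hx
  have hy' := hy
  obtain ⟨hy0, hyR, hyc⟩ := hy'
  have hUp := H.upper k t y ht ht2 hy0 hyR
  have hUp' := H.upper k t' y ht' ht2' hy0 hyR
  have hLo := H.lower k t' _ y x ht' ht2' hμ hy hx0 hxR
  have hC := hxc y hy0 hyR
  have hconv : F (k + 1) t x + (μ + t * ε (k + 1) * x) * (y - x)
      + t * ε (k + 1) / 2 * (y - x) ^ 2 ≤ F (k + 1) t y := by nlinarith [hC]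
  have htε : 0 ≤ t * ε (k + 1) / 2 := by
    have := H.εpos (k + 1)
    have h1 : 0 < t := lt_of_lt_of_le H.a'_pos ht
    positivity
  have hline : F (k + 1) t x + (μ + t * ε (k + 1) * x) * (y - x) ≤ F (k + 1) t y := by
    nlinarith [sq_nonneg (y - x), mul_nonneg htε (sq_nonneg (y - x))]
  refine ⟨y, hy, ?_, hUp, hLo, hline⟩
  -- the distance bound
  have hl1 := abs_le.1 (H.lip (k + 1) t t' y ht ht2 ht' ht2' hy0 hyR)
  have hl2 := abs_le.1 (H.lip (k + 1) t t' x ht ht2 ht' ht2' hx0 hxR)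
  have hCLh : CL * |t - t'| ≤ CL * h k := mul_le_mul_of_nonneg_left htt H.CL0
  have key : t * ε (k + 1) / 2 * (y - x) ^ 2 ≤ 2 * (δ k + CL * h k) := by
    nlinarith [hl1.1, hl1.2, hl2.1, hl2.2]
  have h4 := H.ηh k
  have hε := H.εpos (k + 1)
  have hsq : (y - x) ^ 2 ≤ (η k) ^ 2 := by
    have h5 : a' * ε (k + 1) * (y - x) ^ 2 ≤ a' * ε (k + 1) * (η k) ^ 2 := by
      have : a' * ε (k + 1) * (y - x) ^ 2 ≤ t * ε (k + 1) * (y - x) ^ 2 := by
        have := mul_le_mul_of_nonneg_right ht hε.le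
        exact mul_le_mul_of_nonneg_right this (sq_nonneg _)
      linarith
    have h6 : 0 < a' * ε (k + 1) := mul_pos H.a'_pos hε
    exact le_of_mul_le_mul_left h5 h6
  exact abs_le_of_sq_le_sq hsq (H.η0 k) |> fun h => by simpa using h

/-- slopes of a concave function decrease -/
theorem conc3 {f : ℝ → ℝ} {a b u v w : ℝ} (hf : ConcaveOn ℝ (Icc a b) f) (hu : a ≤ u)
    (huv : u < v) (hvw : v < w) (hw : w ≤ b) :
    (v - u) * (f w - f v) ≤ (w - v) * (f v - f u) := by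
  have h := hf.slope_anti_adjacent (x := u) (y := v) (z := w) ⟨hu, by linarith⟩
    ⟨by linarith, hw⟩ huv hvw
  have h1 : 0 < v - u := by linarith
  have h2 : 0 < w - v := by linarith
  rw [div_le_div_iff₀ h2 h1] at h
  linarith [h]

theorem KinkHyp.chain0 (H : KinkHyp F ε δ h η R p q θ μ0 μm CL κ1 κ2 κ3 a' a b b' h0 E)
    {t : ℝ} (ht : a' ≤ t) (ht2 : t ≤ b') (k : ℕ) : ∀ (μ x : ℝ),
    Contact (F k) (ε k) R t μ x →
    |μ| + b' * R * ∑ j ∈ Finset.range k, ε (j + 1) ≤ μm →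
    ∃ μ' y, Contact (F 0) (ε 0) R t μ' y ∧ |y - x| ≤ ∑ j ∈ Finset.range k, η j ∧
      |μ' - μ| ≤ b' * R * ∑ j ∈ Finset.range k, ε (j + 1) := by
  induction k with
  | zero =>
    intro μ x hx _
    exact ⟨μ, x, hx, by simp, by simp⟩
  | succ k ih =>
    intro μ x hx hμ
    rw [Finset.sum_range_succ, mul_add] at hμ
    have hε := H.εpos (k + 1)
    have hR := H.Rpos
    have hb' : 0 < b' := by linarith [H.a'_pos]
    have hx0 := hx.1
    have hxR := hx.2.1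
    have hsh : |t * ε (k + 1) * x| ≤ b' * R * ε (k + 1) := by
      have h1 : 0 ≤ t := by linarith [H.a'_pos]
      rw [abs_of_nonneg (by positivity)]
      calc t * ε (k + 1) * x ≤ b' * ε (k + 1) * R := by gcongr
        _ = b' * R * ε (k + 1) := by ring
    have hs0 : 0 ≤ b' * R * ∑ j ∈ Finset.range k, ε (j + 1) := by
      have : 0 ≤ ∑ j ∈ Finset.range k, ε (j + 1) := Finset.sum_nonneg fun j _ => (H.εpos _).le
      positivity
    have hμ' : |μ + t * ε (k + 1) * x| ≤ |μ| + b' * R * ε (k + 1) :=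
      (abs_add_le _ _).trans (by linarith)
    obtain ⟨y, hy, hyx, -, -, -⟩ := H.descend ht ht2 ht ht2 hx (by linarith) (by
      simpa using (H.hpos k).le)
    obtain ⟨μ', z, hz, hzy, hzμ⟩ := ih _ y hy (by linarith)
    refine ⟨μ', z, hz, ?_, ?_⟩
    · rw [Finset.sum_range_succ]
      calc |z - x| ≤ |z - y| + |y - x| := abs_sub_le _ _ _
        _ ≤ _ := by linarith
    · rw [Finset.sum_range_succ, mul_add]
      calc |μ' - μ| ≤ |μ' - (μ + t * ε (k + 1) * x)| + |(μ + t * ε (k + 1) * x) - μ| :=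
            abs_sub_le _ _ _
        _ ≤ _ := by
          have : (μ + t * ε (k + 1) * x) - μ = t * ε (k + 1) * x := by ring
          rw [this]
          linarith

/-- lower bound on slopes in `t` at contact points -/
theorem KinkHyp.slope_ge (H : KinkHyp F ε δ h η R p q θ μ0 μm CL κ1 κ2 κ3 a' a b b' h0 E)
    (X : ℝ) (k : ℕ) : ∀ (t μ x s : ℝ), Contact (F k) (ε k) R t μ x →
    |μ| + b' * R * ∑ j ∈ Finset.range k, ε (j + 1) ≤ μm → 0 < s → a' ≤ t - s →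
    t + ∑ j ∈ Finset.range k, h j ≤ b' → x + ∑ j ∈ Finset.range k, η j ≤ X →
    -s * (∑ j ∈ Finset.range k, (ε j * X ^ 2 / 2 + 2 * δ j / h j)) ≤
      F k t x - F k (t - s) x := by
  induction k with
  | zero =>
    intro t μ x s hx _ hs hts htb hX
    simp only [Finset.range_zero, Finset.sum_empty, mul_zero, add_zero] at htb ⊢
    have := H.H2' x (t - s) t hx.1 hx.2.1 hts (by linarith) htb
    linarith
  | succ k ih =>
    intro t μ x s hx hμ hs hts htb hX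
    rw [Finset.sum_range_succ] at hμ htb hX
    rw [mul_add] at hμ
    rw [Finset.sum_range_succ]
    have hε := H.εpos (k + 1)
    have hεk := H.εpos k
    have hh := H.hpos k
    have hR := H.Rpos
    have ha' := H.a'_pos
    have hb' : 0 < b' := by
      have : 0 ≤ ∑ j ∈ Finset.range k, h j := Finset.sum_nonneg fun j _ => (H.hpos j).le
      linarith
    have hx0 := hx.1
    have hxR := hx.2.1
    have ht : a' ≤ t := by linarith
    have hSh : 0 ≤ ∑ j ∈ Finset.range k, h j := Finset.sum_nonneg fun j _ => (H.hpos j).le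
    have ht2 : t ≤ b' := by linarith
    have hsh : |t * ε (k + 1) * x| ≤ b' * R * ε (k + 1) := by
      have h1 : 0 ≤ t := by linarith
      rw [abs_of_nonneg (by positivity)]
      calc t * ε (k + 1) * x ≤ b' * ε (k + 1) * R := by gcongr
        _ = b' * R * ε (k + 1) := by ring
    have hs0 : 0 ≤ b' * R * ∑ j ∈ Finset.range k, ε (j + 1) := by
      have : 0 ≤ ∑ j ∈ Finset.range k, ε (j + 1) := Finset.sum_nonneg fun j _ => (H.εpos _).le
      positivity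
    have hμ' : |μ + t * ε (k + 1) * x| ≤ |μ| + b' * R * ε (k + 1) :=
      (abs_add_le _ _).trans (by linarith)
    obtain ⟨y, hy, hyx, hU, hL, hline⟩ := H.descend ht ht2 (t' := t + h k) (by linarith)
      (by linarith) hx (by linarith) (by simp [abs_of_pos hh])
    have hyx' := abs_le.1 hyx
    have hi := ih (t + h k) _ y (h k) hy (by linarith) hh (by linarith) (by linarith)
      (by linarith)
    have e1 : t + h k - h k = t := by ring
    rw [e1] at hi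
    -- forward difference of F (k+1) at x
    have hfd : F k (t + h k) y - F k t y - h k * ε k * y ^ 2 / 2 - 2 * δ k ≤
        F (k + 1) (t + h k) x - F (k + 1) t x := by nlinarith [hU, hL, hline]
    have hy0 := hy.1
    have hηs : 0 ≤ ∑ j ∈ Finset.range k, η j := Finset.sum_nonneg fun j _ => H.η0 j
    have hyX : y ≤ X := by linarith
    have hy2 : y ^ 2 ≤ X ^ 2 := by nlinarith
    have hconc := conc3 (H.conc (k + 1) x hx0 hxR) hts (by linarith : t - s < t)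
      (by linarith : t < t + h k) (by linarith)
    have e2 : t - (t - s) = s := by ring
    have e3 : t + h k - t = h k := by ring
    rw [e2, e3] at hconc
    set B := ∑ j ∈ Finset.range k, (ε j * X ^ 2 / 2 + 2 * δ j / h j) with hB
    have hεy : h k * ε k * y ^ 2 / 2 ≤ h k * (ε k * X ^ 2 / 2) := by
      have : 0 < h k * ε k := mul_pos hh hεk
      nlinarith
    have h3 : -(h k) * (B + (ε k * X ^ 2 / 2 + 2 * δ k / h k)) ≤
        F (k + 1) (t + h k) x - F (k + 1) t x := by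
      have hc : h k * (2 * δ k / h k) = 2 * δ k := by field_simp
      have hd : -(h k) * (B + (ε k * X ^ 2 / 2 + 2 * δ k / h k)) =
        -(h k) * B - h k * (ε k * X ^ 2 / 2) - 2 * δ k := by linear_combination (-1) * hc
      rw [hd]
      linarith
    have h4 : s * (-(h k) * (B + (ε k * X ^ 2 / 2 + 2 * δ k / h k))) ≤
        h k * (F (k + 1) t x - F (k + 1) (t - s) x) := by
      have := mul_le_mul_of_nonneg_left h3 hs.le
      linarith
    have h5 : h k * (-s * (B + (ε k * X ^ 2 / 2 + 2 * δ k / h k))) ≤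
        h k * (F (k + 1) t x - F (k + 1) (t - s) x) := by linarith
    exact le_of_mul_le_mul_left h5 hh

/-- upper bound on slopes in `t` at contact points -/
theorem KinkHyp.slope_le (H : KinkHyp F ε δ h η R p q θ μ0 μm CL κ1 κ2 κ3 a' a b b' h0 E)
    (Y : ℝ) (hY : 0 ≤ Y) (k : ℕ) : ∀ (t μ x s : ℝ), Contact (F k) (ε k) R t μ x →
    |μ| + b' * R * ∑ j ∈ Finset.range k, ε (j + 1) ≤ μm → 0 < s → t + s ≤ b' →
    a' + h0 + ∑ j ∈ Finset.range k, h j ≤ t →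
    (Y = 0 ∨ Y + ∑ j ∈ Finset.range k, η j ≤ x) →
    F k (t + s) x - F k t x ≤
      s * (κ1 / h0 + ∑ j ∈ Finset.range k, (2 * δ j / h j - ε j * Y ^ 2 / 2)) := by
  induction k with
  | zero =>
    intro t μ x s hx hμ hs hts hta hX
    simp only [Finset.range_zero, Finset.sum_empty, mul_zero, add_zero] at hta hμ ⊢
    have h0p := H.h0_pos
    have h1 := H.H2 t μ x hta (by linarith) hμ hx
    have hconc := conc3 (H.conc 0 x hx.1 hx.2.1) (by linarith : a' ≤ t - h0)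
      (by linarith : t - h0 < t) (by linarith : t < t + s) hts
    have e2 : t - (t - h0) = h0 := by ring
    have e3 : t + s - t = s := by ring
    rw [e2, e3] at hconc
    have h3 : h0 * (F 0 (t + s) x - F 0 t x) ≤ s * κ1 := by nlinarith
    have h4 : h0 * (F 0 (t + s) x - F 0 t x) ≤ h0 * (s * (κ1 / h0)) := by
      have : h0 * (s * (κ1 / h0)) = s * κ1 := by field_simp
      linarith
    exact le_of_mul_le_mul_left h4 h0p
  | succ k ih =>
    intro t μ x s hx hμ hs hts hta hX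
    rw [Finset.sum_range_succ] at hμ hta hX
    rw [mul_add] at hμ
    rw [Finset.sum_range_succ]
    have hε := H.εpos (k + 1)
    have hεk := H.εpos k
    have hh := H.hpos k
    have hR := H.Rpos
    have ha' := H.a'_pos
    have h0p := H.h0_pos
    have hSh : 0 ≤ ∑ j ∈ Finset.range k, h j := Finset.sum_nonneg fun j _ => (H.hpos j).le
    have hb' : 0 < b' := by linarith
    have hx0 := hx.1
    have hxR := hx.2.1
    have ht : a' ≤ t := by linarith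
    have ht2 : t ≤ b' := by linarith
    have hsh : |t * ε (k + 1) * x| ≤ b' * R * ε (k + 1) := by
      have h1 : 0 ≤ t := by linarith
      rw [abs_of_nonneg (by positivity)]
      calc t * ε (k + 1) * x ≤ b' * ε (k + 1) * R := by gcongr
        _ = b' * R * ε (k + 1) := by ring
    have hs0 : 0 ≤ b' * R * ∑ j ∈ Finset.range k, ε (j + 1) := by
      have : 0 ≤ ∑ j ∈ Finset.range k, ε (j + 1) := Finset.sum_nonneg fun j _ => (H.εpos _).le
      positivity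
    have hμ' : |μ + t * ε (k + 1) * x| ≤ |μ| + b' * R * ε (k + 1) :=
      (abs_add_le _ _).trans (by linarith)
    obtain ⟨y, hy, hyx, hU, hL, hline⟩ := H.descend ht ht2 (t' := t - h k) (by linarith)
      (by linarith) hx (by linarith) (by simp [abs_of_pos hh])
    have hyx' := abs_le.1 hyx
    have hηk := H.η0 k
    have hηs : 0 ≤ ∑ j ∈ Finset.range k, η j := Finset.sum_nonneg fun j _ => H.η0 j
    have hY' : Y = 0 ∨ Y + ∑ j ∈ Finset.range k, η j ≤ y := by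
      rcases hX with h | h
      · exact Or.inl h
      · right; linarith
    have hi := ih (t - h k) _ y (h k) hy (by linarith) hh (by linarith) (by linarith) hY'
    have e1 : t - h k + h k = t := by ring
    rw [e1] at hi
    have hfd : F (k + 1) t x - F (k + 1) (t - h k) x ≤
        F k t y - F k (t - h k) y - h k * ε k * y ^ 2 / 2 + 2 * δ k := by
      nlinarith [hU, hL, hline]
    have hy0 := hy.1
    have hyY : Y ≤ y := by
      rcases hY' with h | h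
      · linarith
      · linarith
    have hy2 : Y ^ 2 ≤ y ^ 2 := by nlinarith
    have hconc := conc3 (H.conc (k + 1) x hx0 hxR) (by linarith : a' ≤ t - h k)
      (by linarith : t - h k < t) (by linarith : t < t + s) hts
    have e2 : t - (t - h k) = h k := by ring
    have e3 : t + s - t = s := by ring
    rw [e2, e3] at hconc
    set B := ∑ j ∈ Finset.range k, (2 * δ j / h j - ε j * Y ^ 2 / 2) with hB
    have hεy : h k * (ε k * Y ^ 2 / 2) ≤ h k * ε k * y ^ 2 / 2 := by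
      have : 0 < h k * ε k := mul_pos hh hεk
      nlinarith
    have h3 : F (k + 1) t x - F (k + 1) (t - h k) x ≤
        h k * (κ1 / h0 + (B + (2 * δ k / h k - ε k * Y ^ 2 / 2))) := by
      have hc : h k * (2 * δ k / h k) = 2 * δ k := by field_simp
      have hd : h k * (κ1 / h0 + (B + (2 * δ k / h k - ε k * Y ^ 2 / 2))) =
        h k * (κ1 / h0 + B) - h k * (ε k * Y ^ 2 / 2) + 2 * δ k := by linear_combination hc
      rw [hd]
      linarith
    have h4 : h k * (F (k + 1) (t + s) x - F (k + 1) t x) ≤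
        h k * (s * (κ1 / h0 + (B + (2 * δ k / h k - ε k * Y ^ 2 / 2)))) := by
      have := mul_le_mul_of_nonneg_left h3 hs.le
      linarith
    exact le_of_mul_le_mul_left h4 hh

/-! ### windows -/

theorem cont_of_lip {f : ℝ → ℝ} {s : Set ℝ} {K : ℝ} (hK : 0 ≤ K)
    (h : ∀ x ∈ s, ∀ y ∈ s, f x - f y ≤ K * |x - y|) : ContinuousOn f s := by
  apply (LipschitzOnWith.of_dist_le_mul (K := K.toNNReal) ?_).continuousOn
  intro x hx y hy
  rw [Real.dist_eq, Real.dist_eq, Real.coe_toNNReal K hK]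
  have e1 := h x hx y hy
  have e2 := h y hy x hx
  rw [abs_sub_comm y x] at e2
  exact abs_le.2 ⟨by linarith, by linarith⟩

/-- window supremum -/
noncomputable def Vw (G : ℝ → ℝ → ℝ) (l u t μ : ℝ) : ℝ :=
  sSup ((fun ρ => μ * ρ - G t ρ) '' Icc l u)

theorem Vw_max {G : ℝ → ℝ → ℝ} {l u t : ℝ} (hlu : l ≤ u) (hG : ContinuousOn (G t) (Icc l u))
    (μ : ℝ) : ∃ ρ, l ≤ ρ ∧ ρ ≤ u ∧ Vw G l u t μ = μ * ρ - G t ρ ∧
      ∀ ρ', l ≤ ρ' → ρ' ≤ u → μ * ρ' - G t ρ' ≤ Vw G l u t μ := by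
  have hne : (Icc l u).Nonempty := ⟨l, ⟨le_rfl, hlu⟩⟩
  have hc : ContinuousOn (fun ρ => μ * ρ - G t ρ) (Icc l u) := by
    have h3 : Continuous (fun ρ : ℝ => μ * ρ) := by fun_prop
    exact h3.continuousOn.sub hG
  obtain ⟨y, hy, hmax⟩ := isCompact_Icc.exists_isMaxOn hne hc
  have hmax' := isMaxOn_iff.1 hmax
  have hG1 : IsGreatest ((fun ρ => μ * ρ - G t ρ) '' Icc l u) (μ * y - G t y) := by
    refine ⟨⟨y, hy, rfl⟩, ?_⟩
    rintro _ ⟨z, hz, rfl⟩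
    exact hmax' z hz
  have hV : Vw G l u t μ = μ * y - G t y := hG1.csSup_eq
  refine ⟨y, hy.1, hy.2, hV, fun ρ' h1 h2 => ?_⟩
  rw [hV]
  exact hmax' ρ' ⟨h1, h2⟩

theorem Vw_lip {G : ℝ → ℝ → ℝ} {l u t t' R C : ℝ} (hl : 0 ≤ l) (hlu : l ≤ u) (huR : u ≤ R)
    (hG : ContinuousOn (G t) (Icc l u)) (hG' : ContinuousOn (G t') (Icc l u))
    (hL : ∀ ρ, l ≤ ρ → ρ ≤ u → |G t ρ - G t' ρ| ≤ C * |t - t'|) (μ μ' : ℝ) :
    Vw G l u t μ - Vw G l u t' μ' ≤ C * |t - t'| + R * |μ - μ'| := by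
  obtain ⟨ρ, h1, h2, h3, -⟩ := Vw_max hlu hG μ
  obtain ⟨ρ', -, -, -, h4⟩ := Vw_max hlu hG' μ'
  have h5 := h4 ρ h1 h2
  have h6 := abs_le.1 (hL ρ h1 h2)
  have h7 : (μ - μ') * ρ ≤ R * |μ - μ'| := by
    calc (μ - μ') * ρ ≤ |μ - μ'| * ρ := by
          apply mul_le_mul_of_nonneg_right (le_abs_self _) (by linarith)
      _ ≤ |μ - μ'| * R := by
          apply mul_le_mul_of_nonneg_left (by linarith) (abs_nonneg _)
      _ = R * |μ - μ'| := by ring
  rw [h3]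
  nlinarith

theorem Vw_grow {G : ℝ → ℝ → ℝ} {l u t : ℝ} (hlu : l ≤ u) (hG : ContinuousOn (G t) (Icc l u))
    {μ μ' : ℝ} (h : μ ≤ μ') :
    l * (μ' - μ) ≤ Vw G l u t μ' - Vw G l u t μ ∧
    Vw G l u t μ' - Vw G l u t μ ≤ u * (μ' - μ) := by
  obtain ⟨ρ, h1, h2, h3, h4⟩ := Vw_max hlu hG μ
  obtain ⟨ρ', h1', h2', h3', h4'⟩ := Vw_max hlu hG μ'
  have h5 := h4 ρ' h1' h2'
  have h6 := h4' ρ h1 h2
  constructor
  · nlinarith
  · nlinarith

/-- Existence of a triple point at every level. -/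
theorem KinkHyp.triple (H : KinkHyp F ε δ h η R p q θ μ0 μm CL κ1 κ2 κ3 a' a b b' h0 E) (k : ℕ) :
    ∃ t μ x0 x1 x2, a ≤ t ∧ t ≤ b ∧ |μ| ≤ μ0 ∧
      Contact (F k) (ε k) R t μ x0 ∧ x0 ≤ 2 * θ ∧
      Contact (F k) (ε k) R t μ x1 ∧ |x1 - p| ≤ 2 * θ ∧
      Contact (F k) (ε k) R t μ x2 ∧ |x2 - q| ≤ 2 * θ := by
  have hθ := H.θpos
  have hp := H.pθ
  have hq := H.qθ
  have hqR := H.qR
  have hRp := H.Rpos
  have hεk := H.εpos k
  have ha' := H.a'_pos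
  have h0p := H.h0_pos
  have haa := H.a'a
  have hbb := H.bb'
  have hab := H.ab
  set G : ℝ → ℝ → ℝ := fun t ρ => F k t ρ - t * ε k * ρ ^ 2 / 2 with hG
  have hGc : ∀ t, a ≤ t → t ≤ b → ContinuousOn (G t) (Icc 0 R) := by
    intro t h1 h2
    have := H.cont k t (by linarith) (by linarith)
    have h2 : Continuous (fun ρ : ℝ => t * ε k * ρ ^ 2 / 2) := by fun_prop
    exact this.sub h2.continuousOn
  set CG := CL + ε k * R ^ 2 / 2 with hCG
  have hCG0 : 0 ≤ CG := by have := H.CL0; positivity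
  have hGl : ∀ t t' ρ, a ≤ t → t ≤ b → a ≤ t' → t' ≤ b → 0 ≤ ρ → ρ ≤ R →
      |G t ρ - G t' ρ| ≤ CG * |t - t'| := by
    intro t t' ρ h1 h2 h3 h4 h5 h6
    have h7 := H.lip k t t' ρ (by linarith) (by linarith) (by linarith) (by linarith) h5 h6
    have h8 : G t ρ - G t' ρ = (F k t ρ - F k t' ρ) - (ε k * ρ ^ 2 / 2) * (t - t') := by
      simp only [hG]; ring
    rw [h8]
    calc |(F k t ρ - F k t' ρ) - (ε k * ρ ^ 2 / 2) * (t - t')|
        ≤ |F k t ρ - F k t' ρ| + |(ε k * ρ ^ 2 / 2) * (t - t')| := abs_sub _ _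
      _ ≤ CL * |t - t'| + (ε k * R ^ 2 / 2) * |t - t'| := by
          rw [abs_mul, abs_of_nonneg (by positivity : 0 ≤ ε k * ρ ^ 2 / 2)]
          gcongr
      _ = CG * |t - t'| := by rw [hCG]; ring
  -- windows
  have w0 : (0:ℝ) ≤ p / 2 := by linarith
  have w1 : p / 2 ≤ (p + q) / 2 := by linarith
  have w2 : (p + q) / 2 ≤ R := by linarith
  have c0 : ∀ t, a ≤ t → t ≤ b → ContinuousOn (G t) (Icc 0 (p / 2)) := fun t h1 h2 =>
    (hGc t h1 h2).mono (Icc_subset_Icc le_rfl (by linarith))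
  have c1 : ∀ t, a ≤ t → t ≤ b → ContinuousOn (G t) (Icc (p / 2) ((p + q) / 2)) := fun t h1 h2 =>
    (hGc t h1 h2).mono (Icc_subset_Icc w0 (by linarith))
  have c2 : ∀ t, a ≤ t → t ≤ b → ContinuousOn (G t) (Icc ((p + q) / 2) R) := fun t h1 h2 =>
    (hGc t h1 h2).mono (Icc_subset_Icc (by linarith) le_rfl)
  -- the root in μ
  have hroot : ∀ t, a ≤ t → t ≤ b → ∃ μ, -μ0 ≤ μ ∧ μ ≤ μ0 ∧
      Vw G ((p + q) / 2) R t μ = Vw G 0 (p / 2) t μ := by
    intro t h1 h2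
    have hμ0 := H.μ0_0
    have hcont : ContinuousOn (fun μ => Vw G ((p + q) / 2) R t μ - Vw G 0 (p / 2) t μ)
        (Icc (-μ0) μ0) := by
      apply ContinuousOn.sub
      · apply cont_of_lip hRp
        intro μ _ μ' _
        have e1 := Vw_lip (C := CG) (R := R) (by linarith : 0 ≤ (p + q) / 2) w2 le_rfl
          (c2 t h1 h2) (c2 t h1 h2) (fun ρ _ _ => by simp) μ μ'
        simpa using e1
      · apply cont_of_lip hRp
        intro μ _ μ' _
        have e1 := Vw_lip (C := CG) (R := R) le_rfl w0 (by linarith : p / 2 ≤ R)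
          (c0 t h1 h2) (c0 t h1 h2) (fun ρ _ _ => by simp) μ μ'
        simpa using e1
    have hneg : Vw G ((p + q) / 2) R t (-μ0) - Vw G 0 (p / 2) t (-μ0) ≤ 0 := by
      obtain ⟨ρ, r1, r2, r3, -⟩ := Vw_max w2 (c2 t h1 h2) (-μ0)
      obtain ⟨-, -, -, -, r4⟩ := Vw_max w0 (c0 t h1 h2) (-μ0)
      have r5 := r4 0 le_rfl w0
      have r6 := H.rootm k t ρ h1 h2 r1 r2
      simp only [hG] at r3 r5
      rw [r3]
      have : t * ε k * 0 ^ 2 / 2 = 0 := by ring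
      rw [this] at r5
      linarith
    have hpos : 0 ≤ Vw G ((p + q) / 2) R t μ0 - Vw G 0 (p / 2) t μ0 := by
      obtain ⟨ρ, r1, r2, r3, -⟩ := Vw_max w0 (c0 t h1 h2) μ0
      obtain ⟨-, -, -, -, r4⟩ := Vw_max w2 (c2 t h1 h2) μ0
      obtain ⟨ρ₁, s1, s2, s3⟩ := H.rootp k t h1 h2
      have r5 := r4 ρ₁ s1 s2
      have r6 := s3 ρ r1 r2
      simp only [hG] at r3 r5
      rw [r3]
      linarith
    have hivt := intermediate_value_Icc (by linarith : -μ0 ≤ μ0) hcont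
    obtain ⟨μ, hμ, hμ'⟩ := hivt ⟨hneg, hpos⟩
    exact ⟨μ, hμ.1, hμ.2, by simp only at hμ'; linarith⟩
  choose! ms hms using hroot
  have hj : 0 < (p + q) / 2 - p / 2 := by linarith
  -- the root is Lipschitz
  have hmsl : ∀ t t', a ≤ t → t ≤ b → a ≤ t' → t' ≤ b → ms t ≤ ms t' →
      ((p + q) / 2 - p / 2) * (ms t' - ms t) ≤ 2 * CG * |t - t'| := by
    intro t t' h1 h2 h3 h4 hle
    have g2 := (Vw_grow w2 (c2 t h1 h2) hle).1
    have g0 := (Vw_grow w0 (c0 t h1 h2) hle).2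
    have r1 := (hms t h1 h2).2.2
    have r2 := (hms t' h3 h4).2.2
    have l2 := Vw_lip (C := CG) (R := R) (by linarith : 0 ≤ (p + q) / 2) w2 le_rfl
      (c2 t h1 h2) (c2 t' h3 h4) (fun ρ r1 r2 => hGl t t' ρ h1 h2 h3 h4 (by linarith) r2)
      (ms t') (ms t')
    have l0 := Vw_lip (C := CG) (R := R) le_rfl w0 (by linarith : p / 2 ≤ R)
      (c0 t' h3 h4) (c0 t h1 h2)
      (fun ρ r1 r2 => hGl t' t ρ h3 h4 h1 h2 r1 (by linarith)) (ms t') (ms t')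
    rw [abs_sub_comm t' t] at l0
    simp only [sub_self, abs_zero, mul_zero, add_zero] at l0 l2
    linarith
  have hmsl' : ∀ t t', a ≤ t → t ≤ b → a ≤ t' → t' ≤ b →
      |ms t - ms t'| ≤ 2 * CG / ((p + q) / 2 - p / 2) * |t - t'| := by
    intro t t' h1 h2 h3 h4
    have e : 2 * CG / ((p + q) / 2 - p / 2) * |t - t'| =
        2 * CG * |t - t'| / ((p + q) / 2 - p / 2) := by ring
    rw [e, le_div_iff₀ hj]
    rcases le_total (ms t) (ms t') with hle | hle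
    · have := hmsl t t' h1 h2 h3 h4 hle
      rw [abs_sub_comm, abs_of_nonneg (by linarith)]
      linarith
    · have := hmsl t' t h3 h4 h1 h2 hle
      rw [abs_sub_comm t' t] at this
      rw [abs_of_nonneg (by linarith)]
      linarith
  set gg : ℝ → ℝ := fun t => Vw G (p / 2) ((p + q) / 2) t (ms t) - Vw G 0 (p / 2) t (ms t)
    with hgg
  have hggc : ContinuousOn gg (Icc a b) := by
    apply cont_of_lip (K := 2 * CG + 2 * R * (2 * CG / ((p + q) / 2 - p / 2))) (by positivity)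
    intro t ht t' ht'
    have m1 := hmsl' t t' ht.1 ht.2 ht'.1 ht'.2
    have l1 := Vw_lip (C := CG) (R := R) w0 w1 (by linarith : (p + q) / 2 ≤ R)
      (c1 t ht.1 ht.2) (c1 t' ht'.1 ht'.2)
      (fun ρ r1 r2 => hGl t t' ρ ht.1 ht.2 ht'.1 ht'.2 (by linarith) (by linarith))
      (ms t) (ms t')
    have l0 := Vw_lip (C := CG) (R := R) le_rfl w0 (by linarith : p / 2 ≤ R)
      (c0 t' ht'.1 ht'.2) (c0 t ht.1 ht.2)
      (fun ρ r1 r2 => hGl t' t ρ ht'.1 ht'.2 ht.1 ht.2 r1 (by linarith)) (ms t') (ms t)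
    rw [abs_sub_comm t' t, abs_sub_comm (ms t') (ms t)] at l0
    have m2 := mul_le_mul_of_nonneg_left m1 hRp
    simp only [hgg]
    nlinarith
  -- contact from windows
  have hcontact : ∀ t μ x v, a ≤ t → t ≤ b → 0 ≤ x → x ≤ R → μ * x - G t x = v →
      Vw G 0 (p / 2) t μ ≤ v → Vw G (p / 2) ((p + q) / 2) t μ ≤ v →
      Vw G ((p + q) / 2) R t μ ≤ v → Contact (F k) (ε k) R t μ x := by
    intro t μ x v h1 h2 hx0 hxR hv v0 v1 v2
    refine ⟨hx0, hxR, fun ρ r1 r2 => ?_⟩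
    have key : μ * ρ - G t ρ ≤ v := by
      rcases le_total ρ (p / 2) with hρ | hρ
      · obtain ⟨-, -, -, -, hh⟩ := Vw_max w0 (c0 t h1 h2) μ
        exact (hh ρ r1 hρ).trans v0
      · rcases le_total ρ ((p + q) / 2) with hρ' | hρ'
        · obtain ⟨-, -, -, -, hh⟩ := Vw_max w1 (c1 t h1 h2) μ
          exact (hh ρ hρ hρ').trans v1
        · obtain ⟨-, -, -, -, hh⟩ := Vw_max w2 (c2 t h1 h2) μ
          exact (hh ρ hρ' r2).trans v2
    simp only [hG] at key hv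
    linarith
  have hμsum := H.μsum
  have hsumε := H.sumε k
  have hκ2 := H.κ2_0
  -- level zero location
  have hloc : ∀ t μ x, a ≤ t → t ≤ b → |μ| ≤ μ0 → Contact (F k) (ε k) R t μ x →
      ∃ μ' y, |μ'| ≤ μm ∧ |μ' - μ| ≤ κ2 ∧ Contact (F 0) (ε 0) R t μ' y ∧ |y - x| ≤ θ ∧
        (y ≤ θ ∨ |y - p| ≤ θ ∨ |y - q| ≤ θ) := by
    intro t μ x h1 h2 hμ hx
    obtain ⟨μ', y, hy, hyx, hyμ⟩ := H.chain0 (by linarith : a' ≤ t) (by linarith : t ≤ b') k μ x hx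
      (by linarith)
    have hμ' : |μ'| ≤ μm := by
      have : |μ'| ≤ |μ' - μ| + |μ| := by
        have := abs_add_le (μ' - μ) μ
        simpa using this
      linarith
    exact ⟨μ', y, hμ', by linarith, hy, hyx.trans (H.sumη k),
      H.H1 t μ' y (by linarith) (by linarith) hμ' hy⟩
  have hga : 0 ≤ gg a := by
    by_contra hcon
    push Not at hcon
    simp only [hgg] at hcon
    obtain ⟨m1, m2, m3⟩ := hms a le_rfl hab.le
    obtain ⟨x, x1, x2, x3, -⟩ := Vw_max w0 (c0 a le_rfl hab.le) (ms a)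
    obtain ⟨z, z1, z2, z3, -⟩ := Vw_max w2 (c2 a le_rfl hab.le) (ms a)
    have cx := hcontact a (ms a) x _ le_rfl hab.le x1 (by linarith) x3.symm le_rfl
      (by linarith) (by linarith)
    have cz := hcontact a (ms a) z _ le_rfl hab.le (by linarith) z2 z3.symm (by linarith)
      (by linarith) le_rfl
    have hm : |ms a| ≤ μ0 := abs_le.2 ⟨by linarith, m2⟩
    obtain ⟨μ', y, y1, y2, y3, y4, y5⟩ := hloc a _ x le_rfl hab.le hm cx
    obtain ⟨μ'', w, v1, v2, v3, v4, v5⟩ := hloc a _ z le_rfl hab.le hm cz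
    have y4' := abs_le.1 y4
    have v4' := abs_le.1 v4
    have yθ : y ≤ θ := by
      rcases y5 with h | h | h
      · exact h
      · have := abs_le.1 h; linarith
      · have := abs_le.1 h; linarith
    have wq : |w - q| ≤ θ := by
      rcases v5 with h | h | h
      · linarith
      · have := abs_le.1 h; linarith
      · exact h
    have hdiff : |μ' - μ''| ≤ 2 * κ2 := by
      calc |μ' - μ''| ≤ |μ' - ms a| + |ms a - μ''| := abs_sub_le _ _ _
        _ ≤ 2 * κ2 := by rw [abs_sub_comm (ms a) μ'']; linarith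
    exact H.H3 μ' μ'' y w y1 v1 y3 v3 yθ wq hdiff
  have hgb : gg b ≤ 0 := by
    by_contra hcon
    push Not at hcon
    simp only [hgg] at hcon
    obtain ⟨m1, m2, m3⟩ := hms b hab.le le_rfl
    obtain ⟨x, x1, x2, x3, -⟩ := Vw_max w1 (c1 b hab.le le_rfl) (ms b)
    have cx := hcontact b (ms b) x _ hab.le le_rfl (by linarith) (by linarith) x3.symm
      (by linarith) le_rfl (by linarith)
    have hm : |ms b| ≤ μ0 := abs_le.2 ⟨by linarith, m2⟩
    obtain ⟨μ', y, y1, y2, y3, y4, y5⟩ := hloc b _ x hab.le le_rfl hm cx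
    have y4' := abs_le.1 y4
    have yp : |y - p| ≤ θ := by
      rcases y5 with h | h | h
      · linarith
      · exact h
      · have := abs_le.1 h; linarith
    exact H.H4 μ' y y1 y3 yp
  have hivt := intermediate_value_Icc' hab.le hggc
  obtain ⟨t, ht, ht0⟩ := hivt ⟨hgb, hga⟩
  simp only [hgg] at ht0
  obtain ⟨m1, m2, m3⟩ := hms t ht.1 ht.2
  have hm : |ms t| ≤ μ0 := abs_le.2 ⟨by linarith, m2⟩
  obtain ⟨x0, x01, x02, x03, -⟩ := Vw_max w0 (c0 t ht.1 ht.2) (ms t)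
  obtain ⟨x1, x11, x12, x13, -⟩ := Vw_max w1 (c1 t ht.1 ht.2) (ms t)
  obtain ⟨x2, x21, x22, x23, -⟩ := Vw_max w2 (c2 t ht.1 ht.2) (ms t)
  have cx0 := hcontact t (ms t) x0 _ ht.1 ht.2 x01 (by linarith) x03.symm le_rfl
      (by linarith) (by linarith)
  have cx1 := hcontact t (ms t) x1 _ ht.1 ht.2 (by linarith) (by linarith) x13.symm
      (by linarith) le_rfl (by linarith)
  have cx2 := hcontact t (ms t) x2 _ ht.1 ht.2 (by linarith) x22 x23.symm (by linarith)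
      (by linarith) le_rfl
  refine ⟨t, ms t, x0, x1, x2, ht.1, ht.2, hm, cx0, ?_, cx1, ?_, cx2, ?_⟩
  · obtain ⟨μ', y, y1, y2, y3, y4, y5⟩ := hloc t _ x0 ht.1 ht.2 hm cx0
    have y4' := abs_le.1 y4
    rcases y5 with h | h | h
    · linarith
    · have := abs_le.1 h; linarith
    · have := abs_le.1 h; linarith
  · obtain ⟨μ', y, y1, y2, y3, y4, y5⟩ := hloc t _ x1 ht.1 ht.2 hm cx1
    have y4' := abs_le.1 y4
    rcases y5 with h | h | h
    · linarith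
    · have := abs_le.1 h; exact abs_le.2 ⟨by linarith, by linarith⟩
    · have := abs_le.1 h; linarith
  · obtain ⟨μ', y, y1, y2, y3, y4, y5⟩ := hloc t _ x2 ht.1 ht.2 hm cx2
    have y4' := abs_le.1 y4
    rcases y5 with h | h | h
    · linarith
    · have := abs_le.1 h; linarith
    · have := abs_le.1 h; exact abs_le.2 ⟨by linarith, by linarith⟩

/-- slope bounds in usable form -/
theorem KinkHyp.slope_ge' (H : KinkHyp F ε δ h η R p q θ μ0 μm CL κ1 κ2 κ3 a' a b b' h0 E)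
    {k : ℕ} {t μ x t' : ℝ} (_hat : a ≤ t) (htb : t ≤ b) (hμ : |μ| ≤ μ0)
    (hx : Contact (F k) (ε k) R t μ x) (h1 : a' ≤ t') (h2 : t' < t) :
    -(t - t') * (E * (x + θ) ^ 2 / 2 + κ3) ≤ F k t x - F k t' x := by
  have e := H.slope_ge (x + θ) k t μ x (t - t') hx (by
    have := H.sumε k; have := H.μsum; linarith) (by linarith) (by linarith) (by
    have := H.sumh k; have := H.bb'; have := H.h0_pos; linarith) (by
    have := H.sumη k; linarith)
  have e1 : t - (t - t') = t' := by ring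
  rw [e1] at e
  have e2 : ∑ j ∈ Finset.range k, (ε j * (x + θ) ^ 2 / 2 + 2 * δ j / h j) ≤
      E * (x + θ) ^ 2 / 2 + κ3 := by
    rw [Finset.sum_add_distrib]
    have e3 : ∑ j ∈ Finset.range k, ε j * (x + θ) ^ 2 / 2 =
        (∑ j ∈ Finset.range k, ε j) * ((x + θ) ^ 2 / 2) := by
      rw [Finset.sum_mul]; exact Finset.sum_congr rfl fun j _ => by ring
    rw [e3]
    have e4 := mul_le_mul_of_nonneg_right (H.sumE k) (by positivity : 0 ≤ (x + θ) ^ 2 / 2)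
    have e5 := H.sumδ k
    linarith
  have e6 := mul_le_mul_of_nonneg_left e2 (by linarith : 0 ≤ t - t')
  linarith

theorem KinkHyp.slope_le' (H : KinkHyp F ε δ h η R p q θ μ0 μm CL κ1 κ2 κ3 a' a b b' h0 E)
    {k : ℕ} {t μ x t' Y : ℝ} (hat : a ≤ t) (_htb : t ≤ b) (hμ : |μ| ≤ μ0)
    (hx : Contact (F (k + 1)) (ε (k + 1)) R t μ x) (h1 : t' ≤ b') (h2 : t < t')
    (hY : 0 ≤ Y) (hYx : Y = 0 ∨ Y + θ ≤ x) :
    F (k + 1) t' x - F (k + 1) t x ≤ (t' - t) * (κ1 / h0 + κ3 - ε 0 * Y ^ 2 / 2) := by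
  have e := H.slope_le Y hY (k + 1) t μ x (t' - t) hx (by
    have := H.sumε (k + 1); have := H.μsum; linarith) (by linarith) (by linarith) (by
    have := H.sumh (k + 1); have := H.a'a; have := H.h0_pos; linarith) (by
    rcases hYx with h | h
    · exact Or.inl h
    · right; have := H.sumη (k + 1); linarith)
  have e1 : t + (t' - t) = t' := by ring
  rw [e1] at e
  have e2 : ∑ j ∈ Finset.range (k + 1), (2 * δ j / h j - ε j * Y ^ 2 / 2) ≤
      κ3 - ε 0 * Y ^ 2 / 2 := by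
    rw [Finset.sum_sub_distrib]
    have e3 : ∑ j ∈ Finset.range (k + 1), ε j * Y ^ 2 / 2 =
        (∑ j ∈ Finset.range (k + 1), ε j) * (Y ^ 2 / 2) := by
      rw [Finset.sum_mul]; exact Finset.sum_congr rfl fun j _ => by ring
    rw [e3]
    have e4 : ε 0 ≤ ∑ j ∈ Finset.range (k + 1), ε j := by
      apply Finset.single_le_sum (f := ε) (fun j _ => (H.εpos j).le)
      simp
    have e5 := mul_le_mul_of_nonneg_right e4 (by positivity : 0 ≤ Y ^ 2 / 2)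
    have e6 := H.sumδ (k + 1)
    linarith
  have e6 := mul_le_mul_of_nonneg_left e2 (by linarith : 0 ≤ t' - t)
  nlinarith

theorem chord_conv {g : ℝ → ℝ} {R y1 y2 ρ : ℝ} (cv : ConvexOn ℝ (Icc 0 R) g)
    (hy1 : y1 ∈ Icc 0 R) (hy2 : y2 ∈ Icc 0 R) (d : 0 < y2 - y1) (w1 : 0 ≤ y2 - ρ)
    (w2 : 0 ≤ ρ - y1) : (y2 - y1) * g ρ ≤ (y2 - ρ) * g y1 + (ρ - y1) * g y2 := by
  have := cv.2 hy1 hy2 (div_nonneg w1 d.le) (div_nonneg w2 d.le) (by field_simp; ring)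
  have e1 : ((y2 - ρ) / (y2 - y1)) • y1 + ((ρ - y1) / (y2 - y1)) • y2 = ρ := by
    simp only [smul_eq_mul]; field_simp; ring
  rw [e1] at this
  simp only [smul_eq_mul] at this
  have e2 : (y2 - ρ) / (y2 - y1) * g y1 + (ρ - y1) / (y2 - y1) * g y2 =
    ((y2 - ρ) * g y1 + (ρ - y1) * g y2) / (y2 - y1) := by ring
  rw [e2, le_div_iff₀ d] at this
  linarith

theorem chord_up {y1 y2 ρ f1 f2 fρ g1 g2 gρ m s c1 c2 : ℝ} (d : 0 < y2 - y1)
    (w1 : 0 ≤ y2 - ρ) (w2 : 0 ≤ ρ - y1)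
    (cv : (y2 - y1) * fρ ≤ (y2 - ρ) * f1 + (ρ - y1) * f2)
    (i1 : f1 ≤ g1 + s * c1) (i2 : f2 ≤ g2 + s * c2)
    (j1 : g1 + m * (ρ - y1) ≤ gρ) (j2 : g2 + m * (ρ - y2) ≤ gρ) :
    fρ ≤ gρ + ((y2 - ρ) * c1 + (ρ - y1) * c2) / (y2 - y1) * s := by
  have k1 := mul_le_mul_of_nonneg_left i1 w1
  have k2 := mul_le_mul_of_nonneg_left i2 w2
  have m1 := mul_le_mul_of_nonneg_left j1 w1
  have m2 := mul_le_mul_of_nonneg_left j2 w2
  have e3 : (y2 - y1) * (gρ + ((y2 - ρ) * c1 + (ρ - y1) * c2) / (y2 - y1) * s) =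
      (y2 - y1) * gρ + ((y2 - ρ) * c1 + (ρ - y1) * c2) * s := by
    have : y2 - y1 ≠ 0 := d.ne'
    field_simp
  have goal : (y2 - y1) * fρ ≤
      (y2 - y1) * (gρ + ((y2 - ρ) * c1 + (ρ - y1) * c2) / (y2 - y1) * s) := by
    rw [e3]
    linarith
  exact le_of_mul_le_mul_left goal d

set_option maxHeartbeats 1000000 in
theorem KinkHyp.main (H : KinkHyp F ε δ h η R p q θ μ0 μm CL κ1 κ2 κ3 a' a b b' h0 E)
    (Finf : ℝ → ℝ → ℝ)
    (hconv : ∀ t, a' ≤ t → t ≤ b' → ConvexOn ℝ (Icc 0 R) (Finf t))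
    (hlim : ∀ e : ℝ, 0 < e → ∃ K : ℕ, ∀ k, K ≤ k → ∀ t ρ, a' ≤ t → t ≤ b' → 0 ≤ ρ → ρ ≤ R →
      |F k t ρ - Finf t ρ| ≤ e)
    (hε : Tendsto ε atTop (nhds 0)) (ρ1 ρ2 : ℝ) (hρ1 : p + 2 * θ ≤ ρ1) (hρ2 : ρ2 ≤ q - 2 * θ)
    (hfin : ∀ x0 x1 x2 ρ, 0 ≤ x0 → x0 ≤ 2 * θ → |x1 - p| ≤ 2 * θ → |x2 - q| ≤ 2 * θ →
      ρ1 ≤ ρ → ρ ≤ ρ2 →
      ((x2 - ρ) * (E * (x1 + θ) ^ 2 / 2 + κ3) + (ρ - x1) * (E * (x2 + θ) ^ 2 / 2 + κ3)) / (x2 - x1)
      + ((x2 - ρ) * (κ1 / h0 + κ3) + (ρ - x0) * (κ1 / h0 + κ3 - ε 0 * (x2 - θ) ^ 2 / 2)) / (x2 - x0)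
        < 0) :
    ∃ tc, a ≤ tc ∧ tc ≤ b ∧ ∀ ρ, ρ1 ≤ ρ → ρ ≤ ρ2 → ∃ eL eR, eR < eL ∧
      (∀ t, a' ≤ t → t < tc → Finf t ρ ≤ Finf tc ρ - eL * (tc - t)) ∧
      (∀ t, tc < t → t ≤ b' → Finf t ρ ≤ Finf tc ρ + eR * (t - tc)) := by
  have hθ := H.θpos
  have hp := H.pθ
  have hq := H.qθ
  have hqR := H.qR
  have hRp := H.Rpos
  have ha' := H.a'_pos
  have h0p := H.h0_pos
  have haa := H.a'a
  have hbb := H.bb'
  have hab := H.ab
  -- regularity of the limit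
  have hFl : ∀ t t' ρ, a' ≤ t → t ≤ b' → a' ≤ t' → t' ≤ b' → 0 ≤ ρ → ρ ≤ R →
      |Finf t ρ - Finf t' ρ| ≤ CL * |t - t'| := by
    intro t t' ρ h1 h2 h3 h4 h5 h6
    apply le_of_forall_pos_le_add
    intro e he
    obtain ⟨K, hK⟩ := hlim (e / 2) (by linarith)
    have e1 := abs_le.1 (hK K le_rfl t ρ h1 h2 h5 h6)
    have e2 := abs_le.1 (hK K le_rfl t' ρ h3 h4 h5 h6)
    have e3 := abs_le.1 (H.lip K t t' ρ h1 h2 h3 h4 h5 h6)
    exact abs_le.2 ⟨by linarith, by linarith⟩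
  have hFc : ∀ t, a' ≤ t → t ≤ b' → ContinuousOn (Finf t) (Icc 0 R) := by
    intro t h1 h2
    have hu : TendstoUniformlyOn (fun k => F k t) (Finf t) atTop (Icc 0 R) := by
      rw [Metric.tendstoUniformlyOn_iff]
      intro e he
      obtain ⟨K, hK⟩ := hlim (e / 2) (by linarith)
      filter_upwards [eventually_ge_atTop K] with k hk ρ hρ
      have := hK k hk t ρ h1 h2 hρ.1 hρ.2
      rw [dist_comm, Real.dist_eq]
      linarith
    exact hu.continuousOn (Frequently.of_forall fun k => H.cont k t h1 h2)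
  -- joint convergence
  have hjoint : ∀ (φ : ℕ → ℕ) (s y : ℕ → ℝ) (s' y' : ℝ), Tendsto φ atTop atTop →
      (∀ n, a' ≤ s n ∧ s n ≤ b') → (∀ n, 0 ≤ y n ∧ y n ≤ R) → a' ≤ s' → s' ≤ b' →
      0 ≤ y' → y' ≤ R → Tendsto s atTop (nhds s') → Tendsto y atTop (nhds y') →
      Tendsto (fun n => F (φ n) (s n) (y n)) atTop (nhds (Finf s' y')) := by
    intro φ s y s' y' hφ hs hy hs1 hs2 hy1 hy2 hts hty
    have t1 : Tendsto (fun n => Finf s' (y n)) atTop (nhds (Finf s' y')) := by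
      have := (hFc s' hs1 hs2) y' ⟨hy1, hy2⟩
      exact this.tendsto.comp (tendsto_nhdsWithin_iff.2 ⟨hty, Eventually.of_forall fun n => hy n⟩)
    rw [Metric.tendsto_atTop] at t1 hts ⊢
    intro e he
    obtain ⟨K, hK⟩ := hlim (e / 4) (by linarith)
    obtain ⟨N1, hN1⟩ := t1 (e / 4) (by linarith)
    have hCL := H.CL0
    obtain ⟨N2, hN2⟩ := hts (e / (4 * (CL + 1))) (by positivity)
    obtain ⟨N3, hN3⟩ := (eventually_atTop.1 (hφ.eventually_ge_atTop K))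
    refine ⟨max N1 (max N2 N3), fun n hn => ?_⟩
    have n1 : N1 ≤ n := le_trans (le_max_left _ _) hn
    have n2 : N2 ≤ n := le_trans (le_trans (le_max_left _ _) (le_max_right _ _)) hn
    have n3 : N3 ≤ n := le_trans (le_trans (le_max_right _ _) (le_max_right _ _)) hn
    have f1 := hK (φ n) (hN3 n n3) (s n) (y n) (hs n).1 (hs n).2 (hy n).1 (hy n).2
    have f2 := hFl (s n) s' (y n) (hs n).1 (hs n).2 hs1 hs2 (hy n).1 (hy n).2
    have f3 := hN1 n n1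
    have f4 := hN2 n n2
    rw [Real.dist_eq] at f3 f4 ⊢
    have f5 : CL * |s n - s'| ≤ e / 4 := by
      have : |s n - s'| ≤ e / (4 * (CL + 1)) := f4.le
      calc CL * |s n - s'| ≤ (CL + 1) * (e / (4 * (CL + 1))) := by
            apply mul_le_mul (by linarith) this (abs_nonneg _) (by linarith)
        _ = e / 4 := by field_simp
    have g1 := abs_le.1 f1
    have g2 := abs_le.1 f2
    have g3 := abs_lt.1 f3
    exact abs_lt.2 ⟨by linarith, by linarith⟩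
  -- extraction of a limit
  choose ts μs x0 x1 x2 tsa tsb hμs c0 c0' c1 c1' c2 c2' using fun k : ℕ => H.triple (k + 1)
  have hcomp : IsCompact ((Icc a b) ×ˢ (Icc (-μ0) μ0) ×ˢ (Icc 0 R) ×ˢ (Icc 0 R) ×ˢ (Icc (0:ℝ) R)) :=
    isCompact_Icc.prod (isCompact_Icc.prod (isCompact_Icc.prod (isCompact_Icc.prod isCompact_Icc)))
  obtain ⟨lim, hlimmem, φ, hφm, hφt⟩ := hcomp.tendsto_subseq
    (x := fun k => (ts k, μs k, x0 k, x1 k, x2 k)) (fun k => by
      refine ⟨⟨tsa k, tsb k⟩, abs_le.1 (hμs k), ⟨(c0 k).1, (c0 k).2.1⟩, ⟨(c1 k).1, (c1 k).2.1⟩,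
        ⟨(c2 k).1, (c2 k).2.1⟩⟩)
  obtain ⟨tc, μc, y0, y1, y2⟩ := lim
  obtain ⟨htc, hμc, hy0, hy1, hy2⟩ := hlimmem
  simp only at htc hμc hy0 hy1 hy2
  have Lt : Tendsto (fun n => ts (φ n)) atTop (nhds tc) :=
    (continuous_fst.tendsto _).comp hφt
  have Lμ : Tendsto (fun n => μs (φ n)) atTop (nhds μc) :=
    ((continuous_fst.comp continuous_snd).tendsto _).comp hφt
  have L0 : Tendsto (fun n => x0 (φ n)) atTop (nhds y0) :=
    ((continuous_fst.comp (continuous_snd.comp continuous_snd)).tendsto _).comp hφt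
  have L1 : Tendsto (fun n => x1 (φ n)) atTop (nhds y1) :=
    ((continuous_fst.comp (continuous_snd.comp (continuous_snd.comp continuous_snd))).tendsto
      _).comp hφt
  have L2 : Tendsto (fun n => x2 (φ n)) atTop (nhds y2) :=
    ((continuous_snd.comp (continuous_snd.comp (continuous_snd.comp continuous_snd))).tendsto
      _).comp hφt
  have hφ1 : Tendsto (fun n => φ n + 1) atTop atTop :=
    tendsto_atTop_mono (fun n => Nat.le_succ _) hφm.tendsto_atTop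
  have hεt : Tendsto (fun n => ε (φ n + 1)) atTop (nhds 0) := hε.comp hφ1
  have htc' : a' ≤ tc ∧ tc ≤ b' := ⟨by linarith [htc.1], by linarith [htc.2]⟩
  have htsb' : ∀ n, a' ≤ ts (φ n) ∧ ts (φ n) ≤ b' := fun n =>
    ⟨by linarith [tsa (φ n)], by linarith [tsb (φ n)]⟩
  -- the limiting supporting line
  have hline : ∀ (x : ℕ → ℝ) (y : ℝ), (∀ k, Contact (F (k + 1)) (ε (k + 1)) R (ts k) (μs k) (x k)) →
      Tendsto (fun n => x (φ n)) atTop (nhds y) → 0 ≤ y → y ≤ R →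
      ∀ ρ, 0 ≤ ρ → ρ ≤ R → Finf tc y + μc * (ρ - y) ≤ Finf tc ρ := by
    intro x y hx hxy hy0 hyR ρ h1 h2
    have A := hjoint (fun n => φ n + 1) (fun n => ts (φ n)) (fun n => x (φ n)) tc y hφ1 htsb'
      (fun n => ⟨(hx _).1, (hx _).2.1⟩) htc'.1 htc'.2 hy0 hyR Lt hxy
    have B := hjoint (fun n => φ n + 1) (fun n => ts (φ n)) (fun n => ρ) tc ρ hφ1 htsb'
      (fun n => ⟨h1, h2⟩) htc'.1 htc'.2 h1 h2 Lt tendsto_const_nhds
    have C1 : Tendsto (fun n => F (φ n + 1) (ts (φ n)) (x (φ n)) -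
        ts (φ n) * ε (φ n + 1) * (x (φ n)) ^ 2 / 2 + μs (φ n) * (ρ - x (φ n))) atTop
        (nhds (Finf tc y - tc * 0 * y ^ 2 / 2 + μc * (ρ - y))) := by
      apply Tendsto.add
      · apply Tendsto.sub A
        exact (((Lt.mul hεt).mul (hxy.pow 2)).div_const 2)
      · exact Lμ.mul (tendsto_const_nhds.sub hxy)
    have C2 : Tendsto (fun n => F (φ n + 1) (ts (φ n)) ρ -
        ts (φ n) * ε (φ n + 1) * ρ ^ 2 / 2) atTop (nhds (Finf tc ρ - tc * 0 * ρ ^ 2 / 2)) := by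
      apply Tendsto.sub B
      exact (((Lt.mul hεt).mul tendsto_const_nhds).div_const 2)
    have := le_of_tendsto_of_tendsto' C1 C2 (fun n => (hx (φ n)).2.2 ρ h1 h2)
    simpa using this
  -- left slopes
  have hleft : ∀ (x : ℕ → ℝ) (y : ℝ), (∀ k, Contact (F (k + 1)) (ε (k + 1)) R (ts k) (μs k) (x k)) →
      Tendsto (fun n => x (φ n)) atTop (nhds y) → 0 ≤ y → y ≤ R →
      ∀ t', a' ≤ t' → t' < tc → Finf t' y ≤ Finf tc y + (tc - t') * (E * (y + θ) ^ 2 / 2 + κ3) := by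
    intro x y hx hxy hy0 hyR t' h1 h2
    have A := hjoint (fun n => φ n + 1) (fun n => ts (φ n)) (fun n => x (φ n)) tc y hφ1 htsb'
      (fun n => ⟨(hx _).1, (hx _).2.1⟩) htc'.1 htc'.2 hy0 hyR Lt hxy
    have B := hjoint (fun n => φ n + 1) (fun n => t') (fun n => x (φ n)) t' y hφ1
      (fun n => ⟨h1, by linarith [htc'.2]⟩)
      (fun n => ⟨(hx _).1, (hx _).2.1⟩) h1 (by linarith [htc'.2]) hy0 hyR tendsto_const_nhds hxy
    have C1 : Tendsto (fun n => F (φ n + 1) (ts (φ n)) (x (φ n)) +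
        (ts (φ n) - t') * (E * (x (φ n) + θ) ^ 2 / 2 + κ3)) atTop
        (nhds (Finf tc y + (tc - t') * (E * (y + θ) ^ 2 / 2 + κ3))) := by
      apply A.add
      apply (Lt.sub tendsto_const_nhds).mul
      exact (((tendsto_const_nhds.mul ((hxy.add tendsto_const_nhds).pow 2)).div_const 2).add
        tendsto_const_nhds)
    apply le_of_tendsto_of_tendsto B C1
    have hev : ∀ᶠ n in atTop, t' < ts (φ n) := (tendsto_order.1 Lt).1 t' h2
    filter_upwards [hev] with n hn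
    have := H.slope_ge' (tsa (φ n)) (tsb (φ n)) (hμs (φ n)) (hx (φ n)) h1 hn
    linarith
  -- right slopes, two versions
  have hright : ∀ (x : ℕ → ℝ) (y : ℝ) (c : ℝ),
      (∀ k, Contact (F (k + 1)) (ε (k + 1)) R (ts k) (μs k) (x k)) →
      Tendsto (fun n => x (φ n)) atTop (nhds y) → 0 ≤ y → y ≤ R →
      (c = 0 ∨ (c = 1 ∧ ∀ k, θ ≤ x k)) →
      ∀ t', tc < t' → t' ≤ b' →
        Finf t' y ≤ Finf tc y + (t' - tc) * (κ1 / h0 + κ3 - ε 0 * (c * (y - θ)) ^ 2 / 2) := by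
    intro x y c hx hxy hy0 hyR hc t' h1 h2
    have A := hjoint (fun n => φ n + 1) (fun n => ts (φ n)) (fun n => x (φ n)) tc y hφ1 htsb'
      (fun n => ⟨(hx _).1, (hx _).2.1⟩) htc'.1 htc'.2 hy0 hyR Lt hxy
    have B := hjoint (fun n => φ n + 1) (fun n => t') (fun n => x (φ n)) t' y hφ1
      (fun n => ⟨by linarith [htc'.1], h2⟩)
      (fun n => ⟨(hx _).1, (hx _).2.1⟩) (by linarith [htc'.1]) h2 hy0 hyR tendsto_const_nhds hxy
    have C1 : Tendsto (fun n => F (φ n + 1) (ts (φ n)) (x (φ n)) +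
        (t' - ts (φ n)) * (κ1 / h0 + κ3 - ε 0 * (c * (x (φ n) - θ)) ^ 2 / 2)) atTop
        (nhds (Finf tc y + (t' - tc) * (κ1 / h0 + κ3 - ε 0 * (c * (y - θ)) ^ 2 / 2))) := by
      apply A.add
      apply (tendsto_const_nhds.sub Lt).mul
      apply tendsto_const_nhds.sub
      exact (tendsto_const_nhds.mul
        ((tendsto_const_nhds.mul (hxy.sub tendsto_const_nhds)).pow 2)).div_const 2
    apply le_of_tendsto_of_tendsto B C1
    have hev : ∀ᶠ n in atTop, ts (φ n) < t' := (tendsto_order.1 Lt).2 t' h1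
    filter_upwards [hev] with n hn
    rcases hc with hc | ⟨hc, hc'⟩
    · have := H.slope_le' (Y := 0) (tsa (φ n)) (tsb (φ n)) (hμs (φ n)) (hx (φ n)) h2 hn le_rfl
        (Or.inl rfl)
      rw [hc]
      have e : (0:ℝ) * (x (φ n) - θ) = 0 := by ring
      rw [e]
      linarith
    · have := H.slope_le' (Y := x (φ n) - θ) (tsa (φ n)) (tsb (φ n)) (hμs (φ n)) (hx (φ n)) h2 hn
        (by linarith [hc' (φ n)]) (Or.inr (by linarith))
      rw [hc, one_mul]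
      linarith
  -- locations
  have b0 : y0 ≤ 2 * θ := le_of_tendsto L0 (Eventually.of_forall fun n => c0' (φ n))
  have b1 : |y1 - p| ≤ 2 * θ :=
    le_of_tendsto ((L1.sub tendsto_const_nhds).abs) (Eventually.of_forall fun n => c1' (φ n))
  have b2 : |y2 - q| ≤ 2 * θ :=
    le_of_tendsto ((L2.sub tendsto_const_nhds).abs) (Eventually.of_forall fun n => c2' (φ n))
  have b1' := abs_le.1 b1
  have b2' := abs_le.1 b2
  have l0 := hline x0 y0 c0 L0 hy0.1 hy0.2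
  have l1 := hline x1 y1 c1 L1 hy1.1 hy1.2
  have l2 := hline x2 y2 c2 L2 hy2.1 hy2.2
  have s1 := hleft x1 y1 c1 L1 hy1.1 hy1.2
  have s2 := hleft x2 y2 c2 L2 hy2.1 hy2.2
  have r0 := hright x0 y0 0 c0 L0 hy0.1 hy0.2 (Or.inl rfl)
  have r2 := hright x2 y2 1 c2 L2 hy2.1 hy2.2 (Or.inr ⟨rfl, fun k => by
    have := abs_le.1 (c2' k); linarith⟩)
  refine ⟨tc, htc.1, htc.2, fun ρ hr1 hr2 => ?_⟩
  have hfin' := hfin y0 y1 y2 ρ hy0.1 b0 b1 b2 hr1 hr2
  have d12 : 0 < y2 - y1 := by linarith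
  have d02 : 0 < y2 - y0 := by linarith
  have hρ0 : 0 ≤ ρ := by linarith
  have hρR : ρ ≤ R := by linarith [hy2.2]
  have w1 : 0 ≤ y2 - ρ := by linarith
  have w2 : 0 ≤ ρ - y1 := by linarith
  have w3 : 0 ≤ ρ - y0 := by linarith
  refine ⟨-(((y2 - ρ) * (E * (y1 + θ) ^ 2 / 2 + κ3) + (ρ - y1) * (E * (y2 + θ) ^ 2 / 2 + κ3))
      / (y2 - y1)),
    ((y2 - ρ) * (κ1 / h0 + κ3) + (ρ - y0) * (κ1 / h0 + κ3 - ε 0 * (y2 - θ) ^ 2 / 2)) / (y2 - y0),
    by linarith, ?_, ?_⟩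
  · intro t ht1 ht2
    have := chord_up d12 w1 w2 (chord_conv (hconv t ht1 (by linarith [htc'.2])) hy1 hy2 d12 w1 w2)
      (s1 t ht1 ht2) (s2 t ht1 ht2) (l1 ρ hρ0 hρR) (l2 ρ hρ0 hρR)
    linarith
  · intro t ht1 ht2
    have i0 := r0 t ht1 ht2
    have i2 := r2 t ht1 ht2
    have e4 : κ1 / h0 + κ3 - ε 0 * (0 * (y0 - θ)) ^ 2 / 2 = κ1 / h0 + κ3 := by ring
    rw [e4] at i0
    rw [one_mul] at i2
    have := chord_up d02 w1 w3 (chord_conv (hconv t (by linarith [htc'.1]) ht2) hy0 hy2 d02 w1 w3)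
      i0 i2 (l0 ρ hρ0 hρR) (l2 ρ hρ0 hρR)
    linarith

end

end Crest.Agent.Gas
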