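import Crest.Agent.GasThermo
import Crest.Agent.GasKernel

/-! Module E, part A: cells and good translates (combinatorics for `Fe_lower_step`). -/

set_option autoImplicit false

namespace Crest.Agent.Gas

open MeasureTheory Crest.ProbabilityR.Continuum

namespace Lower

/-- integer translates cutting an interval -/
theorem cut_count {b : ℕ} (hb : 0 < b) {D0 x y : ℝ} (hxy : x ≤ y) (h : y - x < D0) :
    ((Finset.univ.filter (fun t : Fin b =>
      ⌊(x - (t : ℝ)) / (b : ℝ)⌋ ≠ ⌊(y - (t : ℝ)) / (b : ℝ)⌋)).card : ℝ) ≤ D0 + 1 := by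
  have hb' : (0 : ℝ) < b := by exact_mod_cast hb
  have h1 : (Finset.univ.filter (fun t : Fin b =>
      ⌊(x - (t : ℝ)) / (b : ℝ)⌋ ≠ ⌊(y - (t : ℝ)) / (b : ℝ)⌋)).card ≤
      (Finset.Ioc ⌊x⌋ ⌊y⌋).card := by
    apply Finset.card_le_card_of_injOn
      (fun t : Fin b => ((t : ℕ) : ℤ) + (b : ℤ) * ⌊(y - (t : ℝ)) / (b : ℝ)⌋)
    · intro t ht
      simp only [Finset.coe_filter, Finset.mem_univ, true_and, Set.mem_ofPred_eq] at ht
      have hle : ⌊(x - (t : ℝ)) / (b : ℝ)⌋ ≤ ⌊(y - (t : ℝ)) / (b : ℝ)⌋ := by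
        apply Int.floor_le_floor
        gcongr
      have hlt : ⌊(x - (t : ℝ)) / (b : ℝ)⌋ < ⌊(y - (t : ℝ)) / (b : ℝ)⌋ := lt_of_le_of_ne hle ht
      have h2 : (x - (t : ℝ)) / (b : ℝ) < (⌊(y - (t : ℝ)) / (b : ℝ)⌋ : ℝ) := by
        rwa [← Int.floor_lt]
      have h3 : (⌊(y - (t : ℝ)) / (b : ℝ)⌋ : ℝ) ≤ (y - (t : ℝ)) / (b : ℝ) := Int.floor_le _
      rw [div_lt_iff₀ hb'] at h2
      rw [le_div_iff₀ hb'] at h3
      simp only [Finset.coe_Ioc, Set.mem_Ioc]
      constructor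
      · rw [Int.floor_lt]
        push_cast
        linarith
      · rw [Int.le_floor]
        push_cast
        linarith
    · intro t ht t' ht' htt
      simp only at htt
      have h4 : ((t : ℕ) : ℤ) % b = ((t' : ℕ) : ℤ) % b := by
        have := congrArg (fun z : ℤ => z % b) htt
        simpa [Int.add_mul_emod_self_left] using this
      rw [Int.emod_eq_of_lt (by positivity) (by exact_mod_cast t.2),
        Int.emod_eq_of_lt (by positivity) (by exact_mod_cast t'.2)] at h4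
      apply Fin.ext
      exact_mod_cast h4
  have h2 : ((Finset.Ioc ⌊x⌋ ⌊y⌋).card : ℝ) ≤ D0 + 1 := by
    rw [Int.card_Ioc]
    have h3 : ⌊x⌋ ≤ ⌊y⌋ := Int.floor_le_floor hxy
    have h4 : (((⌊y⌋ - ⌊x⌋).toNat : ℕ) : ℝ) = ((⌊y⌋ - ⌊x⌋ : ℤ) : ℝ) := by
      have : (((⌊y⌋ - ⌊x⌋).toNat : ℕ) : ℤ) = ⌊y⌋ - ⌊x⌋ := Int.toNat_of_nonneg (by omega)
      exact_mod_cast this
    rw [h4]
    push_cast
    have := Int.floor_le y
    have := Int.lt_floor_add_one x
    linarith
  calc ((Finset.univ.filter (fun t : Fin b =>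
      ⌊(x - (t : ℝ)) / (b : ℝ)⌋ ≠ ⌊(y - (t : ℝ)) / (b : ℝ)⌋)).card : ℝ)
      ≤ ((Finset.Ioc ⌊x⌋ ⌊y⌋).card : ℝ) := by exact_mod_cast h1
    _ ≤ D0 + 1 := h2

theorem cut_count' {b : ℕ} (hb : 0 < b) {D0 x y : ℝ} (h : |x - y| < D0) :
    ((Finset.univ.filter (fun t : Fin b =>
      ⌊(x - (t : ℝ)) / (b : ℝ)⌋ ≠ ⌊(y - (t : ℝ)) / (b : ℝ)⌋)).card : ℝ) ≤ D0 + 1 := by
  rcases le_total x y with hxy | hxy
  · exact cut_count hb hxy (by rw [abs_sub_comm, abs_of_nonneg (by linarith)] at h; exact h)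
  · have := cut_count hb hxy (D0 := D0) (by rw [abs_of_nonneg (by linarith)] at h; exact h)
    simpa only [ne_comm] using this

/-- the translate vector -/
noncomputable def tv {b : ℕ} (t : Fin 3 → Fin b) : Fin 3 → ℝ := fun i => ((t i : ℕ) : ℝ)

theorem abs_coord_le (y z : Pt) (i : Fin 3) : |y i - z i| ≤ dist y z := by
  rw [dist_eq_norm]
  exact PiLp.norm_apply_le (y - z) i

theorem cell_cut {b : ℕ} (hb : 0 < b) {D0 : ℝ} {y z : Pt} (h : dist y z < D0) :
    ((Finset.univ.filter (fun t : Fin 3 → Fin b =>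
      cellIdx b (tv t) y ≠ cellIdx b (tv t) z)).card : ℝ) ≤ 3 * (D0 + 1) * b ^ 2 := by
  classical
  set A : Fin 3 → Finset (Fin b) := fun i => Finset.univ.filter (fun t : Fin b =>
      ⌊(y i - (t : ℝ)) / (b : ℝ)⌋ ≠ ⌊(z i - (t : ℝ)) / (b : ℝ)⌋) with hA
  have hAc : ∀ i, ((A i).card : ℝ) ≤ D0 + 1 := by
    intro i
    exact cut_count' hb (lt_of_le_of_lt (abs_coord_le y z i) h)
  have hsub : (Finset.univ.filter (fun t : Fin 3 → Fin b =>
      cellIdx b (tv t) y ≠ cellIdx b (tv t) z)) ⊆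
      Finset.univ.biUnion (fun i : Fin 3 =>
        Fintype.piFinset (fun j : Fin 3 => if j = i then A i else Finset.univ)) := by
    intro t ht
    simp only [Finset.mem_filter, Finset.mem_univ, true_and] at ht
    obtain ⟨i, hi⟩ := Function.ne_iff.1 ht
    simp only [Finset.mem_biUnion, Finset.mem_univ, true_and, Fintype.mem_piFinset]
    refine ⟨i, fun j => ?_⟩
    by_cases hji : j = i
    · subst hji
      simp only [if_true, hA, Finset.mem_filter, Finset.mem_univ, true_and]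
      exact hi
    · simp [hji]
  have hcard : ∀ i : Fin 3,
      ((Fintype.piFinset (fun j : Fin 3 => if j = i then A i else Finset.univ)).card : ℝ) ≤
        (D0 + 1) * b ^ 2 := by
    intro i
    rw [Fintype.card_piFinset]
    have : (∏ j : Fin 3, (if j = i then A i else (Finset.univ : Finset (Fin b))).card) =
        (A i).card * b ^ 2 := by
      fin_cases i <;> simp [Fin.prod_univ_three] <;> ring
    rw [this]
    push_cast
    have := hAc i
    gcongr
  calc ((Finset.univ.filter (fun t : Fin 3 → Fin b =>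
      cellIdx b (tv t) y ≠ cellIdx b (tv t) z)).card : ℝ)
      ≤ ((Finset.univ.biUnion (fun i : Fin 3 =>
        Fintype.piFinset (fun j : Fin 3 => if j = i then A i else Finset.univ))).card : ℝ) := by
        exact_mod_cast Finset.card_le_card hsub
    _ ≤ ((∑ i : Fin 3,
        (Fintype.piFinset (fun j : Fin 3 => if j = i then A i else Finset.univ)).card : ℕ) : ℝ) := by
        exact_mod_cast Finset.card_biUnion_le
    _ ≤ ∑ i : Fin 3, (D0 + 1) * (b : ℝ) ^ 2 := by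
        push_cast
        exact Finset.sum_le_sum fun i _ => hcard i
    _ = 3 * (D0 + 1) * b ^ 2 := by
        simp
        ring

open Classical in
/-- the interaction restricted to pairs in the same cell -/
noncomputable def same {b : ℕ} (t : Fin 3 → Fin b) (W : Pt → Pt → ℝ) : Pt → Pt → ℝ :=
  fun y z => if cellIdx b (tv t) y = cellIdx b (tv t) z then W y z else 0

theorem pairE_sum {κ : Type} (s : Finset κ) (W : κ → Pt → Pt → ℝ) {ι : Type} [Fintype ι]
    (x : ι → Pt) : pairE (fun y z => ∑ k ∈ s, W k y z) x = ∑ k ∈ s, pairE (W k) x := by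
  unfold pairE
  rw [← Finset.mul_sum, Finset.sum_sub_distrib]
  congr 2
  · calc ∑ i, ∑ j, ∑ k ∈ s, W k (x i) (x j) = ∑ i, ∑ k ∈ s, ∑ j, W k (x i) (x j) :=
        Finset.sum_congr rfl fun i _ => Finset.sum_comm
      _ = ∑ k ∈ s, ∑ i, ∑ j, W k (x i) (x j) := Finset.sum_comm
  · rw [Finset.sum_comm]

theorem same_count {b : ℕ} (hb : 0 < b) {D0 : ℝ} {y z : Pt} (h : dist y z < D0) :
    (b : ℝ) ^ 3 - 3 * (D0 + 1) * b ^ 2 ≤
      ((Finset.univ.filter (fun t : Fin 3 → Fin b =>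
        cellIdx b (tv t) y = cellIdx b (tv t) z)).card : ℝ) := by
  classical
  have h1 := cell_cut hb h
  have h2 := Finset.card_filter_add_card_filter_not (s := (Finset.univ : Finset (Fin 3 → Fin b)))
    (fun t : Fin 3 → Fin b => cellIdx b (tv t) y = cellIdx b (tv t) z)
  have h3 : ((Finset.univ : Finset (Fin 3 → Fin b)).card : ℝ) = (b : ℝ) ^ 3 := by
    simp
  rw [← h3, ← h2]
  push_cast
  have h4 : ((Finset.univ.filter (fun t : Fin 3 → Fin b =>
      ¬ cellIdx b (tv t) y = cellIdx b (tv t) z)).card : ℝ) ≤ 3 * (D0 + 1) * b ^ 2 := h1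
  linarith

theorem sum_same_ge {b : ℕ} (hb : 0 < b) {D0 : ℝ} {Ψ : ℝ → ℝ} (h0 : ∀ r, 0 ≤ Ψ r)
    (hD : ∀ r, D0 ≤ r → Ψ r = 0) (y z : Pt) :
    ((b : ℝ) ^ 3 - 3 * (D0 + 1) * b ^ 2) * rad Ψ y z ≤
      ∑ t : Fin 3 → Fin b, same t (rad Ψ) y z := by
  classical
  have h1 : ∑ t : Fin 3 → Fin b, same t (rad Ψ) y z =
      ((Finset.univ.filter (fun t : Fin 3 → Fin b =>
        cellIdx b (tv t) y = cellIdx b (tv t) z)).card : ℝ) * rad Ψ y z := by
    unfold same
    rw [← Finset.sum_filter, Finset.sum_const, nsmul_eq_mul]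
  rw [h1]
  by_cases h : dist y z < D0
  · exact mul_le_mul_of_nonneg_right (same_count hb h) (h0 _)
  · have : rad Ψ y z = 0 := hD _ (not_lt.1 h)
    rw [this]
    simp

/-- A good translate: most of the `Ψ`-energy is inside the cells. -/
theorem exists_good {b : ℕ} {D0 : ℝ} {Ψ : ℝ → ℝ} (h0 : ∀ r, 0 ≤ Ψ r)
    (hD : ∀ r, D0 ≤ r → Ψ r = 0) (hD0 : 1 ≤ D0) (hb : 12 * (D0 + 1) ≤ (b : ℝ))
    {ι : Type} [Fintype ι] (x : ι → Pt) :
    ∃ t : Fin 3 → Fin b, pairE (rad Ψ) x ≤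
      (1 + 6 * (D0 + 1) / b) * pairE (same t (rad Ψ)) x := by
  have hb0 : (0 : ℝ) < b := by linarith
  have hb1 : 0 < b := by exact_mod_cast hb0
  by_contra hcon
  push Not at hcon
  have hne : (Finset.univ : Finset (Fin 3 → Fin b)).Nonempty :=
    ⟨fun _ => ⟨0, hb1⟩, Finset.mem_univ _⟩
  have h1 : ∑ t : Fin 3 → Fin b, (1 + 6 * (D0 + 1) / b) * pairE (same t (rad Ψ)) x <
      ∑ t : Fin 3 → Fin b, pairE (rad Ψ) x :=
    Finset.sum_lt_sum_of_nonempty hne fun t _ => hcon t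
  rw [← Finset.mul_sum, ← pairE_sum, Finset.sum_const, nsmul_eq_mul] at h1
  have h3 : ((Finset.univ : Finset (Fin 3 → Fin b)).card : ℝ) = (b : ℝ) ^ 3 := by
    simp
  rw [h3] at h1
  have h2 : ((b : ℝ) ^ 3 - 3 * (D0 + 1) * b ^ 2) * pairE (rad Ψ) x ≤
      pairE (fun y z => ∑ t : Fin 3 → Fin b, same t (rad Ψ) y z) x := by
    have h4 := pairE_lin ((b : ℝ) ^ 3 - 3 * (D0 + 1) * b ^ 2) 0 (rad Ψ) (rad Ψ) x
    rw [zero_mul, add_zero] at h4
    rw [← h4]
    apply pairE_mono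
    intro i j _
    rw [zero_mul, add_zero]
    exact sum_same_ge hb1 h0 hD _ _
  have hE : 0 ≤ pairE (rad Ψ) x := by
    have h5 : pairE (fun _ _ => (0 : ℝ)) x ≤ pairE (rad Ψ) x :=
      pairE_mono x fun i j _ => h0 _
    have h6 : pairE (fun _ _ => (0 : ℝ)) x = 0 := by
      unfold pairE
      simp
    linarith
  have hpos : 0 ≤ 1 + 6 * (D0 + 1) / b := by positivity
  have h7 := mul_le_mul_of_nonneg_left h2 hpos
  have h8 : (b : ℝ) ^ 3 ≤
      (1 + 6 * (D0 + 1) / b) * ((b : ℝ) ^ 3 - 3 * (D0 + 1) * b ^ 2) := by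
    have : (1 + 6 * (D0 + 1) / b) * ((b : ℝ) ^ 3 - 3 * (D0 + 1) * b ^ 2) =
        b ^ 3 + 3 * (D0 + 1) * b * (b - 6 * (D0 + 1)) := by
      field_simp
      ring
    rw [this]
    have : 0 ≤ 3 * (D0 + 1) * b * (b - 6 * (D0 + 1)) := by
      apply mul_nonneg
      · positivity
      · linarith
    linarith
  have h9 := mul_le_mul_of_nonneg_right h8 hE
  nlinarith [h1, h7, h9]

/-! ### the cell interaction -/

/-- The comparison interaction: `u0` everywhere, minus `(1+s) Ψ + c` inside the cells. -/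
noncomputable def Ut {b : ℕ} (t : Fin 3 → Fin b) (u0 Ψ : ℝ → ℝ) (s c : ℝ) : Pt → Pt → ℝ :=
  fun y z => rad u0 y z - same t (fun y z => (1 + s) * rad Ψ y z + c) y z

theorem pairE_same_one {b : ℕ} (t : Fin 3 → Fin b) {N : ℕ} (x : Fin N → Pt) :
    pairE (same t (fun _ _ => (1 : ℝ))) x = (1 / 2) * (Qc b (tv t) x - N) := by
  unfold pairE same Qc
  simp

theorem pairE_Ut {b : ℕ} (t : Fin 3 → Fin b) (u0 Ψ : ℝ → ℝ) (s c : ℝ) {N : ℕ} (x : Fin N → Pt) :
    pairE (Ut t u0 Ψ s c) x = pairE (rad u0) x - (1 + s) * pairE (same t (rad Ψ)) x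
      - c * ((1 / 2) * (Qc b (tv t) x - N)) := by
  have h1 : Ut t u0 Ψ s c = fun y z => 1 * rad u0 y z +
      (-1) * (fun y z => (1 + s) * same t (rad Ψ) y z + c * same t (fun _ _ => (1 : ℝ)) y z) y z := by
    funext y z
    by_cases h : cellIdx b (tv t) y = cellIdx b (tv t) z
    · simp only [Ut, same, if_pos h]
      ring
    · simp only [Ut, same, if_neg h]
      ring
  rw [h1, pairE_lin, pairE_lin, pairE_same_one]
  ring

theorem measurable_cellIdx (b : ℝ) (τ : Fin 3 → ℝ) : Measurable (cellIdx b τ) := by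
  unfold cellIdx
  rw [measurable_pi_iff]
  intro i
  apply Int.measurable_floor.comp
  apply Measurable.div_const
  apply Measurable.sub_const
  fun_prop

theorem measurable_same {b : ℕ} (t : Fin 3 → Fin b) {W : Pt → Pt → ℝ}
    (hW : Measurable (Function.uncurry W)) : Measurable (Function.uncurry (same t W)) := by
  have h1 : MeasurableSet {p : Pt × Pt | cellIdx b (tv t) p.1 = cellIdx b (tv t) p.2} :=
    measurableSet_eq_fun ((measurable_cellIdx _ _).comp measurable_fst)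
      ((measurable_cellIdx _ _).comp measurable_snd)
  have h2 : Function.uncurry (same t W) = fun p : Pt × Pt =>
      if cellIdx b (tv t) p.1 = cellIdx b (tv t) p.2 then Function.uncurry W p else 0 := by
    funext ⟨y, z⟩
    rfl
  rw [h2]
  exact Measurable.ite h1 hW measurable_const

theorem measurable_Ut {b : ℕ} (t : Fin 3 → Fin b) {u0 Ψ : ℝ → ℝ} (s c : ℝ)
    (hu : Measurable u0) (hΨ : Measurable Ψ) :
    Measurable (Function.uncurry (Ut t u0 Ψ s c)) := by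
  have h1 : Measurable (Function.uncurry (same t (fun y z => (1 + s) * rad Ψ y z + c))) := by
    apply measurable_same
    exact ((measurable_rad hΨ).const_mul (1 + s)).add_const c
  exact (measurable_rad hu).sub h1

theorem Ut_symm {b : ℕ} (t : Fin 3 → Fin b) (u0 Ψ : ℝ → ℝ) (s c : ℝ) (y z : Pt) :
    Ut t u0 Ψ s c y z = Ut t u0 Ψ s c z y := by
  by_cases h : cellIdx b (tv t) y = cellIdx b (tv t) z
  · simp only [Ut, same, rad, if_pos h, if_pos h.symm, dist_comm y z]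
  · simp only [Ut, same, rad, if_neg h, if_neg (Ne.symm h), dist_comm y z]

theorem Ut_cross {b : ℕ} (t : Fin 3 → Fin b) {u0 : ℝ → ℝ} (Ψ : ℝ → ℝ) (s c : ℝ)
    (hu : ∀ r, 0 ≤ u0 r) {y z : Pt} (h : cellIdx b (tv t) y ≠ cellIdx b (tv t) z) :
    0 ≤ Ut t u0 Ψ s c y z := by
  unfold Ut same rad
  rw [if_neg h, sub_zero]
  exact hu _

theorem Ut_same {b : ℕ} (t : Fin 3 → Fin b) (u0 Ψ : ℝ → ℝ) (s c : ℝ)
    {y z : Pt} (h : cellIdx b (tv t) y = cellIdx b (tv t) z) :
    Ut t u0 Ψ s c y z = rad (fun r => u0 r - (1 + s) * Ψ r) y z - c := by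
  unfold Ut same rad
  rw [if_pos h]
  ring

/-! ### main energy comparison -/

theorem energy_key {b : ℕ} {D0 ε R : ℝ} {u0 Ψ : ℝ → ℝ} (h0 : ∀ r, 0 ≤ Ψ r)
    (hD : ∀ r, D0 ≤ r → Ψ r = 0) (hD0 : 1 ≤ D0) (hb : 12 * (D0 + 1) ≤ (b : ℝ)) (hR : 0 < R)
    (hε : 0 ≤ ε) {N : ℕ} (x : Fin N → Pt) :
    ∃ t : Fin 3 → Fin b,
      pairE (Ut t u0 Ψ (6 * (D0 + 1) / b) (ε * ((1 + 2 * b / R) ^ 6 / b ^ 3))) x
        - (ε * ((1 + 2 * b / R) ^ 6 / b ^ 3)) * N / 2 ≤
      pairE (rad (fun r => u0 r - Ψ r - ε * KK R r)) x := by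
  obtain ⟨t, ht⟩ := exists_good h0 hD hD0 hb x
  refine ⟨t, ?_⟩
  rw [pairE_Ut]
  have hb0 : (0 : ℝ) < b := by linarith
  have h1 : pairE (rad (fun r => u0 r - Ψ r - ε * KK R r)) x =
      pairE (rad u0) x - pairE (rad Ψ) x - ε * pairE (rad (KK R)) x := by
    have h2 : rad (fun r => u0 r - Ψ r - ε * KK R r) = fun y z => 1 * rad u0 y z +
      (-1) * (fun y z => 1 * rad Ψ y z + ε * rad (KK R) y z) y z := by
      funext y z
      unfold rad
      ring
    rw [h2, pairE_lin, pairE_lin]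
    ring
  rw [h1]
  have h3 : pairE (rad (KK R)) x ≤ (1 / 2) * ((1 + 2 * b / R) ^ 6 / b ^ 3 * Qc b (tv t) x) := by
    unfold pairE
    have h4 := KK_pair_le hR hb0 (tv t) x
    have h5 : 0 ≤ ∑ i, rad (KK R) (x i) (x i) := Finset.sum_nonneg fun i _ => KK_nonneg _ _
    have h6 : ∑ i, ∑ j, rad (KK R) (x i) (x j) = ∑ i, ∑ j, KK R (dist (x i) (x j)) := rfl
    rw [h6]
    linarith
  have h7 := mul_le_mul_of_nonneg_left h3 hε
  linarith

theorem Zf_le_sum {b : ℕ} {D0 ε R : ℝ} {u0 Ψ : ℝ → ℝ} (h0 : ∀ r, 0 ≤ Ψ r)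
    (hD : ∀ r, D0 ≤ r → Ψ r = 0) (hD0 : 1 ≤ D0) (hb : 12 * (D0 + 1) ≤ (b : ℝ)) (hR : 0 < R)
    (hε : 0 ≤ ε) (hu : Measurable u0) (hΨ : Measurable Ψ) (D : Set Pt) (N : ℕ) :
    Zf (rad (fun r => u0 r - Ψ r - ε * KK R r)) D N ≤
      ENNReal.ofReal (Real.exp ((ε * ((1 + 2 * b / R) ^ 6 / b ^ 3)) * N / 2)) *
        ∑ t : Fin 3 → Fin b,
          Zf (Ut t u0 Ψ (6 * (D0 + 1) / b) (ε * ((1 + 2 * b / R) ^ 6 / b ^ 3))) D N := by
  set c := ε * ((1 + 2 * b / R) ^ 6 / b ^ 3) with hc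
  set s := 6 * (D0 + 1) / b with hs
  unfold Zf
  rw [← Finset.mul_sum, ← mul_assoc, mul_comm (ENNReal.ofReal _), mul_assoc]
  gcongr
  rw [← lintegral_finsetSum]
  · rw [← lintegral_const_mul]
    · apply lintegral_mono
      intro x
      obtain ⟨t, ht⟩ := energy_key (u0 := u0) h0 hD hD0 hb hR hε x
      rw [← hc, ← hs] at ht
      calc ENNReal.ofReal (Real.exp (-pairE (rad fun r => u0 r - Ψ r - ε * KK R r) x))
          ≤ ENNReal.ofReal (Real.exp (c * N / 2) * Real.exp (-pairE (Ut t u0 Ψ s c) x)) := by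
            apply ENNReal.ofReal_le_ofReal
            rw [← Real.exp_add]
            apply Real.exp_le_exp.2
            linarith
        _ = ENNReal.ofReal (Real.exp (c * N / 2)) *
              ENNReal.ofReal (Real.exp (-pairE (Ut t u0 Ψ s c) x)) :=
            ENNReal.ofReal_mul (Real.exp_pos _).le
        _ ≤ ENNReal.ofReal (Real.exp (c * N / 2)) *
              ∑ t : Fin 3 → Fin b, ENNReal.ofReal (Real.exp (-pairE (Ut t u0 Ψ s c) x)) := by
            gcongr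
            exact Finset.single_le_sum
              (f := fun t => ENNReal.ofReal (Real.exp (-pairE (Ut t u0 Ψ s c) x)))
              (fun _ _ => zero_le) (Finset.mem_univ t)
    · apply Finset.measurable_sum
      intro t _
      exact ENNReal.measurable_ofReal.comp (Real.measurable_exp.comp
        (measurable_pairE (measurable_Ut t s c hu hΨ)).neg)
  · intro t _
    exact ENNReal.measurable_ofReal.comp (Real.measurable_exp.comp
      (measurable_pairE (measurable_Ut t s c hu hΨ)).neg)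

end Lower

end Crest.Agent.Gas
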