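import Crest.Agent.GasLowerA

/-! Module E, part B: decomposition of the partition function into cells. -/

set_option autoImplicit false

namespace Crest.Agent.Gas

open MeasureTheory Crest.ProbabilityR.Continuum Filter

namespace Lower

theorem pairE_cell {b : ℕ} (t : Fin 3 → Fin b) (u0 Ψ : ℝ → ℝ) (s c : ℝ) (k : Fin 3 → ℤ)
    {n : ℕ} (x : Fin n → Pt) (hx : ∀ i, cellIdx b (tv t) (x i) = k) :
    pairE (Ut t u0 Ψ s c) x = pairE (rad (fun r => u0 r - (1 + s) * Ψ r)) x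
      - c * ((n : ℝ) * (n - 1) / 2) := by
  have h : ∀ i j, Ut t u0 Ψ s c (x i) (x j) =
      rad (fun r => u0 r - (1 + s) * Ψ r) (x i) (x j) - c := fun i j =>
    Ut_same t u0 Ψ s c ((hx i).trans (hx j).symm)
  unfold pairE
  simp only [h, Finset.sum_sub_distrib, Finset.sum_const, Finset.card_univ, Fintype.card_fin,
    nsmul_eq_mul]
  ring

theorem Zf_cell_le {b : ℕ} (hb : 0 < b) (t : Fin 3 → Fin b) (u0 Ψ : ℝ → ℝ) (s c : ℝ)
    (k : Fin 3 → ℤ) (n : ℕ) :
    Zf (Ut t u0 Ψ s c) {y | cellIdx b (tv t) y = k} n ≤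
      Zf (rad (fun r => u0 r - (1 + s) * Ψ r)) (cube b) n *
        ENNReal.ofReal (Real.exp (c * ((n : ℝ) * (n - 1) / 2))) := by
  have hb' : (0 : ℝ) < b := by exact_mod_cast hb
  have hmeas : MeasurableSet {y | cellIdx b (tv t) y = k} :=
    (measurable_cellIdx _ _) (measurableSet_singleton k)
  set D : Set Pt := {y | cellIdx b (tv t) y = k} with hD
  have h1 : Zf (Ut t u0 Ψ s c) D n =
      Zf (rad (fun r => u0 r - (1 + s) * Ψ r)) D n *
        ENNReal.ofReal (Real.exp (c * ((n : ℝ) * (n - 1) / 2))) := by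
    unfold Zf
    rw [mul_assoc, ← lintegral_mul_const']
    · congr 1
      apply setLIntegral_congr_fun
      · exact MeasurableSet.univ_pi fun _ => hmeas
      · intro x hx
        dsimp only
        rw [pairE_cell t u0 Ψ s c k x (fun i => hx i (Set.mem_univ i)),
          ← ENNReal.ofReal_mul (Real.exp_pos _).le, ← Real.exp_add]
        congr 2
        ring
    · exact ENNReal.ofReal_ne_top
  rw [h1]
  gcongr
  let a : Pt := WithLp.toLp 2 (fun i => tv t i + b * (k i : ℝ))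
  rw [← Zf_translate _ (cube b) a n]
  apply Zf_mono_set
  intro y hy
  have hy' : ∀ i, ⌊(y i - tv t i) / b⌋ = k i := fun i => congrFun hy i
  intro i
  have h2 := Int.floor_le ((y i - tv t i) / b)
  have h3 := Int.lt_floor_add_one ((y i - tv t i) / b)
  rw [hy' i] at h2 h3
  rw [le_div_iff₀ hb'] at h2
  rw [div_lt_iff₀ hb'] at h3
  have h4 : (y - a) i = y i - (tv t i + b * (k i : ℝ)) := rfl
  rw [h4]
  constructor <;> linarith

/-- the one-cell grand canonical sum -/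
noncomputable def Sig (w : ℝ → ℝ) (b : ℕ) (c μ : ℝ) : ENNReal :=
  ∑' n : ℕ, Zf (rad w) (cube b) n * ENNReal.ofReal (Real.exp (μ * n + c * n ^ 2 / 2))

theorem Zf_grid_le {b : ℕ} (hb : 0 < b) (t : Fin 3 → Fin b) {u0 Ψ : ℝ → ℝ} (s c μ : ℝ)
    (hu0 : ∀ r, 0 ≤ u0 r) (hu : Measurable u0) (hΨ : Measurable Ψ) {L : ℝ} (hL : 0 ≤ L) (N : ℕ) :
    Zf (Ut t u0 Ψ s c) (cube L) N * ENNReal.ofReal (Real.exp (μ + c / 2)) ^ N ≤
      Sig (fun r => u0 r - (1 + s) * Ψ r) b c μ ^ ((⌊L / b⌋₊ + 2) ^ 3) := by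
  classical
  have hb' : (0 : ℝ) < b := by exact_mod_cast hb
  set K : Finset (Fin 3 → ℤ) := Fintype.piFinset (fun _ : Fin 3 => Finset.Icc (-1) ⌊L / b⌋) with hK
  have hcard : K.card = (⌊L / b⌋₊ + 2) ^ 3 := by
    rw [hK, Fintype.card_piFinset]
    simp only [Int.card_Icc, Finset.prod_const, Finset.card_univ, Fintype.card_fin]
    congr 1
    have h1 : ((⌊L / b⌋₊ : ℕ) : ℤ) = ⌊L / b⌋ := by
      rw [Int.natCast_floor_eq_floor]
      positivity
    omega
  have hcover : cube L ⊆ ⋃ k ∈ K, {y | cellIdx b (tv t) y = k} := by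
    intro y hy
    simp only [Set.mem_iUnion]
    refine ⟨cellIdx b (tv t) y, ?_, rfl⟩
    rw [hK, Fintype.mem_piFinset]
    intro i
    obtain ⟨h1, h2⟩ := hy i
    have h3 : (tv t i : ℝ) < b := by
      unfold tv
      exact_mod_cast (t i).2
    have h3' : 0 ≤ tv t i := by
      unfold tv
      positivity
    rw [Finset.mem_Icc]
    constructor
    · unfold cellIdx
      rw [Int.le_floor]
      push_cast
      rw [le_div_iff₀ hb']
      linarith
    · unfold cellIdx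
      apply Int.floor_le_floor
      gcongr
      linarith
  have h1 : Zf (Ut t u0 Ψ s c) (cube L) N ≤
      Zf (Ut t u0 Ψ s c) (⋃ k ∈ K, {y | cellIdx b (tv t) y = k}) N := Zf_mono_set _ hcover N
  have h2 := Zf_biUnion_le (measurable_Ut t s c hu hΨ) (Ut_symm t u0 Ψ s c) K
    (fun k => {y | cellIdx b (tv t) y = k})
    (fun k _ => (measurable_cellIdx _ _) (measurableSet_singleton k))
    (by
      intro k _ k' _ hkk
      rw [Set.disjoint_left]
      intro y hy hy'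
      exact hkk ((show cellIdx b (tv t) y = k from hy).symm.trans hy'))
    (by
      intro k _ k' _ hkk y hy z hz
      apply Ut_cross t Ψ s c hu0
      intro h
      exact hkk ((show cellIdx b (tv t) y = k from hy).symm.trans (h.trans hz)))
    N (ENNReal.ofReal (Real.exp (μ + c / 2)))
  calc Zf (Ut t u0 Ψ s c) (cube L) N * ENNReal.ofReal (Real.exp (μ + c / 2)) ^ N
      ≤ Zf (Ut t u0 Ψ s c) (⋃ k ∈ K, {y | cellIdx b (tv t) y = k}) N *
          ENNReal.ofReal (Real.exp (μ + c / 2)) ^ N := by gcongr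
    _ ≤ ∏ k ∈ K, ∑' n : ℕ, Zf (Ut t u0 Ψ s c) {y | cellIdx b (tv t) y = k} n *
          ENNReal.ofReal (Real.exp (μ + c / 2)) ^ n := h2
    _ ≤ ∏ k ∈ K, Sig (fun r => u0 r - (1 + s) * Ψ r) b c μ := by
        apply Finset.prod_le_prod'
        intro k _
        unfold Sig
        apply ENNReal.tsum_le_tsum
        intro n
        calc Zf (Ut t u0 Ψ s c) {y | cellIdx b (tv t) y = k} n *
              ENNReal.ofReal (Real.exp (μ + c / 2)) ^ n
            ≤ (Zf (rad (fun r => u0 r - (1 + s) * Ψ r)) (cube b) n *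
                ENNReal.ofReal (Real.exp (c * ((n : ℝ) * (n - 1) / 2)))) *
              ENNReal.ofReal (Real.exp (μ + c / 2)) ^ n := by
              gcongr
              exact Zf_cell_le hb t u0 Ψ s c k n
          _ = Zf (rad (fun r => u0 r - (1 + s) * Ψ r)) (cube b) n *
                ENNReal.ofReal (Real.exp (μ * n + c * n ^ 2 / 2)) := by
              rw [mul_assoc]
              congr 1
              rw [← ENNReal.ofReal_pow (Real.exp_pos _).le, ← Real.exp_nat_mul,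
                ← ENNReal.ofReal_mul (Real.exp_pos _).le, ← Real.exp_add]
              congr 2
              ring
    _ = Sig (fun r => u0 r - (1 + s) * Ψ r) b c μ ^ ((⌊L / b⌋₊ + 2) ^ 3) := by
        rw [Finset.prod_const, hcard]

theorem Zf_main {b : ℕ} {D0 ε R μ : ℝ} {u0 Ψ : ℝ → ℝ} (hu0 : ∀ r, 0 ≤ u0 r) (h0 : ∀ r, 0 ≤ Ψ r)
    (hD : ∀ r, D0 ≤ r → Ψ r = 0) (hD0 : 1 ≤ D0) (hb : 12 * (D0 + 1) ≤ (b : ℝ)) (hR : 0 < R)
    (hε : 0 ≤ ε) (hu : Measurable u0) (hΨ : Measurable Ψ) {L : ℝ} (hL : 0 ≤ L) (N : ℕ) :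
    Zf (rad (fun r => u0 r - Ψ r - ε * KK R r)) (cube L) N * ENNReal.ofReal (Real.exp (μ * N)) ≤
      (b : ENNReal) ^ 3 * Sig (fun r => u0 r - (1 + 6 * (D0 + 1) / b) * Ψ r) b
        (ε * ((1 + 2 * b / R) ^ 6 / b ^ 3)) μ ^ ((⌊L / b⌋₊ + 2) ^ 3) := by
  have hb0 : (0 : ℝ) < b := by linarith
  have hb1 : 0 < b := by exact_mod_cast hb0
  set c := ε * ((1 + 2 * b / R) ^ 6 / b ^ 3) with hc
  set s := 6 * (D0 + 1) / b with hs
  have h1 := Zf_le_sum (u0 := u0) h0 hD hD0 hb hR hε hu hΨ (cube L) N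
  rw [← hc, ← hs] at h1
  calc Zf (rad (fun r => u0 r - Ψ r - ε * KK R r)) (cube L) N * ENNReal.ofReal (Real.exp (μ * N))
      ≤ (ENNReal.ofReal (Real.exp (c * N / 2)) *
        ∑ t : Fin 3 → Fin b, Zf (Ut t u0 Ψ s c) (cube L) N) *
          ENNReal.ofReal (Real.exp (μ * N)) := by gcongr
    _ = ∑ t : Fin 3 → Fin b, Zf (Ut t u0 Ψ s c) (cube L) N *
          ENNReal.ofReal (Real.exp (μ + c / 2)) ^ N := by
        rw [← Finset.sum_mul, mul_comm (ENNReal.ofReal (Real.exp (c * N / 2))), mul_assoc]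
        congr 1
        rw [← ENNReal.ofReal_pow (Real.exp_pos _).le, ← Real.exp_nat_mul,
                ← ENNReal.ofReal_mul (Real.exp_pos _).le, ← Real.exp_add]
        congr 2
        ring
    _ ≤ ∑ t : Fin 3 → Fin b, Sig (fun r => u0 r - (1 + s) * Ψ r) b c μ ^ ((⌊L / b⌋₊ + 2) ^ 3) :=
        Finset.sum_le_sum fun t _ => Zf_grid_le hb1 t s c μ hu0 hu hΨ hL N
    _ = (b : ENNReal) ^ 3 * Sig (fun r => u0 r - (1 + s) * Ψ r) b c μ ^ ((⌊L / b⌋₊ + 2) ^ 3) := by
        rw [Finset.sum_const, nsmul_eq_mul]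
        simp

end Lower

end Crest.Agent.Gas
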