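import Crest.Agent.GasLowerB

/-! Module E, part C: passage to the limit and bound on the one-cell sum. -/

set_option autoImplicit false

namespace Crest.Agent.Gas

open MeasureTheory Crest.ProbabilityR.Continuum Filter

namespace Lower

theorem Adm.Zf_ne_top {u : ℝ → ℝ} (hu : Adm u) {L : ℝ} (hL : 0 ≤ L) (N : ℕ) :
    Zf (rad u) (cube L) N ≠ ⊤ := by
  obtain ⟨B, hB⟩ := hu.stable
  have h := Zf_le_of_stable (U := rad u) (measurableSet_cube L) N (B * N)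
    (fun x _ => hB N x)
  refine ne_top_of_le_ne_top ?_ h
  rw [volume_cube hL]
  refine ENNReal.div_ne_top ?_ ?_
  · exact ENNReal.mul_ne_top ENNReal.ofReal_ne_top (ENNReal.pow_ne_top ENNReal.ofReal_ne_top)
  · exact_mod_cast (Nat.factorial_pos N).ne'

theorem Fe_ge_of_Sig {b : ℕ} {D0 ε R μ : ℝ} {u0 Ψ : ℝ → ℝ} (hu0 : ∀ r, 0 ≤ u0 r)
    (h0 : ∀ r, 0 ≤ Ψ r) (hD : ∀ r, D0 ≤ r → Ψ r = 0) (hD0 : 1 ≤ D0)
    (hb : 12 * (D0 + 1) ≤ (b : ℝ)) (hR : 0 < R) (hε : 0 ≤ ε) (hu : Measurable u0)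
    (hΨ : Measurable Ψ) (hv : Adm (fun r => u0 r - Ψ r - ε * KK R r)) {T : ℝ} (hT : 0 ≤ T)
    (hS : Sig (fun r => u0 r - (1 + 6 * (D0 + 1) / b) * Ψ r) b
        (ε * ((1 + 2 * b / R) ^ 6 / b ^ 3)) μ ≤ ENNReal.ofReal (Real.exp T)) {ρ : ℝ}
    (hρ : 0 ≤ ρ) :
    μ * ρ - T / b ^ 3 ≤ Fe (fun r => u0 r - Ψ r - ε * KK R r) ρ := by
  have hb0 : (0 : ℝ) < b := by linarith
  have hlim := Adm.tendsto_Fe hv hρ
  have hcube : Tendsto (fun L : ℝ => L ^ 3) atTop atTop := tendsto_pow_atTop (by norm_num)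
  have h1 : Tendsto (fun L : ℝ => ((⌊ρ * L ^ 3⌋₊ : ℕ) : ℝ) / L ^ 3) atTop (nhds ρ) :=
    (tendsto_nat_floor_mul_div_atTop hρ).comp hcube
  have h2 : Tendsto (fun L : ℝ => 3 * Real.log b / L ^ 3) atTop (nhds 0) :=
    Tendsto.div_atTop tendsto_const_nhds hcube
  have h3 : Tendsto (fun L : ℝ => (L / b + 2) / L) atTop (nhds (1 / b)) := by
    have h4 : Tendsto (fun L : ℝ => 1 / (b : ℝ) + 2 / L) atTop (nhds (1 / b + 0)) :=
      tendsto_const_nhds.add (Tendsto.div_atTop tendsto_const_nhds tendsto_id)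
    rw [add_zero] at h4
    refine h4.congr' ?_
    filter_upwards [eventually_gt_atTop 0] with L hL
    field_simp
  have h5 : Tendsto (fun L : ℝ => ((L / b + 2) / L) ^ 3 * T) atTop (nhds ((1 / b) ^ 3 * T)) :=
    (h3.pow 3).mul_const T
  have h6 : Tendsto (fun L : ℝ => μ * (((⌊ρ * L ^ 3⌋₊ : ℕ) : ℝ) / L ^ 3) -
      3 * Real.log b / L ^ 3 - ((L / b + 2) / L) ^ 3 * T) atTop
      (nhds (μ * ρ - 0 - (1 / b) ^ 3 * T)) :=
    ((h1.const_mul μ).sub h2).sub h5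
  have h7 : μ * ρ - T / b ^ 3 = μ * ρ - 0 - (1 / (b : ℝ)) ^ 3 * T := by
    field_simp
    ring
  rw [h7]
  refine le_of_tendsto_of_tendsto h6 hlim ?_
  filter_upwards [eventually_gt_atTop 0] with L hL
  set N := ⌊ρ * L ^ 3⌋₊ with hN
  set v : ℝ → ℝ := fun r => u0 r - Ψ r - ε * KK R r with hvdef
  have hZtop := Adm.Zf_ne_top hv hL.le N
  have hvol : 0 < volume (cube L) := by
    rw [volume_cube hL.le]
    simp only [ENNReal.ofReal_pos]
    positivity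
  have hZpos := Zf_pos (measurable_rad hv.meas) (measurableSet_cube L) hvol N
  have hmain := Zf_main (μ := μ) hu0 h0 hD hD0 hb hR hε hu hΨ hL.le N
  have hle : Zf (rad v) (cube L) N * ENNReal.ofReal (Real.exp (μ * N)) ≤
      (b : ENNReal) ^ 3 * ENNReal.ofReal (Real.exp T) ^ ((⌊L / b⌋₊ + 2) ^ 3) := by
    refine hmain.trans ?_
    gcongr
  have hle' : (Zf (rad v) (cube L) N).toReal * Real.exp (μ * N) ≤
      (b : ℝ) ^ 3 * Real.exp T ^ ((⌊L / b⌋₊ + 2) ^ 3) := by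
    have h8 := ENNReal.toReal_mono ?_ hle
    · rw [ENNReal.toReal_mul, ENNReal.toReal_mul, ENNReal.toReal_pow, ENNReal.toReal_pow,
        ENNReal.toReal_ofReal (Real.exp_pos _).le, ENNReal.toReal_ofReal (Real.exp_pos _).le] at h8
      simpa using h8
    · exact ENNReal.mul_ne_top (by simp) (ENNReal.pow_ne_top ENNReal.ofReal_ne_top)
  have hZr : 0 < (Zf (rad v) (cube L) N).toReal := ENNReal.toReal_pos hZpos.ne' hZtop
  have hlog := Real.log_le_log (mul_pos hZr (Real.exp_pos _)) hle'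
  rw [Real.log_mul hZr.ne' (Real.exp_pos _).ne', Real.log_exp,
    Real.log_mul (by positivity) (by positivity), Real.log_pow, Real.log_pow, Real.log_exp] at hlog
  have hm : (((⌊L / b⌋₊ + 2) ^ 3 : ℕ) : ℝ) * T ≤ (L / b + 2) ^ 3 * T := by
    push_cast
    have := Nat.floor_le (show 0 ≤ L / b by positivity)
    gcongr
  unfold feL
  rw [← hN]
  have hL3 : 0 < L ^ 3 := by positivity
  rw [le_div_iff₀ hL3]
  have h9 : (μ * ((N : ℝ) / L ^ 3) - 3 * Real.log b / L ^ 3 - ((L / b + 2) / L) ^ 3 * T) * L ^ 3 =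
      μ * N - 3 * Real.log b - (L / b + 2) ^ 3 * T := by
    field_simp
  rw [h9]
  push_cast at hlog hm
  linarith

end Lower

end Crest.Agent.Gas
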