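import Crest.Agent.GasLowerC

/-! Module E, part D: superstability consequences and the tail of the one-cell sum. -/

set_option autoImplicit false

namespace Crest.Agent.Gas

open MeasureTheory Crest.ProbabilityR.Continuum Filter

namespace Lower

/-- Cauchy-Schwarz over the cells. -/
theorem Qc_ge_of_card {b : ℝ} {τ : Fin 3 → ℝ} {N : ℕ} (x : Fin N → Pt)
    (K : Finset (Fin 3 → ℤ)) (hK : ∀ i, cellIdx b τ (x i) ∈ K) :
    (N : ℝ) ^ 2 ≤ K.card * Qc b τ x := by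
  classical
  have h1 : Qc b τ x = ∑ k ∈ K, (∑ i, if cellIdx b τ (x i) = k then (1 : ℝ) else 0) ^ 2 := by
    have h2 : ∀ i j, (if cellIdx b τ (x i) = cellIdx b τ (x j) then (1 : ℝ) else 0) =
        ∑ k ∈ K, (if cellIdx b τ (x i) = k then (1 : ℝ) else 0) *
          (if cellIdx b τ (x j) = k then (1 : ℝ) else 0) := by
      intro i j
      simp only [ite_mul, one_mul, zero_mul, Finset.sum_ite_eq, hK, if_true]
      simp only [eq_comm]
    unfold Qc
    simp only [h2, pow_two, Finset.sum_mul_sum]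
    calc ∑ i, ∑ j, ∑ k ∈ K, (if cellIdx b τ (x i) = k then (1 : ℝ) else 0) *
          (if cellIdx b τ (x j) = k then (1 : ℝ) else 0) =
        ∑ i, ∑ k ∈ K, ∑ j, (if cellIdx b τ (x i) = k then (1 : ℝ) else 0) *
          (if cellIdx b τ (x j) = k then (1 : ℝ) else 0) :=
          Finset.sum_congr rfl fun i _ => Finset.sum_comm
      _ = _ := Finset.sum_comm
  have h3 : ∑ k ∈ K, (∑ i, if cellIdx b τ (x i) = k then (1 : ℝ) else 0) = N := by
    rw [Finset.sum_comm]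
    simp only [Finset.sum_ite_eq, hK, if_true, Finset.sum_const, Finset.card_univ,
      Fintype.card_fin, nsmul_eq_mul, mul_one]
  rw [h1, ← h3]
  exact sq_sum_le_card_mul_sum_sq

/-- Half-cells in a cube. -/
theorem Qc_half_ge {L : ℝ} (hL : 0 ≤ L) {N : ℕ} (x : Fin N → Pt) (hx : ∀ i, x i ∈ cube L) :
    (N : ℝ) ^ 2 ≤ (2 * L + 1) ^ 3 * Qc (1 / 2) 0 x := by
  classical
  set K : Finset (Fin 3 → ℤ) := Fintype.piFinset (fun _ : Fin 3 => Finset.Icc 0 ⌊2 * L⌋) with hK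
  have h1 : ∀ i, cellIdx (1 / 2) 0 (x i) ∈ K := by
    intro i
    rw [hK, Fintype.mem_piFinset]
    intro j
    obtain ⟨h2, h3⟩ := hx i j
    unfold cellIdx
    rw [Finset.mem_Icc]
    have h4 : ((x i) j - (0 : Fin 3 → ℝ) j) / (1 / 2) = 2 * (x i) j := by
      simp
      ring
    rw [h4]
    constructor
    · rw [Int.floor_nonneg]
      linarith
    · apply Int.floor_le_floor
      linarith
  have h2 := Qc_ge_of_card x K h1
  have hQ : 0 ≤ Qc (1 / 2) 0 x := by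
    unfold Qc
    refine Finset.sum_nonneg fun i _ => Finset.sum_nonneg fun j _ => ?_
    split_ifs <;> norm_num
  have h3 : (K.card : ℝ) ≤ (2 * L + 1) ^ 3 := by
    rw [hK, Fintype.card_piFinset]
    simp only [Int.card_Icc, Finset.prod_const, Finset.card_univ, Fintype.card_fin]
    push_cast
    have h4 : (((⌊2 * L⌋ + 1 - 0).toNat : ℕ) : ℝ) ≤ 2 * L + 1 := by
      have h5 : 0 ≤ ⌊2 * L⌋ := Int.floor_nonneg.2 (by linarith)
      have h6 : (((⌊2 * L⌋ + 1 - 0).toNat : ℕ) : ℤ) = ⌊2 * L⌋ + 1 := by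
        rw [Int.toNat_of_nonneg] <;> omega
      have h7 : (((⌊2 * L⌋ + 1 - 0).toNat : ℕ) : ℝ) = (⌊2 * L⌋ : ℝ) + 1 := by exact_mod_cast h6
      rw [h7]
      have := Int.floor_le (2 * L)
      linarith
    gcongr
  exact h2.trans (by gcongr)

theorem Qc_nonneg (b : ℝ) (τ : Fin 3 → ℝ) {N : ℕ} (x : Fin N → Pt) : 0 ≤ Qc b τ x := by
  unfold Qc
  refine Finset.sum_nonneg fun i _ => Finset.sum_nonneg fun j _ => ?_
  split_ifs <;> norm_num

theorem pairE_two_le {u0 Ψ : ℝ → ℝ} (h0 : ∀ r, 0 ≤ Ψ r) {s : ℝ} (hs : s ≤ 1) {N : ℕ}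
    (x : Fin N → Pt) :
    pairE (rad (fun r => u0 r - 2 * Ψ r)) x ≤ pairE (rad (fun r => u0 r - (1 + s) * Ψ r)) x := by
  apply pairE_mono
  intro i j _
  have h1 := h0 (dist (x i) (x j))
  have h2 : rad (fun r => u0 r - 2 * Ψ r) (x i) (x j) =
    u0 (dist (x i) (x j)) - 2 * Ψ (dist (x i) (x j)) := rfl
  have h3 : rad (fun r => u0 r - (1 + s) * Ψ r) (x i) (x j) =
    u0 (dist (x i) (x j)) - (1 + s) * Ψ (dist (x i) (x j)) := rfl
  rw [h2, h3]
  nlinarith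

/-- Tail terms. -/
theorem tail_term {a0 b0 μm εm R1 : ℝ} (ha0 : 0 < a0) (h54 : 54 * εm ≤ a0)
    (hR1 : Real.exp 1 ≤ R1) (hR1' : 54 * (μm + b0 + 2) ≤ a0 * R1) {u0 Ψ : ℝ → ℝ} {b : ℕ}
    (hb : 1 ≤ b) (h0 : ∀ r, 0 ≤ Ψ r) {s : ℝ} (hs : s ≤ 1)
    (hst : ∀ (N : ℕ) (x : Fin N → Pt),
        a0 * Qc (1 / 2) 0 x - b0 * N ≤ pairE (rad (fun r => u0 r - 2 * Ψ r)) x)
    {μ c : ℝ} (hμ : |μ| ≤ μm) (hc : c ≤ 2 * εm / b ^ 3) {n : ℕ} (hn : R1 * b ^ 3 ≤ n) :
    Zf (rad (fun r => u0 r - (1 + s) * Ψ r)) (cube b) n *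
      ENNReal.ofReal (Real.exp (μ * n + c * n ^ 2 / 2)) ≤ ENNReal.ofReal (Real.exp (-2 * n)) := by
  have hb' : (1 : ℝ) ≤ b := by exact_mod_cast hb
  have hb0 : (0 : ℝ) < b := by linarith
  have hR1pos : 0 < R1 := lt_of_lt_of_le (Real.exp_pos 1) hR1
  have hn0 : (0 : ℝ) < n := lt_of_lt_of_le (by positivity) hn
  have hE : ∀ x : Fin n → Pt, (∀ i, x i ∈ cube (b : ℝ)) →
      -(-(a0 * (n : ℝ) ^ 2 / (27 * b ^ 3) - b0 * n)) ≤
        pairE (rad (fun r => u0 r - (1 + s) * Ψ r)) x := by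
    intro x hx
    have h1 := Qc_half_ge hb0.le x hx
    have h2 := (hst n x).trans (pairE_two_le (u0 := u0) h0 hs x)
    have h3 : (2 * (b : ℝ) + 1) ^ 3 ≤ 27 * b ^ 3 := by
      have : (2 * (b : ℝ) + 1) ^ 3 ≤ (3 * b) ^ 3 := by
        gcongr
        linarith
      calc (2 * (b : ℝ) + 1) ^ 3 ≤ (3 * b) ^ 3 := this
        _ = 27 * b ^ 3 := by ring
    have hQ := Qc_nonneg (1 / 2) 0 x
    have h4 : (n : ℝ) ^ 2 ≤ 27 * b ^ 3 * Qc (1 / 2) 0 x := h1.trans (by gcongr)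
    have h5 : a0 * (n : ℝ) ^ 2 / (27 * b ^ 3) ≤ a0 * Qc (1 / 2) 0 x := by
      rw [div_le_iff₀ (by positivity)]
      calc a0 * (n : ℝ) ^ 2 ≤ a0 * (27 * b ^ 3 * Qc (1 / 2) 0 x) := by gcongr
        _ = a0 * Qc (1 / 2) 0 x * (27 * b ^ 3) := by ring
    linarith
  have hZ := Zf_le_of_stable (measurableSet_cube (b : ℝ)) n _ hE
  rw [volume_cube hb0.le] at hZ
  have hfac : ENNReal.ofReal ((b : ℝ) ^ 3) ^ n / (n.factorial : ENNReal) ≤ 1 := by
    have h6 : ((b : ℝ) ^ 3) ^ n ≤ (n.factorial : ℝ) := by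
      have h7 : (n : ℝ) ^ n / n.factorial ≤ Real.exp n := Real.pow_div_factorial_le_exp _ (by positivity) n
      have h8 : (b : ℝ) ^ 3 ≤ n * Real.exp (-1) := by
        have h9 : Real.exp 1 * b ^ 3 ≤ n := (by gcongr : Real.exp 1 * (b : ℝ) ^ 3 ≤ R1 * b ^ 3).trans hn
        rw [Real.exp_neg, ← div_eq_mul_inv, le_div_iff₀ (Real.exp_pos 1)]
        linarith
      calc ((b : ℝ) ^ 3) ^ n ≤ (n * Real.exp (-1)) ^ n := by gcongr
        _ = (n : ℝ) ^ n * Real.exp (-n) := by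
            rw [mul_pow, ← Real.exp_nat_mul]
            congr 2
            ring
        _ ≤ (Real.exp n * n.factorial) * Real.exp (-n) := by
            gcongr
            rwa [div_le_iff₀ (by positivity)] at h7
        _ = n.factorial := by
            rw [mul_comm (Real.exp n), mul_assoc, ← Real.exp_add]
            simp
    rw [← ENNReal.ofReal_pow (by positivity)]
    apply ENNReal.div_le_of_le_mul
    rw [one_mul]
    calc ENNReal.ofReal (((b : ℝ) ^ 3) ^ n) ≤ ENNReal.ofReal (n.factorial : ℝ) :=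
          ENNReal.ofReal_le_ofReal h6
      _ = (n.factorial : ENNReal) := ENNReal.ofReal_natCast _
  have hZ' : Zf (rad (fun r => u0 r - (1 + s) * Ψ r)) (cube b) n ≤
      ENNReal.ofReal (Real.exp (-(a0 * (n : ℝ) ^ 2 / (27 * b ^ 3) - b0 * n))) := by
    refine hZ.trans ?_
    rw [mul_div_assoc]
    calc _ ≤ ENNReal.ofReal (Real.exp (-(a0 * (n : ℝ) ^ 2 / (27 * b ^ 3) - b0 * n))) * 1 := by
          gcongr
      _ = _ := mul_one _
  calc Zf (rad (fun r => u0 r - (1 + s) * Ψ r)) (cube b) n *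
      ENNReal.ofReal (Real.exp (μ * n + c * n ^ 2 / 2))
      ≤ ENNReal.ofReal (Real.exp (-(a0 * (n : ℝ) ^ 2 / (27 * b ^ 3) - b0 * n))) *
        ENNReal.ofReal (Real.exp (μ * n + c * n ^ 2 / 2)) := by gcongr
    _ = ENNReal.ofReal (Real.exp (-(a0 * (n : ℝ) ^ 2 / (27 * b ^ 3) - b0 * n) +
          (μ * n + c * n ^ 2 / 2))) := by
        rw [← ENNReal.ofReal_mul (Real.exp_pos _).le, ← Real.exp_add]
    _ ≤ ENNReal.ofReal (Real.exp (-2 * n)) := by
        apply ENNReal.ofReal_le_ofReal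
        apply Real.exp_le_exp.2
        have hμ' : μ ≤ μm := (le_abs_self μ).trans hμ
        have hb3 : (0 : ℝ) < b ^ 3 := by positivity
        have h10 : c * n ^ 2 / 2 ≤ a0 / 54 * (n ^ 2 / b ^ 3) := by
          have h11 : c * n ^ 2 / 2 ≤ (2 * εm / b ^ 3) * n ^ 2 / 2 := by gcongr
          have h12 : (2 * εm / b ^ 3) * (n : ℝ) ^ 2 / 2 = εm * (n ^ 2 / b ^ 3) := by
            field_simp
          rw [h12] at h11
          refine h11.trans ?_
          gcongr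
          linarith
        have h13 : a0 * (n : ℝ) ^ 2 / (27 * b ^ 3) = a0 / 27 * (n ^ 2 / b ^ 3) := by
          field_simp
        have h14 : R1 * n ≤ (n : ℝ) ^ 2 / b ^ 3 := by
          rw [le_div_iff₀ hb3]
          nlinarith
        have h15 : a0 / 54 * (R1 * n) ≤ a0 / 54 * ((n : ℝ) ^ 2 / b ^ 3) := by gcongr
        have h16 : (μm + b0 + 2) * n ≤ a0 / 54 * (R1 * n) := by
          have : μm + b0 + 2 ≤ a0 / 54 * R1 := by linarith
          calc (μm + b0 + 2) * n ≤ (a0 / 54 * R1) * n := by gcongr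
            _ = a0 / 54 * (R1 * n) := by ring
        have h17 : μ * n ≤ μm * n := by gcongr
        rw [h13]
        nlinarith

end Lower

end Crest.Agent.Gas
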