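import Crest.Agent.GasLowerD

/-! Module E, part E: the terms with few particles; trivial bound. -/

set_option autoImplicit false

namespace Crest.Agent.Gas

open MeasureTheory Crest.ProbabilityR.Continuum Filter

namespace Lower

theorem Zf_box_le {u : ℝ → ℝ} (hu : Adm u) {ℓ : ℝ} (hℓ : 0 < ℓ) (n : ℕ) :
    Zf (rad u) (cube ℓ) n ≤
      ENNReal.ofReal (Real.exp (-((ℓ + 1) ^ 3 * Fe u ((n : ℝ) / (ℓ + 1) ^ 3)))) := by
  have h1 := Fe_le_box hu hℓ n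
  have hV : 0 < (ℓ + 1) ^ 3 := by positivity
  rw [le_div_iff₀ hV] at h1
  have htop := Adm.Zf_ne_top hu hℓ.le n
  rw [← ENNReal.ofReal_toReal htop]
  apply ENNReal.ofReal_le_ofReal
  rcases eq_or_lt_of_le (ENNReal.toReal_nonneg (a := Zf (rad u) (cube ℓ) n)) with h | h
  · rw [← h]
    positivity
  · rw [← Real.log_le_iff_le_exp h]
    linarith

/-- Terms with at most `R1 b³` particles, exponent form. -/
theorem small_term {a0 b0 : ℝ} (ha0 : 0 < a0) {u0 Ψ : ℝ → ℝ} {b : ℕ}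
    (hb : 1 ≤ b) {s : ℝ} (hs0 : 0 ≤ s) (hs : s ≤ 1) (hu0 : Measurable u0) (hΨ : Measurable Ψ)
    (hA : Adm (fun r => u0 r - Ψ r))
    (hst : ∀ (N : ℕ) (x : Fin N → Pt),
        a0 * Qc (1 / 2) 0 x - b0 * N ≤ pairE (rad (fun r => u0 r - 2 * Ψ r)) x)
    (μ c : ℝ) (n : ℕ) :
    Zf (rad (fun r => u0 r - (1 + s) * Ψ r)) (cube b) n *
      ENNReal.ofReal (Real.exp (μ * n + c * n ^ 2 / 2)) ≤
      ENNReal.ofReal (Real.exp ((1 - s) * (-(((b : ℝ) + 1) ^ 3 *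
        Fe (fun r => u0 r - Ψ r) ((n : ℝ) / ((b : ℝ) + 1) ^ 3))) + s * (b0 * n + b ^ 3) +
        (μ * n + c * n ^ 2 / 2))) := by
  have hb' : (1 : ℝ) ≤ b := by exact_mod_cast hb
  have hb0 : (0 : ℝ) < b := by linarith
  have h1 : Zf (rad (fun r => u0 r - (1 + s) * Ψ r)) (cube b) n ≤
      Zf (rad (fun r => u0 r - Ψ r)) (cube b) n ^ (1 - s) *
        Zf (rad (fun r => u0 r - 2 * Ψ r)) (cube b) n ^ s := by
    have h2 := Zf_holder (U := rad (fun r => u0 r - Ψ r)) (V := rad (fun r => u0 r - 2 * Ψ r))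
      (measurable_rad hA.meas) (measurable_rad (hu0.sub (hΨ.const_mul 2))) (D := cube b) n hs0 hs
    have h3 : (fun a b => (1 - s) * rad (fun r => u0 r - Ψ r) a b +
        s * rad (fun r => u0 r - 2 * Ψ r) a b) = rad (fun r => u0 r - (1 + s) * Ψ r) := by
      funext y z
      unfold rad
      ring
    rwa [h3] at h2
  have h4 := Zf_box_le hA hb0 n
  have h5 : Zf (rad (fun r => u0 r - 2 * Ψ r)) (cube b) n ≤
      ENNReal.ofReal (Real.exp (b0 * n + b ^ 3)) := by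
    have hE : ∀ x : Fin n → Pt, (∀ i, x i ∈ cube (b : ℝ)) →
        -(b0 * n) ≤ pairE (rad (fun r => u0 r - 2 * Ψ r)) x := by
      intro x _
      have := hst n x
      have hQ := Qc_nonneg (1 / 2) 0 x
      nlinarith
    have h6 := Zf_le_of_stable (measurableSet_cube (b : ℝ)) n _ hE
    rw [volume_cube hb0.le, mul_div_assoc] at h6
    have h7 : ENNReal.ofReal ((b : ℝ) ^ 3) ^ n / (n.factorial : ENNReal) ≤
        ENNReal.ofReal (Real.exp (b ^ 3)) := by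
      rw [← ENNReal.ofReal_pow (by positivity), ← ENNReal.ofReal_natCast,
        ← ENNReal.ofReal_div_of_pos (by positivity)]
      apply ENNReal.ofReal_le_ofReal
      exact Real.pow_div_factorial_le_exp _ (by positivity) n
    calc _ ≤ _ := h6
      _ ≤ ENNReal.ofReal (Real.exp (b0 * n)) * ENNReal.ofReal (Real.exp (b ^ 3)) := by gcongr
      _ = _ := by rw [← ENNReal.ofReal_mul (Real.exp_pos _).le, ← Real.exp_add]
  calc Zf (rad (fun r => u0 r - (1 + s) * Ψ r)) (cube b) n *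
      ENNReal.ofReal (Real.exp (μ * n + c * n ^ 2 / 2))
      ≤ (ENNReal.ofReal (Real.exp (-(((b : ℝ) + 1) ^ 3 *
        Fe (fun r => u0 r - Ψ r) ((n : ℝ) / ((b : ℝ) + 1) ^ 3)))) ^ (1 - s) *
        ENNReal.ofReal (Real.exp (b0 * n + b ^ 3)) ^ s) *
          ENNReal.ofReal (Real.exp (μ * n + c * n ^ 2 / 2)) := by
        gcongr
        refine h1.trans ?_
        have h8 : 0 ≤ 1 - s := by linarith
        gcongr
    _ = _ := by
        rw [ENNReal.ofReal_rpow_of_pos (Real.exp_pos _), ENNReal.ofReal_rpow_of_pos (Real.exp_pos _),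
          ← Real.exp_mul, ← Real.exp_mul, ← ENNReal.ofReal_mul (Real.exp_pos _).le, ← Real.exp_add,
          ← ENNReal.ofReal_mul (Real.exp_pos _).le, ← Real.exp_add]
        congr 2
        ring

theorem num1 {y : ℝ} (hy0 : 0 ≤ y) (hy1 : y ≤ 1) : (1 + y) ^ 3 ≤ 1 + 7 * y := by
  have e2 : y ^ 2 ≤ y := pow_le_of_le_one hy0 hy1 (by norm_num)
  have e3 : y ^ 3 ≤ y := pow_le_of_le_one hy0 hy1 (by norm_num)
  calc (1 + y) ^ 3 = 1 + 3 * y + 3 * y ^ 2 + y ^ 3 := by ring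
    _ ≤ 1 + 7 * y := by linarith

theorem num2 {x : ℝ} (hx0 : 0 ≤ x) (hx1 : x ≤ 1) : (1 + 2 * x) ^ 6 ≤ 1 + 728 * x := by
  have e2 : x ^ 2 ≤ x := pow_le_of_le_one hx0 hx1 (by norm_num)
  have e3 : x ^ 3 ≤ x := pow_le_of_le_one hx0 hx1 (by norm_num)
  have e4 : x ^ 4 ≤ x := pow_le_of_le_one hx0 hx1 (by norm_num)
  have e5 : x ^ 5 ≤ x := pow_le_of_le_one hx0 hx1 (by norm_num)
  have e6 : x ^ 6 ≤ x := pow_le_of_le_one hx0 hx1 (by norm_num)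
  calc (1 + 2 * x) ^ 6 = 1 + 12 * x + 60 * x ^ 2 + 160 * x ^ 3 + 240 * x ^ 4 + 192 * x ^ 5
        + 64 * x ^ 6 := by ring
    _ ≤ 1 + 728 * x := by linarith

theorem num3 {x y : ℝ} (hx0 : 0 ≤ x) (hx1 : x ≤ 1) (hy0 : 0 ≤ y) (hy1 : y ≤ 1) :
    (1 + 2 * x) ^ 6 * (1 + y) ^ 3 ≤ 1 + 6000 * (y + x) := by
  have h1 := num1 hy0 hy1
  have h2 := num2 hx0 hx1
  have h3 : x * y ≤ x := mul_le_of_le_one_right hx0 hy1
  calc (1 + 2 * x) ^ 6 * (1 + y) ^ 3 ≤ (1 + 728 * x) * (1 + 7 * y) := by gcongr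
    _ = 1 + 728 * x + 7 * y + 5096 * (x * y) := by ring
    _ ≤ 1 + 6000 * (y + x) := by linarith

theorem num4 {s F K0 S X M : ℝ} (hs0 : 0 ≤ s) (hs : s ≤ 1 / 2) (hS : 0 ≤ S) (hK0 : 0 ≤ K0)
    (hX : X ≤ M) (hM : 2 * M ≤ K0) (hF : X - F ≤ S) : -(1 - s) * F + X ≤ S + s * K0 := by
  rcases le_total F K0 with h | h
  · have : s * F ≤ s * K0 := by gcongr
    linarith
  · have h0 : 0 ≤ F := hK0.trans h
    have h1 : s * F ≤ 1 / 2 * F := by gcongr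
    have h2 : 0 ≤ s * K0 := by positivity
    linarith

/-- the numerical estimate for the exponent -/
theorem exponent_le {b0 μm εm Sm R1 : ℝ} (hb0 : 0 ≤ b0) (hμm : 0 ≤ μm)
    (hεm : 0 ≤ εm) (hSm : 0 ≤ Sm) (hR1 : 0 ≤ R1) {b s ε R μ S F n : ℝ} (hb : 1 ≤ b) (hbR : b ≤ R)
    (hs0 : 0 ≤ s) (hs : s ≤ 1 / 2) (hε : 0 ≤ ε) (hε' : ε ≤ εm) (hμ : |μ| ≤ μm) (hS : 0 ≤ S)
    (hS' : S ≤ Sm) (hn0 : 0 ≤ n) (hn : n ≤ R1 * b ^ 3)
    (hF : μ * (n / (b + 1) ^ 3) - F + ε * (n / (b + 1) ^ 3) ^ 2 / 2 ≤ S) :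
    (1 - s) * (-((b + 1) ^ 3 * F)) + s * (b0 * n + b ^ 3) +
        (μ * n + (ε * ((1 + 2 * b / R) ^ 6 / b ^ 3)) * n ^ 2 / 2) ≤
      b ^ 3 * (S + (7 * Sm + 24000 * εm * R1 ^ 2) * (1 / b + b / R) +
        (8 * (2 * (μm * R1 + εm * R1 ^ 2)) + (b0 * R1 + 1)) * s) := by
  have hb0' : 0 < b := by linarith
  have hR : 0 < R := by linarith
  obtain ⟨V, hV⟩ : ∃ V, V = (b + 1) ^ 3 := ⟨_, rfl⟩
  obtain ⟨x, hx⟩ : ∃ x, x = b / R := ⟨_, rfl⟩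
  obtain ⟨y, hy⟩ : ∃ y, y = 1 / b := ⟨_, rfl⟩
  obtain ⟨r, hr⟩ : ∃ r, r = n / V := ⟨_, rfl⟩
  obtain ⟨K0, hK0⟩ : ∃ K0, K0 = 2 * (μm * R1 + εm * R1 ^ 2) := ⟨_, rfl⟩
  have hVpos : 0 < V := by rw [hV]; positivity
  have hx0 : 0 ≤ x := by rw [hx]; positivity
  have hx1 : x ≤ 1 := by rw [hx, div_le_one hR]; exact hbR
  have hy0 : 0 ≤ y := by rw [hy]; positivity
  have hy1 : y ≤ 1 := by rw [hy, div_le_one hb0']; exact hb
  have hby : b * y = 1 := by rw [hy]; field_simp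
  have hVb : V = b ^ 3 * (1 + y) ^ 3 := by
    rw [hV, ← mul_pow]
    congr 1
    rw [mul_add, hby, mul_one]
  have hy3 : (1 + y) ^ 3 ≤ 1 + 7 * y := num1 hy0 hy1
  have hV1 : V ≤ b ^ 3 * (1 + 7 * y) := by rw [hVb]; gcongr
  have hV8 : V ≤ 8 * b ^ 3 := by
    refine hV1.trans ?_
    have h1 : b ^ 3 * (1 + 7 * y) ≤ b ^ 3 * (1 + 7 * 1) := by gcongr
    linarith
  have hbV : b ^ 3 ≤ V := by
    rw [hV]
    gcongr
    linarith
  have hnr : n = r * V := by rw [hr]; field_simp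
  have hr0 : 0 ≤ r := by rw [hr]; positivity
  have hrR : r ≤ R1 := by
    rw [hr, div_le_iff₀ hVpos]
    exact hn.trans (by gcongr)
  have hκ : (1 + 2 * x) ^ 6 * (1 + y) ^ 3 ≤ 1 + 6000 * (y + x) := num3 hx0 hx1 hy0 hy1
  have hterm : (ε * ((1 + 2 * b / R) ^ 6 / b ^ 3)) * n ^ 2 / 2 =
      V * (ε * r ^ 2 / 2 * ((1 + 2 * x) ^ 6 * (1 + y) ^ 3)) := by
    have h1 : 2 * b / R = 2 * x := by rw [hx]; ring
    have h2 : V / b ^ 3 = (1 + y) ^ 3 := by rw [hVb]; field_simp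
    rw [h1, hnr, ← h2]
    field_simp
  have hμr : μ * r ≤ μm * R1 := by
    have : μ ≤ μm := (le_abs_self μ).trans hμ
    calc μ * r ≤ μm * r := by gcongr
      _ ≤ μm * R1 := by gcongr
  have hεr : ε * r ^ 2 ≤ εm * R1 ^ 2 := by gcongr
  have hεR : 0 ≤ εm * R1 ^ 2 := by positivity
  have hμR : 0 ≤ μm * R1 := by positivity
  have hK0' : 0 ≤ K0 := by rw [hK0]; positivity
  rw [← hV, ← hr] at hF
  have key : -(1 - s) * F + (μ * r + ε * r ^ 2 / 2) ≤ S + s * K0 :=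
    num4 (M := μm * R1 + εm * R1 ^ 2) hs0 hs hS hK0' (by linarith) (by rw [hK0]) (by linarith)
  have key2 : ε * r ^ 2 / 2 * ((1 + 2 * x) ^ 6 * (1 + y) ^ 3) ≤
      ε * r ^ 2 / 2 + 3000 * (εm * R1 ^ 2) * (y + x) := by
    calc ε * r ^ 2 / 2 * ((1 + 2 * x) ^ 6 * (1 + y) ^ 3)
        ≤ ε * r ^ 2 / 2 * (1 + 6000 * (y + x)) := by gcongr
      _ = ε * r ^ 2 / 2 + 3000 * (ε * r ^ 2) * (y + x) := by ring
      _ ≤ ε * r ^ 2 / 2 + 3000 * (εm * R1 ^ 2) * (y + x) := by gcongr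
  have hmain : (1 - s) * (-(V * F)) + (μ * n + (ε * ((1 + 2 * b / R) ^ 6 / b ^ 3)) * n ^ 2 / 2) ≤
      V * (S + s * K0 + 3000 * (εm * R1 ^ 2) * (y + x)) := by
    rw [hterm, hnr]
    have h1 : (1 - s) * (-(V * F)) + (μ * (r * V) +
        V * (ε * r ^ 2 / 2 * ((1 + 2 * x) ^ 6 * (1 + y) ^ 3))) =
        V * (-(1 - s) * F + μ * r + ε * r ^ 2 / 2 * ((1 + 2 * x) ^ 6 * (1 + y) ^ 3)) := by ring
    rw [h1]
    apply mul_le_mul_of_nonneg_left _ hVpos.le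
    linarith
  have hsn : s * (b0 * n + b ^ 3) ≤ b ^ 3 * ((b0 * R1 + 1) * s) := by
    calc s * (b0 * n + b ^ 3) ≤ s * (b0 * (R1 * b ^ 3) + b ^ 3) := by gcongr
      _ = b ^ 3 * ((b0 * R1 + 1) * s) := by ring
  have hb3 : 0 < b ^ 3 := by positivity
  have p1 : V * S ≤ b ^ 3 * (S + 7 * Sm * y) := by
    calc V * S ≤ b ^ 3 * (1 + 7 * y) * S := by gcongr
      _ = b ^ 3 * (S + 7 * S * y) := by ring
      _ ≤ b ^ 3 * (S + 7 * Sm * y) := by gcongr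
  have p2 : V * (s * K0) ≤ b ^ 3 * (8 * K0 * s) := by
    calc V * (s * K0) ≤ 8 * b ^ 3 * (s * K0) := by gcongr
      _ = b ^ 3 * (8 * K0 * s) := by ring
  have p3 : V * (3000 * (εm * R1 ^ 2) * (y + x)) ≤ b ^ 3 * (24000 * εm * R1 ^ 2 * (y + x)) := by
    calc V * (3000 * (εm * R1 ^ 2) * (y + x)) ≤ 8 * b ^ 3 * (3000 * (εm * R1 ^ 2) * (y + x)) := by
          gcongr
      _ = _ := by ring
  have p4 : b ^ 3 * (7 * Sm * y) ≤ b ^ 3 * (7 * Sm * (y + x)) := by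
    gcongr
    linarith
  rw [← hV, ← hx, ← hy, ← hK0]
  have e1 : V * (S + s * K0 + 3000 * (εm * R1 ^ 2) * (y + x)) =
    V * S + V * (s * K0) + V * (3000 * (εm * R1 ^ 2) * (y + x)) := by ring
  have e2 : b ^ 3 * (S + (7 * Sm + 24000 * εm * R1 ^ 2) * (y + x) +
      (8 * K0 + (b0 * R1 + 1)) * s) = b ^ 3 * (S + 7 * Sm * y) - b ^ 3 * (7 * Sm * y) +
      b ^ 3 * (7 * Sm * (y + x)) + b ^ 3 * (24000 * εm * R1 ^ 2 * (y + x)) +
      b ^ 3 * (8 * K0 * s) + b ^ 3 * ((b0 * R1 + 1) * s) := by ring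
  rw [e2]
  rw [e1] at hmain
  linarith

end Lower

end Crest.Agent.Gas
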