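import Crest.Agent.GasBasic

set_option autoImplicit false

namespace Crest.Agent.Gas

open MeasureTheory Crest.ProbabilityR.Continuum

theorem pairE_reindex (U : Pt → Pt → ℝ) {ι κ : Type} [Fintype ι] [Fintype κ] (e : ι ≃ κ)
    (x : κ → Pt) : pairE U (fun i => x (e i)) = pairE U x := by
  unfold pairE
  rw [Equiv.sum_comp e (fun i => U (x i) (x i)),
    ← Equiv.sum_comp e (fun i => ∑ j, U (x i) (x j))]
  congr 2
  exact Finset.sum_congr rfl (fun i _ => Equiv.sum_comp e (fun j => U (x (e i)) (x j)))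

theorem pairE_sum (U : Pt → Pt → ℝ) (hsym : ∀ a b, U a b = U b a)
    {ι κ : Type} [Fintype ι] [Fintype κ] (x : ι ⊕ κ → Pt) :
    pairE U x = pairE U (fun i => x (Sum.inl i)) + pairE U (fun i => x (Sum.inr i))
      + ∑ i, ∑ j, U (x (Sum.inl i)) (x (Sum.inr j)) := by
  unfold pairE
  simp only [Fintype.sum_sum_type, Finset.sum_add_distrib]
  have : ∑ i, ∑ j, U (x (Sum.inr i)) (x (Sum.inl j)) =
      ∑ i, ∑ j, U (x (Sum.inl i)) (x (Sum.inr j)) := by
    rw [Finset.sum_comm]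
    exact Finset.sum_congr rfl fun i _ => Finset.sum_congr rfl fun j _ => hsym _ _
  rw [this]
  ring

/-- The Boltzmann factor. -/
noncomputable def bz (U : Pt → Pt → ℝ) {ι : Type} [Fintype ι] (x : ι → Pt) : ENNReal :=
  ENNReal.ofReal (Real.exp (-(pairE U x)))

theorem measurable_bz {U : Pt → Pt → ℝ} (hU : Measurable (Function.uncurry U))
    {ι : Type} [Fintype ι] : Measurable (fun x : ι → Pt => bz U x) :=
  ENNReal.measurable_ofReal.comp (Real.measurable_exp.comp (measurable_pairE hU).neg)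

/-- The configuration integral. -/
noncomputable def Ci (U : Pt → Pt → ℝ) (D : Set Pt) (N : ℕ) : ENNReal :=
  ∫⁻ x in Set.pi Set.univ (fun _ : Fin N => D), bz U x

theorem Zf_eq_Ci (U : Pt → Pt → ℝ) (D : Set Pt) (N : ℕ) :
    Zf U D N = ((N.factorial : ℕ) : ENNReal)⁻¹ * Ci U D N := rfl

theorem Ci_eq (U : Pt → Pt → ℝ) (D : Set Pt) (N : ℕ) :
    Ci U D N = ((N.factorial : ℕ) : ENNReal) * Zf U D N := by
  rw [Zf_eq_Ci, ← mul_assoc, ENNReal.mul_inv_cancel, one_mul]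
  · exact_mod_cast N.factorial_ne_zero
  · exact ENNReal.natCast_ne_top _

/-- The configurations with exactly the particles of `S` in `D₁` and the others in `D₂`. -/
def boxS (D₁ D₂ : Set Pt) {N : ℕ} (S : Finset (Fin N)) : Set (Fin N → Pt) :=
  Set.pi Set.univ (fun i : Fin N => if i ∈ S then D₁ else D₂)

theorem measurableSet_boxS {D₁ D₂ : Set Pt} (h₁ : MeasurableSet D₁) (h₂ : MeasurableSet D₂)
    {N : ℕ} (S : Finset (Fin N)) : MeasurableSet (boxS D₁ D₂ S) := by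
  refine MeasurableSet.univ_pi fun i => ?_
  by_cases h : i ∈ S
  · rw [if_pos h]; exact h₁
  · rw [if_neg h]; exact h₂

theorem pi_union_eq (D₁ D₂ : Set Pt) (N : ℕ) :
    Set.pi Set.univ (fun _ : Fin N => D₁ ∪ D₂) = ⋃ S : Finset (Fin N), boxS D₁ D₂ S := by
  classical
  ext x
  simp only [Set.mem_pi, Set.mem_univ, true_implies, Set.mem_iUnion, boxS]
  constructor
  · intro h
    refine ⟨Finset.univ.filter (fun i => x i ∈ D₁), fun i => ?_⟩
    by_cases hi : x i ∈ D₁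
    · simp [hi]
    · simp only [Finset.mem_filter, Finset.mem_univ, true_and, hi, if_false]
      exact (h i).resolve_left hi
  · rintro ⟨S, hS⟩ i
    have := hS i
    by_cases hi : i ∈ S
    · rw [if_pos hi] at this; exact Or.inl this
    · rw [if_neg hi] at this; exact Or.inr this

theorem boxS_disjoint {D₁ D₂ : Set Pt} (hdisj : Disjoint D₁ D₂) {N : ℕ} :
    Pairwise (Function.onFun Disjoint (fun S : Finset (Fin N) => boxS D₁ D₂ S)) := by
  intro S T hST
  rw [Function.onFun, Set.disjoint_left]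
  intro x hx hy
  apply hST
  ext i
  have h1 : x i ∈ (if i ∈ S then D₁ else D₂) := hx i (Set.mem_univ i)
  have h2 : x i ∈ (if i ∈ T then D₁ else D₂) := hy i (Set.mem_univ i)
  by_cases hS : i ∈ S <;> by_cases hT : i ∈ T
  · simp [hS, hT]
  · rw [if_pos hS] at h1; rw [if_neg hT] at h2
    exact absurd h2 (Set.disjoint_left.1 hdisj h1)
  · rw [if_neg hS] at h1; rw [if_pos hT] at h2
    exact absurd h1 (Set.disjoint_left.1 hdisj h2)
  · simp [hS, hT]

theorem Ci_union_eq (U : Pt → Pt → ℝ) {D₁ D₂ : Set Pt}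
    (h₁ : MeasurableSet D₁) (h₂ : MeasurableSet D₂) (hdisj : Disjoint D₁ D₂) (N : ℕ) :
    Ci U (D₁ ∪ D₂) N = ∑ S : Finset (Fin N), ∫⁻ x in boxS D₁ D₂ S, bz U x := by
  unfold Ci
  rw [pi_union_eq, lintegral_iUnion (fun S => measurableSet_boxS h₁ h₂ S) (boxS_disjoint hdisj),
    tsum_fintype]

/-- The measure preserving identification of `(Fin N → Pt)` with a product. -/
noncomputable def splitEquiv {N n m : ℕ} (e : Fin n ⊕ Fin m ≃ Fin N) :
    ((Fin n → Pt) × (Fin m → Pt)) ≃ᵐ (Fin N → Pt) :=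
  (MeasurableEquiv.sumPiEquivProdPi (fun _ : Fin n ⊕ Fin m => Pt)).symm.trans
    (MeasurableEquiv.piCongrLeft (fun _ : Fin N => Pt) e)

theorem splitEquiv_mp {N n m : ℕ} (e : Fin n ⊕ Fin m ≃ Fin N) :
    MeasurePreserving (splitEquiv e) (volume.prod volume) volume :=
  (volume_measurePreserving_piCongrLeft (fun _ : Fin N => Pt) e).comp
    (volume_measurePreserving_sumPiEquivProdPi_symm (fun _ : Fin n ⊕ Fin m => Pt))

theorem splitEquiv_inl {N n m : ℕ} (e : Fin n ⊕ Fin m ≃ Fin N) (p : (Fin n → Pt) × (Fin m → Pt))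
    (i : Fin n) : splitEquiv e p (e (Sum.inl i)) = p.1 i := by
  simp only [splitEquiv, MeasurableEquiv.trans_apply]
  rw [MeasurableEquiv.piCongrLeft_apply_apply e (β := fun _ : Fin N => Pt)]
  rfl

theorem splitEquiv_inr {N n m : ℕ} (e : Fin n ⊕ Fin m ≃ Fin N) (p : (Fin n → Pt) × (Fin m → Pt))
    (i : Fin m) : splitEquiv e p (e (Sum.inr i)) = p.2 i := by
  simp only [splitEquiv, MeasurableEquiv.trans_apply]
  rw [MeasurableEquiv.piCongrLeft_apply_apply e (β := fun _ : Fin N => Pt)]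
  rfl


theorem pairE_splitEquiv (U : Pt → Pt → ℝ) (hsym : ∀ a b, U a b = U b a) {N n m : ℕ}
    (e : Fin n ⊕ Fin m ≃ Fin N) (p : (Fin n → Pt) × (Fin m → Pt)) :
    pairE U (splitEquiv e p) = pairE U p.1 + pairE U p.2 + ∑ i, ∑ j, U (p.1 i) (p.2 j) := by
  rw [← pairE_reindex U e (splitEquiv e p), pairE_sum U hsym]
  simp only [splitEquiv_inl, splitEquiv_inr]

theorem splitEquiv_preimage {D₁ D₂ : Set Pt} {N n m : ℕ} (S : Finset (Fin N))
    (e : Fin n ⊕ Fin m ≃ Fin N) (h1 : ∀ i, e (Sum.inl i) ∈ S) (h2 : ∀ j, e (Sum.inr j) ∉ S) :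
    splitEquiv e ⁻¹' (boxS D₁ D₂ S) =
      (Set.pi Set.univ (fun _ : Fin n => D₁)) ×ˢ (Set.pi Set.univ (fun _ : Fin m => D₂)) := by
  ext p
  simp only [Set.mem_preimage, boxS, Set.mem_pi, Set.mem_univ, true_implies, Set.mem_prod]
  constructor
  · intro h
    refine ⟨fun i => ?_, fun j => ?_⟩
    · have := h (e (Sum.inl i))
      rwa [if_pos (h1 i), splitEquiv_inl] at this
    · have := h (e (Sum.inr j))
      rwa [if_neg (h2 j), splitEquiv_inr] at this
  · rintro ⟨ha, hb⟩ k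
    obtain ⟨s, rfl⟩ := e.surjective k
    cases s with
    | inl i => rw [if_pos (h1 i), splitEquiv_inl]; exact ha i
    | inr j => rw [if_neg (h2 j), splitEquiv_inr]; exact hb j

theorem lintegral_boxS (U : Pt → Pt → ℝ)
    {D₁ D₂ : Set Pt} {N n m : ℕ} (S : Finset (Fin N))
    (e : Fin n ⊕ Fin m ≃ Fin N) (h1 : ∀ i, e (Sum.inl i) ∈ S) (h2 : ∀ j, e (Sum.inr j) ∉ S) :
    ∫⁻ x in boxS D₁ D₂ S, bz U x =
      ∫⁻ p in (Set.pi Set.univ (fun _ : Fin n => D₁)) ×ˢ (Set.pi Set.univ (fun _ : Fin m => D₂)),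
        bz U (splitEquiv e p) ∂(volume.prod volume) := by
  rw [← splitEquiv_preimage S e h1 h2]
  exact ((splitEquiv_mp e).setLIntegral_comp_preimage_emb
    (splitEquiv e).measurableEmbedding (fun x => bz U x) (boxS D₁ D₂ S)).symm

theorem lintegral_prod_bz (U : Pt → Pt → ℝ) (hU : Measurable (Function.uncurry U))
    {D₁ D₂ : Set Pt} {n m : ℕ} :
    ∫⁻ p in (Set.pi Set.univ (fun _ : Fin n => D₁)) ×ˢ (Set.pi Set.univ (fun _ : Fin m => D₂)),
        bz U p.1 * bz U p.2 ∂(volume.prod volume) = Ci U D₁ n * Ci U D₂ m := by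
  rw [← Measure.prod_restrict]
  exact lintegral_prod_mul (measurable_bz hU).aemeasurable (measurable_bz hU).aemeasurable

theorem boxS_le {U : Pt → Pt → ℝ} (hU : Measurable (Function.uncurry U))
    (hsym : ∀ a b, U a b = U b a) {D₁ D₂ : Set Pt} (h₁ : MeasurableSet D₁) (h₂ : MeasurableSet D₂)
    (hcross : ∀ a ∈ D₁, ∀ b ∈ D₂, 0 ≤ U a b) {N n m : ℕ} (S : Finset (Fin N))
    (hn : S.card = n) (hm : Sᶜ.card = m) :
    ∫⁻ x in boxS D₁ D₂ S, bz U x ≤ Ci U D₁ n * Ci U D₂ m := by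
  rw [lintegral_boxS U S (finSumEquivOfFinset hn hm)
    (fun i => by rw [finSumEquivOfFinset_inl]; exact Finset.orderEmbOfFin_mem S hn i)
    (fun j => by
      rw [finSumEquivOfFinset_inr]
      exact Finset.mem_compl.1 (Finset.orderEmbOfFin_mem Sᶜ hm j)), ← lintegral_prod_bz U hU]
  refine setLIntegral_mono' ((MeasurableSet.univ_pi fun _ => h₁).prod
    (MeasurableSet.univ_pi fun _ => h₂)) fun p hp => ?_
  rw [bz, bz, bz, ← ENNReal.ofReal_mul (Real.exp_pos _).le, ← Real.exp_add]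
  refine ENNReal.ofReal_le_ofReal (Real.exp_le_exp.2 ?_)
  rw [pairE_splitEquiv U hsym]
  have : 0 ≤ ∑ i, ∑ j, U (p.1 i) (p.2 j) :=
    Finset.sum_nonneg fun i _ => Finset.sum_nonneg fun j _ =>
      hcross _ (hp.1 i (Set.mem_univ i)) _ (hp.2 j (Set.mem_univ j))
  linarith

theorem boxS_ge {U : Pt → Pt → ℝ} (hU : Measurable (Function.uncurry U))
    (hsym : ∀ a b, U a b = U b a) {D₁ D₂ : Set Pt} (h₁ : MeasurableSet D₁) (h₂ : MeasurableSet D₂)
    (hcross : ∀ a ∈ D₁, ∀ b ∈ D₂, U a b ≤ 0) {N n m : ℕ} (S : Finset (Fin N))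
    (hn : S.card = n) (hm : Sᶜ.card = m) :
    Ci U D₁ n * Ci U D₂ m ≤ ∫⁻ x in boxS D₁ D₂ S, bz U x := by
  rw [lintegral_boxS U S (finSumEquivOfFinset hn hm)
    (fun i => by rw [finSumEquivOfFinset_inl]; exact Finset.orderEmbOfFin_mem S hn i)
    (fun j => by
      rw [finSumEquivOfFinset_inr]
      exact Finset.mem_compl.1 (Finset.orderEmbOfFin_mem Sᶜ hm j)), ← lintegral_prod_bz U hU]
  refine setLIntegral_mono' ((MeasurableSet.univ_pi fun _ => h₁).prod
    (MeasurableSet.univ_pi fun _ => h₂)) fun p hp => ?_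
  rw [bz, bz, bz, ← ENNReal.ofReal_mul (Real.exp_pos _).le, ← Real.exp_add]
  refine ENNReal.ofReal_le_ofReal (Real.exp_le_exp.2 ?_)
  rw [pairE_splitEquiv U hsym]
  have : ∑ i, ∑ j, U (p.1 i) (p.2 j) ≤ 0 :=
    Finset.sum_nonpos fun i _ => Finset.sum_nonpos fun j _ =>
      hcross _ (hp.1 i (Set.mem_univ i)) _ (hp.2 j (Set.mem_univ j))
  linarith

theorem sum_finset_card {N : ℕ} (g : ℕ → ENNReal) :
    ∑ S : Finset (Fin N), g S.card = ∑ n ∈ Finset.range (N + 1), (N.choose n : ENNReal) * g n := by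
  rw [← Finset.powerset_univ, Finset.sum_powerset_apply_card]
  simp [nsmul_eq_mul]

theorem choose_mul_inv {N n : ℕ} (h : n ≤ N) (a b : ENNReal) :
    ((N.factorial : ℕ) : ENNReal)⁻¹ * ((N.choose n : ENNReal) *
      (((n.factorial : ℕ) : ENNReal) * a * (((N - n).factorial : ℕ) * b))) = a * b := by
  have h1 : (N.choose n : ENNReal) * (n.factorial : ENNReal) * ((N - n).factorial : ENNReal)
      = (N.factorial : ENNReal) := by
    exact_mod_cast Nat.choose_mul_factorial_mul_factorial h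
  have h2 : ((N.factorial : ℕ) : ENNReal) ≠ 0 := by exact_mod_cast N.factorial_ne_zero
  calc _ = ((N.factorial : ℕ) : ENNReal)⁻¹ * ((N.choose n : ENNReal) * (n.factorial : ENNReal)
        * ((N - n).factorial : ENNReal)) * (a * b) := by ring
    _ = a * b := by rw [h1, ENNReal.inv_mul_cancel h2 (ENNReal.natCast_ne_top _), one_mul]

/-- `Z(D₁ ∪ D₂; N) ≤ ∑_n Z(D₁; n) Z(D₂; N-n)` if the cross interaction is nonnegative. -/
theorem Zf_union_le {U : Pt → Pt → ℝ} (hU : Measurable (Function.uncurry U))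
    (hsym : ∀ a b, U a b = U b a) {D₁ D₂ : Set Pt} (h₁ : MeasurableSet D₁) (h₂ : MeasurableSet D₂)
    (hdisj : Disjoint D₁ D₂) (hcross : ∀ a ∈ D₁, ∀ b ∈ D₂, 0 ≤ U a b) (N : ℕ) :
    Zf U (D₁ ∪ D₂) N ≤ ∑ n ∈ Finset.range (N + 1), Zf U D₁ n * Zf U D₂ (N - n) := by
  rw [Zf_eq_Ci, Ci_union_eq U h₁ h₂ hdisj]
  have hle : ∑ S : Finset (Fin N), ∫⁻ x in boxS D₁ D₂ S, bz U x ≤
      ∑ S : Finset (Fin N), (fun n => Ci U D₁ n * Ci U D₂ (N - n)) S.card := by
    refine Finset.sum_le_sum fun S _ => ?_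
    refine boxS_le hU hsym h₁ h₂ hcross S rfl ?_
    rw [Finset.card_compl, Fintype.card_fin]
  refine (mul_le_mul_right hle _).trans ?_
  rw [sum_finset_card (fun n => Ci U D₁ n * Ci U D₂ (N - n)), Finset.mul_sum]
  refine Finset.sum_le_sum fun n hn => ?_
  have hn' : n ≤ N := Nat.lt_succ_iff.1 (Finset.mem_range.1 hn)
  simp only [Ci_eq]
  rw [choose_mul_inv hn']

/-- `Z(D₁; n₁) Z(D₂; n₂) ≤ Z(D₁ ∪ D₂; n₁ + n₂)` if the cross interaction is nonpositive. -/
theorem Zf_union_ge {U : Pt → Pt → ℝ} (hU : Measurable (Function.uncurry U))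
    (hsym : ∀ a b, U a b = U b a) {D₁ D₂ : Set Pt} (h₁ : MeasurableSet D₁) (h₂ : MeasurableSet D₂)
    (hdisj : Disjoint D₁ D₂) (hcross : ∀ a ∈ D₁, ∀ b ∈ D₂, U a b ≤ 0) (n₁ n₂ : ℕ) :
    Zf U D₁ n₁ * Zf U D₂ n₂ ≤ Zf U (D₁ ∪ D₂) (n₁ + n₂) := by
  rw [Zf_eq_Ci U (D₁ ∪ D₂), Ci_union_eq U h₁ h₂ hdisj]
  have hle : ∑ S : Finset (Fin (n₁ + n₂)), (fun n => if n = n₁ then Ci U D₁ n₁ * Ci U D₂ n₂
      else 0) S.card ≤ ∑ S : Finset (Fin (n₁ + n₂)), ∫⁻ x in boxS D₁ D₂ S, bz U x := by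
    refine Finset.sum_le_sum fun S _ => ?_
    by_cases h : S.card = n₁
    · simp only [h, if_true]
      refine boxS_ge hU hsym h₁ h₂ hcross S h ?_
      rw [Finset.card_compl, Fintype.card_fin, h]; omega
    · simp only [h, if_false]; exact zero_le
  refine le_trans ?_ (mul_le_mul_right hle _)
  rw [sum_finset_card (fun n => if n = n₁ then Ci U D₁ n₁ * Ci U D₂ n₂ else 0), Finset.mul_sum]
  refine le_trans ?_ (Finset.single_le_sum (f := fun n => (((n₁ + n₂).factorial : ℕ) : ENNReal)⁻¹ *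
    (((n₁ + n₂).choose n : ENNReal) * (if n = n₁ then Ci U D₁ n₁ * Ci U D₂ n₂ else 0)))
    (fun _ _ => zero_le) (Finset.mem_range.2 (by omega : n₁ < n₁ + n₂ + 1)))
  simp only [if_true, Ci_eq]
  have := choose_mul_inv (N := n₁ + n₂) (n := n₁) (by omega) (Zf U D₁ n₁) (Zf U D₂ n₂)
  rw [Nat.add_sub_cancel_left] at this
  rw [this]

/-! ### many regions (induction on the finset) -/

theorem Zf_biUnion_ge {U : Pt → Pt → ℝ} (hU : Measurable (Function.uncurry U))
    (hsym : ∀ a b, U a b = U b a) {κ : Type} [DecidableEq κ] (s : Finset κ) (D : κ → Set Pt)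
    (n : κ → ℕ) (hD : ∀ i ∈ s, MeasurableSet (D i))
    (hdisj : ∀ i ∈ s, ∀ j ∈ s, i ≠ j → Disjoint (D i) (D j))
    (hcross : ∀ i ∈ s, ∀ j ∈ s, i ≠ j → ∀ a ∈ D i, ∀ b ∈ D j, U a b ≤ 0) :
    ∏ i ∈ s, Zf U (D i) (n i) ≤ Zf U (⋃ i ∈ s, D i) (∑ i ∈ s, n i) := by
  induction s using Finset.induction_on with
  | empty => simp [Zf_zero]
  | insert a s ha ih =>
    rw [Finset.prod_insert ha, Finset.sum_insert ha, Finset.set_biUnion_insert]
    have ih' := ih (fun i hi => hD i (Finset.mem_insert_of_mem hi))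
      (fun i hi j hj => hdisj i (Finset.mem_insert_of_mem hi) j (Finset.mem_insert_of_mem hj))
      (fun i hi j hj => hcross i (Finset.mem_insert_of_mem hi) j (Finset.mem_insert_of_mem hj))
    refine (mul_le_mul_right ih' _).trans ?_
    refine Zf_union_ge hU hsym (hD a (Finset.mem_insert_self a s))
      (Finset.measurableSet_biUnion s fun i hi => hD i (Finset.mem_insert_of_mem hi)) ?_ ?_ _ _
    · rw [Set.disjoint_iUnion₂_right]
      intro i hi
      exact hdisj a (Finset.mem_insert_self a s) i (Finset.mem_insert_of_mem hi)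
        (fun h => ha (h ▸ hi))
    · intro x hx y hy
      obtain ⟨i, hi, hy⟩ := Set.mem_iUnion₂.1 hy
      exact hcross a (Finset.mem_insert_self a s) i (Finset.mem_insert_of_mem hi)
        (fun h => ha (h ▸ hi)) x hx y hy

theorem Zf_biUnion_le {U : Pt → Pt → ℝ} (hU : Measurable (Function.uncurry U))
    (hsym : ∀ a b, U a b = U b a) {κ : Type} [DecidableEq κ] (s : Finset κ) (D : κ → Set Pt)
    (hD : ∀ i ∈ s, MeasurableSet (D i))
    (hdisj : ∀ i ∈ s, ∀ j ∈ s, i ≠ j → Disjoint (D i) (D j))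
    (hcross : ∀ i ∈ s, ∀ j ∈ s, i ≠ j → ∀ a ∈ D i, ∀ b ∈ D j, 0 ≤ U a b)
    (N : ℕ) (z : ENNReal) :
    Zf U (⋃ i ∈ s, D i) N * z ^ N ≤ ∏ i ∈ s, ∑' n : ℕ, Zf U (D i) n * z ^ n := by
  induction s using Finset.induction_on generalizing N with
  | empty =>
    simp only [Finset.notMem_empty, Set.iUnion_of_empty, Set.iUnion_empty, Finset.prod_empty]
    rcases Nat.eq_zero_or_pos N with h | h
    · subst h; simp [Zf_zero]
    · have : Set.pi Set.univ (fun _ : Fin N => (∅ : Set Pt)) = ∅ := by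
        rw [Set.univ_pi_eq_empty_iff]; exact ⟨⟨0, h⟩, rfl⟩
      have h0 : Zf U (∅ : Set Pt) N = 0 := by
        rw [Zf, this]; simp
      rw [h0, zero_mul]; exact zero_le
  | insert a s ha ih =>
    rw [Finset.prod_insert ha, Finset.set_biUnion_insert]
    have ih' := ih (fun i hi => hD i (Finset.mem_insert_of_mem hi))
      (fun i hi j hj => hdisj i (Finset.mem_insert_of_mem hi) j (Finset.mem_insert_of_mem hj))
      (fun i hi j hj => hcross i (Finset.mem_insert_of_mem hi) j (Finset.mem_insert_of_mem hj))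
    have hun : Zf U (D a ∪ ⋃ i ∈ s, D i) N ≤
        ∑ n ∈ Finset.range (N + 1), Zf U (D a) n * Zf U (⋃ i ∈ s, D i) (N - n) := by
      refine Zf_union_le hU hsym (hD a (Finset.mem_insert_self a s))
        (Finset.measurableSet_biUnion s fun i hi => hD i (Finset.mem_insert_of_mem hi)) ?_ ?_ _
      · rw [Set.disjoint_iUnion₂_right]
        intro i hi
        exact hdisj a (Finset.mem_insert_self a s) i (Finset.mem_insert_of_mem hi)
          (fun h => ha (h ▸ hi))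
      · intro x hx y hy
        obtain ⟨i, hi, hy⟩ := Set.mem_iUnion₂.1 hy
        exact hcross a (Finset.mem_insert_self a s) i (Finset.mem_insert_of_mem hi)
          (fun h => ha (h ▸ hi)) x hx y hy
    refine (mul_le_mul_left hun _).trans ?_
    rw [Finset.sum_mul]
    calc ∑ n ∈ Finset.range (N + 1), Zf U (D a) n * Zf U (⋃ i ∈ s, D i) (N - n) * z ^ N
        ≤ ∑ n ∈ Finset.range (N + 1), (Zf U (D a) n * z ^ n) *
            ∏ i ∈ s, ∑' n : ℕ, Zf U (D i) n * z ^ n := by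
          refine Finset.sum_le_sum fun n hn => ?_
          have hn' : n ≤ N := Nat.lt_succ_iff.1 (Finset.mem_range.1 hn)
          have hz : z ^ N = z ^ n * z ^ (N - n) := by rw [← pow_add]; congr 1; omega
          calc Zf U (D a) n * Zf U (⋃ i ∈ s, D i) (N - n) * z ^ N
              = (Zf U (D a) n * z ^ n) * (Zf U (⋃ i ∈ s, D i) (N - n) * z ^ (N - n)) := by
                rw [hz]; ring
            _ ≤ _ := mul_le_mul_right (ih' (N - n)) _
      _ = (∑ n ∈ Finset.range (N + 1), (Zf U (D a) n * z ^ n)) *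
            ∏ i ∈ s, ∑' n : ℕ, Zf U (D i) n * z ^ n := by rw [Finset.sum_mul]
      _ ≤ _ := mul_le_mul_left (ENNReal.sum_le_tsum _) _

end Crest.Agent.Gas
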