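import Crest.Agent.GasBasic
import Crest.Agent.GasSplit
import Crest.Agent.GasHolder

/-! Module B (GasThermo): thermodynamic limit for admissible potentials. -/

set_option autoImplicit false

namespace Crest.Agent.Gas

open MeasureTheory Crest.ProbabilityR.Continuum Filter

/-- Logarithm of the canonical partition function in `cube L`. -/
noncomputable def lam (u : ℝ → ℝ) (L : ℝ) (N : ℕ) : ℝ := Real.log (Zf (rad u) (cube L) N).toReal

theorem feL_eq_lam (u : ℝ → ℝ) (ρ L : ℝ) : feL u ρ L = -lam u L ⌊ρ * L ^ 3⌋₊ / L ^ 3 := rfl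

theorem Adm.exists_B {u : ℝ → ℝ} (hu : Adm u) :
    ∃ B : ℝ, 0 ≤ B ∧ ∀ (N : ℕ) (x : Fin N → Pt), -(B * N) ≤ pairE (rad u) x := by
  obtain ⟨B, hB⟩ := hu.stable
  refine ⟨max B 0, le_max_right _ _, fun N x => le_trans ?_ (hB N x)⟩
  have : B * N ≤ max B 0 * N := mul_le_mul_of_nonneg_right (le_max_left _ _) (Nat.cast_nonneg _)
  linarith

theorem Adm.exists_K {u : ℝ → ℝ} (hu : Adm u) :
    ∃ K : ℝ, 0 ≤ K ∧ ∫⁻ z : Pt, ENNReal.ofReal (u ‖z‖) ≤ ENNReal.ofReal K :=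
  ⟨(∫⁻ z : Pt, ENNReal.ofReal (u ‖z‖)).toReal, ENNReal.toReal_nonneg,
    (ENNReal.ofReal_toReal hu.core.ne).ge⟩

theorem vol_cube_ne_top {L : ℝ} (hL : 0 ≤ L) : volume (cube L) ≠ ⊤ := by
  rw [volume_cube hL]; exact ENNReal.ofReal_ne_top

theorem Zf_le_B {u : ℝ → ℝ} {B : ℝ}
    (hB : ∀ (N : ℕ) (x : Fin N → Pt), -(B * N) ≤ pairE (rad u) x) {L : ℝ} (hL : 0 ≤ L) (N : ℕ) :
    Zf (rad u) (cube L) N ≤ ENNReal.ofReal (Real.exp (B * N) * (L ^ 3) ^ N / (N.factorial : ℝ)) := by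
  refine (Zf_le_of_stable (measurableSet_cube L) N (B * N) (fun x _ => hB N x)).trans ?_
  rw [volume_cube hL, ENNReal.ofReal_div_of_pos (by positivity), ENNReal.ofReal_mul (by positivity),
    ENNReal.ofReal_pow (by positivity) N, ENNReal.ofReal_natCast]

theorem Zf_cube_ne_top {u : ℝ → ℝ} (hu : Adm u) {L : ℝ} (hL : 0 ≤ L) (N : ℕ) :
    Zf (rad u) (cube L) N ≠ ⊤ := by
  obtain ⟨B, _, hB⟩ := hu.exists_B
  exact ne_top_of_le_ne_top ENNReal.ofReal_ne_top (Zf_le_B hB hL N)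

theorem Zf_cube_pos {u : ℝ → ℝ} (hu : Adm u) {L : ℝ} (hL : 0 < L) (N : ℕ) :
    0 < Zf (rad u) (cube L) N := by
  apply Zf_pos (measurable_rad hu.meas) (measurableSet_cube L)
  rw [volume_cube hL.le]
  exact ENNReal.ofReal_pos.mpr (by positivity)

theorem Zf_toReal_pos {u : ℝ → ℝ} (hu : Adm u) {L : ℝ} (hL : 0 < L) (N : ℕ) :
    0 < (Zf (rad u) (cube L) N).toReal :=
  ENNReal.toReal_pos (Zf_cube_pos hu hL N).ne' (Zf_cube_ne_top hu hL.le N)

theorem lam_zero (u : ℝ → ℝ) (L : ℝ) : lam u L 0 = 0 := by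
  simp [lam, Zf_zero]

theorem lam_le {u : ℝ → ℝ} (hu : Adm u) {B : ℝ}
    (hB : ∀ (N : ℕ) (x : Fin N → Pt), -(B * N) ≤ pairE (rad u) x) {L : ℝ} (hL : 0 < L) (N : ℕ) :
    lam u L N ≤ B * N + N * Real.log (L ^ 3) - Real.log N.factorial := by
  have h1 : (Zf (rad u) (cube L) N).toReal ≤ Real.exp (B * N) * (L ^ 3) ^ N / (N.factorial : ℝ) := by
    apply ENNReal.toReal_le_of_le_ofReal (by positivity) (Zf_le_B hB hL.le N)
  have h2 := Real.log_le_log (Zf_toReal_pos hu hL N) h1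
  rw [Real.log_div (by positivity) (by positivity), Real.log_mul (by positivity) (by positivity),
    Real.log_exp, Real.log_pow] at h2
  exact h2

theorem lam_le_exp {u : ℝ → ℝ} (hu : Adm u) {B : ℝ}
    (hB : ∀ (N : ℕ) (x : Fin N → Pt), -(B * N) ≤ pairE (rad u) x) {L : ℝ} (hL : 0 < L) (N : ℕ) :
    lam u L N ≤ Real.exp B * L ^ 3 := by
  have h1 : (Zf (rad u) (cube L) N).toReal ≤ Real.exp (B * N) * (L ^ 3) ^ N / (N.factorial : ℝ) := by
    apply ENNReal.toReal_le_of_le_ofReal (by positivity) (Zf_le_B hB hL.le N)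
  have h3 : Real.exp (B * N) * (L ^ 3) ^ N / (N.factorial : ℝ) ≤ Real.exp (Real.exp B * L ^ 3) := by
    have h4 : Real.exp (B * N) * (L ^ 3) ^ N = (Real.exp B * L ^ 3) ^ N := by
      rw [mul_pow, ← Real.exp_nat_mul]; ring_nf
    rw [h4]
    exact Real.pow_div_factorial_le_exp _ (by positivity) N
  have h2 := Real.log_le_log (Zf_toReal_pos hu hL N) (h1.trans h3)
  rw [Real.log_exp] at h2
  exact h2

theorem lam_succ_ge {u : ℝ → ℝ} (hu : Adm u) {K : ℝ} (hK0 : 0 ≤ K)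
    (hK : ∫⁻ z : Pt, ENNReal.ofReal (u ‖z‖) ≤ ENNReal.ofReal K) {L : ℝ} (hL : 0 < L) (N : ℕ) :
    lam u L N + (Real.log (L ^ 3) - Real.log ((N : ℝ) + 1) - N * K / L ^ 3) ≤ lam u L (N + 1) := by
  have h := Zf_succ_ge hu.meas hK0 hK (measurableSet_cube L) (V := L ^ 3) (by positivity)
    (volume_cube hL.le) N
  have h1 := ENNReal.toReal_mono (Zf_cube_ne_top hu hL.le (N + 1)) h
  rw [ENNReal.toReal_mul, ENNReal.toReal_ofReal (by positivity)] at h1
  have hp := Zf_toReal_pos hu hL N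
  have h2 := Real.log_le_log (by positivity) h1
  rw [Real.log_mul hp.ne' (by positivity), Real.log_mul (by positivity) (by positivity),
    Real.log_exp, Real.log_div (by positivity) (by positivity)] at h2
  unfold lam
  linarith

theorem lam_mono {u : ℝ → ℝ} (hu : Adm u) {L L' : ℝ} (hL : 0 < L) (hLL : L ≤ L') (N : ℕ) :
    lam u L N ≤ lam u L' N := by
  apply Real.log_le_log (Zf_toReal_pos hu hL N)
  apply ENNReal.toReal_mono (Zf_cube_ne_top hu (hL.le.trans hLL) N)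
  refine Zf_mono_set _ ?_ N
  intro x hx k
  exact ⟨(hx k).1, (hx k).2.trans hLL⟩

/-- `m` separated translates of `cube ℓ` fit in `cube L` if `m^(1/3) (ℓ+1) ≤ L`. Here each of the
`M^3` sub-cubes gets `n i` particles. -/
theorem Zf_cube_ge {u : ℝ → ℝ} (hu : Adm u) {ℓ L : ℝ} (hℓ : 0 < ℓ) (M : ℕ)
    (hL : M * (ℓ + 1) ≤ L) (n : (Fin 3 → Fin M) → ℕ) :
    ∏ i, Zf (rad u) (cube ℓ) (n i) ≤ Zf (rad u) (cube L) (∑ i, n i) := by
  classical
  let a : (Fin 3 → Fin M) → Pt := fun i => WithLp.toLp 2 (fun k => ((i k : ℕ) : ℝ) * (ℓ + 1))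
  let D : (Fin 3 → Fin M) → Set Pt := fun i => (fun y => y - a i) ⁻¹' cube ℓ
  have hDm : ∀ i, MeasurableSet (D i) := fun i =>
    (measurable_id.sub_const (a i)) (measurableSet_cube ℓ)
  have hmem : ∀ i y, y ∈ D i ↔ ∀ k : Fin 3, ((i k : ℕ) : ℝ) * (ℓ + 1) ≤ y k ∧
      y k ≤ ((i k : ℕ) : ℝ) * (ℓ + 1) + ℓ := by
    intro i y
    show (∀ k : Fin 3, 0 ≤ (y - a i) k ∧ (y - a i) k ≤ ℓ) ↔ _
    refine forall_congr' fun k => ?_
    have : (y - a i) k = y k - ((i k : ℕ) : ℝ) * (ℓ + 1) := rfl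
    rw [this]
    constructor
    · rintro ⟨h1, h2⟩; constructor <;> linarith
    · rintro ⟨h1, h2⟩; constructor <;> linarith
  have hsep : ∀ i j, i ≠ j → ∀ y ∈ D i, ∀ z ∈ D j, 1 ≤ dist y z := by
    intro i j hij y hy z hz
    obtain ⟨k, hk⟩ := Function.ne_iff.mp hij
    have hy' := (hmem i y).1 hy k
    have hz' := (hmem j z).1 hz k
    have h1 : |y k - z k| ≤ dist y z := by
      rw [dist_eq_norm]
      exact PiLp.norm_apply_le (y - z) k
    refine le_trans ?_ h1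
    have hk' : (i k : ℕ) ≠ (j k : ℕ) := fun h => hk (Fin.ext h)
    rcases lt_or_gt_of_ne hk' with h | h
    · have h2 : ((i k : ℕ) : ℝ) + 1 ≤ ((j k : ℕ) : ℝ) := by exact_mod_cast h
      have h3 : (((i k : ℕ) : ℝ) + 1) * (ℓ + 1) ≤ ((j k : ℕ) : ℝ) * (ℓ + 1) :=
        mul_le_mul_of_nonneg_right h2 (by linarith)
      rw [abs_sub_comm]
      refine le_trans ?_ (le_abs_self _)
      nlinarith [hy'.2, hz'.1]
    · have h2 : ((j k : ℕ) : ℝ) + 1 ≤ ((i k : ℕ) : ℝ) := by exact_mod_cast h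
      have h3 : (((j k : ℕ) : ℝ) + 1) * (ℓ + 1) ≤ ((i k : ℕ) : ℝ) * (ℓ + 1) :=
        mul_le_mul_of_nonneg_right h2 (by linarith)
      refine le_trans ?_ (le_abs_self _)
      nlinarith [hy'.1, hz'.2]
  have h := Zf_biUnion_ge (measurable_rad hu.meas)
    (fun a b => by simp [rad, dist_comm]) (Finset.univ : Finset (Fin 3 → Fin M)) D n
    (fun i _ => hDm i)
    (fun i _ j _ hij => by
      rw [Set.disjoint_left]
      intro y hy hy'
      have := hsep i j hij y hy y hy'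
      rw [dist_self] at this
      linarith)
    (fun i _ j _ hij y hy z hz => hu.tail _ (hsep i j hij y hy z hz))
  have h2 : ∏ i, Zf (rad u) (cube ℓ) (n i) = ∏ i, Zf (rad u) (D i) (n i) :=
    Finset.prod_congr rfl fun i _ => (Zf_translate u (cube ℓ) (a i) (n i)).symm
  rw [h2]
  refine h.trans (Zf_mono_set _ ?_ _)
  intro y hy
  simp only [Finset.mem_univ, Set.iUnion_true, Set.mem_iUnion] at hy
  obtain ⟨i, hi⟩ := hy
  intro k
  have h3 := (hmem i y).1 hi k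
  have h4 : 0 ≤ ((i k : ℕ) : ℝ) * (ℓ + 1) := by positivity
  refine ⟨h4.trans h3.1, h3.2.trans ?_⟩
  have h5 : ((i k : ℕ) : ℝ) + 1 ≤ M := by exact_mod_cast (i k).2
  have h6 : (((i k : ℕ) : ℝ) + 1) * (ℓ + 1) ≤ M * (ℓ + 1) :=
    mul_le_mul_of_nonneg_right h5 (by linarith)
  linarith

theorem lam_cube_ge {u : ℝ → ℝ} (hu : Adm u) {ℓ L : ℝ} (hℓ : 0 < ℓ) (hL0 : 0 < L) (M : ℕ)
    (hL : M * (ℓ + 1) ≤ L) (n : (Fin 3 → Fin M) → ℕ) :
    ∑ i, lam u ℓ (n i) ≤ lam u L (∑ i, n i) := by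
  have h := ENNReal.toReal_mono (Zf_cube_ne_top hu hL0.le _) (Zf_cube_ge hu hℓ M hL n)
  rw [ENNReal.toReal_prod] at h
  have h2 := Real.log_le_log (Finset.prod_pos fun i _ => Zf_toReal_pos hu hℓ (n i)) h
  rw [Real.log_prod (fun i _ => (Zf_toReal_pos hu hℓ (n i)).ne')] at h2
  exact h2

/-- adding particles one at a time -/
theorem lam_add_ge {u : ℝ → ℝ} (hu : Adm u) {K : ℝ} (hK0 : 0 ≤ K)
    (hK : ∫⁻ z : Pt, ENNReal.ofReal (u ‖z‖) ≤ ENNReal.ofReal K) {L : ℝ} (hL : 0 < L)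
    {R : ℝ} {N N' : ℕ} (hNN : N ≤ N') (hR : (N' : ℝ) ≤ R * L ^ 3) :
    lam u L N - ((N' : ℝ) - N) * (|Real.log R| + R * K) ≤ lam u L N' := by
  induction N', hNN using Nat.le_induction with
  | base => simp
  | succ N' hNN' ih =>
    have hV : 0 < L ^ 3 := by positivity
    have hc : ((N' + 1 : ℕ) : ℝ) = (N' : ℝ) + 1 := by push_cast; ring
    rw [hc] at hR ⊢
    have hN0 : (0 : ℝ) ≤ N' := Nat.cast_nonneg _
    have hR0 : 0 < R := by
      by_contra hcon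
      have : R * L ^ 3 ≤ 0 := mul_nonpos_of_nonpos_of_nonneg (not_lt.mp hcon) hV.le
      linarith
    have ih' := ih (by linarith)
    have h1 := lam_succ_ge hu hK0 hK hL N'
    have h2 : Real.log ((N' : ℝ) + 1) ≤ Real.log R + Real.log (L ^ 3) := by
      rw [← Real.log_mul hR0.ne' hV.ne']
      exact Real.log_le_log (by positivity) hR
    have h3 : N' * K / L ^ 3 ≤ R * K := by
      rw [div_le_iff₀ hV]
      have : (N' : ℝ) * K ≤ (R * L ^ 3) * K := mul_le_mul_of_nonneg_right (by linarith) hK0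
      linarith
    have h4 := le_abs_self (Real.log R)
    linarith

theorem tendsto_cube_atTop : Tendsto (fun L : ℝ => L ^ 3) atTop atTop :=
  tendsto_pow_atTop (by norm_num)

theorem tendsto_N {ρ : ℝ} (hρ : 0 ≤ ρ) :
    Tendsto (fun L : ℝ => ((⌊ρ * L ^ 3⌋₊ : ℕ) : ℝ) / L ^ 3) atTop (nhds ρ) :=
  (tendsto_nat_floor_mul_div_atTop hρ).comp tendsto_cube_atTop

theorem tendsto_ratio : Tendsto (fun L : ℝ => L / (L + 1)) atTop (nhds 1) := by
  have h1 : Tendsto (fun L : ℝ => 1 - (L + 1)⁻¹) atTop (nhds (1 - 0)) :=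
    tendsto_const_nhds.sub (tendsto_inv_atTop_zero.comp (tendsto_atTop_add_const_right _ 1 tendsto_id))
  rw [sub_zero] at h1
  refine h1.congr' ?_
  filter_upwards [eventually_gt_atTop 0] with L hL
  field_simp
  ring

theorem tendsto_ratio3 : Tendsto (fun L : ℝ => L ^ 3 / (L + 1) ^ 3) atTop (nhds 1) := by
  have := tendsto_ratio.pow 3
  simpa [div_pow] using this

theorem tendsto_N' {ρ : ℝ} (hρ : 0 ≤ ρ) :
    Tendsto (fun L : ℝ => ((⌊ρ * L ^ 3⌋₊ : ℕ) : ℝ) / (L + 1) ^ 3) atTop (nhds ρ) := by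
  have := (tendsto_N hρ).mul tendsto_ratio3
  rw [mul_one] at this
  refine this.congr' ?_
  filter_upwards [eventually_gt_atTop 0] with L hL
  field_simp

/-- Lower bound on the partition function from a mixture of two kinds of boxes. -/
theorem lam_mix {u : ℝ → ℝ} (hu : Adm u) {K : ℝ} (hK0 : 0 ≤ K)
    (hK : ∫⁻ z : Pt, ENNReal.ofReal (u ‖z‖) ≤ ENNReal.ofReal K) {ℓ : ℝ} (hℓ : 0 < ℓ) (na nb : ℕ)
    {t : ℝ} (ht0 : 0 ≤ t) (ht1 : t ≤ 1) {ρ : ℝ}
    (hρ : ((1 - t) * na + t * nb) / (ℓ + 1) ^ 3 < ρ) {ε : ℝ} (hε : 0 < ε) :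
    ∀ᶠ L : ℝ in atTop, ((1 - t) * lam u ℓ na + t * lam u ℓ nb) / (ℓ + 1) ^ 3 -
      (ρ - ((1 - t) * na + t * nb) / (ℓ + 1) ^ 3) * (|Real.log ρ| + ρ * K) - ε ≤
      lam u L ⌊ρ * L ^ 3⌋₊ / L ^ 3 := by
  set C := |Real.log ρ| + ρ * K with hC
  have hρ0 : 0 < ρ := by
    refine lt_of_le_of_lt ?_ hρ
    have : 0 ≤ 1 - t := by linarith
    positivity
  let M : ℝ → ℕ := fun L => ⌊(1 / (ℓ + 1)) * L⌋₊
  let m : ℝ → ℕ := fun L => (M L) ^ 3
  let k : ℝ → ℕ := fun L => ⌊t * (m L : ℝ)⌋₊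
  have hinv : (0 : ℝ) ≤ 1 / (ℓ + 1) := by positivity
  have hM : Tendsto (fun L : ℝ => ((M L : ℕ) : ℝ) / L) atTop (nhds (1 / (ℓ + 1))) :=
    tendsto_nat_floor_mul_div_atTop hinv
  have hm : Tendsto (fun L : ℝ => ((m L : ℕ) : ℝ) / L ^ 3) atTop (nhds (1 / (ℓ + 1) ^ 3)) := by
    have := hM.pow 3
    simpa [m, div_pow] using this
  have hMtop : Tendsto (fun L : ℝ => M L) atTop atTop := by
    apply tendsto_nat_floor_atTop.comp
    exact tendsto_id.const_mul_atTop (by positivity)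
  have hmtop : Tendsto (fun L : ℝ => ((m L : ℕ) : ℝ)) atTop atTop := by
    apply tendsto_natCast_atTop_atTop.comp
    exact (tendsto_pow_atTop (by norm_num)).comp hMtop
  have hk : Tendsto (fun L : ℝ => ((k L : ℕ) : ℝ) / L ^ 3) atTop (nhds (t * (1 / (ℓ + 1) ^ 3))) := by
    have h1 : Tendsto (fun L : ℝ => ((k L : ℕ) : ℝ) / (m L : ℝ)) atTop (nhds t) :=
      (tendsto_nat_floor_mul_div_atTop ht0).comp hmtop
    refine (h1.mul hm).congr' ?_
    filter_upwards [hmtop.eventually_gt_atTop 0] with L hL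
    field_simp
  have hN := tendsto_N hρ0.le
  have hkm : ∀ L, k L ≤ m L := by
    intro L
    apply Nat.floor_le_of_le
    have : (0 : ℝ) ≤ m L := Nat.cast_nonneg _
    nlinarith
  -- total number of particles
  have hS : Tendsto (fun L : ℝ => (((m L : ℝ) - k L) * na + k L * nb) / L ^ 3) atTop
      (nhds (((1 - t) * na + t * nb) / (ℓ + 1) ^ 3)) := by
    have h1 := (((hm.sub hk).mul_const (na : ℝ))).add (hk.mul_const (nb : ℝ))
    refine (h1.congr' ?_).trans (le_of_eq ?_)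
    · filter_upwards [eventually_gt_atTop 0] with L hL
      field_simp
    · congr 1
      field_simp
  have hlam : Tendsto (fun L : ℝ => (((m L : ℝ) - k L) * lam u ℓ na + k L * lam u ℓ nb) / L ^ 3) atTop
      (nhds (((1 - t) * lam u ℓ na + t * lam u ℓ nb) / (ℓ + 1) ^ 3)) := by
    have h1 := (((hm.sub hk).mul_const (lam u ℓ na))).add (hk.mul_const (lam u ℓ nb))
    refine (h1.congr' ?_).trans (le_of_eq ?_)
    · filter_upwards [eventually_gt_atTop 0] with L hL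
      field_simp
    · congr 1
      field_simp
  have hfin := hlam.sub ((hN.sub hS).mul_const C)
  have hev := hfin.eventually_const_lt (u := ((1 - t) * lam u ℓ na + t * lam u ℓ nb) / (ℓ + 1) ^ 3 -
      (ρ - ((1 - t) * na + t * nb) / (ℓ + 1) ^ 3) * C - ε) (by linarith)
  have hle := hS.eventually_lt hN hρ
  filter_upwards [hev, hle, eventually_gt_atTop 0] with L h1 h2 hL
  have hV : 0 < L ^ 3 := by positivity
  refine h1.le.trans ?_
  -- choose the boxes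
  have hcard : k L ≤ (Finset.univ : Finset (Fin 3 → Fin (M L))).card := by
    have : (Finset.univ : Finset (Fin 3 → Fin (M L))).card = m L := by simp [m]
    rw [this]; exact hkm L
  classical
  obtain ⟨S, _, hScard⟩ := Finset.exists_subset_card_eq hcard
  let n : (Fin 3 → Fin (M L)) → ℕ := fun i => if i ∈ S then nb else na
  have hsum : ∀ f : ℕ → ℝ, ∑ i, f (n i) = ((m L : ℝ) - k L) * f na + k L * f nb := by
    intro f
    have h3 : ∀ i, f (n i) = f na + (if i ∈ S then (f nb - f na) else 0) := by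
      intro i
      by_cases hi : i ∈ S <;> simp [n, hi]
    rw [Finset.sum_congr rfl fun i _ => h3 i, Finset.sum_add_distrib, Finset.sum_ite_mem]
    simp only [Finset.univ_inter, Finset.sum_const, hScard, nsmul_eq_mul, Finset.card_univ,
      Fintype.card_pi, Fintype.card_fin, Finset.prod_const]
    simp only [m]
    push_cast
    ring
  have hMle : (M L : ℝ) * (ℓ + 1) ≤ L := by
    have : (M L : ℝ) ≤ 1 / (ℓ + 1) * L := Nat.floor_le (by positivity)
    calc (M L : ℝ) * (ℓ + 1) ≤ (1 / (ℓ + 1) * L) * (ℓ + 1) :=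
          mul_le_mul_of_nonneg_right this (by linarith)
      _ = L := by field_simp
  have h4 := lam_cube_ge hu hℓ hL (M L) hMle n
  rw [hsum (lam u ℓ)] at h4
  have h5 : ((∑ i, n i : ℕ) : ℝ) = ((m L : ℝ) - k L) * na + k L * nb := by
    rw [← hsum (fun x => (x : ℝ))]
    push_cast
    rfl
  have h6 : (∑ i, n i : ℕ) ≤ ⌊ρ * L ^ 3⌋₊ := by
    have h7 := (div_lt_div_iff_of_pos_right hV).1 h2
    rw [← h5] at h7
    exact_mod_cast h7.le
  have h8 := lam_add_ge hu hK0 hK hL h6 (R := ρ) (Nat.floor_le (by positivity))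
  rw [← hC, h5] at h8
  rw [← sub_div, div_mul_eq_mul_div, ← sub_div, div_le_div_iff_of_pos_right hV]
  linarith

theorem lam_div_le {u : ℝ → ℝ} (hu : Adm u) {B : ℝ}
    (hB : ∀ (N : ℕ) (x : Fin N → Pt), -(B * N) ≤ pairE (rad u) x) {L : ℝ} (hL : 0 < L) (N : ℕ) :
    lam u L N / L ^ 3 ≤ Real.exp B := by
  rw [div_le_iff₀ (by positivity)]
  exact lam_le_exp hu hB hL N

theorem le_lam_div {u : ℝ → ℝ} (hu : Adm u) {K : ℝ} (hK0 : 0 ≤ K)
    (hK : ∫⁻ z : Pt, ENNReal.ofReal (u ‖z‖) ≤ ENNReal.ofReal K) {ρ : ℝ} (hρ : 0 ≤ ρ) {L : ℝ}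
    (hL : 0 < L) :
    -(ρ * (|Real.log ρ| + ρ * K)) ≤ lam u L ⌊ρ * L ^ 3⌋₊ / L ^ 3 := by
  have hV : 0 < L ^ 3 := by positivity
  have hfl : ((⌊ρ * L ^ 3⌋₊ : ℕ) : ℝ) ≤ ρ * L ^ 3 := Nat.floor_le (by positivity)
  have h := lam_add_ge hu hK0 hK hL (Nat.zero_le ⌊ρ * L ^ 3⌋₊) (R := ρ) hfl
  rw [lam_zero, Nat.cast_zero, sub_zero, zero_sub] at h
  rw [le_div_iff₀ hV]
  refine le_trans ?_ h
  have hC : 0 ≤ |Real.log ρ| + ρ * K := by positivity
  nlinarith [mul_le_mul_of_nonneg_right hfl hC]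

theorem Adm.exists_limit {u : ℝ → ℝ} (hu : Adm u) {ρ : ℝ} (hρ : 0 ≤ ρ) :
    ∃ F : ℝ, Tendsto (fun L : ℝ => feL u ρ L) atTop (nhds F) := by
  rcases hρ.eq_or_lt with rfl | hρ0
  · refine ⟨0, ?_⟩
    have : (fun L : ℝ => feL u 0 L) = fun _ => 0 := by
      funext L
      rw [feL_eq_lam, zero_mul, Nat.floor_zero, lam_zero]
      simp
    rw [this]
    exact tendsto_const_nhds
  obtain ⟨B, hB0, hB⟩ := hu.exists_B
  obtain ⟨K, hK0, hK⟩ := hu.exists_K
  set C := |Real.log ρ| + ρ * K with hC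
  have hC0 : 0 ≤ C := by positivity
  let A : ℝ → ℝ := fun L => lam u L ⌊ρ * L ^ 3⌋₊ / L ^ 3
  have hAub : ∀ᶠ L in atTop, A L ≤ Real.exp B := by
    filter_upwards [eventually_gt_atTop 0] with L hL
    exact lam_div_le hu hB hL _
  have hAlb : ∀ᶠ L in atTop, -(ρ * C) ≤ A L := by
    filter_upwards [eventually_gt_atTop 0] with L hL
    exact le_lam_div hu hK0 hK hρ hL
  have hbdd : IsBoundedUnder (· ≤ ·) atTop A := ⟨_, by simpa [eventually_map] using hAub⟩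
  have hbdd' : IsBoundedUnder (· ≥ ·) atTop A := ⟨_, by simpa [eventually_map] using hAlb⟩
  set s := limsup A atTop with hs
  -- the auxiliary finite volume function
  let h : ℝ → ℝ := fun ℓ => lam u ℓ ⌊ρ * ℓ ^ 3⌋₊ / (ℓ + 1) ^ 3 -
    (ρ - ((⌊ρ * ℓ ^ 3⌋₊ : ℕ) : ℝ) / (ℓ + 1) ^ 3) * C
  have hdiff : Tendsto (fun ℓ => h ℓ - A ℓ) atTop (nhds 0) := by
    have h1 : Tendsto (fun ℓ : ℝ => (ρ - ((⌊ρ * ℓ ^ 3⌋₊ : ℕ) : ℝ) / (ℓ + 1) ^ 3) * C) atTop
        (nhds 0) := by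
      have := ((tendsto_const_nhds (x := ρ)).sub (tendsto_N' hρ)).mul_const C
      simpa using this
    have h2 : Tendsto (fun ℓ : ℝ => A ℓ * (ℓ ^ 3 / (ℓ + 1) ^ 3 - 1)) atTop (nhds 0) := by
      have h3 : Tendsto (fun ℓ : ℝ => (Real.exp B + ρ * C) * |ℓ ^ 3 / (ℓ + 1) ^ 3 - 1|) atTop
          (nhds 0) := by
        have := ((tendsto_ratio3.sub_const 1).abs).const_mul (Real.exp B + ρ * C)
        simpa using this
      apply squeeze_zero_norm' _ h3
      filter_upwards [hAub, hAlb] with ℓ h4 h5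
      rw [norm_mul, Real.norm_eq_abs, Real.norm_eq_abs]
      apply mul_le_mul_of_nonneg_right _ (abs_nonneg _)
      rw [abs_le]
      have := Real.exp_pos B
      have : 0 ≤ ρ * C := by positivity
      constructor <;> linarith
    have h6 := h2.sub h1
    rw [sub_zero] at h6
    refine h6.congr' ?_
    filter_upwards [eventually_gt_atTop 0] with ℓ hℓ
    simp only [h, A]
    field_simp
    ring
  have hmain : ∀ ε : ℝ, 0 < ε → ∀ᶠ L in atTop, s - ε ≤ A L := by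
    intro ε hε
    have h1 : ∃ᶠ ℓ in atTop, s - ε / 3 < A ℓ :=
      frequently_lt_of_lt_limsup hbdd'.isCoboundedUnder_le (by linarith)
    have h2 : ∀ᶠ ℓ in atTop, -(ε / 3) < h ℓ - A ℓ :=
      hdiff.eventually_const_lt (by linarith)
    obtain ⟨ℓ, hℓ1, hℓ2, hℓ0⟩ := (h1.and_eventually (h2.and (eventually_gt_atTop 0))).exists
    have hfl : ((⌊ρ * ℓ ^ 3⌋₊ : ℕ) : ℝ) ≤ ρ * ℓ ^ 3 := Nat.floor_le (by positivity)
    have hlt : ((1 - (0 : ℝ)) * (⌊ρ * ℓ ^ 3⌋₊ : ℕ) + 0 * (⌊ρ * ℓ ^ 3⌋₊ : ℕ)) / (ℓ + 1) ^ 3 < ρ := by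
      rw [div_lt_iff₀ (by positivity)]
      have : ρ * ℓ ^ 3 < ρ * (ℓ + 1) ^ 3 := by
        apply mul_lt_mul_of_pos_left _ hρ0
        exact pow_lt_pow_left₀ (by linarith) hℓ0.le (by norm_num)
      linarith
    have h3 := lam_mix hu hK0 hK hℓ0 ⌊ρ * ℓ ^ 3⌋₊ ⌊ρ * ℓ ^ 3⌋₊ le_rfl zero_le_one hlt
      (ε := ε / 3) (by positivity)
    filter_upwards [h3] with L h4
    simp only [sub_zero, one_mul, zero_mul, add_zero] at h4
    have h5 : h ℓ - ε / 3 ≤ A L := h4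
    linarith
  refine ⟨-s, ?_⟩
  have hlim : Tendsto A atTop (nhds s) := by
    rw [tendsto_order]
    constructor
    · intro a ha
      filter_upwards [hmain ((s - a) / 2) (by linarith)] with L hL
      linarith
    · intro a ha
      exact eventually_lt_of_limsup_lt ha hbdd
  have := hlim.neg
  refine this.congr fun L => ?_
  simp only [A, feL_eq_lam, neg_div]

theorem Adm.tendsto_Fe {u : ℝ → ℝ} (hu : Adm u) {ρ : ℝ} (hρ : 0 ≤ ρ) :
    Tendsto (fun L : ℝ => feL u ρ L) atTop (nhds (Fe u ρ)) := by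
  have h := hu.exists_limit hρ
  unfold Fe
  rw [dif_pos h]
  exact Classical.choose_spec h

theorem Adm.tendsto_lam {u : ℝ → ℝ} (hu : Adm u) {ρ : ℝ} (hρ : 0 ≤ ρ) :
    Tendsto (fun L : ℝ => lam u L ⌊ρ * L ^ 3⌋₊ / L ^ 3) atTop (nhds (-Fe u ρ)) := by
  refine (hu.tendsto_Fe hρ).neg.congr fun L => ?_
  rw [feL_eq_lam, neg_div, neg_neg]

/-! ### properties of the limit -/

theorem Fe_zero {u : ℝ → ℝ} (hu : Adm u) : Fe u 0 = 0 := by
  have h := hu.tendsto_Fe le_rfl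
  refine tendsto_nhds_unique h ?_
  have : (fun L : ℝ => feL u 0 L) = fun _ => 0 := by
    funext L
    rw [feL_eq_lam, zero_mul, Nat.floor_zero, lam_zero]
    simp
  rw [this]
  exact tendsto_const_nhds

theorem Fe_mix {u : ℝ → ℝ} (hu : Adm u) {K : ℝ} (hK0 : 0 ≤ K)
    (hK : ∫⁻ z : Pt, ENNReal.ofReal (u ‖z‖) ≤ ENNReal.ofReal K) {ℓ : ℝ} (hℓ : 0 < ℓ) (na nb : ℕ)
    {t : ℝ} (ht0 : 0 ≤ t) (ht1 : t ≤ 1) {ρ : ℝ} (hρ0 : 0 ≤ ρ)
    (hρ : ((1 - t) * na + t * nb) / (ℓ + 1) ^ 3 < ρ) :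
    Fe u ρ ≤ -(((1 - t) * lam u ℓ na + t * lam u ℓ nb) / (ℓ + 1) ^ 3 -
      (ρ - ((1 - t) * na + t * nb) / (ℓ + 1) ^ 3) * (|Real.log ρ| + ρ * K)) := by
  rw [le_neg]
  apply le_of_forall_pos_le_add
  intro ε hε
  have h := ge_of_tendsto (hu.tendsto_lam hρ0) (lam_mix hu hK0 hK hℓ na nb ht0 ht1 hρ hε)
  linarith

theorem tendsto_lam' {u : ℝ → ℝ} (hu : Adm u) {ρ : ℝ} (hρ : 0 ≤ ρ) :
    Tendsto (fun L : ℝ => lam u L ⌊ρ * L ^ 3⌋₊ / (L + 1) ^ 3) atTop (nhds (-Fe u ρ)) := by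
  have := (hu.tendsto_lam hρ).mul tendsto_ratio3
  rw [mul_one] at this
  refine this.congr' ?_
  filter_upwards [eventually_gt_atTop 0] with L hL
  field_simp

theorem Fe_convexOn {u : ℝ → ℝ} (hu : Adm u) : ConvexOn ℝ (Set.Ici 0) (Fe u) := by
  obtain ⟨K, hK0, hK⟩ := hu.exists_K
  rw [convexOn_iff_forall_pos]
  refine ⟨convex_Ici 0, ?_⟩
  intro x hx y hy a b ha hb hab
  have hx0 : (0 : ℝ) ≤ x := hx
  have hy0 : (0 : ℝ) ≤ y := hy
  simp only [smul_eq_mul]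
  have ha' : a = 1 - b := by linarith
  subst ha'
  have hb1 : b ≤ 1 := by linarith
  set ρ := (1 - b) * x + b * y with hρdef
  have hρ : 0 ≤ ρ := by positivity
  rcases hρ.eq_or_lt with h0 | hρ0
  · have hx' : x = 0 := by
      by_contra hne
      have : 0 < x := lt_of_le_of_ne hx0 (Ne.symm hne)
      have h1 : 0 < (1 - b) * x := mul_pos ha this
      have h2 : 0 ≤ b * y := by positivity
      linarith
    have hy' : y = 0 := by
      by_contra hne
      have : 0 < y := lt_of_le_of_ne hy0 (Ne.symm hne)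
      have h1 : 0 < b * y := mul_pos hb this
      have h2 : 0 ≤ (1 - b) * x := by positivity
      linarith
    rw [← h0, hx', hy', Fe_zero hu]
    simp
  have hlim : Tendsto (fun ℓ : ℝ => -(((1 - b) * lam u ℓ ⌊x * ℓ ^ 3⌋₊ + b * lam u ℓ ⌊y * ℓ ^ 3⌋₊) /
      (ℓ + 1) ^ 3 - (ρ - ((1 - b) * (⌊x * ℓ ^ 3⌋₊ : ℕ) + b * (⌊y * ℓ ^ 3⌋₊ : ℕ)) / (ℓ + 1) ^ 3) *
        (|Real.log ρ| + ρ * K))) atTop (nhds ((1 - b) * Fe u x + b * Fe u y)) := by
    have h1 := ((tendsto_lam' hu hx0).const_mul (1 - b)).add ((tendsto_lam' hu hy0).const_mul b)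
    have h2 := ((tendsto_N' hx0).const_mul (1 - b)).add ((tendsto_N' hy0).const_mul b)
    have h3 := (h1.sub (((tendsto_const_nhds (x := ρ)).sub h2).mul_const
      (|Real.log ρ| + ρ * K))).neg
    have h4 : -((1 - b) * -Fe u x + b * -Fe u y - (ρ - ((1 - b) * x + b * y)) *
        (|Real.log ρ| + ρ * K)) = (1 - b) * Fe u x + b * Fe u y := by
      rw [← hρdef]; ring
    rw [h4] at h3
    refine h3.congr fun ℓ => ?_
    ring
  refine ge_of_tendsto hlim ?_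
  filter_upwards [eventually_gt_atTop 0] with ℓ hℓ
  apply Fe_mix hu hK0 hK hℓ _ _ hb.le hb1 hρ
  rw [div_lt_iff₀ (by positivity)]
  have h1 : ((⌊x * ℓ ^ 3⌋₊ : ℕ) : ℝ) ≤ x * ℓ ^ 3 := Nat.floor_le (by positivity)
  have h2 : ((⌊y * ℓ ^ 3⌋₊ : ℕ) : ℝ) ≤ y * ℓ ^ 3 := Nat.floor_le (by positivity)
  have h3 : ρ * ℓ ^ 3 < ρ * (ℓ + 1) ^ 3 := by
    apply mul_lt_mul_of_pos_left _ hρ0
    exact pow_lt_pow_left₀ (by linarith) hℓ.le (by norm_num)
  have h4 : (1 - b) * (⌊x * ℓ ^ 3⌋₊ : ℕ) ≤ (1 - b) * (x * ℓ ^ 3) :=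
    mul_le_mul_of_nonneg_left h1 ha.le
  have h5 : b * (⌊y * ℓ ^ 3⌋₊ : ℕ) ≤ b * (y * ℓ ^ 3) := mul_le_mul_of_nonneg_left h2 hb.le
  have h6 : (1 - b) * (x * ℓ ^ 3) + b * (y * ℓ ^ 3) = ρ * ℓ ^ 3 := by rw [hρdef]; ring
  linarith

theorem log_factorial_ge (N : ℕ) (hN : 0 < N) :
    N * Real.log N - N ≤ Real.log N.factorial := by
  have h := Real.pow_div_factorial_le_exp (N : ℝ) (by positivity) N
  have h1 := Real.log_le_log (by positivity) h
  rw [Real.log_exp, Real.log_div (by positivity) (by positivity), Real.log_pow] at h1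
  linarith

theorem log_factorial_le (N : ℕ) (hN : 0 < N) :
    Real.log N.factorial ≤ N * Real.log N - N + 1 + Real.log N := by
  induction N, hN using Nat.le_induction with
  | base => simp
  | succ N hN ih =>
    have hN0 : (0 : ℝ) < N := by exact_mod_cast hN
    rw [Nat.factorial_succ, Nat.cast_mul, Real.log_mul (by positivity) (by positivity)]
    have h1 : Real.log ((N : ℝ) / (N + 1)) ≤ (N : ℝ) / (N + 1) - 1 :=
      Real.log_le_sub_one_of_pos (by positivity)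
    rw [Real.log_div (by positivity) (by positivity)] at h1
    have h2 : ((N : ℝ) + 1) * (Real.log N - Real.log (N + 1)) ≤ (N + 1) * ((N : ℝ) / (N + 1) - 1) :=
      mul_le_mul_of_nonneg_left h1 (by positivity)
    have h3 : ((N : ℝ) + 1) * ((N : ℝ) / (N + 1) - 1) = -1 := by field_simp; ring
    push_cast
    rw [h3] at h2
    nlinarith

theorem le_Fe_of_energy {u : ℝ → ℝ} (hu : Adm u) {ρ e : ℝ} (hρ : 0 < ρ)
    (h : ∀ δ > 0, ∀ᶠ L : ℝ in atTop, ∀ x : Fin ⌊ρ * L ^ 3⌋₊ → Pt, (∀ i, x i ∈ cube L) →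
      (e - δ) * L ^ 3 ≤ pairE (rad u) x) :
    ρ * Real.log ρ - ρ + e ≤ Fe u ρ := by
  apply le_of_forall_pos_le_add
  intro δ hδ
  have hN := tendsto_N hρ.le
  have hlim : Tendsto (fun L : ℝ => ((⌊ρ * L ^ 3⌋₊ : ℕ) : ℝ) / L ^ 3 *
      (Real.log (((⌊ρ * L ^ 3⌋₊ : ℕ) : ℝ) / L ^ 3) - 1) + (e - δ)) atTop
      (nhds (ρ * (Real.log ρ - 1) + (e - δ))) :=
    (hN.mul ((hN.log hρ.ne').sub_const 1)).add_const _
  have hle : ∀ᶠ L : ℝ in atTop, ((⌊ρ * L ^ 3⌋₊ : ℕ) : ℝ) / L ^ 3 *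
      (Real.log (((⌊ρ * L ^ 3⌋₊ : ℕ) : ℝ) / L ^ 3) - 1) + (e - δ) ≤ feL u ρ L := by
    filter_upwards [h δ hδ, eventually_gt_atTop 0, hN.eventually_const_lt hρ] with L h1 hL h2
    have hV : 0 < L ^ 3 := by positivity
    set N := ⌊ρ * L ^ 3⌋₊ with hNdef
    have hN0 : (0 : ℝ) < N := by
      by_contra hcon
      have : (N : ℝ) / L ^ 3 ≤ 0 := div_nonpos_of_nonpos_of_nonneg (not_lt.mp hcon) hV.le
      linarith
    have hN1 : 0 < N := by exact_mod_cast hN0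
    have h3 := Zf_le_of_stable (U := rad u) (measurableSet_cube L) N (-((e - δ) * L ^ 3))
      (fun x hx => by rw [neg_neg]; exact h1 x hx)
    rw [volume_cube hL.le] at h3
    have h4 : (Zf (rad u) (cube L) N).toReal ≤
        Real.exp (-((e - δ) * L ^ 3)) * (L ^ 3) ^ N / (N.factorial : ℝ) := by
      apply ENNReal.toReal_le_of_le_ofReal (by positivity)
      refine h3.trans (le_of_eq ?_)
      rw [ENNReal.ofReal_div_of_pos (by positivity), ENNReal.ofReal_mul (by positivity),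
        ENNReal.ofReal_pow (by positivity) N, ENNReal.ofReal_natCast]
    have h5 := Real.log_le_log (Zf_toReal_pos hu hL N) h4
    rw [Real.log_div (by positivity) (by positivity), Real.log_mul (by positivity) (by positivity),
      Real.log_exp, Real.log_pow] at h5
    have h6 := log_factorial_ge N hN1
    rw [feL_eq_lam, ← hNdef, le_div_iff₀ hV, Real.log_div (by positivity) (by positivity)]
    have h7 : ((N : ℝ) / L ^ 3 * (Real.log N - Real.log (L ^ 3) - 1) + (e - δ)) * L ^ 3 =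
        N * (Real.log N - Real.log (L ^ 3) - 1) + (e - δ) * L ^ 3 := by
      field_simp
    rw [h7]
    unfold lam
    linarith
  have := le_of_tendsto_of_tendsto hlim (hu.tendsto_Fe hρ.le) hle
  linarith

theorem Fe_mono {u v : ℝ → ℝ} (hu : Adm u) (hv : Adm v) (h : ∀ r, 0 ≤ r → u r ≤ v r) {ρ : ℝ}
    (hρ : 0 ≤ ρ) : Fe u ρ ≤ Fe v ρ := by
  refine le_of_tendsto_of_tendsto (hu.tendsto_Fe hρ) (hv.tendsto_Fe hρ) ?_
  filter_upwards [eventually_gt_atTop 0] with L hL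
  rw [feL_eq_lam, feL_eq_lam]
  apply div_le_div_of_nonneg_right _ (by positivity)
  rw [neg_le_neg_iff]
  apply Real.log_le_log (Zf_toReal_pos hv hL _)
  apply ENNReal.toReal_mono (Zf_cube_ne_top hu hL.le _)
  exact Zf_anti (measurableSet_cube L) _ (fun a _ b _ => h _ dist_nonneg)

theorem Adm.mix {u v : ℝ → ℝ} (hu : Adm u) (hv : Adm v) {t : ℝ} (ht0 : 0 ≤ t) (ht1 : t ≤ 1) :
    Adm (fun r => (1 - t) * u r + t * v r) where
  meas := (hu.meas.const_mul _).add (hv.meas.const_mul _)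
  tail := by
    intro r hr
    have h1 := hu.tail r hr
    have h2 := hv.tail r hr
    have : 0 ≤ 1 - t := by linarith
    have := mul_nonpos_of_nonneg_of_nonpos this h1
    have := mul_nonpos_of_nonneg_of_nonpos ht0 h2
    linarith
  core := by
    have h : ∀ z : Pt, ENNReal.ofReal ((1 - t) * u ‖z‖ + t * v ‖z‖) ≤
        ENNReal.ofReal (u ‖z‖) + ENNReal.ofReal (v ‖z‖) := by
      intro z
      refine ENNReal.ofReal_add_le.trans (add_le_add ?_ ?_)
      · rw [ENNReal.ofReal_mul (by linarith)]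
        calc ENNReal.ofReal (1 - t) * ENNReal.ofReal (u ‖z‖)
            ≤ 1 * ENNReal.ofReal (u ‖z‖) := by
              gcongr
              exact ENNReal.ofReal_le_one.mpr (by linarith)
          _ = _ := one_mul _
      · rw [ENNReal.ofReal_mul ht0]
        calc ENNReal.ofReal t * ENNReal.ofReal (v ‖z‖)
            ≤ 1 * ENNReal.ofReal (v ‖z‖) := by
              gcongr
              exact ENNReal.ofReal_le_one.mpr ht1
          _ = _ := one_mul _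
    refine lt_of_le_of_lt (lintegral_mono h) ?_
    have hm : Measurable fun z : Pt => ENNReal.ofReal (u ‖z‖) :=
      (hu.meas.comp measurable_norm).ennreal_ofReal
    rw [lintegral_add_left hm]
    exact ENNReal.add_lt_top.mpr ⟨hu.core, hv.core⟩
  stable := by
    obtain ⟨B, _, hB⟩ := hu.exists_B
    obtain ⟨B', _, hB'⟩ := hv.exists_B
    refine ⟨(1 - t) * B + t * B', fun N x => ?_⟩
    have h1 : pairE (rad fun r => (1 - t) * u r + t * v r) x =
        (1 - t) * pairE (rad u) x + t * pairE (rad v) x := pairE_lin (1 - t) t (rad u) (rad v) x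
    rw [h1]
    have h2 := mul_le_mul_of_nonneg_left (hB N x) (by linarith : 0 ≤ 1 - t)
    have h3 := mul_le_mul_of_nonneg_left (hB' N x) ht0
    linarith

theorem Fe_concave {u v : ℝ → ℝ} (hu : Adm u) (hv : Adm v) {t : ℝ} (ht0 : 0 ≤ t) (ht1 : t ≤ 1)
    {ρ : ℝ} (hρ : 0 ≤ ρ) :
    (1 - t) * Fe u ρ + t * Fe v ρ ≤ Fe (fun r => (1 - t) * u r + t * v r) ρ := by
  have hw := hu.mix hv ht0 ht1
  refine le_of_tendsto_of_tendsto (((hu.tendsto_Fe hρ).const_mul (1 - t)).add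
    ((hv.tendsto_Fe hρ).const_mul t)) (hw.tendsto_Fe hρ) ?_
  filter_upwards [eventually_gt_atTop 0] with L hL
  have hV : 0 < L ^ 3 := by positivity
  rw [feL_eq_lam, feL_eq_lam, feL_eq_lam]
  set N := ⌊ρ * L ^ 3⌋₊
  have h := Zf_holder (measurable_rad hu.meas) (measurable_rad hv.meas) (D := cube L) N ht0 ht1
  have hpu := Zf_toReal_pos hu hL N
  have hpv := Zf_toReal_pos hv hL N
  have htu : (Zf (rad u) (cube L) N) ^ (1 - t) ≠ ⊤ :=
    ENNReal.rpow_ne_top_of_nonneg (by linarith) (Zf_cube_ne_top hu hL.le N)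
  have htv : (Zf (rad v) (cube L) N) ^ t ≠ ⊤ :=
    ENNReal.rpow_ne_top_of_nonneg ht0 (Zf_cube_ne_top hv hL.le N)
  have h1 := ENNReal.toReal_mono (ENNReal.mul_ne_top htu htv) h
  rw [ENNReal.toReal_mul, ← ENNReal.toReal_rpow, ← ENNReal.toReal_rpow] at h1
  have h2 : 0 < (Zf (fun a b => (1 - t) * rad u a b + t * rad v a b) (cube L) N).toReal :=
    Zf_toReal_pos hw hL N
  have h3 := Real.log_le_log h2 h1
  rw [Real.log_mul (by positivity) (by positivity), Real.log_rpow hpu, Real.log_rpow hpv] at h3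
  have h4 : lam (fun r => (1 - t) * u r + t * v r) L N ≤ (1 - t) * lam u L N + t * lam v L N := h3
  have h5 : (1 - t) * (-lam u L N / L ^ 3) + t * (-lam v L N / L ^ 3) =
      -((1 - t) * lam u L N + t * lam v L N) / L ^ 3 := by ring
  rw [h5]
  apply div_le_div_of_nonneg_right _ hV.le
  linarith

theorem lam_ge_entropy {u : ℝ → ℝ} (hu : Adm u) {K : ℝ} (hK0 : 0 ≤ K)
    (hK : ∫⁻ z : Pt, ENNReal.ofReal (u ‖z‖) ≤ ENNReal.ofReal K) {L : ℝ} (hL : 0 < L) (N : ℕ) :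
    N * Real.log (L ^ 3) - Real.log N.factorial - K * N ^ 2 / (2 * L ^ 3) ≤ lam u L N := by
  induction N with
  | zero => simp [lam_zero]
  | succ N ih =>
    have h := lam_succ_ge hu hK0 hK hL N
    rw [Nat.factorial_succ, Nat.cast_mul, Real.log_mul (by positivity) (by positivity)]
    push_cast
    have hV : 0 < L ^ 3 := by positivity
    have h1 : K * ((N : ℝ) + 1) ^ 2 / (2 * L ^ 3) = K * N ^ 2 / (2 * L ^ 3) + N * K / L ^ 3 +
        K / (2 * L ^ 3) := by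
      field_simp
      ring
    rw [h1]
    have h2 : 0 ≤ K / (2 * L ^ 3) := by positivity
    linarith

theorem Fe_upper {u : ℝ → ℝ} (hu : Adm u) {K : ℝ} (hK0 : 0 ≤ K)
    (hK : ∫⁻ z : Pt, ENNReal.ofReal (u ‖z‖) ≤ ENNReal.ofReal K) {ρ : ℝ} (hρ : 0 < ρ) :
    Fe u ρ ≤ ρ * Real.log ρ - ρ + K * ρ ^ 2 / 2 := by
  have hN := tendsto_N hρ.le
  have hNtop : Tendsto (fun L : ℝ => ((⌊ρ * L ^ 3⌋₊ : ℕ) : ℝ)) atTop atTop :=
    tendsto_natCast_atTop_atTop.comp
      (tendsto_nat_floor_atTop.comp (tendsto_cube_atTop.const_mul_atTop hρ))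
  have hlogN : Tendsto (fun L : ℝ => (1 + Real.log ((⌊ρ * L ^ 3⌋₊ : ℕ) : ℝ)) / L ^ 3) atTop
      (nhds 0) := by
    have h1 : Tendsto (fun x : ℝ => Real.log x / x) atTop (nhds 0) := by
      have := Real.tendsto_pow_log_div_mul_add_atTop 1 0 1 one_ne_zero
      simpa using this
    have h2 := (h1.comp hNtop).mul hN
    have h3 : Tendsto (fun L : ℝ => (L ^ 3)⁻¹) atTop (nhds 0) :=
      tendsto_inv_atTop_zero.comp tendsto_cube_atTop
    have h4 := h3.add h2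
    rw [zero_mul, add_zero] at h4
    refine h4.congr' ?_
    filter_upwards [eventually_gt_atTop 0, hNtop.eventually_gt_atTop 0] with L hL hN0
    simp only [Function.comp]
    generalize ((⌊ρ * L ^ 3⌋₊ : ℕ) : ℝ) = x at hN0 ⊢
    field_simp
  have hlim : Tendsto (fun L : ℝ => ((⌊ρ * L ^ 3⌋₊ : ℕ) : ℝ) / L ^ 3 *
      (Real.log (((⌊ρ * L ^ 3⌋₊ : ℕ) : ℝ) / L ^ 3) - 1) +
      K * (((⌊ρ * L ^ 3⌋₊ : ℕ) : ℝ) / L ^ 3) ^ 2 / 2 +
      (1 + Real.log ((⌊ρ * L ^ 3⌋₊ : ℕ) : ℝ)) / L ^ 3) atTop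
      (nhds (ρ * (Real.log ρ - 1) + K * ρ ^ 2 / 2 + 0)) :=
    ((hN.mul ((hN.log hρ.ne').sub_const 1)).add (((hN.pow 2).const_mul K).div_const 2)).add hlogN
  have hle : ∀ᶠ L : ℝ in atTop, feL u ρ L ≤ ((⌊ρ * L ^ 3⌋₊ : ℕ) : ℝ) / L ^ 3 *
      (Real.log (((⌊ρ * L ^ 3⌋₊ : ℕ) : ℝ) / L ^ 3) - 1) +
      K * (((⌊ρ * L ^ 3⌋₊ : ℕ) : ℝ) / L ^ 3) ^ 2 / 2 +
      (1 + Real.log ((⌊ρ * L ^ 3⌋₊ : ℕ) : ℝ)) / L ^ 3 := by
    filter_upwards [eventually_gt_atTop 0, hNtop.eventually_gt_atTop 0] with L hL hN0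
    have hV : 0 < L ^ 3 := by positivity
    set N := ⌊ρ * L ^ 3⌋₊ with hNdef
    have hN1 : 0 < N := by exact_mod_cast hN0
    have h1 := lam_ge_entropy hu hK0 hK hL N
    have h2 := log_factorial_le N hN1
    rw [feL_eq_lam, ← hNdef, div_le_iff₀ hV, Real.log_div (by positivity) (by positivity)]
    have h3 : ((N : ℝ) / L ^ 3 * (Real.log N - Real.log (L ^ 3) - 1) + K * ((N : ℝ) / L ^ 3) ^ 2 / 2 +
        (1 + Real.log N) / L ^ 3) * L ^ 3 = N * (Real.log N - Real.log (L ^ 3) - 1) +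
        K * N ^ 2 / (2 * L ^ 3) + (1 + Real.log N) := by
      field_simp
    rw [h3]
    linarith
  have := le_of_tendsto_of_tendsto (hu.tendsto_Fe hρ.le) hlim hle
  linarith

theorem Fe_continuousOn {u : ℝ → ℝ} (hu : Adm u) : ContinuousOn (Fe u) (Set.Ici 0) := by
  obtain ⟨B, hB0, hB⟩ := hu.exists_B
  obtain ⟨K, hK0, hK⟩ := hu.exists_K
  intro x hx
  rcases (show (0 : ℝ) ≤ x from hx).eq_or_lt with rfl | hx0
  · -- continuity at 0
    have hmul : Tendsto (fun ρ : ℝ => ρ * Real.log ρ) (nhdsWithin 0 (Set.Ici 0)) (nhds 0) := by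
      have := (Real.continuous_mul_log.tendsto 0)
      simp only [zero_mul] at this
      exact this.mono_left nhdsWithin_le_nhds
    have hid : Tendsto (fun ρ : ℝ => ρ) (nhdsWithin 0 (Set.Ici 0)) (nhds 0) :=
      tendsto_id.mono_left nhdsWithin_le_nhds
    show Tendsto (Fe u) (nhdsWithin 0 (Set.Ici 0)) (nhds (Fe u 0))
    rw [Fe_zero hu]
    have hlow : Tendsto (fun ρ : ℝ => ρ * Real.log ρ - ρ + -(B * ρ)) (nhdsWithin 0 (Set.Ici 0))
        (nhds 0) := by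
      have := (hmul.sub hid).add (hid.const_mul B).neg
      simpa using this
    have hup : Tendsto (fun ρ : ℝ => ρ * Real.log ρ - ρ + K * ρ ^ 2 / 2)
        (nhdsWithin 0 (Set.Ici 0)) (nhds 0) := by
      have := (hmul.sub hid).add (((hid.pow 2).const_mul K).div_const 2)
      simpa using this
    refine tendsto_of_tendsto_of_tendsto_of_le_of_le' hlow hup ?_ ?_
    · filter_upwards [self_mem_nhdsWithin] with ρ hρ
      rcases (show (0 : ℝ) ≤ ρ from hρ).eq_or_lt with rfl | hρ0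
      · rw [Fe_zero hu]; simp
      · apply le_Fe_of_energy hu hρ0
        intro δ hδ
        filter_upwards [eventually_gt_atTop 0] with L hL x _
        refine le_trans ?_ (hB _ x)
        have hfl : ((⌊ρ * L ^ 3⌋₊ : ℕ) : ℝ) ≤ ρ * L ^ 3 := Nat.floor_le (by positivity)
        have := mul_le_mul_of_nonneg_left hfl hB0
        have hV : 0 < L ^ 3 := by positivity
        nlinarith
    · filter_upwards [self_mem_nhdsWithin] with ρ hρ
      rcases (show (0 : ℝ) ≤ ρ from hρ).eq_or_lt with rfl | hρ0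
      · rw [Fe_zero hu]; simp
      · exact Fe_upper hu hK0 hK hρ0
  · have h1 : ConvexOn ℝ (Set.Ioi 0) (Fe u) :=
      (Fe_convexOn hu).subset Set.Ioi_subset_Ici_self (convex_Ioi 0)
    have h2 := h1.continuousOn isOpen_Ioi
    exact (h2.continuousAt (Ioi_mem_nhds hx0)).continuousWithinAt

/-- Finite volume bound. -/
theorem Fe_le_box {u : ℝ → ℝ} (hu : Adm u) {ℓ : ℝ} (hℓ : 0 < ℓ) (n : ℕ) :
    Fe u ((n : ℝ) / (ℓ + 1) ^ 3) ≤
      -(Real.log (Zf (rad u) (cube ℓ) n).toReal) / (ℓ + 1) ^ 3 := by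
  obtain ⟨K, hK0, hK⟩ := hu.exists_K
  rcases Nat.eq_zero_or_pos n with rfl | hn
  · simp [Fe_zero hu, Zf_zero]
  have hn0 : (0 : ℝ) < n := by exact_mod_cast hn
  set ρ := (n : ℝ) / (ℓ + 1) ^ 3 with hρ
  have hρ0 : 0 < ρ := by positivity
  have hcont : ContinuousAt (Fe u) ρ :=
    (Fe_continuousOn hu).continuousAt (Ici_mem_nhds hρ0)
  have h1 : Tendsto (Fe u) (nhdsWithin ρ (Set.Ioi ρ)) (nhds (Fe u ρ)) :=
    hcont.tendsto.mono_left nhdsWithin_le_nhds
  have h2 : Tendsto (fun r : ℝ => -(((1 - (0 : ℝ)) * lam u ℓ n + 0 * lam u ℓ n) / (ℓ + 1) ^ 3 -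
      (r - ((1 - (0 : ℝ)) * n + 0 * n) / (ℓ + 1) ^ 3) * (|Real.log r| + r * K)))
      (nhdsWithin ρ (Set.Ioi ρ)) (nhds (-(lam u ℓ n / (ℓ + 1) ^ 3))) := by
    have h3 : ContinuousAt (fun r : ℝ => -(((1 - (0 : ℝ)) * lam u ℓ n + 0 * lam u ℓ n) /
        (ℓ + 1) ^ 3 -
        (r - ((1 - (0 : ℝ)) * n + 0 * n) / (ℓ + 1) ^ 3) * (|Real.log r| + r * K))) ρ := by
      have hlog : ContinuousAt Real.log ρ := Real.continuousAt_log hρ0.ne'
      fun_prop
    have h4 := h3.tendsto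
    simp only [sub_zero, one_mul, zero_mul, add_zero] at h4 ⊢
    rw [← hρ, sub_self, zero_mul, sub_zero] at h4
    exact h4.mono_left nhdsWithin_le_nhds
  have h5 : Fe u ρ ≤ -(lam u ℓ n / (ℓ + 1) ^ 3) := by
    refine le_of_tendsto_of_tendsto h1 h2 ?_
    filter_upwards [self_mem_nhdsWithin] with r hr
    have hr' : ρ < r := hr
    apply Fe_mix hu hK0 hK hℓ n n le_rfl zero_le_one (by linarith)
    simp only [sub_zero, one_mul, zero_mul, add_zero]
    exact hr'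
  rw [neg_div]
  exact h5

/-- General upper bound principle: particle numbers `N j` in cubes `L j → ∞` with density tending
to `ρ`, and `-log Z ≤ c L³` along the sequence, give `Fe u ρ ≤ c`. -/
theorem Fe_le_of_tendsto {u : ℝ → ℝ} (hu : Adm u) {ρ c : ℝ} (hρ : 0 ≤ ρ) (L : ℕ → ℝ) (N : ℕ → ℕ)
    (hL : Tendsto L atTop atTop)
    (hN : Tendsto (fun j => (N j : ℝ) / (L j) ^ 3) atTop (nhds ρ))
    (h : ∀ᶠ j in atTop, -(Real.log (Zf (rad u) (cube (L j)) (N j)).toReal) / (L j) ^ 3 ≤ c) :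
    Fe u ρ ≤ c := by
  have hr : Tendsto (fun j => (L j) ^ 3 / (L j + 1) ^ 3) atTop (nhds 1) := tendsto_ratio3.comp hL
  have hρj : Tendsto (fun j => (N j : ℝ) / (L j + 1) ^ 3) atTop (nhds ρ) := by
    have := hN.mul hr
    rw [mul_one] at this
    refine this.congr' ?_
    filter_upwards [hL.eventually_gt_atTop 0] with j hj
    field_simp
  have h1 : Tendsto (fun j => Fe u ((N j : ℝ) / (L j + 1) ^ 3)) atTop (nhds (Fe u ρ)) := by
    refine (Fe_continuousOn hu ρ hρ).tendsto.comp ?_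
    rw [tendsto_nhdsWithin_iff]
    refine ⟨hρj, ?_⟩
    filter_upwards [hL.eventually_gt_atTop 0] with j hj
    show (0 : ℝ) ≤ _
    positivity
  have h2 : Tendsto (fun j => c * ((L j) ^ 3 / (L j + 1) ^ 3)) atTop (nhds c) := by
    simpa using hr.const_mul c
  refine le_of_tendsto_of_tendsto h1 h2 ?_
  filter_upwards [h, hL.eventually_gt_atTop 0] with j hj hLj
  refine (Fe_le_box hu hLj (N j)).trans ?_
  have h3 : -(Real.log (Zf (rad u) (cube (L j)) (N j)).toReal) / (L j + 1) ^ 3 =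
      -(Real.log (Zf (rad u) (cube (L j)) (N j)).toReal) / (L j) ^ 3 *
        ((L j) ^ 3 / (L j + 1) ^ 3) := by
    field_simp
  rw [h3]
  exact mul_le_mul_of_nonneg_right hj (by positivity)

end Crest.Agent.Gas
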