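import Mathlib

set_option autoImplicit false

namespace Crest.HS72

open Finset

private lemma filter_eq_pi {N m : ℕ} (i : Fin m) (S H : Finset (Fin N)) (hSH : S ⊆ H) :
    (univ.filter (fun c : Fin N → Fin m => H.filter (fun x => c x = i) = S)) =
      Fintype.piFinset (fun x => if x ∈ S then ({i} : Finset (Fin m)) else
        if x ∈ H then ({i} : Finset (Fin m))ᶜ else univ) := by
  ext c
  simp only [mem_filter, mem_univ, true_and, Fintype.mem_piFinset]
  constructor
  · intro h x
    by_cases hx : x ∈ S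
    · rw [if_pos hx]
      rw [← h] at hx
      simpa using (mem_filter.1 hx).2
    · rw [if_neg hx]
      by_cases hxH : x ∈ H
      · rw [if_pos hxH]
        simp only [mem_compl, mem_singleton]
        intro hc
        exact hx (h ▸ mem_filter.2 ⟨hxH, hc⟩)
      · rw [if_neg hxH]; exact mem_univ _
  · intro h
    ext x
    simp only [mem_filter]
    constructor
    · rintro ⟨hxH, hc⟩
      by_contra hx
      have := h x
      rw [if_neg hx, if_pos hxH] at this
      simp only [mem_compl, mem_singleton] at this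
      exact this hc
    · intro hx
      have := h x
      rw [if_pos hx] at this
      exact ⟨hSH hx, by simpa using this⟩

private lemma prod_ite_aux {N : ℕ} (S H : Finset (Fin N)) (hSH : S ⊆ H) (b c : ℝ) :
    (∏ x : Fin N, (if x ∈ S then (1 : ℝ) else if x ∈ H then b else c)) =
      b ^ (H.card - S.card) * c ^ (N - H.card) := by
  have h1 : ∀ x : Fin N, (if x ∈ S then (1 : ℝ) else if x ∈ H then b else c) =
      (if x ∈ H \ S then b else 1) * (if x ∈ Hᶜ then c else 1) := by
    intro x
    by_cases hx : x ∈ S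
    · have hxH := hSH hx
      simp [hx, hxH]
    · by_cases hxH : x ∈ H
      · simp [hx, hxH]
      · simp [hx, hxH]
  rw [prod_congr rfl (fun x _ => h1 x), prod_mul_distrib, prod_ite_mem, prod_ite_mem]
  simp [card_sdiff_of_subset hSH, card_compl]

private lemma card_class {N m : ℕ} (hm : 1 ≤ m) (i : Fin m) (S H : Finset (Fin N)) (hSH : S ⊆ H) :
    (((univ.filter (fun c : Fin N → Fin m => H.filter (fun x => c x = i) = S)).card : ℕ) : ℝ) =
      ((m : ℝ) - 1) ^ (H.card - S.card) * (m : ℝ) ^ (N - H.card) := by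
  rw [filter_eq_pi i S H hSH, Fintype.card_piFinset]
  rw [← prod_ite_aux S H hSH]
  push_cast
  refine prod_congr rfl (fun x _ => ?_)
  by_cases hx : x ∈ S
  · simp [hx]
  · by_cases hxH : x ∈ H
    · simp only [hx, hxH, if_false, if_true, card_compl, card_singleton, Fintype.card_fin]
      rw [Nat.cast_sub hm]; simp
    · simp [hx, hxH]

theorem color_bound (N m : ℕ) (hm : 1 ≤ m) (D : Finset (Finset (Fin N)))
    (H : Finset (Fin N))
    (hH : ∀ f : Fin m → Finset (Fin N), (∀ i, f i ∈ D) → ¬ H ⊆ Finset.univ.biUnion f) :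
    ∑ S ∈ D.filter (· ⊆ H), (1 / (m : ℝ)) ^ S.card * (1 - 1 / (m : ℝ)) ^ (H.card - S.card) ≤
      1 - 1 / (m : ℝ) := by
  classical
  have hm0 : (0 : ℝ) < m := by exact_mod_cast hm
  -- number of colourings whose class `i` lies in `D`
  set T : ℝ := ∑ S ∈ D.filter (· ⊆ H), ((m : ℝ) - 1) ^ (H.card - S.card) * (m : ℝ) ^ (N - H.card)
    with hT
  have hcount : ∀ i : Fin m,
      (((univ.filter (fun c : Fin N → Fin m => H.filter (fun x => c x = i) ∈ D)).card : ℕ) : ℝ) =
        T := by
    intro i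
    have h1 : (univ.filter (fun c : Fin N → Fin m => H.filter (fun x => c x = i) ∈ D)) =
        (D.filter (· ⊆ H)).biUnion (fun S =>
          univ.filter (fun c : Fin N → Fin m => H.filter (fun x => c x = i) = S)) := by
      ext c
      simp only [mem_filter, mem_univ, true_and, mem_biUnion]
      constructor
      · intro h
        exact ⟨_, ⟨h, filter_subset _ _⟩, rfl⟩
      · rintro ⟨S, ⟨hS, _⟩, h⟩
        rw [h]; exact hS
    rw [h1, card_biUnion]
    · push_cast
      rw [hT]
      refine sum_congr rfl (fun S hS => ?_)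
      exact card_class hm i S H (mem_filter.1 hS).2
    · intro S _ S' _ hne
      refine disjoint_left.2 (fun c hc hc' => hne ?_)
      rw [← (mem_filter.1 hc).2, ← (mem_filter.1 hc').2]
  have hcov : (univ : Finset (Fin N → Fin m)) ⊆ (univ : Finset (Fin m)).biUnion (fun i =>
      univ.filter (fun c : Fin N → Fin m => H.filter (fun x => c x = i) ∉ D)) := by
    intro c _
    by_contra hc
    simp only [mem_biUnion, mem_filter, mem_univ, true_and, not_exists, not_not] at hc
    refine hH (fun i => H.filter (fun x => c x = i)) hc (fun x hx => ?_)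
    exact mem_biUnion.2 ⟨c x, mem_univ _, mem_filter.2 ⟨hx, rfl⟩⟩
  have h2 : ((Fintype.card (Fin N → Fin m) : ℕ) : ℝ) ≤ ∑ i : Fin m,
      (((univ.filter (fun c : Fin N → Fin m => H.filter (fun x => c x = i) ∉ D)).card : ℕ) : ℝ) := by
    have := (card_le_card hcov).trans card_biUnion_le
    rw [← card_univ]
    exact_mod_cast this
  have h3 : ∀ i : Fin m,
      (((univ.filter (fun c : Fin N → Fin m => H.filter (fun x => c x = i) ∉ D)).card : ℕ) : ℝ) =
        (m : ℝ) ^ N - T := by
    intro i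
    have := card_filter_add_card_filter_not (s := (univ : Finset (Fin N → Fin m)))
      (fun c : Fin N → Fin m => H.filter (fun x => c x = i) ∈ D)
    have h4 : ((((univ.filter (fun c : Fin N → Fin m => H.filter (fun x => c x = i) ∈ D)).card : ℕ) : ℝ)
      + (((univ.filter (fun c : Fin N → Fin m => H.filter (fun x => c x = i) ∉ D)).card : ℕ) : ℝ)) =
        (m : ℝ) ^ N := by
      have h5 : (univ : Finset (Fin N → Fin m)).card = m ^ N := by
        rw [card_univ]; simp
      rw [h5] at this
      exact_mod_cast this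
    rw [hcount i] at h4
    linarith
  rw [sum_congr rfl (fun i _ => h3 i)] at h2
  simp only [sum_const, card_univ, Fintype.card_fin, nsmul_eq_mul, Fintype.card_pi, prod_const] at h2
  push_cast at h2
  -- h2 : m ^ N ≤ m * (m ^ N - T)
  have hHN : H.card ≤ N := by simpa using card_le_univ H
  have hTm : T ≤ (m : ℝ) ^ N * (1 - 1 / m) := by
    have : (m : ℝ) * T ≤ (m : ℝ) * ((m : ℝ) ^ N * (1 - 1 / m)) := by
      have : (m : ℝ) * ((m : ℝ) ^ N * (1 - 1 / m)) = m * (m : ℝ) ^ N - (m : ℝ) ^ N := by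
        field_simp
      rw [this]; linarith
    exact le_of_mul_le_mul_left this hm0
  have hsum : ∑ S ∈ D.filter (· ⊆ H), (1 / (m : ℝ)) ^ S.card *
      (1 - 1 / (m : ℝ)) ^ (H.card - S.card) = T / (m : ℝ) ^ N := by
    rw [hT, sum_div]
    refine sum_congr rfl (fun S hS => ?_)
    have hSH : S.card ≤ H.card := card_le_card (mem_filter.1 hS).2
    have e1 : (1 - 1 / (m : ℝ)) = ((m : ℝ) - 1) / m := by field_simp
    rw [e1, div_pow, div_pow, one_pow]
    have e2 : (m : ℝ) ^ N = (m : ℝ) ^ S.card * (m : ℝ) ^ (H.card - S.card) * (m : ℝ) ^ (N - H.card) := by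
      rw [← pow_add, ← pow_add]; congr 1; omega
    rw [e2]
    have n1 : (m : ℝ) ^ S.card ≠ 0 := pow_ne_zero _ hm0.ne'
    have n2 : (m : ℝ) ^ (H.card - S.card) ≠ 0 := pow_ne_zero _ hm0.ne'
    have n3 : (m : ℝ) ^ (N - H.card) ≠ 0 := pow_ne_zero _ hm0.ne'
    field_simp
  rw [hsum, div_le_iff₀ (pow_pos hm0 _)]
  linarith

private lemma up_sum {N : ℕ} (S' : Finset (Fin N)) (a b : ℝ) :
    ∑ S ∈ univ.filter (fun S : Finset (Fin N) => S' ⊆ S), a ^ (S.card - S'.card) *
      b ^ (N - S.card) = (a + b) ^ (N - S'.card) := by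
  have h1 : (univ.filter (fun S : Finset (Fin N) => S' ⊆ S)) =
      (S'ᶜ.powerset).image (fun T => S' ∪ T) := by
    ext S
    simp only [mem_filter, mem_univ, true_and, mem_image, mem_powerset]
    constructor
    · intro h
      refine ⟨S \ S', ?_, union_sdiff_of_subset h⟩
      intro x hx
      exact mem_compl.2 (mem_sdiff.1 hx).2
    · rintro ⟨T, _, rfl⟩
      exact subset_union_left
  rw [h1, sum_image]
  · have hc : (S'ᶜ).card = N - S'.card := by simp [card_compl]
    have := Finset.sum_pow_mul_eq_add_pow a b (S'ᶜ)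
    rw [← hc, ← this]
    refine sum_congr rfl (fun T hT => ?_)
    have hd : Disjoint S' T := by
      refine disjoint_left.2 (fun x hx hx' => ?_)
      exact (mem_compl.1 (mem_powerset.1 hT hx')) hx
    rw [card_union_of_disjoint hd, hc]
    congr 2
    · omega
    · omega
  · intro T hT T' hT' h
    simp only [coe_powerset, Set.mem_preimage, Set.mem_powerset_iff, coe_subset] at hT hT'
    have h2 : (S' ∪ T) \ S' = (S' ∪ T') \ S' := by rw [show S' ∪ T = S' ∪ T' from h]
    rwa [union_sdiff_cancel_left, union_sdiff_cancel_left] at h2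
    · refine disjoint_left.2 (fun x hx hx' => ?_)
      exact (mem_compl.1 (hT' hx')) hx
    · refine disjoint_left.2 (fun x hx hx' => ?_)
      exact (mem_compl.1 (hT hx')) hx

theorem mono_density (N : ℕ) (D : Finset (Finset (Fin N))) (hdown : ∀ A ∈ D, ∀ B ⊆ A, B ∈ D)
    (p q : ℝ) (hq : 0 ≤ q) (hqp : q ≤ p) (hp : p ≤ 1) :
    ∑ S ∈ D, p ^ S.card * (1 - p) ^ (N - S.card) ≤
      ∑ S ∈ D, q ^ S.card * (1 - q) ^ (N - S.card) := by
  classical
  rcases eq_or_lt_of_le (hq.trans hqp) with h0 | hp0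
  · have : q = p := le_antisymm hqp (by rw [← h0]; exact hq)
    rw [this]
  set ρ : ℝ := q / p with hρ
  have hρ0 : 0 ≤ ρ := div_nonneg hq hp0.le
  have hρ1 : ρ ≤ 1 := (div_le_one hp0).2 hqp
  have hρp : ρ * p = q := by rw [hρ]; field_simp
  -- weight of the pair `S' ⊆ S`
  set w : Finset (Fin N) → Finset (Fin N) → ℝ := fun S S' =>
    p ^ S.card * (1 - p) ^ (N - S.card) * (ρ ^ S'.card * (1 - ρ) ^ (S.card - S'.card)) with hw
  have hw0 : ∀ S S', 0 ≤ w S S' := fun S S' => by
    have : 0 ≤ 1 - p := by linarith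
    have : 0 ≤ 1 - ρ := by linarith
    positivity
  have hL : ∀ S, p ^ S.card * (1 - p) ^ (N - S.card) = ∑ S' ∈ S.powerset, w S S' := by
    intro S
    rw [hw]
    simp only
    rw [← mul_sum, Finset.sum_pow_mul_eq_add_pow]
    simp
  have hR : ∀ S' : Finset (Fin N), q ^ S'.card * (1 - q) ^ (N - S'.card) =
      ∑ S ∈ univ.filter (fun S : Finset (Fin N) => S' ⊆ S), w S S' := by
    intro S'
    have h1 : ∀ S ∈ univ.filter (fun S : Finset (Fin N) => S' ⊆ S), w S S' =
        (p * ρ) ^ S'.card * ((p * (1 - ρ)) ^ (S.card - S'.card) * (1 - p) ^ (N - S.card)) := by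
      intro S hS
      have hc : S'.card ≤ S.card := card_le_card (mem_filter.1 hS).2
      rw [hw]
      simp only
      rw [mul_pow, mul_pow]
      have : p ^ S.card = p ^ S'.card * p ^ (S.card - S'.card) := by
        rw [← pow_add]; congr 1; omega
      rw [this]; ring
    rw [sum_congr rfl h1, ← mul_sum, up_sum]
    have e1 : p * ρ = q := by rw [mul_comm]; exact hρp
    have e2 : p * (1 - ρ) + (1 - p) = 1 - q := by rw [← hρp]; ring
    rw [e1, e2]
  rw [sum_congr rfl (fun S _ => hL S), sum_congr rfl (fun S _ => hR S)]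
  rw [sum_sigma', sum_sigma']
  have : ∑ x ∈ D.sigma (fun S => S.powerset), w x.1 x.2 =
      ∑ x ∈ (D.sigma (fun S => S.powerset)).image
        (fun x : (_ : Finset (Fin N)) × Finset (Fin N) => (⟨x.2, x.1⟩ : (_ : Finset (Fin N)) × Finset (Fin N))), w x.2 x.1 := by
    rw [sum_image]
    rintro ⟨a, b⟩ _ ⟨c, d⟩ _ h
    simp only [Sigma.mk.injEq, heq_eq_eq] at h ⊢
    exact ⟨h.2, h.1⟩
  rw [this]
  refine sum_le_sum_of_subset_of_nonneg ?_ (fun x _ _ => hw0 _ _)
  rintro ⟨a, b⟩ hx
  simp only [mem_image, mem_sigma, mem_powerset, Sigma.mk.injEq, heq_eq_eq] at hx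
  obtain ⟨⟨c, d⟩, ⟨hc, hd⟩, h1, h2⟩ := hx
  simp only at hc hd h1 h2
  subst h1; subst h2
  simp only [mem_sigma, mem_filter, mem_univ, true_and]
  exact ⟨hdown _ hc _ hd, hd⟩

end Crest.HS72
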