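import Mathlib

/-!
S0074, phase 3 (fine structure), part 1: graded types with finite cells, thin sets, counts.
-/

set_option autoImplicit false

namespace Crest.Agent.IMX

open Set Filter

/-- A type with a grading into finite cells and a fast growing weight. -/
structure Grad (U : Type) where
  cell : U → ℕ
  w : ℕ → ℕ
  fin : ∀ n, {u | cell u = n}.Finite
  wpos : ∀ n, 0 < w n
  wgrow : ∀ n, 2 * w n ≤ w (n + 1)

namespace Grad

variable {U : Type} (G : Grad U)

/-- number of points of `Z` in cell `n` -/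
noncomputable def cc (Z : Set U) (n : ℕ) : ℕ := (Z ∩ {u | G.cell u = n}).ncard

/-- number of points of `Z` in the cells `≤ n` -/
noncomputable def cnt (Z : Set U) (n : ℕ) : ℕ := (Z ∩ {u | G.cell u ≤ n}).ncard

/-- thin sets: relative density in cell `n` tends to `0` -/
def Thin (Z : Set U) : Prop := ∀ i : ℕ, ∃ N, ∀ n, N ≤ n → i * G.cc Z n ≤ G.w n

theorem finLe (n : ℕ) : {u | G.cell u ≤ n}.Finite := by
  have : {u | G.cell u ≤ n} = ⋃ k ∈ Finset.range (n + 1), {u | G.cell u = k} := by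
    ext u; simp [Nat.lt_succ_iff]
  rw [this]
  exact Set.Finite.biUnion (Finset.finite_toSet _) (fun k _ => G.fin k)

theorem cc_fin (Z : Set U) (n : ℕ) : (Z ∩ {u | G.cell u = n}).Finite :=
  (G.fin n).subset inter_subset_right

theorem cnt_fin (Z : Set U) (n : ℕ) : (Z ∩ {u | G.cell u ≤ n}).Finite :=
  (G.finLe n).subset inter_subset_right

theorem cc_mono {Z Z' : Set U} (h : Z ⊆ Z') (n : ℕ) : G.cc Z n ≤ G.cc Z' n :=
  ncard_le_ncard (inter_subset_inter_left _ h) (G.cc_fin _ _)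

theorem cnt_mono {Z Z' : Set U} (h : Z ⊆ Z') (n : ℕ) : G.cnt Z n ≤ G.cnt Z' n :=
  ncard_le_ncard (inter_subset_inter_left _ h) (G.cnt_fin _ _)

theorem cc_le_cnt (Z : Set U) (n : ℕ) : G.cc Z n ≤ G.cnt Z n :=
  ncard_le_ncard (inter_subset_inter_right _ (fun u hu => le_of_eq hu)) (G.cnt_fin _ _)

theorem cc_union_le (Z Z' : Set U) (n : ℕ) : G.cc (Z ∪ Z') n ≤ G.cc Z n + G.cc Z' n := by
  unfold cc
  rw [union_inter_distrib_right]
  exact ncard_union_le _ _

theorem cnt_union_disj {Z Z' : Set U} (h : Disjoint Z Z') (n : ℕ) :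
    G.cnt (Z ∪ Z') n = G.cnt Z n + G.cnt Z' n := by
  unfold cnt
  rw [union_inter_distrib_right]
  exact ncard_union_eq (h.mono inter_subset_left inter_subset_left) (G.cnt_fin _ _) (G.cnt_fin _ _)

theorem cnt_diff {B X : Set U} (h : B ⊆ X) (n : ℕ) :
    G.cnt X n = G.cnt B n + G.cnt (X \ B) n := by
  conv_lhs => rw [← union_diff_cancel h]
  exact G.cnt_union_disj disjoint_sdiff_right n

theorem cnt_succ (Z : Set U) (n : ℕ) : G.cnt Z (n + 1) = G.cnt Z n + G.cc Z (n + 1) := by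
  unfold cnt cc
  rw [← ncard_union_eq _ (G.cnt_fin _ _) (G.cc_fin _ _)]
  · congr 1
    ext u
    simp only [mem_inter_iff, mem_setOf_eq, mem_union]
    constructor
    · rintro ⟨h1, h2⟩
      rcases Nat.lt_or_ge (G.cell u) (n + 1) with h | h
      · left; exact ⟨h1, by omega⟩
      · right; exact ⟨h1, by omega⟩
    · rintro (⟨h1, h2⟩ | ⟨h1, h2⟩)
      · exact ⟨h1, by omega⟩
      · exact ⟨h1, by omega⟩
  · rw [Set.disjoint_left]
    rintro u ⟨_, h1⟩ ⟨_, h2⟩
    simp only [mem_setOf_eq] at h1 h2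
    omega

theorem cnt_mono_n (Z : Set U) {k n : ℕ} (h : k ≤ n) : G.cnt Z k ≤ G.cnt Z n :=
  ncard_le_ncard (inter_subset_inter_right _ (fun u hu => le_trans hu h)) (G.cnt_fin _ _)

theorem w_mono {k n : ℕ} (h : k ≤ n) : G.w k ≤ G.w n := by
  induction n, h using Nat.le_induction with
  | base => exact le_rfl
  | succ n _ ih => have := G.wgrow n; omega

theorem w_ge (n : ℕ) : n < G.w n := by
  induction n with
  | zero => exact G.wpos 0
  | succ n ih => have := G.wgrow n; have := G.wpos n; omega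

theorem thin_mono {Z Z' : Set U} (h : Z ⊆ Z') (hZ : G.Thin Z') : G.Thin Z := by
  intro i
  obtain ⟨N, hN⟩ := hZ i
  exact ⟨N, fun n hn => le_trans (Nat.mul_le_mul_left _ (G.cc_mono h n)) (hN n hn)⟩

theorem thin_union {Z Z' : Set U} (h : G.Thin Z) (h' : G.Thin Z') : G.Thin (Z ∪ Z') := by
  intro i
  obtain ⟨N, hN⟩ := h (2 * i)
  obtain ⟨N', hN'⟩ := h' (2 * i)
  refine ⟨max N N', fun n hn => ?_⟩
  have h1 := hN n (le_trans (le_max_left _ _) hn)
  have h2 := hN' n (le_trans (le_max_right _ _) hn)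
  have h3 := Nat.mul_le_mul_left i (G.cc_union_le Z Z' n)
  nlinarith

/-- summation bound -/
theorem cnt_bound {Z : Set U} {K J : ℕ} (h : ∀ n, J < n → K * G.cc Z n ≤ G.w n) (m : ℕ)
    (hm : J ≤ m) : K * G.cnt Z m ≤ K * G.cnt Z J + 2 * G.w m := by
  induction m, hm using Nat.le_induction with
  | base => omega
  | succ n hn ih =>
    have h1 := h (n + 1) (by omega)
    have h2 := G.wgrow n
    rw [G.cnt_succ, Nat.mul_add]
    omega

/-- thin sets have small initial counts -/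
theorem thin_cnt {Z : Set U} (h : G.Thin Z) (i : ℕ) : ∃ N, ∀ n, N ≤ n → i * G.cnt Z n ≤ G.w n := by
  obtain ⟨J, hJ⟩ := h (4 * i)
  refine ⟨max J (4 * i * G.cnt Z J), fun n hn => ?_⟩
  have h1 := G.cnt_bound (Z := Z) (K := 4 * i) (J := J) (fun m hm => hJ m hm.le) n
    (le_trans (le_max_left _ _) hn)
  have h2 : 4 * i * G.cnt Z J ≤ n := le_trans (le_max_right _ _) hn
  have h3 := G.w_ge n
  have h4 : 4 * (i * G.cnt Z n) ≤ 4 * i * G.cnt Z J + 2 * G.w n := by
    calc 4 * (i * G.cnt Z n) = 4 * i * G.cnt Z n := by ring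
      _ ≤ _ := h1
  omega

theorem thin_of_cnt {Z : Set U} (h : ∀ i : ℕ, ∃ N, ∀ n, N ≤ n → i * G.cnt Z n ≤ G.w n) :
    G.Thin Z := by
  intro i
  obtain ⟨N, hN⟩ := h i
  exact ⟨N, fun n hn => le_trans (Nat.mul_le_mul_left _ (G.cc_le_cnt _ _)) (hN n hn)⟩

theorem thin_finite {Z : Set U} (h : Z.Finite) : G.Thin Z := by
  intro i
  refine ⟨i * Z.ncard, fun n hn => ?_⟩
  have h1 : G.cc Z n ≤ Z.ncard := ncard_le_ncard inter_subset_left h
  have h2 := G.w_ge n
  have h3 := Nat.mul_le_mul_left i h1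
  omega

theorem cnt_finite {Z : Set U} (h : Z.Finite) : ∃ N, ∀ n, N ≤ n → G.cnt Z n = Z.ncard := by
  have : ∃ N, ∀ u ∈ Z, G.cell u ≤ N := by
    obtain ⟨N, hN⟩ := (h.image G.cell).bddAbove
    exact ⟨N, fun u hu => hN ⟨u, hu, rfl⟩⟩
  obtain ⟨N, hN⟩ := this
  refine ⟨N, fun n hn => ?_⟩
  unfold cnt
  congr 1
  rw [inter_eq_left]
  exact fun u hu => le_trans (hN u hu) hn

/-- equivalence modulo thin sets -/
def Eqv (X Y : Set U) : Prop := G.Thin (X \ Y) ∧ G.Thin (Y \ X)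

theorem eqv_refl (X : Set U) : G.Eqv X X := by
  constructor <;> · rw [diff_self]; exact G.thin_finite finite_empty

theorem Eqv.symm {G : Grad U} {X Y : Set U} (h : G.Eqv X Y) : G.Eqv Y X := ⟨h.2, h.1⟩

theorem le_trans' {X Y Z : Set U} (h : G.Thin (X \ Y)) (h' : G.Thin (Y \ Z)) : G.Thin (X \ Z) := by
  refine G.thin_mono ?_ (G.thin_union h h')
  intro u hu
  by_cases hY : u ∈ Y
  · right; exact ⟨hY, hu.2⟩
  · left; exact ⟨hu.1, hY⟩

theorem Eqv.trans {G : Grad U} {X Y Z : Set U} (h : G.Eqv X Y) (h' : G.Eqv Y Z) : G.Eqv X Z :=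
  ⟨G.le_trans' h.1 h'.1, G.le_trans' h'.2 h.2⟩

theorem Eqv.compl {G : Grad U} {X Y : Set U} (h : G.Eqv X Y) : G.Eqv Xᶜ Yᶜ := by
  constructor
  · have : Xᶜ \ Yᶜ = Y \ X := by ext u; simp [and_comm]
    rw [this]; exact h.2
  · have : Yᶜ \ Xᶜ = X \ Y := by ext u; simp [and_comm]
    rw [this]; exact h.1

end Grad

end Crest.Agent.IMX
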