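import Crest.Agent.IMX_Split
import Crest.Agent.IMX_Fine1

/-!
# S0074: the grading on `V ⊕ V` and its thin sets
-/

namespace Crest.Agent.IMX

open Set

/-- the grading of `V ⊕ V` -/
noncomputable def G2 : Grad (V ⊕ V) where
  cell := Sum.elim (fun v => v.1) (fun v => v.1)
  w := w
  fin := by
    intro n
    have h : {u : V ⊕ V | Sum.elim (fun v : V => v.1) (fun v : V => v.1) u = n}
        = Sum.inl '' (Cell n) ∪ Sum.inr '' (Cell n) := by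
      ext u
      rcases u with u | u <;> simp [Cell]
    rw [h]
    exact ((cell_finite n).image _).union ((cell_finite n).image _)
  wpos := w_pos
  wgrow := w_succ

theorem G2_cc (Z : Set (V ⊕ V)) (n : ℕ) :
    G2.cc Z n = (Sum.inl ⁻¹' Z ∩ Cell n).ncard + (Sum.inr ⁻¹' Z ∩ Cell n).ncard := by
  unfold Grad.cc
  have h : Z ∩ {u : V ⊕ V | G2.cell u = n}
      = Sum.inl '' (Sum.inl ⁻¹' Z ∩ Cell n) ∪ Sum.inr '' (Sum.inr ⁻¹' Z ∩ Cell n) := by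
    ext u
    rcases u with u | u <;> simp [Cell, G2]
  have hd : Disjoint (Sum.inl '' (Sum.inl ⁻¹' Z ∩ Cell n) : Set (V ⊕ V))
      (Sum.inr '' (Sum.inr ⁻¹' Z ∩ Cell n)) := by
    rw [Set.disjoint_left]
    rintro u ⟨a, _, rfl⟩ ⟨b, _, hb⟩
    exact absurd hb (by simp)
  rw [h, Set.ncard_union_eq hd (((cell_finite n).subset inter_subset_right).image _)
    (((cell_finite n).subset inter_subset_right).image _),
    Set.ncard_image_of_injective _ Sum.inl_injective,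
    Set.ncard_image_of_injective _ Sum.inr_injective]

/-- the integer version of thinness -/
theorem thin_iff_nat (Z : Set V) :
    Thin Z ↔ ∀ i : ℕ, ∃ N, ∀ n, N ≤ n → i * (Z ∩ Cell n).ncard ≤ w n := by
  rw [thin_iff_cell]
  constructor
  · intro h i
    obtain ⟨N, hN⟩ := h (1 / (i + 1 : ℝ)) (by positivity)
    refine ⟨N, fun n hn => ?_⟩
    have h1 := hN n hn
    have h2 : (i : ℝ) * ((Z ∩ Cell n).ncard : ℝ) ≤ (w n : ℝ) := by
      have h3 : ((i : ℝ) + 1) * ((Z ∩ Cell n).ncard : ℝ) ≤ (w n : ℝ) := by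
        have h4 := mul_le_mul_of_nonneg_left h1 (by positivity : (0 : ℝ) ≤ (i : ℝ) + 1)
        have h5 : ((i : ℝ) + 1) * (1 / (i + 1 : ℝ) * (w n : ℝ)) = (w n : ℝ) := by
          field_simp
        linarith
      have h6 : (0 : ℝ) ≤ ((Z ∩ Cell n).ncard : ℝ) := Nat.cast_nonneg _
      nlinarith
    exact_mod_cast h2
  · intro h ε hε
    obtain ⟨i, hi⟩ := exists_nat_gt (1 / ε)
    obtain ⟨N, hN⟩ := h i
    refine ⟨N, fun n hn => ?_⟩
    have h1 : (i : ℝ) * ((Z ∩ Cell n).ncard : ℝ) ≤ (w n : ℝ) := by exact_mod_cast hN n hn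
    have h2 : 1 < i * ε := by
      rw [div_lt_iff₀ hε] at hi
      linarith
    have h3 : (0 : ℝ) ≤ ((Z ∩ Cell n).ncard : ℝ) := Nat.cast_nonneg _
    nlinarith

theorem G2_thin (Z : Set (V ⊕ V)) :
    G2.Thin Z ↔ Thin (Sum.inl ⁻¹' Z) ∧ Thin (Sum.inr ⁻¹' Z) := by
  rw [thin_iff_nat, thin_iff_nat]
  unfold Grad.Thin
  constructor
  · intro h
    constructor
    · intro i
      obtain ⟨N, hN⟩ := h i
      refine ⟨N, fun n hn => ?_⟩
      have h1 := hN n hn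
      rw [G2_cc, mul_add] at h1
      exact le_trans (Nat.le_add_right _ _) h1
    · intro i
      obtain ⟨N, hN⟩ := h i
      refine ⟨N, fun n hn => ?_⟩
      have h1 := hN n hn
      rw [G2_cc, mul_add] at h1
      exact le_trans (Nat.le_add_left _ _) h1
  · rintro ⟨h1, h2⟩ i
    obtain ⟨N, hN⟩ := h1 (2 * i)
    obtain ⟨M, hM⟩ := h2 (2 * i)
    refine ⟨max N M, fun n hn => ?_⟩
    have h3 := hN n (le_trans (le_max_left _ _) hn)
    have h4 := hM n (le_trans (le_max_right _ _) hn)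
    rw [G2_cc]
    show i * _ ≤ w n
    nlinarith

theorem G2_not_thin_univ : ¬ G2.Thin (Set.univ : Set (V ⊕ V)) := by
  rw [G2_thin]
  rintro ⟨h, _⟩
  exact not_thin_univ h

/-- the transfer of the coarse sign function to subsets of `V ⊕ V` -/
theorem transfer (s : Set V → Set V → ℤ)
    (c1 : ∀ Y S Y' S', Thin (Y \ Y') → Thin (S \ S') → s Y S ≤ s Y' S')
    (c2 : ∀ Y S, s Yᶜ Sᶜ = - s Y S)
    (c3 : ∀ Y S Y' S', s Y S = 0 → s Y' S' = 0 → Thin (Y \ Y') → Thin (S \ S') →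
      Thin (Y' \ Y) ∧ Thin (S' \ S))
    (c4 : ∀ L K A C, L ⊆ A → K ⊆ C → s L K = -1 → s A C = 1 →
      ∃ Y S, L ⊆ Y ∧ Y ⊆ A ∧ K ⊆ S ∧ S ⊆ C ∧ s Y S = 0) :
    ∃ t : Set (V ⊕ V) → ℤ, (∀ Z, t Z = s (Sum.inl ⁻¹' Z) (Sum.inr ⁻¹' Z)) ∧
      (∀ X Y, G2.Thin (X \ Y) → t X ≤ t Y) ∧ (∀ X, t Xᶜ = - t X) ∧
      (∀ X Y, t X = 0 → t Y = 0 → G2.Thin (X \ Y) → G2.Thin (Y \ X)) ∧
      (∀ L H, L ⊆ H → t L = -1 → t H = 1 → ∃ B, L ⊆ B ∧ B ⊆ H ∧ t B = 0) := by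
  refine ⟨fun Z => s (Sum.inl ⁻¹' Z) (Sum.inr ⁻¹' Z), fun Z => rfl, ?_, ?_, ?_, ?_⟩
  · intro X Y h
    rw [G2_thin] at h
    exact c1 _ _ _ _ h.1 h.2
  · intro X
    exact c2 _ _
  · intro X Y hX hY h
    rw [G2_thin] at h ⊢
    exact c3 _ _ _ _ hX hY h.1 h.2
  · intro L H hLH hL hH
    obtain ⟨Y, S, h1, h2, h3, h4, h5⟩ := c4 _ _ _ _ (preimage_mono hLH) (preimage_mono hLH) hL hH
    refine ⟨Sum.inl '' Y ∪ Sum.inr '' S, ?_, ?_, ?_⟩
    · rintro (u | u) hu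
      · exact Or.inl ⟨u, h1 hu, rfl⟩
      · exact Or.inr ⟨u, h3 hu, rfl⟩
    · rintro _ (⟨u, hu, rfl⟩ | ⟨u, hu, rfl⟩)
      · exact h2 hu
      · exact h4 hu
    · have e1 : Sum.inl ⁻¹' (Sum.inl '' Y ∪ Sum.inr '' S : Set (V ⊕ V)) = Y := by
        ext u; simp
      have e2 : Sum.inr ⁻¹' (Sum.inl '' Y ∪ Sum.inr '' S : Set (V ⊕ V)) = S := by
        ext u; simp
      show s _ _ = 0
      rw [e1, e2]
      exact h5

end Crest.Agent.IMX
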