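import Mathlib

set_option autoImplicit false

/-! # IMX_FL (row S0074): fine structure inside one thin class (helper41)

`w : ℕ → ℕ` cell weights with `2 * w n ≤ w (n+1)`, `0 < w 0`; `cell : U → ℕ` with finite cells. -/

namespace Crest.Agent.IMXF

open Set

variable {U : Type*}

/-- the part of `X` in the cells `≤ n` -/
def upto (cell : U → ℕ) (X : Set U) (n : ℕ) : Set U := {u | u ∈ X ∧ cell u ≤ n}

/-- the part of `X` in the cell `n` -/
def atc (cell : U → ℕ) (X : Set U) (n : ℕ) : Set U := {u | u ∈ X ∧ cell u = n}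

noncomputable def cnt (cell : U → ℕ) (X : Set U) (n : ℕ) : ℕ := (upto cell X n).ncard

noncomputable def ccnt (cell : U → ℕ) (X : Set U) (n : ℕ) : ℕ := (atc cell X n).ncard

/-- `X` is thin: `|X ∩ F_n| / w_n → 0` -/
def Thin (w : ℕ → ℕ) (cell : U → ℕ) (X : Set U) : Prop :=
  ∀ q : ℕ, ∃ N, ∀ n, N ≤ n → q * cnt cell X n ≤ w n

/-- `D n / w n → 0` -/
def Small (w : ℕ → ℕ) (D : ℕ → ℤ) : Prop :=
  ∀ q : ℕ, ∃ N, ∀ n, N ≤ n → (q : ℤ) * |D n| ≤ w n

def FL (w : ℕ → ℕ) (g : ℕ → ℤ) : Prop :=
  ∃ N, ∀ k, N ≤ k → g k < 0 → ∃ m, k ≤ m ∧ -g k * w m ≤ g m * w k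

theorem FL.mono {w : ℕ → ℕ} {g g' : ℕ → ℤ} (h : FL w g) (hg : ∃ N, ∀ n, N ≤ n → g n ≤ g' n) :
    FL w g' := by
  obtain ⟨N, hN⟩ := h
  obtain ⟨N', hN'⟩ := hg
  refine ⟨max N N', fun k hk hk0 => ?_⟩
  have h1 : g k ≤ g' k := hN' k (le_trans (le_max_right _ _) hk)
  obtain ⟨m, hm, hmm⟩ := hN k (le_trans (le_max_left _ _) hk) (by omega)
  refine ⟨m, hm, ?_⟩
  have h2 : g m ≤ g' m := hN' m (le_trans (le_trans (le_max_right _ _) hk) hm)
  have hw1 : (0 : ℤ) ≤ w m := by positivity
  have hw2 : (0 : ℤ) ≤ w k := by positivity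
  nlinarith

theorem FL_congr {w : ℕ → ℕ} {g g' : ℕ → ℤ} (hg : ∃ N, ∀ n, N ≤ n → g n = g' n) :
    FL w g ↔ FL w g' := by
  obtain ⟨N, hN⟩ := hg
  exact ⟨fun h => h.mono ⟨N, fun n hn => (hN n hn).le⟩,
    fun h => h.mono ⟨N, fun n hn => (hN n hn).ge⟩⟩

section cells

variable {cell : U → ℕ} (hF : ∀ n, {u | cell u ≤ n}.Finite)

include hF

theorem upto_finite (X : Set U) (n : ℕ) : (upto cell X n).Finite :=
  (hF n).subset fun _ hu => hu.2

theorem atc_finite (X : Set U) (n : ℕ) : (atc cell X n).Finite :=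
  (hF n).subset fun _ hu => hu.2.le

theorem cnt_mono {X Y : Set U} (h : X ⊆ Y) (n : ℕ) : cnt cell X n ≤ cnt cell Y n :=
  ncard_le_ncard (fun _ hu => ⟨h hu.1, hu.2⟩) (upto_finite hF Y n)

theorem ccnt_mono {X Y : Set U} (h : X ⊆ Y) (n : ℕ) : ccnt cell X n ≤ ccnt cell Y n :=
  ncard_le_ncard (fun _ hu => ⟨h hu.1, hu.2⟩) (atc_finite hF Y n)

theorem ccnt_le_cnt (X : Set U) (n : ℕ) : ccnt cell X n ≤ cnt cell X n :=
  ncard_le_ncard (fun _ hu => ⟨hu.1, hu.2.le⟩) (upto_finite hF X n)

theorem cnt_union_disjoint {X Y : Set U} (h : Disjoint X Y) (n : ℕ) :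
    cnt cell (X ∪ Y) n = cnt cell X n + cnt cell Y n := by
  unfold cnt
  rw [← ncard_union_eq _ (upto_finite hF X n) (upto_finite hF Y n)]
  · congr 1
    ext u
    simp only [upto, mem_ofPred_eq, mem_union]
    tauto
  · exact Set.disjoint_left.2 fun u hu hv => Set.disjoint_left.1 h hu.1 hv.1

theorem cnt_succ (X : Set U) (n : ℕ) : cnt cell X (n + 1) = cnt cell X n + ccnt cell X (n + 1) := by
  unfold cnt ccnt
  rw [← ncard_union_eq _ (upto_finite hF X n) (atc_finite hF X (n + 1))]
  · congr 1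
    ext u
    simp only [upto, atc, mem_ofPred_eq, mem_union]
    constructor
    · rintro ⟨h1, h2⟩
      rcases Nat.lt_or_ge (cell u) (n + 1) with h | h
      · exact Or.inl ⟨h1, by omega⟩
      · exact Or.inr ⟨h1, by omega⟩
    · rintro (⟨h1, h2⟩ | ⟨h1, h2⟩)
      · exact ⟨h1, by omega⟩
      · exact ⟨h1, by omega⟩
  · refine Set.disjoint_left.2 fun u hu hv => ?_
    have h1 := hu.2
    have h2 := hv.2
    omega

theorem cnt_finite_eventually {T : Set U} (hT : T.Finite) :
    ∃ N, ∀ n, N ≤ n → cnt cell T n = T.ncard := by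
  obtain ⟨N, hN⟩ := (hT.image cell).bddAbove
  refine ⟨N, fun n hn => ?_⟩
  unfold cnt
  congr 1
  ext u
  simp only [upto, mem_ofPred_eq, and_iff_left_iff_imp]
  exact fun hu => le_trans (hN (mem_image_of_mem _ hu)) hn

theorem Thin.subset {w : ℕ → ℕ} {X Y : Set U} (hY : Thin w cell Y) (h : X ⊆ Y) : Thin w cell X := by
  intro q
  obtain ⟨N, hN⟩ := hY q
  exact ⟨N, fun n hn => le_trans (Nat.mul_le_mul_left q (cnt_mono hF h n)) (hN n hn)⟩

theorem Thin.union {w : ℕ → ℕ} {X Y : Set U} (hX : Thin w cell X) (hY : Thin w cell Y) :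
    Thin w cell (X ∪ Y) := by
  intro q
  obtain ⟨N, hN⟩ := hX (2 * q)
  obtain ⟨N', hN'⟩ := hY (2 * q)
  refine ⟨max N N', fun n hn => ?_⟩
  have h1 := hN n (le_trans (le_max_left _ _) hn)
  have h2 := hN' n (le_trans (le_max_right _ _) hn)
  have h3 : cnt cell (X ∪ Y) n ≤ cnt cell X n + cnt cell Y n := by
    unfold cnt
    refine le_trans (ncard_le_ncard (t := upto cell X n ∪ upto cell Y n) ?_
      ((upto_finite hF X n).union (upto_finite hF Y n))) (ncard_union_le _ _)
    intro u hu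
    rcases hu.1 with h | h
    · exact Or.inl ⟨h, hu.2⟩
    · exact Or.inr ⟨h, hu.2⟩
  have h4 : q * cnt cell (X ∪ Y) n ≤ q * cnt cell X n + q * cnt cell Y n := by
    rw [← Nat.mul_add]; exact Nat.mul_le_mul_left q h3
  have h5 : 2 * q * cnt cell X n = 2 * (q * cnt cell X n) := by ring
  have h6 : 2 * q * cnt cell Y n = 2 * (q * cnt cell Y n) := by ring
  omega

end cells

theorem w_tendsto {w : ℕ → ℕ} (hw0 : 0 < w 0) (hw : ∀ n, 2 * w n ≤ w (n + 1)) (n : ℕ) :
    n < w n := by
  induction n with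
  | zero => exact hw0
  | succ n ih => have := hw n; omega

theorem w_mono {w : ℕ → ℕ} (hw : ∀ n, 2 * w n ≤ w (n + 1)) : Monotone w :=
  monotone_nat_of_le_succ fun n => by have := hw n; omega

theorem thin_of_finite {w : ℕ → ℕ} {cell : U → ℕ} (hF : ∀ n, {u | cell u ≤ n}.Finite)
    (hw0 : 0 < w 0) (hw : ∀ n, 2 * w n ≤ w (n + 1)) {T : Set U} (hT : T.Finite) :
    Thin w cell T := by
  intro q
  obtain ⟨N, hN⟩ := cnt_finite_eventually hF hT
  refine ⟨max N (q * T.ncard), fun n hn => ?_⟩
  rw [hN n (le_trans (le_max_left _ _) hn)]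
  exact le_trans (le_trans (le_max_right _ _) hn) (w_tendsto hw0 hw n).le

theorem thin_of_cells {w : ℕ → ℕ} {cell : U → ℕ} (hF : ∀ n, {u | cell u ≤ n}.Finite)
    (hw0 : 0 < w 0) (hw : ∀ n, 2 * w n ≤ w (n + 1)) {X : Set U}
    (hX : ∀ q : ℕ, ∃ N, ∀ n, N ≤ n → q * ccnt cell X n ≤ w n) : Thin w cell X := by
  intro q
  obtain ⟨N, hN⟩ := hX (4 * q)
  have key : ∀ n, N ≤ n → 4 * q * cnt cell X n ≤ 4 * q * cnt cell X N + 2 * w n := by
    intro n hn
    induction n, hn using Nat.le_induction with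
    | base => omega
    | succ n hn ih =>
      have h1 := hN (n + 1) (by omega)
      have h2 := hw n
      rw [cnt_succ hF, Nat.mul_add]
      omega
  refine ⟨max N (4 * q * cnt cell X N), fun n hn => ?_⟩
  have h1 := key n (le_trans (le_max_left _ _) hn)
  have h2 : 4 * q * cnt cell X N ≤ w n :=
    le_trans (le_trans (le_max_right _ _) hn) (w_tendsto hw0 hw n).le
  have h3 : 4 * q * cnt cell X n = 4 * (q * cnt cell X n) := by ring
  omega

/-- **L1**: inside a non-thin set there is a thin `R` that lifts `D` to an `FL` function. -/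
theorem exists_thin_FL {w : ℕ → ℕ} {cell : U → ℕ} (hF : ∀ n, {u | cell u ≤ n}.Finite)
    (hw0 : 0 < w 0) (hw : ∀ n, 2 * w n ≤ w (n + 1)) {D : ℕ → ℤ} (hD : Small w D)
    {T : Set U} (hT : ¬ Thin w cell T) :
    ∃ R, R ⊆ T ∧ Thin w cell R ∧ FL w (fun n => D n + cnt cell R n) := by
  classical
  have hwpos : ∀ n, 0 < w n := fun n => lt_of_le_of_lt (Nat.zero_le _) (w_tendsto hw0 hw n)
  -- infinitely many cells with a positive proportion of `T`
  obtain ⟨q0, hq0⟩ : ∃ q0, ∀ N, ∃ m, N ≤ m ∧ w m < q0 * ccnt cell T m := by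
    by_contra hcon
    push Not at hcon
    exact hT (thin_of_cells hF hw0 hw hcon)
  choose M hM using fun i : ℕ => hD (i + 1)
  -- the sequence of cells
  choose nxt hnxt1 hnxt2 using hq0
  obtain ⟨sq, hseq00, hseq⟩ : ∃ sq : ℕ → ℕ, sq 0 = nxt 0 ∧
      ∀ i, sq (i + 1) = nxt (sq i + 1 + M (i + 1)) :=
    ⟨fun i => Nat.rec (nxt 0) (fun i x => nxt (x + 1 + M (i + 1))) i, rfl, fun i => rfl⟩
  have hseq_lt : ∀ i, sq i < sq (i + 1) := fun i => by
    rw [hseq]; have := hnxt1 (sq i + 1 + M (i + 1)); omega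
  have hseq_mono : StrictMono sq := strictMono_nat_of_lt_succ hseq_lt
  have hseqM : ∀ i, M (i + 1) ≤ sq (i + 1) := fun i => by
    rw [hseq]; have := hnxt1 (sq i + 1 + M (i + 1)); omega
  have hseq_big : ∀ i, w (sq i) < q0 * ccnt cell T (sq i) := by
    intro i
    cases i with
    | zero => rw [hseq00]; exact hnxt2 0
    | succ i => rw [hseq]; exact hnxt2 _
  have hseq_ge : ∀ i, i ≤ sq i := fun i => hseq_mono.le_apply
  -- sizes
  set sz : ℕ → ℕ := fun i => min (2 * w (sq i) / i + 1) (ccnt cell T (sq i)) with hsz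
  have hR : ∀ i, ∃ R, R ⊆ atc cell T (sq i) ∧ R.ncard = sz i := fun i =>
    Set.exists_subset_card_eq (min_le_right _ _)
  choose Rf hRf1 hRf2 using hR
  set R : Set U := ⋃ i, Rf i with hRdef
  have hRatc : ∀ i, atc cell R (sq i) = Rf i := by
    intro i
    ext u
    constructor
    · rintro ⟨h1, h2⟩
      obtain ⟨j, hj⟩ := mem_iUnion.1 h1
      have h3 : cell u = sq j := (hRf1 j hj).2
      have h4 : i = j := hseq_mono.injective (by rw [← h2, h3])
      rw [h4]; exact hj
    · intro hu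
      exact ⟨mem_iUnion.2 ⟨i, hu⟩, (hRf1 i hu).2⟩
  have hRnone : ∀ n, (∀ i, n ≠ sq i) → ccnt cell R n = 0 := by
    intro n hn
    unfold ccnt
    have : atc cell R n = ∅ := by
      ext u
      simp only [mem_empty_iff_false, iff_false]
      rintro ⟨h1, h2⟩
      obtain ⟨j, hj⟩ := mem_iUnion.1 h1
      exact hn j (by rw [← h2]; exact (hRf1 j hj).2)
    rw [this, ncard_empty]
  refine ⟨R, ?_, ?_, ?_⟩
  · exact iUnion_subset fun i u hu => (hRf1 i hu).1
  · refine thin_of_cells hF hw0 hw fun q => ?_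
    refine ⟨sq (4 * q + 1), fun n hn => ?_⟩
    by_cases hxn : ∃ i, n = sq i
    · obtain ⟨i, rfl⟩ := hxn
      have hi : 4 * q + 1 ≤ i := hseq_mono.le_iff_le.1 hn
      unfold ccnt
      rw [hRatc, hRf2]
      have h1 : sz i ≤ 2 * w (sq i) / i + 1 := min_le_left _ _
      have h2 : i ≤ w (sq i) := le_trans (hseq_ge i) (w_tendsto hw0 hw _).le
      have h3 : i * (2 * w (sq i) / i) ≤ 2 * w (sq i) := Nat.mul_div_le _ _
      have h4 : q * sz i ≤ q * (2 * w (sq i) / i) + q := by
        calc q * sz i ≤ q * (2 * w (sq i) / i + 1) := Nat.mul_le_mul_left q h1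
          _ = _ := by ring
      have h5 : 4 * (q * (2 * w (sq i) / i)) ≤ 2 * w (sq i) := by
        calc 4 * (q * (2 * w (sq i) / i)) = (4 * q) * (2 * w (sq i) / i) := by ring
          _ ≤ i * (2 * w (sq i) / i) := Nat.mul_le_mul_right _ (by omega)
          _ ≤ _ := h3
      omega
    · rw [hRnone n (fun i hi => hxn ⟨i, hi⟩)]
      simp
  · -- FL
    refine ⟨sq (4 * q0 + 1) + 1, fun k hk hk0 => ?_⟩
    -- find i with sq i < k ≤ sq (i+1)
    have hexi : ∃ i, k ≤ sq i := ⟨k, hseq_ge k⟩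
    obtain ⟨i', hi'⟩ : ∃ i', Nat.find hexi = i' + 1 := by
      have h0 : Nat.find hexi ≠ 0 := by
        intro h
        have h1 := Nat.find_spec hexi
        rw [h] at h1
        have h2 : sq 0 ≤ sq (4 * q0 + 1) := hseq_mono.monotone (Nat.zero_le _)
        omega
      exact ⟨Nat.find hexi - 1, by omega⟩
    have hki : k ≤ sq (i' + 1) := hi' ▸ Nat.find_spec hexi
    have hik : sq i' < k := by
      have := Nat.find_min hexi (m := i') (by omega)
      omega
    have hi4 : 4 * q0 + 1 ≤ i' := by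
      by_contra hcon
      have h1 : sq (i' + 1) ≤ sq (4 * q0 + 1) := hseq_mono.monotone (by omega)
      omega
    refine ⟨sq (i' + 1), hki, ?_⟩
    set m := sq (i' + 1) with hm
    have hcR : ccnt cell R m = sz (i' + 1) := by
      unfold ccnt
      rw [hm, hRatc, hRf2]
    have hbig : w m < q0 * ccnt cell T m := hseq_big _
    -- the size is the full one
    have hszfull : 2 * w m ≤ (i' + 1) * sz (i' + 1) := by
      have hdm : 2 * w m < (i' + 1) * (2 * w m / (i' + 1) + 1) :=
        Nat.lt_mul_div_succ _ (by omega)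
      have e1 : sz (i' + 1) = min (2 * w m / (i' + 1) + 1) (ccnt cell T m) := rfl
      rcases min_choice (2 * w m / (i' + 1) + 1) (ccnt cell T m) with h | h
      · rw [e1, h]; exact hdm.le
      · rw [e1, h]
        have h2 : 2 * (q0 * ccnt cell T m) ≤ (i' + 1) * ccnt cell T m := by
          calc 2 * (q0 * ccnt cell T m) = (2 * q0) * ccnt cell T m := by ring
            _ ≤ _ := Nat.mul_le_mul_right _ (by omega)
        omega
    have hi'M : M i' ≤ k := by
      have h4 : ∃ j, i' = j + 1 := ⟨i' - 1, by omega⟩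
      obtain ⟨j, rfl⟩ := h4
      exact le_trans (hseqM j) hik.le
    have hDk := hM i' k hi'M
    have hDm := hM i' m (le_trans hi'M hki)
    push_cast at hDk hDm
    have hcle : ccnt cell R m ≤ cnt cell R m := ccnt_le_cnt hF R m
    have hz1 : (2 : ℤ) * w m ≤ (i' + 1) * cnt cell R m := by
      have : 2 * w m ≤ (i' + 1) * cnt cell R m := by
        rw [← hcR] at hszfull
        exact le_trans hszfull (Nat.mul_le_mul_left _ hcle)
      exact_mod_cast this
    have hi0 : (0 : ℤ) < (i' : ℤ) + 1 := by positivity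
    have hwk : (0 : ℤ) ≤ w k := by positivity
    have hwm : (0 : ℤ) ≤ w m := by positivity
    have g1 : (w m : ℤ) ≤ (i' + 1) * (D m + cnt cell R m) := by
      have := neg_abs_le (D m)
      nlinarith
    have g2 : ((i' : ℤ) + 1) * (-(D k + cnt cell R k)) ≤ w k := by
      have h1 := neg_abs_le (D k)
      have h2 : (0 : ℤ) ≤ cnt cell R k := by positivity
      nlinarith
    have g3 : ((i' : ℤ) + 1) * (-(D k + cnt cell R k) * w m) ≤
        ((i' : ℤ) + 1) * ((D m + cnt cell R m) * w k) := by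
      calc ((i' : ℤ) + 1) * (-(D k + cnt cell R k) * w m)
          = (((i' : ℤ) + 1) * (-(D k + cnt cell R k))) * w m := by ring
        _ ≤ w k * w m := mul_le_mul_of_nonneg_right g2 hwm
        _ = w m * w k := by ring
        _ ≤ ((i' + 1) * (D m + cnt cell R m)) * w k := mul_le_mul_of_nonneg_right g1 hwk
        _ = _ := by ring
    exact le_of_mul_le_mul_left g3 hi0

theorem FL_step {w : ℕ → ℕ} {g : ℕ → ℤ} (r : ℕ) (h0 : FL w g)
    (h1 : ¬ FL w (fun n => g n - r - 1)) :
    ∃ j, j ≤ r ∧ FL w (fun n => g n - j) ∧ ¬ FL w (fun n => g n - j - 1) := by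
  induction r with
  | zero => exact ⟨0, le_rfl, by simpa using h0, h1⟩
  | succ r ih =>
    by_cases h : FL w (fun n => g n - r - 1)
    · refine ⟨r + 1, le_rfl, ?_, ?_⟩
      · convert h using 2 with n
        push_cast; ring
      · exact h1
    · obtain ⟨j, hj, hj1, hj2⟩ := ih h
      exact ⟨j, by omega, hj1, hj2⟩

theorem exists_min_chain {cell : U → ℕ} (hF : ∀ n, {u | cell u ≤ n}.Finite) {c : Set (Set U)}
    (hc : IsChain (· ⊆ ·) c) (hne : c.Nonempty) (M : ℕ) :
    ∃ B ∈ c, ∀ u ∈ B, cell u ≤ M → u ∈ ⋂₀ c := by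
  classical
  obtain ⟨B, hB, hmin⟩ : ∃ B ∈ c, ∀ B' ∈ c, cnt cell B M ≤ cnt cell B' M := by
    obtain ⟨B0, hB0⟩ := hne
    have : ∃ k, ∃ B ∈ c, cnt cell B M = k := ⟨_, B0, hB0, rfl⟩
    obtain ⟨B, hB, hBk⟩ := Nat.find_spec this
    refine ⟨B, hB, fun B' hB' => ?_⟩
    rw [hBk]
    exact Nat.find_min' this ⟨B', hB', rfl⟩
  refine ⟨B, hB, fun u hu huM B' hB' => ?_⟩
  by_contra hu'
  have hsub : B' ⊆ B := by
    rcases eq_or_ne B B' with h | h
    · exact h ▸ subset_rfl
    · rcases hc hB hB' h with h1 | h1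
      · exact absurd (h1 hu) hu'
      · exact h1
  have hlt : cnt cell B' M < cnt cell B M := by
    refine ncard_lt_ncard ?_ (upto_finite hF B M)
    refine ⟨fun v hv => ⟨hsub hv.1, hv.2⟩, fun hcon => ?_⟩
    exact hu' (hcon (show u ∈ upto cell B M from ⟨hu, huM⟩)).1
  exact absurd (hmin B' hB') (not_le.2 hlt)

/-- **L0** -/
theorem exists_base_between {w : ℕ → ℕ} {cell : U → ℕ} (hF : ∀ n, {u | cell u ≤ n}.Finite)
    (hw0 : 0 < w 0) (hw : ∀ n, 2 * w n ≤ w (n + 1)) {D : ℕ → ℤ} (hD : Small w D)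
    (hFL : FL w D) {I X : Set U} (hIX : I ⊆ X)
    (h : ¬ Thin w cell (X \ I) ∨ ¬ FL w (fun n => D n - cnt cell (X \ I) n - 1)) :
    ∃ B, I ⊆ B ∧ B ⊆ X ∧ Thin w cell (X \ B) ∧ FL w (fun n => D n - cnt cell (X \ B) n) ∧
      ¬ FL w (fun n => D n - cnt cell (X \ B) n - 1) := by
  classical
  obtain ⟨N, hN⟩ := hFL
  set DB : Set U → ℕ → ℤ := fun B n => D n - cnt cell (X \ B) n with hDB
  set C : Set (Set U) := {B | I ⊆ B ∧ B ⊆ X ∧
    ∀ k, N ≤ k → DB B k < 0 → ∃ m, k ≤ m ∧ -DB B k * w m ≤ DB B m * w k} with hC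
  have hwpos : ∀ n, 0 < w n := fun n => lt_of_le_of_lt (Nat.zero_le _) (w_tendsto hw0 hw n)
  have hXX : cnt cell (X \ X) = fun _ => 0 := by
    funext n
    simp [cnt, upto]
  have hXC : X ∈ C := by
    refine ⟨hIX, subset_rfl, fun k hk hk0 => ?_⟩
    simp only [hDB, hXX] at hk0 ⊢
    simpa using hN k hk (by simpa using hk0)
  -- bound on witnesses
  have hbound : ∀ k, ∃ M, ∀ m, D m * w k ≥ w m → m ≤ M := by
    intro k
    obtain ⟨M, hM⟩ := hD (w k + 1)
    refine ⟨M, fun m hm => ?_⟩
    by_contra hmM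
    have h1 := hM m (by omega)
    have h2 : D m ≤ |D m| := le_abs_self _
    have h3 : (0 : ℤ) ≤ |D m| := abs_nonneg _
    have h4 : (0 : ℤ) < w m := by exact_mod_cast hwpos m
    have h5 : (0 : ℤ) ≤ w k := by positivity
    push_cast at h1
    have h6 : D m * w k ≤ |D m| * w k := mul_le_mul_of_nonneg_right h2 h5
    rcases eq_or_lt_of_le h3 with h7 | h7
    · rw [← h7] at h6
      simp at h6
      linarith
    · nlinarith
  -- chains
  have hzorn : ∃ B, Minimal (· ∈ C) B := by
    refine zorn_superset C fun c hcC hc => ?_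
    rcases c.eq_empty_or_nonempty with rfl | hne
    · exact ⟨X, hXC, by simp⟩
    refine ⟨⋂₀ c, ⟨?_, ?_, ?_⟩, fun s hs => sInter_subset_of_mem hs⟩
    · exact subset_sInter fun B hB => (hcC hB).1
    · obtain ⟨B, hB⟩ := hne
      exact (sInter_subset_of_mem hB).trans (hcC hB).2.1
    · intro k hk hk0
      obtain ⟨M, hM⟩ := hbound k
      obtain ⟨B, hB, hBM⟩ := exists_min_chain hF hc hne (max k M)
      have hagree : ∀ n, n ≤ max k M → DB B n = DB (⋂₀ c) n := by
        intro n hn
        simp only [hDB]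
        congr 2
        unfold cnt
        congr 1
        ext u
        simp only [upto, mem_ofPred_eq, mem_sdiff]
        constructor
        · rintro ⟨⟨h1, h2⟩, h3⟩
          exact ⟨⟨h1, fun h => h2 (sInter_subset_of_mem hB h)⟩, h3⟩
        · rintro ⟨⟨h1, h2⟩, h3⟩
          exact ⟨⟨h1, fun h => h2 (hBM u h (le_trans h3 hn))⟩, h3⟩
      have hk0' : DB B k < 0 := by rw [hagree k (le_max_left _ _)]; exact hk0
      obtain ⟨m, hkm, hm⟩ := (hcC hB).2.2 k hk hk0'
      have hmM : m ≤ M := by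
        refine hM m ?_
        have h1 : DB B m ≤ D m := by
          simp only [hDB]
          have : (0 : ℤ) ≤ cnt cell (X \ B) m := by positivity
          linarith
        have h2 : (0 : ℤ) ≤ w k := by positivity
        have h3 : (0 : ℤ) ≤ w m := by positivity
        have h4 : DB B m * w k ≤ D m * w k := mul_le_mul_of_nonneg_right h1 h2
        have h5 : (1 : ℤ) * w m ≤ -DB B k * w m := mul_le_mul_of_nonneg_right (by omega) h3
        linarith
      refine ⟨m, hkm, ?_⟩
      rw [← hagree k (le_max_left _ _), ← hagree m (le_trans hmM (le_max_right _ _))]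
      exact hm
  obtain ⟨B, hBmin⟩ := hzorn
  have hBC : B ∈ C := hBmin.1
  obtain ⟨hIB, hBX, hBk⟩ := hBC
  have hFLB : FL w (DB B) := ⟨N, hBk⟩
  -- (i)
  have hthinB : Thin w cell (X \ B) := by
    by_contra hnt
    unfold Thin at hnt
    push Not at hnt
    obtain ⟨q, hq⟩ := hnt
    obtain ⟨N1, hN1⟩ := hD (2 * q + 2)
    obtain ⟨k, hk, hkq⟩ := hq (max N N1)
    have h1 := hN1 k (le_trans (le_max_right _ _) hk)
    have hq0 : 0 < q := by
      rcases Nat.eq_zero_or_pos q with h | h
      · subst h; simp at hkq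
      · exact h
    have h2 : D k ≤ |D k| := le_abs_self _
    have h3 : (w k : ℤ) < q * cnt cell (X \ B) k := by exact_mod_cast hkq
    have hwk : (0 : ℤ) < w k := by exact_mod_cast hwpos k
    have hqz : (0 : ℤ) < q := by exact_mod_cast hq0
    have h30 : (0 : ℤ) ≤ |D k| := abs_nonneg _
    push_cast at h1
    -- 2 q DB B k < - w k
    have h4 : 2 * (q : ℤ) * DB B k < -w k := by
      simp only [hDB]
      have : 2 * (q : ℤ) * D k ≤ w k := by nlinarith
      nlinarith
    have h5 : DB B k < 0 := by nlinarith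
    obtain ⟨m, hkm, hm⟩ := hBk k (le_trans (le_max_left _ _) hk) h5
    have h6 := hN1 m (le_trans (le_trans (le_max_right _ _) hk) hkm)
    push_cast at h6
    have h7 : DB B m ≤ |D m| := by
      simp only [hDB]
      have : (0 : ℤ) ≤ cnt cell (X \ B) m := by positivity
      have := le_abs_self (D m)
      linarith
    have hwm : (0 : ℤ) < w m := by exact_mod_cast hwpos m
    have h8 : (w k : ℤ) * w m < 2 * q * (|D m| * w k) := by
      have e1 : 2 * (q : ℤ) * (-DB B k * w m) ≤ 2 * q * (|D m| * w k) := by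
        refine mul_le_mul_of_nonneg_left (le_trans hm ?_) (by positivity)
        exact mul_le_mul_of_nonneg_right h7 hwk.le
      have e2 : (w k : ℤ) * w m < 2 * q * (-DB B k * w m) := by
        have := mul_lt_mul_of_pos_right h4 hwm
        nlinarith
      linarith
    have h9 : (2 * (q : ℤ) + 2) * |D m| * w k ≤ w m * w k := mul_le_mul_of_nonneg_right h6 hwk.le
    have h10 : (0 : ℤ) ≤ |D m| * w k := mul_nonneg (abs_nonneg _) hwk.le
    nlinarith
  by_cases hB1 : FL w (fun n => DB B n - 1)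
  · obtain ⟨N', hN'⟩ := hB1
    -- finitely many witnesses
    obtain ⟨J, hJ⟩ : ∃ J, ∀ k, N ≤ k → k < N' → DB B k < 0 →
        ∃ m, k ≤ m ∧ m < J ∧ -DB B k * w m ≤ DB B m * w k := by
      clear hN'
      induction N' with
      | zero => exact ⟨0, fun k _ hk => absurd hk (Nat.not_lt_zero _)⟩
      | succ L ih =>
        obtain ⟨J, hJ⟩ := ih
        by_cases hL : N ≤ L ∧ DB B L < 0
        · obtain ⟨m, hm, hmm⟩ := hBk L hL.1 hL.2
          refine ⟨max J (m + 1), fun k hk hkL hk0 => ?_⟩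
          rcases Nat.lt_succ_iff_lt_or_eq.1 hkL with h | h
          · obtain ⟨m', h1, h2, h3⟩ := hJ k hk h hk0
            exact ⟨m', h1, lt_of_lt_of_le h2 (le_max_left _ _), h3⟩
          · subst h
            exact ⟨m, hm, lt_of_lt_of_le (Nat.lt_succ_self _) (le_max_right _ _), hmm⟩
        · refine ⟨J, fun k hk hkL hk0 => ?_⟩
          rcases Nat.lt_succ_iff_lt_or_eq.1 hkL with h | h
          · exact hJ k hk h hk0
          · subst h
            exact absurd ⟨hk, hk0⟩ hL
    have hfin : ∀ e ∈ B \ I, cell e ≤ max J N' := by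
      intro e he
      by_contra hcell
      push Not at hcell
      have hcJ : J < cell e := lt_of_le_of_lt (le_max_left _ _) hcell
      have hcN : N' < cell e := lt_of_le_of_lt (le_max_right _ _) hcell
      have hDBe : ∀ n, DB (B \ {e}) n = DB B n - (if cell e ≤ n then 1 else 0) := by
        intro n
        have hset : X \ (B \ {e}) = (X \ B) ∪ {e} := by
          ext u
          simp only [mem_sdiff, mem_singleton_iff, mem_union]
          constructor
          · rintro ⟨h1, h2⟩
            by_cases h : u = e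
            · exact Or.inr h
            · exact Or.inl ⟨h1, fun hb => h2 ⟨hb, h⟩⟩
          · rintro (⟨h1, h2⟩ | h)
            · exact ⟨h1, fun hb => h2 hb.1⟩
            · subst h
              exact ⟨hBX he.1, fun hb => hb.2 rfl⟩
        simp only [hDB, hset]
        rw [cnt_union_disjoint hF (by
          rw [disjoint_singleton_right]
          exact fun h => h.2 he.1)]
        have : cnt cell {e} n = if cell e ≤ n then 1 else 0 := by
          unfold cnt
          split_ifs with hle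
          · have : upto cell {e} n = {e} := by
              ext u
              simp only [upto, mem_singleton_iff, mem_ofPred_eq, and_iff_left_iff_imp]
              rintro rfl
              exact hle
            rw [this, ncard_singleton]
          · have : upto cell {e} n = ∅ := by
              ext u
              simp only [upto, mem_singleton_iff, mem_ofPred_eq, mem_empty_iff_false, iff_false,
                not_and]
              rintro rfl
              exact hle
            rw [this, ncard_empty]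
        rw [this]
        push_cast
        ring
      have hmem : B \ {e} ∈ C := by
        refine ⟨fun u hu => ⟨hIB hu, fun h => he.2 (h ▸ hu)⟩, fun u hu => hBX hu.1, ?_⟩
        intro k hk hk0
        rcases Nat.lt_or_ge k N' with hkN | hkN
        · have e1 : DB (B \ {e}) k = DB B k := by
            rw [hDBe, if_neg (by omega)]; ring
          rw [e1] at hk0
          obtain ⟨m, h1, h2, h3⟩ := hJ k hk hkN hk0
          refine ⟨m, h1, ?_⟩
          rw [e1, hDBe m, if_neg (by omega), sub_zero]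
          exact h3
        · have e1 : DB B k - 1 ≤ DB (B \ {e}) k := by
            rw [hDBe]; split_ifs <;> omega
          obtain ⟨m, h1, h3⟩ := hN' k hkN (by show DB B k - 1 < 0; omega)
          refine ⟨m, h1, ?_⟩
          have e2 : DB B m - 1 ≤ DB (B \ {e}) m := by
            rw [hDBe]; split_ifs <;> omega
          have hwm : (0 : ℤ) ≤ w m := by positivity
          have hwk : (0 : ℤ) ≤ w k := by positivity
          have f1 : -DB (B \ {e}) k * w m ≤ -(DB B k - 1) * w m :=
            mul_le_mul_of_nonneg_right (by omega) hwm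
          have f2 : (DB B m - 1) * w k ≤ DB (B \ {e}) m * w k :=
            mul_le_mul_of_nonneg_right e2 hwk
          linarith
      have := hBmin.2 hmem sdiff_subset
      exact (this he.1).2 rfl
    have hTfin : (B \ I).Finite := (hF (max J N')).subset hfin
    have hXI : Thin w cell (X \ I) := by
      refine (Thin.union hF hthinB (thin_of_finite hF hw0 hw hTfin)).subset hF ?_
      intro u hu
      by_cases hb : u ∈ B
      · exact Or.inr ⟨hb, hu.2⟩
      · exact Or.inl ⟨hu.1, hb⟩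
    have hI : ¬ FL w (fun n => D n - cnt cell (X \ I) n - 1) := by
      rcases h with h | h
      · exact absurd hXI h
      · exact h
    obtain ⟨K, hK⟩ := cnt_finite_eventually hF hTfin
    have hdec : ∀ n, cnt cell (X \ I) n = cnt cell (X \ B) n + cnt cell (B \ I) n := by
      intro n
      rw [← cnt_union_disjoint hF]
      · congr 1
        ext u
        simp only [mem_sdiff, mem_union]
        constructor
        · rintro ⟨h1, h2⟩
          by_cases hb : u ∈ B
          · exact Or.inr ⟨hb, h2⟩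
          · exact Or.inl ⟨h1, hb⟩
        · rintro (⟨h1, h2⟩ | ⟨h1, h2⟩)
          · exact ⟨h1, fun h => h2 (hIB h)⟩
          · exact ⟨hBX h1, h2⟩
      · exact Set.disjoint_left.2 fun u hu hv => hu.2 hv.1
    have hI' : ¬ FL w (fun n => DB B n - (B \ I).ncard - 1) := by
      intro hcon
      apply hI
      refine (FL_congr ⟨K, fun n hn => ?_⟩).1 hcon
      simp only [hDB]
      rw [hdec n, hK n hn]
      push_cast
      ring
    obtain ⟨j, hj, hj1, hj2⟩ := FL_step _ hFLB hI'
    obtain ⟨T', hT'sub, hT'card⟩ := Set.exists_subset_card_eq hj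
    have hT'fin : T'.Finite := hTfin.subset hT'sub
    obtain ⟨K', hK'⟩ := cnt_finite_eventually hF hT'fin
    have hset : X \ (B \ T') = (X \ B) ∪ T' := by
      ext u
      simp only [mem_sdiff, mem_union]
      constructor
      · rintro ⟨h1, h2⟩
        by_cases h : u ∈ T'
        · exact Or.inr h
        · exact Or.inl ⟨h1, fun hb => h2 ⟨hb, h⟩⟩
      · rintro (⟨h1, h2⟩ | h)
        · exact ⟨h1, fun hb => h2 hb.1⟩
        · exact ⟨hBX (hT'sub h).1, fun hb => hb.2 h⟩
    have hev : ∀ n, K' ≤ n → DB B n - j = D n - cnt cell (X \ (B \ T')) n := by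
      intro n hn
      rw [hset, cnt_union_disjoint hF (Set.disjoint_left.2 fun u hu hv => hu.2 (hT'sub hv).1),
        hK' n hn, hT'card]
      simp only [hDB]
      push_cast
      ring
    refine ⟨B \ T', ?_, ?_, ?_, ?_, ?_⟩
    · exact fun u hu => ⟨hIB hu, fun h => (hT'sub h).2 hu⟩
    · exact fun u hu => hBX hu.1
    · exact hXI.subset hF fun u hu => ⟨hu.1, fun h => hu.2 ⟨hIB h, fun h' => (hT'sub h').2 h⟩⟩
    · exact (FL_congr ⟨K', fun n hn => hev n hn⟩).1 hj1
    · intro hcon
      refine hj2 ((FL_congr ⟨K', fun n hn => ?_⟩).1 hcon)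
      show D n - (cnt cell (X \ (B \ T')) n : ℤ) - 1 = DB B n - j - 1
      rw [hev n hn]
  · exact ⟨B, hIB, hBX, hthinB, hFLB, hB1⟩

end Crest.Agent.IMXF
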