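import Crest.Agent.IMX_Heart

/-!
S0074, phase 3 (fine structure), part 2: the predicate `FL`, reference sets and types, the
spanning predicate `Sp` and its properties S1--S4.
-/

set_option autoImplicit false

namespace Crest.Agent.IMX

open Set Filter

namespace Grad

variable {U : Type} (G : Grad U)

theorem FL_mono' {g h : ℕ → ℤ} (N0 : ℕ) (hgh : ∀ n, N0 ≤ n → g n ≤ h n) (hg : G.FL g) : G.FL h :=
  G.FL_mono hg ⟨N0, hgh⟩

theorem exists_ref (hU : ¬ G.Thin univ) : ∃ (ref : Set U → Set U) (τ : Set U → Prop),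
    (∀ X, G.Eqv (ref X) X) ∧ (∀ X Y, G.Eqv X Y → ref X = ref Y) ∧ (∀ X, ref Xᶜ = (ref X)ᶜ) ∧
    (∀ X Y, G.Eqv X Y → (τ X ↔ τ Y)) ∧ (∀ X, τ Xᶜ ↔ ¬ τ X) := by
  classical
  let S : Setoid (Set U) := ⟨G.Eqv, fun X => G.eqv_refl X, Eqv.symm, Eqv.trans⟩
  let Q := Quotient S
  let c : Q → Q := Quotient.map (fun X : Set U => Xᶜ) (fun X Y h => Eqv.compl h)
  have hcm : ∀ X : Set U, c (Quotient.mk S X) = Quotient.mk S Xᶜ := fun X => rfl
  have hcc : ∀ q, c (c q) = q := by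
    intro q
    induction q using Quotient.inductionOn with
    | h X => rw [hcm, hcm, compl_compl]
  have hne : ∀ q, c q ≠ q := by
    intro q
    induction q using Quotient.inductionOn with
    | h X =>
      rw [hcm]
      intro h
      have h1 : G.Eqv Xᶜ X := Quotient.exact h
      apply hU
      refine G.thin_mono ?_ (G.thin_union h1.1 h1.2)
      intro u _
      by_cases hu : u ∈ X
      · right; exact ⟨hu, fun h => h hu⟩
      · left; exact ⟨hu, hu⟩
  have hwo : IsWellOrder Q WellOrderingRel := inferInstance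
  let t : Q → Prop := fun q => WellOrderingRel q (c q)
  have ht : ∀ q, t (c q) ↔ ¬ t q := by
    intro q
    show WellOrderingRel (c q) (c (c q)) ↔ ¬ WellOrderingRel q (c q)
    rw [hcc]
    constructor
    · intro h h'
      exact (asymm_of WellOrderingRel h h')
    · intro h
      rcases trichotomous_of WellOrderingRel q (c q) with h1 | h1 | h1
      · exact absurd h1 h
      · exact absurd h1.symm (hne q)
      · exact h1
  let r : Q → Set U := fun q => if t q then q.out else ((c q).out)ᶜ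
  have hr : ∀ q, r (c q) = (r q)ᶜ := by
    intro q
    show (if t (c q) then (c q).out else ((c (c q)).out)ᶜ) = (if t q then q.out else ((c q).out)ᶜ)ᶜ
    by_cases h : t q
    · have h' : ¬ t (c q) := by rw [ht]; exact not_not.mpr h
      rw [if_neg h', if_pos h, hcc]
    · have h' : t (c q) := (ht q).mpr h
      rw [if_pos h', if_neg h, compl_compl]
  have hrm : ∀ X : Set U, G.Eqv (r (Quotient.mk S X)) X := by
    intro X
    show G.Eqv (if t (Quotient.mk S X) then (Quotient.mk S X).out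
      else ((c (Quotient.mk S X)).out)ᶜ) X
    by_cases h : t (Quotient.mk S X)
    · rw [if_pos h]
      exact Quotient.mk_out (s := S) X
    · rw [if_neg h, hcm]
      have h1 : G.Eqv (Quotient.mk S Xᶜ).out Xᶜ := Quotient.mk_out (s := S) Xᶜ
      have h2 := h1.compl
      rwa [compl_compl] at h2
  refine ⟨fun X => r (Quotient.mk S X), fun X => t (Quotient.mk S X), hrm, ?_, ?_, ?_, ?_⟩
  · intro X Y h
    have : Quotient.mk S X = Quotient.mk S Y := Quotient.sound h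
    show r (Quotient.mk S X) = r (Quotient.mk S Y)
    rw [this]
  · intro X
    exact hr (Quotient.mk S X)
  · intro X Y h
    have : Quotient.mk S X = Quotient.mk S Y := Quotient.sound h
    show t (Quotient.mk S X) ↔ t (Quotient.mk S Y)
    rw [this]
  · intro X
    exact ht (Quotient.mk S X)

end Grad

/-- the data of phase 3 -/
structure Fine (U : Type) where
  G : Grad U
  s : Set U → ℤ
  ref : Set U → Set U
  τ : Set U → Prop
  hU : ¬ G.Thin univ
  ref_eqv : ∀ X, G.Eqv (ref X) X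
  ref_congr : ∀ X Y, G.Eqv X Y → ref X = ref Y
  ref_compl : ∀ X, ref Xᶜ = (ref X)ᶜ
  τ_congr : ∀ X Y, G.Eqv X Y → (τ X ↔ τ Y)
  τ_compl : ∀ X, τ Xᶜ ↔ ¬ τ X
  sval : ∀ X, s X = -1 ∨ s X = 0 ∨ s X = 1
  c1 : ∀ X Y, G.Thin (X \ Y) → s X ≤ s Y
  c2 : ∀ X, s Xᶜ = - s X
  c3 : ∀ X Y, s X = 0 → s Y = 0 → G.Thin (X \ Y) → G.Thin (Y \ X)
  c4 : ∀ L H, L ⊆ H → s L = -1 → s H = 1 → ∃ b, L ⊆ b ∧ b ⊆ H ∧ s b = 0

namespace Fine

variable {U : Type} (F : Fine U)

/-- signed distance to the reference set -/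
noncomputable def D (X : Set U) (n : ℕ) : ℤ := (F.G.cnt X n : ℤ) - F.G.cnt (F.ref X) n

theorem cnt_compl (X : Set U) (n : ℕ) :
    (F.G.cnt Xᶜ n : ℤ) = F.G.cnt univ n - F.G.cnt X n := by
  have h := F.G.cnt_diff (subset_univ X) n
  rw [← compl_eq_univ_diff] at h
  omega

theorem D_compl (X : Set U) (n : ℕ) : F.D Xᶜ n = - F.D X n := by
  unfold D
  rw [F.ref_compl, F.cnt_compl, F.cnt_compl]
  ring

theorem D_sub {B X : Set U} (h : B ⊆ X) (ht : F.G.Thin (X \ B)) (n : ℕ) :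
    F.D B n = F.D X n - F.G.cnt (X \ B) n := by
  have h1 : F.ref B = F.ref X := by
    apply F.ref_congr
    refine ⟨?_, ht⟩
    rw [sdiff_eq_empty.mpr h]
    exact F.G.thin_finite finite_empty
  unfold D
  rw [h1]
  have h2 := F.G.cnt_diff h n
  omega

theorem D_small (X : Set U) (i : ℕ) : ∃ N, ∀ n, N ≤ n → (i : ℤ) * |F.D X n| ≤ F.G.w n := by
  have h := F.ref_eqv X
  obtain ⟨N1, h1⟩ := F.G.thin_cnt h.1 i
  obtain ⟨N2, h2⟩ := F.G.thin_cnt h.2 i
  refine ⟨max N1 N2, fun n hn => ?_⟩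
  have h1' := h1 n (le_trans (le_max_left _ _) hn)
  have h2' := h2 n (le_trans (le_max_right _ _) hn)
  have e1 : F.G.cnt X n = F.G.cnt (X ∩ F.ref X) n + F.G.cnt (X \ F.ref X) n := by
    have := F.G.cnt_diff (inter_subset_left : X ∩ F.ref X ⊆ X) n
    rwa [sdiff_self_inter] at this
  have e2 : F.G.cnt (F.ref X) n = F.G.cnt (X ∩ F.ref X) n + F.G.cnt (F.ref X \ X) n := by
    have := F.G.cnt_diff (inter_subset_right : X ∩ F.ref X ⊆ F.ref X) n
    rwa [inter_comm, sdiff_self_inter, inter_comm] at this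
  have e3 : F.D X n = (F.G.cnt (X \ F.ref X) n : ℤ) - F.G.cnt (F.ref X \ X) n := by
    unfold D; rw [e1]; omega
  have h1'' : (i : ℤ) * (F.G.cnt (F.ref X \ X) n : ℤ) ≤ F.G.w n := by exact_mod_cast h1'
  have h2'' : (i : ℤ) * (F.G.cnt (X \ F.ref X) n : ℤ) ≤ F.G.w n := by exact_mod_cast h2'
  rcases abs_cases (F.D X n) with ⟨h3, _⟩ | ⟨h3, _⟩
  · rw [h3, e3]
    have : (0 : ℤ) ≤ i * (F.G.cnt (F.ref X \ X) n : ℤ) := by positivity
    nlinarith
  · rw [h3, e3]
    have : (0 : ℤ) ≤ i * (F.G.cnt (X \ F.ref X) n : ℤ) := by positivity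
    nlinarith

theorem s_congr {X Y : Set U} (h : F.G.Eqv X Y) : F.s X = F.s Y :=
  le_antisymm (F.c1 _ _ h.1) (F.c1 _ _ h.2)

/-- the spanning sets -/
def Sp (X : Set U) : Prop :=
  F.s X = 1 ∨ (F.s X = 0 ∧ ((F.τ X ∧ F.G.FL (F.D X)) ∨
    (¬ F.τ X ∧ ¬ F.G.FL (fun n => F.D Xᶜ n - 1))))

theorem Sp_nonneg {X : Set U} (h : F.Sp X) : 0 ≤ F.s X := by
  rcases h with h | ⟨h, _⟩ <;> omega

theorem Sp_tau {X : Set U} (h0 : F.s X = 0) (ht : F.τ X) : F.Sp X ↔ F.G.FL (F.D X) := by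
  unfold Sp
  constructor
  · rintro (h | ⟨_, ⟨_, h⟩ | ⟨h, _⟩⟩)
    · omega
    · exact h
    · exact absurd ht h
  · intro h
    right; exact ⟨h0, Or.inl ⟨ht, h⟩⟩

theorem Sp_ntau {X : Set U} (h0 : F.s X = 0) (ht : ¬ F.τ X) :
    F.Sp X ↔ ¬ F.G.FL (fun n => F.D Xᶜ n - 1) := by
  unfold Sp
  constructor
  · rintro (h | ⟨_, ⟨h, _⟩ | ⟨_, h⟩⟩)
    · omega
    · exact absurd h ht
    · exact h
  · intro h
    right; exact ⟨h0, Or.inr ⟨ht, h⟩⟩

theorem s_compl_zero {X : Set U} (h0 : F.s X = 0) : F.s Xᶜ = 0 := by rw [F.c2, h0]; rfl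

/-- for a set of sign 0 and type τ: `Xᶜ` spans iff `D X - 1` is not `FL` -/
theorem Sp_compl_tau {X : Set U} (h0 : F.s X = 0) (ht : F.τ X) :
    F.Sp Xᶜ ↔ ¬ F.G.FL (fun n => F.D X n - 1) := by
  have h1 : ¬ F.τ Xᶜ := by rw [F.τ_compl]; exact not_not.mpr ht
  rw [F.Sp_ntau (F.s_compl_zero h0) h1, compl_compl]

theorem Sp_compl_ntau {X : Set U} (h0 : F.s X = 0) (ht : ¬ F.τ X) :
    F.Sp Xᶜ ↔ F.G.FL (F.D Xᶜ) :=
  F.Sp_tau (F.s_compl_zero h0) ((F.τ_compl X).mpr ht)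

theorem eqv_of_subset_zero {X Y : Set U} (h : X ⊆ Y) (hX : F.s X = 0) (hY : F.s Y = 0) :
    F.G.Eqv X Y := by
  have h1 : F.G.Thin (X \ Y) := by
    rw [sdiff_eq_empty.mpr h]; exact F.G.thin_finite finite_empty
  exact ⟨h1, F.c3 _ _ hX hY h1⟩

/-- two equivalent sets with eventually comparable counts -/
theorem Sp_of_eqv {X Y : Set U} (h : F.G.Eqv X Y) (N : ℕ)
    (hc : ∀ n, N ≤ n → F.G.cnt X n ≤ F.G.cnt Y n) (hX : F.Sp X) : F.Sp Y := by
  have hs := F.s_congr h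
  have hD : ∀ n, N ≤ n → F.D X n ≤ F.D Y n := by
    intro n hn
    have := hc n hn
    unfold D
    rw [F.ref_congr X Y h]
    omega
  rcases hX with h1 | ⟨h0, ⟨ht, h1⟩ | ⟨ht, h1⟩⟩
  · left; omega
  · have ht' : F.τ Y := (F.τ_congr X Y h).mp ht
    rw [F.Sp_tau (by omega) ht']
    exact F.G.FL_mono' N hD h1
  · have ht' : ¬ F.τ Y := fun h' => ht ((F.τ_congr X Y h).mpr h')
    rw [F.Sp_ntau (by omega) ht']
    intro h2
    apply h1
    refine F.G.FL_mono' N ?_ h2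
    intro n hn
    have := hD n hn
    show F.D Yᶜ n - 1 ≤ F.D Xᶜ n - 1
    rw [F.D_compl, F.D_compl]
    omega

/-- S1 -/
theorem Sp_mono {X Y : Set U} (h : X ⊆ Y) (hX : F.Sp X) : F.Sp Y := by
  have h1 : F.G.Thin (X \ Y) := by
    rw [sdiff_eq_empty.mpr h]; exact F.G.thin_finite finite_empty
  have h2 := F.c1 X Y h1
  have h3 := F.Sp_nonneg hX
  rcases F.sval Y with hY | hY | hY
  · omega
  · have hX0 : F.s X = 0 := by omega
    exact F.Sp_of_eqv (F.eqv_of_subset_zero h hX0 hY) 0 (fun n _ => F.G.cnt_mono h n) hX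
  · left; exact hY

/-- S2 -/
theorem Sp_or (X : Set U) : F.Sp X ∨ F.Sp Xᶜ := by
  rcases F.sval X with hX | hX | hX
  · right; left; rw [F.c2, hX]; rfl
  · by_cases ht : F.τ X
    · by_cases h : F.G.FL (F.D X)
      · left; exact (F.Sp_tau hX ht).mpr h
      · right
        rw [F.Sp_compl_tau hX ht]
        intro h1
        exact h (F.G.FL_mono' 0 (fun n _ => by show F.D X n - 1 ≤ F.D X n; omega) h1)
    · by_cases h : F.G.FL (F.D Xᶜ)
      · right; exact (F.Sp_compl_ntau hX ht).mpr h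
      · left
        rw [F.Sp_ntau hX ht]
        intro h1
        exact h (F.G.FL_mono' 0 (fun n _ => by show F.D Xᶜ n - 1 ≤ F.D Xᶜ n; omega) h1)
  · left; left; exact hX

theorem cnt_insert_diff {X : Set U} {x y : U} (hx : x ∈ X) (hy : y ∉ X) (n : ℕ)
    (hnx : F.G.cell x ≤ n) (hny : F.G.cell y ≤ n) :
    F.G.cnt (insert y (X \ {x})) n = F.G.cnt X n := by
  unfold Grad.cnt
  have e : (insert y (X \ {x})) ∩ {u | F.G.cell u ≤ n}
      = insert y ((X ∩ {u | F.G.cell u ≤ n}) \ {x}) := by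
    ext u
    simp only [mem_inter_iff, mem_insert_iff, Set.mem_sdiff, mem_singleton_iff, mem_ofPred_eq]
    constructor
    · rintro ⟨h | h, h'⟩
      · left; exact h
      · right; exact ⟨⟨h.1, h'⟩, h.2⟩
    · rintro (h | ⟨⟨h1, h2⟩, h3⟩)
      · subst h; exact ⟨Or.inl rfl, hny⟩
      · exact ⟨Or.inr ⟨h1, h3⟩, h2⟩
  have hfin : ((X ∩ {u | F.G.cell u ≤ n}) \ {x}).Finite := (F.G.cnt_fin _ _).subset sdiff_subset
  have hxm : x ∈ X ∩ {u | F.G.cell u ≤ n} := ⟨hx, hnx⟩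
  have hym : y ∉ (X ∩ {u | F.G.cell u ≤ n}) \ {x} := fun h => hy h.1.1
  rw [e, ncard_insert_of_notMem hym hfin]
  exact ncard_sdiff_singleton_add_one hxm (F.G.cnt_fin _ _)

theorem cnt_diff_singleton {X : Set U} {x : U} (hx : x ∈ X) (n : ℕ)
    (hnx : F.G.cell x ≤ n) : F.G.cnt (X \ {x}) n + 1 = F.G.cnt X n := by
  unfold Grad.cnt
  have e : (X \ {x}) ∩ {u | F.G.cell u ≤ n} = (X ∩ {u | F.G.cell u ≤ n}) \ {x} := by
    ext u
    simp only [mem_inter_iff, Set.mem_sdiff, mem_singleton_iff, mem_ofPred_eq]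
    tauto
  have hxm : x ∈ X ∩ {u | F.G.cell u ≤ n} := ⟨hx, hnx⟩
  rw [e]
  exact ncard_sdiff_singleton_add_one hxm (F.G.cnt_fin _ _)

theorem eqv_insert_diff {X : Set U} {x y : U} :
    F.G.Eqv X (insert y (X \ {x})) := by
  constructor
  · refine F.G.thin_finite ((finite_singleton x).subset ?_)
    rintro u ⟨h1, h2⟩
    by_contra h
    exact h2 (Or.inr ⟨h1, h⟩)
  · refine F.G.thin_finite ((finite_singleton y).subset ?_)
    rintro u ⟨h1 | h1, h2⟩
    · exact h1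
    · exact absurd h1.1 h2

/-- S3 -/
theorem Sp_exchange {X : Set U} {x y : U} (hx : x ∈ X) (hy : y ∉ X) (h : F.Sp X) :
    F.Sp (insert y (X \ {x})) :=
  F.Sp_of_eqv F.eqv_insert_diff (max (F.G.cell x) (F.G.cell y))
    (fun n hn => (F.cnt_insert_diff hx hy n (le_trans (le_max_left _ _) hn)
      (le_trans (le_max_right _ _) hn)).ge) h

/-- S4 -/
theorem not_Sp_diff {X : Set U} (h : F.Sp X) (h' : F.Sp Xᶜ) {x : U} (hx : x ∈ X) :
    ¬ F.Sp (X \ {x}) := by
  intro h2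
  have h0 : F.s X = 0 := by
    have h3 := F.Sp_nonneg h
    have h4 := F.Sp_nonneg h'
    rw [F.c2] at h4
    omega
  have heqv : F.G.Eqv (X \ {x}) X := by
    constructor
    · rw [sdiff_eq_empty.mpr sdiff_subset]; exact F.G.thin_finite finite_empty
    · refine F.G.thin_finite ((finite_singleton x).subset ?_)
      rintro u ⟨h1, h2⟩
      by_contra h
      exact h2 ⟨h1, h⟩
  have hs0 : F.s (X \ {x}) = 0 := by rw [F.s_congr heqv]; exact h0
  have hD : ∀ n, F.G.cell x ≤ n → F.D (X \ {x}) n = F.D X n - 1 := by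
    intro n hn
    have := F.cnt_diff_singleton hx n hn
    unfold D
    rw [F.ref_congr _ _ heqv]
    omega
  by_cases ht : F.τ X
  · have ht' : F.τ (X \ {x}) := (F.τ_congr _ _ heqv).mpr ht
    rw [F.Sp_tau hs0 ht'] at h2
    rw [F.Sp_compl_tau h0 ht] at h'
    exact h' (F.G.FL_mono' (F.G.cell x) (fun n hn => (hD n hn).le) h2)
  · have ht' : ¬ F.τ (X \ {x}) := fun h3 => ht ((F.τ_congr _ _ heqv).mp h3)
    rw [F.Sp_ntau hs0 ht'] at h2
    rw [F.Sp_compl_ntau h0 ht] at h'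
    apply h2
    refine F.G.FL_mono' (F.G.cell x) ?_ h'
    intro n hn
    have := hD n hn
    show F.D Xᶜ n ≤ F.D (X \ {x})ᶜ n - 1
    rw [F.D_compl, F.D_compl, this]
    omega

theorem s_univ : F.s univ = 1 := by
  have h1 : F.s ∅ = - F.s univ := by rw [← compl_univ, F.c2]
  have h2 : F.G.Thin ((∅ : Set U) \ univ) := by
    rw [empty_sdiff]; exact F.G.thin_finite finite_empty
  have h3 := F.c1 ∅ univ h2
  rcases F.sval univ with h | h | h
  · omega
  · exfalso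
    apply F.hU
    have h4 := F.c3 ∅ univ (by omega) h h2
    rwa [sdiff_empty] at h4
  · exact h

theorem Sp_univ : F.Sp univ := Or.inl F.s_univ

end Fine

end Crest.Agent.IMX
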