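import Mathlib

/-!
# S0074: the uniform self-dual matroid of a predicate `Sp`

`Sp X` ("`X` is spanning") is monotone, invariant under exchanging one element, total on
complementary pairs, strict (S4) and interpolating (S5).  Then `{B | Sp B ∧ Sp Bᶜ}` is the family
of bases of a self-dual matroid with ground set `univ`, whose independent sets are the `I` with
`Sp Iᶜ`.
-/

set_option autoImplicit false

namespace Crest.Agent.IMX

/-- The axioms (S1)-(S5) for a spanning predicate on subsets of `U`. -/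
structure SpAx {U : Type*} (Sp : Set U → Prop) : Prop where
  mono : ∀ {X Y : Set U}, X ⊆ Y → Sp X → Sp Y
  total : ∀ X : Set U, Sp X ∨ Sp Xᶜ
  swap : ∀ {X : Set U} {x y : U}, Sp X → x ∈ X → y ∉ X → Sp (insert y (X \ {x}))
  strict : ∀ {X : Set U} {e : U}, Sp X → Sp Xᶜ → e ∈ X → ¬ Sp (X \ {e})
  interp : ∀ {I X : Set U}, I ⊆ X → Sp Iᶜ → Sp X → ∃ B, I ⊆ B ∧ B ⊆ X ∧ Sp B ∧ Sp Bᶜ
  univ : Sp Set.univ

namespace SpAx

variable {U : Type*} {Sp : Set U → Prop}

/-- a base is not contained in a proper superset's ... : two nested bases are equal -/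
theorem eq_of_subset (h : SpAx Sp) {B B' : Set U} (hB : Sp B) (hB1 : Sp B') (hB2 : Sp B'ᶜ)
    (hsub : B ⊆ B') : B = B' := by
  by_contra hne
  obtain ⟨e, he', he⟩ : ∃ e, e ∈ B' ∧ e ∉ B := by
    by_contra hcon
    push Not at hcon
    exact hne (Set.Subset.antisymm hsub hcon)
  refine h.strict hB1 hB2 he' (h.mono ?_ hB)
  intro x hx
  exact ⟨hsub hx, fun hxe => he (hxe ▸ hx)⟩

theorem indep_iff (h : SpAx Sp) (I : Set U) :
    Sp Iᶜ ↔ ∃ B, (Sp B ∧ Sp Bᶜ) ∧ I ⊆ B := by
  constructor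
  · intro hI
    obtain ⟨B, h1, _, h3, h4⟩ := h.interp (Set.subset_univ I) hI h.univ
    exact ⟨B, ⟨h3, h4⟩, h1⟩
  · rintro ⟨B, ⟨_, h4⟩, h1⟩
    exact h.mono (Set.compl_subset_compl.mpr h1) h4

/-- The uniform matroid defined by `Sp`. -/
def matroid (h : SpAx Sp) : Matroid U where
  E := Set.univ
  IsBase B := Sp B ∧ Sp Bᶜ
  Indep I := Sp Iᶜ
  indep_iff' := fun I => h.indep_iff I
  exists_isBase := by
    obtain ⟨B, _, _, h3, h4⟩ := h.interp (I := (∅ : Set U)) (X := Set.univ) (Set.empty_subset _)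
      (by rw [Set.compl_empty]; exact h.univ) h.univ
    exact ⟨B, h3, h4⟩
  isBase_exchange := by
    rintro B B' ⟨hB, hBc⟩ ⟨hB', hBc'⟩ e ⟨he, he'⟩
    -- there is `f ∈ B' \ B`
    obtain ⟨f, hf', hf⟩ : ∃ f, f ∈ B' ∧ f ∉ B := by
      by_contra hcon
      push Not at hcon
      exact he' ((h.eq_of_subset hB' hB hBc hcon).symm ▸ he)
    refine ⟨f, ⟨hf', hf⟩, h.swap hB he hf, ?_⟩
    have hkey : Sp (insert e (Bᶜ \ {f})) := h.swap hBc hf (fun hx => hx he)
    refine h.mono ?_ hkey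
    intro x hx
    rcases hx with rfl | ⟨hx1, hx2⟩
    · intro hx
      rcases hx with rfl | ⟨_, hx⟩
      · exact hf he
      · exact hx rfl
    · intro hx
      rcases hx with rfl | ⟨hx, _⟩
      · exact hx2 rfl
      · exact hx1 hx
  maximality := by
    intro X _ I hI hIX
    rcases h.total X with hX | hX
    · obtain ⟨B, h1, h2, h3, h4⟩ := h.interp hIX hI hX
      refine ⟨B, h1, ⟨h4, h2⟩, ?_⟩
      rintro J ⟨hJ, _⟩ hBJ
      obtain ⟨B', ⟨h5, h6⟩, hJB'⟩ := (h.indep_iff J).mp hJ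
      have := h.eq_of_subset h3 h5 h6 (hBJ.trans hJB')
      rw [this]
      exact hJB'
    · refine ⟨X, hIX, ⟨hX, subset_rfl⟩, ?_⟩
      rintro J ⟨_, hJX⟩ _
      exact hJX
  subset_ground := fun B _ => Set.subset_univ B

@[simp] theorem matroid_E (h : SpAx Sp) : h.matroid.E = Set.univ := rfl

theorem matroid_isBase (h : SpAx Sp) (B : Set U) : h.matroid.IsBase B ↔ Sp B ∧ Sp Bᶜ := Iff.rfl

theorem matroid_indep (h : SpAx Sp) (I : Set U) : h.matroid.Indep I ↔ Sp Iᶜ := Iff.rfl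

theorem matroid_dual (h : SpAx Sp) : h.matroid.dual = h.matroid := by
  refine Matroid.ext_isBase rfl ?_
  intro B _
  rw [Matroid.dual_isBase_iff]
  simp only [matroid_E, ← Set.compl_eq_univ_sdiff, matroid_isBase, compl_compl]
  exact and_comm

end SpAx

end Crest.Agent.IMX
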