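import Crest.Agent.IMX_Fine2
import Crest.Agent.IMX_Mat

/-!
S0074, phase 3 (fine structure), part 3: S5 and the uniform self-dual matroid, given L0 and L1.
-/

set_option autoImplicit false

namespace Crest.Agent.IMX

open Set Filter

variable {U : Type}

/-- statement of L1 -/
def Grad.L1 (G : Grad U) : Prop :=
  ∀ (D : ℕ → ℤ) (T : Set U), (∀ i : ℕ, ∃ N, ∀ n, N ≤ n → (i : ℤ) * |D n| ≤ G.w n) →
    ¬ G.Thin T → ∃ R, R ⊆ T ∧ G.Thin R ∧ G.FL (fun n => D n + G.cnt R n)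

/-- statement of L0 -/
def Grad.L0 (G : Grad U) : Prop :=
  ∀ (D : ℕ → ℤ) (I X : Set U), I ⊆ X →
    (∀ i : ℕ, ∃ N, ∀ n, N ≤ n → (i : ℤ) * |D n| ≤ G.w n) → G.FL D →
    (¬ G.Thin (X \ I) ∨ ¬ G.FL (fun n => D n - G.cnt (X \ I) n - 1)) →
    ∃ B, I ⊆ B ∧ B ⊆ X ∧ G.Thin (X \ B) ∧ G.FL (fun n => D n - G.cnt (X \ B) n) ∧
      ¬ G.FL (fun n => D n - G.cnt (X \ B) n - 1)

namespace Fine

variable (F : Fine U)

theorem subset_eqv {X Y : Set U} (h : X ⊆ Y) (ht : F.G.Thin (Y \ X)) : F.G.Eqv X Y :=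
  ⟨by rw [sdiff_eq_empty.mpr h]; exact F.G.thin_finite finite_empty, ht⟩

/-- S5 with a set of sign zero and type `τ` in between -/
theorem interp_tau (hL0 : F.G.L0) (hL1 : F.G.L1) {I X X1 : Set U} (h1 : I ⊆ X1) (h2 : X1 ⊆ X)
    (hI : F.Sp Iᶜ) (hX : F.Sp X) (h0 : F.s X1 = 0) (ht : F.τ X1) :
    ∃ B, I ⊆ B ∧ B ⊆ X ∧ F.Sp B ∧ F.Sp Bᶜ := by
  -- a set X2 equivalent to X1 with FL
  obtain ⟨X2, hIX2, hX2X, he2, hFL2⟩ : ∃ X2, I ⊆ X2 ∧ X2 ⊆ X ∧ F.G.Eqv X1 X2 ∧ F.G.FL (F.D X2) := by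
    rcases F.sval X with h | h | h
    · have := F.Sp_nonneg hX; omega
    · have he := F.eqv_of_subset_zero h2 h0 h
      refine ⟨X, h1.trans h2, subset_rfl, he, ?_⟩
      exact (F.Sp_tau h ((F.τ_congr _ _ he).mp ht)).mp hX
    · have hnt : ¬ F.G.Thin (X \ X1) := by
        intro hth
        have := F.c1 X X1 hth
        omega
      obtain ⟨R, hR, hRt, hRF⟩ := hL1 (F.D X1) (X \ X1) (fun i => F.D_small X1 i) hnt
      have hdiff : (X1 ∪ R) \ X1 = R := by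
        ext u
        constructor
        · rintro ⟨h | h, h'⟩
          · exact absurd h h'
          · exact h
        · intro h
          exact ⟨Or.inr h, (hR h).2⟩
      have hth : F.G.Thin ((X1 ∪ R) \ X1) := by rw [hdiff]; exact hRt
      refine ⟨X1 ∪ R, h1.trans subset_union_left, union_subset h2 (hR.trans sdiff_subset),
        F.subset_eqv subset_union_left hth, ?_⟩
      refine F.G.FL_mono' 0 ?_ hRF
      intro n _
      have := F.D_sub (subset_union_left : X1 ⊆ X1 ∪ R) hth n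
      rw [hdiff] at this
      show F.D X1 n + F.G.cnt R n ≤ F.D (X1 ∪ R) n
      omega
  have hs2 : F.s X2 = 0 := by rw [← F.s_congr he2]; exact h0
  have ht2 : F.τ X2 := (F.τ_congr _ _ he2).mp ht
  have halt : ¬ F.G.Thin (X2 \ I) ∨ ¬ F.G.FL (fun n => F.D X2 n - F.G.cnt (X2 \ I) n - 1) := by
    by_cases hth : F.G.Thin (X2 \ I)
    · right
      have he := F.subset_eqv hIX2 hth
      have hsI : F.s I = 0 := by rw [F.s_congr he]; exact hs2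
      have htI : F.τ I := (F.τ_congr _ _ he).mpr ht2
      have h3 := (F.Sp_compl_tau hsI htI).mp hI
      intro h4
      apply h3
      refine F.G.FL_mono' 0 ?_ h4
      intro n _
      have := F.D_sub hIX2 hth n
      show F.D X2 n - F.G.cnt (X2 \ I) n - 1 ≤ F.D I n - 1
      omega
    · left; exact hth
  obtain ⟨B, hIB, hBX, hBt, hB1, hB2⟩ :=
    hL0 (F.D X2) I X2 hIX2 (fun i => F.D_small X2 i) hFL2 halt
  have he := F.subset_eqv hBX hBt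
  have hsB : F.s B = 0 := by rw [F.s_congr he]; exact hs2
  have htB : F.τ B := (F.τ_congr _ _ he).mpr ht2
  refine ⟨B, hIB, hBX.trans hX2X, ?_, ?_⟩
  · rw [F.Sp_tau hsB htB]
    refine F.G.FL_mono' 0 ?_ hB1
    intro n _
    have := F.D_sub hBX hBt n
    show F.D X2 n - F.G.cnt (X2 \ B) n ≤ F.D B n
    omega
  · rw [F.Sp_compl_tau hsB htB]
    intro h4
    apply hB2
    refine F.G.FL_mono' 0 ?_ h4
    intro n _
    have := F.D_sub hBX hBt n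
    show F.D B n - 1 ≤ F.D X2 n - F.G.cnt (X2 \ B) n - 1
    omega

/-- S5 -/
theorem interp (hL0 : F.G.L0) (hL1 : F.G.L1) {I X : Set U} (h : I ⊆ X)
    (hI : F.Sp Iᶜ) (hX : F.Sp X) :
    ∃ B, I ⊆ B ∧ B ⊆ X ∧ F.Sp B ∧ F.Sp Bᶜ := by
  obtain ⟨X1, h1, h2, h0⟩ : ∃ X1, I ⊆ X1 ∧ X1 ⊆ X ∧ F.s X1 = 0 := by
    have h3 := F.Sp_nonneg hI
    have h4 := F.Sp_nonneg hX
    rw [F.c2] at h3
    rcases F.sval X with hx | hx | hx
    · omega
    · exact ⟨X, h, subset_rfl, hx⟩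
    · rcases F.sval I with hi | hi | hi
      · exact F.c4 I X h hi hx
      · exact ⟨I, subset_rfl, h, hi⟩
      · omega
  by_cases ht : F.τ X1
  · exact F.interp_tau hL0 hL1 h1 h2 hI hX h0 ht
  · obtain ⟨B, hB1, hB2, hB3, hB4⟩ := F.interp_tau hL0 hL1 (I := Xᶜ) (X := Iᶜ) (X1 := X1ᶜ)
      (compl_subset_compl.mpr h2) (compl_subset_compl.mpr h1) (by rwa [compl_compl]) hI
      (F.s_compl_zero h0) ((F.τ_compl X1).mpr ht)
    exact ⟨Bᶜ, subset_compl_comm.mp hB2, compl_subset_comm.mp hB1, hB4, by rwa [compl_compl]⟩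

theorem spAx (hL0 : F.G.L0) (hL1 : F.G.L1) : SpAx F.Sp where
  mono := fun h hX => F.Sp_mono h hX
  total := fun X => F.Sp_or X
  swap := fun h hx hy => F.Sp_exchange hx hy h
  strict := fun h h' he => F.not_Sp_diff h h' he
  interp := fun h hI hX => F.interp hL0 hL1 h hI hX
  univ := F.Sp_univ

end Fine

theorem exists_matroid_aux (G : Grad U) (hL0 : G.L0) (hL1 : G.L1) (hU : ¬ G.Thin univ)
    (s : Set U → ℤ) (sval : ∀ X, s X = -1 ∨ s X = 0 ∨ s X = 1)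
    (c1 : ∀ X Y, G.Thin (X \ Y) → s X ≤ s Y) (c2 : ∀ X, s Xᶜ = - s X)
    (c3 : ∀ X Y, s X = 0 → s Y = 0 → G.Thin (X \ Y) → G.Thin (Y \ X))
    (c4 : ∀ L H, L ⊆ H → s L = -1 → s H = 1 → ∃ b, L ⊆ b ∧ b ⊆ H ∧ s b = 0) :
    ∃ M : Matroid U, M.E = univ ∧ M.dual = M ∧ ∀ I, M.Indep I → 0 ≤ s Iᶜ := by
  obtain ⟨ref, τ, r1, r2, r3, r4, r5⟩ := G.exists_ref hU
  let F : Fine U := ⟨G, s, ref, τ, hU, r1, r2, r3, r4, r5, sval, c1, c2, c3, c4⟩
  have hax : SpAx F.Sp := F.spAx hL0 hL1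
  refine ⟨hax.matroid, hax.matroid_E, hax.matroid_dual, ?_⟩
  intro I hI
  have h1 : F.Sp Iᶜ := (hax.matroid_indep I).mp hI
  exact F.Sp_nonneg h1

theorem Grad.l1 (G : Grad U) : G.L1 := fun _ _ hD hT => G.exists_thin_FL hD hT

theorem Grad.l0 (G : Grad U) : G.L0 := fun _ _ _ hIX hD hFL h => G.exists_base_between hD hFL hIX h

/-- **Phase 3**: a coarse sign function with `c1`--`c4` gives a self-dual uniform matroid. -/
theorem exists_matroid (G : Grad U) (hU : ¬ G.Thin univ)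
    (s : Set U → ℤ) (sval : ∀ X, s X = -1 ∨ s X = 0 ∨ s X = 1)
    (c1 : ∀ X Y, G.Thin (X \ Y) → s X ≤ s Y) (c2 : ∀ X, s Xᶜ = - s X)
    (c3 : ∀ X Y, s X = 0 → s Y = 0 → G.Thin (X \ Y) → G.Thin (Y \ X))
    (c4 : ∀ L H, L ⊆ H → s L = -1 → s H = 1 → ∃ b, L ⊆ b ∧ b ⊆ H ∧ s b = 0) :
    ∃ M : Matroid U, M.E = univ ∧ M.dual = M ∧ ∀ I, M.Indep I → 0 ≤ s Iᶜ :=
  exists_matroid_aux G G.l0 G.l1 hU s sval c1 c2 c3 c4

end Crest.Agent.IMX
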