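import Crest.Agent.IMX_Fine1
import Crest.Agent.IMX_FL

/-!
S0074, phase 3: L1 and L0 over `Grad` (helper41).
-/

set_option autoImplicit false

namespace Crest.Agent.IMX

open Set

namespace Grad

variable {U : Type} (G : Grad U)

/-- the functional -/
def FL (g : ℕ → ℤ) : Prop :=
  ∃ N, ∀ k, N ≤ k → g k < 0 → ∃ m, k ≤ m ∧ -g k * G.w m ≤ g m * G.w k

theorem FL_iff (g : ℕ → ℤ) : G.FL g ↔ IMXF.FL G.w g := Iff.rfl

theorem FL_mono {g g' : ℕ → ℤ} (h : G.FL g) (hg : ∃ N, ∀ n, N ≤ n → g n ≤ g' n) : G.FL g' :=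
  IMXF.FL.mono h hg

theorem FL_congr {g g' : ℕ → ℤ} (hg : ∃ N, ∀ n, N ≤ n → g n = g' n) : G.FL g ↔ G.FL g' :=
  IMXF.FL_congr hg

theorem cnt_eq (X : Set U) (n : ℕ) : G.cnt X n = IMXF.cnt G.cell X n := rfl

theorem thin_iff (X : Set U) : G.Thin X ↔ IMXF.Thin G.w G.cell X :=
  ⟨fun h i => G.thin_cnt h i, fun h => G.thin_of_cnt h⟩

/-- **L1** -/
theorem exists_thin_FL {D : ℕ → ℤ} (hD : ∀ i : ℕ, ∃ N, ∀ n, N ≤ n → (i : ℤ) * |D n| ≤ G.w n)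
    {T : Set U} (hT : ¬ G.Thin T) :
    ∃ R, R ⊆ T ∧ G.Thin R ∧ G.FL (fun n => D n + G.cnt R n) := by
  obtain ⟨R, h1, h2, h3⟩ := IMXF.exists_thin_FL (w := G.w) (cell := G.cell) G.finLe (G.wpos 0)
    G.wgrow (D := D) hD (T := T) (fun h => hT ((G.thin_iff T).2 h))
  exact ⟨R, h1, (G.thin_iff R).2 h2, h3⟩

/-- **L0** -/
theorem exists_base_between {D : ℕ → ℤ}
    (hD : ∀ i : ℕ, ∃ N, ∀ n, N ≤ n → (i : ℤ) * |D n| ≤ G.w n) (hFL : G.FL D)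
    {I X : Set U} (hIX : I ⊆ X)
    (h : ¬ G.Thin (X \ I) ∨ ¬ G.FL (fun n => D n - G.cnt (X \ I) n - 1)) :
    ∃ B, I ⊆ B ∧ B ⊆ X ∧ G.Thin (X \ B) ∧ G.FL (fun n => D n - G.cnt (X \ B) n) ∧
      ¬ G.FL (fun n => D n - G.cnt (X \ B) n - 1) := by
  obtain ⟨B, h1, h2, h3, h4, h5⟩ := IMXF.exists_base_between (w := G.w) (cell := G.cell) G.finLe
    (G.wpos 0) G.wgrow (D := D) hD hFL hIX
    (h.imp (fun h' h'' => h' ((G.thin_iff _).2 h'')) id)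
  exact ⟨B, h1, h2, (G.thin_iff _).2 h3, h4, h5⟩

end Grad

end Crest.Agent.IMX
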