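import Mathlib

/-!
# Abstract recursion of length `#T` with countable steps

Used for S0074.  `A` = facts, `T` = tasks (uncountably many), `Good` is closed under unions of
non-empty chains, every good set of facts smaller than `#T` can be extended by countably many facts to
a good set which does the task `t`.  Then one good set does all tasks.
-/

set_option autoImplicit false

open Set Cardinal

namespace Crest.Agent.IMX

universe u v

/-- A set of facts is small if it has fewer elements than there are tasks. -/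
def Small {A : Type u} (T : Type v) (P : Set A) : Prop :=
  Cardinal.lift.{v} (#P) < Cardinal.lift.{u} (#T)

section

variable {A : Type u} {T : Type v}

open Classical in
/-- one step -/
noncomputable def recStep (Good : Set A → Prop) (Done : T → Set A → Prop)
    (hstep : ∀ P : Set A, Good P → Small T P → ∀ t : T,
      ∃ Q : Set A, P ⊆ Q ∧ Good Q ∧ (Q \ P).Countable ∧ Done t Q) (P : Set A) (t : T) : Set A :=
  if h : Good P ∧ Small T P then (hstep P h.1 h.2 t).choose else P

/-- the recursion -/
noncomputable def recFun (r : T → T → Prop) (wf : WellFounded r) (G0 : Set A)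
    (F : Set A → T → Set A) : T → Set A :=
  wf.fix (fun a rec => G0 ∪ ⋃ (b : T) (h : r b a), F (rec b h) b)

theorem recFun_eq (r : T → T → Prop) (wf : WellFounded r) (G0 : Set A)
    (F : Set A → T → Set A) (a : T) :
    recFun r wf G0 F a = G0 ∪ ⋃ (b : T) (_ : r b a), F (recFun r wf G0 F b) b := by
  unfold recFun
  rw [WellFounded.fix_eq]

/-- **Recursion theorem.** -/
theorem recursion [hT : Uncountable T] (Good : Set A → Prop) (Done : T → Set A → Prop)
    (hmono : ∀ (t : T) (P Q : Set A), P ⊆ Q → Done t P → Done t Q)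
    (hchain : ∀ C : Set (Set A), C.Nonempty → IsChain (· ⊆ ·) C → (∀ P ∈ C, Good P) →
      Good (⋃₀ C))
    (G0 : Set A) (h0 : Good G0) (hG0 : G0.Countable)
    (hstep : ∀ P : Set A, Good P → Small T P → ∀ t : T,
      ∃ Q : Set A, P ⊆ Q ∧ Good Q ∧ (Q \ P).Countable ∧ Done t Q) :
    ∃ P : Set A, G0 ⊆ P ∧ Good P ∧ ∀ t : T, Done t P := by
  classical
  obtain ⟨r, wo, hr⟩ := Cardinal.exists_ord_eq T
  have wf : WellFounded r := wo.wf
  have htrans : ∀ {a b c : T}, r a b → r b c → r a c := fun h1 h2 => _root_.trans h1 h2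
  set F := recStep Good Done hstep with hF
  set P := recFun r wf G0 F with hP
  have hPeq : ∀ a, P a = G0 ∪ ⋃ (b : T) (_ : r b a), F (P b) b := fun a =>
    recFun_eq r wf G0 F a
  -- F extends
  have hFsub : ∀ Q t, Q ⊆ F Q t := by
    intro Q t
    rw [hF]
    unfold recStep
    split_ifs with h
    · exact (hstep Q h.1 h.2 t).choose_spec.1
    · exact Subset.rfl
  have hFgood : ∀ Q t, Good Q → Small T Q → Good (F Q t) := by
    intro Q t h1 h2
    rw [hF]
    unfold recStep
    rw [dif_pos ⟨h1, h2⟩]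
    exact (hstep Q h1 h2 t).choose_spec.2.1
  have hFcount : ∀ Q t, (F Q t \ Q).Countable := by
    intro Q t
    rw [hF]
    unfold recStep
    split_ifs with h
    · exact (hstep Q h.1 h.2 t).choose_spec.2.2.1
    · simp
  have hFdone : ∀ Q t, Good Q → Small T Q → Done t (F Q t) := by
    intro Q t h1 h2
    rw [hF]
    unfold recStep
    rw [dif_pos ⟨h1, h2⟩]
    exact (hstep Q h1 h2 t).choose_spec.2.2.2
  have hG0P : ∀ a, G0 ⊆ P a := by
    intro a
    rw [hPeq a]
    exact subset_union_left
  have hFP : ∀ a b, r b a → F (P b) b ⊆ P a := by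
    intro a b hba
    rw [hPeq a]
    exact (subset_iUnion₂ (s := fun (b : T) (_ : r b a) => F (P b) b) b hba).trans
      subset_union_right
  have hPP : ∀ a b, r b a → P b ⊆ P a := fun a b hba => (hFsub _ _).trans (hFP a b hba)
  -- cardinality bound
  have hcover : ∀ a, P a ⊆ G0 ∪ ⋃ b : {b : T // r b a}, (F (P b.1) b.1 \ P b.1) := by
    intro a
    induction a using wf.induction with
    | _ a ih =>
      intro x hx
      rw [hPeq a] at hx
      rcases hx with hx | hx
      · exact Or.inl hx
      · simp only [mem_iUnion, exists_prop] at hx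
        obtain ⟨b, hba, hx⟩ := hx
        by_cases hxb : x ∈ P b
        · rcases ih b hba hxb with h | h
          · exact Or.inl h
          · refine Or.inr ?_
            rw [mem_iUnion] at h ⊢
            obtain ⟨⟨b', hb'⟩, h⟩ := h
            exact ⟨⟨b', htrans hb' hba⟩, h⟩
        · refine Or.inr ?_
          rw [mem_iUnion]
          exact ⟨⟨b, hba⟩, hx, hxb⟩
  have hTinf : ℵ₀ < #T := by
    rw [Cardinal.aleph0_lt_mk_iff]
    exact hT
  have hsmall : ∀ a, Small T (P a) := by
    intro a
    unfold Small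
    have h1 : Cardinal.lift.{v} (#(P a)) ≤
        Cardinal.lift.{v} (#(G0 ∪ ⋃ b : {b : T // r b a}, (F (P b.1) b.1 \ P b.1) : Set A)) :=
      Cardinal.lift_le.2 (Cardinal.mk_le_mk_of_subset (hcover a))
    refine lt_of_le_of_lt h1 ?_
    have h2 : Cardinal.lift.{v} (#(G0 ∪ ⋃ b : {b : T // r b a}, (F (P b.1) b.1 \ P b.1) : Set A))
        ≤ Cardinal.lift.{v} (#G0) +
          Cardinal.lift.{v} (#(⋃ b : {b : T // r b a}, (F (P b.1) b.1 \ P b.1) : Set A)) := by
      rw [← Cardinal.lift_add]
      exact Cardinal.lift_le.2 (Cardinal.mk_union_le _ _)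
    refine lt_of_le_of_lt h2 ?_
    have h3 : Cardinal.lift.{v} (#G0) < Cardinal.lift.{u} (#T) := by
      have : #G0 ≤ ℵ₀ := Cardinal.le_aleph0_iff_set_countable.2 hG0
      calc Cardinal.lift.{v} (#G0) ≤ Cardinal.lift.{v} ℵ₀ := Cardinal.lift_le.2 this
        _ = Cardinal.lift.{u} (ℵ₀ : Cardinal.{v}) := by simp
        _ < Cardinal.lift.{u} (#T) := Cardinal.lift_lt.2 hTinf
    have h4 : Cardinal.lift.{v} (#(⋃ b : {b : T // r b a}, (F (P b.1) b.1 \ P b.1) : Set A))
        < Cardinal.lift.{u} (#T) := by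
      have h5 : Cardinal.lift.{v} (#(⋃ b : {b : T // r b a}, (F (P b.1) b.1 \ P b.1) : Set A))
          ≤ Cardinal.lift.{u} (#{b : T // r b a}) * ℵ₀ := by
        refine (Cardinal.mk_iUnion_le_lift _).trans ?_
        refine mul_le_mul' le_rfl ?_
        refine ciSup_le' ?_
        intro b
        rw [Cardinal.lift_le_aleph0]
        exact Cardinal.le_aleph0_iff_set_countable.2 (hFcount _ _)
      refine lt_of_le_of_lt h5 ?_
      have h6 : #{b : T // r b a} < #T := by
        have := Cardinal.card_typein_lt a hr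
        rwa [Ordinal.card_typein] at this
      have h7 : Cardinal.lift.{u} (#{b : T // r b a}) < Cardinal.lift.{u} (#T) :=
        Cardinal.lift_lt.2 h6
      have h8 : ℵ₀ < Cardinal.lift.{u} (#T) := by
        calc ℵ₀ = Cardinal.lift.{u} (ℵ₀ : Cardinal.{v}) := by simp
          _ < Cardinal.lift.{u} (#T) := Cardinal.lift_lt.2 hTinf
      exact Cardinal.mul_lt_of_lt h8.le h7 h8
    have h8 : ℵ₀ ≤ Cardinal.lift.{u} (#T) := by
      have : Cardinal.lift.{u} (ℵ₀ : Cardinal.{v}) ≤ Cardinal.lift.{u} (#T) :=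
        Cardinal.lift_le.2 hTinf.le
      simpa using this
    exact Cardinal.add_lt_of_lt h8 h3 h4
  -- goodness
  have hchain' : ∀ (s : Set T), (∀ b ∈ s, Good (P b)) →
      Good (G0 ∪ ⋃ (b : T) (_ : b ∈ s), F (P b) b) := by
    intro s hs
    have hC : (⋃₀ (insert G0 ((fun b => F (P b) b) '' s))) =
        G0 ∪ ⋃ (b : T) (_ : b ∈ s), F (P b) b := by
      rw [sUnion_insert, sUnion_image]
    rw [← hC]
    refine hchain _ ⟨G0, mem_insert _ _⟩ ?_ ?_
    · intro X hX Y hY _
      have key : ∀ Z ∈ (fun b => F (P b) b) '' s, G0 ⊆ Z := by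
        rintro _ ⟨b, _, rfl⟩
        exact (hG0P b).trans (hFsub _ _)
      rcases hX with rfl | ⟨b, hb, rfl⟩
      · rcases hY with rfl | hY
        · exact Or.inl Subset.rfl
        · exact Or.inl (key Y hY)
      · rcases hY with rfl | ⟨c, hc, rfl⟩
        · exact Or.inr (key _ ⟨b, hb, rfl⟩)
        · rcases trichotomous_of r b c with h | h | h
          · exact Or.inl ((hFsub (P b) b |>.trans (hFP c b h |>.trans (hFsub (P c) c)) |> fun _ =>
              (hFP c b h).trans (hFsub (P c) c)))
          · subst h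
            exact Or.inl Subset.rfl
          · exact Or.inr ((hFP b c h).trans (hFsub (P b) b))
    · intro Q hQ
      rcases hQ with rfl | ⟨b, hb, rfl⟩
      · exact h0
      · exact hFgood _ _ (hs b hb) (hsmall b)
  have hgood : ∀ a, Good (P a) := by
    intro a
    induction a using wf.induction with
    | _ a ih =>
      have := hchain' {b | r b a} (fun b hb => ih b hb)
      rw [hPeq a]
      exact this
  refine ⟨G0 ∪ ⋃ (b : T) (_ : b ∈ (univ : Set T)), F (P b) b, subset_union_left,
    hchain' univ (fun b _ => hgood b), ?_⟩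
  intro t
  refine hmono t (F (P t) t) _ ?_ (hFdone _ _ (hgood t) (hsmall t))
  exact (subset_iUnion₂ (s := fun (b : T) (_ : b ∈ (univ : Set T)) => F (P b) b) t
    (mem_univ t)).trans subset_union_right

end

open scoped Cardinal

/-- **Recursion theorem, length continuum** (facts in any universe, tasks in `Type`, at most
continuum many tasks, every step adds countably many facts). -/
theorem recursion_c {A : Type u} {T : Type} (hT : #T ≤ Cardinal.continuum)
    (Good : Set A → Prop) (Done : T → Set A → Prop)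
    (hmono : ∀ (t : T) (P Q : Set A), P ⊆ Q → Done t P → Done t Q)
    (hchain : ∀ C : Set (Set A), C.Nonempty → IsChain (· ⊆ ·) C → (∀ P ∈ C, Good P) →
      Good (⋃₀ C))
    (G0 : Set A) (h0 : Good G0) (hG0 : G0.Countable)
    (hstep : ∀ P : Set A, G0 ⊆ P → Good P → #P < Cardinal.continuum → ∀ t : T,
      ∃ Q : Set A, P ⊆ Q ∧ Good Q ∧ (Q \ P).Countable ∧ Done t Q) :
    ∃ P : Set A, G0 ⊆ P ∧ Good P ∧ ∀ t : T, Done t P := by
  classical
  have hc : #(ℕ → Bool) = Cardinal.continuum := by simp
  have hT' : #(T ⊕ (ℕ → Bool)) = Cardinal.continuum := by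
    rw [Cardinal.mk_sum, Cardinal.lift_id, Cardinal.lift_id, hc]
    exact Cardinal.add_eq_right Cardinal.aleph0_le_continuum hT
  haveI : Uncountable (T ⊕ (ℕ → Bool)) := by
    rw [← Cardinal.aleph0_lt_mk_iff, hT']
    exact Cardinal.aleph0_lt_continuum
  have hsm : ∀ P : Set A, Small (T ⊕ (ℕ → Bool)) P → #P < Cardinal.continuum := by
    intro P hP
    unfold Small at hP
    rw [hT', Cardinal.lift_continuum, Cardinal.lift_uzero] at hP
    exact hP
  obtain ⟨P, hP0, hP, hd⟩ := recursion (A := A) (T := T ⊕ (ℕ → Bool))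
    (fun P => G0 ⊆ P ∧ Good P) (fun t P => Sum.elim (fun t => Done t P) (fun _ => True) t)
    (by
      rintro (t | t) P Q hPQ h
      · exact hmono t P Q hPQ h
      · trivial)
    (by
      intro C hne hC hall
      refine ⟨?_, hchain C hne hC fun P hP => (hall P hP).2⟩
      obtain ⟨P, hP⟩ := hne
      exact (hall P hP).1.trans (subset_sUnion_of_mem hP))
    G0 ⟨Subset.rfl, h0⟩ hG0
    (by
      rintro P ⟨hGP, hP⟩ hs (t | t)
      · obtain ⟨Q, h1, h2, h3, h4⟩ := hstep P hGP hP (hsm P hs) t
        exact ⟨Q, h1, ⟨hGP.trans h1, h2⟩, h3, h4⟩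
      · exact ⟨P, Subset.rfl, ⟨hGP, hP⟩, by simp, trivial⟩)
  exact ⟨P, hP.1, hP.2, fun t => hd (Sum.inl t)⟩

end Crest.Agent.IMX
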