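import Mathlib
import Crest.Agent.IMX_RecC

/-! # IMX phase 1 (S0074): the ranks `Neg`, `rk` on an abstract preorder of sets -/

set_option autoImplicit false
set_option maxHeartbeats 400000
set_option linter.unusedSectionVars false

namespace Crest.Agent.IMX.P1

open Set Cardinal

/-- genericity of `B` between `L` and `A` over a family `C` -/
def GenP {V : Type} (le : Set V → Set V → Prop) (C : Set (Set V)) (L A B : Set V) : Prop :=
  ∀ Z ∈ C, (le Z B → le Z L) ∧ (le B Z → le A Z)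

/-- a well order in which every small set has a strict upper bound -/
theorem exists_rankType : ∃ (K : Type) (_ : LinearOrder K) (_ : WellFoundedLT K), Nonempty K ∧
    ∀ S : Set K, #S ≤ 𝔠 → ∃ k, ∀ s ∈ S, s < k := by
  classical
  have hreg : (Order.succ (𝔠 : Cardinal.{0})).IsRegular :=
    Cardinal.isRegular_succ Cardinal.aleph0_le_continuum
  refine ⟨(Order.succ (𝔠 : Cardinal.{0})).ord.ToType, inferInstance, inferInstance, ?_, ?_⟩
  · rw [Ordinal.nonempty_toType_iff]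
    intro h
    rw [Cardinal.ord_eq_zero] at h
    exact absurd h (Order.bot_lt_succ _).ne'
  · intro S hS
    by_contra hcon
    push Not at hcon
    have : IsCofinal S := by
      intro k
      obtain ⟨s, hs, h⟩ := hcon k
      exact ⟨s, hs, h⟩
    have h1 := Order.cof_le this
    rw [Ordinal.cof_toType, hreg.cof_ord] at h1
    exact absurd (h1.trans hS) (not_le.2 (Order.lt_succ _))

/-- two-place injective pairing of reals -/
noncomputable def blk : (ℕ → Bool) × (ℕ → Bool) ≃ (ℕ → Bool) :=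
  (Equiv.sumArrowEquivProdArrow ℕ ℕ Bool).symm.trans
    (Equiv.arrowCongr Equiv.natSumNatEquivNat (Equiv.refl Bool))

section

variable {V K : Type} [LinearOrder K] [WellFoundedLT K]
variable (le : Set V → Set V → Prop)
variable (bb : (ℕ → Bool) → Set V → Set V → Set V)

theorem exists_avoid
    (hfin : ∀ L A Z : Set V, L ⊆ A →
      {x | ¬ ((le Z (bb x L A) → le Z L) ∧ (le (bb x L A) Z → le A Z))}.Finite)
    (f : (ℕ → Bool) → (ℕ → Bool)) (hf : Function.Injective f)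
    (C : Set (Set V)) (hC : #C < 𝔠) (L A : Set V) (hLA : L ⊆ A) :
    ∃ i, GenP le C L A (bb (f i) L A) := by
  classical
  by_contra hcon
  push Not at hcon
  -- every `f i` lies in the union of the bad sets
  have hsub : Set.range f ⊆ ⋃ Z : C,
      {x | ¬ ((le Z (bb x L A) → le Z L) ∧ (le (bb x L A) Z → le A Z))} := by
    rintro _ ⟨i, rfl⟩
    have := hcon i
    unfold GenP at this
    push Not at this
    obtain ⟨Z, hZ, h⟩ := this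
    refine mem_iUnion.2 ⟨⟨Z, hZ⟩, ?_⟩
    intro h'
    obtain ⟨h1, h2⟩ := h (h'.1)
    exact h2 (h'.2 h1)
  have h1 : #(Set.range f) = 𝔠 := by
    rw [Cardinal.mk_range_eq f hf]
    simp
  have h2 : #(⋃ Z : C,
      {x | ¬ ((le Z (bb x L A) → le Z L) ∧ (le (bb x L A) Z → le A Z))} : Set (ℕ → Bool))
      ≤ max (#C) ℵ₀ := by
    refine (Cardinal.mk_iUnion_le _).trans ?_
    refine (mul_le_max _ _).trans ?_
    refine max_le (max_le (le_max_left _ _) ?_) (le_max_right _ _)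
    refine le_trans ?_ (le_max_right _ _)
    refine ciSup_le' ?_
    intro Z
    exact (hfin L A Z hLA).countable.le_aleph0
  have h3 : (𝔠 : Cardinal.{0}) ≤ max (#C) ℵ₀ := by
    rw [← h1]
    exact (Cardinal.mk_le_mk_of_subset hsub).trans h2
  rcases le_max_iff.1 h3 with h | h
  · exact absurd h (not_le.2 hC)
  · exact absurd h (not_le.2 aleph0_lt_continuum)

/-- good sets of facts -/
def Good1 (k0 : K) (P : Set (Set V × K)) : Prop :=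
  (∅, k0) ∈ P ∧ (∀ a ∈ P, ∀ b ∈ P, le a.1 b.1 → a.2 ≤ b.2) ∧
    (∀ a ∈ P, ∀ b ∈ P, ¬ le a.1ᶜ b.1)

variable {le}

theorem good1_chain (k0 : K) (C : Set (Set (Set V × K))) (hne : C.Nonempty)
    (hch : IsChain (· ⊆ ·) C) (hg : ∀ P ∈ C, Good1 le k0 P) : Good1 le k0 (⋃₀ C) := by
  have key : ∀ a ∈ ⋃₀ C, ∀ b ∈ ⋃₀ C, ∃ P ∈ C, a ∈ P ∧ b ∈ P := by
    rintro a ⟨P, hP, ha⟩ b ⟨Q, hQ, hb⟩
    rcases hch.total hP hQ with h | h
    · exact ⟨Q, hQ, h ha, hb⟩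
    · exact ⟨P, hP, ha, h hb⟩
  obtain ⟨P0, hP0⟩ := hne
  refine ⟨⟨P0, hP0, (hg P0 hP0).1⟩, ?_, ?_⟩
  · intro a ha b hb
    obtain ⟨P, hP, h1, h2⟩ := key a ha b hb
    exact (hg P hP).2.1 a h1 b h2
  · intro a ha b hb
    obtain ⟨P, hP, h1, h2⟩ := key a ha b hb
    exact (hg P hP).2.2 a h1 b h2

/-- adding one fact -/
theorem good1_insert {k0 : K} {P : Set (Set V × K)} (hP : Good1 le k0 P) (X : Set V) (o : K)
    (h1 : ∀ a ∈ P, le a.1 X → a.2 ≤ o) (h2 : ∀ a ∈ P, le X a.1 → o ≤ a.2)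
    (h3 : ∀ a ∈ P, ¬ le Xᶜ a.1) (h4 : ∀ a ∈ P, ¬ le a.1ᶜ X) (h5 : ¬ le Xᶜ X) :
    Good1 le k0 (insert (X, o) P) := by
  refine ⟨Or.inr hP.1, ?_, ?_⟩
  · rintro a (rfl | ha) b (rfl | hb) hab
    · exact le_rfl
    · exact h2 b hb hab
    · exact h1 a ha hab
    · exact hP.2.1 a ha b hb hab
  · rintro a (rfl | ha) b (rfl | hb) hab
    · exact h5 hab
    · exact h3 b hb hab
    · exact h4 a ha hab
    · exact hP.2.2 a ha b hb hab

/-- `Ext1 P Q`: `Q` is a good finite extension of `P` -/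
def Ext1 (le : Set V → Set V → Prop) (k0 : K) (P Q : Set (Set V × K)) : Prop :=
  P ⊆ Q ∧ Good1 le k0 Q ∧ (Q \ P).Finite

theorem Ext1.trans {k0 : K} {P Q R : Set (Set V × K)} (h : Ext1 le k0 P Q)
    (h' : Ext1 le k0 Q R) : Ext1 le k0 P R := by
  refine ⟨h.1.trans h'.1, h'.2.1, (h.2.2.union h'.2.2).subset ?_⟩
  rintro a ⟨ha, hb⟩
  by_cases hq : a ∈ Q
  · exact Or.inl ⟨hq, hb⟩
  · exact Or.inr ⟨ha, hq⟩

theorem Ext1.refl {k0 : K} {P : Set (Set V × K)} (h : Good1 le k0 P) : Ext1 le k0 P P :=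
  ⟨subset_rfl, h, by simp⟩

theorem ext1_insert {k0 : K} {P : Set (Set V × K)} {f : Set V × K}
    (h : Good1 le k0 (insert f P)) : Ext1 le k0 P (insert f P) := by
  refine ⟨subset_insert _ _, h, (Set.finite_singleton f).subset ?_⟩
  rintro a ⟨rfl | ha, hb⟩
  · exact rfl
  · exact absurd ha hb

theorem Ext1.card {k0 : K} {P Q : Set (Set V × K)} (h : Ext1 le k0 P Q) (hP : #P < 𝔠) :
    #Q < 𝔠 := by
  have h1 : Q = P ∪ (Q \ P) := (Set.union_sdiff_cancel h.1).symm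
  rw [h1]
  refine lt_of_le_of_lt (Cardinal.mk_union_le _ _) ?_
  exact Cardinal.add_lt_of_lt Cardinal.aleph0_le_continuum hP
    (lt_of_lt_of_le h.2.2.lt_aleph0 Cardinal.aleph0_le_continuum)

/-- domain of a set of facts -/
def dom1 (P : Set (Set V × K)) (X : Set V) : Prop := ∃ o, (X, o) ∈ P

theorem dom1_mono {P Q : Set (Set V × K)} (h : P ⊆ Q) {X : Set V} (hX : dom1 P X) :
    dom1 Q X := by
  obtain ⟨o, ho⟩ := hX
  exact ⟨o, h ho⟩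

theorem Good1.not_both {k0 : K} {P : Set (Set V × K)} (hrefl : ∀ X, le X X)
    (hP : Good1 le k0 P) {X : Set V} (h : dom1 P X) (h' : dom1 P Xᶜ) : False := by
  obtain ⟨o, ho⟩ := h
  obtain ⟨o', ho'⟩ := h'
  exact hP.2.2 _ ho _ ho' (hrefl _)

theorem Good1.unique {k0 : K} {P : Set (Set V × K)} (hrefl : ∀ X, le X X)
    (hP : Good1 le k0 P) {X : Set V} {o o' : K} (h : (X, o) ∈ P) (h' : (X, o') ∈ P) : o = o' :=
  le_antisymm (hP.2.1 _ h _ h' (hrefl _)) (hP.2.1 _ h' _ h (hrefl _))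

/-- least upper bound of the ranks below `X` -/
theorem exists_lub (hbdd : ∀ S : Set K, #S ≤ 𝔠 → ∃ k, ∀ s ∈ S, s < k)
    {P : Set (Set V × K)} (hP : #P < 𝔠) (X : Set V) :
    ∃ σ : K, (∀ a ∈ P, le a.1 X → a.2 ≤ σ) ∧
      (∀ k, (∀ a ∈ P, le a.1 X → a.2 ≤ k) → σ ≤ k) := by
  have h1 : #(Prod.snd '' P : Set K) ≤ 𝔠 := Cardinal.mk_image_le.trans hP.le
  obtain ⟨k, hk⟩ := hbdd _ h1
  have hne : {k : K | ∀ a ∈ P, le a.1 X → a.2 ≤ k}.Nonempty :=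
    ⟨k, fun a ha _ => (hk _ (mem_image_of_mem _ ha)).le⟩
  refine ⟨WellFounded.min wellFounded_lt _ hne, ?_, ?_⟩
  · exact WellFounded.min_mem wellFounded_lt _ hne
  · intro k' hk'
    exact not_lt.1 (WellFounded.not_lt_min wellFounded_lt
      {k : K | ∀ a ∈ P, le a.1 X → a.2 ≤ k} hk')

theorem decide1_aux (htrans : ∀ X Y Z, le X Y → le Y Z → le X Z)
    (hcompl : ∀ X Y, le X Y → le Yᶜ Xᶜ) (hnull : ∀ X, le Xᶜ X → le Xᶜ ∅)
    (hbdd : ∀ S : Set K, #S ≤ 𝔠 → ∃ k, ∀ s ∈ S, s < k) {k0 : K}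
    {P : Set (Set V × K)} (hP : Good1 le k0 P) (hc : #P < 𝔠) (X : Set V)
    (h : (∃ Y, dom1 P Y ∧ le X Y) ∨ (¬ ∃ Y, dom1 P Y ∧ le Xᶜ Y)) :
    ∃ Q, Ext1 le k0 P Q ∧ dom1 Q X := by
  obtain ⟨σ, hσ1, hσ2⟩ := exists_lub (le := le) hbdd hc X
  have hno : ∀ a ∈ P, ¬ le Xᶜ a.1 := by
    intro a ha hle
    rcases h with ⟨Y, ⟨o, hY⟩, hXY⟩ | h
    · exact hP.2.2 _ hY _ ha (htrans _ _ _ (hcompl _ _ hXY) hle)
    · exact h ⟨a.1, ⟨a.2, ha⟩, hle⟩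
  refine ⟨insert (X, σ) P, ext1_insert (good1_insert hP X σ hσ1 ?_ hno ?_ ?_),
    ⟨σ, mem_insert _ _⟩⟩
  · intro a ha hle
    exact hσ2 _ (fun b hb hbX => hP.2.1 b hb a ha (htrans _ _ _ hbX hle))
  · intro a ha hle
    have := hcompl _ _ hle
    rw [compl_compl] at this
    exact hno a ha this
  · intro hle
    rcases h with ⟨Y, ⟨o, hY⟩, hXY⟩ | h
    · exact hno _ hY (htrans _ _ _ hle hXY)
    · exact h ⟨∅, ⟨k0, hP.1⟩, hnull _ hle⟩

theorem decide1 (hrefl : ∀ X, le X X) (htrans : ∀ X Y Z, le X Y → le Y Z → le X Z)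
    (hcompl : ∀ X Y, le X Y → le Yᶜ Xᶜ) (hnull : ∀ X, le Xᶜ X → le Xᶜ ∅)
    (hbdd : ∀ S : Set K, #S ≤ 𝔠 → ∃ k, ∀ s ∈ S, s < k) {k0 : K}
    {P : Set (Set V × K)} (hP : Good1 le k0 P) (hc : #P < 𝔠) (X : Set V) :
    ∃ Q, Ext1 le k0 P Q ∧ (dom1 Q X ∨ dom1 Q Xᶜ) := by
  by_cases h : ∃ Y, dom1 P Y ∧ le Xᶜ Y
  · obtain ⟨Q, hQ, hX⟩ := decide1_aux htrans hcompl hnull hbdd hP hc Xᶜ (Or.inl h)
    exact ⟨Q, hQ, Or.inr hX⟩
  · obtain ⟨Q, hQ, hX⟩ := decide1_aux htrans hcompl hnull hbdd hP hc X (Or.inr h)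
    exact ⟨Q, hQ, Or.inl hX⟩

/-- the family over which genericity is needed -/
def fam1 (P : Set (Set V × K)) : Set (Set V) := (Prod.fst '' P) ∪ (compl '' (Prod.fst '' P))

theorem fam1_card {P : Set (Set V × K)} (hc : #P < 𝔠) : #(fam1 P) < 𝔠 := by
  have h1 : #(Prod.fst '' P : Set (Set V)) < 𝔠 := Cardinal.mk_image_le.trans_lt hc
  have h2 : #(compl '' (Prod.fst '' P) : Set (Set V)) < 𝔠 := Cardinal.mk_image_le.trans_lt h1
  exact (Cardinal.mk_union_le _ _).trans_lt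
    (Cardinal.add_lt_of_lt Cardinal.aleph0_le_continuum h1 h2)

theorem fam1_mem {P : Set (Set V × K)} {a : Set V × K} (ha : a ∈ P) : a.1 ∈ fam1 P :=
  Or.inl (mem_image_of_mem _ ha)

theorem fam1_mem' {P : Set (Set V × K)} {a : Set V × K} (ha : a ∈ P) : a.1ᶜ ∈ fam1 P :=
  Or.inr (mem_image_of_mem _ (mem_image_of_mem _ ha))

/-- generic step, `L` has a fact -/
theorem gen_step1 (htrans : ∀ X Y Z, le X Y → le Y Z → le X Z)
    (hsub : ∀ X Y, X ⊆ Y → le X Y)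
    (hcompl : ∀ X Y, le X Y → le Yᶜ Xᶜ) (hnull : ∀ X, le Xᶜ X → le Xᶜ ∅) {k0 : K}
    {P : Set (Set V × K)} (hP : Good1 le k0 P) {L A B : Set V} (hLA : L ⊆ A)
    (hgen : GenP le (fam1 P) L A B) {o : K} (hL : (L, o) ∈ P) :
    Ext1 le k0 P (insert (B, o) P) := by
  have h4 : ∀ a ∈ P, ¬ le a.1ᶜ B := by
    intro a ha hle
    exact hP.2.2 _ ha _ hL ((hgen _ (fam1_mem' ha)).1 hle)
  refine ext1_insert (good1_insert hP B o ?_ ?_ ?_ h4 ?_)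
  · intro a ha hle
    exact hP.2.1 a ha _ hL ((hgen _ (fam1_mem ha)).1 hle)
  · intro a ha hle
    exact hP.2.1 _ hL a ha (htrans _ _ _ (hsub _ _ hLA) ((hgen _ (fam1_mem ha)).2 hle))
  · intro a ha hle
    have := hcompl _ _ hle
    rw [compl_compl] at this
    exact h4 a ha this
  · intro hle
    -- `B^c` null, so `univ ≤ B`
    have h1 : le Bᶜ ∅ := hnull _ hle
    have h2 : le ∅ᶜ B := by
      have := hcompl _ _ h1
      rwa [compl_compl] at this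
    exact h4 _ hP.1 h2

/-- generic step, `Lᶜ` has a fact -/
theorem gen_step2 (htrans : ∀ X Y Z, le X Y → le Y Z → le X Z)
    (hsub : ∀ X Y, X ⊆ Y → le X Y)
    (hcompl : ∀ X Y, le X Y → le Yᶜ Xᶜ) (hnull : ∀ X, le Xᶜ X → le Xᶜ ∅) {k0 : K}
    {P : Set (Set V × K)} (hP : Good1 le k0 P) {L A B : Set V} (hLA : L ⊆ A)
    (hgen : GenP le (fam1 P) L A B) {o : K} (hL : (Lᶜ, o) ∈ P) :
    Ext1 le k0 P (insert (Bᶜ, o) P) := by
  have hcc : ∀ X Y : Set V, le X Yᶜ → le Y Xᶜ := by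
    intro X Y h
    have := hcompl _ _ h
    rwa [compl_compl] at this
  have hcc' : ∀ X Y : Set V, le Xᶜ Y → le Yᶜ X := by
    intro X Y h
    have := hcompl _ _ h
    rwa [compl_compl] at this
  have hc2 : ∀ X Y : Set V, le Xᶜ Yᶜ → le Y X := by
    intro X Y h
    have := hcompl _ _ h
    rwa [compl_compl, compl_compl] at this
  have h4 : ∀ a ∈ P, ¬ le a.1ᶜ Bᶜ := by
    intro a ha hle
    have h1 : le L a.1 :=
      htrans _ _ _ (hsub _ _ hLA) ((hgen _ (fam1_mem ha)).2 (hc2 _ _ hle))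
    exact hP.2.2 _ ha _ hL (hcompl _ _ h1)
  refine ext1_insert (good1_insert hP Bᶜ o ?_ ?_ ?_ h4 ?_)
  · intro a ha hle
    have h1 : le B a.1ᶜ := hcc _ _ hle
    have h2 : le A a.1ᶜ := (hgen _ (fam1_mem' ha)).2 h1
    have h3 : le a.1 Aᶜ := hcc _ _ h2
    exact hP.2.1 a ha _ hL (htrans _ _ _ h3 (hcompl _ _ (hsub _ _ hLA)))
  · intro a ha hle
    have h1 : le a.1ᶜ B := hcc' _ _ hle
    have h2 : le a.1ᶜ L := (hgen _ (fam1_mem' ha)).1 h1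
    exact hP.2.1 _ hL a ha (hcc' _ _ h2)
  · intro a ha hle
    exact h4 a ha (hcompl _ _ (by rwa [compl_compl] at hle))
  · intro hle
    have h1 : le Bᶜᶜ ∅ := hnull _ hle
    exact h4 _ hP.1 (by
      have := hcompl _ _ h1
      rwa [compl_compl] at this)

/-- generic step, new rank -/
theorem gen_step3 (htrans : ∀ X Y Z, le X Y → le Y Z → le X Z)
    (hsub : ∀ X Y, X ⊆ Y → le X Y)
    (hcompl : ∀ X Y, le X Y → le Yᶜ Xᶜ) (hnull : ∀ X, le Xᶜ X → le Xᶜ ∅) {k0 : K}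
    {P : Set (Set V × K)} (hP : Good1 le k0 P) {L A B : Set V} (hLA : L ⊆ A)
    (hgen : GenP le (fam1 P) L A B) {o o' ρ : K} (hL : (L, o) ∈ P) (hA : (Aᶜ, o') ∈ P)
    (hρ : ∀ a ∈ P, a.2 < ρ) :
    Ext1 le k0 P (insert (B, ρ) P) := by
  have h4 : ∀ a ∈ P, ¬ le a.1ᶜ B := by
    intro a ha hle
    exact hP.2.2 _ ha _ hL ((hgen _ (fam1_mem' ha)).1 hle)
  refine ext1_insert (good1_insert hP B ρ ?_ ?_ ?_ h4 ?_)
  · intro a ha hle
    exact (hρ a ha).le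
  · intro a ha hle
    have h1 : le A a.1 := (hgen _ (fam1_mem ha)).2 hle
    exact absurd (hcompl _ _ h1) (hP.2.2 _ ha _ hA)
  · intro a ha hle
    have := hcompl _ _ hle
    rw [compl_compl] at this
    exact h4 a ha this
  · intro hle
    have h1 : le Bᶜ ∅ := hnull _ hle
    have h2 : le ∅ᶜ B := by
      have := hcompl _ _ h1
      rwa [compl_compl] at this
    exact h4 _ hP.1 h2

/-- the requirement attached to a task `(L, A, a, i)` -/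
def Done1 (bb : (ℕ → Bool) → Set V → Set V → Set V) (k0 : K)
    (t : Set V × Set V × Set V × (ℕ → Bool)) (P : Set (Set V × K)) : Prop :=
  (dom1 P t.1 ∨ dom1 P t.1ᶜ) ∧ (t.1 ⊆ t.2.1 →
    ((∃ j o, (t.1, o) ∈ P ∧ (bb (blk (t.2.2.2, j)) t.1 t.2.1, o) ∈ P) ∨
      (∃ j o, (t.1ᶜ, o) ∈ P ∧ ((bb (blk (t.2.2.2, j)) t.1 t.2.1)ᶜ, o) ∈ P)) ∧
    (dom1 P t.1ᶜ ∨ dom1 P t.2.1 ∨ ∃ j ρ, (bb (blk (t.2.2.2, j)) t.1 t.2.1, ρ) ∈ P ∧ k0 < ρ ∧
      ((∃ o, (t.2.2.1, o) ∈ P ∧ o < ρ) ∨ dom1 P t.2.2.1ᶜ)))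

theorem done1_mono (bb : (ℕ → Bool) → Set V → Set V → Set V) (k0 : K)
    (t : Set V × Set V × Set V × (ℕ → Bool)) (P Q : Set (Set V × K)) (h : P ⊆ Q)
    (hd : Done1 bb k0 t P) : Done1 bb k0 t Q := by
  obtain ⟨h1, h2⟩ := hd
  refine ⟨h1.imp (dom1_mono h) (dom1_mono h), fun hs => ?_⟩
  obtain ⟨h3, h4⟩ := h2 hs
  refine ⟨?_, ?_⟩
  · rcases h3 with ⟨j, o, h5, h6⟩ | ⟨j, o, h5, h6⟩
    · exact Or.inl ⟨j, o, h h5, h h6⟩
    · exact Or.inr ⟨j, o, h h5, h h6⟩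
  · rcases h4 with h5 | h5 | ⟨j, ρ, h5, h6, h7⟩
    · exact Or.inl (dom1_mono h h5)
    · exact Or.inr (Or.inl (dom1_mono h h5))
    · refine Or.inr (Or.inr ⟨j, ρ, h h5, h6, ?_⟩)
      rcases h7 with ⟨o, h8, h9⟩ | h8
      · exact Or.inl ⟨o, h h8, h9⟩
      · exact Or.inr (dom1_mono h h8)

theorem step1 (hrefl : ∀ X, le X X) (htrans : ∀ X Y Z, le X Y → le Y Z → le X Z)
    (hsub : ∀ X Y, X ⊆ Y → le X Y)
    (hcompl : ∀ X Y, le X Y → le Yᶜ Xᶜ) (hnull : ∀ X, le Xᶜ X → le Xᶜ ∅)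
    (hfin : ∀ L A Z : Set V, L ⊆ A →
      {x | ¬ ((le Z (bb x L A) → le Z L) ∧ (le (bb x L A) Z → le A Z))}.Finite)
    (hbdd : ∀ S : Set K, #S ≤ 𝔠 → ∃ k, ∀ s ∈ S, s < k) {k0 : K}
    {P : Set (Set V × K)} (hP : Good1 le k0 P) (hc : #P < 𝔠)
    (t : Set V × Set V × Set V × (ℕ → Bool)) :
    ∃ Q, Ext1 le k0 P Q ∧ Done1 bb k0 t Q := by
  obtain ⟨L, A, a, i⟩ := t
  obtain ⟨P1, hP1, hL⟩ := decide1 hrefl htrans hcompl hnull hbdd hP hc L
  obtain ⟨P2, hP2, hA⟩ := decide1 hrefl htrans hcompl hnull hbdd hP1.2.1 (hP1.card hc) A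
  have hc2 := hP2.card (hP1.card hc)
  obtain ⟨P3, hP3, ha⟩ := decide1 hrefl htrans hcompl hnull hbdd hP2.2.1 hc2 a
  have hc3 := hP3.card hc2
  have hL3 : dom1 P3 L ∨ dom1 P3 Lᶜ :=
    hL.imp (fun h => dom1_mono hP3.1 (dom1_mono hP2.1 h))
      (fun h => dom1_mono hP3.1 (dom1_mono hP2.1 h))
  have hA3 : dom1 P3 A ∨ dom1 P3 Aᶜ := hA.imp (dom1_mono hP3.1) (dom1_mono hP3.1)
  have hE3 : Ext1 le k0 P P3 := (hP1.trans hP2).trans hP3
  by_cases hLA : L ⊆ A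
  swap
  · exact ⟨P3, hE3, hL3, fun h => absurd h hLA⟩
  have hinj : Function.Injective (fun j => blk (i, j)) := by
    intro j j' h
    have := blk.injective h
    simpa using this
  -- first generic step
  obtain ⟨j, hgen⟩ := exists_avoid le bb hfin (fun j => blk (i, j)) hinj (fam1 P3)
    (fam1_card hc3) L A hLA
  have hstep4 : ∃ P4, Ext1 le k0 P3 P4 ∧
      ((∃ j o, (L, o) ∈ P4 ∧ (bb (blk (i, j)) L A, o) ∈ P4) ∨
      (∃ j o, (Lᶜ, o) ∈ P4 ∧ ((bb (blk (i, j)) L A)ᶜ, o) ∈ P4)) := by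
    rcases hL3 with ⟨o, ho⟩ | ⟨o, ho⟩
    · exact ⟨_, gen_step1 htrans hsub hcompl hnull hE3.2.1 hLA hgen ho,
        Or.inl ⟨j, o, Or.inr ho, Or.inl rfl⟩⟩
    · exact ⟨_, gen_step2 htrans hsub hcompl hnull hE3.2.1 hLA hgen ho,
        Or.inr ⟨j, o, Or.inr ho, Or.inl rfl⟩⟩
  obtain ⟨P4, hP4, hd4⟩ := hstep4
  have hc4 := hP4.card hc3
  have hE4 := hE3.trans hP4
  -- second generic step
  by_cases hcase : dom1 P4 L ∧ dom1 P4 Aᶜ
  · obtain ⟨⟨o, ho⟩, ⟨o', ho'⟩⟩ := hcase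
    obtain ⟨j', hgen'⟩ := exists_avoid le bb hfin (fun j => blk (i, j)) hinj (fam1 P4)
      (fam1_card hc4) L A hLA
    have h1 : #(Prod.snd '' P4 : Set K) ≤ 𝔠 := Cardinal.mk_image_le.trans hc4.le
    obtain ⟨ρ, hρ⟩ := hbdd _ h1
    have hρ' : ∀ a ∈ P4, a.2 < ρ := fun a ha => hρ _ (mem_image_of_mem _ ha)
    have h5 := gen_step3 htrans hsub hcompl hnull hE4.2.1 hLA hgen' ho ho' hρ'
    refine ⟨_, hE4.trans h5, ?_, fun _ => ⟨?_, Or.inr (Or.inr ⟨j', ρ, Or.inl rfl, ?_, ?_⟩)⟩⟩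
    · exact hL3.imp (fun h => dom1_mono h5.1 (dom1_mono hP4.1 h))
        (fun h => dom1_mono h5.1 (dom1_mono hP4.1 h))
    · rcases hd4 with ⟨j, o, h6, h7⟩ | ⟨j, o, h6, h7⟩
      · exact Or.inl ⟨j, o, Or.inr h6, Or.inr h7⟩
      · exact Or.inr ⟨j, o, Or.inr h6, Or.inr h7⟩
    · exact hρ' _ hE4.2.1.1
    · rcases ha with ⟨oa, hoa⟩ | h
      · exact Or.inl ⟨oa, Or.inr (hP4.1 hoa), hρ' _ (hP4.1 hoa)⟩
      · exact Or.inr (dom1_mono h5.1 (dom1_mono hP4.1 h))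
  · refine ⟨P4, hE4, hL3.imp (dom1_mono hP4.1) (dom1_mono hP4.1), fun _ => ⟨hd4, ?_⟩⟩
    by_cases h6 : dom1 P4 Lᶜ
    · exact Or.inl h6
    · refine Or.inr (Or.inl ?_)
      rcases hA3 with h7 | h7
      · exact dom1_mono hP4.1 h7
      · refine absurd ⟨?_, dom1_mono hP4.1 h7⟩ hcase
        rcases hL3 with h8 | h8
        · exact dom1_mono hP4.1 h8
        · exact absurd (dom1_mono hP4.1 h8) h6

/-- **Phase 1** (abstract form). -/
theorem phase1 (hrefl : ∀ X, le X X) (htrans : ∀ X Y Z, le X Y → le Y Z → le X Z)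
    (hsub : ∀ X Y, X ⊆ Y → le X Y)
    (hcompl : ∀ X Y, le X Y → le Yᶜ Xᶜ) (hnull : ∀ X, le Xᶜ X → le Xᶜ ∅)
    (huniv : ¬ le (univ : Set V) ∅) (hV : #(Set V) ≤ 𝔠)
    (hLb : ∀ x L A, L ⊆ A → L ⊆ bb x L A) (hbA : ∀ x L A, L ⊆ A → bb x L A ⊆ A)
    (hfin : ∀ L A Z : Set V, L ⊆ A →
      {x | ¬ ((le Z (bb x L A) → le Z L) ∧ (le (bb x L A) Z → le A Z))}.Finite)
    (hbdd : ∀ S : Set K, #S ≤ 𝔠 → ∃ k, ∀ s ∈ S, s < k) (k0 : K) :
    ∃ (Neg : Set V → Prop) (rk : Set V → K),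
      Neg ∅ ∧
      (∀ X, Neg Xᶜ ↔ ¬ Neg X) ∧
      (∀ X Y, le X Y → Neg Y → Neg X ∧ rk X ≤ rk Y) ∧
      (∀ L A, L ⊆ A → ∀ C : Set (Set V), #C < 𝔠 → ∃ B, L ⊆ B ∧ B ⊆ A ∧ GenP le C L A B ∧
        (Neg B ↔ Neg L) ∧ (Neg L → rk B = rk L) ∧ (¬ Neg L → rk Bᶜ = rk Lᶜ)) ∧
      (∀ L A a, L ⊆ A → Neg L → ¬ Neg A → ∀ C : Set (Set V), #C < 𝔠 →
        ∃ B, L ⊆ B ∧ B ⊆ A ∧ GenP le C L A B ∧ Neg B ∧ rk a < rk B) := by
  classical
  have hT : #(Set V × Set V × Set V × (ℕ → Bool)) ≤ 𝔠 := by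
    have h0 : #(ℕ → Bool) = 𝔠 := by simp
    simp only [Cardinal.mk_prod, Cardinal.lift_id, h0]
    have hmul : ∀ a b : Cardinal.{0}, a ≤ 𝔠 → b ≤ 𝔠 → a * b ≤ 𝔠 := by
      intro a b ha hb
      exact (mul_le_mul' ha hb).trans (by simp)
    exact hmul _ _ hV (hmul _ _ hV (hmul _ _ hV le_rfl))
  have h0 : Good1 le k0 {((∅ : Set V), k0)} := by
    refine ⟨rfl, ?_, ?_⟩
    · rintro a rfl b rfl _
      exact le_rfl
    · rintro a rfl b rfl h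
      refine huniv ?_
      simpa using h
  obtain ⟨P, -, hP, hd⟩ := recursion_c hT (Good1 le k0) (Done1 bb k0)
    (fun t P Q h hd => done1_mono bb k0 t P Q h hd)
    (fun C hne hch hg => good1_chain k0 C hne hch hg) {(∅, k0)} h0 (Set.countable_singleton _)
    (by
      intro P _ hP hc t
      obtain ⟨Q, hQ, hd⟩ := step1 bb hrefl htrans hsub hcompl hnull hfin hbdd hP hc t
      exact ⟨Q, hQ.1, hQ.2.1, hQ.2.2.countable, hd⟩)
  have hdom : ∀ X, dom1 P X ∨ dom1 P Xᶜ := fun X => (hd (X, X, X, fun _ => true)).1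
  have hnb : ∀ X, dom1 P X → dom1 P Xᶜ → False := fun X => hP.not_both hrefl
  have huq : ∀ X o o', (X, o) ∈ P → (X, o') ∈ P → o = o' := fun X o o' => hP.unique hrefl
  let rk : Set V → K := fun X => if h : dom1 P X then h.choose else k0
  have hrk : ∀ X o, (X, o) ∈ P → rk X = o := by
    intro X o ho
    have h : dom1 P X := ⟨o, ho⟩
    simp only [rk, dif_pos h]
    exact huq X _ _ h.choose_spec ho
  have hrk' : ∀ X, ¬ dom1 P X → rk X = k0 := by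
    intro X h
    simp only [rk, dif_neg h]
  refine ⟨dom1 P, rk, ⟨k0, hP.1⟩, ?_, ?_, ?_, ?_⟩
  · intro X
    constructor
    · intro h h'
      exact hnb X h' h
    · intro h
      exact (hdom X).resolve_left h
  · intro X Y hXY hY
    have hX : dom1 P X := by
      by_contra hX
      obtain ⟨o, ho⟩ := (hdom X).resolve_left hX
      obtain ⟨o', ho'⟩ := hY
      refine hP.2.2 _ ho _ ho' ?_
      simpa using hXY
    obtain ⟨o, ho⟩ := hX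
    obtain ⟨o', ho'⟩ := hY
    exact ⟨⟨o, ho⟩, by rw [hrk X o ho, hrk Y o' ho']; exact hP.2.1 _ ho _ ho' hXY⟩
  · intro L A hLA C hC
    have hex : ∀ i : ℕ → Bool, ∃ j, ((∃ o, (L, o) ∈ P ∧ (bb (blk (i, j)) L A, o) ∈ P) ∨
      (∃ o, (Lᶜ, o) ∈ P ∧ ((bb (blk (i, j)) L A)ᶜ, o) ∈ P)) := by
      intro i
      rcases ((hd (L, A, L, i)).2 hLA).1 with ⟨j, o, h1, h2⟩ | ⟨j, o, h1, h2⟩
      · exact ⟨j, Or.inl ⟨o, h1, h2⟩⟩
      · exact ⟨j, Or.inr ⟨o, h1, h2⟩⟩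
    choose j hj using hex
    have hinj : Function.Injective (fun i => blk (i, j i)) := by
      intro i i' h
      have := blk.injective h
      exact (Prod.ext_iff.1 this).1
    obtain ⟨i, hi⟩ := exists_avoid le bb hfin (fun i => blk (i, j i)) hinj C hC L A hLA
    refine ⟨_, hLb _ _ _ hLA, hbA _ _ _ hLA, hi, ?_⟩
    rcases hj i with ⟨o, h1, h2⟩ | ⟨o, h1, h2⟩
    · refine ⟨⟨fun _ => ⟨o, h1⟩, fun _ => ⟨o, h2⟩⟩, fun _ => ?_, fun h => absurd ⟨o, h1⟩ h⟩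
      rw [hrk _ _ h1, hrk _ _ h2]
    · refine ⟨⟨fun h => (hnb _ h ⟨o, h2⟩).elim, fun h => (hnb _ h ⟨o, h1⟩).elim⟩,
        fun h => (hnb _ h ⟨o, h1⟩).elim, fun _ => ?_⟩
      rw [hrk _ _ h1, hrk _ _ h2]
  · intro L A a hLA hL hA C hC
    have hex : ∀ i : ℕ → Bool, ∃ j, ∃ ρ, (bb (blk (i, j)) L A, ρ) ∈ P ∧ rk a < ρ := by
      intro i
      rcases ((hd (L, A, a, i)).2 hLA).2 with h1 | h1 | ⟨j, ρ, h1, h2, h3⟩
      · exact (hnb _ hL h1).elim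
      · exact absurd h1 hA
      · refine ⟨j, ρ, h1, ?_⟩
        by_cases ha : dom1 P a
        · rcases h3 with ⟨o, h4, h5⟩ | h4
          · rw [hrk _ _ h4]
            exact h5
          · exact (hnb _ ha h4).elim
        · rw [hrk' _ ha]
          exact h2
    choose j ρ hj1 hj2 using hex
    have hinj : Function.Injective (fun i => blk (i, j i)) := by
      intro i i' h
      have := blk.injective h
      exact (Prod.ext_iff.1 this).1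
    obtain ⟨i, hi⟩ := exists_avoid le bb hfin (fun i => blk (i, j i)) hinj C hC L A hLA
    refine ⟨_, hLb _ _ _ hLA, hbA _ _ _ hLA, hi, ⟨ρ i, hj1 i⟩, ?_⟩
    rw [hrk _ _ (hj1 i)]
    exact hj2 i

end

end Crest.Agent.IMX.P1
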