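/-
S0074, Phase 2 (Theorem C of helper55's proof): the coarse sign function.
Abstract over Phase 1 and over the recursion lemma.  (helper8)
-/
import Mathlib
import Crest.Agent.IMX_RecC

set_option autoImplicit false
open Cardinal Set

namespace Crest.Agent.IMX

/-- `B` (between `L` and `A`) is generic over the family `C`. -/
def Gen {V : Type} (le : Set V → Set V → Prop) (C : Set (Set V)) (L A B : Set V) : Prop :=
  ∀ Z ∈ C, (le Z B → le Z L) ∧ (le B Z → le A Z)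

/-- The output of Phase 1. -/
structure PhOne {V : Type} {K : Type*} [LinearOrder K] (le : Set V → Set V → Prop)
    (Neg : Set V → Prop) (rk : Set V → K) : Prop where
  refl : ∀ X, le X X
  trans : ∀ X Y Z, le X Y → le Y Z → le X Z
  sub : ∀ X Y, X ⊆ Y → le X Y
  compl : ∀ X Y, le X Y → le Yᶜ Xᶜ
  N1 : ∀ X, Neg Xᶜ ↔ ¬ Neg X
  N2 : ∀ X Y, le X Y → Neg Y → Neg X ∧ rk X ≤ rk Y
  R1 : ∀ L A : Set V, L ⊆ A → ∀ C : Set (Set V), #C < 𝔠 →
    ∃ B, L ⊆ B ∧ B ⊆ A ∧ Gen le C L A B ∧ (Neg L → Neg B ∧ rk B = rk L) ∧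
      (¬ Neg L → ¬ Neg B ∧ rk Bᶜ = rk Lᶜ)
  R2 : ∀ L A a : Set V, L ⊆ A → Neg L → ¬ Neg A → Neg a → ∀ C : Set (Set V), #C < 𝔠 →
    ∃ B, L ⊆ B ∧ B ⊆ A ∧ Gen le C L A B ∧ Neg B ∧ rk a < rk B

namespace PhTwo

section

variable {V : Type} {K : Type*} [LinearOrder K] {le : Set V → Set V → Prop}
  {Neg : Set V → Prop} {rk : Set V → K}

abbrev ZZ (V : Type) := Set V × Set V

def cp (z : ZZ V) : ZZ V := (z.1ᶜ, z.2ᶜ)

@[simp] theorem cp_cp (z : ZZ V) : cp (cp z) = z := by simp [cp]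

def le2 (le : Set V → Set V → Prop) (z z' : ZZ V) : Prop := le z.1 z'.1 ∧ le z.2 z'.2

def sub2 (z z' : ZZ V) : Prop := z.1 ⊆ z'.1 ∧ z.2 ⊆ z'.2

def RL (Neg : Set V → Prop) (rk : Set V → K) (z : ZZ V) : Prop :=
  Neg z.1 ∧ ¬ (¬ Neg z.2 ∧ rk z.2ᶜ < rk z.1)

def RH (Neg : Set V → Prop) (rk : Set V → K) (z : ZZ V) : Prop := RL Neg rk (cp z)

def UD (Neg : Set V → Prop) (rk : Set V → K) (z : ZZ V) : Prop :=
  ¬ RL Neg rk z ∧ ¬ RH Neg rk z

theorem UD_cp {z : ZZ V} (h : UD Neg rk z) : UD Neg rk (cp z) := by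
  unfold UD RH at *
  simp only [cp_cp]
  exact ⟨h.2, h.1⟩

variable (H : PhOne le Neg rk)

set_option linter.unusedSectionVars false

include H

theorem neg_compl_of_not {X : Set V} (h : ¬ Neg X) : Neg Xᶜ := (H.N1 X).2 h

theorem not_neg_compl_of {X : Set V} (h : Neg X) : ¬ Neg Xᶜ := fun h' => (H.N1 X).1 h' h

theorem UD_iff (z : ZZ V) : UD Neg rk z ↔
    (Neg z.1 ∧ ¬ Neg z.2 ∧ rk z.2ᶜ < rk z.1) ∨ (¬ Neg z.1 ∧ Neg z.2 ∧ rk z.2 < rk z.1ᶜ) := by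
  unfold UD RH RL cp
  have h1 := H.N1 z.1
  have h2 := H.N1 z.2
  simp only [compl_compl]
  by_cases a : Neg z.1 <;> by_cases b : Neg z.2 <;> simp [a, b, h1, h2]

theorem le2_refl (z : ZZ V) : le2 le z z := ⟨H.refl _, H.refl _⟩

theorem le2_trans {a b c : ZZ V} (h1 : le2 le a b) (h2 : le2 le b c) : le2 le a c :=
  ⟨H.trans _ _ _ h1.1 h2.1, H.trans _ _ _ h1.2 h2.2⟩

theorem le2_cp {a b : ZZ V} (h : le2 le a b) : le2 le (cp b) (cp a) :=
  ⟨H.compl _ _ h.1, H.compl _ _ h.2⟩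

theorem le2_cp' {a b : ZZ V} (h : le2 le a (cp b)) : le2 le b (cp a) := by
  have := le2_cp H h
  simpa using this

theorem le2_cp'' {a b : ZZ V} (h : le2 le (cp a) b) : le2 le (cp b) a := by
  have := le2_cp H h
  simpa using this

theorem sub2_le {a b : ZZ V} (h : sub2 a b) : le2 le a b := ⟨H.sub _ _ h.1, H.sub _ _ h.2⟩

theorem RL_down {a b : ZZ V} (h : le2 le a b) (hb : RL Neg rk b) : RL Neg rk a := by
  obtain ⟨hb1, hb2⟩ := hb
  have hn := H.N2 _ _ h.1 hb1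
  refine ⟨hn.1, ?_⟩
  rintro ⟨h3, h4⟩
  apply hb2
  have hc := H.compl _ _ h.2
  have hna : Neg a.2ᶜ := neg_compl_of_not H h3
  have h5 := H.N2 _ _ hc hna
  refine ⟨(H.N1 _).1 h5.1, ?_⟩
  exact lt_of_le_of_lt h5.2 (lt_of_lt_of_le h4 hn.2)

theorem RH_up {a b : ZZ V} (h : le2 le a b) (ha : RH Neg rk a) : RH Neg rk b :=
  RL_down H (le2_cp H h) ha

theorem not_RL_RH {a : ZZ V} (h : RL Neg rk a) (h' : RH Neg rk a) : False :=
  not_neg_compl_of H h.1 h'.1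

theorem UD_not_le_cp {z : ZZ V} (h : UD Neg rk z) : ¬ le2 le z (cp z) := by
  rintro ⟨h1, h2⟩
  have key : ∀ X : Set V, le X Xᶜ → Neg X := by
    intro X hX
    by_contra hc
    exact hc (H.N2 _ _ hX (neg_compl_of_not H hc)).1
  have a1 := key _ h1
  have a2 := key _ h2
  rcases (UD_iff H z).1 h with h | h
  · exact h.2.1 a2
  · exact h.1 a1

theorem UD_not_cp_le {z : ZZ V} (h : UD Neg rk z) : ¬ le2 le (cp z) z := by
  intro h'
  have := UD_not_le_cp H (UD_cp h)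
  rw [cp_cp] at this
  exact this h'

omit H in
/-- Good sets of facts. -/
structure Good (le : Set V → Set V → Prop) (Neg : Set V → Prop) (rk : Set V → K)
    (P : Set (ZZ V × ℤ)) : Prop where
  ud : ∀ f ∈ P, UD Neg rk f.1
  cpl : ∀ f ∈ P, ((cp f.1, -f.2) : ZZ V × ℤ) ∈ P
  mono : ∀ f ∈ P, ∀ f' ∈ P, le2 le f.1 f'.1 → f.2 ≤ f'.2
  zero : ∀ f ∈ P, ∀ f' ∈ P, f.2 = 0 → f'.2 = 0 → le2 le f.1 f'.1 → le2 le f'.1 f.1
  rng : ∀ f ∈ P, f.2 = -1 ∨ f.2 = 0 ∨ f.2 = 1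

theorem Good.add {P : Set (ZZ V × ℤ)} (hP : Good le Neg rk P) {z : ZZ V} {σ : ℤ}
    (hz : UD Neg rk z) (hσ : σ = -1 ∨ σ = 0 ∨ σ = 1)
    (a1 : ∀ f ∈ P, le2 le z f.1 → σ ≤ f.2 ∧ (σ = 0 → f.2 = 0 → le2 le f.1 z))
    (a2 : ∀ f ∈ P, le2 le f.1 z → f.2 ≤ σ ∧ (σ = 0 → f.2 = 0 → le2 le z f.1)) :
    Good le Neg rk (P ∪ {(z, σ), (cp z, -σ)}) := by
  have n1 := UD_not_le_cp H hz
  have n2 := UD_not_cp_le H hz
  refine ⟨?_, ?_, ?_, ?_, ?_⟩
  · rintro f (hf | hf | hf)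
    · exact hP.ud f hf
    · rw [hf]; exact hz
    · rw [Set.mem_singleton_iff] at hf; rw [hf]; exact UD_cp hz
  · rintro f (hf | hf | hf)
    · exact Or.inl (hP.cpl f hf)
    · rw [hf]; exact Or.inr (Or.inr rfl)
    · rw [Set.mem_singleton_iff] at hf; rw [hf]; simp
  · rintro f (hf | hf | hf) f' (hf' | hf' | hf') hl
    · exact hP.mono f hf f' hf' hl
    · rw [hf'] at hl ⊢; exact (a2 f hf hl).1
    · rw [Set.mem_singleton_iff] at hf'
      rw [hf'] at hl ⊢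
      have := (a1 _ (hP.cpl f hf) (le2_cp' H hl)).1
      simp only at this ⊢; omega
    · rw [hf] at hl ⊢; exact (a1 f' hf' hl).1
    · rw [hf, hf']
    · rw [Set.mem_singleton_iff] at hf'
      rw [hf, hf'] at hl
      exact absurd hl n1
    · rw [Set.mem_singleton_iff] at hf
      rw [hf] at hl ⊢
      have := (a2 _ (hP.cpl f' hf') (le2_cp'' H hl)).1
      simp only at this ⊢; omega
    · rw [Set.mem_singleton_iff] at hf
      rw [hf, hf'] at hl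
      exact absurd hl n2
    · rw [Set.mem_singleton_iff] at hf hf'
      rw [hf, hf']
  · rintro f (hf | hf | hf) f' (hf' | hf' | hf') h0 h0' hl
    · exact hP.zero f hf f' hf' h0 h0' hl
    · rw [hf'] at hl h0' ⊢; exact (a2 f hf hl).2 h0' h0
    · rw [Set.mem_singleton_iff] at hf'
      rw [hf'] at hl h0' ⊢
      have := (a1 _ (hP.cpl f hf) (le2_cp' H hl)).2 (by simpa using h0') (by simpa using h0)
      exact le2_cp'' H this
    · rw [hf] at hl h0 ⊢; exact (a1 f' hf' hl).2 h0 h0'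
    · rw [hf, hf']; exact le2_refl H _
    · rw [Set.mem_singleton_iff] at hf'
      rw [hf, hf'] at hl
      exact absurd hl n1
    · rw [Set.mem_singleton_iff] at hf
      rw [hf] at hl h0 ⊢
      have := (a2 _ (hP.cpl f' hf') (le2_cp'' H hl)).2 (by simpa using h0) (by simpa using h0')
      exact le2_cp' H this
    · rw [Set.mem_singleton_iff] at hf
      rw [hf, hf'] at hl
      exact absurd hl n2
    · rw [Set.mem_singleton_iff] at hf hf'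
      rw [hf, hf']; exact le2_refl H _
  · rintro f (hf | hf | hf)
    · exact hP.rng f hf
    · rw [hf]; exact hσ
    · rw [Set.mem_singleton_iff] at hf; rw [hf]; simp only; omega

/-- DECIDE. -/
theorem Good.decide {P : Set (ZZ V × ℤ)} (hP : Good le Neg rk P) {z : ZZ V}
    (hz : UD Neg rk z) : ∃ σ : ℤ, Good le Neg rk (P ∪ {(z, σ), (cp z, -σ)}) := by
  by_cases c1 : ∃ f ∈ P, le2 le z f.1 ∧ le2 le f.1 z
  · obtain ⟨f, hf, h1, h2⟩ := c1
    refine ⟨f.2, hP.add H hz (hP.rng f hf) ?_ ?_⟩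
    · intro g hg hzg
      have hfg := le2_trans H h2 hzg
      refine ⟨hP.mono f hf g hg hfg, fun e1 e2 => ?_⟩
      exact le2_trans H (hP.zero f hf g hg e1 e2 hfg) h2
    · intro g hg hgz
      have hgf := le2_trans H hgz h1
      refine ⟨hP.mono g hg f hf hgf, fun e1 e2 => ?_⟩
      exact le2_trans H h1 (hP.zero g hg f hf e2 e1 hgf)
  by_cases c2 : ∃ f ∈ P, 0 ≤ f.2 ∧ le2 le f.1 z
  · obtain ⟨f, hf, h0, h1⟩ := c2
    refine ⟨1, hP.add H hz (Or.inr (Or.inr rfl)) ?_ ?_⟩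
    · intro g hg hzg
      have hfg := le2_trans H h1 hzg
      have hm := hP.mono f hf g hg hfg
      refine ⟨?_, fun e => absurd e one_ne_zero⟩
      by_contra hlt
      have hg0 : g.2 = 0 := by omega
      have hf0 : f.2 = 0 := by omega
      exact c1 ⟨g, hg, hzg, le2_trans H (hP.zero f hf g hg hf0 hg0 hfg) h1⟩
    · intro g hg hgz
      refine ⟨?_, fun e => absurd e one_ne_zero⟩
      rcases hP.rng g hg with h | h | h <;> omega
  by_cases c3 : ∃ f ∈ P, f.2 ≤ 0 ∧ le2 le z f.1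
  · obtain ⟨f, hf, h0, h1⟩ := c3
    refine ⟨-1, hP.add H hz (Or.inl rfl) ?_ ?_⟩
    · intro g hg hzg
      refine ⟨?_, fun e => absurd e (by norm_num)⟩
      rcases hP.rng g hg with h | h | h <;> omega
    · intro g hg hgz
      refine ⟨?_, fun e => absurd e (by norm_num)⟩
      by_contra hlt
      apply c2
      refine ⟨g, hg, ?_, hgz⟩
      rcases hP.rng g hg with h | h | h <;> omega
  · refine ⟨1, hP.add H hz (Or.inr (Or.inr rfl)) ?_ ?_⟩
    · intro g hg hzg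
      refine ⟨?_, fun e => absurd e one_ne_zero⟩
      by_contra hlt
      apply c3
      exact ⟨g, hg, by omega, hzg⟩
    · intro g hg hgz
      refine ⟨?_, fun e => absurd e one_ne_zero⟩
      rcases hP.rng g hg with h | h | h <;> omega

/-- case c of STEP. -/
theorem step_c {l h : ZZ V} (hlh : sub2 l h) (C1 C2 : Set (Set V)) (hC1 : #C1 < 𝔠)
    (hC2 : #C2 < 𝔠) (hl : UD Neg rk l) (hn : ¬ Neg l.1) :
    ∃ b : ZZ V, sub2 l b ∧ sub2 b h ∧ Gen le C1 l.1 h.1 b.1 ∧ Gen le C2 l.2 h.2 b.2 ∧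
      UD Neg rk b := by
  rcases (UD_iff H l).1 hl with h' | h'
  · exact absurd h'.1 hn
  obtain ⟨B1, b1, b2, b3, -, b5⟩ := H.R1 l.1 h.1 hlh.1 C1 hC1
  obtain ⟨B2, c1, c2, c3, c4, -⟩ := H.R1 l.2 h.2 hlh.2 C2 hC2
  refine ⟨(B1, B2), ⟨b1, c1⟩, ⟨b2, c2⟩, b3, c3, ?_⟩
  rw [UD_iff H]
  right
  refine ⟨(b5 hn).1, (c4 h'.2.1).1, ?_⟩
  rw [(b5 hn).2, (c4 h'.2.1).2]
  exact h'.2.2

omit H in
theorem Gen_compl_mk {C : Set (Set V)} : #((fun Z : Set V => Zᶜ) '' C) ≤ #C := Cardinal.mk_image_le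

theorem Gen_compl {C : Set (Set V)} {L A B : Set V}
    (h : Gen le ((fun Z : Set V => Zᶜ) '' C) Aᶜ Lᶜ B) : Gen le C L A Bᶜ := by
  intro Z hZ
  obtain ⟨h1, h2⟩ := h Zᶜ ⟨Z, hZ, rfl⟩
  constructor
  · intro hz
    have e1 : le B Zᶜ := by
      have := H.compl _ _ hz
      rwa [compl_compl] at this
    have := H.compl _ _ (h2 e1)
    rwa [compl_compl, compl_compl] at this
  · intro hz
    have e1 : le Zᶜ B := by
      have := H.compl _ _ hz
      rwa [compl_compl] at this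
    have := H.compl _ _ (h1 e1)
    rwa [compl_compl, compl_compl] at this

/-- existence of the generic undecided pair between `l` and `h`. -/
theorem exists_mid {l h : ZZ V} (hlh : sub2 l h) (C1 C2 : Set (Set V)) (hC1 : #C1 < 𝔠)
    (hC2 : #C2 < 𝔠) (hl : RL Neg rk l ∨ UD Neg rk l) (hh : RH Neg rk h ∨ UD Neg rk h) :
    ∃ b : ZZ V, sub2 l b ∧ sub2 b h ∧ Gen le C1 l.1 h.1 b.1 ∧ Gen le C2 l.2 h.2 b.2 ∧
      UD Neg rk b := by
  have hC1' : #((fun Z : Set V => Zᶜ) '' C1) < 𝔠 := lt_of_le_of_lt Gen_compl_mk hC1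
  have hC2' : #((fun Z : Set V => Zᶜ) '' C2) < 𝔠 := lt_of_le_of_lt Gen_compl_mk hC2
  by_cases nl : Neg l.1
  · by_cases nh : Neg h.1
    · -- case b
      have hud : UD Neg rk h := by
        rcases hh with hh | hh
        · exact absurd nh (fun hc => not_neg_compl_of H hc hh.1)
        · exact hh
      have hs : sub2 (cp h) (cp l) :=
        ⟨Set.compl_subset_compl.2 hlh.1, Set.compl_subset_compl.2 hlh.2⟩
      obtain ⟨b, s1, s2, g1, g2, u⟩ := step_c H hs _ _ hC1' hC2' (UD_cp hud)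
        (not_neg_compl_of H nh)
      refine ⟨cp b, ⟨?_, ?_⟩, ⟨?_, ?_⟩, Gen_compl H g1, Gen_compl H g2, UD_cp u⟩
      · exact Set.subset_compl_comm.1 s2.1
      · exact Set.subset_compl_comm.1 s2.2
      · exact Set.compl_subset_comm.1 s1.1
      · exact Set.compl_subset_comm.1 s1.2
    · -- case a
      obtain ⟨B2, c1, c2, c3, c4, c5⟩ := H.R1 l.2 h.2 hlh.2 C2 hC2
      by_cases nk : Neg l.2
      · obtain ⟨B, d1, d2, d3, d4, d5⟩ := H.R2 h.1ᶜ l.1ᶜ B2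
          (Set.compl_subset_compl.2 hlh.1) (neg_compl_of_not H nh) (not_neg_compl_of H nl) (c4 nk).1 _
          hC1'
        refine ⟨(Bᶜ, B2), ⟨Set.subset_compl_comm.1 d2, c1⟩, ⟨Set.compl_subset_comm.1 d1, c2⟩,
          Gen_compl H d3, c3, ?_⟩
        rw [UD_iff H]
        right
        refine ⟨not_neg_compl_of H d4, (c4 nk).1, ?_⟩
        simpa using d5
      · obtain ⟨B, d1, d2, d3, d4, d5⟩ := H.R2 l.1 h.1 B2ᶜ hlh.1 nl nh
          (neg_compl_of_not H (c5 nk).1) _ hC1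
        refine ⟨(B, B2), ⟨d1, c1⟩, ⟨d2, c2⟩, d3, c3, ?_⟩
        rw [UD_iff H]
        left
        exact ⟨d4, (c5 nk).1, d5⟩
  · -- case c
    have lud : UD Neg rk l := by
      rcases hl with hl | hl
      · exact absurd hl.1 nl
      · exact hl
    exact step_c H hlh C1 C2 hC1 hC2 lud nl

/-- STEP. -/
theorem Good.step {P : Set (ZZ V × ℤ)} (hP : Good le Neg rk P) (hc : #P < 𝔠) {l h : ZZ V}
    (hlh : sub2 l h) (hl : RL Neg rk l ∨ ((l, -1) : ZZ V × ℤ) ∈ P)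
    (hh : RH Neg rk h ∨ ((h, 1) : ZZ V × ℤ) ∈ P) :
    ∃ b : ZZ V, sub2 l b ∧ sub2 b h ∧ Good le Neg rk (P ∪ {(b, 0), (cp b, -0)}) := by
  have hC1 : #((fun f : ZZ V × ℤ => f.1.1) '' P) < 𝔠 := lt_of_le_of_lt Cardinal.mk_image_le hc
  have hC2 : #((fun f : ZZ V × ℤ => f.1.2) '' P) < 𝔠 := lt_of_le_of_lt Cardinal.mk_image_le hc
  obtain ⟨b, s1, s2, g1, g2, u⟩ := exists_mid H hlh _ _ hC1 hC2
    (hl.imp id (fun h => hP.ud _ h)) (hh.imp id (fun h => hP.ud _ h))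
  refine ⟨b, s1, s2, hP.add H u (Or.inr (Or.inl rfl)) ?_ ?_⟩
  · intro f hf hbf
    have hhf : le2 le h f.1 := ⟨(g1 _ ⟨f, hf, rfl⟩).2 hbf.1, (g2 _ ⟨f, hf, rfl⟩).2 hbf.2⟩
    have : 1 ≤ f.2 := by
      rcases hh with hh | hh
      · exact absurd (RH_up H hhf hh) (hP.ud f hf).2
      · exact hP.mono _ hh f hf hhf
    exact ⟨by omega, fun _ e => by omega⟩
  · intro f hf hfb
    have hhf : le2 le f.1 l := ⟨(g1 _ ⟨f, hf, rfl⟩).1 hfb.1, (g2 _ ⟨f, hf, rfl⟩).1 hfb.2⟩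
    have : f.2 ≤ -1 := by
      rcases hl with hl | hl
      · exact absurd (RL_down H hhf hl) (hP.ud f hf).1
      · exact hP.mono f hf _ hl hhf
    exact ⟨by omega, fun _ e => by omega⟩

omit H in
def Done (Neg : Set V → Prop) (rk : Set V → K) :
    (ZZ V ⊕ (ZZ V × ZZ V)) → Set (ZZ V × ℤ) → Prop
  | Sum.inl z, P => UD Neg rk z → ∃ σ : ℤ, (z, σ) ∈ P
  | Sum.inr (l, h), P => sub2 l h → ((∃ σ : ℤ, σ ≠ -1 ∧ (l, σ) ∈ P) ∨ RH Neg rk l ∨
      (∃ σ : ℤ, σ ≠ 1 ∧ (h, σ) ∈ P) ∨ RL Neg rk h ∨ ∃ b, sub2 l b ∧ sub2 b h ∧ (b, 0) ∈ P)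

omit H in
theorem Done_mono (t : ZZ V ⊕ (ZZ V × ZZ V)) {P Q : Set (ZZ V × ℤ)} (h : P ⊆ Q)
    (hd : Done Neg rk t P) : Done Neg rk t Q := by
  rcases t with z | ⟨l, k⟩
  · intro hz
    obtain ⟨σ, hσ⟩ := hd hz
    exact ⟨σ, h hσ⟩
  · intro hs
    rcases hd hs with ⟨σ, h1, h2⟩ | h' | ⟨σ, h1, h2⟩ | h' | ⟨b, h1, h2, h3⟩
    · exact Or.inl ⟨σ, h1, h h2⟩
    · exact Or.inr (Or.inl h')
    · exact Or.inr (Or.inr (Or.inl ⟨σ, h1, h h2⟩))
    · exact Or.inr (Or.inr (Or.inr (Or.inl h')))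
    · exact Or.inr (Or.inr (Or.inr (Or.inr ⟨b, h1, h2, h h3⟩)))

theorem decide' {P : Set (ZZ V × ℤ)} (hP : Good le Neg rk P) (z : ZZ V) :
    ∃ Q, P ⊆ Q ∧ Good le Neg rk Q ∧ (Q \ P).Countable ∧
      (UD Neg rk z → ∃ σ : ℤ, (z, σ) ∈ Q) := by
  by_cases hz : UD Neg rk z
  · obtain ⟨σ, hσ⟩ := hP.decide H hz
    refine ⟨_, Set.subset_union_left, hσ, ?_, fun _ => ⟨σ, ?_⟩⟩
    · apply Set.Countable.mono (s₂ := {(z, σ), (cp z, -σ)})
      · rintro x ⟨hx | hx, hx'⟩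
        · exact absurd hx hx'
        · exact hx
      · exact (Set.Finite.insert _ (Set.finite_singleton _)).countable
    · exact Or.inr (Or.inl rfl)
  · exact ⟨P, le_rfl, hP, by simp, fun h => absurd h hz⟩

theorem mk_lt_of_diff {P Q : Set (ZZ V × ℤ)} (hPQ : P ⊆ Q) (hc : #P < 𝔠)
    (hd : (Q \ P).Countable) : #Q < 𝔠 := by
  have h1 : Q = P ∪ (Q \ P) := by
    rw [Set.union_sdiff_cancel hPQ]
  rw [h1]
  refine lt_of_le_of_lt (Cardinal.mk_union_le _ _) ?_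
  refine Cardinal.add_lt_of_lt Cardinal.aleph0_le_continuum hc ?_
  exact lt_of_le_of_lt (Cardinal.le_aleph0_iff_set_countable.2 hd) Cardinal.aleph0_lt_continuum

theorem hstep {P : Set (ZZ V × ℤ)} (hP : Good le Neg rk P) (hc : #P < 𝔠)
    (t : ZZ V ⊕ (ZZ V × ZZ V)) :
    ∃ Q, P ⊆ Q ∧ Good le Neg rk Q ∧ (Q \ P).Countable ∧ Done Neg rk t Q := by
  rcases t with z | ⟨l, h⟩
  · exact decide' H hP z
  obtain ⟨Q1, p1, g1, d1, e1⟩ := decide' H hP l
  obtain ⟨Q2, p2, g2, d2, e2⟩ := decide' H g1 h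
  have hc1 := mk_lt_of_diff H p1 hc d1
  have hc2 := mk_lt_of_diff H p2 hc1 d2
  have hcount : (Q2 \ P).Countable := by
    apply (d1.union d2).mono
    rintro x ⟨hx, hx'⟩
    by_cases hx1 : x ∈ Q1
    · exact Or.inl ⟨hx1, hx'⟩
    · exact Or.inr ⟨hx, hx1⟩
  by_cases hs : sub2 l h
  swap
  · exact ⟨Q2, p1.trans p2, g2, hcount, fun h' => absurd h' hs⟩
  by_cases k1 : RL Neg rk l ∨ ((l, -1) : ZZ V × ℤ) ∈ Q2
  · by_cases k2 : RH Neg rk h ∨ ((h, 1) : ZZ V × ℤ) ∈ Q2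
    · obtain ⟨b, s1, s2, gb⟩ := g2.step H hc2 hs k1 k2
      refine ⟨_, (p1.trans p2).trans Set.subset_union_left, gb, ?_, fun _ => ?_⟩
      · have hfin : ({(b, 0), (cp b, -0)} : Set (ZZ V × ℤ)).Countable :=
          (Set.Finite.insert _ (Set.finite_singleton _)).countable
        apply (hcount.union hfin).mono
        rintro x ⟨hx | hx, hx'⟩
        · exact Or.inl ⟨hx, hx'⟩
        · exact Or.inr hx
      · right; right; right; right
        exact ⟨b, s1, s2, Or.inr (Or.inl rfl)⟩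
    · refine ⟨Q2, p1.trans p2, g2, hcount, fun _ => ?_⟩
      push Not at k2
      by_cases hRL : RL Neg rk h
      · right; right; right; left; exact hRL
      · right; right; left
        obtain ⟨σ, hσ⟩ := e2 ⟨hRL, k2.1⟩
        refine ⟨σ, ?_, hσ⟩
        rintro rfl
        exact k2.2 hσ
  · refine ⟨Q2, p1.trans p2, g2, hcount, fun _ => ?_⟩
    push Not at k1
    by_cases hRH : RH Neg rk l
    · right; left; exact hRH
    · left
      obtain ⟨σ, hσ⟩ := e1 ⟨k1.1, hRH⟩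
      refine ⟨σ, ?_, p2 hσ⟩
      rintro rfl
      exact k1.2 (p2 hσ)

theorem hchain (C : Set (Set (ZZ V × ℤ))) (hC : IsChain (· ⊆ ·) C)
    (hG : ∀ P ∈ C, Good le Neg rk P) : Good le Neg rk (⋃₀ C) := by
  have two : ∀ f ∈ ⋃₀ C, ∀ f' ∈ ⋃₀ C, ∃ P ∈ C, f ∈ P ∧ f' ∈ P := by
    rintro f ⟨P, hP, hf⟩ f' ⟨P', hP', hf'⟩
    rcases hC.total hP hP' with h | h
    · exact ⟨P', hP', h hf, hf'⟩
    · exact ⟨P, hP, hf, h hf'⟩
  refine ⟨?_, ?_, ?_, ?_, ?_⟩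
  · rintro f ⟨P, hP, hf⟩; exact (hG P hP).ud f hf
  · rintro f ⟨P, hP, hf⟩; exact ⟨P, hP, (hG P hP).cpl f hf⟩
  · intro f hf f' hf' hl
    obtain ⟨P, hP, h1, h2⟩ := two f hf f' hf'
    exact (hG P hP).mono f h1 f' h2 hl
  · intro f hf f' hf' e1 e2 hl
    obtain ⟨P, hP, h1, h2⟩ := two f hf f' hf'
    exact (hG P hP).zero f h1 f' h2 e1 e2 hl
  · rintro f ⟨P, hP, hf⟩; exact (hG P hP).rng f hf

omit H in
theorem Good.empty : Good le Neg rk (∅ : Set (ZZ V × ℤ)) := by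
  refine ⟨?_, ?_, ?_, ?_, ?_⟩ <;> simp

/-- From a complete good set to the sign function on pairs. -/
theorem sign_of_complete {P : Set (ZZ V × ℤ)} (hP : Good le Neg rk P)
    (hD : ∀ t, Done Neg rk t P) :
    ∃ s : ZZ V → ℤ, (∀ z, s z = -1 ∨ s z = 0 ∨ s z = 1) ∧
      (∀ z z', le2 le z z' → s z ≤ s z') ∧ (∀ z, s (cp z) = - s z) ∧
      (∀ z z', s z = 0 → s z' = 0 → le2 le z z' → le2 le z' z) ∧
      (∀ l h, sub2 l h → s l = -1 → s h = 1 → ∃ b, sub2 l b ∧ sub2 b h ∧ s b = 0) ∧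
      (∀ z, Neg z.1 → 0 ≤ s z → ¬ Neg z.2 ∧ rk z.2ᶜ < rk z.1) := by
  classical
  have hdec : ∀ z, UD Neg rk z → ∃ σ : ℤ, (z, σ) ∈ P := fun z => hD (Sum.inl z)
  let s : ZZ V → ℤ := fun z => if RL Neg rk z then -1 else if RH Neg rk z then 1 else
    if h : UD Neg rk z then (hdec z h).choose else 0
  have sRL : ∀ z, RL Neg rk z → s z = -1 := fun z hz => by simp only [s, if_pos hz]
  have sRH : ∀ z, RH Neg rk z → s z = 1 := fun z hz => by
    have : ¬ RL Neg rk z := fun h => not_RL_RH H h hz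
    simp only [s, if_neg this, if_pos hz]
  have sUD : ∀ z, UD Neg rk z → (z, s z) ∈ P := fun z hz => by
    have := (hdec z hz).choose_spec
    simp only [s, if_neg hz.1, if_neg hz.2, dif_pos hz]
    exact this
  have uniq : ∀ z σ, ((z, σ) : ZZ V × ℤ) ∈ P → s z = σ := by
    intro z σ h
    have h' := sUD z (hP.ud _ h)
    exact le_antisymm (hP.mono _ h' _ h (le2_refl H _)) (hP.mono _ h _ h' (le2_refl H _))
  have tri : ∀ z, RL Neg rk z ∨ RH Neg rk z ∨ UD Neg rk z := by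
    intro z
    unfold UD
    tauto
  have rng : ∀ z, s z = -1 ∨ s z = 0 ∨ s z = 1 := by
    intro z
    rcases tri z with h | h | h
    · exact Or.inl (sRL z h)
    · exact Or.inr (Or.inr (sRH z h))
    · exact hP.rng _ (sUD z h)
  refine ⟨s, rng, ?_, ?_, ?_, ?_, ?_⟩
  · intro z z' hzz
    rcases tri z with h | h | h
    · rw [sRL z h]
      rcases rng z' with h | h | h <;> omega
    · rw [sRH z h, sRH z' (RH_up H hzz h)]
    · rcases tri z' with h' | h' | h'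
      · exact absurd (RL_down H hzz h') h.1
      · rw [sRH z' h']
        rcases rng z with h | h | h <;> omega
      · exact hP.mono _ (sUD z h) _ (sUD z' h') hzz
  · intro z
    rcases tri z with h | h | h
    · have h2 : RH Neg rk (cp z) := by unfold RH; rwa [cp_cp]
      rw [sRL z h, sRH _ h2]; norm_num
    · rw [sRH z h, sRL _ h]
    · exact uniq _ _ (hP.cpl _ (sUD z h))
  · intro z z' e1 e2 hzz
    have hz : UD Neg rk z := by
      rcases tri z with h | h | h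
      · rw [sRL z h] at e1; omega
      · rw [sRH z h] at e1; omega
      · exact h
    have hz' : UD Neg rk z' := by
      rcases tri z' with h | h | h
      · rw [sRL z' h] at e2; omega
      · rw [sRH z' h] at e2; omega
      · exact h
    exact hP.zero _ (sUD z hz) _ (sUD z' hz') e1 e2 hzz
  · intro l h hs e1 e2
    rcases hD (Sum.inr (l, h)) hs with ⟨σ, h1, h2⟩ | h' | ⟨σ, h1, h2⟩ | h' | ⟨b, h1, h2, h3⟩
    · rw [uniq _ _ h2] at e1; exact absurd e1 h1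
    · rw [sRH _ h'] at e1; omega
    · rw [uniq _ _ h2] at e2; exact absurd e2 h1
    · rw [sRL _ h'] at e2; omega
    · exact ⟨b, h1, h2, uniq _ _ h3⟩
  · intro z hz h0
    by_contra hc
    have : RL Neg rk z := ⟨hz, hc⟩
    rw [sRL z this] at h0
    omega

/-- **Phase 2** (pairs): the coarse sign function. -/
theorem exists_sign (hV : #(Set V) ≤ 𝔠) :
    ∃ s : ZZ V → ℤ, (∀ z, s z = -1 ∨ s z = 0 ∨ s z = 1) ∧
      (∀ z z', le2 le z z' → s z ≤ s z') ∧ (∀ z, s (cp z) = - s z) ∧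
      (∀ z z', s z = 0 → s z' = 0 → le2 le z z' → le2 le z' z) ∧
      (∀ l h, sub2 l h → s l = -1 → s h = 1 → ∃ b, sub2 l b ∧ sub2 b h ∧ s b = 0) ∧
      (∀ z, Neg z.1 → 0 ≤ s z → ¬ Neg z.2 ∧ rk z.2ᶜ < rk z.1) := by
  have hZZ : #(ZZ V) ≤ 𝔠 := by
    rw [Cardinal.mk_prod]; simp only [Cardinal.lift_id]
    calc #(Set V) * #(Set V) ≤ 𝔠 * 𝔠 := mul_le_mul' hV hV
      _ = 𝔠 := Cardinal.continuum_mul_self
  have hZZ2 : #(ZZ V × ZZ V) ≤ 𝔠 := by
    rw [Cardinal.mk_prod]; simp only [Cardinal.lift_id]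
    calc #(ZZ V) * #(ZZ V) ≤ 𝔠 * 𝔠 := mul_le_mul' hZZ hZZ
      _ = 𝔠 := Cardinal.continuum_mul_self
  have hT : #(ZZ V ⊕ (ZZ V × ZZ V)) ≤ 𝔠 := by
    rw [Cardinal.mk_sum]; simp only [Cardinal.lift_id]
    calc #(ZZ V) + #(ZZ V × ZZ V) ≤ 𝔠 + 𝔠 := add_le_add hZZ hZZ2
      _ = 𝔠 := Cardinal.continuum_add_self
  obtain ⟨P, -, hP, hD⟩ := recursion_c hT (Good le Neg rk) (Done Neg rk)
    (fun t P Q h hd => Done_mono t h hd)
    (fun C _ hC hG => hchain H C hC hG) ∅ Good.empty (by simp)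
    (fun P _ hP hc t => hstep H hP hc t)
  exact sign_of_complete H hP hD

end

end PhTwo

end Crest.Agent.IMX
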