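import Mathlib
import Crest.Agent.IMX_P1
import Crest.Agent.IMX_PhTwo

/-! # IMX phases 1 + 2 (S0074), abstract over the ideal and the splitting family (helper87) -/

set_option autoImplicit false
set_option linter.unusedSectionVars false

namespace Crest.Agent.IMX.P12

open Set Cardinal

/-- Phases 1 and 2 together: the coarse sign function, and no two infinite paths from `X`, `Xᶜ`. -/
theorem exists_coarse {V : Type} (Thin : Set V → Prop) (hV : #(Set V) ≤ 𝔠)
    (hempty : Thin ∅) (hmono : ∀ X Y, X ⊆ Y → Thin Y → Thin X)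
    (hunion : ∀ X Y, Thin X → Thin Y → Thin (X ∪ Y)) (huniv : ¬ Thin univ)
    (Q : (ℕ → Bool) → Set V)
    (hsplit : ∀ Z, ¬ Thin Z → {x | Thin (Z ∩ Q x) ∨ Thin (Z \ Q x)}.Finite) :
    ∃ s : Set V → Set V → ℤ, (∀ Y S, s Y S = -1 ∨ s Y S = 0 ∨ s Y S = 1) ∧
      (∀ Y S Y' S', Thin (Y \ Y') → Thin (S \ S') → s Y S ≤ s Y' S') ∧
      (∀ Y S, s Yᶜ Sᶜ = - s Y S) ∧
      (∀ Y S Y' S', s Y S = 0 → s Y' S' = 0 → Thin (Y \ Y') → Thin (S \ S') →
        Thin (Y' \ Y) ∧ Thin (S' \ S)) ∧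
      (∀ L K A C, L ⊆ A → K ⊆ C → s L K = -1 → s A C = 1 →
        ∃ Y S, L ⊆ Y ∧ Y ⊆ A ∧ K ⊆ S ∧ S ⊆ C ∧ s Y S = 0) ∧
      (¬ ∃ f g : ℕ → Set V, g 0 = (f 0)ᶜ ∧ (∀ n, 0 ≤ s (f n) (f (n + 1))ᶜ) ∧
        (∀ n, 0 ≤ s (g n) (g (n + 1))ᶜ)) := by
  classical
  obtain ⟨K, hlin, hwf, ⟨k0⟩, hbdd⟩ := P1.exists_rankType
  set le : Set V → Set V → Prop := fun X Y => Thin (X \ Y) with hle
  have hrefl : ∀ X, le X X := by
    intro X
    show Thin (X \ X)
    rw [sdiff_self]
    exact hempty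
  have htrans : ∀ X Y Z, le X Y → le Y Z → le X Z := by
    intro X Y Z h1 h2
    refine hmono _ _ ?_ (hunion _ _ h1 h2)
    intro x hx
    by_cases hy : x ∈ Y
    · exact Or.inr ⟨hy, hx.2⟩
    · exact Or.inl ⟨hx.1, hy⟩
  have hsub : ∀ X Y, X ⊆ Y → le X Y := by
    intro X Y h
    refine hmono _ _ ?_ hempty
    intro x hx
    exact absurd (h hx.1) hx.2
  have hcompl : ∀ X Y, le X Y → le Yᶜ Xᶜ := by
    intro X Y h
    refine hmono _ _ ?_ h
    intro x hx
    exact ⟨not_not.1 hx.2, hx.1⟩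
  have hnull : ∀ X, le Xᶜ X → le Xᶜ ∅ := by
    intro X h
    refine hmono _ _ ?_ h
    intro x hx
    exact ⟨hx.1, hx.1⟩
  have huniv' : ¬ le (univ : Set V) ∅ := by
    intro h
    refine huniv (hmono _ _ ?_ h)
    intro x _
    exact ⟨mem_univ _, not_false⟩
  set bb : (ℕ → Bool) → Set V → Set V → Set V := fun x L A => L ∪ (A ∩ Q x) with hbb
  have hLb : ∀ x L A, L ⊆ A → L ⊆ bb x L A := fun x L A _ => subset_union_left
  have hbA : ∀ x L A, L ⊆ A → bb x L A ⊆ A := fun x L A h =>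
    union_subset h inter_subset_left
  have hfin : ∀ L A Z : Set V, L ⊆ A →
      {x | ¬ ((le Z (bb x L A) → le Z L) ∧ (le (bb x L A) Z → le A Z))}.Finite := by
    intro L A Z _
    have h1 : {x | ¬ (le Z (bb x L A) → le Z L)}.Finite := by
      by_cases h : Thin (Z \ L)
      · refine Set.finite_empty.subset ?_
        intro x hx
        exact hx (fun _ => h)
      · refine (hsplit _ h).subset ?_
        intro x hx
        have h2 : le Z (bb x L A) := by
          by_contra h3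
          exact hx (fun h4 => absurd h4 h3)
        refine Or.inr (hmono _ _ ?_ h2)
        intro y hy
        refine ⟨hy.1.1, ?_⟩
        rintro (h3 | h3)
        · exact hy.1.2 h3
        · exact hy.2 h3.2
    have h2 : {x | ¬ (le (bb x L A) Z → le A Z)}.Finite := by
      by_cases h : Thin (A \ Z)
      · refine Set.finite_empty.subset ?_
        intro x hx
        exact hx (fun _ => h)
      · refine (hsplit _ h).subset ?_
        intro x hx
        have h2 : le (bb x L A) Z := by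
          by_contra h3
          exact hx (fun h4 => absurd h4 h3)
        refine Or.inl (hmono _ _ ?_ h2)
        intro y hy
        exact ⟨Or.inr ⟨hy.1.1, hy.2⟩, hy.1.2⟩
    refine (h1.union h2).subset ?_
    intro x hx
    by_cases h3 : (le Z (bb x L A) → le Z L)
    · exact Or.inr (fun h4 => hx ⟨h3, h4⟩)
    · exact Or.inl h3
  obtain ⟨Neg, rk, -, hN1, hN2, hR1, hR2⟩ := P1.phase1 bb hrefl htrans hsub hcompl hnull huniv' hV
    hLb hbA hfin hbdd k0
  have H : PhOne le Neg rk := by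
    refine ⟨hrefl, htrans, hsub, hcompl, hN1, hN2, ?_, ?_⟩
    · intro L A hLA C hC
      obtain ⟨B, b1, b2, b3, b4, b5, b6⟩ := hR1 L A hLA C hC
      exact ⟨B, b1, b2, b3, fun hn => ⟨b4.2 hn, b5 hn⟩,
        fun hn => ⟨fun hb => hn (b4.1 hb), b6 hn⟩⟩
    · intro L A a hLA hL hA _ C hC
      exact hR2 L A a hLA hL hA C hC
  obtain ⟨s, h0, h1, h2, h3, h4, h5⟩ := PhTwo.exists_sign H hV
  refine ⟨fun Y S => s (Y, S), fun Y S => h0 _, ?_, ?_, ?_, ?_, ?_⟩
  · intro Y S Y' S' hY hS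
    exact h1 (Y, S) (Y', S') ⟨hY, hS⟩
  · intro Y S
    exact h2 (Y, S)
  · intro Y S Y' S' e1 e2 hY hS
    exact h3 (Y, S) (Y', S') e1 e2 ⟨hY, hS⟩
  · intro L K A C hLA hKC e1 e2
    obtain ⟨b, b1, b2, b3⟩ := h4 (L, K) (A, C) ⟨hLA, hKC⟩ e1 e2
    exact ⟨b.1, b.2, b1.1, b2.1, b1.2, b2.2, b3⟩
  · rintro ⟨f, g, hg0, hf, hg⟩
    -- a path from a negative set is impossible
    have key : ∀ p : ℕ → Set V, Neg (p 0) → (∀ n, 0 ≤ s (p n, (p (n + 1))ᶜ)) → False := by
      intro p hp0 hp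
      have hneg : ∀ n, Neg (p n) := by
        intro n
        induction n with
        | zero => exact hp0
        | succ n ih =>
          have := (h5 (p n, (p (n + 1))ᶜ) ih (hp n)).1
          by_contra hcon
          exact this ((hN1 _).2 hcon)
      have hdec : ∀ n, rk (p (n + 1)) < rk (p n) := by
        intro n
        have := (h5 (p n, (p (n + 1))ᶜ) (hneg n) (hp n)).2
        simpa using this
      obtain ⟨n, hn⟩ := WellFounded.not_rel_apply_succ (r := ((· < ·) : K → K → Prop))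
        (fun n => rk (p n))
      exact hn (hdec n)
    by_cases hn : Neg (f 0)
    · exact key f hn hf
    · exact key g (by rw [hg0]; exact (hN1 _).2 hn) hg

end Crest.Agent.IMX.P12
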