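import Mathlib

set_option autoImplicit false

/-!
# S0074: phases 4 and 5

From one self-dual matroid `M` on `V ⊕ V` whose "spanning" relation has no two-sided infinite
path, build two self-dual matroids on `ℕ` as in S0074.
-/

namespace Crest.Agent.IMX

open Set Matroid

/-! ## Phase 5: (b) from (a) -/

/-- In a self-dual matroid: `P \ S` (with `S` spanning in `M ↾ P`) together with a set
independent in `M ／ P` is independent. -/
theorem indep_of_packing {α : Type} (M : Matroid α) (hE : M.E = univ) (hd : M✶ = M)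
    (P S I : Set α) (hSP : S ⊆ P) (hS : (M.restrict P).closure S = P)
    (hI : (M.contract P).Indep I) : M.Indep ((P \ S) ∪ I) := by
  have hPE : P ⊆ M.E := by rw [hE]; exact subset_univ _
  have hsp : (M ↾ P).Spanning S := ⟨by simpa using hS, by simpa using hSP⟩
  have h1 : (M ↾ P)✶.Indep (P \ S) := by
    have := hsp.compl_coindep
    simpa [coindep_def] using this
  have h2 : (M ↾ P)✶ = M ／ (M.E \ P) := by
    rw [← delete_compl (M := M) (R := P) hPE, dual_delete, hd]
  rw [h2] at h1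
  have h3 : M.Indep (P \ S) := h1.of_contract
  obtain ⟨J, hJ, hJS⟩ := h3.subset_isBasis_of_subset (X := P) sdiff_subset
  have h4 := (hJ.contract_indep_iff (J := I)).1 hI
  refine h4.1.subset ?_
  rw [union_comm]
  exact union_subset_union_right _ hJS

/-- (b) follows from (a). -/
theorem partition_of_cover {α : Type} (M₀ M₁ : Matroid α) (hE₀ : M₀.E = univ) (hE₁ : M₁.E = univ)
    (hd₀ : M₀✶ = M₀) (hd₁ : M₁✶ = M₁)
    (hcov : ∀ I₀ I₁ : Set α, M₀.Indep I₀ → M₁.Indep I₁ → I₀ ∪ I₁ ≠ univ) :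
    ¬ ∃ P C S₀ S₁ I₀ I₁ : Set α, P ∪ C = univ ∧ Disjoint P C ∧
          S₀ ⊆ P ∧ S₁ ⊆ P ∧ Disjoint S₀ S₁ ∧
          (M₀.restrict P).closure S₀ = P ∧ (M₁.restrict P).closure S₁ = P ∧
          I₀ ⊆ C ∧ I₁ ⊆ C ∧ (M₀.contract Cᶜ).Indep I₀ ∧ (M₁.contract Cᶜ).Indep I₁ ∧
          I₀ ∪ I₁ = C := by
  rintro ⟨P, C, S₀, S₁, I₀, I₁, hPC, hdPC, hS₀, hS₁, hdS, hc₀, hc₁, hI₀, hI₁, hi₀, hi₁, hU⟩
  have hC : Cᶜ = P := by
    have : IsCompl P C := ⟨hdPC, by rw [codisjoint_iff]; exact hPC⟩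
    exact this.symm.compl_eq
  rw [hC] at hi₀ hi₁
  refine hcov ((P \ S₀) ∪ I₀) ((P \ S₁) ∪ I₁)
    (indep_of_packing M₀ hE₀ hd₀ P S₀ I₀ hS₀ hc₀ hi₀)
    (indep_of_packing M₁ hE₁ hd₁ P S₁ I₁ hS₁ hc₁ hi₁) ?_
  apply eq_univ_of_forall
  intro x
  have hx : x ∈ P ∪ C := by rw [hPC]; trivial
  rcases hx with hx | hx
  · by_cases h0 : x ∈ S₀
    · have h1 : x ∉ S₁ := fun h1 => (Set.disjoint_left.1 hdS) h0 h1
      exact Or.inr (Or.inl ⟨hx, h1⟩)
    · exact Or.inl (Or.inl ⟨hx, h0⟩)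
  · rw [← hU] at hx
    rcases hx with hx | hx
    · exact Or.inl (Or.inr hx)
    · exact Or.inr (Or.inr hx)

/-! ## Phase 4: the double ray -/

/-- The sum of copies of a matroid `M` on `V ⊕ V`, indexed by `ℤ`, transported along an
equivalence. -/
noncomputable def ray {V α : Type} (M : Matroid (V ⊕ V)) (E : ℤ × (V ⊕ V) ≃ α) : Matroid α :=
  (Matroid.sum' (fun _ : ℤ => M)).mapEquiv E

theorem ray_indep {V α : Type} (M : Matroid (V ⊕ V)) (E : ℤ × (V ⊕ V) ≃ α) (I : Set α) :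
    (ray M E).Indep I ↔ ∀ k : ℤ, M.Indep {z | E (k, z) ∈ I} := by
  unfold ray
  rw [mapEquiv_indep_iff, sum'_indep_iff]
  refine forall_congr' fun k => ?_
  have : Prod.mk k ⁻¹' (E.symm '' I) = {z | E (k, z) ∈ I} := by
    ext z
    simp [Equiv.symm_apply_eq]
  rw [this]

theorem ray_isBase {V α : Type} (M : Matroid (V ⊕ V)) (E : ℤ × (V ⊕ V) ≃ α) (B : Set α) :
    (ray M E).IsBase B ↔ ∀ k : ℤ, M.IsBase {z | E (k, z) ∈ B} := by
  unfold ray
  rw [mapEquiv_isBase_iff, sum'_isBase_iff]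
  refine forall_congr' fun k => ?_
  have : Prod.mk k ⁻¹' (E.symm '' B) = {z | E (k, z) ∈ B} := by
    ext z
    simp [Equiv.symm_apply_eq]
  rw [this]

theorem ray_ground {V α : Type} (M : Matroid (V ⊕ V)) (hE : M.E = univ)
    (E : ℤ × (V ⊕ V) ≃ α) : (ray M E).E = univ := by
  unfold ray
  rw [mapEquiv_ground_eq, sum'_ground_eq]
  apply eq_univ_of_forall
  intro x
  refine ⟨E.symm x, ?_, by simp⟩
  rw [mem_iUnion]
  refine ⟨(E.symm x).1, (E.symm x).2, by rw [hE]; trivial, rfl⟩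

theorem ray_dual {V α : Type} (M : Matroid (V ⊕ V)) (hE : M.E = univ) (hd : M✶ = M)
    (E : ℤ × (V ⊕ V) ≃ α) : (ray M E)✶ = ray M E := by
  have hg := ray_ground M hE E
  refine ext_isBase (by rw [dual_ground]) fun B hB => ?_
  rw [dual_isBase_iff', hg, ray_isBase, ray_isBase]
  constructor
  · rintro ⟨h, -⟩ k
    have h1 := h k
    have h2 : M✶.IsBase {z | E (k, z) ∈ B} := by
      rw [dual_isBase_iff', hE]
      refine ⟨?_, subset_univ _⟩
      convert h1 using 1
      ext z; simp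
    rwa [hd] at h2
  · intro h
    refine ⟨fun k => ?_, subset_univ _⟩
    have h1 := h k
    rw [← hd, dual_isBase_iff', hE] at h1
    convert h1.1 using 1
    ext z; simp

/-- cells of the component number `k` of `M₀` (vertex `2k`) -/
def c0 (p : ℤ × Bool) : ℤ :=
  if 0 ≤ p.1 then (if p.2 then 2 * p.1 + 1 else 2 * p.1)
  else (if p.2 then 2 * p.1 else 2 * p.1 + 1)

/-- cells of the component number `k` of `M₁` (vertex `2k+1`) -/
def c1 (p : ℤ × Bool) : ℤ :=
  if 0 ≤ p.1 then (if p.2 then 2 * p.1 + 2 else 2 * p.1 + 1)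
  else (if p.2 then 2 * p.1 + 1 else 2 * p.1 + 2)

theorem c0_bij : Function.Bijective c0 := by
  constructor
  · rintro ⟨k, b⟩ ⟨k', b'⟩ h
    simp only [c0] at h
    have : k = k' ∧ b = b' := by
      cases b <;> cases b' <;> simp at h ⊢ <;> split_ifs at h <;> omega
    rw [this.1, this.2]
  · intro n
    by_cases h : 0 ≤ n
    · rcases Int.even_or_odd' n with ⟨k, hk | hk⟩
      · exact ⟨(k, false), by simp only [c0]; rw [if_pos (by omega)]; simp; omega⟩
      · exact ⟨(k, true), by simp only [c0]; rw [if_pos (by omega)]; simp; omega⟩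
    · rcases Int.even_or_odd' n with ⟨k, hk | hk⟩
      · exact ⟨(k, true), by simp only [c0]; rw [if_neg (by omega)]; simp; omega⟩
      · exact ⟨(k, false), by simp only [c0]; rw [if_neg (by omega)]; simp; omega⟩

theorem c1_bij : Function.Bijective c1 := by
  constructor
  · rintro ⟨k, b⟩ ⟨k', b'⟩ h
    simp only [c1] at h
    have : k = k' ∧ b = b' := by
      cases b <;> cases b' <;> simp at h ⊢ <;> split_ifs at h <;> omega
    rw [this.1, this.2]
  · intro n
    by_cases h : 1 ≤ n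
    · rcases Int.even_or_odd' n with ⟨k, hk | hk⟩
      · exact ⟨(k - 1, true), by simp only [c1]; rw [if_pos (by omega)]; simp; omega⟩
      · exact ⟨(k, false), by simp only [c1]; rw [if_pos (by omega)]; simp; omega⟩
    · rcases Int.even_or_odd' n with ⟨k, hk | hk⟩
      · exact ⟨(k - 1, false), by simp only [c1]; rw [if_neg (by omega)]; simp; omega⟩
      · exact ⟨(k, true), by simp only [c1]; rw [if_neg (by omega)]; simp; omega⟩

/-- the layout equivalence attached to a bijection `ℤ × Bool ≃ ℤ` of cells -/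
noncomputable def layout {V : Type} (c : ℤ × Bool ≃ ℤ) (e : ℤ × V ≃ ℕ) :
    ℤ × (V ⊕ V) ≃ ℕ :=
  ((Equiv.prodCongr (Equiv.refl ℤ) (Equiv.boolProdEquivSum V).symm).trans
    (Equiv.prodAssoc ℤ Bool V).symm).trans ((Equiv.prodCongr c (Equiv.refl V)).trans e)

theorem layout_inl {V : Type} (c : ℤ × Bool ≃ ℤ) (e : ℤ × V ≃ ℕ) (k : ℤ) (x : V) :
    layout c e (k, Sum.inl x) = e (c (k, false), x) := rfl

theorem layout_inr {V : Type} (c : ℤ × Bool ≃ ℤ) (e : ℤ × V ≃ ℕ) (k : ℤ) (x : V) :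
    layout c e (k, Sum.inr x) = e (c (k, true), x) := rfl

/-- **Phases 4 and 5**: the statement of S0074 from one good self-dual matroid on `V ⊕ V`. -/
theorem final {V : Type} [Countable V] [Nonempty V] (M : Matroid (V ⊕ V)) (hE : M.E = univ)
    (hd : M✶ = M) (Sp : Set V → Set V → Prop)
    (hSp : ∀ I : Set (V ⊕ V), M.Indep I → Sp (Sum.inl ⁻¹' Iᶜ) (Sum.inr ⁻¹' Iᶜ))
    (hno : ¬ ∃ f g : ℕ → Set V, g 0 = (f 0)ᶜ ∧ (∀ n, Sp (f n) (f (n + 1))ᶜ) ∧
      (∀ n, Sp (g n) (g (n + 1))ᶜ)) :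
    ∃ M₀ M₁ : Matroid ℕ, M₀.E = Set.univ ∧ M₁.E = Set.univ ∧ M₀.dual = M₀ ∧ M₁.dual = M₁ ∧
      (∀ I₀ I₁ : Set ℕ, M₀.Indep I₀ → M₁.Indep I₁ → I₀ ∪ I₁ ≠ Set.univ) ∧
      ¬ ∃ P C S₀ S₁ I₀ I₁ : Set ℕ, P ∪ C = Set.univ ∧ Disjoint P C ∧
          S₀ ⊆ P ∧ S₁ ⊆ P ∧ Disjoint S₀ S₁ ∧
          (M₀.restrict P).closure S₀ = P ∧ (M₁.restrict P).closure S₁ = P ∧
          I₀ ⊆ C ∧ I₁ ⊆ C ∧ (M₀.contract Cᶜ).Indep I₀ ∧ (M₁.contract Cᶜ).Indep I₁ ∧
          I₀ ∪ I₁ = C := by
  obtain ⟨e⟩ : Nonempty (ℤ × V ≃ ℕ) := by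
    have : Countable (ℤ × V) := inferInstance
    have : Infinite (ℤ × V) := inferInstance
    have := Encodable.ofCountable (ℤ × V)
    exact nonempty_equiv_of_countable
  set C0 : ℤ × Bool ≃ ℤ := Equiv.ofBijective c0 c0_bij with hC0
  set C1 : ℤ × Bool ≃ ℤ := Equiv.ofBijective c1 c1_bij with hC1
  have hcov : ∀ I₀ I₁ : Set ℕ, (ray M (layout C0 e)).Indep I₀ → (ray M (layout C1 e)).Indep I₁ →
      I₀ ∪ I₁ ≠ Set.univ := by
    intro I₀ I₁ h0 h1 hU
    have h1' : (ray M (layout C1 e)).Indep I₀ᶜ := by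
      refine h1.subset ?_
      intro x hx
      have : x ∈ I₀ ∪ I₁ := by rw [hU]; trivial
      rcases this with h | h
      · exact absurd h hx
      · exact h
    rw [ray_indep] at h0 h1'
    -- the contents of the cells
    set P : ℤ → Set V := fun n => {x | e (n, x) ∉ I₀} with hP
    have H0 : ∀ k : ℤ, Sp (P (c0 (k, false))) (P (c0 (k, true))) := by
      intro k
      have := hSp _ (h0 k)
      exact this
    have H1 : ∀ k : ℤ, Sp (P (c1 (k, false)))ᶜ (P (c1 (k, true)))ᶜ := by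
      intro k
      have := hSp _ (h1' k)
      exact this
    apply hno
    refine ⟨fun n => if Even n then P n else (P n)ᶜ,
      fun n => if Even n then (P (-(n : ℤ)))ᶜ else P (-(n : ℤ)), ?_, ?_, ?_⟩
    · simp
    · intro n
      rcases Nat.even_or_odd' n with ⟨k, hk | hk⟩
      · have e1 : Even n := ⟨k, by omega⟩
        have e2 : ¬ Even (n + 1) := by rw [Nat.not_even_iff_odd]; exact ⟨k, by omega⟩
        have h := H0 k
        have a1 : c0 ((k : ℤ), false) = (n : ℤ) := by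
          simp only [c0]; rw [if_pos (by omega)]; simp; omega
        have a2 : c0 ((k : ℤ), true) = ((n + 1 : ℕ) : ℤ) := by
          simp only [c0]; rw [if_pos (by omega)]; simp; omega
        rw [a1, a2] at h
        simp only [if_pos e1, if_neg e2, compl_compl]
        exact h
      · have e1 : ¬ Even n := by rw [Nat.not_even_iff_odd]; exact ⟨k, by omega⟩
        have e2 : Even (n + 1) := ⟨k + 1, by omega⟩
        have h := H1 k
        have a1 : c1 ((k : ℤ), false) = (n : ℤ) := by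
          simp only [c1]; rw [if_pos (by omega)]; simp; omega
        have a2 : c1 ((k : ℤ), true) = ((n + 1 : ℕ) : ℤ) := by
          simp only [c1]; rw [if_pos (by omega)]; simp; omega
        rw [a1, a2] at h
        simp only [if_neg e1, if_pos e2]
        exact h
    · intro n
      rcases Nat.even_or_odd' n with ⟨j, hj | hj⟩
      · have e1 : Even n := ⟨j, by omega⟩
        have e2 : ¬ Even (n + 1) := by rw [Nat.not_even_iff_odd]; exact ⟨j, by omega⟩
        have h := H1 (-(j : ℤ) - 1)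
        have a1 : c1 (-(j : ℤ) - 1, false) = -(n : ℤ) := by
          simp only [c1]; rw [if_neg (by omega)]; simp; omega
        have a2 : c1 (-(j : ℤ) - 1, true) = -((n + 1 : ℕ) : ℤ) := by
          simp only [c1]; rw [if_neg (by omega)]; simp; omega
        rw [a1, a2] at h
        simp only [if_pos e1, if_neg e2]
        exact h
      · have e1 : ¬ Even n := by rw [Nat.not_even_iff_odd]; exact ⟨j, by omega⟩
        have e2 : Even (n + 1) := ⟨j + 1, by omega⟩
        have h := H0 (-(j : ℤ) - 1)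
        have a1 : c0 (-(j : ℤ) - 1, false) = -(n : ℤ) := by
          simp only [c0]; rw [if_neg (by omega)]; simp; omega
        have a2 : c0 (-(j : ℤ) - 1, true) = -((n + 1 : ℕ) : ℤ) := by
          simp only [c0]; rw [if_neg (by omega)]; simp; omega
        rw [a1, a2] at h
        simp only [if_neg e1, if_pos e2, compl_compl]
        exact h
  refine ⟨ray M (layout C0 e), ray M (layout C1 e), ray_ground M hE _, ray_ground M hE _,
    ray_dual M hE hd _, ray_dual M hE hd _, hcov, ?_⟩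
  exact partition_of_cover _ _ (ray_ground M hE _) (ray_ground M hE _)
    (ray_dual M hE hd _) (ray_dual M hE hd _) hcov

end Crest.Agent.IMX
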