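import Mathlib

/-!
# S0074, phase 1a: the concrete ground set, thin sets and the splitting lemma

`V = Σ n, ((Fin n → Bool) → Bool)`: the cell `n` is the set of all subsets of `{0,1}^n`, it has
`w n = 2^(2^n)` elements. `Thin Z` means `|Z ∩ F n| / w n → 0`, with `F n` the union of the
cells `0, …, n`. `Q x` is the set of all points `(n, c)` with `c (x|n) = true`.
-/

namespace Crest.Agent.IMX

open Set Filter Cardinal

/-- the ground set -/
abbrev V : Type := Σ n : ℕ, ((Fin n → Bool) → Bool)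

/-- the size of the cell `n` -/
def w (n : ℕ) : ℕ := 2 ^ (2 ^ n)

theorem w_pos (n : ℕ) : 0 < w n := by unfold w; positivity

theorem w_succ (n : ℕ) : 2 * w n ≤ w (n + 1) := by
  unfold w
  have h : 2 ^ n + 1 ≤ 2 ^ (n + 1) := by
    have : 1 ≤ 2 ^ n := Nat.one_le_two_pow
    rw [pow_succ]; omega
  calc 2 * 2 ^ (2 ^ n) = 2 ^ (2 ^ n + 1) := by rw [pow_succ]; ring
    _ ≤ 2 ^ (2 ^ (n + 1)) := Nat.pow_le_pow_right (by norm_num) h

theorem w_succ_sq (n : ℕ) : w (n + 1) = w n * w n := by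
  unfold w
  rw [← pow_add, pow_succ]; congr 1; ring

/-- the cell `n` -/
def Cell (n : ℕ) : Set V := {v | v.1 = n}

/-- the union of the cells up to `n` -/
def F (n : ℕ) : Set V := {v | v.1 ≤ n}

theorem cell_finite (n : ℕ) : (Cell n).Finite := by
  have : Cell n = Set.range (fun c : ((Fin n → Bool) → Bool) => (⟨n, c⟩ : V)) := by
    ext v
    constructor
    · rintro h
      obtain ⟨m, c⟩ := v
      have hm : m = n := h
      subst hm
      exact ⟨c, rfl⟩
    · rintro ⟨c, rfl⟩
      rfl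
  rw [this]
  exact Set.finite_range _

theorem F_succ (n : ℕ) : F (n + 1) = F n ∪ Cell (n + 1) := by
  ext v
  simp only [F, Cell, Set.mem_ofPred_eq, Set.mem_union]
  omega

theorem F_zero : F 0 = Cell 0 := by
  ext v
  simp only [F, Cell, Set.mem_ofPred_eq]
  omega

theorem F_finite (n : ℕ) : (F n).Finite := by
  induction n with
  | zero => rw [F_zero]; exact cell_finite 0
  | succ n ih => rw [F_succ]; exact ih.union (cell_finite _)

/-- the subset of `{0,1}^(2^n)` corresponding to the trace of `Z` on the cell `n` -/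
def tr (Z : Set V) (n : ℕ) : Set ((Fin n → Bool) → Bool) := {c | (⟨n, c⟩ : V) ∈ Z}

theorem ncard_inter_cell (Z : Set V) (n : ℕ) : (Z ∩ Cell n).ncard = (tr Z n).ncard := by
  have h : Z ∩ Cell n = (fun c : ((Fin n → Bool) → Bool) => (⟨n, c⟩ : V)) '' (tr Z n) := by
    ext v
    constructor
    · rintro ⟨h1, h2⟩
      obtain ⟨m, c⟩ := v
      have hm : m = n := h2
      subst hm
      exact ⟨c, h1, rfl⟩
    · rintro ⟨c, hc, rfl⟩
      exact ⟨hc, rfl⟩
  rw [h]
  apply Set.ncard_image_of_injective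
  intro c d hcd
  simpa using hcd

theorem ncard_cell (n : ℕ) : (Cell n).ncard = w n := by
  have h := ncard_inter_cell Set.univ n
  rw [Set.univ_inter] at h
  rw [h]
  have : tr Set.univ n = Set.univ := by ext c; simp [tr]
  rw [this, Set.ncard_univ, Nat.card_eq_fintype_card]
  simp [w]

theorem ncard_F_le (n : ℕ) : (F n).ncard ≤ 2 * w n := by
  induction n with
  | zero => rw [F_zero, ncard_cell]; omega
  | succ n ih =>
    rw [F_succ]
    have h1 := Set.ncard_union_le (F n) (Cell (n + 1))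
    rw [ncard_cell] at h1
    have h2 := w_succ n
    omega

/-- thin sets: density zero -/
def Thin (Z : Set V) : Prop :=
  ∀ ε : ℝ, 0 < ε → ∃ N : ℕ, ∀ n, N ≤ n → ((Z ∩ F n).ncard : ℝ) ≤ ε * (w n : ℝ)

/-- the cell by cell version -/
theorem thin_iff_cell (Z : Set V) :
    Thin Z ↔ ∀ ε : ℝ, 0 < ε → ∃ N : ℕ, ∀ n, N ≤ n → ((Z ∩ Cell n).ncard : ℝ) ≤ ε * (w n : ℝ) := by
  constructor
  · intro h ε hε
    obtain ⟨N, hN⟩ := h ε hε
    refine ⟨N, fun n hn => le_trans ?_ (hN n hn)⟩
    have : (Z ∩ Cell n).ncard ≤ (Z ∩ F n).ncard := by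
      apply Set.ncard_le_ncard _ ((F_finite n).subset Set.inter_subset_right)
      rintro v ⟨h1, h2⟩
      exact ⟨h1, le_of_eq h2⟩
    exact_mod_cast this
  · intro h ε hε
    obtain ⟨N, hN⟩ := h (ε / 2) (by positivity)
    -- `4 / ε ≤ w n` for `n` large
    obtain ⟨M, hM⟩ : ∃ M : ℕ, 4 / ε ≤ (w M : ℝ) := by
      obtain ⟨M, hM⟩ := exists_nat_gt (4 / ε)
      refine ⟨M, hM.le.trans ?_⟩
      have : M ≤ w M := by
        unfold w
        exact (Nat.lt_two_pow_self).le.trans (Nat.pow_le_pow_right (by norm_num) (Nat.lt_two_pow_self).le)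
      exact_mod_cast this
    have hmono : Monotone w := monotone_nat_of_le_succ (fun n => by have := w_succ n; omega)
    refine ⟨max N (M + 1), fun n hn => ?_⟩
    have hn1 : N ≤ n := le_trans (le_max_left _ _) hn
    have hn2 : M + 1 ≤ n := le_trans (le_max_right _ _) hn
    obtain ⟨m, rfl⟩ : ∃ m, n = m + 1 := ⟨n - 1, by omega⟩
    have h1 : (Z ∩ F (m + 1)).ncard ≤ (Z ∩ Cell (m + 1)).ncard + (F m).ncard := by
      have : Z ∩ F (m + 1) ⊆ (Z ∩ Cell (m + 1)) ∪ F m := by
        rw [F_succ]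
        rintro v ⟨h1, h2 | h2⟩
        · exact Or.inr h2
        · exact Or.inl ⟨h1, h2⟩
      refine (Set.ncard_le_ncard this ?_).trans (Set.ncard_union_le _ _)
      exact ((cell_finite _).subset Set.inter_subset_right).union (F_finite m)
    have h2 := ncard_F_le m
    have h3 := hN (m + 1) hn1
    have h4 : (w M : ℝ) ≤ (w m : ℝ) := by exact_mod_cast hmono (by omega : M ≤ m)
    have h5 : (w (m + 1) : ℝ) = (w m : ℝ) * (w m : ℝ) := by exact_mod_cast w_succ_sq m
    have h6 : (2 : ℝ) * w m ≤ ε / 2 * (w (m + 1) : ℝ) := by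
      rw [h5]
      have : 4 / ε ≤ (w m : ℝ) := hM.trans h4
      have h7 : 4 ≤ ε * (w m : ℝ) := by
        rw [div_le_iff₀ hε] at this
        linarith
      have h8 : (0 : ℝ) < w m := by exact_mod_cast w_pos m
      nlinarith
    have h1' : ((Z ∩ F (m + 1)).ncard : ℝ) ≤ ((Z ∩ Cell (m + 1)).ncard : ℝ) + ((F m).ncard : ℝ) := by
      exact_mod_cast h1
    have h2' : ((F m).ncard : ℝ) ≤ 2 * (w m : ℝ) := by exact_mod_cast h2
    linarith

theorem thin_mono {X Y : Set V} (h : X ⊆ Y) (hY : Thin Y) : Thin X := by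
  intro ε hε
  obtain ⟨N, hN⟩ := hY ε hε
  refine ⟨N, fun n hn => le_trans ?_ (hN n hn)⟩
  have : (X ∩ F n).ncard ≤ (Y ∩ F n).ncard :=
    Set.ncard_le_ncard (Set.inter_subset_inter_left _ h)
      ((F_finite n).subset Set.inter_subset_right)
  exact_mod_cast this

theorem thin_empty : Thin (∅ : Set V) := by
  intro ε hε
  refine ⟨0, fun n _ => ?_⟩
  simp only [Set.empty_inter, Set.ncard_empty, Nat.cast_zero]
  positivity

theorem thin_union {X Y : Set V} (hX : Thin X) (hY : Thin Y) : Thin (X ∪ Y) := by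
  intro ε hε
  obtain ⟨N, hN⟩ := hX (ε / 2) (by positivity)
  obtain ⟨M, hM⟩ := hY (ε / 2) (by positivity)
  refine ⟨max N M, fun n hn => ?_⟩
  have h1 := hN n (le_trans (le_max_left _ _) hn)
  have h2 := hM n (le_trans (le_max_right _ _) hn)
  have h3 : ((X ∪ Y) ∩ F n).ncard ≤ (X ∩ F n).ncard + (Y ∩ F n).ncard := by
    rw [Set.union_inter_distrib_right]
    exact Set.ncard_union_le _ _
  have h3' : (((X ∪ Y) ∩ F n).ncard : ℝ) ≤ ((X ∩ F n).ncard : ℝ) + ((Y ∩ F n).ncard : ℝ) := by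
    exact_mod_cast h3
  linarith

theorem thin_biUnion {ι : Type*} (S : Finset ι) (f : ι → Set V) (h : ∀ i ∈ S, Thin (f i)) :
    Thin (⋃ i ∈ S, f i) := by
  classical
  induction S using Finset.induction_on with
  | empty => simpa using thin_empty
  | insert a s ha ih =>
    rw [Finset.set_biUnion_insert]
    exact thin_union (h a (Finset.mem_insert_self _ _))
      (ih (fun i hi => h i (Finset.mem_insert_of_mem hi)))

theorem thin_of_finite {X : Set V} (hX : X.Finite) : Thin X := by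
  rw [thin_iff_cell]
  intro ε hε
  obtain ⟨M, hM⟩ := (hX.image (fun v : V => v.1)).bddAbove
  refine ⟨M + 1, fun n hn => ?_⟩
  have : X ∩ Cell n = ∅ := by
    rw [Set.eq_empty_iff_forall_notMem]
    rintro v ⟨h1, h2⟩
    have h3 : v.1 ≤ M := hM ⟨v, h1, rfl⟩
    have h4 : v.1 = n := h2
    omega
  rw [this]
  simp only [Set.ncard_empty, Nat.cast_zero]
  positivity

theorem not_thin_univ : ¬ Thin (Set.univ : Set V) := by
  intro h
  rw [thin_iff_cell] at h
  obtain ⟨N, hN⟩ := h (1 / 2) (by norm_num)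
  have h1 := hN N le_rfl
  rw [Set.univ_inter, ncard_cell] at h1
  have h2 : (0 : ℝ) < w N := by exact_mod_cast w_pos N
  linarith

/-- restriction of an infinite binary sequence -/
def restr (n : ℕ) (x : ℕ → Bool) : Fin n → Bool := fun i => x i

/-- the splitting sets -/
def Q (x : ℕ → Bool) : Set V := {v | v.2 (fun i => x i) = true}

/-- the splitting sets and their complements -/
def Qb (b : Bool) (x : ℕ → Bool) : Set V := {v | v.2 (fun i => x i) = b}

theorem Qb_true (x : ℕ → Bool) : Qb true x = Q x := rfl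

theorem Qb_false (x : ℕ → Bool) : Qb false x = (Q x)ᶜ := by
  ext v
  simp [Qb, Q]

theorem eventually_restr_inj (S : Finset (ℕ → Bool)) :
    ∀ᶠ n in atTop, Set.InjOn (restr n) (S : Set (ℕ → Bool)) := by
  have h : ∀ x ∈ S, ∀ y ∈ S, ∀ᶠ n in atTop, restr n x = restr n y → x = y := by
    intro x _ y _
    by_cases hxy : x = y
    · exact Eventually.of_forall (fun _ _ => hxy)
    · obtain ⟨i, hi⟩ := Function.ne_iff.mp hxy
      filter_upwards [eventually_gt_atTop i] with n hn h
      exact absurd (congrFun h ⟨i, hn⟩) hi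
  have h2 : ∀ᶠ n in atTop, ∀ x ∈ S, ∀ y ∈ S, restr n x = restr n y → x = y := by
    rw [Filter.eventually_all_finset]
    intro x hx
    rw [Filter.eventually_all_finset]
    intro y hy
    exact h x hx y hy
  filter_upwards [h2] with n hn x hx y hy hxy
  exact hn x hx y hy hxy

/-- counting functions with prescribed values -/
theorem count_aux {α : Type*} [Fintype α] [DecidableEq α] (S : Finset α) (b : Bool) :
    2 ^ S.card * ({c : α → Bool | ∀ p ∈ S, c p = b} : Set (α → Bool)).ncard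
      ≤ 2 ^ Fintype.card α := by
  classical
  have h1 : (Set.univ : Set (S → Bool)).ncard = 2 ^ S.card := by
    rw [Set.ncard_univ, Nat.card_eq_fintype_card]
    simp
  rw [← h1, ← Set.ncard_prod]
  have h2 : (Set.univ : Set (α → Bool)).ncard = 2 ^ Fintype.card α := by
    rw [Set.ncard_univ, Nat.card_eq_fintype_card]
    simp
  rw [← h2]
  refine Set.ncard_le_ncard_of_injOn
    (fun q : (S → Bool) × (α → Bool) => fun p : α => if hp : p ∈ S then q.1 ⟨p, hp⟩ else q.2 p)
    (fun _ _ => Set.mem_univ _) ?_ (Set.toFinite _)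
  rintro ⟨d, c⟩ ⟨_, hc⟩ ⟨d', c'⟩ ⟨_, hc'⟩ h
  simp only [Set.mem_ofPred_eq] at hc hc'
  have hd : d = d' := by
    funext p
    have := congrFun h p.1
    simp only [p.2, dif_pos] at this
    exact this
  have hc2 : c = c' := by
    funext p
    by_cases hp : p ∈ S
    · rw [hc p hp, hc' p hp]
    · have := congrFun h p
      simp only [hp, dif_neg, not_false_eq_true] at this
      exact this
  rw [hd, hc2]

theorem count_cell (b : Bool) (S : Finset (ℕ → Bool)) (n : ℕ)
    (hn : Set.InjOn (restr n) (S : Set (ℕ → Bool))) :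
    2 ^ S.card * ({v : V | v ∉ ⋃ x ∈ S, Qb b x} ∩ Cell n).ncard ≤ w n := by
  classical
  rw [ncard_inter_cell]
  have h1 : tr {v : V | v ∉ ⋃ x ∈ S, Qb b x} n
      = {c : (Fin n → Bool) → Bool | ∀ p ∈ S.image (restr n), c p = !b} := by
    ext c
    simp only [tr, Set.mem_ofPred_eq, Set.mem_iUnion, not_exists, Finset.mem_image,
      forall_exists_index, and_imp, forall_apply_eq_imp_iff₂, Qb]
    refine forall₂_congr (fun x _ => ?_)
    show ¬ (c (restr n x) = b) ↔ _
    cases b <;> cases c (restr n x) <;> simp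
  rw [h1]
  have h2 := count_aux (S.image (restr n)) (!b)
  rw [Finset.card_image_of_injOn hn] at h2
  refine h2.trans (le_of_eq ?_)
  simp [w]

/-- **Splitting lemma**, one sided. -/
theorem split_finite_aux (Z : Set V) (h : ¬ Thin Z) (b : Bool) :
    {x : ℕ → Bool | Thin (Z ∩ Qb b x)}.Finite := by
  by_contra hinf
  apply h
  rw [thin_iff_cell]
  intro ε hε
  obtain ⟨k, hk⟩ : ∃ k : ℕ, (1 / 2 : ℝ) ^ k < ε / 2 :=
    exists_pow_lt_of_lt_one (by positivity) (by norm_num)
  obtain ⟨S, hS, hSk⟩ := Set.Infinite.exists_subset_card_eq hinf k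
  have hthin : Thin (⋃ x ∈ S, Z ∩ Qb b x) := thin_biUnion S _ (fun x hx => hS hx)
  rw [thin_iff_cell] at hthin
  obtain ⟨N, hN⟩ := hthin (ε / 2) (by positivity)
  obtain ⟨M, hM⟩ := eventually_atTop.mp (eventually_restr_inj S)
  refine ⟨max N M, fun n hn => ?_⟩
  have h1 := hN n (le_trans (le_max_left _ _) hn)
  have h2 := count_cell b S n (hM n (le_trans (le_max_right _ _) hn))
  have h3 : (Z ∩ Cell n).ncard ≤ ((⋃ x ∈ S, Z ∩ Qb b x) ∩ Cell n).ncard
      + ({v : V | v ∉ ⋃ x ∈ S, Qb b x} ∩ Cell n).ncard := by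
    refine (Set.ncard_le_ncard ?_ ?_).trans (Set.ncard_union_le _ _)
    · rintro v ⟨hv1, hv2⟩
      by_cases hv : v ∈ ⋃ x ∈ S, Qb b x
      · left
        simp only [Set.mem_iUnion] at hv
        obtain ⟨x, hx, hvx⟩ := hv
        refine ⟨?_, hv2⟩
        simp only [Set.mem_iUnion]
        exact ⟨x, hx, hv1, hvx⟩
      · exact Or.inr ⟨hv, hv2⟩
    · exact ((cell_finite n).subset Set.inter_subset_right).union
        ((cell_finite n).subset Set.inter_subset_right)
  rw [hSk] at h2
  have h2' : (2 : ℝ) ^ k * (({v : V | v ∉ ⋃ x ∈ S, Qb b x} ∩ Cell n).ncard : ℝ) ≤ (w n : ℝ) := by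
    exact_mod_cast h2
  have h4 : (({v : V | v ∉ ⋃ x ∈ S, Qb b x} ∩ Cell n).ncard : ℝ) ≤ (1 / 2 : ℝ) ^ k * (w n : ℝ) := by
    rw [one_div, inv_pow, inv_mul_eq_div, le_div_iff₀ (by positivity)]
    linarith
  have h5 : (1 / 2 : ℝ) ^ k * (w n : ℝ) ≤ ε / 2 * (w n : ℝ) :=
    mul_le_mul_of_nonneg_right hk.le (Nat.cast_nonneg _)
  have h3' : ((Z ∩ Cell n).ncard : ℝ) ≤ (((⋃ x ∈ S, Z ∩ Qb b x) ∩ Cell n).ncard : ℝ)
      + (({v : V | v ∉ ⋃ x ∈ S, Qb b x} ∩ Cell n).ncard : ℝ) := by exact_mod_cast h3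
  linarith

/-- **Splitting lemma**: a set which is not thin is split by all but finitely many `Q x`. -/
theorem split_finite (Z : Set V) (h : ¬ Thin Z) :
    {x : ℕ → Bool | Thin (Z ∩ Q x) ∨ Thin (Z \ Q x)}.Finite := by
  refine ((split_finite_aux Z h true).union (split_finite_aux Z h false)).subset ?_
  rintro x (hx | hx)
  · exact Or.inl hx
  · right
    show Thin (Z ∩ Qb false x)
    rw [Qb_false]
    exact hx

/-- The family `C` does not see the difference between `B` and `L` from above, nor the difference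
between `B` and `A` from below. -/
def GenS (C : Set (Set V)) (L A B : Set V) : Prop :=
  ∀ Z ∈ C, (Thin (Z \ B) → Thin (Z \ L)) ∧ (Thin (B \ Z) → Thin (A \ Z))

/-- the bad `x` for one set `Z` -/
def Bad (L A Z : Set V) : Set (ℕ → Bool) :=
  {x | ¬ ((Thin (Z \ (L ∪ (A ∩ Q x))) → Thin (Z \ L)) ∧
      (Thin ((L ∪ (A ∩ Q x)) \ Z) → Thin (A \ Z)))}

theorem bad_finite (L A Z : Set V) : (Bad L A Z).Finite := by
  have h1 : {x : ℕ → Bool | ¬ (Thin (Z \ (L ∪ (A ∩ Q x))) → Thin (Z \ L))}.Finite := by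
    by_cases h : Thin (Z \ L)
    · convert Set.finite_empty (α := ℕ → Bool)
      ext x
      simp [h]
    · refine (split_finite _ h).subset ?_
      intro x hx
      simp only [Set.mem_ofPred_eq, Classical.not_imp] at hx
      right
      refine thin_mono ?_ hx.1
      rintro v ⟨⟨hv1, hv2⟩, hv3⟩
      refine ⟨hv1, ?_⟩
      rintro (h4 | h4)
      · exact hv2 h4
      · exact hv3 h4.2
  have h2 : {x : ℕ → Bool | ¬ (Thin ((L ∪ (A ∩ Q x)) \ Z) → Thin (A \ Z))}.Finite := by
    by_cases h : Thin (A \ Z)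
    · convert Set.finite_empty (α := ℕ → Bool)
      ext x
      simp [h]
    · refine (split_finite _ h).subset ?_
      intro x hx
      simp only [Set.mem_ofPred_eq, Classical.not_imp] at hx
      left
      refine thin_mono ?_ hx.1
      rintro v ⟨⟨hv1, hv2⟩, hv3⟩
      exact ⟨Or.inr ⟨hv1, hv3⟩, hv2⟩
  refine (h1.union h2).subset ?_
  intro x hx
  have hx' : ¬ ((Thin (Z \ (L ∪ (A ∩ Q x))) → Thin (Z \ L)) ∧
      (Thin ((L ∪ (A ∩ Q x)) \ Z) → Thin (A \ Z))) := hx
  rw [not_and_or] at hx'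
  exact hx'

theorem gen_iff (C : Set (Set V)) (L A : Set V) (x : ℕ → Bool) :
    GenS C L A (L ∪ (A ∩ Q x)) ↔ x ∉ ⋃ Z ∈ C, Bad L A Z := by
  simp only [Set.mem_iUnion, not_exists, Bad, Set.mem_ofPred_eq, not_not]
  rfl

theorem bad_card (C : Set (Set V)) (hC : #C < continuum) (L A : Set V) :
    #(⋃ Z ∈ C, Bad L A Z : Set (ℕ → Bool)) < continuum := by
  rcases Set.finite_or_infinite C with hfin | hinf
  · have : (⋃ Z ∈ C, Bad L A Z : Set (ℕ → Bool)).Finite :=
      hfin.biUnion (fun Z _ => bad_finite L A Z)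
    exact (this.lt_aleph0).trans aleph0_lt_continuum
  · have h1 : #(⋃ Z ∈ C, Bad L A Z : Set (ℕ → Bool)) ≤ #C * ℵ₀ := by
      have h2 := Cardinal.mk_biUnion_le (fun Z : Set V => Bad L A Z) C
      refine h2.trans ?_
      gcongr
      apply ciSup_le'
      rintro ⟨Z, hZ⟩
      exact (bad_finite L A Z).lt_aleph0.le
    refine h1.trans_lt ?_
    have h3 : ℵ₀ ≤ #C := Cardinal.infinite_iff.mp hinf.to_subtype
    rw [Cardinal.mul_eq_left h3 h3 Cardinal.aleph0_ne_zero]
    exact hC

/-- an injective pairing: the blocks -/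
def blk (i y : ℕ → Bool) : ℕ → Bool := fun n => if n % 2 = 0 then i (n / 2) else y (n / 2)

theorem blk_inj {i j y z : ℕ → Bool} (h : blk i y = blk j z) : i = j ∧ y = z := by
  constructor
  · funext n
    have := congrFun h (2 * n)
    simpa [blk] using this
  · funext n
    have := congrFun h (2 * n + 1)
    simp only [blk] at this
    have h1 : (2 * n + 1) % 2 = 1 := by omega
    have h2 : (2 * n + 1) / 2 = n := by omega
    simpa [h1, h2] using this

theorem mk_cantor : #(ℕ → Bool) = continuum := by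
  simp

theorem exists_notMem_of_card (f : (ℕ → Bool) → (ℕ → Bool)) (hf : Function.Injective f)
    (B : Set (ℕ → Bool)) (hB : #B < continuum) : ∃ t, f t ∉ B := by
  by_contra hcon
  push Not at hcon
  have h1 : #(ℕ → Bool) ≤ #B :=
    Cardinal.mk_le_of_injective (f := fun t => (⟨f t, hcon t⟩ : B))
      (fun a b hab => hf (congrArg Subtype.val hab))
  rw [mk_cantor] at h1
  exact absurd h1 (not_le.mpr hB)

/-- In every block there is a generic set. -/
theorem exists_gen_in_block (L A : Set V) (C : Set (Set V)) (hC : #C < continuum)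
    (i : ℕ → Bool) : ∃ y, GenS C L A (L ∪ (A ∩ Q (blk i y))) := by
  obtain ⟨y, hy⟩ := exists_notMem_of_card (blk i) (fun a b h => (blk_inj h).2) _
    (bad_card C hC L A)
  exact ⟨y, (gen_iff C L A _).mpr hy⟩

/-- If a set is chosen in every block, one of them is generic. -/
theorem exists_gen_of_selector (L A : Set V) (C : Set (Set V)) (hC : #C < continuum)
    (x : (ℕ → Bool) → (ℕ → Bool)) : ∃ i, GenS C L A (L ∪ (A ∩ Q (blk i (x i)))) := by
  obtain ⟨i, hi⟩ := exists_notMem_of_card (fun i => blk i (x i)) (fun a b h => (blk_inj h).1) _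
    (bad_card C hC L A)
  exact ⟨i, (gen_iff C L A _).mpr hi⟩

theorem subset_mid {L A : Set V} (h : L ⊆ A) (x : ℕ → Bool) :
    L ⊆ L ∪ (A ∩ Q x) ∧ L ∪ (A ∩ Q x) ⊆ A :=
  ⟨Set.subset_union_left, Set.union_subset h Set.inter_subset_left⟩

end Crest.Agent.IMX
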