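import Crest.Agent.KK_A0

set_option autoImplicit false

namespace KK
open Finset
namespace Sys
variable {X G H : Type} [Fintype X] [DecidableEq X] [Fintype G] [Fintype H] [DecidableEq H]
  (S : Sys X G H)

theorem plant_val (k : ℕ) (ω : X → Fin (S.K + 1)) (g : G) (e : H) :
    (S.plant k ω g (S.φ g e) : ℕ) = min (ω (S.φ g e) : ℕ) (S.d k (S.lev e)) := by
  classical
  have h : ∃ e', S.φ g e' = S.φ g e := ⟨e, rfl⟩
  have he : h.choose = e := S.inj g h.choose_spec
  unfold plant
  rw [dif_pos h]
  show min (ω (S.φ g e) : ℕ) (S.d k (S.lev h.choose)) = _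
  rw [he]

/-- planting changes labels only on the fragment -/
theorem plant_of_not (k : ℕ) (ω : X → Fin (S.K + 1)) (g : G) (x : X)
    (h : ∀ e, S.InT k ω g e → S.φ g e ≠ x) : S.plant k ω g x = ω x := by
  classical
  by_cases hx : ∃ e, S.φ g e = x
  · obtain ⟨e, rfl⟩ := hx
    apply Fin.ext
    rw [plant_val]
    apply min_eq_left
    by_contra hlt
    exact h e (not_le.1 hlt) rfl
  · unfold plant
    rw [dif_neg hx]

theorem plant_of_inT (k : ℕ) (ω : X → Fin (S.K + 1)) (g : G) (e : H) (h : S.InT k ω g e) :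
    (S.plant k ω g (S.φ g e) : ℕ) = S.d k (S.lev e) := by
  rw [plant_val]
  exact min_eq_right (le_of_lt h)

end Sys
end KK
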