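import Crest.Agent.KK_A2a

set_option autoImplicit false

namespace KK
open Finset
namespace Sys
variable {X G H : Type} [Fintype X] [DecidableEq X] [Fintype G] [Fintype H] [DecidableEq H]
  (S : Sys X G H)

/-- `NN k n r` is the number of fragment elements with new label `≤ r`, and for `r < d k i` they all
have level `< i` -/
theorem NN_eq (k : ℕ) (n : Fin (S.I + 1) → ℕ) (ω : X → Fin (S.K + 1)) (g : G)
    (hn : ∀ i : Fin (S.I + 1), S.num k ω g i = n i) (i r : ℕ) (hr : r < S.d k i) :
    S.NN k n r = cnt fun e => S.lev e ≤ i ∧ S.InT k ω g e ∧ S.d k (S.lev e) ≤ r := by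
  classical
  have hlt : ∀ e, S.d k (S.lev e) ≤ r → S.lev e ≤ i := by
    intro e he
    by_contra hcon
    have h1 : S.d k i ≤ S.d k (S.lev e) := by
      unfold Sys.d
      exact min_le_min_right _ (by omega)
    omega
  unfold NN cnt
  have h1 := Finset.card_eq_sum_card_fiberwise
    (s := univ.filter (fun e => S.lev e ≤ i ∧ S.InT k ω g e ∧ S.d k (S.lev e) ≤ r))
    (t := (univ : Finset (Fin (S.I + 1))))
    (f := fun e => (⟨S.lev e, Nat.lt_succ_of_le (S.hI e)⟩ : Fin (S.I + 1)))
    (fun _ _ => by simp)
  have h2 : (univ.filter (fun e => S.lev e ≤ i ∧ S.InT k ω g e ∧ S.d k (S.lev e) ≤ r)).card =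
      ∑ i' : Fin (S.I + 1), if S.d k i' ≤ r then n i' else 0 := by
    rw [h1]
    apply sum_congr rfl
    intro b _
    by_cases hb : S.d k b ≤ r
    · rw [if_pos hb, ← hn b]
      unfold num cnt
      apply congrArg card
      ext e
      simp only [mem_filter, mem_univ, true_and, Fin.ext_iff]
      constructor
      · rintro ⟨⟨_, h, _⟩, h'⟩
        exact ⟨h, h'⟩
      · rintro ⟨h, h'⟩
        have : S.d k (S.lev e) ≤ r := by rw [h']; exact hb
        exact ⟨⟨hlt e this, h, this⟩, h'⟩
    · rw [if_neg hb, card_eq_zero, filter_eq_empty_iff]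
      intro e he hbe
      rw [mem_filter] at he
      rw [Fin.ext_iff] at hbe
      apply hb
      have h3 : S.lev e = (b : ℕ) := hbe
      rw [← h3]
      exact he.2.2.2
  rw [← h2]
  congr

/-- the copy whose fragment is planted satisfies the decoder condition. Proof: for `r < d k i` split
the positions of level `≤ i` with `min r (d k (lev e)) < ω` into those with new label
`min ω (d k (lev e)) > r` and the fragment elements with `d k (lev e) ≤ r` (`NN_eq`). -/
theorem dec_plant (k : ℕ) (n : Fin (S.I + 1) → ℕ) (ω : X → Fin (S.K + 1)) (g : G)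
    (h : S.Adm k ω g) (hn : ∀ i : Fin (S.I + 1), S.num k ω g i = n i) :
    S.Dec k n (S.plant k ω g) g := by
  classical
  refine ⟨fun e => ?_, fun i hi r hr => ?_⟩
  · rw [S.plant_val]
    exact min_le_right _ _
  · rw [S.NN_eq k n ω g hn i r hr]
    refine le_trans ?_ (h i hi r hr)
    rw [← Nat.cast_add]
    apply Nat.cast_le.2
    unfold cnt
    rw [← card_union_of_disjoint]
    · apply card_le_card
      intro e he
      simp only [mem_union, mem_filter, mem_univ, true_and] at he ⊢
      rcases he with ⟨h1, h2⟩ | ⟨h1, h2, h3⟩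
      · rw [S.plant_val] at h2
        exact ⟨h1, lt_of_le_of_lt (min_le_left _ _) (lt_of_lt_of_le h2 (min_le_left _ _))⟩
      · exact ⟨h1, lt_of_le_of_lt (min_le_right _ _) h2⟩
    · rw [disjoint_left]
      intro e h1 h2
      simp only [mem_filter, mem_univ, true_and] at h1 h2
      have h3 := h1.2
      rw [S.plant_val] at h3
      have h4 := h2.2.2
      have h5 : r < S.d k (S.lev e) := lt_of_lt_of_le h3 (min_le_right _ _)
      omega

end Sys
end KK
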