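import Crest.Agent.KK_A2c

set_option autoImplicit false

namespace KK
open Finset
namespace Sys
variable {X G H : Type} [Fintype X] [DecidableEq X] [Fintype G] [Fintype H] [DecidableEq H]
  (S : Sys X G H)

/-- Minimality: if `g` is a cheapest candidate then for every decoded copy `g'` the fragment of `g'`
is the planted fragment, with the same levels. Proof: `inT_of_dec` is an injection (of positions) from
the fragment of `g'` to that of `g` not increasing the level, so `cost g' ≤ cost g`, with equality only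
if it is a level preserving bijection; `val_of_dec` and `Best` give `cost g ≤ cost g'`. -/
theorem best_dec (k : ℕ) (n : Fin (S.I + 1) → ℕ) (ω : X → Fin (S.K + 1)) (g0 g g' : G)
    (h : S.Best k ω g0 g) (hn : ∀ i : Fin (S.I + 1), S.num k ω g i = n i)
    (hd : S.Dec k n (S.plant k ω g) g') (e : H) (he : S.InT k ω g e) :
    ∃ e', S.φ g' e' = S.φ g e ∧ S.lev e' = S.lev e ∧ S.InT k ω g' e' := by
  classical
  have hval := S.val_of_dec k n ω g0 g g' h.1 hn hd
  have hcost := h.2 g' hval
  have hex : ∀ e' : H, ∃ f : H, S.InT k ω g' e' →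
      S.φ g f = S.φ g' e' ∧ S.InT k ω g f ∧ S.lev f ≤ S.lev e' := by
    intro e'
    by_cases he' : S.InT k ω g' e'
    · obtain ⟨f, hf⟩ := S.inT_of_dec k n ω g g' hd e' he'
      exact ⟨f, fun _ => hf⟩
    · exact ⟨e', fun h => absurd h he'⟩
  choose F hF using hex
  set T' := univ.filter (fun e' => S.InT k ω g' e') with hT'
  set T := univ.filter (fun e => S.InT k ω g e) with hT
  have hFT : ∀ e' ∈ T', F e' ∈ T := by
    intro e' he'
    rw [hT', mem_filter] at he'
    rw [hT, mem_filter]
    exact ⟨mem_univ _, (hF e' he'.2).2.1⟩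
  have hinj : Set.InjOn F T' := by
    intro a ha b hb hab
    rw [mem_coe, hT', mem_filter] at ha hb
    have h1 := (hF a ha.2).1
    have h2 := (hF b hb.2).1
    rw [hab] at h1
    exact S.inj g' (h1.symm.trans h2)
  have hcle : S.cost k ω g' ≤ ∑ e' ∈ T', (S.I + 1 - S.lev (F e')) := by
    unfold cost
    refine sum_le_sum fun e' he' => ?_
    rw [mem_filter] at he'
    have := (hF e' he'.2).2.2
    omega
  have himg : ∑ e' ∈ T', (S.I + 1 - S.lev (F e')) = ∑ f ∈ T'.image F, (S.I + 1 - S.lev f) :=
    (sum_image (f := fun f => S.I + 1 - S.lev f) hinj).symm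
  have hsub : T'.image F ⊆ T := by
    intro f hf
    obtain ⟨e', he', rfl⟩ := mem_image.1 hf
    exact hFT e' he'
  have hsd : ∑ f ∈ T'.image F, (S.I + 1 - S.lev f) + ∑ f ∈ T \ T'.image F, (S.I + 1 - S.lev f) =
      S.cost k ω g := by
    unfold cost
    rw [add_comm]
    exact sum_sdiff hsub
  -- the complement is empty
  have heT : e ∈ T := by
    rw [hT, mem_filter]; exact ⟨mem_univ _, he⟩
  have hmem : e ∈ T'.image F := by
    by_contra hc
    have h1 : e ∈ T \ T'.image F := mem_sdiff.2 ⟨heT, hc⟩
    have h2 : S.I + 1 - S.lev e ≤ ∑ f ∈ T \ T'.image F, (S.I + 1 - S.lev f) :=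
      single_le_sum (f := fun f => S.I + 1 - S.lev f) (fun _ _ => Nat.zero_le _) h1
    have h3 := S.hI e
    omega
  obtain ⟨e', he', hee'⟩ := mem_image.1 hmem
  have he'T := he'
  rw [hT', mem_filter] at he'T
  have h4 := hF e' he'T.2
  refine ⟨e', ?_, ?_, he'T.2⟩
  · rw [← h4.1, hee']
  · by_contra hne
    have h5 : S.lev e < S.lev e' := by
      have := h4.2.2
      rw [hee'] at this
      omega
    have h6 : S.cost k ω g' < ∑ e' ∈ T', (S.I + 1 - S.lev (F e')) := by
      unfold cost
      refine sum_lt_sum (fun a ha => ?_) ⟨e', he', ?_⟩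
      · rw [mem_filter] at ha
        have := (hF a ha.2).2.2
        omega
      · have h7 := S.hI e'
        rw [hee']
        omega
    omega

end Sys
end KK
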