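import Crest.Agent.KK_A3d
import Crest.Agent.KK_A2a
import Crest.Agent.KK_A2b
import Crest.Agent.KK_A2d

set_option autoImplicit false

namespace KK
open Finset
namespace Sys
variable {X G H : Type} [Fintype X] [DecidableEq X] [Fintype G] [Fintype H] [DecidableEq H]
  (S : Sys X G H)

/-- Encoding of a bad pair. Take `g` from `Bad`, `T = {φ g e | InT k ω g e}`, `ω' = plant k ω g`.
`dec_plant` shows that `Dec` is satisfiable; `best_dec` applied to `g' = gh k n ω'` shows that
`E = {e' | φ g' e' ∈ T}` has image `T`, levels as in `g` (so level sizes `n i = num k ω g i`), labels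
`d k (lev e')` (`plant_of_inT`), and `Val` of `g` gives `Qrel`. -/
theorem encode [Nonempty G] (k : ℕ) (n : Fin (S.I + 1) → ℕ) (ω : X → Fin (S.K + 1)) (g0 : G)
    (h : S.Bad k n ω g0) : ∃ (T : Finset X) (ω' : X → Fin (S.K + 1)),
      (∀ x, x ∉ T → ω' x = ω x) ∧ T ∈ S.Dset k n ω' ∧ S.Qrel k n ω' T g0 := by
  classical
  obtain ⟨g, hbest, hn⟩ := h
  have hdec : S.Dec k n (S.plant k ω g) g := S.dec_plant k n ω g hbest.1.1 hn
  have hex : ∃ g, S.Dec k n (S.plant k ω g) g := ⟨g, hdec⟩
  set ω' : X → Fin (S.K + 1) := S.plant k ω g with hω'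
  set g' : G := S.gh k n ω' with hg'
  have hd' : S.Dec k n ω' g' := S.gh_spec k n ω' ⟨g, hdec⟩
  set T : Finset X := (univ.filter fun e => S.InT k ω g e).image (S.φ g) with hT
  have hbd := S.best_dec k n ω g0 g g' hbest hn hd'
  -- membership in T via g'
  have key : ∀ e', S.φ g' e' ∈ T → ∃ e, S.InT k ω g e ∧ S.φ g e = S.φ g' e' ∧
      S.lev e' = S.lev e := by
    intro e' he'
    rw [hT, mem_image] at he'
    obtain ⟨e, he, hee⟩ := he'
    rw [mem_filter] at he
    obtain ⟨e'', h1, h2, _⟩ := hbd e he.2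
    have h3 : e'' = e' := S.inj g' (h1.trans hee)
    subst h3
    exact ⟨e, he.2, hee, h2⟩
  refine ⟨T, ω', ?_, ?_, ?_⟩
  · intro x hx
    refine S.plant_of_not k ω g x fun e he hex => hx ?_
    rw [hT, mem_image]
    exact ⟨e, by simp [he], hex⟩
  · rw [mem_Dset]
    refine ⟨univ.filter fun e' => S.φ g' e' ∈ T, ⟨g, hdec⟩, ?_, ?_, ?_⟩
    · intro i
      have himg : ((univ.filter fun e' => S.φ g' e' ∈ T).filter fun e => S.lev e = (i : ℕ)).image
          (S.φ g') = (univ.filter fun e => S.InT k ω g e ∧ S.lev e = (i : ℕ)).image (S.φ g) := by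
        ext x
        simp only [mem_image, mem_filter, mem_univ, true_and]
        constructor
        · rintro ⟨e', ⟨h1, h2⟩, rfl⟩
          obtain ⟨e, h3, h4, h5⟩ := key e' h1
          exact ⟨e, ⟨h3, h5 ▸ h2⟩, h4⟩
        · rintro ⟨e, ⟨h1, h2⟩, rfl⟩
          obtain ⟨e', h3, h4, _⟩ := hbd e h1
          refine ⟨e', ⟨?_, h4.trans h2⟩, h3⟩
          rw [h3, hT, mem_image]
          exact ⟨e, by simp [h1], rfl⟩
      have h1 := congrArg Finset.card himg
      rw [card_image_of_injective _ (S.inj g'), card_image_of_injective _ (S.inj g)] at h1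
      rw [h1, ← hn i]
      unfold num cnt
      congr
    · intro e' he'
      rw [mem_filter] at he'
      obtain ⟨e, h1, h2, h3⟩ := key e' he'.2
      rw [← hg', ← h2, h3]
      exact S.plant_of_inT k ω g e h1
    · ext x
      simp only [mem_image, mem_filter, mem_univ, true_and]
      rw [← hg']
      constructor
      · rintro ⟨e', h1, rfl⟩
        exact h1
      · intro hx
        rw [hT, mem_image] at hx
        obtain ⟨e, he, rfl⟩ := hx
        rw [mem_filter] at he
        obtain ⟨e', h3, _, _⟩ := hbd e he.2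
        refine ⟨e', ?_, h3⟩
        rw [h3, hT, mem_image]
        exact ⟨e, by simp [he.2], rfl⟩
  · intro e' he'
    rw [← hg'] at he' ⊢
    obtain ⟨e, h1, h2, h3⟩ := key e' he'
    obtain ⟨e0, h4, h5⟩ := hbest.1.2 e h1
    exact ⟨e0, h4.trans h2, h3 ▸ h5⟩

end Sys
end KK
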