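import Crest.Agent.KK_Pr

set_option autoImplicit false

namespace KK
open Finset
namespace Sys
variable {X G H : Type} [Fintype X] [DecidableEq X] [Fintype G] [Fintype H] [DecidableEq H]
  (S : Sys X G H)

omit [Fintype X] [DecidableEq X] [Fintype G] [Fintype H] [DecidableEq H] in
theorem cnt_eq_h67 {α : Type} [Fintype α] (P : α → Prop) [DecidablePred P] :
    cnt P = (univ.filter P).card := by
  unfold cnt; congr!

/-- Number of hidden copies `g0` which level-dominate the set `E` of positions of `g'`.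
Proof: for such `g0` choose `f : E → H` with `φ g0 (f e) = φ g' e`, `lev (f e) ≤ lev e`; `f` is
injective. Let `J i = f '' {e ∈ E | lev e = i}`, a subset of `{lev ≤ i}` (at most `64 ^ i` elements)
of size `#{e ∈ E | lev e = i}`; the union `J` has `|E|` elements (disjoint images) and
`J.image (φ g0) = E.image (φ g')`. So the set of these `g0` is covered by the sets
`{g0 | (⋃ J i).image (φ g0) = E.image (φ g')}`, over the tuples `J ∈ Fintype.piFinset fun i =>
powersetCard _ {lev ≤ i}` with `|⋃ J i| = |E|`; each has at most `2 p^|E| |G|` elements by `Hyp`. -/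
theorem card_dominating (hL : S.LevOK) (p : ℝ) (hp : 0 ≤ p) (hH : S.Hyp p) (g' : G)
    (E : Finset H) :
    ((cnt fun g0 => ∀ e ∈ E, ∃ e0, S.φ g0 e0 = S.φ g' e ∧ S.lev e0 ≤ S.lev e : ℕ) : ℝ) ≤
      (∏ i : Fin (S.I + 1), (((64 ^ (i : ℕ)).choose
        (E.filter fun e => S.lev e = (i : ℕ)).card : ℕ) : ℝ)) *
      (2 * p ^ E.card * (Fintype.card G : ℝ)) := by
  classical
  set c : Fin (S.I + 1) → ℕ := fun i => (E.filter fun e => S.lev e = (i : ℕ)).card with hc
  set P0 : Finset (Fin (S.I + 1) → Finset H) :=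
    Fintype.piFinset (fun i : Fin (S.I + 1) =>
      powersetCard (c i) (univ.filter fun e : H => S.lev e ≤ (i : ℕ))) with hP0
  set T : Finset (Fin (S.I + 1) → Finset H) :=
    P0.filter (fun J => (univ.biUnion J).card = E.card) with hT
  have hcover : (univ.filter fun g0 : G =>
      ∀ e ∈ E, ∃ e0, S.φ g0 e0 = S.φ g' e ∧ S.lev e0 ≤ S.lev e) ⊆
      T.biUnion (fun J => univ.filter fun g0 : G =>
        (univ.biUnion J).image (S.φ g0) = E.image (S.φ g')) := by
    intro g0 hg0
    rw [mem_filter] at hg0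
    have h := hg0.2
    choose! f hf1 hf2 using h
    have hinj : Set.InjOn f (E : Set H) := by
      intro a ha b hb hab
      have h1 := hf1 a ha
      have h2 := hf1 b hb
      rw [hab, h2] at h1
      exact (S.inj g' h1).symm
    have hU : univ.biUnion (fun i : Fin (S.I + 1) =>
        (E.filter fun e => S.lev e = (i : ℕ)).image f) = E.image f := by
      ext x
      simp only [mem_biUnion, mem_univ, true_and, mem_image, mem_filter]
      constructor
      · rintro ⟨i, e, ⟨he, _⟩, hx⟩
        exact ⟨e, he, hx⟩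
      · rintro ⟨e, he, hx⟩
        exact ⟨⟨S.lev e, Nat.lt_succ_of_le (S.hI e)⟩, e, ⟨he, rfl⟩, hx⟩
    rw [mem_biUnion]
    refine ⟨fun i : Fin (S.I + 1) => (E.filter fun e => S.lev e = (i : ℕ)).image f, ?_, ?_⟩
    · rw [hT, mem_filter]
      refine ⟨?_, ?_⟩
      · rw [hP0, Fintype.mem_piFinset]
        intro i
        rw [mem_powersetCard]
        refine ⟨?_, ?_⟩
        · intro x hx
          rw [mem_image] at hx
          obtain ⟨e, he, rfl⟩ := hx
          rw [mem_filter] at he
          rw [mem_filter]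
          exact ⟨mem_univ _, by rw [← he.2]; exact hf2 e he.1⟩
        · rw [card_image_of_injOn]
          exact hinj.mono (by intro x hx; exact (mem_filter.mp (mem_coe.mp hx)).1)
      · rw [hU, card_image_of_injOn hinj]
    · rw [mem_filter]
      refine ⟨mem_univ _, ?_⟩
      rw [hU, image_image]
      refine image_congr ?_
      intro e he
      exact hf1 e he
  have h1 : ((cnt fun g0 => ∀ e ∈ E, ∃ e0, S.φ g0 e0 = S.φ g' e ∧ S.lev e0 ≤ S.lev e : ℕ) : ℝ) ≤
      ∑ J ∈ T, 2 * p ^ E.card * (Fintype.card G : ℝ) := by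
    have h2 := (card_le_card hcover).trans card_biUnion_le
    have h3 : (cnt fun g0 => ∀ e ∈ E, ∃ e0, S.φ g0 e0 = S.φ g' e ∧ S.lev e0 ≤ S.lev e) ≤
        ∑ J ∈ T, (univ.filter fun g0 : G =>
        (univ.biUnion J).image (S.φ g0) = E.image (S.φ g')).card := by
      rw [cnt_eq_h67]
      exact h2
    refine (Nat.cast_le (α := ℝ).mpr h3).trans ?_
    rw [Nat.cast_sum]
    refine sum_le_sum fun J hJ => ?_
    have h4 := hH (univ.biUnion J) (E.image (S.φ g'))
    rw [hT, mem_filter] at hJ
    rw [hJ.2] at h4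
    rw [cnt_eq_h67] at h4
    exact h4
  refine h1.trans ?_
  rw [sum_const, nsmul_eq_mul]
  have h0 : 0 ≤ 2 * p ^ E.card * (Fintype.card G : ℝ) := by positivity
  refine mul_le_mul_of_nonneg_right ?_ h0
  have h5 : T.card ≤ ∏ i : Fin (S.I + 1), (64 ^ (i : ℕ)).choose (c i) := by
    refine (card_filter_le _ _).trans ?_
    rw [hP0, Fintype.card_piFinset]
    refine prod_le_prod' fun i _ => ?_
    rw [card_powersetCard]
    refine Nat.choose_le_choose _ ?_
    have := hL i
    rw [cnt_eq_h67] at this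
    exact this
  calc (T.card : ℝ) ≤ ((∏ i : Fin (S.I + 1), (64 ^ (i : ℕ)).choose (c i) : ℕ) : ℝ) :=
        Nat.cast_le.mpr h5
    _ = _ := by push_cast; rfl

end Sys
end KK
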