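import Crest.Agent.KK_Pr

set_option autoImplicit false

namespace KK
open Finset
namespace Sys
variable {X G H : Type} [Fintype X] [DecidableEq X] [Fintype G] [Fintype H] [DecidableEq H]
  (S : Sys X G H)

private theorem A3c_cnt_mono {α : Type} [Fintype α] {P Q : α → Prop} (h : ∀ a, P a → Q a) :
    cnt P ≤ cnt Q := by
  classical
  unfold cnt
  apply card_le_card
  intro a ha
  rw [mem_filter] at ha ⊢
  exact ⟨ha.1, h a ha.2⟩

/-- Number of positions of level `i` of a decoded copy with label `d k i`. Proof: at most `64 ^ i` by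
`LevOK`; if `i + k ≥ 1` use `Dec` with `r = i + k - 1 < d k i = i + k`:
`θ i (i+k-1) = 64^i * 16^(I-i-k+1)`; if `i = k = 0` then `16^(I+1) ≥ 1`. -/
theorem card_le_Vb (hL : S.LevOK) (k : ℕ) (n : Fin (S.I + 1) → ℕ) (ω' : X → Fin (S.K + 1)) (g : G)
    (hd : S.Dec k n ω' g) (i : ℕ) (hi : i ≤ S.I) (hik : i + k < S.K) :
    ((cnt fun e => S.lev e = i ∧ (ω' (S.φ g e) : ℕ) = S.d k i : ℕ) : ℝ) ≤ S.Vb k i := by
  have hd' : S.d k i = i + k := by unfold d; exact min_eq_left hik.le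
  have h1 : ((cnt fun e => S.lev e = i ∧ (ω' (S.φ g e) : ℕ) = S.d k i : ℕ) : ℝ) ≤ (64 : ℝ) ^ i := by
    have h2 : cnt (fun e => S.lev e = i ∧ (ω' (S.φ g e) : ℕ) = S.d k i) ≤ 64 ^ i :=
      (A3c_cnt_mono fun e he => he.1.le).trans (hL i)
    exact_mod_cast h2
  have h3 : ((cnt fun e => S.lev e = i ∧ (ω' (S.φ g e) : ℕ) = S.d k i : ℕ) : ℝ) ≤
      (64 : ℝ) ^ i * (16 : ℝ) ^ ((S.I : ℤ) - (i : ℤ) - (k : ℤ) + 1) := by
    by_cases h0 : i + k = 0
    · have hi0 : i = 0 := by omega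
      have hk0 : k = 0 := by omega
      refine h1.trans ?_
      have h4 : (1 : ℝ) ≤ (16 : ℝ) ^ ((S.I : ℤ) - (i : ℤ) - (k : ℤ) + 1) := by
        apply one_le_zpow₀ (by norm_num)
        rw [hi0, hk0]
        push_cast
        omega
      have h5 : (0 : ℝ) < (64 : ℝ) ^ i := by positivity
      nlinarith
    · have h6 := hd.2 i hi (i + k - 1) (by rw [hd']; omega)
      have h7 : (0 : ℝ) ≤ (S.NN k n (i + k - 1) : ℝ) := Nat.cast_nonneg _
      have h8 : ((cnt fun e => S.lev e = i ∧ (ω' (S.φ g e) : ℕ) = S.d k i : ℕ) : ℝ) ≤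
          ((cnt fun e => S.lev e ≤ i ∧ i + k - 1 < (ω' (S.φ g e) : ℕ) : ℕ) : ℝ) := by
        have h9 : cnt (fun e => S.lev e = i ∧ (ω' (S.φ g e) : ℕ) = S.d k i) ≤
            cnt (fun e => S.lev e ≤ i ∧ i + k - 1 < (ω' (S.φ g e) : ℕ)) := by
          apply A3c_cnt_mono
          rintro e ⟨he1, he2⟩
          refine ⟨he1.le, ?_⟩
          rw [he2, hd']
          omega
        exact_mod_cast h9
      have h10 : S.θ i (i + k - 1) =
          (64 : ℝ) ^ i * (16 : ℝ) ^ ((S.I : ℤ) - (i : ℤ) - (k : ℤ) + 1) := by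
        unfold θ
        congr 2
        omega
      rw [← h10]
      linarith
  unfold Vb
  rw [mul_min_of_nonneg _ _ (by positivity), mul_one]
  exact le_min h1 h3

end Sys
end KK
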