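import Crest.Agent.KK_Pr

/-! definitions for the encoding of bad pairs (no sorries here) -/

set_option autoImplicit false

namespace KK
open Finset
namespace Sys
variable {X G H : Type} [Fintype X] [DecidableEq X] [Fintype G] [Fintype H] [DecidableEq H]
  (S : Sys X G H)

/-- the decoded copy (any copy satisfying `Dec` if there is one) -/
noncomputable def gh [Nonempty G] (k : ℕ) (n : Fin (S.I + 1) → ℕ) (ω' : X → Fin (S.K + 1)) : G :=
  Classical.epsilon (S.Dec k n ω')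

theorem gh_spec [Nonempty G] (k : ℕ) (n : Fin (S.I + 1) → ℕ) (ω' : X → Fin (S.K + 1))
    (h : ∃ g, S.Dec k n ω' g) : S.Dec k n ω' (S.gh k n ω') :=
  Classical.epsilon_spec h

open Classical in
/-- the list of possible fragments of the decoder -/
noncomputable def Dset [Nonempty G] (k : ℕ) (n : Fin (S.I + 1) → ℕ) (ω' : X → Fin (S.K + 1)) :
    Finset (Finset X) :=
  (univ.filter fun E : Finset H => (∃ g, S.Dec k n ω' g) ∧
    (∀ i : Fin (S.I + 1), (E.filter fun e => S.lev e = (i : ℕ)).card = n i) ∧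
    ∀ e ∈ E, (ω' (S.φ (S.gh k n ω') e) : ℕ) = S.d k (S.lev e)).image
      (fun E => E.image (S.φ (S.gh k n ω')))

/-- the hidden copy dominates the part `T` of the decoded copy -/
def Qrel [Nonempty G] (k : ℕ) (n : Fin (S.I + 1) → ℕ) (ω' : X → Fin (S.K + 1)) (T : Finset X)
    (g0 : G) : Prop :=
  ∀ e, S.φ (S.gh k n ω') e ∈ T → ∃ e0, S.φ g0 e0 = S.φ (S.gh k n ω') e ∧ S.lev e0 ≤ S.lev e

/-- explicit description of `Dset` -/
theorem mem_Dset [Nonempty G] (k : ℕ) (n : Fin (S.I + 1) → ℕ) (ω' : X → Fin (S.K + 1))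
    (T : Finset X) : T ∈ S.Dset k n ω' ↔ ∃ E : Finset H, (∃ g, S.Dec k n ω' g) ∧
    (∀ i : Fin (S.I + 1), (E.filter fun e => S.lev e = (i : ℕ)).card = n i) ∧
    (∀ e ∈ E, (ω' (S.φ (S.gh k n ω') e) : ℕ) = S.d k (S.lev e)) ∧
    E.image (S.φ (S.gh k n ω')) = T := by
  classical
  unfold Dset
  simp only [mem_image, mem_filter, mem_univ, true_and]
  constructor
  · rintro ⟨E, ⟨h1, h2, h3⟩, h4⟩; exact ⟨E, h1, h2, h3, h4⟩
  · rintro ⟨E, h1, h2, h3, h4⟩; exact ⟨E, ⟨h1, h2, h3⟩, h4⟩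

end Sys
end KK
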