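import Crest.Agent.KK_A3a
import Crest.Agent.KK_A3b
import Crest.Agent.KK_A3c
import Crest.Agent.KK_A3d

set_option autoImplicit false

namespace KK
open Finset
namespace Sys
variable {X G H : Type} [Fintype X] [DecidableEq X] [Fintype G] [Fintype H] [DecidableEq H]
  (S : Sys X G H)

private theorem A3f_le_cnt {α : Type} [Fintype α] (P : α → Prop) (s : Finset α)
    (h : ∀ a ∈ s, P a) : s.card ≤ cnt P := by
  unfold cnt
  exact card_le_card fun a ha => by simpa using h a ha

private theorem A3f_Vb_nonneg (k i : ℕ) : 0 ≤ S.Vb k i := by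
  unfold Vb
  exact mul_nonneg (by positivity) (le_min zero_le_one (by positivity))

private theorem A3f_lt {k : ℕ} {n : Fin (S.I + 1) → ℕ} (hn : n ∈ S.Nset k) (i : Fin (S.I + 1))
    (hi : n i ≠ 0) : (i : ℕ) + k < S.K := by
  classical
  unfold Nset at hn
  rw [mem_filter] at hn
  by_contra h
  exact hi (hn.2.2 i (not_lt.1 h))

/-- number of decoder choices: `card_level_sets` for
`V = {e | ω' (φ g' e) = d k (lev e)}`, `card_le_Vb` (only levels with `n i ≠ 0` matter, for these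
`i + k < K` by `n ∈ Nset k`; a factor with `n i = 0` is `1`), `choose_le_pow`. -/
theorem card_Dset [Nonempty G] (hL : S.LevOK) (k : ℕ) (n : Fin (S.I + 1) → ℕ) (hn : n ∈ S.Nset k)
    (ω' : X → Fin (S.K + 1)) :
    ((S.Dset k n ω').card : ℝ) ≤
      ∏ i : Fin (S.I + 1), ((S.Vb k i) ^ (n i) / ((n i).factorial : ℝ)) := by
  classical
  by_cases hD : ∃ g, S.Dec k n ω' g
  · have hgh := S.gh_spec k n ω' hD
    set g' := S.gh k n ω' with hg'
    let V : Finset H := univ.filter fun e => (ω' (S.φ g' e) : ℕ) = S.d k (S.lev e)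
    have h1 : (S.Dset k n ω').card ≤
        (V.powerset.filter (fun E => ∀ i : Fin (S.I + 1),
          (E.filter fun e => S.lev e = (i : ℕ)).card = n i)).card := by
      unfold Dset
      refine card_image_le.trans (card_le_card ?_)
      intro E hE
      rw [mem_filter] at hE
      rw [mem_filter, mem_powerset]
      refine ⟨fun e he => ?_, hE.2.2.1⟩
      exact mem_filter.2 ⟨mem_univ _, hE.2.2.2 e he⟩
    have h2 := h1.trans (card_level_sets S.lev S.I S.hI V n)
    have h3 : ((S.Dset k n ω').card : ℝ) ≤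
        ∏ i : Fin (S.I + 1), ((((V.filter fun e => S.lev e = (i : ℕ)).card).choose (n i) : ℕ) : ℝ) := by
      rw [← Nat.cast_prod]
      exact_mod_cast h2
    refine h3.trans (prod_le_prod (fun i _ => Nat.cast_nonneg _) fun i _ => ?_)
    by_cases hi : n i = 0
    · rw [hi]; simp
    · apply choose_le_pow
      have h4 := S.card_le_Vb hL k n ω' g' hgh i (Nat.lt_succ_iff.1 i.2) (S.A3f_lt hn i hi)
      refine le_trans ?_ h4
      rw [Nat.cast_le]
      apply A3f_le_cnt
      intro e he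
      rw [mem_filter] at he
      obtain ⟨he1, he2⟩ := he
      have he3 := (mem_filter.1 he1).2
      refine ⟨he2, ?_⟩
      rw [he3, he2]
  · have h0 : S.Dset k n ω' = ∅ := by
      rw [eq_empty_iff_forall_notMem]
      intro T hT
      rw [mem_Dset] at hT
      obtain ⟨E, hE, -⟩ := hT
      exact hD hE
    rw [h0, card_empty, Nat.cast_zero]
    exact prod_nonneg fun i _ => div_nonneg (pow_nonneg (S.A3f_Vb_nonneg _ _) _) (Nat.cast_nonneg _)

private theorem A3f_card {n : Fin (S.I + 1) → ℕ} (E : Finset H)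
    (hE : ∀ i : Fin (S.I + 1), (E.filter fun e => S.lev e = (i : ℕ)).card = n i) :
    E.card = ∑ i, n i := by
  classical
  have hlt : ∀ e, S.lev e < S.I + 1 := fun e => Nat.lt_succ_iff.2 (S.hI e)
  rw [card_eq_sum_card_fiberwise (f := fun e => (⟨S.lev e, hlt e⟩ : Fin (S.I + 1))) (t := univ)
    (fun e _ => mem_univ _)]
  refine sum_congr rfl fun i _ => ?_
  rw [← hE i]
  congr 1
  ext e
  simp only [mem_filter, Fin.ext_iff]

/-- number of hidden copies: `card_dominating`, `choose_le_pow`, `|E| = ∑ n i` -/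
theorem card_Qrel [Nonempty G] (hL : S.LevOK) (p : ℝ) (hp : 0 ≤ p) (hH : S.Hyp p) (k : ℕ)
    (n : Fin (S.I + 1) → ℕ) (ω' : X → Fin (S.K + 1)) (T : Finset X) (hT : T ∈ S.Dset k n ω') :
    ((cnt fun g0 => S.Qrel k n ω' T g0 : ℕ) : ℝ) ≤
      (∏ i : Fin (S.I + 1), (((64 : ℝ) ^ (i : ℕ)) ^ (n i) / ((n i).factorial : ℝ))) *
        (2 * p ^ (∑ i, n i) * (Fintype.card G : ℝ)) := by
  classical
  rw [mem_Dset] at hT
  obtain ⟨E, -, hE, -, rfl⟩ := hT
  have h1 := S.card_dominating hL p hp hH (S.gh k n ω') E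
  have h2 : ((cnt fun g0 => S.Qrel k n ω' (E.image (S.φ (S.gh k n ω'))) g0 : ℕ) : ℝ) ≤
      ((cnt fun g0 => ∀ e ∈ E, ∃ e0, S.φ g0 e0 = S.φ (S.gh k n ω') e ∧
        S.lev e0 ≤ S.lev e : ℕ) : ℝ) := by
    rw [Nat.cast_le]
    apply cnt_mono
    intro g0 hg0 e he
    exact hg0 e (mem_image_of_mem _ he)
  refine h2.trans (h1.trans ?_)
  rw [S.A3f_card E hE]
  refine mul_le_mul_of_nonneg_right (prod_le_prod (fun i _ => Nat.cast_nonneg _) fun i _ => ?_)
    (by positivity)
  rw [hE i]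
  apply choose_le_pow
  push_cast
  exact le_rfl

/-- the weight of the planted labels: `T = E.image (φ g')`, labels `d k (lev e) = lev e + k < K`
(levels with `n i ≠ 0`), `Finset.prod_fiberwise`-type regrouping by levels. -/
theorem weight_Dset [Nonempty G] (p : ℝ) (w : Fin (S.K + 1) → ℝ) (hw : S.WOK p w) (k : ℕ)
    (n : Fin (S.I + 1) → ℕ) (hn : n ∈ S.Nset k) (ω' : X → Fin (S.K + 1)) (T : Finset X)
    (hT : T ∈ S.Dset k n ω') :
    ∏ x ∈ T, w (ω' x) =
      ∏ i : Fin (S.I + 1), (4096 * p * (1024 : ℝ) ^ (((i : ℕ) : ℤ) + (k : ℤ) - (S.I : ℤ))) ^ (n i) := by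
  classical
  rw [mem_Dset] at hT
  obtain ⟨E, -, hE, hd, rfl⟩ := hT
  have hlt : ∀ e, S.lev e < S.I + 1 := fun e => Nat.lt_succ_iff.2 (S.hI e)
  rw [prod_image (fun a _ b _ h => S.inj _ h)]
  rw [← prod_fiberwise_of_maps_to (s := E) (t := univ)
    (g := fun e => (⟨S.lev e, hlt e⟩ : Fin (S.I + 1))) (fun e _ => mem_univ _)]
  refine prod_congr rfl fun i _ => ?_
  have hfil : (E.filter fun e => (⟨S.lev e, hlt e⟩ : Fin (S.I + 1)) = i) =
      E.filter fun e => S.lev e = (i : ℕ) := by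
    ext e
    simp only [mem_filter, Fin.ext_iff]
  rw [hfil, ← hE i, ← prod_const]
  refine prod_congr rfl fun e he => ?_
  rw [mem_filter] at he
  obtain ⟨he1, he2⟩ := he
  have hni : n i ≠ 0 := by
    rw [← hE i]
    exact (card_pos.2 ⟨e, mem_filter.2 ⟨he1, he2⟩⟩).ne'
  have hik := S.A3f_lt hn i hni
  have hval : (ω' (S.φ (S.gh k n ω') e) : ℕ) = (i : ℕ) + k := by
    rw [hd e he1, he2]
    unfold d
    exact min_eq_left hik.le
  rw [hw.2.2 _ (by rw [hval]; exact hik), hval]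
  push_cast
  rfl

end Sys
end KK
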