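import Crest.Agent.KK_Defs

set_option autoImplicit false

namespace KK
open Finset
namespace Sys
variable {X G H : Type} [Fintype X] [DecidableEq X] [Fintype G] [Fintype H] [DecidableEq H]
  (S : Sys X G H)

/-- With `u = i + k - I`, `σ = k - I`: the left side is `2 ^ (2 u - 12 - 12 σ) * min 1 (2 ^ (4 - 4 u))`
and the right side is `2 ^ (-8 - 12 σ - 2 |u|)`. (Everything is a power of 2 with integer exponents.) -/
theorem y_bound (k i : ℕ) :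
    S.Vb k i * (64 : ℝ) ^ i / (4096 * (1024 : ℝ) ^ ((i : ℤ) + (k : ℤ) - (S.I : ℤ))) ≤ (S.y k i) ^ 2 := by
  have h2 : (2 : ℝ) ≠ 0 := two_ne_zero
  have h64 : (64 : ℝ) ^ i = (2 : ℝ) ^ (6 * (i : ℤ)) := by
    rw [zpow_mul, zpow_natCast]; norm_num
  have h1024 : (1024 : ℝ) ^ ((i : ℤ) + (k : ℤ) - (S.I : ℤ))
      = (2 : ℝ) ^ (10 * ((i : ℤ) + (k : ℤ) - (S.I : ℤ))) := by
    rw [zpow_mul]; norm_num
  have h16 : (16 : ℝ) ^ ((S.I : ℤ) - (i : ℤ) - (k : ℤ) + 1)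
      = (2 : ℝ) ^ (4 * ((S.I : ℤ) - (i : ℤ) - (k : ℤ) + 1)) := by
    rw [zpow_mul]; norm_num
  have h4096 : (4096 : ℝ) = (2 : ℝ) ^ (12 : ℤ) := by norm_num
  unfold Vb y
  rw [h64, h1024, h16, h4096, ← zpow_natCast ((2 : ℝ) ^ _) 2, ← zpow_mul, ← zpow_add₀ h2]
  have key : min (1 : ℝ) ((2 : ℝ) ^ (4 * ((S.I : ℤ) - (i : ℤ) - (k : ℤ) + 1)))
      ≤ (2 : ℝ) ^ (min 0 (4 * ((S.I : ℤ) - (i : ℤ) - (k : ℤ) + 1))) := by
    rcases le_total (0 : ℤ) (4 * ((S.I : ℤ) - (i : ℤ) - (k : ℤ) + 1)) with h | h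
    · rw [min_eq_left h, zpow_zero]; exact min_le_left _ _
    · rw [min_eq_right h]; exact min_le_right _ _
  rw [div_le_iff₀ (by positivity)]
  have e1 : (2 : ℝ) ^ (6 * (i : ℤ)) * min 1 ((2 : ℝ) ^ (4 * ((S.I : ℤ) - (i : ℤ) - (k : ℤ) + 1)))
      * (2 : ℝ) ^ (6 * (i : ℤ))
      ≤ (2 : ℝ) ^ (6 * (i : ℤ)) * (2 : ℝ) ^ (min 0 (4 * ((S.I : ℤ) - (i : ℤ) - (k : ℤ) + 1)))
      * (2 : ℝ) ^ (6 * (i : ℤ)) := by
    gcongr
  refine e1.trans ?_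
  rw [← zpow_add₀ h2, ← zpow_add₀ h2, ← zpow_add₀ h2]
  apply zpow_le_zpow_right₀ (by norm_num)
  push_cast
  rcases abs_cases ((i : ℤ) + ((k : ℤ) - (S.I : ℤ))) with ⟨h, h'⟩ | ⟨h, h'⟩ <;>
  rcases min_cases (0 : ℤ) (4 * ((S.I : ℤ) - (i : ℤ) - (k : ℤ) + 1)) with ⟨g, g'⟩ | ⟨g, g'⟩ <;>
  rw [h, g] <;> omega

theorem y_pos (k i : ℕ) : 0 < S.y k i := by
  unfold y; positivity

theorem Vb_nonneg (k i : ℕ) : 0 ≤ S.Vb k i := by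
  unfold Vb; positivity

private theorem kk17_sum1 (s : ℕ) : ∀ n : ℕ, n ≤ s + 1 →
    ∑ i ∈ range n, (2 : ℝ) ^ (-|(i : ℤ) - (s : ℤ)|) ≤ (2 : ℝ) ^ ((n : ℤ) - (s : ℤ)) := by
  intro n
  induction n with
  | zero => intro _; simp only [range_zero, sum_empty]; positivity
  | succ n ih =>
    intro h
    rw [sum_range_succ]
    have h1 := ih (by omega)
    have h2 : -|(n : ℤ) - (s : ℤ)| = (n : ℤ) - (s : ℤ) := by
      rw [abs_of_nonpos (by omega)]; ring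
    rw [h2]
    have h3 : ((n + 1 : ℕ) : ℤ) - (s : ℤ) = ((n : ℤ) - (s : ℤ)) + 1 := by push_cast; ring
    rw [h3, zpow_add_one₀ two_ne_zero]
    linarith

private theorem kk17_sum2 (s : ℕ) : ∀ m : ℕ,
    ∑ i ∈ range (s + 1 + m), (2 : ℝ) ^ (-|(i : ℤ) - (s : ℤ)|) ≤ 3 - (2 : ℝ) ^ (-(m : ℤ)) := by
  intro m
  induction m with
  | zero =>
    have h := kk17_sum1 s (s + 1) le_rfl
    have h3 : ((s + 1 : ℕ) : ℤ) - (s : ℤ) = 1 := by push_cast; ring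
    rw [h3] at h
    simp only [add_zero, Nat.cast_zero, neg_zero, zpow_zero]
    refine h.trans ?_
    norm_num
  | succ m ih =>
    have : s + 1 + (m + 1) = (s + 1 + m) + 1 := by ring
    rw [this, sum_range_succ]
    have h2 : -|((s + 1 + m : ℕ) : ℤ) - (s : ℤ)| = -((m : ℤ)) - 1 := by
      rw [abs_of_nonneg (by push_cast; omega)]; push_cast; ring
    rw [h2]
    have h3 : -((m + 1 : ℕ) : ℤ) = -(m : ℤ) - 1 := by push_cast; ring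
    rw [h3]
    have h4 : (2 : ℝ) ^ (-(m : ℤ)) = 2 * (2 : ℝ) ^ (-(m : ℤ) - 1) := by
      have : (2 : ℝ) ^ (-(m : ℤ)) = (2 : ℝ) ^ ((-(m : ℤ) - 1) + 1) := by congr 1; ring
      rw [this, zpow_add_one₀ two_ne_zero]; ring
    rw [h4] at ih
    linarith

private theorem kk17_sum3 (s n : ℕ) :
    ∑ i ∈ range n, (2 : ℝ) ^ (-|(i : ℤ) - (s : ℤ)|) ≤ 3 := by
  have h1 : ∑ i ∈ range n, (2 : ℝ) ^ (-|(i : ℤ) - (s : ℤ)|)
      ≤ ∑ i ∈ range (s + 1 + n), (2 : ℝ) ^ (-|(i : ℤ) - (s : ℤ)|) := by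
    apply sum_le_sum_of_subset_of_nonneg
    · intro x hx; rw [mem_range] at *; omega
    · intro x _ _; positivity
  refine h1.trans ((kk17_sum2 s n).trans ?_)
  have : (0 : ℝ) < (2 : ℝ) ^ (-(n : ℤ)) := by positivity
  linarith

/-- `∑ y k i ≤ 3/16 * 64^(I-k)` for `k ≤ I` (two sided geometric series `∑ 2^(-|i-(I-k)|) ≤ 3`) -/
theorem sum_y_le (k : ℕ) (hk : k ≤ S.I) :
    ∑ i : Fin (S.I + 1), S.y k i ≤ 3 / 16 * (64 : ℝ) ^ (S.I - k) := by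
  have h64 : (64 : ℝ) ^ (S.I - k) = (2 : ℝ) ^ (6 * ((S.I - k : ℕ) : ℤ)) := by
    rw [zpow_mul, zpow_natCast]; norm_num
  have hy : ∀ i : ℕ, S.y k i = (1 / 16 * (64 : ℝ) ^ (S.I - k))
      * (2 : ℝ) ^ (-|(i : ℤ) - ((S.I - k : ℕ) : ℤ)|) := by
    intro i
    unfold y
    have h16 : (1 / 16 : ℝ) = (2 : ℝ) ^ (-4 : ℤ) := by norm_num
    rw [h64, h16, ← zpow_add₀ two_ne_zero, ← zpow_add₀ two_ne_zero]
    congr 1
    have e : ((S.I - k : ℕ) : ℤ) = (S.I : ℤ) - (k : ℤ) := by omega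
    rw [e]
    have e2 : (i : ℤ) + ((k : ℤ) - (S.I : ℤ)) = (i : ℤ) - ((S.I : ℤ) - (k : ℤ)) := by ring
    rw [e2]; ring
  rw [Fin.sum_univ_eq_sum_range (fun i => S.y k i) (S.I + 1)]
  simp_rw [hy]
  rw [← mul_sum]
  have := kk17_sum3 (S.I - k) (S.I + 1)
  calc (1 / 16 * (64 : ℝ) ^ (S.I - k)) * ∑ i ∈ range (S.I + 1), (2 : ℝ) ^ (-|(i : ℤ) - ((S.I - k : ℕ) : ℤ)|)
      ≤ (1 / 16 * (64 : ℝ) ^ (S.I - k)) * 3 := by gcongr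
    _ = 3 / 16 * (64 : ℝ) ^ (S.I - k) := by ring

private theorem kk17_sum4 (n : ℕ) :
    ∑ i ∈ range n, (2 : ℝ) ^ (-(i : ℤ)) ≤ 2 - 2 * (2 : ℝ) ^ (-(n : ℤ)) := by
  induction n with
  | zero => simp
  | succ n ih =>
    rw [sum_range_succ]
    have h3 : -((n + 1 : ℕ) : ℤ) = -(n : ℤ) - 1 := by push_cast; ring
    rw [h3]
    have h4 : (2 : ℝ) ^ (-(n : ℤ)) = 2 * (2 : ℝ) ^ (-(n : ℤ) - 1) := by
      have : (2 : ℝ) ^ (-(n : ℤ)) = (2 : ℝ) ^ ((-(n : ℤ) - 1) + 1) := by congr 1; ring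
      rw [this, zpow_add_one₀ two_ne_zero]; ring
    rw [h4] at ih ⊢
    linarith

/-- `y k i = 2 ^ (-4 - 7 σ - i)` for `k = I + σ`, so `∑ y k i ≤ 2 ^ (-3 - 7 σ)` -/
theorem sum_y_gt (σ : ℕ) :
    ∑ i : Fin (S.I + 1), S.y (S.I + σ) i ≤ ((2 : ℝ) ^ (3 + 7 * σ))⁻¹ := by
  have hy : ∀ i : ℕ, S.y (S.I + σ) i = (2 : ℝ) ^ (-4 - 7 * (σ : ℤ)) * (2 : ℝ) ^ (-(i : ℤ)) := by
    intro i
    unfold y
    rw [← zpow_add₀ two_ne_zero]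
    congr 1
    have e : (i : ℤ) + (((S.I + σ : ℕ) : ℤ) - (S.I : ℤ)) = (i : ℤ) + (σ : ℤ) := by push_cast; ring
    rw [e, abs_of_nonneg (by positivity)]
    push_cast; ring
  rw [Fin.sum_univ_eq_sum_range (fun i => S.y (S.I + σ) i) (S.I + 1)]
  simp_rw [hy]
  rw [← mul_sum]
  have h := kk17_sum4 (S.I + 1)
  have hpos : (0 : ℝ) < (2 : ℝ) ^ (-((S.I + 1 : ℕ) : ℤ)) := by positivity
  have h5 : ((2 : ℝ) ^ (3 + 7 * σ))⁻¹ = (2 : ℝ) ^ (-4 - 7 * (σ : ℤ)) * 2 := by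
    rw [← zpow_natCast, ← zpow_neg, ← zpow_add_one₀ two_ne_zero]
    congr 1
    push_cast; ring
  rw [h5]
  gcongr
  linarith

end Sys
end KK
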