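import Crest.Agent.KK_Plant
import Crest.Agent.KK_A3e
import Crest.Agent.KK_A3f
import Crest.Agent.KK_A4a

set_option autoImplicit false

namespace KK
open Finset
namespace Sys
variable {X G H : Type} [Fintype X] [DecidableEq X] [Fintype G] [Fintype H] [DecidableEq H]
  (S : Sys X G H)

/-- `planting` with `D = Dset k n`, `Q = Qrel k n`, `N, M, c` from `card_Dset`, `card_Qrel`,
`weight_Dset` (`c > 0` since `p > 0`); then `N * M / c = |G| * 2 * ∏ (Vb * 64^i / (4096 *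
1024^(i+k-I)))^(n i) / ((n i)!)^2` and `y_bound`. -/
theorem pr_bad [Nonempty G] (hL : S.LevOK) (p : ℝ) (hp : 0 < p) (hH : S.Hyp p)
    (w : Fin (S.K + 1) → ℝ) (hw : S.WOK p w) (k : ℕ) (n : Fin (S.I + 1) → ℕ) (hn : n ∈ S.Nset k) :
    ∑ g0, Pr w (fun ω => S.Bad k n ω g0) ≤ (Fintype.card G : ℝ) *
      (2 * ∏ i : Fin (S.I + 1), ((S.y k i) ^ (n i) / ((n i).factorial : ℝ)) ^ 2) := by
  have hb : ∀ i : Fin (S.I + 1),
      0 < 4096 * p * (1024 : ℝ) ^ (((i : ℕ) : ℤ) + (k : ℤ) - (S.I : ℤ)) := by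
    intro i; positivity
  have hc : 0 < ∏ i : Fin (S.I + 1),
      (4096 * p * (1024 : ℝ) ^ (((i : ℕ) : ℤ) + (k : ℤ) - (S.I : ℤ))) ^ (n i) :=
    Finset.prod_pos (fun i _ => pow_pos (hb i) _)
  have hM : 0 ≤ (∏ i : Fin (S.I + 1), (((64 : ℝ) ^ (i : ℕ)) ^ (n i) / ((n i).factorial : ℝ))) *
        (2 * p ^ (∑ i, n i) * (Fintype.card G : ℝ)) := by
    refine mul_nonneg (Finset.prod_nonneg (fun i _ => by positivity)) (by positivity)
  have key := planting w hw.1 hw.2.1 (fun ω g0 => S.Bad k n ω g0) (S.Dset k n) (S.Qrel k n)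
    (∏ i : Fin (S.I + 1),
      (4096 * p * (1024 : ℝ) ^ (((i : ℕ) : ℤ) + (k : ℤ) - (S.I : ℤ))) ^ (n i))
    ((∏ i : Fin (S.I + 1), (((64 : ℝ) ^ (i : ℕ)) ^ (n i) / ((n i).factorial : ℝ))) *
        (2 * p ^ (∑ i, n i) * (Fintype.card G : ℝ)))
    (∏ i : Fin (S.I + 1), ((S.Vb k i) ^ (n i) / ((n i).factorial : ℝ)))
    hc hM (fun ω g h => S.encode k n ω g h) (fun ω' => S.card_Dset hL k n hn ω')
    (fun ω' T hT => (S.weight_Dset p w hw k n hn ω' T hT).ge)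
    (fun ω' T hT => S.card_Qrel hL p hp.le hH k n ω' T hT)
  refine key.trans ?_
  have e1 : (∏ i : Fin (S.I + 1), ((S.Vb k i) ^ (n i) / ((n i).factorial : ℝ))) *
      ((∏ i : Fin (S.I + 1), (((64 : ℝ) ^ (i : ℕ)) ^ (n i) / ((n i).factorial : ℝ))) *
        (2 * p ^ (∑ i, n i) * (Fintype.card G : ℝ))) /
      (∏ i : Fin (S.I + 1),
      (4096 * p * (1024 : ℝ) ^ (((i : ℕ) : ℤ) + (k : ℤ) - (S.I : ℤ))) ^ (n i)) =
      (Fintype.card G : ℝ) * (2 * ∏ i : Fin (S.I + 1),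
        ((S.Vb k i * (64 : ℝ) ^ (i : ℕ) /
          (4096 * (1024 : ℝ) ^ (((i : ℕ) : ℤ) + (k : ℤ) - (S.I : ℤ)))) ^ (n i) /
          ((n i).factorial : ℝ) ^ 2)) := by
    rw [← Finset.prod_pow_eq_pow_sum]
    have e2 : ∀ i : Fin (S.I + 1), ((S.Vb k i * (64 : ℝ) ^ (i : ℕ) /
          (4096 * (1024 : ℝ) ^ (((i : ℕ) : ℤ) + (k : ℤ) - (S.I : ℤ)))) ^ (n i) /
          ((n i).factorial : ℝ) ^ 2) =
        ((S.Vb k i) ^ (n i) / ((n i).factorial : ℝ)) *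
        (((64 : ℝ) ^ (i : ℕ)) ^ (n i) / ((n i).factorial : ℝ)) * p ^ (n i) /
        (4096 * p * (1024 : ℝ) ^ (((i : ℕ) : ℤ) + (k : ℤ) - (S.I : ℤ))) ^ (n i) := by
      intro i
      have hpn : p ≠ 0 := hp.ne'
      have h1024 : (1024 : ℝ) ^ (((i : ℕ) : ℤ) + (k : ℤ) - (S.I : ℤ)) ≠ 0 := by positivity
      have hf : ((n i).factorial : ℝ) ≠ 0 := by positivity
      generalize (1024 : ℝ) ^ (((i : ℕ) : ℤ) + (k : ℤ) - (S.I : ℤ)) = z at h1024 ⊢
      rw [div_pow, mul_pow, mul_pow, mul_pow, mul_pow]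
      have hpp : p ^ (n i) ≠ 0 := pow_ne_zero _ hpn
      have hz : z ^ (n i) ≠ 0 := pow_ne_zero _ h1024
      have h4 : (4096 : ℝ) ^ (n i) ≠ 0 := by positivity
      field_simp
    have e3 : ∏ i : Fin (S.I + 1), (((S.Vb k i) ^ (n i) / ((n i).factorial : ℝ)) *
        (((64 : ℝ) ^ (i : ℕ)) ^ (n i) / ((n i).factorial : ℝ)) * p ^ (n i) /
        (4096 * p * (1024 : ℝ) ^ (((i : ℕ) : ℤ) + (k : ℤ) - (S.I : ℤ))) ^ (n i)) =
        (∏ i : Fin (S.I + 1), ((S.Vb k i) ^ (n i) / ((n i).factorial : ℝ))) *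
        (∏ i : Fin (S.I + 1), (((64 : ℝ) ^ (i : ℕ)) ^ (n i) / ((n i).factorial : ℝ))) *
        (∏ i : Fin (S.I + 1), p ^ (n i)) /
        (∏ i : Fin (S.I + 1),
          (4096 * p * (1024 : ℝ) ^ (((i : ℕ) : ℤ) + (k : ℤ) - (S.I : ℤ))) ^ (n i)) := by
      rw [Finset.prod_div_distrib (f := fun i : Fin (S.I + 1) =>
        ((S.Vb k i) ^ (n i) / ((n i).factorial : ℝ)) *
        (((64 : ℝ) ^ (i : ℕ)) ^ (n i) / ((n i).factorial : ℝ)) * p ^ (n i)),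
        Finset.prod_mul_distrib (f := fun i : Fin (S.I + 1) =>
        ((S.Vb k i) ^ (n i) / ((n i).factorial : ℝ)) *
        (((64 : ℝ) ^ (i : ℕ)) ^ (n i) / ((n i).factorial : ℝ))),
        Finset.prod_mul_distrib (f := fun i : Fin (S.I + 1) =>
        ((S.Vb k i) ^ (n i) / ((n i).factorial : ℝ)))]
    rw [Finset.prod_congr rfl (fun i _ => e2 i), e3]
    ring
  rw [e1]
  refine mul_le_mul_of_nonneg_left (mul_le_mul_of_nonneg_left ?_ (by norm_num)) (by positivity)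
  refine Finset.prod_le_prod (fun i _ => ?_) (fun i _ => ?_)
  · refine div_nonneg (pow_nonneg ?_ _) (by positivity)
    exact div_nonneg (mul_nonneg (S.Vb_nonneg k i) (by positivity)) (by positivity)
  · rw [div_pow (S.y k i ^ n i), ← pow_mul, mul_comm (n i) 2, pow_mul]
    refine div_le_div_of_nonneg_right ?_ (by positivity)
    refine pow_le_pow_left₀ ?_ (S.y_bound k i) _
    exact div_nonneg (mul_nonneg (S.Vb_nonneg k i) (by positivity)) (by positivity)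

end Sys
end KK
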