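import Crest.Agent.KK_Defs

set_option autoImplicit false

namespace KK
open Finset

/-- Chernoff: `∏ (y i ^ n i / (n i)!) ^ 2 ≤ r ^ (-2 v) ∏ ((r y i) ^ n i / (n i)!) ^ 2` when
`∑ n i ≥ v`, `r ≥ 1`; enlarge the sum to all `n ∈ Fintype.piFinset fun _ => range (B+1)` (B a common
bound), which is `∏_i ∑_{m ≤ B} ((r y i)^m / m!)^2 ≤ ∏_i (∑_{m ≤ B} (r y i)^m / m!)^2 ≤ ∏_i exp (2 r y i)`
(`Real.sum_le_exp_of_nonneg`, `Finset.prod_univ_sum`). -/
theorem chernoff (N : ℕ) (y : Fin N → ℝ) (hy : ∀ i, 0 ≤ y i) (r : ℝ) (hr : 1 ≤ r) (v : ℕ)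
    (A : Finset (Fin N → ℕ)) (hA : ∀ n ∈ A, v ≤ ∑ i, n i) :
    ∑ n ∈ A, ∏ i, (y i ^ (n i) / ((n i).factorial : ℝ)) ^ 2 ≤
      (r ^ (2 * v))⁻¹ * Real.exp (2 * r * ∑ i, y i) := by
  have hr0 : 0 < r := by linarith
  set B : ℕ := A.sup (fun n => ∑ i, n i) with hB
  have hsub : A ⊆ Fintype.piFinset fun _ : Fin N => range (B + 1) := by
    intro n hn
    rw [Fintype.mem_piFinset]
    intro i
    rw [mem_range]
    have h1 : n i ≤ ∑ j, n j := single_le_sum (f := n) (fun _ _ => Nat.zero_le _) (mem_univ i)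
    have h2 : ∑ j, n j ≤ B := le_sup (f := fun n : Fin N → ℕ => ∑ i, n i) hn
    omega
  have hterm : ∀ n ∈ A, ∏ i, (y i ^ (n i) / ((n i).factorial : ℝ)) ^ 2 ≤
      (r ^ (2 * v))⁻¹ * ∏ i, ((r * y i) ^ (n i) / ((n i).factorial : ℝ)) ^ 2 := by
    intro n hn
    have e : ∏ i, ((r * y i) ^ (n i) / ((n i).factorial : ℝ)) ^ 2 =
        r ^ (2 * ∑ i, n i) * ∏ i, (y i ^ (n i) / ((n i).factorial : ℝ)) ^ 2 := by
      have : r ^ (2 * ∑ i, n i) = ∏ i, (r ^ (n i)) ^ 2 := by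
        rw [mul_comm 2, pow_mul, ← prod_pow_eq_pow_sum, prod_pow]
      rw [this, ← prod_mul_distrib]
      refine prod_congr rfl fun i _ => ?_
      rw [mul_pow]; ring
    rw [e, ← mul_assoc]
    have h3 : 1 ≤ (r ^ (2 * v))⁻¹ * r ^ (2 * ∑ i, n i) := by
      rw [inv_mul_eq_div, le_div_iff₀ (by positivity), one_mul]
      exact pow_le_pow_right₀ hr (by have := hA n hn; omega)
    have h4 : 0 ≤ ∏ i, (y i ^ (n i) / ((n i).factorial : ℝ)) ^ 2 :=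
      prod_nonneg fun i _ => sq_nonneg _
    nlinarith
  calc ∑ n ∈ A, ∏ i, (y i ^ (n i) / ((n i).factorial : ℝ)) ^ 2
      ≤ ∑ n ∈ A, (r ^ (2 * v))⁻¹ * ∏ i, ((r * y i) ^ (n i) / ((n i).factorial : ℝ)) ^ 2 :=
        sum_le_sum hterm
    _ = (r ^ (2 * v))⁻¹ * ∑ n ∈ A, ∏ i, ((r * y i) ^ (n i) / ((n i).factorial : ℝ)) ^ 2 := by
        rw [mul_sum]
    _ ≤ (r ^ (2 * v))⁻¹ * ∑ n ∈ Fintype.piFinset fun _ : Fin N => range (B + 1),
          ∏ i, ((r * y i) ^ (n i) / ((n i).factorial : ℝ)) ^ 2 := by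
        refine mul_le_mul_of_nonneg_left ?_ (by positivity)
        exact sum_le_sum_of_subset_of_nonneg hsub
          (fun n _ _ => prod_nonneg fun i _ => sq_nonneg _)
    _ = (r ^ (2 * v))⁻¹ * ∏ i, ∑ m ∈ range (B + 1),
          ((r * y i) ^ m / ((m).factorial : ℝ)) ^ 2 := by
        rw [prod_univ_sum]
    _ ≤ (r ^ (2 * v))⁻¹ * ∏ i, Real.exp (2 * r * y i) := by
        refine mul_le_mul_of_nonneg_left ?_ (by positivity)
        refine prod_le_prod (fun i _ => sum_nonneg fun m _ => sq_nonneg _) (fun i _ => ?_)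
        have hry : 0 ≤ r * y i := mul_nonneg hr0.le (hy i)
        have h5 : ∑ m ∈ range (B + 1), (r * y i) ^ m / ((m).factorial : ℝ) ≤
            Real.exp (r * y i) := Real.sum_le_exp_of_nonneg hry (B + 1)
        have h6 : ∑ m ∈ range (B + 1), ((r * y i) ^ m / ((m).factorial : ℝ)) ^ 2 ≤
            (∑ m ∈ range (B + 1), (r * y i) ^ m / ((m).factorial : ℝ)) ^ 2 :=
          sum_sq_le_sq_sum_of_nonneg (fun m _ => by positivity)
        have h7 : 0 ≤ ∑ m ∈ range (B + 1), (r * y i) ^ m / ((m).factorial : ℝ) :=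
          sum_nonneg fun m _ => by positivity
        calc _ ≤ _ := h6
          _ ≤ (Real.exp (r * y i)) ^ 2 := pow_le_pow_left₀ h7 h5 2
          _ = Real.exp (2 * r * y i) := by
            rw [← Real.exp_nat_mul]; congr 1; push_cast; ring
    _ = (r ^ (2 * v))⁻¹ * Real.exp (2 * r * ∑ i, y i) := by
        rw [← Real.exp_sum, mul_sum]

/-- `16^(-4M) exp(3M/2) ≤ 2^(-12 M)` -/
theorem num1 (M : ℕ) (hM : 1 ≤ M) :
    ((4 : ℝ) ^ (2 * (4 * M)))⁻¹ * Real.exp (2 * 4 * (3 / 16 * (M : ℝ))) ≤ ((2 : ℝ) ^ (12 * M))⁻¹ := by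
  have h1 : Real.exp (2 * 4 * (3 / 16 * (M : ℝ))) = Real.exp (3 / 2) ^ M := by
    rw [← Real.exp_nat_mul]; congr 1; ring
  have h2 : Real.exp (3 / 2) ≤ 16 := by
    have h3 : Real.exp (3 / 2) ^ 2 ≤ 16 ^ 2 := by
      rw [← Real.exp_nat_mul]
      have : (((2 : ℕ) : ℝ) * (3 / 2)) = ((3 : ℕ) : ℝ) * 1 := by norm_num
      rw [this, Real.exp_nat_mul]
      have h4 := Real.exp_one_lt_d9
      calc Real.exp 1 ^ 3 ≤ (2.7182818286 : ℝ) ^ 3 := pow_le_pow_left₀ (Real.exp_pos _).le h4.le 3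
        _ ≤ 16 ^ 2 := by norm_num
    exact (pow_le_pow_iff_left₀ (Real.exp_pos _).le (by norm_num) (by norm_num)).mp h3
  rw [h1]
  have h5 : ((4 : ℝ) ^ (2 * (4 * M)))⁻¹ = ((65536 : ℝ) ^ M)⁻¹ := by
    rw [show 2 * (4 * M) = 8 * M by ring, pow_mul]; norm_num
  have h6 : ((2 : ℝ) ^ (12 * M))⁻¹ = ((4096 : ℝ) ^ M)⁻¹ := by
    rw [pow_mul]; norm_num
  rw [h5, h6]
  rw [inv_mul_le_iff₀ (by positivity), ← div_eq_mul_inv, le_div_iff₀ (by positivity), ← mul_pow]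
  exact pow_le_pow_left₀ (by positivity) (by nlinarith [Real.exp_pos (3/2 : ℝ)]) M

/-- `exp(2 * 2^(2+6σ) * 2^(-3-7σ)) = exp (2^(-σ)) ≤ 2` for `σ ≥ 1` -/
theorem num2 (σ : ℕ) (hσ : 1 ≤ σ) :
    (((2 : ℝ) ^ (2 + 6 * σ)) ^ (2 * 1))⁻¹ *
        Real.exp (2 * (2 : ℝ) ^ (2 + 6 * σ) * ((2 : ℝ) ^ (3 + 7 * σ))⁻¹) ≤
      ((2 : ℝ) ^ (6 + σ))⁻¹ := by
  have h1 : 2 * (2 : ℝ) ^ (2 + 6 * σ) * ((2 : ℝ) ^ (3 + 7 * σ))⁻¹ = ((2 : ℝ) ^ σ)⁻¹ := by
    rw [show 3 + 7 * σ = (1 + (2 + 6 * σ)) + σ by ring, pow_add 2 (1 + (2 + 6 * σ)) σ,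
      pow_add 2 1 (2 + 6 * σ)]
    field_simp
  have h2 : ((2 : ℝ) ^ σ)⁻¹ ≤ 1 / 2 := by
    rw [one_div]
    exact inv_anti₀ (by norm_num) (by
      calc (2 : ℝ) = 2 ^ 1 := by norm_num
        _ ≤ 2 ^ σ := pow_le_pow_right₀ (by norm_num) hσ)
  have h3 : Real.exp (((2 : ℝ) ^ σ)⁻¹) ≤ 2 := by
    calc Real.exp (((2 : ℝ) ^ σ)⁻¹) ≤ Real.exp (1 / 2) := Real.exp_le_exp.mpr h2
      _ ≤ 2 := by
        have h3 : Real.exp (1 / 2) ^ 2 ≤ 2 ^ 2 := by
          rw [← Real.exp_nat_mul]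
          have : (((2 : ℕ) : ℝ) * (1 / 2)) = 1 := by norm_num
          rw [this]
          have h4 := Real.exp_one_lt_d9
          linarith
        exact (pow_le_pow_iff_left₀ (Real.exp_pos _).le (by norm_num) (by norm_num)).mp h3
  rw [h1]
  rw [← pow_mul]
  rw [inv_mul_le_iff₀ (by positivity), ← div_eq_mul_inv, le_div_iff₀ (by positivity)]
  calc Real.exp (((2 : ℝ) ^ σ)⁻¹) * 2 ^ (6 + σ) ≤ 2 * 2 ^ (6 + σ) :=
        mul_le_mul_of_nonneg_right h3 (by positivity)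
    _ = 2 ^ (7 + σ) := by rw [← pow_succ']; congr 1; ring
    _ ≤ 2 ^ ((2 + 6 * σ) * (2 * 1)) := pow_le_pow_right₀ (by norm_num) (by omega)

/-- `12 * 64 ^ j ≥ 6 + j` -/
theorem num3 (j : ℕ) : ((2 : ℝ) ^ (12 * 64 ^ j))⁻¹ ≤ ((2 : ℝ) ^ (6 + j))⁻¹ := by
  refine inv_anti₀ (by positivity) (pow_le_pow_right₀ (by norm_num) ?_)
  have : j < 64 ^ j := Nat.lt_pow_self (by norm_num)
  omega

/-- two sided geometric series -/
theorem num4 (I K : ℕ) :
    ∑ k ∈ range K, ((2 : ℝ) ^ (6 + ((k - I) + (I - k))))⁻¹ ≤ 1 / 16 := by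
  have key : ∀ K : ℕ, ∑ k ∈ range K, ((2 : ℝ) ^ (6 + ((k - I) + (I - k))))⁻¹ ≤
      if K ≤ I then ((2 : ℝ) ^ (6 + (I - K)))⁻¹ else 3 / 64 - 2 * ((2 : ℝ) ^ (6 + (K - I)))⁻¹ := by
    intro K
    induction K with
    | zero => simp
    | succ K ih =>
      rw [sum_range_succ]
      rcases lt_trichotomy K I with h | h | h
      · rw [if_pos (by omega)] at ih
        rw [if_pos (by omega)]
        have e1 : K - I = 0 := by omega
        have e2 : I - K = (I - (K + 1)) + 1 := by omega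
        rw [e1, zero_add]
        rw [e2] at ih ⊢
        rw [← add_assoc, pow_succ, mul_inv] at ih ⊢
        linarith
      · subst h
        rw [if_pos le_rfl] at ih
        rw [if_neg (by omega)]
        have e1 : K - K = 0 := by omega
        have e2 : K + 1 - K = 1 := by omega
        rw [e1] at ih
        rw [e1, e2]
        norm_num at ih ⊢
        linarith
      · rw [if_neg (by omega)] at ih
        rw [if_neg (by omega)]
        have e1 : I - K = 0 := by omega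
        have e2 : K + 1 - I = (K - I) + 1 := by omega
        rw [e1, e2, add_zero]
        have e3 : ((2 : ℝ) ^ (6 + (K - I + 1)))⁻¹ = ((2 : ℝ) ^ (6 + (K - I)))⁻¹ / 2 := by
          rw [← add_assoc, pow_succ, mul_inv]; ring
        rw [e3]
        linarith
  have h := key K
  split_ifs at h with h1
  · have h2 : ((2 : ℝ) ^ (6 + (I - K)))⁻¹ ≤ 1 / 16 := by
      rw [one_div]
      refine inv_anti₀ (by norm_num) ?_
      calc (16 : ℝ) = 2 ^ 4 := by norm_num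
        _ ≤ 2 ^ (6 + (I - K)) := pow_le_pow_right₀ (by norm_num) (by omega)
    linarith
  · have : 0 ≤ ((2 : ℝ) ^ (6 + (K - I)))⁻¹ := by positivity
    linarith

end KK
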