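import Crest.Agent.KK_A4a
import Crest.Agent.KK_A4b

set_option autoImplicit false

namespace KK
open Finset
namespace Sys
variable {X G H : Type} [Fintype X] [DecidableEq X] [Fintype G] [Fintype H] [DecidableEq H]
  (S : Sys X G H)

/-- From `chernoff` (with `r = 4`, `v = 4 * 64^(I-k)`, `sum_y_le`, `num1`, `num3` for `k ≤ I`; with
`r = 2^(2+6σ)`, `v = 1`, `sum_y_gt`, `num2` for `k = I + σ`, `σ ≥ 1`). The exponent is `6 + |k - I|`
(natural number subtractions). -/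
theorem sum_Nset (k : ℕ) :
    ∑ n ∈ S.Nset k, ∏ i : Fin (S.I + 1), ((S.y k i) ^ (n i) / ((n i).factorial : ℝ)) ^ 2 ≤
      ((2 : ℝ) ^ (6 + ((k - S.I) + (S.I - k))))⁻¹ := by
  have hA : ∀ n ∈ S.Nset k, S.vmin k ≤ ∑ i, n i := by
    intro n hn
    unfold Nset at hn
    rw [Finset.mem_filter] at hn
    exact hn.2.1
  rcases le_or_gt k S.I with hk | hk
  · have hv : S.vmin k = 4 * 64 ^ (S.I - k) := by
      unfold vmin
      rw [if_pos hk]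
    rw [hv] at hA
    have h1 := chernoff (S.I + 1) (fun i => S.y k i) (fun i => (S.y_pos k i).le) 4 (by norm_num)
      (4 * 64 ^ (S.I - k)) (S.Nset k) hA
    have h2 := S.sum_y_le k hk
    have h3 := num1 (64 ^ (S.I - k)) (Nat.one_le_pow _ _ (by norm_num))
    have h4 := num3 (S.I - k)
    push_cast at h3
    have h5 : Real.exp (2 * 4 * ∑ i : Fin (S.I + 1), S.y k i) ≤
        Real.exp (2 * 4 * (3 / 16 * (64 : ℝ) ^ (S.I - k))) := by
      apply Real.exp_le_exp.2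
      linarith
    have h6 : (0 : ℝ) ≤ ((4 : ℝ) ^ (2 * (4 * 64 ^ (S.I - k))))⁻¹ := by positivity
    have h7 : k - S.I = 0 := Nat.sub_eq_zero_of_le hk
    rw [h7, zero_add]
    calc _ ≤ ((4 : ℝ) ^ (2 * (4 * 64 ^ (S.I - k))))⁻¹ *
          Real.exp (2 * 4 * ∑ i : Fin (S.I + 1), S.y k i) := h1
      _ ≤ ((4 : ℝ) ^ (2 * (4 * 64 ^ (S.I - k))))⁻¹ *
          Real.exp (2 * 4 * (3 / 16 * (64 : ℝ) ^ (S.I - k))) :=
          mul_le_mul_of_nonneg_left h5 h6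
      _ ≤ _ := h3.trans h4
  · obtain ⟨σ, rfl⟩ := Nat.exists_eq_add_of_lt hk
    have hk' : S.I + σ + 1 = S.I + (σ + 1) := by ring
    rw [hk'] at hA ⊢
    have hv : S.vmin (S.I + (σ + 1)) = 1 := by
      unfold vmin
      rw [if_neg (by omega)]
    rw [hv] at hA
    have h1 := chernoff (S.I + 1) (fun i => S.y (S.I + (σ + 1)) i)
      (fun i => (S.y_pos _ i).le) ((2 : ℝ) ^ (2 + 6 * (σ + 1)))
      (one_le_pow₀ (by norm_num)) 1 (S.Nset (S.I + (σ + 1))) hA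
    have h2 := S.sum_y_gt (σ + 1)
    have h3 := num2 (σ + 1) (by omega)
    have h5 : Real.exp (2 * (2 : ℝ) ^ (2 + 6 * (σ + 1)) *
        ∑ i : Fin (S.I + 1), S.y (S.I + (σ + 1)) i) ≤
        Real.exp (2 * (2 : ℝ) ^ (2 + 6 * (σ + 1)) * ((2 : ℝ) ^ (3 + 7 * (σ + 1)))⁻¹) := by
      apply Real.exp_le_exp.2
      apply mul_le_mul_of_nonneg_left h2
      positivity
    have h6 : (0 : ℝ) ≤ (((2 : ℝ) ^ (2 + 6 * (σ + 1))) ^ (2 * 1))⁻¹ := by positivity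
    have h7 : (S.I + (σ + 1) - S.I) + (S.I - (S.I + (σ + 1))) = σ + 1 := by omega
    rw [h7]
    calc _ ≤ (((2 : ℝ) ^ (2 + 6 * (σ + 1))) ^ (2 * 1))⁻¹ *
          Real.exp (2 * (2 : ℝ) ^ (2 + 6 * (σ + 1)) *
            ∑ i : Fin (S.I + 1), S.y (S.I + (σ + 1)) i) := h1
      _ ≤ (((2 : ℝ) ^ (2 + 6 * (σ + 1))) ^ (2 * 1))⁻¹ *
          Real.exp (2 * (2 : ℝ) ^ (2 + 6 * (σ + 1)) * ((2 : ℝ) ^ (3 + 7 * (σ + 1)))⁻¹) :=
          mul_le_mul_of_nonneg_left h5 h6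
      _ ≤ _ := h3

end Sys
end KK
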