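import Crest.Agent.KK_A1b
import Crest.Agent.KK_A3
import Crest.Agent.KK_A4

set_option autoImplicit false

namespace KK
open Finset
namespace Sys
variable {X G H : Type} [Fintype X] [DecidableEq X] [Fintype G] [Fintype H] [DecidableEq H]
  (S : Sys X G H)

/-- **Theorem A (capture).** `|G| P(¬ Capt) = ∑_{g0} P(¬ Capt) ≤ ∑_{g0} ∑_{k < K} ∑_{n ∈ Nset k}
P(Bad k n · g0)` by `exists_bad` and the union bound; then `pr_bad`, `sum_Nset`, `num4`:
`≤ |G| * 2 / 16`. -/
theorem capture [Nonempty G] (hL : S.LevOK) (p : ℝ) (hp : 0 < p) (hH : S.Hyp p)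
    (w : Fin (S.K + 1) → ℝ) (hw : S.WOK p w) : Pr w (fun ω => ¬ S.Capt ω) ≤ 1 / 8 := by
  have hG : (0 : ℝ) < (Fintype.card G : ℝ) := by exact_mod_cast Fintype.card_pos
  have h1 : ∀ g0 : G, Pr w (fun ω => ¬ S.Capt ω) ≤
      ∑ k ∈ range S.K, ∑ n ∈ S.Nset k, Pr w (fun ω => S.Bad k n ω g0) := by
    intro g0
    refine (Pr_mono w hw.1 _ _ fun ω hω => S.exists_bad hL ω hω g0).trans ?_
    refine (Pr_union w hw.1 (range S.K) fun k ω => ∃ n ∈ S.Nset k, S.Bad k n ω g0).trans ?_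
    exact Finset.sum_le_sum fun k _ => Pr_union w hw.1 (S.Nset k) fun n ω => S.Bad k n ω g0
  have h2 : (Fintype.card G : ℝ) * Pr w (fun ω => ¬ S.Capt ω) ≤
      (Fintype.card G : ℝ) * (2 * (1 / 16)) := by
    calc (Fintype.card G : ℝ) * Pr w (fun ω => ¬ S.Capt ω)
        = ∑ _g0 : G, Pr w (fun ω => ¬ S.Capt ω) := by
          rw [Finset.sum_const, Finset.card_univ, nsmul_eq_mul]
      _ ≤ ∑ g0 : G, ∑ k ∈ range S.K, ∑ n ∈ S.Nset k, Pr w (fun ω => S.Bad k n ω g0) :=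
          Finset.sum_le_sum fun g0 _ => h1 g0
      _ = ∑ k ∈ range S.K, ∑ n ∈ S.Nset k, ∑ g0 : G, Pr w (fun ω => S.Bad k n ω g0) := by
          rw [Finset.sum_comm]
          refine Finset.sum_congr rfl fun k _ => ?_
          rw [Finset.sum_comm]
      _ ≤ ∑ k ∈ range S.K, ∑ n ∈ S.Nset k, (Fintype.card G : ℝ) *
            (2 * ∏ i : Fin (S.I + 1), ((S.y k i) ^ (n i) / ((n i).factorial : ℝ)) ^ 2) :=
          Finset.sum_le_sum fun k _ => Finset.sum_le_sum fun n hn =>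
            S.pr_bad hL p hp hH w hw k n hn
      _ = (Fintype.card G : ℝ) * (2 * ∑ k ∈ range S.K, ∑ n ∈ S.Nset k,
            ∏ i : Fin (S.I + 1), ((S.y k i) ^ (n i) / ((n i).factorial : ℝ)) ^ 2) := by
          simp only [Finset.mul_sum]
      _ ≤ (Fintype.card G : ℝ) * (2 * ∑ k ∈ range S.K,
            ((2 : ℝ) ^ (6 + ((k - S.I) + (S.I - k))))⁻¹) := by
          refine mul_le_mul_of_nonneg_left ?_ hG.le
          refine mul_le_mul_of_nonneg_left ?_ (by norm_num)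
          exact Finset.sum_le_sum fun k _ => S.sum_Nset k
      _ ≤ (Fintype.card G : ℝ) * (2 * (1 / 16)) := by
          refine mul_le_mul_of_nonneg_left ?_ hG.le
          exact mul_le_mul_of_nonneg_left (num4 S.I S.K) (by norm_num)
  have h3 := le_of_mul_le_mul_left h2 hG
  linarith

end Sys
end KK
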