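import Crest.Agent.KK_Pr

set_option autoImplicit false

namespace KK
open Finset
namespace Sys
variable {X G H : Type} [Fintype X] [DecidableEq X] [Fintype G] [Fintype H] [DecidableEq H]
  (S : Sys X G H)

/-- no fragment elements where the staircase has reached the last label -/
theorem num_eq_zero (k : ℕ) (ω : X → Fin (S.K + 1)) (g : G) (i : ℕ) (h : S.K ≤ i + k) :
    S.num k ω g i = 0 := by
  have h0 : (cnt fun _ : H => False) = 0 := by
    unfold cnt
    simp
  have h1 : S.num k ω g i ≤ cnt fun _ : H => False := by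
    refine cnt_mono (fun e he => ?_)
    obtain ⟨h1, h2⟩ := he
    unfold InT d at h1
    rw [h2, min_eq_right h] at h1
    have h3 := (ω (S.φ g e)).2
    omega
  omega

theorem num_le (hL : S.LevOK) (k : ℕ) (ω : X → Fin (S.K + 1)) (g : G) (i : ℕ) :
    S.num k ω g i ≤ 64 ^ i :=
  (cnt_mono (fun e he => he.2.le)).trans (hL i)

/-- at stage 0 all thresholds are vacuous -/
theorem val_zero (hL : S.LevOK) (ω : X → Fin (S.K + 1)) (g0 : G) : S.Val 0 ω g0 g0 := by
  refine ⟨?_, fun e _ => ⟨e, rfl, le_rfl⟩⟩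
  intro i hi r hr
  have h1 : (cnt fun e => S.lev e ≤ i ∧ min r (S.d 0 (S.lev e)) < (ω (S.φ g0 e) : ℕ)) ≤ 64 ^ i :=
    (cnt_mono (fun e he => he.1)).trans (hL i)
  have h2 : r < i := by
    have : S.d 0 i ≤ i := by
      unfold d
      simp
    omega
  have h3 : ((cnt fun e => S.lev e ≤ i ∧ min r (S.d 0 (S.lev e)) < (ω (S.φ g0 e) : ℕ) : ℕ) : ℝ) ≤
      (64 : ℝ) ^ i := by
    exact_mod_cast h1
  refine h3.trans ?_
  unfold θ
  have h4 : (1 : ℝ) ≤ (16 : ℝ) ^ ((S.I : ℤ) - (r : ℤ)) := by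
    apply one_le_zpow₀ (by norm_num)
    omega
  have h5 : (0 : ℝ) < (64 : ℝ) ^ i := by positivity
  nlinarith

theorem capt_of_val (ω : X → Fin (S.K + 1)) (g0 g : G) (h : S.Val S.K ω g0 g) : S.Capt ω := by
  refine ⟨g, ?_⟩
  intro i hi r hr
  have hd : ∀ j, S.d S.K j = S.K := by
    intro j
    unfold d
    exact min_eq_right (Nat.le_add_left _ _)
  have h1 := h.1 i hi r (by rw [hd]; exact hr)
  simp only [hd, min_eq_left hr.le] at h1
  exact h1

/-- fragments decrease with the stage -/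
theorem inT_succ (k : ℕ) (ω : X → Fin (S.K + 1)) (g : G) (e : H) (h : S.InT (k + 1) ω g e) :
    S.InT k ω g e := by
  unfold InT d at *
  omega

end Sys
end KK
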