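import Crest.Agent.KK_A0

set_option autoImplicit false

namespace KK
open Finset
namespace Sys
variable {X G H : Type} [Fintype X] [DecidableEq X] [Fintype G] [Fintype H] [DecidableEq H]
  (S : Sys X G H)

private theorem A1_cnt_mono {α : Type} [Fintype α] {P Q : α → Prop} (h : ∀ a, P a → Q a) :
    cnt P ≤ cnt Q := by
  classical
  unfold cnt
  exact card_le_card (fun a ha => by
    simp only [mem_filter, mem_univ, true_and] at ha ⊢
    exact h a ha)

omit [Fintype X] [DecidableEq X] [Fintype G] [DecidableEq H] in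
private theorem A1_sum_num (k : ℕ) (ω : X → Fin (S.K + 1)) (g : G) :
    ∑ i : Fin (S.I + 1), S.num k ω g i = cnt fun e => S.InT k ω g e := by
  classical
  unfold num cnt
  rw [card_eq_sum_card_fiberwise (f := fun e => (⟨S.lev e, Nat.lt_succ_of_le (S.hI e)⟩ :
    Fin (S.I + 1))) (t := univ) (fun e _ => by simp)]
  refine sum_congr rfl fun i _ => ?_
  congr 1
  ext e
  simp only [mem_filter, mem_univ, true_and, Fin.ext_iff]

/-- If `g` is a candidate at stage `k` but not at stage `k+1` then its fragment is large.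
Proof: domination is inherited (`inT_succ`), so some condition `(i, r)`, `i ≤ I`, `r < d (k+1) i`
fails for stage `k+1`. If `r < d k i` then it would fail for stage `k` (`min r (d (k+1) _) ≥
min r (d k _)`). So `r = i + k < K`. The counted positions `e` (`lev e ≤ i`,
`min (i+k) (d (k+1) (lev e)) < ω`) are all in the stage `k` fragment, so `θ i (i+k) < ∑ num`;
and the count is at most `64 ^ i`, so `θ i (i+k) < 64 ^ i`, i.e. `I < i + k`.
`θ i (i+k) = 4^i * 16^(I-k)`; if `k ≤ I` then `i ≥ I-k+1` and `θ ≥ 4 * 64^(I-k)`; otherwise use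
`θ > 0`. -/
theorem step (hL : S.LevOK) (k : ℕ) (hk : k < S.K) (ω : X → Fin (S.K + 1)) (g0 g : G)
    (h : S.Val k ω g0 g) (h' : ¬ S.Val (k + 1) ω g0 g) :
    S.vmin k ≤ ∑ i : Fin (S.I + 1), S.num k ω g i := by
  have hA : ¬ S.Adm (k + 1) ω g := by
    intro hA
    exact h' ⟨hA, fun e he => h.2 e (S.inT_succ k ω g e he)⟩
  unfold Adm at hA
  push Not at hA
  obtain ⟨i, hi, r, hr, hlt⟩ := hA
  have hd : ∀ j, S.d k j ≤ S.d (k + 1) j := fun j => by unfold d; omega
  have hr2 : S.d k i ≤ r := by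
    by_contra hc
    push Not at hc
    have h1 := h.1 i hi r hc
    have h2 : (cnt fun e => S.lev e ≤ i ∧ min r (S.d (k + 1) (S.lev e)) < (ω (S.φ g e) : ℕ)) ≤
        (cnt fun e => S.lev e ≤ i ∧ min r (S.d k (S.lev e)) < (ω (S.φ g e) : ℕ)) := by
      apply A1_cnt_mono
      rintro e ⟨he1, he2⟩
      refine ⟨he1, lt_of_le_of_lt ?_ he2⟩
      have := hd (S.lev e)
      omega
    have h3 : ((cnt fun e => S.lev e ≤ i ∧ min r (S.d (k + 1) (S.lev e)) <
        (ω (S.φ g e) : ℕ) : ℕ) : ℝ) ≤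
        ((cnt fun e => S.lev e ≤ i ∧ min r (S.d k (S.lev e)) < (ω (S.φ g e) : ℕ) : ℕ) : ℝ) := by
      exact_mod_cast h2
    linarith
  have hik : i + k < S.K := by unfold d at hr hr2; omega
  have hrr : r = i + k := by unfold d at hr hr2; omega
  subst hrr
  have hc1 : (cnt fun e => S.lev e ≤ i ∧ min (i + k) (S.d (k + 1) (S.lev e)) <
      (ω (S.φ g e) : ℕ)) ≤ ∑ i : Fin (S.I + 1), S.num k ω g i := by
    rw [A1_sum_num]
    apply A1_cnt_mono
    rintro e ⟨he1, he2⟩
    unfold InT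
    refine lt_of_le_of_lt ?_ he2
    unfold d
    omega
  have hc2 : (cnt fun e => S.lev e ≤ i ∧ min (i + k) (S.d (k + 1) (S.lev e)) <
      (ω (S.φ g e) : ℕ)) ≤ 64 ^ i :=
    (A1_cnt_mono (fun e he => he.1)).trans (hL i)
  have hc1' : S.θ i (i + k) < ((∑ i : Fin (S.I + 1), S.num k ω g i : ℕ) : ℝ) := by
    refine lt_of_lt_of_le hlt ?_
    exact_mod_cast hc1
  have hc2' : S.θ i (i + k) < (64 : ℝ) ^ i := by
    refine lt_of_lt_of_le hlt ?_
    exact_mod_cast hc2
  have hθ0 : 0 < S.θ i (i + k) := by unfold θ; positivity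
  have hI : S.I < i + k := by
    by_contra hc
    push Not at hc
    have h1 : (1 : ℝ) ≤ (16 : ℝ) ^ ((S.I : ℤ) - ((i + k : ℕ) : ℤ)) := by
      apply one_le_zpow₀ (by norm_num)
      omega
    unfold θ at hc2'
    have h2 : (0 : ℝ) < 64 ^ i := by positivity
    nlinarith
  unfold vmin
  split_ifs with hkI
  · obtain ⟨j, hj⟩ := Nat.exists_eq_add_of_le hkI
    -- I = k + j
    obtain ⟨m, hm⟩ := Nat.exists_eq_add_of_lt hI
    -- i + k = I + m + 1
    have hi' : i = j + (m + 1) := by omega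
    have hθ : S.θ i (i + k) = (64 : ℝ) ^ j * 4 ^ (m + 1) := by
      unfold θ
      have e1 : ((S.I : ℤ) - ((i + k : ℕ) : ℤ)) = -((m + 1 : ℕ) : ℤ) := by omega
      rw [e1, zpow_neg, zpow_natCast, hi', pow_add]
      have e2 : (64 : ℝ) ^ (m + 1) = 4 ^ (m + 1) * 16 ^ (m + 1) := by
        rw [← mul_pow]; norm_num
      rw [e2]
      have e3 : (16 : ℝ) ^ (m + 1) ≠ 0 := by positivity
      field_simp
    have h4 : (4 : ℝ) ≤ 4 ^ (m + 1) := by
      calc (4 : ℝ) = 4 ^ 1 := (pow_one _).symm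
        _ ≤ 4 ^ (m + 1) := pow_le_pow_right₀ (by norm_num) (by omega)
    have h5 : (4 : ℝ) * 64 ^ j ≤ S.θ i (i + k) := by
      rw [hθ]
      have : (0 : ℝ) < 64 ^ j := by positivity
      nlinarith
    have h6 : ((4 * 64 ^ j : ℕ) : ℝ) < ((∑ i : Fin (S.I + 1), S.num k ω g i : ℕ) : ℝ) := by
      push_cast
      push_cast at hc1'
      linarith
    have h7 : S.I - k = j := by omega
    rw [h7]
    exact (Nat.cast_lt.1 h6).le
  · have h6 : (0 : ℝ) < ((∑ i : Fin (S.I + 1), S.num k ω g i : ℕ) : ℝ) := hθ0.trans hc1'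
    have h7 : 0 < ∑ i : Fin (S.I + 1), S.num k ω g i := by exact_mod_cast h6
    omega

end Sys
end KK
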