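import Crest.Agent.KK_A1

set_option autoImplicit false

namespace KK
open Finset
namespace Sys
variable {X G H : Type} [Fintype X] [DecidableEq X] [Fintype G] [Fintype H] [DecidableEq H]
  (S : Sys X G H)

/-- If nothing is captured, take the last stage `k` with a candidate, and a cheapest candidate. -/
theorem exists_bad (hL : S.LevOK) (ω : X → Fin (S.K + 1)) (hc : ¬ S.Capt ω) (g0 : G) :
    ∃ k ∈ range S.K, ∃ n ∈ S.Nset k, S.Bad k n ω g0 := by
  classical
  have hK : ∀ g, ¬ S.Val S.K ω g0 g := fun g hg => hc (S.capt_of_val ω g0 g hg)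
  have hex : ∃ k, ∀ g, ¬ S.Val k ω g0 g := ⟨S.K, hK⟩
  set m := Nat.find hex with hm
  have hm1 : ∀ g, ¬ S.Val m ω g0 g := Nat.find_spec hex
  have hmK : m ≤ S.K := Nat.find_min' hex hK
  have hm0 : m ≠ 0 := by
    intro h0
    rw [h0] at hm1
    exact hm1 g0 (S.val_zero hL ω g0)
  obtain ⟨k, hk⟩ : ∃ k, m = k + 1 := ⟨m - 1, by omega⟩
  have hkK : k < S.K := by omega
  have hval : ∃ g, S.Val k ω g0 g := by
    have := Nat.find_min hex (show k < Nat.find hex by omega)
    push Not at this
    exact this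
  -- a cheapest candidate
  obtain ⟨g1, hg1⟩ := hval
  obtain ⟨g, hg, hgmin⟩ := Finset.exists_min_image (univ.filter fun g => S.Val k ω g0 g)
    (fun g => S.cost k ω g) ⟨g1, by simpa using hg1⟩
  rw [mem_filter] at hg
  refine ⟨k, mem_range.2 hkK, fun i => S.num k ω g i, ?_, g, ⟨hg.2, fun g' hg' => ?_⟩,
    fun i => rfl⟩
  · unfold Nset
    rw [mem_filter, Fintype.mem_piFinset]
    refine ⟨fun i => ?_, ?_, fun i hi => ?_⟩
    · rw [mem_range]
      exact Nat.lt_succ_of_le (S.num_le hL k ω g i)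
    · refine S.step hL k hkK ω g0 g hg.2 ?_
      rw [← hk]
      exact hm1 g
    · exact S.num_eq_zero k ω g i hi
  · exact hgmin g' (by simpa using hg')

end Sys
end KK
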