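import Crest.Agent.KK_A2a

set_option autoImplicit false

namespace KK
open Finset
namespace Sys
variable {X G H : Type} [Fintype X] [DecidableEq X] [Fintype G] [Fintype H] [DecidableEq H]
  (S : Sys X G H)

private theorem A2c_cnt {α : Type} [Fintype α] (P : α → Prop) [DecidablePred P] :
    cnt P = (univ.filter P).card := by
  unfold cnt
  congr

private theorem A2c_NN (k : ℕ) (n : Fin (S.I + 1) → ℕ) (ω : X → Fin (S.K + 1)) (g : G)
    (hn : ∀ i : Fin (S.I + 1), S.num k ω g i = n i) (r : ℕ) :
    (cnt fun e => S.InT k ω g e ∧ S.d k (S.lev e) ≤ r) = S.NN k n r := by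
  classical
  unfold NN
  rw [A2c_cnt, card_eq_sum_card_fiberwise
    (f := fun e => (⟨S.lev e, Nat.lt_succ_of_le (S.hI e)⟩ : Fin (S.I + 1))) (t := univ)
    (fun _ _ => by simp)]
  refine sum_congr rfl fun i _ => ?_
  rw [← hn i]
  unfold num
  rw [A2c_cnt]
  split_ifs with h
  · congr 1
    ext e
    simp only [mem_filter, mem_univ, true_and]
    constructor
    · rintro ⟨⟨h1, h2⟩, h3⟩
      exact ⟨h1, by rw [← h3]⟩
    · rintro ⟨h1, h2⟩
      exact ⟨⟨h1, by rw [h2]; exact h⟩, Fin.ext h2⟩
  · rw [card_eq_zero, filter_eq_empty_iff]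
    intro e he h3
    rw [mem_filter] at he
    apply h
    rw [← h3]
    exact he.2.2

private theorem A2c_changed (k : ℕ) (ω : X → Fin (S.K + 1)) (g : G) (x : X)
    (h : S.plant k ω g x ≠ ω x) : ∃ e, S.InT k ω g e ∧ S.φ g e = x := by
  by_contra hc
  apply h
  apply S.plant_of_not k ω g x
  intro e he hx
  exact hc ⟨e, he, hx⟩

/-- Every fragment element (old labels `ω`) of a copy `g'` satisfying the decoder condition for the
planted labels belongs to the planted fragment, at a level at most its level in `g'`.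
Proof: the label changed at `x = φ g' e'`, so `x = φ g e`, `InT k ω g e` (`plant_of_not`), the new
label is `d k (lev e) ≤ d k (lev e') < ω x ≤ K`; `d k` is strictly increasing below `K`. -/
theorem inT_of_dec (k : ℕ) (n : Fin (S.I + 1) → ℕ) (ω : X → Fin (S.K + 1)) (g g' : G)
    (hd : S.Dec k n (S.plant k ω g) g') (e' : H) (he : S.InT k ω g' e') :
    ∃ e, S.φ g e = S.φ g' e' ∧ S.InT k ω g e ∧ S.lev e ≤ S.lev e' := by
  obtain ⟨h1, -⟩ := hd
  have h2 := h1 e'
  have he2 : S.d k (S.lev e') < (ω (S.φ g' e') : ℕ) := he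
  obtain ⟨e, h3, h4⟩ := A2c_changed S k ω g (S.φ g' e') (by
    intro h
    rw [h] at h2
    omega)
  refine ⟨e, h4, h3, ?_⟩
  have h5 := S.plant_of_inT k ω g e h3
  rw [h4] at h5
  rw [h5] at h2
  have h6 : (ω (S.φ g' e') : ℕ) < S.K + 1 := (ω (S.φ g' e')).2
  unfold d at h2 he2
  omega

/-- every copy satisfying the decoder condition is a candidate. Admissibility: the positions with
`min r (d k (lev e)) < ω` have new label `> r` or lie on planted elements `φ g e` with
`d k (lev e) ≤ r`, there are at most `NN k n r` of these. -/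
theorem val_of_dec (k : ℕ) (n : Fin (S.I + 1) → ℕ) (ω : X → Fin (S.K + 1)) (g0 g g' : G)
    (h : S.Val k ω g0 g) (hn : ∀ i : Fin (S.I + 1), S.num k ω g i = n i)
    (hd : S.Dec k n (S.plant k ω g) g') : S.Val k ω g0 g' := by
  classical
  refine ⟨?_, ?_⟩
  · intro i hi r hr
    have h1 := hd.2 i hi r hr
    refine le_trans ?_ h1
    rw [← A2c_NN S k n ω g hn r]
    have key : (cnt fun e => S.lev e ≤ i ∧ min r (S.d k (S.lev e)) < (ω (S.φ g' e) : ℕ)) ≤
        (cnt fun e => S.lev e ≤ i ∧ r < (S.plant k ω g (S.φ g' e) : ℕ)) +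
        (cnt fun e => S.InT k ω g e ∧ S.d k (S.lev e) ≤ r) := by
      have hmem : ∀ e : H, (S.lev e ≤ i ∧ min r (S.d k (S.lev e)) < (ω (S.φ g' e) : ℕ)) →
          ¬ (S.lev e ≤ i ∧ r < (S.plant k ω g (S.φ g' e) : ℕ)) →
          ∃ e1, S.φ g e1 = S.φ g' e ∧ S.InT k ω g e1 ∧ S.d k (S.lev e1) ≤ r := by
        intro e he hne
        have hle : (S.plant k ω g (S.φ g' e) : ℕ) ≤ r := by
          by_contra hc
          exact hne ⟨he.1, by omega⟩
        have h2 := hd.1 e
        obtain ⟨e1, h3, h4⟩ := A2c_changed S k ω g (S.φ g' e) (by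
          intro hc
          rw [hc] at hle h2
          have := he.2
          rw [min_lt_iff] at this
          omega)
        refine ⟨e1, h4, h3, ?_⟩
        have h5 := S.plant_of_inT k ω g e1 h3
        rw [h4] at h5
        omega
      rw [A2c_cnt, A2c_cnt, A2c_cnt, ← card_image_of_injective (univ.filter fun e => S.InT k ω g e ∧ S.d k (S.lev e) ≤ r)
        (S.inj g)]
      have hsub : (univ.filter fun e => S.lev e ≤ i ∧
          min r (S.d k (S.lev e)) < (ω (S.φ g' e) : ℕ)) ⊆
          (univ.filter fun e => S.lev e ≤ i ∧ r < (S.plant k ω g (S.φ g' e) : ℕ)) ∪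
          (univ.filter fun e => S.φ g' e ∈ (univ.filter fun e => S.InT k ω g e ∧
            S.d k (S.lev e) ≤ r).image (S.φ g)) := by
        intro e he
        rw [mem_filter] at he
        rw [mem_union, mem_filter, mem_filter]
        by_cases hc : S.lev e ≤ i ∧ r < (S.plant k ω g (S.φ g' e) : ℕ)
        · left
          exact ⟨mem_univ _, hc⟩
        · right
          refine ⟨mem_univ _, ?_⟩
          obtain ⟨e1, h3, h4, h5⟩ := hmem e he.2 hc
          rw [mem_image]
          exact ⟨e1, by rw [mem_filter]; exact ⟨mem_univ _, h4, h5⟩, h3⟩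
      refine (card_le_card hsub).trans ((card_union_le _ _).trans ?_)
      refine Nat.add_le_add (le_refl _) ?_
      refine card_le_card_of_injOn (S.φ g') ?_ ((S.inj g').injOn)
      intro e he
      have := (mem_filter.1 (mem_coe.1 he)).2
      exact mem_coe.2 this
    exact_mod_cast key
  · intro e' he'
    obtain ⟨e, h1, h2, h3⟩ := S.inT_of_dec k n ω g g' hd e' he'
    obtain ⟨e0, h4, h5⟩ := h.2 e h2
    exact ⟨e0, h4.trans h1, h5.trans h3⟩

end Sys
end KK
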