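import Crest.Agent.KK_Pr

set_option autoImplicit false

namespace KK
open Finset

/-- Number of subsets of `V` with prescribed level sizes. Proof: `E ↦ (i ↦ E.filter (lev = i))` is
injective into `Fintype.piFinset fun i => powersetCard (n i) (V.filter (lev = i))`. -/
theorem card_level_sets {H : Type} [Fintype H] [DecidableEq H] (lev : H → ℕ) (N : ℕ)
    (hN : ∀ e, lev e ≤ N) (V : Finset H) (n : Fin (N + 1) → ℕ) :
    (V.powerset.filter (fun E => ∀ i : Fin (N + 1),
        (E.filter fun e => lev e = (i : ℕ)).card = n i)).card ≤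
      ∏ i : Fin (N + 1), ((V.filter fun e => lev e = (i : ℕ)).card).choose (n i) := by
  classical
  have h1 : ∏ i : Fin (N + 1), ((V.filter fun e => lev e = (i : ℕ)).card).choose (n i) =
      (Fintype.piFinset fun i : Fin (N + 1) =>
        powersetCard (n i) (V.filter fun e => lev e = (i : ℕ))).card := by
    rw [Fintype.card_piFinset]
    refine Finset.prod_congr rfl fun i _ => ?_
    rw [card_powersetCard]
  rw [h1]
  refine Finset.card_le_card_of_injOn
    (fun E => fun i : Fin (N + 1) => E.filter fun e => lev e = (i : ℕ)) ?_ ?_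
  · intro E hE
    rw [Finset.mem_coe, Finset.mem_filter, Finset.mem_powerset] at hE
    rw [Finset.mem_coe, Fintype.mem_piFinset]
    intro i
    rw [Finset.mem_powersetCard]
    exact ⟨Finset.filter_subset_filter _ hE.1, hE.2 i⟩
  · intro E _ E' _ hEE
    ext e
    have h2 := congrFun hEE ⟨lev e, Nat.lt_succ_of_le (hN e)⟩
    simp only at h2
    have h3 : e ∈ E.filter (fun x => lev x = lev e) ↔ e ∈ E'.filter (fun x => lev x = lev e) := by
      rw [h2]
    simpa using h3

/-- `C(a, n) ≤ B ^ n / n!` for `a ≤ B` -/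
theorem choose_le_pow (a n : ℕ) (B : ℝ) (h : (a : ℝ) ≤ B) :
    ((a.choose n : ℕ) : ℝ) ≤ B ^ n / (n.factorial : ℝ) := by
  have h1 : ((a.choose n : ℕ) : ℝ) ≤ (a : ℝ) ^ n / (n.factorial : ℝ) :=
    Nat.choose_le_pow_div n a
  refine h1.trans ?_
  gcongr

end KK
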