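import Mathlib

set_option autoImplicit false

namespace KK
open Finset

/-- Label weights. Take `n` with `1024^n * (4096 p) ≤ 1/2 < 1024^(n+1) * (4096 p)`
(`exists_nat_pow_near`-type), `R = n + 1`; `w l = 4096 p 1024^(l-I)` for `l < I + R`, the last weight is
the rest (`∑_{l < I+R} w ≤ 4096 p 1024^(R-1) * 1024/1023 ≤ 1`). Expectation:
`∑_{l ≤ I} ≤ 4096 p * 1024/1023`, `∑_{I < l < I+R} ≤ 4096 p ∑_{s ≥ 1} 2^(-s)`, the last label
contributes at most `2048^(-R) ≤ 2^(-R) * 2 * 4096 p ≤ 4096 p`. -/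
theorem exists_weights (I : ℕ) (p : ℝ) (hp : 0 < p) (hp2 : 4096 * p ≤ 1 / 2) :
    ∃ R : ℕ, ∃ w : Fin (I + R + 1) → ℝ, (∀ l, 0 ≤ w l) ∧ ∑ l, w l = 1 ∧
      (∀ l : Fin (I + R + 1), (l : ℕ) < I + R →
        w l = 4096 * p * (1024 : ℝ) ^ (((l : ℕ) : ℤ) - (I : ℤ))) ∧
      ∑ l, w l * ((2048 : ℝ) ^ ((l : ℕ) - I))⁻¹ ≤ 4 * (4096 * p) := by
  obtain ⟨a, ha⟩ : ∃ a : ℝ, a = 4096 * p := ⟨_, rfl⟩
  have ha0 : 0 < a := by rw [ha]; positivity
  rw [← ha] at hp2 ⊢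
  obtain ⟨n, hn1, hn2⟩ := exists_nat_pow_near (x := (2 * a)⁻¹) (y := (1024 : ℝ))
    (by rw [one_le_inv₀ (by positivity)]; linarith) (by norm_num)
  have hn1' : a * 1024 ^ n ≤ 1 / 2 := by
    rw [le_inv_comm₀ (by positivity) (by positivity)] at hn1
    have h2 : 2 * a * 1024 ^ n ≤ ((1024 : ℝ) ^ n)⁻¹ * 1024 ^ n :=
      mul_le_mul_of_nonneg_right hn1 (by positivity)
    rw [inv_mul_cancel₀ (by positivity)] at h2
    linarith
  have hn2' : ((1024 : ℝ) ^ (n + 1))⁻¹ ≤ 2 * a :=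
    (inv_le_comm₀ (by positivity) (by positivity)).1 hn2.le
  -- the geometric weights
  have hS : ∀ N : ℕ, ∑ l ∈ range N, a * (1024 : ℝ) ^ ((l : ℤ) - (I : ℤ)) ≤
      a / 1023 * (1024 : ℝ) ^ ((N : ℤ) - (I : ℤ)) := by
    intro N
    induction N with
    | zero =>
      rw [sum_range_zero]
      positivity
    | succ N ih =>
      rw [sum_range_succ]
      have e : (1024 : ℝ) ^ (((N + 1 : ℕ) : ℤ) - (I : ℤ)) =
          1024 * (1024 : ℝ) ^ ((N : ℤ) - (I : ℤ)) := by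
        rw [show ((N + 1 : ℕ) : ℤ) - (I : ℤ) = ((N : ℤ) - (I : ℤ)) + 1 by push_cast; ring,
          zpow_add_one₀ (by norm_num)]
        ring
      rw [e]
      have h3 : 0 < (1024 : ℝ) ^ ((N : ℤ) - (I : ℤ)) := by positivity
      nlinarith [ih, h3, ha0]
  have hE : ∀ r : ℕ, ∑ l ∈ range (I + r), a * (1024 : ℝ) ^ ((l : ℤ) - (I : ℤ)) *
      ((2048 : ℝ) ^ (l - I))⁻¹ ≤ a / 1023 + a * ∑ s ∈ range r, (1 / 2 : ℝ) ^ s := by
    intro r
    induction r with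
    | zero =>
      rw [sum_range_zero, mul_zero, add_zero, add_zero]
      have h4 : ∑ l ∈ range I, a * (1024 : ℝ) ^ ((l : ℤ) - (I : ℤ)) * ((2048 : ℝ) ^ (l - I))⁻¹ =
          ∑ l ∈ range I, a * (1024 : ℝ) ^ ((l : ℤ) - (I : ℤ)) := by
        refine sum_congr rfl fun l hl => ?_
        rw [mem_range] at hl
        rw [Nat.sub_eq_zero_of_le hl.le, pow_zero, inv_one, mul_one]
      rw [h4]
      refine (hS I).trans ?_
      rw [sub_self, zpow_zero, mul_one]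
    | succ r ih =>
      rw [← add_assoc, sum_range_succ, sum_range_succ, mul_add, ← add_assoc]
      refine add_le_add ih ?_
      have e1 : (((I + r : ℕ) : ℤ) - (I : ℤ)) = ((r : ℕ) : ℤ) := by push_cast; ring
      rw [e1, zpow_natCast, Nat.add_sub_cancel_left, mul_assoc, ← inv_pow, ← mul_pow]
      norm_num
  have hgeo : ∀ r : ℕ, ∑ s ∈ range r, (1 / 2 : ℝ) ^ s ≤ 2 := by
    intro r
    have h5 : ∀ r : ℕ, ∑ s ∈ range r, (1 / 2 : ℝ) ^ s = 2 - 2 * (1 / 2) ^ r := by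
      intro r
      induction r with
      | zero => norm_num
      | succ r ih => rw [sum_range_succ, ih, pow_succ]; ring
    rw [h5]
    have : 0 < (1 / 2 : ℝ) ^ r := by positivity
    linarith
  have hSR : ∑ l ∈ range (I + (n + 1)), a * (1024 : ℝ) ^ ((l : ℤ) - (I : ℤ)) ≤ 1 := by
    refine (hS _).trans ?_
    have e1 : (((I + (n + 1) : ℕ) : ℤ) - (I : ℤ)) = ((n + 1 : ℕ) : ℤ) := by push_cast; ring
    rw [e1, zpow_natCast, pow_succ]
    have : a / 1023 * (1024 ^ n * 1024) = (a * 1024 ^ n) * (1024 / 1023) := by ring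
    rw [this]
    nlinarith [hn1']
  let w : Fin (I + (n + 1) + 1) → ℝ := fun l => if (l : ℕ) < I + (n + 1) then
    a * (1024 : ℝ) ^ (((l : ℕ) : ℤ) - (I : ℤ)) else
    1 - ∑ l ∈ range (I + (n + 1)), a * (1024 : ℝ) ^ ((l : ℤ) - (I : ℤ))
  have hw1 : ∀ l : Fin (I + (n + 1)), w l.castSucc = a * (1024 : ℝ) ^ (((l : ℕ) : ℤ) - (I : ℤ)) :=
    fun l => if_pos l.2
  have hw2 : w (Fin.last _) =
      1 - ∑ l ∈ range (I + (n + 1)), a * (1024 : ℝ) ^ ((l : ℤ) - (I : ℤ)) := by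
    refine if_neg ?_
    rw [Fin.val_last]
    exact lt_irrefl _
  refine ⟨n + 1, w, ?_, ?_, ?_, ?_⟩
  · intro l
    simp only [w]
    split_ifs
    · positivity
    · linarith
  · rw [Fin.sum_univ_castSucc, hw2]
    simp only [hw1]
    rw [Fin.sum_univ_eq_sum_range (fun l => a * (1024 : ℝ) ^ ((l : ℤ) - (I : ℤ)))]
    ring
  · intro l hl
    exact if_pos hl
  · rw [Fin.sum_univ_castSucc, hw2]
    simp only [hw1, Fin.val_castSucc, Fin.val_last, Nat.add_sub_cancel_left]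
    rw [Fin.sum_univ_eq_sum_range (fun l => a * (1024 : ℝ) ^ ((l : ℤ) - (I : ℤ)) *
      ((2048 : ℝ) ^ (l - I))⁻¹)]
    have h6 := hE (n + 1)
    have h7 := hgeo (n + 1)
    have h8 : 0 ≤ ∑ l ∈ range (I + (n + 1)), a * (1024 : ℝ) ^ ((l : ℤ) - (I : ℤ)) :=
      sum_nonneg fun l _ => by positivity
    have h9 : ((2048 : ℝ) ^ (n + 1))⁻¹ ≤ a := by
      have e2 : ((2048 : ℝ) ^ (n + 1))⁻¹ = ((1024 : ℝ) ^ (n + 1))⁻¹ * (1 / 2) ^ (n + 1) := by
        rw [← inv_pow, ← inv_pow, ← mul_pow]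
        norm_num
      have e3 : (1 / 2 : ℝ) ^ (n + 1) ≤ 1 / 2 := by
        rw [pow_succ]
        have : (1 / 2 : ℝ) ^ n ≤ 1 := pow_le_one₀ (by norm_num) (by norm_num)
        linarith
      rw [e2]
      calc ((1024 : ℝ) ^ (n + 1))⁻¹ * (1 / 2) ^ (n + 1) ≤ (2 * a) * (1 / 2) :=
            mul_le_mul hn2' e3 (by positivity) (by positivity)
        _ = a := by ring
    have h10 : (1 - ∑ l ∈ range (I + (n + 1)), a * (1024 : ℝ) ^ ((l : ℤ) - (I : ℤ))) *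
        ((2048 : ℝ) ^ (n + 1))⁻¹ ≤ a := by
      refine le_trans ?_ h9
      have : 0 ≤ ((2048 : ℝ) ^ (n + 1))⁻¹ := by positivity
      nlinarith
    nlinarith

end KK
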