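import Mathlib

set_option autoImplicit false

namespace KK
open Finset

/-- Abel summation: `u` antitone and nonnegative, partial sums of `c` at most `C m`. -/
theorem abel (h : ℕ) (u c : ℕ → ℝ) (hu : Antitone u) (hu0 : ∀ e, 0 ≤ u e) (C : ℝ)
    (hc : ∀ m ≤ h, ∑ e ∈ range m, c e ≤ C * m) :
    ∑ e ∈ range h, c e * u e ≤ C * ∑ e ∈ range h, u e := by
  have key : ∀ m ≤ h, (C * m - ∑ e ∈ range m, c e) * u m ≤
      C * ∑ e ∈ range m, u e - ∑ e ∈ range m, c e * u e := by
    intro m
    induction m with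
    | zero => intro _; simp
    | succ m ih =>
      intro hm
      have h1 := ih (by omega)
      have h2 : 0 ≤ C * ((m + 1 : ℕ) : ℝ) - ∑ e ∈ range (m + 1), c e := by
        have := hc (m + 1) hm
        linarith
      have h3 : (C * ((m + 1 : ℕ) : ℝ) - ∑ e ∈ range (m + 1), c e) * u (m + 1) ≤
          (C * ((m + 1 : ℕ) : ℝ) - ∑ e ∈ range (m + 1), c e) * u m :=
        mul_le_mul_of_nonneg_left (hu (Nat.le_succ m)) h2
      refine h3.trans ?_
      rw [sum_range_succ, sum_range_succ, sum_range_succ]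
      push_cast
      nlinarith [h1]
  have h1 := key h le_rfl
  have h2 : 0 ≤ (C * h - ∑ e ∈ range h, c e) * u h := by
    refine mul_nonneg ?_ (hu0 h)
    have := hc h le_rfl
    linarith
  linarith

private theorem KKB2_pow_clog {m : ℕ} (hm : 1 ≤ m) : 64 ^ Nat.clog 64 m ≤ 64 * m := by
  rcases Nat.lt_or_ge 1 m with h | h
  · have h1 : 64 ^ (Nat.clog 64 m).pred < m := Nat.pow_pred_clog_lt_self (by norm_num) h
    have h2 : 0 < Nat.clog 64 m := Nat.clog_pos (by norm_num) h
    have h3 : Nat.clog 64 m = (Nat.clog 64 m).pred + 1 := (Nat.succ_pred_eq_of_pos h2).symm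
    rw [h3, pow_succ]
    omega
  · have : m = 1 := by omega
    subst this
    norm_num

/-- For `m ≤ h` put `i = Nat.clog 64 m`: `[0, m) ⊆ {e | clog (e+1) ≤ i}` and `64 ^ i ≤ 64 m` (for
`m ≥ 1`); apply `abel` with `c = indicator of E`, `C = 64 δ`. -/
theorem abel_level (h : ℕ) (u : Fin h → ℝ) (hu : Antitone u) (hu0 : ∀ e, 0 ≤ u e)
    (E : Finset (Fin h)) (δ : ℝ) (hδ : 0 ≤ δ)
    (hE : ∀ i : ℕ, ((E.filter fun e : Fin h => Nat.clog 64 ((e : ℕ) + 1) ≤ i).card : ℝ) ≤ 64 ^ i * δ) :
    ∑ e ∈ E, u e ≤ 64 * δ * ∑ e, u e := by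
  classical
  set u' : ℕ → ℝ := fun e => if he : e < h then u ⟨e, he⟩ else 0 with hu'
  set c : ℕ → ℝ := fun e => if he : e < h then (if (⟨e, he⟩ : Fin h) ∈ E then 1 else 0) else 0
    with hcdef
  have hu'a : Antitone u' := by
    intro a b hab
    simp only [hu']
    by_cases hb : b < h
    · have ha : a < h := lt_of_le_of_lt hab hb
      rw [dif_pos hb, dif_pos ha]
      exact hu (by exact_mod_cast hab)
    · rw [dif_neg hb]
      split_ifs
      · exact hu0 _
      · exact le_rfl
  have hu'0 : ∀ e, 0 ≤ u' e := by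
    intro e
    simp only [hu']
    split_ifs
    · exact hu0 _
    · exact le_rfl
  have hcs : ∀ m ≤ h, ∑ e ∈ range m, c e ≤ 64 * δ * m := by
    intro m hm
    have e1 : ∑ e ∈ range m, c e = ((E.filter fun e : Fin h => (e : ℕ) < m).card : ℝ) := by
      have e2 : ∑ e ∈ range m, c e = ∑ e ∈ range h, (if e < m then c e else 0) := by
        rw [← Finset.sum_filter]
        refine Finset.sum_congr ?_ fun _ _ => rfl
        ext e
        simp only [mem_range, mem_filter]
        omega
      rw [e2, ← Fin.sum_univ_eq_sum_range (fun e => if e < m then c e else 0) h]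
      rw [Finset.card_filter, Nat.cast_sum, ← Finset.sum_filter_add_sum_filter_not univ (· ∈ E)]
      rw [Finset.filter_univ_mem]
      have h0 : ∑ x ∈ univ.filter (fun x : Fin h => x ∉ E), (if (x : ℕ) < m then c x else 0) = 0 := by
        refine Finset.sum_eq_zero fun x hx => ?_
        have hxE := (Finset.mem_filter.mp hx).2
        have : c x = 0 := by
          simp only [hcdef, dif_pos x.2]
          rw [if_neg hxE]
        rw [this]
        simp
      rw [h0, add_zero]
      refine Finset.sum_congr rfl fun x hx => ?_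
      have : c x = 1 := by
        simp only [hcdef, dif_pos x.2]
        rw [if_pos hx]
      rw [this]
      split_ifs <;> simp
    rw [e1]
    rcases Nat.eq_zero_or_pos m with rfl | hm0
    · simp
    · have h1 : ((E.filter fun e : Fin h => (e : ℕ) < m).card : ℝ) ≤
          ((E.filter fun e : Fin h => Nat.clog 64 ((e : ℕ) + 1) ≤ Nat.clog 64 m).card : ℝ) := by
        norm_cast
        refine Finset.card_le_card fun e he => ?_
        rw [Finset.mem_filter] at he ⊢
        exact ⟨he.1, Nat.clog_mono_right 64 he.2⟩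
      refine h1.trans ((hE _).trans ?_)
      have h2 : ((64 : ℝ)) ^ Nat.clog 64 m ≤ 64 * m := by exact_mod_cast KKB2_pow_clog hm0
      calc (64 : ℝ) ^ Nat.clog 64 m * δ ≤ 64 * m * δ := mul_le_mul_of_nonneg_right h2 hδ
        _ = 64 * δ * m := by ring
  have key := abel h u' c hu'a hu'0 (64 * δ) hcs
  have e3 : ∑ e ∈ range h, u' e = ∑ e, u e := by
    rw [← Fin.sum_univ_eq_sum_range]
    refine Finset.sum_congr rfl fun x _ => ?_
    simp only [hu', dif_pos x.2]
  have e4 : ∑ e ∈ range h, c e * u' e = ∑ e ∈ E, u e := by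
    rw [← Fin.sum_univ_eq_sum_range (fun e => c e * u' e) h,
      ← Finset.sum_filter_add_sum_filter_not univ (· ∈ E), Finset.filter_univ_mem]
    have h0 : ∑ x ∈ univ.filter (fun x : Fin h => x ∉ E), c x * u' x = 0 := by
      refine Finset.sum_eq_zero fun x hx => ?_
      have hxE := (Finset.mem_filter.mp hx).2
      have : c x = 0 := by
        simp only [hcdef, dif_pos x.2]
        rw [if_neg hxE]
      rw [this, zero_mul]
    rw [h0, add_zero]
    refine Finset.sum_congr rfl fun x hx => ?_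
    have : c x = 1 := by
      simp only [hcdef, dif_pos x.2]
      rw [if_pos hx]
    rw [this, one_mul]
    simp only [hu', dif_pos x.2]
  rw [e3, e4] at key
  exact key

private theorem KKB2_sum_min (B : ℕ) :
    ∑ s ∈ range (B + 2), min 1 (64 * ((16 : ℝ) ^ s)⁻¹) ≤
      2 + 4 / 15 * (1 - ((16 : ℝ) ^ B)⁻¹) := by
  induction B with
  | zero =>
    rw [sum_range_succ, sum_range_succ, sum_range_zero]
    have h1 : min 1 (64 * ((16 : ℝ) ^ 0)⁻¹) ≤ 1 := min_le_left _ _
    have h2 : min 1 (64 * ((16 : ℝ) ^ 1)⁻¹) ≤ 1 := min_le_left _ _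
    norm_num at h1 h2 ⊢
  | succ B ih =>
    rw [show B + 1 + 2 = (B + 2) + 1 by ring, sum_range_succ]
    have h1 : min 1 (64 * ((16 : ℝ) ^ (B + 2))⁻¹) ≤ 64 * ((16 : ℝ) ^ (B + 2))⁻¹ := min_le_right _ _
    have h2 : 64 * ((16 : ℝ) ^ (B + 2))⁻¹ = 1 / 4 * ((16 : ℝ) ^ B)⁻¹ := by
      rw [pow_add, mul_inv]
      norm_num
      ring
    have h3 : ((16 : ℝ) ^ (B + 1))⁻¹ = 1 / 16 * ((16 : ℝ) ^ B)⁻¹ := by
      rw [pow_succ, mul_inv]
      norm_num
      ring
    rw [h3]
    rw [h2] at h1 ⊢
    linarith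

/-- `∑ u e * f e = ∑_s ∑_{e : s < f e} u e ≤ ∑_s min(1, 64 / 16^s) ∑ u ≤ 3 ∑ u`. -/
theorem sum_excess (h : ℕ) (u : Fin h → ℝ) (hu : Antitone u) (hu0 : ∀ e, 0 ≤ u e) (f : Fin h → ℕ)
    (hf : ∀ i s : ℕ, ((univ.filter fun e : Fin h => Nat.clog 64 ((e : ℕ) + 1) ≤ i ∧ s < f e).card : ℝ)
      ≤ 64 ^ i * ((16 : ℝ) ^ s)⁻¹) :
    ∑ e, u e * (f e : ℝ) ≤ 3 * ∑ e, u e := by
  classical
  set B : ℕ := univ.sup f with hB
  have hfB : ∀ e, f e ≤ B := fun e => Finset.le_sup (mem_univ e)
  have hS : 0 ≤ ∑ e, u e := Finset.sum_nonneg fun e _ => hu0 e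
  have e1 : ∑ e, u e * (f e : ℝ) =
      ∑ s ∈ range (B + 2), ∑ e ∈ univ.filter (fun e : Fin h => s < f e), u e := by
    have e2 : ∀ s, ∑ e ∈ univ.filter (fun e : Fin h => s < f e), u e =
        ∑ e, if s < f e then u e else 0 := fun s => by rw [Finset.sum_filter]
    simp only [e2]
    rw [Finset.sum_comm]
    refine Finset.sum_congr rfl fun e _ => ?_
    rw [← Finset.sum_filter, Finset.sum_const, nsmul_eq_mul, mul_comm]
    congr 2
    have : (range (B + 2)).filter (fun s => s < f e) = range (f e) := by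
      ext s
      simp only [mem_filter, mem_range]
      have := hfB e
      omega
    rw [this, card_range]
  rw [e1]
  have h2 : ∀ s ∈ range (B + 2), ∑ e ∈ univ.filter (fun e : Fin h => s < f e), u e ≤
      min 1 (64 * ((16 : ℝ) ^ s)⁻¹) * ∑ e, u e := by
    intro s _
    rw [min_mul_of_nonneg _ _ hS]
    refine le_min ?_ ?_
    · rw [one_mul]
      exact Finset.sum_le_sum_of_subset_of_nonneg (Finset.filter_subset _ _) fun e _ _ => hu0 e
    · refine abel_level h u hu hu0 _ _ (by positivity) fun i => ?_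
      have h3 := hf i s
      have e3 : (univ.filter (fun e : Fin h => s < f e)).filter
          (fun e : Fin h => Nat.clog 64 ((e : ℕ) + 1) ≤ i) =
          univ.filter (fun e : Fin h => Nat.clog 64 ((e : ℕ) + 1) ≤ i ∧ s < f e) := by
        ext e
        simp only [mem_filter, mem_univ, true_and]
        tauto
      rw [e3]
      exact h3
  refine (Finset.sum_le_sum h2).trans ?_
  rw [← Finset.sum_mul]
  refine mul_le_mul_of_nonneg_right ((KKB2_sum_min B).trans ?_) hS
  have : 0 < ((16 : ℝ) ^ B)⁻¹ := by positivity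
  linarith

end KK
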