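import Mathlib

set_option autoImplicit false

namespace KK
open Finset

/-- Jensen for `x ↦ b^(-x)` (e.g. from convexity of `exp`, `convexOn_exp.map_sum_le`, or from
`exp x ≥ exp a * (1 + (x - a))`). -/
theorem jensen {ι : Type} (A : Finset ι) (N : ι → ℕ) (b : ℝ) (hb : 1 ≤ b) (C : ℕ)
    (hC : ∑ i ∈ A, (N i : ℝ) ≤ (C : ℝ) * (A.card : ℝ)) :
    (A.card : ℝ) * (b ^ C)⁻¹ ≤ ∑ i ∈ A, (b ^ (N i))⁻¹ := by
  have hb0 : 0 < b := lt_of_lt_of_le one_pos hb
  have hL : 0 ≤ Real.log b := Real.log_nonneg hb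
  set L := Real.log b with hLdef
  have hexp : ∀ n : ℕ, (b ^ n)⁻¹ = Real.exp (-((n : ℝ) * L)) := by
    intro n
    rw [Real.exp_neg, Real.exp_nat_mul, hLdef, Real.exp_log hb0]
  have h1 : ∀ i ∈ A, Real.exp (-((C : ℝ) * L)) * (1 + ((C : ℝ) - (N i : ℝ)) * L) ≤
      (b ^ (N i))⁻¹ := by
    intro i _
    rw [hexp]
    have h2 : Real.exp (-((N i : ℝ) * L)) =
        Real.exp (-((C : ℝ) * L)) * Real.exp (((C : ℝ) - (N i : ℝ)) * L) := by
      rw [← Real.exp_add]
      congr 1
      ring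
    rw [h2]
    apply mul_le_mul_of_nonneg_left _ (Real.exp_pos _).le
    have := Real.add_one_le_exp (((C : ℝ) - (N i : ℝ)) * L)
    linarith
  refine le_trans ?_ (sum_le_sum h1)
  rw [← mul_sum, hexp, mul_comm]
  apply mul_le_mul_of_nonneg_left _ (Real.exp_pos _).le
  rw [sum_add_distrib, sum_const, nsmul_eq_mul, mul_one, ← sum_mul, sum_sub_distrib, sum_const,
    nsmul_eq_mul]
  have h3 : 0 ≤ ((A.card : ℝ) * (C : ℝ) - ∑ i ∈ A, (N i : ℝ)) * L :=
    mul_nonneg (by linarith) hL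
  linarith

/-- enumerate a finset by decreasing `u` (e.g. `Tuple.sort`, or `Finset.orderIsoOfFin`-like, or
induction on the size removing a minimiser) -/
theorem exists_enum {X : Type} [DecidableEq X] (H0 : Finset X) (u : X → ℕ) :
    ∃ φ : Fin H0.card → X, Function.Injective φ ∧ (univ.image φ = H0) ∧
      Antitone (fun e => u (φ e)) := by
  let e : Fin H0.card ≃ H0 := H0.equivFin.symm
  let f : Fin H0.card → ℕᵒᵈ := fun i => OrderDual.toDual (u (e i : X))
  refine ⟨fun i => (e (Tuple.sort f i) : X), ?_, ?_, ?_⟩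
  · intro i j h
    exact (Tuple.sort f).injective (e.injective (Subtype.ext h))
  · ext x
    simp only [mem_image, mem_univ, true_and]
    constructor
    · rintro ⟨i, rfl⟩
      exact (e _).2
    · intro hx
      refine ⟨(Tuple.sort f).symm (e.symm ⟨x, hx⟩), ?_⟩
      simp
  · intro i j hij
    have h := Tuple.monotone_sort f hij
    exact h

end KK
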