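import Crest.Agent.KK_Pr
import Crest.Agent.KK_B2
import Crest.Agent.KK_B3

set_option autoImplicit false

namespace KK
open Finset

open Classical in
/-- the elements `g` of the group with `A ⊆ g H0` -/
noncomputable def GS {G X : Type} [Group G] [Fintype G] [DecidableEq X] (ρ : G →* Equiv.Perm X)
    (H0 A : Finset X) : Finset G := univ.filter fun g => A ⊆ H0.image (ρ g)

/-- number of `g ∈ GS` with `x ∈ g⁻¹ A` -/
noncomputable def uu {G X : Type} [Group G] [Fintype G] [DecidableEq X] (ρ : G →* Equiv.Perm X)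
    (H0 A : Finset X) (x : X) : ℕ := ((GS ρ H0 A).filter fun g => ρ g x ∈ A).card

private theorem b4a_reindex {G X : Type} [Group G] [Fintype G] [DecidableEq X]
    (ρ : G →* Equiv.Perm X) (H0 A : Finset X) (F : X → ℝ) (g : G) (hg : g ∈ GS ρ H0 A) :
    ∑ x ∈ A, F (ρ g⁻¹ x) = ∑ x ∈ H0.filter (fun x => ρ g x ∈ A), F x := by
  classical
  have hA : A ⊆ H0.image (ρ g) := by
    have := hg
    simp only [GS, mem_filter, mem_univ, true_and] at this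
    exact this
  refine Finset.sum_bij' (fun x _ => ρ g⁻¹ x) (fun x _ => ρ g x) ?_ ?_ ?_ ?_ ?_
  · intro x hx
    obtain ⟨y, hy, hyx⟩ := mem_image.1 (hA hx)
    rw [mem_filter]
    have h1 : ρ g⁻¹ x = y := by
      rw [← hyx, map_inv]; simp
    rw [h1]
    exact ⟨hy, by rw [hyx]; exact hx⟩
  · intro x hx
    exact (mem_filter.1 hx).2
  · intro x hx
    simp [map_inv]
  · intro x hx
    simp [map_inv]
  · intro x hx
    rfl

/-- Lower bound for a captured copy `g1`. `∑_g F g = ∑_g F (g1 g⁻¹) ≥ ∑_{g ∈ GS} F (g1 g⁻¹)`, and for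
`g ∈ GS`: `F (g1 g⁻¹) = (2048^(N g))⁻¹`, `N g = ∑_{x ∈ A} f (ρ g1 (ρ g⁻¹ x)) =
∑_{x' ∈ H0, ρ g x' ∈ A} f (ρ g1 x')`. `∑_{g ∈ GS} N g = ∑_{x' ∈ H0} uu x' * f (ρ g1 x')
≤ 3 ∑_{x' ∈ H0} uu x'` (`sum_excess` along `φ0`) `= 3 |A| |GS|`. Conclude with `jensen`, `C = 3|A|`. -/
theorem capt_lower {G X : Type} [Group G] [Fintype G] [Fintype X] [DecidableEq X]
    (ρ : G →* Equiv.Perm X) (H0 A : Finset X) (φ0 : Fin H0.card → X)
    (hinj : Function.Injective φ0) (him : univ.image φ0 = H0)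
    (hanti : Antitone (fun e => uu ρ H0 A (φ0 e))) (f : X → ℕ) (g1 : G)
    (hf : ∀ i s : ℕ, ((univ.filter fun e : Fin H0.card =>
        Nat.clog 64 ((e : ℕ) + 1) ≤ i ∧ s < f (ρ g1 (φ0 e))).card : ℝ) ≤ 64 ^ i * ((16 : ℝ) ^ s)⁻¹) :
    ((GS ρ H0 A).card : ℝ) * ((2048 : ℝ) ^ (3 * A.card))⁻¹ ≤
      ∑ g : G, ∏ x ∈ A, ((2048 : ℝ) ^ (f (ρ g x)))⁻¹ := by
  classical
  set N : G → ℕ := fun g => ∑ x ∈ A, f (ρ g1 (ρ g⁻¹ x)) with hN
  have hsum : ∑ g : G, ∏ x ∈ A, ((2048 : ℝ) ^ (f (ρ g x)))⁻¹ =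
      ∑ g : G, ((2048 : ℝ) ^ (N g))⁻¹ := by
    rw [← Equiv.sum_comp ((Equiv.inv G).trans (Equiv.mulLeft g1))
      (fun g => ∏ x ∈ A, ((2048 : ℝ) ^ (f (ρ g x)))⁻¹)]
    refine Finset.sum_congr rfl fun g _ => ?_
    simp only [Equiv.trans_apply, Equiv.inv_apply, Equiv.coe_mulLeft, map_mul, Equiv.Perm.mul_apply]
    rw [Finset.prod_inv_distrib, hN, Finset.prod_pow_eq_pow_sum]
  rw [hsum]
  have hsub : ∑ g ∈ GS ρ H0 A, ((2048 : ℝ) ^ (N g))⁻¹ ≤ ∑ g : G, ((2048 : ℝ) ^ (N g))⁻¹ := by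
    refine Finset.sum_le_sum_of_subset_of_nonneg (subset_univ _) fun g _ _ => by positivity
  refine le_trans ?_ hsub
  refine jensen (GS ρ H0 A) N 2048 (by norm_num) (3 * A.card) ?_
  -- sum over GS of N
  have h1 : ∀ F : X → ℝ, ∑ g ∈ GS ρ H0 A, ∑ x ∈ A, F (ρ g⁻¹ x) =
      ∑ e : Fin H0.card, (uu ρ H0 A (φ0 e) : ℝ) * F (φ0 e) := by
    intro F
    have h2 : ∑ g ∈ GS ρ H0 A, ∑ x ∈ A, F (ρ g⁻¹ x) =
        ∑ x ∈ H0, (uu ρ H0 A x : ℝ) * F x := by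
      rw [Finset.sum_congr rfl (fun g hg => b4a_reindex ρ H0 A F g hg)]
      simp only [Finset.sum_filter]
      rw [Finset.sum_comm]
      refine Finset.sum_congr rfl fun x _ => ?_
      rw [← Finset.sum_filter, Finset.sum_const, nsmul_eq_mul]
      rfl
    have h2' : ∑ x ∈ H0, (uu ρ H0 A x : ℝ) * F x =
        ∑ x ∈ univ.image φ0, (uu ρ H0 A x : ℝ) * F x :=
      Finset.sum_congr him.symm fun _ _ => rfl
    rw [h2, h2', Finset.sum_image (fun a _ b _ h => hinj h)]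
  have h3 : ∑ g ∈ GS ρ H0 A, (N g : ℝ) =
      ∑ e : Fin H0.card, (uu ρ H0 A (φ0 e) : ℝ) * (f (ρ g1 (φ0 e)) : ℝ) := by
    rw [← h1 (fun x => (f (ρ g1 x) : ℝ))]
    refine Finset.sum_congr rfl fun g _ => ?_
    rw [hN]; push_cast; rfl
  have h4 : ∑ e : Fin H0.card, (uu ρ H0 A (φ0 e) : ℝ) = (A.card : ℝ) * ((GS ρ H0 A).card : ℝ) := by
    have := h1 (fun _ => (1 : ℝ))
    simp only [mul_one, Finset.sum_const, nsmul_eq_mul] at this
    rw [← this]; ring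
  rw [h3]
  refine le_trans (sum_excess H0.card (fun e => (uu ρ H0 A (φ0 e) : ℝ)) ?_ ?_
    (fun e => f (ρ g1 (φ0 e))) hf) ?_
  · intro a b hab
    have h5 : uu ρ H0 A (φ0 b) ≤ uu ρ H0 A (φ0 a) := hanti hab
    show (uu ρ H0 A (φ0 b) : ℝ) ≤ (uu ρ H0 A (φ0 a) : ℝ)
    exact_mod_cast h5
  · intro e
    positivity
  · rw [h4]; push_cast
    exact le_of_eq (by ring)

end KK
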