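import Crest.Agent.KK_Pr
import Crest.Agent.KK_B4a

set_option autoImplicit false

namespace KK
open Finset

/-- the system of the orbit of `H0` with the enumeration `φ0` -/
noncomputable def sysOf {G X : Type} [Group G] (ρ : G →* Equiv.Perm X) (h : ℕ) (φ0 : Fin h → X)
    (hinj : Function.Injective φ0) (R : ℕ) : Sys X G (Fin h) where
  φ g e := ρ g (φ0 e)
  inj g := (ρ g).injective.comp hinj
  lev e := Nat.clog 64 ((e : ℕ) + 1)
  I := Nat.clog 64 h
  hI e := Nat.clog_mono_right 64 (by have := e.2; omega)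
  R := R

theorem sysOf_levOK {G X : Type} [Group G] (ρ : G →* Equiv.Perm X) (h : ℕ) (φ0 : Fin h → X)
    (hinj : Function.Injective φ0) (R : ℕ) : (sysOf ρ h φ0 hinj R).LevOK := by
  classical
  intro i
  unfold cnt
  have h1 : ∀ e : Fin h, (sysOf ρ h φ0 hinj R).lev e ≤ i → (e : ℕ) < 64 ^ i := by
    intro e he
    have : (e : ℕ) + 1 ≤ 64 ^ i := (Nat.clog_le_iff_le_pow (by norm_num)).1 he
    omega
  refine le_trans (card_le_card_of_injOn (t := range (64 ^ i)) (fun e : Fin h => (e : ℕ)) ?_ ?_)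
    (card_range _).le
  · intro e he
    have := h1 e (by simpa using he)
    simpa using this
  · intro a _ b _ hab
    exact Fin.ext hab

theorem sysOf_hyp {G X : Type} [Group G] [Fintype G] [Fintype X] [DecidableEq X]
    (ρ : G →* Equiv.Perm X) (H0 : Finset X) (φ0 : Fin H0.card → X)
    (hinj : Function.Injective φ0) (him : univ.image φ0 = H0) (R : ℕ) (p : ℝ)
    (hH : ∀ J T : Finset X, J ⊆ H0 →
      ((cnt fun g : G => J.image (ρ g) = T : ℕ) : ℝ) ≤ 2 * p ^ J.card * (Fintype.card G : ℝ)) :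
    (sysOf ρ H0.card φ0 hinj R).Hyp p := by
  classical
  intro J T
  have h1 : J.image φ0 ⊆ H0 := by
    conv_rhs => rw [← him]
    exact image_subset_image (subset_univ _)
  have h2 := hH (J.image φ0) T h1
  rw [card_image_of_injective _ hinj] at h2
  have h3 : (fun g : G => J.image ((sysOf ρ H0.card φ0 hinj R).φ g) = T) =
      fun g : G => (J.image φ0).image (ρ g) = T := by
    funext g
    rw [image_image]
    rfl
  rw [h3]
  exact h2

/-- from `Capt`: thresholds `r = I + s < K`, `i ≤ I`; for `s ≥ R` no label exceeds `I + s ≥ K`; for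
`i > I` use `i = I` (all levels are `≤ I`). `θ i (I+s) = 64^i 16^(-s)`. -/
theorem sysOf_capt {G X : Type} [Group G] [Fintype G] [Fintype X] [DecidableEq X]
    (ρ : G →* Equiv.Perm X) (h : ℕ) (φ0 : Fin h → X) (hinj : Function.Injective φ0) (R : ℕ)
    (ω : X → Fin ((sysOf ρ h φ0 hinj R).K + 1)) (hc : (sysOf ρ h φ0 hinj R).Capt ω) :
    ∃ g1 : G, ∀ i s : ℕ, ((univ.filter fun e : Fin h =>
        Nat.clog 64 ((e : ℕ) + 1) ≤ i ∧ s < (ω (ρ g1 (φ0 e)) : ℕ) - Nat.clog 64 h).card : ℝ) ≤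
          64 ^ i * ((16 : ℝ) ^ s)⁻¹ := by
  classical
  obtain ⟨g, hg⟩ := hc
  refine ⟨g, fun i s => ?_⟩
  have hpos : (0 : ℝ) ≤ 64 ^ i * ((16 : ℝ) ^ s)⁻¹ := by positivity
  by_cases hK : (sysOf ρ h φ0 hinj R).I + s < (sysOf ρ h φ0 hinj R).K
  · have h1 := hg (min i (sysOf ρ h φ0 hinj R).I) (min_le_right _ _)
      ((sysOf ρ h φ0 hinj R).I + s) hK
    refine le_trans ?_ (h1.trans ?_)
    · norm_cast
      unfold cnt
      apply card_le_card
      intro e he
      simp only [mem_filter, mem_univ, true_and] at he ⊢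
      refine ⟨le_min he.1 ((sysOf ρ h φ0 hinj R).hI e), ?_⟩
      have h3 : s < (ω ((sysOf ρ h φ0 hinj R).φ g e) : ℕ) - (sysOf ρ h φ0 hinj R).I := he.2
      omega
    · unfold Sys.θ
      have e1 : (((sysOf ρ h φ0 hinj R).I : ℤ) - (((sysOf ρ h φ0 hinj R).I + s : ℕ) : ℤ)) =
          -(s : ℤ) := by push_cast; ring
      rw [e1, zpow_neg, zpow_natCast]
      apply mul_le_mul_of_nonneg_right _ (by positivity)
      exact pow_le_pow_right₀ (by norm_num) (min_le_left _ _)
  · refine le_trans (le_of_eq ?_) hpos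
    norm_cast
    apply card_eq_zero.2
    apply filter_eq_empty_iff.2
    rintro e _ ⟨_, h6⟩
    have h7 : (ω (ρ g (φ0 e)) : ℕ) < (sysOf ρ h φ0 hinj R).K + 1 := (ω (ρ g (φ0 e))).2
    have h8 : s < (ω (ρ g (φ0 e)) : ℕ) - (sysOf ρ h φ0 hinj R).I := h6
    omega

end KK
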