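import Crest.Agent.KK_A
import Crest.Agent.KK_B1
import Crest.Agent.KK_B3
import Crest.Agent.KK_B4a
import Crest.Agent.KK_B4b

set_option autoImplicit false

namespace KK
open Finset

/-- **Theorem B (spread).** If `4096 p > 1/2` then `2^47 p ≥ 1` and the bound is trivial (`A = ∅` too).
Otherwise `φ0` from `exists_enum` (with `u = uu ρ H0 A`), `I = Nat.clog 64 |H0|`, `R, w` from
`exists_weights I`, `S = sysOf ρ _ φ0 _ R` (`S.K = I + R` by definition), `capture` gives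
`P(Capt) ≥ 7/8` (`Pr_not`), `sysOf_capt` + `capt_lower` with `f x = ω x - I` give
`|GS| 2048^(-3|A|) P(Capt) ≤ ∑_ω wt ω ∑_g ∏_{x ∈ A} (2048^(ω (ρ g x) - I))⁻¹` (`markov`)
`= |G| (∑_l w l (2048^(l-I))⁻¹)^|A| ≤ |G| (2^14 p)^|A|` (`expect_prod`, `π = ρ g`). -/
theorem spread {G X : Type} [Group G] [Fintype G] [Fintype X] [DecidableEq X]
    (ρ : G →* Equiv.Perm X) (H0 : Finset X) (p : ℝ) (hp : 0 < p)
    (hH : ∀ J T : Finset X, J ⊆ H0 →
      ((cnt fun g : G => J.image (ρ g) = T : ℕ) : ℝ) ≤ 2 * p ^ J.card * (Fintype.card G : ℝ))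
    (A : Finset X) :
    ((cnt fun g : G => A ⊆ H0.image (ρ g) : ℕ) : ℝ) ≤
      2 * (2 ^ 47 * p) ^ A.card * (Fintype.card G : ℝ) := by
  classical
  have hG : (0 : ℝ) < (Fintype.card G : ℝ) := by exact_mod_cast Fintype.card_pos
  by_cases hp2 : 4096 * p ≤ 1 / 2
  · obtain ⟨φ0, hinj, him, hanti⟩ := exists_enum H0 (uu ρ H0 A)
    obtain ⟨R, w, hw0, hw1, hwl, hwE⟩ := exists_weights (Nat.clog 64 H0.card) p hp hp2
    let S := sysOf ρ H0.card φ0 hinj R
    have hWOK : S.WOK p w := ⟨hw0, hw1, hwl⟩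
    have hcapt := S.capture (sysOf_levOK ρ H0.card φ0 hinj R) p hp
      (sysOf_hyp ρ H0 φ0 hinj him R p hH) w hWOK
    have hnot := Pr_not (X := X) (L := Fin (S.K + 1)) w hw1 (fun ω => S.Capt ω)
    have h78 : 7 / 8 ≤ Pr (X := X) (L := Fin (S.K + 1)) w (fun ω => S.Capt ω) := by
      have h9 := hnot.symm.trans_le hcapt
      have h10 : ∀ a : ℝ, 1 - a ≤ 1 / 8 → 7 / 8 ≤ a := fun a h => by linarith
      exact h10 _ h9
    let y : Fin (S.K + 1) → ℝ := fun l => ((2048 : ℝ) ^ ((l : ℕ) - Nat.clog 64 H0.card))⁻¹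
    let B : ℝ := ((GS ρ H0 A).card : ℝ) * ((2048 : ℝ) ^ (3 * A.card))⁻¹
    have hB0 : 0 ≤ B := by positivity
    have hmk := markov (X := X) (L := Fin (S.K + 1)) w hw0
      (fun ω => ∑ g : G, ∏ x ∈ A, y (ω (ρ g x))) (by
        intro ω
        refine sum_nonneg fun g _ => prod_nonneg fun x _ => ?_
        positivity) (fun ω => S.Capt ω) B (by
        intro ω hω
        obtain ⟨g1, hg1⟩ := sysOf_capt ρ H0.card φ0 hinj R ω hω
        exact capt_lower ρ H0 A φ0 hinj him hanti (fun x => (ω x : ℕ) - Nat.clog 64 H0.card) g1 hg1)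
    have hE : ∑ ω : X → Fin (S.K + 1), wt w ω * (∑ g : G, ∏ x ∈ A, y (ω (ρ g x))) =
        (Fintype.card G : ℝ) * (∑ l, w l * y l) ^ A.card := by
      calc ∑ ω : X → Fin (S.K + 1), wt w ω * (∑ g : G, ∏ x ∈ A, y (ω (ρ g x)))
          = ∑ g : G, ∑ ω : X → Fin (S.K + 1), wt w ω * ∏ x ∈ A, y (ω (ρ g x)) := by
            rw [sum_comm]
            refine sum_congr rfl fun ω _ => ?_
            rw [mul_sum]
        _ = ∑ _g : G, (∑ l, w l * y l) ^ A.card := by
            refine sum_congr rfl fun g _ => ?_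
            exact expect_prod w hw1 y A (fun x => ρ g x) ((ρ g).injective.injOn)
        _ = (Fintype.card G : ℝ) * (∑ l, w l * y l) ^ A.card := by
            rw [sum_const, card_univ, nsmul_eq_mul]
    have hE0 : 0 ≤ ∑ l, w l * y l := sum_nonneg fun l _ => mul_nonneg (hw0 l) (by positivity)
    have hE1 : (∑ l, w l * y l) ^ A.card ≤ (2 ^ 14 * p) ^ A.card := by
      apply pow_le_pow_left₀ hE0
      have : ∑ l, w l * y l ≤ 4 * (4096 * p) := hwE
      linarith
    have h1 : B * (7 / 8) ≤ (Fintype.card G : ℝ) * (2 ^ 14 * p) ^ A.card := by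
      calc B * (7 / 8) ≤ B * Pr (X := X) (L := Fin (S.K + 1)) w (fun ω => S.Capt ω) :=
            mul_le_mul_of_nonneg_left h78 hB0
        _ ≤ (Fintype.card G : ℝ) * (∑ l, w l * y l) ^ A.card := by
            rw [← hE]
            exact hmk
        _ ≤ _ := mul_le_mul_of_nonneg_left hE1 hG.le
    have hcnt : (cnt fun g : G => A ⊆ H0.image (ρ g)) = (GS ρ H0 A).card := by
      unfold cnt GS
      congr
    rw [hcnt]
    have h2 : ((GS ρ H0 A).card : ℝ) = B * (2048 : ℝ) ^ (3 * A.card) := by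
      show ((GS ρ H0 A).card : ℝ) =
        ((GS ρ H0 A).card : ℝ) * ((2048 : ℝ) ^ (3 * A.card))⁻¹ * (2048 : ℝ) ^ (3 * A.card)
      rw [mul_assoc, inv_mul_cancel₀ (by positivity), mul_one]
    have h3 : (2 ^ 47 * p) ^ A.card = (2 ^ 14 * p) ^ A.card * (2048 : ℝ) ^ (3 * A.card) := by
      rw [pow_mul, ← mul_pow]
      congr 1
      ring
    rw [h2, h3]
    have h4 : 0 < (2048 : ℝ) ^ (3 * A.card) := by positivity
    have h5 : 0 ≤ (Fintype.card G : ℝ) * (2 ^ 14 * p) ^ A.card := by positivity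
    have h6 : B ≤ 2 * ((Fintype.card G : ℝ) * (2 ^ 14 * p) ^ A.card) := by
      generalize (Fintype.card G : ℝ) * (2 ^ 14 * p) ^ A.card = Z at h1 h5 ⊢
      generalize B = B' at h1 ⊢
      linarith
    have h7 := mul_le_mul_of_nonneg_right h6 h4.le
    refine h7.trans (le_of_eq ?_)
    ring
  · push Not at hp2
    have h1 : 1 ≤ 2 ^ 47 * p := by linarith
    have h2 : 1 ≤ (2 ^ 47 * p) ^ A.card := one_le_pow₀ h1
    have h3 : ((cnt fun g : G => A ⊆ H0.image (ρ g) : ℕ) : ℝ) ≤ (Fintype.card G : ℝ) := by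
      exact_mod_cast cnt_le_card _
    refine h3.trans ?_
    have h4 := mul_le_mul_of_nonneg_right h2 hG.le
    linarith

end KK
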