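import Crest.Agent.KK_Pr

set_option autoImplicit false

namespace KK
open Finset

open scoped Classical in
/-- The total weight of the labellings which agree with `ω'` off `T`. -/
private theorem fiber_sum {X L : Type} [Fintype X] [DecidableEq X] [Fintype L]
    (w : L → ℝ) (hw1 : ∑ l, w l = 1) (T : Finset X) (ω' : X → L) :
    ∑ ω ∈ univ.filter (fun ω : X → L => ∀ x, x ∉ T → ω' x = ω x), wt w ω =
      ∏ x ∈ Tᶜ, w (ω' x) := by
  have e : (univ.filter (fun ω : X → L => ∀ x, x ∉ T → ω' x = ω x)) =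
      Fintype.piFinset (fun x => if x ∈ T then (univ : Finset L) else {ω' x}) := by
    ext ω
    simp only [mem_filter, mem_univ, true_and, Fintype.mem_piFinset]
    refine forall_congr' fun x => ?_
    by_cases hx : x ∈ T
    · simp [hx]
    · simp [hx, eq_comm]
  rw [e]
  unfold wt
  rw [← Finset.prod_univ_sum (fun x => if x ∈ T then (univ : Finset L) else {ω' x})
    (fun _ l => w l)]
  rw [← Finset.prod_mul_prod_compl T]
  have h1 : ∏ x ∈ T, ∑ l ∈ (if x ∈ T then (univ : Finset L) else {ω' x}), w l = 1 := by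
    refine Finset.prod_eq_one fun x hx => ?_
    rw [if_pos hx, hw1]
  rw [h1, one_mul]
  refine Finset.prod_congr rfl fun x hx => ?_
  rw [if_neg (Finset.mem_compl.1 hx), Finset.sum_singleton]

open scoped Classical in
private theorem fiber_sum_le {X L : Type} [Fintype X] [DecidableEq X] [Fintype L]
    (w : L → ℝ) (hw : ∀ l, 0 ≤ w l) (hw1 : ∑ l, w l = 1) (T : Finset X) (ω' : X → L) (c : ℝ)
    (hc : 0 < c) (hcT : c ≤ ∏ x ∈ T, w (ω' x)) :
    ∑ ω ∈ univ.filter (fun ω : X → L => ∀ x, x ∉ T → ω' x = ω x), wt w ω ≤ wt w ω' / c := by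
  rw [fiber_sum w hw1, le_div_iff₀ hc, wt, ← Finset.prod_mul_prod_compl T, mul_comm]
  exact mul_le_mul_of_nonneg_right hcT (Finset.prod_nonneg fun _ _ => hw _)

/-- **Planting lemma.** If every bad pair `(ω, g)` can be encoded by `(ω', T)` where `ω'` agrees with
`ω` off `T`, `T` belongs to a list `D ω'` of length `≤ N`, the new labels on `T` have total weight
`≥ c`, and given `(ω', T)` there are at most `M` possible `g`, then `∑_g P(bad · g) ≤ N M / c`.
Proof: `∑_g ∑_{ω bad} wt ω ≤ ∑_{ω'} ∑_{T ∈ D ω'} ∑_{g : Q} ∑_{ω = ω' off T} wt ω` and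
`∑_{ω = ω' off T} wt ω = ∏_{x ∉ T} w (ω' x) ≤ wt ω' / c`. -/
theorem planting {X L G : Type} [Fintype X] [DecidableEq X] [Fintype L] [DecidableEq L] [Fintype G]
    (w : L → ℝ) (hw : ∀ l, 0 ≤ w l) (hw1 : ∑ l, w l = 1)
    (bad : (X → L) → G → Prop) (D : (X → L) → Finset (Finset X))
    (Q : (X → L) → Finset X → G → Prop) (c M N : ℝ) (hc : 0 < c) (hM : 0 ≤ M)
    (h : ∀ ω g, bad ω g → ∃ (T : Finset X) (ω' : X → L),
      (∀ x, x ∉ T → ω' x = ω x) ∧ T ∈ D ω' ∧ Q ω' T g)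
    (hD : ∀ ω', ((D ω').card : ℝ) ≤ N)
    (hc' : ∀ ω', ∀ T ∈ D ω', c ≤ ∏ x ∈ T, w (ω' x))
    (hQ : ∀ ω', ∀ T ∈ D ω', ((cnt fun g => Q ω' T g : ℕ) : ℝ) ≤ M) :
    ∑ g, Pr w (fun ω => bad ω g) ≤ N * M / c := by
  classical
  set P : Finset (Σ _ : X → L, Finset X) := univ.sigma D with hP
  set A : G → (X → L) → (Σ _ : X → L, Finset X) → ℝ := fun g ω q =>
    if Q q.1 q.2 g then (if ∀ x, x ∉ q.2 → q.1 x = ω x then wt w ω else 0) else 0 with hA
  have hA0 : ∀ g ω q, 0 ≤ A g ω q := by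
    intro g ω q
    simp only [hA]
    split_ifs
    · exact wt_nonneg w hw ω
    · exact le_refl _
    · exact le_refl _
  have h1 : ∀ g, Pr w (fun ω => bad ω g) ≤ ∑ ω, ∑ q ∈ P, A g ω q := by
    intro g
    unfold Pr
    rw [Finset.sum_filter]
    refine Finset.sum_le_sum fun ω _ => ?_
    split_ifs with hb
    · obtain ⟨T, ω', h2, h3, h4⟩ := h ω g hb
      have hq : (⟨ω', T⟩ : Σ _ : X → L, Finset X) ∈ P := by
        rw [hP, Finset.mem_sigma]
        exact ⟨Finset.mem_univ _, h3⟩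
      have h5 : A g ω ⟨ω', T⟩ = wt w ω := by
        simp only [hA]
        rw [if_pos h4, if_pos h2]
      rw [← h5]
      exact Finset.single_le_sum (f := fun q => A g ω q) (fun q _ => hA0 g ω q) hq
    · exact Finset.sum_nonneg fun q _ => hA0 g ω q
  have h2 : ∑ g, ∑ ω, ∑ q ∈ P, A g ω q = ∑ q ∈ P, ∑ g, ∑ ω, A g ω q := by
    calc ∑ g, ∑ ω, ∑ q ∈ P, A g ω q = ∑ g, ∑ q ∈ P, ∑ ω, A g ω q :=
          Finset.sum_congr rfl fun g _ => Finset.sum_comm
      _ = ∑ q ∈ P, ∑ g, ∑ ω, A g ω q := Finset.sum_comm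
  have h3 : ∀ q ∈ P, ∑ g, ∑ ω, A g ω q ≤ M * (wt w q.1 / c) := by
    intro q hq
    rw [hP, Finset.mem_sigma] at hq
    have h4 : ∀ g, ∑ ω, A g ω q ≤ if Q q.1 q.2 g then wt w q.1 / c else 0 := by
      intro g
      simp only [hA]
      split_ifs with hQ'
      · rw [← Finset.sum_filter]
        refine le_trans (le_of_eq ?_) (fiber_sum_le w hw hw1 q.2 q.1 c hc (hc' q.1 q.2 hq.2))
        refine Finset.sum_congr ?_ (fun _ _ => rfl)
        ext ω
        simp only [mem_filter]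
      · simp
    refine (Finset.sum_le_sum fun g _ => h4 g).trans ?_
    rw [← Finset.sum_filter, Finset.sum_const, nsmul_eq_mul]
    refine mul_le_mul_of_nonneg_right ?_ (div_nonneg (wt_nonneg w hw _) hc.le)
    have h5 := hQ q.1 q.2 hq.2
    unfold cnt at h5
    exact h5
  calc ∑ g, Pr w (fun ω => bad ω g) ≤ ∑ g, ∑ ω, ∑ q ∈ P, A g ω q :=
        Finset.sum_le_sum fun g _ => h1 g
    _ = ∑ q ∈ P, ∑ g, ∑ ω, A g ω q := h2
    _ ≤ ∑ q ∈ P, M * (wt w q.1 / c) := Finset.sum_le_sum h3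
    _ = ∑ ω' : X → L, ((D ω').card : ℝ) * (M * (wt w ω' / c)) := by
        rw [hP, Finset.sum_sigma]
        refine Finset.sum_congr rfl fun ω' _ => ?_
        change ∑ _s ∈ D ω', M * (wt w ω' / c) = _
        rw [Finset.sum_const, nsmul_eq_mul]
    _ ≤ ∑ ω' : X → L, N * (M * (wt w ω' / c)) := by
        refine Finset.sum_le_sum fun ω' _ => ?_
        exact mul_le_mul_of_nonneg_right (hD ω')
          (mul_nonneg hM (div_nonneg (wt_nonneg w hw _) hc.le))
    _ = N * M / c := by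
        rw [← Finset.mul_sum, ← Finset.mul_sum, ← Finset.sum_div, sum_wt w hw1]
        ring

end KK
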