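import Crest.Agent.KK_C2
import Crest.Agent.KK_Plant

set_option autoImplicit false

namespace KK
open Finset

variable {X G H : Type} [Fintype X] [DecidableEq X] [Fintype G] [Fintype H] [DecidableEq H]

open Classical in
/-- the list of possible planted sets -/
private noncomputable def C3_D (φ : G → H → X) (m j t : ℕ) (ω' : X → Fin (m + 1)) :
    Finset (Finset X) :=
  if h : ∃ g, DecC φ m j ω' g then
    (((univ.filter fun e => InC φ m (j - 1) ω' h.choose e).powersetCard t).filter
      (fun E => ∀ e ∈ E, (ω' (φ h.choose e) : ℕ) = j)).image (fun E => E.image (φ h.choose))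
  else ∅

private theorem C3_card (φ : G → H → X) (m j t : ℕ) (hj1 : 1 ≤ j) (ω' : X → Fin (m + 1)) :
    (C3_D φ m j t ω').card ≤ (Fintype.card H / 2 ^ (j - 1)).choose t := by
  classical
  unfold C3_D
  split_ifs with h
  · refine card_image_le.trans ((card_filter_le _ _).trans ?_)
    rw [card_powersetCard]
    refine Nat.choose_le_choose t ?_
    have h1 := h.choose_spec.2 (j - 1) (by omega)
    refine le_trans (le_of_eq ?_) h1
    unfold cnt
    congr!
  · simp

private theorem C3_mem (φ : G → H → X) (hφ : ∀ g, Function.Injective (φ g)) (m j t : ℕ)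
    (ω' : X → Fin (m + 1)) (T : Finset X) (hT : T ∈ C3_D φ m j t ω') :
    T.card = t ∧ ∀ x ∈ T, (ω' x : ℕ) = j := by
  classical
  unfold C3_D at hT
  split_ifs at hT with h
  · rw [mem_image] at hT
    obtain ⟨E, hE, rfl⟩ := hT
    rw [mem_filter, mem_powersetCard] at hE
    refine ⟨?_, ?_⟩
    · rw [card_image_of_injective _ (hφ _)]
      exact hE.1.2
    · intro x hx
      rw [mem_image] at hx
      obtain ⟨e, he, rfl⟩ := hx
      exact hE.2 e he
  · simp at hT

/-- `planting` with `g' = epsilon (DecC ω')` and `D ω' =` the images `E.image (φ g')` of the sets `E` of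
`t` positions with `InC (j-1) ω' g'` and `ω' (φ g' e) = j` if `DecC` is satisfiable, else `∅`
(`≤ C(h / 2^(j-1), t)` sets), `Q ω' T g0 = (T ⊆ univ.image (φ g0))`, `c = q ^ t`, `M = 2 s^t |G|`.
Encoding: `T = {φ g e | InC j ω g e}`, `ω' = plantC`. -/
theorem pr_badC [Nonempty G] (φ : G → H → X) (hφ : ∀ g, Function.Injective (φ g)) (m : ℕ) (s q : ℝ)
    (hs : 0 ≤ s) (hq : 0 < q) (hmq : m * q ≤ 1)
    (hspread : ∀ T : Finset X, ((cnt fun g => T ⊆ univ.image (φ g) : ℕ) : ℝ) ≤
      2 * s ^ T.card * (Fintype.card G : ℝ))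
    (j t : ℕ) (hj1 : 1 ≤ j) (hj : j ≤ m) :
    ∑ g0, Pr (thr m q) (fun ω => BadC φ m j t ω g0) ≤
      ((Fintype.card H / 2 ^ (j - 1)).choose t : ℝ) * (2 * (s / q) ^ t) * (Fintype.card G : ℝ) := by
  classical
  have hw : ∀ l, 0 ≤ thr m q l := by
    intro l
    unfold thr
    split_ifs
    · linarith
    · exact hq.le
  have hw1 : ∑ l, thr m q l = 1 := by
    rw [Fin.sum_univ_succ]
    simp [thr]
  have hM : 0 ≤ 2 * s ^ t * (Fintype.card G : ℝ) := by positivity
  have key := planting (thr m q) hw hw1 (fun ω g0 => BadC φ m j t ω g0) (C3_D φ m j t)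
    (fun _ T g0 => T ⊆ univ.image (φ g0)) (q ^ t) (2 * s ^ t * (Fintype.card G : ℝ))
    ((Fintype.card H / 2 ^ (j - 1)).choose t : ℝ) (pow_pos hq t) hM ?_ ?_ ?_ ?_
  · refine key.trans (le_of_eq ?_)
    have hqt : q ^ t ≠ 0 := (pow_pos hq t).ne'
    rw [div_pow]
    field_simp
  · -- the encoding
    rintro ω g0 ⟨g, hV, hmin, hcnt⟩
    have hdec : ∃ g', DecC φ m j (plantC φ m j hj ω g) g' := ⟨g, decC_plantC φ m j hj hj1 ω g0 g hV⟩
    refine ⟨(univ.filter fun e => InC φ m j ω g e).image (φ g), plantC φ m j hj ω g, ?_, ?_, ?_⟩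
    · intro x hx
      unfold plantC
      rw [if_neg]
      rintro ⟨e, rfl, he⟩
      exact hx (mem_image.mpr ⟨e, mem_filter.mpr ⟨mem_univ _, he⟩, rfl⟩)
    · unfold C3_D
      rw [dif_pos hdec]
      have hval : ∀ e, InC φ m j ω g e → (plantC φ m j hj ω g (φ g e) : ℕ) = j := by
        intro e he
        unfold plantC
        rw [if_pos ⟨e, rfl, he⟩]
      have hsub : ∀ e, InC φ m j ω g e → ∃ e', φ hdec.choose e' = φ g e := by
        intro e he
        obtain ⟨e', h1, _⟩ := planted_subset φ hφ m j hj hj1 ω g0 g hdec.choose hV hmin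
          hdec.choose_spec e he
        exact ⟨e', h1⟩
      rw [mem_image]
      have hEim : ((univ.filter fun e' => ∃ e, InC φ m j ω g e ∧ φ hdec.choose e' = φ g e).image
          (φ hdec.choose)) = (univ.filter fun e => InC φ m j ω g e).image (φ g) := by
        ext x
        simp only [mem_image, mem_filter, mem_univ, true_and]
        constructor
        · rintro ⟨e', ⟨e, he, h1⟩, rfl⟩
          exact ⟨e, he, h1.symm⟩
        · rintro ⟨e, he, rfl⟩
          obtain ⟨e', h1⟩ := hsub e he
          exact ⟨e', ⟨e, he, h1⟩, h1⟩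
      refine ⟨univ.filter fun e' => ∃ e, InC φ m j ω g e ∧ φ hdec.choose e' = φ g e, ?_, hEim⟩
      rw [mem_filter, mem_powersetCard]
      have hj' : ∀ e' ∈ univ.filter fun e' => ∃ e, InC φ m j ω g e ∧ φ hdec.choose e' = φ g e,
          (plantC φ m j hj ω g (φ hdec.choose e') : ℕ) = j := by
        intro e' he'
        obtain ⟨e, he, h1⟩ := (mem_filter.mp he').2
        rw [h1]
        exact hval e he
      refine ⟨⟨?_, ?_⟩, hj'⟩
      · intro e' he'
        refine mem_filter.mpr ⟨mem_univ _, Or.inr ?_⟩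
        rw [hj' e' he']
        omega
      · rw [← card_image_of_injective _ (hφ hdec.choose), hEim, card_image_of_injective _ (hφ g),
          ← hcnt]
        unfold cnt
        congr!
    · intro x hx
      obtain ⟨e, he, rfl⟩ := mem_image.mp hx
      obtain ⟨e0, h0⟩ := hV.1 e (mem_filter.mp he).2
      exact mem_image.mpr ⟨e0, mem_univ _, h0⟩
  · intro ω'
    exact_mod_cast C3_card φ m j t hj1 ω'
  · intro ω' T hT
    obtain ⟨h1, h2⟩ := C3_mem φ hφ m j t ω' T hT
    rw [← h1, ← prod_const]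
    refine le_of_eq (prod_congr rfl fun x hx => ?_)
    unfold thr
    rw [if_neg]
    intro h0
    have := h2 x hx
    rw [h0] at this
    simp at this
    omega
  · intro ω' T hT
    obtain ⟨h1, _⟩ := C3_mem φ hφ m j t ω' T hT
    rw [← h1]
    exact hspread T

end KK
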