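import Mathlib

set_option autoImplicit false

namespace KK
open Finset

/-- one stage: with `k = a / 2` (`a ≤ 2k+1`): `C(a,t) ≤ 2^(2k+1)`, `∑_{t > k} 1024^(-t) ≤
2 * 1024^(-(k+1))` -/
theorem stage_sum (a : ℕ) :
    ∑ t ∈ Ioc (a / 2) a, ((a.choose t : ℕ) : ℝ) * (2 * (1 / 1024 : ℝ) ^ t) ≤
      ((2 : ℝ) ^ (8 * (a / 2) + 7))⁻¹ := by
  set k : ℕ := a / 2 with hk
  have ha : a ≤ 2 * k + 1 := by omega
  have h1 : ∑ t ∈ Ioc k a, ((a.choose t : ℕ) : ℝ) * (2 * (1 / 1024 : ℝ) ^ t) ≤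
      ∑ t ∈ Ioc k a, ((a.choose t : ℕ) : ℝ) * (2 * (1 / 1024 : ℝ) ^ (k + 1)) := by
    refine Finset.sum_le_sum fun t ht => ?_
    rw [mem_Ioc] at ht
    refine mul_le_mul_of_nonneg_left ?_ (Nat.cast_nonneg _)
    refine mul_le_mul_of_nonneg_left ?_ (by norm_num)
    exact pow_le_pow_of_le_one (by norm_num) (by norm_num) (by omega)
  have h2 : (∑ t ∈ Ioc k a, ((a.choose t : ℕ) : ℝ)) ≤ (2 : ℝ) ^ a := by
    have h3 : ∑ t ∈ range (a + 1), a.choose t = 2 ^ a := Nat.sum_range_choose a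
    have h4 : ∑ t ∈ Ioc k a, a.choose t ≤ ∑ t ∈ range (a + 1), a.choose t := by
      refine Finset.sum_le_sum_of_subset fun t ht => ?_
      rw [mem_Ioc] at ht
      rw [mem_range]
      omega
    rw [h3] at h4
    exact_mod_cast h4
  refine h1.trans ?_
  rw [← Finset.sum_mul]
  have h5 : (2 : ℝ) ^ a ≤ 2 ^ (2 * k + 1) := pow_le_pow_right₀ (by norm_num) ha
  have h6 : (0 : ℝ) ≤ 2 * (1 / 1024 : ℝ) ^ (k + 1) := by positivity
  refine (mul_le_mul_of_nonneg_right (h2.trans h5) h6).trans ?_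
  have h7 : (1 / 1024 : ℝ) ^ (k + 1) = ((2 : ℝ) ^ (10 * (k + 1)))⁻¹ := by
    rw [pow_mul, one_div, inv_pow]
    norm_num
  rw [h7, ← mul_assoc, ← pow_succ, ← div_eq_mul_inv, div_le_iff₀ (by positivity), ← div_eq_inv_mul,
    le_div_iff₀ (by positivity), ← pow_add]
  exact pow_le_pow_right₀ (by norm_num) (by omega)

/-- all stages, by induction (on `m`, generalising `h`): the `j = 1` term is `≤ 2^(-8(h/2)-7)` (and `0`
if `h = 0`), the others are the sum for `h / 2`: `F m h ≤ ∑_{k < h} 2^(-8k-7) ≤ 1/32`. -/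
theorem total_sum (h m : ℕ) :
    ∑ j ∈ Icc 1 m, ∑ t ∈ Ioc (h / 2 ^ j) (h / 2 ^ (j - 1)),
      (((h / 2 ^ (j - 1)).choose t : ℕ) : ℝ) * (2 * (1 / 1024 : ℝ) ^ t) ≤ 1 / 32 := by
  have hG : ∀ h : ℕ, ∑ k ∈ range h, ((2 : ℝ) ^ (8 * k + 7))⁻¹ ≤ (1 / 64) * (1 - (1 / 256) ^ h) := by
    intro h
    induction h with
    | zero => simp
    | succ h ih =>
      rw [sum_range_succ]
      have e : ((2 : ℝ) ^ (8 * h + 7))⁻¹ = (1 / 128) * (1 / 256) ^ h := by
        rw [pow_add, pow_mul, mul_inv, one_div_pow]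
        norm_num
        ring
      have hx : (0 : ℝ) ≤ (1 / 256) ^ h := by positivity
      rw [e, pow_succ]
      nlinarith
  have key : ∀ m h : ℕ, ∑ j ∈ Icc 1 m, ∑ t ∈ Ioc (h / 2 ^ j) (h / 2 ^ (j - 1)),
      (((h / 2 ^ (j - 1)).choose t : ℕ) : ℝ) * (2 * (1 / 1024 : ℝ) ^ t) ≤
      ∑ k ∈ range h, ((2 : ℝ) ^ (8 * k + 7))⁻¹ := by
    intro m
    induction m with
    | zero =>
      intro h
      simp only [Nat.lt_one_iff, pos_of_gt, Icc_eq_empty_of_lt, sum_empty]
      positivity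
    | succ m ih =>
      intro h
      have hs : Icc 1 (m + 1) = insert 1 ((Icc 1 m).image (· + 1)) := by
        ext j
        simp only [mem_Icc, mem_insert, mem_image]
        constructor
        · rintro ⟨h1, h2⟩
          by_cases hj : j = 1
          · exact Or.inl hj
          · exact Or.inr ⟨j - 1, by omega, by omega⟩
        · rintro (rfl | ⟨i, hi, rfl⟩)
          · omega
          · omega
      rw [hs, sum_insert (by
        simp only [mem_image, mem_Icc, not_exists, not_and]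
        intro x hx
        omega), sum_image (fun a _ b _ hab => by simpa using hab)]
      have h1 : ∑ j ∈ Icc 1 m, ∑ t ∈ Ioc (h / 2 ^ (j + 1)) (h / 2 ^ (j + 1 - 1)),
          (((h / 2 ^ (j + 1 - 1)).choose t : ℕ) : ℝ) * (2 * (1 / 1024 : ℝ) ^ t) =
          ∑ j ∈ Icc 1 m, ∑ t ∈ Ioc ((h / 2) / 2 ^ j) ((h / 2) / 2 ^ (j - 1)),
          ((((h / 2) / 2 ^ (j - 1)).choose t : ℕ) : ℝ) * (2 * (1 / 1024 : ℝ) ^ t) := by
        refine sum_congr rfl fun j hj => ?_
        rw [mem_Icc] at hj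
        have e1 : h / 2 ^ (j + 1) = (h / 2) / 2 ^ j := by
          rw [pow_succ', Nat.div_div_eq_div_mul]
        have e2 : h / 2 ^ (j + 1 - 1) = (h / 2) / 2 ^ (j - 1) := by
          rw [Nat.div_div_eq_div_mul, ← pow_succ']
          congr 2
          omega
        rw [e1, e2]
      rw [h1]
      have h2 := ih (h / 2)
      rcases Nat.eq_zero_or_pos h with h0 | h0
      · subst h0
        have h3 := ih 0
        simp only [Nat.zero_div, Ioc_self, sum_empty, sum_const_zero, range_zero, add_zero, le_refl]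
      · have h3 := stage_sum h
        have e3 : h / 2 ^ 1 = h / 2 := by rw [pow_one]
        have e4 : h / 2 ^ (1 - 1) = h := by simp
        rw [e3, e4]
        calc _ ≤ ((2 : ℝ) ^ (8 * (h / 2) + 7))⁻¹ + ∑ k ∈ range (h / 2), ((2 : ℝ) ^ (8 * k + 7))⁻¹ :=
              add_le_add h3 h2
          _ = ∑ k ∈ range (h / 2 + 1), ((2 : ℝ) ^ (8 * k + 7))⁻¹ := by
              rw [sum_range_succ, add_comm]
          _ ≤ ∑ k ∈ range h, ((2 : ℝ) ^ (8 * k + 7))⁻¹ := by
              refine sum_le_sum_of_subset_of_nonneg ?_ fun _ _ _ => by positivity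
              intro x hx
              rw [mem_range] at hx ⊢
              omega
  refine (key m h).trans ((hG h).trans ?_)
  have hx : (0 : ℝ) ≤ (1 / 256) ^ h := by positivity
  linarith

end KK
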