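import Crest.Agent.KK_C1
import Crest.Agent.KK_C3
import Crest.Agent.KK_C4

set_option autoImplicit false

namespace KK
open Finset

variable {X G H : Type} [Fintype X] [DecidableEq X] [Fintype G] [Fintype H] [DecidableEq H]

/-- **Theorem C (threshold).** `|G| P(no copy) ≤ ∑_{g0} ∑_j ∑_t P(BadC j t · g0)` (`exists_badC`, union
bound), `pr_badC`, `s / q ≤ 1/1024`, `total_sum`: `≤ |G| / 32`; `Pr_not`; `thr m q` is a probability
vector. -/
theorem threshold [Nonempty G] (φ : G → H → X) (hφ : ∀ g, Function.Injective (φ g)) (m : ℕ)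
    (hm : 1 ≤ m) (hh : Fintype.card H < 2 ^ m) (s q : ℝ) (hs : 0 ≤ s) (hq : 0 < q)
    (hsq : 1024 * s ≤ q) (hmq : m * q ≤ 1)
    (hspread : ∀ T : Finset X, ((cnt fun g => T ⊆ univ.image (φ g) : ℕ) : ℝ) ≤
      2 * s ^ T.card * (Fintype.card G : ℝ)) :
    1 / 2 ≤ Pr (thr m q) (fun ω : X → Fin (m + 1) => ∃ g, ∀ e, ω (φ g e) ≠ 0) := by
  have hw : ∀ l, 0 ≤ thr m q l := by
    intro l
    unfold thr
    split_ifs
    · linarith
    · exact hq.le
  have hw1 : ∑ l, thr m q l = 1 := by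
    rw [Fin.sum_univ_succ]
    have h0 : thr m q 0 = 1 - m * q := by simp [thr]
    have h1 : ∀ i : Fin m, thr m q i.succ = q := by
      intro i
      simp [thr]
    rw [h0]
    simp only [h1, sum_const, card_univ, Fintype.card_fin, nsmul_eq_mul]
    ring
  have hG : (0 : ℝ) < (Fintype.card G : ℝ) := by exact_mod_cast Fintype.card_pos
  set E : (X → Fin (m + 1)) → Prop := fun ω => ∃ g, ∀ e, ω (φ g e) ≠ 0 with hE
  have hnot := Pr_not (thr m q) hw1 E
  have hsq0 : 0 ≤ s / q := div_nonneg hs hq.le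
  have hsq1 : s / q ≤ 1 / 1024 := by
    rw [div_le_div_iff₀ hq (by norm_num)]
    linarith
  -- union bound for one hidden copy
  have h1 : ∀ g0 : G, Pr (thr m q) (fun ω => ¬ E ω) ≤ ∑ j ∈ Icc 1 m,
      ∑ t ∈ Ioc (Fintype.card H / 2 ^ j) (Fintype.card H / 2 ^ (j - 1)),
        Pr (thr m q) (fun ω => BadC φ m j t ω g0) := by
    intro g0
    refine (Pr_mono (thr m q) hw _ (fun ω => ∃ j ∈ Icc 1 m, ∃ t ∈ Ioc (Fintype.card H / 2 ^ j)
      (Fintype.card H / 2 ^ (j - 1)), BadC φ m j t ω g0) ?_).trans ?_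
    · intro ω hω
      exact exists_badC φ m hm hh ω hω g0
    · refine (Pr_union (thr m q) hw (Icc 1 m) (fun j ω => ∃ t ∈ Ioc (Fintype.card H / 2 ^ j)
        (Fintype.card H / 2 ^ (j - 1)), BadC φ m j t ω g0)).trans ?_
      refine sum_le_sum fun j _ => ?_
      exact Pr_union (thr m q) hw _ (fun t ω => BadC φ m j t ω g0)
  have h2 : (Fintype.card G : ℝ) * Pr (thr m q) (fun ω => ¬ E ω) ≤ (Fintype.card G : ℝ) * (1 / 32) := by
    calc (Fintype.card G : ℝ) * Pr (thr m q) (fun ω => ¬ E ω)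
        = ∑ g0 : G, Pr (thr m q) (fun ω => ¬ E ω) := by
          rw [sum_const, card_univ, nsmul_eq_mul]
      _ ≤ ∑ g0 : G, ∑ j ∈ Icc 1 m,
          ∑ t ∈ Ioc (Fintype.card H / 2 ^ j) (Fintype.card H / 2 ^ (j - 1)),
            Pr (thr m q) (fun ω => BadC φ m j t ω g0) := sum_le_sum fun g0 _ => h1 g0
      _ = ∑ j ∈ Icc 1 m, ∑ t ∈ Ioc (Fintype.card H / 2 ^ j) (Fintype.card H / 2 ^ (j - 1)),
            ∑ g0 : G, Pr (thr m q) (fun ω => BadC φ m j t ω g0) := by
          rw [sum_comm]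
          refine sum_congr rfl fun j _ => ?_
          rw [sum_comm]
      _ ≤ ∑ j ∈ Icc 1 m, ∑ t ∈ Ioc (Fintype.card H / 2 ^ j) (Fintype.card H / 2 ^ (j - 1)),
            (Fintype.card G : ℝ) * ((((Fintype.card H / 2 ^ (j - 1)).choose t : ℕ) : ℝ) *
              (2 * (1 / 1024 : ℝ) ^ t)) := by
          refine sum_le_sum fun j hj => sum_le_sum fun t _ => ?_
          rw [mem_Icc] at hj
          refine (pr_badC φ hφ m s q hs hq hmq hspread j t hj.1 hj.2).trans ?_
          rw [mul_comm]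
          refine mul_le_mul_of_nonneg_left ?_ hG.le
          refine mul_le_mul_of_nonneg_left ?_ (Nat.cast_nonneg _)
          have := pow_le_pow_left₀ hsq0 hsq1 t
          linarith
      _ = (Fintype.card G : ℝ) * ∑ j ∈ Icc 1 m,
            ∑ t ∈ Ioc (Fintype.card H / 2 ^ j) (Fintype.card H / 2 ^ (j - 1)),
              (((Fintype.card H / 2 ^ (j - 1)).choose t : ℕ) : ℝ) * (2 * (1 / 1024 : ℝ) ^ t) := by
          rw [mul_sum]
          refine sum_congr rfl fun j _ => ?_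
          rw [mul_sum]
      _ ≤ (Fintype.card G : ℝ) * (1 / 32) :=
          mul_le_mul_of_nonneg_left (total_sum (Fintype.card H) m) hG.le
  have h3 : Pr (thr m q) (fun ω => ¬ E ω) ≤ 1 / 32 := le_of_mul_le_mul_left h2 hG
  rw [hnot] at h3
  linarith

end KK
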