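import Crest.Agent.KK_Push

/-! definitions for Theorem C (threshold from spread), no sorries here -/

set_option autoImplicit false

namespace KK
open Finset

variable {X G H : Type} [Fintype X] [DecidableEq X] [Fintype G] [Fintype H] [DecidableEq H]

/-- position `e` of the copy `g` is not covered by the rounds `1..j` -/
def InC (φ : G → H → X) (m j : ℕ) (ω : X → Fin (m + 1)) (g : G) (e : H) : Prop :=
  (ω (φ g e) : ℕ) = 0 ∨ j < (ω (φ g e) : ℕ)

/-- candidates at stage `j` -/
def ValC (φ : G → H → X) (m j : ℕ) (ω : X → Fin (m + 1)) (g0 g : G) : Prop :=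
  (∀ e, InC φ m j ω g e → ∃ e0, φ g0 e0 = φ g e) ∧
    ∀ i < j, cnt (fun e => InC φ m i ω g e) ≤ Fintype.card H / 2 ^ i

/-- bad event: the smallest candidate has `t` uncovered elements -/
def BadC (φ : G → H → X) (m j t : ℕ) (ω : X → Fin (m + 1)) (g0 : G) : Prop :=
  ∃ g, ValC φ m j ω g0 g ∧
    (∀ g', ValC φ m j ω g0 g' → cnt (fun e => InC φ m j ω g e) ≤ cnt (fun e => InC φ m j ω g' e)) ∧
    cnt (fun e => InC φ m j ω g e) = t

open Classical in
/-- planting the label `j` on the uncovered elements of `g` -/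
noncomputable def plantC (φ : G → H → X) (m j : ℕ) (hj : j ≤ m) (ω : X → Fin (m + 1)) (g : G) :
    X → Fin (m + 1) :=
  fun x => if ∃ e, φ g e = x ∧ InC φ m j ω g e then ⟨j, Nat.lt_succ_of_le hj⟩ else ω x

/-- decoder condition -/
def DecC (φ : G → H → X) (m j : ℕ) (ω' : X → Fin (m + 1)) (g : G) : Prop :=
  (∀ e, ¬ InC φ m j ω' g e) ∧
    ∀ i < j, cnt (fun e => InC φ m i ω' g e) ≤ Fintype.card H / 2 ^ i

end KK
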