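import Crest.Agent.KK_Defs

set_option autoImplicit false

namespace KK
open Finset

variable {X L : Type} [Fintype X] [DecidableEq X] [Fintype L]

private theorem Pr1_sum_prod (f : X → L → ℝ) :
    ∑ ω : X → L, ∏ x, f x (ω x) = ∏ x, ∑ l, f x l := by
  rw [Finset.prod_univ_sum, Fintype.piFinset_univ]

private theorem Pr1_eq (w : L → ℝ) (E : (X → L) → Prop) [DecidablePred E] :
    Pr w E = ∑ ω : X → L, (if E ω then wt w ω else 0) := by
  unfold Pr
  rw [sum_filter]
  refine sum_congr rfl fun ω _ => ?_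
  by_cases h : E ω
  · rw [if_pos h, if_pos h]
  · rw [if_neg h, if_neg h]

theorem cnt_mono {α : Type} [Fintype α] {P Q : α → Prop} (h : ∀ a, P a → Q a) : cnt P ≤ cnt Q := by
  classical
  unfold cnt
  apply card_le_card
  intro a ha
  rw [mem_filter] at ha ⊢
  exact ⟨ha.1, h a ha.2⟩

theorem cnt_le_card {α : Type} [Fintype α] (P : α → Prop) : cnt P ≤ Fintype.card α := by
  classical
  unfold cnt
  exact card_le_univ _

theorem wt_nonneg (w : L → ℝ) (hw : ∀ l, 0 ≤ w l) (ω : X → L) : 0 ≤ wt w ω := by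
  exact prod_nonneg fun x _ => hw (ω x)

theorem sum_wt (w : L → ℝ) (hw1 : ∑ l, w l = 1) : ∑ ω : X → L, wt w ω = 1 := by
  unfold wt
  rw [Pr1_sum_prod (fun _ l => w l)]
  simp [hw1]

theorem Pr_nonneg (w : L → ℝ) (hw : ∀ l, 0 ≤ w l) (E : (X → L) → Prop) : 0 ≤ Pr w E := by
  classical
  exact sum_nonneg fun ω _ => wt_nonneg w hw ω

theorem Pr_mono (w : L → ℝ) (hw : ∀ l, 0 ≤ w l) (E F : (X → L) → Prop) (h : ∀ ω, E ω → F ω) :
    Pr w E ≤ Pr w F := by
  classical
  unfold Pr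
  apply sum_le_sum_of_subset_of_nonneg
  · intro ω hω
    rw [mem_filter] at hω ⊢
    exact ⟨hω.1, h ω hω.2⟩
  · intro ω _ _
    exact wt_nonneg w hw ω

theorem Pr_not (w : L → ℝ) (hw1 : ∑ l, w l = 1) (E : (X → L) → Prop) :
    Pr w (fun ω => ¬ E ω) = 1 - Pr w E := by
  classical
  rw [← sum_wt (X := X) w hw1, eq_sub_iff_add_eq, Pr1_eq, Pr1_eq, ← sum_add_distrib]
  refine sum_congr rfl fun ω _ => ?_
  by_cases h : E ω
  · simp [h]
  · simp [h]

/-- union bound -/
theorem Pr_union (w : L → ℝ) (hw : ∀ l, 0 ≤ w l) {ι : Type} (s : Finset ι)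
    (E : ι → (X → L) → Prop) :
    Pr w (fun ω => ∃ i ∈ s, E i ω) ≤ ∑ i ∈ s, Pr w (E i) := by
  classical
  have h1 : ∀ ω : X → L, (if (∃ i ∈ s, E i ω) then wt w ω else 0) ≤
      ∑ i ∈ s, (if E i ω then wt w ω else 0) := by
    intro ω
    have h0 : ∀ i ∈ s, (0 : ℝ) ≤ (if E i ω then wt w ω else 0) := by
      intro i _
      split_ifs
      · exact wt_nonneg w hw ω
      · exact le_refl _
    split_ifs with h
    · obtain ⟨i, hi, hE⟩ := h
      have h2 := single_le_sum (f := fun i => (if E i ω then wt w ω else 0)) h0 hi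
      simpa [hE] using h2
    · exact sum_nonneg h0
  rw [Pr1_eq]
  refine (sum_le_sum fun ω _ => h1 ω).trans ?_
  rw [sum_comm]
  refine le_of_eq (sum_congr rfl fun i _ => ?_)
  rw [Pr1_eq]

theorem markov (w : L → ℝ) (hw : ∀ l, 0 ≤ w l) (f : (X → L) → ℝ) (hf : ∀ ω, 0 ≤ f ω)
    (E : (X → L) → Prop) (A : ℝ) (hA : ∀ ω, E ω → A ≤ f ω) :
    A * Pr w E ≤ ∑ ω, wt w ω * f ω := by
  classical
  unfold Pr
  rw [mul_sum]
  have h1 : ∑ ω ∈ univ.filter E, A * wt w ω ≤ ∑ ω ∈ univ.filter E, wt w ω * f ω := by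
    apply sum_le_sum
    intro ω hω
    rw [mem_filter] at hω
    rw [mul_comm]
    exact mul_le_mul_of_nonneg_left (hA ω hω.2) (wt_nonneg w hw ω)
  refine h1.trans ?_
  apply sum_le_sum_of_subset_of_nonneg (subset_univ _)
  intro ω _ _
  exact mul_nonneg (wt_nonneg w hw ω) (hf ω)

/-- independence -/
theorem expect_prod (w : L → ℝ) (hw1 : ∑ l, w l = 1) (y : L → ℝ) (S : Finset X) (π : X → X)
    (hπ : Set.InjOn π S) :
    ∑ ω : X → L, wt w ω * ∏ x ∈ S, y (ω (π x)) = (∑ l, w l * y l) ^ S.card := by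
  classical
  have h1 : ∀ ω : X → L, wt w ω * ∏ x ∈ S, y (ω (π x)) =
      ∏ x, (w (ω x) * (if x ∈ S.image π then y (ω x) else 1)) := by
    intro ω
    rw [prod_mul_distrib]
    congr 1
    rw [← prod_image (f := fun t => y (ω t)) (s := S) (g := π) hπ, prod_ite_mem, univ_inter]
  rw [sum_congr rfl fun ω _ => h1 ω,
    Pr1_sum_prod (fun x l => w l * (if x ∈ S.image π then y l else 1))]
  have h2 : ∀ x : X, (∑ l, w l * (if x ∈ S.image π then y l else 1)) =
      if x ∈ S.image π then ∑ l, w l * y l else 1 := by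
    intro x
    split_ifs
    · rfl
    · simp [hw1]
  rw [prod_congr rfl fun x _ => h2 x, prod_ite_mem, univ_inter, prod_const,
    card_image_of_injOn hπ]

end KK
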