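import Crest.Agent.KK_C0
import Crest.Agent.KK_Pr

set_option autoImplicit false

namespace KK
open Finset

variable {X G H : Type} [Fintype X] [DecidableEq X] [Fintype G] [Fintype H] [DecidableEq H]

private theorem C1_inC_mono (φ : G → H → X) (m i j : ℕ) (hij : i ≤ j) (ω : X → Fin (m + 1)) (g : G)
    (e : H) (h : InC φ m j ω g e) : InC φ m i ω g e := by
  rcases h with h | h
  · exact Or.inl h
  · exact Or.inr (lt_of_le_of_lt hij h)

/-- If no copy is covered, some stage is bad. Proof: `ValC 1 g0 g0` holds. Take `j ≤ m` maximal with a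
candidate at stage `j` (`1 ≤ j ≤ m`), and a candidate `g` with `t = cnt (InC j)` minimal. If
`t ≤ h / 2^j` then: `j < m` gives `ValC (j+1) g0 g` (`InC (j+1) → InC j`), contradiction; `j = m` gives
`t ≤ h / 2^m = 0`, so `g` is covered, contradiction. And `t ≤ cnt (InC (j-1)) ≤ h / 2^(j-1)`. -/
theorem exists_badC (φ : G → H → X) (m : ℕ) (hm : 1 ≤ m) (hh : Fintype.card H < 2 ^ m)
    (ω : X → Fin (m + 1)) (hc : ¬ ∃ g, ∀ e, ω (φ g e) ≠ 0) (g0 : G) :
    ∃ j ∈ Icc 1 m, ∃ t ∈ Ioc (Fintype.card H / 2 ^ j) (Fintype.card H / 2 ^ (j - 1)),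
      BadC φ m j t ω g0 := by
  classical
  -- the set of stages with a candidate
  have hne : ((Icc 1 m).filter fun j => ∃ g, ValC φ m j ω g0 g).Nonempty := by
    refine ⟨1, mem_filter.mpr ⟨mem_Icc.mpr ⟨le_refl _, hm⟩, g0, fun e _ => ⟨e, rfl⟩, ?_⟩⟩
    intro i hi
    have : i = 0 := by omega
    subst this
    simpa using cnt_le_card (fun e => InC φ m 0 ω g0 e)
  obtain ⟨j, hj, hjmax⟩ := Finset.exists_max_image _ (fun j : ℕ => j) hne
  rw [mem_filter] at hj
  obtain ⟨hjI, hjg⟩ := hj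
  have hj' := mem_Icc.mp hjI
  -- the smallest candidate
  have hne2 : (univ.filter fun g => ValC φ m j ω g0 g).Nonempty := by
    obtain ⟨g, hg⟩ := hjg
    exact ⟨g, mem_filter.mpr ⟨mem_univ _, hg⟩⟩
  obtain ⟨g, hg, hgmin⟩ := Finset.exists_min_image _ (fun g => cnt (fun e => InC φ m j ω g e)) hne2
  have hgV : ValC φ m j ω g0 g := (mem_filter.mp hg).2
  have hmin : ∀ g', ValC φ m j ω g0 g' →
      cnt (fun e => InC φ m j ω g e) ≤ cnt (fun e => InC φ m j ω g' e) := fun g' hg' =>
    hgmin g' (mem_filter.mpr ⟨mem_univ _, hg'⟩)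
  refine ⟨j, hjI, cnt (fun e => InC φ m j ω g e), mem_Ioc.mpr ⟨?_, ?_⟩, g, hgV, hmin, rfl⟩
  · by_contra hcon
    have hle : cnt (fun e => InC φ m j ω g e) ≤ Fintype.card H / 2 ^ j := not_lt.mp hcon
    rcases Nat.lt_or_ge j m with hjm | hjm
    · have hV : ValC φ m (j + 1) ω g0 g := by
        refine ⟨fun e he => hgV.1 e (C1_inC_mono φ m j (j + 1) (Nat.le_succ j) ω g e he), ?_⟩
        intro i hi
        rcases Nat.lt_or_ge i j with h1 | h1
        · exact hgV.2 i h1
        · have : i = j := by omega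
          subst this
          exact hle
      have := hjmax (j + 1) (mem_filter.mpr ⟨mem_Icc.mpr ⟨by omega, hjm⟩, g, hV⟩)
      simp at this
    · have hjm' : j = m := le_antisymm hj'.2 hjm
      subst hjm'
      rw [Nat.div_eq_of_lt hh, Nat.le_zero] at hle
      apply hc
      refine ⟨g, fun e he => ?_⟩
      have h1 : (univ.filter fun e => InC φ j j ω g e) = ∅ := by
        apply card_eq_zero.mp
        rw [← hle]
        unfold cnt
        congr!
      have h2 : e ∈ (univ.filter fun e => InC φ j j ω g e) := by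
        refine mem_filter.mpr ⟨mem_univ _, Or.inl ?_⟩
        rw [he]
        rfl
      rw [h1] at h2
      simp at h2
  · calc cnt (fun e => InC φ m j ω g e) ≤ cnt (fun e => InC φ m (j - 1) ω g e) :=
          cnt_mono fun e he => C1_inC_mono φ m (j - 1) j (Nat.sub_le _ _) ω g e he
      _ ≤ Fintype.card H / 2 ^ (j - 1) := hgV.2 (j - 1) (by omega)

end KK
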