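import Crest.Agent.KK_C0
import Crest.Agent.KK_Pr

set_option autoImplicit false

namespace KK
open Finset

variable {X G H : Type} [Fintype X] [DecidableEq X] [Fintype G] [Fintype H] [DecidableEq H]

private theorem C2_inC_congr (φ : G → H → X) (m j : ℕ) (ω ω' : X → Fin (m + 1)) (g g' : G) (e e' : H)
    (h : ω (φ g e) = ω' (φ g' e')) : InC φ m j ω g e ↔ InC φ m j ω' g' e' := by
  unfold InC
  rw [h]

private theorem C2_plant_pos (φ : G → H → X) (m j : ℕ) (hj : j ≤ m) (ω : X → Fin (m + 1)) (g : G)
    (x : X) (h : ∃ e, φ g e = x ∧ InC φ m j ω g e) : ((plantC φ m j hj ω g x : Fin (m + 1)) : ℕ) = j := by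
  unfold plantC
  rw [if_pos h]

private theorem C2_plant_neg (φ : G → H → X) (m j : ℕ) (hj : j ≤ m) (ω : X → Fin (m + 1)) (g : G)
    (x : X) (h : ¬ ∃ e, φ g e = x ∧ InC φ m j ω g e) : plantC φ m j hj ω g x = ω x := by
  unfold plantC
  rw [if_neg h]

/-- for every copy, the counts for `i < j` are not changed by planting `j` (a changed element has old
label `0` or `> j` and new label `j > i`) -/
theorem inC_plantC (φ : G → H → X) (m j : ℕ) (hj : j ≤ m) (ω : X → Fin (m + 1)) (g g' : G) (i : ℕ)
    (hi : i < j) (e : H) : InC φ m i (plantC φ m j hj ω g) g' e ↔ InC φ m i ω g' e := by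
  by_cases h : ∃ e1, φ g e1 = φ g' e ∧ InC φ m j ω g e1
  · have h1 := C2_plant_pos φ m j hj ω g _ h
    obtain ⟨e1, he1, h2⟩ := h
    constructor
    · intro _
      unfold InC at h2 ⊢
      rw [he1] at h2
      rcases h2 with h2 | h2
      · exact Or.inl h2
      · exact Or.inr (by omega)
    · intro _
      unfold InC
      exact Or.inr (by omega)
  · exact C2_inC_congr φ m i _ _ g' g' e e (C2_plant_neg φ m j hj ω g _ h)

/-- the planted copy satisfies the decoder condition -/
theorem decC_plantC (φ : G → H → X) (m j : ℕ) (hj : j ≤ m) (hj1 : 1 ≤ j) (ω : X → Fin (m + 1))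
    (g0 g : G) (h : ValC φ m j ω g0 g) : DecC φ m j (plantC φ m j hj ω g) g := by
  refine ⟨?_, ?_⟩
  · intro e he
    by_cases h1 : ∃ e1, φ g e1 = φ g e ∧ InC φ m j ω g e1
    · have h2 := C2_plant_pos φ m j hj ω g _ h1
      unfold InC at he
      omega
    · rw [C2_inC_congr φ m j _ _ g g e e (C2_plant_neg φ m j hj ω g _ h1)] at he
      exact h1 ⟨e, rfl, he⟩
  · intro i hi
    have h1 : (fun e => InC φ m i (plantC φ m j hj ω g) g e) = fun e => InC φ m i ω g e :=
      funext fun e => propext (inC_plantC φ m j hj ω g g i hi e)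
    rw [h1]
    exact h.2 i hi

/-- Every decoded copy `g'` contains the planted set: uncovered (for `ω`) elements of `g'` changed, so
they are planted elements `φ g e`; so `g'` is a candidate and by minimality
`cnt (InC j ω g) ≤ cnt (InC j ω g')`, hence equality of the two sets. -/
theorem planted_subset (φ : G → H → X) (hφ : ∀ g, Function.Injective (φ g)) (m j : ℕ) (hj : j ≤ m)
    (hj1 : 1 ≤ j) (ω : X → Fin (m + 1)) (g0 g g' : G) (h : ValC φ m j ω g0 g)
    (hmin : ∀ g', ValC φ m j ω g0 g' →
      cnt (fun e => InC φ m j ω g e) ≤ cnt (fun e => InC φ m j ω g' e))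
    (hd : DecC φ m j (plantC φ m j hj ω g) g') (e : H) (he : InC φ m j ω g e) :
    ∃ e', φ g' e' = φ g e ∧ InC φ m j ω g' e' := by
  classical
  have key : ∀ e', InC φ m j ω g' e' → ∃ e1, φ g e1 = φ g' e' ∧ InC φ m j ω g e1 := by
    intro e' he'
    by_contra h1
    have h2 := hd.1 e'
    rw [C2_inC_congr φ m j _ _ g' g' e' e' (C2_plant_neg φ m j hj ω g _ h1)] at h2
    exact h2 he'
  have hval : ValC φ m j ω g0 g' := by
    refine ⟨?_, ?_⟩
    · intro e' he'
      obtain ⟨e1, he1, h1⟩ := key e' he'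
      obtain ⟨e0, he0⟩ := h.1 e1 h1
      exact ⟨e0, he0.trans he1⟩
    · intro i hi
      have h1 : (fun e => InC φ m i (plantC φ m j hj ω g) g' e) = fun e => InC φ m i ω g' e :=
        funext fun e => propext (inC_plantC φ m j hj ω g g' i hi e)
      have h2 := hd.2 i hi
      rw [h1] at h2
      exact h2
  have hle := hmin g' hval
  unfold cnt at hle
  have hsub : (univ.filter fun e' => InC φ m j ω g' e').image (φ g') ⊆
      (univ.filter fun e => InC φ m j ω g e).image (φ g) := by
    intro x hx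
    obtain ⟨e', he', rfl⟩ := Finset.mem_image.1 hx
    obtain ⟨e1, he1, h1⟩ := key e' (Finset.mem_filter.1 he').2
    exact Finset.mem_image.2 ⟨e1, Finset.mem_filter.2 ⟨Finset.mem_univ _, h1⟩, he1⟩
  have hcard : ((univ.filter fun e => InC φ m j ω g e).image (φ g)).card ≤
      ((univ.filter fun e' => InC φ m j ω g' e').image (φ g')).card := by
    rw [Finset.card_image_of_injective _ (hφ g), Finset.card_image_of_injective _ (hφ g')]
    exact hle
  have heq := Finset.eq_of_subset_of_card_le hsub hcard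
  have hx : φ g e ∈ (univ.filter fun e' => InC φ m j ω g' e').image (φ g') := by
    rw [heq]
    exact Finset.mem_image_of_mem _ (Finset.mem_filter.2 ⟨Finset.mem_univ _, he⟩)
  obtain ⟨e', he', h1⟩ := Finset.mem_image.1 hx
  exact ⟨e', h1, (Finset.mem_filter.1 he').2⟩

end KK
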