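import Mathlib
import Crest.Prelude.Def_RandomGraph

/-! definitions for the translation to graphs, no sorries here -/

set_option autoImplicit false

namespace KK
open Finset Crest.CombinatoricsR.RandomGraph

/-- action of a permutation of the vertices on the edge slots -/
def actFun {n : ℕ} (σ : Equiv.Perm (Fin n)) (x : EdgeSlot n) : EdgeSlot n :=
  ⟨x.1.map σ, fun h => x.2 ((Sym2.isDiag_map σ.injective).1 h)⟩

theorem actFun_mul {n : ℕ} (σ τ : Equiv.Perm (Fin n)) (x : EdgeSlot n) :
    actFun (σ * τ) x = actFun σ (actFun τ x) := by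
  apply Subtype.ext
  simp [actFun, Sym2.map_map]

theorem actFun_one {n : ℕ} (x : EdgeSlot n) : actFun (1 : Equiv.Perm (Fin n)) x = x := by
  apply Subtype.ext
  show x.1.map (fun a => a) = x.1
  rw [Sym2.map_id']; rfl

/-- the action as a homomorphism -/
def act (n : ℕ) : Equiv.Perm (Fin n) →* Equiv.Perm (EdgeSlot n) where
  toFun σ := ⟨actFun σ, actFun σ⁻¹, fun x => by rw [← actFun_mul, inv_mul_cancel, actFun_one],
    fun x => by rw [← actFun_mul, mul_inv_cancel, actFun_one]⟩
  map_one' := by ext1 x; exact actFun_one x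
  map_mul' σ τ := by ext1 x; exact actFun_mul σ τ x

theorem act_val {n : ℕ} (σ : Equiv.Perm (Fin n)) (x : EdgeSlot n) :
    (act n σ x).1 = x.1.map σ := rfl

/-- the edge slots of `H` for a placement `ι` of the vertices -/
def slots {n : ℕ} {W : Type} [Fintype W] [DecidableEq W] (H : SimpleGraph W) [DecidableRel H.Adj]
    (ι : W ↪ Fin n) : Finset (EdgeSlot n) :=
  univ.filter fun x => ∃ e ∈ H.edgeFinset, e.map ι = x.1

/-- the subgraph of `H` with the edges in `J`, without isolated vertices -/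
def sub {n : ℕ} {W : Type} (H : SimpleGraph W) (ι : W ↪ Fin n) (J : Finset (EdgeSlot n)) :
    H.Subgraph where
  verts := {a | ∃ b, H.Adj a b ∧ ∃ x ∈ J, x.1 = s(ι a, ι b)}
  Adj a b := H.Adj a b ∧ ∃ x ∈ J, x.1 = s(ι a, ι b)
  adj_sub h := h.1
  edge_vert {a b} h := ⟨b, h⟩
  symm.symm _ _ h := ⟨h.1.symm, by obtain ⟨x, hx, hx'⟩ := h.2; exact ⟨x, hx, by rw [hx', Sym2.eq_swap]⟩⟩

end KK
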