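import Mathlib

/-!
# S0076 blueprint: definitions

Paper proof: notes rid=S0076 (helper16, 11:20Z).
-/

set_option autoImplicit false

namespace KK
open Finset

open Classical in
/-- number of elements with the property `P` -/
noncomputable def cnt {α : Type} [Fintype α] (P : α → Prop) : ℕ := (univ.filter P).card

/-- product weight -/
noncomputable def wt {X L : Type} [Fintype X] (w : L → ℝ) (ω : X → L) : ℝ := ∏ x, w (ω x)

open Classical in
/-- probability of an event for iid labels with weights `w` -/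
noncomputable def Pr {X L : Type} [Fintype X] [DecidableEq X] [Fintype L] (w : L → ℝ)
    (E : (X → L) → Prop) : ℝ := ∑ ω ∈ univ.filter E, wt w ω

/-- A family of injections of a levelled position set `H` into `X`. -/
structure Sys (X G H : Type) where
  φ : G → H → X
  inj : ∀ g, Function.Injective (φ g)
  lev : H → ℕ
  I : ℕ
  hI : ∀ e, lev e ≤ I
  R : ℕ

namespace Sys
variable {X G H : Type} [Fintype X] [DecidableEq X] [Fintype G] [Fintype H] [DecidableEq H]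
  (S : Sys X G H)

/-- the last label -/
def K : ℕ := S.I + S.R

/-- the staircase -/
def d (k i : ℕ) : ℕ := min (i + k) S.K

/-- thresholds -/
noncomputable def θ (i r : ℕ) : ℝ := (64 : ℝ) ^ i * (16 : ℝ) ^ ((S.I : ℤ) - (r : ℤ))

/-- position `e` of the copy `g` is in the fragment at stage `k` -/
def InT (k : ℕ) (ω : X → Fin (S.K + 1)) (g : G) (e : H) : Prop :=
  S.d k (S.lev e) < (ω (S.φ g e) : ℕ)

/-- `g` is admissible at stage `k` -/
def Adm (k : ℕ) (ω : X → Fin (S.K + 1)) (g : G) : Prop :=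
  ∀ i ≤ S.I, ∀ r < S.d k i,
    ((cnt fun e => S.lev e ≤ i ∧ min r (S.d k (S.lev e)) < (ω (S.φ g e) : ℕ) : ℕ) : ℝ) ≤ S.θ i r

/-- `g` is a candidate at stage `k` for the hidden copy `g0` -/
def Val (k : ℕ) (ω : X → Fin (S.K + 1)) (g0 g : G) : Prop :=
  S.Adm k ω g ∧ ∀ e, S.InT k ω g e → ∃ e0, S.φ g0 e0 = S.φ g e ∧ S.lev e0 ≤ S.lev e

open Classical in
/-- the cost of the fragment -/
noncomputable def cost (k : ℕ) (ω : X → Fin (S.K + 1)) (g : G) : ℕ :=
  ∑ e ∈ univ.filter (fun e => S.InT k ω g e), (S.I + 1 - S.lev e)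

/-- `g` is a cheapest candidate -/
def Best (k : ℕ) (ω : X → Fin (S.K + 1)) (g0 g : G) : Prop :=
  S.Val k ω g0 g ∧ ∀ g', S.Val k ω g0 g' → S.cost k ω g ≤ S.cost k ω g'

/-- the labels capture some copy -/
def Capt (ω : X → Fin (S.K + 1)) : Prop :=
  ∃ g, ∀ i ≤ S.I, ∀ r < S.K,
    ((cnt fun e => S.lev e ≤ i ∧ r < (ω (S.φ g e) : ℕ) : ℕ) : ℝ) ≤ S.θ i r

/-- number of fragment elements of level `i` -/
noncomputable def num (k : ℕ) (ω : X → Fin (S.K + 1)) (g : G) (i : ℕ) : ℕ :=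
  cnt fun e => S.InT k ω g e ∧ S.lev e = i

/-- the bad event at stage `k` with level sizes `n` -/
def Bad (k : ℕ) (n : Fin (S.I + 1) → ℕ) (ω : X → Fin (S.K + 1)) (g0 : G) : Prop :=
  ∃ g, S.Best k ω g0 g ∧ ∀ i : Fin (S.I + 1), S.num k ω g i = n i

/-- lower bound for the size of the fragment at stage `k` -/
def vmin (k : ℕ) : ℕ := if k ≤ S.I then 4 * 64 ^ (S.I - k) else 1

open Classical in
/-- possible level sizes at stage `k` -/
noncomputable def Nset (k : ℕ) : Finset (Fin (S.I + 1) → ℕ) :=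
  (Fintype.piFinset fun i : Fin (S.I + 1) => range (64 ^ (i : ℕ) + 1)).filter
    (fun n => S.vmin k ≤ ∑ i, n i ∧ ∀ i : Fin (S.I + 1), S.K ≤ (i : ℕ) + k → n i = 0)

/-- planting the fragment of the copy `g` -/
noncomputable def plant (k : ℕ) (ω : X → Fin (S.K + 1)) (g : G) : X → Fin (S.K + 1) := by
  classical
  exact fun x => if h : ∃ e, S.φ g e = x then
    ⟨min (ω x : ℕ) (S.d k (S.lev h.choose)), lt_of_le_of_lt (min_le_left _ _) (ω x).2⟩ else ω x

/-- number of fragment elements with new label `≤ r` -/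
def NN (k : ℕ) (n : Fin (S.I + 1) → ℕ) (r : ℕ) : ℕ :=
  ∑ i : Fin (S.I + 1), if S.d k i ≤ r then n i else 0

/-- the condition used by the decoder -/
def Dec (k : ℕ) (n : Fin (S.I + 1) → ℕ) (ω' : X → Fin (S.K + 1)) (g : G) : Prop :=
  (∀ e, (ω' (S.φ g e) : ℕ) ≤ S.d k (S.lev e)) ∧
  ∀ i ≤ S.I, ∀ r < S.d k i,
    ((cnt fun e => S.lev e ≤ i ∧ r < (ω' (S.φ g e) : ℕ) : ℕ) : ℝ) + (S.NN k n r : ℝ) ≤ S.θ i r

/-- bound for the number of decoder choices in level `i` -/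
noncomputable def Vb (k i : ℕ) : ℝ :=
  (64 : ℝ) ^ i * min 1 ((16 : ℝ) ^ ((S.I : ℤ) - (i : ℤ) - (k : ℤ) + 1))

/-- `y i = 2 ^ (-4 - 6 σ - |i + σ|)`, `σ = k - I` -/
noncomputable def y (k i : ℕ) : ℝ :=
  (2 : ℝ) ^ (-4 - 6 * ((k : ℤ) - (S.I : ℤ)) - |(i : ℤ) + ((k : ℤ) - (S.I : ℤ))|)

/-- the level structure has at most `64 ^ i` positions of level `≤ i` -/
def LevOK : Prop := ∀ i, cnt (fun e => S.lev e ≤ i) ≤ 64 ^ i

/-- the orbit hypothesis -/
def Hyp (p : ℝ) : Prop := ∀ (J : Finset H) (T : Finset X),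
  ((cnt fun g => J.image (S.φ g) = T : ℕ) : ℝ) ≤ 2 * p ^ J.card * (Fintype.card G : ℝ)

/-- the label weights -/
def WOK (p : ℝ) (w : Fin (S.K + 1) → ℝ) : Prop :=
  (∀ l, 0 ≤ w l) ∧ ∑ l, w l = 1 ∧
    ∀ l : Fin (S.K + 1), (l : ℕ) < S.K → w l = 4096 * p * (1024 : ℝ) ^ (((l : ℕ) : ℤ) - (S.I : ℤ))

end Sys

end KK
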