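import Crest.Agent.KK_D0
import Crest.Agent.KK_Defs

set_option autoImplicit false

namespace KK
open Finset Crest.CombinatoricsR.RandomGraph

private theorem d1_image_mul {G X : Type} [Group G] [DecidableEq X] (ρ : G →* Equiv.Perm X)
    (J : Finset X) (a b : G) : J.image (ρ (a * b)) = (J.image (ρ b)).image (ρ a) := by
  rw [image_image, map_mul]
  rfl

/-- orbit counting: all `T'` in the orbit have the same number of `g` with `g J = T'` -/
theorem orbit_count {G X : Type} [Group G] [Fintype G] [Fintype X] [DecidableEq X]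
    (ρ : G →* Equiv.Perm X) (J T : Finset X) :
    (cnt fun g : G => J.image (ρ g) = T) * (univ.image fun g : G => J.image (ρ g)).card ≤
      Fintype.card G := by
  classical
  have hc : (cnt fun g : G => J.image (ρ g) = T) =
      (univ.filter fun g : G => J.image (ρ g) = T).card := by
    unfold cnt
    congr
  by_cases h0 : ∃ g0 : G, J.image (ρ g0) = T
  · obtain ⟨g0, hg0⟩ := h0
    have key : ∀ T' ∈ (univ.image fun g : G => J.image (ρ g)),
        (univ.filter fun g : G => J.image (ρ g) = T').card =
          cnt fun g : G => J.image (ρ g) = T := by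
      intro T' hT'
      obtain ⟨g', -, hg'⟩ := mem_image.1 hT'
      rw [hc]
      refine Finset.card_bij (fun h _ => g0 * g'⁻¹ * h) ?_ ?_ ?_
      · intro h hh
        rw [mem_filter] at hh ⊢
        refine ⟨mem_univ _, ?_⟩
        rw [d1_image_mul, hh.2, ← hg', ← d1_image_mul, inv_mul_cancel_right, hg0]
      · intro a _ b _ hab
        exact mul_left_cancel hab
      · intro b hb
        rw [mem_filter] at hb
        refine ⟨g' * g0⁻¹ * b, ?_, ?_⟩
        · rw [mem_filter]
          refine ⟨mem_univ _, ?_⟩
          rw [d1_image_mul, hb.2, ← hg0, ← d1_image_mul, inv_mul_cancel_right]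
          exact hg'
        · group
    have h1 := Finset.card_eq_sum_card_image (fun g : G => J.image (ρ g)) univ
    rw [Finset.sum_congr rfl key, Finset.sum_const, smul_eq_mul] at h1
    rw [← Finset.card_univ, h1, mul_comm]
  · have h1 : (cnt fun g : G => J.image (ρ g) = T) = 0 := by
      rw [hc, Finset.card_eq_zero, Finset.filter_eq_empty_iff]
      intro g _ hg
      exact h0 ⟨g, hg⟩
    rw [h1, zero_mul]
    exact Nat.zero_le _

private theorem d1_one {X : Type} [Fintype X] [DecidableEq X] (p : ℝ) (T : Finset X) :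
    ∑ ω : X → Bool, Crest.FinProb.bernoulliWeight p ω * (if ∀ x ∈ T, ω x = true then 1 else 0) =
      p ^ T.card := by
  classical
  have h1 : ∀ ω : X → Bool,
      Crest.FinProb.bernoulliWeight p ω * (if ∀ x ∈ T, ω x = true then (1 : ℝ) else 0) =
      ∏ x, (if ω x then p else 1 - p) * (if x ∈ T ∧ ω x = false then 0 else 1) := by
    intro ω
    unfold Crest.FinProb.bernoulliWeight
    rw [Finset.prod_mul_distrib]
    congr 1
    by_cases h : ∀ x ∈ T, ω x = true
    · rw [if_pos h]
      symm
      apply Finset.prod_eq_one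
      intro x _
      rw [if_neg]
      rintro ⟨hx, hx'⟩
      rw [h x hx] at hx'
      exact absurd hx' (by decide)
    · rw [if_neg h]
      push Not at h
      obtain ⟨x, hx, hx'⟩ := h
      symm
      apply Finset.prod_eq_zero (mem_univ x)
      rw [if_pos]
      exact ⟨hx, by simpa using hx'⟩
  have h2 := Finset.prod_univ_sum (fun _ : X => (univ : Finset Bool))
    (fun x b => (if b then p else 1 - p) * (if x ∈ T ∧ b = false then (0 : ℝ) else 1))
  rw [Fintype.piFinset_univ] at h2
  rw [Finset.sum_congr rfl fun ω _ => h1 ω, ← h2]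
  have h3 : ∀ x : X, ∑ b : Bool, ((if b then p else 1 - p) *
      (if x ∈ T ∧ b = false then (0 : ℝ) else 1)) = if x ∈ T then p else 1 := by
    intro x
    rw [Fintype.sum_bool]
    by_cases hx : x ∈ T
    · simp [hx]
    · simp [hx]
  rw [Finset.prod_congr rfl fun x _ => h3 x, Finset.prod_ite, Finset.prod_const,
    Finset.prod_const_one, mul_one]
  congr 2
  ext x
  simp

/-- expected number of full sets -/
theorem expect_full {X : Type} [Fintype X] [DecidableEq X] (p : ℝ) (𝒯 : Finset (Finset X)) (t : ℕ)
    (ht : ∀ T ∈ 𝒯, T.card = t) :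
    ∑ ω : X → Bool, Crest.FinProb.bernoulliWeight p ω *
      ((𝒯.filter fun T => ∀ x ∈ T, ω x = true).card : ℝ) = (𝒯.card : ℝ) * p ^ t := by
  classical
  have h1 : ∀ ω : X → Bool, Crest.FinProb.bernoulliWeight p ω *
      ((𝒯.filter fun T => ∀ x ∈ T, ω x = true).card : ℝ) =
      ∑ T ∈ 𝒯, Crest.FinProb.bernoulliWeight p ω *
        (if ∀ x ∈ T, ω x = true then (1 : ℝ) else 0) := by
    intro ω
    rw [← Finset.mul_sum, Finset.sum_boole]
  rw [Finset.sum_congr rfl fun ω _ => h1 ω, Finset.sum_comm,
    Finset.sum_congr rfl fun T _ => d1_one p T,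
    Finset.sum_congr rfl fun T hT => by rw [ht T hT], Finset.sum_const, nsmul_eq_mul]

end KK
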