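import Crest.Agent.KK_D0

set_option autoImplicit false

namespace KK
open Finset Crest.CombinatoricsR.RandomGraph

private theorem kkd_coin {n : ℕ} (ω : EdgeSlot n → Bool) (G' : (graphOf ω).Subgraph)
    (x : EdgeSlot n) (hx : x.1 ∈ G'.edgeSet) : ω x = true := by
  have h1 : x.1 ∈ (graphOf ω).edgeSet := G'.edgeSet_subset hx
  obtain ⟨z, hz⟩ := x
  unfold graphOf at h1
  rw [SimpleGraph.edgeSet_fromEdgeSet] at h1
  obtain ⟨h2, h3⟩ := h1.1
  exact h3

private theorem kkd_verts {n : ℕ} {W : Type} [Fintype W] [DecidableEq W] (H : SimpleGraph W)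
    [DecidableRel H.Adj] (ι : W ↪ Fin n) (J : Finset (EdgeSlot n))
    (ω : EdgeSlot n → Bool) (G1 : (graphOf ω).Subgraph)
    (h1 : Nonempty ((sub H ι J).coe ≃g G1.coe)) (u : Fin n) (hu : u ∈ G1.verts) :
    ∃ v, G1.Adj u v := by
  obtain ⟨ψ⟩ := h1
  obtain ⟨a, ha⟩ := ψ.surjective ⟨u, hu⟩
  obtain ⟨b, hb⟩ := a.2
  have hb' : (sub H ι J).Adj a.1 b := hb
  have hbv : b ∈ (sub H ι J).verts := (sub H ι J).edge_vert hb'.symm
  have h2 : (sub H ι J).coe.Adj a ⟨b, hbv⟩ := hb'
  have h3 : G1.coe.Adj (ψ a) (ψ ⟨b, hbv⟩) := ψ.map_adj_iff.2 h2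
  rw [ha] at h3
  exact ⟨_, h3⟩

private theorem kkd_inj {n : ℕ} {W : Type} [Fintype W] [DecidableEq W] (H : SimpleGraph W)
    [DecidableRel H.Adj] (ι : W ↪ Fin n) (J : Finset (EdgeSlot n))
    (ω : EdgeSlot n → Bool) (G1 G2 : (graphOf ω).Subgraph)
    (h1 : Nonempty ((sub H ι J).coe ≃g G1.coe)) (h2 : Nonempty ((sub H ι J).coe ≃g G2.coe))
    (h : ∀ x : EdgeSlot n, x.1 ∈ G1.edgeSet ↔ x.1 ∈ G2.edgeSet) : G1 = G2 := by
  have hadj : ∀ u v, G1.Adj u v ↔ G2.Adj u v := by
    intro u v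
    by_cases huv : u = v
    · subst huv
      exact ⟨fun h => absurd rfl h.ne, fun h => absurd rfl h.ne⟩
    · have := h ⟨s(u, v), by simpa using huv⟩
      simpa using this
  have hv : G1.verts = G2.verts := by
    ext u
    constructor
    · intro hu
      obtain ⟨v, hv⟩ := kkd_verts H ι J ω G1 h1 u hu
      exact G2.edge_vert ((hadj u v).1 hv)
    · intro hu
      obtain ⟨v, hv⟩ := kkd_verts H ι J ω G2 h2 u hu
      exact G1.edge_vert ((hadj u v).2 hv)
  apply SimpleGraph.Subgraph.ext hv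
  funext u v
  exact propext (hadj u v)

private theorem kkd_translate {n : ℕ} {W : Type} [Fintype W] [DecidableEq W] (H : SimpleGraph W)
    [DecidableRel H.Adj] (ι : W ↪ Fin n) (J : Finset (EdgeSlot n)) (hJ : J ⊆ slots H ι)
    (ω : EdgeSlot n → Bool) (G1 : (graphOf ω).Subgraph)
    (h1 : Nonempty ((sub H ι J).coe ≃g G1.coe)) :
    ∃ σ : Equiv.Perm (Fin n), ∀ y : EdgeSlot n, y ∈ J.image (act n σ) ↔ y.1 ∈ G1.edgeSet := by
  obtain ⟨ψ⟩ := h1
  obtain ⟨σ, hσ⟩ := Equiv.Perm.exists_extending_pair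
    (fun a : (sub H ι J).verts => ι a.1) (fun a : (sub H ι J).verts => ((ψ a : G1.verts) : Fin n))
    (fun a b hab => Subtype.ext (ι.injective hab))
    (fun a b hab => ψ.injective (Subtype.ext hab))
  refine ⟨σ, fun y => ?_⟩
  rw [mem_image]
  constructor
  · rintro ⟨x, hx, rfl⟩
    have h2 := hJ hx
    unfold slots at h2
    rw [mem_filter] at h2
    obtain ⟨-, e, he, hex⟩ := h2
    induction e using Sym2.ind with
    | _ a b =>
      have hab : H.Adj a b := by simpa using he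
      have hF : (sub H ι J).Adj a b := ⟨hab, x, hx, by rw [← hex]; rfl⟩
      have ha : a ∈ (sub H ι J).verts := (sub H ι J).edge_vert hF
      have hb : b ∈ (sub H ι J).verts := (sub H ι J).edge_vert hF.symm
      have h3 : (sub H ι J).coe.Adj ⟨a, ha⟩ ⟨b, hb⟩ := hF
      have h4 : G1.coe.Adj (ψ ⟨a, ha⟩) (ψ ⟨b, hb⟩) := ψ.map_adj_iff.2 h3
      rw [act_val, ← hex, Sym2.map_mk, Sym2.map_mk]
      have h5 := hσ ⟨a, ha⟩
      have h6 := hσ ⟨b, hb⟩
      simp only at h5 h6
      rw [h5, h6, SimpleGraph.Subgraph.mem_edgeSet]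
      exact h4
  · intro hy
    obtain ⟨z, hz⟩ := y
    induction z using Sym2.ind with
    | _ u v =>
      have hadj : G1.Adj u v := by simpa using hy
      have hu : u ∈ G1.verts := G1.edge_vert hadj
      have hv : v ∈ G1.verts := G1.edge_vert hadj.symm
      obtain ⟨a, ha⟩ := ψ.surjective ⟨u, hu⟩
      obtain ⟨b, hb⟩ := ψ.surjective ⟨v, hv⟩
      have h4 : G1.coe.Adj (ψ a) (ψ b) := by rw [ha, hb]; exact hadj
      have h3 : (sub H ι J).Adj a.1 b.1 := ψ.map_adj_iff.1 h4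
      obtain ⟨hab, x, hx, hxe⟩ := h3
      refine ⟨x, hx, Subtype.ext ?_⟩
      rw [act_val, hxe, Sym2.map_mk]
      have h5 := hσ a
      have h6 := hσ b
      rw [h5, h6, ha, hb]

/-- The number of copies of `sub H ι J` in `graphOf ω` is at most the number of translates of `J` with
all coins `true`. Proof: the map `G' ↦ T(G') = {x | x.1 ∈ G'.edgeSet}` on
`{G' : (graphOf ω).Subgraph | Nonempty ((sub H ι J).coe ≃g G'.coe)}`; it is injective since `G'` (like
`sub H ι J`) has no isolated vertices; all coins in `T(G')` are `true`; and `T(G')` is a translate of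
`J`: the isomorphism `ψ : (sub H ι J).verts ≃ G'.verts` gives a bijection
`ι '' verts ≃ G'.verts` of subsets of `Fin n`, extended to a permutation `σ` (`Equiv.extendSubtype`),
`σ (ι a) = ψ a`; `J.image (act n σ) = T(G')` uses `J ⊆ slots H ι`. -/
theorem copyCount_le {n : ℕ} {W : Type} [Fintype W] [DecidableEq W] (H : SimpleGraph W)
    [DecidableRel H.Adj] (ι : W ↪ Fin n) (J : Finset (EdgeSlot n)) (hJ : J ⊆ slots H ι)
    (ω : EdgeSlot n → Bool) :
    (graphOf ω).copyCount (sub H ι J).coe ≤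
      ((univ.image fun σ : Equiv.Perm (Fin n) => J.image (act n σ)).filter
        fun T => ∀ x ∈ T, ω x = true).card := by
  classical
  unfold SimpleGraph.copyCount
  apply Finset.card_le_card_of_injOn
    (fun G' : (graphOf ω).Subgraph => univ.filter fun x : EdgeSlot n => x.1 ∈ G'.edgeSet)
  · intro G' hG'
    have h1 : Nonempty ((sub H ι J).coe ≃g G'.coe) := by simpa using hG'
    obtain ⟨σ, hσ⟩ := kkd_translate H ι J hJ ω G' h1
    simp only [Finset.coe_filter, Set.mem_ofPred_eq, mem_image, mem_univ, true_and, mem_filter]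
    refine ⟨⟨σ, ?_⟩, fun x hx => kkd_coin ω G' x hx⟩
    ext y
    rw [hσ y]
    simp
  · intro G1 h1 G2 h2 h12
    have h1' : Nonempty ((sub H ι J).coe ≃g G1.coe) := by simpa using h1
    have h2' : Nonempty ((sub H ι J).coe ≃g G2.coe) := by simpa using h2
    apply kkd_inj H ι J ω G1 G2 h1' h2'
    intro x
    have h3 := congrArg (fun s => x ∈ s) h12
    simpa using h3


end KK
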