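import Crest.Agent.KK_D0

set_option autoImplicit false

namespace KK
open Finset Crest.CombinatoricsR.RandomGraph

/-- a fully covered translate of the slots of `H` gives a copy of `H` -/
theorem isContained_of_full {n : ℕ} {W : Type} [Fintype W] [DecidableEq W] (H : SimpleGraph W)
    [DecidableRel H.Adj] (ι : W ↪ Fin n) (σ : Equiv.Perm (Fin n)) (ω : EdgeSlot n → Bool)
    (h : ∀ x ∈ slots H ι, ω (act n σ x) = true) : H.IsContained (graphOf ω) := by
  refine ⟨⟨⟨fun a => σ (ι a), ?_⟩, fun a b hab => ι.injective (σ.injective hab)⟩⟩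
  intro a b hab
  have hne : ι a ≠ ι b := fun h0 => hab.ne (ι.injective h0)
  have hd : ¬ (s(ι a, ι b)).IsDiag := by
    rw [Sym2.mk_isDiag_iff]
    exact hne
  have hmem : (⟨s(ι a, ι b), hd⟩ : EdgeSlot n) ∈ slots H ι := by
    unfold slots
    rw [Finset.mem_filter]
    refine ⟨Finset.mem_univ _, s(a, b), ?_, ?_⟩
    · rw [SimpleGraph.mem_edgeFinset, SimpleGraph.mem_edgeSet]
      exact hab
    · rfl
  have h1 := h _ hmem
  show (SimpleGraph.fromEdgeSet _).Adj (σ (ι a)) (σ (ι b))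
  rw [SimpleGraph.fromEdgeSet_adj]
  refine ⟨?_, fun h0 => hne (σ.injective h0)⟩
  have hd2 : ¬ (s(σ (ι a), σ (ι b))).IsDiag := by
    rw [Sym2.mk_isDiag_iff]
    exact fun h0 => hne (σ.injective h0)
  refine ⟨hd2, ?_⟩
  have h2 : act n σ ⟨s(ι a, ι b), hd⟩ = ⟨s(σ (ι a), σ (ι b)), hd2⟩ := Subtype.ext rfl
  rw [h2] at h1
  exact h1

/-- monotonicity -/
theorem isContained_mono {n : ℕ} {W : Type} (H : SimpleGraph W) (ω ω' : EdgeSlot n → Bool)
    (h : H.IsContained (graphOf ω)) (hω : ∀ x, ω x = true → ω' x = true) :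
    H.IsContained (graphOf ω') := by
  refine h.mono_right ?_
  intro a b hab
  have hab' : (SimpleGraph.fromEdgeSet {z | ∃ h : ¬ z.IsDiag, ω ⟨z, h⟩ = true}).Adj a b := hab
  show (SimpleGraph.fromEdgeSet {z | ∃ h : ¬ z.IsDiag, ω' ⟨z, h⟩ = true}).Adj a b
  rw [SimpleGraph.fromEdgeSet_adj] at hab' ⊢
  obtain ⟨⟨hd, h1⟩, hne⟩ := hab'
  exact ⟨⟨hd, hω _ h1⟩, hne⟩

theorem card_slots {n : ℕ} {W : Type} [Fintype W] [DecidableEq W] (H : SimpleGraph W)
    [DecidableRel H.Adj] (ι : W ↪ Fin n) : (slots H ι).card = H.edgeFinset.card := by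
  symm
  have hnd : ∀ e ∈ H.edgeFinset, ¬ (e.map ι).IsDiag := by
    intro e he h0
    rw [Sym2.isDiag_map ι.injective] at h0
    exact SimpleGraph.not_isDiag_of_mem_edgeFinset he h0
  refine Finset.card_bij (fun e he => (⟨e.map ι, hnd e he⟩ : EdgeSlot n)) ?_ ?_ ?_
  · intro e he
    unfold slots
    rw [Finset.mem_filter]
    exact ⟨Finset.mem_univ _, e, he, rfl⟩
  · intro e he e' he' h0
    exact Sym2.map.injective ι.injective (congrArg Subtype.val h0)
  · intro x hx
    unfold slots at hx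
    rw [Finset.mem_filter] at hx
    obtain ⟨_, e, he, hex⟩ := hx
    exact ⟨e, he, Subtype.ext hex⟩

/-- the case of edge probability 1 -/
theorem bernoulliProb_one {X : Type} [Fintype X] [DecidableEq X] (E : Set (X → Bool))
    (hE : (fun _ => true) ∈ E) : 1 ≤ Crest.FinProb.bernoulliProb 1 E := by
  classical
  have h1 : Crest.FinProb.bernoulliWeight 1 (fun _ : X => true) = 1 := by
    simp [Crest.FinProb.bernoulliWeight]
  have h0 : ∀ ω : X → Bool, 0 ≤ Crest.FinProb.bernoulliWeight 1 ω := by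
    intro ω
    unfold Crest.FinProb.bernoulliWeight
    refine Finset.prod_nonneg fun i _ => ?_
    split_ifs <;> norm_num
  unfold Crest.FinProb.bernoulliProb
  refine h1.ge.trans ?_
  refine Finset.single_le_sum (f := fun ω => Crest.FinProb.bernoulliWeight 1 ω)
    (fun ω _ => h0 ω) ?_
  rw [Finset.mem_filter]
  exact ⟨Finset.mem_univ _, hE⟩

end KK
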