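import Crest.Agent.KK_Defs
import Crest.Prelude.Def_FinProb

set_option autoImplicit false

namespace KK
open Finset

variable {X L L' : Type} [Fintype X] [DecidableEq X] [Fintype L] [Fintype L'] [DecidableEq L']

/-- push-forward of iid labels -/
theorem Pr_push (w : L → ℝ) (f : L → L') (w' : L' → ℝ)
    (hf : ∀ l', w' l' = ∑ l ∈ univ.filter (fun l => f l = l'), w l) (E : (X → L') → Prop) :
    Pr w (fun ω => E (fun x => f (ω x))) = Pr w' E := by
  classical
  unfold Pr
  rw [← Finset.sum_fiberwise_of_maps_to (s := univ.filter (fun ω : X → L => E (fun x => f (ω x))))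
    (t := univ.filter E) (g := fun ω x => f (ω x))
    (fun ω hω => by
      rw [Finset.mem_filter] at hω ⊢
      exact ⟨Finset.mem_univ _, hω.2⟩)]
  refine Finset.sum_congr rfl fun ω' hω' => ?_
  have hE : E ω' := (Finset.mem_filter.1 hω').2
  unfold wt
  simp_rw [hf]
  rw [Finset.prod_univ_sum]
  refine Finset.sum_congr ?_ fun _ _ => rfl
  ext ω
  rw [Finset.mem_filter, Finset.mem_filter, Fintype.mem_piFinset]
  constructor
  · rintro ⟨-, h⟩ x
    rw [Finset.mem_filter]
    exact ⟨Finset.mem_univ _, congrFun h x⟩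
  · intro h
    have h' : (fun x => f (ω x)) = ω' := funext fun x => (Finset.mem_filter.1 (h x)).2
    refine ⟨⟨Finset.mem_univ _, ?_⟩, h'⟩
    rw [h']
    exact hE

/-- the Bernoulli measure -/
theorem bernoulliProb_eq_Pr (p : ℝ) (E : Set (X → Bool)) :
    Crest.FinProb.bernoulliProb p E = Pr (fun b : Bool => if b then p else 1 - p) (fun ω => ω ∈ E) := by
  classical
  unfold Crest.FinProb.bernoulliProb Pr
  refine Finset.sum_congr ?_ fun _ _ => rfl
  ext ω
  simp only [Finset.mem_filter]

private theorem push_mono (w : L → ℝ) (hw : ∀ l, 0 ≤ w l) (E F : (X → L) → Prop)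
    (h : ∀ ω, E ω → F ω) : Pr w E ≤ Pr w F := by
  classical
  unfold Pr
  refine Finset.sum_le_sum_of_subset_of_nonneg ?_ ?_
  · intro ω hω
    rw [Finset.mem_filter] at hω ⊢
    exact ⟨hω.1, h ω hω.2⟩
  · intro ω _ _
    exact Finset.prod_nonneg fun x _ => hw _

/-- monotonicity in `p` of an increasing event (three labels `both, only p', none`) -/
theorem bernoulliProb_mono (p p' : ℝ) (hp : 0 ≤ p) (hpp : p ≤ p') (hp' : p' ≤ 1)
    (E : Set (X → Bool)) (hE : ∀ ω ω' : X → Bool, ω ∈ E → (∀ x, ω x = true → ω' x = true) → ω' ∈ E) :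
    Crest.FinProb.bernoulliProb p E ≤ Crest.FinProb.bernoulliProb p' E := by
  classical
  set w : Fin 3 → ℝ := ![p, p' - p, 1 - p'] with hw
  have hw0 : ∀ l, 0 ≤ w l := by
    intro l
    fin_cases l
    · simpa [hw] using hp
    · simpa [hw] using hpp
    · simpa [hw] using hp'
  have h1 : Pr (X := X) w (fun ω => (fun x => (![true, false, false] : Fin 3 → Bool) (ω x)) ∈ E) =
      Pr (fun b : Bool => if b then p else 1 - p) (fun ω => ω ∈ E) := by
    refine Pr_push w (![true, false, false] : Fin 3 → Bool)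
      (fun b : Bool => if b then p else 1 - p) ?_ (fun ω => ω ∈ E)
    intro b
    rw [Finset.sum_filter, Fin.sum_univ_three]
    cases b
    · simp [hw]
    · simp [hw]
  have h2 : Pr (X := X) w (fun ω => (fun x => (![true, true, false] : Fin 3 → Bool) (ω x)) ∈ E) =
      Pr (fun b : Bool => if b then p' else 1 - p') (fun ω => ω ∈ E) := by
    refine Pr_push w (![true, true, false] : Fin 3 → Bool)
      (fun b : Bool => if b then p' else 1 - p') ?_ (fun ω => ω ∈ E)
    intro b
    rw [Finset.sum_filter, Fin.sum_univ_three]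
    cases b
    · simp [hw]
    · simp [hw]
  rw [bernoulliProb_eq_Pr, bernoulliProb_eq_Pr, ← h1, ← h2]
  refine push_mono w hw0 _ _ fun ω hω => hE _ _ hω fun x => ?_
  generalize ω x = l
  fin_cases l <;> simp

/-- weights of the rounds -/
noncomputable def thr (m : ℕ) (q : ℝ) : Fin (m + 1) → ℝ := fun l => if l = 0 then 1 - m * q else q

/-- the union of the rounds is Bernoulli with density `m q` -/
theorem Pr_thr (m : ℕ) (q : ℝ) (E : Set (X → Bool)) :
    Pr (thr m q) (fun ω : X → Fin (m + 1) => (fun x => decide (ω x ≠ 0)) ∈ E) =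
      Crest.FinProb.bernoulliProb (m * q) E := by
  classical
  rw [bernoulliProb_eq_Pr]
  refine Pr_push (thr m q) (fun l : Fin (m + 1) => decide (l ≠ 0))
    (fun b : Bool => if b then m * q else 1 - m * q) ?_ (fun ω => ω ∈ E)
  intro b
  rw [Finset.sum_filter, Fin.sum_univ_succ]
  cases b
  · have h : ∀ i : Fin m, (if decide ((i.succ : Fin (m + 1)) ≠ 0) = false then thr m q i.succ else 0)
        = 0 := by
      intro i
      have : (i.succ : Fin (m + 1)) ≠ 0 := Fin.succ_ne_zero i
      simp [this]
    rw [Finset.sum_congr rfl fun i _ => h i]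
    simp [thr]
  · have h : ∀ i : Fin m, (if decide ((i.succ : Fin (m + 1)) ≠ 0) = true then thr m q i.succ else 0)
        = q := by
      intro i
      have : (i.succ : Fin (m + 1)) ≠ 0 := Fin.succ_ne_zero i
      simp [this, thr]
    rw [Finset.sum_congr rfl fun i _ => h i]
    simp

end KK
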