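import Crest.Agent.KK_D1
import Crest.Agent.KK_D1c
import Crest.Agent.KK_D2
import Crest.Agent.KK_Push
import Crest.Agent.KK_B4
import Crest.Agent.KK_C

set_option autoImplicit false

namespace KK
open Finset Crest.CombinatoricsR.RandomGraph

theorem bernoulliWeight_nonneg {X : Type} [Fintype X] (p : ℝ) (hp0 : 0 ≤ p) (hp1 : p ≤ 1)
    (ω : X → Bool) : 0 ≤ Crest.FinProb.bernoulliWeight p ω := by
  unfold Crest.FinProb.bernoulliWeight
  apply Finset.prod_nonneg
  intro x _
  split_ifs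
  · exact hp0
  · linarith

/-- the orbit hypothesis from the expected copy counts -/
theorem graph_hyp {n : ℕ} {W : Type} [Fintype W] [DecidableEq W] (H : SimpleGraph W)
    [DecidableRel H.Adj] (ι : W ↪ Fin n) (p : ℝ) (hp0 : 0 ≤ p) (hp1 : p ≤ 1)
    (hE : ∀ F : H.Subgraph, (1 : ℝ) / 2 ≤
      gnpExpect n p (fun G => (G.copyCount F.coe : ℝ)))
    (J T : Finset (EdgeSlot n)) (hJ : J ⊆ slots H ι) :
    ((cnt fun σ : Equiv.Perm (Fin n) => J.image (act n σ) = T : ℕ) : ℝ) ≤
      2 * p ^ J.card * (Fintype.card (Equiv.Perm (Fin n)) : ℝ) := by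
  set 𝒯 := (univ.image fun σ : Equiv.Perm (Fin n) => J.image (act n σ)) with h𝒯
  have h1 : (1 : ℝ) / 2 ≤ (𝒯.card : ℝ) * p ^ J.card := by
    have hcard : ∀ T ∈ 𝒯, T.card = J.card := by
      intro T hT
      rw [h𝒯, mem_image] at hT
      obtain ⟨σ, _, rfl⟩ := hT
      exact card_image_of_injective _ (act n σ).injective
    rw [← expect_full p 𝒯 J.card hcard]
    refine (hE (sub H ι J)).trans ?_
    unfold gnpExpect
    apply Finset.sum_le_sum
    intro ω _
    apply mul_le_mul_of_nonneg_left _ (bernoulliWeight_nonneg p hp0 hp1 ω)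
    have h3 := copyCount_le H ι J hJ ω
    rw [← h𝒯] at h3
    simpa using (Nat.cast_le (α := ℝ)).2 h3
  have h2 := orbit_count (act n) J T
  have h2' : ((cnt fun σ : Equiv.Perm (Fin n) => J.image (act n σ) = T : ℕ) : ℝ) * (𝒯.card : ℝ) ≤
      (Fintype.card (Equiv.Perm (Fin n)) : ℝ) := by exact_mod_cast h2
  set c := ((cnt fun σ : Equiv.Perm (Fin n) => J.image (act n σ) = T : ℕ) : ℝ) with hc
  have hc0 : 0 ≤ c := Nat.cast_nonneg _
  have hpJ : 0 ≤ p ^ J.card := pow_nonneg hp0 _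
  calc c = 2 * (c * (1 / 2)) := by ring
    _ ≤ 2 * (c * ((𝒯.card : ℝ) * p ^ J.card)) := by gcongr
    _ = 2 * p ^ J.card * (c * (𝒯.card : ℝ)) := by ring
    _ ≤ 2 * p ^ J.card * (Fintype.card (Equiv.Perm (Fin n)) : ℝ) := by gcongr

/-- the hypothesis for one edge gives `p > 0` -/
theorem p_pos {n : ℕ} {W : Type} [Fintype W] [DecidableEq W] (H : SimpleGraph W)
    [DecidableRel H.Adj] (ι : W ↪ Fin n) (p : ℝ) (hp0 : 0 ≤ p) (hp1 : p ≤ 1)
    (hH : 1 ≤ H.edgeFinset.card)
    (hE : ∀ F : H.Subgraph, (1 : ℝ) / 2 ≤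
      gnpExpect n p (fun G => (G.copyCount F.coe : ℝ))) : 0 < p := by
  rcases hp0.lt_or_eq with h | h
  · exact h
  exfalso
  have hne : (slots H ι).Nonempty := by
    rw [← card_pos, card_slots]; omega
  obtain ⟨x, hx⟩ := hne
  have h1 := graph_hyp H ι p hp0 hp1 hE {x} {x} (by simpa using hx)
  rw [← h] at h1
  simp only [card_singleton, pow_one, mul_zero, zero_mul] at h1
  have h2 : 0 < cnt fun σ : Equiv.Perm (Fin n) => ({x} : Finset (EdgeSlot n)).image (act n σ) = {x} := by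
    classical
    unfold cnt
    rw [card_pos]
    exact ⟨1, by simp⟩
  have h3 : (0 : ℝ) < ((cnt fun σ : Equiv.Perm (Fin n) =>
    ({x} : Finset (EdgeSlot n)).image (act n σ) = {x} : ℕ) : ℝ) := by exact_mod_cast h2
  linarith

/-- the theorem in terms of the rounds -/
theorem rounds {n : ℕ} {W : Type} [Fintype W] [DecidableEq W] (H : SimpleGraph W)
    [DecidableRel H.Adj] (ι : W ↪ Fin n) (p : ℝ) (hp : 0 < p) (hp1 : p ≤ 1)
    (hE : ∀ F : H.Subgraph, (1 : ℝ) / 2 ≤
      gnpExpect n p (fun G => (G.copyCount F.coe : ℝ)))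
    (m : ℕ) (hm : 1 ≤ m) (hh : H.edgeFinset.card < 2 ^ m) (hmq : m * (2 ^ 60 * p) ≤ 1) :
    1 / 2 ≤ gnpProb n (m * (2 ^ 60 * p)) {G | H.IsContained G} := by
  classical
  obtain ⟨φ0, hinj, him, -⟩ := exists_enum (slots H ι) (fun _ => 0)
  have hsp : ∀ T : Finset (EdgeSlot n),
      ((cnt fun σ : Equiv.Perm (Fin n) => T ⊆ univ.image (fun e => act n σ (φ0 e)) : ℕ) : ℝ) ≤
        2 * (2 ^ 47 * p) ^ T.card * (Fintype.card (Equiv.Perm (Fin n)) : ℝ) := by
    intro T
    have h1 := spread (act n) (slots H ι) p hp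
      (fun J T hJ => graph_hyp H ι p hp.le hp1 hE J T hJ) T
    convert h1 using 4 with σ
    have h5 : image (fun e => act n σ (φ0 e)) univ = (univ.image φ0).image (act n σ) := by
      rw [image_image]; rfl
    rw [h5, him]
  have h2 := threshold (fun (σ : Equiv.Perm (Fin n)) e => act n σ (φ0 e))
    (fun σ => (act n σ).injective.comp hinj) m hm
    (by rw [Fintype.card_fin, card_slots]; exact hh) (2 ^ 47 * p) (2 ^ 60 * p)
    (by positivity) (by positivity) (by nlinarith [hp]) hmq hsp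
  refine h2.trans ?_
  unfold gnpProb
  rw [← Pr_thr]
  have hw : ∀ l, 0 ≤ thr m (2 ^ 60 * p) l := by
    intro l
    unfold thr
    split_ifs
    · linarith
    · positivity
  apply Pr_mono _ hw
  rintro ω ⟨σ, hσ⟩
  show H.IsContained (graphOf _)
  apply isContained_of_full H ι σ
  intro x hx
  have hx' : x ∈ univ.image φ0 := by rw [him]; exact hx
  rw [mem_image] at hx'
  obtain ⟨e, -, rfl⟩ := hx'
  simpa using hσ e

end KK
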