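import Crest.Agent.KP_Defs

/-!
# S0270, part (A): the algebra `QA`: trace, levels, conditional expectation (author helper26)
-/

set_option autoImplicit false
set_option linter.unusedSectionVars false
set_option linter.unusedSimpArgs false

open scoped PowerSeries LaurentSeries symmDiff

namespace Crest.Agent.KP

/-! ### trace -/

section Trace

variable {R : Type} [CommRing R] [QPar R]

theorem kpa_tr_apply (u : QA R) : QA.tr u = u (∅, ∅) := rfl

theorem kpa_tr_ec (g : Gp) (c : R) : QA.tr (QA.ec g c) = if g = (∅, ∅) then c else 0 := by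
  rw [kpa_tr_apply, QA.ec_apply]

theorem kpa_tr_one : QA.tr (1 : QA R) = 1 := by
  rw [QA.one_def', kpa_tr_ec, if_pos rfl]

theorem kpa_tr_algebraMap (c : R) : QA.tr (algebraMap R (QA R) c) = c := by
  rw [Algebra.algebraMap_eq_smul_one, map_smul, kpa_tr_one, smul_eq_mul, mul_one]

theorem kpa_gx_comm (g h : Gp) : gx g h = gx h g := by
  simp only [gx, symmDiff_comm]

theorem kpa_gx_self (g : Gp) : gx g g = (∅, ∅) := by
  simp only [gx, symmDiff_self, Finset.bot_eq_empty]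

theorem kpa_gx_cancel (g h : Gp) : gx (gx g h) h = g := by
  rw [QA.gx_assoc, kpa_gx_self, QA.gx_one_right]

theorem kpa_gx_eq_one_iff (g h : Gp) : gx g h = (∅, ∅) ↔ g = h := by
  constructor
  · intro H
    have := kpa_gx_cancel g h
    rw [H, QA.gx_one_left] at this
    exact this.symm
  · rintro rfl
    exact kpa_gx_self g

theorem kpa_gx_right_inj {g h l : Gp} : gx g l = gx h l ↔ g = h := by
  constructor
  · intro H
    have := congrArg (fun t => gx t l) H
    simpa [kpa_gx_cancel] using this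
  · rintro rfl; rfl

theorem kpa_tr_comm (u v : QA R) : QA.tr (u * v) = QA.tr (v * u) := by
  induction u using QA.qinduction with
  | h0 => rw [zero_mul, mul_zero]
  | hadd u u' h h' => rw [add_mul, mul_add, map_add, map_add, h, h']
  | hec g x =>
    induction v using QA.qinduction with
    | h0 => rw [zero_mul, mul_zero]
    | hadd v v' h h' => rw [add_mul, mul_add, map_add, map_add, h, h']
    | hec h y =>
      rw [QA.ec_mul_ec, QA.ec_mul_ec, kpa_tr_ec, kpa_tr_ec, kpa_gx_comm h g]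
      split_ifs with H
      · rw [(kpa_gx_eq_one_iff g h).1 H]
        ring
      · rfl

/-- `(ec h c * u) l = coc h (h l) * c * u (h l)` -/
theorem kpa_mul_ec_apply (u : QA R) (h l : Gp) (c : R) :
    (u * QA.ec h c) l = coc R (gx l h) h * (u (gx l h) * c) := by
  induction u using QA.qinduction with
  | h0 => rw [zero_mul, QA.q_zero_apply, QA.q_zero_apply, zero_mul, mul_zero]
  | hadd u u' h h' =>
    rw [add_mul, QA.q_add_apply, QA.q_add_apply, h, h']
    ring
  | hec g x =>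
    rw [QA.ec_mul_ec, QA.ec_apply, QA.ec_apply]
    by_cases H : gx g h = l
    · subst H
      rw [if_pos rfl, kpa_gx_cancel, if_pos rfl]
    · rw [if_neg H, if_neg, zero_mul, mul_zero]
      rintro rfl
      exact H (kpa_gx_cancel l h)

theorem kpa_mul_e_apply (u : QA R) (h l : Gp) :
    (u * (QA.e h : QA R)) l = coc R (gx l h) h * u (gx l h) := by
  rw [QA.e_eq_ec, kpa_mul_ec_apply, mul_one]

theorem kpa_ec_mul_apply (u : QA R) (h l : Gp) (c : R) :
    (QA.ec h c * u) l = coc R h (gx l h) * (c * u (gx l h)) := by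
  induction u using QA.qinduction with
  | h0 => rw [mul_zero, QA.q_zero_apply, QA.q_zero_apply, mul_zero, mul_zero]
  | hadd u u' h h' =>
    rw [mul_add, QA.q_add_apply, QA.q_add_apply, h, h']
    ring
  | hec g x =>
    rw [QA.ec_mul_ec, QA.ec_apply, QA.ec_apply]
    by_cases H : gx h g = l
    · subst H
      rw [if_pos rfl, kpa_gx_comm h g, kpa_gx_cancel, if_pos rfl]
    · rw [if_neg H, if_neg, mul_zero, mul_zero]
      rintro rfl
      exact H (by rw [kpa_gx_comm, kpa_gx_cancel])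

theorem kpa_tr_mul_e (u : QA R) (g : Gp) : QA.tr (u * QA.e g) = coc R g g * u g := by
  rw [kpa_tr_apply, kpa_mul_e_apply, QA.gx_one_left]

theorem kpa_coc_self (g : Gp) :
    coc R g g = (-1) ^ (g.2 ∩ g.1).card * (∏ s ∈ g.1, al s) * (∏ s ∈ g.2, be s) := by
  simp only [coc, Finset.inter_self]

/-- expansion in the basis -/
theorem kpa_sum_ec (u : QA R) (s : Finset Gp) (hs : ∀ g, u g ≠ 0 → g ∈ s) :
    u = ∑ g ∈ s, QA.ec g (u g) := by
  classical
  apply QA.q_ext
  intro l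
  have h1 : ∀ (t : Finset Gp), (∑ g ∈ t, QA.ec g (u g)) l =
      ∑ g ∈ t, (QA.ec g (u g) : QA R) l := by
    intro t
    induction t using Finset.induction_on with
    | empty => rw [Finset.sum_empty, Finset.sum_empty]; rfl
    | insert a t ha ih => rw [Finset.sum_insert ha, Finset.sum_insert ha, QA.q_add_apply, ih]
  rw [h1]
  simp only [QA.ec_apply]
  rw [Finset.sum_ite_eq' s l (fun g => u g)]
  split_ifs with H
  · rfl
  · by_contra h
    exact H (hs l h)

theorem kpa_e_mul_e (g h : Gp) : (QA.e g : QA R) * QA.e h = coc R g h • QA.e (gx g h) := by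
  rw [QA.e_eq_ec, QA.e_eq_ec, QA.ec_mul_ec, QA.e_eq_ec, QA.smul_ec, mul_one, mul_one]

end Trace

/-! ### S1, S2, S3 -/

section Squat

variable {R : Type} [CommRing R] [QPar R]

theorem kpa_sd1 (s : Finset ℕ) : s ∆ ∅ = s := symmDiff_bot s
theorem kpa_sd2 (s : Finset ℕ) : ∅ ∆ s = s := bot_symmDiff s

theorem kpa_S1_mul_S1 (k : ℕ) : (S1 k : QA R) * S1 k = (al k : R) • (1 : QA R) := by
  unfold S1
  rw [kpa_e_mul_e]
  simp [coc, gx, QA.one_def]

theorem kpa_S2_mul_S2 (k : ℕ) : (S2 k : QA R) * S2 k = (be k : R) • (1 : QA R) := by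
  unfold S2
  rw [kpa_e_mul_e]
  simp [coc, gx, QA.one_def]

theorem kpa_S1_mul_S2 (k : ℕ) : (S1 k : QA R) * S2 k = S3 k := by
  unfold S1 S2 S3
  rw [kpa_e_mul_e]
  simp [coc, gx, kpa_sd1, kpa_sd2]

theorem kpa_S2_mul_S1 (k : ℕ) : (S2 k : QA R) * S1 k = -S3 k := by
  unfold S1 S2 S3
  rw [kpa_e_mul_e]
  simp [coc, gx, kpa_sd1, kpa_sd2]

theorem kpa_S1_mul_S3 (k : ℕ) : (S1 k : QA R) * S3 k = (al k : R) • S2 k := by
  unfold S1 S2 S3
  rw [kpa_e_mul_e]
  simp [coc, gx, kpa_sd1, kpa_sd2]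

theorem kpa_S3_mul_S1 (k : ℕ) : (S3 k : QA R) * S1 k = -((al k : R) • S2 k) := by
  unfold S1 S2 S3
  rw [kpa_e_mul_e]
  simp [coc, gx, kpa_sd1, kpa_sd2]

theorem kpa_S2_mul_S3 (k : ℕ) : (S2 k : QA R) * S3 k = -((be k : R) • S1 k) := by
  unfold S1 S2 S3
  rw [kpa_e_mul_e]
  simp [coc, gx, kpa_sd1, kpa_sd2]

theorem kpa_S3_mul_S2 (k : ℕ) : (S3 k : QA R) * S2 k = (be k : R) • S1 k := by
  unfold S1 S2 S3
  rw [kpa_e_mul_e]
  simp [coc, gx, kpa_sd1, kpa_sd2]

theorem kpa_S3_mul_S3 (k : ℕ) : (S3 k : QA R) * S3 k = -((al k * be k : R) • (1 : QA R)) := by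
  unfold S3
  rw [kpa_e_mul_e]
  simp [coc, gx, QA.one_def]

end Squat

/-! ### levels -/

section Levels

variable {R : Type} [CommRing R] [QPar R]

theorem kpa_mem_on {A : Set ℕ} {u : QA R} : u ∈ QA.on (R := R) A ↔ QA.OnSet A u := Iff.rfl

theorem kpa_mem_lev {k : ℕ} {u : QA R} :
    u ∈ lev R k ↔ ∀ g : Gp, u g ≠ 0 → (∀ s ∈ g.1, s < k) ∧ ∀ s ∈ g.2, s < k := Iff.rfl

theorem kpa_mem_mid {k l : ℕ} {u : QA R} :
    u ∈ mid R k l ↔ ∀ g : Gp, u g ≠ 0 →
      (∀ s ∈ g.1, k ≤ s ∧ s < l) ∧ ∀ s ∈ g.2, k ≤ s ∧ s < l := Iff.rfl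

theorem kpa_on_mono {A B : Set ℕ} (h : A ⊆ B) : QA.on (R := R) A ≤ QA.on B :=
  fun _ hu g hg => ⟨(hu g hg).1.trans h, (hu g hg).2.trans h⟩

theorem kpa_lev_mono {k l : ℕ} (h : k ≤ l) : lev R k ≤ lev R l :=
  kpa_on_mono fun _ (hn : _ < k) => lt_of_lt_of_le hn h

theorem kpa_mid_le_lev (k l : ℕ) : mid R k l ≤ lev R l :=
  kpa_on_mono fun _ hn => hn.2

theorem kpa_mid_mono {k k' l l' : ℕ} (h : k' ≤ k) (h' : l ≤ l') : mid R k l ≤ mid R k' l' :=
  kpa_on_mono fun _ hn => ⟨h.trans hn.1, lt_of_lt_of_le hn.2 h'⟩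

theorem kpa_mid_zero (l : ℕ) : mid R 0 l = lev R l := by
  unfold mid lev
  congr 1
  ext n
  simp

theorem kpa_exists_lev (u : QA R) : ∃ k, u ∈ lev R k := by
  classical
  induction u using QA.qinduction with
  | h0 => exact ⟨0, zero_mem _⟩
  | hadd u v hu hv =>
    obtain ⟨k, hk⟩ := hu
    obtain ⟨l, hl⟩ := hv
    exact ⟨max k l, add_mem (kpa_lev_mono (le_max_left _ _) hk)
      (kpa_lev_mono (le_max_right _ _) hl)⟩
  | hec g x =>
    refine ⟨(g.1 ∪ g.2).sup id + 1, ?_⟩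
    intro h hh
    rw [QA.ec_apply] at hh
    have : g = h := by
      by_contra H
      rw [if_neg H] at hh
      exact hh rfl
    subst this
    constructor
    · intro s hs
      exact Nat.lt_succ_of_le (Finset.le_sup (f := id)
        (Finset.mem_union_left _ (Finset.mem_coe.1 hs)))
    · intro s hs
      exact Nat.lt_succ_of_le (Finset.le_sup (f := id)
        (Finset.mem_union_right _ (Finset.mem_coe.1 hs)))

theorem kpa_ec_mem_on {A : Set ℕ} {g : Gp} (h1 : ∀ s ∈ g.1, s ∈ A) (h2 : ∀ s ∈ g.2, s ∈ A)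
    (c : R) : (QA.ec g c : QA R) ∈ QA.on (R := R) A := by
  intro h hh
  rw [QA.ec_apply] at hh
  have : g = h := by
    by_contra H
    rw [if_neg H] at hh
    exact hh rfl
  subst this
  exact ⟨fun s hs => h1 s (Finset.mem_coe.1 hs), fun s hs => h2 s (Finset.mem_coe.1 hs)⟩

theorem kpa_ec_mem_lev {k : ℕ} {g : Gp} (h1 : ∀ s ∈ g.1, s < k) (h2 : ∀ s ∈ g.2, s < k)
    (c : R) : (QA.ec g c : QA R) ∈ lev R k := kpa_ec_mem_on h1 h2 c

theorem kpa_e_mem_lev {k : ℕ} {g : Gp} (h1 : ∀ s ∈ g.1, s < k) (h2 : ∀ s ∈ g.2, s < k) :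
    (QA.e g : QA R) ∈ lev R k := kpa_ec_mem_on h1 h2 1

theorem kpa_ec_mem_mid {k l : ℕ} {g : Gp} (h1 : ∀ s ∈ g.1, k ≤ s ∧ s < l)
    (h2 : ∀ s ∈ g.2, k ≤ s ∧ s < l) (c : R) : (QA.ec g c : QA R) ∈ mid R k l :=
  kpa_ec_mem_on h1 h2 c

theorem kpa_S1_mem (k : ℕ) : (S1 k : QA R) ∈ mid R k (k + 1) := by
  refine kpa_ec_mem_mid ?_ ?_ 1 <;> simp

theorem kpa_S2_mem (k : ℕ) : (S2 k : QA R) ∈ mid R k (k + 1) := by
  refine kpa_ec_mem_mid ?_ ?_ 1 <;> simp

theorem kpa_S3_mem (k : ℕ) : (S3 k : QA R) ∈ mid R k (k + 1) := by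
  refine kpa_ec_mem_mid ?_ ?_ 1 <;> simp

theorem kpa_S1_mem_lev (k : ℕ) : (S1 k : QA R) ∈ lev R (k + 1) := kpa_mid_le_lev _ _ (kpa_S1_mem k)
theorem kpa_S2_mem_lev (k : ℕ) : (S2 k : QA R) ∈ lev R (k + 1) := kpa_mid_le_lev _ _ (kpa_S2_mem k)
theorem kpa_S3_mem_lev (k : ℕ) : (S3 k : QA R) ∈ lev R (k + 1) := kpa_mid_le_lev _ _ (kpa_S3_mem k)

/-- induction for elements supported on `A` -/
theorem kpa_on_induction {A : Set ℕ} {p : QA R → Prop} {u : QA R} (hu : u ∈ QA.on (R := R) A)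
    (h0 : p 0) (hadd : ∀ u v, p u → p v → p (u + v))
    (hec : ∀ g : Gp, ∀ x : R, (∀ s ∈ g.1, s ∈ A) → (∀ s ∈ g.2, s ∈ A) → p (QA.ec g x)) : p u := by
  classical
  rw [kpa_sum_ec u (QA.supp u) (fun g hg => QA.mem_supp.2 hg)]
  have : ∀ t : Finset Gp, t ⊆ QA.supp u → p (∑ g ∈ t, QA.ec g (u g)) := by
    intro t
    induction t using Finset.induction_on with
    | empty => intro _; rw [Finset.sum_empty]; exact h0
    | insert a t ha ih =>
      intro hsub
      rw [Finset.sum_insert ha]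
      refine hadd _ _ ?_ (ih fun x hx => hsub (Finset.mem_insert_of_mem hx))
      have h1 := hu a (QA.mem_supp.1 (hsub (Finset.mem_insert_self a t)))
      exact hec a _ (fun s hs => h1.1 (Finset.mem_coe.2 hs)) (fun s hs => h1.2 (Finset.mem_coe.2 hs))
  exact this _ (Finset.Subset.refl _)

theorem kpa_on_comm {A B : Set ℕ} (hAB : Disjoint A B) {u v : QA R} (hu : u ∈ QA.on (R := R) A)
    (hv : v ∈ QA.on (R := R) B) : u * v = v * u := by
  refine kpa_on_induction (p := fun u => u * v = v * u) hu ?_ ?_ ?_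
  · rw [zero_mul, mul_zero]
  · intro a b ha hb
    rw [add_mul, mul_add, ha, hb]
  · intro g x hg1 hg2
    refine kpa_on_induction (p := fun v => QA.ec g x * v = v * QA.ec g x) hv ?_ ?_ ?_
    · rw [zero_mul, mul_zero]
    · intro a b ha hb
      rw [add_mul, mul_add, ha, hb]
    · intro h y hh1 hh2
      rw [QA.ec_mul_ec, QA.ec_mul_ec, kpa_gx_comm h g]
      have hd : ∀ a b : Finset ℕ, (∀ s ∈ a, s ∈ A) → (∀ s ∈ b, s ∈ B) → a ∩ b = ∅ := by
        intro a b ha hb
        rw [Finset.eq_empty_iff_forall_notMem]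
        intro s hs
        rw [Finset.mem_inter] at hs
        exact Set.disjoint_left.1 hAB (ha s hs.1) (hb s hs.2)
      have e1 : coc R g h = 1 := by
        simp only [coc, hd g.1 h.1 hg1 hh1, hd g.2 h.2 hg2 hh2, hd g.2 h.1 hg2 hh1]
        simp
      have e2 : coc R h g = 1 := by
        simp only [coc, Finset.inter_comm h.1 g.1, Finset.inter_comm h.2 g.2,
          Finset.inter_comm h.2 g.1, hd g.1 h.1 hg1 hh1, hd g.2 h.2 hg2 hh2, hd g.1 h.2 hg1 hh2]
        simp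
      rw [e1, e2, mul_comm x y]

theorem kpa_lev_mid_comm {k l : ℕ} {u v : QA R} (hu : u ∈ lev R k) (hv : v ∈ mid R k l) :
    u * v = v * u :=
  kpa_on_comm (Set.disjoint_left.2 fun n (hn : n < k) (hn' : k ≤ n ∧ n < l) =>
    absurd hn (not_lt.2 hn'.1)) hu hv

theorem kpa_tr_on_mul {A B : Set ℕ} (hAB : Disjoint A B) {u v : QA R} (hu : u ∈ QA.on (R := R) A)
    (hv : v ∈ QA.on (R := R) B) : QA.tr (u * v) = QA.tr u * QA.tr v := by
  refine kpa_on_induction (p := fun u => QA.tr (u * v) = QA.tr u * QA.tr v) hu ?_ ?_ ?_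
  · rw [zero_mul, map_zero, zero_mul]
  · intro a b ha hb
    rw [add_mul, map_add, map_add, add_mul, ha, hb]
  · intro g x hg1 hg2
    refine kpa_on_induction
      (p := fun v => QA.tr (QA.ec g x * v) = QA.tr (QA.ec g x) * QA.tr v) hv ?_ ?_ ?_
    · rw [mul_zero, map_zero, mul_zero]
    · intro a b ha hb
      rw [mul_add, map_add, map_add, mul_add, ha, hb]
    · intro h y hh1 hh2
      rw [QA.ec_mul_ec, kpa_tr_ec, kpa_tr_ec, kpa_tr_ec]
      by_cases H : gx g h = (∅, ∅)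
      · have hgh := (kpa_gx_eq_one_iff g h).1 H
        subst hgh
        have hg : g = (∅, ∅) := by
          apply Prod.ext
          · rw [Finset.eq_empty_iff_forall_notMem]
            intro s hs
            exact Set.disjoint_left.1 hAB (hg1 s hs) (hh1 s hs)
          · rw [Finset.eq_empty_iff_forall_notMem]
            intro s hs
            exact Set.disjoint_left.1 hAB (hg2 s hs) (hh2 s hs)
        subst hg
        rw [if_pos H, if_pos rfl, if_pos rfl, QA.coc_one_left, one_mul]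
      · rw [if_neg H]
        by_cases h1 : g = (∅, ∅)
        · subst h1
          rw [QA.gx_one_left] at H
          rw [if_neg H, mul_zero]
        · rw [if_neg h1, zero_mul]

theorem kpa_tr_lev_mid {k l : ℕ} {u v : QA R} (hu : u ∈ lev R k) (hv : v ∈ mid R k l) :
    QA.tr (u * v) = QA.tr u * QA.tr v :=
  kpa_tr_on_mul (Set.disjoint_left.2 fun n (hn : n < k) (hn' : k ≤ n ∧ n < l) =>
    absurd hn (not_lt.2 hn'.1)) hu hv

end Levels

end Crest.Agent.KP
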