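import Crest.Agent.KPA_Low

/-!
# S0270, part (A): Casimir elements, dimensions of centralizers (author helper26)
-/

set_option autoImplicit false
set_option linter.unusedSectionVars false
set_option linter.unusedSimpArgs false

open scoped PowerSeries LaurentSeries symmDiff

namespace Crest.Agent.KP

/-! ### abstract: trace over a free module -/

theorem kpa_abs_trace {F D V : Type} [Field F] [Ring D] [Algebra F D] [Module.Finite F D]
    [AddCommGroup V] [Module F V] [Module D V] [IsScalarTower F D V] [Module.Free D V]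
    [Module.Finite D V] : ∃ r : ℕ, Module.finrank F V = r * Module.finrank F D ∧
      ∀ (y : D) (f : V →ₗ[F] V), (∀ v, f v = y • v) →
        LinearMap.trace F V f = r * LinearMap.trace F D (LinearMap.mulLeft F y) := by
  classical
  rcases subsingleton_or_nontrivial D with hD | hD
  · have : Subsingleton V := Module.subsingleton D V
    refine ⟨0, ?_, ?_⟩
    · rw [zero_mul, Module.finrank_zero_of_subsingleton]
    · intro y f _
      have : f = 0 := LinearMap.ext fun v => Subsingleton.elim _ _
      rw [this, map_zero, Nat.cast_zero, zero_mul]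
  · let c := Module.Free.chooseBasis D V
    let b := Module.finBasis F D
    refine ⟨Fintype.card (Module.Free.ChooseBasisIndex D V), ?_, ?_⟩
    · rw [Module.finrank_eq_card_basis (b.smulTower c), Fintype.card_prod, Fintype.card_fin,
        mul_comm]
    · intro y f hf
      rw [LinearMap.trace_eq_matrix_trace F (b.smulTower c),
        LinearMap.trace_eq_matrix_trace F b]
      unfold Matrix.trace
      rw [Fintype.sum_prod_type]
      have h1 : ∀ (i : Fin (Module.finrank F D)) (j : Module.Free.ChooseBasisIndex D V),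
          (LinearMap.toMatrix (b.smulTower c) (b.smulTower c) f).diag (i, j) =
          (LinearMap.toMatrix b b (LinearMap.mulLeft F y)).diag i := by
        intro i j
        rw [Matrix.diag_apply, Matrix.diag_apply, LinearMap.toMatrix_apply,
          LinearMap.toMatrix_apply, Module.Basis.smulTower_apply, hf, smul_smul,
          Module.Basis.smulTower_repr, map_smul, Module.Basis.repr_self]
        simp
      simp only [h1]
      rw [Finset.mul_sum]
      refine Finset.sum_congr rfl fun i _ => ?_
      rw [Finset.sum_const, Finset.card_univ, nsmul_eq_mul]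

/-! ### subspaces stable under left multiplication by a subalgebra -/

section
variable {K : Type} [Field K] [KF K]

theorem kpa_tower_mod (A : Subalgebra K (QA K)) [FiniteDimensional K A]
    (V : Submodule K (QA K)) [FiniteDimensional K V] (hV : ∀ a ∈ A, ∀ v ∈ V, a * v ∈ V) :
    ∃ r : ℕ, Module.finrank K V = r * Module.finrank K A ∧
      ∀ (y : QA K) (hy : y ∈ A) (f : V →ₗ[K] V), (∀ v : V, (f v : QA K) = y * v) →
        LinearMap.trace K V f = r * LinearMap.trace K A (LinearMap.mulLeft K (⟨y, hy⟩ : A)) := by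
  letI : Module A V :=
    { smul := fun a v => ⟨(a : QA K) * v, hV a a.2 v v.2⟩
      one_smul := fun v => Subtype.ext (one_mul (v : QA K))
      mul_smul := fun a b v => Subtype.ext (mul_assoc (a : QA K) b v)
      smul_zero := fun a => Subtype.ext (mul_zero (a : QA K))
      smul_add := fun a v w => Subtype.ext (mul_add (a : QA K) v w)
      add_smul := fun a b v => Subtype.ext (add_mul (a : QA K) b v)
      zero_smul := fun v => Subtype.ext (zero_mul (v : QA K)) }
  have hst : IsScalarTower K A V :=
    ⟨fun c a v => Subtype.ext (smul_mul_assoc c (a : QA K) (v : QA K))⟩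
  have hfin : Module.Finite A V := Module.Finite.of_restrictScalars_finite K A V
  have hdom : IsDomain A := NoZeroDivisors.to_isDomain A
  have hfree : Module.Free A V := by
    letI := divisionRingOfFiniteDimensional K A
    exact Module.Free.of_divisionRing A V
  obtain ⟨r, hr1, hr2⟩ := kpa_abs_trace (F := K) (D := A) (V := V)
  exact ⟨r, hr1, fun y hy f hf => hr2 ⟨y, hy⟩ f fun v => Subtype.ext (hf v)⟩

/-- dimension of a subspace stable under left multiplication -/
theorem kpa_dvd_of_stable (A : Subalgebra K (QA K)) [FiniteDimensional K A]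
    (V : Submodule K (QA K)) [FiniteDimensional K V] (hV : ∀ a ∈ A, ∀ v ∈ V, a * v ∈ V) :
    Module.finrank K A ∣ Module.finrank K V := by
  obtain ⟨r, hr, -⟩ := kpa_tower_mod A V hV
  exact ⟨r, by rw [hr, mul_comm]⟩

theorem kpa_finrank_dvd {A B : Subalgebra K (QA K)} [FiniteDimensional K B] (h : A ≤ B) :
    Module.finrank K A ∣ Module.finrank K B := by
  have h1 : FiniteDimensional K A :=
    Submodule.finiteDimensional_of_le (S₁ := Subalgebra.toSubmodule A)
      (S₂ := Subalgebra.toSubmodule B) h
  have h2 : FiniteDimensional K (Subalgebra.toSubmodule B) := ‹FiniteDimensional K B›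
  exact kpa_dvd_of_stable A (Subalgebra.toSubmodule B)
    fun a ha v hv => B.mul_mem (h ha) hv

/-! ### traces of operators on `lev k` -/

/-- a trace-like functional on `lev k` is a multiple of `tr` -/
theorem kpa_trace_unique {k : ℕ} (f : QA K →ₗ[K] K)
    (hf : ∀ x ∈ lev K k, ∀ y ∈ lev K k, f (x * y) = f (y * x)) :
    ∀ x ∈ lev K k, f x = QA.tr x * f 1 := by
  have key : ∀ h : Gp, Below k h → h ≠ (∅, ∅) → f (QA.e h) = 0 := by
    intro h hh hne
    obtain ⟨g, hg, hgh⟩ : ∃ g : Gp, Below k g ∧
        (QA.e h : QA K) * QA.e g = -(QA.e g * QA.e h) := by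
      have hne' : (∃ s, s ∈ h.1) ∨ ∃ s, s ∈ h.2 := by
        by_contra H
        push Not at H
        exact hne (Prod.ext (Finset.eq_empty_of_forall_notMem H.1)
          (Finset.eq_empty_of_forall_notMem H.2))
      rcases hne' with ⟨s, hs⟩ | ⟨s, hs⟩
      · refine ⟨(∅, {s}), ⟨by simp, by simpa using hh.1 s hs⟩, ?_⟩
        rw [kpa_e_mul_e, kpa_e_mul_e, kpa_gx_comm h, ← neg_smul]
        congr 1
        simp only [coc, Finset.inter_empty, Finset.empty_inter, Finset.card_empty, pow_zero,
          Finset.prod_empty, one_mul, mul_one, Finset.singleton_inter_of_mem hs,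
          Finset.card_singleton, pow_one, Finset.inter_comm h.2]
        ring
      · refine ⟨({s}, ∅), ⟨by simpa using hh.2 s hs, by simp⟩, ?_⟩
        rw [kpa_e_mul_e, kpa_e_mul_e, kpa_gx_comm h, ← neg_smul]
        congr 1
        simp only [coc, Finset.inter_empty, Finset.empty_inter, Finset.card_empty, pow_zero,
          Finset.prod_empty, one_mul, mul_one, Finset.inter_comm h.2,
          Finset.singleton_inter_of_mem hs, Finset.card_singleton, pow_one,
          Finset.inter_comm h.1]
        ring
    have hgl : (QA.e g : QA K) ∈ lev K k := kpa_e_mem_lev hg.1 hg.2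
    have hhl : (QA.e h : QA K) ∈ lev K k := kpa_e_mem_lev hh.1 hh.2
    have e1 : (QA.e g : QA K) * QA.e g = coc K g g • 1 := by
      rw [kpa_e_mul_e, kpa_gx_self, ← QA.one_def]
    have e2 : (QA.e g : QA K) * (QA.e g * QA.e h) = coc K g g • QA.e h := by
      rw [← mul_assoc, e1, smul_mul_assoc, one_mul]
    have e3 : ((QA.e g : QA K) * QA.e h) * QA.e g = -(coc K g g • QA.e h) := by
      rw [mul_assoc, hgh, mul_neg, e2]
    have e4 := hf _ hgl _ (Subalgebra.mul_mem _ hgl hhl)
    rw [e2, e3, map_neg, map_smul, smul_eq_mul] at e4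
    have e5 : 2 * (coc K g g * f (QA.e h)) = 0 := by
      linear_combination e4
    rcases mul_eq_zero.1 e5 with e6 | e6
    · exact absurd e6 two_ne_zero
    · rcases mul_eq_zero.1 e6 with e7 | e7
      · exact absurd e7 (kpa_coc_ne g g)
      · exact e7
  intro x hx
  refine kpa_on_induction (p := fun x => f x = QA.tr x * f 1) hx ?_ ?_ ?_
  · rw [map_zero, map_zero, zero_mul]
  · intro a b ha hb
    rw [map_add, map_add, add_mul, ha, hb]
  · intro g c h1 h2
    have e1 : (QA.ec g c : QA K) = c • QA.e g := by rw [QA.e_eq_ec, QA.smul_ec, mul_one]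
    rw [e1, map_smul, map_smul, smul_eq_mul, smul_eq_mul]
    by_cases H : g = (∅, ∅)
    · subst H
      rw [← QA.one_def, kpa_tr_one, mul_one]
    · rw [key g ⟨h1, h2⟩ H]
      rw [QA.e_eq_ec, kpa_tr_ec, if_neg H]
      ring

/-- `low k` as a map to `lev k` -/
noncomputable def lowA (k : ℕ) : QA K →ₗ[K] lev K k :=
  LinearMap.codRestrict (Subalgebra.toSubmodule (lev K k)) (low k) (kpa_low_mem k)

theorem kpa_lowA_coe (k : ℕ) (u : QA K) : ((lowA k u : lev K k) : QA K) = low k u := rfl

theorem kpa_lowA_of_mem {k : ℕ} {u : QA K} (hu : u ∈ lev K k) : lowA k u = ⟨u, hu⟩ :=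
  Subtype.ext (kpa_low_of_mem hu)

/-- left multiplication by `a ∈ lev k` on `lev k` -/
noncomputable def opL (k : ℕ) : QA K →ₗ[K] Module.End K (lev K k) :=
  (LinearMap.mul K (lev K k)).comp (lowA k)

/-- right multiplication by `a ∈ lev k` on `lev k` -/
noncomputable def opR (k : ℕ) : QA K →ₗ[K] Module.End K (lev K k) :=
  (LinearMap.mul K (lev K k)).flip.comp (lowA k)

theorem kpa_opL_apply {k : ℕ} {a : QA K} (ha : a ∈ lev K k) (x : lev K k) :
    ((opL k a x : lev K k) : QA K) = a * x := by
  have h1 : ((opL k a x : lev K k) : QA K) = low k a * (x : QA K) := rfl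
  rw [h1, kpa_low_of_mem ha]

theorem kpa_opR_apply {k : ℕ} {a : QA K} (ha : a ∈ lev K k) (x : lev K k) :
    ((opR k a x : lev K k) : QA K) = x * a := by
  have h1 : ((opR k a x : lev K k) : QA K) = (x : QA K) * low k a := rfl
  rw [h1, kpa_low_of_mem ha]

theorem kpa_opL_one (k : ℕ) : opL k (1 : QA K) = 1 :=
  LinearMap.ext fun x => Subtype.ext (by
    rw [kpa_opL_apply (Subalgebra.one_mem _), one_mul]; rfl)

theorem kpa_opR_one (k : ℕ) : opR k (1 : QA K) = 1 :=
  LinearMap.ext fun x => Subtype.ext (by
    rw [kpa_opR_apply (Subalgebra.one_mem _), mul_one]; rfl)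

theorem kpa_opL_mul {k : ℕ} {a b : QA K} (ha : a ∈ lev K k) (hb : b ∈ lev K k) :
    opL k (a * b) = opL k a * opL k b :=
  LinearMap.ext fun x => Subtype.ext (by
    rw [kpa_opL_apply (Subalgebra.mul_mem _ ha hb), Module.End.mul_apply, kpa_opL_apply ha,
      kpa_opL_apply hb, mul_assoc])

theorem kpa_opR_mul {k : ℕ} {a b : QA K} (ha : a ∈ lev K k) (hb : b ∈ lev K k) :
    opR k (a * b) = opR k b * opR k a :=
  LinearMap.ext fun x => Subtype.ext (by
    rw [kpa_opR_apply (Subalgebra.mul_mem _ ha hb), Module.End.mul_apply, kpa_opR_apply hb,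
      kpa_opR_apply ha, mul_assoc])

theorem kpa_opL_opR {k : ℕ} {a b : QA K} (ha : a ∈ lev K k) (hb : b ∈ lev K k) :
    opL k a * opR k b = opR k b * opL k a :=
  LinearMap.ext fun x => Subtype.ext (by
    rw [Module.End.mul_apply, Module.End.mul_apply, kpa_opR_apply hb, kpa_opL_apply ha,
      kpa_opL_apply ha, kpa_opR_apply hb, mul_assoc])

/-- trace of right multiplication -/
theorem kpa_trace_opR {k : ℕ} {b : QA K} (hb : b ∈ lev K k) :
    LinearMap.trace K (lev K k) (opR k b) = 4 ^ k * QA.tr b := by
  have h := kpa_trace_unique (k := k) ((LinearMap.trace K (lev K k)).comp (opR k)) (by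
    intro x hx y hy
    rw [LinearMap.comp_apply, LinearMap.comp_apply, kpa_opR_mul hx hy, kpa_opR_mul hy hx,
      LinearMap.trace_mul_comm]) b hb
  rw [LinearMap.comp_apply, LinearMap.comp_apply, kpa_opR_one, LinearMap.trace_one,
    kpa_finrank_lev] at h
  rw [h]
  push_cast
  ring

/-- **trace of `x ↦ a x b` on `lev k` is `4^k tr a tr b`.** -/
theorem kpa_trace_LR {k : ℕ} {a b : QA K} (ha : a ∈ lev K k) (hb : b ∈ lev K k) :
    LinearMap.trace K (lev K k) (opL k a * opR k b) = 4 ^ k * (QA.tr a * QA.tr b) := by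
  let f : QA K →ₗ[K] K :=
    { toFun := fun a => LinearMap.trace K (lev K k) (opL k a * opR k b)
      map_add' := fun x y => by rw [map_add, add_mul, map_add]
      map_smul' := fun c x => by rw [map_smul, smul_mul_assoc, map_smul]; rfl }
  have h := kpa_trace_unique (k := k) f (by
    intro x hx y hy
    show LinearMap.trace K (lev K k) (opL k (x * y) * opR k b) =
      LinearMap.trace K (lev K k) (opL k (y * x) * opR k b)
    rw [kpa_opL_mul hx hy, kpa_opL_mul hy hx, mul_assoc, LinearMap.trace_mul_comm, mul_assoc,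
      ← kpa_opL_opR hx hb, mul_assoc]) a ha
  have h1 : f 1 = 4 ^ k * QA.tr b := by
    show LinearMap.trace K (lev K k) (opL k 1 * opR k b) = _
    rw [kpa_opL_one, one_mul, kpa_trace_opR hb]
  rw [h1] at h
  show f a = _
  rw [h]
  ring

theorem kpa_trace_opL {k : ℕ} {a : QA K} (ha : a ∈ lev K k) :
    LinearMap.trace K (lev K k) (opL k a) = 4 ^ k * QA.tr a := by
  have := kpa_trace_LR ha (Subalgebra.one_mem (lev K k))
  rwa [kpa_opR_one, mul_one, kpa_tr_one, mul_one] at this

/-- trace of left multiplication on a subalgebra `B ≤ lev k` is `dim B * tr` -/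
theorem kpa_trace_mulLeft {k : ℕ} {B : Subalgebra K (QA K)} (hB : B ≤ lev K k) (y : B) :
    LinearMap.trace K B (LinearMap.mulLeft K y) = Module.finrank K B * QA.tr (y : QA K) := by
  have h1 : FiniteDimensional K B := kpa_fd_of_le' hB
  obtain ⟨r, hr1, hr2⟩ := kpa_tower_mod B (Subalgebra.toSubmodule (lev K k))
    fun a ha v hv => Subalgebra.mul_mem _ (hB ha) hv
  have h2 := hr2 y y.2 (opL k y) fun v => kpa_opL_apply (hB y.2) v
  have h3 : Module.finrank K (Subalgebra.toSubmodule (lev K k)) = 4 ^ k := kpa_finrank_lev k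
  have h4 : LinearMap.trace K (Subalgebra.toSubmodule (lev K k)) (opL k (y : QA K)) =
    4 ^ k * QA.tr (y : QA K) := kpa_trace_opL (hB y.2)
  rw [h3] at hr1
  rw [h4] at h2
  have h5 : (4 : K) ^ k = r * Module.finrank K B := by
    have := congrArg (Nat.cast (R := K)) hr1
    push_cast at this
    exact this
  have hr0 : (r : K) ≠ 0 := by
    intro h
    rw [h, zero_mul] at h5
    exact pow_ne_zero k (by norm_num : (4 : K) ≠ 0) h5
  have h6 : (r : K) * LinearMap.trace K B (LinearMap.mulLeft K (⟨y, y.2⟩ : B)) =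
      r * (Module.finrank K B * QA.tr (y : QA K)) := by
    rw [← h2, h5]; ring
  exact mul_left_cancel₀ hr0 h6

/-! ### dual bases and the Casimir operator -/

/-- `b, b'` are dual bases of `B` for the trace form -/
structure DualPair (B : Subalgebra K (QA K)) {ι : Type} [Fintype ι] [DecidableEq ι]
    (b b' : ι → QA K) : Prop where
  mem : ∀ i, b i ∈ B
  mem' : ∀ i, b' i ∈ B
  dual : ∀ i j, QA.tr (b i * b' j) = if i = j then 1 else 0
  exp : ∀ x ∈ B, x = ∑ i, QA.tr (x * b' i) • b i
  exp' : ∀ x ∈ B, x = ∑ i, QA.tr (x * b i) • b' i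

theorem DualPair.symm {B : Subalgebra K (QA K)} {ι : Type} [Fintype ι] [DecidableEq ι]
    {b b' : ι → QA K} (h : DualPair B b b') : DualPair B b' b where
  mem := h.mem'
  mem' := h.mem
  dual i j := by rw [kpa_tr_comm, h.dual]; simp only [eq_comm]
  exp := h.exp'
  exp' := h.exp

theorem DualPair.exists_basis {B : Subalgebra K (QA K)} {ι : Type} [Fintype ι] [DecidableEq ι]
    {b b' : ι → QA K} (h : DualPair B b b') :
    ∃ bb : Module.Basis ι K B, ∀ i, bb i = ⟨b i, h.mem i⟩ := by
  have hli : LinearIndependent K (fun i => (⟨b i, h.mem i⟩ : B)) := by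
    rw [Fintype.linearIndependent_iff]
    intro g hg i
    have h1 := congrArg (fun x : B => QA.tr ((x : QA K) * b' i)) hg
    simp only [AddSubmonoidClass.coe_finsetSum, Subalgebra.coe_smul, Finset.sum_mul,
      smul_mul_assoc, map_sum, map_smul, h.dual, smul_eq_mul, mul_ite, mul_one, mul_zero,
      Subalgebra.coe_zero, zero_mul, map_zero, Finset.sum_ite_eq', Finset.mem_univ,
      if_true] at h1
    exact h1
  have hsp : ⊤ ≤ Submodule.span K (Set.range (fun i => (⟨b i, h.mem i⟩ : B))) := by
    intro x _
    have h1 : x = ∑ i, QA.tr ((x : QA K) * b' i) • (⟨b i, h.mem i⟩ : B) := by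
      apply Subtype.ext
      have h2 := h.exp x x.2
      simp only [AddSubmonoidClass.coe_finsetSum, Subalgebra.coe_smul]
      exact h2
    rw [h1]
    exact Submodule.sum_mem _ fun i _ => Submodule.smul_mem _ _
      (Submodule.subset_span ⟨i, rfl⟩)
  exact ⟨Module.Basis.mk hli hsp, fun i => Module.Basis.mk_apply hli hsp i⟩

theorem DualPair.card {B : Subalgebra K (QA K)} {ι : Type} [Fintype ι] [DecidableEq ι]
    {b b' : ι → QA K} (h : DualPair B b b') : Module.finrank K B = Fintype.card ι := by
  obtain ⟨bb, -⟩ := h.exists_basis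
  exact Module.finrank_eq_card_basis bb

/-- the trace of an endomorphism in terms of dual bases -/
theorem DualPair.trace {B : Subalgebra K (QA K)} {ι : Type} [Fintype ι] [DecidableEq ι]
    {b b' : ι → QA K} (h : DualPair B b b') (f : B →ₗ[K] B) :
    LinearMap.trace K B f =
      ∑ i, QA.tr (((f ⟨b i, h.mem i⟩ : B) : QA K) * b' i) := by
  obtain ⟨bb, hbb⟩ := h.exists_basis
  have hrepr : ∀ (x : B) (i : ι), bb.repr x i = QA.tr ((x : QA K) * b' i) := by
    intro x i
    have h1 := bb.sum_repr x
    have h2 := congrArg (fun x : B => QA.tr ((x : QA K) * b' i)) h1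
    simp only [hbb, AddSubmonoidClass.coe_finsetSum, Subalgebra.coe_smul, Finset.sum_mul,
      smul_mul_assoc, map_sum, map_smul, h.dual, smul_eq_mul, mul_ite, mul_one, mul_zero,
      Finset.sum_ite_eq', Finset.mem_univ, if_true] at h2
    exact h2
  rw [LinearMap.trace_eq_matrix_trace K bb]
  unfold Matrix.trace
  refine Finset.sum_congr rfl fun i _ => ?_
  rw [Matrix.diag_apply, LinearMap.toMatrix_apply, hrepr, hbb]

/-- dual bases exist -/
theorem exists_dualPair (B : Subalgebra K (QA K)) [FiniteDimensional K B] :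
    ∃ b b' : Fin (Module.finrank K B) → QA K, DualPair B b b' := by
  let b := Module.finBasis K B
  let bd := b.dualBasis.map (kpaFormE B).symm
  have hbd : ∀ i (x : B), QA.tr (((bd i : B) : QA K) * (x : QA K)) = b.repr x i := by
    intro i x
    have h1 : kpaFormE B (bd i) = b.dualBasis i := by
      show kpaFormE B ((b.dualBasis.map (kpaFormE B).symm) i) = _
      rw [Module.Basis.map_apply, LinearEquiv.apply_symm_apply]
    have h2 := LinearMap.congr_fun h1 x
    rw [Module.Basis.dualBasis_apply] at h2
    exact h2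
  have hdual : ∀ i j, QA.tr (((b i : B) : QA K) * ((bd j : B) : QA K)) = if i = j then 1 else 0 := by
    intro i j
    rw [kpa_tr_comm, hbd, Module.Basis.repr_self, Finsupp.single_apply]
  refine ⟨fun i => b i, fun i => bd i, fun i => (b i).2, fun i => (bd i).2, hdual, ?_, ?_⟩
  · intro x hx
    have h1 := b.sum_repr ⟨x, hx⟩
    have h2 := congrArg (fun x : B => (x : QA K)) h1
    simp only [AddSubmonoidClass.coe_finsetSum, Subalgebra.coe_smul] at h2
    rw [← h2]
    refine Finset.sum_congr rfl fun i _ => ?_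
    rw [h2, ← hbd i ⟨x, hx⟩, kpa_tr_comm]
  · intro x hx
    have h1 := bd.sum_repr ⟨x, hx⟩
    have h2 := congrArg (fun x : B => (x : QA K)) h1
    simp only [AddSubmonoidClass.coe_finsetSum, Subalgebra.coe_smul] at h2
    have h3 : ∀ j, bd.repr ⟨x, hx⟩ j = QA.tr (x * ((b j : B) : QA K)) := by
      intro j
      have h4 := congrArg (fun y => QA.tr (y * ((b j : B) : QA K))) h2
      simp only [Finset.sum_mul, smul_mul_assoc, map_sum, map_smul, smul_eq_mul] at h4
      rw [← h4]
      have h5 : ∀ i, QA.tr (((bd i : B) : QA K) * ((b j : B) : QA K)) = if i = j then 1 else 0 := by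
        intro i
        rw [kpa_tr_comm, hdual]
        simp only [eq_comm]
      simp only [h5, mul_ite, mul_one, mul_zero, Finset.sum_ite_eq', Finset.mem_univ, if_true]
    rw [← h2]
    refine Finset.sum_congr rfl fun i _ => ?_
    rw [h2, h3]

end

end Crest.Agent.KP
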