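import Crest.Agent.KPA_Alg

/-!
# S0270, part (A): finite-dimensional subalgebras of `QA K` (author helper26)
-/

set_option autoImplicit false
set_option linter.unusedSectionVars false
set_option linter.unusedSimpArgs false

open scoped PowerSeries LaurentSeries symmDiff

namespace Crest.Agent.KP

variable {K : Type} [Field K] [KF K]

theorem kpa_coc_ne (g h : Gp) : coc K g h ≠ 0 := by
  unfold coc
  refine mul_ne_zero (mul_ne_zero (pow_ne_zero _ (neg_ne_zero.2 one_ne_zero)) ?_) ?_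
  · exact Finset.prod_ne_zero_iff.2 fun s _ => KF.al_ne s
  · exact Finset.prod_ne_zero_iff.2 fun s _ => KF.be_ne s

/-- the trace form is nondegenerate on each `QA.on A` -/
theorem kpa_on_nondeg {A : Set ℕ} {u : QA K} (hu : u ∈ QA.on (R := K) A)
    (h : ∀ d ∈ QA.on (R := K) A, QA.tr (u * d) = 0) : u = 0 := by
  apply QA.q_ext
  intro g
  by_contra hg
  have h1 := hu g hg
  have h2 := h (QA.e g) (kpa_ec_mem_on (fun s hs => h1.1 (Finset.mem_coe.2 hs))
    (fun s hs => h1.2 (Finset.mem_coe.2 hs)) 1)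
  rw [kpa_tr_mul_e] at h2
  rcases mul_eq_zero.1 h2 with h3 | h3
  · exact kpa_coc_ne g g h3
  · exact hg h3

theorem kpa_lev_nondeg {k : ℕ} {u : QA K} (hu : u ∈ lev K k)
    (h : ∀ d ∈ lev K k, QA.tr (u * d) = 0) : u = 0 := kpa_on_nondeg hu h

theorem kpa_nondeg {u : QA K} (h : ∀ d : QA K, QA.tr (u * d) = 0) : u = 0 := by
  obtain ⟨k, hk⟩ := kpa_exists_lev u
  exact kpa_lev_nondeg hk fun d _ => h d

/-! ### dimensions -/

/-- index set of `QA.on A` -/
def gOn (A : Set ℕ) : Set Gp := {g | ↑g.1 ⊆ A ∧ ↑g.2 ⊆ A}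

/-- `QA.on A` is the space of functions supported on its index set -/
noncomputable def kpaOnEquiv0 (A : Set ℕ) :
    QA.on (R := K) A ≃ₗ[K] (Finsupp.supported K K (gOn A) : Submodule K (Gp →₀ K)) where
  toFun u := ⟨(u : QA K), (Finsupp.mem_supported K _).2 fun _ hg =>
    u.2 _ (Finsupp.mem_support_iff.1 (Finset.mem_coe.1 hg))⟩
  invFun u := ⟨((u : Gp →₀ K) : QA K), fun g hg =>
    (Finsupp.mem_supported K _).1 u.2 (Finset.mem_coe.2 (Finsupp.mem_support_iff.2 hg))⟩
  left_inv _ := rfl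
  right_inv _ := rfl
  map_add' _ _ := rfl
  map_smul' _ _ := rfl

/-- `QA.on A` is isomorphic to the functions on its index set -/
noncomputable def kpaOnEquiv (A : Set ℕ) : QA.on (R := K) A ≃ₗ[K] (gOn A →₀ K) :=
  (kpaOnEquiv0 (K := K) A).trans (Finsupp.supportedEquivFinsupp (gOn A))

theorem kpa_gOn_finset (F : Finset ℕ) : gOn (F : Set ℕ) = ↑(F.powerset ×ˢ F.powerset) := by
  ext g
  simp [gOn]

theorem kpa_finite_on (F : Finset ℕ) : FiniteDimensional K (QA.on (R := K) (F : Set ℕ)) := by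
  have : Finite (gOn (F : Set ℕ)) := by
    rw [kpa_gOn_finset]
    exact Finset.finite_toSet _
  have := Fintype.ofFinite (gOn (F : Set ℕ))
  exact Module.Finite.equiv (kpaOnEquiv (K := K) (F : Set ℕ)).symm

theorem kpa_finrank_on (F : Finset ℕ) :
    Module.finrank K (QA.on (R := K) (F : Set ℕ)) = 4 ^ F.card := by
  have : Finite (gOn (F : Set ℕ)) := by
    rw [kpa_gOn_finset]
    exact Finset.finite_toSet _
  have := Fintype.ofFinite (gOn (F : Set ℕ))
  rw [(kpaOnEquiv (K := K) (F : Set ℕ)).finrank_eq, Module.finrank_finsupp_self]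
  rw [← Nat.card_eq_fintype_card, kpa_gOn_finset, Nat.card_coe_set_eq, Set.ncard_coe_finset,
    Finset.card_product, Finset.card_powerset, ← mul_pow]
  norm_num

theorem kpa_lev_eq (k : ℕ) : lev K k = QA.on (R := K) (Finset.range k : Set ℕ) := by
  unfold lev
  congr 1
  ext n
  simp

theorem kpa_mid_eq (k l : ℕ) : mid K k l = QA.on (R := K) (Finset.Ico k l : Set ℕ) := by
  unfold mid
  congr 1
  ext n
  simp

instance kpa_fd_lev (k : ℕ) : FiniteDimensional K (lev K k) := by
  rw [kpa_lev_eq]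
  exact kpa_finite_on _

instance kpa_fd_mid (k l : ℕ) : FiniteDimensional K (mid K k l) := by
  rw [kpa_mid_eq]
  exact kpa_finite_on _

theorem kpa_finrank_lev (k : ℕ) : Module.finrank K (lev K k) = 4 ^ k := by
  rw [kpa_lev_eq, kpa_finrank_on, Finset.card_range]

theorem kpa_finrank_mid (k l : ℕ) : Module.finrank K (mid K k l) = 4 ^ (l - k) := by
  rw [kpa_mid_eq, kpa_finrank_on, Nat.card_Ico]

instance kpa_fd_lev' (k : ℕ) : FiniteDimensional K (Subalgebra.toSubmodule (lev K k)) :=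
  kpa_fd_lev k

instance kpa_fd_mid' (k l : ℕ) : FiniteDimensional K (Subalgebra.toSubmodule (mid K k l)) :=
  kpa_fd_mid k l

theorem kpa_fd_of_le {k : ℕ} {V : Submodule K (QA K)} (h : V ≤ Subalgebra.toSubmodule (lev K k)) :
    FiniteDimensional K V := Submodule.finiteDimensional_of_le h

theorem kpa_fd_of_le' {k : ℕ} {B : Subalgebra K (QA K)} (h : B ≤ lev K k) :
    FiniteDimensional K B :=
  kpa_fd_of_le (V := Subalgebra.toSubmodule B) h

/-! ### inverses in finite-dimensional subalgebras -/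

theorem kpa_inv {B : Subalgebra K (QA K)} [FiniteDimensional K B] {u : QA K} (hu : u ∈ B)
    (hu0 : u ≠ 0) : ∃ v ∈ B, u * v = 1 ∧ v * u = 1 := by
  have hinj : Function.Injective (LinearMap.mulLeft K (⟨u, hu⟩ : B)) := by
    intro a b hab
    have h1 : u * (a : QA K) = u * (b : QA K) := congrArg Subtype.val hab
    exact Subtype.ext (mul_left_cancel₀ hu0 h1)
  obtain ⟨v, hv⟩ := (LinearMap.injective_iff_surjective.1 hinj) 1
  have h2 : u * (v : QA K) = 1 := congrArg Subtype.val hv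
  refine ⟨v, v.2, h2, ?_⟩
  have h3 : u * ((v : QA K) * u) = u * 1 := by rw [← mul_assoc, h2, one_mul, mul_one]
  exact mul_left_cancel₀ hu0 h3

theorem kpa_inv_lev {k : ℕ} {u : QA K} (hu : u ∈ lev K k) (hu0 : u ≠ 0) :
    ∃ v ∈ lev K k, u * v = 1 ∧ v * u = 1 := kpa_inv hu hu0

theorem kpa_exists_inv {u : QA K} (hu0 : u ≠ 0) : ∃ v : QA K, u * v = 1 ∧ v * u = 1 := by
  obtain ⟨k, hk⟩ := kpa_exists_lev u
  obtain ⟨v, -, h⟩ := kpa_inv_lev hk hu0
  exact ⟨v, h⟩

/-- if `v` is the inverse of `u ≠ 0` and `u` is in a finite-dimensional subalgebra then so is `v` -/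
theorem kpa_inv_mem {B : Subalgebra K (QA K)} [FiniteDimensional K B] {u v : QA K} (hu : u ∈ B)
    (huv : u * v = 1) : v ∈ B := by
  have hu0 : u ≠ 0 := by
    rintro rfl
    rw [zero_mul] at huv
    exact zero_ne_one huv
  obtain ⟨w, hw, h1, -⟩ := kpa_inv hu hu0
  have : v = w := mul_left_cancel₀ hu0 (huv.trans h1.symm)
  rw [this]
  exact hw

theorem kpa_mul_comm_inv {u v : QA K} (huv : u * v = 1) : v * u = 1 := by
  have hu0 : u ≠ 0 := by
    rintro rfl
    rw [zero_mul] at huv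
    exact zero_ne_one huv
  have h3 : u * (v * u) = u * 1 := by rw [← mul_assoc, huv, one_mul, mul_one]
  exact mul_left_cancel₀ hu0 h3

/-- the trace form is nondegenerate on finite-dimensional subalgebras -/
theorem kpa_sub_nondeg {B : Subalgebra K (QA K)} [FiniteDimensional K B] {u : QA K} (hu : u ∈ B)
    (h : ∀ d ∈ B, QA.tr (u * d) = 0) : u = 0 := by
  by_contra hu0
  obtain ⟨v, hv, h1, -⟩ := kpa_inv hu hu0
  have := h v hv
  rw [h1, kpa_tr_one] at this
  exact one_ne_zero this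

/-- trace form of a finite-dimensional subalgebra as a map to the dual -/
noncomputable def kpaForm (B : Subalgebra K (QA K)) : B →ₗ[K] Module.Dual K B :=
  LinearMap.mk₂ K (fun a b : B => QA.tr ((a : QA K) * (b : QA K)))
    (fun a a' b => by simp only [Subalgebra.coe_add, add_mul, map_add])
    (fun c a b => by simp only [Subalgebra.coe_smul, smul_mul_assoc, map_smul])
    (fun a b b' => by simp only [Subalgebra.coe_add, mul_add, map_add])
    (fun c a b => by simp only [Subalgebra.coe_smul, mul_smul_comm, map_smul])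

theorem kpaForm_apply (B : Subalgebra K (QA K)) (a b : B) :
    kpaForm B a b = QA.tr ((a : QA K) * (b : QA K)) := rfl

theorem kpaForm_inj (B : Subalgebra K (QA K)) [FiniteDimensional K B] :
    Function.Injective (kpaForm B) := by
  rw [injective_iff_map_eq_zero]
  intro a ha
  apply Subtype.ext
  refine kpa_sub_nondeg (B := B) a.2 fun d hd => ?_
  have := LinearMap.congr_fun ha ⟨d, hd⟩
  rw [kpaForm_apply] at this
  exact this

noncomputable def kpaFormE (B : Subalgebra K (QA K)) [FiniteDimensional K B] :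
    B ≃ₗ[K] Module.Dual K B :=
  LinearEquiv.ofInjectiveOfFinrankEq (kpaForm B) (kpaForm_inj B) Subspace.dual_finrank_eq.symm

/-- the functional `d ↦ tr (u d)` on `B` -/
noncomputable def kpaFun (B : Subalgebra K (QA K)) : QA K →ₗ[K] Module.Dual K B :=
  LinearMap.mk₂ K (fun (a : QA K) (b : B) => QA.tr (a * (b : QA K)))
    (fun a a' b => by simp only [add_mul, map_add])
    (fun c a b => by simp only [smul_mul_assoc, map_smul])
    (fun a b b' => by simp only [Subalgebra.coe_add, mul_add, map_add])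
    (fun c a b => by simp only [Subalgebra.coe_smul, mul_smul_comm, map_smul])

/-- the orthogonal projection onto a finite-dimensional subalgebra -/
theorem kpa_exists_proj (B : Subalgebra K (QA K)) [FiniteDimensional K B] :
    ∃ E : QA K →ₗ[K] QA K, ∀ u, E u ∈ B ∧ ∀ d ∈ B, QA.tr ((u - E u) * d) = 0 := by
  refine ⟨(Subalgebra.toSubmodule B).subtype.comp
    ((kpaFormE B).symm.toLinearMap.comp (kpaFun B)), fun u => ⟨Subtype.mem _, fun d hd => ?_⟩⟩
  have h1 : kpaFormE B ((kpaFormE B).symm (kpaFun B u)) = kpaFun B u :=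
    LinearEquiv.apply_symm_apply _ _
  have h2 := LinearMap.congr_fun h1 ⟨d, hd⟩
  have h3 : QA.tr ((((kpaFormE B).symm (kpaFun B u) : B) : QA K) * d) = QA.tr (u * d) := h2
  rw [sub_mul, map_sub, sub_eq_zero]
  exact h3.symm

/-- the centralizer of a set in `lev K k`, as a subalgebra -/
noncomputable def cenA (k : ℕ) (S : Set (QA K)) : Subalgebra K (QA K) :=
  lev K k ⊓ Subalgebra.centralizer K S

theorem mem_cenA {k : ℕ} {S : Set (QA K)} {u : QA K} :
    u ∈ cenA k S ↔ u ∈ lev K k ∧ ∀ φ ∈ S, u * φ = φ * u := by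
  unfold cenA
  rw [Algebra.mem_inf, Subalgebra.mem_centralizer_iff]
  exact and_congr Iff.rfl ⟨fun h φ hφ => (h φ hφ).symm, fun h φ hφ => (h φ hφ).symm⟩

theorem cenA_le (k : ℕ) (S : Set (QA K)) : cenA k S ≤ lev K k := inf_le_left

instance kpa_fd_cenA (k : ℕ) (S : Set (QA K)) : FiniteDimensional K (cenA k S) :=
  kpa_fd_of_le' (cenA_le k S)

theorem kpa_exists_Pr (k : ℕ) (S : Set (QA K)) :
    ∃ E : QA K →ₗ[K] QA K, ∀ u, E u ∈ lev K k ∧ (∀ φ ∈ S, E u * φ = φ * E u) ∧
      ∀ d ∈ lev K k, (∀ φ ∈ S, d * φ = φ * d) → QA.tr ((u - E u) * d) = 0 := by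
  obtain ⟨E, hE⟩ := kpa_exists_proj (cenA k S)
  refine ⟨E, fun u => ?_⟩
  obtain ⟨h1, h2⟩ := hE u
  rw [mem_cenA] at h1
  exact ⟨h1.1, h1.2, fun d hd hd' => h2 d (mem_cenA.2 ⟨hd, hd'⟩)⟩

end Crest.Agent.KP
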