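import Crest.Agent.KPA_Fin

/-!
# S0270, part (A): the conditional expectation `low k : QA → lev k` and the decomposition of
`lev l` over `lev k` (author helper26)

* `low k u` keeps the coefficients with indices `< k`; it is `lev k`-bilinear, the identity on
  `lev k`, and `tr (low k u * b) = tr (u * b)` for `b ∈ lev k`.
* `part k h u` (for `h` with indices `≥ k`) is the coefficient of `e h`:
  `u = ∑_{h ∈ midIdx k l} part k h u * e h` for `u ∈ lev l`.
-/

set_option autoImplicit false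
set_option linter.unusedSectionVars false
set_option linter.unusedSimpArgs false

open scoped PowerSeries LaurentSeries symmDiff

namespace Crest.Agent.KP

/-- all indices `< k` -/
def Below (k : ℕ) (g : Gp) : Prop := (∀ s ∈ g.1, s < k) ∧ ∀ s ∈ g.2, s < k

/-- all indices `≥ k` -/
def Above (k : ℕ) (g : Gp) : Prop := (∀ s ∈ g.1, k ≤ s) ∧ ∀ s ∈ g.2, k ≤ s

instance (k : ℕ) (g : Gp) : Decidable (Below k g) := inferInstanceAs (Decidable (_ ∧ _))
instance (k : ℕ) (g : Gp) : Decidable (Above k g) := inferInstanceAs (Decidable (_ ∧ _))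

theorem kpa_below_gx {k : ℕ} {g h : Gp} (hg : Below k g) (hh : Below k h) : Below k (gx g h) := by
  constructor
  · intro s hs
    have hs' : s ∈ g.1 ∆ h.1 := hs
    rw [Finset.mem_symmDiff] at hs'
    rcases hs' with h | h
    · exact hg.1 s h.1
    · exact hh.1 s h.1
  · intro s hs
    have hs' : s ∈ g.2 ∆ h.2 := hs
    rw [Finset.mem_symmDiff] at hs'
    rcases hs' with h | h
    · exact hg.2 s h.1
    · exact hh.2 s h.1

theorem kpa_above_gx {k : ℕ} {g h : Gp} (hg : Above k g) (hh : Above k h) : Above k (gx g h) := by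
  constructor
  · intro s hs
    have hs' : s ∈ g.1 ∆ h.1 := hs
    rw [Finset.mem_symmDiff] at hs'
    rcases hs' with h | h
    · exact hg.1 s h.1
    · exact hh.1 s h.1
  · intro s hs
    have hs' : s ∈ g.2 ∆ h.2 := hs
    rw [Finset.mem_symmDiff] at hs'
    rcases hs' with h | h
    · exact hg.2 s h.1
    · exact hh.2 s h.1

theorem kpa_below_gx_iff {k : ℕ} {g h : Gp} (hh : Below k h) : Below k (gx g h) ↔ Below k g := by
  constructor
  · intro H
    have := kpa_below_gx H hh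
    rwa [kpa_gx_cancel] at this
  · intro H
    exact kpa_below_gx H hh

theorem kpa_below_above {k : ℕ} {g : Gp} (h1 : Below k g) (h2 : Above k g) : g = (∅, ∅) := by
  apply Prod.ext
  · rw [Finset.eq_empty_iff_forall_notMem]
    intro s hs
    exact absurd (h1.1 s hs) (not_lt.2 (h2.1 s hs))
  · rw [Finset.eq_empty_iff_forall_notMem]
    intro s hs
    exact absurd (h1.2 s hs) (not_lt.2 (h2.2 s hs))

/-- part of the index below `k` -/
def loI (k : ℕ) (g : Gp) : Gp := (g.1.filter (· < k), g.2.filter (· < k))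
/-- part of the index above `k` -/
def hiI (k : ℕ) (g : Gp) : Gp := (g.1.filter (k ≤ ·), g.2.filter (k ≤ ·))

theorem kpa_below_lo (k : ℕ) (g : Gp) : Below k (loI k g) :=
  ⟨fun _ hs => (Finset.mem_filter.1 hs).2, fun _ hs => (Finset.mem_filter.1 hs).2⟩

theorem kpa_above_hi (k : ℕ) (g : Gp) : Above k (hiI k g) :=
  ⟨fun _ hs => (Finset.mem_filter.1 hs).2, fun _ hs => (Finset.mem_filter.1 hs).2⟩

theorem kpa_lo_hi (k : ℕ) (g : Gp) : gx (loI k g) (hiI k g) = g := by
  have h : ∀ a : Finset ℕ, (a.filter (· < k)) ∆ (a.filter (k ≤ ·)) = a := by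
    intro a
    ext s
    rw [Finset.mem_symmDiff, Finset.mem_filter, Finset.mem_filter]
    by_cases h1 : s ∈ a <;> by_cases h2 : s < k
    · simp [h1, h2]
    · simp [h1, h2, not_lt.1 h2]
    · simp [h1]
    · simp [h1]
  exact Prod.ext (h g.1) (h g.2)

section
variable {R : Type} [CommRing R]

open Classical in
/-- conditional expectation onto `lev k` -/
noncomputable def low (k : ℕ) : QA R →ₗ[R] QA R where
  toFun u := (Finsupp.filter (Below k) (u : Gp →₀ R) : Gp →₀ R)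
  map_add' _ _ := Finsupp.filter_add
  map_smul' _ _ := Finsupp.filter_smul

theorem kpa_filter_apply (k : ℕ) (u : Gp →₀ R) (g : Gp) (I : DecidablePred (Below k)) :
    (Finsupp.filter (Below k) u : Gp →₀ R) g = if Below k g then u g else 0 := by
  rw [Finsupp.filter_apply]

theorem kpa_low_apply (k : ℕ) (u : QA R) (g : Gp) :
    low k u g = if Below k g then u g else 0 := kpa_filter_apply k u g _

theorem kpa_low_ec (k : ℕ) (g : Gp) (x : R) :
    low k (QA.ec g x) = if Below k g then QA.ec g x else 0 := by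
  apply QA.q_ext
  intro h
  rw [kpa_low_apply]
  by_cases H : Below k g
  · rw [if_pos H, QA.ec_apply]
    by_cases H2 : g = h
    · subst H2; rw [if_pos H]
    · rw [if_neg H2, ite_self]
  · rw [if_neg H, QA.ec_apply, QA.q_zero_apply]
    by_cases H2 : g = h
    · subst H2; rw [if_neg H]
    · rw [if_neg H2, ite_self]

theorem kpa_low_e_of_not (k : ℕ) {g : Gp} (h : ¬ Below k g) : low k (QA.e g : QA R) = 0 := by
  rw [QA.e_eq_ec, kpa_low_ec, if_neg h]

theorem kpa_cast_below {k : ℕ} {u : QA R} : (∀ g : Gp, u g ≠ 0 → Below k g) ↔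
    ∀ g : Gp, u g ≠ 0 → (∀ s ∈ g.1, s < k) ∧ ∀ s ∈ g.2, s < k := Iff.rfl

variable [QPar R]

theorem kpa_low_mem (k : ℕ) (u : QA R) : low k u ∈ lev R k := by
  rw [kpa_mem_lev]
  intro g hg
  rw [kpa_low_apply] at hg
  by_contra H
  have H' : ¬ Below k g := H
  rw [if_neg H'] at hg
  exact hg rfl

theorem kpa_low_of_mem {k : ℕ} {u : QA R} (hu : u ∈ lev R k) : low k u = u := by
  apply QA.q_ext
  intro g
  rw [kpa_low_apply]
  split_ifs with H
  · rfl
  · by_contra h
    exact H (kpa_mem_lev.1 hu g (Ne.symm h))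

theorem kpa_mem_lev_iff_low {k : ℕ} {u : QA R} : u ∈ lev R k ↔ low k u = u :=
  ⟨kpa_low_of_mem, fun h => h ▸ kpa_low_mem k u⟩

theorem kpa_low_mul {k : ℕ} (u : QA R) {b : QA R} (hb : b ∈ lev R k) :
    low k (u * b) = low k u * b := by
  induction u using QA.qinduction with
  | h0 => rw [zero_mul, map_zero, zero_mul]
  | hadd u u' h h' => rw [add_mul, map_add, map_add, add_mul, h, h']
  | hec g x =>
    refine kpa_on_induction
      (p := fun b => low k (QA.ec g x * b) = low k (QA.ec g x) * b) hb ?_ ?_ ?_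
    · rw [mul_zero, map_zero, mul_zero]
    · intro a b ha hb
      rw [mul_add, map_add, mul_add, ha, hb]
    · intro h y h1 h2
      have hh : Below k h := ⟨h1, h2⟩
      rw [QA.ec_mul_ec, kpa_low_ec, kpa_low_ec]
      by_cases H : Below k g
      · rw [if_pos H, if_pos ((kpa_below_gx_iff hh).2 H), QA.ec_mul_ec]
      · rw [if_neg H, if_neg (fun H' => H ((kpa_below_gx_iff hh).1 H')), zero_mul]

theorem kpa_mul_low {k : ℕ} (u : QA R) {b : QA R} (hb : b ∈ lev R k) :
    low k (b * u) = b * low k u := by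
  induction u using QA.qinduction with
  | h0 => rw [mul_zero, map_zero, mul_zero]
  | hadd u u' h h' => rw [mul_add, map_add, map_add, mul_add, h, h']
  | hec g x =>
    refine kpa_on_induction
      (p := fun b => low k (b * QA.ec g x) = b * low k (QA.ec g x)) hb ?_ ?_ ?_
    · rw [zero_mul, map_zero, zero_mul]
    · intro a b ha hb
      rw [add_mul, map_add, add_mul, ha, hb]
    · intro h y h1 h2
      have hh : Below k h := ⟨h1, h2⟩
      rw [QA.ec_mul_ec, kpa_low_ec, kpa_low_ec, kpa_gx_comm]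
      by_cases H : Below k g
      · rw [if_pos H, if_pos ((kpa_below_gx_iff hh).2 H), QA.ec_mul_ec, kpa_gx_comm g h]
      · rw [if_neg H, if_neg (fun H' => H ((kpa_below_gx_iff hh).1 H')), mul_zero]

theorem kpa_tr_low (k : ℕ) (u : QA R) : QA.tr (low k u) = QA.tr u := by
  rw [kpa_tr_apply, kpa_tr_apply, kpa_low_apply, if_pos]
  exact ⟨fun s hs => absurd hs (Finset.notMem_empty s), fun s hs => absurd hs (Finset.notMem_empty s)⟩

theorem kpa_tr_low_mul {k : ℕ} (u : QA R) {b : QA R} (hb : b ∈ lev R k) :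
    QA.tr (low k u * b) = QA.tr (u * b) := by
  rw [← kpa_low_mul u hb, kpa_tr_low]

/-- `low k u = tr u` on `mid k l` -/
theorem kpa_low_mid {k l : ℕ} {u : QA R} (hu : u ∈ mid R k l) : low k u = QA.tr u • 1 := by
  refine kpa_on_induction (p := fun u => low k u = QA.tr u • (1 : QA R)) hu ?_ ?_ ?_
  · rw [map_zero, map_zero, zero_smul]
  · intro a b ha hb
    rw [map_add, map_add, add_smul, ha, hb]
  · intro g x h1 h2
    rw [kpa_low_ec, kpa_tr_ec]
    by_cases H : Below k g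
    · have : g = (∅, ∅) := kpa_below_above H ⟨fun s hs => (h1 s hs).1, fun s hs => (h2 s hs).1⟩
      subst this
      rw [if_pos H, if_pos rfl, QA.one_def', QA.smul_ec, mul_one]
    · have : g ≠ (∅, ∅) := by
        rintro rfl
        exact H ⟨fun s hs => absurd hs (Finset.notMem_empty s),
          fun s hs => absurd hs (Finset.notMem_empty s)⟩
      rw [if_neg H, if_neg this, zero_smul]

/-- `low k (b e) = tr(e) b` -/
theorem kpa_low_lev_mid {k l : ℕ} {b e : QA R} (hb : b ∈ lev R k) (he : e ∈ mid R k l) :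
    low k (b * e) = QA.tr e • b := by
  rw [kpa_mul_low e hb, kpa_low_mid he, mul_smul_comm, mul_one]

theorem kpa_coc_lo_hi (k : ℕ) {g h : Gp} (hg : Below k g) (hh : Above k h) : coc R g h = 1 := by
  have hd : ∀ a b : Finset ℕ, (∀ s ∈ a, s < k) → (∀ s ∈ b, k ≤ s) → a ∩ b = ∅ := by
    intro a b ha hb
    rw [Finset.eq_empty_iff_forall_notMem]
    intro s hs
    rw [Finset.mem_inter] at hs
    exact absurd (ha s hs.1) (not_lt.2 (hb s hs.2))
  simp only [coc, hd g.1 h.1 hg.1 hh.1, hd g.2 h.2 hg.2 hh.2, hd g.2 h.1 hg.2 hh.1]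
  simp

theorem kpa_e_lo_hi (k : ℕ) (g : Gp) :
    (QA.e g : QA R) = QA.e (loI k g) * QA.e (hiI k g) := by
  rw [kpa_e_mul_e, kpa_coc_lo_hi k (kpa_below_lo k g) (kpa_above_hi k g), one_smul, kpa_lo_hi]

theorem kpa_e_mid {k l : ℕ} {h : Gp} (h1 : Above k h) (h2 : Below l h) :
    (QA.e h : QA R) ∈ mid R k l :=
  kpa_ec_mem_mid (fun s hs => ⟨h1.1 s hs, h2.1 s hs⟩) (fun s hs => ⟨h1.2 s hs, h2.2 s hs⟩) 1

/-- index set of the basis of `mid k l` -/
def midIdx (k l : ℕ) : Finset Gp := (Finset.Ico k l).powerset ×ˢ (Finset.Ico k l).powerset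

theorem kpa_mem_midIdx {k l : ℕ} {h : Gp} : h ∈ midIdx k l ↔ Above k h ∧ Below l h := by
  unfold midIdx Above Below
  rw [Finset.mem_product, Finset.mem_powerset, Finset.mem_powerset]
  simp only [Finset.subset_iff, Finset.mem_Ico]
  constructor
  · rintro ⟨h1, h2⟩
    exact ⟨⟨fun s hs => (h1 hs).1, fun s hs => (h2 hs).1⟩,
      fun s hs => (h1 hs).2, fun s hs => (h2 hs).2⟩
  · rintro ⟨⟨h1, h2⟩, h3, h4⟩
    exact ⟨fun s hs => ⟨h1 s hs, h3 s hs⟩, fun s hs => ⟨h2 s hs, h4 s hs⟩⟩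

theorem kpa_card_midIdx (k l : ℕ) : (midIdx k l).card = 4 ^ (l - k) := by
  unfold midIdx
  rw [Finset.card_product, Finset.card_powerset, Nat.card_Ico, ← mul_pow]
  norm_num

theorem kpa_low_e_mul_e {k : ℕ} {h h' : Gp} (hh : Above k h) (hh' : Above k h') :
    low k ((QA.e h' : QA R) * QA.e h) = if h' = h then coc R h h • 1 else 0 := by
  rw [kpa_e_mul_e, map_smul, QA.e_eq_ec, kpa_low_ec]
  by_cases H : h' = h
  · subst H
    have : Below k (gx h' h') := by
      rw [kpa_gx_self]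
      exact ⟨fun s hs => absurd hs (Finset.notMem_empty s),
          fun s hs => absurd hs (Finset.notMem_empty s)⟩
    rw [if_pos this, if_pos rfl, kpa_gx_self, ← QA.one_def']
  · rw [if_neg H, if_neg, smul_zero]
    intro H2
    exact H ((kpa_gx_eq_one_iff h' h).1 (kpa_below_above H2 (kpa_above_gx hh' hh)))

end

section
variable {K : Type} [Field K] [KF K]

/-- coefficient of `e h` (`h` above `k`) of an element, in `lev k` -/
noncomputable def part (k : ℕ) (h : Gp) : QA K →ₗ[K] QA K :=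
  (coc K h h)⁻¹ • (low k).comp (LinearMap.mulRight K (QA.e h))

theorem kpa_part_apply (k : ℕ) (h : Gp) (u : QA K) :
    part k h u = (coc K h h)⁻¹ • low k (u * QA.e h) := rfl

theorem kpa_part_mem (k : ℕ) (h : Gp) (u : QA K) : part k h u ∈ lev K k :=
  Subalgebra.smul_mem _ (kpa_low_mem k _) _

theorem kpa_part_mul_e {k : ℕ} {h h' : Gp} (hh : Above k h) (hh' : Above k h') {b : QA K}
    (hb : b ∈ lev K k) : part k h (b * QA.e h') = if h' = h then b else 0 := by
  rw [kpa_part_apply, mul_assoc, kpa_mul_low _ hb, kpa_low_e_mul_e hh hh']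
  split_ifs with H
  · rw [mul_smul_comm, smul_smul, inv_mul_cancel₀ (kpa_coc_ne h h), one_smul, mul_one]
  · rw [mul_zero, smul_zero]

theorem kpa_part_mul_left {k : ℕ} {h : Gp} {b : QA K} (hb : b ∈ lev K k) (u : QA K) :
    part k h (b * u) = b * part k h u := by
  rw [kpa_part_apply, kpa_part_apply, mul_assoc, kpa_mul_low _ hb, mul_smul_comm]

theorem kpa_e_comm_lev {k : ℕ} {h : Gp} (hh : Above k h) {b : QA K}
    (hb : b ∈ lev K k) : QA.e h * b = b * QA.e h := by
  obtain ⟨l, hl⟩ := kpa_exists_lev (QA.e h : QA K)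
  have h0 : (QA.e h : QA K) ∈ mid K k l := by
    have h1 : (QA.e h : QA K) h ≠ 0 := by
      rw [QA.e_eq_ec, QA.ec_apply, if_pos rfl]; exact one_ne_zero
    have h2 := kpa_mem_lev.1 hl h h1
    exact kpa_e_mid hh h2
  exact (kpa_lev_mid_comm hb h0).symm

theorem kpa_part_mul_right {k : ℕ} {h : Gp} (hh : Above k h) {b : QA K} (hb : b ∈ lev K k)
    (u : QA K) : part k h (u * b) = part k h u * b := by
  rw [kpa_part_apply, kpa_part_apply, mul_assoc, ← kpa_e_comm_lev hh hb, ← mul_assoc,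
    kpa_low_mul _ hb, smul_mul_assoc]

/-- the decomposition of `lev l` over `lev k` -/
theorem kpa_dec {k l : ℕ} {u : QA K} (hu : u ∈ lev K l) :
    u = ∑ h ∈ midIdx k l, part k h u * QA.e h := by
  classical
  refine kpa_on_induction
    (p := fun u => u = ∑ h ∈ midIdx k l, part k h u * QA.e h) hu ?_ ?_ ?_
  · refine (Finset.sum_eq_zero fun h _ => ?_).symm
    rw [map_zero, zero_mul]
  · intro a b ha hb
    simp only [map_add, add_mul]
    rw [Finset.sum_add_distrib, ← ha, ← hb]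
  · intro g x h1 h2
    have e1 : (QA.ec g x : QA K) = (x • QA.e (loI k g)) * QA.e (hiI k g) := by
      rw [smul_mul_assoc, ← kpa_e_lo_hi, QA.e_eq_ec, QA.smul_ec, mul_one]
    have e2 : (x • QA.e (loI k g) : QA K) ∈ lev K k :=
      Subalgebra.smul_mem _ (kpa_e_mem_lev (kpa_below_lo k g).1 (kpa_below_lo k g).2) _
    have e3 : hiI k g ∈ midIdx k l := by
      rw [kpa_mem_midIdx]
      exact ⟨kpa_above_hi k g, fun s hs => h1 s (Finset.mem_filter.1 hs).1,
        fun s hs => h2 s (Finset.mem_filter.1 hs).1⟩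
    rw [e1, Finset.sum_eq_single (hiI k g)]
    · rw [kpa_part_mul_e (kpa_above_hi k g) (kpa_above_hi k g) e2, if_pos rfl]
    · intro h hh hne
      rw [kpa_part_mul_e (kpa_mem_midIdx.1 hh).1 (kpa_above_hi k g) e2, if_neg (Ne.symm hne),
        zero_mul]
    · intro hn
      exact absurd e3 hn

/-- uniqueness: `part` of a sum -/
theorem kpa_part_sum {k l : ℕ} {b : Gp → QA K} (hb : ∀ h ∈ midIdx k l, b h ∈ lev K k) {h : Gp}
    (hh : h ∈ midIdx k l) : part k h (∑ h' ∈ midIdx k l, b h' * QA.e h') = b h := by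
  classical
  rw [map_sum, Finset.sum_eq_single h]
  · rw [kpa_part_mul_e (kpa_mem_midIdx.1 hh).1 (kpa_mem_midIdx.1 hh).1 (hb h hh), if_pos rfl]
  · intro h' hh' hne
    rw [kpa_part_mul_e (kpa_mem_midIdx.1 hh).1 (kpa_mem_midIdx.1 hh').1 (hb h' hh'), if_neg hne]
  · intro hn
    exact absurd hh hn

theorem kpa_dec_unique {k l : ℕ} {b b' : Gp → QA K} (hb : ∀ h ∈ midIdx k l, b h ∈ lev K k)
    (hb' : ∀ h ∈ midIdx k l, b' h ∈ lev K k)
    (H : ∑ h ∈ midIdx k l, b h * QA.e h = ∑ h ∈ midIdx k l, b' h * QA.e h) :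
    ∀ h ∈ midIdx k l, b h = b' h := by
  intro h hh
  rw [← kpa_part_sum hb hh, ← kpa_part_sum hb' hh, H]

theorem kpa_sum_mem_lev {k l : ℕ} (hkl : k ≤ l) {b : Gp → QA K}
    (hb : ∀ h ∈ midIdx k l, b h ∈ lev K k) : ∑ h ∈ midIdx k l, b h * QA.e h ∈ lev K l :=
  Subalgebra.sum_mem _ fun h hh => Subalgebra.mul_mem _ (kpa_lev_mono hkl (hb h hh))
    (kpa_mid_le_lev k l (kpa_e_mid (kpa_mem_midIdx.1 hh).1 (kpa_mem_midIdx.1 hh).2))

/-- trace of a product in terms of the parts -/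
theorem kpa_tr_mul_parts {k l : ℕ} {u v : QA K} (hu : u ∈ lev K l) (hv : v ∈ lev K l) :
    QA.tr (u * v) = ∑ h ∈ midIdx k l, coc K h h * QA.tr (part k h u * part k h v) := by
  classical
  have h1 : u * v = ∑ h ∈ midIdx k l, ∑ h' ∈ midIdx k l,
      (part k h u * part k h' v) * (QA.e h * QA.e h') := by
    conv_lhs => rw [kpa_dec (k := k) hu, kpa_dec (k := k) hv]
    rw [Finset.sum_mul_sum]
    refine Finset.sum_congr rfl fun h hh => Finset.sum_congr rfl fun h' hh' => ?_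
    rw [mul_assoc, ← mul_assoc (QA.e h), kpa_e_comm_lev (kpa_mem_midIdx.1 hh).1
      (kpa_part_mem k h' v)]
    simp only [mul_assoc]
  rw [h1, map_sum]
  refine Finset.sum_congr rfl fun h hh => ?_
  rw [map_sum, Finset.sum_eq_single h]
  · rw [← kpa_tr_low k, kpa_mul_low _ (Subalgebra.mul_mem _ (kpa_part_mem k h u)
      (kpa_part_mem k h v)), kpa_low_e_mul_e (kpa_mem_midIdx.1 hh).1 (kpa_mem_midIdx.1 hh).1,
      if_pos rfl, mul_smul_comm, mul_one, map_smul, smul_eq_mul]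
  · intro h' hh' hne
    rw [← kpa_tr_low k, kpa_mul_low _ (Subalgebra.mul_mem _ (kpa_part_mem k h u)
      (kpa_part_mem k h' v)), kpa_low_e_mul_e (kpa_mem_midIdx.1 hh').1 (kpa_mem_midIdx.1 hh).1,
      if_neg (Ne.symm hne), mul_zero, map_zero]
  · intro hn
    exact absurd hh hn

/-- `u` commutes with `b ∈ lev k` iff all parts do -/
theorem kpa_comm_iff_parts {k l : ℕ} {u b : QA K} (hu : u ∈ lev K l) (hb : b ∈ lev K k) :
    u * b = b * u ↔ ∀ h ∈ midIdx k l, part k h u * b = b * part k h u := by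
  constructor
  · intro H h hh
    rw [← kpa_part_mul_right (kpa_mem_midIdx.1 hh).1 hb, ← kpa_part_mul_left hb, H]
  · intro H
    conv_lhs => rw [kpa_dec (k := k) hu]
    conv_rhs => rw [kpa_dec (k := k) hu]
    rw [Finset.sum_mul, Finset.mul_sum]
    refine Finset.sum_congr rfl fun h hh => ?_
    rw [mul_assoc, kpa_e_comm_lev (kpa_mem_midIdx.1 hh).1 hb, ← mul_assoc, H h hh, mul_assoc]

end

/-! ### one step `lev (k+1) = lev k ⊕ lev k S1 ⊕ lev k S2 ⊕ lev k S3` -/

section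
variable {K : Type} [Field K] [KF K]

/-- coordinates over `lev k` of an element of `lev (k+1)` -/
noncomputable def c0 (k : ℕ) : QA K →ₗ[K] QA K := low k
noncomputable def c1 (k : ℕ) : QA K →ₗ[K] QA K := part k ({k}, ∅)
noncomputable def c2 (k : ℕ) : QA K →ₗ[K] QA K := part k (∅, {k})
noncomputable def c3 (k : ℕ) : QA K →ₗ[K] QA K := part k ({k}, {k})

theorem kpa_above_S (k : ℕ) : Above k ((∅, ∅) : Gp) ∧ Above k (({k}, ∅) : Gp) ∧
    Above k ((∅, {k}) : Gp) ∧ Above k (({k}, {k}) : Gp) := by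
  refine ⟨⟨?_, ?_⟩, ⟨?_, ?_⟩, ⟨?_, ?_⟩, ⟨?_, ?_⟩⟩ <;> simp

theorem kpa_part_one (k : ℕ) (u : QA K) : part k (∅, ∅) u = low k u := by
  rw [kpa_part_apply, ← QA.one_def, mul_one]
  simp [coc]

theorem kpa_c0_mem (k : ℕ) (u : QA K) : c0 k u ∈ lev K k := kpa_low_mem k u
theorem kpa_c1_mem (k : ℕ) (u : QA K) : c1 k u ∈ lev K k := kpa_part_mem k _ u
theorem kpa_c2_mem (k : ℕ) (u : QA K) : c2 k u ∈ lev K k := kpa_part_mem k _ u
theorem kpa_c3_mem (k : ℕ) (u : QA K) : c3 k u ∈ lev K k := kpa_part_mem k _ u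

theorem kpa_midIdx_succ (k : ℕ) : midIdx k (k + 1) =
    {(∅, ∅), ({k}, ∅), (∅, {k}), ({k}, {k})} := by
  ext h
  rw [kpa_mem_midIdx]
  simp only [Finset.mem_insert, Finset.mem_singleton]
  constructor
  · rintro ⟨⟨h1, h2⟩, h3, h4⟩
    have key : ∀ a : Finset ℕ, (∀ s ∈ a, k ≤ s) → (∀ s ∈ a, s < k + 1) → a = ∅ ∨ a = {k} := by
      intro a ha hb
      rw [← Finset.subset_singleton_iff]
      intro s hs
      rw [Finset.mem_singleton]
      exact le_antisymm (Nat.lt_succ_iff.1 (hb s hs)) (ha s hs)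
    rcases key h.1 h1 h3 with e1 | e1 <;> rcases key h.2 h2 h4 with e2 | e2
    · left; exact Prod.ext e1 e2
    · right; right; left; exact Prod.ext e1 e2
    · right; left; exact Prod.ext e1 e2
    · right; right; right; exact Prod.ext e1 e2
  · rintro (rfl | rfl | rfl | rfl) <;> simp [Above, Below]

theorem kpa_sum_midIdx_succ {M : Type} [AddCommMonoid M] (k : ℕ) (f : Gp → M) :
    ∑ h ∈ midIdx k (k + 1), f h =
      f (∅, ∅) + f ({k}, ∅) + f (∅, {k}) + f ({k}, {k}) := by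
  rw [kpa_midIdx_succ]
  rw [Finset.sum_insert, Finset.sum_insert, Finset.sum_insert, Finset.sum_singleton]
  · simp only [add_assoc]
  · simp
  · simp [Prod.ext_iff]
  · simp [Prod.ext_iff]

/-- decomposition of `lev (k+1)` -/
theorem kpa_dec1 {k : ℕ} {u : QA K} (hu : u ∈ lev K (k + 1)) :
    u = c0 k u + c1 k u * S1 k + c2 k u * S2 k + c3 k u * S3 k := by
  have := kpa_dec (k := k) hu
  rw [kpa_sum_midIdx_succ, kpa_part_one, ← QA.one_def, mul_one] at this
  exact this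

section comb
variable {k : ℕ} {a0 a1 a2 a3 : QA K}

theorem kpa_c0_comb (h0 : a0 ∈ lev K k) (h1 : a1 ∈ lev K k) (h2 : a2 ∈ lev K k)
    (h3 : a3 ∈ lev K k) : c0 k (a0 + a1 * S1 k + a2 * S2 k + a3 * S3 k) = a0 := by
  have e : ∀ h : Gp, Above k h → h ≠ (∅, ∅) → ∀ a ∈ lev K k, low k (a * QA.e h) = 0 := by
    intro h hh hne a ha
    rw [kpa_mul_low _ ha, kpa_low_e_of_not k (fun H => hne (kpa_below_above H hh)), mul_zero]
  obtain ⟨-, A1, A2, A3⟩ := kpa_above_S k
  unfold c0 S1 S2 S3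
  rw [map_add, map_add, map_add, kpa_low_of_mem h0, e _ A1 (by simp) _ h1, e _ A2 (by simp) _ h2,
    e _ A3 (by simp) _ h3, add_zero, add_zero, add_zero]

theorem kpa_c1_comb (h0 : a0 ∈ lev K k) (h1 : a1 ∈ lev K k) (h2 : a2 ∈ lev K k)
    (h3 : a3 ∈ lev K k) : c1 k (a0 + a1 * S1 k + a2 * S2 k + a3 * S3 k) = a1 := by
  obtain ⟨A0, A1, A2, A3⟩ := kpa_above_S k
  have e0 : a0 = a0 * QA.e (∅, ∅) := by rw [← QA.one_def, mul_one]
  unfold c1 S1 S2 S3
  rw [map_add, map_add, map_add, e0, kpa_part_mul_e A1 A0 h0, kpa_part_mul_e A1 A1 h1,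
    kpa_part_mul_e A1 A2 h2, kpa_part_mul_e A1 A3 h3]
  simp

theorem kpa_c2_comb (h0 : a0 ∈ lev K k) (h1 : a1 ∈ lev K k) (h2 : a2 ∈ lev K k)
    (h3 : a3 ∈ lev K k) : c2 k (a0 + a1 * S1 k + a2 * S2 k + a3 * S3 k) = a2 := by
  obtain ⟨A0, A1, A2, A3⟩ := kpa_above_S k
  have e0 : a0 = a0 * QA.e (∅, ∅) := by rw [← QA.one_def, mul_one]
  unfold c2 S1 S2 S3
  rw [map_add, map_add, map_add, e0, kpa_part_mul_e A2 A0 h0, kpa_part_mul_e A2 A1 h1,
    kpa_part_mul_e A2 A2 h2, kpa_part_mul_e A2 A3 h3]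
  simp

theorem kpa_c3_comb (h0 : a0 ∈ lev K k) (h1 : a1 ∈ lev K k) (h2 : a2 ∈ lev K k)
    (h3 : a3 ∈ lev K k) : c3 k (a0 + a1 * S1 k + a2 * S2 k + a3 * S3 k) = a3 := by
  obtain ⟨A0, A1, A2, A3⟩ := kpa_above_S k
  have e0 : a0 = a0 * QA.e (∅, ∅) := by rw [← QA.one_def, mul_one]
  unfold c3 S1 S2 S3
  rw [map_add, map_add, map_add, e0, kpa_part_mul_e A3 A0 h0, kpa_part_mul_e A3 A1 h1,
    kpa_part_mul_e A3 A2 h2, kpa_part_mul_e A3 A3 h3]
  simp

theorem kpa_comb_eq_zero (h0 : a0 ∈ lev K k) (h1 : a1 ∈ lev K k) (h2 : a2 ∈ lev K k)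
    (h3 : a3 ∈ lev K k) (H : a0 + a1 * S1 k + a2 * S2 k + a3 * S3 k = 0) :
    a0 = 0 ∧ a1 = 0 ∧ a2 = 0 ∧ a3 = 0 := by
  refine ⟨?_, ?_, ?_, ?_⟩
  · rw [← kpa_c0_comb h0 h1 h2 h3, H, map_zero]
  · rw [← kpa_c1_comb h0 h1 h2 h3, H, map_zero]
  · rw [← kpa_c2_comb h0 h1 h2 h3, H, map_zero]
  · rw [← kpa_c3_comb h0 h1 h2 h3, H, map_zero]

end comb

/-- trace form on `lev (k+1)` -/
theorem kpa_tr_mul_succ {k : ℕ} {u v : QA K} (hu : u ∈ lev K (k + 1)) (hv : v ∈ lev K (k + 1)) :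
    QA.tr (u * v) = QA.tr (c0 k u * c0 k v) + al k * QA.tr (c1 k u * c1 k v) +
      be k * QA.tr (c2 k u * c2 k v) - al k * be k * QA.tr (c3 k u * c3 k v) := by
  rw [kpa_tr_mul_parts (k := k) hu hv, kpa_sum_midIdx_succ, kpa_part_one, kpa_part_one]
  unfold c0 c1 c2 c3
  have e0 : coc K (∅, ∅) (∅, ∅) = 1 := by simp [coc]
  have e1 : coc K ({k}, ∅) ({k}, ∅) = al k := by simp [coc]
  have e2 : coc K (∅, {k}) (∅, {k}) = be k := by simp [coc]
  have e3 : coc K ({k}, {k}) ({k}, {k}) = -(al k * be k) := by simp [coc]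
  rw [e0, e1, e2, e3]
  ring

end

end Crest.Agent.KP
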