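import Mathlib

/-!
# S0270 : Laurent series facts used for the Laurent place  (author helper93)
-/

set_option autoImplicit false
set_option linter.unusedSectionVars false

open scoped PowerSeries LaurentSeries

namespace Crest.Agent.KP

section Laurent
variable {K : Type} [Field K]

theorem kpr_algMap_coeff_nat (f : K⟦X⟧) (n : ℕ) :
    HahnSeries.coeff (algebraMap K⟦X⟧ K⸨X⸩ f) (n : ℤ) = PowerSeries.coeff n f := by
  rw [LaurentSeries.coe_algebraMap, LaurentSeries.coeff_coe_powerSeries]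

theorem kpr_algMap_coeff_neg (f : K⟦X⟧) (n : ℤ) (hn : n < 0) :
    HahnSeries.coeff (algebraMap K⟦X⟧ K⸨X⸩ f) n = 0 := by
  rw [LaurentSeries.coe_algebraMap, PowerSeries.coeff_coe, if_pos hn]

theorem kpr_algMap_coeff_zero (f : K⟦X⟧) :
    HahnSeries.coeff (algebraMap K⟦X⟧ K⸨X⸩ f) (0 : ℤ) = PowerSeries.constantCoeff f := by
  have := kpr_algMap_coeff_nat f 0
  rw [PowerSeries.coeff_zero_eq_constantCoeff] at this
  exact_mod_cast this

theorem kpr_algMap_inj : Function.Injective (algebraMap K⟦X⟧ K⸨X⸩) := by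
  intro f g h
  ext n
  rw [← kpr_algMap_coeff_nat, ← kpr_algMap_coeff_nat, h]

/-- a Laurent series is a power series iff its negative coefficients vanish -/
theorem kpr_mem_range_iff (b : K⸨X⸩) :
    (∃ f : K⟦X⟧, algebraMap K⟦X⟧ K⸨X⸩ f = b) ↔
      ∀ n : ℤ, n < 0 → HahnSeries.coeff b n = 0 := by
  constructor
  · rintro ⟨f, rfl⟩ n hn
    exact kpr_algMap_coeff_neg f n hn
  · intro h
    refine ⟨PowerSeries.mk fun n => HahnSeries.coeff b (n : ℤ), ?_⟩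
    ext n
    rcases lt_or_ge n 0 with hn | hn
    · rw [kpr_algMap_coeff_neg _ _ hn, h n hn]
    · obtain ⟨m, rfl⟩ := Int.eq_ofNat_of_zero_le hn
      rw [kpr_algMap_coeff_nat, PowerSeries.coeff_mk]

theorem kpr_algMap_algMap (a : K) :
    algebraMap K⟦X⟧ K⸨X⸩ (algebraMap K K⟦X⟧ a) = algebraMap K K⸨X⸩ a := by
  rw [LaurentSeries.algebraMap_apply, LaurentSeries.coe_algebraMap, PowerSeries.algebraMap_apply]
  exact HahnSeries.ofPowerSeries_C _

/-- inverse of a Laurent series which is not a power series -/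
theorem kpr_inv_not_range (b : K⸨X⸩) (hb : ¬ ∃ f : K⟦X⟧, algebraMap K⟦X⟧ K⸨X⸩ f = b) :
    ∃ f : K⟦X⟧, PowerSeries.constantCoeff f = 0 ∧ algebraMap K⟦X⟧ K⸨X⸩ f = b⁻¹ := by
  have hb0 : b ≠ 0 := by
    rintro rfl
    exact hb ⟨0, map_zero _⟩
  have hord : b.order < 0 := by
    by_contra hcon
    apply hb
    rw [kpr_mem_range_iff]
    intro n hn
    by_contra hne
    have := HahnSeries.order_le_of_coeff_ne_zero hne
    omega
  obtain ⟨m, hm⟩ := Int.exists_eq_neg_ofNat hord.le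
  have hm0 : m ≠ 0 := by
    rintro rfl
    simp at hm
    omega
  set φ := b.powerSeriesPart with hφ
  have hφ0 : PowerSeries.constantCoeff φ ≠ 0 := by
    rw [← PowerSeries.coeff_zero_eq_constantCoeff_apply, hφ, LaurentSeries.powerSeriesPart_coeff]
    simp only [Nat.cast_zero, add_zero]
    exact fun h => hb0 (HahnSeries.coeff_order_eq_zero.1 h)
  have h1 : (algebraMap K⟦X⟧ K⸨X⸩ φ) = HahnSeries.single (m : ℤ) 1 * b := by
    have := LaurentSeries.ofPowerSeries_powerSeriesPart b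
    rw [hm, neg_neg] at this
    exact this
  refine ⟨PowerSeries.X ^ m * φ⁻¹, ?_, ?_⟩
  · rw [map_mul, map_pow, PowerSeries.constantCoeff_X, zero_pow hm0, zero_mul]
  · have hX : algebraMap K⟦X⟧ K⸨X⸩ (PowerSeries.X ^ m) = HahnSeries.single (m : ℤ) 1 := by
      rw [map_pow, LaurentSeries.coe_algebraMap, PowerSeries.coe_X]
      rw [HahnSeries.single_pow]
      simp
    have h2 : algebraMap K⟦X⟧ K⸨X⸩ (PowerSeries.X ^ m * φ⁻¹) * b = 1 := by
      rw [map_mul, hX, mul_assoc, mul_comm _ b, ← mul_assoc, ← h1, ← map_mul,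
        PowerSeries.mul_inv_cancel φ hφ0, map_one]
    exact eq_inv_of_mul_eq_one_left h2

theorem kpr_lau_mul_mem (a b : K⸨X⸩) (ha : ∀ n : ℤ, n < 0 → HahnSeries.coeff a n = 0)
    (hb : ∀ n : ℤ, n < 0 → HahnSeries.coeff b n = 0) :
    ∀ n : ℤ, n < 0 → HahnSeries.coeff (a * b) n = 0 := by
  rw [← kpr_mem_range_iff] at *
  obtain ⟨f, rfl⟩ := ha
  obtain ⟨g, rfl⟩ := hb
  exact ⟨f * g, map_mul _ _ _⟩

theorem kpr_lau_one_mem : ∀ n : ℤ, n < 0 → HahnSeries.coeff (1 : K⸨X⸩) n = 0 := by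
  rw [← kpr_mem_range_iff]
  exact ⟨1, map_one _⟩

theorem kpr_lau_add_mem (a b : K⸨X⸩) (ha : ∀ n : ℤ, n < 0 → HahnSeries.coeff a n = 0)
    (hb : ∀ n : ℤ, n < 0 → HahnSeries.coeff b n = 0) :
    ∀ n : ℤ, n < 0 → HahnSeries.coeff (a + b) n = 0 := by
  intro n hn
  rw [HahnSeries.coeff_add, ha n hn, hb n hn, add_zero]

theorem kpr_lau_zero_mem : ∀ n : ℤ, n < 0 → HahnSeries.coeff (0 : K⸨X⸩) n = 0 :=
  fun _ _ => rfl

theorem kpr_lau_neg_mem (a : K⸨X⸩) (ha : ∀ n : ℤ, n < 0 → HahnSeries.coeff a n = 0) :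
    ∀ n : ℤ, n < 0 → HahnSeries.coeff (-a) n = 0 := by
  intro n hn
  rw [HahnSeries.coeff_neg, ha n hn, neg_zero]

theorem kpr_lau_one_coeff : HahnSeries.coeff (1 : K⸨X⸩) (0 : ℤ) = 1 := by
  have := kpr_algMap_coeff_zero (1 : K⟦X⟧)
  rw [map_one, map_one] at this
  exact this

theorem kpr_lau_mul_coeff (a b : K⸨X⸩) (ha : ∀ n : ℤ, n < 0 → HahnSeries.coeff a n = 0)
    (hb : ∀ n : ℤ, n < 0 → HahnSeries.coeff b n = 0) :
    HahnSeries.coeff (a * b) (0 : ℤ) =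
      HahnSeries.coeff a (0 : ℤ) * HahnSeries.coeff b (0 : ℤ) := by
  rw [← kpr_mem_range_iff] at *
  obtain ⟨f, rfl⟩ := ha
  obtain ⟨g, rfl⟩ := hb
  rw [← map_mul, kpr_algMap_coeff_zero, kpr_algMap_coeff_zero, kpr_algMap_coeff_zero, map_mul]

theorem kpr_lau_inc_mem (a : K) :
    ∀ n : ℤ, n < 0 → HahnSeries.coeff (algebraMap K K⸨X⸩ a) n = 0 := by
  rw [← kpr_mem_range_iff]
  exact ⟨algebraMap K K⟦X⟧ a, kpr_algMap_algMap a⟩

theorem kpr_lau_inc_coeff (a : K) : HahnSeries.coeff (algebraMap K K⸨X⸩ a) (0 : ℤ) = a := by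
  rw [← kpr_algMap_algMap, kpr_algMap_coeff_zero]
  simp

theorem kpr_lau_total (b : K⸨X⸩) (hb : ¬ ∀ n : ℤ, n < 0 → HahnSeries.coeff b n = 0) :
    (∀ n : ℤ, n < 0 → HahnSeries.coeff b⁻¹ n = 0) ∧ HahnSeries.coeff b⁻¹ (0 : ℤ) = 0 := by
  rw [← kpr_mem_range_iff] at hb
  obtain ⟨f, hf0, hf⟩ := kpr_inv_not_range b hb
  refine ⟨(kpr_mem_range_iff _).1 ⟨f, hf⟩, ?_⟩
  rw [← hf, kpr_algMap_coeff_zero, hf0]

end Laurent

end Crest.Agent.KP
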