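import Crest.Agent.KPR_Place
import Crest.Agent.KPR_Lau0

/-!
# S0270 : the Laurent place  (author helper93)
-/

set_option autoImplicit false
set_option linter.unusedSectionVars false

open scoped PowerSeries LaurentSeries symmDiff

namespace Crest.Agent.KP

section Laurent
variable {K : Type} [Field K]

variable [QPar K]

/-- the Laurent place `K⸨X⸩ ⇀ K`: integral elements are the power series, the residue is
the constant coefficient -/
noncomputable def Place.laurent (K : Type) [Field K] [QPar K] : Place K K⸨X⸩ where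
  O :=
    { carrier := {x | ∀ n : ℤ, n < 0 → HahnSeries.coeff x n = 0}
      mul_mem' := fun ha hb => kpr_lau_mul_mem _ _ ha hb
      one_mem' := kpr_lau_one_mem
      add_mem' := fun ha hb => kpr_lau_add_mem _ _ ha hb
      zero_mem' := kpr_lau_zero_mem
      neg_mem' := fun ha => kpr_lau_neg_mem _ ha }
  res :=
    { toFun := fun x => HahnSeries.coeff x.1 0
      map_one' := kpr_lau_one_coeff
      map_mul' := fun a b => kpr_lau_mul_coeff a.1 b.1 a.2 b.2
      map_zero' := rfl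
      map_add' := fun _ _ => rfl }
  inc := algebraMap K K⸨X⸩
  inc_mem := fun a => kpr_lau_inc_mem a
  res_inc := fun a => kpr_lau_inc_coeff a
  total := fun b hb => ⟨(kpr_lau_total b hb).1, (kpr_lau_total b hb).2⟩
  inc_al := fun _ => rfl
  inc_be := fun _ => rfl

theorem kpr_laurent_mem_iff' (b : K⸨X⸩) :
    b ∈ (Place.laurent K).O ↔ ∀ n : ℤ, n < 0 → HahnSeries.coeff b n = 0 := Iff.rfl

theorem kpr_laurent_mem_iff (b : K⸨X⸩) :
    b ∈ (Place.laurent K).O ↔ ∃ f : K⟦X⟧, algebraMap K⟦X⟧ K⸨X⸩ f = b :=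
  (kpr_mem_range_iff b).symm

theorem kpr_laurent_mem (f : K⟦X⟧) : algebraMap K⟦X⟧ K⸨X⸩ f ∈ (Place.laurent K).O :=
  (kpr_laurent_mem_iff _).2 ⟨f, rfl⟩

theorem kpr_laurent_r (f : K⟦X⟧) :
    (Place.laurent K).r (algebraMap K⟦X⟧ K⸨X⸩ f) = PowerSeries.constantCoeff f := by
  rw [kpr_r_of_mem _ (kpr_laurent_mem f)]
  exact kpr_algMap_coeff_zero f

theorem kpr_laurent_inc (a : K) : (Place.laurent K).inc a = algebraMap K K⸨X⸩ a := rfl

/-- the uniformizer -/
noncomputable def zL (K : Type) [Field K] : K⸨X⸩ := algebraMap K⟦X⟧ K⸨X⸩ PowerSeries.X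

theorem kpr_zL_ne : zL K ≠ 0 := by
  intro h
  have : (PowerSeries.X : K⟦X⟧) = 0 := kpr_algMap_inj (by rw [map_zero]; exact h)
  exact PowerSeries.X_ne_zero this

theorem kpr_zL_mem : zL K ∈ (Place.laurent K).O := kpr_laurent_mem _

theorem kpr_zL_r : (Place.laurent K).r (zL K) = 0 := by
  rw [zL, kpr_laurent_r]; simp

theorem kpr_zL_pow_ne (n : ℕ) : zL K ^ n ≠ 0 := pow_ne_zero n kpr_zL_ne

theorem kpr_zL_pow_r (n : ℕ) (hn : n ≠ 0) : (Place.laurent K).r (zL K ^ n) = 0 := by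
  rw [zL, ← map_pow, kpr_laurent_r, map_pow, PowerSeries.constantCoeff_X, zero_pow hn]

/-! ### `QA K⟦X⟧` versus integral elements of `QA K⸨X⸩` -/

theorem kpr_toL_apply (u : QA K⟦X⟧) (g : Gp) :
    toL K u g = algebraMap K⟦X⟧ K⸨X⸩ (u g) := rfl

theorem kpr_toC_apply (u : QA K) (g : Gp) : toC K u g = algebraMap K K⸨X⸩ (u g) := rfl

theorem kpr_toP_apply (u : QA K) (g : Gp) : toP K u g = algebraMap K K⟦X⟧ (u g) := rfl

theorem kpr_cf_apply (m : ℕ) (u : QA K⟦X⟧) (g : Gp) : cf m u g = PowerSeries.coeff m (u g) := rfl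

theorem kpr_toL_toP (u : QA K) : toL K (toP K u) = toC K u :=
  kpr_ext fun g => by
    rw [kpr_toL_apply, kpr_toP_apply, kpr_toC_apply, kpr_algMap_algMap]

theorem kpr_toL_inj : Function.Injective (toL K) := fun u v h =>
  kpr_ext fun g => kpr_algMap_inj (by rw [← kpr_toL_apply, ← kpr_toL_apply, h])

theorem kpr_int_toL (u : QA K⟦X⟧) : (Place.laurent K).Int (toL K u) :=
  fun g => kpr_laurent_mem (u g)

/-- integral elements of `QA K⸨X⸩` are the power series elements -/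
theorem kpr_int_iff (v : QA K⸨X⸩) : (Place.laurent K).Int v ↔ ∃ u : QA K⟦X⟧, toL K u = v := by
  constructor
  · intro h
    choose f hf using fun g => (kpr_laurent_mem_iff (v g)).1 (h g)
    have hf0 : ∀ g, v g = 0 → f g = 0 := fun g hg =>
      kpr_algMap_inj (by rw [hf, hg, map_zero])
    refine ⟨(Finsupp.onFinset v.supp f (fun g hg => Finsupp.mem_support_iff.2
      (fun h0 => hg (hf0 g h0))) : Gp →₀ K⟦X⟧), kpr_ext fun g => ?_⟩
    exact hf g
  · rintro ⟨u, rfl⟩
    exact kpr_int_toL u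

theorem kpr_rq_toL (u : QA K⟦X⟧) : (Place.laurent K).rq (toL K u) = cf 0 u :=
  kpr_ext fun g => by
    rw [kpr_rq_apply, kpr_toL_apply, kpr_laurent_r, kpr_cf_apply,
      PowerSeries.coeff_zero_eq_constantCoeff_apply]

theorem kpr_iq_laurent (u : QA K) : (Place.laurent K).iq u = toC K u := kpr_ext fun _ => rfl

theorem kpr_cf_toP_zero (u : QA K) : cf 0 (toP K u) = u :=
  kpr_ext fun g => by
    rw [kpr_cf_apply, kpr_toP_apply]
    simp

theorem kpr_cf_toP_succ (u : QA K) (m : ℕ) (hm : m ≠ 0) : cf m (toP K u) = 0 :=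
  kpr_ext fun g => by
    rw [kpr_cf_apply, kpr_toP_apply, kpr_zero_apply]
    change PowerSeries.coeff m (PowerSeries.C (u g)) = 0
    rw [PowerSeries.coeff_C, if_neg hm]

/-- an element of `QA K⟦X⟧` with vanishing constant coefficient is divisible by `X` -/
theorem kpr_div_X (u : QA K⟦X⟧) (h : cf 0 u = 0) :
    ∃ v : QA K⟦X⟧, u = (PowerSeries.X : K⟦X⟧) • v ∧ ∀ m, cf m v = cf (m + 1) u := by
  have h0 : ∀ g, PowerSeries.constantCoeff (u g) = 0 := fun g => by
    rw [← PowerSeries.coeff_zero_eq_constantCoeff_apply, ← kpr_cf_apply, h]; rfl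
  have h1 : ∀ g, ∃ f : K⟦X⟧, u g = PowerSeries.X * f := fun g =>
    PowerSeries.X_dvd_iff.2 (h0 g)
  choose f hf using h1
  have hf0 : ∀ g, u g = 0 → f g = 0 := fun g hg => by
    rw [hf] at hg
    exact (mul_eq_zero.1 hg).resolve_left PowerSeries.X_ne_zero
  refine ⟨(Finsupp.onFinset u.supp f (fun g hg => Finsupp.mem_support_iff.2
      (fun h0 => hg (hf0 g h0))) : Gp →₀ K⟦X⟧), kpr_ext fun g => ?_, fun m => kpr_ext fun g => ?_⟩
  · exact hf g
  · change PowerSeries.coeff m (f g) = PowerSeries.coeff (m + 1) (u g)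
    rw [hf g, PowerSeries.coeff_succ_X_mul]

/-- levels -/
theorem kpr_mem_lev_iff {R : Type} [CommRing R] [QPar R] (k : ℕ) (u : QA R) :
    u ∈ lev R k ↔ ∀ g : Gp, u g ≠ 0 → (∀ n ∈ g.1, n < k) ∧ ∀ n ∈ g.2, n < k := Iff.rfl

theorem kpr_toL_mem_on (A : Set ℕ) (u : QA K⟦X⟧) :
    toL K u ∈ QA.on (R := K⸨X⸩) A ↔ ∀ m, cf m u ∈ QA.on (R := K) A := by
  constructor
  · intro h m g hg
    apply h g
    intro h0
    rw [kpr_toL_apply] at h0
    have : u g = 0 := kpr_algMap_inj (by rw [h0, map_zero])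
    apply hg
    rw [kpr_cf_apply, this, map_zero]
  · intro h g hg
    have h1 : u g ≠ 0 := by
      intro h0
      apply hg
      rw [kpr_toL_apply, h0, map_zero]
    obtain ⟨m, hm⟩ : ∃ m, PowerSeries.coeff m (u g) ≠ 0 := by
      by_contra hcon
      push Not at hcon
      exact h1 (PowerSeries.ext fun n => by rw [hcon n, map_zero])
    exact h m g hm

theorem kpr_toL_mem_lev (k : ℕ) (u : QA K⟦X⟧) :
    toL K u ∈ lev K⸨X⸩ k ↔ ∀ m, cf m u ∈ lev K k := kpr_toL_mem_on _ u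

/-- residues stay in `on A` (any place) -/
theorem kpr_rq_mem_on {L : Type} [Field L] [QPar L] (P : Place K L) (A : Set ℕ) (v : QA L)
    (h : v ∈ QA.on (R := L) A) : P.rq v ∈ QA.on (R := K) A := by
  intro g hg
  apply h g
  intro h0
  apply hg
  rw [kpr_rq_apply, h0, kpr_r_zero]

theorem kpr_iq_mem_on {L : Type} [Field L] [QPar L] (P : Place K L) (A : Set ℕ) (v : QA K)
    (h : v ∈ QA.on (R := K) A) : P.iq v ∈ QA.on (R := L) A := by
  intro g hg
  apply h g
  intro h0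
  apply hg
  rw [kpr_iq_apply, h0, map_zero]

end Laurent

end Crest.Agent.KP
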