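import Crest.Agent.KP_Defs
import Crest.Agent.KPR_Laurent
import Crest.Agent.KPA_Fin

/-!
# S0270 : definitions, part 2: projections, composition of places, Laurent place, reachability,
richness, nodes (author helper97)
-/

set_option autoImplicit false
set_option linter.unusedSectionVars false

open scoped PowerSeries LaurentSeries symmDiff

namespace Crest.Agent.KP

/-! ### orthogonal projection onto centralizers -/

/-- `c` is the orthogonal projection of `u` onto the centralizer of `S` in `lev K k`. -/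
def IsPr {K : Type} [Field K] [KF K] (k : ℕ) (S : Set (QA K)) (u c : QA K) : Prop :=
  c ∈ lev K k ∧ (∀ φ ∈ S, c * φ = φ * c) ∧
    ∀ d ∈ lev K k, (∀ φ ∈ S, d * φ = φ * d) → QA.tr ((u - c) * d) = 0

theorem exists_Pr {K : Type} [Field K] [KF K] (k : ℕ) (S : Set (QA K)) :
    ∃ E : QA K →ₗ[K] QA K, ∀ u ∈ lev K k, IsPr k S u (E u) := by
  obtain ⟨E, hE⟩ := kpa_exists_Pr k S
  exact ⟨E, fun u _ => hE u⟩

/-- the orthogonal projection of `lev K k` onto the centralizer of `S` in `lev K k`. -/
noncomputable def Pr {K : Type} [Field K] [KF K] (k : ℕ) (S : Set (QA K)) : QA K →ₗ[K] QA K :=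
  Classical.choose (exists_Pr k S)

theorem Pr_spec {K : Type} [Field K] [KF K] (k : ℕ) (S : Set (QA K)) (u : QA K)
    (hu : u ∈ lev K k) : IsPr k S u (Pr k S u) := Classical.choose_spec (exists_Pr k S) u hu

/-! ### places: `Place.refl`, `Place.trans` are in KPR_Place.lean, `Place.laurent` in
KPR_Laurent.lean (author helper93) -/

/-! ### reachable states -/

/-- `Rch s0 K _ _ s P`: the state `s` over `K` is reachable from `s0` (over `K0`), and `P` is the
composed place `K0 ⇠ K`. -/
inductive Rch {K0 I J : Type} [Field K0] [KF K0] [Fintype I] [Fintype J] (s0 : Pt K0 I J) :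
    (K : Type) → (iF : Field K) → (iK : KF K) → Pt K I J → Place K0 K → Prop
  | refl : Rch s0 K0 inferInstance inferInstance s0 (Place.refl K0)
  | curve (K : Type) (iF : Field K) (iK : KF K) (s : Pt K I J) (P : Place K0 K)
      (h : Rch s0 K iF iK s P) (T : I → QA K⟦X⟧) (hT : s.IsCurve T) :
      Rch s0 K⸨X⸩ inferInstance inferInstance (s.curve T) (P.trans (Place.laurent K))
  | grow (K : Type) (iF : Field K) (iK : KF K) (s : Pt K I J) (P : Place K0 K)
      (h : Rch s0 K iF iK s P) (T : I → QA K⟦X⟧) (w1 w2 : I → QA K)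
      (hT : s.IsGrowth T w1 w2) :
      Rch s0 K⸨X⸩ inferInstance inferInstance (s.grow T) (P.trans (Place.laurent K))

namespace Pt

variable {K I J : Type} [Field K] [KF K] [Fintype I] [Fintype J]

/-- `dim U` is constant on reachable states -/
def Stable (s : Pt K I J) : Prop :=
  ∀ (L : Type) (iF : Field L) (iK : KF L) (s' : Pt L I J) (P : Place K L),
    Rch s L iF iK s' P → s'.o = s.o

/-- `Ω ⊗ U → Wt^*` is injective -/
def TInj (s : Pt K I J) (Ω Wt : Submodule K (I → QA K)) : Prop :=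
  ∀ (n : ℕ) (ω : Fin n → (I → QA K)) (c : Fin n → (J → QA K)),
    (∀ i, ω i ∈ Ω) → LinearIndependent K ω → (∀ i, c i ∈ s.U) →
    (∀ v ∈ Wt, ∑ i, s.B (c i) (ω i) v = 0) → ∀ i, c i = 0

/-- RICH(s,t) -/
def Rich (s : Pt K I J) (t : ℕ) : Prop :=
  ∃ Ω : Submodule K (I → QA K), Ω ≤ s.W ∧ Module.finrank K Ω = t ∧ s.TInj Ω s.W ∧
    ∀ v ∈ Ω, s.InnXY v → v = 0

/-- the richness threshold `q_0` -/
noncomputable def q0 (s : Pt K I J) : ℕ := 2 * s.o ^ 2 + s.o + 5

/-- value of a word at a state reached through the place `P` -/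
noncomputable def om {K0 : Type} [Field K0] [KF K0] (P : Place K0 K) (w : NC K0 I)
    (s : Pt K I J) : QA K := (w.map P.inc).ev s.X

/-- all traces of powers of the word are constant on reachable states -/
def Frozen (s0 : Pt K I J) (w : NC K I) : Prop :=
  ∀ (L : Type) (iF : Field L) (iK : KF L) (s : Pt L I J) (P : Place K L),
    Rch s0 L iF iK s P → ∀ j : ℕ, QA.tr ((om P w s) ^ j) = P.inc (QA.tr ((w.ev s0.X) ^ j))

end Pt

/-! ### nodes of the final chain -/

/-- a node: a good, stable, rich state -/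
structure Node where
  K : Type
  [fld : Field K]
  [kf : KF K]
  I : Type
  J : Type
  [fI : Fintype I]
  [fJ : Fintype J]
  pt : Pt K I J
  good : pt.Good
  stable : pt.Stable
  rich : pt.Rich pt.q0

attribute [instance] Node.fld Node.kf Node.fI Node.fJ

/-- `n'` is a later node of the chain -/
structure Later (n n' : Node) where
  P : Place n.K n'.K
  i : n.I → n'.I
  hx : n'.pt.x = i n.pt.x
  hy : n'.pt.y = i n.pt.y
  hk : n.pt.k ≤ n'.pt.k
  int : ∀ a, P.Int (n'.pt.X (i a))
  res : ∀ a, P.rq (n'.pt.X (i a)) = n.pt.X a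
  frz : ∀ w : NC n.K n.I, n.pt.Frozen w → n'.pt.Frozen ((w.map P.inc).ren i)
  frz_tr : ∀ w : NC n.K n.I, n.pt.Frozen w → ∀ j : ℕ,
    QA.tr ((((w.map P.inc).ren i).ev n'.pt.X) ^ j) = P.inc (QA.tr ((w.ev n.pt.X) ^ j))

end Crest.Agent.KP
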