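import Crest.Agent.KPA_Start
import Crest.Agent.KP_Defs2

/-!
# S0270, part (A): the start node (author helper26)
-/

set_option autoImplicit false
set_option linter.unusedSectionVars false
set_option linter.unusedSimpArgs false

open scoped PowerSeries LaurentSeries symmDiff

namespace Crest.Agent.KP

section
variable {K : Type} [Field K] [KF K]

theorem kpa_mem_lev_zero {u : QA K} (hu : u ∈ lev K 0) :
    u = algebraMap K (QA K) (u (∅, ∅)) := by
  rw [Algebra.algebraMap_eq_smul_one, QA.one_def', QA.smul_ec, mul_one]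
  have h := kpa_sum_ec u {((∅, ∅) : Gp)} (fun g hg => by
    rw [Finset.mem_singleton]
    obtain ⟨h1, h2⟩ := kpa_mem_lev.1 hu g hg
    exact Prod.ext (Finset.eq_empty_of_forall_notMem fun s hs => absurd (h1 s hs) (Nat.not_lt_zero s))
      (Finset.eq_empty_of_forall_notMem fun s hs => absurd (h2 s hs) (Nat.not_lt_zero s)))
  rwa [Finset.sum_singleton] at h

/-- an element of `lev 1` commuting with `i_0`, `j_0` is a scalar -/
theorem kpa_center_one {u : QA K} (hu : u ∈ lev K 1) (h1 : u * S1 0 = S1 0 * u)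
    (h2 : u * S2 0 = S2 0 * u) : ∃ c : K, u = algebraMap K (QA K) c := by
  have hd := kpa_dec1 (k := 0) hu
  set a0 := c0 0 u with ha0
  set a1 := c1 0 u with ha1
  set a2 := c2 0 u with ha2
  set a3 := c3 0 u with ha3
  have m0 : a0 ∈ lev K 0 := kpa_c0_mem 0 u
  have m1 : a1 ∈ lev K 0 := kpa_c1_mem 0 u
  have m2 : a2 ∈ lev K 0 := kpa_c2_mem 0 u
  have m3 : a3 ∈ lev K 0 := kpa_c3_mem 0 u
  have cS1 : ∀ a ∈ lev K 0, S1 0 * a = a * S1 0 := fun a ha =>
    (kpa_lev_mid_comm ha (kpa_S1_mem 0)).symm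
  have cS2 : ∀ a ∈ lev K 0, S2 0 * a = a * S2 0 := fun a ha =>
    (kpa_lev_mid_comm ha (kpa_S2_mem 0)).symm
  have e1 : u * S1 0 = (al 0 : K) • a1 + a0 * S1 0 + (-((al 0 : K) • a3)) * S2 0 +
      (-a2) * S3 0 := by
    conv_lhs => rw [hd]
    simp only [add_mul, mul_assoc, kpa_S1_mul_S1, kpa_S2_mul_S1, kpa_S3_mul_S1, mul_neg,
      mul_smul_comm, mul_one, neg_mul, smul_mul_assoc]
    abel
  have e2 : S1 0 * u = (al 0 : K) • a1 + a0 * S1 0 + ((al 0 : K) • a3) * S2 0 + a2 * S3 0 := by
    conv_lhs => rw [hd]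
    simp only [mul_add, ← mul_assoc, cS1 _ m0, cS1 _ m1, cS1 _ m2, cS1 _ m3]
    simp only [mul_assoc, kpa_S1_mul_S1, kpa_S1_mul_S2, kpa_S1_mul_S3,
      mul_smul_comm, mul_one, smul_mul_assoc]
    abel
  have e3 : (0 : QA K) + 0 * S1 0 + ((2 * al 0 : K) • a3) * S2 0 + ((2 : K) • a2) * S3 0 = 0 := by
    have : u * S1 0 - S1 0 * u = 0 := sub_eq_zero.2 h1
    rw [e1, e2] at this
    have h3 : ((2 * al 0 : K) • a3) * S2 0 + ((2 : K) • a2) * S3 0 =
      -(((al 0 : K) • a1 + a0 * S1 0 + (-((al 0 : K) • a3)) * S2 0 + (-a2) * S3 0) -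
        ((al 0 : K) • a1 + a0 * S1 0 + ((al 0 : K) • a3) * S2 0 + a2 * S3 0)) := by
      rw [mul_smul, two_smul, two_smul, add_mul, add_mul, neg_mul, neg_mul]
      abel
    rw [zero_add, zero_mul, zero_add, h3, this, neg_zero]
  obtain ⟨-, -, z3, z2⟩ := kpa_comb_eq_zero (Subalgebra.zero_mem _) (Subalgebra.zero_mem _)
    (Subalgebra.smul_mem _ m3 _) (Subalgebra.smul_mem _ m2 _) e3
  have y2 : a2 = 0 := (smul_eq_zero.1 z2).resolve_left two_ne_zero
  have y3 : a3 = 0 := (smul_eq_zero.1 z3).resolve_left (mul_ne_zero two_ne_zero (KF.al_ne 0))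
  rw [y2, y3, zero_mul, zero_mul, add_zero, add_zero] at hd
  have e4 : (0 : QA K) + 0 * S1 0 + 0 * S2 0 + ((2 : K) • a1) * S3 0 = 0 := by
    have : u * S2 0 - S2 0 * u = 0 := sub_eq_zero.2 h2
    rw [hd] at this
    simp only [add_mul, mul_add, ← mul_assoc, cS2 _ m0, cS2 _ m1] at this
    simp only [mul_assoc, kpa_S1_mul_S2, kpa_S2_mul_S1, mul_neg] at this
    rw [zero_add, zero_mul, zero_mul, zero_add, zero_add, two_smul, add_mul, ← this]
    abel
  obtain ⟨-, -, -, z1⟩ := kpa_comb_eq_zero (Subalgebra.zero_mem _) (Subalgebra.zero_mem _)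
    (Subalgebra.zero_mem _) (Subalgebra.smul_mem _ m1 _) e4
  have y1 : a1 = 0 := (smul_eq_zero.1 z1).resolve_left two_ne_zero
  rw [y1, zero_mul, add_zero] at hd
  exact ⟨_, by rw [hd]; exact kpa_mem_lev_zero m0⟩

/-- `(J → lev k)` as a space -/
noncomputable def kpaPiEquiv (I : Type) (k : ℕ) :
    (Submodule.pi Set.univ fun _ : I => Subalgebra.toSubmodule (lev K k) :
      Submodule K (I → QA K)) ≃ₗ[K] (I → lev K k) where
  toFun v i := ⟨v.1 i, v.2 i (Set.mem_univ i)⟩
  invFun v := ⟨fun i => (v i : QA K), fun i _ => (v i).2⟩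
  left_inv _ := rfl
  right_inv _ := rfl
  map_add' _ _ := rfl
  map_smul' _ _ := rfl

/-- the start state -/
noncomputable def startPt (K : Type) [Field K] [KF K] : Pt K Bool Empty where
  k := 1
  x := false
  y := true
  F := fun j => j.elim
  V0 := Submodule.pi Set.univ fun _ => Subalgebra.toSubmodule (lev K 1)
  V1 := Submodule.pi Set.univ fun _ => Subalgebra.toSubmodule (lev K 1)
  X := fun b => if b then S2 0 else S1 0

theorem startPt_good : (startPt K).Good where
  V0V1 := le_refl _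
  V1lev := fun v hv i => hv i (Set.mem_univ i)
  Xlev := by
    intro i
    cases i
    · exact kpa_S1_mem_lev 0
    · exact kpa_S2_mem_lev 0
  g0 := fun j => j.elim
  g1 := fun d _ => ⟨0, Submodule.zero_mem _, funext fun j => j.elim⟩
  g2 := fun v hv _ => hv
  g3 := fun u hu h1 h2 => kpa_center_one hu h1 h2

theorem kpa_o_empty {L I : Type} [Field L] [KF L] [Fintype I] (s : Pt L I Empty) : s.o = 0 := by
  unfold Pt.o
  have : Subsingleton s.U :=
    ⟨fun a b => Subtype.ext (funext fun j => j.elim)⟩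
  exact Module.finrank_zero_of_subsingleton

theorem startPt_stable : (startPt K).Stable := by
  intro L iF iK s' P _
  rw [kpa_o_empty, kpa_o_empty]

theorem startPt_rich : (startPt K).Rich (startPt K).q0 := by
  have hq : (startPt K).q0 = 5 := by
    unfold Pt.q0
    rw [kpa_o_empty]
    norm_num
  rw [hq]
  set s := startPt K with hs
  let V : Submodule K (Bool → QA K) := Submodule.pi Set.univ fun _ => Subalgebra.toSubmodule (lev K 1)
  have hfdV : FiniteDimensional K V := Module.Finite.equiv (kpaPiEquiv (K := K) Bool 1).symm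
  have hV : Module.finrank K V = 8 := by
    rw [LinearEquiv.finrank_eq (kpaPiEquiv (K := K) Bool 1), Module.finrank_pi_fintype,
      Finset.sum_const, kpa_finrank_lev, Finset.card_univ, Fintype.card_bool]
    norm_num
  have hVW : V ≤ s.W := fun v hv => ⟨hv, LinearMap.mem_ker.2 (funext fun j => j.elim)⟩
  -- inner derivations
  let φ : lev K 1 →ₗ[K] V :=
    LinearMap.codRestrict V
      ((LinearMap.pi fun b : Bool => LinearMap.mulLeft K (s.X b) - LinearMap.mulRight K (s.X b)).comp
        (Subalgebra.toSubmodule (lev K 1)).subtype)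
      (fun η i _ => Subalgebra.sub_mem _ (Subalgebra.mul_mem _ (startPt_good.Xlev i) η.2)
        (Subalgebra.mul_mem _ η.2 (startPt_good.Xlev i)))
  have hφ : ∀ (η : lev K 1) (b : Bool), ((φ η : V) : Bool → QA K) b = s.X b * η - η * s.X b :=
    fun η b => rfl
  have hker : LinearMap.ker φ = Submodule.span K {(1 : lev K 1)} := by
    ext η
    rw [LinearMap.mem_ker, Submodule.mem_span_singleton]
    constructor
    · intro h
      have h' : ∀ b, s.X b * (η : QA K) - η * s.X b = 0 := by
        intro b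
        rw [← hφ, h]
        rfl
      obtain ⟨c, hc⟩ := kpa_center_one η.2 (sub_eq_zero.1 (h' false)).symm
        (sub_eq_zero.1 (h' true)).symm
      refine ⟨c, Subtype.ext ?_⟩
      rw [Subalgebra.coe_smul, Subalgebra.coe_one, ← Algebra.algebraMap_eq_smul_one]
      exact hc.symm
    · rintro ⟨c, rfl⟩
      apply Subtype.ext
      funext b
      rw [hφ, Subalgebra.coe_smul, Subalgebra.coe_one, mul_smul_comm, smul_mul_assoc, mul_one,
        one_mul, sub_self]
      rfl
  have hrange : Module.finrank K (LinearMap.range φ) = 3 := by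
    have h1 := LinearMap.finrank_range_add_finrank_ker φ
    rw [hker, finrank_span_singleton one_ne_zero, kpa_finrank_lev] at h1
    omega
  obtain ⟨C, hC⟩ := Submodule.exists_isCompl (LinearMap.range φ)
  have hCdim : Module.finrank K C = 5 := by
    have h1 := Submodule.finrank_add_eq_of_isCompl hC
    rw [hrange, hV] at h1
    omega
  refine ⟨C.map V.subtype, ?_, ?_, ?_, ?_⟩
  · rintro _ ⟨v, -, rfl⟩
    exact hVW v.2
  · rw [← hCdim]
    exact LinearEquiv.finrank_eq (Submodule.equivMapOfInjective V.subtype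
      V.injective_subtype C).symm
  · intro n ω c _ _ _ _ i
    exact funext fun j => j.elim
  · rintro _ ⟨v, hv, rfl⟩ ⟨η, hη, h1, h2⟩
    have h3 : v = φ ⟨η, hη⟩ := by
      apply Subtype.ext
      funext b
      rw [hφ]
      cases b
      · exact h1
      · exact h2
    have h4 : v ∈ LinearMap.range φ := ⟨_, h3.symm⟩
    have h5 : v ∈ (LinearMap.range φ ⊓ C : Submodule K V) := ⟨h4, hv⟩
    rw [hC.inf_eq_bot, Submodule.mem_bot] at h5
    rw [h5, map_zero]

end

/-- **start node** -/
theorem kpa_start_node : Nonempty Node :=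
  ⟨{ K := K00
     I := Bool
     J := Empty
     pt := startPt K00
     good := startPt_good
     stable := startPt_stable
     rich := startPt_rich }⟩

end Crest.Agent.KP
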