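import Crest.Agent.KPA_Cas
import Crest.Agent.KP_Defs2

/-!
# S0270, part (A): the projections `Pr`, Casimir formula, dimension of centralizers, (0.4)
(author helper26)
-/

set_option autoImplicit false
set_option linter.unusedSectionVars false
set_option linter.unusedSimpArgs false

open scoped PowerSeries LaurentSeries symmDiff

namespace Crest.Agent.KP

variable {K : Type} [Field K] [KF K]

/-! ### elementary properties of `IsPr` and `Pr` -/

theorem kpa_isPr_iff {k : ℕ} {S : Set (QA K)} {u c : QA K} :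
    IsPr k S u c ↔ c ∈ cenA k S ∧ ∀ d ∈ cenA k S, QA.tr ((u - c) * d) = 0 := by
  unfold IsPr
  constructor
  · rintro ⟨h1, h2, h3⟩
    exact ⟨mem_cenA.2 ⟨h1, h2⟩, fun d hd => h3 d (mem_cenA.1 hd).1 (mem_cenA.1 hd).2⟩
  · rintro ⟨h1, h2⟩
    exact ⟨(mem_cenA.1 h1).1, (mem_cenA.1 h1).2, fun d hd hd' => h2 d (mem_cenA.2 ⟨hd, hd'⟩)⟩

theorem kpa_isPr_unique {k : ℕ} {S : Set (QA K)} {u c c' : QA K} (h : IsPr k S u c)
    (h' : IsPr k S u c') : c = c' := by
  rw [kpa_isPr_iff] at h h'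
  have h1 : c - c' ∈ cenA k S := Subalgebra.sub_mem _ h.1 h'.1
  have h2 : c - c' = 0 := by
    refine kpa_sub_nondeg h1 fun d hd => ?_
    have e : (c - c') * d = (u - c') * d - (u - c) * d := by
      rw [← sub_mul]; congr 1; abel
    rw [e, map_sub, h'.2 d hd, h.2 d hd, sub_zero]
  exact sub_eq_zero.1 h2

theorem kpa_Pr_eq {k : ℕ} {S : Set (QA K)} {u c : QA K} (hu : u ∈ lev K k) (h : IsPr k S u c) :
    Pr k S u = c := kpa_isPr_unique (Pr_spec k S u hu) h

theorem kpa_Pr_mem {k : ℕ} {S : Set (QA K)} {u : QA K} (hu : u ∈ lev K k) :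
    Pr k S u ∈ lev K k := (Pr_spec k S u hu).1

theorem kpa_Pr_comm {k : ℕ} {S : Set (QA K)} {u : QA K} (hu : u ∈ lev K k) :
    ∀ φ ∈ S, Pr k S u * φ = φ * Pr k S u := (Pr_spec k S u hu).2.1

theorem kpa_Pr_mem_cenA {k : ℕ} {S : Set (QA K)} {u : QA K} (hu : u ∈ lev K k) :
    Pr k S u ∈ cenA k S := mem_cenA.2 ⟨kpa_Pr_mem hu, kpa_Pr_comm hu⟩

theorem kpa_tr_Pr_mul {k : ℕ} {S : Set (QA K)} {u d : QA K} (hu : u ∈ lev K k)
    (hd : d ∈ cenA k S) : QA.tr (Pr k S u * d) = QA.tr (u * d) := by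
  have h := (kpa_isPr_iff.1 (Pr_spec k S u hu)).2 d hd
  rw [sub_mul, map_sub, sub_eq_zero] at h
  exact h.symm

theorem kpa_tr_Pr {k : ℕ} {S : Set (QA K)} {u : QA K} (hu : u ∈ lev K k) :
    QA.tr (Pr k S u) = QA.tr u := by
  have := kpa_tr_Pr_mul (S := S) hu (Subalgebra.one_mem _)
  rwa [mul_one, mul_one] at this

theorem kpa_isPr_self {k : ℕ} {S : Set (QA K)} {u : QA K} (hu : u ∈ cenA k S) :
    IsPr k S u u :=
  kpa_isPr_iff.2 ⟨hu, fun d _ => by rw [sub_self, zero_mul, map_zero]⟩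

theorem kpa_Pr_of_mem {k : ℕ} {S : Set (QA K)} {u : QA K} (hu : u ∈ cenA k S) :
    Pr k S u = u := kpa_Pr_eq (cenA_le k S hu) (kpa_isPr_self hu)

theorem kpa_Pr_Pr {k : ℕ} {S : Set (QA K)} {u : QA K} (hu : u ∈ lev K k) :
    Pr k S (Pr k S u) = Pr k S u := kpa_Pr_of_mem (kpa_Pr_mem_cenA hu)

theorem kpa_Pr_mul_left {k : ℕ} {S : Set (QA K)} {u c : QA K} (hu : u ∈ lev K k)
    (hc : c ∈ cenA k S) : Pr k S (c * u) = c * Pr k S u := by
  refine kpa_Pr_eq (Subalgebra.mul_mem _ (cenA_le k S hc) hu) (kpa_isPr_iff.2 ⟨?_, ?_⟩)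
  · exact Subalgebra.mul_mem _ hc (kpa_Pr_mem_cenA hu)
  · intro d hd
    rw [← mul_sub, mul_assoc, kpa_tr_comm, mul_assoc, sub_mul, map_sub,
      kpa_tr_Pr_mul hu (Subalgebra.mul_mem _ hd hc), sub_self]

theorem kpa_Pr_mul_right {k : ℕ} {S : Set (QA K)} {u c : QA K} (hu : u ∈ lev K k)
    (hc : c ∈ cenA k S) : Pr k S (u * c) = Pr k S u * c := by
  refine kpa_Pr_eq (Subalgebra.mul_mem _ hu (cenA_le k S hc)) (kpa_isPr_iff.2 ⟨?_, ?_⟩)
  · exact Subalgebra.mul_mem _ (kpa_Pr_mem_cenA hu) hc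
  · intro d hd
    rw [← sub_mul, mul_assoc, sub_mul, map_sub,
      kpa_tr_Pr_mul hu (Subalgebra.mul_mem _ hc hd), sub_self]

/-- an element of `lev k` is killed by `Pr k S` iff it is orthogonal to the centralizer -/
theorem kpa_Pr_eq_zero_iff {k : ℕ} {S : Set (QA K)} {u : QA K} (hu : u ∈ lev K k) :
    Pr k S u = 0 ↔ ∀ d ∈ cenA k S, QA.tr (u * d) = 0 := by
  constructor
  · intro h d hd
    rw [← kpa_tr_Pr_mul hu hd, h, zero_mul, map_zero]
  · intro h
    exact kpa_Pr_eq hu (kpa_isPr_iff.2 ⟨Subalgebra.zero_mem _, fun d hd => by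
      rw [sub_zero]; exact h d hd⟩)

theorem kpa_Pr_sub_Pr {k : ℕ} {S : Set (QA K)} {u : QA K} (hu : u ∈ lev K k) :
    Pr k S (u - Pr k S u) = 0 := by
  rw [map_sub, kpa_Pr_Pr hu, sub_self]

/-- the projection depends only on the centralizer -/
theorem kpa_Pr_congr {k : ℕ} {S S' : Set (QA K)} (h : cenA k S = cenA k S') {u : QA K}
    (hu : u ∈ lev K k) : Pr k S u = Pr k S' u := by
  refine kpa_Pr_eq hu ?_
  rw [kpa_isPr_iff, h, ← kpa_isPr_iff]
  exact Pr_spec k S' u hu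

theorem kpa_cenA_adjoin (k : ℕ) (S : Set (QA K)) :
    cenA k ((Algebra.adjoin K S : Subalgebra K (QA K)) : Set (QA K)) = cenA k S := by
  apply le_antisymm
  · intro u hu
    exact mem_cenA.2 ⟨(mem_cenA.1 hu).1, fun φ hφ =>
      (mem_cenA.1 hu).2 φ (Algebra.subset_adjoin hφ)⟩
  · intro u hu
    refine mem_cenA.2 ⟨(mem_cenA.1 hu).1, fun φ hφ => ?_⟩
    have h1 : Algebra.adjoin K S ≤ Subalgebra.centralizer K {u} := by
      refine Algebra.adjoin_le fun φ hφ => ?_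
      rw [SetLike.mem_coe, Subalgebra.mem_centralizer_iff]
      rintro _ rfl
      exact (mem_cenA.1 hu).2 φ hφ
    have h2 := h1 hφ
    rw [Subalgebra.mem_centralizer_iff] at h2
    exact h2 u rfl

theorem kpa_Pr_adjoin (k : ℕ) (S : Set (QA K)) {u : QA K} (hu : u ∈ lev K k) :
    Pr k ((Algebra.adjoin K S : Subalgebra K (QA K)) : Set (QA K)) u = Pr k S u :=
  kpa_Pr_congr (kpa_cenA_adjoin k S) hu

theorem kpa_cenA_anti {k : ℕ} {S S' : Set (QA K)} (h : S ⊆ S') : cenA k S' ≤ cenA k S :=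
  fun _ hu => mem_cenA.2 ⟨(mem_cenA.1 hu).1, fun φ hφ => (mem_cenA.1 hu).2 φ (h hφ)⟩

/-- towers: first project to the larger centralizer -/
theorem kpa_Pr_tower {k : ℕ} {S S' : Set (QA K)} (h : cenA k S' ≤ cenA k S) {u : QA K}
    (hu : u ∈ lev K k) : Pr k S' (Pr k S u) = Pr k S' u := by
  refine kpa_Pr_eq (kpa_Pr_mem hu) (kpa_isPr_iff.2 ⟨kpa_Pr_mem_cenA hu, fun d hd => ?_⟩)
  rw [sub_mul, map_sub, kpa_tr_Pr_mul hu (h hd), kpa_tr_Pr_mul hu hd, sub_self]

/-- `Pr (φ u) = Pr (u φ)` for `φ` in the algebra generated by `S` -/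
theorem kpa_Pr_comm_arg {k : ℕ} {S : Set (QA K)} {u φ : QA K} (hu : u ∈ lev K k)
    (hφ : φ ∈ lev K k) (h : ∀ c ∈ cenA k S, c * φ = φ * c) :
    Pr k S (φ * u) = Pr k S (u * φ) := by
  rw [← sub_eq_zero, ← map_sub, kpa_Pr_eq_zero_iff
    (Subalgebra.sub_mem _ (Subalgebra.mul_mem _ hφ hu) (Subalgebra.mul_mem _ hu hφ))]
  intro d hd
  rw [sub_mul, map_sub, sub_eq_zero, mul_assoc, kpa_tr_comm, mul_assoc, mul_assoc, h d hd]

/-- tensor property: `Pr l S (u e) = Pr k S u * e` for `u ∈ lev k`, `e ∈ mid k l`, `S ⊆ lev k` -/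
theorem kpa_Pr_mul_mid {k l : ℕ} (hkl : k ≤ l) {S : Set (QA K)} (hS : S ⊆ lev K k) {u e : QA K}
    (hu : u ∈ lev K k) (he : e ∈ mid K k l) : Pr l S (u * e) = Pr k S u * e := by
  have hel : e ∈ lev K l := kpa_mid_le_lev k l he
  have hec : e ∈ cenA l S := mem_cenA.2 ⟨hel, fun φ hφ => (kpa_lev_mid_comm (hS hφ) he).symm⟩
  rw [kpa_Pr_mul_right (kpa_lev_mono hkl hu) hec]
  congr 1
  refine kpa_Pr_eq (kpa_lev_mono hkl hu) (kpa_isPr_iff.2 ⟨?_, ?_⟩)
  · exact mem_cenA.2 ⟨kpa_lev_mono hkl (kpa_Pr_mem hu), kpa_Pr_comm hu⟩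
  · intro d hd
    have h1 : u - Pr k S u ∈ lev K k := Subalgebra.sub_mem _ hu (kpa_Pr_mem hu)
    have h2 : low k d ∈ cenA k S := by
      refine mem_cenA.2 ⟨kpa_low_mem k d, fun φ hφ => ?_⟩
      rw [← kpa_low_mul d (hS hφ), ← kpa_mul_low d (hS hφ), (mem_cenA.1 hd).2 φ hφ]
    rw [kpa_tr_comm, ← kpa_tr_low_mul d h1, kpa_tr_comm, sub_mul, map_sub,
      kpa_tr_Pr_mul hu h2, sub_self]

/-- `Pr` does not depend on the level -/
theorem kpa_Pr_level {k l : ℕ} (hkl : k ≤ l) {S : Set (QA K)} (hS : S ⊆ lev K k) {u : QA K}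
    (hu : u ∈ lev K k) : Pr l S u = Pr k S u := by
  have := kpa_Pr_mul_mid hkl hS hu (Subalgebra.one_mem (mid K k l))
  rwa [mul_one, mul_one] at this

/-- `Pr` and `part` -/
theorem kpa_part_Pr {k l : ℕ} (hkl : k ≤ l) {S : Set (QA K)} (hS : S ⊆ lev K k) {u : QA K}
    (hu : u ∈ lev K l) {h : Gp} (hh : h ∈ midIdx k l) :
    part k h (Pr l S u) = Pr k S (part k h u) := by
  have h1 : Pr l S u = ∑ h ∈ midIdx k l, Pr k S (part k h u) * QA.e h := by
    conv_lhs => rw [kpa_dec (k := k) hu]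
    rw [map_sum]
    refine Finset.sum_congr rfl fun h hh => ?_
    exact kpa_Pr_mul_mid hkl hS (kpa_part_mem k h u)
      (kpa_e_mid (kpa_mem_midIdx.1 hh).1 (kpa_mem_midIdx.1 hh).2)
  rw [h1]
  exact kpa_part_sum (b := fun h => Pr k S (part k h u))
    (fun h _ => kpa_Pr_mem (kpa_part_mem k h u)) hh

theorem kpa_low_Pr {k l : ℕ} (hkl : k ≤ l) {S : Set (QA K)} (hS : S ⊆ lev K k) {u : QA K}
    (hu : u ∈ lev K l) : low k (Pr l S u) = Pr k S (low k u) := by
  rw [← kpa_part_one, ← kpa_part_one]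
  refine kpa_part_Pr hkl hS hu ?_
  rw [kpa_mem_midIdx]
  exact ⟨⟨by simp, by simp⟩, ⟨by simp, by simp⟩⟩

/-- the centralizer of `S ⊆ lev k` in `lev l` in terms of parts -/
theorem kpa_mem_cenA_iff_parts {k l : ℕ} {S : Set (QA K)} (hS : S ⊆ lev K k) {u : QA K}
    (hu : u ∈ lev K l) : u ∈ cenA l S ↔ ∀ h ∈ midIdx k l, part k h u ∈ cenA k S := by
  constructor
  · intro H h hh
    exact mem_cenA.2 ⟨kpa_part_mem k h u, fun φ hφ =>
      (kpa_comm_iff_parts hu (hS hφ)).1 ((mem_cenA.1 H).2 φ hφ) h hh⟩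
  · intro H
    exact mem_cenA.2 ⟨hu, fun φ hφ =>
      (kpa_comm_iff_parts hu (hS hφ)).2 fun h hh => (mem_cenA.1 (H h hh)).2 φ hφ⟩

/-! ### the Casimir operator -/

/-- `x ↦ ∑ b_i x b'_i` -/
noncomputable def cas {ι : Type} [Fintype ι] (b b' : ι → QA K) : QA K →ₗ[K] QA K :=
  ∑ i, (LinearMap.mulLeft K (b i)).comp (LinearMap.mulRight K (b' i))

theorem cas_apply {ι : Type} [Fintype ι] (b b' : ι → QA K) (x : QA K) :
    cas b b' x = ∑ i, b i * x * b' i := by
  unfold cas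
  rw [LinearMap.sum_apply]
  refine Finset.sum_congr rfl fun i _ => ?_
  rw [LinearMap.comp_apply, LinearMap.mulRight_apply, LinearMap.mulLeft_apply, mul_assoc]

section casimir
variable {k : ℕ} {B : Subalgebra K (QA K)} {ι : Type} [Fintype ι] [DecidableEq ι]
  {b b' : ι → QA K}

/-- Casimir property -/
theorem DualPair.cas_comm (h : DualPair B b b') {y : QA K} (hy : y ∈ B) (x : QA K) :
    y * cas b b' x = cas b b' x * y := by
  rw [cas_apply, Finset.mul_sum, Finset.sum_mul]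
  have e1 : ∀ i, y * b i = ∑ j, QA.tr (y * b i * b' j) • b j :=
    fun i => h.exp _ (B.mul_mem hy (h.mem i))
  have e2 : ∀ j, b' j * y = ∑ i, QA.tr (b' j * y * b i) • b' i :=
    fun j => h.exp' _ (B.mul_mem (h.mem' j) hy)
  calc ∑ i, y * (b i * x * b' i) = ∑ i, ∑ j, QA.tr (y * b i * b' j) • (b j * x * b' i) := by
        refine Finset.sum_congr rfl fun i _ => ?_
        rw [← mul_assoc, ← mul_assoc, e1 i, Finset.sum_mul, Finset.sum_mul]
        refine Finset.sum_congr rfl fun j _ => ?_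
        rw [smul_mul_assoc, smul_mul_assoc, ← e1 i]
    _ = ∑ j, ∑ i, QA.tr (y * b i * b' j) • (b j * x * b' i) := Finset.sum_comm
    _ = ∑ j, b j * x * b' j * y := by
        refine Finset.sum_congr rfl fun j _ => ?_
        rw [mul_assoc, e2 j, Finset.mul_sum]
        refine Finset.sum_congr rfl fun i _ => ?_
        rw [mul_smul_comm, ← kpa_tr_comm (b' j), mul_assoc (b' j)]

theorem DualPair.cas_one_mem (h : DualPair B b b') : cas b b' 1 ∈ B := by
  rw [cas_apply]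
  exact B.sum_mem fun i _ => by rw [mul_one]; exact B.mul_mem (h.mem i) (h.mem' i)

/-- `∑ b_i b'_i = dim B` -/
theorem DualPair.cas_one (h : DualPair B b b') (hB : B ≤ lev K k) :
    cas b b' 1 = (Module.finrank K B : K) • (1 : QA K) := by
  have hfd : FiniteDimensional K B := kpa_fd_of_le' hB
  rw [← sub_eq_zero]
  refine kpa_sub_nondeg (B := B) (B.sub_mem h.cas_one_mem (B.smul_mem B.one_mem _))
    fun d hd => ?_
  rw [sub_mul, map_sub, smul_mul_assoc, one_mul, map_smul, smul_eq_mul, sub_eq_zero,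
    ← kpa_trace_mulLeft hB ⟨d, hd⟩, h.trace, cas_apply, Finset.sum_mul, map_sum]
  refine Finset.sum_congr rfl fun i _ => ?_
  rw [mul_one, kpa_tr_comm, ← mul_assoc]
  rfl

/-- on the centralizer the Casimir operator is multiplication by `dim B` -/
theorem DualPair.cas_of_comm (h : DualPair B b b') (hB : B ≤ lev K k) {x : QA K}
    (hx : ∀ φ ∈ B, x * φ = φ * x) : cas b b' x = (Module.finrank K B : K) • x := by
  have h1 : cas b b' x = cas b b' 1 * x := by
    rw [cas_apply, cas_apply, Finset.sum_mul]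
    refine Finset.sum_congr rfl fun i _ => ?_
    rw [mul_one, mul_assoc, hx _ (h.mem' i), mul_assoc]
  rw [h1, h.cas_one hB, smul_mul_assoc, one_mul]

theorem DualPair.cas_mem (h : DualPair B b b') (hB : B ≤ lev K k) {x : QA K}
    (hx : x ∈ lev K k) : cas b b' x ∈ lev K k := by
  rw [cas_apply]
  exact Subalgebra.sum_mem _ fun i _ => Subalgebra.mul_mem _
    (Subalgebra.mul_mem _ (hB (h.mem i)) hx) (hB (h.mem' i))

theorem kpa_finrank_pos {B : Subalgebra K (QA K)} (hB : B ≤ lev K k) :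
    0 < Module.finrank K B := by
  have hfd : FiniteDimensional K B := kpa_fd_of_le' hB
  exact Module.finrank_pos

/-- **(0.3)** Casimir formula for the projection onto the centralizer of `B` in `lev k` -/
theorem DualPair.isPr (h : DualPair B b b') (hB : B ≤ lev K k) {x : QA K}
    (hx : x ∈ lev K k) :
    IsPr k (B : Set (QA K)) x ((Module.finrank K B : K)⁻¹ • cas b b' x) := by
  have hn : (Module.finrank K B : K) ≠ 0 := Nat.cast_ne_zero.2 (kpa_finrank_pos hB).ne'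
  rw [kpa_isPr_iff]
  refine ⟨mem_cenA.2 ⟨Subalgebra.smul_mem _ (h.cas_mem hB hx) _, fun φ hφ => ?_⟩,
    fun d hd => ?_⟩
  · rw [smul_mul_assoc, mul_smul_comm, h.cas_comm hφ]
  · have h1 : QA.tr (cas b b' x * d) = QA.tr (x * cas b' b d) := by
      rw [cas_apply, cas_apply, Finset.sum_mul, Finset.mul_sum, map_sum, map_sum]
      refine Finset.sum_congr rfl fun i _ => ?_
      rw [mul_assoc, mul_assoc, kpa_tr_comm]
      simp only [mul_assoc]
    rw [sub_mul, map_sub, smul_mul_assoc, map_smul, h1,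
      h.symm.cas_of_comm hB (mem_cenA.1 hd).2, mul_smul_comm, map_smul, smul_smul,
      inv_mul_cancel₀ hn, one_smul, sub_self]

theorem DualPair.Pr_eq (h : DualPair B b b') (hB : B ≤ lev K k) {x : QA K}
    (hx : x ∈ lev K k) :
    Pr k (B : Set (QA K)) x = (Module.finrank K B : K)⁻¹ • cas b b' x :=
  kpa_Pr_eq hx (h.isPr hB hx)

end casimir

/-! ### dimension of the centralizer -/

/-- **(0.3)** `dim C_k(B) * dim B = 4^k`. -/
theorem kpa_finrank_cenA {k : ℕ} {B : Subalgebra K (QA K)} (hB : B ≤ lev K k) :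
    Module.finrank K (cenA k (B : Set (QA K))) * Module.finrank K B = 4 ^ k := by
  have hfd : FiniteDimensional K B := kpa_fd_of_le' hB
  obtain ⟨b, b', h⟩ := exists_dualPair B
  have hn : (Module.finrank K B : K) ≠ 0 := Nat.cast_ne_zero.2 (kpa_finrank_pos hB).ne'
  -- the projection as an endomorphism of lev k
  let E : Module.End K (lev K k) :=
    (Module.finrank K B : K)⁻¹ • ∑ i, opL k (b i) * opR k (b' i)
  have hE : ∀ x : lev K k, ((E x : lev K k) : QA K) = Pr k (B : Set (QA K)) x := by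
    intro x
    rw [h.Pr_eq hB x.2, cas_apply]
    have h1 : ((E x : lev K k) : QA K) =
        (Module.finrank K B : K)⁻¹ • ∑ i, (((opL k (b i) * opR k (b' i)) x : lev K k) : QA K) := by
      simp only [E, LinearMap.smul_apply, LinearMap.sum_apply, Subalgebra.coe_smul,
        AddSubmonoidClass.coe_finsetSum]
    rw [h1]
    congr 1
    refine Finset.sum_congr rfl fun i _ => ?_
    rw [Module.End.mul_apply, kpa_opL_apply (hB (h.mem i)), kpa_opR_apply (hB (h.mem' i)),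
      mul_assoc]
  let C : Submodule K (lev K k) :=
    (Subalgebra.toSubmodule (cenA k (B : Set (QA K)))).comap (Subalgebra.toSubmodule (lev K k)).subtype
  have hproj : LinearMap.IsProj C E := by
    constructor
    · intro x
      show ((E x : lev K k) : QA K) ∈ cenA k (B : Set (QA K))
      rw [hE]
      exact kpa_Pr_mem_cenA x.2
    · intro x hx
      have hx' : (x : QA K) ∈ cenA k (B : Set (QA K)) := hx
      apply Subtype.ext
      rw [hE]
      exact kpa_Pr_of_mem hx'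
  have h1 : LinearMap.trace K (lev K k) E = Module.finrank K C := hproj.trace
  have h2 : Module.finrank K C = Module.finrank K (cenA k (B : Set (QA K))) :=
    LinearEquiv.finrank_eq (Submodule.comapSubtypeEquivOfLe
      (p := Subalgebra.toSubmodule (cenA k (B : Set (QA K))))
      (q := Subalgebra.toSubmodule (lev K k)) (cenA_le k _))
  have h3 : LinearMap.trace K (lev K k) E = (Module.finrank K B : K)⁻¹ * 4 ^ k := by
    simp only [E]
    rw [map_smul, map_sum, smul_eq_mul]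
    congr 1
    have h4 : ∀ i, LinearMap.trace K (lev K k) (opL k (b i) * opR k (b' i)) =
        4 ^ k * (QA.tr (b i) * QA.tr (b' i)) :=
      fun i => kpa_trace_LR (hB (h.mem i)) (hB (h.mem' i))
    simp only [h4]
    rw [← Finset.mul_sum]
    have h5 := congrArg QA.tr (h.exp 1 B.one_mem)
    simp only [map_sum, map_smul, one_mul, kpa_tr_one, smul_eq_mul] at h5
    have h6 : ∑ i, QA.tr (b i) * QA.tr (b' i) = 1 := by
      rw [h5]
      exact Finset.sum_congr rfl fun i _ => mul_comm _ _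
    rw [h6, mul_one]
  rw [h3, h2] at h1
  have h7 : ((Module.finrank K (cenA k (B : Set (QA K))) * Module.finrank K B : ℕ) : K) =
      ((4 ^ k : ℕ) : K) := by
    push_cast
    rw [← h1, mul_comm, ← mul_assoc, mul_inv_cancel₀ hn, one_mul]
  exact Nat.cast_injective h7

/-- a commutative subalgebra of `lev k` has dimension dividing `2^k` -/
theorem kpa_finrank_dvd_two_pow {k : ℕ} {B : Subalgebra K (QA K)} (hB : B ≤ lev K k)
    (hc : ∀ a ∈ B, ∀ b ∈ B, a * b = b * a) : Module.finrank K B ∣ 2 ^ k := by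
  have h1 : B ≤ cenA k (B : Set (QA K)) := fun a ha => mem_cenA.2 ⟨hB ha, fun φ hφ => hc a ha φ hφ⟩
  obtain ⟨m, hm⟩ := kpa_finrank_dvd h1
  have h2 := kpa_finrank_cenA hB
  rw [hm] at h2
  have h3 : Module.finrank K B ^ 2 ∣ (2 ^ k) ^ 2 := by
    refine ⟨m, ?_⟩
    rw [← pow_mul, mul_comm k 2, pow_mul, show (2 : ℕ) ^ 2 = 4 by norm_num, ← h2]
    ring
  exact (Nat.pow_dvd_pow_iff two_ne_zero).1 h3

theorem kpa_finrank_le_two_pow {k : ℕ} {B : Subalgebra K (QA K)} (hB : B ≤ lev K k)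
    (hc : ∀ a ∈ B, ∀ b ∈ B, a * b = b * a) : Module.finrank K B ≤ 2 ^ k :=
  Nat.le_of_dvd (by positivity) (kpa_finrank_dvd_two_pow hB hc)

theorem kpa_finrank_dvd_four_pow {k : ℕ} {B : Subalgebra K (QA K)} (hB : B ≤ lev K k) :
    Module.finrank K B ∣ 4 ^ k :=
  ⟨_, by rw [mul_comm]; exact (kpa_finrank_cenA hB).symm⟩

/-- same formula for generating sets -/
theorem kpa_finrank_cenA_adjoin {k : ℕ} {S : Set (QA K)} (hS : S ⊆ lev K k) :
    Module.finrank K (cenA k S) * Module.finrank K (Algebra.adjoin K S) = 4 ^ k := by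
  have h := kpa_finrank_cenA (k := k) (B := Algebra.adjoin K S) (Algebra.adjoin_le hS)
  rwa [kpa_cenA_adjoin] at h

theorem kpa_adjoin_le {k : ℕ} {S : Set (QA K)} (hS : S ⊆ lev K k) :
    Algebra.adjoin K S ≤ lev K k := Algebra.adjoin_le hS

theorem kpa_adjoin_comm {S : Set (QA K)} (hS : ∀ a ∈ S, ∀ b ∈ S, a * b = b * a) :
    ∀ a ∈ Algebra.adjoin K S, ∀ b ∈ Algebra.adjoin K S, a * b = b * a := by
  intro a ha b hb
  have h := Algebra.isMulCommutative_adjoin K hS
  exact congrArg Subtype.val (h.is_comm.comm (⟨a, ha⟩ : Algebra.adjoin K S) ⟨b, hb⟩)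

theorem kpa_adjoin_singleton_comm (ω : QA K) :
    ∀ a ∈ Algebra.adjoin K ({ω} : Set (QA K)), ∀ b ∈ Algebra.adjoin K ({ω} : Set (QA K)),
      a * b = b * a :=
  kpa_adjoin_comm (by simp)

theorem kpa_adjoin_le_cenA {k : ℕ} {S : Set (QA K)} (hSk : S ⊆ lev K k)
    (hS : ∀ a ∈ S, ∀ b ∈ S, a * b = b * a) : Algebra.adjoin K S ≤ cenA k S := by
  intro a ha
  exact mem_cenA.2 ⟨kpa_adjoin_le hSk ha, fun φ hφ =>
    kpa_adjoin_comm hS a ha φ (Algebra.subset_adjoin hφ)⟩

/-! ### (0.4) -/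

/-- **(0.4)** every element orthogonal to the centralizer of `ω` is a commutator `[ω, η]`, `η`
orthogonal to the centralizer. -/
theorem kpa_ad_surj {k : ℕ} {ω u : QA K} (hω : ω ∈ lev K k) (hu : u ∈ lev K k)
    (h : Pr k {ω} u = 0) :
    ∃ η ∈ lev K k, Pr k {ω} η = 0 ∧ u = ω * η - η * ω := by
  let f : Module.End K (lev K k) := opL k ω - opR k ω
  have hf : ∀ x : lev K k, ((f x : lev K k) : QA K) = ω * x - x * ω := by
    intro x
    show (((opL k ω x - opR k ω x : lev K k)) : QA K) = _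
    rw [Subalgebra.coe_sub, kpa_opL_apply hω, kpa_opR_apply hω]
  let g : Module.End K (lev K k) := LinearMap.restrict (Pr k {ω})
    (p := Subalgebra.toSubmodule (lev K k)) (q := Subalgebra.toSubmodule (lev K k))
    (fun x hx => kpa_Pr_mem hx)
  have hg : ∀ x : lev K k, ((g x : lev K k) : QA K) = Pr k {ω} x := fun x => rfl
  have h1 : LinearMap.ker f = LinearMap.range g := by
    ext x
    rw [LinearMap.mem_ker, LinearMap.mem_range]
    constructor
    · intro hx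
      refine ⟨x, Subtype.ext ?_⟩
      rw [hg]
      refine kpa_Pr_of_mem (mem_cenA.2 ⟨x.2, ?_⟩)
      rintro _ rfl
      have := congrArg Subtype.val hx
      rw [hf] at this
      exact (sub_eq_zero.1 this).symm
    · rintro ⟨y, rfl⟩
      apply Subtype.ext
      rw [hf, hg]
      have := kpa_Pr_comm (S := {ω}) y.2 ω rfl
      rw [this, sub_self]
      rfl
  have h2 : LinearMap.range f ≤ LinearMap.ker g := by
    rintro _ ⟨y, rfl⟩
    rw [LinearMap.mem_ker]
    apply Subtype.ext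
    rw [hg, hf]
    refine (kpa_Pr_eq_zero_iff (Subalgebra.sub_mem _ (Subalgebra.mul_mem _ hω y.2)
      (Subalgebra.mul_mem _ y.2 hω))).2 fun d hd => ?_
    have hd' := (mem_cenA.1 hd).2 ω rfl
    rw [sub_mul, map_sub, sub_eq_zero, mul_assoc, kpa_tr_comm, mul_assoc, mul_assoc, hd']
  have h3 : LinearMap.range f = LinearMap.ker g := by
    refine Submodule.eq_of_le_of_finrank_eq h2 ?_
    have e1 := LinearMap.finrank_range_add_finrank_ker f
    have e2 := LinearMap.finrank_range_add_finrank_ker g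
    rw [h1] at e1
    omega
  have h4 : (⟨u, hu⟩ : lev K k) ∈ LinearMap.ker g := by
    rw [LinearMap.mem_ker]
    apply Subtype.ext
    rw [hg]
    exact h
  rw [← h3] at h4
  obtain ⟨y, hy⟩ := h4
  have hy' := congrArg Subtype.val hy
  rw [hf] at hy'
  refine ⟨(y : QA K) - Pr k {ω} y, Subalgebra.sub_mem _ y.2 (kpa_Pr_mem y.2),
    kpa_Pr_sub_Pr y.2, ?_⟩
  have hy'' : ω * (y : QA K) - y * ω = u := hy'
  rw [mul_sub, sub_mul, kpa_Pr_comm (S := {ω}) y.2 ω rfl, sub_sub_sub_cancel_right, hy'']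

/-- commutators with `ω` are orthogonal to the centralizer of `ω` -/
theorem kpa_Pr_ad {k : ℕ} {ω η : QA K} (hω : ω ∈ lev K k) (hη : η ∈ lev K k) :
    Pr k {ω} (ω * η - η * ω) = 0 := by
  refine (kpa_Pr_eq_zero_iff (Subalgebra.sub_mem _ (Subalgebra.mul_mem _ hω hη)
      (Subalgebra.mul_mem _ hη hω))).2 fun d hd => ?_
  have hd' := (mem_cenA.1 hd).2 ω rfl
  rw [sub_mul, map_sub, sub_eq_zero, mul_assoc, kpa_tr_comm, mul_assoc, mul_assoc, hd']

/-- **(0.4)** `u = E_ω(u) + [ω, η]` -/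
theorem kpa_ad_dec {k : ℕ} {ω u : QA K} (hω : ω ∈ lev K k) (hu : u ∈ lev K k) :
    ∃ η ∈ lev K k, Pr k {ω} η = 0 ∧ u = Pr k {ω} u + (ω * η - η * ω) := by
  obtain ⟨η, h1, h2, h3⟩ := kpa_ad_surj hω
    (Subalgebra.sub_mem _ hu (kpa_Pr_mem (S := {ω}) hu)) (kpa_Pr_sub_Pr hu)
  exact ⟨η, h1, h2, by rw [← h3]; abel⟩

/-- `[ω, ·]` is injective on the orthogonal complement of the centralizer -/
theorem kpa_ad_inj {k : ℕ} {ω η : QA K} (hη : η ∈ lev K k)
    (h : Pr k {ω} η = 0) (h0 : ω * η - η * ω = 0) : η = 0 := by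
  have h1 : η ∈ cenA k {ω} := mem_cenA.2 ⟨hη, by
    rintro _ rfl
    exact (sub_eq_zero.1 h0).symm⟩
  rw [← kpa_Pr_of_mem h1, h]

end Crest.Agent.KP
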