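import Crest.Agent.KPA_Low

/-!
# S0270, part (A): a start field: Hahn series over `ℚ` with exponents in `Lex (ℕ →₀ ℤ)`
(author helper26)
-/

set_option autoImplicit false
set_option linter.unusedSectionVars false
set_option linter.unusedSimpArgs false

open scoped PowerSeries LaurentSeries symmDiff

namespace Crest.Agent.KP

/-- value group -/
abbrev Ga : Type := Lex (ℕ →₀ ℤ)

/-- the start field -/
abbrev K00 : Type := HahnSeries Ga ℚ

/-- basis vector of the value group -/
noncomputable def gv0 (n : ℕ) : Ga := toLex (Finsupp.single n (1 : ℤ))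

noncomputable instance : QPar K00 where
  al s := HahnSeries.single (gv0 (2 * s)) (1 : ℚ)
  be s := HahnSeries.single (gv0 (2 * s + 1)) (1 : ℚ)

theorem k00_al (s : ℕ) : (al s : K00) = HahnSeries.single (gv0 (2 * s)) (1 : ℚ) := rfl
theorem k00_be (s : ℕ) : (be s : K00) = HahnSeries.single (gv0 (2 * s + 1)) (1 : ℚ) := rfl

theorem k00_al_ne (s : ℕ) : (al s : K00) ≠ 0 := by
  rw [k00_al]
  exact HahnSeries.single_ne_zero one_ne_zero

theorem k00_be_ne (s : ℕ) : (be s : K00) ≠ 0 := by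
  rw [k00_be]
  exact HahnSeries.single_ne_zero one_ne_zero

theorem k00_order_al (s : ℕ) : (al s : K00).order = gv0 (2 * s) := by
  rw [k00_al]
  exact HahnSeries.order_single one_ne_zero

theorem k00_order_be (s : ℕ) : (be s : K00).order = gv0 (2 * s + 1) := by
  rw [k00_be]
  exact HahnSeries.order_single one_ne_zero

/-- twice the value of `e g` -/
noncomputable def rho0 (g : Gp) : Ga :=
  (∑ s ∈ g.1, gv0 (2 * s)) + ∑ s ∈ g.2, gv0 (2 * s + 1)

theorem k00_order_prod (f : ℕ → K00) (hf : ∀ s, f s ≠ 0) (a : Finset ℕ) :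
    (∏ s ∈ a, f s) ≠ 0 ∧ (∏ s ∈ a, f s).order = ∑ s ∈ a, (f s).order := by
  classical
  induction a using Finset.induction_on with
  | empty => exact ⟨by rw [Finset.prod_empty]; exact one_ne_zero, by
      rw [Finset.prod_empty, Finset.sum_empty]; exact HahnSeries.order_one⟩
  | insert s a hs ih =>
    rw [Finset.prod_insert hs, Finset.sum_insert hs]
    exact ⟨mul_ne_zero (hf s) ih.1, by rw [HahnSeries.order_mul (hf s) ih.1, ih.2]⟩

theorem k00_order_sign (n : ℕ) : ((-1 : K00) ^ n).order = 0 := by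
  rcases neg_one_pow_eq_or K00 n with h | h
  · rw [h]; exact HahnSeries.order_one
  · rw [h, HahnSeries.order_neg]; exact HahnSeries.order_one

theorem k00_coc_ne (g h : Gp) : coc K00 g h ≠ 0 := by
  unfold coc
  exact mul_ne_zero (mul_ne_zero (pow_ne_zero _ (neg_ne_zero.2 one_ne_zero))
    (k00_order_prod _ k00_al_ne _).1) (k00_order_prod _ k00_be_ne _).1

theorem k00_order_coc (g h : Gp) : (coc K00 g h).order =
    (∑ s ∈ g.1 ∩ h.1, gv0 (2 * s)) + ∑ s ∈ g.2 ∩ h.2, gv0 (2 * s + 1) := by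
  unfold coc
  rw [HahnSeries.order_mul (mul_ne_zero (pow_ne_zero _ (neg_ne_zero.2 one_ne_zero))
    (k00_order_prod _ k00_al_ne _).1) (k00_order_prod _ k00_be_ne _).1,
    HahnSeries.order_mul (pow_ne_zero _ (neg_ne_zero.2 one_ne_zero))
    (k00_order_prod _ k00_al_ne _).1, k00_order_sign, zero_add,
    (k00_order_prod _ k00_al_ne _).2, (k00_order_prod _ k00_be_ne _).2]
  simp only [k00_order_al, k00_order_be]

theorem sum_symmDiff_add {M : Type*} [AddCommGroup M] (f : ℕ → M) (a b : Finset ℕ) :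
    2 • (∑ s ∈ a ∩ b, f s) + ∑ s ∈ a ∆ b, f s = (∑ s ∈ a, f s) + ∑ s ∈ b, f s := by
  have h1 : ∑ t ∈ a, f t = (∑ t ∈ a \ b, f t) + ∑ t ∈ a ∩ b, f t := by
    rw [← Finset.sum_union (Finset.disjoint_left.2 fun t ht ht' => by
      simp only [Finset.mem_sdiff, Finset.mem_inter] at ht ht'; exact ht.2 ht'.2),
      Finset.sdiff_union_inter]
  have h2 : ∑ t ∈ b, f t = (∑ t ∈ b \ a, f t) + ∑ t ∈ a ∩ b, f t := by
    rw [Finset.inter_comm, ← Finset.sum_union (Finset.disjoint_left.2 fun t ht ht' => by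
      simp only [Finset.mem_sdiff, Finset.mem_inter] at ht ht'; exact ht.2 ht'.2),
      Finset.sdiff_union_inter]
  have h3 : ∑ t ∈ a ∆ b, f t = (∑ t ∈ a \ b, f t) + ∑ t ∈ b \ a, f t := by
    rw [symmDiff_def, Finset.sup_eq_union, Finset.sum_union]
    exact Finset.disjoint_left.2 fun t ht ht' => by
      simp only [Finset.mem_sdiff] at ht ht'; exact ht.2 ht'.1
  rw [h1, h2, h3, two_nsmul]
  abel

theorem k00_coc_rho (g h : Gp) :
    2 • (coc K00 g h).order + rho0 (gx g h) = rho0 g + rho0 h := by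
  rw [k00_order_coc]
  unfold rho0 gx
  have h1 := sum_symmDiff_add (fun s => gv0 (2 * s)) g.1 h.1
  have h2 := sum_symmDiff_add (fun s => gv0 (2 * s + 1)) g.2 h.2
  simp only at h1 h2 ⊢
  rw [nsmul_add]
  calc _ = (2 • (∑ s ∈ g.1 ∩ h.1, gv0 (2 * s)) + ∑ s ∈ g.1 ∆ h.1, gv0 (2 * s)) +
        (2 • (∑ s ∈ g.2 ∩ h.2, gv0 (2 * s + 1)) + ∑ s ∈ g.2 ∆ h.2, gv0 (2 * s + 1)) := by abel
    _ = _ := by rw [h1, h2]; abel

theorem gv0_sum_coord (a : Finset ℕ) (f : ℕ → ℕ) (n : ℕ) :
    ofLex (∑ s ∈ a, gv0 (f s)) n = ∑ s ∈ a, if f s = n then (1 : ℤ) else 0 := by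
  classical
  induction a using Finset.induction_on with
  | empty => rw [Finset.sum_empty, Finset.sum_empty]; rfl
  | insert s a hs ih =>
    rw [Finset.sum_insert hs, Finset.sum_insert hs, ← ih]
    have h1 : ofLex (gv0 (f s) + ∑ s ∈ a, gv0 (f s)) n =
      ofLex (gv0 (f s)) n + ofLex (∑ s ∈ a, gv0 (f s)) n := rfl
    rw [h1]
    congr 1
    unfold gv0
    rw [ofLex_toLex, Finsupp.single_apply]

theorem rho0_even (g : Gp) (s : ℕ) : ofLex (rho0 g) (2 * s) = if s ∈ g.1 then 1 else 0 := by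
  classical
  have h1 : ofLex (rho0 g) (2 * s) = ofLex (∑ s ∈ g.1, gv0 (2 * s)) (2 * s) +
    ofLex (∑ s ∈ g.2, gv0 (2 * s + 1)) (2 * s) := rfl
  rw [h1, gv0_sum_coord, gv0_sum_coord]
  have h2 : ∑ t ∈ g.2, (if 2 * t + 1 = 2 * s then (1 : ℤ) else 0) = 0 :=
    Finset.sum_eq_zero fun t _ => if_neg (by omega)
  rw [h2, add_zero]
  have h3 : ∀ t, (if 2 * t = 2 * s then (1 : ℤ) else 0) = if t = s then 1 else 0 := by
    intro t
    by_cases h : t = s
    · rw [if_pos h, if_pos (by omega)]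
    · rw [if_neg h, if_neg (by omega)]
  simp only [h3, Finset.sum_ite_eq']

theorem rho0_odd (g : Gp) (s : ℕ) : ofLex (rho0 g) (2 * s + 1) = if s ∈ g.2 then 1 else 0 := by
  classical
  have h1 : ofLex (rho0 g) (2 * s + 1) = ofLex (∑ s ∈ g.1, gv0 (2 * s)) (2 * s + 1) +
    ofLex (∑ s ∈ g.2, gv0 (2 * s + 1)) (2 * s + 1) := rfl
  rw [h1, gv0_sum_coord, gv0_sum_coord]
  have h2 : ∑ t ∈ g.1, (if 2 * t = 2 * s + 1 then (1 : ℤ) else 0) = 0 :=
    Finset.sum_eq_zero fun t _ => if_neg (by omega)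
  rw [h2, zero_add]
  have h3 : ∀ t, (if 2 * t + 1 = 2 * s + 1 then (1 : ℤ) else 0) = if t = s then 1 else 0 := by
    intro t
    by_cases h : t = s
    · rw [if_pos h, if_pos (by omega)]
    · rw [if_neg h, if_neg (by omega)]
  simp only [h3, Finset.sum_ite_eq']

/-- parity separates the indices -/
theorem rho0_parity {g h : Gp} {x y : Ga} (H : 2 • x + rho0 g = 2 • y + rho0 h) : g = h := by
  have hc : ∀ n : ℕ, 2 * ofLex x n + ofLex (rho0 g) n = 2 * ofLex y n + ofLex (rho0 h) n := by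
    intro n
    have h1 := congrArg (fun z : Ga => ofLex z n) H
    have h2 : ∀ (z w : Ga), ofLex (2 • z + w : Ga) n = 2 * ofLex z n + ofLex w n := by
      intro z w
      rw [two_nsmul, two_mul]
      rfl
    rw [← h2, ← h2]
    exact h1
  apply Prod.ext
  · ext s
    have h1 := hc (2 * s)
    rw [rho0_even, rho0_even] at h1
    by_cases e1 : s ∈ g.1 <;> by_cases e2 : s ∈ h.1
    · exact ⟨fun _ => e2, fun _ => e1⟩
    · rw [if_pos e1, if_neg e2] at h1; omega
    · rw [if_neg e1, if_pos e2] at h1; omega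
    · exact ⟨fun h => absurd h e1, fun h => absurd h e2⟩
  · ext s
    have h1 := hc (2 * s + 1)
    rw [rho0_odd, rho0_odd] at h1
    by_cases e1 : s ∈ g.2 <;> by_cases e2 : s ∈ h.2
    · exact ⟨fun _ => e2, fun _ => e1⟩
    · rw [if_pos e1, if_neg e2] at h1; omega
    · rw [if_neg e1, if_pos e2] at h1; omega
    · exact ⟨fun h => absurd h e1, fun h => absurd h e2⟩

/-- coefficient formula for the product -/
theorem kpa_mul_coeff {R : Type} [CommRing R] [QPar R] (u v : QA R) (l : Gp) :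
    (u * v) l = ∑ g ∈ QA.supp u, coc R g (gx l g) * (u g * v (gx l g)) := by
  classical
  have h1 : ∀ (t : Finset Gp), ((∑ g ∈ t, QA.ec g (u g)) * v) l =
      ∑ g ∈ t, coc R g (gx l g) * (u g * v (gx l g)) := by
    intro t
    induction t using Finset.induction_on with
    | empty => rw [Finset.sum_empty, Finset.sum_empty, zero_mul]; rfl
    | insert a t ha ih =>
      rw [Finset.sum_insert ha, Finset.sum_insert ha, add_mul, QA.q_add_apply, ih,
        kpa_ec_mul_apply]
  rw [← h1, ← kpa_sum_ec u (QA.supp u) (fun g hg => QA.mem_supp.2 hg)]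

theorem k00_dom (u v : QA K00) (h : u * v = 0) : u = 0 ∨ v = 0 := by
  classical
  by_contra hcon
  push Not at hcon
  obtain ⟨hu, hv⟩ := hcon
  have hne : ∀ w : QA K00, w ≠ 0 → (QA.supp w).Nonempty := by
    intro w hw
    by_contra H
    rw [Finset.not_nonempty_iff_eq_empty] at H
    refine hw (QA.q_ext fun g => ?_)
    by_contra hg
    have := QA.mem_supp.2 hg
    rw [H] at this
    exact absurd this (Finset.notMem_empty g)
  obtain ⟨g0, hg0, hg0'⟩ := Finset.exists_min_image (QA.supp u)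
    (fun g => 2 • (u g).order + rho0 g) (hne u hu)
  obtain ⟨h0, hh0, hh0'⟩ := Finset.exists_min_image (QA.supp v)
    (fun g => 2 • (v g).order + rho0 g) (hne v hv)
  have ug0 : u g0 ≠ 0 := QA.mem_supp.1 hg0
  have vh0 : v h0 ≠ 0 := QA.mem_supp.1 hh0
  set l0 := gx g0 h0 with hl0
  have hh0l : gx l0 g0 = h0 := by
    rw [hl0, kpa_gx_comm g0 h0, kpa_gx_cancel]
  have hco := kpa_mul_coeff u v l0
  rw [h, QA.q_zero_apply] at hco
  -- the main term
  set m := coc K00 g0 (gx l0 g0) * (u g0 * v (gx l0 g0)) with hm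
  have hm0 : m ≠ 0 := by
    rw [hm, hh0l]
    exact mul_ne_zero (k00_coc_ne _ _) (mul_ne_zero ug0 vh0)
  have hord : ∀ g, u g ≠ 0 → v (gx l0 g) ≠ 0 →
      2 • (coc K00 g (gx l0 g) * (u g * v (gx l0 g))).order + rho0 l0 =
        (2 • (u g).order + rho0 g) + (2 • (v (gx l0 g)).order + rho0 (gx l0 g)) := by
    intro g h1 h2
    rw [HahnSeries.order_mul (k00_coc_ne _ _) (mul_ne_zero h1 h2), HahnSeries.order_mul h1 h2]
    have h3 := k00_coc_rho g (gx l0 g)
    have h4 : gx g (gx l0 g) = l0 := by rw [kpa_gx_comm, kpa_gx_cancel]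
    rw [h4] at h3
    rw [nsmul_add, nsmul_add]
    calc _ = (2 • (coc K00 g (gx l0 g)).order + rho0 l0) +
          (2 • (u g).order + 2 • (v (gx l0 g)).order) := by abel
      _ = _ := by rw [h3]; abel
  have hmc : m.coeff m.order ≠ 0 := fun H => hm0 (HahnSeries.coeff_order_eq_zero.1 H)
  have hz : ∀ g ∈ QA.supp u, g ≠ g0 →
      (coc K00 g (gx l0 g) * (u g * v (gx l0 g))).coeff m.order = 0 := by
    intro g hg hne
    have h1 : u g ≠ 0 := QA.mem_supp.1 hg
    by_cases h2 : v (gx l0 g) = 0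
    · rw [h2, mul_zero, mul_zero]; rfl
    · apply HahnSeries.coeff_eq_zero_of_lt_order
      have e1 := hord g h1 h2
      have e2 := hord g0 ug0 (by rw [hh0l]; exact vh0)
      rw [← hm] at e2
      have e3 : 2 • (u g0).order + rho0 g0 < 2 • (u g).order + rho0 g := by
        refine lt_of_le_of_ne (hg0' g hg) ?_
        intro H
        exact hne (rho0_parity H).symm
      have e4 : 2 • (v (gx l0 g0)).order + rho0 (gx l0 g0) ≤
          2 • (v (gx l0 g)).order + rho0 (gx l0 g) := by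
        rw [hh0l]
        exact hh0' _ (QA.mem_supp.2 h2)
      have e5 : 2 • m.order + rho0 l0 <
          2 • (coc K00 g (gx l0 g) * (u g * v (gx l0 g))).order + rho0 l0 := by
        rw [e1, e2]
        exact add_lt_add_of_lt_of_le e3 e4
      have e6 := lt_of_add_lt_add_right e5
      by_contra hle
      exact absurd (nsmul_le_nsmul_right (not_lt.1 hle) 2) (not_le.2 e6)
  have hfin := congrArg (fun x : K00 => x.coeff m.order) hco
  have hsum : ∀ (t : Finset Gp) (f : Gp → K00), (∑ g ∈ t, f g).coeff m.order =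
      ∑ g ∈ t, (f g).coeff m.order := by
    intro t f
    induction t using Finset.induction_on with
    | empty => rw [Finset.sum_empty, Finset.sum_empty]; rfl
    | insert a t ha ih => rw [Finset.sum_insert ha, Finset.sum_insert ha, HahnSeries.coeff_add, ih]
  rw [hsum, Finset.sum_eq_single g0 hz (fun H => absurd hg0 H)] at hfin
  exact hmc hfin.symm

noncomputable instance k00KF : KF K00 :=
  { (inferInstance : QPar K00) with
    al_ne := k00_al_ne
    be_ne := k00_be_ne
    char0 := algebraRat.charZero K00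
    dom := k00_dom }

end Crest.Agent.KP
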