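import Mathlib

/-!
S0270, part (B), file 8: the first order part `Dp(ω)[u]` of `p(ω + ε u)` in a noncommutative algebra.
-/

set_option autoImplicit false
set_option linter.unusedSectionVars false

open Polynomial

namespace Crest.Agent.KP

variable {K A : Type} [Field K] [Ring A] [Algebra K A]

/-- first order part of `(a + ε b)^n` -/
def Dm (n : ℕ) (a b : A) : A := ∑ i ∈ Finset.range n, a ^ i * b * a ^ (n - 1 - i)

theorem Dm_zero (a b : A) : Dm 0 a b = 0 := by simp [Dm]

theorem Dm_succ (n : ℕ) (a b : A) : Dm (n + 1) a b = Dm n a b * a + a ^ n * b := by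
  unfold Dm
  rw [Finset.sum_range_succ, Finset.sum_mul]
  congr 1
  · refine Finset.sum_congr rfl fun i hi => ?_
    have h1 : n + 1 - 1 - i = (n - 1 - i) + 1 := by
      have := Finset.mem_range.mp hi; omega
    rw [h1, pow_succ, ← mul_assoc]
  · simp

theorem Dm_add (n : ℕ) (a b c : A) : Dm n a (b + c) = Dm n a b + Dm n a c := by
  unfold Dm
  rw [← Finset.sum_add_distrib]
  exact Finset.sum_congr rfl fun i _ => by rw [mul_add, add_mul]

theorem Dm_smul (n : ℕ) (a b : A) (c : K) : Dm n a (c • b) = c • Dm n a b := by
  unfold Dm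
  rw [Finset.smul_sum]
  exact Finset.sum_congr rfl fun i _ => by rw [mul_smul_comm, smul_mul_assoc]

theorem Dm_comm (n : ℕ) (a b : A) (h : a * b = b * a) : Dm n a b = (n * a ^ (n - 1)) * b := by
  induction n with
  | zero => simp [Dm_zero]
  | succ n ih =>
    have hc : Commute a b := h
    rw [Dm_succ, ih, Nat.add_sub_cancel, mul_assoc, h.symm, ← mul_assoc, Nat.cast_succ, add_mul,
      add_mul, one_mul]
    congr 1
    rcases n with _ | n
    · simp
    · rw [Nat.add_sub_cancel, mul_assoc (((n + 1 : ℕ) : A)), ← pow_succ]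

theorem Dm_commutator (n : ℕ) (a η : A) : Dm n a (a * η - η * a) = a ^ n * η - η * a ^ n := by
  induction n with
  | zero => simp [Dm_zero]
  | succ n ih => rw [Dm_succ, ih, pow_succ]; noncomm_ring

/-- first order part of `p(a + ε b)` -/
noncomputable def Dp (p : K[X]) (a b : A) : A := p.sum fun n c => c • Dm n a b

theorem Dp_add_left (p q : K[X]) (a b : A) : Dp (p + q) a b = Dp p a b + Dp q a b := by
  unfold Dp
  refine Polynomial.sum_add_index p q _ (fun i => zero_smul _ _) (fun i x y => add_smul _ _ _)

theorem Dp_monomial (n : ℕ) (c : K) (a b : A) : Dp (monomial n c) a b = c • Dm n a b := by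
  unfold Dp
  exact Polynomial.sum_monomial_index c _ (zero_smul _ _)

theorem Dp_add (p : K[X]) (a b c : A) : Dp p a (b + c) = Dp p a b + Dp p a c := by
  induction p using Polynomial.induction_on' with
  | add p q hp hq => rw [Dp_add_left, Dp_add_left, Dp_add_left, hp, hq]; abel
  | monomial n x => rw [Dp_monomial, Dp_monomial, Dp_monomial, Dm_add, smul_add]

theorem Dp_smul (p : K[X]) (a b : A) (c : K) : Dp p a (c • b) = c • Dp p a b := by
  induction p using Polynomial.induction_on' with
  | add p q hp hq => rw [Dp_add_left, Dp_add_left, hp, hq, smul_add]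
  | monomial n x => rw [Dp_monomial, Dp_monomial, Dm_smul, smul_comm]

theorem Dp_comm (p : K[X]) (a b : A) (h : a * b = b * a) :
    Dp p a b = aeval a p.derivative * b := by
  induction p using Polynomial.induction_on' with
  | add p q hp hq => rw [Dp_add_left, hp, hq, derivative_add, map_add, add_mul]
  | monomial n x =>
    rw [Dp_monomial, Dm_comm n a b h, derivative_monomial, aeval_monomial, map_mul, map_natCast,
      Algebra.smul_def]
    simp only [mul_assoc]

theorem Dp_commutator (p : K[X]) (a η : A) :
    Dp p a (a * η - η * a) = aeval a p * η - η * aeval a p := by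
  induction p using Polynomial.induction_on' with
  | add p q hp hq => rw [Dp_add_left, hp, hq, map_add, add_mul, mul_add]; abel
  | monomial n x =>
    rw [Dp_monomial, Dm_commutator, aeval_monomial, ← Algebra.smul_def, smul_sub,
      smul_mul_assoc, mul_smul_comm]

/-- `Dp(a)[c + [a,η]] = p'(a) c` if `p(a) = 0` and `c` commutes with `a` -/
theorem Dp_of_decomp (p : K[X]) (a u c η : A) (hp : aeval a p = 0) (hc : a * c = c * a)
    (hu : u = c + (a * η - η * a)) : Dp p a u = aeval a p.derivative * c := by
  rw [hu, Dp_add, Dp_comm p a c hc, Dp_commutator, hp, zero_mul, mul_zero, sub_zero, add_zero]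

end Crest.Agent.KP
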