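import Crest.Agent.KPB_D2
import Crest.Agent.KPB_Dp

/-!
S0270, part (B), file 9: D1, first order information in the residue of `L[ω']`.
-/

set_option autoImplicit false
set_option linter.unusedSectionVars false

open Module Polynomial

namespace Crest.Agent.KP

namespace Place

section
variable {K L : Type} [Field K] [Field L] [QPar K] [QPar L] (P : Place K L)

theorem Dm_int_rq (n : ℕ) {a b : QA L} (ha : P.Int a) (hb : P.Int b) :
    P.Int (Dm n a b) ∧ P.rq (Dm n a b) = Dm n (P.rq a) (P.rq b) := by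
  induction n with
  | zero => rw [Dm_zero, Dm_zero]; exact ⟨P.int_zero, P.rq_zero⟩
  | succ n ih =>
    obtain ⟨h1, h2⟩ := ih
    rw [Dm_succ, Dm_succ]
    refine ⟨P.int_add (P.int_mul h1 ha) (P.int_mul (P.int_pow ha n) hb), ?_⟩
    rw [P.rq_add (P.int_mul h1 ha) (P.int_mul (P.int_pow ha n) hb), P.rq_mul h1 ha,
      P.rq_mul (P.int_pow ha n) hb, P.rq_pow ha, h2]

theorem Dp_int_rq (p : K[X]) {a b : QA L} (ha : P.Int a) (hb : P.Int b) :
    P.Int (Dp (p.map P.inc) a b) ∧
      P.rq (Dp (p.map P.inc) a b) = Dp p (P.rq a) (P.rq b) := by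
  induction p using Polynomial.induction_on' with
  | add p q hp hq =>
    rw [Polynomial.map_add, Dp_add_left, Dp_add_left, ← hp.2, ← hq.2]
    exact ⟨P.int_add hp.1 hq.1, P.rq_add hp.1 hq.1⟩
  | monomial n x =>
    obtain ⟨h1, h2⟩ := P.Dm_int_rq n ha hb
    rw [Polynomial.map_monomial, Dp_monomial, Dp_monomial]
    exact ⟨P.int_smul (P.inc_mem x) h1, by rw [P.rq_smul (P.inc_mem x) h1, h2, P.r_inc]⟩

theorem pow_expand (n : ℕ) {a b : QA L} {π : L} (hπ : π ∈ P.O) (ha : P.Int a) (hb : P.Int b) :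
    ∃ R : QA L, P.Int R ∧ (a + π • b) ^ n = a ^ n + π • Dm n a b + (π * π) • R := by
  induction n with
  | zero => exact ⟨0, P.int_zero, by rw [Dm_zero]; simp⟩
  | succ n ih =>
    obtain ⟨R, hR, h⟩ := ih
    have hD := (P.Dm_int_rq n ha hb).1
    refine ⟨R * a + π • (R * b) + Dm n a b * b,
      P.int_add (P.int_add (P.int_mul hR ha) (P.int_smul hπ (P.int_mul hR hb)))
        (P.int_mul hD hb), ?_⟩
    rw [pow_succ, h, Dm_succ, pow_succ]
    simp only [add_mul, mul_add, smul_add, smul_mul_assoc, mul_smul_comm, smul_smul]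
    rw [show π * (π * π) = π * π * π by ring]
    abel

theorem poly_expand (p : K[X]) {a b : QA L} {π : L} (hπ : π ∈ P.O) (ha : P.Int a)
    (hb : P.Int b) : ∃ R : QA L, P.Int R ∧ aeval (a + π • b) (p.map P.inc) =
      aeval a (p.map P.inc) + π • Dp (p.map P.inc) a b + (π * π) • R := by
  induction p using Polynomial.induction_on' with
  | add p q hp hq =>
    obtain ⟨R1, h1, h2⟩ := hp
    obtain ⟨R2, h3, h4⟩ := hq
    refine ⟨R1 + R2, P.int_add h1 h3, ?_⟩
    rw [Polynomial.map_add, map_add, map_add, h2, h4, Dp_add_left]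
    simp only [smul_add]
    abel
  | monomial n x =>
    obtain ⟨R, hR, h⟩ := P.pow_expand n hπ ha hb
    refine ⟨P.inc x • R, P.int_smul (P.inc_mem x) hR, ?_⟩
    rw [Polynomial.map_monomial, aeval_monomial, aeval_monomial, Dp_monomial, h,
      ← Algebra.smul_def, ← Algebra.smul_def]
    simp only [smul_add, smul_smul]
    rw [mul_comm (P.inc x) π, mul_comm (P.inc x) (π * π)]

theorem aeval_iq (p : K[X]) (ω : QA K) : aeval (P.iq ω) (p.map P.inc) = P.iq (aeval ω p) := by
  induction p using Polynomial.induction_on' with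
  | add p q hp hq => rw [Polynomial.map_add, map_add, map_add, map_add, hp, hq]
  | monomial n x =>
    rw [Polynomial.map_monomial, aeval_monomial, aeval_monomial, ← Algebra.smul_def,
      ← Algebra.smul_def, P.iq_smul, map_pow]

/-- general form: if `p(ω₀) = 0` then `Dp(ω₀)[res u]` is in the residue of `L[ω₀ + π u]` -/
theorem Dp_mem_resA (p : K[X]) (ω0 : QA K) (hp : aeval ω0 p = 0) {u : QA L} (hu : P.Int u)
    {π : L} (hπ0 : π ≠ 0) (hπ : π ∈ P.O) (hπr : P.r π = 0) :
    Dp p ω0 (P.rq u) ∈ P.resA (Algebra.adjoin L {P.iq ω0 + π • u}) := by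
  obtain ⟨R, hR, h⟩ := P.poly_expand p hπ (P.int_iq ω0) hu
  obtain ⟨h1, h2⟩ := P.Dp_int_rq p (P.int_iq ω0) hu
  rw [P.aeval_iq, hp, map_zero, zero_add] at h
  refine ⟨π⁻¹ • aeval (P.iq ω0 + π • u) (p.map P.inc), ?_, ?_, ?_⟩
  · exact Subalgebra.smul_mem _ (Polynomial.aeval_mem_adjoin_singleton _ _) _
  · rw [h, smul_add, smul_smul, smul_smul, inv_mul_cancel₀ hπ0, one_smul, ← mul_assoc,
      inv_mul_cancel₀ hπ0, one_mul]
    exact P.int_add h1 (P.int_smul hπ hR)
  · rw [h, smul_add, smul_smul, smul_smul, inv_mul_cancel₀ hπ0, one_smul, ← mul_assoc,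
      inv_mul_cancel₀ hπ0, one_mul, P.rq_add h1 (P.int_smul hπ hR), P.rq_smul hπ hR, hπr,
      zero_smul, add_zero, h2, P.rq_iq]

theorem base_mem_resA (ω0 : QA K) {u : QA L} (hu : P.Int u)
    {π : L} (hπ : π ∈ P.O) (hπr : P.r π = 0) :
    ω0 ∈ P.resA (Algebra.adjoin L {P.iq ω0 + π • u}) := by
  refine ⟨P.iq ω0 + π • u, Algebra.subset_adjoin rfl,
    P.int_add (P.int_iq ω0) (P.int_smul hπ hu), ?_⟩
  rw [P.rq_add (P.int_iq ω0) (P.int_smul hπ hu), P.rq_smul hπ hu, hπr, zero_smul, add_zero,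
    P.rq_iq]

end

end Place

section
variable {K : Type} [Field K] [KF K]

/-- `p'(ω)` is invertible in `K[ω]`, `p = minpoly ω` -/
theorem exists_inv_derivative {ω : QA K} (h : IsIntegral K ω) :
    ∃ q : K[X], aeval ω q * aeval ω (minpoly K ω).derivative = 1 := by
  have : IsDomain (QA K) := NoZeroDivisors.to_isDomain _
  have h1 : Irreducible (minpoly K ω) := minpoly.irreducible h
  have h2 : (minpoly K ω).Separable := h1.separable
  obtain ⟨a, b, hab⟩ := h2
  refine ⟨b, ?_⟩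
  have h3 := congrArg (aeval ω) hab
  rw [map_add, map_mul, map_mul, minpoly.aeval, mul_zero, zero_add, map_one] at h3
  exact h3

/-- if `Dp(ω)[u]` lies in an algebra containing `ω` and `u = c + [ω,η]`, `c` commuting with `ω`,
then `c` lies in the algebra -/
theorem mem_of_Dp_mem {ω u c η : QA K} (h : IsIntegral K ω) (B : Subalgebra K (QA K))
    (hω : ω ∈ B) (hD : Dp (minpoly K ω) ω u ∈ B) (hc : ω * c = c * ω)
    (hu : u = c + (ω * η - η * ω)) : c ∈ B := by
  rw [Dp_of_decomp _ ω u c η (minpoly.aeval K ω) hc hu] at hD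
  obtain ⟨q, hq⟩ := exists_inv_derivative h
  have h1 : c = aeval ω q * (aeval ω (minpoly K ω).derivative * c) := by
    rw [← mul_assoc, hq, one_mul]
  rw [h1]
  refine mul_mem ?_ hD
  have h2 : aeval ω q ∈ Algebra.adjoin K {ω} := aeval_mem_adjoin_singleton _ _
  exact (Algebra.adjoin_le (by rintro _ rfl; exact hω)) h2

end

namespace Place

variable {K L : Type} [Field K] [Field L] [KF K] [KF L] (P : Place K L)

/-- D1, hypotheses in elementary form -/
theorem D1_aux {ω0 c η : QA K} (hint : IsIntegral K ω0) {u : QA L} (hu : P.Int u)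
    {π : L} (hπ0 : π ≠ 0) (hπ : π ∈ P.O) (hπr : P.r π = 0) (hc : ω0 * c = c * ω0)
    (hdec : P.rq u = c + (ω0 * η - η * ω0)) :
    c ∈ P.resA (Algebra.adjoin L {P.iq ω0 + π • u}) :=
  mem_of_Dp_mem hint _ (P.base_mem_resA ω0 hu hπ hπr)
    (P.Dp_mem_resA _ ω0 (minpoly.aeval K ω0) hu hπ0 hπ hπr) hc hdec

end Place

end Crest.Agent.KP
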