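import Crest.Agent.KPB_alg

/-!
S0270, part (B), file 7: D2, residues of centralizers and of orthogonal projections.
-/

set_option autoImplicit false
set_option linter.unusedSectionVars false

open Module

namespace Crest.Agent.KP

/-- the centralizer of `S` in `lev K k`, as a subalgebra -/
noncomputable def CenA {K : Type} [Field K] [QPar K] (k : ℕ) (S : Set (QA K)) :
    Subalgebra K (QA K) := lev K k ⊓ Subalgebra.centralizer K S

theorem mem_CenA {K : Type} [Field K] [QPar K] {k : ℕ} {S : Set (QA K)} {c : QA K} :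
    c ∈ CenA k S ↔ c ∈ lev K k ∧ ∀ φ ∈ S, c * φ = φ * c := by
  rw [CenA, Algebra.mem_inf, Subalgebra.mem_centralizer_iff]
  exact and_congr Iff.rfl (forall₂_congr fun _ _ => eq_comm)

namespace Place

variable {K L : Type} [Field K] [Field L] [KF K] [KF L] (P : Place K L)

theorem resA_CenA_le (k : ℕ) (Φ : Subalgebra L (QA L)) :
    P.resA (CenA k (Φ : Set (QA L))) ≤ CenA k (P.resA Φ : Set (QA K)) := by
  rintro _ ⟨v, hv, h1, rfl⟩
  rw [mem_CenA] at hv ⊢
  exact ⟨P.rq_lev hv.1, P.rq_comm h1 hv.2⟩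

/-- residue of the centralizer, from dimension formulas -/
theorem resA_CenA_aux (k : ℕ) (Φ : Subalgebra L (QA L)) (hΦ : Φ ≤ lev L k)
    (hfK : FiniteDimensional K (lev K k)) (hfL : FiniteDimensional L (lev L k))
    (hL : finrank L (CenA k (Φ : Set (QA L))) * finrank L Φ = 4 ^ k)
    (hK : finrank K (CenA k (P.resA Φ : Set (QA K))) * finrank K (P.resA Φ) = 4 ^ k) :
    P.resA (CenA k (Φ : Set (QA L))) = CenA k (P.resA Φ : Set (QA K)) := by
  have hfΦ : FiniteDimensional L Φ := by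
    have h1 : FiniteDimensional L (Subalgebra.toSubmodule (lev L k)) := hfL
    exact Submodule.finiteDimensional_of_le (S₁ := Subalgebra.toSubmodule Φ)
      (S₂ := Subalgebra.toSubmodule (lev L k)) hΦ
  have hfC : FiniteDimensional L (CenA k (Φ : Set (QA L))) := by
    have h1 : FiniteDimensional L (Subalgebra.toSubmodule (lev L k)) := hfL
    exact Submodule.finiteDimensional_of_le
      (S₁ := Subalgebra.toSubmodule (CenA k (Φ : Set (QA L))))
      (S₂ := Subalgebra.toSubmodule (lev L k)) (fun x hx => (mem_CenA.mp hx).1)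
  have hfC' : FiniteDimensional K (CenA k (P.resA Φ : Set (QA K))) := by
    have h1 : FiniteDimensional K (Subalgebra.toSubmodule (lev K k)) := hfK
    exact Submodule.finiteDimensional_of_le
      (S₁ := Subalgebra.toSubmodule (CenA k (P.resA Φ : Set (QA K))))
      (S₂ := Subalgebra.toSubmodule (lev K k)) (fun x hx => (mem_CenA.mp hx).1)
  have h1 : finrank K (P.resA (CenA k (Φ : Set (QA L)))) =
      finrank K (CenA k (P.resA Φ : Set (QA K))) := by
    rw [P.finrank_resA]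
    rw [P.finrank_resA] at hK
    have h2 : 0 < finrank L Φ := by
      refine Nat.pos_of_ne_zero fun h => ?_
      rw [h, mul_zero] at hL
      exact absurd hL (by positivity)
    exact Nat.eq_of_mul_eq_mul_right h2 (hL.trans hK.symm)
  have hfC'' : FiniteDimensional K
      (Subalgebra.toSubmodule (CenA k (P.resA Φ : Set (QA K)))) := hfC'
  have h3 := Submodule.eq_of_le_of_finrank_eq
    (S₁ := Subalgebra.toSubmodule (P.resA (CenA k (Φ : Set (QA L)))))
    (S₂ := Subalgebra.toSubmodule (CenA k (P.resA Φ : Set (QA K))))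
    (P.resA_CenA_le k Φ) h1
  exact Subalgebra.toSubmodule_injective h3

/-- D2 from the residue of the centralizer and nondegeneracy of the trace form on it -/
theorem D2_aux (k : ℕ) (Φ : Subalgebra L (QA L))
    (hC : P.resA (CenA k (Φ : Set (QA L))) = CenA k (P.resA Φ : Set (QA K)))
    (hnd : ∀ c ∈ CenA k (P.resA Φ : Set (QA K)), c ≠ 0 →
      ∃ d ∈ CenA k (P.resA Φ : Set (QA K)), QA.tr (c * d) ≠ 0)
    {u c : QA L} (hu : P.Int u) (hc : IsPr k (Φ : Set (QA L)) u c) :
    P.Int c ∧ IsPr k (P.resA Φ : Set (QA K)) (P.rq u) (P.rq c) := by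
  obtain ⟨hc1, hc2, hc3⟩ := hc
  have hcC : c ∈ CenA k (Φ : Set (QA L)) := mem_CenA.mpr ⟨hc1, hc2⟩
  have hint : P.Int c := by
    by_contra hn
    have hne : c ≠ 0 := fun h => hn (by rw [h]; exact P.int_zero)
    obtain ⟨π, hπ0, h1, h2, h3⟩ := P.exists_scale_q c hne
    obtain ⟨hπ, hπr⟩ := h3 hn
    have hmem : P.rq (π • c) ∈ CenA k (P.resA Φ : Set (QA K)) := by
      rw [← hC]
      exact P.rq_mem_resA (Subalgebra.smul_mem _ hcC π) h1
    obtain ⟨d0, hd0, hd1⟩ := hnd _ hmem h2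
    rw [← hC] at hd0
    obtain ⟨d, hd, hdi, rfl⟩ := hd0
    obtain ⟨hd2, hd3⟩ := mem_CenA.mp hd
    have h4 := hc3 d hd2 hd3
    have h5 : QA.tr ((π • c) * d) = π * QA.tr (u * d) := by
      rw [sub_mul, map_sub, sub_eq_zero] at h4
      rw [Algebra.smul_mul_assoc, map_smul, smul_eq_mul, h4]
    have h6 := congrArg P.r h5
    rw [P.r_tr, P.rq_mul h1 hdi, P.r_mul hπ (P.tr_mem (P.int_mul hu hdi)), hπr, zero_mul] at h6
    exact hd1 h6
  refine ⟨hint, P.rq_lev hc1, fun φ hφ => P.rq_comm hint hc2 φ hφ, ?_⟩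
  intro d0 hd0 hd1
  have hd0C : d0 ∈ CenA k (P.resA Φ : Set (QA K)) := mem_CenA.mpr ⟨hd0, hd1⟩
  rw [← hC] at hd0C
  obtain ⟨d, hd, hdi, rfl⟩ := hd0C
  obtain ⟨hd2, hd3⟩ := mem_CenA.mp hd
  have h4 := hc3 d hd2 hd3
  rw [← P.rq_sub hu hint, ← P.rq_mul (P.int_sub hu hint) hdi, ← P.r_tr, h4, P.r_zero']

end Place

/-- uniqueness of the orthogonal projection from nondegeneracy -/
theorem IsPr_unique_aux {K : Type} [Field K] [KF K] (k : ℕ) (S : Set (QA K))
    (hnd : ∀ c ∈ CenA k S, c ≠ 0 → ∃ d ∈ CenA k S, QA.tr (c * d) ≠ 0)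
    {u c c' : QA K} (h : IsPr k S u c) (h' : IsPr k S u c') : c = c' := by
  by_contra hne
  have h1 : c - c' ∈ CenA k S :=
    sub_mem (mem_CenA.mpr ⟨h.1, h.2.1⟩) (mem_CenA.mpr ⟨h'.1, h'.2.1⟩)
  obtain ⟨d, hd, hd1⟩ := hnd _ h1 (sub_ne_zero.mpr hne)
  obtain ⟨hd2, hd3⟩ := mem_CenA.mp hd
  apply hd1
  have h2 := h.2.2 d hd2 hd3
  have h3 := h'.2.2 d hd2 hd3
  have h4 : (c - c') * d = (u - c') * d - (u - c) * d := by rw [← sub_mul]; congr 1; abel
  rw [h4, map_sub, h2, h3, sub_zero]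

end Crest.Agent.KP
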