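import Crest.Agent.KPB_ext

/-!
S0270, part (B), file 6: residues of subalgebras.
-/

set_option autoImplicit false
set_option linter.unusedSectionVars false

open Module

namespace Crest.Agent.KP.Place

variable {K L : Type} [Field K] [Field L] [QPar K] [QPar L] (P : Place K L)

/-- residue algebra of a subalgebra of `QA L` -/
noncomputable def resA (Φ : Subalgebra L (QA L)) : Subalgebra K (QA K) where
  carrier := {u | ∃ v ∈ Φ, P.Int v ∧ P.rq v = u}
  mul_mem' := by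
    rintro _ _ ⟨v, hv, h1, rfl⟩ ⟨w, hw, h2, rfl⟩
    exact ⟨v * w, mul_mem hv hw, P.int_mul h1 h2, P.rq_mul h1 h2⟩
  add_mem' := by
    rintro _ _ ⟨v, hv, h1, rfl⟩ ⟨w, hw, h2, rfl⟩
    exact ⟨v + w, add_mem hv hw, P.int_add h1 h2, P.rq_add h1 h2⟩
  algebraMap_mem' := fun c => ⟨algebraMap L (QA L) (P.inc c), Φ.algebraMap_mem _,
    P.int_algebraMap (P.inc_mem c), by rw [P.rq_algebraMap (P.inc_mem c), P.r_inc]⟩

theorem mem_resA {Φ : Subalgebra L (QA L)} {u : QA K} :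
    u ∈ P.resA Φ ↔ ∃ v ∈ Φ, P.Int v ∧ P.rq v = u := Iff.rfl

theorem rq_mem_resA {Φ : Subalgebra L (QA L)} {v : QA L} (hv : v ∈ Φ) (h : P.Int v) :
    P.rq v ∈ P.resA Φ := ⟨v, hv, h, rfl⟩

theorem toSubmodule_resA (Φ : Subalgebra L (QA L)) :
    Subalgebra.toSubmodule (P.resA Φ) = P.resS (Subalgebra.toSubmodule Φ) := by
  ext u
  exact Iff.rfl

theorem resA_mono {Φ Ψ : Subalgebra L (QA L)} (h : Φ ≤ Ψ) : P.resA Φ ≤ P.resA Ψ := by
  rintro u ⟨v, hv, h1, h2⟩
  exact ⟨v, h hv, h1, h2⟩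

instance finiteDimensional_resA (Φ : Subalgebra L (QA L)) [h : FiniteDimensional L Φ] :
    FiniteDimensional K (P.resA Φ) := by
  have h1 : FiniteDimensional L (Subalgebra.toSubmodule Φ) := h
  exact (inferInstance : FiniteDimensional K (P.resS (Subalgebra.toSubmodule Φ)))

theorem finrank_resA (Φ : Subalgebra L (QA L)) [h : FiniteDimensional L Φ] :
    finrank K (P.resA Φ) = finrank L Φ := by
  have h1 : FiniteDimensional L (Subalgebra.toSubmodule Φ) := h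
  exact P.finrank_resS (Subalgebra.toSubmodule Φ)

theorem resA_on_le {A : Set ℕ} {Φ : Subalgebra L (QA L)} (h : Φ ≤ QA.on (R := L) A) :
    P.resA Φ ≤ QA.on (R := K) A := by
  rintro _ ⟨v, hv, h1, rfl⟩
  exact P.rq_on (h hv)

theorem resA_lev_le {k : ℕ} {Φ : Subalgebra L (QA L)} (h : Φ ≤ lev L k) :
    P.resA Φ ≤ lev K k := P.resA_on_le h

theorem resA_on (A : Set ℕ) : P.resA (QA.on (R := L) A) = QA.on (R := K) A := by
  refine le_antisymm (P.resA_on_le le_rfl) ?_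
  intro u hu
  exact ⟨P.iq u, P.iq_on hu, P.int_iq u, P.rq_iq u⟩

theorem resA_lev (k : ℕ) : P.resA (lev L k) = lev K k := P.resA_on _

theorem resS_lev (k : ℕ) : P.resS (Subalgebra.toSubmodule (lev L k)) =
    Subalgebra.toSubmodule (lev K k) := by
  rw [← P.toSubmodule_resA, P.resA_lev]

theorem resS_mid (k l : ℕ) : P.resS (Subalgebra.toSubmodule (mid L k l)) =
    Subalgebra.toSubmodule (mid K k l) := by
  rw [← P.toSubmodule_resA, mid, P.resA_on]; rfl

/-- an integral element commuting with `Φ` has residue commuting with the residue of `Φ` -/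
theorem rq_comm {Φ : Subalgebra L (QA L)} {u : QA L} (hu : P.Int u)
    (h : ∀ φ ∈ Φ, u * φ = φ * u) : ∀ φ ∈ P.resA Φ, P.rq u * φ = φ * P.rq u := by
  rintro _ ⟨v, hv, h1, rfl⟩
  rw [← P.rq_mul hu h1, ← P.rq_mul h1 hu, h v hv]

theorem resA_comm {Φ : Subalgebra L (QA L)} (h : ∀ a ∈ Φ, ∀ b ∈ Φ, a * b = b * a) :
    ∀ a ∈ P.resA Φ, ∀ b ∈ P.resA Φ, a * b = b * a := by
  rintro _ ⟨v, hv, h1, rfl⟩ b hb
  exact P.rq_comm h1 (fun φ hφ => h v hv φ hφ) b hb

theorem resA_le_centralizer {Φ Ψ : Subalgebra L (QA L)}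
    (h : Ψ ≤ Subalgebra.centralizer L (Φ : Set (QA L))) :
    P.resA Ψ ≤ Subalgebra.centralizer K (P.resA Φ : Set (QA K)) := by
  rintro _ ⟨v, hv, h1, rfl⟩
  rw [Subalgebra.mem_centralizer_iff]
  intro φ hφ
  have h2 := h hv
  rw [Subalgebra.mem_centralizer_iff] at h2
  exact (P.rq_comm h1 (fun ψ hψ => (h2 ψ hψ).symm) φ hφ).symm

/-- residue field of `L[ω]` contains `K[res ω]` -/
theorem adjoin_rq_le {ω : QA L} (h : P.Int ω) :
    Algebra.adjoin K {P.rq ω} ≤ P.resA (Algebra.adjoin L {ω}) := by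
  refine Algebra.adjoin_le ?_
  rintro _ rfl
  exact P.rq_mem_resA (Algebra.subset_adjoin rfl) h

theorem adjoin_rq_le_of {S : Set (QA L)} (h : ∀ ω ∈ S, P.Int ω) :
    Algebra.adjoin K (P.rq '' S) ≤ P.resA (Algebra.adjoin L S) := by
  refine Algebra.adjoin_le ?_
  rintro _ ⟨ω, hω, rfl⟩
  exact P.rq_mem_resA (Algebra.subset_adjoin hω) (h ω hω)

/-- residues of products: `V * W` for subspaces -/
theorem rq_mul_mem_resS {V W : Submodule L (QA L)} {a b : QA K} (ha : a ∈ P.resS V)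
    (hb : b ∈ P.resS W) : a * b ∈ P.resS (V * W) := by
  obtain ⟨v, hv, h1, rfl⟩ := ha
  obtain ⟨w, hw, h2, rfl⟩ := hb
  exact ⟨v * w, Submodule.mul_mem_mul hv hw, P.int_mul h1 h2, P.rq_mul h1 h2⟩

end Crest.Agent.KP.Place
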