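import Crest.Agent.KPB_latS
import Crest.Agent.KP_Defs2

/-!
S0270, part (B), file 5: extension of scalars `V ↦ L V` along a place; its residue space is `V`.
-/

set_option autoImplicit false
set_option linter.unusedSectionVars false

open Module
open scoped PowerSeries LaurentSeries

namespace Crest.Agent.KP.Place

variable {K L : Type} [Field K] [Field L] [QPar K] [QPar L] (P : Place K L)

/-- inclusion of constants on tuples -/
noncomputable def iI {I : Type} (v : I → QA K) : I → QA L := fun i => P.iq (v i)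

variable {I : Type}

theorem intI_iI (v : I → QA K) : P.IntI (P.iI v) := fun i => P.int_iq (v i)
theorem rI_iI (v : I → QA K) : P.rI (P.iI v) = v := funext fun i => P.rq_iq (v i)
theorem iI_add (v w : I → QA K) : P.iI (v + w) = P.iI v + P.iI w := funext fun i => map_add P.iq _ _
theorem iI_zero : P.iI (0 : I → QA K) = 0 := funext fun _ => map_zero P.iq
theorem iI_smul (c : K) (v : I → QA K) : P.iI (c • v) = P.inc c • P.iI v :=
  funext fun i => P.iq_smul c (v i)

/-- `L V` -/
noncomputable def extI (V : Submodule K (I → QA K)) : Submodule L (I → QA L) :=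
  Submodule.span L (P.iI '' (V : Set (I → QA K)))

/-- `L V` for subspaces of `QA K` -/
noncomputable def extS (V : Submodule K (QA K)) : Submodule L (QA L) :=
  Submodule.span L (P.iq '' (V : Set (QA K)))

theorem iI_mem_extI {V : Submodule K (I → QA K)} {v : I → QA K} (hv : v ∈ V) :
    P.iI v ∈ P.extI V := Submodule.subset_span ⟨v, hv, rfl⟩

theorem extI_mono {V V' : Submodule K (I → QA K)} (h : V ≤ V') : P.extI V ≤ P.extI V' :=
  Submodule.span_mono (Set.image_mono h)

theorem extI_sup (V V' : Submodule K (I → QA K)) : P.extI (V ⊔ V') = P.extI V ⊔ P.extI V' := by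
  refine le_antisymm ?_ (sup_le (P.extI_mono le_sup_left) (P.extI_mono le_sup_right))
  refine Submodule.span_le.mpr ?_
  rintro _ ⟨u, hu, rfl⟩
  obtain ⟨a, ha, b, hb, rfl⟩ := Submodule.mem_sup.mp hu
  rw [SetLike.mem_coe, P.iI_add]
  exact Submodule.add_mem_sup (P.iI_mem_extI ha) (P.iI_mem_extI hb)

/-- every element of `L V` lies in `L V₁` for some finite dimensional `V₁ ≤ V` with basis `b` -/
theorem exists_sum_of_mem_extI {V : Submodule K (I → QA K)} {w : I → QA L}
    (hw : w ∈ P.extI V) : ∃ (n : ℕ) (v : Fin n → I → QA K) (c : Fin n → L),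
      (∀ i, v i ∈ V) ∧ LinearIndependent K v ∧ w = ∑ i, c i • P.iI (v i) := by
  classical
  -- first some finite generating family
  have h1 : ∃ (V1 : Submodule K (I → QA K)), V1 ≤ V ∧ FiniteDimensional K V1 ∧ w ∈ P.extI V1 := by
    refine Submodule.span_induction (p := fun w _ => ∃ (V1 : Submodule K (I → QA K)), V1 ≤ V ∧
      FiniteDimensional K V1 ∧ w ∈ P.extI V1) ?_ ?_ ?_ ?_ hw
    · rintro _ ⟨u, hu, rfl⟩
      refine ⟨Submodule.span K {u}, ?_, inferInstance, P.iI_mem_extI
        (Submodule.mem_span_singleton_self u)⟩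
      rw [Submodule.span_singleton_le_iff_mem]; exact hu
    · exact ⟨⊥, bot_le, inferInstance, zero_mem _⟩
    · rintro x y _ _ ⟨V1, h1, h2, h3⟩ ⟨V2, h4, h5, h6⟩
      refine ⟨V1 ⊔ V2, sup_le h1 h4, inferInstance, ?_⟩
      exact add_mem (P.extI_mono le_sup_left h3) (P.extI_mono le_sup_right h6)
    · rintro a x _ ⟨V1, h1, h2, h3⟩
      exact ⟨V1, h1, h2, Submodule.smul_mem _ a h3⟩
  obtain ⟨V1, hV1, hfd, hw1⟩ := h1
  let b : Basis (Fin (finrank K V1)) K V1 := finBasis K V1
  refine ⟨finrank K V1, fun i => (b i : I → QA K), ?_⟩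
  have hspan : P.extI V1 ≤ Submodule.span L (Set.range fun i => P.iI (b i : I → QA K)) := by
    refine Submodule.span_le.mpr ?_
    rintro _ ⟨u, hu, rfl⟩
    have h2 : u = ∑ i, b.repr ⟨u, hu⟩ i • (b i : I → QA K) := by
      have h0 := congrArg Subtype.val (b.sum_repr ⟨u, hu⟩)
      rw [Submodule.coe_sum] at h0
      exact h0.symm
    have h3 : P.iI u = ∑ i, P.inc (b.repr ⟨u, hu⟩ i) • P.iI (b i : I → QA K) := by
      conv_lhs => rw [h2]
      have h4 : ∀ s : Finset (Fin (finrank K V1)),
          P.iI (∑ i ∈ s, b.repr ⟨u, hu⟩ i • (b i : I → QA K)) =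
          ∑ i ∈ s, P.inc (b.repr ⟨u, hu⟩ i) • P.iI (b i : I → QA K) := by
        intro s
        induction s using Finset.induction_on with
        | empty => simpa using P.iI_zero
        | insert a s ha ih =>
          rw [Finset.sum_insert ha, Finset.sum_insert ha, P.iI_add, ih, P.iI_smul]
      exact h4 _
    rw [SetLike.mem_coe, h3]
    exact Submodule.sum_mem _ fun i _ => Submodule.smul_mem _ _ (Submodule.subset_span ⟨i, rfl⟩)
  obtain ⟨c, hc⟩ := (Submodule.mem_span_range_iff_exists_fun L).mp (hspan hw1)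
  refine ⟨c, fun i => hV1 (b i).2, ?_, hc.symm⟩
  exact b.linearIndependent.map' V1.subtype (Submodule.ker_subtype _)

/-- the residue space of `L V` is `V` -/
theorem resI_extI [Finite I] (V : Submodule K (I → QA K)) : P.resI (P.extI V) = V := by
  classical
  refine le_antisymm ?_ ?_
  · rintro u ⟨w, hw, h1, h2⟩
    obtain ⟨n, v, c, hv, hli, hc⟩ := P.exists_sum_of_mem_extI hw
    -- coefficients are integral
    have hO : ∀ i, c i ∈ P.O := by
      by_contra hne
      push Not at hne
      obtain ⟨i1, hi1⟩ := hne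
      obtain ⟨a, ha, h3, ⟨i0, -, h4⟩, h5⟩ := P.exists_scale Finset.univ c
        ⟨i1, Finset.mem_univ _, fun h => hi1 (by rw [h]; exact zero_mem _)⟩
      obtain ⟨h6, h7⟩ := h5 ⟨i1, Finset.mem_univ _, hi1⟩
      have h8 : a • w = ∑ i, (a * c i) • P.iI (v i) := by
        rw [hc, Finset.smul_sum]
        exact Finset.sum_congr rfl fun i _ => by rw [smul_smul]
      have h9 := congrArg P.rI h8
      rw [P.rI_smul h6 h1, h7, zero_smul,
        P.rI_sum _ _ fun i hi => P.intI_smul (h3 i hi) (P.intI_iI _),
        Finset.sum_congr rfl fun i hi => P.rI_smul (h3 i hi) (P.intI_iI _),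
        Finset.sum_congr rfl fun i _ => by rw [P.rI_iI]] at h9
      have h10 := linearIndependent_iff'.mp hli Finset.univ (fun i => P.r (a * c i)) h9.symm i0
        (Finset.mem_univ _)
      rw [h4, P.r_one] at h10
      exact one_ne_zero h10
    have h3 : P.rI w = ∑ i, P.r (c i) • v i := by
      rw [hc, P.rI_sum _ _ fun i _ => P.intI_smul (hO i) (P.intI_iI _)]
      exact Finset.sum_congr rfl fun i _ => by rw [P.rI_smul (hO i) (P.intI_iI _), P.rI_iI]
    have h2' : P.rI w = u := h2
    rw [← h2', h3]
    exact Submodule.sum_mem _ fun i _ => Submodule.smul_mem _ _ (hv i)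
  · intro u hu
    exact ⟨P.iI u, P.iI_mem_extI hu, P.intI_iI u, P.rI_iI u⟩

instance finiteDimensional_extI (V : Submodule K (I → QA K)) [FiniteDimensional K V] :
    FiniteDimensional L (P.extI V) := by
  classical
  let b : Basis (Fin (finrank K V)) K V := finBasis K V
  have hle : P.extI V ≤ Submodule.span L (Set.range fun i => P.iI (b i : I → QA K)) := by
    refine Submodule.span_le.mpr ?_
    rintro _ ⟨u, hu, rfl⟩
    have h2 : u = ∑ i, b.repr ⟨u, hu⟩ i • (b i : I → QA K) := by
      have h0 := congrArg Subtype.val (b.sum_repr ⟨u, hu⟩)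
      rw [Submodule.coe_sum] at h0
      exact h0.symm
    have h4 : ∀ s : Finset (Fin (finrank K V)),
        P.iI (∑ i ∈ s, b.repr ⟨u, hu⟩ i • (b i : I → QA K)) ∈
        Submodule.span L (Set.range fun i => P.iI (b i : I → QA K)) := by
      intro s
      induction s using Finset.induction_on with
      | empty => rw [Finset.sum_empty, P.iI_zero]; exact zero_mem _
      | insert a s ha ih =>
        rw [Finset.sum_insert ha, P.iI_add, P.iI_smul]
        exact add_mem (Submodule.smul_mem _ _ (Submodule.subset_span ⟨a, rfl⟩)) ih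
    rw [SetLike.mem_coe, h2]
    exact h4 _
  have hfd : FiniteDimensional L
      (Submodule.span L (Set.range fun i => P.iI (b i : I → QA K))) :=
    FiniteDimensional.span_of_finite L (Set.finite_range _)
  exact Submodule.finiteDimensional_of_le hle

theorem finrank_extI [Finite I] (V : Submodule K (I → QA K)) [FiniteDimensional K V] :
    finrank L (P.extI V) = finrank K V := by
  rw [← P.finrank_resI (P.extI V), P.resI_extI]

/-- for the Laurent place the extension is `extV` -/
theorem extI_laurent {F : Type} [Field F] [QPar F] (V : Submodule F (I → QA F)) :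
    (Place.laurent F).extI V = extV V := rfl

theorem iq_mem_extS {V : Submodule K (QA K)} {v : QA K} (hv : v ∈ V) :
    P.iq v ∈ P.extS V := Submodule.subset_span ⟨v, hv, rfl⟩

theorem extS_mono {V V' : Submodule K (QA K)} (h : V ≤ V') : P.extS V ≤ P.extS V' :=
  Submodule.span_mono (Set.image_mono h)

theorem toU_extS (V : Submodule K (QA K)) : toU (P.extS V) = P.extI (toU V) := by
  refine le_antisymm ?_ ?_
  · intro w hw
    have h : ∀ x ∈ P.extS V, (fun _ : Unit => x) ∈ P.extI (toU V) := by
      intro x hx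
      refine Submodule.span_induction (p := fun x _ => (fun _ : Unit => x) ∈ P.extI (toU V))
        ?_ ?_ ?_ ?_ hx
      · rintro _ ⟨u, hu, rfl⟩
        exact P.iI_mem_extI (V := toU V) (v := fun _ => u) hu
      · exact zero_mem _
      · intro x y _ _ h1 h2; exact add_mem h1 h2
      · intro a x _ h1; exact Submodule.smul_mem _ a h1
    exact h (w ()) hw
  · refine Submodule.span_le.mpr ?_
    rintro _ ⟨u, hu, rfl⟩
    exact P.iq_mem_extS hu

theorem resS_extS (V : Submodule K (QA K)) : P.resS (P.extS V) = V := by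
  have h1 := P.resI_toU (P.extS V)
  rw [P.toU_extS, P.resI_extI] at h1
  ext u
  have h2 : (fun _ : Unit => u) ∈ toU V ↔ (fun _ : Unit => u) ∈ toU (P.resS (P.extS V)) := by
    rw [h1]
  exact h2.symm

end Crest.Agent.KP.Place
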