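import Crest.Agent.KPB_q

/-!
S0270, part (B), file 3: LAT. Residue spaces of finite dimensional subspaces of `(QA L)^I`.
-/

set_option autoImplicit false
set_option linter.unusedSectionVars false

open Module

namespace Crest.Agent.KP.Place

variable {K L : Type} [Field K] [Field L] [QPar K] [QPar L] (P : Place K L)

/-- integral tuple -/
def IntI {I : Type} (v : I → QA L) : Prop := ∀ i, P.Int (v i)

/-- residue of a tuple -/
noncomputable def rI {I : Type} (v : I → QA L) : I → QA K := fun i => P.rq (v i)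

variable {I : Type}

theorem intI_zero : P.IntI (0 : I → QA L) := fun _ => P.int_zero
theorem intI_add {u v : I → QA L} (hu : P.IntI u) (hv : P.IntI v) : P.IntI (u + v) :=
  fun i => P.int_add (hu i) (hv i)
theorem intI_smul {c : L} (hc : c ∈ P.O) {u : I → QA L} (hu : P.IntI u) : P.IntI (c • u) :=
  fun i => P.int_smul hc (hu i)
theorem intI_sub {u v : I → QA L} (hu : P.IntI u) (hv : P.IntI v) : P.IntI (u - v) :=
  fun i => P.int_sub (hu i) (hv i)
theorem rI_zero : P.rI (0 : I → QA L) = 0 := funext fun _ => P.rq_zero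
theorem rI_add {u v : I → QA L} (hu : P.IntI u) (hv : P.IntI v) :
    P.rI (u + v) = P.rI u + P.rI v := funext fun i => P.rq_add (hu i) (hv i)
theorem rI_sub {u v : I → QA L} (hu : P.IntI u) (hv : P.IntI v) :
    P.rI (u - v) = P.rI u - P.rI v := funext fun i => P.rq_sub (hu i) (hv i)
theorem rI_smul {c : L} (hc : c ∈ P.O) {u : I → QA L} (hu : P.IntI u) :
    P.rI (c • u) = P.r c • P.rI u := funext fun i => P.rq_smul hc (hu i)
theorem intI_sum {ι : Type} (s : Finset ι) (f : ι → I → QA L) (h : ∀ i ∈ s, P.IntI (f i)) :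
    P.IntI (∑ i ∈ s, f i) := by
  classical
  induction s using Finset.induction_on with
  | empty => simpa using P.intI_zero
  | insert a s ha ih =>
    rw [Finset.sum_insert ha]
    exact P.intI_add (h a (Finset.mem_insert_self a s))
      (ih fun i hi => h i (Finset.mem_insert_of_mem hi))
theorem rI_sum {ι : Type} (s : Finset ι) (f : ι → I → QA L) (h : ∀ i ∈ s, P.IntI (f i)) :
    P.rI (∑ i ∈ s, f i) = ∑ i ∈ s, P.rI (f i) := by
  classical
  induction s using Finset.induction_on with
  | empty => simpa using P.rI_zero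
  | insert a s ha ih =>
    rw [Finset.sum_insert ha, Finset.sum_insert ha,
      P.rI_add (h a (Finset.mem_insert_self a s))
        (P.intI_sum s f fun i hi => h i (Finset.mem_insert_of_mem hi)),
      ih fun i hi => h i (Finset.mem_insert_of_mem hi)]

theorem mem_resI {V : Submodule L (I → QA L)} {u : I → QA K} :
    u ∈ P.resI V ↔ ∃ v ∈ V, P.IntI v ∧ P.rI v = u := Iff.rfl

theorem rI_mem_resI {V : Submodule L (I → QA L)} {v : I → QA L} (hv : v ∈ V) (h : P.IntI v) :
    P.rI v ∈ P.resI V := ⟨v, hv, h, rfl⟩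

theorem resI_mono {V V' : Submodule L (I → QA L)} (h : V ≤ V') : P.resI V ≤ P.resI V' := by
  rintro u ⟨v, hv, h1, h2⟩
  exact ⟨v, h hv, h1, h2⟩

theorem scaleI [Finite I] (v : I → QA L) (hv : v ≠ 0) :
    ∃ c : L, c ≠ 0 ∧ P.IntI (c • v) ∧ P.rI (c • v) ≠ 0 ∧
      (¬ P.IntI v → c ∈ P.O ∧ P.r c = 0) := by
  obtain ⟨c, h1, h2, h3, h4⟩ := P.exists_scale_I v hv
  refine ⟨c, h1, h2, h3, fun h => h4 ?_⟩
  by_contra h5
  push Not at h5
  exact h h5

/-- lifts of linearly independent residues are linearly independent -/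
theorem li_of_res {ι : Type} (v : ι → I → QA L) (hv : ∀ i, P.IntI (v i))
    (h : LinearIndependent K fun i => P.rI (v i)) : LinearIndependent L v := by
  classical
  rw [linearIndependent_iff']
  intro s g hg
  by_contra hne
  push Not at hne
  obtain ⟨c, hc, h1, ⟨i0, hi0, h2⟩, -⟩ := P.exists_scale s g hne
  have h3 : ∑ i ∈ s, (c * g i) • v i = 0 := by
    have : ∑ i ∈ s, (c * g i) • v i = c • ∑ i ∈ s, g i • v i := by
      rw [Finset.smul_sum]; exact Finset.sum_congr rfl fun i _ => by rw [smul_smul]
    rw [this, hg, smul_zero]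
  have h4 := congrArg P.rI h3
  rw [P.rI_sum s _ fun i hi => P.intI_smul (h1 i hi) (hv i), P.rI_zero] at h4
  rw [Finset.sum_congr rfl fun i hi => P.rI_smul (h1 i hi) (hv i)] at h4
  have h5 := linearIndependent_iff'.mp h s (fun i => P.r (c * g i)) h4 i0 hi0
  rw [h2, P.r_one] at h5
  exact one_ne_zero h5

/-- every linear functional on `(QA K)^I` extends to `(QA L)^I`, compatibly with residues -/
theorem exists_ext_functional [Finite I] (f : (I → QA K) →ₗ[K] K) :
    ∃ F : (I → QA L) →ₗ[L] L, ∀ w, P.IntI w → F w ∈ P.O ∧ P.r (F w) = f (P.rI w) := by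
  classical
  have := Fintype.ofFinite I
  let φ : I → Gp → K := fun i g => f (Pi.single i (QA.e g))
  let Fi : I → (QA L →ₗ[L] L) := fun i =>
    (Finsupp.linearCombination L (fun g => P.inc (φ i g)) : (Gp →₀ L) →ₗ[L] L)
  have hFi : ∀ i (u : QA L), Fi i u = ∑ g ∈ Finsupp.support (u : Gp →₀ L),
      u g * P.inc (φ i g) := by
    intro i u
    exact Finsupp.linearCombination_apply L (u : Gp →₀ L)
  have hm : ∀ i (u : QA L), P.Int u → Fi i u ∈ P.O := by
    intro i u hu
    rw [hFi]
    exact sum_mem fun g _ => mul_mem (hu g) (P.inc_mem _)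
  have hr : ∀ i (u : QA L), P.Int u → P.r (Fi i u) = f (Pi.single i (P.rq u)) := by
    intro i u hu
    rw [hFi, P.r_sum _ _ fun g _ => mul_mem (hu g) (P.inc_mem _)]
    have h1 : P.rq u = ∑ g ∈ Finsupp.support (u : Gp →₀ L), P.r (u g) • QA.e g := by
      refine qa_ext fun h => ?_
      have h2 : ∀ (s : Finset Gp), (∑ g ∈ s, P.r (u g) • (QA.e g : QA K)) h =
          ∑ g ∈ s, P.r (u g) * (if g = h then 1 else 0) := by
        intro s
        induction s using Finset.induction_on with
        | empty => rfl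
        | insert a s ha ih =>
          rw [Finset.sum_insert ha, Finset.sum_insert ha, qa_add_apply, ih, qa_smul_apply]
          congr 2
          exact Finsupp.single_apply
      rw [h2, rq_apply]
      simp only [mul_ite, mul_one, mul_zero]
      rw [Finset.sum_ite_eq']
      split_ifs with h3
      · rfl
      · have : u h = 0 := Finsupp.notMem_support_iff.mp h3
        rw [this, P.r_zero']
    have h3 : (Pi.single i (P.rq u) : I → QA K) =
        ∑ g ∈ Finsupp.support (u : Gp →₀ L), P.r (u g) • Pi.single i (QA.e g) := by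
      conv_lhs => rw [h1]
      refine funext fun j => ?_
      rw [Finset.sum_apply]
      by_cases hj : j = i
      · subst hj; simp
      · simp [hj]
    rw [h3, map_sum]
    refine Finset.sum_congr rfl fun g _ => ?_
    rw [P.r_mul (hu g) (P.inc_mem _), P.r_inc, map_smul, smul_eq_mul]
  refine ⟨∑ i, (Fi i).comp (LinearMap.proj i), fun w hw => ?_⟩
  have e : (∑ i, (Fi i).comp (LinearMap.proj i)) w = ∑ i, Fi i (w i) := by
    rw [LinearMap.sum_apply]; rfl
  rw [e]
  refine ⟨sum_mem fun i _ => hm i _ (hw i), ?_⟩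
  rw [P.r_sum _ _ fun i _ => hm i _ (hw i)]
  have h4 : P.rI w = ∑ i, Pi.single i (P.rq (w i)) := by
    refine funext fun j => ?_
    rw [Finset.sum_apply]
    simp [rI, Pi.single_apply]
  rw [h4, map_sum]
  exact Finset.sum_congr rfl fun i _ => hr i _ (hw i)

/-- choose lifts of a linearly independent family in the residue space -/
theorem exists_lifts {V : Submodule L (I → QA L)} {ι : Type} (u : ι → I → QA K)
    (hu : ∀ i, u i ∈ P.resI V) (h : LinearIndependent K u) :
    ∃ v : ι → I → QA L, (∀ i, v i ∈ V ∧ P.IntI (v i) ∧ P.rI (v i) = u i) ∧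
      LinearIndependent L v := by
  choose v hv using fun i => (P.mem_resI).mp (hu i)
  refine ⟨v, hv, P.li_of_res v (fun i => (hv i).2.1) ?_⟩
  have : (fun i => P.rI (v i)) = u := funext fun i => (hv i).2.2
  rw [this]; exact h

theorem finiteDimensional_resI (V : Submodule L (I → QA L)) [FiniteDimensional L V] :
    FiniteDimensional K (P.resI V) ∧ finrank K (P.resI V) ≤ finrank L V := by
  have hr : Module.rank K (P.resI V) ≤ ((finrank L V : ℕ) : Cardinal) := by
    refine rank_le fun s hs => ?_
    have h1 : LinearIndependent K fun i : s => ((i : P.resI V) : I → QA K) :=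
      hs.map' (P.resI V).subtype (Submodule.ker_subtype _)
    obtain ⟨v, hv, hli⟩ := P.exists_lifts (V := V) (fun i : s => ((i : P.resI V) : I → QA K))
      (fun i => (i : P.resI V).2) h1
    have h2 : LinearIndependent L fun i : s => (⟨v i, (hv i).1⟩ : V) :=
      LinearIndependent.of_comp V.subtype hli
    have h3 := h2.fintype_card_le_finrank
    rwa [Fintype.card_coe] at h3
  have hfd : FiniteDimensional K (P.resI V) :=
    Module.rank_lt_aleph0_iff.mp (hr.trans_lt Cardinal.natCast_lt_aleph0)
  refine ⟨hfd, ?_⟩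
  exact Module.finrank_le_of_rank_le hr

instance (V : Submodule L (I → QA L)) [FiniteDimensional L V] :
    FiniteDimensional K (P.resI V) := (P.finiteDimensional_resI V).1

/-- LAT -/
theorem finrank_resI [Finite I] (V : Submodule L (I → QA L)) [FiniteDimensional L V] :
    finrank K (P.resI V) = finrank L V := by
  classical
  refine le_antisymm (P.finiteDimensional_resI V).2 ?_
  by_contra hlt
  push Not at hlt
  set m := finrank K (P.resI V) with hm
  let b : Basis (Fin m) K (P.resI V) := finBasis K (P.resI V)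
  -- dual functionals
  have h1 : ∀ i : Fin m, ∃ F : (I → QA L) →ₗ[L] L, ∀ w, P.IntI w →
      F w ∈ P.O ∧ ∀ h : P.rI w ∈ P.resI V, P.r (F w) = b.coord i ⟨P.rI w, h⟩ := by
    intro i
    obtain ⟨g, hg⟩ := LinearMap.exists_extend (b.coord i)
    obtain ⟨F, hF⟩ := P.exists_ext_functional g
    refine ⟨F, fun w hw => ⟨(hF w hw).1, fun h => ?_⟩⟩
    rw [(hF w hw).2, ← hg]; rfl
  choose F hF using h1
  -- common kernel
  let Φ : V →ₗ[L] (Fin m → L) := LinearMap.pi fun i => (F i).comp V.subtype
  have h2 : ∃ w : V, w ≠ 0 ∧ Φ w = 0 := by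
    by_contra h
    push Not at h
    have hinj : Function.Injective Φ := by
      rw [injective_iff_map_eq_zero]
      intro w hw
      by_contra hne
      exact h w hne hw
    have := LinearMap.finrank_le_finrank_of_injective hinj
    rw [finrank_fin_fun] at this
    omega
  obtain ⟨w, hw0, hw⟩ := h2
  have hw0' : (w : I → QA L) ≠ 0 := fun h => hw0 (Subtype.ext h)
  obtain ⟨c, hc, h3, h4, -⟩ := P.scaleI (w : I → QA L) hw0'
  have h5 : P.rI (c • (w : I → QA L)) ∈ P.resI V :=
    P.rI_mem_resI (V.smul_mem c w.2) h3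
  have h6 : (⟨P.rI (c • (w : I → QA L)), h5⟩ : P.resI V) = 0 := by
    refine b.ext_elem fun i => ?_
    have h7 := (hF i (c • (w : I → QA L)) h3).2 h5
    have h8 : F i (c • (w : I → QA L)) = 0 := by
      have h9 : Φ w i = 0 := by rw [hw]; rfl
      have h10 : F i (w : I → QA L) = 0 := h9
      rw [map_smul, h10, smul_zero]
    rw [h8, P.r_zero'] at h7
    rw [map_zero, Finsupp.zero_apply]
    exact h7.symm
  exact h4 (congrArg Subtype.val h6)

/-- lifts of a basis of the residue space form a basis and span the integral elements over `O` -/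
theorem lift_basis [Finite I] {V : Submodule L (I → QA L)} [FiniteDimensional L V] {ι : Type}
    [Fintype ι] (v : ι → I → QA L) (hv : ∀ i, v i ∈ V ∧ P.IntI (v i))
    (hli : LinearIndependent K fun i => P.rI (v i)) (hcard : Fintype.card ι = finrank L V) :
    ∀ w ∈ V, ∃ c : ι → L, w = ∑ i, c i • v i ∧ (P.IntI w → ∀ i, c i ∈ P.O) := by
  classical
  intro w hw
  have hliL : LinearIndependent L v := P.li_of_res v (fun i => (hv i).2) hli
  have hspan : w ∈ Submodule.span L (Set.range v) := by
    have h1 : Submodule.span L (Set.range v) ≤ V :=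
      Submodule.span_le.mpr (by rintro _ ⟨i, rfl⟩; exact (hv i).1)
    have h2 : Submodule.span L (Set.range v) = V := by
      refine Submodule.eq_of_le_of_finrank_eq h1 ?_
      rw [finrank_span_eq_card hliL, hcard]
    rw [h2]; exact hw
  obtain ⟨c, hc⟩ := (Submodule.mem_span_range_iff_exists_fun L).mp hspan
  refine ⟨c, hc.symm, fun hint => ?_⟩
  by_contra hne
  push Not at hne
  obtain ⟨i1, hi1⟩ := hne
  obtain ⟨a, ha, h1, ⟨i0, -, h2⟩, h3⟩ := P.exists_scale Finset.univ c
    ⟨i1, Finset.mem_univ _, fun h => hi1 (by rw [h]; exact zero_mem _)⟩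
  obtain ⟨h4, h5⟩ := h3 ⟨i1, Finset.mem_univ _, hi1⟩
  have h6 : a • w = ∑ i, (a * c i) • v i := by
    rw [← hc, Finset.smul_sum]
    exact Finset.sum_congr rfl fun i _ => by rw [smul_smul]
  have h7 := congrArg P.rI h6
  rw [P.rI_smul h4 hint, h5, zero_smul,
    P.rI_sum _ _ fun i hi => P.intI_smul (h1 i hi) (hv i).2,
    Finset.sum_congr rfl fun i hi => P.rI_smul (h1 i hi) (hv i).2] at h7
  have h8 := linearIndependent_iff'.mp hli Finset.univ (fun i => P.r (a * c i)) h7.symm i0
    (Finset.mem_univ _)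
  rw [h2, P.r_one] at h8
  exact one_ne_zero h8

end Crest.Agent.KP.Place
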