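import Crest.Agent.KPB_lat

/-!
S0270, part (B), file 4: LAT for subspaces of `QA L`, extension of scalars along a place.
-/

set_option autoImplicit false
set_option linter.unusedSectionVars false

open Module

namespace Crest.Agent.KP.Place

variable {K L : Type} [Field K] [Field L] [QPar K] [QPar L] (P : Place K L)

/-- `V` as a subspace of `Unit → QA L` -/
noncomputable def toU {F : Type} [Field F] (V : Submodule F (QA F)) :
    Submodule F (Unit → QA F) := V.comap (LinearMap.proj ())

theorem mem_toU {F : Type} [Field F] {V : Submodule F (QA F)} {v : Unit → QA F} :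
    v ∈ toU V ↔ v () ∈ V := Iff.rfl

/-- the linear equivalence `toU V ≃ V` -/
noncomputable def toUEquiv {F : Type} [Field F] (V : Submodule F (QA F)) : toU V ≃ₗ[F] V where
  toFun v := ⟨v.1 (), v.2⟩
  invFun v := ⟨fun _ => v.1, v.2⟩
  map_add' _ _ := rfl
  map_smul' _ _ := rfl
  left_inv _ := rfl
  right_inv _ := rfl

theorem mem_resS {V : Submodule L (QA L)} {u : QA K} :
    u ∈ P.resS V ↔ ∃ v ∈ V, P.Int v ∧ P.rq v = u := Iff.rfl

theorem rq_mem_resS {V : Submodule L (QA L)} {v : QA L} (hv : v ∈ V) (h : P.Int v) :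
    P.rq v ∈ P.resS V := ⟨v, hv, h, rfl⟩

theorem resS_mono {V V' : Submodule L (QA L)} (h : V ≤ V') : P.resS V ≤ P.resS V' := by
  rintro u ⟨v, hv, h1, h2⟩
  exact ⟨v, h hv, h1, h2⟩

theorem resI_toU (V : Submodule L (QA L)) : P.resI (toU V) = toU (P.resS V) := by
  ext u
  constructor
  · rintro ⟨v, hv, h1, h2⟩
    exact ⟨v (), hv, h1 (), congrFun h2 ()⟩
  · rintro ⟨v, hv, h1, h2⟩
    exact ⟨fun _ => v, hv, fun _ => h1, funext fun _ => h2⟩

instance finiteDimensional_toU {F : Type} [Field F] (V : Submodule F (QA F))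
    [FiniteDimensional F V] : FiniteDimensional F (toU V) :=
  (toUEquiv V).symm.finiteDimensional

instance finiteDimensional_resS (V : Submodule L (QA L)) [FiniteDimensional L V] :
    FiniteDimensional K (P.resS V) := by
  have h : FiniteDimensional K (toU (P.resS V)) := by
    rw [← P.resI_toU]; infer_instance
  exact (toUEquiv (P.resS V)).finiteDimensional

/-- LAT -/
theorem finrank_resS (V : Submodule L (QA L)) [FiniteDimensional L V] :
    finrank K (P.resS V) = finrank L V := by
  rw [← (toUEquiv (P.resS V)).finrank_eq, ← P.resI_toU, P.finrank_resI,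
    (toUEquiv V).finrank_eq]

theorem li_of_rq {ι : Type} (v : ι → QA L) (hv : ∀ i, P.Int (v i))
    (h : LinearIndependent K fun i => P.rq (v i)) : LinearIndependent L v := by
  have h1 : LinearIndependent K fun i => P.rI (I := Unit) (fun _ => v i) := by
    refine LinearIndependent.of_comp (LinearMap.proj (R := K) (φ := fun _ : Unit => QA K) ()) ?_
    exact h
  have h2 := P.li_of_res (I := Unit) (fun i _ => v i) (fun i _ => hv i) h1
  have h3 : Function.Injective (LinearMap.proj (R := L) (φ := fun _ : Unit => QA L) ()) := by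
    intro a b hab
    exact funext fun _ => hab
  exact h2.map' (LinearMap.proj (R := L) (φ := fun _ : Unit => QA L) ())
    (LinearMap.ker_eq_bot.mpr h3)

/-- choose lifts of a linearly independent family in the residue space -/
theorem exists_lifts_S {V : Submodule L (QA L)} {ι : Type} (u : ι → QA K)
    (hu : ∀ i, u i ∈ P.resS V) (h : LinearIndependent K u) :
    ∃ v : ι → QA L, (∀ i, v i ∈ V ∧ P.Int (v i) ∧ P.rq (v i) = u i) ∧
      LinearIndependent L v := by
  choose v hv using fun i => (P.mem_resS).mp (hu i)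
  refine ⟨v, hv, P.li_of_rq v (fun i => (hv i).2.1) ?_⟩
  have : (fun i => P.rq (v i)) = u := funext fun i => (hv i).2.2
  rw [this]; exact h

theorem lift_basis_S {V : Submodule L (QA L)} [FiniteDimensional L V] {ι : Type}
    [Fintype ι] (v : ι → QA L) (hv : ∀ i, v i ∈ V ∧ P.Int (v i))
    (hli : LinearIndependent K fun i => P.rq (v i)) (hcard : Fintype.card ι = finrank L V) :
    ∀ w ∈ V, ∃ c : ι → L, w = ∑ i, c i • v i ∧ (P.Int w → ∀ i, c i ∈ P.O) := by
  intro w hw
  have h1 : LinearIndependent K fun i => P.rI (I := Unit) (fun _ => v i) := by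
    refine LinearIndependent.of_comp (LinearMap.proj (R := K) (φ := fun _ : Unit => QA K) ()) ?_
    exact hli
  obtain ⟨c, hc1, hc2⟩ := P.lift_basis (I := Unit) (V := toU V) (fun i _ => v i)
    (fun i => ⟨(hv i).1, fun _ => (hv i).2⟩) h1
    (by rw [hcard, (toUEquiv V).finrank_eq]) (fun _ => w) hw
  refine ⟨c, ?_, fun h => hc2 fun _ => h⟩
  have h2 := congrFun hc1 ()
  rw [Finset.sum_apply] at h2
  exact h2


end Crest.Agent.KP.Place
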