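import Crest.Agent.KPB_r

/-!
S0270, part (B), file 2: integral elements of `QA L` and their residues.
-/

set_option autoImplicit false
set_option linter.unusedSectionVars false

namespace Crest.Agent.KP

theorem qa_ext {R : Type} [CommRing R] {u v : QA R} (h : ∀ g, u g = v g) : u = v :=
  DFunLike.ext _ _ h

theorem qa_add_apply {R : Type} [CommRing R] (u v : QA R) (g : Gp) : (u + v) g = u g + v g := rfl
theorem qa_sub_apply {R : Type} [CommRing R] (u v : QA R) (g : Gp) : (u - v) g = u g - v g :=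
  Finsupp.sub_apply (u : Gp →₀ R) v g
theorem qa_neg_apply {R : Type} [CommRing R] (u : QA R) (g : Gp) : (-u) g = -(u g) :=
  Finsupp.neg_apply (u : Gp →₀ R) g
theorem qa_smul_apply {R : Type} [CommRing R] (c : R) (u : QA R) (g : Gp) :
    (c • u) g = c * u g := Finsupp.smul_apply c (u : Gp →₀ R) g
theorem qa_zero_apply {R : Type} [CommRing R] (g : Gp) : (0 : QA R) g = 0 := rfl
theorem qa_one_apply {R : Type} [CommRing R] [QPar R] (g : Gp) :
    (1 : QA R) g = if (∅, ∅) = g then 1 else 0 := by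
  rw [QA.one_def]; unfold QA.e; exact Finsupp.single_apply
theorem qa_map_apply {R S : Type} [CommRing R] [CommRing S] (f : R →+* S) (u : QA R) (g : Gp) :
    QA.map f u g = f (u g) := Finsupp.mapRange_apply (hf := map_zero f)
theorem qa_tr_apply {R : Type} [CommRing R] [QPar R] (u : QA R) : QA.tr u = u (∅, ∅) := rfl

namespace Place

variable {K L : Type} [Field K] [Field L] [QPar K] [QPar L] (P : Place K L)

theorem rq_apply (u : QA L) (g : Gp) : P.rq u g = P.r (u g) := Finsupp.mapRange_apply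

theorem iq_apply (u : QA K) (g : Gp) : P.iq u g = P.inc (u g) := qa_map_apply _ _ _

theorem int_zero : P.Int 0 := fun _ => zero_mem _
theorem int_add {u v : QA L} (hu : P.Int u) (hv : P.Int v) : P.Int (u + v) :=
  fun g => add_mem (hu g) (hv g)
theorem int_neg {u : QA L} (hu : P.Int u) : P.Int (-u) := fun g => by
  rw [qa_neg_apply]; exact neg_mem (hu g)
theorem int_sub {u v : QA L} (hu : P.Int u) (hv : P.Int v) : P.Int (u - v) := fun g => by
  rw [qa_sub_apply]; exact sub_mem (hu g) (hv g)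
theorem int_smul {c : L} (hc : c ∈ P.O) {u : QA L} (hu : P.Int u) : P.Int (c • u) := fun g => by
  rw [qa_smul_apply]; exact mul_mem hc (hu g)
theorem int_sum {ι : Type} (s : Finset ι) (f : ι → QA L) (h : ∀ i ∈ s, P.Int (f i)) :
    P.Int (∑ i ∈ s, f i) := by
  classical
  induction s using Finset.induction_on with
  | empty => simpa using P.int_zero
  | insert a s ha ih =>
    rw [Finset.sum_insert ha]
    exact P.int_add (h a (Finset.mem_insert_self a s))
      (ih fun i hi => h i (Finset.mem_insert_of_mem hi))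
theorem int_one : P.Int 1 := fun g => by
  rw [qa_one_apply]; split_ifs
  · exact one_mem _
  · exact zero_mem _
theorem int_iq (u : QA K) : P.Int (P.iq u) := fun g => by rw [iq_apply]; exact P.inc_mem _

theorem rq_zero : P.rq 0 = 0 := qa_ext fun g => by
  rw [rq_apply, qa_zero_apply, qa_zero_apply, P.r_zero']
theorem rq_one : P.rq 1 = 1 := qa_ext fun g => by
  rw [rq_apply, qa_one_apply, qa_one_apply]; split_ifs
  · exact P.r_one
  · exact P.r_zero'
theorem rq_add {u v : QA L} (hu : P.Int u) (hv : P.Int v) : P.rq (u + v) = P.rq u + P.rq v :=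
  qa_ext fun g => by
    rw [qa_add_apply, rq_apply, rq_apply, rq_apply, qa_add_apply, P.r_add (hu g) (hv g)]
theorem rq_sub {u v : QA L} (hu : P.Int u) (hv : P.Int v) : P.rq (u - v) = P.rq u - P.rq v :=
  qa_ext fun g => by
    rw [qa_sub_apply, rq_apply, rq_apply, rq_apply, qa_sub_apply, P.r_sub (hu g) (hv g)]
theorem rq_neg {u : QA L} (hu : P.Int u) : P.rq (-u) = -P.rq u :=
  qa_ext fun g => by
    rw [qa_neg_apply, rq_apply, rq_apply, qa_neg_apply, P.r_neg (hu g)]
theorem rq_smul {c : L} (hc : c ∈ P.O) {u : QA L} (hu : P.Int u) :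
    P.rq (c • u) = P.r c • P.rq u :=
  qa_ext fun g => by
    rw [qa_smul_apply, rq_apply, rq_apply, qa_smul_apply, P.r_mul hc (hu g)]
theorem rq_iq (u : QA K) : P.rq (P.iq u) = u := qa_ext fun g => by
  rw [rq_apply, iq_apply, P.r_inc]
theorem rq_sum {ι : Type} (s : Finset ι) (f : ι → QA L) (h : ∀ i ∈ s, P.Int (f i)) :
    P.rq (∑ i ∈ s, f i) = ∑ i ∈ s, P.rq (f i) := by
  classical
  induction s using Finset.induction_on with
  | empty => simpa using P.rq_zero
  | insert a s ha ih =>
    rw [Finset.sum_insert ha, Finset.sum_insert ha,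
      P.rq_add (h a (Finset.mem_insert_self a s))
        (P.int_sum s f fun i hi => h i (Finset.mem_insert_of_mem hi)),
      ih fun i hi => h i (Finset.mem_insert_of_mem hi)]

/-- parameters in the valuation ring -/
@[reducible] noncomputable def qparO : QPar P.O where
  al s := ⟨P.inc (al s), P.inc_mem _⟩
  be s := ⟨P.inc (be s), P.inc_mem _⟩

/-- lift of an integral element to `QA P.O` -/
noncomputable def liftO (u : QA L) (hu : P.Int u) : QA P.O :=
  (Finsupp.onFinset (Finsupp.support (u : Gp →₀ L)) (fun g => (⟨u g, hu g⟩ : P.O)) (by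
    intro g hg
    refine Finsupp.mem_support_iff.mpr ?_
    intro h
    exact hg (Subtype.ext h)) : Gp →₀ P.O)

theorem map_liftO (u : QA L) (hu : P.Int u) : QA.map P.O.subtype (P.liftO u hu) = u :=
  qa_ext fun g => by rw [qa_map_apply]; rfl

theorem rq_map (u : QA P.O) : P.rq (QA.map P.O.subtype u) = QA.map P.res u :=
  qa_ext fun g => by
    rw [rq_apply, qa_map_apply, qa_map_apply]
    exact P.r_of_mem (u g).2

theorem int_map (u : QA P.O) : P.Int (QA.map P.O.subtype u) := fun g => by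
  rw [qa_map_apply]; exact (u g).2

theorem int_rq_mul {u v : QA L} (hu : P.Int u) (hv : P.Int v) :
    P.Int (u * v) ∧ P.rq (u * v) = P.rq u * P.rq v := by
  let _ : QPar P.O := P.qparO
  have h1 : QA.map P.O.subtype (P.liftO u hu * P.liftO v hv) = u * v := by
    rw [QA.map_mul' P.O.subtype (fun s => P.inc_al s) (fun s => P.inc_be s), map_liftO, map_liftO]
  rw [← h1]
  refine ⟨P.int_map _, ?_⟩
  rw [rq_map, QA.map_mul' P.res (fun s => P.res_inc _) (fun s => P.res_inc _), ← rq_map,
    ← rq_map, map_liftO, map_liftO]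

theorem int_mul {u v : QA L} (hu : P.Int u) (hv : P.Int v) : P.Int (u * v) :=
  (P.int_rq_mul hu hv).1
theorem rq_mul {u v : QA L} (hu : P.Int u) (hv : P.Int v) : P.rq (u * v) = P.rq u * P.rq v :=
  (P.int_rq_mul hu hv).2

theorem int_pow {u : QA L} (hu : P.Int u) (n : ℕ) : P.Int (u ^ n) := by
  induction n with
  | zero => rw [pow_zero]; exact P.int_one
  | succ n ih => rw [pow_succ]; exact P.int_mul ih hu
theorem rq_pow {u : QA L} (hu : P.Int u) (n : ℕ) : P.rq (u ^ n) = P.rq u ^ n := by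
  induction n with
  | zero => rw [pow_zero, pow_zero]; exact P.rq_one
  | succ n ih => rw [pow_succ, pow_succ, P.rq_mul (P.int_pow hu n) hu, ih]

theorem int_algebraMap {c : L} (hc : c ∈ P.O) : P.Int (algebraMap L (QA L) c) := by
  rw [Algebra.algebraMap_eq_smul_one]; exact P.int_smul hc P.int_one
theorem rq_algebraMap {c : L} (hc : c ∈ P.O) :
    P.rq (algebraMap L (QA L) c) = algebraMap K (QA K) (P.r c) := by
  rw [Algebra.algebraMap_eq_smul_one, Algebra.algebraMap_eq_smul_one, P.rq_smul hc P.int_one,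
    P.rq_one]

theorem iq_smul (c : K) (u : QA K) : P.iq (c • u) = P.inc c • P.iq u := qa_ext fun g => by
  rw [iq_apply, qa_smul_apply, qa_smul_apply, iq_apply, map_mul]

theorem tr_mem {u : QA L} (hu : P.Int u) : QA.tr u ∈ P.O := hu _
theorem r_tr (u : QA L) : P.r (QA.tr u) = QA.tr (P.rq u) := by
  rw [qa_tr_apply, qa_tr_apply, rq_apply]
theorem tr_iq (u : QA K) : QA.tr (P.iq u) = P.inc (QA.tr u) := by
  rw [qa_tr_apply, qa_tr_apply, iq_apply]

/-- residues respect supports -/
theorem rq_on {A : Set ℕ} {u : QA L} (hu : u ∈ QA.on (R := L) A) : P.rq u ∈ QA.on (R := K) A := by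
  intro g hg
  refine hu g fun h => hg ?_
  rw [rq_apply, h, P.r_zero']
theorem iq_on {A : Set ℕ} {u : QA K} (hu : u ∈ QA.on (R := K) A) : P.iq u ∈ QA.on (R := L) A := by
  intro g hg
  refine hu g fun h => hg ?_
  rw [iq_apply, h, map_zero]
theorem rq_lev {k : ℕ} {u : QA L} (hu : u ∈ lev L k) : P.rq u ∈ lev K k := P.rq_on hu
theorem iq_lev {k : ℕ} {u : QA K} (hu : u ∈ lev K k) : P.iq u ∈ lev L k := P.iq_on hu
theorem rq_mid {k l : ℕ} {u : QA L} (hu : u ∈ mid L k l) : P.rq u ∈ mid K k l := P.rq_on hu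
theorem iq_mid {k l : ℕ} {u : QA K} (hu : u ∈ mid K k l) : P.iq u ∈ mid L k l := P.iq_on hu

/-- SCALING of a nonzero tuple of elements of `QA L`. The last clause: if the tuple is not integral
then the scaling factor is integral with residue `0`. -/
theorem exists_scale_I {I : Type} [Finite I] (v : I → QA L) (hv : v ≠ 0) :
    ∃ c : L, c ≠ 0 ∧ (∀ i, P.Int (c • v i)) ∧ (fun i => P.rq (c • v i)) ≠ 0 ∧
      ((∃ i, ¬ P.Int (v i)) → c ∈ P.O ∧ P.r c = 0) := by
  classical
  have := Fintype.ofFinite I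
  set s : Finset (I × Gp) := Finset.univ.biUnion fun i =>
    (Finsupp.support (v i : Gp →₀ L)).image fun g => (i, g) with hs
  have hmem : ∀ i g, v i g ≠ 0 → (i, g) ∈ s := by
    intro i g h
    rw [hs, Finset.mem_biUnion]
    exact ⟨i, Finset.mem_univ _, Finset.mem_image.mpr ⟨g, Finsupp.mem_support_iff.mpr h, rfl⟩⟩
  have h0 : ∃ x ∈ s, (fun x : I × Gp => v x.1 x.2) x ≠ 0 := by
    by_contra h
    push Not at h
    refine hv (funext fun i => qa_ext fun g => ?_)
    by_contra h1
    exact h1 (h (i, g) (hmem i g h1))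
  obtain ⟨c, hc, h1, ⟨x, hx, h2⟩, h3⟩ := P.exists_scale s (fun x => v x.1 x.2) h0
  have h4 : ∀ i, P.Int (c • v i) := by
    intro i g
    rw [qa_smul_apply]
    by_cases h : v i g = 0
    · rw [h, mul_zero]; exact zero_mem _
    · exact h1 (i, g) (hmem i g h)
  refine ⟨c, hc, h4, ?_, ?_⟩
  · intro h5
    have h6 := congrArg (fun w : I → QA K => w x.1 x.2) h5
    simp only [Pi.zero_apply, rq_apply, qa_smul_apply, qa_zero_apply] at h6
    rw [h2, P.r_one] at h6
    exact one_ne_zero h6
  · rintro ⟨i, hi⟩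
    have : ∃ g, v i g ∉ P.O := by
      by_contra h; push Not at h; exact hi h
    obtain ⟨g, hg⟩ := this
    refine h3 ⟨(i, g), hmem i g fun h => hg (by rw [h]; exact zero_mem _), hg⟩

theorem exists_scale_q (u : QA L) (hu : u ≠ 0) :
    ∃ c : L, c ≠ 0 ∧ P.Int (c • u) ∧ P.rq (c • u) ≠ 0 ∧ (¬ P.Int u → c ∈ P.O ∧ P.r c = 0) := by
  obtain ⟨c, h1, h2, h3, h4⟩ := P.exists_scale_I (I := Unit) (fun _ => u)
    (fun h => hu (congrFun h ()))
  exact ⟨c, h1, h2 (), fun h => h3 (funext fun _ => h), fun h => h4 ⟨(), h⟩⟩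

end Place

end Crest.Agent.KP
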