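import Crest.Agent.KP_Defs

/-!
S0270, part (B), file 1: the residue map `P.r` of a place (total function, junk value `0` outside
`P.O`).
-/

set_option autoImplicit false
set_option linter.unusedSectionVars false

namespace Crest.Agent.KP.Place

variable {K L : Type} [Field K] [Field L] [QPar K] [QPar L] (P : Place K L)

theorem r_of_mem {b : L} (h : b ∈ P.O) : P.r b = P.res ⟨b, h⟩ := by
  unfold r; rw [dif_pos h]

theorem r_of_not_mem {b : L} (h : b ∉ P.O) : P.r b = 0 := by
  unfold r; rw [dif_neg h]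

theorem r_add {a b : L} (ha : a ∈ P.O) (hb : b ∈ P.O) : P.r (a + b) = P.r a + P.r b := by
  rw [P.r_of_mem ha, P.r_of_mem hb, P.r_of_mem (add_mem ha hb), ← map_add]; rfl

theorem r_mul {a b : L} (ha : a ∈ P.O) (hb : b ∈ P.O) : P.r (a * b) = P.r a * P.r b := by
  rw [P.r_of_mem ha, P.r_of_mem hb, P.r_of_mem (mul_mem ha hb), ← map_mul]; rfl

theorem r_neg {a : L} (ha : a ∈ P.O) : P.r (-a) = -P.r a := by
  rw [P.r_of_mem ha, P.r_of_mem (neg_mem ha), ← map_neg]; rfl

theorem r_sub {a b : L} (ha : a ∈ P.O) (hb : b ∈ P.O) : P.r (a - b) = P.r a - P.r b := by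
  rw [P.r_of_mem ha, P.r_of_mem hb, P.r_of_mem (sub_mem ha hb), ← map_sub]; rfl

theorem r_zero' : P.r 0 = 0 := by
  rw [P.r_of_mem (zero_mem _)]; exact map_zero P.res

theorem r_one : P.r 1 = 1 := by
  rw [P.r_of_mem (one_mem _)]; exact map_one P.res

theorem r_inc (a : K) : P.r (P.inc a) = a := by
  rw [P.r_of_mem (P.inc_mem a)]; exact P.res_inc a

theorem sum_mem_O {ι : Type} (s : Finset ι) (f : ι → L) (h : ∀ i ∈ s, f i ∈ P.O) :
    ∑ i ∈ s, f i ∈ P.O := sum_mem h

theorem r_sum {ι : Type} (s : Finset ι) (f : ι → L) (h : ∀ i ∈ s, f i ∈ P.O) :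
    P.r (∑ i ∈ s, f i) = ∑ i ∈ s, P.r (f i) := by
  classical
  induction s using Finset.induction_on with
  | empty => simpa using P.r_zero'
  | insert a s ha ih =>
    rw [Finset.sum_insert ha, Finset.sum_insert ha,
      P.r_add (h a (Finset.mem_insert_self a s))
        (sum_mem fun i hi => h i (Finset.mem_insert_of_mem hi)),
      ih fun i hi => h i (Finset.mem_insert_of_mem hi)]

theorem not_mem_inv {b : L} (h : b ∉ P.O) : b⁻¹ ∈ P.O ∧ P.r b⁻¹ = 0 := by
  obtain ⟨h1, h2⟩ := P.total b h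
  exact ⟨h1, by rw [P.r_of_mem h1, h2]⟩

/-- elements of `O` with nonzero residue are units of `O` -/
theorem inv_mem_of_r_ne {b : L} (h : b ∈ P.O) (h' : P.r b ≠ 0) :
    b⁻¹ ∈ P.O ∧ P.r b⁻¹ = (P.r b)⁻¹ := by
  have hb : b ≠ 0 := by
    rintro rfl; exact h' P.r_zero'
  have h1 : b⁻¹ ∈ P.O := by
    by_contra h2
    obtain ⟨h3, h4⟩ := P.not_mem_inv h2
    rw [inv_inv] at h4
    exact h' h4
  refine ⟨h1, ?_⟩
  have h5 : P.r (b * b⁻¹) = 1 := by rw [mul_inv_cancel₀ hb]; exact P.r_one
  rw [P.r_mul h h1] at h5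
  exact eq_inv_of_mul_eq_one_right h5

/-- a non-unit of `O`: `b ∈ O`, `b ≠ 0`, `b⁻¹ ∉ O` has residue `0` -/
theorem r_eq_zero_of_inv_not_mem {b : L} (h : b⁻¹ ∉ P.O) : b ∈ P.O ∧ P.r b = 0 := by
  have := P.not_mem_inv h
  rwa [inv_inv] at this

theorem div_mem_or (a b : L) : a / b ∈ P.O ∨ b / a ∈ P.O := by
  by_cases h : a / b ∈ P.O
  · exact Or.inl h
  · right
    have := (P.not_mem_inv h).1
    rwa [inv_div] at this

/-- SCALING: among finitely many elements, not all zero, there is one of "maximal size". -/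
theorem exists_max {ι : Type} (s : Finset ι) (f : ι → L) (h : ∃ i ∈ s, f i ≠ 0) :
    ∃ i0 ∈ s, f i0 ≠ 0 ∧ ∀ i ∈ s, f i / f i0 ∈ P.O := by
  classical
  induction s using Finset.induction_on with
  | empty => obtain ⟨i, hi, _⟩ := h; exact absurd hi (Finset.notMem_empty i)
  | insert a s ha ih =>
    by_cases hs : ∃ i ∈ s, f i ≠ 0
    · obtain ⟨i0, hi0, h0, h1⟩ := ih hs
      by_cases h2 : f a / f i0 ∈ P.O
      · refine ⟨i0, Finset.mem_insert_of_mem hi0, h0, fun i hi => ?_⟩
        rcases Finset.mem_insert.mp hi with rfl | hi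
        · exact h2
        · exact h1 i hi
      · have h3 : f i0 / f a ∈ P.O := by
          rcases P.div_mem_or (f a) (f i0) with h4 | h4
          · exact absurd h4 h2
          · exact h4
        have h5 : f a ≠ 0 := by
          intro h6; rw [h6, zero_div] at h2; exact h2 (zero_mem _)
        refine ⟨a, Finset.mem_insert_self a s, h5, fun i hi => ?_⟩
        rcases Finset.mem_insert.mp hi with rfl | hi
        · rw [div_self h5]; exact one_mem _
        · have : f i / f a = (f i / f i0) * (f i0 / f a) := by field_simp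
          rw [this]; exact mul_mem (h1 i hi) h3
    · push Not at hs
      obtain ⟨i, hi, hi0⟩ := h
      rcases Finset.mem_insert.mp hi with rfl | hi
      · refine ⟨i, Finset.mem_insert_self i s, hi0, fun j hj => ?_⟩
        rcases Finset.mem_insert.mp hj with rfl | hj
        · rw [div_self hi0]; exact one_mem _
        · rw [hs j hj, zero_div]; exact zero_mem _
      · exact absurd (hs i hi) hi0

/-- SCALING: finitely many elements of `L`, not all zero, can be multiplied by `c ≠ 0` such that all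
become integral and one of them becomes `1`. If one of them is not integral, then `c` is integral
with residue `0`. -/
theorem exists_scale {ι : Type} (s : Finset ι) (f : ι → L) (h : ∃ i ∈ s, f i ≠ 0) :
    ∃ c : L, c ≠ 0 ∧ (∀ i ∈ s, c * f i ∈ P.O) ∧ (∃ i ∈ s, c * f i = 1) ∧
      ((∃ i ∈ s, f i ∉ P.O) → c ∈ P.O ∧ P.r c = 0) := by
  obtain ⟨i0, hi0, h0, h1⟩ := P.exists_max s f h
  refine ⟨(f i0)⁻¹, inv_ne_zero h0, fun i hi => ?_, ⟨i0, hi0, inv_mul_cancel₀ h0⟩, ?_⟩
  · rw [inv_mul_eq_div]; exact h1 i hi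
  · rintro ⟨i, hi, h2⟩
    refine P.not_mem_inv fun h3 => h2 ?_
    have : f i = (f i / f i0) * f i0 := by field_simp
    rw [this]; exact mul_mem (h1 i hi) h3

end Crest.Agent.KP.Place
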