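import Crest.Agent.KPC_Cf

/-! # S0270, part (C): algebra facts on levels, `S1,S2,S3`, traces, `mulE` (author helper6)

All lemmas are in the namespace `Crest.Agent.KP.KC`. -/

set_option autoImplicit false
set_option linter.unusedSectionVars false

open scoped PowerSeries LaurentSeries symmDiff

namespace Crest.Agent.KP.KC

open Crest.Agent.KP.NC

variable {K : Type} [Field K] [KF K]

/-! ### `S1, S2, S3` -/

theorem lev_mono {k l : ℕ} (h : k ≤ l) : lev K k ≤ lev K l := by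
  intro u hu g hg
  obtain ⟨h1, h2⟩ := hu g hg
  exact ⟨fun n hn => lt_of_lt_of_le (h1 hn) h, fun n hn => lt_of_lt_of_le (h2 hn) h⟩

theorem S1_mem (k : ℕ) : (S1 k : QA K) ∈ lev K (k + 1) := kpa_S1_mem_lev k
theorem S2_mem (k : ℕ) : (S2 k : QA K) ∈ lev K (k + 1) := kpa_S2_mem_lev k
theorem S3_mem (k : ℕ) : (S3 k : QA K) ∈ lev K (k + 1) := kpa_S3_mem_lev k

/-- `S1 k` commutes with `lev K k` -/
theorem comm_S1 (k : ℕ) (u : QA K) (hu : u ∈ lev K k) : u * S1 k = S1 k * u :=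
  kpa_lev_mid_comm hu (kpa_S1_mem k)
theorem comm_S2 (k : ℕ) (u : QA K) (hu : u ∈ lev K k) : u * S2 k = S2 k * u :=
  kpa_lev_mid_comm hu (kpa_S2_mem k)
theorem comm_S3 (k : ℕ) (u : QA K) (hu : u ∈ lev K k) : u * S3 k = S3 k * u :=
  kpa_lev_mid_comm hu (kpa_S3_mem k)

theorem S1_S1 (k : ℕ) : (S1 k * S1 k : QA K) = algebraMap K (QA K) (al k) := by
  rw [kpa_S1_mul_S1, Algebra.algebraMap_eq_smul_one]
theorem S2_S2 (k : ℕ) : (S2 k * S2 k : QA K) = algebraMap K (QA K) (be k) := by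
  rw [kpa_S2_mul_S2, Algebra.algebraMap_eq_smul_one]
theorem S1_S2 (k : ℕ) : (S1 k * S2 k : QA K) = S3 k := kpa_S1_mul_S2 k
theorem S2_S1 (k : ℕ) : (S2 k * S1 k : QA K) = -S3 k := kpa_S2_mul_S1 k
theorem S1_S3 (k : ℕ) : (S1 k * S3 k : QA K) = algebraMap K (QA K) (al k) * S2 k := by
  rw [kpa_S1_mul_S3, Algebra.smul_def]
theorem S3_S1 (k : ℕ) : (S3 k * S1 k : QA K) = -(algebraMap K (QA K) (al k) * S2 k) := by
  rw [kpa_S3_mul_S1, Algebra.smul_def]
theorem S2_S3 (k : ℕ) : (S2 k * S3 k : QA K) = -(algebraMap K (QA K) (be k) * S1 k) := by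
  rw [kpa_S2_mul_S3, Algebra.smul_def]
theorem S3_S2 (k : ℕ) : (S3 k * S2 k : QA K) = algebraMap K (QA K) (be k) * S1 k := by
  rw [kpa_S3_mul_S2, Algebra.smul_def]
theorem S3_S3 (k : ℕ) : (S3 k * S3 k : QA K) = -algebraMap K (QA K) (al k * be k) := by
  rw [kpa_S3_mul_S3, Algebra.algebraMap_eq_smul_one]

/-! ### traces -/

theorem tr_one : QA.tr (1 : QA K) = 1 := kpa_tr_one
theorem tr_algebraMap (c : K) : QA.tr (algebraMap K (QA K) c) = c := kpa_tr_algebraMap c
theorem tr_comm (u v : QA K) : QA.tr (u * v) = QA.tr (v * u) := kpa_tr_comm u v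

theorem tr_S1 (k : ℕ) (u : QA K) (hu : u ∈ lev K k) : QA.tr (u * S1 k) = 0 := by
  rw [kpa_tr_lev_mid hu (kpa_S1_mem k)]
  have h : QA.tr (S1 k : QA K) = 0 := by
    unfold S1
    rw [QA.e_eq_ec, kpa_tr_ec, if_neg]
    simp
  rw [h, mul_zero]
theorem tr_S2 (k : ℕ) (u : QA K) (hu : u ∈ lev K k) : QA.tr (u * S2 k) = 0 := by
  rw [kpa_tr_lev_mid hu (kpa_S2_mem k)]
  have h : QA.tr (S2 k : QA K) = 0 := by
    unfold S2
    rw [QA.e_eq_ec, kpa_tr_ec, if_neg]
    simp
  rw [h, mul_zero]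
theorem tr_S3 (k : ℕ) (u : QA K) (hu : u ∈ lev K k) : QA.tr (u * S3 k) = 0 := by
  rw [kpa_tr_lev_mid hu (kpa_S3_mem k)]
  have h : QA.tr (S3 k : QA K) = 0 := by
    unfold S3
    rw [QA.e_eq_ec, kpa_tr_ec, if_neg]
    simp
  rw [h, mul_zero]

/-- nondegeneracy of the trace form on `lev K k` -/
theorem tr_nondeg (k : ℕ) (u : QA K) (hu : u ∈ lev K k)
    (h : ∀ d ∈ lev K k, QA.tr (u * d) = 0) : u = 0 := kpa_lev_nondeg hu h

/-! ### decomposition `lev (k+1) = lev k ⊗ (1,S1,S2,S3)` -/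

private theorem kpc_a2_mul (k : ℕ) (g t : Gp) (x : K) (h1 : k ∉ g.1) (h2 : k ∉ g.2)
    (ht1 : t.1 ⊆ {k}) (ht2 : t.2 ⊆ {k}) :
    (QA.ec g x * QA.e t : QA K) = QA.ec (g.1 ∪ t.1, g.2 ∪ t.2) x := by
  have d : ∀ a b : Finset ℕ, k ∉ a → b ⊆ {k} → a ∩ b = ∅ := by
    intro a b ha hb
    rw [Finset.eq_empty_iff_forall_notMem]
    intro s hs
    rw [Finset.mem_inter] at hs
    have h3 := hb hs.2
    rw [Finset.mem_singleton] at h3
    exact ha (h3 ▸ hs.1)
  rw [QA.e_eq_ec, QA.ec_mul_ec]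
  have hc : coc K g t = 1 := by
    unfold coc
    rw [d g.2 t.1 h2 ht1, d g.1 t.1 h1 ht1, d g.2 t.2 h2 ht2]
    simp
  have hg : gx g t = (g.1 ∪ t.1, g.2 ∪ t.2) := by
    unfold gx
    apply Prod.ext
    · exact (Finset.disjoint_iff_inter_eq_empty.2 (d g.1 t.1 h1 ht1)).symmDiff_eq_sup
    · exact (Finset.disjoint_iff_inter_eq_empty.2 (d g.2 t.2 h2 ht2)).symmDiff_eq_sup
  rw [hc, hg, one_mul, mul_one]

private theorem kpc_a2_mem (k : ℕ) (g : Gp) (x : K) (h1 : ∀ s ∈ g.1, s < k + 1)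
    (h2 : ∀ s ∈ g.2, s < k + 1) :
    (QA.ec (g.1.erase k, g.2.erase k) x : QA K) ∈ lev K k := by
  refine kpa_ec_mem_lev ?_ ?_ x
  · intro s hs
    rw [Finset.mem_erase] at hs
    have := h1 s hs.2
    omega
  · intro s hs
    rw [Finset.mem_erase] at hs
    have := h2 s hs.2
    omega

private theorem kpc_a2_zero {k : ℕ} {a0 a1 a2 a3 : QA K} (h0 : a0 ∈ lev K k) (h1 : a1 ∈ lev K k)
    (h2 : a2 ∈ lev K k) (h3 : a3 ∈ lev K k)
    (h : a0 + a1 * S1 k + a2 * S2 k + a3 * S3 k = 0) : a0 = 0 := by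
  refine tr_nondeg k a0 h0 fun d hd => ?_
  have e := congrArg (fun u => QA.tr (u * d)) h
  simp only [add_mul, zero_mul, map_add, map_zero] at e
  rw [mul_assoc a1, ← comm_S1 k d hd, ← mul_assoc, tr_S1 k _ ((lev K k).mul_mem h1 hd),
    mul_assoc a2, ← comm_S2 k d hd, ← mul_assoc, tr_S2 k _ ((lev K k).mul_mem h2 hd),
    mul_assoc a3, ← comm_S3 k d hd, ← mul_assoc, tr_S3 k _ ((lev K k).mul_mem h3 hd)] at e
  simpa using e

theorem exists_decomp (k : ℕ) (u : QA K) (hu : u ∈ lev K (k + 1)) :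
    ∃ a : Fin 4 → QA K, (∀ b, a b ∈ lev K k) ∧
      u = a 0 + a 1 * S1 k + a 2 * S2 k + a 3 * S3 k := by
  refine kpa_on_induction (A := {n | n < k + 1}) (p := fun u => ∃ a : Fin 4 → QA K,
    (∀ b, a b ∈ lev K k) ∧ u = a 0 + a 1 * S1 k + a 2 * S2 k + a 3 * S3 k) hu ?_ ?_ ?_
  · exact ⟨0, fun b => (lev K k).zero_mem, by simp⟩
  · rintro u v ⟨a, ha, rfl⟩ ⟨b, hb, rfl⟩
    refine ⟨a + b, fun i => (lev K k).add_mem (ha i) (hb i), ?_⟩
    simp only [Pi.add_apply, add_mul]
    abel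
  · intro g x h1 h2
    have hm := kpc_a2_mem k g x h1 h2
    have hk1 : k ∉ g.1.erase k := Finset.notMem_erase k _
    have hk2 : k ∉ g.2.erase k := Finset.notMem_erase k _
    have hz := (lev K k).zero_mem
    by_cases c1 : k ∈ g.1
    · by_cases c2 : k ∈ g.2
      · refine ⟨![0, 0, 0, QA.ec (g.1.erase k, g.2.erase k) x], ?_, ?_⟩
        · intro b; fin_cases b <;> simp [hz, hm]
        · have e := kpc_a2_mul k (g.1.erase k, g.2.erase k) ({k}, {k}) x hk1 hk2
            (Finset.Subset.refl _) (Finset.Subset.refl _)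
          have e1 : g.1.erase k ∪ {k} = g.1 := by
            rw [Finset.union_comm, ← Finset.insert_eq, Finset.insert_erase c1]
          have e2 : g.2.erase k ∪ {k} = g.2 := by
            rw [Finset.union_comm, ← Finset.insert_eq, Finset.insert_erase c2]
          simp only [e1, e2] at e
          have e3 : (S3 k : QA K) = QA.e ({k}, {k}) := rfl
          simp [e3, e]
      · refine ⟨![0, QA.ec (g.1.erase k, g.2.erase k) x, 0, 0], ?_, ?_⟩
        · intro b; fin_cases b <;> simp [hz, hm]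
        · have e := kpc_a2_mul k (g.1.erase k, g.2.erase k) ({k}, ∅) x hk1 hk2
            (Finset.Subset.refl _) (Finset.empty_subset _)
          have e1 : g.1.erase k ∪ {k} = g.1 := by
            rw [Finset.union_comm, ← Finset.insert_eq, Finset.insert_erase c1]
          have e2 : g.2.erase k ∪ ∅ = g.2 := by
            rw [Finset.union_empty, Finset.erase_eq_of_notMem c2]
          simp only [e1, e2] at e
          have e3 : (S1 k : QA K) = QA.e ({k}, ∅) := rfl
          simp [e3, e]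
    · by_cases c2 : k ∈ g.2
      · refine ⟨![0, 0, QA.ec (g.1.erase k, g.2.erase k) x, 0], ?_, ?_⟩
        · intro b; fin_cases b <;> simp [hz, hm]
        · have e := kpc_a2_mul k (g.1.erase k, g.2.erase k) (∅, {k}) x hk1 hk2
            (Finset.empty_subset _) (Finset.Subset.refl _)
          have e1 : g.1.erase k ∪ ∅ = g.1 := by
            rw [Finset.union_empty, Finset.erase_eq_of_notMem c1]
          have e2 : g.2.erase k ∪ {k} = g.2 := by
            rw [Finset.union_comm, ← Finset.insert_eq, Finset.insert_erase c2]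
          simp only [e1, e2] at e
          have e3 : (S2 k : QA K) = QA.e (∅, {k}) := rfl
          simp [e3, e]
      · refine ⟨![QA.ec (g.1.erase k, g.2.erase k) x, 0, 0, 0], ?_, ?_⟩
        · intro b; fin_cases b <;> simp [hz, hm]
        · have e1 : g.1.erase k = g.1 := Finset.erase_eq_of_notMem c1
          have e2 : g.2.erase k = g.2 := Finset.erase_eq_of_notMem c2
          simp [e1, e2]

theorem decomp_unique (k : ℕ) (a : Fin 4 → QA K) (ha : ∀ b, a b ∈ lev K k)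
    (h : a 0 + a 1 * S1 k + a 2 * S2 k + a 3 * S3 k = 0) : ∀ b, a b = 0 := by
  have hs : ∀ (c : K) (u : QA K), u ∈ lev K k → c • u ∈ lev K k := fun c u hu =>
    (lev K k).smul_mem hu c
  have hA : ∀ (c : K) (u : QA K), algebraMap K (QA K) c * u = c • u := fun c u =>
    (Algebra.smul_def c u).symm
  have hA' : ∀ (c : K) (u : QA K), u * algebraMap K (QA K) c = c • u := fun c u => by
    rw [← Algebra.commutes, hA]
  have h0 : a 0 = 0 := kpc_a2_zero (ha 0) (ha 1) (ha 2) (ha 3) h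
  have h1 : (al k : K) • a 1 = 0 := by
    refine kpc_a2_zero (k := k) (a1 := a 0) (a2 := -((al k : K) • a 3)) (a3 := -(a 2))
      (hs _ _ (ha 1)) (ha 0) ((lev K k).neg_mem (hs _ _ (ha 3))) ((lev K k).neg_mem (ha 2)) ?_
    have e := congrArg (fun u => u * S1 k) h
    simp only [add_mul, zero_mul, mul_assoc, S1_S1, S2_S1, S3_S1, hA, hA', mul_neg,
      mul_smul_comm] at e
    rw [← e]
    simp only [neg_mul, smul_mul_assoc]
    abel
  have h2 : (be k : K) • a 2 = 0 := by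
    refine kpc_a2_zero (k := k) (a1 := (be k : K) • a 3) (a2 := a 0) (a3 := a 1)
      (hs _ _ (ha 2)) (hs _ _ (ha 3)) (ha 0) (ha 1) ?_
    have e := congrArg (fun u => u * S2 k) h
    simp only [add_mul, zero_mul, mul_assoc, S2_S2, S1_S2, S3_S2, hA, hA', mul_smul_comm] at e
    rw [← e]
    simp only [smul_mul_assoc]
    abel
  have h3 : (al k * be k : K) • a 3 = 0 := by
    rw [← neg_eq_zero]
    refine kpc_a2_zero (k := k) (a1 := -((be k : K) • a 2)) (a2 := (al k : K) • a 1) (a3 := a 0)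
      ((lev K k).neg_mem (hs _ _ (ha 3))) ((lev K k).neg_mem (hs _ _ (ha 2))) (hs _ _ (ha 1))
      (ha 0) ?_
    have e := congrArg (fun u => u * S3 k) h
    simp only [add_mul, zero_mul, mul_assoc, S1_S3, S2_S3, S3_S3, hA, hA', mul_neg,
      mul_smul_comm] at e
    rw [← e]
    simp only [neg_mul, smul_mul_assoc]
    abel
  have hal : (al k : K) ≠ 0 := KF.al_ne k
  have hbe : (be k : K) ≠ 0 := KF.be_ne k
  intro b
  fin_cases b
  · exact h0
  · exact (smul_eq_zero.1 h1).resolve_left hal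
  · exact (smul_eq_zero.1 h2).resolve_left hbe
  · exact (smul_eq_zero.1 h3).resolve_left (mul_ne_zero hal hbe)

theorem finrank_lev (k : ℕ) : Module.finrank K (lev K k) = 4 ^ k := kpa_finrank_lev k

instance finite_lev (k : ℕ) : FiniteDimensional K (Subalgebra.toSubmodule (lev K k)) :=
  kpa_fd_lev k

/-! ### vectors -/

variable {I : Type}

/-- `v 0 + v 1 S1 + v 2 S2 + v 3 S3`, componentwise -/
noncomputable def comb (k : ℕ) (v : Fin 4 → (I → QA K)) : I → QA K :=
  fun i => v 0 i + v 1 i * S1 k + v 2 i * S2 k + v 3 i * S3 k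

theorem comb_mem_lev (k : ℕ) (v : Fin 4 → (I → QA K)) (hv : ∀ b i, v b i ∈ lev K k) (i : I) :
    comb k v i ∈ lev K (k + 1) := by
  have h : ∀ b, v b i ∈ lev K (k + 1) := fun b => lev_mono (Nat.le_succ k) (hv b i)
  exact (lev K (k + 1)).add_mem ((lev K (k + 1)).add_mem ((lev K (k + 1)).add_mem (h 0)
    ((lev K (k + 1)).mul_mem (h 1) (S1_mem k))) ((lev K (k + 1)).mul_mem (h 2) (S2_mem k)))
    ((lev K (k + 1)).mul_mem (h 3) (S3_mem k))

theorem exists_comb (k : ℕ) (η : I → QA K) (h : ∀ i, η i ∈ lev K (k + 1)) :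
    ∃ v : Fin 4 → (I → QA K), (∀ b i, v b i ∈ lev K k) ∧ η = comb k v := by
  choose a ha ha' using fun i => exists_decomp k (η i) (h i)
  exact ⟨fun b i => a i b, fun b i => ha i b, funext fun i => ha' i⟩

theorem comb_add (k : ℕ) (v w : Fin 4 → (I → QA K)) : comb k (v + w) = comb k v + comb k w := by
  funext i
  simp only [comb, Pi.add_apply, add_mul]
  abel

theorem comb_smul (k : ℕ) (c : K) (v : Fin 4 → (I → QA K)) : comb k (c • v) = c • comb k v := by
  funext i
  simp only [comb, Pi.smul_apply, smul_add, smul_mul_assoc]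

theorem comb_zero_iff (k : ℕ) (v : Fin 4 → (I → QA K)) (hv : ∀ b i, v b i ∈ lev K k) :
    comb k v = 0 ↔ ∀ b, v b = 0 := by
  constructor
  · intro h b
    funext i
    exact decomp_unique k (fun b => v b i) (fun b => hv b i) (congrFun h i) b
  · intro h
    funext i
    simp [comb, h]

theorem comb_inj (k : ℕ) (v w : Fin 4 → (I → QA K)) (hv : ∀ b i, v b i ∈ lev K k)
    (hw : ∀ b i, w b i ∈ lev K k) (h : comb k v = comb k w) : v = w := by
  have h1 : comb k (v + (-1 : K) • w) = 0 := by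
    rw [comb_add, comb_smul, h, neg_smul, one_smul, add_neg_cancel]
  have h2 : ∀ b i, (v + (-1 : K) • w) b i ∈ lev K k := by
    intro b i
    have : (v + (-1 : K) • w) b i = v b i + (-1 : K) • w b i := rfl
    rw [this]
    exact (lev K k).add_mem (hv b i) ((lev K k).smul_mem (hw b i) _)
  have h3 := (comb_zero_iff k _ h2).1 h1
  funext b
  have h4 := h3 b
  have h5 : v b + (-1 : K) • w b = 0 := h4
  rw [neg_smul, one_smul, ← sub_eq_add_neg] at h5
  exact sub_eq_zero.1 h5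

theorem kpc_mulR_apply (e : QA K) (v : I → QA K) : mulR e v = fun i => v i * e := rfl

theorem mem_mulE (k : ℕ) (V : Submodule K (I → QA K)) (η : I → QA K) :
    η ∈ mulE k V ↔ ∃ v : Fin 4 → (I → QA K), (∀ b, v b ∈ V) ∧ η = comb k v := by
  unfold mulE
  constructor
  · intro h
    obtain ⟨y3, hy3, z, ⟨v3, hv3, rfl⟩, rfl⟩ := Submodule.mem_sup.1 h
    obtain ⟨y2, hy2, z, ⟨v2, hv2, rfl⟩, rfl⟩ := Submodule.mem_sup.1 hy3
    obtain ⟨v0, hv0, z, ⟨v1, hv1, rfl⟩, rfl⟩ := Submodule.mem_sup.1 hy2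
    refine ⟨![v0, v1, v2, v3], ?_, rfl⟩
    intro b
    fin_cases b
    · exact hv0
    · exact hv1
    · exact hv2
    · exact hv3
  · rintro ⟨v, hv, rfl⟩
    exact Submodule.add_mem_sup (Submodule.add_mem_sup (Submodule.add_mem_sup (hv 0)
      ⟨v 1, hv 1, rfl⟩) ⟨v 2, hv 2, rfl⟩) ⟨v 3, hv 3, rfl⟩

theorem mem_mulE_sup (k : ℕ) (V V' : Submodule K (I → QA K)) (h : V ≤ V') (η : I → QA K) :
    η ∈ mulE k V ⊔ V' ↔ ∃ v : Fin 4 → (I → QA K), v 0 ∈ V' ∧ v 1 ∈ V ∧ v 2 ∈ V ∧ v 3 ∈ V ∧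
      η = comb k v := by
  constructor
  · intro hη
    obtain ⟨y, hy, z, hz, rfl⟩ := Submodule.mem_sup.1 hη
    obtain ⟨v, hv, rfl⟩ := (mem_mulE k V y).1 hy
    refine ⟨![v 0 + z, v 1, v 2, v 3], V'.add_mem (h (hv 0)) hz, hv 1, hv 2, hv 3, ?_⟩
    funext i
    show v 0 i + v 1 i * S1 k + v 2 i * S2 k + v 3 i * S3 k + z i =
      (v 0 i + z i) + v 1 i * S1 k + v 2 i * S2 k + v 3 i * S3 k
    abel
  · rintro ⟨v, h0, h1, h2, h3, rfl⟩
    have e : comb k v = comb k ![0, v 1, v 2, v 3] + v 0 := by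
      funext i
      show v 0 i + v 1 i * S1 k + v 2 i * S2 k + v 3 i * S3 k =
        (0 + v 1 i * S1 k + v 2 i * S2 k + v 3 i * S3 k) + v 0 i
      abel
    rw [e]
    refine Submodule.add_mem_sup ((mem_mulE k V _).2 ⟨_, ?_, rfl⟩) h0
    intro b
    fin_cases b
    · exact V.zero_mem
    · exact h1
    · exact h2
    · exact h3

/-- `comb` as a linear map -/
noncomputable def kpcComb (k : ℕ) : (Fin 4 → (I → QA K)) →ₗ[K] (I → QA K) where
  toFun := comb k
  map_add' := comb_add k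
  map_smul' := comb_smul k

/-- the subspace of `Fin 4 → (I → QA K)` with components in given subspaces -/
noncomputable def kpcPi (V : Fin 4 → Submodule K (I → QA K)) :
    Submodule K (Fin 4 → (I → QA K)) := Submodule.pi Set.univ V

/-- `pi` of subspaces is the product -/
noncomputable def kpcPiEquiv (V : Fin 4 → Submodule K (I → QA K)) :
    ((b : Fin 4) → V b) ≃ₗ[K] kpcPi V where
  toFun v := ⟨fun b => (v b : I → QA K), fun b _ => (v b).2⟩
  invFun v := fun b => ⟨(v : Fin 4 → (I → QA K)) b, v.2 b (Set.mem_univ b)⟩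
  left_inv _ := rfl
  right_inv _ := rfl
  map_add' _ _ := rfl
  map_smul' _ _ := rfl

theorem kpc_finrank_map (k : ℕ) (V : Fin 4 → Submodule K (I → QA K))
    [∀ b, FiniteDimensional K (V b)] (hV : ∀ b, ∀ v ∈ V b, ∀ i, v i ∈ lev K k) :
    Module.finrank K ((kpcPi V).map (kpcComb k)) = ∑ b, Module.finrank K (V b) := by
  have h1 : Module.finrank K (kpcPi V) = ∑ b, Module.finrank K (V b) := by
    rw [← (kpcPiEquiv V).finrank_eq, Module.finrank_pi_fintype]
  rw [← h1]
  have hinj : Function.Injective ((kpcComb k).domRestrict (kpcPi V)) := by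
    intro v w h
    have hv : ∀ b i, (v : Fin 4 → (I → QA K)) b i ∈ lev K k := fun b i =>
      hV b _ (v.2 b (Set.mem_univ b)) i
    have hw : ∀ b i, (w : Fin 4 → (I → QA K)) b i ∈ lev K k := fun b i =>
      hV b _ (w.2 b (Set.mem_univ b)) i
    exact Subtype.ext (comb_inj k _ _ hv hw h)
  have h2 : (kpcPi V).map (kpcComb k) = LinearMap.range ((kpcComb k).domRestrict (kpcPi V)) := by
    ext x
    simp only [Submodule.mem_map, LinearMap.mem_range, LinearMap.domRestrict_apply, Subtype.exists,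
      exists_prop]
  rw [h2]
  exact LinearMap.finrank_range_of_inj hinj

theorem kpc_mulE_eq (k : ℕ) (V : Submodule K (I → QA K)) :
    mulE k V = (kpcPi (fun _ => V)).map (kpcComb k) := by
  ext η
  rw [mem_mulE, Submodule.mem_map]
  constructor
  · rintro ⟨v, hv, rfl⟩
    exact ⟨v, fun b _ => hv b, rfl⟩
  · rintro ⟨v, hv, rfl⟩
    exact ⟨v, fun b => hv b (Set.mem_univ b), rfl⟩

theorem kpc_mulE_sup_eq (k : ℕ) (V V' : Submodule K (I → QA K)) (h : V ≤ V') :
    mulE k V ⊔ V' = (kpcPi ![V', V, V, V]).map (kpcComb k) := by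
  ext η
  rw [mem_mulE_sup k V V' h, Submodule.mem_map]
  constructor
  · rintro ⟨v, h0, h1, h2, h3, rfl⟩
    refine ⟨v, fun b _ => ?_, rfl⟩
    fin_cases b
    · exact h0
    · exact h1
    · exact h2
    · exact h3
  · rintro ⟨v, hv, rfl⟩
    exact ⟨v, hv 0 (Set.mem_univ _), hv 1 (Set.mem_univ _), hv 2 (Set.mem_univ _),
      hv 3 (Set.mem_univ _), rfl⟩

theorem mulE_mono (k : ℕ) (V V' : Submodule K (I → QA K)) (h : V ≤ V') : mulE k V ≤ mulE k V' :=
  sup_le_sup (sup_le_sup (sup_le_sup h (Submodule.map_mono h)) (Submodule.map_mono h))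
    (Submodule.map_mono h)

theorem le_mulE (k : ℕ) (V : Submodule K (I → QA K)) : V ≤ mulE k V :=
  le_sup_left.trans (le_sup_left.trans le_sup_left)

/-- `dim (V ⊗ E) = 4 dim V` -/
theorem finrank_mulE (k : ℕ) (V : Submodule K (I → QA K)) [FiniteDimensional K V]
    (hV : ∀ v ∈ V, ∀ i, v i ∈ lev K k) :
    Module.finrank K (mulE k V) = 4 * Module.finrank K V := by
  rw [kpc_mulE_eq, kpc_finrank_map k (fun _ => V) (fun _ => hV)]
  simp

/-- `dim (V ⊗ E + V') = 3 dim V + dim V'` -/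
theorem finrank_mulE_sup (k : ℕ) (V V' : Submodule K (I → QA K)) [FiniteDimensional K V']
    (h : V ≤ V') (hV : ∀ v ∈ V', ∀ i, v i ∈ lev K k) :
    Module.finrank K (mulE k V ⊔ V' : Submodule K (I → QA K)) =
      3 * Module.finrank K V + Module.finrank K V' := by
  have hfV : FiniteDimensional K V := Submodule.finiteDimensional_of_le h
  have hf : ∀ b, FiniteDimensional K ((![V', V, V, V] : Fin 4 → Submodule K (I → QA K)) b) := by
    intro b
    fin_cases b
    · exact (inferInstance : FiniteDimensional K V')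
    · exact hfV
    · exact hfV
    · exact hfV
  rw [kpc_mulE_sup_eq k V V' h, kpc_finrank_map k ![V', V, V, V]]
  · rw [Fin.sum_univ_four]
    show Module.finrank K V' + Module.finrank K V + Module.finrank K V + Module.finrank K V = _
    omega
  · intro b
    fin_cases b
    · exact hV
    · exact fun v hv => hV v (h hv)
    · exact fun v hv => hV v (h hv)
    · exact fun v hv => hV v (h hv)

theorem finite_mulE (k : ℕ) (V : Submodule K (I → QA K)) [FiniteDimensional K V] :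
    FiniteDimensional K (mulE k V) := by
  unfold mulE
  infer_instance

/-- a subspace of `(lev k)^I` is finite-dimensional -/
theorem finite_of_lev [Finite I] (k : ℕ) (V : Submodule K (I → QA K))
    (hV : ∀ v ∈ V, ∀ i, v i ∈ lev K k) : FiniteDimensional K V := by
  have := Fintype.ofFinite I
  let f : V →ₗ[K] (I → lev K k) :=
    { toFun := fun v i => ⟨(v : I → QA K) i, hV v v.2 i⟩
      map_add' := fun _ _ => rfl
      map_smul' := fun _ _ => rfl }
  have hf : Function.Injective f := by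
    intro v w h
    apply Subtype.ext
    funext i
    exact congrArg Subtype.val (congrFun h i)
  have : FiniteDimensional K (lev K k) := kpa_fd_lev k
  exact FiniteDimensional.of_injective f hf

/-! ### derivatives in the direction `comb k v` -/

theorem d1_comb (k : ℕ) (X : I → QA K) (hX : ∀ i, X i ∈ lev K k) (v : Fin 4 → (I → QA K))
    (F : NC K I) :
    d1 X (comb k v) F = d1 X (v 0) F + d1 X (v 1) F * S1 k + d1 X (v 2) F * S2 k +
      d1 X (v 3) F * S3 k := by
  have e : comb k v = v 0 + (fun i => v 1 i * S1 k) + (fun i => v 2 i * S2 k) +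
      (fun i => v 3 i * S3 k) := rfl
  rw [e, d1_add, d1_add, d1_add,
    d1_mul_right X (v 1) (S1 k) (fun i => comm_S1 k _ (hX i)),
    d1_mul_right X (v 2) (S2 k) (fun i => comm_S2 k _ (hX i)),
    d1_mul_right X (v 3) (S3 k) (fun i => comm_S3 k _ (hX i))]

/-- trace of `u * comb`-products: only matching basis elements contribute -/
theorem tr_mul_comb_comb (k : ℕ) (a b : Fin 4 → QA K) (ha : ∀ i, a i ∈ lev K k)
    (hb : ∀ i, b i ∈ lev K k) :
    QA.tr ((a 0 + a 1 * S1 k + a 2 * S2 k + a 3 * S3 k) *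
        (b 0 + b 1 * S1 k + b 2 * S2 k + b 3 * S3 k)) =
      QA.tr (a 0 * b 0) + al k * QA.tr (a 1 * b 1) + be k * QA.tr (a 2 * b 2) -
        al k * be k * QA.tr (a 3 * b 3) := by
  have e : ∀ p q S T : QA K, q * S = S * q → (p * S) * (q * T) = (p * q) * (S * T) := by
    intro p q S T h
    rw [mul_assoc p S, ← mul_assoc S q, ← h, mul_assoc q S, ← mul_assoc p q]
  have e0 : ∀ p q S : QA K, q * S = S * q → (p * S) * q = (p * q) * S := by
    intro p q S h
    rw [mul_assoc, ← h, mul_assoc]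
  have hab : ∀ i j, a i * b j ∈ lev K k := fun i j => (lev K k).mul_mem (ha i) (hb j)
  simp only [mul_add, add_mul, map_add]
  rw [e0 _ _ _ (comm_S1 k _ (hb 0)), e0 _ _ _ (comm_S2 k _ (hb 0)), e0 _ _ _ (comm_S3 k _ (hb 0)),
    e _ _ _ _ (comm_S1 k _ (hb 1)), e _ _ _ _ (comm_S1 k _ (hb 2)), e _ _ _ _ (comm_S1 k _ (hb 3)),
    e _ _ _ _ (comm_S2 k _ (hb 1)), e _ _ _ _ (comm_S2 k _ (hb 2)), e _ _ _ _ (comm_S2 k _ (hb 3)),
    e _ _ _ _ (comm_S3 k _ (hb 1)), e _ _ _ _ (comm_S3 k _ (hb 2)), e _ _ _ _ (comm_S3 k _ (hb 3)),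
    ← mul_assoc (a 0) (b 1), ← mul_assoc (a 0) (b 2), ← mul_assoc (a 0) (b 3)]
  rw [kpa_S1_mul_S1, kpa_S2_mul_S2, kpa_S3_mul_S3, kpa_S1_mul_S2, kpa_S2_mul_S1, kpa_S1_mul_S3,
    kpa_S3_mul_S1, kpa_S2_mul_S3, kpa_S3_mul_S2]
  simp only [mul_neg, mul_smul_comm, mul_one, map_neg, map_smul, smul_eq_mul,
    tr_S1 k _ (hab _ _), tr_S2 k _ (hab _ _), tr_S3 k _ (hab _ _), mul_zero, neg_zero, add_zero,
    zero_add]
  ring

theorem kpc_comm_Sb (k : ℕ) (b : Fin 4) (u : QA K) (hu : u ∈ lev K k) :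
    u * Sb k b = Sb k b * u := by
  fin_cases b
  · show u * 1 = 1 * u
    rw [mul_one, one_mul]
  · exact comm_S1 k u hu
  · exact comm_S2 k u hu
  · exact comm_S3 k u hu

theorem kpc_tr_Sb_Sb (k : ℕ) (u : QA K) (hu : u ∈ lev K k) (b c : Fin 4) :
    QA.tr (u * (Sb k b * Sb k c)) =
      if b = c then (![1, al k, be k, -(al k * be k)] : Fin 4 → K) b * QA.tr u else 0 := by
  have hh : ∀ x y : Fin 4 → K, x 0 = y 0 → x 1 = y 1 → x 2 = y 2 → x 3 = y 3 →
      ∀ b, x b = y b := by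
    intro x y h0 h1 h2 h3 b
    fin_cases b <;> assumption
  refine hh (fun b => QA.tr (u * (Sb k b * Sb k c)))
    (fun b => if b = c then (![1, al k, be k, -(al k * be k)] : Fin 4 → K) b * QA.tr u else 0)
    ?_ ?_ ?_ ?_ b
  · refine hh (fun c => QA.tr (u * (Sb k 0 * Sb k c))) (fun c => if 0 = c then
      (![1, al k, be k, -(al k * be k)] : Fin 4 → K) 0 * QA.tr u else 0) ?_ ?_ ?_ ?_ c
    · show QA.tr (u * (1 * 1)) = _
      simp
    · show QA.tr (u * (1 * S1 k)) = _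
      rw [one_mul, tr_S1 k u hu]; simp
    · show QA.tr (u * (1 * S2 k)) = _
      rw [one_mul, tr_S2 k u hu]; simp
    · show QA.tr (u * (1 * S3 k)) = _
      rw [one_mul, tr_S3 k u hu]; simp
  · refine hh (fun c => QA.tr (u * (Sb k 1 * Sb k c))) (fun c => if 1 = c then
      (![1, al k, be k, -(al k * be k)] : Fin 4 → K) 1 * QA.tr u else 0) ?_ ?_ ?_ ?_ c
    · show QA.tr (u * (S1 k * 1)) = _
      rw [mul_one, tr_S1 k u hu]; simp
    · show QA.tr (u * (S1 k * S1 k)) = _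
      rw [kpa_S1_mul_S1]; simp
    · show QA.tr (u * (S1 k * S2 k)) = _
      rw [kpa_S1_mul_S2, tr_S3 k u hu]; simp
    · show QA.tr (u * (S1 k * S3 k)) = _
      rw [kpa_S1_mul_S3, mul_smul_comm, map_smul, tr_S2 k u hu]; simp
  · refine hh (fun c => QA.tr (u * (Sb k 2 * Sb k c))) (fun c => if 2 = c then
      (![1, al k, be k, -(al k * be k)] : Fin 4 → K) 2 * QA.tr u else 0) ?_ ?_ ?_ ?_ c
    · show QA.tr (u * (S2 k * 1)) = _
      rw [mul_one, tr_S2 k u hu]; simp
    · show QA.tr (u * (S2 k * S1 k)) = _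
      rw [kpa_S2_mul_S1, mul_neg, map_neg, tr_S3 k u hu]; simp
    · show QA.tr (u * (S2 k * S2 k)) = _
      rw [kpa_S2_mul_S2]; simp
    · show QA.tr (u * (S2 k * S3 k)) = _
      rw [kpa_S2_mul_S3, mul_neg, map_neg, mul_smul_comm, map_smul, tr_S1 k u hu]; simp
  · refine hh (fun c => QA.tr (u * (Sb k 3 * Sb k c))) (fun c => if 3 = c then
      (![1, al k, be k, -(al k * be k)] : Fin 4 → K) 3 * QA.tr u else 0) ?_ ?_ ?_ ?_ c
    · show QA.tr (u * (S3 k * 1)) = _
      rw [mul_one, tr_S3 k u hu]; simp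
    · show QA.tr (u * (S3 k * S1 k)) = _
      rw [kpa_S3_mul_S1, mul_neg, map_neg, mul_smul_comm, map_smul, tr_S2 k u hu]; simp
    · show QA.tr (u * (S3 k * S2 k)) = _
      rw [kpa_S3_mul_S2, mul_smul_comm, map_smul, tr_S1 k u hu]; simp
    · show QA.tr (u * (S3 k * S3 k)) = _
      rw [kpa_S3_mul_S3]; simp

theorem kpc_comb_sum (k : ℕ) (v : Fin 4 → (I → QA K)) :
    comb k v = ∑ b : Fin 4, fun i => v b i * Sb k b := by
  funext i
  rw [Finset.sum_apply, Fin.sum_univ_four]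
  show v 0 i + v 1 i * S1 k + v 2 i * S2 k + v 3 i * S3 k =
    v 0 i * 1 + v 1 i * S1 k + v 2 i * S2 k + v 3 i * S3 k
  rw [mul_one]

/-- second derivative in the directions `comb v`, `comb w`, tested against `c ∈ lev k` -/
theorem tr_d2_comb (k : ℕ) (X : I → QA K) (hX : ∀ i, X i ∈ lev K k) (c : QA K)
    (hc : c ∈ lev K k) (v w : Fin 4 → (I → QA K)) (hv : ∀ b i, v b i ∈ lev K k)
    (hw : ∀ b i, w b i ∈ lev K k) (F : NC K I) :
    QA.tr (c * d2 X (comb k v) (comb k w) F) =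
      QA.tr (c * d2 X (v 0) (w 0) F) + al k * QA.tr (c * d2 X (v 1) (w 1) F) +
        be k * QA.tr (c * d2 X (v 2) (w 2) F) - al k * be k * QA.tr (c * d2 X (v 3) (w 3) F) := by
  rw [kpc_comb_sum k v, kpc_comb_sum k w, d2_sum_left]
  have e1 : ∀ b : Fin 4, QA.tr (c * d2 X (fun i => v b i * Sb k b)
      (∑ b' : Fin 4, fun i => w b' i * Sb k b') F) =
      (![1, al k, be k, -(al k * be k)] : Fin 4 → K) b * QA.tr (c * d2 X (v b) (w b) F) := by
    intro b
    rw [d2_sum_right, Finset.mul_sum, map_sum]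
    have e2 : ∀ b' : Fin 4, QA.tr (c * d2 X (fun i => v b i * Sb k b)
        (fun i => w b' i * Sb k b') F) =
        if b = b' then (![1, al k, be k, -(al k * be k)] : Fin 4 → K) b *
          QA.tr (c * d2 X (v b) (w b') F) else 0 := by
      intro b'
      rw [d2_mul_mul X (v b) (w b') (Sb k b) (Sb k b') (fun i => kpc_comm_Sb k b _ (hX i))
        (fun i => kpc_comm_Sb k b' _ (hX i)) (fun i => kpc_comm_Sb k b _ (hw b' i)),
        ← mul_assoc, kpc_tr_Sb_Sb k _ ((lev K k).mul_mem hc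
          (d2_mem (lev K k) X (v b) (w b') hX (hv b) (hw b') F))]
    rw [Finset.sum_congr rfl fun b' _ => e2 b', Finset.sum_ite_eq Finset.univ b,
      if_pos (Finset.mem_univ b)]
  rw [Finset.mul_sum, map_sum, Finset.sum_congr rfl fun b _ => e1 b, Fin.sum_univ_four]
  show (1 : K) * _ + al k * _ + be k * _ + -(al k * be k) * _ = _
  ring

end Crest.Agent.KP.KC
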