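import Crest.Agent.KPC_NC
import Crest.Agent.KPB_q

/-! # S0270, part (C): coefficients of elements of `QA K⟦X⟧` (author helper6)

All lemmas are in the namespace `Crest.Agent.KP.KC`. -/

set_option autoImplicit false
set_option linter.unusedSectionVars false

open scoped PowerSeries LaurentSeries symmDiff

namespace Crest.Agent.KP.KC

open Crest.Agent.KP.NC

variable {K : Type} [Field K] [QPar K]

/-! ### `cf` -/

theorem cf_apply (m : ℕ) (u : QA K⟦X⟧) (g : Gp) : (cf m u) g = PowerSeries.coeff m (u g) := rfl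

theorem cf_ext {u v : QA K⟦X⟧} (h : ∀ m, cf m u = cf m v) : u = v := by
  refine kpr_ext fun g => ?_
  ext m
  rw [← cf_apply, ← cf_apply, h]

private theorem kpc_ec_mul {R : Type} [CommRing R] [QPar R] (g h : Gp) (a b : R) :
    (QA.ec g a * QA.ec h b : QA R) = QA.ec (gx g h) (coc R g h * (a * b)) := by
  rw [QA.mul_def]
  refine (Finsupp.sum_single_index ?_).trans ?_
  · refine Finset.sum_eq_zero fun x _ => ?_
    change (Finsupp.single _ _ : Gp →₀ R) = 0
    rw [zero_mul, mul_zero, Finsupp.single_zero]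
  · refine (Finsupp.sum_single_index ?_).trans rfl
    change (Finsupp.single _ _ : Gp →₀ R) = 0
    rw [mul_zero, mul_zero, Finsupp.single_zero]

private theorem kpc_coc (g h : Gp) : coc K⟦X⟧ g h = algebraMap K K⟦X⟧ (coc K g h) := by
  unfold coc
  simp only [map_mul, map_pow, map_neg, map_one, map_prod]
  rfl

private theorem kpc_cf_ec (m : ℕ) (g : Gp) (a : K⟦X⟧) :
    cf m (QA.ec g a) = QA.ec g (PowerSeries.coeff m a) := by
  exact Finsupp.mapRange_single (hf := map_zero _)

private theorem kpc_ind {R : Type} [CommRing R] {p : QA R → Prop} (h0 : p 0)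
    (ha : ∀ u v, p u → p v → p (u + v)) (hs : ∀ g a, p (QA.ec g a)) (u : QA R) : p u :=
  Finsupp.induction_linear (motive := fun u : Gp →₀ R => p u) u h0 (fun u v hu hv => ha u v hu hv)
    (fun g a => hs g a)

private theorem kpc_ec_add {R : Type} [CommRing R] (g : Gp) (a b : R) :
    (QA.ec g (a + b) : QA R) = QA.ec g a + QA.ec g b := Finsupp.single_add _ _ _

private theorem kpc_ec_sum {R ι : Type} [CommRing R] (g : Gp) (s : Finset ι) (f : ι → R) :
    (QA.ec g (∑ i ∈ s, f i) : QA R) = ∑ i ∈ s, QA.ec g (f i) := by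
  classical
  induction s using Finset.induction_on with
  | empty => simp only [Finset.sum_empty]; exact Finsupp.single_zero _
  | insert a s ha ih => rw [Finset.sum_insert ha, Finset.sum_insert ha, kpc_ec_add, ih]

/-- convolution formula.  (the cocycle over `K⟦X⟧` is `C` of the cocycle over `K`) -/
theorem cf_mul (m : ℕ) (u v : QA K⟦X⟧) :
    cf m (u * v) = ∑ p ∈ Finset.HasAntidiagonal.antidiagonal m, cf p.1 u * cf p.2 v := by
  revert v
  refine kpc_ind (p := fun u => ∀ v : QA K⟦X⟧, cf m (u * v) =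
    ∑ p ∈ Finset.HasAntidiagonal.antidiagonal m, cf p.1 u * cf p.2 v) ?_ ?_ ?_ u
  · intro v
    simp
  · intro u u' hu hu' v
    rw [add_mul, map_add, hu, hu', ← Finset.sum_add_distrib]
    exact Finset.sum_congr rfl fun p _ => by rw [map_add, add_mul]
  · intro g a v
    refine kpc_ind (p := fun v : QA K⟦X⟧ => cf m (QA.ec g a * v) =
      ∑ p ∈ Finset.HasAntidiagonal.antidiagonal m, cf p.1 (QA.ec g a) * cf p.2 v) ?_ ?_ ?_ v
    · simp
    · intro v v' hv hv'
      rw [mul_add, map_add, hv, hv', ← Finset.sum_add_distrib]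
      exact Finset.sum_congr rfl fun p _ => by rw [map_add, mul_add]
    · intro h b
      rw [kpc_ec_mul, kpc_cf_ec, kpc_coc, ← Algebra.smul_def, PowerSeries.coeff_smul,
        PowerSeries.coeff_mul, smul_eq_mul, Finset.mul_sum, kpc_ec_sum]
      exact Finset.sum_congr rfl fun p _ => by rw [kpc_cf_ec, kpc_cf_ec, kpc_ec_mul]

theorem cf_mul0 (u v : QA K⟦X⟧) : cf 0 (u * v) = cf 0 u * cf 0 v := by
  rw [cf_mul]; simp

theorem cf_mul1 (u v : QA K⟦X⟧) : cf 1 (u * v) = cf 0 u * cf 1 v + cf 1 u * cf 0 v := by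
  rw [cf_mul]; simp [Finset.Nat.antidiagonal_succ]

theorem cf_mul2 (u v : QA K⟦X⟧) :
    cf 2 (u * v) = cf 0 u * cf 2 v + cf 1 u * cf 1 v + cf 2 u * cf 0 v := by
  rw [cf_mul]; simp [Finset.Nat.antidiagonal_succ]; abel

theorem cf_algebraMap (m : ℕ) (c : K) :
    cf m (algebraMap K (QA K⟦X⟧) c) = if m = 0 then algebraMap K (QA K) c else 0 := by
  have h1 : cf m (1 : QA K⟦X⟧) = if m = 0 then (1 : QA K) else 0 := by
    have h2 : (1 : QA K⟦X⟧) = QA.ec (∅, ∅) 1 := rfl
    rw [h2, kpc_cf_ec, PowerSeries.coeff_one]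
    split_ifs
    · rfl
    · exact Finsupp.single_zero _
  rw [Algebra.algebraMap_eq_smul_one, map_smul, h1, Algebra.algebraMap_eq_smul_one]
  split_ifs
  · rfl
  · exact smul_zero _

theorem cf_toP (m : ℕ) (u : QA K) : cf m (toP K u) = if m = 0 then u else 0 := by
  split_ifs with h
  · rw [h, kpr_cf_toP_zero]
  · rw [kpr_cf_toP_succ _ _ h]

/-- multiplication by `z^d` shifts the coefficients -/
theorem cf_X_smul (d m : ℕ) (u : QA K⟦X⟧) :
    cf m ((PowerSeries.X ^ d : K⟦X⟧) • u) = if d ≤ m then cf (m - d) u else 0 := by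
  refine kpr_ext fun g => ?_
  rw [cf_apply]
  have h1 : ((PowerSeries.X ^ d : K⟦X⟧) • u) g = PowerSeries.X ^ d * u g := rfl
  rw [h1, PowerSeries.coeff_X_pow_mul']
  split_ifs
  · rfl
  · rfl

theorem cf_tr (m : ℕ) (u : QA K⟦X⟧) : PowerSeries.coeff m (QA.tr u) = QA.tr (cf m u) := rfl

theorem mem_lev_iff_cf (k : ℕ) (u : QA K⟦X⟧) :
    u ∈ lev K⟦X⟧ k ↔ ∀ m, cf m u ∈ lev K k := by
  constructor
  · intro h m g hg
    refine h g fun h0 => hg ?_
    rw [cf_apply, h0, map_zero]
  · intro h g hg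
    by_contra hcon
    refine hg (PowerSeries.ext fun m => ?_)
    rw [map_zero]
    by_contra hm
    exact hcon (h m g hm)

/-- a sequence in `lev K k` is the coefficient sequence of an element of `QA K⟦X⟧` -/
theorem exists_ofSeq (k : ℕ) (a : ℕ → QA K) (h : ∀ m, a m ∈ lev K k) :
    ∃ u : QA K⟦X⟧, ∀ m, cf m u = a m := by
  classical
  have hmem : ∀ g : Gp, (∃ m, a m g ≠ 0) →
      g ∈ (Finset.range k).powerset ×ˢ (Finset.range k).powerset := by
    rintro g ⟨m, hm⟩
    obtain ⟨h1, h2⟩ := h m g hm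
    rw [Finset.mem_product, Finset.mem_powerset, Finset.mem_powerset]
    exact ⟨fun x hx => Finset.mem_range.2 (h1 hx), fun x hx => Finset.mem_range.2 (h2 hx)⟩
  refine ⟨(Finsupp.onFinset ((Finset.range k).powerset ×ˢ (Finset.range k).powerset)
    (fun g => PowerSeries.mk fun m => a m g) (fun g hg => hmem g ?_) : Gp →₀ K⟦X⟧), fun m => ?_⟩
  · by_contra hcon
    push Not at hcon
    refine hg (PowerSeries.ext fun m => ?_)
    rw [PowerSeries.coeff_mk, hcon m, map_zero]
  · refine kpr_ext fun g => ?_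
    change PowerSeries.coeff m (PowerSeries.mk fun m => a m g) = _
    rw [PowerSeries.coeff_mk]

theorem exists_ser {I : Type} (k : ℕ) (a : ℕ → I → QA K) (h : ∀ m i, a m i ∈ lev K k) :
    ∃ T : I → QA K⟦X⟧, ∀ m i, cf m (T i) = a m i := by
  choose T hT using fun i => exists_ofSeq k (fun m => a m i) (fun m => h m i)
  exact ⟨T, fun m i => hT i m⟩

/-! ### formal derivative -/

/-- `d/dz`, coefficientwise -/
noncomputable def dz : QA K⟦X⟧ →ₗ[K] QA K⟦X⟧ :=
  (Finsupp.mapRange.linearMap (PowerSeries.derivative K).toLinearMap :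
    (Gp →₀ K⟦X⟧) →ₗ[K] (Gp →₀ K⟦X⟧))

theorem cf_dz (m : ℕ) (u : QA K⟦X⟧) : cf m (dz u) = ((m : K) + 1) • cf (m + 1) u := by
  refine QA.q_ext fun g => ?_
  have h1 : (cf m (dz u)) g = PowerSeries.coeff m (PowerSeries.derivative K (u g)) := rfl
  have h2 : (((m : K) + 1) • cf (m + 1) u) g =
      ((m : K) + 1) * PowerSeries.coeff (m + 1) (u g) := rfl
  rw [h1, h2, PowerSeries.coeff_derivative, mul_comm]

theorem dz_ec (g : Gp) (a : K⟦X⟧) :
    dz (QA.ec g a : QA K⟦X⟧) = QA.ec g (PowerSeries.derivative K a) :=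
  Finsupp.mapRange_single (hf := map_zero _)

theorem dz_coc (g h : Gp) : ∃ c : K, coc K⟦X⟧ g h = algebraMap K K⟦X⟧ c :=
  ⟨coc K g h, (coc_map (algebraMap K K⟦X⟧) (fun _ => rfl) (fun _ => rfl) g h).symm⟩

theorem dz_mul (u v : QA K⟦X⟧) : dz (u * v) = dz u * v + u * dz v := by
  induction u using QA.qinduction with
  | h0 => simp only [map_zero, zero_mul, add_zero]
  | hadd u u' h h' =>
    rw [add_mul, map_add, map_add, add_mul, add_mul, h, h']
    abel
  | hec g x =>
    induction v using QA.qinduction with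
    | h0 => simp only [map_zero, mul_zero, add_zero]
    | hadd v v' h h' =>
      rw [mul_add, map_add, map_add, mul_add, mul_add, h, h']
      abel
    | hec h y =>
      obtain ⟨c, hc⟩ := dz_coc (K := K) g h
      rw [QA.ec_mul_ec, dz_ec, dz_ec, dz_ec, QA.ec_mul_ec, QA.ec_mul_ec, ← QA.ec_add, hc]
      congr 1
      rw [← Algebra.smul_def, ← Algebra.smul_def, ← Algebra.smul_def, Derivation.map_smul, ← smul_add]
      congr 1
      rw [Derivation.leibniz, smul_eq_mul, smul_eq_mul]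
      ring

theorem dz_algebraMap (c : K) : dz (algebraMap K (QA K⟦X⟧) c) = 0 := by
  have h1 : dz (1 : QA K⟦X⟧) = 0 := by
    have h2 : dz (1 : QA K⟦X⟧) = QA.ec (∅, ∅) (PowerSeries.derivative K (1 : K⟦X⟧)) :=
      dz_ec (∅, ∅) 1
    rw [h2, Derivation.map_one_eq_zero, QA.ec_zero]
  rw [Algebra.algebraMap_eq_smul_one, map_smul, h1, smul_zero]

/-! ### coefficients of values of noncommutative polynomials -/

variable {I : Type}

theorem cf0_ev (T : I → QA K⟦X⟧) (F : NC K I) :
    cf 0 (ev T F) = ev (fun i => cf 0 (T i)) F := by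
  induction F with
  | var i => rfl
  | cst c => simp [ev, cf_algebraMap]
  | add F G hF hG => simp only [ev, map_add, hF, hG]
  | mul F G hF hG => simp only [ev, cf_mul0, hF, hG]

theorem cf0_d1 (T v : I → QA K⟦X⟧) (F : NC K I) :
    cf 0 (d1 T v F) = d1 (fun i => cf 0 (T i)) (fun i => cf 0 (v i)) F := by
  induction F with
  | var i => rfl
  | cst c => simp [d1]
  | add F G hF hG => simp only [d1, map_add, hF, hG]
  | mul F G hF hG => simp only [d1, map_add, cf_mul0, hF, hG, cf0_ev]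

theorem cf0_d2 (T v w : I → QA K⟦X⟧) (F : NC K I) :
    cf 0 (d2 T v w F) = d2 (fun i => cf 0 (T i)) (fun i => cf 0 (v i)) (fun i => cf 0 (w i)) F := by
  induction F with
  | var i => simp [d2]
  | cst c => simp [d2]
  | add F G hF hG => simp only [d2, map_add, hF, hG]
  | mul F G hF hG => simp only [d2, map_add, cf_mul0, hF, hG, cf0_ev, cf0_d1]

theorem cf1_ev (T : I → QA K⟦X⟧) (F : NC K I) :
    cf 1 (ev T F) = d1 (fun i => cf 0 (T i)) (fun i => cf 1 (T i)) F := by
  induction F with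
  | var i => rfl
  | cst c => simp [ev, d1, cf_algebraMap]
  | add F G hF hG => simp only [ev, d1, map_add, hF, hG]
  | mul F G hF hG =>
    simp only [ev, d1, cf_mul1, hF, hG, cf0_ev]
    abel

/-- `coefficient 1` of `F'(T)[v]` -/
theorem cf1_d1 (T v : I → QA K⟦X⟧) (F : NC K I) :
    cf 1 (d1 T v F) = d1 (fun i => cf 0 (T i)) (fun i => cf 1 (v i)) F +
      d2 (fun i => cf 0 (T i)) (fun i => cf 1 (T i)) (fun i => cf 0 (v i)) F +
      d2 (fun i => cf 0 (T i)) (fun i => cf 0 (v i)) (fun i => cf 1 (T i)) F := by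
  induction F with
  | var i => simp [d1, d2]
  | cst c => simp [d1, d2]
  | add F G hF hG => simp only [d1, d2, map_add, hF, hG]; abel
  | mul F G hF hG =>
    simp only [d1, d2, map_add, cf_mul1, hF, hG, cf0_ev, cf0_d1, cf1_ev, add_mul, mul_add]
    abel

/-- `coefficient 2` of `F(T)` -/
theorem cf2_ev (T : I → QA K⟦X⟧) (F : NC K I) :
    cf 2 (ev T F) = d1 (fun i => cf 0 (T i)) (fun i => cf 2 (T i)) F +
      d2 (fun i => cf 0 (T i)) (fun i => cf 1 (T i)) (fun i => cf 1 (T i)) F := by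
  induction F with
  | var i => simp [ev, d1, d2]
  | cst c => simp [ev, d1, d2, cf_algebraMap]
  | add F G hF hG => simp only [ev, d1, d2, map_add, hF, hG]; abel
  | mul F G hF hG =>
    simp only [ev, d1, d2, cf_mul2, hF, hG, cf0_ev, cf1_ev, add_mul, mul_add]
    abel

/-- the `m`-th coefficient of `F(T)` depends only on the coefficients `≤ m` of `T` -/
theorem cf_ev_congr (m : ℕ) (T T' : I → QA K⟦X⟧)
    (h : ∀ l ≤ m, ∀ i, cf l (T i) = cf l (T' i)) (F : NC K I) :
    ∀ l ≤ m, cf l (ev T F) = cf l (ev T' F) := by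
  induction F with
  | var i => exact fun l hl => h l hl i
  | cst c => exact fun l hl => rfl
  | add F G hF hG => intro l hl; simp only [ev, map_add, hF l hl, hG l hl]
  | mul F G hF hG =>
    intro l hl
    simp only [ev, cf_mul]
    refine Finset.sum_congr rfl fun p hp => ?_
    have := Finset.HasAntidiagonal.mem_antidiagonal.1 hp
    rw [hF _ (by omega), hG _ (by omega)]

/-- Taylor: `F(T + z^d v) = F(T) + z^d F'(T)[v]` up to order `2d - 1` -/
theorem cf_ev_add (d m : ℕ) (hm : m < 2 * d) (T v : I → QA K⟦X⟧) (F : NC K I) :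
    cf m (ev (fun i => T i + (PowerSeries.X ^ d : K⟦X⟧) • v i) F) =
      cf m (ev T F) + if d ≤ m then cf (m - d) (d1 T v F) else 0 := by
  obtain ⟨R, hR⟩ := ev_add_central (K := K) T v
    (algebraMap K⟦X⟧ (QA K⟦X⟧) (PowerSeries.X ^ d)) (fun c => Algebra.commutes _ c) F
  have e : (fun i => T i + (PowerSeries.X ^ d : K⟦X⟧) • v i) =
      fun i => T i + algebraMap K⟦X⟧ (QA K⟦X⟧) (PowerSeries.X ^ d) * v i := by
    funext i
    rw [Algebra.smul_def]
  rw [e, hR, ← Algebra.smul_def, ← map_mul, ← pow_add, ← Algebra.smul_def, map_add, map_add,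
    cf_X_smul, cf_X_smul, if_neg (by omega : ¬ d + d ≤ m), add_zero]

theorem dz_ev (T : I → QA K⟦X⟧) (F : NC K I) :
    dz (ev T F) = d1 T (fun i => dz (T i)) F :=
  ev_derivation (K := K) (dz : QA K⟦X⟧ →ₗ[K] QA K⟦X⟧).toAddMonoidHom dz_mul dz_algebraMap T F

/-! ### passage to Laurent series -/

theorem toL_inj {u v : QA K⟦X⟧} (h : toL K u = toL K v) : u = v := kpr_toL_inj h

theorem toL_algebraMap (c : K) :
    toL K (algebraMap K (QA K⟦X⟧) c) = algebraMap K⸨X⸩ (QA K⸨X⸩) (algebraMap K K⸨X⸩ c) := by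
  have h1 : algebraMap K (QA K⟦X⟧) c = algebraMap K⟦X⟧ (QA K⟦X⟧) (algebraMap K K⟦X⟧ c) := by
    rw [Algebra.algebraMap_eq_smul_one, Algebra.algebraMap_eq_smul_one]
    refine kpr_ext fun g => ?_
    change c • ((1 : QA K⟦X⟧) g) = (algebraMap K K⟦X⟧ c) * ((1 : QA K⟦X⟧) g)
    rw [Algebra.smul_def]
  rw [h1, AlgHom.commutes, ← kpr_algMap_algMap]
  generalize algebraMap K K⟦X⟧ c = d
  rw [Algebra.algebraMap_eq_smul_one, Algebra.algebraMap_eq_smul_one]
  refine kpr_ext fun g => ?_
  change d • ((1 : QA K⸨X⸩) g) = (algebraMap K⟦X⟧ K⸨X⸩ d) * ((1 : QA K⸨X⸩) g)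
  rw [Algebra.smul_def]

theorem tr_toL (u : QA K⟦X⟧) : QA.tr (toL K u) = algebraMap K⟦X⟧ K⸨X⸩ (QA.tr u) := rfl

theorem toL_toP (u : QA K) : toL K (toP K u) = toC K u := kpr_toL_toP u

theorem toL_mem_lev (k : ℕ) (u : QA K⟦X⟧) : toL K u ∈ lev K⸨X⸩ k ↔ ∀ m, cf m u ∈ lev K k := by
  rw [← mem_lev_iff_cf]
  refine forall_congr' fun g => ?_
  have h1 : toL K u g ≠ 0 ↔ u g ≠ 0 := by
    rw [kpr_toL_apply, Ne, Ne, map_eq_zero_iff _ kpr_algMap_inj]
  rw [h1]

/-- `F(toL T) = toL F(T)` -/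
theorem ev_toL (T : I → QA K⟦X⟧) (F : NC K I) :
    ev (fun i => toL K (T i)) (F.map (algebraMap K K⸨X⸩)) = toL K (ev T F) :=
  ev_map (algebraMap K K⸨X⸩) (toL K : QA K⟦X⟧ →+* QA K⸨X⸩) toL_algebraMap T F

theorem d1_toL (T v : I → QA K⟦X⟧) (F : NC K I) :
    d1 (fun i => toL K (T i)) (fun i => toL K (v i)) (F.map (algebraMap K K⸨X⸩)) =
      toL K (d1 T v F) :=
  d1_map (algebraMap K K⸨X⸩) (toL K : QA K⟦X⟧ →+* QA K⸨X⸩) toL_algebraMap T v F

theorem d2_toL (T v w : I → QA K⟦X⟧) (F : NC K I) :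
    d2 (fun i => toL K (T i)) (fun i => toL K (v i)) (fun i => toL K (w i))
      (F.map (algebraMap K K⸨X⸩)) = toL K (d2 T v w F) :=
  d2_map (algebraMap K K⸨X⸩) (toL K : QA K⟦X⟧ →+* QA K⸨X⸩) toL_algebraMap T v w F

/-- a vector over `K⸨X⸩` is, after multiplication by a power of `z`, a vector of power series;
if it is nonzero one can get a nonzero residue. -/
theorem exists_scale [Finite I] (v : I → QA K⸨X⸩) (hv : v ≠ 0) :
    ∃ (c : K⸨X⸩) (u : I → QA K⟦X⟧), c ≠ 0 ∧ (∀ i, c • v i = toL K (u i)) ∧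
      ∃ i, cf 0 (u i) ≠ 0 := by
  obtain ⟨c, hc, h1, h2, -⟩ := (Place.laurent K).exists_scale_I v hv
  choose u hu using fun i => (kpr_int_iff _).1 (h1 i)
  refine ⟨c, u, hc, fun i => (hu i).symm, ?_⟩
  by_contra hcon
  push Not at hcon
  refine h2 (funext fun i => ?_)
  rw [← hu i, kpr_rq_toL, hcon i]
  rfl

private theorem kpc_sum_apply {R ι : Type} [CommRing R] (s : Finset ι) (f : ι → QA R) (g : Gp) :
    (∑ j ∈ s, f j) g = ∑ j ∈ s, f j g := Finsupp.finsetSum_apply _ _ _

private theorem kpc_coeff_sum {ι : Type} (s : Finset ι) (f : ι → K⸨X⸩) (m : ℤ) :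
    HahnSeries.coeff (∑ j ∈ s, f j) m = ∑ j ∈ s, HahnSeries.coeff (f j) m := by
  classical
  induction s using Finset.induction_on with
  | empty => simp
  | insert a s ha ih => rw [Finset.sum_insert ha, Finset.sum_insert ha, HahnSeries.coeff_add, ih]

private theorem kpc_coeff_mul_alg (c : K⸨X⸩) (a : K) (m : ℤ) :
    HahnSeries.coeff (c * algebraMap K K⸨X⸩ a) m = HahnSeries.coeff c m * a := by
  have h1 : c * algebraMap K K⸨X⸩ a = HahnSeries.C a * c := by
    rw [mul_comm, ← kpr_algMap_algMap, LaurentSeries.coe_algebraMap, PowerSeries.algebraMap_apply]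
    congr 1
    exact HahnSeries.ofPowerSeries_C _
  rw [h1, HahnSeries.C_mul_eq_smul, HahnSeries.coeff_smul, smul_eq_mul, mul_comm]

/-- every element of `extV V` is a combination of a basis of `V` -/
private theorem kpc_extV_comb {I : Type} (V : Submodule K (I → QA K)) {ι : Type} [Fintype ι]
    (b : Module.Basis ι K V) (w : I → QA K⸨X⸩) : w ∈ extV V ↔
      ∃ c : ι → K⸨X⸩, w = ∑ j, c j • (fun i => toC K ((b j : I → QA K) i)) := by
  constructor
  · intro hw
    induction hw using Submodule.span_induction with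
    | mem w hw =>
      obtain ⟨v, hv, rfl⟩ := hw
      refine ⟨fun j => algebraMap K K⸨X⸩ (b.repr ⟨v, hv⟩ j), ?_⟩
      have h1 : v = ∑ j, b.repr ⟨v, hv⟩ j • (b j : I → QA K) := by
        have := congrArg Subtype.val (b.sum_repr ⟨v, hv⟩)
        rw [Submodule.coe_sum] at this
        exact this.symm
      funext i
      have h2 : (∑ j, (algebraMap K K⸨X⸩ (b.repr ⟨v, hv⟩ j)) •
          (fun i => toC K ((b j : I → QA K) i)) : I → QA K⸨X⸩) i =
          ∑ j, (algebraMap K K⸨X⸩ (b.repr ⟨v, hv⟩ j)) • toC K ((b j : I → QA K) i) := by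
        rw [Finset.sum_apply]
        rfl
      have h3 : ∀ j, (algebraMap K K⸨X⸩ (b.repr ⟨v, hv⟩ j)) • toC K ((b j : I → QA K) i) =
          toC K (b.repr ⟨v, hv⟩ j • (b j : I → QA K) i) := by
        intro j
        rw [map_smul]
        refine kpr_ext fun g => ?_
        exact (Algebra.smul_def (b.repr ⟨v, hv⟩ j) (toC K ((b j : I → QA K) i) g)).symm
      rw [h2, Finset.sum_congr rfl fun j _ => h3 j, ← map_sum]
      change toC K (v i) = _
      congr 1
      conv_lhs => rw [h1]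
      rw [Finset.sum_apply]
      rfl
    | zero => exact ⟨0, by simp⟩
    | add w w' _ _ hw hw' =>
      obtain ⟨c, rfl⟩ := hw
      obtain ⟨c', rfl⟩ := hw'
      refine ⟨c + c', ?_⟩
      rw [← Finset.sum_add_distrib]
      exact Finset.sum_congr rfl fun j _ => (add_smul _ _ _).symm
    | smul a w _ hw =>
      obtain ⟨c, rfl⟩ := hw
      refine ⟨a • c, ?_⟩
      rw [Finset.smul_sum]
      exact Finset.sum_congr rfl fun j _ => smul_smul _ _ _
  · rintro ⟨c, rfl⟩
    exact sum_mem fun j _ => Submodule.smul_mem _ _ (Submodule.subset_span ⟨_, (b j).2, rfl⟩)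

/-! ### extension of scalars of subspaces -/

/-- coefficientwise membership in `extV V` -/
theorem toL_mem_extV [Finite I] (V : Submodule K (I → QA K)) [FiniteDimensional K V]
    (u : I → QA K⟦X⟧) :
    (fun i => toL K (u i)) ∈ extV V ↔ ∀ m, (fun i => cf m (u i)) ∈ V := by
  classical
  set b := Module.finBasis K V with hb
  rw [kpc_extV_comb V b]
  constructor
  · rintro ⟨c, hc⟩ m
    have h1 : (fun i => cf m (u i)) = ∑ j, HahnSeries.coeff (c j) (m : ℤ) • (b j : I → QA K) := by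
      funext i
      refine kpr_ext fun g => ?_
      have h2 := congrArg (fun w : I → QA K⸨X⸩ => HahnSeries.coeff (w i g) (m : ℤ)) hc
      rw [kpr_toL_apply, kpr_algMap_coeff_nat] at h2
      rw [cf_apply, h2, Finset.sum_apply, Finset.sum_apply, kpc_sum_apply, kpc_sum_apply,
        kpc_coeff_sum]
      refine Finset.sum_congr rfl fun j _ => ?_
      have h3 : (c j • (fun i => toC K ((b j : I → QA K) i)) : I → QA K⸨X⸩) i g =
        c j * algebraMap K K⸨X⸩ ((b j : I → QA K) i g) := rfl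
      have h4 : (HahnSeries.coeff (c j) (m : ℤ) • (b j : I → QA K)) i g =
        HahnSeries.coeff (c j) (m : ℤ) * ((b j : I → QA K) i g) := rfl
      rw [h3, h4, kpc_coeff_mul_alg]
    rw [h1]
    exact sum_mem fun j _ => Submodule.smul_mem _ _ (b j).2
  · intro h
    refine ⟨fun j => algebraMap K⟦X⟧ K⸨X⸩ (PowerSeries.mk fun m => b.repr ⟨_, h m⟩ j), ?_⟩
    funext i
    refine kpr_ext fun g => ?_
    rw [kpr_toL_apply, Finset.sum_apply, kpc_sum_apply]
    have h3 : ∀ j, ((algebraMap K⟦X⟧ K⸨X⸩ (PowerSeries.mk fun m => b.repr ⟨_, h m⟩ j)) •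
        (fun i => toC K ((b j : I → QA K) i)) : I → QA K⸨X⸩) i g =
        algebraMap K⟦X⟧ K⸨X⸩ ((PowerSeries.mk fun m => b.repr ⟨_, h m⟩ j) *
          algebraMap K K⟦X⟧ ((b j : I → QA K) i g)) := by
      intro j
      rw [map_mul, kpr_algMap_algMap]
      rfl
    rw [Finset.sum_congr rfl fun j _ => h3 j, ← map_sum]
    congr 1
    ext m
    rw [map_sum]
    have h4 : cf m (u i) g = (∑ j, b.repr ⟨_, h m⟩ j • (b j : I → QA K)) i g := by
      have h5 := congrArg Subtype.val (b.sum_repr ⟨_, h m⟩)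
      rw [Submodule.coe_sum] at h5
      exact (congrArg (fun w : I → QA K => w i g) h5).symm
    rw [← cf_apply, h4, Finset.sum_apply, kpc_sum_apply]
    refine Finset.sum_congr rfl fun j _ => ?_
    rw [mul_comm, ← Algebra.smul_def, PowerSeries.coeff_smul, PowerSeries.coeff_mk, smul_eq_mul,
      mul_comm]
    rfl

theorem finrank_extV [Finite I] (V : Submodule K (I → QA K)) [FiniteDimensional K V] :
    Module.finrank K⸨X⸩ (extV V) = Module.finrank K V := by
  classical
  set b := Module.finBasis K V with hb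
  have hspan : extV V = Submodule.span K⸨X⸩
      (Set.range fun (j : Fin (Module.finrank K V)) (i : I) => toC K ((b j : I → QA K) i)) := by
    apply le_antisymm
    · intro w hw
      obtain ⟨c, rfl⟩ := (kpc_extV_comb V b w).1 hw
      exact sum_mem fun j _ => Submodule.smul_mem _ _ (Submodule.subset_span ⟨j, rfl⟩)
    · rw [Submodule.span_le]
      rintro _ ⟨j, rfl⟩
      exact Submodule.subset_span ⟨_, (b j).2, rfl⟩
  have hli : LinearIndependent K⸨X⸩
      (fun (j : Fin (Module.finrank K V)) (i : I) => toC K ((b j : I → QA K) i)) := by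
    rw [Fintype.linearIndependent_iff]
    intro c hc j
    ext m
    rw [HahnSeries.coeff_zero]
    have hb' : LinearIndependent K (fun j => (b j : I → QA K)) :=
      b.linearIndependent.map' V.subtype (by simp)
    refine (Fintype.linearIndependent_iff.1 hb') (fun j => HahnSeries.coeff (c j) m) ?_ j
    funext i
    refine kpr_ext fun g => ?_
    have h2 := congrArg (fun w : I → QA K⸨X⸩ => HahnSeries.coeff (w i g) m) hc
    rw [Finset.sum_apply, kpc_sum_apply, kpc_coeff_sum] at h2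
    rw [Finset.sum_apply, kpc_sum_apply]
    have h0 : HahnSeries.coeff ((0 : I → QA K⸨X⸩) i g) m = (0 : I → QA K) i g := rfl
    rw [← h0, ← h2]
    refine Finset.sum_congr rfl fun j _ => ?_
    have h3 : (c j • (fun i => toC K ((b j : I → QA K) i)) : I → QA K⸨X⸩) i g =
      c j * algebraMap K K⸨X⸩ ((b j : I → QA K) i g) := rfl
    have h4 : (HahnSeries.coeff (c j) m • (b j : I → QA K)) i g =
      HahnSeries.coeff (c j) m * ((b j : I → QA K) i g) := rfl
    rw [h3, h4, kpc_coeff_mul_alg]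
  rw [hspan, finrank_span_eq_card hli, Fintype.card_fin]

theorem finite_extV [Finite I] (V : Submodule K (I → QA K)) [FiniteDimensional K V] :
    FiniteDimensional K⸨X⸩ (extV V) := by
  classical
  set b := Module.finBasis K V with hb
  have hspan : extV V = Submodule.span K⸨X⸩
      (Set.range fun (j : Fin (Module.finrank K V)) (i : I) => toC K ((b j : I → QA K) i)) := by
    apply le_antisymm
    · intro w hw
      obtain ⟨c, rfl⟩ := (kpc_extV_comb V b w).1 hw
      exact sum_mem fun j _ => Submodule.smul_mem _ _ (Submodule.subset_span ⟨j, rfl⟩)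
    · rw [Submodule.span_le]
      rintro _ ⟨j, rfl⟩
      exact Submodule.subset_span ⟨_, (b j).2, rfl⟩
  rw [hspan]
  exact FiniteDimensional.span_of_finite _ (Set.finite_range _)

theorem extV_mono (V V' : Submodule K (I → QA K)) (h : V ≤ V') : extV V ≤ extV V' :=
  Submodule.span_mono (Set.image_mono h)

theorem toC_mem_extV (V : Submodule K (I → QA K)) (v : I → QA K) (hv : v ∈ V) :
    (fun i => toC K (v i)) ∈ extV V :=
  Submodule.subset_span ⟨v, hv, rfl⟩

end Crest.Agent.KP.KC
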