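import Crest.Agent.KPC_State

/-! # S0270, part (C): Lemma 5 (general position), GL (author helper6)

All lemmas are in the namespace `Crest.Agent.KP.KC`. -/

set_option autoImplicit false
set_option linter.unusedSectionVars false

open scoped PowerSeries LaurentSeries symmDiff

namespace Crest.Agent.KP.KC

open Crest.Agent.KP.NC

/-! ### abstract linear algebra -/

section abstract

variable {K W U Z Z' : Type} [Field K] [AddCommGroup W] [Module K W] [AddCommGroup U] [Module K U]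
  [AddCommGroup Z] [Module K Z] [AddCommGroup Z'] [Module K Z']

/-- `Ω ⊗ U → Z` is injective -/
def TI (b : W →ₗ[K] U →ₗ[K] Z) (Ω : Submodule K W) : Prop :=
  ∀ (n : ℕ) (ω : Fin n → W) (c : Fin n → U), (∀ i, ω i ∈ Ω) → LinearIndependent K ω →
    ∑ i, b (ω i) (c i) = 0 → ∀ i, c i = 0

/-- the same in terms of a basis of `U`.
(→) choose a basis `e_i` of the span of the `ω_j`, write `ω_j = ∑ a_ji e_i`; then
`∑_i b(e_i)(∑_j a_ji u_j) = 0` so `a = 0`.  (←) write `c_i = ∑ a_ij u_j`; then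
`∑_j b(∑_i a_ij ω_i)(u_j) = 0` so `∑_i a_ij ω_i = 0`, `a = 0`. -/
theorem TI_iff_basis {ι : Type} [Fintype ι] (u : Module.Basis ι K U) (b : W →ₗ[K] U →ₗ[K] Z)
    (Ω : Submodule K W) :
    TI b Ω ↔ ∀ ω : ι → W, (∀ j, ω j ∈ Ω) → ∑ j, b (ω j) (u j) = 0 → ∀ j, ω j = 0 := by
  constructor
  · intro h ω hω hs
    set S : Submodule K W := Submodule.span K (Set.range ω) with hS
    haveI : FiniteDimensional K S := FiniteDimensional.span_of_finite K (Set.finite_range ω)
    let e := Module.finBasis K S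
    have hm : ∀ j, ω j ∈ S := fun j => Submodule.subset_span ⟨j, rfl⟩
    have hSΩ : S ≤ Ω := Submodule.span_le.2 (by rintro _ ⟨j, rfl⟩; exact hω j)
    have hrep : ∀ j, ω j = ∑ i, e.repr ⟨ω j, hm j⟩ i • (e i : W) := by
      intro j
      have := congrArg (Subtype.val) (e.sum_repr ⟨ω j, hm j⟩)
      rw [Submodule.coe_sum] at this
      exact this.symm
    have h1 := h _ (fun i => (e i : W)) (fun i => ∑ j, e.repr ⟨ω j, hm j⟩ i • u j)
      (fun i => hSΩ (e i).2)
      (e.linearIndependent.map' S.subtype (Submodule.ker_subtype S)) (by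
        rw [← hs]
        have h2 : ∀ j, b (ω j) (u j) = ∑ i, e.repr ⟨ω j, hm j⟩ i • b (e i : W) (u j) := by
          intro j
          conv_lhs => rw [hrep j]
          rw [map_sum, LinearMap.sum_apply]
          refine Finset.sum_congr rfl fun i _ => ?_
          rw [map_smul, LinearMap.smul_apply]
        simp only [h2, map_sum, map_smul]
        rw [Finset.sum_comm])
    intro j
    rw [hrep j]
    refine Finset.sum_eq_zero fun i _ => ?_
    have h3 := (Fintype.linearIndependent_iff.1 u.linearIndependent) _ (h1 i) j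
    rw [h3, zero_smul]
  · intro h n ω c hω hl hs
    have h1 := h (fun j => ∑ i, u.repr (c i) j • ω i)
      (fun j => Submodule.sum_mem _ fun i _ => Submodule.smul_mem _ _ (hω i)) (by
        rw [← hs]
        have h2 : ∀ i, b (ω i) (c i) = ∑ j, u.repr (c i) j • b (ω i) (u j) := by
          intro i
          conv_lhs => rw [← u.sum_repr (c i)]
          simp only [map_sum, map_smul]
        simp only [h2, map_sum, map_smul, LinearMap.sum_apply, LinearMap.smul_apply]
        rw [Finset.sum_comm])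
    intro i
    rw [← u.sum_repr (c i)]
    refine Finset.sum_eq_zero fun j _ => ?_
    have h3 := (Fintype.linearIndependent_iff.1 hl) _ (h1 j) i
    rw [h3, zero_smul]

theorem TI_mono (b : W →ₗ[K] U →ₗ[K] Z) {Ω Ω' : Submodule K W} (h : Ω' ≤ Ω) (hb : TI b Ω) :
    TI b Ω' := fun n ω c hω hl hs => hb n ω c (fun i => h (hω i)) hl hs

/-- **(left supports)** for a subspace `N` of `(ι → W)` of dimension `≤ n`, contained in `Ω^ι`,
there is `L ≤ Ω` of dimension `≤ n * |ι|` such that every element of `N` has coordinates in `L`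
(`L` = the span of all coordinates of a spanning family of `N`). -/
theorem left_support {ι : Type} [Fintype ι] (Ω : Submodule K W) [FiniteDimensional K Ω]
    (N : Submodule K (ι → W)) (hN : ∀ f ∈ N, ∀ j, f j ∈ Ω) :
    ∃ L : Submodule K W, L ≤ Ω ∧
      Module.finrank K L ≤ Module.finrank K N * Fintype.card ι ∧ ∀ f ∈ N, ∀ j, f j ∈ L := by
  have hle : N ≤ LinearMap.range (Ω.subtype.compLeft ι) := by
    intro f hf
    exact ⟨fun j => ⟨f j, hN f hf j⟩, by ext j; rfl⟩
  haveI : FiniteDimensional K N := Submodule.finiteDimensional_of_le hle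
  let e := Module.finBasis K N
  refine ⟨Submodule.span K (Set.range fun p : Fin (Module.finrank K N) × ι =>
    ((e p.1 : N) : ι → W) p.2), ?_, ?_, ?_⟩
  · rw [Submodule.span_le]
    rintro _ ⟨p, rfl⟩
    exact hN _ (e p.1).2 _
  · refine (finrank_range_le_card _).trans (le_of_eq ?_)
    rw [Fintype.card_prod, Fintype.card_fin]
  · intro f hf j
    have h1 := congrArg (Subtype.val) (e.sum_repr ⟨f, hf⟩)
    rw [Submodule.coe_sum] at h1
    have h2 := congrFun h1 j
    rw [Finset.sum_apply] at h2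
    have h3 : f j = ∑ i, e.repr ⟨f, hf⟩ i • ((e i : N) : ι → W) j := h2.symm
    rw [h3]
    exact Submodule.sum_mem _ fun i _ => Submodule.smul_mem _ _ (Submodule.subset_span ⟨(i, j), rfl⟩)

/-- complement of a subspace inside `Ω` -/
theorem kpc_compl (Ω L : Submodule K W) [FiniteDimensional K Ω] (hL : L ≤ Ω) :
    ∃ Ω' : Submodule K W, Ω' ≤ Ω ∧ Module.finrank K Ω = Module.finrank K Ω' + Module.finrank K L ∧
      ∀ x ∈ L, x ∈ Ω' → x = 0 := by
  obtain ⟨C, hC⟩ := Submodule.exists_isCompl (L.comap Ω.subtype)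
  refine ⟨C.map Ω.subtype, ?_, ?_, ?_⟩
  · rintro _ ⟨x, -, rfl⟩
    exact x.2
  · have h1 := Submodule.finrank_add_eq_of_isCompl hC
    have h2 : Module.finrank K (L.comap Ω.subtype) = Module.finrank K L :=
      (Submodule.comapSubtypeEquivOfLe hL).finrank_eq
    have h3 : Module.finrank K (C.map Ω.subtype) = Module.finrank K C :=
      (LinearEquiv.finrank_eq (Submodule.equivMapOfInjective Ω.subtype
        Ω.subtype_injective C)).symm
    omega
  · rintro x hx ⟨y, hy, rfl⟩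
    have h1 : y ∈ L.comap Ω.subtype ⊓ C := ⟨hx, hy⟩
    rw [hC.inf_eq_bot, Submodule.mem_bot] at h1
    rw [h1]
    rfl

/-- left support of the tensors of `Ω ⊗ U` mapped into a small subspace `R` of `Z` -/
theorem kpc_supp [FiniteDimensional K U] (b : W →ₗ[K] U →ₗ[K] Z) (Ω : Submodule K W)
    [FiniteDimensional K Ω] (hb : TI b Ω) (R : Submodule K Z) [FiniteDimensional K R] :
    ∃ L : Submodule K W, L ≤ Ω ∧
      Module.finrank K L ≤ Module.finrank K R * Module.finrank K U ∧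
      ∀ f : Fin (Module.finrank K U) → W, (∀ j, f j ∈ Ω) →
        ∑ j, b (f j) (Module.finBasis K U j) ∈ R → ∀ j, f j ∈ L := by
  set u := Module.finBasis K U with hu
  let Φ : (Fin (Module.finrank K U) → W) →ₗ[K] Z :=
    ∑ j, (b.flip (u j)).comp (LinearMap.proj j)
  have hΦ : ∀ f, Φ f = ∑ j, b (f j) (u j) := by
    intro f
    simp [Φ]
  let N : Submodule K (Fin (Module.finrank K U) → W) :=
    (Submodule.pi Set.univ (fun _ => Ω)) ⊓ R.comap Φ
  have hN : ∀ f ∈ N, ∀ j, f j ∈ Ω := fun f hf j => hf.1 j (Set.mem_univ j)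
  have hinj := (TI_iff_basis u b Ω).1 hb
  let ψ : N →ₗ[K] R := (Φ.domRestrict N).codRestrict R (fun f => f.2.2)
  have hψ : Function.Injective ψ := by
    rw [injective_iff_map_eq_zero]
    intro f hf
    apply Subtype.ext
    funext j
    refine hinj f.1 (hN f.1 f.2) ?_ j
    rw [← hΦ]
    exact congrArg Subtype.val hf
  have hfr : Module.finrank K N ≤ Module.finrank K R :=
    LinearMap.finrank_le_finrank_of_injective hψ
  obtain ⟨L, h1, h2, h3⟩ := left_support Ω N hN
  refine ⟨L, h1, h2.trans ?_, fun f hf hfR => h3 f ⟨fun j _ => hf j, ?_⟩⟩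
  · rw [Fintype.card_fin]
    exact Nat.mul_le_mul_right _ hfr
  · show Φ f ∈ R
    rw [hΦ]
    exact hfR

/-- **(GPa)**.  `p : Z → Z'` with `dim ker p ≤ κ`; then there is `Ω' ≤ Ω` of codimension
`≤ κ * dim U` such that `Ω' ⊗ U → Z'` is injective.
Proof: `u_j` basis of `U`; `Φ : Ω^ι → Z`, `Φ(ω) = ∑ b(ω_j)(u_j)` is injective (`TI_iff_basis`);
`N = ker (p ∘ Φ)` embeds into `ker p` by `Φ`, so `dim N ≤ κ`; `L` as in `left_support`, `Ω'` a
complement of `L` in `Ω`.  If `ω ∈ N` has all coordinates in `Ω'`, they are in `L ⊓ Ω' = ⊥`. -/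
theorem GPa [FiniteDimensional K U] (b : W →ₗ[K] U →ₗ[K] Z) (Ω : Submodule K W)
    [FiniteDimensional K Ω] (hb : TI b Ω) (p : Z →ₗ[K] Z') [FiniteDimensional K (LinearMap.ker p)]
    (κ : ℕ) (hκ : Module.finrank K (LinearMap.ker p) ≤ κ) :
    ∃ Ω' : Submodule K W, Ω' ≤ Ω ∧
      Module.finrank K Ω ≤ Module.finrank K Ω' + κ * Module.finrank K U ∧
      TI (b.compr₂ p) Ω' := by
  obtain ⟨L, hL, hL2, hL3⟩ := kpc_supp b Ω hb (LinearMap.ker p)
  obtain ⟨Ω', h1, h2, h3⟩ := kpc_compl Ω L hL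
  refine ⟨Ω', h1, ?_, ?_⟩
  · have : Module.finrank K (LinearMap.ker p) * Module.finrank K U ≤
        κ * Module.finrank K U := Nat.mul_le_mul_right _ hκ
    omega
  · rw [TI_iff_basis (Module.finBasis K U)]
    intro ω hω hs j
    refine h3 _ (hL3 ω (fun j => h1 (hω j)) ?_ j) (hω j)
    rw [LinearMap.mem_ker, map_sum]
    exact hs

/-- **(GPb)**.  For `v ∈ W` there is `S ≤ Ω`, `dim S ≤ (dim U)^2`, such that for `ω ∈ Ω \ S` the
map `c ↦ b(v+ω, c)` is injective.
Proof: `p : Z → Z/b(v,U)`, `N = ker (p ∘ Φ)` (`Φ` as in `GPa`), `dim N ≤ dim U`, `S = L` its left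
support.  If `b(v+ω,c) = 0`, `c ≠ 0`, `c = ∑ a_j u_j`, then `(a_j ω)_j ∈ N`, so `a_j ω ∈ L` and
`ω ∈ L`. -/
theorem GPb [FiniteDimensional K U] (b : W →ₗ[K] U →ₗ[K] Z) (Ω : Submodule K W)
    [FiniteDimensional K Ω] (hb : TI b Ω) (v : W) :
    ∃ S : Submodule K W, S ≤ Ω ∧ Module.finrank K S ≤ Module.finrank K U ^ 2 ∧
      ∀ ω ∈ Ω, ω ∉ S → ∀ c, b (v + ω) c = 0 → c = 0 := by
  obtain ⟨L, hL, hL2, hL3⟩ := kpc_supp b Ω hb (LinearMap.range (b v))
  refine ⟨L, hL, ?_, ?_⟩
  · have h1 : Module.finrank K (LinearMap.range (b v)) ≤ Module.finrank K U :=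
      LinearMap.finrank_range_le (b v)
    calc Module.finrank K L ≤ _ := hL2
      _ ≤ Module.finrank K U * Module.finrank K U := Nat.mul_le_mul_right _ h1
      _ = _ := (sq _).symm
  · intro ω hω hωL c hc
    by_contra hc0
    set u := Module.finBasis K U with hu
    have h1 : ∑ j, b ((u.repr c j) • ω) (u j) ∈ LinearMap.range (b v) := by
      have h2 : ∑ j, b ((u.repr c j) • ω) (u j) = b ω c := by
        conv_rhs => rw [← u.sum_repr c, map_sum]
        refine Finset.sum_congr rfl fun j _ => ?_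
        rw [map_smul, map_smul, LinearMap.smul_apply]
      rw [h2]
      refine ⟨-c, ?_⟩
      rw [map_add, LinearMap.add_apply] at hc
      rw [map_neg]
      exact (eq_neg_of_add_eq_zero_right hc).symm
    have h3 := hL3 (fun j => (u.repr c j) • ω) (fun j => Submodule.smul_mem _ _ hω) h1
    apply hc0
    have h4 : ∀ j, u.repr c j = 0 := by
      intro j
      by_contra hj
      apply hωL
      have := L.smul_mem (u.repr c j)⁻¹ (h3 j)
      rwa [smul_smul, inv_mul_cancel₀ hj, one_smul] at this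
    rw [← u.sum_repr c]
    exact Finset.sum_eq_zero fun j _ => by rw [h4 j, zero_smul]

/-- an element of `Ω` outside two small subspaces -/
theorem exists_outside (Ω S S' : Submodule K W) [FiniteDimensional K Ω] [FiniteDimensional K S]
    [FiniteDimensional K S'] (h : Module.finrank K S + Module.finrank K S' < Module.finrank K Ω) :
    ∃ ω ∈ Ω, ω ∉ S ∧ ω ∉ S' := by
  by_contra hcon
  push Not at hcon
  have h1 : Ω ≤ S ⊔ S' := by
    intro ω hω
    by_cases hS : ω ∈ S
    · exact Submodule.mem_sup_left hS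
    · exact Submodule.mem_sup_right (hcon ω hω hS)
  have h2 := Submodule.finrank_mono h1
  have h3 := Submodule.finrank_add_le_finrank_add_finrank S S'
  omega

end abstract

/-! ### application to states -/

variable {K I J : Type} [Field K] [KF K] [Fintype I] [Fintype J]

/-- `v ↦ c ↦ B_c(v, .)` restricted to `Wt` -/
noncomputable def bW (s : Pt K I J) (Wt : Submodule K (I → QA K)) :
    (I → QA K) →ₗ[K] s.U →ₗ[K] (Wt →ₗ[K] K) :=
  LinearMap.mk₂ K (fun v c => (Bl s c v).comp Wt.subtype)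
    (fun v v' c => by ext w; simp) (fun a v c => by ext w; simp)
    (fun v c c' => by ext w; simp) (fun a v c => by ext w; simp)

theorem bW_apply (s : Pt K I J) (Wt : Submodule K (I → QA K)) (v : I → QA K) (c : s.U) (w : Wt) :
    bW s Wt v c w = s.B c v w := rfl

theorem TInj_iff (s : Pt K I J) (Ω Wt : Submodule K (I → QA K)) :
    s.TInj Ω Wt ↔ TI (bW s Wt) Ω := by
  constructor
  · intro h n ω c hω hl hs i
    have h' := h n ω (fun i => (c i : J → QA K)) hω hl (fun i => (c i).2) (fun v hv => by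
      have := LinearMap.congr_fun hs ⟨v, hv⟩
      simpa [bW_apply] using this) i
    exact Subtype.ext h'
  · intro h n ω c hω hl hc hs i
    have h' := h n ω (fun i => ⟨c i, hc i⟩) hω hl (by
      ext v
      have := hs v v.2
      simpa [bW_apply] using this) i
    exact congrArg Subtype.val h'

theorem TInj_mono (s : Pt K I J) {Ω Ω' Wt : Submodule K (I → QA K)} (h : Ω' ≤ Ω)
    (hb : s.TInj Ω Wt) : s.TInj Ω' Wt :=
  fun n ω c hω hl hc hs => hb n ω c (fun i => h (hω i)) hl hc hs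

/-- **(GPa) for states**: shrinking the space of test vectors from `Wt` to `Wt'` of codimension
`≤ κ` costs at most `κ * o` dimensions of `Ω`.
Proof: `GPa` for `bW s Wt` and the restriction map `Wt^* → Wt'^*`, whose kernel is the annihilator
of `Wt'` in `Wt`. -/
theorem TInj_restrict (s : Pt K I J) (Ω Wt Wt' : Submodule K (I → QA K))
    [FiniteDimensional K Ω] [FiniteDimensional K Wt] (hle : Wt' ≤ Wt) (κ : ℕ)
    (hκ : Module.finrank K Wt ≤ Module.finrank K Wt' + κ) (h : s.TInj Ω Wt) :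
    ∃ Ω' : Submodule K (I → QA K), Ω' ≤ Ω ∧
      Module.finrank K Ω ≤ Module.finrank K Ω' + κ * s.o ∧ s.TInj Ω' Wt' := by
  rw [TInj_iff] at h
  have hker : Module.finrank K (LinearMap.ker (Submodule.inclusion hle).dualMap) ≤ κ := by
    rw [LinearMap.ker_dualMap_eq_dualAnnihilator_range]
    have h1 := Subspace.finrank_add_finrank_dualAnnihilator_eq
      (LinearMap.range (Submodule.inclusion hle))
    have h2 := LinearMap.finrank_range_of_inj (Submodule.inclusion_injective hle)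
    omega
  obtain ⟨Ω', h1, h2, h3⟩ := GPa (bW s Wt) Ω h (Submodule.inclusion hle).dualMap κ hker
  refine ⟨Ω', h1, h2, ?_⟩
  rw [TInj_iff]
  exact h3

/-- intersection with the kernel of a family of at most `o` functionals `ω ↦ B_c(w,ω)`, `c ∈ U` -/
theorem finrank_inf_perp (s : Pt K I J) (Ω : Submodule K (I → QA K)) [FiniteDimensional K Ω]
    (w : I → QA K) :
    ∃ Ω' : Submodule K (I → QA K), Ω' ≤ Ω ∧
      Module.finrank K Ω ≤ Module.finrank K Ω' + s.o ∧ ∀ ω ∈ Ω', ∀ c ∈ s.U, s.B c w ω = 0 := by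
  let ψ : Ω →ₗ[K] Module.Dual K s.U :=
    LinearMap.mk₂ K (fun (ω : Ω) (c : s.U) => Bl s c w ω)
      (fun ω ω' c => by simp only [Submodule.coe_add, map_add])
      (fun a ω c => by simp only [Submodule.coe_smul, map_smul])
      (fun ω c c' => by simp only [Submodule.coe_add, map_add, LinearMap.add_apply])
      (fun a ω c => by simp only [Submodule.coe_smul, map_smul, LinearMap.smul_apply])
  refine ⟨(LinearMap.ker ψ).map Ω.subtype, ?_, ?_, ?_⟩
  · rintro _ ⟨x, -, rfl⟩
    exact x.2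
  · have h1 := LinearMap.finrank_range_add_finrank_ker ψ
    have h2 : Module.finrank K ((LinearMap.ker ψ).map Ω.subtype) =
        Module.finrank K (LinearMap.ker ψ) :=
      (LinearEquiv.finrank_eq (Submodule.equivMapOfInjective Ω.subtype
        Ω.subtype_injective _)).symm
    have h3 : Module.finrank K (LinearMap.range ψ) ≤ s.o := by
      have := Submodule.finrank_le (LinearMap.range ψ)
      rw [Subspace.dual_finrank_eq] at this
      exact this
    omega
  · rintro _ ⟨x, hx, rfl⟩ c hc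
    have := LinearMap.congr_fun hx (⟨c, hc⟩ : s.U)
    exact this

/-- first half of (GL): the choice of `w1 = v1 + ω1`: `c ↦ B_c(w1, .)|Wt` injective and `w1` not
inner.  Proof: `GPb` (dimension `o^2`); the set of `ω ∈ Ω0` with `v1 + ω` inner has at most one
element (differences are inner elements of `Ω0`), so it is contained in a line; `exists_outside`. -/
theorem gp_first (s : Pt K I J) (Wt Ω0 : Submodule K (I → QA K)) [FiniteDimensional K Ω0]
    (hti : s.TInj Ω0 Wt) (hinn : ∀ v ∈ Ω0, s.InnXY v → v = 0)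
    (hdim : s.o ^ 2 + 2 ≤ Module.finrank K Ω0) (v1 : I → QA K) :
    ∃ ω1 ∈ Ω0, (∀ c ∈ s.U, (∀ v ∈ Wt, s.B c (v1 + ω1) v = 0) → c = 0) ∧
      ¬ s.InnXY (v1 + ω1) := by
  obtain ⟨S, hSle, hSdim, hS⟩ := GPb (bW s Wt) Ω0 ((TInj_iff s Ω0 Wt).1 hti) v1
  haveI : FiniteDimensional K S := Submodule.finiteDimensional_of_le hSle
  obtain ⟨z, hz⟩ : ∃ z : I → QA K, ∀ ω ∈ Ω0, s.InnXY (v1 + ω) → ω = z := by
    by_cases h : ∃ ω ∈ Ω0, s.InnXY (v1 + ω)
    · obtain ⟨z, hz, hz'⟩ := h
      refine ⟨z, fun ω hω hω' => ?_⟩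
      have h1 : s.InnXY (ω - z) := by
        have h2 := (InnS s).sub_mem ((mem_InnS s _).2 hω') ((mem_InnS s _).2 hz')
        rw [add_sub_add_left_eq_sub] at h2
        exact (mem_InnS s _).1 h2
      exact sub_eq_zero.1 (hinn _ (Ω0.sub_mem hω hz) h1)
    · exact ⟨0, fun ω hω hω' => absurd ⟨ω, hω, hω'⟩ h⟩
  haveI : FiniteDimensional K (Submodule.span K {z}) := inferInstance
  have hz1 : Module.finrank K (Submodule.span K {z}) ≤ 1 := by
    simpa using finrank_span_le_card (R := K) ({z} : Set (I → QA K))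
  have ho : Module.finrank K s.U ^ 2 = s.o ^ 2 := rfl
  obtain ⟨ω, hω, hωS, hωz⟩ := exists_outside Ω0 S (Submodule.span K {z}) (by omega)
  refine ⟨ω, hω, fun c hc h => ?_, fun hi => hωz ?_⟩
  · have h1 : (⟨c, hc⟩ : s.U) = 0 := hS ω hω hωS ⟨c, hc⟩ (by
      ext u
      exact h u u.2)
    exact congrArg Subtype.val h1
  · rw [hz ω hω hi]
    exact Submodule.mem_span_singleton_self z

/-- second half of (GL): given `w1` (with `c ↦ B_c(w1,.)|Wt` injective, `w1` not inner) and `v`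
there is `ω2 ∈ Ω0` with `B_c(w1,ω2) = 0` for all `c ∈ U`, (INJ) on `Wt` and (PI) for
`w1, v + ω2`.
Proof: `GPa` for `p : Wt^* → Wt^*/B_U(w1,.)` (kernel of dimension `≤ o`) gives `Ω' ≤ Ω0`,
codimension `≤ o^2`; `finrank_inf_perp` gives `Ω'' ≤ Ω'`, `dim Ω'' ≥ o^2 + 4`; `GPb` for the
form `p ∘ b` on `Ω''` and the vector `v` gives `S`, `dim S ≤ o^2`.  The set of `ω ∈ Ω''` with
`v + ω ∈ Inn + K w1` is contained in a subspace of dimension `≤ 2` (the differences lie in
`Ω'' ⊓ (Inn + K w1)`, of dimension `≤ 1`, plus one particular element).  `exists_outside`.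
(INJ): `B_{c1}(w1,.) + B_{c2}(v+ω,.) = 0` on `Wt` gives `(p∘b)(v+ω,c2) = 0`, so `c2 = 0`, then
`c1 = 0`.  (PI): `l1 w1 + l2 (v+ω)` inner: `l2 = 0` (otherwise `v+ω ∈ Inn + K w1`), then
`l1 = 0`. -/
theorem gp_second (s : Pt K I J) (Wt Ω0 : Submodule K (I → QA K)) [FiniteDimensional K Ω0]
    [FiniteDimensional K Wt]
    (hti : s.TInj Ω0 Wt) (hinn : ∀ v ∈ Ω0, s.InnXY v → v = 0)
    (hdim : 2 * s.o ^ 2 + s.o + 3 ≤ Module.finrank K Ω0) (w1 v : I → QA K)
    (h1 : ∀ c ∈ s.U, (∀ u ∈ Wt, s.B c w1 u = 0) → c = 0) (h2 : ¬ s.InnXY w1) :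
    ∃ ω2 ∈ Ω0, (∀ c ∈ s.U, s.B c w1 ω2 = 0) ∧ s.PIc w1 (v + ω2) ∧ s.Inj Wt w1 (v + ω2) := by
  set R : Submodule K (Wt →ₗ[K] K) := LinearMap.range (bW s Wt w1) with hR
  have hker : LinearMap.ker R.mkQ = R := Submodule.ker_mkQ R
  have hRdim : Module.finrank K R ≤ s.o := LinearMap.finrank_range_le (bW s Wt w1)
  haveI : FiniteDimensional K (LinearMap.ker R.mkQ) := by rw [hker]; infer_instance
  obtain ⟨Ω', hle', hdim', hti'⟩ := GPa (bW s Wt) Ω0 ((TInj_iff s Ω0 Wt).1 hti) R.mkQ s.o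
    (by rw [hker]; exact hRdim)
  haveI : FiniteDimensional K Ω' := Submodule.finiteDimensional_of_le hle'
  obtain ⟨Ω'', hle'', hdim'', hperp⟩ := finrank_inf_perp s Ω' w1
  haveI : FiniteDimensional K Ω'' := Submodule.finiteDimensional_of_le hle''
  obtain ⟨S, hSle, hSdim, hS⟩ := GPb ((bW s Wt).compr₂ R.mkQ) Ω'' (TI_mono _ hle'' hti') v
  haveI : FiniteDimensional K S := Submodule.finiteDimensional_of_le hSle
  have hinn'' : ∀ u ∈ Ω'', s.InnXY u → u = 0 := fun u hu => hinn u (hle' (hle'' hu))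
  -- `q` spans `Ω'' ⊓ (Inn + K w1)`
  obtain ⟨q, hq⟩ : ∃ q : I → QA K, ∀ ω ∈ Ω'', ∀ a : K, s.InnXY (ω - a • w1) →
      ω ∈ Submodule.span K {q} := by
    by_cases h : ∃ ω ∈ Ω'', ω ≠ 0 ∧ ∃ a : K, s.InnXY (ω - a • w1)
    · obtain ⟨q, hq, hq0, a, ha⟩ := h
      have ha0 : a ≠ 0 := by
        rintro rfl
        rw [zero_smul, sub_zero] at ha
        exact hq0 (hinn'' q hq ha)
      refine ⟨q, fun ω hω b hb => ?_⟩
      have h3 : s.InnXY (ω - (b * a⁻¹) • q) := by
        have h4 := (InnS s).sub_mem ((mem_InnS s _).2 hb)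
          ((InnS s).smul_mem (b * a⁻¹) ((mem_InnS s _).2 ha))
        have e : ω - b • w1 - (b * a⁻¹) • (q - a • w1) = ω - (b * a⁻¹) • q := by
          rw [smul_sub, smul_smul, mul_assoc, inv_mul_cancel₀ ha0, mul_one]
          abel
        rw [e] at h4
        exact (mem_InnS s _).1 h4
      have h5 := hinn'' _ (Ω''.sub_mem hω (Ω''.smul_mem _ hq)) h3
      rw [sub_eq_zero.1 h5]
      exact Submodule.smul_mem _ _ (Submodule.mem_span_singleton_self q)
    · push Not at h
      refine ⟨0, fun ω hω a ha => ?_⟩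
      by_cases h0 : ω = 0
      · rw [h0]; exact Submodule.zero_mem _
      · exact absurd ha (h ω hω h0 a)
  obtain ⟨z, hz⟩ : ∃ z : I → QA K, ∀ ω ∈ Ω'', ∀ a : K, s.InnXY (v + ω - a • w1) →
      ω ∈ Submodule.span K {q} ⊔ Submodule.span K {z} := by
    by_cases h : ∃ ω ∈ Ω'', ∃ a : K, s.InnXY (v + ω - a • w1)
    · obtain ⟨z, hz, a, ha⟩ := h
      refine ⟨z, fun ω hω b hb => ?_⟩
      have h3 : s.InnXY (ω - z - (b - a) • w1) := by
        have h4 := (InnS s).sub_mem ((mem_InnS s _).2 hb) ((mem_InnS s _).2 ha)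
        have e : v + ω - b • w1 - (v + z - a • w1) = ω - z - (b - a) • w1 := by
          rw [sub_smul]
          abel
        rw [e] at h4
        exact (mem_InnS s _).1 h4
      have h5 := hq _ (Ω''.sub_mem hω hz) _ h3
      have h6 : ω = (ω - z) + z := by abel
      rw [h6]
      exact Submodule.add_mem_sup h5 (Submodule.mem_span_singleton_self z)
    · exact ⟨0, fun ω hω a ha => absurd ⟨ω, hω, a, ha⟩ h⟩
  set S' : Submodule K (I → QA K) := Submodule.span K {q} ⊔ Submodule.span K {z} with hS'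
  have hS'dim : Module.finrank K S' ≤ 2 := by
    have h3 := Submodule.finrank_add_le_finrank_add_finrank (Submodule.span K {q})
      (Submodule.span K {z})
    have h4 : Module.finrank K (Submodule.span K {q}) ≤ 1 := by
      simpa using finrank_span_le_card (R := K) ({q} : Set (I → QA K))
    have h5 : Module.finrank K (Submodule.span K {z}) ≤ 1 := by
      simpa using finrank_span_le_card (R := K) ({z} : Set (I → QA K))
    rw [hS']
    omega
  have ho : Module.finrank K s.U = s.o := rfl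
  rw [ho] at hdim' hSdim
  obtain ⟨ω, hω, hωS, hωS'⟩ := exists_outside Ω'' S S' (by nlinarith)
  refine ⟨ω, hle' (hle'' hω), fun c hc => hperp ω hω c hc, fun l1 l2 hl => ?_, ?_⟩
  · have hl2 : l2 = 0 := by
      by_contra hne
      refine hωS' (hz ω hω (-(l2⁻¹ * l1)) ?_)
      have h3 := (InnS s).smul_mem l2⁻¹ ((mem_InnS s _).2 hl)
      have e : l2⁻¹ • (l1 • w1 + l2 • (v + ω)) = v + ω - (-(l2⁻¹ * l1)) • w1 := by
        rw [smul_add, smul_smul, smul_smul, inv_mul_cancel₀ hne, one_smul, neg_smul]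
        abel
      rw [e] at h3
      exact (mem_InnS s _).1 h3
    refine ⟨?_, hl2⟩
    by_contra hne
    apply h2
    rw [hl2, zero_smul, add_zero] at hl
    have h3 := (InnS s).smul_mem l1⁻¹ ((mem_InnS s _).2 hl)
    rw [smul_smul, inv_mul_cancel₀ hne, one_smul] at h3
    exact (mem_InnS s _).1 h3
  · intro c1 hc1 c2 hc2 hc
    have hc2' : c2 = 0 := by
      have h3 : (⟨c2, hc2⟩ : s.U) = 0 := hS ω hω hωS ⟨c2, hc2⟩ (by
        rw [LinearMap.compr₂_apply, Submodule.mkQ_apply, Submodule.Quotient.mk_eq_zero]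
        refine ⟨-⟨c1, hc1⟩, ?_⟩
        rw [map_neg, neg_eq_iff_add_eq_zero]
        ext u
        exact hc u u.2)
      exact congrArg Subtype.val h3
    refine ⟨h1 c1 hc1 fun u hu => ?_, hc2'⟩
    have h3 := hc u hu
    rw [hc2'] at h3
    have e2 : s.B (0 : J → QA K) (v + ω) u = 0 := by rw [← Bl_apply, map_zero]; rfl
    rwa [e2, add_zero] at h3

/-- **(GL)** general position. -/
theorem gen_pos (s : Pt K I J) (Wt Ω0 : Submodule K (I → QA K)) [FiniteDimensional K Ω0]
    [FiniteDimensional K Wt]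
    (hti : s.TInj Ω0 Wt) (hinn : ∀ v ∈ Ω0, s.InnXY v → v = 0)
    (hdim : 2 * s.o ^ 2 + s.o + 4 ≤ Module.finrank K Ω0) (v1 v2 : I → QA K) :
    ∃ ω1 ∈ Ω0, ∃ η ∈ Wt, ∃ ω2 ∈ Ω0, (∀ c ∈ s.U, s.B c (v1 + ω1) (v2 + η + ω2) = 0) ∧
      s.PIc (v1 + ω1) (v2 + η + ω2) ∧ s.Inj Wt (v1 + ω1) (v2 + η + ω2) := by
  have hsq : s.o ^ 2 + 2 ≤ 2 * s.o ^ 2 + s.o + 4 := by nlinarith [sq_nonneg (s.o : ℤ)]
  obtain ⟨ω1, hω1, h1, h2⟩ := gp_first s Wt Ω0 hti hinn (hsq.trans hdim) v1
  obtain ⟨η, hη, h3⟩ := inj_onto_one s Wt (v1 + ω1) h1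
    (-((LinearMap.flip (Bl s)).flip.domRestrict s.U |>.flip (v1 + ω1)).flip v2 : Module.Dual K s.U)
  obtain ⟨ω2, hω2, h4, h5, h6⟩ := gp_second s Wt Ω0 hti hinn (by omega) (v1 + ω1) (v2 + η) h1 h2
  refine ⟨ω1, hω1, η, hη, ω2, hω2, fun c hc => ?_, h5, h6⟩
  have h7 := h3 ⟨c, hc⟩
  have h8 := h4 c hc
  rw [← Bl_apply, map_add, map_add, Bl_apply, Bl_apply, Bl_apply, h8, add_zero]
  have : s.B c (v1 + ω1) η = - s.B c (v1 + ω1) v2 := h7
  rw [this, add_neg_cancel]

end Crest.Agent.KP.KC
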