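import Crest.Agent.KP_Defs2

/-! # S0270, part (C): calculus of noncommutative polynomials `NC` (author helper6)

All lemmas are in the namespace `Crest.Agent.KP.KC`. -/

set_option autoImplicit false
set_option linter.unusedSectionVars false

open scoped PowerSeries LaurentSeries symmDiff

namespace Crest.Agent.KP.KC

open Crest.Agent.KP.NC

variable {K L I : Type} [CommRing K] [CommRing L]
variable {B C : Type} [Ring B] [Algebra K B] [Ring C] [Algebra L C]

theorem d1_add (X v v' : I → B) (F : NC K I) : d1 X (v + v') F = d1 X v F + d1 X v' F := by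
  induction F with
  | var i => rfl
  | cst c => simp [d1]
  | add F G hF hG => simp only [d1, hF, hG]; abel
  | mul F G hF hG => simp only [d1, hF, hG, add_mul, mul_add]; abel

theorem d1_zero (X : I → B) (F : NC K I) : d1 X 0 F = 0 := by
  induction F with
  | var i => rfl
  | cst c => rfl
  | add F G hF hG => simp only [d1, hF, hG, add_zero]
  | mul F G hF hG => simp only [d1, hF, hG, zero_mul, mul_zero, add_zero]

theorem d1_neg (X v : I → B) (F : NC K I) : d1 X (-v) F = - d1 X v F := by
  have h := d1_add X v (-v) F
  rw [add_neg_cancel, d1_zero] at h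
  exact (neg_eq_of_add_eq_zero_right h.symm).symm

theorem d1_sub (X v v' : I → B) (F : NC K I) : d1 X (v - v') F = d1 X v F - d1 X v' F := by
  rw [sub_eq_add_neg, d1_add, d1_neg, ← sub_eq_add_neg]

theorem d1_sum {α : Type} (s : Finset α) (X : I → B) (v : α → I → B) (F : NC K I) :
    d1 X (∑ a ∈ s, v a) F = ∑ a ∈ s, d1 X (v a) F := by
  classical
  induction s using Finset.induction_on with
  | empty => simp [d1_zero]
  | insert a s ha h => rw [Finset.sum_insert ha, Finset.sum_insert ha, d1_add, h]

theorem d2_add_left (X v w v' : I → B) (F : NC K I) :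
    d2 X (v + w) v' F = d2 X v v' F + d2 X w v' F := by
  induction F with
  | var i => simp [d2]
  | cst c => simp [d2]
  | add F G hF hG => simp only [d2, hF, hG]; abel
  | mul F G hF hG => simp only [d2, hF, hG, d1_add, add_mul, mul_add]; abel

theorem d2_add_right (X v v' w : I → B) (F : NC K I) :
    d2 X v (v' + w) F = d2 X v v' F + d2 X v w F := by
  induction F with
  | var i => simp [d2]
  | cst c => simp [d2]
  | add F G hF hG => simp only [d2, hF, hG]; abel
  | mul F G hF hG => simp only [d2, hF, hG, d1_add, add_mul, mul_add]; abel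

theorem d2_zero_left (X v : I → B) (F : NC K I) : d2 X 0 v F = 0 := by
  have h := d2_add_left X 0 0 v F
  rw [add_zero] at h
  exact left_eq_add.1 h

theorem d2_zero_right (X v : I → B) (F : NC K I) : d2 X v 0 F = 0 := by
  have h := d2_add_right X v 0 0 F
  rw [add_zero] at h
  exact left_eq_add.1 h

theorem d2_sum_left {α : Type} (s : Finset α) (X : I → B) (v : α → I → B) (w : I → B)
    (F : NC K I) : d2 X (∑ a ∈ s, v a) w F = ∑ a ∈ s, d2 X (v a) w F := by
  classical
  induction s using Finset.induction_on with
  | empty => simp [d2_zero_left]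
  | insert a s ha h => rw [Finset.sum_insert ha, Finset.sum_insert ha, d2_add_left, h]

theorem d2_sum_right {α : Type} (s : Finset α) (X : I → B) (w : I → B) (v : α → I → B)
    (F : NC K I) : d2 X w (∑ a ∈ s, v a) F = ∑ a ∈ s, d2 X w (v a) F := by
  classical
  induction s using Finset.induction_on with
  | empty => simp [d2_zero_right]
  | insert a s ha h => rw [Finset.sum_insert ha, Finset.sum_insert ha, d2_add_right, h]

/-- an element commuting with the values can be pulled out of the derivative (on the right) -/
theorem ev_comm (X : I → B) (e : B) (he : ∀ i, X i * e = e * X i) (F : NC K I) :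
    ev X F * e = e * ev X F := by
  induction F with
  | var i => exact he i
  | cst c => exact (Algebra.commutes c e)
  | add F G hF hG => simp only [ev, add_mul, mul_add, hF, hG]
  | mul F G hF hG => simp only [ev]; rw [mul_assoc, hG, ← mul_assoc, hF, mul_assoc]

theorem d1_mul_right (X v : I → B) (e : B) (he : ∀ i, X i * e = e * X i) (F : NC K I) :
    d1 X (fun i => v i * e) F = d1 X v F * e := by
  induction F with
  | var i => rfl
  | cst c => simp [d1]
  | add F G hF hG => simp only [d1, hF, hG, add_mul]
  | mul F G hF hG =>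
    simp only [d1, hF, hG, add_mul]
    rw [mul_assoc (d1 X v F) e, ← ev_comm X e he G]
    simp only [mul_assoc]

theorem d1_smul {R : Type} [CommSemiring R] [Algebra R B] (X v : I → B) (r : R)
    (F : NC K I) : d1 X (r • v) F = r • d1 X v F := by
  induction F with
  | var i => rfl
  | cst c => simp [d1]
  | add F G hF hG => simp only [d1, hF, hG, smul_add]
  | mul F G hF hG => simp only [d1, hF, hG, smul_add, smul_mul_assoc, mul_smul_comm]

theorem d2_smul_left {R : Type} [CommSemiring R] [Algebra R B] (X v v' : I → B) (r : R)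
    (F : NC K I) : d2 X (r • v) v' F = r • d2 X v v' F := by
  induction F with
  | var i => simp [d2]
  | cst c => simp [d2]
  | add F G hF hG => simp only [d2, hF, hG, smul_add]
  | mul F G hF hG =>
    simp only [d2, hF, hG, d1_smul, smul_add, smul_mul_assoc, mul_smul_comm]

theorem d2_smul_right {R : Type} [CommSemiring R] [Algebra R B] (X v v' : I → B) (r : R)
    (F : NC K I) : d2 X v (r • v') F = r • d2 X v v' F := by
  induction F with
  | var i => simp [d2]
  | cst c => simp [d2]
  | add F G hF hG => simp only [d2, hF, hG, smul_add]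
  | mul F G hF hG =>
    simp only [d2, hF, hG, d1_smul, smul_add, smul_mul_assoc, mul_smul_comm]

/-- second derivative in directions `v a`, `v' b` where `a`, `b` commute with `X`, `v`, `v'` -/
theorem d2_mul_mul (X v v' : I → B) (a b : B) (haX : ∀ i, X i * a = a * X i)
    (hbX : ∀ i, X i * b = b * X i) (hav : ∀ i, v' i * a = a * v' i) (F : NC K I) :
    d2 X (fun i => v i * a) (fun i => v' i * b) F = d2 X v v' F * (a * b) := by
  have hd : ∀ G : NC K I, d1 X v' G * a = a * d1 X v' G := by
    intro G
    induction G with
    | var i => exact hav i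
    | cst c => simp [d1]
    | add F G hF hG => simp only [d1, add_mul, mul_add, hF, hG]
    | mul F G hF hG =>
      simp only [d1, add_mul, mul_add]
      rw [mul_assoc, ev_comm X a haX G, ← mul_assoc, hF, mul_assoc (ev X F), hG,
        ← mul_assoc (ev X F), ev_comm X a haX F]
      simp only [mul_assoc]
  induction F with
  | var i => simp [d2]
  | cst c => simp [d2]
  | add F G hF hG => simp only [d2, hF, hG, add_mul]
  | mul F G hF hG =>
    simp only [d2, hF, hG, add_mul]
    rw [d1_mul_right X v a haX F, d1_mul_right X v' b hbX G]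
    congr 1
    congr 1
    · rw [mul_assoc (d2 X v v' F), mul_assoc (d2 X v v' F), mul_assoc a b,
        ← ev_comm X b hbX G, ← mul_assoc a, ← ev_comm X a haX G, mul_assoc (ev X G)]
    · rw [mul_assoc (d1 X v F) a, ← mul_assoc a, ← hd G]
      simp only [mul_assoc]
    · rw [mul_assoc]


/-- naturality in a ring homomorphism `φ : B → C` which is compatible with `f : K → L` -/
theorem ev_map (f : K →+* L) (φ : B →+* C)
    (h : ∀ c : K, φ (algebraMap K B c) = algebraMap L C (f c)) (X : I → B) (F : NC K I) :
    ev (fun i => φ (X i)) (F.map f) = φ (ev X F) := by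
  induction F with
  | var i => rfl
  | cst c => exact (h c).symm
  | add F G hF hG => simp only [NC.map, ev, hF, hG, map_add]
  | mul F G hF hG => simp only [NC.map, ev, hF, hG, map_mul]

theorem d1_map (f : K →+* L) (φ : B →+* C)
    (h : ∀ c : K, φ (algebraMap K B c) = algebraMap L C (f c)) (X v : I → B) (F : NC K I) :
    d1 (fun i => φ (X i)) (fun i => φ (v i)) (F.map f) = φ (d1 X v F) := by
  induction F with
  | var i => rfl
  | cst c => simp [NC.map, d1]
  | add F G hF hG => simp only [NC.map, d1, hF, hG, map_add]
  | mul F G hF hG => simp only [NC.map, d1, hF, hG, map_add, map_mul, ev_map f φ h]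

theorem d2_map (f : K →+* L) (φ : B →+* C)
    (h : ∀ c : K, φ (algebraMap K B c) = algebraMap L C (f c)) (X v v' : I → B)
    (F : NC K I) :
    d2 (fun i => φ (X i)) (fun i => φ (v i)) (fun i => φ (v' i)) (F.map f) =
      φ (d2 X v v' F) := by
  induction F with
  | var i => simp [NC.map, d2]
  | cst c => simp [NC.map, d2]
  | add F G hF hG => simp only [NC.map, d2, hF, hG, map_add]
  | mul F G hF hG =>
    simp only [NC.map, d2, hF, hG, map_add, map_mul, ev_map f φ h, d1_map f φ h]


/-- values stay in a subalgebra -/
theorem ev_mem {R : Type} [CommRing R] [Algebra R B] [Algebra K R] [IsScalarTower K R B]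
    (S : Subalgebra R B) (X : I → B) (hX : ∀ i, X i ∈ S) (F : NC K I) : ev X F ∈ S := by
  induction F with
  | var i => exact hX i
  | cst c =>
    rw [ev, IsScalarTower.algebraMap_apply K R B]
    exact S.algebraMap_mem _
  | add F G hF hG => exact S.add_mem hF hG
  | mul F G hF hG => exact S.mul_mem hF hG

theorem d1_mem {R : Type} [CommRing R] [Algebra R B] [Algebra K R] [IsScalarTower K R B]
    (S : Subalgebra R B) (X v : I → B) (hX : ∀ i, X i ∈ S) (hv : ∀ i, v i ∈ S) (F : NC K I) :
    d1 X v F ∈ S := by
  induction F with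
  | var i => exact hv i
  | cst c => exact S.zero_mem
  | add F G hF hG => exact S.add_mem hF hG
  | mul F G hF hG =>
    exact S.add_mem (S.mul_mem hF (ev_mem S X hX G)) (S.mul_mem (ev_mem S X hX F) hG)

theorem d2_mem {R : Type} [CommRing R] [Algebra R B] [Algebra K R] [IsScalarTower K R B]
    (S : Subalgebra R B) (X v w : I → B) (hX : ∀ i, X i ∈ S) (hv : ∀ i, v i ∈ S)
    (hw : ∀ i, w i ∈ S) (F : NC K I) : d2 X v w F ∈ S := by
  induction F with
  | var i => exact S.zero_mem
  | cst c => exact S.zero_mem
  | add F G hF hG => exact S.add_mem hF hG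
  | mul F G hF hG =>
    exact S.add_mem (S.add_mem (S.mul_mem hF (ev_mem S X hX G))
      (S.mul_mem (d1_mem S X v hX hv F) (d1_mem S X w hX hw G)))
      (S.mul_mem (ev_mem S X hX F) hG)

/-- Taylor expansion in a central direction: `F(T + s v) = F(T) + s F'(T)[v] + s² R`. -/
theorem ev_add_central (T v : I → B) (s : B)
    (hs : ∀ c : B, s * c = c * s) (F : NC K I) :
    ∃ R : B, ev (fun i => T i + s * v i) F = ev T F + s * d1 T v F + s * s * R := by
  induction F with
  | var i => exact ⟨0, by simp [ev, d1]⟩
  | cst c => exact ⟨0, by simp [ev, d1]⟩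
  | add F G hF hG =>
    obtain ⟨R, hR⟩ := hF
    obtain ⟨S, hS⟩ := hG
    refine ⟨R + S, ?_⟩
    simp only [ev, d1, hR, hS, mul_add]
    abel
  | mul F G hF hG =>
    obtain ⟨R, hR⟩ := hF
    obtain ⟨S, hS⟩ := hG
    refine ⟨ev T F * S + d1 T v F * d1 T v G + s * (d1 T v F * S) + R * ev T G +
      s * (R * d1 T v G) + s * s * (R * S), ?_⟩
    simp only [ev, d1, hR, hS, mul_add, add_mul]
    have e1 : ∀ a b : B, a * (s * b) = s * (a * b) := by
      intro a b
      rw [← mul_assoc, ← hs, mul_assoc]
    simp only [e1, mul_assoc]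
    abel

/-- an additive map with the Leibniz rule and killing the constants -/
theorem ev_derivation (δ : B →+ B) (hδ : ∀ a b, δ (a * b) = δ a * b + a * δ b)
    (h0 : ∀ c : K, δ (algebraMap K B c) = 0) (T : I → B) (F : NC K I) :
    δ (ev T F) = d1 T (fun i => δ (T i)) F := by
  induction F with
  | var i => rfl
  | cst c => exact h0 c
  | add F G hF hG => simp only [ev, d1, map_add, hF, hG]
  | mul F G hF hG => simp only [ev, d1, hδ, hF, hG]

/-! ### scalar tower for `QA` -/

instance scalarTower_QA {T R : Type} [CommRing T] [CommRing R] [QPar R] [Algebra T R] :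
    IsScalarTower T R (QA R) :=
  inferInstanceAs (IsScalarTower T R (Gp →₀ R))

end Crest.Agent.KP.KC
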