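import Crest.Agent.KPC_Step

/-! # S0270, part (C): Lemma 3 (existence of steps), Lemma 4 (tangent vector), Lemma 2 (author helper6)

All lemmas are in the namespace `Crest.Agent.KP.KC`. -/

set_option autoImplicit false
set_option linter.unusedSectionVars false

open scoped PowerSeries LaurentSeries symmDiff

namespace Crest.Agent.KP.KC

open Crest.Agent.KP.NC

variable {K I J : Type} [Field K] [KF K] [Fintype I] [Fintype J]

/-- **limit of successive approximations**: `Q l T` are properties of approximate solutions (of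
order `l`); if every approximate solution of order `l ≥ n` can be corrected in degree `> l` to
one of order `l+1` then there is `T'` which agrees up to order `l` with a solution of `Q l`, for
all `l ≥ n`.  Proof: recursion gives `T_l` (`l ≥ n`), `T_n = T`, `T_{l+1} ≡ T_l` up to order `l`;
take `T'` with `cf l T' = cf l T_l` for `l ≥ n`, `cf l T' = cf l T` for `l ≤ n`
(`exists_ser`). -/
theorem series_limit (k n : ℕ) (Q : ℕ → (I → QA K⟦X⟧) → Prop)
    (hlev : ∀ l T, Q l T → ∀ m i, cf m (T i) ∈ lev K k)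
    (hstep : ∀ l, n ≤ l → ∀ T, Q l T →
      ∃ T', (∀ m ≤ l, ∀ i, cf m (T' i) = cf m (T i)) ∧ Q (l + 1) T')
    (T : I → QA K⟦X⟧) (h : Q n T) :
    ∃ T' : I → QA K⟦X⟧, (∀ m ≤ n, ∀ i, cf m (T' i) = cf m (T i)) ∧
      ∀ l, n ≤ l → ∃ T'', Q l T'' ∧ ∀ m ≤ l, ∀ i, cf m (T' i) = cf m (T'' i) := by
  classical
  have hstep' : ∀ l, ∀ T : {T : I → QA K⟦X⟧ // Q (n + l) T},
      ∃ T' : {T : I → QA K⟦X⟧ // Q (n + (l + 1)) T},
        ∀ m ≤ n + l, ∀ i, cf m (T'.1 i) = cf m (T.1 i) := by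
    intro l T
    obtain ⟨T', h1, h2⟩ := hstep (n + l) (Nat.le_add_right _ _) T.1 T.2
    exact ⟨⟨T', h2⟩, h1⟩
  choose nx hnx using hstep'
  let sq : ∀ l, {T : I → QA K⟦X⟧ // Q (n + l) T} := fun l => Nat.rec ⟨T, h⟩ (fun l T => nx l T) l
  have hsq : ∀ l, sq (l + 1) = nx l (sq l) := fun l => rfl
  have hsq0 : (sq 0).1 = T := rfl
  have hag : ∀ l l', l ≤ l' → ∀ m ≤ n + l, ∀ i, cf m ((sq l').1 i) = cf m ((sq l).1 i) := by
    intro l l' hll
    induction l', hll using Nat.le_induction with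
    | base => intro m _ i; rfl
    | succ l' hl' ih =>
      intro m hm i
      rw [hsq, hnx l' (sq l') m (by omega) i, ih m hm i]
  obtain ⟨T', hT'⟩ := exists_ser k (fun m i => cf m ((sq m).1 i))
    (fun m i => hlev _ _ (sq m).2 m i)
  refine ⟨T', fun m hm i => ?_, fun l hl => ⟨(sq (l - n)).1, ?_, fun m hm i => ?_⟩⟩
  · rw [hT', hag 0 m (Nat.zero_le _) m (by omega) i, hsq0]
  · have h3 : ∀ p, p = n + (l - n) → Q p (sq (l - n)).1 := by
      rintro _ rfl
      exact (sq (l - n)).2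
    exact h3 l (by omega)
  · rw [hT', ← hag m (max m (l - n)) (le_max_left _ _) m (by omega) i,
      hag (l - n) (max m (l - n)) (le_max_right _ _) m (by omega) i]

/-- values of `F` at a point with coefficients in `lev k` -/
theorem cf_ev_lev (k : ℕ) (T : I → QA K⟦X⟧) (hT : ∀ m i, cf m (T i) ∈ lev K k) (F : NC K I)
    (m : ℕ) : cf m (ev T F) ∈ lev K k := by
  have h : ev T F ∈ lev K⟦X⟧ k :=
    ev_mem (R := K⟦X⟧) (lev K⟦X⟧ k) T (fun i => (mem_lev_iff_cf k (T i)).2 fun m => hT m i) F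
  exact (mem_lev_iff_cf k _).1 h m

/-- adding `z^d v` with `v` constant -/
theorem cf_add_X (d m : ℕ) (u : QA K⟦X⟧) (v : QA K) :
    cf m (u + (PowerSeries.X ^ d : K⟦X⟧) • toP K v) = cf m u + if m = d then v else 0 := by
  rw [map_add, cf_X_smul]
  congr 1
  by_cases h : d ≤ m
  · rw [if_pos h, cf_toP]
    by_cases h' : m = d
    · rw [if_pos h', if_pos (by omega)]
    · rw [if_neg h', if_neg (by omega)]
  · rw [if_neg h, if_neg (by omega)]

/-- the order `d` coefficient of `F(T + z^d v)`, `v` constant, `d ≥ 1` -/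
theorem cf_ev_add_const (s : Pt K I J) (T : I → QA K⟦X⟧) (h0 : ∀ i, cf 0 (T i) = s.X i)
    (d : ℕ) (hd : 1 ≤ d) (v : I → QA K) (j : J) :
    cf d (ev (fun i => T i + (PowerSeries.X ^ d : K⟦X⟧) • toP K (v i)) (s.F j)) =
      cf d (ev T (s.F j)) + s.D v j := by
  rw [cf_ev_add d d (by omega), if_pos le_rfl, Nat.sub_self, cf0_d1]
  congr 1
  simp only [h0, cf_toP, if_true]
  rfl

/-- the order `d+1` coefficient of `F(T + z^d v)`, `v` constant, `d ≥ 2` -/
theorem cf_ev_add_const' (s : Pt K I J) (T : I → QA K⟦X⟧) (h0 : ∀ i, cf 0 (T i) = s.X i)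
    (d : ℕ) (hd : 2 ≤ d) (v : I → QA K) (j : J) :
    cf (d + 1) (ev (fun i => T i + (PowerSeries.X ^ d : K⟦X⟧) • toP K (v i)) (s.F j)) =
      cf (d + 1) (ev T (s.F j)) +
        (d2 s.X (fun i => cf 1 (T i)) v (s.F j) + d2 s.X v (fun i => cf 1 (T i)) (s.F j)) := by
  rw [cf_ev_add d (d + 1) (by omega), if_pos (Nat.le_succ d), Nat.add_sub_cancel_left, cf1_d1]
  congr 1
  simp only [h0, cf_toP, if_true, one_ne_zero, if_false]
  have : d1 s.X (fun _ : I => (0 : QA K)) (s.F j) = 0 := d1_zero s.X (s.F j)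
  rw [this, zero_add]

/-! ### curves -/

/-- **Lemma 3, curves**: an approximate solution of order `n` extends to a curve.
Proof: `series_limit` with `Q l T` := `cf 0 T = X`, `cf m T ∈ V1` (`m ≥ 1`), `F(T) = O(z^{l+1})`.
Step: `y_j = cf (l+1) (F_j(T)) ∈ lev k` (`cf_ev_lev`), (G1): `v ∈ V1`, `D v = -y`;
`T' = T + z^{l+1} v` (`cf_ev_add_const`; lower coefficients unchanged by `cf_ev_congr`). -/
theorem curve_extend (s : Pt K I J) (hg : s.Good) (n : ℕ) (T : I → QA K⟦X⟧)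
    (h0 : ∀ i, cf 0 (T i) = s.X i) (h1 : ∀ m, 1 ≤ m → (fun i => cf m (T i)) ∈ s.V1)
    (he : ∀ j, ∀ l ≤ n, cf l (ev T (s.F j)) = 0) :
    ∃ T', s.IsCurve T' ∧ ∀ l ≤ n, ∀ i, cf l (T' i) = cf l (T i) := by
  let Q : ℕ → (I → QA K⟦X⟧) → Prop := fun l T => (∀ i, cf 0 (T i) = s.X i) ∧
    (∀ m, 1 ≤ m → (fun i => cf m (T i)) ∈ s.V1) ∧
    ∀ j, ∀ m ≤ l, cf m (ev T (s.F j)) = 0
  have hlev : ∀ l T, Q l T → ∀ m i, cf m (T i) ∈ lev K s.k := by
    rintro l T ⟨h0, h1, -⟩ m i
    rcases Nat.eq_zero_or_pos m with rfl | hm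
    · rw [h0]; exact hg.Xlev i
    · exact hg.V1lev _ (h1 m hm) i
  have hstep : ∀ l, n ≤ l → ∀ T, Q l T →
      ∃ T', (∀ m ≤ l, ∀ i, cf m (T' i) = cf m (T i)) ∧ Q (l + 1) T' := by
    intro l _ T hQ
    have hl := hlev l T hQ
    obtain ⟨h0, h1, he⟩ := hQ
    obtain ⟨v, hv, hDv⟩ := hg.g1 (-(fun j => cf (l + 1) (ev T (s.F j))))
      ((mem_AJ s.k _).2 fun j => neg_mem (cf_ev_lev s.k T hl (s.F j) (l + 1)))
    have hag : ∀ m ≤ l, ∀ i, cf m (T i + (PowerSeries.X ^ (l + 1) : K⟦X⟧) • toP K (v i)) =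
        cf m (T i) := by
      intro m hm i
      rw [cf_add_X, if_neg (by omega), add_zero]
    refine ⟨fun i => T i + (PowerSeries.X ^ (l + 1) : K⟦X⟧) • toP K (v i), hag, ?_, ?_, ?_⟩
    · intro i
      rw [hag 0 (Nat.zero_le _) i, h0]
    · intro m hm
      have h2 : (fun i => cf m (T i + (PowerSeries.X ^ (l + 1) : K⟦X⟧) • toP K (v i))) =
          (fun i => cf m (T i)) + if m = l + 1 then v else 0 := by
        funext i
        rw [cf_add_X, Pi.add_apply]
        split_ifs <;> rfl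
      rw [h2]
      refine add_mem (h1 m hm) ?_
      split_ifs
      · exact hv
      · exact zero_mem _
    · intro j m hm
      rcases Nat.lt_or_ge l m with hlm | hlm
      · obtain rfl : m = l + 1 := by omega
        rw [cf_ev_add_const s T h0 (l + 1) (by omega) v j, hDv]
        exact add_neg_cancel _
      · rw [cf_ev_congr l _ T hag (s.F j) m hlm, he j m hlm]
  obtain ⟨T', hT1, hT2⟩ := series_limit s.k n Q hlev hstep T ⟨h0, h1, he⟩
  refine ⟨T', ⟨fun j => cf_ext fun m => ?_, fun i => ?_, fun m hm => ?_⟩, hT1⟩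
  · obtain ⟨T'', ⟨-, -, hz⟩, hag⟩ := hT2 (max m n) (le_max_right _ _)
    rw [cf_ev_congr (max m n) T' T'' hag (s.F j) m (le_max_left _ _), hz j m (le_max_left _ _),
      map_zero]
  · rw [hT1 0 (Nat.zero_le _) i, h0]
  · obtain ⟨T'', ⟨-, hV, -⟩, hag⟩ := hT2 (max m n) (le_max_right _ _)
    have h2 : (fun i => cf m (T' i)) = fun i => cf m (T'' i) :=
      funext fun i => hag m (le_max_left _ _) i
    rw [h2]
    exact hV m hm

/-- a curve in every direction of `W`.  (`curve_extend` with `n = 1`, `T = X + z v`.) -/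
theorem exists_curve (s : Pt K I J) (hg : s.Good) (v : I → QA K) (hv : v ∈ s.W) :
    ∃ T, s.IsCurve T ∧ ∀ i, cf 1 (T i) = v i := by
  obtain ⟨hv0, hDv⟩ := (mem_W s v).1 hv
  have hcf : ∀ m i, cf m (toP K (s.X i) + (PowerSeries.X ^ 1 : K⟦X⟧) • toP K (v i)) =
      (if m = 0 then s.X i else 0) + if m = 1 then v i else 0 := by
    intro m i
    rw [cf_add_X, cf_toP]
  obtain ⟨T', hT', hag⟩ := curve_extend s hg 1
    (fun i => toP K (s.X i) + (PowerSeries.X ^ 1 : K⟦X⟧) • toP K (v i))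
    (fun i => by rw [hcf]; simp)
    (fun m hm => by
      have h2 : (fun i => cf m (toP K (s.X i) + (PowerSeries.X ^ 1 : K⟦X⟧) • toP K (v i))) =
          if m = 1 then v else 0 := by
        funext i
        rw [hcf, if_neg (by omega), zero_add]
        split_ifs <;> rfl
      rw [h2]
      split_ifs
      · exact hg.V0V1 hv0
      · exact zero_mem _)
    (fun j l hl => by
      have h0 : ∀ i, cf 0 (toP K (s.X i)) = s.X i := fun i => by rw [cf_toP, if_pos rfl]
      rcases Nat.eq_zero_or_pos l with rfl | hl'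
      · rw [cf0_ev]
        simp only [hcf]
        simpa using hg.g0 j
      · obtain rfl : l = 1 := by omega
        rw [cf_ev_add_const s (fun i => toP K (s.X i)) h0 1 le_rfl v j, cf1_ev, hDv]
        simp only [cf_toP, one_ne_zero, if_false, if_true]
        have : d1 s.X (fun _ : I => (0 : QA K)) (s.F j) = 0 := d1_zero s.X (s.F j)
        rw [this, zero_add]
        rfl)
  refine ⟨T', hT', fun i => ?_⟩
  rw [hag 1 le_rfl i, hcf]
  simp

/-- **Lemma 3, perturbation of curves** (`curve_extend` for `T + z^d η`, `n = d`). -/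
theorem perturb_curve (s : Pt K I J) (hg : s.Good) (T : I → QA K⟦X⟧) (hT : s.IsCurve T) (d : ℕ)
    (hd : 1 ≤ d) (η : I → QA K) (hη : η ∈ s.W) :
    ∃ T', s.IsCurve T' ∧ (∀ l < d, ∀ i, cf l (T' i) = cf l (T i)) ∧
      ∀ i, cf d (T' i) = cf d (T i) + η i := by
  obtain ⟨hη0, hDη⟩ := (mem_W s η).1 hη
  have hag : ∀ m < d, ∀ i, cf m (T i + (PowerSeries.X ^ d : K⟦X⟧) • toP K (η i)) =
      cf m (T i) := by
    intro m hm i
    rw [cf_add_X, if_neg (by omega), add_zero]
  obtain ⟨T', hT', hag'⟩ := curve_extend s hg d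
    (fun i => T i + (PowerSeries.X ^ d : K⟦X⟧) • toP K (η i))
    (fun i => by rw [hag 0 hd i, hT.zero])
    (fun m hm => by
      have h2 : (fun i => cf m (T i + (PowerSeries.X ^ d : K⟦X⟧) • toP K (η i))) =
          (fun i => cf m (T i)) + if m = d then η else 0 := by
        funext i
        rw [cf_add_X, Pi.add_apply]
        split_ifs <;> rfl
      rw [h2]
      refine add_mem (hT.mem m hm) ?_
      split_ifs
      · exact hg.V0V1 hη0
      · exact zero_mem _)
    (fun j l hl => by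
      rcases Nat.lt_or_ge l d with hld | hld
      · rw [cf_ev_congr (d - 1) _ T (fun m hm i => hag m (by omega) i) (s.F j) l (by omega), hT.eq j,
          map_zero]
      · obtain rfl : l = d := by omega
        rw [cf_ev_add_const s T hT.zero l hd η j, hT.eq j, map_zero, hDη, zero_add]
        rfl)
  refine ⟨T', hT', fun l hl i => ?_, fun i => ?_⟩
  · rw [hag' l hl.le i, hag l hl i]
  · rw [hag' d le_rfl i, cf_add_X, if_pos rfl]

/-! ### growth steps -/

/-- `∑ tr(c_j ξ y_j)` -/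
noncomputable def Ob (c : J → QA K) (ξ : QA K) (y : J → QA K) : K := ∑ j, QA.tr (c j * ξ * y j)

theorem Th_eq_Ob (s : Pt K I J) (w1 w2 : I → QA K) (c : J → QA K) (ξ : QA K) (η : I → QA K) :
    s.Th w1 w2 c ξ η = Ob c ξ (fun j =>
      d2 s.X (fun i => w1 i * S1 s.k + w2 i * S2 s.k) η (s.F j) +
        d2 s.X η (fun i => w1 i * S1 s.k + w2 i * S2 s.k) (s.F j)) := rfl

/-- the obstruction condition on a coefficient `y` -/
def OCond (s : Pt K I J) (y : J → QA K) : Prop :=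
  ∀ c ∈ s.U, Ob c (S1 s.k) y = 0 ∧ Ob c (S2 s.k) y = 0 ∧ Ob c (S3 s.k) y = 0

/-- `Ob` in components: `Ob c S1 (comb y) = al pair c (y 1)` etc. -/
theorem Ob_comb (k : ℕ) (c : J → QA K) (hc : ∀ j, c j ∈ lev K k) (y : Fin 4 → (J → QA K))
    (hy : ∀ b j, y b j ∈ lev K k) :
    Ob c (S1 k) (comb k y) = al k * Pt.pair c (y 1) ∧
      Ob c (S2 k) (comb k y) = be k * Pt.pair c (y 2) ∧
      Ob c (S3 k) (comb k y) = -(al k * be k) * Pt.pair c (y 3) := by
  have key : ∀ j, ∀ a : Fin 4 → QA K, (∀ i, a i ∈ lev K k) →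
      QA.tr ((a 0 + a 1 * S1 k + a 2 * S2 k + a 3 * S3 k) * comb k y j) =
        QA.tr (a 0 * y 0 j) + al k * QA.tr (a 1 * y 1 j) + be k * QA.tr (a 2 * y 2 j) -
          al k * be k * QA.tr (a 3 * y 3 j) := by
    intro j a ha
    exact tr_mul_comb_comb k a (fun b => y b j) ha (fun b => hy b j)
  have h0 : (0 : QA K) ∈ lev K k := (lev K k).zero_mem
  have k1 : ∀ j, QA.tr (c j * S1 k * comb k y j) = al k * QA.tr (c j * y 1 j) := by
    intro j
    have h := key j ![0, c j, 0, 0] (by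
      intro i
      fin_cases i
      · exact h0
      · exact hc j
      · exact h0
      · exact h0)
    simpa using h
  have k2 : ∀ j, QA.tr (c j * S2 k * comb k y j) = be k * QA.tr (c j * y 2 j) := by
    intro j
    have h := key j ![0, 0, c j, 0] (by
      intro i
      fin_cases i
      · exact h0
      · exact h0
      · exact hc j
      · exact h0)
    simpa using h
  have k3 : ∀ j, QA.tr (c j * S3 k * comb k y j) = -(al k * be k) * QA.tr (c j * y 3 j) := by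
    intro j
    have h := key j ![0, 0, 0, c j] (by
      intro i
      fin_cases i
      · exact h0
      · exact h0
      · exact h0
      · exact hc j)
    simpa [neg_mul] using h
  refine ⟨?_, ?_, ?_⟩
  · unfold Ob Pt.pair
    rw [Finset.mul_sum]
    exact Finset.sum_congr rfl fun j _ => k1 j
  · unfold Ob Pt.pair
    rw [Finset.mul_sum]
    exact Finset.sum_congr rfl fun j _ => k2 j
  · unfold Ob Pt.pair
    rw [Finset.mul_sum]
    exact Finset.sum_congr rfl fun j _ => k3 j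

/-- linear step: an element `y ∈ (lev (k+1))^J` satisfying the obstruction condition is `D η` with
`η ∈ V0 E + V1`.  Proof: `y = comb y'` (`exists_comb`), `Ob_comb`: `pair c (y' b) = 0` for
`b = 1,2,3`, `exists_V0` gives `v_b ∈ V0`, (G1) gives `v_0 ∈ V1`; `η = comb v`, `D_comb`. -/
theorem solve_OCond (s : Pt K I J) (hg : s.Good) (y : J → QA K)
    (hy : ∀ j, y j ∈ lev K (s.k + 1)) (hO : OCond s y) :
    ∃ η ∈ mulE s.k s.V0 ⊔ s.V1, s.D η = y := by
  obtain ⟨y', hy', rfl⟩ := exists_comb s.k y hy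
  have hal : (al s.k : K) ≠ 0 := KF.al_ne s.k
  have hbe : (be s.k : K) ≠ 0 := KF.be_ne s.k
  have h1 : ∀ c ∈ s.U, Pt.pair c (y' 1) = 0 ∧ Pt.pair c (y' 2) = 0 ∧ Pt.pair c (y' 3) = 0 := by
    intro c hc
    obtain ⟨e1, e2, e3⟩ := Ob_comb s.k c (U_lev s c hc) y' hy'
    obtain ⟨f1, f2, f3⟩ := hO c hc
    rw [e1] at f1
    rw [e2] at f2
    rw [e3] at f3
    refine ⟨?_, ?_, ?_⟩
    · exact (mul_eq_zero.1 f1).resolve_left hal
    · exact (mul_eq_zero.1 f2).resolve_left hbe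
    · exact (mul_eq_zero.1 f3).resolve_left (neg_ne_zero.2 (mul_ne_zero hal hbe))
  have hAJ : ∀ b, y' b ∈ Pt.AJ K J s.k := fun b => (mem_AJ s.k (y' b)).2 (hy' b)
  obtain ⟨v1, hv1, e1⟩ := exists_V0 s hg (y' 1) (hAJ 1) fun c hc => (h1 c hc).1
  obtain ⟨v2, hv2, e2⟩ := exists_V0 s hg (y' 2) (hAJ 2) fun c hc => (h1 c hc).2.1
  obtain ⟨v3, hv3, e3⟩ := exists_V0 s hg (y' 3) (hAJ 3) fun c hc => (h1 c hc).2.2
  obtain ⟨v0, hv0, e0⟩ := hg.g1 (y' 0) (hAJ 0)
  refine ⟨comb s.k ![v0, v1, v2, v3], ?_, ?_⟩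
  · rw [mem_mulE_sup s.k s.V0 s.V1 hg.V0V1]
    exact ⟨![v0, v1, v2, v3], hv0, hv1, hv2, hv3, rfl⟩
  · rw [D_comb s hg.Xlev]
    congr 1
    funext b
    fin_cases b
    · exact e0
    · exact e1
    · exact e2
    · exact e3

/-- **Lemma 3, growth, one step of the recursion**: from order `l` (with the obstruction condition
in order `l+1`) to order `l+1`.
Proof: `y = cf (l+1) F(T)`; `solve_OCond` gives `η` with `D η = -y`; `T1 = T + z^{l+1} η`;
`theta_onto` (with `Wt = W`) gives `η2 ∈ mulE k W` with `Th(c,S_a,η2) = - Ob c S_a (cf (l+2) F(T1))`;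
`T' = T1 + z^{l+1} η2`; `cf_ev_add_const`, `cf_ev_add_const'` (`l + 1 ≥ 2`), `D η2 = 0`. -/
theorem grow_step (s : Pt K I J) (hg : s.Good) (ha : s.Alt) (w1 w2 : I → QA K)
    (hw1 : w1 ∈ s.W) (hw2 : w2 ∈ s.W) (hi : s.Inj s.W w1 w2) (l : ℕ) (hl : 1 ≤ l)
    (T : I → QA K⟦X⟧) (h0 : ∀ i, cf 0 (T i) = s.X i)
    (hM : ∀ m, 1 ≤ m → (fun i => cf m (T i)) ∈ mulE s.k s.V0 ⊔ s.V1)
    (h1 : ∀ i, cf 1 (T i) = w1 i * S1 s.k + w2 i * S2 s.k)
    (he : ∀ j, ∀ m ≤ l, cf m (ev T (s.F j)) = 0)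
    (hO : OCond s (fun j => cf (l + 1) (ev T (s.F j)))) :
    ∃ T' : I → QA K⟦X⟧, (∀ m ≤ l, ∀ i, cf m (T' i) = cf m (T i)) ∧
      (∀ m, 1 ≤ m → (fun i => cf m (T' i)) ∈ mulE s.k s.V0 ⊔ s.V1) ∧
      (∀ j, ∀ m ≤ l + 1, cf m (ev T' (s.F j)) = 0) ∧
      OCond s (fun j => cf (l + 2) (ev T' (s.F j))) := by
  have hTlev : ∀ m i, cf m (T i) ∈ lev K (s.k + 1) := by
    intro m i
    rcases Nat.eq_zero_or_pos m with rfl | hm
    · rw [h0 i]; exact lev_mono (Nat.le_succ s.k) (hg.Xlev i)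
    · exact mulE_sup_lev s hg _ (hM m hm) i
  obtain ⟨η0, hη0, hDη0⟩ := solve_OCond s hg (fun j => cf (l + 1) (ev T (s.F j)))
    (fun j => cf_ev_lev (s.k + 1) T hTlev (s.F j) (l + 1)) hO
  set η : I → QA K := -η0 with hη
  have hηm : η ∈ mulE s.k s.V0 ⊔ s.V1 := Submodule.neg_mem _ hη0
  have hDη : ∀ j, s.D η j = -cf (l + 1) (ev T (s.F j)) := by
    intro j
    have h2 : s.D η = -s.D η0 := map_neg s.Dl η0
    rw [h2, hDη0]; rfl
  set T1 : I → QA K⟦X⟧ :=
    fun i => T i + (PowerSeries.X ^ (l + 1) : K⟦X⟧) • toP K (η i) with hT1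
  have hT1cf : ∀ m i, cf m (T1 i) = cf m (T i) + if m = l + 1 then η i else 0 := fun m i =>
    cf_add_X (l + 1) m (T i) (η i)
  have hT10 : ∀ i, cf 0 (T1 i) = s.X i := fun i => by
    rw [hT1cf, if_neg (by omega), add_zero, h0]
  set y2 : J → QA K := fun j => cf (l + 2) (ev T1 (s.F j)) with hy2
  -- the functional `c ↦ - Ob c ξ y2`
  let φ : QA K → Module.Dual K s.U := fun ξ =>
    { toFun := fun c => -Ob (c : J → QA K) ξ y2
      map_add' := fun c c' => by
        simp only [Ob, Submodule.coe_add, Pi.add_apply, add_mul, map_add, Finset.sum_add_distrib]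
        ring
      map_smul' := fun a c => by
        simp only [Ob, Submodule.coe_smul, Pi.smul_apply, smul_mul_assoc, map_smul, smul_eq_mul,
          ← Finset.mul_sum, RingHom.id_apply]
        ring }
  obtain ⟨η2, hη2, hTh⟩ := theta_onto s hg ha w1 w2 hw1 hw2 s.W le_rfl hi
    ![φ (S1 s.k), φ (S2 s.k), φ (S3 s.k)]
  have hWV : s.W ≤ s.V0 := inf_le_left
  have hη2m : η2 ∈ mulE s.k s.V0 ⊔ s.V1 :=
    (le_sup_left : mulE s.k s.V0 ≤ _) (mulE_mono s.k _ _ hWV hη2)
  have hDη2 : s.D η2 = 0 := by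
    obtain ⟨v, hv, rfl⟩ := (mem_mulE s.k s.W η2).1 hη2
    rw [D_comb s hg.Xlev v]
    have h2 : (fun b => s.D (v b)) = 0 := funext fun b => ((mem_W s (v b)).1 (hv b)).2
    rw [h2]
    funext j
    simp [comb]
  refine ⟨fun i => T1 i + (PowerSeries.X ^ (l + 1) : K⟦X⟧) • toP K (η2 i), ?_, ?_, ?_, ?_⟩
  · intro m hm i
    rw [cf_add_X, if_neg (by omega), add_zero, hT1cf, if_neg (by omega), add_zero]
  · intro m hm
    have h2 : (fun i => cf m (T1 i + (PowerSeries.X ^ (l + 1) : K⟦X⟧) • toP K (η2 i))) =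
        (fun i => cf m (T i)) + ((if m = l + 1 then η else 0) + if m = l + 1 then η2 else 0) := by
      funext i
      rw [cf_add_X, hT1cf]
      by_cases hml : m = l + 1
      · simp only [if_pos hml, Pi.add_apply]; rw [add_assoc]
      · simp only [if_neg hml, Pi.add_apply, Pi.zero_apply, add_zero]
    rw [h2]
    refine Submodule.add_mem _ (hM m hm) (Submodule.add_mem _ ?_ ?_)
    · split_ifs
      · exact hηm
      · exact Submodule.zero_mem _
    · split_ifs
      · exact hη2m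
      · exact Submodule.zero_mem _
  · intro j m hm
    rcases Nat.lt_or_ge m (l + 1) with hlt | hge
    · have hc := cf_ev_congr m
        (fun i => T1 i + (PowerSeries.X ^ (l + 1) : K⟦X⟧) • toP K (η2 i)) T
        (fun q hq i => by
          rw [cf_add_X, if_neg (by omega), add_zero, hT1cf, if_neg (by omega), add_zero])
        (s.F j) m le_rfl
      rw [hc]
      exact he j m (by omega)
    · have hml : m = l + 1 := by omega
      subst hml
      rw [cf_ev_add_const s T1 hT10 (l + 1) (by omega) η2 j, hDη2, Pi.zero_apply, add_zero, hT1,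
        cf_ev_add_const s T h0 (l + 1) (by omega) η j, hDη j, add_neg_cancel]
  · have hT11 : (fun i => cf 1 (T1 i)) = fun i => w1 i * S1 s.k + w2 i * S2 s.k := by
      funext i
      rw [hT1cf, if_neg (by omega), add_zero, h1]
    have h2 : ∀ j, cf (l + 2) (ev (fun i => T1 i +
        (PowerSeries.X ^ (l + 1) : K⟦X⟧) • toP K (η2 i)) (s.F j)) =
        y2 j + (d2 s.X (fun i => w1 i * S1 s.k + w2 i * S2 s.k) η2 (s.F j) +
          d2 s.X η2 (fun i => w1 i * S1 s.k + w2 i * S2 s.k) (s.F j)) := by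
      intro j
      have h3 := cf_ev_add_const' s T1 hT10 (l + 1) (by omega) η2 j
      rw [hT11] at h3
      exact h3
    intro c hc
    have h3 : ∀ ξ : QA K, Ob c ξ (fun j => cf (l + 2) (ev (fun i => T1 i +
        (PowerSeries.X ^ (l + 1) : K⟦X⟧) • toP K (η2 i)) (s.F j))) =
        Ob c ξ y2 + s.Th w1 w2 c ξ η2 := by
      intro ξ
      rw [Th_eq_Ob]
      simp only [Ob, h2, mul_add, map_add, Finset.sum_add_distrib]
    obtain ⟨e1, e2, e3⟩ := hTh ⟨c, hc⟩
    have f1 : s.Th w1 w2 c (S1 s.k) η2 = -Ob c (S1 s.k) y2 := e1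
    have f2 : s.Th w1 w2 c (S2 s.k) η2 = -Ob c (S2 s.k) y2 := e2
    have f3 : s.Th w1 w2 c (S3 s.k) η2 = -Ob c (S3 s.k) y2 := e3
    refine ⟨?_, ?_, ?_⟩
    · rw [h3, f1, add_neg_cancel]
    · rw [h3, f2, add_neg_cancel]
    · rw [h3, f3, add_neg_cancel]

/-- **Lemma 3, growth**: an approximate solution of order `n ≥ 1` satisfying the obstruction
condition in order `n+1` extends to a growth step (`series_limit` + `grow_step`). -/
theorem grow_extend (s : Pt K I J) (hg : s.Good) (ha : s.Alt) (w1 w2 : I → QA K)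
    (hw1 : w1 ∈ s.W) (hw2 : w2 ∈ s.W) (hi : s.Inj s.W w1 w2) (hpi : s.PIc w1 w2)
    (n : ℕ) (hn : 1 ≤ n)
    (T : I → QA K⟦X⟧) (h0 : ∀ i, cf 0 (T i) = s.X i)
    (hM : ∀ m, 1 ≤ m → (fun i => cf m (T i)) ∈ mulE s.k s.V0 ⊔ s.V1)
    (h1 : ∀ i, cf 1 (T i) = w1 i * S1 s.k + w2 i * S2 s.k)
    (he : ∀ j, ∀ m ≤ n, cf m (ev T (s.F j)) = 0)
    (hO : OCond s (fun j => cf (n + 1) (ev T (s.F j)))) :
    ∃ T', s.IsGrowth T' w1 w2 ∧ ∀ m ≤ n, ∀ i, cf m (T' i) = cf m (T i) := by
  obtain ⟨T', hT', hlim⟩ := series_limit (s.k + 1) n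
    (fun l T => (∀ i, cf 0 (T i) = s.X i) ∧
      (∀ m, 1 ≤ m → (fun i => cf m (T i)) ∈ mulE s.k s.V0 ⊔ s.V1) ∧
      (∀ i, cf 1 (T i) = w1 i * S1 s.k + w2 i * S2 s.k) ∧
      (∀ j, ∀ m ≤ l, cf m (ev T (s.F j)) = 0) ∧
      OCond s (fun j => cf (l + 1) (ev T (s.F j))))
    (by
      rintro l T ⟨g0, gM, -, -, -⟩ m i
      rcases Nat.eq_zero_or_pos m with rfl | hm
      · rw [g0 i]; exact lev_mono (Nat.le_succ s.k) (hg.Xlev i)
      · exact mulE_sup_lev s hg _ (gM m hm) i)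
    (by
      rintro l hl T ⟨g0, gM, g1, ge, gO⟩
      obtain ⟨T', k1, k2, k3, k4⟩ := grow_step s hg ha w1 w2 hw1 hw2 hi l (by omega) T g0 gM g1 ge gO
      exact ⟨T', k1, fun i => by rw [k1 0 (by omega), g0], k2,
        fun i => by rw [k1 1 (by omega), g1], k3, k4⟩)
    T ⟨h0, hM, h1, he, hO⟩
  refine ⟨T', ?_, hT'⟩
  refine ⟨?_, ?_, ?_, ?_, hw1, hw2, hi, hpi⟩
  · intro j
    refine cf_ext fun m => ?_
    obtain ⟨T'', ⟨-, -, -, ge, -⟩, hag⟩ := hlim (max n m) (le_max_left n m)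
    have hc := cf_ev_congr m T' T'' (fun q hq i => hag q (le_trans hq (le_max_right n m)) i)
      (s.F j) m le_rfl
    rw [hc, ge j m (le_max_right n m), map_zero]
  · intro i
    rw [hT' 0 (by omega), h0]
  · intro m hm
    obtain ⟨T'', ⟨-, gM, -, -, -⟩, hag⟩ := hlim (max n m) (le_max_left n m)
    have h2 : (fun i => cf m (T' i)) = fun i => cf m (T'' i) :=
      funext fun i => hag m (le_max_right n m) i
    rw [h2]
    exact gM m hm
  · intro i
    rw [hT' 1 (by omega), h1]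

/-- the first approximation of a growth step -/
private noncomputable def kpc_n5_T (s : Pt K I J) (w1 w2 : I → QA K) (i : I) : QA K⟦X⟧ :=
  toP K (s.X i) + (PowerSeries.X ^ 1 : K⟦X⟧) • toP K (w1 i * S1 s.k + w2 i * S2 s.k)

/-- the components of `d2[T_1,T_1]` -/
private noncomputable def kpc_n5_y (s : Pt K I J) (w1 w2 : I → QA K) : Fin 4 → (J → QA K) :=
  ![fun j => (al s.k : K) • d2 s.X w1 w1 (s.F j) + (be s.k : K) • d2 s.X w2 w2 (s.F j), 0, 0,
    fun j => d2 s.X w1 w2 (s.F j) - d2 s.X w2 w1 (s.F j)]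

private theorem kpc_n5_d2 (s : Pt K I J) (hg : s.Good) (w1 w2 : I → QA K)
    (hw1 : w1 ∈ s.W) (hw2 : w2 ∈ s.W) :
    (fun j => d2 s.X (fun i => w1 i * S1 s.k + w2 i * S2 s.k)
      (fun i => w1 i * S1 s.k + w2 i * S2 s.k) (s.F j)) = comb s.k (kpc_n5_y s w1 w2) := by
  funext j
  have l1 := W_lev s hg w1 hw1
  have l2 := W_lev s hg w2 hw2
  have c1 : ∀ v : I → QA K, (∀ i, v i ∈ lev K s.k) → ∀ i, v i * S1 s.k = S1 s.k * v i :=
    fun v hv i => comm_S1 s.k _ (hv i)
  have c2 : ∀ v : I → QA K, (∀ i, v i ∈ lev K s.k) → ∀ i, v i * S2 s.k = S2 s.k * v i :=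
    fun v hv i => comm_S2 s.k _ (hv i)
  have e : (fun i => w1 i * S1 s.k + w2 i * S2 s.k) =
      (fun i => w1 i * S1 s.k) + (fun i => w2 i * S2 s.k) := rfl
  rw [e, d2_add_left, d2_add_right, d2_add_right,
    d2_mul_mul s.X w1 w1 (S1 s.k) (S1 s.k) (c1 _ hg.Xlev) (c1 _ hg.Xlev) (c1 _ l1),
    d2_mul_mul s.X w1 w2 (S1 s.k) (S2 s.k) (c1 _ hg.Xlev) (c2 _ hg.Xlev) (c1 _ l2),
    d2_mul_mul s.X w2 w1 (S2 s.k) (S1 s.k) (c2 _ hg.Xlev) (c1 _ hg.Xlev) (c2 _ l1),
    d2_mul_mul s.X w2 w2 (S2 s.k) (S2 s.k) (c2 _ hg.Xlev) (c2 _ hg.Xlev) (c2 _ l2),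
    S1_S1, S2_S2, S1_S2, S2_S1, ← Algebra.commutes, ← Algebra.commutes, ← Algebra.smul_def,
    ← Algebra.smul_def]
  simp only [comb, kpc_n5_y, Matrix.cons_val_zero, Matrix.cons_val_one, Matrix.cons_val,
    Pi.zero_apply, zero_mul, add_zero, sub_mul, mul_neg]
  abel

/-- **Lemma 3, existence of growth steps.**  `grow_extend` with `n = 1`,
`T = X + z (w1 S1 + w2 S2)`.  Order 0: (G0).  Order 1: `D(w1) S1 + D(w2) S2 = 0`.  Order 2
(`cf2_ev`): `d2[T_1,T_1]`, and `Ob c S1 = Ob c S2 = 0`,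
`Ob c S3 = -(al be) (B_c(w1,w2) - B_c(w2,w1)) = 0` by `hB` and `alt_symm`. -/
theorem exists_grow (s : Pt K I J) (hg : s.Good) (ha : s.Alt) (w1 w2 : I → QA K)
    (hw1 : w1 ∈ s.W) (hw2 : w2 ∈ s.W) (hB : ∀ c ∈ s.U, s.B c w1 w2 = 0)
    (hi : s.Inj s.W w1 w2) (hpi : s.PIc w1 w2) : ∃ T, s.IsGrowth T w1 w2 := by
  have hk := kpc_n5_d2 s hg w1 w2 hw1 hw2
  have e0 : ∀ i, cf 0 (kpc_n5_T s w1 w2 i) = s.X i := by
    intro i
    unfold kpc_n5_T
    rw [cf_add_X, cf_toP, if_pos rfl, if_neg (by omega), add_zero]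
  have e1 : ∀ i, cf 1 (kpc_n5_T s w1 w2 i) = w1 i * S1 s.k + w2 i * S2 s.k := by
    intro i
    unfold kpc_n5_T
    rw [cf_add_X, cf_toP, if_neg (by omega), if_pos rfl, zero_add]
  have e2 : ∀ m, 2 ≤ m → ∀ i, cf m (kpc_n5_T s w1 w2 i) = 0 := by
    intro m hm i
    unfold kpc_n5_T
    rw [cf_add_X, cf_toP, if_neg (by omega), if_neg (by omega), add_zero]
  have hcomb : (fun i => w1 i * S1 s.k + w2 i * S2 s.k) = comb s.k ![0, w1, w2, 0] := by
    funext i
    simp [comb]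
  have hV0 : (fun i => w1 i * S1 s.k + w2 i * S2 s.k) ∈ mulE s.k s.V0 := by
    rw [hcomb]
    refine (mem_mulE s.k s.V0 _).2 ⟨_, ?_, rfl⟩
    intro b
    fin_cases b
    · exact s.V0.zero_mem
    · exact ((mem_W s w1).1 hw1).1
    · exact ((mem_W s w2).1 hw2).1
    · exact s.V0.zero_mem
  obtain ⟨T', hT', -⟩ := grow_extend s hg ha w1 w2 hw1 hw2 hi hpi 1 le_rfl (kpc_n5_T s w1 w2) e0
    (by
      intro m hm
      rcases Nat.lt_or_ge m 2 with h | h
      · have : m = 1 := by omega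
        subst this
        simp only [e1]
        exact Submodule.mem_sup_left hV0
      · simp only [e2 m h]
        exact Submodule.zero_mem _)
    e1
    (by
      intro j m hm
      rcases Nat.eq_zero_or_pos m with rfl | h
      · rw [cf0_ev]
        simp only [e0]
        exact hg.g0 j
      · have : m = 1 := by omega
        subst this
        rw [cf1_ev]
        simp only [e0, e1]
        rw [hcomb]
        have := congrFun (D_comb s hg.Xlev ![0, w1, w2, 0]) j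
        change d1 s.X (comb s.k ![0, w1, w2, 0]) (s.F j) = _ at this
        rw [this]
        have hD1 := ((mem_W s w1).1 hw1).2
        have hD2 := ((mem_W s w2).1 hw2).2
        have hD0 : s.D 0 = 0 := map_zero s.Dl
        simp [comb, hD0, hD1, hD2])
    (by
      have : (fun j => cf (1 + 1) (ev (kpc_n5_T s w1 w2) (s.F j))) =
          fun j => d2 s.X (fun i => w1 i * S1 s.k + w2 i * S2 s.k)
            (fun i => w1 i * S1 s.k + w2 i * S2 s.k) (s.F j) := by
        funext j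
        change cf 2 _ = _
        rw [cf2_ev]
        simp only [e0, e1, e2 2 le_rfl]
        have : d1 s.X (fun _ : I => (0 : QA K)) (s.F j) = 0 := d1_zero s.X (s.F j)
        rw [this, zero_add]
      rw [this, hk]
      have hd2 : ∀ v w : I → QA K, v ∈ s.W → w ∈ s.W → ∀ j, d2 s.X v w (s.F j) ∈ lev K s.k :=
        fun v w hv hw j => d2_mem (lev K s.k) s.X v w hg.Xlev (W_lev s hg v hv)
          (W_lev s hg w hw) (s.F j)
      intro c hc
      obtain ⟨h1, h2, h3⟩ := Ob_comb s.k c (U_lev s c hc) (kpc_n5_y s w1 w2) (by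
        intro b j
        fin_cases b
        · exact (lev K s.k).add_mem ((lev K s.k).smul_mem (hd2 w1 w1 hw1 hw1 j) _)
            ((lev K s.k).smul_mem (hd2 w2 w2 hw2 hw2 j) _)
        · exact (lev K s.k).zero_mem
        · exact (lev K s.k).zero_mem
        · exact (lev K s.k).sub_mem (hd2 w1 w2 hw1 hw2 j) (hd2 w2 w1 hw2 hw1 j))
      refine ⟨?_, ?_, ?_⟩
      · rw [h1]
        have : kpc_n5_y s w1 w2 1 = 0 := rfl
        rw [this]
        simp [Pt.pair]
      · rw [h2]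
        have : kpc_n5_y s w1 w2 2 = 0 := rfl
        rw [this]
        simp [Pt.pair]
      · rw [h3]
        have : Pt.pair c (kpc_n5_y s w1 w2 3) = s.B c w1 w2 - s.B c w2 w1 := by
          simp only [kpc_n5_y, Pt.pair, Pt.B, ← Finset.sum_sub_distrib, ← map_sub, ← mul_sub]
          rfl
        rw [this, hB c hc, alt_symm s ha c hc w2 w1 hw2 hw1, hB c hc]
        simp)
  exact ⟨T', hT'⟩

/-- the coefficient of order `n` of `F(T) = 0` satisfies the obstruction condition trivially -/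
theorem OCond_zero (s : Pt K I J) : OCond s (0 : J → QA K) := by
  intro c _
  simp [Ob]

/-- **Lemma 3, perturbation of growth steps.**  `grow_extend` for `T + z^d η`, `n = d`:
order `d`: `D η = 0`; order `d+1`: `Ob c S_a (...) = Th(c,S_a,η) = 0`. -/
theorem perturb_grow (s : Pt K I J) (hg : s.Good) (ha : s.Alt) (w1 w2 : I → QA K)
    (T : I → QA K⟦X⟧) (hT : s.IsGrowth T w1 w2) (d : ℕ) (hd : 2 ≤ d) (η : I → QA K)
    (hη : s.KerTh w1 w2 η) :
    ∃ T', s.IsGrowth T' w1 w2 ∧ (∀ l < d, ∀ i, cf l (T' i) = cf l (T i)) ∧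
      ∀ i, cf d (T' i) = cf d (T i) + η i := by
  obtain ⟨v, hv, rfl⟩ := (mem_mulE s.k s.W η).1 hη.1
  have hDη : s.D (comb s.k v) = 0 := by
    rw [D_comb s hg.Xlev]
    have : ∀ b, s.D (v b) = 0 := fun b => ((mem_W s (v b)).1 (hv b)).2
    funext j
    simp [comb, this]
  have hm : comb s.k v ∈ mulE s.k s.V0 :=
    (mem_mulE s.k s.V0 _).2 ⟨v, fun b => ((mem_W s (v b)).1 (hv b)).1, rfl⟩
  set η := comb s.k v with hηdef
  have hlow : ∀ m, m < d → ∀ i, cf m (T i + (PowerSeries.X ^ d : K⟦X⟧) • toP K (η i)) =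
      cf m (T i) := by
    intro m hmd i
    rw [cf_add_X, if_neg (by omega), add_zero]
  obtain ⟨T', hT', hT''⟩ := grow_extend s hg ha w1 w2 hT.w1W hT.w2W hT.inj hT.pi d (by omega)
    (fun i => T i + (PowerSeries.X ^ d : K⟦X⟧) • toP K (η i))
    (fun i => by rw [hlow 0 (by omega) i]; exact hT.zero i)
    (by
      intro m hm1
      simp only [cf_add_X]
      by_cases hmd : m = d
      · simp only [if_pos hmd]
        exact Submodule.add_mem _ (hT.mem m hm1) (Submodule.mem_sup_left hm)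
      · simp only [if_neg hmd, add_zero]
        exact hT.mem m hm1)
    (fun i => by rw [hlow 1 (by omega) i]; exact hT.one i)
    (by
      intro j m hmd
      rcases Nat.lt_or_ge m d with h | h
      · rw [cf_ev_add d m (by omega), hT.eq, map_zero, if_neg (by omega), add_zero]
      · have : m = d := by omega
        subst this
        rw [cf_ev_add_const s T hT.zero m (by omega), hT.eq, map_zero, zero_add, hDη]
        rfl)
    (by
      have : (fun j => cf (d + 1) (ev (fun i => T i + (PowerSeries.X ^ d : K⟦X⟧) • toP K (η i))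
          (s.F j))) = fun j => d2 s.X (fun i => w1 i * S1 s.k + w2 i * S2 s.k) η (s.F j) +
            d2 s.X η (fun i => w1 i * S1 s.k + w2 i * S2 s.k) (s.F j) := by
        funext j
        rw [cf_ev_add_const' s T hT.zero d hd, hT.eq, map_zero, zero_add]
        simp only [hT.one]
      rw [this]
      intro c hc
      obtain ⟨a, b, e⟩ := hη.2 c hc
      exact ⟨a, b, e⟩)
  refine ⟨T', hT', fun l hl i => ?_, fun i => ?_⟩
  · rw [hT'' l (by omega) i, hlow l hl i]
  · rw [hT'' d le_rfl i, cf_add_X, if_pos rfl]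

/-! ### Lemma 4: tangent vectors -/

/-- `dT/dz ∈ W(s')`, if `s'` is good.  Proof: `F'(T)[dT/dz] = d/dz F(T) = 0` (`dz_ev`), the
coefficients `(m+1) T_{m+1}` are in `V1`, so `toL ∘ dz T ∈ V1'` (`toL_mem_extV`) and (G2). -/
theorem tangent_curve (s : Pt K I J) (hg : s.Good) (T : I → QA K⟦X⟧) (hT : s.IsCurve T)
    (h' : (s.curve T).Good) : (fun i => toL K (dz (T i))) ∈ (s.curve T).W := by
  have := finite_V1 s hg
  have h0 : ∀ j, d1 T (fun i => dz (T i)) (s.F j) = 0 := by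
    intro j
    rw [← dz_ev, hT.eq, map_zero]
  have hD : (s.curve T).D (fun i => toL K (dz (T i))) = 0 := by
    rw [curve_D]
    funext j
    rw [h0 j, map_zero]
    rfl
  have hV1 : (fun i => toL K (dz (T i))) ∈ (s.curve T).V1 := by
    refine (toL_mem_extV s.V1 (fun i => dz (T i))).2 fun m => ?_
    have e : (fun i => cf m (dz (T i))) = ((m : K) + 1) • fun i => cf (m + 1) (T i) := by
      funext i
      rw [cf_dz]
      rfl
    rw [e]
    exact s.V1.smul_mem _ (hT.mem (m + 1) (by omega))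
  exact (mem_W _ _).2 ⟨h'.g2 _ hV1 hD, hD⟩

theorem tangent_grow (s : Pt K I J) (hg : s.Good) (w1 w2 : I → QA K) (T : I → QA K⟦X⟧)
    (hT : s.IsGrowth T w1 w2) (h' : (s.grow T).Good) :
    (fun i => toL K (dz (T i))) ∈ (s.grow T).W := by
  have := finite_V0 s hg
  have := finite_V1 s hg
  have := finite_mulE s.k s.V0
  have : FiniteDimensional K (mulE s.k s.V0 ⊔ s.V1 : Submodule K (I → QA K)) :=
    Submodule.finiteDimensional_sup _ _
  have h0 : ∀ j, d1 T (fun i => dz (T i)) (s.F j) = 0 := by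
    intro j
    rw [← dz_ev, hT.eq, map_zero]
  have hD : (s.grow T).D (fun i => toL K (dz (T i))) = 0 := by
    rw [grow_D]
    funext j
    rw [h0 j, map_zero]
    rfl
  have hV1 : (fun i => toL K (dz (T i))) ∈ (s.grow T).V1 := by
    refine (toL_mem_extV (mulE s.k s.V0 ⊔ s.V1) (fun i => dz (T i))).2 fun m => ?_
    have e : (fun i => cf m (dz (T i))) = ((m : K) + 1) • fun i => cf (m + 1) (T i) := by
      funext i
      rw [cf_dz]
      rfl
    rw [e]
    exact Submodule.smul_mem _ _ (hT.mem (m + 1) (by omega))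
  exact (mem_W _ _).2 ⟨h'.g2 _ hV1 hD, hD⟩

/-- for a curve with good target all coefficients `T_m`, `m ≥ 1`, are in `V0`
(`tangent_curve`, `cf_dz`, characteristic 0), and `T_1 ∈ W`. -/
theorem curve_mem_V0 (s : Pt K I J) (hg : s.Good) (T : I → QA K⟦X⟧) (hT : s.IsCurve T)
    (h' : (s.curve T).Good) (m : ℕ) (hm : 1 ≤ m) : (fun i => cf m (T i)) ∈ s.V0 := by
  have := finite_V0 s hg
  have h1 := ((mem_W _ _).1 (tangent_curve s hg T hT h')).1
  obtain ⟨n, rfl⟩ : ∃ n, m = n + 1 := ⟨m - 1, by omega⟩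
  have h2 := (toL_mem_extV s.V0 (fun i => dz (T i))).1 h1 n
  have e : (fun i => cf n (dz (T i))) = ((n : K) + 1) • fun i => cf (n + 1) (T i) := by
    funext i
    rw [cf_dz]
    rfl
  rw [e] at h2
  have : CharZero K := KF.char0
  have hn : ((n : K) + 1) ≠ 0 := by exact_mod_cast Nat.succ_ne_zero n
  exact (s.V0.smul_mem_iff hn).1 h2

theorem curve_one_mem_W (s : Pt K I J) (hg : s.Good) (T : I → QA K⟦X⟧) (hT : s.IsCurve T)
    (h' : (s.curve T).Good) : (fun i => cf 1 (T i)) ∈ s.W := by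
  refine (mem_W _ _).2 ⟨curve_mem_V0 s hg T hT h' 1 le_rfl, ?_⟩
  funext j
  have h := congrArg (cf 1) (hT.eq j)
  rw [cf1_ev, map_zero] at h
  simp only [hT.zero] at h
  exact h

/-! ### Lemma 2 -/

/-- **Lemma 2**: if `o` does not drop along any curve then `B_c` is alternating on `W`.
Proof: `v ∈ W`, `T` a curve with `T_1 = v` (`exists_curve`), `s'` is good (`good_curve`), so
`T_2 ∈ V0` (`curve_mem_V0`); order 2 of `F(T) = 0` (`cf2_ev`): `D(T_2) + d2[v,v] = 0`; multiply by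
`c ∈ U`, take traces. -/
theorem alt_of_o (s : Pt K I J) (hg : s.Good)
    (ho : ∀ T, s.IsCurve T → (s.curve T).o = s.o) : s.Alt := by
  intro c hc v hv
  obtain ⟨T, hT, hTv⟩ := exists_curve s hg v hv
  have h' := good_curve s T hg hT (ho T hT)
  have h2 := hc.2 _ (curve_mem_V0 s hg T hT h' 2 (by omega))
  have e : ∀ j, s.D (fun i => cf 2 (T i)) j + d2 s.X v v (s.F j) = 0 := by
    intro j
    have h := congrArg (cf 2) (hT.eq j)
    rw [cf2_ev, map_zero] at h
    simp only [hT.zero, hTv] at h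
    exact h
  have e2 : s.D (fun i => cf 2 (T i)) = fun j => -(d2 s.X v v (s.F j)) := by
    funext j
    exact eq_neg_of_add_eq_zero_left (e j)
  rw [e2] at h2
  simp only [Pt.pair, mul_neg, map_neg, Finset.sum_neg_distrib, neg_eq_zero] at h2
  exact h2

end Crest.Agent.KP.KC
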