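import Crest.Agent.KPC_State

set_option autoImplicit false
set_option linter.unusedSectionVars false

open scoped PowerSeries LaurentSeries symmDiff

namespace Crest.Agent.KP.KC

open Crest.Agent.KP.NC

variable {K I J : Type} [Field K] [KF K] [Fintype I] [Fintype J]

/-- expansion of the order one equation in the basis `1,S1,S2,S3` -/
theorem kpc_key_expand (k : ℕ) (x a b h0 h1 h2 h3 : QA K) (c1 c2 c3 : K)
    (hx : x ∈ lev K k) (ha : a ∈ lev K k) (hb : b ∈ lev K k) :
    x * (h0 + h1 * S1 k + h2 * S2 k + h3 * S3 k) - (h0 + h1 * S1 k + h2 * S2 k + h3 * S3 k) * x +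
      ((a * S1 k + b * S2 k) * (c1 • S1 k + c2 • S2 k + c3 • S3 k) -
        (c1 • S1 k + c2 • S2 k + c3 • S3 k) * (a * S1 k + b * S2 k)) =
      (x * h0 - h0 * x) + ((x * h1 - h1 * x) - (2 * c3 * be k) • b) * S1 k +
        ((x * h2 - h2 * x) + (2 * c3 * al k) • a) * S2 k +
        ((x * h3 - h3 * x) + (2 * c2) • a - (2 * c1) • b) * S3 k := by
  have x1 : S1 k * x = x * S1 k := (comm_S1 k x hx).symm
  have x2 : S2 k * x = x * S2 k := (comm_S2 k x hx).symm
  have x3 : S3 k * x = x * S3 k := (comm_S3 k x hx).symm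
  have a1 : ∀ z : QA K, S1 k * (a * z) = a * (S1 k * z) := fun z => by
    rw [← mul_assoc, ← comm_S1 k a ha, mul_assoc]
  have a2 : ∀ z : QA K, S2 k * (a * z) = a * (S2 k * z) := fun z => by
    rw [← mul_assoc, ← comm_S2 k a ha, mul_assoc]
  have a3 : ∀ z : QA K, S3 k * (a * z) = a * (S3 k * z) := fun z => by
    rw [← mul_assoc, ← comm_S3 k a ha, mul_assoc]
  have b1 : ∀ z : QA K, S1 k * (b * z) = b * (S1 k * z) := fun z => by
    rw [← mul_assoc, ← comm_S1 k b hb, mul_assoc]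
  have b2 : ∀ z : QA K, S2 k * (b * z) = b * (S2 k * z) := fun z => by
    rw [← mul_assoc, ← comm_S2 k b hb, mul_assoc]
  have b3 : ∀ z : QA K, S3 k * (b * z) = b * (S3 k * z) := fun z => by
    rw [← mul_assoc, ← comm_S3 k b hb, mul_assoc]
  have hA : ∀ (c : K) (u : QA K), algebraMap K (QA K) c * u = c • u := fun c u =>
    (Algebra.smul_def c u).symm
  have hA' : ∀ (c : K) (u : QA K), u * algebraMap K (QA K) c = c • u := fun c u => by
    rw [← Algebra.commutes, hA]
  simp only [mul_add, add_mul, sub_mul, mul_assoc, mul_smul_comm, smul_mul_assoc, x1, x2, x3,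
    a1, a2, a3, b1, b2, b3, S1_S1, S2_S2, S1_S2, S2_S1, S1_S3, S3_S1, S2_S3, S3_S2, hA, hA',
    mul_neg]
  module

theorem kpc_aux_neg {u v w : QA K} (e : w = 0) (h : u - v = -w) : u = v := by
  rw [e, neg_zero] at h
  exact sub_eq_zero.1 h

/-- **key step for (G3) and for inner directions of a growth step** -/
theorem kpc_key_PI (s : Pt K I J) (hg : s.Good) (w1 w2 : I → QA K) (hw1 : w1 ∈ s.W)
    (hw2 : w2 ∈ s.W)
    (hpi : s.PIc w1 w2) (η0 η1 : QA K) (h0 : η0 ∈ lev K (s.k + 1)) (h1 : η1 ∈ lev K (s.k + 1))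
    (htr : QA.tr η0 = 0)
    (hc : ∀ i, i = s.x ∨ i = s.y → s.X i * η0 = η0 * s.X i)
    (hd : ∀ i, i = s.x ∨ i = s.y → s.X i * η1 - η1 * s.X i +
      ((w1 i * S1 s.k + w2 i * S2 s.k) * η0 - η0 * (w1 i * S1 s.k + w2 i * S2 s.k)) = 0) :
    η0 = 0 := by
  obtain ⟨a, ha, rfl⟩ := exists_decomp s.k η0 h0
  obtain ⟨h, hh, rfl⟩ := exists_decomp s.k η1 h1
  have hX := hg.Xlev
  have hsub : ∀ {u v : QA K}, u ∈ lev K s.k → v ∈ lev K s.k → u * v - v * u ∈ lev K s.k :=
    fun hu hv => (lev K s.k).sub_mem ((lev K s.k).mul_mem hu hv) ((lev K s.k).mul_mem hv hu)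
  -- the components of `η0` commute with `X_x`, `X_y`
  have hcomm : ∀ i, i = s.x ∨ i = s.y → ∀ b, s.X i * a b - a b * s.X i = 0 := by
    intro i hi
    refine decomp_unique s.k (fun b => s.X i * a b - a b * s.X i)
      (fun b => hsub (hX i) (ha b)) ?_
    have e := hc i hi
    have e1 := comm_S1 s.k _ (hX i)
    have e2 := comm_S2 s.k _ (hX i)
    have e3 := comm_S3 s.k _ (hX i)
    simp only [mul_add, add_mul, mul_assoc, ← e1, ← e2, ← e3] at e
    simp only [sub_mul, mul_assoc]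
    rw [← sub_eq_zero] at e
    rw [← e]
    abel
  -- hence they are scalars
  have hsc : ∀ b, ∃ c : K, a b = algebraMap K (QA K) c := fun b =>
    hg.g3 (a b) (ha b) (sub_eq_zero.1 (hcomm s.x (Or.inl rfl) b)).symm
      (sub_eq_zero.1 (hcomm s.y (Or.inr rfl) b)).symm
  choose c hcs using hsc
  have hc0 : c 0 = 0 := by
    rw [map_add, map_add, map_add, tr_S1 s.k _ (ha 1), tr_S2 s.k _ (ha 2), tr_S3 s.k _ (ha 3),
      add_zero, add_zero, add_zero, hcs 0, tr_algebraMap] at htr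
    exact htr
  have hη : a 0 + a 1 * S1 s.k + a 2 * S2 s.k + a 3 * S3 s.k =
      c 1 • S1 s.k + c 2 • S2 s.k + c 3 • S3 s.k := by
    rw [hcs 0, hcs 1, hcs 2, hcs 3, hc0, map_zero, zero_add, ← Algebra.smul_def,
      ← Algebra.smul_def, ← Algebra.smul_def]
  have hcomp : ∀ i, i = s.x ∨ i = s.y →
      (s.X i * h 2 - h 2 * s.X i) + (2 * c 3 * al s.k) • w1 i = 0 ∧
      (s.X i * h 3 - h 3 * s.X i) + (2 * c 2) • w1 i - (2 * c 1) • w2 i = 0 := by
    intro i hi
    have hw1i := W_lev s hg w1 hw1 i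
    have hw2i := W_lev s hg w2 hw2 i
    have e := hd i hi
    rw [hη, kpc_key_expand s.k _ _ _ _ _ _ _ _ _ _ (hX i) hw1i hw2i] at e
    have hsm : ∀ (c : K) {u : QA K}, u ∈ lev K s.k → c • u ∈ lev K s.k := fun c u hu =>
      (lev K s.k).smul_mem hu c
    have := decomp_unique s.k ![s.X i * h 0 - h 0 * s.X i,
      (s.X i * h 1 - h 1 * s.X i) - (2 * c 3 * be s.k) • w2 i,
      (s.X i * h 2 - h 2 * s.X i) + (2 * c 3 * al s.k) • w1 i,
      (s.X i * h 3 - h 3 * s.X i) + (2 * c 2) • w1 i - (2 * c 1) • w2 i] (by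
        intro b
        fin_cases b
        · exact hsub (hX i) (hh 0)
        · exact (lev K s.k).sub_mem (hsub (hX i) (hh 1)) (hsm _ hw2i)
        · exact (lev K s.k).add_mem (hsub (hX i) (hh 2)) (hsm _ hw1i)
        · exact (lev K s.k).sub_mem ((lev K s.k).add_mem (hsub (hX i) (hh 3)) (hsm _ hw1i))
            (hsm _ hw2i)) (by
        simpa using e)
    exact ⟨this 2, this 3⟩
  have two : (2 : K) ≠ 0 := two_ne_zero
  have p1 := hpi (-(2 * c 2)) (2 * c 1) ⟨h 3, hh 3, by
      have e := (hcomp s.x (Or.inl rfl)).2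
      simp only [Pi.add_apply, Pi.smul_apply]
      exact kpc_aux_neg e (by module), by
      have e := (hcomp s.y (Or.inr rfl)).2
      simp only [Pi.add_apply, Pi.smul_apply]
      exact kpc_aux_neg e (by module)⟩
  have p2 := hpi (-(2 * c 3 * al s.k)) 0 ⟨h 2, hh 2, by
      have e := (hcomp s.x (Or.inl rfl)).1
      simp only [Pi.add_apply, Pi.smul_apply]
      exact kpc_aux_neg e (by module), by
      have e := (hcomp s.y (Or.inr rfl)).1
      simp only [Pi.add_apply, Pi.smul_apply]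
      exact kpc_aux_neg e (by module)⟩
  have c2 : c 2 = 0 := by simpa [two] using p1.1
  have c1 : c 1 = 0 := by simpa [two] using p1.2
  have c3 : c 3 = 0 := by
    have := p2.1
    rw [neg_eq_zero] at this
    rcases mul_eq_zero.1 this with h' | h'
    · simpa [two] using h'
    · exact absurd h' (KF.al_ne s.k)
  rw [hη, c1, c2, c3, zero_smul, zero_smul, zero_smul, add_zero, add_zero]

end Crest.Agent.KP.KC
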