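import Crest.Agent.KPC_State
import Crest.Agent.KPC_T5
import Crest.Agent.KPB_ext

/-! # S0270, part (C): Lemma 1 (residues and persistence for one step)  (author helper6)

All lemmas are in the namespace `Crest.Agent.KP.KC`. -/

set_option autoImplicit false
set_option linter.unusedSectionVars false

open scoped PowerSeries LaurentSeries symmDiff

namespace Crest.Agent.KP.KC

open Crest.Agent.KP.NC

variable {K I J : Type} [Field K] [KF K] [Fintype I] [Fintype J]

/-! ### residues at the Laurent place -/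

/-- residues of a subspace of `QA K⸨X⸩^I` in terms of `toL` and `cf 0` -/
theorem mem_resI_laurent (V : Submodule K⸨X⸩ (I → QA K⸨X⸩)) (v : I → QA K) :
    v ∈ (Place.laurent K).resI V ↔
      ∃ u : I → QA K⟦X⟧, (fun i => toL K (u i)) ∈ V ∧ (fun i => cf 0 (u i)) = v := by
  constructor
  · rintro ⟨w, hw, h1, h2⟩
    choose u hu using fun i => (kpr_int_iff (w i)).1 (h1 i)
    have hw' : (fun i => toL K (u i)) = w := funext hu
    refine ⟨u, by rw [hw']; exact hw, ?_⟩
    rw [← h2]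
    funext i
    rw [← kpr_rq_toL, hu i]
  · rintro ⟨u, hu, rfl⟩
    exact ⟨fun i => toL K (u i), hu, fun i => kpr_int_toL (u i),
      funext fun i => kpr_rq_toL (u i)⟩

theorem finrank_resI_laurent (V : Submodule K⸨X⸩ (I → QA K⸨X⸩)) [FiniteDimensional K⸨X⸩ V] :
    Module.finrank K ((Place.laurent K).resI V) = Module.finrank K⸨X⸩ V :=
  Place.finrank_resI (Place.laurent K) V

theorem finite_resI_laurent (V : Submodule K⸨X⸩ (I → QA K⸨X⸩)) [FiniteDimensional K⸨X⸩ V] :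
    FiniteDimensional K ((Place.laurent K).resI V) :=
  (Place.finiteDimensional_resI (Place.laurent K) V).1

theorem pair_toL (c d : J → QA K⟦X⟧) :
    Pt.pair (fun j => toL K (c j)) (fun j => toL K (d j)) =
      algebraMap K⟦X⟧ K⸨X⸩ (∑ j, QA.tr (c j * d j)) := by
  simp only [Pt.pair, ← map_mul, tr_toL, map_sum]

theorem toC_eq (u : QA K) : toC K u = toL K (toP K u) := (toL_toP u).symm

variable (s : Pt K I J) (T : I → QA K⟦X⟧)

theorem curve_D (u : I → QA K⟦X⟧) :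
    (s.curve T).D (fun i => toL K (u i)) = fun j => toL K (d1 T u (s.F j)) :=
  funext fun j => d1_toL T u (s.F j)

theorem grow_D (u : I → QA K⟦X⟧) :
    (s.grow T).D (fun i => toL K (u i)) = fun j => toL K (d1 T u (s.F j)) :=
  funext fun j => d1_toL T u (s.F j)

/-- order 0 coefficient of `∑ tr(c_j F_j'(T)[u])` -/
theorem order0 (h0 : ∀ i, cf 0 (T i) = s.X i) (c : J → QA K⟦X⟧) (u : I → QA K⟦X⟧)
    (h : ∑ j, QA.tr (c j * d1 T u (s.F j)) = 0) :
    Pt.pair (fun j => cf 0 (c j)) (s.D fun i => cf 0 (u i)) = 0 := by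
  have h' := congrArg (PowerSeries.coeff 0) h
  simp only [map_sum, cf_tr, cf_mul0, cf0_d1, h0, map_zero] at h'
  exact h'

/-- order 1 coefficient of `∑ tr(c_j F_j'(T)[u])` -/
theorem order1 (h0 : ∀ i, cf 0 (T i) = s.X i) (c : J → QA K⟦X⟧) (u : I → QA K⟦X⟧)
    (h : ∑ j, QA.tr (c j * d1 T u (s.F j)) = 0) :
    Pt.pair (fun j => cf 1 (c j)) (s.D fun i => cf 0 (u i)) +
      Pt.pair (fun j => cf 0 (c j)) (s.D fun i => cf 1 (u i)) +
      ∑ j, QA.tr (cf 0 (c j) * (d2 s.X (fun i => cf 1 (T i)) (fun i => cf 0 (u i)) (s.F j) +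
        d2 s.X (fun i => cf 0 (u i)) (fun i => cf 1 (T i)) (s.F j))) = 0 := by
  have h' := congrArg (PowerSeries.coeff 1) h
  simp only [map_sum, cf_tr, cf_mul1, cf0_d1, cf1_d1, h0, map_zero, mul_add, map_add,
    Finset.sum_add_distrib] at h'
  simp only [Pt.pair, Pt.D, mul_add, map_add, Finset.sum_add_distrib]
  linear_combination h'

/-! ### Lemma 1 (a): residues of `U` -/

/-- if `c = toL ∘ c~` is in `U(s')` then for every power series vector `u` with coefficients in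
`V0` the power series `∑ tr(c~_j F_j'(T)[u])` vanishes. -/
theorem U_curve_zero (hg : s.Good) (c : J → QA K⟦X⟧)
    (hc : (fun j => toL K (c j)) ∈ (s.curve T).U) (u : I → QA K⟦X⟧)
    (hu : ∀ m, (fun i => cf m (u i)) ∈ s.V0) :
    ∑ j, QA.tr (c j * d1 T u (s.F j)) = 0 := by
  have := finite_V0 s hg
  have h1 : (fun i => toL K (u i)) ∈ (s.curve T).V0 := (toL_mem_extV s.V0 u).2 hu
  have h2 := hc.2 _ h1
  rw [curve_D, pair_toL] at h2
  exact (map_eq_zero_iff _ (IsFractionRing.injective K⟦X⟧ K⸨X⸩)).1 h2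

theorem U_grow_zero (hg : s.Good) (c : J → QA K⟦X⟧)
    (hc : (fun j => toL K (c j)) ∈ (s.grow T).U) (u : I → QA K⟦X⟧)
    (hu : ∀ m, (fun i => cf m (u i)) ∈ mulE s.k s.V0) :
    ∑ j, QA.tr (c j * d1 T u (s.F j)) = 0 := by
  have := finite_V0 s hg
  have := finite_mulE s.k s.V0
  have h1 : (fun i => toL K (u i)) ∈ (s.grow T).V0 := (toL_mem_extV (mulE s.k s.V0) u).2 hu
  have h2 := hc.2 _ h1
  rw [grow_D, pair_toL] at h2
  exact (map_eq_zero_iff _ (IsFractionRing.injective K⟦X⟧ K⸨X⸩)).1 h2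

/-- Lemma 1(a) for curves.  Proof: `c = toL ∘ c~ ∈ U(s')`, `v ∈ V0`: apply `U_curve_zero` to the
constant vector `toP ∘ v` and `order0`. -/
theorem resU_curve (hg : s.Good) (hT : s.IsCurve T) :
    (Place.laurent K).resI (s.curve T).U ≤ s.U := by
  intro c0 hc0
  obtain ⟨c, hc, rfl⟩ := (mem_resI_laurent _ _).1 hc0
  refine ⟨(mem_AJ _ _).2 fun j => (toL_mem_lev s.k (c j)).1 (U_lev (s.curve T) _ hc j) 0, ?_⟩
  intro v hv
  have h := U_curve_zero s T hg c hc (fun i => toP K (v i)) (fun m => by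
    by_cases hm : m = 0
    · simpa [cf_toP, hm] using hv
    · simp only [cf_toP, hm, if_false]
      exact s.V0.zero_mem)
  have h2 := order0 s T hT.zero c _ h
  simpa [cf_toP] using h2

/-- the pairing of two `comb`s -/
theorem kpc_pair_comb (k : ℕ) (a b : Fin 4 → (J → QA K)) (ha : ∀ i j, a i j ∈ lev K k)
    (hb : ∀ i j, b i j ∈ lev K k) :
    Pt.pair (comb k a) (comb k b) = Pt.pair (a 0) (b 0) + al k * Pt.pair (a 1) (b 1) +
      be k * Pt.pair (a 2) (b 2) - al k * be k * Pt.pair (a 3) (b 3) := by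
  simp only [Pt.pair, comb, Finset.mul_sum, ← Finset.sum_add_distrib, ← Finset.sum_sub_distrib]
  exact Finset.sum_congr rfl fun j _ =>
    tr_mul_comb_comb k (fun i => a i j) (fun i => b i j) (fun i => ha i j) (fun i => hb i j)

/-- first part of Lemma 1(a) for growth: the residue `c0` of `c ∈ U(s')` is `comb` of elements of
`U(s)`.  Proof: `c0 ∈ lev (k+1)^J` so `c0 = comb k c'` with `c' b ∈ (lev k)^J` (`exists_comb`).
For `v ∈ V0` and each of the four `e ∈ {1,S1,S2,S3}` the vector `v e` is in `mulE k V0`, order 0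
gives `∑ tr(c0_j D(v)_j e) = 0`, and by `tr_mul_comb_comb` this is `tr(e^2) pair (c' b) (D v)`. -/
theorem resU_grow_comb (hg : s.Good) (w1 w2 : I → QA K) (hT : s.IsGrowth T w1 w2)
    (c : J → QA K⟦X⟧) (hc : (fun j => toL K (c j)) ∈ (s.grow T).U) :
    ∃ c' : Fin 4 → (J → QA K), (∀ b, c' b ∈ s.U) ∧ (fun j => cf 0 (c j)) = comb s.k c' := by
  have hlev : ∀ j, cf 0 (c j) ∈ lev K (s.k + 1) := fun j =>
    (toL_mem_lev (s.k + 1) (c j)).1 (U_lev (s.grow T) _ hc j) 0
  obtain ⟨c', hc'lev, hc'eq⟩ := exists_comb s.k (fun j => cf 0 (c j)) hlev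
  have hD0 : s.D (0 : I → QA K) = 0 := s.Dl.map_zero
  have key : ∀ w : Fin 4 → (I → QA K), (∀ b, w b ∈ s.V0) →
      Pt.pair (c' 0) (s.D (w 0)) + al s.k * Pt.pair (c' 1) (s.D (w 1)) +
        be s.k * Pt.pair (c' 2) (s.D (w 2)) -
          al s.k * be s.k * Pt.pair (c' 3) (s.D (w 3)) = 0 := by
    intro w hw
    have hmem : comb s.k w ∈ mulE s.k s.V0 := (mem_mulE s.k s.V0 _).2 ⟨w, hw, rfl⟩
    have h := U_grow_zero s T hg c hc (fun i => toP K (comb s.k w i)) (fun m => by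
      by_cases hm : m = 0
      · simpa [cf_toP, hm] using hmem
      · simp only [cf_toP, hm, if_false]
        exact (mulE s.k s.V0).zero_mem)
    have h2 := order0 s T hT.zero c _ h
    simp only [cf_toP, if_true] at h2
    rw [hc'eq, D_comb s hg.Xlev w,
      kpc_pair_comb s.k c' (fun b => s.D (w b)) hc'lev (fun b j => by
        have := D_mem_AJ s hg.Xlev (w b) (V0_lev s hg _ (hw b))
        exact (mem_AJ s.k _).1 this j)] at h2
    exact h2
  have hal : (al s.k : K) ≠ 0 := KF.al_ne s.k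
  have hbe : (be s.k : K) ≠ 0 := KF.be_ne s.k
  have hz : ∀ d : J → QA K, Pt.pair d (0 : J → QA K) = 0 := by
    intro d
    simp [Pt.pair]
  refine ⟨c', fun b => ⟨(mem_AJ _ _).2 (hc'lev b), fun v hv => ?_⟩, hc'eq⟩
  have h0 : (0 : I → QA K) ∈ s.V0 := s.V0.zero_mem
  fin_cases b
  · have := key ![v, 0, 0, 0] (by
      intro b; fin_cases b
      · exact hv
      · exact h0
      · exact h0
      · exact h0)
    simpa [hD0, hz] using this
  · have := key ![0, v, 0, 0] (by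
      intro b; fin_cases b
      · exact h0
      · exact hv
      · exact h0
      · exact h0)
    simpa [hD0, hz, hal] using this
  · have := key ![0, 0, v, 0] (by
      intro b; fin_cases b
      · exact h0
      · exact h0
      · exact hv
      · exact h0)
    simpa [hD0, hz, hbe] using this
  · have := key ![0, 0, 0, v] (by
      intro b; fin_cases b
      · exact h0
      · exact h0
      · exact h0
      · exact hv)
    simpa [hD0, hz, hal, hbe] using this

/-- second part: the `Theta` relation.  For `η ∈ mulE k W`: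
`Th c'0 1 η + Th c'1 S1 η + Th c'2 S2 η + Th c'3 S3 η = 0`.
Proof: `order1` for the constant vector `toP ∘ η`, `D η = 0` (`D_comb`), `cf 1 (toP η) = 0`. -/
theorem resU_grow_theta (hg : s.Good) (w1 w2 : I → QA K) (hT : s.IsGrowth T w1 w2)
    (c : J → QA K⟦X⟧) (hc : (fun j => toL K (c j)) ∈ (s.grow T).U)
    (c' : Fin 4 → (J → QA K)) (hc' : (fun j => cf 0 (c j)) = comb s.k c')
    (η : I → QA K) (hη : η ∈ mulE s.k s.W) :
    s.Th w1 w2 (c' 0) 1 η + s.Th w1 w2 (c' 1) (S1 s.k) η + s.Th w1 w2 (c' 2) (S2 s.k) η +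
      s.Th w1 w2 (c' 3) (S3 s.k) η = 0 := by
  have hD0 : s.D (0 : I → QA K) = 0 := s.Dl.map_zero
  obtain ⟨v, hv, hηv⟩ := (mem_mulE s.k s.W η).1 hη
  have hDη : s.D η = 0 := by
    rw [hηv, D_comb s hg.Xlev v]
    funext j
    have e : ∀ b, s.D (v b) = 0 := fun b => ((mem_W s _).1 (hv b)).2
    simp [comb, e]
  have hmem : η ∈ mulE s.k s.V0 :=
    mulE_mono s.k s.W s.V0 (fun v hv => ((mem_W s v).1 hv).1) hη
  have h := U_grow_zero s T hg c hc (fun i => toP K (η i)) (fun m => by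
    by_cases hm : m = 0
    · simpa [cf_toP, hm] using hmem
    · simp only [cf_toP, hm, if_false]
      exact (mulE s.k s.V0).zero_mem)
  have h1 := order1 s T hT.zero c _ h
  have e1 : (fun i => cf 1 (toP K (η i))) = (0 : I → QA K) := by
    funext i
    simp [cf_toP]
  have e0 : (fun i => cf 0 (toP K (η i))) = η := by
    funext i
    simp [cf_toP]
  have eT : (fun i => cf 1 (T i)) = fun i => w1 i * S1 s.k + w2 i * S2 s.k := funext hT.one
  have hz : ∀ d : J → QA K, Pt.pair d (0 : J → QA K) = 0 := by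
    intro d
    simp [Pt.pair]
  rw [e1, e0, eT, hD0, hDη, hz, hz, zero_add, zero_add] at h1
  have hc0 : ∀ j, cf 0 (c j) = c' 0 j + c' 1 j * S1 s.k + c' 2 j * S2 s.k + c' 3 j * S3 s.k :=
    fun j => congrFun hc' j
  rw [← h1]
  simp only [Pt.Th, ← Finset.sum_add_distrib, ← map_add, mul_one]
  refine Finset.sum_congr rfl fun j _ => ?_
  rw [hc0 j]
  congr 1
  simp only [add_mul]

/-- Lemma 1(a) for growth steps.  Proof: `resU_grow_comb`, `resU_grow_theta`, `Th_one` and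
`theta_onto` (with `Wt = W`): choose `η` with `Th(η)(.,S_a) = φ_a` where `φ_a` are functionals on
`U` with `φ_a(c'_a)=1` if `c'_a ≠ 0`; conclude `c'_1 = c'_2 = c'_3 = 0`, so the residue is
`c'_0 ∈ U`. -/
theorem resU_grow (hg : s.Good) (ha : s.Alt) (w1 w2 : I → QA K) (hT : s.IsGrowth T w1 w2) :
    (Place.laurent K).resI (s.grow T).U ≤ s.U := by
  intro c0 hc0
  obtain ⟨c, hc, rfl⟩ := (mem_resI_laurent _ _).1 hc0
  obtain ⟨c', hU, hc'⟩ := resU_grow_comb s T hg w1 w2 hT c hc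
  have key : ∀ φ : Fin 3 → Module.Dual K s.U,
      φ 0 ⟨c' 1, hU 1⟩ + φ 1 ⟨c' 2, hU 2⟩ + φ 2 ⟨c' 3, hU 3⟩ = 0 := by
    intro φ
    obtain ⟨η, hη, h⟩ := theta_onto s hg ha w1 w2 hT.w1W hT.w2W s.W le_rfl hT.inj φ
    have h1 := resU_grow_theta s T hg w1 w2 hT c hc c' hc' η hη
    obtain ⟨v, hv, rfl⟩ := (mem_mulE _ _ _).1 hη
    rw [Th_one s hg ha w1 w2 hT.w1W hT.w2W v hv _ (hU 0), zero_add] at h1
    have e1 := (h ⟨c' 1, hU 1⟩).1
    have e2 := (h ⟨c' 2, hU 2⟩).2.1
    have e3 := (h ⟨c' 3, hU 3⟩).2.2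
    rw [← e1, ← e2, ← e3]
    exact h1
  have h1 : c' 1 = 0 := by
    have h2 : (⟨c' 1, hU 1⟩ : s.U) = 0 := by
      rw [← Module.forall_dual_apply_eq_zero_iff K]
      intro ψ
      simpa using key ![ψ, 0, 0]
    exact congrArg Subtype.val h2
  have h2 : c' 2 = 0 := by
    have h2 : (⟨c' 2, hU 2⟩ : s.U) = 0 := by
      rw [← Module.forall_dual_apply_eq_zero_iff K]
      intro ψ
      simpa using key ![0, ψ, 0]
    exact congrArg Subtype.val h2
  have h3 : c' 3 = 0 := by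
    have h2 : (⟨c' 3, hU 3⟩ : s.U) = 0 := by
      rw [← Module.forall_dual_apply_eq_zero_iff K]
      intro ψ
      simpa using key ![0, 0, ψ]
    exact congrArg Subtype.val h2
  have h4 : comb s.k c' = c' 0 := by
    funext j
    simp [comb, h1, h2, h3]
  show (fun j => cf 0 (c j)) ∈ s.U
  rw [hc', h4]
  exact hU 0

theorem o_curve_le (hg : s.Good) (hT : s.IsCurve T) : (s.curve T).o ≤ s.o := by
  have h := Submodule.finrank_mono (resU_curve s T hg hT)
  rwa [finrank_resI_laurent] at h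

theorem o_grow_le (hg : s.Good) (ha : s.Alt) (w1 w2 : I → QA K) (hT : s.IsGrowth T w1 w2) :
    (s.grow T).o ≤ s.o := by
  have h := Submodule.finrank_mono (resU_grow s T hg ha w1 w2 hT)
  rwa [finrank_resI_laurent] at h

/-! ### Lemma 1 (b): the new state is good -/

theorem extV_lev (k : ℕ) (V : Submodule K (I → QA K)) (hV : ∀ v ∈ V, ∀ i, v i ∈ lev K k)
    (v : I → QA K⸨X⸩) (hv : v ∈ extV V) (i : I) : v i ∈ lev K⸨X⸩ k := by
  refine Submodule.span_induction (p := fun v _ => v i ∈ lev K⸨X⸩ k) ?_ ?_ ?_ ?_ hv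
  · rintro _ ⟨u, hu, rfl⟩
    exact Place.iq_lev (Place.laurent K) (hV u hu i)
  · exact zero_mem _
  · intro x y _ _ h1 h2; exact add_mem h1 h2
  · intro a x _ h1; exact Subalgebra.smul_mem _ h1 a

theorem curve_Xlev (hg : s.Good) (hT : s.IsCurve T) (i : I) :
    (s.curve T).X i ∈ lev K⸨X⸩ s.k := by
  refine (toL_mem_lev s.k (T i)).2 fun m => ?_
  rcases Nat.eq_zero_or_pos m with rfl | hm
  · rw [hT.zero]; exact hg.Xlev i
  · exact hg.V1lev _ (hT.mem m hm) i

theorem mulE_sup_lev (hg : s.Good) (v : I → QA K) (hv : v ∈ mulE s.k s.V0 ⊔ s.V1) (i : I) :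
    v i ∈ lev K (s.k + 1) := by
  obtain ⟨w, h0, h1, h2, h3, rfl⟩ := (mem_mulE_sup s.k s.V0 s.V1 hg.V0V1 v).1 hv
  refine comb_mem_lev s.k w (fun b i => ?_) i
  fin_cases b
  · exact hg.V1lev _ h0 i
  · exact V0_lev s hg _ h1 i
  · exact V0_lev s hg _ h2 i
  · exact V0_lev s hg _ h3 i

theorem grow_Xlev (hg : s.Good) (w1 w2 : I → QA K) (hT : s.IsGrowth T w1 w2) (i : I) :
    (s.grow T).X i ∈ lev K⸨X⸩ (s.k + 1) := by
  refine (toL_mem_lev (s.k + 1) (T i)).2 fun m => ?_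
  rcases Nat.eq_zero_or_pos m with rfl | hm
  · rw [hT.zero]; exact lev_mono (Nat.le_succ _) (hg.Xlev i)
  · exact mulE_sup_lev s hg _ (hT.mem m hm) i

/-- common argument for (G1) -/
private theorem kpc_g1_aux (s' : Pt K⸨X⸩ I J) (hX : ∀ i, s'.X i ∈ lev K⸨X⸩ s'.k)
    (hV1 : ∀ v ∈ s'.V1, ∀ i, v i ∈ lev K⸨X⸩ s'.k) (h01 : s'.V0 ≤ s'.V1)
    (hg : s.Good) (h0 : ∀ i, cf 0 (T i) = s.X i)
    (hres : (Place.laurent K).resI s'.U ≤ s.U)
    (hsub : ∀ v ∈ s.V1, (fun i => toC K (v i)) ∈ s'.V1)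
    (hD : ∀ u : I → QA K⟦X⟧, s'.D (fun i => toL K (u i)) = fun j => toL K (d1 T u (s.F j))) :
    ∀ d ∈ Pt.AJ K⸨X⸩ J s'.k, ∃ v ∈ s'.V1, s'.D v = d := by
  intro d hd
  have key : d ∈ s'.V1.map s'.Dl := by
    refine pair_double_perp s'.k _ ?_ d hd ?_
    · rintro _ ⟨v, hv, rfl⟩
      exact D_mem_AJ s' hX v (hV1 v hv)
    · intro c hc hperp
      by_cases hc0 : c = 0
      · rw [hc0, Pt.pair_zero_left]
      exfalso
      obtain ⟨a, u, ha, hu, j, hj⟩ := exists_scale c hc0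
      have hac : (fun j => toL K (u j)) = a • c := funext fun j => (hu j).symm
      have hcU : (fun j => toL K (u j)) ∈ s'.U := by
        rw [hac]
        exact s'.U.smul_mem a ⟨hc, fun v hv => hperp _ ⟨v, h01 hv, rfl⟩⟩
      have hc0U : (fun j => cf 0 (u j)) ∈ s.U :=
        hres ((mem_resI_laurent _ _).2 ⟨u, hcU, rfl⟩)
      have hz : ∀ v ∈ s.V1, Pt.pair (fun j => cf 0 (u j)) (s.D v) = 0 := by
        intro v hv
        have h1 : Pt.pair c (s'.D (fun i => toC K (v i))) = 0 := hperp _ ⟨_, hsub v hv, rfl⟩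
        have h2 : Pt.pair (fun j => toL K (u j)) (s'.D (fun i => toL K (toP K (v i)))) = 0 := by
          rw [hac, Pt.pair_smul_left]
          have e : (fun i => toL K (toP K (v i))) = fun i => toC K (v i) :=
            funext fun i => (toC_eq (v i)).symm
          rw [e, h1, mul_zero]
        rw [hD, pair_toL] at h2
        have h3 := (map_eq_zero_iff _ (IsFractionRing.injective K⟦X⟧ K⸨X⸩)).1 h2
        have h4 := order0 s T h0 u _ h3
        simpa [cf_toP] using h4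
      have : (fun j => cf 0 (u j)) = 0 := pair_nondeg s.k _ hc0U.1 fun d hd => by
        obtain ⟨v, hv, rfl⟩ := hg.g1 d hd
        exact hz v hv
      exact hj (congrFun this j)
  obtain ⟨v, hv, h⟩ := key
  exact ⟨v, hv, h⟩

/-- (G1) persists along curves.  Proof: otherwise, by `pair_double_perp` (over `K⸨X⸩`, applied to
`V = D'(V1')`), there is `c ≠ 0` in `A'^J` orthogonal to `D'(V1')`, so `c ∈ U(s')`.  Scale
(`exists_scale`): `c = toL ∘ c~` with `c0 = cf 0 ∘ c~ ≠ 0`, `c0 ∈ U(s)` by (a).  For `v ∈ V1`,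
order 0 of `∑ tr(c~_j F_j'(T)[toP v]) = 0` gives `pair c0 (D v) = 0`; as `D(V1) = A^J`,
`pair_nondeg` gives `c0 = 0`. -/
theorem g1_curve (hg : s.Good) (hT : s.IsCurve T) :
    ∀ d ∈ Pt.AJ K⸨X⸩ J (s.curve T).k, ∃ v ∈ (s.curve T).V1, (s.curve T).D v = d :=
  kpc_g1_aux s T (s.curve T) (curve_Xlev s T hg hT)
    (fun v hv i => extV_lev s.k s.V1 hg.V1lev v hv i) (extV_mono _ _ hg.V0V1) hg hT.zero
    (resU_curve s T hg hT) (fun v hv => toC_mem_extV s.V1 v hv) (curve_D s T)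

/-- (G1) persists along growth steps, same proof (`c0 ∈ U(s) ≤ A^J` by Lemma 1(a)). -/
theorem g1_grow (hg : s.Good) (ha : s.Alt) (w1 w2 : I → QA K) (hT : s.IsGrowth T w1 w2) :
    ∀ d ∈ Pt.AJ K⸨X⸩ J (s.grow T).k, ∃ v ∈ (s.grow T).V1, (s.grow T).D v = d :=
  kpc_g1_aux s T (s.grow T) (grow_Xlev s T hg w1 w2 hT)
    (fun v hv i => extV_lev (s.k + 1) (mulE s.k s.V0 ⊔ s.V1) (mulE_sup_lev s hg) v hv i)
    (extV_mono _ _ le_sup_left) hg hT.zero (resU_grow s T hg ha w1 w2 hT)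
    (fun v hv => toC_mem_extV _ v ((le_sup_right : s.V1 ≤ mulE s.k s.V0 ⊔ s.V1) hv))
    (grow_D s T)

/-- dimension count giving (G2) for any state satisfying (G1) -/
theorem g2_of_dim {L : Type} [Field L] [KF L] (s' : Pt L I J) (hX : ∀ i, s'.X i ∈ lev L s'.k)
    (h01 : s'.V0 ≤ s'.V1)
    (hV : ∀ v ∈ s'.V1, ∀ i, v i ∈ lev L s'.k)
    (h1 : ∀ d ∈ Pt.AJ L J s'.k, ∃ v ∈ s'.V1, s'.D v = d)
    (hd : Module.finrank L s'.V1 = Module.finrank L s'.V0 + s'.o) :
    ∀ v ∈ s'.V1, s'.D v = 0 → v ∈ s'.V0 := by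
  have e1 := finrank_V1 s' hX hV h1
  have e2 := finrank_V0 s' hX (fun v hv => hV v (h01 hv))
  have hle : s'.W ≤ s'.V1 ⊓ LinearMap.ker s'.Dl := fun v hv => ⟨h01 hv.1, hv.2⟩
  have : FiniteDimensional L s'.V1 := finite_of_lev s'.k s'.V1 hV
  have : FiniteDimensional L (s'.V1 ⊓ LinearMap.ker s'.Dl : Submodule L (I → QA L)) :=
    Submodule.finiteDimensional_inf_left _ _
  have e3 := Submodule.eq_of_le_of_finrank_eq hle (by omega)
  intro v hv hDv
  have : v ∈ s'.V1 ⊓ LinearMap.ker s'.Dl := ⟨hv, hDv⟩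
  rw [← e3] at this
  exact this.1

/-- **key step for (G3) and for inner directions of a growth step**: if `η0, η1 ∈ lev (k+1)`,
`tr η0 = 0`, `η0` commutes with `X_x, X_y` and `[X_i,η1] + [T_{1,i},η0] = 0` for `i = x, y`
(`T_1 = w1 S1 + w2 S2`), then `η0 = 0`.
Proof: write `η0 = comb h`; uniqueness of components and (G3): all four components are scalars,
`h_0 = tr η0 = 0`.  The `S3`-component of the second equation is
`[X_i, η1_3] + 2 (h_2 w1 - h_1 w2)_i = 0` so `h_2 w1 - h_1 w2 ∈ Inn`, (PI) gives `h_1 = h_2 = 0`;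
the `S2`-component is `[X_i,η1_2] + 2 al h_3 w1_i = 0` (using `h_1=h_2=0`), (PI) gives `h_3=0`. -/
theorem key_PI (hg : s.Good) (w1 w2 : I → QA K) (hw1 : w1 ∈ s.W) (hw2 : w2 ∈ s.W)
    (hpi : s.PIc w1 w2) (η0 η1 : QA K) (h0 : η0 ∈ lev K (s.k + 1)) (h1 : η1 ∈ lev K (s.k + 1))
    (htr : QA.tr η0 = 0)
    (hc : ∀ i, i = s.x ∨ i = s.y → s.X i * η0 = η0 * s.X i)
    (hd : ∀ i, i = s.x ∨ i = s.y → s.X i * η1 - η1 * s.X i +
      ((w1 i * S1 s.k + w2 i * S2 s.k) * η0 - η0 * (w1 i * S1 s.k + w2 i * S2 s.k)) = 0) :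
    η0 = 0 := by
  exact kpc_key_PI s hg w1 w2 hw1 hw2 hpi η0 η1 h0 h1 htr hc hd

/-- common argument for (G3) -/
private theorem kpc_g3_aux (k' : ℕ) (a b : QA K⟦X⟧)
    (h : ∀ u : QA K⟦X⟧, (∀ m, cf m u ∈ lev K k') → (∀ m, QA.tr (cf m u) = 0) → u * a = a * u →
      u * b = b * u → cf 0 u = 0) :
    ∀ u ∈ lev K⸨X⸩ k', u * toL K a = toL K a * u → u * toL K b = toL K b * u →
      ∃ c : K⸨X⸩, u = algebraMap K⸨X⸩ (QA K⸨X⸩) c := by
  intro u hu ha hb
  refine ⟨QA.tr u, ?_⟩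
  by_contra hne
  have hne' : (fun _ : Unit => u - algebraMap K⸨X⸩ (QA K⸨X⸩) (QA.tr u)) ≠ 0 := by
    intro h0
    exact hne (sub_eq_zero.1 (congrFun h0 ()))
  obtain ⟨c, v, hc, hv, i, hi⟩ := exists_scale (fun _ : Unit =>
    u - algebraMap K⸨X⸩ (QA K⸨X⸩) (QA.tr u)) hne'
  apply hi
  have hvi := hv i
  have hlev : ∀ m, cf m (v i) ∈ lev K k' := by
    rw [← toL_mem_lev, ← hvi]
    exact Subalgebra.smul_mem _ (sub_mem hu (Subalgebra.algebraMap_mem _ _)) c
  have htr : QA.tr (v i) = 0 := by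
    have h1 : algebraMap K⟦X⟧ K⸨X⸩ (QA.tr (v i)) = 0 := by
      rw [← tr_toL, ← hvi, map_smul, map_sub, tr_algebraMap, sub_self, smul_zero]
    exact (map_eq_zero_iff _ (IsFractionRing.injective K⟦X⟧ K⸨X⸩)).1 h1
  have hcomm : ∀ z : QA K⟦X⟧, u * toL K z = toL K z * u → v i * z = z * v i := by
    intro z hz
    apply toL_inj
    rw [map_mul, map_mul, ← hvi, smul_mul_assoc, mul_smul_comm, sub_mul, mul_sub, hz,
      Algebra.commutes]
  refine h (v i) hlev (fun m => ?_) (hcomm a ha) (hcomm b hb)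
  rw [← cf_tr, htr, map_zero]

/-- (G3) persists along curves.  Proof: let `u` commute with `X'_x,X'_y`; `u - tr u` too; if it is
nonzero, scale it (`exists_scale` with the index type `Unit`) to `toL u~` with `cf 0 u~ ≠ 0`; then
`cf 0 u~ ∈ lev k` commutes with `X_x, X_y`, has trace 0, hence is `0` by (G3). -/
theorem g3_curve (hg : s.Good) (hT : s.IsCurve T) :
    ∀ u ∈ lev K⸨X⸩ (s.curve T).k, u * (s.curve T).X (s.curve T).x = (s.curve T).X (s.curve T).x * u →
      u * (s.curve T).X (s.curve T).y = (s.curve T).X (s.curve T).y * u →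
      ∃ c : K⸨X⸩, u = algebraMap K⸨X⸩ (QA K⸨X⸩) c := by
  refine kpc_g3_aux s.k (T s.x) (T s.y) fun u hu htr hx hy => ?_
  have hx' := congrArg (cf 0) hx
  have hy' := congrArg (cf 0) hy
  simp only [cf_mul0, hT.zero] at hx' hy'
  obtain ⟨c, hc⟩ := hg.g3 (cf 0 u) (hu 0) hx' hy'
  have h0 := htr 0
  rw [hc, tr_algebraMap] at h0
  rw [hc, h0, map_zero]

/-- (G3) persists along growth steps: same proof using `key_PI` with `η0 = cf 0 u~`,
`η1 = cf 1 u~`. -/
theorem g3_grow (hg : s.Good) (w1 w2 : I → QA K) (hT : s.IsGrowth T w1 w2) :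
    ∀ u ∈ lev K⸨X⸩ (s.grow T).k, u * (s.grow T).X (s.grow T).x = (s.grow T).X (s.grow T).x * u →
      u * (s.grow T).X (s.grow T).y = (s.grow T).X (s.grow T).y * u →
      ∃ c : K⸨X⸩, u = algebraMap K⸨X⸩ (QA K⸨X⸩) c := by
  refine kpc_g3_aux (s.k + 1) (T s.x) (T s.y) fun u hu htr hx hy => ?_
  have hc : ∀ i, i = s.x ∨ i = s.y → u * T i = T i * u := by
    rintro i (rfl | rfl)
    · exact hx
    · exact hy
  refine key_PI s hg w1 w2 hT.w1W hT.w2W hT.pi (cf 0 u) (cf 1 u) (hu 0) (hu 1) (htr 0) ?_ ?_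
  · intro i hi
    have h1 := congrArg (cf 0) (hc i hi)
    simp only [cf_mul0, hT.zero] at h1
    exact h1.symm
  · intro i hi
    have h1 := congrArg (cf 1) (hc i hi)
    simp only [cf_mul1, hT.zero, hT.one] at h1
    have h2 := sub_eq_zero.2 h1.symm
    rw [← h2]
    abel

theorem good_curve (hg : s.Good) (hT : s.IsCurve T) (ho : (s.curve T).o = s.o) :
    (s.curve T).Good := by
  have := finite_V0 s hg
  have := finite_V1 s hg
  have hV1 : ∀ v ∈ (s.curve T).V1, ∀ i, v i ∈ lev K⸨X⸩ (s.curve T).k :=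
    fun v hv i => extV_lev s.k s.V1 hg.V1lev v hv i
  have h01 : (s.curve T).V0 ≤ (s.curve T).V1 := extV_mono _ _ hg.V0V1
  have h1 := g1_curve s T hg hT
  have hX := curve_Xlev s T hg hT
  have hd : Module.finrank K⸨X⸩ (s.curve T).V1 =
      Module.finrank K⸨X⸩ (s.curve T).V0 + (s.curve T).o := by
    have e := finrank_V1_good s hg
    have e0 : Module.finrank K⸨X⸩ (s.curve T).V0 = Module.finrank K s.V0 := finrank_extV s.V0
    have e1 : Module.finrank K⸨X⸩ (s.curve T).V1 = Module.finrank K s.V1 := finrank_extV s.V1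
    omega
  exact
    { V0V1 := h01
      V1lev := hV1
      Xlev := hX
      g0 := fun j => by
        change ev (fun i => toL K (T i)) ((s.F j).map (algebraMap K K⸨X⸩)) = 0
        rw [ev_toL, hT.eq, map_zero]
      g1 := h1
      g2 := g2_of_dim (s.curve T) hX h01 hV1 h1 hd
      g3 := g3_curve s T hg hT }

theorem good_grow (hg : s.Good) (ha : s.Alt) (w1 w2 : I → QA K) (hT : s.IsGrowth T w1 w2)
    (ho : (s.grow T).o = s.o) : (s.grow T).Good := by
  have := finite_V0 s hg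
  have := finite_V1 s hg
  have := finite_mulE s.k s.V0
  have : FiniteDimensional K (mulE s.k s.V0 ⊔ s.V1 : Submodule K (I → QA K)) :=
    Submodule.finiteDimensional_sup _ _
  have hV1 : ∀ v ∈ (s.grow T).V1, ∀ i, v i ∈ lev K⸨X⸩ (s.grow T).k :=
    fun v hv i => extV_lev (s.k + 1) (mulE s.k s.V0 ⊔ s.V1) (mulE_sup_lev s hg) v hv i
  have h01 : (s.grow T).V0 ≤ (s.grow T).V1 := extV_mono _ _ le_sup_left
  have h1 := g1_grow s T hg ha w1 w2 hT
  have hX := grow_Xlev s T hg w1 w2 hT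
  have hd : Module.finrank K⸨X⸩ (s.grow T).V1 =
      Module.finrank K⸨X⸩ (s.grow T).V0 + (s.grow T).o := by
    have e := finrank_V1_good s hg
    have e0 : Module.finrank K⸨X⸩ (s.grow T).V0 = Module.finrank K (mulE s.k s.V0) :=
      finrank_extV _
    have e1 : Module.finrank K⸨X⸩ (s.grow T).V1 =
      Module.finrank K (mulE s.k s.V0 ⊔ s.V1 : Submodule K (I → QA K)) := finrank_extV _
    have e2 := finrank_mulE s.k s.V0 (V0_lev s hg)
    have e3 := finrank_mulE_sup s.k s.V0 s.V1 hg.V0V1 hg.V1lev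
    omega
  exact
    { V0V1 := h01
      V1lev := hV1
      Xlev := hX
      g0 := fun j => by
        change ev (fun i => toL K (T i)) ((s.F j).map (algebraMap K K⸨X⸩)) = 0
        rw [ev_toL, hT.eq, map_zero]
      g1 := h1
      g2 := g2_of_dim (s.grow T) hX h01 hV1 h1 hd
      g3 := g3_grow s T hg w1 w2 hT }

/-! ### residues of `W` -/

/-- elements of `W(s')` with power series coordinates (curve) -/
theorem mem_W_curve (hg : s.Good) (u : I → QA K⟦X⟧) :
    (fun i => toL K (u i)) ∈ (s.curve T).W ↔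
      (∀ m, (fun i => cf m (u i)) ∈ s.V0) ∧ ∀ j, d1 T u (s.F j) = 0 := by
  have := finite_V0 s hg
  rw [mem_W, curve_D]
  refine and_congr (toL_mem_extV s.V0 u) ?_
  constructor
  · intro h j
    have := congrFun h j
    rw [Pi.zero_apply, ← map_zero (toL K)] at this
    exact toL_inj this
  · intro h
    funext j
    rw [h j, map_zero]; rfl

theorem mem_W_grow (hg : s.Good) (u : I → QA K⟦X⟧) :
    (fun i => toL K (u i)) ∈ (s.grow T).W ↔
      (∀ m, (fun i => cf m (u i)) ∈ mulE s.k s.V0) ∧ ∀ j, d1 T u (s.F j) = 0 := by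
  have := finite_V0 s hg
  have := finite_mulE s.k s.V0
  rw [mem_W, grow_D]
  refine and_congr (toL_mem_extV (mulE s.k s.V0) u) ?_
  constructor
  · intro h j
    have := congrFun h j
    rw [Pi.zero_apply, ← map_zero (toL K)] at this
    exact toL_inj this
  · intro h
    funext j
    rw [h j, map_zero]; rfl

/-- `res W(s') ≤ W(s)` for a curve -/
theorem resW_curve_le (hg : s.Good) (hT : s.IsCurve T) :
    (Place.laurent K).resI (s.curve T).W ≤ s.W := by
  intro v hv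
  obtain ⟨u, hu, rfl⟩ := (mem_resI_laurent _ _).1 hv
  rw [mem_W_curve s T hg] at hu
  refine (mem_W s _).2 ⟨hu.1 0, ?_⟩
  funext j
  have h := congrArg (cf 0) (hu.2 j)
  rw [cf0_d1, map_zero] at h
  simp only [hT.zero] at h
  exact h

/-- `res W(s') ≤ ker Theta` for a growth step.  Proof: `u` as in `mem_W_grow`, `v_0 = cf 0 u`.
Order 0: `D(v_0) = 0` with `v_0 = comb v`, `v b ∈ V0`, so `D (v b) = 0` and `v_0 ∈ mulE k W`.
Order 1 (`cf1_d1`): `D(v_1) + d2[T_1,v_0] + d2[v_0,T_1] = 0` in every equation; multiply by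
`c_j ξ` (`c ∈ U`, `ξ ∈ {S1,S2,S3}`) and take traces: `∑ tr(c_j ξ D(v_1)_j) = 0` because
`v_1 = comb v'`, `v' b ∈ V0` and `tr(c ξ D(v'_b) e_b) = tr(ξ e_b) tr(c D(v'_b))`. -/
theorem resW_grow_le (hg : s.Good) (w1 w2 : I → QA K) (hT : s.IsGrowth T w1 w2) :
    (Place.laurent K).resI (s.grow T).W ≤ KerThS s w1 w2 := by
  intro v0 hv0
  obtain ⟨u, hu, rfl⟩ := (mem_resI_laurent _ _).1 hv0
  rw [mem_W_grow s T hg] at hu
  obtain ⟨hu, hd⟩ := hu
  obtain ⟨v, hv, he⟩ := (mem_mulE _ _ _).1 (hu 0)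
  obtain ⟨v', hv', he'⟩ := (mem_mulE _ _ _).1 (hu 1)
  have hX := hg.Xlev
  have hD0 : s.D (fun i => cf 0 (u i)) = 0 := by
    funext j
    have h := congrArg (cf 0) (hd j)
    rw [cf0_d1, map_zero] at h
    simp only [hT.zero] at h
    exact h
  rw [he, D_comb s hX] at hD0
  have hlev : ∀ w ∈ s.V0, ∀ j, s.D w j ∈ lev K s.k := fun w hw j =>
    (mem_AJ _ _).1 (D_mem_AJ s hX w (V0_lev s hg _ hw)) j
  have hDb : ∀ b, s.D (v b) = 0 :=
    (comb_zero_iff s.k _ (fun b j => hlev _ (hv b) j)).1 hD0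
  refine ⟨(mem_mulE _ _ _).2 ⟨v, fun b => (mem_W s _).2 ⟨hv b, hDb b⟩, he⟩, fun c hc => ?_⟩
  have hT1 : (fun i => cf 1 (T i)) = fun i => w1 i * S1 s.k + w2 i * S2 s.k := funext hT.one
  have key : ∀ ξ : QA K, s.Th w1 w2 c ξ (fun i => cf 0 (u i)) =
      -∑ j, QA.tr (c j * ξ * comb s.k (fun b => s.D (v' b)) j) := by
    intro ξ
    rw [Pt.Th, ← Finset.sum_neg_distrib]
    refine Finset.sum_congr rfl fun j _ => ?_
    rw [← map_neg, ← mul_neg]
    congr 2
    have h := congrArg (cf 1) (hd j)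
    rw [cf1_d1, map_zero, hT1] at h
    simp only [hT.zero] at h
    rw [← D_comb s hX, ← he']
    have h' : s.D (fun i => cf 1 (u i)) j + ((s.F j).d2 s.X
        (fun i => w1 i * S1 s.k + w2 i * S2 s.k) (fun i => cf 0 (u i)) +
        (s.F j).d2 s.X (fun i => cf 0 (u i)) (fun i => w1 i * S1 s.k + w2 i * S2 s.k)) = 0 := by
      rw [← add_assoc]
      exact h
    exact eq_neg_of_add_eq_zero_right h'
  have hpair : ∀ b, ∑ j, QA.tr (c j * s.D (v' b) j) = 0 := fun b => hc.2 _ (hv' b)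
  have hcl : ∀ j, c j ∈ lev K s.k := U_lev s c hc
  have hz := (lev K s.k).zero_mem
  refine ⟨?_, ?_, ?_⟩
  · rw [key, neg_eq_zero]
    have h1 : ∀ j, QA.tr (c j * S1 s.k * comb s.k (fun b => s.D (v' b)) j) =
        al s.k * QA.tr (c j * s.D (v' 1) j) := by
      intro j
      have h := tr_mul_comb_comb s.k ![0, c j, 0, 0] (fun b => s.D (v' b) j)
        (by intro i; fin_cases i <;> simp [hz, hcl j]) (fun b => hlev _ (hv' b) j)
      simpa [comb] using h
    simp only [h1, ← Finset.mul_sum, hpair, mul_zero]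
  · rw [key, neg_eq_zero]
    have h1 : ∀ j, QA.tr (c j * S2 s.k * comb s.k (fun b => s.D (v' b)) j) =
        be s.k * QA.tr (c j * s.D (v' 2) j) := by
      intro j
      have h := tr_mul_comb_comb s.k ![0, 0, c j, 0] (fun b => s.D (v' b) j)
        (by intro i; fin_cases i <;> simp [hz, hcl j]) (fun b => hlev _ (hv' b) j)
      simpa [comb] using h
    simp only [h1, ← Finset.mul_sum, hpair, mul_zero]
  · rw [key, neg_eq_zero]
    have h1 : ∀ j, QA.tr (c j * S3 s.k * comb s.k (fun b => s.D (v' b)) j) =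
        -(al s.k * be s.k * QA.tr (c j * s.D (v' 3) j)) := by
      intro j
      have h := tr_mul_comb_comb s.k ![0, 0, 0, c j] (fun b => s.D (v' b) j)
        (by intro i; fin_cases i <;> simp [hz, hcl j]) (fun b => hlev _ (hv' b) j)
      simpa [comb] using h
    simp only [h1, Finset.sum_neg_distrib, ← Finset.mul_sum, hpair, mul_zero, neg_zero]

/-- the resulting dimensions -/
theorem finrank_W_curve (hg : s.Good) (hT : s.IsCurve T) (ho : (s.curve T).o = s.o) :
    Module.finrank K⸨X⸩ (s.curve T).W = Module.finrank K s.W := by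
  have := finite_V0 s hg
  have h' := good_curve s T hg hT ho
  have e1 := finrank_V0 (s.curve T) h'.Xlev (V0_lev _ h')
  have e2 := finrank_V0 s hg.Xlev (V0_lev s hg)
  have e0 : Module.finrank K⸨X⸩ (s.curve T).V0 = Module.finrank K s.V0 := finrank_extV s.V0
  have a1 := finrank_AJ (K := K⸨X⸩) (J := J) (s.curve T).k
  have a2 := finrank_AJ (K := K) (J := J) s.k
  have hk : (s.curve T).k = s.k := rfl
  rw [hk] at a1 e1
  omega

theorem finrank_W_grow (hg : s.Good) (ha : s.Alt) (w1 w2 : I → QA K)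
    (hT : s.IsGrowth T w1 w2) (ho : (s.grow T).o = s.o) :
    Module.finrank K⸨X⸩ (s.grow T).W = Module.finrank K (KerThS s w1 w2) := by
  have := finite_V0 s hg
  have := finite_mulE s.k s.V0
  have h' := good_grow s T hg ha w1 w2 hT ho
  have e1 := finrank_V0 (s.grow T) h'.Xlev (V0_lev _ h')
  have e2 := finrank_V0 s hg.Xlev (V0_lev s hg)
  have e0 : Module.finrank K⸨X⸩ (s.grow T).V0 = Module.finrank K (mulE s.k s.V0) :=
    finrank_extV _
  have e3 := finrank_mulE s.k s.V0 (V0_lev s hg)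
  have e4 := finrank_KerThS s hg ha w1 w2 hT.w1W hT.w2W hT.inj
  have a1 := finrank_AJ (K := K⸨X⸩) (J := J) (s.grow T).k
  have a2 := finrank_AJ (K := K) (J := J) s.k
  have hk : (s.grow T).k = s.k + 1 := rfl
  rw [hk, pow_succ] at a1
  rw [hk] at e1
  rw [← mul_assoc] at a1
  omega

/-- **Lemma 1, curves**: `res W(s') = W(s)` -/
theorem resW_curve (hg : s.Good) (hT : s.IsCurve T) (ho : (s.curve T).o = s.o) :
    (Place.laurent K).resI (s.curve T).W = s.W := by
  have := finite_W s hg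
  have := finite_W _ (good_curve s T hg hT ho)
  refine Submodule.eq_of_le_of_finrank_eq (resW_curve_le s T hg hT) ?_
  rw [finrank_resI_laurent, finrank_W_curve s T hg hT ho]

/-- **Lemma 1, growth**: `res W(s') = ker Theta` -/
theorem resW_grow (hg : s.Good) (ha : s.Alt) (w1 w2 : I → QA K)
    (hT : s.IsGrowth T w1 w2) (ho : (s.grow T).o = s.o) :
    (Place.laurent K).resI (s.grow T).W = KerThS s w1 w2 := by
  have := finite_W s hg
  have := finite_mulE s.k s.W
  have := finite_W _ (good_grow s T hg ha w1 w2 hT ho)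
  have : FiniteDimensional K (KerThS s w1 w2) :=
    Submodule.finiteDimensional_of_le (fun η hη => hη.1 : KerThS s w1 w2 ≤ mulE s.k s.W)
  refine Submodule.eq_of_le_of_finrank_eq (resW_grow_le s T hg w1 w2 hT) ?_
  rw [finrank_resI_laurent, finrank_W_grow s T hg ha w1 w2 hT ho]

end Crest.Agent.KP.KC
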