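import Crest.Agent.KPC_Gen
import Crest.Agent.KPC_Step

/-! # S0270, part (C): Lemma 6 (RICH persists) (author helper6)

All lemmas are in the namespace `Crest.Agent.KP.KC`. -/

set_option autoImplicit false
set_option linter.unusedSectionVars false

open scoped PowerSeries LaurentSeries symmDiff

namespace Crest.Agent.KP.KC

open Crest.Agent.KP.NC

variable {K I J : Type} [Field K] [KF K] [Fintype I] [Fintype J]

/-! ### `TInj` for a fixed basis -/

/-- `TInj` on the span of a linearly independent family.  (→) is the definition (with `n = t`).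
(←): given `ω'_i = ∑_l a_il ω_l` linearly independent, `∑_i B(c'_i)(ω'_i) v =
∑_l B(∑_i a_il c'_i)(ω_l) v`, so `∑_i a_il c'_i = 0` for all `l`; the rows `a_i` are linearly
independent, so `c' = 0` (or use `TI_iff_basis`-style argument). -/
theorem TInj_iff_family (s : Pt K I J) (Wt : Submodule K (I → QA K)) {t : ℕ}
    (ω : Fin t → (I → QA K)) (hω : LinearIndependent K ω) :
    s.TInj (Submodule.span K (Set.range ω)) Wt ↔
      ∀ c : Fin t → (J → QA K), (∀ i, c i ∈ s.U) →
        (∀ v ∈ Wt, ∑ i, s.B (c i) (ω i) v = 0) → ∀ i, c i = 0 := by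
  constructor
  · intro h c hc hs
    exact h t ω c (fun i => Submodule.subset_span ⟨i, rfl⟩) hω hc hs
  · intro h n ω' c hω' hl hc hs i
    choose a ha using fun i => (Submodule.mem_span_range_iff_exists_fun K).1 (hω' i)
    have hd : ∀ l, ∑ i, a i l • c i = 0 := by
      apply h (fun l => ∑ i, a i l • c i)
      · intro l
        exact Submodule.sum_mem _ fun i _ => Submodule.smul_mem _ _ (hc i)
      · intro v hv
        rw [← hs v hv]
        have h1 : ∀ l, s.B (∑ i, a i l • c i) (ω l) v = ∑ i, a i l * s.B (c i) (ω l) v := by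
          intro l
          rw [← Bl_apply, map_sum, LinearMap.sum_apply, LinearMap.sum_apply]
          refine Finset.sum_congr rfl fun i _ => ?_
          rw [map_smul, LinearMap.smul_apply, LinearMap.smul_apply, Bl_apply, smul_eq_mul]
        have h2 : ∀ i, s.B (c i) (ω' i) v = ∑ l, a i l * s.B (c i) (ω l) v := by
          intro i
          rw [← ha i, ← Bl_apply, map_sum, LinearMap.sum_apply]
          refine Finset.sum_congr rfl fun l _ => ?_
          rw [map_smul, LinearMap.smul_apply, Bl_apply, smul_eq_mul]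
        simp only [h1, h2]
        exact Finset.sum_comm
    have hy : ∀ (j : J) (g : Gp) (i : Fin n), (c i j) g = 0 := by
      intro j g
      apply Fintype.linearIndependent_iff.1 hl (fun i => (c i j) g)
      have h3 : ∀ l, ∑ i, (c i j) g * a i l = 0 := by
        intro l
        have h4 : (∑ i, a i l • c i) j g = 0 := by rw [hd l]; rfl
        let φ : (J → QA K) →+ K :=
          { toFun := fun u => u j g
            map_zero' := rfl
            map_add' := fun _ _ => rfl }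
        have h5 : φ (∑ i, a i l • c i) = ∑ i, φ (a i l • c i) := map_sum φ _ _
        have h6 : ∀ i, φ (a i l • c i) = (c i j) g * a i l := fun i => mul_comm _ _
        simp only [h6] at h5
        rw [← h5]
        exact h4
      calc ∑ i, (c i j) g • ω' i = ∑ i, ∑ l, ((c i j) g * a i l) • ω l := by
            refine Finset.sum_congr rfl fun i _ => ?_
            rw [← ha i, Finset.smul_sum]
            exact Finset.sum_congr rfl fun l _ => smul_smul _ _ _
        _ = ∑ l, (∑ i, (c i j) g * a i l) • ω l := by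
            rw [Finset.sum_comm]
            exact Finset.sum_congr rfl fun l _ => (Finset.sum_smul).symm
        _ = 0 := Finset.sum_eq_zero fun l _ => by rw [h3 l, zero_smul]
    funext j
    exact QA.q_ext fun g => hy j g i

/-! ### `Ω ↦ Ω E` -/

/-- `B_c` on `comb`s (`tr_d2_comb`) -/
theorem B_comb (s : Pt K I J) (hX : ∀ i, s.X i ∈ lev K s.k) (c : J → QA K)
    (hc : ∀ j, c j ∈ lev K s.k) (v w : Fin 4 → (I → QA K)) (hv : ∀ b i, v b i ∈ lev K s.k)
    (hw : ∀ b i, w b i ∈ lev K s.k) :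
    s.B c (comb s.k v) (comb s.k w) = s.B c (v 0) (w 0) + al s.k * s.B c (v 1) (w 1) +
      be s.k * s.B c (v 2) (w 2) - al s.k * be s.k * s.B c (v 3) (w 3) := by
  simp only [Pt.B]
  rw [Finset.mul_sum, Finset.mul_sum, Finset.mul_sum, ← Finset.sum_add_distrib,
    ← Finset.sum_add_distrib, ← Finset.sum_sub_distrib]
  exact Finset.sum_congr rfl fun j _ => tr_d2_comb s.k s.X hX (c j) (hc j) v w hv hw (s.F j)

/-- if `Ω ⊗ U → W^*` is injective then `ΩE ⊗ U → (WE)^*` is injective.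
Proof: via `TI_iff_basis` (basis `u_j` of `U`): a tensor is `∑_j η_j ⊗ u_j`, `η_j = comb v_j`,
`v_j b ∈ Ω`; testing against `comb` of a vector concentrated in component `b` gives
`∑_j B_{u_j}(v_j b, w) = 0` for all `w ∈ W`, so `v_j b = 0`. -/
theorem TInj_mulE (s : Pt K I J) (hg : s.Good) (Ω : Submodule K (I → QA K)) (hΩ : Ω ≤ s.W)
    (h : s.TInj Ω s.W) : s.TInj (mulE s.k Ω) (mulE s.k s.W) := by
  classical
  rw [TInj_iff] at h ⊢
  rw [TI_iff_basis (Module.finBasis K s.U)] at h ⊢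
  intro ω hω hs
  choose v hv hv' using fun j => (mem_mulE s.k Ω (ω j)).1 (hω j)
  have hX := hg.Xlev
  have hvl : ∀ j b i, v j b i ∈ lev K s.k := fun j b i => W_lev s hg _ (hΩ (hv j b)) i
  have key : ∀ (w : Fin 4 → (I → QA K)), (∀ b, w b ∈ s.W) →
      ∑ j, s.B (Module.finBasis K s.U j : J → QA K) (ω j) (comb s.k w) = 0 := by
    intro w hw
    have h1 := LinearMap.congr_fun hs (⟨comb s.k w, (mem_mulE s.k s.W _).2 ⟨w, hw, rfl⟩⟩ :
      (mulE s.k s.W : Submodule K (I → QA K)))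
    rw [LinearMap.sum_apply] at h1
    exact h1
  have key2 : ∀ (w : Fin 4 → (I → QA K)), (∀ b, w b ∈ s.W) →
      ∑ j, (s.B (Module.finBasis K s.U j : J → QA K) (v j 0) (w 0) +
        al s.k * s.B (Module.finBasis K s.U j : J → QA K) (v j 1) (w 1) +
        be s.k * s.B (Module.finBasis K s.U j : J → QA K) (v j 2) (w 2) -
        al s.k * be s.k * s.B (Module.finBasis K s.U j : J → QA K) (v j 3) (w 3)) = 0 := by
    intro w hw
    rw [← key w hw]
    refine Finset.sum_congr rfl fun j _ => ?_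
    rw [hv' j, B_comb s hX _ (fun j' => U_lev s _ (Module.finBasis K s.U j).2 j') (v j) w (hvl j)
      (fun b i => W_lev s hg _ (hw b) i)]
  have hal : (al s.k : K) ≠ 0 := KF.al_ne s.k
  have hbe : (be s.k : K) ≠ 0 := KF.be_ne s.k
  have hB0 : ∀ (c : J → QA K) (u : I → QA K), s.B c u 0 = 0 := by
    intro c u
    rw [← Bl_apply, map_zero]
  have fin : ∀ b, (∀ w ∈ s.W, ∑ j, s.B (Module.finBasis K s.U j : J → QA K) (v j b) w = 0) →
      ∀ j, v j b = 0 := by
    intro b hb
    apply h (fun j => v j b) (fun j => hv j b)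
    ext w
    rw [LinearMap.sum_apply]
    exact hb w w.2
  have z : ∀ b j, v j b = 0 := by
    intro b
    apply fin b
    intro w hw
    have hw' : ∀ b', (Pi.single b w : Fin 4 → (I → QA K)) b' ∈ s.W := by
      intro b'
      by_cases hb : b' = b
      · subst hb
        rw [Pi.single_eq_same]
        exact hw
      · rw [Pi.single_eq_of_ne hb]
        exact s.W.zero_mem
    have h2 := key2 (Pi.single b w) hw'
    fin_cases b
    · have e0 : (Pi.single (0 : Fin 4) w : Fin 4 → (I → QA K)) 0 = w := Pi.single_eq_same _ _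
      have e1 : (Pi.single (0 : Fin 4) w : Fin 4 → (I → QA K)) 1 = 0 :=
        Pi.single_eq_of_ne (by decide) _
      have e2 : (Pi.single (0 : Fin 4) w : Fin 4 → (I → QA K)) 2 = 0 :=
        Pi.single_eq_of_ne (by decide) _
      have e3 : (Pi.single (0 : Fin 4) w : Fin 4 → (I → QA K)) 3 = 0 :=
        Pi.single_eq_of_ne (by decide) _
      simp only [Fin.zero_eta] at h2
      rw [e0, e1, e2, e3] at h2
      simp only [hB0, mul_zero, add_zero, sub_zero] at h2
      exact h2
    · have e0 : (Pi.single (1 : Fin 4) w : Fin 4 → (I → QA K)) 0 = 0 :=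
        Pi.single_eq_of_ne (by decide) _
      have e1 : (Pi.single (1 : Fin 4) w : Fin 4 → (I → QA K)) 1 = w := Pi.single_eq_same _ _
      have e2 : (Pi.single (1 : Fin 4) w : Fin 4 → (I → QA K)) 2 = 0 :=
        Pi.single_eq_of_ne (by decide) _
      have e3 : (Pi.single (1 : Fin 4) w : Fin 4 → (I → QA K)) 3 = 0 :=
        Pi.single_eq_of_ne (by decide) _
      simp only [Fin.mk_one] at h2
      rw [e0, e1, e2, e3] at h2
      simp only [hB0, mul_zero, add_zero, sub_zero, zero_add, ← Finset.mul_sum] at h2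
      exact (mul_eq_zero.1 h2).resolve_left hal
    · have e0 : (Pi.single (2 : Fin 4) w : Fin 4 → (I → QA K)) 0 = 0 :=
        Pi.single_eq_of_ne (by decide) _
      have e1 : (Pi.single (2 : Fin 4) w : Fin 4 → (I → QA K)) 1 = 0 :=
        Pi.single_eq_of_ne (by decide) _
      have e2 : (Pi.single (2 : Fin 4) w : Fin 4 → (I → QA K)) 2 = w := Pi.single_eq_same _ _
      have e3 : (Pi.single (2 : Fin 4) w : Fin 4 → (I → QA K)) 3 = 0 :=
        Pi.single_eq_of_ne (by decide) _
      simp only [Fin.reduceFinMk] at h2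
      rw [e0, e1, e2, e3] at h2
      simp only [hB0, mul_zero, add_zero, sub_zero, zero_add, ← Finset.mul_sum] at h2
      exact (mul_eq_zero.1 h2).resolve_left hbe
    · have e0 : (Pi.single (3 : Fin 4) w : Fin 4 → (I → QA K)) 0 = 0 :=
        Pi.single_eq_of_ne (by decide) _
      have e1 : (Pi.single (3 : Fin 4) w : Fin 4 → (I → QA K)) 1 = 0 :=
        Pi.single_eq_of_ne (by decide) _
      have e2 : (Pi.single (3 : Fin 4) w : Fin 4 → (I → QA K)) 2 = 0 :=
        Pi.single_eq_of_ne (by decide) _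
      have e3 : (Pi.single (3 : Fin 4) w : Fin 4 → (I → QA K)) 3 = w := Pi.single_eq_same _ _
      simp only [Fin.reduceFinMk] at h2
      rw [e0, e1, e2, e3] at h2
      simp only [hB0, mul_zero, add_zero, zero_sub, zero_add, Finset.sum_neg_distrib,
        ← Finset.mul_sum, neg_eq_zero] at h2
      exact (mul_eq_zero.1 h2).resolve_left (mul_ne_zero hal hbe)
  intro j
  rw [hv' j]
  funext i
  simp [comb, z]

/-! ### inner directions after a growth step -/

/-- inner directions at the first order after a growth step: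
`v = [X,η] + [w1 S1 + w2 S2, ξ]` on `{x,y}`, `η ∈ lev (k+1)`, `ξ ∈ span(S1,S2,S3)` -/
noncomputable def InnE (s : Pt K I J) (w1 w2 : I → QA K) : Submodule K (I → QA K) where
  carrier := {v | ∃ η ∈ lev K (s.k + 1), ∃ a b c : K, ∀ i, i = s.x ∨ i = s.y →
    v i = (s.X i * η - η * s.X i) +
      ((w1 i * S1 s.k + w2 i * S2 s.k) * (a • S1 s.k + b • S2 s.k + c • S3 s.k) -
        (a • S1 s.k + b • S2 s.k + c • S3 s.k) * (w1 i * S1 s.k + w2 i * S2 s.k))}
  add_mem' := by
    rintro v v' ⟨η, hη, a, b, c, h⟩ ⟨η', hη', a', b', c', h'⟩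
    refine ⟨η + η', (lev K (s.k + 1)).add_mem hη hη', a + a', b + b', c + c', fun i hi => ?_⟩
    rw [Pi.add_apply, h i hi, h' i hi]
    simp only [add_smul, mul_add, add_mul]
    abel
  zero_mem' := ⟨0, (lev K (s.k + 1)).zero_mem, 0, 0, 0, fun i _ => by simp⟩
  smul_mem' := by
    rintro r v ⟨η, hη, a, b, c, h⟩
    refine ⟨r • η, (lev K (s.k + 1)).smul_mem hη r, r * a, r * b, r * c, fun i hi => ?_⟩
    rw [Pi.smul_apply, h i hi]
    simp only [mul_smul, smul_add, smul_sub, mul_add, add_mul, mul_smul_comm, smul_mul_assoc]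

/-- inner directions with respect to `lev (k+1)` -/
private noncomputable def kpc_r2_inn (s : Pt K I J) : Submodule K (I → QA K) where
  carrier := {v | ∃ η ∈ lev K (s.k + 1), ∀ i, i = s.x ∨ i = s.y →
    v i = s.X i * η - η * s.X i}
  add_mem' := by
    rintro v v' ⟨η, hη, h⟩ ⟨η', hη', h'⟩
    refine ⟨η + η', (lev K (s.k + 1)).add_mem hη hη', fun i hi => ?_⟩
    rw [Pi.add_apply, h i hi, h' i hi, mul_add, add_mul]
    abel
  zero_mem' := ⟨0, (lev K (s.k + 1)).zero_mem, fun i _ => by simp⟩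
  smul_mem' := by
    rintro r v ⟨η, hη, h⟩
    refine ⟨r • η, (lev K (s.k + 1)).smul_mem hη r, fun i hi => ?_⟩
    rw [Pi.smul_apply, h i hi, smul_sub, mul_smul_comm, smul_mul_assoc]

private theorem kpc_r2_zero (s : Pt K I J) (hg : s.Good)
    (Ω : Submodule K (I → QA K)) (hΩ : Ω ≤ s.W) (hinn : ∀ v ∈ Ω, s.InnXY v → v = 0)
    (v : I → QA K) (hv : v ∈ mulE s.k Ω) (hi : v ∈ kpc_r2_inn s) : v = 0 := by
  obtain ⟨v', hv', rfl⟩ := (mem_mulE s.k Ω v).1 hv
  obtain ⟨η, hη, hη'⟩ := hi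
  obtain ⟨a, ha, rfl⟩ := exists_decomp s.k η hη
  have key : ∀ i, i = s.x ∨ i = s.y → ∀ b, v' b i = s.X i * a b - a b * s.X i := by
    intro i hi b
    have h1 := hη' i hi
    have hX := hg.Xlev i
    have h2 := decomp_unique s.k (fun b => v' b i - (s.X i * a b - a b * s.X i)) (fun b =>
      (lev K s.k).sub_mem (W_lev s hg (v' b) (hΩ (hv' b)) i)
        ((lev K s.k).sub_mem ((lev K s.k).mul_mem hX (ha b)) ((lev K s.k).mul_mem (ha b) hX))) ?_ b
    · exact sub_eq_zero.1 h2
    · have e : comb s.k v' i = v' 0 i + v' 1 i * S1 s.k + v' 2 i * S2 s.k + v' 3 i * S3 s.k := rfl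
      rw [e] at h1
      have c1 := comm_S1 s.k (s.X i) hX
      have c2 := comm_S2 s.k (s.X i) hX
      have c3 := comm_S3 s.k (s.X i) hX
      have h3 : (a 0 + a 1 * S1 s.k + a 2 * S2 s.k + a 3 * S3 s.k) * s.X i =
          a 0 * s.X i + a 1 * s.X i * S1 s.k + a 2 * s.X i * S2 s.k + a 3 * s.X i * S3 s.k := by
        rw [add_mul, add_mul, add_mul, mul_assoc (a 1), ← c1, mul_assoc (a 2), ← c2,
          mul_assoc (a 3), ← c3, ← mul_assoc, ← mul_assoc, ← mul_assoc]
      rw [h3] at h1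
      have h4 : s.X i * (a 0 + a 1 * S1 s.k + a 2 * S2 s.k + a 3 * S3 s.k) =
          s.X i * a 0 + s.X i * a 1 * S1 s.k + s.X i * a 2 * S2 s.k + s.X i * a 3 * S3 s.k := by
        rw [mul_add, mul_add, mul_add, ← mul_assoc, ← mul_assoc, ← mul_assoc]
      rw [h4] at h1
      simp only [sub_mul]
      rw [← sub_eq_zero] at h1
      rw [← h1]
      abel
  have hz : ∀ b, v' b = 0 := fun b => hinn (v' b) (hv' b)
    ⟨a b, ha b, key s.x (Or.inl rfl) b, key s.y (Or.inr rfl) b⟩
  rw [comb_zero_iff s.k v' fun b i => W_lev s hg (v' b) (hΩ (hv' b)) i]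
  exact hz

/-- `[w1 S1 + w2 S2, a S1 + b S2 + c S3]` as a linear map of `(a,b,c)` -/
private noncomputable def kpc_r2_map (s : Pt K I J) (w1 w2 : I → QA K) :
    (Fin 3 → K) →ₗ[K] (I → QA K) where
  toFun t := fun i =>
    (w1 i * S1 s.k + w2 i * S2 s.k) * (t 0 • S1 s.k + t 1 • S2 s.k + t 2 • S3 s.k) -
      (t 0 • S1 s.k + t 1 • S2 s.k + t 2 • S3 s.k) * (w1 i * S1 s.k + w2 i * S2 s.k)
  map_add' t t' := by
    funext i
    simp only [Pi.add_apply, add_smul, mul_add, add_mul]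
    abel
  map_smul' r t := by
    funext i
    simp only [Pi.smul_apply, smul_eq_mul, mul_smul, smul_add, smul_sub, mul_add, add_mul,
      mul_smul_comm, smul_mul_assoc, RingHom.id_apply]

/-- `mulE Ω` meets `InnE` in dimension at most 3 if `Ω` has no inner elements.
Proof: the space of triples `{(v,(a,b,c))}` with `v ∈ mulE Ω` and `v - [w, a S1+b S2+c S3]` inner
(w.r.t. `lev (k+1)`) projects injectively to `(a,b,c) ∈ K^3`: if `a=b=c=0`, `v = comb v'`,
`v = [X,comb η']`, so each `v' b ∈ Ω` is inner, hence `0`.  It projects onto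
`mulE Ω ⊓ InnE`. -/
theorem finrank_inf_InnE (s : Pt K I J) (hg : s.Good) (w1 w2 : I → QA K)
    (Ω : Submodule K (I → QA K)) (hΩ : Ω ≤ s.W) (hinn : ∀ v ∈ Ω, s.InnXY v → v = 0) :
    Module.finrank K (mulE s.k Ω ⊓ InnE s w1 w2 : Submodule K (I → QA K)) ≤ 3 := by
  set M : Submodule K (I → QA K) := mulE s.k Ω ⊓ InnE s w1 w2 with hM
  let L : (Fin 3 → K) →ₗ[K] ((I → QA K) ⧸ kpc_r2_inn s) :=
    (kpc_r2_inn s).mkQ.comp (kpc_r2_map s w1 w2)
  let f : M →ₗ[K] ((I → QA K) ⧸ kpc_r2_inn s) := (kpc_r2_inn s).mkQ.comp M.subtype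
  have hf : ∀ v : M, f v ∈ LinearMap.range L := by
    rintro ⟨v, hv1, hv2⟩
    obtain ⟨η, hη, a, b, c, h⟩ := hv2
    refine ⟨![a, b, c], ?_⟩
    show Submodule.Quotient.mk _ = Submodule.Quotient.mk v
    rw [eq_comm, Submodule.Quotient.eq]
    refine ⟨η, hη, fun i hi => ?_⟩
    rw [Pi.sub_apply, h i hi]
    simp [kpc_r2_map]
  have hinj : Function.Injective f := by
    rw [injective_iff_map_eq_zero]
    rintro ⟨v, hv1, hv2⟩ h
    have h1 : v ∈ kpc_r2_inn s := (Submodule.Quotient.mk_eq_zero _).1 h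
    exact Subtype.ext (kpc_r2_zero s hg Ω hΩ hinn v hv1 h1)
  have h1 := LinearMap.finrank_le_finrank_of_injective
    (f := f.codRestrict (LinearMap.range L) hf) fun x y hxy => hinj (congrArg Subtype.val hxy)
  have h2 := LinearMap.finrank_range_le L
  rw [Module.finrank_fin_fun] at h2
  exact h1.trans h2

/-- a complement: `Ω2 ≤ mulE Ω` contains a subspace of codimension `≤ 3` meeting `InnE` in `0` -/
theorem exists_compl_InnE (s : Pt K I J) (hg : s.Good) (w1 w2 : I → QA K)
    (Ω : Submodule K (I → QA K)) (hΩ : Ω ≤ s.W) (hinn : ∀ v ∈ Ω, s.InnXY v → v = 0)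
    (Ω2 : Submodule K (I → QA K)) (h2 : Ω2 ≤ mulE s.k Ω) :
    ∃ Ω3 ≤ Ω2, Module.finrank K Ω2 ≤ Module.finrank K Ω3 + 3 ∧
      ∀ v ∈ Ω3, v ∈ InnE s w1 w2 → v = 0 := by
  have hW := finite_W s hg
  have hΩf : FiniteDimensional K Ω := Submodule.finiteDimensional_of_le hΩ
  have hEf : FiniteDimensional K (mulE s.k Ω) := finite_mulE s.k Ω
  have h2f : FiniteDimensional K Ω2 := Submodule.finiteDimensional_of_le h2
  obtain ⟨C, hC⟩ := Submodule.exists_isCompl (Ω2 ⊓ InnE s w1 w2)
  have hQf : FiniteDimensional K (Ω2 ⊓ InnE s w1 w2 : Submodule K (I → QA K)) :=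
    Submodule.finiteDimensional_of_le inf_le_left
  have h3f : FiniteDimensional K (Ω2 ⊓ C : Submodule K (I → QA K)) :=
    Submodule.finiteDimensional_of_le inf_le_left
  refine ⟨Ω2 ⊓ C, inf_le_left, ?_, fun v hv hi => ?_⟩
  · have h3 := Submodule.finrank_sup_add_finrank_inf_eq (Ω2 ⊓ InnE s w1 w2) (Ω2 ⊓ C)
    have h4 : (Ω2 ⊓ InnE s w1 w2) ⊔ (Ω2 ⊓ C) = Ω2 := by
      rw [inf_comm Ω2 C, ← sup_inf_assoc_of_le C (inf_le_left : Ω2 ⊓ InnE s w1 w2 ≤ Ω2),
        hC.sup_eq_top, top_inf_eq]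
    have h5 : Module.finrank K (Ω2 ⊓ InnE s w1 w2 : Submodule K (I → QA K)) ≤ 3 := by
      have : FiniteDimensional K (mulE s.k Ω ⊓ InnE s w1 w2 : Submodule K (I → QA K)) :=
        Submodule.finiteDimensional_of_le inf_le_left
      exact (Submodule.finrank_mono (inf_le_inf_right _ h2)).trans
        (finrank_inf_InnE s hg w1 w2 Ω hΩ hinn)
    rw [h4] at h3
    omega
  · have h6 : v ∈ (Ω2 ⊓ InnE s w1 w2) ⊓ C := ⟨⟨hv.1, hi⟩, hv.2⟩
    rw [hC.inf_eq_bot] at h6
    exact (Submodule.mem_bot K).1 h6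

/-- a vector over `K⸨X⸩` is integral, or becomes integral with nonzero residue after multiplication
by `z^m` for some `m ≥ 1` -/
theorem int_or_pole {ι : Type} [Finite ι] (v : ι → QA K⸨X⸩) :
    (∃ u : ι → QA K⟦X⟧, ∀ i, v i = toL K (u i)) ∨
      ∃ (m : ℕ) (u : ι → QA K⟦X⟧), 1 ≤ m ∧
        (∀ i, algebraMap K⟦X⟧ (QA K⸨X⸩) (PowerSeries.X ^ m) * v i = toL K (u i)) ∧
        ∃ i, cf 0 (u i) ≠ 0 := by
  classical
  have := Fintype.ofFinite ι
  let P : ℕ → Prop := fun m => ∀ i, ∃ u : QA K⟦X⟧,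
    algebraMap K⟦X⟧ (QA K⸨X⸩) (PowerSeries.X ^ m) * v i = toL K u
  have hex : ∃ m, P m := by
    let S : Finset K⸨X⸩ := Finset.univ.biUnion fun i => (Finsupp.support (v i : Gp →₀ K⸨X⸩)).image
      fun g => v i g
    obtain ⟨b, hb⟩ := IsLocalization.exist_integer_multiples_of_finset
      (Submonoid.powers (PowerSeries.X : K⟦X⟧)) S
    obtain ⟨m, hm⟩ := b.2
    refine ⟨m, fun i => ?_⟩
    obtain ⟨u, hu⟩ := (kpr_int_iff ((b : K⟦X⟧) • v i)).1 (by
      intro g
      rw [kpr_smul_apply]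
      by_cases hg : v i g = 0
      · rw [hg, smul_zero]; exact zero_mem _
      · obtain ⟨f, hf⟩ := hb (v i g) (Finset.mem_biUnion.2 ⟨i, Finset.mem_univ _,
          Finset.mem_image.2 ⟨g, Finsupp.mem_support_iff.2 hg, rfl⟩⟩)
        exact (kpr_laurent_mem_iff _).2 ⟨f, hf⟩)
    refine ⟨u, ?_⟩
    rw [← Algebra.smul_def]
    rw [show (PowerSeries.X ^ m : K⟦X⟧) = (b : K⟦X⟧) from hm, hu]
  obtain ⟨hm1, hm2⟩ : P (Nat.find hex) ∧ ∀ m < Nat.find hex, ¬ P m :=
    ⟨Nat.find_spec hex, fun m hm => Nat.find_min hex hm⟩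
  generalize Nat.find hex = m at hm1 hm2
  choose u hu using hm1
  rcases Nat.eq_zero_or_pos m with rfl | hpos
  · left
    exact ⟨u, fun i => by rw [← hu i, pow_zero, map_one, one_mul]⟩
  · right
    refine ⟨m, u, hpos, hu, ?_⟩
    by_contra hcon
    push Not at hcon
    refine hm2 (m - 1) (by omega) fun i => ?_
    obtain ⟨w, hw, -⟩ := kpr_div_X (u i) (hcon i)
    refine ⟨w, ?_⟩
    have h1 := hu i
    rw [hw, map_smul, Algebra.smul_def] at h1
    have h2 : (PowerSeries.X ^ m : K⟦X⟧) = PowerSeries.X * PowerSeries.X ^ (m - 1) := by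
      rw [← pow_succ']
      congr 1
      omega
    rw [h2, map_mul, mul_assoc] at h1
    have h3 : algebraMap K⟦X⟧ (QA K⸨X⸩) PowerSeries.X ≠ 0 := by
      intro h4
      have h5 := congrArg (fun a : QA K⸨X⸩ => a (∅, ∅)) h4
      have h6 : (algebraMap K⟦X⟧ (QA K⸨X⸩) PowerSeries.X : QA K⸨X⸩) (∅, ∅) = zL K := by
        rw [Algebra.algebraMap_eq_smul_one, kpr_smul_apply, Algebra.smul_def]
        have h7 : (1 : QA K⸨X⸩) (∅, ∅) = 1 := Finsupp.single_eq_same
        rw [h7, mul_one]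
        rfl
      simp only [h6] at h5
      exact kpr_zL_ne h5
    exact mul_left_cancel₀ h3 h1

/-- an element of `lev (k+1)` commuting with `X_x, X_y` is in `E_k = span(1,S1,S2,S3)` -/
theorem comm_comb (s : Pt K I J) (hg : s.Good) (η : QA K) (hη : η ∈ lev K (s.k + 1))
    (hc : ∀ i, i = s.x ∨ i = s.y → s.X i * η = η * s.X i) :
    ∃ h : Fin 4 → K, η = algebraMap K (QA K) (h 0) + h 1 • S1 s.k + h 2 • S2 s.k +
      h 3 • S3 s.k := by
  obtain ⟨a, ha, rfl⟩ := exists_decomp s.k η hη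
  have key : ∀ i, i = s.x ∨ i = s.y → ∀ b, a b * s.X i = s.X i * a b := by
    intro i hi b
    have hX := hg.Xlev i
    have h1 := hc i hi
    have h2 : ∀ b, (s.X i * a b - a b * s.X i) ∈ lev K s.k := fun b =>
      sub_mem ((lev K s.k).mul_mem hX (ha b)) ((lev K s.k).mul_mem (ha b) hX)
    have h3 : (s.X i * a 0 - a 0 * s.X i) + (s.X i * a 1 - a 1 * s.X i) * S1 s.k +
        (s.X i * a 2 - a 2 * s.X i) * S2 s.k + (s.X i * a 3 - a 3 * s.X i) * S3 s.k = 0 := by
      have e1 := comm_S1 s.k _ hX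
      have e2 := comm_S2 s.k _ hX
      have e3 := comm_S3 s.k _ hX
      have h4 : (s.X i * a 0 - a 0 * s.X i) + (s.X i * a 1 - a 1 * s.X i) * S1 s.k +
        (s.X i * a 2 - a 2 * s.X i) * S2 s.k + (s.X i * a 3 - a 3 * s.X i) * S3 s.k =
        s.X i * (a 0 + a 1 * S1 s.k + a 2 * S2 s.k + a 3 * S3 s.k) -
        (a 0 + a 1 * S1 s.k + a 2 * S2 s.k + a 3 * S3 s.k) * s.X i := by
        simp only [sub_mul, mul_add, add_mul]
        rw [mul_assoc (a 1) (S1 s.k), ← e1, mul_assoc (a 2) (S2 s.k), ← e2,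
          mul_assoc (a 3) (S3 s.k), ← e3]
        simp only [mul_assoc]
        abel
      rw [h4, h1, sub_self]
    have h5 := decomp_unique s.k (fun b => s.X i * a b - a b * s.X i) h2 h3 b
    exact (sub_eq_zero.1 h5).symm
  choose h hh using fun b => hg.g3 (a b) (ha b) (key s.x (Or.inl rfl) b) (key s.y (Or.inr rfl) b)
  refine ⟨h, ?_⟩
  rw [hh 0, hh 1, hh 2, hh 3, ← Algebra.smul_def, ← Algebra.smul_def, ← Algebra.smul_def]

private theorem kpc_scale_comm (m : ℕ) (t e : QA K⟦X⟧) (η : QA K⸨X⸩) (w : QA K⟦X⟧)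
    (he : algebraMap K⟦X⟧ (QA K⸨X⸩) (PowerSeries.X ^ m) * η = toL K e)
    (h1 : toL K w = toL K t * η - η * toL K t) :
    (PowerSeries.X ^ m : K⟦X⟧) • w = t * e - e * t := by
  apply toL_inj
  rw [map_smul, Algebra.smul_def, h1, map_sub, map_mul, map_mul, ← he]
  have hz : ∀ x : QA K⸨X⸩, algebraMap K⟦X⟧ (QA K⸨X⸩) (PowerSeries.X ^ m) * x =
      x * algebraMap K⟦X⟧ (QA K⸨X⸩) (PowerSeries.X ^ m) := fun x => Algebra.commutes _ x
  generalize algebraMap K⟦X⟧ (QA K⸨X⸩) (PowerSeries.X ^ m) = z at hz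
  rw [mul_sub, ← mul_assoc, hz (toL K t), mul_assoc, mul_assoc]

private theorem kpc_scale_tr (m : ℕ) (e : QA K⟦X⟧) (η : QA K⸨X⸩)
    (he : algebraMap K⟦X⟧ (QA K⸨X⸩) (PowerSeries.X ^ m) * η = toL K e)
    (htr : QA.tr η = 0) : QA.tr e = 0 := by
  have h4 : algebraMap K⟦X⟧ K⸨X⸩ (QA.tr e) = 0 := by
    rw [← tr_toL, ← he, ← Algebra.smul_def]
    have h5 : QA.tr ((PowerSeries.X ^ m : K⟦X⟧) • η) = (PowerSeries.X ^ m : K⟦X⟧) • QA.tr η :=
      rfl
    rw [h5, htr, smul_zero]
  exact kpr_algMap_inj (by rw [h4, map_zero])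

/-- normal form of the commutator relation after removing the trace -/
private theorem kpc_inn_norm {L : Type} [Field L] [KF L] {I : Type} (k : ℕ) (X : I → QA L)
    (v : I → QA L) (x y : I)
    (h : ∃ η ∈ lev L k, v x = X x * η - η * X x ∧ v y = X y * η - η * X y) :
    ∃ η ∈ lev L k, QA.tr η = 0 ∧ ∀ i, i = x ∨ i = y → v i = X i * η - η * X i := by
  obtain ⟨η, hη, h1, h2⟩ := h
  refine ⟨η - algebraMap L (QA L) (QA.tr η), sub_mem hη ((lev L k).algebraMap_mem _), ?_, ?_⟩
  · rw [map_sub, tr_algebraMap, sub_self]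
  · intro i hi
    have h3 : v i = X i * η - η * X i := by
      rcases hi with rfl | rfl
      · exact h1
      · exact h2
    rw [h3, mul_sub, sub_mul, Algebra.commutes]
    abel

/-- residues of inner directions, curve: if `toL ∘ u` is inner at `s' = s.curve T` then
`cf 0 ∘ u` is inner at `s`.
Proof: `toL (u i) = [X'_i, η']` on `{x,y}`, w.l.o.g. `tr η' = 0`.  `int_or_pole` for `η'`: if
integral, take residues.  Otherwise `z^m η' = toL η~` with `cf 0 η~ ≠ 0`, `m ≥ 1`; the order 0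
coefficient of `[T_i, η~] = z^m u_i` says that `cf 0 η~` commutes with `X_x,X_y`, so it is a scalar
of trace 0 by (G3), contradiction. -/
theorem inn_res_curve (s : Pt K I J) (hg : s.Good) (T : I → QA K⟦X⟧) (hT : s.IsCurve T)
    (u : I → QA K⟦X⟧) (h : (s.curve T).InnXY (fun i => toL K (u i))) :
    s.InnXY (fun i => cf 0 (u i)) := by
  obtain ⟨η, hη, htr, hcomm⟩ := kpc_inn_norm s.k (fun i => toL K (T i))
    (fun i => toL K (u i)) s.x s.y h
  rcases int_or_pole (fun _ : Unit => η) with ⟨e, he⟩ | ⟨m, e, hm, he, he0⟩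
  · have he' : η = toL K (e ()) := he ()
    have hlev : cf 0 (e ()) ∈ lev K s.k := (toL_mem_lev s.k (e ())).1 (he' ▸ hη) 0
    have key : ∀ i, i = s.x ∨ i = s.y →
        cf 0 (u i) = s.X i * cf 0 (e ()) - cf 0 (e ()) * s.X i := by
      intro i hi
      have h1 := hcomm i hi
      rw [he', ← map_mul, ← map_mul, ← map_sub] at h1
      rw [toL_inj h1, map_sub, cf_mul0, cf_mul0, hT.zero]
    exact ⟨cf 0 (e ()), hlev, key _ (Or.inl rfl), key _ (Or.inr rfl)⟩
  · exfalso
    have he' : algebraMap K⟦X⟧ (QA K⸨X⸩) (PowerSeries.X ^ m) * η = toL K (e ()) := he ()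
    obtain ⟨⟨⟩, he0⟩ := he0
    have hlev' : toL K (e ()) ∈ lev K⸨X⸩ s.k := by
      rw [← he', ← Algebra.smul_def]
      intro g hg'
      refine hη g fun h0 => hg' ?_
      rw [kpr_smul_apply, h0, smul_zero]
    have hlev : cf 0 (e ()) ∈ lev K s.k := (toL_mem_lev s.k (e ())).1 hlev' 0
    have key : ∀ i, i = s.x ∨ i = s.y → cf 0 (e ()) * s.X i = s.X i * cf 0 (e ()) := by
      intro i hi
      have h3 := congrArg (cf 0) (kpc_scale_comm m (T i) (e ()) η (u i) he' (hcomm i hi))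
      rw [cf_X_smul, if_neg (by omega), map_sub, cf_mul0, cf_mul0, hT.zero] at h3
      exact (sub_eq_zero.1 h3.symm).symm
    obtain ⟨c, hc⟩ := hg.g3 _ hlev (key _ (Or.inl rfl)) (key _ (Or.inr rfl))
    have htr0 : QA.tr (cf 0 (e ())) = 0 := by
      rw [← cf_tr, kpc_scale_tr m (e ()) η he' htr, map_zero]
    rw [hc, tr_algebraMap] at htr0
    exact he0 (by rw [hc, htr0, map_zero])

/-- residues of inner directions, growth: if `toL ∘ u` is inner at `s' = s.grow T` then
`cf 0 ∘ u ∈ InnE`.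
Proof: as for curves; `tr η' = 0`.  Integral case: residue (with `a=b=c=0`).  Pole of order
`m ≥ 1`: `η0 = cf 0 η~ ≠ 0`, `tr η0 = 0`, commutes with `X_x, X_y`.  If `m ≥ 2` the order 1
coefficient of `[T_i,η~] = z^m u_i` is `[X_i,η1] + [T_{1,i},η0] = 0`, so `η0 = 0` by `key_PI`,
contradiction.  If `m = 1`: `cf 0 (u i) = [X_i,η1] + [T_{1,i},η0]` and `η0` is a combination of
`S1,S2,S3` by `comm_comb`. -/
theorem inn_res_grow (s : Pt K I J) (hg : s.Good) (w1 w2 : I → QA K) (T : I → QA K⟦X⟧)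
    (hT : s.IsGrowth T w1 w2) (u : I → QA K⟦X⟧)
    (h : (s.grow T).InnXY (fun i => toL K (u i))) :
    (fun i => cf 0 (u i)) ∈ InnE s w1 w2 := by
  obtain ⟨η, hη, htr, hcomm⟩ := kpc_inn_norm (s.k + 1) (fun i => toL K (T i))
    (fun i => toL K (u i)) s.x s.y h
  rcases int_or_pole (fun _ : Unit => η) with ⟨e, he⟩ | ⟨m, e, hm, he, he0⟩
  · have he' : η = toL K (e ()) := he ()
    have hlev : cf 0 (e ()) ∈ lev K (s.k + 1) := (toL_mem_lev (s.k + 1) (e ())).1 (he' ▸ hη) 0
    refine ⟨cf 0 (e ()), hlev, 0, 0, 0, fun i hi => ?_⟩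
    have h1 := hcomm i hi
    rw [he', ← map_mul, ← map_mul, ← map_sub] at h1
    show cf 0 (u i) = _
    rw [toL_inj h1, map_sub, cf_mul0, cf_mul0, hT.zero]
    simp
  · have he' : algebraMap K⟦X⟧ (QA K⸨X⸩) (PowerSeries.X ^ m) * η = toL K (e ()) := he ()
    obtain ⟨⟨⟩, he0⟩ := he0
    have hlev' : toL K (e ()) ∈ lev K⸨X⸩ (s.k + 1) := by
      rw [← he', ← Algebra.smul_def]
      intro g hg'
      refine hη g fun h0 => hg' ?_
      rw [kpr_smul_apply, h0, smul_zero]
    have hlev0 : cf 0 (e ()) ∈ lev K (s.k + 1) := (toL_mem_lev (s.k + 1) (e ())).1 hlev' 0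
    have hlev1 : cf 1 (e ()) ∈ lev K (s.k + 1) := (toL_mem_lev (s.k + 1) (e ())).1 hlev' 1
    have heq : ∀ i, i = s.x ∨ i = s.y →
        (PowerSeries.X ^ m : K⟦X⟧) • u i = T i * e () - e () * T i := fun i hi =>
      kpc_scale_comm m (T i) (e ()) η (u i) he' (hcomm i hi)
    have key0 : ∀ i, i = s.x ∨ i = s.y → s.X i * cf 0 (e ()) = cf 0 (e ()) * s.X i := by
      intro i hi
      have h3 := congrArg (cf 0) (heq i hi)
      rw [cf_X_smul, if_neg (by omega), map_sub, cf_mul0, cf_mul0, hT.zero] at h3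
      exact sub_eq_zero.1 h3.symm
    have key1 : ∀ i, i = s.x ∨ i = s.y → (s.X i * cf 1 (e ()) - cf 1 (e ()) * s.X i) +
        ((w1 i * S1 s.k + w2 i * S2 s.k) * cf 0 (e ()) -
          cf 0 (e ()) * (w1 i * S1 s.k + w2 i * S2 s.k)) =
          if m = 1 then cf 0 (u i) else 0 := by
      intro i hi
      have h3 := congrArg (cf 1) (heq i hi)
      rw [cf_X_smul, map_sub, cf_mul1, cf_mul1, hT.zero, hT.one] at h3
      have h4 : (if m = 1 then cf 0 (u i) else 0) = if m ≤ 1 then cf (1 - m) (u i) else 0 := by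
        by_cases hm1 : m = 1
        · rw [if_pos hm1, if_pos hm1.le, hm1]
        · rw [if_neg hm1, if_neg (by omega)]
      rw [h4, h3]
      abel
    have htr0 : QA.tr (cf 0 (e ())) = 0 := by
      rw [← cf_tr, kpc_scale_tr m (e ()) η he' htr, map_zero]
    by_cases hm1 : m = 1
    · obtain ⟨c, hc⟩ := comm_comb s hg _ hlev0 key0
      refine ⟨cf 1 (e ()), hlev1, c 1, c 2, c 3, fun i hi => ?_⟩
      have h5 := key1 i hi
      rw [if_pos hm1] at h5
      show cf 0 (u i) = _
      rw [← h5]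
      congr 1
      rw [hc]
      have h6 : ∀ (a q : QA K) (r : K), a * (algebraMap K (QA K) r + q) -
          (algebraMap K (QA K) r + q) * a = a * q - q * a := by
        intro a q r
        rw [mul_add, add_mul, Algebra.commutes]
        abel
      have h7 : algebraMap K (QA K) (c 0) + c 1 • S1 s.k + c 2 • S2 s.k + c 3 • S3 s.k =
          algebraMap K (QA K) (c 0) + (c 1 • S1 s.k + c 2 • S2 s.k + c 3 • S3 s.k) := by
        abel
      rw [h7, h6]
    · exfalso
      refine he0 (key_PI s hg w1 w2 hT.w1W hT.w2W hT.pi _ _ hlev0 hlev1 htr0 key0 fun i hi => ?_)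
      have h5 := key1 i hi
      rw [if_neg hm1] at h5
      exact h5

/-! ### lifting -/

/-- the form `B'` of `curve`/`grow` on integral vectors -/
theorem B_toL_curve (s : Pt K I J) (T : I → QA K⟦X⟧) (c : J → QA K⟦X⟧) (v w : I → QA K⟦X⟧) :
    (s.curve T).B (fun j => toL K (c j)) (fun i => toL K (v i)) (fun i => toL K (w i)) =
      algebraMap K⟦X⟧ K⸨X⸩ (∑ j, QA.tr (c j * d2 T v w (s.F j))) := by
  have h : ∀ j, d2 (s.curve T).X (fun i => toL K (v i)) (fun i => toL K (w i))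
      ((s.curve T).F j) = toL K (d2 T v w (s.F j)) := fun j => d2_toL T v w (s.F j)
  simp only [Pt.B, h, ← map_mul, tr_toL, map_sum]

theorem B_toL_grow (s : Pt K I J) (T : I → QA K⟦X⟧) (c : J → QA K⟦X⟧) (v w : I → QA K⟦X⟧) :
    (s.grow T).B (fun j => toL K (c j)) (fun i => toL K (v i)) (fun i => toL K (w i)) =
      algebraMap K⟦X⟧ K⸨X⸩ (∑ j, QA.tr (c j * d2 T v w (s.F j))) := by
  have h : ∀ j, d2 (s.grow T).X (fun i => toL K (v i)) (fun i => toL K (w i))
      ((s.grow T).F j) = toL K (d2 T v w (s.F j)) := fun j => d2_toL T v w (s.F j)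
  simp only [Pt.B, h, ← map_mul, tr_toL, map_sum]

theorem coeff0_B (s : Pt K I J) (T : I → QA K⟦X⟧) (h0 : ∀ i, cf 0 (T i) = s.X i)
    (c : J → QA K⟦X⟧) (v w : I → QA K⟦X⟧) :
    PowerSeries.coeff 0 (∑ j, QA.tr (c j * d2 T v w (s.F j))) =
      s.B (fun j => cf 0 (c j)) (fun i => cf 0 (v i)) (fun i => cf 0 (w i)) := by
  simp only [map_sum, cf_tr, cf_mul0, cf0_d2, h0]
  rfl

/-- **lifting lemma**.  `s'` is a state over `K⸨X⸩` whose forms `B'` have the forms of `s` as
residues, `res U(s') ≤ U(s)`, `res W(s') = R`.  If `Ω ≤ R`, `dim Ω = t`, `Ω ⊗ U(s) → R^*`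
injective, and if residues of inner elements of `s'` lie in a set `N` with `Ω ∩ N = 0`, then
`Ω` lifts to `Ω' ≤ W(s')` of dimension `t` with `Ω' ⊗ U(s') → W(s')^*` injective and without
nonzero inner elements.
Proof: choose a basis `ω_i` of `Ω`, lift it to `toL ∘ ω~_i ∈ W(s')` (linearly independent over
`K⸨X⸩`, because a relation can be scaled to have integral coefficients with nonzero residue);
`Ω'` = their span.  By `TInj_iff_family` let `∑ B'_{c_i}(ω'_i, v) = 0` for all `v ∈ W(s')`,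
`c ≠ 0`; scale the whole family `c` (as a vector indexed by `Fin t × J`, `exists_scale`) to be
`toL ∘ c~` with nonzero residue; take residues: `∑ B_{c~_i,0}(ω_i, v_0) = 0` for all
`v_0 ∈ R`; so all residues vanish, contradiction.  Inner: `0 ≠ v ∈ Ω'` inner; scale it to be
`toL ∘ u` with nonzero residue; `u_0 ∈ Ω` (write `v = ∑ a_i ω'_i`; the `a_i` are integral) and
`u_0 ∈ N`. -/
theorem lift_rich (s : Pt K I J) (T : I → QA K⟦X⟧) (h0 : ∀ i, cf 0 (T i) = s.X i)
    (s' : Pt K⸨X⸩ I J)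
    (hB : ∀ (c : J → QA K⟦X⟧) (v w : I → QA K⟦X⟧),
      s'.B (fun j => toL K (c j)) (fun i => toL K (v i)) (fun i => toL K (w i)) =
        algebraMap K⟦X⟧ K⸨X⸩ (∑ j, QA.tr (c j * d2 T v w (s.F j))))
    (hU : (Place.laurent K).resI s'.U ≤ s.U) (R : Submodule K (I → QA K))
    (hR : (Place.laurent K).resI s'.W = R) (Ω : Submodule K (I → QA K)) (t : ℕ)
    (hΩR : Ω ≤ R) (ht : Module.finrank K Ω = t) [FiniteDimensional K Ω] (hti : s.TInj Ω R)
    (N : Set (I → QA K)) (hN : ∀ v ∈ Ω, v ∈ N → v = 0)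
    (hinn : ∀ u : I → QA K⟦X⟧, s'.InnXY (fun i => toL K (u i)) → (fun i => cf 0 (u i)) ∈ N) :
    s'.Rich t := by
  classical
  subst ht
  set b := Module.finBasis K Ω with hb
  have hbR : ∀ j, ∃ u : I → QA K⟦X⟧, (fun i => toL K (u i)) ∈ s'.W ∧
      (fun i => cf 0 (u i)) = (b j : I → QA K) := by
    intro j
    have h1 : (b j : I → QA K) ∈ (Place.laurent K).resI s'.W := by
      rw [hR]; exact hΩR (b j).2
    exact (mem_resI_laurent _ _).1 h1
  choose u huW hu0 using hbR
  have hbli : LinearIndependent K (fun j => (b j : I → QA K)) :=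
    b.linearIndependent.map' Ω.subtype (by simp)
  have hli : LinearIndependent K⸨X⸩ (fun j => (fun i => toL K (u j i) : I → QA K⸨X⸩)) := by
    refine (Place.laurent K).li_of_res _ (fun j i => kpr_int_toL (u j i)) ?_
    have h2 : (fun j => (Place.laurent K).rI (fun i => toL K (u j i) : I → QA K⸨X⸩)) =
        fun j => (b j : I → QA K) := by
      funext j
      rw [← hu0 j]
      funext i
      exact kpr_rq_toL (u j i)
    rw [h2]
    exact hbli
  set Ω' : Submodule K⸨X⸩ (I → QA K⸨X⸩) :=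
    Submodule.span K⸨X⸩ (Set.range fun j => (fun i => toL K (u j i) : I → QA K⸨X⸩)) with hΩ'
  have hfin : FiniteDimensional K⸨X⸩ Ω' := FiniteDimensional.span_of_finite _ (Set.finite_range _)
  have hrank : Module.finrank K⸨X⸩ Ω' = Module.finrank K Ω := by
    rw [hΩ', finrank_span_eq_card hli, Fintype.card_fin]
  have hle : Ω' ≤ s'.W := by
    rw [hΩ', Submodule.span_le]
    rintro _ ⟨j, rfl⟩
    exact huW j
  have hres : (Place.laurent K).resI Ω' = Ω := by
    have := finite_resI_laurent Ω'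
    refine (Submodule.eq_of_le_of_finrank_eq ?_ ?_).symm
    · intro v hv
      have hspan : (⊤ : Submodule K Ω) = Submodule.span K (Set.range b) := b.span_eq.symm
      have hv' : v ∈ (Submodule.span K (Set.range fun j => (b j : I → QA K))) := by
        have h3 : (⟨v, hv⟩ : Ω) ∈ Submodule.span K (Set.range b) := by
          rw [b.span_eq]; trivial
        have h4 := Submodule.mem_map_of_mem (f := Ω.subtype) h3
        rw [Submodule.map_span] at h4
        rw [← Set.range_comp] at h4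
        exact h4
      refine (Submodule.span_le.2 ?_) hv'
      rintro _ ⟨j, rfl⟩
      refine (mem_resI_laurent _ _).2 ⟨u j, Submodule.subset_span ⟨j, rfl⟩, hu0 j⟩
    · rw [finrank_resI_laurent, hrank]
  refine ⟨Ω', hle, hrank, ?_, ?_⟩
  · rw [hΩ', TInj_iff_family s' s'.W _ hli]
    intro c hc hsum
    by_contra hne
    push Not at hne
    obtain ⟨i0, hi0⟩ := hne
    have hvne : (fun p : Fin (Module.finrank K Ω) × J => c p.1 p.2) ≠ 0 := by
      intro h0
      exact hi0 (funext fun j => congrFun h0 (i0, j))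
    obtain ⟨a, w, ha, haw, p0, hp0⟩ := exists_scale _ hvne
    have hcU : ∀ i, (fun j => toL K (w (i, j))) ∈ s'.U := by
      intro i
      have h5 : (fun j => toL K (w (i, j))) = a • c i := by
        funext j
        rw [← haw (i, j)]
        rfl
      rw [h5]
      exact Submodule.smul_mem _ a (hc i)
    have hcU0 : ∀ i, (fun j => cf 0 (w (i, j))) ∈ s.U := fun i =>
      hU ((mem_resI_laurent _ _).2 ⟨fun j => w (i, j), hcU i, rfl⟩)
    have h6 := hti _ (fun j => (b j : I → QA K)) (fun i j => cf 0 (w (i, j)))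
      (fun j => (b j).2) hbli hcU0 (by
        intro v hv
        rw [← hR] at hv
        obtain ⟨z, hz, rfl⟩ := (mem_resI_laurent _ _).1 hv
        have h7 := hsum _ hz
        have h8 : ∑ i, s'.B (fun j => toL K (w (i, j))) (fun l => toL K (u i l))
            (fun l => toL K (z l)) = 0 := by
          have h9 : ∀ i, s'.B (fun j => toL K (w (i, j))) (fun l => toL K (u i l))
            (fun l => toL K (z l)) = a * s'.B (c i) (fun l => toL K (u i l))
            (fun l => toL K (z l)) := by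
            intro i
            have h5 : (fun j => toL K (w (i, j))) = a • c i := by
              funext j
              rw [← haw (i, j)]
              rfl
            rw [h5, ← Bl_apply, ← Bl_apply, map_smul]
            rfl
          rw [Finset.sum_congr rfl fun i _ => h9 i, ← Finset.mul_sum, h7, mul_zero]
        simp only [hB] at h8
        rw [← map_sum] at h8
        have h10 : (∑ i, ∑ j, QA.tr (w (i, j) * d2 T (u i) z (s.F j)) : K⟦X⟧) = 0 :=
          kpr_algMap_inj (by rw [h8, map_zero])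
        have h11 := congrArg (PowerSeries.coeff 0) h10
        rw [map_sum, map_zero] at h11
        rw [← h11]
        refine Finset.sum_congr rfl fun i _ => ?_
        rw [coeff0_B s T h0 (fun j => w (i, j)) (u i) z, hu0 i])
    exact hp0 (congrFun (h6 p0.1) p0.2)
  · intro v hv hvinn
    by_contra hv0
    obtain ⟨a, w, ha, haw, i0, hi0⟩ := exists_scale v hv0
    have h12 : (fun i => toL K (w i)) = a • v := by
      funext i
      rw [← haw i]
      rfl
    have h13 : (fun i => cf 0 (w i)) ∈ Ω := by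
      rw [← hres]
      refine (mem_resI_laurent _ _).2 ⟨w, ?_, rfl⟩
      rw [h12]
      exact Submodule.smul_mem _ a hv
    have h14 : (fun i => cf 0 (w i)) ∈ N := by
      refine hinn w ?_
      rw [h12]
      obtain ⟨η, hη, h1, h2⟩ := hvinn
      refine ⟨a • η, (lev K⸨X⸩ s'.k).smul_mem hη a, ?_, ?_⟩
      · rw [Pi.smul_apply, h1, smul_sub, mul_smul_comm, smul_mul_assoc]
      · rw [Pi.smul_apply, h2, smul_sub, mul_smul_comm, smul_mul_assoc]
    exact hi0 (congrFun (hN _ h13 h14) i0)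

/-! ### Lemma 6 -/

theorem rich_mono (s : Pt K I J) {t t' : ℕ} (h : t' ≤ t) (hr : s.Rich t) : s.Rich t' := by
  obtain ⟨Ω, hΩ, ht, hti, hinn⟩ := hr
  have main : ∃ Ω' : Submodule K (I → QA K), Ω' ≤ Ω ∧ Module.finrank K Ω' = t' := by
    rcases Nat.eq_zero_or_pos t' with h0 | h0
    · exact ⟨⊥, bot_le, by rw [h0, finrank_bot]⟩
    · have hpos : 0 < Module.finrank K Ω := by omega
      have hfin : FiniteDimensional K Ω := Module.finite_of_finrank_pos hpos
      let b := Module.finBasisOfFinrankEq K Ω ht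
      have hli : LinearIndependent K (fun i : Fin t' => (b (Fin.castLE h i) : I → QA K)) := by
        have h1 : LinearIndependent K (fun i : Fin t => (b i : I → QA K)) :=
          b.linearIndependent.map' Ω.subtype (Submodule.ker_subtype Ω)
        exact h1.comp _ (Fin.castLE_injective h)
      refine ⟨Submodule.span K (Set.range fun i : Fin t' => (b (Fin.castLE h i) : I → QA K)),
        ?_, ?_⟩
      · rw [Submodule.span_le]
        rintro _ ⟨i, rfl⟩
        exact (b (Fin.castLE h i)).2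
      · rw [finrank_span_eq_card hli, Fintype.card_fin]
  obtain ⟨Ω', h1, h2⟩ := main
  exact ⟨Ω', h1.trans hΩ, h2, TInj_mono s h1 hti, fun v hv => hinn v (h1 hv)⟩

/-- **Lemma 6, curves** (`lift_rich` with `R = W(s)`, `N = Inn(s)`) -/
theorem rich_curve (s : Pt K I J) (hg : s.Good) (T : I → QA K⟦X⟧) (hT : s.IsCurve T)
    (ho : (s.curve T).o = s.o) (t : ℕ) (h : s.Rich t) : (s.curve T).Rich t := by
  obtain ⟨Ω, hΩ, ht, hti, hinn⟩ := h
  have := finite_W s hg
  have : FiniteDimensional K Ω := Submodule.finiteDimensional_of_le hΩ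
  exact lift_rich s T hT.zero (s.curve T) (B_toL_curve s T) (resU_curve s T hg hT) s.W
    (resW_curve s T hg hT ho) Ω t hΩ ht hti {v | s.InnXY v} (fun v hv hv' => hinn v hv hv')
    (fun u hu => inn_res_curve s hg T hT u hu)

/-- **Lemma 6, growth**: `t' + 3 (o^2+o+1) ≤ 4 t`.
Proof: `TInj_mulE`; `TInj_restrict` from `mulE k W` to `KerThS` (codimension `3o` by
`finrank_KerThS`, `finrank_mulE`): `Ω1 ≤ mulE Ω`, `dim Ω1 ≥ 4t - 3o^2`; `Ω2 = Ω1 ⊓ KerThS`,
`dim Ω2 ≥ dim Ω1 - 3o`; `exists_compl_InnE`: `Ω3`; shrink to dimension `t'`; `lift_rich` with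
`R = KerThS`, `N = InnE`, `resW_grow`, `inn_res_grow`. -/
theorem rich_grow (s : Pt K I J) (hg : s.Good) (ha : s.Alt) (w1 w2 : I → QA K)
    (T : I → QA K⟦X⟧) (hT : s.IsGrowth T w1 w2) (ho : (s.grow T).o = s.o) (t t' : ℕ)
    (h : s.Rich t) (htt : t' + 3 * (s.o ^ 2 + s.o + 1) ≤ 4 * t) : (s.grow T).Rich t' := by
  obtain ⟨Ω, hΩ, ht, hti, hinn⟩ := h
  have hfW := finite_W s hg
  have hfΩ : FiniteDimensional K Ω := Submodule.finiteDimensional_of_le hΩ
  have hfE : FiniteDimensional K (mulE s.k s.W) := finite_mulE s.k s.W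
  have hfEΩ : FiniteDimensional K (mulE s.k Ω) := finite_mulE s.k Ω
  have hti2 := TInj_mulE s hg Ω hΩ hti
  have hKT : KerThS s w1 w2 ≤ mulE s.k s.W := fun η h => h.1
  have hfK : FiniteDimensional K (KerThS s w1 w2) := Submodule.finiteDimensional_of_le hKT
  have hd1 := finrank_KerThS s hg ha w1 w2 hT.w1W hT.w2W hT.inj
  have hd2 : Module.finrank K (mulE s.k s.W) = 4 * Module.finrank K s.W :=
    finrank_mulE s.k s.W (fun v hv i => W_lev s hg v hv i)
  have hd3 : Module.finrank K (mulE s.k Ω) = 4 * t := by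
    rw [finrank_mulE s.k Ω (fun v hv i => W_lev s hg v (hΩ hv) i), ht]
  obtain ⟨Ω1, hΩ1, hdim1, hti1⟩ := TInj_restrict s (mulE s.k Ω) (mulE s.k s.W)
    (KerThS s w1 w2) hKT (3 * s.o) (by omega) hti2
  have hfΩ1 : FiniteDimensional K Ω1 := Submodule.finiteDimensional_of_le hΩ1
  have hdim2 : Module.finrank K Ω1 ≤
      Module.finrank K (Ω1 ⊓ KerThS s w1 w2 : Submodule K (I → QA K)) + 3 * s.o := by
    have h1 := Submodule.finrank_sup_add_finrank_inf_eq Ω1 (KerThS s w1 w2)
    have h2 : Module.finrank K (Ω1 ⊔ KerThS s w1 w2 : Submodule K (I → QA K)) ≤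
        Module.finrank K (mulE s.k s.W) :=
      Submodule.finrank_mono (sup_le (hΩ1.trans (mulE_mono s.k Ω s.W hΩ)) hKT)
    omega
  obtain ⟨Ω3, hΩ3, hdim3, hinn3⟩ := exists_compl_InnE s hg w1 w2 Ω hΩ hinn
    (Ω1 ⊓ KerThS s w1 w2) (inf_le_left.trans hΩ1)
  have hfΩ3 : FiniteDimensional K Ω3 :=
    Submodule.finiteDimensional_of_le (hΩ3.trans inf_le_left)
  have hrich : (s.grow T).Rich (Module.finrank K Ω3) :=
    lift_rich s T hT.zero (s.grow T) (B_toL_grow s T) (resU_grow s T hg ha w1 w2 hT)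
      (KerThS s w1 w2) (resW_grow s T hg ha w1 w2 hT ho) Ω3 (Module.finrank K Ω3)
      (hΩ3.trans inf_le_right) rfl (TInj_mono s (hΩ3.trans inf_le_left) hti1)
      {v | v ∈ InnE s w1 w2} (fun v hv hv' => hinn3 v hv hv')
      (fun u hu => inn_res_grow s hg w1 w2 T hT u hu)
  refine rich_mono _ ?_ hrich
  have h5 : s.o ^ 2 = s.o * s.o := sq s.o
  rw [h5] at htt
  rw [hd3] at hdim1
  have h6 : 3 * s.o * s.o = 3 * (s.o * s.o) := by ring
  rw [h6] at hdim1
  omega

end Crest.Agent.KP.KC
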