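import Crest.Agent.KPC_Newton
import Crest.Agent.KPC_Rich

/-! # S0270, part (C): reachability, the statements used in part (D) (author helper6) -/

set_option autoImplicit false
set_option linter.unusedSectionVars false

open scoped PowerSeries LaurentSeries symmDiff

namespace Crest.Agent.KP.KC

open Crest.Agent.KP.NC

/-! ### places -/

theorem place_ext {K L : Type} [Field K] [Field L] [QPar K] [QPar L] (P Q : Place K L)
    (h1 : P.O = Q.O) (h2 : ∀ b, P.r b = Q.r b) (h3 : P.inc = Q.inc) : P = Q := by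
  obtain ⟨O, res, inc, a1, a2, a3, a4, a5⟩ := P
  obtain ⟨O', res', inc', b1, b2, b3, b4, b5⟩ := Q
  simp only at h1 h3
  subst h1
  subst h3
  have : res = res' := by
    refine RingHom.ext fun x => ?_
    have := h2 x.1
    unfold Place.r at this
    simpa using this
  subst this
  rfl

theorem place_trans_refl {K L : Type} [Field K] [Field L] [QPar K] [QPar L] (P : Place K L) :
    P.trans (Place.refl L) = P := by
  refine place_ext _ _ ?_ ?_ ?_
  · ext b
    rw [kpr_mem_trans, kpr_r_refl]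
    exact ⟨fun h => h.2, fun h => ⟨kpr_mem_refl b, h⟩⟩
  · intro b
    rw [kpr_r_trans, kpr_r_refl]
  · ext a
    rfl

theorem place_trans_assoc {K L M N : Type} [Field K] [Field L] [Field M] [Field N] [QPar K]
    [QPar L] [QPar M] [QPar N] (P : Place K L) (Q : Place L M) (R : Place M N) :
    P.trans (Q.trans R) = (P.trans Q).trans R := by
  refine place_ext _ _ ?_ ?_ ?_
  · ext b
    rw [kpr_mem_trans, kpr_mem_trans, kpr_mem_trans, kpr_mem_trans, kpr_r_trans]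
    tauto
  · intro b
    simp only [kpr_r_trans]
  · ext a
    rfl

variable {K I J : Type} [Field K] [KF K] [Fintype I] [Fintype J]

theorem rch_trans (s0 : Pt K I J) (L : Type) (iF : Field L) (iK : KF L) (s : Pt L I J)
    (P : Place K L) (h : Rch s0 L iF iK s P)
    (M : Type) (jF : Field M) (jK : KF M) (t : Pt M I J) (Q : Place L M)
    (h' : Rch s M jF jK t Q) : Rch s0 M jF jK t (P.trans Q) := by
  induction h' with
  | refl => rw [place_trans_refl]; exact h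
  | curve M jF jK t Q _ T hT ih =>
    rw [place_trans_assoc]
    exact Rch.curve M jF jK t _ ih T hT
  | grow M jF jK t Q _ T w1 w2 hT ih =>
    rw [place_trans_assoc]
    exact Rch.grow M jF jK t _ ih T w1 w2 hT

/-! ### one step from a stable state -/

theorem o_curve_stable (s : Pt K I J) (hs : s.Stable) (T : I → QA K⟦X⟧) (hT : s.IsCurve T) :
    (s.curve T).o = s.o :=
  hs _ _ _ _ _ (Rch.curve _ _ _ s _ Rch.refl T hT)

theorem o_grow_stable (s : Pt K I J) (hs : s.Stable) (T : I → QA K⟦X⟧) (w1 w2 : I → QA K)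
    (hT : s.IsGrowth T w1 w2) : (s.grow T).o = s.o :=
  hs _ _ _ _ _ (Rch.grow _ _ _ s _ Rch.refl T w1 w2 hT)

theorem stable_curve (s : Pt K I J) (hs : s.Stable) (T : I → QA K⟦X⟧) (hT : s.IsCurve T) :
    (s.curve T).Stable := by
  intro L iF iK s' P h
  rw [o_curve_stable s hs T hT]
  exact hs L iF iK s' _ (rch_trans s _ _ _ (s.curve T) _ (Rch.curve _ _ _ s _ Rch.refl T hT)
    L iF iK s' P h)

theorem stable_grow (s : Pt K I J) (hs : s.Stable) (T : I → QA K⟦X⟧) (w1 w2 : I → QA K)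
    (hT : s.IsGrowth T w1 w2) : (s.grow T).Stable := by
  intro L iF iK s' P h
  rw [o_grow_stable s hs T w1 w2 hT]
  exact hs L iF iK s' _ (rch_trans s _ _ _ (s.grow T) _ (Rch.grow _ _ _ s _ Rch.refl T w1 w2 hT)
    L iF iK s' P h)

theorem alt_of_stable (s : Pt K I J) (hg : s.Good) (hs : s.Stable) : s.Alt :=
  alt_of_o s hg (fun T hT => o_curve_stable s hs T hT)

theorem rch_good (s0 : Pt K I J) (hg : s0.Good) (hs : s0.Stable)
    (L : Type) (iF : Field L) (iK : KF L) (s : Pt L I J) (P : Place K L)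
    (h : Rch s0 L iF iK s P) : s.Good ∧ s.Stable := by
  induction h with
  | refl => exact ⟨hg, hs⟩
  | curve L iF iK s P _ T hT ih =>
    exact ⟨good_curve s T ih.1 hT (o_curve_stable s ih.2 T hT), stable_curve s ih.2 T hT⟩
  | grow L iF iK s P _ T w1 w2 hT ih =>
    exact ⟨good_grow s T ih.1 (alt_of_stable s ih.1 ih.2) w1 w2 hT
      (o_grow_stable s ih.2 T w1 w2 hT), stable_grow s ih.2 T w1 w2 hT⟩

theorem rch_rich (s0 : Pt K I J) (hg : s0.Good) (hs : s0.Stable) (hr : s0.Rich s0.q0)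
    (L : Type) (iF : Field L) (iK : KF L) (s : Pt L I J) (P : Place K L)
    (h : Rch s0 L iF iK s P) : s.Rich s.q0 := by
  induction h with
  | refl => exact hr
  | curve L iF iK s P h T hT ih =>
    have hgs := rch_good s0 hg hs L iF iK s P h
    have ho := o_curve_stable s hgs.2 T hT
    have hq : (s.curve T).q0 = s.q0 := by rw [Pt.q0, Pt.q0, ho]
    rw [hq]
    exact rich_curve s hgs.1 T hT ho _ ih
  | grow L iF iK s P h T w1 w2 hT ih =>
    have hgs := rch_good s0 hg hs L iF iK s P h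
    have ho := o_grow_stable s hgs.2 T w1 w2 hT
    have hq : (s.grow T).q0 = s.q0 := by rw [Pt.q0, Pt.q0, ho]
    rw [hq]
    refine rich_grow s hgs.1 (alt_of_stable s hgs.1 hgs.2) w1 w2 T hT ho _ _ ih ?_
    rw [Pt.q0]
    nlinarith [sq_nonneg (s.o)]

/-! ### general position, growth steps at rich states -/

theorem growth_exists (s : Pt K I J) (hg : s.Good) (ha : s.Alt) (hr : s.Rich s.q0) :
    ∃ T w1 w2, s.IsGrowth T w1 w2 := by
  obtain ⟨Ω, hΩ, ht, hti, hinn⟩ := hr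
  have := finite_W s hg
  have : FiniteDimensional K Ω := Submodule.finiteDimensional_of_le hΩ
  obtain ⟨ω1, hω1, η, hη, ω2, hω2, h1, h2, h3⟩ := gen_pos s s.W Ω hti hinn
    (by rw [ht, Pt.q0]; omega) 0 0
  obtain ⟨T, hT⟩ := exists_grow s hg ha (0 + ω1) (0 + η + ω2)
    (s.W.add_mem s.W.zero_mem (hΩ hω1))
    (s.W.add_mem (s.W.add_mem s.W.zero_mem hη) (hΩ hω2)) h1 h3 h2
  exact ⟨T, _, _, hT⟩

/-- `c ↦ Th c ξ η` as a functional on `U` -/
noncomputable def ThD (s : Pt K I J) (w1 w2 : I → QA K) (ξ : QA K) (η : I → QA K) :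
    Module.Dual K s.U where
  toFun c := s.Th w1 w2 c ξ η
  map_add' c c' := by
    simp only [Pt.Th, Submodule.coe_add, Pi.add_apply, add_mul, map_add, Finset.sum_add_distrib]
  map_smul' a c := by
    simp only [Pt.Th, Submodule.coe_smul, Pi.smul_apply, smul_mul_assoc, map_smul,
      Finset.smul_sum, RingHom.id_apply]

theorem theta_correct (s : Pt K I J) (hg : s.Good) (ha : s.Alt) (w1 w2 : I → QA K)
    (h1 : w1 ∈ s.W) (h2 : w2 ∈ s.W) (Wt : Submodule K (I → QA K)) (hW : Wt ≤ s.W)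
    (hI : s.Inj Wt w1 w2) (η : I → QA K) (hη : η ∈ mulE s.k s.W) :
    ∃ η' ∈ mulE s.k Wt, s.KerTh w1 w2 (η + η') := by
  obtain ⟨η', hη', h⟩ := theta_onto s hg ha w1 w2 h1 h2 Wt hW hI
    ![-ThD s w1 w2 (S1 s.k) η, -ThD s w1 w2 (S2 s.k) η, -ThD s w1 w2 (S3 s.k) η]
  refine ⟨η', hη', (mulE s.k s.W).add_mem hη (mulE_mono s.k Wt s.W hW hη'), fun c hc => ?_⟩
  obtain ⟨a, b, d⟩ := h ⟨c, hc⟩
  rw [Th_add, Th_add, Th_add]
  refine ⟨?_, ?_, ?_⟩
  · have : s.Th w1 w2 c (S1 s.k) η' = -s.Th w1 w2 c (S1 s.k) η := a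
    rw [this, add_neg_cancel]
  · have : s.Th w1 w2 c (S2 s.k) η' = -s.Th w1 w2 c (S2 s.k) η := b
    rw [this, add_neg_cancel]
  · have : s.Th w1 w2 c (S3 s.k) η' = -s.Th w1 w2 c (S3 s.k) η := d
    rw [this, add_neg_cancel]

/-! ### tangent vectors without assuming that `s` is good -/

theorem lev_of_extV (k : ℕ) (V : Submodule K (I → QA K))
    (hV : ∀ v ∈ extV V, ∀ i, v i ∈ lev K⸨X⸩ k) (v : I → QA K) (hv : v ∈ V) (i : I) :
    v i ∈ lev K k := by
  have h := hV _ (toC_mem_extV V v hv) i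
  rw [toC_eq, toL_mem_lev] at h
  have h0 := h 0
  rwa [cf_toP, if_pos rfl] at h0

theorem tangent_curve' (s : Pt K I J) (T T' : I → QA K⟦X⟧) (hT : s.IsCurve T)
    (hg' : (s.curve T).Good) (h' : ∀ i m, cf m (T' i) = ((m : K) + 1) • cf (m + 1) (T i)) :
    (fun i => toL K (T' i)) ∈ (s.curve T).W := by
  have hlev : ∀ v ∈ s.V1, ∀ i, v i ∈ lev K s.k :=
    fun v hv i => lev_of_extV s.k s.V1 (fun v hv i => hg'.V1lev v hv i) v hv i
  have := finite_of_lev s.k s.V1 hlev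
  have e : (fun i => dz (T i)) = T' := by
    funext i
    refine cf_ext fun m => ?_
    rw [cf_dz, h']
  have hmem : (fun i => toL K (T' i)) ∈ (s.curve T).V1 := by
    refine (toL_mem_extV s.V1 T').2 fun m => ?_
    have h1 : (fun i => cf m (T' i)) = ((m : K) + 1) • fun i => cf (m + 1) (T i) :=
      funext fun i => h' i m
    rw [h1]
    exact s.V1.smul_mem _ (hT.mem (m + 1) (Nat.le_add_left 1 m))
  have hD : (s.curve T).D (fun i => toL K (T' i)) = 0 := by
    rw [curve_D]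
    funext j
    rw [← e, ← dz_ev, hT.eq, map_zero, map_zero]
    rfl
  exact (mem_W _ _).2 ⟨hg'.g2 _ hmem hD, hD⟩

theorem tangent_grow' (s : Pt K I J) (T T' : I → QA K⟦X⟧) (w1 w2 : I → QA K)
    (hT : s.IsGrowth T w1 w2)
    (hg' : (s.grow T).Good) (h' : ∀ i m, cf m (T' i) = ((m : K) + 1) • cf (m + 1) (T i)) :
    (fun i => toL K (T' i)) ∈ (s.grow T).W := by
  have hlev : ∀ v ∈ mulE s.k s.V0 ⊔ s.V1, ∀ i, v i ∈ lev K (s.k + 1) :=
    fun v hv i => lev_of_extV (s.k + 1) _ (fun v hv i => hg'.V1lev v hv i) v hv i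
  have := finite_of_lev (s.k + 1) (mulE s.k s.V0 ⊔ s.V1) hlev
  have e : (fun i => dz (T i)) = T' := by
    funext i
    refine cf_ext fun m => ?_
    rw [cf_dz, h']
  have hmem : (fun i => toL K (T' i)) ∈ (s.grow T).V1 := by
    refine (toL_mem_extV (mulE s.k s.V0 ⊔ s.V1) T').2 fun m => ?_
    have h1 : (fun i => cf m (T' i)) = ((m : K) + 1) • fun i => cf (m + 1) (T i) :=
      funext fun i => h' i m
    rw [h1]
    exact (mulE s.k s.V0 ⊔ s.V1).smul_mem _ (hT.mem (m + 1) (Nat.le_add_left 1 m))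
  have hD : (s.grow T).D (fun i => toL K (T' i)) = 0 := by
    rw [grow_D]
    funext j
    rw [← e, ← dz_ev, hT.eq, map_zero, map_zero]
    rfl
  exact (mem_W _ _).2 ⟨hg'.g2 _ hmem hD, hD⟩

/-! ### forms used by helper63 -/

theorem gen_pos' (s : Pt K I J) (hg : s.Good) (Wt Ω : Submodule K (I → QA K))
    (hWt : Wt ≤ s.W) (hΩ : Ω ≤ s.W) (hT : s.TInj Ω Wt) (hInn : ∀ v ∈ Ω, s.InnXY v → v = 0)
    (hd : 2 * s.o ^ 2 + s.o + 4 ≤ Module.finrank K Ω) (v1 v2 : I → QA K) (h1 : v1 ∈ s.W)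
    (h2 : v2 ∈ s.W) :
    ∃ w1 w2, w1 ∈ s.W ∧ w2 ∈ s.W ∧ w1 - v1 ∈ Ω ∧ w2 - v2 ∈ Wt ⊔ Ω ∧
      (∀ c ∈ s.U, s.B c w1 w2 = 0) ∧ s.PIc w1 w2 ∧ s.Inj Wt w1 w2 := by
  have := finite_W s hg
  have : FiniteDimensional K Ω := Submodule.finiteDimensional_of_le hΩ
  have : FiniteDimensional K Wt := Submodule.finiteDimensional_of_le hWt
  obtain ⟨ω1, hω1, η, hη, ω2, hω2, h3, h4, h5⟩ := gen_pos s Wt Ω hT hInn hd v1 v2
  refine ⟨v1 + ω1, v2 + η + ω2, s.W.add_mem h1 (hΩ hω1),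
    s.W.add_mem (s.W.add_mem h2 (hWt hη)) (hΩ hω2), ?_, ?_, h3, h4, h5⟩
  · rw [add_sub_cancel_left]; exact hω1
  · rw [add_assoc, add_sub_cancel_left]
    exact Submodule.add_mem_sup hη hω2

theorem rich_curve_stable (s : Pt K I J) (hg : s.Good) (hs : s.Stable) (T : I → QA K⟦X⟧)
    (hT : s.IsCurve T) (t : ℕ) (hr : s.Rich t) : (s.curve T).Rich t :=
  rich_curve s hg T hT (o_curve_stable s hs T hT) t hr

theorem rich_grow_stable (s : Pt K I J) (hg : s.Good) (hs : s.Stable) (T : I → QA K⟦X⟧)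
    (w1 w2 : I → QA K) (hT : s.IsGrowth T w1 w2) (t : ℕ) (hr : s.Rich t) :
    ∃ t', (s.grow T).Rich t' ∧ 4 * t ≤ t' + 3 * (s.o ^ 2 + s.o + 1) := by
  rcases le_total (3 * (s.o ^ 2 + s.o + 1)) (4 * t) with h | h
  · refine ⟨4 * t - 3 * (s.o ^ 2 + s.o + 1), ?_, by omega⟩
    exact rich_grow s hg (alt_of_stable s hg hs) w1 w2 T hT (o_grow_stable s hs T w1 w2 hT) t _ hr
      (by omega)
  · refine ⟨0, ⟨⊥, bot_le, by simp, ?_, fun v hv _ => (Submodule.mem_bot K).1 hv⟩, by omega⟩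
    intro n ω c hω hl _ _ i
    exact absurd ((Submodule.mem_bot K).1 (hω i)) (hl.ne_zero i)

end Crest.Agent.KP.KC
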