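import Crest.Agent.KPC_Alg

/-! # S0270, part (C): linear algebra of one state (author helper6)

All lemmas are in the namespace `Crest.Agent.KP.KC`.  The index types `I`, `J` are finite. -/

set_option autoImplicit false
set_option linter.unusedSectionVars false

open scoped PowerSeries LaurentSeries symmDiff

namespace Crest.Agent.KP.KC

open Crest.Agent.KP.NC

variable {K I J : Type} [Field K] [KF K] [Fintype I] [Fintype J]

/-! ### `A^J` and the pairing -/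

theorem mem_AJ (k : ℕ) (d : J → QA K) : d ∈ Pt.AJ K J k ↔ ∀ j, d j ∈ lev K k := by
  simp [Pt.AJ]

instance finite_AJ (k : ℕ) : FiniteDimensional K (Pt.AJ K J k) :=
  finite_of_lev k _ fun v hv j => (mem_AJ k v).1 hv j

/-- `A^J` as a power of `lev k`. -/
private noncomputable def kpc_AJequiv (k : ℕ) : Pt.AJ K J k ≃ₗ[K] (J → lev K k) where
  toFun v := fun j => ⟨v.1 j, (mem_AJ k v.1).1 v.2 j⟩
  map_add' _ _ := rfl
  map_smul' _ _ := rfl
  invFun w := ⟨fun j => (w j : QA K), (mem_AJ k _).2 fun j => (w j).2⟩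
  left_inv _ := rfl
  right_inv _ := rfl

theorem finrank_AJ (k : ℕ) : Module.finrank K (Pt.AJ K J k) = Fintype.card J * 4 ^ k := by
  rw [LinearEquiv.finrank_eq (kpc_AJequiv (K := K) (J := J) k), Module.finrank_pi_fintype,
    finrank_lev, Finset.sum_const, Finset.card_univ, smul_eq_mul]

theorem pair_add_right (c d d' : J → QA K) :
    Pt.pair c (d + d') = Pt.pair c d + Pt.pair c d' := by
  unfold Pt.pair
  rw [← Finset.sum_add_distrib]
  exact Finset.sum_congr rfl fun j _ => by rw [Pi.add_apply, mul_add, map_add]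

theorem pair_smul_right (a : K) (c d : J → QA K) : Pt.pair c (a • d) = a * Pt.pair c d := by
  unfold Pt.pair
  rw [Finset.mul_sum]
  exact Finset.sum_congr rfl fun j _ => by
    rw [Pi.smul_apply, mul_smul_comm, map_smul, smul_eq_mul]

/-- the pairing as a bilinear map on `A^J` -/
private noncomputable def kpc_pairl (K J : Type) [Field K] [KF K] [Fintype J] (k : ℕ) :
    Pt.AJ K J k →ₗ[K] Pt.AJ K J k →ₗ[K] K :=
  LinearMap.mk₂ K (fun c d => Pt.pair c.1 d.1)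
    (fun c c' d => Pt.pair_add_left c.1 c'.1 d.1)
    (fun a c d => by
      show Pt.pair (a • c.1) d.1 = a • Pt.pair c.1 d.1
      rw [Pt.pair_smul_left, smul_eq_mul])
    (fun c d d' => pair_add_right c.1 d.1 d'.1)
    (fun a c d => by
      show Pt.pair c.1 (a • d.1) = a • Pt.pair c.1 d.1
      rw [pair_smul_right, smul_eq_mul])

private theorem kpc_pairl_apply (k : ℕ) (c d : Pt.AJ K J k) :
    kpc_pairl K J k c d = Pt.pair c.1 d.1 := rfl

/-- nondegeneracy of the pairing on `A^J` -/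
theorem pair_nondeg (k : ℕ) (c : J → QA K) (hc : c ∈ Pt.AJ K J k)
    (h : ∀ d ∈ Pt.AJ K J k, Pt.pair c d = 0) : c = 0 := by
  classical
  funext j
  refine tr_nondeg k (c j) ((mem_AJ k c).1 hc j) fun d hd => ?_
  have h1 := h (Pi.single j d) ((mem_AJ k _).2 fun i => by
    rw [Pi.single_apply]
    split_ifs
    · exact hd
    · exact (lev K k).zero_mem)
  unfold Pt.pair at h1
  rw [Finset.sum_eq_single j] at h1
  · rwa [Pi.single_eq_same] at h1
  · intro i _ hi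
    rw [Pi.single_eq_of_ne hi, mul_zero, map_zero]
  · intro hj
    exact absurd (Finset.mem_univ j) hj

private theorem kpc_pairl_inj (k : ℕ) : Function.Injective (kpc_pairl K J k) := by
  rw [injective_iff_map_eq_zero]
  intro c hc
  apply Subtype.ext
  refine pair_nondeg k c.1 c.2 fun d hd => ?_
  have := LinearMap.congr_fun hc ⟨d, hd⟩
  exact this

private theorem kpc_pairl_surj (k : ℕ) (f : Module.Dual K (Pt.AJ K J k)) :
    ∃ c : Pt.AJ K J k, kpc_pairl K J k c = f := by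
  have h1 : Function.Surjective (kpc_pairl K J k) :=
    (LinearMap.injective_iff_surjective_of_finrank_eq_finrank
      (Subspace.dual_finrank_eq (K := K) (V := Pt.AJ K J k)).symm).1 (kpc_pairl_inj k)
  exact h1 f

/-- **double orthogonal**: for a subspace `V` of `A^J`, an element of `A^J` orthogonal to
`V^⊥ ∩ A^J` lies in `V`. -/
theorem pair_double_perp (k : ℕ) (V : Submodule K (J → QA K)) (hV : V ≤ Pt.AJ K J k)
    (d : J → QA K) (hd : d ∈ Pt.AJ K J k)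
    (h : ∀ c ∈ Pt.AJ K J k, (∀ v ∈ V, Pt.pair c v = 0) → Pt.pair c d = 0) : d ∈ V := by
  by_contra hdV
  have h1 : (⟨d, hd⟩ : Pt.AJ K J k) ∉ V.comap (Pt.AJ K J k).subtype := hdV
  obtain ⟨f, hf1, hf2⟩ := Submodule.exists_le_ker_of_notMem h1
  obtain ⟨c, rfl⟩ := kpc_pairl_surj k f
  apply hf1
  rw [kpc_pairl_apply]
  refine h c.1 c.2 fun v hv => ?_
  have := hf2 (show (⟨v, hV hv⟩ : Pt.AJ K J k) ∈ V.comap (Pt.AJ K J k).subtype from hv)
  exact this

/-! ### the differential -/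

theorem D_comb (s : Pt K I J) (hX : ∀ i, s.X i ∈ lev K s.k) (v : Fin 4 → (I → QA K)) :
    s.D (comb s.k v) = comb s.k (fun b => s.D (v b)) := by
  funext j
  exact d1_comb s.k s.X hX v (s.F j)

theorem D_mem_AJ (s : Pt K I J) (hX : ∀ i, s.X i ∈ lev K s.k) (v : I → QA K)
    (hv : ∀ i, v i ∈ lev K s.k) : s.D v ∈ Pt.AJ K J s.k := by
  rw [mem_AJ]
  intro j
  exact d1_mem (lev K s.k) s.X v hX hv (s.F j)

theorem mem_W (s : Pt K I J) (v : I → QA K) : v ∈ s.W ↔ v ∈ s.V0 ∧ s.D v = 0 := by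
  simp [Pt.W, Pt.Dl]

theorem mem_U (s : Pt K I J) (c : J → QA K) :
    c ∈ s.U ↔ c ∈ Pt.AJ K J s.k ∧ ∀ v ∈ s.V0, Pt.pair c (s.D v) = 0 := Iff.rfl

theorem U_lev (s : Pt K I J) (c : J → QA K) (hc : c ∈ s.U) (j : J) : c j ∈ lev K s.k :=
  (mem_AJ s.k c).1 hc.1 j

theorem W_lev (s : Pt K I J) (hg : s.Good) (v : I → QA K) (hv : v ∈ s.W) (i : I) :
    v i ∈ lev K s.k :=
  hg.V1lev v (hg.V0V1 ((mem_W s v).1 hv).1) i

theorem V0_lev (s : Pt K I J) (hg : s.Good) (v : I → QA K) (hv : v ∈ s.V0) (i : I) :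
    v i ∈ lev K s.k :=
  hg.V1lev v (hg.V0V1 hv) i

instance finite_U (s : Pt K I J) : FiniteDimensional K s.U :=
  finite_of_lev s.k s.U (U_lev s)

theorem finite_V1 (s : Pt K I J) (hg : s.Good) : FiniteDimensional K s.V1 :=
  finite_of_lev s.k s.V1 hg.V1lev

theorem finite_V0 (s : Pt K I J) (hg : s.Good) : FiniteDimensional K s.V0 :=
  finite_of_lev s.k s.V0 (V0_lev s hg)

theorem finite_W (s : Pt K I J) (hg : s.Good) : FiniteDimensional K s.W :=
  finite_of_lev s.k s.W (W_lev s hg)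

/-- `D(V0) = U^⊥`: an element of `A^J` orthogonal to `U` is `D v` with `v ∈ V0`. -/
theorem exists_V0 (s : Pt K I J) (hg : s.Good) (d : J → QA K) (hd : d ∈ Pt.AJ K J s.k)
    (h : ∀ c ∈ s.U, Pt.pair c d = 0) : ∃ v ∈ s.V0, s.D v = d := by
  have h1 : d ∈ s.V0.map s.Dl := by
    refine pair_double_perp s.k _ ?_ d hd fun c hc hcv => h c ⟨hc, fun v hv => ?_⟩
    · rintro _ ⟨v, hv, rfl⟩
      exact D_mem_AJ s hg.Xlev v (V0_lev s hg v hv)
    · exact hcv _ ⟨v, hv, rfl⟩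
  obtain ⟨v, hv, hvd⟩ := h1
  exact ⟨v, hv, hvd⟩

/-- rank-nullity for a submodule -/
private theorem kpc_rank_nullity {E E' : Type} [AddCommGroup E] [Module K E] [AddCommGroup E']
    [Module K E'] (V : Submodule K E) [FiniteDimensional K V] (f : E →ₗ[K] E') :
    Module.finrank K V = Module.finrank K (V ⊓ LinearMap.ker f : Submodule K E) +
      Module.finrank K (V.map f) := by
  have h1 := LinearMap.finrank_range_add_finrank_ker (f.comp V.subtype)
  have h2 : LinearMap.range (f.comp V.subtype) = V.map f := by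
    rw [LinearMap.range_comp, Submodule.range_subtype]
  have h3 : LinearMap.ker (f.comp V.subtype) = (LinearMap.ker f).comap V.subtype := rfl
  have h4 : Module.finrank K ((LinearMap.ker f).comap V.subtype) =
      Module.finrank K (V ⊓ LinearMap.ker f : Submodule K E) := by
    rw [← Submodule.map_comap_subtype]
    exact (LinearEquiv.finrank_eq (Submodule.equivMapOfInjective V.subtype
      V.subtype_injective _))
  rw [h2, h3, h4] at h1
  omega

/-- dimension of the orthogonal complement of a subspace of `A^J` -/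
private theorem kpc_finrank_perp (k : ℕ) (V : Submodule K (J → QA K)) (hV : V ≤ Pt.AJ K J k)
    (U : Submodule K (J → QA K))
    (hU : ∀ c, c ∈ U ↔ c ∈ Pt.AJ K J k ∧ ∀ v ∈ V, Pt.pair c v = 0) :
    Module.finrank K V + Module.finrank K U = Module.finrank K (Pt.AJ K J k) := by
  set V' : Submodule K (Pt.AJ K J k) := V.comap (Pt.AJ K J k).subtype with hV'
  have e1 : Module.finrank K V' = Module.finrank K V :=
    (Submodule.comapSubtypeEquivOfLe hV).finrank_eq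
  let e : Pt.AJ K J k ≃ₗ[K] Module.Dual K (Pt.AJ K J k) :=
    LinearEquiv.ofBijective (kpc_pairl K J k) ⟨kpc_pairl_inj k, kpc_pairl_surj k⟩
  have hUle : U ≤ Pt.AJ K J k := fun c hc => ((hU c).1 hc).1
  have e2 : Module.finrank K (U.comap (Pt.AJ K J k).subtype) = Module.finrank K U :=
    (Submodule.comapSubtypeEquivOfLe hUle).finrank_eq
  have e3 : (U.comap (Pt.AJ K J k).subtype).map (e : Pt.AJ K J k →ₗ[K] _) =
      V'.dualAnnihilator := by
    ext f
    constructor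
    · rintro ⟨c, hc, rfl⟩
      rw [Submodule.mem_dualAnnihilator]
      intro v hv
      exact ((hU c.1).1 hc).2 v.1 hv
    · intro hf
      obtain ⟨c, rfl⟩ := kpc_pairl_surj k f
      refine ⟨c, (hU c.1).2 ⟨c.2, fun v hv => ?_⟩, rfl⟩
      rw [Submodule.mem_dualAnnihilator] at hf
      exact hf ⟨v, hV hv⟩ hv
  have e4 : Module.finrank K (U.comap (Pt.AJ K J k).subtype) =
      Module.finrank K V'.dualAnnihilator := by
    rw [← e3]
    exact (LinearEquiv.finrank_map_eq e _).symm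
  have h5 := Subspace.finrank_add_finrank_dualAnnihilator_eq V'
  rw [← e1, ← e2, e4]
  exact h5

/-- `dim V0 = dim D(V0) + dim W`, `dim D(V0) = dim A^J - dim U`.  Only needs that `V0` and `X`
are in `lev k`. -/
theorem finrank_V0 (s : Pt K I J) (hX : ∀ i, s.X i ∈ lev K s.k)
    (hV : ∀ v ∈ s.V0, ∀ i, v i ∈ lev K s.k) :
    Module.finrank K s.V0 + s.o = Module.finrank K s.W + Module.finrank K (Pt.AJ K J s.k) := by
  haveI := finite_of_lev s.k s.V0 hV
  have h1 := kpc_rank_nullity s.V0 s.Dl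
  have h2 := kpc_finrank_perp s.k (s.V0.map s.Dl) (by
    rintro _ ⟨v, hv, rfl⟩
    exact D_mem_AJ s hX v (hV v hv)) s.U (by
    intro c
    rw [mem_U]
    refine and_congr_right fun _ => ⟨?_, fun h v hv => h _ ⟨v, hv, rfl⟩⟩
    rintro h _ ⟨v, hv, rfl⟩
    exact h v hv)
  have h3 : s.V0 ⊓ LinearMap.ker s.Dl = s.W := rfl
  rw [h3] at h1
  unfold Pt.o
  omega

/-- `dim V1 = dim (V1 ∩ ker D) + dim A^J` if `D(V1) = A^J`. -/
theorem finrank_V1 (s : Pt K I J) (hX : ∀ i, s.X i ∈ lev K s.k)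
    (hV : ∀ v ∈ s.V1, ∀ i, v i ∈ lev K s.k) (h1 : ∀ d ∈ Pt.AJ K J s.k, ∃ v ∈ s.V1, s.D v = d) :
    Module.finrank K s.V1 = Module.finrank K (s.V1 ⊓ LinearMap.ker s.Dl : Submodule K (I → QA K)) +
      Module.finrank K (Pt.AJ K J s.k) := by
  haveI := finite_of_lev s.k s.V1 hV
  have h2 : s.V1.map s.Dl = Pt.AJ K J s.k := by
    apply le_antisymm
    · rintro _ ⟨v, hv, rfl⟩
      exact D_mem_AJ s hX v (hV v hv)
    · intro d hd
      obtain ⟨v, hv, hvd⟩ := h1 d hd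
      exact ⟨v, hv, hvd⟩
  rw [← h2]
  exact kpc_rank_nullity s.V1 s.Dl

/-- consequence of (G1), (G2): `dim V1 = dim V0 + o` -/
theorem finrank_V1_good (s : Pt K I J) (hg : s.Good) :
    Module.finrank K s.V1 = Module.finrank K s.V0 + s.o := by
  have h1 := finrank_V1 s hg.Xlev hg.V1lev hg.g1
  have h2 := finrank_V0 s hg.Xlev (V0_lev s hg)
  have h3 : s.V1 ⊓ LinearMap.ker s.Dl = s.W := by
    apply le_antisymm
    · rintro v ⟨hv, hv'⟩
      exact ⟨hg.g2 v hv hv', hv'⟩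
    · rintro v ⟨hv, hv'⟩
      exact ⟨hg.V0V1 hv, hv'⟩
  rw [h3] at h1
  omega

/-! ### the forms `B_c` -/

/-- `B` as a trilinear map -/
noncomputable def Bl (s : Pt K I J) :
    (J → QA K) →ₗ[K] (I → QA K) →ₗ[K] (I → QA K) →ₗ[K] K :=
  LinearMap.mk₂ K (fun c v =>
      { toFun := fun w => s.B c v w
        map_add' := fun w w' => by
          simp only [Pt.B, d2_add_right, mul_add, map_add, Finset.sum_add_distrib]
        map_smul' := fun a w => by
          simp only [Pt.B, d2_smul_right, mul_smul_comm, map_smul, Finset.smul_sum,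
            RingHom.id_apply] })
    (fun c c' v => by
      ext w
      simp only [Pt.B, LinearMap.coe_mk, AddHom.coe_mk, LinearMap.add_apply, Pi.add_apply, add_mul,
        map_add, Finset.sum_add_distrib])
    (fun a c v => by
      ext w
      simp only [Pt.B, LinearMap.coe_mk, AddHom.coe_mk, LinearMap.smul_apply, Pi.smul_apply,
        smul_mul_assoc, map_smul, Finset.smul_sum])
    (fun c v v' => by
      ext w
      simp only [Pt.B, LinearMap.coe_mk, AddHom.coe_mk, LinearMap.add_apply, d2_add_left, mul_add,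
        map_add, Finset.sum_add_distrib])
    (fun a c v => by
      ext w
      simp only [Pt.B, LinearMap.coe_mk, AddHom.coe_mk, LinearMap.smul_apply, d2_smul_left,
        mul_smul_comm, map_smul, Finset.smul_sum])

theorem Bl_apply (s : Pt K I J) (c : J → QA K) (v w : I → QA K) : Bl s c v w = s.B c v w := rfl

/-- an alternating form is antisymmetric -/
theorem alt_symm (s : Pt K I J) (ha : s.Alt) (c : J → QA K) (hc : c ∈ s.U) (v w : I → QA K)
    (hv : v ∈ s.W) (hw : w ∈ s.W) : s.B c v w = -s.B c w v := by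
  have h := ha c hc (v + w) (s.W.add_mem hv hw)
  have h1 := ha c hc v hv
  have h2 := ha c hc w hw
  rw [← Bl_apply] at h
  simp only [map_add, LinearMap.add_apply, Bl_apply, h1, h2] at h
  linear_combination h

/-- the injectivity condition says that `v ↦ (B_c(w1,v), B_c(w2,v))_c` maps `Wt` onto
`U^* × U^*`. (a linear map between finite-dimensional spaces is onto iff its transpose is
injective) -/
theorem inj_onto (s : Pt K I J) (Wt : Submodule K (I → QA K)) (w1 w2 : I → QA K)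
    (h : s.Inj Wt w1 w2) (φ1 φ2 : Module.Dual K s.U) :
    ∃ v ∈ Wt, ∀ c : s.U, s.B c w1 v = φ1 c ∧ s.B c w2 v = φ2 c := by
  let Ψ : (s.U × s.U) →ₗ[K] Wt →ₗ[K] K :=
    LinearMap.mk₂ K (fun c v => s.B c.1 w1 v + s.B c.2 w2 v)
      (fun c c' v => by
        simp only [← Bl_apply, Prod.fst_add, Prod.snd_add, Submodule.coe_add, map_add,
          LinearMap.add_apply]
        abel)
      (fun a c v => by
        simp only [← Bl_apply, Prod.smul_fst, Prod.smul_snd, Submodule.coe_smul, map_smul,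
          LinearMap.smul_apply, smul_add])
      (fun c v v' => by
        simp only [← Bl_apply, Submodule.coe_add, map_add]
        abel)
      (fun a c v => by
        simp only [← Bl_apply, Submodule.coe_smul, map_smul, smul_add])
  have hinj : Function.Injective Ψ := by
    rw [injective_iff_map_eq_zero]
    rintro ⟨c1, c2⟩ hc
    obtain ⟨h1, h2⟩ := h c1.1 c1.2 c2.1 c2.2 fun v hv => LinearMap.congr_fun hc ⟨v, hv⟩
    exact Prod.ext (Subtype.ext h1) (Subtype.ext h2)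
  obtain ⟨v, hv⟩ := (LinearMap.flip_surjective_iff₁ (B := Ψ)).2 hinj
    (φ1.comp (LinearMap.fst K s.U s.U) + φ2.comp (LinearMap.snd K s.U s.U))
  refine ⟨v.1, v.2, fun c => ⟨?_, ?_⟩⟩
  · have h1 := LinearMap.congr_fun hv (c, 0)
    have e1 : Ψ.flip v (c, 0) = s.B c w1 v + s.B (0 : J → QA K) w2 v := rfl
    have e2 : s.B (0 : J → QA K) w2 v = 0 := by rw [← Bl_apply, map_zero]; rfl
    rw [e1, e2, add_zero] at h1
    rw [h1]
    simp
  · have h1 := LinearMap.congr_fun hv (0, c)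
    have e1 : Ψ.flip v (0, c) = s.B (0 : J → QA K) w1 v + s.B c w2 v := rfl
    have e2 : s.B (0 : J → QA K) w1 v = 0 := by rw [← Bl_apply, map_zero]; rfl
    rw [e1, e2, zero_add] at h1
    rw [h1]
    simp

/-- one-element version of `inj_onto` -/
theorem inj_onto_one (s : Pt K I J) (Wt : Submodule K (I → QA K)) (w : I → QA K)
    (h : ∀ c ∈ s.U, (∀ v ∈ Wt, s.B c w v = 0) → c = 0) (φ : Module.Dual K s.U) :
    ∃ v ∈ Wt, ∀ c : s.U, s.B c w v = φ c := by
  let Ψ : s.U →ₗ[K] Wt →ₗ[K] K :=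
    LinearMap.mk₂ K (fun c v => s.B c w v)
      (fun c c' v => by
        simp only [← Bl_apply, Submodule.coe_add, map_add, LinearMap.add_apply])
      (fun a c v => by
        simp only [← Bl_apply, Submodule.coe_smul, map_smul, LinearMap.smul_apply])
      (fun c v v' => by
        simp only [← Bl_apply, Submodule.coe_add, map_add])
      (fun a c v => by
        simp only [← Bl_apply, Submodule.coe_smul, map_smul])
  have hinj : Function.Injective Ψ := by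
    rw [injective_iff_map_eq_zero]
    intro c hc
    exact Subtype.ext (h c.1 c.2 fun v hv => LinearMap.congr_fun hc ⟨v, hv⟩)
  obtain ⟨v, hv⟩ := (LinearMap.flip_surjective_iff₁ (B := Ψ)).2 hinj φ
  exact ⟨v.1, v.2, fun c => LinearMap.congr_fun hv c⟩

/-! ### `Theta` -/

private theorem kpc_sc (a : K) (d : QA K) : d * algebraMap K (QA K) a = a • d := by
  rw [Algebra.smul_def, Algebra.commutes]

private theorem kpc_sc2 (a : K) (d S : QA K) : d * (algebraMap K (QA K) a * S) = (a • d) * S := by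
  rw [← mul_assoc, kpc_sc]

private theorem kpc_d2_T_left (k : ℕ) (X : I → QA K) (hX : ∀ i, X i ∈ lev K k)
    (w1 w2 : I → QA K) (v : Fin 4 → (I → QA K)) (hv : ∀ b i, v b i ∈ lev K k) (F : NC K I) :
    d2 X (fun i => w1 i * S1 k + w2 i * S2 k) (comb k v) F =
      ((al k : K) • d2 X w1 (v 1) F + (be k : K) • d2 X w2 (v 2) F) +
      (d2 X w1 (v 0) F - (be k : K) • d2 X w2 (v 3) F) * S1 k +
      (d2 X w2 (v 0) F + (al k : K) • d2 X w1 (v 3) F) * S2 k +
      (d2 X w1 (v 2) F - d2 X w2 (v 1) F) * S3 k := by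
  have e : comb k v = (fun i => v 0 i * 1) + (fun i => v 1 i * S1 k) + (fun i => v 2 i * S2 k) +
      (fun i => v 3 i * S3 k) := by
    funext i
    simp only [comb, Pi.add_apply, mul_one]
  have e' : (fun i => w1 i * S1 k + w2 i * S2 k) = (fun i => w1 i * S1 k) +
    (fun i => w2 i * S2 k) := rfl
  have h0 : ∀ i, X i * (1 : QA K) = 1 * X i := fun i => by rw [mul_one, one_mul]
  have h1 : ∀ i, X i * S1 k = S1 k * X i := fun i => comm_S1 k _ (hX i)
  have h2 : ∀ i, X i * S2 k = S2 k * X i := fun i => comm_S2 k _ (hX i)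
  have h3 : ∀ i, X i * S3 k = S3 k * X i := fun i => comm_S3 k _ (hX i)
  have g1 : ∀ b i, v b i * S1 k = S1 k * v b i := fun b i => comm_S1 k _ (hv b i)
  have g2 : ∀ b i, v b i * S2 k = S2 k * v b i := fun b i => comm_S2 k _ (hv b i)
  rw [e, e']
  simp only [d2_add_left, d2_add_right]
  rw [d2_mul_mul X w1 (v 0) (S1 k) 1 h1 h0 (g1 0), d2_mul_mul X w1 (v 1) (S1 k) (S1 k) h1 h1 (g1 1),
    d2_mul_mul X w1 (v 2) (S1 k) (S2 k) h1 h2 (g1 2),
    d2_mul_mul X w1 (v 3) (S1 k) (S3 k) h1 h3 (g1 3),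
    d2_mul_mul X w2 (v 0) (S2 k) 1 h2 h0 (g2 0), d2_mul_mul X w2 (v 1) (S2 k) (S1 k) h2 h1 (g2 1),
    d2_mul_mul X w2 (v 2) (S2 k) (S2 k) h2 h2 (g2 2),
    d2_mul_mul X w2 (v 3) (S2 k) (S3 k) h2 h3 (g2 3), S1_S1, S1_S2, S1_S3, S2_S1, S2_S2, S2_S3,
    kpc_sc, kpc_sc2, kpc_sc, mul_neg, mul_neg, kpc_sc2]
  simp only [mul_one, add_mul, sub_mul]
  abel

private theorem kpc_d2_T_right (k : ℕ) (X : I → QA K) (hX : ∀ i, X i ∈ lev K k)
    (w1 w2 : I → QA K) (hw1 : ∀ i, w1 i ∈ lev K k) (hw2 : ∀ i, w2 i ∈ lev K k)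
    (v : Fin 4 → (I → QA K)) (F : NC K I) :
    d2 X (comb k v) (fun i => w1 i * S1 k + w2 i * S2 k) F =
      ((al k : K) • d2 X (v 1) w1 F + (be k : K) • d2 X (v 2) w2 F) +
      (d2 X (v 0) w1 F + (be k : K) • d2 X (v 3) w2 F) * S1 k +
      (d2 X (v 0) w2 F - (al k : K) • d2 X (v 3) w1 F) * S2 k +
      (d2 X (v 1) w2 F - d2 X (v 2) w1 F) * S3 k := by
  have e : comb k v = (fun i => v 0 i * 1) + (fun i => v 1 i * S1 k) + (fun i => v 2 i * S2 k) +
      (fun i => v 3 i * S3 k) := by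
    funext i
    simp only [comb, Pi.add_apply, mul_one]
  have e' : (fun i => w1 i * S1 k + w2 i * S2 k) = (fun i => w1 i * S1 k) +
    (fun i => w2 i * S2 k) := rfl
  have h0 : ∀ i, X i * (1 : QA K) = 1 * X i := fun i => by rw [mul_one, one_mul]
  have h1 : ∀ i, X i * S1 k = S1 k * X i := fun i => comm_S1 k _ (hX i)
  have h2 : ∀ i, X i * S2 k = S2 k * X i := fun i => comm_S2 k _ (hX i)
  have h3 : ∀ i, X i * S3 k = S3 k * X i := fun i => comm_S3 k _ (hX i)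
  have a0 : ∀ i, w1 i * (1 : QA K) = 1 * w1 i := fun i => by rw [mul_one, one_mul]
  have a1 : ∀ i, w1 i * S1 k = S1 k * w1 i := fun i => comm_S1 k _ (hw1 i)
  have a2 : ∀ i, w1 i * S2 k = S2 k * w1 i := fun i => comm_S2 k _ (hw1 i)
  have a3 : ∀ i, w1 i * S3 k = S3 k * w1 i := fun i => comm_S3 k _ (hw1 i)
  have b0 : ∀ i, w2 i * (1 : QA K) = 1 * w2 i := fun i => by rw [mul_one, one_mul]
  have b1 : ∀ i, w2 i * S1 k = S1 k * w2 i := fun i => comm_S1 k _ (hw2 i)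
  have b2 : ∀ i, w2 i * S2 k = S2 k * w2 i := fun i => comm_S2 k _ (hw2 i)
  have b3 : ∀ i, w2 i * S3 k = S3 k * w2 i := fun i => comm_S3 k _ (hw2 i)
  rw [e, e']
  simp only [d2_add_left, d2_add_right]
  rw [d2_mul_mul X (v 0) w1 1 (S1 k) h0 h1 a0, d2_mul_mul X (v 0) w2 1 (S2 k) h0 h2 b0,
    d2_mul_mul X (v 1) w1 (S1 k) (S1 k) h1 h1 a1, d2_mul_mul X (v 1) w2 (S1 k) (S2 k) h1 h2 b1,
    d2_mul_mul X (v 2) w1 (S2 k) (S1 k) h2 h1 a2, d2_mul_mul X (v 2) w2 (S2 k) (S2 k) h2 h2 b2,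
    d2_mul_mul X (v 3) w1 (S3 k) (S1 k) h3 h1 a3, d2_mul_mul X (v 3) w2 (S3 k) (S2 k) h3 h2 b3,
    S1_S1, S1_S2, S2_S1, S2_S2, S3_S1, S3_S2]
  simp only [mul_neg, kpc_sc, kpc_sc2, one_mul, add_mul, sub_mul]
  abel

/-- the four components of `d2[T1, comb v] + d2[comb v, T1]` -/
private noncomputable def kpc_q (k : ℕ) (X : I → QA K) (w1 w2 : I → QA K)
    (v : Fin 4 → (I → QA K)) (F : NC K I) : Fin 4 → QA K :=
  ![((al k : K) • d2 X w1 (v 1) F + (be k : K) • d2 X w2 (v 2) F) +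
      ((al k : K) • d2 X (v 1) w1 F + (be k : K) • d2 X (v 2) w2 F),
    (d2 X w1 (v 0) F - (be k : K) • d2 X w2 (v 3) F) + (d2 X (v 0) w1 F + (be k : K) • d2 X (v 3) w2 F),
    (d2 X w2 (v 0) F + (al k : K) • d2 X w1 (v 3) F) + (d2 X (v 0) w2 F - (al k : K) • d2 X (v 3) w1 F),
    (d2 X w1 (v 2) F - d2 X w2 (v 1) F) + (d2 X (v 1) w2 F - d2 X (v 2) w1 F)]

private theorem kpc_q_sum (k : ℕ) (X : I → QA K) (hX : ∀ i, X i ∈ lev K k)
    (w1 w2 : I → QA K) (hw1 : ∀ i, w1 i ∈ lev K k) (hw2 : ∀ i, w2 i ∈ lev K k)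
    (v : Fin 4 → (I → QA K)) (hv : ∀ b i, v b i ∈ lev K k) (F : NC K I) :
    d2 X (fun i => w1 i * S1 k + w2 i * S2 k) (comb k v) F +
      d2 X (comb k v) (fun i => w1 i * S1 k + w2 i * S2 k) F =
    kpc_q k X w1 w2 v F 0 + kpc_q k X w1 w2 v F 1 * S1 k + kpc_q k X w1 w2 v F 2 * S2 k +
      kpc_q k X w1 w2 v F 3 * S3 k := by
  rw [kpc_d2_T_left k X hX w1 w2 v hv F, kpc_d2_T_right k X hX w1 w2 hw1 hw2 v F]
  simp only [kpc_q, Matrix.cons_val]
  simp only [add_mul]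
  abel

private theorem kpc_q_mem (k : ℕ) (X : I → QA K) (hX : ∀ i, X i ∈ lev K k)
    (w1 w2 : I → QA K) (hw1 : ∀ i, w1 i ∈ lev K k) (hw2 : ∀ i, w2 i ∈ lev K k)
    (v : Fin 4 → (I → QA K)) (hv : ∀ b i, v b i ∈ lev K k) (F : NC K I) (b : Fin 4) :
    kpc_q k X w1 w2 v F b ∈ lev K k := by
  have m1 : ∀ b, d2 X w1 (v b) F ∈ lev K k := fun b => d2_mem (lev K k) X _ _ hX hw1 (hv b) F
  have m2 : ∀ b, d2 X w2 (v b) F ∈ lev K k := fun b => d2_mem (lev K k) X _ _ hX hw2 (hv b) F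
  have m3 : ∀ b, d2 X (v b) w1 F ∈ lev K k := fun b => d2_mem (lev K k) X _ _ hX (hv b) hw1 F
  have m4 : ∀ b, d2 X (v b) w2 F ∈ lev K k := fun b => d2_mem (lev K k) X _ _ hX (hv b) hw2 F
  fin_cases b
  · show (al k : K) • d2 X w1 (v 1) F + (be k : K) • d2 X w2 (v 2) F +
      ((al k : K) • d2 X (v 1) w1 F + (be k : K) • d2 X (v 2) w2 F) ∈ lev K k
    exact (lev K k).add_mem ((lev K k).add_mem ((lev K k).smul_mem (m1 1) _)
      ((lev K k).smul_mem (m2 2) _)) ((lev K k).add_mem ((lev K k).smul_mem (m3 1) _)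
      ((lev K k).smul_mem (m4 2) _))
  · show (d2 X w1 (v 0) F - (be k : K) • d2 X w2 (v 3) F) +
      (d2 X (v 0) w1 F + (be k : K) • d2 X (v 3) w2 F) ∈ lev K k
    exact (lev K k).add_mem ((lev K k).sub_mem (m1 0) ((lev K k).smul_mem (m2 3) _))
      ((lev K k).add_mem (m3 0) ((lev K k).smul_mem (m4 3) _))
  · show (d2 X w2 (v 0) F + (al k : K) • d2 X w1 (v 3) F) +
      (d2 X (v 0) w2 F - (al k : K) • d2 X (v 3) w1 F) ∈ lev K k
    exact (lev K k).add_mem ((lev K k).add_mem (m2 0) ((lev K k).smul_mem (m1 3) _))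
      ((lev K k).sub_mem (m4 0) ((lev K k).smul_mem (m3 3) _))
  · show (d2 X w1 (v 2) F - d2 X w2 (v 1) F) + (d2 X (v 1) w2 F - d2 X (v 2) w1 F) ∈ lev K k
    exact (lev K k).add_mem ((lev K k).sub_mem (m1 2) (m2 1)) ((lev K k).sub_mem (m4 1) (m3 2))

private theorem kpc_Th_gen (s : Pt K I J) (hg : s.Good) (w1 w2 : I → QA K) (hw1 : w1 ∈ s.W)
    (hw2 : w2 ∈ s.W) (v : Fin 4 → (I → QA K)) (hv : ∀ b, v b ∈ s.W) (c : J → QA K)
    (hc : c ∈ s.U) (ξ : QA K) (a : J → Fin 4 → QA K) (ha : ∀ j b, a j b ∈ lev K s.k)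
    (hξ : ∀ j, c j * ξ = a j 0 + a j 1 * S1 s.k + a j 2 * S2 s.k + a j 3 * S3 s.k) :
    s.Th w1 w2 c ξ (comb s.k v) =
      ∑ j, (QA.tr (a j 0 * kpc_q s.k s.X w1 w2 v (s.F j) 0) +
        al s.k * QA.tr (a j 1 * kpc_q s.k s.X w1 w2 v (s.F j) 1) +
        be s.k * QA.tr (a j 2 * kpc_q s.k s.X w1 w2 v (s.F j) 2) -
        al s.k * be s.k * QA.tr (a j 3 * kpc_q s.k s.X w1 w2 v (s.F j) 3)) := by
  have hX := hg.Xlev
  have hw1' := W_lev s hg w1 hw1
  have hw2' := W_lev s hg w2 hw2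
  have hv' : ∀ b i, v b i ∈ lev K s.k := fun b => W_lev s hg (v b) (hv b)
  unfold Pt.Th
  refine Finset.sum_congr rfl fun j _ => ?_
  rw [kpc_q_sum s.k s.X hX w1 w2 hw1' hw2' v hv' (s.F j), hξ j]
  exact tr_mul_comb_comb s.k (a j) _ (ha j)
    (kpc_q_mem s.k s.X hX w1 w2 hw1' hw2' v hv' (s.F j))

/-- general formula for `Theta` in components, before using `Alt`:
`Theta(comb v)(c,ξ) = ∑_{a∈{1,2},b} (B_c(w_a,v_b) tr(ξ S_a e_b) + B_c(v_b,w_a) tr(ξ e_b S_a))`,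
here for `ξ = 1, S1, S2, S3`.  (`al = al k`, `be = be k`.) -/
theorem Th_one' (s : Pt K I J) (hg : s.Good) (w1 w2 : I → QA K) (hw1 : w1 ∈ s.W)
    (hw2 : w2 ∈ s.W) (v : Fin 4 → (I → QA K)) (hv : ∀ b, v b ∈ s.W) (c : J → QA K)
    (hc : c ∈ s.U) :
    s.Th w1 w2 c 1 (comb s.k v) =
      al s.k * (s.B c w1 (v 1) + s.B c (v 1) w1) + be s.k * (s.B c w2 (v 2) + s.B c (v 2) w2) := by
  rw [kpc_Th_gen s hg w1 w2 hw1 hw2 v hv c hc 1 (fun j => ![c j, 0, 0, 0])]
  · simp only [kpc_q, Matrix.cons_val, zero_mul, map_zero, mul_zero, add_zero, sub_zero, mul_add,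
      mul_smul_comm, map_add, map_smul, smul_eq_mul, Finset.sum_add_distrib, Pt.B, Finset.mul_sum]
    abel
  · intro j b
    fin_cases b
    · exact U_lev s c hc j
    · exact (lev K s.k).zero_mem
    · exact (lev K s.k).zero_mem
    · exact (lev K s.k).zero_mem
  · intro j
    simp

theorem Th_S1' (s : Pt K I J) (hg : s.Good) (w1 w2 : I → QA K) (hw1 : w1 ∈ s.W)
    (hw2 : w2 ∈ s.W) (v : Fin 4 → (I → QA K)) (hv : ∀ b, v b ∈ s.W) (c : J → QA K)
    (hc : c ∈ s.U) :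
    s.Th w1 w2 c (S1 s.k) (comb s.k v) =
      al s.k * (s.B c w1 (v 0) + s.B c (v 0) w1) +
        al s.k * be s.k * (s.B c (v 3) w2 - s.B c w2 (v 3)) := by
  rw [kpc_Th_gen s hg w1 w2 hw1 hw2 v hv c hc (S1 s.k) (fun j => ![0, c j, 0, 0])]
  · simp only [kpc_q, Matrix.cons_val, zero_mul, map_zero, mul_zero, add_zero, zero_add, sub_zero,
      mul_add, mul_sub, mul_smul_comm, map_add, map_sub, map_smul, smul_eq_mul,
      Finset.sum_add_distrib, Finset.sum_sub_distrib, Pt.B, Finset.mul_sum, mul_assoc]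
    abel
  · intro j b
    fin_cases b
    · exact (lev K s.k).zero_mem
    · exact U_lev s c hc j
    · exact (lev K s.k).zero_mem
    · exact (lev K s.k).zero_mem
  · intro j
    simp

theorem Th_S2' (s : Pt K I J) (hg : s.Good) (w1 w2 : I → QA K) (hw1 : w1 ∈ s.W)
    (hw2 : w2 ∈ s.W) (v : Fin 4 → (I → QA K)) (hv : ∀ b, v b ∈ s.W) (c : J → QA K)
    (hc : c ∈ s.U) :
    s.Th w1 w2 c (S2 s.k) (comb s.k v) =
      be s.k * (s.B c w2 (v 0) + s.B c (v 0) w2) +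
        al s.k * be s.k * (s.B c w1 (v 3) - s.B c (v 3) w1) := by
  rw [kpc_Th_gen s hg w1 w2 hw1 hw2 v hv c hc (S2 s.k) (fun j => ![0, 0, c j, 0])]
  · simp only [kpc_q, Matrix.cons_val, zero_mul, map_zero, mul_zero, add_zero, zero_add, sub_zero,
      mul_add, mul_sub, mul_smul_comm, map_add, map_sub, map_smul, smul_eq_mul,
      Finset.sum_add_distrib, Finset.sum_sub_distrib, Pt.B, Finset.mul_sum]
    simp only [mul_comm (al s.k) (be s.k), mul_assoc]
    abel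
  · intro j b
    fin_cases b
    · exact (lev K s.k).zero_mem
    · exact (lev K s.k).zero_mem
    · exact U_lev s c hc j
    · exact (lev K s.k).zero_mem
  · intro j
    simp

theorem Th_S3' (s : Pt K I J) (hg : s.Good) (w1 w2 : I → QA K) (hw1 : w1 ∈ s.W)
    (hw2 : w2 ∈ s.W) (v : Fin 4 → (I → QA K)) (hv : ∀ b, v b ∈ s.W) (c : J → QA K)
    (hc : c ∈ s.U) :
    s.Th w1 w2 c (S3 s.k) (comb s.k v) =
      al s.k * be s.k * (s.B c (v 2) w1 - s.B c w1 (v 2) + s.B c w2 (v 1) - s.B c (v 1) w2) := by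
  rw [kpc_Th_gen s hg w1 w2 hw1 hw2 v hv c hc (S3 s.k) (fun j => ![0, 0, 0, c j])]
  · have hz : ∀ j, QA.tr (0 * kpc_q s.k s.X w1 w2 v (s.F j) 0) +
        al s.k * QA.tr (0 * kpc_q s.k s.X w1 w2 v (s.F j) 1) +
        be s.k * QA.tr (0 * kpc_q s.k s.X w1 w2 v (s.F j) 2) -
        al s.k * be s.k * QA.tr (c j * kpc_q s.k s.X w1 w2 v (s.F j) 3) =
        -(al s.k * be s.k * QA.tr (c j * kpc_q s.k s.X w1 w2 v (s.F j) 3)) := by
      intro j
      rw [zero_mul, zero_mul, zero_mul, map_zero]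
      ring
    refine (Finset.sum_congr rfl fun j _ => hz j).trans ?_
    simp only [kpc_q, Matrix.cons_val, Finset.sum_neg_distrib,
      mul_add, mul_sub, map_add, map_sub, Finset.sum_add_distrib, Finset.sum_sub_distrib, Pt.B,
      Finset.mul_sum]
    abel
  · intro j b
    fin_cases b
    · exact (lev K s.k).zero_mem
    · exact (lev K s.k).zero_mem
    · exact (lev K s.k).zero_mem
    · exact U_lev s c hc j
  · intro j
    simp

variable (s : Pt K I J)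

theorem Th_one (hg : s.Good) (ha : s.Alt) (w1 w2 : I → QA K) (hw1 : w1 ∈ s.W)
    (hw2 : w2 ∈ s.W) (v : Fin 4 → (I → QA K)) (hv : ∀ b, v b ∈ s.W) (c : J → QA K)
    (hc : c ∈ s.U) : s.Th w1 w2 c 1 (comb s.k v) = 0 := by
  rw [Th_one' s hg w1 w2 hw1 hw2 v hv c hc, alt_symm s ha c hc w1 (v 1) hw1 (hv 1),
    alt_symm s ha c hc w2 (v 2) hw2 (hv 2)]
  ring

theorem Th_S1 (hg : s.Good) (ha : s.Alt) (w1 w2 : I → QA K) (hw1 : w1 ∈ s.W)
    (hw2 : w2 ∈ s.W) (v : Fin 4 → (I → QA K)) (hv : ∀ b, v b ∈ s.W) (c : J → QA K)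
    (hc : c ∈ s.U) :
    s.Th w1 w2 c (S1 s.k) (comb s.k v) = -(2 * al s.k * be s.k) * s.B c w2 (v 3) := by
  rw [Th_S1' s hg w1 w2 hw1 hw2 v hv c hc, alt_symm s ha c hc w1 (v 0) hw1 (hv 0),
    alt_symm s ha c hc (v 3) w2 (hv 3) hw2]
  ring

theorem Th_S2 (hg : s.Good) (ha : s.Alt) (w1 w2 : I → QA K) (hw1 : w1 ∈ s.W)
    (hw2 : w2 ∈ s.W) (v : Fin 4 → (I → QA K)) (hv : ∀ b, v b ∈ s.W) (c : J → QA K)
    (hc : c ∈ s.U) :
    s.Th w1 w2 c (S2 s.k) (comb s.k v) = (2 * al s.k * be s.k) * s.B c w1 (v 3) := by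
  rw [Th_S2' s hg w1 w2 hw1 hw2 v hv c hc, alt_symm s ha c hc w2 (v 0) hw2 (hv 0),
    alt_symm s ha c hc (v 3) w1 (hv 3) hw1]
  ring

theorem Th_S3 (hg : s.Good) (ha : s.Alt) (w1 w2 : I → QA K) (hw1 : w1 ∈ s.W)
    (hw2 : w2 ∈ s.W) (v : Fin 4 → (I → QA K)) (hv : ∀ b, v b ∈ s.W) (c : J → QA K)
    (hc : c ∈ s.U) :
    s.Th w1 w2 c (S3 s.k) (comb s.k v) =
      (2 * al s.k * be s.k) * (s.B c w2 (v 1) - s.B c w1 (v 2)) := by
  rw [Th_S3' s hg w1 w2 hw1 hw2 v hv c hc, alt_symm s ha c hc (v 2) w1 (hv 2) hw1,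
    alt_symm s ha c hc (v 1) w2 (hv 1) hw2]
  ring

/-- the kernel of `Theta` in components -/
theorem KerTh_comb (hg : s.Good) (ha : s.Alt) (w1 w2 : I → QA K) (hw1 : w1 ∈ s.W)
    (hw2 : w2 ∈ s.W) (v : Fin 4 → (I → QA K)) (hv : ∀ b, v b ∈ s.W) :
    s.KerTh w1 w2 (comb s.k v) ↔ ∀ c ∈ s.U, s.B c w1 (v 3) = 0 ∧ s.B c w2 (v 3) = 0 ∧
      s.B c w2 (v 1) = s.B c w1 (v 2) := by
  have h2 : (2 * al s.k * be s.k : K) ≠ 0 :=
    mul_ne_zero (mul_ne_zero two_ne_zero (KF.al_ne s.k)) (KF.be_ne s.k)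
  have hm : comb s.k v ∈ mulE s.k s.W := (mem_mulE s.k s.W _).2 ⟨v, hv, rfl⟩
  constructor
  · rintro ⟨-, h⟩ c hc
    obtain ⟨h1, h2', h3⟩ := h c hc
    rw [Th_S1 s hg ha w1 w2 hw1 hw2 v hv c hc] at h1
    rw [Th_S2 s hg ha w1 w2 hw1 hw2 v hv c hc] at h2'
    rw [Th_S3 s hg ha w1 w2 hw1 hw2 v hv c hc] at h3
    refine ⟨(mul_eq_zero.1 h2').resolve_left h2, (mul_eq_zero.1 h1).resolve_left (neg_ne_zero.2 h2),
      sub_eq_zero.1 ((mul_eq_zero.1 h3).resolve_left h2)⟩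
  · intro h
    refine ⟨hm, fun c hc => ?_⟩
    obtain ⟨h1, h2', h3⟩ := h c hc
    rw [Th_S1 s hg ha w1 w2 hw1 hw2 v hv c hc, Th_S2 s hg ha w1 w2 hw1 hw2 v hv c hc,
      Th_S3 s hg ha w1 w2 hw1 hw2 v hv c hc, h1, h2', h3]
    simp

/-- **Theta is onto**: if `(INJ)` holds with functionals restricted to `Wt ≤ W`, then `Theta`
maps `Wt ⊗ E` onto the dual of `U ⊗ (S1,S2,S3)`. -/
theorem theta_onto (hg : s.Good) (ha : s.Alt) (w1 w2 : I → QA K) (hw1 : w1 ∈ s.W)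
    (hw2 : w2 ∈ s.W) (Wt : Submodule K (I → QA K)) (hWt : Wt ≤ s.W) (hi : s.Inj Wt w1 w2)
    (φ : Fin 3 → Module.Dual K s.U) :
    ∃ η ∈ mulE s.k Wt, ∀ c : s.U, s.Th w1 w2 c (S1 s.k) η = φ 0 c ∧
      s.Th w1 w2 c (S2 s.k) η = φ 1 c ∧ s.Th w1 w2 c (S3 s.k) η = φ 2 c := by
  have h2 : (2 * al s.k * be s.k : K) ≠ 0 :=
    mul_ne_zero (mul_ne_zero two_ne_zero (KF.al_ne s.k)) (KF.be_ne s.k)
  obtain ⟨v3, hv3, h3⟩ := inj_onto s Wt w1 w2 hi ((2 * al s.k * be s.k : K)⁻¹ • φ 1)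
    (-(2 * al s.k * be s.k : K)⁻¹ • φ 0)
  obtain ⟨v1, hv1, h1⟩ := inj_onto s Wt w1 w2 hi 0 ((2 * al s.k * be s.k : K)⁻¹ • φ 2)
  have hv : ∀ b, (![0, v1, 0, v3] : Fin 4 → (I → QA K)) b ∈ Wt := by
    intro b
    fin_cases b
    · exact Wt.zero_mem
    · exact hv1
    · exact Wt.zero_mem
    · exact hv3
  refine ⟨comb s.k ![0, v1, 0, v3], (mem_mulE s.k Wt _).2 ⟨_, hv, rfl⟩, fun c => ?_⟩
  have hB0 : s.B c w1 0 = 0 := by rw [← Bl_apply, map_zero]
  rw [Th_S1 s hg ha w1 w2 hw1 hw2 _ (fun b => hWt (hv b)) c c.2,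
    Th_S2 s hg ha w1 w2 hw1 hw2 _ (fun b => hWt (hv b)) c c.2,
    Th_S3 s hg ha w1 w2 hw1 hw2 _ (fun b => hWt (hv b)) c c.2]
  have e3 : (![0, v1, 0, v3] : Fin 4 → (I → QA K)) 3 = v3 := rfl
  have e1 : (![0, v1, 0, v3] : Fin 4 → (I → QA K)) 1 = v1 := rfl
  have e2 : (![0, v1, 0, v3] : Fin 4 → (I → QA K)) 2 = 0 := rfl
  rw [e3, e1, e2, (h3 c).1, (h3 c).2, (h1 c).2, hB0]
  simp only [LinearMap.smul_apply, smul_eq_mul, sub_zero]
  have hal : (al s.k : K) ≠ 0 := KF.al_ne s.k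
  have hbe : (be s.k : K) ≠ 0 := KF.be_ne s.k
  refine ⟨?_, ?_, ?_⟩ <;> field_simp

theorem Th_add (w1 w2 : I → QA K) (c : J → QA K) (ξ : QA K) (η η' : I → QA K) :
    s.Th w1 w2 c ξ (η + η') = s.Th w1 w2 c ξ η + s.Th w1 w2 c ξ η' := by
  simp only [Pt.Th, d2_add_left, d2_add_right, ← Finset.sum_add_distrib, ← map_add, ← mul_add]
  refine Finset.sum_congr rfl fun j _ => ?_
  congr 2
  abel

theorem Th_smul (w1 w2 : I → QA K) (c : J → QA K) (ξ : QA K) (a : K) (η : I → QA K) :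
    s.Th w1 w2 c ξ (a • η) = a * s.Th w1 w2 c ξ η := by
  simp only [Pt.Th, d2_smul_left, d2_smul_right, ← smul_add, mul_smul_comm, map_smul, smul_eq_mul,
    Finset.mul_sum]

/-- `ker Theta` as a subspace -/
noncomputable def KerThS (w1 w2 : I → QA K) : Submodule K (I → QA K) where
  carrier := {η | s.KerTh w1 w2 η}
  add_mem' := by
    rintro η η' ⟨h1, h2⟩ ⟨h1', h2'⟩
    refine ⟨(mulE s.k s.W).add_mem h1 h1', fun c hc => ?_⟩
    obtain ⟨a, b, d⟩ := h2 c hc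
    obtain ⟨a', b', d'⟩ := h2' c hc
    simp only [Th_add, a, b, d, a', b', d', add_zero, and_self]
  zero_mem' := by
    refine ⟨(mulE s.k s.W).zero_mem, fun c hc => ?_⟩
    have h : ∀ ξ, s.Th w1 w2 c ξ 0 = 0 := by
      intro ξ
      have := Th_smul s w1 w2 c ξ 0 0
      rwa [zero_smul, zero_mul] at this
    simp only [h, and_self]
  smul_mem' := by
    rintro a η ⟨h1, h2⟩
    refine ⟨(mulE s.k s.W).smul_mem a h1, fun c hc => ?_⟩
    obtain ⟨x, y, z⟩ := h2 c hc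
    simp only [Th_smul, x, y, z, mul_zero, and_self]

theorem mem_KerThS (w1 w2 η : I → QA K) : η ∈ KerThS s w1 w2 ↔ s.KerTh w1 w2 η := Iff.rfl

/-- `v ↦ (c ↦ B_c(w,v))` on `W` -/
noncomputable def kpcBU (w : I → QA K) : s.W →ₗ[K] Module.Dual K s.U :=
  LinearMap.mk₂ K (fun (v : s.W) (c : s.U) => s.B c w v)
    (fun v v' c => by
      simp only [← Bl_apply, Submodule.coe_add, map_add])
    (fun a v c => by
      simp only [← Bl_apply, Submodule.coe_smul, map_smul])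
    (fun v c c' => by
      simp only [← Bl_apply, Submodule.coe_add, map_add, LinearMap.add_apply])
    (fun a v c => by
      simp only [← Bl_apply, Submodule.coe_smul, map_smul, LinearMap.smul_apply])

theorem kpcBU_apply (w : I → QA K) (v : s.W) (c : s.U) : kpcBU s w v c = s.B c w v := rfl

/-- `dim ker Theta = 4 dim W - 3 o` -/
theorem finrank_KerThS (hg : s.Good) (ha : s.Alt) (w1 w2 : I → QA K) (hw1 : w1 ∈ s.W)
    (hw2 : w2 ∈ s.W) (hi : s.Inj s.W w1 w2) :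
    Module.finrank K (KerThS s w1 w2) + 3 * s.o = 4 * Module.finrank K s.W := by
  have hfW : FiniteDimensional K s.W := finite_W s hg
  let Φ : (Fin 4 → s.W) →ₗ[K] (Module.Dual K s.U × Module.Dual K s.U × Module.Dual K s.U) :=
    ((kpcBU s w1).comp (LinearMap.proj 3)).prod
      (((kpcBU s w2).comp (LinearMap.proj 3)).prod
        ((kpcBU s w2).comp (LinearMap.proj 1) - (kpcBU s w1).comp (LinearMap.proj 2)))
  have hΦ : ∀ v : Fin 4 → s.W, Φ v =
      (kpcBU s w1 (v 3), kpcBU s w2 (v 3), kpcBU s w2 (v 1) - kpcBU s w1 (v 2)) := fun _ => rfl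
  have hsurj : Function.Surjective Φ := by
    rintro ⟨φ1, φ2, φ3⟩
    obtain ⟨v3, hv3, h3⟩ := inj_onto s s.W w1 w2 hi φ1 φ2
    obtain ⟨v1, hv1, h1⟩ := inj_onto s s.W w1 w2 hi 0 φ3
    refine ⟨![0, ⟨v1, hv1⟩, 0, ⟨v3, hv3⟩], ?_⟩
    rw [hΦ]
    have e3 : (![0, ⟨v1, hv1⟩, 0, ⟨v3, hv3⟩] : Fin 4 → s.W) 3 = ⟨v3, hv3⟩ := rfl
    have e1 : (![0, ⟨v1, hv1⟩, 0, ⟨v3, hv3⟩] : Fin 4 → s.W) 1 = ⟨v1, hv1⟩ := rfl
    have e2 : (![0, ⟨v1, hv1⟩, 0, ⟨v3, hv3⟩] : Fin 4 → s.W) 2 = 0 := rfl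
    rw [e3, e1, e2, map_zero, sub_zero]
    refine Prod.ext ?_ (Prod.ext ?_ ?_)
    · exact LinearMap.ext fun c => (h3 c).1
    · exact LinearMap.ext fun c => (h3 c).2
    · exact LinearMap.ext fun c => (h1 c).2
  let C : (Fin 4 → s.W) →ₗ[K] (I → QA K) :=
    (kpcComb s.k).comp (LinearMap.pi fun b => s.W.subtype.comp (LinearMap.proj b))
  have hC : ∀ v : Fin 4 → s.W, C v = comb s.k (fun b => (v b : I → QA K)) := fun _ => rfl
  have hCinj : Function.Injective C := by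
    intro v w h
    rw [hC, hC] at h
    have h1 := comb_inj s.k _ _ (fun b i => W_lev s hg _ (v b).2 i)
      (fun b i => W_lev s hg _ (w b).2 i) h
    funext b
    exact Subtype.ext (congrFun h1 b)
  have hmap : (LinearMap.ker Φ).map C = KerThS s w1 w2 := by
    ext η
    rw [Submodule.mem_map, mem_KerThS]
    constructor
    · rintro ⟨v, hv, rfl⟩
      rw [hC, KerTh_comb s hg ha w1 w2 hw1 hw2 _ (fun b => (v b).2)]
      rw [LinearMap.mem_ker, hΦ] at hv
      intro c hc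
      have h1 : kpcBU s w1 (v 3) = 0 := (Prod.ext_iff.1 hv).1
      have h2 : kpcBU s w2 (v 3) = 0 := (Prod.ext_iff.1 (Prod.ext_iff.1 hv).2).1
      have h3 : kpcBU s w2 (v 1) - kpcBU s w1 (v 2) = 0 := (Prod.ext_iff.1 (Prod.ext_iff.1 hv).2).2
      refine ⟨LinearMap.congr_fun h1 ⟨c, hc⟩, LinearMap.congr_fun h2 ⟨c, hc⟩, ?_⟩
      exact LinearMap.congr_fun (sub_eq_zero.1 h3) ⟨c, hc⟩
    · intro h
      obtain ⟨v, hv, rfl⟩ := (mem_mulE s.k s.W η).1 h.1
      rw [KerTh_comb s hg ha w1 w2 hw1 hw2 v hv] at h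
      refine ⟨fun b => ⟨v b, hv b⟩, ?_, rfl⟩
      rw [LinearMap.mem_ker, hΦ]
      refine Prod.ext ?_ (Prod.ext ?_ ?_)
      · exact LinearMap.ext fun c => (h c c.2).1
      · exact LinearMap.ext fun c => (h c c.2).2.1
      · refine LinearMap.ext fun c => ?_
        rw [LinearMap.sub_apply, kpcBU_apply, kpcBU_apply]
        exact sub_eq_zero.2 (h c c.2).2.2
  have h1 := LinearMap.finrank_range_add_finrank_ker Φ
  rw [LinearMap.range_eq_top.2 hsurj, finrank_top, Module.finrank_prod, Module.finrank_prod,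
    Subspace.dual_finrank_eq, Module.finrank_pi_fintype, Finset.sum_const, Finset.card_univ,
    Fintype.card_fin, smul_eq_mul] at h1
  have h2 : Module.finrank K (KerThS s w1 w2) = Module.finrank K (LinearMap.ker Φ) := by
    rw [← hmap]
    exact (Submodule.equivMapOfInjective C hCinj _).finrank_eq.symm
  have h3 : s.o = Module.finrank K s.U := rfl
  rw [h2, h3]
  omega

/-- inner directions on `{x,y}` form a subspace -/
noncomputable def InnS : Submodule K (I → QA K) where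
  carrier := {v | s.InnXY v}
  add_mem' := by
    rintro v w ⟨η, hη, hx, hy⟩ ⟨θ, hθ, hx', hy'⟩
    refine ⟨η + θ, (lev K s.k).add_mem hη hθ, ?_, ?_⟩
    · rw [Pi.add_apply, hx, hx', mul_add, add_mul]; abel
    · rw [Pi.add_apply, hy, hy', mul_add, add_mul]; abel
  zero_mem' := ⟨0, (lev K s.k).zero_mem, by simp, by simp⟩
  smul_mem' := by
    rintro a v ⟨η, hη, hx, hy⟩
    refine ⟨a • η, (lev K s.k).smul_mem hη a, ?_, ?_⟩
    · rw [Pi.smul_apply, hx, smul_sub, mul_smul_comm, smul_mul_assoc]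
    · rw [Pi.smul_apply, hy, smul_sub, mul_smul_comm, smul_mul_assoc]

theorem mem_InnS (v : I → QA K) : v ∈ InnS s ↔ s.InnXY v := Iff.rfl

end Crest.Agent.KP.KC
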