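import Crest.Agent.KPD_Pr

/-!
# S0270, part D1 (helper63): algebra of `Ā = S1 + ρ S2`
-/

set_option autoImplicit false
set_option linter.unusedSectionVars false

open scoped PowerSeries LaurentSeries symmDiff

namespace Crest.Agent.KP

open Module

section Ab
variable {K : Type} [Field K] [KF K] (k : ℕ) (Φ : Subalgebra K (QA K)) (hΦ : Φ ≤ lev K k)
  (hc : ∀ a ∈ Φ, ∀ b ∈ Φ, a * b = b * a) (ρ : QA K) (hρ : ρ ∈ Φ)

include hΦ hρ

/-- `Ā² = al + ρ² be` -/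
theorem Ab_sq : Ab k ρ * Ab k ρ =
    algebraMap K (QA K) (al k) + ρ * ρ * algebraMap K (QA K) (be k) := by
  have hl : ρ ∈ lev K k := hΦ hρ
  have h1 : S1 k * ρ = ρ * S1 k := (kpd_comm_S1 k ρ hl).symm
  have h2 : S2 k * ρ = ρ * S2 k := (kpd_comm_S2 k ρ hl).symm
  have h3 : (S2 k : QA K) * S1 k = -(S1 k * S2 k) := kpd_S2S1 k
  unfold Ab
  rw [← kpd_S1_sq, ← kpd_S2_sq]
  calc (S1 k + ρ * S2 k) * (S1 k + ρ * S2 k)
      = S1 k * S1 k + (S1 k * ρ) * S2 k + ρ * (S2 k * S1 k) + ρ * (S2 k * ρ) * S2 k := by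
        noncomm_ring
    _ = S1 k * S1 k + ρ * ρ * (S2 k * S2 k) := by
        rw [h1, h2, h3]
        noncomm_ring

include hc in
theorem Ab_comm (u : QA K) (hu : u ∈ Φ) : u * Ab k ρ = Ab k ρ * u := by
  have h1 := kpd_comm_S1 k u (hΦ hu)
  have h2 := kpd_comm_S2 k u (hΦ hu)
  unfold Ab
  rw [mul_add, add_mul, h1, ← mul_assoc, hc u hu ρ hρ, mul_assoc, h2, mul_assoc]

theorem Ab_lev : Ab k ρ ∈ lev K (k + 1) :=
  (lev K (k + 1)).add_mem (kpd_S1_lev k)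
    ((lev K (k + 1)).mul_mem (kpd_lev_mono (Nat.le_succ k) (hΦ hρ)) (kpd_S2_lev k))

theorem Ab_ne : Ab k ρ ≠ 0 := by
  intro h
  have h1 := kpd_decomp_unique k 0 1 ρ 0 (lev K k).zero_mem (lev K k).one_mem (hΦ hρ)
    (lev K k).zero_mem (by
      rw [zero_add, one_mul, zero_mul, add_zero]
      exact h)
  exact one_ne_zero h1.2.1

/-- from `kpd_qinv` for the subalgebra `lev (k+1)` -/
theorem Ab_qinv : Ab k ρ * qinv (Ab k ρ) = 1 ∧ qinv (Ab k ρ) * Ab k ρ = 1 ∧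
    qinv (Ab k ρ) ∈ lev K (k + 1) := by
  haveI := kpd_fd_lev (K := K) (k + 1)
  exact kpd_qinv (lev K (k + 1)) (Ab k ρ) (Ab_lev k Φ hΦ ρ hρ) (Ab_ne k Φ hΦ ρ hρ)

include hc in
/-- `Φ` commutes with `Ā⁻¹` -/
theorem Ab_qinv_comm (u : QA K) (hu : u ∈ Φ) : u * qinv (Ab k ρ) = qinv (Ab k ρ) * u := by
  obtain ⟨h1, h2, -⟩ := Ab_qinv k Φ hΦ ρ hρ
  have h3 := Ab_comm k Φ hΦ hc ρ hρ u hu
  calc u * qinv (Ab k ρ) = qinv (Ab k ρ) * Ab k ρ * (u * qinv (Ab k ρ)) := by rw [h2, one_mul]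
    _ = qinv (Ab k ρ) * (Ab k ρ * u) * qinv (Ab k ρ) := by simp only [mul_assoc]
    _ = qinv (Ab k ρ) * u * (Ab k ρ * qinv (Ab k ρ)) := by rw [← h3]; simp only [mul_assoc]
    _ = qinv (Ab k ρ) * u := by rw [h1, mul_one]

include hc in
/-- `Φ ∩ Φ Ā⁻¹ = 0`: multiply by `Ā` from the right and use `kpd_decomp_unique`. -/
theorem Ab_indep (u v : QA K) (hu : u ∈ Φ) (hv : v ∈ Φ) (h : u + v * qinv (Ab k ρ) = 0) :
    u = 0 ∧ v = 0 := by
  obtain ⟨h1, h2, -⟩ := Ab_qinv k Φ hΦ ρ hρ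
  have h3 : v + u * S1 k + u * ρ * S2 k + 0 * S3 k = 0 := by
    calc v + u * S1 k + u * ρ * S2 k + 0 * S3 k
        = (u + v * qinv (Ab k ρ)) * Ab k ρ := by
          rw [add_mul, mul_assoc v, h2, mul_one]
          unfold Ab
          rw [mul_add, ← mul_assoc, zero_mul, add_zero]
          abel
      _ = 0 := by rw [h, zero_mul]
  have h4 := kpd_decomp_unique k v u (u * ρ) 0 (hΦ hv) (hΦ hu) (hΦ (Φ.mul_mem hu hρ))
    (lev K k).zero_mem h3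
  exact ⟨h4.2.1, h4.1⟩

include hc in
/-- `N = Ā²`, `N⁻¹ ∈ Φ`, `Ā⁻¹ Ā⁻¹ = N⁻¹`, `N⁻¹ Ā = Ā⁻¹`. -/
theorem kpd_Ab_aux : ∃ N ∈ Φ, ∃ M ∈ Φ, N * qinv (Ab k ρ) = Ab k ρ ∧
    qinv (Ab k ρ) * qinv (Ab k ρ) = M ∧ M * Ab k ρ = qinv (Ab k ρ) := by
  obtain ⟨h1, h2, -⟩ := Ab_qinv k Φ hΦ ρ hρ
  have hN : Ab k ρ * Ab k ρ ∈ Φ := by
    rw [Ab_sq k Φ hΦ ρ hρ]
    exact Φ.add_mem (Φ.algebraMap_mem _) (Φ.mul_mem (Φ.mul_mem hρ hρ) (Φ.algebraMap_mem _))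
  have hN0 : Ab k ρ * Ab k ρ ≠ 0 :=
    mul_ne_zero (Ab_ne k Φ hΦ ρ hρ) (Ab_ne k Φ hΦ ρ hρ)
  haveI := kpd_fd_sub k Φ hΦ
  obtain ⟨h3, h4, h5⟩ := kpd_qinv Φ _ hN hN0
  refine ⟨Ab k ρ * Ab k ρ, hN, qinv (Ab k ρ * Ab k ρ), h5, ?_, ?_, ?_⟩
  · rw [mul_assoc, h1, mul_one]
  · calc qinv (Ab k ρ) * qinv (Ab k ρ)
        = qinv (Ab k ρ * Ab k ρ) * (Ab k ρ * Ab k ρ) * (qinv (Ab k ρ) * qinv (Ab k ρ)) := by
          rw [h4, one_mul]
      _ = qinv (Ab k ρ * Ab k ρ) * Ab k ρ * (Ab k ρ * qinv (Ab k ρ)) * qinv (Ab k ρ) := by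
          simp only [mul_assoc]
      _ = qinv (Ab k ρ * Ab k ρ) := by
          rw [h1, mul_one, mul_assoc, h1, mul_one]
  · calc qinv (Ab k ρ * Ab k ρ) * Ab k ρ
        = qinv (Ab k ρ * Ab k ρ) * Ab k ρ * (Ab k ρ * qinv (Ab k ρ)) := by rw [h1, mul_one]
      _ = qinv (Ab k ρ * Ab k ρ) * (Ab k ρ * Ab k ρ) * qinv (Ab k ρ) := by
          simp only [mul_assoc]
      _ = qinv (Ab k ρ) := by rw [h4, one_mul]

include hc in
/-- `Φ[Ā] = Φ + Φ Ā⁻¹` (the right side is closed under multiplication since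
`Ā⁻¹ Ā⁻¹ = (Ā²)⁻¹`, `Ā² ∈ Φ` nonzero so its inverse is in `Φ` (`kpd_qinv`);
`Ā = Ā² Ā⁻¹`, `Ā⁻¹ = (Ā²)⁻¹ Ā`). -/
theorem mem_adjoin_Ab (x : QA K) : x ∈ Algebra.adjoin K ((Φ : Set (QA K)) ∪ {Ab k ρ}) ↔
    ∃ u ∈ Φ, ∃ v ∈ Φ, x = u + v * qinv (Ab k ρ) := by
  obtain ⟨N, hN, M, hM, e1, e2, e3⟩ := kpd_Ab_aux k Φ hΦ hc ρ hρ
  constructor
  · intro hx
    induction hx using Algebra.adjoin_induction with
    | mem y hy =>
      rcases hy with hy | hy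
      · exact ⟨y, hy, 0, Φ.zero_mem, by rw [zero_mul, add_zero]⟩
      · rw [Set.mem_singleton_iff] at hy
        exact ⟨0, Φ.zero_mem, N, hN, by rw [hy, e1, zero_add]⟩
    | algebraMap r => exact ⟨_, Φ.algebraMap_mem r, 0, Φ.zero_mem, by rw [zero_mul, add_zero]⟩
    | add a b _ _ ha hb =>
      obtain ⟨u, hu, v, hv, rfl⟩ := ha
      obtain ⟨u', hu', v', hv', rfl⟩ := hb
      exact ⟨u + u', Φ.add_mem hu hu', v + v', Φ.add_mem hv hv', by rw [add_mul]; abel⟩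
    | mul a b _ _ ha hb =>
      obtain ⟨u, hu, v, hv, rfl⟩ := ha
      obtain ⟨u', hu', v', hv', rfl⟩ := hb
      refine ⟨u * u' + v * v' * M, Φ.add_mem (Φ.mul_mem hu hu') (Φ.mul_mem (Φ.mul_mem hv hv') hM),
        u * v' + v * u', Φ.add_mem (Φ.mul_mem hu hv') (Φ.mul_mem hv hu'), ?_⟩
      have c1 := Ab_qinv_comm k Φ hΦ hc ρ hρ u' hu'
      have c2 := Ab_qinv_comm k Φ hΦ hc ρ hρ v' hv'
      calc (u + v * qinv (Ab k ρ)) * (u' + v' * qinv (Ab k ρ))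
          = u * u' + u * v' * qinv (Ab k ρ) + v * (qinv (Ab k ρ) * u') +
            v * (qinv (Ab k ρ) * v') * qinv (Ab k ρ) := by noncomm_ring
        _ = u * u' + u * v' * qinv (Ab k ρ) + v * u' * qinv (Ab k ρ) +
            v * v' * (qinv (Ab k ρ) * qinv (Ab k ρ)) := by
            rw [← c1, ← c2]
            noncomm_ring
        _ = _ := by
            rw [e2, add_mul]
            abel
  · rintro ⟨u, hu, v, hv, rfl⟩
    have hsub : ∀ z ∈ Φ, z ∈ Algebra.adjoin K ((Φ : Set (QA K)) ∪ {Ab k ρ}) := fun z hz =>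
      Algebra.subset_adjoin (Or.inl hz)
    have hA : Ab k ρ ∈ Algebra.adjoin K ((Φ : Set (QA K)) ∪ {Ab k ρ}) :=
      Algebra.subset_adjoin (Or.inr rfl)
    rw [← e3]
    exact Subalgebra.add_mem _ (hsub u hu) (Subalgebra.mul_mem _ (hsub v hv)
      (Subalgebra.mul_mem _ (hsub M hM) hA))

include hc in
theorem adjoin_Ab_comm (x y : QA K) (hx : x ∈ Algebra.adjoin K ((Φ : Set (QA K)) ∪ {Ab k ρ}))
    (hy : y ∈ Algebra.adjoin K ((Φ : Set (QA K)) ∪ {Ab k ρ})) : x * y = y * x := by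
  obtain ⟨u, hu, v, hv, rfl⟩ := (mem_adjoin_Ab k Φ hΦ hc ρ hρ x).1 hx
  obtain ⟨u', hu', v', hv', rfl⟩ := (mem_adjoin_Ab k Φ hΦ hc ρ hρ y).1 hy
  have c1 := Ab_qinv_comm k Φ hΦ hc ρ hρ u' hu'
  have c2 := Ab_qinv_comm k Φ hΦ hc ρ hρ v' hv'
  have c3 := Ab_qinv_comm k Φ hΦ hc ρ hρ u hu
  have c4 := Ab_qinv_comm k Φ hΦ hc ρ hρ v hv
  calc (u + v * qinv (Ab k ρ)) * (u' + v' * qinv (Ab k ρ))
      = u * u' + u * v' * qinv (Ab k ρ) + v * (qinv (Ab k ρ) * u') +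
        v * (qinv (Ab k ρ) * v') * qinv (Ab k ρ) := by noncomm_ring
    _ = u * u' + (u * v') * qinv (Ab k ρ) + (v * u') * qinv (Ab k ρ) +
        (v * v') * qinv (Ab k ρ) * qinv (Ab k ρ) := by
        rw [← c1, ← c2]
        noncomm_ring
    _ = u' * u + (v' * u) * qinv (Ab k ρ) + (u' * v) * qinv (Ab k ρ) +
        (v' * v) * qinv (Ab k ρ) * qinv (Ab k ρ) := by
        rw [hc u hu u' hu', hc u hu v' hv', hc v hv u' hu', hc v hv v' hv']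
    _ = u' * u + u' * v * qinv (Ab k ρ) + v' * (qinv (Ab k ρ) * u) +
        v' * (qinv (Ab k ρ) * v) * qinv (Ab k ρ) := by
        rw [← c3, ← c4]
        noncomm_ring
    _ = (u' + v' * qinv (Ab k ρ)) * (u + v * qinv (Ab k ρ)) := by noncomm_ring

theorem adjoin_Ab_le : Algebra.adjoin K ((Φ : Set (QA K)) ∪ {Ab k ρ}) ≤ lev K (k + 1) := by
  refine Algebra.adjoin_le ?_
  rintro x (hx | hx)
  · exact kpd_lev_mono (Nat.le_succ k) (hΦ hx)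
  · rw [Set.mem_singleton_iff] at hx
    rw [hx]
    exact Ab_lev k Φ hΦ ρ hρ

include hc in
/-- subspaces `{u + v Ā⁻¹ : u ∈ V, v ∈ V'}` have dimension `dim V + dim V'` -/
theorem finrank_sum_Ab (V V' : Submodule K (QA K)) (hV : V ≤ Subalgebra.toSubmodule Φ)
    (hV' : V' ≤ Subalgebra.toSubmodule Φ) :
    finrank K (V ⊔ V'.map (LinearMap.mulRight K (qinv (Ab k ρ))) : Submodule K (QA K)) =
      finrank K V + finrank K V' := by
  haveI hfd := kpd_fd_sub k Φ hΦ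
  haveI : FiniteDimensional K (Subalgebra.toSubmodule Φ) := hfd
  haveI : FiniteDimensional K V := Submodule.finiteDimensional_of_le hV
  haveI : FiniteDimensional K V' := Submodule.finiteDimensional_of_le hV'
  obtain ⟨h1, h2, -⟩ := Ab_qinv k Φ hΦ ρ hρ
  have hinj : Function.Injective (LinearMap.mulRight K (qinv (Ab k ρ))) := by
    intro x y hxy
    have h3 : x * qinv (Ab k ρ) = y * qinv (Ab k ρ) := hxy
    calc x = x * qinv (Ab k ρ) * Ab k ρ := by rw [mul_assoc, h2, mul_one]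
      _ = y * qinv (Ab k ρ) * Ab k ρ := by rw [h3]
      _ = y := by rw [mul_assoc, h2, mul_one]
  have hmap : finrank K (V'.map (LinearMap.mulRight K (qinv (Ab k ρ)))) = finrank K V' :=
    (Submodule.equivMapOfInjective _ hinj V').finrank_eq.symm
  have hdisj : V ⊓ V'.map (LinearMap.mulRight K (qinv (Ab k ρ))) = ⊥ := by
    rw [eq_bot_iff]
    rintro x ⟨hx1, hx2⟩
    obtain ⟨v, hv, hvx⟩ := hx2
    have hvx' : v * qinv (Ab k ρ) = x := hvx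
    have h3 := Ab_indep k Φ hΦ hc ρ hρ x (-v) (hV hx1) (Φ.neg_mem (hV' hv)) (by
      rw [neg_mul, hvx', add_neg_cancel])
    rw [Submodule.mem_bot]
    exact h3.1
  have h4 := Submodule.finrank_sup_add_finrank_inf_eq V
    (V'.map (LinearMap.mulRight K (qinv (Ab k ρ))))
  rw [hdisj, finrank_bot, add_zero, hmap] at h4
  exact h4

include hc in
theorem finrank_adjoin_Ab :
    finrank K (Algebra.adjoin K ((Φ : Set (QA K)) ∪ {Ab k ρ})) = 2 * finrank K Φ := by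
  have h1 : Subalgebra.toSubmodule (Algebra.adjoin K ((Φ : Set (QA K)) ∪ {Ab k ρ})) =
      Subalgebra.toSubmodule Φ ⊔
        (Subalgebra.toSubmodule Φ).map (LinearMap.mulRight K (qinv (Ab k ρ))) := by
    ext x
    rw [Subalgebra.mem_toSubmodule, mem_adjoin_Ab k Φ hΦ hc ρ hρ, Submodule.mem_sup]
    constructor
    · rintro ⟨u, hu, v, hv, rfl⟩
      exact ⟨u, hu, v * qinv (Ab k ρ), ⟨v, hv, rfl⟩, rfl⟩
    · rintro ⟨u, hu, _, ⟨v, hv, rfl⟩, rfl⟩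
      exact ⟨u, hu, v, hv, rfl⟩
  have h2 := finrank_sum_Ab k Φ hΦ hc ρ hρ (Subalgebra.toSubmodule Φ) (Subalgebra.toSubmodule Φ)
    le_rfl le_rfl
  rw [← h1] at h2
  rw [two_mul]
  exact h2

include hc in
/-- **[task]** the projection to the centralizer of `Φ[Ā]` on `Φ ⊗ E_k`:
`u ↦ (u + Ā u Ā⁻¹)/2`. -/
theorem Pr_Ab (l0 l1 l2 l3 : QA K) (h0 : l0 ∈ Φ) (h1 : l1 ∈ Φ) (h2 : l2 ∈ Φ) (h3 : l3 ∈ Φ) :
    Pr (k + 1) (Algebra.adjoin K ((Φ : Set (QA K)) ∪ {Ab k ρ}) : Set (QA K))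
      (l0 + l1 * S1 k + l2 * S2 k + l3 * S3 k) =
    l0 + ((al k : K) • l1 + (be k : K) • (l2 * ρ)) * qinv (Ab k ρ) := by
  obtain ⟨q1, q2, q3⟩ := Ab_qinv k Φ hΦ ρ hρ
  have hup : ∀ z ∈ Φ, z ∈ lev K (k + 1) := fun z hz => kpd_lev_mono (Nat.le_succ k) (hΦ hz)
  have hS3 : (S3 k : QA K) ∈ lev K (k + 1) := by
    rw [kpd_S3]
    exact (lev K (k + 1)).mul_mem (kpd_S1_lev k) (kpd_S2_lev k)
  have hu : l0 + l1 * S1 k + l2 * S2 k + l3 * S3 k ∈ lev K (k + 1) :=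
    Subalgebra.add_mem _ (Subalgebra.add_mem _ (Subalgebra.add_mem _ (hup _ h0)
      (Subalgebra.mul_mem _ (hup _ h1) (kpd_S1_lev k)))
      (Subalgebra.mul_mem _ (hup _ h2) (kpd_S2_lev k))) (Subalgebra.mul_mem _ (hup _ h3) hS3)
  have hcoef : (al k : K) • l1 + (be k : K) • (l2 * ρ) ∈ Φ :=
    Φ.add_mem (Φ.smul_mem h1 _) (Φ.smul_mem (Φ.mul_mem h2 hρ) _)
  have hcm : l0 + ((al k : K) • l1 + (be k : K) • (l2 * ρ)) * qinv (Ab k ρ) ∈
      Algebra.adjoin K ((Φ : Set (QA K)) ∪ {Ab k ρ}) :=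
    (mem_adjoin_Ab k Φ hΦ hc ρ hρ _).2 ⟨l0, h0, _, hcoef, rfl⟩
  have hAm : Ab k ρ ∈ Algebra.adjoin K ((Φ : Set (QA K)) ∪ {Ab k ρ}) :=
    Algebra.subset_adjoin (Or.inr rfl)
  apply kpd_Pr_unique (k + 1) _ _ _ hu
  refine ⟨adjoin_Ab_le k Φ hΦ ρ hρ hcm, fun φ hφ => adjoin_Ab_comm k Φ hΦ hc ρ hρ _ _ hcm hφ,
    fun d hd hdc => ?_⟩
  have hdA : d * Ab k ρ = Ab k ρ * d := hdc _ hAm
  -- `u A + A u = 2 c A`
  have hl : ρ ∈ lev K k := hΦ hρ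
  have r1 : S1 k * ρ = ρ * S1 k := (kpd_comm_S1 k ρ hl).symm
  have r2 : S2 k * ρ = ρ * S2 k := (kpd_comm_S2 k ρ hl).symm
  have r3 : (S2 k : QA K) * S1 k = -(S1 k * S2 k) := kpd_S2S1 k
  have a1 : S1 k * Ab k ρ + Ab k ρ * S1 k = (2 : K) • algebraMap K (QA K) (al k) := by
    unfold Ab
    calc S1 k * (S1 k + ρ * S2 k) + (S1 k + ρ * S2 k) * S1 k
        = 2 * (S1 k * S1 k) + (S1 k * ρ) * S2 k + ρ * (S2 k * S1 k) := by noncomm_ring
      _ = 2 * (S1 k * S1 k) := by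
          rw [r1, r3]
          noncomm_ring
      _ = _ := by rw [kpd_S1_sq, two_smul, two_mul]
  have a2 : S2 k * Ab k ρ + Ab k ρ * S2 k = (2 : K) • ((be k : K) • ρ) := by
    unfold Ab
    calc S2 k * (S1 k + ρ * S2 k) + (S1 k + ρ * S2 k) * S2 k
        = S2 k * S1 k + S1 k * S2 k + (S2 k * ρ) * S2 k + ρ * (S2 k * S2 k) := by noncomm_ring
      _ = 2 * (ρ * (S2 k * S2 k)) := by
          rw [r2, r3]
          noncomm_ring
      _ = _ := by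
          rw [kpd_S2_sq, ← Algebra.commutes, ← Algebra.smul_def, two_smul, two_mul]
  have a3 : S3 k * Ab k ρ + Ab k ρ * S3 k = 0 := by
    unfold Ab
    rw [kpd_S3]
    calc S1 k * S2 k * (S1 k + ρ * S2 k) + (S1 k + ρ * S2 k) * (S1 k * S2 k)
        = S1 k * (S2 k * S1 k) + S1 k * (S2 k * ρ) * S2 k + S1 k * S1 k * S2 k +
          ρ * (S2 k * S1 k) * S2 k := by noncomm_ring
      _ = (S1 k * ρ) * S2 k * S2 k - ρ * S1 k * S2 k * S2 k := by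
          rw [r2, r3]
          noncomm_ring
      _ = 0 := by
          rw [r1]
          noncomm_ring
  have b0 := Ab_comm k Φ hΦ hc ρ hρ l0 h0
  have b1 := Ab_comm k Φ hΦ hc ρ hρ l1 h1
  have b2 := Ab_comm k Φ hΦ hc ρ hρ l2 h2
  have b3 := Ab_comm k Φ hΦ hc ρ hρ l3 h3
  have key : (l0 + l1 * S1 k + l2 * S2 k + l3 * S3 k) * Ab k ρ +
      Ab k ρ * (l0 + l1 * S1 k + l2 * S2 k + l3 * S3 k) =
      (2 : K) • (l0 * Ab k ρ + ((al k : K) • l1 + (be k : K) • (l2 * ρ))) := by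
    calc (l0 + l1 * S1 k + l2 * S2 k + l3 * S3 k) * Ab k ρ +
        Ab k ρ * (l0 + l1 * S1 k + l2 * S2 k + l3 * S3 k)
        = l0 * Ab k ρ + Ab k ρ * l0 + (l1 * (S1 k * Ab k ρ) + (Ab k ρ * l1) * S1 k) +
          (l2 * (S2 k * Ab k ρ) + (Ab k ρ * l2) * S2 k) +
          (l3 * (S3 k * Ab k ρ) + (Ab k ρ * l3) * S3 k) := by noncomm_ring
      _ = 2 * (l0 * Ab k ρ) + l1 * (S1 k * Ab k ρ + Ab k ρ * S1 k) +
          l2 * (S2 k * Ab k ρ + Ab k ρ * S2 k) + l3 * (S3 k * Ab k ρ + Ab k ρ * S3 k) := by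
          rw [← b0, ← b1, ← b2, ← b3]
          noncomm_ring
      _ = _ := by
          rw [a1, a2, a3, mul_zero, add_zero, mul_smul_comm, mul_smul_comm, mul_smul_comm,
            ← Algebra.commutes, ← Algebra.smul_def, smul_add, smul_add, two_smul K (l0 * Ab k ρ),
            two_mul]
          abel
  have key2 : (2 : K) • ((l0 + l1 * S1 k + l2 * S2 k + l3 * S3 k) -
      (l0 + ((al k : K) • l1 + (be k : K) • (l2 * ρ)) * qinv (Ab k ρ))) =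
      (l0 + l1 * S1 k + l2 * S2 k + l3 * S3 k) -
        Ab k ρ * (l0 + l1 * S1 k + l2 * S2 k + l3 * S3 k) * qinv (Ab k ρ) := by
    generalize hU : l0 + l1 * S1 k + l2 * S2 k + l3 * S3 k = U at key ⊢
    generalize hC : (al k : K) • l1 + (be k : K) • (l2 * ρ) = C at key ⊢
    have h4 := congrArg (· * qinv (Ab k ρ)) key
    simp only [add_mul, smul_mul_assoc] at h4
    rw [mul_assoc U, q1, mul_one, mul_assoc l0, q1, mul_one] at h4
    rw [smul_sub, ← h4, two_smul]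
    abel
  have h5 : QA.tr (Ab k ρ * (l0 + l1 * S1 k + l2 * S2 k + l3 * S3 k) * qinv (Ab k ρ) * d) =
      QA.tr ((l0 + l1 * S1 k + l2 * S2 k + l3 * S3 k) * d) := by
    generalize l0 + l1 * S1 k + l2 * S2 k + l3 * S3 k = U
    calc QA.tr (Ab k ρ * U * qinv (Ab k ρ) * d) = QA.tr (Ab k ρ * (U * qinv (Ab k ρ) * d)) := by
          simp only [mul_assoc]
      _ = QA.tr (U * qinv (Ab k ρ) * d * Ab k ρ) := kpd_tr_comm _ _
      _ = QA.tr (U * (qinv (Ab k ρ) * Ab k ρ) * d) := by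
          rw [mul_assoc (U * qinv (Ab k ρ)), hdA]
          simp only [mul_assoc]
      _ = QA.tr (U * d) := by rw [q2, mul_one]
  have h6 : (2 : K) * QA.tr (((l0 + l1 * S1 k + l2 * S2 k + l3 * S3 k) -
      (l0 + ((al k : K) • l1 + (be k : K) • (l2 * ρ)) * qinv (Ab k ρ))) * d) = 0 := by
    rw [← smul_eq_mul, ← map_smul, ← smul_mul_assoc, key2, sub_mul, map_sub, h5, sub_self]
  exact (mul_eq_zero.1 h6).resolve_left two_ne_zero

end Ab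

end Crest.Agent.KP
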