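import Crest.Agent.KP_Defs4
import Crest.Agent.KPB_q

/-!
# S0270, part (H): calculus of noncommutative polynomials (helper52)
-/

set_option autoImplicit false
set_option linter.unusedSectionVars false

open scoped PowerSeries LaurentSeries symmDiff

namespace Crest.Agent.KP

namespace NC

section lin
variable {R I A : Type} [CommRing R] [Ring A] [Algebra R A]

theorem kph_d1_zero (p : NC R I) (X : I → A) : p.d1 X 0 = 0 := by
  induction p with
  | cst c => rfl
  | var i => rfl
  | add p q hp hq => simp only [d1, hp, hq, add_zero]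
  | mul p q hp hq => simp only [d1, hp, hq, zero_mul, mul_zero, add_zero]

theorem kph_d1_add (p : NC R I) (X v w : I → A) : p.d1 X (v + w) = p.d1 X v + p.d1 X w := by
  induction p with
  | cst c => simp only [d1, add_zero]
  | var i => rfl
  | add p q hp hq => simp only [d1, hp, hq]; abel
  | mul p q hp hq => simp only [d1, hp, hq, add_mul, mul_add]; abel

theorem kph_d1_smul {T : Type} [CommRing T] [Algebra T A] (p : NC R I) (X v : I → A) (c : T) :
    p.d1 X (c • v) = c • p.d1 X v := by
  induction p with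
  | cst c => simp only [d1, smul_zero]
  | var i => rfl
  | add p q hp hq => simp only [d1, hp, hq, smul_add]
  | mul p q hp hq => simp only [d1, hp, hq, smul_add, smul_mul_assoc, mul_smul_comm]

theorem kph_d2_add_left (p : NC R I) (X v v' w : I → A) :
    p.d2 X (v + v') w = p.d2 X v w + p.d2 X v' w := by
  induction p with
  | cst c => simp only [d2, add_zero]
  | var i => simp only [d2, add_zero]
  | add p q hp hq => simp only [d2, hp, hq]; abel
  | mul p q hp hq => simp only [d2, hp, hq, add_mul, mul_add, kph_d1_add]; abel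

theorem kph_d2_add_right (p : NC R I) (X v w w' : I → A) :
    p.d2 X v (w + w') = p.d2 X v w + p.d2 X v w' := by
  induction p with
  | cst c => simp only [d2, add_zero]
  | var i => simp only [d2, add_zero]
  | add p q hp hq => simp only [d2, hp, hq]; abel
  | mul p q hp hq => simp only [d2, hp, hq, add_mul, mul_add, kph_d1_add]; abel

theorem kph_d2_smul_left {T : Type} [CommRing T] [Algebra T A] (p : NC R I) (X v w : I → A)
    (c : T) : p.d2 X (c • v) w = c • p.d2 X v w := by
  induction p with
  | cst c => simp only [d2, smul_zero]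
  | var i => simp only [d2, smul_zero]
  | add p q hp hq => simp only [d2, hp, hq, smul_add]
  | mul p q hp hq =>
    simp only [d2, hp, hq, smul_add, smul_mul_assoc, mul_smul_comm, kph_d1_smul]

theorem kph_d2_smul_right {T : Type} [CommRing T] [Algebra T A] (p : NC R I) (X v w : I → A)
    (c : T) : p.d2 X v (c • w) = c • p.d2 X v w := by
  induction p with
  | cst c => simp only [d2, smul_zero]
  | var i => simp only [d2, smul_zero]
  | add p q hp hq => simp only [d2, hp, hq, smul_add]
  | mul p q hp hq =>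
    simp only [d2, hp, hq, smul_add, smul_mul_assoc, mul_smul_comm, kph_d1_smul]

theorem kph_d2_zero_left (p : NC R I) (X w : I → A) : p.d2 X 0 w = 0 := by
  have h := kph_d2_smul_left (T := R) p X 0 w (0 : R)
  rwa [zero_smul, zero_smul] at h

theorem kph_d2_zero_right (p : NC R I) (X v : I → A) : p.d2 X v 0 = 0 := by
  have h := kph_d2_smul_right (T := R) p X v 0 (0 : R)
  rwa [zero_smul, zero_smul] at h

/-- values in a subalgebra -/
theorem kph_ev_mem (S : Subalgebra R A) (p : NC R I) (X : I → A) (hX : ∀ i, X i ∈ S) :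
    p.ev X ∈ S := by
  induction p with
  | cst c => exact S.algebraMap_mem c
  | var i => exact hX i
  | add p q hp hq => exact S.add_mem hp hq
  | mul p q hp hq => exact S.mul_mem hp hq

theorem kph_d1_mem (S : Subalgebra R A) (p : NC R I) (X v : I → A) (hX : ∀ i, X i ∈ S)
    (hv : ∀ i, v i ∈ S) : p.d1 X v ∈ S := by
  induction p with
  | cst c => exact S.zero_mem
  | var i => exact hv i
  | add p q hp hq => exact S.add_mem hp hq
  | mul p q hp hq =>
    exact S.add_mem (S.mul_mem hp (kph_ev_mem S q X hX)) (S.mul_mem (kph_ev_mem S p X hX) hq)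

theorem kph_d2_mem (S : Subalgebra R A) (p : NC R I) (X v w : I → A) (hX : ∀ i, X i ∈ S)
    (hv : ∀ i, v i ∈ S) (hw : ∀ i, w i ∈ S) : p.d2 X v w ∈ S := by
  induction p with
  | cst c => exact S.zero_mem
  | var i => exact S.zero_mem
  | add p q hp hq => exact S.add_mem hp hq
  | mul p q hp hq =>
    exact S.add_mem (S.add_mem (S.mul_mem hp (kph_ev_mem S q X hX))
      (S.mul_mem (kph_d1_mem S p X v hX hv) (kph_d1_mem S q X w hX hw)))
      (S.mul_mem (kph_ev_mem S p X hX) hq)

end lin

section ren
variable {R I I' A : Type} [CommRing R] [Ring A] [Algebra R A]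

theorem kph_ev_ren (p : NC R I) (f : I → I') (X : I' → A) : (p.ren f).ev X = p.ev (X ∘ f) := by
  induction p with
  | cst c => rfl
  | var i => rfl
  | add p q hp hq => simp only [ren, ev, hp, hq]
  | mul p q hp hq => simp only [ren, ev, hp, hq]

theorem kph_d1_ren (p : NC R I) (f : I → I') (X v : I' → A) :
    (p.ren f).d1 X v = p.d1 (X ∘ f) (v ∘ f) := by
  induction p with
  | cst c => rfl
  | var i => rfl
  | add p q hp hq => simp only [ren, d1, hp, hq]
  | mul p q hp hq => simp only [ren, d1, hp, hq, kph_ev_ren]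

theorem kph_d2_ren (p : NC R I) (f : I → I') (X v w : I' → A) :
    (p.ren f).d2 X v w = p.d2 (X ∘ f) (v ∘ f) (w ∘ f) := by
  induction p with
  | cst c => rfl
  | var i => rfl
  | add p q hp hq => simp only [ren, d2, hp, hq]
  | mul p q hp hq => simp only [ren, d2, hp, hq, kph_ev_ren, kph_d1_ren]

end ren

/-! ### residues along a place -/
section place
variable {K L I : Type} [Field K] [Field L] [QPar K] [QPar L] (P : Place K L)

theorem kph_res_ev (p : NC K I) (X : I → QA L) (hX : ∀ i, P.Int (X i)) :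
    P.Int ((p.map P.inc).ev X) ∧ P.rq ((p.map P.inc).ev X) = p.ev (fun i => P.rq (X i)) := by
  induction p with
  | cst c =>
    refine ⟨P.int_algebraMap (P.inc_mem c), ?_⟩
    simp only [map, ev]
    rw [P.rq_algebraMap (P.inc_mem c), P.r_inc]
  | var i => exact ⟨hX i, rfl⟩
  | add p q hp hq =>
    exact ⟨P.int_add hp.1 hq.1, by simp only [map, ev]; rw [P.rq_add hp.1 hq.1, hp.2, hq.2]⟩
  | mul p q hp hq =>
    exact ⟨P.int_mul hp.1 hq.1, by simp only [map, ev]; rw [P.rq_mul hp.1 hq.1, hp.2, hq.2]⟩

theorem kph_res_d1 (p : NC K I) (X v : I → QA L) (hX : ∀ i, P.Int (X i))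
    (hv : ∀ i, P.Int (v i)) :
    P.Int ((p.map P.inc).d1 X v) ∧
      P.rq ((p.map P.inc).d1 X v) = p.d1 (fun i => P.rq (X i)) (fun i => P.rq (v i)) := by
  induction p with
  | cst c => exact ⟨P.int_zero, P.rq_zero⟩
  | var i => exact ⟨hv i, rfl⟩
  | add p q hp hq =>
    exact ⟨P.int_add hp.1 hq.1, by simp only [map, d1]; rw [P.rq_add hp.1 hq.1, hp.2, hq.2]⟩
  | mul p q hp hq =>
    have h1 := kph_res_ev P p X hX
    have h2 := kph_res_ev P q X hX
    refine ⟨P.int_add (P.int_mul hp.1 h2.1) (P.int_mul h1.1 hq.1), ?_⟩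
    simp only [map, d1]
    rw [P.rq_add (P.int_mul hp.1 h2.1) (P.int_mul h1.1 hq.1), P.rq_mul hp.1 h2.1,
      P.rq_mul h1.1 hq.1, hp.2, hq.2, h1.2, h2.2]

theorem kph_res_d2 (p : NC K I) (X v w : I → QA L) (hX : ∀ i, P.Int (X i))
    (hv : ∀ i, P.Int (v i)) (hw : ∀ i, P.Int (w i)) :
    P.Int ((p.map P.inc).d2 X v w) ∧
      P.rq ((p.map P.inc).d2 X v w) = p.d2 (fun i => P.rq (X i)) (fun i => P.rq (v i))
        (fun i => P.rq (w i)) := by
  induction p with
  | cst c => exact ⟨P.int_zero, P.rq_zero⟩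
  | var i => exact ⟨P.int_zero, P.rq_zero⟩
  | add p q hp hq =>
    exact ⟨P.int_add hp.1 hq.1, by simp only [map, d2]; rw [P.rq_add hp.1 hq.1, hp.2, hq.2]⟩
  | mul p q hp hq =>
    have h1 := kph_res_ev P p X hX
    have h2 := kph_res_ev P q X hX
    have h3 := kph_res_d1 P p X v hX hv
    have h4 := kph_res_d1 P q X w hX hw
    have i1 := P.int_mul hp.1 h2.1
    have i2 := P.int_mul h3.1 h4.1
    have i3 := P.int_mul h1.1 hq.1
    refine ⟨P.int_add (P.int_add i1 i2) i3, ?_⟩
    simp only [map, d2]
    rw [P.rq_add (P.int_add i1 i2) i3, P.rq_add i1 i2, P.rq_mul hp.1 h2.1,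
      P.rq_mul h3.1 h4.1, P.rq_mul h1.1 hq.1, hp.2, hq.2, h1.2, h2.2, h3.2, h4.2]

end place

end NC

end Crest.Agent.KP
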