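import Crest.Agent.KP_Defs3
import Crest.Agent.KPC_Reach

/-!
# S0270 : black boxes from part (C) (owner helper6; see note P2), as used in part (D).
-/

set_option autoImplicit false
set_option linter.unusedSectionVars false

open scoped PowerSeries LaurentSeries symmDiff

namespace Crest.Agent.KP

variable {K I J : Type} [Field K] [KF K] [Fintype I] [Fintype J]

/-- states reachable from a good stable state are good, stable, alternating. -/
theorem C_reach (s0 : Pt K I J) (hg : s0.Good) (hs : s0.Stable)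
    (L : Type) (iF : Field L) (iK : KF L) (s : Pt L I J) (P : Place K L)
    (h : Rch s0 L iF iK s P) : s.Good ∧ s.Stable ∧ s.Alt :=
  have h2 := KC.rch_good s0 hg hs L iF iK s P h
  ⟨h2.1, h2.2, KC.alt_of_stable s h2.1 h2.2⟩

/-- Lemma 1 for one curve step, without stability. -/
theorem C_curve_o (s : Pt K I J) (hg : s.Good) (T : I → QA K⟦X⟧) (hT : s.IsCurve T) :
    (s.curve T).o ≤ s.o ∧ ((s.curve T).o = s.o → (s.curve T).Good) :=
  ⟨KC.o_curve_le s T hg hT, KC.good_curve s T hg hT⟩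

/-- Lemma 1 for one growth step, without stability. -/
theorem C_grow_o (s : Pt K I J) (hg : s.Good) (ha : s.Alt) (T : I → QA K⟦X⟧)
    (w1 w2 : I → QA K) (hT : s.IsGrowth T w1 w2) :
    (s.grow T).o ≤ s.o ∧ ((s.grow T).o = s.o → (s.grow T).Good) :=
  ⟨KC.o_grow_le s T hg ha w1 w2 hT, KC.good_grow s T hg ha w1 w2 hT⟩

/-- Lemma 2. -/
theorem C_alt (s : Pt K I J) (hg : s.Good)
    (h : ∀ T, s.IsCurve T → (s.curve T).o = s.o) : s.Alt :=
  KC.alt_of_o s hg h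

/-- curve in a given direction. -/
theorem C_dir (s : Pt K I J) (hg : s.Good) (v : I → QA K) (hv : v ∈ s.W) :
    ∃ T, s.IsCurve T ∧ ∀ i, cf 1 (T i) = v i :=
  KC.exists_curve s hg v hv

theorem C_pert_curve (s : Pt K I J) (hg : s.Good) (T : I → QA K⟦X⟧) (hT : s.IsCurve T)
    (δ : ℕ) (hδ : 1 ≤ δ) (η : I → QA K) (hη : η ∈ s.W) :
    ∃ T', s.IsCurve T' ∧ (∀ m, m < δ → ∀ i, cf m (T' i) = cf m (T i)) ∧
      ∀ i, cf δ (T' i) = cf δ (T i) + η i :=
  KC.perturb_curve s hg T hT δ hδ η hη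

theorem C_pert_growth (s : Pt K I J) (hg : s.Good) (ha : s.Alt) (T : I → QA K⟦X⟧)
    (w1 w2 : I → QA K) (hT : s.IsGrowth T w1 w2) (δ : ℕ) (hδ : 2 ≤ δ) (η : I → QA K)
    (hη : s.KerTh w1 w2 η) :
    ∃ T', s.IsGrowth T' w1 w2 ∧ (∀ m, m < δ → ∀ i, cf m (T' i) = cf m (T i)) ∧
      ∀ i, cf δ (T' i) = cf δ (T i) + η i :=
  KC.perturb_grow s hg ha w1 w2 T hT δ hδ η hη

/-- `res W(s') = W(s)` for a curve. -/
theorem C_lift_curve (s : Pt K I J) (hg : s.Good) (T : I → QA K⟦X⟧) (hT : s.IsCurve T)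
    (ho : (s.curve T).o = s.o) (v : I → QA K) :
    v ∈ s.W ↔ ∃ v' ∈ (s.curve T).W, (∀ i, (Place.laurent K).Int (v' i)) ∧
      ∀ i, (Place.laurent K).rq (v' i) = v i := by
  rw [← KC.resW_curve s T hg hT ho]
  constructor
  · rintro ⟨v', h1, h2, h3⟩
    exact ⟨v', h1, h2, fun i => congrFun h3 i⟩
  · rintro ⟨v', h1, h2, h3⟩
    exact ⟨v', h1, h2, funext h3⟩

/-- `res W(s') = ker Theta` for a growth. -/
theorem C_lift_grow (s : Pt K I J) (hg : s.Good) (ha : s.Alt) (T : I → QA K⟦X⟧)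
    (w1 w2 : I → QA K) (hT : s.IsGrowth T w1 w2) (ho : (s.grow T).o = s.o) (v : I → QA K) :
    s.KerTh w1 w2 v ↔ ∃ v' ∈ (s.grow T).W, (∀ i, (Place.laurent K).Int (v' i)) ∧
      ∀ i, (Place.laurent K).rq (v' i) = v i := by
  rw [← KC.mem_KerThS, ← KC.resW_grow s T hg ha w1 w2 hT ho]
  constructor
  · rintro ⟨v', h1, h2, h3⟩
    exact ⟨v', h1, h2, fun i => congrFun h3 i⟩
  · rintro ⟨v', h1, h2, h3⟩
    exact ⟨v', h1, h2, funext h3⟩

/-- Theta is onto on `Wt ⊗ E` if (INJ) holds on `Wt`. -/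
theorem C_theta (s : Pt K I J) (hg : s.Good) (ha : s.Alt) (w1 w2 : I → QA K)
    (h1 : w1 ∈ s.W) (h2 : w2 ∈ s.W) (Wt : Submodule K (I → QA K)) (hW : Wt ≤ s.W)
    (hI : s.Inj Wt w1 w2) (η : I → QA K) (hη : η ∈ mulE s.k s.W) :
    ∃ η' ∈ mulE s.k Wt, s.KerTh w1 w2 (η + η') :=
  KC.theta_correct s hg ha w1 w2 h1 h2 Wt hW hI η hη

/-- tangent lemma (Lemma 4): the `z`-derivative of `T` lies in `W(s')`.  Here the derivative is given
as `T'` with `cf m T' = (m+1) cf (m+1) T`. -/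
theorem C_tangent_curve (s : Pt K I J) (T T' : I → QA K⟦X⟧) (hT : s.IsCurve T)
    (hg' : (s.curve T).Good) (h' : ∀ i m, cf m (T' i) = ((m : K) + 1) • cf (m + 1) (T i)) :
    (fun i => toL K (T' i)) ∈ (s.curve T).W :=
  KC.tangent_curve' s T T' hT hg' h'

theorem C_tangent_grow (s : Pt K I J) (T T' : I → QA K⟦X⟧) (w1 w2 : I → QA K)
    (hT : s.IsGrowth T w1 w2)
    (hg' : (s.grow T).Good) (h' : ∀ i m, cf m (T' i) = ((m : K) + 1) • cf (m + 1) (T i)) :
    (fun i => toL K (T' i)) ∈ (s.grow T).W :=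
  KC.tangent_grow' s T T' w1 w2 hT hg' h'

/-- richness persists. -/
theorem C_rich (s0 : Pt K I J) (hg : s0.Good) (hs : s0.Stable) (hr : s0.Rich s0.q0)
    (L : Type) (iF : Field L) (iK : KF L) (s : Pt L I J) (P : Place K L)
    (h : Rch s0 L iF iK s P) : s.Rich s.q0 :=
  KC.rch_rich s0 hg hs hr L iF iK s P h

/-- a growth step exists at rich states. -/
theorem C_growth_exists (s : Pt K I J) (hg : s.Good) (ha : s.Alt) (hr : s.Rich s.q0) :
    ∃ T w1 w2, s.IsGrowth T w1 w2 :=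
  KC.growth_exists s hg ha hr

end Crest.Agent.KP
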