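import Crest.Agent.KPD_Defs
import Crest.Agent.KP_C
import Crest.Agent.KPB_ext
import Crest.Agent.KPH_NC
import Crest.Agent.KPA_Pr
import Crest.Agent.KPB_D1
import Crest.Agent.KPB_D2
import Crest.Agent.KPC_Rich
import Crest.Agent.KPC_Newton

/-!
# S0270, part D1 (helper63): black boxes from parts A, B, C used in P3 (A)-(D)

These will be replaced by the theorems of helper26 (A), helper67 (B), helper6 (C).
-/

set_option autoImplicit false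
set_option linter.unusedSectionVars false

open scoped PowerSeries LaurentSeries symmDiff

namespace Crest.Agent.KP

open Module

/-! ### part A -/
section A
variable {K : Type} [Field K] [KF K]

theorem kpd_fd_lev (k : ℕ) : FiniteDimensional K (lev K k) := kpa_fd_lev k

theorem kpd_inv (B : Subalgebra K (QA K)) [FiniteDimensional K B] (u : QA K) (hu : u ∈ B)
    (h0 : u ≠ 0) : ∃ v ∈ B, u * v = 1 ∧ v * u = 1 := kpa_inv hu h0

theorem kpd_nondeg (B : Subalgebra K (QA K)) [FiniteDimensional K B] (u : QA K) (hu : u ∈ B)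
    (h : ∀ v ∈ B, QA.tr (u * v) = 0) : u = 0 := kpa_sub_nondeg hu h

theorem kpd_tr_comm (u v : QA K) : QA.tr (u * v) = QA.tr (v * u) := kpa_tr_comm u v

/-- a commutative subalgebra of `lev k` has dimension dividing `2^k` -/
theorem kpd_dvd (k : ℕ) (Φ : Subalgebra K (QA K)) (hΦ : Φ ≤ lev K k)
    (hc : ∀ a ∈ Φ, ∀ b ∈ Φ, a * b = b * a) : finrank K Φ ∣ 2 ^ k :=
  kpa_finrank_dvd_two_pow hΦ hc

/-- uniqueness of the orthogonal projection -/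
theorem kpd_Pr_unique (k : ℕ) (S : Set (QA K)) (u c : QA K) (hu : u ∈ lev K k)
    (h : IsPr k S u c) : Pr k S u = c := kpa_Pr_eq hu h

theorem kpd_S1_sq (k : ℕ) : (S1 k : QA K) * S1 k = algebraMap K (QA K) (al k) := KC.S1_S1 k
theorem kpd_S2_sq (k : ℕ) : (S2 k : QA K) * S2 k = algebraMap K (QA K) (be k) := KC.S2_S2 k
theorem kpd_S3 (k : ℕ) : (S3 k : QA K) = S1 k * S2 k := (KC.S1_S2 k).symm
theorem kpd_S2S1 (k : ℕ) : (S2 k : QA K) * S1 k = -(S1 k * S2 k) := by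
  rw [KC.S1_S2, KC.S2_S1]
theorem kpd_S1_lev (k : ℕ) : (S1 k : QA K) ∈ lev K (k + 1) := KC.S1_mem k
theorem kpd_S2_lev (k : ℕ) : (S2 k : QA K) ∈ lev K (k + 1) := KC.S2_mem k
theorem kpd_lev_mono {k l : ℕ} (h : k ≤ l) : lev K k ≤ lev K l := KC.lev_mono h
theorem kpd_comm_S1 (k : ℕ) (u : QA K) (hu : u ∈ lev K k) : u * S1 k = S1 k * u :=
  KC.comm_S1 k u hu
theorem kpd_comm_S2 (k : ℕ) (u : QA K) (hu : u ∈ lev K k) : u * S2 k = S2 k * u :=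
  KC.comm_S2 k u hu
/-- decomposition of `lev (k+1)` -/
theorem kpd_decomp (k : ℕ) (u : QA K) (hu : u ∈ lev K (k + 1)) :
    ∃ u0 ∈ lev K k, ∃ u1 ∈ lev K k, ∃ u2 ∈ lev K k, ∃ u3 ∈ lev K k,
      u = u0 + u1 * S1 k + u2 * S2 k + u3 * S3 k := by
  obtain ⟨a, ha, h⟩ := KC.exists_decomp k u hu
  exact ⟨a 0, ha 0, a 1, ha 1, a 2, ha 2, a 3, ha 3, h⟩
theorem kpd_decomp_unique (k : ℕ) (u0 u1 u2 u3 : QA K) (h0 : u0 ∈ lev K k) (h1 : u1 ∈ lev K k)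
    (h2 : u2 ∈ lev K k) (h3 : u3 ∈ lev K k)
    (h : u0 + u1 * S1 k + u2 * S2 k + u3 * S3 k = 0) : u0 = 0 ∧ u1 = 0 ∧ u2 = 0 ∧ u3 = 0 := by
  have h' := KC.decomp_unique k ![u0, u1, u2, u3] (by
    intro b
    fin_cases b
    · exact h0
    · exact h1
    · exact h2
    · exact h3) h
  exact ⟨h' 0, h' 1, h' 2, h' 3⟩
/-- trace of `lev k`-multiples of `1, S1, S2, S3` -/
theorem kpd_tr_low (k : ℕ) (u0 u1 u2 u3 : QA K) (h0 : u0 ∈ lev K k) (h1 : u1 ∈ lev K k)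
    (h2 : u2 ∈ lev K k) (h3 : u3 ∈ lev K k) :
    QA.tr (u0 + u1 * S1 k + u2 * S2 k + u3 * S3 k) = QA.tr u0 := by
  rw [map_add, map_add, map_add, KC.tr_S1 k u1 h1, KC.tr_S2 k u2 h2, KC.tr_S3 k u3 h3]
  simp

end A

/-! ### part B -/
section B
variable {K L : Type} [Field K] [KF K] [Field L] [KF L]

/-- **D1** (note P1, (1.3)). -/
theorem kpd_D1 (P : Place K L) (k : ℕ) (ω0 : QA K) (h0 : ω0 ∈ lev K k) (u : QA L)
    (hu : u ∈ lev L k) (hi : P.Int u) (π : L) (hπ : π ≠ 0) (hπO : π ∈ P.O) (hπr : P.r π = 0) :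
    ω0 ∈ P.resS (Subalgebra.toSubmodule (Algebra.adjoin L {P.iq ω0 + π • u})) ∧
    Pr k {ω0} (P.rq u) ∈
      P.resS (Subalgebra.toSubmodule (Algebra.adjoin L {P.iq ω0 + π • u})) := by
  have hr : P.rq u ∈ lev K k := P.rq_lev hu
  have hc := Pr_spec k {ω0} (P.rq u) hr
  refine ⟨P.base_mem_resA ω0 hi hπO hπr, ?_⟩
  obtain ⟨η, -, -, hη⟩ := kpa_ad_surj (k := k) (ω := ω0) (u := P.rq u - Pr k {ω0} (P.rq u)) h0
    (sub_mem hr hc.1) (kpa_Pr_sub_Pr hr)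
  haveI := kpa_fd_lev (K := K) k
  have hint : IsIntegral K ω0 := by
    have h1 : IsIntegral K (⟨ω0, h0⟩ : lev K k) := IsIntegral.of_finite K _
    exact h1.map (lev K k).val
  exact P.D1_aux (c := Pr k {ω0} (P.rq u)) (η := η) hint hi hπ hπO hπr
    (hc.2.1 ω0 rfl).symm (by rw [← hη]; abel)

/-- **D2** (note P1, (1.2)). -/
theorem kpd_D2 (P : Place K L) (k : ℕ) (Φ : Subalgebra L (QA L)) (hΦ : Φ ≤ lev L k)
    (hc : ∀ a ∈ Φ, ∀ b ∈ Φ, a * b = b * a) (u : QA L) (hu : u ∈ lev L k) (hi : P.Int u) :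
    P.Int (Pr k (Φ : Set (QA L)) u) ∧
      P.rq (Pr k (Φ : Set (QA L)) u) =
        Pr k (P.resS (Subalgebra.toSubmodule Φ) : Set (QA K)) (P.rq u) := by
  have hres : P.resA Φ ≤ lev K k := by
    rintro _ ⟨v, hv, -, rfl⟩
    exact P.rq_lev (hΦ hv)
  have hnd : ∀ c ∈ CenA k (P.resA Φ : Set (QA K)), c ≠ 0 →
      ∃ d ∈ CenA k (P.resA Φ : Set (QA K)), QA.tr (c * d) ≠ 0 := by
    intro c hc hc0
    by_contra hcon
    push Not at hcon
    have hc' : c ∈ cenA k (P.resA Φ : Set (QA K)) := mem_cenA.2 (mem_CenA.1 hc)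
    exact hc0 (kpa_sub_nondeg hc' fun d hd => hcon d (mem_CenA.2 (mem_cenA.1 hd)))
  have hC : P.resA (CenA k (Φ : Set (QA L))) = CenA k (P.resA Φ : Set (QA K)) := by
    refine P.resA_CenA_aux k Φ hΦ (kpa_fd_lev k) (kpa_fd_lev k) ?_ ?_
    · exact kpa_finrank_cenA hΦ
    · exact kpa_finrank_cenA hres
  obtain ⟨h1, h2⟩ := P.D2_aux k Φ hC hnd hi (Pr_spec k (Φ : Set (QA L)) u hu)
  exact ⟨h1, (kpa_Pr_eq (P.rq_lev hu) h2).symm⟩

end B

/-! ### part C -/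
section C
variable {K I J : Type} [Field K] [KF K] [Fintype I] [Fintype J]

/-- Lemma 3 (existence of growth steps). -/
theorem kpd_growth (s : Pt K I J) (hg : s.Good) (ha : s.Alt) (w1 w2 : I → QA K)
    (h1 : w1 ∈ s.W) (h2 : w2 ∈ s.W) (hB : ∀ c ∈ s.U, s.B c w1 w2 = 0) (hI : s.Inj s.W w1 w2)
    (hP : s.PIc w1 w2) : ∃ T, s.IsGrowth T w1 w2 :=
  KC.exists_grow s hg ha w1 w2 h1 h2 hB hI hP

/-- **GL** -/
theorem kpd_GL (s : Pt K I J) (hg : s.Good) (ha : s.Alt) (Wt Ω : Submodule K (I → QA K))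
    (hWt : Wt ≤ s.W) (hΩ : Ω ≤ s.W) (hT : s.TInj Ω Wt) (hInn : ∀ v ∈ Ω, s.InnXY v → v = 0)
    (hd : 2 * s.o ^ 2 + s.o + 4 ≤ finrank K Ω) (v1 v2 : I → QA K) (h1 : v1 ∈ s.W)
    (h2 : v2 ∈ s.W) :
    ∃ w1 w2, w1 ∈ s.W ∧ w2 ∈ s.W ∧ w1 - v1 ∈ Ω ∧ w2 - v2 ∈ Wt ⊔ Ω ∧
      (∀ c ∈ s.U, s.B c w1 w2 = 0) ∧ s.PIc w1 w2 ∧ s.Inj Wt w1 w2 := by
  haveI := KC.finite_W s hg
  haveI : FiniteDimensional K Ω := Submodule.finiteDimensional_of_le hΩ
  haveI : FiniteDimensional K Wt := Submodule.finiteDimensional_of_le hWt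
  obtain ⟨ω1, hω1, η, hη, ω2, hω2, e1, e2, e3⟩ := KC.gen_pos s Wt Ω hT hInn hd v1 v2
  refine ⟨v1 + ω1, v2 + η + ω2, s.W.add_mem h1 (hΩ hω1),
    s.W.add_mem (s.W.add_mem h2 (hWt hη)) (hΩ hω2), ?_, ?_, e1, e2, e3⟩
  · rw [add_sub_cancel_left]; exact hω1
  · have : v2 + η + ω2 - v2 = η + ω2 := by abel
    rw [this]
    exact Submodule.add_mem_sup hη hω2

/-- **GPa** -/
theorem kpd_GPa (s : Pt K I J) (Ω W Wt : Submodule K (I → QA K)) [FiniteDimensional K W]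
    [FiniteDimensional K Ω] (hWt : Wt ≤ W) (κ : ℕ) (hκ : finrank K W ≤ finrank K Wt + κ)
    (hT : s.TInj Ω W) :
    ∃ Ω' : Submodule K (I → QA K), Ω' ≤ Ω ∧ s.TInj Ω' Wt ∧
      finrank K Ω ≤ finrank K Ω' + κ * s.o := by
  obtain ⟨Ω', h1, h2, h3⟩ := KC.TInj_restrict s Ω W Wt hWt κ hκ hT
  exact ⟨Ω', h1, h3, h2⟩

/-- one step states are reachable -/
theorem kpd_o_curve (s : Pt K I J) (hs : s.Stable) (T : I → QA K⟦X⟧)
    (hT : s.IsCurve T) : (s.curve T).o = s.o :=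
  hs _ _ _ _ _ (Rch.curve K _ _ s _ Rch.refl T hT)

theorem kpd_o_grow (s : Pt K I J) (hs : s.Stable) (T : I → QA K⟦X⟧)
    (w1 w2 : I → QA K) (hT : s.IsGrowth T w1 w2) : (s.grow T).o = s.o :=
  hs _ _ _ _ _ (Rch.grow K _ _ s _ Rch.refl T w1 w2 hT)

theorem kpd_alt (s : Pt K I J) (hg : s.Good) (hs : s.Stable) : s.Alt :=
  (C_reach s hg hs K _ _ s _ Rch.refl).2.2

/-- richness persists under curves -/
theorem kpd_rich_curve (s : Pt K I J) (hg : s.Good) (hs : s.Stable) (T : I → QA K⟦X⟧)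
    (hT : s.IsCurve T) (t : ℕ) (hr : s.Rich t) : (s.curve T).Rich t :=
  KC.rich_curve s hg T hT (kpd_o_curve s hs T hT) t hr

/-- richness grows under growth steps -/
theorem kpd_rich_grow (s : Pt K I J) (hg : s.Good) (hs : s.Stable) (T : I → QA K⟦X⟧)
    (w1 w2 : I → QA K) (hT : s.IsGrowth T w1 w2) (t : ℕ) (hr : s.Rich t) :
    ∃ t', (s.grow T).Rich t' ∧ 4 * t ≤ t' + 3 * (s.o ^ 2 + s.o + 1) := by
  by_cases h : 3 * (s.o ^ 2 + s.o + 1) ≤ 4 * t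
  · refine ⟨4 * t - 3 * (s.o ^ 2 + s.o + 1), ?_, by omega⟩
    exact KC.rich_grow s hg (kpd_alt s hg hs) w1 w2 T hT (kpd_o_grow s hs T w1 w2 hT) t _ hr
      (by omega)
  · refine ⟨0, ?_, by omega⟩
    refine ⟨⊥, bot_le, finrank_bot _ _, ?_, fun v hv _ => by simpa using hv⟩
    intro n ω c hω hl hc hs' i
    exact absurd (by simpa using hω i) (hl.ne_zero i)

theorem kpd_fd_W (s : Pt K I J) (hg : s.Good) : FiniteDimensional K s.W := KC.finite_W s hg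

end C

end Crest.Agent.KP
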