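import Crest.Agent.KPD_Rich

/-!
# S0270, part D1 (helper63): strong richness persists, class `BB` nonempty
-/

set_option autoImplicit false
set_option linter.unusedSectionVars false

open scoped PowerSeries LaurentSeries symmDiff

namespace Crest.Agent.KP

open Module

namespace Pt

variable {K I J : Type} [Field K] [KF K] [Fintype I] [Fintype J]

/-- strong richness persists -/
theorem SR_curve (s : Pt K I J) (hg : s.Good) (hs : s.Stable) (T : I → QA K⟦X⟧)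
    (hT : s.IsCurve T) (hr : s.SR) : (s.curve T).SR := by
  obtain ⟨t, ht, h⟩ := hr
  have ho : (s.curve T).o = s.o :=
    hs _ _ _ _ _ (Rch.curve K _ _ s (Place.refl K) Rch.refl T hT)
  refine ⟨t, kpd_rich_curve s hg hs T hT t ht, ?_⟩
  rw [ho]
  exact h

theorem SR_grow (s : Pt K I J) (hg : s.Good) (hs : s.Stable) (T : I → QA K⟦X⟧)
    (w1 w2 : I → QA K) (hT : s.IsGrowth T w1 w2) (hr : s.SR) : (s.grow T).SR := by
  obtain ⟨t, ht, h⟩ := hr
  have ho : (s.grow T).o = s.o :=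
    hs _ _ _ _ _ (Rch.grow K _ _ s (Place.refl K) Rch.refl T w1 w2 hT)
  obtain ⟨t', ht', h'⟩ := kpd_rich_grow s hg hs T w1 w2 hT t ht
  refine ⟨t', ht', ?_⟩
  have hk : (s.grow T).k = s.k + 1 := rfl
  rw [ho, hk]
  unfold CR at h ⊢
  have h1 : 1 ≤ 2 ^ s.k := Nat.one_le_two_pow
  have h2 : 5 * (s.o + 1) ^ 2 * 1 ≤ 5 * (s.o + 1) ^ 2 * 2 ^ s.k := Nat.mul_le_mul_left _ h1
  have h3 : 3 * (s.o ^ 2 + s.o + 1) ≤ 5 * (s.o + 1) ^ 2 := by nlinarith
  have h4 : 5 * (s.o + 1) ^ 2 * 2 ^ (s.k + 1) = 2 * (5 * (s.o + 1) ^ 2 * 2 ^ s.k) := by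
    rw [pow_succ]; ring
  rw [h4]
  omega

theorem SR_rch (s : Pt K I J) (hg : s.Good) (hs : s.Stable) (hr : s.SR)
    (L : Type) (iF : Field L) (iK : KF L) (t : Pt L I J) (P : Place K L)
    (h : Rch s L iF iK t P) : t.SR := by
  induction h with
  | refl => exact hr
  | curve M jF jK t' Q h' T hT ih =>
    obtain ⟨h1, h2, -⟩ := C_reach s hg hs M jF jK t' Q h'
    exact SR_curve t' h1 h2 T hT ih
  | grow M jF jK t' Q h' T w1 w2 hT ih =>
    obtain ⟨h1, h2, -⟩ := C_reach s hg hs M jF jK t' Q h'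
    exact SR_grow t' h1 h2 T w1 w2 hT ih

theorem k_mono_rch (s : Pt K I J) (L : Type) (iF : Field L) (iK : KF L) (t : Pt L I J)
    (P : Place K L) (h : Rch s L iF iK t P) : s.k ≤ t.k := by
  induction h with
  | refl => exact le_refl _
  | curve M jF jK t' Q h' T hT ih => exact ih
  | grow M jF jK t' Q h' T w1 w2 hT ih => exact le_trans ih (Nat.le_succ _)

end Pt

namespace RSt

variable {K0 I J : Type} [Field K0] [KF K0] [Fintype I] [Fintype J] {s0 : Pt K0 I J}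

/-- If not case A, the class `BB` is nonempty.  First a state with `L ≠ 0`, rich for `q0`
(`C_rich`).  Claim: for all `h` there is a reachable state with level `k1 + h`, `L ≠ 0`, rich for
some `t ≥ q + 4^(h+1)`, `q = o^2+o+1` (growth steps from `exists_growth_ne`, `L ≠ 0` persists by
`Pr_T1`, `LL_ne_step`, `kpd_rich_grow`). For `h` large `4^(h+1) ≥ CR o * 2^(k1+h)`. -/
theorem BB_nonempty (hg : s0.Good) (hs : s0.Stable) (hr : s0.Rich s0.q0) (w : NC K0 I)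
    (hA : ∀ r : RSt s0, ∃ (M : Type) (jF : Field M) (jK : KF M) (t' : Pt M I J)
      (Q : Place r.L M), Rch r.t M jF jK t' Q ∧ t'.LL ((r.wd w).map Q.inc) ≠ ⊥) :
    ∃ r : RSt s0, BB w r := by
  -- the start state
  obtain ⟨r1, hr1⟩ : ∃ r1 : RSt s0, r1.t.LL (r1.wd w) ≠ ⊥ := by
    obtain ⟨M, jF, jK, t', Q, h', hne⟩ := hA ⟨K0, s0, Place.refl K0, Rch.refl⟩
    obtain ⟨P', hP', hinc⟩ := trans_exists
      (⟨K0, s0, Place.refl K0, Rch.refl⟩ : RSt s0) M jF jK t' Q h'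
    refine ⟨⟨M, t', P', hP'⟩, ?_⟩
    have e : (⟨M, t', P', hP'⟩ : RSt s0).wd w =
        ((⟨K0, s0, Place.refl K0, Rch.refl⟩ : RSt s0).wd w).map Q.inc := by
      show w.map P'.inc = (w.map _).map Q.inc
      rw [NC.map_map]
      congr 1
      funext a
      exact hinc a
    rw [e]
    exact hne
  -- induction on the level
  have key : ∀ h : ℕ, ∃ r : RSt s0, r.t.LL (r.wd w) ≠ ⊥ ∧ r.t.k = r1.t.k + h ∧
      ∃ t : ℕ, r.t.Rich t ∧ s0.q0 ≤ t ∧ s0.o ^ 2 + s0.o + 1 + 4 ^ (h + 1) ≤ t := by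
    intro h
    induction h with
    | zero =>
      refine ⟨r1, hr1, rfl, r1.t.q0, ?_, ?_, ?_⟩
      · exact C_rich s0 hg hs hr r1.L r1.iF r1.iK r1.t r1.P r1.h
      · have ho : r1.t.o = s0.o := hs _ _ _ _ _ r1.h
        unfold Pt.q0
        rw [ho]
      · have ho : r1.t.o = s0.o := hs _ _ _ _ _ r1.h
        unfold Pt.q0
        rw [ho]
        norm_num
        nlinarith
    | succ h ih =>
      obtain ⟨r, hne, hk, t, ht, ht1, ht2⟩ := ih
      obtain ⟨hg', hs', ha'⟩ := C_reach s0 hg hs r.L r.iF r.iK r.t r.P r.h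
      have ho : r.t.o = s0.o := hs _ _ _ _ _ r.h
      have hq : r.t.q0 ≤ t := by
        unfold Pt.q0 at ht1 ⊢
        rw [ho]; exact ht1
      obtain ⟨T, w1, w2, hT, hw1⟩ := r.t.exists_growth_ne hg' ha' (r.wd w) hne t hq ht
      obtain ⟨t', ht', h'⟩ := kpd_rich_grow r.t hg' hs' T w1 w2 hT t ht
      rw [ho] at h'
      have hst := r.t.isStep_grow hg' hs' T w1 w2 hT
      refine ⟨r.gr T w1 w2 hT, ?_, ?_, t', ht', ?_, ?_⟩
      · rw [wd_gr]
        refine r.t.LL_ne_step (r.t.grow T) T hst (r.wd w) ?_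
        show Pr (r.t.k + 1) {r.t.omg (r.wd w)} _ ≠ 0
        rw [r.t.Pr_T1 hg' (r.wd w) T w1 w2 hT]
        intro h0
        have hm : ∀ v ∈ r.t.W, r.t.ell (r.wd w) v ∈ lev r.L r.t.k := fun v hv =>
          kpd_Pr_mem _ _ _ (r.t.d1_lev hg' (r.wd w) v hv)
        have h2 := kpd_decomp_unique r.t.k 0 (r.t.ell (r.wd w) w1) (r.t.ell (r.wd w) w2) 0
          (zero_mem _) (hm w1 hT.w1W) (hm w2 hT.w2W) (zero_mem _)
          (by rw [zero_mul, add_zero, zero_add]; exact h0)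
        exact hw1 h2.2.1
      · show r.t.k + 1 = _
        omega
      · have : s0.o ^ 2 + s0.o + 1 ≤ t := Nat.le_trans (Nat.le_add_right _ _) ht2
        omega
      · have h4 : 4 ^ (h + 1 + 1) = 4 * 4 ^ (h + 1) := by rw [pow_succ]; ring
        rw [h4]
        omega
  obtain ⟨r, hne, hk, t, ht, -, ht2⟩ := key (CR s0.o * 2 ^ r1.t.k)
  refine ⟨r, hne, t, ht, ?_⟩
  have ho : r.t.o = s0.o := hs _ _ _ _ _ r.h
  rw [ho, hk]
  set c := CR s0.o * 2 ^ r1.t.k with hc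
  have h1 : c ≤ 2 ^ c := (Nat.lt_two_pow_self).le
  have h2 : CR s0.o * 2 ^ (r1.t.k + c) = c * 2 ^ c := by rw [pow_add, ← mul_assoc]
  rw [h2]
  have h3 : (4 : ℕ) ^ (c + 1) = 4 * (2 ^ c * 2 ^ c) := by
    rw [pow_succ, show (4 : ℕ) = 2 * 2 from rfl, mul_pow]; ring
  have h4 : c * 2 ^ c ≤ 2 ^ c * 2 ^ c := Nat.mul_le_mul_right _ h1
  rw [h3] at ht2
  omega

end RSt

end Crest.Agent.KP
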