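import Crest.Agent.KPD_GrB
import Crest.Agent.KPD_SR

/-!
# S0270, part D1 (helper63): the classes BB1, BB2
-/

set_option autoImplicit false
set_option linter.unusedSectionVars false

open scoped PowerSeries LaurentSeries symmDiff

namespace Crest.Agent.KP

open Module

namespace RSt

variable {K0 I J : Type} [Field K0] [KF K0] [Fintype I] [Fintype J] {s0 : Pt K0 I J}

theorem good (hg : s0.Good) (hs : s0.Stable) (r : RSt s0) : r.t.Good ∧ r.t.Stable ∧ r.t.Alt :=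
  C_reach s0 hg hs r.L r.iF r.iK r.t r.P r.h

/-- a state reachable from `r`, as an `RSt s0`, with the same word -/
theorem exists_trans (r : RSt s0) (w : NC K0 I) (M : Type) (jF : Field M) (jK : KF M)
    (t' : Pt M I J) (Q : Place r.L M) (h' : Rch r.t M jF jK t' Q) :
    ∃ P' : Place K0 M, ∃ h : Rch s0 M jF jK t' P',
      (RSt.mk M t' P' h).wd w = (r.wd w).map Q.inc := by
  obtain ⟨P', h1, h2⟩ := trans_exists r M jF jK t' Q h'
  refine ⟨P', h1, ?_⟩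
  show w.map _ = (w.map _).map _
  rw [NC.map_map]
  congr 1
  funext a
  exact h2 a

private theorem div_cmp {A B n n' : ℕ} (h1 : n ∣ A) (h2 : n' ∣ B) (h : A / n ≤ B / n') :
    n' * A ≤ n * B := by
  obtain ⟨q, rfl⟩ := h1
  obtain ⟨q', rfl⟩ := h2
  rcases Nat.eq_zero_or_pos n with rfl | hn
  · simp
  rcases Nat.eq_zero_or_pos n' with rfl | hn'
  · simp
  rw [Nat.mul_div_cancel_left _ hn, Nat.mul_div_cancel_left _ hn'] at h
  calc n' * (n * q) = n * n' * q := by ring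
    _ ≤ n * n' * q' := Nat.mul_le_mul_left _ h
    _ = n * (n' * q') := by ring

/-- `BB_1` states have `L ≤ K'`: curve in direction `v` with `ell v = l ≠ 0`; `cv` is in `BB`
(`LL_ne_step`, `SR_curve`), so `m1 r ≤ m1 (cv)`, so `n1 (cv) ≤ n1 r` (divisibility `n1_dvd`);
`D1_step`; dimensions (`finrank_resA`) give `res K'(cv) = K'`. -/
theorem BB1_comm (hg : s0.Good) (hs : s0.Stable) (w : NC K0 I) (r : RSt s0) (hr : BB1 w r) :
    r.t.LL (r.wd w) ≤ Subalgebra.toSubmodule (r.t.K1 (r.wd w)) := by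
  obtain ⟨rg, rs, ra⟩ := r.good hg hs
  rintro l ⟨v, hv, rfl⟩
  by_cases hl : r.t.ell (r.wd w) v = 0
  · rw [hl]
    exact Submodule.zero_mem _
  obtain ⟨T, hT, hT1⟩ := C_dir r.t rg v hv
  have hst := r.t.isStep_curve rg rs T hT
  have hPr : Pr (r.t.curve T).k {r.t.omg (r.wd w)}
      ((r.wd w).d1 r.t.X (fun i => cf 1 (T i))) = r.t.ell (r.wd w) v := by
    have e1 : (fun i => cf 1 (T i)) = v := funext hT1
    rw [e1]
    rfl
  have hLL := r.t.LL_ne_step (r.t.curve T) T hst (r.wd w) (by rw [hPr]; exact hl)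
  have hBB : BB w (r.cv T hT) := by
    refine ⟨?_, r.t.SR_curve rg rs T hT hr.1.2⟩
    rw [wd_cv]
    exact hLL
  obtain ⟨cg, cs, ca⟩ := (r.cv T hT).good hg hs
  have hm := hr.2 _ hBB
  have hd1 := r.t.n1_dvd rg (r.wd w)
  have hd2 := (r.cv T hT).t.n1_dvd cg ((r.cv T hT).wd w)
  have hcmp := div_cmp hd1 hd2 hm
  rw [wd_cv] at hcmp
  have hn : (r.t.curve T).n1 (r.wd w).up ≤ r.t.n1 (r.wd w) := by
    have h2 : (r.cv T hT).t.k = r.t.k := rfl
    rw [h2] at hcmp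
    exact Nat.le_of_mul_le_mul_right hcmp (by positivity)
  obtain ⟨hD1, hD2⟩ := r.t.D1_step (r.t.curve T) T hst (r.wd w)
  rw [hPr] at hD2
  haveI hfd : FiniteDimensional r.L⸨X⸩ ((r.t.curve T).K1 (r.wd w).up) :=
    kpd_fd_sub _ _ ((r.t.curve T).K1_lev hst.good' _)
  have hfr := finrank_resA (Place.laurent r.L) ((r.t.curve T).K1 (r.wd w).up)
  haveI hfd2 : FiniteDimensional r.L
      (resA (Place.laurent r.L) ((r.t.curve T).K1 (r.wd w).up)) :=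
    kpd_fd_sub _ _ (resA_lev (Place.laurent r.L) _ _ ((r.t.curve T).K1_lev hst.good' _))
  have heq : Subalgebra.toSubmodule (r.t.K1 (r.wd w)) =
      Subalgebra.toSubmodule (resA (Place.laurent r.L) ((r.t.curve T).K1 (r.wd w).up)) := by
    haveI : FiniteDimensional r.L (Subalgebra.toSubmodule
      (resA (Place.laurent r.L) ((r.t.curve T).K1 (r.wd w).up))) := hfd2
    refine Submodule.eq_of_le_of_finrank_le hD1 ?_
    show finrank r.L (resA (Place.laurent r.L) ((r.t.curve T).K1 (r.wd w).up)) ≤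
      finrank r.L (r.t.K1 (r.wd w))
    rw [hfr]
    exact hn
  rw [heq]
  exact hD2

/-- a growth step (C) at a `BB_2` state leads to a `BB_2` state and `n1, n2` double. -/
theorem BB2_gr (hg : s0.Good) (hs : s0.Stable) (w : NC K0 I) (r : RSt s0) (hr : BB2 w r)
    (T : I → QA r.L⟦X⟧) (w1 w2 : I → QA r.L) (a ρ : QA r.L)
    (h : r.t.GH (r.wd w) T w1 w2 a ρ) :
    BB2 w (r.gr T w1 w2 h.gr) ∧
      (r.t.grow T).n1 (r.wd w).up = 2 * r.t.n1 (r.wd w) ∧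
      (r.t.grow T).n2 (r.wd w).up = 2 * r.t.n2 (r.wd w) ∧
      (r.t.grow T).LL (r.wd w).up ≤
        Subalgebra.toSubmodule ((r.t.grow T).K1 (r.wd w).up) := by
  obtain ⟨rg, rs, ra⟩ := r.good hg hs
  obtain ⟨gg, gs, ga⟩ := (r.gr T w1 w2 h.gr).good hg hs
  have hLL := h.LL_ne
  have hBB : BB w (r.gr T w1 w2 h.gr) := by
    refine ⟨?_, r.t.SR_grow rg rs T w1 w2 h.gr hr.1.1.2⟩
    rw [wd_gr]
    exact hLL
  have hk : (r.gr T w1 w2 h.gr).t.k = r.t.k + 1 := rfl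
  have hd1 := r.t.n1_dvd rg (r.wd w)
  have hd1' := (r.gr T w1 w2 h.gr).t.n1_dvd gg ((r.gr T w1 w2 h.gr).wd w)
  have hcmp1 := div_cmp hd1 hd1' (hr.1.2 _ hBB)
  rw [wd_gr, hk, pow_succ] at hcmp1
  have h21 := h.two_n1_le
  have hn1 : (r.t.grow T).n1 (r.wd w).up = 2 * r.t.n1 (r.wd w) := by
    apply le_antisymm _ h21
    have h3 : (r.t.grow T).n1 (r.wd w).up * 2 ^ r.t.k ≤ (2 * r.t.n1 (r.wd w)) * 2 ^ r.t.k := by
      calc (r.t.grow T).n1 (r.wd w).up * 2 ^ r.t.k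
          ≤ r.t.n1 (r.wd w) * (2 ^ r.t.k * 2) := hcmp1
        _ = (2 * r.t.n1 (r.wd w)) * 2 ^ r.t.k := by ring
    exact Nat.le_of_mul_le_mul_right h3 (by positivity)
  have hm1 : m1 w (r.gr T w1 w2 h.gr) = m1 w r := by
    unfold m1
    rw [wd_gr]
    show 2 ^ (r.t.k + 1) / (r.t.grow T).n1 (r.wd w).up = 2 ^ r.t.k / r.t.n1 (r.wd w)
    rw [hn1, pow_succ, mul_comm (2 ^ r.t.k) 2]
    exact Nat.mul_div_mul_left _ _ (by norm_num)
  have hBB1 : BB1 w (r.gr T w1 w2 h.gr) := by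
    refine ⟨hBB, fun r' hr' => ?_⟩
    rw [hm1]
    exact hr.1.2 r' hr'
  have hcomm := BB1_comm hg hs w _ hBB1
  have hcomm' : (r.t.grow T).LL (r.wd w).up ≤
      Subalgebra.toSubmodule ((r.t.grow T).K1 (r.wd w).up) := by
    rw [wd_gr] at hcomm
    exact hcomm
  have h22 := h.two_n2_le hn1 hcomm'
  have hd2 := r.t.n2_dvd rg (r.wd w) h.comm
  have hd2' := (r.gr T w1 w2 h.gr).t.n2_dvd gg ((r.gr T w1 w2 h.gr).wd w) hcomm
  have hcmp2 := div_cmp hd2 hd2' (hr.2 _ hBB1)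
  rw [wd_gr, hk, pow_succ] at hcmp2
  have hn2 : (r.t.grow T).n2 (r.wd w).up = 2 * r.t.n2 (r.wd w) := by
    apply le_antisymm _ h22
    have h3 : (r.t.grow T).n2 (r.wd w).up * 2 ^ r.t.k ≤ (2 * r.t.n2 (r.wd w)) * 2 ^ r.t.k := by
      calc (r.t.grow T).n2 (r.wd w).up * 2 ^ r.t.k
          ≤ r.t.n2 (r.wd w) * (2 ^ r.t.k * 2) := hcmp2
        _ = (2 * r.t.n2 (r.wd w)) * 2 ^ r.t.k := by ring
    exact Nat.le_of_mul_le_mul_right h3 (by positivity)
  have hm2 : m2 w (r.gr T w1 w2 h.gr) = m2 w r := by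
    unfold m2
    rw [wd_gr]
    show 2 ^ (r.t.k + 1) / (r.t.grow T).n2 (r.wd w).up = 2 ^ r.t.k / r.t.n2 (r.wd w)
    rw [hn2, pow_succ, mul_comm (2 ^ r.t.k) 2]
    exact Nat.mul_div_mul_left _ _ (by norm_num)
  refine ⟨⟨hBB1, fun r' hr' => ?_⟩, hn1, hn2, hcomm'⟩
  rw [hm2]
  exact hr.2 r' hr'

/-- existence of growth steps (C) at `BB_2` states (`exists_growth_LL`). -/
theorem BB2_exists (hg : s0.Good) (hs : s0.Stable) (w : NC K0 I) (r : RSt s0) (hr : BB2 w r)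
    (a ρ : QA r.L) (ha : a ∈ r.t.LL (r.wd w)) (ha0 : a ≠ 0) (hρ : ρ ∈ r.t.RR (r.wd w) a) :
    ∃ T w1 w2, r.t.GH (r.wd w) T w1 w2 a ρ := by
  obtain ⟨rg, rs, ra⟩ := r.good hg hs
  have hcomm := BB1_comm hg hs w r hr.1
  obtain ⟨T, w1, w2, h1, h2, h3, h4⟩ := r.t.exists_growth_LL rg ra (r.wd w) hcomm hr.1.1.2 a
    (a * ρ) ha hρ.2
  exact ⟨T, w1, w2, ⟨rg, rs, hcomm, h1, ha0, h2, h3, hρ, h4⟩⟩

end RSt

end Crest.Agent.KP
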