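import Mathlib

/-!
# S0270, part D (helper63): counting lemma for ITERATE
-/

set_option autoImplicit false

namespace Crest.Agent.KP

/-- If `c_{h+1}(j) ≤ c_h(j) + c_h(j+1)`, `c_0(j) ≤ N`, `c_0(j) = 0` for `j ≥ N`, then
`c_h(j) = 0` for `j ≥ N` and `c_h(N - 1 - i) ≤ N (h+1)^i`. -/
theorem count_bound (c : ℕ → ℕ → ℕ) (N : ℕ) (h0 : ∀ j, c 0 j ≤ N) (h1 : ∀ j, N ≤ j → c 0 j = 0)
    (hs : ∀ h j, c (h + 1) j ≤ c h j + c h (j + 1)) (h : ℕ) :
    c h 0 ≤ N * (h + 1) ^ N := by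
  have hz : ∀ h j, N ≤ j → c h j = 0 := by
    intro h
    induction h with
    | zero => exact h1
    | succ h ih =>
      intro j hj
      have := hs h j
      rw [ih j hj, ih (j + 1) (by omega)] at this
      omega
  have key : ∀ i j, N ≤ j + i → ∀ h, c h j ≤ N * (h + 1) ^ i := by
    intro i
    induction i with
    | zero =>
      intro j hj h
      rw [hz h j (by omega)]
      exact Nat.zero_le _
    | succ i ih =>
      intro j hj h
      induction h with
      | zero => simpa using h0 j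
      | succ h ihh =>
        have h2 := ih (j + 1) (by omega) h
        have h3 := hs h j
        calc c (h + 1) j ≤ c h j + c h (j + 1) := h3
          _ ≤ N * (h + 1) ^ (i + 1) + N * (h + 1) ^ i := Nat.add_le_add ihh h2
          _ = N * ((h + 1) ^ i * (h + 2)) := by ring
          _ ≤ N * ((h + 2) ^ i * (h + 2)) := by
              apply Nat.mul_le_mul_left
              apply Nat.mul_le_mul_right
              exact Nat.pow_le_pow_left (by omega) i
          _ = N * (h + 1 + 1) ^ (i + 1) := by ring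
  exact key N 0 (by omega) h

/-- exponential beats polynomial: `N 2^h` eventually exceeds `a (N (h+1)^N + 1)^b + a`. -/
theorem exists_exp_ge (N a b : ℕ) (hN : 1 ≤ N) :
    ∃ h : ℕ, a * (N * (h + 1) ^ N + 1) ^ b + a ≤ N * 2 ^ h := by
  have hlim : Filter.Tendsto (fun h : ℕ => ((h : ℝ) ^ (N * b)) / (2 : ℝ) ^ h) Filter.atTop
      (nhds 0) := tendsto_pow_const_div_const_pow_of_one_lt _ (by norm_num)
  -- choose `h` with `(h+1)^(N b) * C ≤ 2^(h+1)`
  set C : ℝ := 2 * (a * (N + 1) ^ b + a) + 1 with hC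
  have hCpos : 0 < C := by positivity
  have hev := hlim.eventually (gt_mem_nhds (show (0 : ℝ) < 1 / C by positivity))
  obtain ⟨h, hh1, hh2⟩ := (hev.and (Filter.eventually_ge_atTop 1)).exists
  refine ⟨h - 1, ?_⟩
  have e1 : h - 1 + 1 = h := by omega
  have hpos : (0 : ℝ) < 2 ^ h := by positivity
  rw [div_lt_div_iff₀ hpos hCpos, one_mul] at hh1
  have hh : (1 : ℝ) ≤ (h : ℝ) := by exact_mod_cast hh2
  have h5 : (1 : ℝ) ≤ (h : ℝ) ^ N := one_le_pow₀ hh
  have h6 : (1 : ℝ) ≤ (h : ℝ) ^ (N * b) := one_le_pow₀ hh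
  have hNr : (1 : ℝ) ≤ (N : ℝ) := by exact_mod_cast hN
  have h7 : ((N : ℝ) * (h : ℝ) ^ N + 1) ^ b ≤ ((N + 1 : ℝ)) ^ b * (h : ℝ) ^ (N * b) := by
    rw [pow_mul, ← mul_pow]
    apply pow_le_pow_left₀ (by positivity)
    nlinarith
  have h8 : (a : ℝ) * ((N : ℝ) * (h : ℝ) ^ N + 1) ^ b + a ≤ (N : ℝ) * 2 ^ (h - 1) := by
    have h9 : (a : ℝ) * ((N : ℝ) * (h : ℝ) ^ N + 1) ^ b ≤
        a * ((N + 1 : ℝ) ^ b * (h : ℝ) ^ (N * b)) :=
      mul_le_mul_of_nonneg_left h7 (by positivity)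
    have h10 : (a : ℝ) ≤ a * (h : ℝ) ^ (N * b) := by
      have := mul_le_mul_of_nonneg_left h6 (show (0 : ℝ) ≤ a by positivity)
      linarith
    have h11 : (2 : ℝ) ^ h = 2 * 2 ^ (h - 1) := by
      rw [← pow_succ', e1]
    have h12 : (h : ℝ) ^ (N * b) * (2 * (a * (N + 1) ^ b + a)) ≤ (h : ℝ) ^ (N * b) * C :=
      mul_le_mul_of_nonneg_left (by rw [hC]; linarith) (by positivity)
    have h13 : (2 : ℝ) ^ (h - 1) ≤ N * 2 ^ (h - 1) := by
      have : (0 : ℝ) < 2 ^ (h - 1) := by positivity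
      nlinarith
    nlinarith
  rw [e1]
  exact_mod_cast h8

end Crest.Agent.KP
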