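import Crest.Agent.KP_Defs4

/-!
# S0270, part D1 (helper63): definitions and statements for P3 (A)-(D)

`RSt s0` = states reachable from `s0` (with their place).  Classes `BB`, `BB1`, `BB2`, `CC`.
-/

set_option autoImplicit false
set_option linter.unusedSectionVars false

open scoped PowerSeries LaurentSeries symmDiff

namespace Crest.Agent.KP

open Module

/-- `Ā = S1 + ρ S2` -/
noncomputable def Ab {K : Type} [Field K] [KF K] (k : ℕ) (ρ : QA K) : QA K := S1 k + ρ * S2 k

/-- `∑_{i ≤ j} ρ^i R` -/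
noncomputable def Sj {K : Type} [Field K] [KF K] (ρ : QA K) (R : Submodule K (QA K)) (j : ℕ) :
    Submodule K (QA K) := ⨆ i ∈ Finset.range (j + 1), R.map (LinearMap.mulLeft K (ρ ^ i))

/-- constant of the strong richness condition -/
def CR (o : ℕ) : ℕ := 5 * (o + 1) ^ 2

/-- strong richness -/
def Pt.SR {K I J : Type} [Field K] [KF K] [Fintype I] [Fintype J] (s : Pt K I J) : Prop :=
  ∃ t : ℕ, s.Rich t ∧ CR s.o * 2 ^ s.k ≤ t

/-- states reachable from `s0` -/
structure RSt {K0 I J : Type} [Field K0] [KF K0] [Fintype I] [Fintype J] (s0 : Pt K0 I J) :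
    Type 1 where
  L : Type
  [iF : Field L]
  [iK : KF L]
  t : Pt L I J
  P : Place K0 L
  h : Rch s0 L iF iK t P

attribute [instance] RSt.iF RSt.iK

namespace RSt

variable {K0 I J : Type} [Field K0] [KF K0] [Fintype I] [Fintype J] {s0 : Pt K0 I J}

/-- the word at the state -/
noncomputable def wd (r : RSt s0) (w : NC K0 I) : NC r.L I := w.map r.P.inc

noncomputable def m1 (w : NC K0 I) (r : RSt s0) : ℕ := 2 ^ r.t.k / r.t.n1 (r.wd w)
noncomputable def m2 (w : NC K0 I) (r : RSt s0) : ℕ := 2 ^ r.t.k / r.t.n2 (r.wd w)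
noncomputable def dd (w : NC K0 I) (r : RSt s0) : ℕ := r.t.n2 (r.wd w) - r.t.nL (r.wd w)

/-- class `BB` -/
def BB (w : NC K0 I) (r : RSt s0) : Prop := r.t.LL (r.wd w) ≠ ⊥ ∧ r.t.SR
def BB1 (w : NC K0 I) (r : RSt s0) : Prop := BB w r ∧ ∀ r' : RSt s0, BB w r' → m1 w r ≤ m1 w r'
def BB2 (w : NC K0 I) (r : RSt s0) : Prop := BB1 w r ∧ ∀ r' : RSt s0, BB1 w r' → m2 w r ≤ m2 w r'
/-- class `CC` for the function `Pf` -/
def CC (w : NC K0 I) (Pf : ℕ → ℕ) (r : RSt s0) : Prop :=
  BB2 w r ∧ Pf (dd w r) ≤ r.t.n2 (r.wd w)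

/-- the state after a curve step -/
noncomputable def cv (r : RSt s0) (T : I → QA r.L⟦X⟧) (hT : r.t.IsCurve T) : RSt s0 where
  L := r.L⸨X⸩
  t := r.t.curve T
  P := r.P.trans (Place.laurent r.L)
  h := Rch.curve r.L r.iF r.iK r.t r.P r.h T hT

/-- the state after a growth step -/
noncomputable def gr (r : RSt s0) (T : I → QA r.L⟦X⟧) (w1 w2 : I → QA r.L)
    (hT : r.t.IsGrowth T w1 w2) : RSt s0 where
  L := r.L⸨X⸩
  t := r.t.grow T
  P := r.P.trans (Place.laurent r.L)
  h := Rch.grow r.L r.iF r.iK r.t r.P r.h T w1 w2 hT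

end RSt

/-- change of coefficients of words composes -/
theorem NC.map_map {R R' R'' I : Type} (f : R → R') (g : R' → R'') (w : NC R I) :
    (w.map f).map g = w.map (g ∘ f) := by
  induction w with
  | cst c => rfl
  | var i => rfl
  | add p q hp hq => simp only [NC.map, hp, hq]
  | mul p q hp hq => simp only [NC.map, hp, hq]

namespace RSt
variable {K0 I J : Type} [Field K0] [KF K0] [Fintype I] [Fintype J] {s0 : Pt K0 I J}

theorem wd_cv (r : RSt s0) (T : I → QA r.L⟦X⟧) (hT : r.t.IsCurve T) (w : NC K0 I) :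
    (r.cv T hT).wd w = (r.wd w).up := by
  show w.map _ = (w.map _).map _
  rw [NC.map_map]
  rfl

theorem wd_gr (r : RSt s0) (T : I → QA r.L⟦X⟧) (w1 w2 : I → QA r.L)
    (hT : r.t.IsGrowth T w1 w2) (w : NC K0 I) :
    (r.gr T w1 w2 hT).wd w = (r.wd w).up := by
  show w.map _ = (w.map _).map _
  rw [NC.map_map]
  rfl

/-- a state reachable from a reachable state is reachable; the inclusion of constants composes. -/
theorem trans_exists (r : RSt s0) (M : Type) (jF : Field M) (jK : KF M) (t' : Pt M I J)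
    (Q : Place r.L M) (h' : Rch r.t M jF jK t' Q) :
    ∃ P' : Place K0 M, Rch s0 M jF jK t' P' ∧ ∀ a, P'.inc a = Q.inc (r.P.inc a) := by
  induction h' with
  | refl => exact ⟨r.P, r.h, fun _ => rfl⟩
  | curve M jF jK t' Q h' T hT ih =>
    obtain ⟨P', h1, h2⟩ := ih
    refine ⟨P'.trans (Place.laurent M), Rch.curve M jF jK t' P' h1 T hT, fun a => ?_⟩
    show (Place.laurent M).inc (P'.inc a) = (Place.laurent M).inc (Q.inc (r.P.inc a))
    rw [h2]
  | grow M jF jK t' Q h' T w1 w2 hT ih =>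
    obtain ⟨P', h1, h2⟩ := ih
    refine ⟨P'.trans (Place.laurent M), Rch.grow M jF jK t' P' h1 T w1 w2 hT, fun a => ?_⟩
    show (Place.laurent M).inc (P'.inc a) = (Place.laurent M).inc (Q.inc (r.P.inc a))
    rw [h2]

end RSt

end Crest.Agent.KP
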