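import Mathlib

/-!
# S0270, part D (helper63): the FIELD LEMMA (maximal rank argument)
-/

set_option autoImplicit false

namespace Crest.Agent.KP

open Module

section maxrank
variable {K V W : Type*} [Field K] [Infinite K] [AddCommGroup V] [Module K V]
  [AddCommGroup W] [Module K W]

/-- linear independence is an open condition along a line. -/
theorem exists_li_line {n : ℕ} (u u' : Fin n → W) (hu : LinearIndependent K u) :
    ∃ t : K, t ≠ 0 ∧ LinearIndependent K (fun i => u i + t • u' i) := by
  classical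
  -- dual functionals
  obtain ⟨φ, hφ⟩ : ∃ φ : Fin n → (W →ₗ[K] K), ∀ i j, φ j (u i) = if i = j then 1 else 0 := by
    let b := Basis.span hu
    obtain ⟨q, hq⟩ := Submodule.exists_isCompl (Submodule.span K (Set.range u))
    let p := Submodule.linearProjOfIsCompl _ _ hq
    refine ⟨fun j => (b.coord j).comp p, fun i j => ?_⟩
    have hmem : u i ∈ Submodule.span K (Set.range u) := Submodule.subset_span ⟨i, rfl⟩
    have h1 : p (u i) = ⟨u i, hmem⟩ := by
      have := Submodule.linearProjOfIsCompl_apply_left hq ⟨u i, hmem⟩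
      exact this
    have h2 : (⟨u i, hmem⟩ : Submodule.span K (Set.range u)) = b i := by
      apply Subtype.ext
      rw [Basis.span_apply]
    rw [LinearMap.comp_apply, h1, h2, Basis.coord_apply, Basis.repr_self, Finsupp.single_apply]
  -- determinant polynomial
  let P : Matrix (Fin n) (Fin n) (Polynomial K) := Matrix.of fun i j =>
    (if i = j then 1 else 0) + Polynomial.X * Polynomial.C (φ j (u' i))
  have hdet0 : P.det ≠ 0 := by
    intro h0
    have h1 : Polynomial.eval 0 P.det = 1 := by
      rw [← Polynomial.coe_evalRingHom, RingHom.map_det]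
      have : (Polynomial.evalRingHom (0 : K)).mapMatrix P = 1 := by
        ext i j
        simp only [RingHom.mapMatrix_apply, Matrix.map_apply, P, Matrix.of_apply, map_add, map_mul,
          Polynomial.coe_evalRingHom, Polynomial.eval_X, zero_mul, add_zero, Matrix.one_apply]
        split_ifs <;> simp
      rw [this, Matrix.det_one]
    rw [h0, Polynomial.eval_zero] at h1
    exact zero_ne_one h1
  obtain ⟨t, ht⟩ : ∃ t : K, Polynomial.eval t (Polynomial.X * P.det) ≠ 0 := by
    by_contra hcon
    push Not at hcon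
    exact (mul_ne_zero Polynomial.X_ne_zero hdet0) (Polynomial.funext (fun t => by
      rw [hcon t, Polynomial.eval_zero]))
  rw [Polynomial.eval_mul, Polynomial.eval_X] at ht
  refine ⟨t, left_ne_zero_of_mul ht, ?_⟩
  have hdet := right_ne_zero_of_mul ht
  rw [← Polynomial.coe_evalRingHom, RingHom.map_det] at hdet
  rw [Fintype.linearIndependent_iff]
  intro g hg
  have hg2 : ∀ j, ∑ i, g i * ((if i = j then 1 else 0) + t * φ j (u' i)) = 0 := by
    intro j
    have := congrArg (φ j) hg
    rw [map_sum, map_zero] at this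
    refine Eq.trans (Finset.sum_congr rfl (fun i _ => ?_)) this
    rw [map_smul, map_add, map_smul, hφ]
    simp only [smul_eq_mul]
  have hv : Matrix.vecMul g ((Polynomial.evalRingHom t).mapMatrix P) = 0 := by
    funext j
    simp only [Matrix.vecMul, dotProduct, RingHom.mapMatrix_apply, Matrix.map_apply, P,
      Matrix.of_apply, Pi.zero_apply]
    rw [← hg2 j]
    refine Finset.sum_congr rfl (fun i _ => ?_)
    congr 1
    rw [map_add, map_mul]
    simp only [Polynomial.coe_evalRingHom, Polynomial.eval_X, Polynomial.eval_C]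
    split_ifs <;> simp
  have := Matrix.eq_zero_of_vecMul_eq_zero hdet hv
  intro i
  exact congrFun this i

/-- maximal rank lemma: if `ρ` has maximal rank among the maps `ρ + t σ`, then `σ (ker ρ) ⊆ im ρ`. -/
theorem maxrank [FiniteDimensional K V] (ρ σ : V →ₗ[K] W)
    (hmax : ∀ t : K, finrank K (LinearMap.range (ρ + t • σ)) ≤ finrank K (LinearMap.range ρ))
    (v : V) (hv : ρ v = 0) : σ v ∈ LinearMap.range ρ := by
  classical
  by_contra hσ
  set r := finrank K (LinearMap.range ρ) with hr
  let b := finBasisOfFinrankEq K (LinearMap.range ρ) hr.symm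
  have hpre : ∀ i, ∃ x, ρ x = (b i : W) := fun i => (b i).2
  choose x hx using hpre
  -- r + 1 independent vectors
  have hli : LinearIndependent K (Fin.cons (σ v) (fun i => ρ (x i)) : Fin (r + 1) → W) := by
    rw [linearIndependent_fin_cons]
    refine ⟨?_, ?_⟩
    · have h1 : (fun i => ρ (x i)) = (LinearMap.range ρ).subtype ∘ b := by
        funext i; rw [hx]; rfl
      rw [h1]
      exact b.linearIndependent.map' _ (Submodule.ker_subtype _)
    · intro hmem
      apply hσ
      have : Submodule.span K (Set.range fun i => ρ (x i)) ≤ LinearMap.range ρ := by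
        rw [Submodule.span_le]
        rintro _ ⟨i, rfl⟩
        exact ⟨x i, rfl⟩
      exact this hmem
  obtain ⟨t, ht0, ht⟩ := exists_li_line _ (Fin.cons 0 (fun i => σ (x i)) : Fin (r + 1) → W) hli
  -- these vectors lie in the range of ρ + t σ
  have hin : ∀ i, (Fin.cons (σ v) (fun i => ρ (x i)) : Fin (r + 1) → W) i +
      t • (Fin.cons 0 (fun i => σ (x i)) : Fin (r + 1) → W) i ∈ LinearMap.range (ρ + t • σ) := by
    intro i
    refine Fin.cases ?_ (fun i => ?_) i
    · refine ⟨t⁻¹ • v, ?_⟩
      rw [map_smul, LinearMap.add_apply, hv, LinearMap.smul_apply, zero_add, smul_smul,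
        inv_mul_cancel₀ ht0, one_smul, Fin.cons_zero, Fin.cons_zero, smul_zero, add_zero]
    · refine ⟨x i, ?_⟩
      rw [LinearMap.add_apply, LinearMap.smul_apply, Fin.cons_succ, Fin.cons_succ]
  have h2 : r + 1 ≤ finrank K (LinearMap.range (ρ + t • σ)) := by
    have h3 : LinearIndependent K (fun i => (⟨_, hin i⟩ : LinearMap.range (ρ + t • σ))) :=
      LinearIndependent.of_comp (LinearMap.range (ρ + t • σ)).subtype ht
    have := h3.fintype_card_le_finrank
    rwa [Fintype.card_fin] at this
  have := hmax t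
  omega

end maxrank

section field
variable {K A : Type*} [Field K] [Infinite K] [Ring A] [Algebra K A] [NoZeroDivisors A]

/-- `σ M` -/
def lmulS (σ : A) (M : Submodule K A) : Submodule K A := M.map (LinearMap.mulLeft K σ)

/-- one step of the FIELD LEMMA -/
theorem field_step (R S M : Submodule K A) [FiniteDimensional K R] [FiniteDimensional K S]
    [FiniteDimensional K M] (h : finrank K S + finrank K M < finrank K R) :
    ∃ ρ ∈ R, ∀ m ∈ M, ρ * m ∈ S → m = 0 := by
  classical
  -- the maps `M → A / S`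
  let f : A → (M →ₗ[K] A ⧸ S) := fun σ => S.mkQ ∘ₗ (LinearMap.mulLeft K σ) ∘ₗ M.subtype
  have hf : ∀ σ (m : M), f σ m = S.mkQ (σ * m) := fun σ m => rfl
  -- choose `ρ ∈ R` of maximal rank
  obtain ⟨ρ, hρR, hρ⟩ : ∃ ρ ∈ R, ∀ σ ∈ R, finrank K (LinearMap.range (f σ)) ≤
      finrank K (LinearMap.range (f ρ)) := by
    have hne : (R : Set A).Nonempty := ⟨0, R.zero_mem⟩
    have hbdd : ∀ σ : R, finrank K (LinearMap.range (f σ)) ≤ finrank K M := fun σ =>
      LinearMap.finrank_range_le _
    let P : ℕ → Prop := fun n => ∃ σ : R, finrank K (LinearMap.range (f σ)) = n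
    have hP : ∃ n, P n := ⟨_, ⟨0, rfl⟩⟩
    have hmax := Nat.findGreatest_spec (P := P) (hbdd 0) ⟨0, rfl⟩
    obtain ⟨ρ, hρ⟩ := hmax
    refine ⟨ρ, ρ.2, fun σ hσ => ?_⟩
    rw [hρ]
    exact Nat.le_findGreatest (hbdd ⟨σ, hσ⟩) ⟨⟨σ, hσ⟩, rfl⟩
  refine ⟨ρ, hρR, fun m hm hmS => ?_⟩
  by_contra hm0
  -- `R m ≤ S + ρ M`
  have hincl : R.map (LinearMap.mulRight K m) ≤ S ⊔ M.map (LinearMap.mulLeft K ρ) := by
    rintro _ ⟨σ, hσ, rfl⟩
    have h1 : f σ ⟨m, hm⟩ ∈ LinearMap.range (f ρ) := by
      apply maxrank (f ρ) (f σ)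
      · intro t
        have h2 : f ρ + t • f σ = f (ρ + t • σ) := by
          ext m'
          simp only [LinearMap.add_apply, LinearMap.smul_apply, hf, add_mul, smul_mul_assoc,
            map_add, map_smul]
        rw [h2]
        exact hρ _ (R.add_mem hρR (R.smul_mem t hσ))
      · rw [hf]
        exact (Submodule.Quotient.mk_eq_zero S).2 hmS
    obtain ⟨m', hm'⟩ := h1
    rw [hf, hf] at hm'
    have h3 : ρ * (m' : A) - σ * m ∈ S := (Submodule.Quotient.eq S).1 hm'
    have h4 : σ * m = -(ρ * (m' : A) - σ * m) + ρ * (m' : A) := by abel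
    rw [LinearMap.mulRight_apply, h4]
    exact Submodule.add_mem_sup (S.neg_mem h3) ⟨m', m'.2, rfl⟩
  have hinj : Function.Injective (LinearMap.mulRight K m) := by
    intro a b hab
    rw [LinearMap.mulRight_apply, LinearMap.mulRight_apply] at hab
    have h5 : (a - b) * m = 0 := by rw [sub_mul, hab, sub_self]
    rcases mul_eq_zero.1 h5 with h6 | h6
    · exact sub_eq_zero.1 h6
    · exact absurd h6 hm0
  have h7 : finrank K (R.map (LinearMap.mulRight K m)) = finrank K R :=
    (Submodule.equivMapOfInjective _ hinj R).finrank_eq.symm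
  have h8 := Submodule.finrank_mono hincl
  have h9 : finrank K ↥(S ⊔ M.map (LinearMap.mulLeft K ρ)) ≤
      finrank K S + finrank K (M.map (LinearMap.mulLeft K ρ)) :=
    Submodule.finrank_add_le_finrank_add_finrank _ _
  have h10 : finrank K (M.map (LinearMap.mulLeft K ρ)) ≤ finrank K M :=
    Submodule.finrank_map_le _ _
  omega

/-- iterated version: `λ_0, …, λ_{t-1}` with `∑ λ_i m_i ∈ S → m = 0`. -/
theorem field_iter (R M : Submodule K A) [FiniteDimensional K R] [FiniteDimensional K M] :
    ∀ (t : ℕ) (S : Submodule K A) [FiniteDimensional K S],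
      finrank K S + t * finrank K M < finrank K R →
      ∃ l : Fin t → A, (∀ i, l i ∈ R) ∧
        ∀ m : Fin t → A, (∀ i, m i ∈ M) → (∑ i, l i * m i ∈ S) → ∀ i, m i = 0 := by
  intro t
  induction t with
  | zero =>
    intro S _ _
    exact ⟨Fin.elim0, fun i => i.elim0, fun m _ _ i => i.elim0⟩
  | succ t ih =>
    intro S _ h
    have h0 : finrank K S + finrank K M < finrank K R := by nlinarith
    obtain ⟨ρ, hρR, hρ⟩ := field_step R S M h0
    have h1 : finrank K ↥(S ⊔ M.map (LinearMap.mulLeft K ρ)) ≤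
        finrank K S + finrank K (M.map (LinearMap.mulLeft K ρ)) :=
      Submodule.finrank_add_le_finrank_add_finrank _ _
    have h2 : finrank K (M.map (LinearMap.mulLeft K ρ)) ≤ finrank K M :=
      Submodule.finrank_map_le _ _
    obtain ⟨l, hlR, hl⟩ := ih (S ⊔ M.map (LinearMap.mulLeft K ρ)) (by
      have : (t + 1) * finrank K M = t * finrank K M + finrank K M := by ring
      omega)
    refine ⟨Fin.cons ρ l, ?_, ?_⟩
    · intro i
      refine Fin.cases ?_ (fun i => ?_) i
      · exact hρR
      · exact hlR i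
    · intro m hm hsum
      rw [Fin.sum_univ_succ] at hsum
      simp only [Fin.cons_zero, Fin.cons_succ] at hsum
      have h3 : ∀ i, m (Fin.succ i) = 0 := by
        apply hl (fun i => m (Fin.succ i)) (fun i => hm _)
        have h4 : ∑ i, l i * m (Fin.succ i) =
            (ρ * m 0 + ∑ i, l i * m (Fin.succ i)) + ρ * (-(m 0)) := by
          rw [mul_neg]; abel
        rw [h4]
        exact Submodule.add_mem_sup hsum ⟨-(m 0), M.neg_mem (hm 0), rfl⟩
      have h5 : m 0 = 0 := by
        apply hρ (m 0) (hm 0)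
        have h6 : ∑ i, l i * m (Fin.succ i) = 0 :=
          Finset.sum_eq_zero (fun i _ => by rw [h3 i, mul_zero])
        rw [h6, add_zero] at hsum
        exact hsum
      intro i
      refine Fin.cases h5 (fun i => h3 i) i

/-- FIELD LEMMA: `ρ` with `ρ M ∩ M = 0` and `λ_i ∈ R` with `∑ λ_i m_i ∈ M + ρ M → m = 0`. -/
theorem field_lemma (R M : Submodule K A) [FiniteDimensional K R] [FiniteDimensional K M] (t : ℕ)
    (h : (t + 2) * finrank K M < finrank K R) :
    ∃ ρ ∈ R, (∀ m ∈ M, ρ * m ∈ M → m = 0) ∧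
      ∃ l : Fin t → A, (∀ i, l i ∈ R) ∧
        ∀ m : Fin t → A, (∀ i, m i ∈ M) →
          (∑ i, l i * m i ∈ M ⊔ M.map (LinearMap.mulLeft K ρ)) → ∀ i, m i = 0 := by
  have e : (t + 2) * finrank K M = t * finrank K M + 2 * finrank K M := by ring
  obtain ⟨ρ, hρR, hρ⟩ := field_step R M M (by omega)
  refine ⟨ρ, hρR, hρ, ?_⟩
  have h1 : finrank K ↥(M ⊔ M.map (LinearMap.mulLeft K ρ)) ≤
      finrank K M + finrank K (M.map (LinearMap.mulLeft K ρ)) :=
    Submodule.finrank_add_le_finrank_add_finrank _ _
  have h2 : finrank K (M.map (LinearMap.mulLeft K ρ)) ≤ finrank K M :=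
    Submodule.finrank_map_le _ _
  exact field_iter R M t (M ⊔ M.map (LinearMap.mulLeft K ρ)) (by omega)

end field

section orth
variable {K A : Type*} [Field K] [Ring A] [Algebra K A]

/-- a subspace of `F` with zero orthogonal in `F` (for `τ(uv)` nondegenerate on `F`) is `F`. -/
theorem eq_of_orth_zero (τ : A →ₗ[K] K) (F S : Submodule K A) [FiniteDimensional K F]
    (hSF : S ≤ F) (hτ : ∀ a ∈ F, (∀ b ∈ F, τ (a * b) = 0) → a = 0)
    (hS : ∀ a ∈ F, (∀ b ∈ S, τ (a * b) = 0) → a = 0) : S = F := by
  classical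
  have hSfd : FiniteDimensional K S := Submodule.finiteDimensional_of_le hSF
  -- the map F → Dual F is injective hence bijective; F → Dual S is injective
  let g : F →ₗ[K] Module.Dual K S :=
    { toFun := fun a =>
        { toFun := fun b => τ ((a : A) * (b : A))
          map_add' := fun b c => by simp [mul_add]
          map_smul' := fun c b => by simp }
      map_add' := fun a b => by ext c; simp [add_mul]
      map_smul' := fun c a => by ext b; simp }
  have hg : Function.Injective g := by
    rw [injective_iff_map_eq_zero]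
    intro a ha
    apply Subtype.ext
    apply hS a a.2
    intro b hb
    have := LinearMap.congr_fun ha ⟨b, hb⟩
    exact this
  have h1 : finrank K F ≤ finrank K (Module.Dual K S) := LinearMap.finrank_le_finrank_of_injective hg
  rw [Subspace.dual_finrank_eq] at h1
  exact Submodule.eq_of_le_of_finrank_le hSF h1

/-- If `M` is the orthogonal of `R` in the commutative `F` and `ρ M ∩ M = 0`, then
`R + ρ R = F`. -/
theorem add_mul_eq_top (τ : A →ₗ[K] K) (F R M : Submodule K A) [FiniteDimensional K F]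
    (hRF : R ≤ F) (hmul : ∀ a ∈ F, ∀ b ∈ F, a * b ∈ F) (hcomm : ∀ a ∈ F, ∀ b ∈ F, a * b = b * a)
    (hτ : ∀ a ∈ F, (∀ b ∈ F, τ (a * b) = 0) → a = 0)
    (hM : ∀ a, a ∈ M ↔ a ∈ F ∧ ∀ b ∈ R, τ (a * b) = 0)
    (ρ : A) (hρR : ρ ∈ R) (hρ : ∀ m ∈ M, ρ * m ∈ M → m = 0) :
    R ⊔ R.map (LinearMap.mulLeft K ρ) = F := by
  have hρF := hRF hρR
  apply eq_of_orth_zero τ F
  · apply sup_le hRF
    rintro _ ⟨b, hb, rfl⟩
    exact hmul _ hρF _ (hRF hb)
  · exact hτ
  · intro a ha horth
    have h1 : a ∈ M := (hM a).2 ⟨ha, fun b hb => horth b (Submodule.mem_sup_left hb)⟩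
    apply hρ a h1
    rw [hM]
    refine ⟨hmul _ hρF _ ha, fun b hb => ?_⟩
    have h2 := horth (ρ * b) (Submodule.mem_sup_right ⟨b, hb, rfl⟩)
    rw [← mul_assoc] at h2
    rwa [hcomm _ hρF _ ha]

end orth

end Crest.Agent.KP
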