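import Crest.Agent.KPD_Rich
import Crest.Agent.KPD_Ab
import Crest.Agent.KPC_NC

/-!
# S0270, part D1 (helper63): P3 (C), one growth step with `ell w1 = a`, `ell w2 = a ρ`
-/

set_option autoImplicit false
set_option linter.unusedSectionVars false

open scoped PowerSeries LaurentSeries symmDiff

namespace Crest.Agent.KP

open Module

namespace Pt

variable {K I J : Type} [Field K] [KF K] [Fintype I] [Fintype J]

/-- hypotheses on the growth step of P3 (C) -/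
structure GH (s : Pt K I J) (w : NC K I) (T : I → QA K⟦X⟧) (w1 w2 : I → QA K) (a ρ : QA K) :
    Prop where
  good : s.Good
  stable : s.Stable
  comm : s.LL w ≤ Subalgebra.toSubmodule (s.K1 w)
  gr : s.IsGrowth T w1 w2
  a0 : a ≠ 0
  l1 : s.ell w w1 = a
  l2 : s.ell w w2 = a * ρ
  rho : ρ ∈ s.RR w a
  inj : s.Inj (s.W0 w) w1 w2

variable {s : Pt K I J} {w : NC K I} {T : I → QA K⟦X⟧} {w1 w2 : I → QA K} {a ρ : QA K}

theorem GH.aL (h : s.GH w T w1 w2 a ρ) : a ∈ s.LL w := ⟨w1, h.gr.w1W, h.l1⟩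

theorem GH.alt (h : s.GH w T w1 w2 a ρ) : s.Alt :=
  (C_reach s h.good h.stable K inferInstance inferInstance s (Place.refl K) Rch.refl).2.2

theorem GH.rch (h : s.GH w T w1 w2 a ρ) :
    Rch s K⸨X⸩ inferInstance inferInstance (s.grow T)
      ((Place.refl K).trans (Place.laurent K)) :=
  Rch.grow K inferInstance inferInstance s (Place.refl K) Rch.refl T w1 w2 h.gr

theorem GH.o_eq (h : s.GH w T w1 w2 a ρ) : (s.grow T).o = s.o :=
  h.stable _ _ _ _ _ h.rch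

theorem GH.good' (h : s.GH w T w1 w2 a ρ) : (s.grow T).Good :=
  (C_grow_o s h.good h.alt T w1 w2 h.gr).2 h.o_eq

theorem GH.step (h : s.GH w T w1 w2 a ρ) : s.IsStep (s.grow T) T :=
  isStep_grow s h.good h.stable T w1 w2 h.gr

theorem GH.aK (h : s.GH w T w1 w2 a ρ) : a ∈ s.K1 w := h.comm h.aL

theorem GH.rhoK2 (h : s.GH w T w1 w2 a ρ) : ρ ∈ s.K2 w := h.rho.1

theorem GH.rhoK (h : s.GH w T w1 w2 a ρ) : ρ ∈ s.K1 w :=
  K2_le s h.good w h.comm h.rhoK2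

theorem GH.fdK1 (h : s.GH w T w1 w2 a ρ) : FiniteDimensional K (s.K1 w) :=
  kpd_fd_sub s.k _ (K1_lev s h.good w)

theorem GH.fdK1' (h : s.GH w T w1 w2 a ρ) :
    FiniteDimensional K⸨X⸩ ((s.grow T).K1 w.up) :=
  kpd_fd_sub (s.grow T).k _ (K1_lev (s.grow T) h.good' w.up)

/-- `Pr (dw[T_1]) = a Ā` -/
theorem GH.Pr_T1' (h : s.GH w T w1 w2 a ρ) :
    Pr (s.grow T).k {s.omg w} (w.d1 s.X (fun i => cf 1 (T i))) = a * Ab s.k ρ := by
  have h1 := Pr_T1 s h.good w T w1 w2 h.gr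
  rw [h.l1, h.l2] at h1
  have h2 : a * Ab s.k ρ = a * S1 s.k + a * ρ * S2 s.k := by
    unfold Ab
    rw [mul_add, mul_assoc]
  rw [h2]
  exact h1

/-- `Pr_T1`, `LL_ne_step`, `kpd_decomp_unique`. -/
theorem GH.LL_ne (h : s.GH w T w1 w2 a ρ) : (s.grow T).LL w.up ≠ ⊥ := by
  refine LL_ne_step s (s.grow T) T h.step w ?_
  rw [h.Pr_T1']
  refine mul_ne_zero h.a0 ?_
  exact Ab_ne s.k (s.K1 w) (K1_lev s h.good w) ρ h.rhoK

/-- `K'[Ā] ≤ res K'(s')` (`D1_step`, `Pr_T1`: `a Ā ∈ res`, `a⁻¹ ∈ K'`). -/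
theorem GH.K1_res (h : s.GH w T w1 w2 a ρ) :
    Algebra.adjoin K ((s.K1 w : Set (QA K)) ∪ {Ab s.k ρ}) ≤
      resA (Place.laurent K) ((s.grow T).K1 w.up) := by
  obtain ⟨h1, h2⟩ := D1_step s (s.grow T) T h.step w
  rw [h.Pr_T1'] at h2
  have := h.fdK1
  obtain ⟨-, h3, h4⟩ := kpd_qinv (s.K1 w) a h.aK h.a0
  refine Algebra.adjoin_le ?_
  rintro x (hx | hx)
  · exact h1 hx
  · rw [Set.mem_singleton_iff.1 hx]
    have h5 := (resA (Place.laurent K) ((s.grow T).K1 w.up)).mul_mem (h1 h4) h2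
    rw [← mul_assoc, h3, one_mul] at h5
    exact h5

theorem GH.resA_fd (h : s.GH w T w1 w2 a ρ) :
    FiniteDimensional K (resA (Place.laurent K) ((s.grow T).K1 w.up)) :=
  kpd_fd_sub (s.grow T).k _
    (resA_lev (Place.laurent K) _ (s.grow T).k (K1_lev (s.grow T) h.good' w.up))

/-- `2 n1 ≤ n1'` (`finrank_adjoin_Ab`, `finrank_resA`). -/
theorem GH.two_n1_le (h : s.GH w T w1 w2 a ρ) : 2 * s.n1 w ≤ (s.grow T).n1 w.up := by
  have h1 := finrank_adjoin_Ab s.k (s.K1 w) (K1_lev s h.good w)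
    (fun x hx y hy => K1_comm s w x y hx hy) ρ h.rhoK
  have := h.fdK1'
  have := h.resA_fd
  have h2 : finrank K (resA (Place.laurent K) ((s.grow T).K1 w.up)) = (s.grow T).n1 w.up :=
    finrank_resA (Place.laurent K) ((s.grow T).K1 w.up)
  have h3 : 2 * s.n1 w = finrank K (Algebra.adjoin K ((s.K1 w : Set (QA K)) ∪ {Ab s.k ρ})) :=
    h1.symm
  rw [h3, ← h2]
  have h4 : FiniteDimensional K (Subalgebra.toSubmodule
    (resA (Place.laurent K) ((s.grow T).K1 w.up))) := h.resA_fd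
  exact Submodule.finrank_mono (s := Subalgebra.toSubmodule
    (Algebra.adjoin K ((s.K1 w : Set (QA K)) ∪ {Ab s.k ρ})))
    (t := Subalgebra.toSubmodule (resA (Place.laurent K) ((s.grow T).K1 w.up))) h.K1_res

/-- equality `K'[Ā] = res K'(s')` if `n1' = 2 n1`. -/
theorem GH.K1_eq (h : s.GH w T w1 w2 a ρ) (hn : (s.grow T).n1 w.up = 2 * s.n1 w) :
    resA (Place.laurent K) ((s.grow T).K1 w.up) =
      Algebra.adjoin K ((s.K1 w : Set (QA K)) ∪ {Ab s.k ρ}) := by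
  have h1 := finrank_adjoin_Ab s.k (s.K1 w) (K1_lev s h.good w)
    (fun x hx y hy => K1_comm s w x y hx hy) ρ h.rhoK
  have := h.fdK1'
  have h2 : finrank K (resA (Place.laurent K) ((s.grow T).K1 w.up)) = (s.grow T).n1 w.up :=
    finrank_resA (Place.laurent K) ((s.grow T).K1 w.up)
  have h4 : FiniteDimensional K (Subalgebra.toSubmodule
    (resA (Place.laurent K) ((s.grow T).K1 w.up))) := h.resA_fd
  have h5 : Subalgebra.toSubmodule (Algebra.adjoin K ((s.K1 w : Set (QA K)) ∪ {Ab s.k ρ})) =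
      Subalgebra.toSubmodule (resA (Place.laurent K) ((s.grow T).K1 w.up)) := by
    refine Submodule.eq_of_le_of_finrank_eq h.K1_res ?_
    have e1 : finrank K (Subalgebra.toSubmodule (Algebra.adjoin K
        ((s.K1 w : Set (QA K)) ∪ {Ab s.k ρ}))) = 2 * s.n1 w := h1
    have e2 : finrank K (Subalgebra.toSubmodule
        (resA (Place.laurent K) ((s.grow T).K1 w.up))) = (s.grow T).n1 w.up := h2
    rw [e1, e2, hn]
  exact (Subalgebra.toSubmodule_injective h5).symm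

/-- components of an element of `mulE k V` -/
theorem mulE_exists (k : ℕ) (V : Submodule K (I → QA K)) (η : I → QA K) (hη : η ∈ mulE k V) :
    ∃ v0 ∈ V, ∃ v1 ∈ V, ∃ v2 ∈ V, ∃ v3 ∈ V,
      η = fun i => v0 i + v1 i * S1 k + v2 i * S2 k + v3 i * S3 k := by
  unfold mulE at hη
  obtain ⟨y, hy, x3, hx3, rfl⟩ := Submodule.mem_sup.1 hη
  obtain ⟨y', hy', x2, hx2, rfl⟩ := Submodule.mem_sup.1 hy
  obtain ⟨v0, hv0, x1, hx1, rfl⟩ := Submodule.mem_sup.1 hy'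
  obtain ⟨v1, hv1, rfl⟩ := hx1
  obtain ⟨v2, hv2, rfl⟩ := hx2
  obtain ⟨v3, hv3, rfl⟩ := hx3
  exact ⟨v0, hv0, v1, hv1, v2, hv2, v3, hv3, rfl⟩

theorem mem_mulE (k : ℕ) (V : Submodule K (I → QA K)) (v0 v1 v2 v3 : I → QA K) (h0 : v0 ∈ V)
    (h1 : v1 ∈ V) (h2 : v2 ∈ V) (h3 : v3 ∈ V) :
    (fun i => v0 i + v1 i * S1 k + v2 i * S2 k + v3 i * S3 k) ∈ mulE k V := by
  unfold mulE
  have e : (fun i => v0 i + v1 i * S1 k + v2 i * S2 k + v3 i * S3 k) =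
      v0 + mulR (S1 k) v1 + mulR (S2 k) v2 + mulR (S3 k) v3 := rfl
  rw [e]
  exact Submodule.add_mem_sup (Submodule.add_mem_sup (Submodule.add_mem_sup h0
    (Submodule.mem_map_of_mem h1)) (Submodule.mem_map_of_mem h2)) (Submodule.mem_map_of_mem h3)

theorem kpd_S3_lev (k : ℕ) : (S3 k : QA K) ∈ lev K (k + 1) := by
  rw [kpd_S3]
  exact mul_mem (kpd_S1_lev k) (kpd_S2_lev k)

theorem kpd_comm_S3 (k : ℕ) (u : QA K) (hu : u ∈ lev K k) : u * S3 k = S3 k * u := by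
  rw [kpd_S3, ← mul_assoc, kpd_comm_S1 k u hu, mul_assoc, kpd_comm_S2 k u hu, mul_assoc]

/-- first derivative of a word in a direction of `mulE` -/
theorem d1_mulE (s : Pt K I J) (hg : s.Good) (w : NC K I) (v0 v1 v2 v3 : I → QA K) :
    w.d1 s.X (fun i => v0 i + v1 i * S1 s.k + v2 i * S2 s.k + v3 i * S3 s.k) =
      w.d1 s.X v0 + w.d1 s.X v1 * S1 s.k + w.d1 s.X v2 * S2 s.k + w.d1 s.X v3 * S3 s.k := by
  have e : (fun i => v0 i + v1 i * S1 s.k + v2 i * S2 s.k + v3 i * S3 s.k) =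
      v0 + (fun i => v1 i * S1 s.k) + (fun i => v2 i * S2 s.k) + (fun i => v3 i * S3 s.k) := rfl
  rw [e, NC.d1_add, NC.d1_add, NC.d1_add,
    KC.d1_mul_right s.X v1 (S1 s.k) (fun i => kpd_comm_S1 s.k _ (hg.Xlev i)) w,
    KC.d1_mul_right s.X v2 (S2 s.k) (fun i => kpd_comm_S2 s.k _ (hg.Xlev i)) w,
    KC.d1_mul_right s.X v3 (S3 s.k) (fun i => kpd_comm_S3 s.k _ (hg.Xlev i)) w]

/-- **[task]** every `l0 + l1 S1 + l2 S2 + l3 S3`, `l_b ∈ L(s)`, is `E_ω(dw[v])` for some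
`v ∈ ker Theta`: `v_b ∈ W` with `ell v_b = l_b`, `η = v_0 + v_1 S1 + v_2 S2 + v_3 S3 ∈ mulE s.k W`,
`C_theta` with `Wt = W0`: `η' ∈ mulE s.k W0`, `η + η' ∈ ker Theta`; components of `η'` have
`ell = 0`; `kpd_Pr_up`. -/
theorem GH.exists_ker (h : s.GH w T w1 w2 a ρ) (l0 l1 l2 l3 : QA K) (h0 : l0 ∈ s.LL w)
    (h1 : l1 ∈ s.LL w) (h2 : l2 ∈ s.LL w) (h3 : l3 ∈ s.LL w) :
    ∃ v : I → QA K, s.KerTh w1 w2 v ∧ (∀ i, v i ∈ lev K (s.k + 1)) ∧
      Pr (s.k + 1) {s.omg w} (w.d1 s.X v) = l0 + l1 * S1 s.k + l2 * S2 s.k + l3 * S3 s.k := by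
  obtain ⟨v0, hv0, rfl⟩ := h0
  obtain ⟨v1, hv1, rfl⟩ := h1
  obtain ⟨v2, hv2, rfl⟩ := h2
  obtain ⟨v3, hv3, rfl⟩ := h3
  have hg := h.good
  set η : I → QA K := fun i => v0 i + v1 i * S1 s.k + v2 i * S2 s.k + v3 i * S3 s.k with hη
  have hηW : η ∈ mulE s.k s.W := mem_mulE s.k s.W v0 v1 v2 v3 hv0 hv1 hv2 hv3
  obtain ⟨η', hη', hker⟩ := C_theta s hg h.alt w1 w2 h.gr.w1W h.gr.w2W (s.W0 w)
    inf_le_left h.inj η hηW
  obtain ⟨u0, hu0, u1, hu1, u2, hu2, u3, hu3, rfl⟩ := mulE_exists s.k (s.W0 w) η' hη'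
  -- everything is in `lev`
  have hWlev : ∀ v ∈ s.W, ∀ i, v i ∈ lev K s.k := fun v hv i =>
    hg.V1lev v (hg.V0V1 hv.1) i
  have hup : ∀ x : QA K, x ∈ lev K s.k → x ∈ lev K (s.k + 1) := fun x hx =>
    kpd_lev_mono (Nat.le_succ _) hx
  have hsum : (η + fun i => u0 i + u1 i * S1 s.k + u2 i * S2 s.k + u3 i * S3 s.k) =
      fun i => (v0 + u0) i + (v1 + u1) i * S1 s.k + (v2 + u2) i * S2 s.k +
        (v3 + u3) i * S3 s.k := by
    funext i
    simp only [hη, Pi.add_apply, add_mul]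
    abel
  have hm : ∀ {v u : I → QA K}, v ∈ s.W → u ∈ s.W0 w → v + u ∈ s.W := fun hv hu =>
    s.W.add_mem hv hu.1
  have hell : ∀ {v u : I → QA K}, u ∈ s.W0 w → s.ell w (v + u) = s.ell w v := by
    intro v u hu
    have : s.ell w u = 0 := hu.2
    rw [map_add, this, add_zero]
  refine ⟨_, hker, ?_, ?_⟩
  · intro i
    rw [hsum]
    have e0 := hup _ (hWlev _ (hm hv0 hu0) i)
    have e1 := hup _ (hWlev _ (hm hv1 hu1) i)
    have e2 := hup _ (hWlev _ (hm hv2 hu2) i)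
    have e3 := hup _ (hWlev _ (hm hv3 hu3) i)
    exact add_mem (add_mem (add_mem e0 (mul_mem e1 (kpd_S1_lev _))) (mul_mem e2 (kpd_S2_lev _)))
      (mul_mem e3 (kpd_S3_lev _))
  · rw [hsum, d1_mulE s hg w, kpd_Pr_up s.k {s.omg w}]
    · have e : ∀ {v u : I → QA K}, u ∈ s.W0 w →
          Pr s.k {s.omg w} (w.d1 s.X (v + u)) = s.ell w v := fun hu => hell hu
      rw [e hu0, e hu1, e hu2, e hu3]
    · intro φ hφ
      rw [Set.mem_singleton_iff.1 hφ]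
      exact omg_lev s hg w
    · exact d1_lev s hg w _ (hm hv0 hu0)
    · exact d1_lev s hg w _ (hm hv1 hu1)
    · exact d1_lev s hg w _ (hm hv2 hu2)
    · exact d1_lev s hg w _ (hm hv3 hu3)

/-- **[task]** residues of `L(s')`: `C_lift_grow` (`v' ∈ W(s')` with residue `v`), `ell_{s'} v' =
Pr {ω'} (dw'[v']) = Pr K'(s') (dw'[v'])` (`kpd_Pr_adjoin`), `kpd_D2`, `GH.K1_eq`,
residue of `dw'[v']` is `dw[v]` (`NC.kph_res_d1`), `kpd_Pr_Pr`, `GH.exists_ker`, `Pr_Ab`. -/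
theorem GH.res_LL (h : s.GH w T w1 w2 a ρ) (hn : (s.grow T).n1 w.up = 2 * s.n1 w)
    (l0 l1 l2 l3 : QA K) (h0 : l0 ∈ s.LL w)
    (h1 : l1 ∈ s.LL w) (h2 : l2 ∈ s.LL w) (h3 : l3 ∈ s.LL w) :
    l0 + ((al s.k : K) • l1 + (be s.k : K) • (l2 * ρ)) * qinv (Ab s.k ρ) ∈
      (Place.laurent K).resS ((s.grow T).LL w.up) := by
  have hg := h.good
  have hg' := h.good'
  obtain ⟨v, hker, hvlev, hPr⟩ := h.exists_ker l0 l1 l2 l3 h0 h1 h2 h3
  obtain ⟨v', hv'W, hv'i, hv'r⟩ := (C_lift_grow s hg h.alt T w1 w2 h.gr h.o_eq v).1 hker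
  set P := Place.laurent K with hP
  -- the derivative of the word
  have hXi : ∀ i, P.Int ((s.grow T).X i) := fun i => kpr_int_toL (T i)
  have hXr : ∀ i, P.rq ((s.grow T).X i) = s.X i := fun i => by
    have e1 : P.rq ((s.grow T).X i) = cf 0 (T i) := kpr_rq_toL (T i)
    rw [e1, h.gr.zero]
  obtain ⟨hd1, hd2⟩ := NC.kph_res_d1 P w (s.grow T).X v' hXi hv'i
  have hd2' : P.rq (w.up.d1 (s.grow T).X v') = w.d1 s.X v := by
    have e1 : (fun i => P.rq ((s.grow T).X i)) = s.X := funext hXr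
    have e2 : (fun i => P.rq (v' i)) = v := funext hv'r
    have := hd2
    rw [e1, e2] at this
    exact this
  have hdlev : w.up.d1 (s.grow T).X v' ∈ lev K⸨X⸩ (s.k + 1) :=
    d1_lev (s.grow T) hg' w.up v' hv'W
  have hK1lev : (s.grow T).K1 w.up ≤ lev K⸨X⸩ (s.k + 1) := K1_lev (s.grow T) hg' w.up
  obtain ⟨hD1, hD2⟩ := kpd_D2 P (s.k + 1) ((s.grow T).K1 w.up) hK1lev
    (fun x hx y hy => K1_comm (s.grow T) w.up x y hx hy) _ hdlev hd1
  have hell : (s.grow T).ell w.up v' =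
      Pr (s.k + 1) ((s.grow T).K1 w.up : Set (QA K⸨X⸩)) (w.up.d1 (s.grow T).X v') :=
    kpd_Pr_adjoin (s.k + 1) {(s.grow T).omg w.up} _ hdlev
  refine ⟨(s.grow T).ell w.up v', ⟨v', hv'W, rfl⟩, ?_, ?_⟩
  · rw [hell]
    exact hD1
  · rw [hell, hD2, hd2']
    have hres : (P.resS (Subalgebra.toSubmodule ((s.grow T).K1 w.up)) : Set (QA K)) =
        (Algebra.adjoin K ((s.K1 w : Set (QA K)) ∪ {Ab s.k ρ}) : Set (QA K)) := by
      have e1 := h.K1_eq hn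
      have e2 : (resA P ((s.grow T).K1 w.up) : Set (QA K)) =
        (Algebra.adjoin K ((s.K1 w : Set (QA K)) ∪ {Ab s.k ρ}) : Set (QA K)) := by
        rw [e1]
      exact e2
    rw [hres]
    have hwlev : w.d1 s.X v ∈ lev K (s.k + 1) :=
      NC.kph_d1_mem (lev K (s.k + 1)) w s.X v
        (fun i => kpd_lev_mono (Nat.le_succ _) (hg.Xlev i)) hvlev
    have hsub : ({s.omg w} : Set (QA K)) ⊆
        (Algebra.adjoin K ((s.K1 w : Set (QA K)) ∪ {Ab s.k ρ}) : Set (QA K)) := by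
      rintro _ rfl
      exact Algebra.subset_adjoin (Or.inl (Algebra.self_mem_adjoin_singleton K _))
    rw [← kpd_Pr_Pr (s.k + 1) {s.omg w} _ hsub _ hwlev, hPr]
    exact Pr_Ab s.k (s.K1 w) (K1_lev s hg w) (fun x hx y hy => K1_comm s w x y hx hy) ρ h.rhoK
      l0 l1 l2 l3 (h.comm h0) (h.comm h1) (h.comm h2) (h.comm h3)

end Pt

end Crest.Agent.KP
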