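import Mathlib

/-!
# S0270, part D (helper63): primitive elements inside a generating subspace; field models of
commutative finite-dimensional subalgebras of a domain.
-/

set_option autoImplicit false

namespace Crest.Agent.KP

open Module IntermediateField

/-- primitive element inside a generating subspace (field version). -/
theorem prim_field {K E : Type} [Field K] [Infinite K] [Field E] [Algebra K E]
    [FiniteDimensional K E] [Algebra.IsSeparable K E] (R : Submodule K E)
    (hR : IntermediateField.adjoin K (R : Set E) = ⊤) :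
    ∃ ρ ∈ R, K⟮ρ⟯ = ⊤ := by
  classical
  haveI : Finite (IntermediateField K E) :=
    Field.finite_intermediateField_of_exists_primitive_element K E
      (Field.exists_primitive_element K E)
  obtain ⟨ρ, hρR, hρ⟩ : ∃ ρ ∈ R, ∀ σ ∈ R, finrank K K⟮σ⟯ ≤ finrank K K⟮ρ⟯ := by
    have hbdd : ∀ σ : R, finrank K K⟮(σ : E)⟯ ≤ finrank K E := fun σ =>
      Submodule.finrank_le (K⟮(σ : E)⟯).toSubmodule
    let P : ℕ → Prop := fun n => ∃ σ : R, finrank K K⟮(σ : E)⟯ = n
    obtain ⟨ρ, hρ⟩ := Nat.findGreatest_spec (P := P) (hbdd 0) ⟨0, rfl⟩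
    refine ⟨ρ, ρ.2, fun σ hσ => ?_⟩
    rw [hρ]
    exact Nat.le_findGreatest (hbdd ⟨σ, hσ⟩) ⟨⟨σ, hσ⟩, rfl⟩
  refine ⟨ρ, hρR, ?_⟩
  rw [eq_top_iff, ← hR, IntermediateField.adjoin_le_iff]
  intro σ hσ
  obtain ⟨c, c', hcc, heq⟩ := Finite.exists_ne_map_eq_of_infinite
    (fun c : K => K⟮ρ + c • σ⟯)
  set G := K⟮ρ + c • σ⟯ with hG
  have h1 : ρ + c • σ ∈ G := IntermediateField.mem_adjoin_simple_self K _
  have h2 : ρ + c' • σ ∈ G := by rw [heq]; exact IntermediateField.mem_adjoin_simple_self K _
  have h3 : σ ∈ G := by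
    have h4 : σ = (c - c')⁻¹ • ((ρ + c • σ) - (ρ + c' • σ)) := by
      have : (ρ + c • σ) - (ρ + c' • σ) = (c - c') • σ := by rw [sub_smul]; abel
      rw [this, smul_smul, inv_mul_cancel₀ (sub_ne_zero.2 hcc), one_smul]
    rw [h4]
    exact G.smul_mem (sub_mem h1 h2)
  have h5 : ρ ∈ G := by
    have : ρ = (ρ + c • σ) - c • σ := by abel
    rw [this]
    exact sub_mem h1 (G.smul_mem h3)
  have h6 : K⟮ρ⟯ ≤ G := by
    rw [IntermediateField.adjoin_simple_le_iff]; exact h5
  have h7 : finrank K G ≤ finrank K K⟮ρ⟯ := hρ _ (R.add_mem hρR (R.smul_mem c hσ))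
  have h8 : K⟮ρ⟯ = G := IntermediateField.eq_of_le_of_finrank_le h6 h7
  rw [h8]
  exact h3

section model
variable {K A : Type} [Field K] [Ring A] [Algebra K A] [NoZeroDivisors A] [Nontrivial A]

/-- A commutative finite-dimensional subalgebra of a domain is (the image of) a field. -/
theorem exists_field_model (Φ : Subalgebra K A) [FiniteDimensional K Φ]
    (hc : ∀ a ∈ Φ, ∀ b ∈ Φ, a * b = b * a) :
    ∃ (E : Type) (_ : Field E) (_ : Algebra K E) (f : E →ₐ[K] A),
      Function.Injective f ∧ f.range = Φ := by
  classical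
  have hinv : ∀ a : Φ, a ≠ 0 → ∃ b : Φ, a * b = 1 := by
    intro a ha
    have hinj : Function.Injective (LinearMap.mulLeft K a) := by
      intro b c hbc
      rw [LinearMap.mulLeft_apply, LinearMap.mulLeft_apply] at hbc
      exact mul_left_cancel₀ ha hbc
    have hsurj := LinearMap.surjective_of_injective hinj
    obtain ⟨b, hb⟩ := hsurj 1
    exact ⟨b, hb⟩
  letI cr : CommRing Φ :=
    { (inferInstance : Ring Φ) with
      mul_comm := fun a b => Subtype.ext (hc a a.2 b b.2) }
  letI fi : Field Φ :=
    { cr with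
      inv := fun a => if h : a ≠ 0 then Classical.choose (hinv a h) else 0
      exists_pair_ne := ⟨0, 1, zero_ne_one⟩
      mul_inv_cancel := fun a ha => by
        show a * (if h : a ≠ 0 then Classical.choose (hinv a h) else 0) = 1
        rw [dif_pos ha]
        exact Classical.choose_spec (hinv a ha)
      inv_zero := by
        show (if h : (0 : Φ) ≠ 0 then Classical.choose (hinv 0 h) else 0) = 0
        rw [dif_neg (fun h => h rfl)]
      nnqsmul := _
      nnqsmul_def := fun _ _ => rfl
      qsmul := _
      qsmul_def := fun _ _ => rfl }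
  refine ⟨Φ, fi, Algebra.mk (R := K) (A := Φ)
    (algebraMap := { toFun := fun r => algebraMap K Φ r
                     map_one' := map_one _
                     map_mul' := fun a b => map_mul _ a b
                     map_zero' := map_zero _
                     map_add' := fun a b => map_add _ a b })
    (commutes' := fun r x => Subtype.ext (Algebra.commutes r (x : A)))
    (smul_def' := fun r x => Subtype.ext (Algebra.smul_def r (x : A))), ?_⟩
  letI : Algebra K Φ := Algebra.mk (R := K) (A := Φ)
    (algebraMap := { toFun := fun r => algebraMap K Φ r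
                     map_one' := map_one _
                     map_mul' := fun a b => map_mul _ a b
                     map_zero' := map_zero _
                     map_add' := fun a b => map_add _ a b })
    (commutes' := fun r x => Subtype.ext (Algebra.commutes r (x : A)))
    (smul_def' := fun r x => Subtype.ext (Algebra.smul_def r (x : A)))
  let g : Φ →+* A :=
    { toFun := fun a => (a : A)
      map_one' := rfl
      map_mul' := fun a b => rfl
      map_zero' := rfl
      map_add' := fun a b => rfl }
  refine ⟨{ g with commutes' := fun r => rfl }, fun a b h => Subtype.ext h, ?_⟩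
  ext a
  constructor
  · rintro ⟨b, rfl⟩
    exact b.2
  · intro ha
    exact ⟨⟨a, ha⟩, rfl⟩

/-- primitive element inside a generating subspace. -/
theorem prim_elem [CharZero K] (Φ : Subalgebra K A) [FiniteDimensional K Φ]
    (hc : ∀ a ∈ Φ, ∀ b ∈ Φ, a * b = b * a) (R : Submodule K A)
    (hR : Algebra.adjoin K (R : Set A) = Φ) :
    ∃ ρ ∈ R, Algebra.adjoin K {ρ} = Φ := by
  classical
  obtain ⟨E, fE, aE, f, hf, hfr⟩ := exists_field_model Φ hc
  let e : E ≃ₗ[K] Φ := LinearEquiv.ofBijective
    ({ toFun := fun x => ⟨f x, by rw [← hfr]; exact ⟨x, rfl⟩⟩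
       map_add' := fun x y => Subtype.ext (map_add f x y)
       map_smul' := fun c x => Subtype.ext (map_smul f c x) } : E →ₗ[K] Φ)
    ⟨fun x y h => hf (congrArg Subtype.val h), fun y => by
      have : (y : A) ∈ f.range := by rw [hfr]; exact y.2
      obtain ⟨x, hx⟩ := this
      exact ⟨x, Subtype.ext hx⟩⟩
  haveI : FiniteDimensional K E := Module.Finite.equiv e.symm
  let R' : Submodule K E := R.comap f.toLinearMap
  have hRle : ∀ r ∈ R, r ∈ Φ := fun r hr => by
    rw [← hR]; exact Algebra.subset_adjoin hr
  have himg : f '' (R' : Set E) = (R : Set A) := by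
    ext r
    constructor
    · rintro ⟨x, hx, rfl⟩
      exact hx
    · intro hr
      have : r ∈ f.range := by rw [hfr]; exact hRle r hr
      obtain ⟨x, hx⟩ := this
      exact ⟨x, by show f x ∈ R; rw [show f x = r from hx]; exact hr, hx⟩
  have h1 : Algebra.adjoin K (R' : Set E) = ⊤ := by
    apply Subalgebra.map_injective (f := f) hf
    rw [AlgHom.map_adjoin, himg, hR, Algebra.map_top, hfr]
  have h2 : IntermediateField.adjoin K (R' : Set E) = ⊤ := by
    rw [eq_top_iff]
    intro x _
    have : x ∈ Algebra.adjoin K (R' : Set E) := by rw [h1]; trivial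
    exact IntermediateField.algebra_adjoin_le_adjoin K _ this
  obtain ⟨ρ, hρ, hρt⟩ := prim_field R' h2
  refine ⟨f ρ, hρ, ?_⟩
  have h3 : Algebra.adjoin K {ρ} = ⊤ := by
    have h4 := IntermediateField.adjoin_simple_toSubalgebra_of_isAlgebraic
      (F := K) (α := ρ) (Algebra.IsAlgebraic.isAlgebraic ρ)
    rw [hρt] at h4
    rw [← h4]
    rfl
  have h5 := congrArg (Subalgebra.map f) h3
  rw [AlgHom.map_adjoin, Set.image_singleton, Algebra.map_top, hfr] at h5
  exact h5

end model

end Crest.Agent.KP
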