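import Crest.Agent.KPD_K2
import Crest.Agent.KPD_Prim
import Crest.Agent.KPD_Field

/-!
# S0270, part D1 (helper63): primitive element, `Sj`, field lemma at a state
-/

set_option autoImplicit false
set_option linter.unusedSectionVars false

open scoped PowerSeries LaurentSeries symmDiff

namespace Crest.Agent.KP

open Module

section K3aux
variable {K : Type} [Field K] [KF K]

/-- powers below the dimension span `K[ρ]` -/
private theorem k3_span (B : Subalgebra K (QA K)) [FiniteDimensional K B] (ρ : QA K) (hρ : ρ ∈ B)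
    (x : QA K) (hx : x ∈ Algebra.adjoin K {ρ}) (j : ℕ) (hj : finrank K B ≤ j) :
    ∃ c : ℕ → K, x = ∑ i ∈ Finset.range (j + 1), c i • ρ ^ i := by
  rw [Algebra.adjoin_singleton_eq_range_aeval] at hx
  obtain ⟨p, hp⟩ := hx
  let r : B := ⟨ρ, hρ⟩
  let f : End K B := Algebra.lmul K B r
  have hχm : f.charpoly.Monic := LinearMap.charpoly_monic f
  have h1 : Polynomial.aeval f f.charpoly = 0 := LinearMap.aeval_self_charpoly f
  have h2 : Algebra.lmul K B (Polynomial.aeval r f.charpoly) = 0 := by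
    rw [← h1]
    exact (Polynomial.aeval_algHom_apply (Algebra.lmul K B) r f.charpoly).symm
  have h3 : Polynomial.aeval r f.charpoly = 0 := by
    have h : Polynomial.aeval r f.charpoly * 1 = 0 := LinearMap.congr_fun h2 1
    rwa [mul_one] at h
  have h4 : Polynomial.aeval ρ f.charpoly = 0 := by
    have h5 : Polynomial.aeval (B.val r) f.charpoly = B.val (Polynomial.aeval r f.charpoly) :=
      Polynomial.aeval_algHom_apply B.val r f.charpoly
    rw [h3, map_zero] at h5
    exact h5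
  have h6 := Polynomial.aeval_modByMonic_eq_self_of_root (p := p) (x := ρ) h4
  have hdeg : (p %ₘ f.charpoly).natDegree < j + 1 := by
    have h7 := Polynomial.natDegree_modByMonic_le p hχm
    rw [LinearMap.charpoly_natDegree] at h7
    omega
  refine ⟨fun i => (p %ₘ f.charpoly).coeff i, ?_⟩
  rw [← Polynomial.aeval_eq_sum_range' hdeg ρ, h6]
  exact hp.symm

private theorem kpd_mem_iInf2 {x : QA K} {R : Set (QA K)} {f : ∀ κ ∈ R, Submodule K (QA K)} :
    x ∈ (⨅ κ, ⨅ h : κ ∈ R, f κ h) ↔ ∀ κ, ∀ h : κ ∈ R, x ∈ f κ h := by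
  simp only [Submodule.mem_iInf]

/-- dimension of the orthogonal complement inside a finite-dimensional subalgebra -/
private theorem k3_perp (B : Subalgebra K (QA K)) [FiniteDimensional K B]
    (R : Submodule K (QA K)) (hR : R ≤ Subalgebra.toSubmodule B) :
    finrank K (Subalgebra.toSubmodule B ⊓ perp (R : Set (QA K)) : Submodule K (QA K)) +
      finrank K R = finrank K B := by
  classical
  have hBf : FiniteDimensional K (Subalgebra.toSubmodule B) := ‹FiniteDimensional K B›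
  have : FiniteDimensional K R := Submodule.finiteDimensional_of_le hR
  -- the pairing
  let τ : QA K →ₗ[K] QA K →ₗ[K] K :=
    (LinearMap.mul K (QA K)).compr₂ (QA.tr : QA K →ₗ[K] K)
  have hτ : ∀ a b, τ a b = QA.tr (a * b) := fun a b => rfl
  let g : Subalgebra.toSubmodule B →ₗ[K] Module.Dual K (Subalgebra.toSubmodule B) :=
    (τ.flip.domRestrict₁₂ (Subalgebra.toSubmodule B) (Subalgebra.toSubmodule B))
  have hg : ∀ a b : Subalgebra.toSubmodule B, g a b = QA.tr ((b : QA K) * (a : QA K)) :=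
    fun a b => rfl
  have hginj : Function.Injective g := by
    rw [injective_iff_map_eq_zero]
    intro a ha
    apply Subtype.ext
    apply kpd_nondeg B (a : QA K) a.2
    intro v hv
    have := LinearMap.congr_fun ha ⟨v, hv⟩
    rw [hg] at this
    rw [kpd_tr_comm]
    exact this
  have hgsurj : Function.Surjective g :=
    (LinearMap.injective_iff_surjective_of_finrank_eq_finrank
      (Subspace.dual_finrank_eq (K := K) (V := Subalgebra.toSubmodule B)).symm).1 hginj
  let q : Module.Dual K (Subalgebra.toSubmodule B) →ₗ[K] Module.Dual K R :=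
    (Submodule.inclusion hR).dualMap
  have hq : Function.Surjective q :=
    LinearMap.dualMap_surjective_of_injective (Submodule.inclusion_injective hR)
  have hqg : Function.Surjective (q ∘ₗ g) := hq.comp hgsurj
  have hrk := LinearMap.finrank_range_add_finrank_ker (q ∘ₗ g)
  rw [LinearMap.range_eq_top.2 hqg, finrank_top, Subspace.dual_finrank_eq] at hrk
  have hker : (LinearMap.ker (q ∘ₗ g)).map (Subalgebra.toSubmodule B).subtype =
      Subalgebra.toSubmodule B ⊓ perp (R : Set (QA K)) := by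
    ext x
    constructor
    · rintro ⟨y, hy, rfl⟩
      refine ⟨y.2, ?_⟩
      show (y : QA K) ∈ perp (R : Set (QA K))
      rw [perp, kpd_mem_iInf2]
      intro κ hκ
      have h1 : (q ∘ₗ g) y = 0 := hy
      have := LinearMap.congr_fun h1 ⟨κ, hκ⟩
      exact this
    · rintro ⟨hx1, hx2⟩
      refine ⟨⟨x, hx1⟩, ?_, rfl⟩
      show (q ∘ₗ g) ⟨x, hx1⟩ = 0
      ext ⟨κ, hκ⟩
      have hx3 : x ∈ perp (R : Set (QA K)) := hx2
      rw [perp, kpd_mem_iInf2] at hx3
      exact hx3 κ hκ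
  have hfin : finrank K (Subalgebra.toSubmodule B ⊓ perp (R : Set (QA K)) : Submodule K (QA K)) =
      finrank K (LinearMap.ker (q ∘ₗ g)) := by
    rw [← hker]
    exact (Submodule.equivMapOfInjective _ (Submodule.injective_subtype _) _).finrank_eq.symm
  rw [hfin, add_comm]
  exact hrk

end K3aux

namespace Pt

variable {K I J : Type} [Field K] [KF K] [Fintype I] [Fintype J]

/-- primitive element of `K''` in `R`. -/
theorem exists_prim (s : Pt K I J) (hg : s.Good) (w : NC K I)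
    (hL : s.LL w ≤ Subalgebra.toSubmodule (s.K1 w)) (a : QA K) (ha : a ∈ s.LL w) (ha0 : a ≠ 0) :
    ∃ ρ ∈ s.RR w a, Algebra.adjoin K {ρ} = s.K2 w := by
  have := kpd_fd_sub s.k (s.K2 w) ((s.K2_le hg w hL).trans (s.K1_lev hg w))
  exact prim_elem (s.K2 w) (fun x hx y hy => s.K1_comm w x y (s.K2_le hg w hL hx)
    (s.K2_le hg w hL hy)) (s.RR w a) (s.adjoin_RR hg w hL a ha ha0)

/-- `dim Sj ≤ N`, and `= N` for `j + 1 ≥ N` if `ρ` is primitive. -/
theorem Sj_le (s : Pt K I J) (w : NC K I) (a ρ : QA K) (hρ : ρ ∈ s.RR w a) (j : ℕ) :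
    Sj ρ (s.RR w a) j ≤ Subalgebra.toSubmodule (s.K2 w) := by
  refine iSup₂_le fun i _ => ?_
  rintro _ ⟨r, hr, rfl⟩
  exact (s.K2 w).mul_mem ((s.K2 w).pow_mem (s.RR_le w a hρ) i) (s.RR_le w a hr)

/-- `1, ρ, …, ρ^j` are in `Sj` and for `j ≥ N - 1` they span `K[ρ]`: the span of `ρ^i`, `i ≤ j`
is increasing in `j` and once two consecutive ones agree it is an algebra; or: minimal polynomial
of `ρ` has degree `finrank K[ρ] ≤ j+1` and division with remainder. -/
theorem Sj_eq (s : Pt K I J) (hg : s.Good) (w : NC K I)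
    (hL : s.LL w ≤ Subalgebra.toSubmodule (s.K1 w)) (a ρ : QA K) (ha : a ∈ s.LL w)
    (hρ : ρ ∈ s.RR w a) (hp : Algebra.adjoin K {ρ} = s.K2 w) (j : ℕ) (hj : s.n2 w ≤ j) :
    Sj ρ (s.RR w a) j = Subalgebra.toSubmodule (s.K2 w) := by
  have := kpd_fd_sub s.k (s.K2 w) ((s.K2_le hg w hL).trans (s.K1_lev hg w))
  refine le_antisymm (s.Sj_le w a ρ hρ j) fun x hx => ?_
  have hx' : x ∈ Algebra.adjoin K {ρ} := by rw [hp]; exact hx
  obtain ⟨c, hc⟩ := k3_span (s.K2 w) ρ (s.RR_le w a hρ) x hx' j hj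
  rw [hc]
  refine Submodule.sum_mem _ fun i hi => Submodule.smul_mem _ _ ?_
  refine Submodule.mem_iSup_of_mem i (Submodule.mem_iSup_of_mem hi ?_)
  exact ⟨1, s.one_mem_RR w a ha, mul_one _⟩

/-- the complement `M = R^⊥` in `K''` has dimension `N - dim L`, and the trace form on `K''` is
nondegenerate. -/
theorem finrank_M (s : Pt K I J) (hg : s.Good) (w : NC K I)
    (hL : s.LL w ≤ Subalgebra.toSubmodule (s.K1 w)) (a : QA K) (ha : a ∈ s.LL w) (ha0 : a ≠ 0) :
    finrank K (Subalgebra.toSubmodule (s.K2 w) ⊓ perp (s.RR w a : Set (QA K)) :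
      Submodule K (QA K)) + s.nL w = s.n2 w := by
  have := kpd_fd_sub s.k (s.K2 w) ((s.K2_le hg w hL).trans (s.K1_lev hg w))
  have h := k3_perp (s.K2 w) (s.RR w a) (s.RR_le w a)
  rw [s.finrank_RR hg w hL a ha ha0] at h
  exact h

/-- the field lemma at a state: `(t+3) d < N`, `d = N - dim L`. -/
theorem exists_rho (s : Pt K I J) (hg : s.Good) (w : NC K I)
    (hL : s.LL w ≤ Subalgebra.toSubmodule (s.K1 w)) (a : QA K) (ha : a ∈ s.LL w) (ha0 : a ≠ 0)
    (d t : ℕ) (hd : s.n2 w = s.nL w + d) (ht : (t + 3) * d < s.n2 w) :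
    ∃ ρ ∈ s.RR w a, (∀ u ∈ s.K2 w, ∃ r1 ∈ s.RR w a, ∃ r2 ∈ s.RR w a, u = r1 + ρ * r2) ∧
      ∃ lam : Fin t → QA K, (∀ i, lam i ∈ s.RR w a) ∧
      ∀ m : Fin t → QA K, (∀ i, m i ∈ s.K2 w ∧ m i ∈ perp (s.RR w a : Set (QA K))) →
        (∃ m' m'' : QA K, (m' ∈ s.K2 w ∧ m' ∈ perp (s.RR w a : Set (QA K))) ∧
          (m'' ∈ s.K2 w ∧ m'' ∈ perp (s.RR w a : Set (QA K))) ∧
          ∑ i, lam i * m i = m' + ρ * m'') → ∀ i, m i = 0 := by
  have := kpd_fd_sub s.k (s.K2 w) ((s.K2_le hg w hL).trans (s.K1_lev hg w))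
  have hK2f : FiniteDimensional K (Subalgebra.toSubmodule (s.K2 w)) :=
    ‹FiniteDimensional K (s.K2 w)›
  have : FiniteDimensional K (s.RR w a) := Submodule.finiteDimensional_of_le (s.RR_le w a)
  have : Infinite K := inferInstance
  let M : Submodule K (QA K) := Subalgebra.toSubmodule (s.K2 w) ⊓ perp (s.RR w a : Set (QA K))
  have : FiniteDimensional K M := Submodule.finiteDimensional_of_le inf_le_left
  have hcomm : ∀ x ∈ Subalgebra.toSubmodule (s.K2 w), ∀ y ∈ Subalgebra.toSubmodule (s.K2 w),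
      x * y = y * x := fun x hx y hy =>
    s.K1_comm w x y (s.K2_le hg w hL hx) (s.K2_le hg w hL hy)
  have hMf : finrank K M + s.nL w = s.n2 w := s.finrank_M hg w hL a ha ha0
  have hMd : finrank K M = d := by omega
  have hRf : finrank K (s.RR w a) = s.nL w := s.finrank_RR hg w hL a ha ha0
  have hlt : (t + 2) * finrank K M < finrank K (s.RR w a) := by
    rw [hMd, hRf]
    have : (t + 3) * d = (t + 2) * d + d := by ring
    omega
  obtain ⟨ρ, hρR, hρM, l, hlR, hl⟩ := field_lemma (s.RR w a) M t hlt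
  have hMmem : ∀ x, x ∈ M ↔ x ∈ Subalgebra.toSubmodule (s.K2 w) ∧
      ∀ b ∈ s.RR w a, QA.tr (x * b) = 0 := by
    intro x
    show x ∈ Subalgebra.toSubmodule (s.K2 w) ⊓ perp (s.RR w a : Set (QA K)) ↔ _
    rw [Submodule.mem_inf, perp, kpd_mem_iInf2]
    refine and_congr_right fun _ => ⟨fun h b hb => ?_, fun h b hb => ?_⟩
    · have h1 : QA.tr (b * x) = 0 := h b hb
      rw [kpd_tr_comm]; exact h1
    · show QA.tr (b * x) = 0
      rw [kpd_tr_comm]; exact h b hb
  have htop := add_mul_eq_top (QA.tr : QA K →ₗ[K] K) (Subalgebra.toSubmodule (s.K2 w))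
    (s.RR w a) M (s.RR_le w a) (fun x hx y hy => (s.K2 w).mul_mem hx hy) hcomm
    (fun x hx h => kpd_nondeg (s.K2 w) x hx h) hMmem ρ hρR hρM
  refine ⟨ρ, hρR, fun u hu => ?_, l, hlR, fun m hm hex => ?_⟩
  · have hu' : u ∈ s.RR w a ⊔ (s.RR w a).map (LinearMap.mulLeft K ρ) := by
      rw [htop]; exact hu
    obtain ⟨r1, hr1, y, hy, hxy⟩ := Submodule.mem_sup.1 hu'
    obtain ⟨r2, hr2, rfl⟩ := hy
    exact ⟨r1, hr1, r2, hr2, hxy.symm⟩
  · obtain ⟨m', m'', hm', hm'', hsum⟩ := hex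
    refine hl m (fun i => ⟨(hm i).1, (hm i).2⟩) ?_
    rw [hsum]
    exact Submodule.add_mem_sup ⟨hm'.1, hm'.2⟩ ⟨m'', ⟨hm''.1, hm''.2⟩, rfl⟩

end Pt

end Crest.Agent.KP
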