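import Crest.Agent.KPD_GrA
import Crest.Agent.KPD_K3

/-!
# S0270, part D1 (helper63): P3 (C), second part: `K2(s')`, the iteration inequality
-/

set_option autoImplicit false
set_option linter.unusedSectionVars false

open scoped PowerSeries LaurentSeries symmDiff

namespace Crest.Agent.KP

open Module

namespace Pt

variable {K I J : Type} [Field K] [KF K] [Fintype I] [Fintype J]

variable {s : Pt K I J} {w : NC K I} {T : I → QA K⟦X⟧} {w1 w2 : I → QA K} {a ρ : QA K}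

/-- division by an integral element with nonzero residue -/
theorem _root_.Crest.Agent.KP.kpd_int_of_mul {K L : Type} [Field K] [KF K] [Field L] [KF L]
    (P : Place K L) {u v : QA L} (hu : P.Int u) (hu0 : P.rq u ≠ 0) (huv : P.Int (u * v)) :
    P.Int v := by
  by_contra hv
  have hv0 : v ≠ 0 := by
    rintro rfl
    exact hv P.int_zero
  obtain ⟨c, -, h1, h2, h3⟩ := P.exists_scale_q v hv0
  obtain ⟨h4, h5⟩ := h3 hv
  have h6 : P.rq (u * (c • v)) = P.rq u * P.rq (c • v) := P.rq_mul hu h1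
  have h7 : u * (c • v) = c • (u * v) := mul_smul_comm c u v
  rw [h7, P.rq_smul h4 huv, h5, zero_smul] at h6
  exact (mul_ne_zero hu0 h2) h6.symm

/-- there are `a' ∈ L(s')` integral with residue `a` and then for each `r1 r2 r3 ∈ R` an element
`r' ∈ R(s') = RR a'` integral with residue `r1 + (r2 + ρ r3) Ā⁻¹`. (`GH.res_LL` with `l0 = a r1`,
`l1 = a r2 / al`, `l2 = a r3 / be`; `r' = a'⁻¹ b'`, `qinv a'` is integral with residue `a⁻¹`:
`qinv a' ∈ K'(s')`; scale / or: multiplication by `a'` is injective on residues.) -/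
theorem GH.res_RR (h : s.GH w T w1 w2 a ρ) (hn : (s.grow T).n1 w.up = 2 * s.n1 w)
    (hc : (s.grow T).LL w.up ≤ Subalgebra.toSubmodule ((s.grow T).K1 w.up)) :
    ∃ a' ∈ (s.grow T).LL w.up, a' ≠ 0 ∧ (Place.laurent K).Int a' ∧ (Place.laurent K).rq a' = a ∧
      ∀ r1 ∈ s.RR w a, ∀ r2 ∈ s.RR w a, ∀ r3 ∈ s.RR w a,
        r1 + (r2 + ρ * r3) * qinv (Ab s.k ρ) ∈
          (Place.laurent K).resS ((s.grow T).RR w.up a') := by
  set P := Place.laurent K with hP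
  have hz : (0 : QA K) ∈ s.LL w := zero_mem _
  obtain ⟨a', ha'L, ha'i, ha'r⟩ := h.res_LL hn a 0 0 0 h.aL hz hz hz
  have ha'r' : P.rq a' = a := by
    rw [ha'r]
    simp
  have ha'0 : a' ≠ 0 := by
    rintro rfl
    rw [P.rq_zero] at ha'r'
    exact h.a0 ha'r'.symm
  refine ⟨a', ha'L, ha'0, ha'i, ha'r', ?_⟩
  intro r1 hr1 r2 hr2 r3 hr3
  have hal : (al s.k : K) ≠ 0 := KF.al_ne s.k
  have hbe : (be s.k : K) ≠ 0 := KF.be_ne s.k
  -- elements of `L`
  have e1 : a * r1 ∈ s.LL w := hr1.2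
  have e2 : (al s.k : K)⁻¹ • (a * r2) ∈ s.LL w := (s.LL w).smul_mem _ hr2.2
  have e3 : (be s.k : K)⁻¹ • (a * r3) ∈ s.LL w := (s.LL w).smul_mem _ hr3.2
  obtain ⟨b', hb'L, hb'i, hb'r⟩ := h.res_LL hn _ _ _ 0 e1 e2 e3 hz
  have hρr3 : r3 * ρ = ρ * r3 := by
    have k1 : r3 ∈ s.K1 w := K2_le s h.good w h.comm hr3.1
    exact K1_comm s w r3 ρ k1 h.rhoK
  have hb'r' : P.rq b' = a * (r1 + (r2 + ρ * r3) * qinv (Ab s.k ρ)) := by
    rw [hb'r, smul_smul, mul_inv_cancel₀ hal, one_smul, smul_mul_assoc, smul_smul,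
      mul_inv_cancel₀ hbe, one_smul, mul_assoc a r3 ρ, hρr3, ← mul_add a r2, mul_assoc a,
      ← mul_add]
  -- the ratio
  obtain ⟨r', hr'RR, har⟩ := exists_RR (s.grow T) h.good' w.up hc a' ha'L ha'0 b' hb'L
  have har' : a' * r' = b' := har.symm
  have hr'i : P.Int r' := by
    refine kpd_int_of_mul P ha'i (by rw [ha'r']; exact h.a0) ?_
    rw [har']
    exact hb'i
  refine ⟨r', hr'RR, hr'i, ?_⟩
  have h8 : a * P.rq r' = a * (r1 + (r2 + ρ * r3) * qinv (Ab s.k ρ)) := by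
    rw [← hb'r', ← har', P.rq_mul ha'i hr'i, ha'r']
  exact mul_left_cancel₀ h.a0 h8

/-- `R ≤ res R'` etc., consequences of `GH.res_RR` -/
theorem GH.Ab_pow (h : s.GH w T w1 w2 a ρ) :
    Ab s.k ρ = (algebraMap K (QA K) (al s.k) + ρ * ρ * algebraMap K (QA K) (be s.k)) *
      qinv (Ab s.k ρ) := by
  have h1 := Ab_sq s.k (s.K1 w) (K1_lev s h.good w) ρ h.rhoK
  obtain ⟨h2, -, -⟩ := Ab_qinv s.k (s.K1 w) (K1_lev s h.good w) ρ h.rhoK
  rw [← h1, mul_assoc, h2, mul_one]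

/-- `K''[Ā] ≤ res K''(s')` -/
theorem GH.K2_res (h : s.GH w T w1 w2 a ρ) (hn : (s.grow T).n1 w.up = 2 * s.n1 w)
    (hc : (s.grow T).LL w.up ≤ Subalgebra.toSubmodule ((s.grow T).K1 w.up)) :
    Algebra.adjoin K ((s.K2 w : Set (QA K)) ∪ {Ab s.k ρ}) ≤
      resA (Place.laurent K) ((s.grow T).K2 w.up) := by
  obtain ⟨a', ha'L, ha'0, ha'i, ha'r, hRR⟩ := h.res_RR hn hc
  set P := Place.laurent K with hP
  have hsub : ∀ x, x ∈ P.resS ((s.grow T).RR w.up a') → x ∈ resA P ((s.grow T).K2 w.up) := by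
    rintro _ ⟨v, hv, hvi, rfl⟩
    exact ⟨v, hv.1, hvi, rfl⟩
  have h0 : (0 : QA K) ∈ s.RR w a := zero_mem _
  have h1 : (1 : QA K) ∈ s.RR w a := one_mem_RR s w a h.aL
  have hR : (s.RR w a : Set (QA K)) ⊆ resA P ((s.grow T).K2 w.up) := by
    intro r hr
    have := hsub _ (hRR r hr 0 h0 0 h0)
    simpa using this
  have hK2 : s.K2 w ≤ resA P ((s.grow T).K2 w.up) := by
    rw [← adjoin_RR s h.good w h.comm a h.aL h.a0]
    exact Algebra.adjoin_le hR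
  have hq : qinv (Ab s.k ρ) ∈ resA P ((s.grow T).K2 w.up) := by
    have := hsub _ (hRR 0 h0 1 h1 0 h0)
    simpa using this
  refine Algebra.adjoin_le ?_
  rintro x (hx | hx)
  · exact hK2 hx
  · rw [Set.mem_singleton_iff.1 hx, h.Ab_pow]
    refine mul_mem (add_mem ?_ ?_) hq
    · exact Subalgebra.algebraMap_mem _ _
    · exact mul_mem (mul_mem (hK2 h.rhoK2) (hK2 h.rhoK2)) (Subalgebra.algebraMap_mem _ _)

theorem GH.K2_lev (h : s.GH w T w1 w2 a ρ) : s.K2 w ≤ lev K s.k :=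
  (K2_le s h.good w h.comm).trans (K1_lev s h.good w)

theorem GH.K2_comm (h : s.GH w T w1 w2 a ρ) : ∀ x ∈ s.K2 w, ∀ y ∈ s.K2 w, x * y = y * x :=
  fun x hx y hy => K1_comm s w x y (K2_le s h.good w h.comm hx) (K2_le s h.good w h.comm hy)

theorem GH.K2_lev' (h : s.GH w T w1 w2 a ρ)
    (hc : (s.grow T).LL w.up ≤ Subalgebra.toSubmodule ((s.grow T).K1 w.up)) :
    (s.grow T).K2 w.up ≤ lev K⸨X⸩ (s.grow T).k :=
  (K2_le (s.grow T) h.good' w.up hc).trans (K1_lev (s.grow T) h.good' w.up)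

theorem GH.two_n2_le (h : s.GH w T w1 w2 a ρ) (hn : (s.grow T).n1 w.up = 2 * s.n1 w)
    (hc : (s.grow T).LL w.up ≤ Subalgebra.toSubmodule ((s.grow T).K1 w.up)) :
    2 * s.n2 w ≤ (s.grow T).n2 w.up := by
  have h1 := finrank_adjoin_Ab s.k (s.K2 w) h.K2_lev h.K2_comm ρ h.rhoK2
  have hlev' := h.K2_lev' hc
  have := kpd_fd_sub (s.grow T).k _ hlev'
  have h4 : FiniteDimensional K (Subalgebra.toSubmodule
      (resA (Place.laurent K) ((s.grow T).K2 w.up))) :=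
    kpd_fd_sub (s.grow T).k _ (resA_lev (Place.laurent K) _ (s.grow T).k hlev')
  have h2 : finrank K (resA (Place.laurent K) ((s.grow T).K2 w.up)) = (s.grow T).n2 w.up :=
    finrank_resA (Place.laurent K) ((s.grow T).K2 w.up)
  have h3 : 2 * s.n2 w = finrank K (Algebra.adjoin K ((s.K2 w : Set (QA K)) ∪ {Ab s.k ρ})) :=
    h1.symm
  rw [h3, ← h2]
  exact Submodule.finrank_mono (s := Subalgebra.toSubmodule
    (Algebra.adjoin K ((s.K2 w : Set (QA K)) ∪ {Ab s.k ρ})))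
    (t := Subalgebra.toSubmodule (resA (Place.laurent K) ((s.grow T).K2 w.up)))
    (h.K2_res hn hc)

/-- multiples by powers stay in residues -/
theorem _root_.Crest.Agent.KP.kpd_resS_pow {K L : Type} [Field K] [KF K] [Field L] [KF L]
    (P : Place K L) {R' : Submodule L (QA L)} {ρ' : QA L} {ρ : QA K} (hi : P.Int ρ')
    (hr : P.rq ρ' = ρ) {x : QA K} (hx : x ∈ P.resS R') {i j : ℕ} (hij : i ≤ j) :
    ρ ^ i * x ∈ P.resS (Sj ρ' R' j) := by
  obtain ⟨v, hv, hvi, rfl⟩ := hx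
  refine ⟨ρ' ^ i * v, ?_, P.int_mul (P.int_pow hi i) hvi, ?_⟩
  · unfold Sj
    refine Submodule.mem_iSup_of_mem i (Submodule.mem_iSup_of_mem ?_ ?_)
    · exact Finset.mem_range.2 (Nat.lt_succ_of_le hij)
    · exact ⟨v, hv, rfl⟩
  · rw [P.rq_mul (P.int_pow hi i) hvi, P.rq_pow hi, hr]

/-- **[task]** the iteration inequality. `a', ρ'` with residues `a, ρ` (`GH.res_RR`, `r1 = ρ`);
`res (Sj ρ' R' j) ≥ Sj ρ R j ⊔ (Sj ρ R (j+1)) Ā⁻¹`, dimension by `finrank_sum_Ab`. -/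
theorem GH.iter (h : s.GH w T w1 w2 a ρ) (hn : (s.grow T).n1 w.up = 2 * s.n1 w)
    (hc : (s.grow T).LL w.up ≤ Subalgebra.toSubmodule ((s.grow T).K1 w.up)) :
    ∃ a' ∈ (s.grow T).LL w.up, a' ≠ 0 ∧ ∃ ρ' ∈ (s.grow T).RR w.up a', ∀ j,
      finrank K (Sj ρ (s.RR w a) j) + finrank K (Sj ρ (s.RR w a) (j + 1)) ≤
        finrank K⸨X⸩ (Sj ρ' ((s.grow T).RR w.up a') j) := by
  obtain ⟨a', ha'L, ha'0, ha'i, ha'r, hRR⟩ := h.res_RR hn hc
  have h0 : (0 : QA K) ∈ s.RR w a := zero_mem _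
  obtain ⟨ρ', hρ'R, hρ'i, hρ'r⟩ := hRR ρ h.rho 0 h0 0 h0
  set P := Place.laurent K with hP
  have hρ'r' : P.rq ρ' = ρ := by
    rw [hρ'r]
    simp
  refine ⟨a', ha'L, ha'0, ρ', hρ'R, fun j => ?_⟩
  -- finite dimensionality
  have hlev' := h.K2_lev' hc
  have hle' : Sj ρ' ((s.grow T).RR w.up a') j ≤
      Subalgebra.toSubmodule (lev K⸨X⸩ (s.grow T).k) :=
    (Sj_le (s.grow T) w.up a' ρ' hρ'R j).trans hlev'
  have hfdlev := kpd_fd_lev (K := K⸨X⸩) (s.grow T).k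
  have hfd1 : FiniteDimensional K⸨X⸩ (Subalgebra.toSubmodule (lev K⸨X⸩ (s.grow T).k)) := hfdlev
  have hfd2 : FiniteDimensional K⸨X⸩ (Sj ρ' ((s.grow T).RR w.up a') j) :=
    Submodule.finiteDimensional_of_le hle'
  have h1 := P.finrank_resS (Sj ρ' ((s.grow T).RR w.up a') j)
  have h2 := finrank_sum_Ab s.k (s.K2 w) h.K2_lev h.K2_comm ρ h.rhoK2
    (Sj ρ (s.RR w a) j) (Sj ρ (s.RR w a) (j + 1)) (Sj_le s w a ρ h.rho j)
    (Sj_le s w a ρ h.rho (j + 1))
  rw [← h2, ← h1]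
  have hfd3 : FiniteDimensional K (P.resS (Sj ρ' ((s.grow T).RR w.up a') j)) := inferInstance
  refine Submodule.finrank_mono (sup_le ?_ ?_)
  · unfold Sj
    refine iSup_le fun i => iSup_le fun hi => ?_
    rintro _ ⟨r, hr, rfl⟩
    have hr' : r ∈ P.resS ((s.grow T).RR w.up a') := by
      have := hRR r hr 0 h0 0 h0
      simpa using this
    exact kpd_resS_pow P hρ'i hρ'r' hr' (Nat.lt_succ_iff.1 (Finset.mem_range.1 hi))
  · rw [Submodule.map_le_iff_le_comap]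
    conv_lhs => unfold Sj
    refine iSup_le fun i => iSup_le fun hi => ?_
    rintro _ ⟨r, hr, rfl⟩
    change ρ ^ i * r * qinv (Ab s.k ρ) ∈ P.resS (Sj ρ' ((s.grow T).RR w.up a') j)
    have hi' : i < j + 1 + 1 := Finset.mem_range.1 hi
    by_cases hij : i ≤ j
    · have hr' : r * qinv (Ab s.k ρ) ∈ P.resS ((s.grow T).RR w.up a') := by
        have := hRR 0 h0 r hr 0 h0
        simpa using this
      rw [mul_assoc]
      exact kpd_resS_pow P hρ'i hρ'r' hr' hij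
    · have hij' : i = j + 1 := by omega
      have hr' : ρ * r * qinv (Ab s.k ρ) ∈ P.resS ((s.grow T).RR w.up a') := by
        have := hRR 0 h0 0 h0 r hr
        simpa using this
      rw [hij', pow_succ, mul_assoc (ρ ^ j), mul_assoc (ρ ^ j)]
      exact kpd_resS_pow P hρ'i hρ'r' hr' le_rfl

end Pt

end Crest.Agent.KP
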