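import Crest.Agent.KPD_Cl
import Crest.Agent.KPD_Count

/-!
# S0270, part D1 (helper63): iteration, the class CC
-/

set_option autoImplicit false
set_option linter.unusedSectionVars false

open scoped PowerSeries LaurentSeries symmDiff

namespace Crest.Agent.KP

open Module

namespace RSt

variable {K0 I J : Type} [Field K0] [KF K0] [Fintype I] [Fintype J] {s0 : Pt K0 I J}

/-- the function `Pf` -/
def Pf (o d : ℕ) : ℕ := (tplus o d + 3) * d + 10 * (o + 1) ^ 2 * (tplus o d + 2) + 1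

theorem Pf_mono (o : ℕ) : Monotone (Pf o) := by
  intro d d' h
  have ht : tplus o d ≤ tplus o d' := by
    unfold tplus
    gcongr
  unfold Pf
  gcongr

theorem Pf_le (o d : ℕ) : Pf o d ≤ 112 * (o + 1) ^ 4 * (d + 1) ^ 3 + 112 * (o + 1) ^ 4 := by
  obtain ⟨z, hz⟩ : ∃ z, z = (o + 1) * (d + 1) := ⟨_, rfl⟩
  have h1 : o + d + 1 ≤ z := by rw [hz]; nlinarith [Nat.zero_le (o * d)]
  obtain ⟨u, hu⟩ := Nat.exists_eq_add_of_le h1
  have h2 : tplus o d + 3 ≤ 8 * z ^ 2 := by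
    unfold tplus
    rw [hu]
    nlinarith [Nat.zero_le (o + d), Nat.zero_le u, Nat.zero_le ((o + d) * u)]
  have h3 : tplus o d + 2 ≤ 7 * z ^ 2 := by
    unfold tplus
    rw [hu]
    nlinarith [Nat.zero_le (o + d), Nat.zero_le u, Nat.zero_le ((o + d) * u)]
  have h4 : (tplus o d + 3) * d ≤ 8 * z ^ 2 * (d + 1) := Nat.mul_le_mul h2 (Nat.le_succ d)
  have h5 : 10 * (o + 1) ^ 2 * (tplus o d + 2) ≤ 10 * (o + 1) ^ 2 * (7 * z ^ 2) :=
    Nat.mul_le_mul_left _ h3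
  have h6 : 8 * z ^ 2 * (d + 1) = 8 * ((o + 1) ^ 2 * (d + 1) ^ 3) := by rw [hz]; ring
  have h7 : 10 * (o + 1) ^ 2 * (7 * z ^ 2) = 70 * ((o + 1) ^ 4 * (d + 1) ^ 2) := by rw [hz]; ring
  have h8 : (o + 1) ^ 2 * (d + 1) ^ 3 ≤ (o + 1) ^ 4 * (d + 1) ^ 3 :=
    Nat.mul_le_mul_right _ (Nat.pow_le_pow_right (Nat.succ_pos o) (by norm_num))
  have h9 : (o + 1) ^ 4 * (d + 1) ^ 2 ≤ (o + 1) ^ 4 * (d + 1) ^ 3 :=
    Nat.mul_le_mul_left _ (Nat.pow_le_pow_right (Nat.succ_pos d) (by norm_num))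
  have h10 : 1 ≤ (o + 1) ^ 4 := Nat.one_le_pow _ _ (Nat.succ_pos o)
  have h11 : 112 * (o + 1) ^ 4 * (d + 1) ^ 3 = 112 * ((o + 1) ^ 4 * (d + 1) ^ 3) := by ring
  unfold Pf
  rw [h11]
  rw [h6] at h4
  rw [h7] at h5
  omega

/-- `Sj … 0 = R` -/
private theorem kpd_Sj_zero {K : Type} [Field K] [KF K] (ρ : QA K) (R : Submodule K (QA K)) :
    Sj ρ R 0 = R := by
  unfold Sj
  rw [show Finset.range (0 + 1) = {0} from rfl, Finset.iSup_singleton, pow_zero]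
  have : LinearMap.mulLeft K (1 : QA K) = LinearMap.id := by
    ext x : 1
    simp
  rw [this, Submodule.map_id]

/-- triples of the iteration -/
private structure Trip (s0 : Pt K0 I J) (w : NC K0 I) : Type 1 where
  r : RSt s0
  hr : BB2 w r
  a : QA r.L
  ha : a ∈ r.t.LL (r.wd w)
  a0 : a ≠ 0
  ρ : QA r.L
  hρ : ρ ∈ r.t.RR (r.wd w) a

private noncomputable def Trip.S {w : NC K0 I} (x : Trip s0 w) (j : ℕ) : ℕ :=
  finrank x.r.L (Sj x.ρ (x.r.t.RR (x.r.wd w) x.a) j)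

private noncomputable def Trip.N {w : NC K0 I} (x : Trip s0 w) : ℕ := x.r.t.n2 (x.r.wd w)

private theorem Trip.step (hg : s0.Good) (hs : s0.Stable) {w : NC K0 I} (x : Trip s0 w) :
    ∃ y : Trip s0 w, y.N = 2 * x.N ∧ ∀ j, x.S j + x.S (j + 1) ≤ y.S j := by
  obtain ⟨T, w1, w2, h⟩ := BB2_exists hg hs w x.r x.hr x.a x.ρ x.ha x.a0 x.hρ
  obtain ⟨hB, hn1, hn2, hc⟩ := BB2_gr hg hs w x.r x.hr T w1 w2 x.a x.ρ h
  obtain ⟨a', ha', ha0', ρ', hρ', hj⟩ := h.iter hn1 hc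
  have e : (x.r.gr T w1 w2 h.gr).wd w = (x.r.wd w).up := wd_gr _ _ _ _ _ _
  have ha2 : a' ∈ (x.r.gr T w1 w2 h.gr).t.LL ((x.r.gr T w1 w2 h.gr).wd w) := by
    rw [e]; exact ha'
  have hρ2 : ρ' ∈ (x.r.gr T w1 w2 h.gr).t.RR ((x.r.gr T w1 w2 h.gr).wd w) a' := by
    rw [e]; exact hρ'
  refine ⟨⟨x.r.gr T w1 w2 h.gr, hB, a', ha2, ha0', ρ', hρ2⟩, ?_, ?_⟩
  · show (x.r.gr T w1 w2 h.gr).t.n2 ((x.r.gr T w1 w2 h.gr).wd w) = _
    rw [e]
    exact hn2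
  · intro j
    have key : ∀ w' : NC x.r.L⸨X⸩ I, w' = (x.r.wd w).up →
        x.S j + x.S (j + 1) ≤ finrank x.r.L⸨X⸩ (Sj ρ' ((x.r.t.grow T).RR w' a') j) := by
      rintro w' rfl
      exact hj j
    exact key ((x.r.gr T w1 w2 h.gr).wd w) e

/-- **[task]** ITERATE: the class `CC` is nonempty.  Start: `r0` in `BB_2`, `a ∈ L \ 0`, `ρ ∈ R`
primitive (`exists_prim`), `N0 = n2`.  Sequence `(r_h, a_h, ρ_h)` by `BB2_exists`, `BB2_gr`,
`GH.iter`; `c h j = n2 (r_h) - finrank (Sj ρ_h R_h j)`; `count_bound`, `exists_exp_ge`, `Pf_le`.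
`Sj … 0 = R`, `finrank R = nL` (`finrank_RR`), so `dd r_h = c h 0`. -/
theorem CC_nonempty (hg : s0.Good) (hs : s0.Stable) (w : NC K0 I)
    (hne : ∃ r : RSt s0, BB2 w r) : ∃ r : RSt s0, CC w (Pf s0.o) r := by
  classical
  obtain ⟨r0, hr0⟩ := hne
  obtain ⟨hg0, hs0, -⟩ := good hg hs r0
  have hc0 := BB1_comm hg hs w r0 hr0.1
  obtain ⟨a0, ha0, ha0'⟩ : ∃ a ∈ r0.t.LL (r0.wd w), a ≠ 0 :=
    (Submodule.ne_bot_iff _).1 hr0.1.1.1
  obtain ⟨ρ0, hρ0, hp0⟩ := r0.t.exists_prim hg0 (r0.wd w) hc0 a0 ha0 ha0'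
  let x0 : Trip s0 w := ⟨r0, hr0, a0, ha0, ha0', ρ0, hρ0⟩
  choose nx hnx1 hnx2 using Trip.step (s0 := s0) hg hs (w := w)
  let f : ℕ → Trip s0 w := fun h => Nat.rec x0 (fun _ x => nx x) h
  have f0 : f 0 = x0 := rfl
  have fs : ∀ h, f (h + 1) = nx (f h) := fun h => rfl
  have hN : ∀ h, (f h).N = 2 ^ h * x0.N := by
    intro h
    induction h with
    | zero => rw [f0, pow_zero, one_mul]
    | succ h ih => rw [fs, hnx1, ih, pow_succ]; ring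
  have hN1 : 1 ≤ x0.N := by
    have h1 : x0.N ∣ 2 ^ r0.t.k := r0.t.n2_dvd hg0 (r0.wd w) hc0
    exact Nat.pos_of_dvd_of_pos h1 (Nat.two_pow_pos _)
  have hcb := count_bound (fun h j => (f h).N - (f h).S j) x0.N
    (fun j => Nat.sub_le _ _)
    (fun j hj => by
      have h1 : Sj ρ0 (r0.t.RR (r0.wd w) a0) j = Subalgebra.toSubmodule (r0.t.K2 (r0.wd w)) :=
        r0.t.Sj_eq hg0 (r0.wd w) hc0 a0 ρ0 ha0 hρ0 hp0 j hj
      have h2 : (f 0).S j = (f 0).N := by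
        show finrank r0.L (Sj ρ0 (r0.t.RR (r0.wd w) a0) j) = finrank r0.L (r0.t.K2 (r0.wd w))
        rw [h1]
        rfl
      show (f 0).N - (f 0).S j = 0
      rw [h2, Nat.sub_self])
    (fun h j => by
      show (f (h + 1)).N - (f (h + 1)).S j ≤ ((f h).N - (f h).S j) + ((f h).N - (f h).S (j + 1))
      rw [fs]
      have h1 := hnx1 (f h)
      have h2 := hnx2 (f h) j
      omega)
  obtain ⟨h, hh⟩ := exists_exp_ge x0.N (112 * (s0.o + 1) ^ 4) 3 hN1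
  refine ⟨(f h).r, (f h).hr, ?_⟩
  obtain ⟨hgh, -, -⟩ := good hg hs (f h).r
  have hch := BB1_comm hg hs w (f h).r (f h).hr.1
  have hdd : dd w (f h).r = (f h).N - (f h).S 0 := by
    unfold dd
    have h1 : (f h).S 0 = (f h).r.t.nL ((f h).r.wd w) := by
      unfold Trip.S
      rw [kpd_Sj_zero]
      exact (f h).r.t.finrank_RR hgh ((f h).r.wd w) hch (f h).a (f h).ha (f h).a0
    rw [h1]
    rfl
  have h3 : dd w (f h).r ≤ x0.N * (h + 1) ^ x0.N := by rw [hdd]; exact hcb h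
  show Pf s0.o (dd w (f h).r) ≤ (f h).N
  rw [hN h]
  calc Pf s0.o (dd w (f h).r)
      ≤ 112 * (s0.o + 1) ^ 4 * (dd w (f h).r + 1) ^ 3 + 112 * (s0.o + 1) ^ 4 := Pf_le _ _
    _ ≤ 112 * (s0.o + 1) ^ 4 * (x0.N * (h + 1) ^ x0.N + 1) ^ 3 + 112 * (s0.o + 1) ^ 4 := by
        gcongr
    _ ≤ x0.N * 2 ^ h := hh
    _ = 2 ^ h * x0.N := Nat.mul_comm _ _

/-- `dd` after the growth step (C) with `K'' = R + ρ R`. -/
theorem dd_gr (hg : s0.Good) (hs : s0.Stable) (w : NC K0 I) (r : RSt s0) (hr : BB2 w r)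
    (T : I → QA r.L⟦X⟧) (w1 w2 : I → QA r.L) (a ρ : QA r.L)
    (h : r.t.GH (r.wd w) T w1 w2 a ρ)
    (h2 : ∀ u ∈ r.t.K2 (r.wd w), ∃ r1 ∈ r.t.RR (r.wd w) a, ∃ r2 ∈ r.t.RR (r.wd w) a,
      u = r1 + ρ * r2) :
    r.t.nL (r.wd w) + r.t.n2 (r.wd w) ≤ (r.t.grow T).nL (r.wd w).up := by
  obtain ⟨hB, hn1, hn2, hc⟩ := BB2_gr hg hs w r hr T w1 w2 a ρ h
  obtain ⟨a', ha', ha0', ρ', hρ', hj⟩ := h.iter hn1 hc
  obtain ⟨hgr, -, -⟩ := good hg hs r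
  obtain ⟨hgg, -, -⟩ := good hg hs (r.gr T w1 w2 h.gr)
  have h0 := hj 0
  rw [kpd_Sj_zero, kpd_Sj_zero] at h0
  have e1 : finrank r.L (r.t.RR (r.wd w) a) = r.t.nL (r.wd w) :=
    r.t.finrank_RR hgr (r.wd w) h.comm a h.aL h.a0
  have e2 : finrank r.L⸨X⸩ ((r.t.grow T).RR (r.wd w).up a') = (r.t.grow T).nL (r.wd w).up :=
    (r.t.grow T).finrank_RR hgg (r.wd w).up hc a' ha' ha0'
  have e3 : Sj ρ (r.t.RR (r.wd w) a) 1 = Subalgebra.toSubmodule (r.t.K2 (r.wd w)) := by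
    apply le_antisymm (r.t.Sj_le (r.wd w) a ρ h.rho 1)
    intro u hu
    obtain ⟨r1, hr1, r2, hr2, rfl⟩ := h2 u hu
    unfold Sj
    apply add_mem
    · refine Submodule.mem_iSup_of_mem 0 (Submodule.mem_iSup_of_mem (by simp) ?_)
      exact ⟨r1, hr1, by rw [LinearMap.mulLeft_apply, pow_zero, one_mul]⟩
    · refine Submodule.mem_iSup_of_mem 1 (Submodule.mem_iSup_of_mem (by simp) ?_)
      exact ⟨r2, hr2, by rw [LinearMap.mulLeft_apply, pow_one]⟩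
  have e4 : finrank r.L (Sj ρ (r.t.RR (r.wd w) a) (0 + 1)) = r.t.n2 (r.wd w) := by
    rw [show 0 + 1 = 1 from rfl, e3]
    rfl
  rw [e1, e2, e4] at h0
  exact h0

end RSt

end Crest.Agent.KP
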