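import Crest.Agent.KPD_Pr

/-!
# S0270, part D1 (helper63): the algebras `K1`, `K2`, the space `RR`
-/

set_option autoImplicit false
set_option linter.unusedSectionVars false

open scoped PowerSeries LaurentSeries symmDiff

namespace Crest.Agent.KP

open Module

namespace Pt

variable {K I J : Type} [Field K] [KF K] [Fintype I] [Fintype J]

theorem omg_lev (s : Pt K I J) (hg : s.Good) (w : NC K I) : s.omg w ∈ lev K s.k :=
  NC.kph_ev_mem (lev K s.k) w s.X hg.Xlev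

theorem K1_lev (s : Pt K I J) (hg : s.Good) (w : NC K I) : s.K1 w ≤ lev K s.k := by
  refine Algebra.adjoin_le ?_
  rintro x rfl
  exact omg_lev s hg w

theorem K1_comm (s : Pt K I J) (w : NC K I) (x y : QA K) (hx : x ∈ s.K1 w) (hy : y ∈ s.K1 w) :
    x * y = y * x := by
  have h1 : ∀ φ ∈ ({s.omg w} : Set (QA K)), x * φ = φ * x := by
    rintro φ rfl
    exact ((kpd_comm_adjoin {s.omg w} (s.omg w)).1 (by rintro φ rfl; rfl) x hx).symm
  exact (kpd_comm_adjoin {s.omg w} x).1 h1 y hy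

/-- `dw[v] ∈ lev k` for `v ∈ W`, so `ell v ∈ lev k`, and `ell v` commutes with `ω`. -/
theorem d1_lev (s : Pt K I J) (hg : s.Good) (w : NC K I) (v : I → QA K) (hv : v ∈ s.W) :
    w.d1 s.X v ∈ lev K s.k :=
  NC.kph_d1_mem (lev K s.k) w s.X v hg.Xlev (hg.V1lev v (hg.V0V1 hv.1))

theorem LL_lev (s : Pt K I J) (hg : s.Good) (w : NC K I) :
    s.LL w ≤ Subalgebra.toSubmodule (lev K s.k) := by
  rintro _ ⟨v, hv, rfl⟩
  exact kpd_Pr_mem s.k {s.omg w} _ (d1_lev s hg w v hv)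

/-- `n1 ∣ 2^k` -/
theorem n1_dvd (s : Pt K I J) (hg : s.Good) (w : NC K I) : s.n1 w ∣ 2 ^ s.k :=
  kpd_dvd s.k (s.K1 w) (K1_lev s hg w) fun x hx y hy => K1_comm s w x y hx hy

/-- If `L ≤ K'`: `K'' ≤ K'`.  A ratio `u` with `u b ∈ L`, `b ∈ L \ 0`: `u = (u b) b⁻¹`, `b⁻¹ ∈ K'`
(`kpd_qinv`). -/
theorem K2_le (s : Pt K I J) (hg : s.Good) (w : NC K I)
    (hL : s.LL w ≤ Subalgebra.toSubmodule (s.K1 w)) : s.K2 w ≤ s.K1 w := by
  have := kpd_fd_sub s.k (s.K1 w) (K1_lev s hg w)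
  refine Algebra.adjoin_le ?_
  rintro u ⟨-, b, hb, hb0, hub⟩
  obtain ⟨h1, -, h3⟩ := kpd_qinv (s.K1 w) b (hL hb) hb0
  have e : u = (u * b) * qinv b := by rw [mul_assoc, h1, mul_one]
  rw [e]
  exact mul_mem (hL hub) h3

theorem K2_lev (s : Pt K I J) (w : NC K I) : s.K2 w ≤ lev K s.k :=
  Algebra.adjoin_le fun _ hu => hu.1

theorem n2_dvd (s : Pt K I J) (hg : s.Good) (w : NC K I)
    (hL : s.LL w ≤ Subalgebra.toSubmodule (s.K1 w)) : s.n2 w ∣ 2 ^ s.k :=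
  kpd_dvd s.k (s.K2 w) (K2_lev s w) fun x hx y hy =>
    K1_comm s w x y (K2_le s hg w hL hx) (K2_le s hg w hL hy)

theorem RR_le (s : Pt K I J) (w : NC K I) (a : QA K) :
    s.RR w a ≤ Subalgebra.toSubmodule (s.K2 w) := inf_le_left

theorem one_mem_RR (s : Pt K I J) (w : NC K I) (a : QA K) (ha : a ∈ s.LL w) :
    (1 : QA K) ∈ s.RR w a := by
  refine ⟨one_mem (s.K2 w), ?_⟩
  show a * 1 ∈ s.LL w
  rwa [mul_one]

/-- every `b ∈ L` is `a r` with `r ∈ R` (`r = a⁻¹ b = b a⁻¹`, `r a = b ∈ L`). -/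
theorem exists_RR (s : Pt K I J) (hg : s.Good) (w : NC K I)
    (hL : s.LL w ≤ Subalgebra.toSubmodule (s.K1 w)) (a : QA K) (ha : a ∈ s.LL w) (ha0 : a ≠ 0)
    (b : QA K) (hb : b ∈ s.LL w) : ∃ r ∈ s.RR w a, b = a * r := by
  have := kpd_fd_sub s.k (s.K1 w) (K1_lev s hg w)
  obtain ⟨h1, h2, h3⟩ := kpd_qinv (s.K1 w) a (hL ha) ha0
  have e1 : a * (qinv a * b) = b := by rw [← mul_assoc, h1, one_mul]
  have e2 : (qinv a * b) * a = b := by
    rw [mul_assoc, K1_comm s w b a (hL hb) (hL ha), ← mul_assoc, h2, one_mul]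
  refine ⟨qinv a * b, ⟨?_, ?_⟩, e1.symm⟩
  · refine Algebra.subset_adjoin ⟨?_, a, ha, ha0, ?_⟩
    · exact mul_mem (K1_lev s hg w h3) (LL_lev s hg w hb)
    · rw [e2]; exact hb
  · show a * (qinv a * b) ∈ s.LL w
    rw [e1]; exact hb

theorem finrank_RR (s : Pt K I J) (hg : s.Good) (w : NC K I)
    (hL : s.LL w ≤ Subalgebra.toSubmodule (s.K1 w)) (a : QA K) (ha : a ∈ s.LL w) (ha0 : a ≠ 0) :
    finrank K (s.RR w a) = s.nL w := by
  have hinj : Function.Injective (LinearMap.mulLeft K a) := by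
    intro x y hxy
    have h : a * x = a * y := hxy
    exact mul_left_cancel₀ ha0 h
  have hmap : (s.RR w a).map (LinearMap.mulLeft K a) = s.LL w := by
    apply le_antisymm
    · rintro _ ⟨r, hr, rfl⟩
      exact hr.2
    · intro b hb
      obtain ⟨r, hr, rfl⟩ := exists_RR s hg w hL a ha ha0 b hb
      exact ⟨r, hr, rfl⟩
  unfold nL
  rw [← hmap]
  exact (Submodule.equivMapOfInjective _ hinj (s.RR w a)).finrank_eq

/-- `K'' = K[R]`: a ratio `u = (u b) b⁻¹`, `u b = a r1`, `b = a r2`, `u = r1 r2⁻¹`, and the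
inverse `r2⁻¹` is in `K[R]` (`kpd_qinv`). -/
theorem adjoin_RR (s : Pt K I J) (hg : s.Good) (w : NC K I)
    (hL : s.LL w ≤ Subalgebra.toSubmodule (s.K1 w)) (a : QA K) (ha : a ∈ s.LL w) (ha0 : a ≠ 0) :
    Algebra.adjoin K (s.RR w a : Set (QA K)) = s.K2 w := by
  have hle : Algebra.adjoin K (s.RR w a : Set (QA K)) ≤ s.K2 w :=
    Algebra.adjoin_le fun x hx => RR_le s w a hx
  have := kpd_fd_sub s.k (Algebra.adjoin K (s.RR w a : Set (QA K)))
    (hle.trans (K2_lev s w))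
  refine le_antisymm hle ?_
  refine Algebra.adjoin_le ?_
  intro u hu
  have huK : u ∈ s.K1 w := K2_le s hg w hL (Algebra.subset_adjoin hu)
  obtain ⟨-, b, hb, hb0, hub⟩ := hu
  obtain ⟨r1, hr1, e1⟩ := exists_RR s hg w hL a ha ha0 (u * b) hub
  obtain ⟨r2, hr2, e2⟩ := exists_RR s hg w hL a ha ha0 b hb
  have hr20 : r2 ≠ 0 := by
    rintro rfl
    rw [mul_zero] at e2
    exact hb0 e2
  have e3 : u * r2 = r1 := by
    have : a * (u * r2) = a * r1 := by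
      rw [← e1, e2, ← mul_assoc, ← mul_assoc, K1_comm s w a u (hL ha) huK]
    exact mul_left_cancel₀ ha0 this
  obtain ⟨h1, -, h3⟩ := kpd_qinv (Algebra.adjoin K (s.RR w a : Set (QA K))) r2
    (Algebra.subset_adjoin hr2) hr20
  have e4 : u = r1 * qinv r2 := by rw [← e3, mul_assoc, h1, mul_one]
  rw [SetLike.mem_coe, e4]
  exact mul_mem (Algebra.subset_adjoin hr1) h3

end Pt

end Crest.Agent.KP
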