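import Crest.Agent.KPD_Pkg

/-!
# S0270, part D1 (helper63): main theorem D1
-/

set_option autoImplicit false
set_option linter.unusedSectionVars false

open scoped PowerSeries LaurentSeries symmDiff

namespace Crest.Agent.KP

open Module

theorem exists_min_of {α : Type 1} (p : α → Prop) (f : α → ℕ) (h : ∃ a, p a) :
    ∃ a, p a ∧ ∀ b, p b → f a ≤ f b := by
  classical
  have h' : ∃ n, ∃ a, p a ∧ f a = n := by
    obtain ⟨a, ha⟩ := h
    exact ⟨f a, a, ha, rfl⟩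
  obtain ⟨a, ha, hf⟩ := Nat.find_spec h'
  refine ⟨a, ha, fun b hb => ?_⟩
  rw [hf]
  exact Nat.find_min' h' ⟨b, hb, rfl⟩

open RSt in
/-- **D1** -/
theorem D1_main' {K0 I J : Type} [Field K0] [KF K0] [Fintype I] [Fintype J] (s0 : Pt K0 I J)
    (hg : s0.Good) (hs : s0.Stable) (hr : s0.Rich s0.q0) (w : NC K0 I) :
    (∃ (L : Type) (iF : Field L) (iK : KF L) (t : Pt L I J) (P : Place K0 L),
      Rch s0 L iF iK t P ∧
      ∀ (M : Type) (jF : Field M) (jK : KF M) (t' : Pt M I J) (Q : Place L M),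
        Rch t M jF jK t' Q → t'.LL ((w.map P.inc).map Q.inc) = ⊥) ∨
    (∃ (L : Type) (iF : Field L) (iK : KF L) (t : Pt L I J) (P : Place K0 L),
      Rch s0 L iF iK t P ∧
      ∃ (d : ℕ) (T : I → QA L⟦X⟧) (w1 w2 : I → QA L) (a ρ : QA L),
        t.Pkg4 (w.map P.inc) d (tplus s0.o d) T w1 w2 a ρ ∧
        (t.grow T).Pkg (w.map P.inc).up d) := by
  classical
  by_cases hA : ∃ (L : Type) (iF : Field L) (iK : KF L) (t : Pt L I J) (P : Place K0 L),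
      Rch s0 L iF iK t P ∧
      ∀ (M : Type) (jF : Field M) (jK : KF M) (t' : Pt M I J) (Q : Place L M),
        Rch t M jF jK t' Q → t'.LL ((w.map P.inc).map Q.inc) = ⊥
  · exact Or.inl hA
  right
  have hBB : ∃ r : RSt s0, BB w r := by
    refine BB_nonempty hg hs hr w fun r => ?_
    by_contra hcon
    apply hA
    refine ⟨r.L, r.iF, r.iK, r.t, r.P, r.h, fun M jF jK t' Q hQ => ?_⟩
    by_contra hne
    exact hcon ⟨M, jF, jK, t', Q, hQ, hne⟩
  obtain ⟨rB1, hB1, hB1m⟩ := exists_min_of (BB w) (m1 w) hBB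
  obtain ⟨rB2, hB2, hB2m⟩ := exists_min_of (BB1 w) (m2 w) ⟨rB1, hB1, hB1m⟩
  obtain ⟨r, hr4, hmin⟩ := exists_min_of (CC w (Pf s0.o)) (dd w)
    (CC_nonempty hg hs w ⟨rB2, hB2, hB2m⟩)
  have hb2 : BB2 w r := hr4.1
  have hb1 : BB1 w r := hb2.1
  obtain ⟨g, st, al⟩ := RSt.good hg hs r
  have hpk := pkg_of_min hg hs w r hr4 hmin
  obtain ⟨a, ha, ha0⟩ := (Submodule.ne_bot_iff _).1 hpk.ne
  set d := dd w r with hd
  have hP := hr4.2
  rw [← hd] at hP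
  have hP1 : (tplus s0.o d + 3) * d < r.t.n2 (r.wd w) := by
    have : 0 ≤ 10 * (s0.o + 1) ^ 2 * (tplus s0.o d + 2) := Nat.zero_le _
    unfold Pf at hP
    omega
  have hP2 : 10 * (s0.o + 1) ^ 2 * (tplus s0.o d + 2) ≤ r.t.n2 (r.wd w) := by
    have : 0 ≤ (tplus s0.o d + 3) * d := Nat.zero_le _
    unfold Pf at hP
    omega
  obtain ⟨ρ, hρ, hρ2, lam, hlam, hlam2⟩ := r.t.exists_rho g (r.wd w) hpk.comm a ha ha0 d
    (tplus s0.o d) hpk.dim hP1
  obtain ⟨T, w1, w2, hG⟩ := BB2_exists hg hs w r hb2 a ρ ha ha0 hρ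
  obtain ⟨hb5, hn1, hn2, hc5⟩ := BB2_gr hg hs w r hb2 T w1 w2 a ρ hG
  have hnL := dd_gr hg hs w r hb2 T w1 w2 a ρ hG hρ2
  set r5 := r.gr T w1 w2 hG.gr with hr5
  have hwd : r5.wd w = (r.wd w).up := wd_gr r T w1 w2 hG.gr w
  obtain ⟨g5, st5, al5⟩ := RSt.good hg hs r5
  have hn2' : r5.t.n2 (r5.wd w) = 2 * r.t.n2 (r.wd w) := by
    rw [hwd]; exact hn2
  have hnL' : r.t.nL (r.wd w) + r.t.n2 (r.wd w) ≤ r5.t.nL (r5.wd w) := by
    rw [hwd]; exact hnL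
  have hdim := hpk.dim
  have hd5 : dd w r5 ≤ d := by
    have e : dd w r5 = r5.t.n2 (r5.wd w) - r5.t.nL (r5.wd w) := rfl
    rw [e, hn2']
    omega
  have hcc5 : CC w (Pf s0.o) r5 := by
    refine ⟨hb5, ?_⟩
    rw [hn2']
    calc Pf s0.o (dd w r5) ≤ Pf s0.o d := Pf_mono s0.o hd5
      _ ≤ r.t.n2 (r.wd w) := hP
      _ ≤ 2 * r.t.n2 (r.wd w) := by omega
  have hd5' : dd w r5 = d := le_antisymm hd5 (hmin r5 hcc5)
  have hpk5 := pkg_of_min hg hs w r5 hcc5 (fun r' hr' => by rw [hd5']; exact hmin r' hr')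
  have hdim5 := hpk5.dim
  rw [hd5'] at hpk5 hdim5
  refine ⟨r.L, r.iF, r.iK, r.t, r.P, r.h, d, T, w1, w2, a, ρ, ?_, ?_⟩
  · have hnL5 : (r.t.grow T).nL (r.wd w).up = r.t.nL (r.wd w) + r.t.n2 (r.wd w) := by
      have e : r5.t.nL (r5.wd w) = (r.t.grow T).nL (r.wd w).up := by rw [hwd]; rfl
      rw [← e]
      omega
    have ho : r.t.o = s0.o := hs r.L r.iF r.iK r.t r.P r.h
    refine
      { good := g
        stable := st
        gr := hG.gr
        comm := hpk.comm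
        dim := hpk.dim
        a0 := ha0
        l1 := hG.l1
        l2 := hG.l2
        rho := hρ
        inj := hG.inj
        n1 := hn1
        n2 := hn2
        nL := hnL5
        rho2 := hρ2
        lam := ⟨lam, hlam, hlam2⟩
        rich := ?_ }
    obtain ⟨Ω, h1, h2, h3, h4⟩ := r.t.rich0 g (r.wd w) hpk.comm hb1.1.2
    refine ⟨Ω, h1, le_trans ?_ h2, h3, h4⟩
    rw [ho]
    have h5 : r.t.n2 (r.wd w) ≤ 2 ^ r.t.k :=
      Nat.le_of_dvd (by positivity) (r.t.n2_dvd g (r.wd w) hpk.comm)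
    have h6 : 1 ≤ 4 * (s0.o + 1) ^ 2 := by
      have : 0 < (s0.o + 1) ^ 2 := by positivity
      omega
    calc 10 * (s0.o + 1) ^ 2 * (tplus s0.o d + 2) ≤ 2 ^ r.t.k := hP2.trans h5
      _ = 1 * 2 ^ r.t.k := (one_mul _).symm
      _ ≤ 4 * (s0.o + 1) ^ 2 * 2 ^ r.t.k := Nat.mul_le_mul_right _ h6
  · have := hpk5
    rw [hwd] at this
    exact this

end Crest.Agent.KP
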