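import Crest.Agent.KPD_It

/-!
# S0270, part D1 (helper63): the interface `Pkg`
-/

set_option autoImplicit false
set_option linter.unusedSectionVars false

open scoped PowerSeries LaurentSeries symmDiff

namespace Crest.Agent.KP

open Module

namespace RSt

variable {K0 I J : Type} [Field K0] [KF K0] [Fintype I] [Fintype J] {s0 : Pt K0 I J}

theorem pkg_arith1 {n n' k k' : ℕ} (hn : n ∣ 2 ^ k) (hn' : n' ∣ 2 ^ k') (hk : k ≤ k')
    (h : 2 ^ k / n ≤ 2 ^ k' / n') : n' ≤ n * 2 ^ (k' - k) := by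
  have h1 : n * (2 ^ k / n) = 2 ^ k := Nat.mul_div_cancel' hn
  have h2 : n' * (2 ^ k' / n') = 2 ^ k' := Nat.mul_div_cancel' hn'
  have hp : 0 < 2 ^ k := by positivity
  have h3 : 2 ^ k' = 2 ^ (k' - k) * 2 ^ k := by rw [← pow_add]; congr 1; omega
  have h4 : n' * 2 ^ k ≤ n * 2 ^ (k' - k) * 2 ^ k := by
    calc n' * 2 ^ k = n' * (n * (2 ^ k / n)) := by rw [h1]
      _ = n * (n' * (2 ^ k / n)) := by ring
      _ ≤ n * (n' * (2 ^ k' / n')) := by gcongr
      _ = n * 2 ^ (k' - k) * 2 ^ k := by rw [h2, h3]; ring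
  exact Nat.le_of_mul_le_mul_right h4 hp

theorem pkg_arith2 {n k k' : ℕ} (hn : n ∣ 2 ^ k) (hk : k ≤ k') :
    2 ^ k' / (n * 2 ^ (k' - k)) = 2 ^ k / n := by
  have h3 : 2 ^ k' = 2 ^ k * 2 ^ (k' - k) := by rw [← pow_add]; congr 1; omega
  rw [h3, Nat.mul_div_mul_right _ _ (by positivity)]

theorem nL_le_n2 {K I J : Type} [Field K] [KF K] [Fintype I] [Fintype J] (s : Pt K I J)
    (hg : s.Good) (w : NC K I) (hne : s.LL w ≠ ⊥)
    (hL : s.LL w ≤ Subalgebra.toSubmodule (s.K1 w)) : s.nL w ≤ s.n2 w := by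
  obtain ⟨a, ha, ha0⟩ := (Submodule.ne_bot_iff _).1 hne
  have := s.finrank_M hg w hL a ha ha0
  omega

/-- **[task]** the interface `Pkg` at a state of `CC` with minimal `dd`. -/
theorem pkg_of_min (hg : s0.Good) (hs : s0.Stable) (w : NC K0 I) (r : RSt s0)
    (hr : CC w (Pf s0.o) r) (hmin : ∀ r' : RSt s0, CC w (Pf s0.o) r' → dd w r ≤ dd w r') :
    r.t.Pkg (r.wd w) (dd w r) := by
  have hB2 : BB2 w r := hr.1
  have hB1 : BB1 w r := hB2.1
  have hB : BB w r := hB1.1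
  obtain ⟨g, st, al⟩ := RSt.good hg hs r
  have hcomm := BB1_comm hg hs w r hB1
  have hn1 := r.t.n1_dvd g (r.wd w)
  have hn2 := r.t.n2_dvd g (r.wd w) hcomm
  have hle := nL_le_n2 r.t g (r.wd w) hB.1 hcomm
  have hdim : r.t.n2 (r.wd w) = r.t.nL (r.wd w) + dd w r := by
    unfold dd
    omega
  -- states reachable from `r` with `L ≠ 0`
  have key : ∀ (L : Type) (iF : Field L) (iK : KF L) (t : Pt L I J) (P : Place r.L L),
      Rch r.t L iF iK t P → t.LL ((r.wd w).map P.inc) ≠ ⊥ →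
      ∃ P' : Place K0 L, ∃ h : Rch s0 L iF iK t P',
        (RSt.mk L t P' h).wd w = (r.wd w).map P.inc ∧ BB w (RSt.mk L t P' h) ∧
        r.t.k ≤ t.k ∧ t.n1 ((r.wd w).map P.inc) ∣ 2 ^ t.k := by
    intro L iF iK t P hR hne
    obtain ⟨P', h, hw⟩ := exists_trans r w L iF iK t P hR
    refine ⟨P', h, hw, ⟨?_, ?_⟩, ?_, ?_⟩
    · rw [hw]; exact hne
    · exact r.t.SR_rch g st hB.2 L iF iK t P hR
    · exact r.t.k_mono_rch L iF iK t P hR
    · exact t.n1_dvd (RSt.good hg hs (RSt.mk L t P' h)).1 _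
  have key1 : ∀ (L : Type) (iF : Field L) (iK : KF L) (t : Pt L I J) (P : Place r.L L),
      Rch r.t L iF iK t P → t.LL ((r.wd w).map P.inc) ≠ ⊥ →
      t.n1 ((r.wd w).map P.inc) = r.t.n1 (r.wd w) * 2 ^ (t.k - r.t.k) →
      ∃ P' : Place K0 L, ∃ h : Rch s0 L iF iK t P',
        (RSt.mk L t P' h).wd w = (r.wd w).map P.inc ∧ BB1 w (RSt.mk L t P' h) ∧
        r.t.k ≤ t.k := by
    intro L iF iK t P hR hne hn
    obtain ⟨P', h, hw, hb, hk, -⟩ := key L iF iK t P hR hne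
    refine ⟨P', h, hw, ⟨hb, fun r' hr' => ?_⟩, hk⟩
    have e1 : m1 w (RSt.mk L t P' h) = m1 w r := by
      unfold m1
      rw [hw]
      show 2 ^ t.k / t.n1 ((r.wd w).map P.inc) = _
      rw [hn, pkg_arith2 hn1 hk]
    rw [e1]
    exact hB1.2 r' hr'
  have key2 : ∀ (L : Type) (iF : Field L) (iK : KF L) (t : Pt L I J) (P : Place r.L L),
      Rch r.t L iF iK t P → t.LL ((r.wd w).map P.inc) ≠ ⊥ →
      t.n1 ((r.wd w).map P.inc) = r.t.n1 (r.wd w) * 2 ^ (t.k - r.t.k) →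
      t.LL ((r.wd w).map P.inc) ≤ Subalgebra.toSubmodule (t.K1 ((r.wd w).map P.inc)) := by
    intro L iF iK t P hR hne hn
    obtain ⟨P', h, hw, hb, hk⟩ := key1 L iF iK t P hR hne hn
    have := BB1_comm hg hs w (RSt.mk L t P' h) hb
    rw [hw] at this
    exact this
  refine ⟨g, st, hB.1, hcomm, hdim, ?_, key2, ?_, ?_, ?_⟩
  · -- min1
    intro L iF iK t P hR hne
    obtain ⟨P', h, hw, hb, hk, hd⟩ := key L iF iK t P hR hne
    have h1 := hB1.2 _ hb
    unfold m1 at h1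
    rw [hw] at h1
    exact pkg_arith1 hn1 hd hk h1
  · -- min2
    intro L iF iK t P hR hne hn
    obtain ⟨P', h, hw, hb, hk⟩ := key1 L iF iK t P hR hne hn
    have h1 := hB2.2 _ hb
    unfold m2 at h1
    rw [hw] at h1
    exact pkg_arith1 hn2 (t.n2_dvd (RSt.good hg hs (RSt.mk L t P' h)).1 _
      (key2 L iF iK t P hR hne hn)) hk h1
  · -- min3
    intro L iF iK t P hR hne hn hn'
    obtain ⟨P', h, hw, hb, hk⟩ := key1 L iF iK t P hR hne hn
    by_contra hlt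
    push Not at hlt
    have hb2 : BB2 w (RSt.mk L t P' h) := by
      refine ⟨hb, fun r' hr' => ?_⟩
      have e1 : m2 w (RSt.mk L t P' h) = m2 w r := by
        unfold m2
        rw [hw]
        show 2 ^ t.k / t.n2 ((r.wd w).map P.inc) = _
        rw [hn', pkg_arith2 hn2 hk]
      rw [e1]
      exact hB2.2 r' hr'
    have hlt' : dd w (RSt.mk L t P' h) < dd w r := by
      show t.n2 ((RSt.mk L t P' h).wd w) - t.nL ((RSt.mk L t P' h).wd w) < _
      rw [hw]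
      have : 0 < dd w r := by
        by_contra h0
        have h0' : dd w r = 0 := by omega
        have := nL_le_n2 t (RSt.good hg hs (RSt.mk L t P' h)).1 _ hne (key2 L iF iK t P hR hne hn)
        omega
      omega
    have hc : CC w (Pf s0.o) (RSt.mk L t P' h) := by
      refine ⟨hb2, ?_⟩
      show Pf s0.o (dd w (RSt.mk L t P' h)) ≤ t.n2 ((RSt.mk L t P' h).wd w)
      rw [hw, hn']
      calc Pf s0.o (dd w (RSt.mk L t P' h)) ≤ Pf s0.o (dd w r) := Pf_mono s0.o hlt'.le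
        _ ≤ r.t.n2 (r.wd w) := hr.2
        _ ≤ r.t.n2 (r.wd w) * 2 ^ (t.k - r.t.k) := Nat.le_mul_of_pos_right _ (by positivity)
    have := hmin _ hc
    omega
  · -- rho
    intro a ha ha0
    have hP := hr.2
    unfold Pf at hP
    obtain ⟨ρ, h1, h2, -⟩ := r.t.exists_rho g (r.wd w) hcomm a ha ha0 (dd w r)
      (tplus s0.o (dd w r)) hdim (by
        have : 0 ≤ 10 * (s0.o + 1) ^ 2 * (tplus s0.o (dd w r) + 2) := Nat.zero_le _
        omega)
    exact ⟨ρ, h1, h2⟩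

end RSt

end Crest.Agent.KP
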