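import Crest.Agent.KPD_Black

/-!
# S0270, part D1 (helper63): projections, `qinv`
-/

set_option autoImplicit false
set_option linter.unusedSectionVars false

open scoped PowerSeries LaurentSeries symmDiff

namespace Crest.Agent.KP

open Module

section Pr
variable {K : Type} [Field K] [KF K]

/-- inverses -/
theorem kpd_qinv (B : Subalgebra K (QA K)) [FiniteDimensional K B] (u : QA K) (hu : u ∈ B)
    (h0 : u ≠ 0) : u * qinv u = 1 ∧ qinv u * u = 1 ∧ qinv u ∈ B := by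
  obtain ⟨v, hv, h1, h2⟩ := kpd_inv B u hu h0
  have hex : ∃ v : QA K, u * v = 1 ∧ v * u = 1 := ⟨v, h1, h2⟩
  have e : qinv u = Classical.choose hex := dif_pos hex
  have hs := Classical.choose_spec hex
  rw [← e] at hs
  refine ⟨hs.1, hs.2, ?_⟩
  have : qinv u = v := by
    calc qinv u = qinv u * (u * v) := by rw [h1, mul_one]
      _ = (qinv u * u) * v := by rw [mul_assoc]
      _ = v := by rw [hs.2, one_mul]
  rw [this]
  exact hv

theorem kpd_fd_sub (k : ℕ) (B : Subalgebra K (QA K)) (hB : B ≤ lev K k) :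
    FiniteDimensional K B := by
  haveI := kpd_fd_lev (K := K) k
  exact Submodule.finiteDimensional_of_le (S₁ := Subalgebra.toSubmodule B)
    (S₂ := Subalgebra.toSubmodule (lev K k)) hB

/-- the projection is in `lev k`, commutes with `S`. -/
theorem kpd_Pr_mem (k : ℕ) (S : Set (QA K)) (u : QA K) (hu : u ∈ lev K k) :
    Pr k S u ∈ lev K k := (Pr_spec k S u hu).1
theorem kpd_Pr_comm (k : ℕ) (S : Set (QA K)) (u : QA K) (hu : u ∈ lev K k) (φ : QA K)
    (hφ : φ ∈ S) : Pr k S u * φ = φ * Pr k S u := (Pr_spec k S u hu).2.1 φ hφ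
theorem kpd_Pr_orth (k : ℕ) (S : Set (QA K)) (u : QA K) (hu : u ∈ lev K k) (d : QA K)
    (hd : d ∈ lev K k) (hd' : ∀ φ ∈ S, d * φ = φ * d) :
    QA.tr (Pr k S u * d) = QA.tr (u * d) := by
  have h := (Pr_spec k S u hu).2.2 d hd hd'
  rw [sub_mul, map_sub] at h
  exact (sub_eq_zero.1 h).symm

/-- the projection only depends on the centralizer -/
theorem kpd_Pr_congr (k : ℕ) (S S' : Set (QA K))
    (h : ∀ x ∈ lev K k, (∀ φ ∈ S, x * φ = φ * x) ↔ ∀ φ ∈ S', x * φ = φ * x) (u : QA K)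
    (hu : u ∈ lev K k) : Pr k S u = Pr k S' u := by
  apply kpd_Pr_unique k S u _ hu
  have h1 := Pr_spec k S' u hu
  exact ⟨h1.1, (h _ h1.1).2 h1.2.1, fun d hd hd' => h1.2.2 d hd ((h d hd).1 hd')⟩

theorem kpd_comm_adjoin (S : Set (QA K)) (x : QA K) :
    (∀ φ ∈ S, x * φ = φ * x) ↔ ∀ φ ∈ (Algebra.adjoin K S : Set (QA K)), x * φ = φ * x := by
  constructor
  · intro h φ hφ
    induction hφ using Algebra.adjoin_induction with
    | mem y hy => exact h y hy
    | algebraMap r => exact (Algebra.commutes r x).symm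
    | add a b _ _ ha hb => rw [mul_add, add_mul, ha, hb]
    | mul a b _ _ ha hb => rw [← mul_assoc, ha, mul_assoc, hb, mul_assoc]
  · exact fun h φ hφ => h φ (Algebra.subset_adjoin hφ)

theorem kpd_Pr_adjoin (k : ℕ) (S : Set (QA K)) (u : QA K) (hu : u ∈ lev K k) :
    Pr k S u = Pr k (Algebra.adjoin K S : Set (QA K)) u :=
  kpd_Pr_congr k _ _ (fun x _ => kpd_comm_adjoin S x) u hu

/-- projections to smaller centralizers factor -/
theorem kpd_Pr_Pr (k : ℕ) (S S' : Set (QA K)) (h : S ⊆ S') (u : QA K) (hu : u ∈ lev K k) :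
    Pr k S' (Pr k S u) = Pr k S' u := by
  symm
  apply kpd_Pr_unique k S' u _ hu
  have h1 := Pr_spec k S u hu
  have h2 := Pr_spec k S' (Pr k S u) h1.1
  refine ⟨h2.1, h2.2.1, fun d hd hd' => ?_⟩
  have h3 := h1.2.2 d hd (fun φ hφ => hd' φ (h hφ))
  have h4 := h2.2.2 d hd hd'
  have : u - Pr k S' (Pr k S u) = (u - Pr k S u) + (Pr k S u - Pr k S' (Pr k S u)) := by abel
  rw [this, add_mul, map_add, h3, h4, add_zero]

/-- an element of the centralizer is its own projection -/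
theorem kpd_Pr_self (k : ℕ) (S : Set (QA K)) (u : QA K) (hu : u ∈ lev K k)
    (h : ∀ φ ∈ S, u * φ = φ * u) : Pr k S u = u := by
  apply kpd_Pr_unique k S u _ hu
  exact ⟨hu, h, fun d _ _ => by rw [sub_self, zero_mul, map_zero]⟩

/-- **[task]** projections and `lev (k+1) = lev k ⊗ (1,S1,S2,S3)`.
Proof: `kpd_Pr_unique`; the candidate is in `lev (k+1)`, commutes with `S ⊆ lev k`
(`kpd_comm_S1`, `kpd_comm_S2`, `kpd_S3`); for `d = d0 + d1 S1 + d2 S2 + d3 S3` (`kpd_decomp`)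
commuting with `S` each `d_b` commutes with `S` (`kpd_decomp_unique`), and
`tr((∑ y_b e_b) d) = ∑ c_b tr(y_b d_b)` (`kpd_tr_low` and the multiplication table,
`c = 1, al, be, -al be`). -/
theorem kpd_Pr_up (k : ℕ) (S : Set (QA K)) (hS : ∀ φ ∈ S, φ ∈ lev K k) (x0 x1 x2 x3 : QA K)
    (h0 : x0 ∈ lev K k) (h1 : x1 ∈ lev K k) (h2 : x2 ∈ lev K k) (h3 : x3 ∈ lev K k) :
    Pr (k + 1) S (x0 + x1 * S1 k + x2 * S2 k + x3 * S3 k) =
      Pr k S x0 + Pr k S x1 * S1 k + Pr k S x2 * S2 k + Pr k S x3 * S3 k := by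
  rw [map_add, map_add, map_add, kpa_Pr_level (Nat.le_succ k) hS h0,
    kpa_Pr_mul_mid (Nat.le_succ k) hS h1 (kpa_S1_mem k),
    kpa_Pr_mul_mid (Nat.le_succ k) hS h2 (kpa_S2_mem k),
    kpa_Pr_mul_mid (Nat.le_succ k) hS h3 (kpa_S3_mem k)]

end Pr

end Crest.Agent.KP
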