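import Crest.Agent.KPD_St

/-!
# S0270, part D1 (helper63): strong richness, existence of growth steps, class `BB` nonempty
-/

set_option autoImplicit false
set_option linter.unusedSectionVars false

open scoped PowerSeries LaurentSeries symmDiff

namespace Crest.Agent.KP

open Module

/-- rank-nullity for a submodule -/
private theorem kpd_rn {K E E' : Type} [Field K] [AddCommGroup E] [Module K E] [AddCommGroup E']
    [Module K E'] (V : Submodule K E) [FiniteDimensional K V] (f : E →ₗ[K] E') :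
    Module.finrank K V = Module.finrank K (V ⊓ LinearMap.ker f : Submodule K E) +
      Module.finrank K (V.map f) := by
  have h1 := LinearMap.finrank_range_add_finrank_ker (f.comp V.subtype)
  have h2 : LinearMap.range (f.comp V.subtype) = V.map f := by
    rw [LinearMap.range_comp, Submodule.range_subtype]
  have h3 : LinearMap.ker (f.comp V.subtype) = (LinearMap.ker f).comap V.subtype := rfl
  have h4 : Module.finrank K ((LinearMap.ker f).comap V.subtype) =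
      Module.finrank K (V ⊓ LinearMap.ker f : Submodule K E) := by
    rw [← Submodule.map_comap_subtype]
    exact (LinearEquiv.finrank_eq (Submodule.equivMapOfInjective V.subtype
      V.subtype_injective _))
  rw [h2, h3, h4] at h1
  omega

/-- multiplication on the right by an element commuting with all values -/
private theorem kpd_d1_mul_right {R I A : Type} [CommRing R] [Ring A] [Algebra R A] (p : NC R I)
    (X v : I → A) (e : A) (he : ∀ q : NC R I, q.ev X * e = e * q.ev X) :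
    p.d1 X (fun i => v i * e) = p.d1 X v * e := by
  induction p with
  | cst c => simp [NC.d1]
  | var i => rfl
  | add p q hp hq => simp only [NC.d1, hp, hq, add_mul]
  | mul p q hp hq =>
    simp only [NC.d1, hp, hq, add_mul]
    rw [mul_assoc, mul_assoc, mul_assoc, he q]

namespace Pt

variable {K I J : Type} [Field K] [KF K] [Fintype I] [Fintype J]

theorem TInj_mono (s : Pt K I J) {Ω Ω' Wt Wt' : Submodule K (I → QA K)} (h : Ω' ≤ Ω)
    (hW : Wt ≤ Wt') (hT : s.TInj Ω Wt) : s.TInj Ω' Wt' := by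
  intro n ω c hω hli hc hv
  exact hT n ω c (fun i => h (hω i)) hli hc fun v hv' => hv v (hW hv')

theorem Inj_mono (s : Pt K I J) {Wt Wt' : Submodule K (I → QA K)} (hW : Wt ≤ Wt')
    (w1 w2 : I → QA K) (hT : s.Inj Wt w1 w2) : s.Inj Wt' w1 w2 := by
  intro c1 h1 c2 h2 hv
  exact hT c1 h1 c2 h2 fun v hv' => hv v (hW hv')

/-- `Ω_0` inside `W0 = W ∩ ker ell` (GPa with `κ = dim L ≤ 2^k`, then intersect with
`ker ell`, codimension `≤ dim L ≤ n1 ≤ 2^k`). -/
theorem rich0 (s : Pt K I J) (hg : s.Good) (w : NC K I)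
    (hL : s.LL w ≤ Subalgebra.toSubmodule (s.K1 w)) (hr : s.SR) :
    ∃ Ω : Submodule K (I → QA K), Ω ≤ s.W0 w ∧
      4 * (s.o + 1) ^ 2 * 2 ^ s.k ≤ finrank K Ω ∧
      s.TInj Ω (s.W0 w) ∧ ∀ v ∈ Ω, s.InnXY v → v = 0 := by
  obtain ⟨t, ⟨Ω, hΩW, hΩt, hT, hI⟩, ht⟩ := hr
  have := kpd_fd_W s hg
  have : FiniteDimensional K Ω := Submodule.finiteDimensional_of_le hΩW
  have : FiniteDimensional K (s.K1 w) := kpd_fd_sub s.k _ (K1_lev s hg w)
  have hL1 : s.nL w ≤ s.n1 w := Submodule.finrank_mono (R := K) (M := QA K) hL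
  have hn1 : s.n1 w ≤ 2 ^ s.k := Nat.le_of_dvd (by positivity) (n1_dvd s hg w)
  have hW : finrank K s.W = finrank K (s.W0 w) + s.nL w := kpd_rn s.W (s.ell w)
  obtain ⟨Ω', h1, h2, h3⟩ := kpd_GPa s Ω s.W (s.W0 w) inf_le_left (s.nL w) hW.le hT
  have : FiniteDimensional K Ω' := Submodule.finiteDimensional_of_le h1
  have h4 := kpd_rn Ω' (s.ell w)
  have h5 : finrank K (Ω'.map (s.ell w)) ≤ s.nL w := by
    have : FiniteDimensional K (s.LL w) := by
      unfold LL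
      infer_instance
    exact Submodule.finrank_mono (Submodule.map_mono (h1.trans hΩW))
  refine ⟨Ω' ⊓ LinearMap.ker (s.ell w), fun v hv => ⟨hΩW (h1 hv.1), hv.2⟩, ?_,
    s.TInj_mono inf_le_left le_rfl h2, fun v hv => hI v (h1 hv.1)⟩
  have h6 : finrank K Ω ≤ finrank K (Ω' ⊓ LinearMap.ker (s.ell w) : Submodule K (I → QA K)) +
      s.nL w * (s.o + 1) := by
    rw [mul_add, mul_one]
    omega
  have h7 : s.nL w * (s.o + 1) ≤ 2 ^ s.k * (s.o + 1) ^ 2 := by
    refine Nat.mul_le_mul (hL1.trans hn1) ?_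
    nlinarith
  unfold CR at ht
  rw [hΩt] at h6
  nlinarith

/-- existence of growth steps with prescribed `ell w1`, `ell w2` (`rich0`, `kpd_GL` with
`Wt = W0`, `kpd_growth`). -/
theorem exists_growth_LL (s : Pt K I J) (hg : s.Good) (ha : s.Alt) (w : NC K I)
    (hL : s.LL w ≤ Subalgebra.toSubmodule (s.K1 w)) (hr : s.SR) (a b : QA K) (ha : a ∈ s.LL w)
    (hb : b ∈ s.LL w) :
    ∃ T w1 w2, s.IsGrowth T w1 w2 ∧ s.ell w w1 = a ∧ s.ell w w2 = b ∧ s.Inj (s.W0 w) w1 w2 := by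
  have halt : s.Alt := by assumption
  obtain ⟨Ω, hΩ, hd, hT, hI⟩ := rich0 s hg w hL hr
  obtain ⟨v1, hv1, rfl⟩ := ha
  obtain ⟨v2, hv2, rfl⟩ := hb
  have hd' : 2 * s.o ^ 2 + s.o + 4 ≤ finrank K Ω := by
    refine le_trans ?_ hd
    have : 1 ≤ 2 ^ s.k := Nat.one_le_two_pow
    calc 2 * s.o ^ 2 + s.o + 4 ≤ 4 * (s.o + 1) ^ 2 * 1 := by nlinarith
      _ ≤ _ := Nat.mul_le_mul_left _ this
  obtain ⟨w1, w2, hw1, hw2, e1, e2, hB, hP, hJ⟩ := kpd_GL s hg halt (s.W0 w) Ω inf_le_left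
    (hΩ.trans inf_le_left) hT hI hd' v1 v2 hv1 hv2
  obtain ⟨T, hTg⟩ := kpd_growth s hg halt w1 w2 hw1 hw2 hB
    (s.Inj_mono inf_le_left w1 w2 hJ) hP
  refine ⟨T, w1, w2, hTg, ?_, ?_, hJ⟩
  · have : w1 - v1 ∈ LinearMap.ker (s.ell w) := (hΩ e1).2
    rw [LinearMap.mem_ker, map_sub] at this
    exact sub_eq_zero.1 this
  · have : w2 - v2 ∈ LinearMap.ker (s.ell w) := by
      rw [sup_eq_left.2 hΩ] at e2
      exact e2.2
    rw [LinearMap.mem_ker, map_sub] at this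
    exact sub_eq_zero.1 this

/-- existence of a growth step with `ell w1 ≠ 0` from `Rich t`, `t ≥ q0`, `L ≠ 0`.
`l'` a linear functional on `QA K` with `l' (ell v1) ≠ 0`; `Ω_0 = Ω ∩ ker (l' ∘ ell)` has dimension
`≥ t - 1 ≥ 2 o^2 + o + 4`; `kpd_GL` with `Wt = W`; `l' (ell w1) = l' (ell v1)`. -/
theorem exists_growth_ne (s : Pt K I J) (hg : s.Good) (ha : s.Alt) (w : NC K I)
    (hL : s.LL w ≠ ⊥) (t : ℕ) (ht : s.q0 ≤ t) (hr : s.Rich t) :
    ∃ T w1 w2, s.IsGrowth T w1 w2 ∧ s.ell w w1 ≠ 0 := by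
  obtain ⟨Ω, hΩW, hΩt, hT, hI⟩ := hr
  have := kpd_fd_W s hg
  have : FiniteDimensional K Ω := Submodule.finiteDimensional_of_le hΩW
  obtain ⟨b, ⟨v1, hv1, rfl⟩, hb⟩ := (Submodule.ne_bot_iff _).1 hL
  obtain ⟨l', hl'⟩ : ∃ l' : Module.Dual K (QA K), l' (s.ell w v1) ≠ 0 := by
    by_contra hcon
    push Not at hcon
    exact hb ((Module.forall_dual_apply_eq_zero_iff K _).1 hcon)
  set f : (I → QA K) →ₗ[K] K := l'.comp (s.ell w) with hf
  have h4 := kpd_rn Ω f
  have h5 : finrank K (Ω.map f) ≤ 1 := (Submodule.finrank_le _).trans (by simp)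
  have hd' : 2 * s.o ^ 2 + s.o + 4 ≤
      finrank K (Ω ⊓ LinearMap.ker f : Submodule K (I → QA K)) := by
    unfold q0 at ht
    omega
  obtain ⟨w1, w2, hw1, hw2, e1, e2, hB, hP, hJ⟩ := kpd_GL s hg ha s.W (Ω ⊓ LinearMap.ker f) le_rfl
    (inf_le_left.trans hΩW) (s.TInj_mono inf_le_left le_rfl hT) (fun v hv => hI v hv.1) hd' v1 0
    hv1 s.W.zero_mem
  obtain ⟨T, hTg⟩ := kpd_growth s hg ha w1 w2 hw1 hw2 hB hJ hP
  refine ⟨T, w1, w2, hTg, fun h0 => ?_⟩
  have : w1 - v1 ∈ LinearMap.ker f := e1.2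
  rw [LinearMap.mem_ker, map_sub, sub_eq_zero] at this
  apply hl'
  change f v1 = 0
  rw [← this]
  change l' (s.ell w w1) = 0
  rw [h0, map_zero]

/-- `Pr (k+1) {ω} (dw[w1 S1 + w2 S2]) = ell w1 * S1 + ell w2 * S2` (`kpd_Pr_up`). -/
theorem Pr_T1 (s : Pt K I J) (hg : s.Good) (w : NC K I) (T : I → QA K⟦X⟧) (w1 w2 : I → QA K)
    (hT : s.IsGrowth T w1 w2) :
    Pr (s.k + 1) {s.omg w} (w.d1 s.X (fun i => cf 1 (T i))) =
      s.ell w w1 * S1 s.k + s.ell w w2 * S2 s.k := by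
  have e : (fun i => cf 1 (T i)) = (fun i => w1 i * S1 s.k) + fun i => w2 i * S2 s.k :=
    funext hT.one
  have hc : ∀ e : QA K, (∀ u ∈ lev K s.k, u * e = e * u) → ∀ (v : I → QA K),
      w.d1 s.X (fun i => v i * e) = w.d1 s.X v * e := by
    intro e he v
    refine kpd_d1_mul_right w s.X v e fun q => he _ ?_
    exact NC.kph_ev_mem (lev K s.k) q s.X hg.Xlev
  rw [e, NC.kph_d1_add, hc _ (kpd_comm_S1 s.k), hc _ (kpd_comm_S2 s.k)]
  have h := kpd_Pr_up s.k {s.omg w} (by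
    intro φ hφ
    rw [Set.mem_singleton_iff.1 hφ]
    exact omg_lev s hg w) 0 (w.d1 s.X w1) (w.d1 s.X w2) 0 (lev K s.k).zero_mem
    (d1_lev s hg w w1 hT.w1W) (d1_lev s hg w w2 hT.w2W) (lev K s.k).zero_mem
  simp only [zero_mul, zero_add, add_zero, map_zero] at h
  exact h

end Pt

end Crest.Agent.KP
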