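import Crest.Agent.KPD_TrC
import Crest.Agent.KPD_K2

/-!
# S0270, part D1 (helper63): steps and the word (P3 (A))
-/

set_option autoImplicit false
set_option linter.unusedSectionVars false

open scoped PowerSeries LaurentSeries symmDiff

namespace Crest.Agent.KP

open Module

namespace Pt

variable {K I J : Type} [Field K] [KF K] [Fintype I] [Fintype J]

/-- what is common to curve and growth steps `s → s'` with good stable `s`. -/
structure IsStep (s : Pt K I J) (s' : Pt K⸨X⸩ I J) (T : I → QA K⟦X⟧) : Prop where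
  zero : ∀ i, cf 0 (T i) = s.X i
  X : s'.X = fun i => toL K (T i)
  good : s.Good
  good' : s'.Good
  k : s.k ≤ s'.k
  tan : ∀ T' : I → QA K⟦X⟧, (∀ i m, cf m (T' i) = ((m : K) + 1) • cf (m + 1) (T i)) →
    (fun i => toL K (T' i)) ∈ s'.W

theorem isStep_curve (s : Pt K I J) (hg : s.Good) (hs : s.Stable) (T : I → QA K⟦X⟧)
    (hT : s.IsCurve T) : s.IsStep (s.curve T) T := by
  have hg' : (s.curve T).Good :=
    (C_reach s hg hs _ _ _ _ _ (Rch.curve K _ _ s (Place.refl K) Rch.refl T hT)).1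
  exact ⟨hT.zero, rfl, hg, hg', le_rfl, fun T' h' => C_tangent_curve s T T' hT hg' h'⟩

theorem isStep_grow (s : Pt K I J) (hg : s.Good) (hs : s.Stable) (T : I → QA K⟦X⟧)
    (w1 w2 : I → QA K) (hT : s.IsGrowth T w1 w2) : s.IsStep (s.grow T) T := by
  have hg' : (s.grow T).Good :=
    (C_reach s hg hs _ _ _ _ _ (Rch.grow K _ _ s (Place.refl K) Rch.refl T w1 w2 hT)).1
  exact ⟨hT.zero, rfl, hg, hg', Nat.le_succ s.k,
    fun T' h' => C_tangent_grow s T T' w1 w2 hT hg' h'⟩

theorem omg_step (s : Pt K I J) (s' : Pt K⸨X⸩ I J) (T : I → QA K⟦X⟧) (h : s.IsStep s' T)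
    (w : NC K I) : s'.omg w.up = toL K (w.ev T) ∧ cf 0 (w.ev T) = s.omg w ∧
      cf 1 (w.ev T) = w.d1 s.X (fun i => cf 1 (T i)) := by
  have h0 : (fun i => cf 0 (T i)) = s.X := funext h.zero
  refine ⟨?_, ?_, ?_⟩
  · unfold omg
    rw [h.X]
    exact ev_toL w T
  · rw [cf0_ev, h0]; rfl
  · rw [cf1_ev, h0]

private theorem st_lev (s : Pt K I J) (s' : Pt K⸨X⸩ I J) (T : I → QA K⟦X⟧) (h : s.IsStep s' T)
    (w : NC K I) : toL K (w.ev T) ∈ lev K⸨X⸩ s'.k := by
  rw [← (omg_step s s' T h w).1]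
  exact omg_lev s' h.good' w.up

/-- `K'` and `E_ω(dw[T_1])` are residues of `K'(s')` -/
theorem D1_step (s : Pt K I J) (s' : Pt K⸨X⸩ I J) (T : I → QA K⟦X⟧) (h : s.IsStep s' T)
    (w : NC K I) : s.K1 w ≤ resA (Place.laurent K) (s'.K1 w.up) ∧
      Pr s'.k {s.omg w} (w.d1 s.X (fun i => cf 1 (T i))) ∈
        resA (Place.laurent K) (s'.K1 w.up) := by
  obtain ⟨e1, e2, e3⟩ := omg_step s s' T h w
  obtain ⟨h1, h2⟩ := D1_ser s'.k (w.ev T) (st_lev s s' T h w)
  rw [e2] at h1
  rw [e2, e3] at h2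
  rw [← e1] at h1 h2
  refine ⟨?_, h2⟩
  unfold K1
  refine Algebra.adjoin_le ?_
  intro x hx
  rw [Set.mem_singleton_iff.1 hx]
  exact h1

/-- **C1** one step. -/
theorem C1_step (s : Pt K I J) (s' : Pt K⸨X⸩ I J) (T : I → QA K⟦X⟧) (h : s.IsStep s' T)
    (w : NC K I) (h0 : s'.LL w.up = ⊥) (j : ℕ) :
    QA.tr ((s'.omg w.up) ^ j) = algebraMap K K⸨X⸩ (QA.tr ((s.omg w) ^ j)) := by
  obtain ⟨e1, e2, e3⟩ := omg_step s s' T h w
  choose T' hT' using fun i => exists_der (T i)
  rw [e1, ← e2]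
  refine tr_const s'.k (w.ev T) (w.d1 T T') (st_lev s s' T h w) (der_ev w T T' hT') ?_ j
  have h1 := h.tan T' hT'
  have h2 : s'.ell w.up (fun i => toL K (T' i)) ∈ s'.LL w.up := ⟨_, h1, rfl⟩
  rw [h0, Submodule.mem_bot] at h2
  have h3 : s'.ell w.up (fun i => toL K (T' i)) =
      Pr s'.k {toL K (w.ev T)} (toL K (w.d1 T T')) := by
    have h4 : s'.ell w.up (fun i => toL K (T' i)) =
      Pr s'.k {s'.omg w.up} (w.up.d1 s'.X (fun i => toL K (T' i))) := rfl
    rw [h4, e1, h.X, d1_toL]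
  rw [← h3, h2]

/-- converse: a first order term with `E_ω(dw[T_1]) ≠ 0` makes `L(s') ≠ 0`. -/
theorem LL_ne_step (s : Pt K I J) (s' : Pt K⸨X⸩ I J) (T : I → QA K⟦X⟧) (h : s.IsStep s' T)
    (w : NC K I) (h0 : Pr s'.k {s.omg w} (w.d1 s.X (fun i => cf 1 (T i))) ≠ 0) :
    s'.LL w.up ≠ ⊥ := by
  intro hL
  obtain ⟨e1, e2, e3⟩ := omg_step s s' T h w
  apply h0
  have h1 := Pr_zero_of_const s'.k (w.ev T) (st_lev s s' T h w) (fun j => by
    rw [← e1, e2]
    exact C1_step s s' T h w hL j)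
  rwa [e2, e3] at h1

/-- Case A: if `L = 0` at all reachable states then the word is frozen. -/
theorem caseA_frozen (s : Pt K I J) (hg : s.Good) (hs : s.Stable) (w : NC K I)
    (h : ∀ (L : Type) (iF : Field L) (iK : KF L) (t : Pt L I J) (P : Place K L),
      Rch s L iF iK t P → t.LL (w.map P.inc) = ⊥) : s.Frozen w := by
  have hid : w.map (Place.refl K).inc = w := by
    have h1 : ∀ w : NC K I, w.map (fun x : K => x) = w := by
      intro w
      induction w with
      | cst c => rfl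
      | var i => rfl
      | add p q hp hq => simp only [NC.map, hp, hq]
      | mul p q hp hq => simp only [NC.map, hp, hq]
    exact h1 w
  intro L iF iK t P hR
  induction hR with
  | refl =>
    intro j
    unfold om
    rw [hid]
    rfl
  | curve L iF iK t P hR T hT ih =>
    intro j
    obtain ⟨hg', hs', -⟩ := C_reach s hg hs L iF iK t P hR
    have hw : w.map (P.trans (Place.laurent L)).inc = (w.map P.inc).up := by
      show w.map _ = (w.map _).map _
      rw [NC.map_map]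
      rfl
    have h0 := h _ _ _ _ _ (Rch.curve L iF iK t P hR T hT)
    rw [hw] at h0
    have h1 := C1_step t (t.curve T) T (isStep_curve t hg' hs' T hT) (w.map P.inc) h0 j
    have h2 := ih j
    unfold om at h2 ⊢
    rw [hw]
    refine h1.trans ?_
    change algebraMap L L⸨X⸩ (QA.tr ((w.map P.inc).ev t.X ^ j)) = _
    rw [h2]
    rfl
  | grow L iF iK t P hR T w1 w2 hT ih =>
    intro j
    obtain ⟨hg', hs', -⟩ := C_reach s hg hs L iF iK t P hR
    have hw : w.map (P.trans (Place.laurent L)).inc = (w.map P.inc).up := by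
      show w.map _ = (w.map _).map _
      rw [NC.map_map]
      rfl
    have h0 := h _ _ _ _ _ (Rch.grow L iF iK t P hR T w1 w2 hT)
    rw [hw] at h0
    have h1 := C1_step t (t.grow T) T (isStep_grow t hg' hs' T w1 w2 hT) (w.map P.inc) h0 j
    have h2 := ih j
    unfold om at h2 ⊢
    rw [hw]
    refine h1.trans ?_
    change algebraMap L L⸨X⸩ (QA.tr ((w.map P.inc).ev t.X ^ j)) = _
    rw [h2]
    rfl

end Pt

end Crest.Agent.KP
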