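import Crest.Agent.KPD_Pr
import Crest.Agent.KPC_Cf
import Crest.Agent.KPB_alg

/-!
# S0270, part D1 (helper63): steps and the word `w`; traces (P3 (A)).
-/

set_option autoImplicit false
set_option linter.unusedSectionVars false

open scoped PowerSeries LaurentSeries symmDiff

namespace Crest.Agent.KP

open Module

section
variable {K I : Type} [Field K] [KF K]

/-- evaluation commutes with `toL` -/
theorem ev_toL (w : NC K I) (T : I → QA K⟦X⟧) :
    w.up.ev (fun i => toL K (T i)) = toL K (w.ev T) := KC.ev_toL T w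

theorem d1_toL (w : NC K I) (T T' : I → QA K⟦X⟧) :
    w.up.d1 (fun i => toL K (T i)) (fun i => toL K (T' i)) = toL K (w.d1 T T') :=
  KC.d1_toL T T' w

/-- `cf 0` is multiplicative, `cf 1` is a derivation over it. -/
theorem cf0_ev (w : NC K I) (T : I → QA K⟦X⟧) : cf 0 (w.ev T) = w.ev (fun i => cf 0 (T i)) :=
  KC.cf0_ev T w

theorem cf1_ev (w : NC K I) (T : I → QA K⟦X⟧) :
    cf 1 (w.ev T) = w.d1 (fun i => cf 0 (T i)) (fun i => cf 1 (T i)) := KC.cf1_ev T w

/-- **D1** for a power series element: `ω' = toL W`, `ω = cf 0 W`. -/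
theorem D1_ser (k : ℕ) (W : QA K⟦X⟧) (hW : toL K W ∈ lev K⸨X⸩ k) :
    cf 0 W ∈ (Place.laurent K).resS
      (Subalgebra.toSubmodule (Algebra.adjoin K⸨X⸩ {toL K W})) ∧
    Pr k {cf 0 W} (cf 1 W) ∈ (Place.laurent K).resS
      (Subalgebra.toSubmodule (Algebra.adjoin K⸨X⸩ {toL K W})) := by
  have hl : ∀ m, cf m W ∈ lev K k := (kpr_toL_mem_lev k W).1 hW
  have h0 : cf 0 (W - toP K (cf 0 W)) = 0 := by
    rw [map_sub, kpr_cf_toP_zero, sub_self]
  obtain ⟨V, hV, hVm⟩ := kpr_div_X _ h0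
  have hVc : ∀ m, cf m V = cf (m + 1) W := by
    intro m
    rw [hVm m, map_sub, kpr_cf_toP_succ _ (m + 1) (Nat.succ_ne_zero m), sub_zero]
  have hVl : toL K V ∈ lev K⸨X⸩ k := by
    rw [kpr_toL_mem_lev]
    intro m
    rw [hVc]
    exact hl _
  have hdec : toL K W = (Place.laurent K).iq (cf 0 W) + zL K • toL K V := by
    have e1 : W = toP K (cf 0 W) + (PowerSeries.X : K⟦X⟧) • V := by
      rw [← hV]; abel
    rw [kpr_iq_laurent]
    conv_lhs => rw [e1]
    rw [map_add, kpr_toL_toP]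
    congr 1
    refine kpr_ext fun g => ?_
    rw [kpr_toL_apply]
    change algebraMap K⟦X⟧ K⸨X⸩ ((PowerSeries.X : K⟦X⟧) * V g) = zL K * (toL K V g)
    rw [map_mul, kpr_toL_apply]
    rfl
  have key := kpd_D1 (Place.laurent K) k (cf 0 W) (hl 0) (toL K V) hVl (kpr_int_toL V) (zL K)
    kpr_zL_ne kpr_zL_mem kpr_zL_r
  rw [← hdec, kpr_rq_toL, hVc 0] at key
  exact key

/-- residues of a subalgebra form a subalgebra -/
noncomputable def resA {L : Type} [Field L] [KF L] (P : Place K L) (Φ : Subalgebra L (QA L)) :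
    Subalgebra K (QA K) where
  carrier := P.resS (Subalgebra.toSubmodule Φ)
  mul_mem' := by
    rintro a b ⟨u, hu, hu', rfl⟩ ⟨v, hv, hv', rfl⟩
    exact ⟨u * v, Φ.mul_mem hu hv, P.int_mul hu' hv', P.rq_mul hu' hv'⟩
  one_mem' := ⟨1, Φ.one_mem, P.int_one, P.rq_one⟩
  add_mem' := fun ha hb => (P.resS (Subalgebra.toSubmodule Φ)).add_mem ha hb
  zero_mem' := (P.resS (Subalgebra.toSubmodule Φ)).zero_mem
  algebraMap_mem' := fun r => by
    rw [Algebra.algebraMap_eq_smul_one]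
    exact (P.resS (Subalgebra.toSubmodule Φ)).smul_mem r ⟨1, Φ.one_mem, P.int_one, P.rq_one⟩

theorem mem_resA {L : Type} [Field L] [KF L] (P : Place K L) (Φ : Subalgebra L (QA L))
    (x : QA K) : x ∈ resA P Φ ↔ x ∈ P.resS (Subalgebra.toSubmodule Φ) := Iff.rfl

/-- dimension of the residue algebra (`Place.finrank_resS`) -/
theorem finrank_resA {L : Type} [Field L] [KF L] (P : Place K L) (Φ : Subalgebra L (QA L))
    [h : FiniteDimensional L Φ] : finrank K (resA P Φ) = finrank L Φ := by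
  have h1 : FiniteDimensional L (Subalgebra.toSubmodule Φ) := h
  exact P.finrank_resS (Subalgebra.toSubmodule Φ)

theorem resA_lev {L : Type} [Field L] [KF L] (P : Place K L) (Φ : Subalgebra L (QA L)) (k : ℕ)
    (h : Φ ≤ lev L k) : resA P Φ ≤ lev K k := by
  rintro _ ⟨v, hv, h1, rfl⟩
  exact kpr_rq_mem_on P _ v (h hv)

theorem resA_comm {L : Type} [Field L] [KF L] (P : Place K L) (Φ : Subalgebra L (QA L))
    (h : ∀ a ∈ Φ, ∀ b ∈ Φ, a * b = b * a) : ∀ a ∈ resA P Φ, ∀ b ∈ resA P Φ, a * b = b * a := by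
  rintro _ ⟨u, hu, hu', rfl⟩ _ ⟨v, hv, hv', rfl⟩
  rw [← P.rq_mul hu' hv', ← P.rq_mul hv' hu', h u hu v hv]

/-- the formal derivative on `QA K⟦X⟧` -/
theorem exists_der (u : QA K⟦X⟧) : ∃ u' : QA K⟦X⟧,
    ∀ m, cf m u' = ((m : K) + 1) • cf (m + 1) u := ⟨KC.dz u, fun m => KC.cf_dz m u⟩

/-- derivative of `w.ev T` -/
theorem der_ev (w : NC K I) (T T' : I → QA K⟦X⟧)
    (h : ∀ i m, cf m (T' i) = ((m : K) + 1) • cf (m + 1) (T i)) (m : ℕ) :
    cf m (w.d1 T T') = ((m : K) + 1) • cf (m + 1) (w.ev T) := by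
  have h1 : T' = fun i => KC.dz (T i) := by
    funext i
    apply KC.cf_ext
    intro m
    rw [h i m, KC.cf_dz]
  rw [h1, ← KC.dz_ev, KC.cf_dz]

end

end Crest.Agent.KP
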