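import Crest.Agent.KPD_Tr
import Crest.Agent.KPC_Cf

/-!
# S0270, part D1 (helper63): constant traces (P3 (A))
-/

set_option autoImplicit false
set_option linter.unusedSectionVars false

open scoped PowerSeries LaurentSeries symmDiff

namespace Crest.Agent.KP

open Module

section
variable {K I : Type} [Field K] [KF K]

private theorem tc_cf0_pow (W : QA K⟦X⟧) (j : ℕ) : cf 0 (W ^ j) = (cf 0 W) ^ j := by
  induction j with
  | zero =>
    rw [pow_zero, pow_zero]
    have h := KC.cf_algebraMap (K := K) 0 1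
    rw [(algebraMap K (QA K⟦X⟧)).map_one, (algebraMap K (QA K)).map_one, if_pos rfl] at h
    exact h
  | succ n ih => rw [pow_succ, pow_succ, KC.cf_mul0, ih]

private theorem tc_cf1_one : cf 1 (1 : QA K⟦X⟧) = 0 := by
  have h := KC.cf_algebraMap (K := K) 1 1
  rw [(algebraMap K (QA K⟦X⟧)).map_one, if_neg one_ne_zero] at h
  exact h

private theorem tc_pow_mem {L : Type} [Field L] [KF L] (k : ℕ) (u : QA L) (hu : u ∈ lev L k)
    (j : ℕ) : u ^ j ∈ lev L k := Subalgebra.pow_mem _ hu j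

private theorem tc_adjoin_le {L : Type} [Field L] [KF L] (k : ℕ) (u : QA L) (hu : u ∈ lev L k) :
    Algebra.adjoin L {u} ≤ lev L k :=
  Algebra.adjoin_le (by rintro _ rfl; exact hu)

/-- **[task] C1 (abstract).** If `E_{ω'}(dω'/dz) = 0`, `ω' = toL W`, then all traces of powers are
constant.  Proof: `d/dz tr(W^j) = j tr(W^{j-1} W')` (derivative is a derivation and `tr` is cyclic);
`tr(ω'^{j-1} W') = tr(Pr(W') ω'^{j-1}) = 0` (`kpd_Pr_orth`). A power series with zero derivative
is constant (char 0). -/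
theorem tr_const (k : ℕ) (W W' : QA K⟦X⟧) (hW : toL K W ∈ lev K⸨X⸩ k)
    (hW' : ∀ m, cf m W' = ((m : K) + 1) • cf (m + 1) W)
    (hE : Pr k {toL K W} (toL K W') = 0) (j : ℕ) :
    QA.tr ((toL K W) ^ j) = algebraMap K K⸨X⸩ (QA.tr ((cf 0 W) ^ j)) := by
  have hWd : W' = KC.dz W := KC.cf_ext fun m => by rw [hW', KC.cf_dz]
  have hlev' : toL K W' ∈ lev K⸨X⸩ k := by
    rw [KC.toL_mem_lev] at hW ⊢
    intro m
    rw [hW']
    exact Subalgebra.smul_mem _ (hW (m + 1)) _
  -- `tr(W' ω^i) = 0`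
  have h0 : ∀ i : ℕ, QA.tr (toL K W' * (toL K W) ^ i) = 0 := by
    intro i
    rw [← kpd_Pr_orth k {toL K W} (toL K W') hlev' ((toL K W) ^ i) (tc_pow_mem k _ hW i)
      (by
        rintro _ rfl
        rw [← pow_succ, ← pow_succ']), hE, zero_mul, map_zero]
  have h1 : ∀ j i : ℕ, QA.tr (toL K (KC.dz (W ^ j)) * (toL K W) ^ i) = 0 := by
    intro j
    induction j with
    | zero =>
      intro i
      have h := KC.dz_algebraMap (K := K) 1
      rw [(algebraMap K (QA K⟦X⟧)).map_one] at h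
      rw [pow_zero, h, map_zero, zero_mul, map_zero]
    | succ n ih =>
      intro i
      have e1 : toL K (KC.dz (W ^ (n + 1))) * (toL K W) ^ i =
          toL K (KC.dz (W ^ n)) * (toL K W) ^ (i + 1) +
            (toL K W) ^ n * (toL K W' * (toL K W) ^ i) := by
        rw [pow_succ W n, KC.dz_mul, ← hWd, map_add (toL K), map_mul (toL K), map_mul (toL K),
          map_pow (toL K), add_mul, pow_succ' (toL K W) i, mul_assoc, mul_assoc]
      have e2 : QA.tr ((toL K W) ^ n * (toL K W' * (toL K W) ^ i)) = 0 := by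
        rw [kpd_tr_comm (K := K⸨X⸩), mul_assoc, ← pow_add]
        exact h0 _
      rw [e1, LinearMap.map_add QA.tr, e2, ih, add_zero]
  have h2 : QA.tr (KC.dz (W ^ j)) = 0 := by
    have h3 := h1 j 0
    rw [pow_zero, mul_one, KC.tr_toL] at h3
    exact kpr_algMap_inj (h3.trans (map_zero _).symm)
  have h4 : ∀ m : ℕ, PowerSeries.coeff (m + 1) (QA.tr (W ^ j)) = 0 := by
    intro m
    have h5 := congrArg (PowerSeries.coeff m) h2
    rw [KC.cf_tr, KC.cf_dz, map_zero, map_smul, smul_eq_mul] at h5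
    rw [KC.cf_tr]
    have h6 : ((m : K) + 1) ≠ 0 := Nat.cast_add_one_ne_zero m
    exact (mul_eq_zero.1 h5).resolve_left h6
  have h7 : QA.tr (W ^ j) = algebraMap K K⟦X⟧ (QA.tr ((cf 0 W) ^ j)) := by
    rw [PowerSeries.algebraMap_apply, Algebra.algebraMap_self, RingHom.id_apply]
    ext m
    rw [PowerSeries.coeff_C]
    cases m with
    | zero => rw [if_pos rfl, KC.cf_tr, tc_cf0_pow]
    | succ m => rw [h4, if_neg (Nat.succ_ne_zero m)]
  rw [← map_pow, KC.tr_toL, h7, algebraMap_powerSeries_laurent]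

/-- polynomials in an element -/
private theorem tc_tr_aeval {L : Type} [Field L] [KF L] [Algebra K L] (ω : QA K) (ω' : QA L)
    (h : ∀ j, QA.tr (ω' ^ j) = algebraMap K L (QA.tr (ω ^ j))) (q : Polynomial K) :
    QA.tr (Polynomial.aeval ω' q) = algebraMap K L (QA.tr (Polynomial.aeval ω q)) := by
  rw [Polynomial.aeval_eq_sum_range, Polynomial.aeval_eq_sum_range, map_sum, map_sum, map_sum]
  refine Finset.sum_congr rfl fun i _ => ?_
  rw [QA.smul_eq_algebraMap_smul, map_smul, map_smul, h, smul_eq_mul, smul_eq_mul, map_mul]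

private theorem tc_mem_adjoin {L : Type} [Field L] [KF L] (u v : QA L)
    (hv : v ∈ Algebra.adjoin L {u}) : ∃ q : Polynomial L, Polynomial.aeval u q = v := by
  rw [Algebra.adjoin_singleton_eq_range_aeval] at hv
  exact hv

private theorem tc_aeval_zero {L : Type} [Field L] [KF L] [Algebra K L] (k : ℕ) (ω : QA K) (ω' : QA L) (hω' : ω' ∈ lev L k)
    (h : ∀ j, QA.tr (ω' ^ j) = algebraMap K L (QA.tr (ω ^ j))) (q : Polynomial K)
    (hq : Polynomial.aeval ω q = 0) : Polynomial.aeval ω' q = 0 := by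
  have : FiniteDimensional L (Algebra.adjoin L {ω'}) :=
    kpd_fd_sub k _ (tc_adjoin_le k ω' hω')
  have hpow : ∀ i, ω' ^ i ∈ Algebra.adjoin L {ω'} := fun i =>
    Subalgebra.pow_mem _ (Algebra.self_mem_adjoin_singleton _ _) i
  refine kpd_nondeg (K := L) (Algebra.adjoin L {ω'}) _ ?_ ?_
  · rw [Polynomial.aeval_eq_sum_range]
    refine Subalgebra.sum_mem _ fun i _ => ?_
    rw [QA.smul_eq_algebraMap_smul]
    exact Subalgebra.smul_mem _ (hpow i) _
  · intro v hv
    obtain ⟨p, rfl⟩ := tc_mem_adjoin ω' v hv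
    rw [Polynomial.aeval_eq_sum_range (p := p), Finset.mul_sum, map_sum]
    refine Finset.sum_eq_zero fun i _ => ?_
    rw [mul_smul_comm, map_smul]
    have h1 : Polynomial.aeval ω' q * ω' ^ i = Polynomial.aeval ω' (q * Polynomial.X ^ i) := by
      rw [map_mul, map_pow, Polynomial.aeval_X]
    rw [h1, tc_tr_aeval ω ω' h, map_mul, hq, zero_mul, map_zero, map_zero, smul_zero]

private theorem tc_finrank {L : Type} [Field L] [KF L] [Algebra K L] (k : ℕ) (ω : QA K) (hω : ω ∈ lev K k) (ω' : QA L)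
    (hω' : ω' ∈ lev L k)
    (h : ∀ j, QA.tr (ω' ^ j) = algebraMap K L (QA.tr (ω ^ j))) :
    finrank L (Algebra.adjoin L {ω'}) ≤ finrank K (Algebra.adjoin K {ω}) := by
  classical
  have : FiniteDimensional K (Algebra.adjoin K {ω}) :=
    kpd_fd_sub k _ (tc_adjoin_le k ω hω)
  let b := Module.finBasis K (Algebra.adjoin K {ω})
  have hb : ∀ i, ∃ q : Polynomial K, Polynomial.aeval ω q = (b i : QA K) := fun i =>
    tc_mem_adjoin ω _ (b i).2
  choose q hq using hb
  have hle : Subalgebra.toSubmodule (Algebra.adjoin L {ω'}) ≤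
      Submodule.span L (Set.range fun i => Polynomial.aeval ω' (q i)) := by
    intro v hv
    obtain ⟨p, rfl⟩ := tc_mem_adjoin ω' v hv
    rw [Polynomial.aeval_eq_sum_range]
    refine Submodule.sum_mem _ fun j _ => Submodule.smul_mem _ _ ?_
    -- `ω' ^ j`
    have hmem : ω ^ j ∈ Algebra.adjoin K {ω} :=
      Subalgebra.pow_mem _ (Algebra.self_mem_adjoin_singleton _ _) j
    have h1 : ω ^ j = ∑ i, b.repr ⟨ω ^ j, hmem⟩ i • (b i : QA K) := by
      have h2 := congrArg (Subtype.val) (b.sum_repr ⟨ω ^ j, hmem⟩)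
      refine h2.symm.trans ?_
      simp only [AddSubmonoidClass.coe_finsetSum, SetLike.val_smul]
    have h3 : Polynomial.aeval ω (Polynomial.X ^ j -
        ∑ i, b.repr ⟨ω ^ j, hmem⟩ i • q i) = 0 := by
      rw [map_sub, map_pow, Polynomial.aeval_X, map_sum, sub_eq_zero]
      conv_lhs => rw [h1]
      exact Finset.sum_congr rfl fun i _ => by rw [map_smul, hq]
    have h4 := tc_aeval_zero k ω ω' hω' h _ h3
    rw [map_sub, map_pow, Polynomial.aeval_X, map_sum, sub_eq_zero] at h4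
    rw [h4]
    refine Submodule.sum_mem _ fun i _ => ?_
    rw [map_smul, QA.smul_eq_algebraMap_smul]
    exact Submodule.smul_mem _ _ (Submodule.subset_span ⟨i, rfl⟩)
  have h5 : finrank L (Submodule.span L (Set.range fun i => Polynomial.aeval ω' (q i))) ≤
      finrank K (Algebra.adjoin K {ω}) := by
    refine (finrank_range_le_card (R := L) _).trans ?_
    rw [Fintype.card_fin]
  have : FiniteDimensional L
      (Submodule.span L (Set.range fun i => Polynomial.aeval ω' (q i))) :=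
    FiniteDimensional.span_of_finite _ (Set.finite_range _)
  exact (Submodule.finrank_mono hle).trans h5

/-- **[task] converse.**  If all traces are constant then `E_ω(cf 1 W) = 0`.
Proof: let `p = minpoly K ω`, `ω = cf 0 W`; for all `i`, `tr(p(ω') ω'^i) = tr(p(ω) ω^i) = 0` so
`p(ω') = 0` by `kpd_nondeg` on `L[ω']`; hence `finrank L[ω'] ≤ deg p = finrank K[ω]`; the residue
algebra of `L[ω']` contains `ω` (`D1_ser`), so it is `K[ω]`; so `E := Pr k {ω} (cf 1 W) ∈ K[ω]`
(`D1_ser`).  Coefficient of `z` in `tr(ω'^{j+1}) = const` is `(j+1) tr(ω^j cf 1 W) = 0`, so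
`tr(E ω^j) = 0` (`kpd_Pr_orth`) for all `j`, so `E = 0` by `kpd_nondeg`. -/
theorem Pr_zero_of_const (k : ℕ) (W : QA K⟦X⟧) (hW : toL K W ∈ lev K⸨X⸩ k)
    (h : ∀ j, QA.tr ((toL K W) ^ j) = algebraMap K K⸨X⸩ (QA.tr ((cf 0 W) ^ j))) :
    Pr k {cf 0 W} (cf 1 W) = 0 := by
  have hω : cf 0 W ∈ lev K k := (KC.toL_mem_lev k W).1 hW 0
  have hω1 : cf 1 W ∈ lev K k := (KC.toL_mem_lev k W).1 hW 1
  obtain ⟨hD1, hD2⟩ := D1_ser k W hW
  have : FiniteDimensional K⸨X⸩ (Algebra.adjoin K⸨X⸩ {toL K W}) :=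
    kpd_fd_sub k _ (tc_adjoin_le k _ hW)
  have hfdω : FiniteDimensional K (Algebra.adjoin K {cf 0 W}) :=
    kpd_fd_sub k _ (tc_adjoin_le k _ hω)
  have hr := finrank_resA (Place.laurent K) (Algebra.adjoin K⸨X⸩ {toL K W})
  have hrl := resA_lev (Place.laurent K) (Algebra.adjoin K⸨X⸩ {toL K W}) k
    (tc_adjoin_le k _ hW)
  have : FiniteDimensional K (resA (Place.laurent K) (Algebra.adjoin K⸨X⸩ {toL K W})) :=
    kpd_fd_sub k _ hrl
  have hsub : Algebra.adjoin K {cf 0 W} ≤
      resA (Place.laurent K) (Algebra.adjoin K⸨X⸩ {toL K W}) :=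
    Algebra.adjoin_le (by rintro _ rfl; exact hD1)
  have hle := tc_finrank k (cf 0 W) hω (toL K W) hW h
  have heq : Subalgebra.toSubmodule (Algebra.adjoin K {cf 0 W}) =
      Subalgebra.toSubmodule (resA (Place.laurent K) (Algebra.adjoin K⸨X⸩ {toL K W})) := by
    have : FiniteDimensional K (Subalgebra.toSubmodule
      (resA (Place.laurent K) (Algebra.adjoin K⸨X⸩ {toL K W}))) :=
      kpd_fd_sub k _ hrl
    refine Submodule.eq_of_le_of_finrank_le hsub ?_
    show finrank K (resA (Place.laurent K) (Algebra.adjoin K⸨X⸩ {toL K W})) ≤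
      finrank K (Algebra.adjoin K {cf 0 W})
    rw [hr]
    exact hle
  have hE : Pr k {cf 0 W} (cf 1 W) ∈ Algebra.adjoin K {cf 0 W} := by
    have h1 : Pr k {cf 0 W} (cf 1 W) ∈ Subalgebra.toSubmodule
        (resA (Place.laurent K) (Algebra.adjoin K⸨X⸩ {toL K W})) := hD2
    rw [← heq] at h1
    exact h1
  -- coefficients
  have hc : ∀ n i : ℕ, QA.tr (cf 1 (W ^ n) * (cf 0 W) ^ (i + 1)) =
      (n : K) * QA.tr (cf 1 W * (cf 0 W) ^ (n + i)) := by
    intro n
    induction n with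
    | zero =>
      intro i
      rw [pow_zero, tc_cf1_one, zero_mul, map_zero, Nat.cast_zero, zero_mul]
    | succ n ih =>
      intro i
      rw [pow_succ, KC.cf_mul1, tc_cf0_pow, add_mul, map_add, mul_assoc (cf 1 (W ^ n)),
        ← pow_succ', ih, mul_assoc, kpd_tr_comm, mul_assoc, ← pow_add]
      push_cast
      have e1 : i + 1 + n = n + 1 + i := by omega
      have e2 : n + (i + 1) = n + 1 + i := by omega
      rw [e1, e2]
      ring
  have hz : ∀ j : ℕ, QA.tr (cf 1 W * (cf 0 W) ^ j) = 0 := by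
    intro j
    have h1 : QA.tr (cf 1 (W ^ (j + 1))) = 0 := by
      have h2 := h (j + 1)
      rw [← map_pow, KC.tr_toL, ← algebraMap_powerSeries_laurent] at h2
      have h3 := kpr_algMap_inj h2
      rw [← KC.cf_tr, h3, PowerSeries.algebraMap_apply, PowerSeries.coeff_C,
        if_neg one_ne_zero]
    rw [pow_succ, KC.cf_mul1, map_add, tc_cf0_pow, kpd_tr_comm] at h1
    have h2 : QA.tr (cf 1 (W ^ j) * cf 0 W) = (j : K) * QA.tr (cf 1 W * (cf 0 W) ^ j) := by
      have := hc j 0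
      rwa [zero_add, pow_one, add_zero] at this
    rw [h2] at h1
    have h3 : ((j : K) + 1) * QA.tr (cf 1 W * (cf 0 W) ^ j) = 0 := by
      rw [← h1]; ring
    exact (mul_eq_zero.1 h3).resolve_left (Nat.cast_add_one_ne_zero j)
  refine kpd_nondeg (Algebra.adjoin K {cf 0 W}) _ hE fun v hv => ?_
  obtain ⟨p, rfl⟩ := tc_mem_adjoin (cf 0 W) v hv
  rw [Polynomial.aeval_eq_sum_range, Finset.mul_sum, map_sum]
  refine Finset.sum_eq_zero fun i _ => ?_
  rw [mul_smul_comm, map_smul, kpd_Pr_orth k {cf 0 W} (cf 1 W) hω1 _ (tc_pow_mem k _ hω i)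
    (by
      rintro _ rfl
      rw [← pow_succ, ← pow_succ']), hz, smul_zero]

end

end Crest.Agent.KP
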