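import Mathlib

/-!
S0270 (Kurosh problem for division rings), part E, abstract form.

`KPE.Sys` = abstract system of stages (fields `K s`, finite-dimensional division algebras `A s` over
`K s` without zero divisors, two marked elements `X s 0, X s 1`, arrows `Reach s s' f`), with
* `cent`   : an element of `A s` commuting with both marked elements is a scalar,
* `span`   : the marked elements generate `A s`,
* `indep`  : monomials independent at `s` stay independent at `s'`,
* `freeze` : every nc polynomial can be frozen (constant minimal polynomial from then on),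
* `grow`   : the dimension of `A s` can be increased.
Main theorem: `KPE.main`.
-/

open Polynomial

namespace KPE

/-- noncommutative polynomials (as expressions) in two letters. -/
inductive NC (K : Type) where
  | var (i : Fin 2)
  | const (c : K)
  | add (a b : NC K)
  | mul (a b : NC K)

namespace NC

variable {K L : Type} [Field K] [Field L] {A : Type} [Ring A] [Algebra K A]

/-- evaluation at a pair -/
def eval (X : Fin 2 → A) : NC K → A
  | var i => X i
  | const c => algebraMap K A c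
  | add a b => eval X a + eval X b
  | mul a b => eval X a * eval X b

/-- base change -/
def map (f : K →+* L) : NC K → NC L
  | var i => var i
  | const c => const (f c)
  | add a b => add (map f a) (map f b)
  | mul a b => mul (map f a) (map f b)

@[simp] lemma eval_var (X : Fin 2 → A) (i : Fin 2) : eval X (var i : NC K) = X i := rfl
@[simp] lemma eval_const (X : Fin 2 → A) (c : K) : eval X (const c) = algebraMap K A c := rfl
@[simp] lemma eval_add (X : Fin 2 → A) (a b : NC K) :
    eval X (add a b) = eval X a + eval X b := rfl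
@[simp] lemma eval_mul (X : Fin 2 → A) (a b : NC K) :
    eval X (mul a b) = eval X a * eval X b := rfl
@[simp] lemma map_var (f : K →+* L) (i : Fin 2) : map f (var i) = var i := rfl
@[simp] lemma map_const (f : K →+* L) (c : K) : map f (const c) = const (f c) := rfl
@[simp] lemma map_add (f : K →+* L) (a b : NC K) : map f (add a b) = add (map f a) (map f b) := rfl
@[simp] lemma map_mul (f : K →+* L) (a b : NC K) : map f (mul a b) = mul (map f a) (map f b) := rfl

lemma map_id (w : NC K) : map (RingHom.id K) w = w := by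
  induction w with
  | var i => rfl
  | const c => rfl
  | add a b ha hb => simp [ha, hb]
  | mul a b ha hb => simp [ha, hb]

lemma map_comp {M : Type} [Field M] (f : K →+* L) (g : L →+* M) (w : NC K) :
    map (g.comp f) w = map g (map f w) := by
  induction w with
  | var i => rfl
  | const c => rfl
  | add a b ha hb => simp [ha, hb]
  | mul a b ha hb => simp [ha, hb]

/-- Horner form of `∑_{j<n} c j w^j` -/
def psum : (ℕ → K) → NC K → ℕ → NC K
  | _, _, 0 => const 0
  | c, w, n + 1 => add (const (c 0)) (mul w (psum (fun j => c (j + 1)) w n))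

lemma eval_psum (X : Fin 2 → A) (w : NC K) (n : ℕ) : ∀ c : ℕ → K,
    eval X (psum c w n) = ∑ j ∈ Finset.range n, algebraMap K A (c j) * (eval X w) ^ j := by
  induction n with
  | zero => intro c; simp [psum]
  | succ n ih =>
    intro c
    rw [psum, eval_add, eval_mul, ih, Finset.sum_range_succ']
    simp only [eval_const, pow_zero, mul_one]
    rw [add_comm, Finset.mul_sum]
    congr 1
    refine Finset.sum_congr rfl fun j _ => ?_
    rw [pow_succ', ← mul_assoc, ← mul_assoc, Algebra.commutes]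

lemma map_psum (f : K →+* L) (w : NC K) (n : ℕ) : ∀ c : ℕ → K,
    map f (psum c w n) = psum (fun j => f (c j)) (map f w) n := by
  induction n with
  | zero => intro c; simp [psum]
  | succ n ih =>
    intro c
    rw [psum, psum, map_add, map_mul, ih, map_const]

/-- the nc polynomial representing the inverse of `w`, given the minimal polynomial `p`. -/
noncomputable def winv (p : K[X]) (w : NC K) : NC K :=
  mul (const (-(p.coeff 0)⁻¹)) (psum (fun j => p.coeff (j + 1)) w p.natDegree)

lemma map_winv (f : K →+* L) (p : K[X]) (w : NC K) :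
    map f (winv p w) = winv (p.map f) (map f w) := by
  rw [winv, winv, map_mul, map_psum, map_const]
  simp [Polynomial.natDegree_map]

lemma eval_winv [Nontrivial A] [NoZeroDivisors A] (X : Fin 2 → A) (w : NC K)
    (hw : IsIntegral K (eval X w)) :
    eval X (winv (minpoly K (eval X w)) w) = Ring.inverse (eval X w) := by
  classical
  set a := eval X w with ha
  set p := minpoly K a with hp
  have h0 : aeval a p = 0 := minpoly.aeval K a
  have hsum : aeval a p = ∑ j ∈ Finset.range (p.natDegree + 1), algebraMap K A (p.coeff j) * a ^ j := by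
    rw [Polynomial.aeval_eq_sum_range]
    exact Finset.sum_congr rfl fun j _ => by rw [Algebra.smul_def]
  have hsum2 : a * (∑ j ∈ Finset.range p.natDegree, algebraMap K A (p.coeff (j + 1)) * a ^ j)
      = - algebraMap K A (p.coeff 0) := by
    rw [hsum, Finset.sum_range_succ'] at h0
    simp only [pow_zero, mul_one] at h0
    rw [Finset.mul_sum, eq_neg_iff_add_eq_zero, ← h0]
    congr 1
    refine Finset.sum_congr rfl fun j _ => ?_
    rw [pow_succ', ← mul_assoc, ← mul_assoc, Algebra.commutes]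
  have hcomm : (∑ j ∈ Finset.range p.natDegree, algebraMap K A (p.coeff (j + 1)) * a ^ j) * a
      = - algebraMap K A (p.coeff 0) := by
    rw [← hsum2, Finset.mul_sum, Finset.sum_mul]
    refine Finset.sum_congr rfl fun j _ => ?_
    rw [mul_assoc, ← pow_succ, pow_succ', ← mul_assoc, ← mul_assoc, Algebra.commutes]
  rw [winv, eval_mul, eval_psum, eval_const]
  by_cases hc : p.coeff 0 = 0
  · have ha0 : a = 0 := by
      have : IsDomain A := NoZeroDivisors.to_isDomain A
      exact (minpoly.coeff_zero_eq_zero hw).1 hc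
    rw [hc, ha0]
    simp
  · have hmul : (algebraMap K A (-(p.coeff 0)⁻¹)) * (∑ j ∈ Finset.range p.natDegree,
        algebraMap K A (p.coeff (j + 1)) * a ^ j) * a = 1 := by
      rw [mul_assoc, hcomm, ← map_neg, ← _root_.map_mul]
      have : -(p.coeff 0)⁻¹ * -p.coeff 0 = 1 := by field_simp
      rw [this, map_one]
    have hmul2 : a * ((algebraMap K A (-(p.coeff 0)⁻¹)) * (∑ j ∈ Finset.range p.natDegree,
        algebraMap K A (p.coeff (j + 1)) * a ^ j)) = 1 := by
      rw [← mul_assoc, ← Algebra.commutes, mul_assoc, hsum2, ← map_neg, ← _root_.map_mul]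
      have : -(p.coeff 0)⁻¹ * -p.coeff 0 = 1 := by field_simp
      rw [this, map_one]
    set u : Aˣ := ⟨a, _, hmul2, hmul⟩ with hu
    have : a = (u : A) := rfl
    rw [show Ring.inverse a = Ring.inverse (u : A) from rfl, Ring.inverse_unit]
    rfl

end NC

/-- terms -/
inductive Term where
  | var (i : Fin 2)
  | one
  | add (a b : Term)
  | mul (a b : Term)
  | neg (a : Term)
  | inv (a : Term)
  | coef (a : Term) (j : ℕ)
deriving Encodable

/-- An abstract system of stages. -/
structure Sys where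
  /-- states -/
  S : Type 1
  /-- the field of a state -/
  K : S → Type
  /-- the algebra of a state -/
  A : S → Type
  [fK : ∀ s, Field (K s)]
  [cK : ∀ s, CharZero (K s)]
  [rA : ∀ s, Ring (A s)]
  [nA : ∀ s, Nontrivial (A s)]
  [dA : ∀ s, NoZeroDivisors (A s)]
  [aA : ∀ s, Algebra (K s) (A s)]
  [ffA : ∀ s, FiniteDimensional (K s) (A s)]
  /-- the marked elements -/
  X : ∀ s, Fin 2 → A s
  /-- arrows -/
  Reach : ∀ s s', (K s →+* K s') → Prop
  refl : ∀ s, Reach s s (RingHom.id _)
  trans : ∀ {s s' s''} {f : K s →+* K s'} {g : K s' →+* K s''},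
    Reach s s' f → Reach s' s'' g → Reach s s'' (g.comp f)
  /-- centralizer of the marked elements -/
  cent : ∀ s (u : A s), (∀ i, u * X s i = X s i * u) → ∃ c, u = algebraMap (K s) (A s) c
  /-- the marked elements generate -/
  span : ∀ s, Algebra.adjoin (K s) (Set.range (X s)) = ⊤
  /-- linear independence of monomials persists -/
  indep : ∀ {s s'} {f : K s →+* K s'}, Reach s s' f → ∀ (n : ℕ) (m : Fin n → List (Fin 2)),
    LinearIndependent (K s) (fun i => ((m i).map (X s)).prod) →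
    LinearIndependent (K s') (fun i => ((m i).map (X s')).prod)
  /-- every nc polynomial can be frozen -/
  freeze : ∀ s (w : NC (K s)), ∃ s', ∃ f : K s →+* K s', Reach s s' f ∧
    ∀ s'', ∀ g : K s' →+* K s'', Reach s' s'' g →
      minpoly (K s'') (((w.map f).map g).eval (X s'')) =
        (minpoly (K s') ((w.map f).eval (X s'))).map g
  /-- dimensions can be increased -/
  grow : ∀ s (n : ℕ), ∃ s', ∃ f : K s →+* K s', Reach s s' f ∧
    n ≤ Module.finrank (K s') (A s')
  /-- there is a state -/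
  start : S

attribute [instance] Sys.fK Sys.cK Sys.rA Sys.nA Sys.dA Sys.aA Sys.ffA

namespace Sys

variable (Y : Sys)

/-- frozen nc polynomials -/
def Frozen (s : Y.S) (w : NC (Y.K s)) : Prop :=
  ∀ s', ∀ f : Y.K s →+* Y.K s', Y.Reach s s' f →
    minpoly (Y.K s') ((w.map f).eval (Y.X s')) = (minpoly (Y.K s) (w.eval (Y.X s))).map f

lemma Frozen.reach {Y : Sys} {s s' : Y.S} {f : Y.K s →+* Y.K s'} (h : Y.Reach s s' f)
    {w : NC (Y.K s)} (hw : Y.Frozen s w) : Y.Frozen s' (w.map f) := by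
  intro s'' g hg
  rw [hw s' f h, ← NC.map_comp, hw s'' _ (Y.trans h hg), Polynomial.map_map]

/-- value of a term at a state -/
noncomputable def val (s : Y.S) : Term → Y.A s
  | .var i => Y.X s i
  | .one => 1
  | .add a b => val s a + val s b
  | .mul a b => val s a * val s b
  | .neg a => - val s a
  | .inv a => Ring.inverse (val s a)
  | .coef a j => algebraMap (Y.K s) (Y.A s) ((minpoly (Y.K s) (val s a)).coeff j)

@[simp] lemma val_var (s : Y.S) (i : Fin 2) : Y.val s (.var i) = Y.X s i := rfl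
@[simp] lemma val_one (s : Y.S) : Y.val s .one = 1 := rfl
@[simp] lemma val_add (s : Y.S) (a b : Term) : Y.val s (.add a b) = Y.val s a + Y.val s b := rfl
@[simp] lemma val_mul (s : Y.S) (a b : Term) : Y.val s (.mul a b) = Y.val s a * Y.val s b := rfl
@[simp] lemma val_neg (s : Y.S) (a : Term) : Y.val s (.neg a) = - Y.val s a := rfl
@[simp] lemma val_inv (s : Y.S) (a : Term) : Y.val s (.inv a) = Ring.inverse (Y.val s a) := rfl
@[simp] lemma val_coef (s : Y.S) (a : Term) (j : ℕ) : Y.val s (.coef a j) =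
    algebraMap (Y.K s) (Y.A s) ((minpoly (Y.K s) (Y.val s a)).coeff j) := rfl

/-- a term is represented by a nc polynomial -/
inductive Pol (s : Y.S) : Term → NC (Y.K s) → Prop
  | var (i : Fin 2) : Pol s (.var i) (.var i)
  | one : Pol s .one (.const 1)
  | add {a b u v} : Pol s a u → Pol s b v → Pol s (.add a b) (.add u v)
  | mul {a b u v} : Pol s a u → Pol s b v → Pol s (.mul a b) (.mul u v)
  | neg {a u} : Pol s a u → Pol s (.neg a) (.mul (.const (-1)) u)
  | inv {a u} : Pol s a u → Y.Frozen s u →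
      Pol s (.inv a) (NC.winv (minpoly (Y.K s) (u.eval (Y.X s))) u)
  | coef {a u} (j : ℕ) : Pol s a u → Y.Frozen s u →
      Pol s (.coef a j) (.const ((minpoly (Y.K s) (u.eval (Y.X s))).coeff j))

lemma Pol.val_eq {Y : Sys} {s : Y.S} {t : Term} {w : NC (Y.K s)} (h : Y.Pol s t w) :
    Y.val s t = w.eval (Y.X s) := by
  induction h with
  | var i => rfl
  | one => simp
  | add _ _ h1 h2 => simp [h1, h2]
  | mul _ _ h1 h2 => simp [h1, h2]
  | neg _ h1 => simp [h1]
  | inv h hf h1 =>
    rw [NC.eval_winv _ _ (Algebra.IsIntegral.isIntegral _), val_inv, h1]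
  | coef j h hf h1 => simp [h1]

lemma Pol.reach {Y : Sys} {s s' : Y.S} {f : Y.K s →+* Y.K s'} (hr : Y.Reach s s' f)
    {t : Term} {w : NC (Y.K s)} (h : Y.Pol s t w) : Y.Pol s' t (w.map f) := by
  induction h with
  | var i => exact .var i
  | one => simpa using Pol.one
  | add _ _ h1 h2 => exact .add h1 h2
  | mul _ _ h1 h2 => exact .mul h1 h2
  | neg _ h1 => simpa using Pol.neg h1
  | inv h hf h1 =>
    rw [NC.map_winv, ← hf s' f hr]
    exact .inv h1 (hf.reach hr)
  | coef j h hf h1 =>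
    rw [NC.map_const, ← Polynomial.coeff_map, ← hf s' f hr]
    exact .coef j h1 (hf.reach hr)

/-- a term is settled at a state -/
def Settled (s : Y.S) (t : Term) : Prop := ∃ w, Y.Pol s t w ∧ Y.Frozen s w

lemma Settled.reach {Y : Sys} {s s' : Y.S} {f : Y.K s →+* Y.K s'} (hr : Y.Reach s s' f)
    {t : Term} (h : Y.Settled s t) : Y.Settled s' t := by
  obtain ⟨w, h1, h2⟩ := h
  exact ⟨_, h1.reach hr, h2.reach hr⟩

lemma Settled.minpoly_eq {Y : Sys} {s s' : Y.S} {f : Y.K s →+* Y.K s'} (hr : Y.Reach s s' f)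
    {t : Term} (h : Y.Settled s t) :
    minpoly (Y.K s') (Y.val s' t) = (minpoly (Y.K s) (Y.val s t)).map f := by
  obtain ⟨w, h1, h2⟩ := h
  rw [h1.val_eq, (h1.reach hr).val_eq]
  exact h2 s' f hr

lemma one_step (s : Y.S) (t : Term) (n : ℕ) : ∃ s', (∃ f : Y.K s →+* Y.K s', Y.Reach s s' f) ∧
    n ≤ Module.finrank (Y.K s') (Y.A s') ∧
    ((∃ w, Y.Pol s t w) → Y.Settled s' t) := by
  by_cases h : ∃ w, Y.Pol s t w
  · obtain ⟨w, hw⟩ := h
    obtain ⟨s₁, f₁, h₁, hfr⟩ := Y.freeze s w
    obtain ⟨s₂, f₂, h₂, hd₂⟩ := Y.grow s₁ n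
    refine ⟨s₂, ⟨_, Y.trans h₁ h₂⟩, hd₂, fun _ => ?_⟩
    exact Settled.reach h₂ ⟨_, hw.reach h₁, hfr⟩
  · obtain ⟨s₁, f₁, h₁, hd⟩ := Y.grow s n
    exact ⟨s₁, ⟨f₁, h₁⟩, hd, fun h' => absurd h' h⟩

/-- the enumeration of terms, every term occurs infinitely often -/
noncomputable def enum (i : ℕ) : Term :=
  ((Encodable.decode (α := Term) (Nat.unpair i).1)).getD .one

lemma enum_inf (t : Term) (i : ℕ) : ∃ j, i ≤ j ∧ enum j = t := by
  refine ⟨Nat.pair (Encodable.encode t) i, Nat.right_le_pair _ _, ?_⟩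
  simp [enum]

/-- the chain of states -/
noncomputable def st : ℕ → Y.S
  | 0 => Y.start
  | i + 1 => (Y.one_step (st i) (enum i) i).choose

lemma st_reach (i : ℕ) : ∃ f : Y.K (Y.st i) →+* Y.K (Y.st (i + 1)),
    Y.Reach (Y.st i) (Y.st (i + 1)) f :=
  (Y.one_step (Y.st i) (enum i) i).choose_spec.1

lemma st_grow (i : ℕ) : i ≤ Module.finrank (Y.K (Y.st (i + 1))) (Y.A (Y.st (i + 1))) :=
  (Y.one_step (Y.st i) (enum i) i).choose_spec.2.1

lemma st_settle (i : ℕ) (h : ∃ w, Y.Pol (Y.st i) (enum i) w) : Y.Settled (Y.st (i + 1)) (enum i) :=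
  (Y.one_step (Y.st i) (enum i) i).choose_spec.2.2 h

lemma st_reach_le {i j : ℕ} (h : i ≤ j) : ∃ f : Y.K (Y.st i) →+* Y.K (Y.st j),
    Y.Reach (Y.st i) (Y.st j) f := by
  induction j, h using Nat.le_induction with
  | base => exact ⟨_, Y.refl _⟩
  | succ j hj ih =>
    obtain ⟨f, hf⟩ := ih
    obtain ⟨g, hg⟩ := Y.st_reach j
    exact ⟨_, Y.trans hf hg⟩

lemma settled_mono {i j : ℕ} (h : i ≤ j) {t : Term} (ht : Y.Settled (Y.st i) t) :
    Y.Settled (Y.st j) t := by
  obtain ⟨f, hf⟩ := Y.st_reach_le h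
  exact ht.reach hf

lemma settled_of_pol {t : Term} (h : ∃ i, ∀ j, i ≤ j → ∃ w, Y.Pol (Y.st j) t w) :
    ∃ i, Y.Settled (Y.st i) t := by
  obtain ⟨i, hi⟩ := h
  obtain ⟨j, hj, hjt⟩ := enum_inf t i
  refine ⟨j + 1, ?_⟩
  have := Y.st_settle j (by rw [hjt]; exact hi j hj)
  rwa [hjt] at this

lemma exists_settled (t : Term) : ∃ i, Y.Settled (Y.st i) t := by
  induction t with
  | var i => exact Y.settled_of_pol ⟨0, fun j _ => ⟨_, .var i⟩⟩
  | one => exact Y.settled_of_pol ⟨0, fun j _ => ⟨_, .one⟩⟩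
  | add a b ha hb =>
    obtain ⟨i, hi⟩ := ha
    obtain ⟨i', hi'⟩ := hb
    refine Y.settled_of_pol ⟨max i i', fun j hj => ?_⟩
    obtain ⟨u, hu, -⟩ := Y.settled_mono (le_trans (le_max_left _ _) hj) hi
    obtain ⟨v, hv, -⟩ := Y.settled_mono (le_trans (le_max_right _ _) hj) hi'
    exact ⟨_, hu.add hv⟩
  | mul a b ha hb =>
    obtain ⟨i, hi⟩ := ha
    obtain ⟨i', hi'⟩ := hb
    refine Y.settled_of_pol ⟨max i i', fun j hj => ?_⟩
    obtain ⟨u, hu, -⟩ := Y.settled_mono (le_trans (le_max_left _ _) hj) hi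
    obtain ⟨v, hv, -⟩ := Y.settled_mono (le_trans (le_max_right _ _) hj) hi'
    exact ⟨_, hu.mul hv⟩
  | neg a ha =>
    obtain ⟨i, hi⟩ := ha
    refine Y.settled_of_pol ⟨i, fun j hj => ?_⟩
    obtain ⟨u, hu, -⟩ := Y.settled_mono hj hi
    exact ⟨_, hu.neg⟩
  | inv a ha =>
    obtain ⟨i, hi⟩ := ha
    refine Y.settled_of_pol ⟨i, fun j hj => ?_⟩
    obtain ⟨u, hu, hf⟩ := Y.settled_mono hj hi
    exact ⟨_, hu.inv hf⟩
  | coef a l ha =>
    obtain ⟨i, hi⟩ := ha
    refine Y.settled_of_pol ⟨i, fun j hj => ?_⟩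
    obtain ⟨u, hu, hf⟩ := Y.settled_mono hj hi
    exact ⟨_, hu.coef l hf⟩

/-- values along the chain -/
noncomputable def vals (t : Term) : ∀ i, Y.A (Y.st i) := fun i => Y.val (Y.st i) t

/-- zero-one law -/
lemma zero_or_ne (t : Term) : (∀ᶠ i in Filter.atTop, Y.vals t i = 0) ∨
    (∀ᶠ i in Filter.atTop, Y.vals t i ≠ 0) := by
  obtain ⟨i, hi⟩ := Y.exists_settled t
  have key : ∀ j, i ≤ j → (Y.vals t j = 0 ↔ Y.vals t i = 0) := by
    intro j hj
    obtain ⟨f, hf⟩ := Y.st_reach_le hj
    have h1 := hi.minpoly_eq hf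
    have d1 : IsDomain (Y.A (Y.st i)) := NoZeroDivisors.to_isDomain _
    have d2 : IsDomain (Y.A (Y.st j)) := NoZeroDivisors.to_isDomain _
    rw [vals, vals, ← minpoly.coeff_zero_eq_zero (A := Y.K (Y.st j))
      (Algebra.IsIntegral.isIntegral _), h1, Polynomial.coeff_map, map_eq_zero,
      minpoly.coeff_zero_eq_zero (A := Y.K (Y.st i)) (Algebra.IsIntegral.isIntegral _)]
  by_cases h0 : Y.vals t i = 0
  · left
    filter_upwards [Filter.eventually_ge_atTop i] with j hj
    exact (key j hj).2 h0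
  · right
    filter_upwards [Filter.eventually_ge_atTop i] with j hj h
    exact h0 ((key j hj).1 h)

/-- the degree of the minimal polynomial is eventually constant -/
lemma natDegree_const (t : Term) : ∃ n, ∀ᶠ i in Filter.atTop,
    (minpoly (Y.K (Y.st i)) (Y.vals t i)).natDegree = n := by
  obtain ⟨i, hi⟩ := Y.exists_settled t
  refine ⟨(minpoly (Y.K (Y.st i)) (Y.vals t i)).natDegree, ?_⟩
  filter_upwards [Filter.eventually_ge_atTop i] with j hj
  obtain ⟨f, hf⟩ := Y.st_reach_le hj
  rw [vals, hi.minpoly_eq hf, Polynomial.natDegree_map]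
  rfl

/-- eventual equality -/
noncomputable def con : RingCon (∀ i, Y.A (Y.st i)) where
  r f g := ∀ᶠ i in Filter.atTop, f i = g i
  iseqv := ⟨fun f => Filter.Eventually.of_forall fun _ => rfl,
    fun h => h.mono fun _ h => h.symm,
    fun h h' => by filter_upwards [h, h'] with i h1 h2 using h1.trans h2⟩
  add' := fun h h' => by
    filter_upwards [h, h'] with i h1 h2
    simp [h1, h2]
  mul' := fun h h' => by
    filter_upwards [h, h'] with i h1 h2
    simp [h1, h2]

/-- the class of a sequence -/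
noncomputable def cls (f : ∀ i, Y.A (Y.st i)) : Y.con.Quotient := (f : Y.con.Quotient)

lemma cls_eq {f g : ∀ i, Y.A (Y.st i)} : Y.cls f = Y.cls g ↔ ∀ᶠ i in Filter.atTop, f i = g i :=
  RingCon.eq _

lemma cls_add (f g : ∀ i, Y.A (Y.st i)) : Y.cls (f + g) = Y.cls f + Y.cls g := rfl
lemma cls_mul (f g : ∀ i, Y.A (Y.st i)) : Y.cls (f * g) = Y.cls f * Y.cls g := rfl
lemma cls_neg (f : ∀ i, Y.A (Y.st i)) : Y.cls (-f) = - Y.cls f := rfl
lemma cls_zero : Y.cls 0 = 0 := rfl
lemma cls_one : Y.cls 1 = 1 := rfl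

/-- the division ring -/
noncomputable def D : Subring Y.con.Quotient where
  carrier := Set.range fun t => Y.cls (Y.vals t)
  mul_mem' := by
    rintro _ _ ⟨a, rfl⟩ ⟨b, rfl⟩
    exact ⟨a.mul b, rfl⟩
  one_mem' := ⟨.one, rfl⟩
  add_mem' := by
    rintro _ _ ⟨a, rfl⟩ ⟨b, rfl⟩
    exact ⟨a.add b, rfl⟩
  zero_mem' := ⟨.add .one (.neg .one), by
    rw [← cls_zero, cls_eq]
    exact Filter.Eventually.of_forall fun i => by simp [vals]⟩
  neg_mem' := by
    rintro _ ⟨a, rfl⟩
    exact ⟨a.neg, rfl⟩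

lemma tc_mem (t : Term) : Y.cls (Y.vals t) ∈ Y.D := ⟨t, rfl⟩

/-- class of a term -/
noncomputable def tc (t : Term) : Y.D := ⟨Y.cls (Y.vals t), Y.tc_mem t⟩

lemma tc_surj (d : Y.D) : ∃ t, Y.tc t = d := by
  obtain ⟨d, t, rfl⟩ := d
  exact ⟨t, rfl⟩

lemma tc_eq {a b : Term} : Y.tc a = Y.tc b ↔ ∀ᶠ i in Filter.atTop, Y.vals a i = Y.vals b i := by
  rw [← cls_eq, Subtype.ext_iff]
  rfl

lemma tc_add (a b : Term) : Y.tc (a.add b) = Y.tc a + Y.tc b := rfl
lemma tc_mul (a b : Term) : Y.tc (a.mul b) = Y.tc a * Y.tc b := rfl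
lemma tc_neg (a : Term) : Y.tc a.neg = - Y.tc a := rfl
lemma tc_one : Y.tc .one = 1 := rfl

lemma tc_eq_zero {a : Term} : Y.tc a = 0 ↔ ∀ᶠ i in Filter.atTop, Y.vals a i = 0 := by
  rw [Subtype.ext_iff]
  exact Y.cls_eq (g := 0)

instance : Nontrivial Y.D := by
  refine ⟨1, 0, ?_⟩
  rw [← tc_one, Ne, tc_eq_zero]
  intro h
  obtain ⟨i, hi⟩ := h.exists
  exact one_ne_zero hi

lemma isUnit_val (s : Y.S) {a : Y.A s} (ha : a ≠ 0) : IsUnit a := by
  have d1 : IsDomain (Y.A s) := NoZeroDivisors.to_isDomain _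
  exact FiniteDimensional.isUnit (Y.K s) ha

lemma unit_or_zero (d : Y.D) : IsUnit d ∨ d = 0 := by
  obtain ⟨t, rfl⟩ := Y.tc_surj d
  rcases Y.zero_or_ne t with h | h
  · right
    exact Y.tc_eq_zero.2 h
  · left
    have h1 : Y.tc t * Y.tc t.inv = 1 := by
      rw [← tc_mul, ← tc_one, tc_eq]
      filter_upwards [h] with i hi
      exact Ring.mul_inverse_cancel _ (Y.isUnit_val _ hi)
    have h2 : Y.tc t.inv * Y.tc t = 1 := by
      rw [← tc_mul, ← tc_one, tc_eq]
      filter_upwards [h] with i hi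
      exact Ring.inverse_mul_cancel _ (Y.isUnit_val _ hi)
    exact ⟨⟨_, _, h1, h2⟩, rfl⟩

noncomputable instance : DivisionRing Y.D := DivisionRing.ofIsUnitOrEqZero Y.unit_or_zero

instance : Countable Y.D := by
  have : Function.Surjective Y.tc := Y.tc_surj
  exact this.countable

/-- coefficient terms are central -/
lemma coef_central (t : Term) (j : ℕ) : Y.tc (t.coef j) ∈ Subring.center Y.D := by
  rw [Subring.mem_center_iff]
  intro g
  obtain ⟨g, rfl⟩ := Y.tc_surj g
  rw [← tc_mul, ← tc_mul, tc_eq]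
  exact Filter.Eventually.of_forall fun i => (Algebra.commutes _ _).symm

lemma vals_coef (t : Term) (j i : ℕ) : Y.vals (t.coef j) i =
    algebraMap (Y.K (Y.st i)) (Y.A (Y.st i)) ((minpoly (Y.K (Y.st i)) (Y.vals t i)).coeff j) := rfl

/-- `coef t j` as an element of the centre -/
noncomputable def zc (t : Term) (j : ℕ) : Subring.center Y.D := ⟨Y.tc (t.coef j), Y.coef_central t j⟩

lemma sum_tc {ι : Type*} (s : Finset ι) (f : ι → Term) (g : ∀ i, Y.A (Y.st i))
    (h : ∀ i, ∑ j ∈ s, Y.vals (f j) i = g i) :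
    ((∑ j ∈ s, Y.tc (f j) : Y.D) : Y.con.Quotient) = Y.cls g := by
  classical
  have h1 : ∀ s : Finset ι, ((∑ j ∈ s, Y.tc (f j) : Y.D) : Y.con.Quotient)
      = Y.cls (fun i => ∑ j ∈ s, Y.vals (f j) i) := by
    intro s
    induction s using Finset.induction_on with
    | empty => simp only [Finset.sum_empty]; rfl
    | insert a s ha ih =>
      rw [Finset.sum_insert ha, Subring.coe_add, ih]
      simp only [Finset.sum_insert ha]
      rfl
  rw [h1, cls_eq]
  exact Filter.Eventually.of_forall h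

/-- powers of terms -/
def tpow (t : Term) : ℕ → Term
  | 0 => .one
  | n + 1 => .mul (tpow t n) t

lemma tc_tpow (t : Term) (n : ℕ) : Y.tc (tpow t n) = Y.tc t ^ n := by
  induction n with
  | zero => simp [tpow, tc_one]
  | succ n ih => rw [tpow, tc_mul, ih, pow_succ]

lemma vals_tpow (t : Term) (n i : ℕ) : Y.vals (tpow t n) i = Y.vals t i ^ n := by
  induction n with
  | zero => simp [tpow, vals]
  | succ n ih => rw [tpow, pow_succ, ← ih]; rfl

/-- the equation of a term over the centre -/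
lemma term_eqn (t : Term) : ∃ n, (Y.zc t n = 1) ∧
    ∑ j ∈ Finset.range (n + 1), Y.zc t j • Y.tc t ^ j = 0 := by
  obtain ⟨n, hn⟩ := Y.natDegree_const t
  refine ⟨n, ?_, ?_⟩
  · rw [Subtype.ext_iff]
    change Y.tc (t.coef n) = 1
    rw [← tc_one, tc_eq]
    filter_upwards [hn] with i hi
    rw [vals_coef, ← hi]
    have : (minpoly (Y.K (Y.st i)) (Y.vals t i)).Monic :=
      minpoly.monic (Algebra.IsIntegral.isIntegral _)
    rw [this.coeff_natDegree, map_one]
    rfl
  · have h1 : ∀ j, Y.zc t j • Y.tc t ^ j = Y.tc ((t.coef j).mul (tpow t j)) := by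
      intro j
      rw [tc_mul, tc_tpow]
      rfl
    simp only [h1]
    rw [Subtype.ext_iff, Y.sum_tc _ _ _ (fun i => rfl)]
    change _ = Y.cls 0
    rw [cls_eq]
    filter_upwards [hn] with i hi
    have h2 : aeval (Y.vals t i) (minpoly (Y.K (Y.st i)) (Y.vals t i)) = 0 := minpoly.aeval _ _
    rw [Polynomial.aeval_eq_sum_range, hi] at h2
    rw [Pi.zero_apply, ← h2]
    refine Finset.sum_congr rfl fun j _ => ?_
    rw [Algebra.smul_def, ← vals_tpow]
    rfl

lemma algebraic : Algebra.IsAlgebraic (Subring.center Y.D) Y.D := by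
  constructor
  intro d
  obtain ⟨t, rfl⟩ := Y.tc_surj d
  obtain ⟨n, hn, he⟩ := Y.term_eqn t
  refine ⟨∑ j ∈ Finset.range (n + 1), Polynomial.monomial j (Y.zc t j), ?_, ?_⟩
  · intro h
    have h2 := congrArg (fun p => p.coeff n) h
    simp only [Polynomial.finsetSum_coeff, Polynomial.coeff_monomial, Polynomial.coeff_zero] at h2
    rw [Finset.sum_ite_eq' (Finset.range (n+1)) n] at h2
    simp [hn] at h2
  · rw [map_sum, ← he]
    refine Finset.sum_congr rfl fun j _ => ?_
    rw [Polynomial.aeval_monomial, Algebra.smul_def]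

lemma charZero : CharZero Y.D := by
  refine charZero_of_inj_zero fun n hn => ?_
  by_contra hne
  have h1 : ((n : Y.D) : Y.con.Quotient) = Y.cls (fun i => (n : Y.A (Y.st i))) := by
    rw [Subring.coe_natCast]
    rfl
  have h2 : Y.cls (fun i => (n : Y.A (Y.st i))) = Y.cls 0 := by
    rw [← h1, hn]
    rfl
  rw [cls_eq] at h2
  obtain ⟨i, hi⟩ := h2.exists
  have h3 : algebraMap (Y.K (Y.st i)) (Y.A (Y.st i)) (n : Y.K (Y.st i)) = 0 := by
    rw [map_natCast]
    exact hi
  rw [FaithfulSMul.algebraMap_eq_zero_iff] at h3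
  exact hne (Nat.cast_eq_zero.1 h3)

lemma central_of_scalar {t : Term}
    (h : ∀ᶠ i in Filter.atTop, ∃ c, Y.vals t i = algebraMap (Y.K (Y.st i)) (Y.A (Y.st i)) c) :
    Y.tc t ∈ Subring.center Y.D := by
  rw [Subring.mem_center_iff]
  intro g
  obtain ⟨g, rfl⟩ := Y.tc_surj g
  rw [← tc_mul, ← tc_mul, tc_eq]
  filter_upwards [h] with i hi
  obtain ⟨c, hc⟩ := hi
  have h1 : Y.vals (g.mul t) i = Y.vals g i * Y.vals t i := rfl
  have h2 : Y.vals (t.mul g) i = Y.vals t i * Y.vals g i := rfl
  rw [h1, h2, hc, Algebra.commutes]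

lemma scalar_of_central {t : Term} (ht : Y.tc t ∈ Subring.center Y.D) :
    ∀ᶠ i in Filter.atTop, ∃ c, Y.vals t i = algebraMap (Y.K (Y.st i)) (Y.A (Y.st i)) c := by
  rw [Subring.mem_center_iff] at ht
  have h : ∀ l : Fin 2, ∀ᶠ i in Filter.atTop,
      Y.vals (Term.mul (.var l) t) i = Y.vals (Term.mul t (.var l)) i := by
    intro l
    rw [← tc_eq, tc_mul, tc_mul]
    exact ht _
  filter_upwards [h 0, h 1] with i h0 h1
  refine Y.cent _ _ fun l => ?_
  fin_cases l
  · exact h0.symm
  · exact h1.symm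

/-- the generating set -/
def gens : Set Y.D := {Y.tc (.var 0), Y.tc (.var 1)}

lemma central_mem_adjoin {t : Term} (ht : Y.tc t ∈ Subring.center Y.D) :
    Y.tc t ∈ Algebra.adjoin (Subring.center Y.D) Y.gens :=
  Subalgebra.algebraMap_mem _ (⟨Y.tc t, ht⟩ : Subring.center Y.D)

lemma inv_eqn (t : Term) : ∃ n, Y.tc t.inv =
    Y.tc (.neg (.inv (.coef t 0))) * ∑ j ∈ Finset.range n, Y.tc ((t.coef (j + 1)).mul (tpow t j)) := by
  obtain ⟨n, hn⟩ := Y.natDegree_const t
  refine ⟨n, ?_⟩
  rw [Subtype.ext_iff, Subring.coe_mul, Y.sum_tc _ _ _ (fun i => rfl)]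
  change Y.cls _ = Y.cls _ * Y.cls _
  rw [← cls_mul, cls_eq]
  filter_upwards [hn] with i hi
  have h1 := NC.eval_winv (K := Y.K (Y.st i)) (fun _ => Y.vals t i) (.var 0)
    (Algebra.IsIntegral.isIntegral _)
  rw [NC.winv, NC.eval_mul, NC.eval_psum, NC.eval_const, NC.eval_var, hi] at h1
  have h2 : Y.vals t.inv i = Ring.inverse (Y.vals t i) := rfl
  rw [h2, ← h1, Pi.mul_apply]
  congr 1
  · have h3 : Y.vals (Term.neg (.inv (.coef t 0))) i = - Ring.inverse (algebraMap (Y.K (Y.st i))
        (Y.A (Y.st i)) ((minpoly (Y.K (Y.st i)) (Y.vals t i)).coeff 0)) := rfl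
    rw [h3, map_neg]
    congr 1
    generalize (minpoly (Y.K (Y.st i)) (Y.vals t i)).coeff 0 = c
    by_cases hc : c = 0
    · simp [hc]
    · have hu : IsUnit (algebraMap (Y.K (Y.st i)) (Y.A (Y.st i)) c) :=
        (IsUnit.mk0 c hc).map _
      have h4 := Ring.mul_inverse_cancel _ hu
      have h5 : algebraMap (Y.K (Y.st i)) (Y.A (Y.st i)) c *
          algebraMap (Y.K (Y.st i)) (Y.A (Y.st i)) c⁻¹ = 1 := by
        rw [← map_mul, mul_inv_cancel₀ hc, map_one]
      exact hu.mul_left_cancel (h5.trans h4.symm)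
  · refine Finset.sum_congr rfl fun j _ => ?_
    rw [← vals_tpow]
    rfl

lemma gen (t : Term) : Y.tc t ∈ Algebra.adjoin (Subring.center Y.D) Y.gens := by
  induction t with
  | var i =>
    refine Algebra.subset_adjoin ?_
    fin_cases i
    · left; rfl
    · right; rfl
  | one => exact one_mem _
  | add a b ha hb => exact add_mem ha hb
  | mul a b ha hb => exact mul_mem ha hb
  | neg a ha => exact neg_mem ha
  | inv a ha =>
    obtain ⟨n, hn⟩ := Y.inv_eqn a
    rw [hn]
    refine mul_mem (Y.central_mem_adjoin ?_) (sum_mem fun j _ => ?_)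
    · refine Y.central_of_scalar (Filter.Eventually.of_forall fun i => ?_)
      have h3 : Y.vals (Term.neg (.inv (.coef a 0))) i = - Ring.inverse (algebraMap (Y.K (Y.st i))
          (Y.A (Y.st i)) ((minpoly (Y.K (Y.st i)) (Y.vals a i)).coeff 0)) := rfl
      rw [h3]
      generalize (minpoly (Y.K (Y.st i)) (Y.vals a i)).coeff 0 = c
      by_cases hc : c = 0
      · exact ⟨0, by simp [hc]⟩
      · have hu : IsUnit (algebraMap (Y.K (Y.st i)) (Y.A (Y.st i)) c) :=
          (IsUnit.mk0 c hc).map _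
        have h4 := Ring.mul_inverse_cancel _ hu
        have h5 : algebraMap (Y.K (Y.st i)) (Y.A (Y.st i)) c *
            algebraMap (Y.K (Y.st i)) (Y.A (Y.st i)) c⁻¹ = 1 := by
          rw [← map_mul, mul_inv_cancel₀ hc, map_one]
        refine ⟨-c⁻¹, ?_⟩
        rw [map_neg, hu.mul_left_cancel (h5.trans h4.symm)]
    · rw [tc_mul, tc_tpow]
      exact mul_mem (Y.central_mem_adjoin (Y.coef_central _ _)) (pow_mem ha _)
  | coef a j ha => exact Y.central_mem_adjoin (Y.coef_central _ _)

/-- the monomial as a term -/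
def mterm : List (Fin 2) → Term
  | [] => .one
  | i :: m => .mul (.var i) (mterm m)

lemma vals_mterm (m : List (Fin 2)) (i : ℕ) :
    Y.vals (mterm m) i = (m.map (Y.X (Y.st i))).prod := by
  induction m with
  | nil => rfl
  | cons a m ih =>
    rw [List.map_cons, List.prod_cons, ← ih]
    rfl

/-- at every state there is a basis of monomials -/
lemma exists_words (s : Y.S) : ∃ m : Fin (Module.finrank (Y.K s) (Y.A s)) → List (Fin 2),
    LinearIndependent (Y.K s) (fun i => ((m i).map (Y.X s)).prod) := by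
  have h1 : Submodule.span (Y.K s) ((Submonoid.closure (Set.range (Y.X s)) :
      Submonoid (Y.A s)) : Set (Y.A s)) = ⊤ := by
    rw [← Algebra.adjoin_eq_span, Y.span, Algebra.top_toSubmodule]
  have h2 : Module.finrank (Y.K s) (Submodule.span (Y.K s) ((Submonoid.closure (Set.range (Y.X s)) :
      Submonoid (Y.A s)) : Set (Y.A s))) = Module.finrank (Y.K s) (Y.A s) := by
    rw [h1, finrank_top]
  obtain ⟨f, hf1, -, hf3⟩ := Submodule.exists_fun_fin_finrank_span_eq (Y.K s)
    ((Submonoid.closure (Set.range (Y.X s)) : Submonoid (Y.A s)) : Set (Y.A s))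
  have h3 : ∀ a ∈ Submonoid.closure (Set.range (Y.X s)),
      ∃ m : List (Fin 2), (m.map (Y.X s)).prod = a := by
    intro a ha
    induction ha using Submonoid.closure_induction with
    | mem a ha =>
      obtain ⟨i, rfl⟩ := ha
      exact ⟨[i], by simp⟩
    | one => exact ⟨[], rfl⟩
    | mul a b _ _ ha hb =>
      obtain ⟨m, rfl⟩ := ha
      obtain ⟨m', rfl⟩ := hb
      exact ⟨m ++ m', by simp⟩
  choose m hm using fun i => h3 (f i) (hf1 i)
  rw [← h2]
  refine ⟨m, ?_⟩
  simpa only [hm] using hf3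

lemma not_finite : ¬ FiniteDimensional (Subring.center Y.D) Y.D := by
  intro hfin
  set n := Module.finrank (Subring.center Y.D) Y.D with hn
  -- monomials at a late stage
  obtain ⟨m, hm⟩ := Y.exists_words (Y.st (n + 1 + 1))
  have hle : n + 1 ≤ Module.finrank (Y.K (Y.st (n + 1 + 1))) (Y.A (Y.st (n + 1 + 1))) :=
    Y.st_grow (n + 1)
  set m' : Fin (n + 1) → List (Fin 2) := fun i => m (Fin.castLE hle i) with hm'
  have hli : LinearIndependent (Y.K (Y.st (n + 1 + 1)))
      (fun i => ((m' i).map (Y.X (Y.st (n + 1 + 1)))).prod) :=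
    hm.comp _ (Fin.castLE_injective hle)
  have hli2 : ∀ j, n + 1 + 1 ≤ j → LinearIndependent (Y.K (Y.st j))
      (fun i => ((m' i).map (Y.X (Y.st j))).prod) := by
    intro j hj
    obtain ⟨f, hf⟩ := Y.st_reach_le hj
    exact Y.indep hf _ m' hli
  have hD : LinearIndependent (Subring.center Y.D) (fun i => Y.tc (mterm (m' i))) := by
    rw [Fintype.linearIndependent_iff]
    intro g hg
    choose τ hτ using fun l => Y.tc_surj (g l : Y.D)
    have h1 : ∀ l, g l • Y.tc (mterm (m' l)) = Y.tc ((τ l).mul (mterm (m' l))) := by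
      intro l
      rw [tc_mul, hτ]
      rfl
    simp only [h1] at hg
    have hg2 : Y.cls (fun i => ∑ l, Y.vals ((τ l).mul (mterm (m' l))) i) = Y.cls 0 := by
      rw [← Y.sum_tc Finset.univ (fun l => (τ l).mul (mterm (m' l))) _ (fun i => rfl), hg]
      rfl
    rw [cls_eq] at hg2
    have hsc : ∀ l, ∀ᶠ i in Filter.atTop, ∃ c,
        Y.vals (τ l) i = algebraMap (Y.K (Y.st i)) (Y.A (Y.st i)) c := by
      intro l
      apply Y.scalar_of_central
      rw [hτ]
      exact (g l).2
    have hsc' : ∀ᶠ i in Filter.atTop, ∀ l, ∃ c,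
        Y.vals (τ l) i = algebraMap (Y.K (Y.st i)) (Y.A (Y.st i)) c :=
      Filter.eventually_all.2 hsc
    have hz : ∀ᶠ i in Filter.atTop, ∀ l, Y.vals (τ l) i = 0 := by
      filter_upwards [hg2, hsc', Filter.eventually_ge_atTop (n + 1 + 1)] with j h1 h2 h3
      choose c hc using h2
      have h4 := Fintype.linearIndependent_iff.1 (hli2 j h3) c (by
        rw [Pi.zero_apply] at h1
        rw [← h1]
        refine Finset.sum_congr rfl fun l _ => ?_
        rw [Algebra.smul_def, ← hc, ← vals_mterm]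
        rfl)
      intro l
      rw [hc, h4, map_zero]
    intro l
    rw [Subtype.ext_iff, ← hτ l]
    change Y.tc (τ l) = 0
    rw [tc_eq_zero]
    exact hz.mono fun i hi => hi l
  have h5 := hD.fintype_card_le_finrank
  rw [Fintype.card_fin] at h5
  omega

end Sys

/-- **Main theorem of part E.** -/
theorem main (Y : Sys) : ∃ (D : Type) (_ : DivisionRing D), Countable D ∧ CharZero D ∧
      Algebra.IsAlgebraic (Subring.center D) D ∧
      (∃ x y : D, Algebra.adjoin (Subring.center D) ({x, y} : Set D) = ⊤) ∧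
      ¬ FiniteDimensional (Subring.center D) D := by
  refine ⟨Y.D, inferInstance, inferInstance, Y.charZero, Y.algebraic,
    ⟨Y.tc (.var 0), Y.tc (.var 1), ?_⟩, Y.not_finite⟩
  rw [eq_top_iff]
  rintro d -
  obtain ⟨t, rfl⟩ := Y.tc_surj d
  exact Y.gen t

end KPE
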