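import Mathlib

/-! S0270, part E: a subalgebra of a finite-dimensional division algebra with scalar centralizer is
everything (Jacobson density). -/

open scoped TensorProduct

namespace KPE

section
variable {K A : Type} [Field K] [Ring A] [Algebra K A]

instance : IsScalarTower K Aᵐᵒᵖ A := ⟨fun c a x => by
  simp [MulOpposite.smul_eq_mul_unop]⟩

/-- right multiplications -/
noncomputable def rmul (K A : Type) [Field K] [Ring A] [Algebra K A] :
    Aᵐᵒᵖ →ₐ[K] Module.End K A := Algebra.lsmul K K A

@[simp] lemma rmul_apply (a : Aᵐᵒᵖ) (x : A) : rmul K A a x = x * a.unop := rfl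

lemma bimap_comm (B : Subalgebra K A) (b : B) (a : Aᵐᵒᵖ) :
    Commute (((Algebra.lmul K A).comp B.val) b) ((rmul K A) a) := by
  ext x
  simp [mul_assoc]

/-- `b ⊗ a ↦ (x ↦ b x a)` -/
noncomputable def bimap (B : Subalgebra K A) : (B ⊗[K] Aᵐᵒᵖ) →ₐ[K] Module.End K A :=
  Algebra.TensorProduct.lift ((Algebra.lmul K A).comp B.val) (rmul K A) (bimap_comm B)

lemma bimap_tmul (B : Subalgebra K A) (b : B) (a : Aᵐᵒᵖ) (x : A) :
    bimap B (b ⊗ₜ a) x = b * x * a.unop := by
  rw [bimap, Algebra.TensorProduct.lift_tmul]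
  simp [mul_assoc]

end

variable {K A : Type} [Field K] [Ring A] [Nontrivial A] [NoZeroDivisors A] [Algebra K A]
  [FiniteDimensional K A]

lemma dens_simple (B : Subalgebra K A) : IsSimpleModule (bimap B).range A := by
  have d1 : IsDomain A := NoZeroDivisors.to_isDomain _
  rw [isSimpleModule_iff_toSpanSingleton_surjective]
  refine ⟨inferInstance, fun a ha y => ?_⟩
  obtain ⟨c, hc⟩ := FiniteDimensional.exists_mul_eq_one K ha
  refine ⟨⟨bimap B (1 ⊗ₜ MulOpposite.op (c * y)), ⟨_, rfl⟩⟩, ?_⟩
  change bimap B (1 ⊗ₜ MulOpposite.op (c * y)) a = y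
  rw [bimap_tmul]
  simp [← mul_assoc, hc]

lemma dens_surj (B : Subalgebra K A)
    (h : ∀ u : A, (∀ b ∈ B, u * b = b * u) → ∃ c : K, u = algebraMap K A c) :
    (bimap B).range = ⊤ := by
  have := dens_simple B
  rw [eq_top_iff]
  rintro f -
  -- endomorphisms are scalars
  have key : ∀ g : Module.End (bimap B).range A, ∃ c : K, ∀ x, g x = c • x := by
    intro g
    have h1 : ∀ b (hb : b ∈ B) (a x : A), g (b * x * a) = b * g x * a := by
      intro b hb a x
      have h2 := g.map_smul (⟨bimap B ((⟨b, hb⟩ : B) ⊗ₜ MulOpposite.op a), ⟨_, rfl⟩⟩ :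
        (bimap B).range) x
      have h3 : ∀ z : A, (⟨bimap B ((⟨b, hb⟩ : B) ⊗ₜ MulOpposite.op a), ⟨_, rfl⟩⟩ :
        (bimap B).range) • z = b * z * a := fun z => bimap_tmul B _ _ z
      rw [h3, h3] at h2
      exact h2
    obtain ⟨c, hc⟩ := h (g 1) (by
      intro b hb
      have h4 := h1 b hb 1 1
      have h5 := h1 1 (one_mem _) b 1
      simp only [mul_one, one_mul] at h4 h5
      rw [← h5, h4])
    refine ⟨c, fun x => ?_⟩
    have h5 := h1 1 (one_mem _) x 1
    simp only [mul_one, one_mul] at h5
    rw [h5, hc, Algebra.smul_def]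
  classical
  let f' : Module.End (Module.End (bimap B).range A) A :=
    { toFun := f
      map_add' := f.map_add
      map_smul' := fun g x => by
        obtain ⟨c, hc⟩ := key g
        change f (g x) = g (f x)
        rw [hc, hc, f.map_smul] }
  obtain ⟨r, hr⟩ := jacobson_density (R := (bimap B).range) (M := A) f' (Finset.univ.image (Module.finBasis K A))
  have h6 : f = (r : Module.End K A) := by
    refine (Module.finBasis K A).ext fun i => ?_
    have := hr (Module.finBasis K A i) (Finset.mem_image_of_mem _ (Finset.mem_univ _))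
    exact this
  rw [h6]
  exact r.2

theorem eq_top_of_cent (B : Subalgebra K A)
    (h : ∀ u : A, (∀ b ∈ B, u * b = b * u) → ∃ c : K, u = algebraMap K A c) : B = ⊤ := by
  have h1 := dens_surj B h
  have h2 : Module.finrank K (Module.End K A) ≤ Module.finrank K (B ⊗[K] Aᵐᵒᵖ) := by
    have h3 : Function.Surjective (bimap B).toLinearMap := by
      intro f
      have : f ∈ (bimap B).range := by rw [h1]; trivial
      exact this
    exact LinearMap.finrank_le_finrank_of_surjective h3
  rw [Module.finrank_tensorProduct, Module.finrank_linearMap, ← (MulOpposite.opLinearEquiv K :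
    A ≃ₗ[K] Aᵐᵒᵖ).finrank_eq] at h2
  have h4 : 0 < Module.finrank K A := Module.finrank_pos
  have h5 : Module.finrank K A ≤ Module.finrank K B := Nat.le_of_mul_le_mul_right h2 h4
  have h6 : Subalgebra.toSubmodule B = ⊤ :=
    Submodule.eq_top_of_finrank_eq (le_antisymm (Submodule.finrank_le _) h5)
  rw [← Algebra.toSubmodule_eq_top]
  exact h6

end KPE
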