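import Crest.Agent.KP_Defs

/-!
# S0270 : places (basic API), composition, the Laurent place  (author helper93)
-/

set_option autoImplicit false
set_option linter.unusedSectionVars false

open scoped PowerSeries LaurentSeries symmDiff

namespace Crest.Agent.KP

/-! ### basic API for `Place.r` -/

section Basic
variable {K L M : Type} [Field K] [Field L] [Field M] [QPar K] [QPar L] [QPar M]

theorem kpr_r_of_mem (P : Place K L) {b : L} (h : b ∈ P.O) : P.r b = P.res ⟨b, h⟩ := by
  unfold Place.r; rw [dif_pos h]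

theorem kpr_r_of_not_mem (P : Place K L) {b : L} (h : b ∉ P.O) : P.r b = 0 := by
  unfold Place.r; rw [dif_neg h]

theorem kpr_r_add (P : Place K L) {a b : L} (ha : a ∈ P.O) (hb : b ∈ P.O) :
    P.r (a + b) = P.r a + P.r b := by
  rw [kpr_r_of_mem P ha, kpr_r_of_mem P hb, kpr_r_of_mem P (add_mem ha hb), ← map_add]; rfl

theorem kpr_r_mul (P : Place K L) {a b : L} (ha : a ∈ P.O) (hb : b ∈ P.O) :
    P.r (a * b) = P.r a * P.r b := by
  rw [kpr_r_of_mem P ha, kpr_r_of_mem P hb, kpr_r_of_mem P (mul_mem ha hb), ← map_mul]; rfl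

theorem kpr_r_neg (P : Place K L) {a : L} (ha : a ∈ P.O) : P.r (-a) = -P.r a := by
  rw [kpr_r_of_mem P ha, kpr_r_of_mem P (neg_mem ha), ← map_neg]; rfl

theorem kpr_r_sub (P : Place K L) {a b : L} (ha : a ∈ P.O) (hb : b ∈ P.O) :
    P.r (a - b) = P.r a - P.r b := by
  rw [kpr_r_of_mem P ha, kpr_r_of_mem P hb, kpr_r_of_mem P (sub_mem ha hb), ← map_sub]; rfl

theorem kpr_r_inc (P : Place K L) (a : K) : P.r (P.inc a) = a := by
  rw [kpr_r_of_mem P (P.inc_mem a), P.res_inc]

theorem kpr_r_zero (P : Place K L) : P.r 0 = 0 := by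
  rw [kpr_r_of_mem P (zero_mem _)]; exact map_zero P.res

theorem kpr_r_one (P : Place K L) : P.r 1 = 1 := by
  rw [kpr_r_of_mem P (one_mem _)]; exact map_one P.res

theorem kpr_r_sum (P : Place K L) {ι : Type*} (s : Finset ι) (f : ι → L)
    (h : ∀ i ∈ s, f i ∈ P.O) : P.r (∑ i ∈ s, f i) = ∑ i ∈ s, P.r (f i) := by
  classical
  induction s using Finset.induction_on with
  | empty => simp [kpr_r_zero]
  | insert i s hi ih =>
    rw [Finset.sum_insert hi, Finset.sum_insert hi, kpr_r_add P (h i (Finset.mem_insert_self i s))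
      (sum_mem fun j hj => h j (Finset.mem_insert_of_mem hj)),
      ih fun j hj => h j (Finset.mem_insert_of_mem hj)]

theorem kpr_r_prod (P : Place K L) {ι : Type*} (s : Finset ι) (f : ι → L)
    (h : ∀ i ∈ s, f i ∈ P.O) : P.r (∏ i ∈ s, f i) = ∏ i ∈ s, P.r (f i) := by
  classical
  induction s using Finset.induction_on with
  | empty => simp [kpr_r_one]
  | insert i s hi ih =>
    rw [Finset.prod_insert hi, Finset.prod_insert hi, kpr_r_mul P (h i (Finset.mem_insert_self i s))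
      (prod_mem fun j hj => h j (Finset.mem_insert_of_mem hj)),
      ih fun j hj => h j (Finset.mem_insert_of_mem hj)]

theorem kpr_inv_of_not_mem (P : Place K L) {b : L} (h : b ∉ P.O) : b⁻¹ ∈ P.O ∧ P.r b⁻¹ = 0 := by
  obtain ⟨h1, h2⟩ := P.total b h
  exact ⟨h1, by rw [kpr_r_of_mem P h1, h2]⟩

theorem kpr_inv_of_r_ne (P : Place K L) {b : L} (h : P.r b ≠ 0) :
    b ∈ P.O ∧ b⁻¹ ∈ P.O ∧ P.r b⁻¹ = (P.r b)⁻¹ := by
  have hb : b ∈ P.O := by
    by_contra hb
    exact h (kpr_r_of_not_mem P hb)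
  have hb0 : b ≠ 0 := by
    rintro rfl
    exact h (kpr_r_zero P)
  have hi : b⁻¹ ∈ P.O := by
    by_contra hi
    obtain ⟨h1, h2⟩ := kpr_inv_of_not_mem P hi
    rw [inv_inv] at h2
    exact h h2
  refine ⟨hb, hi, ?_⟩
  have : P.r b⁻¹ * P.r b = 1 := by
    rw [← kpr_r_mul P hi hb, inv_mul_cancel₀ hb0, kpr_r_one]
  exact eq_inv_of_mul_eq_one_left this

theorem kpr_div_or (P : Place K L) (a b : L) (ha : a ≠ 0) (hb : b ≠ 0) :
    a⁻¹ * b ∈ P.O ∨ b⁻¹ * a ∈ P.O := by
  by_cases h : a⁻¹ * b ∈ P.O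
  · exact Or.inl h
  · right
    have := (kpr_inv_of_not_mem P h).1
    rwa [mul_inv, inv_inv, mul_comm] at this

/-- among finitely many elements, not all zero, one divides all the others. -/
theorem kpr_exists_scale (P : Place K L) {ι : Type*} (s : Finset ι) (f : ι → L)
    (h : ∃ i ∈ s, f i ≠ 0) : ∃ i ∈ s, f i ≠ 0 ∧ ∀ j ∈ s, (f i)⁻¹ * f j ∈ P.O := by
  classical
  induction s using Finset.induction_on with
  | empty => obtain ⟨i, hi, _⟩ := h; simp at hi
  | insert a s ha ih =>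
    by_cases hs : ∃ i ∈ s, f i ≠ 0
    · obtain ⟨i, his, hi0, hi⟩ := ih hs
      by_cases hfa : f a = 0
      · refine ⟨i, Finset.mem_insert_of_mem his, hi0, fun j hj => ?_⟩
        rcases Finset.mem_insert.1 hj with rfl | hj
        · rw [hfa, mul_zero]; exact zero_mem _
        · exact hi j hj
      · rcases kpr_div_or P (f i) (f a) hi0 hfa with h1 | h1
        · refine ⟨i, Finset.mem_insert_of_mem his, hi0, fun j hj => ?_⟩
          rcases Finset.mem_insert.1 hj with rfl | hj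
          · exact h1
          · exact hi j hj
        · refine ⟨a, Finset.mem_insert_self a s, hfa, fun j hj => ?_⟩
          rcases Finset.mem_insert.1 hj with rfl | hj
          · rw [inv_mul_cancel₀ hfa]; exact one_mem _
          · have : (f a)⁻¹ * f j = ((f a)⁻¹ * f i) * ((f i)⁻¹ * f j) := by
              field_simp
            rw [this]
            exact mul_mem h1 (hi j hj)
    · obtain ⟨i, hi, hi0⟩ := h
      rcases Finset.mem_insert.1 hi with rfl | hi
      · refine ⟨i, Finset.mem_insert_self i s, hi0, fun j hj => ?_⟩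
        rcases Finset.mem_insert.1 hj with rfl | hj
        · rw [inv_mul_cancel₀ hi0]; exact one_mem _
        · have : f j = 0 := by
            by_contra hj0
            exact hs ⟨j, hj, hj0⟩
          rw [this, mul_zero]; exact zero_mem _
      · exact absurd ⟨i, hi, hi0⟩ hs

/-! ### integral elements of `QA L` -/

theorem kpr_rq_apply (P : Place K L) (u : QA L) (g : Gp) : P.rq u g = P.r (u g) := rfl

theorem kpr_ext {R : Type} [CommRing R] {u v : QA R} (h : ∀ g, u g = v g) : u = v :=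
  Finsupp.ext h

theorem kpr_add_apply {R : Type} [CommRing R] (u v : QA R) (g : Gp) : (u + v) g = u g + v g := rfl

theorem kpr_zero_apply {R : Type} [CommRing R] (g : Gp) : (0 : QA R) g = 0 := rfl

theorem kpr_smul_apply {R T : Type} [CommRing R] [Semiring T] [Module T R] (c : T) (u : QA R)
    (g : Gp) : (c • u) g = c • u g := rfl

theorem kpr_iq_apply (P : Place K L) (u : QA K) (g : Gp) : P.iq u g = P.inc (u g) := rfl

theorem kpr_int_iq (P : Place K L) (u : QA K) : P.Int (P.iq u) := fun g => P.inc_mem (u g)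

theorem kpr_rq_iq (P : Place K L) (u : QA K) : P.rq (P.iq u) = u :=
  kpr_ext fun g => by rw [kpr_rq_apply, kpr_iq_apply, kpr_r_inc]

/-- a nonzero element can be scaled to an integral one with nonzero residue -/
theorem kpr_exists_scale_q (P : Place K L) (u : QA L) (hu : u ≠ 0) :
    ∃ c : L, c ≠ 0 ∧ P.Int (c • u) ∧ P.rq (c • u) ≠ 0 := by
  have h : ∃ i ∈ u.supp, u i ≠ 0 := by
    by_contra hcon
    push_neg at hcon
    apply hu
    refine kpr_ext fun g => ?_
    by_cases hg : g ∈ u.supp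
    · exact hcon g hg
    · exact Finsupp.notMem_support_iff.1 hg
  obtain ⟨i, -, hi0, hi⟩ := kpr_exists_scale P u.supp (fun g => u g) h
  refine ⟨(u i)⁻¹, inv_ne_zero hi0, ?_, ?_⟩
  · intro g
    by_cases hg : g ∈ u.supp
    · exact hi g hg
    · have h0 : u g = 0 := Finsupp.notMem_support_iff.1 hg
      rw [kpr_smul_apply, h0, smul_zero]; exact zero_mem _
  · intro h0
    have h1 : P.rq ((u i)⁻¹ • u) i = (0 : QA K) i := by rw [h0]
    rw [kpr_rq_apply, kpr_smul_apply, smul_eq_mul, inv_mul_cancel₀ hi0, kpr_r_one,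
      kpr_zero_apply] at h1
    exact one_ne_zero h1

end Basic

/-! ### composition -/

section Trans
variable {K L M : Type} [Field K] [Field L] [Field M] [QPar K] [QPar L] [QPar M]

/-- composition of places: `P : L ⇀ K`, `Q : M ⇀ L` -/
noncomputable def Place.trans (P : Place K L) (Q : Place L M) : Place K M where
  O :=
    { carrier := {b | b ∈ Q.O ∧ Q.r b ∈ P.O}
      mul_mem' := by
        rintro a b ⟨ha, ha'⟩ ⟨hb, hb'⟩
        exact ⟨mul_mem ha hb, by rw [kpr_r_mul Q ha hb]; exact mul_mem ha' hb'⟩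
      one_mem' := ⟨one_mem _, by rw [kpr_r_one]; exact one_mem _⟩
      add_mem' := by
        rintro a b ⟨ha, ha'⟩ ⟨hb, hb'⟩
        exact ⟨add_mem ha hb, by rw [kpr_r_add Q ha hb]; exact add_mem ha' hb'⟩
      zero_mem' := ⟨zero_mem _, by rw [kpr_r_zero]; exact zero_mem _⟩
      neg_mem' := by
        rintro a ⟨ha, ha'⟩
        exact ⟨neg_mem ha, by rw [kpr_r_neg Q ha]; exact neg_mem ha'⟩ }
  res :=
    { toFun := fun b => P.r (Q.r b.1)
      map_one' := by
        change P.r (Q.r 1) = 1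
        rw [kpr_r_one, kpr_r_one]
      map_mul' := by
        rintro ⟨a, ha, ha'⟩ ⟨b, hb, hb'⟩
        change P.r (Q.r (a * b)) = P.r (Q.r a) * P.r (Q.r b)
        rw [kpr_r_mul Q ha hb, kpr_r_mul P ha' hb']
      map_zero' := by
        change P.r (Q.r 0) = 0
        rw [kpr_r_zero, kpr_r_zero]
      map_add' := by
        rintro ⟨a, ha, ha'⟩ ⟨b, hb, hb'⟩
        change P.r (Q.r (a + b)) = P.r (Q.r a) + P.r (Q.r b)
        rw [kpr_r_add Q ha hb, kpr_r_add P ha' hb'] }
  inc := Q.inc.comp P.inc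
  inc_mem := fun a => ⟨Q.inc_mem _, by
    change Q.r (Q.inc (P.inc a)) ∈ P.O
    rw [kpr_r_inc]; exact P.inc_mem a⟩
  res_inc := fun a => by
    change P.r (Q.r (Q.inc (P.inc a))) = a
    rw [kpr_r_inc, kpr_r_inc]
  total := by
    intro b hb
    by_cases h : b ∈ Q.O
    · have h2 : Q.r b ∉ P.O := fun h2 => hb ⟨h, h2⟩
      have h3 : Q.r b ≠ 0 := by
        intro h0
        rw [h0] at h2
        exact h2 (zero_mem _)
      obtain ⟨-, h4, h5⟩ := kpr_inv_of_r_ne Q h3
      obtain ⟨h6, h7⟩ := kpr_inv_of_not_mem P h2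
      refine ⟨⟨h4, by rw [h5]; exact h6⟩, ?_⟩
      change P.r (Q.r b⁻¹) = 0
      rw [h5, h7]
    · obtain ⟨h1, h2⟩ := kpr_inv_of_not_mem Q h
      refine ⟨⟨h1, by rw [h2]; exact zero_mem _⟩, ?_⟩
      change P.r (Q.r b⁻¹) = 0
      rw [h2, kpr_r_zero]
  inc_al := fun s => by
    change Q.inc (P.inc (al s)) = al s
    rw [P.inc_al, Q.inc_al]
  inc_be := fun s => by
    change Q.inc (P.inc (be s)) = be s
    rw [P.inc_be, Q.inc_be]

theorem kpr_mem_trans (P : Place K L) (Q : Place L M) (b : M) :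
    b ∈ (P.trans Q).O ↔ b ∈ Q.O ∧ Q.r b ∈ P.O := Iff.rfl

/-- `r` of a composition is the composition (for all arguments) -/
theorem kpr_r_trans (P : Place K L) (Q : Place L M) (b : M) :
    (P.trans Q).r b = P.r (Q.r b) := by
  by_cases h : b ∈ (P.trans Q).O
  · rw [kpr_r_of_mem _ h]; rfl
  · rw [kpr_r_of_not_mem _ h]
    by_cases h1 : b ∈ Q.O
    · have h2 : Q.r b ∉ P.O := fun h2 => h ⟨h1, h2⟩
      rw [kpr_r_of_not_mem _ h2]
    · rw [kpr_r_of_not_mem _ h1, kpr_r_zero]

theorem kpr_inc_trans (P : Place K L) (Q : Place L M) (a : K) :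
    (P.trans Q).inc a = Q.inc (P.inc a) := rfl

theorem kpr_int_trans (P : Place K L) (Q : Place L M) (u : QA M) :
    (P.trans Q).Int u ↔ Q.Int u ∧ P.Int (Q.rq u) :=
  ⟨fun h => ⟨fun g => (h g).1, fun g => (h g).2⟩, fun h g => ⟨h.1 g, h.2 g⟩⟩

theorem kpr_rq_trans (P : Place K L) (Q : Place L M) (u : QA M) :
    (P.trans Q).rq u = P.rq (Q.rq u) :=
  kpr_ext fun g => by rw [kpr_rq_apply, kpr_rq_apply, kpr_rq_apply, kpr_r_trans]

theorem kpr_iq_trans (P : Place K L) (Q : Place L M) (u : QA K) :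
    (P.trans Q).iq u = Q.iq (P.iq u) :=
  kpr_ext fun g => rfl

theorem kpr_resS_trans (P : Place K L) (Q : Place L M) (V : Submodule M (QA M)) :
    (P.trans Q).resS V = P.resS (Q.resS V) := by
  ext u
  constructor
  · rintro ⟨v, hv, hi, rfl⟩
    rw [kpr_int_trans] at hi
    exact ⟨Q.rq v, ⟨v, hv, hi.1, rfl⟩, hi.2, (kpr_rq_trans P Q v).symm⟩
  · rintro ⟨w, ⟨v, hv, hi, rfl⟩, hi2, rfl⟩
    exact ⟨v, hv, (kpr_int_trans P Q v).2 ⟨hi, hi2⟩, kpr_rq_trans P Q v⟩

theorem kpr_resI_trans {I : Type} (P : Place K L) (Q : Place L M) (V : Submodule M (I → QA M)) :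
    (P.trans Q).resI V = P.resI (Q.resI V) := by
  ext u
  constructor
  · rintro ⟨v, hv, hi, rfl⟩
    exact ⟨fun i => Q.rq (v i), ⟨v, hv, fun i => ((kpr_int_trans P Q _).1 (hi i)).1, rfl⟩,
      fun i => ((kpr_int_trans P Q _).1 (hi i)).2, funext fun i => (kpr_rq_trans P Q _).symm⟩
  · rintro ⟨w, ⟨v, hv, hi, rfl⟩, hi2, rfl⟩
    exact ⟨v, hv, fun i => (kpr_int_trans P Q _).2 ⟨hi i, hi2 i⟩,
      funext fun i => kpr_rq_trans P Q _⟩

/-- the trivial place -/
noncomputable def Place.refl (K : Type) [Field K] [QPar K] : Place K K where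
  O := ⊤
  res := (Subring.topEquiv : (⊤ : Subring K) ≃+* K).toRingHom
  inc := RingHom.id K
  inc_mem := fun _ => Subring.mem_top _
  res_inc := fun _ => rfl
  total := fun b hb => absurd (Subring.mem_top b) hb
  inc_al := fun _ => rfl
  inc_be := fun _ => rfl

theorem kpr_mem_refl (b : K) : b ∈ (Place.refl K).O := Subring.mem_top b

theorem kpr_r_refl (b : K) : (Place.refl K).r b = b := by
  rw [kpr_r_of_mem _ (kpr_mem_refl b)]; rfl

theorem kpr_int_refl (u : QA K) : (Place.refl K).Int u := fun _ => kpr_mem_refl _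

theorem kpr_rq_refl (u : QA K) : (Place.refl K).rq u = u :=
  kpr_ext fun g => by rw [kpr_rq_apply, kpr_r_refl]

theorem kpr_iq_refl (u : QA K) : (Place.refl K).iq u = u :=
  kpr_ext fun g => rfl

end Trans

end Crest.Agent.KP
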