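import Crest.Agent.KP_Defs2
import Crest.Agent.KPR_Place
import Crest.Agent.KPB_latS
import Crest.Agent.KPE_Core
import Crest.Agent.KPE_Dens

/-! S0270, part E: glue between `Node`/`Later` (KP_Defs2) and the abstract system `KPE.Sys`. -/

set_option autoImplicit false
set_option linter.unusedSectionVars false

open scoped PowerSeries LaurentSeries symmDiff
open Polynomial

namespace Crest.Agent.KP

namespace Glue

/-! ### finite dimension of `lev` -/

section lev
variable {K : Type} [Field K] [KF K]

/-- the index set of `lev k` -/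
def levIdx (k : ℕ) : Finset Gp := (Finset.range k).powerset ×ˢ (Finset.range k).powerset

lemma mem_levIdx {k : ℕ} {g : Gp} : g ∈ levIdx k ↔
    (↑g.1 ⊆ {n | n < k} ∧ (↑g.2 : Set ℕ) ⊆ {n | n < k}) := by
  rw [levIdx, Finset.mem_product, Finset.mem_powerset, Finset.mem_powerset]
  constructor
  · rintro ⟨h1, h2⟩
    exact ⟨fun x hx => Finset.mem_range.1 (h1 hx), fun x hx => Finset.mem_range.1 (h2 hx)⟩
  · rintro ⟨h1, h2⟩
    exact ⟨fun x hx => Finset.mem_range.2 (h1 hx), fun x hx => Finset.mem_range.2 (h2 hx)⟩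

lemma mem_lev {k : ℕ} {u : QA K} : u ∈ lev K k ↔ ∀ g, u g ≠ 0 → g ∈ levIdx k :=
  forall_congr' fun _ => imp_congr_right fun _ => mem_levIdx.symm

lemma card_levIdx (k : ℕ) : (levIdx k).card = 4 ^ k := by
  rw [levIdx, Finset.card_product, Finset.card_powerset, Finset.card_range, ← mul_pow]
  norm_num

lemma qa_smul (c : K) (u : QA K) (g : Gp) : (c • u) g = c * u g := rfl

/-- `lev k` as functions on the index set -/
noncomputable def levEquiv (k : ℕ) : lev K k ≃ₗ[K] (levIdx k → K) where
  toFun u := fun g => (u : QA K) g.1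
  map_add' _ _ := rfl
  map_smul' _ _ := rfl
  invFun f := ⟨(Finsupp.onFinset (levIdx k) (fun g => if h : g ∈ levIdx k then f ⟨g, h⟩ else 0)
    (fun g hg => by
      by_contra h
      simp [h] at hg) : Gp →₀ K), mem_lev.2 fun g hg => by
        by_contra h
        exact hg (dif_neg h)⟩
  left_inv u := by
    apply Subtype.ext
    apply Finsupp.ext
    intro g
    change (if h : g ∈ levIdx k then (u : QA K) g else 0) = (u : QA K) g
    by_cases h : g ∈ levIdx k
    · rw [dif_pos h]
    · rw [dif_neg h]
      by_contra h'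
      exact h (mem_lev.1 u.2 g (Ne.symm h'))
  right_inv f := by
    funext g
    change (if h : (g : Gp) ∈ levIdx k then f ⟨g, h⟩ else 0) = f g
    rw [dif_pos g.2]

instance levFin (k : ℕ) : FiniteDimensional K (lev K k) :=
  Module.Finite.equiv (levEquiv (K := K) k).symm

lemma finrank_lev (k : ℕ) : Module.finrank K (lev K k) = 4 ^ k := by
  rw [(levEquiv (K := K) k).finrank_eq, Module.finrank_fintype_fun_eq_card, Fintype.card_coe,
    card_levIdx]

end lev

/-! ### minimal polynomials and traces -/

/-- If traces of powers are transported and linear independence of powers is preserved then minimal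
polynomials are transported. -/
lemma minpoly_transport {K L A A' : Type} [Field K] [Field L] [Ring A] [Ring A'] [Algebra K A]
    [Algebra L A'] [Nontrivial A'] [NoZeroDivisors A'] [FiniteDimensional K A]
    [FiniteDimensional L A'] (f : K →+* L) (tr : A →ₗ[K] K) (tr' : A' →ₗ[L] L)
    (h1 : tr' 1 ≠ 0) (a : A) (a' : A') (htr : ∀ j : ℕ, tr' (a' ^ j) = f (tr (a ^ j)))
    (hli : ∀ n : ℕ, LinearIndependent K (fun i : Fin n => a ^ (i : ℕ)) →
      LinearIndependent L (fun i : Fin n => a' ^ (i : ℕ))) :
    minpoly L a' = (minpoly K a).map f := by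
  classical
  set p := minpoly K a with hp
  have hai : IsIntegral K a := Algebra.IsIntegral.isIntegral _
  have hai' : IsIntegral L a' := Algebra.IsIntegral.isIntegral _
  have hpm : p.Monic := minpoly.monic hai
  -- transport of traces of polynomials
  have hq : ∀ q : K[X], tr' (aeval a' (q.map f)) = f (tr (aeval a q)) := by
    intro q
    induction q using Polynomial.induction_on' with
    | add q r hq hr => simp only [Polynomial.map_add, map_add, hq, hr]
    | monomial m c =>
      rw [Polynomial.map_monomial, Polynomial.aeval_monomial, Polynomial.aeval_monomial,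
        ← Algebra.smul_def, ← Algebra.smul_def, map_smul, map_smul, htr, smul_eq_mul, smul_eq_mul,
        map_mul]
  have hzero : aeval a' (p.map f) = 0 := by
    by_contra hne
    -- inverse inside the algebra generated by a'
    set B := Algebra.adjoin L {a'} with hB
    have hbB : aeval a' (p.map f) ∈ B := by
      rw [hB, Algebra.adjoin_singleton_eq_range_aeval]
      exact ⟨_, rfl⟩
    have dB : IsDomain B := NoZeroDivisors.to_isDomain _
    obtain ⟨y, hy⟩ := FiniteDimensional.exists_mul_eq_one L
      (x := (⟨aeval a' (p.map f), hbB⟩ : B)) (by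
        intro h
        exact hne (congrArg Subtype.val h))
    have hy' : aeval a' (p.map f) * (y : A') = 1 := congrArg Subtype.val hy
    have hyB : (y : A') ∈ Algebra.adjoin L {a'} := y.2
    rw [Algebra.adjoin_singleton_eq_range_aeval] at hyB
    obtain ⟨r, hr⟩ := hyB
    have hr' : aeval a' r = (y : A') := hr
    rw [← hr'] at hy'
    apply h1
    rw [← hy']
    have hall : ∀ r : L[X], tr' (aeval a' (p.map f) * aeval a' r) = 0 := by
      intro r
      induction r using Polynomial.induction_on' with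
      | add q r hq hr => rw [map_add, mul_add, map_add, hq, hr, add_zero]
      | monomial m c =>
        rw [Polynomial.aeval_monomial, ← Algebra.smul_def, mul_smul_comm, map_smul]
        have h3 : aeval a' (p.map f) * a' ^ m = aeval a' ((p * X ^ m).map f) := by
          rw [Polynomial.map_mul, Polynomial.map_pow, Polynomial.map_X, map_mul, map_pow, aeval_X]
        rw [h3, hq, map_mul, hp, minpoly.aeval, zero_mul, map_zero, map_zero, smul_zero]
    exact hall r
  have hdvd : minpoly L a' ∣ p.map f := minpoly.dvd L a' hzero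
  have hdeg : (p.map f).natDegree ≤ (minpoly L a').natDegree := by
    rw [Polynomial.natDegree_map]
    by_contra hlt
    rw [not_le] at hlt
    have h2 : LinearIndependent L (fun i : Fin p.natDegree => a' ^ (i : ℕ)) :=
      hli _ (linearIndependent_pow a)
    rw [Fintype.linearIndependent_iff] at h2
    have h3 := h2 (fun i => (minpoly L a').coeff i) (by
      have h4 := minpoly.aeval L a'
      rw [Polynomial.aeval_eq_sum_range' hlt] at h4
      rw [← h4, Finset.sum_range])
    have h5 := h3 ⟨(minpoly L a').natDegree, hlt⟩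
    have h6 : (minpoly L a').Monic := minpoly.monic hai'
    simp only at h5
    rw [h6.coeff_natDegree] at h5
    exact one_ne_zero h5
  exact (Polynomial.eq_of_monic_of_dvd_of_natDegree_le (minpoly.monic hai') (hpm.map f) hdvd
    hdeg).symm

/-! ### nodes -/

/-- algebra of a node -/
abbrev NA (n : Node) : Type := lev n.K n.pt.k

/-- marked elements -/
noncomputable def NX (n : Node) : Fin 2 → NA n :=
  ![⟨n.pt.X n.pt.x, n.good.Xlev _⟩, ⟨n.pt.X n.pt.y, n.good.Xlev _⟩]

/-- conversion of nc polynomials -/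
def toNC {K I : Type} (x y : I) : KPE.NC K → NC K I
  | .var i => .var (if i = 0 then x else y)
  | .const c => .cst c
  | .add a b => .add (toNC x y a) (toNC x y b)
  | .mul a b => .mul (toNC x y a) (toNC x y b)

lemma eval_toNC (n : Node) (w : KPE.NC n.K) :
    ((w.eval (NX n) : NA n) : QA n.K) = (toNC n.pt.x n.pt.y w).ev n.pt.X := by
  induction w with
  | var i => fin_cases i <;> rfl
  | const c => rfl
  | add a b ha hb => exact congrArg₂ (· + ·) ha hb
  | mul a b ha hb => exact congrArg₂ (· * ·) ha hb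

lemma toNC_later {n n' : Node} (h : Later n n') (w : KPE.NC n.K) :
    (((toNC n.pt.x n.pt.y w).map h.P.inc).ren h.i) = toNC n'.pt.x n'.pt.y (w.map h.P.inc) := by
  induction w with
  | var i =>
    change NC.var (h.i (if i = 0 then n.pt.x else n.pt.y)) = NC.var (if i = 0 then n'.pt.x else n'.pt.y)
    rw [h.hx, h.hy]
    split_ifs <;> rfl
  | const c => rfl
  | add a b ha hb => exact congrArg₂ NC.add ha hb
  | mul a b ha hb => exact congrArg₂ NC.mul ha hb

lemma NX_int_rq {n n' : Node} (h : Later n n') (i : Fin 2) :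
    h.P.Int (NX n' i : QA n'.K) ∧ h.P.rq (NX n' i : QA n'.K) = (NX n i : QA n.K) := by
  fin_cases i
  · change h.P.Int (n'.pt.X n'.pt.x) ∧ h.P.rq (n'.pt.X n'.pt.x) = n.pt.X n.pt.x
    rw [h.hx]
    exact ⟨h.int _, h.res _⟩
  · change h.P.Int (n'.pt.X n'.pt.y) ∧ h.P.rq (n'.pt.X n'.pt.y) = n.pt.X n.pt.y
    rw [h.hy]
    exact ⟨h.int _, h.res _⟩

lemma eval_int_rq {n n' : Node} (h : Later n n') (w : KPE.NC n.K) :
    h.P.Int (((w.map h.P.inc).eval (NX n') : NA n') : QA n'.K) ∧
      h.P.rq (((w.map h.P.inc).eval (NX n') : NA n') : QA n'.K) = ((w.eval (NX n) : NA n) : QA n.K) := by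
  induction w with
  | var i => exact NX_int_rq h i
  | const c =>
    have h1 : (((KPE.NC.const c : KPE.NC n.K).map h.P.inc).eval (NX n') : NA n') =
      algebraMap n'.K (NA n') (h.P.inc c) := rfl
    have h2 : ((algebraMap n'.K (NA n') (h.P.inc c) : NA n') : QA n'.K) =
      algebraMap n'.K (QA n'.K) (h.P.inc c) := rfl
    rw [h1, h2]
    refine ⟨h.P.int_algebraMap (h.P.inc_mem c), ?_⟩
    rw [h.P.rq_algebraMap (h.P.inc_mem c), Place.r_inc]
    rfl
  | add a b ha hb =>
    have h1 : ((((a.add b).map h.P.inc).eval (NX n') : NA n') : QA n'.K) =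
      (((a.map h.P.inc).eval (NX n') : NA n') : QA n'.K) +
        (((b.map h.P.inc).eval (NX n') : NA n') : QA n'.K) := rfl
    rw [h1]
    refine ⟨h.P.int_add ha.1 hb.1, ?_⟩
    rw [h.P.rq_add ha.1 hb.1, ha.2, hb.2]
    rfl
  | mul a b ha hb =>
    have h1 : ((((a.mul b).map h.P.inc).eval (NX n') : NA n') : QA n'.K) =
      (((a.map h.P.inc).eval (NX n') : NA n') : QA n'.K) *
        (((b.map h.P.inc).eval (NX n') : NA n') : QA n'.K) := rfl
    rw [h1]
    refine ⟨h.P.int_mul ha.1 hb.1, ?_⟩
    rw [h.P.rq_mul ha.1 hb.1, ha.2, hb.2]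
    rfl

lemma words_int_rq {n n' : Node} (h : Later n n') (m : List (Fin 2)) :
    h.P.Int (((m.map (NX n')).prod : NA n') : QA n'.K) ∧
      h.P.rq (((m.map (NX n')).prod : NA n') : QA n'.K) = (((m.map (NX n)).prod : NA n) : QA n.K) := by
  induction m with
  | nil => exact ⟨h.P.int_one, h.P.rq_one⟩
  | cons a m ih =>
    have h0 := NX_int_rq h a
    have h1 : (((((a :: m).map (NX n')).prod : NA n')) : QA n'.K) =
      (NX n' a : QA n'.K) * (((m.map (NX n')).prod : NA n') : QA n'.K) := by
      rw [List.map_cons, List.prod_cons]; rfl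
    rw [h1]
    refine ⟨h.P.int_mul h0.1 ih.1, ?_⟩
    rw [h.P.rq_mul h0.1 ih.1, h0.2, ih.2, List.map_cons, List.prod_cons]
    rfl

/-- linear independence through residues, for elements of the level algebras -/
lemma li_lift {n n' : Node} (h : Later n n') {ι : Type} (v : ι → NA n) (v' : ι → NA n')
    (hv : ∀ i, h.P.Int (v' i : QA n'.K) ∧ h.P.rq (v' i : QA n'.K) = (v i : QA n.K))
    (hli : LinearIndependent n.K v) : LinearIndependent n'.K v' := by
  have h1 : LinearIndependent n.K (fun i => (v i : QA n.K)) :=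
    hli.map' (lev n.K n.pt.k).val.toLinearMap
      (LinearMap.ker_eq_bot.mpr Subtype.val_injective)
  have h2 : LinearIndependent n'.K (fun i => (v' i : QA n'.K)) := by
    refine h.P.li_of_rq _ (fun i => (hv i).1) ?_
    simpa only [(hv _).2] using h1
  exact LinearIndependent.of_comp (lev n'.K n'.pt.k).val.toLinearMap h2

lemma trans_int_rq {K L M : Type} [Field K] [Field L] [Field M] [QPar K] [QPar L] [QPar M]
    (P : Place K L) (Q : Place L M) (u : QA M) (h : Q.Int u) (h' : P.Int (Q.rq u)) :
    (P.trans Q).Int u ∧ (P.trans Q).rq u = P.rq (Q.rq u) := by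
  exact ⟨(kpr_int_trans P Q u).2 ⟨h, h'⟩, kpr_rq_trans P Q u⟩

lemma NC_map_map {R S T I : Type} (f : R → S) (g : S → T) (w : NC R I) :
    (w.map f).map g = w.map (g ∘ f) := by
  induction w with
  | cst c => rfl
  | var i => rfl
  | add a b ha hb => exact congrArg₂ NC.add ha hb
  | mul a b ha hb => exact congrArg₂ NC.mul ha hb

lemma NC_ren_ren {R I J L : Type} (f : I → J) (g : J → L) (w : NC R I) :
    (w.ren f).ren g = w.ren (g ∘ f) := by
  induction w with
  | cst c => rfl
  | var i => rfl
  | add a b ha hb => exact congrArg₂ NC.add ha hb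
  | mul a b ha hb => exact congrArg₂ NC.mul ha hb

lemma NC_map_ren {R S I J : Type} (f : R → S) (g : I → J) (w : NC R I) :
    (w.map f).ren g = (w.ren g).map f := by
  induction w with
  | cst c => rfl
  | var i => rfl
  | add a b ha hb => exact congrArg₂ NC.add ha hb
  | mul a b ha hb => exact congrArg₂ NC.mul ha hb

lemma NC_comp {n n' n'' : Node} (h : Later n n') (h' : Later n' n'') (w : NC n.K n.I) :
    ((((w.map h.P.inc).ren h.i).map h'.P.inc).ren h'.i) =
      ((w.map (h.P.trans h'.P).inc).ren (h'.i ∘ h.i)) := by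
  rw [← NC_map_ren, NC_ren_ren, NC_map_map]
  rfl

/-- composition -/
noncomputable def comp {n n' n'' : Node} (h : Later n n') (h' : Later n' n'') : Later n n'' where
  P := h.P.trans h'.P
  i := h'.i ∘ h.i
  hx := by rw [h'.hx, h.hx]; rfl
  hy := by rw [h'.hy, h.hy]; rfl
  hk := h.hk.trans h'.hk
  int a := (trans_int_rq h.P h'.P _ (h'.int _) (by rw [h'.res]; exact h.int a)).1
  res a := by
    have := (trans_int_rq h.P h'.P (n''.pt.X (h'.i (h.i a))) (h'.int _)
      (by rw [h'.res]; exact h.int a)).2
    rw [h'.res, h.res] at this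
    exact this
  frz w hw := by
    rw [← NC_comp]
    exact h'.frz _ (h.frz w hw)
  frz_tr w hw j := by
    rw [← NC_comp, h'.frz_tr _ (h.frz w hw) j, h.frz_tr w hw j]
    rfl

lemma NC_refl {R I : Type} (w : NC R I) (f : R → R) (hf : ∀ a, f a = a) : (w.map f).ren id = w := by
  induction w with
  | cst c => exact congrArg NC.cst (hf c)
  | var i => rfl
  | add a b ha hb => exact congrArg₂ NC.add ha hb
  | mul a b ha hb => exact congrArg₂ NC.mul ha hb

/-- identity -/
noncomputable def reflL (n : Node) : Later n n where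
  P := Place.refl n.K
  i := id
  hx := rfl
  hy := rfl
  hk := le_rfl
  int := fun a g => Subring.mem_top _
  res a := kpr_rq_refl _
  frz w hw := by
    rw [NC_refl w (Place.refl n.K).inc (fun a => rfl)]
    exact hw
  frz_tr w hw j := by
    rw [NC_refl w (Place.refl n.K).inc (fun a => rfl)]
    rfl

/-- trace on the algebra of a node -/
noncomputable def ntr (n : Node) : NA n →ₗ[n.K] n.K :=
  (QA.tr : QA n.K →ₗ[n.K] n.K) ∘ₗ (lev n.K n.pt.k).val.toLinearMap

lemma ntr_one (n : Node) : ntr n 1 ≠ 0 := by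
  have : ntr n 1 = 1 := by
    change ((1 : QA n.K) : QA n.K) (∅, ∅) = 1
    exact Finsupp.single_eq_same
  rw [this]
  exact one_ne_zero

/-- frozen polynomials have transported minimal polynomials -/
lemma minpoly_later {n n' : Node} (h : Later n n') (w : KPE.NC n.K)
    (hw : n.pt.Frozen (toNC n.pt.x n.pt.y w)) :
    minpoly n'.K ((w.map h.P.inc).eval (NX n')) =
      (minpoly n.K (w.eval (NX n))).map h.P.inc := by
  refine minpoly_transport h.P.inc (ntr n) (ntr n') (ntr_one n') _ _ ?_ ?_
  · intro j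
    have h1 := h.frz_tr _ hw j
    rw [toNC_later h, ← eval_toNC, ← eval_toNC] at h1
    exact h1
  · intro m hm
    refine li_lift h _ _ (fun i => ?_) hm
    have h1 := eval_int_rq h w
    exact ⟨h.P.int_pow h1.1 _, by
      rw [show ((((w.map h.P.inc).eval (NX n') ^ (i : ℕ) : NA n')) : QA n'.K) =
        (((w.map h.P.inc).eval (NX n') : NA n') : QA n'.K) ^ (i : ℕ) from rfl, h.P.rq_pow h1.1,
        h1.2]
      rfl⟩

/-- the system of nodes -/
noncomputable def sys
    (hfr : ∀ (n : Node) (w : NC n.K n.I), ∃ (n' : Node) (h : Later n n'), n.pt.k < n'.pt.k ∧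
      n'.pt.Frozen ((w.map h.P.inc).ren h.i))
    (hst : Nonempty Node) : KPE.Sys where
  S := Node
  K := Node.K
  A := NA
  X := NX
  Reach n n' f := ∃ h : Later n n', h.P.inc = f
  refl n := ⟨reflL n, rfl⟩
  trans := by
    rintro s s' s'' f g ⟨h, rfl⟩ ⟨h', rfl⟩
    exact ⟨comp h h', rfl⟩
  cent n u hu := by
    obtain ⟨c, hc⟩ := n.good.g3 u u.2 (congrArg Subtype.val (hu 0)) (congrArg Subtype.val (hu 1))
    exact ⟨c, Subtype.ext hc⟩
  span n := by
    refine KPE.eq_top_of_cent _ fun u hu => ?_
    obtain ⟨c, hc⟩ := n.good.g3 u u.2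
      (congrArg Subtype.val (hu (NX n 0) (Algebra.subset_adjoin ⟨0, rfl⟩)))
      (congrArg Subtype.val (hu (NX n 1) (Algebra.subset_adjoin ⟨1, rfl⟩)))
    exact ⟨c, Subtype.ext hc⟩
  indep := by
    rintro n n' f ⟨h, rfl⟩ m w hli
    exact li_lift h _ _ (fun i => words_int_rq h (w i)) hli
  freeze n w := by
    obtain ⟨n', h, hk, hf⟩ := hfr n (toNC n.pt.x n.pt.y w)
    refine ⟨n', h.P.inc, ⟨h, rfl⟩, ?_⟩
    rintro n'' g ⟨h', rfl⟩
    rw [toNC_later h] at hf
    exact minpoly_later h' _ hf
  grow n m := by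
    have key : ∀ m : ℕ, ∃ n', ∃ f : n.K →+* n'.K, (∃ h : Later n n', h.P.inc = f) ∧
        m ≤ n'.pt.k := by
      intro m
      induction m with
      | zero => exact ⟨n, _, ⟨reflL n, rfl⟩, Nat.zero_le _⟩
      | succ m ih =>
        obtain ⟨n', f, ⟨h, rfl⟩, hm⟩ := ih
        obtain ⟨n'', h', hk, -⟩ := hfr n' (.cst 0)
        exact ⟨n'', _, ⟨comp h h', rfl⟩, by omega⟩
    obtain ⟨n', f, h, hm⟩ := key m
    refine ⟨n', f, h, ?_⟩
    rw [finrank_lev]
    exact hm.trans (Nat.lt_pow_self (by norm_num)).le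
  start := hst.some

/-- **S0270 from the freeze step and the start node.** -/
theorem main
    (hfr : ∀ (n : Node) (w : NC n.K n.I), ∃ (n' : Node) (h : Later n n'), n.pt.k < n'.pt.k ∧
      n'.pt.Frozen ((w.map h.P.inc).ren h.i))
    (hst : Nonempty Node) : ∃ (D : Type) (_ : DivisionRing D), Countable D ∧ CharZero D ∧
      Algebra.IsAlgebraic (Subring.center D) D ∧
      (∃ x y : D, Algebra.adjoin (Subring.center D) ({x, y} : Set D) = ⊤) ∧
      ¬ FiniteDimensional (Subring.center D) D :=
  KPE.main (sys hfr hst)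

end Glue

end Crest.Agent.KP
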