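import Crest.Agent.KPG_P4

/-!
# S0270, part (G)-algebra (author helper47): dimension of a product space
-/

set_option autoImplicit false
set_option linter.unusedSectionVars false

open scoped symmDiff
open Module

namespace Crest.Agent.KP

variable {K : Type} [Field K] [KF K]

private noncomputable def kd1_basis (A : Set ℕ) : Basis (gOn A) K (QA.on (R := K) A) :=
  Basis.ofRepr (kpaOnEquiv (K := K) A)

private theorem kd1_repr (A : Set ℕ) (u : QA.on (R := K) A) (g : gOn A) :
    (kd1_basis (K := K) A).repr u g = (u : QA K) g := rfl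

private theorem kd1_coe (A : Set ℕ) (g : gOn A) :
    ((kd1_basis (K := K) A g : QA.on (R := K) A) : QA K) = QA.e (g : Gp) := by
  have hmem : (QA.e (g : Gp) : QA K) ∈ QA.on (R := K) A := by
    intro h hh
    rw [QA.e_eq_ec, QA.ec_apply] at hh
    have : (g : Gp) = h := by
      by_contra H
      rw [if_neg H] at hh
      exact hh rfl
    rw [← this]
    exact g.2
  have h1 : kd1_basis (K := K) A g = ⟨QA.e (g : Gp), hmem⟩ := by
    rw [Basis.apply_eq_iff]
    apply Finsupp.ext
    intro h
    rw [kd1_repr]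
    show (QA.e (g : Gp) : QA K) (h : Gp) = _
    rw [QA.e_eq_ec, QA.ec_apply, Finsupp.single_apply]
    by_cases H : g = h
    · subst H
      simp
    · rw [if_neg H, if_neg fun H' => H (Subtype.ext H')]
  rw [h1]

private theorem kd1_li : LinearIndependent K (fun g : Gp => (QA.e g : QA K)) := by
  have h := (Finsupp.basisSingleOne (R := K) (ι := Gp)).linearIndependent
  have h2 : (fun g : Gp => (QA.e g : QA K)) =
      fun g : Gp => (Finsupp.basisSingleOne (R := K) (ι := Gp) g : Gp →₀ K) := by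
    funext g
    rw [Finsupp.coe_basisSingleOne]
    rfl
  rw [h2]
  exact h

private theorem kd1_disj (k l : ℕ) :
    (Subalgebra.toSubmodule (lev K k)).LinearDisjoint (Subalgebra.toSubmodule (mid K k l)) := by
  refine Submodule.LinearDisjoint.of_basis_mul (Subalgebra.toSubmodule (lev K k))
    (Subalgebra.toSubmodule (mid K k l))
    (kd1_basis (K := K) {n | n < k}) (kd1_basis (K := K) {n | k ≤ n ∧ n < l}) ?_
  have hinj : Function.Injective
      (fun i : gOn {n | n < k} × gOn {n | k ≤ n ∧ n < l} => gx (i.1 : Gp) (i.2 : Gp)) := by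
    rintro ⟨⟨⟨a, b⟩, ha, hb⟩, ⟨⟨c, d⟩, hc, hd⟩⟩ ⟨⟨⟨a', b'⟩, ha', hb'⟩, ⟨⟨c', d'⟩, hc', hd'⟩⟩ h
    simp only [gx, Prod.mk.injEq] at h
    obtain ⟨h1, h2⟩ := h
    have key : ∀ {x y x' y' : Finset ℕ}, (↑x : Set ℕ) ⊆ {n | n < k} →
        (↑y : Set ℕ) ⊆ {n | k ≤ n ∧ n < l} → (↑x' : Set ℕ) ⊆ {n | n < k} →
        (↑y' : Set ℕ) ⊆ {n | k ≤ n ∧ n < l} → x ∆ y = x' ∆ y' → x = x' ∧ y = y' := by
      intro x y x' y' hx hy hx' hy' hxy
      have hmem : ∀ n, (n ∈ x ∆ y ↔ n ∈ x' ∆ y') := fun n => by rw [hxy]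
      constructor
      · ext n
        have := hmem n
        simp only [Finset.mem_symmDiff] at this
        by_cases hn : n < k
        · have hny : n ∉ y := fun h => absurd (hy h).1 (not_le.2 hn)
          have hny' : n ∉ y' := fun h => absurd (hy' h).1 (not_le.2 hn)
          tauto
        · have hnx : n ∉ x := fun h => hn (hx h)
          have hnx' : n ∉ x' := fun h => hn (hx' h)
          tauto
      · ext n
        have := hmem n
        simp only [Finset.mem_symmDiff] at this
        by_cases hn : n < k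
        · have hny : n ∉ y := fun h => absurd (hy h).1 (not_le.2 hn)
          have hny' : n ∉ y' := fun h => absurd (hy' h).1 (not_le.2 hn)
          tauto
        · have hnx : n ∉ x := fun h => hn (hx h)
          have hnx' : n ∉ x' := fun h => hn (hx' h)
          tauto
    obtain ⟨e1, e2⟩ := key ha hc ha' hc' h1
    obtain ⟨e3, e4⟩ := key hb hd hb' hd' h2
    subst e1 e2 e3 e4
    rfl
  have h1 := (kd1_li (K := K)).comp _ hinj
  let c : gOn {n | n < k} × gOn {n | k ≤ n ∧ n < l} → Kˣ :=
    fun i => Units.mk0 (coc K (i.1 : Gp) (i.2 : Gp)) (kpa_coc_ne _ _)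
  have h2 := h1.units_smul c
  have h3 : (fun i : gOn {n | n < k} × gOn {n | k ≤ n ∧ n < l} =>
      ((kd1_basis (K := K) {n | n < k} i.1 : QA.on (R := K) {n | n < k}) : QA K) *
        ((kd1_basis (K := K) {n | k ≤ n ∧ n < l} i.2 :
          QA.on (R := K) {n | k ≤ n ∧ n < l}) : QA K)) =
      c • ((fun g : Gp => (QA.e g : QA K)) ∘ fun i => gx (i.1 : Gp) (i.2 : Gp)) := by
    funext i
    rw [kd1_coe, kd1_coe, kpg_e_mul]
    rfl
  have h4 := h3 ▸ h2
  exact h4

/-- `lev k` and `mid k l` are linearly disjoint: `dim (V * P) = dim V * dim P` for subspaces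
`V ≤ lev k`, `P ≤ mid k l`.
Proof: let `v_i` be a basis of `V`, `p_j` a basis of `P`; they span `V*P`
(`Submodule.span_mul_span`).  Independence: if `∑ c_ij v_i p_j = 0`, put `x_j = ∑_i c_ij v_i ∈ lev k`,
`∑_j x_j p_j = 0`; apply `ptr k (· * e g)` for `g` inside `[k,l)`:
`∑_j tr(p_j * e g) • x_j = 0`; (all coefficients of `p_j` are multiples of the `tr(p_j * e g)`), i.e.
for each coefficient functional of the `x_j` we get `∑_j (x_j)_h p_j = 0`, hence `(x_j)_h = 0`, `x_j = 0`,
`c_ij = 0`. -/
theorem kpg_mul_finrank {k l : ℕ} (V P : Submodule K (QA K))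
    (hV : V ≤ Subalgebra.toSubmodule (lev K k)) (hP : P ≤ Subalgebra.toSubmodule (mid K k l)) :
    finrank K ↥(V * P) = finrank K V * finrank K P := by
  have h := (kd1_disj (K := K) k l).of_le_of_flat_right hV hP
  rw [← Submodule.mulMap_range, LinearMap.finrank_range_of_inj h.injective,
    Module.finrank_tensorProduct]

end Crest.Agent.KP
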