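import Crest.Agent.KPG_D1

/-!
# S0270, part (G)-algebra (author helper47): dimension of tE
-/

set_option autoImplicit false
set_option linter.unusedSectionVars false

open scoped symmDiff
open Module

namespace Crest.Agent.KP

variable {K : Type} [Field K] [KF K]

/-- `tE k l V = V * mid k l`. -/
theorem kpg_tE_eq {k l : ℕ} (V : Submodule K (QA K)) :
    tE k l V = V * Subalgebra.toSubmodule (mid K k l) := by
  apply le_antisymm
  · refine Submodule.span_le.2 ?_
    rintro _ ⟨b, hb, e, he, rfl⟩
    exact Submodule.mul_mem_mul hb he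
  · rw [Submodule.mul_le]
    intro b hb e he
    exact Submodule.subset_span ⟨b, hb, e, he, rfl⟩

/-- `dim mid k l = 4^(l-k)`, `dim lev k = 4^k` : the `e g` are a basis. -/
theorem kpg_finrank_mid {k l : ℕ} (_h : k ≤ l) : finrank K (mid K k l) = 4 ^ (l - k) :=
  kpa_finrank_mid k l

theorem kpg_finrank_tE {k l : ℕ} (h : k ≤ l) (V : Submodule K (QA K))
    (hV : V ≤ Subalgebra.toSubmodule (lev K k)) :
    finrank K (tE k l V) = finrank K V * 4 ^ (l - k) := by
  rw [kpg_tE_eq, kpg_mul_finrank V _ hV le_rfl, ← kpg_finrank_mid (K := K) h]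
  rfl

end Crest.Agent.KP
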