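import Crest.Agent.KPG_D2

/-!
# S0270, part (G)-algebra (author helper47): inverses and nondegeneracy
-/

set_option autoImplicit false
set_option linter.unusedSectionVars false

open scoped symmDiff
open Module

namespace Crest.Agent.KP

variable {K : Type} [Field K] [KF K]

/-- a nonzero element of a subalgebra `Φ` of `lev k` is invertible in `Φ`
(left multiplication by `a` on the finite-dimensional domain `Φ` is injective, hence onto; the right
inverse is a left inverse in a domain). -/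
theorem kpg_inv {k : ℕ} (Φ : Subalgebra K (QA K)) (hΦ : Φ ≤ lev K k) {a : QA K} (ha : a ∈ Φ)
    (h0 : a ≠ 0) : ∃ b ∈ Φ, a * b = 1 ∧ b * a = 1 := by
  haveI := kpa_fd_of_le' hΦ
  exact kpa_inv ha h0

/-- hence the trace form is nondegenerate on every subalgebra of `lev k` (`tr (a a⁻¹) = 1`). -/
theorem kpg_nondeg {k : ℕ} (Φ : Subalgebra K (QA K)) (hΦ : Φ ≤ lev K k) {a : QA K} (ha : a ∈ Φ)
    (h : ∀ b ∈ Φ, QA.tr (a * b) = 0) : a = 0 := by
  haveI := kpa_fd_of_le' hΦ
  exact kpa_sub_nondeg ha h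

theorem kpg_tE_mul {k l : ℕ} (Φ : Subalgebra K (QA K)) (hΦ : Φ ≤ lev K k) {a b : QA K}
    (ha : a ∈ tE k l (Subalgebra.toSubmodule Φ)) (hb : b ∈ tE k l (Subalgebra.toSubmodule Φ)) :
    a * b ∈ tE k l (Subalgebra.toSubmodule Φ) := by
  refine Submodule.span_induction
    (p := fun a _ => a * b ∈ tE k l (Subalgebra.toSubmodule Φ)) ?_ ?_ ?_ ?_ ha
  · rintro _ ⟨x, hx, e, he, rfl⟩
    refine Submodule.span_induction
      (p := fun b _ => x * e * b ∈ tE k l (Subalgebra.toSubmodule Φ)) ?_ ?_ ?_ ?_ hb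
    · rintro _ ⟨y, hy, e', he', rfl⟩
      have h1 : x * e * (y * e') = (x * y) * (e * e') := by
        rw [mul_assoc x e, ← mul_assoc e y, ← kpg_comm (hΦ hy) he, mul_assoc y e, ← mul_assoc x y]
      rw [h1]
      exact Submodule.subset_span ⟨_, Φ.mul_mem hx hy, _, mul_mem he he', rfl⟩
    · rw [mul_zero]; exact Submodule.zero_mem _
    · intro u v _ _ hu hv
      rw [mul_add]; exact Submodule.add_mem _ hu hv
    · intro c u _ hu
      rw [mul_smul_comm]; exact Submodule.smul_mem _ _ hu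
  · rw [zero_mul]; exact Submodule.zero_mem _
  · intro u v _ _ hu hv
    rw [add_mul]; exact Submodule.add_mem _ hu hv
  · intro c u _ hu
    rw [smul_mul_assoc]; exact Submodule.smul_mem _ _ hu

/-- `tE k l Φ` as a subalgebra -/
noncomputable def tEA (k l : ℕ) (Φ : Subalgebra K (QA K)) (hΦ : Φ ≤ lev K k) :
    Subalgebra K (QA K) where
  carrier := tE k l (Subalgebra.toSubmodule Φ)
  mul_mem' := fun ha hb => kpg_tE_mul Φ hΦ ha hb
  one_mem' := Submodule.subset_span ⟨1, Φ.one_mem, 1, (mid K k l).one_mem, (one_mul 1).symm⟩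
  add_mem' := fun ha hb => Submodule.add_mem _ ha hb
  zero_mem' := Submodule.zero_mem _
  algebraMap_mem' := fun c => Submodule.subset_span
    ⟨algebraMap K (QA K) c, Φ.algebraMap_mem c, 1, (mid K k l).one_mem, (mul_one _).symm⟩

theorem mem_tEA {k l : ℕ} {Φ : Subalgebra K (QA K)} {hΦ : Φ ≤ lev K k} {u : QA K} :
    u ∈ tEA k l Φ hΦ ↔ u ∈ tE k l (Subalgebra.toSubmodule Φ) := Iff.rfl

theorem tEA_le {k l : ℕ} (h : k ≤ l) (Φ : Subalgebra K (QA K)) (hΦ : Φ ≤ lev K k) :
    tEA k l Φ hΦ ≤ lev K l := fun _ hu => kpg_tE_le h (Subalgebra.toSubmodule Φ) hΦ hu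

/-- `tE k l Φ` (for a subalgebra `Φ ≤ lev k`) is closed under multiplication and the trace form is
nondegenerate on it (it is the underlying space of the subalgebra `Φ ⊔ mid k l ≤ lev l`). -/
theorem kpg_nondeg_tE {k l : ℕ} (h : k ≤ l) (Φ : Subalgebra K (QA K)) (hΦ : Φ ≤ lev K k)
    {a : QA K} (ha : a ∈ tE k l (Subalgebra.toSubmodule Φ))
    (H : ∀ b ∈ tE k l (Subalgebra.toSubmodule Φ), QA.tr (a * b) = 0) : a = 0 :=
  kpg_nondeg (tEA k l Φ hΦ) (tEA_le h Φ hΦ) (mem_tEA.2 ha) H

/-- Pairing inequality used everywhere below.  `Ψ` a finite-dimensional subspace (of `QA K`), `Λ` a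
finite-dimensional subspace, `Z = {x ∈ Ψ | tr (c * x) = 0 for all c ∈ Λ}`. Then
`dim Ψ ≤ dim Z + dim Λ` (rank-nullity for `Ψ → Λ^*`). -/
theorem kpg_pair_dim (Ψ Λ Z : Submodule K (QA K)) [FiniteDimensional K Ψ]
    [FiniteDimensional K Λ]
    (hZ : ∀ x ∈ Ψ, (∀ c ∈ Λ, QA.tr (c * x) = 0) → x ∈ Z) (hZΨ : Z ≤ Ψ) :
    finrank K Ψ ≤ finrank K Z + finrank K Λ := by
  let f : Ψ →ₗ[K] Module.Dual K Λ :=
    LinearMap.mk₂ K (fun (x : Ψ) (c : Λ) => QA.tr ((c : QA K) * (x : QA K)))
      (fun a a' b => by simp only [Submodule.coe_add, mul_add, map_add])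
      (fun c a b => by simp only [Submodule.coe_smul, mul_smul_comm, map_smul])
      (fun a b b' => by simp only [Submodule.coe_add, add_mul, map_add])
      (fun c a b => by simp only [Submodule.coe_smul, smul_mul_assoc, map_smul])
  have h1 := LinearMap.finrank_range_add_finrank_ker f
  have h2 : finrank K (LinearMap.range f) ≤ finrank K Λ := by
    refine (Submodule.finrank_le _).trans ?_
    rw [Subspace.dual_finrank_eq]
  have h3 : finrank K (LinearMap.ker f) ≤ finrank K Z := by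
    haveI : FiniteDimensional K Z := Submodule.finiteDimensional_of_le hZΨ
    rw [← LinearMap.finrank_range_of_inj (f := (Ψ.subtype).comp (LinearMap.ker f).subtype)
      (Subtype.val_injective.comp Subtype.val_injective)]
    apply Submodule.finrank_mono
    rintro _ ⟨x, rfl⟩
    refine hZ _ (x : Ψ).2 fun c hc => ?_
    have := LinearMap.congr_fun (LinearMap.mem_ker.1 x.2) ⟨c, hc⟩
    exact this
  omega

end Crest.Agent.KP
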