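import Crest.Agent.KPR_Poly

/-!
# S0270 : OPEN and PERT in an arbitrary algebra without zero divisors (author helper93)
-/

set_option autoImplicit false
set_option linter.unusedSectionVars false

namespace Crest.Agent.KP

section
variable {K A : Type*} [Field K] [Ring A] [Algebra K A]

/-- if `e` commutes with `Φ`, the algebra `Φ[e]` is spanned by the products `φ e^j` -/
theorem kpr_adj_span (Φ : Subalgebra K A) (e : A) (he : ∀ φ ∈ Φ, φ * e = e * φ) :
    Subalgebra.toSubmodule (Φ ⊔ Algebra.adjoin K {e}) =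
      Submodule.span K {x | ∃ φ ∈ Φ, ∃ j : ℕ, x = φ * e ^ j} := by
  have hej : ∀ (j : ℕ), ∀ φ ∈ Φ, φ * e ^ j = e ^ j * φ := fun j φ hφ =>
    ((show Commute φ e from he φ hφ).pow_right j).eq
  set S : Set A := {x | ∃ φ ∈ Φ, ∃ j : ℕ, x = φ * e ^ j} with hS
  have hmul : ∀ x ∈ Submodule.span K S, ∀ y ∈ Submodule.span K S, x * y ∈ Submodule.span K S := by
    intro x hx y hy
    have hxy : x * y ∈ Submodule.span K S * Submodule.span K S := Submodule.mul_mem_mul hx hy
    rw [Submodule.span_mul_span] at hxy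
    refine Submodule.span_mono ?_ hxy
    rintro _ ⟨_, ⟨φ, hφ, i, rfl⟩, _, ⟨ψ, hψ, j, rfl⟩, rfl⟩
    refine ⟨φ * ψ, mul_mem hφ hψ, i + j, ?_⟩
    change φ * e ^ i * (ψ * e ^ j) = _
    rw [mul_assoc, ← mul_assoc (e ^ i), ← hej i ψ hψ, mul_assoc ψ, ← pow_add, ← mul_assoc]
  apply le_antisymm
  · let B : Subalgebra K A :=
      { carrier := (Submodule.span K S : Set A)
        mul_mem' := fun {x y} hx hy => hmul x hx y hy
        add_mem' := fun {x y} hx hy => add_mem hx hy
        algebraMap_mem' := fun c => Submodule.subset_span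
          ⟨algebraMap K A c, Subalgebra.algebraMap_mem Φ c, 0, by rw [pow_zero, mul_one]⟩ }
    have h1 : Φ ⊔ Algebra.adjoin K {e} ≤ B := by
      refine sup_le ?_ ?_
      · intro φ hφ
        exact Submodule.subset_span ⟨φ, hφ, 0, by rw [pow_zero, mul_one]⟩
      · refine Algebra.adjoin_le ?_
        intro x hx
        rw [Set.mem_singleton_iff.1 hx]
        exact Submodule.subset_span ⟨1, one_mem _, 1, by rw [pow_one, one_mul]⟩
    intro x hx
    exact h1 hx
  · rw [Submodule.span_le]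
    rintro _ ⟨φ, hφ, j, rfl⟩
    have h1 : φ ∈ Φ ⊔ Algebra.adjoin K {e} := (le_sup_left : Φ ≤ _) hφ
    have h2 : e ∈ Φ ⊔ Algebra.adjoin K {e} :=
      (le_sup_right : Algebra.adjoin K {e} ≤ _) (Algebra.self_mem_adjoin_singleton K e)
    exact (Φ ⊔ Algebra.adjoin K {e}).mul_mem h1 (pow_mem h2 j)

/-- the basis of products and its perturbation -/
theorem kpr_basis (Φ : Subalgebra K A) (e : A) (he : ∀ φ ∈ Φ, φ * e = e * φ)
    (hfd : FiniteDimensional K ↥(Φ ⊔ Algebra.adjoin K {e})) :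
    ∃ (n : ℕ) (φ : Fin n → A) (j : Fin n → ℕ), (∀ i, φ i ∈ Φ) ∧
      LinearIndependent K (fun i => φ i * e ^ j i) ∧
      n = Module.finrank K ↥(Φ ⊔ Algebra.adjoin K {e}) ∧
      Submodule.span K (Set.range fun i => φ i * e ^ j i) =
        Subalgebra.toSubmodule (Φ ⊔ Algebra.adjoin K {e}) := by
  classical
  set S : Set A := {x | ∃ φ ∈ Φ, ∃ j : ℕ, x = φ * e ^ j} with hS
  obtain ⟨b, hbS, hspan, hli⟩ := exists_linearIndependent K S
  rw [← kpr_adj_span Φ e he] at hspan
  have hfd' : FiniteDimensional K ↥(Submodule.span K b) := by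
    rw [hspan]; exact hfd
  have hbfin : Finite b := by
    have h1 : LinearIndependent K (fun x : b => (⟨x.1, Submodule.subset_span x.2⟩ :
        Submodule.span K b)) := by
      apply LinearIndependent.of_comp (Submodule.span K b).subtype
      exact hli
    exact h1.finite
  have := Fintype.ofFinite b
  have hcard : Fintype.card b = Module.finrank K ↥(Φ ⊔ Algebra.adjoin K {e}) := by
    have h1 := finrank_span_set_eq_card (s := b) hli
    rw [hspan] at h1
    rw [← Set.toFinset_card]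
    exact h1.symm
  let eq : Fin (Fintype.card b) ≃ b := (Fintype.equivFin b).symm
  choose φ hφ j hj using fun x : b => hbS x.2
  have hfun : (fun i => φ (eq i) * e ^ j (eq i)) = (fun x : b => (x : A)) ∘ eq := by
    funext i
    exact (hj (eq i)).symm
  refine ⟨Fintype.card b, fun i => φ (eq i), fun i => j (eq i), fun i => hφ _, ?_, hcard, ?_⟩
  · rw [hfun]
    exact hli.comp _ eq.injective
  · rw [hfun, Set.range_comp, eq.surjective.range_eq, Set.image_univ, Subtype.range_coe, hspan]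

theorem kpr_adj_le (Φ N : Subalgebra K A) (e : A) (hΦ : Φ ≤ N) (he : e ∈ N) :
    Φ ⊔ Algebra.adjoin K {e} ≤ N :=
  sup_le hΦ (Algebra.adjoin_le (Set.singleton_subset_iff.2 he))

theorem kpr_fd_of_le (B N : Subalgebra K A) (h : B ≤ N) (hN : FiniteDimensional K N) :
    FiniteDimensional K B :=
  Submodule.finiteDimensional_of_le (S₁ := Subalgebra.toSubmodule B)
    (S₂ := Subalgebra.toSubmodule N) h

theorem kpr_commute_pert (Φ : Subalgebra K A) (e u : A) (he : ∀ φ ∈ Φ, φ * e = e * φ)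
    (hu : ∀ φ ∈ Φ, φ * u = u * φ) (c : K) : ∀ φ ∈ Φ, φ * (e + c • u) = (e + c • u) * φ := by
  intro φ hφ
  rw [mul_add, add_mul, he φ hφ, mul_smul_comm, smul_mul_assoc, hu φ hφ]

theorem kpr_polyFam_prod (φ e u : A) (j : ℕ) :
    PolyFam (K := K) (fun c => φ * (e + c • u) ^ j) :=
  kpr_polyFam_mul (kpr_polyFam_const φ)
    (kpr_polyFam_pow (kpr_polyFam_add (kpr_polyFam_const e)
      (kpr_polyFam_smul (kpr_polyFam_const u))) j)

/-- OPEN: `dim Φ[e + c u] ≥ dim Φ[e]` for all but finitely many `c`. -/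
theorem kpr_open (Φ N : Subalgebra K A) (hN : FiniteDimensional K N) (hΦ : Φ ≤ N) (e u : A)
    (heN : e ∈ N) (huN : u ∈ N) (he : ∀ φ ∈ Φ, φ * e = e * φ) :
    {c : K | Module.finrank K ↥(Φ ⊔ Algebra.adjoin K {e + c • u}) <
      Module.finrank K ↥(Φ ⊔ Algebra.adjoin K {e})}.Finite := by
  obtain ⟨n, φ, j, hφ, hli, hn, -⟩ := kpr_basis Φ e he
    (kpr_fd_of_le _ N (kpr_adj_le Φ N e hΦ heN) hN)
  have h1 := kpr_linIndep_open (K := K) (fun i c => φ i * (e + c • u) ^ j i)
    (fun i => kpr_polyFam_prod (φ i) e u (j i)) 0 (by simpa using hli)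
  refine h1.subset fun c hc hli' => ?_
  have hc' : Module.finrank K ↥(Φ ⊔ Algebra.adjoin K {e + c • u}) < n := by
    rw [hn]; exact hc
  have hle := kpr_adj_le Φ N (e + c • u) hΦ (add_mem heN (N.smul_mem huN c))
  have hfd := kpr_fd_of_le _ N hle hN
  have hmem : ∀ i, φ i * (e + c • u) ^ j i ∈ Φ ⊔ Algebra.adjoin K {e + c • u} := fun i =>
    mul_mem ((le_sup_left : Φ ≤ _) (hφ i)) (pow_mem
      ((le_sup_right : Algebra.adjoin K {e + c • u} ≤ Φ ⊔ Algebra.adjoin K {e + c • u})
      (Algebra.self_mem_adjoin_singleton K _)) _)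
  have h2 : LinearIndependent K (fun i => (⟨φ i * (e + c • u) ^ j i, hmem i⟩ :
      ↥(Φ ⊔ Algebra.adjoin K {e + c • u}))) := by
    apply LinearIndependent.of_comp (Subalgebra.toSubmodule
      (Φ ⊔ Algebra.adjoin K {e + c • u})).subtype
    exact hli'
  have h3 := h2.fintype_card_le_finrank
  rw [Fintype.card_fin] at h3
  omega

variable [NoZeroDivisors A] [Nontrivial A]

/-- inverses in finite-dimensional subalgebras of domains -/
theorem kpr_exists_inv (B : Subalgebra K A) (hB : FiniteDimensional K B) (x : A) (hx : x ∈ B)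
    (hx0 : x ≠ 0) : ∃ y ∈ B, x * y = 1 ∧ y * x = 1 := by
  let f : B →ₗ[K] B := LinearMap.mulLeft K (⟨x, hx⟩ : B)
  have hf : Function.Injective f := by
    rw [injective_iff_map_eq_zero]
    intro y hy
    have h1 : x * (y : A) = 0 := congrArg Subtype.val hy
    exact Subtype.ext ((mul_eq_zero.1 h1).resolve_left hx0)
  obtain ⟨y, hy⟩ := (LinearMap.injective_iff_surjective.1 hf) 1
  have h1 : x * (y : A) = 1 := congrArg Subtype.val hy
  refine ⟨y, y.2, h1, ?_⟩
  have h2 : x * ((y : A) * x - 1) = 0 := by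
    rw [mul_sub, ← mul_assoc, h1, one_mul, mul_one, sub_self]
  exact sub_eq_zero.1 ((mul_eq_zero.1 h2).resolve_left hx0)

/-- minimal relation of `e` over `Φ` -/
theorem kpr_min_rel (Φ N : Subalgebra K A) (hN : FiniteDimensional K N) (hΦ : Φ ≤ N) (e : A)
    (heN : e ∈ N) :
    ∃ (n : ℕ) (a : ℕ → A), 1 ≤ n ∧ (∀ j, a j ∈ Φ) ∧
      e ^ n + ∑ j ∈ Finset.range n, a j * e ^ j = 0 ∧
      ∀ b : ℕ → A, (∀ j, b j ∈ Φ) → ∑ j ∈ Finset.range n, b j * e ^ j = 0 →
        ∀ j < n, b j = 0 := by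
  classical
  have hex : ∃ n : ℕ, ∃ a : ℕ → A, (∀ j, a j ∈ Φ) ∧
      e ^ n + ∑ j ∈ Finset.range n, a j * e ^ j = 0 := by
    have hint : IsIntegral K (⟨e, heN⟩ : N) := Algebra.IsIntegral.isIntegral _
    set p := minpoly K (⟨e, heN⟩ : N) with hp
    have hpm : p.Monic := minpoly.monic hint
    have h0 : Polynomial.aeval e p = 0 := by
      have h1 := minpoly.aeval K (⟨e, heN⟩ : N)
      have h2 := congrArg N.val h1
      rw [← Polynomial.aeval_algHom_apply, map_zero] at h2
      exact h2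
    refine ⟨p.natDegree, fun j => algebraMap K A (p.coeff j),
      fun j => Subalgebra.algebraMap_mem Φ _, ?_⟩
    rw [Polynomial.aeval_eq_sum_range, Finset.sum_range_succ, hpm.coeff_natDegree, one_smul] at h0
    rw [add_comm, ← h0]
    congr 1
    refine Finset.sum_congr rfl fun j _ => ?_
    rw [Algebra.smul_def]
  obtain ⟨a, ha, hrel⟩ := Nat.find_spec hex
  set n := Nat.find hex with hn
  have hn1 : 1 ≤ n := by
    by_contra hcon
    have h0 : n = 0 := by omega
    rw [h0] at hrel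
    simp at hrel
  refine ⟨n, a, hn1, ha, hrel, ?_⟩
  intro b hb hsum j hj
  by_contra hbj
  -- largest index with `b ≠ 0`
  obtain ⟨m, hm, hmmax⟩ : ∃ m, (m < n ∧ b m ≠ 0) ∧ ∀ i, i < n → b i ≠ 0 → i ≤ m := by
    have hne : ((Finset.range n).filter fun i => b i ≠ 0).Nonempty :=
      ⟨j, Finset.mem_filter.2 ⟨Finset.mem_range.2 hj, hbj⟩⟩
    refine ⟨((Finset.range n).filter fun i => b i ≠ 0).max' hne, ?_, ?_⟩
    · have := Finset.max'_mem _ hne
      rw [Finset.mem_filter, Finset.mem_range] at this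
      exact this
    · intro i hi hbi
      exact Finset.le_max' _ _ (Finset.mem_filter.2 ⟨Finset.mem_range.2 hi, hbi⟩)
  have hsum' : ∑ i ∈ Finset.range (m + 1), b i * e ^ i = 0 := by
    rw [← hsum]
    refine Finset.sum_subset (Finset.range_mono (by omega)) ?_
    intro i hi hi'
    have h1 : b i = 0 := by
      by_contra hbi
      have := hmmax i (Finset.mem_range.1 hi) hbi
      exact hi' (Finset.mem_range.2 (by omega))
    rw [h1, zero_mul]
  obtain ⟨y, hy, -, hyb⟩ := kpr_exists_inv Φ (kpr_fd_of_le Φ N hΦ hN) (b m) (hb m) hm.2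
  refine Nat.find_min hex hm.1 ⟨fun i => y * b i, fun i => mul_mem hy (hb i), ?_⟩
  rw [Finset.sum_range_succ] at hsum'
  have h2 := congrArg (fun x => y * x) hsum'
  simp only [mul_add, mul_zero, Finset.mul_sum, ← mul_assoc, hyb, one_mul] at h2
  rw [add_comm, ← h2]

end

end Crest.Agent.KP
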