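import Crest.Agent.KPG_D3
import Crest.Agent.KPR_Rank

/-!
# S0270, part (G)-algebra (author helper47): adj
-/

set_option autoImplicit false
set_option linter.unusedSectionVars false

open scoped symmDiff
open Module

namespace Crest.Agent.KP

variable {K : Type} [Field K] [KF K]

/-- `adj Φ x` is generated by `Φ` and `x`. -/
theorem kpg_adj_le {Φ Ψ : Subalgebra K (QA K)} {x : QA K} (h : Φ ≤ Ψ) (hx : x ∈ Ψ) :
    adj Φ x ≤ Ψ := by
  unfold adj
  refine Algebra.adjoin_le ?_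
  rintro y (hy | hy)
  · exact h hy
  · rw [Set.mem_singleton_iff] at hy
    rw [hy]
    exact hx

theorem kpg_le_adj {Φ : Subalgebra K (QA K)} {x : QA K} : Φ ≤ adj Φ x :=
  fun _ hφ => Algebra.subset_adjoin (Or.inl hφ)

theorem kpg_mem_adj {Φ : Subalgebra K (QA K)} {x : QA K} : x ∈ adj Φ x :=
  Algebra.subset_adjoin (Or.inr rfl)

/-- anything commuting with `Φ` and `x` commutes with `Φ[x]`. -/
theorem kpg_adj_cent {Φ : Subalgebra K (QA K)} {x u : QA K} (h : ∀ φ ∈ Φ, φ * u = u * φ)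
    (hx : x * u = u * x) : ∀ φ ∈ adj Φ x, φ * u = u * φ := by
  intro φ hφ
  have h1 : adj Φ x ≤ Subalgebra.centralizer K ({u} : Set (QA K)) := by
    refine kpg_adj_le ?_ ?_
    · intro ψ hψ
      rw [Subalgebra.mem_centralizer_iff]
      rintro _ rfl
      exact (h ψ hψ).symm
    · rw [Subalgebra.mem_centralizer_iff]
      rintro _ rfl
      exact hx.symm
  have h2 := h1 hφ
  rw [Subalgebra.mem_centralizer_iff] at h2
  exact (h2 u rfl).symm

/-- `Φ[x]` is commutative if `Φ` is and `x` commutes with `Φ` (`Algebra.adjoin_induction₂` or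
`Algebra.adjoinCommRingOfComm`). -/
theorem kpg_adj_comm {Φ : Subalgebra K (QA K)} {x : QA K} (h : Comm Φ)
    (hx : ∀ φ ∈ Φ, φ * x = x * φ) : Comm (adj Φ x) := by
  -- `Φ[x]` commutes with `Φ` and with `x`
  have h1 : ∀ ψ ∈ Φ, ∀ φ ∈ adj Φ x, φ * ψ = ψ * φ := fun ψ hψ =>
    kpg_adj_cent (fun φ hφ => h φ hφ ψ hψ) (hx ψ hψ).symm
  have h2 : ∀ φ ∈ adj Φ x, φ * x = x * φ := kpg_adj_cent hx rfl
  intro a ha b hb
  exact kpg_adj_cent (u := b) (fun φ hφ => (h1 φ hφ b hb).symm) (h2 b hb).symm a ha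

/-- `Φ[e] = Φ * K[e]` as spaces when `e ∈ mid k l`, `Φ ≤ lev k`; hence the dimension formula. -/
theorem kpg_adj_mid {k l : ℕ} {Φ : Subalgebra K (QA K)} (hΦ : Φ ≤ lev K k) {e : QA K}
    (he : e ∈ mid K k l) :
    Subalgebra.toSubmodule (adj Φ e) =
      Subalgebra.toSubmodule Φ * Subalgebra.toSubmodule (Algebra.adjoin K {e}) := by
  have h1 : adj Φ e = Φ ⊔ Algebra.adjoin K {e} := by
    unfold adj
    rw [Algebra.adjoin_union, Algebra.adjoin_eq]
  apply le_antisymm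
  · rw [h1, kpr_adj_span Φ e (fun φ hφ => kpg_comm (hΦ hφ) he), Submodule.span_le]
    rintro _ ⟨φ, hφ, j, rfl⟩
    exact Submodule.mul_mem_mul hφ (pow_mem (Algebra.self_mem_adjoin_singleton K e) j)
  · rw [Submodule.mul_le]
    intro m hm n hn
    rw [h1]
    exact (Φ ⊔ Algebra.adjoin K {e}).mul_mem ((le_sup_left : Φ ≤ _) hm)
      ((le_sup_right : Algebra.adjoin K {e} ≤ _) hn)

theorem kpg_adj_mid_finrank {k l : ℕ} {Φ : Subalgebra K (QA K)} (hΦ : Φ ≤ lev K k) {e : QA K}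
    (he : e ∈ mid K k l) :
    finrank K (adj Φ e) = finrank K Φ * finrank K (Algebra.adjoin K {e}) := by
  have h1 := kpg_adj_mid hΦ he
  have h2 : finrank K (adj Φ e) = finrank K (Subalgebra.toSubmodule (adj Φ e)) := rfl
  rw [h2, h1, kpg_mul_finrank (k := k) (l := l)]
  · rfl
  · exact hΦ
  · have h3 : Algebra.adjoin K {e} ≤ mid K k l :=
      Algebra.adjoin_le (Set.singleton_subset_iff.2 he)
    exact h3

end Crest.Agent.KP
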