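import Crest.Agent.KPG_D4

/-!
# S0270, part (G)-algebra (author helper47): commutative subalgebras have dimension <= 2^l
(proof by helper14)
-/

set_option autoImplicit false
set_option linter.unusedSectionVars false

open scoped symmDiff
open Module

namespace Crest.Agent.KP

/-- abstract dimension count: `Φ` a commutative subalgebra of the division algebra `D` such that
`∑ φ_i x d_i = 0` for all `x`, `φ_i ∈ Φ` linearly independent, forces `d = 0`. Then
`(dim Φ)² ≤ dim D`. -/
theorem kpg_D5_gen {K D : Type} [Field K] [Ring D] [Algebra K D] [IsDomain D]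
    [FiniteDimensional K D] (Φ : Subalgebra K D) (hc : ∀ a ∈ Φ, ∀ b ∈ Φ, a * b = b * a)
    (H : ∀ (n : ℕ) (φ : Fin n → D), (∀ i, φ i ∈ Φ) → LinearIndependent K φ →
      ∀ d : Fin n → D, (∀ x, ∑ i, φ i * x * d i = 0) → d = 0) :
    finrank K Φ * finrank K Φ ≤ finrank K D := by
  classical
  let _ : DivisionRing Φ := divisionRingOfFiniteDimensional K Φ
  have : Module.Finite Φ D := Module.Finite.of_restrictScalars_finite K Φ D
  have hmul := Module.finrank_mul_finrank K Φ D
  set n := finrank K Φ with hn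
  set m := finrank Φ D with hm
  let b := Module.finBasis Φ D
  let a := Module.finBasis K Φ
  let Ψ : (Fin n → D) →ₗ[K] (Fin m → D) :=
    { toFun := fun d j => ∑ i, (a i : D) * b j * d i
      map_add' := fun d d' => by
        funext j
        simp only [Pi.add_apply, mul_add, Finset.sum_add_distrib]
      map_smul' := fun c d => by
        funext j
        simp only [Pi.smul_apply, mul_smul_comm, Finset.smul_sum, RingHom.id_apply] }
  have hinj : Function.Injective Ψ := by
    rw [injective_iff_map_eq_zero]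
    intro d hd
    refine H n (fun i => (a i : D)) (fun i => (a i).2) ?_ d ?_
    · exact a.linearIndependent.map' Φ.val.toLinearMap
        (LinearMap.ker_eq_bot.2 Subtype.val_injective)
    · intro x
      have hx : x = ∑ j, (b.repr x j : D) * b j := by
        conv_lhs => rw [← b.sum_repr x]
        rfl
      rw [hx]
      calc ∑ i, (a i : D) * (∑ j, (b.repr x j : D) * b j) * d i
          = ∑ i, ∑ j, (b.repr x j : D) * ((a i : D) * b j * d i) := by
            refine Finset.sum_congr rfl fun i _ => ?_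
            rw [Finset.mul_sum, Finset.sum_mul]
            refine Finset.sum_congr rfl fun j _ => ?_
            rw [← mul_assoc, hc _ (a i).2 _ (b.repr x j).2]
            simp only [mul_assoc]
        _ = ∑ j, (b.repr x j : D) * ∑ i, (a i : D) * b j * d i := by
            rw [Finset.sum_comm]
            refine Finset.sum_congr rfl fun j _ => ?_
            rw [Finset.mul_sum]
        _ = 0 := by
            refine Finset.sum_eq_zero fun j _ => ?_
            have : ∑ i, (a i : D) * b j * d i = 0 := congrFun hd j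
            rw [this, mul_zero]
  have h1 := LinearMap.finrank_le_finrank_of_injective hinj
  rw [Module.finrank_pi_fintype, Module.finrank_pi_fintype, Finset.sum_const, Finset.sum_const,
    Finset.card_univ, Finset.card_univ, Fintype.card_fin, Fintype.card_fin, smul_eq_mul,
    smul_eq_mul] at h1
  have hpos : 0 < finrank K D := Module.finrank_pos
  have h2 : n ≤ m := Nat.le_of_mul_le_mul_right h1 hpos
  calc n * n ≤ n * m := Nat.mul_le_mul_left _ h2
    _ = finrank K D := hmul

variable {K : Type} [Field K] [KF K]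

/-- index set of `lev l` -/
def kpgG (l : ℕ) : Finset Gp := (Finset.range l).powerset ×ˢ (Finset.range l).powerset

theorem kpg_mem_G {l : ℕ} {g : Gp} : g ∈ kpgG l ↔ inLow l g := by
  unfold kpgG inLow
  rw [Finset.mem_product, Finset.mem_powerset, Finset.mem_powerset]

theorem kpg_card_G (l : ℕ) : (kpgG l).card = 4 ^ l := by
  unfold kpgG
  rw [Finset.card_product, Finset.card_powerset, Finset.card_range, ← mul_pow]
  norm_num

theorem kpg_gx_mem_G {l : ℕ} {g h : Gp} (hg : g ∈ kpgG l) (hh : h ∈ kpgG l) :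
    gx g h ∈ kpgG l := by
  rw [kpg_mem_G] at *
  exact (kpg_inLow_gx hg).2 hh

/-- Casimir average -/
noncomputable def kpgCas (l : ℕ) (x : QA K) : QA K :=
  ∑ g ∈ kpgG l, (coc K g g)⁻¹ • (QA.e g * x * QA.e g)

theorem kpg_coc_rel (k g : Gp) :
    coc K k g * coc K (gx k g) (gx k g) = coc K g g * coc K (gx k g) k := by
  have h1 := QA.coc_assoc (R := K) k g (gx g k)
  have h2 := QA.coc_assoc (R := K) g g k
  have h3 := QA.coc_assoc (R := K) g k k
  rw [kpa_gx_comm g k, kpa_gx_comm g (gx k g), kpa_gx_cancel] at h1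
  rw [kpa_gx_self, QA.coc_one_left, mul_one, kpa_gx_comm g k] at h2
  rw [kpa_gx_self, QA.coc_one_right, mul_one, kpa_gx_comm g k] at h3
  have h4 : coc K g k ≠ 0 := kpa_coc_ne g k
  apply mul_left_cancel₀ h4
  rw [h1, h2]
  linear_combination (-(coc K g k * coc K g (gx k g))) * h3

theorem kpg_cas_comm {l : ℕ} {k : Gp} (hk : k ∈ kpgG l) (x : QA K) :
    QA.e k * kpgCas l x = kpgCas l x * QA.e k := by
  unfold kpgCas
  rw [Finset.mul_sum, Finset.sum_mul]
  refine Finset.sum_nbij' (fun g => gx k g) (fun g => gx k g) (fun g hg => kpg_gx_mem_G hk hg)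
    (fun g hg => kpg_gx_mem_G hk hg) (fun g _ => ?_) (fun g _ => ?_) (fun g _ => ?_)
  · show gx k (gx k g) = g
    rw [← QA.gx_assoc, kpa_gx_self, QA.gx_one_left]
  · show gx k (gx k g) = g
    rw [← QA.gx_assoc, kpa_gx_self, QA.gx_one_left]
  · have e1 : (QA.e k : QA K) * QA.e g = coc K k g • QA.e (gx k g) := kpg_e_mul k g
    have e2 : (QA.e (gx k g) : QA K) * QA.e k = coc K (gx k g) k • QA.e g := by
      rw [kpg_e_mul, kpa_gx_comm k g, kpa_gx_cancel]
    have n1 : coc K g g ≠ 0 := kpa_coc_ne g g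
    have n2 : coc K (gx k g) (gx k g) ≠ 0 := kpa_coc_ne _ _
    have rel := kpg_coc_rel (K := K) k g
    have l1 : QA.e k * ((coc K g g)⁻¹ • (QA.e g * x * QA.e g)) =
        ((coc K g g)⁻¹ * coc K k g) • (QA.e (gx k g) * x * QA.e g) := by
      rw [mul_smul_comm, mul_assoc (QA.e g) x, ← mul_assoc (QA.e k), e1, smul_mul_assoc, smul_smul,
        mul_assoc (QA.e (gx k g))]
    have l2 : (coc K (gx k g) (gx k g))⁻¹ • (QA.e (gx k g) * x * QA.e (gx k g)) * QA.e k =
        ((coc K (gx k g) (gx k g))⁻¹ * coc K (gx k g) k) • (QA.e (gx k g) * x * QA.e g) := by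
      rw [smul_mul_assoc, mul_assoc _ (QA.e (gx k g)) (QA.e k), e2, mul_smul_comm, smul_smul]
    rw [l1, l2]
    congr 1
    field_simp
    linear_combination rel

theorem kpg_cas_mem {l : ℕ} {x : QA K} (hx : x ∈ lev K l) : kpgCas l x ∈ lev K l := by
  unfold kpgCas
  refine Subalgebra.sum_mem _ fun g hg => Subalgebra.smul_mem _ ?_ _
  have := kpg_e_mem_lev (K := K) (kpg_mem_G.1 hg)
  exact Subalgebra.mul_mem _ (Subalgebra.mul_mem _ this hx) this

theorem kpg_cas_tr {l : ℕ} (x : QA K) : QA.tr (kpgCas l x) = (4 : K) ^ l * QA.tr x := by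
  unfold kpgCas
  rw [map_sum]
  have : ∀ g ∈ kpgG l, QA.tr ((coc K g g)⁻¹ • (QA.e g * x * QA.e g)) = QA.tr x := by
    intro g _
    rw [map_smul, kpa_tr_comm, ← mul_assoc, kpg_e_mul, kpa_gx_self, smul_mul_assoc, map_smul,
      ← QA.one_def, one_mul, smul_smul, inv_mul_cancel₀ (kpa_coc_ne g g), one_smul]
  rw [Finset.sum_congr rfl this, Finset.sum_const, kpg_card_G, nsmul_eq_mul]
  push_cast
  rfl

theorem kpg_center {l : ℕ} {u : QA K} (hu : u ∈ lev K l)
    (h : ∀ k ∈ kpgG l, QA.e k * u = u * QA.e k) : u = QA.tr u • (1 : QA K) := by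
  apply QA.q_ext
  intro g
  rw [QA.q_smul_apply, QA.one_def', QA.ec_apply]
  by_cases hg : (∅, ∅) = g
  · rw [if_pos hg, ← hg, kpa_tr_apply, smul_eq_mul, mul_one]
  · rw [if_neg hg, smul_zero]
    by_contra hug
    have hgG := hu g hug
    have key : ∀ k : Gp, k ∈ kpgG l → coc K g k = coc K k g := by
      intro k hk
      have h1 : (QA.e k * u : QA K) (gx g k) = (u * QA.e k : QA K) (gx g k) := by rw [h k hk]
      rw [kpa_mul_e_apply, QA.e_eq_ec, kpa_ec_mul_apply, kpa_gx_cancel, one_mul] at h1
      exact (mul_right_cancel₀ hug h1).symm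
    by_cases h1 : g.1 = ∅
    · have h2 : g.2 ≠ ∅ := fun h2 => hg (Prod.ext h1.symm h2.symm)
      obtain ⟨s, hs⟩ := Finset.nonempty_iff_ne_empty.2 h2
      have hk : ((({s} : Finset ℕ), (∅ : Finset ℕ)) : Gp) ∈ kpgG l := by
        rw [kpg_mem_G]
        refine ⟨?_, Finset.empty_subset _⟩
        intro t ht
        rw [Finset.mem_singleton] at ht
        subst ht
        exact Finset.mem_range.2 (hgG.2 hs)
      have h3 := key _ hk
      have hc : coc K g (({s}, ∅) : Gp) = -coc K (({s}, ∅) : Gp) g := by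
        simp only [coc, Finset.inter_singleton_of_mem hs, Finset.card_singleton, h1,
          Finset.empty_inter, Finset.inter_empty, Finset.prod_empty, Finset.card_empty]
        ring
      have h4 := kpa_coc_ne (K := K) (({s}, ∅) : Gp) g
      rw [hc] at h3
      exact h4 (self_eq_neg.1 h3.symm)
    · obtain ⟨s, hs⟩ := Finset.nonempty_iff_ne_empty.2 h1
      have hk : (((∅ : Finset ℕ), ({s} : Finset ℕ)) : Gp) ∈ kpgG l := by
        rw [kpg_mem_G]
        refine ⟨Finset.empty_subset _, ?_⟩
        intro t ht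
        rw [Finset.mem_singleton] at ht
        subst ht
        exact Finset.mem_range.2 (hgG.1 hs)
      have h3 := key _ hk
      have hc : coc K (((∅ : Finset ℕ), {s}) : Gp) g = -coc K g (((∅ : Finset ℕ), {s}) : Gp) := by
        simp only [coc, Finset.singleton_inter_of_mem hs, Finset.card_singleton,
          Finset.empty_inter, Finset.inter_empty, Finset.prod_empty, Finset.card_empty]
        rw [Finset.inter_comm {s} g.2]
        ring
      have h4 := kpa_coc_ne (K := K) g (((∅ : Finset ℕ), {s}) : Gp)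
      rw [hc] at h3
      exact h4 (self_eq_neg.1 h3)

theorem kpg_cas_eq {l : ℕ} {x : QA K} (hx : x ∈ lev K l) :
    kpgCas l x = ((4 : K) ^ l * QA.tr x) • (1 : QA K) := by
  rw [← kpg_cas_tr]
  exact kpg_center (kpg_cas_mem hx) fun k hk => kpg_cas_comm hk x

/-- linear independence of the operators `x ↦ a x b` on `lev l` -/
theorem kpg_sandwich {l n : ℕ} (φ d : Fin n → QA K) (hφ : ∀ i, φ i ∈ lev K l)
    (hli : LinearIndependent K φ)
    (H : ∀ x ∈ lev K l, ∑ i, φ i * x * d i = 0) : d = 0 := by
  have h4 : (4 : K) ^ l ≠ 0 := pow_ne_zero _ (by norm_num)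
  have h1 : ∀ a ∈ lev K l, ∑ i, QA.tr (a * φ i) • d i = 0 := by
    intro a ha
    have h2 : ∑ i, kpgCas l (a * φ i) * d i = 0 := by
      unfold kpgCas
      calc ∑ i, (∑ g ∈ kpgG l, (coc K g g)⁻¹ • (QA.e g * (a * φ i) * QA.e g)) * d i
          = ∑ g ∈ kpgG l, (coc K g g)⁻¹ • (QA.e g * a * ∑ i, φ i * QA.e g * d i) := by
            simp only [Finset.sum_mul]
            rw [Finset.sum_comm]
            refine Finset.sum_congr rfl fun g _ => ?_
            rw [Finset.mul_sum, Finset.smul_sum]
            refine Finset.sum_congr rfl fun i _ => ?_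
            rw [smul_mul_assoc]
            simp only [mul_assoc]
        _ = 0 := by
            refine Finset.sum_eq_zero fun g hg => ?_
            rw [H _ (kpg_e_mem_lev (kpg_mem_G.1 hg)), mul_zero, smul_zero]
    have h3 : ∑ i, kpgCas l (a * φ i) * d i = (4 : K) ^ l • ∑ i, QA.tr (a * φ i) • d i := by
      rw [Finset.smul_sum]
      refine Finset.sum_congr rfl fun i _ => ?_
      rw [kpg_cas_eq (Subalgebra.mul_mem _ ha (hφ i)), smul_mul_assoc, one_mul, smul_smul]
    rw [h3] at h2
    exact (smul_eq_zero.1 h2).resolve_left h4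
  have h5 : ∀ h : Gp, ∑ i, d i h • φ i = 0 := by
    intro h
    refine kpa_lev_nondeg (Subalgebra.sum_mem _ fun i _ => Subalgebra.smul_mem _ (hφ i) _)
      fun a ha => ?_
    rw [kpa_tr_comm, Finset.mul_sum, map_sum]
    have h6 : (∑ i, QA.tr (a * φ i) • d i : QA K) h = 0 := by
      rw [h1 a ha]; rfl
    have h7 : (∑ i, QA.tr (a * φ i) • d i : QA K) h = ∑ i, QA.tr (a * φ i) * d i h :=
      Finsupp.finsetSum_apply (N := K) Finset.univ
        (fun i => (QA.tr (a * φ i) • d i : QA K)) h
    rw [← h6, h7]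
    refine Finset.sum_congr rfl fun i _ => ?_
    rw [mul_smul_comm, map_smul, smul_eq_mul, mul_comm]
  rw [Fintype.linearIndependent_iff] at hli
  funext i
  exact QA.q_ext fun h => hli _ (h5 h) i

/-- a commutative subalgebra of `lev l` has dimension `≤ 2^l`.
Proof: let `φ_i` be a basis of `Φ`, `φ^i` the dual basis for the trace form on `Φ`
(nondegenerate by `kpg_nondeg`), `n = dim Φ`. The operator `T u = ∑ φ_i u φ^i` on `lev l` has image in
the centralizer `C` of `Φ` and is multiplication by `κ = ∑ φ_i φ^i` on `C`.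
`κ = n`: `tr(κ φ) = Tr(m_φ | Φ)`, and `n * Tr(L_φ | lev l) = 4^l * Tr(m_φ | Φ)` because `lev l` is free
over `Φ`, `Tr(L_φ | lev l) = 4^l tr φ`.  So `T/n` is a projection on `C`, its trace is
`dim C = (1/n) ∑ 4^l tr(φ_i) tr(φ^i) = 4^l / n` (trace of `u ↦ a u b` on `lev l` is `4^l tr a tr b`;
`∑ tr(φ_i) φ^i = 1`).  `Φ ≤ C` gives `n ≤ 4^l/n`. (This is also (0.3) of P1, part (A).)
(Proof given here: `kpg_sandwich` and `kpg_D5_gen`.) -/
theorem kpg_comm_le {l : ℕ} (Φ : Subalgebra K (QA K)) (hΦ : Φ ≤ lev K l) (hc : Comm Φ) :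
    finrank K Φ ≤ 2 ^ l := by
  have hdom : IsDomain (lev K l) := by
    have : IsDomain (QA K) := NoZeroDivisors.to_isDomain _
    infer_instance
  let Φ' : Subalgebra K (lev K l) := Φ.comap (lev K l).val
  have hmap : Φ'.map (lev K l).val = Φ := by
    apply le_antisymm
    · exact Subalgebra.map_le.2 le_rfl
    · intro x hx
      exact ⟨⟨x, hΦ hx⟩, hx, rfl⟩
  have e1 : finrank K Φ' = finrank K Φ := by
    have e2 := (Φ'.equivMapOfInjective (lev K l).val Subtype.val_injective).toLinearEquiv.finrank_eq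
    rw [hmap] at e2
    exact e2
  have h1 := kpg_D5_gen Φ' (fun a ha b hb => Subtype.ext (hc _ ha _ hb)) (by
    intro n φ hφ hli d H
    have h2 := kpg_sandwich (l := l) (fun i => (φ i : QA K)) (fun i => (d i : QA K))
      (fun i => (φ i).2)
      (hli.map' (lev K l).val.toLinearMap (LinearMap.ker_eq_bot.2 Subtype.val_injective)) (by
        intro x hx
        have h3 := congrArg Subtype.val (H ⟨x, hx⟩)
        rw [AddSubmonoidClass.coe_finsetSum] at h3
        exact h3)
    funext i
    exact Subtype.ext (congrFun h2 i))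
  rw [e1, kpa_finrank_lev] at h1
  have h2 : finrank K Φ ^ 2 ≤ (2 ^ l) ^ 2 := by
    rw [pow_two, ← pow_mul, mul_comm l 2, pow_mul]
    norm_num
    exact h1
  exact (Nat.pow_le_pow_iff_left (by norm_num)).1 h2

end Crest.Agent.KP
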