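import Crest.Agent.KP_Defs3

/-!
# S0270, part (G)-algebra (author helper47): definitions

Partial trace `ptr k : QA K → lev K k`, the elements `qi i = i_i + ρ j_i`, `qs = ∑_{i∈[k0,l)} qi i` and the
tower `QL Φ ρ k0 h = Φ[q_{k0},…,q_{k0+h-1}]`.  Everything is over an arbitrary good field `K` (`KF K`);
`Φ` is always a commutative subalgebra of `lev K k0`.
Paper proof: notes rid=S0270, P3 (G); see the docstrings of the files KPG_*.
-/

set_option autoImplicit false
set_option linter.unusedSectionVars false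

namespace Crest.Agent.KP

/-- indices inside `[0,k)` -/
def inLow (k : ℕ) (g : Gp) : Prop := g.1 ⊆ Finset.range k ∧ g.2 ⊆ Finset.range k

instance (k : ℕ) : DecidablePred (inLow k) := fun g => by
  unfold inLow; infer_instance

/-- partial trace onto `lev K k`: keep the coefficients of the `e g` with `g` inside `[0,k)`. -/
noncomputable def ptr {K : Type} [Field K] (k : ℕ) : QA K →ₗ[K] QA K where
  toFun u := (Finsupp.filter (inLow k) (u : Gp →₀ K) : Gp →₀ K)
  map_add' := fun _ _ => Finsupp.filter_add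
  map_smul' := fun _ _ => Finsupp.filter_smul

theorem ptr_apply {K : Type} [Field K] (k : ℕ) (u : QA K) (g : Gp) :
    (ptr k u) g = if inLow k g then u g else 0 := by
  exact Finsupp.filter_apply (inLow k) (u : Gp →₀ K) g

/-- commutative subalgebra -/
def Comm {K : Type} [Field K] [KF K] (Φ : Subalgebra K (QA K)) : Prop :=
  ∀ a ∈ Φ, ∀ b ∈ Φ, a * b = b * a

/-- `Φ[x]` -/
noncomputable def adj {K : Type} [Field K] [KF K] (Φ : Subalgebra K (QA K)) (x : QA K) :
    Subalgebra K (QA K) := Algebra.adjoin K ((Φ : Set (QA K)) ∪ {x})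

/-- `q_i = i_i + ρ j_i` -/
noncomputable def qi {K : Type} [Field K] [KF K] (ρ : QA K) (i : ℕ) : QA K := S1 i + ρ * S2 i

/-- `q = ∑_{i<h} q_{k0+i}` -/
noncomputable def qs {K : Type} [Field K] [KF K] (ρ : QA K) (k0 h : ℕ) : QA K :=
  ∑ i ∈ Finset.range h, qi ρ (k0 + i)

/-- the tower `Φ[q_{k0},…,q_{k0+h-1}]` -/
noncomputable def QL {K : Type} [Field K] [KF K] (Φ : Subalgebra K (QA K)) (ρ : QA K) (k0 : ℕ) :
    ℕ → Subalgebra K (QA K)
  | 0 => Φ
  | h + 1 => adj (QL Φ ρ k0 h) (qi ρ (k0 + h))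

end Crest.Agent.KP
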