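import Crest.Agent.KP_Defs3

/-!
# S0270, part (E) (helper43), file 3: renaming and change of coefficients of nc polynomials
-/

set_option autoImplicit false
set_option linter.unusedSectionVars false
set_option maxHeartbeats 400000

open scoped PowerSeries LaurentSeries symmDiff

namespace Crest.Agent.KP
namespace NC

variable {R R' R'' I I' A A' : Type} [CommRing R] [CommRing R'] [Ring A] [Algebra R A] [Ring A']
  [Algebra R' A']

theorem kpx_map_map (f : R → R') (g : R' → R'') (p : NC R I) : (p.map f).map g = p.map (g ∘ f) := by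
  induction p with
  | cst c => rfl
  | var i => rfl
  | add p q hp hq => simp only [map, hp, hq]
  | mul p q hp hq => simp only [map, hp, hq]

theorem kpx_map_id (p : NC R I) : p.map (fun c => c) = p := by
  induction p with
  | cst c => rfl
  | var i => rfl
  | add p q hp hq => simp only [map, hp, hq]
  | mul p q hp hq => simp only [map, hp, hq]

theorem kpx_map_ren (f : R → R') (g : I → I') (p : NC R I) : (p.ren g).map f = (p.map f).ren g := by
  induction p with
  | cst c => rfl
  | var i => rfl
  | add p q hp hq => simp only [map, ren, hp, hq]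
  | mul p q hp hq => simp only [map, ren, hp, hq]

theorem kpx_ev_ren (g : I → I') (p : NC R I) (X : I' → A) : (p.ren g).ev X = p.ev (fun i => X (g i)) := by
  induction p with
  | cst c => rfl
  | var i => rfl
  | add p q hp hq => simp only [ev, ren, hp, hq]
  | mul p q hp hq => simp only [ev, ren, hp, hq]

theorem kpx_d1_ren (g : I → I') (p : NC R I) (X v : I' → A) :
    (p.ren g).d1 X v = p.d1 (fun i => X (g i)) (fun i => v (g i)) := by
  induction p with
  | cst c => rfl
  | var i => rfl
  | add p q hp hq => simp only [d1, ren, hp, hq]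
  | mul p q hp hq => simp only [d1, ren, hp, hq, kpx_ev_ren]

theorem kpx_d2_ren (g : I → I') (p : NC R I) (X v v' : I' → A) :
    (p.ren g).d2 X v v' = p.d2 (fun i => X (g i)) (fun i => v (g i)) (fun i => v' (g i)) := by
  induction p with
  | cst c => rfl
  | var i => rfl
  | add p q hp hq => simp only [d2, ren, hp, hq]
  | mul p q hp hq => simp only [d2, ren, hp, hq, kpx_ev_ren, kpx_d1_ren]

/-- evaluation commutes with ring homs compatible with the coefficients -/
theorem kpx_hom_ev (f : R → R') (φ : A →+* A') (hf : ∀ c, φ (algebraMap R A c) = algebraMap R' A' (f c))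
    (p : NC R I) (X : I → A) : φ (p.ev X) = (p.map f).ev (fun i => φ (X i)) := by
  induction p with
  | cst c => exact hf c
  | var i => rfl
  | add p q hp hq => simp only [ev, map, map_add, hp, hq]
  | mul p q hp hq => simp only [ev, map, map_mul, hp, hq]

theorem kpx_hom_d1 (f : R → R') (φ : A →+* A') (hf : ∀ c, φ (algebraMap R A c) = algebraMap R' A' (f c))
    (p : NC R I) (X v : I → A) :
    φ (p.d1 X v) = (p.map f).d1 (fun i => φ (X i)) (fun i => φ (v i)) := by
  induction p with
  | cst c => simp only [d1, map, map_zero]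
  | var i => rfl
  | add p q hp hq => simp only [d1, map, map_add, hp, hq]
  | mul p q hp hq => simp only [d1, map, map_add, map_mul, hp, hq, kpx_hom_ev f φ hf]

theorem kpx_hom_d2 (f : R → R') (φ : A →+* A') (hf : ∀ c, φ (algebraMap R A c) = algebraMap R' A' (f c))
    (p : NC R I) (X v v' : I → A) :
    φ (p.d2 X v v') = (p.map f).d2 (fun i => φ (X i)) (fun i => φ (v i)) (fun i => φ (v' i)) := by
  induction p with
  | cst c => simp only [d2, map, map_zero]
  | var i => simp only [d2, map, map_zero]
  | add p q hp hq => simp only [d2, map, map_add, hp, hq]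
  | mul p q hp hq =>
    simp only [d2, map, map_add, map_mul, hp, hq, kpx_hom_ev f φ hf, kpx_hom_d1 f φ hf]

/-- values of nc polynomials at points of a subalgebra -/
theorem kpx_ev_mem (B : Subalgebra R A) (p : NC R I) (X : I → A) (hX : ∀ i, X i ∈ B) : p.ev X ∈ B := by
  induction p with
  | cst c => exact B.algebraMap_mem c
  | var i => exact hX i
  | add p q hp hq => exact B.add_mem hp hq
  | mul p q hp hq => exact B.mul_mem hp hq

theorem kpx_d1_mem (B : Subalgebra R A) (p : NC R I) (X v : I → A) (hX : ∀ i, X i ∈ B)
    (hv : ∀ i, v i ∈ B) : p.d1 X v ∈ B := by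
  induction p with
  | cst c => exact B.zero_mem
  | var i => exact hv i
  | add p q hp hq => exact B.add_mem hp hq
  | mul p q hp hq =>
    exact B.add_mem (B.mul_mem hp (kpx_ev_mem B q X hX)) (B.mul_mem (kpx_ev_mem B p X hX) hq)

theorem kpx_d2_mem (B : Subalgebra R A) (p : NC R I) (X v v' : I → A) (hX : ∀ i, X i ∈ B)
    (hv : ∀ i, v i ∈ B) (hv' : ∀ i, v' i ∈ B) : p.d2 X v v' ∈ B := by
  induction p with
  | cst c => exact B.zero_mem
  | var i => exact B.zero_mem
  | add p q hp hq => exact B.add_mem hp hq
  | mul p q hp hq =>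
    exact B.add_mem (B.add_mem (B.mul_mem hp (kpx_ev_mem B q X hX))
      (B.mul_mem (kpx_d1_mem B p X v hX hv) (kpx_d1_mem B q X v' hX hv')))
      (B.mul_mem (kpx_ev_mem B p X hX) hq)

end NC
end Crest.Agent.KP
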