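import Crest.Agent.KP_Defs3
import Crest.Agent.KPX_NC

/-!
# S0270, part (E) (helper43), file 6: forgetting the variables `g`, `f`.
-/

set_option autoImplicit false
set_option linter.unusedSectionVars false
set_option maxHeartbeats 400000

open scoped PowerSeries LaurentSeries symmDiff

namespace Crest.Agent.KP

variable {K L : Type} [Field K] [Field L] [KF K] [KF L] {I J : Type} [Fintype I] [Fintype J]

theorem kpx_funLeft_mulR {I' : Type} (f : I → I') (e : QA K) (V : Submodule K (I' → QA K)) :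
    (V.map (mulR e)).map (LinearMap.funLeft K (QA K) f) =
      (V.map (LinearMap.funLeft K (QA K) f)).map (mulR e) := by
  rw [← Submodule.map_comp, ← Submodule.map_comp]
  rfl

theorem kpx_funLeft_mulE {I' : Type} (f : I → I') (k : ℕ) (V : Submodule K (I' → QA K)) :
    (mulE k V).map (LinearMap.funLeft K (QA K) f) =
      mulE k (V.map (LinearMap.funLeft K (QA K) f)) := by
  unfold mulE
  rw [Submodule.map_sup, Submodule.map_sup, Submodule.map_sup, kpx_funLeft_mulR, kpx_funLeft_mulR,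
    kpx_funLeft_mulR]

theorem kpx_funLeft_extV {I' : Type} (f : I → I') (V : Submodule K (I' → QA K)) :
    (extV V).map (LinearMap.funLeft K⸨X⸩ (QA K⸨X⸩) f) =
      extV (V.map (LinearMap.funLeft K (QA K) f)) := by
  unfold extV
  rw [Submodule.map_span]
  congr 1
  ext w
  constructor
  · rintro ⟨_, ⟨v, hv, rfl⟩, rfl⟩
    exact ⟨fun i => v (f i), ⟨v, hv, rfl⟩, rfl⟩
  · rintro ⟨_, ⟨v, hv, rfl⟩, rfl⟩
    exact ⟨_, ⟨v, hv, rfl⟩, rfl⟩

/-- the data of a state of `S⁺` needed to forget -/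
structure Pt.FInv (s : Pt K I J) (P : Place K L) (t : Pt L (I ⊕ Bool) (Option J)) : Prop where
  x : t.x = Sum.inl s.x
  y : t.y = Sum.inl s.y
  F : ∀ j, t.F (some j) = ((s.F j).map P.inc).ren Sum.inl

namespace Pt

theorem kpx_finv (s : Pt K I J) (w : NC K I) (a : QA K) (m0 : Submodule K (QA K))
    (L : Type) (iF : Field L) (iK : KF L) (t : Pt L (I ⊕ Bool) (Option J)) (P : Place K L)
    (ht : Rch (s.ext w a m0) L iF iK t P) : s.FInv P t := by
  induction ht with
  | refl =>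
    refine ⟨rfl, rfl, fun j => ?_⟩
    change (s.F j).ren Sum.inl = ((s.F j).map (fun c => c)).ren Sum.inl
    rw [NC.kpx_map_id]
  | curve K' iF iK t P _ T hT ih =>
    refine ⟨ih.x, ih.y, fun j => ?_⟩
    change (t.F (some j)).map (algebraMap K' K'⸨X⸩) = _
    rw [ih.F j, NC.kpx_map_ren, NC.kpx_map_map]
    rfl
  | grow K' iF iK t P _ T w1 w2 hT ih =>
    refine ⟨ih.x, ih.y, fun j => ?_⟩
    change (t.F (some j)).map (algebraMap K' K'⸨X⸩) = _
    rw [ih.F j, NC.kpx_map_ren, NC.kpx_map_map]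
    rfl

theorem kpx_fgt_base (s : Pt K I J) (w : NC K I) (a : QA K) (m0 : Submodule K (QA K)) :
    s.fgt (Place.refl K) (s.ext w a m0) = s := by
  have hF : (fun j => (s.F j).map (Place.refl K).inc) = s.F := by
    funext j
    exact NC.kpx_map_id _
  have aux : ∀ (V : Submodule K (I → QA K)) (G F : Submodule K (QA K)),
      (V.comap (LinearMap.funLeft K (QA K) Sum.inl) ⊓
        G.comap (LinearMap.proj (R := K) (φ := fun _ : I ⊕ Bool => QA K) (Sum.inr false)) ⊓
        F.comap (LinearMap.proj (R := K) (φ := fun _ : I ⊕ Bool => QA K) (Sum.inr true))).map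
        (LinearMap.funLeft K (QA K) Sum.inl) = V := by
    intro V G F
    ext v
    constructor
    · rintro ⟨u, ⟨⟨h1, h2⟩, h3⟩, rfl⟩
      exact h1
    · intro hv
      refine ⟨Sum.elim v (fun _ => 0), ⟨⟨?_, ?_⟩, ?_⟩, ?_⟩
      · exact hv
      · exact G.zero_mem
      · exact F.zero_mem
      · rfl
  unfold Pt.fgt Pt.ext
  simp only
  rw [hF, aux, aux]
  rfl

theorem kpx_fgt_curve (s : Pt K I J) (P : Place K L) (t : Pt L (I ⊕ Bool) (Option J))
    (T : I ⊕ Bool → QA L⟦X⟧) :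
    s.fgt (L := L⸨X⸩) (P.trans (Place.laurent L)) (t.curve T) =
      (s.fgt P t).curve (fun i => T (Sum.inl i)) := by
  have hF : (fun j => (s.F j).map (P.trans (Place.laurent L)).inc) =
      fun j => ((s.F j).map P.inc).map (algebraMap L L⸨X⸩) := by
    funext j
    rw [NC.kpx_map_map]
    rfl
  unfold Pt.fgt Pt.curve
  simp only
  rw [hF, kpx_funLeft_extV, kpx_funLeft_extV]

theorem kpx_fgt_grow (s : Pt K I J) (P : Place K L) (t : Pt L (I ⊕ Bool) (Option J))
    (T : I ⊕ Bool → QA L⟦X⟧) :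
    s.fgt (L := L⸨X⸩) (P.trans (Place.laurent L)) (t.grow T) =
      (s.fgt P t).grow (fun i => T (Sum.inl i)) := by
  have hF : (fun j => (s.F j).map (P.trans (Place.laurent L)).inc) =
      fun j => ((s.F j).map P.inc).map (algebraMap L L⸨X⸩) := by
    funext j
    rw [NC.kpx_map_map]
    rfl
  unfold Pt.fgt Pt.grow
  simp only
  rw [hF, kpx_funLeft_extV, kpx_funLeft_extV, Submodule.map_sup, kpx_funLeft_mulE]

theorem kpx_isCurve (s : Pt K I J) (P : Place K L) (t : Pt L (I ⊕ Bool) (Option J))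
    (ht : s.FInv P t) (T : I ⊕ Bool → QA L⟦X⟧) (hT : t.IsCurve T) :
    (s.fgt P t).IsCurve (fun i => T (Sum.inl i)) := by
  refine ⟨fun j => ?_, fun i => hT.zero _, fun m hm => ?_⟩
  · have h := hT.eq (some j)
    rw [ht.F j, NC.kpx_ev_ren] at h
    exact h
  · exact ⟨_, hT.mem m hm, rfl⟩

theorem kpx_D_some' (s : Pt K I J) (P : Place K L) (t : Pt L (I ⊕ Bool) (Option J))
    (ht : s.FInv P t) (v : I ⊕ Bool → QA L) (j : J) :
    t.D v (some j) = (s.fgt P t).D (fun i => v (Sum.inl i)) j := by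
  unfold Pt.D
  rw [ht.F j, NC.kpx_d1_ren]
  rfl

theorem kpx_W_proj (s : Pt K I J) (P : Place K L) (t : Pt L (I ⊕ Bool) (Option J))
    (ht : s.FInv P t) (v : I ⊕ Bool → QA L) (hv : v ∈ t.W) :
    (fun i => v (Sum.inl i)) ∈ (s.fgt P t).W := by
  refine ⟨⟨v, hv.1, rfl⟩, ?_⟩
  have h0 : t.D v = 0 := hv.2
  change (s.fgt P t).D (fun i => v (Sum.inl i)) = 0
  funext j
  rw [← kpx_D_some' s P t ht v j, h0]
  rfl

theorem kpx_U_lift (s : Pt K I J) (P : Place K L) (t : Pt L (I ⊕ Bool) (Option J))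
    (ht : s.FInv P t) (c : J → QA L) (hc : c ∈ (s.fgt P t).U) :
    (fun j : Option J => j.elim 0 c) ∈ t.U := by
  refine ⟨?_, fun v hv => ?_⟩
  · rw [AJ, Submodule.mem_pi]
    rintro (_ | j) -
    · exact Submodule.zero_mem _
    · have := hc.1
      rw [AJ, Submodule.mem_pi] at this
      exact this j trivial
  · unfold pair
    rw [Fintype.sum_option]
    simp only [Option.elim_none, Option.elim_some, zero_mul, map_zero, zero_add]
    have h := hc.2 (fun i => v (Sum.inl i)) ⟨v, hv, rfl⟩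
    unfold pair at h
    rw [← h]
    refine Finset.sum_congr rfl fun j _ => ?_
    rw [kpx_D_some' s P t ht]

theorem kpx_B_lift (s : Pt K I J) (P : Place K L) (t : Pt L (I ⊕ Bool) (Option J))
    (ht : s.FInv P t) (c : J → QA L) (v v' : I ⊕ Bool → QA L) :
    t.B (fun j : Option J => j.elim 0 c) v v' =
      (s.fgt P t).B c (fun i => v (Sum.inl i)) (fun i => v' (Sum.inl i)) := by
  unfold B
  rw [Fintype.sum_option]
  simp only [Option.elim_none, Option.elim_some, zero_mul, map_zero, zero_add]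
  refine Finset.sum_congr rfl fun j _ => ?_
  rw [ht.F j, NC.kpx_d2_ren]
  rfl

/-- (INJ) for `S` with functionals restricted to the projection of `W(S⁺)`. -/
theorem kpx_inj_restrict (s : Pt K I J) (P : Place K L) (t : Pt L (I ⊕ Bool) (Option J))
    (ht : s.FInv P t) (w1 w2 : I ⊕ Bool → QA L) (h : t.Inj t.W w1 w2) :
    (s.fgt P t).Inj (t.W.map (LinearMap.funLeft L (QA L) Sum.inl)) (fun i => w1 (Sum.inl i))
      (fun i => w2 (Sum.inl i)) := by
  intro c1 hc1 c2 hc2 hB
  have h1 := kpx_U_lift s P t ht c1 hc1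
  have h2 := kpx_U_lift s P t ht c2 hc2
  obtain ⟨h3, h4⟩ := h _ h1 _ h2 (fun v hv => by
    rw [kpx_B_lift s P t ht, kpx_B_lift s P t ht]
    exact hB _ ⟨v, hv, rfl⟩)
  exact ⟨funext fun j => congrFun h3 (some j), funext fun j => congrFun h4 (some j)⟩

theorem kpx_isGrowth (s : Pt K I J) (P : Place K L) (t : Pt L (I ⊕ Bool) (Option J))
    (ht : s.FInv P t) (T : I ⊕ Bool → QA L⟦X⟧) (w1 w2 : I ⊕ Bool → QA L)
    (hT : t.IsGrowth T w1 w2) :
    (s.fgt P t).IsGrowth (fun i => T (Sum.inl i)) (fun i => w1 (Sum.inl i))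
      (fun i => w2 (Sum.inl i)) := by
  refine ⟨fun j => ?_, fun i => hT.zero _, fun m hm => ?_, fun i => hT.one _, ?_, ?_, ?_, ?_⟩
  · have h := hT.eq (some j)
    rw [ht.F j, NC.kpx_ev_ren] at h
    exact h
  · have h : (mulE t.k t.V0 ⊔ t.V1).map (LinearMap.funLeft L (QA L) Sum.inl) =
        mulE t.k (t.V0.map (LinearMap.funLeft L (QA L) Sum.inl)) ⊔
          t.V1.map (LinearMap.funLeft L (QA L) Sum.inl) := by
      rw [Submodule.map_sup, kpx_funLeft_mulE]
    change _ ∈ mulE t.k (t.V0.map (LinearMap.funLeft L (QA L) Sum.inl)) ⊔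
          t.V1.map (LinearMap.funLeft L (QA L) Sum.inl)
    rw [← h]
    exact ⟨_, hT.mem m hm, rfl⟩
  · exact kpx_W_proj s P t ht _ hT.w1W
  · exact kpx_W_proj s P t ht _ hT.w2W
  · intro c1 hc1 c2 hc2 hB
    refine kpx_inj_restrict s P t ht w1 w2 hT.inj c1 hc1 c2 hc2 (fun v hv => ?_)
    obtain ⟨u, hu, rfl⟩ := hv
    exact hB _ (kpx_W_proj s P t ht u hu)
  · intro l1 l2 hI
    refine hT.pi l1 l2 ?_
    obtain ⟨η, hη, h1, h2⟩ := hI
    refine ⟨η, hη, ?_, ?_⟩
    · rw [ht.x]; exact h1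
    · rw [ht.y]; exact h2

theorem kpx_ext_forget (s : Pt K I J)
    (w : NC K I) (a : QA K) (m0 : Submodule K (QA K))
    (L : Type) (iF : Field L) (iK : KF L) (t : Pt L (I ⊕ Bool) (Option J)) (P : Place K L)
    (ht : Rch (s.ext w a m0) L iF iK t P) : Rch s L iF iK (s.fgt P t) P := by
  induction ht with
  | refl =>
    rw [kpx_fgt_base]
    exact Rch.refl
  | curve K' iF iK t P h T hT ih =>
    rw [kpx_fgt_curve]
    exact Rch.curve K' iF iK _ P ih _ (kpx_isCurve s P t (kpx_finv s w a m0 K' iF iK t P h) T hT)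
  | grow K' iF iK t P h T w1 w2 hT ih =>
    rw [kpx_fgt_grow]
    exact Rch.grow K' iF iK _ P ih _ _ _
      (kpx_isGrowth s P t (kpx_finv s w a m0 K' iF iK t P h) T w1 w2 hT)

end Pt

/-- forgetting: states reachable in `S⁺` forget to states reachable in `S`. -/
theorem kpx_ext_forget {K I J : Type} [Field K] [KF K] [Fintype I] [Fintype J] (s : Pt K I J)
    (w : NC K I) (a : QA K) (m0 : Submodule K (QA K)) (_hx : s.ExtOk w a m0)
    (L : Type) (iF : Field L) (iK : KF L) (t : Pt L (I ⊕ Bool) (Option J)) (P : Place K L)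
    (ht : Rch (s.ext w a m0) L iF iK t P) : Rch s L iF iK (s.fgt P t) P :=
  Pt.kpx_ext_forget s w a m0 L iF iK t P ht

end Crest.Agent.KP
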