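import Crest.Agent.KPX_State
import Crest.Agent.KPX_NC
import Crest.Agent.KPH_NC
import Crest.Agent.KPC_State
import Crest.Agent.KPG_D3

/-!
# S0270, part (E) (helper43), file 4: the invertible element `g`, the space `W(S⁺)` and the formula for
`o(S⁺)` at reachable states of `S⁺`.
-/

set_option autoImplicit false
set_option linter.unusedSectionVars false
set_option maxHeartbeats 400000

open scoped PowerSeries LaurentSeries symmDiff

namespace Crest.Agent.KP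

variable {K L M : Type} [Field K] [Field L] [Field M] [KF K] [KF L] [KF M] {I J : Type}
  [Fintype I] [Fintype J]

private theorem kpxw_qinv {u v : QA K} (h1 : u * v = 1) (h2 : v * u = 1) : qinv u = v := by
  have hex : ∃ v : QA K, u * v = 1 ∧ v * u = 1 := ⟨v, h1, h2⟩
  unfold qinv
  rw [dif_pos hex]
  have h3 := (Classical.choose_spec hex).1
  calc Classical.choose hex = (v * u) * Classical.choose hex := by rw [h2, one_mul]
    _ = v := by rw [mul_assoc, h3, mul_one]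

/-- integral element of `lev` with residue `1` is invertible (`lev k` is a f.d. domain), and the inverse
is integral with residue `1` (scale `g⁻¹`: if `c g⁻¹` is integral with nonzero residue and
`res c = 0`, then `res(c) = res (g) res(c g⁻¹)`, contradiction). -/
theorem kpx_qinv_res (P : Place K L) {k : ℕ} {g : QA L} (hg : g ∈ lev L k) (hi : P.Int g)
    (hr : P.rq g = 1) :
    qinv g ∈ lev L k ∧ g * qinv g = 1 ∧ qinv g * g = 1 ∧ P.Int (qinv g) ∧ P.rq (qinv g) = 1 := by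
  have hg0 : g ≠ 0 := by
    rintro rfl
    rw [P.rq_zero] at hr
    exact zero_ne_one hr
  obtain ⟨v, hv, h1, h2⟩ := kpa_inv_lev hg hg0
  rw [kpxw_qinv h1 h2]
  have hv0 : v ≠ 0 := by
    rintro rfl
    rw [mul_zero] at h1
    exact zero_ne_one h1
  obtain ⟨c, hc0, hc1, hc2, -⟩ := P.exists_scale_q v hv0
  have h3 : g * (c • v) = algebraMap L (QA L) c := by
    rw [mul_smul_comm, h1, Algebra.algebraMap_eq_smul_one]
  have h4 : P.Int (algebraMap L (QA L) c) := by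
    rw [← h3]
    exact P.int_mul hi hc1
  have hcO : c ∈ P.O := by
    have := P.tr_mem h4
    rwa [kpa_tr_algebraMap] at this
  have h5 : P.rq (algebraMap L (QA L) c) = P.rq (c • v) := by
    rw [← h3, P.rq_mul hi hc1, hr, one_mul]
  have hrc : P.r c ≠ 0 := by
    intro h0
    rw [P.rq_algebraMap hcO, h0, map_zero] at h5
    exact hc2 h5.symm
  obtain ⟨hci, -⟩ := P.inv_mem_of_r_ne hcO hrc
  have hvi : P.Int v := by
    have := P.int_smul hci hc1
    rwa [smul_smul, inv_mul_cancel₀ hc0, one_smul] at this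
  refine ⟨hv, h1, h2, hvi, ?_⟩
  have h6 := P.rq_mul hi hvi
  rw [h1, P.rq_one, hr, one_mul] at h6
  exact h6.symm

private theorem kpxw_finrank_map {V V' : Type} [AddCommGroup V] [Module K V] [AddCommGroup V']
    [Module K V'] (l : V →ₗ[K] V') (W : Submodule K V) [Module.Finite K W] :
    Module.finrank K (W.map l) + Module.finrank K (W ⊓ LinearMap.ker l : Submodule K V) =
      Module.finrank K W := by
  have h := LinearMap.finrank_range_add_finrank_ker (l.domRestrict W)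
  rw [LinearMap.range_domRestrict, LinearMap.ker_domRestrict] at h
  have h2 : Module.finrank K ((LinearMap.ker l).comap W.subtype) =
      Module.finrank K (W ⊓ LinearMap.ker l : Submodule K V) := by
    rw [← Submodule.map_comap_subtype]
    exact (LinearEquiv.finrank_eq (Submodule.equivMapOfInjective W.subtype
      W.injective_subtype ((LinearMap.ker l).comap W.subtype)))
  rw [h2] at h
  exact h

/-- f.d. linear algebra: `dim (W ∩ l⁻¹ F) = dim W - dim l(W) + dim (l(W) ∩ F)`. -/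
theorem kpx_finrank_comap {V V' : Type} [AddCommGroup V] [Module K V] [AddCommGroup V'] [Module K V']
    (l : V →ₗ[K] V') (W : Submodule K V) [Module.Finite K W] (F : Submodule K V') :
    Module.finrank K (W ⊓ F.comap l : Submodule K V) + Module.finrank K (W.map l) =
      Module.finrank K W + Module.finrank K (W.map l ⊓ F : Submodule K V') := by
  have h1 := kpxw_finrank_map l W
  have hf : Module.Finite K (W ⊓ F.comap l : Submodule K V) :=
    Submodule.finiteDimensional_of_le inf_le_left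
  have h2 := kpxw_finrank_map l (W ⊓ F.comap l)
  have h3 : (W ⊓ F.comap l).map l = W.map l ⊓ F := by
    ext y
    constructor
    · rintro ⟨x, ⟨hx1, hx2⟩, rfl⟩
      exact ⟨⟨x, hx1, rfl⟩, hx2⟩
    · rintro ⟨⟨x, hx1, rfl⟩, hx2⟩
      exact ⟨x, ⟨hx1, hx2⟩, rfl⟩
  have h4 : (W ⊓ F.comap l ⊓ LinearMap.ker l : Submodule K V) = W ⊓ LinearMap.ker l := by
    apply le_antisymm
    · exact inf_le_inf_right _ inf_le_left
    · refine le_inf (le_inf inf_le_left ?_) inf_le_right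
      rintro x ⟨-, hx⟩
      rw [Submodule.mem_comap, show l x = 0 from hx]
      exact F.zero_mem
  rw [h3, h4] at h2
  omega

namespace Pt

/-- rank-nullity for any state: `o + dim V0 = |J| 4^k + dim W` (the pairing is nondegenerate on `A^J`,
`U = D(V0)^⊥`). -/
theorem kpx_o_general (s : Pt K I J) (hV : ∀ v ∈ s.V0, ∀ i, v i ∈ lev K s.k)
    (hX : ∀ i, s.X i ∈ lev K s.k) :
    s.o + Module.finrank K s.V0 = Fintype.card J * 4 ^ s.k + Module.finrank K s.W := by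
  have h := KC.finrank_V0 s hX hV
  rw [KC.finrank_AJ] at h
  omega


/-! ### projections onto centralizers -/

private theorem kpxw_isPr_unique {k : ℕ} {S : Set (QA K)} {u c c' : QA K} (h : IsPr k S u c)
    (h' : IsPr k S u c') : c = c' := by
  obtain ⟨h1, h2, h3⟩ := h
  obtain ⟨h1', h2', h3'⟩ := h'
  have hc : c - c' ∈ cenA k S :=
    sub_mem (mem_cenA.2 ⟨h1, h2⟩) (mem_cenA.2 ⟨h1', h2'⟩)
  refine sub_eq_zero.1 (kpa_sub_nondeg hc fun d hd => ?_)
  rw [mem_cenA] at hd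
  have e1 := h3 d hd.1 hd.2
  have e2 := h3' d hd.1 hd.2
  rw [sub_mul, map_sub] at e1 e2 ⊢
  rw [← sub_eq_zero.1 e1, ← sub_eq_zero.1 e2, sub_self]

private theorem kpxw_Pr_self {k : ℕ} {ω u : QA K} (hu : u ∈ Cen k ω) : Pr k {ω} u = u := by
  rw [kpx_mem_Cen] at hu
  exact kpxw_isPr_unique (Pr_spec k {ω} u hu.1) ⟨hu.1, by rintro _ rfl; exact hu.2,
    fun d _ _ => by rw [sub_self, zero_mul, map_zero]⟩

private theorem kpxw_Pr_mem {k : ℕ} {ω u : QA K} (hu : u ∈ lev K k) : Pr k {ω} u ∈ Cen k ω := by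
  have h := Pr_spec k {ω} u hu
  exact kpx_mem_Cen.2 ⟨h.1, h.2.1 ω rfl⟩

private theorem kpxw_Pr_bracket {k : ℕ} {ω γ : QA K} (hω : ω ∈ lev K k) (hγ : γ ∈ lev K k) :
    Pr k {ω} (ω * γ - γ * ω) = 0 := by
  refine kpxw_isPr_unique (Pr_spec k _ _
    (sub_mem (mul_mem hω hγ) (mul_mem hγ hω))) ⟨zero_mem _, fun φ _ => by
      rw [zero_mul, mul_zero], fun d _ hd => ?_⟩
  have h := hd ω rfl
  rw [sub_zero, sub_mul, map_sub, mul_assoc γ, ← h, kpa_tr_comm (ω * γ) d, ← mul_assoc d,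
    ← mul_assoc γ, kpa_tr_comm (γ * d) ω, ← mul_assoc ω, kpa_tr_comm (ω * γ) d, ← mul_assoc d,
    sub_self]

/-- `Pr` vanishes iff orthogonal to the centralizer -/
private theorem kpxw_Pr_zero {k : ℕ} {ω u : QA K} (hu : u ∈ lev K k) (h : Pr k {ω} u = 0) :
    ∀ d ∈ Cen k ω, QA.tr (u * d) = 0 := by
  intro d hd
  rw [kpx_mem_Cen] at hd
  have h1 := (Pr_spec k {ω} u hu).2.2 d hd.1 (by rintro _ rfl; exact hd.2)
  rwa [h, sub_zero] at h1

private theorem kpxw_Cen_le {k : ℕ} {ω : QA K} : Cen k ω ≤ levS K k := inf_le_left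

private theorem kpxw_Cen_nondeg {k : ℕ} {ω c : QA K} (hc : c ∈ Cen k ω)
    (h : ∀ d ∈ Cen k ω, QA.tr (c * d) = 0) : c = 0 := by
  rw [kpx_mem_Cen] at hc
  refine kpa_sub_nondeg (B := cenA k {ω}) (mem_cenA.2 ⟨hc.1, by rintro _ rfl; exact hc.2⟩)
    fun d hd => h d ?_
  rw [mem_cenA] at hd
  exact kpx_mem_Cen.2 ⟨hd.1, hd.2 ω rfl⟩

private theorem kpxw_iq_Cen (P : Place K L) {k : ℕ} {ω c : QA K} (hc : c ∈ Cen k ω) :
    P.iq c ∈ Cen k (P.iq ω) := by
  rw [kpx_mem_Cen] at hc ⊢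
  exact ⟨P.iq_lev hc.1, by rw [← map_mul, hc.2, map_mul]⟩

private theorem kpxw_rq_Cen (P : Place K L) {k : ℕ} {ω : QA K} {c : QA L}
    (hc : c ∈ Cen k (P.iq ω)) (hi : P.Int c) : P.rq c ∈ Cen k ω := by
  rw [kpx_mem_Cen] at hc ⊢
  refine ⟨P.rq_lev hc.1, ?_⟩
  have h := congrArg P.rq hc.2
  rwa [P.rq_mul hi (P.int_iq _), P.rq_mul (P.int_iq _) hi, P.rq_iq] at h

/-- `c ↦ Pr (g c)` is injective on the centralizer if `res g = 1`. -/
private theorem kpxw_inj (P : Place K L) {k : ℕ} {ω : QA K} {g : QA L} (hg : g ∈ lev L k)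
    (hi : P.Int g) (hr : P.rq g = 1) {c : QA L} (hc : c ∈ Cen k (P.iq ω))
    (h : Pr k {P.iq ω} (g * c) = 0) : c = 0 := by
  by_contra hc0
  obtain ⟨x, hx0, hx1, hx2, -⟩ := P.exists_scale_q c hc0
  have hxc : x • c ∈ Cen k (P.iq ω) := Submodule.smul_mem _ _ hc
  have h1 : Pr k {P.iq ω} (g * (x • c)) = 0 := by
    rw [mul_smul_comm, map_smul, h, smul_zero]
  have hl : g * (x • c) ∈ lev L k := mul_mem hg (kpx_mem_Cen.1 hxc).1
  have h2 := kpxw_Pr_zero hl h1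
  refine hx2 (kpxw_Cen_nondeg (kpxw_rq_Cen P hxc hx1) fun d hd => ?_)
  have h3 := h2 (P.iq d) (kpxw_iq_Cen P hd)
  have h4 := congrArg P.r h3
  rw [P.r_tr, P.rq_mul (P.int_mul hi hx1) (P.int_iq _), P.rq_mul hi hx1, hr, one_mul, P.rq_iq,
    P.r_zero] at h4
  exact h4

/-- every element `y` of `lev` can be corrected: `Pr (g c) = Pr y` for some `c` in the centralizer. -/
private theorem kpxw_surj (P : Place K L) {k : ℕ} {ω : QA K} {g : QA L} (hg : g ∈ lev L k)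
    (hi : P.Int g) (hr : P.rq g = 1) {y : QA L} (hy : y ∈ Cen k (P.iq ω)) :
    ∃ c ∈ Cen k (P.iq ω), Pr k {P.iq ω} (g * c) = y := by
  have hfin : Module.Finite L (Cen k (P.iq ω)) := kpa_fd_of_le kpxw_Cen_le
  let f : Cen k (P.iq ω) →ₗ[L] Cen k (P.iq ω) :=
    LinearMap.codRestrict (Cen k (P.iq ω))
      (((Pr k {P.iq ω}).comp (LinearMap.mulLeft L g)).comp (Cen k (P.iq ω)).subtype)
      (fun c => kpxw_Pr_mem (mul_mem hg (kpx_mem_Cen.1 c.2).1))
  have hinj : Function.Injective f := by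
    rw [injective_iff_map_eq_zero]
    intro c hc
    apply Subtype.ext
    exact kpxw_inj P hg hi hr c.2 (congrArg Subtype.val hc)
  obtain ⟨c, hc⟩ := (LinearMap.injective_iff_surjective.1 hinj) ⟨y, hy⟩
  exact ⟨c.1, c.2, congrArg Subtype.val hc⟩

section
variable {s : Pt K I J} {w : NC K I} {a : QA K} {m0 : Submodule K (QA K)} {P : Place K L}
  {t : Pt L (I ⊕ Bool) (Option J)}

private theorem kpxw_F_none (ht : s.ExtInv w a m0 P t) :
    t.F none = NC.add (NC.mul ((w.map P.inc).ren Sum.inl) (NC.var (Sum.inr false)))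
      (NC.mul (NC.cst (P.inc (-1))) (NC.mul (NC.var (Sum.inr false)) (NC.var (Sum.inr true)))) := by
  rw [ht.F]
  change NC.map P.inc (NC.add (NC.mul (w.ren Sum.inl) (NC.var (Sum.inr false)))
      (NC.mul (NC.cst (-1)) (NC.mul (NC.var (Sum.inr false)) (NC.var (Sum.inr true))))) = _
  simp only [NC.map, NC.kpx_map_ren]

private theorem kpxw_m1 : algebraMap L (QA L) (P.inc (-1)) = -1 := by
  rw [map_neg, map_one, map_neg, map_one]

private theorem kpxw_g (ht : s.ExtInv w a m0 P t) :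
    qinv (gv t) ∈ lev L t.k ∧ gv t * qinv (gv t) = 1 ∧ qinv (gv t) * gv t = 1 ∧
      P.Int (qinv (gv t)) ∧ P.rq (qinv (gv t)) = 1 :=
  kpx_qinv_res P (ht.lev (Sum.inr false)) (ht.int (Sum.inr false)) (ht.res (Sum.inr false))

private theorem kpxw_om (hs : s.Good) : s.omg w ∈ lev K s.k :=
  NC.kpx_ev_mem (lev K s.k) w s.X hs.Xlev

private theorem kpxw_omt (hs : s.Good) (ht : s.ExtInv w a m0 P t) :
    P.iq (s.omg w) ∈ lev L t.k := kpa_lev_mono ht.k (P.iq_lev (kpxw_om hs))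

/-- the equation `w g = g f` -/
theorem kpx_rel (ht : s.ExtInv w a m0 P t) (hf : fv t = P.iq (s.omg w)) :
    (w.map P.inc).ev (fun i => t.X (Sum.inl i)) * gv t = gv t * P.iq (s.omg w) := by
  have h := ht.ev none
  rw [kpxw_F_none ht] at h
  simp only [NC.ev, NC.kpx_ev_ren] at h
  rw [kpxw_m1, neg_one_mul, ← sub_eq_add_neg, sub_eq_zero] at h
  rw [← hf]
  exact h

/-- the last component of the differential at a state with `f = ω_5` (use `kpx_rel`,
`qinv g * w = iq ω * qinv g`). -/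
theorem kpx_D_none (ht : s.ExtInv w a m0 P t) (hf : fv t = P.iq (s.omg w))
    (v : I ⊕ Bool → QA L) :
    qinv (gv t) * t.D v none =
      qinv (gv t) * (w.map P.inc).d1 (fun i => t.X (Sum.inl i)) (fun i => v (Sum.inl i)) * gv t +
      (P.iq (s.omg w) * (qinv (gv t) * v (Sum.inr false)) -
        (qinv (gv t) * v (Sum.inr false)) * P.iq (s.omg w)) - v (Sum.inr true) := by
  obtain ⟨-, hg1, hg2, -, -⟩ := kpxw_g ht
  have hrel := kpx_rel ht hf
  have hD : t.D v none =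
      (w.map P.inc).d1 (fun i => t.X (Sum.inl i)) (fun i => v (Sum.inl i)) * gv t +
        (w.map P.inc).ev (fun i => t.X (Sum.inl i)) * v (Sum.inr false) -
        (v (Sum.inr false) * fv t + gv t * v (Sum.inr true)) := by
    change (t.F none).d1 t.X v = _
    rw [kpxw_F_none ht]
    simp only [NC.d1, NC.ev, NC.kpx_ev_ren, NC.kpx_d1_ren, kpxw_m1, zero_mul, zero_add]
    rw [neg_one_mul, ← sub_eq_add_neg]
    rfl
  rw [hD, hf]
  set W' := (w.map P.inc).ev (fun i => t.X (Sum.inl i)) with hW'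
  set dw := (w.map P.inc).d1 (fun i => t.X (Sum.inl i)) (fun i => v (Sum.inl i)) with hdw
  set ω := P.iq (s.omg w) with hω
  have hiW : qinv (gv t) * W' = ω * qinv (gv t) := by
    have h1 : qinv (gv t) * (W' * gv t) * qinv (gv t) =
        qinv (gv t) * (gv t * ω) * qinv (gv t) := by rw [hrel]
    rw [← mul_assoc, mul_assoc, hg1, mul_one, ← mul_assoc, hg2, one_mul] at h1
    exact h1
  rw [mul_sub, mul_add, mul_add, ← mul_assoc, ← mul_assoc _ W', hiW, ← mul_assoc _ (gv t), hg2,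
    one_mul, mul_assoc ω, ← mul_assoc _ (v (Sum.inr false)) ω]
  abel

theorem kpx_D_some (ht : s.ExtInv w a m0 P t) (v : I ⊕ Bool → QA L) (j : J) :
    t.D v (some j) = (s.fgt P t).D (fun i => v (Sum.inl i)) j := by
  have hF' : t.F (some j) = ((s.F j).map P.inc).ren Sum.inl := by
    rw [ht.F]
    change NC.map P.inc ((s.F j).ren Sum.inl) = _
    rw [NC.kpx_map_ren]
  change (t.F (some j)).d1 t.X v = _
  rw [hF', NC.kpx_d1_ren]
  rfl

private theorem kpxw_V0 (ht : s.ExtInv w a m0 P t) {u : I ⊕ Bool → QA L} :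
    u ∈ t.V0 ↔ (fun i => u (Sum.inl i)) ∈ (s.fgt P t).V0 ∧
      u (Sum.inr false) ∈ Cperp t.k (P.iq (s.omg w)) ∧ u (Sum.inr true) ∈ s.FL0 w a P t.k := by
  conv_lhs => rw [ht.V0]
  exact kpx_mem_prodV

private theorem kpxw_FL0_Cen {l : ℕ} {u : QA L} (hu : u ∈ s.FL0 w a P l) :
    u ∈ Cen l (P.iq (s.omg w)) := (kpx_mem_Fpart.1 hu).1

private theorem kpxw_dw_lev (ht : s.ExtInv w a m0 P t) {v : I → QA L}
    (hv : ∀ i, v i ∈ lev L t.k) :
    (w.map P.inc).d1 (fun i => t.X (Sum.inl i)) v ∈ lev L t.k :=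
  NC.kpx_d1_mem (lev L t.k) _ _ _ (fun i => ht.lev _) hv

/-- elements of `W(S⁺)`: apply `Pr t.k {iq ω}` to `0 = qinv g * D v none`. -/
theorem kpx_W_mem (hs : s.Good) (ht : s.ExtInv w a m0 P t) (hf : fv t = P.iq (s.omg w))
    (u : I ⊕ Bool → QA L) (hu : u ∈ t.W) :
    (fun i => u (Sum.inl i)) ∈ (s.fgt P t).W ∧
      u (Sum.inr false) ∈ Cperp t.k (P.iq (s.omg w)) ∧
      u (Sum.inr true) = s.ellh w P t (fun i => u (Sum.inl i)) ∧
      u (Sum.inr true) ∈ s.FL0 w a P t.k := by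
  have hu0 : u ∈ t.V0 := hu.1
  have huD : t.D u = 0 := hu.2
  obtain ⟨h1, h2, h3⟩ := (kpxw_V0 ht).1 hu0
  obtain ⟨hgl, -, -, -, -⟩ := kpxw_g ht
  refine ⟨⟨h1, ?_⟩, h2, ?_, h3⟩
  · change (s.fgt P t).D (fun i => u (Sum.inl i)) = 0
    funext j
    rw [← kpx_D_some ht u j, huD]
    rfl
  · have h4 := kpx_D_none ht hf u
    rw [huD, Pi.zero_apply, mul_zero] at h4
    have h5 := congrArg (Pr t.k {P.iq (s.omg w)}) h4
    rw [map_zero, map_sub, map_add, kpxw_Pr_bracket (kpxw_omt hs ht)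
      (mul_mem hgl (ht.V0lev u hu0 _)), add_zero, kpxw_Pr_self (kpxw_FL0_Cen h3)] at h5
    exact (sub_eq_zero.1 h5.symm).symm

/-- existence of `γ`: `qinv g dw[v] g - l^(v) ∈ C^⊥ = [iq ω, lev]`, so it is `-[iq ω, η]`; `γ = g (η + c)`
with `c ∈ C` chosen such that `Pr (g (η + c)) = 0` (`c ↦ Pr (g c)` is injective on `C`: scale `c` to be
integral with nonzero residue `c₀ ∈ C_K`-span...: residue of `Pr (g c)` is `c₀`; use
`tr(g c d)` with `d ∈ C`). -/
theorem kpx_W_exists (hs : s.Good) (ht : s.ExtInv w a m0 P t) (hf : fv t = P.iq (s.omg w))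
    (v : I → QA L) (hv : v ∈ (s.fgt P t).W) (hess : s.ellh w P t v ∈ s.FL0 w a P t.k) :
    ∃ u ∈ t.W, (fun i => u (Sum.inl i)) = v := by
  obtain ⟨hgl, hg1, hg2, -, -⟩ := kpxw_g ht
  have hg : gv t ∈ lev L t.k := ht.lev _
  have hω := kpxw_omt hs ht
  -- `v` is in `lev`
  have hvl : ∀ i, v i ∈ lev L t.k := by
    obtain ⟨v', hv', rfl⟩ := hv.1
    exact fun i => ht.V0lev v' hv' _
  set r := qinv (gv t) * (w.map P.inc).d1 (fun i => t.X (Sum.inl i)) v * gv t with hr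
  have hrl : r ∈ lev L t.k := mul_mem (mul_mem hgl (kpxw_dw_lev ht hvl)) hg
  have hell : s.ellh w P t v = Pr t.k {P.iq (s.omg w)} r := rfl
  have hCp : r - s.ellh w P t v ∈ Cperp t.k (P.iq (s.omg w)) := by
    refine ⟨sub_mem hrl (kpx_mem_Cen.1 (kpxw_FL0_Cen hess)).1, ?_⟩
    change Pr t.k {P.iq (s.omg w)} (r - s.ellh w P t v) = 0
    rw [map_sub, kpxw_Pr_self (kpxw_FL0_Cen hess), hell, sub_self]
  obtain ⟨η, hη, hη'⟩ := kpx_Cperp_bracket hω hCp
  have hηl : η ∈ lev L t.k := hη.1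
  obtain ⟨c, hc, hc'⟩ := kpxw_surj P hg (ht.int (Sum.inr false)) (ht.res (Sum.inr false))
    (y := Pr t.k {P.iq (s.omg w)} (gv t * η)) (kpxw_Pr_mem (mul_mem hg hηl))
  have hcl := (kpx_mem_Cen.1 hc).1
  set γ := gv t * (c - η) with hγ
  have hγC : γ ∈ Cperp t.k (P.iq (s.omg w)) := by
    refine ⟨(lev L t.k).mul_mem hg ((lev L t.k).sub_mem hcl hηl), ?_⟩
    change Pr t.k {P.iq (s.omg w)} γ = 0
    rw [hγ, mul_sub, map_sub, sub_eq_zero]
    exact hc'
  let u : I ⊕ Bool → QA L := Sum.elim v (fun b => if b then s.ellh w P t v else γ)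
  have hu1 : (fun i => u (Sum.inl i)) = v := rfl
  have hu2 : u (Sum.inr false) = γ := rfl
  have hu3 : u (Sum.inr true) = s.ellh w P t v := rfl
  refine ⟨u, ⟨(kpxw_V0 ht).2 ⟨hv.1, hγC, hess⟩, ?_⟩, hu1⟩
  change t.D u = 0
  funext j
  rcases j with _ | j
  · have h1 := kpx_D_none ht hf u
    have h2 : qinv (gv t) * γ = c - η := by
      rw [hγ, ← mul_assoc, hg2, one_mul]
    have h3 : P.iq (s.omg w) * (c - η) - (c - η) * P.iq (s.omg w) =
        -(P.iq (s.omg w) * η - η * P.iq (s.omg w)) := by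
      rw [mul_sub, sub_mul, (kpx_mem_Cen.1 hc).2]
      abel
    rw [hu1, hu2, hu3, h2, h3, ← hη', ← hr] at h1
    have h4 : r + -(r - s.ellh w P t v) - s.ellh w P t v = 0 := by abel
    rw [h4] at h1
    have h5 : gv t * (qinv (gv t) * t.D u none) = 0 := by rw [h1, mul_zero]
    rw [← mul_assoc, hg1, one_mul] at h5
    exact h5
  · rw [kpx_D_some ht u j, hu1]
    have h1 : (s.fgt P t).D v = 0 := hv.2
    rw [h1]
    rfl

theorem kpx_W_unique (hs : s.Good) (ht : s.ExtInv w a m0 P t) (hf : fv t = P.iq (s.omg w))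
    (u : I ⊕ Bool → QA L) (hu : u ∈ t.W) (h0 : ∀ i, u (Sum.inl i) = 0) : u = 0 := by
  obtain ⟨hgl, hg1, hg2, -, -⟩ := kpxw_g ht
  have hg : gv t ∈ lev L t.k := ht.lev _
  obtain ⟨-, h2, h3, -⟩ := kpx_W_mem hs ht hf u hu
  have hz : (fun i => u (Sum.inl i)) = 0 := funext h0
  rw [hz, map_zero] at h3
  have huD : t.D u = 0 := hu.2
  have h4 := kpx_D_none ht hf u
  have h5 : (w.map P.inc).d1 (fun i => t.X (Sum.inl i)) (fun i => u (Sum.inl i)) = 0 := by
    rw [hz]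
    exact NC.kph_d1_zero _ _
  rw [huD, Pi.zero_apply, mul_zero, h5, mul_zero, zero_mul, zero_add, h3, sub_zero] at h4
  have hul : u (Sum.inr false) ∈ lev L t.k := h2.1
  have hc : qinv (gv t) * u (Sum.inr false) ∈ Cen t.k (P.iq (s.omg w)) :=
    kpx_mem_Cen.2 ⟨mul_mem hgl hul, (sub_eq_zero.1 h4.symm).symm⟩
  have h6 : Pr t.k {P.iq (s.omg w)} (gv t * (qinv (gv t) * u (Sum.inr false))) = 0 := by
    rw [← mul_assoc, hg1, one_mul]
    exact h2.2
  have h7 := kpxw_inj P hg (ht.int (Sum.inr false)) (ht.res (Sum.inr false)) hc h6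
  have h8 : u (Sum.inr false) = 0 := by
    have : gv t * (qinv (gv t) * u (Sum.inr false)) = 0 := by rw [h7, mul_zero]
    rwa [← mul_assoc, hg1, one_mul] at this
  funext i
  rcases i with i | b
  · exact h0 i
  · cases b
    · exact h8
    · exact h3

/-- projection of `W(S⁺)` -/
theorem kpx_W_map (hs : s.Good) (ht : s.ExtInv w a m0 P t) (hf : fv t = P.iq (s.omg w)) :
    t.W.map (LinearMap.funLeft L (QA L) Sum.inl) =
      (s.fgt P t).W ⊓ (s.FL0 w a P t.k).comap (s.ellh w P t) := by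
  apply le_antisymm
  · rintro _ ⟨u, hu, rfl⟩
    obtain ⟨h1, -, h3, h4⟩ := kpx_W_mem hs ht hf u hu
    refine ⟨h1, ?_⟩
    rw [h3] at h4
    exact h4
  · rintro v ⟨hv, hv'⟩
    obtain ⟨u, hu, rfl⟩ := kpx_W_exists hs ht hf v hv hv'
    exact ⟨u, hu, rfl⟩

private theorem kpxw_fgt_lev (ht : s.ExtInv w a m0 P t) :
    ∀ v ∈ (s.fgt P t).V0, ∀ i, v i ∈ lev L t.k := by
  rintro _ ⟨v', hv', rfl⟩ i
  exact ht.V0lev v' hv' _

/-- `finrank` version, from `kpx_W_map`, `kpx_W_unique`, `kpx_finrank_comap`. -/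
theorem kpx_finrank_W (hs : s.Good) (ht : s.ExtInv w a m0 P t) (hf : fv t = P.iq (s.omg w)) :
    Module.finrank L t.W + Module.finrank L (s.LLh w P t) =
      Module.finrank L (s.fgt P t).W +
        Module.finrank L (s.LLh w P t ⊓ s.FL0 w a P t.k : Submodule L (QA L)) := by
  have hfin : Module.Finite L (s.fgt P t).W :=
    KC.finite_of_lev t.k _ (fun v hv i => kpxw_fgt_lev ht v hv.1 i)
  have hfin' : Module.Finite L t.W :=
    KC.finite_of_lev t.k _ (fun v hv i => ht.V0lev v hv.1 i)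
  have h1 := kpx_finrank_comap (s.ellh w P t) (s.fgt P t).W (s.FL0 w a P t.k)
  rw [← kpx_W_map hs ht hf] at h1
  have h2 := kpxw_finrank_map (LinearMap.funLeft L (QA L) Sum.inl : (I ⊕ Bool → QA L) →ₗ[L] _) t.W
  have h3 : (t.W ⊓ LinearMap.ker (LinearMap.funLeft L (QA L) Sum.inl :
      (I ⊕ Bool → QA L) →ₗ[L] (I → QA L)) : Submodule L (I ⊕ Bool → QA L)) = ⊥ := by
    rw [eq_bot_iff]
    rintro u ⟨hu, hu'⟩
    exact kpx_W_unique hs ht hf u hu (fun i => congrFun hu' i)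
  rw [h3, finrank_bot, add_zero] at h2
  rw [h2] at h1
  exact h1

private theorem kpxw_K1 (h : s.Good) (hc : s.LL w ≤ Subalgebra.toSubmodule (s.K1 w))
    (ha : a ∈ s.LL w) (h0 : a ≠ 0) :
    a ∈ Algebra.adjoin K {s.omg w} ∧ qinv a ∈ Algebra.adjoin K {s.omg w} ∧ a * qinv a = 1 ∧
      qinv a * a = 1 := by
  have h1 : a ∈ s.K1 w := hc ha
  obtain ⟨h2, h3, h4⟩ := kpx_K1_inv s w h h1 h0
  exact ⟨h1, h2, h3, h4⟩

/-- dimension of the `f`-part: `dim FL0 + N 4^(l-k) = dim C_l`. -/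
theorem kpx_finrank_FL0 (h : s.Good) (hc : s.LL w ≤ Subalgebra.toSubmodule (s.K1 w))
    (ha : a ∈ s.LL w) (h0 : a ≠ 0) {l : ℕ} (hl : s.k ≤ l) :
    Module.finrank L (s.FL0 w a P l) + s.n2 w * 4 ^ (l - s.k) =
      Module.finrank L (Cen l (P.iq (s.omg w))) := by
  obtain ⟨h1, h2, h3, h4⟩ := kpxw_K1 h hc ha h0
  have hω := kpxw_om (w := w) h
  have hB : s.K2 w ≤ Algebra.adjoin K {s.omg w} := kpx_K2_le s w h hc
  have e1 : s.FL0 w a P l = tE s.k l (ex P (Fpart s.k (s.omg w) (qinv a) (s.K2 w) ⊥)) :=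
    kpx_Fpart0_up P hl hω h1 h2 h3 h4 (s.K2 w) hB
  have hF : Fpart s.k (s.omg w) (qinv a) (s.K2 w) ⊥ ≤ levS K s.k := fun x hx => hx.1.1
  rw [e1, kpx_Cen_up P hl hω, kpx_finrank_tE hl (kpx_ex_le P hF), kpx_finrank_ex P hF,
    kpx_finrank_tE hl (kpx_ex_le P kpxw_Cen_le), kpx_finrank_ex P kpxw_Cen_le,
    ← kpx_finrank_Fpart0 hω h1 h2 h3 h4 (s.K2 w) hB, add_mul]
  rfl

/-- **the formula for `o(S⁺)`** at a reachable state with `f = ω_5`.
`o(t) + dim V0(t) = (|J|+1) 4^l + dim W(t)`, `o(fgt) + dim V0(fgt) = |J| 4^l + dim W(fgt)`,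
`dim V0(t) = dim V0(fgt) + dim Cperp + dim FL0`, `dim Cperp + dim C = 4^l`. -/
theorem kpx_o_formula (h : s.Good) (hc : s.LL w ≤ Subalgebra.toSubmodule (s.K1 w))
    (ha : a ∈ s.LL w) (h0 : a ≠ 0) (ht : s.ExtInv w a m0 P t)
    (hf : fv t = P.iq (s.omg w)) :
    t.o + Module.finrank L (s.LLh w P t) =
      (s.fgt P t).o + s.n2 w * 4 ^ (t.k - s.k) +
        Module.finrank L (s.LLh w P t ⊓ s.FL0 w a P t.k : Submodule L (QA L)) := by
  have e1 := kpx_o_general t ht.V0lev ht.lev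
  have e2 := kpx_o_general (s.fgt P t) (kpxw_fgt_lev ht) (fun i => ht.lev _)
  have e3 := kpx_finrank_W h ht hf
  have e4 := kpx_finrank_FL0 (P := P) h hc ha h0 ht.k
  have e5 := kpx_finrank_Cperp (kpxw_omt h ht)
  have e6 : Module.finrank L t.V0 = Module.finrank L (s.fgt P t).V0 +
      Module.finrank L (Cperp t.k (P.iq (s.omg w))) + Module.finrank L (s.FL0 w a P t.k) := by
    conv_lhs => rw [ht.V0]
    exact kpx_finrank_prodV (k := t.k) _ _ _ (kpxw_fgt_lev ht) inf_le_left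
      (fun x hx => (kpx_mem_Cen.1 (kpxw_FL0_Cen hx)).1)
  have e7 : Fintype.card (Option J) = Fintype.card J + 1 := Fintype.card_option
  have e8 : (s.fgt P t).k = t.k := rfl
  rw [e7, add_mul, one_mul] at e1
  rw [e8] at e2
  omega

/-- Under (c) of Lemma R, `L_t ∩ FL0 = 0`: an integral element of `L_t` with nonzero residue has residue
`a u`, `u ∈ K'' ⊗ E`; being in `FL0` gives `tr (κ e u) = 0` for `κ ∈ K''`, `e ∈ mid`, so `u = 0`. -/
theorem kpx_LLh_FL0 (h : s.Good) (hc : s.LL w ≤ Subalgebra.toSubmodule (s.K1 w))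
    (ha : a ∈ s.LL w) (h0 : a ≠ 0) (ht : s.ExtInv w a m0 P t)
    (hcc : ∀ v ∈ (s.fgt P t).W, P.Int (s.ellh w P t v) →
      ∃ u ∈ tE s.k t.k (Subalgebra.toSubmodule (s.K2 w)), P.rq (s.ellh w P t v) = a * u) :
    s.LLh w P t ⊓ s.FL0 w a P t.k = ⊥ := by
  obtain ⟨-, -, -, hqa⟩ := kpxw_K1 h hc ha h0
  have hB : s.K2 w ≤ lev K s.k := Algebra.adjoin_le fun x hx => hx.1
  rw [eq_bot_iff]
  rintro φ ⟨⟨v, hv, rfl⟩, hφ⟩
  rw [Submodule.mem_bot]
  by_contra hne
  obtain ⟨x, hx0, hx1, hx2, -⟩ := P.exists_scale_q _ hne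
  have hv' : x • v ∈ (s.fgt P t).W := Submodule.smul_mem _ _ hv
  have e1 : s.ellh w P t (x • v) = x • s.ellh w P t v := map_smul _ _ _
  obtain ⟨z, hz, hz'⟩ := hcc _ hv' (by rw [e1]; exact hx1)
  rw [e1] at hz'
  have hφ' : x • s.ellh w P t v ∈ s.FL0 w a P t.k := Submodule.smul_mem _ _ hφ
  obtain ⟨-, μ, hμ, horth⟩ := kpx_mem_Fpart.1 hφ'
  rw [Submodule.mem_bot] at hμ
  have hz0 : z = 0 := by
    refine kpg_nondeg_tE ht.k (s.K2 w) hB hz fun y hy => ?_
    refine Submodule.span_induction (p := fun y _ => QA.tr (z * y) = 0) ?_ ?_ ?_ ?_ hy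
    · rintro _ ⟨κ, hκ, e, he, rfl⟩
      have hmem : P.iq κ * P.iq e ∈ tE s.k t.k (ex P (Subalgebra.toSubmodule (s.K2 w))) :=
        Submodule.subset_span ⟨P.iq κ, Submodule.subset_span ⟨κ, hκ, rfl⟩, P.iq e, P.iq_mid he, rfl⟩
      have h3 := horth _ hmem
      rw [hμ, sub_zero] at h3
      have h4 := congrArg P.r h3
      rw [P.r_tr, P.rq_mul (P.int_mul (P.int_iq _) (P.int_iq _)) (P.int_mul (P.int_iq _) hx1),
        P.rq_mul (P.int_iq _) (P.int_iq _), P.rq_mul (P.int_iq _) hx1, P.rq_iq, P.rq_iq, P.rq_iq,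
        hz', P.r_zero, ← mul_assoc (qinv a), hqa, one_mul] at h4
      rw [kpa_tr_comm]
      exact h4
    · rw [mul_zero, map_zero]
    · intro u v _ _ hu hv
      rw [mul_add, map_add, hu, hv, add_zero]
    · intro c u _ hu
      rw [mul_smul_comm, map_smul, hu, smul_zero]
  rw [hz0, mul_zero] at hz'
  exact hx2 hz'

/-- under (c): `W(S⁺) = W(S) ∩ ker l^` -/
theorem kpx_W_map_c (h : s.Good) (hc : s.LL w ≤ Subalgebra.toSubmodule (s.K1 w))
    (ha : a ∈ s.LL w) (h0 : a ≠ 0) (ht : s.ExtInv w a m0 P t)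
    (hf : fv t = P.iq (s.omg w))
    (hcc : ∀ v ∈ (s.fgt P t).W, P.Int (s.ellh w P t v) →
      ∃ u ∈ tE s.k t.k (Subalgebra.toSubmodule (s.K2 w)), P.rq (s.ellh w P t v) = a * u) :
    t.W.map (LinearMap.funLeft L (QA L) Sum.inl) =
      (s.fgt P t).W ⊓ LinearMap.ker (s.ellh w P t) := by
  have hbot := kpx_LLh_FL0 h hc ha h0 ht hcc
  rw [kpx_W_map h ht hf]
  apply le_antisymm
  · rintro v ⟨hv, hv'⟩
    refine ⟨hv, ?_⟩
    have : s.ellh w P t v ∈ s.LLh w P t ⊓ s.FL0 w a P t.k := ⟨⟨v, hv, rfl⟩, hv'⟩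
    rw [hbot, Submodule.mem_bot] at this
    exact this
  · rintro v ⟨hv, hv'⟩
    refine ⟨hv, ?_⟩
    change s.ellh w P t v ∈ s.FL0 w a P t.k
    rw [show s.ellh w P t v = 0 from hv']
    exact Submodule.zero_mem _

private theorem kpxw_f (h : s.Good) (hc : s.LL w ≤ Subalgebra.toSubmodule (s.K1 w))
    (ha : a ∈ s.LL w) (h0 : a ≠ 0) (ht : s.ExtInv w a m0 P t)
    (hf : fv t = P.iq (s.omg w))
    (hcc : ∀ v ∈ (s.fgt P t).W, P.Int (s.ellh w P t v) →
      ∃ u ∈ tE s.k t.k (Subalgebra.toSubmodule (s.K2 w)), P.rq (s.ellh w P t v) = a * u)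
    (u : I ⊕ Bool → QA L) (hu : u ∈ t.W) : u (Sum.inr true) = 0 := by
  obtain ⟨h1, -, h3, h4⟩ := kpx_W_mem h ht hf u hu
  have hbot := kpx_LLh_FL0 h hc ha h0 ht hcc
  have : u (Sum.inr true) ∈ s.LLh w P t ⊓ s.FL0 w a P t.k := ⟨⟨_, h1, h3.symm⟩, h4⟩
  rw [hbot, Submodule.mem_bot] at this
  exact this

/-- under (c): the first order term of `f` vanishes, curve case (`T_1 ∈ V1`, `D T_1 = 0`, so
`T_1 ∈ W(S⁺)` by `Good.g2`). -/
theorem kpx_f1_curve (h : s.Good) (hc : s.LL w ≤ Subalgebra.toSubmodule (s.K1 w))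
    (ha : a ∈ s.LL w) (h0 : a ≠ 0) (ht : s.ExtInv w a m0 P t)
    (hf : fv t = P.iq (s.omg w)) (hg : t.Good)
    (hcc : ∀ v ∈ (s.fgt P t).W, P.Int (s.ellh w P t v) →
      ∃ u ∈ tE s.k t.k (Subalgebra.toSubmodule (s.K2 w)), P.rq (s.ellh w P t v) = a * u)
    (T : I ⊕ Bool → QA L⟦X⟧) (hT : t.IsCurve T) : cf 1 (T (Sum.inr true)) = 0 := by
  have h1 : (fun i => cf 1 (T i)) ∈ t.V1 := hT.mem 1 le_rfl
  have h2 : t.D (fun i => cf 1 (T i)) = 0 := by
    funext j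
    have h3 := congrArg (cf 1) (hT.eq j)
    rw [KC.cf1_ev, map_zero] at h3
    have h4 : (fun i => cf 0 (T i)) = t.X := funext hT.zero
    rw [h4] at h3
    exact h3
  exact kpxw_f h hc ha h0 ht hf hcc _ ⟨hg.g2 _ h1 h2, h2⟩

/-- growth case: `w1, w2 ∈ W(S⁺)` have zero `f`-component. -/
theorem kpx_f1_grow (h : s.Good) (hc : s.LL w ≤ Subalgebra.toSubmodule (s.K1 w))
    (ha : a ∈ s.LL w) (h0 : a ≠ 0) (ht : s.ExtInv w a m0 P t)
    (hf : fv t = P.iq (s.omg w))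
    (hcc : ∀ v ∈ (s.fgt P t).W, P.Int (s.ellh w P t v) →
      ∃ u ∈ tE s.k t.k (Subalgebra.toSubmodule (s.K2 w)), P.rq (s.ellh w P t v) = a * u)
    (T : I ⊕ Bool → QA L⟦X⟧) (w1 w2 : I ⊕ Bool → QA L) (hT : t.IsGrowth T w1 w2) :
    cf 1 (T (Sum.inr true)) = 0 := by
  rw [hT.one, kpxw_f h hc ha h0 ht hf hcc _ hT.w1W, kpxw_f h hc ha h0 ht hf hcc _ hT.w2W,
    zero_mul, zero_mul, add_zero]

end

end Pt

end Crest.Agent.KP
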