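import Crest.Agent.KP_Defs3

/-!
# S0270 : definitions, part 4: interface `s_4 → s_5` and the black boxes of the assembly
(author helper97; see note P3)
-/

set_option autoImplicit false
set_option linter.unusedSectionVars false

open scoped PowerSeries LaurentSeries symmDiff

namespace Crest.Agent.KP

namespace Pt

variable {K I J : Type} [Field K] [KF K] [Fintype I] [Fintype J]

/-- the word over `K⸨X⸩` -/
noncomputable abbrev _root_.Crest.Agent.KP.NC.up (w : NC K I) : NC K⸨X⸩ I :=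
  w.map (algebraMap K K⸨X⸩)

/-- `W ∩ ker l_s` -/
noncomputable def W0 (s : Pt K I J) (w : NC K I) : Submodule K (I → QA K) :=
  s.W ⊓ LinearMap.ker (s.ell w)

/-- what is known about the growth step `s_4 → s_5 = s_4.grow T`; `t` = wanted richness of `S⁺`. -/
structure Pkg4 (s : Pt K I J) (w : NC K I) (d t : ℕ) (T : I → QA K⟦X⟧) (w1 w2 : I → QA K)
    (a ρ : QA K) : Prop where
  good : s.Good
  stable : s.Stable
  gr : s.IsGrowth T w1 w2
  comm : s.LL w ≤ Subalgebra.toSubmodule (s.K1 w)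
  dim : s.n2 w = s.nL w + d
  a0 : a ≠ 0
  l1 : s.ell w w1 = a
  l2 : s.ell w w2 = a * ρ
  rho : ρ ∈ s.RR w a
  inj : s.Inj (s.W0 w) w1 w2
  n1 : (s.grow T).n1 w.up = 2 * s.n1 w
  n2 : (s.grow T).n2 w.up = 2 * s.n2 w
  nL : (s.grow T).nL w.up = s.nL w + s.n2 w
  rho2 : ∀ u ∈ s.K2 w, ∃ r1 ∈ s.RR w a, ∃ r2 ∈ s.RR w a, u = r1 + ρ * r2
  lam : ∃ lam : Fin t → QA K, (∀ i, lam i ∈ s.RR w a) ∧
    ∀ m : Fin t → QA K, (∀ i, m i ∈ s.K2 w ∧ m i ∈ perp (s.RR w a : Set (QA K))) →
      (∃ m' m'' : QA K, (m' ∈ s.K2 w ∧ m' ∈ perp (s.RR w a : Set (QA K))) ∧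
        (m'' ∈ s.K2 w ∧ m'' ∈ perp (s.RR w a : Set (QA K))) ∧
        ∑ i, lam i * m i = m' + ρ * m'') → ∀ i, m i = 0
  rich : ∃ Ω : Submodule K (I → QA K), Ω ≤ s.W0 w ∧
    10 * (s.o + 1) ^ 2 * (t + 2) ≤ Module.finrank K Ω ∧
    s.TInj Ω (s.W0 w) ∧ ∀ v ∈ Ω, s.InnXY v → v = 0

end Pt

/-! ### black boxes -/

/-- richness of the extended state wanted in the freeze step -/
def tplus (o d : ℕ) : ℕ := 2 * (o + d) ^ 2 + (o + d) + 5

/-- (D1, helper63) P3 (A)-(D): either some reachable state has `L = 0` forever, or there is `s_4`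
with a growth step to `s_5` of the minimal class. -/
theorem D1_main {K0 I J : Type} [Field K0] [KF K0] [Fintype I] [Fintype J] (s0 : Pt K0 I J)
    (hg : s0.Good) (hs : s0.Stable) (hr : s0.Rich s0.q0) (w : NC K0 I) :
    (∃ (L : Type) (iF : Field L) (iK : KF L) (t : Pt L I J) (P : Place K0 L),
      Rch s0 L iF iK t P ∧
      ∀ (M : Type) (jF : Field M) (jK : KF M) (t' : Pt M I J) (Q : Place L M),
        Rch t M jF jK t' Q → t'.LL ((w.map P.inc).map Q.inc) = ⊥) ∨
    (∃ (L : Type) (iF : Field L) (iK : KF L) (t : Pt L I J) (P : Place K0 L),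
      Rch s0 L iF iK t P ∧
      ∃ (d : ℕ) (T : I → QA L⟦X⟧) (w1 w2 : I → QA L) (a ρ : QA L),
        t.Pkg4 (w.map P.inc) d (tplus s0.o d) T w1 w2 a ρ ∧
        (t.grow T).Pkg (w.map P.inc).up d) := by
  sorry

/-- (H, helper52) richness of the extended state. -/
theorem H_main {K I J : Type} [Field K] [KF K] [Fintype I] [Fintype J] (s : Pt K I J)
    (w : NC K I) (d t : ℕ) (T : I → QA K⟦X⟧) (w1 w2 : I → QA K) (a ρ : QA K)
    (h : s.Pkg4 w d t T w1 w2 a ρ) (h5 : (s.grow T).Pkg w.up d) (a5 : QA K⸨X⸩) (m0 : Submodule K⸨X⸩ (QA K⸨X⸩))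
    (hx : (s.grow T).ExtOk w.up a5 m0) :
    ((s.grow T).ext w.up a5 m0).Rich t := by
  sorry

/-- (E-facts, helper43) the extended state is good and `o(S⁺) = o + d`. -/
theorem ext_good {K I J : Type} [Field K] [KF K] [Fintype I] [Fintype J] (s : Pt K I J)
    (w : NC K I) (d : ℕ) (h : s.Pkg w d) (a : QA K) (m0 : Submodule K (QA K))
    (hx : s.ExtOk w a m0) : (s.ext w a m0).Good ∧ (s.ext w a m0).o = s.o + d := by
  sorry

/-- (E-facts, helper43) forgetting: states reachable in `S⁺` forget to states reachable in `S`. -/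
theorem ext_forget {K I J : Type} [Field K] [KF K] [Fintype I] [Fintype J] (s : Pt K I J)
    (w : NC K I) (a : QA K) (m0 : Submodule K (QA K)) (hx : s.ExtOk w a m0)
    (L : Type) (iF : Field L) (iK : KF L) (t : Pt L (I ⊕ Bool) (Option J)) (P : Place K L)
    (ht : Rch (s.ext w a m0) L iF iK t P) : Rch s L iF iK (s.fgt P t) P := by
  sorry

/-- (G, helper97) Lemma R. -/
theorem lemR_main {K I J : Type} [Field K] [KF K] [Fintype I] [Fintype J] (s : Pt K I J)
    (w : NC K I) (d : ℕ) (h : s.Pkg w d) (a : QA K) (m0 : Submodule K (QA K))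
    (hx : s.ExtOk w a m0)
    (L : Type) (iF : Field L) (iK : KF L) (t : Pt L (I ⊕ Bool) (Option J)) (P : Place K L)
    (ht : Rch (s.ext w a m0) L iF iK t P) : s.LemR w a d P t := by
  sorry

/-- (helper97) the freeze theorem for nodes. -/
theorem freeze_step (n : Node) (w : NC n.K n.I) :
    ∃ (n' : Node) (h : Later n n'), n.pt.k < n'.pt.k ∧
      n'.pt.Frozen ((w.map h.P.inc).ren h.i) := by
  sorry

/-- (C/A) the start node. -/
theorem start_node : Nonempty Node := by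
  sorry

end Crest.Agent.KP
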