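import Crest.Agent.KP_G0
import Crest.Agent.KP_C
import Crest.Agent.KP_Defs4
import Crest.Agent.KPX_Forget
import Crest.Agent.KPX_W

set_option autoImplicit false
set_option linter.unusedSectionVars false

open scoped PowerSeries LaurentSeries symmDiff

namespace Crest.Agent.KP

open Pt

variable {K L I J : Type} [Field K] [KF K] [Field L] [KF L] [Fintype I] [Fintype J]

/-- **G10.** (dimension formula, helper43) for constant `f` and (c):
`o(t) + dim L_t = o(s) + N Q²`. -/
theorem G10 (s : Pt K I J) (w : NC K I) (d : ℕ) (hp : s.Pkg w d) (a : QA K)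
    (m0 : Submodule K (QA K)) (hx : s.ExtOk w a m0)
    (t : Pt L (I ⊕ Bool) (Option J)) (P : Place K L)
    (ht : Rch (s.ext w a m0) L inferInstance inferInstance t P)
    (hf : fv t = P.iq (s.omg w))
    (hc : ∀ v ∈ (s.fgt P t).W, P.Int (s.ellh w P t v) →
      ∃ u ∈ tE s.k t.k (Subalgebra.toSubmodule (s.K2 w)), P.rq (s.ellh w P t v) = a * u) :
    t.o + Module.finrank L (s.LLh w P t) =
      s.o + s.n2 w * 2 ^ (t.k - s.k) * 2 ^ (t.k - s.k) := by
  have hinv : s.ExtInv w a m0 P t := kpx_inv s w d hp a m0 hx L _ _ t P ht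
  have h1 := kpx_o_formula hp.good hp.comm hx.aL hx.a0 hinv hf
  have h2 := kpx_LLh_FL0 hp.good hp.comm hx.aL hx.a0 hinv hc
  have h3 : (s.fgt P t).o = s.o :=
    hp.stable L _ _ (s.fgt P t) P (kpx_ext_forget s w a m0 hx L _ _ t P ht)
  rw [h2, finrank_bot, add_zero, h3] at h1
  rw [h1, mul_assoc, ← mul_pow]
  norm_num

end Crest.Agent.KP
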