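import Crest.Agent.KP_G0
import Crest.Agent.KP_C
import Crest.Agent.KP_Defs4

set_option autoImplicit false
set_option linter.unusedSectionVars false

open scoped PowerSeries LaurentSeries symmDiff

namespace Crest.Agent.KP

open Pt

variable {K L I J : Type} [Field K] [KF K] [Field L] [KF L] [Fintype I] [Fintype J]

/-- **G3.** `(b)` extended to all of `R ⊗ E` (span induction). -/
theorem G3 (s : Pt K I J) (w : NC K I) (a : QA K)
    (t : Pt L (I ⊕ Bool) (Option J)) (P : Place K L)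
    (hb : ∀ r ∈ s.RR w a, ∀ e ∈ mid K s.k t.k, ∃ v ∈ (s.fgt P t).W,
      P.Int (s.ellh w P t v) ∧ P.rq (s.ellh w P t v) = a * r * e)
    (z : QA K) (hz : z ∈ tE s.k t.k (s.RR w a)) :
    ∃ v ∈ (s.fgt P t).W, P.Int (s.ellh w P t v) ∧ P.rq (s.ellh w P t v) = a * z := by
  unfold tE at hz
  induction hz using Submodule.span_induction with
  | mem x hx =>
    obtain ⟨r, hr, e, he, rfl⟩ := hx
    obtain ⟨v, hv, h1, h2⟩ := hb r hr e he
    exact ⟨v, hv, h1, by rw [h2, mul_assoc]⟩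
  | zero =>
    refine ⟨0, Submodule.zero_mem _, ?_, ?_⟩
    · rw [map_zero]; exact P.Int_zero_aux
    · rw [map_zero, mul_zero]; exact P.rq_zero_aux
  | add x y _ _ hx hy =>
    obtain ⟨v, hv, h1, h2⟩ := hx
    obtain ⟨v', hv', h1', h2'⟩ := hy
    refine ⟨v + v', Submodule.add_mem _ hv hv', ?_, ?_⟩
    · rw [map_add]; exact P.Int_add_aux h1 h1'
    · rw [map_add, P.rq_add_aux h1 h1', h2, h2', mul_add]
  | smul c x _ hx =>
    obtain ⟨v, hv, h1, h2⟩ := hx
    refine ⟨P.inc c • v, Submodule.smul_mem _ _ hv, ?_, ?_⟩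
    · rw [map_smul]; exact P.Int_smul_aux (P.inc_mem c) h1
    · rw [map_smul, P.rq_smul_aux (P.inc_mem c) h1, P.r_inc_aux, h2, mul_smul_comm]

end Crest.Agent.KP
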