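import Crest.Agent.KP_G0
import Crest.Agent.KP_C
import Crest.Agent.KP_Defs4
import Crest.Agent.KPA_Fin

set_option autoImplicit false
set_option linter.unusedSectionVars false

open scoped PowerSeries LaurentSeries symmDiff

namespace Crest.Agent.KP

open Pt

/-- **ALG7.** elementary facts about `qinv`. -/
theorem qinv_spec {K : Type} [Field K] [KF K] (k : ℕ) (a : QA K) (ha : a ∈ lev K k)
    (h0 : a ≠ 0) : a * qinv a = 1 ∧ qinv a * a = 1 ∧ qinv a ∈ lev K k ∧
      qinv a ∈ Algebra.adjoin K ({a} : Set (QA K)) := by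
  have hex : ∃ v : QA K, a * v = 1 ∧ v * a = 1 := kpa_exists_inv h0
  have e : qinv a = Classical.choose hex := dif_pos hex
  have hs := Classical.choose_spec hex
  rw [← e] at hs
  have hle : Algebra.adjoin K ({a} : Set (QA K)) ≤ lev K k :=
    Algebra.adjoin_le (Set.singleton_subset_iff.2 ha)
  haveI : FiniteDimensional K (Algebra.adjoin K ({a} : Set (QA K))) := kpa_fd_of_le' hle
  have hm : qinv a ∈ Algebra.adjoin K ({a} : Set (QA K)) :=
    kpa_inv_mem (Algebra.subset_adjoin (Set.mem_singleton a)) hs.1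
  exact ⟨hs.1, hs.2, hle hm, hm⟩

end Crest.Agent.KP
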