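import Crest.Agent.KPX_Lev
import Crest.Agent.KPX_NC
import Crest.Agent.KPC_State

/-!
# S0270, part (E) (helper43), file 5: the extended state at `s_5` is good, `o = s.o + d`.
-/

set_option autoImplicit false
set_option linter.unusedSectionVars false
set_option maxHeartbeats 400000

open scoped PowerSeries LaurentSeries symmDiff

namespace Crest.Agent.KP

variable {K : Type} [Field K] [KF K] {I J : Type} [Fintype I] [Fintype J]

namespace Pt

/-! ### `K'`, `K''`, `R` -/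

theorem kpx_om_lev (s : Pt K I J) (w : NC K I) (hg : s.Good) : s.omg w ∈ lev K s.k :=
  NC.kpx_ev_mem (lev K s.k) w s.X hg.Xlev

theorem kpx_d1_lev (s : Pt K I J) (w : NC K I) (hg : s.Good) (v : I → QA K)
    (hv : ∀ i, v i ∈ lev K s.k) : w.d1 s.X v ∈ lev K s.k :=
  NC.kpx_d1_mem (lev K s.k) w s.X v hg.Xlev hv

theorem kpx_W_lev (s : Pt K I J) (hg : s.Good) {v : I → QA K} (hv : v ∈ s.W) (i : I) :
    v i ∈ lev K s.k := hg.V1lev v (hg.V0V1 hv.1) i

theorem kpx_K1_le_cen (s : Pt K I J) (w : NC K I) (hg : s.Good) :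
    s.K1 w ≤ cenA s.k ({s.omg w} : Set (QA K)) := by
  unfold K1
  refine Algebra.adjoin_le ?_
  rintro _ rfl
  exact mem_cenA.2 ⟨kpx_om_lev s w hg, fun φ hφ => by rw [Set.mem_singleton_iff.1 hφ]⟩

theorem kpx_K1_le (s : Pt K I J) (w : NC K I) (hg : s.Good) : s.K1 w ≤ lev K s.k :=
  (kpx_K1_le_cen s w hg).trans (cenA_le _ _)

theorem kpx_K1_comm (s : Pt K I J) (w : NC K I) {u v : QA K} (hu : u ∈ s.K1 w) (hv : v ∈ s.K1 w) :
    u * v = v * u := by
  unfold K1 at hu hv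
  have h1 : ∀ x ∈ Algebra.adjoin K ({s.omg w} : Set (QA K)), s.omg w * x = x * s.omg w := by
    intro x hx
    have h2 : Algebra.adjoin K ({s.omg w} : Set (QA K)) ≤ Subalgebra.centralizer K {s.omg w} := by
      refine Algebra.adjoin_le ?_
      rintro _ rfl
      exact (Subalgebra.mem_centralizer_iff K).2 (fun g hg => by rw [Set.mem_singleton_iff.1 hg])
    exact (Subalgebra.mem_centralizer_iff K).1 (h2 hx) _ rfl
  have h3 : Algebra.adjoin K ({s.omg w} : Set (QA K)) ≤ Subalgebra.centralizer K {u} := by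
    refine Algebra.adjoin_le ?_
    rintro _ rfl
    refine (Subalgebra.mem_centralizer_iff K).2 (fun g hg => ?_)
    rw [Set.mem_singleton_iff.1 hg]
    exact (h1 u hu).symm
  exact (Subalgebra.mem_centralizer_iff K).1 (h3 hv) u rfl

theorem kpx_fd_K1 (s : Pt K I J) (w : NC K I) (hg : s.Good) : FiniteDimensional K (s.K1 w) :=
  kpa_fd_of_le' (kpx_K1_le s w hg)

/-- generators `u` of `K''` satisfy `u * b = c ∈ L(s) ≤ K'` with `0 ≠ b ∈ L(s) ≤ K'`, so
`u = c * b⁻¹ ∈ K'`. -/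
theorem kpx_K2_le (s : Pt K I J) (w : NC K I) (hg : s.Good)
    (hc : s.LL w ≤ Subalgebra.toSubmodule (s.K1 w)) : s.K2 w ≤ s.K1 w := by
  have := kpx_fd_K1 s w hg
  unfold K2
  refine Algebra.adjoin_le ?_
  rintro u ⟨-, b, hb, hb0, hub⟩
  have h1 : u = u * b * qinv b := by rw [mul_assoc, (kpxl_qinv hb0).1, mul_one]
  rw [h1]
  exact (s.K1 w).mul_mem (hc hub) (kpxl_qinv_mem (hc hb) hb0)

theorem kpx_K2_le_Cen (s : Pt K I J) (w : NC K I) (hg : s.Good)
    (hc : s.LL w ≤ Subalgebra.toSubmodule (s.K1 w)) :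
    Subalgebra.toSubmodule (s.K2 w) ≤ Cen s.k (s.omg w) :=
  fun _ hu => kpx_K1_le_cen s w hg (kpx_K2_le s w hg hc hu)

theorem kpx_fd_K2 (s : Pt K I J) (w : NC K I) (hg : s.Good)
    (hc : s.LL w ≤ Subalgebra.toSubmodule (s.K1 w)) : FiniteDimensional K (s.K2 w) :=
  kpa_fd_of_le' ((kpx_K2_le s w hg hc).trans (kpx_K1_le s w hg))

theorem kpx_mem_RR (s : Pt K I J) (w : NC K I) (hg : s.Good)
    (hc : s.LL w ≤ Subalgebra.toSubmodule (s.K1 w)) {a : QA K} (ha : a ∈ s.LL w) (h0 : a ≠ 0)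
    {u : QA K} (hu : u ∈ s.LL w) : qinv a * u ∈ s.RR w a := by
  have := kpx_fd_K1 s w hg
  have hai : qinv a ∈ s.K1 w := kpxl_qinv_mem (hc ha) h0
  refine ⟨?_, ?_⟩
  · change qinv a * u ∈ s.K2 w
    unfold K2
    refine Algebra.subset_adjoin ⟨kpx_K1_le s w hg ((s.K1 w).mul_mem hai (hc hu)), a, ha, h0, ?_⟩
    rw [mul_assoc, kpx_K1_comm s w (hc hu) (hc ha), ← mul_assoc, (kpxl_qinv h0).2, one_mul]
    exact hu
  · change a * (qinv a * u) ∈ s.LL w
    rw [← mul_assoc, (kpxl_qinv h0).1, one_mul]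
    exact hu

/-- key fact: an element of `L(s)` in `Fpart_{m0}` (any `m0` meeting `R` trivially) is zero. -/
theorem kpx_LL_Fpart (s : Pt K I J) (w : NC K I) (hg : s.Good)
    (hc : s.LL w ≤ Subalgebra.toSubmodule (s.K1 w)) {a : QA K} (ha : a ∈ s.LL w) (h0 : a ≠ 0)
    (m : Submodule K (QA K)) (hm : m ≤ Subalgebra.toSubmodule (s.K2 w))
    (hd : s.RR w a ⊓ m = ⊥) {φ : QA K} (hφ : φ ∈ s.LL w)
    (hF : φ ∈ Fpart s.k (s.omg w) (qinv a) (s.K2 w) m) : φ = 0 := by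
  have := kpx_fd_K2 s w hg hc
  obtain ⟨-, μ, hμ, h⟩ := kpxl_mem_Fpart.1 hF
  have h1 := kpx_mem_RR s w hg hc ha h0 hφ
  have h2 : qinv a * φ - μ = 0 := by
    refine kpa_sub_nondeg (B := s.K2 w) (sub_mem h1.1 (hm hμ)) fun d hd => ?_
    rw [kpa_tr_comm]
    exact h d hd
  have h3 : qinv a * φ ∈ s.RR w a ⊓ m := ⟨h1, by rw [sub_eq_zero.1 h2]; exact hμ⟩
  rw [hd, Submodule.mem_bot] at h3
  have h4 : φ = a * (qinv a * φ) := by rw [← mul_assoc, (kpxl_qinv h0).1, one_mul]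
  rw [h4, h3, mul_zero]

/-! ### the extended state -/

/-- the differential of the new equation at `ext` (where `g = 1`, `f = ω`) -/
theorem kpx_ext_D_none (s : Pt K I J) (w : NC K I) (a : QA K) (m0 : Submodule K (QA K))
    (v : I ⊕ Bool → QA K) :
    (s.ext w a m0).D v none = w.d1 s.X (fun i => v (Sum.inl i)) +
      (s.omg w * v (Sum.inr false) - v (Sum.inr false) * s.omg w) - v (Sum.inr true) := by
  change ((w.ren Sum.inl).d1 (s.ext w a m0).X v * (1 : QA K) +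
    (w.ren Sum.inl).ev (s.ext w a m0).X * v (Sum.inr false)) +
    ((0 : QA K) * ((1 : QA K) * s.omg w) + algebraMap K (QA K) (-1) *
      (v (Sum.inr false) * s.omg w + (1 : QA K) * v (Sum.inr true))) = _
  rw [NC.kpx_d1_ren, NC.kpx_ev_ren, map_neg, map_one]
  change (w.d1 s.X (fun i => v (Sum.inl i)) * (1 : QA K) + s.omg w * v (Sum.inr false)) + _ = _
  rw [mul_one, zero_mul, zero_add, one_mul, neg_mul, one_mul]
  abel

theorem kpx_ext_D_some (s : Pt K I J) (w : NC K I) (a : QA K) (m0 : Submodule K (QA K))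
    (v : I ⊕ Bool → QA K) (j : J) :
    (s.ext w a m0).D v (some j) = s.D (fun i => v (Sum.inl i)) j := by
  change ((s.F j).ren Sum.inl).d1 (s.ext w a m0).X v = _
  rw [NC.kpx_d1_ren]
  rfl

/-- (G0) -/
theorem kpx_ext_g0 (s : Pt K I J) (w : NC K I) (hg : s.Good) (a : QA K) (m0 : Submodule K (QA K))
    (j : Option J) : ((s.ext w a m0).F j).ev (s.ext w a m0).X = 0 := by
  rcases j with _ | j
  · change (w.ren Sum.inl).ev (s.ext w a m0).X * (1 : QA K) + algebraMap K (QA K) (-1) *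
      ((1 : QA K) * s.omg w) = 0
    rw [NC.kpx_ev_ren, map_neg, map_one]
    change s.omg w * (1 : QA K) + _ = 0
    rw [mul_one, one_mul, neg_mul, one_mul]
    abel
  · change ((s.F j).ren Sum.inl).ev (s.ext w a m0).X = 0
    rw [NC.kpx_ev_ren]
    exact hg.g0 j

theorem kpx_mem_extV1 (s : Pt K I J) (w : NC K I) (a : QA K) (m0 : Submodule K (QA K))
    (u : I ⊕ Bool → QA K) : u ∈ (s.ext w a m0).V1 ↔
      (fun i => u (Sum.inl i)) ∈ s.V1 ∧ u (Sum.inr false) ∈ Cperp s.k (s.omg w) ∧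
        u (Sum.inr true) ∈ Fpart s.k (s.omg w) (qinv a) (s.K2 w) m0 := by
  constructor
  · rintro ⟨⟨h1, h2⟩, h3⟩
    exact ⟨h1, h2, h3⟩
  · rintro ⟨h1, h2, h3⟩
    exact ⟨⟨h1, h2⟩, h3⟩

theorem kpx_mem_extV0 (s : Pt K I J) (w : NC K I) (a : QA K) (m0 : Submodule K (QA K))
    (u : I ⊕ Bool → QA K) : u ∈ (s.ext w a m0).V0 ↔
      (fun i => u (Sum.inl i)) ∈ s.V0 ∧ u (Sum.inr false) ∈ Cperp s.k (s.omg w) ∧
        u (Sum.inr true) ∈ Fpart s.k (s.omg w) (qinv a) (s.K2 w) ⊥ := by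
  constructor
  · rintro ⟨⟨h1, h2⟩, h3⟩
    exact ⟨h1, h2, h3⟩
  · rintro ⟨h1, h2, h3⟩
    exact ⟨⟨h1, h2⟩, h3⟩

theorem kpx_D_add (s : Pt K I J) (v v' : I → QA K) (j : J) :
    s.D (v + v') j = s.D v j + s.D v' j := congrFun (s.D_add v v') j

/-- (G1) -/
theorem kpx_ext_g1 (s : Pt K I J) (w : NC K I) (hg : s.Good)
    (hc : s.LL w ≤ Subalgebra.toSubmodule (s.K1 w)) (a : QA K)
    (m0 : Submodule K (QA K)) (hx : s.ExtOk w a m0) :
    ∀ d ∈ AJ K (Option J) s.k, ∃ v ∈ (s.ext w a m0).V1, (s.ext w a m0).D v = d := by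
  intro d hd
  have hfd := kpx_fd_K2 s w hg hc
  have hfd1 := kpx_fd_K1 s w hg
  have hω := kpx_om_lev s w hg
  have hd' : ∀ j, d j ∈ lev K s.k := fun j => by
    rw [AJ, Submodule.mem_pi] at hd
    exact hd j trivial
  obtain ⟨v, hv, hDv⟩ := hg.g1 (fun j => d (some j)) (by
    rw [AJ, Submodule.mem_pi]
    exact fun j _ => hd' (some j))
  have hvl := hg.V1lev v hv
  set r : QA K := d none - w.d1 s.X v with hr
  have hrl : r ∈ lev K s.k := sub_mem (hd' none) (kpx_d1_lev s w hg v hvl)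
  set Er := Pr s.k {s.omg w} r with hEr
  have hErC : Er ∈ Cen s.k (s.omg w) := kpxl_Pr_mem hrl
  obtain ⟨γ1, hγ1, hγ1'⟩ := kpxl_bracket_surj hω (kpxl_sub_Pr_mem (ω := s.omg w) hrl)
  obtain ⟨E2, hE2⟩ := kpa_exists_proj (s.K2 w)
  obtain ⟨hy1, hy1'⟩ := hE2 (qinv a * Er)
  have hsup : E2 (qinv a * Er) ∈ s.RR w a ⊔ m0 := by
    rw [hx.sup]
    exact hy1
  obtain ⟨r1, hr1, m1, hm1, hrm⟩ := Submodule.mem_sup.1 hsup
  have hr1L : a * r1 ∈ s.LL w := hr1.2
  obtain ⟨v', hv', hlv'⟩ := hr1L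
  have hv'l := fun i => kpx_W_lev s hg hv' i
  have hdv' := kpx_d1_lev s w hg v' hv'l
  have hl : Pr s.k {s.omg w} (w.d1 s.X v') = a * r1 := hlv'
  obtain ⟨γ2, hγ2, hγ2'⟩ := kpxl_bracket_surj hω (kpxl_sub_Pr_mem (ω := s.omg w) hdv')
  have har1 : a * r1 ∈ Cen s.k (s.omg w) := by
    rw [← hl]
    exact kpxl_Pr_mem hdv'
  refine ⟨Sum.elim (v + v') (fun b => if b then -(Er - a * r1) else γ1 - γ2), ?_, ?_⟩
  · rw [kpx_mem_extV1]
    refine ⟨?_, ?_, ?_⟩
    · change v + v' ∈ s.V1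
      exact add_mem hv (hg.V0V1 hv'.1)
    · change γ1 - γ2 ∈ _
      exact sub_mem hγ1 hγ2
    · change -(Er - a * r1) ∈ _
      refine kpxl_mem_Fpart.2 ⟨neg_mem (sub_mem hErC har1), -m1, neg_mem hm1, fun κ hκ => ?_⟩
      have h1 : qinv a * -(Er - a * r1) - -m1 = -(qinv a * Er - E2 (qinv a * Er)) := by
        rw [← hrm, mul_neg, mul_sub, ← mul_assoc, (kpxl_qinv hx.a0).2, one_mul]
        abel
      rw [h1, mul_neg, map_neg, kpa_tr_comm, hy1' κ hκ, neg_zero]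
  · funext j
    rcases j with _ | j
    · rw [kpx_ext_D_none]
      change w.d1 s.X (v + v') + (s.omg w * (γ1 - γ2) - (γ1 - γ2) * s.omg w) -
        -(Er - a * r1) = d none
      rw [NC.d1_add]
      have h2 : s.omg w * (γ1 - γ2) - (γ1 - γ2) * s.omg w =
          (s.omg w * γ1 - γ1 * s.omg w) - (s.omg w * γ2 - γ2 * s.omg w) := by
        rw [mul_sub, sub_mul]; abel
      rw [h2, hγ1', hγ2', hl, hr]
      abel
    · rw [kpx_ext_D_some]
      change s.D (v + v') j = d (some j)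
      rw [kpx_D_add, hDv]
      have h3 : s.D v' = 0 := hv'.2
      rw [h3]
      exact add_zero _

/-- in a state of `V1⁺ ∩ ker D⁺` -/
theorem kpx_ext_ker (s : Pt K I J) (w : NC K I) (hg : s.Good)
    (hc : s.LL w ≤ Subalgebra.toSubmodule (s.K1 w)) (a : QA K)
    (m0 : Submodule K (QA K)) (hx : s.ExtOk w a m0) (u : I ⊕ Bool → QA K)
    (hu : u ∈ (s.ext w a m0).V1) (hD : (s.ext w a m0).D u = 0) :
    (fun i => u (Sum.inl i)) ∈ s.W ∧ u (Sum.inr true) = 0 ∧
      s.ell w (fun i => u (Sum.inl i)) = 0 := by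
  have hω := kpx_om_lev s w hg
  obtain ⟨h1, h2, h3⟩ := (kpx_mem_extV1 s w a m0 u).1 hu
  have hW : (fun i => u (Sum.inl i)) ∈ s.W := by
    have hD' : s.D (fun i => u (Sum.inl i)) = 0 := by
      funext j
      rw [← kpx_ext_D_some s w a m0 u j, hD]
      rfl
    exact ⟨hg.g2 _ h1 hD', hD'⟩
  have hn : (s.ext w a m0).D u none = 0 := by rw [hD]; rfl
  rw [kpx_ext_D_none] at hn
  have hφC := kpxl_Fpart_le _ _ _ _ _ h3
  have hl : s.ell w (fun i => u (Sum.inl i)) = u (Sum.inr true) := by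
    have h4 := congrArg (Pr s.k {s.omg w}) hn
    rw [map_sub, map_add, kpxl_Pr_bracket hω (kpxl_mem_Cperp.1 h2).1, kpxl_Pr_self hφC, map_zero,
      add_zero, sub_eq_zero] at h4
    exact h4
  have h0 : u (Sum.inr true) = 0 := by
    refine kpx_LL_Fpart s w hg hc hx.aL hx.a0 m0 hx.le hx.disj ?_ h3
    rw [← hl]
    exact ⟨_, hW, rfl⟩
  exact ⟨hW, h0, by rw [hl, h0]⟩

/-- (G2) -/
theorem kpx_ext_g2 (s : Pt K I J) (w : NC K I) (hg : s.Good)
    (hc : s.LL w ≤ Subalgebra.toSubmodule (s.K1 w)) (a : QA K)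
    (m0 : Submodule K (QA K)) (hx : s.ExtOk w a m0) :
    ∀ v ∈ (s.ext w a m0).V1, (s.ext w a m0).D v = 0 → v ∈ (s.ext w a m0).V0 := by
  intro u hu hD
  obtain ⟨hW, h0, -⟩ := kpx_ext_ker s w hg hc a m0 hx u hu hD
  rw [kpx_mem_extV0]
  refine ⟨hW.1, ((kpx_mem_extV1 s w a m0 u).1 hu).2.1, ?_⟩
  rw [h0]
  exact Submodule.zero_mem _

theorem kpx_Fpart_mono {k : ℕ} {ω ai : QA K} {B : Set (QA K)} {m m' : Submodule K (QA K)}
    (h : m ≤ m') : Fpart k ω ai B m ≤ Fpart k ω ai B m' := by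
  intro φ hφ
  obtain ⟨h1, μ, hμ, h2⟩ := kpxl_mem_Fpart.1 hφ
  exact kpxl_mem_Fpart.2 ⟨h1, μ, h hμ, h2⟩

theorem kpx_ext_V1lev (s : Pt K I J) (w : NC K I) (hg : s.Good) (a : QA K)
    (m0 : Submodule K (QA K)) : ∀ u ∈ (s.ext w a m0).V1, ∀ i, u i ∈ lev K s.k := by
  intro u hu i
  obtain ⟨h1, h2, h3⟩ := (kpx_mem_extV1 s w a m0 u).1 hu
  rcases i with i | i
  · exact hg.V1lev _ h1 i
  · cases i
    · exact (kpxl_mem_Cperp.1 h2).1
    · exact (kpxl_mem_Cen.1 (kpxl_Fpart_le _ _ _ _ _ h3)).1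

theorem kpx_ext_isGood (s : Pt K I J) (w : NC K I) (hg : s.Good)
    (hc : s.LL w ≤ Subalgebra.toSubmodule (s.K1 w)) (a : QA K)
    (m0 : Submodule K (QA K)) (hx : s.ExtOk w a m0) : (s.ext w a m0).Good where
  V0V1 := by
    intro u hu
    obtain ⟨h1, h2, h3⟩ := (kpx_mem_extV0 s w a m0 u).1 hu
    exact (kpx_mem_extV1 s w a m0 u).2 ⟨hg.V0V1 h1, h2, kpx_Fpart_mono bot_le h3⟩
  V1lev := kpx_ext_V1lev s w hg a m0
  Xlev := by
    rintro (i | b)
    · exact hg.Xlev i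
    · cases b
      · exact (lev K s.k).one_mem
      · exact kpx_om_lev s w hg
  g0 := kpx_ext_g0 s w hg a m0
  g1 := kpx_ext_g1 s w hg hc a m0 hx
  g2 := kpx_ext_g2 s w hg hc a m0 hx
  g3 := fun u hu h1 h2 => hg.g3 u hu h1 h2

/-! ### dimensions -/

theorem kpx_rank_nullity {V V' : Type} [AddCommGroup V] [Module K V] [AddCommGroup V'] [Module K V']
    (l : V →ₗ[K] V') (W : Submodule K V) [FiniteDimensional K W] :
    Module.finrank K (W ⊓ LinearMap.ker l : Submodule K V) + Module.finrank K (W.map l) =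
      Module.finrank K W := by
  have h1 := LinearMap.finrank_range_add_finrank_ker (l.domRestrict W)
  rw [LinearMap.range_domRestrict] at h1
  have h2 : (LinearMap.ker (l.domRestrict W)).map W.subtype = W ⊓ LinearMap.ker l := by
    ext v
    constructor
    · rintro ⟨u, hu, rfl⟩
      exact ⟨u.2, hu⟩
    · rintro ⟨h, h'⟩
      exact ⟨⟨v, h⟩, h', rfl⟩
  have h3 : Module.finrank K (W ⊓ LinearMap.ker l : Submodule K V) =
      Module.finrank K (LinearMap.ker (l.domRestrict W)) := by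
    rw [← h2]
    exact (LinearEquiv.finrank_eq (Submodule.equivMapOfInjective W.subtype
      (Submodule.injective_subtype _) _)).symm
  omega

theorem kpx_finrank_extV0 (s : Pt K I J) (w : NC K I) (hg : s.Good) (a : QA K)
    (m0 : Submodule K (QA K)) :
    Module.finrank K (s.ext w a m0).V0 = Module.finrank K s.V0 +
      (Module.finrank K (Cperp s.k (s.omg w)) +
        Module.finrank K (Fpart s.k (s.omg w) (qinv a) (s.K2 w) ⊥)) := by
  have hfd := KC.finite_V0 s hg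
  let e : (s.ext w a m0).V0 ≃ₗ[K] s.V0 × Cperp s.k (s.omg w) ×
      Fpart s.k (s.omg w) (qinv a) (s.K2 w) ⊥ :=
    { toFun := fun u => (⟨fun i => u.1 (Sum.inl i), ((kpx_mem_extV0 s w a m0 u.1).1 u.2).1⟩,
        ⟨u.1 (Sum.inr false), ((kpx_mem_extV0 s w a m0 u.1).1 u.2).2.1⟩,
        ⟨u.1 (Sum.inr true), ((kpx_mem_extV0 s w a m0 u.1).1 u.2).2.2⟩)
      map_add' := fun u v => rfl
      map_smul' := fun c u => rfl
      invFun := fun p => ⟨Sum.elim p.1.1 (fun b => if b then p.2.2.1 else p.2.1.1),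
        (kpx_mem_extV0 s w a m0 _).2 ⟨p.1.2, p.2.1.2, p.2.2.2⟩⟩
      left_inv := fun u => by
        apply Subtype.ext
        funext i
        rcases i with i | b
        · rfl
        · cases b <;> rfl
      right_inv := fun p => rfl }
  rw [LinearEquiv.finrank_eq e, Module.finrank_prod, Module.finrank_prod]

theorem kpx_finrank_extW (s : Pt K I J) (w : NC K I) (hg : s.Good)
    (hc : s.LL w ≤ Subalgebra.toSubmodule (s.K1 w)) (a : QA K)
    (m0 : Submodule K (QA K)) (hx : s.ExtOk w a m0) :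
    Module.finrank K (s.ext w a m0).W =
      Module.finrank K (s.W ⊓ LinearMap.ker (s.ell w) : Submodule K (I → QA K)) := by
  have hω := kpx_om_lev s w hg
  have hge := kpx_ext_isGood s w hg hc a m0 hx
  have h1 : (s.ext w a m0).W.map (LinearMap.funLeft K (QA K) Sum.inl) =
      s.W ⊓ LinearMap.ker (s.ell w) := by
    ext v
    constructor
    · rintro ⟨u, hu, rfl⟩
      obtain ⟨h1, -, h2⟩ := kpx_ext_ker s w hg hc a m0 hx u (hge.V0V1 hu.1) hu.2
      exact ⟨h1, h2⟩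
    · rintro ⟨hv, hl⟩
      have hvl := fun i => kpx_W_lev s hg hv i
      have hdv := kpx_d1_lev s w hg v hvl
      have hdC : -(w.d1 s.X v) ∈ Cperp s.k (s.omg w) :=
        neg_mem (kpxl_mem_Cperp.2 ⟨hdv, hl⟩)
      obtain ⟨γ, hγ, hγ'⟩ := kpxl_bracket_surj hω hdC
      refine ⟨Sum.elim v (fun b => if b then 0 else γ), ⟨?_, ?_⟩, rfl⟩
      · exact (kpx_mem_extV0 s w a m0 _).2 ⟨hv.1, hγ, Submodule.zero_mem _⟩
      · change (s.ext w a m0).D _ = 0
        funext j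
        rcases j with _ | j
        · rw [kpx_ext_D_none]
          change w.d1 s.X v + (s.omg w * γ - γ * s.omg w) - 0 = 0
          rw [hγ', sub_zero, add_neg_cancel]
        · rw [kpx_ext_D_some]
          change s.D v j = 0
          have h3 : s.D v = 0 := hv.2
          rw [h3]
          rfl
  rw [← h1]
  have hinj : Function.Injective
      ((LinearMap.funLeft K (QA K) (Sum.inl : I → I ⊕ Bool)).domRestrict (s.ext w a m0).W) := by
    rw [injective_iff_map_eq_zero]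
    rintro ⟨u, hu⟩ hu0
    have hu0' : ∀ i, u (Sum.inl i) = 0 := fun i => congrFun hu0 i
    obtain ⟨-, h2, -⟩ := kpx_ext_ker s w hg hc a m0 hx u (hge.V0V1 hu.1) hu.2
    apply Subtype.ext
    funext i
    rcases i with i | b
    · exact hu0' i
    · cases b
      · have hn : (s.ext w a m0).D u none = 0 := by
          have : (s.ext w a m0).D u = 0 := hu.2
          rw [this]; rfl
        rw [kpx_ext_D_none, h2] at hn
        have h3 : (fun i => u (Sum.inl i)) = 0 := funext hu0'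
        have h4 : w.d1 s.X (0 : I → QA K) = 0 := (w.d1l s.X).map_zero
        rw [h3, h4, zero_add, sub_zero, sub_eq_zero] at hn
        have h5 := ((kpx_mem_extV0 s w a m0 u).1 hu.1).2.1
        exact kpxl_Cen_inf_Cperp
          (kpxl_mem_Cen.2 ⟨(kpxl_mem_Cperp.1 h5).1, hn.symm⟩) h5
      · exact h2
  have h2 := LinearMap.finrank_range_of_inj hinj
  rw [LinearMap.range_domRestrict] at h2
  exact h2.symm

theorem kpx_ext_o (s : Pt K I J) (w : NC K I) (d : ℕ) (h : s.Pkg w d) (a : QA K)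
    (m0 : Submodule K (QA K)) (hx : s.ExtOk w a m0) : (s.ext w a m0).o = s.o + d := by
  have hg := h.good
  have hc := h.comm
  have hge := kpx_ext_isGood s w hg hc a m0 hx
  have hfW := KC.finite_W s hg
  have h1 := KC.finrank_V0 (s.ext w a m0) hge.Xlev (KC.V0_lev _ hge)
  have h2 := KC.finrank_V0 s hg.Xlev (KC.V0_lev s hg)
  have h3 := kpx_finrank_extV0 s w hg a m0
  have h4 := kpx_finrank_extW s w hg hc a m0 hx
  have h5 := kpx_rank_nullity (s.ell w) s.W
  have h6 := kpxl_finrank_Cperp s.k (s.omg w)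
  have h7 := kpxl_finrank_Fpart0 (ω := s.omg w) (k := s.k)
    (show a ∈ Cen s.k (s.omg w) from kpx_K1_le_cen s w hg (hc hx.aL)) (kpxl_qinv hx.a0).2 (s.K2 w)
    (kpx_K2_le_Cen s w hg hc)
  have h8 := h.dim
  rw [KC.finrank_AJ] at h1 h2
  have h9 : Fintype.card (Option J) = Fintype.card J + 1 := Fintype.card_option
  rw [h9, add_mul, one_mul] at h1
  have h10 : (s.ext w a m0).k = s.k := rfl
  rw [h10] at h1
  have h11 : s.nL w = Module.finrank K (s.W.map (s.ell w)) := rfl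
  have h12 : s.n2 w = Module.finrank K (s.K2 w) := rfl
  omega

end Pt

/-- (E-facts) the extended state is good and `o(S⁺) = o + d`. -/
theorem kpx_ext_good {K I J : Type} [Field K] [KF K] [Fintype I] [Fintype J] (s : Pt K I J)
    (w : NC K I) (d : ℕ) (h : s.Pkg w d) (a : QA K) (m0 : Submodule K (QA K))
    (hx : s.ExtOk w a m0) : (s.ext w a m0).Good ∧ (s.ext w a m0).o = s.o + d :=
  ⟨Pt.kpx_ext_isGood s w h.good h.comm a m0 hx, Pt.kpx_ext_o s w d h a m0 hx⟩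

end Crest.Agent.KP
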