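import Crest.Agent.KPX_Alg
import Crest.Agent.KPX_Good
import Crest.Agent.KPX_Forget
import Crest.Agent.KPC_Cf

/-!
# S0270, part (E) (helper43), file 2: product subspaces of `I ⊕ Bool → QA K`, the subspaces `V0`, `V1`
at states reachable from `ext s w a m0`.
-/

set_option autoImplicit false
set_option linter.unusedSectionVars false
set_option maxHeartbeats 400000

open scoped PowerSeries LaurentSeries symmDiff

namespace Crest.Agent.KP

variable {K L M : Type} [Field K] [Field L] [Field M] [KF K] [KF L] [KF M] {I J : Type}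
  [Fintype I] [Fintype J]

/-- product subspace -/
noncomputable def prodV (V : Submodule K (I → QA K)) (G F : Submodule K (QA K)) :
    Submodule K (I ⊕ Bool → QA K) :=
  V.comap (LinearMap.funLeft K (QA K) Sum.inl) ⊓
    G.comap (LinearMap.proj (Sum.inr false)) ⊓ F.comap (LinearMap.proj (Sum.inr true))

theorem kpx_mem_prodV {V : Submodule K (I → QA K)} {G F : Submodule K (QA K)}
    {u : I ⊕ Bool → QA K} :
    u ∈ prodV V G F ↔ (fun i => u (Sum.inl i)) ∈ V ∧ u (Sum.inr false) ∈ G ∧ u (Sum.inr true) ∈ F := by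
  constructor
  · rintro ⟨⟨h1, h2⟩, h3⟩
    exact ⟨h1, h2, h3⟩
  · rintro ⟨h1, h2, h3⟩
    exact ⟨⟨h1, h2⟩, h3⟩

/-- inclusion of the `I`-components -/
noncomputable def inI (K I : Type) [Field K] : (I → QA K) →ₗ[K] (I ⊕ Bool → QA K) where
  toFun v := Sum.elim v (fun _ => 0)
  map_add' v v' := by
    funext i
    rcases i with i | b
    · rfl
    · exact (add_zero (0 : QA K)).symm
  map_smul' c v := by
    funext i
    rcases i with i | b
    · rfl
    · exact (smul_zero (A := QA K) c).symm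

/-- inclusion of the component `inr b` -/
noncomputable def inB (K I : Type) [Field K] (b : Bool) : QA K →ₗ[K] (I ⊕ Bool → QA K) where
  toFun u := Sum.elim (fun _ => 0) (fun b' => if b' = b then u else 0)
  map_add' v v' := by
    funext i
    rcases i with i | b'
    · exact (add_zero (0 : QA K)).symm
    · change (if b' = b then v + v' else 0) = (if b' = b then v else 0) + (if b' = b then v' else 0)
      split_ifs
      · rfl
      · exact (add_zero (0 : QA K)).symm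
  map_smul' c v := by
    funext i
    rcases i with i | b'
    · exact (smul_zero (A := QA K) c).symm
    · change (if b' = b then c • v else 0) = c • (if b' = b then v else 0)
      split_ifs
      · rfl
      · exact (smul_zero (A := QA K) c).symm

theorem kpx_dec3 (u : I ⊕ Bool → QA K) :
    u = inI K I (fun i => u (Sum.inl i)) + inB K I false (u (Sum.inr false)) +
      inB K I true (u (Sum.inr true)) := by
  funext i
  rcases i with i | b
  · change u (Sum.inl i) = u (Sum.inl i) + 0 + 0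
    rw [add_zero, add_zero]
  · cases b
    · change u (Sum.inr false) = 0 + (if (false = false) then u (Sum.inr false) else 0) +
        (if (false = true) then u (Sum.inr true) else 0)
      simp
    · change u (Sum.inr true) = 0 + (if (true = false) then u (Sum.inr false) else 0) +
        (if (true = true) then u (Sum.inr true) else 0)
      simp

theorem kpx_inI_mem {V : Submodule K (I → QA K)} (G F : Submodule K (QA K)) {v : I → QA K}
    (hv : v ∈ V) : inI K I v ∈ prodV V G F :=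
  kpx_mem_prodV.2 ⟨hv, G.zero_mem, F.zero_mem⟩

theorem kpx_inF_mem (V : Submodule K (I → QA K)) {G : Submodule K (QA K)} (F : Submodule K (QA K))
    {u : QA K} (hu : u ∈ G) : inB K I false u ∈ prodV V G F :=
  kpx_mem_prodV.2 ⟨V.zero_mem, hu, F.zero_mem⟩

theorem kpx_inT_mem (V : Submodule K (I → QA K)) (G : Submodule K (QA K)) {F : Submodule K (QA K)}
    {u : QA K} (hu : u ∈ F) : inB K I true u ∈ prodV V G F :=
  kpx_mem_prodV.2 ⟨V.zero_mem, G.zero_mem, hu⟩

/-- criterion: a subspace containing the three kinds of generators contains the product -/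
theorem kpx_prodV_le {V : Submodule K (I → QA K)} {G F : Submodule K (QA K)}
    {C : Submodule K (I ⊕ Bool → QA K)} (h1 : V ≤ C.comap (inI K I))
    (h2 : G ≤ C.comap (inB K I false)) (h3 : F ≤ C.comap (inB K I true)) : prodV V G F ≤ C := by
  intro u hu
  obtain ⟨a1, a2, a3⟩ := kpx_mem_prodV.1 hu
  rw [kpx_dec3 u]
  exact add_mem (add_mem (h1 a1) (h2 a2)) (h3 a3)

theorem kpx_prodV_sup (V V' : Submodule K (I → QA K)) (G F G' F' : Submodule K (QA K)) :
    prodV V G F ⊔ prodV V' G' F' = prodV (V ⊔ V') (G ⊔ G') (F ⊔ F') := by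
  apply le_antisymm
  · refine sup_le ?_ ?_
    · intro u hu
      obtain ⟨a1, a2, a3⟩ := kpx_mem_prodV.1 hu
      exact kpx_mem_prodV.2 ⟨Submodule.mem_sup_left a1, Submodule.mem_sup_left a2,
        Submodule.mem_sup_left a3⟩
    · intro u hu
      obtain ⟨a1, a2, a3⟩ := kpx_mem_prodV.1 hu
      exact kpx_mem_prodV.2 ⟨Submodule.mem_sup_right a1, Submodule.mem_sup_right a2,
        Submodule.mem_sup_right a3⟩
  · refine kpx_prodV_le (sup_le ?_ ?_) (sup_le ?_ ?_) (sup_le ?_ ?_)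
    · exact fun v hv => Submodule.mem_sup_left (kpx_inI_mem G F hv)
    · exact fun v hv => Submodule.mem_sup_right (kpx_inI_mem G' F' hv)
    · exact fun v hv => Submodule.mem_sup_left (kpx_inF_mem V F hv)
    · exact fun v hv => Submodule.mem_sup_right (kpx_inF_mem V' F' hv)
    · exact fun v hv => Submodule.mem_sup_left (kpx_inT_mem V G hv)
    · exact fun v hv => Submodule.mem_sup_right (kpx_inT_mem V' G' hv)

theorem kpx_prodV_map (V : Submodule K (I → QA K)) (G F : Submodule K (QA K)) :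
    (prodV V G F).map (LinearMap.funLeft K (QA K) Sum.inl) = V := by
  ext v
  constructor
  · rintro ⟨u, hu, rfl⟩
    exact (kpx_mem_prodV.1 hu).1
  · intro hv
    exact ⟨inI K I v, kpx_inI_mem G F hv, rfl⟩

theorem kpx_finrank_prodV {k : ℕ} (V : Submodule K (I → QA K)) (G F : Submodule K (QA K))
    (hV : ∀ v ∈ V, ∀ i, v i ∈ lev K k) (hG : G ≤ levS K k) (hF : F ≤ levS K k) :
    Module.finrank K (prodV V G F) =
      Module.finrank K V + Module.finrank K G + Module.finrank K F := by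
  have f1 : FiniteDimensional K V := KC.finite_of_lev k V hV
  have f2 : FiniteDimensional K G := kpa_fd_of_le hG
  have f3 : FiniteDimensional K F := kpa_fd_of_le hF
  let e : prodV V G F ≃ₗ[K] V × G × F :=
    { toFun := fun u => (⟨fun i => u.1 (Sum.inl i), (kpx_mem_prodV.1 u.2).1⟩,
        ⟨u.1 (Sum.inr false), (kpx_mem_prodV.1 u.2).2.1⟩,
        ⟨u.1 (Sum.inr true), (kpx_mem_prodV.1 u.2).2.2⟩)
      map_add' := fun u v => rfl
      map_smul' := fun c u => rfl
      invFun := fun p => ⟨Sum.elim p.1.1 (fun b => if b then p.2.2.1 else p.2.1.1),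
        kpx_mem_prodV.2 ⟨p.1.2, p.2.1.2, p.2.2.2⟩⟩
      left_inv := fun u => by
        apply Subtype.ext
        funext i
        rcases i with i | b
        · rfl
        · cases b <;> rfl
      right_inv := fun p => rfl }
  rw [LinearEquiv.finrank_eq e, Module.finrank_prod, Module.finrank_prod, add_assoc]

/-- Scalar extension of a product. -/
theorem kpx_extV_prodV (V : Submodule K (I → QA K)) (G F : Submodule K (QA K)) :
    extV (prodV V G F) = prodV (K := K⸨X⸩) (extV V) (ex (L := K⸨X⸩) (Place.laurent K) G) (ex (L := K⸨X⸩) (Place.laurent K) F) := by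
  apply le_antisymm
  · unfold extV
    rw [Submodule.span_le]
    rintro _ ⟨u, hu, rfl⟩
    obtain ⟨a1, a2, a3⟩ := kpx_mem_prodV.1 hu
    refine kpx_mem_prodV.2 ⟨Submodule.subset_span ⟨_, a1, rfl⟩, ?_, ?_⟩
    · exact Submodule.subset_span ⟨_, a2, rfl⟩
    · exact Submodule.subset_span ⟨_, a3, rfl⟩
  · refine kpx_prodV_le (K := K⸨X⸩) ?_ ?_ ?_
    · unfold extV
      rw [Submodule.span_le]
      rintro _ ⟨v, hv, rfl⟩
      have h : inI K⸨X⸩ I (fun i => toC K (v i)) = fun i => toC K (inI K I v i) := by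
        funext i
        rcases i with i | b
        · rfl
        · exact (map_zero (toC K)).symm
      have h2 : (fun i => toC K (inI K I v i)) ∈ extV (prodV V G F) :=
        Submodule.subset_span ⟨_, kpx_inI_mem G F hv, rfl⟩
      rw [← h] at h2
      exact h2
    · refine kpx_ex_le' (L := K⸨X⸩) _ fun v hv => ?_
      have h : inB K⸨X⸩ I false ((Place.laurent K).iq v) = fun i => toC K (inB K I false v i) := by
        funext i
        rcases i with i | b
        · exact (map_zero (toC K)).symm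
        · cases b
          · rfl
          · exact (map_zero (toC K)).symm
      have h2 : (fun i => toC K (inB K I false v i)) ∈ extV (prodV V G F) :=
        Submodule.subset_span ⟨_, kpx_inF_mem V F hv, rfl⟩
      rw [← h] at h2
      exact h2
    · refine kpx_ex_le' (L := K⸨X⸩) _ fun v hv => ?_
      have h : inB K⸨X⸩ I true ((Place.laurent K).iq v) = fun i => toC K (inB K I true v i) := by
        funext i
        rcases i with i | b
        · exact (map_zero (toC K)).symm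
        · cases b
          · exact (map_zero (toC K)).symm
          · rfl
      have h2 : (fun i => toC K (inB K I true v i)) ∈ extV (prodV V G F) :=
        Submodule.subset_span ⟨_, kpx_inT_mem V G hv, rfl⟩
      rw [← h] at h2
      exact h2

theorem kpx_map_mulR_prodV (e : QA K) (V : Submodule K (I → QA K)) (G F : Submodule K (QA K)) :
    (prodV V G F).map (mulR e) = prodV (V.map (mulR e)) (G.map (LinearMap.mulRight K e))
      (F.map (LinearMap.mulRight K e)) := by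
  apply le_antisymm
  · rintro _ ⟨u, hu, rfl⟩
    obtain ⟨a1, a2, a3⟩ := kpx_mem_prodV.1 hu
    exact kpx_mem_prodV.2 ⟨⟨_, a1, rfl⟩, ⟨_, a2, rfl⟩, ⟨_, a3, rfl⟩⟩
  · intro u hu
    obtain ⟨⟨v, hv, hv'⟩, ⟨g, hg, hg'⟩, ⟨f, hf, hf'⟩⟩ := kpx_mem_prodV.1 hu
    refine ⟨Sum.elim v (fun b => if b then f else g), kpx_mem_prodV.2 ⟨hv, hg, hf⟩, ?_⟩
    funext i
    rcases i with i | b
    · exact congrFun hv' i
    · cases b
      · exact hg'
      · exact hf'

/-- `tE k (k+1)` -/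
theorem kpx_tE_succ (k : ℕ) (G : Submodule K (QA K)) :
    tE k (k + 1) G = G ⊔ G.map (LinearMap.mulRight K (S1 k)) ⊔ G.map (LinearMap.mulRight K (S2 k)) ⊔
      G.map (LinearMap.mulRight K (S3 k)) := by
  apply le_antisymm
  · refine kpx_tE_le' fun b hb e he => ?_
    refine kpa_on_induction (p := fun e => b * e ∈ G ⊔ G.map (LinearMap.mulRight K (S1 k)) ⊔
      G.map (LinearMap.mulRight K (S2 k)) ⊔ G.map (LinearMap.mulRight K (S3 k))) he ?_ ?_ ?_
    · rw [mul_zero]; exact zero_mem _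
    · intro u v hu hv
      rw [mul_add]; exact add_mem hu hv
    · intro g x h1 h2
      have h3 : (QA.ec g x : QA K) = x • QA.e g := by
        rw [QA.e_eq_ec, QA.smul_ec, mul_one]
      rw [h3, mul_smul_comm]
      refine Submodule.smul_mem _ _ ?_
      have e1 : g.1 = ∅ ∨ g.1 = {k} := Finset.subset_singleton_iff.1 fun s hs => by
        have h := h1 s hs
        have h' : k ≤ s ∧ s < k + 1 := h
        rw [Finset.mem_singleton]; omega
      have e2 : g.2 = ∅ ∨ g.2 = {k} := Finset.subset_singleton_iff.1 fun s hs => by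
        have h := h2 s hs
        have h' : k ≤ s ∧ s < k + 1 := h
        rw [Finset.mem_singleton]; omega
      have eg : g = (g.1, g.2) := rfl
      rcases e1 with e1 | e1 <;> rcases e2 with e2 | e2 <;> rw [eg, e1, e2]
      · rw [← QA.one_def, mul_one]
        exact Submodule.mem_sup_left (Submodule.mem_sup_left (Submodule.mem_sup_left hb))
      · exact Submodule.mem_sup_left (Submodule.mem_sup_right ⟨b, hb, rfl⟩)
      · exact Submodule.mem_sup_left (Submodule.mem_sup_left (Submodule.mem_sup_right ⟨b, hb, rfl⟩))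
      · exact Submodule.mem_sup_right ⟨b, hb, rfl⟩
  · refine sup_le (sup_le (sup_le (kpx_le_tE _ _ _) ?_) ?_) ?_
    · rintro _ ⟨b, hb, rfl⟩
      exact kpx_mem_tE hb (kpa_S1_mem k)
    · rintro _ ⟨b, hb, rfl⟩
      exact kpx_mem_tE hb (kpa_S2_mem k)
    · rintro _ ⟨b, hb, rfl⟩
      exact kpx_mem_tE hb (kpa_S3_mem k)

theorem kpx_mulE_prodV (k : ℕ) (V : Submodule K (I → QA K)) (G F : Submodule K (QA K)) :
    mulE k (prodV V G F) = prodV (mulE k V) (tE k (k + 1) G) (tE k (k + 1) F) := by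
  unfold mulE
  rw [kpx_map_mulR_prodV, kpx_map_mulR_prodV, kpx_map_mulR_prodV, kpx_prodV_sup, kpx_prodV_sup,
    kpx_prodV_sup, ← kpx_tE_succ, ← kpx_tE_succ]

/-! ### scalar extension and `mulE` of subspaces of `I → QA K` -/

theorem kpx_extV_map_inl (V : Submodule K (I ⊕ Bool → QA K)) :
    (extV V).map (LinearMap.funLeft K⸨X⸩ (QA K⸨X⸩) Sum.inl) =
      extV (V.map (LinearMap.funLeft K (QA K) Sum.inl)) := kpx_funLeft_extV _ _

theorem kpx_mulE_map_inl (k : ℕ) (V : Submodule K (I ⊕ Bool → QA K)) :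
    (mulE k V).map (LinearMap.funLeft K (QA K) Sum.inl) =
      mulE k (V.map (LinearMap.funLeft K (QA K) Sum.inl)) := kpx_funLeft_mulE _ _ _

/-! ### levels -/

theorem kpx_extV_lev {I' : Type} {k : ℕ} (V : Submodule K (I' → QA K))
    (hV : ∀ v ∈ V, ∀ i, v i ∈ lev K k) : ∀ v ∈ extV V, ∀ i, v i ∈ lev K⸨X⸩ k := by
  intro v hv
  refine Submodule.span_induction (p := fun v _ => ∀ i, v i ∈ lev K⸨X⸩ k) ?_ ?_ ?_ ?_ hv
  · rintro _ ⟨u, hu, rfl⟩ i
    exact (Place.laurent K).iq_lev (hV u hu i)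
  · intro i; exact Subalgebra.zero_mem _
  · intro x y _ _ hx hy i
    exact Subalgebra.add_mem _ (hx i) (hy i)
  · intro c x _ hx i
    exact Subalgebra.smul_mem _ (hx i) c

theorem kpx_mulE_lev {I' : Type} {k : ℕ} (V : Submodule K (I' → QA K))
    (hV : ∀ v ∈ V, ∀ i, v i ∈ lev K k) : ∀ v ∈ mulE k V, ∀ i, v i ∈ lev K (k + 1) := by
  have hle : mulE k V ≤ Submodule.pi Set.univ
      (fun _ : I' => Subalgebra.toSubmodule (lev K (k + 1))) := by
    have hm : ∀ e ∈ lev K (k + 1), V.map (mulR e) ≤ Submodule.pi Set.univ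
        (fun _ : I' => Subalgebra.toSubmodule (lev K (k + 1))) := by
      rintro e he _ ⟨v, hv, rfl⟩
      rw [Submodule.mem_pi]
      intro i _
      exact (lev K (k + 1)).mul_mem (kpa_lev_mono (Nat.le_succ k) (hV v hv i)) he
    refine sup_le (sup_le (sup_le ?_ ?_) ?_) ?_
    · intro v hv
      rw [Submodule.mem_pi]
      exact fun i _ => kpa_lev_mono (Nat.le_succ k) (hV v hv i)
    · exact hm _ (kpa_S1_mem_lev k)
    · exact hm _ (kpa_S2_mem_lev k)
    · exact hm _ (kpa_S3_mem_lev k)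
  intro v hv i
  have := hle hv
  rw [Submodule.mem_pi] at this
  exact this i trivial

theorem kpx_sup_lev {I' : Type} {k : ℕ} (V V' : Submodule K (I' → QA K))
    (hV : ∀ v ∈ V, ∀ i, v i ∈ lev K k) (hV' : ∀ v ∈ V', ∀ i, v i ∈ lev K k) :
    ∀ v ∈ V ⊔ V', ∀ i, v i ∈ lev K k := by
  intro v hv i
  obtain ⟨a, ha, b, hb, rfl⟩ := Submodule.mem_sup.1 hv
  exact Subalgebra.add_mem _ (hV a ha i) (hV' b hb i)

namespace Pt

/-! ### the fields `K'`, `K''` at a state with `L(s) ≤ K'` -/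

/-- `K'` is a field: f.d. domain. -/
theorem kpx_K1_inv (s : Pt K I J) (w : NC K I) (hs : s.Good) {u : QA K} (hu : u ∈ s.K1 w)
    (h0 : u ≠ 0) : qinv u ∈ s.K1 w ∧ u * qinv u = 1 ∧ qinv u * u = 1 := by
  have := kpx_fd_K1 s w hs
  exact ⟨kpxl_qinv_mem hu h0, (kpxl_qinv h0).1, (kpxl_qinv h0).2⟩

/-- `L(s) = a R`. -/
theorem kpx_LL_eq (s : Pt K I J) (w : NC K I) (hs : s.Good)
    (hc : s.LL w ≤ Subalgebra.toSubmodule (s.K1 w)) {a : QA K} (ha : a ∈ s.LL w) (h0 : a ≠ 0) :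
    s.LL w = (s.RR w a).map (LinearMap.mulLeft K a) := by
  apply le_antisymm
  · intro u hu
    refine ⟨qinv a * u, kpx_mem_RR s w hs hc ha h0 hu, ?_⟩
    rw [LinearMap.mulLeft_apply, ← mul_assoc, (kpxl_qinv h0).1, one_mul]
  · rintro _ ⟨r, hr, rfl⟩
    exact hr.2

/-! ### the subspaces at reachable states of `S⁺` -/

/-- the `f`-part of `V0` at level `l` -/
noncomputable def FL0 (s : Pt K I J) (w : NC K I) (a : QA K) (P : Place K L) (l : ℕ) :
    Submodule L (QA L) :=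
  Fpart l (P.iq (s.omg w)) (P.iq (qinv a)) (tE s.k l (ex P (Subalgebra.toSubmodule (s.K2 w)))) ⊥

/-- the `f`-part of `V1` at level `l` -/
noncomputable def FL1 (s : Pt K I J) (w : NC K I) (a : QA K) (m0 : Submodule K (QA K))
    (P : Place K L) (l : ℕ) : Submodule L (QA L) :=
  Fpart l (P.iq (s.omg w)) (P.iq (qinv a)) (tE s.k l (ex P (Subalgebra.toSubmodule (s.K2 w))))
    (ex P m0)

/-- general invariants of states reachable from `ext s w a m0` -/
structure ExtInv {L : Type} [Field L] [KF L] (s : Pt K I J) (w : NC K I) (a : QA K)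
    (m0 : Submodule K (QA K)) (P : Place K L) (t : Pt L (I ⊕ Bool) (Option J)) : Prop where
  x : t.x = Sum.inl s.x
  y : t.y = Sum.inl s.y
  k : s.k ≤ t.k
  F : ∀ j, t.F j = ((s.ext w a m0).F j).map P.inc
  ev : ∀ j, (t.F j).ev t.X = 0
  lev : ∀ i, t.X i ∈ lev L t.k
  int : ∀ i, P.Int (t.X i)
  res : ∀ i, P.rq (t.X i) = (s.ext w a m0).X i
  V0 : t.V0 = prodV (s.fgt P t).V0 (Cperp t.k (P.iq (s.omg w))) (s.FL0 w a P t.k)
  V1 : t.V1 = prodV (s.fgt P t).V1 (Cperp t.k (P.iq (s.omg w))) (s.FL1 w a m0 P t.k)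
  V0lev : ∀ v ∈ t.V0, ∀ i, v i ∈ KP.lev L t.k
  V1lev : ∀ v ∈ t.V1, ∀ i, v i ∈ KP.lev L t.k

/-- the constant part of `FL0` -/
noncomputable def F0 (s : Pt K I J) (w : NC K I) (a : QA K) : Submodule K (QA K) :=
  Fpart s.k (s.omg w) (qinv a) (s.K2 w) ⊥

section
variable (s : Pt K I J) (w : NC K I) (hg : s.Good)
  (hc : s.LL w ≤ Subalgebra.toSubmodule (s.K1 w)) {a : QA K} (ha : a ∈ s.LL w) (h0 : a ≠ 0)
include hg hc ha h0

theorem kpx_FL0_eq (P : Place K L) {l : ℕ} (hl : s.k ≤ l) :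
    s.FL0 w a P l = tE s.k l (ex P (s.F0 w a)) := by
  have h := kpx_K1_inv s w hg (hc ha) h0
  exact kpx_Fpart0_up P hl (kpx_om_lev s w hg) (hc ha) h.1 h.2.1 h.2.2 (s.K2 w)
    (kpx_K2_le s w hg hc)

theorem kpx_FL1_eq (m0 : Submodule K (QA K)) (hm : m0 ≤ Subalgebra.toSubmodule (s.K2 w))
    (P : Place K L) {l : ℕ} (hl : s.k ≤ l) :
    s.FL1 w a m0 P l = tE s.k l (ex P (s.F0 w a)) ⊔
      (ex P m0).map (LinearMap.mulLeft L (P.iq a)) := by
  have h := kpx_K1_inv s w hg (hc ha) h0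
  have hω : P.iq (s.omg w) ∈ KP.lev L l := kpx_lev_mono hl (P.iq_lev (kpx_om_lev s w hg))
  have hK1 : ∀ u ∈ s.K1 w, P.iq u ∈ Algebra.adjoin L {P.iq (s.omg w)} := by
    intro u hu
    have h1 := kpx_iq_mem P (B := Subalgebra.toSubmodule (Algebra.adjoin K {s.omg w})) hu
    rw [kpx_ex_adjoin] at h1
    exact h1
  have h2 := kpx_Fpart_split hω (hK1 a (hc ha)) (hK1 _ h.1)
    (by rw [← map_mul, h.2.1, map_one]) (by rw [← map_mul, h.2.2, map_one])
    (tE s.k l (ex P (Subalgebra.toSubmodule (s.K2 w))) : Set (QA L)) (ex P m0)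
    (kpx_ex_le' P fun v hv => hK1 v (kpx_K2_le s w hg hc (hm hv)))
  rw [← kpx_FL0_eq s w hg hc ha h0 P hl]
  exact h2

end

theorem kpx_ex_map_mulLeft (P : Place K L) (u : QA K) (B : Submodule K (QA K)) :
    ex P (B.map (LinearMap.mulLeft K u)) = (ex P B).map (LinearMap.mulLeft L (P.iq u)) := by
  apply le_antisymm
  · refine kpx_ex_le' P ?_
    rintro _ ⟨b, hb, rfl⟩
    refine ⟨P.iq b, kpx_iq_mem P hb, ?_⟩
    rw [LinearMap.mulLeft_apply, LinearMap.mulLeft_apply, map_mul]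
  · rw [Submodule.map_le_iff_le_comap]
    refine kpx_ex_le' P fun b hb => ?_
    rw [Submodule.mem_comap, LinearMap.mulLeft_apply, ← map_mul]
    exact kpx_iq_mem P ⟨b, hb, rfl⟩

/-- the invariants hold at `ext` itself -/
theorem kpx_inv_base (s : Pt K I J) (w : NC K I) (d : ℕ) (h : s.Pkg w d) (a : QA K)
    (m0 : Submodule K (QA K)) (hx : s.ExtOk w a m0) :
    s.ExtInv w a m0 (Place.refl K) (s.ext w a m0) := by
  have hge := kpx_ext_isGood s w h.good h.comm a m0 hx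
  have e1 : ∀ u : QA K, (Place.refl K).iq u = u := kpr_iq_refl
  have e2 : (tE s.k s.k (ex (Place.refl K) (Subalgebra.toSubmodule (s.K2 w))) : Set (QA K)) =
      (s.K2 w : Set (QA K)) := by
    rw [kpx_ex_refl, kpx_tE_self]
    rfl
  refine ⟨rfl, rfl, le_rfl, fun j => ?_, hge.g0, hge.Xlev, fun i => kpr_int_refl _,
    fun i => kpr_rq_refl _, ?_, ?_, fun v hv => hge.V1lev v (hge.V0V1 hv), hge.V1lev⟩
  · exact (NC.kpx_map_id _).symm
  · rw [kpx_fgt_base]
    change (s.ext w a m0).V0 = prodV s.V0 (Cperp s.k ((Place.refl K).iq (s.omg w)))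
      (Fpart s.k ((Place.refl K).iq (s.omg w)) ((Place.refl K).iq (qinv a))
        (tE s.k s.k (ex (Place.refl K) (Subalgebra.toSubmodule (s.K2 w)))) ⊥)
    rw [e1, e1, e2]
    rfl
  · rw [kpx_fgt_base]
    change (s.ext w a m0).V1 = prodV s.V1 (Cperp s.k ((Place.refl K).iq (s.omg w)))
      (Fpart s.k ((Place.refl K).iq (s.omg w)) ((Place.refl K).iq (qinv a))
        (tE s.k s.k (ex (Place.refl K) (Subalgebra.toSubmodule (s.K2 w)))) (ex (Place.refl K) m0))
    rw [e1, e1, e2, kpx_ex_refl]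
    rfl

/-- curve step. -/
theorem kpx_inv_curve {L : Type} [Field L] [KF L] (s : Pt K I J) (w : NC K I) (d : ℕ)
    (h : s.Pkg w d) (a : QA K) (m0 : Submodule K (QA K)) (hx : s.ExtOk w a m0) (P : Place K L)
    (t : Pt L (I ⊕ Bool) (Option J)) (ht : s.ExtInv w a m0 P t) (T : I ⊕ Bool → QA L⟦X⟧)
    (hT : t.IsCurve T) : s.ExtInv (L := L⸨X⸩) w a m0 (P.trans (Place.laurent L)) (t.curve T) := by
  have hω := kpx_om_lev s w h.good
  have hωL : P.iq (s.omg w) ∈ KP.lev L t.k := kpx_lev_mono ht.k (P.iq_lev hω)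
  have eC : ex (L := L⸨X⸩) (Place.laurent L) (Cperp t.k (P.iq (s.omg w))) =
      Cperp (K := L⸨X⸩) t.k ((P.trans (Place.laurent L)).iq (s.omg w)) := by
    rw [kpr_iq_trans, kpx_Cperp_up (L := L⸨X⸩) (Place.laurent L) le_rfl hωL]
    rw [kpx_tE_self (K := L⸨X⸩)]
  have eF0 : ex (L := L⸨X⸩) (Place.laurent L) (s.FL0 w a P t.k) =
      s.FL0 (L := L⸨X⸩) w a (P.trans (Place.laurent L)) t.k := by
    rw [kpx_FL0_eq s w h.good h.comm hx.aL hx.a0 P ht.k,
      kpx_FL0_eq (L := L⸨X⸩) s w h.good h.comm hx.aL hx.a0 _ ht.k,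
      kpx_ex_tE (L := L⸨X⸩), ← kpx_ex_trans (M := L⸨X⸩)]
  have eF1 : ex (L := L⸨X⸩) (Place.laurent L) (s.FL1 w a m0 P t.k) =
      s.FL1 (L := L⸨X⸩) w a m0 (P.trans (Place.laurent L)) t.k := by
    rw [kpx_FL1_eq s w h.good h.comm hx.aL hx.a0 m0 hx.le P ht.k,
      kpx_FL1_eq (L := L⸨X⸩) s w h.good h.comm hx.aL hx.a0 m0 hx.le _ ht.k,
      kpx_ex_sup (L := L⸨X⸩), kpx_ex_tE (L := L⸨X⸩), ← kpx_ex_trans (M := L⸨X⸩),
      kpx_ex_map_mulLeft (L := L⸨X⸩), ← kpx_ex_trans (M := L⸨X⸩), ← kpr_iq_trans]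
  refine ⟨ht.x, ht.y, ht.k, fun j => ?_, fun j => ?_, fun i => ?_, fun i => ?_, fun i => ?_,
    ?_, ?_, ?_, ?_⟩
  · change (t.F j).map (algebraMap L L⸨X⸩) = _
    rw [ht.F j, NC.kpx_map_map]
    rfl
  · change ((t.F j).map (algebraMap L L⸨X⸩)).ev (fun i => toL L (T i)) = 0
    rw [KC.ev_toL, hT.eq j, map_zero]
  · change toL L (T i) ∈ KP.lev L⸨X⸩ t.k
    rw [KC.toL_mem_lev]
    intro m
    rcases Nat.eq_zero_or_pos m with hm | hm
    · rw [hm, hT.zero i]
      exact ht.lev i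
    · exact ht.V1lev _ (hT.mem m hm) i
  · rw [kpr_int_trans]
    change (Place.laurent L).Int (toL L (T i)) ∧ P.Int ((Place.laurent L).rq (toL L (T i)))
    refine ⟨(kpr_int_iff _).2 ⟨_, rfl⟩, ?_⟩
    rw [kpr_rq_toL, hT.zero i]
    exact ht.int i
  · rw [kpr_rq_trans]
    change P.rq ((Place.laurent L).rq (toL L (T i))) = _
    rw [kpr_rq_toL, hT.zero i]
    exact ht.res i
  · rw [kpx_fgt_curve]
    change extV t.V0 = prodV (K := L⸨X⸩) (extV (s.fgt P t).V0) _ _
    rw [ht.V0, kpx_extV_prodV, eC, eF0]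
    rfl
  · rw [kpx_fgt_curve]
    change extV t.V1 = prodV (K := L⸨X⸩) (extV (s.fgt P t).V1) _ _
    rw [ht.V1, kpx_extV_prodV, eC, eF1]
    rfl
  · exact kpx_extV_lev _ ht.V0lev
  · exact kpx_extV_lev _ ht.V1lev

/-- growth step. -/
theorem kpx_inv_grow {L : Type} [Field L] [KF L] (s : Pt K I J) (w : NC K I) (d : ℕ)
    (h : s.Pkg w d) (a : QA K) (m0 : Submodule K (QA K)) (hx : s.ExtOk w a m0) (P : Place K L)
    (t : Pt L (I ⊕ Bool) (Option J)) (ht : s.ExtInv w a m0 P t) (T : I ⊕ Bool → QA L⟦X⟧)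
    (w1 w2 : I ⊕ Bool → QA L) (hT : t.IsGrowth T w1 w2) :
    s.ExtInv (L := L⸨X⸩) w a m0 (P.trans (Place.laurent L)) (t.grow T) := by
  have hω := kpx_om_lev s w h.good
  have hωL : P.iq (s.omg w) ∈ KP.lev L t.k := kpx_lev_mono ht.k (P.iq_lev hω)
  have hωL' : P.iq (s.omg w) ∈ KP.lev L (t.k + 1) := kpx_lev_mono (Nat.le_succ _) hωL
  have hk1 : s.k ≤ t.k + 1 := ht.k.trans (Nat.le_succ _)
  -- the `g`-part
  have eC : tE t.k (t.k + 1) (Cperp t.k (P.iq (s.omg w))) =
      Cperp (t.k + 1) (P.iq (s.omg w)) := by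
    rw [kpx_Cperp_up P ht.k hω, kpx_Cperp_up P hk1 hω, kpx_tE_trans ht.k (Nat.le_succ _)]
  have eC' : ex (L := L⸨X⸩) (Place.laurent L) (Cperp (t.k + 1) (P.iq (s.omg w))) =
      Cperp (K := L⸨X⸩) (t.k + 1) ((P.trans (Place.laurent L)).iq (s.omg w)) := by
    rw [kpr_iq_trans, kpx_Cperp_up (L := L⸨X⸩) (Place.laurent L) le_rfl hωL']
    rw [kpx_tE_self (K := L⸨X⸩)]
  have hCle : Cperp t.k (P.iq (s.omg w)) ≤ Cperp (t.k + 1) (P.iq (s.omg w)) := by
    rw [← eC]; exact kpx_le_tE _ _ _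
  -- the `f`-part
  have eF0 : tE t.k (t.k + 1) (s.FL0 w a P t.k) = s.FL0 w a P (t.k + 1) := by
    rw [kpx_FL0_eq s w h.good h.comm hx.aL hx.a0 P ht.k,
      kpx_FL0_eq s w h.good h.comm hx.aL hx.a0 P hk1, kpx_tE_trans ht.k (Nat.le_succ _)]
  have eF0' : ex (L := L⸨X⸩) (Place.laurent L) (s.FL0 w a P (t.k + 1)) =
      s.FL0 (L := L⸨X⸩) w a (P.trans (Place.laurent L)) (t.k + 1) := by
    rw [kpx_FL0_eq s w h.good h.comm hx.aL hx.a0 P hk1,
      kpx_FL0_eq (L := L⸨X⸩) s w h.good h.comm hx.aL hx.a0 _ hk1,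
      kpx_ex_tE (L := L⸨X⸩), ← kpx_ex_trans (M := L⸨X⸩)]
  have eF1 : s.FL0 w a P (t.k + 1) ⊔ s.FL1 w a m0 P t.k = s.FL1 w a m0 P (t.k + 1) := by
    rw [kpx_FL0_eq s w h.good h.comm hx.aL hx.a0 P hk1,
      kpx_FL1_eq s w h.good h.comm hx.aL hx.a0 m0 hx.le P ht.k,
      kpx_FL1_eq s w h.good h.comm hx.aL hx.a0 m0 hx.le P hk1, ← sup_assoc]
    congr 1
    rw [sup_eq_left]
    have h1 : tE s.k (t.k + 1) (ex P (s.F0 w a)) =
        tE t.k (t.k + 1) (tE s.k t.k (ex P (s.F0 w a))) :=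
      (kpx_tE_trans ht.k (Nat.le_succ _) _).symm
    rw [h1]
    exact kpx_le_tE _ _ _
  have eF1' : ex (L := L⸨X⸩) (Place.laurent L) (s.FL1 w a m0 P (t.k + 1)) =
      s.FL1 (L := L⸨X⸩) w a m0 (P.trans (Place.laurent L)) (t.k + 1) := by
    rw [kpx_FL1_eq s w h.good h.comm hx.aL hx.a0 m0 hx.le P hk1,
      kpx_FL1_eq (L := L⸨X⸩) s w h.good h.comm hx.aL hx.a0 m0 hx.le _ hk1,
      kpx_ex_sup (L := L⸨X⸩), kpx_ex_tE (L := L⸨X⸩), ← kpx_ex_trans (M := L⸨X⸩),
      kpx_ex_map_mulLeft (L := L⸨X⸩), ← kpx_ex_trans (M := L⸨X⸩), ← kpr_iq_trans]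
  have hmul := kpx_mulE_lev t.V0 ht.V0lev
  have hV1' : ∀ v ∈ t.V1, ∀ i, v i ∈ KP.lev L (t.k + 1) := fun v hv i =>
    kpx_lev_mono (Nat.le_succ _) (ht.V1lev v hv i)
  refine ⟨ht.x, ht.y, hk1, fun j => ?_, fun j => ?_, fun i => ?_, fun i => ?_, fun i => ?_,
    ?_, ?_, ?_, ?_⟩
  · change (t.F j).map (algebraMap L L⸨X⸩) = _
    rw [ht.F j, NC.kpx_map_map]
    rfl
  · change ((t.F j).map (algebraMap L L⸨X⸩)).ev (fun i => toL L (T i)) = 0
    rw [KC.ev_toL, hT.eq j, map_zero]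
  · change toL L (T i) ∈ KP.lev L⸨X⸩ (t.k + 1)
    rw [KC.toL_mem_lev]
    intro m
    rcases Nat.eq_zero_or_pos m with hm | hm
    · rw [hm, hT.zero i]
      exact kpx_lev_mono (Nat.le_succ _) (ht.lev i)
    · exact kpx_sup_lev _ _ hmul hV1' _ (hT.mem m hm) i
  · rw [kpr_int_trans]
    change (Place.laurent L).Int (toL L (T i)) ∧ P.Int ((Place.laurent L).rq (toL L (T i)))
    refine ⟨(kpr_int_iff _).2 ⟨_, rfl⟩, ?_⟩
    rw [kpr_rq_toL, hT.zero i]
    exact ht.int i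
  · rw [kpr_rq_trans]
    change P.rq ((Place.laurent L).rq (toL L (T i))) = _
    rw [kpr_rq_toL, hT.zero i]
    exact ht.res i
  · rw [kpx_fgt_grow]
    change extV (mulE t.k t.V0) = prodV (K := L⸨X⸩) (extV (mulE t.k (s.fgt P t).V0)) _ _
    rw [ht.V0, kpx_mulE_prodV, kpx_extV_prodV, eC, eC', eF0, eF0']
    rfl
  · rw [kpx_fgt_grow]
    change extV (mulE t.k t.V0 ⊔ t.V1) =
      prodV (K := L⸨X⸩) (extV (mulE t.k (s.fgt P t).V0 ⊔ (s.fgt P t).V1)) _ _
    rw [ht.V0, ht.V1, kpx_mulE_prodV, kpx_prodV_sup, kpx_extV_prodV, eC,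
      sup_eq_left.2 hCle, eC', eF0, eF1, eF1']
    rfl
  · exact kpx_extV_lev _ hmul
  · exact kpx_extV_lev _ (kpx_sup_lev _ _ hmul hV1')

theorem kpx_inv (s : Pt K I J) (w : NC K I) (d : ℕ) (h : s.Pkg w d) (a : QA K)
    (m0 : Submodule K (QA K)) (hx : s.ExtOk w a m0)
    (L : Type) (iF : Field L) (iK : KF L) (t : Pt L (I ⊕ Bool) (Option J)) (P : Place K L)
    (ht : Rch (s.ext w a m0) L iF iK t P) : s.ExtInv w a m0 P t := by
  induction ht with
  | refl => exact kpx_inv_base s w d h a m0 hx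
  | curve K' iF iK t P _ T hT ih => exact kpx_inv_curve s w d h a m0 hx P t ih T hT
  | grow K' iF iK t P _ T w1 w2 hT ih => exact kpx_inv_grow s w d h a m0 hx P t ih T w1 w2 hT

/-- `f`-components of a curve step -/
theorem kpx_curve_f {L : Type} [Field L] [KF L] (s : Pt K I J) (w : NC K I) (a : QA K)
    (m0 : Submodule K (QA K)) (P : Place K L) (t : Pt L (I ⊕ Bool) (Option J))
    (ht : s.ExtInv w a m0 P t) (T : I ⊕ Bool → QA L⟦X⟧) (hT : t.IsCurve T) (m : ℕ) (hm : 1 ≤ m) :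
    cf m (T (Sum.inr true)) ∈ s.FL1 w a m0 P t.k := by
  have h1 := hT.mem m hm
  rw [ht.V1] at h1
  exact (kpx_mem_prodV.1 h1).2.2

/-- `f`-components of a growth step: `T_m ∈ V0 E_k + V1`. -/
theorem kpx_grow_f {L : Type} [Field L] [KF L] (s : Pt K I J) (w : NC K I) (d : ℕ)
    (h : s.Pkg w d) (a : QA K) (m0 : Submodule K (QA K)) (hx : s.ExtOk w a m0) (P : Place K L)
    (t : Pt L (I ⊕ Bool) (Option J)) (ht : s.ExtInv w a m0 P t) (T : I ⊕ Bool → QA L⟦X⟧)
    (w1 w2 : I ⊕ Bool → QA L) (hT : t.IsGrowth T w1 w2) (m : ℕ) (hm : 1 ≤ m) :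
    cf m (T (Sum.inr true)) ∈ s.FL1 w a m0 P (t.k + 1) := by
  have hk1 : s.k ≤ t.k + 1 := ht.k.trans (Nat.le_succ _)
  have h1 := hT.mem m hm
  rw [ht.V0, ht.V1, kpx_mulE_prodV, kpx_prodV_sup] at h1
  have h2 := (kpx_mem_prodV.1 h1).2.2
  have eF0 : tE t.k (t.k + 1) (s.FL0 w a P t.k) = s.FL0 w a P (t.k + 1) := by
    rw [kpx_FL0_eq s w h.good h.comm hx.aL hx.a0 P ht.k,
      kpx_FL0_eq s w h.good h.comm hx.aL hx.a0 P hk1, kpx_tE_trans ht.k (Nat.le_succ _)]
  have eF1 : s.FL0 w a P (t.k + 1) ⊔ s.FL1 w a m0 P t.k = s.FL1 w a m0 P (t.k + 1) := by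
    rw [kpx_FL0_eq s w h.good h.comm hx.aL hx.a0 P hk1,
      kpx_FL1_eq s w h.good h.comm hx.aL hx.a0 m0 hx.le P ht.k,
      kpx_FL1_eq s w h.good h.comm hx.aL hx.a0 m0 hx.le P hk1, ← sup_assoc]
    congr 1
    rw [sup_eq_left]
    have h1 : tE s.k (t.k + 1) (ex P (s.F0 w a)) =
        tE t.k (t.k + 1) (tE s.k t.k (ex P (s.F0 w a))) :=
      (kpx_tE_trans ht.k (Nat.le_succ _) _).symm
    rw [h1]
    exact kpx_le_tE _ _ _
  rw [eF0, eF1] at h2
  exact h2

end Pt

end Crest.Agent.KP
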