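import Crest.Agent.KP_S

/-!
# S0270 : Lemma R (P3 (G)), statements of the sub-lemmas (author helper97)

Notation everywhere: `s` = `s_5` (interface `Pkg`), `B = K'' = s.K2 w`, `R = s.RR w a`,
`t` a state of `S⁺ = s.ext w a m0` reached through the place `P : Place K L`, `tf = s.fgt P t`,
`Q = 2^(l-k)`.
-/

set_option autoImplicit false
set_option linter.unusedSectionVars false

open scoped PowerSeries LaurentSeries symmDiff

namespace Crest.Agent.KP

/-! ### pure algebra -/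

/-- data of the special element `q = ∑_{i ∈ [k,l)} (S1_i + ρ S2_i)` (alg2). -/
structure QData {K : Type} [Field K] [KF K] (k l : ℕ) (ω : QA K) (B : Subalgebra K (QA K))
    (R : Submodule K (QA K)) (d : ℕ) (q : QA K) : Prop where
  qR : q ∈ tE k l R
  comm : q * ω = ω * q
  dim1 : Module.finrank K (Algebra.adjoin K ({ω, q} : Set (QA K))) =
    Module.finrank K (Algebra.adjoin K ({ω} : Set (QA K))) * 2 ^ (l - k)
  dim2 : Module.finrank K (Algebra.adjoin K ((B : Set (QA K)) ∪ {q})) =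
    Module.finrank K B * 2 ^ (l - k)
  im : Module.finrank K B * 2 ^ (l - k) ≤
    Module.finrank K ((tE k l R).map (Pr l ({ω, q} : Set (QA K)))) + d
  orth : ∀ m ∈ B, m ∈ perp (R : Set (QA K)) → ∀ z ∈ tE k l R,
    QA.tr (m * Pr l ({ω, q} : Set (QA K)) z) = 0
  trq : ∀ m ∈ B, QA.tr (m * q) = 0
  ker : ∀ Z : Submodule K (QA K), Z ≤ tE k l (Subalgebra.toSubmodule B) →
    Module.finrank K Z + Module.finrank K B * 2 ^ (l - k) ≤
      Module.finrank K (Z.map (Pr l ({ω, q} : Set (QA K)))) +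
        Module.finrank K B * 2 ^ (l - k) * 2 ^ (l - k)









namespace Pt

variable {K L I J : Type} [Field K] [KF K] [Field L] [KF L] [Fintype I] [Fintype J]

/-- `l^` on `W ⊗ E`, at level `l'` -/
noncomputable def ellg (s : Pt K I J) (w : NC K I) (P : Place K L)
    (t : Pt L (I ⊕ Bool) (Option J)) (l' : ℕ) : (I → QA L) →ₗ[L] QA L :=
  (Pr l' {P.iq (s.omg w)}).comp
    (((LinearMap.mulRight L (gv t)).comp (LinearMap.mulLeft L (qinv (gv t)))).comp
      ((w.map P.inc).d1l (fun i => t.X (Sum.inl i))))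

/-- `SHyp` without the residue data: `h = g⁻¹ w(T) g = ω + z^δ h_δ + …`, `E_ω(h_δ) = Y`. -/
structure SPre (s : Pt K I J) (w : NC K I) (P : Place K L)
    (t : Pt L (I ⊕ Bool) (Option J)) (T : I → QA L⟦X⟧) (l' : ℕ)
    (g h : QA L⟦X⟧) (δ : ℕ) (Y : QA L) : Prop where
  step : s.SStep w P t T l'
  glev : ∀ m, cf m g ∈ lev L l'
  g0 : cf 0 g = gv t
  hlev : ∀ m, cf m h ∈ lev L l'
  gh : g * h = (w.map P.inc).ev T * g
  h0 : cf 0 h = P.iq (s.omg w)
  δ1 : 1 ≤ δ
  hm : ∀ m, 1 ≤ m → m < δ → cf m h = 0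
  hδ : Pr l' {P.iq (s.omg w)} (cf δ h) = Y

end Pt

end Crest.Agent.KP
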