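import Crest.Agent.KPX_Forget
import Crest.Agent.KP_G0
import Crest.Agent.KP_C
import Crest.Agent.KP_Defs4
import Crest.Agent.KPG_qinv
import Crest.Agent.KPX_State
import Crest.Agent.KPC_Cf

set_option autoImplicit false
set_option linter.unusedSectionVars false

open scoped PowerSeries LaurentSeries symmDiff

namespace Crest.Agent.KP

open Pt

variable {K L I J : Type} [Field K] [KF K] [Field L] [KF L] [Fintype I] [Fintype J]

private theorem g5d_ev_ren {R I I' A : Type} [CommRing R] [Ring A] [Algebra R A] (p : NC R I)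
    (f : I → I') (X : I' → A) : (p.ren f).ev X = p.ev (fun i => X (f i)) := by
  induction p with
  | cst c => rfl
  | var i => rfl
  | add p q hp hq => simp only [NC.ren, NC.ev, hp, hq]
  | mul p q hp hq => simp only [NC.ren, NC.ev, hp, hq]

private theorem g5d_ren_map {R R' I I' : Type} (p : NC R I) (f : I → I') (g : R → R') :
    (p.ren f).map g = (p.map g).ren f := by
  induction p with
  | cst c => rfl
  | var i => rfl
  | add p q hp hq => simp only [NC.ren, NC.map, hp, hq]
  | mul p q hp hq => simp only [NC.ren, NC.map, hp, hq]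

/-- **G5.** curve from `t` in direction `η ∈ W(tf)` (only `f` constant is needed). -/
theorem G5_dir (s : Pt K I J) (w : NC K I) (d : ℕ) (hp : s.Pkg w d) (a : QA K)
    (m0 : Submodule K (QA K)) (hx : s.ExtOk w a m0)
    (t : Pt L (I ⊕ Bool) (Option J)) (P : Place K L)
    (ht : Rch (s.ext w a m0) L inferInstance inferInstance t P)
    (hf : fv t = P.iq (s.omg w))
    (η : I → QA L) (hη : η ∈ (s.fgt P t).W) :
    ∃ (T' : I → QA L⟦X⟧) (g h : QA L⟦X⟧),
      s.SPre w P t T' t.k g h 1 (s.ellh w P t η) := by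
  have hI := kpx_inv s w d hp a m0 hx L _ _ t P ht
  have hreach := _root_.Crest.Agent.KP.kpx_ext_forget s w a m0 hx L _ _ t P ht
  obtain ⟨hgood, -, -⟩ := C_reach s hp.good hp.stable L _ _ _ P hreach
  obtain ⟨T', hT', hT1⟩ := C_dir (s.fgt P t) hgood η hη
  -- the value of `g`
  have hglev : gv t ∈ lev L t.k := hI.lev _
  have hgne : gv t ≠ 0 := by
    intro h0
    have h1 := hI.res (Sum.inr false)
    have h2 : t.X (Sum.inr false) = 0 := h0
    rw [h2, P.rq_zero_aux] at h1
    have h3 : (s.ext w a m0).X (Sum.inr false) = 1 := rfl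
    rw [h3] at h1
    exact zero_ne_one h1
  obtain ⟨q1, q2, q3, -⟩ := qinv_spec t.k (gv t) hglev hgne
  -- the equation `w g = g f`
  have hEq : (w.map P.inc).ev (fun i => t.X (Sum.inl i)) * gv t = gv t * P.iq (s.omg w) := by
    have h1 := hI.ev none
    rw [hI.F none] at h1
    have h2 : (s.ext w a m0).F none = NC.add (NC.mul (w.ren Sum.inl) (NC.var (Sum.inr false)))
      (NC.mul (NC.cst (-1)) (NC.mul (NC.var (Sum.inr false)) (NC.var (Sum.inr true)))) := rfl
    rw [h2] at h1
    simp only [NC.map, NC.ev, g5d_ren_map, g5d_ev_ren, map_neg, map_one] at h1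
    rw [neg_one_mul, add_neg_eq_zero] at h1
    rw [← hf]
    exact h1
  have hX0 : (fun i => cf 0 (T' i)) = fun i => t.X (Sum.inl i) := by
    funext i
    exact hT'.zero i
  have hT'lev : ∀ i, T' i ∈ lev L⟦X⟧ t.k := by
    intro i
    rw [KC.mem_lev_iff_cf]
    intro m
    rcases Nat.eq_zero_or_pos m with rfl | hm
    · have h1 := hT'.zero i
      rw [h1]
      exact hI.lev _
    · exact hgood.V1lev _ (hT'.mem m hm) i
  have hElev : (w.map P.inc).ev T' ∈ lev L⟦X⟧ t.k :=
    KC.ev_mem (lev L⟦X⟧ t.k) T' hT'lev _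
  have hPlev : ∀ u : QA L, u ∈ lev L t.k → toP L u ∈ lev L⟦X⟧ t.k := by
    intro u hu
    rw [KC.mem_lev_iff_cf]
    intro m
    rw [KC.cf_toP]
    split_ifs
    · exact hu
    · exact Subalgebra.zero_mem _
  have hE0 : cf 0 ((w.map P.inc).ev T') = (w.map P.inc).ev (fun i => t.X (Sum.inl i)) := by
    rw [KC.cf0_ev, hX0]
  have hE1 : cf 1 ((w.map P.inc).ev T') = (w.map P.inc).d1 (fun i => t.X (Sum.inl i)) η := by
    rw [KC.cf1_ev, hX0]
    congr 1
    funext i
    exact hT1 i
  refine ⟨T', toP L (gv t), toP L (qinv (gv t)) * (w.map P.inc).ev T' * toP L (gv t), ?_⟩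
  constructor
  · exact Or.inl ⟨rfl, hT'⟩
  · exact fun m => (KC.mem_lev_iff_cf _ _).1 (hPlev _ hglev) m
  · rw [KC.cf_toP, if_pos rfl]
  · exact fun m => (KC.mem_lev_iff_cf _ _).1
      ((lev L⟦X⟧ t.k).mul_mem ((lev L⟦X⟧ t.k).mul_mem (hPlev _ q3) hElev) (hPlev _ hglev)) m
  · rw [← mul_assoc, ← mul_assoc, ← map_mul, q1, map_one, one_mul]
  · rw [KC.cf_mul0, KC.cf_mul0, KC.cf_toP, KC.cf_toP, if_pos rfl, if_pos rfl, hE0, mul_assoc, hEq,
      ← mul_assoc, q2, one_mul]
  · exact le_refl 1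
  · intro m h1 h2
    omega
  · have h1 : cf 1 (toP L (qinv (gv t)) * (w.map P.inc).ev T' * toP L (gv t)) =
        qinv (gv t) * (w.map P.inc).d1 (fun i => t.X (Sum.inl i)) η * gv t := by
      rw [KC.cf_mul1, KC.cf_mul1, KC.cf_mul0]
      simp only [KC.cf_toP, if_true, hE1, one_ne_zero, if_false, mul_zero, zero_mul, add_zero,
        zero_add]
    rw [h1]
    rfl

end Crest.Agent.KP
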