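import Crest.Agent.KPG_M1

/-!
# S0270, part (G)-algebra (author helper47): G2 core
-/

set_option autoImplicit false
set_option linter.unusedSectionVars false

open scoped symmDiff
open Module

namespace Crest.Agent.KP

variable {K : Type} [Field K] [KF K]

/-- `ptr` maps `Φ[e]` into `Φ` -/
theorem kpg_ptr_adj {k0 l : ℕ} {Φ : Subalgebra K (QA K)} (hΦ : Φ ≤ lev K k0) {e : QA K}
    (he : e ∈ mid K k0 l) {z : QA K} (hz : z ∈ adj Φ e) : ptr k0 z ∈ Φ := by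
  have h1 : Subalgebra.toSubmodule (adj Φ e) ≤
      (Subalgebra.toSubmodule Φ).comap (ptr k0) := by
    rw [kpg_adj_mid hΦ he, Submodule.mul_le]
    intro m hm n hn
    have hn' : n ∈ mid K k0 l :=
      (Algebra.adjoin_le (Set.singleton_subset_iff.2 he) : Algebra.adjoin K {e} ≤ mid K k0 l) hn
    rw [Submodule.mem_comap, kpg_ptr_left (hΦ hm), kpg_ptr_mid hn']
    exact Φ.mul_mem hm (Φ.algebraMap_mem _)
  exact h1 hz

/-- (G2, core) `x ∈ lev l` commutes with `Φ`, `e ∈ mid k0 l`, `y` the projection of `x` on the centralizer of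
`Φ ∪ {e}`, `y ∈ Φ[e]`. Then `ptr k0 (x e) ∈ Φ`.
Proof: both `ptr(x e)` and `ptr(y e)` lie in the centralizer `C` of `Φ` in `lev k0`
(`kpg_ptr_left/right`), for `d ∈ C`: `tr((ptr(xe)-ptr(ye)) d) = tr((x-y) (e d)) = 0` as `e d` centralizes `Φ`
and `e`. The trace form is nondegenerate on the subalgebra `C` (`kpg_nondeg`). And `ptr(y e) ∈ Φ` because
`y e ∈ Φ[e] = Φ * K[e]`. -/
theorem kpg_G2_core {k0 l : ℕ} (hl : k0 ≤ l) (Φ : Subalgebra K (QA K)) (hΦ : Φ ≤ lev K k0)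
    (hc : Comm Φ) {x e : QA K} (hx : x ∈ lev K l) (hxc : ∀ φ ∈ Φ, φ * x = x * φ)
    (he : e ∈ mid K k0 l) (hy : Pr l ((Φ : Set (QA K)) ∪ {e}) x ∈ adj Φ e) :
    ptr k0 (x * e) ∈ Φ := by
  obtain ⟨hyl, hyc, hyt⟩ := Pr_spec l ((Φ : Set (QA K)) ∪ {e}) x hx
  set y := Pr l ((Φ : Set (QA K)) ∪ {e}) x with hydef
  -- elements commuting with `Φ`
  have hp : ∀ z : QA K, (∀ φ ∈ Φ, φ * z = z * φ) → ptr k0 (z * e) ∈ cenA k0 (Φ : Set (QA K)) := by
    intro z hz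
    rw [mem_cenA]
    refine ⟨kpg_ptr_mem k0 _, fun φ hφ => ?_⟩
    rw [← kpg_ptr_right (hΦ hφ), ← kpg_ptr_left (hΦ hφ)]
    congr 1
    rw [mul_assoc, ← kpg_comm (hΦ hφ) he, ← mul_assoc, ← mul_assoc, hz φ hφ]
  have hyc' : ∀ φ ∈ Φ, φ * y = y * φ := fun φ hφ => (hyc φ (Or.inl hφ)).symm
  have h1 : ptr k0 (x * e) - ptr k0 (y * e) = 0 := by
    refine kpg_nondeg (k := k0) (cenA k0 (Φ : Set (QA K))) (cenA_le k0 _)
      (sub_mem (hp x hxc) (hp y hyc')) ?_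
    intro d hd
    obtain ⟨hd1, hd2⟩ := mem_cenA.1 hd
    have hde : d * e = e * d := kpg_comm hd1 he
    rw [← map_sub, ← kpg_ptr_right hd1, kpg_tr_ptr, ← sub_mul, mul_assoc]
    refine hyt (e * d) (mul_mem (kpg_mid_le he) (kpg_lev_mono hl hd1)) ?_
    rintro φ (hφ | hφ)
    · rw [mul_assoc, hd2 φ hφ, ← mul_assoc, ← kpg_comm (hΦ hφ) he, mul_assoc]
    · rw [Set.mem_singleton_iff.1 hφ, mul_assoc, hde]
  rw [sub_eq_zero] at h1
  rw [h1]
  exact kpg_ptr_adj hΦ he ((adj Φ e).mul_mem hy kpg_mem_adj)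

end Crest.Agent.KP
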