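import Crest.Agent.KPG_M3
import Crest.Agent.KPG_M4

/-!
# S0270, part (G)-algebra (author helper47): T2
-/

set_option autoImplicit false
set_option linter.unusedSectionVars false

open scoped symmDiff
open Module

namespace Crest.Agent.KP

variable {K : Type} [Field K] [KF K]

/-- (T2, export) if for all `e ∈ mid k0 l` with `dim K[e] = 2^(l-k0)` there are infinitely many `θ` with
`dim Φ[x + θ e] ≤ dim Φ * 2^(l-k0)`, then `x ∈ Φ (x) mid`.
Proof: `kpg_pert` (with `c = θ⁻¹`), `kpg_G2_core`, `kpg_span_e`, `kpg_tE_of_ptr`. -/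
theorem kpg_mem {k0 l : ℕ} (hl : k0 ≤ l) (Φ : Subalgebra K (QA K)) (hΦ : Φ ≤ lev K k0)
    (hc : Comm Φ) {x : QA K} (hx : x ∈ lev K l) (hxc : ∀ φ ∈ Φ, φ * x = x * φ)
    (H : ∀ e ∈ mid K k0 l, finrank K (Algebra.adjoin K ({e} : Set (QA K))) = 2 ^ (l - k0) →
      {θ : K | finrank K (adj Φ (x + θ • e)) ≤ finrank K Φ * 2 ^ (l - k0)}.Infinite) :
    x ∈ tE k0 l (Subalgebra.toSubmodule Φ) := by
  -- elements `e` of full degree
  have h1 : ∀ e ∈ mid K k0 l,
      finrank K (Algebra.adjoin K ({e} : Set (QA K))) = 2 ^ (l - k0) → ptr k0 (x * e) ∈ Φ := by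
    intro e he hd
    refine kpg_G2_core hl Φ hΦ hc hx hxc he ?_
    refine kpg_pert hl Φ hΦ hc (kpg_mid_le he) hx (fun φ hφ => kpg_comm (hΦ hφ) he) hxc ?_
    intro hfin
    refine H e he hd ?_
    refine ((hfin.image (fun c : K => c⁻¹)).union (Set.finite_singleton (0 : K))).subset ?_
    intro θ hθ
    by_cases h0 : θ = 0
    · exact Or.inr h0
    · left
      refine ⟨θ⁻¹, ?_, inv_inv θ⟩
      change finrank K (adj Φ (e + θ⁻¹ • x)) ≤ finrank K (adj Φ e)
      rw [← kpg_adj_swap Φ e x h0, kpg_adj_mid_finrank hΦ he, hd]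
      exact hθ
  refine kpg_tE_of_ptr hl _ hx fun e he => ?_
  have h2 := kpg_span_e hl he
  have h3 : Submodule.span K {e : QA K | e ∈ mid K k0 l ∧
      finrank K (Algebra.adjoin K ({e} : Set (QA K))) = 2 ^ (l - k0)} ≤
      (Subalgebra.toSubmodule Φ).comap ((ptr k0).comp (LinearMap.mulLeft K x)) := by
    rw [Submodule.span_le]
    rintro e' ⟨he', hd'⟩
    exact h1 e' he' hd'
  exact h3 h2

end Crest.Agent.KP
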