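import Crest.Agent.KP_G0
import Crest.Agent.KP_C
import Crest.Agent.KP_Defs4
import Crest.Agent.KPG_qinv
import Crest.Agent.KPG_M5

set_option autoImplicit false
set_option linter.unusedSectionVars false

open scoped PowerSeries LaurentSeries symmDiff

namespace Crest.Agent.KP

open Pt

/-- **ALG1.** (OPEN + PERT + partial trace).  `B ≤ K[ω]`, `u ∈ lev l` commuting with `ω`.  If for
all `e ∈ mid k l` of full degree `2^(l-k)` and all `θ` such that `dim K[ω, u+θe] ≥ n Q` one has
`dim B[u+θe] ≤ N Q`, then `u ∈ B ⊗ mid k l`. -/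
theorem alg1 {K : Type} [Field K] [KF K] (k l : ℕ) (hkl : k ≤ l) (ω : QA K) (hω : ω ∈ lev K k)
    (B : Subalgebra K (QA K)) (hB : B ≤ Algebra.adjoin K ({ω} : Set (QA K)))
    (u : QA K) (hu : u ∈ lev K l) (huω : u * ω = ω * u)
    (H : ∀ e ∈ mid K k l,
      Module.finrank K (Algebra.adjoin K ({e} : Set (QA K))) = 2 ^ (l - k) → ∀ θ : K,
      Module.finrank K (Algebra.adjoin K ({ω} : Set (QA K))) * 2 ^ (l - k) ≤
        Module.finrank K (Algebra.adjoin K ({ω, u + θ • e} : Set (QA K))) →
      Module.finrank K (Algebra.adjoin K ((B : Set (QA K)) ∪ {u + θ • e})) ≤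
        Module.finrank K B * 2 ^ (l - k)) :
    u ∈ tE k l (Subalgebra.toSubmodule B) := by
  set K1 : Subalgebra K (QA K) := Algebra.adjoin K ({ω} : Set (QA K)) with hK1
  have hK1l : K1 ≤ lev K k := Algebra.adjoin_le (Set.singleton_subset_iff.2 hω)
  -- `K[ω]` is commutative and commutes with `u`
  have hcent : ∀ z : QA K, z * ω = ω * z → ∀ φ ∈ K1, φ * z = z * φ := by
    intro z hz φ hφ
    have h1 : K1 ≤ Subalgebra.centralizer K ({z} : Set (QA K)) := by
      refine Algebra.adjoin_le (Set.singleton_subset_iff.2 ?_)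
      rw [SetLike.mem_coe, Subalgebra.mem_centralizer_iff]
      rintro _ rfl
      exact hz
    have h2 := h1 hφ
    rw [Subalgebra.mem_centralizer_iff] at h2
    exact (h2 z rfl).symm
  have hcomm : Comm K1 := by
    intro a ha b hb
    exact hcent b (hcent ω rfl b hb) a ha
  have huc : ∀ φ ∈ K1, φ * u = u * φ := hcent u huω
  refine kpg_mem hkl B (hB.trans hK1l) (fun a ha b hb => hcomm a (hB ha) b (hB hb)) hu
    (fun φ hφ => huc φ (hB hφ)) ?_
  intro e he hd
  have hfin := kpg_open hkl K1 hK1l hcomm he hd hu huc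
  refine hfin.infinite_compl.mono ?_
  intro θ hθ
  have h1 : Module.finrank K K1 * 2 ^ (l - k) ≤ Module.finrank K (adj K1 (u + θ • e)) := by
    by_contra h2
    exact hθ h2
  have h3 : adj K1 (u + θ • e) = Algebra.adjoin K ({ω, u + θ • e} : Set (QA K)) := by
    apply le_antisymm
    · refine kpg_adj_le ?_ ?_
      · exact Algebra.adjoin_mono (Set.singleton_subset_iff.2 (Set.mem_insert _ _))
      · exact Algebra.subset_adjoin (Set.mem_insert_of_mem _ rfl)
    · refine Algebra.adjoin_le ?_
      rintro y (hy | hy)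
      · rw [hy]
        exact kpg_le_adj (Algebra.self_mem_adjoin_singleton K ω)
      · rw [Set.mem_singleton_iff.1 hy]
        exact kpg_mem_adj
  rw [h3] at h1
  exact H e he hd θ h1

end Crest.Agent.KP
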