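import Crest.Agent.KPG_M7a

/-!
# S0270, part (G)-algebra (author helper47): T5
-/

set_option autoImplicit false
set_option linter.unusedSectionVars false

open scoped symmDiff
open Module

namespace Crest.Agent.KP

variable {K : Type} [Field K] [KF K]

/-- (T5, export) the dimension estimate of Lemma R (d): `V ≤ Φ (x) mid`, `Λ` contains the projections of `a v`,
`v ∈ V`, on the centralizer of `S ⊆ K1[q]`. Then
`dim V + dim Φ * 2^(l-k0) ≤ dim Λ + dim Φ * 4^(l-k0)`.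
Proof: `Ψ = Φ[q] ≤ Φ (x) mid`, `Z = {x ∈ Ψ | tr(c' x)=0, c' ∈ a⁻¹Λ} ≤ {x ∈ Φ(x)mid | tr(v x) = 0, v ∈ V}` of
dimension `dim Φ 4^(l-k0) - dim V` (`kpg_nondeg_tE`), `kpg_pair_dim`. -/
theorem kpg_lower3 {k0 l : ℕ} (hl : k0 ≤ l) (Φ K1 : Subalgebra K (QA K)) (hΦ1 : Φ ≤ K1)
    (hK1 : K1 ≤ lev K k0) (hc : Comm K1) {ρ : QA K} (hρ : ρ ∈ Φ)
    {a : QA K} (ha : a ∈ K1) (ha0 : a ≠ 0)
    (S : Set (QA K)) (hS : S ⊆ adj K1 (qs ρ k0 (l - k0)))
    (V : Submodule K (QA K)) (hV : V ≤ tE k0 l (Subalgebra.toSubmodule Φ))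
    (Λ : Submodule K (QA K)) (hΛ : Λ ≤ Subalgebra.toSubmodule (lev K l))
    (h1 : ∀ v ∈ V, ∃ c ∈ Λ, IsPr l S (a * v) c) :
    finrank K V + finrank K Φ * 2 ^ (l - k0) ≤ finrank K Λ + finrank K Φ * 4 ^ (l - k0) := by
  have hΦ : Φ ≤ lev K k0 := hΦ1.trans hK1
  have hcΦ : Comm Φ := fun x hx y hy => hc x (hΦ1 hx) y (hΦ1 hy)
  have hkl : k0 + (l - k0) = l := by omega
  obtain ⟨Z, hZΨ, hdim, hZ1, hZ2⟩ :=
    kpg_lower_setup hl Φ K1 hΦ1 hK1 hc hρ ha ha0 S hS Λ hΛ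
  have B1 := kpg_QL_basic Φ hΦ hcΦ hρ (l - k0)
  rw [hkl] at B1
  have hfin : finrank K (tE k0 l (Subalgebra.toSubmodule Φ)) = finrank K Φ * 4 ^ (l - k0) :=
    kpg_finrank_tE hl (Subalgebra.toSubmodule Φ) hΦ
  have hpos : 0 < finrank K (tE k0 l (Subalgebra.toSubmodule Φ)) := by
    rw [hfin]
    have fdΦ : FiniteDimensional K (Subalgebra.toSubmodule Φ) := kpg_fd_of_le (l := k0) hΦ
    have fdΦ' : FiniteDimensional K Φ := fdΦ
    have h0 : 0 < finrank K Φ := finrank_pos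
    positivity
  have fdT : FiniteDimensional K (tE k0 l (Subalgebra.toSubmodule Φ)) :=
    FiniteDimensional.of_finrank_pos hpos
  have horth := kpg_orth_dim (tE k0 l (Subalgebra.toSubmodule Φ)) V Z hV
    (hZΨ.trans B1.2.2.2.1) (fun x hx hx' => kpg_nondeg_tE hl Φ hΦ hx hx') (by
      intro v hv z hz
      obtain ⟨c, hcΛ, hpr⟩ := h1 v hv
      exact hZ2 z hz v c hcΛ hpr)
  omega

end Crest.Agent.KP
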