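import Crest.Agent.KP_G0
import Crest.Agent.KP_C
import Crest.Agent.KP_Defs4
import Crest.Agent.KPG_M8

set_option autoImplicit false
set_option linter.unusedSectionVars false

open scoped PowerSeries LaurentSeries symmDiff

namespace Crest.Agent.KP

open Pt

section Alg2aux

variable {K : Type} [Field K] [KF K]

private theorem alg2_mem_perp {B : Set (QA K)} {u : QA K} :
    u ∈ perp B ↔ ∀ κ ∈ B, QA.tr (κ * u) = 0 := by
  unfold perp
  simp only [Submodule.mem_iInf, LinearMap.mem_ker, LinearMap.comp_apply, LinearMap.mulLeft_apply]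

private theorem alg2_adjoin_comm {ω : QA K} :
    (∀ a ∈ Algebra.adjoin K ({ω} : Set (QA K)), a * ω = ω * a) ∧
      Comm (Algebra.adjoin K ({ω} : Set (QA K))) := by
  have h1 : ∀ a ∈ Algebra.adjoin K ({ω} : Set (QA K)), a * ω = ω * a := by
    have hle : Algebra.adjoin K ({ω} : Set (QA K)) ≤ Subalgebra.centralizer K {ω} := by
      refine Algebra.adjoin_le ?_
      rintro x rfl
      exact Subalgebra.mem_centralizer_iff K |>.2 fun g hg => by rw [Set.mem_singleton_iff.1 hg]
    intro a ha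
    exact (Subalgebra.mem_centralizer_iff K |>.1 (hle ha) ω rfl).symm
  refine ⟨h1, fun a ha b hb => ?_⟩
  have hle : Algebra.adjoin K ({ω} : Set (QA K)) ≤ Subalgebra.centralizer K {a} := by
    refine Algebra.adjoin_le ?_
    rintro x rfl
    exact Subalgebra.mem_centralizer_iff K |>.2 fun g hg => by
      rw [Set.mem_singleton_iff.1 hg]; exact h1 a ha
  exact Subalgebra.mem_centralizer_iff K |>.1 (hle hb) a rfl

private theorem alg2_tr_S1 (i : ℕ) : QA.tr (S1 i : QA K) = 0 := by
  unfold S1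
  rw [QA.e_eq_ec, kpa_tr_ec, if_neg]
  intro h
  exact (Finset.singleton_ne_empty i) (congrArg Prod.fst h)

private theorem alg2_tr_S2 (i : ℕ) : QA.tr (S2 i : QA K) = 0 := by
  unfold S2
  rw [QA.e_eq_ec, kpa_tr_ec, if_neg]
  intro h
  exact (Finset.singleton_ne_empty i) (congrArg Prod.snd h)

/-- `dim (B ∩ R^⊥) ≤ dim B - dim R` -/
private theorem alg2_perp_dim {k : ℕ} (B : Subalgebra K (QA K)) (hB : B ≤ lev K k)
    (R Z : Submodule K (QA K)) (hR : R ≤ Subalgebra.toSubmodule B)
    (hZ : Z ≤ Subalgebra.toSubmodule B) (h : ∀ x ∈ Z, ∀ r ∈ R, QA.tr (x * r) = 0) :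
    Module.finrank K Z + Module.finrank K R ≤ Module.finrank K B := by
  have hfd : FiniteDimensional K B := kpa_fd_of_le' hB
  let R' : Submodule K B := R.comap (Subalgebra.toSubmodule B).subtype
  have hR' : Module.finrank K R' = Module.finrank K R :=
    (Submodule.comapSubtypeEquivOfLe hR).finrank_eq
  have h1 := Subspace.finrank_add_finrank_dualAnnihilator_eq R'
  have hmem : ∀ x : Z, kpaForm B (Submodule.inclusion hZ x) ∈ R'.dualAnnihilator := by
    intro x
    rw [Submodule.mem_dualAnnihilator]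
    intro r hr
    exact h x x.2 r hr
  let g : Z →ₗ[K] R'.dualAnnihilator :=
    LinearMap.codRestrict R'.dualAnnihilator
      ((kpaForm B).comp (Submodule.inclusion hZ : Z →ₗ[K] B)) hmem
  have hg : Function.Injective g := by
    intro a b hab
    have h2 : kpaForm B (Submodule.inclusion hZ a) = kpaForm B (Submodule.inclusion hZ b) :=
      congrArg Subtype.val hab
    have h3 := kpaForm_inj B h2
    have h4 : (a : QA K) = (b : QA K) := congrArg (fun t : B => (t : QA K)) h3
    exact Subtype.ext h4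
  have h5 := LinearMap.finrank_le_finrank_of_injective hg
  omega

end Alg2aux

/-- **ALG2.** existence of `q`. -/
theorem alg2 {K : Type} [Field K] [KF K] (k l : ℕ) (hkl : k ≤ l) (ω : QA K) (hω : ω ∈ lev K k)
    (B : Subalgebra K (QA K)) (hB : B ≤ Algebra.adjoin K ({ω} : Set (QA K)))
    (R : Submodule K (QA K)) (hR : R ≤ Subalgebra.toSubmodule B) (d : ℕ)
    (hd : Module.finrank K B = Module.finrank K R + d) (h1 : (1 : QA K) ∈ R)
    (ρ : QA K) (hρ : ρ ∈ R) (hρ2 : ∀ u ∈ B, ∃ r1 ∈ R, ∃ r2 ∈ R, u = r1 + ρ * r2) :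
    ∃ q, QData k l ω B R d q := by
  classical
  have hkl' : k + (l - k) = l := by omega
  obtain ⟨hcω, hc1⟩ := alg2_adjoin_comm (K := K) (ω := ω)
  have hK1 : Algebra.adjoin K ({ω} : Set (QA K)) ≤ lev K k :=
    Algebra.adjoin_le (Set.singleton_subset_iff.2 hω)
  have hBl : B ≤ lev K k := hB.trans hK1
  have hcB : Comm B := fun a ha b hb => hc1 a (hB ha) b (hB hb)
  have hρB : ρ ∈ B := hR hρ
  have hS1 : ∀ i, i < l - k → (S1 (k + i) : QA K) ∈ mid K k l := fun i hi =>
    kpa_mid_mono (Nat.le_add_right k i) (by omega) (kpa_S1_mem (k + i))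
  have hS2 : ∀ i, i < l - k → (S2 (k + i) : QA K) ∈ mid K k l := fun i hi =>
    kpa_mid_mono (Nat.le_add_right k i) (by omega) (kpa_S2_mem (k + i))
  obtain ⟨q, hq⟩ : ∃ q, q = qs ρ k (l - k) := ⟨_, rfl⟩
  have hqR : q ∈ tE k l R := by
    rw [hq]
    unfold qs qi tE
    refine Submodule.sum_mem _ fun i hi => ?_
    have hi' := Finset.mem_range.1 hi
    refine Submodule.add_mem _ (Submodule.subset_span ⟨1, h1, S1 (k + i), hS1 i hi', ?_⟩)
      (Submodule.subset_span ⟨ρ, hρ, S2 (k + i), hS2 i hi', rfl⟩)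
    rw [one_mul]
  have hqc : ∀ a ∈ Algebra.adjoin K ({ω} : Set (QA K)), a * q = q * a := by
    intro a ha
    rw [hq]
    unfold qs qi
    rw [Finset.mul_sum, Finset.sum_mul]
    refine Finset.sum_congr rfl fun i hi => ?_
    have hi' := Finset.mem_range.1 hi
    have e1 : a * S1 (k + i) = S1 (k + i) * a := kpa_lev_mid_comm (hK1 ha) (hS1 i hi')
    have e2 : a * S2 (k + i) = S2 (k + i) * a := kpa_lev_mid_comm (hK1 ha) (hS2 i hi')
    have e3 : a * ρ = ρ * a := hc1 a ha ρ (hB hρB)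
    rw [mul_add, add_mul, e1, ← mul_assoc, e3, mul_assoc, e2, mul_assoc]
  have hωK : ω ∈ Algebra.adjoin K ({ω} : Set (QA K)) := Algebra.self_mem_adjoin_singleton K ω
  have hcomm : q * ω = ω * q := (hqc ω hωK).symm
  have hadj : adj (Algebra.adjoin K ({ω} : Set (QA K))) q =
      Algebra.adjoin K ({ω, q} : Set (QA K)) := by
    refine le_antisymm ?_ ?_
    · unfold adj
      refine Algebra.adjoin_le ?_
      rintro x (hx | hx)
      · exact Algebra.adjoin_mono (by rintro y rfl; exact Set.mem_insert _ _) hx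
      · rw [Set.mem_singleton_iff.1 hx]
        exact Algebra.subset_adjoin (Set.mem_insert_of_mem _ rfl)
    · refine Algebra.adjoin_le ?_
      rintro x (hx | hx)
      · rw [hx]
        exact kpg_le_adj hωK
      · rw [Set.mem_singleton_iff.1 hx]
        exact kpg_mem_adj
  have htEl : tE k l R ≤ Subalgebra.toSubmodule (lev K l) :=
    kpg_tE_le hkl R (hR.trans hBl)
  have hql : q ∈ lev K l := htEl hqR
  have hadjl : adj (Algebra.adjoin K ({ω} : Set (QA K))) q ≤ lev K l :=
    kpg_adj_le (hK1.trans (kpg_lev_mono hkl)) hql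
  have hadjB : adj B q ≤ adj (Algebra.adjoin K ({ω} : Set (QA K))) q :=
    kpg_adj_le (hB.trans kpg_le_adj) kpg_mem_adj
  have hcadj : Comm (adj (Algebra.adjoin K ({ω} : Set (QA K))) q) := kpg_adj_comm hc1 hqc
  have hS : ({ω, q} : Set (QA K)) ⊆ (adj (Algebra.adjoin K ({ω} : Set (QA K))) q : Set (QA K)) := by
    rintro x (hx | hx)
    · rw [hx]
      exact kpg_le_adj hωK
    · rw [Set.mem_singleton_iff.1 hx]
      exact kpg_mem_adj
  -- the trace identity
  have htr : ∀ z ∈ lev K l, ∀ x ∈ adj (Algebra.adjoin K ({ω} : Set (QA K))) q,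
      QA.tr (Pr l ({ω, q} : Set (QA K)) z * x) = QA.tr (z * x) := by
    intro z hz x hx
    have h2 := (Pr_spec l ({ω, q} : Set (QA K)) z hz).2.2 x (hadjl hx)
      (fun φ hφ => hcadj x hx φ (hS hφ))
    rw [sub_mul, map_sub, sub_eq_zero] at h2
    exact h2.symm
  have hdim2 : Module.finrank K (adj B q) = Module.finrank K B * 2 ^ (l - k) := by
    rw [hq]
    exact kpg_qs_finrank hkl B hBl hcB hρB
  refine ⟨q, hqR, hcomm, ?_, hdim2, ?_, ?_, ?_, ?_⟩
  · rw [← hadj, hq]
    exact kpg_qs_finrank hkl _ hK1 hc1 (hB hρB)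
  · -- im
    have hfd1 : FiniteDimensional K (tE k l R) := kpa_fd_of_le htEl
    have hfd2 : FiniteDimensional K (Subalgebra.toSubmodule (adj B q)) :=
      kpa_fd_of_le (k := l) (hadjB.trans hadjl)
    set Λ := (tE k l R).map (Pr l ({ω, q} : Set (QA K))) with hΛ
    have hfd3 : FiniteDimensional K Λ := by
      rw [hΛ]; infer_instance
    set Z : Submodule K (QA K) := Subalgebra.toSubmodule (adj B q) ⊓ perp (Λ : Set (QA K)) with hZ
    have h3 := kpg_pair_dim (Subalgebra.toSubmodule (adj B q)) Λ Z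
      (fun x hx hx' => ⟨hx, alg2_mem_perp.2 hx'⟩) inf_le_left
    have hZ2 : ∀ x ∈ Z, ∀ r ∈ R, ∀ e ∈ mid K k l, QA.tr (x * (r * e)) = 0 := by
      rintro x ⟨hx1, hx2⟩ r hr e he
      have hre : r * e ∈ tE k l R := Submodule.subset_span ⟨r, hr, e, he, rfl⟩
      have h4 := alg2_mem_perp.1 hx2 _ (Submodule.mem_map_of_mem (f := Pr l ({ω, q} : Set (QA K))) hre)
      rw [htr _ (htEl hre) x (hadjB hx1)] at h4
      rw [kpa_tr_comm]
      exact h4
    have hZB : Z ≤ Subalgebra.toSubmodule B := by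
      intro x hx
      have hx1 : x ∈ QL B ρ k (l - k) := by
        rw [← kpg_adj_qs B hBl hcB hρB, ← hq]
        exact hx.1
      refine kpg_QL_F2 B hBl hcB hρB R hR hρ2 (l - k) hx1 ?_
      rw [hkl']
      exact hZ2 x hx
    have h5 := alg2_perp_dim B hBl R Z hR hZB (fun x hx r hr => by
      have := hZ2 x hx r hr 1 (one_mem _)
      rwa [mul_one] at this)
    have h6 : Module.finrank K (Subalgebra.toSubmodule (adj B q)) =
        Module.finrank K B * 2 ^ (l - k) := hdim2
    rw [h6] at h3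
    omega
  · -- orth
    intro m hm hmR z hz
    have hmK : m ∈ adj (Algebra.adjoin K ({ω} : Set (QA K))) q := kpg_le_adj (hB hm)
    rw [kpa_tr_comm, htr z (htEl hz) m hmK]
    unfold tE at hz
    refine Submodule.span_induction (p := fun z _ => QA.tr (z * m) = 0) ?_ ?_ ?_ ?_ hz
    · rintro _ ⟨b, hb, e, he, rfl⟩
      have hb' : b ∈ lev K k := hBl (hR hb)
      have hm' : m ∈ lev K k := hBl hm
      rw [kpa_tr_comm, ← mul_assoc, kpa_tr_lev_mid (mul_mem hm' hb') he, kpa_tr_comm,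
        alg2_mem_perp.1 hmR b hb, zero_mul]
    · rw [zero_mul, map_zero]
    · intro x y _ _ hx hy
      rw [add_mul, map_add, hx, hy, add_zero]
    · intro c x _ hx
      rw [smul_mul_assoc, map_smul, hx, smul_zero]
  · -- trq
    intro m hm
    have hm' : m ∈ lev K k := hBl hm
    rw [hq]
    unfold qs qi
    rw [Finset.mul_sum, map_sum]
    refine Finset.sum_eq_zero fun i hi => ?_
    have hi' := Finset.mem_range.1 hi
    rw [mul_add, map_add, kpa_tr_lev_mid hm' (hS1 i hi'), ← mul_assoc,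
      kpa_tr_lev_mid (mul_mem hm' (hBl hρB)) (hS2 i hi'), alg2_tr_S1, alg2_tr_S2, mul_zero,
      mul_zero, add_zero]
  · -- ker
    intro Z hZ
    have hBtE : tE k l (Subalgebra.toSubmodule B) ≤ Subalgebra.toSubmodule (lev K l) :=
      kpg_tE_le hkl _ hBl
    have hΛ : Z.map (Pr l ({ω, q} : Set (QA K))) ≤ Subalgebra.toSubmodule (lev K l) := by
      rintro _ ⟨z, hz, rfl⟩
      exact (Pr_spec l ({ω, q} : Set (QA K)) z (hBtE (hZ hz))).1
    have h7 := kpg_lower3 hkl B (Algebra.adjoin K ({ω} : Set (QA K))) hB hK1 hc1 hρB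
      (a := 1) (one_mem _) one_ne_zero ({ω, q} : Set (QA K)) (by rw [← hq]; exact hS) Z hZ
      (Z.map (Pr l ({ω, q} : Set (QA K)))) hΛ
      (fun v hv => ⟨_, Submodule.mem_map_of_mem hv, by
        rw [one_mul]; exact Pr_spec l ({ω, q} : Set (QA K)) v (hBtE (hZ hv))⟩)
    have h8 : (4 : ℕ) ^ (l - k) = 2 ^ (l - k) * 2 ^ (l - k) := by
      rw [← mul_pow]
      norm_num
    rw [h8, ← mul_assoc] at h7
    exact h7

end Crest.Agent.KP
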