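import Crest.Agent.KP_G0
import Crest.Agent.KP_C
import Crest.Agent.KP_Defs4

set_option autoImplicit false
set_option linter.unusedSectionVars false

open scoped PowerSeries LaurentSeries symmDiff

namespace Crest.Agent.KP

open Pt

/-- **ALG3.** if `u ∈ B \ R` then a space containing `a (u+q)` and all `a E_q(z)`, `z ∈ R ⊗ E`,
has dimension `> N Q - d`. -/
theorem alg3 {K : Type} [Field K] [KF K] (k l : ℕ) (hkl : k ≤ l) (ω : QA K) (hω : ω ∈ lev K k)
    (B : Subalgebra K (QA K)) (hB : B ≤ Algebra.adjoin K ({ω} : Set (QA K)))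
    (R : Submodule K (QA K)) (hR : R ≤ Subalgebra.toSubmodule B) (d : ℕ)
    (q : QA K) (hq : QData k l ω B R d q) (a : QA K) (ha : a ∈ lev K k) (ha0 : a ≠ 0)
    (haω : a ∈ Algebra.adjoin K ({ω} : Set (QA K)))
    (u : QA K) (hu : u ∈ B) (huR : u ∉ R)
    (Z : Submodule K (QA K)) (hZl : Z ≤ Subalgebra.toSubmodule (lev K l))
    (hZ1 : a * (u + q) ∈ Z) (hZ2 : ∀ z ∈ tE k l R, a * Pr l ({ω, q} : Set (QA K)) z ∈ Z) :
    Module.finrank K B * 2 ^ (l - k) < Module.finrank K Z + d := by
  have hBl : B ≤ lev K k := hB.trans (Algebra.adjoin_le (by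
    intro x hx
    rw [Set.mem_singleton_iff.1 hx]
    exact hω))
  have : FiniteDimensional K B := kpa_fd_of_le' hBl
  have : FiniteDimensional K Z := kpa_fd_of_le hZl
  set M : Submodule K (QA K) := (tE k l R).map (Pr l ({ω, q} : Set (QA K))) with hM
  have hinj : Function.Injective (LinearMap.mulLeft K a) := fun x y hxy =>
    mul_left_cancel₀ ha0 (by simpa using hxy)
  have hVZ : M.map (LinearMap.mulLeft K a) ≤ Z := by
    rintro _ ⟨_, ⟨z, hz, rfl⟩, rfl⟩
    exact hZ2 z hz
  have hVdim : Module.finrank K (M.map (LinearMap.mulLeft K a)) = Module.finrank K M :=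
    (LinearEquiv.finrank_eq (Submodule.equivMapOfInjective _ hinj M)).symm
  have hnot : a * (u + q) ∉ M.map (LinearMap.mulLeft K a) := by
    rintro ⟨_, ⟨z, hz, rfl⟩, h2⟩
    have h3 : Pr l ({ω, q} : Set (QA K)) z = u + q := hinj (by simpa using h2)
    -- separate `u` from `R`
    have hu' : (⟨u, hu⟩ : B) ∉ R.comap (Subalgebra.toSubmodule B).subtype := fun h => huR h
    obtain ⟨φ, hφ1, hφ2⟩ := Submodule.exists_dual_map_eq_bot_of_notMem hu' inferInstance
    have hm1 : kpaFormE B ((kpaFormE B).symm φ) = φ := LinearEquiv.apply_symm_apply _ _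
    set m : B := (kpaFormE B).symm φ with hm
    have hm2 : ∀ x : B, QA.tr ((m : QA K) * (x : QA K)) = φ x := by
      intro x
      have := LinearMap.congr_fun hm1 x
      exact this
    have hm3 : (m : QA K) ∈ perp (R : Set (QA K)) := by
      unfold perp
      simp only [Submodule.mem_iInf]
      intro κ hκ
      rw [LinearMap.mem_ker]
      show QA.tr (κ * (m : QA K)) = 0
      rw [kpa_tr_comm]
      rw [hm2 ⟨κ, hR hκ⟩]
      have : φ ⟨κ, hR hκ⟩ ∈ (R.comap (Subalgebra.toSubmodule B).subtype).map φ :=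
        ⟨⟨κ, hR hκ⟩, hκ, rfl⟩
      rw [hφ2] at this
      simpa using this
    have h4 := hq.orth m m.2 hm3 z hz
    rw [h3, mul_add, map_add, hq.trq m m.2, add_zero, hm2 ⟨u, hu⟩] at h4
    exact hφ1 h4
  have hlt : M.map (LinearMap.mulLeft K a) < Z :=
    lt_of_le_of_ne hVZ (fun h => hnot (h ▸ hZ1))
  have h5 := Submodule.finrank_lt_finrank_of_lt hlt
  have h6 := hq.im
  rw [hVdim] at h5
  rw [← hM] at h6
  omega

end Crest.Agent.KP
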