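import Crest.Agent.KP_G0
import Crest.Agent.KP_C
import Crest.Agent.KP_Defs4

set_option autoImplicit false
set_option linter.unusedSectionVars false

open scoped PowerSeries LaurentSeries symmDiff

namespace Crest.Agent.KP

open Pt

private theorem alg4_uniq {K : Type} [Field K] [KF K] {k : ℕ} {S : Set (QA K)} {u c c' : QA K}
    (h : IsPr k S u c) (h' : IsPr k S u c') : c = c' := by
  have h1 : c - c' = 0 := by
    refine kpa_sub_nondeg (B := cenA k S) ?_ fun d hd => ?_
    · exact Subalgebra.sub_mem _ (mem_cenA.2 ⟨h.1, h.2.1⟩) (mem_cenA.2 ⟨h'.1, h'.2.1⟩)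
    · obtain ⟨hd1, hd2⟩ := mem_cenA.1 hd
      have e1 := h.2.2 d hd1 hd2
      have e2 := h'.2.2 d hd1 hd2
      have : (c - c') * d = (u - c') * d - (u - c) * d := by
        rw [← sub_mul]; congr 1; abel
      rw [this, map_sub, e1, e2, sub_zero]
  exact sub_eq_zero.1 h1

/-- whatever commutes with `ω` commutes with `K[ω]`. -/
private theorem alg4_comm {K : Type} [Field K] [KF K] {ω a c : QA K}
    (ha : a ∈ Algebra.adjoin K ({ω} : Set (QA K))) (hc : c * ω = ω * c) : c * a = a * c := by
  have h1 : Algebra.adjoin K ({ω} : Set (QA K)) ≤ Subalgebra.centralizer K {c} := by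
    refine Algebra.adjoin_le ?_
    intro x hx
    rw [Set.mem_singleton_iff] at hx
    subst hx
    change x ∈ Subalgebra.centralizer K {c}
    rw [Subalgebra.mem_centralizer_iff]
    intro y hy
    rw [Set.mem_singleton_iff] at hy
    subst hy
    exact hc
  have h2 := h1 ha
  rw [Subalgebra.mem_centralizer_iff] at h2
  exact h2 c rfl

/-- **ALG4.** changing `q` to `u + q`, `u ∈ K[ω]`, does not change the projection; and
`E(a z) = a E(z)`. -/
theorem alg4 {K : Type} [Field K] [KF K] (k l : ℕ) (hkl : k ≤ l) (ω : QA K) (hω : ω ∈ lev K k)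
    (q u a : QA K) (hq : q ∈ lev K l) (hqω : q * ω = ω * q)
    (hu : u ∈ Algebra.adjoin K ({ω} : Set (QA K)))
    (ha : a ∈ Algebra.adjoin K ({ω} : Set (QA K))) (z : QA K) (hz : z ∈ lev K l) :
    Pr l ({ω, u + q} : Set (QA K)) (a * z) = a * Pr l ({ω, q} : Set (QA K)) z := by
  have hωl : ω ∈ lev K l := kpa_lev_mono hkl hω
  have hadj : Algebra.adjoin K ({ω} : Set (QA K)) ≤ lev K l := by
    refine Algebra.adjoin_le ?_
    intro x hx
    rw [Set.mem_singleton_iff] at hx
    subst hx
    exact hωl
  have hul := hadj hu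
  have hal := hadj ha
  obtain ⟨p1, p2, p3⟩ := Pr_spec l ({ω, q} : Set (QA K)) z hz
  set c := Pr l ({ω, q} : Set (QA K)) z with hc
  have hcω : c * ω = ω * c := p2 ω (by simp)
  have hcq : c * q = q * c := p2 q (by simp)
  have haω : a * ω = ω * a := (alg4_comm ha rfl).symm
  have haq : a * q = q * a := (alg4_comm ha hqω).symm
  have hcu : c * u = u * c := alg4_comm hu hcω
  have hau : a * u = u * a := by
    have h1 : ω * u = u * ω := alg4_comm hu rfl
    exact (alg4_comm ha h1.symm).symm
  refine alg4_uniq (Pr_spec l _ _ (Subalgebra.mul_mem _ hal hz)) ⟨?_, ?_, ?_⟩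
  · exact Subalgebra.mul_mem _ hal p1
  · intro φ hφ
    rcases hφ with hφ | hφ
    · subst hφ
      rw [mul_assoc, hcω, ← mul_assoc, haω, mul_assoc]
    · rw [Set.mem_singleton_iff] at hφ
      subst hφ
      have h1 : c * (u + q) = (u + q) * c := by rw [mul_add, add_mul, hcu, hcq]
      have h2 : a * (u + q) = (u + q) * a := by rw [mul_add, add_mul, hau, haq]
      rw [mul_assoc, h1, ← mul_assoc, h2, mul_assoc]
  · intro d hd hdS
    have hdω : d * ω = ω * d := hdS ω (by simp)
    have hduq : d * (u + q) = (u + q) * d := hdS (u + q) (by simp)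
    have hdu : d * u = u * d := alg4_comm hu hdω
    have hdq : d * q = q * d := by
      rw [mul_add, add_mul, hdu] at hduq
      exact add_left_cancel hduq
    have h1 : (a * z - a * c) * d = a * ((z - c) * d) := by rw [← mul_sub, mul_assoc]
    rw [h1, kpa_tr_comm, mul_assoc]
    refine p3 (d * a) (Subalgebra.mul_mem _ hd hal) ?_
    intro φ hφ
    rcases hφ with hφ | hφ
    · subst hφ
      rw [mul_assoc, haω, ← mul_assoc, hdω, mul_assoc]
    · rw [Set.mem_singleton_iff] at hφ
      subst hφ
      rw [mul_assoc, haq, ← mul_assoc, hdq, mul_assoc]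

end Crest.Agent.KP
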