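import Crest.Agent.KP_G0
import Crest.Agent.KP_C
import Crest.Agent.KP_Defs4

set_option autoImplicit false
set_option linter.unusedSectionVars false

open scoped PowerSeries LaurentSeries symmDiff

namespace Crest.Agent.KP

open Pt

/-- **ALG5.** `K[ω, u+q] = K[ω,q]` and `B[u+q] = B[q]` for `u ∈ B ≤ K[ω]`. -/
theorem alg5 {K : Type} [Field K] [KF K] (ω : QA K) (B : Subalgebra K (QA K))
    (hB : B ≤ Algebra.adjoin K ({ω} : Set (QA K))) (q u : QA K) (hu : u ∈ B) :
    Algebra.adjoin K ({ω, u + q} : Set (QA K)) = Algebra.adjoin K ({ω, q} : Set (QA K)) ∧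
    Algebra.adjoin K ((B : Set (QA K)) ∪ {u + q}) = Algebra.adjoin K ((B : Set (QA K)) ∪ {q}) := by
  constructor
  · apply le_antisymm
    · apply Algebra.adjoin_le
      rintro a (rfl | ha)
      · exact Algebra.subset_adjoin (Set.mem_insert _ _)
      · rw [Set.mem_singleton_iff] at ha
        rw [ha]
        refine add_mem ?_ (Algebra.subset_adjoin (Set.mem_insert_of_mem _ rfl))
        exact Algebra.adjoin_mono (Set.singleton_subset_iff.2 (Set.mem_insert _ _)) (hB hu)
    · apply Algebra.adjoin_le
      rintro a (rfl | ha)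
      · exact Algebra.subset_adjoin (Set.mem_insert _ _)
      · rw [Set.mem_singleton_iff] at ha
        rw [ha]
        have h1 : u ∈ Algebra.adjoin K ({ω, u + q} : Set (QA K)) :=
          Algebra.adjoin_mono (Set.singleton_subset_iff.2 (Set.mem_insert _ _)) (hB hu)
        have h2 : u + q ∈ Algebra.adjoin K ({ω, u + q} : Set (QA K)) :=
          Algebra.subset_adjoin (Set.mem_insert_of_mem _ rfl)
        have h4 := sub_mem h2 h1
        rwa [add_sub_cancel_left] at h4
  · apply le_antisymm
    · apply Algebra.adjoin_le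
      rintro a (ha | ha)
      · exact Algebra.subset_adjoin (Or.inl ha)
      · rw [Set.mem_singleton_iff] at ha
        rw [ha]
        exact add_mem (Algebra.subset_adjoin (Or.inl hu)) (Algebra.subset_adjoin (Or.inr rfl))
    · apply Algebra.adjoin_le
      rintro a (ha | ha)
      · exact Algebra.subset_adjoin (Or.inl ha)
      · rw [Set.mem_singleton_iff] at ha
        rw [ha]
        have h1 : u ∈ Algebra.adjoin K ((B : Set (QA K)) ∪ {u + q}) :=
          Algebra.subset_adjoin (Or.inl hu)
        have h2 : u + q ∈ Algebra.adjoin K ((B : Set (QA K)) ∪ {u + q}) :=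
          Algebra.subset_adjoin (Or.inr rfl)
        have h4 := sub_mem h2 h1
        rwa [add_sub_cancel_left] at h4

end Crest.Agent.KP
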