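import Crest.Agent.KPS_S
import Crest.Agent.KPX_Forget
import Crest.Agent.KP_G0
import Crest.Agent.KP_C
import Crest.Agent.KP_Defs4
import Crest.Agent.KPB_latS
import Crest.Agent.KPG_alg1
import Crest.Agent.KPG_alg2
import Crest.Agent.KPG_alg3
import Crest.Agent.KPG_alg4
import Crest.Agent.KPG_alg5
import Crest.Agent.KPG_qinv
import Crest.Agent.KPG_G5_dir
import Crest.Agent.KPG_G3

set_option autoImplicit false
set_option linter.unusedSectionVars false

open scoped PowerSeries LaurentSeries symmDiff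

namespace Crest.Agent.KP

open Pt

variable {K L I J : Type} [Field K] [KF K] [Field L] [KF L] [Fintype I] [Fintype J]

private theorem kg11_ev_lev (w : NC K I) (X : I → QA K) (k : ℕ) (hX : ∀ i, X i ∈ lev K k) :
    w.ev X ∈ lev K k := by
  induction w with
  | cst c => exact (lev K k).algebraMap_mem c
  | var i => exact hX i
  | add p q hp hq => exact add_mem hp hq
  | mul p q hp hq => exact mul_mem hp hq

private theorem kg11_k_le {K0 I' J' : Type} [Field K0] [KF K0] [Fintype I'] [Fintype J']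
    (s0 : Pt K0 I' J') (M : Type) (iF : Field M) (iK : KF M) (t : Pt M I' J') (P : Place K0 M)
    (h : Rch s0 M iF iK t P) : s0.k ≤ t.k := by
  induction h with
  | refl => exact le_rfl
  | curve K iF iK s P h T hT ih => exact ih
  | grow K iF iK s P h T w1 w2 hT ih => exact ih.trans (Nat.le_succ _)

private theorem kg11_comm {A : Type} [Ring A] [Algebra K A] {ω x y : A}
    (hx : x ∈ Algebra.adjoin K ({ω} : Set A)) (hy : y ∈ Algebra.adjoin K ({ω} : Set A)) :
    x * y = y * x := by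
  have h1 : Commute ω x := Algebra.commute_of_mem_adjoin_self hx
  exact Algebra.commute_of_mem_adjoin_singleton_of_commute hy h1.symm

private theorem kg11_K1_le (s : Pt K I J) (w : NC K I) (hg : s.Good) : s.K1 w ≤ lev K s.k := by
  refine Algebra.adjoin_le ?_
  rintro _ rfl
  exact kg11_ev_lev w s.X s.k hg.Xlev

private theorem kg11_K2_le (s : Pt K I J) (w : NC K I) (hg : s.Good)
    (hc : s.LL w ≤ Subalgebra.toSubmodule (s.K1 w)) : s.K2 w ≤ s.K1 w := by
  refine Algebra.adjoin_le ?_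
  rintro u ⟨hul, b, hb, hb0, hub⟩
  have : FiniteDimensional K (s.K1 w) := kpa_fd_of_le' (kg11_K1_le s w hg)
  obtain ⟨v, hv, h1, h2⟩ := kpa_inv (hc hb) hb0
  have h3 : u = (u * b) * v := by rw [mul_assoc, h1, mul_one]
  rw [h3]
  exact mul_mem (hc hub) hv

private theorem kg11_RR (s : Pt K I J) (w : NC K I) (hg : s.Good)
    (hc : s.LL w ≤ Subalgebra.toSubmodule (s.K1 w)) (a : QA K) (ha : a ∈ s.LL w) (ha0 : a ≠ 0) :
    Module.finrank K (s.RR w a) = s.nL w := by
  have hK1 := kg11_K1_le s w hg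
  have : FiniteDimensional K (s.K1 w) := kpa_fd_of_le' hK1
  obtain ⟨v, hv, h1, h2⟩ := kpa_inv (hc ha) ha0
  have hmap : (s.RR w a).map (LinearMap.mulLeft K a) = s.LL w := by
    apply le_antisymm
    · rintro _ ⟨u, ⟨_, hu⟩, rfl⟩
      exact hu
    · intro b hb
      have hab : a * (v * b) = b := by rw [← mul_assoc, h1, one_mul]
      refine ⟨v * b, ⟨?_, ?_⟩, hab⟩
      · refine Algebra.subset_adjoin ⟨mul_mem (hK1 hv) (hK1 (hc hb)), a, ha, ha0, ?_⟩
        have h4 : v * b * a = a * (v * b) := kg11_comm (mul_mem hv (hc hb)) (hc ha)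
        rw [h4, hab]
        exact hb
      · show a * (v * b) ∈ s.LL w
        rw [hab]
        exact hb
  have hinj : Function.Injective (LinearMap.mulLeft K a) := fun x y h =>
    mul_left_cancel₀ ha0 h
  unfold nL
  rw [← hmap]
  exact (Submodule.equivMapOfInjective _ hinj _).finrank_eq

private theorem kg11_tE_le (k l : ℕ) (hkl : k ≤ l) (R : Submodule K (QA K))
    (hR : R ≤ Subalgebra.toSubmodule (lev K k)) :
    tE k l R ≤ Subalgebra.toSubmodule (lev K l) := by
  refine Submodule.span_le.2 ?_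
  rintro _ ⟨b, hb, e, he, rfl⟩
  exact (lev K l).mul_mem (kpa_lev_mono hkl (hR hb)) (kpa_mid_le_lev k l he)

private theorem kg11_fd (V : Submodule L (I → QA L)) (k : ℕ)
    (h : ∀ v ∈ V, ∀ i, v i ∈ lev L k) : FiniteDimensional L V := by
  let f : V →ₗ[L] (I → lev L k) :=
    { toFun := fun v i => ⟨(v : I → QA L) i, h v v.2 i⟩
      map_add' := fun _ _ => rfl
      map_smul' := fun _ _ => rfl }
  refine Module.Finite.of_injective f ?_
  intro x y hxy
  apply Subtype.ext
  funext i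
  exact congrArg Subtype.val (congrFun hxy i)

/-- **G11.** lower bound: `dim L_t + d ≤ N Q²` (curve from `t` in direction `v_q`, `lemS2`,
`QData.ker`). -/
theorem G11 (s : Pt K I J) (w : NC K I) (d : ℕ) (hp : s.Pkg w d) (a : QA K)
    (m0 : Submodule K (QA K)) (hx : s.ExtOk w a m0)
    (t : Pt L (I ⊕ Bool) (Option J)) (P : Place K L)
    (ht : Rch (s.ext w a m0) L inferInstance inferInstance t P)
    (hf : fv t = P.iq (s.omg w))
    (hb : ∀ r ∈ s.RR w a, ∀ e ∈ mid K s.k t.k, ∃ v ∈ (s.fgt P t).W,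
      P.Int (s.ellh w P t v) ∧ P.rq (s.ellh w P t v) = a * r * e)
    (hc : ∀ v ∈ (s.fgt P t).W, P.Int (s.ellh w P t v) →
      ∃ u ∈ tE s.k t.k (Subalgebra.toSubmodule (s.K2 w)), P.rq (s.ellh w P t v) = a * u) :
    Module.finrank L (s.LLh w P t) + d ≤ s.n2 w * 2 ^ (t.k - s.k) * 2 ^ (t.k - s.k) := by
  classical
  have hkl : s.k ≤ t.k := kg11_k_le _ _ _ _ _ _ ht
  have hg := hp.good
  have hK1 : s.K1 w ≤ lev K s.k := kg11_K1_le s w hg
  have hω : s.omg w ∈ lev K s.k := kg11_ev_lev w s.X s.k hg.Xlev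
  have hK2 : s.K2 w ≤ s.K1 w := kg11_K2_le s w hg hp.comm
  have haK1 : a ∈ s.K1 w := hp.comm hx.aL
  have ha : a ∈ lev K s.k := hK1 haK1
  have ha0 := hx.a0
  obtain ⟨ρ, hρ, hρ2⟩ := hp.rho a hx.aL ha0
  have hRR := kg11_RR s w hg hp.comm a hx.aL ha0
  have h1R : (1 : QA K) ∈ s.RR w a :=
    ⟨(s.K2 w).one_mem, by show a * 1 ∈ s.LL w; rw [mul_one]; exact hx.aL⟩
  obtain ⟨q, hq⟩ := alg2 s.k t.k hkl (s.omg w) hω (s.K2 w) hK2 (s.RR w a) inf_le_left d
    (by rw [hRR]; exact hp.dim) h1R ρ hρ hρ2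
  obtain ⟨v, hv, hvi, hvr⟩ := G3 s w a t P hb q hq.qR
  obtain ⟨T', g, h, hSP⟩ := G5_dir s w d hp a m0 hx t P ht hf v hv
  have hqlev : q ∈ lev K t.k :=
    kg11_tE_le s.k t.k hkl (s.RR w a) (fun x hx' => hK1 (hK2 hx'.1)) hq.qR
  have hS : s.SHyp w a P t T' t.k g h 1 1 (s.ellh w P t v) q :=
    { step := hSP.step
      f := hf
      b := hb
      glev := hSP.glev
      g0 := hSP.g0
      hlev := hSP.hlev
      gh := hSP.gh
      h0 := hSP.h0
      δ1 := hSP.δ1
      hm := hSP.hm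
      hδ := by rw [one_smul]; exact hSP.hδ
      p0 := one_ne_zero
      Gint := hvi
      Gres := hvr
      rblev := hqlev
      rbcomm := hq.comm
      dim := le_of_eq hq.dim1.symm }
  have h2 := lemS2 s w d hp a m0 hx t P ht T' t.k g h 1 1 _ q hS hq.dim2
  -- finite dimensionality of `L_t`
  have hfg : (s.fgt P t).Good := (C_reach s hg hp.stable L inferInstance inferInstance
    (s.fgt P t) P (_root_.Crest.Agent.KP.kpx_ext_forget s w a m0 hx L inferInstance inferInstance t P ht)).1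
  have : FiniteDimensional L (s.fgt P t).W :=
    kg11_fd _ t.k fun x hx' i => hfg.V1lev x (hfg.V0V1 hx'.1) i
  have : FiniteDimensional L (s.LLh w P t) :=
    inferInstanceAs (FiniteDimensional L (Submodule.map (s.ellh w P t) (s.fgt P t).W))
  have hXr := P.finrank_resS (s.LLh w P t)
  -- the residue space
  have hX : ∀ x ∈ P.resS (s.LLh w P t), ∃ v' ∈ (s.fgt P t).W, P.Int (s.ellh w P t v') ∧
      P.rq (s.ellh w P t v') = x := by
    rintro x ⟨y, ⟨v', hv', rfl⟩, hyi, rfl⟩
    exact ⟨v', hv', hyi, rfl⟩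
  obtain ⟨ai, hai, hai1, hai2⟩ := kpa_inv_lev ha ha0
  have hai0 : ai ≠ 0 := by
    rintro rfl
    rw [mul_zero] at hai1
    exact zero_ne_one hai1
  have hinj : Function.Injective (LinearMap.mulLeft K ai) := fun x y h =>
    mul_left_cancel₀ hai0 h
  have hinja : Function.Injective (LinearMap.mulLeft K a) := fun x y h =>
    mul_left_cancel₀ ha0 h
  set Z : Submodule K (QA K) := (P.resS (s.LLh w P t)).map (LinearMap.mulLeft K ai) with hZdef
  have hZr : Module.finrank K Z = Module.finrank K (P.resS (s.LLh w P t)) :=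
    (Submodule.equivMapOfInjective _ hinj _).finrank_eq.symm
  have hZel : ∀ z ∈ Z, ∃ v' ∈ (s.fgt P t).W, P.Int (s.ellh w P t v') ∧
      P.rq (s.ellh w P t v') = a * z := by
    rintro z ⟨x, hx', rfl⟩
    obtain ⟨v', hv', hi, hr⟩ := hX x hx'
    refine ⟨v', hv', hi, ?_⟩
    rw [hr]
    show x = a * (ai * x)
    rw [← mul_assoc, hai1, one_mul]
  have hZtE : Z ≤ tE s.k t.k (Subalgebra.toSubmodule (s.K2 w)) := by
    intro z hz
    obtain ⟨v', hv', hi, hr⟩ := hZel z hz
    obtain ⟨u, hu, hu'⟩ := hc v' hv' hi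
    have : z = u := mul_left_cancel₀ ha0 (hr.symm.trans hu')
    rw [this]
    exact hu
  have hker := hq.ker Z hZtE
  have hZlev : ∀ z ∈ Z, z ∈ lev K t.k := fun z hz =>
    kg11_tE_le s.k t.k hkl _ (fun x hx' => hK1 (hK2 hx')) (hZtE hz)
  -- the generators are in `lev`
  have halev : a ∈ lev K t.k := kpa_lev_mono hkl ha
  have hgenlev : s.SGen w a P t t.k q ⊆ (Subalgebra.toSubmodule (lev K t.k) : Set (QA K)) := by
    rintro x (hx' | ⟨v', hv', hi, e, he, rfl⟩)
    · rw [Set.mem_singleton_iff] at hx'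
      rw [hx']
      exact (lev K t.k).mul_mem halev hqlev
    · obtain ⟨u, hu, hu'⟩ := hc v' hv' hi
      have hul : u ∈ lev K t.k :=
        kg11_tE_le s.k t.k hkl _ (fun x hx' => hK1 (hK2 hx')) hu
      have h3 : P.rq (s.ellh w P t v') * e ∈ lev K t.k := by
        rw [hu']
        exact mul_mem (mul_mem halev hul) (kpa_mid_le_lev _ _ he)
      exact (Pr_spec t.k _ _ h3).1
  have : FiniteDimensional K (Submodule.span K (s.SGen w a P t t.k q)) :=
    kpa_fd_of_le (Submodule.span_le.2 hgenlev)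
  have hle : Module.finrank K (Z.map (Pr t.k ({s.omg w, q} : Set (QA K)))) ≤
      Module.finrank K (Submodule.span K (s.SGen w a P t t.k q)) := by
    have h4 : (Z.map (Pr t.k ({s.omg w, q} : Set (QA K)))).map (LinearMap.mulLeft K a) ≤
        Submodule.span K (s.SGen w a P t t.k q) := by
      rintro _ ⟨_, ⟨z, hz, rfl⟩, rfl⟩
      obtain ⟨v', hv', hi, hr⟩ := hZel z hz
      have h5 := alg4 s.k t.k hkl (s.omg w) hω q 0 a hqlev hq.comm (zero_mem _) haK1 z
        (hZlev z hz)
      rw [zero_add] at h5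
      refine Submodule.subset_span (Or.inr ⟨v', hv', hi, 1, one_mem _, ?_⟩)
      show a * Pr t.k ({s.omg w, q} : Set (QA K)) z = _
      rw [mul_one, hr, h5]
    have h6 : Module.finrank K (Z.map (Pr t.k ({s.omg w, q} : Set (QA K)))) =
        Module.finrank K
        ((Z.map (Pr t.k ({s.omg w, q} : Set (QA K)))).map (LinearMap.mulLeft K a)) :=
      (Submodule.equivMapOfInjective _ hinja _).finrank_eq
    rw [h6]
    exact Submodule.finrank_mono h4
  have hn2 : s.n2 w = Module.finrank K (s.K2 w) := rfl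
  rw [← hXr, ← hZr]
  rw [hn2] at h2 ⊢
  omega

end Crest.Agent.KP
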