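import Crest.Agent.KPX_Good
import Crest.Agent.KP_G0
import Crest.Agent.KP_C
import Crest.Agent.KP_Defs4
import Crest.Agent.KPG_qinv

set_option autoImplicit false
set_option linter.unusedSectionVars false

open scoped PowerSeries LaurentSeries symmDiff

namespace Crest.Agent.KP

open Pt

variable {K L I J : Type} [Field K] [KF K] [Field L] [KF L] [Fintype I] [Fintype J]

private theorem g12_map_id {R I : Type} (p : NC R I) : p.map (fun x : R => x) = p := by
  induction p with
  | cst c => rfl
  | var i => rfl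
  | add p q hp hq => rw [NC.map, hp, hq]
  | mul p q hp hq => rw [NC.map, hp, hq]

private theorem g12_map_refl (p : NC K I) : p.map (Place.refl K).inc = p := g12_map_id p

private theorem g12_ev_lev (k : ℕ) (X : I → QA K) (hX : ∀ i, X i ∈ lev K k) (p : NC K I) :
    p.ev X ∈ lev K k := by
  induction p with
  | cst c => exact Subalgebra.algebraMap_mem _ c
  | var i => exact hX i
  | add p q hp hq => exact add_mem hp hq
  | mul p q hp hq => exact mul_mem hp hq

private theorem g12_mid_self (k : ℕ) (e : QA K) (he : e ∈ mid K k k) :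
    ∃ c : K, e = algebraMap K (QA K) c := by
  refine ⟨e (∅, ∅), ?_⟩
  rw [Algebra.algebraMap_eq_smul_one]
  apply QA.q_ext
  intro g
  rw [QA.q_smul_apply, QA.one_def', QA.ec_apply]
  split_ifs with h
  · rw [← h]; simp
  · rw [smul_zero]
    by_contra hne
    obtain ⟨h1, h2⟩ := he g hne
    apply h
    refine Prod.ext ?_ ?_
    · symm
      apply Finset.eq_empty_of_forall_notMem
      intro t ht
      have := h1 ht
      simp only [Set.mem_ofPred_eq] at this
      omega
    · symm
      apply Finset.eq_empty_of_forall_notMem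
      intro t ht
      have := h2 ht
      simp only [Set.mem_ofPred_eq] at this
      omega

private theorem g12_fgt (s : Pt K I J) (w : NC K I) (a : QA K) (m0 : Submodule K (QA K)) :
    s.fgt (Place.refl K) (s.ext w a m0) = s := by
  have hF : (fun j => (s.F j).map (Place.refl K).inc) = s.F := funext fun j => g12_map_refl _
  have h0 : (s.ext w a m0).V0.map (LinearMap.funLeft K (QA K) Sum.inl) = s.V0 := by
    apply le_antisymm
    · rintro _ ⟨v, hv, rfl⟩
      exact hv.1.1
    · intro v hv
      refine ⟨Sum.elim v (fun _ => 0), ⟨⟨?_, ?_⟩, ?_⟩, ?_⟩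
      · exact hv
      · show (0 : QA K) ∈ Cperp s.k (s.omg w)
        exact Submodule.zero_mem _
      · show (0 : QA K) ∈ Fpart s.k (s.omg w) (qinv a) (s.K2 w) ⊥
        exact Submodule.zero_mem _
      · rfl
  have h1 : (s.ext w a m0).V1.map (LinearMap.funLeft K (QA K) Sum.inl) = s.V1 := by
    apply le_antisymm
    · rintro _ ⟨v, hv, rfl⟩
      exact hv.1.1
    · intro v hv
      refine ⟨Sum.elim v (fun _ => 0), ⟨⟨?_, ?_⟩, ?_⟩, ?_⟩
      · exact hv
      · show (0 : QA K) ∈ Cperp s.k (s.omg w)
        exact Submodule.zero_mem _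
      · show (0 : QA K) ∈ Fpart s.k (s.omg w) (qinv a) (s.K2 w) m0
        exact Submodule.zero_mem _
      · rfl
  unfold fgt
  rw [hF, h0, h1]
  rfl

private theorem g12_qinv_one : qinv (1 : QA K) = 1 := by
  have h := (qinv_spec (K := K) 0 1 (one_mem _) one_ne_zero).1
  rwa [one_mul] at h

private theorem g12_ellh (s : Pt K I J) (w : NC K I) (a : QA K) (m0 : Submodule K (QA K)) :
    s.ellh w (Place.refl K) (s.ext w a m0) = s.ell w := by
  unfold ellh ell
  rw [kpr_iq_refl, g12_map_refl]
  have hg : gv (s.ext w a m0) = 1 := rfl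
  rw [hg, g12_qinv_one]
  have hk : (s.ext w a m0).k = s.k := rfl
  have hX : (fun i => (s.ext w a m0).X (Sum.inl i)) = s.X := rfl
  rw [hk, hX]
  congr 1
  refine LinearMap.ext fun v => ?_
  simp

/-- **G12.** base case. -/
theorem G12 (s : Pt K I J) (w : NC K I) (d : ℕ) (hp : s.Pkg w d) (a : QA K)
    (m0 : Submodule K (QA K)) (hx : s.ExtOk w a m0) :
    s.LemR w a d (Place.refl K) (s.ext w a m0) := by
  have hk : (s.ext w a m0).k = s.k := rfl
  have hωl : s.omg w ∈ lev K s.k := g12_ev_lev s.k s.X hp.good.Xlev w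
  have hK1l : s.K1 w ≤ lev K s.k := Algebra.adjoin_le (by
    intro x hx'
    rw [Set.mem_singleton_iff] at hx'
    rw [hx']
    exact hωl)
  have hK1c : ∀ x ∈ s.K1 w, ∀ y ∈ s.K1 w, x * y = y * x := by
    intro x hx' y hy
    have := Algebra.adjoin_le_centralizer_centralizer K ({s.omg w} : Set (QA K)) hx'
    rw [Subalgebra.mem_centralizer_iff] at this
    refine (this y ?_).symm
    have hy' : y ∈ Subalgebra.centralizer K ({s.omg w} : Set (QA K)) := by
      have hle : s.K1 w ≤ Subalgebra.centralizer K ({s.omg w} : Set (QA K)) := by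
        apply Algebra.adjoin_le
        intro z hz
        rw [Set.mem_singleton_iff] at hz
        rw [hz, SetLike.mem_coe, Subalgebra.mem_centralizer_iff]
        intro g hg
        rw [Set.mem_singleton_iff] at hg
        rw [hg]
      exact hle hy
    exact hy'
  have hLK : ∀ x ∈ s.LL w, x ∈ s.K1 w := fun x hx' => hp.comm hx'
  have haK : a ∈ s.K1 w := hLK a hx.aL
  obtain ⟨hi1, hi2, hi3, hi4⟩ := qinv_spec s.k a (hK1l haK) hx.a0
  have hiK : qinv a ∈ s.K1 w := by
    have : Algebra.adjoin K ({a} : Set (QA K)) ≤ s.K1 w := Algebra.adjoin_le (by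
      intro x hx'
      rw [Set.mem_singleton_iff] at hx'
      rw [hx']
      exact haK)
    exact this hi4
  refine ⟨?_, ?_, ?_, ?_, ?_⟩
  · -- f
    rw [kpr_iq_refl]
    rfl
  · -- b
    intro r hr e he
    rw [g12_fgt, g12_ellh]
    rw [hk] at he
    obtain ⟨c, rfl⟩ := g12_mid_self s.k e he
    have h1 : a * r ∈ s.LL w := hr.2
    obtain ⟨v, hv, hv'⟩ := h1
    refine ⟨c • v, Submodule.smul_mem _ _ hv, kpr_int_refl _, ?_⟩
    rw [kpr_rq_refl, map_smul, hv', Algebra.algebraMap_eq_smul_one, mul_smul_comm, mul_one]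
  · -- c
    intro v hv _
    rw [g12_fgt] at hv
    rw [g12_ellh, kpr_rq_refl, hk]
    have hb : s.ell w v ∈ s.LL w := Submodule.mem_map_of_mem hv
    have hbK := hLK _ hb
    refine ⟨s.ell w v * qinv a, ?_, ?_⟩
    · refine Submodule.subset_span ⟨s.ell w v * qinv a, ?_, 1, one_mem _, (mul_one _).symm⟩
      refine Algebra.subset_adjoin ⟨?_, a, hx.aL, hx.a0, ?_⟩
      · exact mul_mem (hK1l hbK) hi3
      · rw [mul_assoc, hi2, mul_one]
        exact hb
    · rw [← mul_assoc, hK1c a haK _ hbK, mul_assoc, hi1, mul_one]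
  · exact (_root_.Crest.Agent.KP.kpx_ext_good s w d hp a m0 hx).2
  · exact (_root_.Crest.Agent.KP.kpx_ext_good s w d hp a m0 hx).1

end Crest.Agent.KP
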