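import Crest.Agent.KPG_G1base
import Crest.Agent.KPG_qinv

/-!
# S0270, G1: description of the `f`-components of the spaces `V0`, `V1` of a state of `S⁺`,
base case (helper91).
-/

set_option autoImplicit false
set_option linter.unusedSectionVars false

open scoped PowerSeries LaurentSeries symmDiff

namespace Crest.Agent.KP

open Pt

variable {K I J : Type} [Field K] [KF K] [Fintype I] [Fintype J]

theorem g1_mem_perp {B : Set (QA K)} {u : QA K} (hu : u ∈ perp B) {κ : QA K} (hκ : κ ∈ B) :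
    QA.tr (κ * u) = 0 := by
  unfold perp at hu
  rw [Submodule.mem_iInf] at hu
  have h1 := hu κ
  rw [Submodule.mem_iInf] at h1
  exact h1 hκ

theorem g1_Fpart {k : ℕ} {ω ai : QA K} {B : Set (QA K)} {m : Submodule K (QA K)} {φ : QA K}
    (h : φ ∈ Fpart k ω ai B m) : φ ∈ G1Z1 (Place.refl K) k ω ai B m k := by
  obtain ⟨⟨h1, h2⟩, h3⟩ := h
  refine ⟨h1, ?_, ?_⟩
  · rw [kpr_iq_refl]
    exact ((Subalgebra.mem_centralizer_iff K).1 h2 ω rfl).symm
  · obtain ⟨μ, hμ, u, hu, hs⟩ := Submodule.mem_sup.1 h3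
    rw [LinearMap.mulLeft_apply] at hs
    refine ⟨μ, ?_, ?_⟩
    · have := Place.iq_mem_extS (Place.refl K) hμ
      rwa [kpr_iq_refl] at this
    · intro κ hκ e he
      obtain ⟨c, rfl⟩ := g1_mid_self he
      have e1 : (Place.refl K).iq ai * φ - μ = u := by
        rw [kpr_iq_refl, ← hs, add_sub_cancel_left]
      rw [e1, kpr_iq_refl, Algebra.algebraMap_eq_smul_one, mul_smul_comm, mul_one, smul_mul_assoc,
        map_smul, g1_mem_perp hu hκ, smul_zero]

theorem g1_Fpart0 {k : ℕ} {ω ai : QA K} {B : Set (QA K)} {φ : QA K}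
    (h : φ ∈ Fpart k ω ai B ⊥) : φ ∈ G1Z0 (Place.refl K) k ω ai B k := by
  obtain ⟨⟨h1, h2⟩, h3⟩ := h
  refine ⟨h1, ?_, ?_⟩
  · rw [kpr_iq_refl]
    exact ((Subalgebra.mem_centralizer_iff K).1 h2 ω rfl).symm
  · rw [bot_sup_eq] at h3
    intro κ hκ e he
    obtain ⟨c, rfl⟩ := g1_mid_self he
    have h4 : QA.tr (κ * (ai * φ)) = 0 := g1_mem_perp h3 hκ
    rw [kpr_iq_refl, Algebra.algebraMap_eq_smul_one, mul_smul_comm, mul_one, smul_mul_assoc,
      smul_mul_assoc, map_smul, mul_assoc, h4, smul_zero]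

theorem g1_H (s : Pt K I J) (w : NC K I) (hg : s.Good) (a : QA K) (m0 : Submodule K (QA K))
    (hx : s.ExtOk w a m0) : G1H s.k (s.omg w) (qinv a) (s.K2 w : Set (QA K)) m0 where
  B := fun κ hκ => g1_K2_le s w hκ
  ω := g1_omg s w hg
  ai := (qinv_spec s.k a (g1_LL s w hg a hx.aL) hx.a0).2.2.1
  m := fun u hu => g1_K2_le s w (hx.le hu)

theorem g1_state (s : Pt K I J) (w : NC K I) (hg : s.Good) (a : QA K)
    (m0 : Submodule K (QA K)) (hx : s.ExtOk w a m0)
    (L : Type) (iF : Field L) (iK : KF L) (t : Pt L (I ⊕ Bool) (Option J)) (P : Place K L)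
    (ht : Rch (s.ext w a m0) L iF iK t P) :
    s.k ≤ t.k ∧
      (∀ v ∈ t.V0, v (Sum.inr true) ∈
        G1Z0 P s.k (s.omg w) (qinv a) (s.K2 w : Set (QA K)) t.k) ∧
      ∀ v ∈ t.V1, v (Sum.inr true) ∈
        G1Z1 P s.k (s.omg w) (qinv a) (s.K2 w : Set (QA K)) m0 t.k :=
  g1_main (s.ext w a m0) (g1_H s w hg a m0 hx) (fun v hv => g1_Fpart0 hv.2)
    (fun v hv => g1_Fpart hv.2) L iF iK t P ht

end Crest.Agent.KP
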