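import Crest.Agent.KP_G0
import Crest.Agent.KP_C
import Crest.Agent.KP_Defs4
import Crest.Agent.KPG_qinv
import Crest.Agent.KPG_G1b

set_option autoImplicit false
set_option linter.unusedSectionVars false

open scoped PowerSeries LaurentSeries symmDiff

namespace Crest.Agent.KP

open Pt

variable {K L I J : Type} [Field K] [KF K] [Field L] [KF L] [Fintype I] [Fintype J]

/-- **G2.** elements of `W⁺(t)` have `f`-component `0` and `l^_t = 0`; conversely every `v ∈ W(tf)`
with `l^_t(v) = 0` extends to an element of `W⁺(t)`.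
Proof of the first part: the `none` equation of `D⁺ v = 0` gives
`g⁻¹ dw[v] g + [ω, g⁻¹ v_g] = v_f`, so `v_f = l^_t(v)`; if it is nonzero scale it (`Place.scale`)
and compare (c) (residue `a u`, `u ∈ K'' ⊗ E`) with `G1_curve`-type orthogonality
(`v ∈ t.V0`: `μ = 0`, see `G1_V0`): `u = 0` by `alg6`, contradiction.
Second part: helper43 (gamma exists: `γ ↦ E^⊥(g⁻¹γ)` is bijective on `C^⊥ ⊗ E`). -/
theorem G1_V0 (s : Pt K I J) (w : NC K I) (d : ℕ) (hp : s.Pkg w d) (a : QA K)
    (m0 : Submodule K (QA K)) (hx : s.ExtOk w a m0)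
    (t : Pt L (I ⊕ Bool) (Option J)) (P : Place K L)
    (ht : Rch (s.ext w a m0) L inferInstance inferInstance t P)
    (v : I ⊕ Bool → QA L) (hv : v ∈ t.V0) :
    ∀ κ ∈ s.K2 w, ∀ e ∈ mid K s.k t.k,
      QA.tr (P.iq (κ * e * qinv a) * v (Sum.inr true)) = 0 := by
  intro κ hκ e he
  exact ((g1_state s w hp.good a m0 hx L _ _ t P ht).2.1 v hv).2.2 κ hκ e he

end Crest.Agent.KP
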