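import Crest.Agent.KP_G0
import Crest.Agent.KP_C
import Crest.Agent.KP_Defs4
import Crest.Agent.KPG_qinv
import Crest.Agent.KPG_G1_V0

set_option autoImplicit false
set_option linter.unusedSectionVars false

open scoped PowerSeries LaurentSeries symmDiff

namespace Crest.Agent.KP

open Pt

variable {K L I J : Type} [Field K] [KF K] [Field L] [KF L] [Fintype I] [Fintype J]

/-- **G1.** (description of the spaces of a state `t` of `S⁺`, from helper43's part.)
If `v ∈ t.V1 ⊔ mulE t.k t.V0` (for curves: `v ∈ t.V1`) and `c • v_f` is integral then its residue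
`φ` lies in the centralizer of `ω` in `lev l'` and there is `μ ∈ m0` with
`tr(κ e (a⁻¹φ - μ)) = 0` for `κ ∈ K''`, `e ∈ mid k(s) l'`.  Here `l' = t.k` if `v ∈ t.V1`,
`l' = t.k+1` in general.
Proof: by induction over `Rch`: elements of `t.V0` have `v_f ∈ Cen`, `tr(iq κ iq e iq a⁻¹ v_f)=0`;
elements of `t.V1`: there is `μ' ∈ span_L (iq '' m0)` with `tr(iq κ iq e (iq a⁻¹ v_f - μ')) = 0`.
For `c v_f` integral, `c μ'` is integral because its pairings with `iq K''` are (Gram matrix). -/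
theorem G1_curve (s : Pt K I J) (w : NC K I) (d : ℕ) (hp : s.Pkg w d) (a : QA K)
    (m0 : Submodule K (QA K)) (hx : s.ExtOk w a m0)
    (t : Pt L (I ⊕ Bool) (Option J)) (P : Place K L)
    (ht : Rch (s.ext w a m0) L inferInstance inferInstance t P)
    (v : I ⊕ Bool → QA L) (hv : v ∈ t.V1) (c : L) (hc : P.Int (c • v (Sum.inr true))) :
    P.rq (c • v (Sum.inr true)) ∈ lev K t.k ∧
    P.rq (c • v (Sum.inr true)) * s.omg w = s.omg w * P.rq (c • v (Sum.inr true)) ∧
    ∃ μ ∈ m0, ∀ κ ∈ s.K2 w, ∀ e ∈ mid K s.k t.k,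
      QA.tr (κ * e * (qinv a * P.rq (c • v (Sum.inr true)) - μ)) = 0 :=
  G1Z1_res (g1_K2_le s w) hx.le
    (Submodule.smul_mem _ c ((g1_state s w hp.good a m0 hx L _ _ t P ht).2.2 v hv)) hc

end Crest.Agent.KP
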