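import Crest.Agent.KP_G0
import Crest.Agent.KP_C
import Crest.Agent.KP_Defs4
import Crest.Agent.KPG_qinv
import Crest.Agent.KPG_G1_V0

set_option autoImplicit false
set_option linter.unusedSectionVars false

open scoped PowerSeries LaurentSeries symmDiff

namespace Crest.Agent.KP

open Pt

variable {K L I J : Type} [Field K] [KF K] [Field L] [KF L] [Fintype I] [Fintype J]

theorem G1_growth (s : Pt K I J) (w : NC K I) (d : ℕ) (hp : s.Pkg w d) (a : QA K)
    (m0 : Submodule K (QA K)) (hx : s.ExtOk w a m0)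
    (t : Pt L (I ⊕ Bool) (Option J)) (P : Place K L)
    (ht : Rch (s.ext w a m0) L inferInstance inferInstance t P)
    (v : I ⊕ Bool → QA L) (hv : v ∈ mulE t.k t.V0 ⊔ t.V1) (c : L)
    (hc : P.Int (c • v (Sum.inr true))) :
    P.rq (c • v (Sum.inr true)) ∈ lev K (t.k + 1) ∧
    P.rq (c • v (Sum.inr true)) * s.omg w = s.omg w * P.rq (c • v (Sum.inr true)) ∧
    ∃ μ ∈ m0, ∀ κ ∈ s.K2 w, ∀ e ∈ mid K s.k (t.k + 1),
      QA.tr (κ * e * (qinv a * P.rq (c • v (Sum.inr true)) - μ)) = 0 := by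
  obtain ⟨h0, h1, h2⟩ := g1_state s w hp.good a m0 hx L _ _ t P ht
  exact G1Z1_res (g1_K2_le s w) hx.le
    (Submodule.smul_mem _ c (g1_growV1 P (g1_H s w hp.good a m0 hx) (Sum.inr true) h0 t.V0 t.V1
      h1 h2 v hv)) hc

end Crest.Agent.KP
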