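import Crest.Agent.KP_Defs2

/-!
# S0270 : definitions, part 3: words, the map `l_s`, the fields `K'`, `K''`, the extended system `S⁺`
(author helper97; see note P3)
-/

set_option autoImplicit false
set_option linter.unusedSectionVars false

open scoped PowerSeries LaurentSeries symmDiff

namespace Crest.Agent.KP

open Classical in
/-- two-sided inverse in `QA K` (junk value `0` if there is none) -/
noncomputable def qinv {K : Type} [Field K] [QPar K] (u : QA K) : QA K :=
  if h : ∃ v : QA K, u * v = 1 ∧ v * u = 1 then Classical.choose h else 0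

/-- `{u | tr(κ u) = 0 for all κ ∈ B}` -/
noncomputable def perp {K : Type} [Field K] [KF K] (B : Set (QA K)) : Submodule K (QA K) :=
  ⨅ κ ∈ B, LinearMap.ker (QA.tr.comp (LinearMap.mulLeft K κ))

/-- the centralizer of `ω` in `lev K k` (subspace) -/
noncomputable def Cen {K : Type} [Field K] [KF K] (k : ℕ) (ω : QA K) : Submodule K (QA K) :=
  Subalgebra.toSubmodule (lev K k) ⊓ Subalgebra.toSubmodule (Subalgebra.centralizer K {ω})

/-- the orthogonal complement of the centralizer of `ω` in `lev K k` -/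
noncomputable def Cperp {K : Type} [Field K] [KF K] (k : ℕ) (ω : QA K) : Submodule K (QA K) :=
  Subalgebra.toSubmodule (lev K k) ⊓ LinearMap.ker (Pr k {ω})

/-- `{φ ∈ C(ω) | ess φ ∈ m}` where `ess φ` = orthogonal projection of `ai φ` to `B`, `m ≤ B`,
`ai = a⁻¹`. -/
noncomputable def Fpart {K : Type} [Field K] [KF K] (k : ℕ) (ω ai : QA K) (B : Set (QA K))
    (m : Submodule K (QA K)) : Submodule K (QA K) :=
  Cen k ω ⊓ (m ⊔ perp B).comap (LinearMap.mulLeft K ai)

namespace NC
variable {R I A : Type} [CommRing R] [Ring A] [Algebra R A]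

theorem d1_add (p : NC R I) (X v w : I → A) : p.d1 X (v + w) = p.d1 X v + p.d1 X w :=
  d1_add' X v w p
theorem d1_smul (p : NC R I) (X v : I → A) (c : R) : p.d1 X (c • v) = c • p.d1 X v :=
  d1_smul' X v c p

/-- first derivative as a linear map -/
def d1l (p : NC R I) (X : I → A) : (I → A) →ₗ[R] A where
  toFun v := p.d1 X v
  map_add' := p.d1_add X
  map_smul' := fun c v => p.d1_smul X v c
end NC

namespace Pt

variable {K I J : Type} [Field K] [KF K] [Fintype I] [Fintype J]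

/-- value `ω` of the word `w` at the state -/
noncomputable def omg (s : Pt K I J) (w : NC K I) : QA K := w.ev s.X

/-- `l_s(v) = E_ω(dw[v])` -/
noncomputable def ell (s : Pt K I J) (w : NC K I) : (I → QA K) →ₗ[K] QA K :=
  (Pr s.k {s.omg w}).comp (w.d1l s.X)

/-- `L(s) = l_s(W(s))` -/
noncomputable def LL (s : Pt K I J) (w : NC K I) : Submodule K (QA K) := s.W.map (s.ell w)

/-- `K' = K[ω]` -/
noncomputable def K1 (s : Pt K I J) (w : NC K I) : Subalgebra K (QA K) :=
  Algebra.adjoin K {s.omg w}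

/-- `K''` = algebra generated by the ratios of elements of `L(s)` -/
noncomputable def K2 (s : Pt K I J) (w : NC K I) : Subalgebra K (QA K) :=
  Algebra.adjoin K {u | u ∈ lev K s.k ∧ ∃ b ∈ s.LL w, b ≠ 0 ∧ u * b ∈ s.LL w}

/-- `n(s)` -/
noncomputable def n1 (s : Pt K I J) (w : NC K I) : ℕ := Module.finrank K (s.K1 w)
/-- `N(s)` -/
noncomputable def n2 (s : Pt K I J) (w : NC K I) : ℕ := Module.finrank K (s.K2 w)
/-- `dim L(s)` -/
noncomputable def nL (s : Pt K I J) (w : NC K I) : ℕ := Module.finrank K (s.LL w)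

/-- `R = a⁻¹ L(s)` inside `K''` -/
noncomputable def RR (s : Pt K I J) (w : NC K I) (a : QA K) : Submodule K (QA K) :=
  Subalgebra.toSubmodule (s.K2 w) ⊓ (s.LL w).comap (LinearMap.mulLeft K a)

/-- Everything Lemma S and Lemma R need to know about the state `s_5` (a state of the class CC
with minimal `d`).  Words at a state over `L` reached through `P` are `w.map P.inc`. -/
structure Pkg (s : Pt K I J) (w : NC K I) (d : ℕ) : Prop where
  good : s.Good
  stable : s.Stable
  ne : s.LL w ≠ ⊥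
  comm : s.LL w ≤ Subalgebra.toSubmodule (s.K1 w)
  dim : s.n2 w = s.nL w + d
  min1 : ∀ (L : Type) (iF : Field L) (iK : KF L) (t : Pt L I J) (P : Place K L),
    Rch s L iF iK t P → t.LL (w.map P.inc) ≠ ⊥ →
    t.n1 (w.map P.inc) ≤ s.n1 w * 2 ^ (t.k - s.k)
  incl : ∀ (L : Type) (iF : Field L) (iK : KF L) (t : Pt L I J) (P : Place K L),
    Rch s L iF iK t P → t.LL (w.map P.inc) ≠ ⊥ →
    t.n1 (w.map P.inc) = s.n1 w * 2 ^ (t.k - s.k) →
    t.LL (w.map P.inc) ≤ Subalgebra.toSubmodule (t.K1 (w.map P.inc))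
  min2 : ∀ (L : Type) (iF : Field L) (iK : KF L) (t : Pt L I J) (P : Place K L),
    Rch s L iF iK t P → t.LL (w.map P.inc) ≠ ⊥ →
    t.n1 (w.map P.inc) = s.n1 w * 2 ^ (t.k - s.k) →
    t.n2 (w.map P.inc) ≤ s.n2 w * 2 ^ (t.k - s.k)
  min3 : ∀ (L : Type) (iF : Field L) (iK : KF L) (t : Pt L I J) (P : Place K L),
    Rch s L iF iK t P → t.LL (w.map P.inc) ≠ ⊥ →
    t.n1 (w.map P.inc) = s.n1 w * 2 ^ (t.k - s.k) →
    t.n2 (w.map P.inc) = s.n2 w * 2 ^ (t.k - s.k) →
    t.nL (w.map P.inc) + d ≤ t.n2 (w.map P.inc)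
  /-- some `ρ ∈ R` with `R + ρ R = K''` -/
  rho : ∀ a ∈ s.LL w, a ≠ 0 → ∃ ρ ∈ s.RR w a, ∀ u ∈ s.K2 w, ∃ r1 ∈ s.RR w a, ∃ r2 ∈ s.RR w a,
    u = r1 + ρ * r2

/-- the extended state `S⁺` at `s` : new variables `inr false = g`, `inr true = f`, new equation
`w g - g f = 0`.  `a ∈ L(s)`, `m0` a complement of `R` in `K''`. -/
noncomputable def ext (s : Pt K I J) (w : NC K I) (a : QA K) (m0 : Submodule K (QA K)) :
    Pt K (I ⊕ Bool) (Option J) where
  k := s.k
  x := Sum.inl s.x
  y := Sum.inl s.y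
  F := fun j => j.elim
    (NC.add (NC.mul (w.ren Sum.inl) (NC.var (Sum.inr false)))
      (NC.mul (NC.cst (-1)) (NC.mul (NC.var (Sum.inr false)) (NC.var (Sum.inr true)))))
    (fun j => (s.F j).ren Sum.inl)
  V0 := s.V0.comap (LinearMap.funLeft K (QA K) Sum.inl) ⊓
    (Cperp s.k (s.omg w)).comap (LinearMap.proj (Sum.inr false)) ⊓
    (Fpart s.k (s.omg w) (qinv a) (s.K2 w) ⊥).comap (LinearMap.proj (Sum.inr true))
  V1 := s.V1.comap (LinearMap.funLeft K (QA K) Sum.inl) ⊓
    (Cperp s.k (s.omg w)).comap (LinearMap.proj (Sum.inr false)) ⊓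
    (Fpart s.k (s.omg w) (qinv a) (s.K2 w) m0).comap (LinearMap.proj (Sum.inr true))
  X := Sum.elim s.X (fun b => if b then s.omg w else 1)

/-- hypotheses on the choices made in `ext` -/
structure ExtOk (s : Pt K I J) (w : NC K I) (a : QA K) (m0 : Submodule K (QA K)) : Prop where
  aL : a ∈ s.LL w
  a0 : a ≠ 0
  le : m0 ≤ Subalgebra.toSubmodule (s.K2 w)
  disj : s.RR w a ⊓ m0 = ⊥
  sup : s.RR w a ⊔ m0 = Subalgebra.toSubmodule (s.K2 w)

/-- forget the variables `g,f` of a state `t` of `S⁺` over `L` (reached through `P`). -/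
noncomputable def fgt {L : Type} [Field L] [KF L] (s : Pt K I J) (P : Place K L)
    (t : Pt L (I ⊕ Bool) (Option J)) : Pt L I J where
  k := t.k
  x := s.x
  y := s.y
  F := fun j => (s.F j).map P.inc
  V0 := t.V0.map (LinearMap.funLeft L (QA L) Sum.inl)
  V1 := t.V1.map (LinearMap.funLeft L (QA L) Sum.inl)
  X := fun i => t.X (Sum.inl i)

/-- the value of the variable `g` / `f` -/
def gv (t : Pt K (I ⊕ Bool) (Option J)) : QA K := t.X (Sum.inr false)
def fv (t : Pt K (I ⊕ Bool) (Option J)) : QA K := t.X (Sum.inr true)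

/-- `l^_t(v) = E_{ω_5}(g⁻¹ dw[v] g)` as a linear map on `I → QA L`. -/
noncomputable def ellh {L : Type} [Field L] [KF L] (s : Pt K I J) (w : NC K I) (P : Place K L)
    (t : Pt L (I ⊕ Bool) (Option J)) : (I → QA L) →ₗ[L] QA L :=
  (Pr t.k {P.iq (s.omg w)}).comp
    (((LinearMap.mulRight L (gv t)).comp (LinearMap.mulLeft L (qinv (gv t)))).comp
      ((w.map P.inc).d1l (fun i => t.X (Sum.inl i))))

/-- `L_t = l^_t(W(t))` -/
noncomputable def LLh {L : Type} [Field L] [KF L] (s : Pt K I J) (w : NC K I) (P : Place K L)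
    (t : Pt L (I ⊕ Bool) (Option J)) : Submodule L (QA L) :=
  (s.fgt P t).W.map (s.ellh w P t)

/-- `B (x) E = span of B * mid k l` for a subspace `B` of `lev k` -/
noncomputable def _root_.Crest.Agent.KP.tE {K : Type} [Field K] [KF K] (k l : ℕ)
    (B : Submodule K (QA K)) : Submodule K (QA K) :=
  Submodule.span K {u | ∃ b ∈ B, ∃ e ∈ mid K k l, u = b * e}

/-- statement (a)-(d) of Lemma R at a state `t` of `S⁺` reached through `P` from `ext s w a m0` -/
structure LemR {L : Type} [Field L] [KF L] (s : Pt K I J) (w : NC K I) (a : QA K) (d : ℕ)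
    (P : Place K L) (t : Pt L (I ⊕ Bool) (Option J)) : Prop where
  f : fv t = P.iq (s.omg w)
  b : ∀ r ∈ s.RR w a, ∀ e ∈ mid K s.k t.k, ∃ v ∈ (s.fgt P t).W,
    P.Int (s.ellh w P t v) ∧ P.rq (s.ellh w P t v) = a * r * e
  c : ∀ v ∈ (s.fgt P t).W, P.Int (s.ellh w P t v) →
    ∃ u ∈ tE s.k t.k (Subalgebra.toSubmodule (s.K2 w)), P.rq (s.ellh w P t v) = a * u
  o : t.o = s.o + d
  good : t.Good

end Pt

end Crest.Agent.KP
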