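import Crest.Agent.KPB_ext
import Crest.Agent.KPA_Fin
import Crest.Agent.KPH_NC
import Crest.Agent.KP_Defs3

/-!
# S0270, G1: description of the `f`-components of the spaces `V0`, `V1` of a state of `S⁺`
(helper91).
-/

set_option autoImplicit false
set_option linter.unusedSectionVars false

open scoped PowerSeries LaurentSeries symmDiff

namespace Crest.Agent.KP

section pure

variable {K : Type} [Field K] [KF K]

/-- splitting of a basis element at `l` -/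
theorem g1_split (l : ℕ) (g : Gp) (x : K) :
    (QA.ec g x : QA K) = QA.ec (g.1.filter (· < l), g.2.filter (· < l)) x *
      QA.ec (g.1.filter (fun n => ¬ n < l), g.2.filter (fun n => ¬ n < l)) 1 := by
  rw [QA.ec_mul_ec]
  have hd : ∀ a b : Finset ℕ, a.filter (· < l) ∩ b.filter (fun n => ¬ n < l) = ∅ := by
    intro a b
    rw [Finset.eq_empty_iff_forall_notMem]
    intro s hs
    rw [Finset.mem_inter, Finset.mem_filter, Finset.mem_filter] at hs
    exact hs.2.2 hs.1.2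
  have hs : ∀ a : Finset ℕ, a.filter (· < l) ∆ a.filter (fun n => ¬ n < l) = a := by
    intro a
    ext n
    rw [Finset.mem_symmDiff, Finset.mem_filter, Finset.mem_filter]
    by_cases h : n < l <;> simp [h]
  have h1 : gx (g.1.filter (· < l), g.2.filter (· < l))
      (g.1.filter (fun n => ¬ n < l), g.2.filter (fun n => ¬ n < l)) = g := by
    unfold gx
    simp only [hs]
  have h2 : coc K (g.1.filter (· < l), g.2.filter (· < l))
      (g.1.filter (fun n => ¬ n < l), g.2.filter (fun n => ¬ n < l)) = 1 := by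
    unfold coc
    simp only [hd]
    simp
  rw [h1, h2, one_mul, mul_one]

/-- induction for `mid k0 (l+1)` -/
theorem g1_mid_ind {k0 l : ℕ} (hl : k0 ≤ l) {p : QA K → Prop} {e : QA K}
    (he : e ∈ mid K k0 (l + 1)) (h0 : p 0) (hadd : ∀ u v, p u → p v → p (u + v))
    (hm : ∀ e' ∈ mid K k0 l, ∀ h ∈ mid K l (l + 1), p (e' * h)) : p e := by
  refine kpa_on_induction he h0 hadd ?_
  intro g x hg1 hg2
  rw [g1_split l g x]
  refine hm _ ?_ _ ?_
  · refine kpa_ec_mem_mid (R := K) ?_ ?_ x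
    · intro s hs
      rw [Finset.mem_filter] at hs
      exact ⟨(hg1 s hs.1).1, hs.2⟩
    · intro s hs
      rw [Finset.mem_filter] at hs
      exact ⟨(hg2 s hs.1).1, hs.2⟩
  · refine kpa_ec_mem_mid (R := K) ?_ ?_ 1
    · intro s hs
      rw [Finset.mem_filter] at hs
      exact ⟨not_lt.1 hs.2, (hg1 s hs.1).2⟩
    · intro s hs
      rw [Finset.mem_filter] at hs
      exact ⟨not_lt.1 hs.2, (hg2 s hs.1).2⟩

/-- `mid k k` consists of scalars -/
theorem g1_mid_self {k : ℕ} {e : QA K} (he : e ∈ mid K k k) :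
    ∃ c : K, e = algebraMap K (QA K) c := by
  refine kpa_on_induction (p := fun e => ∃ c : K, e = algebraMap K (QA K) c) he ⟨0, by simp⟩ ?_ ?_
  · rintro u v ⟨a, rfl⟩ ⟨b, rfl⟩
    exact ⟨a + b, by rw [map_add]⟩
  · intro g x h1 h2
    have e1 : g.1 = ∅ := Finset.eq_empty_iff_forall_notMem.2 fun s hs => by
      have := h1 s hs
      exact absurd this.2 (not_lt.2 this.1)
    have e2 : g.2 = ∅ := Finset.eq_empty_iff_forall_notMem.2 fun s hs => by
      have := h2 s hs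
      exact absurd this.2 (not_lt.2 this.1)
    have e3 : g = (∅, ∅) := Prod.ext e1 e2
    refine ⟨x, ?_⟩
    rw [e3, Algebra.algebraMap_eq_smul_one, QA.one_def', QA.smul_ec, mul_one]

end pure

section Z

variable {K L : Type} [Field K] [KF K] [Field L] [KF L] (P : Place K L)
  (k0 : ℕ) (ω ai : QA K) (B : Set (QA K)) (m0 : Submodule K (QA K))

/-- `f`-components of `V0` -/
noncomputable def G1Z0 (l : ℕ) : Submodule L (QA L) where
  carrier := {φ | φ ∈ lev L l ∧ φ * P.iq ω = P.iq ω * φ ∧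
    ∀ κ ∈ B, ∀ e ∈ mid K k0 l, QA.tr (P.iq (κ * e * ai) * φ) = 0}
  add_mem' := by
    rintro a b ⟨ha, ha', ha''⟩ ⟨hb, hb', hb''⟩
    refine ⟨add_mem ha hb, by rw [add_mul, mul_add, ha', hb'], fun κ hκ e he => ?_⟩
    rw [mul_add, map_add, ha'' κ hκ e he, hb'' κ hκ e he, add_zero]
  zero_mem' := ⟨zero_mem _, by rw [zero_mul, mul_zero], fun κ _ e _ => by rw [mul_zero, map_zero]⟩
  smul_mem' := by
    rintro c a ⟨ha, ha', ha''⟩
    refine ⟨Subalgebra.smul_mem _ ha c, by rw [smul_mul_assoc, mul_smul_comm, ha'],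
      fun κ hκ e he => ?_⟩
    rw [mul_smul_comm, map_smul, ha'' κ hκ e he, smul_zero]

/-- `f`-components of `V1` -/
noncomputable def G1Z1 (l : ℕ) : Submodule L (QA L) where
  carrier := {φ | φ ∈ lev L l ∧ φ * P.iq ω = P.iq ω * φ ∧
    ∃ μ ∈ P.extS m0, ∀ κ ∈ B, ∀ e ∈ mid K k0 l,
      QA.tr (P.iq (κ * e) * (P.iq ai * φ - μ)) = 0}
  add_mem' := by
    rintro a b ⟨ha, ha', μa, hμa, ha''⟩ ⟨hb, hb', μb, hμb, hb''⟩
    refine ⟨add_mem ha hb, by rw [add_mul, mul_add, ha', hb'], μa + μb, add_mem hμa hμb,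
      fun κ hκ e he => ?_⟩
    have h1 : P.iq ai * (a + b) - (μa + μb) = (P.iq ai * a - μa) + (P.iq ai * b - μb) := by
      rw [mul_add]; abel
    rw [h1, mul_add, map_add, ha'' κ hκ e he, hb'' κ hκ e he, add_zero]
  zero_mem' := ⟨zero_mem _, by rw [zero_mul, mul_zero], 0, zero_mem _, fun κ _ e _ => by
    rw [mul_zero, sub_zero, mul_zero, map_zero]⟩
  smul_mem' := by
    rintro c a ⟨ha, ha', μa, hμa, ha''⟩
    refine ⟨Subalgebra.smul_mem _ ha c, by rw [smul_mul_assoc, mul_smul_comm, ha'],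
      c • μa, Submodule.smul_mem _ c hμa, fun κ hκ e he => ?_⟩
    have h1 : P.iq ai * (c • a) - c • μa = c • (P.iq ai * a - μa) := by
      rw [mul_smul_comm, smul_sub]
    rw [h1, mul_smul_comm, map_smul, ha'' κ hκ e he, smul_zero]

variable {P k0 ω ai B m0}

theorem G1Z0_le (l : ℕ) : G1Z0 P k0 ω ai B l ≤ G1Z1 P k0 ω ai B m0 l := by
  rintro φ ⟨h1, h2, h3⟩
  refine ⟨h1, h2, 0, zero_mem _, fun κ hκ e he => ?_⟩
  rw [sub_zero, ← mul_assoc, ← map_mul]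
  exact h3 κ hκ e he

theorem g1_iq_lev (P : Place K L) {k : ℕ} {u : QA K} (hu : u ∈ lev K k) : P.iq u ∈ lev L k :=
  kpr_iq_mem_on P _ u hu

theorem g1_iq_mid (P : Place K L) {k l : ℕ} {u : QA K} (hu : u ∈ mid K k l) :
    P.iq u ∈ mid L k l := kpr_iq_mem_on P _ u hu

theorem g1_extS_lev (P : Place K L) {k : ℕ} {V : Submodule K (QA K)}
    (hV : ∀ u ∈ V, u ∈ lev K k) : ∀ μ ∈ P.extS V, μ ∈ lev L k := by
  intro μ hμ
  refine Submodule.span_induction (p := fun μ _ => μ ∈ lev L k) ?_ (zero_mem _) ?_ ?_ hμ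
  · rintro _ ⟨u, hu, rfl⟩
    exact g1_iq_lev P (hV u hu)
  · intro x y _ _ hx hy
    exact add_mem hx hy
  · intro c x _ hx
    exact Subalgebra.smul_mem _ hx c

theorem G1Z0_grow {l : ℕ} (hl : k0 ≤ l) (hB : ∀ κ ∈ B, κ ∈ lev K k0) (hω : ω ∈ lev K k0)
    (hai : ai ∈ lev K k0) {φ : QA L}
    (hφ : φ ∈ G1Z0 P k0 ω ai B l) {h : QA L} (hh : h ∈ mid L l (l + 1)) :
    φ * h ∈ G1Z0 P k0 ω ai B (l + 1) := by
  obtain ⟨h1, h2, h3⟩ := hφ
  have hωl : P.iq ω ∈ lev L l := kpa_lev_mono hl (g1_iq_lev P hω)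
  have hail : P.iq ai ∈ lev L l := kpa_lev_mono hl (g1_iq_lev P hai)
  refine ⟨mul_mem (kpa_lev_mono (Nat.le_succ l) h1) (kpa_mid_le_lev _ _ hh), ?_, ?_⟩
  · rw [mul_assoc, ← kpa_lev_mid_comm hωl hh, ← mul_assoc, h2, mul_assoc]
  · intro κ hκ e he
    have hκl : P.iq κ ∈ lev L l := kpa_lev_mono hl (g1_iq_lev P (hB κ hκ))
    refine g1_mid_ind hl (p := fun e => QA.tr (P.iq (κ * e * ai) * (φ * h)) = 0) he ?_ ?_ ?_
    · simp only [mul_zero, zero_mul, map_zero]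
    · intro u v hu hv
      rw [mul_add, add_mul, map_add, add_mul, map_add, hu, hv, add_zero]
    · intro e' he' h' hh'
      have hh2 := g1_iq_mid P hh'
      have he2 : P.iq e' ∈ lev L l := kpa_mid_le_lev _ _ (g1_iq_mid P he')
      have e1 : P.iq (κ * (e' * h') * ai) * (φ * h) =
          (P.iq (κ * e' * ai) * φ) * (P.iq h' * h) := by
        simp only [map_mul]
        have c1 : P.iq ai * φ * P.iq h' = P.iq h' * (P.iq ai * φ) :=
          kpa_lev_mid_comm (mul_mem hail h1) hh2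
        calc P.iq κ * (P.iq e' * P.iq h') * P.iq ai * (φ * h) =
            P.iq κ * P.iq e' * (P.iq h' * (P.iq ai * φ)) * h := by simp only [mul_assoc]
          _ = _ := by rw [← c1]; simp only [mul_assoc]
      rw [e1, kpa_tr_lev_mid (k := l) (l := l + 1) ?_ (mul_mem hh2 hh), h3 κ hκ e' he', zero_mul]
      simp only [map_mul]
      exact mul_mem (mul_mem (mul_mem hκl he2) hail) h1

theorem G1Z1_grow {l : ℕ} (hl : k0 ≤ l) (hB : ∀ κ ∈ B, κ ∈ lev K k0)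
    (hm : ∀ u ∈ m0, u ∈ lev K k0)
    (hai : ai ∈ lev K k0) {φ : QA L}
    (hφ : φ ∈ G1Z1 P k0 ω ai B m0 l) : φ ∈ G1Z1 P k0 ω ai B m0 (l + 1) := by
  obtain ⟨h1, h2, μ, hμ, h3⟩ := hφ
  have hail : P.iq ai ∈ lev L l := kpa_lev_mono hl (g1_iq_lev P hai)
  have hμl : μ ∈ lev L l := kpa_lev_mono hl (g1_extS_lev P hm μ hμ)
  refine ⟨kpa_lev_mono (Nat.le_succ l) h1, h2, μ, hμ, ?_⟩
  intro κ hκ e he
  have hκl : P.iq κ ∈ lev L l := kpa_lev_mono hl (g1_iq_lev P (hB κ hκ))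
  refine g1_mid_ind hl (p := fun e => QA.tr (P.iq (κ * e) * (P.iq ai * φ - μ)) = 0) he ?_ ?_ ?_
  · simp only [mul_zero, zero_mul, map_zero]
  · intro u v hu hv
    rw [mul_add, map_add, add_mul, map_add, hu, hv, add_zero]
  · intro e' he' h' hh'
    have hh2 := g1_iq_mid P hh'
    have he2 : P.iq e' ∈ lev L l := kpa_mid_le_lev _ _ (g1_iq_mid P he')
    have hx : P.iq ai * φ - μ ∈ lev L l := sub_mem (mul_mem hail h1) hμl
    have e1 : P.iq (κ * (e' * h')) * (P.iq ai * φ - μ) =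
        (P.iq (κ * e') * (P.iq ai * φ - μ)) * P.iq h' := by
      simp only [map_mul]
      calc P.iq κ * (P.iq e' * P.iq h') * (P.iq ai * φ - μ) =
          P.iq κ * P.iq e' * (P.iq h' * (P.iq ai * φ - μ)) := by simp only [mul_assoc]
        _ = _ := by rw [← kpa_lev_mid_comm hx hh2]; simp only [mul_assoc]
    rw [e1, kpa_tr_lev_mid (k := l) (l := l + 1) ?_ hh2, h3 κ hκ e' he', zero_mul]
    simp only [map_mul]
    exact mul_mem (mul_mem hκl he2) hx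

variable {M : Type} [Field M] [KF M]

theorem g1_extS_trans (Q : Place L M) {μ : QA L} (hμ : μ ∈ P.extS m0) :
    Q.iq μ ∈ (P.trans Q).extS m0 := by
  refine Submodule.span_induction (p := fun μ _ => Q.iq μ ∈ (P.trans Q).extS m0) ?_ ?_ ?_ ?_ hμ
  · rintro _ ⟨u, hu, rfl⟩
    rw [← kpr_iq_trans]
    exact Place.iq_mem_extS _ hu
  · rw [map_zero]; exact zero_mem _
  · intro x y _ _ hx hy
    rw [map_add]; exact add_mem hx hy
  · intro c x _ hx
    rw [Place.iq_smul]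
    exact Submodule.smul_mem _ _ hx

theorem G1Z0_trans (Q : Place L M) {l : ℕ} {φ : QA L} (hφ : φ ∈ G1Z0 P k0 ω ai B l) :
    Q.iq φ ∈ G1Z0 (P.trans Q) k0 ω ai B l := by
  obtain ⟨h1, h2, h3⟩ := hφ
  refine ⟨g1_iq_lev Q h1, ?_, ?_⟩
  · rw [kpr_iq_trans, ← map_mul, h2, map_mul]
  · intro κ hκ e he
    rw [kpr_iq_trans, ← map_mul, Place.tr_iq, h3 κ hκ e he, map_zero]

theorem G1Z1_trans (Q : Place L M) {l : ℕ} {φ : QA L} (hφ : φ ∈ G1Z1 P k0 ω ai B m0 l) :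
    Q.iq φ ∈ G1Z1 (P.trans Q) k0 ω ai B m0 l := by
  obtain ⟨h1, h2, μ, hμ, h3⟩ := hφ
  refine ⟨g1_iq_lev Q h1, ?_, Q.iq μ, g1_extS_trans Q hμ, ?_⟩
  · rw [kpr_iq_trans, ← map_mul, h2, map_mul]
  · intro κ hκ e he
    rw [kpr_iq_trans, kpr_iq_trans, ← map_mul, ← map_sub, ← map_mul, Place.tr_iq, h3 κ hκ e he,
      map_zero]

/-- residues of integral elements of `G1Z1` -/
theorem G1Z1_res {k0 : ℕ} {B : Subalgebra K (QA K)} (hB : B ≤ lev K k0)
    (hm : m0 ≤ Subalgebra.toSubmodule B) {l : ℕ} {φ : QA L}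
    (hφ : φ ∈ G1Z1 P k0 ω ai (B : Set (QA K)) m0 l) (hi : P.Int φ) :
    P.rq φ ∈ lev K l ∧ P.rq φ * ω = ω * P.rq φ ∧
    ∃ μ ∈ m0, ∀ κ ∈ B, ∀ e ∈ mid K k0 l, QA.tr (κ * e * (ai * P.rq φ - μ)) = 0 := by
  obtain ⟨h1, h2, μ, hμ, h3⟩ := hφ
  refine ⟨kpr_rq_mem_on P _ φ h1, ?_, ?_⟩
  · have e1 := P.rq_mul hi (P.int_iq ω)
    have e2 := P.rq_mul (P.int_iq ω) hi
    rw [P.rq_iq] at e1 e2
    rw [← e1, ← e2, h2]
  · have : FiniteDimensional K B := kpa_fd_of_le' hB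
    -- `μ` is integral
    have hμi : P.Int μ := by
      by_contra hcon
      have hμ0 : μ ≠ 0 := fun h => hcon (by rw [h]; exact P.int_zero)
      obtain ⟨c, hc0, hci, hcr⟩ := kpr_exists_scale_q P μ hμ0
      have hc : c⁻¹ ∉ P.O := by
        intro h
        apply hcon
        have : μ = c⁻¹ • (c • μ) := by rw [smul_smul, inv_mul_cancel₀ hc0, one_smul]
        rw [this]
        exact P.int_smul h hci
      obtain ⟨hcO, hcr0⟩ := P.r_eq_zero_of_inv_not_mem hc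
      have hmem : P.rq (c • μ) ∈ m0 := by
        have : P.rq (c • μ) ∈ P.resS (P.extS m0) :=
          Place.rq_mem_resS P (Submodule.smul_mem _ c hμ) hci
        rwa [Place.resS_extS] at this
      apply hcr
      refine kpa_sub_nondeg (B := B) (hm hmem) ?_
      intro κ hκ
      have e1 := h3 κ hκ 1 (one_mem _)
      rw [mul_one, mul_sub, map_sub, sub_eq_zero] at e1
      have e2 : QA.tr (P.iq κ * (c • μ)) = c * QA.tr (P.iq κ * (P.iq ai * φ)) := by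
        rw [mul_smul_comm, map_smul, smul_eq_mul, e1]
      have e3 := congrArg P.r e2
      rw [P.r_tr, P.rq_mul (P.int_iq κ) hci, P.rq_iq, P.r_mul hcO, hcr0, zero_mul] at e3
      · rw [kpa_tr_comm]; exact e3
      · exact P.tr_mem (P.int_mul (P.int_iq κ) (P.int_mul (P.int_iq ai) hi))
    refine ⟨P.rq μ, ?_, ?_⟩
    · have : P.rq μ ∈ P.resS (P.extS m0) := Place.rq_mem_resS P hμ hμi
      rwa [Place.resS_extS] at this
    · intro κ hκ e he
      have e1 := congrArg P.r (h3 κ hκ e he)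
      have i1 : P.Int (P.iq ai * φ) := P.int_mul (P.int_iq ai) hi
      rw [P.r_tr, P.rq_mul (P.int_iq _) (P.int_sub i1 hμi), P.rq_iq, P.rq_sub i1 hμi,
        P.rq_mul (P.int_iq ai) hi, P.rq_iq, P.r_zero'] at e1
      exact e1

end Z

section state

open Pt

variable {K I J : Type} [Field K] [KF K] [Fintype I] [Fintype J]

theorem g1_extV {L : Type} [Field L] [KF L] {I' : Type} (V : Submodule L (I' → QA L)) (i : I')
    (Z : Submodule L⸨X⸩ (QA L⸨X⸩)) (h : ∀ v ∈ V, (Place.laurent L).iq (v i) ∈ Z) :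
    ∀ v ∈ extV V, v i ∈ Z := by
  intro v hv
  refine Submodule.span_induction (p := fun v _ => v i ∈ Z) ?_ ?_ ?_ ?_ hv
  · rintro _ ⟨u, hu, rfl⟩
    exact h u hu
  · exact zero_mem _
  · intro x y _ _ hx hy
    exact add_mem hx hy
  · intro c x _ hx
    exact Submodule.smul_mem _ c hx

theorem g1_mulE {L : Type} [Field L] [KF L] {I' : Type} (k : ℕ) (V : Submodule L (I' → QA L))
    (i : I') (Z : Submodule L (QA L))
    (h : ∀ v ∈ V, ∀ e ∈ mid L k (k + 1), v i * e ∈ Z) : ∀ v ∈ mulE k V, v i ∈ Z := by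
  have h' : mulE k V ≤ Z.comap (LinearMap.proj i) := by
    unfold mulE
    refine sup_le (sup_le (sup_le ?_ ?_) ?_) ?_
    · intro v hv
      have := h v hv 1 (one_mem _)
      rwa [mul_one] at this
    · rintro _ ⟨v, hv, rfl⟩
      exact h v hv _ (kpa_S1_mem k)
    · rintro _ ⟨v, hv, rfl⟩
      exact h v hv _ (kpa_S2_mem k)
    · rintro _ ⟨v, hv, rfl⟩
      exact h v hv _ (kpa_S3_mem k)
  exact h'

/-- hypotheses on the base data which hold for `ω, qinv a, K2, m0` -/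
structure G1H (k0 : ℕ) (ω ai : QA K) (B : Set (QA K)) (m0 : Submodule K (QA K)) : Prop where
  B : ∀ κ ∈ B, κ ∈ lev K k0
  ω : ω ∈ lev K k0
  ai : ai ∈ lev K k0
  m : ∀ u ∈ m0, u ∈ lev K k0

theorem g1_growV0 {L : Type} [Field L] [KF L] (P : Place K L) {k0 : ℕ} {ω ai : QA K}
    {B : Set (QA K)} {m0 : Submodule K (QA K)} (H : G1H k0 ω ai B m0) {I' : Type} (i : I')
    {l : ℕ} (hl : k0 ≤ l) (V0 : Submodule L (I' → QA L))
    (h0 : ∀ v ∈ V0, v i ∈ G1Z0 P k0 ω ai B l) :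
    ∀ v ∈ mulE l V0, v i ∈ G1Z0 P k0 ω ai B (l + 1) :=
  g1_mulE l V0 i _ fun v hv e he => G1Z0_grow hl H.B H.ω H.ai (h0 v hv) he

theorem g1_growV1 {L : Type} [Field L] [KF L] (P : Place K L) {k0 : ℕ} {ω ai : QA K}
    {B : Set (QA K)} {m0 : Submodule K (QA K)} (H : G1H k0 ω ai B m0) {I' : Type} (i : I')
    {l : ℕ} (hl : k0 ≤ l) (V0 V1 : Submodule L (I' → QA L))
    (h0 : ∀ v ∈ V0, v i ∈ G1Z0 P k0 ω ai B l)
    (h1 : ∀ v ∈ V1, v i ∈ G1Z1 P k0 ω ai B m0 l) :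
    ∀ v ∈ mulE l V0 ⊔ V1, v i ∈ G1Z1 P k0 ω ai B m0 (l + 1) := by
  have h' : mulE l V0 ⊔ V1 ≤ (G1Z1 P k0 ω ai B m0 (l + 1)).comap (LinearMap.proj i) := by
    refine sup_le ?_ ?_
    · intro v hv
      exact G1Z0_le (l + 1) (g1_growV0 P H i hl V0 h0 v hv)
    · intro v hv
      exact G1Z1_grow hl H.B H.m H.ai (h1 v hv)
  exact h'

theorem g1_main (s0 : Pt K (I ⊕ Bool) (Option J)) {ω ai : QA K}
    {B : Set (QA K)} {m0 : Submodule K (QA K)} (H : G1H s0.k ω ai B m0)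
    (h0 : ∀ v ∈ s0.V0, v (Sum.inr true) ∈ G1Z0 (Place.refl K) s0.k ω ai B s0.k)
    (h1 : ∀ v ∈ s0.V1, v (Sum.inr true) ∈ G1Z1 (Place.refl K) s0.k ω ai B m0 s0.k)
    (L : Type) (iF : Field L) (iK : KF L) (t : Pt L (I ⊕ Bool) (Option J)) (P : Place K L)
    (ht : Rch s0 L iF iK t P) :
    s0.k ≤ t.k ∧ (∀ v ∈ t.V0, v (Sum.inr true) ∈ G1Z0 P s0.k ω ai B t.k) ∧
      ∀ v ∈ t.V1, v (Sum.inr true) ∈ G1Z1 P s0.k ω ai B m0 t.k := by
  induction ht with
  | refl => exact ⟨le_rfl, h0, h1⟩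
  | curve K' iF iK s P h T hT ih =>
    obtain ⟨ih0, ih1, ih2⟩ := ih
    refine ⟨ih0, ?_, ?_⟩
    · exact g1_extV s.V0 _ _ fun v hv => G1Z0_trans _ (ih1 v hv)
    · exact g1_extV s.V1 _ _ fun v hv => G1Z1_trans _ (ih2 v hv)
  | grow K' iF iK s P h T w1 w2 hT ih =>
    obtain ⟨ih0, ih1, ih2⟩ := ih
    refine ⟨Nat.le_succ_of_le ih0, ?_, ?_⟩
    · exact g1_extV (mulE s.k s.V0) _ _ fun v hv =>
        G1Z0_trans _ (g1_growV0 P H _ ih0 s.V0 ih1 v hv)
    · exact g1_extV (mulE s.k s.V0 ⊔ s.V1) _ _ fun v hv =>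
        G1Z1_trans _ (g1_growV1 P H _ ih0 s.V0 s.V1 ih1 ih2 v hv)

theorem g1_K2_le (s : Pt K I J) (w : NC K I) : s.K2 w ≤ lev K s.k :=
  Algebra.adjoin_le fun _ hu => hu.1

theorem g1_omg (s : Pt K I J) (w : NC K I) (hg : s.Good) : s.omg w ∈ lev K s.k :=
  NC.kph_ev_mem (lev K s.k) w s.X hg.Xlev

theorem g1_LL (s : Pt K I J) (w : NC K I) (hg : s.Good) (a : QA K) (ha : a ∈ s.LL w) :
    a ∈ lev K s.k := by
  obtain ⟨v, hv, rfl⟩ := ha
  have hv1 : ∀ i, v i ∈ lev K s.k := hg.V1lev v (hg.V0V1 hv.1)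
  exact (Pr_spec s.k {s.omg w} _ (NC.kph_d1_mem (lev K s.k) w s.X v hg.Xlev hv1)).1

end state

end Crest.Agent.KP
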