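import Crest.Agent.KP_G0
import Crest.Agent.KP_C
import Crest.Agent.KP_Defs4

set_option autoImplicit false
set_option linter.unusedSectionVars false

open scoped PowerSeries LaurentSeries symmDiff

namespace Crest.Agent.KP

open Pt

private theorem alg6_mul {K : Type} [Field K] [KF K] {k l : ℕ}
    {B : Subalgebra K (QA K)} (hB : B ≤ lev K k) {u v : QA K}
    (hu : u ∈ tE k l (Subalgebra.toSubmodule B)) (hv : v ∈ tE k l (Subalgebra.toSubmodule B)) :
    u * v ∈ tE k l (Subalgebra.toSubmodule B) := by
  unfold tE at hu hv ⊢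
  induction hu using Submodule.span_induction with
  | mem x hx =>
    obtain ⟨b, hb, e, he, rfl⟩ := hx
    induction hv using Submodule.span_induction with
    | mem y hy =>
      obtain ⟨b', hb', e', he', rfl⟩ := hy
      refine Submodule.subset_span ⟨b * b', B.mul_mem hb hb', e * e', (mid K k l).mul_mem he he', ?_⟩
      have h1 : b' * e = e * b' := kpa_lev_mid_comm (hB hb') he
      calc b * e * (b' * e') = b * (e * b') * e' := by simp only [mul_assoc]
        _ = b * (b' * e) * e' := by rw [h1]
        _ = b * b' * (e * e') := by simp only [mul_assoc]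
    | zero => rw [mul_zero]; exact Submodule.zero_mem _
    | add x y _ _ hx hy => rw [mul_add]; exact Submodule.add_mem _ hx hy
    | smul c x _ hx => rw [mul_smul_comm]; exact Submodule.smul_mem _ c hx
  | zero => rw [zero_mul]; exact Submodule.zero_mem _
  | add x y _ _ hx hy => rw [add_mul]; exact Submodule.add_mem _ hx hy
  | smul c x _ hx => rw [smul_mul_assoc]; exact Submodule.smul_mem _ c hx

/-- **ALG6.** nondegeneracy on `B ⊗ E`: `u ∈ B ⊗ E`, `μ ∈ B`, `tr(κ e (u-μ)) = 0` for all
`κ ∈ B`, `e ∈ mid` implies `u = μ`. -/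
theorem alg6 {K : Type} [Field K] [KF K] (k l : ℕ) (hkl : k ≤ l)
    (B : Subalgebra K (QA K)) (hB : B ≤ lev K k)
    (u : QA K) (hu : u ∈ tE k l (Subalgebra.toSubmodule B)) (μ : QA K) (hμ : μ ∈ B)
    (h : ∀ κ ∈ B, ∀ e ∈ mid K k l, QA.tr (κ * e * (u - μ)) = 0) : u = μ := by
  have hmemB : ∀ b ∈ B, b ∈ tE k l (Subalgebra.toSubmodule B) := by
    intro b hb
    exact Submodule.subset_span ⟨b, hb, 1, (mid K k l).one_mem, (mul_one b).symm⟩
  let A : Subalgebra K (QA K) :=
    { carrier := (tE k l (Subalgebra.toSubmodule B) : Set (QA K))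
      mul_mem' := fun ha hb => alg6_mul hB ha hb
      one_mem' := hmemB 1 B.one_mem
      add_mem' := fun ha hb => Submodule.add_mem _ ha hb
      zero_mem' := Submodule.zero_mem _
      algebraMap_mem' := fun r => hmemB _ (B.algebraMap_mem r) }
  have hA : A ≤ lev K l := by
    intro x hx
    have hx' : x ∈ tE k l (Subalgebra.toSubmodule B) := hx
    have hle : tE k l (Subalgebra.toSubmodule B) ≤ Subalgebra.toSubmodule (lev K l) := by
      unfold tE
      rw [Submodule.span_le]
      rintro y ⟨b, hb, e, he, rfl⟩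
      exact (lev K l).mul_mem (kpa_lev_mono hkl (hB hb)) (kpa_mid_le_lev k l he)
    exact hle hx'
  have : FiniteDimensional K A := kpa_fd_of_le' hA
  have hz : u - μ ∈ A := Submodule.sub_mem _ hu (hmemB μ hμ)
  have h0 : u - μ = 0 := by
    refine kpa_sub_nondeg hz ?_
    intro d hd
    rw [kpa_tr_comm]
    have hd' : d ∈ tE k l (Subalgebra.toSubmodule B) := hd
    unfold tE at hd'
    induction hd' using Submodule.span_induction with
    | mem x hx =>
      obtain ⟨b, hb, e, he, rfl⟩ := hx
      exact h b hb e he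
    | zero => rw [zero_mul, map_zero]
    | add x y hx' hy' hx hy =>
      rw [add_mul, map_add, hx hx', hy hy', add_zero]
    | smul c x hx' hx => rw [smul_mul_assoc, map_smul, hx hx', smul_zero]
  exact sub_eq_zero.mp h0

end Crest.Agent.KP
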