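import Crest.Agent.KP_G0
import Crest.Agent.KP_C
import Crest.Agent.KP_Defs4
import Crest.Agent.KPR_Place

set_option autoImplicit false
set_option linter.unusedSectionVars false

open scoped PowerSeries LaurentSeries symmDiff

namespace Crest.Agent.KP

open Pt

/-- **PL1.** scaling to an integral element with nonzero residue. -/
theorem Place.scale {K L : Type} [Field K] [Field L] [KF K] [KF L] (P : Place K L) (u : QA L)
    (hu : u ≠ 0) : ∃ (p : L) (v : QA L), p ≠ 0 ∧ u = p • v ∧ P.Int v ∧ P.rq v ≠ 0 := by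
  obtain ⟨c, hc, h1, h2⟩ := kpr_exists_scale_q P u hu
  refine ⟨c⁻¹, c • u, inv_ne_zero hc, ?_, h1, h2⟩
  rw [smul_smul, inv_mul_cancel₀ hc, one_smul]

end Crest.Agent.KP
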