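import Crest.Agent.KP_G0
import Crest.Agent.KP_C
import Crest.Agent.KP_Defs4
import Crest.Agent.KPG_G1_V0
import Crest.Agent.KPG_alg6
import Crest.Agent.KPG_scale
import Crest.Agent.KPG_qinv
import Crest.Agent.KPH_NC

set_option autoImplicit false
set_option linter.unusedSectionVars false

open scoped PowerSeries LaurentSeries symmDiff

namespace Crest.Agent.KP

open Pt

section g2aux

theorem g2_map_map {R R' R'' I : Type} [CommRing R] [CommRing R'] [CommRing R'']
    (f : R → R') (g : R' → R'') (p : NC R I) : (p.map f).map g = p.map (fun x => g (f x)) := by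
  induction p with
  | cst c => rfl
  | var i => rfl
  | add p q hp hq => simp only [NC.map, hp, hq]
  | mul p q hp hq => simp only [NC.map, hp, hq]

theorem g2_map_id {R I : Type} [CommRing R] (f : R → R) (hf : ∀ x, f x = x) (p : NC R I) :
    p.map f = p := by
  induction p with
  | cst c => simp only [NC.map, hf]
  | var i => rfl
  | add p q hp hq => simp only [NC.map, hp, hq]
  | mul p q hp hq => simp only [NC.map, hp, hq]

theorem g2_map_ren {R R' I I' : Type} [CommRing R] [CommRing R']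
    (f : R → R') (r : I → I') (p : NC R I) : (p.ren r).map f = (p.map f).ren r := by
  induction p with
  | cst c => rfl
  | var i => rfl
  | add p q hp hq => simp only [NC.map, NC.ren, hp, hq]
  | mul p q hp hq => simp only [NC.map, NC.ren, hp, hq]

variable {K0 I J : Type} [Field K0] [KF K0] [Fintype I] [Fintype J]

theorem g2_rch_F (s0 : Pt K0 I J) (L : Type) (iF : Field L) (iK : KF L) (t : Pt L I J)
    (P : Place K0 L) (h : Rch s0 L iF iK t P) (j : J) : t.F j = (s0.F j).map P.inc := by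
  induction h with
  | refl => exact (g2_map_id _ (fun x => rfl) _).symm
  | curve K iF iK s P h T hT ih =>
    change (s.F j).map (algebraMap K K⸨X⸩) = _
    rw [ih, g2_map_map]
    rfl
  | grow K iF iK s P h T w1 w2 hT ih =>
    change (s.F j).map (algebraMap K K⸨X⸩) = _
    rw [ih, g2_map_map]
    rfl

theorem g2_rch_k (s0 : Pt K0 I J) (L : Type) (iF : Field L) (iK : KF L) (t : Pt L I J)
    (P : Place K0 L) (h : Rch s0 L iF iK t P) : s0.k ≤ t.k := by
  induction h with
  | refl => exact le_rfl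
  | curve K iF iK s P h T hT ih => exact ih
  | grow K iF iK s P h T w1 w2 hT ih => exact ih.trans (Nat.le_succ _)

theorem g2_rch_X (s0 : Pt K0 I J) (L : Type) (iF : Field L) (iK : KF L) (t : Pt L I J)
    (P : Place K0 L) (h : Rch s0 L iF iK t P) (i : I) :
    P.Int (t.X i) ∧ P.rq (t.X i) = s0.X i := by
  induction h with
  | refl => exact ⟨kpr_int_refl _, kpr_rq_refl _⟩
  | curve K iF iK s P h T hT ih =>
    have h0 : (Place.laurent K).rq (toL K (T i)) = s.X i := by
      rw [kpr_rq_toL]; exact hT.zero i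
    refine ⟨(kpr_int_trans P (Place.laurent K) _).2 ⟨kpr_int_toL _, ?_⟩, ?_⟩
    · change P.Int ((Place.laurent K).rq (toL K (T i)))
      rw [h0]; exact ih.1
    · rw [kpr_rq_trans]
      change P.rq ((Place.laurent K).rq (toL K (T i))) = _
      rw [h0]; exact ih.2
  | grow K iF iK s P h T w1 w2 hT ih =>
    have h0 : (Place.laurent K).rq (toL K (T i)) = s.X i := by
      rw [kpr_rq_toL]; exact hT.zero i
    refine ⟨(kpr_int_trans P (Place.laurent K) _).2 ⟨kpr_int_toL _, ?_⟩, ?_⟩
    · change P.Int ((Place.laurent K).rq (toL K (T i)))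
      rw [h0]; exact ih.1
    · rw [kpr_rq_trans]
      change P.rq ((Place.laurent K).rq (toL K (T i))) = _
      rw [h0]; exact ih.2

/-- commutation with a constant of level `s0.k` persists in `V0`. -/
theorem g2_rch_comm (s0 : Pt K0 I J) (i : I) (ω : QA K0) (hω : ω ∈ lev K0 s0.k)
    (h0 : ∀ v ∈ s0.V0, v i * ω = ω * v i)
    (L : Type) (iF : Field L) (iK : KF L) (t : Pt L I J)
    (P : Place K0 L) (h : Rch s0 L iF iK t P) :
    ∀ v ∈ t.V0, v i * P.iq ω = P.iq ω * v i := by
  induction h with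
  | refl => intro v hv; rw [kpr_iq_refl]; exact h0 v hv
  | curve K iF iK s P h T hT ih =>
    have key : extV s.V0 ≤ (Subalgebra.toSubmodule (Subalgebra.centralizer K⸨X⸩
        {(P.trans (Place.laurent K)).iq ω})).comap (LinearMap.proj i) := by
      refine Submodule.span_le.2 ?_
      rintro _ ⟨v, hv, rfl⟩
      change toC K (v i) ∈ Subalgebra.centralizer K⸨X⸩ {(P.trans (Place.laurent K)).iq ω}
      rw [Subalgebra.mem_centralizer_iff]
      rintro _ rfl
      rw [kpr_iq_trans, kpr_iq_laurent, ← map_mul, ← map_mul]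
      exact congrArg _ (ih v hv).symm
    intro v hv
    have h1 := key hv
    have h2 : v i ∈ Subalgebra.centralizer K⸨X⸩ {(P.trans (Place.laurent K)).iq ω} := h1
    rw [Subalgebra.mem_centralizer_iff] at h2
    exact (h2 _ rfl).symm
  | grow K iF iK s P h T w1 w2 hT ih =>
    have hk : s0.k ≤ s.k := g2_rch_k s0 K iF iK s P h
    have hlev : P.iq ω ∈ lev K s.k := kpa_lev_mono hk (P.iq_lev hω)
    set Z : Submodule K (I → QA K) := (Subalgebra.toSubmodule (Subalgebra.centralizer K
        {P.iq ω})).comap (LinearMap.proj i) with hZ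
    have memZ : ∀ v : I → QA K, v ∈ Z ↔ P.iq ω * v i = v i * P.iq ω := by
      intro v
      have : v ∈ Z ↔ v i ∈ Subalgebra.centralizer K {P.iq ω} := Iff.rfl
      rw [this, Subalgebra.mem_centralizer_iff]
      simp
    have hV : s.V0 ≤ Z := fun v hv => (memZ v).2 (ih v hv).symm
    have hmul : ∀ e ∈ mid K s.k (s.k + 1), s.V0.map (mulR e) ≤ Z := by
      rintro e he _ ⟨v, hv, rfl⟩
      rw [memZ]
      change P.iq ω * (v i * e) = v i * e * P.iq ω
      have h1 := (memZ v).1 (hV hv)
      have h2 := kpa_lev_mid_comm hlev he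
      rw [← mul_assoc, h1, mul_assoc, mul_assoc, h2]
    have hmE : mulE s.k s.V0 ≤ Z := by
      refine sup_le (sup_le (sup_le hV ?_) ?_) ?_
      · exact hmul _ (kpa_S1_mem _)
      · exact hmul _ (kpa_S2_mem _)
      · exact hmul _ (kpa_S3_mem _)
    have key : extV (mulE s.k s.V0) ≤ (Subalgebra.toSubmodule (Subalgebra.centralizer K⸨X⸩
        {(P.trans (Place.laurent K)).iq ω})).comap (LinearMap.proj i) := by
      refine Submodule.span_le.2 ?_
      rintro _ ⟨v, hv, rfl⟩
      change toC K (v i) ∈ Subalgebra.centralizer K⸨X⸩ {(P.trans (Place.laurent K)).iq ω}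
      rw [Subalgebra.mem_centralizer_iff]
      rintro _ rfl
      rw [kpr_iq_trans, kpr_iq_laurent, ← map_mul, ← map_mul]
      exact congrArg _ ((memZ v).1 (hmE hv))
    intro v hv
    have h1 := key hv
    have h2 : v i ∈ Subalgebra.centralizer K⸨X⸩ {(P.trans (Place.laurent K)).iq ω} := h1
    rw [Subalgebra.mem_centralizer_iff] at h2
    exact (h2 _ rfl).symm

end g2aux

section pr
variable {K : Type} [Field K] [KF K]

theorem g2_isPr_unique (k : ℕ) (S : Set (QA K)) (u c c' : QA K) (h : IsPr k S u c)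
    (h' : IsPr k S u c') : c = c' := by
  obtain ⟨h1, h2, h3⟩ := h
  obtain ⟨h1', h2', h3'⟩ := h'
  have hc : c - c' ∈ cenA k S :=
    sub_mem (mem_cenA.2 ⟨h1, h2⟩) (mem_cenA.2 ⟨h1', h2'⟩)
  refine sub_eq_zero.1 (kpa_sub_nondeg hc fun d hd => ?_)
  rw [mem_cenA] at hd
  have e1 := h3 d hd.1 hd.2
  have e2 := h3' d hd.1 hd.2
  rw [sub_mul, map_sub] at e1 e2 ⊢
  rw [← sub_eq_zero.1 e1, ← sub_eq_zero.1 e2, sub_self]

theorem g2_Pr_self (k : ℕ) (S : Set (QA K)) (u : QA K) (hu : u ∈ lev K k)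
    (hc : ∀ φ ∈ S, u * φ = φ * u) : Pr k S u = u :=
  g2_isPr_unique k S u _ _ (Pr_spec k S u hu) ⟨hu, hc, fun d _ _ => by
    rw [sub_self, zero_mul, map_zero]⟩

theorem g2_Pr_bracket (k : ℕ) (ω γ : QA K) (hω : ω ∈ lev K k) (hγ : γ ∈ lev K k) :
    Pr k {ω} (ω * γ - γ * ω) = 0 := by
  refine g2_isPr_unique k {ω} (ω * γ - γ * ω) _ _ (Pr_spec k _ _
    (sub_mem (mul_mem hω hγ) (mul_mem hγ hω))) ⟨zero_mem _, fun φ _ => by
      rw [zero_mul, mul_zero], fun d _ hd => ?_⟩
  have h := hd ω rfl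
  rw [sub_zero, sub_mul, map_sub, mul_assoc γ, ← h, kpa_tr_comm (ω * γ) d, ← mul_assoc d,
    ← mul_assoc γ, kpa_tr_comm (γ * d) ω, ← mul_assoc ω, kpa_tr_comm (ω * γ) d, ← mul_assoc d,
    sub_self]

end pr

variable {K L I J : Type} [Field K] [KF K] [Field L] [KF L] [Fintype I] [Fintype J]

theorem g2_om_lev (s : Pt K I J) (hX : ∀ i, s.X i ∈ lev K s.k) (w : NC K I) :
    s.omg w ∈ lev K s.k := NC.kph_ev_mem (lev K s.k) w s.X hX

theorem g2_LL_lev (s : Pt K I J) (hg : s.Good) (w : NC K I) (a : QA K) (ha : a ∈ s.LL w) :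
    a ∈ lev K s.k := by
  obtain ⟨v, hv, rfl⟩ := ha
  have hv1 : v ∈ s.V1 := hg.V0V1 hv.1
  exact (Pr_spec s.k {s.omg w} _
    (NC.kph_d1_mem (lev K s.k) w s.X v hg.Xlev (hg.V1lev v hv1))).1

/-- the `none` equation of the extended state -/
theorem g2_none (s : Pt K I J) (w : NC K I) (a : QA K) (m0 : Submodule K (QA K))
    (t : Pt L (I ⊕ Bool) (Option J)) (P : Place K L)
    (ht : Rch (s.ext w a m0) L inferInstance inferInstance t P)
    (v : I ⊕ Bool → QA L) :
    (t.F none).ev t.X = (w.map P.inc).ev (fun i => t.X (Sum.inl i)) * gv t - gv t * fv t ∧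
    (t.F none).d1 t.X v =
      (w.map P.inc).d1 (fun i => t.X (Sum.inl i)) (fun i => v (Sum.inl i)) * gv t +
        (w.map P.inc).ev (fun i => t.X (Sum.inl i)) * v (Sum.inr false) -
        (v (Sum.inr false) * fv t + gv t * v (Sum.inr true)) := by
  have hF := g2_rch_F (s.ext w a m0) L inferInstance inferInstance t P ht none
  have hF' : t.F none = NC.add (NC.mul ((w.map P.inc).ren Sum.inl) (NC.var (Sum.inr false)))
      (NC.mul (NC.cst (P.inc (-1))) (NC.mul (NC.var (Sum.inr false)) (NC.var (Sum.inr true)))) := by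
    rw [hF]
    change NC.map P.inc (NC.add (NC.mul (w.ren Sum.inl) (NC.var (Sum.inr false)))
      (NC.mul (NC.cst (-1)) (NC.mul (NC.var (Sum.inr false)) (NC.var (Sum.inr true))))) = _
    simp only [NC.map, g2_map_ren]
  rw [hF']
  have e1 : algebraMap L (QA L) (P.inc (-1)) = -1 := by rw [map_neg, map_one, map_neg, map_one]
  constructor
  · simp only [NC.ev, NC.kph_ev_ren, e1]
    rw [neg_one_mul, ← sub_eq_add_neg]
    rfl
  · simp only [NC.d1, NC.ev, NC.kph_ev_ren, NC.kph_d1_ren, e1, zero_mul, zero_add]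
    rw [neg_one_mul, ← sub_eq_add_neg]
    rfl

theorem g2_some (s : Pt K I J) (w : NC K I) (a : QA K) (m0 : Submodule K (QA K))
    (t : Pt L (I ⊕ Bool) (Option J)) (P : Place K L)
    (ht : Rch (s.ext w a m0) L inferInstance inferInstance t P)
    (v : I ⊕ Bool → QA L) (j : J) :
    (t.F (some j)).d1 t.X v =
      ((s.F j).map P.inc).d1 (fun i => t.X (Sum.inl i)) (fun i => v (Sum.inl i)) := by
  have hF := g2_rch_F (s.ext w a m0) L inferInstance inferInstance t P ht (some j)
  have hF' : t.F (some j) = ((s.F j).map P.inc).ren Sum.inl := by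
    rw [hF]
    change NC.map P.inc ((s.F j).ren Sum.inl) = _
    rw [g2_map_ren]
  rw [hF', NC.kph_d1_ren]
  rfl

theorem G2 (s : Pt K I J) (w : NC K I) (d : ℕ) (hp : s.Pkg w d) (a : QA K)
    (m0 : Submodule K (QA K)) (hx : s.ExtOk w a m0)
    (t : Pt L (I ⊕ Bool) (Option J)) (P : Place K L)
    (ht : Rch (s.ext w a m0) L inferInstance inferInstance t P) (hR : s.LemR w a d P t)
    (v : I ⊕ Bool → QA L) (hv : v ∈ t.W) :
    v (Sum.inr true) = 0 ∧ (fun i => v (Sum.inl i)) ∈ (s.fgt P t).W ∧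
      s.ellh w P t (fun i => v (Sum.inl i)) = 0 := by
  have hωl : s.omg w ∈ lev K s.k := g2_om_lev s hp.good.Xlev w
  have hk : s.k ≤ t.k := g2_rch_k (s.ext w a m0) L inferInstance inferInstance t P ht
  have hωt : P.iq (s.omg w) ∈ lev L t.k := kpa_lev_mono hk (P.iq_lev hωl)
  have hal : a ∈ lev K s.k := g2_LL_lev s hp.good w a hx.aL
  -- g is invertible
  have hgl : gv t ∈ lev L t.k := hR.good.Xlev _
  have hg0 : gv t ≠ 0 := by
    intro h0
    have h1 := (g2_rch_X (s.ext w a m0) L inferInstance inferInstance t P ht (Sum.inr false)).2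
    have h2 : t.X (Sum.inr false) = 0 := h0
    rw [h2, P.rq_zero] at h1
    have h3 : (s.ext w a m0).X (Sum.inr false) = 1 := rfl
    rw [h3] at h1
    exact zero_ne_one h1
  obtain ⟨hgi, hgi', hgil, -⟩ := qinv_spec t.k (gv t) hgl hg0
  -- the main computation for elements of `t.W`
  have main : ∀ v ∈ t.W, (fun i => v (Sum.inl i)) ∈ (s.fgt P t).W ∧
      s.ellh w P t (fun i => v (Sum.inl i)) = v (Sum.inr true) := by
    intro v hv
    have hv0 : v ∈ t.V0 := hv.1
    have hvD : t.Dl v = 0 := hv.2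
    have hvD' : ∀ j, (t.F j).d1 t.X v = 0 := fun j => congrFun hvD j
    have hvl : ∀ i, v i ∈ lev L t.k := hR.good.V1lev v (hR.good.V0V1 hv0)
    refine ⟨⟨⟨v, hv0, rfl⟩, ?_⟩, ?_⟩
    · change (s.fgt P t).Dl (fun i => v (Sum.inl i)) = 0
      funext j
      have h1 := g2_some s w a m0 t P ht v j
      rw [hvD'] at h1
      exact h1.symm
    · obtain ⟨e1, -⟩ := g2_none s w a m0 t P ht v
      obtain ⟨-, e2⟩ := g2_none s w a m0 t P ht v
      rw [hvD'] at e2
      rw [hR.good.g0] at e1
      set W' := (w.map P.inc).ev (fun i => t.X (Sum.inl i)) with hW'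
      set dw := (w.map P.inc).d1 (fun i => t.X (Sum.inl i)) (fun i => v (Sum.inl i)) with hdw
      rw [hR.f] at e1 e2
      set ω := P.iq (s.omg w) with hω
      have hWg : W' * gv t = gv t * ω := (sub_eq_zero.1 e1.symm)
      have hiW : qinv (gv t) * W' = ω * qinv (gv t) := by
        have : qinv (gv t) * (W' * gv t) * qinv (gv t) = qinv (gv t) * (gv t * ω) * qinv (gv t) := by
          rw [hWg]
        rw [← mul_assoc, mul_assoc, hgi, mul_one, ← mul_assoc, hgi', one_mul] at this
        exact this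
      set γ := qinv (gv t) * v (Sum.inr false) with hγ
      have hγl : γ ∈ lev L t.k := mul_mem hgil (hvl _)
      have e3 : qinv (gv t) * dw * gv t = v (Sum.inr true) - (ω * γ - γ * ω) := by
        have h1 := congrArg (fun x => qinv (gv t) * x) e2
        simp only [mul_zero, mul_sub, mul_add] at h1
        rw [← mul_assoc, ← mul_assoc _ W', hiW, ← mul_assoc _ (gv t), hgi', one_mul,
          mul_assoc ω, ← mul_assoc _ (v (Sum.inr false)) ω, ← hγ] at h1
        have h2 : qinv (gv t) * dw * gv t = γ * ω + v (Sum.inr true) - ω * γ := by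
          rw [eq_sub_iff_add_eq]
          exact sub_eq_zero.1 h1.symm
        rw [h2]; abel
      have hcomm : v (Sum.inr true) * ω = ω * v (Sum.inr true) := by
        refine g2_rch_comm (s.ext w a m0) (Sum.inr true) (s.omg w) hωl ?_ L inferInstance
          inferInstance t P ht v hv0
        intro v hv
        have h1 : v (Sum.inr true) ∈ Fpart s.k (s.omg w) (qinv a) (s.K2 w) ⊥ := hv.2
        have h2 : v (Sum.inr true) ∈ Subalgebra.centralizer K {s.omg w} := h1.1.2
        rw [Subalgebra.mem_centralizer_iff] at h2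
        exact (h2 _ rfl).symm
      change Pr t.k {ω} (qinv (gv t) * dw * gv t) = _
      rw [e3, map_sub, g2_Pr_bracket t.k ω γ hωt hγl, sub_zero,
        g2_Pr_self t.k {ω} _ (hvl _) (by rintro _ rfl; exact hcomm)]
  have hzero : v (Sum.inr true) = 0 := by
    by_contra hne
    obtain ⟨p, u, hp0, hpu, hInt, hres⟩ := P.scale _ hne
    have hv' : p⁻¹ • v ∈ t.W := Submodule.smul_mem _ _ hv
    have hu : (p⁻¹ • v) (Sum.inr true) = u := by
      rw [Pi.smul_apply, hpu, smul_smul, inv_mul_cancel₀ hp0, one_smul]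
    obtain ⟨h1, h2⟩ := main _ hv'
    rw [hu] at h2
    obtain ⟨z, hz, hz'⟩ := hR.c _ h1 (by rw [h2]; exact hInt)
    rw [h2] at hz'
    obtain ⟨ha1, ha2, hail, -⟩ := qinv_spec s.k a hal hx.a0
    have hB : s.K2 w ≤ lev K s.k := Algebra.adjoin_le fun x hx => hx.1
    have hz0 : z = 0 := by
      refine alg6 s.k t.k hk (s.K2 w) hB z hz 0 (zero_mem _) fun κ hκ e he => ?_
      have h3 := G1_V0 s w d hp a m0 hx t P ht _ hv'.1 κ hκ e he
      rw [hu] at h3
      have h4 := congrArg P.r h3
      rw [P.r_tr, P.rq_mul (P.int_iq _) hInt, P.rq_iq, hz', P.r_zero, mul_assoc (κ * e),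
        ← mul_assoc (qinv a), ha2, one_mul] at h4
      rw [sub_zero]
      exact h4
    rw [hz0, mul_zero] at hz'
    exact hres hz'
  obtain ⟨h1, h2⟩ := main v hv
  exact ⟨hzero, h1, by rw [h2, hzero]⟩

end Crest.Agent.KP
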