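import Crest.Agent.KP_G0
import Crest.Agent.KP_C
import Crest.Agent.KP_Defs4
import Crest.Agent.KPG_qinv
import Crest.Agent.KPX_W

set_option autoImplicit false
set_option linter.unusedSectionVars false

open scoped PowerSeries LaurentSeries symmDiff

namespace Crest.Agent.KP

open Pt

variable {K L I J : Type} [Field K] [KF K] [Field L] [KF L] [Fintype I] [Fintype J]

theorem G2' (s : Pt K I J) (w : NC K I) (d : ℕ) (hp : s.Pkg w d) (a : QA K)
    (m0 : Submodule K (QA K)) (hx : s.ExtOk w a m0)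
    (t : Pt L (I ⊕ Bool) (Option J)) (P : Place K L)
    (ht : Rch (s.ext w a m0) L inferInstance inferInstance t P) (hf : fv t = P.iq (s.omg w))
    (v : I → QA L) (hv : v ∈ (s.fgt P t).W) (h0 : s.ellh w P t v = 0) :
    ∃ v' ∈ t.W, ∀ i, v' (Sum.inl i) = v i := by
  have hinv : s.ExtInv w a m0 P t := kpx_inv s w d hp a m0 hx L _ _ t P ht
  obtain ⟨u, hu, hv'⟩ := kpx_W_exists hp.good hinv hf v hv (by rw [h0]; exact Submodule.zero_mem _)
  exact ⟨u, hu, fun i => congrFun hv' i⟩

end Crest.Agent.KP
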