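import Crest.Agent.KPG_P2

/-!
# S0270, part (G)-algebra (author helper47): partial trace
-/

set_option autoImplicit false
set_option linter.unusedSectionVars false

open scoped symmDiff
open Module

namespace Crest.Agent.KP

variable {K : Type} [Field K] [KF K]

/-- `ptr k u ∈ lev k`. -/
theorem kpg_ptr_mem (k : ℕ) (u : QA K) : ptr k u ∈ lev K k := by
  rw [kpa_mem_lev]
  intro g hg
  rw [ptr_apply] at hg
  by_cases h : inLow k g
  · exact ⟨fun s hs => Finset.mem_range.1 (h.1 hs), fun s hs => Finset.mem_range.1 (h.2 hs)⟩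
  · rw [if_neg h] at hg
    exact absurd rfl hg

theorem kpg_ptr_lev {k : ℕ} {u : QA K} (hu : u ∈ lev K k) : ptr k u = u := by
  apply QA.q_ext
  intro g
  rw [ptr_apply]
  by_cases h : inLow k g
  · rw [if_pos h]
  · rw [if_neg h]
    by_contra hg
    have := kpa_mem_lev.1 hu g (fun e => hg e.symm)
    exact h ⟨fun s hs => Finset.mem_range.2 (this.1 s hs), fun s hs => Finset.mem_range.2 (this.2 s hs)⟩

theorem kpg_tr_ptr (k : ℕ) (u : QA K) : QA.tr (ptr k u) = QA.tr u := by
  rw [kpa_tr_apply, kpa_tr_apply, ptr_apply, if_pos]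
  exact ⟨Finset.empty_subset _, Finset.empty_subset _⟩

theorem kpg_ptr_ec (k : ℕ) (g : Gp) (x : K) :
    ptr k (QA.ec g x) = if inLow k g then QA.ec g x else 0 := by
  apply QA.q_ext
  intro l
  rw [ptr_apply]
  by_cases h : g = l
  · subst h
    split_ifs <;> rfl
  · rw [QA.ec_apply, if_neg h]
    split_ifs <;> simp [QA.ec_apply, h, QA.q_zero_apply]

theorem kpg_inLow_gx {k : ℕ} {g h : Gp} (hg : inLow k g) : inLow k (gx g h) ↔ inLow k h := by
  have key : ∀ {g h : Gp}, inLow k g → inLow k h → inLow k (gx g h) := by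
    intro g h hg hh
    constructor
    · intro s hs
      rcases Finset.mem_symmDiff.1 hs with hs | hs
      · exact hg.1 hs.1
      · exact hh.1 hs.1
    · intro s hs
      rcases Finset.mem_symmDiff.1 hs with hs | hs
      · exact hg.2 hs.1
      · exact hh.2 hs.1
  constructor
  · intro H
    have h2 := key H hg
    rw [kpa_gx_comm g h, kpa_gx_cancel] at h2
    exact h2
  · exact key hg

/-- `ptr` is `lev k`-linear: by linearity `a = e g` (`g` low), `u = e h`; `gx g h` is low iff `h` is. -/
theorem kpg_ptr_left {k : ℕ} {a : QA K} (ha : a ∈ lev K k) (u : QA K) :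
    ptr k (a * u) = a * ptr k u := by
  refine kpa_on_induction (p := fun a => ptr k (a * u) = a * ptr k u) ha ?_ ?_ ?_
  · rw [zero_mul, zero_mul, map_zero]
  · intro a b ha hb
    rw [add_mul, add_mul, map_add, ha, hb]
  · intro g x h1 h2
    have hg : inLow k g := ⟨fun s hs => Finset.mem_range.2 (h1 s hs),
      fun s hs => Finset.mem_range.2 (h2 s hs)⟩
    induction u using QA.qinduction with
    | h0 => rw [mul_zero, map_zero, mul_zero]
    | hadd v v' hv hv' => rw [mul_add, map_add, map_add, mul_add, hv, hv']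
    | hec h y =>
      rw [QA.ec_mul_ec, kpg_ptr_ec, kpg_ptr_ec]
      by_cases hh : inLow k h
      · rw [if_pos hh, if_pos ((kpg_inLow_gx hg).2 hh), QA.ec_mul_ec]
      · rw [if_neg hh, if_neg (fun H => hh ((kpg_inLow_gx hg).1 H)), mul_zero]

theorem kpg_ptr_right {k : ℕ} {a : QA K} (ha : a ∈ lev K k) (u : QA K) :
    ptr k (u * a) = ptr k u * a := by
  refine kpa_on_induction (p := fun a => ptr k (u * a) = ptr k u * a) ha ?_ ?_ ?_
  · rw [mul_zero, mul_zero, map_zero]
  · intro a b ha hb
    rw [mul_add, mul_add, map_add, ha, hb]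
  · intro g x h1 h2
    have hg : inLow k g := ⟨fun s hs => Finset.mem_range.2 (h1 s hs),
      fun s hs => Finset.mem_range.2 (h2 s hs)⟩
    induction u using QA.qinduction with
    | h0 => rw [zero_mul, map_zero, zero_mul]
    | hadd v v' hv hv' => rw [add_mul, map_add, map_add, add_mul, hv, hv']
    | hec h y =>
      rw [QA.ec_mul_ec, kpg_ptr_ec, kpg_ptr_ec, kpa_gx_comm]
      by_cases hh : inLow k h
      · rw [if_pos hh, if_pos ((kpg_inLow_gx hg).2 hh), QA.ec_mul_ec, kpa_gx_comm]
      · rw [if_neg hh, if_neg (fun H => hh ((kpg_inLow_gx hg).1 H)), zero_mul]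

theorem kpg_ptr_mid {k l : ℕ} {b : QA K} (hb : b ∈ mid K k l) :
    ptr k b = algebraMap K (QA K) (QA.tr b) := by
  refine kpa_on_induction (p := fun b => ptr k b = algebraMap K (QA K) (QA.tr b)) hb ?_ ?_ ?_
  · rw [map_zero, map_zero, map_zero]
  · intro a b ha hb
    rw [map_add, ha, hb, map_add, map_add]
  · intro g x h1 h2
    rw [kpg_ptr_ec, kpa_tr_ec]
    by_cases hg : g = (∅, ∅)
    · subst hg
      rw [if_pos rfl, if_pos ⟨Finset.empty_subset _, Finset.empty_subset _⟩,
        Algebra.algebraMap_eq_smul_one, QA.one_def', QA.smul_ec, mul_one]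
    · rw [if_neg hg, map_zero, if_neg]
      rintro ⟨H1, H2⟩
      apply hg
      refine Prod.ext ?_ ?_
      · refine Finset.eq_empty_of_forall_notMem fun s hs => ?_
        have h3 := (h1 s hs).1
        have h4 := Finset.mem_range.1 (H1 hs)
        omega
      · refine Finset.eq_empty_of_forall_notMem fun s hs => ?_
        have h3 := (h2 s hs).1
        have h4 := Finset.mem_range.1 (H2 hs)
        omega

end Crest.Agent.KP
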