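import Crest.Agent.KP_Defs4
import Crest.Agent.KP_G0
import Crest.Agent.KPG_P3
import Crest.Agent.KPH_NC

/-!
# S0270, part (G): levels (helper92)

* `kpgl_rch` : at a state reachable from a state with all data inside `lev`, all data (`X`, `V0`,
  `V1`) are inside `lev`; the level grows.
* `kpgl_ext` : the extended state `ext` has its data inside `lev`.
* `kpgl_Pr_mul` : `Pr l {ω} (u * e) = Pr k {ω} u * e` for `e ∈ mid k l`.
* `kpgl_ellg` : `ellg (v e) = ellh v * e`.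
-/

set_option autoImplicit false
set_option linter.unusedSectionVars false

open scoped PowerSeries LaurentSeries symmDiff

namespace Crest.Agent.KP

open Pt

/-- all data of the state are in `lev` -/
structure Pt.LevInv {K I J : Type} [Field K] [KF K] (s : Pt K I J) : Prop where
  X : ∀ i, s.X i ∈ lev K s.k
  V0 : ∀ v ∈ s.V0, ∀ i, v i ∈ lev K s.k
  V1 : ∀ v ∈ s.V1, ∀ i, v i ∈ lev K s.k

section
variable {K I J : Type} [Field K] [KF K] [Fintype I] [Fintype J]

theorem kpgl_good (s : Pt K I J) (h : s.Good) : s.LevInv :=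
  ⟨h.Xlev, fun v hv => h.V1lev v (h.V0V1 hv), h.V1lev⟩

theorem kpgl_extV {k : ℕ} (V : Submodule K (I → QA K)) (h : ∀ v ∈ V, ∀ i, v i ∈ lev K k)
    (v : I → QA K⸨X⸩) (hv : v ∈ extV V) (i : I) : v i ∈ lev K⸨X⸩ k := by
  unfold extV at hv
  induction hv using Submodule.span_induction with
  | mem x hx =>
    obtain ⟨u, hu, rfl⟩ := hx
    have h1 := kpr_iq_mem_on (Place.laurent K) {n | n < k} (u i) (h u hu i)
    rw [kpr_iq_laurent] at h1
    exact h1
  | zero => exact Subalgebra.zero_mem _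
  | add x y _ _ hx hy => exact Subalgebra.add_mem _ hx hy
  | smul c x _ hx => exact Subalgebra.smul_mem _ hx c

theorem kpgl_mulE {k : ℕ} (V : Submodule K (I → QA K)) (h : ∀ v ∈ V, ∀ i, v i ∈ lev K k)
    (v : I → QA K) (hv : v ∈ mulE k V) (i : I) : v i ∈ lev K (k + 1) := by
  unfold mulE at hv
  obtain ⟨x3, hx3, y3, ⟨y3', hy3, rfl⟩, rfl⟩ := Submodule.mem_sup.1 hv
  obtain ⟨x2, hx2, y2, ⟨y2', hy2, rfl⟩, rfl⟩ := Submodule.mem_sup.1 hx3
  obtain ⟨x, hx, y1, ⟨y1', hy1, rfl⟩, rfl⟩ := Submodule.mem_sup.1 hx2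
  have hm : lev K k ≤ lev K (k + 1) := kpa_lev_mono (Nat.le_succ k)
  exact Subalgebra.add_mem _ (Subalgebra.add_mem _ (Subalgebra.add_mem _ (hm (h x hx i))
    (Subalgebra.mul_mem _ (hm (h y1' hy1 i)) (kpa_S1_mem_lev k)))
    (Subalgebra.mul_mem _ (hm (h y2' hy2 i)) (kpa_S2_mem_lev k)))
    (Subalgebra.mul_mem _ (hm (h y3' hy3 i)) (kpa_S3_mem_lev k))

theorem kpgl_toL (k : ℕ) (u : QA K⟦X⟧) (h0 : cf 0 u ∈ lev K k)
    (h : ∀ m, 1 ≤ m → cf m u ∈ lev K k) : toL K u ∈ lev K⸨X⸩ k := by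
  rw [kpr_toL_mem_lev]
  intro m
  rcases Nat.eq_zero_or_pos m with rfl | hm
  · exact h0
  · exact h m hm

theorem kpgl_curve (s : Pt K I J) (h : s.LevInv) (T : I → QA K⟦X⟧) (hT : s.IsCurve T) :
    (s.curve T).LevInv where
  X := fun i => kpgl_toL s.k (T i) (by rw [hT.zero i]; exact h.X i)
    (fun m hm => h.V1 _ (hT.mem m hm) i)
  V0 := fun v hv i => kpgl_extV s.V0 h.V0 v hv i
  V1 := fun v hv i => kpgl_extV s.V1 h.V1 v hv i

theorem kpgl_sup (s : Pt K I J) (h : s.LevInv) (v : I → QA K) (hv : v ∈ mulE s.k s.V0 ⊔ s.V1)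
    (i : I) : v i ∈ lev K (s.k + 1) := by
  obtain ⟨x, hx, y, hy, rfl⟩ := Submodule.mem_sup.1 hv
  exact Subalgebra.add_mem _ (kpgl_mulE s.V0 h.V0 x hx i)
    (kpa_lev_mono (Nat.le_succ s.k) (h.V1 y hy i))

theorem kpgl_grow (s : Pt K I J) (h : s.LevInv) (T : I → QA K⟦X⟧) (w1 w2 : I → QA K)
    (hT : s.IsGrowth T w1 w2) : (s.grow T).LevInv where
  X := fun i => kpgl_toL (s.k + 1) (T i)
    (by rw [hT.zero i]; exact kpa_lev_mono (Nat.le_succ s.k) (h.X i))
    (fun m hm => kpgl_sup s h _ (hT.mem m hm) i)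
  V0 := fun v hv i => kpgl_extV (mulE s.k s.V0) (fun v hv => kpgl_mulE s.V0 h.V0 v hv) v hv i
  V1 := fun v hv i => kpgl_extV (mulE s.k s.V0 ⊔ s.V1) (fun v hv => kpgl_sup s h v hv) v hv i

/-- states reachable from a state with data in `lev` -/
theorem kpgl_rch (s0 : Pt K I J) (h0 : s0.LevInv) (L : Type) (iF : Field L) (iK : KF L)
    (t : Pt L I J) (P : Place K L) (h : Rch s0 L iF iK t P) : t.LevInv ∧ s0.k ≤ t.k := by
  induction h with
  | refl => exact ⟨h0, le_refl _⟩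
  | curve M jF jK s P h T hT ih => exact ⟨kpgl_curve s ih.1 T hT, ih.2⟩
  | grow M jF jK s P h T w1 w2 hT ih =>
    exact ⟨kpgl_grow s ih.1 T w1 w2 hT, ih.2.trans (Nat.le_succ _)⟩

theorem kpgl_omg (s : Pt K I J) (h : ∀ i, s.X i ∈ lev K s.k) (w : NC K I) :
    s.omg w ∈ lev K s.k := NC.kph_ev_mem (lev K s.k) w s.X h

theorem kpgl_ext (s : Pt K I J) (hs : s.LevInv) (w : NC K I) (a : QA K)
    (m0 : Submodule K (QA K)) : (s.ext w a m0).LevInv where
  X := by
    rintro (i | b)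
    · exact hs.X i
    · cases b
      · exact Subalgebra.one_mem _
      · exact kpgl_omg s hs.X w
  V0 := by
    rintro v ⟨⟨h1, h2⟩, h3⟩ (i | b)
    · exact hs.V0 _ h1 i
    · cases b
      · exact h2.1
      · exact h3.1.1
  V1 := by
    rintro v ⟨⟨h1, h2⟩, h3⟩ (i | b)
    · exact hs.V1 _ h1 i
    · cases b
      · exact h2.1
      · exact h3.1.1

end

section
variable {K L I J : Type} [Field K] [KF K] [Field L] [KF L] [Fintype I] [Fintype J]

/-- levels at the states of `S⁺` -/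
theorem kpgl_t (s : Pt K I J) (w : NC K I) (hs : s.Good) (a : QA K)
    (m0 : Submodule K (QA K)) (t : Pt L (I ⊕ Bool) (Option J)) (P : Place K L)
    (ht : Rch (s.ext w a m0) L inferInstance inferInstance t P) : t.LevInv ∧ s.k ≤ t.k :=
  kpgl_rch (s.ext w a m0) (kpgl_ext s (kpgl_good s hs) w a m0) L _ _ t P ht

end

/-! ### projections -/

section
variable {K : Type} [Field K] [KF K]

theorem kpgl_Pr_uniq {k : ℕ} {S : Set (QA K)} {u c c' : QA K} (h : IsPr k S u c)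
    (h' : IsPr k S u c') : c = c' := by
  have h1 : c - c' = 0 := by
    refine kpa_sub_nondeg (B := cenA k S) ?_ fun d hd => ?_
    · exact Subalgebra.sub_mem _ (mem_cenA.2 ⟨h.1, h.2.1⟩) (mem_cenA.2 ⟨h'.1, h'.2.1⟩)
    · obtain ⟨hd1, hd2⟩ := mem_cenA.1 hd
      have e1 := h.2.2 d hd1 hd2
      have e2 := h'.2.2 d hd1 hd2
      have : (c - c') * d = (u - c') * d - (u - c) * d := by
        rw [← sub_mul]; congr 1; abel
      rw [this, map_sub, e1, e2, sub_zero]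
  exact sub_eq_zero.1 h1

/-- `E_ω(u e) = E_ω(u) e` for `e ∈ mid k l` -/
theorem kpgl_Pr_mul {k l : ℕ} (hkl : k ≤ l) {ω u e : QA K} (hω : ω ∈ lev K k)
    (hu : u ∈ lev K k) (he : e ∈ mid K k l) :
    Pr l ({ω} : Set (QA K)) (u * e) = Pr k ({ω} : Set (QA K)) u * e := by
  have hm : lev K k ≤ lev K l := kpa_lev_mono hkl
  have hel : e ∈ lev K l := kpa_mid_le_lev k l he
  have hc := Pr_spec k ({ω} : Set (QA K)) u hu
  set c := Pr k ({ω} : Set (QA K)) u with hcdef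
  refine kpgl_Pr_uniq (Pr_spec l _ _ (Subalgebra.mul_mem _ (hm hu) hel)) ⟨?_, ?_, ?_⟩
  · exact Subalgebra.mul_mem _ (hm hc.1) hel
  · intro φ hφ
    rw [Set.mem_singleton_iff] at hφ
    subst hφ
    have h1 := hc.2.1 φ (Set.mem_singleton φ)
    have h2 : φ * e = e * φ := kpa_lev_mid_comm hω he
    rw [mul_assoc, ← h2, ← mul_assoc, h1, mul_assoc]
  · intro d hd hdω
    have hdω' := hdω ω (Set.mem_singleton ω)
    have h2 : ω * e = e * ω := kpa_lev_mid_comm hω he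
    have h3 : (u * e - c * e) * d = (u - c) * (e * d) := by
      rw [← sub_mul, mul_assoc]
    rw [h3, ← kpg_tr_ptr k, kpg_ptr_left (Subalgebra.sub_mem _ hu hc.1)]
    refine hc.2.2 (ptr k (e * d)) (kpg_ptr_mem k _) ?_
    intro φ hφ
    rw [Set.mem_singleton_iff] at hφ
    subst hφ
    rw [← kpg_ptr_right hω, ← kpg_ptr_left hω, mul_assoc, hdω', ← mul_assoc, ← h2, mul_assoc]

end

section
variable {R I A : Type} [CommRing R] [Ring A] [Algebra R A]

theorem kpgl_d1_mul (p : NC R I) (X v : I → A) (e : A) (S : Subalgebra R A)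
    (hX : ∀ i, X i ∈ S) (he : ∀ x ∈ S, x * e = e * x) :
    p.d1 X (fun i => v i * e) = p.d1 X v * e := by
  induction p with
  | cst c => simp only [NC.d1, zero_mul]
  | var i => rfl
  | add p q hp hq => simp only [NC.d1, hp, hq, add_mul]
  | mul p q hp hq =>
    simp only [NC.d1, hp, hq, add_mul]
    rw [mul_assoc (p.d1 X v) e (q.ev X), ← he _ (NC.kph_ev_mem S q X hX), ← mul_assoc,
      ← mul_assoc]

end

theorem kpgl_qinv_lev {K : Type} [Field K] [KF K] {k : ℕ} {a : QA K} (ha : a ∈ lev K k) :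
    qinv a ∈ lev K k := by
  unfold qinv
  by_cases h : ∃ v : QA K, a * v = 1 ∧ v * a = 1
  · rw [dif_pos h]
    exact kpa_inv_mem ha (Classical.choose_spec h).1
  · rw [dif_neg h]
    exact Subalgebra.zero_mem _

section
variable {K L I J : Type} [Field K] [KF K] [Field L] [KF L] [Fintype I] [Fintype J]

/-- `g⁻¹ dw[v e] g = (g⁻¹ dw[v] g) e` and `E(. e) = E(.) e` -/
theorem kpgl_ellg (s : Pt K I J) (w : NC K I) (P : Place K L)
    (t : Pt L (I ⊕ Bool) (Option J)) (ht : t.LevInv) (hω : P.iq (s.omg w) ∈ lev L t.k)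
    {l : ℕ} (hl : t.k ≤ l) (v : I → QA L) (hv : ∀ i, v i ∈ lev L t.k)
    (e : QA L) (he : e ∈ mid L t.k l) :
    s.ellg w P t l (mulR e v) = s.ellh w P t v * e := by
  have hX : ∀ i, t.X (Sum.inl i) ∈ lev L t.k := fun i => ht.X _
  have h1 : (w.map P.inc).d1 (fun i => t.X (Sum.inl i)) (fun i => v i * e) =
      (w.map P.inc).d1 (fun i => t.X (Sum.inl i)) v * e :=
    kpgl_d1_mul (w.map P.inc) _ v e (lev L t.k) hX (fun x hx => kpa_lev_mid_comm hx he)
  have hg : gv t ∈ lev L t.k := ht.X _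
  have hd : (w.map P.inc).d1 (fun i => t.X (Sum.inl i)) v ∈ lev L t.k :=
    NC.kph_d1_mem (lev L t.k) _ _ _ hX hv
  show Pr l {P.iq (s.omg w)} (qinv (gv t) *
    (w.map P.inc).d1 (fun i => t.X (Sum.inl i)) (fun i => v i * e) * gv t) =
    Pr t.k {P.iq (s.omg w)} (qinv (gv t) *
      (w.map P.inc).d1 (fun i => t.X (Sum.inl i)) v * gv t) * e
  rw [h1, ← kpgl_Pr_mul hl hω (Subalgebra.mul_mem _ (Subalgebra.mul_mem _ (kpgl_qinv_lev hg) hd)
    hg) he]
  congr 1
  rw [← mul_assoc (qinv (gv t)), mul_assoc _ e (gv t), ← kpa_lev_mid_comm hg he, ← mul_assoc]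

theorem kpgl_omg_t (s : Pt K I J) (w : NC K I) (hs : s.Good) (P : Place K L) {k : ℕ}
    (hk : s.k ≤ k) : P.iq (s.omg w) ∈ lev L k :=
  kpa_lev_mono hk (P.iq_lev (kpgl_omg s hs.Xlev w))

/-- the case `e = 1` : `ellg = ellh` on vectors of level `t.k` -/
theorem kpgl_ellg_one (s : Pt K I J) (w : NC K I) (P : Place K L)
    (t : Pt L (I ⊕ Bool) (Option J)) (ht : t.LevInv) (hω : P.iq (s.omg w) ∈ lev L t.k)
    {l : ℕ} (hl : t.k ≤ l) (v : I → QA L) (hv : ∀ i, v i ∈ lev L t.k) :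
    s.ellg w P t l v = s.ellh w P t v := by
  have h := kpgl_ellg s w P t ht hω hl v hv 1 (Subalgebra.one_mem _)
  have h2 : (mulR (1 : QA L)) v = v := by
    funext i
    show v i * 1 = v i
    rw [mul_one]
  rw [h2, mul_one] at h
  exact h

end

/-! ### the basis `1, S1, S2, S3` of `mid k (k+1)` -/

section
variable {K : Type} [Field K] [KF K]

theorem kpgl_iq_e {L : Type} [Field L] [KF L] (P : Place K L) (g : Gp) :
    P.iq (QA.e g) = QA.e g := by
  show QA.map P.inc (QA.ec g 1) = QA.ec g 1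
  rw [QA.map_ec, map_one]

/-- `ec g x = ec g' x * b` with `g'` without the index `k`, `b ∈ {1,S1,S2,S3}` -/
theorem kpgl_split {j k : ℕ} (g : Gp) (x : K) (h1 : ∀ s ∈ g.1, j ≤ s ∧ s < k + 1)
    (h2 : ∀ s ∈ g.2, j ≤ s ∧ s < k + 1) :
    ∃ f ∈ mid K j k, ∃ b : Gp, (b = (∅, ∅) ∨ b = ({k}, ∅) ∨ b = (∅, {k}) ∨ b = ({k}, {k})) ∧
      QA.ec g x = f * QA.e b := by
  classical
  have key : ∀ a : Finset ℕ, (a \ {k}) ∆ (a ∩ {k}) = a := by
    intro a
    ext n
    simp only [Finset.mem_symmDiff, Finset.mem_sdiff, Finset.mem_inter, Finset.mem_singleton]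
    tauto
  have key2 : ∀ a : Finset ℕ, a ∩ {k} = ∅ ∨ a ∩ {k} = {k} := by
    intro a
    by_cases h : k ∈ a
    · right
      ext n
      simp only [Finset.mem_inter, Finset.mem_singleton]
      constructor
      · exact fun h => h.2
      · rintro rfl; exact ⟨h, rfl⟩
    · left
      rw [Finset.eq_empty_iff_forall_notMem]
      intro n hn
      simp only [Finset.mem_inter, Finset.mem_singleton] at hn
      exact h (hn.2 ▸ hn.1)
  have key3 : ∀ a b : Finset ℕ, (a \ {k}) ∩ (b ∩ {k}) = ∅ := by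
    intro a b
    rw [Finset.eq_empty_iff_forall_notMem]
    intro n hn
    simp only [Finset.mem_inter, Finset.mem_sdiff, Finset.mem_singleton] at hn
    tauto
  refine ⟨QA.ec (g.1 \ {k}, g.2 \ {k}) x, kpa_ec_mem_mid ?_ ?_ x, (g.1 ∩ {k}, g.2 ∩ {k}), ?_, ?_⟩
  · intro n hn
    simp only [Finset.mem_sdiff, Finset.mem_singleton] at hn
    have := h1 n hn.1
    omega
  · intro n hn
    simp only [Finset.mem_sdiff, Finset.mem_singleton] at hn
    have := h2 n hn.1
    omega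
  · rcases key2 g.1 with e1 | e1 <;> rcases key2 g.2 with e2 | e2 <;> rw [e1, e2] <;> simp
  · rw [QA.e_eq_ec, QA.ec_mul_ec]
    have hg : gx (g.1 \ {k}, g.2 \ {k}) (g.1 ∩ {k}, g.2 ∩ {k}) = g := by
      show ((g.1 \ {k}) ∆ (g.1 ∩ {k}), (g.2 \ {k}) ∆ (g.2 ∩ {k})) = g
      rw [key, key]
    have hc : coc K (g.1 \ {k}, g.2 \ {k}) (g.1 ∩ {k}, g.2 ∩ {k}) = 1 := by
      unfold coc
      simp only
      rw [key3, key3, key3]
      simp
    rw [hg, hc, one_mul, mul_one]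

theorem kpgl_b_mem {L : Type} [Field L] [KF L] {k : ℕ} {b : Gp}
    (hb : b = (∅, ∅) ∨ b = ({k}, ∅) ∨ b = (∅, {k}) ∨ b = ({k}, {k})) :
    (QA.e b : QA L) ∈ mid L k (k + 1) := by
  rcases hb with rfl | rfl | rfl | rfl
  · exact Subalgebra.one_mem _
  · exact kpa_S1_mem k
  · exact kpa_S2_mem k
  · exact kpa_S3_mem k

theorem kpgl_mulR_mem {I : Type} {k : ℕ} (V : Submodule K (I → QA K)) {v : I → QA K}
    (hv : v ∈ V) {b : Gp} (hb : b = (∅, ∅) ∨ b = ({k}, ∅) ∨ b = (∅, {k}) ∨ b = ({k}, {k})) :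
    mulR (QA.e b) v ∈ mulE k V := by
  unfold mulE
  rcases hb with rfl | rfl | rfl | rfl
  · have h2 : (mulR (QA.e (∅, ∅) : QA K)) v = v := by
      funext i
      show v i * 1 = v i
      rw [mul_one]
    rw [h2]
    exact Submodule.mem_sup_left (Submodule.mem_sup_left (Submodule.mem_sup_left hv))
  · exact Submodule.mem_sup_left (Submodule.mem_sup_left (Submodule.mem_sup_right
      (Submodule.mem_map_of_mem hv)))
  · exact Submodule.mem_sup_left (Submodule.mem_sup_right (Submodule.mem_map_of_mem hv))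
  · exact Submodule.mem_sup_right (Submodule.mem_map_of_mem hv)

end

end Crest.Agent.KP
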