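import Crest.Agent.KPX_Forget
import Crest.Agent.KP_G0
import Crest.Agent.KP_C
import Crest.Agent.KP_Defs4
import Crest.Agent.KPG_G3
import Crest.Agent.KPG_qinv
import Crest.Agent.KPG_Lev

set_option autoImplicit false
set_option linter.unusedSectionVars false

open scoped PowerSeries LaurentSeries symmDiff

namespace Crest.Agent.KP

open Pt

variable {K L I J : Type} [Field K] [KF K] [Field L] [KF L] [Fintype I] [Fintype J]

/-- **G4.** the same for growth directions: for `z ∈ R ⊗ E_{l+1}` there is `η ∈ ker Theta` with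
`l^(η)` integral with residue `a z`.  Proof: `z` is a combination of `z_b e_b`, `z_b ∈ R ⊗ E_l`,
`e_b ∈ {1,S1,S2,S3}`; take `∑ v_b e_b` with `v_b` from G3 (`ellg (v e_b) = ellh v * e_b`), and
correct it by an element of `(W ∩ ker l^) E` into `ker Theta` (part C: Theta is onto there). -/
theorem G4 (s : Pt K I J) (w : NC K I) (d : ℕ) (hp : s.Pkg w d) (a : QA K)
    (m0 : Submodule K (QA K)) (hx : s.ExtOk w a m0)
    (t : Pt L (I ⊕ Bool) (Option J)) (P : Place K L)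
    (ht : Rch (s.ext w a m0) L inferInstance inferInstance t P)
    (hb : ∀ r ∈ s.RR w a, ∀ e ∈ mid K s.k t.k, ∃ v ∈ (s.fgt P t).W,
      P.Int (s.ellh w P t v) ∧ P.rq (s.ellh w P t v) = a * r * e)
    (T : I → QA L⟦X⟧) (w1 w2 : I → QA L) (hT : (s.fgt P t).IsGrowth T w1 w2)
    (hI : (s.fgt P t).Inj ((s.fgt P t).W ⊓ LinearMap.ker (s.ellh w P t)) w1 w2)
    (z : QA K) (hz : z ∈ tE s.k (t.k + 1) (s.RR w a)) :
    ∃ η, (s.fgt P t).KerTh w1 w2 η ∧ P.Int (s.ellg w P t (t.k + 1) η) ∧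
      P.rq (s.ellg w P t (t.k + 1) η) = a * z := by
  obtain ⟨hlev, hk⟩ := kpgl_t s w hp.good a m0 t P ht
  have hω : P.iq (s.omg w) ∈ lev L t.k := kpgl_omg_t s w hp.good P hk
  have hfr := _root_.Crest.Agent.KP.kpx_ext_forget s w a m0 hx L _ _ t P ht
  obtain ⟨fgood, fst, falt⟩ := C_reach s hp.good hp.stable L _ _ (s.fgt P t) P hfr
  have hWlev : ∀ v ∈ (s.fgt P t).W, ∀ i, v i ∈ lev L t.k := fun v hv i =>
    fgood.V1lev v (fgood.V0V1 hv.1) i
  -- Step 1: directions in `W E`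
  have step1 : ∀ z ∈ tE s.k (t.k + 1) (s.RR w a), ∃ η ∈ mulE t.k (s.fgt P t).W,
      P.Int (s.ellg w P t (t.k + 1) η) ∧ P.rq (s.ellg w P t (t.k + 1) η) = a * z := by
    intro z hz
    unfold tE at hz
    induction hz using Submodule.span_induction with
    | mem x hx =>
      obtain ⟨r, hr, e, he, rfl⟩ := hx
      refine kpa_on_induction (p := fun e => ∃ η ∈ mulE t.k (s.fgt P t).W,
        P.Int (s.ellg w P t (t.k + 1) η) ∧ P.rq (s.ellg w P t (t.k + 1) η) = a * (r * e))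
        he ?_ ?_ ?_
      · refine ⟨0, Submodule.zero_mem _, ?_, ?_⟩
        · rw [map_zero]; exact P.Int_zero_aux
        · rw [map_zero, mul_zero, mul_zero]; exact P.rq_zero_aux
      · rintro e e' ⟨v, hv, h1, h2⟩ ⟨v', hv', h1', h2'⟩
        refine ⟨v + v', Submodule.add_mem _ hv hv', ?_, ?_⟩
        · rw [map_add]; exact P.Int_add_aux h1 h1'
        · rw [map_add, P.rq_add_aux h1 h1', h2, h2', mul_add, mul_add]
      · intro g x hg1 hg2
        obtain ⟨f, hf, b, hb', hfb⟩ := kpgl_split (j := s.k) (k := t.k) g x hg1 hg2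
        obtain ⟨v, hv, h1, h2⟩ := hb r hr f hf
        have h3 := kpgl_ellg s w P t hlev hω (Nat.le_succ t.k) v (hWlev v hv) (QA.e b)
          (kpgl_b_mem hb')
        have h4 : P.Int (QA.e b : QA L) := by
          rw [← kpgl_iq_e P b]; exact P.int_iq _
        refine ⟨mulR (QA.e b) v, kpgl_mulR_mem _ hv hb', ?_, ?_⟩
        · rw [h3]; exact P.int_mul h1 h4
        · rw [h3, P.rq_mul h1 h4, h2, hfb, ← kpgl_iq_e P b, P.rq_iq]
          simp only [mul_assoc]
    | zero =>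
      refine ⟨0, Submodule.zero_mem _, ?_, ?_⟩
      · rw [map_zero]; exact P.Int_zero_aux
      · rw [map_zero, mul_zero]; exact P.rq_zero_aux
    | add x y _ _ hx hy =>
      obtain ⟨v, hv, h1, h2⟩ := hx
      obtain ⟨v', hv', h1', h2'⟩ := hy
      refine ⟨v + v', Submodule.add_mem _ hv hv', ?_, ?_⟩
      · rw [map_add]; exact P.Int_add_aux h1 h1'
      · rw [map_add, P.rq_add_aux h1 h1', h2, h2', mul_add]
    | smul c x _ hx =>
      obtain ⟨v, hv, h1, h2⟩ := hx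
      refine ⟨P.inc c • v, Submodule.smul_mem _ _ hv, ?_, ?_⟩
      · rw [map_smul]; exact P.Int_smul_aux (P.inc_mem c) h1
      · rw [map_smul, P.rq_smul_aux (P.inc_mem c) h1, P.r_inc_aux, h2, mul_smul_comm]
  obtain ⟨η, hη, h1, h2⟩ := step1 z hz
  -- Step 2: correction
  obtain ⟨η', hη', hker⟩ := C_theta (s.fgt P t) fgood falt w1 w2 hT.w1W hT.w2W
    ((s.fgt P t).W ⊓ LinearMap.ker (s.ellh w P t)) inf_le_left hI η hη
  have h0 : s.ellg w P t (t.k + 1) η' = 0 := by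
    have hz : ∀ y ∈ (s.fgt P t).W ⊓ LinearMap.ker (s.ellh w P t), ∀ b : Gp,
        (b = (∅, ∅) ∨ b = ({t.k}, ∅) ∨ b = (∅, {t.k}) ∨ b = ({t.k}, {t.k})) →
        s.ellg w P t (t.k + 1) (mulR (QA.e b) y) = 0 := by
      intro y hy b hb'
      rw [kpgl_ellg s w P t hlev hω (Nat.le_succ t.k) y (hWlev y hy.1) (QA.e b)
        (kpgl_b_mem hb')]
      have : s.ellh w P t y = 0 := hy.2
      rw [this, zero_mul]
    unfold mulE at hη'
    obtain ⟨x3, hx3, y3, ⟨y3', hy3, rfl⟩, rfl⟩ := Submodule.mem_sup.1 hη'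
    obtain ⟨x2, hx2, y2, ⟨y2', hy2, rfl⟩, rfl⟩ := Submodule.mem_sup.1 hx3
    obtain ⟨x, hx, y1, ⟨y1', hy1, rfl⟩, rfl⟩ := Submodule.mem_sup.1 hx2
    have e3 := hz y3' hy3 ({t.k}, {t.k}) (by simp)
    have e2 := hz y2' hy2 (∅, {t.k}) (by simp)
    have e1 := hz y1' hy1 ({t.k}, ∅) (by simp)
    have e0 := kpgl_ellg_one s w P t hlev hω (Nat.le_succ t.k) x (hWlev x hx.1)
    have e0' : s.ellh w P t x = 0 := hx.2
    rw [e0'] at e0
    rw [map_add, map_add, map_add, e0]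
    have e1' : s.ellg w P t (t.k + 1) ((mulR (S1 (s.fgt P t).k)) y1') = 0 := e1
    have e2' : s.ellg w P t (t.k + 1) ((mulR (S2 (s.fgt P t).k)) y2') = 0 := e2
    have e3' : s.ellg w P t (t.k + 1) ((mulR (S3 (s.fgt P t).k)) y3') = 0 := e3
    rw [e1', e2', e3', add_zero, add_zero, add_zero]
  refine ⟨η + η', hker, ?_, ?_⟩
  · rw [map_add, h0, add_zero]; exact h1
  · rw [map_add, h0, add_zero]; exact h2

end Crest.Agent.KP
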