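import Crest.Agent.KP_G0
import Crest.Agent.KP_C
import Crest.Agent.KPC_Cf
import Crest.Agent.KPC_Alg
import Crest.Agent.KPG_qinv

/-!
# S0270: common core of G5 (author helper68)
-/

set_option autoImplicit false
set_option linter.unusedSectionVars false

open scoped PowerSeries LaurentSeries symmDiff

namespace Crest.Agent.KP

open Pt KC

/-! ### power series -/

/-- Taylor expansion of a word under a perturbation of order `δ` -/
theorem kpg5_ev {K I : Type} [Field K] [QPar K] (T T' : I → QA K⟦X⟧) (δ : ℕ) (hδ : 1 ≤ δ)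
    (η : I → QA K) (hlt : ∀ m, m < δ → ∀ i, cf m (T' i) = cf m (T i))
    (he : ∀ i, cf δ (T' i) = cf δ (T i) + η i) (F : NC K I) :
    (∀ m, m < δ → cf m (F.ev T') = cf m (F.ev T)) ∧
      cf δ (F.ev T') = cf δ (F.ev T) + F.d1 (fun i => cf 0 (T i)) η := by
  have h1 : ∀ l ≤ δ, cf l (F.ev T') =
      cf l (F.ev (fun i => T i + (PowerSeries.X ^ δ : K⟦X⟧) • toP K (η i))) := by
    apply cf_ev_congr
    intro l hl i
    rw [map_add, cf_X_smul, cf_toP]
    rcases lt_or_eq_of_le hl with h | h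
    · rw [if_neg (by omega), add_zero, hlt l h i]
    · subst h
      rw [if_pos le_rfl, if_pos (by omega), he i]
  refine ⟨fun m hm => ?_, ?_⟩
  · rw [h1 m hm.le, cf_ev_add δ m (by omega), if_neg (by omega), add_zero]
  · rw [h1 δ le_rfl, cf_ev_add δ δ (by omega), if_pos le_rfl, Nat.sub_self, cf0_d1]
    congr 2
    funext i
    rw [cf_toP, if_pos rfl]

/-- division of power series from the left -/
theorem kpg5_div {L : Type} [Field L] [KF L] (l : ℕ) (g x : QA L⟦X⟧) (hg : ∀ m, cf m g ∈ lev L l)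
    (hx : ∀ m, cf m x ∈ lev L l) (h0 : cf 0 g ≠ 0) :
    ∃ h : QA L⟦X⟧, g * h = x ∧ ∀ m, cf m h ∈ lev L l := by
  obtain ⟨q1, q2, q3, -⟩ := qinv_spec l (cf 0 g) (hg 0) h0
  -- recursive definition of the coefficients
  let Φ : (m : ℕ) → ((p : ℕ) → p < m → QA L) → QA L := fun m ih =>
    qinv (cf 0 g) * (cf m x - ∑ p : Fin m, cf (m - p.1) g * ih p.1 p.2)
  let a : ℕ → QA L := WellFounded.fix (r := (· < ·)) Nat.lt_wfRel.wf Φ
  have ha : ∀ m, a m = qinv (cf 0 g) * (cf m x - ∑ p : Fin m, cf (m - p.1) g * a p.1) := by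
    intro m
    exact WellFounded.fix_eq (r := (· < ·)) Nat.lt_wfRel.wf Φ m
  have hlev : ∀ m, a m ∈ lev L l := by
    intro m
    induction m using Nat.strong_induction_on with
    | _ m ih =>
      rw [ha m]
      refine (lev L l).mul_mem q3 ((lev L l).sub_mem (hx m) ((lev L l).sum_mem fun p _ => ?_))
      exact (lev L l).mul_mem (hg _) (ih p.1 p.2)
  obtain ⟨h, hh⟩ := exists_ofSeq l a hlev
  refine ⟨h, ?_, fun m => by rw [hh]; exact hlev m⟩
  apply cf_ext
  intro m
  rw [cf_mul]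
  have e1 : ∑ p ∈ Finset.HasAntidiagonal.antidiagonal m, cf p.1 g * cf p.2 h =
      ∑ i ∈ Finset.range (m + 1), cf (m - i) g * a i := by
    rw [Finset.Nat.sum_antidiagonal_eq_sum_range_succ_mk, ← Finset.sum_range_reflect]
    refine Finset.sum_congr rfl fun i hi => ?_
    rw [Finset.mem_range] at hi
    simp only [hh]
    rw [show m + 1 - 1 - i = m - i by omega, show m - (m - i) = i by omega]
  rw [e1, Finset.sum_range_succ, Nat.sub_self, ha m, ← mul_assoc, q1, one_mul,
    Finset.sum_range (fun i => cf (m - i) g * a i)]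
  abel

/-- comparison of coefficients -/
theorem kpg5_cmp {L : Type} [Field L] [KF L] (g u x : QA L⟦X⟧) (h0 : cf 0 g ≠ 0) (δ : ℕ)
    (hgu : g * u = x * g) (D : QA L) (hx : ∀ m, m < δ → cf m x = 0) (hxδ : cf δ x = D) :
    (∀ m, m < δ → cf m u = 0) ∧ cf 0 g * cf δ u = D * cf 0 g := by
  have key : ∀ m, m ≤ δ → (∀ p, p < m → cf p u = 0) → cf 0 g * cf m u = cf m x * cf 0 g := by
    intro m hm hp
    have h1 := congrArg (cf m) hgu
    rw [cf_mul, cf_mul] at h1
    rw [Finset.sum_eq_single (0, m)] at h1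
    · rw [Finset.sum_eq_single (m, 0)] at h1
      · exact h1
      · rintro ⟨p, q⟩ hpq hne
        rw [Finset.HasAntidiagonal.mem_antidiagonal] at hpq
        simp only at hpq
        have hpm : p < m := by
          rcases Nat.eq_zero_or_pos q with h | h
          · exact absurd (Prod.ext (by simp only; omega) (by simp only; omega)) hne
          · omega
        simp only
        rw [hx p (lt_of_lt_of_le hpm hm), zero_mul]
      · intro h
        exact absurd (Finset.HasAntidiagonal.mem_antidiagonal.2 (by simp)) h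
    · rintro ⟨p, q⟩ hpq hne
      rw [Finset.HasAntidiagonal.mem_antidiagonal] at hpq
      simp only at hpq
      have hqm : q < m := by
        rcases Nat.eq_zero_or_pos p with h | h
        · exact absurd (Prod.ext (by simp only; omega) (by simp only; omega)) hne
        · omega
      simp only
      rw [hp q hqm, mul_zero]
    · intro h
      exact absurd (Finset.HasAntidiagonal.mem_antidiagonal.2 (by simp)) h
  have hlt : ∀ m, m < δ → cf m u = 0 := by
    intro m
    induction m using Nat.strong_induction_on with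
    | _ m ih =>
      intro hm
      have := key m hm.le (fun p hp => ih p hp (hp.trans hm))
      rw [hx m hm, zero_mul] at this
      exact (mul_eq_zero.1 this).resolve_left h0
  exact ⟨hlt, by rw [key δ le_rfl hlt, hxδ]⟩

/-! ### reachable states -/

theorem kpg5_map_map {R R' R'' I : Type} (f : R → R') (g : R' → R'') (h : R → R'')
    (hh : ∀ x, g (f x) = h x) (p : NC R I) : (p.map f).map g = p.map h := by
  induction p with
  | cst c => simp only [NC.map, hh]
  | var i => rfl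
  | add p q hp hq => simp only [NC.map, hp, hq]
  | mul p q hp hq => simp only [NC.map, hp, hq]

theorem kpg5_map_id {R I : Type} (f : R → R) (hf : ∀ x, f x = x) (p : NC R I) :
    p.map f = p := by
  induction p with
  | cst c => simp only [NC.map, hf]
  | var i => rfl
  | add p q hp hq => simp only [NC.map, hp, hq]
  | mul p q hp hq => simp only [NC.map, hp, hq]

theorem kpg5_ren_map {R R' I I' : Type} (f : R → R') (r : I → I') (p : NC R I) :
    (p.ren r).map f = (p.map f).ren r := by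
  induction p with
  | cst c => rfl
  | var i => rfl
  | add p q hp hq => simp only [NC.map, NC.ren, hp, hq]
  | mul p q hp hq => simp only [NC.map, NC.ren, hp, hq]

theorem kpg5_ren_ev {R I I' A : Type} [CommRing R] [Ring A] [Algebra R A] (r : I → I')
    (X : I' → A) (p : NC R I) : (p.ren r).ev X = p.ev (fun i => X (r i)) := by
  induction p with
  | cst c => rfl
  | var i => rfl
  | add p q hp hq => simp only [NC.ev, NC.ren, hp, hq]
  | mul p q hp hq => simp only [NC.ev, NC.ren, hp, hq]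

variable {I J : Type} [Fintype I] [Fintype J]

/-- equations of a reachable state -/
theorem kpg5_F {K0 : Type} [Field K0] [KF K0] (s0 : Pt K0 I J) {L : Type} {iF : Field L}
    {iK : KF L} {t : Pt L I J} {P : Place K0 L} (h : Rch s0 L iF iK t P) :
    (∀ j, t.F j = (s0.F j).map P.inc) ∧ t.x = s0.x ∧ t.y = s0.y ∧ s0.k ≤ t.k := by
  induction h with
  | refl =>
    refine ⟨fun j => ?_, rfl, rfl, le_rfl⟩
    exact (kpg5_map_id _ (fun x => rfl) _).symm
  | curve K iF iK s P h T hT ih =>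
    obtain ⟨h1, h2, h3, h4⟩ := ih
    refine ⟨fun j => ?_, h2, h3, h4⟩
    show (s.F j).map (algebraMap K K⸨X⸩) = _
    rw [h1 j]
    exact kpg5_map_map _ _ _ (fun x => rfl) _
  | grow K iF iK s P h T w1 w2 hT ih =>
    obtain ⟨h1, h2, h3, h4⟩ := ih
    refine ⟨fun j => ?_, h2, h3, h4.trans (Nat.le_succ _)⟩
    show (s.F j).map (algebraMap K K⸨X⸩) = _
    rw [h1 j]
    exact kpg5_map_map _ _ _ (fun x => rfl) _

/-- a coordinate which is nonzero at `s0` stays nonzero -/
theorem kpg5_ne {K0 : Type} [Field K0] [KF K0] (s0 : Pt K0 I J) (i : I) (hi : s0.X i ≠ 0)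
    {L : Type} {iF : Field L}
    {iK : KF L} {t : Pt L I J} {P : Place K0 L} (h : Rch s0 L iF iK t P) : t.X i ≠ 0 := by
  induction h with
  | refl => exact hi
  | curve K iF iK s P h T hT ih =>
    intro h0
    have h0' : toL K (T i) = 0 := h0
    have h1 : T i = 0 := kpr_toL_inj (h0'.trans (map_zero _).symm)
    apply ih
    rw [← hT.zero i, h1, map_zero]
  | grow K iF iK s P h T w1 w2 hT ih =>
    intro h0
    have h0' : toL K (T i) = 0 := h0
    have h1 : T i = 0 := kpr_toL_inj (h0'.trans (map_zero _).symm)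
    apply ih
    rw [← hT.zero i, h1, map_zero]

/-- vectors whose `i`-th component commutes with `c` -/
noncomputable def kpg5_Cm {L : Type} [Field L] [KF L] {I : Type} (i : I) (c : QA L) :
    Submodule L (I → QA L) :=
  (Subalgebra.toSubmodule (Subalgebra.centralizer L {c})).comap (LinearMap.proj i)

theorem kpg5_mem_Cm {L : Type} [Field L] [KF L] {I : Type} (i : I) (c : QA L) (v : I → QA L) :
    v ∈ kpg5_Cm i c ↔ c * v i = v i * c := by
  unfold kpg5_Cm
  rw [Submodule.mem_comap, Subalgebra.mem_toSubmodule, Subalgebra.mem_centralizer_iff]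
  simp

theorem kpg5_extV_Cm {K : Type} [Field K] [KF K] {I : Type} (i : I) (c : QA K)
    (V : Submodule K (I → QA K)) (hV : V ≤ kpg5_Cm i c) :
    extV V ≤ kpg5_Cm (L := K⸨X⸩) i (toC K c) := by
  unfold extV
  rw [Submodule.span_le]
  rintro _ ⟨v, hv, rfl⟩
  have h := (kpg5_mem_Cm i c v).1 (hV hv)
  have h' : toC K c * toC K (v i) = toC K (v i) * toC K c := by
    rw [← map_mul, ← map_mul, h]
  exact (kpg5_mem_Cm (L := K⸨X⸩) i (toC K c) _).2 h'

theorem kpg5_mulE_Cm {K : Type} [Field K] [KF K] {I : Type} (i : I) (c : QA K) (k : ℕ)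
    (hc : c ∈ lev K k)
    (V : Submodule K (I → QA K)) (hV : V ≤ kpg5_Cm i c) : mulE k V ≤ kpg5_Cm i c := by
  have key : ∀ e : QA K, c * e = e * c → V.map (mulR e) ≤ kpg5_Cm i c := by
    rintro e he _ ⟨v, hv, rfl⟩
    have h := (kpg5_mem_Cm i c v).1 (hV hv)
    refine (kpg5_mem_Cm i c _).2 ?_
    show c * (v i * e) = v i * e * c
    rw [← mul_assoc, h, mul_assoc, he, mul_assoc]
  unfold mulE
  exact sup_le (sup_le (sup_le hV (key _ (comm_S1 k c hc))) (key _ (comm_S2 k c hc)))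
    (key _ (comm_S3 k c hc))

/-- commutation of the `i`-th components of `V0`, `V1` with a constant -/
theorem kpg5_comm {K0 : Type} [Field K0] [KF K0] (s0 : Pt K0 I J) (i : I) (c : QA K0)
    (hc : c ∈ lev K0 s0.k) (h0 : s0.V0 ≤ kpg5_Cm i c) (h1 : s0.V1 ≤ kpg5_Cm i c)
    {L : Type} {iF : Field L}
    {iK : KF L} {t : Pt L I J} {P : Place K0 L} (h : Rch s0 L iF iK t P) :
    t.V0 ≤ kpg5_Cm i (P.iq c) ∧ t.V1 ≤ kpg5_Cm i (P.iq c) ∧ P.iq c ∈ lev L t.k := by
  induction h with
  | refl => 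
    rw [kpr_iq_refl]
    exact ⟨h0, h1, hc⟩
  | curve K iF iK s P h T hT ih =>
    obtain ⟨g0, g1, g2⟩ := ih
    rw [kpr_iq_trans, kpr_iq_laurent]
    refine ⟨kpg5_extV_Cm i _ _ g0, kpg5_extV_Cm i _ _ g1, ?_⟩
    rw [← kpr_iq_laurent]
    exact kpr_iq_mem_on _ _ _ g2
  | grow K iF iK s P h T w1 w2 hT ih =>
    obtain ⟨g0, g1, g2⟩ := ih
    rw [kpr_iq_trans, kpr_iq_laurent]
    refine ⟨kpg5_extV_Cm i _ _ (kpg5_mulE_Cm i _ _ g2 _ g0),
      kpg5_extV_Cm i _ _ (sup_le (kpg5_mulE_Cm i _ _ g2 _ g0) g1), ?_⟩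
    rw [← kpr_iq_laurent]
    exact lev_mono (Nat.le_succ _) (kpr_iq_mem_on _ _ _ g2)

/-- the projection is the identity on commuting elements -/
theorem kpg5_Pr_self {K : Type} [Field K] [KF K] (k : ℕ) (c u : QA K) (hu : u ∈ lev K k)
    (h : u * c = c * u) : Pr k {c} u = u := by
  obtain ⟨h1, h2, h3⟩ := Pr_spec k {c} u hu
  set x := u - Pr k {c} u with hx
  by_contra hne
  have hx0 : x ≠ 0 := fun h0 => hne (sub_eq_zero.1 (hx ▸ h0)).symm
  have hxl : x ∈ lev K k := (lev K k).sub_mem hu h1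
  have hxc : x * c = c * x := by
    rw [hx, sub_mul, mul_sub, h, h2 c rfl]
  obtain ⟨q1, q2, q3, -⟩ := qinv_spec k x hxl hx0
  have hq : qinv x * c = c * qinv x := by
    calc qinv x * c = qinv x * c * (x * qinv x) := by rw [q1, mul_one]
      _ = qinv x * (c * x) * qinv x := by simp only [mul_assoc]
      _ = qinv x * (x * c) * qinv x := by rw [hxc]
      _ = (qinv x * x) * c * qinv x := by simp only [mul_assoc]
      _ = c * qinv x := by rw [q2, one_mul]
  have := h3 (qinv x) q3 (by rintro φ rfl; exact hq)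
  rw [q1, tr_one] at this
  exact one_ne_zero this

/-- the equation `w g = g f` -/
theorem kpg5_eqn {K L : Type} [Field K] [KF K] [Field L] [KF L] (s : Pt K I J) (w : NC K I)
    (a : QA K) (m0 : Submodule K (QA K)) (t : Pt L (I ⊕ Bool) (Option J)) (P : Place K L)
    (ht : Rch (s.ext w a m0) L inferInstance inferInstance t P) {A : Type} [Ring A] [Algebra L A]
    (T : I ⊕ Bool → A) (h : (t.F none).ev T = 0) :
    (w.map P.inc).ev (fun i => T (Sum.inl i)) * T (Sum.inr false) =
      T (Sum.inr false) * T (Sum.inr true) := by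
  have h1 : (t.F none) = (((s.ext w a m0).F none).map P.inc) := (kpg5_F _ ht).1 none
  have h2 : ((s.ext w a m0).F none).map P.inc =
      NC.add (NC.mul ((w.map P.inc).ren Sum.inl) (NC.var (Sum.inr false)))
      (NC.mul (NC.cst (P.inc (-1))) (NC.mul (NC.var (Sum.inr false)) (NC.var (Sum.inr true)))) := by
    rw [← kpg5_ren_map]
    rfl
  rw [h1, h2] at h
  simp only [NC.ev, map_neg, map_one, neg_mul, one_mul] at h
  rw [kpg5_ren_ev] at h
  exact sub_eq_zero.1 (by rw [sub_eq_add_neg]; exact h)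

theorem kpg5_omg_lev {K : Type} [Field K] [KF K] (s : Pt K I J) (hs : s.Good) (w : NC K I) :
    s.omg w ∈ lev K s.k := by
  unfold Pt.omg
  exact ev_mem (R := K) (lev K s.k) s.X hs.Xlev w

/-- facts about a state reached from the extended state -/
theorem kpg5_facts {K L : Type} [Field K] [KF K] [Field L] [KF L] (s : Pt K I J) (w : NC K I)
    (hs : s.Good)
    (a : QA K) (m0 : Submodule K (QA K)) (t : Pt L (I ⊕ Bool) (Option J)) (P : Place K L)
    (ht : Rch (s.ext w a m0) L inferInstance inferInstance t P) :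
    t.V0 ≤ kpg5_Cm (Sum.inr true) (P.iq (s.omg w)) ∧
      t.V1 ≤ kpg5_Cm (Sum.inr true) (P.iq (s.omg w)) ∧ P.iq (s.omg w) ∈ lev L t.k ∧
      gv t ≠ 0 ∧ s.k ≤ t.k := by
  have key : ∀ (m : Submodule K (QA K)) (u : QA K),
      u ∈ Fpart s.k (s.omg w) (qinv a) (s.K2 w) m → s.omg w * u = u * s.omg w := by
    intro m u hu
    unfold Fpart Cen at hu
    have h1 : u ∈ Subalgebra.centralizer K {s.omg w} := hu.1.2
    rw [Subalgebra.mem_centralizer_iff] at h1
    exact h1 _ rfl
  obtain ⟨c1, c2, c3⟩ := kpg5_comm (s.ext w a m0) (Sum.inr true) (s.omg w)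
    (kpg5_omg_lev s hs w)
    (fun v hv => (kpg5_mem_Cm _ _ _).2 (key _ _ hv.2))
    (fun v hv => (kpg5_mem_Cm _ _ _).2 (key _ _ hv.2)) ht
  refine ⟨c1, c2, c3, ?_, (kpg5_F _ ht).2.2.2⟩
  exact kpg5_ne (s.ext w a m0) (Sum.inr false) one_ne_zero ht

/-- **core of G5**: from a perturbed step `T'` to the input `SPre` of Lemma S. -/
theorem kpg5_pre {K L : Type} [Field K] [KF K] [Field L] [KF L] (s : Pt K I J) (w : NC K I)
    (hs : s.Good)
    (a : QA K) (m0 : Submodule K (QA K)) (t : Pt L (I ⊕ Bool) (Option J)) (P : Place K L)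
    (ht : Rch (s.ext w a m0) L inferInstance inferInstance t P)
    (hf : fv t = P.iq (s.omg w)) (l' : ℕ) (δ : ℕ) (hδ : 1 ≤ δ)
    (T T' : I → QA L⟦X⟧) (g f : QA L⟦X⟧)
    (hW : (w.map P.inc).ev T * g = g * f)
    (hT0 : ∀ i, cf 0 (T i) = t.X (Sum.inl i)) (hg0 : cf 0 g = gv t) (hf0 : cf 0 f = fv t)
    (hg : ∀ m, cf m g ∈ lev L l') (hT' : ∀ i m, cf m (T' i) ∈ lev L l')
    (hlt : ∀ m, m < δ → ∀ i, cf m (T' i) = cf m (T i)) (η : I → QA L)
    (he : ∀ i, cf δ (T' i) = cf δ (T i) + η i)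
    (hfm : ∀ m, 1 ≤ m → m < δ → cf m f = 0)
    (hfδ : cf δ f ∈ lev L l') (hfc : P.iq (s.omg w) * cf δ f = cf δ f * P.iq (s.omg w))
    (step : s.SStep w P t T' l') :
    ∃ h : QA L⟦X⟧, s.SPre w P t T' l' g h δ (cf δ f + s.ellg w P t l' η) := by
  obtain ⟨-, -, -, hgne, -⟩ := kpg5_facts s w hs a m0 t P ht
  have hgne' : cf 0 g ≠ 0 := by rw [hg0]; exact hgne
  have hlevT : ∀ m, cf m ((w.map P.inc).ev T') ∈ lev L l' := by
    rw [← mem_lev_iff_cf]
    exact ev_mem (R := L⟦X⟧) (lev L⟦X⟧ l') T' (fun i => (mem_lev_iff_cf l' _).2 (hT' i)) _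
  have hxlev : ∀ m, cf m ((w.map P.inc).ev T' * g) ∈ lev L l' := by
    rw [← mem_lev_iff_cf]
    exact (lev L⟦X⟧ l').mul_mem ((mem_lev_iff_cf l' _).2 hlevT) ((mem_lev_iff_cf l' _).2 hg)
  obtain ⟨h, hh, hhl⟩ := kpg5_div l' g _ hg hxlev hgne'
  obtain ⟨e1, e2⟩ := kpg5_ev T T' δ hδ η hlt he (w.map P.inc)
  have hT00 : (fun i => cf 0 (T i)) = fun i => t.X (Sum.inl i) := funext hT0
  rw [hT00] at e2
  obtain ⟨r1, r2⟩ := kpg5_cmp g (h - f) ((w.map P.inc).ev T' - (w.map P.inc).ev T) hgne' δ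
    (by rw [mul_sub, sub_mul, hh, hW]) ((w.map P.inc).d1 (fun i => t.X (Sum.inl i)) η)
    (fun m hm => by rw [map_sub, e1 m hm, sub_self])
    (by rw [map_sub, e2, add_sub_cancel_left])
  have hcf : ∀ m, m < δ → cf m h = cf m f := fun m hm => by
    have := r1 m hm
    rw [map_sub] at this
    exact sub_eq_zero.1 this
  have hgl : gv t ∈ lev L l' := hg0 ▸ hg 0
  obtain ⟨q1, q2, q3, -⟩ := qinv_spec l' (gv t) hgl hgne
  refine ⟨h, step, hg, hg0, hhl, hh, ?_, hδ, ?_, ?_⟩
  · rw [hcf 0 (by omega), hf0, hf]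
  · intro m h1 h2
    rw [hcf m h2, hfm m h1 h2]
  · have h3 : cf δ h = cf δ f +
        qinv (gv t) * (w.map P.inc).d1 (fun i => t.X (Sum.inl i)) η * gv t := by
      rw [map_sub, hg0] at r2
      have h4 : cf δ h - cf δ f = qinv (gv t) *
          ((w.map P.inc).d1 (fun i => t.X (Sum.inl i)) η * gv t) := by
        rw [← r2, ← mul_assoc, q2, one_mul]
      rw [mul_assoc, ← h4]
      abel
    rw [h3, map_add, kpg5_Pr_self l' _ _ hfδ hfc.symm]
    rfl

end Crest.Agent.KP
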