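import Crest.Agent.KPX_Forget
import Crest.Agent.KP_G0
import Crest.Agent.KP_C
import Crest.Agent.KP_Defs4
import Crest.Agent.KPG_G2
import Crest.Agent.KPG_qinv
import Crest.Agent.KPG_G5core

set_option autoImplicit false
set_option linter.unusedSectionVars false

open scoped PowerSeries LaurentSeries symmDiff

namespace Crest.Agent.KP

open Pt

variable {K L I J : Type} [Field K] [KF K] [Field L] [KF L] [Fintype I] [Fintype J]

theorem kpg5_curve_lev {L I J : Type} [Field L] [KF L] [Fintype I] [Fintype J] (t : Pt L I J)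
    (hG : t.Good) (T : I → QA L⟦X⟧) (hT : t.IsCurve T) (i : I) (m : ℕ) :
    cf m (T i) ∈ lev L t.k := by
  rcases Nat.eq_zero_or_pos m with rfl | hm
  · rw [hT.zero i]
    exact hG.Xlev i
  · exact hG.V1lev _ (hT.mem m hm) i

theorem G5_curve (s : Pt K I J) (w : NC K I) (d : ℕ) (hp : s.Pkg w d) (a : QA K)
    (m0 : Submodule K (QA K)) (hx : s.ExtOk w a m0)
    (t : Pt L (I ⊕ Bool) (Option J)) (P : Place K L)
    (ht : Rch (s.ext w a m0) L inferInstance inferInstance t P) (hR : s.LemR w a d P t)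
    (T : I ⊕ Bool → QA L⟦X⟧) (hT : t.IsCurve T) (δ : ℕ) (hδ : 1 ≤ δ)
    (hm : ∀ m, 1 ≤ m → m < δ → cf m (T (Sum.inr true)) = 0)
    (η : I → QA L) (hη : η ∈ (s.fgt P t).W) :
    ∃ (T' : I → QA L⟦X⟧) (g h : QA L⟦X⟧),
      s.SPre w P t T' t.k g h δ (cf δ (T (Sum.inr true)) + s.ellh w P t η) := by
  have hfg : Rch s L inferInstance inferInstance (s.fgt P t) P :=
    _root_.Crest.Agent.KP.kpx_ext_forget s w a m0 hx L _ _ t P ht
  obtain ⟨hG, hS, hA⟩ := C_reach s hp.good hp.stable L _ _ _ P hfg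
  have hTf : (s.fgt P t).IsCurve (fun i => T (Sum.inl i)) :=
    kpx_isCurve s P t (kpx_finv s w a m0 L _ _ t P ht) T hT
  obtain ⟨T', hT', hlt, he⟩ := C_pert_curve (s.fgt P t) hG (fun i => T (Sum.inl i)) hTf
    δ hδ η hη
  obtain ⟨c1, c2, c3, c4, c5⟩ := kpg5_facts s w hp.good a m0 t P ht
  have hTm := kpg5_curve_lev t hR.good T hT
  have hT'm : ∀ i m, cf m (T' i) ∈ lev L t.k :=
    kpg5_curve_lev (s.fgt P t) hG T' hT'
  have hcomm : P.iq (s.omg w) * cf δ (T (Sum.inr true)) =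
      cf δ (T (Sum.inr true)) * P.iq (s.omg w) := by
    have h3 : (fun i => cf δ (T i)) ∈ kpg5_Cm (Sum.inr true) (P.iq (s.omg w)) :=
      c2 (hT.mem δ hδ)
    exact (kpg5_mem_Cm (Sum.inr true) (P.iq (s.omg w)) (fun i => cf δ (T i))).1 h3
  have hW0 : (t.F none).ev T = 0 := hT.eq none
  have hW := kpg5_eqn (A := QA L⟦X⟧) s w a m0 t P ht T hW0
  have hstep : s.SStep w P t T' t.k := Or.inl ⟨rfl, hT'⟩
  have hz1 : ∀ i, cf 0 (T (Sum.inl i)) = t.X (Sum.inl i) := fun i => hT.zero _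
  have hz2 : cf 0 (T (Sum.inr false)) = gv t := hT.zero _
  have hz3 : cf 0 (T (Sum.inr true)) = fv t := hT.zero _
  have hlt' : ∀ m, m < δ → ∀ i, cf m (T' i) = cf m (T (Sum.inl i)) := hlt
  have he' : ∀ i, cf δ (T' i) = cf δ (T (Sum.inl i)) + η i := he
  obtain ⟨h, hh⟩ := kpg5_pre s w hp.good a m0 t P ht hR.f t.k δ hδ
    (fun i => T (Sum.inl i)) T' (T (Sum.inr false)) (T (Sum.inr true))
    hW hz1 hz2 hz3 (fun m => hTm _ m) hT'm hlt' η he' hm (hTm _ δ) hcomm hstep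
  exact ⟨T', T (Sum.inr false), h, hh⟩

end Crest.Agent.KP
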