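import Crest.Agent.KP_G0
import Crest.Agent.KP_C
import Crest.Agent.KP_Defs4
import Crest.Agent.KPG_G2
import Crest.Agent.KPG_G2p

set_option autoImplicit false
set_option linter.unusedSectionVars false

open scoped PowerSeries LaurentSeries symmDiff

namespace Crest.Agent.KP

open Pt

variable {K L I J : Type} [Field K] [KF K] [Field L] [KF L] [Fintype I] [Fintype J]

section G6aux

private lemma g6_map_map {R S T I : Type} (f : R → S) (g : S → T) (w : NC R I) :
    (w.map f).map g = w.map (g ∘ f) := by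
  induction w with
  | cst c => rfl
  | var i => rfl
  | add a b ha hb => exact congrArg₂ NC.add ha hb
  | mul a b ha hb => exact congrArg₂ NC.mul ha hb

private lemma g6_map_ren {R S I J : Type} (f : R → S) (g : I → J) (w : NC R I) :
    (w.map f).ren g = (w.ren g).map f := by
  induction w with
  | cst c => rfl
  | var i => rfl
  | add a b ha hb => exact congrArg₂ NC.add ha hb
  | mul a b ha hb => exact congrArg₂ NC.mul ha hb

private lemma g6_map_id {R I : Type} (w : NC R I) (f : R → R) (hf : ∀ a, f a = a) :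
    w.map f = w := by
  induction w with
  | cst c => exact congrArg NC.cst (hf c)
  | var i => rfl
  | add a b ha hb => exact congrArg₂ NC.add ha hb
  | mul a b ha hb => exact congrArg₂ NC.mul ha hb

private lemma g6_ev_ren {R A I I' : Type} [CommRing R] [Ring A] [Algebra R A] (f : I → I')
    (X : I' → A) (w : NC R I) : (w.ren f).ev X = w.ev (fun i => X (f i)) := by
  induction w with
  | cst c => rfl
  | var i => rfl
  | add a b ha hb => simp only [NC.ren, NC.ev, ha, hb]
  | mul a b ha hb => simp only [NC.ren, NC.ev, ha, hb]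

private lemma g6_d1_ren {R A I I' : Type} [CommRing R] [Ring A] [Algebra R A] (f : I → I')
    (X v : I' → A) (w : NC R I) :
    (w.ren f).d1 X v = w.d1 (fun i => X (f i)) (fun i => v (f i)) := by
  induction w with
  | cst c => rfl
  | var i => rfl
  | add a b ha hb => simp only [NC.ren, NC.d1, ha, hb]
  | mul a b ha hb => simp only [NC.ren, NC.d1, ha, hb, g6_ev_ren]

private lemma g6_d2_ren {R A I I' : Type} [CommRing R] [Ring A] [Algebra R A] (f : I → I')
    (X v u : I' → A) (w : NC R I) :
    (w.ren f).d2 X v u = w.d2 (fun i => X (f i)) (fun i => v (f i)) (fun i => u (f i)) := by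
  induction w with
  | cst c => rfl
  | var i => rfl
  | add a b ha hb => simp only [NC.ren, NC.d2, ha, hb]
  | mul a b ha hb => simp only [NC.ren, NC.d2, ha, hb, g6_ev_ren, g6_d1_ren]

private lemma g6_rch {K0 I J : Type} [Field K0] [KF K0] [Fintype I] [Fintype J] (s0 : Pt K0 I J)
    (L : Type) (iF : Field L) (iK : KF L) (t : Pt L I J) (P : Place K0 L)
    (h : Rch s0 L iF iK t P) :
    t.x = s0.x ∧ t.y = s0.y ∧ ∀ j, t.F j = (s0.F j).map P.inc := by
  induction h with
  | refl => exact ⟨rfl, rfl, fun j => (g6_map_id _ _ fun a => rfl).symm⟩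
  | curve K iF iK s P h T hT ih =>
    refine ⟨ih.1, ih.2.1, fun j => ?_⟩
    show (s.F j).map _ = _
    rw [ih.2.2 j, g6_map_map]
    rfl
  | grow K iF iK s P h T w1 w2 hT ih =>
    refine ⟨ih.1, ih.2.1, fun j => ?_⟩
    show (s.F j).map _ = _
    rw [ih.2.2 j, g6_map_map]
    rfl

variable {L I I' : Type} [Field L] [KF L]

private lemma g6_mulR_fun (e : QA L) (f : I → I') :
    (LinearMap.funLeft L (QA L) f).comp (mulR e) =
      (mulR e).comp (LinearMap.funLeft L (QA L) f) := by
  apply LinearMap.ext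
  intro v
  funext i
  rfl

private lemma g6_mulE (k : ℕ) (V : Submodule L (I' → QA L)) (f : I → I') :
    (mulE k V).map (LinearMap.funLeft L (QA L) f) =
      mulE k (V.map (LinearMap.funLeft L (QA L) f)) := by
  unfold mulE
  rw [Submodule.map_sup, Submodule.map_sup, Submodule.map_sup, ← Submodule.map_comp,
    ← Submodule.map_comp, ← Submodule.map_comp, ← Submodule.map_comp, ← Submodule.map_comp,
    ← Submodule.map_comp, g6_mulR_fun, g6_mulR_fun, g6_mulR_fun]

end G6aux

/-- **G6.** facts about growth steps of `S⁺`: the forgotten step is a growth with (INJ) restricted to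
`W ∩ ker l^`. -/
theorem G6 (s : Pt K I J) (w : NC K I) (d : ℕ) (hp : s.Pkg w d) (a : QA K)
    (m0 : Submodule K (QA K)) (hx : s.ExtOk w a m0)
    (t : Pt L (I ⊕ Bool) (Option J)) (P : Place K L)
    (ht : Rch (s.ext w a m0) L inferInstance inferInstance t P) (hR : s.LemR w a d P t)
    (T : I ⊕ Bool → QA L⟦X⟧) (w1 w2 : I ⊕ Bool → QA L) (hT : t.IsGrowth T w1 w2) :
    (s.fgt P t).IsGrowth (fun i => T (Sum.inl i)) (fun i => w1 (Sum.inl i))
      (fun i => w2 (Sum.inl i)) ∧
    (s.fgt P t).Inj ((s.fgt P t).W ⊓ LinearMap.ker (s.ellh w P t))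
      (fun i => w1 (Sum.inl i)) (fun i => w2 (Sum.inl i)) := by
  have hr := g6_rch _ _ _ _ _ _ ht
  have hF : ∀ j, t.F (some j) = ((s.F j).map P.inc).ren Sum.inl := by
    intro j
    rw [hr.2.2 (some j), g6_map_ren]
    rfl
  have hV0 : ∀ v ∈ t.V0, (fun i => v (Sum.inl i)) ∈ (s.fgt P t).V0 := fun v hv =>
    Submodule.mem_map_of_mem (f := LinearMap.funLeft L (QA L) (Sum.inl : I → I ⊕ Bool)) hv
  have hD : ∀ v j, t.D v (some j) = (s.fgt P t).D (fun i => v (Sum.inl i)) j := by
    intro v j
    show (t.F (some j)).d1 t.X v = _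
    rw [hF, g6_d1_ren]
    rfl
  have hd2 : ∀ u v j, (t.F (some j)).d2 t.X u v = ((s.fgt P t).F j).d2 (s.fgt P t).X
      (fun i => u (Sum.inl i)) (fun i => v (Sum.inl i)) := by
    intro u v j
    rw [hF, g6_d2_ren]
    rfl
  have hU : ∀ c ∈ (s.fgt P t).U, (fun o : Option J => o.elim 0 c) ∈ t.U := by
    intro c hc
    refine ⟨?_, fun v hv => ?_⟩
    · intro j _
      cases j with
      | none => exact Submodule.zero_mem _
      | some j => exact hc.1 j trivial
    · have h1 := hc.2 _ (hV0 v hv)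
      unfold Pt.pair at h1 ⊢
      rw [Fintype.sum_option]
      show QA.tr (0 * t.D v none) + ∑ j, QA.tr (c j * t.D v (some j)) = 0
      rw [zero_mul, map_zero, zero_add, ← h1]
      exact Finset.sum_congr rfl fun j _ => by rw [hD]
  have hB : ∀ (c : J → QA L) (u v : I ⊕ Bool → QA L),
      t.B (fun o : Option J => o.elim 0 c) u v =
        (s.fgt P t).B c (fun i => u (Sum.inl i)) (fun i => v (Sum.inl i)) := by
    intro c u v
    unfold Pt.B
    rw [Fintype.sum_option]
    show QA.tr (0 * _) + ∑ j, QA.tr (c j * (t.F (some j)).d2 t.X u v) = _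
    rw [zero_mul, map_zero, zero_add]
    exact Finset.sum_congr rfl fun j _ => by rw [hd2]
  have hInj : (s.fgt P t).Inj ((s.fgt P t).W ⊓ LinearMap.ker (s.ellh w P t))
      (fun i => w1 (Sum.inl i)) (fun i => w2 (Sum.inl i)) := by
    intro c1 h1 c2 h2 h
    have h3 := hT.inj _ (hU c1 h1) _ (hU c2 h2) (by
      intro v hv
      rw [hB, hB]
      have hv' := G2 s w d hp a m0 hx t P ht hR v hv
      exact h _ ⟨hv'.2.1, hv'.2.2⟩)
    exact ⟨funext fun j => congrFun h3.1 (some j), funext fun j => congrFun h3.2 (some j)⟩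
  refine ⟨?_, hInj⟩
  refine ⟨fun j => ?_, fun i => hT.zero (Sum.inl i), fun m hm => ?_, fun i => hT.one (Sum.inl i),
    (G2 s w d hp a m0 hx t P ht hR w1 hT.w1W).2.1, (G2 s w d hp a m0 hx t P ht hR w2 hT.w2W).2.1,
    ?_, ?_⟩
  · have h1 := hT.eq (some j)
    rw [hF, g6_ev_ren] at h1
    exact h1
  · have h1 := Submodule.mem_map_of_mem
      (f := LinearMap.funLeft L (QA L) (Sum.inl : I → I ⊕ Bool)) (hT.mem m hm)
    rw [Submodule.map_sup, g6_mulE] at h1
    exact h1
  · intro c1 h1 c2 h2 h
    exact hInj c1 h1 c2 h2 fun v hv => h v hv.1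
  · intro l1 l2 h
    apply hT.pi l1 l2
    obtain ⟨η, hη, h1, h2⟩ := h
    refine ⟨η, hη, ?_, ?_⟩
    · rw [hr.1]
      exact h1
    · rw [hr.2.1]
      exact h2

end Crest.Agent.KP
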