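import Crest.Agent.KPS_S
import Crest.Agent.KP_G0
import Crest.Agent.KP_C
import Crest.Agent.KP_Defs4
import Crest.Agent.KPG_alg1
import Crest.Agent.KPG_alg2
import Crest.Agent.KPG_alg3
import Crest.Agent.KPG_alg4
import Crest.Agent.KPG_alg5
import Crest.Agent.KPG_alg6
import Crest.Agent.KPG_qinv
import Crest.Agent.KPG_scale
import Crest.Agent.KPB_q
import Crest.Agent.KPA_Alg

set_option autoImplicit false
set_option linter.unusedSectionVars false

open scoped PowerSeries LaurentSeries symmDiff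

namespace Crest.Agent.KP

open Pt

variable {K L I J : Type} [Field K] [KF K] [Field L] [KF L] [Fintype I] [Fintype J]

private theorem g7_rch_k {K0 I J : Type} [Field K0] [KF K0] [Fintype I] [Fintype J]
    (s0 : Pt K0 I J) (L : Type) (iF : Field L) (iK : KF L) (t : Pt L I J) (P : Place K0 L)
    (h : Rch s0 L iF iK t P) : s0.k ≤ t.k := by
  induction h with
  | refl => exact le_rfl
  | curve K iF iK s P h T hT ih => exact ih
  | grow K iF iK s P h T w1 w2 hT ih => exact ih.trans (Nat.le_succ _)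

private theorem g7_ev_lev (k : ℕ) (X : I → QA K) (hX : ∀ i, X i ∈ lev K k) (p : NC K I) :
    p.ev X ∈ lev K k := by
  induction p with
  | cst c => exact Subalgebra.algebraMap_mem _ c
  | var i => exact hX i
  | add p q hp hq => exact add_mem hp hq
  | mul p q hp hq => exact mul_mem hp hq

private theorem g7_d1_lev (k : ℕ) (X v : I → QA K) (hX : ∀ i, X i ∈ lev K k)
    (hv : ∀ i, v i ∈ lev K k) (p : NC K I) : p.d1 X v ∈ lev K k := by
  induction p with
  | cst c => exact Subalgebra.zero_mem _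
  | var i => exact hv i
  | add p q hp hq => exact add_mem hp hq
  | mul p q hp hq =>
    exact add_mem (mul_mem hp (g7_ev_lev k X hX q)) (mul_mem (g7_ev_lev k X hX p) hq)

private theorem g7_qinv_lev (k : ℕ) (a : QA K) (ha : a ∈ lev K k) : qinv a ∈ lev K k := by
  by_cases h0 : a = 0
  · have : qinv a = 0 := by
      unfold qinv
      rw [dif_neg]
      rintro ⟨v, hv, _⟩
      rw [h0, zero_mul] at hv
      exact zero_ne_one hv
    rw [this]
    exact Subalgebra.zero_mem _
  · exact (qinv_spec k a ha h0).2.2.1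

/-- `mid k l` is spanned by the products of elements of `mid k m` and `mid m l` -/
private theorem g7_mid_split {k m l : ℕ} (_ : k ≤ m) (_ : m ≤ l) {u : QA K}
    (hu : u ∈ mid K k l) :
    u ∈ Submodule.span K {x : QA K | ∃ e1 ∈ mid K k m, ∃ e2 ∈ mid K m l, x = e1 * e2} := by
  refine kpa_on_induction (p := fun u => u ∈ Submodule.span K
    {x : QA K | ∃ e1 ∈ mid K k m, ∃ e2 ∈ mid K m l, x = e1 * e2}) hu (Submodule.zero_mem _)
    (fun _ _ ha hb => Submodule.add_mem _ ha hb) ?_
  intro g x hg1 hg2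
  refine Submodule.subset_span
    ⟨QA.ec (g.1.filter (· < m), g.2.filter (· < m)) 1, ?_,
      QA.ec (g.1.filter (fun n => m ≤ n), g.2.filter (fun n => m ≤ n)) x, ?_, ?_⟩
  · refine kpa_ec_mem_mid ?_ ?_ 1
    · intro n hn
      rw [Finset.mem_filter] at hn
      exact ⟨(hg1 n hn.1).1, hn.2⟩
    · intro n hn
      rw [Finset.mem_filter] at hn
      exact ⟨(hg2 n hn.1).1, hn.2⟩
  · refine kpa_ec_mem_mid ?_ ?_ x
    · intro n hn
      rw [Finset.mem_filter] at hn
      exact ⟨hn.2, (hg1 n hn.1).2⟩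
    · intro n hn
      rw [Finset.mem_filter] at hn
      exact ⟨hn.2, (hg2 n hn.1).2⟩
  · have hd : ∀ A B : Finset ℕ, (A.filter (· < m)) ∩ (B.filter (fun n => m ≤ n)) = ∅ := by
      intro A B
      ext n
      simp only [Finset.mem_inter, Finset.mem_filter, Finset.notMem_empty, iff_false]
      omega
    have hs : ∀ A : Finset ℕ, (A.filter (· < m)) ∆ (A.filter (fun n => m ≤ n)) = A := by
      intro A
      ext n
      simp only [Finset.mem_symmDiff, Finset.mem_filter]
      constructor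
      · rintro (h | h)
        · exact h.1.1
        · exact h.1.1
      · intro h
        by_cases hn : n < m
        · left; exact ⟨⟨h, hn⟩, fun h' => by omega⟩
        · right; exact ⟨⟨h, by omega⟩, fun h' => hn h'.2⟩
    rw [QA.ec_mul_ec]
    have e1 : gx (g.1.filter (· < m), g.2.filter (· < m))
        (g.1.filter (fun n => m ≤ n), g.2.filter (fun n => m ≤ n)) = g := by
      unfold gx
      simp only [hs]
    have e2 : coc K (g.1.filter (· < m), g.2.filter (· < m))
        (g.1.filter (fun n => m ≤ n), g.2.filter (fun n => m ≤ n)) = 1 := by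
      unfold coc
      simp only [hd]
      simp
    rw [e1, e2, one_mul, one_mul]

/-- **G7.** Main claim of (a), common to curves and growths, in terms of "directions".
`Y = f_δ ≠ 0` commutes with `ω`, and for every `z ∈ R ⊗ E` there are directions realizing
`Y + π(…)`.  Then contradiction.
Data: `l'`, `Y : QA L`, `Y ≠ 0`; `hY`: residues of multiples of `Y` satisfy the conclusion of G1;
`hdir`: for every scalar `p` and every `z ∈ R ⊗ E_{l'}` there are `T',g,h` with `SPre … δ (Y + p • Z)`,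
`Z` integral with residue `a z`.
Proof: scale `Y = p Y~` (`Place.scale`), `φ = res Y~ ≠ 0`, `u := a⁻¹ φ`.  For `e ∈ mid` of full
degree and `θ ∈ K`: direction for `z = θ e` (`1 ∈ R`): `SHyp` with `G = Y~ + Z`,
`rb = u + θ e`; `lemS1`; so `alg1` gives `u ∈ K'' ⊗ E`; `hY` + `alg6` give `u = μ ∈ m0`, `u ≠ 0`,
so `u ∉ R`.  `q` from `alg2`, direction `z = q`, `rb = u + q` (`alg5` for the dimensions), `lemS2`,
contradiction with `alg3` (`alg4` to identify the generators). -/
theorem G7 (s : Pt K I J) (w : NC K I) (d : ℕ) (hp : s.Pkg w d) (a : QA K)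
    (m0 : Submodule K (QA K)) (hx : s.ExtOk w a m0)
    (t : Pt L (I ⊕ Bool) (Option J)) (P : Place K L)
    (ht : Rch (s.ext w a m0) L inferInstance inferInstance t P) (hR : s.LemR w a d P t)
    (l' : ℕ) (hl : l' = t.k ∨ l' = t.k + 1) (δ : ℕ) (Y : QA L) (hY0 : Y ≠ 0)
    (hY : ∀ c : L, P.Int (c • Y) → P.rq (c • Y) ∈ lev K l' ∧
      P.rq (c • Y) * s.omg w = s.omg w * P.rq (c • Y) ∧
      ∃ μ ∈ m0, ∀ κ ∈ s.K2 w, ∀ e ∈ mid K s.k l',
        QA.tr (κ * e * (qinv a * P.rq (c • Y) - μ)) = 0)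
    (hdir : ∀ (p : L), ∀ z ∈ tE s.k l' (s.RR w a), ∃ (Z : QA L), P.Int Z ∧ P.rq Z = a * z ∧
      ∃ (T' : I → QA L⟦X⟧) (g h : QA L⟦X⟧), s.SPre w P t T' l' g h δ (Y + p • Z)) : False := by
  have hkl : s.k ≤ t.k := g7_rch_k (s.ext w a m0) L inferInstance inferInstance t P ht
  have hkl' : s.k ≤ l' := by omega
  have htl' : t.k ≤ l' := by omega
  have hωl : s.omg w ∈ lev K s.k := g7_ev_lev s.k s.X hp.good.Xlev w
  have hK1l : s.K1 w ≤ lev K s.k := Algebra.adjoin_le (by
    intro x hx'
    rw [Set.mem_singleton_iff] at hx'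
    rw [hx']
    exact hωl)
  have hK1c : ∀ x ∈ s.K1 w, x * s.omg w = s.omg w * x := by
    intro x hx'
    have hle : s.K1 w ≤ Subalgebra.centralizer K ({s.omg w} : Set (QA K)) := by
      apply Algebra.adjoin_le
      intro z hz
      rw [Set.mem_singleton_iff] at hz
      rw [hz, SetLike.mem_coe, Subalgebra.mem_centralizer_iff]
      intro g hg
      rw [Set.mem_singleton_iff] at hg
      rw [hg]
    have := hle hx'
    rw [Subalgebra.mem_centralizer_iff] at this
    exact (this _ rfl).symm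
  have hLK : ∀ x ∈ s.LL w, x ∈ s.K1 w := fun x hx' => hp.comm hx'
  have hqK : ∀ x ∈ s.K1 w, x ≠ 0 → qinv x ∈ s.K1 w := by
    intro x hx' hx0
    have hle : Algebra.adjoin K ({x} : Set (QA K)) ≤ s.K1 w := Algebra.adjoin_le (by
      intro y hy
      rw [Set.mem_singleton_iff] at hy
      rw [hy]
      exact hx')
    exact hle (qinv_spec s.k x (hK1l hx') hx0).2.2.2
  have hK2 : s.K2 w ≤ Algebra.adjoin K ({s.omg w} : Set (QA K)) := by
    apply Algebra.adjoin_le
    rintro x ⟨hxl, b, hb1, hb0, hb2⟩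
    have h1 := hqK b (hLK b hb1) hb0
    have h2 := mul_mem (hLK _ hb2) h1
    rw [mul_assoc, (qinv_spec s.k b (hK1l (hLK b hb1)) hb0).1, mul_one] at h2
    exact h2
  have hK2l : s.K2 w ≤ lev K s.k := hK2.trans hK1l
  have haK : a ∈ s.K1 w := hLK a hx.aL
  have hal : a ∈ lev K s.k := hK1l haK
  obtain ⟨hi1, hi2, hi3, hi4⟩ := qinv_spec s.k a hal hx.a0
  have hiK : qinv a ∈ s.K1 w := hqK a haK hx.a0
  have h1R : (1 : QA K) ∈ s.RR w a := by
    refine ⟨one_mem (s.K2 w), ?_⟩
    show a * 1 ∈ s.LL w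
    rw [mul_one]
    exact hx.aL
  have hRB : s.RR w a ≤ Subalgebra.toSubmodule (s.K2 w) := inf_le_left
  have hK1comm : ∀ x ∈ s.K1 w, ∀ y ∈ s.K1 w, x * y = y * x := by
    intro x hx' y hy'
    have hle : s.K1 w ≤ Subalgebra.centralizer K ({y} : Set (QA K)) := by
      apply Algebra.adjoin_le
      intro z hz
      rw [Set.mem_singleton_iff] at hz
      rw [hz, SetLike.mem_coe, Subalgebra.mem_centralizer_iff]
      intro g hg
      rw [Set.mem_singleton_iff] at hg
      rw [hg]
      exact hK1c y hy'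
    have := hle hx'
    rw [Subalgebra.mem_centralizer_iff] at this
    exact (this _ rfl).symm
  -- the residue of `Y`
  obtain ⟨p, Yt, hp0, hYp, hYint, hYr⟩ := P.scale Y hY0
  have hYe : p⁻¹ • Y = Yt := by
    rw [hYp, smul_smul, inv_mul_cancel₀ hp0, one_smul]
  have hYY := hY p⁻¹ (by rw [hYe]; exact hYint)
  rw [hYe] at hYY
  obtain ⟨hφl, hφc, μ, hμ, hμt⟩ := hYY
  set φ : QA K := P.rq Yt with hφ
  have hau : a * (qinv a * φ) = φ := by rw [← mul_assoc, hi1, one_mul]
  have hul : qinv a * φ ∈ lev K l' := mul_mem (kpa_lev_mono hkl' hi3) hφl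
  have huc : (qinv a * φ) * s.omg w = s.omg w * (qinv a * φ) := by
    rw [mul_assoc, hφc, ← mul_assoc, hK1c _ hiK, mul_assoc]
  have hu0 : qinv a * φ ≠ 0 := by
    intro h0
    rw [h0, mul_zero] at hau
    exact hYr hau.symm
  -- the hypotheses of Lemma S for a direction `z`
  have hSH : ∀ z ∈ tE s.k l' (s.RR w a), z ∈ lev K l' → z * s.omg w = s.omg w * z →
      s.n1 w * 2 ^ (l' - s.k) ≤
        Module.finrank K (Algebra.adjoin K ({s.omg w, qinv a * φ + z} : Set (QA K))) →
      ∃ (T' : I → QA L⟦X⟧) (g h : QA L⟦X⟧) (G : QA L),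
        s.SHyp w a P t T' l' g h δ p G (qinv a * φ + z) := by
    intro z hz hzl hzc hdim
    obtain ⟨Z, hZi, hZr, T', g, h, hS⟩ := hdir p z hz
    refine ⟨T', g, h, Yt + Z, ?_⟩
    exact
    { step := hS.step
      f := hR.f
      b := hR.b
      glev := hS.glev
      g0 := hS.g0
      hlev := hS.hlev
      gh := hS.gh
      h0 := hS.h0
      δ1 := hS.δ1
      hm := hS.hm
      hδ := by rw [hS.hδ, hYp, smul_add]
      p0 := hp0
      Gint := P.Int_add_aux hYint hZi
      Gres := by rw [P.rq_add_aux hYint hZi, hZr, mul_add, hau]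
      rblev := add_mem hul hzl
      rbcomm := by rw [add_mul, mul_add, huc, hzc]
      dim := hdim }
  -- step 1: `u ∈ K'' ⊗ E`
  have hu1 : qinv a * φ ∈ tE s.k l' (Subalgebra.toSubmodule (s.K2 w)) := by
    refine alg1 s.k l' hkl' (s.omg w) hωl (s.K2 w) hK2 _ hul huc ?_
    intro e he _ θ hdim
    have hz : θ • e ∈ tE s.k l' (s.RR w a) :=
      Submodule.subset_span ⟨1, h1R, θ • e, Subalgebra.smul_mem _ he θ, (one_mul _).symm⟩
    have heω : e * s.omg w = s.omg w * e := (kpa_lev_mid_comm hωl he).symm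
    obtain ⟨T', g, h, G, hH⟩ := hSH (θ • e) hz
      (Subalgebra.smul_mem _ (kpa_mid_le_lev _ _ he) θ)
      (by rw [smul_mul_assoc, mul_smul_comm, heω]) hdim
    exact lemS1 s w d hp a m0 hx t P ht T' l' g h δ p G _ hH
  -- step 2: `u = μ`
  have hμB : μ ∈ s.K2 w := hx.le hμ
  have huμ : qinv a * φ = μ := alg6 s.k l' hkl' (s.K2 w) hK2l _ hu1 μ hμB hμt
  have huB : qinv a * φ ∈ s.K2 w := by rw [huμ]; exact hμB
  have huR : qinv a * φ ∉ s.RR w a := by
    intro hmem
    have : qinv a * φ ∈ s.RR w a ⊓ m0 := ⟨hmem, by rw [huμ]; exact hμ⟩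
    rw [hx.disj] at this
    exact hu0 ((Submodule.mem_bot K).1 this)
  -- step 3: the element `q`
  obtain ⟨ρ, hρ, hρ2⟩ := hp.rho a hx.aL hx.a0
  have hinj : Function.Injective (LinearMap.mulLeft K a) := fun x y hxy =>
    mul_left_cancel₀ hx.a0 (by simpa using hxy)
  have hLR : (s.RR w a).map (LinearMap.mulLeft K a) = s.LL w := by
    apply le_antisymm
    · rintro _ ⟨r, hr, rfl⟩
      exact hr.2
    · intro b hb
      have hbK := hLK b hb
      have hab : a * (b * qinv a) = b := by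
        rw [← mul_assoc, hK1comm a haK b hbK, mul_assoc, hi1, mul_one]
      refine ⟨b * qinv a, ⟨?_, ?_⟩, hab⟩
      · refine Algebra.subset_adjoin ⟨hK1l (mul_mem hbK hiK), a, hx.aL, hx.a0, ?_⟩
        rw [mul_assoc, hi2, mul_one]
        exact hb
      · show a * (b * qinv a) ∈ s.LL w
        rw [hab]
        exact hb
  have hdd : Module.finrank K (s.K2 w) = Module.finrank K (s.RR w a) + d := by
    have h1 : Module.finrank K ((s.RR w a).map (LinearMap.mulLeft K a)) =
        Module.finrank K (s.RR w a) :=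
      (LinearEquiv.finrank_eq (Submodule.equivMapOfInjective _ hinj (s.RR w a))).symm
    rw [hLR] at h1
    have h2 := hp.dim
    unfold Pt.n2 Pt.nL at h2
    rw [h2, h1]
  obtain ⟨q, hq⟩ := alg2 s.k l' hkl' (s.omg w) hωl (s.K2 w) hK2 (s.RR w a) hRB d hdd h1R ρ hρ hρ2
  have htEl : tE s.k l' (s.RR w a) ≤ Subalgebra.toSubmodule (lev K l') := by
    unfold tE
    rw [Submodule.span_le]
    rintro y ⟨b, hb, e, he, rfl⟩
    exact (lev K l').mul_mem (kpa_lev_mono hkl' (hK2l (hRB hb))) (kpa_mid_le_lev _ _ he)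
  have hql : q ∈ lev K l' := htEl hq.qR
  obtain ⟨ha1, ha2⟩ := alg5 (s.omg w) (s.K2 w) hK2 q (qinv a * φ) huB
  obtain ⟨T', g, h, G, hH⟩ := hSH q hq.qR hql hq.comm (by
    rw [ha1, hq.dim1]
    exact le_rfl)
  have hS2 := lemS2 s w d hp a m0 hx t P ht T' l' g h δ p G _ hH (by
    rw [ha2, hq.dim2]
    rfl)
  -- the space `Z`
  have hgl : gv t ∈ lev L t.k := hR.good.Xlev _
  have hellh : ∀ v ∈ (s.fgt P t).W, s.ellh w P t v ∈ lev L t.k := by
    intro v hv
    have hvl : ∀ i, v i ∈ lev L t.k := by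
      obtain ⟨v', hv', hvv⟩ := hv.1
      intro i
      rw [← hvv]
      exact hR.good.V1lev v' (hR.good.V0V1 hv') (Sum.inl i)
    have hd : (w.map P.inc).d1 (fun i => t.X (Sum.inl i)) v ∈ lev L t.k :=
      g7_d1_lev t.k _ _ (fun i => hR.good.Xlev (Sum.inl i)) hvl _
    have hin : qinv (gv t) * (w.map P.inc).d1 (fun i => t.X (Sum.inl i)) v * gv t ∈ lev L t.k :=
      mul_mem (mul_mem (g7_qinv_lev t.k _ hgl) hd) hgl
    exact (Pr_spec t.k ({P.iq (s.omg w)} : Set (QA L)) _ hin).1
  set Z : Submodule K (QA K) := Submodule.span K (s.SGen w a P t l' (qinv a * φ + q)) with hZdef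
  have hZl : Z ≤ Subalgebra.toSubmodule (lev K l') := by
    rw [hZdef, Submodule.span_le]
    rintro x (hx1 | ⟨v, hv, hvi, e, he, rfl⟩)
    · rw [Set.mem_singleton_iff] at hx1
      rw [hx1]
      exact (lev K l').mul_mem (kpa_lev_mono hkl' hal) ((lev K l').add_mem hul hql)
    · have h1 : P.rq (s.ellh w P t v) ∈ lev K l' := kpa_lev_mono htl' (P.rq_lev (hellh v hv))
      exact (Pr_spec l' _ _ (mul_mem h1 (kpa_mid_le_lev _ _ he))).1
  have hZ1 : a * (qinv a * φ + q) ∈ Z := Submodule.subset_span (Or.inl rfl)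
  have hZ2 : ∀ z ∈ tE s.k l' (s.RR w a), a * Pr l' ({s.omg w, q} : Set (QA K)) z ∈ Z := by
    intro z hz
    rw [← alg4 s.k l' hkl' (s.omg w) hωl q (qinv a * φ) a hql hq.comm (hK2 huB) haK z (htEl hz)]
    -- reduce to generators
    have hgen : ∀ r ∈ s.RR w a, ∀ e ∈ mid K s.k l',
        Pr l' ({s.omg w, qinv a * φ + q} : Set (QA K)) (a * (r * e)) ∈ Z := by
      intro r hr e he
      have he' := g7_mid_split hkl htl' he
      clear he
      induction he' using Submodule.span_induction with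
      | mem x hx' =>
        obtain ⟨e1, he1, e2, he2, rfl⟩ := hx'
        obtain ⟨v, hv, hvi, hvr⟩ := hR.b r hr e1 he1
        refine Submodule.subset_span (Or.inr ⟨v, hv, hvi, e2, he2, ?_⟩)
        rw [hvr]
        simp only [mul_assoc]
      | zero => rw [mul_zero, mul_zero, map_zero]; exact Submodule.zero_mem _
      | add x y _ _ hx' hy' => rw [mul_add, mul_add, map_add]; exact Submodule.add_mem _ hx' hy'
      | smul c x _ hx' =>
        rw [mul_smul_comm, mul_smul_comm, map_smul]; exact Submodule.smul_mem _ c hx'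
    unfold tE at hz
    induction hz using Submodule.span_induction with
    | mem x hx' =>
      obtain ⟨r, hr, e, he, rfl⟩ := hx'
      exact hgen r hr e he
    | zero => rw [mul_zero, map_zero]; exact Submodule.zero_mem _
    | add x y _ _ hx' hy' => rw [mul_add, map_add]; exact Submodule.add_mem _ hx' hy'
    | smul c x _ hx' => rw [mul_smul_comm, map_smul]; exact Submodule.smul_mem _ c hx'
  have hfin := alg3 s.k l' hkl' (s.omg w) hωl (s.K2 w) hK2 (s.RR w a) hRB d q hq a hal hx.a0 haK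
    (qinv a * φ) huB huR Z hZl hZ1 hZ2
  unfold Pt.n2 at hS2
  omega

end Crest.Agent.KP
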