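import Crest.Agent.KPR_Pert
import Crest.Agent.KPA_Alg
import Crest.Agent.KP_Defs2

/-!
# S0270 : OPEN and PERT for `QA K` (author helper93)
-/

set_option autoImplicit false
set_option linter.unusedSectionVars false

open scoped PowerSeries LaurentSeries symmDiff

namespace Crest.Agent.KP

section
variable {K : Type} [Field K] [KF K]

/-- `lev K k` is finite dimensional -/
theorem kpr_lev_fd (K : Type) [Field K] [QPar K] (k : ℕ) : FiniteDimensional K (lev K k) := by
  classical
  let G : Finset Gp := (Finset.range k).powerset ×ˢ (Finset.range k).powerset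
  have h : Subalgebra.toSubmodule (lev K k) ≤
      Submodule.span K ((G.image fun g => (QA.ec g (1 : K) : QA K)) : Set (QA K)) := by
    intro u hu
    have h1 : ∀ g, u g ≠ 0 → g ∈ G := by
      intro g hg
      have h2 := hu g hg
      simp only [G, Finset.mem_product, Finset.mem_powerset]
      constructor
      · intro s hs
        exact Finset.mem_range.2 (h2.1 hs)
      · intro s hs
        exact Finset.mem_range.2 (h2.2 hs)
    have h3 : (∑ g ∈ G, QA.ec g (u g)) = u := by
      refine kpr_ext fun g => ?_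
      have h4 : (∑ g' ∈ G, QA.ec g' (u g') : QA K) g = ∑ g' ∈ G, (QA.ec g' (u g') : QA K) g :=
        Finsupp.finsetSum_apply G (fun g' => (QA.ec g' (u g') : Gp →₀ K)) g
      rw [h4]
      by_cases hg : g ∈ G
      · rw [Finset.sum_eq_single g]
        · exact Finsupp.single_eq_same
        · intro b _ hb
          exact Finsupp.single_eq_of_ne (Ne.symm hb)
        · intro hh; exact absurd hg hh
      · rw [Finset.sum_eq_zero]
        · by_contra hne
          exact hg (h1 g (Ne.symm hne))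
        · intro b hb
          have hbg : b ≠ g := fun h => hg (h ▸ hb)
          exact Finsupp.single_eq_of_ne (Ne.symm hbg)
    rw [← h3]
    refine sum_mem fun g hg => ?_
    have h5 : (QA.ec g (u g) : QA K) = u g • QA.ec g (1 : K) := by
      refine (Eq.trans ?_ (Finsupp.smul_single (u g) g (1 : K)).symm)
      rw [smul_eq_mul, mul_one]; rfl
    rw [h5]
    exact Submodule.smul_mem _ _ (Submodule.subset_span (Finset.mem_coe.2
      (Finset.mem_image_of_mem _ hg)))
  have hfd : FiniteDimensional K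
      ↥(Submodule.span K ((G.image fun g => (QA.ec g (1 : K) : QA K)) : Set (QA K))) :=
    FiniteDimensional.span_finset K _
  exact Submodule.finiteDimensional_of_le h

theorem kpr_adjoin_union (Φ : Subalgebra K (QA K)) (e : QA K) :
    Algebra.adjoin K ((Φ : Set (QA K)) ∪ {e}) = Φ ⊔ Algebra.adjoin K {e} := by
  rw [Algebra.adjoin_union, Algebra.adjoin_eq]

/-- OPEN for `QA K` -/
theorem kpr_open_qa (k : ℕ) (Φ : Subalgebra K (QA K)) (hΦ : Φ ≤ lev K k) (e u : QA K)
    (he : e ∈ lev K k) (hu : u ∈ lev K k) (hce : ∀ φ ∈ Φ, φ * e = e * φ) :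
    {c : K | Module.finrank K ↥(Algebra.adjoin K ((Φ : Set (QA K)) ∪ {e + c • u})) <
      Module.finrank K ↥(Algebra.adjoin K ((Φ : Set (QA K)) ∪ {e}))}.Finite := by
  have key : ∀ x : QA K, Module.finrank K ↥(Algebra.adjoin K ((Φ : Set (QA K)) ∪ {x})) =
      Module.finrank K ↥(Φ ⊔ Algebra.adjoin K {x}) := fun x => by rw [kpr_adjoin_union]
  refine (kpr_open Φ (lev K k) (kpr_lev_fd K k) hΦ e u he hu hce).subset fun c hc => ?_
  rw [Set.mem_ofPred_eq, key, key] at hc
  exact hc

/-- OPEN without `Φ` -/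
theorem kpr_open_qa' (k : ℕ) (e u : QA K) (he : e ∈ lev K k) (hu : u ∈ lev K k) :
    {c : K | Module.finrank K ↥(Algebra.adjoin K ({e + c • u} : Set (QA K))) <
      Module.finrank K ↥(Algebra.adjoin K ({e} : Set (QA K)))}.Finite := by
  have h := kpr_open (⊥ : Subalgebra K (QA K)) (lev K k) (kpr_lev_fd K k) bot_le e u he hu
    (by
      intro φ hφ
      obtain ⟨c, rfl⟩ := Algebra.mem_bot.1 hφ
      exact Algebra.commutes c e)
  have key : ∀ x : QA K, Module.finrank K ↥(Algebra.adjoin K ({x} : Set (QA K))) =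
      Module.finrank K ↥((⊥ : Subalgebra K (QA K)) ⊔ Algebra.adjoin K {x}) := fun x => by
    rw [bot_sup_eq]
  refine h.subset fun c hc => ?_
  rw [Set.mem_ofPred_eq, key, key] at hc
  exact hc

/-- PERT for `QA K` : if `dim Φ[e+cu] ≤ dim Φ[e]` for infinitely many `c` then the projection of
`u` onto the centralizer of `Φ[e]` lies in `Φ[e]`. -/
theorem kpr_pert_qa (k : ℕ) (Φ : Subalgebra K (QA K)) (hΦ : Φ ≤ lev K k)
    (hΦc : ∀ x ∈ Φ, ∀ y ∈ Φ, x * y = y * x) (e u : QA K)
    (he : e ∈ lev K k) (hu : u ∈ lev K k) (hce : ∀ φ ∈ Φ, φ * e = e * φ)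
    (hcu : ∀ φ ∈ Φ, φ * u = u * φ)
    (h : {c : K | Module.finrank K ↥(Algebra.adjoin K ((Φ : Set (QA K)) ∪ {e + c • u})) ≤
      Module.finrank K ↥(Algebra.adjoin K ((Φ : Set (QA K)) ∪ {e}))}.Infinite) :
    Pr k ((Φ : Set (QA K)) ∪ {e}) u ∈ Algebra.adjoin K ((Φ : Set (QA K)) ∪ {e}) := by
  have key : ∀ x : QA K, Module.finrank K ↥(Algebra.adjoin K ((Φ : Set (QA K)) ∪ {x})) =
      Module.finrank K ↥(Φ ⊔ Algebra.adjoin K {x}) := fun x => by rw [kpr_adjoin_union]
  have h' : {c : K | Module.finrank K ↥(Φ ⊔ Algebra.adjoin K {e + c • u}) ≤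
      Module.finrank K ↥(Φ ⊔ Algebra.adjoin K {e})}.Infinite := by
    refine h.mono fun c hc => ?_
    rw [Set.mem_ofPred_eq, key, key] at hc
    exact hc
  rw [kpr_adjoin_union]
  obtain ⟨h1, h2, h3⟩ := Pr_spec k ((Φ : Set (QA K)) ∪ {e}) u hu
  refine kpr_pert_gen QA.tr kpa_tr_comm (by rw [kpa_tr_one]; exact one_ne_zero) Φ (lev K k)
    (kpr_lev_fd K k) hΦ hΦc e u _ he hu h1 hce hcu (fun φ hφ => (h2 φ (Or.inl hφ)).symm)
    (h2 e (Or.inr rfl)) ?_ h'
  intro d hd hdΦ hde
  refine h3 d hd ?_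
  rintro φ (hφ | hφ)
  · exact hdΦ φ hφ
  · rw [Set.mem_singleton_iff.1 hφ]; exact hde

/-- the projection onto the centralizer of a generating set is the projection onto the centralizer
of the generated algebra (as predicates) -/
theorem kpr_isPr_adjoin (k : ℕ) (S : Set (QA K)) (u c : QA K) :
    IsPr k (Algebra.adjoin K S : Set (QA K)) u c ↔ IsPr k S u c := by
  have key : ∀ d : QA K, (∀ φ ∈ S, d * φ = φ * d) →
      ∀ φ ∈ (Algebra.adjoin K S : Set (QA K)), d * φ = φ * d := by
    intro d hd φ hφ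
    have h1 : Algebra.adjoin K S ≤ Subalgebra.centralizer K {d} := by
      refine Algebra.adjoin_le fun x hx => ?_
      rw [SetLike.mem_coe, Subalgebra.mem_centralizer_iff]
      intro g hg
      rw [Set.mem_singleton_iff.1 hg]
      exact hd x hx
    exact (Subalgebra.mem_centralizer_iff K).1 (h1 hφ) d rfl
  constructor
  · rintro ⟨h1, h2, h3⟩
    exact ⟨h1, fun φ hφ => h2 φ (Algebra.subset_adjoin hφ),
      fun d hd hdS => h3 d hd (key d hdS)⟩
  · rintro ⟨h1, h2, h3⟩
    exact ⟨h1, key c h2, fun d hd hdS => h3 d hd fun φ hφ => hdS φ (Algebra.subset_adjoin hφ)⟩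

end

end Crest.Agent.KP
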