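import Crest.Agent.KPX_Forget
import Crest.Agent.KP_G0
import Crest.Agent.KP_C
import Crest.Agent.KP_Defs4
import Crest.Agent.KPG_qinv
import Crest.Agent.KPB_D2
import Crest.Agent.KPH_NC
import Crest.Agent.KPR_Main

set_option autoImplicit false
set_option linter.unusedSectionVars false

open scoped PowerSeries LaurentSeries symmDiff

namespace Crest.Agent.KP

open Pt

/-! ### general facts (reusable) -/

/-- projection onto the centralizer of a constant element, residue -/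
theorem g8c_Pr_iq {L M : Type} [Field L] [KF L] [Field M] [KF M] (Q : Place L M) (k : ℕ)
    (ω : QA L) (u : QA M) (hu : u ∈ lev M k) (hi : Q.Int u) :
    Q.Int (Pr k {Q.iq ω} u) ∧ Q.rq (Pr k {Q.iq ω} u) = Pr k {ω} (Q.rq u) := by
  have hIs : IsPr k {Q.iq ω} u (Pr k {Q.iq ω} u) := Pr_spec k _ u hu
  have hIs' : IsPr k (Algebra.adjoin M {Q.iq ω} : Set (QA M)) u (Pr k {Q.iq ω} u) :=
    (kpr_isPr_adjoin k _ u _).2 hIs
  have hω : ω ∈ Q.resA (Algebra.adjoin M {Q.iq ω}) :=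
    ⟨Q.iq ω, Algebra.subset_adjoin rfl, Q.int_iq ω, Q.rq_iq ω⟩
  have hCen : ∀ c ∈ lev L k, c * ω = ω * c →
      c ∈ Q.resA (CenA k (Algebra.adjoin M {Q.iq ω} : Set (QA M))) := by
    intro c hc hcω
    refine ⟨Q.iq c, ?_, Q.int_iq c, Q.rq_iq c⟩
    show Q.iq c ∈ CenA k _
    rw [mem_CenA]
    refine ⟨Q.iq_lev hc, ?_⟩
    intro φ hφ
    have h1 : Algebra.adjoin M {Q.iq ω} ≤ Subalgebra.centralizer M {Q.iq c} := by
      apply Algebra.adjoin_le
      intro x hx
      rw [Set.mem_singleton_iff] at hx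
      rw [hx, SetLike.mem_coe, Subalgebra.mem_centralizer_iff]
      intro y hy
      rw [Set.mem_singleton_iff] at hy
      rw [hy, ← map_mul, ← map_mul, hcω]
    have h2 := h1 hφ
    rw [Subalgebra.mem_centralizer_iff] at h2
    exact h2 (Q.iq c) rfl
  have hC : Q.resA (CenA k (Algebra.adjoin M {Q.iq ω} : Set (QA M))) =
      CenA k (Q.resA (Algebra.adjoin M {Q.iq ω}) : Set (QA L)) := by
    refine le_antisymm (Q.resA_CenA_le k _) ?_
    intro c hc
    rw [mem_CenA] at hc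
    exact hCen c hc.1 (hc.2 ω hω)
  have hnd : ∀ c ∈ CenA k (Q.resA (Algebra.adjoin M {Q.iq ω}) : Set (QA L)), c ≠ 0 →
      ∃ d ∈ CenA k (Q.resA (Algebra.adjoin M {Q.iq ω}) : Set (QA L)), QA.tr (c * d) ≠ 0 := by
    intro c hc hc0
    by_contra hcon
    push Not at hcon
    have hle : CenA k (Q.resA (Algebra.adjoin M {Q.iq ω}) : Set (QA L)) ≤ lev L k :=
      fun x hx => (mem_CenA.1 hx).1
    have := kpa_fd_of_le' hle
    exact hc0 (kpa_sub_nondeg hc hcon)
  obtain ⟨h1, h2⟩ := Q.D2_aux k _ hC hnd hi hIs'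
  refine ⟨h1, IsPr_unique_aux k _ hnd h2 ?_⟩
  obtain ⟨h3, h4, h5⟩ := Pr_spec k {ω} (Q.rq u) (Q.rq_lev hu)
  refine ⟨h3, ?_, ?_⟩
  · have h6 := hCen _ h3 (h4 ω rfl)
    rw [hC, mem_CenA] at h6
    exact h6.2
  · intro d hd hd'
    refine h5 d hd ?_
    intro φ hφ
    rw [Set.mem_singleton_iff] at hφ
    rw [hφ]
    exact hd' ω hω

/-- residue of the inverse -/
theorem g8c_qinv_res {L M : Type} [Field L] [KF L] [Field M] [KF M] (Q : Place L M) (k : ℕ)
    (g : QA M) (hg : g ∈ lev M k) (hi : Q.Int g) (h0 : Q.rq g ≠ 0) :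
    Q.Int (qinv g) ∧ Q.rq (qinv g) = qinv (Q.rq g) := by
  have hg0 : g ≠ 0 := by
    rintro rfl
    exact h0 Q.rq_zero
  obtain ⟨h1, h2, h3, _⟩ := qinv_spec k g hg hg0
  obtain ⟨h1', h2', _, _⟩ := qinv_spec k (Q.rq g) (Q.rq_lev hg) h0
  have hq0 : qinv g ≠ 0 := by
    intro h
    rw [h, mul_zero] at h1
    exact one_ne_zero h1.symm
  obtain ⟨c, hc0, hc1, hc2, hc3⟩ := Q.exists_scale_q (qinv g) hq0
  have hint : Q.Int (qinv g) := by
    by_contra hn
    obtain ⟨hcO, hcr⟩ := hc3 hn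
    have h4 : g * (c • qinv g) = c • (1 : QA M) := by rw [mul_smul_comm, h1]
    have h5 := congrArg Q.rq h4
    rw [Q.rq_mul hi hc1, Q.rq_smul hcO Q.int_one, hcr, zero_smul] at h5
    rcases mul_eq_zero.1 h5 with h6 | h6
    · exact h0 h6
    · exact hc2 h6
  refine ⟨hint, ?_⟩
  have h6 : Q.rq g * Q.rq (qinv g) = 1 := by
    rw [← Q.rq_mul hi hint, h1, Q.rq_one]
  calc Q.rq (qinv g) = (qinv (Q.rq g) * Q.rq g) * Q.rq (qinv g) := by rw [h2', one_mul]
    _ = qinv (Q.rq g) := by rw [mul_assoc, h6, mul_one]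

theorem g8c_map_map {R R' R'' I : Type} (f : R → R') (g : R' → R'') (p : NC R I) :
    (p.map f).map g = p.map (fun x => g (f x)) := by
  induction p with
  | cst c => rfl
  | var i => rfl
  | add p q hp hq => simp only [NC.map, hp, hq]
  | mul p q hp hq => simp only [NC.map, hp, hq]

theorem g8c_map_id {R I : Type} (p : NC R I) : p.map (fun x => x) = p := by
  induction p with
  | cst c => rfl
  | var i => rfl
  | add p q hp hq => simp only [NC.map, hp, hq]
  | mul p q hp hq => simp only [NC.map, hp, hq]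

theorem g8c_map_ren {R R' I I' : Type} (f : R → R') (h : I → I') (p : NC R I) :
    (p.ren h).map f = (p.map f).ren h := by
  induction p with
  | cst c => rfl
  | var i => rfl
  | add p q hp hq => simp only [NC.map, NC.ren, hp, hq]
  | mul p q hp hq => simp only [NC.map, NC.ren, hp, hq]

/-- what is constant along reachability -/
theorem g8c_rch {K0 I J : Type} [Field K0] [KF K0] [Fintype I] [Fintype J] (s0 : Pt K0 I J)
    (L : Type) (iF : Field L) (iK : KF L) (t : Pt L I J) (P : Place K0 L)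
    (h : Rch s0 L iF iK t P) :
    (∀ i, P.Int (t.X i) ∧ P.rq (t.X i) = s0.X i) ∧ (∀ j, t.F j = (s0.F j).map P.inc) ∧
      s0.k ≤ t.k ∧ t.x = s0.x ∧ t.y = s0.y := by
  induction h with
  | refl =>
    refine ⟨fun i => ⟨kpr_int_refl _, kpr_rq_refl _⟩, fun j => ?_, le_rfl, rfl, rfl⟩
    exact (g8c_map_id _).symm
  | curve L iF iK t P h T hT ih =>
    obtain ⟨h1, h2, h3, h4, h5⟩ := ih
    refine ⟨fun i => ?_, fun j => ?_, h3, h4, h5⟩
    · have hr : (Place.laurent L).rq ((t.curve T).X i) = t.X i := by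
        show (Place.laurent L).rq (toL L (T i)) = t.X i
        rw [kpr_rq_toL, hT.zero]
      refine ⟨?_, ?_⟩
      · rw [kpr_int_trans, hr]
        exact ⟨kpr_int_toL _, (h1 i).1⟩
      · rw [kpr_rq_trans, hr]
        exact (h1 i).2
    · show (t.F j).map (algebraMap L L⸨X⸩) = _
      rw [h2, g8c_map_map]
      rfl
  | grow L iF iK t P h T w1 w2 hT ih =>
    obtain ⟨h1, h2, h3, h4, h5⟩ := ih
    refine ⟨fun i => ?_, fun j => ?_, Nat.le_succ_of_le h3, h4, h5⟩
    · have hr : (Place.laurent L).rq ((t.grow T).X i) = t.X i := by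
        show (Place.laurent L).rq (toL L (T i)) = t.X i
        rw [kpr_rq_toL, hT.zero]
      refine ⟨?_, ?_⟩
      · rw [kpr_int_trans, hr]
        exact ⟨kpr_int_toL _, (h1 i).1⟩
      · rw [kpr_rq_trans, hr]
        exact (h1 i).2
    · show (t.F j).map (algebraMap L L⸨X⸩) = _
      rw [h2, g8c_map_map]
      rfl

variable {K L I J : Type} [Field K] [KF K] [Field L] [KF L] [Fintype I] [Fintype J]

theorem g8c_extV_map {L I I' : Type} [Field L] [KF L] (f : I' → I)
    (V : Submodule L (I → QA L)) :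
    (extV V).map (LinearMap.funLeft L⸨X⸩ (QA L⸨X⸩) f) =
      extV (V.map (LinearMap.funLeft L (QA L) f)) := by
  unfold extV
  rw [Submodule.map_span]
  congr 1
  ext v
  constructor
  · rintro ⟨_, ⟨u, hu, rfl⟩, rfl⟩
    exact ⟨fun i => u (f i), ⟨u, hu, rfl⟩, rfl⟩
  · rintro ⟨_, ⟨u, hu, rfl⟩, rfl⟩
    exact ⟨_, ⟨u, hu, rfl⟩, rfl⟩

/-- forgetting commutes with curves -/
theorem g8c_fgt_curve (s : Pt K I J) (P : Place K L)
    (t : Pt L (I ⊕ Bool) (Option J)) (T : I ⊕ Bool → QA L⟦X⟧) :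
    s.fgt (P.trans (Place.laurent L)) (t.curve T) =
      (s.fgt P t).curve (fun i => T (Sum.inl i)) := by
  have hF : (fun j => (s.F j).map (P.trans (Place.laurent L)).inc) =
      fun j => ((s.F j).map P.inc).map (algebraMap L L⸨X⸩) := by
    funext j
    rw [g8c_map_map]
    rfl
  have h0 : (extV t.V0).map (LinearMap.funLeft L⸨X⸩ (QA L⸨X⸩) Sum.inl) =
      extV (t.V0.map (LinearMap.funLeft L (QA L) (Sum.inl : I → I ⊕ Bool))) := g8c_extV_map _ _
  have h1 : (extV t.V1).map (LinearMap.funLeft L⸨X⸩ (QA L⸨X⸩) Sum.inl) =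
      extV (t.V1.map (LinearMap.funLeft L (QA L) (Sum.inl : I → I ⊕ Bool))) := g8c_extV_map _ _
  unfold fgt curve
  simp only
  rw [hF, h0, h1]

/-- the equations of a state of `S⁺` -/
theorem g8c_F_some (s : Pt K I J) (w : NC K I) (a : QA K) (m0 : Submodule K (QA K))
    (t : Pt L (I ⊕ Bool) (Option J)) (P : Place K L)
    (ht : Rch (s.ext w a m0) L inferInstance inferInstance t P) (j : J) :
    t.F (some j) = ((s.F j).map P.inc).ren Sum.inl := by
  rw [(g8c_rch _ L _ _ t P ht).2.1 (some j), ← g8c_map_ren]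
  rfl

/-- forgetting a curve step of `S⁺` -/
theorem g8c_isCurve (s : Pt K I J) (w : NC K I) (a : QA K)
    (m0 : Submodule K (QA K))
    (t : Pt L (I ⊕ Bool) (Option J)) (P : Place K L)
    (ht : Rch (s.ext w a m0) L inferInstance inferInstance t P)
    (T : I ⊕ Bool → QA L⟦X⟧) (hT : t.IsCurve T) :
    (s.fgt P t).IsCurve (fun i => T (Sum.inl i)) := by
  refine ⟨fun j => ?_, fun i => hT.zero (Sum.inl i), fun m hm => ?_⟩
  · have h := hT.eq (some j)
    rw [g8c_F_some s w a m0 t P ht j, NC.kph_ev_ren] at h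
    exact h
  · exact ⟨_, hT.mem m hm, rfl⟩

/-- `g ≠ 0` -/
theorem g8c_gv_ne (s : Pt K I J) (w : NC K I) (a : QA K)
    (m0 : Submodule K (QA K))
    (t : Pt L (I ⊕ Bool) (Option J)) (P : Place K L)
    (ht : Rch (s.ext w a m0) L inferInstance inferInstance t P) : gv t ≠ 0 := by
  intro h
  have h1 := ((g8c_rch _ L _ _ t P ht).1 (Sum.inr false)).2
  have h2 : t.X (Sum.inr false) = 0 := h
  rw [h2, P.rq_zero] at h1
  exact zero_ne_one h1

/-- **G8.** (b) for a curve of `t` with constant `f`. -/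
theorem G8_curve (s : Pt K I J) (w : NC K I) (d : ℕ) (hp : s.Pkg w d) (a : QA K)
    (m0 : Submodule K (QA K)) (hx : s.ExtOk w a m0)
    (t : Pt L (I ⊕ Bool) (Option J)) (P : Place K L)
    (ht : Rch (s.ext w a m0) L inferInstance inferInstance t P) (hR : s.LemR w a d P t)
    (T : I ⊕ Bool → QA L⟦X⟧) (hT : t.IsCurve T)
    (hf : T (Sum.inr true) = toP L (P.iq (s.omg w))) :
    ∀ r ∈ s.RR w a, ∀ e ∈ mid K s.k t.k, ∃ v ∈ (s.fgt (P.trans (Place.laurent L)) (t.curve T)).W,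
      (P.trans (Place.laurent L)).Int (s.ellh w (P.trans (Place.laurent L)) (t.curve T) v) ∧
      (P.trans (Place.laurent L)).rq (s.ellh w (P.trans (Place.laurent L)) (t.curve T) v) =
        a * r * e := by
  intro r hr e he
  obtain ⟨v0, hv0, hv1, hv2⟩ := hR.b r hr e he
  have hreach := _root_.Crest.Agent.KP.kpx_ext_forget s w a m0 hx L _ _ t P ht
  obtain ⟨hG, hS, hA⟩ := C_reach s hp.good hp.stable L _ _ _ P hreach
  have hcur := g8c_isCurve s w a m0 t P ht T hT
  have hreach2 := Rch.curve (s0 := s) L _ _ _ P hreach _ hcur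
  obtain ⟨hG2, _, _⟩ := C_reach s hp.good hp.stable _ _ _ _ _ hreach2
  have ho : ((s.fgt P t).curve (fun i => T (Sum.inl i))).o = (s.fgt P t).o := by
    rw [hp.stable _ _ _ _ _ hreach2, hp.stable _ _ _ _ _ hreach]
  obtain ⟨v, hv, hvi, hvr⟩ := (C_lift_curve (s.fgt P t) hG _ hcur ho v0).1 hv0
  have hvl : ∀ i, v i ∈ lev L⸨X⸩ t.k := fun i => hG2.V1lev v (hG2.V0V1 hv.1) i
  have hXl : ∀ i, toL L (T (Sum.inl i)) ∈ lev L⸨X⸩ t.k := fun i => hG2.Xlev i
  have hgl : toL L (T (Sum.inr false)) ∈ lev L⸨X⸩ t.k := by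
    rw [kpr_toL_mem_lev]
    intro m
    rcases Nat.eq_zero_or_pos m with rfl | hm
    · rw [hT.zero]
      exact hR.good.Xlev _
    · exact hR.good.V1lev _ (hT.mem m hm) (Sum.inr false)
  have hgr : (Place.laurent L).rq (toL L (T (Sum.inr false))) = gv t := by
    rw [kpr_rq_toL, hT.zero]
    rfl
  have hg0 := g8c_gv_ne s w a m0 t P ht
  obtain ⟨hq1, hq2⟩ := g8c_qinv_res (Place.laurent L) t.k _ hgl (kpr_int_toL _)
    (by rw [hgr]; exact hg0)
  rw [hgr] at hq2
  obtain ⟨hd1, hd2⟩ := NC.kph_res_d1 (P := Place.laurent L) (w.map P.inc)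
    (fun i => toL L (T (Sum.inl i))) v (fun i => kpr_int_toL _) hvi
  have hXr : (fun i => (Place.laurent L).rq (toL L (T (Sum.inl i)))) =
      fun i => t.X (Sum.inl i) := by
    funext i
    rw [kpr_rq_toL, hT.zero]
  have hvr' : (fun i => (Place.laurent L).rq (v i)) = v0 := funext hvr
  rw [hXr, hvr'] at hd2
  have hdl : ((w.map P.inc).map (Place.laurent L).inc).d1
      (fun i => toL L (T (Sum.inl i))) v ∈ lev L⸨X⸩ t.k :=
    NC.kph_d1_mem (lev L⸨X⸩ t.k) _ _ _ hXl hvl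
  have hqne : toL L (T (Sum.inr false)) ≠ 0 := by
    intro h
    rw [h, Place.rq_zero] at hgr
    exact hg0 hgr.symm
  have hql : qinv (toL L (T (Sum.inr false))) ∈ lev L⸨X⸩ t.k :=
    (qinv_spec t.k _ hgl hqne).2.2.1
  have hu : (qinv (toL L (T (Sum.inr false))) * ((w.map P.inc).map (Place.laurent L).inc).d1
      (fun i => toL L (T (Sum.inl i))) v) * toL L (T (Sum.inr false)) ∈ lev L⸨X⸩ t.k :=
    mul_mem (mul_mem hql hdl) hgl
  have hui : (Place.laurent L).Int ((qinv (toL L (T (Sum.inr false))) *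
      ((w.map P.inc).map (Place.laurent L).inc).d1
      (fun i => toL L (T (Sum.inl i))) v) * toL L (T (Sum.inr false))) :=
    Place.int_mul _ (Place.int_mul _ hq1 hd1) (kpr_int_toL _)
  obtain ⟨hP1, hP2⟩ := g8c_Pr_iq (Place.laurent L) t.k (P.iq (s.omg w)) _ hu hui
  have hellh : s.ellh w (P.trans (Place.laurent L)) (t.curve T) v =
      Pr t.k {(Place.laurent L).iq (P.iq (s.omg w))}
        ((qinv (toL L (T (Sum.inr false))) *
        ((w.map P.inc).map (Place.laurent L).inc).d1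
        (fun i => toL L (T (Sum.inl i))) v) * toL L (T (Sum.inr false))) := by
    rw [g8c_map_map]
    unfold ellh
    rw [kpr_iq_trans]
    rfl
  have hres : (Place.laurent L).rq (s.ellh w (P.trans (Place.laurent L)) (t.curve T) v) =
      s.ellh w P t v0 := by
    rw [hellh, hP2, Place.rq_mul _ (Place.int_mul _ hq1 hd1) (kpr_int_toL _),
      Place.rq_mul _ hq1 hd1, hq2, hd2, hgr]
    rfl
  refine ⟨v, ?_, ?_, ?_⟩
  · rw [g8c_fgt_curve]
    exact hv
  · rw [kpr_int_trans, hres]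
    refine ⟨?_, hv1⟩
    rw [hellh]
    exact hP1
  · rw [kpr_rq_trans, hres, hv2]

end Crest.Agent.KP
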