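import Crest.Agent.KPX_Forget
import Crest.Agent.KP_G0
import Crest.Agent.KP_C
import Crest.Agent.KP_Defs4
import Crest.Agent.KPG_qinv
import Crest.Agent.KPG_G4
import Crest.Agent.KPG_G6
import Crest.Agent.KPH_NC
import Crest.Agent.KPB_q

set_option autoImplicit false
set_option linter.unusedSectionVars false

open scoped PowerSeries LaurentSeries symmDiff

namespace Crest.Agent.KP

open Pt

variable {K L I J : Type} [Field K] [KF K] [Field L] [KF L] [Fintype I] [Fintype J]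

private theorem g8_map_map {R S T : Type} (f : R → S) (g : S → T) (p : NC R I) :
    (p.map f).map g = p.map (fun x => g (f x)) := by
  induction p with
  | cst c => rfl
  | var i => rfl
  | add p q hp hq => simp only [NC.map, hp, hq]
  | mul p q hp hq => simp only [NC.map, hp, hq]

/-- residues of projections onto centralizers of constants -/
private theorem g8_D2 (Q : Place K L) (k : ℕ) (ω : QA K) {u c : QA L} (hu : Q.Int u)
    (hc : IsPr k {Q.iq ω} u c) : Q.Int c ∧ IsPr k {ω} (Q.rq u) (Q.rq c) := by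
  obtain ⟨hc1, hc2, hc3⟩ := hc
  have hcω : c * Q.iq ω = Q.iq ω * c := hc2 _ rfl
  have key : ∀ d0 ∈ lev K k, (∀ φ ∈ ({ω} : Set (QA K)), d0 * φ = φ * d0) →
      QA.tr ((u - c) * Q.iq d0) = 0 := by
    intro d0 hd0 hd1
    refine hc3 (Q.iq d0) (Q.iq_lev hd0) fun φ hφ => ?_
    rw [Set.mem_singleton_iff] at hφ
    rw [hφ, ← map_mul, ← map_mul, hd1 ω rfl]
  have hcomm : ∀ π : L, Q.Int (π • c) → Q.rq (π • c) * ω = ω * Q.rq (π • c) := by
    intro π h
    have h1 : (π • c) * Q.iq ω = Q.iq ω * (π • c) := by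
      rw [smul_mul_assoc, mul_smul_comm, hcω]
    have h2 := congrArg Q.rq h1
    rw [Q.rq_mul h (Q.int_iq ω), Q.rq_mul (Q.int_iq ω) h, Q.rq_iq] at h2
    exact h2
  have hint : Q.Int c := by
    by_contra hn
    have hne : c ≠ 0 := fun h => hn (by rw [h]; exact Q.int_zero)
    obtain ⟨π, hπ0, h1, h2, h3⟩ := Q.exists_scale_q c hne
    obtain ⟨hπ, hπr⟩ := h3 hn
    have hmem : Q.rq (π • c) ∈ cenA k ({ω} : Set (QA K)) := by
      rw [mem_cenA]
      refine ⟨Q.rq_lev (Subalgebra.smul_mem _ hc1 π), fun φ hφ => ?_⟩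
      rw [Set.mem_singleton_iff] at hφ
      rw [hφ]
      exact hcomm π h1
    refine h2 (kpa_sub_nondeg hmem fun d0 hd0 => ?_)
    rw [mem_cenA] at hd0
    have h4 := key d0 hd0.1 hd0.2
    have h5 : QA.tr ((π • c) * Q.iq d0) = π * QA.tr (u * Q.iq d0) := by
      rw [sub_mul, map_sub, sub_eq_zero] at h4
      rw [smul_mul_assoc, map_smul, smul_eq_mul, h4]
    have h6 := congrArg Q.r h5
    rw [Q.r_tr, Q.rq_mul h1 (Q.int_iq d0), Q.rq_iq,
      Q.r_mul hπ (Q.tr_mem (Q.int_mul hu (Q.int_iq d0))), hπr, zero_mul] at h6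
    exact h6
  refine ⟨hint, Q.rq_lev hc1, fun φ hφ => ?_, fun d0 hd0 hd1 => ?_⟩
  · rw [Set.mem_singleton_iff] at hφ
    rw [hφ]
    have h1 : Q.Int ((1 : L) • c) := by rwa [one_smul]
    have h2 := hcomm 1 h1
    rwa [one_smul] at h2
  · have h4 := key d0 hd0 hd1
    have h5 := congrArg Q.r h4
    rw [Q.r_tr, Q.rq_mul (Q.int_sub hu hint) (Q.int_iq d0), Q.rq_sub hu hint, Q.rq_iq,
      Q.r_zero'] at h5
    exact h5

private theorem g8_IsPr_unique (k : ℕ) (S : Set (QA K)) {u c c' : QA K} (h : IsPr k S u c)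
    (h' : IsPr k S u c') : c = c' := by
  have h1 : c - c' ∈ cenA k S := sub_mem (mem_cenA.2 ⟨h.1, h.2.1⟩) (mem_cenA.2 ⟨h'.1, h'.2.1⟩)
  refine sub_eq_zero.1 (kpa_sub_nondeg h1 fun d hd => ?_)
  rw [mem_cenA] at hd
  have h2 := h.2.2 d hd.1 hd.2
  have h3 := h'.2.2 d hd.1 hd.2
  have h4 : (c - c') * d = (u - c') * d - (u - c) * d := by rw [← sub_mul]; congr 1; abel
  rw [h4, map_sub, h2, h3, sub_zero]

private theorem g8_qinv_spec (u : QA K) (h0 : u ≠ 0) : u * qinv u = 1 ∧ qinv u * u = 1 := by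
  obtain ⟨k, hk⟩ := kpa_exists_lev u
  obtain ⟨h1, h2, -, -⟩ := qinv_spec k u hk h0
  exact ⟨h1, h2⟩

private theorem g8_qinv (Q : Place K L) (u : QA L) (hu : Q.Int u) (h0 : Q.rq u ≠ 0) :
    Q.Int (qinv u) ∧ Q.rq (qinv u) = qinv (Q.rq u) := by
  have hu0 : u ≠ 0 := by
    rintro rfl
    exact h0 Q.rq_zero
  obtain ⟨h1, h2⟩ := g8_qinv_spec u hu0
  have hv0 : qinv u ≠ 0 := by
    intro h
    rw [h, mul_zero] at h1
    exact zero_ne_one h1
  have hint : Q.Int (qinv u) := by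
    by_contra hn
    obtain ⟨π, hπ0, h3, h4, h5⟩ := Q.exists_scale_q (qinv u) hv0
    obtain ⟨hπ, hπr⟩ := h5 hn
    have h6 : u * (π • qinv u) = π • 1 := by rw [mul_smul_comm, h1]
    have h7 := congrArg Q.rq h6
    rw [Q.rq_mul hu h3, Q.rq_smul hπ Q.int_one, hπr, zero_smul] at h7
    rcases mul_eq_zero.1 h7 with h | h
    · exact h0 h
    · exact h4 h
  refine ⟨hint, ?_⟩
  obtain ⟨h3, -⟩ := g8_qinv_spec (Q.rq u) h0
  have h4 := congrArg Q.rq h1
  rw [Q.rq_mul hu hint, Q.rq_one] at h4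
  exact mul_left_cancel₀ h0 (h4.trans h3.symm)

/-- level of the elements of `V0 E + V1` -/
private theorem g8_mulE_lev {I' : Type} {k : ℕ} (V0 V1 : Submodule K (I' → QA K)) (h01 : V0 ≤ V1)
    (h1 : ∀ v ∈ V1, ∀ i, v i ∈ lev K k) (v : I' → QA K) (hv : v ∈ mulE k V0 ⊔ V1) (i : I') :
    v i ∈ lev K (k + 1) := by
  have hle : mulE k V0 ⊔ V1 ≤ Submodule.pi Set.univ
      (fun _ : I' => Subalgebra.toSubmodule (lev K (k + 1))) := by
    have hb : ∀ v ∈ V1, ∀ i, v i ∈ lev K (k + 1) :=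
      fun v hv i => kpa_lev_mono (Nat.le_succ k) (h1 v hv i)
    have hm : ∀ e ∈ lev K (k + 1), V0.map (mulR e) ≤ Submodule.pi Set.univ
        (fun _ : I' => Subalgebra.toSubmodule (lev K (k + 1))) := by
      rintro e he _ ⟨v, hv, rfl⟩
      rw [Submodule.mem_pi]
      intro i _
      exact (lev K (k + 1)).mul_mem (hb v (h01 hv) i) he
    refine sup_le (sup_le (sup_le (sup_le ?_ ?_) ?_) ?_) ?_
    · intro v hv
      rw [Submodule.mem_pi]
      exact fun i _ => hb v (h01 hv) i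
    · exact hm _ (kpa_S1_mem_lev k)
    · exact hm _ (kpa_S2_mem_lev k)
    · exact hm _ (kpa_S3_mem_lev k)
    · intro v hv
      rw [Submodule.mem_pi]
      exact fun i _ => hb v hv i
  have := hle hv
  rw [Submodule.mem_pi] at this
  exact this i trivial

private theorem g8_funLeft_mulR {I' : Type} (f : I → I') (e : QA K) (V : Submodule K (I' → QA K)) :
    (V.map (mulR e)).map (LinearMap.funLeft K (QA K) f) =
      (V.map (LinearMap.funLeft K (QA K) f)).map (mulR e) := by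
  rw [← Submodule.map_comp, ← Submodule.map_comp]
  rfl

private theorem g8_funLeft_mulE {I' : Type} (f : I → I') (k : ℕ) (V : Submodule K (I' → QA K)) :
    (mulE k V).map (LinearMap.funLeft K (QA K) f) =
      mulE k (V.map (LinearMap.funLeft K (QA K) f)) := by
  unfold mulE
  rw [Submodule.map_sup, Submodule.map_sup, Submodule.map_sup, g8_funLeft_mulR, g8_funLeft_mulR,
    g8_funLeft_mulR]

private theorem g8_funLeft_extV {I' : Type} (f : I → I') (V : Submodule K (I' → QA K)) :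
    (extV V).map (LinearMap.funLeft K⸨X⸩ (QA K⸨X⸩) f) =
      extV (V.map (LinearMap.funLeft K (QA K) f)) := by
  unfold extV
  rw [Submodule.map_span]
  congr 1
  ext w
  constructor
  · rintro ⟨_, ⟨v, hv, rfl⟩, rfl⟩
    exact ⟨fun i => v (f i), ⟨v, hv, rfl⟩, rfl⟩
  · rintro ⟨_, ⟨v, hv, rfl⟩, rfl⟩
    exact ⟨_, ⟨v, hv, rfl⟩, rfl⟩

/-- forgetting commutes with growth -/
private theorem g8_fgt_grow (s : Pt K I J) (P : Place K L) (t : Pt L (I ⊕ Bool) (Option J))
    (T : I ⊕ Bool → QA L⟦X⟧) :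
    s.fgt (P.trans (Place.laurent L)) (t.grow T) =
      (s.fgt P t).grow (fun i => T (Sum.inl i)) := by
  have hF : (fun j => (s.F j).map (P.trans (Place.laurent L)).inc) =
      fun j => ((s.F j).map P.inc).map (algebraMap L L⸨X⸩) := by
    funext j
    rw [g8_map_map]
    rfl
  have hV0 : (extV (mulE t.k t.V0)).map (LinearMap.funLeft L⸨X⸩ (QA L⸨X⸩) (Sum.inl : I → I ⊕ Bool))
      = extV (mulE t.k (t.V0.map (LinearMap.funLeft L (QA L) Sum.inl))) := by
    rw [g8_funLeft_extV, g8_funLeft_mulE]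
  have hV1 : (extV (mulE t.k t.V0 ⊔ t.V1)).map
      (LinearMap.funLeft L⸨X⸩ (QA L⸨X⸩) (Sum.inl : I → I ⊕ Bool))
      = extV (mulE t.k (t.V0.map (LinearMap.funLeft L (QA L) Sum.inl)) ⊔
        t.V1.map (LinearMap.funLeft L (QA L) Sum.inl)) := by
    rw [g8_funLeft_extV, Submodule.map_sup, g8_funLeft_mulE]
  unfold Pt.fgt Pt.grow
  simp only
  rw [hF, hV0, hV1]

/-- **G8.** (b) for a growth of `t` with constant `f`. -/
theorem G8_growth (s : Pt K I J) (w : NC K I) (d : ℕ) (hp : s.Pkg w d) (a : QA K)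
    (m0 : Submodule K (QA K)) (hx : s.ExtOk w a m0)
    (t : Pt L (I ⊕ Bool) (Option J)) (P : Place K L)
    (ht : Rch (s.ext w a m0) L inferInstance inferInstance t P) (hR : s.LemR w a d P t)
    (T : I ⊕ Bool → QA L⟦X⟧) (w1 w2 : I ⊕ Bool → QA L) (hT : t.IsGrowth T w1 w2)
    (hf : T (Sum.inr true) = toP L (P.iq (s.omg w))) :
    ∀ r ∈ s.RR w a, ∀ e ∈ mid K s.k (t.k + 1),
      ∃ v ∈ (s.fgt (P.trans (Place.laurent L)) (t.grow T)).W,
      (P.trans (Place.laurent L)).Int (s.ellh w (P.trans (Place.laurent L)) (t.grow T) v) ∧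
      (P.trans (Place.laurent L)).rq (s.ellh w (P.trans (Place.laurent L)) (t.grow T) v) =
        a * r * e := by
  intro r hr e he
  obtain ⟨hTf, hIf⟩ := G6 s w d hp a m0 hx t P ht hR T w1 w2 hT
  have hreach := _root_.Crest.Agent.KP.kpx_ext_forget s w a m0 hx L inferInstance inferInstance t P ht
  obtain ⟨hgf, hsf, haf⟩ := C_reach s hp.good hp.stable L inferInstance inferInstance _ P hreach
  have hreach' := Rch.grow L inferInstance inferInstance (s.fgt P t) P hreach _ _ _ hTf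
  have ho : ((s.fgt P t).grow (fun i => T (Sum.inl i))).o = (s.fgt P t).o := by
    rw [hp.stable _ _ _ _ _ hreach', hp.stable _ _ _ _ _ hreach]
  obtain ⟨η, hη, hint, hrq⟩ := G4 s w d hp a m0 hx t P ht hR.b _ _ _ hTf hIf (r * e)
    (Submodule.subset_span ⟨r, hr, e, he, rfl⟩)
  obtain ⟨v', hv', hvint, hvrq⟩ := (C_lift_grow _ hgf haf _ _ _ hTf ho η).1 hη
  refine ⟨v', by rw [g8_fgt_grow]; exact hv', ?_⟩
  -- the value of `g` is nonzero
  have hg0 : gv t ≠ 0 := by
    intro h0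
    have h1R : (1 : QA K) ∈ s.RR w a := by
      refine ⟨one_mem (s.K2 w), ?_⟩
      show a * 1 ∈ s.LL w
      rw [mul_one]
      exact hx.aL
    obtain ⟨v, -, -, hv⟩ := hR.b 1 h1R 1 (one_mem _)
    have hz : s.ellh w P t v = 0 := by
      unfold Pt.ellh
      simp only [LinearMap.comp_apply]
      rw [h0, LinearMap.mulRight_apply, mul_zero, map_zero]
    rw [hz, P.rq_zero, mul_one, mul_one] at hv
    exact hx.a0 hv.symm
  have hglev : gv t ∈ lev L t.k := hR.good.Xlev _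
  -- data at the new state
  have hcf0 : ∀ i, (Place.laurent L).rq (toL L (T i)) = t.X i := by
    intro i
    rw [kpr_rq_toL, hT.zero]
  have hXlev : ∀ i, toL L (T i) ∈ lev L⸨X⸩ (t.k + 1) := by
    intro i
    rw [kpr_toL_mem_lev]
    intro m
    rcases Nat.eq_zero_or_pos m with rfl | hm
    · rw [hT.zero]
      exact kpa_lev_mono (Nat.le_succ _) (hR.good.Xlev i)
    · exact g8_mulE_lev _ _ hR.good.V0V1 hR.good.V1lev _ (hT.mem m hm) i
  have hvlev : ∀ i, v' i ∈ lev L⸨X⸩ (t.k + 1) := by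
    obtain ⟨h1, -⟩ := C_reach s hp.good hp.stable _ _ _ _ _ hreach'
    intro i
    exact h1.V1lev v' (h1.V0V1 hv'.1) i
  have hG : (Place.laurent L).rq (gv (t.grow T)) = gv t := hcf0 (Sum.inr false)
  have hGint : (Place.laurent L).Int (gv (t.grow T)) := kpr_int_toL _
  have hGlev : gv (t.grow T) ∈ lev L⸨X⸩ (t.k + 1) := hXlev _
  have hG0 : gv (t.grow T) ≠ 0 := by
    intro h
    rw [h, (Place.laurent L).rq_zero] at hG
    exact hg0 hG.symm
  obtain ⟨hqint, hqrq⟩ := g8_qinv (Place.laurent L) (gv (t.grow T)) hGint (by rw [hG]; exact hg0)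
  rw [hG] at hqrq
  have hqlev : qinv (gv (t.grow T)) ∈ lev L⸨X⸩ (t.k + 1) :=
    (qinv_spec (t.k + 1) _ hGlev hG0).2.2.1
  -- the derivative of the word
  obtain ⟨hdint, hdrq⟩ := NC.kph_res_d1 (Place.laurent L) (w.map P.inc)
    (fun i => toL L (T (Sum.inl i))) v' (fun i => kpr_int_toL _) hvint
  have hdrq' : (Place.laurent L).rq (((w.map P.inc).map (Place.laurent L).inc).d1
      (fun i => toL L (T (Sum.inl i))) v') = (w.map P.inc).d1 (fun i => t.X (Sum.inl i)) η := by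
    rw [hdrq]
    congr 1
    · funext i
      exact hcf0 (Sum.inl i)
    · funext i
      exact hvrq i
  have hwm : (w.map P.inc).map (Place.laurent L).inc =
      w.map (P.trans (Place.laurent L)).inc := by
    rw [g8_map_map]
    rfl
  rw [hwm] at hdint hdrq'
  have hdlev : (w.map (P.trans (Place.laurent L)).inc).d1 (fun i => toL L (T (Sum.inl i))) v' ∈
      lev L⸨X⸩ (t.k + 1) := NC.kph_d1_mem _ _ _ _ (fun i => hXlev _) hvlev
  -- the argument of the projection
  set Y : QA L⸨X⸩ := qinv (gv (t.grow T)) *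
    (w.map (P.trans (Place.laurent L)).inc).d1 (fun i => toL L (T (Sum.inl i))) v' *
      gv (t.grow T) with hY
  have hell : s.ellh w (P.trans (Place.laurent L)) (t.grow T) v' =
      Pr (t.k + 1) {(P.trans (Place.laurent L)).iq (s.omg w)} Y := rfl
  have hYint : (Place.laurent L).Int Y :=
    (Place.laurent L).int_mul ((Place.laurent L).int_mul hqint hdint) hGint
  have hYrq : (Place.laurent L).rq Y =
      qinv (gv t) * (w.map P.inc).d1 (fun i => t.X (Sum.inl i)) η * gv t := by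
    rw [hY, (Place.laurent L).rq_mul ((Place.laurent L).int_mul hqint hdint) hGint,
      (Place.laurent L).rq_mul hqint hdint, hqrq, hdrq', hG]
  have hYlev : Y ∈ lev L⸨X⸩ (t.k + 1) := mul_mem (mul_mem hqlev hdlev) hGlev
  have hsp := Pr_spec (t.k + 1) {(P.trans (Place.laurent L)).iq (s.omg w)} Y hYlev
  rw [kpr_iq_trans] at hsp
  obtain ⟨h1, h2⟩ := g8_D2 (Place.laurent L) (t.k + 1) (P.iq (s.omg w)) hYint hsp
  have hYlev' : (Place.laurent L).rq Y ∈ lev L (t.k + 1) := (Place.laurent L).rq_lev hYlev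
  have h3 := g8_IsPr_unique _ _ h2 (Pr_spec (t.k + 1) {P.iq (s.omg w)} _ hYlev')
  have h4 : s.ellg w P t (t.k + 1) η =
      Pr (t.k + 1) {P.iq (s.omg w)} ((Place.laurent L).rq Y) := by
    rw [hYrq]
    rfl
  rw [← h4] at h3
  rw [hell, kpr_iq_trans, kpr_int_trans, kpr_rq_trans, h3]
  exact ⟨⟨h1, hint⟩, by rw [hrq, mul_assoc]⟩

end Crest.Agent.KP
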