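import Crest.Agent.KPS_S
import Crest.Agent.KPX_Forget
import Crest.Agent.KP_G0
import Crest.Agent.KP_C
import Crest.Agent.KP_Defs4
import Crest.Agent.KPG_alg1
import Crest.Agent.KPG_qinv
import Crest.Agent.KPG_G5_dir
import Crest.Agent.KPB_q
import Crest.Agent.KPA_Alg

set_option autoImplicit false
set_option linter.unusedSectionVars false

open scoped PowerSeries LaurentSeries symmDiff

namespace Crest.Agent.KP

open Pt

variable {K L I J : Type} [Field K] [KF K] [Field L] [KF L] [Fintype I] [Fintype J]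

private theorem g9_rch_k {K0 I J : Type} [Field K0] [KF K0] [Fintype I] [Fintype J]
    (s0 : Pt K0 I J) (L : Type) (iF : Field L) (iK : KF L) (t : Pt L I J) (P : Place K0 L)
    (h : Rch s0 L iF iK t P) : s0.k ≤ t.k := by
  induction h with
  | refl => exact le_rfl
  | curve K iF iK s P h T hT ih => exact ih
  | grow K iF iK s P h T w1 w2 hT ih => exact ih.trans (Nat.le_succ _)

private theorem g9_ev_lev (k : ℕ) (X : I → QA K) (hX : ∀ i, X i ∈ lev K k) (p : NC K I) :
    p.ev X ∈ lev K k := by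
  induction p with
  | cst c => exact Subalgebra.algebraMap_mem _ c
  | var i => exact hX i
  | add p q hp hq => exact add_mem hp hq
  | mul p q hp hq => exact mul_mem hp hq

private theorem g9_d1_lev (k : ℕ) (X v : I → QA K) (hX : ∀ i, X i ∈ lev K k)
    (hv : ∀ i, v i ∈ lev K k) (p : NC K I) : p.d1 X v ∈ lev K k := by
  induction p with
  | cst c => exact Subalgebra.zero_mem _
  | var i => exact hv i
  | add p q hp hq => exact add_mem hp hq
  | mul p q hp hq =>
    exact add_mem (mul_mem hp (g9_ev_lev k X hX q)) (mul_mem (g9_ev_lev k X hX p) hq)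

private theorem g9_qinv_lev (k : ℕ) (a : QA K) (ha : a ∈ lev K k) : qinv a ∈ lev K k := by
  by_cases h0 : a = 0
  · have : qinv a = 0 := by
      unfold qinv
      rw [dif_neg]
      rintro ⟨v, hv, _⟩
      rw [h0, zero_mul] at hv
      exact zero_ne_one hv
    rw [this]
    exact Subalgebra.zero_mem _
  · exact (qinv_spec k a ha h0).2.2.1

private theorem g9_lev_mono {R : Type} [CommRing R] [QPar R] {k l : ℕ} (h : k ≤ l) :
    lev R k ≤ lev R l := by
  intro u hu g hg
  obtain ⟨h1, h2⟩ := hu g hg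
  refine ⟨fun t ht => ?_, fun t ht => ?_⟩
  · have := h1 ht
    simp only [Set.mem_ofPred_eq] at this ⊢
    omega
  · have := h2 ht
    simp only [Set.mem_ofPred_eq] at this ⊢
    omega

private theorem g9_mid_lev {R : Type} [CommRing R] [QPar R] {k l : ℕ} :
    mid R k l ≤ lev R l := by
  intro u hu g hg
  obtain ⟨h1, h2⟩ := hu g hg
  refine ⟨fun t ht => ?_, fun t ht => ?_⟩
  · have := h1 ht
    simp only [Set.mem_ofPred_eq] at this ⊢
    omega
  · have := h2 ht
    simp only [Set.mem_ofPred_eq] at this ⊢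
    omega

/-- **G9.** (c) from (a),(b) at the same state `t` (curves from `t` in direction `v + v_e`,
`G5_dir`, `lemS1`, `alg1`). -/
theorem G9 (s : Pt K I J) (w : NC K I) (d : ℕ) (hp : s.Pkg w d) (a : QA K)
    (m0 : Submodule K (QA K)) (hx : s.ExtOk w a m0)
    (t : Pt L (I ⊕ Bool) (Option J)) (P : Place K L)
    (ht : Rch (s.ext w a m0) L inferInstance inferInstance t P)
    (hf : fv t = P.iq (s.omg w))
    (hb : ∀ r ∈ s.RR w a, ∀ e ∈ mid K s.k t.k, ∃ v ∈ (s.fgt P t).W,
      P.Int (s.ellh w P t v) ∧ P.rq (s.ellh w P t v) = a * r * e) :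
    ∀ v ∈ (s.fgt P t).W, P.Int (s.ellh w P t v) →
    ∃ u ∈ tE s.k t.k (Subalgebra.toSubmodule (s.K2 w)), P.rq (s.ellh w P t v) = a * u := by
  intro v hv hvI
  have hkl : s.k ≤ t.k := g9_rch_k (s.ext w a m0) L inferInstance inferInstance t P ht
  have hωl : s.omg w ∈ lev K s.k := g9_ev_lev s.k s.X hp.good.Xlev w
  have hK1l : s.K1 w ≤ lev K s.k := Algebra.adjoin_le (by
    intro x hx'
    rw [Set.mem_singleton_iff] at hx'
    rw [hx']
    exact hωl)
  have hK1c : ∀ x ∈ s.K1 w, x * s.omg w = s.omg w * x := by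
    intro x hx'
    have hle : s.K1 w ≤ Subalgebra.centralizer K ({s.omg w} : Set (QA K)) := by
      apply Algebra.adjoin_le
      intro z hz
      rw [Set.mem_singleton_iff] at hz
      rw [hz, SetLike.mem_coe, Subalgebra.mem_centralizer_iff]
      intro g hg
      rw [Set.mem_singleton_iff] at hg
      rw [hg]
    have := hle hx'
    rw [Subalgebra.mem_centralizer_iff] at this
    exact (this _ rfl).symm
  have hLK : ∀ x ∈ s.LL w, x ∈ s.K1 w := fun x hx' => hp.comm hx'
  have hqK : ∀ x ∈ s.K1 w, x ≠ 0 → qinv x ∈ s.K1 w := by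
    intro x hx' hx0
    have hle : Algebra.adjoin K ({x} : Set (QA K)) ≤ s.K1 w := Algebra.adjoin_le (by
      intro y hy
      rw [Set.mem_singleton_iff] at hy
      rw [hy]
      exact hx')
    exact hle (qinv_spec s.k x (hK1l hx') hx0).2.2.2
  have hK2 : s.K2 w ≤ Algebra.adjoin K ({s.omg w} : Set (QA K)) := by
    apply Algebra.adjoin_le
    rintro x ⟨hxl, b, hb1, hb0, hb2⟩
    have h1 := hqK b (hLK b hb1) hb0
    have h2 := mul_mem (hLK _ hb2) h1
    rw [mul_assoc, (qinv_spec s.k b (hK1l (hLK b hb1)) hb0).1, mul_one] at h2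
    exact h2
  have hreach := _root_.Crest.Agent.KP.kpx_ext_forget s w a m0 hx L inferInstance inferInstance t P ht
  obtain ⟨hGt, -, -⟩ := C_reach s hp.good hp.stable L inferInstance inferInstance (s.fgt P t) P hreach
  have hgl : gv t ∈ lev L t.k := by
    obtain ⟨T', g, h, hS⟩ := G5_dir s w d hp a m0 hx t P ht hf v hv
    rw [← hS.g0]
    exact hS.glev 0
  have hpr : ∀ v' ∈ (s.fgt P t).W, s.ellh w P t v' ∈ lev L t.k ∧
      s.ellh w P t v' * P.iq (s.omg w) = P.iq (s.omg w) * s.ellh w P t v' := by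
    intro v' hv'
    have hvl : ∀ i, v' i ∈ lev L t.k := hGt.V1lev v' (hGt.V0V1 hv'.1)
    have hd : (w.map P.inc).d1 (fun i => t.X (Sum.inl i)) v' ∈ lev L t.k :=
      g9_d1_lev t.k _ _ (fun i => hGt.Xlev i) hvl _
    have hin : qinv (gv t) * (w.map P.inc).d1 (fun i => t.X (Sum.inl i)) v' * gv t ∈ lev L t.k :=
      mul_mem (mul_mem (g9_qinv_lev t.k _ hgl) hd) hgl
    obtain ⟨h1, h2, -⟩ := Pr_spec t.k ({P.iq (s.omg w)} : Set (QA L)) _ hin
    exact ⟨h1, h2 _ rfl⟩
  have haK : a ∈ s.K1 w := hLK a hx.aL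
  obtain ⟨hi1, hi2, hi3, hi4⟩ := qinv_spec s.k a (hK1l haK) hx.a0
  have hiK : qinv a ∈ s.K1 w := hqK a haK hx.a0
  obtain ⟨hφl, hφc⟩ := hpr v hv
  have hrl : P.rq (s.ellh w P t v) ∈ lev K t.k := P.rq_lev hφl
  have hrc : P.rq (s.ellh w P t v) * s.omg w = s.omg w * P.rq (s.ellh w P t v) := by
    have h1 := congrArg P.rq hφc
    rwa [P.rq_mul hvI (P.int_iq _), P.rq_mul (P.int_iq _) hvI, P.rq_iq] at h1
  have hau : a * (qinv a * P.rq (s.ellh w P t v)) = P.rq (s.ellh w P t v) := by
    rw [← mul_assoc, hi1, one_mul]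
  refine ⟨qinv a * P.rq (s.ellh w P t v), ?_, hau.symm⟩
  have hul : qinv a * P.rq (s.ellh w P t v) ∈ lev K t.k := mul_mem (g9_lev_mono hkl hi3) hrl
  have huc : (qinv a * P.rq (s.ellh w P t v)) * s.omg w =
      s.omg w * (qinv a * P.rq (s.ellh w P t v)) := by
    rw [mul_assoc, hrc, ← mul_assoc, hK1c _ hiK, mul_assoc]
  refine alg1 s.k t.k hkl (s.omg w) hωl (s.K2 w) hK2 _ hul huc ?_
  intro e he _ θ hdim
  have h1R : (1 : QA K) ∈ s.RR w a := by
    refine ⟨one_mem (s.K2 w), ?_⟩
    show a * 1 ∈ s.LL w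
    rw [mul_one]
    exact hx.aL
  obtain ⟨ve, hve, hveI, hver⟩ := hb 1 h1R (θ • e) (Subalgebra.smul_mem _ he θ)
  rw [mul_one] at hver
  obtain ⟨T', g, h, hS⟩ := G5_dir s w d hp a m0 hx t P ht hf (v + ve) (Submodule.add_mem _ hv hve)
  have heω : e * s.omg w = s.omg w * e := (kpa_lev_mid_comm hωl he).symm
  have hH : s.SHyp w a P t T' t.k g h 1 1 (s.ellh w P t (v + ve))
      (qinv a * P.rq (s.ellh w P t v) + θ • e) :=
    { step := hS.step
      f := hf
      b := hb
      glev := hS.glev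
      g0 := hS.g0
      hlev := hS.hlev
      gh := hS.gh
      h0 := hS.h0
      δ1 := hS.δ1
      hm := hS.hm
      hδ := by rw [one_smul]; exact hS.hδ
      p0 := one_ne_zero
      Gint := by rw [map_add]; exact P.int_add hvI hveI
      Gres := by rw [map_add, P.rq_add hvI hveI, hver, mul_add, hau]
      rblev := add_mem hul (Subalgebra.smul_mem _ (g9_mid_lev he) θ)
      rbcomm := by
        rw [add_mul, mul_add, huc, smul_mul_assoc, mul_smul_comm, heω]
      dim := hdim }
  exact lemS1 s w d hp a m0 hx t P ht T' t.k g h 1 1 _ _ hH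

end Crest.Agent.KP
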