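import Crest.Agent.KPG_Q7
import Crest.Agent.KPG_D5

/-!
# S0270, part (G)-algebra (author helper47): consequences
-/

set_option autoImplicit false
set_option linter.unusedSectionVars false

open scoped symmDiff
open Module

namespace Crest.Agent.KP

variable {K : Type} [Field K] [KF K]

/-- (G3) `dim Φ[q] = dim Φ * 2^(l-k0)`. -/
theorem kpg_qs_finrank {k0 l : ℕ} (hl : k0 ≤ l) (Φ : Subalgebra K (QA K)) (hΦ : Φ ≤ lev K k0)
    (hc : Comm Φ) {ρ : QA K} (hρ : ρ ∈ Φ) :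
    finrank K (adj Φ (qs ρ k0 (l - k0))) = finrank K Φ * 2 ^ (l - k0) := by
  rw [kpg_adj_qs Φ hΦ hc hρ (l - k0)]
  exact (kpg_QL_basic Φ hΦ hc hρ (l - k0)).2.2.2.2

/-- `Φ[r0 + θ q] = Φ[q]` for `r0 ∈ Φ`, `θ ≠ 0`. -/
theorem kpg_adj_shift (Φ : Subalgebra K (QA K)) {r0 q : QA K} (hr : r0 ∈ Φ) {θ : K}
    (hθ : θ ≠ 0) : adj Φ (r0 + θ • q) = adj Φ q := by
  apply le_antisymm
  · refine kpg_adj_le kpg_le_adj ?_
    exact (adj Φ q).add_mem (kpg_le_adj hr) ((adj Φ q).smul_mem kpg_mem_adj θ)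
  · refine kpg_adj_le kpg_le_adj ?_
    have h1 : q = θ⁻¹ • ((r0 + θ • q) - r0) := by
      rw [add_sub_cancel_left, smul_smul, inv_mul_cancel₀ hθ, one_smul]
    rw [h1]
    refine (adj Φ (r0 + θ • θ⁻¹ • (r0 + θ • q - r0))).smul_mem ?_ _
    rw [← h1]
    exact (adj Φ (r0 + θ • q)).sub_mem kpg_mem_adj (kpg_le_adj hr)

private theorem kpg_m1_bot_comm : Comm (⊥ : Subalgebra K (QA K)) := by
  intro a ha b _
  obtain ⟨c, rfl⟩ := Algebra.mem_bot.1 ha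
  exact Algebra.commutes c b

private theorem kpg_m1_adj_bot (e : QA K) :
    adj (⊥ : Subalgebra K (QA K)) e = Algebra.adjoin K ({e} : Set (QA K)) := by
  apply le_antisymm
  · exact kpg_adj_le bot_le (Algebra.subset_adjoin (Set.mem_singleton e))
  · exact Algebra.adjoin_le (Set.singleton_subset_iff.2 kpg_mem_adj)

/-- maximal subfields of `mid`: `e0 = ∑ i_i` (i.e. `qs` with `Φ = ⊥`, `ρ = 0`). -/
theorem kpg_exists_e0 {k0 l : ℕ} (hl : k0 ≤ l) :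
    ∃ e ∈ mid K k0 l, finrank K (Algebra.adjoin K ({e} : Set (QA K))) = 2 ^ (l - k0) := by
  refine ⟨qs 0 k0 (l - k0), ?_, ?_⟩
  · unfold qs
    refine Subalgebra.sum_mem _ fun i hi => ?_
    rw [Finset.mem_range] at hi
    unfold qi
    rw [zero_mul, add_zero]
    exact kpa_mid_mono (by omega) (by omega) (kpa_S1_mem (k0 + i))
  · rw [← kpg_m1_adj_bot, kpg_qs_finrank hl ⊥ bot_le kpg_m1_bot_comm (zero_mem _),
      Subalgebra.finrank_bot, one_mul]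

/-- upper bound: `K[e]` (`e ∈ mid k0 l`) has dimension `≤ 2^(l-k0)`: with `Φ0 = QL ⊥ 0 0 k0 ≤ lev k0` of
dimension `2^k0`, `Φ0[e]` is commutative in `lev l`, of dimension `2^k0 * dim K[e] ≤ 2^l`
(`kpg_comm_le`, `kpg_adj_mid_finrank`). -/
theorem kpg_mid_le_two {k0 l : ℕ} (hl : k0 ≤ l) {e : QA K} (he : e ∈ mid K k0 l) :
    finrank K (Algebra.adjoin K ({e} : Set (QA K))) ≤ 2 ^ (l - k0) := by
  obtain ⟨_, h2, h3, _, h5⟩ := kpg_QL_basic (k0 := 0) (⊥ : Subalgebra K (QA K)) bot_le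
    kpg_m1_bot_comm (zero_mem _) k0
  rw [Nat.zero_add] at h2
  rw [Subalgebra.finrank_bot, one_mul] at h5
  have h6 : Comm (adj (QL (⊥ : Subalgebra K (QA K)) 0 0 k0) e) :=
    kpg_adj_comm h3 fun φ hφ => kpg_comm (h2 hφ) he
  have h7 : adj (QL (⊥ : Subalgebra K (QA K)) 0 0 k0) e ≤ lev K l :=
    kpg_adj_le (h2.trans (kpg_lev_mono hl)) (kpg_mid_le he)
  have h8 := kpg_comm_le _ h7 h6
  rw [kpg_adj_mid_finrank h2 he, h5] at h8
  have h9 : 2 ^ l = 2 ^ k0 * 2 ^ (l - k0) := by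
    rw [← pow_add]
    congr 1
    omega
  rw [h9] at h8
  exact Nat.le_of_mul_le_mul_left h8 (by positivity)

end Crest.Agent.KP
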