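import Crest.Agent.KPG_M1
import Crest.Agent.KPR_Main

/-!
# S0270, part (G)-algebra (author helper47): OPEN and PERT in the form needed here (from helper93)
-/

set_option autoImplicit false
set_option linter.unusedSectionVars false

open scoped symmDiff
open Module

namespace Crest.Agent.KP

variable {K : Type} [Field K] [KF K]

/-- OPEN on the line `e + c u`, special case needed here: the dimension of `Φ[e + c u]` is at least the
dimension of `Φ[e]` for all but finitely many `c`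
(helper93's OPEN; `Φ ≤ lev k0`, `e,u ∈ lev l` commuting with `Φ`). -/
theorem kpg_open_line {k0 l : ℕ} (hl : k0 ≤ l) (Φ : Subalgebra K (QA K)) (hΦ : Φ ≤ lev K k0)
    (hc : Comm Φ) {e u : QA K} (he : e ∈ lev K l) (hu : u ∈ lev K l)
    (hec : ∀ φ ∈ Φ, φ * e = e * φ) (huc : ∀ φ ∈ Φ, φ * u = u * φ) :
    {c : K | ¬ finrank K (adj Φ e) ≤ finrank K (adj Φ (e + c • u))}.Finite := by
  have h := kpr_open_qa l Φ (fun x hx => kpa_lev_mono hl (hΦ hx)) e u he hu hec
  exact h.subset fun c hc' => lt_of_not_ge hc'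

/-- PERT (helper93): if `dim Φ[e + c u] ≤ dim Φ[e]` for infinitely many `c`, then
`E_{Φ[e]}(u) ∈ Φ[e]`. -/
theorem kpg_pert {k0 l : ℕ} (hl : k0 ≤ l) (Φ : Subalgebra K (QA K)) (hΦ : Φ ≤ lev K k0)
    (hc : Comm Φ) {e u : QA K} (he : e ∈ lev K l) (hu : u ∈ lev K l)
    (hec : ∀ φ ∈ Φ, φ * e = e * φ) (huc : ∀ φ ∈ Φ, φ * u = u * φ)
    (H : {c : K | finrank K (adj Φ (e + c • u)) ≤ finrank K (adj Φ e)}.Infinite) :
    Pr l ((Φ : Set (QA K)) ∪ {e}) u ∈ adj Φ e :=
  kpr_pert_qa l Φ (fun x hx => kpa_lev_mono hl (hΦ hx)) hc e u he hu hec huc H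

end Crest.Agent.KP
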