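import Crest.Agent.KPG_M2

/-!
# S0270, part (G)-algebra (author helper47): T1 and spanning
-/

set_option autoImplicit false
set_option linter.unusedSectionVars false

open scoped symmDiff
open Module

namespace Crest.Agent.KP

variable {K : Type} [Field K] [KF K]

/-- `Φ[u + θ e] = Φ[e + θ⁻¹ u]` -/
theorem kpg_adj_swap (Φ : Subalgebra K (QA K)) (e u : QA K) {θ : K} (hθ : θ ≠ 0) :
    adj Φ (u + θ • e) = adj Φ (e + θ⁻¹ • u) := by
  apply le_antisymm
  · refine kpg_adj_le kpg_le_adj ?_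
    have h1 : u + θ • e = θ • (e + θ⁻¹ • u) := by
      rw [smul_add, smul_smul, mul_inv_cancel₀ hθ, one_smul, add_comm]
    rw [h1]
    exact (adj Φ (e + θ⁻¹ • u)).smul_mem kpg_mem_adj θ
  · refine kpg_adj_le kpg_le_adj ?_
    have h1 : e + θ⁻¹ • u = θ⁻¹ • (u + θ • e) := by
      rw [smul_add, smul_smul, inv_mul_cancel₀ hθ, one_smul, add_comm]
    rw [h1]
    exact (adj Φ (u + θ • e)).smul_mem kpg_mem_adj θ⁻¹

/-- (T1, export) for `e ∈ mid k0 l` with `dim K[e] = 2^(l-k0)` and `u ∈ lev l` commuting with `Φ`: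
`dim Φ[u + θ e] ≥ dim Φ * 2^(l-k0)` for all but finitely many `θ`
(`Φ[u + θ e] = Φ[e + θ⁻¹ u]`, `kpg_open_line`, `kpg_adj_mid_finrank`). -/
theorem kpg_open {k0 l : ℕ} (hl : k0 ≤ l) (Φ : Subalgebra K (QA K)) (hΦ : Φ ≤ lev K k0)
    (hc : Comm Φ) {e u : QA K} (he : e ∈ mid K k0 l)
    (hQ : finrank K (Algebra.adjoin K ({e} : Set (QA K))) = 2 ^ (l - k0))
    (hu : u ∈ lev K l) (huc : ∀ φ ∈ Φ, φ * u = u * φ) :
    {θ : K | ¬ finrank K Φ * 2 ^ (l - k0) ≤ finrank K (adj Φ (u + θ • e))}.Finite := by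
  have h1 := kpg_open_line hl Φ hΦ hc (kpg_mid_le he) hu (fun φ hφ => kpg_comm (hΦ hφ) he) huc
  refine ((h1.image (fun c : K => c⁻¹)).union (Set.finite_singleton (0 : K))).subset ?_
  intro θ hθ
  by_cases h0 : θ = 0
  · exact Or.inr h0
  · left
    refine ⟨θ⁻¹, ?_, inv_inv θ⟩
    change ¬ finrank K (adj Φ e) ≤ finrank K (adj Φ (e + θ⁻¹ • u))
    rw [← kpg_adj_swap Φ e u h0, kpg_adj_mid_finrank hΦ he, hQ]
    exact hθ

/-- such `e` span `mid k0 l`: for `u ∈ mid`, `e0 + c u` has `dim K[e0 + c u] = 2^(l-k0)` for some `c ≠ 0`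
(`kpg_open_line` with `Φ = ⊥`, `kpg_mid_le_two`); `u = c⁻¹ ((e0 + c u) - e0)`. -/
theorem kpg_span_e {k0 l : ℕ} (hl : k0 ≤ l) {u : QA K} (hu : u ∈ mid K k0 l) :
    u ∈ Submodule.span K {e : QA K | e ∈ mid K k0 l ∧
      finrank K (Algebra.adjoin K ({e} : Set (QA K))) = 2 ^ (l - k0)} := by
  obtain ⟨e0, he0, hd0⟩ := kpg_exists_e0 (K := K) hl
  have hbot : ∀ x : QA K, adj (⊥ : Subalgebra K (QA K)) x = Algebra.adjoin K {x} := by
    intro x
    apply le_antisymm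
    · exact kpg_adj_le bot_le (Algebra.self_mem_adjoin_singleton K x)
    · exact Algebra.adjoin_le (Set.singleton_subset_iff.2 kpg_mem_adj)
  have hbc : ∀ x : QA K, ∀ φ ∈ (⊥ : Subalgebra K (QA K)), φ * x = x * φ := by
    intro x φ hφ
    obtain ⟨c, rfl⟩ := Algebra.mem_bot.1 hφ
    exact Algebra.commutes c x
  have h1 := kpg_open_line hl (⊥ : Subalgebra K (QA K)) bot_le
    (fun a ha b _ => hbc b a ha) (kpg_mid_le he0) (kpg_mid_le hu) (hbc e0) (hbc u)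
  have h2 : ∃ c : K, c ∉ {c : K | ¬ finrank K (adj (⊥ : Subalgebra K (QA K)) e0) ≤
      finrank K (adj (⊥ : Subalgebra K (QA K)) (e0 + c • u))} ∪ {0} := by
    have h3 := (h1.union (Set.finite_singleton (0 : K))).infinite_compl
    exact h3.nonempty
  obtain ⟨c, hc⟩ := h2
  have hc1 : finrank K (adj (⊥ : Subalgebra K (QA K)) e0) ≤
      finrank K (adj (⊥ : Subalgebra K (QA K)) (e0 + c • u)) := by
    by_contra h3
    exact hc (Or.inl h3)
  have hc0 : c ≠ 0 := fun h3 => hc (Or.inr h3)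
  rw [hbot, hbot, hd0] at hc1
  have hm1 : e0 + c • u ∈ mid K k0 l := add_mem he0 ((mid K k0 l).smul_mem hu c)
  have hd1 : finrank K (Algebra.adjoin K ({e0 + c • u} : Set (QA K))) = 2 ^ (l - k0) :=
    le_antisymm (kpg_mid_le_two hl hm1) hc1
  have h4 : u = c⁻¹ • ((e0 + c • u) - e0) := by
    rw [add_sub_cancel_left, smul_smul, inv_mul_cancel₀ hc0, one_smul]
  rw [h4]
  exact Submodule.smul_mem _ _ (sub_mem (Submodule.subset_span ⟨hm1, hd1⟩)
    (Submodule.subset_span ⟨he0, hd0⟩))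

end Crest.Agent.KP
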