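import Crest.Agent.KPG_M1

/-!
# S0270, part (G)-algebra (author helper47): pairing and projections
-/

set_option autoImplicit false
set_option linter.unusedSectionVars false

open scoped symmDiff
open Module

namespace Crest.Agent.KP

variable {K : Type} [Field K] [KF K]

/-- projection identity: `S ⊆ K1[q]` (commutative), `c` the projection of `a v` on the centralizer of `S`,
`b = a⁻¹ ∈ K1`, `x ∈ K1[q]`: `tr (b c x) = tr (v x)` (because `x b` centralizes `S`). -/
theorem kpg_pr_pair {l : ℕ} (Ψ : Subalgebra K (QA K)) (hΨ : Ψ ≤ lev K l) (hc : Comm Ψ)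
    (S : Set (QA K)) (hS : S ⊆ Ψ) {a b v c x : QA K} (hb : b ∈ Ψ) (hba : b * a = 1)
    (hx : x ∈ Ψ) (h : IsPr l S (a * v) c) : QA.tr (b * c * x) = QA.tr (v * x) := by
  have h1 := h.2.2 (x * b) (hΨ (mul_mem hx hb))
    (fun φ hφ => hc _ (mul_mem hx hb) _ (hS hφ))
  rw [sub_mul, map_sub, sub_eq_zero] at h1
  have h2 : QA.tr (b * c * x) = QA.tr (c * (x * b)) := by
    rw [mul_assoc b c x, kpa_tr_comm b (c * x), mul_assoc]
  have h3 : QA.tr (a * v * (x * b)) = QA.tr (v * x) := by
    have h4 : a * v * (x * b) = a * (v * x) * b := by noncomm_ring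
    rw [h4, kpa_tr_comm, ← mul_assoc, hba, one_mul]
  rw [h2, ← h1, h3]

end Crest.Agent.KP
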