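import Crest.Agent.KPG_Q2

/-!
# S0270, part (G)-algebra (author helper47): (F2)
-/

set_option autoImplicit false
set_option linter.unusedSectionVars false

open scoped symmDiff
open Module

namespace Crest.Agent.KP

variable {K : Type} [Field K] [KF K]

private theorem q3_trS (k : ℕ) : QA.tr (S1 k : QA K) = 0 ∧ QA.tr (S2 k : QA K) = 0 ∧
    QA.tr (S3 k : QA K) = 0 := by
  refine ⟨?_, ?_, ?_⟩
  · unfold S1
    rw [QA.e_eq_ec, kpa_tr_ec, if_neg]
    simp
  · unfold S2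
    rw [QA.e_eq_ec, kpa_tr_ec, if_neg]
    simp
  · unfold S3
    rw [QA.e_eq_ec, kpa_tr_ec, if_neg]
    simp

/-- (F2) `x ∈ QL`, `tr (x * (r * e)) = 0` for all `r ∈ R`, `e ∈ mid k0 (k0+h)`; then `x ∈ Φ` (and
`tr (x * r) = 0` on `R`: take `e = 1`).
Induction on `h`: `x = x0 + x1 * q`, `q = S1 + ρ S2` at level `k = k0+h`. Test with `e * S1 k`,
`e ∈ mid k0 (k0+h)`: `tr (x r e S1) = α tr (x1 r e)`; test with `e * S2 k`: `β tr (x1 ρ r e)`.
So `tr (x1 (φ e)) = 0` for all `φ ∈ R + ρ R = Φ`, `e ∈ mid`, i.e. `tr (x1 z) = 0` for all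
`z ∈ tE Φ ∋ x1`; by `kpg_nondeg_tE` `x1 = 0`. Then `x = x0 ∈ QL h` and induction. -/
theorem kpg_QL_F2 {k0 : ℕ} (Φ : Subalgebra K (QA K)) (hΦ : Φ ≤ lev K k0) (hc : Comm Φ)
    {ρ : QA K} (hρ : ρ ∈ Φ) (R : Submodule K (QA K)) (hR : R ≤ Subalgebra.toSubmodule Φ)
    (hRρ : ∀ u ∈ Φ, ∃ r1 ∈ R, ∃ r2 ∈ R, u = r1 + ρ * r2) (h : ℕ) {x : QA K}
    (hx : x ∈ QL Φ ρ k0 h)
    (H : ∀ r ∈ R, ∀ e ∈ mid K k0 (k0 + h), QA.tr (x * (r * e)) = 0) : x ∈ Φ := by
  induction h generalizing x with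
  | zero => exact hx
  | succ h ih =>
    obtain ⟨hb1, hb2, hb3, hb4, _⟩ := kpg_QL_basic Φ hΦ hc hρ h
    have hρΨ : ρ ∈ QL Φ ρ k0 h := hb1 hρ
    have hx' : x ∈ adj (QL Φ ρ k0 h) (qi ρ (k0 + h)) := hx
    rw [kpg_step_mem (QL Φ ρ k0 h) hb2 hb3 hρΨ] at hx'
    obtain ⟨x0, hx0, x1, hx1, hxe⟩ := hx'
    set k := k0 + h with hk
    have hx0l := hb2 hx0
    have hx1l := hb2 hx1
    have hρl := hb2 hρΨ
    have hRl : ∀ r ∈ R, r ∈ lev K k := fun r hr => hb2 (hb1 (hR hr))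
    have hel : ∀ e ∈ mid K k0 k, e ∈ lev K k := fun e he => kpg_mid_le he
    have hemid : ∀ e ∈ mid K k0 k, e ∈ mid K k0 (k + 1) := fun e he => kpg_mid_mono (Nat.le_succ k) he
    have hS1m : (S1 k : QA K) ∈ mid K k0 (k + 1) :=
      kpa_mid_mono (by omega : k0 ≤ k) le_rfl (kpa_S1_mem k)
    have hS2m : (S2 k : QA K) ∈ mid K k0 (k + 1) :=
      kpa_mid_mono (by omega : k0 ≤ k) le_rfl (kpa_S2_mem k)
    have hc1 : ∀ u ∈ lev K k, (S1 k : QA K) * u = u * S1 k := fun u hu =>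
      (kpa_lev_mid_comm hu (kpa_S1_mem k)).symm
    have hc2 : ∀ u ∈ lev K k, (S2 k : QA K) * u = u * S2 k := fun u hu =>
      (kpa_lev_mid_comm hu (kpa_S2_mem k)).symm
    have ht1 : ∀ u ∈ lev K k, QA.tr (u * S1 k) = 0 := fun u hu => by
      rw [kpa_tr_lev_mid hu (kpa_S1_mem k), (q3_trS k).1, mul_zero]
    have ht2 : ∀ u ∈ lev K k, QA.tr (u * S2 k) = 0 := fun u hu => by
      rw [kpa_tr_lev_mid hu (kpa_S2_mem k), (q3_trS k).2.1, mul_zero]
    have ht3 : ∀ u ∈ lev K k, QA.tr (u * S3 k) = 0 := fun u hu => by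
      rw [kpa_tr_lev_mid hu (kpa_S3_mem k), (q3_trS k).2.2, mul_zero]
    have hal : (al k : K) ≠ 0 := KF.al_ne k
    have hbe : (be k : K) ≠ 0 := KF.be_ne k
    -- the two tests
    have T1 : ∀ r ∈ R, ∀ e ∈ mid K k0 k, QA.tr (x1 * (r * e)) = 0 := by
      intro r hr e he
      have h1 := H r hr (e * S1 k) (mul_mem (hemid e he) hS1m)
      have hre : r * e ∈ lev K k := mul_mem (hRl r hr) (hel e he)
      have e1 : x * (r * (e * S1 k)) = x0 * (r * e) * S1 k +
          ((al k : K) • (x1 * (r * e)) - x1 * ρ * (r * e) * S3 k) := by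
        rw [hxe]
        unfold qi
        calc (x0 + x1 * (S1 k + ρ * S2 k)) * (r * (e * S1 k))
            = x0 * (r * e) * S1 k + (x1 * (S1 k * (r * e)) * S1 k +
              x1 * ρ * (S2 k * (r * e)) * S1 k) := by noncomm_ring
          _ = x0 * (r * e) * S1 k + (x1 * (r * e) * (S1 k * S1 k) +
              x1 * ρ * (r * e) * (S2 k * S1 k)) := by
              rw [hc1 _ hre, hc2 _ hre]; noncomm_ring
          _ = _ := by
              rw [kpa_S1_mul_S1, kpa_S2_mul_S1, mul_smul_comm, mul_one]; noncomm_ring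
      rw [e1, map_add, map_sub, map_smul, ht1 _ (mul_mem hx0l hre),
        ht3 _ (mul_mem (mul_mem hx1l hρl) hre), zero_add, sub_zero, smul_eq_mul] at h1
      exact (mul_eq_zero.1 h1).resolve_left hal
    have T2 : ∀ r ∈ R, ∀ e ∈ mid K k0 k, QA.tr (x1 * (ρ * r * e)) = 0 := by
      intro r hr e he
      have h1 := H r hr (e * S2 k) (mul_mem (hemid e he) hS2m)
      have hre : r * e ∈ lev K k := mul_mem (hRl r hr) (hel e he)
      have e1 : x * (r * (e * S2 k)) = x0 * (r * e) * S2 k +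
          (x1 * (r * e) * S3 k + (be k : K) • (x1 * (ρ * r * e))) := by
        rw [hxe]
        unfold qi
        calc (x0 + x1 * (S1 k + ρ * S2 k)) * (r * (e * S2 k))
            = x0 * (r * e) * S2 k + (x1 * (S1 k * (r * e)) * S2 k +
              x1 * ρ * (S2 k * (r * e)) * S2 k) := by noncomm_ring
          _ = x0 * (r * e) * S2 k + (x1 * (r * e) * (S1 k * S2 k) +
              x1 * ρ * (r * e) * (S2 k * S2 k)) := by
              rw [hc1 _ hre, hc2 _ hre]; noncomm_ring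
          _ = _ := by
              rw [kpa_S1_mul_S2, kpa_S2_mul_S2, mul_smul_comm, mul_one]
              congr 2
              noncomm_ring
      rw [e1, map_add, map_add, map_smul, ht2 _ (mul_mem hx0l hre),
        ht3 _ (mul_mem hx1l hre), zero_add, zero_add, smul_eq_mul] at h1
      exact (mul_eq_zero.1 h1).resolve_left hbe
    have hx1z : x1 = 0 := by
      refine kpg_nondeg_tE (k := k0) (l := k) (by omega) Φ hΦ (hb4 hx1) ?_
      intro b hb
      unfold tE at hb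
      induction hb using Submodule.span_induction with
      | mem u hu =>
        obtain ⟨φ, hφ, e, he, rfl⟩ := hu
        obtain ⟨r1, hr1, r2, hr2, rfl⟩ := hRρ φ hφ
        rw [add_mul, mul_add, map_add, T1 r1 hr1 e he, T2 r2 hr2 e he, add_zero]
      | zero => rw [mul_zero, map_zero]
      | add u v _ _ hu hv => rw [mul_add, map_add, hu, hv, add_zero]
      | smul c u _ hu => rw [mul_smul_comm, map_smul, hu, smul_zero]
    have hx00 : x = x0 := by rw [hxe, hx1z, zero_mul, add_zero]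
    rw [hx00]
    refine ih hx0 ?_
    intro r hr e he
    have := H r hr e (hemid e he)
    rwa [hx00] at this

end Crest.Agent.KP
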