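import Crest.Agent.KPG_M6
import Crest.Agent.KPG_Q3

/-!
# S0270, part (G)-algebra: common part of M7, M8 (helper62)
-/

set_option autoImplicit false
set_option linter.unusedSectionVars false

open scoped symmDiff
open Module

namespace Crest.Agent.KP

variable {K : Type} [Field K] [KF K]

/-- nondegenerate trace form on `P`, `R`, `Z` orthogonal subspaces: `dim R + dim Z ≤ dim P`. -/
theorem kpg_orth_dim (P R Z : Submodule K (QA K)) [FiniteDimensional K P]
    (hR : R ≤ P) (hZ : Z ≤ P)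
    (hnd : ∀ a ∈ P, (∀ b ∈ P, QA.tr (a * b) = 0) → a = 0)
    (h : ∀ r ∈ R, ∀ z ∈ Z, QA.tr (r * z) = 0) :
    finrank K R + finrank K Z ≤ finrank K P := by
  classical
  -- the pairing map
  let f : R →ₗ[K] Dual K P :=
    { toFun := fun r => (QA.tr.comp (LinearMap.mulLeft K (r : QA K))).comp P.subtype
      map_add' := by
        intro r s
        ext x
        simp [add_mul]
      map_smul' := by
        intro c r
        ext x
        simp }
  have hf : Function.Injective f := by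
    rw [← LinearMap.ker_eq_bot, LinearMap.ker_eq_bot']
    intro r hr
    have h1 : (r : QA K) = 0 := by
      refine hnd r (hR r.2) fun b hb => ?_
      have := LinearMap.congr_fun hr (⟨b, hb⟩ : P)
      simpa [f] using this
    exact Subtype.ext h1
  let Z' : Submodule K P := Z.comap P.subtype
  have hrange : LinearMap.range f ≤ Z'.dualAnnihilator := by
    rintro _ ⟨r, rfl⟩
    rw [Submodule.mem_dualAnnihilator]
    intro z hz
    have hz' : (z : QA K) ∈ Z := hz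
    have := h r r.2 z hz'
    simpa [f] using this
  have h1 : finrank K R = finrank K (LinearMap.range f) := (LinearMap.finrank_range_of_inj hf).symm
  have h2 : finrank K (LinearMap.range f) ≤ finrank K Z'.dualAnnihilator :=
    Submodule.finrank_mono hrange
  have h3 : finrank K Z' + finrank K Z'.dualAnnihilator = finrank K P :=
    Subspace.finrank_add_finrank_dualAnnihilator_eq Z'
  have h4 : finrank K Z' = finrank K Z := by
    exact (Submodule.comapSubtypeEquivOfLe hZ).finrank_eq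
  omega

/-- a finite-dimensional subspace of a level. -/
theorem kpg_fd_of_le {l : ℕ} {V : Submodule K (QA K)}
    (h : V ≤ Subalgebra.toSubmodule (lev K l)) : FiniteDimensional K V := by
  have : FiniteDimensional K (Subalgebra.toSubmodule (lev K l)) := kpg_fin_lev l
  exact Submodule.finiteDimensional_of_le h

theorem kpg_tr_S1 (i : ℕ) : QA.tr (S1 i : QA K) = 0 := by
  unfold S1
  rw [QA.e_eq_ec, kpa_tr_ec, if_neg]
  intro h
  simpa using congrArg Prod.fst h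

theorem kpg_tr_S2 (i : ℕ) : QA.tr (S2 i : QA K) = 0 := by
  unfold S2
  rw [QA.e_eq_ec, kpa_tr_ec, if_neg]
  intro h
  simpa using congrArg Prod.snd h

theorem kpg_S1_mid {k l i : ℕ} (h1 : k ≤ i) (h2 : i < l) : (S1 i : QA K) ∈ mid K k l := by
  refine kpg_e_mem_mid ?_ ?_
  · intro n hn
    simp only [Finset.mem_singleton] at hn
    subst hn
    exact ⟨h1, h2⟩
  · intro n hn
    simp at hn

theorem kpg_S2_mid {k l i : ℕ} (h1 : k ≤ i) (h2 : i < l) : (S2 i : QA K) ∈ mid K k l := by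
  refine kpg_e_mem_mid ?_ ?_
  · intro n hn
    simp at hn
  · intro n hn
    simp only [Finset.mem_singleton] at hn
    subst hn
    exact ⟨h1, h2⟩

/-- `tr (q x) = 0` for `x ∈ lev k0`. -/
theorem kpg_tr_qs {k0 : ℕ} {ρ x : QA K} (hρ : ρ ∈ lev K k0) (hx : x ∈ lev K k0) (h : ℕ) :
    QA.tr (qs ρ k0 h * x) = 0 := by
  unfold qs
  rw [Finset.sum_mul, map_sum]
  refine Finset.sum_eq_zero fun i hi => ?_
  have hi' := Finset.mem_range.1 hi
  rw [qi, add_mul, map_add, ← kpg_tr_ptr k0 (S1 (k0 + i) * x), ← kpg_tr_ptr k0 (ρ * S2 (k0 + i) * x),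
    kpg_ptr_right hx, kpg_ptr_right hx, kpg_ptr_left hρ,
    kpg_ptr_mid (kpg_S1_mid (l := k0 + h) (Nat.le_add_right k0 i) (by omega)),
    kpg_ptr_mid (kpg_S2_mid (l := k0 + h) (Nat.le_add_right k0 i) (by omega)),
    kpg_tr_S1, kpg_tr_S2]
  simp

/-- common set-up of M7, M8: `Ψ = Φ[q]`, `Λ' = a⁻¹ Λ`, `Z = {x ∈ Ψ | tr (Λ' x) = 0}`. -/
theorem kpg_lower_setup {k0 l : ℕ} (hl : k0 ≤ l) (Φ K1 : Subalgebra K (QA K)) (hΦ1 : Φ ≤ K1)
    (hK1 : K1 ≤ lev K k0) (hc : Comm K1) {ρ : QA K} (hρ : ρ ∈ Φ)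
    {a : QA K} (ha : a ∈ K1) (ha0 : a ≠ 0)
    (S : Set (QA K)) (hS : S ⊆ adj K1 (qs ρ k0 (l - k0)))
    (Λ : Submodule K (QA K)) (hΛ : Λ ≤ Subalgebra.toSubmodule (lev K l)) :
    ∃ Z : Submodule K (QA K), Z ≤ Subalgebra.toSubmodule (QL Φ ρ k0 (l - k0)) ∧
      finrank K Φ * 2 ^ (l - k0) ≤ finrank K Z + finrank K Λ ∧
      (∀ x ∈ Z, ∀ v : QA K, a * v ∈ Λ → QA.tr (v * x) = 0) ∧
      (∀ x ∈ Z, ∀ v c : QA K, c ∈ Λ → IsPr l S (a * v) c → QA.tr (v * x) = 0) := by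
  have hΦ : Φ ≤ lev K k0 := hΦ1.trans hK1
  have hcΦ : Comm Φ := fun x hx y hy => hc x (hΦ1 hx) y (hΦ1 hy)
  have hρ1 : ρ ∈ K1 := hΦ1 hρ
  have hkl : k0 + (l - k0) = l := by omega
  obtain ⟨b, hb, hab, hba⟩ := kpg_inv K1 hK1 ha ha0
  have B1 := kpg_QL_basic Φ hΦ hcΦ hρ (l - k0)
  have B2 := kpg_QL_basic K1 hK1 hc hρ1 (l - k0)
  have A1 := kpg_adj_qs Φ hΦ hcΦ hρ (l - k0)
  have A2 := kpg_adj_qs K1 hK1 hc hρ1 (l - k0)
  have hle : QL Φ ρ k0 (l - k0) ≤ QL K1 ρ k0 (l - k0) := by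
    rw [← A1, ← A2]
    exact kpg_adj_le (hΦ1.trans kpg_le_adj) kpg_mem_adj
  rw [hkl] at B1 B2
  let Λ' : Submodule K (QA K) := Λ.map (LinearMap.mulLeft K b)
  have fdΛ : FiniteDimensional K Λ := kpg_fd_of_le hΛ
  have fdΨ : FiniteDimensional K (Subalgebra.toSubmodule (QL Φ ρ k0 (l - k0))) :=
    kpg_fd_of_le (l := l) B1.2.1
  have hΛ' : finrank K Λ' ≤ finrank K Λ := Submodule.finrank_map_le _ _
  let Z : Submodule K (QA K) :=
    { carrier := {x | x ∈ QL Φ ρ k0 (l - k0) ∧ ∀ c ∈ Λ', QA.tr (c * x) = 0}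
      add_mem' := by
        rintro x y ⟨hx, hx'⟩ ⟨hy, hy'⟩
        refine ⟨add_mem hx hy, fun c hc => ?_⟩
        rw [mul_add, map_add, hx' c hc, hy' c hc, add_zero]
      zero_mem' := ⟨zero_mem _, fun c _ => by rw [mul_zero, map_zero]⟩
      smul_mem' := by
        rintro t x ⟨hx, hx'⟩
        refine ⟨Subalgebra.smul_mem _ hx t, fun c hc => ?_⟩
        rw [mul_smul_comm, map_smul, hx' c hc, smul_zero] }
  have hZ : Z ≤ Subalgebra.toSubmodule (QL Φ ρ k0 (l - k0)) := fun x hx => hx.1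
  refine ⟨Z, hZ, ?_, ?_, ?_⟩
  · have h1 := kpg_pair_dim (Subalgebra.toSubmodule (QL Φ ρ k0 (l - k0))) Λ' Z
      (fun x hx hx' => ⟨hx, hx'⟩) hZ
    have h2 : finrank K (Subalgebra.toSubmodule (QL Φ ρ k0 (l - k0))) =
      finrank K Φ * 2 ^ (l - k0) := B1.2.2.2.2
    omega
  · intro x hx v hv
    have : v = b * (a * v) := by rw [← mul_assoc, hba, one_mul]
    rw [this]
    exact hx.2 _ ⟨a * v, hv, rfl⟩
  · intro x hx v c hcΛ hpr
    rw [← kpg_pr_pair (QL K1 ρ k0 (l - k0)) B2.2.1 B2.2.2.1 S (by rw [← A2]; exact hS)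
      (B2.1 hb) hba (hle hx.1) hpr]
    exact hx.2 _ ⟨c, hcΛ, rfl⟩

end Crest.Agent.KP
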