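import Crest.Agent.KPG_Defs
import Crest.Agent.KPA_Fin
import Crest.Agent.KPB_q

/-!
# S0270, part (G)-algebra (author helper47): products and coefficients of basis elements; monotonicity; lev is finite dimensional
-/

set_option autoImplicit false
set_option linter.unusedSectionVars false

open scoped symmDiff
open Module

namespace Crest.Agent.KP

variable {K : Type} [Field K] [KF K]

/-- product of two basis elements -/
theorem kpg_e_mul (g h : Gp) : (QA.e g : QA K) * QA.e h = coc K g h • QA.e (gx g h) :=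
  kpa_e_mul_e g h

/-- every element is the sum of its coefficients times basis elements -/
theorem kpg_sum_e (u : QA K) : u = ∑ g ∈ QA.supp u, u g • QA.e g := by
  conv_lhs => rw [kpa_sum_ec u (QA.supp u) (fun g hg => QA.mem_supp.2 hg)]
  refine Finset.sum_congr rfl fun g _ => ?_
  rw [QA.e_eq_ec, QA.smul_ec, mul_one]

/-- `e g ∈ on A` iff the indices are in `A`. -/
theorem kpg_e_mem_lev {k : ℕ} {g : Gp} (h : inLow k g) : (QA.e g : QA K) ∈ lev K k :=
  kpa_e_mem_lev (fun _ hs => Finset.mem_range.1 (h.1 hs)) (fun _ hs => Finset.mem_range.1 (h.2 hs))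

theorem kpg_e_mem_mid {k l : ℕ} {g : Gp} (h1 : ∀ n ∈ g.1, k ≤ n ∧ n < l)
    (h2 : ∀ n ∈ g.2, k ≤ n ∧ n < l) : (QA.e g : QA K) ∈ mid K k l :=
  kpa_ec_mem_mid h1 h2 1

theorem kpg_lev_mono {k l : ℕ} (h : k ≤ l) : lev K k ≤ lev K l := kpa_lev_mono h

theorem kpg_mid_le {k l : ℕ} : mid K k l ≤ lev K l := kpa_mid_le_lev k l

theorem kpg_mid_mono {k l m : ℕ} (h : l ≤ m) : mid K k l ≤ mid K k m :=
  kpa_mid_mono le_rfl h

/-- `lev K k` is finite dimensional (spanned by the `e g`, `g` inside `[0,k)`). -/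
theorem kpg_fin_lev (k : ℕ) : FiniteDimensional K (lev K k) := kpa_fd_lev k

end Crest.Agent.KP
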