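import Crest.Agent.KPG_P1

/-!
# S0270, part (G)-algebra (author helper47): trace symmetric; lev and mid commute
-/

set_option autoImplicit false
set_option linter.unusedSectionVars false

open scoped symmDiff
open Module

namespace Crest.Agent.KP

variable {K : Type} [Field K] [KF K]

/-- trace of a product is symmetric: the coefficient of `1` in `e g * e h` is nonzero only for
`g = h`. -/
theorem kpg_tr_comm (u v : QA K) : QA.tr (u * v) = QA.tr (v * u) := kpa_tr_comm u v

/-- `lev k` and `mid k l` commute: `coc g h = 1 = coc h g` for disjoint indices. -/
theorem kpg_comm {k l : ℕ} {a b : QA K} (ha : a ∈ lev K k) (hb : b ∈ mid K k l) :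
    a * b = b * a := kpa_lev_mid_comm ha hb

end Crest.Agent.KP
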