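import Crest.Agent.KPG_P3

/-!
# S0270, part (G)-algebra (author helper47): tE and partial trace
-/

set_option autoImplicit false
set_option linter.unusedSectionVars false

open scoped symmDiff
open Module

namespace Crest.Agent.KP

variable {K : Type} [Field K] [KF K]

/-- the trace form is nondegenerate on `lev l`: test with `d = e g`, `tr (u * e g) = u g * coc g g`. -/
theorem kpg_nondeg_lev {l : ℕ} {u : QA K} (hu : u ∈ lev K l)
    (h : ∀ d ∈ lev K l, QA.tr (u * d) = 0) : u = 0 := kpa_lev_nondeg hu h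

/-- the part of `u` with high index `h` -/
theorem kpg_part_apply (k : ℕ) (u : QA K) (h q : Gp) :
    ((coc K h h)⁻¹ • (ptr k (u * QA.e h) * QA.e h) : QA K) q =
      if inLow k (gx q h) then u q else 0 := by
  rw [QA.q_smul_apply, kpa_mul_e_apply, ptr_apply]
  by_cases H : inLow k (gx q h)
  · rw [if_pos H, if_pos H, kpa_mul_e_apply, kpa_gx_cancel]
    have h1 := QA.coc_assoc (R := K) q h h
    rw [kpa_gx_self, QA.coc_one_right, mul_one] at h1
    have h2 := kpa_coc_ne (K := K) h h
    rw [smul_eq_mul]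
    calc (coc K h h)⁻¹ * (coc K (gx q h) h * (coc K q h * u q))
        = (coc K h h)⁻¹ * ((coc K q h * coc K (gx q h) h) * u q) := by ring
      _ = (coc K h h)⁻¹ * (coc K h h * u q) := by rw [h1]
      _ = u q := by rw [← mul_assoc, inv_mul_cancel₀ h2, one_mul]
  · rw [if_neg H, if_neg H, mul_zero, smul_zero]

theorem kpg_dec {k l : ℕ} {u : QA K} (hu : u ∈ lev K l) :
    u = ∑ h ∈ (Finset.Ico k l).powerset ×ˢ (Finset.Ico k l).powerset,
      (coc K h h)⁻¹ • (ptr k (u * QA.e h) * QA.e h) := by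
  apply QA.q_ext
  intro q
  have hs : ∀ (s : Finset Gp) (f : Gp → QA K), (∑ h ∈ s, f h) q = ∑ h ∈ s, (f h) q := by
    intro s f
    induction s using Finset.cons_induction with
    | empty => simp [QA.q_zero_apply]
    | cons a s ha ih => rw [Finset.sum_cons, Finset.sum_cons, QA.q_add_apply, ih]
  rw [hs]
  simp only [kpg_part_apply]
  by_cases hq : u q = 0
  · rw [hq]
    simp
  · have hq' := kpa_mem_lev.1 hu q hq
    symm
    rw [Finset.sum_eq_single (q.1.filter (fun s => k ≤ s), q.2.filter (fun s => k ≤ s))]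
    · rw [if_pos]
      constructor
      · intro s hs
        rw [Finset.mem_range]
        rcases Finset.mem_symmDiff.1 hs with ⟨h1, h2⟩ | ⟨h1, h2⟩
        · by_contra h3
          exact h2 (Finset.mem_filter.2 ⟨h1, not_lt.1 h3⟩)
        · exact absurd (Finset.mem_filter.1 h1).1 h2
      · intro s hs
        rw [Finset.mem_range]
        rcases Finset.mem_symmDiff.1 hs with ⟨h1, h2⟩ | ⟨h1, h2⟩
        · by_contra h3
          exact h2 (Finset.mem_filter.2 ⟨h1, not_lt.1 h3⟩)
        · exact absurd (Finset.mem_filter.1 h1).1 h2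
    · intro h hh hne
      rw [if_neg]
      intro H
      apply hne
      rw [Finset.mem_product, Finset.mem_powerset, Finset.mem_powerset] at hh
      have key : ∀ a b : Finset ℕ, b ⊆ Finset.Ico k l → a ∆ b ⊆ Finset.range k →
          b = a.filter (fun s => k ≤ s) := by
        intro a b hb hab
        ext s
        rw [Finset.mem_filter]
        constructor
        · intro hs
          have h1 := (Finset.mem_Ico.1 (hb hs)).1
          refine ⟨?_, h1⟩
          by_contra h2
          have h3 := Finset.mem_range.1 (hab (Finset.mem_symmDiff.2 (Or.inr ⟨hs, h2⟩)))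
          omega
        · rintro ⟨h1, h2⟩
          by_contra h3
          have h4 := Finset.mem_range.1 (hab (Finset.mem_symmDiff.2 (Or.inl ⟨h1, h3⟩)))
          omega
      exact Prod.ext (key _ _ hh.1 H.1) (key _ _ hh.2 H.2)
    · intro h
      exfalso
      apply h
      rw [Finset.mem_product, Finset.mem_powerset, Finset.mem_powerset]
      constructor
      · intro s hs
        have h1 := Finset.mem_filter.1 hs
        exact Finset.mem_Ico.2 ⟨h1.2, hq'.1 s h1.1⟩
      · intro s hs
        have h1 := Finset.mem_filter.1 hs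
        exact Finset.mem_Ico.2 ⟨h1.2, hq'.2 s h1.1⟩

theorem kpg_e_mid_of_mem {k l : ℕ} {h : Gp}
    (hh : h ∈ (Finset.Ico k l).powerset ×ˢ (Finset.Ico k l).powerset) :
    (QA.e h : QA K) ∈ mid K k l := by
  rw [Finset.mem_product, Finset.mem_powerset, Finset.mem_powerset] at hh
  exact kpg_e_mem_mid (fun n hn => Finset.mem_Ico.1 (hh.1 hn))
    (fun n hn => Finset.mem_Ico.1 (hh.2 hn))

/-- Decomposition: `u ∈ lev l` is `∑_g ptr(u * (e g)⁻¹) * e g` over `g` inside `[k,l)`
(`e g * e g = coc g g • 1`, `coc g g ≠ 0`). Hence: if `ptr k (u*e) ∈ V` for all `e ∈ mid k l`, then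
`u ∈ V ⊗ mid`. -/
theorem kpg_tE_of_ptr {k l : ℕ} (_h : k ≤ l) (V : Submodule K (QA K)) {u : QA K}
    (hu : u ∈ lev K l) (H : ∀ e ∈ mid K k l, ptr k (u * e) ∈ V) : u ∈ tE k l V := by
  rw [kpg_dec (k := k) hu]
  refine Submodule.sum_mem _ fun h hh => Submodule.smul_mem _ _ (Submodule.subset_span ?_)
  exact ⟨_, H _ (kpg_e_mid_of_mem hh), _, kpg_e_mid_of_mem hh, rfl⟩

/-- converse (`ptr (b*e'*e) = tr(e'*e) • b`). -/
theorem kpg_ptr_of_tE {k l : ℕ} (V : Submodule K (QA K))
    (hV : V ≤ Subalgebra.toSubmodule (lev K k)) {u : QA K} (hu : u ∈ tE k l V)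
    {e : QA K} (he : e ∈ mid K k l) : ptr k (u * e) ∈ V := by
  refine Submodule.span_induction (p := fun u _ => ptr k (u * e) ∈ V) ?_ ?_ ?_ ?_ hu
  · rintro _ ⟨b, hb, e', he', rfl⟩
    rw [mul_assoc, kpg_ptr_left (hV hb), kpg_ptr_mid (mul_mem he' he),
      Algebra.algebraMap_eq_smul_one, mul_smul_comm, mul_one]
    exact V.smul_mem _ hb
  · rw [zero_mul, map_zero]
    exact V.zero_mem
  · intro a b _ _ ha hb
    rw [add_mul, map_add]
    exact V.add_mem ha hb
  · intro c a _ ha
    rw [smul_mul_assoc, map_smul]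
    exact V.smul_mem _ ha

theorem kpg_tE_le {k l : ℕ} (h : k ≤ l) (V : Submodule K (QA K))
    (hV : V ≤ Subalgebra.toSubmodule (lev K k)) : tE k l V ≤ Subalgebra.toSubmodule (lev K l) := by
  refine Submodule.span_le.2 ?_
  rintro _ ⟨b, hb, e, he, rfl⟩
  exact (lev K l).mul_mem (kpg_lev_mono h (hV hb)) (kpg_mid_le he)

end Crest.Agent.KP
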