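import Crest.Agent.KPG_D4

/-!
# S0270, part (G)-algebra (author helper47): one quaternion step
-/

set_option autoImplicit false
set_option linter.unusedSectionVars false

open scoped symmDiff
open Module

namespace Crest.Agent.KP

variable {K : Type} [Field K] [KF K]

private theorem kq1_c1 {k : ℕ} {x : QA K} (hx : x ∈ lev K k) : x * S1 k = S1 k * x :=
  kpa_lev_mid_comm hx (kpa_S1_mem k)

private theorem kq1_c2 {k : ℕ} {x : QA K} (hx : x ∈ lev K k) : x * S2 k = S2 k * x :=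
  kpa_lev_mid_comm hx (kpa_S2_mem k)

/-- `q^2 = α + β ρ²` for `q = i_k + ρ j_k`, `ρ ∈ lev k` (`i j = - j i`, `ρ` commutes with `i_k,j_k`). -/
theorem kpg_qi_sq {k : ℕ} {ρ : QA K} (hρ : ρ ∈ lev K k) :
    qi ρ k * qi ρ k = algebraMap K (QA K) (al k) + algebraMap K (QA K) (be k) * (ρ * ρ) := by
  have h1 := kq1_c1 hρ
  have h2 := kq1_c2 hρ
  have e1 : (S1 k : QA K) * (ρ * S2 k) = ρ * S3 k := by
    rw [← mul_assoc, ← h1, mul_assoc, kpa_S1_mul_S2]
  have e2 : (ρ * S2 k) * S1 k = -(ρ * S3 k) := by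
    rw [mul_assoc, kpa_S2_mul_S1, mul_neg]
  have e3 : (ρ * S2 k) * (ρ * S2 k) = algebraMap K (QA K) (be k) * (ρ * ρ) := by
    rw [mul_assoc, ← mul_assoc (S2 k : QA K) ρ, ← h2, mul_assoc ρ (S2 k : QA K), kpa_S2_mul_S2,
      Algebra.algebraMap_eq_smul_one, smul_mul_assoc, one_mul, mul_smul_comm, mul_smul_comm,
      mul_one]
  unfold qi
  rw [add_mul, mul_add, mul_add, e1, e2, e3, kpa_S1_mul_S1,
    Algebra.algebraMap_eq_smul_one (A := QA K) (al k : K)]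
  abel

/-- `q_k` commutes with every `x ∈ lev k` that commutes with `ρ`. -/
theorem kpg_qi_comm {k : ℕ} {ρ x : QA K} (hρ : ρ ∈ lev K k) (hx : x ∈ lev K k)
    (h : ρ * x = x * ρ) : qi ρ k * x = x * qi ρ k := by
  unfold qi
  rw [add_mul, mul_add, kq1_c1 hx, mul_assoc, ← kq1_c2 hx, ← mul_assoc, ← mul_assoc, h]

theorem kpg_qi_mem {k : ℕ} {ρ : QA K} (hρ : ρ ∈ lev K k) : qi ρ k ∈ lev K (k + 1) :=
  (lev K (k + 1)).add_mem (kpa_S1_mem_lev k)
    ((lev K (k + 1)).mul_mem (kpa_lev_mono (Nat.le_succ k) hρ) (kpa_S2_mem_lev k))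

/-- one step: `Ψ[q] = Ψ ⊕ Ψ q`. -/
theorem kpg_step_mem {k : ℕ} (Ψ : Subalgebra K (QA K)) (hΨ : Ψ ≤ lev K k) (hc : Comm Ψ)
    {ρ : QA K} (hρ : ρ ∈ Ψ) (x : QA K) :
    x ∈ adj Ψ (qi ρ k) ↔ ∃ a ∈ Ψ, ∃ b ∈ Ψ, x = a + b * qi ρ k := by
  constructor
  · intro hx
    have hq : ∀ y ∈ Ψ, qi ρ k * y = y * qi ρ k := fun y hy =>
      kpg_qi_comm (hΨ hρ) (hΨ hy) (hc ρ hρ y hy)
    have hsq : qi ρ k * qi ρ k ∈ Ψ := by
      rw [kpg_qi_sq (hΨ hρ)]
      exact Ψ.add_mem (Ψ.algebraMap_mem _) (Ψ.mul_mem (Ψ.algebraMap_mem _) (Ψ.mul_mem hρ hρ))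
    let S : Subalgebra K (QA K) :=
      { carrier := {x | ∃ a ∈ Ψ, ∃ b ∈ Ψ, x = a + b * qi ρ k}
        mul_mem' := by
          rintro _ _ ⟨a, ha, b, hb, rfl⟩ ⟨c, hc', d, hd, rfl⟩
          refine ⟨a * c + b * d * (qi ρ k * qi ρ k), Ψ.add_mem (Ψ.mul_mem ha hc')
            (Ψ.mul_mem (Ψ.mul_mem hb hd) hsq), a * d + b * c,
            Ψ.add_mem (Ψ.mul_mem ha hd) (Ψ.mul_mem hb hc'), ?_⟩
          have e1 : b * qi ρ k * c = b * c * qi ρ k := by
            rw [mul_assoc, hq c hc', ← mul_assoc]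
          have e2 : b * qi ρ k * (d * qi ρ k) = b * d * (qi ρ k * qi ρ k) := by
            rw [mul_assoc, ← mul_assoc (qi ρ k) d, hq d hd]
            simp only [mul_assoc]
          rw [add_mul, mul_add, mul_add, e1, e2, add_mul, ← mul_assoc a d]
          abel
        one_mem' := ⟨1, Ψ.one_mem, 0, Ψ.zero_mem, by rw [zero_mul, add_zero]⟩
        add_mem' := by
          rintro _ _ ⟨a, ha, b, hb, rfl⟩ ⟨c, hc', d, hd, rfl⟩
          refine ⟨a + c, Ψ.add_mem ha hc', b + d, Ψ.add_mem hb hd, ?_⟩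
          rw [add_mul]
          abel
        zero_mem' := ⟨0, Ψ.zero_mem, 0, Ψ.zero_mem, by rw [zero_mul, add_zero]⟩
        algebraMap_mem' := fun c => ⟨algebraMap K (QA K) c, Ψ.algebraMap_mem c, 0, Ψ.zero_mem,
          by rw [zero_mul, add_zero]⟩ }
    have hle : adj Ψ (qi ρ k) ≤ S := by
      refine kpg_adj_le ?_ ?_
      · intro y hy
        exact ⟨y, hy, 0, Ψ.zero_mem, by rw [zero_mul, add_zero]⟩
      · exact ⟨0, Ψ.zero_mem, 1, Ψ.one_mem, by rw [one_mul, zero_add]⟩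
    exact hle hx
  · rintro ⟨a, ha, b, hb, rfl⟩
    exact (adj Ψ (qi ρ k)).add_mem (kpg_le_adj ha)
      ((adj Ψ (qi ρ k)).mul_mem (kpg_le_adj hb) kpg_mem_adj)

private theorem kq1_tr (k : ℕ) : QA.tr (S1 k : QA K) = 0 ∧ QA.tr (S2 k : QA K) = 0 ∧
    QA.tr (S3 k : QA K) = 0 := by
  have h : ∀ g : Gp, g ≠ (∅, ∅) → QA.tr (QA.e g : QA K) = 0 := by
    intro g hg
    rw [QA.e_eq_ec, kpa_tr_ec, if_neg hg]
  refine ⟨h _ ?_, h _ ?_, h _ ?_⟩
  · intro H
    have := congrArg Prod.fst H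
    simp at this
  · intro H
    have := congrArg Prod.snd H
    simp at this
  · intro H
    have := congrArg Prod.fst H
    simp at this

/-- uniqueness: apply `ptr k` to `(a + b q) = 0` and to `(a + b q) * S1 k = 0`
(`ptr k (b q S1) = α b`). -/
theorem kpg_step_uniq {k : ℕ} {ρ a b : QA K} (hρ : ρ ∈ lev K k) (ha : a ∈ lev K k)
    (hb : b ∈ lev K k) (h : a + b * qi ρ k = 0) : a = 0 ∧ b = 0 := by
  obtain ⟨t1, t2, t3⟩ := kq1_tr (K := K) k
  have p1 : ptr k (S1 k : QA K) = 0 := by rw [kpg_ptr_mid (kpa_S1_mem k), t1, map_zero]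
  have p2 : ptr k (S2 k : QA K) = 0 := by rw [kpg_ptr_mid (kpa_S2_mem k), t2, map_zero]
  have p3 : ptr k (S3 k : QA K) = 0 := by rw [kpg_ptr_mid (kpa_S3_mem k), t3, map_zero]
  have hq : ptr k (qi ρ k) = 0 := by
    unfold qi
    rw [map_add, p1, kpg_ptr_left hρ, p2, mul_zero, add_zero]
  have ha0 : a = 0 := by
    have h1 := congrArg (ptr k) h
    rw [map_add, map_zero, kpg_ptr_lev ha, kpg_ptr_left hb, hq, mul_zero, add_zero] at h1
    exact h1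
  refine ⟨ha0, ?_⟩
  rw [ha0, zero_add] at h
  have e1 : qi ρ k * S1 k = algebraMap K (QA K) (al k) - ρ * S3 k := by
    unfold qi
    rw [add_mul, kpa_S1_mul_S1, mul_assoc, kpa_S2_mul_S1, mul_neg,
      Algebra.algebraMap_eq_smul_one, sub_eq_add_neg]
  have e2 : ptr k (qi ρ k * S1 k) = algebraMap K (QA K) (al k) := by
    rw [e1, map_sub, kpg_ptr_left hρ, p3, mul_zero, sub_zero,
      kpg_ptr_lev ((lev K k).algebraMap_mem _)]
  have h2 : ptr k (b * (qi ρ k * S1 k)) = 0 := by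
    rw [← mul_assoc, h, zero_mul, map_zero]
  rw [kpg_ptr_left hb, e2, Algebra.algebraMap_eq_smul_one, mul_smul_comm, mul_one] at h2
  rcases smul_eq_zero.1 h2 with h3 | h3
  · exact absurd h3 (KF.al_ne k)
  · exact h3

theorem kpg_step_finrank {k : ℕ} (Ψ : Subalgebra K (QA K)) (hΨ : Ψ ≤ lev K k) (hc : Comm Ψ)
    {ρ : QA K} (hρ : ρ ∈ Ψ) : finrank K (adj Ψ (qi ρ k)) = 2 * finrank K Ψ := by
  have : FiniteDimensional K Ψ := kpa_fd_of_le' hΨ
  let f : (Ψ × Ψ) →ₗ[K] QA K :=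
    { toFun := fun p => (p.1 : QA K) + (p.2 : QA K) * qi ρ k
      map_add' := by
        intro x y
        show ((x.1 : QA K) + (y.1 : QA K)) + ((x.2 : QA K) + (y.2 : QA K)) * qi ρ k = _
        rw [add_mul]
        abel
      map_smul' := by
        intro c x
        show c • (x.1 : QA K) + (c • (x.2 : QA K)) * qi ρ k = _
        rw [smul_mul_assoc, ← smul_add]
        rfl }
  have hinj : Function.Injective f := by
    rw [← LinearMap.ker_eq_bot, LinearMap.ker_eq_bot']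
    rintro ⟨⟨a, ha⟩, ⟨b, hb⟩⟩ h
    obtain ⟨h1, h2⟩ := kpg_step_uniq (hΨ hρ) (hΨ ha) (hΨ hb) h
    subst h1 h2
    rfl
  have hrange : LinearMap.range f = Subalgebra.toSubmodule (adj Ψ (qi ρ k)) := by
    ext x
    rw [LinearMap.mem_range, Subalgebra.mem_toSubmodule, kpg_step_mem Ψ hΨ hc hρ]
    constructor
    · rintro ⟨⟨a, b⟩, rfl⟩
      exact ⟨a, a.2, b, b.2, rfl⟩
    · rintro ⟨a, ha, b, hb, rfl⟩
      exact ⟨(⟨a, ha⟩, ⟨b, hb⟩), rfl⟩
  have h1 := LinearMap.finrank_range_of_inj hinj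
  rw [hrange, Module.finrank_prod, ← two_mul] at h1
  exact h1

end Crest.Agent.KP
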