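import Crest.Agent.KPG_Q1

/-!
# S0270, part (G)-algebra (author helper47): the tower QL
-/

set_option autoImplicit false
set_option linter.unusedSectionVars false

open scoped symmDiff
open Module

namespace Crest.Agent.KP

variable {K : Type} [Field K] [KF K]

private theorem kpg_Q2_tE_mono {k l l' : ℕ} (h : l ≤ l') (V : Submodule K (QA K)) :
    tE k l V ≤ tE k l' V := by
  refine Submodule.span_mono ?_
  rintro _ ⟨b, hb, e, he, rfl⟩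
  exact ⟨b, hb, e, kpa_mid_mono le_rfl h he, rfl⟩

private theorem kpg_Q2_tE_mul {k0 l : ℕ} (hl : k0 ≤ l) (Φ : Subalgebra K (QA K))
    (hΦ : Φ ≤ lev K k0) {ρ : QA K} (hρ : ρ ∈ Φ) {b : QA K}
    (hb : b ∈ tE k0 l (Subalgebra.toSubmodule Φ)) :
    b * qi ρ l ∈ tE k0 (l + 1) (Subalgebra.toSubmodule Φ) := by
  refine Submodule.span_induction
    (p := fun b _ => b * qi ρ l ∈ tE k0 (l + 1) (Subalgebra.toSubmodule Φ)) ?_ ?_ ?_ ?_ hb
  · rintro _ ⟨φ, hφ, e, he, rfl⟩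
    have h1 : e * S1 l ∈ mid K k0 (l + 1) :=
      mul_mem (kpa_mid_mono le_rfl (Nat.le_succ l) he) (kpa_mid_mono hl le_rfl (kpa_S1_mem l))
    have h2 : e * S2 l ∈ mid K k0 (l + 1) :=
      mul_mem (kpa_mid_mono le_rfl (Nat.le_succ l) he) (kpa_mid_mono hl le_rfl (kpa_S2_mem l))
    have h3 : φ * e * qi ρ l = φ * (e * S1 l) + (φ * ρ) * (e * S2 l) := by
      have h4 : ρ * e = e * ρ := kpa_lev_mid_comm (hΦ hρ) he
      unfold qi
      rw [mul_add, mul_assoc, mul_assoc φ e (ρ * S2 l), ← mul_assoc e ρ, ← h4, mul_assoc ρ,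
        ← mul_assoc φ ρ]
    rw [h3]
    exact add_mem (Submodule.subset_span ⟨φ, hφ, _, h1, rfl⟩)
      (Submodule.subset_span ⟨φ * ρ, Φ.mul_mem hφ hρ, _, h2, rfl⟩)
  · rw [zero_mul]; exact zero_mem _
  · intro x y _ _ h1 h2; rw [add_mul]; exact add_mem h1 h2
  · intro a x _ h1; rw [smul_mul_assoc]; exact Submodule.smul_mem _ a h1

/-- basic facts on the tower, by induction on `h`. -/
theorem kpg_QL_basic {k0 : ℕ} (Φ : Subalgebra K (QA K)) (hΦ : Φ ≤ lev K k0) (hc : Comm Φ)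
    {ρ : QA K} (hρ : ρ ∈ Φ) (h : ℕ) :
    Φ ≤ QL Φ ρ k0 h ∧ QL Φ ρ k0 h ≤ lev K (k0 + h) ∧ Comm (QL Φ ρ k0 h) ∧
      Subalgebra.toSubmodule (QL Φ ρ k0 h) ≤ tE k0 (k0 + h) (Subalgebra.toSubmodule Φ) ∧
      finrank K (QL Φ ρ k0 h) = finrank K Φ * 2 ^ h := by
  induction h with
  | zero =>
    refine ⟨le_rfl, hΦ, hc, ?_, by rw [pow_zero, mul_one]; rfl⟩
    intro x hx
    exact Submodule.subset_span ⟨x, hx, 1, one_mem _, (mul_one x).symm⟩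
  | succ h ih =>
    obtain ⟨h1, h2, h3, h4, h5⟩ := ih
    have hρ' : ρ ∈ QL Φ ρ k0 h := h1 hρ
    have hρl : ρ ∈ lev K (k0 + h) := h2 hρ'
    refine ⟨h1.trans kpg_le_adj, ?_, ?_, ?_, ?_⟩
    · exact kpg_adj_le (h2.trans (kpa_lev_mono (Nat.le_succ _))) (kpg_qi_mem hρl)
    · refine kpg_adj_comm h3 fun φ hφ => ?_
      exact (kpg_qi_comm hρl (h2 hφ) (h3 ρ hρ' φ hφ)).symm
    · intro x hx
      obtain ⟨a, ha, b, hb, rfl⟩ := (kpg_step_mem (QL Φ ρ k0 h) h2 h3 hρ' x).1 hx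
      exact add_mem (kpg_Q2_tE_mono (Nat.le_succ _) _ (h4 ha))
        (kpg_Q2_tE_mul (Nat.le_add_right _ _) Φ hΦ hρ (h4 hb))
    · have h6 := kpg_step_finrank (QL Φ ρ k0 h) h2 h3 hρ'
      show finrank K (adj (QL Φ ρ k0 h) (qi ρ (k0 + h))) = _
      rw [h6, h5, pow_succ]; ring

/-- `qs ρ k0 h ∈ QL`. -/
theorem kpg_qs_mem {k0 : ℕ} (Φ : Subalgebra K (QA K)) (ρ : QA K) (h : ℕ) :
    qs ρ k0 h ∈ QL Φ ρ k0 h := by
  induction h with
  | zero => simp [qs]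
  | succ h ih =>
    have h1 : qs ρ k0 (h + 1) = qs ρ k0 h + qi ρ (k0 + h) := Finset.sum_range_succ _ _
    rw [h1]
    exact add_mem (kpg_le_adj (Φ := QL Φ ρ k0 h) ih) kpg_mem_adj

end Crest.Agent.KP
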