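import Crest.Agent.KPG_Q2
import Crest.Agent.KPA_Alg

/-!
# S0270, part (G)-algebra (author helper47): flips and conjugates
-/

set_option autoImplicit false
set_option linter.unusedSectionVars false

open scoped symmDiff
open Module

namespace Crest.Agent.KP

variable {K : Type} [Field K] [KF K]

/-- sign of the flip -/
noncomputable def sg (A : Finset ℕ) (i : ℕ) : ℤ := if i ∈ A then -1 else 1

private theorem q4_eAA_S1 (A : Finset ℕ) (i : ℕ) :
    (QA.e (A, A) : QA K) * S1 i = (sg A i • (S1 i : QA K)) * QA.e (A, A) := by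
  unfold S1 sg
  by_cases h : i ∈ A
  · rw [if_pos h, neg_smul, one_smul, neg_mul, kpa_e_mul_e, kpa_e_mul_e, kpa_gx_comm, ← neg_smul]
    congr 1
    simp [coc, h]
  · rw [if_neg h, one_smul, kpa_e_mul_e, kpa_e_mul_e, kpa_gx_comm]
    congr 1
    simp [coc, h]

private theorem q4_eAA_S2 (A : Finset ℕ) (i : ℕ) :
    (QA.e (A, A) : QA K) * S2 i = (sg A i • (S2 i : QA K)) * QA.e (A, A) := by
  unfold S2 sg
  by_cases h : i ∈ A
  · rw [if_pos h, neg_smul, one_smul, neg_mul, kpa_e_mul_e, kpa_e_mul_e, kpa_gx_comm, ← neg_smul]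
    congr 1
    simp [coc, h]
  · rw [if_neg h, one_smul, kpa_e_mul_e, kpa_e_mul_e, kpa_gx_comm]
    congr 1
    simp [coc, h]

private theorem q4_comm {k0 : ℕ} {ρ : QA K} (hρ : ρ ∈ lev K k0) (A : Finset ℕ)
    (hA : ∀ i ∈ A, k0 ≤ i) : ρ * (QA.e (A, A) : QA K) = QA.e (A, A) * ρ := by
  refine kpa_on_comm (A := {n | n < k0}) (B := {n | k0 ≤ n}) ?_ hρ ?_
  · exact Set.disjoint_left.2 fun n (hn : n < k0) (hn' : k0 ≤ n) => absurd hn (not_lt.2 hn')
  · exact kpa_ec_mem_on (fun s hs => hA s hs) (fun s hs => hA s hs) 1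

/-- flips: `e (A,A)` (`A` inside `[k0,∞)`) anticommutes with `q_i` for `i ∈ A` and commutes with `q_i`
for `i ∉ A`, `i ≥ k0` (`ρ ∈ lev k0` commutes with `e (A,A)`). -/
theorem kpg_flip {k0 : ℕ} {ρ : QA K} (hρ : ρ ∈ lev K k0) (A : Finset ℕ) (hA : ∀ i ∈ A, k0 ≤ i)
    {i : ℕ} (hi : k0 ≤ i) :
    (QA.e (A, A) : QA K) * qi ρ i = (sg A i • qi ρ i) * QA.e (A, A) := by
  have h1 := q4_eAA_S1 (K := K) A i
  have h2 := q4_eAA_S2 (K := K) A i
  have h3 := q4_comm hρ A hA
  have h4 : (sg A i • qi ρ i) = sg A i • (S1 i : QA K) + ρ * (sg A i • (S2 i : QA K)) := by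
    unfold qi sg
    split_ifs
    · simp only [neg_smul, one_smul, mul_neg]
      abel
    · simp only [one_smul]
  rw [h4, add_mul, mul_assoc ρ, ← h1, ← h2]
  unfold qi
  rw [mul_add, ← mul_assoc, ← mul_assoc, h3]

/-- the conjugates of `qs ρ k0 h`: `x_A = ∑_{i<h} ± q_{k0+i}` -/
noncomputable def qA (ρ : QA K) (k0 h : ℕ) (A : Finset ℕ) : QA K :=
  ∑ i ∈ Finset.range h, sg A (k0 + i) • qi ρ (k0 + i)

/-- they lie in `QL`. -/
theorem kpg_qA_mem {k0 : ℕ} (Φ : Subalgebra K (QA K)) (ρ : QA K) (h : ℕ) (A : Finset ℕ) :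
    qA ρ k0 h A ∈ QL Φ ρ k0 h := by
  have hmono : ∀ i, QL Φ ρ k0 i ≤ QL Φ ρ k0 (i + 1) := fun i => kpg_le_adj
  have hmono' : ∀ i j, i ≤ j → QL Φ ρ k0 i ≤ QL Φ ρ k0 j := by
    intro i j hij
    induction hij with
    | refl => exact le_rfl
    | step _ ih => exact ih.trans (hmono _)
  unfold qA
  refine Subalgebra.sum_mem _ fun i hi => ?_
  have h1 : qi ρ (k0 + i) ∈ QL Φ ρ k0 (i + 1) := kpg_mem_adj
  have h2 := hmono' (i + 1) h (Finset.mem_range.1 hi) h1
  unfold sg
  split_ifs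
  · rw [neg_smul, one_smul]
    exact neg_mem h2
  · rw [one_smul]
    exact h2

/-- they are distinct for distinct subsets `A` of `[k0,k0+h)`: the coefficient of `x_A` at
`({i},∅)` is `±1` (`ρ * S2 i` has no such coefficient since `ρ ∈ lev k0`). -/
theorem kpg_qA_inj {k0 : ℕ} {ρ : QA K} (hρ : ρ ∈ lev K k0) (h : ℕ) {A B : Finset ℕ}
    (hA : A ⊆ Finset.Ico k0 (k0 + h)) (hB : B ⊆ Finset.Ico k0 (k0 + h))
    (hAB : qA ρ k0 h A = qA ρ k0 h B) : A = B := by
  have key : ∀ (A : Finset ℕ) (i : ℕ), i < h → (qA ρ k0 h A) ({k0 + i}, ∅) = ((sg A (k0 + i) : ℤ) : K) := by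
    intro A i hi
    have hterm : ∀ j, (sg A (k0 + j) • qi ρ (k0 + j)) ({k0 + i}, ∅) =
        if j = i then ((sg A (k0 + j) : ℤ) : K) else 0 := by
      intro j
      have hq : (qi ρ (k0 + j)) ({k0 + i}, ∅) = if j = i then 1 else 0 := by
        unfold qi
        rw [QA.q_add_apply]
        have h1 : (S1 (k0 + j) : QA K) ({k0 + i}, ∅) = if j = i then 1 else 0 := by
          unfold S1
          rw [QA.e_eq_ec, QA.ec_apply]
          by_cases hji : j = i
          · rw [if_pos hji, if_pos (by rw [hji])]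
          · rw [if_neg hji, if_neg]
            intro he
            have := congrArg Prod.fst he
            simp at this
            exact hji this
        have h2 : (ρ * (S2 (k0 + j) : QA K)) ({k0 + i}, ∅) = 0 := by
          unfold S2
          rw [kpa_mul_e_apply]
          have : ρ (gx ({k0 + i}, ∅) (∅, {k0 + j})) = 0 := by
            by_contra hne
            have := ((kpa_mem_lev.1 hρ) _ hne).2 (k0 + j) (by simp [gx, kpa_sd2])
            omega
          rw [this, mul_zero]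
        rw [h1, h2, add_zero]
      by_cases hA' : k0 + j ∈ A
      · have hs : sg A (k0 + j) = -1 := if_pos hA'
        rw [hs, neg_smul, one_smul, QA.q_neg_apply, hq]
        split_ifs <;> simp
      · have hs : sg A (k0 + j) = 1 := if_neg hA'
        rw [hs, one_smul, hq]
        split_ifs <;> simp
    have hsum : ∀ s : Finset ℕ, (∑ j ∈ s, sg A (k0 + j) • qi ρ (k0 + j)) ({k0 + i}, ∅) =
        ∑ j ∈ s, (sg A (k0 + j) • qi ρ (k0 + j)) ({k0 + i}, ∅) := by
      classical
      intro s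
      induction s using Finset.induction_on with
      | empty => rw [Finset.sum_empty, Finset.sum_empty]; exact QA.q_zero_apply _
      | insert a s ha ih =>
        rw [Finset.sum_insert ha, Finset.sum_insert ha, QA.q_add_apply, ih]
    unfold qA
    rw [hsum, Finset.sum_congr rfl fun j _ => hterm j, Finset.sum_ite_eq' (Finset.range h) i,
      if_pos (Finset.mem_range.2 hi)]
  have hmem : ∀ i, i < h → (k0 + i ∈ A ↔ k0 + i ∈ B) := by
    intro i hi
    have h1 := key A i hi
    rw [hAB, key B i hi] at h1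
    have h2 : sg B (k0 + i) = sg A (k0 + i) := by exact_mod_cast h1
    unfold sg at h2
    by_cases ha : k0 + i ∈ A <;> by_cases hb : k0 + i ∈ B <;> simp_all
  ext n
  constructor
  · intro hn
    have h1 := Finset.mem_Ico.1 (hA hn)
    obtain ⟨i, rfl⟩ := Nat.exists_eq_add_of_le h1.1
    exact (hmem i (by omega)).1 hn
  · intro hn
    have h1 := Finset.mem_Ico.1 (hB hn)
    obtain ⟨i, rfl⟩ := Nat.exists_eq_add_of_le h1.1
    exact (hmem i (by omega)).2 hn

end Crest.Agent.KP
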