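import Crest.Agent.KPG_Q4
import Crest.Agent.KPA_Alg

/-!
# S0270, part (G)-algebra (author helper47): conjugated relations
-/

set_option autoImplicit false
set_option linter.unusedSectionVars false

open scoped symmDiff
open Module

namespace Crest.Agent.KP

variable {K : Type} [Field K] [KF K]

/-- conjugation: a polynomial relation of `qs` with coefficients in `lev k0` also holds for `x_A`
(multiply by `e (A,A)` from the left, move it to the right; `QA K` is a domain, `e (A,A) ≠ 0`;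
coefficients in `lev k0` commute with `e (A,A)`). -/
theorem kpg_rel_conj {k0 : ℕ} {ρ : QA K} (hρ : ρ ∈ lev K k0) (h : ℕ) {A : Finset ℕ}
    (hA : A ⊆ Finset.Ico k0 (k0 + h)) (m : ℕ) (φ : ℕ → QA K) (hφ : ∀ j, φ j ∈ lev K k0)
    (H : ∑ j ∈ Finset.range m, φ j * qs ρ k0 h ^ j = 0) :
    ∑ j ∈ Finset.range m, φ j * qA ρ k0 h A ^ j = 0 := by
  have hA' : ∀ i ∈ A, k0 ≤ i := fun i hi => (Finset.mem_Ico.1 (hA hi)).1
  have h1 : (QA.e (A, A) : QA K) * qs ρ k0 h = qA ρ k0 h A * QA.e (A, A) := by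
    unfold qs qA
    rw [Finset.mul_sum, Finset.sum_mul]
    exact Finset.sum_congr rfl fun i _ => kpg_flip hρ A hA' (Nat.le_add_right k0 i)
  have h2 : ∀ j : ℕ, (QA.e (A, A) : QA K) * qs ρ k0 h ^ j = qA ρ k0 h A ^ j * QA.e (A, A) := by
    intro j
    induction j with
    | zero => rw [pow_zero, pow_zero, mul_one, one_mul]
    | succ j ih => rw [pow_succ, pow_succ, ← mul_assoc, ih, mul_assoc, h1, mul_assoc]
  have h3 : ∀ j : ℕ, (QA.e (A, A) : QA K) * φ j = φ j * QA.e (A, A) := by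
    intro j
    refine (kpa_on_comm (A := {n | n < k0}) (B := {n | k0 ≤ n}) ?_ (hφ j) ?_).symm
    · exact Set.disjoint_left.2 fun n (hn : n < k0) (hn' : k0 ≤ n) => absurd hn (not_lt.2 hn')
    · exact kpa_ec_mem_on (fun s hs => hA' s hs) (fun s hs => hA' s hs) 1
  have h4 : (∑ j ∈ Finset.range m, φ j * qA ρ k0 h A ^ j) * (QA.e (A, A) : QA K) = 0 := by
    rw [← mul_zero (QA.e (A, A) : QA K), ← H, Finset.sum_mul, Finset.mul_sum]
    refine Finset.sum_congr rfl fun j _ => ?_
    rw [mul_assoc, ← h2, ← mul_assoc, ← h3, mul_assoc]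
  rcases mul_eq_zero.1 h4 with h5 | h5
  · exact h5
  · exfalso
    have : (QA.e (A, A) : QA K) (A, A) = 0 := by rw [h5]; exact QA.q_zero_apply _
    rw [QA.e_eq_ec, QA.ec_apply, if_pos rfl] at this
    exact one_ne_zero this

end Crest.Agent.KP
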