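import Crest.Agent.KPG_Q5

/-!
# S0270, part (G)-algebra (author helper47): root counting
-/

set_option autoImplicit false
set_option linter.unusedSectionVars false

open scoped symmDiff
open Module

namespace Crest.Agent.KP

variable {K : Type} [Field K] [KF K]

private theorem q6_aux {A : Type} [Ring A] [NoZeroDivisors A] [Nontrivial A] (S : Subring A)
    (hc : ∀ a ∈ S, ∀ b ∈ S, a * b = b * a) (n : ℕ) (φ : ℕ → A) (hφ : ∀ j, φ j ∈ S)
    (T : Finset A) (hT : ∀ x ∈ T, x ∈ S) (hcard : n ≤ T.card)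
    (H : ∀ x ∈ T, ∑ j ∈ Finset.range n, φ j * x ^ j = 0) : ∀ j < n, φ j = 0 := by
  classical
  letI : CommRing S :=
    { (inferInstance : Ring S) with
      mul_comm := fun a b => Subtype.ext (hc a.1 a.2 b.1 b.2) }
  haveI : IsDomain S := NoZeroDivisors.to_isDomain S
  set p : Polynomial S := ∑ j ∈ Finset.range n, Polynomial.monomial j (⟨φ j, hφ j⟩ : S) with hp
  have hdeg : p.degree < n := by
    refine (Polynomial.degree_sum_le _ _).trans_lt ?_
    refine (Finset.sup_lt_iff (WithBot.bot_lt_coe n)).2 ?_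
    intro j hj
    exact (Polynomial.degree_monomial_le j _).trans_lt (WithBot.coe_lt_coe.2 (Finset.mem_range.1 hj))
  have hcoeff : ∀ j < n, p.coeff j = (⟨φ j, hφ j⟩ : S) := by
    intro j hj
    rw [hp, Polynomial.finsetSum_coeff]
    simp only [Polynomial.coeff_monomial]
    rw [Finset.sum_ite_eq' (Finset.range n) j, if_pos (Finset.mem_range.2 hj)]
  have hfinj : Function.Injective (fun x : {x // x ∈ T} => (⟨x.1, hT x.1 x.2⟩ : S)) := by
    intro x y hxy
    exact Subtype.ext (congrArg (fun z : S => (z : A)) hxy)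
  have hT' : (T.attach.image fun x => (⟨x.1, hT x.1 x.2⟩ : S)).card = T.card := by
    rw [Finset.card_image_of_injective _ hfinj, Finset.card_attach]
  have hp0 : p = 0 := by
    refine Polynomial.eq_zero_of_degree_lt_of_eval_finset_eq_zero
      (T.attach.image fun x => (⟨x.1, hT x.1 x.2⟩ : S)) ?_ ?_
    · rw [hT']
      exact hdeg.trans_le (by exact_mod_cast hcard)
    · intro x hx
      obtain ⟨y, -, rfl⟩ := Finset.mem_image.1 hx
      rw [hp, Polynomial.eval_finsetSum]
      simp only [Polynomial.eval_monomial]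
      apply Subtype.ext
      refine Eq.trans ?_ (H y.1 y.2)
      rw [show ((∑ j ∈ Finset.range n, (⟨φ j, hφ j⟩ : S) * (⟨y.1, hT y.1 y.2⟩ : S) ^ j : S) : A) =
        S.subtype (∑ j ∈ Finset.range n, (⟨φ j, hφ j⟩ : S) * (⟨y.1, hT y.1 y.2⟩ : S) ^ j) from rfl,
        map_sum]
      rfl
  intro j hj
  have h1 := hcoeff j hj
  rw [hp0, Polynomial.coeff_zero] at h1
  exact (congrArg Subtype.val h1).symm

/-- polynomial of degree `< 2^h` over the commutative domain `QL` with `2^h` distinct roots vanishes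
(`Polynomial.eq_zero_of_natDegree_lt_card_of_eval_eq_zero'` in the commutative ring `QL`;
build the `CommRing` structure on the subalgebra `QL` from `Comm`). -/
theorem kpg_rel_zero {k0 : ℕ} (Φ : Subalgebra K (QA K)) (hΦ : Φ ≤ lev K k0) (hc : Comm Φ)
    {ρ : QA K} (hρ : ρ ∈ Φ) (h : ℕ) (φ : ℕ → QA K) (hφ : ∀ j, φ j ∈ Φ)
    (H : ∑ j ∈ Finset.range (2 ^ h), φ j * qs ρ k0 h ^ j = 0) :
    ∀ j < 2 ^ h, φ j = 0 := by
  classical
  obtain ⟨hle, -, hcQ, -, -⟩ := kpg_QL_basic Φ hΦ hc hρ h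
  have hinj : Set.InjOn (fun A => qA ρ k0 h A)
      ((Finset.Ico k0 (k0 + h)).powerset : Set (Finset ℕ)) := by
    intro A hA B hB hAB
    exact kpg_qA_inj (hΦ hρ) h (Finset.mem_powerset.1 hA) (Finset.mem_powerset.1 hB) hAB
  refine q6_aux (QL Φ ρ k0 h).toSubring hcQ (2 ^ h) φ (fun j => hle (hφ j))
    ((Finset.Ico k0 (k0 + h)).powerset.image fun A => qA ρ k0 h A) ?_ ?_ ?_
  · intro x hx
    obtain ⟨A, -, rfl⟩ := Finset.mem_image.1 hx
    exact kpg_qA_mem Φ ρ h A
  · rw [Finset.card_image_of_injOn hinj, Finset.card_powerset, Nat.card_Ico, Nat.add_sub_cancel_left]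
  · intro x hx
    obtain ⟨A, hA, rfl⟩ := Finset.mem_image.1 hx
    exact kpg_rel_conj (hΦ hρ) h (Finset.mem_powerset.1 hA) _ φ (fun j => hΦ (hφ j)) H

end Crest.Agent.KP
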