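import Crest.Agent.KPG_Q6
import Crest.Agent.KPA_Fin

/-!
# S0270, part (G)-algebra (author helper47): qs is primitive
-/

set_option autoImplicit false
set_option linter.unusedSectionVars false

open scoped symmDiff
open Module

namespace Crest.Agent.KP

variable {K : Type} [Field K] [KF K]

/-- hence `dim Φ[qs] ≥ dim Φ * 2^h` (the map `Φ^(2^h) → Φ[qs]`, `φ ↦ ∑ φ_j qs^j` is injective), and with
`Φ[qs] ≤ QL` and `dim QL = dim Φ * 2^h`: `Φ[qs] = QL`. -/
theorem kpg_adj_qs {k0 : ℕ} (Φ : Subalgebra K (QA K)) (hΦ : Φ ≤ lev K k0) (hc : Comm Φ)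
    {ρ : QA K} (hρ : ρ ∈ Φ) (h : ℕ) : adj Φ (qs ρ k0 h) = QL Φ ρ k0 h := by
  obtain ⟨hle, hlev, -, -, hdim⟩ := kpg_QL_basic Φ hΦ hc hρ h
  have hle2 : adj Φ (qs ρ k0 h) ≤ QL Φ ρ k0 h := kpg_adj_le hle (kpg_qs_mem Φ ρ h)
  haveI hf1 : FiniteDimensional K (Subalgebra.toSubmodule (QL Φ ρ k0 h)) := kpa_fd_of_le' hlev
  haveI hf2 : FiniteDimensional K (Subalgebra.toSubmodule (adj Φ (qs ρ k0 h))) :=
    kpa_fd_of_le' (hle2.trans hlev)
  haveI hf3 : FiniteDimensional K Φ := kpa_fd_of_le' hΦ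
  have hge : finrank K (Subalgebra.toSubmodule (QL Φ ρ k0 h)) ≤
      finrank K (Subalgebra.toSubmodule (adj Φ (qs ρ k0 h))) := by
    have h1 : finrank K (Subalgebra.toSubmodule (QL Φ ρ k0 h)) = finrank K Φ * 2 ^ h := hdim
    let f : (Fin (2 ^ h) → Φ) →ₗ[K] QA K :=
      ∑ j : Fin (2 ^ h), ((LinearMap.mulRight K (qs ρ k0 h ^ (j : ℕ))).comp
        ((Subalgebra.toSubmodule Φ).subtype)).comp (LinearMap.proj j)
    have hf : ∀ x : Fin (2 ^ h) → Φ,
        f x = ∑ j : Fin (2 ^ h), ((x j : Φ) : QA K) * qs ρ k0 h ^ (j : ℕ) := by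
      intro x
      rw [LinearMap.sum_apply]
      rfl
    have hker : LinearMap.ker f = ⊥ := by
      rw [LinearMap.ker_eq_bot']
      intro x hx
      rw [hf] at hx
      have h2 := kpg_rel_zero Φ hΦ hc hρ h
        (fun j => if hj : j < 2 ^ h then ((x ⟨j, hj⟩ : Φ) : QA K) else 0)
        (fun j => by
          show (if hj : j < 2 ^ h then ((x ⟨j, hj⟩ : Φ) : QA K) else 0) ∈ Φ
          split_ifs
          · exact Subtype.mem _
          · exact zero_mem _)
        (by
          rw [← Fin.sum_univ_eq_sum_range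
            (fun j => (if hj : j < 2 ^ h then ((x ⟨j, hj⟩ : Φ) : QA K) else 0) * qs ρ k0 h ^ j)]
          rw [← hx]
          refine Finset.sum_congr rfl fun j _ => ?_
          rw [dif_pos j.2])
      funext j
      have h3 := h2 j j.2
      rw [dif_pos j.2] at h3
      exact Subtype.ext h3
    have hrange : LinearMap.range f ≤ Subalgebra.toSubmodule (adj Φ (qs ρ k0 h)) := by
      rintro _ ⟨x, rfl⟩
      rw [hf]
      exact Submodule.sum_mem _ fun j _ => mul_mem (S := Subalgebra K (QA K))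
        (kpg_le_adj (x j).2) (pow_mem kpg_mem_adj _)
    have h4 := LinearMap.finrank_range_of_inj (LinearMap.ker_eq_bot.1 hker)
    have h5 := Submodule.finrank_mono hrange
    rw [h4, Module.finrank_pi_fintype, Finset.sum_const, Finset.card_univ, Fintype.card_fin,
      smul_eq_mul, mul_comm] at h5
    rw [h1]
    exact h5
  exact Subalgebra.toSubmodule_injective (Submodule.eq_of_le_of_finrank_le hle2 hge)

end Crest.Agent.KP
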