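import Crest.Agent.KPH_Base

/-!
# S0270, part (H), file 1: facts at the state `s_4` (helper52)
-/

set_option autoImplicit false
set_option linter.unusedSectionVars false

open scoped PowerSeries LaurentSeries symmDiff

namespace Crest.Agent.KP.Pt

variable {K I J : Type} [Field K] [KF K] [Fintype I] [Fintype J]
variable {s : Pt K I J} {w : NC K I} {d t : ℕ} {T : I → QA K⟦X⟧} {w1 w2 : I → QA K} {a ρ : QA K}

/-- (easy) `s` is alternating, `s_5` is good and has the same `o`. -/
theorem kph_s5 (h : s.Pkg4 w d t T w1 w2 a ρ) :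
    s.Alt ∧ (s.grow T).o = s.o ∧ (s.grow T).Good := by
  have h1 := C_reach s h.good h.stable K inferInstance inferInstance s (Place.refl K) Rch.refl
  have h2 := Rch.grow K inferInstance inferInstance s (Place.refl K) Rch.refl T w1 w2 h.gr
  have h3 := h.stable _ _ _ _ _ h2
  exact ⟨h1.2.2, h3, (C_grow_o s h.good h1.2.2 T w1 w2 h.gr).2 h3⟩

end Crest.Agent.KP.Pt
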