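import Crest.Agent.KPH_10a

/-!
# S0270, part (H): test 1 (helper52)
-/

set_option autoImplicit false
set_option linter.unusedSectionVars false

open scoped PowerSeries LaurentSeries symmDiff

namespace Crest.Agent.KP.Pt

variable {K I J : Type} [Field K] [KF K] [Fintype I] [Fintype J]
variable {s : Pt K I J} {w : NC K I} {d t : ℕ} {T : I → QA K⟦X⟧} {w1 w2 : I → QA K} {a ρ : QA K}


/-- elements of `K1` commute -/
theorem kph10_K1_comm (s : Pt K I J) (w : NC K I) (x y : QA K) (hx : x ∈ s.K1 w)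
    (hy : y ∈ s.K1 w) : x * y = y * x := by
  have h1 : ∀ z ∈ s.K1 w, z * s.omg w = s.omg w * z := by
    intro z hz
    induction hz using Algebra.adjoin_induction with
    | mem z hz => rw [Set.mem_singleton_iff.1 hz]
    | algebraMap r => exact Algebra.commutes r _
    | add a b _ _ ha hb => rw [mul_add, add_mul, ha, hb]
    | mul a b _ _ ha hb => rw [mul_assoc, hb, ← mul_assoc, ha, mul_assoc]
  induction hy using Algebra.adjoin_induction with
  | mem z hz => rw [Set.mem_singleton_iff.1 hz]; exact h1 x hx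
  | algebraMap r => exact (Algebra.commutes r _).symm
  | add a b _ _ ha hb => rw [mul_add, add_mul, ha, hb]
  | mul a b _ _ ha hb => rw [← mul_assoc, ha, mul_assoc, hb, mul_assoc]

/-- `K1 ≤ lev k` -/
theorem kph10_K1_lev (hg : s.Good) (w : NC K I) : s.K1 w ≤ lev K s.k :=
  Algebra.adjoin_le (Set.singleton_subset_iff.2 (NC.kph_ev_mem (lev K s.k) w s.X hg.Xlev))

/-- TEST 1. `lam2, ρ lam2 ∈ RR`. Take `v' ∈ ker Θ` with
`E_ω(dw[v']) = a lam2 Ā S3 = a lam2 (al S2) - a ρ lam2 (be S1)` (`kph_realize`), so `E_{ω,Ā}(dw[v']) = 0`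
(`kph_Pr_tower`, `kph_PrAb`); lift to `u' ∈ W⁺` (`kph_lift`), `kph_ext_W`, `kph_pole`, `kph_gamma`: the residue
of `z γ'` is `-(1/2) lam2 S3`. Multiply `Σ_i B⁺(c_i)(u_i)(u') = 0` (`kph_B_ext`) by `z` and take residues:
`0 = Σ_i tr(res c_i' * dw[v0_i] * (-(1/2) lam2 S3)) = Σ_i tr(res c_i' * a lam_i S3 * (-(1/2) lam2 S3))`
(`res c_i'` and `lam2 S3` commute with `ω`), and `res c_i' * a = m_i`, `S3² = - al be ≠ 0`. -/
theorem kph_test1 (h : s.Pkg4 w d t T w1 w2 a ρ) (h5 : (s.grow T).Pkg w.up d) (a5 : QA K⸨X⸩)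
    (m0 : Submodule K⸨X⸩ (QA K⸨X⸩)) (hx : (s.grow T).ExtOk w.up a5 m0)
    (lam : Fin t → QA K) (hlam : ∀ i, lam i ∈ s.RR w a) (v0 : Fin t → (I → QA K))
    (hf : s.HFam w t w1 w2 a lam v0) (u : Fin t → (I ⊕ Bool → QA K⸨X⸩))
    (hu : s.HLift w t T a5 m0 v0 u)
    (c : Fin t → (Option J → QA K⸨X⸩)) (hc : ∀ i, c i ∈ ((s.grow T).ext w.up a5 m0).U)
    (hi : ∀ i j, (Place.laurent K).Int (c i j))
    (hB : ∀ v ∈ ((s.grow T).ext w.up a5 m0).W,
      ∑ i, ((s.grow T).ext w.up a5 m0).B (c i) (u i) v = 0)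
    (m : Fin t → QA K) (hm : ∀ i, m i ∈ s.K2 w)
    (hm2 : ∀ i, (Place.laurent K).rq (c i none) * a = m i)
    (lam2 : QA K) (h1 : lam2 ∈ s.RR w a) (h2 : ρ * lam2 ∈ s.RR w a) :
    QA.tr ((∑ i, lam i * m i) * lam2) = 0 := by
  obtain ⟨hK, haL, -, -, haR⟩ := kph_L_eq h
  have hg := h.good
  have hg5 := (kph_s5 h).2.2
  have hK1 : ∀ x ∈ s.K1 w, x ∈ lev K s.k := fun x hx => kph10_K1_lev hg w hx
  have haK : a ∈ s.K1 w := h.comm haL
  have hRK : ∀ x ∈ s.RR w a, x ∈ s.K1 w := fun x hx => hK hx.1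
  have hρ : ρ ∈ s.K1 w := hRK ρ h.rho
  have hl2 : lam2 ∈ s.K1 w := hRK lam2 h1
  have hcomm := fun x y hx hy => kph10_K1_comm s w x y hx hy
  set u1 : QA K := -((be s.k : K) • (a * (ρ * lam2))) with hu1
  set u2 : QA K := (al s.k : K) • (a * lam2) with hu2
  have hu1L : u1 ∈ s.LL w := Submodule.neg_mem _ (Submodule.smul_mem _ _ (haR _ h2))
  have hu2L : u2 ∈ s.LL w := Submodule.smul_mem _ _ (haR _ h1)
  obtain ⟨v, hv, hE⟩ := kph_realize h 0 u1 u2 0 (Submodule.zero_mem _) hu1L hu2L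
    (Submodule.zero_mem _)
  have hdw := kph10_dw_ker_lev hg w v hv
  -- `Ā ≠ 0`
  have hal : (al s.k : K) ≠ 0 := KF.al_ne s.k
  have hbe : (be s.k : K) ≠ 0 := KF.be_ne s.k
  have hAb : Ab s.k ρ ≠ 0 := by
    intro h0
    have h3 := kph_PrAb h 0 1 0 0 (Subalgebra.zero_mem _) (Subalgebra.one_mem _)
      (Subalgebra.zero_mem _) (Subalgebra.zero_mem _)
    rw [h0] at h3
    simp only [mul_zero, smul_zero, add_zero, zero_add] at h3
    exact (smul_ne_zero hal one_ne_zero) h3.symm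
  have hE0 : Pr (s.k + 1) ({s.omg w, Ab s.k ρ} : Set (QA K)) (w.d1 s.X v) = 0 := by
    rw [kph_Pr_tower h _ hdw, hE]
    have h3 := kph_PrAb h 0 u1 u2 0 (Subalgebra.zero_mem _) (h.comm hu1L) (h.comm hu2L)
      (Subalgebra.zero_mem _)
    have h4 : (al s.k : K) • u1 + (be s.k : K) • (ρ * u2) = 0 := by
      have e : ρ * (a * lam2) = a * (ρ * lam2) := by
        rw [← mul_assoc, hcomm ρ a hρ haK, mul_assoc]
      rw [hu1, hu2, mul_smul_comm, e, smul_neg, smul_smul, smul_smul, mul_comm, neg_add_cancel]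
    rw [h4, zero_mul (Ab s.k ρ), add_zero (0 : QA K)] at h3
    exact (mul_eq_zero.1 h3).resolve_right hAb
  obtain ⟨u', hu', hf', hint, hres⟩ := kph_lift h a5 m0 v hv hE0
  obtain ⟨hW, hγl, hγ0, heq⟩ := kph_ext_W (s.grow T) w.up hg5 a5 m0 u' hu' hf'
  have hb := kph10_dw_res h.gr.zero w (fun i => u' (Sum.inl i)) v hint hres
  have hbl := kph10_dw5_lev hg5 w _ hW
  obtain ⟨hzi, hzl, hzc, hzo, hze⟩ := kph_pole h _ _ hγl hb.1 hbl hγ0 heq
  set γ := u' (Sum.inr false) with hγ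
  set γ0 := (Place.laurent K).rq (zL K • γ) with hγ0'
  have hS1c : ∀ x ∈ lev K s.k, x * S1 s.k = S1 s.k * x := fun x hx =>
    kpa_lev_mid_comm hx (kpa_S1_mem s.k)
  have hS2c : ∀ x ∈ lev K s.k, x * S2 s.k = S2 s.k * x := fun x hx =>
    kpa_lev_mid_comm hx (kpa_S2_mem s.k)
  have hS3c : ∀ x ∈ lev K s.k, x * S3 s.k = S3 s.k * x := fun x hx =>
    kpa_lev_mid_comm hx (kpa_S3_mem s.k)
  -- the right hand side of the pole equation
  have hrhs : Pr (s.k + 1) {s.omg w} ((Place.laurent K).rq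
      (w.up.d1 (s.grow T).X fun i => u' (Sum.inl i))) = a * lam2 * Ab s.k ρ * S3 s.k := by
    rw [hb.2, hE, hu1, hu2]
    unfold Ab
    rw [mul_add, add_mul, zero_add, zero_mul, add_zero, mul_assoc (a * lam2) (S1 s.k) (S3 s.k),
      kpa_S1_mul_S3, mul_smul_comm, ← smul_mul_assoc,
      ← mul_assoc (a * lam2) ρ (S2 s.k), mul_assoc _ (S2 s.k) (S3 s.k), kpa_S2_mul_S3, mul_neg,
      mul_smul_comm, neg_mul, smul_mul_assoc]
    have e : a * (ρ * lam2) = a * lam2 * ρ := by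
      rw [mul_assoc, hcomm ρ lam2 hρ hl2]
    rw [e, add_comm, smul_mul_assoc, smul_mul_assoc]
  rw [hrhs] at hze
  have hγ0eq := kph_gamma h lam2 h1.1 γ0 hzl hzc hzo hze
  have hωl : s.omg w ∈ s.K1 w := Algebra.subset_adjoin rfl
  -- facts on the residues of `c none`
  have hrl : ∀ i, (Place.laurent K).rq (c i none) ∈ lev K (s.k + 1) := by
    intro i
    refine Place.rq_lev _ ?_
    have h3 := (hc i).1
    unfold AJ at h3
    rw [Submodule.mem_pi] at h3
    exact h3 none trivial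
  have hrc : ∀ i, (Place.laurent K).rq (c i none) * s.omg w =
      s.omg w * (Place.laurent K).rq (c i none) := by
    intro i
    have h3 : ((Place.laurent K).rq (c i none) * s.omg w -
      s.omg w * (Place.laurent K).rq (c i none)) * a = 0 := by
      rw [sub_mul, mul_assoc, hcomm _ a hωl haK, ← mul_assoc, hm2 i, mul_assoc, hm2 i,
        hcomm _ _ (hK (hm i)) hωl, sub_self]
    exact sub_eq_zero.1 ((mul_eq_zero.1 h3).resolve_right h.a0)
  -- the residue of `z B⁺(c i)(u i)(u')`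
  have key : ∀ i, zL K * ((s.grow T).ext w.up a5 m0).B (c i) (u i) u' ∈ (Place.laurent K).O ∧
      (Place.laurent K).r (zL K * ((s.grow T).ext w.up a5 m0).B (c i) (u i) u') =
        (1 / 2 * (al s.k * be s.k)) * QA.tr (lam i * m i * lam2) := by
    intro i
    rw [kph_B_ext _ _ _ _ _ _ _ hf']
    have g1 := kph_res_B s T h.gr.zero (fun j => c i (some j)) (fun j => u i (Sum.inl j))
      (fun j => u' (Sum.inl j)) (fun j => hi i (some j)) (hu.int i) hint
    have g2 := kph10_dw_res h.gr.zero w (fun j => u i (Sum.inl j)) (v0 i) (hu.int i) (hu.res i)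
    have g3 := kph10_dw2_res (s := s) (T := T) w (fun j => u i (Sum.inl j))
      (fun j => u' (Sum.inl j)) (hu.int i) hint
    have g4 := Place.int_smul _ (kpr_zL_mem (K := K)) g3
    have g5 := Place.int_mul _ g2.1 hzi
    have g6 := Place.int_add _ g4 g5
    have g7 := Place.int_mul _ (hi i none) g6
    have e1 : zL K * QA.tr (c i none * (NC.d2 (s.grow T).X (fun i_1 => u i (Sum.inl i_1))
          (fun i => u' (Sum.inl i)) w.up +
        NC.d1 (s.grow T).X (fun i_1 => u i (Sum.inl i_1)) w.up * u' (Sum.inr false))) =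
        QA.tr (c i none * (zL K • NC.d2 (s.grow T).X (fun i_1 => u i (Sum.inl i_1))
          (fun i => u' (Sum.inl i)) w.up +
        NC.d1 (s.grow T).X (fun i_1 => u i (Sum.inl i_1)) w.up * zL K • γ)) := by
      rw [mul_smul_comm, ← smul_add, mul_smul_comm, map_smul, smul_eq_mul]
    rw [mul_add, e1]
    have g8 := mul_mem (kpr_zL_mem (K := K)) g1.1
    refine ⟨add_mem g8 (Place.tr_mem _ g7), ?_⟩
    rw [Place.r_add _ g8 (Place.tr_mem _ g7), Place.r_mul _ kpr_zL_mem g1.1, kpr_zL_r, zero_mul,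
      zero_add, Place.r_tr, Place.rq_mul _ (hi i none) g6, Place.rq_add _ g4 g5,
      Place.rq_smul _ kpr_zL_mem g3, kpr_zL_r, zero_smul, zero_add, Place.rq_mul _ g2.1 hzi, g2.2]
    have hD := kph10_dw_ker_lev hg w (v0 i) (hf.ker i)
    have hdm : γ0 * (Place.laurent K).rq (c i none) ∈ lev K (s.k + 1) :=
      (lev K (s.k + 1)).mul_mem hzl (hrl i)
    have hor := (Pr_spec (s.k + 1) {s.omg w} (w.d1 s.X (v0 i)) hD).2.2 _ hdm (by
      intro φ hφ
      rw [Set.mem_singleton_iff.1 hφ, mul_assoc, hrc i, ← mul_assoc, hzc, mul_assoc])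
    rw [sub_mul, map_sub, sub_eq_zero] at hor
    rw [kpa_tr_comm, mul_assoc, hor, hf.ell i, hγ0eq]
    have e2 : a * lam i * S3 s.k * ((-(1 / 2) : K) • (lam2 * S3 s.k) *
        (Place.laurent K).rq (c i none)) =
        (1 / 2 * (al s.k * be s.k) : K) • (a * lam i * lam2 * (Place.laurent K).rq (c i none)) := by
      rw [smul_mul_assoc, mul_smul_comm]
      have e3 : a * lam i * S3 s.k * (lam2 * S3 s.k * (Place.laurent K).rq (c i none)) =
          a * lam i * lam2 * (S3 s.k * S3 s.k) * (Place.laurent K).rq (c i none) := by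
        have e4 : a * lam i * S3 s.k * (lam2 * S3 s.k * (Place.laurent K).rq (c i none)) =
            a * lam i * (S3 s.k * lam2) * S3 s.k * (Place.laurent K).rq (c i none) := by
          simp only [mul_assoc]
        rw [e4, ← hS3c lam2 (hK1 _ hl2)]
        simp only [mul_assoc]
      rw [e3, kpa_S3_mul_S3, mul_neg, mul_smul_comm, mul_one, neg_mul, smul_mul_assoc, smul_neg,
        smul_smul, ← neg_smul]
      congr 1
      ring
    rw [e2, map_smul, smul_eq_mul]
    congr 1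
    rw [kpa_tr_comm, ← mul_assoc, ← mul_assoc, hm2 i, hcomm _ _ (hK (hm i)) (hRK _ (hlam i))]
  have hsum := hB u' hu'
  have h6 : (Place.laurent K).r (∑ i, zL K * ((s.grow T).ext w.up a5 m0).B (c i) (u i) u') = 0 := by
    rw [← Finset.mul_sum, hsum, mul_zero]
    exact Place.r_zero' _
  rw [Place.r_sum _ _ _ fun i _ => (key i).1, Finset.sum_congr rfl fun i _ => (key i).2,
    ← Finset.mul_sum] at h6
  have h7 : (1 / 2 * (al s.k * be s.k) : K) ≠ 0 :=
    mul_ne_zero (by norm_num) (mul_ne_zero hal hbe)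
  rw [Finset.sum_mul, map_sum]
  exact (mul_eq_zero.1 h6).resolve_left h7

end Crest.Agent.KP.Pt
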