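import Crest.Agent.KPH_10a
import Crest.Agent.KPH_10b

/-!
# S0270, part (H): injectivity (TInj) for the lifted family (assembly) (helper52)
-/

set_option autoImplicit false
set_option linter.unusedSectionVars false

open scoped PowerSeries LaurentSeries symmDiff

namespace Crest.Agent.KP.Pt

variable {K I J : Type} [Field K] [KF K] [Fintype I] [Fintype J]
variable {s : Pt K I J} {w : NC K I} {d t : ℕ} {T : I → QA K⟦X⟧} {w1 w2 : I → QA K} {a ρ : QA K}


/-- (assembly) -/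
theorem kph_TInj (h : s.Pkg4 w d t T w1 w2 a ρ) (h5 : (s.grow T).Pkg w.up d) (a5 : QA K⸨X⸩)
    (m0 : Submodule K⸨X⸩ (QA K⸨X⸩)) (hx : (s.grow T).ExtOk w.up a5 m0)
    (lam : Fin t → QA K) (hlam : ∀ i, lam i ∈ s.RR w a)
    (hlam2 : ∀ m : Fin t → QA K, (∀ i, m i ∈ s.K2 w ∧ m i ∈ perp (s.RR w a : Set (QA K))) →
      (∃ m' m'' : QA K, (m' ∈ s.K2 w ∧ m' ∈ perp (s.RR w a : Set (QA K))) ∧
        (m'' ∈ s.K2 w ∧ m'' ∈ perp (s.RR w a : Set (QA K))) ∧
        ∑ i, lam i * m i = m' + ρ * m'') → ∀ i, m i = 0)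
    (v0 : Fin t → (I → QA K)) (hf : s.HFam w t w1 w2 a lam v0)
    (u : Fin t → (I ⊕ Bool → QA K⸨X⸩)) (hu : s.HLift w t T a5 m0 v0 u) :
    ((s.grow T).ext w.up a5 m0).TInj (Submodule.span K⸨X⸩ (Set.range u))
      ((s.grow T).ext w.up a5 m0).W := by
  apply kph_TInj_of_family
  intro c hc hB
  by_contra hne
  push Not at hne
  obtain ⟨i0, hi0⟩ := hne
  -- scale
  have hne2 : (fun p : Fin t × Option J => c p.1 p.2) ≠ 0 := by
    intro h0
    exact hi0 (funext fun j => congrFun h0 (i0, j))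
  obtain ⟨κ, hκ, hint, hres, -⟩ := (Place.laurent K).exists_scale_I
    (fun p : Fin t × Option J => c p.1 p.2) hne2
  let c' : Fin t → (Option J → QA K⸨X⸩) := fun i => κ • c i
  have hc' : ∀ i, c' i ∈ ((s.grow T).ext w.up a5 m0).U := fun i => Submodule.smul_mem _ _ (hc i)
  have hi' : ∀ i j, (Place.laurent K).Int (c' i j) := fun i j => hint (i, j)
  have hB' : ∀ v ∈ ((s.grow T).ext w.up a5 m0).W,
      ∑ i, ((s.grow T).ext w.up a5 m0).B (c' i) (u i) v = 0 := by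
    intro v hv
    have : ∑ i, ((s.grow T).ext w.up a5 m0).B (c' i) (u i) v =
        κ * ∑ i, ((s.grow T).ext w.up a5 m0).B (c i) (u i) v := by
      rw [Finset.mul_sum]
      exact Finset.sum_congr rfl fun i _ => kph_B_smul_c _ _ _ _ _
    rw [this, hB v hv, mul_zero]
  have hm := fun i => kph_U1 h h5 a5 m0 hx (c' i) (hc' i) (hi' i none)
  choose m hm1 hm2 hm3 using hm
  -- the sum is in `K2`
  have hsum : ∑ i, lam i * m i ∈ s.K2 w :=
    Subalgebra.sum_mem _ fun i _ => Subalgebra.mul_mem _ ((hlam i).1) (hm1 i)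
  obtain ⟨m', m'', h1, h2, h3⟩ := kph_orth h (∑ i, lam i * m i) hsum
    (fun x hx1 hx2 => kph_test1 h h5 a5 m0 hx lam hlam v0 hf u hu c' hc' hi' hB' m hm1 hm3 x hx1 hx2)
  have hm0 := hlam2 m (fun i => ⟨hm1 i, hm2 i⟩) ⟨m', m'', h1, h2, h3⟩
  -- residues of `c none` vanish
  have hr0 : ∀ i, (Place.laurent K).rq (c' i none) = 0 := by
    intro i
    have h4 := hm3 i
    rw [hm0 i] at h4
    rcases KF.dom _ _ h4 with h5 | h5
    · exact h5
    · exact absurd h5 h.a0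
  have hU : ∀ i, (fun j => (Place.laurent K).rq (c' i (some j))) ∈ s.U := fun i =>
    kph_U2 h h5 a5 m0 hx (c' i) (hc' i) (hi' i) (hr0 i)
  have h6 := hf.inj (fun i j => (Place.laurent K).rq (c' i (some j))) hU
    (fun v hv hE => kph_test2 h h5 a5 m0 hx v0 u hu c' hc' hi' hB' hr0 v hv hE)
  apply hres
  funext p
  obtain ⟨i, j⟩ := p
  rcases j with _ | j
  · exact hr0 i
  · exact congrFun (h6 i) j

end Crest.Agent.KP.Pt
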