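import Crest.Agent.KPH_10d

/-!
# S0270, part (H): residue of `B`, test 2 (helper52)
-/

set_option autoImplicit false
set_option linter.unusedSectionVars false

open scoped PowerSeries LaurentSeries symmDiff

namespace Crest.Agent.KP.Pt

variable {K I J : Type} [Field K] [KF K] [Fintype I] [Fintype J]
variable {s : Pt K I J} {w : NC K I} {d t : ℕ} {T : I → QA K⟦X⟧} {w1 w2 : I → QA K} {a ρ : QA K}


/-- elements of `mulE k V` are in `lev (k+1)` -/
theorem kph10_mulE_lev (k : ℕ) (V : Submodule K (I → QA K)) (hV : ∀ v ∈ V, ∀ i, v i ∈ lev K k)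
    (v : I → QA K) (hv : v ∈ mulE k V) (i : I) : v i ∈ lev K (k + 1) := by
  have key : mulE k V ≤ Submodule.comap (LinearMap.proj i)
      (Subalgebra.toSubmodule (lev K (k + 1))) := by
    unfold mulE
    refine sup_le (sup_le (sup_le ?_ ?_) ?_) ?_
    · intro v hv
      exact kpa_lev_mono (Nat.le_succ k) (hV v hv i)
    · rintro _ ⟨v, hv, rfl⟩
      exact (lev K (k + 1)).mul_mem (kpa_lev_mono (Nat.le_succ k) (hV v hv i)) (kpa_S1_mem_lev k)
    · rintro _ ⟨v, hv, rfl⟩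
      exact (lev K (k + 1)).mul_mem (kpa_lev_mono (Nat.le_succ k) (hV v hv i)) (kpa_S2_mem_lev k)
    · rintro _ ⟨v, hv, rfl⟩
      exact (lev K (k + 1)).mul_mem (kpa_lev_mono (Nat.le_succ k) (hV v hv i)) (kpa_S3_mem_lev k)
  exact key hv

/-- `dw[v] ∈ lev (k+1)` for `v ∈ ker Θ` -/
theorem kph10_dw_ker_lev (hg : s.Good) (w : NC K I) (v : I → QA K) (hv : s.KerTh w1 w2 v) :
    w.d1 s.X v ∈ lev K (s.k + 1) := by
  refine NC.kph_d1_mem (lev K (s.k + 1)) w s.X v
    (fun i => kpa_lev_mono (Nat.le_succ _) (hg.Xlev i)) fun i => ?_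
  exact kph10_mulE_lev s.k s.W (fun v hv i => hg.V1lev v (hg.V0V1 hv.1) i) v hv.1 i

/-- the integral word derivative at `s_5` -/
theorem kph10_dw_res (hz : ∀ i, cf 0 (T i) = s.X i) (w : NC K I) (u : I → QA K⸨X⸩) (v : I → QA K)
    (hi : ∀ i, (Place.laurent K).Int (u i)) (hr : ∀ i, (Place.laurent K).rq (u i) = v i) :
    (Place.laurent K).Int (w.up.d1 (s.grow T).X u) ∧
      (Place.laurent K).rq (w.up.d1 (s.grow T).X u) = w.d1 s.X v := by
  have h := NC.kph_res_d1 (Place.laurent K) w (fun i => toL K (T i)) u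
    (fun i => kpr_int_toL _) hi
  have e1 : (fun i => (Place.laurent K).rq (toL K (T i))) = s.X := by
    funext i
    rw [kpr_rq_toL, hz]
  have e2 : (fun i => (Place.laurent K).rq (u i)) = v := funext hr
  rw [e1, e2] at h
  exact h

/-- the integral second word derivative at `s_5` -/
theorem kph10_dw2_res (w : NC K I) (u v : I → QA K⸨X⸩)
    (hi : ∀ i, (Place.laurent K).Int (u i)) (hj : ∀ i, (Place.laurent K).Int (v i)) :
    (Place.laurent K).Int (w.up.d2 (s.grow T).X u v) :=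
  (NC.kph_res_d2 (Place.laurent K) w (fun i => toL K (T i)) u v
    (fun i => kpr_int_toL _) hi hj).1

/-- elements of `W(s_5)` are in `lev (k+1)` -/
theorem kph10_dw5_lev (hg : (s.grow T).Good) (w : NC K I) (u : I → QA K⸨X⸩)
    (hu : u ∈ (s.grow T).W) : w.up.d1 (s.grow T).X u ∈ lev K⸨X⸩ (s.k + 1) :=
  NC.kph_d1_mem (lev K⸨X⸩ (s.k + 1)) w.up (s.grow T).X u (fun i => hg.Xlev i)
    (fun i => hg.V1lev u (hg.V0V1 hu.1) i)

/-- residue of `B` at `s_5` on integral arguments: `s.B` of the residues (`NC.kph_res_d2`). -/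
theorem kph_res_B (s : Pt K I J) (T : I → QA K⟦X⟧) (hT : ∀ i, cf 0 (T i) = s.X i)
    (c : J → QA K⸨X⸩) (u v : I → QA K⸨X⸩)
    (hc : ∀ j, (Place.laurent K).Int (c j)) (hu : ∀ i, (Place.laurent K).Int (u i))
    (hv : ∀ i, (Place.laurent K).Int (v i)) :
    (s.grow T).B c u v ∈ (Place.laurent K).O ∧
    (Place.laurent K).r ((s.grow T).B c u v) =
      s.B (fun j => (Place.laurent K).rq (c j)) (fun i => (Place.laurent K).rq (u i))
        (fun i => (Place.laurent K).rq (v i)) := by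
  have e1 : (fun i => (Place.laurent K).rq (toL K (T i))) = s.X := by
    funext i
    rw [kpr_rq_toL, hT]
  have key : ∀ j, QA.tr (c j * ((s.grow T).F j).d2 (s.grow T).X u v) ∈ (Place.laurent K).O ∧
      (Place.laurent K).r (QA.tr (c j * ((s.grow T).F j).d2 (s.grow T).X u v)) =
        QA.tr ((Place.laurent K).rq (c j) * (s.F j).d2 s.X (fun i => (Place.laurent K).rq (u i))
          (fun i => (Place.laurent K).rq (v i))) := by
    intro j
    have h := NC.kph_res_d2 (Place.laurent K) (s.F j) (fun i => toL K (T i)) u v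
      (fun i => kpr_int_toL _) hu hv
    rw [e1] at h
    have hF : ((s.grow T).F j).d2 (s.grow T).X u v =
      ((s.F j).map (Place.laurent K).inc).d2 (fun i => toL K (T i)) u v := rfl
    rw [hF]
    exact ⟨Place.tr_mem _ (Place.int_mul _ (hc j) h.1), by
      rw [Place.r_tr, Place.rq_mul _ (hc j) h.1, h.2]⟩
  unfold B
  exact ⟨Place.sum_mem_O _ _ _ fun j _ => (key j).1, by
    rw [Place.r_sum _ _ _ fun j _ => (key j).1]
    exact Finset.sum_congr rfl fun j _ => (key j).2⟩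

/-- TEST 2. If all `res (c_i none) = 0` then `Σ_i s.B(res c_i)(v0_i)(v) = 0` for all `v ∈ ker Θ` with
`E_ω(dw[v]) = 0`: `kph_lift`, `kph_ext_W`, `kph_pole0`, `kph_B_ext`, residue, `kph_res_B`. -/
theorem kph_test2 (h : s.Pkg4 w d t T w1 w2 a ρ) (h5 : (s.grow T).Pkg w.up d) (a5 : QA K⸨X⸩)
    (m0 : Submodule K⸨X⸩ (QA K⸨X⸩)) (hx : (s.grow T).ExtOk w.up a5 m0)
    (v0 : Fin t → (I → QA K)) (u : Fin t → (I ⊕ Bool → QA K⸨X⸩))
    (hu : s.HLift w t T a5 m0 v0 u)
    (c : Fin t → (Option J → QA K⸨X⸩)) (hc : ∀ i, c i ∈ ((s.grow T).ext w.up a5 m0).U)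
    (hi : ∀ i j, (Place.laurent K).Int (c i j))
    (hB : ∀ v ∈ ((s.grow T).ext w.up a5 m0).W,
      ∑ i, ((s.grow T).ext w.up a5 m0).B (c i) (u i) v = 0)
    (h0 : ∀ i, (Place.laurent K).rq (c i none) = 0)
    (v : I → QA K) (hv : s.KerTh w1 w2 v)
    (hE : Pr (s.k + 1) {s.omg w} (w.d1 s.X v) = 0) :
    ∑ i, s.B (fun j => (Place.laurent K).rq (c i (some j))) (v0 i) v = 0 := by
  have hg := h.good
  have hg5 := (kph_s5 h).2.2
  have hdw := kph10_dw_ker_lev hg w v hv
  have hE' : Pr (s.k + 1) ({s.omg w, Ab s.k ρ} : Set (QA K)) (w.d1 s.X v) = 0 := by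
    rw [kph_Pr_tower h _ hdw, hE, map_zero]
  obtain ⟨u', hu', hf, hint, hres⟩ := kph_lift h a5 m0 v hv hE'
  obtain ⟨hW, hγl, hγ0, heq⟩ := kph_ext_W (s.grow T) w.up hg5 a5 m0 u' hu' hf
  have hb := kph10_dw_res h.gr.zero w (fun i => u' (Sum.inl i)) v hint hres
  have hbl := kph10_dw5_lev hg5 w _ hW
  have hγ : (Place.laurent K).Int (u' (Sum.inr false)) :=
    kph_pole0 h _ _ hγl hb.1 hbl hγ0 heq (by rw [hb.2]; exact hE)
  have hB' := hB u' hu'
  have key : ∀ i, ((s.grow T).ext w.up a5 m0).B (c i) (u i) u' ∈ (Place.laurent K).O ∧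
      (Place.laurent K).r (((s.grow T).ext w.up a5 m0).B (c i) (u i) u') =
        s.B (fun j => (Place.laurent K).rq (c i (some j))) (v0 i) v := by
    intro i
    rw [kph_B_ext _ _ _ _ _ _ _ hf]
    have h1 := kph_res_B s T h.gr.zero (fun j => c i (some j)) (fun j => u i (Sum.inl j))
      (fun j => u' (Sum.inl j)) (fun j => hi i (some j)) (hu.int i) hint
    have e1 : (fun j => (Place.laurent K).rq (u i (Sum.inl j))) = v0 i := funext (hu.res i)
    have e2 : (fun j => (Place.laurent K).rq (u' (Sum.inl j))) = v := funext hres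
    rw [e1, e2] at h1
    have h2 := kph10_dw_res h.gr.zero w (fun j => u i (Sum.inl j)) (v0 i) (hu.int i) (hu.res i)
    have h3 := kph10_dw2_res (s := s) (T := T) w (fun j => u i (Sum.inl j))
      (fun j => u' (Sum.inl j)) (hu.int i) hint
    have h4 := Place.int_add _ h3 (Place.int_mul _ h2.1 hγ)
    have h5 := Place.int_mul _ (hi i none) h4
    refine ⟨add_mem h1.1 (Place.tr_mem _ h5), ?_⟩
    rw [Place.r_add _ h1.1 (Place.tr_mem _ h5), h1.2, Place.r_tr,
      Place.rq_mul _ (hi i none) h4, h0 i, zero_mul, map_zero, add_zero]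
  have h6 : (Place.laurent K).r (∑ i, ((s.grow T).ext w.up a5 m0).B (c i) (u i) u') = 0 := by
    rw [hB']
    exact Place.r_zero' _
  rw [Place.r_sum _ _ _ fun i _ => (key i).1] at h6
  rw [← h6]
  exact Finset.sum_congr rfl fun i _ => (key i).2.symm

end Crest.Agent.KP.Pt
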