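import Crest.Agent.KPH_1a
import Crest.Agent.KPC_Step

/-!
# S0270, part (H): the word at `s_5` (helper52)
-/

set_option autoImplicit false
set_option linter.unusedSectionVars false

open scoped PowerSeries LaurentSeries symmDiff

namespace Crest.Agent.KP.Pt

variable {K I J : Type} [Field K] [KF K] [Fintype I] [Fintype J]
variable {s : Pt K I J} {w : NC K I} {d t : ℕ} {T : I → QA K⟦X⟧} {w1 w2 : I → QA K} {a ρ : QA K}


/-- `cf 0 (w.ev T) = ω`, `E_ω(cf 1 (w.ev T)) = a Ā`, `omg s_5 = toL (w.ev T)`. -/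
theorem kph_om (h : s.Pkg4 w d t T w1 w2 a ρ) :
    (s.grow T).omg w.up = toL K (w.ev T) ∧ cf 0 (w.ev T) = s.omg w ∧
      Pr (s.k + 1) {s.omg w} (cf 1 (w.ev T)) = a * Ab s.k ρ ∧
      (∀ m, cf m (w.ev T) ∈ lev K (s.k + 1)) := by
  have hg := h.good
  have hT := h.gr
  have h0 : (fun i => cf 0 (T i)) = s.X := funext hT.zero
  have hω : s.omg w ∈ lev K s.k := NC.kph_ev_mem (lev K s.k) w s.X hg.Xlev
  have hTlev : ∀ i m, cf m (T i) ∈ lev K (s.k + 1) := by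
    intro i
    exact (KC.toL_mem_lev (s.k + 1) (T i)).1 (KC.grow_Xlev s T hg w1 w2 hT i)
  refine ⟨KC.ev_toL T w, ?_, ?_, ?_⟩
  · rw [KC.cf0_ev, h0]
    rfl
  · rw [KC.cf1_ev, h0]
    have e1 : (fun i => cf 1 (T i)) = (fun i => w1 i * S1 s.k) + (fun i => w2 i * S2 s.k) :=
      funext fun i => hT.one i
    have hw1 : ∀ i, w1 i ∈ lev K s.k := KC.W_lev s hg w1 hT.w1W
    have hw2 : ∀ i, w2 i ∈ lev K s.k := KC.W_lev s hg w2 hT.w2W
    rw [e1, NC.kph_d1_add, kph_dw_mul w s.k s.X w1 hg.Xlev (S1 s.k) (kpa_S1_mem s.k),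
      kph_dw_mul w s.k s.X w2 hg.Xlev (S2 s.k) (kpa_S2_mem s.k), map_add,
      kph_Pr_mul s.k (s.omg w) hω _ _ (NC.kph_d1_mem (lev K s.k) w s.X w1 hg.Xlev hw1)
        (kpa_S1_mem s.k),
      kph_Pr_mul s.k (s.omg w) hω _ _ (NC.kph_d1_mem (lev K s.k) w s.X w2 hg.Xlev hw2)
        (kpa_S2_mem s.k)]
    have l1 : Pr s.k {s.omg w} (w.d1 s.X w1) = a := h.l1
    have l2 : Pr s.k {s.omg w} (w.d1 s.X w2) = a * ρ := h.l2
    rw [l1, l2]
    unfold Ab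
    rw [mul_add, mul_assoc]
  · rw [← KC.mem_lev_iff_cf]
    exact KC.ev_mem (R := K⟦X⟧) (lev K⟦X⟧ (s.k + 1)) T
      (fun i => (KC.mem_lev_iff_cf (s.k + 1) (T i)).2 (hTlev i)) w

end Crest.Agent.KP.Pt
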