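import Crest.Agent.KPH_2b
import Crest.Agent.KPA_Fin

/-!
# S0270, part (H): solution of the pole equation (helper52)
-/

set_option autoImplicit false
set_option linter.unusedSectionVars false

open scoped PowerSeries LaurentSeries symmDiff

namespace Crest.Agent.KP.Pt

variable {K I J : Type} [Field K] [KF K] [Fintype I] [Fintype J]
variable {s : Pt K I J} {w : NC K I} {d t : ℕ} {T : I → QA K⟦X⟧} {w1 w2 : I → QA K} {a ρ : QA K}


theorem kph4b_comm (s : Pt K I J) (w : NC K I) (x : QA K) (hx : x * s.omg w = s.omg w * x) :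
    ∀ y ∈ s.K1 w, x * y = y * x := by
  intro y hy
  induction hy using Algebra.adjoin_induction with
  | mem y hy => rw [Set.mem_singleton_iff.1 hy, hx]
  | algebraMap r => exact (Algebra.commutes r x).symm
  | add a b _ _ ha hb => rw [mul_add, add_mul, ha, hb]
  | mul a b _ _ ha hb => rw [← mul_assoc, ha, mul_assoc, hb, mul_assoc]

theorem kph4b_comm' (s : Pt K I J) (w : NC K I) (x y : QA K) (hx : x ∈ s.K1 w)
    (hy : y ∈ s.K1 w) : x * y = y * x :=
  kph4b_comm s w x (kph4b_comm s w (s.omg w) rfl x hx).symm y hy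

theorem kph4b_K1_lev (s : Pt K I J) (hg : s.Good) (w : NC K I) : s.K1 w ≤ lev K s.k := by
  refine Algebra.adjoin_le ?_
  rintro x rfl
  exact NC.kph_ev_mem (lev K s.k) w s.X hg.Xlev

/-- an element of `C(ω) ∩ lev (k+1)` which commutes with `Ā` and is orthogonal to all elements of
`lev (k+1)` commuting with `ω` and `Ā` is `0` (it is `0` or invertible in a f.d. algebra; its inverse
commutes with `ω, Ā`). -/
theorem kph_zero_of_orth (k' : ℕ) (ω A : QA K) (η : QA K) (hη : η ∈ lev K k')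
    (h1 : η * ω = ω * η) (h2 : η * A = A * η)
    (h3 : ∀ x ∈ lev K k', x * ω = ω * x → x * A = A * x → QA.tr (η * x) = 0) : η = 0 := by
  have hmem : η ∈ cenA k' ({ω, A} : Set (QA K)) := by
    rw [mem_cenA]
    refine ⟨hη, ?_⟩
    intro φ hφ
    rcases hφ with rfl | hφ
    · exact h1
    · rw [Set.mem_singleton_iff.1 hφ]; exact h2
  refine kpa_sub_nondeg (B := cenA k' ({ω, A} : Set (QA K))) hmem ?_
  intro x hx
  rw [mem_cenA] at hx
  exact h3 x hx.1 (hx.2 ω (Set.mem_insert _ _))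
    (hx.2 A (Set.mem_insert_of_mem _ (Set.mem_singleton _)))

/-- The solution of the pole equation for `E_ω(res b) = a lam2 Ā S3` is `γ0 = -(1/2) lam2 S3`:
`S3 Ā = -Ā S3`, so `[a Ā, -(1/2) lam2 S3] = - a lam2 Ā S3` (`lam2 ∈ K[ω]` commutes with `a, ρ, S_i`);
the difference `γ0 + (1/2) lam2 S3` commutes with `ω` and `Ā` and is orthogonal to `C(ω,Ā)` (`S3` is
orthogonal to `C(Ā)` times `K[ω]`: for `x` commuting with `Ā` and `ω`,
`tr(lam2 S3 x) = tr(lam2 S3 Ā⁻¹ x Ā) = tr(Ā lam2 S3 Ā⁻¹ x) = - tr(lam2 S3 x)`); `kph_zero_of_orth`. -/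
theorem kph_gamma (h : s.Pkg4 w d t T w1 w2 a ρ) (lam2 : QA K) (hl : lam2 ∈ s.K2 w)
    (γ0 : QA K) (hγ : γ0 ∈ lev K (s.k + 1)) (h1 : γ0 * s.omg w = s.omg w * γ0)
    (h2 : ∀ x ∈ lev K (s.k + 1), x * s.omg w = s.omg w * x → x * Ab s.k ρ = Ab s.k ρ * x →
      QA.tr (γ0 * x) = 0)
    (h3 : a * Ab s.k ρ * γ0 - γ0 * (a * Ab s.k ρ) = - (a * lam2 * Ab s.k ρ * S3 s.k)) :
    γ0 = (-(1 / 2) : K) • (lam2 * S3 s.k) := by
  obtain ⟨hK21, haL, -, -, -⟩ := kph_L_eq h
  have hK1 : s.K1 w ≤ lev K s.k := kph4b_K1_lev s h.good w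
  have ha1 : a ∈ s.K1 w := h.comm haL
  have hρ1 : ρ ∈ s.K1 w := hK21 h.rho.1
  have hl1 : lam2 ∈ s.K1 w := hK21 hl
  have ca : ∀ u ∈ s.K1 w, ∀ v ∈ mid K s.k (s.k + 1), u * v = v * u := fun u hu v hv =>
    kpa_lev_mid_comm (hK1 hu) hv
  have m1 := kpa_S1_mem (R := K) s.k
  have m2 := kpa_S2_mem (R := K) s.k
  have m3 := kpa_S3_mem (R := K) s.k
  -- `S3 Ā = - Ā S3`
  have hS3A : S3 s.k * Ab s.k ρ = -(Ab s.k ρ * S3 s.k) := by
    unfold Ab
    rw [mul_add, add_mul, kpa_S3_mul_S1, kpa_S1_mul_S3, ← mul_assoc, ← ca ρ hρ1 _ m3, mul_assoc,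
      mul_assoc, kpa_S3_mul_S2, kpa_S2_mul_S3, mul_neg, neg_add, neg_neg]
  -- `Ā` commutes with `K1`
  have hAK : ∀ u ∈ s.K1 w, u * Ab s.k ρ = Ab s.k ρ * u := by
    intro u hu
    unfold Ab
    rw [mul_add, add_mul, ca u hu _ m1, ← mul_assoc, kph4b_comm' s w u ρ hu hρ1, mul_assoc,
      ca u hu _ m2, mul_assoc]
  have hA0 : Ab s.k ρ ≠ 0 := by
    intro h0
    have e1 : Ab s.k ρ * S1 s.k + S1 s.k * Ab s.k ρ = (2 * al s.k : K) • (1 : QA K) := by
      unfold Ab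
      rw [mul_add, add_mul, kpa_S1_mul_S1, mul_assoc, kpa_S2_mul_S1, ← mul_assoc (S1 s.k) ρ,
        ← ca ρ hρ1 _ m1, mul_assoc, kpa_S1_mul_S2, two_mul, add_smul, mul_neg]
      abel
    rw [h0, zero_mul, mul_zero, add_zero] at e1
    have h2 : (2 * al s.k : K) ≠ 0 := mul_ne_zero two_ne_zero (KF.al_ne s.k)
    have := congrArg QA.tr e1
    rw [map_zero, map_smul, kpa_tr_one, smul_eq_mul, mul_one] at this
    exact h2 this.symm
  -- the difference
  set δ : QA K := γ0 + (1 / 2 : K) • (lam2 * S3 s.k) with hδ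
  have hδ0 : δ = 0 := by
    have hω3 : lam2 * S3 s.k * s.omg w = s.omg w * (lam2 * S3 s.k) := by
      have hω1 : s.omg w ∈ s.K1 w := Algebra.subset_adjoin rfl
      rw [mul_assoc, ← ca _ hω1 _ m3, ← mul_assoc, kph4b_comm' s w lam2 _ hl1 hω1, mul_assoc]
    have c1 : δ * s.omg w = s.omg w * δ := by
      rw [hδ, add_mul, mul_add, h1, smul_mul_assoc, mul_smul_comm, hω3]
    have e2 : a * Ab s.k ρ * (lam2 * S3 s.k) - lam2 * S3 s.k * (a * Ab s.k ρ) =
        (2 : K) • (a * lam2 * Ab s.k ρ * S3 s.k) := by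
      have e3 : a * Ab s.k ρ * (lam2 * S3 s.k) = a * lam2 * Ab s.k ρ * S3 s.k := by
        rw [← mul_assoc, mul_assoc a, ← hAK lam2 hl1, ← mul_assoc]
      have e4 : lam2 * S3 s.k * (a * Ab s.k ρ) = -(a * lam2 * Ab s.k ρ * S3 s.k) := by
        rw [← mul_assoc, mul_assoc lam2, ← ca a ha1 _ m3, ← mul_assoc, mul_assoc (lam2 * a), hS3A,
          kph4b_comm' s w lam2 a hl1 ha1, mul_neg, ← mul_assoc]
      rw [e3, e4, two_smul, sub_neg_eq_add]
    have c2 : a * Ab s.k ρ * δ = δ * (a * Ab s.k ρ) := by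
      rw [← sub_eq_zero, hδ, mul_add, add_mul, mul_smul_comm, smul_mul_assoc]
      have e5 : a * Ab s.k ρ * γ0 + (1 / 2 : K) • (a * Ab s.k ρ * (lam2 * S3 s.k)) -
          (γ0 * (a * Ab s.k ρ) + (1 / 2 : K) • (lam2 * S3 s.k * (a * Ab s.k ρ))) =
          (a * Ab s.k ρ * γ0 - γ0 * (a * Ab s.k ρ)) + (1 / 2 : K) •
            (a * Ab s.k ρ * (lam2 * S3 s.k) - lam2 * S3 s.k * (a * Ab s.k ρ)) := by
        rw [smul_sub]; abel
      rw [e5, h3, e2, smul_smul]
      norm_num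
    have c3 : δ * a = a * δ := kph4b_comm s w δ c1 a ha1
    have c4 : δ * Ab s.k ρ = Ab s.k ρ * δ := by
      have : a * (Ab s.k ρ * δ) = a * (δ * Ab s.k ρ) := by
        rw [← mul_assoc, c2, ← mul_assoc, c3, mul_assoc]
      exact (mul_left_cancel₀ h.a0 this).symm
    refine kph_zero_of_orth (s.k + 1) (s.omg w) (Ab s.k ρ) δ ?_ c1 c4 ?_
    · refine add_mem hγ (Subalgebra.smul_mem _ (mul_mem ?_ (kpa_S3_mem_lev s.k)) _)
      exact kpa_lev_mono (Nat.le_succ s.k) (hK1 hl1)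
    · intro x hx hxω hxA
      rw [hδ, add_mul, map_add, h2 x hx hxω hxA, zero_add, smul_mul_assoc, map_smul]
      set y : QA K := lam2 * S3 s.k * x with hy
      have hxl : x * lam2 = lam2 * x := kph4b_comm s w x hxω lam2 hl1
      have e6 : Ab s.k ρ * y = -(y * Ab s.k ρ) := by
        rw [hy, ← mul_assoc, ← mul_assoc, ← hAK lam2 hl1, mul_assoc lam2 (Ab s.k ρ), 
          show Ab s.k ρ * S3 s.k = -(S3 s.k * Ab s.k ρ) by rw [hS3A, neg_neg]]
        rw [mul_neg, neg_mul, mul_assoc lam2, mul_assoc lam2, mul_assoc (S3 s.k), ← hxA,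
          ← mul_assoc (S3 s.k), ← mul_assoc lam2, ← mul_assoc lam2]
      obtain ⟨b, hb1, hb2⟩ := kpa_exists_inv hA0
      have e7 : y = -(b * (y * Ab s.k ρ)) := by
        rw [← mul_neg, ← e6, ← mul_assoc, hb2, one_mul]
      have e8 : QA.tr y = -QA.tr y := by
        conv_lhs => rw [e7]
        rw [map_neg, kpa_tr_comm, mul_assoc, hb1, mul_one]
      have e9 : QA.tr y = 0 := by
        have : (2 : K) * QA.tr y = 0 := by linear_combination e8
        rcases mul_eq_zero.1 this with h' | h'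
        · exact absurd h' two_ne_zero
        · exact h'
      rw [e9, smul_zero]
  have : γ0 = δ - (1 / 2 : K) • (lam2 * S3 s.k) := by rw [hδ]; abel
  rw [this, hδ0, zero_sub, neg_smul]

end Crest.Agent.KP.Pt
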