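import Crest.Agent.KPH_2a
import Crest.Agent.KPH_4a
import Crest.Agent.KPH_4b
import Crest.Agent.KPA_Pr
import Crest.Agent.KPC_Cf

/-!
# S0270, part (H): the pole of the component `γ` (helper52)
-/

set_option autoImplicit false
set_option linter.unusedSectionVars false

open scoped PowerSeries LaurentSeries symmDiff

namespace Crest.Agent.KP.Pt

variable {K I J : Type} [Field K] [KF K] [Fintype I] [Fintype J]
variable {s : Pt K I J} {w : NC K I} {d t : ℕ} {T : I → QA K⟦X⟧} {w1 w2 : I → QA K} {a ρ : QA K}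

/-! ### auxiliary facts (helper93) -/

private theorem pole_zL_pow (n : ℕ) : zL K ^ n = algebraMap K⟦X⟧ K⸨X⸩ (PowerSeries.X ^ n) := by
  rw [zL, map_pow]

private theorem pole_X_smul (u : QA K⸨X⸩) : (PowerSeries.X : K⟦X⟧) • u = zL K • u :=
  QA.smul_eq_algebraMap_smul _ _

private theorem pole_mem (b : K⸨X⸩) : ∃ n : ℕ, zL K ^ n * b ∈ (Place.laurent K).O := by
  obtain ⟨⟨f, ⟨_, n, rfl⟩⟩, hf⟩ :=
    IsLocalization.surj (Submonoid.powers (PowerSeries.X : K⟦X⟧)) b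
  refine ⟨n, (kpr_laurent_mem_iff _).2 ⟨f, ?_⟩⟩
  rw [pole_zL_pow, mul_comm]
  exact hf.symm

private theorem pole_int (γ : QA K⸨X⸩) : ∃ n : ℕ, (Place.laurent K).Int (zL K ^ n • γ) := by
  induction γ using QA.qinduction with
  | h0 => exact ⟨0, by rw [smul_zero]; exact (Place.laurent K).int_zero⟩
  | hadd u v hu hv =>
    obtain ⟨n, hn⟩ := hu
    obtain ⟨m, hm⟩ := hv
    refine ⟨n + m, ?_⟩
    have e : zL K ^ (n + m) • (u + v) = zL K ^ m • (zL K ^ n • u) + zL K ^ n • (zL K ^ m • v) := by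
      rw [smul_smul, smul_smul, smul_add, ← pow_add, ← pow_add, add_comm m n]
    rw [e]
    exact (Place.laurent K).int_add ((Place.laurent K).int_smul (pow_mem kpr_zL_mem m) hn)
      ((Place.laurent K).int_smul (pow_mem kpr_zL_mem n) hm)
  | hec g x =>
    obtain ⟨n, hn⟩ := pole_mem x
    refine ⟨n, ?_⟩
    rw [QA.smul_ec]
    intro g'
    by_cases hg : g = g'
    · subst hg
      have e : (QA.ec g (zL K ^ n * x) : QA K⸨X⸩) g = zL K ^ n * x := Finsupp.single_eq_same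
      rw [e]; exact hn
    · have e : (QA.ec g (zL K ^ n * x) : QA K⸨X⸩) g' = 0 :=
        Finsupp.single_eq_of_ne (Ne.symm hg)
      rw [e]; exact zero_mem _

private theorem pole_comm_adjoin (x y ω : QA K) (hx : x * ω = ω * x)
    (hy : y ∈ Algebra.adjoin K ({ω} : Set (QA K))) : x * y = y * x := by
  have h1 : Algebra.adjoin K ({ω} : Set (QA K)) ≤ Subalgebra.centralizer K {x} := by
    refine Algebra.adjoin_le fun z hz => ?_
    rw [Set.mem_singleton_iff.1 hz, SetLike.mem_coe, Subalgebra.mem_centralizer_iff]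
    intro g hg
    rw [Set.mem_singleton_iff.1 hg]
    exact hx
  exact (Subalgebra.mem_centralizer_iff K).1 (h1 hy) x rfl

private theorem pole_core (h : s.Pkg4 w d t T w1 w2 a ρ) (γ b : QA K⸨X⸩)
    (hγ : γ ∈ lev K⸨X⸩ (s.k + 1))
    (hbl : b ∈ lev K⸨X⸩ (s.k + 1))
    (h0 : Pr (s.k + 1) {(s.grow T).omg w.up} γ = 0)
    (he : b + (s.grow T).omg w.up * γ - γ * (s.grow T).omg w.up = 0)
    (n : ℕ) (hn : 1 ≤ n) (E B : QA K⟦X⟧) (hE : toL K E = zL K ^ n • γ) (hB : toL K B = b) :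
    cf 0 E ∈ lev K (s.k + 1) ∧ cf 0 E * s.omg w = s.omg w * cf 0 E ∧
    (∀ x ∈ lev K (s.k + 1), x * s.omg w = s.omg w * x → x * Ab s.k ρ = Ab s.k ρ * x →
      QA.tr (cf 0 E * x) = 0) ∧
    a * Ab s.k ρ * cf 0 E - cf 0 E * (a * Ab s.k ρ) =
      - Pr (s.k + 1) {s.omg w} (if n = 1 then cf 0 B else 0) := by
  obtain ⟨o1, o2, o3, o4⟩ := kph_om h
  set W := w.ev T with hW
  set ω := s.omg w with hω
  have hElev : ∀ m, cf m E ∈ lev K (s.k + 1) := by
    rw [← kpr_toL_mem_lev, hE]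
    exact (lev K⸨X⸩ (s.k + 1)).smul_mem hγ _
  have hBlev : ∀ m, cf m B ∈ lev K (s.k + 1) := by
    rw [← kpr_toL_mem_lev, hB]
    exact hbl
  have hωlev : ω ∈ lev K (s.k + 1) := by rw [← o2]; exact o4 0
  -- the equation over power series
  have heq : (PowerSeries.X ^ n : K⟦X⟧) • B + W * E - E * W = 0 := by
    apply kpr_toL_inj
    rw [map_sub, map_add, map_mul, map_mul, map_smul, map_zero, hE, hB, ← o1,
      QA.smul_eq_algebraMap_smul, ← pole_zL_pow, mul_smul_comm, smul_mul_assoc, ← smul_add,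
      ← smul_sub, he, smul_zero]
  have c0 := congrArg (cf 0) heq
  have c1 := congrArg (cf 1) heq
  rw [map_sub, map_add, KC.cf_X_smul, KC.cf_mul0, KC.cf_mul0, if_neg (by omega), zero_add,
    map_zero, o2] at c0
  rw [map_sub, map_add, KC.cf_X_smul, KC.cf_mul1, KC.cf_mul1, map_zero, o2] at c1
  have hcomm : cf 0 E * ω = ω * cf 0 E := (sub_eq_zero.1 c0).symm
  refine ⟨hElev 0, hcomm, ?_, ?_⟩
  · intro x hx hxω hxA
    have hxl : toC K x ∈ lev K⸨X⸩ (s.k + 1) := by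
      rw [← kpr_iq_laurent]; exact (Place.laurent K).iq_lev hx
    have hxi : (Place.laurent K).Int (toC K x) := by
      rw [← kpr_iq_laurent]; exact (Place.laurent K).int_iq x
    have hxr : (Place.laurent K).rq (toC K x) = x := by
      rw [← kpr_iq_laurent]; exact (Place.laurent K).rq_iq x
    obtain ⟨q1, q2⟩ := kph_res_Pr h (toC K x) hxl hxi
    rw [hxr] at q2
    have q3 : Pr (s.k + 1) ({s.omg w, Ab s.k ρ} : Set (QA K)) x = x := by
      apply kpa_Pr_of_mem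
      rw [mem_cenA]
      refine ⟨hx, ?_⟩
      rintro φ (rfl | hφ)
      · exact hxω
      · rw [Set.mem_singleton_iff.1 hφ]; exact hxA
    rw [q3] at q2
    have q4 : QA.tr (γ * Pr (s.k + 1) {(s.grow T).omg w.up} (toC K x)) = 0 :=
      (kpa_Pr_eq_zero_iff hγ).1 h0 _ (kpa_Pr_mem_cenA hxl)
    have q5 : QA.tr (toL K E * Pr (s.k + 1) {(s.grow T).omg w.up} (toC K x)) = 0 := by
      rw [hE, smul_mul_assoc, map_smul, q4, smul_zero]
    have q6 := congrArg (Place.laurent K).r q5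
    rw [(Place.laurent K).r_tr, (Place.laurent K).rq_mul (kpr_int_toL E) q1, kpr_rq_toL, q2,
      kpr_r_zero] at q6
    exact q6
  · have c2 := congrArg (Pr (s.k + 1) {ω}) c1
    have hcE : cf 0 E ∈ cenA (s.k + 1) {ω} := by
      rw [mem_cenA]
      refine ⟨hElev 0, fun φ hφ => ?_⟩
      rw [Set.mem_singleton_iff.1 hφ]; exact hcomm
    have e1 : Pr (s.k + 1) {ω} (ω * cf 1 E) = Pr (s.k + 1) {ω} (cf 1 E * ω) :=
      kpa_Pr_comm_arg (hElev 1) hωlev fun c hc => (mem_cenA.1 hc).2 ω rfl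
    have e2 : Pr (s.k + 1) {ω} (cf 1 W * cf 0 E) = a * Ab s.k ρ * cf 0 E := by
      rw [kpa_Pr_mul_right (o4 1) hcE, o3]
    have e3 : Pr (s.k + 1) {ω} (cf 0 E * cf 1 W) = cf 0 E * (a * Ab s.k ρ) := by
      rw [kpa_Pr_mul_left (o4 1) hcE, o3]
    rw [map_sub, map_add, map_add, map_add, e1, e2, e3, map_zero] at c2
    have e4 : (if n ≤ 1 then cf (1 - n) B else 0) = if n = 1 then cf 0 B else 0 := by
      by_cases h1 : n = 1
      · subst h1; simp
      · rw [if_neg h1, if_neg (by omega)]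
    rw [e4] at c2
    set Z := Pr (s.k + 1) {ω} (if n = 1 then cf 0 B else 0) with hZ
    have e5 : a * Ab s.k ρ * cf 0 E - cf 0 E * (a * Ab s.k ρ) + Z =
        Z + (Pr (s.k + 1) {ω} (cf 1 E * ω) + a * Ab s.k ρ * cf 0 E) -
          (cf 0 E * (a * Ab s.k ρ) + Pr (s.k + 1) {ω} (cf 1 E * ω)) := by abel
    rw [eq_neg_iff_add_eq_zero, e5, c2]

private theorem pole_zero (h : s.Pkg4 w d t T w1 w2 a ρ) (E0 : QA K)
    (h1 : E0 ∈ lev K (s.k + 1)) (h2 : E0 * s.omg w = s.omg w * E0)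
    (h3 : ∀ x ∈ lev K (s.k + 1), x * s.omg w = s.omg w * x → x * Ab s.k ρ = Ab s.k ρ * x →
      QA.tr (E0 * x) = 0)
    (h4 : a * Ab s.k ρ * E0 - E0 * (a * Ab s.k ρ) = 0) : E0 = 0 := by
  refine kph_zero_of_orth (s.k + 1) (s.omg w) (Ab s.k ρ) E0 h1 h2 ?_ h3
  have haL : a ∈ s.LL w := ⟨w1, h.gr.w1W, h.l1⟩
  have ha : a ∈ s.K1 w := h.comm haL
  have hc : E0 * a = a * E0 := pole_comm_adjoin E0 a (s.omg w) h2 ha
  have h5 : a * (Ab s.k ρ * E0 - E0 * Ab s.k ρ) = 0 := by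
    rw [mul_sub, ← mul_assoc, ← mul_assoc, ← hc, mul_assoc E0 a]
    exact h4
  exact (sub_eq_zero.1 ((mul_eq_zero.1 h5).resolve_left h.a0)).symm

/-- POLE. `γ ∈ lev (k+1)` over `K⸨X⸩`, `E_{ω_5}(γ) = 0`, `b + [ω_5, γ] = 0` with `b` integral. Then
`zγ` is integral, its residue `γ0` commutes with `ω`, is orthogonal to `C(ω,Ā)`, and
`[a Ā, γ0] = - E_ω(res b)`.
Proof. For every integral `η = c γ` (`c ∈ L`): residue orthogonal to `C(ω,Ā)`: for `x` in it,
`x' = Pr (k+1) {ω_5} (toC x)` is integral with residue `x` (`kph_res_Pr`) and `tr(γ x') = 0`.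
Let `n` be minimal with `z^n γ` integral (exists); suppose `n ≥ 2` and put `toL E = z^n γ`,
`E_0 = cf 0 E ≠ 0` (else divide by `z`, `kpr_div_X`). `[ω_5, z^n γ] = -z^n b`; coefficient `0`:
`[ω, E_0] = 0`; coefficient `1`: `[ω, E_1] + [cf 1 (w.ev T), E_0] = 0` as `n ≥ 2`; apply `E_ω`:
`[a Ā, E_0] = 0`. As `a` commutes with `E_0` (`a ∈ K[ω]`), `E_0` commutes with `Ā`;
`kph_zero_of_orth` gives `E_0 = 0`, contradiction. For `n ≤ 1` the same computation with
`toL E = z γ` gives coefficient `1`: `[ω, E_1] + [cf 1 (w.ev T), E_0] = - res b`. -/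
theorem kph_pole (h : s.Pkg4 w d t T w1 w2 a ρ) (γ b : QA K⸨X⸩)
    (hγ : γ ∈ lev K⸨X⸩ (s.k + 1)) (hb : (Place.laurent K).Int b)
    (hbl : b ∈ lev K⸨X⸩ (s.k + 1))
    (h0 : Pr (s.k + 1) {(s.grow T).omg w.up} γ = 0)
    (he : b + (s.grow T).omg w.up * γ - γ * (s.grow T).omg w.up = 0) :
    (Place.laurent K).Int (zL K • γ) ∧
    (Place.laurent K).rq (zL K • γ) ∈ lev K (s.k + 1) ∧
    (Place.laurent K).rq (zL K • γ) * s.omg w = s.omg w * (Place.laurent K).rq (zL K • γ) ∧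
    (∀ x ∈ lev K (s.k + 1), x * s.omg w = s.omg w * x → x * Ab s.k ρ = Ab s.k ρ * x →
      QA.tr ((Place.laurent K).rq (zL K • γ) * x) = 0) ∧
    a * Ab s.k ρ * (Place.laurent K).rq (zL K • γ) -
        (Place.laurent K).rq (zL K • γ) * (a * Ab s.k ρ) =
      - Pr (s.k + 1) {s.omg w} ((Place.laurent K).rq b) := by
  classical
  obtain ⟨B, hB⟩ := (kpr_int_iff b).1 hb
  have hint : (Place.laurent K).Int (zL K • γ) := by
    have hex := pole_int γ
    set n := Nat.find hex with hn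
    have hn1 : (Place.laurent K).Int (zL K ^ n • γ) := Nat.find_spec hex
    by_cases hn2 : n ≤ 1
    · have e : zL K • γ = zL K ^ (1 - n) • (zL K ^ n • γ) := by
        rw [smul_smul, ← pow_add, Nat.sub_add_cancel hn2, pow_one]
      rw [e]
      exact (Place.laurent K).int_smul (pow_mem kpr_zL_mem _) hn1
    · exfalso
      obtain ⟨E, hE⟩ := (kpr_int_iff _).1 hn1
      obtain ⟨g1, g2, g3, g4⟩ := pole_core h γ b hγ hbl h0 he n (by omega) E B hE hB
      rw [if_neg (by omega), map_zero, neg_zero] at g4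
      have hE0 := pole_zero h (cf 0 E) g1 g2 g3 g4
      obtain ⟨E', hE', -⟩ := kpr_div_X E hE0
      have hm : (Place.laurent K).Int (zL K ^ (n - 1) • γ) := by
        rw [kpr_int_iff]
        refine ⟨E', ?_⟩
        have h5 : zL K • toL K E' = zL K • (zL K ^ (n - 1) • γ) := by
          rw [smul_smul, ← pow_succ', Nat.sub_add_cancel (by omega), ← hE, hE', map_smul,
            pole_X_smul]
        have h6 := congrArg (fun u => (zL K)⁻¹ • u) h5
        simp only [smul_smul] at h6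
        rw [← mul_assoc, inv_mul_cancel₀ kpr_zL_ne, one_smul, one_mul] at h6
        exact h6
      exact Nat.find_min hex (by omega) hm
  obtain ⟨E, hE⟩ := (kpr_int_iff _).1 hint
  have hE' : toL K E = zL K ^ 1 • γ := by rw [pow_one]; exact hE
  obtain ⟨g1, g2, g3, g4⟩ := pole_core h γ b hγ hbl h0 he 1 le_rfl E B hE' hB
  have hr : (Place.laurent K).rq (zL K • γ) = cf 0 E := by rw [← hE, kpr_rq_toL]
  have hrb : (Place.laurent K).rq b = cf 0 B := by rw [← hB, kpr_rq_toL]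
  rw [if_pos rfl] at g4
  rw [hr, hrb]
  exact ⟨hint, g1, g2, g3, g4⟩

/-- if moreover `E_ω(res b) = 0` then `γ` is integral: the residue `γ0` of `zγ` commutes with `ω`
and `Ā` and is orthogonal to `C(ω,Ā)`, so `γ0 = 0` and `zγ = z (integral)`. -/
theorem kph_pole0 (h : s.Pkg4 w d t T w1 w2 a ρ) (γ b : QA K⸨X⸩)
    (hγ : γ ∈ lev K⸨X⸩ (s.k + 1)) (hb : (Place.laurent K).Int b)
    (hbl : b ∈ lev K⸨X⸩ (s.k + 1))
    (h0 : Pr (s.k + 1) {(s.grow T).omg w.up} γ = 0)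
    (he : b + (s.grow T).omg w.up * γ - γ * (s.grow T).omg w.up = 0)
    (hE : Pr (s.k + 1) {s.omg w} ((Place.laurent K).rq b) = 0) :
    (Place.laurent K).Int γ := by
  obtain ⟨g0, g1, g2, g3, g4⟩ := kph_pole h γ b hγ hb hbl h0 he
  rw [hE, neg_zero] at g4
  have hz := pole_zero h _ g1 g2 g3 g4
  obtain ⟨E, hE1⟩ := (kpr_int_iff _).1 g0
  rw [← hE1, kpr_rq_toL] at hz
  obtain ⟨E', hE', -⟩ := kpr_div_X E hz
  rw [kpr_int_iff]
  refine ⟨E', ?_⟩
  have h5 : zL K • toL K E' = zL K • γ := by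
    rw [← hE1, hE', map_smul, pole_X_smul]
  have h6 := congrArg (fun u => (zL K)⁻¹ • u) h5
  simp only [smul_smul] at h6
  rw [inv_mul_cancel₀ kpr_zL_ne, one_smul, one_smul] at h6
  exact h6

end Crest.Agent.KP.Pt
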