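import Crest.Agent.KPH_1
import Crest.Agent.KPC_T5

/-!
# S0270, part (H), file 1c: (PI) and the obstruction space (helper52)
-/

set_option autoImplicit false
set_option linter.unusedSectionVars false

open scoped PowerSeries LaurentSeries symmDiff

namespace Crest.Agent.KP.Pt

variable {K I J : Type} [Field K] [KF K] [Fintype I] [Fintype J]
variable {s : Pt K I J} {T : I → QA K⟦X⟧} {w1 w2 : I → QA K}

/-- `E ∈ lev (k+1)` commuting with `X_x` and `X_y` lies in `mid k (k+1)`: write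
`E = Σ_b E_b S_b`, `E_b ∈ lev k`; each `E_b` commutes with `X_x, X_y`, so it is a scalar (`g3`). -/
theorem kph_cent (hg : s.Good) (E : QA K) (hE : E ∈ lev K (s.k + 1))
    (hx : E * s.X s.x = s.X s.x * E) (hy : E * s.X s.y = s.X s.y * E) :
    E ∈ mid K s.k (s.k + 1) := by
  obtain ⟨a, ha, rfl⟩ := KC.exists_decomp s.k E hE
  have hX := hg.Xlev
  have hsub : ∀ {u v : QA K}, u ∈ lev K s.k → v ∈ lev K s.k → u * v - v * u ∈ lev K s.k :=
    fun hu hv => (lev K s.k).sub_mem ((lev K s.k).mul_mem hu hv) ((lev K s.k).mul_mem hv hu)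
  have hc : ∀ i, i = s.x ∨ i = s.y →
      s.X i * (a 0 + a 1 * S1 s.k + a 2 * S2 s.k + a 3 * S3 s.k) =
        (a 0 + a 1 * S1 s.k + a 2 * S2 s.k + a 3 * S3 s.k) * s.X i := by
    rintro i (rfl | rfl)
    · exact hx.symm
    · exact hy.symm
  have hcomm : ∀ i, i = s.x ∨ i = s.y → ∀ b, s.X i * a b - a b * s.X i = 0 := by
    intro i hi
    refine KC.decomp_unique s.k (fun b => s.X i * a b - a b * s.X i)
      (fun b => hsub (hX i) (ha b)) ?_
    have e := hc i hi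
    have e1 := KC.comm_S1 s.k _ (hX i)
    have e2 := KC.comm_S2 s.k _ (hX i)
    have e3 := KC.comm_S3 s.k _ (hX i)
    simp only [mul_add, add_mul, mul_assoc, ← e1, ← e2, ← e3] at e
    simp only [sub_mul, mul_assoc]
    rw [← sub_eq_zero] at e
    rw [← e]
    abel
  have hsc : ∀ b, ∃ c : K, a b = algebraMap K (QA K) c := fun b =>
    hg.g3 (a b) (ha b) (sub_eq_zero.1 (hcomm s.x (Or.inl rfl) b)).symm
      (sub_eq_zero.1 (hcomm s.y (Or.inr rfl) b)).symm
  choose c hcs using hsc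
  rw [hcs 0, hcs 1, hcs 2, hcs 3]
  have hm : ∀ c : K, algebraMap K (QA K) c ∈ mid K s.k (s.k + 1) := fun c =>
    Subalgebra.algebraMap_mem _ c
  exact add_mem (add_mem (add_mem (hm _) (mul_mem (hm _) (kpa_S1_mem s.k)))
    (mul_mem (hm _) (kpa_S2_mem s.k))) (mul_mem (hm _) (kpa_S3_mem s.k))

/-- Consequence of (PI): if `[X, E] + [T_1, ξ] = 0` on the `x,y` components with `E ∈ lev (k+1)`,
`ξ ∈ mid k (k+1)`, then `ξ` is a scalar. Write `ξ = h_0 + h_1 S1 + h_2 S2 + h_3 S3` (`h_b ∈ K`),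
`E = Σ_b E_b S_b`; `T_1 = w_1 S1 + w_2 S2`, `w_i ∈ (lev k)^I`;
`[T_1, ξ] = 2 (h_2 w_1 - h_1 w_2) S3 + 2 al h_3 w_1 S2 - 2 be h_3 w_2 S1`. The `S3`-component says that
`2 (h_2 w_1 - h_1 w_2)` is inner on `x,y` (`InnXY`, with `η = -E_3`), so `h_1 = h_2 = 0` by `PIc`; the
`S2`-component gives `h_3 = 0`. -/
theorem kph_PI (hg : s.Good) (hT : s.IsGrowth T w1 w2) (E ξ : QA K)
    (hE : E ∈ lev K (s.k + 1)) (hξ : ξ ∈ mid K s.k (s.k + 1))
    (hx : s.X s.x * E - E * s.X s.x + (s.T1v w1 w2 s.x * ξ - ξ * s.T1v w1 w2 s.x) = 0)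
    (hy : s.X s.y * E - E * s.X s.y + (s.T1v w1 w2 s.y * ξ - ξ * s.T1v w1 w2 s.y) = 0) :
    ∃ c : K, ξ = algebraMap K (QA K) c := by
  refine ⟨QA.tr ξ, ?_⟩
  have hlev : ξ ∈ lev K (s.k + 1) := kpa_mid_le_lev _ _ hξ
  have hdis : Disjoint {n : ℕ | n < s.k} {n : ℕ | s.k ≤ n ∧ n < s.k + 1} :=
    Set.disjoint_left.2 fun n (h1 : n < s.k) h2 => absurd h2.1 (not_le.2 h1)
  have hXξ : ∀ i, s.X i * ξ = ξ * s.X i := fun i => kpa_on_comm hdis (hg.Xlev i) hξ
  have key := KC.kpc_key_PI s hg w1 w2 hT.w1W hT.w2W hT.pi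
    (ξ - algebraMap K (QA K) (QA.tr ξ)) E
    (sub_mem hlev (Subalgebra.algebraMap_mem _ _)) hE
    (by rw [map_sub, KC.tr_algebraMap, sub_self])
    (fun i _ => by
      rw [mul_sub, sub_mul, hXξ i, Algebra.commutes])
    (by
      intro i hi
      have h : s.X i * E - E * s.X i + (s.T1v w1 w2 i * ξ - ξ * s.T1v w1 w2 i) = 0 := by
        rcases hi with rfl | rfl
        · exact hx
        · exact hy
      have h2 : (w1 i * S1 s.k + w2 i * S2 s.k) * (ξ - algebraMap K (QA K) (QA.tr ξ)) -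
          (ξ - algebraMap K (QA K) (QA.tr ξ)) * (w1 i * S1 s.k + w2 i * S2 s.k) =
          s.T1v w1 w2 i * ξ - ξ * s.T1v w1 w2 i := by
        show _ = (w1 i * S1 s.k + w2 i * S2 s.k) * ξ - ξ * (w1 i * S1 s.k + w2 i * S2 s.k)
        rw [mul_sub, sub_mul, ← Algebra.commutes (QA.tr ξ) (w1 i * S1 s.k + w2 i * S2 s.k)]
        abel
      rw [h2]
      exact h)
  exact sub_eq_zero.1 key

/-- the pairing of two `comb`s -/
theorem kph_pair_comb (k : ℕ) (a b : Fin 4 → (J → QA K)) (ha : ∀ i j, a i j ∈ lev K k)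
    (hb : ∀ i j, b i j ∈ lev K k) :
    pair (KC.comb k a) (KC.comb k b) = pair (a 0) (b 0) + al k * pair (a 1) (b 1) +
      be k * pair (a 2) (b 2) - al k * be k * pair (a 3) (b 3) := by
  simp only [pair, KC.comb, Finset.mul_sum, ← Finset.sum_add_distrib, ← Finset.sum_sub_distrib]
  exact Finset.sum_congr rfl fun j _ =>
    KC.tr_mul_comb_comb k (fun i => a i j) (fun i => b i j) (fun i => ha i j) (fun i => hb i j)

/-- The core of Lemma 1 (a): `c ∈ (lev (k+1))^J`, orthogonal to `D(V0 E_k)` and with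
`Σ_j tr(c_j (d2[T_1,v] + d2[v,T_1])) = 0` for all `v ∈ W E_k`, is in `U` (constant).
Write `c = Σ_b c_b S_b`, `c_b ∈ (lev k)^J`; testing with `v S_b`, `v ∈ V0`, gives `c_b ∈ U`. Then
`0 = Σ_b Th w1 w2 c_b S_b v`, the `b = 0` term vanishes by `Alt`; by the formula for `Th` (P2, section 3)
and (INJ) `c_1 = c_2 = c_3 = 0`. (helper6 has this inside the proof of `C_grow_o`.) -/
theorem kph_U_of (hg : s.Good) (ha : s.Alt) (hT : s.IsGrowth T w1 w2) (c : J → QA K)
    (hc : ∀ j, c j ∈ lev K (s.k + 1))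
    (h1 : ∀ v ∈ mulE s.k s.V0, pair c (s.D v) = 0)
    (h2 : ∀ v ∈ mulE s.k s.W, ∑ j, QA.tr (c j * ((s.F j).d2 s.X (s.T1v w1 w2) v +
      (s.F j).d2 s.X v (s.T1v w1 w2))) = 0) : c ∈ s.U := by
  obtain ⟨c', hc'lev, rfl⟩ := KC.exists_comb s.k c hc
  have hD0 : s.D (0 : I → QA K) = 0 := s.Dl.map_zero
  have key : ∀ w : Fin 4 → (I → QA K), (∀ b, w b ∈ s.V0) →
      pair (c' 0) (s.D (w 0)) + al s.k * pair (c' 1) (s.D (w 1)) +
        be s.k * pair (c' 2) (s.D (w 2)) -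
          al s.k * be s.k * pair (c' 3) (s.D (w 3)) = 0 := by
    intro w hw
    have hmem : KC.comb s.k w ∈ mulE s.k s.V0 := (KC.mem_mulE s.k s.V0 _).2 ⟨w, hw, rfl⟩
    have h := h1 _ hmem
    rw [KC.D_comb s hg.Xlev w,
      kph_pair_comb s.k c' (fun b => s.D (w b)) hc'lev (fun b j => by
        have := KC.D_mem_AJ s hg.Xlev (w b) (KC.V0_lev s hg _ (hw b))
        exact (KC.mem_AJ s.k _).1 this j)] at h
    exact h
  have hal : (al s.k : K) ≠ 0 := KF.al_ne s.k
  have hbe : (be s.k : K) ≠ 0 := KF.be_ne s.k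
  have hz : ∀ d : J → QA K, pair d (0 : J → QA K) = 0 := by
    intro d
    simp [pair]
  have h0 : (0 : I → QA K) ∈ s.V0 := s.V0.zero_mem
  have hU : ∀ b, c' b ∈ s.U := by
    refine fun b => ⟨(KC.mem_AJ _ _).2 (hc'lev b), fun v hv => ?_⟩
    fin_cases b
    · have := key ![v, 0, 0, 0] (by
        intro b; fin_cases b
        · exact hv
        · exact h0
        · exact h0
        · exact h0)
      simpa [hD0, hz] using this
    · have := key ![0, v, 0, 0] (by
        intro b; fin_cases b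
        · exact h0
        · exact hv
        · exact h0
        · exact h0)
      simpa [hD0, hz, hal] using this
    · have := key ![0, 0, v, 0] (by
        intro b; fin_cases b
        · exact h0
        · exact h0
        · exact hv
        · exact h0)
      simpa [hD0, hz, hbe] using this
    · have := key ![0, 0, 0, v] (by
        intro b; fin_cases b
        · exact h0
        · exact h0
        · exact h0
        · exact hv)
      simpa [hD0, hz, hal, hbe] using this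
  have key2 : ∀ φ : Fin 3 → Module.Dual K s.U,
      φ 0 ⟨c' 1, hU 1⟩ + φ 1 ⟨c' 2, hU 2⟩ + φ 2 ⟨c' 3, hU 3⟩ = 0 := by
    intro φ
    obtain ⟨η, hη, h⟩ := KC.theta_onto s hg ha w1 w2 hT.w1W hT.w2W s.W le_rfl hT.inj φ
    have h3 : s.Th w1 w2 (c' 0) 1 η + s.Th w1 w2 (c' 1) (S1 s.k) η +
        s.Th w1 w2 (c' 2) (S2 s.k) η + s.Th w1 w2 (c' 3) (S3 s.k) η = 0 := by
      rw [← h2 η hη]
      simp only [Pt.Th, ← Finset.sum_add_distrib, ← map_add, mul_one]
      refine Finset.sum_congr rfl fun j _ => ?_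
      congr 1
      simp only [KC.comb, add_mul]
      rfl
    obtain ⟨v, hv, rfl⟩ := (KC.mem_mulE _ _ _).1 hη
    rw [KC.Th_one s hg ha w1 w2 hT.w1W hT.w2W v hv _ (hU 0), zero_add] at h3
    have e1 := (h ⟨c' 1, hU 1⟩).1
    have e2 := (h ⟨c' 2, hU 2⟩).2.1
    have e3 := (h ⟨c' 3, hU 3⟩).2.2
    rw [← e1, ← e2, ← e3]
    exact h3
  have h1' : c' 1 = 0 := by
    have h2 : (⟨c' 1, hU 1⟩ : s.U) = 0 := by
      rw [← Module.forall_dual_apply_eq_zero_iff K]
      intro ψ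
      simpa using key2 ![ψ, 0, 0]
    exact congrArg Subtype.val h2
  have h2' : c' 2 = 0 := by
    have h2 : (⟨c' 2, hU 2⟩ : s.U) = 0 := by
      rw [← Module.forall_dual_apply_eq_zero_iff K]
      intro ψ
      simpa using key2 ![0, ψ, 0]
    exact congrArg Subtype.val h2
  have h3' : c' 3 = 0 := by
    have h2 : (⟨c' 3, hU 3⟩ : s.U) = 0 := by
      rw [← Module.forall_dual_apply_eq_zero_iff K]
      intro ψ
      simpa using key2 ![0, 0, ψ]
    exact congrArg Subtype.val h2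
  have h4 : KC.comb s.k c' = c' 0 := by
    funext j
    simp [KC.comb, h1', h2', h3']
  rw [h4]
  exact hU 0

end Crest.Agent.KP.Pt
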