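import Crest.Agent.KPH_5b
import Crest.Agent.KPH_1c
import Crest.Agent.KPC_State

/-!
# S0270, part (H): residues of elements of `U⁺(s_5)`, part 2 (helper52)
-/

set_option autoImplicit false
set_option linter.unusedSectionVars false

open scoped PowerSeries LaurentSeries symmDiff

namespace Crest.Agent.KP.Pt

variable {K I J : Type} [Field K] [KF K] [Fintype I] [Fintype J]
variable {s : Pt K I J} {w : NC K I} {d t : ℕ} {T : I → QA K⟦X⟧} {w1 w2 : I → QA K} {a ρ : QA K}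

/-- `K2(s) ≤ lev k` -/
private theorem kph5c_K2_le (s : Pt K I J) (w : NC K I) : s.K2 w ≤ lev K s.k :=
  Algebra.adjoin_le fun _ hu => hu.1

/-- equation (iii) of `kph_U_ext` for `v = toC v0` in terms of power series -/
private theorem kph5c_eq (s : Pt K I J) (w : NC K I) (T : I → QA K⟦X⟧) (u : J → QA K⟦X⟧)
    (un : QA K⟦X⟧) (v0 : I → QA K)
    (h : pair (fun j => toL K (u j)) ((s.grow T).D (fun i => toC K (v0 i))) +
      QA.tr (toL K un * w.up.d1 (s.grow T).X (fun i => toC K (v0 i))) = 0) :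
    ∑ j, QA.tr (u j * (s.F j).d1 T (fun i => toP K (v0 i))) +
      QA.tr (un * w.d1 T (fun i => toP K (v0 i))) = (0 : K⟦X⟧) := by
  have hC : (fun i => toC K (v0 i)) = fun i => toL K (toP K (v0 i)) :=
    funext fun i => (KC.toL_toP (v0 i)).symm
  rw [hC] at h
  have e1 : ∀ j, (s.grow T).D (fun i => toL K (toP K (v0 i))) j =
      toL K ((s.F j).d1 T (fun i => toP K (v0 i))) := fun j =>
    KC.d1_toL T (fun i => toP K (v0 i)) (s.F j)
  have e2 : w.up.d1 (s.grow T).X (fun i => toL K (toP K (v0 i))) =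
      toL K (w.d1 T (fun i => toP K (v0 i))) :=
    KC.d1_toL T (fun i => toP K (v0 i)) w
  rw [e2] at h
  unfold pair at h
  simp only [e1] at h
  have e3 : ∀ j, QA.tr (toL K (u j) * toL K ((s.F j).d1 T (fun i => toP K (v0 i)))) =
      algebraMap K⟦X⟧ K⸨X⸩ (QA.tr (u j * (s.F j).d1 T (fun i => toP K (v0 i)))) := fun j => by
    rw [← map_mul, KC.tr_toL]
  rw [Finset.sum_congr rfl (fun j _ => e3 j), ← map_mul, KC.tr_toL, ← map_sum, ← map_add] at h
  exact kpr_algMap_inj (h.trans (map_zero _).symm)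

/-- If `c ∈ U⁺(s_5)` is integral and `res (c none) = 0` then the residues of the other components form
an element of `U(s)`.
Proof: `kph_U_of`. `h1`: residue of (iii) of `kph_U_ext` for `v = toC v0`, `v0 ∈ mulE k V0`
(`V0(s_5) = extV (mulE k V0)`). `h2`: `v0 ∈ mulE k W`, `v = toC v0`: all terms of (iii) are divisible by
`z` (`D(v0) = 0`, `c none = z c''` with `c''` integral); the residue of `z⁻¹ (iii)` is
`Σ_j tr(c_j (d2[T_1,v0]+d2[v0,T_1])) + tr(res c'' dw[v0]) = 0`, and `z⁻¹ • c ∈ U⁺(s_5)`, so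
`res c'' = m a⁻¹` by `kph_U1`; `tr(m a⁻¹ dw[v0]) = tr(m a⁻¹ E_ω(dw[v0])) = 0` by `kph_realize_conv`
(`E_ω(dw[v0]) = Σ a r_b S_b`, `tr(m r_0) = 0`). The `z`-coefficient of `(F_j).d1 T v0`: KPC_NC / KPC_Cf. -/
theorem kph_U2 (h : s.Pkg4 w d t T w1 w2 a ρ) (h5 : (s.grow T).Pkg w.up d) (a5 : QA K⸨X⸩)
    (m0 : Submodule K⸨X⸩ (QA K⸨X⸩)) (hx : (s.grow T).ExtOk w.up a5 m0)
    (c : Option J → QA K⸨X⸩) (hc : c ∈ ((s.grow T).ext w.up a5 m0).U)
    (hi : ∀ j, (Place.laurent K).Int (c j)) (h0 : (Place.laurent K).rq (c none) = 0) :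
    (fun j => (Place.laurent K).rq (c (some j))) ∈ s.U := by
  obtain ⟨halt, ho5, hg5⟩ := kph_s5 h
  have hg := h.good
  have hcomm5 : (s.grow T).LL w.up ≤ Subalgebra.toSubmodule ((s.grow T).K1 w.up) := h5.comm
  obtain ⟨hlev, hcom, hK2, hiii⟩ := kph_U_ext (s.grow T) w.up hg5 hcomm5 a5 m0 hx c hc
  -- power series
  choose u hu using fun j => (kpr_int_iff (c (some j))).1 (hi (some j))
  obtain ⟨un, hun⟩ := (kpr_int_iff (c none)).1 (hi none)
  have hrq : ∀ j, (Place.laurent K).rq (c (some j)) = cf 0 (u j) := fun j => by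
    rw [← hu j, kpr_rq_toL]
  have hun0 : cf 0 un = 0 := by rw [← kpr_rq_toL, hun, h0]
  have hul : ∀ j, cf 0 (u j) ∈ lev K (s.k + 1) := fun j => by
    have h1 := hlev (some j)
    rw [← hu j] at h1
    exact (kpr_toL_mem_lev (s.k + 1) (u j)).1 h1 0
  have hnl : ∀ m, cf m un ∈ lev K (s.k + 1) := by
    have h1 := hlev none
    rw [← hun] at h1
    exact (kpr_toL_mem_lev (s.k + 1) un).1 h1
  have hXl : ∀ i, s.X i ∈ lev K (s.k + 1) := fun i => kpa_lev_mono (Nat.le_succ _) (hg.Xlev i)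
  have hT0 : (fun i => cf 0 (T i)) = s.X := funext h.gr.zero
  have hT1 : (fun i => cf 1 (T i)) = s.T1v w1 w2 := funext h.gr.one
  have hP0 : ∀ v0 : I → QA K, (fun i => cf 0 (toP K (v0 i))) = v0 := fun v0 =>
    funext fun i => kpr_cf_toP_zero (v0 i)
  have hP1 : ∀ v0 : I → QA K, (fun i => cf 1 (toP K (v0 i))) = 0 := fun v0 =>
    funext fun i => kpr_cf_toP_succ (v0 i) 1 one_ne_zero
  have hser : ∀ v0 ∈ mulE s.k s.V0, ∑ j, QA.tr (u j * (s.F j).d1 T (fun i => toP K (v0 i))) +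
      QA.tr (un * w.d1 T (fun i => toP K (v0 i))) = (0 : K⟦X⟧) := by
    intro v0 hv0
    apply kph5c_eq s w T u un v0
    have h1 := hiii (fun i => toC K (v0 i)) (KC.toC_mem_extV (mulE s.k s.V0) v0 hv0)
    rw [hun]
    simp only [hu]
    exact h1
  -- commutation of `cf 1 un` with `ω`
  have hω : cf 1 un * s.omg w = s.omg w * cf 1 un := by
    have h1 : (s.grow T).omg w.up = toL K (w.ev T) := KC.ev_toL T w
    rw [h1, ← hun, ← map_mul, ← map_mul] at hcom
    have h2 := congrArg (cf 1) (kpr_toL_inj hcom)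
    rw [KC.cf_mul1, KC.cf_mul1, hun0, KC.cf0_ev, hT0] at h2
    show cf 1 un * w.ev s.X = w.ev s.X * cf 1 un
    simpa using h2
  -- the element `m`
  have hm : ∃ m ∈ s.K2 w, m ∈ perp (s.RR w a : Set (QA K)) ∧ cf 1 un * a = m := by
    obtain ⟨un', hun', hun1⟩ := kpr_div_X un hun0
    have hz : (zL K)⁻¹ • c ∈ ((s.grow T).ext w.up a5 m0).U := Submodule.smul_mem _ _ hc
    have hz1 : ((zL K)⁻¹ • c) none = toL K un' := by
      have h1 : toL K un = zL K • toL K un' := by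
        rw [hun']
        refine kpr_ext fun g => ?_
        rw [kpr_toL_apply]
        have e1 : ((PowerSeries.X : K⟦X⟧) • un') g = PowerSeries.X * un' g := rfl
        rw [e1, map_mul]
        rfl
      rw [Pi.smul_apply, ← hun, h1, smul_smul, inv_mul_cancel₀ kpr_zL_ne, one_smul]
    have h2 := kph_U1 h h5 a5 m0 hx _ hz (by rw [hz1]; exact kpr_int_toL un')
    rw [hz1, kpr_rq_toL, hun1 0] at h2
    exact h2
  obtain ⟨m, hmK, hmp, hma⟩ := hm
  have hmain : (fun j => cf 0 (u j)) ∈ s.U := by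
    apply kph_U_of hg halt h.gr _ hul
    · -- h1
      intro v0 hv0
      have h1 := congrArg (PowerSeries.coeff 0) (hser v0 hv0)
      rw [map_add, map_sum, KC.cf_tr, KC.cf_mul0, hun0, zero_mul, map_zero, add_zero, map_zero] at h1
      rw [← h1]
      unfold pair D
      refine Finset.sum_congr rfl fun j _ => ?_
      rw [KC.cf_tr, KC.cf_mul0, KC.cf0_d1, hT0, hP0]
    · -- h2
      intro v0 hv0
      obtain ⟨v, hv, hvc⟩ := (KC.mem_mulE s.k s.W v0).1 hv0
      have hvV0 : v0 ∈ mulE s.k s.V0 :=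
        KC.mulE_mono s.k s.W s.V0 (fun x hx => ((KC.mem_W s x).1 hx).1) hv0
      have hDv : s.D v0 = 0 := by
        rw [hvc, KC.D_comb s hg.Xlev v]
        have hDb : ∀ b, s.D (v b) = 0 := fun b => ((KC.mem_W s (v b)).1 (hv b)).2
        funext j
        simp [KC.comb, hDb]
      have hvl : ∀ i, v0 i ∈ lev K (s.k + 1) := fun i => by
        rw [hvc]
        exact KC.comb_mem_lev s.k v (fun b i => KC.W_lev s hg (v b) (hv b) i) i
      have h1 := congrArg (PowerSeries.coeff 1) (hser v0 hvV0)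
      rw [map_add, map_sum, KC.cf_tr, KC.cf_mul1, hun0, zero_mul, zero_add, map_zero, KC.cf0_d1,
        hT0, hP0] at h1
      have h2 : ∀ j, PowerSeries.coeff 1 (QA.tr (u j * (s.F j).d1 T (fun i => toP K (v0 i)))) =
          QA.tr (cf 0 (u j) * ((s.F j).d2 s.X (s.T1v w1 w2) v0 +
            (s.F j).d2 s.X v0 (s.T1v w1 w2))) := by
        intro j
        rw [KC.cf_tr, KC.cf_mul1, KC.cf0_d1, KC.cf1_d1, hT0, hP0, hT1, hP1]
        have h3 : (s.F j).d1 s.X v0 = 0 := congrFun hDv j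
        rw [h3, mul_zero, add_zero, NC.kph_d1_zero, zero_add]
      rw [Finset.sum_congr rfl (fun j _ => h2 j)] at h1
      -- the trace of `cf 1 un * dw[v0]` vanishes
      have hdl : w.d1 s.X v0 ∈ lev K (s.k + 1) := NC.kph_d1_mem (lev K (s.k + 1)) w s.X v0 hXl hvl
      have h4 := (Pr_spec (s.k + 1) {s.omg w} (w.d1 s.X v0) hdl).2.2 (cf 1 un) (hnl 1)
        (by
          intro φ hφ
          rw [Set.mem_singleton_iff.1 hφ]
          exact hω)
      rw [sub_mul, map_sub, sub_eq_zero, kpa_tr_comm] at h4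
      obtain ⟨u0, hu0, u1, hu1, u2, hu2, u3, hu3, hPr⟩ := kph_realize_conv h v0 hv0
      obtain ⟨-, haL, h1R, hLr, hrL⟩ := kph_L_eq h
      obtain ⟨r0, hr0, rfl⟩ := hLr u0 hu0
      obtain ⟨r1, hr1, rfl⟩ := hLr u1 hu1
      obtain ⟨r2, hr2, rfl⟩ := hLr u2 hu2
      obtain ⟨r3, hr3, rfl⟩ := hLr u3 hu3
      have hmr : ∀ r ∈ s.RR w a, m * r ∈ lev K s.k := fun r hr =>
        kph5c_K2_le s w (Subalgebra.mul_mem _ hmK hr.1)
      have h5 : QA.tr (Pr (s.k + 1) {s.omg w} (w.d1 s.X v0) * cf 1 un) = 0 := by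
        rw [kpa_tr_comm, hPr]
        have e : cf 1 un * (a * r0 + a * r1 * S1 s.k + a * r2 * S2 s.k + a * r3 * S3 s.k) =
            m * r0 + m * r1 * S1 s.k + m * r2 * S2 s.k + m * r3 * S3 s.k := by
          rw [← hma]
          noncomm_ring
        rw [e, map_add, map_add, map_add, KC.tr_S1 s.k _ (hmr r1 hr1), KC.tr_S2 s.k _ (hmr r2 hr2),
          KC.tr_S3 s.k _ (hmr r3 hr3), add_zero, add_zero, add_zero, kpa_tr_comm]
        have h6 := (Submodule.mem_iInf _).1 ((Submodule.mem_iInf _).1 hmp r0) hr0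
        exact h6
      rw [h4, h5, add_zero] at h1
      exact h1
  have hfin : (fun j => (Place.laurent K).rq (c (some j))) = fun j => cf 0 (u j) := funext hrq
  rw [hfin]
  exact hmain

end Crest.Agent.KP.Pt
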