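import Crest.Agent.KPH_2b

/-!
# S0270, part (H): double orthogonal (helper52)
-/

set_option autoImplicit false
set_option linter.unusedSectionVars false

open scoped PowerSeries LaurentSeries symmDiff

namespace Crest.Agent.KP.Pt

variable {K I J : Type} [Field K] [KF K] [Fintype I] [Fintype J]
variable {s : Pt K I J} {w : NC K I} {d t : ℕ} {T : I → QA K⟦X⟧} {w1 w2 : I → QA K} {a ρ : QA K}


section H5daux
open Module
variable {K : Type} [Field K] [KF K]

private theorem h5d_perp (R : Submodule K (QA K)) (x : QA K) :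
    x ∈ perp (R : Set (QA K)) ↔ ∀ κ ∈ R, QA.tr (κ * x) = 0 := by
  rw [perp]
  simp only [Submodule.mem_iInf]
  exact Iff.rfl

/-- dimension of the orthogonal complement inside a finite-dimensional subalgebra -/
private theorem h5d_dim (B : Subalgebra K (QA K)) [FiniteDimensional K B]
    (R : Submodule K (QA K)) (hR : R ≤ Subalgebra.toSubmodule B) :
    finrank K (Subalgebra.toSubmodule B ⊓ perp (R : Set (QA K)) : Submodule K (QA K)) +
      finrank K R = finrank K B := by
  classical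
  have hBf : FiniteDimensional K (Subalgebra.toSubmodule B) := ‹FiniteDimensional K B›
  have : FiniteDimensional K R := Submodule.finiteDimensional_of_le hR
  let τ : QA K →ₗ[K] QA K →ₗ[K] K :=
    (LinearMap.mul K (QA K)).compr₂ (QA.tr : QA K →ₗ[K] K)
  let g : Subalgebra.toSubmodule B →ₗ[K] Module.Dual K (Subalgebra.toSubmodule B) :=
    (τ.flip.domRestrict₁₂ (Subalgebra.toSubmodule B) (Subalgebra.toSubmodule B))
  have hg : ∀ a b : Subalgebra.toSubmodule B, g a b = QA.tr ((b : QA K) * (a : QA K)) :=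
    fun a b => rfl
  have hginj : Function.Injective g := by
    rw [injective_iff_map_eq_zero]
    intro a ha
    apply Subtype.ext
    apply kpa_sub_nondeg (B := B) (u := (a : QA K)) a.2
    intro v hv
    have := LinearMap.congr_fun ha ⟨v, hv⟩
    rw [hg] at this
    rw [kpa_tr_comm]
    exact this
  have hgsurj : Function.Surjective g :=
    (LinearMap.injective_iff_surjective_of_finrank_eq_finrank
      (Subspace.dual_finrank_eq (K := K) (V := Subalgebra.toSubmodule B)).symm).1 hginj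
  let q : Module.Dual K (Subalgebra.toSubmodule B) →ₗ[K] Module.Dual K R :=
    (Submodule.inclusion hR).dualMap
  have hq : Function.Surjective q :=
    LinearMap.dualMap_surjective_of_injective (Submodule.inclusion_injective hR)
  have hqg : Function.Surjective (q ∘ₗ g) := hq.comp hgsurj
  have hrk := LinearMap.finrank_range_add_finrank_ker (q ∘ₗ g)
  rw [LinearMap.range_eq_top.2 hqg, finrank_top, Subspace.dual_finrank_eq] at hrk
  have hker : (LinearMap.ker (q ∘ₗ g)).map (Subalgebra.toSubmodule B).subtype =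
      Subalgebra.toSubmodule B ⊓ perp (R : Set (QA K)) := by
    ext x
    constructor
    · rintro ⟨y, hy, rfl⟩
      refine ⟨y.2, (h5d_perp R _).2 fun κ hκ => ?_⟩
      have h1 : (q ∘ₗ g) y = 0 := hy
      exact LinearMap.congr_fun h1 ⟨κ, hκ⟩
    · rintro ⟨hx1, hx2⟩
      refine ⟨⟨x, hx1⟩, ?_, rfl⟩
      show (q ∘ₗ g) ⟨x, hx1⟩ = 0
      ext ⟨κ, hκ⟩
      exact (h5d_perp R x).1 hx2 κ hκ
  have hfin : finrank K (Subalgebra.toSubmodule B ⊓ perp (R : Set (QA K)) : Submodule K (QA K)) =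
      finrank K (LinearMap.ker (q ∘ₗ g)) := by
    rw [← hker]
    exact (Submodule.equivMapOfInjective _ (Submodule.injective_subtype _) _).finrank_eq.symm
  rw [hfin, add_comm]
  exact hrk

/-- double orthogonal -/
private theorem h5d_dd (B : Subalgebra K (QA K)) [FiniteDimensional K B]
    (S : Submodule K (QA K)) (hS : S ≤ Subalgebra.toSubmodule B) (u : QA K) (hu : u ∈ B)
    (h : ∀ x ∈ B, (∀ y ∈ S, QA.tr (y * x) = 0) → QA.tr (u * x) = 0) : u ∈ S := by
  have hBf : FiniteDimensional K (Subalgebra.toSubmodule B) := ‹FiniteDimensional K B›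
  have e1 := h5d_dim B S hS
  have e2 := h5d_dim B (Subalgebra.toSubmodule B ⊓ perp (S : Set (QA K))) inf_le_left
  have hle : S ≤ Subalgebra.toSubmodule B ⊓
      perp ((Subalgebra.toSubmodule B ⊓ perp (S : Set (QA K)) : Submodule K (QA K)) :
        Set (QA K)) := by
    intro y hy
    refine ⟨hS hy, (h5d_perp _ _).2 fun κ hκ => ?_⟩
    rw [kpa_tr_comm]
    exact (h5d_perp S κ).1 hκ.2 y hy
  have : FiniteDimensional K (Subalgebra.toSubmodule B ⊓
      perp ((Subalgebra.toSubmodule B ⊓ perp (S : Set (QA K)) : Submodule K (QA K)) :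
        Set (QA K)) : Submodule K (QA K)) := Submodule.finiteDimensional_of_le inf_le_left
  have heq := Submodule.eq_of_le_of_finrank_eq hle (by omega)
  rw [heq]
  refine ⟨hu, (h5d_perp _ _).2 fun κ hκ => ?_⟩
  rw [kpa_tr_comm]
  exact h κ hκ.1 ((h5d_perp S κ).1 hκ.2)

end H5daux

/-- `m` in `K2(s)`, `m ⊥ RR`, and the double orthogonal: an element `u ∈ K2(s)` orthogonal to
`{x ∈ RR | ρ x ∈ RR}` is of the form `m' + ρ m''` (finite-dimensional `K2(s)` with nondegenerate form
`tr(uv)`; `(M + ρM)^⊥ = {x | x ⊥ M, ρx ⊥ M} = RR ∩ ρ⁻¹RR`, `M = RR^⊥`). -/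
theorem kph_orth (h : s.Pkg4 w d t T w1 w2 a ρ) (u : QA K) (hu : u ∈ s.K2 w)
    (ho : ∀ x ∈ s.RR w a, ρ * x ∈ s.RR w a → QA.tr (u * x) = 0) :
    ∃ m' m'' : QA K, (m' ∈ s.K2 w ∧ m' ∈ perp (s.RR w a : Set (QA K))) ∧
        (m'' ∈ s.K2 w ∧ m'' ∈ perp (s.RR w a : Set (QA K))) ∧ u = m' + ρ * m'' := by
  have hL := kph_L_eq h
  have hK1c : ∀ x ∈ s.K1 w, ∀ y ∈ s.K1 w, x * y = y * x := by
    intro x hx y hy
    have hc : s.K1 w ≤ Subalgebra.centralizer K {s.omg w} := by
      rw [K1]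
      refine Algebra.adjoin_le ?_
      rintro _ rfl
      rw [SetLike.mem_coe, Subalgebra.mem_centralizer_iff]
      rintro _ rfl
      rfl
    have hy' : ∀ z ∈ s.K1 w, z * y = y * z := by
      intro z hz
      have h1 : s.K1 w ≤ Subalgebra.centralizer K {y} := by
        rw [K1]
        refine Algebra.adjoin_le ?_
        rintro _ rfl
        rw [SetLike.mem_coe, Subalgebra.mem_centralizer_iff]
        rintro _ rfl
        have h2 := hc hy
        rw [Subalgebra.mem_centralizer_iff] at h2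
        exact (h2 _ rfl).symm
      have h3 := h1 hz
      rw [Subalgebra.mem_centralizer_iff] at h3
      exact (h3 _ rfl).symm
    exact hy' x hx
  have hlev : s.K1 w ≤ lev K s.k := by
    rw [K1]
    refine Algebra.adjoin_le ?_
    rintro _ rfl
    exact NC.kph_ev_mem (lev K s.k) w s.X h.good.Xlev
  have : FiniteDimensional K (s.K2 w) := kpa_fd_of_le' (hL.1.trans hlev)
  have hcomm : ∀ x ∈ s.K2 w, ∀ y ∈ s.K2 w, x * y = y * x := fun x hx y hy =>
    hK1c x (hL.1 hx) y (hL.1 hy)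
  have hRR : s.RR w a ≤ Subalgebra.toSubmodule (s.K2 w) := inf_le_left
  have hρ : ρ ∈ s.K2 w := hRR h.rho
  let M : Submodule K (QA K) := Subalgebra.toSubmodule (s.K2 w) ⊓ perp (s.RR w a : Set (QA K))
  have hD : M ⊔ M.map (LinearMap.mulLeft K ρ) ≤ Subalgebra.toSubmodule (s.K2 w) := by
    refine sup_le inf_le_left ?_
    rintro _ ⟨y, hy, rfl⟩
    exact (s.K2 w).mul_mem hρ hy.1
  -- the double orthogonal of `RR`
  have hRd : ∀ x ∈ s.K2 w, (∀ m ∈ M, QA.tr (m * x) = 0) → x ∈ s.RR w a := by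
    intro x hx hxM
    refine h5d_dd (s.K2 w) (s.RR w a) hRR x hx fun y hy hyR => ?_
    rw [kpa_tr_comm]
    exact hxM y ⟨hy, (h5d_perp _ _).2 hyR⟩
  have huD : u ∈ M ⊔ M.map (LinearMap.mulLeft K ρ) := by
    refine h5d_dd (s.K2 w) _ hD u hu fun x hx hxD => ?_
    refine ho x (hRd x hx fun m hm => hxD m (Submodule.mem_sup_left hm)) ?_
    refine hRd _ ((s.K2 w).mul_mem hρ hx) fun m hm => ?_
    rw [← mul_assoc, hcomm m hm.1 ρ hρ]
    exact hxD _ (Submodule.mem_sup_right ⟨m, hm, rfl⟩)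
  obtain ⟨m', hm', y, hy, hsum⟩ := Submodule.mem_sup.1 huD
  obtain ⟨m'', hm'', rfl⟩ := hy
  exact ⟨m', m'', ⟨hm'.1, hm'.2⟩, ⟨hm''.1, hm''.2⟩, hsum.symm⟩

end Crest.Agent.KP.Pt
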