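import Crest.Agent.KPH_1

/-!
# S0270, part (H), file 6: the form `B⁺` (helper52)
-/

set_option autoImplicit false
set_option linter.unusedSectionVars false

open scoped PowerSeries LaurentSeries symmDiff

namespace Crest.Agent.KP.Pt

variable {K I J : Type} [Field K] [KF K] [Fintype I] [Fintype J]

/-- formula for the form `B` of the extended state on vectors with `f`-component `0`. -/
theorem kph_B_ext (s : Pt K I J) (w : NC K I) (a : QA K) (m0 : Submodule K (QA K))
    (c : Option J → QA K) (u v : I ⊕ Bool → QA K) (hv : v (Sum.inr true) = 0) :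
    (s.ext w a m0).B c u v =
      s.B (fun j => c (some j)) (fun i => u (Sum.inl i)) (fun i => v (Sum.inl i)) +
      QA.tr (c none * (w.d2 s.X (fun i => u (Sum.inl i)) (fun i => v (Sum.inl i)) +
        w.d1 s.X (fun i => u (Sum.inl i)) * v (Sum.inr false))) := by
  unfold B
  rw [Fintype.sum_option, add_comm]
  have hX : ((s.ext w a m0).X ∘ Sum.inl) = s.X := rfl
  congr 1
  · refine Finset.sum_congr rfl fun j _ => ?_
    have h1 : (s.ext w a m0).F (some j) = (s.F j).ren Sum.inl := rfl
    rw [h1, NC.kph_d2_ren, hX]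
    rfl
  · have h1 : (s.ext w a m0).F none =
      (NC.add (NC.mul (w.ren Sum.inl) (NC.var (Sum.inr false)))
      (NC.mul (NC.cst (-1)) (NC.mul (NC.var (Sum.inr false)) (NC.var (Sum.inr true))))) := rfl
    rw [h1]
    simp only [NC.d2, NC.d1, NC.ev, NC.kph_d2_ren, NC.kph_d1_ren, NC.kph_ev_ren, hX]
    have h2 : (s.ext w a m0).X (Sum.inr false) = 1 := by
      show (Sum.elim s.X (fun b => if b then s.omg w else 1) : I ⊕ Bool → QA K) (Sum.inr false) = 1
      rfl
    rw [h2, hv]
    simp only [mul_zero, zero_mul, add_zero, mul_one]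
    rfl

end Crest.Agent.KP.Pt
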