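import Crest.Agent.KPH_3
import Crest.Agent.KPH_4
import Crest.Agent.KPH_5c
import Crest.Agent.KPH_5d
import Crest.Agent.KPH_6

/-!
# S0270, part (H): definitions for the test lemmas (helper52)
-/

set_option autoImplicit false
set_option linter.unusedSectionVars false

open scoped PowerSeries LaurentSeries symmDiff

namespace Crest.Agent.KP.Pt

variable {K I J : Type} [Field K] [KF K] [Fintype I] [Fintype J]
variable {s : Pt K I J} {w : NC K I} {d t : ℕ} {T : I → QA K⟦X⟧} {w1 w2 : I → QA K} {a ρ : QA K}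


/-- the lifted family -/
structure HLift (s : Pt K I J) (w : NC K I) (t : ℕ) (T : I → QA K⟦X⟧)
    (a5 : QA K⸨X⸩) (m0 : Submodule K⸨X⸩ (QA K⸨X⸩)) (v0 : Fin t → (I → QA K))
    (u : Fin t → (I ⊕ Bool → QA K⸨X⸩)) : Prop where
  mem : ∀ i, u i ∈ ((s.grow T).ext w.up a5 m0).W
  f0 : ∀ i, u i (Sum.inr true) = 0
  int : ∀ i j, (Place.laurent K).Int (u i (Sum.inl j))
  res : ∀ i j, (Place.laurent K).rq (u i (Sum.inl j)) = v0 i j

end Crest.Agent.KP.Pt
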