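import Crest.Agent.KPH_10
import Crest.Agent.KPH_1c

/-!
# S0270, part (H), file 11: inner elements in the span of the lifted family (helper52)
-/

set_option autoImplicit false
set_option linter.unusedSectionVars false

open scoped PowerSeries LaurentSeries symmDiff

namespace Crest.Agent.KP.Pt

variable {K I J : Type} [Field K] [KF K] [Fintype I] [Fintype J]
variable {s : Pt K I J} {w : NC K I} {d t : ℕ} {T : I → QA K⟦X⟧} {w1 w2 : I → QA K} {a ρ : QA K}

/-- Residue of an inner element: `v` integral and inner at `s_5` (`v x = [X_x, η]`, `v y = [X_y, η]`,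
`η ∈ lev (k+1)` over `K⸨X⸩`). Then the residue of `v` is `InnS`.
Proof: subtract the scalar `tr η` from `η`: `tr η = 0`. If `η` is integral take residues (`ξ = 0`).
Otherwise let `n ≥ 1` be minimal with `z^n η = toL E` integral, `E_0 = cf 0 E ≠ 0`, `tr E_0 = 0`.
Coefficient `0` of `z^n v = [T, E]`: `E_0` commutes with `X_x, X_y`, so `E_0 ∈ mid` (`kph_cent`).
Coefficient `1`: `[X, E_1] + [T_1, E_0] =` (`res v` if `n = 1`, `0` if `n ≥ 2`). For `n ≥ 2`, `kph_PI` gives that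
`E_0` is a scalar, so `E_0 = 0` as `tr E_0 = 0`, contradiction. For `n = 1` take `η = E_1`, `ξ = E_0`. -/
theorem kph_res_inn (h : s.Pkg4 w d t T w1 w2 a ρ) (vx vy : QA K⸨X⸩)
    (hx : (Place.laurent K).Int vx) (hy : (Place.laurent K).Int vy)
    (η : QA K⸨X⸩) (hη : η ∈ lev K⸨X⸩ (s.k + 1))
    (h1 : vx = toL K (T s.x) * η - η * toL K (T s.x))
    (h2 : vy = toL K (T s.y) * η - η * toL K (T s.y)) :
    ∃ E ∈ lev K (s.k + 1), ∃ ξ ∈ mid K s.k (s.k + 1),
      (Place.laurent K).rq vx = s.X s.x * E - E * s.X s.x +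
        (s.T1v w1 w2 s.x * ξ - ξ * s.T1v w1 w2 s.x) ∧
      (Place.laurent K).rq vy = s.X s.y * E - E * s.X s.y +
        (s.T1v w1 w2 s.y * ξ - ξ * s.T1v w1 w2 s.y) := by
  have hg := h.good
  have hT := h.gr
  obtain ⟨Vx, rfl⟩ := (kpr_int_iff vx).1 hx
  obtain ⟨Vy, rfl⟩ := (kpr_int_iff vy).1 hy
  rw [kpr_rq_toL, kpr_rq_toL]
  obtain ⟨η', hη', htr, h1', h2'⟩ : ∃ η' ∈ lev K⸨X⸩ (s.k + 1), QA.tr η' = 0 ∧
      toL K Vx = toL K (T s.x) * η' - η' * toL K (T s.x) ∧
      toL K Vy = toL K (T s.y) * η' - η' * toL K (T s.y) := by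
    have hc : ∀ z : QA K⸨X⸩, z * (η - algebraMap K⸨X⸩ (QA K⸨X⸩) (QA.tr η)) -
        (η - algebraMap K⸨X⸩ (QA K⸨X⸩) (QA.tr η)) * z = z * η - η * z := by
      intro z
      rw [mul_sub, sub_mul, Algebra.commutes (QA.tr η) z]
      abel
    refine ⟨η - algebraMap K⸨X⸩ (QA K⸨X⸩) (QA.tr η),
      sub_mem hη (Subalgebra.algebraMap_mem _ _), ?_, ?_, ?_⟩
    · rw [map_sub, kpa_tr_algebraMap, sub_self]
    · rw [hc, h1]
    · rw [hc, h2]
  by_cases hint : (Place.laurent K).Int η'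
  · obtain ⟨E, hE⟩ := (kpr_int_iff η').1 hint
    have hEl : ∀ m, cf m E ∈ lev K (s.k + 1) :=
      (KC.toL_mem_lev (s.k + 1) E).1 (by rw [hE]; exact hη')
    have e1 : Vx = T s.x * E - E * T s.x :=
      KC.toL_inj (by rw [map_sub, map_mul, map_mul, hE, h1'])
    have e2 : Vy = T s.y * E - E * T s.y :=
      KC.toL_inj (by rw [map_sub, map_mul, map_mul, hE, h2'])
    refine ⟨cf 0 E, hEl 0, 0, zero_mem _, ?_, ?_⟩
    · rw [e1, map_sub, KC.cf_mul0, KC.cf_mul0, hT.zero, mul_zero, zero_mul, sub_self, add_zero]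
    · rw [e2, map_sub, KC.cf_mul0, KC.cf_mul0, hT.zero, mul_zero, zero_mul, sub_self, add_zero]
  · have hne : η' ≠ 0 := fun h0 => hint (by rw [h0]; exact (Place.laurent K).int_zero)
    obtain ⟨c, hc0, h3, h4, h5⟩ := (Place.laurent K).exists_scale_q η' hne
    obtain ⟨hcO, hcr⟩ := h5 hint
    obtain ⟨f, hf⟩ := (kpr_laurent_mem_iff c).1 hcO
    obtain ⟨E, hE⟩ := (kpr_int_iff _).1 h3
    have hf0 : PowerSeries.coeff 0 f = 0 := by
      rw [PowerSeries.coeff_zero_eq_constantCoeff_apply, ← kpr_laurent_r, hf, hcr]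
    have hEl : ∀ m, cf m E ∈ lev K (s.k + 1) :=
      (KC.toL_mem_lev (s.k + 1) E).1 (by rw [hE]; exact Subalgebra.smul_mem _ hη' c)
    have hE0 : cf 0 E ≠ 0 := by
      rw [← kpr_rq_toL, hE]; exact h4
    have htrE : QA.tr (cf 0 E) = 0 := by
      rw [← kpr_rq_toL, hE, ← (Place.laurent K).r_tr, map_smul, htr, smul_zero]
      exact (Place.laurent K).r_zero'
    have hfs : ∀ V : QA K⟦X⟧, toL K (f • V) = c • toL K V := by
      intro V
      rw [map_smul, ← hf]
      exact (algebraMap_smul K⸨X⸩ f (toL K V)).symm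
    have e1 : f • Vx = T s.x * E - E * T s.x :=
      KC.toL_inj (by
        rw [hfs, map_sub, map_mul, map_mul, hE, h1', smul_sub, mul_smul_comm, smul_mul_assoc])
    have e2 : f • Vy = T s.y * E - E * T s.y :=
      KC.toL_inj (by
        rw [hfs, map_sub, map_mul, map_mul, hE, h2', smul_sub, mul_smul_comm, smul_mul_assoc])
    have hcf0 : ∀ V : QA K⟦X⟧, cf 0 (f • V) = 0 := by
      intro V
      refine QA.q_ext fun g => ?_
      show PowerSeries.coeff 0 (f * V g) = 0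
      rw [PowerSeries.coeff_mul]
      simp [hf0]
    have hcf1 : ∀ V : QA K⟦X⟧, cf 1 (f • V) = (PowerSeries.coeff 1 f) • cf 0 V := by
      intro V
      refine QA.q_ext fun g => ?_
      show PowerSeries.coeff 1 (f * V g) = PowerSeries.coeff 1 f * PowerSeries.coeff 0 (V g)
      rw [PowerSeries.coeff_mul]
      simp [Finset.Nat.antidiagonal_succ, hf0]
    have a1 : s.X s.x * cf 0 E - cf 0 E * s.X s.x = 0 := by
      rw [← hT.zero, ← KC.cf_mul0, ← KC.cf_mul0, ← map_sub, ← e1, hcf0]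
    have a2 : s.X s.y * cf 0 E - cf 0 E * s.X s.y = 0 := by
      rw [← hT.zero, ← KC.cf_mul0, ← KC.cf_mul0, ← map_sub, ← e2, hcf0]
    have hmid : cf 0 E ∈ mid K s.k (s.k + 1) :=
      kph_cent hg (cf 0 E) (hEl 0) (sub_eq_zero.1 a1).symm (sub_eq_zero.1 a2).symm
    have b1 : (PowerSeries.coeff 1 f) • cf 0 Vx =
        s.X s.x * cf 1 E - cf 1 E * s.X s.x +
          (s.T1v w1 w2 s.x * cf 0 E - cf 0 E * s.T1v w1 w2 s.x) := by
      rw [← hcf1, e1, map_sub, KC.cf_mul1, KC.cf_mul1, hT.zero, hT.one]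
      unfold T1v
      abel
    have b2 : (PowerSeries.coeff 1 f) • cf 0 Vy =
        s.X s.y * cf 1 E - cf 1 E * s.X s.y +
          (s.T1v w1 w2 s.y * cf 0 E - cf 0 E * s.T1v w1 w2 s.y) := by
      rw [← hcf1, e2, map_sub, KC.cf_mul1, KC.cf_mul1, hT.zero, hT.one]
      unfold T1v
      abel
    have hf1 : PowerSeries.coeff 1 f ≠ 0 := by
      intro h0
      rw [h0, zero_smul] at b1 b2
      obtain ⟨x, hx⟩ := kph_PI hg hT (cf 1 E) (cf 0 E) (hEl 1) hmid b1.symm b2.symm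
      rw [hx, kpa_tr_algebraMap] at htrE
      apply hE0
      rw [hx, htrE, map_zero]
    refine ⟨(PowerSeries.coeff 1 f)⁻¹ • cf 1 E, Subalgebra.smul_mem _ (hEl 1) _,
      (PowerSeries.coeff 1 f)⁻¹ • cf 0 E, Subalgebra.smul_mem _ hmid _, ?_, ?_⟩
    · rw [mul_smul_comm, smul_mul_assoc, mul_smul_comm, smul_mul_assoc, ← smul_sub, ← smul_sub,
        ← smul_add, ← b1, smul_smul, inv_mul_cancel₀ hf1, one_smul]
    · rw [mul_smul_comm, smul_mul_assoc, mul_smul_comm, smul_mul_assoc, ← smul_sub, ← smul_sub,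
        ← smul_add, ← b2, smul_smul, inv_mul_cancel₀ hf1, one_smul]

/-- (assembly) no nonzero inner element in the span; the family is linearly independent. -/
theorem kph_inn (h : s.Pkg4 w d t T w1 w2 a ρ) (a5 : QA K⸨X⸩)
    (m0 : Submodule K⸨X⸩ (QA K⸨X⸩)) (lam : Fin t → QA K)
    (v0 : Fin t → (I → QA K)) (hf : s.HFam w t w1 w2 a lam v0)
    (u : Fin t → (I ⊕ Bool → QA K⸨X⸩)) (hu : s.HLift w t T a5 m0 v0 u)
    (μ : Fin t → K⸨X⸩) (hμ : ((s.grow T).ext w.up a5 m0).InnXY (∑ i, μ i • u i)) :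
    ∀ i, μ i = 0 := by
  by_contra hne
  push Not at hne
  obtain ⟨i0, hi0⟩ := hne
  obtain ⟨κ, hκ, hint, ⟨i1, -, hone⟩, -⟩ := (Place.laurent K).exists_scale Finset.univ μ
    ⟨i0, Finset.mem_univ _, hi0⟩
  obtain ⟨η, hη, h1, h2⟩ := hμ
  have hOi : ∀ i, κ * μ i ∈ (Place.laurent K).O := fun i => hint i (Finset.mem_univ _)
  -- the scaled element
  have hval : ∀ j, (Place.laurent K).Int (κ • (∑ i, μ i • u i) (Sum.inl j)) ∧
      (Place.laurent K).rq (κ • (∑ i, μ i • u i) (Sum.inl j)) =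
        (∑ i, (Place.laurent K).r (κ * μ i) • v0 i) j := by
    intro j
    have e : κ • (∑ i, μ i • u i) (Sum.inl j) = ∑ i, (κ * μ i) • u i (Sum.inl j) := by
      rw [Finset.sum_apply, Finset.smul_sum]
      refine Finset.sum_congr rfl fun i _ => ?_
      rw [Pi.smul_apply, smul_smul]
    rw [e]
    refine ⟨(Place.laurent K).int_sum _ _ fun i _ =>
      (Place.laurent K).int_smul (hOi i) (hu.int i j), ?_⟩
    rw [(Place.laurent K).rq_sum _ _ fun i _ =>
      (Place.laurent K).int_smul (hOi i) (hu.int i j), Finset.sum_apply]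
    refine Finset.sum_congr rfl fun i _ => ?_
    rw [(Place.laurent K).rq_smul (hOi i) (hu.int i j), hu.res, Pi.smul_apply]
  have hinn : s.InnS w1 w2 (∑ i, (Place.laurent K).r (κ * μ i) • v0 i) := by
    obtain ⟨E, hE, ξ, hξ, h3, h4⟩ := kph_res_inn h
      (κ • (∑ i, μ i • u i) (Sum.inl s.x)) (κ • (∑ i, μ i • u i) (Sum.inl s.y))
      (hval s.x).1 (hval s.y).1 (κ • η) (Subalgebra.smul_mem _ hη κ)
      (by
        have h5 := h1
        have h6 : (∑ i, μ i • u i) (Sum.inl s.x) =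
          toL K (T s.x) * η - η * toL K (T s.x) := h5
        rw [h6, smul_sub, mul_smul_comm, smul_mul_assoc])
      (by
        have h5 := h2
        have h6 : (∑ i, μ i • u i) (Sum.inl s.y) =
          toL K (T s.y) * η - η * toL K (T s.y) := h5
        rw [h6, smul_sub, mul_smul_comm, smul_mul_assoc])
    refine ⟨E, hE, ξ, hξ, ?_, ?_⟩
    · rw [← (hval s.x).2, h3]
    · rw [← (hval s.y).2, h4]
  have h7 := hf.inn _ hinn i1
  rw [hone, (Place.laurent K).r_one] at h7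
  exact one_ne_zero h7

end Crest.Agent.KP.Pt
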