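import Crest.Agent.KPH_1
import Crest.Agent.KPG_Lev

/-!
# S0270, part (H): multiplication by elements of mid (helper52)
-/

set_option autoImplicit false
set_option linter.unusedSectionVars false

open scoped PowerSeries LaurentSeries symmDiff

namespace Crest.Agent.KP.Pt

variable {K I J : Type} [Field K] [KF K] [Fintype I] [Fintype J]
variable {s : Pt K I J} {w : NC K I} {d t : ℕ} {T : I → QA K⟦X⟧} {w1 w2 : I → QA K} {a ρ : QA K}


/-- `E_ω(dw[v e]) = E_ω(dw[v]) e` for `v ∈ (lev k)^I`, `e ∈ mid k (k+1)`: `dw[v e] = dw[v] e`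
(the letters `X` commute with `e`; induction on `w`), and `IsPr k {ω} u c → IsPr (k+1) {ω} (u e) (c e)`
(`c e` commutes with `ω`; for `d = Σ_b d_b S_b ∈ lev (k+1)` commuting with `ω` all `d_b` commute with
`ω` and `tr((u-c) e d) = Σ_b tr((u-c) d_b) tr(e S_b)`), uniqueness of the projection. -/
theorem kph_Pr_mul (k : ℕ) (ω : QA K) (hω : ω ∈ lev K k) (u e : QA K) (hu : u ∈ lev K k)
    (he : e ∈ mid K k (k + 1)) :
    Pr (k + 1) {ω} (u * e) = Pr k {ω} u * e :=
  kpgl_Pr_mul (Nat.le_succ k) hω hu he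

theorem kph_dw_mul (w : NC K I) (k : ℕ) (X v : I → QA K) (hX : ∀ i, X i ∈ lev K k)
    (e : QA K) (he : e ∈ mid K k (k + 1)) :
    w.d1 X (fun i => v i * e) = w.d1 X v * e :=
  kpgl_d1_mul w X v e (lev K k) hX (fun _ hx => kpa_lev_mid_comm hx he)

end Crest.Agent.KP.Pt
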