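import Crest.Agent.KPH_1a

/-!
# S0270, part (H): realizing elements of `L(s) ⊗ E` on `ker Θ` (helper52)
-/

set_option autoImplicit false
set_option linter.unusedSectionVars false

open scoped PowerSeries LaurentSeries symmDiff

namespace Crest.Agent.KP.Pt

variable {K I J : Type} [Field K] [KF K] [Fintype I] [Fintype J]
variable {s : Pt K I J} {w : NC K I} {d t : ℕ} {T : I → QA K⟦X⟧} {w1 w2 : I → QA K} {a ρ : QA K}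

/-- decomposition of an element of `mulE` -/
private theorem kph1b_mulE {k : ℕ} {V : Submodule K (I → QA K)} {v : I → QA K}
    (hv : v ∈ mulE k V) : ∃ v0 ∈ V, ∃ v1 ∈ V, ∃ v2 ∈ V, ∃ v3 ∈ V,
      v = v0 + (fun i => v1 i * S1 k) + (fun i => v2 i * S2 k) + (fun i => v3 i * S3 k) := by
  obtain ⟨x, hx, _, ⟨v3, hv3, rfl⟩, rfl⟩ := Submodule.mem_sup.1 hv
  obtain ⟨x', hx', _, ⟨v2, hv2, rfl⟩, rfl⟩ := Submodule.mem_sup.1 hx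
  obtain ⟨v0, hv0, _, ⟨v1, hv1, rfl⟩, rfl⟩ := Submodule.mem_sup.1 hx'
  exact ⟨v0, hv0, v1, hv1, v2, hv2, v3, hv3, rfl⟩

private theorem kph1b_mem_mulE {k : ℕ} {V : Submodule K (I → QA K)} {v0 v1 v2 v3 : I → QA K}
    (h0 : v0 ∈ V) (h1 : v1 ∈ V) (h2 : v2 ∈ V) (h3 : v3 ∈ V) :
    v0 + (fun i => v1 i * S1 k) + (fun i => v2 i * S2 k) + (fun i => v3 i * S3 k) ∈
      mulE k V := by
  refine Submodule.add_mem_sup (Submodule.add_mem_sup (Submodule.add_mem_sup h0 ?_) ?_) ?_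
  · exact ⟨v1, h1, rfl⟩
  · exact ⟨v2, h2, rfl⟩
  · exact ⟨v3, h3, rfl⟩

private theorem kph1b_one (s : Pt K I J) (hg : s.Good) (w : NC K I) (v : I → QA K)
    (hv : v ∈ s.W) (e : QA K) (he : e ∈ mid K s.k (s.k + 1)) :
    Pr (s.k + 1) {s.omg w} (w.d1 s.X (fun i => v i * e)) = s.ell w v * e := by
  have h1 : ∀ i, v i ∈ lev K s.k := hg.V1lev v (hg.V0V1 hv.1)
  rw [kph_dw_mul w s.k s.X v hg.Xlev e he,
    kph_Pr_mul s.k (s.omg w) (NC.kph_ev_mem (lev K s.k) w s.X hg.Xlev) _ e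
      (NC.kph_d1_mem (lev K s.k) w s.X v hg.Xlev h1) he]
  rfl

private theorem kph1b_all (s : Pt K I J) (hg : s.Good) (w : NC K I) (v0 v1 v2 v3 : I → QA K)
    (h0 : v0 ∈ s.W) (h1 : v1 ∈ s.W) (h2 : v2 ∈ s.W) (h3 : v3 ∈ s.W) :
    Pr (s.k + 1) {s.omg w} (w.d1 s.X
      (v0 + (fun i => v1 i * S1 s.k) + (fun i => v2 i * S2 s.k) + (fun i => v3 i * S3 s.k))) =
      s.ell w v0 + s.ell w v1 * S1 s.k + s.ell w v2 * S2 s.k + s.ell w v3 * S3 s.k := by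
  have e0 : Pr (s.k + 1) {s.omg w} (w.d1 s.X v0) = s.ell w v0 := by
    have := kph1b_one s hg w v0 h0 1 (one_mem _)
    simpa only [mul_one] using this
  rw [NC.kph_d1_add, NC.kph_d1_add, NC.kph_d1_add, map_add, map_add, map_add, e0,
    kph1b_one s hg w v1 h1 _ (kpa_S1_mem _), kph1b_one s hg w v2 h2 _ (kpa_S2_mem _),
    kph1b_one s hg w v3 h3 _ (kpa_S3_mem _)]

/-- for `v ∈ mulE k (W0)`, `E_ω(dw[v]) = 0`. -/
private theorem kph1b_zero (h : s.Pkg4 w d t T w1 w2 a ρ) (v : I → QA K)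
    (hv : v ∈ mulE s.k (s.W0 w)) : Pr (s.k + 1) {s.omg w} (w.d1 s.X v) = 0 := by
  obtain ⟨v0, h0, v1, h1, v2, h2, v3, h3, rfl⟩ := kph1b_mulE hv
  rw [kph1b_all s h.good w v0 v1 v2 v3 h0.1 h1.1 h2.1 h3.1,
    LinearMap.mem_ker.1 h0.2, LinearMap.mem_ker.1 h1.2, LinearMap.mem_ker.1 h2.2,
    LinearMap.mem_ker.1 h3.2]
  simp only [zero_mul, add_zero]

/-- Every `u_0 + u_1 S1 + u_2 S2 + u_3 S3` with `u_b ∈ L(s)` is `E_ω(dw[v])` for some `v ∈ ker Θ`.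
Choose `v_b ∈ W` with `ell v_b = u_b`, put `η = Σ v_b S_b ∈ mulE k W`, correct by
`C_theta` with `Wt = s.W0 w` (`h.inj`): `η' ∈ mulE k (W0)` has `E_ω(dw[η']) = 0` by
`kph_Pr_mul`, `kph_dw_mul`. -/
theorem kph_realize (h : s.Pkg4 w d t T w1 w2 a ρ) (u0 u1 u2 u3 : QA K) (h0 : u0 ∈ s.LL w)
    (h1 : u1 ∈ s.LL w) (h2 : u2 ∈ s.LL w) (h3 : u3 ∈ s.LL w) :
    ∃ v, s.KerTh w1 w2 v ∧
      Pr (s.k + 1) {s.omg w} (w.d1 s.X v) = u0 + u1 * S1 s.k + u2 * S2 s.k + u3 * S3 s.k := by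
  obtain ⟨v0, hv0, rfl⟩ := h0
  obtain ⟨v1, hv1, rfl⟩ := h1
  obtain ⟨v2, hv2, rfl⟩ := h2
  obtain ⟨v3, hv3, rfl⟩ := h3
  have ha := (C_reach s h.good h.stable K inferInstance inferInstance s (Place.refl K)
    Rch.refl).2.2
  obtain ⟨η', hη', hK⟩ := C_theta s h.good ha w1 w2 h.gr.w1W h.gr.w2W (s.W0 w) inf_le_left h.inj _
    (kph1b_mem_mulE hv0 hv1 hv2 hv3)
  refine ⟨_, hK, ?_⟩
  rw [NC.kph_d1_add, map_add, kph1b_all s h.good w v0 v1 v2 v3 hv0 hv1 hv2 hv3,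
    kph1b_zero h η' hη', add_zero]

/-- Conversely, for `v ∈ mulE k W` (in particular on `ker Θ`), `E_ω(dw[v])` is of this form. -/
theorem kph_realize_conv (h : s.Pkg4 w d t T w1 w2 a ρ) (v : I → QA K)
    (hv : v ∈ mulE s.k s.W) : ∃ u0 ∈ s.LL w, ∃ u1 ∈ s.LL w, ∃ u2 ∈ s.LL w, ∃ u3 ∈ s.LL w,
      Pr (s.k + 1) {s.omg w} (w.d1 s.X v) = u0 + u1 * S1 s.k + u2 * S2 s.k + u3 * S3 s.k := by
  obtain ⟨v0, h0, v1, h1, v2, h2, v3, h3, rfl⟩ := kph1b_mulE hv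
  exact ⟨_, ⟨v0, h0, rfl⟩, _, ⟨v1, h1, rfl⟩, _, ⟨v2, h2, rfl⟩, _, ⟨v3, h3, rfl⟩,
    kph1b_all s h.good w v0 v1 v2 v3 h0 h1 h2 h3⟩

/-- for `v ∈ mulE k (W0)`, `E_ω(dw[v]) = 0`. -/
theorem kph_realize_zero (h : s.Pkg4 w d t T w1 w2 a ρ) (v : I → QA K)
    (hv : v ∈ mulE s.k (s.W0 w)) : Pr (s.k + 1) {s.omg w} (w.d1 s.X v) = 0 := by
  exact kph1b_zero h v hv

end Crest.Agent.KP.Pt
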