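import Crest.Agent.KPH_1
import Crest.Agent.KPA_Pr

/-!
# S0270, part (H): algebra of `Ā` (helper52)
-/

set_option autoImplicit false
set_option linter.unusedSectionVars false

open scoped PowerSeries LaurentSeries symmDiff

namespace Crest.Agent.KP.Pt

variable {K I J : Type} [Field K] [KF K] [Fintype I] [Fintype J]
variable {s : Pt K I J} {w : NC K I} {d t : ℕ} {T : I → QA K⟦X⟧} {w1 w2 : I → QA K} {a ρ : QA K}

/-! ### helpers -/

theorem kph2b_omg_lev (s : Pt K I J) (hg : s.Good) (w : NC K I) : s.omg w ∈ lev K s.k :=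
  NC.kph_ev_mem (lev K s.k) w s.X hg.Xlev

theorem kph2b_K1_lev (s : Pt K I J) (hg : s.Good) (w : NC K I) : s.K1 w ≤ lev K s.k := by
  refine Algebra.adjoin_le ?_
  rintro x rfl
  exact kph2b_omg_lev s hg w

theorem kph2b_K1_comm (s : Pt K I J) (w : NC K I) {x y : QA K} (hx : x ∈ s.K1 w)
    (hy : y ∈ s.K1 w) : x * y = y * x := by
  have h1 : Commute (s.omg w) x := Algebra.commute_of_mem_adjoin_self hx
  exact Algebra.commute_of_mem_adjoin_singleton_of_commute hy h1.symm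

theorem kph2b_omg_mem (s : Pt K I J) (w : NC K I) : s.omg w ∈ s.K1 w :=
  Algebra.self_mem_adjoin_singleton K _

/-- inverses in `K1` -/
theorem kph2b_K1_inv (s : Pt K I J) (hg : s.Good) (w : NC K I) {u : QA K} (hu : u ∈ s.K1 w)
    (hu0 : u ≠ 0) : ∃ v ∈ s.K1 w, u * v = 1 ∧ v * u = 1 := by
  have : FiniteDimensional K (s.K1 w) := kpa_fd_of_le' (kph2b_K1_lev s hg w)
  exact kpa_inv hu hu0

theorem kph2b_K2_le (h : s.Pkg4 w d t T w1 w2 a ρ) : s.K2 w ≤ s.K1 w := by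
  refine Algebra.adjoin_le ?_
  rintro u ⟨-, b, hb, hb0, hub⟩
  obtain ⟨v, hv, h1, -⟩ := kph2b_K1_inv s h.good w (h.comm hb) hb0
  have e : u = (u * b) * v := by rw [mul_assoc, h1, mul_one]
  rw [e]
  exact mul_mem (h.comm hub) hv

theorem kph2b_a_mem (h : s.Pkg4 w d t T w1 w2 a ρ) : a ∈ s.LL w := by
  rw [← h.l1]
  exact ⟨w1, h.gr.w1W, rfl⟩

theorem kph2b_rho_mem (h : s.Pkg4 w d t T w1 w2 a ρ) : ρ ∈ s.K1 w :=
  kph2b_K2_le h h.rho.1

/-- `S1, S2, S3` commute with `lev k` -/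
theorem kph2b_comm_S1 {k : ℕ} {u : QA K} (hu : u ∈ lev K k) : u * S1 k = S1 k * u :=
  kpa_lev_mid_comm hu (kpa_S1_mem k)
theorem kph2b_comm_S2 {k : ℕ} {u : QA K} (hu : u ∈ lev K k) : u * S2 k = S2 k * u :=
  kpa_lev_mid_comm hu (kpa_S2_mem k)
theorem kph2b_comm_S3 {k : ℕ} {u : QA K} (hu : u ∈ lev K k) : u * S3 k = S3 k * u :=
  kpa_lev_mid_comm hu (kpa_S3_mem k)

theorem kph2b_Ab_lev {k : ℕ} {ρ : QA K} (hρ : ρ ∈ lev K k) : Ab k ρ ∈ lev K (k + 1) :=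
  add_mem (kpa_S1_mem_lev k) (mul_mem (kpa_lev_mono (Nat.le_succ k) hρ) (kpa_S2_mem_lev k))

/-- `x Ā = Ā x` for `x ∈ lev k` commuting with `ρ` -/
theorem kph2b_Ab_comm {k : ℕ} {ρ x : QA K} (hx : x ∈ lev K k)
    (hxρ : x * ρ = ρ * x) : x * Ab k ρ = Ab k ρ * x := by
  unfold Ab
  rw [mul_add, add_mul, kph2b_comm_S1 hx, mul_assoc ρ, ← kph2b_comm_S2 hx, ← mul_assoc, hxρ,
    mul_assoc]

theorem kph2b_S1_Ab {k : ℕ} {ρ : QA K} (hρ : ρ ∈ lev K k) :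
    S1 k * Ab k ρ + Ab k ρ * S1 k = (2 * al k : K) • (1 : QA K) := by
  unfold Ab
  rw [mul_add, add_mul, ← mul_assoc, ← kph2b_comm_S1 hρ, mul_assoc ρ, mul_assoc ρ,
    kpa_S1_mul_S1, kpa_S1_mul_S2, kpa_S2_mul_S1, mul_neg]
  have : (2 * al k : K) • (1 : QA K) = (al k : K) • (1 : QA K) + (al k : K) • (1 : QA K) := by
    rw [two_mul, add_smul]
  rw [this]
  abel

theorem kph2b_S2_Ab {k : ℕ} {ρ : QA K} (hρ : ρ ∈ lev K k) :
    S2 k * Ab k ρ + Ab k ρ * S2 k = (2 * be k : K) • ρ := by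
  unfold Ab
  rw [mul_add, add_mul, ← mul_assoc, ← kph2b_comm_S2 hρ, mul_assoc ρ, 
    kpa_S2_mul_S2, kpa_S1_mul_S2, kpa_S2_mul_S1, mul_smul_comm, mul_one]
  have : (2 * be k : K) • ρ = (be k : K) • ρ + (be k : K) • ρ := by
    rw [two_mul, add_smul]
  rw [this]
  abel

theorem kph2b_S3_Ab {k : ℕ} {ρ : QA K} (hρ : ρ ∈ lev K k) :
    S3 k * Ab k ρ + Ab k ρ * S3 k = 0 := by
  unfold Ab
  rw [mul_add, add_mul, ← mul_assoc, ← kph2b_comm_S3 hρ, mul_assoc ρ, mul_assoc ρ,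
    kpa_S3_mul_S1, kpa_S3_mul_S2, kpa_S1_mul_S3, kpa_S2_mul_S3, mul_neg]
  abel

theorem kph2b_Ab_sq {k : ℕ} {ρ : QA K} (hρ : ρ ∈ lev K k) :
    Ab k ρ * Ab k ρ = (al k : K) • (1 : QA K) + (be k : K) • (ρ * ρ) := by
  have h1 := kph2b_S1_Ab hρ
  have h2 := kph2b_S2_Ab hρ
  have e : Ab k ρ * Ab k ρ = S1 k * Ab k ρ + ρ * (S2 k * Ab k ρ) := by
    conv_lhs => rw [Ab]
    rw [add_mul, mul_assoc]
    rfl
  have e1 : S1 k * Ab k ρ = (al k : K) • (1 : QA K) + ρ * S3 k := by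
    unfold Ab
    rw [mul_add, ← mul_assoc, ← kph2b_comm_S1 hρ, mul_assoc ρ, kpa_S1_mul_S1, kpa_S1_mul_S2]
  have e2 : S2 k * Ab k ρ = -S3 k + (be k : K) • ρ := by
    unfold Ab
    rw [mul_add, ← mul_assoc, ← kph2b_comm_S2 hρ, mul_assoc ρ, kpa_S2_mul_S1, kpa_S2_mul_S2,
      mul_smul_comm, mul_one]
  rw [e, e1, e2, mul_add, mul_neg, mul_smul_comm]
  abel

/-- abstract projection onto the commutant of `{ω, A}` -/
theorem kph2b_core {k : ℕ} {ω A Ai U V : QA K} (hAi : Ai ∈ lev K k) (hUl : U ∈ lev K k)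
    (hVl : V ∈ lev K k) (hAAi : A * Ai = 1) (hAiA : Ai * A = 1)
    (hV2 : (2 : K) • V = U * A + A * U) (hωA : ω * A = A * ω) (hωU : ω * U = U * ω)
    (hAAU : A * A * U = U * (A * A)) : Pr k ({ω, A} : Set (QA K)) U * A = V := by
  have h20 : (2 : K) ≠ 0 := two_ne_zero
  have hVK : V * ω = ω * V := by
    have e : (2 : K) • (V * ω) = (2 : K) • (ω * V) := by
      rw [← smul_mul_assoc, ← mul_smul_comm, hV2, add_mul, mul_add, mul_assoc U, ← hωA,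
        ← mul_assoc U, ← hωU, mul_assoc A, ← hωU, ← mul_assoc A, ← hωA]
      simp only [mul_assoc]
    exact smul_right_injective _ h20 e
  have hVA : V * A = A * V := by
    have e : (2 : K) • (V * A) = (2 : K) • (A * V) := by
      rw [← smul_mul_assoc, ← mul_smul_comm, hV2, add_mul, mul_add, mul_assoc U A A, ← hAAU]
      simp only [mul_assoc]
      rw [add_comm]
    exact smul_right_injective _ h20 e
  have hAiA' : ∀ x : QA K, x * A = A * x → x * Ai = Ai * x := by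
    intro x hx
    calc x * Ai = Ai * A * (x * Ai) := by rw [hAiA, one_mul]
      _ = Ai * (A * x) * Ai := by simp only [mul_assoc]
      _ = Ai * x * (A * Ai) := by rw [← hx]; simp only [mul_assoc]
      _ = Ai * x := by rw [hAAi, mul_one]
  have hPr : IsPr k ({ω, A} : Set (QA K)) U (V * Ai) := by
    refine ⟨mul_mem hVl hAi, ?_, ?_⟩
    · intro φ hφ
      rcases hφ with rfl | hφ
      · have e1 : φ * Ai = Ai * φ := hAiA' _ hωA
        rw [mul_assoc, ← e1, ← mul_assoc, hVK, mul_assoc]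
      · rw [Set.mem_singleton_iff] at hφ
        subst hφ
        rw [mul_assoc, hAiA, mul_one, ← mul_assoc, ← hVA, mul_assoc, hAAi, mul_one]
    · intro d hd hd'
      have hdA : d * A = A * d := hd' A (Set.mem_insert_of_mem _ rfl)
      have hdAi := hAiA' d hdA
      have e : (2 : K) • ((U - V * Ai) * d) = U * d - A * (U * Ai * d) := by
        have e1 : (2 : K) • ((U - V * Ai) * d) = (2 : K) • (U * d) - ((2 : K) • V) * Ai * d := by
          rw [sub_mul, smul_sub, smul_mul_assoc, smul_mul_assoc]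
        rw [e1, hV2, add_mul, mul_assoc U A Ai, hAAi, mul_one, add_mul, two_smul]
        simp only [mul_assoc]
        abel
      have e2 : QA.tr (A * (U * Ai * d)) = QA.tr (U * d) := by
        rw [kpa_tr_comm, mul_assoc, mul_assoc, hdA, ← mul_assoc Ai, hAiA, one_mul]
      have e3 := congrArg QA.tr e
      rw [map_smul, map_sub, e2, sub_self, smul_eq_mul] at e3
      exact (mul_eq_zero.1 e3).resolve_left h20
  rw [kpa_Pr_eq hUl hPr, mul_assoc, hAiA, mul_one]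

/-- `E_{ω,Ā} = E_{ω,Ā} ∘ E_ω` on `lev (k+1)`. -/
theorem kph_Pr_tower (h : s.Pkg4 w d t T w1 w2 a ρ) (u : QA K) (hu : u ∈ lev K (s.k + 1)) :
    Pr (s.k + 1) ({s.omg w, Ab s.k ρ} : Set (QA K)) u =
      Pr (s.k + 1) ({s.omg w, Ab s.k ρ} : Set (QA K)) (Pr (s.k + 1) {s.omg w} u) := by
  obtain ⟨h1, h2, h3⟩ := Pr_spec (s.k + 1) ({s.omg w} : Set (QA K)) u hu
  obtain ⟨g1, g2, g3⟩ := Pr_spec (s.k + 1) ({s.omg w, Ab s.k ρ} : Set (QA K)) u hu
  refine (kpa_Pr_eq h1 ⟨g1, g2, fun d hd hd' => ?_⟩).symm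
  have e : (Pr (s.k + 1) {s.omg w} u - Pr (s.k + 1) ({s.omg w, Ab s.k ρ} : Set (QA K)) u) * d =
      (u - Pr (s.k + 1) ({s.omg w, Ab s.k ρ} : Set (QA K)) u) * d -
        (u - Pr (s.k + 1) {s.omg w} u) * d := by
    rw [← sub_mul]
    congr 1
    abel
  rw [e, map_sub, g3 d hd hd', h3 d hd fun φ hφ => hd' φ (by
    rw [Set.mem_singleton_iff] at hφ
    rw [hφ]
    exact Set.mem_insert _ _), sub_zero]

/-- `E_{ω,Ā}(u_0+u_1 S1+u_2 S2+u_3 S3) Ā = u_0 Ā + (al u_1 + be ρ u_2)` for `u_b ∈ K[ω]`: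
`Ā² = al + be ρ²` commutes with everything in sight, `c := (u + Ā u Ā⁻¹)/2` is the projection
(it commutes with `ω` and `Ā`; `tr((u - Ā u Ā⁻¹) d) = 0` for `d` commuting with `Ā`) and
`S1 Ā + Ā S1 = 2 al`, `S2 Ā + Ā S2 = 2 be ρ`, `S3 Ā + Ā S3 = 0`. -/
theorem kph_PrAb (h : s.Pkg4 w d t T w1 w2 a ρ) (u0 u1 u2 u3 : QA K) (h0 : u0 ∈ s.K1 w)
    (h1 : u1 ∈ s.K1 w) (h2 : u2 ∈ s.K1 w) (h3 : u3 ∈ s.K1 w) :
    Pr (s.k + 1) ({s.omg w, Ab s.k ρ} : Set (QA K))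
        (u0 + u1 * S1 s.k + u2 * S2 s.k + u3 * S3 s.k) * Ab s.k ρ =
      u0 * Ab s.k ρ + ((al s.k : K) • u1 + (be s.k : K) • (ρ * u2)) := by
  have hK1 := kph2b_K1_lev s h.good w
  have hρ1 := kph2b_rho_mem h
  have hρ : ρ ∈ lev K s.k := hK1 hρ1
  have hωl := kph2b_omg_lev s h.good w
  have hω1 := kph2b_omg_mem s w
  have hS : ∀ x ∈ s.K1 w, x * Ab s.k ρ = Ab s.k ρ * x := fun x hx =>
    kph2b_Ab_comm (hK1 hx) (kph2b_K1_comm s w hx hρ1)
  have hAl := kph2b_Ab_lev hρ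
  -- inverse of `Ā`
  have hAb0 : Ab s.k ρ ≠ 0 := by
    intro e
    have e1 := kph2b_S1_Ab hρ
    rw [e, mul_zero, zero_mul, add_zero] at e1
    have e2 := congrArg QA.tr e1
    rw [map_zero, map_smul, kpa_tr_one, smul_eq_mul, mul_one] at e2
    exact (mul_ne_zero two_ne_zero (KF.al_ne s.k)) e2.symm
  obtain ⟨Ai, hAi, hAAi, hAiA⟩ := kpa_inv_lev hAl hAb0
  set A := Ab s.k ρ with hA
  set U := u0 + u1 * S1 s.k + u2 * S2 s.k + u3 * S3 s.k with hU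
  have hl : ∀ x ∈ s.K1 w, x ∈ lev K (s.k + 1) := fun x hx => kpa_lev_mono (Nat.le_succ _) (hK1 hx)
  have hUl : U ∈ lev K (s.k + 1) := by
    rw [hU]
    exact add_mem (add_mem (add_mem (hl _ h0) (mul_mem (hl _ h1) (kpa_S1_mem_lev _)))
      (mul_mem (hl _ h2) (kpa_S2_mem_lev _))) (mul_mem (hl _ h3) (kpa_S3_mem_lev _))
  -- elements of `K1` commute with `U`
  have hUx : ∀ x ∈ s.K1 w, x * U = U * x := by
    intro x hx
    have hxl := hK1 hx
    rw [hU]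
    simp only [mul_add, add_mul]
    rw [kph2b_K1_comm s w hx h0, ← mul_assoc, ← mul_assoc, ← mul_assoc, kph2b_K1_comm s w hx h1,
      kph2b_K1_comm s w hx h2, kph2b_K1_comm s w hx h3, mul_assoc u1 x, mul_assoc u2 x,
      mul_assoc u3 x, kph2b_comm_S1 hxl, kph2b_comm_S2 hxl, kph2b_comm_S3 hxl]
    simp only [mul_assoc]
  have hAA : A * A ∈ s.K1 w := by
    rw [hA, kph2b_Ab_sq hρ]
    exact add_mem (Subalgebra.smul_mem _ (one_mem _) _) (Subalgebra.smul_mem _ (mul_mem hρ1 hρ1) _)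
  have hAAU := hUx _ hAA
  -- `U A + A U`
  have hsum : U * A + A * U = (2 : K) • (u0 * A + ((al s.k : K) • u1 + (be s.k : K) • (ρ * u2))) := by
    have e0 : u0 * A + A * u0 = (2 : K) • (u0 * A) := by
      rw [← hS u0 h0, two_smul]
    have e1 : u1 * S1 s.k * A + A * (u1 * S1 s.k) = (2 : K) • ((al s.k : K) • u1) := by
      rw [← mul_assoc A, ← hS u1 h1, mul_assoc, mul_assoc, ← mul_add, hA, kph2b_S1_Ab hρ,
        mul_smul_comm, mul_one, smul_smul]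
    have e2 : u2 * S2 s.k * A + A * (u2 * S2 s.k) = (2 : K) • ((be s.k : K) • (ρ * u2)) := by
      rw [← mul_assoc A, ← hS u2 h2, mul_assoc, mul_assoc, ← mul_add, hA, kph2b_S2_Ab hρ,
        mul_smul_comm, kph2b_K1_comm s w h2 hρ1, smul_smul]
    have e3 : u3 * S3 s.k * A + A * (u3 * S3 s.k) = 0 := by
      rw [← mul_assoc A, ← hS u3 h3, mul_assoc, mul_assoc, ← mul_add, hA, kph2b_S3_Ab hρ,
        mul_zero]
    calc U * A + A * U = (u0 * A + A * u0) + (u1 * S1 s.k * A + A * (u1 * S1 s.k)) +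
          (u2 * S2 s.k * A + A * (u2 * S2 s.k)) + (u3 * S3 s.k * A + A * (u3 * S3 s.k)) := by
            rw [hU]; simp only [mul_add, add_mul]; abel
      _ = _ := by rw [e0, e1, e2, e3, add_zero, smul_add, smul_add, add_assoc]
  -- the projection
  have hVl : u0 * A + ((al s.k : K) • u1 + (be s.k : K) • (ρ * u2)) ∈ lev K (s.k + 1) :=
    add_mem (mul_mem (hl _ h0) hAl) (add_mem (Subalgebra.smul_mem _ (hl _ h1) _)
      (Subalgebra.smul_mem _ (mul_mem (hl _ hρ1) (hl _ h2)) _))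
  exact kph2b_core hAi hUl hVl hAAi hAiA hsum.symm (hS _ hω1) (hUx _ hω1) hAAU

/-- `a R = L(s)`, `K2(s) ≤ K1(s)`, `RR ≤ K2`: for `u ∈ L(s)` there is `r ∈ RR` with `u = a r`, and
conversely. (`h.l1`: `a = ell w1 ∈ L(s)`, `h.a0`; `K1(s)` is a field containing `L(s)`.) -/
theorem kph_L_eq (h : s.Pkg4 w d t T w1 w2 a ρ) :
    s.K2 w ≤ s.K1 w ∧ a ∈ s.LL w ∧ (1 : QA K) ∈ s.RR w a ∧ (∀ u ∈ s.LL w, ∃ r ∈ s.RR w a, u = a * r) ∧
      ∀ r ∈ s.RR w a, a * r ∈ s.LL w := by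
  have ha := kph2b_a_mem h
  have haK : a ∈ s.K1 w := h.comm ha
  obtain ⟨v, hv, h1, h2⟩ := kph2b_K1_inv s h.good w haK h.a0
  refine ⟨kph2b_K2_le h, ha, ⟨one_mem (s.K2 w), ?_⟩, fun u hu => ?_, fun r hr => hr.2⟩
  · change a * 1 ∈ s.LL w
    rw [mul_one]; exact ha
  · have huK : u ∈ s.K1 w := h.comm hu
    have e : a * (v * u) = u := by rw [← mul_assoc, h1, one_mul]
    have e' : v * u * a = u := by
      rw [mul_assoc, kph2b_K1_comm s w huK haK, ← mul_assoc, h2, one_mul]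
    refine ⟨v * u, ⟨Algebra.subset_adjoin ⟨kph2b_K1_lev s h.good w (mul_mem hv huK), a, ha, h.a0,
      by rw [e']; exact hu⟩, ?_⟩, e.symm⟩
    change a * (v * u) ∈ s.LL w
    rw [e]; exact hu

end Crest.Agent.KP.Pt
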