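import Crest.Agent.KPH_1a
import Crest.Agent.KPH_2b
import Crest.Agent.KPB_D1
import Crest.Agent.KPC_Cf
import Crest.Agent.KPA_Pr

/-!
# S0270, part (H): residues of `K1(s_5)` (helper52; proofs helper78)
-/

set_option autoImplicit false
set_option linter.unusedSectionVars false

open scoped PowerSeries LaurentSeries symmDiff

namespace Crest.Agent.KP.Pt

section general

open Module

theorem kph2a_isInt {K : Type} [Field K] [KF K] {k : ℕ} {u : QA K} (hu : u ∈ lev K k) :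
    IsIntegral K u := by
  have h1 : IsIntegral K (⟨u, hu⟩ : lev K k) := IsIntegral.of_finite K _
  exact h1.map (lev K k).val

theorem kph2a_dec {K : Type} [Field K] [KF K] (W : QA K⟦X⟧) :
    ∃ V : QA K⟦X⟧, (∀ m, cf m V = cf (m + 1) W) ∧
      toL K W = (Place.laurent K).iq (cf 0 W) + zL K • toL K V := by
  have h0 : cf 0 (W - toP K (cf 0 W)) = 0 := by
    rw [map_sub, kpr_cf_toP_zero, sub_self]
  obtain ⟨V, hV, hVm⟩ := kpr_div_X _ h0
  have hVc : ∀ m, cf m V = cf (m + 1) W := by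
    intro m
    rw [hVm m, map_sub, kpr_cf_toP_succ _ (m + 1) (Nat.succ_ne_zero m), sub_zero]
  refine ⟨V, hVc, ?_⟩
  have e1 : W = toP K (cf 0 W) + (PowerSeries.X : K⟦X⟧) • V := by
    rw [← hV]; abel
  rw [kpr_iq_laurent]
  conv_lhs => rw [e1]
  rw [map_add, kpr_toL_toP]
  congr 1
  refine kpr_ext fun g => ?_
  rw [kpr_toL_apply]
  change algebraMap K⟦X⟧ K⸨X⸩ ((PowerSeries.X : K⟦X⟧) * V g) = zL K * (toL K V g)
  rw [map_mul, kpr_toL_apply]
  rfl

theorem kph2a_D1' {K : Type} [Field K] [KF K] (k : ℕ) (ω u : QA K) (V : QA K⟦X⟧)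
    (hω : ω ∈ lev K k) (hu : u ∈ lev K k) (hV : cf 0 V = u) :
    Pr k {ω} u ∈ (Place.laurent K).resA
      (Algebra.adjoin K⸨X⸩ {(Place.laurent K).iq ω + zL K • toL K V}) := by
  obtain ⟨η, -, -, hη⟩ := kpa_ad_dec hω hu
  have hc : ω * Pr k {ω} u = Pr k {ω} u * ω := (kpa_Pr_comm hu ω (Set.mem_singleton ω)).symm
  have hd : (Place.laurent K).rq (toL K V) = Pr k {ω} u + (ω * η - η * ω) := by
    rw [kpr_rq_toL, hV]
    exact hη
  exact (Place.laurent K).D1_aux (kph2a_isInt hω) (kpr_int_toL V) kpr_zL_ne kpr_zL_mem kpr_zL_r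
    hc hd

/-- D1 for a power series element -/
theorem kph2a_D1 {K : Type} [Field K] [KF K] (k : ℕ) (W : QA K⟦X⟧)
    (hl : ∀ m, cf m W ∈ lev K k) :
    cf 0 W ∈ (Place.laurent K).resA (Algebra.adjoin K⸨X⸩ {toL K W}) ∧
    Pr k {cf 0 W} (cf 1 W) ∈ (Place.laurent K).resA (Algebra.adjoin K⸨X⸩ {toL K W}) := by
  obtain ⟨V, hVc, hdec⟩ := kph2a_dec W
  have key1 := (Place.laurent K).base_mem_resA (cf 0 W) (kpr_int_toL V) kpr_zL_mem kpr_zL_r
  have key2 := kph2a_D1' k (cf 0 W) (cf 1 W) V (hl 0) (hl 1) (hVc 0)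
  rw [← hdec] at key1 key2
  exact ⟨key1, key2⟩

/-- D2 for generating sets -/
theorem kph2a_D2 {K L : Type} [Field K] [Field L] [KF K] [KF L] (P : Place K L) (k : ℕ)
    (S : Set (QA L)) (S' : Set (QA K)) (hS : S ⊆ lev L k)
    (hres : P.resA (Algebra.adjoin L S) = Algebra.adjoin K S')
    {u : QA L} (hul : u ∈ lev L k) (hu : P.Int u) :
    P.Int (Pr k S u) ∧ P.rq (Pr k S u) = Pr k S' (P.rq u) := by
  have hΦ : Algebra.adjoin L S ≤ lev L k := kpa_adjoin_le hS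
  have hΦ' : P.resA (Algebra.adjoin L S) ≤ lev K k := P.resA_lev_le hΦ
  have hC := P.resA_CenA_aux k (Algebra.adjoin L S) hΦ inferInstance inferInstance
    (kpa_finrank_cenA hΦ) (kpa_finrank_cenA hΦ')
  have hnd : ∀ c ∈ CenA k (P.resA (Algebra.adjoin L S) : Set (QA K)), c ≠ 0 →
      ∃ d ∈ CenA k (P.resA (Algebra.adjoin L S) : Set (QA K)), QA.tr (c * d) ≠ 0 := by
    intro c hc hc0
    by_contra hcon
    push Not at hcon
    have hle : CenA k (P.resA (Algebra.adjoin L S) : Set (QA K)) ≤ lev K k :=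
      fun x hx => (mem_CenA.1 hx).1
    have := kpa_fd_of_le' hle
    exact hc0 (kpa_sub_nondeg hc hcon)
  have hIs : IsPr k (Algebra.adjoin L S : Set (QA L)) u (Pr k S u) := by
    rw [← kpa_Pr_adjoin k S hul]
    exact Pr_spec k _ u hul
  obtain ⟨h1, h2⟩ := P.D2_aux k _ hC hnd hu hIs
  refine ⟨h1, ?_⟩
  have hrl : P.rq u ∈ lev K k := P.rq_lev hul
  rw [← kpa_Pr_adjoin k S' hrl, ← hres]
  exact (kpa_Pr_eq hrl h2).symm

end general

variable {K I J : Type} [Field K] [KF K] [Fintype I] [Fintype J]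
variable {s : Pt K I J} {w : NC K I} {d t : ℕ} {T : I → QA K⟦X⟧} {w1 w2 : I → QA K} {a ρ : QA K}

theorem kph2a_omg (h : s.Pkg4 w d t T w1 w2 a ρ) :
    (s.grow T).omg w.up = toL K (w.ev T) ∧ cf 0 (w.ev T) = s.omg w ∧
      (∀ m, cf m (w.ev T) ∈ lev K (s.k + 1)) ∧
      Pr (s.k + 1) {s.omg w} (cf 1 (w.ev T)) = a * Ab s.k ρ := by
  have hz : (fun i => cf 0 (T i)) = s.X := funext h.gr.zero
  have e0 : (s.grow T).omg w.up = toL K (w.ev T) := KC.ev_toL T w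
  have e1 : cf 0 (w.ev T) = s.omg w := by
    have := KC.cf0_ev T w
    rw [hz] at this
    exact this
  have hlev : (s.grow T).omg w.up ∈ lev K⸨X⸩ (s.k + 1) :=
    NC.kph_ev_mem (lev K⸨X⸩ (s.k + 1)) w.up _ (kph_s5 h).2.2.Xlev
  refine ⟨e0, e1, ?_, ?_⟩
  · rw [e0, kpr_toL_mem_lev] at hlev
    exact hlev
  · have e2 : cf 1 (w.ev T) = w.d1 s.X (fun i => w1 i * S1 s.k + w2 i * S2 s.k) := by
      have := KC.cf1_ev T w
      rw [hz, show (fun i => cf 1 (T i)) = fun i => w1 i * S1 s.k + w2 i * S2 s.k from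
        funext h.gr.one] at this
      exact this
    have hX := h.good.Xlev
    have hl1 : ∀ i, w1 i ∈ lev K s.k := h.good.V1lev w1 (h.good.V0V1 h.gr.w1W.1)
    have hl2 : ∀ i, w2 i ∈ lev K s.k := h.good.V1lev w2 (h.good.V0V1 h.gr.w2W.1)
    have e3 : w.d1 s.X (fun i => w1 i * S1 s.k + w2 i * S2 s.k) =
        w.d1 s.X w1 * S1 s.k + w.d1 s.X w2 * S2 s.k := by
      rw [← kph_dw_mul w s.k s.X w1 hX _ (kpa_S1_mem s.k),
        ← kph_dw_mul w s.k s.X w2 hX _ (kpa_S2_mem s.k), ← NC.kph_d1_add]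
      rfl
    have hω : s.omg w ∈ lev K s.k := NC.kph_ev_mem (lev K s.k) w s.X hX
    rw [e2, e3, map_add,
      kph_Pr_mul s.k _ hω _ _ (NC.kph_d1_mem (lev K s.k) w s.X w1 hX hl1) (kpa_S1_mem s.k),
      kph_Pr_mul s.k _ hω _ _ (NC.kph_d1_mem (lev K s.k) w s.X w2 hX hl2) (kpa_S2_mem s.k)]
    have f1 : Pr s.k {s.omg w} (w.d1 s.X w1) = a := h.l1
    have f2 : Pr s.k {s.omg w} (w.d1 s.X w2) = a * ρ := h.l2
    rw [f1, f2]
    unfold Ab
    rw [mul_add, mul_assoc]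

theorem kph2a_K1_le (h : s.Pkg4 w d t T w1 w2 a ρ) : s.K1 w ≤ lev K s.k :=
  kpa_adjoin_le (by
    rintro _ rfl
    exact NC.kph_ev_mem (lev K s.k) w s.X h.good.Xlev)

theorem kph2a_rho (h : s.Pkg4 w d t T w1 w2 a ρ) : ρ ∈ s.K1 w :=
  (kph_L_eq h).1 h.rho.1

/-- `res K1(s_5) = K[ω, Ā]`, as subalgebras -/
theorem kph2a_resA (h : s.Pkg4 w d t T w1 w2 a ρ) :
    (Place.laurent K).resA ((s.grow T).K1 w.up) =
      Algebra.adjoin K ({s.omg w, Ab s.k ρ} : Set (QA K)) := by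
  obtain ⟨e0, e1, hl, e2⟩ := kph2a_omg h
  obtain ⟨k1, k2⟩ := kph2a_D1 (s.k + 1) (w.ev T) hl
  rw [e1] at k1 k2
  rw [e2] at k2
  have hK1 : (s.grow T).K1 w.up = Algebra.adjoin K⸨X⸩ {toL K (w.ev T)} := by
    unfold K1
    rw [e0]
  rw [← hK1] at k1 k2
  set R := (Place.laurent K).resA ((s.grow T).K1 w.up) with hR
  -- `K[ω] ≤ R`
  have hle1 : s.K1 w ≤ R := Algebra.adjoin_le (by
    rintro _ rfl
    exact k1)
  have hK1l := kph2a_K1_le h
  have : FiniteDimensional K (s.K1 w) := kpa_fd_of_le' hK1l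
  have haL : a ∈ s.LL w := (kph_L_eq h).2.1
  have haK : a ∈ s.K1 w := h.comm haL
  obtain ⟨ai, hai, hai1, hai2⟩ := kpa_inv haK h.a0
  have hAb : Ab s.k ρ ∈ R := by
    have e : Ab s.k ρ = ai * (a * Ab s.k ρ) := by rw [← mul_assoc, hai2, one_mul]
    rw [e]
    exact R.mul_mem (hle1 hai) k2
  have hle : Algebra.adjoin K ({s.omg w, Ab s.k ρ} : Set (QA K)) ≤ R := by
    refine Algebra.adjoin_le ?_
    rintro x (rfl | rfl)
    · exact k1
    · exact hAb
  -- dimensions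
  have hlev5 : (s.grow T).K1 w.up ≤ lev K⸨X⸩ (s.k + 1) := kpa_adjoin_le (by
    rintro _ rfl
    exact NC.kph_ev_mem (lev K⸨X⸩ (s.k + 1)) w.up _ (kph_s5 h).2.2.Xlev)
  have : FiniteDimensional K⸨X⸩ ((s.grow T).K1 w.up) := kpa_fd_of_le' hlev5
  have hRfd : FiniteDimensional K R := Place.finiteDimensional_resA _ _
  have hRn : Module.finrank K R = 2 * Module.finrank K (s.K1 w) := by
    rw [hR, Place.finrank_resA]
    exact h.n1
  have hρ : ρ ∈ s.K1 w := kph2a_rho h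
  have hωm : ∀ u ∈ s.K1 w, u ∈ Algebra.adjoin K ({s.omg w, Ab s.k ρ} : Set (QA K)) := by
    intro u hu
    exact Algebra.adjoin_mono (by
      rintro _ rfl
      exact Or.inl rfl) hu
  have hAbm : Ab s.k ρ ∈ Algebra.adjoin K ({s.omg w, Ab s.k ρ} : Set (QA K)) :=
    Algebra.subset_adjoin (Or.inr rfl)
  let f : (s.K1 w × s.K1 w) →ₗ[K] Algebra.adjoin K ({s.omg w, Ab s.k ρ} : Set (QA K)) :=
    { toFun := fun p => ⟨(p.1 : QA K) + p.2 * Ab s.k ρ,
        Subalgebra.add_mem _ (hωm _ p.1.2) (Subalgebra.mul_mem _ (hωm _ p.2.2) hAbm)⟩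
      map_add' := by
        intro p q
        apply Subtype.ext
        show ((p.1 : QA K) + q.1) + (p.2 + q.2) * Ab s.k ρ =
          (p.1 + p.2 * Ab s.k ρ) + (q.1 + q.2 * Ab s.k ρ)
        rw [add_mul]
        abel
      map_smul' := by
        intro c p
        apply Subtype.ext
        show (c • (p.1 : QA K)) + (c • (p.2 : QA K)) * Ab s.k ρ =
          c • ((p.1 : QA K) + p.2 * Ab s.k ρ)
        rw [smul_add, smul_mul_assoc] }
  have hf : Function.Injective f := by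
    rw [injective_iff_map_eq_zero]
    intro p hp
    have hp' : (p.1 : QA K) + p.2 * Ab s.k ρ = 0 := congrArg Subtype.val hp
    have h1 : (p.1 : QA K) + (p.2 : QA K) * S1 s.k + ((p.2 : QA K) * ρ) * S2 s.k +
        0 * S3 s.k = 0 := by
      rw [zero_mul, add_zero, ← hp']
      unfold Ab
      rw [mul_add, ← mul_assoc, add_assoc]
    obtain ⟨z0, z1, -, -⟩ := kpa_comb_eq_zero (hK1l p.1.2) (hK1l p.2.2)
      (hK1l (Subalgebra.mul_mem _ p.2.2 hρ)) (Subalgebra.zero_mem _) h1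
    exact Prod.ext (Subtype.ext z0) (Subtype.ext z1)
  have hadfd : FiniteDimensional K (Algebra.adjoin K ({s.omg w, Ab s.k ρ} : Set (QA K))) :=
    Submodule.finiteDimensional_of_le
      (S₁ := Subalgebra.toSubmodule (Algebra.adjoin K ({s.omg w, Ab s.k ρ} : Set (QA K))))
      (S₂ := Subalgebra.toSubmodule R) hle
  have hge := LinearMap.finrank_le_finrank_of_injective hf
  rw [Module.finrank_prod, ← two_mul, ← hRn] at hge
  have hRfd' : FiniteDimensional K (Subalgebra.toSubmodule R) := hRfd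
  have := Submodule.eq_of_le_of_finrank_le
    (S₁ := Subalgebra.toSubmodule (Algebra.adjoin K ({s.omg w, Ab s.k ρ} : Set (QA K))))
    (S₂ := Subalgebra.toSubmodule R) hle hge
  exact (Subalgebra.toSubmodule_injective this).symm

/-- `res K1(s_5) = K[ω, Ā]`. `ω_5 = toL (w.ev T)` with `cf 0 (w.ev T) = ω`,
`cf 1 (w.ev T) = dw[T_1] `, `E_ω(cf 1) = ell w1 * S1 + ell w2 * S2 = a Ā` (`kph_Pr_mul`).
The residue space is a subalgebra; it contains `ω` and (D1) `a Ā`; `a ∈ K1(s) = K[ω]` is invertible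
in `K[ω]`, so it contains `Ā`.  `dim K[ω,Ā] ≥ 2 dim K[ω]` (`K[ω] ∩ K[ω] Ā = 0` since `K[ω] ≤ lev k`)
and `dim res = dim K1(s_5) = 2 dim K[ω]` (`h.n1`, `finrank_resS`). -/
theorem kph_resK1 (h : s.Pkg4 w d t T w1 w2 a ρ) :
    (Place.laurent K).resS (Subalgebra.toSubmodule ((s.grow T).K1 w.up)) =
      Subalgebra.toSubmodule (Algebra.adjoin K ({s.omg w, Ab s.k ρ} : Set (QA K))) := by
  rw [← Place.toSubmodule_resA, kph2a_resA h]

/-- D2 in the form used in `kph_pole`: projection of an integral element onto `C(ω_5)`. -/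
theorem kph2a_res_Pr (h : s.Pkg4 w d t T w1 w2 a ρ) (u : QA K⸨X⸩)
    (hl : u ∈ lev K⸨X⸩ (s.k + 1)) (hu : (Place.laurent K).Int u) :
    (Place.laurent K).Int (Pr (s.k + 1) {(s.grow T).omg w.up} u) ∧
    (Place.laurent K).rq (Pr (s.k + 1) {(s.grow T).omg w.up} u) =
      Pr (s.k + 1) ({s.omg w, Ab s.k ρ} : Set (QA K)) ((Place.laurent K).rq u) := by
  refine kph2a_D2 (Place.laurent K) (s.k + 1) {(s.grow T).omg w.up} {s.omg w, Ab s.k ρ} ?_
    (kph2a_resA h) hl hu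
  rintro _ rfl
  exact NC.kph_ev_mem (lev K⸨X⸩ (s.k + 1)) w.up _ (kph_s5 h).2.2.Xlev

/-- For an integral `v ∈ W(s_5)` with residue `v0` (or any integral `v ∈ (lev (k+1))^I`),
`ell v` is integral with residue `E_{ω,Ā}(dw[v0])` (D2 with `kph_resK1`;
`Pr k {ω_5} = Pr k (K1(s_5))` because the centralizers agree; `NC.kph_res_d1`). -/
theorem kph_res_ell (h : s.Pkg4 w d t T w1 w2 a ρ) (v : I → QA K⸨X⸩)
    (hl : ∀ i, v i ∈ lev K⸨X⸩ (s.k + 1))
    (hv : ∀ i, (Place.laurent K).Int (v i)) :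
    (Place.laurent K).Int ((s.grow T).ell w.up v) ∧
    (Place.laurent K).rq ((s.grow T).ell w.up v) =
      Pr (s.k + 1) ({s.omg w, Ab s.k ρ} : Set (QA K))
        (w.d1 s.X (fun i => (Place.laurent K).rq (v i))) := by
  have hX : ∀ i, (Place.laurent K).Int ((s.grow T).X i) := fun i => kpr_int_toL _
  have hXr : (fun i => (Place.laurent K).rq ((s.grow T).X i)) = s.X := by
    funext i
    show (Place.laurent K).rq (toL K (T i)) = s.X i
    rw [kpr_rq_toL, h.gr.zero]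
  obtain ⟨h1, h2⟩ := NC.kph_res_d1 (Place.laurent K) w (s.grow T).X v hX hv
  rw [hXr] at h2
  have hdl : w.up.d1 (s.grow T).X v ∈ lev K⸨X⸩ (s.k + 1) :=
    NC.kph_d1_mem (lev K⸨X⸩ (s.k + 1)) _ _ _ (kph_s5 h).2.2.Xlev hl
  obtain ⟨h3, h4⟩ := kph2a_res_Pr h _ hdl h1
  refine ⟨h3, ?_⟩
  rw [← h2]
  exact h4

/-- D2 in the form used in `kph_pole`: projection of an integral element onto `C(ω_5)`. -/
theorem kph_res_Pr (h : s.Pkg4 w d t T w1 w2 a ρ) (u : QA K⸨X⸩)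
    (hl : u ∈ lev K⸨X⸩ (s.k + 1)) (hu : (Place.laurent K).Int u) :
    (Place.laurent K).Int (Pr (s.k + 1) {(s.grow T).omg w.up} u) ∧
    (Place.laurent K).rq (Pr (s.k + 1) {(s.grow T).omg w.up} u) =
      Pr (s.k + 1) ({s.omg w, Ab s.k ρ} : Set (QA K)) ((Place.laurent K).rq u) :=
  kph2a_res_Pr h u hl hu

end Crest.Agent.KP.Pt
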