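import Crest.Agent.KPH_1b
import Crest.Agent.KPH_2a
import Crest.Agent.KPH_2b
import Crest.Agent.KPC_Alg

/-!
# S0270, part (H): rank of the residues of `L(s_5)` (helper52)
-/

set_option autoImplicit false
set_option linter.unusedSectionVars false

open scoped PowerSeries LaurentSeries symmDiff

namespace Crest.Agent.KP.Pt

variable {K I J : Type} [Field K] [KF K] [Fintype I] [Fintype J]
variable {s : Pt K I J} {w : NC K I} {d t : ℕ} {T : I → QA K⟦X⟧} {w1 w2 : I → QA K} {a ρ : QA K}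

private theorem kph2c_comm {A : Type} [Ring A] [Algebra K A] (ω x y : A)
    (hx : x ∈ Algebra.adjoin K {ω}) (hy : y ∈ Algebra.adjoin K {ω}) : x * y = y * x := by
  rw [Algebra.adjoin_singleton_eq_range_aeval] at hx hy
  obtain ⟨p, rfl⟩ := hx
  obtain ⟨q, rfl⟩ := hy
  show Polynomial.aeval ω p * Polynomial.aeval ω q = Polynomial.aeval ω q * Polynomial.aeval ω p
  rw [← map_mul, ← map_mul, mul_comm]

/-- `dim L(s_5) = nL(s) + n2(s)` independent residues: there is a family `v_i ∈ ker Θ` with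
`E_{ω,Ā}(dw[v_i])` linearly independent. By `kph_realize`, `kph_Pr_tower`, `kph_PrAb` the values
times `Ā` are `u_0 Ā + (al u_1 + be ρ u_2)` with arbitrary `u_b ∈ L(s) = a R`; as
`R + ρ R = K2(s)` (`h.rho2`), these are all elements of `L(s) Ā + a K2(s)`, dimension
`nL + n2` (`lev k ∩ (lev k) Ā = 0`). -/
theorem kph_rank (h : s.Pkg4 w d t T w1 w2 a ρ) :
    ∃ v0 : Fin (s.nL w + s.n2 w) → (I → QA K), (∀ i, s.KerTh w1 w2 (v0 i)) ∧
      LinearIndependent K (fun i => Pr (s.k + 1) ({s.omg w, Ab s.k ρ} : Set (QA K))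
        (w.d1 s.X (v0 i))) := by
  have hX := h.good.Xlev
  have hω : s.omg w ∈ lev K s.k := NC.kph_ev_mem _ w s.X hX
  have hK1 : s.K1 w ≤ lev K s.k := Algebra.adjoin_le (by simpa using hω)
  obtain ⟨hK21, haL, h1R, hL, hL'⟩ := kph_L_eq h
  have hLlev : s.LL w ≤ Subalgebra.toSubmodule (lev K s.k) := fun x hx => hK1 (h.comm hx)
  have haK1 : a ∈ s.K1 w := h.comm haL
  have hρK1 : ρ ∈ s.K1 w := hK21 h.rho.1
  have hcomm : ρ * a = a * ρ := kph2c_comm (s.omg w) ρ a hρK1 haK1
  have hal : (al s.k : K) ≠ 0 := KF.al_ne s.k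
  have hbe : (be s.k : K) ≠ 0 := KF.be_ne s.k
  have key : ∀ u0 ∈ s.LL w, ∀ u1 ∈ s.LL w, ∀ u2 ∈ s.LL w, ∃ v, s.KerTh w1 w2 v ∧
      Pr (s.k + 1) ({s.omg w, Ab s.k ρ} : Set (QA K)) (w.d1 s.X v) * Ab s.k ρ =
        u0 * Ab s.k ρ + ((al s.k : K) • u1 + (be s.k : K) • (ρ * u2)) := by
    intro u0 h0 u1 h1 u2 h2
    obtain ⟨v, hv, hv'⟩ := kph_realize h u0 u1 u2 0 h0 h1 h2 (zero_mem _)
    have hvl : ∀ i, v i ∈ lev K (s.k + 1) := by
      obtain ⟨v', hv1, hv2⟩ := (KC.mem_mulE s.k s.W v).1 hv.1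
      intro i
      rw [hv2]
      exact KC.comb_mem_lev s.k v' (fun b i => h.good.V1lev _ (h.good.V0V1 (hv1 b).1) i) i
    refine ⟨v, hv, ?_⟩
    rw [kph_Pr_tower h _ (NC.kph_d1_mem _ w s.X v
      (fun i => KC.lev_mono (Nat.le_succ s.k) (hX i)) hvl), hv',
      kph_PrAb h u0 u1 u2 0 (h.comm h0) (h.comm h1) (h.comm h2) (zero_mem _)]
  have key2 : ∀ c ∈ s.K2 w, ∃ v, s.KerTh w1 w2 v ∧
      Pr (s.k + 1) ({s.omg w, Ab s.k ρ} : Set (QA K)) (w.d1 s.X v) * Ab s.k ρ = a * c := by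
    intro c hc
    obtain ⟨r1, hr1, r2, hr2, rfl⟩ := h.rho2 c hc
    obtain ⟨v, hv, hv'⟩ := key 0 (zero_mem _) ((al s.k : K)⁻¹ • (a * r1))
      ((s.LL w).smul_mem _ (hL' r1 hr1)) ((be s.k : K)⁻¹ • (a * r2))
      ((s.LL w).smul_mem _ (hL' r2 hr2))
    refine ⟨v, hv, ?_⟩
    rw [hv', zero_mul, zero_add, smul_smul, mul_inv_cancel₀ hal, one_smul, mul_smul_comm,
      smul_smul, mul_inv_cancel₀ hbe, one_smul, mul_add, ← mul_assoc, hcomm, mul_assoc]
  have key1 : ∀ u ∈ s.LL w, ∃ v, s.KerTh w1 w2 v ∧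
      Pr (s.k + 1) ({s.omg w, Ab s.k ρ} : Set (QA K)) (w.d1 s.X v) * Ab s.k ρ =
        u * Ab s.k ρ := by
    intro u hu
    obtain ⟨v, hv, hv'⟩ := key u hu 0 (zero_mem _) 0 (zero_mem _)
    refine ⟨v, hv, ?_⟩
    rw [hv', smul_zero, mul_zero, smul_zero, add_zero, add_zero]
  have fL : FiniteDimensional K (s.LL w) := Submodule.finiteDimensional_of_le hLlev
  have hK2lev : Subalgebra.toSubmodule (s.K2 w) ≤ Subalgebra.toSubmodule (lev K s.k) :=
    fun x hx => hK1 (hK21 hx)
  have f2 : FiniteDimensional K (Subalgebra.toSubmodule (s.K2 w)) :=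
    Submodule.finiteDimensional_of_le hK2lev
  let bL : Module.Basis (Fin (s.nL w)) K (s.LL w) := Module.finBasis K (s.LL w)
  let b2 : Module.Basis (Fin (s.n2 w)) K (Subalgebra.toSubmodule (s.K2 w)) :=
    Module.finBasis K (Subalgebra.toSubmodule (s.K2 w))
  choose vL hvL hvL' using fun i => key1 (bL i : QA K) (bL i).2
  choose v2 hv2 hv2' using fun i => key2 (b2 i : QA K) (b2 i).2
  refine ⟨fun i => Sum.elim vL v2 (finSumFinEquiv.symm i), fun i => ?_, ?_⟩
  · show s.KerTh w1 w2 (Sum.elim vL v2 (finSumFinEquiv.symm i))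
    rcases finSumFinEquiv.symm i with j | j
    · exact hvL j
    · exact hv2 j
  · refine LinearIndependent.of_comp (LinearMap.mulRight K (Ab s.k ρ)) ?_
    have e : (LinearMap.mulRight K (Ab s.k ρ)) ∘ (fun i => Pr (s.k + 1)
        ({s.omg w, Ab s.k ρ} : Set (QA K)) (w.d1 s.X (Sum.elim vL v2 (finSumFinEquiv.symm i)))) =
        (Sum.elim (fun i => (bL i : QA K) * Ab s.k ρ) (fun j => a * (b2 j : QA K))) ∘
          finSumFinEquiv.symm := by
      funext i
      simp only [Function.comp]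
      rcases finSumFinEquiv.symm i with j | j
      · exact hvL' j
      · exact hv2' j
    rw [e]
    refine LinearIndependent.comp ?_ _ finSumFinEquiv.symm.injective
    rw [Fintype.linearIndependent_iff]
    intro g hg
    rw [Fintype.sum_sum_type] at hg
    simp only [Sum.elim_inl, Sum.elim_inr] at hg
    set B : QA K := ∑ i, g (Sum.inl i) • (bL i : QA K) with hB
    set C : QA K := ∑ j, g (Sum.inr j) • (b2 j : QA K) with hC
    have hBl : B ∈ lev K s.k := hLlev (Submodule.sum_mem _ fun i _ =>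
      Submodule.smul_mem _ _ (bL i).2)
    have hCl : C ∈ lev K s.k := hK2lev (Submodule.sum_mem _ fun i _ =>
      Submodule.smul_mem _ _ (b2 i).2)
    have hg' : B * Ab s.k ρ + a * C = 0 := by
      rw [← hg, hB, hC, Finset.sum_mul, Finset.mul_sum]
      congr 1
      · exact Finset.sum_congr rfl fun i _ => smul_mul_assoc _ _ _
      · exact Finset.sum_congr rfl fun i _ => mul_smul_comm _ _ _
    have h4 := KC.decomp_unique s.k ![a * C, B, B * ρ, 0] (by
      intro b
      fin_cases b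
      · exact (lev K s.k).mul_mem (hK1 haK1) hCl
      · exact hBl
      · exact (lev K s.k).mul_mem hBl (hK1 hρK1)
      · exact (lev K s.k).zero_mem) (by
      show a * C + B * S1 s.k + B * ρ * S2 s.k + 0 * S3 s.k = 0
      unfold Ab at hg'
      rw [mul_add, ← mul_assoc] at hg'
      rw [zero_mul, add_zero, ← hg']
      abel)
    have hB0 : B = 0 := h4 1
    have hC0 : C = 0 := by
      have h5 : a * C = 0 := h4 0
      exact (mul_eq_zero.1 h5).resolve_left h.a0
    have hgL : ∀ i, g (Sum.inl i) = 0 := by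
      have h5 := Fintype.linearIndependent_iff.1 bL.linearIndependent (fun i => g (Sum.inl i)) (by
        apply Subtype.ext
        rw [Submodule.coe_sum]
        exact hB0)
      exact h5
    have hg2 : ∀ i, g (Sum.inr i) = 0 := by
      have h5 := Fintype.linearIndependent_iff.1 b2.linearIndependent (fun i => g (Sum.inr i)) (by
        apply Subtype.ext
        rw [Submodule.coe_sum]
        exact hC0)
      exact h5
    rintro (i | i)
    · exact hgL i
    · exact hg2 i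

end Crest.Agent.KP.Pt
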