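import Crest.Agent.KPH_2c
import Crest.Agent.KPH_1b
import Crest.Agent.KPC_Alg
import Crest.Agent.KPB_alg

/-!
# S0270, part (H): residues of `K2(s_5)` (helper52)
-/

set_option autoImplicit false
set_option linter.unusedSectionVars false

open scoped PowerSeries LaurentSeries symmDiff

namespace Crest.Agent.KP.Pt

variable {K I J : Type} [Field K] [KF K] [Fintype I] [Fintype J]
variable {s : Pt K I J} {w : NC K I} {d t : ℕ} {T : I → QA K⟦X⟧} {w1 w2 : I → QA K} {a ρ : QA K}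

/-- ratios of integral elements: if `u b` is integral, `b` integral with nonzero residue, then `u` is
integral. -/
theorem kph2d_int_of_mul {L : Type} [Field L] [KF L] (P : Place K L) {u b : QA L}
    (hb : P.Int b) (hb0 : P.rq b ≠ 0) (hub : P.Int (u * b)) : P.Int u := by
  by_contra hu
  have hu0 : u ≠ 0 := by
    rintro rfl
    exact hu P.int_zero
  obtain ⟨c, -, h1, h2, h3⟩ := P.exists_scale_q u hu0
  obtain ⟨h4, h5⟩ := h3 hu
  have e : (c • u) * b = c • (u * b) := smul_mul_assoc _ _ _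
  have e1 := congrArg P.rq e
  rw [P.rq_mul h1 hb, P.rq_smul h4 hub, h5, zero_smul] at e1
  exact (mul_ne_zero h2 hb0) e1

/-- ratios of elements of `L(s5)` -/
theorem kph2d_ratio {L : Type} [Field L] [KF L] (P : Place K L) (s5 : Pt L I J) (w5 : NC L I)
    (hl : s5.LL w5 ≤ Subalgebra.toSubmodule (lev L s5.k)) {β β' γ : QA K}
    (hβ : β ∈ P.resS (s5.LL w5)) (hβ' : β' ∈ P.resS (s5.LL w5)) (hβ0 : β ≠ 0)
    (hγ : γ * β = β') : γ ∈ P.resS (Subalgebra.toSubmodule (s5.K2 w5)) := by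
  obtain ⟨b, hb, hbi, rfl⟩ := hβ
  obtain ⟨b', hb', hbi', rfl⟩ := hβ'
  have hb0 : b ≠ 0 := by
    rintro rfl
    exact hβ0 P.rq_zero
  obtain ⟨c, hc, h1, h2⟩ := kpa_inv_lev (hl hb) hb0
  have e : b' * c * b = b' := by rw [mul_assoc, h2, mul_one]
  have hi : P.Int (b' * c) := kph2d_int_of_mul P hbi hβ0 (by rw [e]; exact hbi')
  refine ⟨b' * c, Algebra.subset_adjoin ⟨mul_mem (hl hb') hc, b, hb, hb0, by rw [e]; exact hb'⟩,
    hi, ?_⟩
  have e2 : P.rq (b' * c) * P.rq b = γ * P.rq b := by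
    rw [← P.rq_mul hi hbi, e, hγ]
  exact mul_right_cancel₀ hβ0 e2

/-- `L(s) ≤ lev k` -/
theorem kph2d_LL_lev {s5 : Pt K I J} (hg : s5.Good) (w5 : NC K I) :
    s5.LL w5 ≤ Subalgebra.toSubmodule (lev K s5.k) := by
  rintro _ ⟨v, hv, rfl⟩
  have h1 : w5.d1 s5.X v ∈ lev K s5.k :=
    NC.kph_d1_mem (lev K s5.k) w5 s5.X v hg.Xlev (hg.V1lev v (hg.V0V1 hv.1))
  exact (Pr_spec s5.k ({s5.omg w5} : Set (QA K)) _ h1).1

/-- `E_{ω,Ā}(dw[v])` for `v ∈ ker Θ` is a residue of an element of `L(s_5)` -/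
theorem kph2d_mem (h : s.Pkg4 w d t T w1 w2 a ρ) (v : I → QA K) (hv : s.KerTh w1 w2 v) :
    Pr (s.k + 1) ({s.omg w, Ab s.k ρ} : Set (QA K)) (w.d1 s.X v) ∈
      (Place.laurent K).resS ((s.grow T).LL w.up) ∧ w.d1 s.X v ∈ lev K (s.k + 1) := by
  obtain ⟨ha, ho, hg⟩ := kph_s5 h
  obtain ⟨v', h1, h2, h3⟩ := (C_lift_grow s h.good ha T w1 w2 h.gr ho v).1 hv
  have hl : ∀ i, v' i ∈ lev K⸨X⸩ (s.k + 1) := hg.V1lev v' (hg.V0V1 h1.1)
  obtain ⟨h4, h5⟩ := kph_res_ell h v' hl h2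
  refine ⟨⟨_, ⟨v', h1, rfl⟩, h4, ?_⟩, ?_⟩
  · rw [h5]
    congr 2
    exact funext h3
  · refine NC.kph_d1_mem (lev K (s.k + 1)) w s.X v
      (fun i => kpa_lev_mono (Nat.le_succ _) (h.good.Xlev i)) fun i => ?_
    rw [← h3 i]
    exact (Place.laurent K).rq_lev (hl i)

/-- `K2(s) + K2(s) Ā` has dimension `2 n2(s)` -/
theorem kph2d_finrank {k : ℕ} (B : Subalgebra K (QA K)) (hB : B ≤ lev K k) {ρ : QA K}
    (hρ : ρ ∈ lev K k) (hAb0 : Ab k ρ ≠ 0) :
    Module.finrank K (Subalgebra.toSubmodule B ⊔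
        (Subalgebra.toSubmodule B).map (LinearMap.mulRight K (Ab k ρ)) : Submodule K (QA K)) =
      2 * Module.finrank K B := by
  have hfd : FiniteDimensional K (Subalgebra.toSubmodule B) := kpa_fd_of_le' hB
  have hinj : Function.Injective (LinearMap.mulRight K (Ab k ρ)) := by
    intro x y hxy
    exact mul_right_cancel₀ hAb0 hxy
  have hd : Subalgebra.toSubmodule B ⊓
      (Subalgebra.toSubmodule B).map (LinearMap.mulRight K (Ab k ρ)) = ⊥ := by
    rw [Submodule.eq_bot_iff]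
    rintro x ⟨hx, v, hv, hvx⟩
    have hvx' : v * Ab k ρ = x := hvx
    have hvl := hB hv
    have hxl := hB hx
    have e := KC.decomp_unique k ![-x, v, v * ρ, 0] (by
      intro b
      fin_cases b
      · exact neg_mem hxl
      · exact hvl
      · exact mul_mem hvl hρ
      · exact zero_mem _) (by
      simp only [Matrix.cons_val]
      rw [← hvx', Ab, mul_add, zero_mul, add_zero, ← mul_assoc]
      abel)
    have e0 := e 0
    simpa using e0
  have h1 := Submodule.finrank_sup_add_finrank_inf_eq (Subalgebra.toSubmodule B)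
    ((Subalgebra.toSubmodule B).map (LinearMap.mulRight K (Ab k ρ)))
  rw [hd, finrank_bot, add_zero, ← (Submodule.equivMapOfInjective _ hinj
    (Subalgebra.toSubmodule B)).finrank_eq] at h1
  rw [h1, two_mul]
  rfl

/-- `res K2(s_5) = K2(s)[Ā]`. `⊇`: for `v_0 ∈ ker Θ` the element `E_{ω,Ā}(dw[v_0])` is the residue of
an element of `L(s_5)` (`C_lift_grow`, `kph_res_ell`); in particular `a` (from `u_0 = a`), `a r`
(`r ∈ R`) and `a κ Ā⁻¹` (`κ ∈ K2(s)`). If `b, b' ∈ L(s_5)` are integral with residues `β, β' ≠ 0`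
(`β` resp.), then the ratio `b' b⁻¹ ∈ K2(s_5)` is integral with residue `β' β⁻¹` (`QA K` is a domain).
So the residue space, which is a subalgebra, contains `R` and `Ā⁻¹`, hence `K2(s)[Ā]` (`K2(s)` is
generated by ratios of elements of `L(s) = aR`, i.e. by `R`); dimension `2 n2(s)` (`h.n2`). -/
theorem kph_resK2 (h : s.Pkg4 w d t T w1 w2 a ρ) :
    (Place.laurent K).resS (Subalgebra.toSubmodule ((s.grow T).K2 w.up)) =
      Subalgebra.toSubmodule (s.K2 w) ⊔
        (Subalgebra.toSubmodule (s.K2 w)).map (LinearMap.mulRight K (Ab s.k ρ)) := by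
  obtain ⟨hal, ho, hg5⟩ := kph_s5 h
  obtain ⟨hK21, haL, h1R, hLR, hRL⟩ := kph_L_eq h
  have hK1l := kph2b_K1_lev s h.good w
  have hK2l : s.K2 w ≤ lev K s.k := hK21.trans hK1l
  have hρ1 := kph2b_rho_mem h
  have hρl : ρ ∈ lev K s.k := hK1l hρ1
  have haK : a ∈ s.K1 w := h.comm haL
  have hS : ∀ x ∈ s.K1 w, x * Ab s.k ρ = Ab s.k ρ * x := fun x hx =>
    kph2b_Ab_comm (hK1l hx) (kph2b_K1_comm s w hx hρ1)
  have hAb0 : Ab s.k ρ ≠ 0 := by
    intro e
    have e1 := kph2b_S1_Ab hρl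
    rw [e, mul_zero, zero_mul, add_zero] at e1
    have e2 := congrArg QA.tr e1
    rw [map_zero, map_smul, kpa_tr_one, smul_eq_mul, mul_one] at e2
    exact (mul_ne_zero two_ne_zero (KF.al_ne s.k)) e2.symm
  obtain ⟨Ai, hAi, hAAi, hAiA⟩ := kpa_inv_lev (kph2b_Ab_lev hρl) hAb0
  have hL5l : (s.grow T).LL w.up ≤ Subalgebra.toSubmodule (lev K⸨X⸩ (s.k + 1)) :=
    kph2d_LL_lev hg5 w.up
  set Res := (Place.laurent K).resA ((s.grow T).K2 w.up) with hRes
  have hRes' : (Place.laurent K).resS (Subalgebra.toSubmodule ((s.grow T).K2 w.up)) =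
      Subalgebra.toSubmodule Res := ((Place.laurent K).toSubmodule_resA _).symm
  have hratio : ∀ β β' γ : QA K, β ∈ (Place.laurent K).resS ((s.grow T).LL w.up) →
      β' ∈ (Place.laurent K).resS ((s.grow T).LL w.up) → β ≠ 0 → γ * β = β' → γ ∈ Res := by
    intro β β' γ hβ hβ' hβ0 hγ
    exact kph2d_ratio (Place.laurent K) (s.grow T) w.up hL5l hβ hβ' hβ0 hγ
  -- `a` is a residue
  have hzero : (0 : QA K) ∈ s.LL w := zero_mem _
  have hamem : a ∈ (Place.laurent K).resS ((s.grow T).LL w.up) := by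
    obtain ⟨v, hv, hv2⟩ := kph_realize h a 0 0 0 haL hzero hzero hzero
    obtain ⟨h1, hlev⟩ := kph2d_mem h v hv
    rw [kph_Pr_tower h _ hlev, hv2] at h1
    have h2 := kph_PrAb h a 0 0 0 haK (zero_mem _) (zero_mem _) (zero_mem _)
    rw [smul_zero, mul_zero, smul_zero, add_zero, add_zero] at h2
    rw [mul_right_cancel₀ hAb0 h2] at h1
    exact h1
  have hκmem : ∀ κ ∈ s.K2 w, a * κ * Ai ∈ (Place.laurent K).resS ((s.grow T).LL w.up) := by
    intro κ hκ
    obtain ⟨r1, hr1, r2, hr2, rfl⟩ := h.rho2 κ hκ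
    have e1 : (al s.k : K)⁻¹ • (a * r1) ∈ s.LL w := Submodule.smul_mem _ _ (hRL r1 hr1)
    have e2 : (be s.k : K)⁻¹ • (a * r2) ∈ s.LL w := Submodule.smul_mem _ _ (hRL r2 hr2)
    obtain ⟨v, hv, hv2⟩ := kph_realize h 0 _ _ 0 hzero e1 e2 hzero
    obtain ⟨h1, hlev⟩ := kph2d_mem h v hv
    rw [kph_Pr_tower h _ hlev, hv2] at h1
    have h2 := kph_PrAb h 0 _ _ 0 (zero_mem _) (h.comm e1) (h.comm e2) (zero_mem _)
    rw [zero_mul, zero_add, mul_smul_comm, smul_smul, smul_smul, mul_inv_cancel₀ (KF.al_ne s.k),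
      mul_inv_cancel₀ (KF.be_ne s.k), one_smul, one_smul, ← mul_assoc ρ, 
      kph2b_K1_comm s w hρ1 haK, mul_assoc a, ← mul_add] at h2
    have e3 : a * (r1 + ρ * r2) = 0 * Ab s.k ρ + a * (r1 + ρ * r2) := by rw [zero_mul, zero_add]
    rw [e3, ← h2, mul_assoc, hAAi, mul_one]
    rw [zero_mul, zero_add] at h1
    exact h1
  have ha0 := h.a0
  -- `κ Ai ∈ Res`
  have hAiκ : ∀ κ ∈ s.K2 w, κ * Ai ∈ Res := by
    intro κ hκ
    refine hratio a _ _ hamem (hκmem κ hκ) ha0 ?_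
    have hAa : Ai * a = a * Ai := by
      have := hS a haK
      calc Ai * a = Ai * (a * Ab s.k ρ) * Ai := by rw [mul_assoc, mul_assoc, hAAi, mul_one]
        _ = a * Ai := by rw [this, ← mul_assoc, hAiA, one_mul]
    rw [mul_assoc, hAa, ← mul_assoc, kph2b_K1_comm s w (hK21 hκ) haK]
  have hAAmem : Ab s.k ρ ∈ Res := by
    refine hratio _ _ _ (hκmem 1 (one_mem _)) hamem ?_ ?_
    · rw [mul_one]
      refine mul_ne_zero ha0 ?_
      rintro rfl
      rw [mul_zero] at hAAi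
      exact zero_ne_one hAAi
    · rw [mul_one, ← mul_assoc, ← hS a haK, mul_assoc, hAAi, mul_one]
  have hκ' : ∀ κ ∈ s.K2 w, κ ∈ Res := by
    intro κ hκ
    have := mul_mem (hAiκ κ hκ) hAAmem
    rwa [mul_assoc, hAiA, mul_one] at this
  have hfd5 : FiniteDimensional K⸨X⸩ ((s.grow T).K2 w.up) := by
    have hle5 : (s.grow T).K2 w.up ≤ lev K⸨X⸩ (s.k + 1) := Algebra.adjoin_le fun u hu => hu.1
    exact kpa_fd_of_le' hle5
  have hle : Subalgebra.toSubmodule (s.K2 w) ⊔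
        (Subalgebra.toSubmodule (s.K2 w)).map (LinearMap.mulRight K (Ab s.k ρ)) ≤
        Subalgebra.toSubmodule Res := by
    refine sup_le (fun κ hκ => hκ' κ hκ) ?_
    rintro _ ⟨κ, hκ, rfl⟩
    exact Res.mul_mem (hκ' κ hκ) hAAmem
  rw [hRes']
  have hfdR : FiniteDimensional K (Subalgebra.toSubmodule Res) := by
    rw [← hRes']
    have : FiniteDimensional K⸨X⸩ (Subalgebra.toSubmodule ((s.grow T).K2 w.up)) := hfd5
    infer_instance
  refine (Submodule.eq_of_le_of_finrank_le hle ?_).symm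
  rw [kph2d_finrank (s.K2 w) hK2l hρl hAb0]
  have e1 : Module.finrank K (Subalgebra.toSubmodule Res) =
      Module.finrank K⸨X⸩ ((s.grow T).K2 w.up) := (Place.laurent K).finrank_resA _
  rw [e1]
  exact h.n2.le

end Crest.Agent.KP.Pt
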