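import Crest.Agent.KPH_1
import Crest.Agent.KPA_Pr

/-!
# S0270, part (H): membership in `W⁺` (helper52)
-/

set_option autoImplicit false
set_option linter.unusedSectionVars false

open scoped PowerSeries LaurentSeries symmDiff

namespace Crest.Agent.KP.Pt

variable {K I J : Type} [Field K] [KF K] [Fintype I] [Fintype J]
variable {s : Pt K I J} {w : NC K I} {d t : ℕ} {T : I → QA K⟦X⟧} {w1 w2 : I → QA K} {a ρ : QA K}

private theorem h3b_none {F : Type} [Field F] [KF F] (s5 : Pt F I J) (w5 : NC F I)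
    (a5 : QA F) (m0 : Submodule F (QA F)) (u : I ⊕ Bool → QA F) :
    (s5.ext w5 a5 m0).D u none = w5.d1 s5.X (fun i => u (Sum.inl i)) +
      s5.omg w5 * u (Sum.inr false) -
        (u (Sum.inr false) * s5.omg w5 + u (Sum.inr true)) := by
  have h1 : (s5.ext w5 a5 m0).D u none =
      ((w5.ren Sum.inl).d1 (s5.ext w5 a5 m0).X u * (s5.ext w5 a5 m0).X (Sum.inr false) +
        (w5.ren Sum.inl).ev (s5.ext w5 a5 m0).X * u (Sum.inr false)) +
      (0 * ((s5.ext w5 a5 m0).X (Sum.inr false) * (s5.ext w5 a5 m0).X (Sum.inr true)) +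
        algebraMap F (QA F) (-1) * (u (Sum.inr false) * (s5.ext w5 a5 m0).X (Sum.inr true) +
          (s5.ext w5 a5 m0).X (Sum.inr false) * u (Sum.inr true))) := rfl
  have h2 : (s5.ext w5 a5 m0).X (Sum.inr false) = 1 := rfl
  have h3 : (s5.ext w5 a5 m0).X (Sum.inr true) = s5.omg w5 := rfl
  have h4 : (w5.ren Sum.inl).d1 (s5.ext w5 a5 m0).X u =
      w5.d1 s5.X (fun i => u (Sum.inl i)) := by
    rw [NC.kph_d1_ren]
    rfl
  have h5 : (w5.ren Sum.inl).ev (s5.ext w5 a5 m0).X = s5.omg w5 := by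
    rw [NC.kph_ev_ren]
    rfl
  rw [h1, h2, h3, h4, h5, map_neg, map_one]
  simp only [mul_one, zero_mul, zero_add, neg_mul, one_mul]
  abel

private theorem h3b_some {F : Type} [Field F] [KF F] (s5 : Pt F I J) (w5 : NC F I)
    (a5 : QA F) (m0 : Submodule F (QA F)) (u : I ⊕ Bool → QA F) (j : J) :
    (s5.ext w5 a5 m0).D u (some j) = s5.D (fun i => u (Sum.inl i)) j := by
  show ((s5.F j).ren Sum.inl).d1 (s5.ext w5 a5 m0).X u = _
  rw [NC.kph_d1_ren]
  rfl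

/-- `v ∈ W(s_5)` with `ell v = 0` extends to an element of `W⁺` with `f`-component `0`:
`dw[v]` is orthogonal to `C(ω_5)`, so `dw[v] = -[ω_5, γ]` with `γ ∈ Cperp` (0.4) (part A:
`[ω, lev k] = C^⊥ = [ω, C^⊥]`); `u = Sum.elim v (false ↦ γ, true ↦ 0)`. The equations of `ext`:
`some j`: `NC.kph_d1_ren`; `none`: `dw[v] * 1 + ω_5 γ - (γ ω_5 + 1 * 0) = 0`. -/
theorem kph_ext_mem {F : Type} [Field F] [KF F] (s5 : Pt F I J) (w5 : NC F I)
    (hg : s5.Good) (a5 : QA F) (m0 : Submodule F (QA F)) (v : I → QA F)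
    (hv : v ∈ s5.W) (hl : s5.ell w5 v = 0) :
    ∃ u ∈ (s5.ext w5 a5 m0).W, (∀ i, u (Sum.inl i) = v i) ∧ u (Sum.inr true) = 0 := by
  have hω : s5.omg w5 ∈ lev F s5.k := NC.kph_ev_mem _ w5 s5.X hg.Xlev
  have hvl : ∀ i, v i ∈ lev F s5.k := fun i => hg.V1lev v (hg.V0V1 hv.1) i
  have hd : w5.d1 s5.X v ∈ lev F s5.k := NC.kph_d1_mem _ w5 s5.X v hg.Xlev hvl
  have hpr : Pr s5.k {s5.omg w5} (w5.d1 s5.X v) = 0 := hl
  obtain ⟨η, hη, hη0, hη1⟩ := kpa_ad_surj hω hd hpr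
  refine ⟨Sum.elim v (fun b => if b then 0 else -η), ⟨⟨⟨?_, ?_⟩, ?_⟩, ?_⟩, fun i => rfl, rfl⟩
  · exact hv.1
  · show (-η : QA F) ∈ Cperp s5.k (s5.omg w5)
    exact ⟨(lev F s5.k).neg_mem hη, by
      show Pr s5.k {s5.omg w5} (-η) = 0
      rw [map_neg, hη0, neg_zero]⟩
  · show (0 : QA F) ∈ Fpart s5.k (s5.omg w5) (qinv a5) (s5.K2 w5) ⊥
    exact Submodule.zero_mem _
  · show (s5.ext w5 a5 m0).D _ = 0
    funext j
    cases j with
    | none =>
      rw [h3b_none]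
      show w5.d1 s5.X v + s5.omg w5 * (-η) - ((-η) * s5.omg w5 + 0) = 0
      rw [hη1]
      simp only [mul_neg, neg_mul, add_zero]
      abel
    | some j =>
      rw [h3b_some]
      exact congrFun (hv.2 : s5.D v = 0) j

/-- membership in `W⁺`, consequences for the components. -/
theorem kph_ext_W {F : Type} [Field F] [KF F] (s5 : Pt F I J) (w5 : NC F I)
    (hg : s5.Good) (a5 : QA F) (m0 : Submodule F (QA F)) (u : I ⊕ Bool → QA F)
    (hu : u ∈ (s5.ext w5 a5 m0).W) (h0 : u (Sum.inr true) = 0) :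
    (fun i => u (Sum.inl i)) ∈ s5.W ∧ u (Sum.inr false) ∈ lev F s5.k ∧
      Pr s5.k {s5.omg w5} (u (Sum.inr false)) = 0 ∧
      w5.d1 s5.X (fun i => u (Sum.inl i)) + s5.omg w5 * u (Sum.inr false) -
        u (Sum.inr false) * s5.omg w5 = 0 := by
  obtain ⟨⟨⟨h1, h2⟩, -⟩, h4⟩ := hu
  have h4' : (s5.ext w5 a5 m0).D u = 0 := h4
  have h2' : u (Sum.inr false) ∈ Cperp s5.k (s5.omg w5) := h2
  refine ⟨⟨h1, ?_⟩, h2'.1, h2'.2, ?_⟩
  · show s5.D (fun i => u (Sum.inl i)) = 0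
    funext j
    rw [← h3b_some s5 w5 a5 m0 u j]
    exact congrFun h4' (some j)
  · have h5 := congrFun h4' none
    rw [h3b_none, h0, add_zero] at h5
    exact h5

end Crest.Agent.KP.Pt
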