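import Crest.Agent.KPH_3a
import Crest.Agent.KPH_3b

/-!
# S0270, part (H): lifting to `W⁺(s_5)` (assembly) (helper52)
-/

set_option autoImplicit false
set_option linter.unusedSectionVars false

open scoped PowerSeries LaurentSeries symmDiff

namespace Crest.Agent.KP.Pt

variable {K I J : Type} [Field K] [KF K] [Fintype I] [Fintype J]
variable {s : Pt K I J} {w : NC K I} {d t : ℕ} {T : I → QA K⟦X⟧} {w1 w2 : I → QA K} {a ρ : QA K}


/-- (assembly) -/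
theorem kph_lift (h : s.Pkg4 w d t T w1 w2 a ρ) (a5 : QA K⸨X⸩)
    (m0 : Submodule K⸨X⸩ (QA K⸨X⸩)) (v0 : I → QA K) (hv0 : s.KerTh w1 w2 v0)
    (hE : Pr (s.k + 1) ({s.omg w, Ab s.k ρ} : Set (QA K)) (w.d1 s.X v0) = 0) :
    ∃ u ∈ ((s.grow T).ext w.up a5 m0).W, u (Sum.inr true) = 0 ∧
      (∀ i, (Place.laurent K).Int (u (Sum.inl i))) ∧
      (∀ i, (Place.laurent K).rq (u (Sum.inl i)) = v0 i) := by
  obtain ⟨v, hv, h1, h2, h3⟩ := kph_lift0 h v0 hv0 hE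
  obtain ⟨u, hu, h4, h5⟩ := kph_ext_mem (s.grow T) w.up (kph_s5 h).2.2 a5 m0 v hv h3
  exact ⟨u, hu, h5, fun i => by rw [h4]; exact h1 i, fun i => by rw [h4]; exact h2 i⟩

end Crest.Agent.KP.Pt
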