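import Crest.Agent.KPH_2c
import Crest.Agent.KPH_NC

/-!
# S0270, part (H): lifting, part 1 (helper52)
-/

set_option autoImplicit false
set_option linter.unusedSectionVars false

open scoped PowerSeries LaurentSeries symmDiff

namespace Crest.Agent.KP.Pt

variable {K I J : Type} [Field K] [KF K] [Fintype I] [Fintype J]
variable {s : Pt K I J} {w : NC K I} {d t : ℕ} {T : I → QA K⟦X⟧} {w1 w2 : I → QA K} {a ρ : QA K}


/-- Let `v0 ∈ ker Θ` with `E_{ω,Ā}(dw[v0]) = 0`. Then `v0` is the residue of an integral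
`v ∈ W(s_5)` with `ell v = 0`.
Proof: lift `v0` to an integral `v' ∈ W(s_5)` (`C_lift_grow`). Lift also the family of `kph_rank` to
integral `v_i ∈ W(s_5)`; the elements `ell v_i ∈ L(s_5)` are integral with linearly independent
residues (`kph_res_ell`), their number is `nL(s_5)` (`h.nL`), so by `Place.lift_basis_S`
`ell v' = Σ c_i ell v_i` with `c_i ∈ O`; the residue of `ell v'` is `0`, so all `r(c_i) = 0`.
Take `v = v' - Σ c_i v_i`. -/
theorem kph_lift0 (h : s.Pkg4 w d t T w1 w2 a ρ) (v0 : I → QA K) (hv0 : s.KerTh w1 w2 v0)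
    (hE : Pr (s.k + 1) ({s.omg w, Ab s.k ρ} : Set (QA K)) (w.d1 s.X v0) = 0) :
    ∃ v ∈ (s.grow T).W, (∀ i, (Place.laurent K).Int (v i)) ∧
      (∀ i, (Place.laurent K).rq (v i) = v0 i) ∧ (s.grow T).ell w.up v = 0 := by
  classical
  obtain ⟨ha, ho, hg5⟩ := kph_s5 h
  have lift := C_lift_grow s h.good ha T w1 w2 h.gr ho
  have hWlev : ∀ v ∈ (s.grow T).W, ∀ i, v i ∈ lev K⸨X⸩ (s.k + 1) := fun v hv i =>
    hg5.V1lev v (hg5.V0V1 hv.1) i
  have hLLlev : (s.grow T).LL w.up ≤ Subalgebra.toSubmodule (lev K⸨X⸩ (s.k + 1)) := by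
    rintro _ ⟨v, hv, rfl⟩
    exact (Pr_spec (s.grow T).k {(s.grow T).omg w.up} _
      (NC.kph_d1_mem (lev K⸨X⸩ (s.k + 1)) w.up (s.grow T).X v hg5.Xlev (hWlev v hv))).1
  have hfd : FiniteDimensional K⸨X⸩ ((s.grow T).LL w.up) := kpa_fd_of_le hLLlev
  obtain ⟨v', hv'W, hv'I, hv'r⟩ := (lift v0).1 hv0
  obtain ⟨vf0, hvf0, hli⟩ := kph_rank h
  choose vf hvfW hvfI hvfr using fun i => (lift (vf0 i)).1 (hvf0 i)
  have hres : ∀ i, (Place.laurent K).Int ((s.grow T).ell w.up (vf i)) ∧
      (Place.laurent K).rq ((s.grow T).ell w.up (vf i)) =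
        Pr (s.k + 1) ({s.omg w, Ab s.k ρ} : Set (QA K)) (w.d1 s.X (vf0 i)) := by
    intro i
    have h1 := kph_res_ell h (vf i) (hWlev _ (hvfW i)) (hvfI i)
    have h2 : (fun j => (Place.laurent K).rq (vf i j)) = vf0 i := funext (hvfr i)
    rw [h2] at h1
    exact h1
  have hres' : (Place.laurent K).Int ((s.grow T).ell w.up v') ∧
      (Place.laurent K).rq ((s.grow T).ell w.up v') = 0 := by
    have h1 := kph_res_ell h v' (hWlev _ hv'W) hv'I
    have h2 : (fun j => (Place.laurent K).rq (v' j)) = v0 := funext hv'r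
    rw [h2, hE] at h1
    exact h1
  have hli' : LinearIndependent K (fun i => (Place.laurent K).rq ((s.grow T).ell w.up (vf i))) := by
    have : (fun i => (Place.laurent K).rq ((s.grow T).ell w.up (vf i))) =
        fun i => Pr (s.k + 1) ({s.omg w, Ab s.k ρ} : Set (QA K)) (w.d1 s.X (vf0 i)) :=
      funext fun i => (hres i).2
    rw [this]
    exact hli
  obtain ⟨c, hc1, hc2⟩ := (Place.laurent K).lift_basis_S
    (V := (s.grow T).LL w.up) (fun i => (s.grow T).ell w.up (vf i))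
    (fun i => ⟨⟨vf i, hvfW i, rfl⟩, (hres i).1⟩) hli'
    (by rw [Fintype.card_fin]; exact h.nL.symm) ((s.grow T).ell w.up v') ⟨v', hv'W, rfl⟩
  have hcO := hc2 hres'.1
  have hsum0 : ∑ i, (Place.laurent K).r (c i) •
      (Place.laurent K).rq ((s.grow T).ell w.up (vf i)) = 0 := by
    have h1 := congrArg (Place.laurent K).rq hc1
    rw [hres'.2, (Place.laurent K).rq_sum _ _
      (fun i _ => (Place.laurent K).int_smul (hcO i) (hres i).1)] at h1
    rw [h1]
    exact Finset.sum_congr rfl fun i _ => ((Place.laurent K).rq_smul (hcO i) (hres i).1).symm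
  have hr0 : ∀ i, (Place.laurent K).r (c i) = 0 := fun i =>
    (Fintype.linearIndependent_iff.1 hli') _ hsum0 i
  have hIs : ∀ i ∈ Finset.univ, (Place.laurent K).IntI (c i • vf i) := fun i _ =>
    (Place.laurent K).intI_smul (hcO i) (hvfI i)
  refine ⟨v' - ∑ i, c i • vf i, sub_mem hv'W (Submodule.sum_mem _ fun i _ =>
    Submodule.smul_mem _ _ (hvfW i)), ?_, ?_, ?_⟩
  · exact (Place.laurent K).intI_sub hv'I ((Place.laurent K).intI_sum _ _ hIs)
  · intro j
    have h1 : (Place.laurent K).rI (v' - ∑ i, c i • vf i) = v0 := by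
      rw [(Place.laurent K).rI_sub hv'I ((Place.laurent K).intI_sum _ _ hIs),
        (Place.laurent K).rI_sum _ _ hIs]
      have h2 : ∑ i, (Place.laurent K).rI (c i • vf i) = 0 := by
        refine Finset.sum_eq_zero fun i _ => ?_
        rw [(Place.laurent K).rI_smul (hcO i) (hvfI i), hr0 i, zero_smul]
      rw [h2, sub_zero]
      exact funext hv'r
    exact congrFun h1 j
  · rw [map_sub, map_sum, sub_eq_zero]
    conv_lhs => rw [hc1]
    exact Finset.sum_congr rfl fun i _ => (map_smul _ _ _).symm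

end Crest.Agent.KP.Pt
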