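import Crest.Agent.KPH_1
import Crest.Agent.KPA_Pr

/-!
# S0270, part (H): description of `U⁺` (helper52)
-/

set_option autoImplicit false
set_option linter.unusedSectionVars false

open scoped PowerSeries LaurentSeries symmDiff

namespace Crest.Agent.KP.Pt

variable {K I J : Type} [Field K] [KF K] [Fintype I] [Fintype J]
variable {s : Pt K I J} {w : NC K I} {d t : ℕ} {T : I → QA K⟦X⟧} {w1 w2 : I → QA K} {a ρ : QA K}

section aux
variable {F : Type} [Field F] [KF F]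

private theorem u5_ev_ren {R I I' A : Type} [CommRing R] [Ring A] [Algebra R A] (p : NC R I)
    (f : I → I') (X : I' → A) : (p.ren f).ev X = p.ev (fun i => X (f i)) := by
  induction p with
  | cst c => rfl
  | var i => rfl
  | add p q hp hq => simp only [NC.ren, NC.ev, hp, hq]
  | mul p q hp hq => simp only [NC.ren, NC.ev, hp, hq]

private theorem u5_d1_ren {R I I' A : Type} [CommRing R] [Ring A] [Algebra R A] (p : NC R I)
    (f : I → I') (X v : I' → A) :
    (p.ren f).d1 X v = p.d1 (fun i => X (f i)) (fun i => v (f i)) := by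
  induction p with
  | cst c => rfl
  | var i => rfl
  | add p q hp hq => simp only [NC.ren, NC.d1, hp, hq]
  | mul p q hp hq => simp only [NC.ren, NC.d1, hp, hq, u5_ev_ren]

private theorem u5_D_none (s5 : Pt F I J) (w5 : NC F I) (a5 : QA F)
    (m0 : Submodule F (QA F)) (v : I ⊕ Bool → QA F) :
    (s5.ext w5 a5 m0).D v none = w5.d1 s5.X (fun i => v (Sum.inl i)) +
      (s5.omg w5 * v (Sum.inr false) - v (Sum.inr false) * s5.omg w5) - v (Sum.inr true) := by
  have h1 : (s5.ext w5 a5 m0).D v none =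
      (NC.add (NC.mul (w5.ren Sum.inl) (NC.var (Sum.inr false)))
        (NC.mul (NC.cst (-1)) (NC.mul (NC.var (Sum.inr false)) (NC.var (Sum.inr true))))).d1
        (Sum.elim s5.X (fun b => if b then s5.omg w5 else 1)) v := rfl
  rw [h1]
  simp only [NC.d1, NC.ev, u5_d1_ren, u5_ev_ren, Sum.elim_inl, Sum.elim_inr, map_neg, map_one]
  simp only [Bool.false_eq_true, if_false, if_true, mul_one, one_mul, zero_mul, zero_add]
  have h2 : w5.ev (fun i => s5.X i) = s5.omg w5 := rfl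
  rw [h2]
  noncomm_ring

private theorem u5_D_some (s5 : Pt F I J) (w5 : NC F I) (a5 : QA F)
    (m0 : Submodule F (QA F)) (v : I ⊕ Bool → QA F) (j : J) :
    (s5.ext w5 a5 m0).D v (some j) = s5.D (fun i => v (Sum.inl i)) j := by
  have h1 : (s5.ext w5 a5 m0).D v (some j) =
      ((s5.F j).ren Sum.inl).d1 (Sum.elim s5.X (fun b => if b then s5.omg w5 else 1)) v := rfl
  rw [h1, u5_d1_ren]
  rfl

private theorem u5_pair (s5 : Pt F I J) (w5 : NC F I) (a5 : QA F)
    (m0 : Submodule F (QA F)) (c : Option J → QA F) (v : I ⊕ Bool → QA F) :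
    pair c ((s5.ext w5 a5 m0).D v) =
      QA.tr (c none * (w5.d1 s5.X (fun i => v (Sum.inl i)) +
        (s5.omg w5 * v (Sum.inr false) - v (Sum.inr false) * s5.omg w5) - v (Sum.inr true))) +
      pair (fun j => c (some j)) (s5.D (fun i => v (Sum.inl i))) := by
  unfold pair
  rw [Fintype.sum_option, u5_D_none]
  simp only [u5_D_some]

private theorem u5_d1_zero (w5 : NC F I) (X : I → QA F) : w5.d1 X (fun _ => 0) = 0 := by
  induction w5 with
  | cst c => rfl
  | var i => rfl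
  | add p q hp hq => simp only [NC.d1, hp, hq, add_zero]
  | mul p q hp hq => simp only [NC.d1, hp, hq, zero_mul, mul_zero, add_zero]

private theorem u5_pair_D_zero (s5 : Pt F I J) (c : J → QA F) :
    pair c (s5.D (fun _ => 0)) = 0 := by
  unfold pair
  refine Finset.sum_eq_zero fun j _ => ?_
  have : s5.D (fun _ => 0) j = 0 := u5_d1_zero (s5.F j) s5.X
  rw [this, mul_zero, map_zero]

/-- the field `K1` is commutative and inside `lev` -/
private theorem u5_K1_le (s5 : Pt F I J) (w5 : NC F I) (hg : s5.Good) :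
    s5.K1 w5 ≤ lev F s5.k := by
  refine Algebra.adjoin_le ?_
  rintro x hx
  rw [Set.mem_singleton_iff] at hx
  rw [hx]
  exact NC.kph_ev_mem (lev F s5.k) w5 s5.X hg.Xlev

private theorem u5_omg_lev (s5 : Pt F I J) (w5 : NC F I) (hg : s5.Good) :
    s5.omg w5 ∈ lev F s5.k := NC.kph_ev_mem (lev F s5.k) w5 s5.X hg.Xlev

private theorem u5_K1_cen {ω x y : QA F} (hx : x ∈ Algebra.adjoin F ({ω} : Set (QA F)))
    (hy : y * ω = ω * y) : y * x = x * y := by
  have h1 : Algebra.adjoin F ({ω} : Set (QA F)) ≤ Subalgebra.centralizer F {y} := by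
    refine Algebra.adjoin_le fun φ hφ => ?_
    rw [Set.mem_singleton_iff] at hφ
    rw [SetLike.mem_coe, Subalgebra.mem_centralizer_iff, hφ]
    rintro _ rfl
    exact hy
  have h2 := h1 hx
  rw [Subalgebra.mem_centralizer_iff] at h2
  exact h2 y rfl

private theorem u5_K1_comm (s5 : Pt F I J) (w5 : NC F I) {x : QA F} (hx : x ∈ s5.K1 w5) :
    x * s5.omg w5 = s5.omg w5 * x := (u5_K1_cen hx rfl).symm

private theorem u5_qinv {k : ℕ} {b : QA F} {B : Subalgebra F (QA F)} (hB : B ≤ lev F k)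
    (hb : b ∈ B) (h0 : b ≠ 0) : b * qinv b = 1 ∧ qinv b * b = 1 ∧ qinv b ∈ B := by
  have hfd : FiniteDimensional F B := kpa_fd_of_le' hB
  obtain ⟨v, hv, h1, h2⟩ := kpa_inv hb h0
  have hex : ∃ v : QA F, b * v = 1 ∧ v * b = 1 := ⟨v, h1, h2⟩
  have e : qinv b = Classical.choose hex := dif_pos hex
  have hs := Classical.choose_spec hex
  rw [← e] at hs
  exact ⟨hs.1, hs.2, kpa_inv_mem hb hs.1⟩

private theorem u5_K2_le (s5 : Pt F I J) (w5 : NC F I) (hg : s5.Good)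
    (hc : s5.LL w5 ≤ Subalgebra.toSubmodule (s5.K1 w5)) : s5.K2 w5 ≤ s5.K1 w5 := by
  refine Algebra.adjoin_le ?_
  rintro u ⟨-, b, hb, hb0, hub⟩
  have h1 : b ∈ s5.K1 w5 := hc hb
  have h2 : u * b ∈ s5.K1 w5 := hc hub
  obtain ⟨q1, q2, q3⟩ := u5_qinv (u5_K1_le s5 w5 hg) h1 hb0
  have h3 : u = u * b * qinv b := by rw [mul_assoc, q1, mul_one]
  rw [h3]
  exact (s5.K1 w5).mul_mem h2 q3

end aux

/-- Elements of `U⁺`. `c' = c none`. Testing with `(v,0,0) ∈ V0⁺`, `(0,γ,0)`, `(0,0,φ)`: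
(i) `c'` commutes with `ω_5` (`tr(c' [ω_5,γ]) = tr([c',ω_5] γ) = 0` for all `γ ∈ C(ω_5)^⊥`; but
`[c',ω_5] ∈ C(ω_5)^⊥` and the form is nondegenerate there), (ii) `c' a5 ∈ K2(s_5)`: for
`φ = a5 ψ`, `ψ ∈ C(ω_5)`, `ψ ⊥ K2(s_5)`: `tr(c' a5 ψ) = 0`, and inside `C(ω_5)` the double orthogonal of
`K2(s_5) ≤ C(ω_5)` is `K2(s_5)`; (iii) `Σ_j tr(c_j D(v)_j) + tr(c' dw[v]) = 0` for `v ∈ V0(s_5)`. -/
theorem kph_U_ext {F : Type} [Field F] [KF F] (s5 : Pt F I J) (w5 : NC F I)
    (hg : s5.Good) (hc : s5.LL w5 ≤ Subalgebra.toSubmodule (s5.K1 w5)) (a5 : QA F)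
    (m0 : Submodule F (QA F)) (hx : s5.ExtOk w5 a5 m0)
    (c : Option J → QA F) (hcU : c ∈ (s5.ext w5 a5 m0).U) :
    (∀ j, c j ∈ lev F s5.k) ∧ c none * s5.omg w5 = s5.omg w5 * c none ∧
    c none * a5 ∈ s5.K2 w5 ∧
    ∀ v ∈ s5.V0, pair (fun j => c (some j)) (s5.D v) + QA.tr (c none * w5.d1 s5.X v) = 0 := by
  obtain ⟨hlev, htest⟩ := hcU
  have hlev' : ∀ j, c j ∈ lev F s5.k := fun j => hlev j (Set.mem_univ j)
  have hω := u5_omg_lev s5 w5 hg
  -- membership in `V0` of the extended state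
  have hV0 : ∀ (v : I → QA F) (γ φ : QA F), v ∈ s5.V0 → γ ∈ Cperp s5.k (s5.omg w5) →
      φ ∈ Fpart s5.k (s5.omg w5) (qinv a5) (s5.K2 w5) ⊥ →
      pair c ((s5.ext w5 a5 m0).D (Sum.elim v (fun b => if b then φ else γ))) = 0 := by
    intro v γ φ hv hγ hφ
    refine htest _ ?_
    refine ⟨⟨?_, ?_⟩, ?_⟩
    · exact hv
    · exact hγ
    · exact hφ
  have hE : ∀ (v : I → QA F) (γ φ : QA F), v ∈ s5.V0 → γ ∈ Cperp s5.k (s5.omg w5) →
      φ ∈ Fpart s5.k (s5.omg w5) (qinv a5) (s5.K2 w5) ⊥ →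
      QA.tr (c none * (w5.d1 s5.X v + (s5.omg w5 * γ - γ * s5.omg w5) - φ)) +
        pair (fun j => c (some j)) (s5.D v) = 0 := by
    intro v γ φ hv hγ hφ
    have h1 := hV0 v γ φ hv hγ hφ
    rw [u5_pair] at h1
    exact h1
  have hi : c none * s5.omg w5 = s5.omg w5 * c none := by
    have hx0 : c none * s5.omg w5 - s5.omg w5 * c none ∈ lev F s5.k :=
      Subalgebra.sub_mem _ (Subalgebra.mul_mem _ (hlev' none) hω)
        (Subalgebra.mul_mem _ hω (hlev' none))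
    have h2 : ∀ γ ∈ Cperp s5.k (s5.omg w5),
        QA.tr ((c none * s5.omg w5 - s5.omg w5 * c none) * γ) = 0 := by
      intro γ hγ
      have h3 := hE (fun _ => 0) γ 0 (Submodule.zero_mem _) hγ (Submodule.zero_mem _)
      rw [u5_d1_zero, u5_pair_D_zero, add_zero, zero_add, sub_zero, mul_sub, map_sub] at h3
      rw [sub_mul, map_sub, mul_assoc, mul_assoc (s5.omg w5), kpa_tr_comm (s5.omg w5) (c none * γ),
        mul_assoc (c none)]
      exact h3
    have h4 : ∀ d ∈ cenA s5.k {s5.omg w5},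
        QA.tr ((c none * s5.omg w5 - s5.omg w5 * c none) * d) = 0 := by
      intro d hd
      have h5 := (mem_cenA.1 hd).2 _ (Set.mem_singleton _)
      rw [sub_mul, map_sub, mul_assoc, mul_assoc (s5.omg w5), kpa_tr_comm (s5.omg w5) (c none * d),
        mul_assoc (c none), h5, sub_self]
    have h6 : c none * s5.omg w5 - s5.omg w5 * c none = 0 := by
      refine kpa_sub_nondeg (B := lev F s5.k) hx0 fun y hy => ?_
      have h7 : y = Pr s5.k {s5.omg w5} y + (y - Pr s5.k {s5.omg w5} y) := by abel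
      rw [h7, mul_add, map_add, h4 _ (kpa_Pr_mem_cenA hy), h2 _ ?_, add_zero]
      exact ⟨Subalgebra.sub_mem _ hy (kpa_Pr_mem hy), kpa_Pr_sub_Pr hy⟩
    exact sub_eq_zero.1 h6
  have ha5 : a5 ∈ s5.K1 w5 := hc hx.aL
  obtain ⟨q1, q2, q3⟩ := u5_qinv (u5_K1_le s5 w5 hg) ha5 hx.a0
  have hK1cen : ∀ z ∈ s5.K1 w5, z ∈ cenA s5.k {s5.omg w5} := fun z hz =>
    mem_cenA.2 ⟨u5_K1_le s5 w5 hg hz, fun φ hφ => by
      rw [Set.mem_singleton_iff] at hφ
      rw [hφ]
      exact u5_K1_comm s5 w5 hz⟩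
  have hc'cen : c none ∈ cenA s5.k {s5.omg w5} :=
    mem_cenA.2 ⟨hlev' none, fun φ hφ => by
      rw [Set.mem_singleton_iff] at hφ
      rw [hφ]
      exact hi⟩
  refine ⟨hlev', hi, ?_, ?_⟩
  · -- (ii)
    have hK2le := u5_K2_le s5 w5 hg hc
    have hfd : FiniteDimensional F (s5.K2 w5) :=
      kpa_fd_of_le' (hK2le.trans (u5_K1_le s5 w5 hg))
    obtain ⟨E, hEp⟩ := kpa_exists_proj (s5.K2 w5)
    have hy : c none * a5 ∈ cenA s5.k {s5.omg w5} :=
      Subalgebra.mul_mem _ hc'cen (hK1cen a5 ha5)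
    have hEc : ∀ z, E z ∈ cenA s5.k {s5.omg w5} := fun z => hK1cen _ (hK2le (hEp z).1)
    have htr : ∀ ψ ∈ cenA s5.k {s5.omg w5}, (∀ κ ∈ s5.K2 w5, QA.tr (κ * ψ) = 0) →
        QA.tr (c none * a5 * ψ) = 0 := by
      intro ψ hψ hψ2
      have h8 : a5 * ψ ∈ Fpart s5.k (s5.omg w5) (qinv a5) (s5.K2 w5) ⊥ := by
        have h9 : a5 * ψ ∈ cenA s5.k {s5.omg w5} := Subalgebra.mul_mem _ (hK1cen a5 ha5) hψ
        refine ⟨⟨(mem_cenA.1 h9).1, ?_⟩, ?_⟩
        · change a5 * ψ ∈ Subalgebra.centralizer F {s5.omg w5}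
          rw [Subalgebra.mem_centralizer_iff]
          rintro _ rfl
          exact ((mem_cenA.1 h9).2 _ rfl).symm
        · change qinv a5 * (a5 * ψ) ∈ (⊥ ⊔ perp (s5.K2 w5 : Set (QA F)) : Submodule F (QA F))
          rw [← mul_assoc, q2, one_mul, bot_sup_eq]
          unfold perp
          rw [Submodule.mem_iInf]
          intro κ
          rw [Submodule.mem_iInf]
          intro hκ
          exact hψ2 κ hκ
      have h3 := hE (fun _ => 0) 0 (a5 * ψ) (Submodule.zero_mem _) (Submodule.zero_mem _) h8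
      rw [u5_d1_zero, u5_pair_D_zero, add_zero, mul_zero, zero_mul, sub_zero, zero_add, zero_sub,
        mul_neg, map_neg, neg_eq_zero] at h3
      rw [mul_assoc]
      exact h3
    have hψ0 : c none * a5 - E (c none * a5) = 0 := by
      have hψc : c none * a5 - E (c none * a5) ∈ cenA s5.k {s5.omg w5} :=
        Subalgebra.sub_mem _ hy (hEc _)
      have hperp : ∀ z, ∀ κ ∈ s5.K2 w5, QA.tr (κ * (z - E z)) = 0 := by
        intro z κ hκ
        rw [kpa_tr_comm]
        exact (hEp z).2 κ hκ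
      refine kpa_sub_nondeg hψc fun z hz => ?_
      have h7 : z = E z + (z - E z) := by abel
      have h8 : QA.tr ((c none * a5 - E (c none * a5)) * E z) = 0 :=
        (hEp _).2 _ (hEp z).1
      have h9 : QA.tr ((c none * a5 - E (c none * a5)) * (z - E z)) = 0 := by
        rw [sub_mul, map_sub, htr _ (Subalgebra.sub_mem _ hz (hEc z)) (hperp z),
          hperp z _ (hEp (c none * a5)).1, sub_self]
      rw [h7, mul_add, map_add, h8, h9, add_zero]
    rw [sub_eq_zero.1 hψ0]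
    exact (hEp _).1
  · -- (iii)
    intro v hv
    have h3 := hE v 0 0 hv (Submodule.zero_mem _) (Submodule.zero_mem _)
    simp only [mul_zero, zero_mul, sub_zero, add_zero] at h3
    rw [add_comm]
    exact h3

/-- Corollary: (iv) `c' b ∈ K2(s_5)` for every `b ∈ L(s_5)` (commutativity `L ≤ K1`;
`b = κ a5` with `κ ∈ K2`), (v) `tr(c' b) = 0` for `b ∈ L(s_5)` (for `v ∈ W(s_5)`:
`tr(c' dw[v]) = tr(c' ell v)` as `c'` commutes with `ω_5`). -/
theorem kph_U_ext2 {F : Type} [Field F] [KF F] (s5 : Pt F I J) (w5 : NC F I)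
    (hg : s5.Good) (hc : s5.LL w5 ≤ Subalgebra.toSubmodule (s5.K1 w5)) (a5 : QA F)
    (m0 : Submodule F (QA F)) (hx : s5.ExtOk w5 a5 m0)
    (c : Option J → QA F) (hcU : c ∈ (s5.ext w5 a5 m0).U) (b : QA F) (hb : b ∈ s5.LL w5) :
    c none * b ∈ s5.K2 w5 ∧ QA.tr (c none * b) = 0 := by
  obtain ⟨h1, h2, h3, h4⟩ := kph_U_ext s5 w5 hg hc a5 m0 hx c hcU
  have ha5 : a5 ∈ s5.K1 w5 := hc hx.aL
  have hb1 : b ∈ s5.K1 w5 := hc hb
  obtain ⟨q1, q2, q3⟩ := u5_qinv (u5_K1_le s5 w5 hg) ha5 hx.a0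
  constructor
  · have hκ1 : b * qinv a5 ∈ s5.K1 w5 := (s5.K1 w5).mul_mem hb1 q3
    have hκ : b * qinv a5 ∈ s5.K2 w5 := by
      refine Algebra.subset_adjoin ⟨u5_K1_le s5 w5 hg hκ1, a5, hx.aL, hx.a0, ?_⟩
      rw [mul_assoc, q2, mul_one]
      exact hb
    have h5 : c none * (b * qinv a5) = (b * qinv a5) * c none := u5_K1_cen hκ1 h2
    have h6 : c none * b = (b * qinv a5) * (c none * a5) := by
      rw [← mul_assoc, ← h5, mul_assoc, mul_assoc b, q2, mul_one]
    rw [h6]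
    exact (s5.K2 w5).mul_mem hκ h3
  · obtain ⟨v, hv, hvb⟩ := hb
    have hD : s5.D v = 0 := hv.2
    have h5 := h4 v hv.1
    have h6 : pair (fun j => c (some j)) (s5.D v) = 0 := by
      unfold pair
      refine Finset.sum_eq_zero fun j _ => ?_
      rw [hD, Pi.zero_apply, mul_zero, map_zero]
    rw [h6, zero_add] at h5
    have h7 : b = Pr s5.k {s5.omg w5} (w5.d1 s5.X v) := hvb.symm
    have hdl : w5.d1 s5.X v ∈ lev F s5.k :=
      NC.kph_d1_mem (lev F s5.k) w5 s5.X v hg.Xlev (hg.V1lev v (hg.V0V1 hv.1))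
    have hc'cen : c none ∈ cenA s5.k {s5.omg w5} :=
      mem_cenA.2 ⟨h1 none, fun φ hφ => by
        rw [Set.mem_singleton_iff] at hφ
        rw [hφ]
        exact h2⟩
    rw [kpa_tr_comm, h7, kpa_tr_Pr_mul hdl hc'cen, kpa_tr_comm]
    exact h5

end Crest.Agent.KP.Pt
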