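import Crest.Agent.KPH_2d
import Crest.Agent.KPH_5a

/-!
# S0270, part (H): residues of elements of `U⁺(s_5)`, part 1 (helper52)
-/

set_option autoImplicit false
set_option linter.unusedSectionVars false

open scoped PowerSeries LaurentSeries symmDiff

namespace Crest.Agent.KP.Pt

variable {K I J : Type} [Field K] [KF K] [Fintype I] [Fintype J]
variable {s : Pt K I J} {w : NC K I} {d t : ℕ} {T : I → QA K⟦X⟧} {w1 w2 : I → QA K} {a ρ : QA K}


section h5baux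
variable {F : Type} [Field F] [KF F]

private theorem h5b_trS1 (k : ℕ) : QA.tr (S1 k : QA F) = 0 := by
  unfold S1
  rw [QA.e_eq_ec, kpa_tr_ec, if_neg (by simp)]
private theorem h5b_trS2 (k : ℕ) : QA.tr (S2 k : QA F) = 0 := by
  unfold S2
  rw [QA.e_eq_ec, kpa_tr_ec, if_neg (by simp)]
private theorem h5b_trS3 (k : ℕ) : QA.tr (S3 k : QA F) = 0 := by
  unfold S3
  rw [QA.e_eq_ec, kpa_tr_ec, if_neg (by simp)]

/-- `tr(x Ā) = 0` for `x ∈ lev k`. -/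
private theorem h5b_trA {k : ℕ} {x ρ : QA F} (hx : x ∈ lev F k) (hρ : ρ ∈ lev F k) :
    QA.tr (x * Ab k ρ) = 0 := by
  unfold Ab
  rw [mul_add, map_add, ← mul_assoc, kpa_tr_lev_mid hx (kpa_S1_mem k),
    kpa_tr_lev_mid (mul_mem hx hρ) (kpa_S2_mem k), h5b_trS1, h5b_trS2]
  ring

private theorem h5b_Ane {k : ℕ} {ρ : QA F} (hρ : ρ ∈ lev F k) : Ab k ρ ≠ 0 := by
  intro h0
  have h1 : QA.tr (Ab k ρ * S1 k) = al k := by
    unfold Ab
    rw [add_mul, map_add, kpa_S1_mul_S1, map_smul, kpa_tr_one, mul_assoc, kpa_S2_mul_S1, mul_neg,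
      map_neg, kpa_tr_lev_mid hρ (kpa_S3_mem k), h5b_trS3]
    simp
  rw [h0, zero_mul, map_zero] at h1
  exact KF.al_ne k h1.symm

/-- `Ā² = al + be ρ²`. -/
private theorem h5b_Asq {k : ℕ} {ρ : QA F} (hρ : ρ ∈ lev F k) :
    Ab k ρ * Ab k ρ = (al k : F) • (1 : QA F) + (be k : F) • (ρ * ρ) := by
  have h1 : ρ * S1 k = S1 k * ρ := kpa_lev_mid_comm hρ (kpa_S1_mem k)
  have h2 : ρ * S2 k = S2 k * ρ := kpa_lev_mid_comm hρ (kpa_S2_mem k)
  unfold Ab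
  have e1 : S1 k * (ρ * S2 k) = ρ * S3 k := by
    rw [← mul_assoc, ← h1, mul_assoc, kpa_S1_mul_S2]
  have e2 : ρ * S2 k * S1 k = -(ρ * S3 k) := by
    rw [mul_assoc, kpa_S2_mul_S1, mul_neg]
  have e3 : ρ * S2 k * (ρ * S2 k) = (be k : F) • (ρ * ρ) := by
    rw [mul_assoc, ← mul_assoc (S2 k), ← h2, mul_assoc ρ (S2 k) (S2 k), kpa_S2_mul_S2,
      mul_smul_comm, mul_one, mul_smul_comm]
  rw [mul_add, add_mul, add_mul, kpa_S1_mul_S1, e1, e2, e3]
  abel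

private theorem h5b_comm {k : ℕ} {x ρ : QA F} (hx : x ∈ lev F k) (hxρ : x * ρ = ρ * x) :
    x * Ab k ρ = Ab k ρ * x := by
  unfold Ab
  rw [mul_add, add_mul, kpa_lev_mid_comm hx (kpa_S1_mem k), ← mul_assoc, hxρ, mul_assoc,
    kpa_lev_mid_comm hx (kpa_S2_mem k), mul_assoc]

end h5baux

/-- If `c ∈ U⁺(s_5)` and `c' = c none` is integral then `res c' = m a⁻¹` with `m ∈ K2(s)`,
`m ⊥ RR(s)`; i.e. `res c' * a = m`.
Proof: let `b ∈ L(s_5)` be integral with residue `a` (`kph_realize` with `(a,0,0,0)`,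
`C_lift_grow`, `kph_res_ell`, `kph_Pr_tower`, `kph_PrAb`). `κ := res c' * a ∈ res K2(s_5)`, so
(`kph_resK2`) `κ = m + m' Ā` with `m, m' ∈ K2(s)`. For every `v0 ∈ ker Θ`, lifting `v0`:
`tr(res c' * E_{ω,Ā}(dw[v0])) = 0`. With the values `a r` (`r ∈ RR`): `tr(m r) = 0`.
With the values `a κ' Ā⁻¹` (`κ' ∈ K2(s)`): `tr((m + m' Ā) κ' Ā⁻¹) = tr(m' κ')`, so `m' = 0` (the trace
form is nondegenerate on `K2(s)`). -/
theorem kph_U1 (h : s.Pkg4 w d t T w1 w2 a ρ) (h5 : (s.grow T).Pkg w.up d) (a5 : QA K⸨X⸩)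
    (m0 : Submodule K⸨X⸩ (QA K⸨X⸩)) (hx : (s.grow T).ExtOk w.up a5 m0)
    (c : Option J → QA K⸨X⸩) (hc : c ∈ ((s.grow T).ext w.up a5 m0).U)
    (hi : (Place.laurent K).Int (c none)) :
    ∃ m ∈ s.K2 w, m ∈ perp (s.RR w a : Set (QA K)) ∧ (Place.laurent K).rq (c none) * a = m := by
  obtain ⟨halt, ho, hg5⟩ := kph_s5 h
  obtain ⟨hK21, haL, h1R, hLR, hRL⟩ := kph_L_eq h
  have hωl : s.omg w ∈ lev K s.k := NC.kph_ev_mem (lev K s.k) w s.X h.good.Xlev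
  have hK1l : s.K1 w ≤ lev K s.k := by
    refine Algebra.adjoin_le ?_
    intro x hx
    rw [Set.mem_singleton_iff] at hx
    subst hx
    exact hωl
  have hρ2 : ρ ∈ s.K2 w := h.rho.1
  have hρl : ρ ∈ lev K s.k := hK1l (hK21 hρ2)
  have hcomm : ∀ x ∈ s.K1 w, ∀ y ∈ s.K1 w, x * y = y * x := fun x hx y hy =>
    Algebra.commute_of_mem_adjoin_of_forall_mem_commute hy (fun z hz => by
      rw [Set.mem_singleton_iff] at hz
      subst hz
      exact (Algebra.commute_of_mem_adjoin_singleton_of_commute hx (Commute.refl _)).symm)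
  set P := Place.laurent K with hP
  set c0 := P.rq (c none) with hc0
  set A := Ab s.k ρ with hA
  have hA0 : A ≠ 0 := h5b_Ane hρl
  have key : ∀ u0 u1 u2 u3, u0 ∈ s.LL w → u1 ∈ s.LL w → u2 ∈ s.LL w → u3 ∈ s.LL w →
      ∃ β : QA K, β * A = u0 * A + ((al s.k : K) • u1 + (be s.k : K) • (ρ * u2)) ∧
        QA.tr (c0 * β) = 0 ∧ ∃ m ∈ s.K2 w, ∃ m' ∈ s.K2 w, c0 * β = m + m' * A := by
    intro u0 u1 u2 u3 hu0 hu1 hu2 hu3
    obtain ⟨v, hv, hv2⟩ := kph_realize h u0 u1 u2 u3 hu0 hu1 hu2 hu3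
    obtain ⟨v', hv'W, hv'int, hv'res⟩ := (C_lift_grow s h.good halt T w1 w2 h.gr ho v).1 hv
    have hv'lev : ∀ i, v' i ∈ lev K⸨X⸩ (s.k + 1) := fun i =>
      hg5.V1lev v' (hg5.V0V1 hv'W.1) i
    obtain ⟨hi1, hr1⟩ := kph_res_ell h v' hv'lev hv'int
    have hb : (s.grow T).ell w.up v' ∈ (s.grow T).LL w.up := Submodule.mem_map_of_mem hv'W
    obtain ⟨hk2, htr⟩ := kph_U_ext2 (s.grow T) w.up hg5 h5.comm a5 m0 hx c hc _ hb
    have hvres : (fun i => P.rq (v' i)) = v := funext hv'res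
    have hvlev : ∀ i, v i ∈ lev K (s.k + 1) := fun i => by
      rw [← hv'res i]
      exact P.rq_lev (hv'lev i)
    rw [hvres, kph_Pr_tower h _ (NC.kph_d1_mem (lev K (s.k + 1)) w s.X v
      (fun i => kpa_lev_mono (Nat.le_succ _) (h.good.Xlev i)) hvlev), hv2] at hr1
    refine ⟨P.rq ((s.grow T).ell w.up v'), ?_, ?_, ?_⟩
    · rw [hr1]
      exact kph_PrAb h u0 u1 u2 u3 (h.comm hu0) (h.comm hu1) (h.comm hu2) (h.comm hu3)
    · rw [hc0, ← P.rq_mul hi hi1, ← P.r_tr, htr]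
      exact P.r_zero
    · have h1 : P.rq (c none * (s.grow T).ell w.up v') ∈
          P.resS (Subalgebra.toSubmodule ((s.grow T).K2 w.up)) :=
        P.rq_mem_resS hk2 (P.int_mul hi hi1)
      rw [kph_resK2 h, P.rq_mul hi hi1] at h1
      obtain ⟨m, hm, y, hy, hmy⟩ := Submodule.mem_sup.1 h1
      obtain ⟨m', hm', rfl⟩ := hy
      exact ⟨m, hm, m', hm', hmy.symm⟩
  -- step 1
  obtain ⟨β, hβ1, -, m, hm, m', hm', hβ2⟩ := key a 0 0 0 haL (zero_mem _) (zero_mem _) (zero_mem _)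
  have hβa : β = a := by
    rw [mul_zero, smul_zero, smul_zero, add_zero, add_zero] at hβ1
    exact mul_right_cancel₀ hA0 hβ1
  rw [hβa] at hβ2
  have hml : m ∈ lev K s.k := hK1l (hK21 hm)
  have hm'l : m' ∈ lev K s.k := hK1l (hK21 hm')
  -- step 2: `m ⊥ RR`
  have hmperp : ∀ r ∈ s.RR w a, QA.tr (m * r) = 0 := by
    intro r hr
    obtain ⟨β', hβ1', hβ3', -⟩ := key (a * r) 0 0 0 (hRL r hr) (zero_mem _) (zero_mem _)
      (zero_mem _)
    have h1 : β' = a * r := by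
      rw [mul_zero, smul_zero, smul_zero, add_zero, add_zero] at hβ1'
      exact mul_right_cancel₀ hA0 hβ1'
    have hrl : r ∈ lev K s.k := hK1l (hK21 hr.1)
    have hrA : A * r = r * A := (h5b_comm hrl (hcomm r (hK21 hr.1) ρ (hK21 hρ2))).symm
    rw [h1, ← mul_assoc, hβ2, add_mul, map_add, mul_assoc m', hrA, ← mul_assoc,
      h5b_trA (mul_mem hm'l hrl) hρl, add_zero] at hβ3'
    exact hβ3'
  -- step 3: `m' = 0`
  have hfd : FiniteDimensional K (s.K2 w) := kpa_fd_of_le' (hK21.trans hK1l)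
  have hm'0 : m' = 0 := by
    refine kpa_sub_nondeg hm' fun κ hκ => ?_
    have hκl : κ ∈ lev K s.k := hK1l (hK21 hκ)
    obtain ⟨r1, hr1, r2, hr2, hr⟩ := h.rho2 κ hκ
    have hal : (al s.k : K) ≠ 0 := KF.al_ne s.k
    have hbe : (be s.k : K) ≠ 0 := KF.be_ne s.k
    obtain ⟨β', hβ1', hβ3', -⟩ := key 0 ((al s.k : K)⁻¹ • (a * r1)) ((be s.k : K)⁻¹ • (a * r2)) 0
      (zero_mem _) (Submodule.smul_mem _ _ (hRL r1 hr1)) (Submodule.smul_mem _ _ (hRL r2 hr2))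
      (zero_mem _)
    have haK1 : a ∈ s.K1 w := h.comm haL
    have h1 : β' * A = a * κ := by
      rw [hβ1', zero_mul, zero_add, smul_smul, mul_inv_cancel₀ hal, one_smul, mul_smul_comm,
        smul_smul, mul_inv_cancel₀ hbe, one_smul, hr, mul_add, ← mul_assoc ρ,
        hcomm ρ (hK21 hρ2) a haK1, mul_assoc a]
    -- inverse of `Ā²`
    have hθl : A * A ∈ lev K s.k := by
      rw [hA, h5b_Asq hρl]
      exact add_mem (Subalgebra.smul_mem _ (one_mem _) _)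
        (Subalgebra.smul_mem _ (mul_mem hρl hρl) _)
    obtain ⟨θ', hθ'l, hθ1, hθ2⟩ := kpa_inv_lev hθl (mul_ne_zero hA0 hA0)
    have hκA : A * κ = κ * A := (h5b_comm hκl (hcomm κ (hK21 hκ) ρ (hK21 hρ2))).symm
    have h2 : (c0 * β' - m' * κ) * A = m * κ := by
      rw [sub_mul, mul_assoc c0, h1, ← mul_assoc, hβ2, add_mul, mul_assoc m' A κ, hκA,
        ← mul_assoc m' κ A]
      abel
    have h3 : c0 * β' - m' * κ = m * κ * A * θ' := by
      rw [← h2, mul_assoc _ A A, mul_assoc _ (A * A) θ', hθ1, mul_one]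
    have h4 : QA.tr (c0 * β' - m' * κ) = 0 := by
      rw [h3, kpa_tr_comm, ← mul_assoc]
      exact h5b_trA (mul_mem hθ'l (mul_mem hml hκl)) hρl
    rw [map_sub, hβ3', zero_sub, neg_eq_zero] at h4
    exact h4
  refine ⟨m, hm, ?_, ?_⟩
  · unfold perp
    simp only [Submodule.mem_iInf, LinearMap.mem_ker]
    intro κ hκ
    change QA.tr (κ * m) = 0
    rw [kpa_tr_comm]
    exact hmperp κ hκ
  · rw [hβ2, hm'0, zero_mul, add_zero]

end Crest.Agent.KP.Pt
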