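import Crest.Agent.KPH_8ti

/-!
# S0270, part (H): general position lemma GPa (helper52)
-/

set_option autoImplicit false
set_option linter.unusedSectionVars false

open scoped PowerSeries LaurentSeries symmDiff

namespace Crest.Agent.KP.Pt

section lin
variable {K U V V' : Type} [Field K] [AddCommGroup U] [Module K U] [AddCommGroup V] [Module K V]
  [AddCommGroup V'] [Module K V']


/-- The map `Φ(ω)(y) = Σ_p b(u_p)(ω_p)(y)`. -/
def gpaPhi (b : U →ₗ[K] V →ₗ[K] V' →ₗ[K] K) (Ω : Submodule K V) (Y : Submodule K V') {o : ℕ}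
    (u : Fin o → U) : (Fin o → Ω) →ₗ[K] Module.Dual K Y :=
  ∑ p : Fin o, ((b (u p)).compl₂ Y.subtype) ∘ₗ Ω.subtype ∘ₗ LinearMap.proj p

theorem gpaPhi_apply (b : U →ₗ[K] V →ₗ[K] V' →ₗ[K] K) (Ω : Submodule K V) (Y : Submodule K V')
    {o : ℕ} (u : Fin o → U) (w : Fin o → Ω) (y : Y) :
    gpaPhi b Ω Y u w y = ∑ p, b (u p) (w p : V) (y : V') := by
  unfold gpaPhi
  rw [LinearMap.sum_apply, LinearMap.sum_apply]
  rfl

theorem gpaPhi_inj (b : U →ₗ[K] V →ₗ[K] V' →ₗ[K] K) (Us : Submodule K U)
    [FiniteDimensional K Us]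
    (Ω : Submodule K V) [FiniteDimensional K Ω] (Y : Submodule K V')
    (h : TI b Us Ω Y) {o : ℕ} (u : Module.Basis (Fin o) K Us) :
    Function.Injective (gpaPhi b Ω Y (fun p => (u p : U))) := by
  rw [injective_iff_map_eq_zero]
  intro w hw
  let e := Module.finBasis K Ω
  have hexp : ∀ p, (w p : V) = ∑ q, e.repr (w p) q • (e q : V) := by
    intro p
    conv_lhs => rw [← e.sum_repr (w p)]
    rw [Submodule.coe_sum]
    rfl
  have hc := h _ (fun q => (e q : V)) (fun q => ∑ p, e.repr (w p) q • (u p : U))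
    (fun q => (e q).2)
    (by
      have := e.linearIndependent.map' Ω.subtype (Submodule.ker_subtype Ω)
      exact this)
    (fun q => Submodule.sum_mem _ fun p _ => Submodule.smul_mem _ _ (u p).2)
    (by
      intro v hv
      have h1 : gpaPhi b Ω Y (fun p => (u p : U)) w ⟨v, hv⟩ = 0 := by rw [hw]; rfl
      rw [gpaPhi_apply] at h1
      rw [← h1]
      simp only [map_sum, map_smul, LinearMap.sum_apply, LinearMap.smul_apply]
      rw [Finset.sum_comm]
      refine Finset.sum_congr rfl fun p _ => ?_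
      conv_rhs => rw [hexp p]
      simp only [map_sum, map_smul, LinearMap.sum_apply, LinearMap.smul_apply])
  have hz : ∀ q p, e.repr (w p) q = 0 := by
    intro q p
    have h2 := hc q
    have h3 : ∑ p, e.repr (w p) q • u p = 0 := by
      apply Subtype.ext
      rw [Submodule.coe_sum]
      exact h2
    exact (Fintype.linearIndependent_iff.1 u.linearIndependent) _ h3 p
  funext p
  apply Subtype.ext
  rw [hexp p]
  simp [hz]

/-- GPa. If `Y' ≤ Y` has codimension `≤ κ` then the injectivity holds for `Y'` on a subspace `Ω' ≤ Ω`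
of codimension `≤ κ * dim Us`.
Proof: basis `u_1..u_o` of `Us`; `N = {(ω_p)_p ∈ Ω^o | Σ_p b(u_p)(ω_p) = 0 on Y'}`; the map
`N → (Y/Y')^*`, `(ω_p) ↦ Σ_p b(u_p)(ω_p)|_Y`, is injective (`TI` on `Y`: expand an element of `Ω^o` in
a basis of `Ω`), so `dim N ≤ κ`; `S = Σ_p proj_p(N)` has dimension `≤ κ o`; `Ω'` = a complement of `S`
in `Ω`. If `ω_i ∈ Ω'` are independent and `Σ_i b(c_i)(ω_i) = 0` on `Y'`, `c_i = Σ_p c_ip u_p`, then
`(Σ_i c_ip ω_i)_p ∈ N`, so these vectors lie in `S ⊓ Ω' = ⊥` and all `c_ip = 0`. -/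
theorem kph_GPa (b : U →ₗ[K] V →ₗ[K] V' →ₗ[K] K) (Us : Submodule K U) [FiniteDimensional K Us]
    (Ω : Submodule K V) [FiniteDimensional K Ω] (Y Y' : Submodule K V') [FiniteDimensional K Y]
    (hY : Y' ≤ Y) (κ : ℕ) (hκ : Module.finrank K Y ≤ Module.finrank K Y' + κ)
    (h : TI b Us Ω Y) :
    ∃ Ω' : Submodule K V, Ω' ≤ Ω ∧
      Module.finrank K Ω ≤ Module.finrank K Ω' + κ * Module.finrank K Us ∧ TI b Us Ω' Y' := by
  classical
  let u := Module.finBasis K Us
  set o := Module.finrank K Us with ho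
  let Φ := gpaPhi b Ω Y (fun p => (u p : U))
  have hΦ : Function.Injective Φ := gpaPhi_inj b Us Ω Y h u
  have : FiniteDimensional K Y' := Submodule.finiteDimensional_of_le hY
  let ρ : Module.Dual K Y →ₗ[K] Module.Dual K Y' := (Submodule.inclusion hY).dualMap
  have hρ : Function.Surjective ρ :=
    LinearMap.dualMap_surjective_of_injective (Submodule.inclusion_injective hY)
  let N : Submodule K (Fin o → Ω) := LinearMap.ker (ρ ∘ₗ Φ)
  have hkerρ : Module.finrank K (LinearMap.ker ρ) ≤ κ := by
    have h1 := LinearMap.finrank_range_add_finrank_ker ρ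
    rw [LinearMap.range_eq_top.2 hρ, finrank_top, Subspace.dual_finrank_eq,
      Subspace.dual_finrank_eq] at h1
    omega
  have hN : Module.finrank K N ≤ κ := by
    refine le_trans ?_ hkerρ
    let f : N →ₗ[K] LinearMap.ker ρ :=
      LinearMap.codRestrict (LinearMap.ker ρ) (Φ ∘ₗ N.subtype) (fun x => x.2)
    refine LinearMap.finrank_le_finrank_of_injective (f := f) ?_
    intro x y hxy
    have := congrArg Subtype.val hxy
    exact Subtype.ext (hΦ this)
  -- the sum of the projections
  let T : (Fin o → N) →ₗ[K] Ω := ∑ p : Fin o, (LinearMap.proj p) ∘ₗ N.subtype ∘ₗ LinearMap.proj p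
  have hTapply : ∀ x, T x = ∑ p, (x p : Fin o → Ω) p := by
    intro x
    simp only [T, LinearMap.sum_apply]
    rfl
  let S : Submodule K Ω := LinearMap.range T
  have hS : Module.finrank K S ≤ κ * o := by
    refine le_trans (LinearMap.finrank_range_le T) ?_
    rw [Module.finrank_pi_fintype]
    simp only [Finset.sum_const, Finset.card_univ, Fintype.card_fin, smul_eq_mul]
    rw [mul_comm]
    exact Nat.mul_le_mul_right _ hN
  have hSmem : ∀ n ∈ N, ∀ p, n p ∈ S := by
    intro n hn p
    refine ⟨Pi.single p ⟨n, hn⟩, ?_⟩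
    rw [hTapply]
    rw [Finset.sum_eq_single p]
    · rw [Pi.single_eq_same]
    · intro q _ hq
      rw [Pi.single_eq_of_ne hq]
      rfl
    · intro hp
      exact absurd (Finset.mem_univ p) hp
  obtain ⟨C, hC⟩ := Submodule.exists_isCompl S
  refine ⟨C.map Ω.subtype, ?_, ?_, ?_⟩
  · exact Submodule.map_subtype_le _ _
  · rw [Submodule.finrank_map_subtype_eq]
    have h1 := Submodule.finrank_add_eq_of_isCompl hC
    omega
  · intro n ω c hω hli hc hz
    have hω' : ∀ i, ∃ x : Ω, x ∈ C ∧ (x : V) = ω i := fun i => by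
      obtain ⟨x, hx, hxe⟩ := hω i
      exact ⟨x, hx, hxe⟩
    choose x hxC hxe using hω'
    let a : Fin n → Fin o → K := fun i p => u.repr ⟨c i, hc i⟩ p
    have hca : ∀ i, c i = ∑ p, a i p • (u p : U) := by
      intro i
      have h1 := u.sum_repr ⟨c i, hc i⟩
      have h2 := congrArg Subtype.val h1
      rw [Submodule.coe_sum] at h2
      exact h2.symm
    let w : Fin o → Ω := fun p => ∑ i, a i p • x i
    have hw : w ∈ N := by
      rw [LinearMap.mem_ker]
      ext y
      have h1 := hz y.1 y.2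
      change Φ w (Submodule.inclusion hY y) = 0
      rw [gpaPhi_apply, ← h1]
      change ∑ p, b (u p : U) ((∑ i, a i p • x i : Ω) : V) (y : V') = _
      simp only [Submodule.coe_sum, Submodule.coe_smul, hxe, map_sum, map_smul,
        LinearMap.sum_apply, LinearMap.smul_apply]
      rw [Finset.sum_comm]
      refine Finset.sum_congr rfl fun i _ => ?_
      conv_rhs => rw [hca i]
      simp only [map_sum, map_smul, LinearMap.sum_apply, LinearMap.smul_apply]
    have hw0 : ∀ p, w p = 0 := by
      intro p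
      have h1 : w p ∈ S := hSmem w hw p
      have h2 : w p ∈ C := Submodule.sum_mem _ fun i _ => Submodule.smul_mem _ _ (hxC i)
      have h3 : w p ∈ S ⊓ C := ⟨h1, h2⟩
      rw [hC.inf_eq_bot] at h3
      exact (Submodule.mem_bot K).1 h3
    have ha : ∀ i p, a i p = 0 := by
      intro i p
      have h1 : ∑ i, a i p • ω i = 0 := by
        have h2 := congrArg Subtype.val (hw0 p)
        change ((∑ i, a i p • x i : Ω) : V) = 0 at h2
        simp only [Submodule.coe_sum, Submodule.coe_smul, hxe] at h2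
        exact h2
      exact (Fintype.linearIndependent_iff.1 hli) _ h1 i
    intro i
    rw [hca i]
    simp [ha]

end lin

end Crest.Agent.KP.Pt
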