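import Crest.Agent.KPH_8ti

/-!
# S0270, part (H): generic choice (helper52)
-/

set_option autoImplicit false
set_option linter.unusedSectionVars false

open scoped PowerSeries LaurentSeries symmDiff

namespace Crest.Agent.KP.Pt

section lin
variable {K U V V' : Type} [Field K] [AddCommGroup U] [Module K U] [AddCommGroup V] [Module K V]
  [AddCommGroup V'] [Module K V']


/-- First component of the map used in `kph_choose`. -/
def chooseL1 (b : U →ₗ[K] V →ₗ[K] V' →ₗ[K] K) (Us : Submodule K U) (Y : Submodule K V') {t : ℕ}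
    (v : Fin t → V) : (Fin t → Us) →ₗ[K] Module.Dual K Y :=
  ∑ i : Fin t, (((b.flip (v i)).compl₂ Y.subtype) ∘ₗ Us.subtype ∘ₗ LinearMap.proj i)

theorem chooseL1_apply (b : U →ₗ[K] V →ₗ[K] V' →ₗ[K] K) (Us : Submodule K U)
    (Y : Submodule K V') {t : ℕ} (v : Fin t → V) (c : Fin t → Us) (y : Y) :
    chooseL1 b Us Y v c y = ∑ i, b (c i : U) (v i) (y : V') := by
  unfold chooseL1
  rw [LinearMap.sum_apply, LinearMap.sum_apply]
  rfl

/-- Second component of the map used in `kph_choose`. -/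
def chooseL2 (N : Submodule K V) {t : ℕ} (v : Fin t → V) : (Fin t → K) →ₗ[K] V ⧸ N :=
  N.mkQ ∘ₗ (∑ i : Fin t, (LinearMap.toSpanSingleton K V (v i)) ∘ₗ LinearMap.proj i)

theorem chooseL2_apply (N : Submodule K V) {t : ℕ} (v : Fin t → V) (μ : Fin t → K) :
    chooseL2 N v μ = N.mkQ (∑ i, μ i • v i) := by
  unfold chooseL2
  rw [LinearMap.comp_apply, LinearMap.sum_apply]
  rfl

/-- Generic choice. `TI b Us Ω Y`, `Ω ⊓ N = ⊥`, `t ≤ dim Ω`; `p_i` arbitrary. Then there are
`ω_i ∈ Ω` such that the family `v_i = p_i + ω_i` satisfies: `Σ_i b(c_i)(v_i) = 0` on `Y`, `c_i ∈ Us`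
implies `c_i = 0`; `Σ μ_i v_i ∈ N` implies `μ = 0`.
Proof: `ω'_i` independent in `Ω`; apply `kph_generic` to the maps `A, B` from
`(Fin t → Us) × (Fin t → K)` to `(Y →ₗ K) × (V ⧸ N)`, `A (c,μ) = (Σ b(c_i)(ω'_i), Σ μ_i ω'_i)`,
`B (c,μ) = (Σ b(c_i)(p_i), Σ μ_i p_i)`: `A + τ B` is injective for some `τ ≠ 0`;
take `ω_i = τ⁻¹ ω'_i`. -/
theorem kph_choose [CharZero K] (b : U →ₗ[K] V →ₗ[K] V' →ₗ[K] K) (Us : Submodule K U)
    [FiniteDimensional K Us] (Ω N : Submodule K V) [FiniteDimensional K Ω] (Y : Submodule K V')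
    (h : TI b Us Ω Y) (hN : Ω ⊓ N = ⊥) (t : ℕ) (ht : t ≤ Module.finrank K Ω) (p : Fin t → V) :
    ∃ ω : Fin t → V, (∀ i, ω i ∈ Ω) ∧
      (∀ c : Fin t → U, (∀ i, c i ∈ Us) → (∀ v ∈ Y, ∑ i, b (c i) (p i + ω i) v = 0) →
        ∀ i, c i = 0) ∧
      ∀ μ : Fin t → K, ∑ i, μ i • (p i + ω i) ∈ N → ∀ i, μ i = 0 := by
  classical
  let e := Module.finBasis K Ω
  let ω' : Fin t → V := fun i => (e (Fin.castLE ht i) : V)
  have hω'mem : ∀ i, ω' i ∈ Ω := fun i => (e (Fin.castLE ht i)).2
  have hω'li : LinearIndependent K ω' := by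
    have h1 := (e.linearIndependent.comp _ (Fin.castLE_injective ht)).map' Ω.subtype
      (Submodule.ker_subtype Ω)
    exact h1
  let A := (chooseL1 b Us Y ω').prodMap (chooseL2 N ω')
  let B := (chooseL1 b Us Y p).prodMap (chooseL2 N p)
  have hA : Function.Injective A := by
    rw [injective_iff_map_eq_zero]
    rintro ⟨c, μ⟩ hcμ
    have h1 : chooseL1 b Us Y ω' c = 0 := congrArg Prod.fst hcμ
    have h2 : chooseL2 N ω' μ = 0 := congrArg Prod.snd hcμ
    have hc : c = 0 := by
      have h3 := h t ω' (fun i => (c i : U)) hω'mem hω'li (fun i => (c i).2)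
        (fun v hv => by
          have h4 := congrArg (fun f => f ⟨v, hv⟩) h1
          simp only [chooseL1_apply] at h4
          exact h4)
      funext i
      exact Subtype.ext (h3 i)
    have hμ : μ = 0 := by
      rw [chooseL2_apply, Submodule.mkQ_apply, Submodule.Quotient.mk_eq_zero] at h2
      have h3 : ∑ i, μ i • ω' i ∈ Ω ⊓ N :=
        ⟨Submodule.sum_mem _ fun i _ => Submodule.smul_mem _ _ (hω'mem i), h2⟩
      rw [hN] at h3
      have h4 := (Submodule.mem_bot K).1 h3
      funext i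
      exact (Fintype.linearIndependent_iff.1 hω'li) _ h4 i
    rw [hc, hμ]
    rfl
  obtain ⟨τ, hτ, hinj⟩ := kph_generic A B hA
  rw [injective_iff_map_eq_zero] at hinj
  refine ⟨fun i => τ⁻¹ • ω' i, fun i => Submodule.smul_mem _ _ (hω'mem i), ?_, ?_⟩
  · intro c hc hz
    have h1 := hinj (fun i => ⟨c i, hc i⟩, 0) (by
      refine Prod.ext ?_ ?_
      · change chooseL1 b Us Y ω' (fun i => ⟨c i, hc i⟩) +
          τ • chooseL1 b Us Y p (fun i => ⟨c i, hc i⟩) = 0
        ext y
        rw [LinearMap.add_apply, LinearMap.smul_apply, chooseL1_apply, chooseL1_apply]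
        have h2 := hz y.1 y.2
        have h3 : τ * ∑ i, b (c i) (p i + τ⁻¹ • ω' i) (y : V') = 0 := by rw [h2, mul_zero]
        rw [LinearMap.zero_apply, ← h3, smul_eq_mul, Finset.mul_sum, Finset.mul_sum,
          ← Finset.sum_add_distrib]
        refine Finset.sum_congr rfl fun i _ => ?_
        simp only [map_add, map_smul, LinearMap.add_apply, LinearMap.smul_apply, smul_eq_mul]
        field_simp
        ring
      · change chooseL2 N ω' 0 + τ • chooseL2 N p 0 = 0
        simp)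
    intro i
    have h2 := congrArg (fun x => (x.1 i : U)) h1
    exact h2
  · intro μ hμ
    have h1 := hinj (0, μ) (by
      refine Prod.ext ?_ ?_
      · change chooseL1 b Us Y ω' 0 + τ • chooseL1 b Us Y p 0 = 0
        simp
      · change chooseL2 N ω' μ + τ • chooseL2 N p μ = 0
        rw [chooseL2_apply, chooseL2_apply, ← map_smul, ← map_add, Submodule.mkQ_apply,
          Submodule.Quotient.mk_eq_zero]
        have h2 : ∑ i, μ i • ω' i + τ • ∑ i, μ i • p i
            = τ • ∑ i, μ i • (p i + τ⁻¹ • ω' i) := by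
          rw [Finset.smul_sum, Finset.smul_sum, ← Finset.sum_add_distrib]
          refine Finset.sum_congr rfl fun i _ => ?_
          rw [smul_add, smul_add, smul_comm τ (μ i) (τ⁻¹ • ω' i), smul_smul τ τ⁻¹,
            mul_inv_cancel₀ hτ, one_smul, add_comm]
        rw [h2]
        exact Submodule.smul_mem _ _ hμ)
    intro i
    have h2 := congrArg (fun x => x.2 i) h1
    exact h2

end lin

end Crest.Agent.KP.Pt
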