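import Crest.Agent.KPH_1
import Crest.Agent.KPC_State

/-!
# S0270, part (H): subspaces InnS, ker Θ, dimension of mulE (helper52)
-/

set_option autoImplicit false
set_option linter.unusedSectionVars false

open scoped PowerSeries LaurentSeries symmDiff

namespace Crest.Agent.KP.Pt

variable {K I J : Type} [Field K] [KF K] [Fintype I] [Fintype J]
variable {s : Pt K I J} {w : NC K I} {d t : ℕ} {T : I → QA K⟦X⟧} {w1 w2 : I → QA K} {a ρ : QA K}


/-- The subspace `InnS`. -/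
theorem kph_InnS_sub (s : Pt K I J) (w1 w2 : I → QA K) :
    ∃ N : Submodule K (I → QA K), ∀ v, v ∈ N ↔ s.InnS w1 w2 v := by
  refine ⟨{ carrier := {v | s.InnS w1 w2 v}, add_mem' := ?_, zero_mem' := ?_, smul_mem' := ?_ },
    fun v => Iff.rfl⟩
  · rintro v v' ⟨η, hη, ξ, hξ, hx, hy⟩ ⟨η', hη', ξ', hξ', hx', hy'⟩
    refine ⟨η + η', add_mem hη hη', ξ + ξ', add_mem hξ hξ', ?_, ?_⟩
    · rw [Pi.add_apply, hx, hx']; noncomm_ring
    · rw [Pi.add_apply, hy, hy']; noncomm_ring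
  · exact ⟨0, zero_mem _, 0, zero_mem _, by simp, by simp⟩
  · rintro c v ⟨η, hη, ξ, hξ, hx, hy⟩
    refine ⟨c • η, Subalgebra.smul_mem _ hη c, c • ξ, Subalgebra.smul_mem _ hξ c, ?_, ?_⟩
    · rw [Pi.smul_apply, hx]
      simp only [smul_add, smul_sub, mul_smul_comm, smul_mul_assoc]
    · rw [Pi.smul_apply, hy]
      simp only [smul_add, smul_sub, mul_smul_comm, smul_mul_assoc]

private theorem kph8c_Th_add_c (s : Pt K I J) (w1 w2 : I → QA K) (c c' : J → QA K) (ξ : QA K)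
    (η : I → QA K) :
    s.Th w1 w2 (c + c') ξ η = s.Th w1 w2 c ξ η + s.Th w1 w2 c' ξ η := by
  unfold Pt.Th
  rw [← Finset.sum_add_distrib]
  refine Finset.sum_congr rfl fun j _ => ?_
  rw [Pi.add_apply, add_mul, add_mul, map_add]

private theorem kph8c_Th_smul_c (s : Pt K I J) (w1 w2 : I → QA K) (a : K) (c : J → QA K) (ξ : QA K)
    (η : I → QA K) : s.Th w1 w2 (a • c) ξ η = a * s.Th w1 w2 c ξ η := by
  unfold Pt.Th
  rw [Finset.mul_sum]
  refine Finset.sum_congr rfl fun j _ => ?_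
  rw [Pi.smul_apply, smul_mul_assoc, smul_mul_assoc, map_smul, smul_eq_mul]

/-- `η ↦ (c ↦ Th c ξ η)` -/
private noncomputable def kph8c_thL (s : Pt K I J) (w1 w2 : I → QA K) (ξ : QA K) :
    (I → QA K) →ₗ[K] Module.Dual K s.U :=
  LinearMap.mk₂ K (fun (η : I → QA K) (c : s.U) => s.Th w1 w2 c ξ η)
    (fun η η' c => KC.Th_add s w1 w2 c ξ η η')
    (fun a η c => KC.Th_smul s w1 w2 c ξ a η)
    (fun η c c' => kph8c_Th_add_c s w1 w2 c c' ξ η)
    (fun a η c => kph8c_Th_smul_c s w1 w2 a c ξ η)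

private theorem kph8c_thL_apply (s : Pt K I J) (w1 w2 : I → QA K) (ξ : QA K) (η : I → QA K)
    (c : s.U) : kph8c_thL s w1 w2 ξ η c = s.Th w1 w2 c ξ η := rfl

/-- `ker Θ` as a subspace; codimension `≤ 3 o` in `mulE k Wt` for every `Wt ≤ W`. -/
theorem kph_KerTh_sub (s : Pt K I J) (hg : s.Good) (w1 w2 : I → QA K)
    (Wt : Submodule K (I → QA K)) (hW : Wt ≤ s.W) :
    ∃ Y : Submodule K (I → QA K), (∀ v, v ∈ Y ↔ (v ∈ mulE s.k Wt ∧ s.KerTh w1 w2 v)) ∧
      Module.finrank K (mulE s.k Wt) ≤ Module.finrank K Y + 3 * s.o := by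
  have hfW : FiniteDimensional K s.W := KC.finite_W s hg
  have hfWt : FiniteDimensional K Wt := Submodule.finiteDimensional_of_le hW
  have hfE : FiniteDimensional K (mulE s.k Wt) := KC.finite_mulE s.k Wt
  have hfU : FiniteDimensional K s.U := KC.finite_U s
  have hmono : mulE s.k Wt ≤ mulE s.k s.W := KC.mulE_mono s.k _ _ hW
  let Λ : (mulE s.k Wt) →ₗ[K] (Module.Dual K s.U × Module.Dual K s.U × Module.Dual K s.U) :=
    ((kph8c_thL s w1 w2 (S1 s.k)).comp (mulE s.k Wt).subtype).prod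
      (((kph8c_thL s w1 w2 (S2 s.k)).comp (mulE s.k Wt).subtype).prod
        ((kph8c_thL s w1 w2 (S3 s.k)).comp (mulE s.k Wt).subtype))
  have hΛ : ∀ v : mulE s.k Wt, Λ v = (kph8c_thL s w1 w2 (S1 s.k) v,
    kph8c_thL s w1 w2 (S2 s.k) v, kph8c_thL s w1 w2 (S3 s.k) v) := fun _ => rfl
  refine ⟨(LinearMap.ker Λ).map (mulE s.k Wt).subtype, fun v => ?_, ?_⟩
  · rw [Submodule.mem_map]
    constructor
    · rintro ⟨u, hu, rfl⟩
      rw [LinearMap.mem_ker, hΛ] at hu
      have h1 := (Prod.ext_iff.1 hu).1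
      have h2 := (Prod.ext_iff.1 (Prod.ext_iff.1 hu).2).1
      have h3 := (Prod.ext_iff.1 (Prod.ext_iff.1 hu).2).2
      refine ⟨u.2, hmono u.2, fun c hc => ⟨?_, ?_, ?_⟩⟩
      · exact LinearMap.congr_fun h1 ⟨c, hc⟩
      · exact LinearMap.congr_fun h2 ⟨c, hc⟩
      · exact LinearMap.congr_fun h3 ⟨c, hc⟩
    · rintro ⟨hv, hk⟩
      refine ⟨⟨v, hv⟩, ?_, rfl⟩
      rw [LinearMap.mem_ker, hΛ]
      refine Prod.ext ?_ (Prod.ext ?_ ?_)
      · exact LinearMap.ext fun c => (hk.2 c c.2).1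
      · exact LinearMap.ext fun c => (hk.2 c c.2).2.1
      · exact LinearMap.ext fun c => (hk.2 c c.2).2.2
  · have h1 := LinearMap.finrank_range_add_finrank_ker Λ
    have h2 : Module.finrank K ((LinearMap.ker Λ).map (mulE s.k Wt).subtype) =
        Module.finrank K (LinearMap.ker Λ) :=
      (Submodule.equivMapOfInjective _ (Submodule.subtype_injective _) _).finrank_eq.symm
    have h3 : Module.finrank K (LinearMap.range Λ) ≤ 3 * s.o := by
      refine (Submodule.finrank_le _).trans ?_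
      rw [Module.finrank_prod, Module.finrank_prod, Subspace.dual_finrank_eq]
      have : s.o = Module.finrank K s.U := rfl
      omega
    rw [h2]
    omega

/-- `dim mulE k Ω = 4 dim Ω`. -/
theorem kph_finrank_mulE (k : ℕ) (Ω : Submodule K (I → QA K))
    (hΩ : ∀ v ∈ Ω, ∀ i, v i ∈ lev K k) :
    Module.finrank K (mulE k Ω) = 4 * Module.finrank K Ω := by
  have hfΩ : FiniteDimensional K Ω := KC.finite_of_lev k Ω hΩ
  exact KC.finrank_mulE k Ω hΩ

end Crest.Agent.KP.Pt
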