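import Crest.Agent.KPH_8c
import Crest.Agent.KPC_Rich

/-!
# S0270, part (H): TInj on mulE; inner elements of mulE Ω (helper52)
-/

set_option autoImplicit false
set_option linter.unusedSectionVars false

open scoped PowerSeries LaurentSeries symmDiff

namespace Crest.Agent.KP.Pt

variable {K I J : Type} [Field K] [KF K] [Fintype I] [Fintype J]
variable {s : Pt K I J} {w : NC K I} {d t : ℕ} {T : I → QA K⟦X⟧} {w1 w2 : I → QA K} {a ρ : QA K}


/-- `Ω ⊗ U → W0^*` injective implies `mulE Ω ⊗ U → (mulE W0)^*` injective: for `c ∈ U`,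
`v = Σ v_b S_b`, `v' = Σ v'_b S_b` one has `B c v v' = Σ_b (S_b²) B c v_b v'_b`
(`tr(S_b S_b') = 0` for `b ≠ b'`). Independent `ω_i = Σ_b ω_ib S_b ∈ mulE Ω`: expand the `ω_ib` in a basis of
`Ω`. -/
theorem kph_TInj_mulE (s : Pt K I J) (hg : s.Good) (Ω Wt : Submodule K (I → QA K))
    (hΩ : Ω ≤ s.W) (hW : Wt ≤ s.W) (h : s.TInj Ω Wt) :
    s.TInj (mulE s.k Ω) (mulE s.k Wt) := by
  classical
  rw [KC.TInj_iff] at h ⊢
  rw [KC.TI_iff_basis (Module.finBasis K s.U)] at h ⊢
  intro ω hω hs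
  choose v hv hv' using fun j => (KC.mem_mulE s.k Ω (ω j)).1 (hω j)
  have hX := hg.Xlev
  have hvl : ∀ j b i, v j b i ∈ lev K s.k := fun j b i => KC.W_lev s hg _ (hΩ (hv j b)) i
  have key : ∀ (w : Fin 4 → (I → QA K)), (∀ b, w b ∈ Wt) →
      ∑ j, s.B (Module.finBasis K s.U j : J → QA K) (ω j) (KC.comb s.k w) = 0 := by
    intro w hw
    have h1 := LinearMap.congr_fun hs (⟨KC.comb s.k w, (KC.mem_mulE s.k Wt _).2 ⟨w, hw, rfl⟩⟩ :
      (mulE s.k Wt : Submodule K (I → QA K)))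
    rw [LinearMap.sum_apply] at h1
    exact h1
  have key2 : ∀ (w : Fin 4 → (I → QA K)), (∀ b, w b ∈ Wt) →
      ∑ j, (s.B (Module.finBasis K s.U j : J → QA K) (v j 0) (w 0) +
        al s.k * s.B (Module.finBasis K s.U j : J → QA K) (v j 1) (w 1) +
        be s.k * s.B (Module.finBasis K s.U j : J → QA K) (v j 2) (w 2) -
        al s.k * be s.k * s.B (Module.finBasis K s.U j : J → QA K) (v j 3) (w 3)) = 0 := by
    intro w hw
    rw [← key w hw]
    refine Finset.sum_congr rfl fun j _ => ?_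
    rw [hv' j, KC.B_comb s hX _ (fun j' => KC.U_lev s _ (Module.finBasis K s.U j).2 j') (v j) w (hvl j)
      (fun b i => KC.W_lev s hg _ (hW (hw b)) i)]
  have hal : (al s.k : K) ≠ 0 := KF.al_ne s.k
  have hbe : (be s.k : K) ≠ 0 := KF.be_ne s.k
  have hB0 : ∀ (c : J → QA K) (u : I → QA K), s.B c u 0 = 0 := by
    intro c u
    rw [← KC.Bl_apply, map_zero]
  have fin : ∀ b, (∀ w ∈ Wt, ∑ j, s.B (Module.finBasis K s.U j : J → QA K) (v j b) w = 0) →
      ∀ j, v j b = 0 := by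
    intro b hb
    apply h (fun j => v j b) (fun j => hv j b)
    ext w
    rw [LinearMap.sum_apply]
    exact hb w w.2
  have z : ∀ b j, v j b = 0 := by
    intro b
    apply fin b
    intro w hw
    have hw' : ∀ b', (Pi.single b w : Fin 4 → (I → QA K)) b' ∈ Wt := by
      intro b'
      by_cases hb : b' = b
      · subst hb
        rw [Pi.single_eq_same]
        exact hw
      · rw [Pi.single_eq_of_ne hb]
        exact Wt.zero_mem
    have h2 := key2 (Pi.single b w) hw'
    fin_cases b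
    · have e0 : (Pi.single (0 : Fin 4) w : Fin 4 → (I → QA K)) 0 = w := Pi.single_eq_same _ _
      have e1 : (Pi.single (0 : Fin 4) w : Fin 4 → (I → QA K)) 1 = 0 :=
        Pi.single_eq_of_ne (by decide) _
      have e2 : (Pi.single (0 : Fin 4) w : Fin 4 → (I → QA K)) 2 = 0 :=
        Pi.single_eq_of_ne (by decide) _
      have e3 : (Pi.single (0 : Fin 4) w : Fin 4 → (I → QA K)) 3 = 0 :=
        Pi.single_eq_of_ne (by decide) _
      simp only [Fin.zero_eta] at h2
      rw [e0, e1, e2, e3] at h2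
      simp only [hB0, mul_zero, add_zero, sub_zero] at h2
      exact h2
    · have e0 : (Pi.single (1 : Fin 4) w : Fin 4 → (I → QA K)) 0 = 0 :=
        Pi.single_eq_of_ne (by decide) _
      have e1 : (Pi.single (1 : Fin 4) w : Fin 4 → (I → QA K)) 1 = w := Pi.single_eq_same _ _
      have e2 : (Pi.single (1 : Fin 4) w : Fin 4 → (I → QA K)) 2 = 0 :=
        Pi.single_eq_of_ne (by decide) _
      have e3 : (Pi.single (1 : Fin 4) w : Fin 4 → (I → QA K)) 3 = 0 :=
        Pi.single_eq_of_ne (by decide) _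
      simp only [Fin.mk_one] at h2
      rw [e0, e1, e2, e3] at h2
      simp only [hB0, mul_zero, add_zero, sub_zero, zero_add, ← Finset.mul_sum] at h2
      exact (mul_eq_zero.1 h2).resolve_left hal
    · have e0 : (Pi.single (2 : Fin 4) w : Fin 4 → (I → QA K)) 0 = 0 :=
        Pi.single_eq_of_ne (by decide) _
      have e1 : (Pi.single (2 : Fin 4) w : Fin 4 → (I → QA K)) 1 = 0 :=
        Pi.single_eq_of_ne (by decide) _
      have e2 : (Pi.single (2 : Fin 4) w : Fin 4 → (I → QA K)) 2 = w := Pi.single_eq_same _ _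
      have e3 : (Pi.single (2 : Fin 4) w : Fin 4 → (I → QA K)) 3 = 0 :=
        Pi.single_eq_of_ne (by decide) _
      simp only [Fin.reduceFinMk] at h2
      rw [e0, e1, e2, e3] at h2
      simp only [hB0, mul_zero, add_zero, sub_zero, zero_add, ← Finset.mul_sum] at h2
      exact (mul_eq_zero.1 h2).resolve_left hbe
    · have e0 : (Pi.single (3 : Fin 4) w : Fin 4 → (I → QA K)) 0 = 0 :=
        Pi.single_eq_of_ne (by decide) _
      have e1 : (Pi.single (3 : Fin 4) w : Fin 4 → (I → QA K)) 1 = 0 :=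
        Pi.single_eq_of_ne (by decide) _
      have e2 : (Pi.single (3 : Fin 4) w : Fin 4 → (I → QA K)) 2 = 0 :=
        Pi.single_eq_of_ne (by decide) _
      have e3 : (Pi.single (3 : Fin 4) w : Fin 4 → (I → QA K)) 3 = w := Pi.single_eq_same _ _
      simp only [Fin.reduceFinMk] at h2
      rw [e0, e1, e2, e3] at h2
      simp only [hB0, mul_zero, add_zero, zero_sub, zero_add, Finset.sum_neg_distrib,
        ← Finset.mul_sum, neg_eq_zero] at h2
      exact (mul_eq_zero.1 h2).resolve_left (mul_ne_zero hal hbe)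
  intro j
  rw [hv' j]
  funext i
  simp [KC.comb, z]

/-- `dim (mulE Ω ⊓ InnS) ≤ 3` if no nonzero element of `Ω` is inner (`InnXY`):
modulo `Inn ⊗ E` the space `InnS` has dimension `≤ 3` (`ξ` modulo scalars); if
`v = Σ v_b S_b ∈ mulE Ω` is `[X,η]` on `x,y` with `η = Σ η_b S_b ∈ lev (k+1)`, then each `v_b` is `InnXY`, so
`v_b = 0`. -/
theorem kph_InnS_dim (s : Pt K I J) (hg : s.Good) (w1 w2 : I → QA K)
    (Ω : Submodule K (I → QA K)) (hΩ : Ω ≤ s.W) (hI : ∀ v ∈ Ω, s.InnXY v → v = 0)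
    (N : Submodule K (I → QA K)) (hN : ∀ v, v ∈ N ↔ s.InnS w1 w2 v) :
    Module.finrank K (mulE s.k Ω ⊓ N : Submodule K (I → QA K)) ≤ 3 := by
  have hle : (mulE s.k Ω ⊓ N : Submodule K (I → QA K)) ≤ mulE s.k Ω ⊓ KC.InnE s w1 w2 := by
    refine inf_le_inf_left _ fun v hv => ?_
    obtain ⟨η, hη, ξ, hξ, hx, hy⟩ := (hN v).1 hv
    obtain ⟨a, ha, rfl⟩ := KC.exists_decomp s.k ξ (kpa_mid_le_lev _ _ hξ)
    have hX := hg.Xlev
    have hsub : ∀ {u v : QA K}, u ∈ lev K s.k → v ∈ lev K s.k → u * v - v * u ∈ lev K s.k :=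
      fun hu hv => (lev K s.k).sub_mem ((lev K s.k).mul_mem hu hv) ((lev K s.k).mul_mem hv hu)
    have hc : ∀ i, s.X i * (a 0 + a 1 * S1 s.k + a 2 * S2 s.k + a 3 * S3 s.k) =
          (a 0 + a 1 * S1 s.k + a 2 * S2 s.k + a 3 * S3 s.k) * s.X i :=
      fun i => kpa_lev_mid_comm (hX i) hξ
    have hcomm : ∀ i, ∀ b, s.X i * a b - a b * s.X i = 0 := by
      intro i
      refine KC.decomp_unique s.k (fun b => s.X i * a b - a b * s.X i)
        (fun b => hsub (hX i) (ha b)) ?_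
      have e := hc i
      have e1 := KC.comm_S1 s.k _ (hX i)
      have e2 := KC.comm_S2 s.k _ (hX i)
      have e3 := KC.comm_S3 s.k _ (hX i)
      simp only [mul_add, add_mul, mul_assoc, ← e1, ← e2, ← e3] at e
      simp only [sub_mul, mul_assoc]
      rw [← sub_eq_zero] at e
      rw [← e]
      abel
    have hsc : ∀ b, ∃ c : K, a b = algebraMap K (QA K) c := fun b =>
      hg.g3 (a b) (ha b) (sub_eq_zero.1 (hcomm s.x b)).symm
        (sub_eq_zero.1 (hcomm s.y b)).symm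
    choose c hcs using hsc
    refine ⟨η, hη, c 1, c 2, c 3, ?_⟩
    have hT : ∀ i, s.T1v w1 w2 i * (a 0 + a 1 * S1 s.k + a 2 * S2 s.k + a 3 * S3 s.k) -
        (a 0 + a 1 * S1 s.k + a 2 * S2 s.k + a 3 * S3 s.k) * s.T1v w1 w2 i =
        (w1 i * S1 s.k + w2 i * S2 s.k) * (c 1 • S1 s.k + c 2 • S2 s.k + c 3 • S3 s.k) -
        (c 1 • S1 s.k + c 2 • S2 s.k + c 3 • S3 s.k) * (w1 i * S1 s.k + w2 i * S2 s.k) := by
      intro i
      have h0 : ∀ (r : K) (u : QA K), algebraMap K (QA K) r * u = r • u := fun r u =>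
        (Algebra.smul_def r u).symm
      rw [hcs 0, hcs 1, hcs 2, hcs 3, h0, h0, h0]
      show (w1 i * S1 s.k + w2 i * S2 s.k) * _ - _ * (w1 i * S1 s.k + w2 i * S2 s.k) = _
      generalize w1 i * S1 s.k + w2 i * S2 s.k = t
      have h1 := Algebra.commutes (c 0) t
      rw [add_assoc, add_assoc, mul_add, add_mul, ← add_assoc (c 1 • (S1 s.k : QA K)), h1]
      abel
    rintro i (rfl | rfl)
    · rw [hx, hT]
    · rw [hy, hT]
  have hf : FiniteDimensional K (mulE s.k Ω ⊓ KC.InnE s w1 w2 : Submodule K (I → QA K)) := by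
    have hW := KC.finite_W s hg
    have hΩf : FiniteDimensional K Ω := Submodule.finiteDimensional_of_le hΩ
    have hEf : FiniteDimensional K (mulE s.k Ω) := KC.finite_mulE s.k Ω
    exact Submodule.finiteDimensional_of_le inf_le_left
  exact (Submodule.finrank_mono hle).trans (KC.finrank_inf_InnE s hg w1 w2 Ω hΩ hI)

end Crest.Agent.KP.Pt
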