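import Crest.Agent.KPH_1b
import Crest.Agent.KPH_8a
import Crest.Agent.KPH_8b
import Crest.Agent.KPH_8c
import Crest.Agent.KPH_8d
import Crest.Agent.KPC_Alg

/-!
# S0270, part (H): choice of the family (helper52)
-/

set_option autoImplicit false
set_option linter.unusedSectionVars false

open scoped PowerSeries LaurentSeries symmDiff

namespace Crest.Agent.KP.Pt

variable {K I J : Type} [Field K] [KF K] [Fintype I] [Fintype J]
variable {s : Pt K I J} {w : NC K I} {d t : ℕ} {T : I → QA K⟦X⟧} {w1 w2 : I → QA K} {a ρ : QA K}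

theorem kph8_U_fin (s : Pt K I J) : FiniteDimensional K s.U := by
  apply KC.finite_of_lev s.k
  intro v hv j
  have h1 := hv.1
  unfold AJ at h1
  rw [Submodule.mem_pi] at h1
  exact h1 j (Set.mem_univ j)

/-- The family. From `h.rich`: `Ω ≤ W0`, `10 (o+1)² (t+2) ≤ dim Ω`. `Ω_E = mulE Ω`, `Y0` =
`kph_KerTh_sub` for `Wt = W0`. `kph_TInj_mulE`, `kph_GPa` (`κ = 3 o`) give `Ω1 ≤ Ω_E` of dimension
`≥ 4 dim Ω - 3 o²`; intersect with `ker Θ` (`-3 o`) and take a complement of the intersection with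
`InnS` (`-3`). `p_i` = `kph_realize` with `(0,0,0,a lam_i)`, `kph_choose`; `kph_realize_zero`. -/
theorem kph_family (h : s.Pkg4 w d t T w1 w2 a ρ) (lam : Fin t → QA K)
    (hlam : ∀ i, lam i ∈ s.RR w a) :
    ∃ v0 : Fin t → (I → QA K), s.HFam w t w1 w2 a lam v0 := by
  have : CharZero K := KF.char0
  obtain ⟨Ω, hΩ, hdim, hT, hI⟩ := h.rich
  have hg := h.good
  have hW0 : s.W0 w ≤ s.W := inf_le_left
  have hlevW : ∀ v ∈ s.W, ∀ i, v i ∈ lev K s.k := fun v hv i => hg.V1lev v (hg.V0V1 hv.1) i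
  have hΩW : Ω ≤ s.W := hΩ.trans hW0
  have fU : FiniteDimensional K s.U := kph8_U_fin s
  have fΩ : FiniteDimensional K Ω :=
    KC.finite_of_lev s.k Ω (fun v hv i => hlevW v (hΩW hv) i)
  have fW0 : FiniteDimensional K (s.W0 w) :=
    KC.finite_of_lev s.k (s.W0 w) (fun v hv i => hlevW v (hW0 hv) i)
  have fWE : FiniteDimensional K (mulE s.k (s.W0 w)) := KC.finite_mulE s.k (s.W0 w)
  have fΩE : FiniteDimensional K (mulE s.k Ω) := KC.finite_mulE s.k Ω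
  have hTE := kph_TInj_mulE s hg Ω (s.W0 w) hΩW hW0 hT
  obtain ⟨Y0, hY0, hY0d⟩ := kph_KerTh_sub s hg w1 w2 (s.W0 w) hW0
  obtain ⟨YW, hYW, -⟩ := kph_KerTh_sub s hg w1 w2 s.W le_rfl
  obtain ⟨N, hN⟩ := kph_InnS_sub s w1 w2
  have hY0le : Y0 ≤ mulE s.k (s.W0 w) := fun v hv => ((hY0 v).1 hv).1
  have hΩEle : mulE s.k Ω ≤ mulE s.k (s.W0 w) := KC.mulE_mono s.k Ω (s.W0 w) hΩ
  obtain ⟨Ω1, hΩ1, hΩ1d, hΩ1T⟩ := kph_GPa s.kphB s.U (mulE s.k Ω) (mulE s.k (s.W0 w)) Y0 hY0le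
    (3 * s.o) hY0d hTE
  have hNd := kph_InnS_dim s hg w1 w2 Ω hΩW hI N hN
  have hfd := kph_finrank_mulE s.k Ω (fun v hv i => hlevW v (hΩW hv) i)
  -- Ω2
  have fY0 : FiniteDimensional K Y0 := Submodule.finiteDimensional_of_le hY0le
  have fΩ1 : FiniteDimensional K Ω1 := Submodule.finiteDimensional_of_le hΩ1
  have e1 := Submodule.finrank_sup_add_finrank_inf_eq Ω1 Y0
  have e2 : Module.finrank K (Ω1 ⊔ Y0 : Submodule K (I → QA K)) ≤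
      Module.finrank K (mulE s.k (s.W0 w)) :=
    Submodule.finrank_mono (sup_le (hΩ1.trans hΩEle) hY0le)
  have fΩ2 : FiniteDimensional K (Ω1 ⊓ Y0 : Submodule K (I → QA K)) :=
    Submodule.finiteDimensional_inf_left Ω1 Y0
  -- complement
  obtain ⟨C, hC⟩ := Submodule.exists_isCompl (Ω1 ⊓ Y0 ⊓ N)
  have hmod : Ω1 ⊓ Y0 ⊓ N ⊔ (C ⊓ (Ω1 ⊓ Y0)) = Ω1 ⊓ Y0 := by
    rw [← sup_inf_assoc_of_le C (inf_le_left : Ω1 ⊓ Y0 ⊓ N ≤ Ω1 ⊓ Y0), hC.sup_eq_top, top_inf_eq]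
  have hdis : Ω1 ⊓ Y0 ⊓ N ⊓ (C ⊓ (Ω1 ⊓ Y0)) = ⊥ := by
    have := hC.inf_eq_bot
    rw [eq_bot_iff, ← this]
    exact inf_le_inf le_rfl inf_le_left
  have hle3 : C ⊓ (Ω1 ⊓ Y0) ≤ Ω1 ⊓ Y0 := inf_le_right
  have fΩ3 : FiniteDimensional K (C ⊓ (Ω1 ⊓ Y0) : Submodule K (I → QA K)) :=
    Submodule.finiteDimensional_of_le hle3
  have fN2 : FiniteDimensional K (Ω1 ⊓ Y0 ⊓ N : Submodule K (I → QA K)) :=
    Submodule.finiteDimensional_of_le (inf_le_left : Ω1 ⊓ Y0 ⊓ N ≤ Ω1 ⊓ Y0)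
  have e3 := Submodule.finrank_sup_add_finrank_inf_eq (Ω1 ⊓ Y0 ⊓ N) (C ⊓ (Ω1 ⊓ Y0))
  rw [hmod, hdis, finrank_bot] at e3
  have e4 : Module.finrank K (Ω1 ⊓ Y0 ⊓ N : Submodule K (I → QA K)) ≤
      Module.finrank K (mulE s.k Ω ⊓ N : Submodule K (I → QA K)) := by
    have : FiniteDimensional K (mulE s.k Ω ⊓ N : Submodule K (I → QA K)) :=
      Submodule.finiteDimensional_inf_left _ _
    exact Submodule.finrank_mono (inf_le_inf (inf_le_left.trans hΩ1) le_rfl)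
  have hN3 : C ⊓ (Ω1 ⊓ Y0) ⊓ N = ⊥ := by
    rw [eq_bot_iff, ← hdis]
    intro v hv
    have hv' := Submodule.mem_inf.1 hv
    have hv2 := Submodule.mem_inf.1 hv'.1
    exact Submodule.mem_inf.2 ⟨Submodule.mem_inf.2 ⟨hv2.2, hv'.2⟩, hv'.1⟩
  have ht : t ≤ Module.finrank K (C ⊓ (Ω1 ⊓ Y0) : Submodule K (I → QA K)) := by
    have hoU : Module.finrank K s.U = s.o := rfl
    rw [hoU] at hΩ1d
    nlinarith [sq_nonneg (s.o : ℤ), Nat.zero_le (s.o * s.o * t), Nat.zero_le (s.o * t)]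
  have hT3 : TI s.kphB s.U (C ⊓ (Ω1 ⊓ Y0)) Y0 := by
    intro n ω c hω
    exact hΩ1T n ω c (fun i => (hle3 (hω i)).1)
  -- realize
  have hp : ∀ i, ∃ v, s.KerTh w1 w2 v ∧
      Pr (s.k + 1) {s.omg w} (w.d1 s.X v) = a * lam i * S3 s.k := by
    intro i
    obtain ⟨v, hv1, hv2⟩ := kph_realize h 0 0 0 (a * lam i) (zero_mem _) (zero_mem _)
      (zero_mem _) (hlam i).2
    refine ⟨v, hv1, ?_⟩
    rw [hv2, zero_mul, zero_mul, zero_add, zero_add, zero_add]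
  choose p hp1 hp2 using hp
  obtain ⟨ω, hω1, hω2, hω3⟩ := kph_choose s.kphB s.U (C ⊓ (Ω1 ⊓ Y0)) N Y0 hT3 hN3 t ht p
  have hωY : ∀ i, ω i ∈ mulE s.k (s.W0 w) ∧ s.KerTh w1 w2 (ω i) := fun i =>
    (hY0 _).1 (hle3 (hω1 i)).2
  refine ⟨fun i => p i + ω i, ⟨?_, ?_, ?_, ?_⟩⟩
  · intro i
    have h1 : p i ∈ YW := (hYW _).2 ⟨(hp1 i).1, hp1 i⟩
    have h2 : ω i ∈ YW := (hYW _).2 ⟨(hωY i).2.1, (hωY i).2⟩
    exact ((hYW _).1 (add_mem h1 h2)).2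
  · intro i
    rw [NC.d1_add, map_add, hp2, kph_realize_zero h (ω i) (hωY i).1, add_zero]
  · intro c hc hv
    refine hω2 c hc ?_
    intro v hvY
    have h1 := (hY0 v).1 hvY
    exact hv v h1.2 (kph_realize_zero h v h1.1)
  · intro μ hμ
    exact hω3 μ ((hN _).2 hμ)

end Crest.Agent.KP.Pt
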