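import Crest.Agent.KPH_Base

/-!
# S0270, part (H): definition of TI (helper52)
-/

set_option autoImplicit false
set_option linter.unusedSectionVars false

open scoped PowerSeries LaurentSeries symmDiff

namespace Crest.Agent.KP.Pt

section lin
variable {K U V V' : Type} [Field K] [AddCommGroup U] [Module K U] [AddCommGroup V] [Module K V]
  [AddCommGroup V'] [Module K V']


/-- `Ω ⊗ Us → Y^*` is injective (general bilinear version of `Pt.TInj`). -/
def TI (b : U →ₗ[K] V →ₗ[K] V' →ₗ[K] K) (Us : Submodule K U) (Ω : Submodule K V)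
    (Y : Submodule K V') : Prop :=
  ∀ (n : ℕ) (ω : Fin n → V) (c : Fin n → U),
    (∀ i, ω i ∈ Ω) → LinearIndependent K ω → (∀ i, c i ∈ Us) →
    (∀ v ∈ Y, ∑ i, b (c i) (ω i) v = 0) → ∀ i, c i = 0

end lin

end Crest.Agent.KP.Pt
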