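import Crest.Agent.KPH_NC

/-!
# S0270, part (H), general linear algebra: generic parameter, TInj from a spanning family
-/

set_option autoImplicit false
set_option linter.unusedSectionVars false

open scoped PowerSeries LaurentSeries symmDiff

namespace Crest.Agent.KP

/-- If `A` is injective (finite-dimensional source) then `A + τ B` is injective for some `τ ≠ 0`. -/
theorem kph_generic {K V V' : Type} [Field K] [CharZero K] [AddCommGroup V] [Module K V]
    [FiniteDimensional K V] [AddCommGroup V'] [Module K V'] (A B : V →ₗ[K] V')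
    (hA : Function.Injective A) : ∃ τ : K, τ ≠ 0 ∧ Function.Injective (A + τ • B) := by
  obtain ⟨A', hA'⟩ := A.exists_leftInverse_of_injective (LinearMap.ker_eq_bot.2 hA)
  -- `f τ = det (1 + τ A' B)` is a polynomial in `τ`, nonzero at `0`
  let M : Module.End K V := A' ∘ₗ B
  have hfin : {μ : K | Module.End.HasEigenvalue M μ}.Finite := Module.End.finite_hasEigenvalue M
  have hfin2 : ({μ : K | Module.End.HasEigenvalue M μ} ∪ {0}).Finite := hfin.union (Set.finite_singleton 0)
  obtain ⟨μ, hμ⟩ := hfin2.exists_notMem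
  rw [Set.mem_union, not_or] at hμ
  have hμ0 : μ ≠ 0 := fun h => hμ.2 h
  refine ⟨-μ⁻¹, neg_ne_zero.2 (inv_ne_zero hμ0), ?_⟩
  rw [injective_iff_map_eq_zero]
  intro v hv
  have h1 : A' ((A + (-μ⁻¹) • B) v) = 0 := by rw [hv, map_zero]
  rw [LinearMap.add_apply, LinearMap.smul_apply, map_add, map_smul] at h1
  have h2 : A' (A v) = v := LinearMap.congr_fun hA' v
  rw [h2] at h1
  by_contra hne
  apply hμ.1
  apply Module.End.hasEigenvalue_of_hasEigenvector (x := v)
  rw [Module.End.hasEigenvector_iff, Module.End.mem_eigenspace_iff]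
  refine ⟨?_, hne⟩
  change A' (B v) = μ • v
  have h3 : v = μ⁻¹ • A' (B v) := by
    rw [neg_smul] at h1
    exact eq_of_sub_eq_zero (by rw [sub_eq_add_neg]; exact h1)
  rw [h3, smul_smul, mul_inv_cancel₀ hμ0, one_smul, ← h3]

/-! ### linearity of the form `B` -/

namespace Pt

variable {K I J : Type} [Field K] [KF K] [Fintype I] [Fintype J]

theorem kph_B_add_c (s : Pt K I J) (c c' : J → QA K) (v w : I → QA K) :
    s.B (c + c') v w = s.B c v w + s.B c' v w := by
  unfold B
  rw [← Finset.sum_add_distrib]
  refine Finset.sum_congr rfl fun j _ => ?_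
  rw [Pi.add_apply, add_mul, map_add]

theorem kph_B_smul_c (s : Pt K I J) (a : K) (c : J → QA K) (v w : I → QA K) :
    s.B (a • c) v w = a * s.B c v w := by
  unfold B
  rw [Finset.mul_sum]
  refine Finset.sum_congr rfl fun j _ => ?_
  rw [Pi.smul_apply, smul_mul_assoc, map_smul, smul_eq_mul]

theorem kph_B_add_v (s : Pt K I J) (c : J → QA K) (v v' w : I → QA K) :
    s.B c (v + v') w = s.B c v w + s.B c v' w := by
  unfold B
  rw [← Finset.sum_add_distrib]
  refine Finset.sum_congr rfl fun j _ => ?_
  rw [NC.kph_d2_add_left, mul_add, map_add]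

theorem kph_B_smul_v (s : Pt K I J) (a : K) (c : J → QA K) (v w : I → QA K) :
    s.B c (a • v) w = a * s.B c v w := by
  unfold B
  rw [Finset.mul_sum]
  refine Finset.sum_congr rfl fun j _ => ?_
  rw [NC.kph_d2_smul_left, mul_smul_comm, map_smul, smul_eq_mul]

theorem kph_B_add_w (s : Pt K I J) (c : J → QA K) (v w w' : I → QA K) :
    s.B c v (w + w') = s.B c v w + s.B c v w' := by
  unfold B
  rw [← Finset.sum_add_distrib]
  refine Finset.sum_congr rfl fun j _ => ?_
  rw [NC.kph_d2_add_right, mul_add, map_add]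

theorem kph_B_smul_w (s : Pt K I J) (a : K) (c : J → QA K) (v w : I → QA K) :
    s.B c v (a • w) = a * s.B c v w := by
  unfold B
  rw [Finset.mul_sum]
  refine Finset.sum_congr rfl fun j _ => ?_
  rw [NC.kph_d2_smul_right, mul_smul_comm, map_smul, smul_eq_mul]

/-- the form `B` as a trilinear map -/
noncomputable def kphB (s : Pt K I J) :
    (J → QA K) →ₗ[K] (I → QA K) →ₗ[K] (I → QA K) →ₗ[K] K :=
  LinearMap.mk₂ K (fun c v =>
    ({ toFun := fun w => s.B c v w
       map_add' := fun w w' => s.kph_B_add_w c v w w'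
       map_smul' := fun a w => s.kph_B_smul_w a c v w } : (I → QA K) →ₗ[K] K))
    (fun c c' v => LinearMap.ext fun w => s.kph_B_add_c c c' v w)
    (fun a c v => LinearMap.ext fun w => s.kph_B_smul_c a c v w)
    (fun c v v' => LinearMap.ext fun w => s.kph_B_add_v c v v' w)
    (fun a c v => LinearMap.ext fun w => s.kph_B_smul_v a c v w)

theorem kphB_apply (s : Pt K I J) (c : J → QA K) (v w : I → QA K) : s.kphB c v w = s.B c v w := rfl

/-- `TInj` from one spanning family. -/
theorem kph_TInj_of_family (s : Pt K I J) {t : ℕ} (u : Fin t → (I → QA K))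
    (Wt : Submodule K (I → QA K))
    (h : ∀ c : Fin t → (J → QA K), (∀ i, c i ∈ s.U) →
      (∀ v ∈ Wt, ∑ i, s.B (c i) (u i) v = 0) → ∀ i, c i = 0) :
    s.TInj (Submodule.span K (Set.range u)) Wt := by
  classical
  intro n ω c hω hli hc hB
  -- coefficients
  have h1 : ∀ i, ∃ m : Fin t → K, ∑ j, m j • u j = ω i := fun i =>
    (Submodule.mem_span_range_iff_exists_fun K).1 (hω i)
  choose m hm using h1
  let c' : Fin t → (J → QA K) := fun j => ∑ i, m i j • c i
  have h2 : ∀ j, c' j = 0 := by
    refine h c' (fun j => Submodule.sum_mem _ fun i _ => Submodule.smul_mem _ _ (hc i)) ?_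
    intro v hv
    rw [← hB v hv]
    simp only [← kphB_apply, c', map_sum, map_smul, LinearMap.sum_apply, LinearMap.smul_apply]
    rw [Finset.sum_comm]
    refine Finset.sum_congr rfl fun i _ => ?_
    rw [← hm i]
    simp only [map_sum, map_smul, LinearMap.sum_apply, LinearMap.smul_apply]
  -- `m` has independent rows
  have h3 : LinearIndependent K m := by
    rw [Fintype.linearIndependent_iff]
    intro g hg
    rw [Fintype.linearIndependent_iff] at hli
    apply hli
    have : ∑ i, g i • ω i = ∑ j, (∑ i, g i * m i j) • u j := by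
      simp only [← hm, Finset.smul_sum, Finset.sum_smul, smul_smul]
      rw [Finset.sum_comm]
    rw [this]
    refine Finset.sum_eq_zero fun j _ => ?_
    have h4 := congrFun hg j
    rw [Finset.sum_apply] at h4
    simp only [Pi.smul_apply, smul_eq_mul, Pi.zero_apply] at h4
    rw [h4, zero_smul]
  -- left inverse: functionals `φ_i` on `Fin t → K` with `φ_i (m i') = δ`
  obtain ⟨f, hf⟩ : ∃ f : (Fin t → K) →ₗ[K] (Fin n → K), ∀ i, f (m i) = Pi.single i 1 := by
    let A : (Fin n → K) →ₗ[K] (Fin t → K) := Fintype.linearCombination K m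
    have hA : Function.Injective A := by
      rw [injective_iff_map_eq_zero]
      intro g hg
      rw [Fintype.linearIndependent_iff] at h3
      funext i
      refine h3 g ?_ i
      rw [← hg, Fintype.linearCombination_apply]
    obtain ⟨f, hf⟩ := A.exists_leftInverse_of_injective (LinearMap.ker_eq_bot.2 hA)
    refine ⟨f, fun i => ?_⟩
    have := LinearMap.congr_fun hf (Pi.single i 1)
    rw [LinearMap.comp_apply] at this
    rw [LinearMap.id_apply] at this
    rw [← this]
    congr 1
    rw [Fintype.linearCombination_apply_single, one_smul]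
  intro i
  have h5 : ∀ i', ∑ j, (f (Pi.single j 1) i) * m i' j = if i = i' then 1 else 0 := by
    intro i'
    have h6 : f (m i') i = (Pi.single i' (1 : K) : Fin n → K) i := by rw [hf]
    rw [Pi.single_apply] at h6
    rw [← h6]
    have h7 : m i' = ∑ j, m i' j • (Pi.single j (1 : K) : Fin t → K) := by
      ext j
      simp [Finset.sum_apply, Pi.single_apply]
    conv_rhs => rw [h7, map_sum, Finset.sum_apply]
    refine Finset.sum_congr rfl fun j _ => ?_
    rw [map_smul, Pi.smul_apply, smul_eq_mul, mul_comm]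
  have h8 : c i = ∑ j, (f (Pi.single j 1) i) • c' j := by
    simp only [c', Finset.smul_sum, smul_smul]
    rw [Finset.sum_comm]
    have h9 : ∀ i', ∑ j, ((f (Pi.single j 1) i) * m i' j) • c i' = (if i = i' then (1 : K) else 0) • c i' := by
      intro i'
      rw [← Finset.sum_smul, h5]
    rw [Finset.sum_congr rfl fun i' _ => h9 i']
    simp
  rw [h8]
  refine Finset.sum_eq_zero fun j _ => ?_
  rw [h2, smul_zero]

end Pt

end Crest.Agent.KP
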