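import Crest.Agent.KPD_Defs
import Crest.Agent.KP_C
import Crest.Agent.KPH_Gen
import Crest.Agent.KPB_latS

/-!
# S0270, part (H) (richness of `S⁺` at `s_5`), common definitions (helper52)

Notation: `s = s_4` (over `K`), `s5 = s.grow T` (over `L = K⸨X⸩`), `e5 = s5.ext w.up a5 m0`,
`k = s.k`, `ω = s.omg w`, `Ā = Ab k ρ = S1 + ρ S2`, `P = Place.laurent K`.
`dwv v = w.d1 s.X v`.  `E_ω = Pr (k+1) {ω}`, `E_{ω,Ā} = Pr (k+1) {ω, Ā}`.
-/

set_option autoImplicit false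
set_option linter.unusedSectionVars false

open scoped PowerSeries LaurentSeries symmDiff

namespace Crest.Agent.KP

namespace Pt

variable {K I J : Type} [Field K] [KF K] [Fintype I] [Fintype J]

/-- the first order term `w1 S1 + w2 S2` -/
noncomputable def T1v (s : Pt K I J) (w1 w2 : I → QA K) : I → QA K :=
  fun i => w1 i * S1 s.k + w2 i * S2 s.k

/-- residues of inner elements: `v` is, on the `x,y` components, `[X,η] + [T_1,ξ]` with
`η ∈ lev (k+1)`, `ξ ∈ mid k (k+1)`. -/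
def InnS (s : Pt K I J) (w1 w2 : I → QA K) (v : I → QA K) : Prop :=
  ∃ η ∈ lev K (s.k + 1), ∃ ξ ∈ mid K s.k (s.k + 1),
    v s.x = s.X s.x * η - η * s.X s.x +
      (s.T1v w1 w2 s.x * ξ - ξ * s.T1v w1 w2 s.x) ∧
    v s.y = s.X s.y * η - η * s.X s.y +
      (s.T1v w1 w2 s.y * ξ - ξ * s.T1v w1 w2 s.y)

/-- the family `v_i^0` chosen at level `s_4`; see `kph_family`. -/
structure HFam (s : Pt K I J) (w : NC K I) (t : ℕ) (w1 w2 : I → QA K) (a : QA K)
    (lam : Fin t → QA K) (v0 : Fin t → (I → QA K)) : Prop where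
  ker : ∀ i, s.KerTh w1 w2 (v0 i)
  ell : ∀ i, Pr (s.k + 1) {s.omg w} (w.d1 s.X (v0 i)) = a * lam i * S3 s.k
  inj : ∀ c : Fin t → (J → QA K), (∀ i, c i ∈ s.U) →
    (∀ v, s.KerTh w1 w2 v → Pr (s.k + 1) {s.omg w} (w.d1 s.X v) = 0 →
      ∑ i, s.B (c i) (v0 i) v = 0) → ∀ i, c i = 0
  inn : ∀ μ : Fin t → K, s.InnS w1 w2 (∑ i, μ i • v0 i) → ∀ i, μ i = 0

end Pt

end Crest.Agent.KP
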