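import Crest.Agent.KPH_8
import Crest.Agent.KPH_11
import Crest.Agent.KPC_Alg

/-!
# S0270, part (H): RICH⁺ at `s_5`, assembly (helper52)
-/

set_option autoImplicit false
set_option linter.unusedSectionVars false

open scoped PowerSeries LaurentSeries symmDiff

namespace Crest.Agent.KP.Pt

variable {K I J : Type} [Field K] [KF K] [Fintype I] [Fintype J]

/-- `Ā ≠ 0` (coefficient of `S1` is `1`; `ρ ∈ lev k`). -/
theorem kph_Ab_ne (k : ℕ) (ρ : QA K) (hρ : ρ ∈ lev K k) : Ab k ρ ≠ 0 := by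
  intro h0
  have h1 : QA.tr (Ab k ρ * S1 k) = al k := by
    unfold Ab
    rw [add_mul, map_add, KC.S1_S1, KC.tr_algebraMap, mul_assoc, KC.S2_S1, mul_neg, map_neg,
      KC.tr_S3 k ρ hρ, neg_zero, add_zero]
  rw [h0, zero_mul, map_zero] at h1
  exact KF.al_ne k h1.symm

theorem kph_W_lev {s : Pt K I J} (hg : s.Good) {v : I → QA K} (hv : v ∈ mulE s.k s.W) :
    ∀ i, v i ∈ lev K (s.k + 1) := by
  obtain ⟨x, hx, rfl⟩ := (KC.mem_mulE s.k s.W v).1 hv
  exact fun i => KC.comb_mem_lev s.k x (fun b j => hg.V1lev _ (hg.V0V1 (hx b).1) j) i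

theorem kph_lift_family {s : Pt K I J} {w : NC K I} {d t : ℕ} {T : I → QA K⟦X⟧}
    {w1 w2 : I → QA K} {a ρ : QA K} (h : s.Pkg4 w d t T w1 w2 a ρ) (a5 : QA K⸨X⸩)
    (m0 : Submodule K⸨X⸩ (QA K⸨X⸩)) (lam : Fin t → QA K) (hlam : ∀ i, lam i ∈ s.RR w a)
    (v0 : Fin t → (I → QA K)) (hf : s.HFam w t w1 w2 a lam v0) :
    ∃ u : Fin t → (I ⊕ Bool → QA K⸨X⸩), s.HLift w t T a5 m0 v0 u := by
  have hE : ∀ i, Pr (s.k + 1) ({s.omg w, Ab s.k ρ} : Set (QA K)) (w.d1 s.X (v0 i)) = 0 := by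
    intro i
    have hlev : w.d1 s.X (v0 i) ∈ lev K (s.k + 1) :=
      NC.kph_d1_mem _ w s.X (v0 i) (fun j => KC.lev_mono (Nat.le_succ _) (h.good.Xlev j))
        (kph_W_lev h.good (hf.ker i).1)
    have hL := kph_L_eq h
    have hK1 : s.K1 w ≤ lev K s.k := by
      unfold K1
      rw [Algebra.adjoin_le_iff, Set.singleton_subset_iff]
      exact NC.kph_ev_mem _ w s.X h.good.Xlev
    have h1 : a * lam i ∈ s.K1 w := Subalgebra.mul_mem _ (h.comm hL.2.1) (hL.1 (hlam i).1)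
    have h2 := kph_PrAb h 0 0 0 (a * lam i) (zero_mem _) (zero_mem _) (zero_mem _) h1
    have h3 : (0 : QA K) + 0 * S1 s.k + 0 * S2 s.k + a * lam i * S3 s.k = a * lam i * S3 s.k := by
      simp only [zero_mul, zero_add]
    rw [h3, ← hf.ell i, ← kph_Pr_tower h _ hlev] at h2
    have h4 : (0 : QA K) * Ab s.k ρ + ((al s.k : K) • (0 : QA K) + (be s.k : K) • (ρ * 0)) = 0 := by
      simp only [zero_mul, mul_zero, smul_zero, add_zero]
    rw [h4] at h2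
    rcases KF.dom _ _ h2 with h5 | h5
    · exact h5
    · exact absurd h5 (kph_Ab_ne s.k ρ (hK1 (hL.1 h.rho.1)))
  choose u hu using fun i => kph_lift h a5 m0 (v0 i) (hf.ker i) (hE i)
  exact ⟨u, ⟨fun i => (hu i).1, fun i => (hu i).2.1, fun i => (hu i).2.2.1,
    fun i => (hu i).2.2.2⟩⟩

/-- (H) richness of the extended state. -/
theorem kph_main (s : Pt K I J)
    (w : NC K I) (d t : ℕ) (T : I → QA K⟦X⟧) (w1 w2 : I → QA K) (a ρ : QA K)
    (h : s.Pkg4 w d t T w1 w2 a ρ) (h5 : (s.grow T).Pkg w.up d) (a5 : QA K⸨X⸩)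
    (m0 : Submodule K⸨X⸩ (QA K⸨X⸩)) (hx : (s.grow T).ExtOk w.up a5 m0) :
    ((s.grow T).ext w.up a5 m0).Rich t := by
  obtain ⟨lam, hlam, hlam2⟩ := h.lam
  obtain ⟨v0, hf⟩ := kph_family h lam hlam
  obtain ⟨u, hu⟩ := kph_lift_family h a5 m0 lam hlam v0 hf
  have hli : LinearIndependent K⸨X⸩ u := by
    rw [Fintype.linearIndependent_iff]
    intro g hg
    apply kph_inn h a5 m0 lam v0 hf u hu g
    rw [hg]
    refine ⟨0, zero_mem _, ?_, ?_⟩
    · rw [mul_zero, zero_mul, sub_zero]; rfl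
    · rw [mul_zero, zero_mul, sub_zero]; rfl
  refine ⟨Submodule.span K⸨X⸩ (Set.range u), ?_, ?_, ?_, ?_⟩
  · rw [Submodule.span_le]
    rintro _ ⟨i, rfl⟩
    exact hu.mem i
  · rw [finrank_span_eq_card hli, Fintype.card_fin]
  · exact kph_TInj h h5 a5 m0 hx lam hlam hlam2 v0 hf u hu
  · intro v hv hI
    obtain ⟨μ, rfl⟩ := (Submodule.mem_span_range_iff_exists_fun K⸨X⸩).1 hv
    have h0 := kph_inn h a5 m0 lam v0 hf u hu μ hI
    exact Finset.sum_eq_zero fun i _ => by rw [h0 i, zero_smul]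

end Crest.Agent.KP.Pt
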