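import Crest.Agent.KPR_Rank

/-!
# S0270 : PERT (generic form) (author helper93)
-/

set_option autoImplicit false
set_option linter.unusedSectionVars false

namespace Crest.Agent.KP

section
variable {K A : Type*} [Field K] [Ring A] [Algebra K A]

theorem kpr_tele (e w : A) (j : ℕ) :
    (e + w) ^ j = e ^ j + ∑ i ∈ Finset.range j, e ^ i * w * (e + w) ^ (j - 1 - i) := by
  induction j with
  | zero => simp
  | succ j ih =>
    rw [Finset.sum_range_succ', pow_succ' (e + w) j, add_mul]
    nth_rewrite 1 [ih]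
    rw [mul_add, ← pow_succ', Finset.mul_sum, pow_zero, one_mul]
    have h1 : j + 1 - 1 - 0 = j := by omega
    rw [h1, add_assoc]
    congr 2
    refine Finset.sum_congr rfl fun i hi => ?_
    have hi' := Finset.mem_range.1 hi
    have h2 : j + 1 - 1 - (i + 1) = j - 1 - i := by omega
    rw [h2, pow_succ', mul_assoc, mul_assoc, mul_assoc]

/-- the derivative `Dp(e)[x]` of `p = ∑_{j≤n} a_j X^j` -/
def kprT (a : ℕ → A) (n : ℕ) (e x : A) : A :=
  ∑ j ∈ Finset.range (n + 1), a j * ∑ i ∈ Finset.range j, e ^ i * x * e ^ (j - 1 - i)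

theorem kprT_add (a : ℕ → A) (n : ℕ) (e x y : A) :
    kprT a n e (x + y) = kprT a n e x + kprT a n e y := by
  unfold kprT
  rw [← Finset.sum_add_distrib]
  refine Finset.sum_congr rfl fun j _ => ?_
  rw [← mul_add, ← Finset.sum_add_distrib]
  congr 1
  refine Finset.sum_congr rfl fun i _ => ?_
  rw [mul_add, add_mul]

/-- `Dp(e)[v] = p'(e) v` for `v` commuting with `e` -/
theorem kprT_comm (a : ℕ → A) (n : ℕ) (e v : A) (hv : v * e = e * v) :
    kprT a n e v = (∑ j ∈ Finset.range (n + 1), (j : A) * a j * e ^ (j - 1)) * v := by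
  unfold kprT
  rw [Finset.sum_mul]
  refine Finset.sum_congr rfl fun j _ => ?_
  have h1 : ∀ i ∈ Finset.range j, e ^ i * v * e ^ (j - 1 - i) = e ^ (j - 1) * v := by
    intro i hi
    have hi' := Finset.mem_range.1 hi
    have h2 : v * e ^ (j - 1 - i) = e ^ (j - 1 - i) * v :=
      ((show Commute v e from hv).pow_right _).eq
    rw [mul_assoc, h2, ← mul_assoc, ← pow_add]
    congr 2
    omega
  rw [Finset.sum_congr rfl h1, Finset.sum_const, Finset.card_range, nsmul_eq_mul, ← mul_assoc,
    ← mul_assoc, (Nat.cast_commute j (a j)).eq]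

theorem kprT_commute_e (a : ℕ → A) (n : ℕ) (e x : A)
    (hae : ∀ j, a j * e = e * a j) (hax : ∀ j, a j * x = x * a j)
    (hrel : ∑ j ∈ Finset.range (n + 1), a j * e ^ j = 0) :
    kprT a n e x * e = e * kprT a n e x := by
  unfold kprT
  have h1 : ∀ j, e * (a j * ∑ i ∈ Finset.range j, e ^ i * x * e ^ (j - 1 - i)) -
      (a j * ∑ i ∈ Finset.range j, e ^ i * x * e ^ (j - 1 - i)) * e =
      a j * e ^ j * x - x * (a j * e ^ j) := by
    intro j
    rw [← mul_assoc, ← hae j, mul_assoc (a j) e, mul_assoc (a j) _ e, ← mul_sub, Finset.mul_sum,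
      Finset.sum_mul, ← Finset.sum_sub_distrib]
    have h2 := Finset.sum_range_sub (fun i => e ^ i * x * e ^ (j - i)) j
    have h3 : ∑ i ∈ Finset.range j, (e * (e ^ i * x * e ^ (j - 1 - i)) -
        e ^ i * x * e ^ (j - 1 - i) * e) = e ^ j * x - x * e ^ j := by
      have h4 : ∑ i ∈ Finset.range j, (e * (e ^ i * x * e ^ (j - 1 - i)) -
        e ^ i * x * e ^ (j - 1 - i) * e) = ∑ i ∈ Finset.range j,
          (e ^ (i + 1) * x * e ^ (j - (i + 1)) - e ^ i * x * e ^ (j - i)) := by
        refine Finset.sum_congr rfl fun i hi => ?_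
        have hi' := Finset.mem_range.1 hi
        have h5 : j - i = (j - 1 - i) + 1 := by omega
        have h6 : j - (i + 1) = j - 1 - i := by omega
        rw [h5, h6, pow_succ' e i, pow_succ e (j - 1 - i)]
        simp only [mul_assoc]
      rw [h4, h2]
      simp
    rw [h3, mul_sub, ← mul_assoc, ← mul_assoc, hax j, mul_assoc x]
  have h2 : e * (∑ j ∈ Finset.range (n + 1), a j * ∑ i ∈ Finset.range j,
      e ^ i * x * e ^ (j - 1 - i)) - (∑ j ∈ Finset.range (n + 1), a j *
      ∑ i ∈ Finset.range j, e ^ i * x * e ^ (j - 1 - i)) * e = 0 := by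
    rw [Finset.mul_sum, Finset.sum_mul, ← Finset.sum_sub_distrib,
      Finset.sum_congr rfl (fun j _ => h1 j), Finset.sum_sub_distrib, ← Finset.sum_mul,
      ← Finset.mul_sum, hrel, zero_mul, mul_zero, sub_zero]
  exact (sub_eq_zero.1 h2).symm

variable [NoZeroDivisors A] [Nontrivial A] [CharZero K]

/-- PERT, generic form. -/
theorem kpr_pert_gen (τ : A →ₗ[K] K) (hτ : ∀ x y, τ (x * y) = τ (y * x)) (hτ1 : τ 1 ≠ 0)
    (Φ N : Subalgebra K A) (hN : FiniteDimensional K N) (hΦ : Φ ≤ N)
    (hΦc : ∀ x ∈ Φ, ∀ y ∈ Φ, x * y = y * x) (e u v : A) (heN : e ∈ N) (huN : u ∈ N) (hvN : v ∈ N)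
    (he : ∀ φ ∈ Φ, φ * e = e * φ) (hu : ∀ φ ∈ Φ, φ * u = u * φ) (hv : ∀ φ ∈ Φ, φ * v = v * φ)
    (hve : v * e = e * v)
    (hproj : ∀ d ∈ N, (∀ φ ∈ Φ, d * φ = φ * d) → d * e = e * d → τ ((u - v) * d) = 0)
    (h : {c : K | Module.finrank K ↥(Φ ⊔ Algebra.adjoin K {e + c • u}) ≤
      Module.finrank K ↥(Φ ⊔ Algebra.adjoin K {e})}.Infinite) :
    v ∈ Φ ⊔ Algebra.adjoin K {e} := by
  classical
  obtain ⟨n, a0, hn1, ha0, hrel0, hmin⟩ := kpr_min_rel Φ N hN hΦ e heN
  -- coefficients with leading coefficient one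
  set a : ℕ → A := fun j => if j < n then a0 j else 1 with ha
  have haΦ : ∀ j, a j ∈ Φ := fun j => by
    rw [ha]; beta_reduce
    split_ifs
    · exact ha0 j
    · exact one_mem _
  have han : a n = 1 := by rw [ha]; beta_reduce; rw [if_neg (lt_irrefl n)]
  have hrel : ∑ j ∈ Finset.range (n + 1), a j * e ^ j = 0 := by
    rw [Finset.sum_range_succ, han, one_mul, add_comm, ← hrel0]
    congr 1
    refine Finset.sum_congr rfl fun j hj => ?_
    rw [ha]; beta_reduce
    rw [if_pos (Finset.mem_range.1 hj)]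
  set Ψ : Subalgebra K A := Φ ⊔ Algebra.adjoin K {e} with hΨ
  have hΨN : Ψ ≤ N := kpr_adj_le Φ N e hΦ heN
  have hΦΨ : Φ ≤ Ψ := le_sup_left
  have heΨ : e ∈ Ψ := (le_sup_right : Algebra.adjoin K {e} ≤ Ψ)
    (Algebra.self_mem_adjoin_singleton K e)
  -- step A: `T u ∈ Ψ`
  have hTu : kprT a n e u ∈ Ψ := by
    obtain ⟨m, φ, jj, hφ, hli, hm, hspan⟩ := kpr_basis Φ e he (kpr_fd_of_le _ N hΨN hN)
    let q : K → A := fun c => ∑ j ∈ Finset.range (n + 1), a j *
      ∑ i ∈ Finset.range j, e ^ i * u * (e + c • u) ^ (j - 1 - i)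
    have hq : ∀ c : K, ∑ j ∈ Finset.range (n + 1), a j * (e + c • u) ^ j = c • q c := by
      intro c
      have h1 : ∀ j, a j * (e + c • u) ^ j = a j * e ^ j + c • (a j *
          ∑ i ∈ Finset.range j, e ^ i * u * (e + c • u) ^ (j - 1 - i)) := by
        intro j
        conv_lhs => rw [kpr_tele]
        rw [mul_add, ← mul_smul_comm, Finset.smul_sum]
        congr 2
        refine Finset.sum_congr rfl fun i _ => ?_
        rw [mul_smul_comm, smul_mul_assoc]
      rw [Finset.sum_congr rfl fun j _ => h1 j, Finset.sum_add_distrib, hrel, zero_add,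
        ← Finset.smul_sum]
    have hq0 : q 0 = kprT a n e u := by
      simp only [q, kprT, zero_smul, add_zero]
    have hqP : PolyFam (K := K) q :=
      kpr_polyFam_sum _ _ fun j _ => kpr_polyFam_mul (kpr_polyFam_const _)
        (kpr_polyFam_sum _ _ fun i _ => kpr_polyFam_prod _ e u _)
    let g : Option (Fin m) → K → A := fun o c => match o with
      | none => q c
      | some i => φ i * (e + c • u) ^ jj i
    have hgP : ∀ o, PolyFam (K := K) (g o) := fun o => match o with
      | none => hqP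
      | some i => kpr_polyFam_prod (φ i) e u (jj i)
    have hopen := kpr_linIndep_open (K := K) (fun i c => φ i * (e + c • u) ^ jj i)
      (fun i => kpr_polyFam_prod (φ i) e u (jj i)) 0 (by simpa using hli)
    have hinf : {c : K | ¬ LinearIndependent K (fun o => g o c)}.Infinite := by
      refine ((h.sdiff hopen).sdiff (Set.finite_singleton (0 : K))).mono ?_
      rintro c ⟨⟨hc1, hc2⟩, hc0⟩ hcon
      have hc0' : c ≠ 0 := hc0
      have hli' : LinearIndependent K (fun i => φ i * (e + c • u) ^ jj i) := by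
        by_contra hh
        exact hc2 hh
      rw [linearIndependent_option] at hcon
      apply hcon.2
      -- `q c ∈ Φ[e+cu] = span`
      set Ψc : Subalgebra K A := Φ ⊔ Algebra.adjoin K {e + c • u} with hΨc
      have hecN : e + c • u ∈ N := add_mem heN (N.smul_mem huN c)
      have hfdc : FiniteDimensional K Ψc := kpr_fd_of_le _ N (kpr_adj_le Φ N _ hΦ hecN) hN
      have hecΨ : e + c • u ∈ Ψc := (le_sup_right : Algebra.adjoin K {e + c • u} ≤ Ψc)
        (Algebra.self_mem_adjoin_singleton K _)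
      have hmem : ∀ i, φ i * (e + c • u) ^ jj i ∈ Ψc := fun i =>
        mul_mem ((le_sup_left : Φ ≤ Ψc) (hφ i)) (pow_mem hecΨ _)
      have hqc : q c ∈ Ψc := by
        have h2 : c • q c ∈ Ψc := by
          rw [← hq c]
          exact sum_mem fun j _ => mul_mem ((le_sup_left : Φ ≤ Ψc) (haΦ j)) (pow_mem hecΨ _)
        have h3 := Ψc.smul_mem h2 c⁻¹
        rwa [smul_smul, inv_mul_cancel₀ hc0', one_smul] at h3
      have hspanc : Submodule.span K (Set.range fun i => φ i * (e + c • u) ^ jj i) =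
          Subalgebra.toSubmodule Ψc := by
        haveI : FiniteDimensional K ↥(Subalgebra.toSubmodule Ψc) := hfdc
        refine Submodule.eq_of_le_of_finrank_le ?_ ?_
        · rw [Submodule.span_le]
          rintro _ ⟨i, rfl⟩
          exact hmem i
        · rw [finrank_span_eq_card hli', Fintype.card_fin]
          have h4 : Module.finrank K ↥Ψc ≤ Module.finrank K ↥Ψ := hc1
          rw [← hm] at h4
          exact h4
      change q c ∈ Submodule.span K (Set.range fun i => φ i * (e + c • u) ^ jj i)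
      rw [hspanc]
      exact hqc
    have hclosed := kpr_linDep_closed g hgP hinf 0
    rw [linearIndependent_option] at hclosed
    by_contra hcon
    apply hclosed
    refine ⟨?_, ?_⟩
    · change LinearIndependent K (fun i => φ i * (e + (0 : K) • u) ^ jj i)
      simpa using hli
    · change q 0 ∉ Submodule.span K (Set.range fun i => φ i * (e + (0 : K) • u) ^ jj i)
      rw [hq0]
      simp only [zero_smul, add_zero]
      rw [hspan]
      exact hcon
  -- step B: `T (u - v) = 0`
  have hae : ∀ j, a j * e = e * a j := fun j => he _ (haΦ j)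
  have hTz : kprT a n e (u - v) = 0 := by
    set x := u - v with hx
    have hxN : x ∈ N := sub_mem huN hvN
    have hxΦ : ∀ φ ∈ Φ, φ * x = x * φ := fun φ hφ => by
      rw [hx, mul_sub, sub_mul, hu φ hφ, hv φ hφ]
    have heΦ : ∀ i : ℕ, ∀ φ ∈ Φ, φ * e ^ i = e ^ i * φ := fun i φ hφ =>
      ((show Commute φ e from he φ hφ).pow_right i).eq
    let Z : Subalgebra K A := N ⊓ Subalgebra.centralizer K ((Φ : Set A) ∪ {e})
    have hZmem : ∀ y, y ∈ Z ↔ y ∈ N ∧ (∀ φ ∈ Φ, φ * y = y * φ) ∧ e * y = y * e := by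
      intro y
      constructor
      · rintro ⟨h1, h2⟩
        have h3 := Set.mem_centralizer_iff.1 h2
        exact ⟨h1, fun φ hφ => h3 φ (Or.inl hφ), h3 e (Or.inr rfl)⟩
      · rintro ⟨h1, h2, h3⟩
        refine ⟨h1, Set.mem_centralizer_iff.2 ?_⟩
        rintro m (hm | hm)
        · exact h2 m hm
        · rw [Set.mem_singleton_iff.1 hm]; exact h3
    have hTN : kprT a n e x ∈ N := by
      unfold kprT
      exact sum_mem fun j _ => mul_mem (hΦ (haΦ j)) (sum_mem fun i _ =>
        mul_mem (mul_mem (pow_mem heN _) hxN) (pow_mem heN _))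
    have hTΦ : ∀ φ ∈ Φ, φ * kprT a n e x = kprT a n e x * φ := by
      intro φ hφ
      unfold kprT
      rw [Finset.mul_sum, Finset.sum_mul]
      refine Finset.sum_congr rfl fun j _ => ?_
      rw [← mul_assoc, hΦc φ hφ (a j) (haΦ j), mul_assoc, mul_assoc, Finset.mul_sum,
        Finset.sum_mul]
      congr 1
      refine Finset.sum_congr rfl fun i _ => ?_
      rw [← mul_assoc, ← mul_assoc, heΦ i φ hφ, mul_assoc (e ^ i), hxΦ φ hφ, ← mul_assoc,
        mul_assoc (e ^ i * x), heΦ _ φ hφ, ← mul_assoc]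
    have hTZ : kprT a n e x ∈ Z := by
      rw [hZmem]
      exact ⟨hTN, hTΦ, (kprT_commute_e a n e x hae (fun j => hxΦ _ (haΦ j)) hrel).symm⟩
    by_contra hne
    obtain ⟨y, hy, hy1, -⟩ := kpr_exists_inv Z (kpr_fd_of_le Z N inf_le_left hN) _ hTZ hne
    rw [hZmem] at hy
    apply hτ1
    rw [← hy1]
    unfold kprT
    rw [Finset.sum_mul, map_sum]
    refine Finset.sum_eq_zero fun j _ => ?_
    rw [Finset.mul_sum, Finset.sum_mul, map_sum]
    refine Finset.sum_eq_zero fun i _ => ?_
    have h1 : a j * (e ^ i * x * e ^ (j - 1 - i)) * y =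
        (a j * e ^ i) * (x * (e ^ (j - 1 - i) * y)) := by
      simp only [mul_assoc]
    rw [h1, hτ]
    have h2 : x * (e ^ (j - 1 - i) * y) * (a j * e ^ i) =
        (u - v) * ((e ^ (j - 1 - i) * y) * (a j * e ^ i)) := by
      rw [← hx]; simp only [mul_assoc]
    rw [h2]
    refine hproj _ ?_ ?_ ?_
    · exact mul_mem (mul_mem (pow_mem heN _) hy.1) (mul_mem (hΦ (haΦ j)) (pow_mem heN _))
    · intro φ hφ
      have c1 : Commute φ (e ^ (j - 1 - i)) := heΦ _ φ hφ
      have c2 : Commute φ y := hy.2.1 φ hφ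
      have c3 : Commute φ (a j) := hΦc φ hφ _ (haΦ j)
      have c4 : Commute φ (e ^ i) := heΦ _ φ hφ
      exact ((c1.mul_right c2).mul_right (c3.mul_right c4)).eq.symm
    · have c1 : Commute e (e ^ (j - 1 - i)) := Commute.self_pow e _
      have c2 : Commute e y := hy.2.2
      have c3 : Commute e (a j) := (hae j).symm
      have c4 : Commute e (e ^ i) := Commute.self_pow e _
      exact ((c1.mul_right c2).mul_right (c3.mul_right c4)).eq.symm
  -- step C: conclusion
  set d : A := ∑ j ∈ Finset.range (n + 1), (j : A) * a j * e ^ (j - 1) with hd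
  have hdv : d * v ∈ Ψ := by
    rw [hd, ← kprT_comm a n e v hve]
    have h1 : kprT a n e v = kprT a n e u := by
      have h2 := kprT_add a n e v (u - v)
      rw [hTz, add_zero, add_sub_cancel] at h2
      exact h2.symm
    rw [h1]
    exact hTu
  have hdΨ : d ∈ Ψ := sum_mem fun j _ => mul_mem (mul_mem (natCast_mem Ψ j) (hΦΨ (haΦ j)))
    (pow_mem heΨ _)
  have hd0 : d ≠ 0 := by
    intro h0
    rw [hd, Finset.sum_range_succ'] at h0
    simp only [Nat.cast_zero, zero_mul, add_zero, Nat.add_sub_cancel] at h0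
    have h1 := hmin (fun j => ((j + 1 : ℕ) : A) * a (j + 1))
      (fun j => mul_mem (natCast_mem Φ _) (haΦ _)) h0 (n - 1) (by omega)
    have h2 : n - 1 + 1 = n := by omega
    simp only [h2, han, mul_one] at h1
    have h3 : algebraMap K A (n : K) = 0 := by rw [map_natCast]; exact h1
    have h4 : (n : K) = 0 := (FaithfulSMul.algebraMap_injective K A) (by rw [h3, map_zero])
    have : n = 0 := by exact_mod_cast h4
    omega
  obtain ⟨y, hy, -, hy1⟩ := kpr_exists_inv Ψ (kpr_fd_of_le Ψ N hΨN hN) d hdΨ hd0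
  have h5 := mul_mem hy hdv
  rwa [← mul_assoc, hy1, one_mul] at h5

end

end Crest.Agent.KP
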