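import Mathlib

/-!
# S0270 : polynomial families of vectors, openness of linear independence (author helper93)
-/

set_option autoImplicit false
set_option linter.unusedSectionVars false

open Polynomial

namespace Crest.Agent.KP

section
variable {K E F A : Type*} [Field K] [AddCommGroup E] [Module K E] [AddCommGroup F] [Module K F]
  [Ring A] [Algebra K A]

/-- `g : K → E` is a polynomial family of vectors -/
def PolyFam (g : K → E) : Prop :=
  ∃ (n : ℕ) (a : ℕ → E), ∀ c, g c = ∑ i ∈ Finset.range n, c ^ i • a i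

theorem kpr_polyFam_const (x : E) : PolyFam (K := K) (fun _ => x) :=
  ⟨1, fun _ => x, fun c => by simp⟩

theorem kpr_polyFam_zero : PolyFam (K := K) (fun _ => (0 : E)) := kpr_polyFam_const 0

theorem kpr_polyFam_extend (g : K → E) (n : ℕ) (a : ℕ → E)
    (h : ∀ c, g c = ∑ i ∈ Finset.range n, c ^ i • a i) :
    ∃ a' : ℕ → E, ∀ m, n ≤ m → ∀ c, g c = ∑ i ∈ Finset.range m, c ^ i • a' i := by
  refine ⟨fun i => if i < n then a i else 0, fun m hm c => ?_⟩
  rw [h c]
  rw [← Finset.sum_subset (Finset.range_mono hm)]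
  · refine Finset.sum_congr rfl fun i hi => ?_
    beta_reduce
    rw [if_pos (Finset.mem_range.1 hi)]
  · intro i _ hi
    beta_reduce
    rw [if_neg (fun h => hi (Finset.mem_range.2 h)), smul_zero]

theorem kpr_polyFam_add {g h : K → E} (hg : PolyFam g) (hh : PolyFam h) :
    PolyFam (fun c => g c + h c) := by
  obtain ⟨n, a, ha⟩ := hg
  obtain ⟨m, b, hb⟩ := hh
  obtain ⟨a', ha'⟩ := kpr_polyFam_extend g n a ha
  obtain ⟨b', hb'⟩ := kpr_polyFam_extend h m b hb
  refine ⟨max n m, fun i => a' i + b' i, fun c => ?_⟩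
  beta_reduce
  rw [ha' _ (le_max_left n m) c, hb' _ (le_max_right n m) c, ← Finset.sum_add_distrib]
  exact Finset.sum_congr rfl fun i _ => (smul_add _ _ _).symm

theorem kpr_polyFam_sum {ι : Type*} (s : Finset ι) (g : ι → K → E)
    (h : ∀ i ∈ s, PolyFam (g i)) : PolyFam (fun c => ∑ i ∈ s, g i c) := by
  classical
  induction s using Finset.induction_on with
  | empty => simpa using kpr_polyFam_zero (K := K) (E := E)
  | insert i s hi ih =>
    simp only [Finset.sum_insert hi]
    exact kpr_polyFam_add (h i (Finset.mem_insert_self i s))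
      (ih fun j hj => h j (Finset.mem_insert_of_mem hj))

theorem kpr_polyFam_map (f : E →ₗ[K] F) {g : K → E} (hg : PolyFam g) :
    PolyFam (fun c => f (g c)) := by
  obtain ⟨n, a, ha⟩ := hg
  refine ⟨n, fun i => f (a i), fun c => ?_⟩
  simp only [ha c, map_sum, map_smul]

theorem kpr_polyFam_neg {g : K → E} (hg : PolyFam g) : PolyFam (fun c => -g c) :=
  kpr_polyFam_map (-LinearMap.id) hg

theorem kpr_polyFam_sub {g h : K → E} (hg : PolyFam g) (hh : PolyFam h) :
    PolyFam (fun c => g c - h c) := by
  simp only [sub_eq_add_neg]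
  exact kpr_polyFam_add hg (kpr_polyFam_neg hh)

theorem kpr_polyFam_smul {g : K → E} (hg : PolyFam g) : PolyFam (fun c => c • g c) := by
  obtain ⟨n, a, ha⟩ := hg
  refine ⟨n + 1, fun i => match i with | 0 => 0 | i + 1 => a i, fun c => ?_⟩
  simp only [ha c]
  rw [Finset.sum_range_succ', smul_zero, add_zero, Finset.smul_sum]
  refine Finset.sum_congr rfl fun i _ => ?_
  rw [smul_smul, pow_succ, mul_comm]

theorem kpr_polyFam_pow_smul (m : ℕ) (x : E) : PolyFam (K := K) (fun c => c ^ m • x) := by
  induction m with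
  | zero => simpa using kpr_polyFam_const (K := K) x
  | succ m ih =>
    have := kpr_polyFam_smul ih
    simpa only [smul_smul, ← pow_succ'] using this

theorem kpr_polyFam_mul {g h : K → A} (hg : PolyFam g) (hh : PolyFam h) :
    PolyFam (fun c => g c * h c) := by
  obtain ⟨n, a, ha⟩ := hg
  obtain ⟨m, b, hb⟩ := hh
  simp only [ha, hb, Finset.sum_mul_sum]
  refine kpr_polyFam_sum _ _ fun i _ => kpr_polyFam_sum _ _ fun j _ => ?_
  have : ∀ c : K, c ^ i • a i * c ^ j • b j = c ^ (i + j) • (a i * b j) := fun c => by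
    rw [smul_mul_smul_comm, ← pow_add]
  simp only [this]
  exact kpr_polyFam_pow_smul _ _

theorem kpr_polyFam_pow {g : K → A} (hg : PolyFam g) (n : ℕ) : PolyFam (fun c => g c ^ n) := by
  induction n with
  | zero => simpa using kpr_polyFam_const (K := K) (1 : A)
  | succ n ih => simpa only [pow_succ] using kpr_polyFam_mul ih hg

/-- a scalar polynomial family is given by a polynomial -/
theorem kpr_polyFam_scalar {g : K → K} (hg : PolyFam g) : ∃ p : K[X], ∀ c, g c = p.eval c := by
  obtain ⟨n, a, ha⟩ := hg
  refine ⟨∑ i ∈ Finset.range n, C (a i) * X ^ i, fun c => ?_⟩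
  rw [ha c, eval_finsetSum]
  refine Finset.sum_congr rfl fun i _ => ?_
  rw [eval_mul, eval_C, eval_pow, eval_X, smul_eq_mul, mul_comm]

/-- OPENNESS: a finite family of polynomial vectors which is linearly independent at one point is
linearly independent at all but finitely many points. -/
theorem kpr_linIndep_open {ι : Type*} [Finite ι] (g : ι → K → E) (hg : ∀ i, PolyFam (g i)) (c0 : K)
    (h0 : LinearIndependent K (fun i => g i c0)) :
    {c : K | ¬ LinearIndependent K (fun i => g i c)}.Finite := by
  classical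
  have := Fintype.ofFinite ι
  -- a linear map sending `g i c0` to the standard basis
  obtain ⟨Λ, hΛ⟩ : ∃ Λ : E →ₗ[K] (ι → K), ∀ i, Λ (g i c0) = Pi.single i 1 := by
    let b := Module.Basis.span h0
    obtain ⟨Λ, hΛ⟩ := LinearMap.exists_extend (b.constr K (fun i => (Pi.single i 1 : ι → K)))
    refine ⟨Λ, fun i => ?_⟩
    have h1 := LinearMap.congr_fun hΛ (b i)
    rw [Module.Basis.constr_basis] at h1
    rw [← h1]
    change Λ (g i c0) = Λ ((b i : Submodule.span K (Set.range fun i => g i c0)) : E)
    congr 1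
    exact (congrArg Subtype.val (Module.Basis.span_apply h0 i)).symm
  have hp : ∀ i j, ∃ p : K[X], ∀ c, Λ (g i c) j = p.eval c := fun i j =>
    kpr_polyFam_scalar (kpr_polyFam_map ((LinearMap.proj j).comp Λ) (hg i))
  choose p hp using hp
  let M : Matrix ι ι K[X] := Matrix.of p
  have hdet : ∀ c, (M.det).eval c = Matrix.det (Matrix.of fun i j => Λ (g i c) j) := fun c => by
    rw [← Polynomial.coe_evalRingHom, RingHom.map_det]
    congr 1
    ext i j
    simp [M, hp i j c]
  have h1 : (M.det).eval c0 = 1 := by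
    rw [hdet]
    have : (Matrix.of fun i j => Λ (g i c0) j) = (1 : Matrix ι ι K) := by
      ext i j
      rw [Matrix.of_apply, hΛ i, Matrix.one_apply, Pi.single_apply]
      simp only [eq_comm]
    rw [this, Matrix.det_one]
  have hM : M.det ≠ 0 := by
    intro h
    rw [h] at h1
    simp at h1
  refine (Polynomial.rootSet_finite M.det K).subset fun c hc => ?_
  rw [Polynomial.mem_rootSet]
  refine ⟨hM, ?_⟩
  rw [Polynomial.coe_aeval_eq_eval]
  by_contra hne
  apply hc
  have h2 : LinearIndependent K (Matrix.of fun i j => Λ (g i c) j) := by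
    rw [hdet] at hne
    exact Matrix.linearIndependent_rows_of_det_ne_zero hne
  exact LinearIndependent.of_comp Λ h2

/-- CLOSEDNESS: dependent at infinitely many points implies dependent everywhere -/
theorem kpr_linDep_closed {ι : Type*} [Finite ι] (g : ι → K → E) (hg : ∀ i, PolyFam (g i))
    (h : {c : K | ¬ LinearIndependent K (fun i => g i c)}.Infinite) (c0 : K) :
    ¬ LinearIndependent K (fun i => g i c0) :=
  fun h0 => h (kpr_linIndep_open g hg c0 h0)

end

end Crest.Agent.KP
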