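import Crest.Agent.KP_C
import Crest.Agent.KP_Defs4
import Crest.Agent.KPA_Fin
import Crest.Agent.KPA_Pr
import Crest.Agent.KPB_latS
import Crest.Agent.KPB_D2
import Crest.Agent.KPH_NC

/-!
# S0270 : Lemma S, file 0 : facts used from the other parts (helper76)
-/

set_option autoImplicit false
set_option linter.unusedSectionVars false

open scoped PowerSeries LaurentSeries symmDiff

namespace Crest.Agent.KP.KS

theorem bb_tr_comm {K : Type} [Field K] [KF K] (u v : QA K) : QA.tr (u * v) = QA.tr (v * u) :=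
  kpa_tr_comm u v

theorem bb_tr_one {K : Type} [Field K] [KF K] : QA.tr (1 : QA K) = 1 := kpa_tr_one

/-- inverses in subalgebras of `lev K k` -/
theorem bb_inv {K : Type} [Field K] [KF K] (k : ℕ) (B : Subalgebra K (QA K)) (hB : B ≤ lev K k)
    (u : QA K) (hu : u ∈ B) (h0 : u ≠ 0) : ∃ v ∈ B, u * v = 1 ∧ v * u = 1 := by
  have := kpa_fd_of_le' hB
  exact kpa_inv hu h0

/-- (D2) projections and residues -/
theorem bb_D2 {K L : Type} [Field K] [KF K] [Field L] [KF L] (P : Place K L) (k : ℕ)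
    (Φ : Subalgebra L (QA L)) (hΦ : Φ ≤ lev L k) {u : QA L} (hu : u ∈ lev L k) (hi : P.Int u) :
    P.Int (Pr k (Φ : Set (QA L)) u) ∧
      P.rq (Pr k (Φ : Set (QA L)) u) = Pr k (P.resA Φ : Set (QA K)) (P.rq u) := by
  have hres : P.resA Φ ≤ lev K k := by
    rintro _ ⟨v, hv, -, rfl⟩
    exact P.rq_lev (hΦ hv)
  have hnd : ∀ c ∈ CenA k (P.resA Φ : Set (QA K)), c ≠ 0 →
      ∃ d ∈ CenA k (P.resA Φ : Set (QA K)), QA.tr (c * d) ≠ 0 := by
    intro c hc hc0
    by_contra hcon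
    push Not at hcon
    have hc' : c ∈ cenA k (P.resA Φ : Set (QA K)) := mem_cenA.2 (mem_CenA.1 hc)
    exact hc0 (kpa_sub_nondeg hc' fun d hd => hcon d (mem_CenA.2 (mem_cenA.1 hd)))
  have hC : P.resA (CenA k (Φ : Set (QA L))) = CenA k (P.resA Φ : Set (QA K)) := by
    refine P.resA_CenA_aux k Φ hΦ (kpa_fd_lev k) (kpa_fd_lev k) ?_ ?_
    · exact kpa_finrank_cenA hΦ
    · exact kpa_finrank_cenA hres
  obtain ⟨h1, h2⟩ := P.D2_aux k Φ hC hnd hi (Pr_spec k (Φ : Set (QA L)) u hu)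
  exact ⟨h1, (kpa_Pr_eq (P.rq_lev hu) h2).symm⟩

end Crest.Agent.KP.KS
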