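import Crest.Agent.KPS_D

/-!
# S0270 : Lemma S, file 5 : the abstract core (helper76)
-/

set_option autoImplicit false
set_option linter.unusedSectionVars false

open scoped PowerSeries LaurentSeries symmDiff

namespace Crest.Agent.KP.KS

theorem LL_le_lev {K I J : Type} [Field K] [KF K] [Fintype I] [Fintype J] {s : Pt K I J}
    (hg : s.Good) (w : NC K I) : s.LL w ≤ Subalgebra.toSubmodule (lev K s.k) := by
  rintro _ ⟨v, hv, rfl⟩
  have h1 : v ∈ s.V0 := hv.1
  have h2 : ∀ i, v i ∈ lev K s.k := hg.V1lev v (hg.V0V1 h1)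
  exact pr_mem (NC.kph_d1_mem (lev K s.k) w s.X v hg.Xlev h2)

theorem omg_lev {K I J : Type} [Field K] [KF K] [Fintype I] [Fintype J] {s : Pt K I J}
    (hg : s.Good) (w : NC K I) : s.omg w ∈ lev K s.k :=
  NC.kph_ev_mem (lev K s.k) w s.X hg.Xlev

theorem K1_le_lev {K I J : Type} [Field K] [KF K] [Fintype I] [Fintype J] {s : Pt K I J}
    (hg : s.Good) (w : NC K I) : s.K1 w ≤ lev K s.k :=
  Algebra.adjoin_le (by rintro _ rfl; exact omg_lev hg w)

theorem K2_le_lev {K I J : Type} [Field K] [KF K] [Fintype I] [Fintype J] (s : Pt K I J)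
    (w : NC K I) : s.K2 w ≤ lev K s.k :=
  Algebra.adjoin_le (by rintro u ⟨hu, -⟩; exact hu)

theorem finrank_alg_mono {K : Type} [Field K] [QPar K] {A B : Subalgebra K (QA K)} (h : A ≤ B)
    [hB : FiniteDimensional K B] : Module.finrank K A ≤ Module.finrank K B := by
  have h1 : FiniteDimensional K (Subalgebra.toSubmodule B) := hB
  have h2 : Subalgebra.toSubmodule A ≤ Subalgebra.toSubmodule B := h
  exact Submodule.finrank_mono h2

theorem alg_eq {K : Type} [Field K] [QPar K] {A B : Subalgebra K (QA K)} (h : A ≤ B)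
    [hB : FiniteDimensional K B] (h' : Module.finrank K A = Module.finrank K B) : A = B := by
  have h1 : FiniteDimensional K (Subalgebra.toSubmodule B) := hB
  have h2 : Subalgebra.toSubmodule A ≤ Subalgebra.toSubmodule B := h
  exact Subalgebra.toSubmodule_injective (Submodule.eq_of_le_of_finrank_eq h2 h')

section core
variable {K M I J : Type} [Field K] [KF K] [Field M] [KF M] [Fintype I] [Fintype J]

/-- hypotheses of the abstract core -/
structure CoreH (s : Pt K I J) (w : NC K I) (d : ℕ) (a : QA K) (P : Place K M) (s' : Pt M I J)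
    (σ : QA M ≃ₐ[M] QA M) (rb : QA K) : Prop where
  pkg : s.Pkg w d
  aL : a ∈ s.LL w
  a0 : a ≠ 0
  rch : Rch s M inferInstance inferInstance s' P
  good : s'.Good
  σl : ∀ u ∈ lev M s'.k, σ u ∈ lev M s'.k
  σl' : ∀ u ∈ lev M s'.k, σ.symm u ∈ lev M s'.k
  rblev : rb ∈ lev K s'.k
  rbcomm : rb * s.omg w = s.omg w * rb
  om : s.omg w ∈ P.resA (Algebra.adjoin M {σ (s'.omg (w.map P.inc))})
  arb : a * rb ∈ P.resA (Algebra.adjoin M {σ (s'.omg (w.map P.inc))})
  Ls : ∀ b ∈ s.LL w, b ∈ P.resS ((s'.LL (w.map P.inc)).map σ.toLinearMap)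
  arbL : a * rb ∈ P.resS ((s'.LL (w.map P.inc)).map σ.toLinearMap)
  dim : s.n1 w * 2 ^ (s'.k - s.k) ≤
    Module.finrank K (Algebra.adjoin K ({s.omg w, rb} : Set (QA K)))

variable {s : Pt K I J} {w : NC K I} {d : ℕ} {a : QA K} {P : Place K M} {s' : Pt M I J}
  {σ : QA M ≃ₐ[M] QA M} {rb : QA K}

theorem finrank_map_alg (σ : QA M ≃ₐ[M] QA M) (B : Subalgebra M (QA M)) :
    Module.finrank M (B.map (σ : QA M →ₐ[M] QA M)) = Module.finrank M B :=
  ((σ.subalgebraMap B).toLinearEquiv.finrank_eq).symm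

theorem finrank_map_sub (σ : QA M ≃ₐ[M] QA M) (B : Submodule M (QA M)) :
    Module.finrank M (B.map σ.toLinearMap) = Module.finrank M B :=
  LinearEquiv.finrank_map_eq σ.toLinearEquiv B

theorem CoreH.LL_ne (h : CoreH s w d a P s' σ rb) : s'.LL (w.map P.inc) ≠ ⊥ := by
  intro h0
  have h1 := h.Ls a h.aL
  rw [h0, Submodule.map_bot] at h1
  obtain ⟨v, hv, -, h2⟩ := h1
  rw [Submodule.mem_bot] at hv
  rw [hv, P.rq_zero] at h2
  exact h.a0 h2.symm

theorem adjoin_eq (σ : QA M ≃ₐ[M] QA M) (s' : Pt M I J) (w' : NC M I) :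
    Algebra.adjoin M {σ (s'.omg w')} = (s'.K1 w').map (σ : QA M →ₐ[M] QA M) := by
  rw [Pt.K1, AlgHom.map_adjoin, Set.image_singleton]
  rfl

theorem CoreH.adjoin_le (h : CoreH s w d a P s' σ rb) :
    Algebra.adjoin M {σ (s'.omg (w.map P.inc))} ≤ lev M s'.k :=
  Algebra.adjoin_le (by rintro _ rfl; exact h.σl _ (omg_lev h.good _))

theorem CoreH.finrank_adjoin (h : CoreH s w d a P s' σ rb) :
    Module.finrank M (Algebra.adjoin M {σ (s'.omg (w.map P.inc))}) = s'.n1 (w.map P.inc) := by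
  rw [adjoin_eq, finrank_map_alg]; rfl

theorem CoreH.rbcommK1 (h : CoreH s w d a P s' σ rb) : ∀ u ∈ s.K1 w, u * rb = rb * u := by
  intro u hu
  have h1 : Comm {s.omg w} rb := by
    intro φ hφ
    rw [Set.mem_singleton_iff.1 hφ, h.rbcomm]
  exact (h1.adjoin u hu).symm

theorem CoreH.adj_le_res (h : CoreH s w d a P s' σ rb) :
    Algebra.adjoin K ({s.omg w, rb} : Set (QA K)) ≤
      P.resA (Algebra.adjoin M {σ (s'.omg (w.map P.inc))}) := by
  set R := P.resA (Algebra.adjoin M {σ (s'.omg (w.map P.inc))}) with hR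
  have hK1 : s.K1 w ≤ R := Algebra.adjoin_le (by rintro _ rfl; exact h.om)
  have ha : a ∈ s.K1 w := h.pkg.comm h.aL
  obtain ⟨a', ha', -, h1⟩ := bb_inv s.k (s.K1 w) (K1_le_lev h.pkg.good w) a ha h.a0
  refine Algebra.adjoin_le ?_
  rintro u hu
  rcases hu with rfl | hu
  · exact h.om
  · rw [Set.mem_singleton_iff.1 hu]
    have h2 := mul_mem (hK1 ha') h.arb
    rwa [← mul_assoc, h1, one_mul] at h2

theorem CoreH.n1_eq (h : CoreH s w d a P s' σ rb) :
    s'.n1 (w.map P.inc) = s.n1 w * 2 ^ (s'.k - s.k) ∧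
      Algebra.adjoin K ({s.omg w, rb} : Set (QA K)) =
        P.resA (Algebra.adjoin M {σ (s'.omg (w.map P.inc))}) := by
  have hfd : FiniteDimensional M (Algebra.adjoin M {σ (s'.omg (w.map P.inc))}) :=
    kpa_fd_of_le' h.adjoin_le
  have e1 := P.finrank_resA (Algebra.adjoin M {σ (s'.omg (w.map P.inc))})
  rw [h.finrank_adjoin] at e1
  have e2 := h.pkg.min1 M _ _ s' P h.rch h.LL_ne
  have hfd2 : FiniteDimensional K
      (P.resA (Algebra.adjoin M {σ (s'.omg (w.map P.inc))})) := inferInstance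
  have e3 : Module.finrank K (Algebra.adjoin K ({s.omg w, rb} : Set (QA K))) ≤
      Module.finrank K (P.resA (Algebra.adjoin M {σ (s'.omg (w.map P.inc))})) :=
    finrank_alg_mono h.adj_le_res
  have e4 := h.dim
  refine ⟨le_antisymm e2 (by omega), ?_⟩
  have e5 : Module.finrank K (Algebra.adjoin K ({s.omg w, rb} : Set (QA K))) =
      Module.finrank K (P.resA (Algebra.adjoin M {σ (s'.omg (w.map P.inc))})) := by omega
  exact alg_eq h.adj_le_res e5

theorem CoreH.ratio (h : CoreH s w d a P s' σ rb) {b c u : QA K}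
    (hb : b ∈ P.resS ((s'.LL (w.map P.inc)).map σ.toLinearMap))
    (hc : c ∈ P.resS ((s'.LL (w.map P.inc)).map σ.toLinearMap)) (hb0 : b ≠ 0)
    (huc : u * b = c) : u ∈ P.resA ((s'.K2 (w.map P.inc)).map (σ : QA M →ₐ[M] QA M)) := by
  obtain ⟨B, ⟨B0, hB0, hB1⟩, hBi, rfl⟩ := hb
  obtain ⟨C, ⟨C0, hC0, hC1⟩, hCi, rfl⟩ := hc
  have hB2 : σ B0 = B := hB1
  have hC2 : σ C0 = C := hC1
  have hB0l : B0 ∈ lev M s'.k := LL_le_lev h.good _ hB0
  have hC0l : C0 ∈ lev M s'.k := LL_le_lev h.good _ hC0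
  have hBne : B ≠ 0 := by
    intro h0
    rw [h0, P.rq_zero] at hb0
    exact hb0 rfl
  have hB0ne : B0 ≠ 0 := by
    intro h0
    rw [h0, map_zero] at hB2
    exact hBne hB2.symm
  obtain ⟨D0, hD0, h1, h2⟩ := bb_inv s'.k (lev M s'.k) le_rfl B0 hB0l hB0ne
  have h3 : B * σ D0 = 1 := by rw [← hB2, ← map_mul, h1, map_one]
  obtain ⟨hDi, h4⟩ := int_inv P hBi hb0 h3
  refine ⟨C * σ D0, ⟨C0 * D0, ?_, by rw [← hC2, ← map_mul]; rfl⟩, P.int_mul hCi hDi, ?_⟩
  · refine Algebra.subset_adjoin ⟨mul_mem hC0l hD0, B0, hB0, hB0ne, ?_⟩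
    rw [mul_assoc, h2, mul_one]
    exact hC0
  · rw [P.rq_mul hCi hDi, ← huc, mul_assoc, h4, mul_one]

theorem CoreH.adj2_le (h : CoreH s w d a P s' σ rb) :
    Algebra.adjoin K ((s.K2 w : Set (QA K)) ∪ {rb}) ≤
      P.resA ((s'.K2 (w.map P.inc)).map (σ : QA M →ₐ[M] QA M)) := by
  refine Algebra.adjoin_le ?_
  rintro u (hu | hu)
  · have h1 : s.K2 w ≤ P.resA ((s'.K2 (w.map P.inc)).map (σ : QA M →ₐ[M] QA M)) := by
      refine Algebra.adjoin_le ?_
      rintro u ⟨-, b, hb, hb0, hub⟩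
      exact h.ratio (h.Ls b hb) (h.Ls _ hub) hb0 rfl
    exact h1 hu
  · rw [Set.mem_singleton_iff.1 hu]
    exact h.ratio (h.Ls a h.aL) h.arbL h.a0 (h.rbcommK1 a (h.pkg.comm h.aL)).symm

theorem CoreH.K2map_le (h : CoreH s w d a P s' σ rb) :
    (s'.K2 (w.map P.inc)).map (σ : QA M →ₐ[M] QA M) ≤ lev M s'.k := by
  rintro _ ⟨u, hu, rfl⟩
  exact h.σl u (K2_le_lev s' _ hu)

theorem CoreH.finrank_adj2 (h : CoreH s w d a P s' σ rb) :
    Module.finrank K (Algebra.adjoin K ((s.K2 w : Set (QA K)) ∪ {rb})) ≤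
      s'.n2 (w.map P.inc) := by
  have hfd : FiniteDimensional M ((s'.K2 (w.map P.inc)).map (σ : QA M →ₐ[M] QA M)) :=
    kpa_fd_of_le' h.K2map_le
  have e1 := P.finrank_resA ((s'.K2 (w.map P.inc)).map (σ : QA M →ₐ[M] QA M))
  rw [finrank_map_alg] at e1
  have hfd2 : FiniteDimensional K
    (P.resA ((s'.K2 (w.map P.inc)).map (σ : QA M →ₐ[M] QA M))) := inferInstance
  have e3 : Module.finrank K (Algebra.adjoin K ((s.K2 w : Set (QA K)) ∪ {rb})) ≤
      Module.finrank K (P.resA ((s'.K2 (w.map P.inc)).map (σ : QA M →ₐ[M] QA M))) :=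
    finrank_alg_mono h.adj2_le
  exact e3.trans e1.le

theorem CoreH.S1 (h : CoreH s w d a P s' σ rb) :
    Module.finrank K (Algebra.adjoin K ((s.K2 w : Set (QA K)) ∪ {rb})) ≤
      s.n2 w * 2 ^ (s'.k - s.k) :=
  h.finrank_adj2.trans (h.pkg.min2 M _ _ s' P h.rch h.LL_ne h.n1_eq.1)

theorem CoreH.S2 (h : CoreH s w d a P s' σ rb)
    (hdim : Module.finrank K (Algebra.adjoin K ((s.K2 w : Set (QA K)) ∪ {rb})) =
      s.n2 w * 2 ^ (s'.k - s.k))
    (S : Set (QA K)) (hS : S ⊆ P.resS ((s'.LL (w.map P.inc)).map σ.toLinearMap)) :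
    Module.finrank K (Submodule.span K S) + d ≤ s.n2 w * 2 ^ (s'.k - s.k) := by
  have h1 := h.pkg.min2 M _ _ s' P h.rch h.LL_ne h.n1_eq.1
  have h2 := h.finrank_adj2
  have h3 : s'.n2 (w.map P.inc) = s.n2 w * 2 ^ (s'.k - s.k) := by omega
  have h4 := h.pkg.min3 M _ _ s' P h.rch h.LL_ne h.n1_eq.1 h3
  have hle : (s'.LL (w.map P.inc)).map σ.toLinearMap ≤ Subalgebra.toSubmodule (lev M s'.k) := by
    rintro _ ⟨u, hu, rfl⟩
    exact h.σl u (LL_le_lev h.good _ hu)
  have hfd : FiniteDimensional M ((s'.LL (w.map P.inc)).map σ.toLinearMap) := kpa_fd_of_le hle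
  have e1 := P.finrank_resS ((s'.LL (w.map P.inc)).map σ.toLinearMap)
  rw [finrank_map_sub] at e1
  have hfd2 : FiniteDimensional K
    (P.resS ((s'.LL (w.map P.inc)).map σ.toLinearMap)) := inferInstance
  have e3 : Module.finrank K (Submodule.span K S) ≤
      Module.finrank K (P.resS ((s'.LL (w.map P.inc)).map σ.toLinearMap)) :=
    Submodule.finrank_mono (Submodule.span_le.2 hS)
  have e4 : Module.finrank M (s'.LL (w.map P.inc)) = s'.nL (w.map P.inc) := rfl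
  omega

end core

end Crest.Agent.KP.KS
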