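import Crest.Agent.KPS_Dp
import Crest.Agent.KPC_Cf

/-!
# S0270 : Lemma S, file 4 : D1 and D2 along a composed place (helper76)
-/

set_option autoImplicit false
set_option linter.unusedSectionVars false

open scoped PowerSeries LaurentSeries symmDiff

namespace Crest.Agent.KP.KS

section
variable {L : Type} [Field L] [KF L]

theorem toL_aeval_mem (h : QA L⟦X⟧) (q : Polynomial L) :
    toL L (Polynomial.aeval h q) ∈ Algebra.adjoin L⸨X⸩ {toL L h} := by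
  have hmem : toL L h ∈ Algebra.adjoin L⸨X⸩ {toL L h} :=
    Algebra.subset_adjoin (Set.mem_singleton _)
  induction q using Polynomial.induction_on' with
  | add p q hp hq => rw [map_add, map_add]; exact add_mem hp hq
  | monomial n c =>
    have h1 : toL L (Polynomial.aeval h (Polynomial.monomial n c)) =
        algebraMap L⸨X⸩ (QA L⸨X⸩) (algebraMap L L⸨X⸩ c) * toL L h ^ n := by
      rw [Polynomial.aeval_monomial, map_mul, map_pow, KC.toL_algebraMap]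
    rw [h1]
    exact mul_mem (Subalgebra.algebraMap_mem _ _) (pow_mem hmem n)

theorem adjoin_toL_le {l : ℕ} {h : QA L⟦X⟧} (hlev : ∀ m, cf m h ∈ lev L l) :
    Algebra.adjoin L⸨X⸩ {toL L h} ≤ lev L⸨X⸩ l :=
  Algebra.adjoin_le (by rintro _ rfl; exact toL_lev hlev)

theorem D1core {l : ℕ} {x : QA L} (hx : x ∈ lev L l) {h : QA L⟦X⟧}
    (hlev : ∀ m, cf m h ∈ lev L l) (h0 : cf 0 h = x) {δ : ℕ} (hδ : 1 ≤ δ)
    (hm : ∀ m, 1 ≤ m → m < δ → cf m h = 0) :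
    x ∈ (Place.laurent L).resA (Algebra.adjoin L⸨X⸩ {toL L h}) ∧
      Pr l {x} (cf δ h) ∈ (Place.laurent L).resA (Algebra.adjoin L⸨X⸩ {toL L h}) := by
  set Φ := Algebra.adjoin L⸨X⸩ {toL L h} with hΦ
  have hx1 : x ∈ (Place.laurent L).resA Φ :=
    ⟨toL L h, Algebra.subset_adjoin rfl, kpr_int_toL h, by rw [kpr_rq_toL, h0]⟩
  refine ⟨hx1, ?_⟩
  obtain ⟨h1, hh1, hcf1⟩ := div_X_pow δ (h - toP L x) (by
    intro m hmδ
    rw [map_sub]
    rcases Nat.eq_zero_or_pos m with rfl | hm0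
    · rw [h0, kpr_cf_toP_zero, sub_self]
    · rw [hm m hm0 hmδ, kpr_cf_toP_succ _ _ hm0.ne', sub_zero])
  have hh : h = toP L x + (PowerSeries.X : L⟦X⟧) ^ δ • h1 := by rw [← hh1]; abel
  have hh1l : h1 ∈ lev L⟦X⟧ l := by
    rw [lev_ps_iff]
    intro m
    rw [hcf1, map_sub]
    exact sub_mem (hlev _) (lev_ps_iff.1 (lev_ps_toP hx) _)
  obtain ⟨c, y, q, hc, hc0, hy, hy0⟩ := exists_minpoly_expand hx hh1l (lev_ps_iff.2 hlev) hh hδ
  have hcf10 : cf 0 h1 = cf δ h := by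
    rw [hcf1, Nat.zero_add, map_sub, kpr_cf_toP_succ _ _ (by omega), sub_zero]
  rw [hcf10] at hy0
  have hyΦ : toL L y ∈ Φ := by
    have h2 : toL L ((PowerSeries.X : L⟦X⟧) ^ δ • y) ∈ Φ := by
      rw [hy]; exact toL_aeval_mem h q
    rw [toL_X_smul] at h2
    have h3 := Subalgebra.smul_mem Φ h2 ((zL L ^ δ)⁻¹)
    rwa [smul_smul, inv_mul_cancel₀ (kpr_zL_pow_ne δ), one_smul] at h3
  have h4 : c * Pr l {x} (cf δ h) ∈ (Place.laurent L).resA Φ :=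
    ⟨toL L y, hyΦ, kpr_int_toL y, by rw [kpr_rq_toL, hy0]⟩
  have hsub : Algebra.adjoin L {x} ≤ (Place.laurent L).resA Φ :=
    Algebra.adjoin_le (by rintro _ rfl; exact hx1)
  have hlevx : Algebra.adjoin L {x} ≤ lev L l := Algebra.adjoin_le (by rintro _ rfl; exact hx)
  obtain ⟨c', hc', -, h5⟩ := bb_inv l _ hlevx c hc hc0
  have h6 := mul_mem (hsub hc') h4
  rwa [← mul_assoc, h5, one_mul] at h6

theorem adjoin_single_comm {M : Type} [Field M] [KF M] (x : QA M) :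
    ∀ a ∈ Algebra.adjoin M {x}, ∀ b ∈ Algebra.adjoin M {x}, a * b = b * a := by
  intro a ha b hb
  have h1 : Comm {x} x := by
    intro φ hφ; rw [Set.mem_singleton_iff.1 hφ]
  have h2 : Comm {x} a := by
    intro φ hφ
    rw [Set.mem_singleton_iff.1 hφ]
    exact (h1.adjoin a ha).symm
  exact h2.adjoin b hb

variable {K : Type} [Field K] [KF K]

/-- D2 along a composed place, two-step version -/
theorem D2core (P : Place K L) {l : ℕ} {Φ : Subalgebra L⸨X⸩ (QA L⸨X⸩)} (hΦ : Φ ≤ lev L⸨X⸩ l)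
    {u : QA L⸨X⸩} (hu : u ∈ lev L⸨X⸩ l) (hi : (Place.laurent L).Int u) {x : QA L}
    (hx : x ∈ (Place.laurent L).resA Φ)
    (hi2 : P.Int (Pr l {x} ((Place.laurent L).rq u))) :
    (P.trans (Place.laurent L)).Int (Pr l (Φ : Set (QA L⸨X⸩)) u) ∧
      (P.trans (Place.laurent L)).rq (Pr l (Φ : Set (QA L⸨X⸩)) u) =
        Pr l (P.resA ((Place.laurent L).resA Φ) : Set (QA K))
          (P.rq (Pr l {x} ((Place.laurent L).rq u))) := by
  obtain ⟨h1, h2⟩ := bb_D2 (Place.laurent L) l Φ hΦ hu hi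
  have hΦ1 : (Place.laurent L).resA Φ ≤ lev L l := (Place.laurent L).resA_lev_le hΦ
  have hru : (Place.laurent L).rq u ∈ lev L l := (Place.laurent L).rq_lev hu
  have h3 : Pr l ((Place.laurent L).resA Φ : Set (QA L)) ((Place.laurent L).rq u) =
      Pr l ((Place.laurent L).resA Φ : Set (QA L)) (Pr l {x} ((Place.laurent L).rq u)) := by
    rw [pr_pr (by rintro _ rfl; exact hx) hru]
  obtain ⟨h4, h5⟩ := bb_D2 P l _ hΦ1 (pr_mem hru) hi2
  rw [← h3, ← h2] at h4 h5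
  exact ⟨(kpr_int_trans P _ _).2 ⟨h1, h4⟩, by rw [kpr_rq_trans, h5]⟩

/-- the tangent element -/
theorem tangent_core (P : Place K L) {l : ℕ} {x : QA L} (hx : x ∈ lev L l) {h : QA L⟦X⟧}
    (hlev : ∀ m, cf m h ∈ lev L l) (h0 : cf 0 h = x) {δ : ℕ} (hδ : 1 ≤ δ)
    (hm : ∀ m, 1 ≤ m → m < δ → cf m h = 0) {p : L} (hp : p ≠ 0) {G : QA L}
    (hG : Pr l {x} (cf δ h) = p • G) (hGi : P.Int G) :
    ∃ c : L⸨X⸩, c ≠ 0 ∧
      (P.trans (Place.laurent L)).Int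
        (c • Pr l (Algebra.adjoin L⸨X⸩ {toL L h} : Set (QA L⸨X⸩)) (toL L (KC.dz h))) ∧
      (P.trans (Place.laurent L)).rq
        (c • Pr l (Algebra.adjoin L⸨X⸩ {toL L h} : Set (QA L⸨X⸩)) (toL L (KC.dz h))) =
        P.rq G := by
  obtain ⟨hx1, hG1⟩ := D1core hx hlev h0 hδ hm
  set Φ := Algebra.adjoin L⸨X⸩ {toL L h} with hΦ
  have hΦl : Φ ≤ lev L⸨X⸩ l := adjoin_toL_le hlev
  have hGΦ : G ∈ (Place.laurent L).resA Φ := by
    rw [hG] at hG1
    have h2 := Subalgebra.smul_mem _ hG1 p⁻¹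
    rwa [smul_smul, inv_mul_cancel₀ hp, one_smul] at h2
  have hΦc := (Place.laurent L).resA_comm (adjoin_single_comm (toL L h))
  have hδ0 : (δ : L) ≠ 0 := by
    have : CharZero L := inferInstance
    exact Nat.cast_ne_zero.2 (by omega)
  obtain ⟨u, hu, hu0⟩ := div_X_pow (δ - 1) (KC.dz h) (by
    intro m hmδ
    rw [KC.cf_dz, hm (m + 1) (by omega) (by omega), smul_zero])
  have hcu : cf 0 u = (δ : L) • cf δ h := by
    rw [hu0, KC.cf_dz, Nat.zero_add]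
    congr 1
    · rw [Nat.cast_sub hδ]; push_cast; ring
    · rw [Nat.sub_add_cancel hδ]
  have hul : ∀ m, cf m u ∈ lev L l := by
    intro m
    rw [hu0, KC.cf_dz]
    exact Subalgebra.smul_mem _ (hlev _) _
  have huL : toL L u ∈ lev L⸨X⸩ l := toL_lev hul
  have e1 : Pr l (Φ : Set (QA L⸨X⸩)) (toL L (KC.dz h)) =
      zL L ^ (δ - 1) • Pr l (Φ : Set (QA L⸨X⸩)) (toL L u) := by
    rw [← map_smul, ← toL_X_smul, ← hu]
  obtain ⟨h1, h2⟩ := bb_D2 (Place.laurent L) l Φ hΦl huL (kpr_int_toL u)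
  have hcl : cf δ h ∈ lev L l := hlev δ
  have h3 : (Place.laurent L).rq (Pr l (Φ : Set (QA L⸨X⸩)) (toL L u)) = ((δ : L) * p) • G := by
    rw [h2, kpr_rq_toL, hcu, map_smul, ← pr_pr (S := {x}) (by rintro _ rfl; exact hx1) hcl, hG,
      map_smul, smul_smul]
    congr 1
    refine pr_of_comm ?_ ?_
    · exact (Place.laurent L).resA_lev_le hΦl hGΦ
    · exact fun φ hφ => hΦc G hGΦ φ hφ
  have hδp : (δ : L) * p ≠ 0 := mul_ne_zero hδ0 hp
  have hcint : algebraMap L L⸨X⸩ ((δ : L) * p)⁻¹ ∈ (Place.laurent L).O :=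
    (Place.laurent L).inc_mem _
  refine ⟨algebraMap L L⸨X⸩ ((δ : L) * p)⁻¹ * (zL L ^ (δ - 1))⁻¹,
    mul_ne_zero ?_ (inv_ne_zero (kpr_zL_pow_ne _)), ?_⟩
  · rw [Ne, map_eq_zero]; exact inv_ne_zero hδp
  have e2 : (algebraMap L L⸨X⸩ ((δ : L) * p)⁻¹ * (zL L ^ (δ - 1))⁻¹) •
      Pr l (Φ : Set (QA L⸨X⸩)) (toL L (KC.dz h)) =
      algebraMap L L⸨X⸩ ((δ : L) * p)⁻¹ • Pr l (Φ : Set (QA L⸨X⸩)) (toL L u) := by
    rw [e1, smul_smul, mul_assoc, inv_mul_cancel₀ (kpr_zL_pow_ne _), mul_one]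
  have e3 : (Place.laurent L).rq
      (algebraMap L L⸨X⸩ ((δ : L) * p)⁻¹ • Pr l (Φ : Set (QA L⸨X⸩)) (toL L u)) = G := by
    rw [(Place.laurent L).rq_smul hcint h1, h3]
    have : (Place.laurent L).r (algebraMap L L⸨X⸩ ((δ : L) * p)⁻¹) = ((δ : L) * p)⁻¹ :=
      (Place.laurent L).r_inc _
    rw [this, smul_smul, inv_mul_cancel₀ hδp, one_smul]
  rw [e2]
  refine ⟨(kpr_int_trans P _ _).2 ⟨(Place.laurent L).int_smul hcint h1, by rw [e3]; exact hGi⟩, ?_⟩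
  rw [kpr_rq_trans, e3]

end

end Crest.Agent.KP.KS
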