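import Crest.Agent.KPS_Pr

/-!
# S0270 : Lemma S, file 2 : residue algebras, the derivative of the minimal polynomial (helper76)
-/

set_option autoImplicit false
set_option linter.unusedSectionVars false

open scoped PowerSeries LaurentSeries symmDiff

namespace Crest.Agent.KP.KS

section inv
variable {K L : Type} [Field K] [KF K] [Field L] [KF L]

/-- the inverse of an integral element with nonzero residue is integral -/
theorem int_inv (P : Place K L) {u v : QA L} (hu : P.Int u) (h0 : P.rq u ≠ 0) (h1 : u * v = 1) :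
    P.Int v ∧ P.rq u * P.rq v = 1 := by
  have hv0 : v ≠ 0 := by
    rintro rfl
    rw [mul_zero] at h1
    exact zero_ne_one h1
  have hv : P.Int v := by
    by_contra hn
    obtain ⟨c, -, h3, h4, h5⟩ := P.exists_scale_q v hv0
    obtain ⟨hc, hc0⟩ := h5 hn
    have h6 : P.rq u * P.rq (c • v) = 0 := by
      rw [← P.rq_mul hu h3, mul_smul_comm, h1, P.rq_smul hc P.int_one, hc0, zero_smul]
    rcases mul_eq_zero.1 h6 with h7 | h7
    · exact h0 h7
    · exact h4 h7
  exact ⟨hv, by rw [← P.rq_mul hu hv, h1, P.rq_one]⟩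

end inv

section Dp
variable {L : Type} [Field L] [KF L]

theorem cf_zero_mul (u v : QA L⟦X⟧) : cf 0 (u * v) = cf 0 u * cf 0 v := by
  rw [← kpr_rq_toL, map_mul, (Place.laurent L).rq_mul (kpr_int_toL u) (kpr_int_toL v),
    kpr_rq_toL, kpr_rq_toL]

theorem toL_lev {k : ℕ} {u : QA L⟦X⟧} (h : ∀ m, cf m u ∈ lev L k) : toL L u ∈ lev L⸨X⸩ k :=
  (kpr_toL_mem_lev k u).2 h

theorem toL_X_smul (n : ℕ) (u : QA L⟦X⟧) :
    toL L ((PowerSeries.X : L⟦X⟧) ^ n • u) = zL L ^ n • toL L u := by
  rw [map_smul]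
  refine kpr_ext fun g => ?_
  rw [kpr_smul_apply, kpr_smul_apply, zL, ← map_pow, Algebra.smul_def, smul_eq_mul]

/-- division by a power of `X` -/
theorem div_X_pow (n : ℕ) (u : QA L⟦X⟧) (h : ∀ m, m < n → cf m u = 0) :
    ∃ v : QA L⟦X⟧, u = (PowerSeries.X : L⟦X⟧) ^ n • v ∧ ∀ m, cf m v = cf (m + n) u := by
  induction n with
  | zero => exact ⟨u, by rw [pow_zero, one_smul], fun m => rfl⟩
  | succ n ih =>
    obtain ⟨v, hv, hv'⟩ := ih fun m hm => h m (Nat.lt_succ_of_lt hm)
    obtain ⟨y, hy, hy'⟩ := kpr_div_X v (by rw [hv', zero_add]; exact h n (Nat.lt_succ_self n))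
    refine ⟨y, ?_, fun m => ?_⟩
    · rw [pow_succ, mul_smul, ← hy, ← hv]
    · rw [hy', hv', Nat.add_assoc, Nat.add_comm 1 n]

theorem smul_X_pow_inj (n : ℕ) {u v : QA L⟦X⟧}
    (h : (PowerSeries.X : L⟦X⟧) ^ n • u = (PowerSeries.X : L⟦X⟧) ^ n • v) : u = v := by
  refine kpr_ext fun g => ?_
  have h1 : ((PowerSeries.X : L⟦X⟧) ^ n • u) g = ((PowerSeries.X : L⟦X⟧) ^ n • v) g := by rw [h]
  rw [kpr_smul_apply, kpr_smul_apply, smul_eq_mul, smul_eq_mul] at h1
  exact mul_left_cancel₀ (pow_ne_zero n PowerSeries.X_ne_zero) h1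

theorem lev_ps_iff {k : ℕ} {u : QA L⟦X⟧} : u ∈ lev L⟦X⟧ k ↔ ∀ m, cf m u ∈ lev L k := by
  constructor
  · intro h m g hg
    apply h g
    intro h0
    apply hg
    rw [kpr_cf_apply, h0, map_zero]
  · intro h g hg
    obtain ⟨m, hm⟩ : ∃ m, PowerSeries.coeff m (u g) ≠ 0 := by
      by_contra hcon
      push Not at hcon
      exact hg (PowerSeries.ext fun n => by rw [hcon n, map_zero])
    exact h m g hm

theorem lev_ps_toP {k : ℕ} {u : QA L} (h : u ∈ lev L k) : toP L u ∈ lev L⟦X⟧ k := by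
  rw [lev_ps_iff]
  intro m
  rcases Nat.eq_zero_or_pos m with rfl | hm
  · rwa [kpr_cf_toP_zero]
  · rw [kpr_cf_toP_succ _ _ hm.ne']; exact zero_mem _

variable {k : ℕ} {x : QA L} {h : QA L⟦X⟧} {δ : ℕ}

/-- first order expansion of a polynomial in `h = x + X^δ h1` -/
theorem poly_expand (hx : x ∈ lev L k) {h1 : QA L⟦X⟧} (hh1 : h1 ∈ lev L⟦X⟧ k)
    (hhl : h ∈ lev L⟦X⟧ k)
    (hh : h = toP L x + (PowerSeries.X : L⟦X⟧) ^ δ • h1) (hδ : 1 ≤ δ) (q : Polynomial L) :
    ∃ y : QA L⟦X⟧, y ∈ lev L⟦X⟧ k ∧ Polynomial.aeval h q =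
        toP L (Polynomial.aeval x q) + (PowerSeries.X : L⟦X⟧) ^ δ • y ∧
      ∀ d ∈ lev L k, Comm {x} d →
        QA.tr (cf 0 y * d) = QA.tr (cf 0 h1 * (Polynomial.aeval x (Polynomial.derivative q) * d)) := by
  have hcf : cf 0 h = x := by
    rw [hh, map_add, kpr_cf_toP_zero]
    have : cf 0 ((PowerSeries.X : L⟦X⟧) ^ δ • h1) = 0 := by
      refine kpr_ext fun g => ?_
      rw [kpr_cf_apply, kpr_smul_apply, smul_eq_mul, kpr_zero_apply, PowerSeries.coeff_X_pow_mul',
        if_neg (by omega)]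
    rw [this, add_zero]
  induction q using Polynomial.induction_on' with
  | add p q hp hq =>
    obtain ⟨y, hyl, hy, hy'⟩ := hp
    obtain ⟨y2, hyl2, hy2, hy2'⟩ := hq
    refine ⟨y + y2, add_mem hyl hyl2, ?_, fun d hd hdx => ?_⟩
    · rw [map_add, hy, hy2, map_add, map_add, smul_add]; abel
    · rw [map_add, add_mul, map_add, hy' d hd hdx, hy2' d hd hdx, Polynomial.derivative_add, map_add,
        add_mul, mul_add, map_add]
  | monomial n c =>
    have key : ∀ n : ℕ, ∃ y : QA L⟦X⟧, y ∈ lev L⟦X⟧ k ∧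
        h ^ n = toP L (x ^ n) + (PowerSeries.X : L⟦X⟧) ^ δ • y ∧
        ∀ d ∈ lev L k, Comm {x} d →
          QA.tr (cf 0 y * d) = QA.tr (cf 0 h1 * (((n : L) • x ^ (n - 1)) * d)) := by
      intro n
      induction n with
      | zero =>
        refine ⟨0, zero_mem _, by rw [pow_zero, pow_zero, map_one, smul_zero, add_zero],
          fun d _ _ => ?_⟩
        rw [map_zero, zero_mul, Nat.cast_zero, zero_smul, zero_mul, mul_zero]
      | succ n ih =>
        obtain ⟨y, hyl, hy, hy'⟩ := ih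
        refine ⟨y * h + toP L (x ^ n) * h1, add_mem (mul_mem hyl hhl)
          (mul_mem (lev_ps_toP (pow_mem hx n)) hh1), ?_, fun d hd hdx => ?_⟩
        · rw [pow_succ, hy, add_mul, smul_add, smul_mul_assoc]
          nth_rewrite 1 [hh]
          rw [mul_add, mul_smul_comm, ← map_mul, ← pow_succ]
          abel
        · have hxd : d * x = x * d := hdx x rfl
          have hpow : ∀ m : ℕ, d * x ^ m = x ^ m * d := fun m =>
            ((show Commute d x from hxd).pow_right m).eq
          rw [map_add, cf_zero_mul, cf_zero_mul, hcf, kpr_cf_toP_zero, add_mul, map_add, mul_assoc,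
            hy' (x * d) (mul_mem hx hd) (by
              intro φ hφ
              rw [Set.mem_singleton_iff.1 hφ, mul_assoc, hxd]),
            mul_assoc (x ^ n), bb_tr_comm (x ^ n), mul_assoc _ d (x ^ n), hpow n,
            Nat.add_sub_cancel, ← map_add, ← mul_add]
          congr 2
          rw [smul_mul_assoc, smul_mul_assoc, ← mul_assoc (x ^ (n - 1)), ← pow_succ]
          rcases Nat.eq_zero_or_pos n with rfl | hn
          · simp
          · rw [Nat.sub_add_cancel hn, Nat.cast_succ, add_smul, one_smul]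
    obtain ⟨y, hyl, hy, hy'⟩ := key n
    refine ⟨c • y, ?_, ?_, fun d hd hdx => ?_⟩
    · rw [lev_ps_iff] at hyl ⊢
      intro m
      rw [map_smul]
      exact Subalgebra.smul_mem _ (hyl m) c
    · rw [Polynomial.aeval_monomial, Polynomial.aeval_monomial, hy, ← Algebra.smul_def,
        ← Algebra.smul_def, smul_add, map_smul, smul_comm]
    · rw [map_smul, smul_mul_assoc, map_smul, hy' d hd hdx, Polynomial.derivative_monomial,
        Polynomial.aeval_monomial, ← Algebra.smul_def, smul_mul_assoc, smul_mul_assoc,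
        mul_smul_comm, mul_smul_comm, map_smul, map_smul, mul_smul]

/-- the relevant part of the derivative of the minimal polynomial -/
theorem exists_minpoly_expand (hx : x ∈ lev L k) {h1 : QA L⟦X⟧} (hh1 : h1 ∈ lev L⟦X⟧ k)
    (hhl : h ∈ lev L⟦X⟧ k)
    (hh : h = toP L x + (PowerSeries.X : L⟦X⟧) ^ δ • h1) (hδ : 1 ≤ δ) :
    ∃ (c : QA L) (y : QA L⟦X⟧) (q : Polynomial L), c ∈ Algebra.adjoin L {x} ∧ c ≠ 0 ∧
      (PowerSeries.X : L⟦X⟧) ^ δ • y = Polynomial.aeval h q ∧
      cf 0 y = c * Pr k {x} (cf 0 h1) := by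
  have hxint : IsIntegral L x := by
    have : IsIntegral L (⟨x, hx⟩ : lev L k) := IsIntegral.of_finite L _
    exact this.map (lev L k).val
  obtain ⟨y, hyl, hy, hy'⟩ := poly_expand hx hh1 hhl hh hδ (minpoly L x)
  rw [minpoly.aeval, map_zero, zero_add] at hy
  set c := Polynomial.aeval x (Polynomial.derivative (minpoly L x)) with hc
  have hcm : c ∈ Algebra.adjoin L {x} := by
    rw [Algebra.adjoin_singleton_eq_range_aeval]; exact ⟨_, rfl⟩
  refine ⟨c, y, minpoly L x, hcm, ?_, hy.symm, ?_⟩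
  · intro h0
    have h2 : Polynomial.derivative (minpoly L x) ≠ 0 := by
      intro h3
      have h4 := Polynomial.derivative_eq_zero.1 h3
      exact (minpoly.natDegree_pos hxint).ne' h4
    have h3 := minpoly.degree_le_of_ne_zero L x h2 h0
    have h4 := Polynomial.degree_derivative_lt (minpoly.ne_zero hxint)
    exact absurd h3 (not_le.2 h4)
  · -- the residue
    have hycomm : y * h = h * y := by
      apply smul_X_pow_inj δ
      rw [← smul_mul_assoc, ← mul_smul_comm, ← hy]
      calc Polynomial.aeval h (minpoly L x) * h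
          = Polynomial.aeval h (minpoly L x * Polynomial.X) := by
            rw [map_mul, Polynomial.aeval_X]
        _ = Polynomial.aeval h (Polynomial.X * minpoly L x) := by rw [mul_comm]
        _ = h * Polynomial.aeval h (minpoly L x) := by rw [map_mul, Polynomial.aeval_X]
    have hcf : cf 0 h = x := by
      rw [hh, map_add, kpr_cf_toP_zero]
      have : cf 0 ((PowerSeries.X : L⟦X⟧) ^ δ • h1) = 0 := by
        refine kpr_ext fun g => ?_
        rw [kpr_cf_apply, kpr_smul_apply, smul_eq_mul, kpr_zero_apply,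
          PowerSeries.coeff_X_pow_mul', if_neg (by omega)]
      rw [this, add_zero]
    have h3 : cf 0 y * x = x * cf 0 y := by
      have := congrArg (cf 0) hycomm
      rwa [cf_zero_mul, cf_zero_mul, hcf] at this
    have h1l : cf 0 h1 ∈ lev L k := lev_ps_iff.1 hh1 0
    have hcl : c ∈ lev L k := by
      have : Algebra.adjoin L {x} ≤ lev L k := Algebra.adjoin_le (by
        rintro _ rfl; exact hx)
      exact this hcm
    have hccomm : Comm {x} c := by
      intro φ hφ
      rw [Set.mem_singleton_iff.1 hφ]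
      have h4 := Comm.adjoin (S := {x}) (u := x) (by
        intro φ hφ; rw [Set.mem_singleton_iff.1 hφ])
      exact (h4 c hcm).symm
    have hcy : Comm {x} (cf 0 y) := by
      intro φ hφ
      rw [Set.mem_singleton_iff.1 hφ]; exact h3
    refine sub_eq_zero.1 (kps_eq_zero (k := k) (S := {x})
      (sub_mem (lev_ps_iff.1 hyl 0) (mul_mem hcl (pr_mem h1l)))
      (hcy.sub (hccomm.mul (pr_comm h1l))) fun d hd hdx => ?_)
    rw [sub_mul, map_sub, hy' d hd hdx, sub_eq_zero, mul_assoc, bb_tr_comm c, mul_assoc,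
      pr_orth' h1l (mul_mem hd hcl) (hdx.mul hccomm)]
    congr 2
    have h4 : Comm (Algebra.adjoin L {x} : Set (QA L)) d := Comm.adjoin hdx
    exact (h4 c hcm).symm

end Dp

end Crest.Agent.KP.KS
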