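import Crest.Agent.KPS_BB

/-!
# S0270 : Lemma S, file 3 : residues along `Rch` (helper76)
-/

set_option autoImplicit false
set_option linter.unusedSectionVars false

open scoped PowerSeries LaurentSeries symmDiff

namespace Crest.Agent.KP.KS

/-- residues of `X` along `Rch` -/
theorem rch_res {K0 I J : Type} [Field K0] [KF K0] [Fintype I] [Fintype J] (s0 : Pt K0 I J)
    (L : Type) (iF : Field L) (iK : KF L) (s : Pt L I J) (P : Place K0 L)
    (h : Rch s0 L iF iK s P) :
    (∀ i, P.Int (s.X i)) ∧ ∀ i, P.rq (s.X i) = s0.X i := by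
  induction h with
  | refl => exact ⟨fun i => kpr_int_refl _, fun i => kpr_rq_refl _⟩
  | curve K iF iK s P h T hT ih =>
    obtain ⟨h3, h4⟩ := ih
    have h5 : ∀ i, (Place.laurent K).rq ((s.curve T).X i) = s.X i := fun i => by
      change (Place.laurent K).rq (toL K (T i)) = s.X i
      rw [kpr_rq_toL, hT.zero]
    refine ⟨fun i => ?_, fun i => ?_⟩
    · rw [kpr_int_trans]
      exact ⟨kpr_int_toL _, by rw [h5]; exact h3 i⟩
    · rw [kpr_rq_trans, h5, h4]
  | grow K iF iK s P h T w1 w2 hT ih =>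
    obtain ⟨h3, h4⟩ := ih
    have h5 : ∀ i, (Place.laurent K).rq ((s.grow T).X i) = s.X i := fun i => by
      change (Place.laurent K).rq (toL K (T i)) = s.X i
      rw [kpr_rq_toL, hT.zero]
    refine ⟨fun i => ?_, fun i => ?_⟩
    · rw [kpr_int_trans]
      exact ⟨kpr_int_toL _, by rw [h5]; exact h3 i⟩
    · rw [kpr_rq_trans, h5, h4]

/-- `gv` has residue `1`, so it is invertible with inverse `qinv gv` -/
theorem gv_inv {K L I J : Type} [Field K] [KF K] [Field L] [KF L] [Fintype I] [Fintype J]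
    (s : Pt K I J) (w : NC K I) (a : QA K) (m0 : Submodule K (QA K))
    (t : Pt L (I ⊕ Bool) (Option J)) (P : Place K L)
    (ht : Rch (s.ext w a m0) L inferInstance inferInstance t P) :
    Pt.gv t ≠ 0 ∧ Pt.gv t * qinv (Pt.gv t) = 1 ∧ qinv (Pt.gv t) * Pt.gv t = 1 := by
  obtain ⟨-, h2⟩ := rch_res _ _ _ _ _ _ ht
  have h3 : P.rq (Pt.gv t) = 1 := h2 (Sum.inr false)
  have h4 : Pt.gv t ≠ 0 := by
    intro h0
    rw [h0, P.rq_zero] at h3
    exact zero_ne_one h3
  have h5 := kpa_exists_inv h4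
  refine ⟨h4, ?_, ?_⟩
  · unfold qinv
    rw [dif_pos h5]
    exact (Classical.choose_spec h5).1
  · unfold qinv
    rw [dif_pos h5]
    exact (Classical.choose_spec h5).2

end Crest.Agent.KP.KS
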