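import Crest.Agent.KP_Defs4

/-!
# S0270 : Lemma S (P3 (F)) -- interface between helper76 (proof) and helper97 (Lemma R)
-/

set_option autoImplicit false
set_option linter.unusedSectionVars false

open scoped PowerSeries LaurentSeries symmDiff

namespace Crest.Agent.KP

namespace Pt

variable {K I J : Type} [Field K] [KF K] [Fintype I] [Fintype J]

/-- an S-step of the forgotten state `s.fgt P t` to level `l'`:
a curve (`l' = t.k`) or a growth (`l' = t.k+1`) whose (INJ) holds even with functionals restricted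
to `W(s) ∩ ker l^_t`. -/
def SStep {L : Type} [Field L] [KF L] (s : Pt K I J) (w : NC K I) (P : Place K L)
    (t : Pt L (I ⊕ Bool) (Option J)) (T : I → QA L⟦X⟧) (l' : ℕ) : Prop :=
  (l' = t.k ∧ (s.fgt P t).IsCurve T) ∨
  (l' = t.k + 1 ∧ ∃ w1 w2 : I → QA L, (s.fgt P t).IsGrowth T w1 w2 ∧
    (s.fgt P t).Inj ((s.fgt P t).W ⊓ LinearMap.ker (s.ellh w P t)) w1 w2)

/-- hypotheses of Lemma S: `h = g⁻¹ w(T) g = ω + z^δ h_δ + ..`, `E_ω(h_δ) = π G`,
`res G = a rb`, and `dim K'[rb] ≥ n Q`. -/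
structure SHyp {L : Type} [Field L] [KF L] (s : Pt K I J) (w : NC K I) (a : QA K)
    (P : Place K L) (t : Pt L (I ⊕ Bool) (Option J)) (T : I → QA L⟦X⟧) (l' : ℕ)
    (g h : QA L⟦X⟧) (δ : ℕ) (p : L) (G : QA L) (rb : QA K) : Prop where
  step : s.SStep w P t T l'
  f : fv t = P.iq (s.omg w)
  b : ∀ r ∈ s.RR w a, ∀ e ∈ mid K s.k t.k, ∃ v ∈ (s.fgt P t).W,
    P.Int (s.ellh w P t v) ∧ P.rq (s.ellh w P t v) = a * r * e
  glev : ∀ m, cf m g ∈ lev L l'
  g0 : cf 0 g = gv t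
  hlev : ∀ m, cf m h ∈ lev L l'
  gh : g * h = (w.map P.inc).ev T * g
  h0 : cf 0 h = P.iq (s.omg w)
  δ1 : 1 ≤ δ
  hm : ∀ m, 1 ≤ m → m < δ → cf m h = 0
  hδ : Pr l' {P.iq (s.omg w)} (cf δ h) = p • G
  p0 : p ≠ 0
  Gint : P.Int G
  Gres : P.rq G = a * rb
  rblev : rb ∈ lev K l'
  rbcomm : rb * s.omg w = s.omg w * rb
  dim : s.n1 w * 2 ^ (l' - s.k) ≤
    Module.finrank K (Algebra.adjoin K ({s.omg w, rb} : Set (QA K)))

/-- generators of (a subspace of) the composed residue of `g⁻¹ L(T') g` -/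
def SGen {L : Type} [Field L] [KF L] (s : Pt K I J) (w : NC K I) (a : QA K)
    (P : Place K L) (t : Pt L (I ⊕ Bool) (Option J)) (l' : ℕ) (rb : QA K) : Set (QA K) :=
  {a * rb} ∪ {u | ∃ v ∈ (s.fgt P t).W, P.Int (s.ellh w P t v) ∧ ∃ e ∈ mid K t.k l',
    u = Pr l' {s.omg w, rb} (P.rq (s.ellh w P t v) * e)}

end Pt

/-! The theorems `lemS1`, `lemS2` (Lemma S) are proved in `KPS_S.lean` (helper76). -/

end Crest.Agent.KP
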