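import Crest.Agent.KPS_Core
import Crest.Agent.KPS_Rch
import Crest.Agent.KPG_Lev
import Crest.Agent.KPX_Forget
import Crest.Agent.KP_S

/-!
# S0270 : Lemma S, file 6 : the state `T'` (curve / growth), lifting (helper76)
-/

set_option autoImplicit false
set_option linter.unusedSectionVars false

open scoped PowerSeries LaurentSeries symmDiff

namespace Crest.Agent.KP.KS

section
variable {K : Type} [Field K] [KF K]

/-- `v e ∈ V ⊗ E_k` for `v ∈ V`, `e ∈ mid k (k+1)` -/
theorem mulR_mem_mulE {I : Type} {k : ℕ} (V : Submodule K (I → QA K)) {v : I → QA K}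
    (hv : v ∈ V) {e : QA K} (he : e ∈ mid K k (k + 1)) : mulR e v ∈ mulE k V := by
  have hlin : ∀ (x y : QA K), mulR (x + y) v = mulR x v + mulR y v := by
    intro x y
    funext i
    exact mul_add (v i) x y
  have hsm : ∀ (c : K) (x : QA K), mulR (c • x) v = c • mulR x v := by
    intro c x
    funext i
    exact mul_smul_comm c (v i) x
  refine kpa_on_induction (p := fun e => mulR e v ∈ mulE k V) he ?_ ?_ ?_
  · have h0 : mulR (0 : QA K) v = 0 := by
      funext i
      exact mul_zero (v i)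
    rw [h0]; exact zero_mem _
  · intro x y hx hy
    rw [hlin]; exact add_mem hx hy
  · intro g x h1 h2
    have e1 : g.1 = ∅ ∨ g.1 = {k} := Finset.subset_singleton_iff.1 fun n hn => by
      have h3 := h1 n hn
      rw [Finset.mem_singleton]
      have h4 : k ≤ n ∧ n < k + 1 := h3
      omega
    have e2 : g.2 = ∅ ∨ g.2 = {k} := Finset.subset_singleton_iff.1 fun n hn => by
      have h3 := h2 n hn
      rw [Finset.mem_singleton]
      have h4 : k ≤ n ∧ n < k + 1 := h3
      omega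
    have hb : g = (∅, ∅) ∨ g = ({k}, ∅) ∨ g = (∅, {k}) ∨ g = ({k}, {k}) := by
      obtain ⟨g1, g2⟩ := g
      simp only at e1 e2
      rcases e1 with rfl | rfl <;> rcases e2 with rfl | rfl <;> simp
    have e3 : QA.ec g x = x • (QA.e g : QA K) := by
      rw [QA.e_eq_ec, QA.smul_ec, mul_one]
    rw [e3, hsm]
    exact Submodule.smul_mem _ _ (kpgl_mulR_mem V hv hb)

end

/-- everything needed about the state `T'` -/
structure Common {K L I J : Type} [Field K] [KF K] [Field L] [KF L] [Fintype I] [Fintype J]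
    (s : Pt K I J) (w : NC K I) (P : Place K L) (t : Pt L (I ⊕ Bool) (Option J))
    (T : I → QA L⟦X⟧) (l' : ℕ) (s' : Pt L⸨X⸩ I J) : Prop where
  k : s'.k = l'
  kt : t.k ≤ l'
  X : s'.X = fun i => toL L (T i)
  T0 : ∀ i, cf 0 (T i) = t.X (Sum.inl i)
  rch : Rch s L⸨X⸩ inferInstance inferInstance s' (P.trans (Place.laurent L))
  good : s'.Good
  tan : (fun i => toL L (KC.dz (T i))) ∈ s'.W
  lift : ∀ v ∈ (s.fgt P t).W, ∀ e ∈ mid L t.k l', ∃ v' ∈ s'.W,
    (∀ i, (Place.laurent L).Int (v' i)) ∧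
    s.ellg w P t l' (fun i => (Place.laurent L).rq (v' i)) = s.ellh w P t v * e

section
variable {K L I J : Type} [Field K] [KF K] [Field L] [KF L] [Fintype I] [Fintype J]
variable (s : Pt K I J) (w : NC K I) (a : QA K) (m0 : Submodule K (QA K))
variable (t : Pt L (I ⊕ Bool) (Option J)) (P : Place K L)

theorem mid_self_scalar {k : ℕ} {e : QA L} (he : e ∈ mid L k k) :
    ∃ c : L, e = algebraMap L (QA L) c := by
  refine kpa_on_induction (p := fun e => ∃ c : L, e = algebraMap L (QA L) c) he ?_ ?_ ?_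
  · exact ⟨0, (map_zero _).symm⟩
  · rintro _ _ ⟨c, rfl⟩ ⟨d, rfl⟩
    exact ⟨c + d, (map_add _ _ _).symm⟩
  · intro g x h1 h2
    have e1 : g.1 = ∅ := Finset.eq_empty_iff_forall_notMem.2 fun n hn => by
      have h3 : k ≤ n ∧ n < k := h1 n hn
      omega
    have e2 : g.2 = ∅ := Finset.eq_empty_iff_forall_notMem.2 fun n hn => by
      have h3 : k ≤ n ∧ n < k := h2 n hn
      omega
    refine ⟨x, ?_⟩
    obtain ⟨g1, g2⟩ := g
    simp only at e1 e2
    rw [e1, e2, Algebra.algebraMap_eq_smul_one, QA.one_def, QA.e_eq_ec, QA.smul_ec, mul_one]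

theorem common_curve (hp : s.Good) (hst : s.Stable)
    (ht : Rch (s.ext w a m0) L inferInstance inferInstance t P)
    (T : I → QA L⟦X⟧) (hT : (s.fgt P t).IsCurve T) :
    Common s w P t T t.k ((s.fgt P t).curve T) := by
  have hf := Pt.kpx_ext_forget s w a m0 L _ _ t P ht
  obtain ⟨hg, hs, ha⟩ := C_reach s hp hst L _ _ _ _ hf
  have hR := Rch.curve (s0 := s) L _ _ _ P hf T hT
  obtain ⟨hg', -, -⟩ := C_reach s hp hst _ _ _ _ _ hR
  have ho : ((s.fgt P t).curve T).o = (s.fgt P t).o :=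
    hs _ _ _ _ _ (Rch.curve L _ _ _ _ Rch.refl T hT)
  obtain ⟨hlt, hkt⟩ := kpgl_t s w hp a m0 t P ht
  refine ⟨rfl, le_rfl, rfl, fun i => hT.zero i, hR, hg', ?_, ?_⟩
  · exact C_tangent_curve _ T _ hT hg' fun i m => KC.cf_dz m (T i)
  · intro v hv e he
    obtain ⟨c, rfl⟩ := mid_self_scalar he
    have hv' : c • v ∈ (s.fgt P t).W := Submodule.smul_mem _ _ hv
    obtain ⟨v', hv'W, hi, hr⟩ := (C_lift_curve _ hg T hT ho _).1 hv'
    refine ⟨v', hv'W, hi, ?_⟩
    have e1 : (fun i => (Place.laurent L).rq (v' i)) = c • v := funext hr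
    have hvl : ∀ i, v i ∈ lev L t.k := by
      intro i
      exact hg.V1lev v (hg.V0V1 hv.1) i
    rw [e1, map_smul, kpgl_ellg_one s w P t hlt (kpgl_omg_t s w hp P hkt) le_rfl v hvl,
      ← Algebra.commutes, Algebra.smul_def]

theorem common_grow (hp : s.Good) (hst : s.Stable)
    (ht : Rch (s.ext w a m0) L inferInstance inferInstance t P)
    (T : I → QA L⟦X⟧) (w1 w2 : I → QA L) (hT : (s.fgt P t).IsGrowth T w1 w2)
    (hI : (s.fgt P t).Inj ((s.fgt P t).W ⊓ LinearMap.ker (s.ellh w P t)) w1 w2) :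
    Common s w P t T (t.k + 1) ((s.fgt P t).grow T) := by
  have hf := Pt.kpx_ext_forget s w a m0 L _ _ t P ht
  obtain ⟨hg, hs, ha⟩ := C_reach s hp hst L _ _ _ _ hf
  have hR := Rch.grow (s0 := s) L _ _ _ P hf T w1 w2 hT
  obtain ⟨hg', -, -⟩ := C_reach s hp hst _ _ _ _ _ hR
  have ho : ((s.fgt P t).grow T).o = (s.fgt P t).o :=
    hs _ _ _ _ _ (Rch.grow L _ _ _ _ Rch.refl T w1 w2 hT)
  obtain ⟨hlt, hkt⟩ := kpgl_t s w hp a m0 t P ht
  refine ⟨rfl, Nat.le_succ _, rfl, fun i => hT.zero i, hR, hg', ?_, ?_⟩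
  · exact C_tangent_grow _ T _ w1 w2 hT hg' fun i m => KC.cf_dz m (T i)
  · intro v hv e he
    have hη : mulR e v ∈ mulE (s.fgt P t).k (s.fgt P t).W := mulR_mem_mulE _ hv he
    obtain ⟨η', hη', hK⟩ := C_theta _ hg ha w1 w2 hT.w1W hT.w2W
      ((s.fgt P t).W ⊓ LinearMap.ker (s.ellh w P t)) inf_le_left hI _ hη
    obtain ⟨v', hv'W, hi, hr⟩ := (C_lift_grow _ hg ha T w1 w2 hT ho _).1 hK
    refine ⟨v', hv'W, hi, ?_⟩
    have e1 : (fun i => (Place.laurent L).rq (v' i)) = mulR e v + η' := funext hr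
    have hWl : ∀ v ∈ (s.fgt P t).W, ∀ i, v i ∈ lev L t.k := by
      intro v hv i
      exact hg.V1lev v (hg.V0V1 hv.1) i
    have hω := kpgl_omg_t s w hp P hkt
    have hker : ∀ (v : I → QA L), v ∈ (s.fgt P t).W ⊓ LinearMap.ker (s.ellh w P t) →
        ∀ e ∈ mid L t.k (t.k + 1), s.ellg w P t (t.k + 1) (mulR e v) = 0 := by
      intro v hv e he
      rw [kpgl_ellg s w P t hlt hω (Nat.le_succ _) v (hWl v hv.1) e he,
        LinearMap.mem_ker.1 hv.2, zero_mul]
    have h0 : mulE (s.fgt P t).k ((s.fgt P t).W ⊓ LinearMap.ker (s.ellh w P t)) ≤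
        LinearMap.ker (s.ellg w P t (t.k + 1)) := by
      unfold mulE
      refine sup_le (sup_le (sup_le ?_ ?_) ?_) ?_
      · intro v hv
        have h1 := hker v hv 1 (Subalgebra.one_mem _)
        have h2 : mulR (1 : QA L) v = v := by
          funext i
          exact mul_one (v i)
        rw [h2] at h1
        exact h1
      · rintro _ ⟨v, hv, rfl⟩
        exact hker v hv _ (kpa_S1_mem _)
      · rintro _ ⟨v, hv, rfl⟩
        exact hker v hv _ (kpa_S2_mem _)
      · rintro _ ⟨v, hv, rfl⟩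
        exact hker v hv _ (kpa_S3_mem _)
    rw [e1, map_add, LinearMap.mem_ker.1 (h0 hη'), add_zero,
      kpgl_ellg s w P t hlt hω (Nat.le_succ _) v (hWl v hv) e he]

end

end Crest.Agent.KP.KS
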