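import Crest.Agent.KPS_Lift

/-!
# S0270 : Lemma S, file 7 : proof of Lemma S (helper76)
-/

set_option autoImplicit false
set_option linter.unusedSectionVars false

open scoped PowerSeries LaurentSeries symmDiff

namespace Crest.Agent.KP.KS

theorem nc_map_map {R S T I : Type} (f : R → S) (g : S → T) (p : NC R I) :
    (p.map f).map g = p.map (fun x => g (f x)) := by
  induction p with
  | cst c => rfl
  | var i => rfl
  | add p q hp hq => simp only [NC.map, hp, hq]
  | mul p q hp hq => simp only [NC.map, hp, hq]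

theorem resA_trans {K L M : Type} [Field K] [Field L] [Field M] [QPar K] [QPar L] [QPar M]
    (P : Place K L) (Q : Place L M) (Φ : Subalgebra M (QA M)) :
    (P.trans Q).resA Φ = P.resA (Q.resA Φ) := by
  apply Subalgebra.toSubmodule_injective
  rw [Place.toSubmodule_resA, Place.toSubmodule_resA, Place.toSubmodule_resA, kpr_resS_trans]

section
variable {K L I J : Type} [Field K] [KF K] [Field L] [KF L] [Fintype I] [Fintype J]
variable {s : Pt K I J} {w : NC K I} {d : ℕ} {a : QA K} {m0 : Submodule K (QA K)}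
variable {t : Pt L (I ⊕ Bool) (Option J)} {P : Place K L} {T : I → QA L⟦X⟧} {l' : ℕ}
variable {g h : QA L⟦X⟧} {δ : ℕ} {p : L} {G : QA L} {rb : QA K} {s' : Pt L⸨X⸩ I J}

/-- main computation -/
theorem exists_core (hp : s.Pkg w d) (hx : s.ExtOk w a m0)
    (ht : Rch (s.ext w a m0) L inferInstance inferInstance t P)
    (hS : s.SHyp w a P t T l' g h δ p G rb) (hC : Common s w P t T l' s') :
    ∃ σ : QA L⸨X⸩ ≃ₐ[L⸨X⸩] QA L⸨X⸩,
      CoreH s w d a (P.trans (Place.laurent L)) s' σ rb ∧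
      (s.SGen w a P t l' rb : Set (QA K)) ⊆
        (P.trans (Place.laurent L)).resS
          ((s'.LL (w.map (P.trans (Place.laurent L)).inc)).map σ.toLinearMap) := by
  obtain ⟨hlt, hkt⟩ := kpgl_t s w hp.good a m0 t P ht
  obtain ⟨hg0, hg1, hg2⟩ := gv_inv s w a m0 t P ht
  have hk : s'.k = l' := hC.k
  subst hk
  have hX : s'.X = fun i => toL L (T i) := hC.X
  -- the word over `L((X))`
  have hw : w.map (P.trans (Place.laurent L)).inc =
      (w.map P.inc).map (Place.laurent L).inc := by rw [nc_map_map]; rfl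
  have hωl : P.iq (s.omg w) ∈ lev L s'.k :=
    kpgl_omg_t s w hp.good P (hkt.trans hC.kt)
  -- inverse of `g`
  have hgl : toL L g ∈ lev L⸨X⸩ s'.k := toL_lev hS.glev
  have hgr : (Place.laurent L).rq (toL L g) = Pt.gv t := by rw [kpr_rq_toL, hS.g0]
  have hgi := kpr_int_toL g
  have hgne : toL L g ≠ 0 := by
    intro h0
    rw [h0, Place.rq_zero] at hgr
    exact hg0 hgr.symm
  obtain ⟨g', hg'l, hgg', hg'g⟩ :=
    bb_inv (K := L⸨X⸩) s'.k (lev L⸨X⸩ s'.k) le_rfl (toL L g) hgl hgne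
  obtain ⟨hg'i, hg'r⟩ := int_inv (Place.laurent L) hgi (by rw [hgr]; exact hg0) hgg'
  rw [hgr] at hg'r
  have hg'r2 : (Place.laurent L).rq g' = qinv (Pt.gv t) := by
    have e : (qinv (Pt.gv t) * Pt.gv t) * (Place.laurent L).rq g' = qinv (Pt.gv t) := by
      rw [mul_assoc, hg'r, mul_one]
    rwa [hg2, one_mul] at e
  let σ : QA L⸨X⸩ ≃ₐ[L⸨X⸩] QA L⸨X⸩ := cnj (K := L⸨X⸩) (toL L g) g' hgg' hg'g
  have hσ : ∀ u, σ u = g' * u * toL L g := fun u => rfl
  have hghL : toL L g * toL L h = toL L ((w.map P.inc).ev T) * toL L g := by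
    rw [← map_mul, hS.gh, map_mul]
  have hom : s'.omg (w.map (P.trans (Place.laurent L)).inc) = toL L ((w.map P.inc).ev T) := by
    unfold Pt.omg
    rw [hw, hX]
    exact KC.ev_toL T (w.map P.inc)
  have hσω : σ (s'.omg (w.map (P.trans (Place.laurent L)).inc)) = toL L h := by
    rw [hom, hσ, mul_assoc, ← hghL, ← mul_assoc, hg'g, one_mul]
  set Φ := Algebra.adjoin L⸨X⸩ {toL L h} with hΦ
  have hΦl : Φ ≤ lev L⸨X⸩ s'.k := adjoin_toL_le hS.hlev
  obtain ⟨hD1, hD2⟩ := D1core hωl hS.hlev hS.h0 hS.δ1 hS.hm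
  rw [hS.hδ] at hD2
  have hGΦ : G ∈ (Place.laurent L).resA Φ := by
    have h2 := Subalgebra.smul_mem _ hD2 p⁻¹
    rwa [smul_smul, inv_mul_cancel₀ hS.p0, one_smul] at h2
  set Ψ := P.resA ((Place.laurent L).resA Φ) with hΨ
  have hΨl : Ψ ≤ lev K s'.k := P.resA_lev_le ((Place.laurent L).resA_lev_le hΦl)
  have hΨc : ∀ x ∈ Ψ, ∀ y ∈ Ψ, x * y = y * x :=
    P.resA_comm ((Place.laurent L).resA_comm (adjoin_single_comm (toL L h)))
  have hωΨ : s.omg w ∈ Ψ := ⟨P.iq (s.omg w), hD1, P.int_iq _, P.rq_iq _⟩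
  have harbΨ : a * rb ∈ Ψ := ⟨G, hGΦ, hS.Gint, hS.Gres⟩
  have hK1Ψ : s.K1 w ≤ Ψ := Algebra.adjoin_le (by rintro _ rfl; exact hωΨ)
  have htr : (P.trans (Place.laurent L)).resA
      (Algebra.adjoin L⸨X⸩ {σ (s'.omg (w.map (P.trans (Place.laurent L)).inc))}) = Ψ := by
    rw [hσω, resA_trans]
  -- elements of `W(s')` are of level `s'.k`
  have hWl : ∀ v ∈ s'.W, ∀ i, v i ∈ lev L⸨X⸩ s'.k := fun v hv i =>
    hC.good.V1lev v (hC.good.V0V1 hv.1) i
  have hω'l : s'.omg (w.map (P.trans (Place.laurent L)).inc) ∈ lev L⸨X⸩ s'.k :=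
    omg_lev hC.good _
  have hdl : ∀ v ∈ s'.W, (w.map (P.trans (Place.laurent L)).inc).d1 s'.X v ∈ lev L⸨X⸩ s'.k :=
    fun v hv => NC.kph_d1_mem (lev L⸨X⸩ s'.k) _ _ _ hC.good.Xlev (hWl v hv)
  have hell : ∀ v ∈ s'.W, σ (s'.ell (w.map (P.trans (Place.laurent L)).inc) v) =
      Pr s'.k (Φ : Set (QA L⸨X⸩)) (σ ((w.map (P.trans (Place.laurent L)).inc).d1 s'.X v)) := by
    intro v hv
    have e1 := cnj_pr (K := L⸨X⸩) (toL L g) g' hgg' hg'g hgl hg'l
      {s'.omg (w.map (P.trans (Place.laurent L)).inc)} (hdl v hv)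
    rw [Set.image_singleton] at e1
    have e2 : cnj (K := L⸨X⸩) (toL L g) g' hgg' hg'g
        (s'.omg (w.map (P.trans (Place.laurent L)).inc)) = toL L h := hσω
    rw [e2] at e1
    have e3 := cnj_lev (K := L⸨X⸩) (toL L g) g' hgg' hg'g hgl hg'l (hdl v hv)
    have e4 := pr_adjoin (K := L⸨X⸩) (S := {toL L h}) e3
    exact e1.symm.trans e4.symm
  have hpush : ∀ v ∈ s'.W, (∀ i, (Place.laurent L).Int (v i)) →
      P.Int (s.ellg w P t s'.k (fun i => (Place.laurent L).rq (v i))) →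
      (P.trans (Place.laurent L)).Int
        (σ (s'.ell (w.map (P.trans (Place.laurent L)).inc) v)) ∧
      (P.trans (Place.laurent L)).rq
        (σ (s'.ell (w.map (P.trans (Place.laurent L)).inc) v)) =
        Pr s'.k (Ψ : Set (QA K))
          (P.rq (s.ellg w P t s'.k (fun i => (Place.laurent L).rq (v i)))) := by
    intro v hv hvi hPi
    have hXi : ∀ i, (Place.laurent L).Int (s'.X i) := fun i => by
      rw [hX]; exact kpr_int_toL _
    obtain ⟨e1, e2⟩ := NC.kph_res_d1 (Place.laurent L) (w.map P.inc) s'.X v hXi hvi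
    rw [← hw] at e1 e2
    have e3 : (fun i => (Place.laurent L).rq (s'.X i)) = fun i => t.X (Sum.inl i) := by
      funext i
      rw [hX, kpr_rq_toL, hC.T0]
    rw [e3] at e2
    have i1 := (Place.laurent L).int_mul hg'i e1
    have i2 := (Place.laurent L).int_mul i1 hgi
    have e4 : (Place.laurent L).rq
        (g' * (w.map (P.trans (Place.laurent L)).inc).d1 s'.X v * toL L g) =
        qinv (Pt.gv t) * (w.map P.inc).d1 (fun i => t.X (Sum.inl i))
          (fun i => (Place.laurent L).rq (v i)) * Pt.gv t := by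
      rw [(Place.laurent L).rq_mul i1 hgi, (Place.laurent L).rq_mul hg'i e1, e2, hg'r2, hgr]
    have hul : g' * (w.map (P.trans (Place.laurent L)).inc).d1 s'.X v * toL L g ∈
        lev L⸨X⸩ s'.k := mul_mem (mul_mem hg'l (hdl v hv)) hgl
    have e5 : Pr s'.k {P.iq (s.omg w)} ((Place.laurent L).rq
        (g' * (w.map (P.trans (Place.laurent L)).inc).d1 s'.X v * toL L g)) =
        s.ellg w P t s'.k (fun i => (Place.laurent L).rq (v i)) := by
      rw [e4]; rfl
    have e6 := D2core P hΦl hul i2 hD1 (by rw [e5]; exact hPi)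
    rw [e5] at e6
    rw [hell v hv, hσ]
    exact e6
  have hmemL : ∀ v ∈ s'.W, σ (s'.ell (w.map (P.trans (Place.laurent L)).inc) v) ∈
      (s'.LL (w.map (P.trans (Place.laurent L)).inc)).map σ.toLinearMap := fun v hv =>
    ⟨s'.ell (w.map (P.trans (Place.laurent L)).inc) v, ⟨v, hv, rfl⟩, rfl⟩
  -- residues of level-`t` elements
  have hkey : ∀ v ∈ (s.fgt P t).W, P.Int (s.ellh w P t v) → ∀ e ∈ mid K t.k s'.k,
      Pr s'.k (Ψ : Set (QA K)) (P.rq (s.ellh w P t v) * e) ∈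
        (P.trans (Place.laurent L)).resS
          ((s'.LL (w.map (P.trans (Place.laurent L)).inc)).map σ.toLinearMap) := by
    intro v hv hvi e he
    obtain ⟨v', hv', hi', h1⟩ := hC.lift v hv (P.iq e) (P.iq_mid he)
    have h2 : P.Int (s.ellg w P t s'.k (fun i => (Place.laurent L).rq (v' i))) := by
      rw [h1]; exact P.int_mul hvi (P.int_iq e)
    obtain ⟨h3, h4⟩ := hpush v' hv' hi' h2
    rw [h1, P.rq_mul hvi (P.int_iq e), P.rq_iq] at h4
    exact ⟨_, hmemL v' hv', h3, h4⟩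
  have hLs : ∀ b ∈ s.LL w, b ∈ (P.trans (Place.laurent L)).resS
      ((s'.LL (w.map (P.trans (Place.laurent L)).inc)).map σ.toLinearMap) := by
    intro b hb
    have haK : a ∈ s.K1 w := hp.comm hx.aL
    have hbK : b ∈ s.K1 w := hp.comm hb
    obtain ⟨a', ha', h1, h2⟩ := bb_inv s.k (s.K1 w) (K1_le_lev hp.good w) a haK hx.a0
    have hcomm : ∀ x ∈ s.K1 w, ∀ y ∈ s.K1 w, x * y = y * x := adjoin_single_comm (s.omg w)
    have hr : a' * b ∈ s.RR w a := by
      refine ⟨Algebra.subset_adjoin ⟨mul_mem (K1_le_lev hp.good w ha') (K1_le_lev hp.good w hbK),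
        a, hx.aL, hx.a0, ?_⟩, ?_⟩
      · rw [mul_assoc, hcomm b hbK a haK, ← mul_assoc, h2, one_mul]
        exact hb
      · change a * (a' * b) ∈ s.LL w
        rw [← mul_assoc, h1, one_mul]
        exact hb
    obtain ⟨v, hv, hvi, hvr⟩ := hS.b _ hr 1 (Subalgebra.one_mem _)
    rw [mul_one, ← mul_assoc, h1, one_mul] at hvr
    have h3 := hkey v hv hvi 1 (Subalgebra.one_mem _)
    rw [hvr, mul_one, pr_of_comm (hΨl (hK1Ψ hbK)) (fun φ hφ => hΨc b (hK1Ψ hbK) φ hφ)] at h3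
    exact h3
  have harbL : a * rb ∈ (P.trans (Place.laurent L)).resS
      ((s'.LL (w.map (P.trans (Place.laurent L)).inc)).map σ.toLinearMap) := by
    obtain ⟨c, -, h1, h2⟩ := tangent_core P hωl hS.hlev hS.h0 hS.δ1 hS.hm hS.p0 hS.hδ hS.Gint
    have e0 : σ (s'.ell (w.map (P.trans (Place.laurent L)).inc)
        (fun i => toL L (KC.dz (T i)))) =
        Pr s'.k (Φ : Set (QA L⸨X⸩)) (toL L (KC.dz h)) := by
      rw [hell _ hC.tan]
      have e1 : (w.map (P.trans (Place.laurent L)).inc).d1 s'.X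
          (fun i => toL L (KC.dz (T i))) = toL L (KC.dz ((w.map P.inc).ev T)) := by
        rw [hw, hX, KC.dz_ev]
        exact KC.d1_toL T (fun i => KC.dz (T i)) (w.map P.inc)
      have e2 : toL L (KC.dz g) * toL L h + toL L g * toL L (KC.dz h) =
          toL L (KC.dz ((w.map P.inc).ev T)) * toL L g +
            toL L ((w.map P.inc).ev T) * toL L (KC.dz g) := by
        rw [← map_mul, ← map_mul, ← map_mul, ← map_mul, ← map_add, ← map_add, ← KC.dz_mul,
          ← KC.dz_mul, hS.gh]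
      have e3 : g' * toL L ((w.map P.inc).ev T) = toL L h * g' := by
        have e4 : g' * (toL L g * toL L h) * g' =
            g' * (toL L ((w.map P.inc).ev T) * toL L g) * g' := by rw [hghL]
        rw [← mul_assoc g' (toL L g), hg'g, one_mul, mul_assoc, mul_assoc, hgg', mul_one] at e4
        exact e4.symm
      have e5 : σ (toL L (KC.dz ((w.map P.inc).ev T))) = toL L (KC.dz h) +
          ((g' * toL L (KC.dz g)) * toL L h - toL L h * (g' * toL L (KC.dz g))) := by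
        rw [hσ]
        have e6 : g' * (toL L (KC.dz g) * toL L h + toL L g * toL L (KC.dz h)) =
            g' * (toL L (KC.dz ((w.map P.inc).ev T)) * toL L g +
              toL L ((w.map P.inc).ev T) * toL L (KC.dz g)) := by rw [e2]
        rw [mul_add, mul_add, ← mul_assoc g' (toL L g), hg'g, one_mul,
          ← mul_assoc g' (toL L ((w.map P.inc).ev T)), e3, ← mul_assoc, ← mul_assoc] at e6
        rw [mul_assoc (toL L h)] at e6
        rw [← add_sub_assoc, eq_sub_iff_add_eq, ← e6, add_comm]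
      have hdzl : ∀ u : QA L⟦X⟧, (∀ m, cf m u ∈ lev L s'.k) →
          toL L (KC.dz u) ∈ lev L⸨X⸩ s'.k := fun u hu => toL_lev fun m => by
        rw [KC.cf_dz]
        exact Subalgebra.smul_mem _ (hu _) _
      have hhl : toL L h ∈ lev L⸨X⸩ s'.k := toL_lev hS.hlev
      rw [e1, e5, map_add, pr_commutator (K := L⸨X⸩) (Algebra.subset_adjoin (Set.mem_singleton _))
        hhl (mul_mem hg'l (hdzl g hS.glev)), add_zero]
    rw [← e0] at h1 h2
    rw [hS.Gres] at h2
    exact ⟨_, Submodule.smul_mem _ c (hmemL _ hC.tan), h1, h2⟩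
  have hcore : CoreH s w d a (P.trans (Place.laurent L)) s' σ rb := by
    refine ⟨hp, hx.aL, hx.a0, hC.rch, hC.good, fun u hu => ?_, fun u hu => ?_, hS.rblev,
      hS.rbcomm, ?_, ?_, hLs, harbL, hS.dim⟩
    · exact cnj_lev (K := L⸨X⸩) (toL L g) g' hgg' hg'g hgl hg'l hu
    · exact cnj_symm_lev (K := L⸨X⸩) (toL L g) g' hgg' hg'g hgl hg'l hu
    · rw [htr]; exact hωΨ
    · rw [htr]; exact harbΨ
  refine ⟨σ, hcore, ?_⟩
  rintro u (hu | ⟨v, hv, hvi, e, he, rfl⟩)
  · rw [Set.mem_singleton_iff.1 hu]; exact harbL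
  · have h1 := hkey v hv hvi e he
    have h2 : (Ψ : Set (QA K)) = (Algebra.adjoin K ({s.omg w, rb} : Set (QA K)) : Set (QA K)) := by
      rw [hcore.n1_eq.2, htr]
    have h3 : P.rq (s.ellh w P t v) * e ∈ lev K s'.k := by
      refine mul_mem (P.rq_lev ?_) (kpa_mid_le_lev _ _ he)
      have hvl : ∀ i, v i ∈ lev L t.k := by
        intro i
        have hf := Pt.kpx_ext_forget s w a m0 L _ _ t P ht
        obtain ⟨hg, -, -⟩ := C_reach s hp.good hp.stable L _ _ _ _ hf
        exact hg.V1lev v (hg.V0V1 hv.1) i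
      have hXl : ∀ i, t.X (Sum.inl i) ∈ lev L t.k := fun i => hlt.X _
      have hgvl : Pt.gv t ∈ lev L t.k := hlt.X _
      exact kpa_lev_mono hC.kt (pr_mem (mul_mem (mul_mem (kpgl_qinv_lev hgvl)
        (NC.kph_d1_mem (lev L t.k) _ _ _ hXl hvl)) hgvl))
    rw [h2, pr_adjoin h3] at h1
    exact h1

theorem exists_common (hp : s.Pkg w d)
    (ht : Rch (s.ext w a m0) L inferInstance inferInstance t P)
    (hS : s.SStep w P t T l') : ∃ s' : Pt L⸨X⸩ I J, Common s w P t T l' s' := by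
  rcases hS with ⟨rfl, hT⟩ | ⟨rfl, w1, w2, hT, hI⟩
  · exact ⟨_, common_curve s w a m0 t P hp.good hp.stable ht T hT⟩
  · exact ⟨_, common_grow s w a m0 t P hp.good hp.stable ht T w1 w2 hT hI⟩

end

/-- **Lemma S1** -/
theorem lemS1' {K L I J : Type} [Field K] [KF K] [Field L] [KF L] [Fintype I] [Fintype J]
    (s : Pt K I J) (w : NC K I) (d : ℕ) (hp : s.Pkg w d) (a : QA K)
    (m0 : Submodule K (QA K)) (hx : s.ExtOk w a m0)
    (t : Pt L (I ⊕ Bool) (Option J)) (P : Place K L)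
    (ht : Rch (s.ext w a m0) L inferInstance inferInstance t P)
    (T : I → QA L⟦X⟧) (l' : ℕ) (g h : QA L⟦X⟧) (δ : ℕ) (p : L) (G : QA L) (rb : QA K)
    (hS : s.SHyp w a P t T l' g h δ p G rb) :
    Module.finrank K (Algebra.adjoin K ((s.K2 w : Set (QA K)) ∪ {rb})) ≤
      s.n2 w * 2 ^ (l' - s.k) := by
  obtain ⟨s', hC⟩ := exists_common hp ht hS.step
  obtain ⟨σ, hcore, -⟩ := exists_core hp hx ht hS hC
  have h1 := hcore.S1
  rwa [hC.k] at h1

/-- **Lemma S2** -/
theorem lemS2' {K L I J : Type} [Field K] [KF K] [Field L] [KF L] [Fintype I] [Fintype J]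
    (s : Pt K I J) (w : NC K I) (d : ℕ) (hp : s.Pkg w d) (a : QA K)
    (m0 : Submodule K (QA K)) (hx : s.ExtOk w a m0)
    (t : Pt L (I ⊕ Bool) (Option J)) (P : Place K L)
    (ht : Rch (s.ext w a m0) L inferInstance inferInstance t P)
    (T : I → QA L⟦X⟧) (l' : ℕ) (g h : QA L⟦X⟧) (δ : ℕ) (p : L) (G : QA L) (rb : QA K)
    (hS : s.SHyp w a P t T l' g h δ p G rb)
    (hdim : Module.finrank K (Algebra.adjoin K ((s.K2 w : Set (QA K)) ∪ {rb})) =
      s.n2 w * 2 ^ (l' - s.k)) :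
    Module.finrank K (Submodule.span K (s.SGen w a P t l' rb)) + d ≤
      s.n2 w * 2 ^ (l' - s.k) := by
  obtain ⟨s', hC⟩ := exists_common hp ht hS.step
  obtain ⟨σ, hcore, hgen⟩ := exists_core hp hx ht hS hC
  have h0 := hC.k
  subst h0
  exact hcore.S2 hdim _ hgen

end Crest.Agent.KP.KS
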