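import Crest.Agent.KPS_BB

/-!
# S0270 : Lemma S, file 1 : the projections `Pr`, conjugation (helper76)
-/

set_option autoImplicit false
set_option linter.unusedSectionVars false

open scoped PowerSeries LaurentSeries symmDiff

namespace Crest.Agent.KP.KS

section PrA
variable {K : Type} [Field K] [KF K]

/-- `u` commutes with `S` -/
def Comm (S : Set (QA K)) (u : QA K) : Prop := ∀ φ ∈ S, u * φ = φ * u

theorem Comm.mono {S S' : Set (QA K)} (h : S ⊆ S') {u : QA K} (hu : Comm S' u) : Comm S u :=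
  fun φ hφ => hu φ (h hφ)

theorem Comm.add {S : Set (QA K)} {u v : QA K} (hu : Comm S u) (hv : Comm S v) :
    Comm S (u + v) := fun φ hφ => by rw [add_mul, mul_add, hu φ hφ, hv φ hφ]

theorem Comm.sub {S : Set (QA K)} {u v : QA K} (hu : Comm S u) (hv : Comm S v) :
    Comm S (u - v) := fun φ hφ => by rw [sub_mul, mul_sub, hu φ hφ, hv φ hφ]

theorem Comm.mul {S : Set (QA K)} {u v : QA K} (hu : Comm S u) (hv : Comm S v) :
    Comm S (u * v) := fun φ hφ => by
  rw [mul_assoc, hv φ hφ, ← mul_assoc, hu φ hφ, mul_assoc]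

theorem Comm.smul {S : Set (QA K)} (c : K) {u : QA K} (hu : Comm S u) :
    Comm S (c • u) := fun φ hφ => by rw [smul_mul_assoc, mul_smul_comm, hu φ hφ]

theorem Comm.inv {S : Set (QA K)} {u v : QA K} (hu : Comm S u) (h1 : u * v = 1) (h2 : v * u = 1) :
    Comm S v := fun φ hφ => by
  have := hu φ hφ
  calc v * φ = v * φ * (u * v) := by rw [h1, mul_one]
    _ = v * (φ * u) * v := by simp only [mul_assoc]
    _ = v * (u * φ) * v := by rw [this]
    _ = (v * u) * φ * v := by simp only [mul_assoc]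
    _ = φ * v := by rw [h2, one_mul]

/-- commuting with a generating set is commuting with the algebra -/
theorem Comm.adjoin {S : Set (QA K)} {u : QA K} (hu : Comm S u) :
    Comm (Algebra.adjoin K S : Set (QA K)) u := by
  intro φ hφ
  have h1 : Algebra.adjoin K S ≤ Subalgebra.centralizer K {u} := by
    refine Algebra.adjoin_le fun x hx => ?_
    rw [SetLike.mem_coe, Subalgebra.mem_centralizer_iff]
    rintro y hy
    rw [Set.mem_singleton_iff.1 hy]
    exact hu x hx
  have h2 := h1 hφ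
  rw [Subalgebra.mem_centralizer_iff] at h2
  exact h2 u rfl

theorem comm_adjoin_iff {S : Set (QA K)} {u : QA K} :
    Comm (Algebra.adjoin K S : Set (QA K)) u ↔ Comm S u :=
  ⟨Comm.mono Algebra.subset_adjoin, Comm.adjoin⟩

theorem isPr_def {k : ℕ} {S : Set (QA K)} {u c : QA K} :
    IsPr k S u c ↔ c ∈ lev K k ∧ Comm S c ∧ ∀ d ∈ lev K k, Comm S d → QA.tr ((u - c) * d) = 0 :=
  Iff.rfl

theorem kps_eq_zero {k : ℕ} {S : Set (QA K)} {c : QA K} (hc : c ∈ lev K k) (hcS : Comm S c)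
    (h : ∀ d ∈ lev K k, Comm S d → QA.tr (c * d) = 0) : c = 0 := by
  by_contra h0
  obtain ⟨v, hv, h1, h2⟩ := bb_inv k (lev K k) le_rfl c hc h0
  have := h v hv (hcS.inv h1 h2)
  rw [h1, bb_tr_one] at this
  exact one_ne_zero this

theorem isPr_unique {k : ℕ} {S : Set (QA K)} {u c c' : QA K} (h : IsPr k S u c)
    (h' : IsPr k S u c') : c = c' := by
  rw [isPr_def] at h h'
  have : c - c' = 0 := by
    refine kps_eq_zero (k := k) (S := S) (sub_mem h.1 h'.1) (h.2.1.sub h'.2.1) fun d hd hdS => ?_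
    have h1 := h.2.2 d hd hdS
    have h2 := h'.2.2 d hd hdS
    have h3 : (c - c') * d = (u - c') * d - (u - c) * d := by
      rw [← sub_mul]; congr 1; abel
    rw [h3, map_sub, h1, h2, sub_zero]
  exact sub_eq_zero.1 this

theorem pr_eq {k : ℕ} {S : Set (QA K)} {u c : QA K} (hu : u ∈ lev K k) (h : IsPr k S u c) :
    Pr k S u = c := isPr_unique (Pr_spec k S u hu) h

theorem pr_mem {k : ℕ} {S : Set (QA K)} {u : QA K} (hu : u ∈ lev K k) : Pr k S u ∈ lev K k :=
  (Pr_spec k S u hu).1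

theorem pr_comm {k : ℕ} {S : Set (QA K)} {u : QA K} (hu : u ∈ lev K k) : Comm S (Pr k S u) :=
  (Pr_spec k S u hu).2.1

theorem pr_orth {k : ℕ} {S : Set (QA K)} {u : QA K} (hu : u ∈ lev K k) {d : QA K}
    (hd : d ∈ lev K k) (hdS : Comm S d) : QA.tr ((u - Pr k S u) * d) = 0 :=
  (Pr_spec k S u hu).2.2 d hd hdS

theorem pr_orth' {k : ℕ} {S : Set (QA K)} {u : QA K} (hu : u ∈ lev K k) {d : QA K}
    (hd : d ∈ lev K k) (hdS : Comm S d) : QA.tr (Pr k S u * d) = QA.tr (u * d) := by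
  have := pr_orth hu hd hdS
  rw [sub_mul, map_sub, sub_eq_zero] at this
  exact this.symm

theorem pr_congr {k : ℕ} {S S' : Set (QA K)} {u : QA K} (hu : u ∈ lev K k)
    (h : ∀ d ∈ lev K k, Comm S d ↔ Comm S' d) : Pr k S u = Pr k S' u := by
  refine pr_eq hu ?_
  rw [isPr_def]
  refine ⟨pr_mem hu, (h _ (pr_mem hu)).2 (pr_comm hu), fun d hd hdS => ?_⟩
  exact pr_orth hu hd ((h d hd).1 hdS)

theorem pr_adjoin {k : ℕ} {S : Set (QA K)} {u : QA K} (hu : u ∈ lev K k) :
    Pr k (Algebra.adjoin K S : Set (QA K)) u = Pr k S u :=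
  pr_congr hu fun _ _ => comm_adjoin_iff

theorem pr_pr {k : ℕ} {S S' : Set (QA K)} (h : S ⊆ S') {u : QA K} (hu : u ∈ lev K k) :
    Pr k S' (Pr k S u) = Pr k S' u := by
  symm
  refine pr_eq hu ?_
  rw [isPr_def]
  refine ⟨pr_mem (pr_mem hu), pr_comm (pr_mem hu), fun d hd hdS => ?_⟩
  rw [sub_mul, map_sub, pr_orth' (pr_mem hu) hd hdS, pr_orth' hu hd (hdS.mono h), sub_self]

theorem pr_of_comm {k : ℕ} {S : Set (QA K)} {u : QA K} (hu : u ∈ lev K k) (h : Comm S u) :
    Pr k S u = u := by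
  refine pr_eq hu ?_
  rw [isPr_def]
  exact ⟨hu, h, fun d _ _ => by rw [sub_self, zero_mul, map_zero]⟩

theorem pr_commutator {k : ℕ} {S : Set (QA K)} {x y : QA K} (hx : x ∈ S) (hxl : x ∈ lev K k)
    (hy : y ∈ lev K k) : Pr k S (y * x - x * y) = 0 := by
  refine pr_eq (sub_mem (mul_mem hy hxl) (mul_mem hxl hy)) ?_
  rw [isPr_def]
  refine ⟨zero_mem _, fun φ _ => by rw [zero_mul, mul_zero], fun d hd hdS => ?_⟩
  rw [sub_zero, sub_mul, map_sub, mul_assoc, mul_assoc, bb_tr_comm x (y * d), mul_assoc,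
    hdS x hx, sub_self]

theorem pr_mul_left {k : ℕ} {S : Set (QA K)} {c u : QA K} (hc : c ∈ lev K k) (hcS : Comm S c)
    (hu : u ∈ lev K k) : Pr k S (c * u) = c * Pr k S u := by
  refine pr_eq (mul_mem hc hu) ?_
  rw [isPr_def]
  refine ⟨mul_mem hc (pr_mem hu), hcS.mul (pr_comm hu), fun d hd hdS => ?_⟩
  have h1 : (c * u - c * Pr k S u) * d = c * ((u - Pr k S u) * d) := by
    rw [← mul_sub, mul_assoc]
  rw [h1, bb_tr_comm, mul_assoc]
  exact pr_orth hu (mul_mem hd hc) (hdS.mul hcS)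

theorem pr_mul_right {k : ℕ} {S : Set (QA K)} {c u : QA K} (hc : c ∈ lev K k) (hcS : Comm S c)
    (hu : u ∈ lev K k) : Pr k S (u * c) = Pr k S u * c := by
  refine pr_eq (mul_mem hu hc) ?_
  rw [isPr_def]
  refine ⟨mul_mem (pr_mem hu) hc, (pr_comm hu).mul hcS, fun d hd hdS => ?_⟩
  have h1 : (u * c - Pr k S u * c) * d = (u - Pr k S u) * (c * d) := by
    rw [← sub_mul, mul_assoc]
  rw [h1]
  exact pr_orth hu (mul_mem hc hd) (hcS.mul hdS)

end PrA

/-! ### inner automorphisms -/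

section conj
variable {K : Type} [Field K] [KF K]

/-- `u ↦ g' u g` for `g' g = g g' = 1` -/
noncomputable def cnj (g g' : QA K) (h : g * g' = 1) (h' : g' * g = 1) : QA K ≃ₐ[K] QA K where
  toFun u := g' * u * g
  invFun u := g * u * g'
  left_inv u := by
    calc g * (g' * u * g) * g' = (g * g') * u * (g * g') := by simp only [mul_assoc]
      _ = u := by rw [h, one_mul, mul_one]
  right_inv u := by
    calc g' * (g * u * g') * g = (g' * g) * u * (g' * g) := by simp only [mul_assoc]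
      _ = u := by rw [h', one_mul, mul_one]
  map_mul' u v := by
    calc g' * (u * v) * g = g' * u * 1 * v * g := by simp only [mul_assoc, mul_one]
      _ = g' * u * (g * g') * v * g := by rw [h]
      _ = g' * u * g * (g' * v * g) := by simp only [mul_assoc]
  map_add' u v := by rw [mul_add, add_mul]
  commutes' c := by
    rw [← Algebra.commutes c g', mul_assoc, h', mul_one]

variable (g g' : QA K) (h : g * g' = 1) (h' : g' * g = 1)

theorem cnj_apply (u : QA K) : cnj g g' h h' u = g' * u * g := rfl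
theorem cnj_symm_apply (u : QA K) : (cnj g g' h h').symm u = g * u * g' := rfl

theorem cnj_lev {k : ℕ} (hg : g ∈ lev K k) (hg' : g' ∈ lev K k) {u : QA K} (hu : u ∈ lev K k) :
    cnj g g' h h' u ∈ lev K k := mul_mem (mul_mem hg' hu) hg

theorem cnj_symm_lev {k : ℕ} (hg : g ∈ lev K k) (hg' : g' ∈ lev K k) {u : QA K}
    (hu : u ∈ lev K k) : (cnj g g' h h').symm u ∈ lev K k := mul_mem (mul_mem hg hu) hg'

theorem cnj_tr (u : QA K) : QA.tr (cnj g g' h h' u) = QA.tr u := by
  rw [cnj_apply, bb_tr_comm, ← mul_assoc, h, one_mul]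

/-- the projections commute with conjugation -/
theorem cnj_pr {k : ℕ} (hg : g ∈ lev K k) (hg' : g' ∈ lev K k) (S : Set (QA K)) {u : QA K}
    (hu : u ∈ lev K k) :
    Pr k (cnj g g' h h' '' S) (cnj g g' h h' u) = cnj g g' h h' (Pr k S u) := by
  refine pr_eq (cnj_lev g g' h h' hg hg' hu) ?_
  rw [isPr_def]
  refine ⟨cnj_lev g g' h h' hg hg' (pr_mem hu), ?_, ?_⟩
  · rintro _ ⟨φ, hφ, rfl⟩
    rw [← map_mul, ← map_mul, pr_comm hu φ hφ]
  · intro d hd hdS
    obtain ⟨d, rfl⟩ := (cnj g g' h h').surjective d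
    rw [← map_sub, ← map_mul, cnj_tr]
    refine pr_orth hu ?_ ?_
    · have := cnj_symm_lev g g' h h' hg hg' hd
      rwa [AlgEquiv.symm_apply_apply] at this
    · intro φ hφ
      have := hdS _ ⟨φ, hφ, rfl⟩
      rw [← map_mul, ← map_mul] at this
      exact (cnj g g' h h').injective this

end conj

end Crest.Agent.KP.KS
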