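import Crest.Agent.KPS_Main

/-!
# S0270 : Lemma S under the names of the interface (helper76)
-/

set_option autoImplicit false
set_option linter.unusedSectionVars false

open scoped PowerSeries LaurentSeries symmDiff

namespace Crest.Agent.KP

/-- **Lemma S1** (P3 (F)). `dim K''[rb] ≤ N Q`. -/
theorem lemS1 {K L I J : Type} [Field K] [KF K] [Field L] [KF L] [Fintype I] [Fintype J]
    (s : Pt K I J) (w : NC K I) (d : ℕ) (hp : s.Pkg w d) (a : QA K)
    (m0 : Submodule K (QA K)) (hx : s.ExtOk w a m0)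
    (t : Pt L (I ⊕ Bool) (Option J)) (P : Place K L)
    (ht : Rch (s.ext w a m0) L inferInstance inferInstance t P)
    (T : I → QA L⟦X⟧) (l' : ℕ) (g h : QA L⟦X⟧) (δ : ℕ) (p : L) (G : QA L) (rb : QA K)
    (hS : s.SHyp w a P t T l' g h δ p G rb) :
    Module.finrank K (Algebra.adjoin K ((s.K2 w : Set (QA K)) ∪ {rb})) ≤
      s.n2 w * 2 ^ (l' - s.k) :=
  KS.lemS1' s w d hp a m0 hx t P ht T l' g h δ p G rb hS

/-- **Lemma S2** (P3 (F)). If `dim K''[rb] = N Q` then the composed residue of `g⁻¹ L(T') g`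
has dimension at most `N Q - d`. -/
theorem lemS2 {K L I J : Type} [Field K] [KF K] [Field L] [KF L] [Fintype I] [Fintype J]
    (s : Pt K I J) (w : NC K I) (d : ℕ) (hp : s.Pkg w d) (a : QA K)
    (m0 : Submodule K (QA K)) (hx : s.ExtOk w a m0)
    (t : Pt L (I ⊕ Bool) (Option J)) (P : Place K L)
    (ht : Rch (s.ext w a m0) L inferInstance inferInstance t P)
    (T : I → QA L⟦X⟧) (l' : ℕ) (g h : QA L⟦X⟧) (δ : ℕ) (p : L) (G : QA L) (rb : QA K)
    (hS : s.SHyp w a P t T l' g h δ p G rb)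
    (hdim : Module.finrank K (Algebra.adjoin K ((s.K2 w : Set (QA K)) ∪ {rb})) =
      s.n2 w * 2 ^ (l' - s.k)) :
    Module.finrank K (Submodule.span K (s.SGen w a P t l' rb)) + d ≤
      s.n2 w * 2 ^ (l' - s.k) :=
  KS.lemS2' s w d hp a m0 hx t P ht T l' g h δ p G rb hS hdim

end Crest.Agent.KP
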