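import Crest.Agent.KPX_Lev
import Crest.Agent.KPA_Pr
import Crest.Agent.KPB_ext
import Crest.Agent.KPG_D2

/-!
# S0270, part (E) (helper43), file 1: base change of subspaces `ex`, `tE`; dimensions; `Cen`, `Cperp`,
`Fpart` at higher levels.

`ex P B` = `L`-span of `P.iq '' B`; `tE k l B` = span of `b * e`, `b ∈ B`, `e ∈ mid k l` (KP_Defs3).
-/

set_option autoImplicit false
set_option linter.unusedSectionVars false
set_option maxHeartbeats 400000

open scoped PowerSeries LaurentSeries symmDiff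

namespace Crest.Agent.KP

variable {K L M : Type} [Field K] [Field L] [Field M] [KF K] [KF L] [KF M]

/-- span over `L` of the image of `B` under the inclusion of constants -/
noncomputable def ex (P : Place K L) (B : Submodule K (QA K)) : Submodule L (QA L) :=
  Submodule.span L (P.iq '' (B : Set (QA K)))

/-- the subalgebra `lev K k` as a subspace -/
noncomputable abbrev levS (K : Type) [Field K] [KF K] (k : ℕ) : Submodule K (QA K) :=
  Subalgebra.toSubmodule (lev K k)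

/-! ### basic facts on `lev`, `mid` -/

theorem kpx_comm {k l : ℕ} {u e : QA K} (hu : u ∈ lev K k) (he : e ∈ mid K k l) :
    u * e = e * u := kpa_lev_mid_comm hu he

theorem kpx_tr_mul {k l : ℕ} {u e : QA K} (hu : u ∈ lev K k) (he : e ∈ mid K k l) :
    QA.tr (u * e) = QA.tr u * QA.tr e := kpa_tr_lev_mid hu he

theorem kpx_tr_comm (u v : QA K) : QA.tr (u * v) = QA.tr (v * u) := kpa_tr_comm u v

theorem kpx_tr_nondeg {k : ℕ} {u : QA K} (hu : u ∈ lev K k) (h : ∀ v ∈ lev K k, QA.tr (v * u) = 0) :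
    u = 0 := kpa_lev_nondeg hu fun d hd => by rw [kpa_tr_comm]; exact h d hd

/-- same for `mid` -/
theorem kpx_tr_nondeg_mid {k l : ℕ} {u : QA K} (hu : u ∈ mid K k l)
    (h : ∀ v ∈ mid K k l, QA.tr (v * u) = 0) : u = 0 :=
  kpa_sub_nondeg hu fun d hd => by rw [kpa_tr_comm]; exact h d hd

theorem kpx_lev_mono {k l : ℕ} (h : k ≤ l) : lev K k ≤ lev K l := kpa_lev_mono h

theorem kpx_mid_le {k l : ℕ} : mid K k l ≤ lev K l := kpa_mid_le_lev k l

theorem kpx_mid_mono {k l k' l' : ℕ} (h : k' ≤ k) (h' : l ≤ l') : mid K k l ≤ mid K k' l' :=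
  kpa_mid_mono h h'

theorem kpx_mid_self {k : ℕ} {u : QA K} (hu : u ∈ mid K k k) :
    ∃ c : K, u = algebraMap K (QA K) c := by
  refine ⟨QA.tr u, ?_⟩
  rw [Algebra.algebraMap_eq_smul_one, ← kpa_low_mid hu, kpa_low_of_mem (kpa_mid_le_lev k k hu)]

/-- `lev k` has the basis `e g`, `g ⊆ [0,k)`. -/
theorem kpx_finrank_lev (k : ℕ) : Module.finrank K (levS K k) = 4 ^ k := kpa_finrank_lev k

instance kpx_finite_lev (k : ℕ) : Module.Finite K (lev K k) := kpa_fd_lev k

theorem kpx_finrank_mid {k l : ℕ} (_h : k ≤ l) :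
    Module.finrank K (Subalgebra.toSubmodule (mid K k l)) = 4 ^ (l - k) := kpa_finrank_mid k l

/-- also `mid k m` is spanned by products of `mid k l` and `mid l m`. -/
theorem kpx_mid_mul {k l m : ℕ} (h : k ≤ l) (h' : l ≤ m) :
    Subalgebra.toSubmodule (mid K k l) * Subalgebra.toSubmodule (mid K l m) =
      Subalgebra.toSubmodule (mid K k m) := by
  apply le_antisymm
  · rw [Submodule.mul_le]
    intro a ha b hb
    exact (mid K k m).mul_mem (kpa_mid_mono le_rfl h' ha) (kpa_mid_mono h le_rfl hb)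
  · intro e he
    refine kpa_on_induction (p := fun u => u ∈ Subalgebra.toSubmodule (mid K k l) *
      Subalgebra.toSubmodule (mid K l m)) he (zero_mem _) (fun u v hu hv => add_mem hu hv) ?_
    intro g x h1 h2
    have h3 : (QA.ec g x : QA K) = x • (QA.e (loI l g) * QA.e (hiI l g)) := by
      rw [← kpa_e_lo_hi, QA.e_eq_ec, QA.smul_ec, mul_one]
    rw [h3]
    refine Submodule.smul_mem _ _ (Submodule.mul_mem_mul ?_ ?_)
    · refine kpa_ec_mem_mid (fun s hs => ?_) (fun s hs => ?_) 1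
      · exact ⟨(h1 s (Finset.mem_filter.1 hs).1).1, (kpa_below_lo l g).1 s hs⟩
      · exact ⟨(h2 s (Finset.mem_filter.1 hs).1).1, (kpa_below_lo l g).2 s hs⟩
    · refine kpa_ec_mem_mid (fun s hs => ?_) (fun s hs => ?_) 1
      · exact ⟨(kpa_above_hi l g).1 s hs, (h1 s (Finset.mem_filter.1 hs).1).2⟩
      · exact ⟨(kpa_above_hi l g).2 s hs, (h2 s (Finset.mem_filter.1 hs).1).2⟩

theorem kpx_mid_span {k l m : ℕ} (h : k ≤ l) (h' : l ≤ m) {e : QA K} (he : e ∈ mid K k m) :
    e ∈ Submodule.span K {u | ∃ a ∈ mid K k l, ∃ b ∈ mid K l m, u = a * b} := by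
  have h1 : e ∈ Subalgebra.toSubmodule (mid K k m) := he
  rw [← kpx_mid_mul h h'] at h1
  have h2 : Subalgebra.toSubmodule (mid K k l) * Subalgebra.toSubmodule (mid K l m) ≤
      Submodule.span K {u | ∃ a ∈ mid K k l, ∃ b ∈ mid K l m, u = a * b} := by
    rw [Submodule.mul_le]
    intro a ha b hb
    exact Submodule.subset_span ⟨a, ha, b, hb, rfl⟩
  exact h2 h1

/-- decomposition of `lev l` -/
theorem kpx_tE_lev {k l : ℕ} (h : k ≤ l) : tE k l (levS K k) = levS K l := by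
  rw [kpg_tE_eq]
  have := kpx_mid_mul (K := K) (Nat.zero_le k) h
  rw [kpa_mid_zero, kpa_mid_zero] at this
  exact this

/-- every f.d. subalgebra is a division algebra, so the trace form is nondegenerate on it. -/
theorem kpx_tr_nondeg_sub (B : Subalgebra K (QA K)) {k : ℕ} (hB : B ≤ lev K k) {u : QA K} (hu : u ∈ B)
    (h : ∀ v ∈ B, QA.tr (v * u) = 0) : u = 0 := by
  have := kpa_fd_of_le' hB
  exact kpa_sub_nondeg hu fun d hd => by rw [kpa_tr_comm]; exact h d hd

/-! ### dimensions of `tE` and `ex` -/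

theorem kpx_tE_mono {k l : ℕ} {B B' : Submodule K (QA K)} (h : B ≤ B') : tE k l B ≤ tE k l B' := by
  rw [kpg_tE_eq, kpg_tE_eq, Submodule.mul_le]
  intro a ha b hb
  exact Submodule.mul_mem_mul (h ha) hb

theorem kpx_tE_le {k l : ℕ} (h : k ≤ l) {B : Submodule K (QA K)} (hB : B ≤ levS K k) :
    tE k l B ≤ levS K l := by
  rw [← kpx_tE_lev h]
  exact kpx_tE_mono hB

/-- basis `b_i * e_h`; independence: apply `tr(x * . * e_h)` with `x ∈ lev k`. -/
theorem kpx_finrank_tE {k l : ℕ} (h : k ≤ l) {B : Submodule K (QA K)} (hB : B ≤ levS K k) :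
    Module.finrank K (tE k l B) = Module.finrank K B * 4 ^ (l - k) := kpg_finrank_tE h B hB

theorem kpx_ex_mono (P : Place K L) {B B' : Submodule K (QA K)} (h : B ≤ B') : ex P B ≤ ex P B' :=
  Submodule.span_mono (Set.image_mono h)

theorem kpx_iq_mem (P : Place K L) {B : Submodule K (QA K)} {v : QA K} (hv : v ∈ B) :
    P.iq v ∈ ex P B := Submodule.subset_span ⟨v, hv, rfl⟩

theorem kpx_ex_le' (P : Place K L) {B : Submodule K (QA K)} {C : Submodule L (QA L)}
    (h : ∀ v ∈ B, P.iq v ∈ C) : ex P B ≤ C := by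
  refine Submodule.span_le.2 ?_
  rintro _ ⟨v, hv, rfl⟩
  exact h v hv

theorem kpx_ex_le (P : Place K L) {k : ℕ} {B : Submodule K (QA K)} (hB : B ≤ levS K k) :
    ex P B ≤ levS L k := kpx_ex_le' P fun _ hv => P.iq_lev (hB hv)

/-- a `K`-basis of `B` maps to an `L`-basis of `ex P B`. -/
theorem kpx_finrank_ex (P : Place K L) {k : ℕ} {B : Submodule K (QA K)} (hB : B ≤ levS K k) :
    Module.finrank L (ex P B) = Module.finrank K B := by
  have hfd : FiniteDimensional L (P.extS B) := kpa_fd_of_le (kpx_ex_le P hB)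
  have h := P.finrank_resS (P.extS B)
  rw [P.resS_extS] at h
  exact h.symm

theorem kpx_ex_lev (P : Place K L) (k : ℕ) : ex P (levS K k) = levS L k := by
  apply Submodule.eq_of_le_of_finrank_eq (kpx_ex_le P le_rfl)
  rw [kpx_finrank_ex P (le_refl (levS K k)), kpx_finrank_lev, kpx_finrank_lev]

theorem kpx_ex_refl (B : Submodule K (QA K)) : ex (Place.refl K) B = B := by
  apply le_antisymm
  · exact kpx_ex_le' _ fun v hv => by rw [kpr_iq_refl]; exact hv
  · intro v hv
    have := kpx_iq_mem (Place.refl K) hv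
    rwa [kpr_iq_refl] at this

theorem kpx_ex_trans (P : Place K L) (Q : Place L M) (B : Submodule K (QA K)) :
    ex (P.trans Q) B = ex Q (ex P B) := by
  apply le_antisymm
  · exact kpx_ex_le' _ fun v hv => by
      rw [kpr_iq_trans]
      exact kpx_iq_mem Q (kpx_iq_mem P hv)
  · refine kpx_ex_le' _ fun v hv => ?_
    refine Submodule.span_induction (p := fun v _ => Q.iq v ∈ ex (P.trans Q) B) ?_ ?_ ?_ ?_ hv
    · rintro _ ⟨u, hu, rfl⟩
      rw [← kpr_iq_trans]
      exact kpx_iq_mem _ hu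
    · rw [map_zero]; exact zero_mem _
    · intro x y _ _ hx hy
      rw [map_add]; exact add_mem hx hy
    · intro c x _ hx
      rw [Q.iq_smul]; exact Submodule.smul_mem _ _ hx

theorem kpx_ex_sup (P : Place K L) (B B' : Submodule K (QA K)) : ex P (B ⊔ B') = ex P B ⊔ ex P B' := by
  refine le_antisymm ?_ (sup_le (kpx_ex_mono P le_sup_left) (kpx_ex_mono P le_sup_right))
  refine kpx_ex_le' _ fun v hv => ?_
  obtain ⟨a, ha, b, hb, rfl⟩ := Submodule.mem_sup.mp hv
  rw [map_add]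
  exact Submodule.add_mem_sup (kpx_iq_mem P ha) (kpx_iq_mem P hb)

theorem kpx_mem_tE {k l : ℕ} {B : Submodule K (QA K)} {b e : QA K} (hb : b ∈ B) (he : e ∈ mid K k l) :
    b * e ∈ tE k l B := Submodule.subset_span ⟨b, hb, e, he, rfl⟩

theorem kpx_tE_le' {k l : ℕ} {B C : Submodule K (QA K)} (h : ∀ b ∈ B, ∀ e ∈ mid K k l, b * e ∈ C) :
    tE k l B ≤ C := by
  refine Submodule.span_le.2 ?_
  rintro _ ⟨b, hb, e, he, rfl⟩
  exact h b hb e he

theorem kpx_le_tE (k l : ℕ) (B : Submodule K (QA K)) : B ≤ tE k l B := fun b hb => by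
  have := kpx_mem_tE (k := k) (l := l) hb (mid K k l).one_mem
  rwa [mul_one] at this

theorem kpx_tE_self (k : ℕ) (B : Submodule K (QA K)) : tE k k B = B := by
  apply le_antisymm
  · refine kpx_tE_le' fun b hb e he => ?_
    obtain ⟨c, rfl⟩ := kpx_mid_self he
    rw [← Algebra.commutes, ← Algebra.smul_def]
    exact Submodule.smul_mem _ _ hb
  · exact kpx_le_tE k k B

theorem kpx_tE_trans {k l m : ℕ} (h : k ≤ l) (h' : l ≤ m) (B : Submodule K (QA K)) :
    tE l m (tE k l B) = tE k m B := by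
  rw [kpg_tE_eq, kpg_tE_eq, kpg_tE_eq, mul_assoc, kpx_mid_mul h h']

/-- `mid L k l` is the `L`-span of `P.iq (mid K k l)` -/
theorem kpx_ex_mid (P : Place K L) (k l : ℕ) :
    ex P (Subalgebra.toSubmodule (mid K k l)) = Subalgebra.toSubmodule (mid L k l) := by
  have h1 : ex P (Subalgebra.toSubmodule (mid K k l)) ≤ Subalgebra.toSubmodule (mid L k l) :=
    kpx_ex_le' P fun _ hv => P.iq_mid hv
  apply Submodule.eq_of_le_of_finrank_eq h1
  rw [kpx_finrank_ex P (k := l) (fun u hu => kpa_mid_le_lev k l hu)]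
  have h2 : Module.finrank K (Subalgebra.toSubmodule (mid K k l)) = 4 ^ (l - k) :=
    kpa_finrank_mid k l
  have h3 : Module.finrank L (Subalgebra.toSubmodule (mid L k l)) = 4 ^ (l - k) :=
    kpa_finrank_mid k l
  rw [h2, h3]

theorem kpx_ex_mul (P : Place K L) (B C : Submodule K (QA K)) :
    ex P (B * C) = ex P B * ex P C := by
  apply le_antisymm
  · refine kpx_ex_le' _ fun v hv => ?_
    refine Submodule.mul_induction_on (C := fun v => P.iq v ∈ ex P B * ex P C) hv ?_ ?_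
    · intro b hb c hc
      rw [map_mul]
      exact Submodule.mul_mem_mul (kpx_iq_mem P hb) (kpx_iq_mem P hc)
    · intro x y hx hy
      rw [map_add]; exact add_mem hx hy
  · unfold ex
    rw [Submodule.span_mul_span]
    refine Submodule.span_le.2 ?_
    rintro _ ⟨_, ⟨b, hb, rfl⟩, _, ⟨c, hc, rfl⟩, rfl⟩
    change P.iq b * P.iq c ∈ ex P (B * C)
    rw [← map_mul]
    exact kpx_iq_mem P (Submodule.mul_mem_mul hb hc)

/-- scalar extension commutes with `tE` (`mid L k l` is the `L`-span of `P.iq (mid K k l)`). -/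
theorem kpx_ex_tE (P : Place K L) (k l : ℕ) (B : Submodule K (QA K)) :
    ex P (tE k l B) = tE k l (ex P B) := by
  rw [kpg_tE_eq, kpg_tE_eq, kpx_ex_mul, kpx_ex_mid]

/-! ### centralizers -/

theorem kpx_mem_Cen {k : ℕ} {ω u : QA K} : u ∈ Cen k ω ↔ u ∈ lev K k ∧ u * ω = ω * u := kpxl_mem_Cen

/-- orthogonality to the centralizer -/
theorem kpx_mem_Cperp {k : ℕ} {ω u : QA K} :
    u ∈ Cperp k ω ↔ u ∈ lev K k ∧ ∀ c ∈ Cen k ω, QA.tr (u * c) = 0 := kpxl_mem_Cperp'

/-- dimension formula (P1, 0.3): `dim C(ω) * dim K[ω] = 4^k`. -/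
theorem kpx_finrank_Cen {k : ℕ} {ω : QA K} (hω : ω ∈ lev K k) :
    Module.finrank K (Cen k ω) * Module.finrank K (Algebra.adjoin K {ω}) = 4 ^ k :=
  kpa_finrank_cenA_adjoin (k := k) (S := {ω}) (by rintro _ rfl; exact hω)

theorem kpx_finrank_Cperp {k : ℕ} {ω : QA K} (_hω : ω ∈ lev K k) :
    Module.finrank K (Cperp k ω) + Module.finrank K (Cen k ω) = 4 ^ k := by
  rw [add_comm]; exact kpxl_finrank_Cperp k ω

/-- `[ω, lev k] = C(ω)^⊥ = [ω, C(ω)^⊥]` -/
theorem kpx_Cperp_bracket {k : ℕ} {ω : QA K} (hω : ω ∈ lev K k) {u : QA K} (hu : u ∈ Cperp k ω) :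
    ∃ η ∈ Cperp k ω, u = ω * η - η * ω := by
  obtain ⟨η, h, h'⟩ := kpxl_bracket_surj hω hu
  exact ⟨η, h, h'.symm⟩

theorem kpx_bracket_Cperp {k : ℕ} {ω : QA K} (hω : ω ∈ lev K k) {u : QA K} (hu : u ∈ lev K k) :
    ω * u - u * ω ∈ Cperp k ω := kpxl_bracket_mem hω hu

/-- `K[iq ω]` over `L` is `ex P (K[ω])`. -/
theorem kpx_ex_adjoin (P : Place K L) (ω : QA K) :
    ex P (Subalgebra.toSubmodule (Algebra.adjoin K {ω})) =
      Subalgebra.toSubmodule (Algebra.adjoin L {P.iq ω}) := by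
  apply le_antisymm
  · refine kpx_ex_le' _ fun v hv => ?_
    change P.iq v ∈ Algebra.adjoin L {P.iq ω}
    have hv' : v ∈ Algebra.adjoin K {ω} := hv
    refine Algebra.adjoin_induction (p := fun v _ => P.iq v ∈ Algebra.adjoin L {P.iq ω})
      ?_ ?_ ?_ ?_ hv'
    · intro x hx
      rw [Set.mem_singleton_iff] at hx
      rw [hx]
      exact Algebra.subset_adjoin rfl
    · intro r
      rw [Algebra.algebraMap_eq_smul_one, P.iq_smul, map_one]
      exact Subalgebra.smul_mem _ (Subalgebra.one_mem _) _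
    · intro x y _ _ hx hy
      rw [map_add]; exact Subalgebra.add_mem _ hx hy
    · intro x y _ _ hx hy
      rw [map_mul]; exact Subalgebra.mul_mem _ hx hy
  · intro v hv
    have hv' : v ∈ Algebra.adjoin L {P.iq ω} := hv
    have h1 : (1 : QA L) ∈ ex P (Subalgebra.toSubmodule (Algebra.adjoin K {ω})) := by
      have := kpx_iq_mem P (B := Subalgebra.toSubmodule (Algebra.adjoin K {ω})) (v := 1)
        (Subalgebra.one_mem _)
      rwa [map_one] at this
    refine Algebra.adjoin_induction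
      (p := fun v _ => v ∈ ex P (Subalgebra.toSubmodule (Algebra.adjoin K {ω}))) ?_ ?_ ?_ ?_ hv'
    · intro x hx
      rw [Set.mem_singleton_iff] at hx
      rw [hx]
      exact kpx_iq_mem P (Algebra.subset_adjoin rfl)
    · intro r
      rw [Algebra.algebraMap_eq_smul_one]
      exact Submodule.smul_mem _ _ h1
    · intro x y _ _ hx hy
      exact add_mem hx hy
    · intro x y _ _ hx hy
      have h2 := Submodule.mul_mem_mul hx hy
      rw [← kpx_ex_mul] at h2
      refine kpx_ex_mono P ?_ h2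
      rw [Submodule.mul_le]
      intro a ha b hb
      exact Subalgebra.mul_mem _ ha hb

theorem kpx_Cen_le (k : ℕ) (ω : QA K) : Cen k ω ≤ levS K k := inf_le_left

theorem kpx_Cperp_le (k : ℕ) (ω : QA K) : Cperp k ω ≤ levS K k := inf_le_left

/-- `C_l(iq ω) = span (iq C_k(ω)) * mid k l`: inclusion `⊇` is clear, dimensions agree. -/
theorem kpx_Cen_up (P : Place K L) {k l : ℕ} (h : k ≤ l) {ω : QA K} (hω : ω ∈ lev K k) :
    Cen l (P.iq ω) = tE k l (ex P (Cen k ω)) := by
  have hωL : P.iq ω ∈ lev L k := P.iq_lev hω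
  have hle : tE k l (ex P (Cen k ω)) ≤ Cen l (P.iq ω) := by
    have h1 : ex P (Cen k ω) ≤ Cen k (P.iq ω) := by
      refine kpx_ex_le' _ fun v hv => ?_
      obtain ⟨h1, h2⟩ := kpx_mem_Cen.1 hv
      exact kpx_mem_Cen.2 ⟨P.iq_lev h1, by rw [← map_mul, h2, map_mul]⟩
    refine kpx_tE_le' fun b hb e he => ?_
    obtain ⟨h2, h3⟩ := kpx_mem_Cen.1 (h1 hb)
    refine kpx_mem_Cen.2 ⟨(lev L l).mul_mem (kpx_lev_mono h h2) (kpx_mid_le he), ?_⟩
    rw [mul_assoc, ← kpx_comm hωL he, ← mul_assoc, h3, mul_assoc]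
  refine (Submodule.eq_of_le_of_finrank_eq hle ?_).symm
  rw [kpx_finrank_tE h (kpx_ex_le P (kpx_Cen_le k ω)), kpx_finrank_ex P (kpx_Cen_le k ω)]
  have h1 := kpx_finrank_Cen hω
  have h2 := kpx_finrank_Cen (kpx_lev_mono h hωL)
  have h3 : Module.finrank L (Algebra.adjoin L {P.iq ω}) =
      Module.finrank K (Algebra.adjoin K {ω}) := by
    have h4 := kpx_finrank_ex P (k := k) (B := Subalgebra.toSubmodule (Algebra.adjoin K {ω}))
      (Algebra.adjoin_le (by rintro _ rfl; exact hω))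
    rw [kpx_ex_adjoin] at h4
    exact h4
  rw [h3] at h2
  have hpos : 0 < Module.finrank K (Algebra.adjoin K {ω}) := by
    rcases Nat.eq_zero_or_pos (Module.finrank K (Algebra.adjoin K {ω})) with h0 | h0
    · rw [h0, mul_zero] at h1
      exact absurd h1.symm (by positivity)
    · exact h0
  apply Nat.eq_of_mul_eq_mul_right hpos
  rw [h2]
  calc Module.finrank K (Cen k ω) * 4 ^ (l - k) * Module.finrank K (Algebra.adjoin K {ω})
      = (Module.finrank K (Cen k ω) * Module.finrank K (Algebra.adjoin K {ω})) * 4 ^ (l - k) := by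
        ring
    _ = 4 ^ k * 4 ^ (l - k) := by rw [h1]
    _ = 4 ^ l := by rw [← pow_add, Nat.add_sub_cancel' h]

/-- same for the orthogonal complement -/
theorem kpx_Cperp_up (P : Place K L) {k l : ℕ} (h : k ≤ l) {ω : QA K} (hω : ω ∈ lev K k) :
    Cperp l (P.iq ω) = tE k l (ex P (Cperp k ω)) := by
  have hωL : P.iq ω ∈ lev L k := P.iq_lev hω
  have h1 : ex P (Cperp k ω) ≤ Cperp k (P.iq ω) := by
    refine kpx_ex_le' _ fun v hv => ?_
    obtain ⟨η, hη, rfl⟩ := kpx_Cperp_bracket hω hv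
    rw [map_sub, map_mul, map_mul]
    exact kpx_bracket_Cperp hωL (P.iq_lev (kpxl_mem_Cperp.1 hη).1)
  have hle : tE k l (ex P (Cperp k ω)) ≤ Cperp l (P.iq ω) := by
    refine kpx_tE_le' fun b hb e he => ?_
    obtain ⟨η, hη, rfl⟩ := kpx_Cperp_bracket hωL (h1 hb)
    have h2 : (P.iq ω * η - η * P.iq ω) * e = P.iq ω * (η * e) - (η * e) * P.iq ω := by
      rw [sub_mul, mul_assoc, mul_assoc η, kpx_comm hωL he, mul_assoc η]
    rw [h2]
    exact kpx_bracket_Cperp (kpx_lev_mono h hωL)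
      ((lev L l).mul_mem (kpx_lev_mono h (kpxl_mem_Cperp.1 hη).1) (kpx_mid_le he))
  refine (Submodule.eq_of_le_of_finrank_eq hle ?_).symm
  rw [kpx_finrank_tE h (kpx_ex_le P (kpx_Cperp_le k ω)), kpx_finrank_ex P (kpx_Cperp_le k ω)]
  have h2 := kpx_finrank_Cperp hω
  have h3 := kpx_finrank_Cperp (kpx_lev_mono h hωL)
  have h4 : Module.finrank L (Cen l (P.iq ω)) = Module.finrank K (Cen k ω) * 4 ^ (l - k) := by
    rw [kpx_Cen_up P h hω, kpx_finrank_tE h (kpx_ex_le P (kpx_Cen_le k ω)),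
      kpx_finrank_ex P (kpx_Cen_le k ω)]
  rw [h4] at h3
  have h5 : Module.finrank K (Cperp k ω) * 4 ^ (l - k) + Module.finrank K (Cen k ω) * 4 ^ (l - k)
      = 4 ^ l := by
    rw [← add_mul, h2, ← pow_add, Nat.add_sub_cancel' h]
  omega

/-- the projection is compatible with base change -/
theorem kpx_Pr_up (P : Place K L) {k l : ℕ} (h : k ≤ l) {ω : QA K} (hω : ω ∈ lev K k) {u : QA K}
    (hu : u ∈ lev K k) {e : QA L} (he : e ∈ mid L k l) :
    Pr l {P.iq ω} (P.iq u * e) = P.iq (Pr k {ω} u) * e := by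
  have hωL : P.iq ω ∈ lev L k := P.iq_lev hω
  rw [kpa_Pr_mul_mid h (by rintro _ rfl; exact hωL) (P.iq_lev hu) he]
  congr 1
  -- projection at level `k`
  have h1 : P.iq u = P.iq (Pr k {ω} u) + P.iq (u - Pr k {ω} u) := by rw [← map_add]; congr 1; abel
  have h2 : P.iq (Pr k {ω} u) ∈ Cen k (P.iq ω) := by
    obtain ⟨h1, h2⟩ := kpx_mem_Cen.1 (kpxl_Pr_mem (ω := ω) hu)
    exact kpx_mem_Cen.2 ⟨P.iq_lev h1, by rw [← map_mul, h2, map_mul]⟩
  have h3 : P.iq (u - Pr k {ω} u) ∈ Cperp k (P.iq ω) := by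
    have h4 := kpx_iq_mem P (kpxl_sub_Pr_mem (ω := ω) hu)
    have h5 := kpx_le_tE k k _ h4
    rwa [← kpx_Cperp_up P le_rfl hω] at h5
  rw [h1, map_add, kpxl_Pr_self h2, (kpxl_mem_Cperp.1 h3).2, add_zero]

/-! ### `Fpart` -/

theorem kpx_mem_perp {B : Set (QA K)} {u : QA K} : u ∈ perp B ↔ ∀ κ ∈ B, QA.tr (κ * u) = 0 :=
  kpxl_mem_perp

theorem kpx_mem_Fpart {k : ℕ} {ω ai : QA K} {B : Set (QA K)} {m : Submodule K (QA K)} {φ : QA K} :
    φ ∈ Fpart k ω ai B m ↔ φ ∈ Cen k ω ∧ ∃ μ ∈ m, ∀ κ ∈ B, QA.tr (κ * (ai * φ - μ)) = 0 :=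
  kpxl_mem_Fpart

theorem kpx_adjoin_cen {k : ℕ} {ω : QA K} (hω : ω ∈ lev K k) :
    Algebra.adjoin K {ω} ≤ cenA k ({ω} : Set (QA K)) := by
  refine Algebra.adjoin_le ?_
  rintro _ rfl
  exact mem_cenA.2 ⟨hω, fun φ hφ => by rw [Set.mem_singleton_iff.1 hφ]⟩

/-- dimension: `dim Fpart_⊥ + dim B = dim C`. -/
theorem kpx_finrank_Fpart0 {k : ℕ} {ω a ai : QA K} (hω : ω ∈ lev K k)
    (ha : a ∈ Algebra.adjoin K {ω}) (_hai : ai ∈ Algebra.adjoin K {ω}) (_h1 : a * ai = 1)
    (h2 : ai * a = 1) (B : Subalgebra K (QA K)) (hB : B ≤ Algebra.adjoin K {ω}) :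
    Module.finrank K (Fpart k ω ai B ⊥) + Module.finrank K B = Module.finrank K (Cen k ω) :=
  kpxl_finrank_Fpart0 (kpx_adjoin_cen hω ha) h2 B fun _ hb => kpx_adjoin_cen hω (hB hb)

/-- `Fpart` (with `m = ⊥`) at level `l` over `L`: it is the base change of `Fpart` at level `k`. -/
theorem kpx_Fpart0_up (P : Place K L) {k l : ℕ} (h : k ≤ l) {ω a ai : QA K} (hω : ω ∈ lev K k)
    (ha : a ∈ Algebra.adjoin K {ω}) (hai : ai ∈ Algebra.adjoin K {ω}) (h1 : a * ai = 1)
    (h2 : ai * a = 1) (B : Subalgebra K (QA K)) (hB : B ≤ Algebra.adjoin K {ω}) :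
    Fpart l (P.iq ω) (P.iq ai) (tE k l (ex P (Subalgebra.toSubmodule B))) ⊥ =
      tE k l (ex P (Fpart k ω ai B ⊥)) := by
  have hωL : P.iq ω ∈ lev L k := P.iq_lev hω
  have hBlev : Subalgebra.toSubmodule B ≤ levS K k := fun b hb =>
    (cenA_le _ _) (kpx_adjoin_cen hω (hB hb))
  have hailev : ai ∈ lev K k := (cenA_le _ _) (kpx_adjoin_cen hω hai)
  -- inclusion `⊇`
  have hle : tE k l (ex P (Fpart k ω ai B ⊥)) ≤
      Fpart l (P.iq ω) (P.iq ai) (tE k l (ex P (Subalgebra.toSubmodule B))) ⊥ := by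
    refine kpx_tE_le' fun φ hφ e he => ?_
    have hφC : φ * e ∈ Cen l (P.iq ω) := by
      rw [kpx_Cen_up P h hω]
      exact kpx_mem_tE (kpx_ex_mono P (kpxl_Fpart_le _ _ _ _ _) hφ) he
    refine kpxl_mem_Fpart0.2 ⟨hφC, ?_⟩
    intro κ hκ
    refine Submodule.span_induction (p := fun κ _ => QA.tr (κ * (P.iq ai * (φ * e))) = 0)
      ?_ ?_ ?_ ?_ hκ
    · rintro _ ⟨b, hb, e', he', rfl⟩
      -- `φ` in the span
      have hφl : φ ∈ lev L k := kpx_ex_le P (k := k)
        ((kpxl_Fpart_le _ _ _ _ _).trans inf_le_left) hφ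
      have hbl : b ∈ lev L k := kpx_ex_le P hBlev hb
      have h3 : b * e' * (P.iq ai * (φ * e)) = (b * (P.iq ai * φ)) * (e' * e) := by
        have h4 : e' * (P.iq ai * φ) = (P.iq ai * φ) * e' :=
          (kpx_comm ((lev L k).mul_mem (P.iq_lev hailev) hφl) he').symm
        calc b * e' * (P.iq ai * (φ * e)) = b * (e' * (P.iq ai * φ)) * e := by
              simp only [mul_assoc]
          _ = b * ((P.iq ai * φ) * e') * e := by rw [h4]
          _ = _ := by simp only [mul_assoc]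
      rw [h3, kpx_tr_mul ((lev L k).mul_mem hbl ((lev L k).mul_mem (P.iq_lev hailev) hφl))
        ((mid L k l).mul_mem he' he)]
      have h5 : QA.tr (b * (P.iq ai * φ)) = 0 := by
        refine Submodule.span_induction (p := fun b _ => QA.tr (b * (P.iq ai * φ)) = 0)
          ?_ ?_ ?_ ?_ hb
        · rintro _ ⟨b0, hb0, rfl⟩
          refine Submodule.span_induction (p := fun φ _ => QA.tr (P.iq b0 * (P.iq ai * φ)) = 0)
            ?_ ?_ ?_ ?_ hφ
          · rintro _ ⟨φ0, hφ0, rfl⟩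
            rw [← map_mul, ← map_mul, P.tr_iq, (kpxl_mem_Fpart0.1 hφ0).2 b0 hb0, map_zero]
          · rw [mul_zero, mul_zero, map_zero]
          · intro x y _ _ hx hy
            rw [mul_add, mul_add, map_add, hx, hy, add_zero]
          · intro c x _ hx
            rw [mul_smul_comm, mul_smul_comm, map_smul, hx, smul_zero]
        · rw [zero_mul, map_zero]
        · intro x y _ _ hx hy
          rw [add_mul, map_add, hx, hy, add_zero]
        · intro c x _ hx
          rw [smul_mul_assoc, map_smul, hx, smul_zero]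
      rw [h5, zero_mul]
    · rw [zero_mul, map_zero]
    · intro x y _ _ hx hy
      rw [add_mul, map_add, hx, hy, add_zero]
    · intro c x _ hx
      rw [smul_mul_assoc, map_smul, hx, smul_zero]
  refine (Submodule.eq_of_le_of_finrank_eq hle ?_).symm
  -- the algebra `B_L = tE k l (ex P B)` as a subalgebra
  have hmul : ∀ x ∈ tE k l (ex P (Subalgebra.toSubmodule B)),
      ∀ y ∈ tE k l (ex P (Subalgebra.toSubmodule B)),
        x * y ∈ tE k l (ex P (Subalgebra.toSubmodule B)) := by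
    have hBB : ex P (Subalgebra.toSubmodule B) * ex P (Subalgebra.toSubmodule B) ≤
        ex P (Subalgebra.toSubmodule B) := by
      rw [← kpx_ex_mul]
      refine kpx_ex_mono P ?_
      rw [Submodule.mul_le]
      exact fun a ha b hb => B.mul_mem ha hb
    intro x hx y hy
    refine Submodule.span_induction (p := fun x _ => x * y ∈
      tE k l (ex P (Subalgebra.toSubmodule B))) ?_ ?_ ?_ ?_ hx
    · rintro _ ⟨b, hb, e, he, rfl⟩
      refine Submodule.span_induction (p := fun y _ => b * e * y ∈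
        tE k l (ex P (Subalgebra.toSubmodule B))) ?_ ?_ ?_ ?_ hy
      · rintro _ ⟨b', hb', e', he', rfl⟩
        have h4 : b * e * (b' * e') = (b * b') * (e * e') := by
          have h5 : e * b' = b' * e := (kpx_comm (kpx_ex_le P hBlev hb') he).symm
          calc b * e * (b' * e') = b * (e * b') * e' := by simp only [mul_assoc]
            _ = b * (b' * e) * e' := by rw [h5]
            _ = _ := by simp only [mul_assoc]
        rw [h4]
        exact kpx_mem_tE (hBB (Submodule.mul_mem_mul hb hb')) ((mid L k l).mul_mem he he')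
      · rw [mul_zero]; exact zero_mem _
      · intro x y _ _ hx hy
        rw [mul_add]; exact add_mem hx hy
      · intro c x _ hx
        rw [mul_smul_comm]; exact Submodule.smul_mem _ _ hx
    · rw [zero_mul]; exact zero_mem _
    · intro x z _ _ hx hz
      rw [add_mul]; exact add_mem hx hz
    · intro c x _ hx
      rw [smul_mul_assoc]; exact Submodule.smul_mem _ _ hx
  have hone : (1 : QA L) ∈ tE k l (ex P (Subalgebra.toSubmodule B)) := by
    refine kpx_le_tE k l _ ?_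
    have := kpx_iq_mem P (B := Subalgebra.toSubmodule B) (v := 1) B.one_mem
    rwa [map_one] at this
  let BL : Subalgebra L (QA L) := Submodule.toSubalgebra
    (tE k l (ex P (Subalgebra.toSubmodule B))) hone (fun x y hx hy => hmul x hx y hy)
  have hBL : Subalgebra.toSubmodule BL = tE k l (ex P (Subalgebra.toSubmodule B)) :=
    Submodule.toSubalgebra_toSubmodule _ _ _
  have hBL' : Subalgebra.toSubmodule BL ≤ Cen l (P.iq ω) := by
    rw [hBL, kpx_Cen_up P h hω]
    exact kpx_tE_mono (kpx_ex_mono P fun b hb => kpx_adjoin_cen hω (hB hb))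
  have haL : P.iq a ∈ Cen l (P.iq ω) := by
    rw [kpx_Cen_up P h hω]
    exact kpx_le_tE k l _ (kpx_iq_mem P (kpx_adjoin_cen hω ha))
  have e1 := kpxl_finrank_Fpart0 (k := l) (ω := P.iq ω) (ai := P.iq ai) haL
    (by rw [← map_mul, h2, map_one]) BL hBL'
  have e2 := kpx_finrank_Fpart0 hω ha hai h1 h2 B hB
  have e3 : Module.finrank L BL = Module.finrank K B * 4 ^ (l - k) := by
    have e4 : Module.finrank L BL =
        Module.finrank L (tE k l (ex P (Subalgebra.toSubmodule B))) := by rw [← hBL]; rfl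
    rw [e4, kpx_finrank_tE h (kpx_ex_le P hBlev), kpx_finrank_ex P hBlev]
    rfl
  have e5 : Module.finrank L (Cen l (P.iq ω)) = Module.finrank K (Cen k ω) * 4 ^ (l - k) := by
    rw [kpx_Cen_up P h hω, kpx_finrank_tE h (kpx_ex_le P (kpx_Cen_le k ω)),
      kpx_finrank_ex P (kpx_Cen_le k ω)]
  have hFlev : Fpart k ω ai B ⊥ ≤ levS K k := (kpxl_Fpart_le _ _ _ _ _).trans inf_le_left
  rw [kpx_finrank_tE h (kpx_ex_le P hFlev), kpx_finrank_ex P hFlev]
  rw [e3, e5, ← e2, add_mul] at e1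
  have e6 : Fpart l (P.iq ω) (P.iq ai) (BL : Set (QA L)) ⊥ =
      Fpart l (P.iq ω) (P.iq ai) (tE k l (ex P (Subalgebra.toSubmodule B))) ⊥ := rfl
  rw [e6] at e1
  omega

/-- `Fpart` with general `m ≤ K[ω]` is `Fpart_⊥` plus `a m`. -/
theorem kpx_Fpart_split {k : ℕ} {ω a ai : QA K} (hω : ω ∈ lev K k)
    (ha : a ∈ Algebra.adjoin K {ω}) (_hai : ai ∈ Algebra.adjoin K {ω}) (_h1 : a * ai = 1)
    (h2 : ai * a = 1) (B : Set (QA K)) (m : Submodule K (QA K))
    (hm : m ≤ Subalgebra.toSubmodule (Algebra.adjoin K {ω})) :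
    Fpart k ω ai B m = Fpart k ω ai B ⊥ ⊔ m.map (LinearMap.mulLeft K a) := by
  apply le_antisymm
  · intro φ hφ
    obtain ⟨h3, μ, hμ, h4⟩ := kpxl_mem_Fpart.1 hφ
    have h5 : a * μ ∈ Cen k ω :=
      kpxl_Cen_mul (kpx_adjoin_cen hω ha) (kpx_adjoin_cen hω (hm hμ))
    have h6 : φ = (φ - a * μ) + a * μ := by abel
    rw [h6]
    refine Submodule.add_mem_sup (kpxl_mem_Fpart0.2 ⟨sub_mem h3 h5, fun κ hκ => ?_⟩) ⟨μ, hμ, rfl⟩
    rw [mul_sub ai, ← mul_assoc ai, h2, one_mul]
    exact h4 κ hκ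
  · refine sup_le ?_ ?_
    · intro φ hφ
      obtain ⟨h3, h4⟩ := kpxl_mem_Fpart0.1 hφ
      exact kpxl_mem_Fpart.2 ⟨h3, 0, zero_mem _, fun κ hκ => by rw [sub_zero]; exact h4 κ hκ⟩
    · rintro _ ⟨μ, hμ, rfl⟩
      refine kpxl_mem_Fpart.2 ⟨kpxl_Cen_mul (kpx_adjoin_cen hω ha) (kpx_adjoin_cen hω (hm hμ)),
        μ, hμ, fun κ _ => ?_⟩
      rw [LinearMap.mulLeft_apply, ← mul_assoc, h2, one_mul, sub_self, mul_zero, map_zero]

end Crest.Agent.KP
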