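import Crest.Agent.KP_Defs3

/-!
# S0270, part (E) (helper43): algebra in one level `lev k`: `Pr`, `Cen`, `Cperp`, `Fpart`.
Everything is proved.
-/

set_option autoImplicit false
set_option linter.unusedSectionVars false
set_option maxHeartbeats 400000

open scoped PowerSeries LaurentSeries symmDiff

namespace Crest.Agent.KP

variable {K : Type} [Field K] [KF K]

theorem kpxl_qinv {a : QA K} (h0 : a ≠ 0) : a * qinv a = 1 ∧ qinv a * a = 1 := by
  have h : ∃ v : QA K, a * v = 1 ∧ v * a = 1 := kpa_exists_inv h0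
  unfold qinv
  rw [dif_pos h]
  exact Classical.choose_spec h

theorem kpxl_qinv_mem {B : Subalgebra K (QA K)} [FiniteDimensional K B] {a : QA K} (ha : a ∈ B)
    (h0 : a ≠ 0) : qinv a ∈ B :=
  kpa_inv_mem ha (kpxl_qinv h0).1

theorem kpxl_qinv_ne {a : QA K} (h0 : a ≠ 0) : qinv a ≠ 0 := by
  intro h
  have := (kpxl_qinv h0).1
  rw [h, mul_zero] at this
  exact zero_ne_one this

theorem kpxl_qinv_lev {k : ℕ} {a : QA K} (ha : a ∈ lev K k) (h0 : a ≠ 0) : qinv a ∈ lev K k :=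
  kpxl_qinv_mem ha h0

/-! ### `Pr` -/

theorem kpxl_Pr_unique {k : ℕ} {S : Set (QA K)} {u c c' : QA K} (h : IsPr k S u c)
    (h' : IsPr k S u c') : c = c' := by
  have h1 : c - c' ∈ cenA k S := sub_mem (mem_cenA.2 ⟨h.1, h.2.1⟩) (mem_cenA.2 ⟨h'.1, h'.2.1⟩)
  refine sub_eq_zero.1 (kpa_sub_nondeg h1 fun d hd => ?_)
  rw [mem_cenA] at hd
  have h2 := h.2.2 d hd.1 hd.2
  have h3 := h'.2.2 d hd.1 hd.2
  have h4 : (c - c') * d = (u - c') * d - (u - c) * d := by rw [← sub_mul]; congr 1; abel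
  rw [h4, map_sub, h2, h3, sub_zero]

theorem kpxl_Pr_eq {k : ℕ} {S : Set (QA K)} {u c : QA K} (hu : u ∈ lev K k) (h : IsPr k S u c) :
    Pr k S u = c := kpxl_Pr_unique (Pr_spec k S u hu) h

theorem kpxl_mem_Cen {k : ℕ} {ω u : QA K} : u ∈ Cen k ω ↔ u ∈ lev K k ∧ u * ω = ω * u := by
  unfold Cen
  rw [Submodule.mem_inf]
  refine and_congr Iff.rfl ?_
  change u ∈ Subalgebra.centralizer K {ω} ↔ _
  rw [Subalgebra.mem_centralizer_iff]
  constructor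
  · intro h; exact (h ω rfl).symm
  · rintro h g rfl; exact h.symm

theorem kpxl_Cen_eq {k : ℕ} {ω : QA K} :
    Cen k ω = Subalgebra.toSubmodule (cenA k ({ω} : Set (QA K))) := rfl

instance kpxl_fd_Cen (k : ℕ) (ω : QA K) : FiniteDimensional K (Cen k ω) :=
  kpa_fd_of_le (k := k) inf_le_left

instance kpxl_fd_Cperp (k : ℕ) (ω : QA K) : FiniteDimensional K (Cperp k ω) :=
  kpa_fd_of_le (k := k) inf_le_left

theorem kpxl_Cen_mul {k : ℕ} {ω u v : QA K} (hu : u ∈ Cen k ω) (hv : v ∈ Cen k ω) :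
    u * v ∈ Cen k ω :=
  (cenA k ({ω} : Set (QA K))).mul_mem hu hv

theorem kpxl_Cen_nondeg {k : ℕ} {ω u : QA K} (hu : u ∈ Cen k ω)
    (h : ∀ d ∈ Cen k ω, QA.tr (u * d) = 0) : u = 0 :=
  kpa_sub_nondeg (B := cenA k ({ω} : Set (QA K))) hu h

theorem kpxl_Pr_mem {k : ℕ} {ω u : QA K} (hu : u ∈ lev K k) : Pr k {ω} u ∈ Cen k ω := by
  have h := Pr_spec k {ω} u hu
  exact kpxl_mem_Cen.2 ⟨h.1, h.2.1 ω rfl⟩

theorem kpxl_Pr_self {k : ℕ} {ω u : QA K} (hu : u ∈ Cen k ω) : Pr k {ω} u = u := by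
  have h := kpxl_mem_Cen.1 hu
  refine kpxl_Pr_eq h.1 ⟨h.1, ?_, ?_⟩
  · intro φ hφ
    rw [Set.mem_singleton_iff] at hφ
    rw [hφ]
    exact h.2
  · intro d _ _
    rw [sub_self, zero_mul, map_zero]

theorem kpxl_Pr_orth {k : ℕ} {ω u d : QA K} (hu : u ∈ lev K k) (hd : d ∈ Cen k ω) :
    QA.tr ((u - Pr k {ω} u) * d) = 0 := by
  have h := Pr_spec k {ω} u hu
  have h' := kpxl_mem_Cen.1 hd
  refine h.2.2 d h'.1 fun φ hφ => ?_
  rw [Set.mem_singleton_iff] at hφ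
  rw [hφ]
  exact h'.2

theorem kpxl_Pr_eq' {k : ℕ} {ω u c : QA K} (hu : u ∈ lev K k) (hc : c ∈ Cen k ω)
    (h : ∀ d ∈ Cen k ω, QA.tr ((u - c) * d) = 0) : Pr k {ω} u = c := by
  have hc' := kpxl_mem_Cen.1 hc
  refine kpxl_Pr_eq hu ⟨hc'.1, ?_, ?_⟩
  · intro φ hφ
    rw [Set.mem_singleton_iff] at hφ
    rw [hφ]
    exact hc'.2
  · intro d hd hd'
    exact h d (kpxl_mem_Cen.2 ⟨hd, hd' ω rfl⟩)

theorem kpxl_tr_bracket {ω γ d : QA K} (hd : d * ω = ω * d) :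
    QA.tr ((ω * γ - γ * ω) * d) = 0 := by
  rw [sub_mul, map_sub, sub_eq_zero]
  calc QA.tr (ω * γ * d) = QA.tr (γ * d * ω) := by rw [mul_assoc, kpa_tr_comm]
    _ = QA.tr (γ * ω * d) := by rw [mul_assoc, hd, ← mul_assoc]

theorem kpxl_Pr_bracket {k : ℕ} {ω γ : QA K} (hω : ω ∈ lev K k) (hγ : γ ∈ lev K k) :
    Pr k {ω} (ω * γ - γ * ω) = 0 := by
  refine kpxl_Pr_eq' (sub_mem (mul_mem hω hγ) (mul_mem hγ hω)) (Submodule.zero_mem _) fun d hd => ?_
  rw [sub_zero]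
  exact kpxl_tr_bracket (kpxl_mem_Cen.1 hd).2

theorem kpxl_mem_Cperp {k : ℕ} {ω u : QA K} :
    u ∈ Cperp k ω ↔ u ∈ lev K k ∧ Pr k {ω} u = 0 := Iff.rfl

theorem kpxl_mem_Cperp' {k : ℕ} {ω u : QA K} :
    u ∈ Cperp k ω ↔ u ∈ lev K k ∧ ∀ d ∈ Cen k ω, QA.tr (u * d) = 0 := by
  rw [kpxl_mem_Cperp]
  refine and_congr_right fun hu => ⟨fun h d hd => ?_, fun h => ?_⟩
  · have := kpxl_Pr_orth hu hd
    rwa [h, sub_zero] at this
  · refine kpxl_Pr_eq' hu (Submodule.zero_mem _) fun d hd => ?_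
    rw [sub_zero]
    exact h d hd

theorem kpxl_bracket_mem {k : ℕ} {ω γ : QA K} (hω : ω ∈ lev K k) (hγ : γ ∈ lev K k) :
    ω * γ - γ * ω ∈ Cperp k ω :=
  kpxl_mem_Cperp.2 ⟨sub_mem (mul_mem hω hγ) (mul_mem hγ hω), kpxl_Pr_bracket hω hγ⟩

theorem kpxl_sub_Pr_mem {k : ℕ} {ω u : QA K} (hu : u ∈ lev K k) : u - Pr k {ω} u ∈ Cperp k ω := by
  have h := kpxl_Pr_mem (ω := ω) hu
  refine kpxl_mem_Cperp.2 ⟨sub_mem hu (kpxl_mem_Cen.1 h).1, ?_⟩
  rw [map_sub, kpxl_Pr_self h, sub_self]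

theorem kpxl_Cen_inf_Cperp {k : ℕ} {ω u : QA K} (h1 : u ∈ Cen k ω) (h2 : u ∈ Cperp k ω) : u = 0 := by
  rw [← kpxl_Pr_self h1]
  exact (kpxl_mem_Cperp.1 h2).2

/-- `[ω, C^⊥] = C^⊥`. -/
theorem kpxl_bracket_surj {k : ℕ} {ω u : QA K} (hω : ω ∈ lev K k) (hu : u ∈ Cperp k ω) :
    ∃ η ∈ Cperp k ω, ω * η - η * ω = u := by
  let f : Cperp k ω →ₗ[K] Cperp k ω :=
    { toFun := fun η => ⟨ω * η.1 - η.1 * ω, kpxl_bracket_mem hω (kpxl_mem_Cperp.1 η.2).1⟩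
      map_add' := fun a b => Subtype.ext (by
        change ω * (a.1 + b.1) - (a.1 + b.1) * ω = (ω * a.1 - a.1 * ω) + (ω * b.1 - b.1 * ω)
        rw [mul_add, add_mul]; abel)
      map_smul' := fun c a => Subtype.ext (by
        change ω * (c • a.1) - (c • a.1) * ω = c • (ω * a.1 - a.1 * ω)
        rw [mul_smul_comm, smul_mul_assoc, smul_sub]) }
  have hinj : Function.Injective f := by
    rw [injective_iff_map_eq_zero]
    intro a ha
    have h1 : ω * a.1 - a.1 * ω = 0 := congrArg Subtype.val ha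
    apply Subtype.ext
    exact kpxl_Cen_inf_Cperp
      (kpxl_mem_Cen.2 ⟨(kpxl_mem_Cperp.1 a.2).1, (sub_eq_zero.1 h1).symm⟩) a.2
  obtain ⟨η, hη⟩ := (LinearMap.injective_iff_surjective.1 hinj) ⟨u, hu⟩
  exact ⟨η.1, η.2, congrArg Subtype.val hη⟩

theorem kpxl_finrank_Cperp (k : ℕ) (ω : QA K) :
    Module.finrank K (Cen k ω) + Module.finrank K (Cperp k ω) = 4 ^ k := by
  have h1 : Cen k ω ⊔ Cperp k ω = Subalgebra.toSubmodule (lev K k) := by
    apply le_antisymm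
    · exact sup_le inf_le_left inf_le_left
    · intro u hu
      have h : u = Pr k {ω} u + (u - Pr k {ω} u) := by abel
      rw [h]
      exact Submodule.add_mem_sup (kpxl_Pr_mem hu) (kpxl_sub_Pr_mem hu)
  have h2 : Cen k ω ⊓ Cperp k ω = ⊥ := by
    rw [eq_bot_iff]
    rintro u ⟨h1, h2⟩
    rw [Submodule.mem_bot]
    exact kpxl_Cen_inf_Cperp h1 h2
  have h3 := Submodule.finrank_sup_add_finrank_inf_eq (Cen k ω) (Cperp k ω)
  rw [h1, h2, finrank_bot, add_zero] at h3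
  rw [← h3]
  exact kpa_finrank_lev k

/-! ### `perp`, `Fpart` -/

theorem kpxl_mem_perp {B : Set (QA K)} {u : QA K} : u ∈ perp B ↔ ∀ κ ∈ B, QA.tr (κ * u) = 0 := by
  unfold perp
  simp only [Submodule.mem_iInf, LinearMap.mem_ker, LinearMap.comp_apply, LinearMap.mulLeft_apply]

theorem kpxl_mem_Fpart {k : ℕ} {ω ai : QA K} {B : Set (QA K)} {m : Submodule K (QA K)} {φ : QA K} :
    φ ∈ Fpart k ω ai B m ↔ φ ∈ Cen k ω ∧ ∃ μ ∈ m, ∀ κ ∈ B, QA.tr (κ * (ai * φ - μ)) = 0 := by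
  unfold Fpart
  rw [Submodule.mem_inf, Submodule.mem_comap, LinearMap.mulLeft_apply, Submodule.mem_sup]
  refine and_congr_right fun _ => ⟨?_, ?_⟩
  · rintro ⟨μ, hμ, z, hz, h⟩
    refine ⟨μ, hμ, ?_⟩
    rw [← h, add_sub_cancel_left]
    exact kpxl_mem_perp.1 hz
  · rintro ⟨μ, hμ, h⟩
    exact ⟨μ, hμ, ai * φ - μ, kpxl_mem_perp.2 h, by abel⟩

theorem kpxl_mem_Fpart0 {k : ℕ} {ω ai : QA K} {B : Set (QA K)} {φ : QA K} :
    φ ∈ Fpart k ω ai B ⊥ ↔ φ ∈ Cen k ω ∧ ∀ κ ∈ B, QA.tr (κ * (ai * φ)) = 0 := by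
  rw [kpxl_mem_Fpart]
  refine and_congr_right fun _ => ⟨?_, ?_⟩
  · rintro ⟨μ, hμ, h⟩
    rw [Submodule.mem_bot] at hμ
    subst hμ
    simpa using h
  · intro h
    exact ⟨0, Submodule.zero_mem _, by simpa using h⟩

instance kpxl_fd_Fpart (k : ℕ) (ω ai : QA K) (B : Set (QA K)) (m : Submodule K (QA K)) :
    FiniteDimensional K (Fpart k ω ai B m) :=
  Submodule.finiteDimensional_of_le (inf_le_left : Fpart k ω ai B m ≤ Cen k ω)

theorem kpxl_Fpart_le (k : ℕ) (ω ai : QA K) (B : Set (QA K)) (m : Submodule K (QA K)) :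
    Fpart k ω ai B m ≤ Cen k ω := inf_le_left

/-- every functional on `B` is `κ ↦ tr (κ y)`, `y ∈ B`. -/
theorem kpxl_exists_repr (B : Subalgebra K (QA K)) [FiniteDimensional K B]
    (f : Module.Dual K B) : ∃ y ∈ B, ∀ κ : B, QA.tr ((κ : QA K) * y) = f κ := by
  refine ⟨((kpaFormE B).symm f).1, ((kpaFormE B).symm f).2, fun κ => ?_⟩
  have h1 : kpaFormE B ((kpaFormE B).symm f) = f := LinearEquiv.apply_symm_apply _ _
  have h2 := LinearMap.congr_fun h1 κ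
  rw [kpa_tr_comm]
  exact h2

/-- `dim Fpart_⊥ + dim B = dim C` for a subalgebra `B ≤ C`, `a, ai ∈ C`. -/
theorem kpxl_finrank_Fpart0 {k : ℕ} {ω a ai : QA K} (ha : a ∈ Cen k ω) (h1 : ai * a = 1)
    (B : Subalgebra K (QA K)) (hB : Subalgebra.toSubmodule B ≤ Cen k ω) :
    Module.finrank K (Fpart k ω ai B ⊥) + Module.finrank K B = Module.finrank K (Cen k ω) := by
  have : FiniteDimensional K B := Submodule.finiteDimensional_of_le hB
  let f : Cen k ω →ₗ[K] Module.Dual K B :=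
    LinearMap.mk₂ K (fun (φ : Cen k ω) (κ : B) => QA.tr ((κ : QA K) * (ai * (φ : QA K))))
      (fun a b κ => by simp only [Submodule.coe_add, mul_add, map_add])
      (fun c a κ => by simp only [Submodule.coe_smul, mul_smul_comm, map_smul])
      (fun a κ κ' => by simp only [Subalgebra.coe_add, add_mul, map_add])
      (fun c a κ => by simp only [Subalgebra.coe_smul, smul_mul_assoc, map_smul])
  have hsurj : LinearMap.range f = ⊤ := by
    rw [LinearMap.range_eq_top]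
    intro g
    obtain ⟨y, hy, hy'⟩ := kpxl_exists_repr B g
    refine ⟨⟨a * y, kpxl_Cen_mul ha (hB hy)⟩, ?_⟩
    ext κ
    change QA.tr ((κ : QA K) * (ai * (a * y))) = g κ
    rw [← mul_assoc ai, h1, one_mul]
    exact hy' κ
  have hker : (LinearMap.ker f).map (Cen k ω).subtype = Fpart k ω ai B ⊥ := by
    ext φ
    rw [kpxl_mem_Fpart0]
    constructor
    · rintro ⟨u, hu, rfl⟩
      refine ⟨u.2, fun κ hκ => ?_⟩
      exact LinearMap.congr_fun (LinearMap.mem_ker.1 hu) ⟨κ, hκ⟩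
    · rintro ⟨h2, h3⟩
      refine ⟨⟨φ, h2⟩, ?_, rfl⟩
      rw [SetLike.mem_coe, LinearMap.mem_ker]
      ext κ
      exact h3 κ κ.2
  have h2 := LinearMap.finrank_range_add_finrank_ker f
  rw [hsurj, finrank_top, Subspace.dual_finrank_eq] at h2
  have h3 : Module.finrank K (Fpart k ω ai B ⊥) = Module.finrank K (LinearMap.ker f) := by
    rw [← hker]
    exact (LinearEquiv.finrank_eq (Submodule.equivMapOfInjective (Cen k ω).subtype
      (Submodule.injective_subtype _) (LinearMap.ker f))).symm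
  rw [h3, add_comm]
  exact h2

end Crest.Agent.KP
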