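import Mathlib

/-!
# S0270 (Kurosh problem for division rings) : common definitions  (author helper97)

The twisted quaternion group algebra `QA R` (see note P1, section 0), noncommutative polynomials `NC`,
states `Pt`, steps, places.  Full paper proof: team database, notes rid=S0270, ids 925, 926, 927.
-/

set_option autoImplicit false
set_option linter.unusedSectionVars false

open scoped PowerSeries LaurentSeries symmDiff

namespace Crest.Agent.KP

/-- index group: `(a,b)` stands for `∏_{s∈a} i_s ∏_{s∈b} j_s` -/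
abbrev Gp : Type := Finset ℕ × Finset ℕ

def gx (g h : Gp) : Gp := (g.1 ∆ h.1, g.2 ∆ h.2)

/-- parameters `i_s^2 = al s`, `j_s^2 = be s` -/
class QPar (R : Type) [CommRing R] where
  al : ℕ → R
  be : ℕ → R

export QPar (al be)

def coc (R : Type) [CommRing R] [QPar R] (g h : Gp) : R :=
  (-1) ^ (g.2 ∩ h.1).card * (∏ s ∈ g.1 ∩ h.1, al s) * (∏ s ∈ g.2 ∩ h.2, be s)

/-- The twisted group algebra. -/
def QA (R : Type) [CommRing R] : Type := Gp →₀ R

namespace QA

variable {R S : Type} [CommRing R] [CommRing S]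

noncomputable instance : AddCommGroup (QA R) := inferInstanceAs (AddCommGroup (Gp →₀ R))

noncomputable instance {T : Type} [Semiring T] [Module T R] : Module T (QA R) :=
  inferInstanceAs (Module T (Gp →₀ R))

instance : FunLike (QA R) Gp R := inferInstanceAs (FunLike (Gp →₀ R) Gp R)

/-- basis element -/
noncomputable def e (g : Gp) : QA R := (Finsupp.single g (1 : R) : Gp →₀ R)

noncomputable def ec (g : Gp) (c : R) : QA R := (Finsupp.single g c : Gp →₀ R)

/-- support -/
noncomputable def supp (u : QA R) : Finset Gp := Finsupp.support (u : Gp →₀ R)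

theorem mem_supp {u : QA R} {g : Gp} : g ∈ supp u ↔ u g ≠ 0 :=
  Finsupp.mem_support_iff (f := (u : Gp →₀ R))
theorem q_add_apply (u v : QA R) (g : Gp) : (u + v) g = u g + v g := rfl
theorem q_sub_apply (u v : QA R) (g : Gp) : (u - v) g = u g - v g := rfl
theorem q_neg_apply (u : QA R) (g : Gp) : (-u) g = -u g := rfl
theorem q_zero_apply (g : Gp) : (0 : QA R) g = 0 := rfl
theorem q_smul_apply {T : Type} [Semiring T] [Module T R] (c : T) (u : QA R) (g : Gp) :
    (c • u) g = c • u g := rfl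
theorem ec_apply (g h : Gp) (c : R) : (ec g c : QA R) h = if g = h then c else 0 := by
  classical
  exact Finsupp.single_apply
theorem q_ext {u v : QA R} (h : ∀ g, u g = v g) : u = v := Finsupp.ext h
theorem smul_ec (g : Gp) (a c : R) : a • (ec g c : QA R) = ec g (a * c) :=
  Finsupp.smul_single a g c
theorem ec_zero (g : Gp) : (ec g 0 : QA R) = 0 := Finsupp.single_zero g
theorem ec_add (g : Gp) (a b : R) : (ec g (a + b) : QA R) = ec g a + ec g b :=
  Finsupp.single_add g a b
theorem e_eq_ec (g : Gp) : (e g : QA R) = ec g 1 := rfl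
theorem smul_eq_algebraMap_smul {T : Type} [CommRing T] [Algebra T R] (c : T) (u : QA R) :
    c • u = (algebraMap T R c) • u :=
  Finsupp.ext fun g => Algebra.smul_def c ((u : Gp →₀ R) g)

variable [QPar R] [QPar S]

noncomputable instance : Mul (QA R) where
  mul u v := Finsupp.sum (u : Gp →₀ R) fun g a => Finsupp.sum (v : Gp →₀ R) fun h b =>
    ec (gx g h) (coc R g h * (a * b))

noncomputable instance : One (QA R) where
  one := e (∅, ∅)

theorem mul_def (u v : QA R) : u * v =
    Finsupp.sum (u : Gp →₀ R) fun g a => Finsupp.sum (v : Gp →₀ R) fun h b =>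
    ec (gx g h) (coc R g h * (a * b)) := rfl

theorem one_def : (1 : QA R) = e (∅, ∅) := rfl

theorem neg_one_pow_card_inter {R : Type} [CommRing R] (a b : Finset ℕ) :
    ((-1 : R)) ^ (a ∩ b).card = ∏ t ∈ a, if t ∈ b then (-1 : R) else 1 := by
  rw [Finset.prod_ite_mem, Finset.prod_const]

theorem prod_symmDiff_sq_one {M : Type*} [CommMonoid M] (a b : Finset ℕ) (f : ℕ → M)
    (hf : ∀ t, f t * f t = 1) :
    ∏ t ∈ a ∆ b, f t = (∏ t ∈ a, f t) * ∏ t ∈ b, f t := by
  have h1 : ∏ t ∈ a, f t = (∏ t ∈ a \ b, f t) * ∏ t ∈ a ∩ b, f t := by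
    rw [← Finset.prod_union (Finset.disjoint_left.2 fun t ht ht' => by
      simp only [Finset.mem_sdiff, Finset.mem_inter] at ht ht'; exact ht.2 ht'.2),
      Finset.sdiff_union_inter]
  have h2 : ∏ t ∈ b, f t = (∏ t ∈ b \ a, f t) * ∏ t ∈ a ∩ b, f t := by
    rw [Finset.inter_comm, ← Finset.prod_union (Finset.disjoint_left.2 fun t ht ht' => by
      simp only [Finset.mem_sdiff, Finset.mem_inter] at ht ht'; exact ht.2 ht'.2),
      Finset.sdiff_union_inter]
  have h3 : ∏ t ∈ a ∆ b, f t = (∏ t ∈ a \ b, f t) * ∏ t ∈ b \ a, f t := by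
    rw [symmDiff_def, Finset.sup_eq_union, Finset.prod_union]
    exact Finset.disjoint_left.2 fun t ht ht' => by
      simp only [Finset.mem_sdiff] at ht ht'; exact ht.2 ht'.1
  have h4 : (∏ t ∈ a ∩ b, f t) * (∏ t ∈ a ∩ b, f t) = 1 := by
    rw [← Finset.prod_mul_distrib]; exact Finset.prod_eq_one fun t _ => hf t
  rw [h1, h2, h3]
  calc _ = ((∏ t ∈ a \ b, f t) * ∏ t ∈ b \ a, f t) * 1 := by rw [mul_one]
    _ = _ := by rw [← h4]; ac_rfl

theorem sg_symmDiff_left {R : Type} [CommRing R] (a b c : Finset ℕ) :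
    ((-1 : R)) ^ ((a ∆ b) ∩ c).card = (-1) ^ (a ∩ c).card * (-1) ^ (b ∩ c).card := by
  rw [neg_one_pow_card_inter, neg_one_pow_card_inter, neg_one_pow_card_inter,
    prod_symmDiff_sq_one]
  intro t; split_ifs <;> simp

theorem sg_symmDiff_right {R : Type} [CommRing R] (a b c : Finset ℕ) :
    ((-1 : R)) ^ (a ∩ (b ∆ c)).card = (-1) ^ (a ∩ b).card * (-1) ^ (a ∩ c).card := by
  rw [Finset.inter_comm a, Finset.inter_comm a, Finset.inter_comm a, sg_symmDiff_left]

theorem prod_inter_cocycle {R : Type} [CommRing R] (f : ℕ → R) (a b c : Finset ℕ) :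
    (∏ t ∈ a ∩ b, f t) * (∏ t ∈ (a ∆ b) ∩ c, f t) =
      (∏ t ∈ b ∩ c, f t) * ∏ t ∈ a ∩ (b ∆ c), f t := by
  classical
  have key : ∀ s : Finset ℕ, s ⊆ a ∪ b ∪ c →
      ∏ t ∈ s, f t = ∏ t ∈ a ∪ b ∪ c, if t ∈ s then f t else 1 := by
    intro s hs
    rw [Finset.prod_ite_mem, Finset.inter_eq_right.2 hs]
  rw [key (a ∩ b) (by intro t; simp only [Finset.mem_inter, Finset.mem_union]; tauto),
    key ((a ∆ b) ∩ c)
      (by intro t; simp only [Finset.mem_inter, Finset.mem_union, Finset.mem_symmDiff]; tauto),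
    key (b ∩ c) (by intro t; simp only [Finset.mem_inter, Finset.mem_union]; tauto),
    key (a ∩ (b ∆ c))
      (by intro t; simp only [Finset.mem_inter, Finset.mem_union, Finset.mem_symmDiff]; tauto),
    ← Finset.prod_mul_distrib, ← Finset.prod_mul_distrib]
  refine Finset.prod_congr rfl fun t _ => ?_
  by_cases h1 : t ∈ a <;> by_cases h2 : t ∈ b <;> by_cases h3 : t ∈ c <;>
    simp [Finset.mem_symmDiff, h1, h2, h3]

theorem coc_assoc (g h l : Gp) :
    coc R g h * coc R (gx g h) l = coc R h l * coc R g (gx h l) := by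
  unfold coc gx
  simp only
  rw [sg_symmDiff_left, sg_symmDiff_right]
  have h1 := prod_inter_cocycle (al (R := R)) g.1 h.1 l.1
  have h2 := prod_inter_cocycle (be (R := R)) g.2 h.2 l.2
  calc _ = ((-1) ^ (g.2 ∩ h.1).card * (-1) ^ (g.2 ∩ l.1).card * (-1) ^ (h.2 ∩ l.1).card) *
        ((∏ t ∈ g.1 ∩ h.1, al (R := R) t) * (∏ t ∈ (g.1 ∆ h.1) ∩ l.1, al (R := R) t)) *
        ((∏ t ∈ g.2 ∩ h.2, be (R := R) t) * (∏ t ∈ (g.2 ∆ h.2) ∩ l.2, be (R := R) t)) := by ring
    _ = _ := by rw [h1, h2]; ring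

@[simp] theorem coc_one_left (g : Gp) : coc R (∅, ∅) g = 1 := by simp [coc]
@[simp] theorem coc_one_right (g : Gp) : coc R g (∅, ∅) = 1 := by simp [coc]
@[simp] theorem gx_one_left (g : Gp) : gx (∅, ∅) g = g := by
  simp [gx, ← Finset.bot_eq_empty]
@[simp] theorem gx_one_right (g : Gp) : gx g (∅, ∅) = g := by
  simp [gx, ← Finset.bot_eq_empty]
theorem gx_assoc (g h l : Gp) : gx (gx g h) l = gx g (gx h l) := by
  simp [gx, symmDiff_assoc]

/-- the multiplication as a bilinear map of finitely supported functions -/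
noncomputable def mulF : (Gp →₀ R) →ₗ[R] (Gp →₀ R) →ₗ[R] (Gp →₀ R) :=
  Finsupp.linearCombination R (fun g : Gp =>
    (Finsupp.linearCombination R (fun h : Gp =>
      (Finsupp.single (gx g h) (coc R g h) : Gp →₀ R)) : (Gp →₀ R) →ₗ[R] (Gp →₀ R)))

theorem mulF_single_single (g h : Gp) (x y : R) :
    mulF (Finsupp.single g x) (Finsupp.single h y) =
      Finsupp.single (gx g h) (coc R g h * (x * y)) := by
  unfold mulF
  rw [Finsupp.linearCombination_single, LinearMap.smul_apply, Finsupp.linearCombination_single,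
    Finsupp.smul_single, Finsupp.smul_single]
  congr 1
  simp only [smul_eq_mul]
  ring

theorem mulF_eq_sum (u v : Gp →₀ R) : mulF u v =
    Finsupp.sum u fun g a => Finsupp.sum v fun h b =>
      (Finsupp.single (gx g h) (coc R g h * (a * b)) : Gp →₀ R) := by
  unfold mulF
  rw [Finsupp.linearCombination_apply, Finsupp.sum, LinearMap.sum_apply]
  refine Finset.sum_congr rfl fun g _ => ?_
  rw [LinearMap.smul_apply, Finsupp.linearCombination_apply, Finsupp.smul_sum]
  refine Finsupp.sum_congr fun h _ => ?_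
  rw [Finsupp.smul_single, Finsupp.smul_single]
  congr 1
  simp only [smul_eq_mul]
  ring

theorem mul_eq_mulF (u v : QA R) : u * v = (mulF (R := R)) u v :=
  (mulF_eq_sum (R := R) u v).symm

theorem ec_mul_ec (g h : Gp) (x y : R) :
    (ec g x : QA R) * ec h y = ec (gx g h) (coc R g h * (x * y)) := by
  rw [mul_eq_mulF]
  exact mulF_single_single g h x y

/-- induction principle -/
theorem qinduction {p : QA R → Prop} (u : QA R) (h0 : p 0) (hadd : ∀ u v, p u → p v → p (u + v))
    (hec : ∀ g x, p (ec g x)) : p u :=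
  Finsupp.induction_linear (motive := p) u h0 hadd hec

theorem q_left_distrib (u v w : QA R) : u * (v + w) = u * v + u * w := by
  simp only [mul_eq_mulF]
  exact map_add ((mulF (R := R)) u) v w

theorem q_right_distrib (u v w : QA R) : (u + v) * w = u * w + v * w := by
  simp only [mul_eq_mulF]
  exact LinearMap.map_add₂ (mulF (R := R)) u v w

theorem q_zero_mul (u : QA R) : 0 * u = 0 := by
  rw [mul_eq_mulF]
  exact LinearMap.map_zero₂ (mulF (R := R)) u

theorem q_mul_zero (u : QA R) : u * 0 = 0 := by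
  rw [mul_eq_mulF]
  exact map_zero ((mulF (R := R)) u)

theorem q_mul_assoc (u v w : QA R) : u * v * w = u * (v * w) := by
  induction u using qinduction with
  | h0 => rw [q_zero_mul, q_zero_mul, q_zero_mul]
  | hadd u u' h h' => rw [q_right_distrib, q_right_distrib, q_right_distrib, h, h']
  | hec g x =>
    induction v using qinduction with
    | h0 => rw [q_zero_mul, q_mul_zero, q_zero_mul]
    | hadd v v' h h' =>
      rw [q_left_distrib, q_right_distrib, q_right_distrib, q_left_distrib, h, h']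
    | hec h y =>
      induction w using qinduction with
      | h0 => rw [q_mul_zero, q_mul_zero, q_mul_zero]
      | hadd w w' h h' => rw [q_left_distrib, q_left_distrib, q_left_distrib, h, h']
      | hec l z =>
        rw [ec_mul_ec, ec_mul_ec, ec_mul_ec, ec_mul_ec, gx_assoc]
        congr 1
        have := coc_assoc (R := R) g h l
        calc _ = (coc R g h * coc R (gx g h) l) * (x * y * z) := by ring
          _ = _ := by rw [this]; ring

theorem one_def' : (1 : QA R) = ec (∅, ∅) 1 := rfl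

theorem q_one_mul (u : QA R) : 1 * u = u := by
  induction u using qinduction with
  | h0 => exact q_mul_zero _
  | hadd u u' h h' => rw [q_left_distrib, h, h']
  | hec g x => rw [one_def', ec_mul_ec, gx_one_left, coc_one_left, one_mul, one_mul]

theorem q_mul_one (u : QA R) : u * 1 = u := by
  induction u using qinduction with
  | h0 => exact q_zero_mul _
  | hadd u u' h h' => rw [q_right_distrib, h, h']
  | hec g x => rw [one_def', ec_mul_ec, gx_one_right, coc_one_right, one_mul, mul_one]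

noncomputable instance : Ring (QA R) :=
  { (inferInstance : AddCommGroup (QA R)), (inferInstance : Mul (QA R)),
    (inferInstance : One (QA R)) with
    left_distrib := q_left_distrib
    right_distrib := q_right_distrib
    zero_mul := q_zero_mul
    mul_zero := q_mul_zero
    mul_assoc := q_mul_assoc
    one_mul := q_one_mul
    mul_one := q_mul_one }

theorem q_smul_mul {T : Type} [CommRing T] [Algebra T R] (c : T) (u v : QA R) :
    (c • u) * v = c • (u * v) := by
  rw [smul_eq_algebraMap_smul c u, smul_eq_algebraMap_smul c (u * v)]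
  simp only [mul_eq_mulF]
  exact LinearMap.map_smul₂ (mulF (R := R)) _ u v

theorem q_mul_smul {T : Type} [CommRing T] [Algebra T R] (c : T) (u v : QA R) :
    u * (c • v) = c • (u * v) := by
  rw [smul_eq_algebraMap_smul c v, smul_eq_algebraMap_smul c (u * v)]
  simp only [mul_eq_mulF]
  exact map_smul ((mulF (R := R)) u) _ v

noncomputable instance {T : Type} [CommRing T] [Algebra T R] : Algebra T (QA R) :=
  Algebra.ofModule (fun c u v => q_smul_mul c u v) (fun c u v => q_mul_smul c u v)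

/-- trace = coefficient of `1`. -/
noncomputable def tr : QA R →ₗ[R] R := (Finsupp.lapply (∅, ∅) : (Gp →₀ R) →ₗ[R] R)

/-- elements supported on indices in `A`. -/
def OnSet (A : Set ℕ) (u : QA R) : Prop := ∀ g : Gp, u g ≠ 0 → (↑g.1 ⊆ A ∧ ↑g.2 ⊆ A)

theorem mulF_apply_eq_zero (u v : Gp →₀ R) (l : Gp)
    (hcon : ∀ g h, u g ≠ 0 → v h ≠ 0 → gx g h ≠ l) : mulF u v l = 0 := by
  classical
  rw [mulF_eq_sum, Finsupp.sum_apply]
  refine Finset.sum_eq_zero fun g hg => ?_
  show (Finsupp.sum v fun h b => (Finsupp.single (gx g h) (coc R g h * (u g * b)) : Gp →₀ R)) l = 0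
  rw [Finsupp.sum_apply]
  refine Finset.sum_eq_zero fun h hh => ?_
  have := hcon g h (Finsupp.mem_support_iff.1 hg) (Finsupp.mem_support_iff.1 hh)
  show (Finsupp.single (gx g h) (coc R g h * (u g * v h)) : Gp →₀ R) l = 0
  rw [Finsupp.single_apply, if_neg this]

theorem mul_apply_ne_zero {u v : QA R} {l : Gp} (h : (u * v) l ≠ 0) :
    ∃ g h, u g ≠ 0 ∧ v h ≠ 0 ∧ gx g h = l := by
  by_contra hcon
  push Not at hcon
  apply h
  rw [mul_eq_mulF]
  exact mulF_apply_eq_zero (R := R) u v l hcon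

theorem onSet_one (A : Set ℕ) : OnSet A (1 : QA R) := by
  intro g hg
  rw [one_def', ec_apply] at hg
  have : (∅, ∅) = g := by
    by_contra h
    rw [if_neg h] at hg
    exact hg rfl
  subst this
  simp
theorem onSet_mul (A : Set ℕ) {u v : QA R} (hu : OnSet A u) (hv : OnSet A v) :
    OnSet A (u * v) := by
  intro l hl
  obtain ⟨g, h, hg, hh, rfl⟩ := mul_apply_ne_zero hl
  obtain ⟨h1, h2⟩ := hu g hg
  obtain ⟨h3, h4⟩ := hv h hh
  constructor
  · intro t ht
    have ht' : t ∈ g.1 ∆ h.1 := ht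
    rw [Finset.mem_symmDiff] at ht'
    rcases ht' with ht' | ht'
    · exact h1 ht'.1
    · exact h3 ht'.1
  · intro t ht
    have ht' : t ∈ g.2 ∆ h.2 := ht
    rw [Finset.mem_symmDiff] at ht'
    rcases ht' with ht' | ht'
    · exact h2 ht'.1
    · exact h4 ht'.1
theorem onSet_add (A : Set ℕ) {u v : QA R} (hu : OnSet A u) (hv : OnSet A v) :
    OnSet A (u + v) := by
  intro g hg
  rw [q_add_apply] at hg
  by_cases h : u g = 0
  · rw [h, zero_add] at hg
    exact hv g hg
  · exact hu g h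
theorem onSet_zero (A : Set ℕ) : OnSet A (0 : QA R) := fun g hg => absurd (q_zero_apply g) hg
theorem onSet_smul (A : Set ℕ) {T : Type} [Semiring T] [Module T R] (c : T) {u : QA R}
    (hu : OnSet A u) : OnSet A (c • u) := by
  intro g hg
  refine hu g fun h => hg ?_
  rw [q_smul_apply, h, smul_zero]
theorem onSet_algebraMap (A : Set ℕ) (c : R) : OnSet A (algebraMap R (QA R) c) := by
  rw [Algebra.algebraMap_eq_smul_one]
  exact onSet_smul A c (onSet_one A)

/-- subalgebra of elements supported on indices in `A` -/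
noncomputable def on (A : Set ℕ) : Subalgebra R (QA R) where
  carrier := {u | OnSet A u}
  mul_mem' := fun hu hv => onSet_mul A hu hv
  one_mem' := onSet_one A
  add_mem' := fun hu hv => onSet_add A hu hv
  zero_mem' := onSet_zero A
  algebraMap_mem' := onSet_algebraMap A

end QA

/-- `lev k`: the level-`k` algebra, dimension `4^k`. -/
noncomputable def lev (R : Type) [CommRing R] [QPar R] (k : ℕ) : Subalgebra R (QA R) :=
  QA.on {n | n < k}

/-- `mid k l`: generated by the quaternions number `k,..,l-1`; commutes with `lev k`. -/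
noncomputable def mid (R : Type) [CommRing R] [QPar R] (k l : ℕ) : Subalgebra R (QA R) :=
  QA.on {n | k ≤ n ∧ n < l}

section
variable {R : Type} [CommRing R]
noncomputable def S1 (k : ℕ) : QA R := QA.e ({k}, ∅)
noncomputable def S2 (k : ℕ) : QA R := QA.e (∅, {k})
noncomputable def S3 (k : ℕ) : QA R := QA.e ({k}, {k})
/-- the basis `1,S1,S2,S3` of `mid k (k+1)` -/
noncomputable def Sb [QPar R] (k : ℕ) : Fin 4 → QA R := ![1, S1 k, S2 k, S3 k]
end

/-- compatible extension of parameters -/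
class QExt (R S : Type) [CommRing R] [CommRing S] [QPar R] [QPar S] [Algebra R S] : Prop where
  al_map : ∀ s, algebraMap R S (al s) = al s
  be_map : ∀ s, algebraMap R S (be s) = be s

/-- coefficientwise application of a ring hom -/
noncomputable def QA.map {R S : Type} [CommRing R] [CommRing S] (f : R →+* S) : QA R →+ QA S :=
  (Finsupp.mapRange.addMonoidHom f.toAddMonoidHom : (Gp →₀ R) →+ (Gp →₀ S))

theorem QA.map_apply {R S : Type} [CommRing R] [CommRing S] (f : R →+* S) (u : QA R) (g : Gp) :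
    QA.map f u g = f (u g) := rfl

theorem QA.map_ec {R S : Type} [CommRing R] [CommRing S] (f : R →+* S) (g : Gp) (c : R) :
    QA.map f (QA.ec g c) = QA.ec g (f c) :=
  Finsupp.mapRange_single (hf := map_zero f)

theorem coc_map {R S : Type} [CommRing R] [CommRing S] [QPar R] [QPar S] (f : R →+* S)
    (h1 : ∀ s, f (al s) = al s) (h2 : ∀ s, f (be s) = be s) (g h : Gp) :
    f (coc R g h) = coc S g h := by
  simp only [coc, map_mul, map_pow, map_neg, map_one, map_prod, h1, h2]

theorem QA.map_mul' {R S : Type} [CommRing R] [CommRing S] [QPar R] [QPar S] (f : R →+* S)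
    (h1 : ∀ s, f (al s) = al s) (h2 : ∀ s, f (be s) = be s) (u v : QA R) :
    QA.map f (u * v) = QA.map f u * QA.map f v := by
  induction u using QA.qinduction with
  | h0 => rw [zero_mul, map_zero, zero_mul]
  | hadd u u' h h' => rw [add_mul, map_add, map_add, add_mul, h, h']
  | hec g x =>
    induction v using QA.qinduction with
    | h0 => rw [mul_zero, map_zero, mul_zero]
    | hadd v v' h h' => rw [mul_add, map_add, map_add, mul_add, h, h']
    | hec h y =>
      rw [QA.ec_mul_ec, QA.map_ec, QA.map_ec, QA.map_ec, QA.ec_mul_ec, map_mul, map_mul,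
        coc_map f h1 h2]

theorem QA.map_one' {R S : Type} [CommRing R] [CommRing S] [QPar R] [QPar S] (f : R →+* S) :
    QA.map f (1 : QA R) = 1 := by
  rw [QA.one_def', QA.one_def', QA.map_ec, map_one]

theorem QA.map_smul' {R S : Type} [CommRing R] [CommRing S] (f : R →+* S) (c : R) (u : QA R) :
    QA.map f (c • u) = f c • QA.map f u := by
  apply QA.q_ext
  intro g
  rw [QA.map_apply, QA.q_smul_apply, QA.q_smul_apply, QA.map_apply, smul_eq_mul, smul_eq_mul,
    map_mul]

theorem QA.map_algebraMap' {R S : Type} [CommRing R] [CommRing S] [QPar R] [QPar S] [Algebra R S]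
    (c : R) :
    QA.map (algebraMap R S) (algebraMap R (QA R) c) = algebraMap R (QA S) c := by
  rw [Algebra.algebraMap_eq_smul_one, QA.map_smul', QA.map_one', ← QA.smul_eq_algebraMap_smul,
    ← Algebra.algebraMap_eq_smul_one]

/-- base change `QA R → QA S`, an algebra hom over `R` -/
noncomputable def bc (R S : Type) [CommRing R] [CommRing S] [QPar R] [QPar S] [Algebra R S]
    [QExt R S] : QA R →ₐ[R] QA S where
  toFun := QA.map (algebraMap R S)
  map_one' := QA.map_one' _
  map_mul' := QA.map_mul' _ QExt.al_map QExt.be_map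
  map_zero' := map_zero _
  map_add' := map_add _
  commutes' := QA.map_algebraMap'

/-! ### power series and Laurent series coefficients -/

noncomputable instance {K : Type} [Field K] [QPar K] : QPar K⟦X⟧ where
  al s := algebraMap K K⟦X⟧ (al s)
  be s := algebraMap K K⟦X⟧ (be s)

noncomputable instance {K : Type} [Field K] [QPar K] : QPar K⸨X⸩ where
  al s := algebraMap K K⸨X⸩ (al s)
  be s := algebraMap K K⸨X⸩ (be s)

instance {K : Type} [Field K] [QPar K] : QExt K K⟦X⟧ := ⟨fun _ => rfl, fun _ => rfl⟩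
instance {K : Type} [Field K] [QPar K] : QExt K K⸨X⸩ := ⟨fun _ => rfl, fun _ => rfl⟩
theorem algebraMap_powerSeries_laurent (K : Type) [Field K] (x : K) :
    algebraMap K⟦X⟧ K⸨X⸩ (algebraMap K K⟦X⟧ x) = algebraMap K K⸨X⸩ x := rfl
instance {K : Type} [Field K] [QPar K] : QExt K⟦X⟧ K⸨X⸩ :=
  ⟨fun _ => algebraMap_powerSeries_laurent K _, fun _ => algebraMap_powerSeries_laurent K _⟩

/-- `m`-th coefficient of an element of `QA K⟦X⟧` -/
noncomputable def cf {K : Type} [Field K] (m : ℕ) : QA K⟦X⟧ →ₗ[K] QA K :=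
  (Finsupp.mapRange.linearMap (PowerSeries.coeff m) : (Gp →₀ K⟦X⟧) →ₗ[K] (Gp →₀ K))

/-- constants into power series, power series into Laurent series, constants into Laurent series -/
noncomputable abbrev toP (K : Type) [Field K] [QPar K] : QA K →ₐ[K] QA K⟦X⟧ := bc K K⟦X⟧
noncomputable abbrev toL (K : Type) [Field K] [QPar K] : QA K⟦X⟧ →ₐ[K⟦X⟧] QA K⸨X⸩ :=
  bc K⟦X⟧ K⸨X⸩
noncomputable abbrev toC (K : Type) [Field K] [QPar K] : QA K →ₐ[K] QA K⸨X⸩ := bc K K⸨X⸩

/-- good fields: characteristic zero, nonzero parameters, `QA K` a domain. -/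
class KF (K : Type) [Field K] extends QPar K where
  al_ne : ∀ s, al s ≠ 0
  be_ne : ∀ s, be s ≠ 0
  char0 : CharZero K
  dom : ∀ u v : QA K, u * v = 0 → u = 0 ∨ v = 0

instance (K : Type) [Field K] [KF K] : CharZero K := KF.char0

instance (K : Type) [Field K] [KF K] : Nontrivial (QA K) :=
  inferInstanceAs (Nontrivial (Gp →₀ K))
instance (K : Type) [Field K] [KF K] : NoZeroDivisors (QA K) := ⟨fun {u v} h => KF.dom u v h⟩

section LaurentDomain

variable {K : Type} [Field K]

/-- `c ↦ c e_g` as an additive map -/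
noncomputable def ecHom (g : Gp) : K →+ QA K where
  toFun c := QA.ec g c
  map_zero' := QA.ec_zero g
  map_add' := QA.ec_add g

/-- coefficientwise `c ↦ c e_g` on Laurent series -/
noncomputable def lauHom (g : Gp) : K⸨X⸩ →+ HahnSeries ℤ (QA K) where
  toFun a := HahnSeries.map a (ecHom (K := K) g)
  map_zero' := by ext n; exact map_zero (ecHom (K := K) g)
  map_add' a b := by ext n; exact map_add (ecHom (K := K) g) _ _

theorem lauHom_coeff (g : Gp) (a : K⸨X⸩) (n : ℤ) :
    (lauHom g a).coeff n = QA.ec g (a.coeff n) := rfl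

noncomputable def lauPhi : QA K⸨X⸩ →+ HahnSeries ℤ (QA K) :=
  (Finsupp.liftAddHom (fun g => lauHom (K := K) g) : (Gp →₀ K⸨X⸩) →+ HahnSeries ℤ (QA K))

theorem lauPhi_ec (g : Gp) (a : K⸨X⸩) : lauPhi (QA.ec g a) = lauHom g a :=
  Finsupp.liftAddHom_apply_single _ g a

variable [QPar K]

theorem lauPhi_coeff (u : QA K⸨X⸩) (n : ℤ) (g : Gp) :
    (lauPhi u).coeff n g = (u g).coeff n := by
  induction u using QA.qinduction with
  | h0 => rw [map_zero]; rfl
  | hadd u v hu hv =>
    rw [map_add, HahnSeries.coeff_add, QA.q_add_apply, QA.q_add_apply, HahnSeries.coeff_add, hu, hv]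
  | hec h a =>
    rw [lauPhi_ec, lauHom_coeff, QA.ec_apply, QA.ec_apply]
    split_ifs
    · rfl
    · rfl

theorem lauPhi_inj {u : QA K⸨X⸩} (h : lauPhi u = 0) : u = 0 := by
  apply QA.q_ext
  intro g
  ext n
  rw [← lauPhi_coeff, h]
  rfl

theorem lauPhi_mul_ec (g h : Gp) (a b : K⸨X⸩) :
    lauPhi (QA.ec g a * QA.ec h b) = lauPhi (QA.ec g a) * lauPhi (QA.ec h b) := by
  ext n
  have hc : coc K⸨X⸩ g h = HahnSeries.C (coc K g h) := by
    rw [← coc_map (algebraMap K K⸨X⸩) (fun _ => rfl) (fun _ => rfl) g h]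
    exact HahnSeries.ofPowerSeries_C _
  rw [QA.ec_mul_ec, lauPhi_ec, lauPhi_ec, lauPhi_ec, lauHom_coeff, hc, HahnSeries.C_mul_eq_smul,
    HahnSeries.coeff_smul, HahnSeries.coeff_mul, HahnSeries.coeff_mul, Finset.smul_sum]
  have h1 : QA.ec (gx g h) (∑ ij ∈ Finset.antidiagonal a.isPWO_support b.isPWO_support n,
      coc K g h • (a.coeff ij.1 * b.coeff ij.2)) =
      ∑ ij ∈ Finset.antidiagonal a.isPWO_support b.isPWO_support n,
        (QA.ec g (a.coeff ij.1) * QA.ec h (b.coeff ij.2) : QA K) := by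
    rw [← show ecHom (gx g h) _ = QA.ec (gx g h) _ from rfl, map_sum]
    refine Finset.sum_congr rfl fun ij _ => ?_
    rw [QA.ec_mul_ec]
    rfl
  rw [h1]
  have hsupp : ∀ (g : Gp) (a : K⸨X⸩) (i : ℤ), i ∈ (lauHom g a).support ↔ i ∈ a.support := by
    intro g a i
    rw [HahnSeries.mem_support, HahnSeries.mem_support, lauHom_coeff]
    refine not_congr ⟨fun h => ?_, fun h => by rw [h, QA.ec_zero]⟩
    have : (QA.ec g (a.coeff i) : QA K) g = 0 := by rw [h]; rfl
    rwa [QA.ec_apply, if_pos rfl] at this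
  have hset : Finset.antidiagonal a.isPWO_support b.isPWO_support n =
      Finset.antidiagonal (lauHom g a).isPWO_support (lauHom h b).isPWO_support n := by
    ext ij
    rw [Finset.mem_antidiagonal, Finset.mem_antidiagonal, hsupp, hsupp]
  rw [hset]
  rfl

theorem lauPhi_mul (u v : QA K⸨X⸩) : lauPhi (u * v) = lauPhi u * lauPhi v := by
  induction u using QA.qinduction with
  | h0 => rw [zero_mul, map_zero, zero_mul]
  | hadd u u' h h' => rw [add_mul, map_add, map_add, add_mul, h, h']
  | hec g x =>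
    induction v using QA.qinduction with
    | h0 => rw [mul_zero, map_zero, mul_zero]
    | hadd v v' h h' => rw [mul_add, map_add, map_add, mul_add, h, h']
    | hec h y => exact lauPhi_mul_ec g h x y

end LaurentDomain

theorem kf_dom_laurent (K : Type) [Field K] [KF K] (u v : QA K⸨X⸩) (h : u * v = 0) :
    u = 0 ∨ v = 0 := by
  have h1 := lauPhi_mul u v
  rw [h, map_zero] at h1
  rcases mul_eq_zero.1 h1.symm with h2 | h2
  · exact Or.inl (lauPhi_inj h2)
  · exact Or.inr (lauPhi_inj h2)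

theorem kf_char_laurent (K : Type) [Field K] [KF K] : CharZero K⸨X⸩ :=
  charZero_of_injective_algebraMap (algebraMap K K⸨X⸩).injective

theorem kf_al_ne_laurent (K : Type) [Field K] [KF K] (s : ℕ) : (al s : K⸨X⸩) ≠ 0 :=
  (map_ne_zero (algebraMap K K⸨X⸩)).2 (KF.al_ne s)
theorem kf_be_ne_laurent (K : Type) [Field K] [KF K] (s : ℕ) : (be s : K⸨X⸩) ≠ 0 :=
  (map_ne_zero (algebraMap K K⸨X⸩)).2 (KF.be_ne s)

noncomputable instance kfLaurent (K : Type) [Field K] [KF K] : KF K⸨X⸩ :=
  { (inferInstance : QPar K⸨X⸩) with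
    al_ne := kf_al_ne_laurent K
    be_ne := kf_be_ne_laurent K
    char0 := kf_char_laurent K
    dom := kf_dom_laurent K }

/-! ### noncommutative polynomials -/

inductive NC (R : Type) (I : Type) : Type
  | cst : R → NC R I
  | var : I → NC R I
  | add : NC R I → NC R I → NC R I
  | mul : NC R I → NC R I → NC R I

namespace NC

variable {R I A : Type} [CommRing R] [Ring A] [Algebra R A]

/-- evaluation -/
def ev (X : I → A) : NC R I → A
  | cst c => algebraMap R A c
  | var i => X i
  | add p q => p.ev X + q.ev X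
  | mul p q => p.ev X * q.ev X

/-- first derivative at `X` in direction `v` -/
def d1 (X v : I → A) : NC R I → A
  | cst _ => 0
  | var i => v i
  | add p q => p.d1 X v + q.d1 X v
  | mul p q => p.d1 X v * q.ev X + p.ev X * q.d1 X v

theorem d1_add' (X v w : I → A) (p : NC R I) : p.d1 X (v + w) = p.d1 X v + p.d1 X w := by
  induction p with
  | cst c => simp [d1]
  | var i => simp [d1]
  | add p q hp hq => simp only [d1, hp, hq]; abel
  | mul p q hp hq => simp only [d1, hp, hq, add_mul, mul_add]; abel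

theorem d1_smul' (X v : I → A) (c : R) (p : NC R I) : p.d1 X (c • v) = c • p.d1 X v := by
  induction p with
  | cst c => simp [d1]
  | var i => simp [d1]
  | add p q hp hq => simp only [d1, hp, hq, smul_add]
  | mul p q hp hq => simp only [d1, hp, hq, smul_add, smul_mul_assoc, mul_smul_comm]

/-- ordered second derivative: a letter replaced by `v`, a later letter replaced by `w` -/
def d2 (X v w : I → A) : NC R I → A
  | cst _ => 0
  | var _ => 0
  | add p q => p.d2 X v w + q.d2 X v w
  | mul p q => p.d2 X v w * q.ev X + p.d1 X v * q.d1 X w + p.ev X * q.d2 X v w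

/-- change of coefficients -/
def map {R' : Type} (f : R → R') : NC R I → NC R' I
  | cst c => cst (f c)
  | var i => var i
  | add p q => add (p.map f) (q.map f)
  | mul p q => mul (p.map f) (q.map f)

/-- renaming variables -/
def ren {I' : Type} (f : I → I') : NC R I → NC R I'
  | cst c => cst c
  | var i => var (f i)
  | add p q => add (p.ren f) (q.ren f)
  | mul p q => mul (p.ren f) (q.ren f)

end NC

/-! ### states -/

/-- a state over the field `K`; `I` variables, `J` equations -/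
structure Pt (K I J : Type) [Field K] where
  k : ℕ
  x : I
  y : I
  F : J → NC K I
  V0 : Submodule K (I → QA K)
  V1 : Submodule K (I → QA K)
  X : I → QA K

/-- right multiplication by `e` componentwise -/
noncomputable def mulR {K I : Type} [Field K] [QPar K] (e : QA K) :
    (I → QA K) →ₗ[K] (I → QA K) :=
  LinearMap.pi fun i => (LinearMap.mulRight K e).comp (LinearMap.proj i)

/-- `V ⊗ (1,S1,S2,S3)` -/
noncomputable def mulE {K I : Type} [Field K] [QPar K] (k : ℕ) (V : Submodule K (I → QA K)) :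
    Submodule K (I → QA K) :=
  V ⊔ V.map (mulR (S1 k)) ⊔ V.map (mulR (S2 k)) ⊔ V.map (mulR (S3 k))

/-- extension of scalars `K → K⸨X⸩` of a subspace -/
noncomputable def extV {K I : Type} [Field K] [QPar K] (V : Submodule K (I → QA K)) :
    Submodule K⸨X⸩ (I → QA K⸨X⸩) :=
  Submodule.span K⸨X⸩ ((fun (v : I → QA K) (i : I) => toC K (v i)) '' (V : Set (I → QA K)))

namespace Pt

variable {K I J : Type} [Field K] [KF K] [Fintype I] [Fintype J]

/-- differential of the equations -/
noncomputable def D (s : Pt K I J) : (I → QA K) → (J → QA K) := fun v j => (s.F j).d1 s.X v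

theorem D_add (s : Pt K I J) (v w : I → QA K) : s.D (v + w) = s.D v + s.D w :=
  funext fun j => NC.d1_add' s.X v w (s.F j)
theorem D_smul (s : Pt K I J) (c : K) (v : I → QA K) : s.D (c • v) = c • s.D v :=
  funext fun j => NC.d1_smul' s.X v c (s.F j)

/-- the differential as a linear map -/
noncomputable def Dl (s : Pt K I J) : (I → QA K) →ₗ[K] (J → QA K) where
  toFun := s.D
  map_add' := s.D_add
  map_smul' := s.D_smul

/-- `W = ker D ∩ V0` -/
noncomputable def W (s : Pt K I J) : Submodule K (I → QA K) := s.V0 ⊓ LinearMap.ker s.Dl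

/-- all of `A^J`, `A = lev k` -/
noncomputable def AJ (K J : Type) [Field K] [KF K] (k : ℕ) : Submodule K (J → QA K) :=
  Submodule.pi Set.univ fun _ => Subalgebra.toSubmodule (lev K k)

/-- pairing `∑ tr(c_j d_j)` -/
noncomputable def pair (c d : J → QA K) : K := ∑ j, QA.tr (c j * d j)

theorem pair_add_left (c c' d : J → QA K) : pair (c + c') d = pair c d + pair c' d := by
  unfold pair
  rw [← Finset.sum_add_distrib]
  exact Finset.sum_congr rfl fun j _ => by rw [Pi.add_apply, add_mul, map_add]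
theorem pair_smul_left (a : K) (c d : J → QA K) : pair (a • c) d = a * pair c d := by
  unfold pair
  rw [Finset.mul_sum]
  exact Finset.sum_congr rfl fun j _ => by
    rw [Pi.smul_apply, smul_mul_assoc, map_smul, smul_eq_mul]
theorem pair_zero_left (d : J → QA K) : pair (0 : J → QA K) d = 0 := by
  unfold pair
  exact Finset.sum_eq_zero fun j _ => by rw [Pi.zero_apply, zero_mul, map_zero]

/-- obstruction space `U = D(V0)^⊥` in `A^J` -/
noncomputable def U (s : Pt K I J) : Submodule K (J → QA K) where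
  carrier := {c | c ∈ AJ K J s.k ∧ ∀ v ∈ s.V0, pair c (s.D v) = 0}
  add_mem' := by
    rintro a b ⟨ha, ha'⟩ ⟨hb, hb'⟩
    refine ⟨add_mem ha hb, fun v hv => ?_⟩
    rw [pair_add_left, ha' v hv, hb' v hv, add_zero]
  zero_mem' := ⟨zero_mem _, fun v _ => pair_zero_left _⟩
  smul_mem' := by
    rintro a c ⟨hc, hc'⟩
    refine ⟨Submodule.smul_mem _ a hc, fun v hv => ?_⟩
    rw [pair_smul_left, hc' v hv, mul_zero]

/-- the second order form `B_c(v,w)` -/
noncomputable def B (s : Pt K I J) (c : J → QA K) (v w : I → QA K) : K :=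
  ∑ j, QA.tr (c j * (s.F j).d2 s.X v w)

/-- `o = dim U` -/
noncomputable def o (s : Pt K I J) : ℕ := Module.finrank K s.U

/-- inner on the `x,y` components -/
def InnXY (s : Pt K I J) (v : I → QA K) : Prop :=
  ∃ η ∈ lev K s.k, v s.x = s.X s.x * η - η * s.X s.x ∧ v s.y = s.X s.y * η - η * s.X s.y

/-- good states -/
structure Good (s : Pt K I J) : Prop where
  V0V1 : s.V0 ≤ s.V1
  V1lev : ∀ v ∈ s.V1, ∀ i, v i ∈ lev K s.k
  Xlev : ∀ i, s.X i ∈ lev K s.k
  g0 : ∀ j, (s.F j).ev s.X = 0
  g1 : ∀ d ∈ AJ K J s.k, ∃ v ∈ s.V1, s.D v = d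
  g2 : ∀ v ∈ s.V1, s.D v = 0 → v ∈ s.V0
  g3 : ∀ u ∈ lev K s.k, u * s.X s.x = s.X s.x * u → u * s.X s.y = s.X s.y * u →
    ∃ c : K, u = algebraMap K (QA K) c

/-- `B_c` alternating on `W` -/
def Alt (s : Pt K I J) : Prop := ∀ c ∈ s.U, ∀ v ∈ s.W, s.B c v v = 0

/-- injectivity condition, functionals restricted to `Wt` -/
def Inj (s : Pt K I J) (Wt : Submodule K (I → QA K)) (w1 w2 : I → QA K) : Prop :=
  ∀ c1 ∈ s.U, ∀ c2 ∈ s.U, (∀ v ∈ Wt, s.B c1 w1 v + s.B c2 w2 v = 0) → c1 = 0 ∧ c2 = 0

/-- condition (PI) -/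
def PIc (s : Pt K I J) (w1 w2 : I → QA K) : Prop :=
  ∀ l1 l2 : K, s.InnXY (l1 • w1 + l2 • w2) → l1 = 0 ∧ l2 = 0

/-- a curve step -/
structure IsCurve (s : Pt K I J) (T : I → QA K⟦X⟧) : Prop where
  eq : ∀ j, (s.F j).ev T = 0
  zero : ∀ i, cf 0 (T i) = s.X i
  mem : ∀ m, 1 ≤ m → (fun i => cf m (T i)) ∈ s.V1

/-- a growth step with first order term `w1 S1 + w2 S2` -/
structure IsGrowth (s : Pt K I J) (T : I → QA K⟦X⟧) (w1 w2 : I → QA K) : Prop where
  eq : ∀ j, (s.F j).ev T = 0
  zero : ∀ i, cf 0 (T i) = s.X i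
  mem : ∀ m, 1 ≤ m → (fun i => cf m (T i)) ∈ mulE s.k s.V0 ⊔ s.V1
  one : ∀ i, cf 1 (T i) = w1 i * S1 s.k + w2 i * S2 s.k
  w1W : w1 ∈ s.W
  w2W : w2 ∈ s.W
  inj : s.Inj s.W w1 w2
  pi : s.PIc w1 w2

/-- state after a curve step -/
noncomputable def curve (s : Pt K I J) (T : I → QA K⟦X⟧) : Pt K⸨X⸩ I J where
  k := s.k
  x := s.x
  y := s.y
  F := fun j => (s.F j).map (algebraMap K K⸨X⸩)
  V0 := extV s.V0
  V1 := extV s.V1
  X := fun i => toL K (T i)

/-- state after a growth step -/
noncomputable def grow (s : Pt K I J) (T : I → QA K⟦X⟧) : Pt K⸨X⸩ I J where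
  k := s.k + 1
  x := s.x
  y := s.y
  F := fun j => (s.F j).map (algebraMap K K⸨X⸩)
  V0 := extV (mulE s.k s.V0)
  V1 := extV (mulE s.k s.V0 ⊔ s.V1)
  X := fun i => toL K (T i)

/-- `Theta(η)(c,ξ) = ∑ tr(c_j ξ (d2[T_1,η]+d2[η,T_1]))` -/
noncomputable def Th (s : Pt K I J) (w1 w2 : I → QA K) (c : J → QA K) (ξ : QA K)
    (η : I → QA K) : K :=
  ∑ j, QA.tr (c j * ξ *
    ((s.F j).d2 s.X (fun i => w1 i * S1 s.k + w2 i * S2 s.k) η +
      (s.F j).d2 s.X η (fun i => w1 i * S1 s.k + w2 i * S2 s.k)))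

/-- `ker Theta` inside `W E_k` (as a set; it is a subspace) -/
def KerTh (s : Pt K I J) (w1 w2 : I → QA K) (η : I → QA K) : Prop :=
  η ∈ mulE s.k s.W ∧ ∀ c ∈ s.U, s.Th w1 w2 c (S1 s.k) η = 0 ∧ s.Th w1 w2 c (S2 s.k) η = 0 ∧
    s.Th w1 w2 c (S3 s.k) η = 0

end Pt

/-! ### places -/

/-- a place `L ⇀ K` with section `K → L` -/
structure Place (K L : Type) [Field K] [Field L] [QPar K] [QPar L] where
  O : Subring L
  res : O →+* K
  inc : K →+* L
  inc_mem : ∀ a, inc a ∈ O
  res_inc : ∀ a, res ⟨inc a, inc_mem a⟩ = a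
  total : ∀ b : L, b ∉ O → ∃ h : b⁻¹ ∈ O, res ⟨b⁻¹, h⟩ = 0
  inc_al : ∀ s, inc (al s) = al s
  inc_be : ∀ s, inc (be s) = be s

namespace Place

variable {K L M : Type} [Field K] [Field L] [Field M] [QPar K] [QPar L] [QPar M]

open Classical in
/-- residue as a total function (junk value `0` outside `O`) -/
noncomputable def r (P : Place K L) (b : L) : K := if h : b ∈ P.O then P.res ⟨b, h⟩ else 0

theorem r_of_mem_aux (P : Place K L) {b : L} (h : b ∈ P.O) : P.r b = P.res ⟨b, h⟩ := by
  unfold r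
  rw [dif_pos h]

theorem r_zero (P : Place K L) : P.r 0 = 0 := by
  rw [P.r_of_mem_aux P.O.zero_mem]
  exact map_zero P.res

theorem r_add_aux (P : Place K L) {a b : L} (ha : a ∈ P.O) (hb : b ∈ P.O) :
    P.r (a + b) = P.r a + P.r b := by
  rw [P.r_of_mem_aux ha, P.r_of_mem_aux hb, P.r_of_mem_aux (P.O.add_mem ha hb), ← map_add]
  rfl

theorem r_mul_aux (P : Place K L) {a b : L} (ha : a ∈ P.O) (hb : b ∈ P.O) :
    P.r (a * b) = P.r a * P.r b := by
  rw [P.r_of_mem_aux ha, P.r_of_mem_aux hb, P.r_of_mem_aux (P.O.mul_mem ha hb), ← map_mul]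
  rfl

theorem r_inc_aux (P : Place K L) (a : K) : P.r (P.inc a) = a := by
  rw [P.r_of_mem_aux (P.inc_mem a), P.res_inc]

/-- integral element of `QA L` -/
def Int (P : Place K L) (u : QA L) : Prop := ∀ g, u g ∈ P.O

/-- residue of an element of `QA L` -/
noncomputable def rq (P : Place K L) (u : QA L) : QA K :=
  (Finsupp.mapRange P.r P.r_zero (u : Gp →₀ L) : Gp →₀ K)

theorem rq_apply_aux (P : Place K L) (u : QA L) (g : Gp) : P.rq u g = P.r (u g) := rfl

theorem Int_add_aux (P : Place K L) {u v : QA L} (hu : P.Int u) (hv : P.Int v) : P.Int (u + v) :=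
  fun g => by rw [QA.q_add_apply]; exact P.O.add_mem (hu g) (hv g)

theorem Int_zero_aux (P : Place K L) : P.Int (0 : QA L) :=
  fun g => by rw [QA.q_zero_apply]; exact P.O.zero_mem

theorem Int_smul_aux (P : Place K L) {a : L} (ha : a ∈ P.O) {u : QA L} (hu : P.Int u) :
    P.Int (a • u) :=
  fun g => by rw [QA.q_smul_apply]; exact P.O.mul_mem ha (hu g)

theorem rq_add_aux (P : Place K L) {u v : QA L} (hu : P.Int u) (hv : P.Int v) :
    P.rq (u + v) = P.rq u + P.rq v :=
  QA.q_ext fun g => by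
    rw [QA.q_add_apply, rq_apply_aux, rq_apply_aux, rq_apply_aux, QA.q_add_apply, P.r_add_aux (hu g) (hv g)]

theorem rq_zero_aux (P : Place K L) : P.rq (0 : QA L) = 0 :=
  QA.q_ext fun g => by rw [rq_apply_aux, QA.q_zero_apply, QA.q_zero_apply, P.r_zero]

theorem rq_smul_aux (P : Place K L) {a : L} (ha : a ∈ P.O) {u : QA L} (hu : P.Int u) :
    P.rq (a • u) = P.r a • P.rq u :=
  QA.q_ext fun g => by
    rw [QA.q_smul_apply, rq_apply_aux, rq_apply_aux, QA.q_smul_apply, smul_eq_mul, smul_eq_mul,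
      P.r_mul_aux ha (hu g)]

/-- inclusion of constants -/
noncomputable def iq (P : Place K L) : QA K →+* QA L where
  toFun := QA.map P.inc
  map_one' := QA.map_one' _
  map_mul' := QA.map_mul' _ P.inc_al P.inc_be
  map_zero' := map_zero _
  map_add' := map_add _

/-- residue space of a subspace of `QA L` -/
def RS (P : Place K L) (V : Submodule L (QA L)) : Set (QA K) :=
  {u | ∃ v ∈ V, P.Int v ∧ P.rq v = u}

theorem RS_add (P : Place K L) (V : Submodule L (QA L)) {a b : QA K} (ha : a ∈ P.RS V)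
    (hb : b ∈ P.RS V) : a + b ∈ P.RS V := by
  obtain ⟨v, hv, hv', rfl⟩ := ha
  obtain ⟨w, hw, hw', rfl⟩ := hb
  exact ⟨v + w, V.add_mem hv hw, P.Int_add_aux hv' hw', P.rq_add_aux hv' hw'⟩
theorem RS_zero (P : Place K L) (V : Submodule L (QA L)) : (0 : QA K) ∈ P.RS V :=
  ⟨0, V.zero_mem, P.Int_zero_aux, P.rq_zero_aux⟩
theorem RS_smul (P : Place K L) (V : Submodule L (QA L)) (c : K) {a : QA K} (ha : a ∈ P.RS V) :
    c • a ∈ P.RS V := by
  obtain ⟨v, hv, hv', rfl⟩ := ha
  exact ⟨P.inc c • v, V.smul_mem _ hv, P.Int_smul_aux (P.inc_mem c) hv', by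
    rw [P.rq_smul_aux (P.inc_mem c) hv', P.r_inc_aux]⟩

noncomputable def resS (P : Place K L) (V : Submodule L (QA L)) : Submodule K (QA K) where
  carrier := P.RS V
  add_mem' := P.RS_add V
  zero_mem' := P.RS_zero V
  smul_mem' := fun c _ h => P.RS_smul V c h

/-- residue space of a subspace of `I → QA L` -/
def RSI {I : Type} (P : Place K L) (V : Submodule L (I → QA L)) : Set (I → QA K) :=
  {u | ∃ v ∈ V, (∀ i, P.Int (v i)) ∧ (fun i => P.rq (v i)) = u}

theorem RSI_add {I : Type} (P : Place K L) (V : Submodule L (I → QA L)) {a b : I → QA K}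
    (ha : a ∈ P.RSI V) (hb : b ∈ P.RSI V) : a + b ∈ P.RSI V := by
  obtain ⟨v, hv, hv', rfl⟩ := ha
  obtain ⟨w, hw, hw', rfl⟩ := hb
  exact ⟨v + w, V.add_mem hv hw, fun i => P.Int_add_aux (hv' i) (hw' i),
    funext fun i => P.rq_add_aux (hv' i) (hw' i)⟩
theorem RSI_zero {I : Type} (P : Place K L) (V : Submodule L (I → QA L)) :
    (0 : I → QA K) ∈ P.RSI V :=
  ⟨0, V.zero_mem, fun _ => P.Int_zero_aux, funext fun _ => P.rq_zero_aux⟩
theorem RSI_smul {I : Type} (P : Place K L) (V : Submodule L (I → QA L)) (c : K) {a : I → QA K}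
    (ha : a ∈ P.RSI V) : c • a ∈ P.RSI V := by
  obtain ⟨v, hv, hv', rfl⟩ := ha
  exact ⟨P.inc c • v, V.smul_mem _ hv, fun i => P.Int_smul_aux (P.inc_mem c) (hv' i),
    funext fun i => by
      rw [Pi.smul_apply, P.rq_smul_aux (P.inc_mem c) (hv' i), P.r_inc_aux, Pi.smul_apply]⟩

noncomputable def resI {I : Type} (P : Place K L) (V : Submodule L (I → QA L)) :
    Submodule K (I → QA K) where
  carrier := P.RSI V
  add_mem' := P.RSI_add V
  zero_mem' := P.RSI_zero V
  smul_mem' := fun c _ h => P.RSI_smul V c h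

end Place

end Crest.Agent.KP
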