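import Crest.Agent.KP_LemR
import Crest.Agent.KPX_Forget
import Crest.Agent.KPX_Good
import Crest.Agent.KPD_Main
import Crest.Agent.KPD_St
import Crest.Agent.KPH_Main

/-!
# S0270 : assembly of the freeze step (author helper97)

Inputs: `C_*` (KP_C), `kpx_ext_good`, `kpx_ext_forget`, `D1_main'`, `Pt.kph_main`,
`Pt.caseA_frozen`, `lemR_proof`.
-/

set_option autoImplicit false
set_option linter.unusedSectionVars false

open scoped PowerSeries LaurentSeries symmDiff

namespace Crest.Agent.KP

open Pt

/-! ### places -/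

theorem fr_place_ext {K L : Type} [Field K] [Field L] [QPar K] [QPar L] (P Q : Place K L)
    (h1 : P.O = Q.O) (h2 : ∀ b, P.r b = Q.r b) (h3 : P.inc = Q.inc) : P = Q := by
  obtain ⟨O, res, inc, a1, a2, a3, a4, a5⟩ := P
  obtain ⟨O', res', inc', b1, b2, b3, b4, b5⟩ := Q
  simp only at h1 h3
  subst h1
  subst h3
  have : res = res' := by
    refine RingHom.ext fun x => ?_
    have := h2 x.1
    unfold Place.r at this
    simpa using this
  subst this
  rfl

theorem fr_trans_refl {K L : Type} [Field K] [Field L] [QPar K] [QPar L] (P : Place K L) :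
    P.trans (Place.refl L) = P := by
  refine fr_place_ext _ _ ?_ ?_ ?_
  · ext b
    rw [kpr_mem_trans, kpr_r_refl]
    exact ⟨fun h => h.2, fun h => ⟨kpr_mem_refl b, h⟩⟩
  · intro b
    rw [kpr_r_trans, kpr_r_refl]
  · ext a
    rfl

theorem fr_trans_assoc {K L M N : Type} [Field K] [Field L] [Field M] [Field N] [QPar K] [QPar L]
    [QPar M] [QPar N] (P : Place K L) (Q : Place L M) (R : Place M N) :
    P.trans (Q.trans R) = (P.trans Q).trans R := by
  refine fr_place_ext _ _ ?_ ?_ ?_
  · ext b
    rw [kpr_mem_trans, kpr_mem_trans, kpr_mem_trans, kpr_mem_trans, kpr_r_trans]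
    tauto
  · intro b
    simp only [kpr_r_trans]
  · ext a
    rfl

/-! ### NC -/

theorem fr_map_map {R S T I : Type} (f : R → S) (g : S → T) (p : NC R I) :
    (p.map f).map g = p.map (fun x => g (f x)) := by
  induction p with
  | cst c => rfl
  | var i => rfl
  | add p q hp hq => simp only [NC.map, hp, hq]
  | mul p q hp hq => simp only [NC.map, hp, hq]

theorem fr_map_id {R I : Type} (p : NC R I) : p.map (fun x => x) = p := by
  induction p with
  | cst c => rfl
  | var i => rfl
  | add p q hp hq => simp only [NC.map, hp, hq]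
  | mul p q hp hq => simp only [NC.map, hp, hq]

theorem fr_ren_id {R I : Type} (p : NC R I) : p.ren (fun x => x) = p := by
  induction p with
  | cst c => rfl
  | var i => rfl
  | add p q hp hq => simp only [NC.ren, hp, hq]
  | mul p q hp hq => simp only [NC.ren, hp, hq]

theorem fr_ren_ren {R I I' I'' : Type} (f : I → I') (g : I' → I'') (p : NC R I) :
    (p.ren f).ren g = p.ren (fun x => g (f x)) := by
  induction p with
  | cst c => rfl
  | var i => rfl
  | add p q hp hq => simp only [NC.ren, hp, hq]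
  | mul p q hp hq => simp only [NC.ren, hp, hq]

theorem fr_ren_map {R S I I' : Type} (f : I → I') (g : R → S) (p : NC R I) :
    (p.ren f).map g = (p.map g).ren f := by
  induction p with
  | cst c => rfl
  | var i => rfl
  | add p q hp hq => simp only [NC.ren, NC.map, hp, hq]
  | mul p q hp hq => simp only [NC.ren, NC.map, hp, hq]

/-! ### reachability -/

section
variable {K I J : Type} [Field K] [KF K] [Fintype I] [Fintype J]

theorem fr_rch_trans (s0 : Pt K I J) (L : Type) (iF : Field L) (iK : KF L) (s : Pt L I J)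
    (P : Place K L) (h : Rch s0 L iF iK s P)
    (M : Type) (jF : Field M) (jK : KF M) (t : Pt M I J) (Q : Place L M)
    (h' : Rch s M jF jK t Q) : Rch s0 M jF jK t (P.trans Q) := by
  induction h' with
  | refl => rw [fr_trans_refl]; exact h
  | curve M jF jK t Q _ T hT ih =>
    rw [fr_trans_assoc]
    exact Rch.curve M jF jK t _ ih T hT
  | grow M jF jK t Q _ T w1 w2 hT ih =>
    rw [fr_trans_assoc]
    exact Rch.grow M jF jK t _ ih T w1 w2 hT

theorem fr_rch_x (s0 : Pt K I J) (L : Type) (iF : Field L) (iK : KF L) (s : Pt L I J)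
    (P : Place K L) (h : Rch s0 L iF iK s P) : s.x = s0.x ∧ s.y = s0.y ∧ s0.k ≤ s.k := by
  induction h with
  | refl => exact ⟨rfl, rfl, le_rfl⟩
  | curve L iF iK s P _ T hT ih => exact ih
  | grow L iF iK s P _ T w1 w2 hT ih => exact ⟨ih.1, ih.2.1, le_trans ih.2.2 (Nat.le_succ _)⟩

theorem fr_rch_int (s0 : Pt K I J) (L : Type) (iF : Field L) (iK : KF L) (s : Pt L I J)
    (P : Place K L) (h : Rch s0 L iF iK s P) (a : I) :
    P.Int (s.X a) ∧ P.rq (s.X a) = s0.X a := by
  induction h with
  | refl => exact ⟨kpr_int_refl _, kpr_rq_refl _⟩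
  | curve L iF iK s P _ T hT ih =>
    have h0 : (Place.laurent L).rq (toL L (T a)) = s.X a := by rw [kpr_rq_toL, hT.zero]
    constructor
    · rw [kpr_int_trans]
      refine ⟨kpr_int_toL _, ?_⟩
      show P.Int ((Place.laurent L).rq (toL L (T a)))
      rw [h0]; exact ih.1
    · rw [kpr_rq_trans]
      show P.rq ((Place.laurent L).rq (toL L (T a))) = _
      rw [h0]; exact ih.2
  | grow L iF iK s P _ T w1 w2 hT ih =>
    have h0 : (Place.laurent L).rq (toL L (T a)) = s.X a := by rw [kpr_rq_toL, hT.zero]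
    constructor
    · rw [kpr_int_trans]
      refine ⟨kpr_int_toL _, ?_⟩
      show P.Int ((Place.laurent L).rq (toL L (T a)))
      rw [h0]; exact ih.1
    · rw [kpr_rq_trans]
      show P.rq ((Place.laurent L).rq (toL L (T a))) = _
      rw [h0]; exact ih.2

/-- frozen words stay frozen -/
theorem fr_frozen_rch (s0 : Pt K I J) (L : Type) (iF : Field L) (iK : KF L) (s : Pt L I J)
    (P : Place K L) (h : Rch s0 L iF iK s P) (w : NC K I) (hw : s0.Frozen w) :
    s.Frozen (w.map P.inc) ∧
      ∀ j : ℕ, QA.tr (((w.map P.inc).ev s.X) ^ j) = P.inc (QA.tr ((w.ev s0.X) ^ j)) := by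
  have h2 : ∀ j : ℕ, QA.tr (((w.map P.inc).ev s.X) ^ j) = P.inc (QA.tr ((w.ev s0.X) ^ j)) :=
    fun j => hw L iF iK s P h j
  refine ⟨?_, h2⟩
  intro M jF jK t Q hQ j
  have h3 := hw M jF jK t (P.trans Q) (fr_rch_trans s0 L iF iK s P h M jF jK t Q hQ) j
  have e : om Q (w.map P.inc) t = om (P.trans Q) w t := by
    unfold om
    rw [fr_map_map]
    rfl
  rw [e, h3, h2 j]
  rfl

end

/-! ### nodes -/

/-- node from a reachable state -/
noncomputable def frNode (n : Node) (L : Type) (iF : Field L) (iK : KF L) (s : Pt L n.I n.J)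
    (P : Place n.K L) (h : Rch n.pt L iF iK s P) : Node where
  K := L
  fld := iF
  kf := iK
  I := n.I
  J := n.J
  pt := s
  good := (C_reach n.pt n.good n.stable L iF iK s P h).1
  stable := (C_reach n.pt n.good n.stable L iF iK s P h).2.1
  rich := C_rich n.pt n.good n.stable n.rich L iF iK s P h

noncomputable def frLater (n : Node) (L : Type) (iF : Field L) (iK : KF L) (s : Pt L n.I n.J)
    (P : Place n.K L) (h : Rch n.pt L iF iK s P) : Later n (frNode n L iF iK s P h) where
  P := P
  i := fun x => x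
  hx := (fr_rch_x n.pt L iF iK s P h).1
  hy := (fr_rch_x n.pt L iF iK s P h).2.1
  hk := (fr_rch_x n.pt L iF iK s P h).2.2
  int := fun a => (fr_rch_int n.pt L iF iK s P h a).1
  res := fun a => (fr_rch_int n.pt L iF iK s P h a).2
  frz := fun w hw => by
    show s.Frozen ((w.map P.inc).ren (fun x : n.I => x))
    rw [fr_ren_id]
    exact (fr_frozen_rch n.pt L iF iK s P h w hw).1
  frz_tr := fun w hw j => by
    show QA.tr ((((w.map P.inc).ren (fun x : n.I => x)).ev s.X) ^ j) = _
    rw [fr_ren_id]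
    exact (fr_frozen_rch n.pt L iF iK s P h w hw).2 j

/-! ### extension -/

section
variable {K I J : Type} [Field K] [KF K] [Fintype I] [Fintype J]

theorem fr_frozen_ext (s : Pt K I J) (w' : NC K I) (a : QA K) (m0 : Submodule K (QA K))
    (hx : s.ExtOk w' a m0) (w : NC K I) (hw : s.Frozen w) :
    (s.ext w' a m0).Frozen (w.ren Sum.inl) := by
  intro L iF iK t P ht j
  have hf := _root_.Crest.Agent.KP.kpx_ext_forget s w' a m0 hx L iF iK t P ht
  have h := hw L iF iK (s.fgt P t) P hf j
  have e1 : om P (w.ren Sum.inl) t = om P w (s.fgt P t) := by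
    unfold om
    rw [fr_ren_map, NC.kph_ev_ren]
    rfl
  have e2 : (w.ren Sum.inl).ev (s.ext w' a m0).X = w.ev s.X := by
    rw [NC.kph_ev_ren]
    rfl
  rw [e1, h, e2]

/-- at a state where `f` is constant, the traces of powers of the word are constant -/
theorem fr_tr_const (s : Pt K I J) (w : NC K I) (a : QA K) (m0 : Submodule K (QA K))
    {L : Type} [Field L] [KF L] (t : Pt L (I ⊕ Bool) (Option J)) (P : Place K L)
    (ht : Rch (s.ext w a m0) L inferInstance inferInstance t P)
    (hg : t.Good) (hf : fv t = P.iq (s.omg w))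
    (hF : t.F none = ((s.ext w a m0).F none).map P.inc) (j : ℕ) :
    QA.tr (((w.map P.inc).ev (fun i => t.X (Sum.inl i))) ^ j) =
      P.inc (QA.tr ((s.omg w) ^ j)) := by
  have h0 := hg.g0 none
  rw [hF] at h0
  set Ω := (w.map P.inc).ev (fun i => t.X (Sum.inl i)) with hΩ
  -- the equation `w g = g f`
  have heq : Ω * gv t = gv t * P.iq (s.omg w) := by
    rw [← hf]
    have : Ω * gv t + (algebraMap L (QA L) (P.inc (-1))) * (gv t * fv t) = 0 := by
      have h1 := h0
      change ((((w.ren Sum.inl).map P.inc).ev t.X) * gv t) +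
        (algebraMap L (QA L) (P.inc (-1))) * (gv t * fv t) = 0 at h1
      rw [fr_ren_map, NC.kph_ev_ren] at h1
      exact h1
    rw [map_neg, map_one, map_neg, map_one, neg_one_mul, ← sub_eq_add_neg, sub_eq_zero] at this
    exact this
  -- `g` is invertible
  have hint := fr_rch_int (s.ext w a m0) L _ _ t P ht (Sum.inr false)
  have hg1 : P.rq (gv t) = 1 := hint.2
  have hgne : gv t ≠ 0 := by
    intro h
    rw [h] at hg1
    have : P.rq (0 : QA L) = 0 := kpr_ext fun g => by
      rw [kpr_rq_apply, kpr_zero_apply, kpr_zero_apply, kpr_r_zero]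
    rw [this] at hg1
    exact zero_ne_one hg1
  obtain ⟨q1, q2, -, -⟩ := qinv_spec t.k (gv t) (hg.Xlev _) hgne
  have hconj : Ω = gv t * P.iq (s.omg w) * qinv (gv t) := by
    rw [← heq, mul_assoc, q1, mul_one]
  have hpow : ∀ j : ℕ, Ω ^ j = gv t * (P.iq (s.omg w)) ^ j * qinv (gv t) := by
    intro j
    induction j with
    | zero => rw [pow_zero, pow_zero, mul_one, q1]
    | succ j ih =>
      rw [pow_succ, ih, hconj, pow_succ]
      calc gv t * P.iq (s.omg w) ^ j * qinv (gv t) * (gv t * P.iq (s.omg w) * qinv (gv t))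
          = gv t * P.iq (s.omg w) ^ j * (qinv (gv t) * gv t) * P.iq (s.omg w) * qinv (gv t) := by
            simp only [mul_assoc]
        _ = gv t * (P.iq (s.omg w) ^ j * P.iq (s.omg w)) * qinv (gv t) := by
            rw [q2]; simp only [mul_assoc, mul_one]
  rw [hpow, kpa_tr_comm, ← mul_assoc, q2, one_mul, ← map_pow]
  rfl

theorem fr_rch_F (s0 : Pt K I J) (L : Type) (iF : Field L) (iK : KF L) (s : Pt L I J)
    (P : Place K L) (h : Rch s0 L iF iK s P) (j : J) : s.F j = (s0.F j).map P.inc := by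
  induction h with
  | refl => exact (fr_map_id _).symm
  | curve L iF iK s P _ T hT ih =>
    show (s.F j).map (algebraMap L L⸨X⸩) = _
    rw [ih, fr_map_map]
    rfl
  | grow L iF iK s P _ T w1 w2 hT ih =>
    show (s.F j).map (algebraMap L L⸨X⸩) = _
    rw [ih, fr_map_map]
    rfl

/-- a complement of `R` in `K''` -/
theorem fr_exists_m0 (s : Pt K I J) (w : NC K I) (a : QA K) (ha : a ∈ s.LL w) (h0 : a ≠ 0) :
    ∃ m0 : Submodule K (QA K), s.ExtOk w a m0 := by
  obtain ⟨m, hm⟩ := Submodule.exists_isCompl (s.RR w a)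
  have hRK : s.RR w a ≤ Subalgebra.toSubmodule (s.K2 w) := inf_le_left
  refine ⟨m ⊓ Subalgebra.toSubmodule (s.K2 w), ha, h0, inf_le_right, ?_, ?_⟩
  · rw [← inf_assoc, hm.inf_eq_bot, bot_inf_eq]
  · rw [← sup_inf_assoc_of_le m hRK, hm.sup_eq_top, top_inf_eq]

/-- stability of the extended state -/
theorem fr_ext_stable (s : Pt K I J) (w : NC K I) (d : ℕ) (h : s.Pkg w d) (a : QA K)
    (m0 : Submodule K (QA K)) (hx : s.ExtOk w a m0) : (s.ext w a m0).Stable := by
  intro L iF iK t P ht
  rw [(lemR_proof s w d h a m0 hx L iF iK t P ht).o, (_root_.Crest.Agent.KP.kpx_ext_good s w d h a m0 hx).2]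

/-- the word is frozen in the extended system -/
theorem fr_ext_frozen (s : Pt K I J) (w : NC K I) (d : ℕ) (h : s.Pkg w d) (a : QA K)
    (m0 : Submodule K (QA K)) (hx : s.ExtOk w a m0) :
    (s.ext w a m0).Frozen (w.ren Sum.inl) := by
  intro L iF iK t P ht j
  have hR := lemR_proof s w d h a m0 hx L iF iK t P ht
  have e1 : om P (w.ren Sum.inl) t = (w.map P.inc).ev (fun i => t.X (Sum.inl i)) := by
    unfold om
    rw [fr_ren_map, NC.kph_ev_ren]
    rfl
  have e2 : (w.ren Sum.inl).ev (s.ext w a m0).X = s.omg w := by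
    rw [NC.kph_ev_ren]
    rfl
  rw [e1, e2]
  exact fr_tr_const s w a m0 t P ht hR.good hR.f (fr_rch_F _ L iF iK t P ht none) j

end

/-- **freeze step** -/
theorem freeze_step_proof (n : Node) (w : NC n.K n.I) :
    ∃ (n' : Node) (h : Later n n'), n.pt.k < n'.pt.k ∧
      n'.pt.Frozen ((w.map h.P.inc).ren h.i) := by
  rcases D1_main' n.pt n.good n.stable n.rich w with
    ⟨L, iF, iK, t, P, ht, hA⟩ | ⟨L, iF, iK, t, P, ht, d, T, w1, w2, a, ρ, h4, h5⟩
  · -- case A
    obtain ⟨hg, hs, ha⟩ := C_reach n.pt n.good n.stable L iF iK t P ht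
    have hr := C_rich n.pt n.good n.stable n.rich L iF iK t P ht
    have hfr : t.Frozen (w.map P.inc) := Pt.caseA_frozen t hg hs (w.map P.inc) hA
    obtain ⟨T, w1, w2, hT⟩ := C_growth_exists t hg ha hr
    have ht' : Rch n.pt L⸨X⸩ inferInstance inferInstance (t.grow T)
        (P.trans (Place.laurent L)) := Rch.grow L iF iK t P ht T w1 w2 hT
    have ht'' : Rch t L⸨X⸩ inferInstance inferInstance (t.grow T)
        ((Place.refl L).trans (Place.laurent L)) :=
      Rch.grow L iF iK t _ Rch.refl T w1 w2 hT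
    refine ⟨frNode n L⸨X⸩ _ _ (t.grow T) _ ht', frLater n L⸨X⸩ _ _ (t.grow T) _ ht', ?_, ?_⟩
    · have := (fr_rch_x n.pt L iF iK t P ht).2.2
      show n.pt.k < t.k + 1
      omega
    · show (t.grow T).Frozen ((w.map (P.trans (Place.laurent L)).inc).ren (fun x : n.I => x))
      rw [fr_ren_id]
      have h2 := (fr_frozen_rch t L⸨X⸩ _ _ (t.grow T) _ ht'' (w.map P.inc) hfr).1
      rw [fr_map_map] at h2
      exact h2
  · -- case B
    obtain ⟨hg, hs, ha⟩ := C_reach n.pt n.good n.stable L iF iK t P ht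
    have ht5 : Rch n.pt L⸨X⸩ inferInstance inferInstance (t.grow T)
        (P.trans (Place.laurent L)) := Rch.grow L iF iK t P ht T w1 w2 h4.gr
    obtain ⟨a5, ha5, ha50⟩ := (Submodule.ne_bot_iff _).1 h5.ne
    obtain ⟨m0, hx⟩ := fr_exists_m0 (t.grow T) (w.map P.inc).up a5 ha5 ha50
    have hext := _root_.Crest.Agent.KP.kpx_ext_good (t.grow T) (w.map P.inc).up d h5 a5 m0 hx
    have ho5 : (t.grow T).o = n.pt.o := n.stable _ _ _ _ _ ht5
    have hrich : ((t.grow T).ext (w.map P.inc).up a5 m0).Rich
        ((t.grow T).ext (w.map P.inc).up a5 m0).q0 := by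
      have h := Pt.kph_main t (w.map P.inc) d _ T w1 w2 a ρ h4 h5 a5 m0 hx
      have e : ((t.grow T).ext (w.map P.inc).up a5 m0).q0 = tplus n.pt.o d := by
        unfold Pt.q0 tplus
        rw [hext.2, ho5]
      rw [e]
      exact h
    have hstab := fr_ext_stable (t.grow T) (w.map P.inc).up d h5 a5 m0 hx
    let n' : Node :=
      { K := L⸨X⸩
        I := n.I ⊕ Bool
        J := Option n.J
        pt := (t.grow T).ext (w.map P.inc).up a5 m0
        good := hext.1
        stable := hstab
        rich := hrich }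
    have hmap : ∀ v : NC n.K n.I, (v.map (P.trans (Place.laurent L)).inc) = (v.map P.inc).up := by
      intro v
      unfold NC.up
      rw [fr_map_map]
      rfl
    let hl : Later n n' :=
      { P := P.trans (Place.laurent L)
        i := Sum.inl
        hx := congrArg Sum.inl (fr_rch_x n.pt _ _ _ _ _ ht5).1
        hy := congrArg Sum.inl (fr_rch_x n.pt _ _ _ _ _ ht5).2.1
        hk := (fr_rch_x n.pt _ _ _ _ _ ht5).2.2
        int := fun a => (fr_rch_int n.pt _ _ _ _ _ ht5 a).1
        res := fun a => (fr_rch_int n.pt _ _ _ _ _ ht5 a).2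
        frz := fun v hv => fr_frozen_ext (t.grow T) (w.map P.inc).up a5 m0 hx _
          (fr_frozen_rch n.pt _ _ _ _ _ ht5 v hv).1
        frz_tr := fun v hv j => by
          have h1 := (fr_frozen_rch n.pt _ _ _ _ _ ht5 v hv).2 j
          have e2 : ((v.map (P.trans (Place.laurent L)).inc).ren Sum.inl).ev
              ((t.grow T).ext (w.map P.inc).up a5 m0).X =
              (v.map (P.trans (Place.laurent L)).inc).ev (t.grow T).X := by
            rw [NC.kph_ev_ren]
            rfl
          show QA.tr ((((v.map (P.trans (Place.laurent L)).inc).ren Sum.inl).ev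
              ((t.grow T).ext (w.map P.inc).up a5 m0).X) ^ j) = _
          rw [e2]
          exact h1 }
    refine ⟨n', hl, ?_, ?_⟩
    · have := (fr_rch_x n.pt L iF iK t P ht).2.2
      show n.pt.k < t.k + 1
      omega
    · show ((t.grow T).ext (w.map P.inc).up a5 m0).Frozen
        ((w.map (P.trans (Place.laurent L)).inc).ren Sum.inl)
      rw [hmap]
      exact fr_ext_frozen (t.grow T) (w.map P.inc).up d h5 a5 m0 hx

end Crest.Agent.KP
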