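import Crest.Agent.KP_G1
import Crest.Agent.KP_C
import Crest.Agent.KPH_NC

/-!
# S0270 : Lemma R, assembly (author helper97)
-/

set_option autoImplicit false
set_option linter.unusedSectionVars false

open scoped PowerSeries LaurentSeries symmDiff

namespace Crest.Agent.KP

open Pt

/-- an element of `QA L⟦X⟧` is determined by its coefficients -/
theorem lemR_cf_ext {L : Type} [Field L] (u v : QA L⟦X⟧) (h : ∀ m, cf m u = cf m v) : u = v := by
  refine kpr_ext fun g => ?_
  refine PowerSeries.ext fun m => ?_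
  have := congrArg (fun z : QA L => z g) (h m)
  simpa [kpr_cf_apply] using this

section
variable {K L I J : Type} [Field K] [KF K] [Field L] [KF L] [Fintype I] [Fintype J]

theorem lemR_one_mem (s : Pt K I J) (w : NC K I) (a : QA K) (haL : a ∈ s.LL w) :
    (1 : QA K) ∈ s.RR w a := by
  refine ⟨?_, ?_⟩
  · show (1 : QA K) ∈ s.K2 w
    exact one_mem _
  · show LinearMap.mulLeft K a 1 ∈ s.LL w
    simpa using haL

theorem lemR_Th_smul (s : Pt L I J) (w1 w2 : I → QA L) (c : J → QA L) (ξ : QA L)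
    (p : L) (η : I → QA L) : s.Th w1 w2 c ξ (p • η) = p * s.Th w1 w2 c ξ η := by
  unfold Pt.Th
  rw [Finset.mul_sum]
  refine Finset.sum_congr rfl fun j _ => ?_
  rw [NC.kph_d2_smul_left, NC.kph_d2_smul_right, ← smul_add, mul_smul_comm, map_smul, smul_eq_mul]

theorem lemR_curve_step (s : Pt K I J) (w : NC K I) (d : ℕ) (hp : s.Pkg w d) (a : QA K)
    (m0 : Submodule K (QA K)) (hx : s.ExtOk w a m0)
    (t : Pt L (I ⊕ Bool) (Option J)) (P : Place K L)
    (ht : Rch (s.ext w a m0) L inferInstance inferInstance t P) (hR : s.LemR w a d P t)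
    (T : I ⊕ Bool → QA L⟦X⟧) (hT : t.IsCurve T) :
    s.LemR w a d (P.trans (Place.laurent L)) (t.curve T) := by
  have ht' : Rch (s.ext w a m0) L⸨X⸩ inferInstance inferInstance (t.curve T)
      (P.trans (Place.laurent L)) := Rch.curve L _ _ t P ht T hT
  -- the value of `f` is constant
  have hconst : ∀ m, 1 ≤ m → cf m (T (Sum.inr true)) = 0 := by
    by_contra hne
    push Not at hne
    classical
    let δ := Nat.find hne
    have hδ := Nat.find_spec hne
    have hδmin : ∀ m, 1 ≤ m → m < δ → cf m (T (Sum.inr true)) = 0 := by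
      intro m h1 h2
      by_contra h3
      exact Nat.find_min hne h2 ⟨h1, h3⟩
    refine G7 s w d hp a m0 hx t P ht hR t.k (Or.inl rfl) δ (cf δ (T (Sum.inr true))) hδ.2 ?_ ?_
    · intro c hc
      exact G1_curve s w d hp a m0 hx t P ht (fun i => cf δ (T i)) (hT.mem δ hδ.1) c hc
    · intro p z hz
      obtain ⟨v, hv, hvi, hvr⟩ := G3 s w a t P hR.b z hz
      refine ⟨s.ellh w P t v, hvi, hvr, ?_⟩
      have := G5_curve s w d hp a m0 hx t P ht hR T hT δ hδ.1 hδmin (p • v)
        (Submodule.smul_mem _ p hv)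
      rwa [map_smul] at this
  have hf : T (Sum.inr true) = toP L (P.iq (s.omg w)) := by
    refine lemR_cf_ext _ _ fun m => ?_
    rcases Nat.eq_zero_or_pos m with rfl | hm
    · rw [hT.zero, kpr_cf_toP_zero]
      exact hR.f
    · rw [hconst m hm, kpr_cf_toP_succ _ _ hm.ne']
  have hf' : fv (t.curve T) = (P.trans (Place.laurent L)).iq (s.omg w) := by
    show toL L (T (Sum.inr true)) = _
    rw [hf, kpr_toL_toP, kpr_iq_trans, kpr_iq_laurent]
  have hb' := G8_curve s w d hp a m0 hx t P ht hR T hT hf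
  have hc' := G9 s w d hp a m0 hx (t.curve T) (P.trans (Place.laurent L)) ht' hf' hb'
  have h10 := G10 s w d hp a m0 hx (t.curve T) (P.trans (Place.laurent L)) ht' hf' hc'
  have h11 := G11 s w d hp a m0 hx (t.curve T) (P.trans (Place.laurent L)) ht' hf' hb' hc'
  obtain ⟨ho1, ho2⟩ := C_curve_o t hR.good T hT
  have ho : (t.curve T).o = t.o := by
    have := hR.o
    omega
  exact ⟨hf', hb', hc', by rw [ho, hR.o], ho2 ho⟩

theorem lemR_growth_step (s : Pt K I J) (w : NC K I) (d : ℕ) (hp : s.Pkg w d) (a : QA K)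
    (m0 : Submodule K (QA K)) (hx : s.ExtOk w a m0)
    (t : Pt L (I ⊕ Bool) (Option J)) (P : Place K L)
    (ht : Rch (s.ext w a m0) L inferInstance inferInstance t P) (hR : s.LemR w a d P t)
    (T : I ⊕ Bool → QA L⟦X⟧) (w1 w2 : I ⊕ Bool → QA L) (hT : t.IsGrowth T w1 w2) :
    s.LemR w a d (P.trans (Place.laurent L)) (t.grow T) := by
  have ht' : Rch (s.ext w a m0) L⸨X⸩ inferInstance inferInstance (t.grow T)
      (P.trans (Place.laurent L)) := Rch.grow L _ _ t P ht T w1 w2 hT
  have halt : t.Alt := by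
    refine C_alt t hR.good fun T' hT' => ?_
    have := lemR_curve_step s w d hp a m0 hx t P ht hR T' hT'
    rw [this.o, hR.o]
  obtain ⟨h6, h6'⟩ := G6 s w d hp a m0 hx t P ht hR T w1 w2 hT
  have hf1 : cf 1 (T (Sum.inr true)) = 0 := by
    rw [hT.one]
    rw [(G2 s w d hp a m0 hx t P ht hR w1 hT.w1W).1, (G2 s w d hp a m0 hx t P ht hR w2 hT.w2W).1]
    simp
  have hconst : ∀ m, 1 ≤ m → cf m (T (Sum.inr true)) = 0 := by
    by_contra hne
    push Not at hne
    classical
    let δ := Nat.find hne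
    have hδ := Nat.find_spec hne
    have hδmin : ∀ m, 1 ≤ m → m < δ → cf m (T (Sum.inr true)) = 0 := by
      intro m h1 h2
      by_contra h3
      exact Nat.find_min hne h2 ⟨h1, h3⟩
    have hδ2 : 2 ≤ δ := by
      have h1 : 1 ≤ δ := hδ.1
      rcases Nat.lt_or_ge 1 δ with h | h
      · exact h
      · exfalso
        have : δ = 1 := le_antisymm h h1
        apply hδ.2
        show cf δ (T (Sum.inr true)) = 0
        rw [this]; exact hf1
    refine G7 s w d hp a m0 hx t P ht hR (t.k + 1) (Or.inr rfl) δ (cf δ (T (Sum.inr true)))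
      hδ.2 ?_ ?_
    · intro c hc
      exact G1_growth s w d hp a m0 hx t P ht (fun i => cf δ (T i)) (hT.mem δ hδ.1) c hc
    · intro p z hz
      obtain ⟨η, hη, hηi, hηr⟩ := G4 s w d hp a m0 hx t P ht hR.b (fun i => T (Sum.inl i))
        (fun i => w1 (Sum.inl i)) (fun i => w2 (Sum.inl i)) h6 h6' z hz
      refine ⟨s.ellg w P t (t.k + 1) η, hηi, hηr, ?_⟩
      have hη' : (s.fgt P t).KerTh (fun i => w1 (Sum.inl i)) (fun i => w2 (Sum.inl i))
          (p • η) := by
        obtain ⟨ha1, ha2⟩ := hη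
        refine ⟨Submodule.smul_mem _ p ha1, fun c hc => ?_⟩
        obtain ⟨e1, e2, e3⟩ := ha2 c hc
        refine ⟨?_, ?_, ?_⟩
        · rw [lemR_Th_smul, e1, mul_zero]
        · rw [lemR_Th_smul, e2, mul_zero]
        · rw [lemR_Th_smul, e3, mul_zero]
      have := G5_growth s w d hp a m0 hx t P ht hR T w1 w2 hT δ hδ2 hδmin (p • η) hη'
      rwa [map_smul] at this
  have hf : T (Sum.inr true) = toP L (P.iq (s.omg w)) := by
    refine lemR_cf_ext _ _ fun m => ?_
    rcases Nat.eq_zero_or_pos m with rfl | hm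
    · rw [hT.zero, kpr_cf_toP_zero]
      exact hR.f
    · rw [hconst m hm, kpr_cf_toP_succ _ _ hm.ne']
  have hf' : fv (t.grow T) = (P.trans (Place.laurent L)).iq (s.omg w) := by
    show toL L (T (Sum.inr true)) = _
    rw [hf, kpr_toL_toP, kpr_iq_trans, kpr_iq_laurent]
  have hb' := G8_growth s w d hp a m0 hx t P ht hR T w1 w2 hT hf
  have hc' := G9 s w d hp a m0 hx (t.grow T) (P.trans (Place.laurent L)) ht' hf' hb'
  have h10 := G10 s w d hp a m0 hx (t.grow T) (P.trans (Place.laurent L)) ht' hf' hc'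
  have h11 := G11 s w d hp a m0 hx (t.grow T) (P.trans (Place.laurent L)) ht' hf' hb' hc'
  obtain ⟨ho1, ho2⟩ := C_grow_o t hR.good halt T w1 w2 hT
  have ho : (t.grow T).o = t.o := by
    have := hR.o
    omega
  exact ⟨hf', hb', hc', by rw [ho, hR.o], ho2 ho⟩

end

/-- **Lemma R.** -/
theorem lemR_proof {K I J : Type} [Field K] [KF K] [Fintype I] [Fintype J] (s : Pt K I J)
    (w : NC K I) (d : ℕ) (h : s.Pkg w d) (a : QA K) (m0 : Submodule K (QA K))
    (hx : s.ExtOk w a m0)
    (L : Type) (iF : Field L) (iK : KF L) (t : Pt L (I ⊕ Bool) (Option J)) (P : Place K L)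
    (ht : Rch (s.ext w a m0) L iF iK t P) : s.LemR w a d P t := by
  induction ht with
  | refl => exact G12 s w d h a m0 hx
  | curve L iF iK t P ht T hT ih => exact lemR_curve_step s w d h a m0 hx t P ht ih T hT
  | grow L iF iK t P ht T w1 w2 hT ih =>
    exact lemR_growth_step s w d h a m0 hx t P ht ih T w1 w2 hT

end Crest.Agent.KP
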