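import Crest.Agent.KS_Defs

/-! # KS-Av : averages over finite types -/

set_option autoImplicit false

noncomputable section
open Crest.ProbabilityR.RandomSAT
open Classical
namespace Crest.Agent.KS

variable {α β : Type*} [Fintype α] [Fintype β]

theorem av_const [Nonempty α] (c : ℝ) : av (fun _ : α => c) = c := by
  unfold av
  rw [Finset.sum_const, nsmul_eq_mul, Finset.card_univ]
  have : (Fintype.card α : ℝ) ≠ 0 := by exact_mod_cast Fintype.card_ne_zero
  field_simp

theorem av_mono {f g : α → ℝ} (h : ∀ x, f x ≤ g x) : av f ≤ av g := by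
  unfold av
  exact div_le_div_of_nonneg_right (Finset.sum_le_sum fun x _ => h x) (Nat.cast_nonneg _)

theorem av_nonneg {f : α → ℝ} (h : ∀ x, 0 ≤ f x) : 0 ≤ av f :=
  div_nonneg (Finset.sum_nonneg fun x _ => h x) (Nat.cast_nonneg _)

theorem av_le_const {f : α → ℝ} {c : ℝ} (hc : 0 ≤ c) (h : ∀ x, f x ≤ c) : av f ≤ c := by
  rcases isEmpty_or_nonempty α with h0 | h0
  · unfold av; simp [hc]
  · exact (av_mono h).trans (av_const c).le

theorem av_add (f g : α → ℝ) : av (fun x => f x + g x) = av f + av g := by
  unfold av; rw [Finset.sum_add_distrib, add_div]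

theorem av_sub (f g : α → ℝ) : av (fun x => f x - g x) = av f - av g := by
  unfold av; rw [Finset.sum_sub_distrib, sub_div]

theorem av_mul_left (c : ℝ) (f : α → ℝ) : av (fun x => c * f x) = c * av f := by
  unfold av; rw [← Finset.mul_sum, mul_div_assoc]

theorem av_mul_right (c : ℝ) (f : α → ℝ) : av (fun x => f x * c) = av f * c := by
  unfold av; rw [← Finset.sum_mul]; ring

theorem av_sum {ι : Type*} (s : Finset ι) (f : ι → α → ℝ) :
    av (fun x => ∑ i ∈ s, f i x) = ∑ i ∈ s, av (f i) := by
  unfold av; rw [Finset.sum_comm, Finset.sum_div]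

theorem av_equiv (e : α ≃ β) (f : β → ℝ) : av (fun x => f (e x)) = av f := by
  unfold av
  rw [Fintype.card_congr e, ← e.sum_comp]

theorem av_prod (f : α × β → ℝ) : av f = av (fun a => av (fun b => f (a, b))) := by
  unfold av
  rw [Fintype.sum_prod_type, Fintype.card_prod, ← Finset.sum_div, div_div]
  congr 1
  push_cast
  ring

theorem av_prod_swap (f : α × β → ℝ) : av f = av (fun b => av (fun a => f (a, b))) := by
  rw [← av_equiv (Equiv.prodComm β α) f, av_prod]
  rfl

/-- last coordinate of a sequence -/
theorem av_snoc {t : ℕ} (f : (Fin (t + 1) → α) → ℝ) :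
    av f = av (fun x : (Fin t → α) × α => f (Fin.snoc (α := fun _ => α) x.1 x.2)) := by
  have e : (Fin t → α) × α ≃ (Fin (t + 1) → α) :=
    (Equiv.prodComm _ _).trans (Fin.snocEquiv (fun _ => α))
  rw [← av_equiv ((Equiv.prodComm (Fin t → α) α).trans (Fin.snocEquiv (fun _ => α))) f]
  rfl

/-- a function of the first `t` coordinates -/
theorem av_castLE [Nonempty α] {t T : ℕ} (h : t ≤ T) (f : (Fin t → α) → ℝ) :
    av (fun F : Fin T → α => f (fun i => F (Fin.castLE h i))) = av f := by
  induction T with
  | zero =>
    obtain rfl : t = 0 := by omega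
    rfl
  | succ T ih =>
    rcases Nat.lt_or_ge T t with h1 | h1
    · obtain rfl : t = T + 1 := by omega
      rfl
    · rw [← ih h1, av_snoc, av_prod]
      congr 1
      funext F
      have : (fun b : α => f (fun i => (Fin.snoc (α := fun _ => α) F b : Fin (T + 1) → α)
          (Fin.castLE h i))) = fun _ => f (fun i => F (Fin.castLE h1 i)) := by
        funext b
        congr 1
        funext i
        have : Fin.castLE h i = (Fin.castLE h1 i).castSucc := by ext; rfl
        rw [this, Fin.snoc_castSucc]
      show av (fun b : α => f (fun i => (Fin.snoc (α := fun _ => α) F b : Fin (T + 1) → α)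
          (Fin.castLE h i))) = _
      rw [this, av_const]

end Crest.Agent.KS
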