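import Crest.Agent.KS_Cnt

/-! # KS-C1 : one more hard 2-clause (easy/medium)

`kap (M+1)`: split the last 2-clause (`av_snoc`, `av_prod`); `Kill(h, c)` iff `Kill(h)` or (alive and `Kills (OptH ..) c`);
average over `c` with `av_kills`. -/

set_option autoImplicit false

noncomputable section
open Crest.ProbabilityR.RandomSAT
open Classical
namespace Crest.Agent.KS

theorem kap_nonneg (n L t M : ℕ) : 0 ≤ kap n L t M := by
  unfold kap
  apply av_nonneg
  intro x
  split_ifs <;> norm_num

theorem kap_le_one (n L t M : ℕ) : kap n L t M ≤ 1 := by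
  unfold kap
  apply av_le_const (by norm_num)
  intro x
  split_ifs <;> norm_num

theorem yy_nonneg (n L t i : ℕ) : 0 ≤ yy n L t i := by
  unfold yy
  apply av_nonneg
  intro x
  split_ifs
  · positivity
  · exact le_rfl

theorem qq_nonneg (n L t i : ℕ) : 0 ≤ qq n L t i := by
  unfold qq
  apply av_nonneg
  intro x
  split_ifs
  · positivity
  · exact le_rfl

theorem kap_zero (n L t : ℕ) : kap n L t 0 = 0 := by
  unfold kap
  have : (fun x : (Fin t → Clause 3 n) × (Fin 0 → Clause 2 n) =>
    if minV x.1 Finset.univ < L ∧ ¬ (OptH x.1 Finset.univ x.2 Finset.univ).Nonempty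
      then (1 : ℝ) else 0) = fun _ => 0 := by
    funext x
    rw [if_neg]
    rintro ⟨-, h⟩
    apply h
    obtain ⟨σ, hσ⟩ := exists_opt x.1 Finset.univ
    exact ⟨σ, hσ, fun j => j.elim0⟩
  rw [this]
  unfold av
  simp

theorem optH_snoc {n t M : ℕ} (F : Fin t → Clause 3 n) (h : Fin M → Clause 2 n)
    (c : Clause 2 n) :
    ¬ (OptH F Finset.univ (Fin.snoc (α := fun _ => Clause 2 n) h c : Fin (M+1) → Clause 2 n)
      Finset.univ).Nonempty ↔ Kills (OptH F Finset.univ h Finset.univ) c := by
  unfold OptH Kills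
  constructor
  · intro hne σ hσ hc
    apply hne
    refine ⟨σ, hσ.1, fun j _ => ?_⟩
    refine Fin.lastCases ?_ (fun i => ?_) j
    · simpa using hc
    · simpa using hσ.2 i (Finset.mem_univ _)
  · rintro hk ⟨σ, hσ1, hσ2⟩
    refine hk σ ⟨hσ1, fun j _ => ?_⟩ ?_
    · simpa using hσ2 j.castSucc (Finset.mem_univ _)
    · simpa using hσ2 (Fin.last M) (Finset.mem_univ _)

theorem kap_succ {n : ℕ} (hn : 2 ≤ n) (L t M : ℕ) :
    kap n L t (M + 1) = kap n L t M + qq n L t M := by
  haveI : Nonempty (Clause 2 n) := clause_nonempty hn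
  unfold kap qq
  rw [← av_add, av_prod, av_prod]
  congr 1
  funext F
  rw [av_snoc, av_prod]
  congr 1
  funext h
  by_cases hV : minV F Finset.univ < L
  · by_cases hS : (OptH F Finset.univ h Finset.univ).Nonempty
    · have h1 : (fun c : Clause 2 n => if minV F Finset.univ < L ∧
          ¬ (OptH F Finset.univ (Fin.snoc (α := fun _ => Clause 2 n) h c : Fin (M+1) → Clause 2 n)
          Finset.univ).Nonempty then (1 : ℝ) else 0) =
          fun c => if Kills (OptH F Finset.univ h Finset.univ) c then (1 : ℝ) else 0 := by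
        funext c
        simp only [hV, true_and, optH_snoc]
      show av (fun c : Clause 2 n => if minV F Finset.univ < L ∧
          ¬ (OptH F Finset.univ (Fin.snoc (α := fun _ => Clause 2 n) h c : Fin (M+1) → Clause 2 n)
          Finset.univ).Nonempty then (1 : ℝ) else 0) = _
      rw [h1, av_kills _ hS]
      simp only [hV, hS, not_true_eq_false, and_false, if_false, true_and, if_true, zero_add]
      congr 1
      norm_num
      ring
    · have h1 : (fun c : Clause 2 n => if minV F Finset.univ < L ∧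
          ¬ (OptH F Finset.univ (Fin.snoc (α := fun _ => Clause 2 n) h c : Fin (M+1) → Clause 2 n)
          Finset.univ).Nonempty then (1 : ℝ) else 0) = fun _ => 1 := by
        funext c
        rw [if_pos]
        refine ⟨hV, ?_⟩
        rw [optH_snoc]
        intro σ hσ
        exact absurd ⟨σ, hσ⟩ hS
      show av (fun c : Clause 2 n => if minV F Finset.univ < L ∧
          ¬ (OptH F Finset.univ (Fin.snoc (α := fun _ => Clause 2 n) h c : Fin (M+1) → Clause 2 n)
          Finset.univ).Nonempty then (1 : ℝ) else 0) = _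
      rw [h1, av_const]
      simp [hV, hS]
  · have h1 : (fun c : Clause 2 n => if minV F Finset.univ < L ∧
          ¬ (OptH F Finset.univ (Fin.snoc (α := fun _ => Clause 2 n) h c : Fin (M+1) → Clause 2 n)
          Finset.univ).Nonempty then (1 : ℝ) else 0) = fun _ => 0 := by
        funext c
        rw [if_neg]
        exact fun h => hV h.1
    show av (fun c : Clause 2 n => if minV F Finset.univ < L ∧
          ¬ (OptH F Finset.univ (Fin.snoc (α := fun _ => Clause 2 n) h c : Fin (M+1) → Clause 2 n)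
          Finset.univ).Nonempty then (1 : ℝ) else 0) = _
    rw [h1, av_const]
    simp [hV]

theorem kap_mono {n : ℕ} (hn : 2 ≤ n) (L t : ℕ) {M M' : ℕ} (h : M ≤ M') :
    kap n L t M ≤ kap n L t M' := by
  induction M', h using Nat.le_induction with
  | base => exact le_rfl
  | succ k _ ih =>
    rw [kap_succ hn]
    have := qq_nonneg n L t k
    linarith

theorem qq_le {n : ℕ} (hn : 2 ≤ n) (L t i : ℕ) {θ : ℝ} (hθ : 0 ≤ θ) :
    qq n L t i ≤ (θ + 1 / n) * yy n L t i + zz n L t i θ := by
  unfold qq yy zz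
  rw [← av_mul_left, ← av_add]
  apply av_mono
  intro x
  have hn0 : (0 : ℝ) < n := by exact_mod_cast (by omega : 0 < n)
  by_cases hx : minV x.1 Finset.univ < L ∧ (OptH x.1 Finset.univ x.2 Finset.univ).Nonempty
  · set m := (frz (OptH x.1 Finset.univ x.2 Finset.univ)).card with hm
    have hmn : m ≤ n := by
      rw [hm]
      exact (Finset.card_le_univ _).trans (by simp)
    have hmn' : (m : ℝ) ≤ n := by exact_mod_cast hmn
    rw [if_pos hx, if_pos hx]
    have hm0 : (0 : ℝ) ≤ (m : ℝ) / (2 * n) := by positivity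
    have hm1 : (m : ℝ) / (2 * n) ≤ 1 := by
      rw [div_le_one (by positivity)]
      linarith
    have hz : (0 : ℝ) ≤ (if minV x.1 Finset.univ < L ∧
        (OptH x.1 Finset.univ x.2 Finset.univ).Nonempty ∧ θ < (m : ℝ) / (2 * n) ∧ 3 ≤ m
        then (1 : ℝ) else 0) := by
      split_ifs <;> norm_num
    have h1n : (0 : ℝ) ≤ 1 / n := by positivity
    rcases Nat.lt_or_ge 2 m with h3 | h2
    · have hd := desc2_le (n := n) (m := m) hn hmn
      by_cases hθm : θ < (m : ℝ) / (2 * n)
      · rw [if_pos ⟨hx.1, hx.2, hθm, h3⟩]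
        have : ((m : ℝ) / (2 * n)) ^ 2 ≤ 1 := pow_le_one₀ hm0 hm1
        have h4 : 0 ≤ (θ + 1 / n) * ((m : ℝ) / (2 * n)) := by positivity
        linarith
      · have h5 : ((m : ℝ) / (2 * n)) ^ 2 ≤ θ * ((m : ℝ) / (2 * n)) := by
          rw [sq]
          exact mul_le_mul_of_nonneg_right (not_lt.mp hθm) hm0
        have h6 : 0 ≤ 1 / (n : ℝ) * ((m : ℝ) / (2 * n)) := by positivity
        nlinarith
    · have hd := desc2_le' (n := n) (m := m) hn h2
      have h6 : 0 ≤ θ * ((m : ℝ) / (2 * n)) := by positivity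
      nlinarith
  · rw [if_neg hx, if_neg hx]
    have hz : (0 : ℝ) ≤ (if minV x.1 Finset.univ < L ∧
        (OptH x.1 Finset.univ x.2 Finset.univ).Nonempty ∧
        θ < ((frz (OptH x.1 Finset.univ x.2 Finset.univ)).card : ℝ) / (2 * n) ∧
        3 ≤ (frz (OptH x.1 Finset.univ x.2 Finset.univ)).card
        then (1 : ℝ) else 0) := by
      split_ifs <;> norm_num
    simpa using hz

end Crest.Agent.KS
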