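import Crest.Agent.KS_Cnt

/-! # KS-C3 : number of times with many killed literals (medium)

Fix `F : Fin T → Clause 3 n` and `h`. The times `t < T` with `minV (F_t) < L`, `OptH` (of `F_t`, `h`) nonempty and
killed by the clause `F t`: at the next such time the value `minV` is strictly larger (the value with hard
constraints `h` was raised, and it must be equal to `minV` again), so there are at most `L` of them (`pathwise`).
The average over the fresh clause `F t` of "kills" is `rr n (card frz)` (`av_snoc`, `av_kills`, `av_castLE`),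
which is `≥ (2/9) θ³` on the event in `zz`. -/

set_option autoImplicit false

noncomputable section
open Crest.ProbabilityR.RandomSAT
open Classical
namespace Crest.Agent.KS

theorem c3_mem_pre {T t : ℕ} (j : Fin T) : j ∈ pre (T := T) t ↔ (j : ℕ) < t := by
  unfold pre
  simp

theorem c3_pre_succ {T : ℕ} (t : Fin T) :
    pre (T := T) ((t : ℕ) + 1) = insert t (pre (T := T) (t : ℕ)) := by
  ext j
  rw [Finset.mem_insert, c3_mem_pre, c3_mem_pre, Fin.ext_iff]
  omega

theorem c3_pre_mono {T : ℕ} {s t : ℕ} (h : s ≤ t) : pre (T := T) s ⊆ pre (T := T) t := by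
  intro j hj
  rw [c3_mem_pre] at hj ⊢
  omega

/-- a violated clause raises `viol` by one -/
theorem c3_viol_succ {n T : ℕ} (F : Fin T → Clause 3 n) (t : Fin T) (σ : Fin n → Bool)
    (h : ¬ ClauseSat σ (F t)) :
    viol F (pre (T := T) ((t : ℕ) + 1)) σ = viol F (pre (T := T) (t : ℕ)) σ + 1 := by
  unfold viol
  rw [c3_pre_succ, Finset.filter_insert, if_pos h, Finset.card_insert_of_notMem]
  intro hmem
  have := (Finset.mem_filter.mp hmem).1
  rw [c3_mem_pre] at this
  omega

theorem c3_aux {n T M : ℕ} (F : Fin T → Clause 3 n) (h : Fin M → Clause 2 n) (t t' : Fin T)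
    (hlt : t < t') (heq : minV F (pre (t : ℕ)) = minV F (pre (t' : ℕ)))
    (hne : (OptH F (pre (t' : ℕ)) h Finset.univ).Nonempty)
    (hk : Kills (OptH F (pre (t : ℕ)) h Finset.univ) (F t)) : False := by
  obtain ⟨σ, hσ1, hσ2⟩ := hne
  have hsub : pre (T := T) (t : ℕ) ⊆ pre (t' : ℕ) := c3_pre_mono (Nat.le_of_lt hlt)
  have hopt : viol F (pre (t : ℕ)) σ = minV F (pre (t : ℕ)) :=
    opt_of_opt F hsub heq.symm σ hσ1
  have hmem : σ ∈ OptH F (pre (t : ℕ)) h Finset.univ := ⟨hopt, hσ2⟩
  have hviol := c3_viol_succ F t σ (hk σ hmem)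
  have hle : viol F (pre (T := T) ((t : ℕ) + 1)) σ ≤ viol F (pre (t' : ℕ)) σ :=
    viol_mono F (c3_pre_mono (Nat.succ_le_of_lt hlt)) σ
  omega

theorem pathwise {n T M : ℕ} (L : ℕ) (F : Fin T → Clause 3 n) (h : Fin M → Clause 2 n) :
    (Finset.univ.filter (fun t : Fin T => minV F (pre (t : ℕ)) < L ∧
      (OptH F (pre (t : ℕ)) h Finset.univ).Nonempty ∧
      Kills (OptH F (pre (t : ℕ)) h Finset.univ) (F t))).card ≤ L := by
  have hcard : (Finset.univ.filter (fun t : Fin T => minV F (pre (t : ℕ)) < L ∧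
      (OptH F (pre (t : ℕ)) h Finset.univ).Nonempty ∧
      Kills (OptH F (pre (t : ℕ)) h Finset.univ) (F t))).card ≤ (Finset.range L).card := by
    apply Finset.card_le_card_of_injOn (fun t : Fin T => minV F (pre (t : ℕ)))
    · intro t ht
      have := (Finset.mem_filter.mp (Finset.mem_coe.mp ht)).2.1
      simpa using this
    · intro t ht t' ht' heq
      have h1 := (Finset.mem_filter.mp (Finset.mem_coe.mp ht)).2
      have h2 := (Finset.mem_filter.mp (Finset.mem_coe.mp ht')).2
      rcases lt_trichotomy t t' with hlt | he | hlt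
      · exact (c3_aux F h t t' hlt heq h2.2.1 h1.2.2).elim
      · exact he
      · exact (c3_aux F h t' t hlt heq.symm h1.2.1 h2.2.2).elim
  simpa using hcard

/-- the indicator in `sum_zz`, for a formula of length `t` and a fresh clause -/
def c3P {n i : ℕ} (L t : ℕ) (h : Fin i → Clause 2 n) (F : Fin t → Clause 3 n) (c : Clause 3 n) : ℝ :=
  if minV F Finset.univ < L ∧ (OptH F Finset.univ h Finset.univ).Nonempty ∧
      Kills (OptH F Finset.univ h Finset.univ) c then 1 else 0

theorem c3_map_univ {t T : ℕ} (ht : t ≤ T) :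
    (Finset.univ : Finset (Fin t)).map (Fin.castLEEmb ht) = pre (T := T) t := by
  ext j
  rw [c3_mem_pre, Finset.mem_map]
  constructor
  · rintro ⟨a, -, rfl⟩
    exact a.2
  · intro hj
    exact ⟨⟨j, hj⟩, Finset.mem_univ _, by ext; rfl⟩

theorem c3_minV_pre {n T : ℕ} {t : ℕ} (ht : t ≤ T) (F : Fin T → Clause 3 n) :
    minV (fun j : Fin t => F (Fin.castLE ht j)) Finset.univ = minV F (pre t) := by
  have := minV_map (Fin.castLEEmb ht) F Finset.univ
  rw [c3_map_univ] at this
  exact this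

theorem c3_OptH_pre {n T M : ℕ} {t : ℕ} (ht : t ≤ T) (F : Fin T → Clause 3 n)
    (h : Fin M → Clause 2 n) :
    OptH (fun j : Fin t => F (Fin.castLE ht j)) Finset.univ h Finset.univ
      = OptH F (pre t) h Finset.univ := by
  have := OptH_map (Fin.castLEEmb ht) (Function.Embedding.refl (Fin M)) F Finset.univ h Finset.univ
  rw [c3_map_univ, Finset.map_refl] at this
  exact this

theorem c3_av_step {n : ℕ} (hn : 3 ≤ n) (L T i t : ℕ) (ht : t < T) (h : Fin i → Clause 2 n) :
    av (fun F : Fin T → Clause 3 n => if minV F (pre t) < L ∧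
        (OptH F (pre t) h Finset.univ).Nonempty ∧
        Kills (OptH F (pre t) h Finset.univ) (F ⟨t, ht⟩) then (1 : ℝ) else 0)
      = av (fun F : Fin t → Clause 3 n => av (fun c : Clause 3 n => c3P L t h F c)) := by
  have : Nonempty (Clause 3 n) := clause_nonempty hn
  have h1 : (fun F : Fin T → Clause 3 n => if minV F (pre t) < L ∧
        (OptH F (pre t) h Finset.univ).Nonempty ∧
        Kills (OptH F (pre t) h Finset.univ) (F ⟨t, ht⟩) then (1 : ℝ) else 0)
      = fun F : Fin T → Clause 3 n => (fun F' : Fin (t + 1) → Clause 3 n =>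
          c3P L t h (fun j => F' j.castSucc) (F' (Fin.last t)))
          (fun j => F (Fin.castLE (Nat.succ_le_of_lt ht) j)) := by
    funext F
    have e1 := c3_minV_pre (le_of_lt ht) F
    have e2 := c3_OptH_pre (le_of_lt ht) F h
    show _ = c3P L t h (fun j : Fin t => F (Fin.castLE (Nat.succ_le_of_lt ht) j.castSucc))
      (F (Fin.castLE (Nat.succ_le_of_lt ht) (Fin.last t)))
    have e3 : (fun j : Fin t => F (Fin.castLE (Nat.succ_le_of_lt ht) j.castSucc))
        = fun j : Fin t => F (Fin.castLE (le_of_lt ht) j) := rfl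
    have e4 : Fin.castLE (Nat.succ_le_of_lt ht) (Fin.last t) = (⟨t, ht⟩ : Fin T) := rfl
    rw [e3, e4]
    unfold c3P
    rw [e1, e2]
  rw [h1, av_castLE (Nat.succ_le_of_lt ht) (fun F' : Fin (t + 1) → Clause 3 n =>
          c3P L t h (fun j => F' j.castSucc) (F' (Fin.last t))), av_snoc, av_prod]
  simp only [Fin.snoc_castSucc, Fin.snoc_last]

theorem c3_av_P {n i : ℕ} (L t : ℕ) (h : Fin i → Clause 2 n) (F : Fin t → Clause 3 n) :
    av (fun c : Clause 3 n => c3P L t h F c)
      = if minV F Finset.univ < L ∧ (OptH F Finset.univ h Finset.univ).Nonempty then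
          rr n (frz (OptH F Finset.univ h Finset.univ)).card else 0 := by
  split_ifs with hc
  · have := av_kills (k := 3) (OptH F Finset.univ h Finset.univ) hc.2
    have e : (fun c : Clause 3 n => c3P L t h F c)
        = fun c : Clause 3 n => if Kills (OptH F Finset.univ h Finset.univ) c then (1 : ℝ) else 0 := by
      funext c
      unfold c3P
      by_cases hk : Kills (OptH F Finset.univ h Finset.univ) c
      · rw [if_pos ⟨hc.1, hc.2, hk⟩, if_pos hk]
      · rw [if_neg (fun hh => hk hh.2.2), if_neg hk]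
    rw [e, this]
    unfold rr
    congr 1
    ring
  · have e : (fun c : Clause 3 n => c3P L t h F c) = fun _ => (0 : ℝ) := by
      funext c
      unfold c3P
      rw [if_neg (fun hh => hc ⟨hh.1, hh.2.1⟩)]
    rw [e]
    unfold av
    simp

theorem c3_zz_le {n : ℕ} (hn : 3 ≤ n) (L T i t : ℕ) (ht : t < T) {θ : ℝ} (hθ : 0 < θ) :
    zz n L t i θ ≤ (9 / 2) / θ ^ 3 *
      av (fun x : (Fin T → Clause 3 n) × (Fin i → Clause 2 n) => if minV x.1 (pre t) < L ∧
        (OptH x.1 (pre t) x.2 Finset.univ).Nonempty ∧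
        Kills (OptH x.1 (pre t) x.2 Finset.univ) (x.1 ⟨t, ht⟩) then (1 : ℝ) else 0) := by
  rw [av_prod_swap (fun x : (Fin T → Clause 3 n) × (Fin i → Clause 2 n) => if minV x.1 (pre t) < L ∧
        (OptH x.1 (pre t) x.2 Finset.univ).Nonempty ∧
        Kills (OptH x.1 (pre t) x.2 Finset.univ) (x.1 ⟨t, ht⟩) then (1 : ℝ) else 0)]
  have h1 : (fun b : Fin i → Clause 2 n => av (fun a : Fin T → Clause 3 n =>
      (fun x : (Fin T → Clause 3 n) × (Fin i → Clause 2 n) => if minV x.1 (pre t) < L ∧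
        (OptH x.1 (pre t) x.2 Finset.univ).Nonempty ∧
        Kills (OptH x.1 (pre t) x.2 Finset.univ) (x.1 ⟨t, ht⟩) then (1 : ℝ) else 0) (a, b)))
      = fun b => av (fun F : Fin t → Clause 3 n => av (fun c : Clause 3 n => c3P L t b F c)) := by
    funext b
    exact c3_av_step hn L T i t ht b
  rw [h1]
  unfold zz
  rw [av_prod_swap, ← av_mul_left]
  apply av_mono
  intro b
  rw [← av_mul_left]
  apply av_mono
  intro F
  rw [c3_av_P]
  have hpos : 0 < (9 / 2) / θ ^ 3 := by positivity
  by_cases hc : minV F Finset.univ < L ∧ (OptH F Finset.univ b Finset.univ).Nonempty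
  · rw [if_pos hc]
    split_ifs with hh
    · obtain ⟨-, -, h3, h4⟩ := hh
      have h5 := le_rr hn h4
      have h6 : θ ^ 3 ≤ (((frz (OptH F Finset.univ b Finset.univ)).card : ℝ) / (2 * n)) ^ 3 :=
        pow_le_pow_left₀ hθ.le h3.le 3
      have h7 : (2 / 9) * θ ^ 3 ≤ rr n (frz (OptH F Finset.univ b Finset.univ)).card := by
        refine le_trans ?_ h5
        linarith
      have h8 : (9 / 2) / θ ^ 3 * ((2 / 9) * θ ^ 3) = 1 := by
        field_simp
      calc (1 : ℝ) = (9 / 2) / θ ^ 3 * ((2 / 9) * θ ^ 3) := h8.symm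
        _ ≤ _ := mul_le_mul_of_nonneg_left h7 hpos.le
    · exact mul_nonneg hpos.le (rr_nonneg _ _)
  · rw [if_neg hc, if_neg (fun hh => hc ⟨hh.1, hh.2.1⟩)]
    simp

theorem sum_zz {n : ℕ} (hn : 3 ≤ n) (L T i : ℕ) {θ : ℝ} (hθ : 0 < θ) :
    ∑ t ∈ Finset.range T, zz n L t i θ ≤ (9 / 2) / θ ^ 3 * L := by
  have hpos : 0 < (9 / 2) / θ ^ 3 := by positivity
  have h1 : ∑ t ∈ Finset.range T, zz n L t i θ = ∑ t : Fin T, zz n L (t : ℕ) i θ :=
    (Fin.sum_univ_eq_sum_range (fun t => zz n L t i θ) T).symm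
  rw [h1]
  have h2 : ∀ t : Fin T, zz n L (t : ℕ) i θ ≤ (9 / 2) / θ ^ 3 *
      av (fun x : (Fin T → Clause 3 n) × (Fin i → Clause 2 n) => if minV x.1 (pre (t : ℕ)) < L ∧
        (OptH x.1 (pre (t : ℕ)) x.2 Finset.univ).Nonempty ∧
        Kills (OptH x.1 (pre (t : ℕ)) x.2 Finset.univ) (x.1 t) then (1 : ℝ) else 0) :=
    fun t => c3_zz_le hn L T i t t.2 hθ
  refine (Finset.sum_le_sum fun t _ => h2 t).trans ?_
  rw [← Finset.mul_sum, ← av_sum]
  apply mul_le_mul_of_nonneg_left _ hpos.le
  apply av_le_const (Nat.cast_nonneg L)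
  intro x
  have h3 := pathwise L x.1 x.2
  rw [← Nat.cast_le (α := ℝ)] at h3
  refine le_trans (le_of_eq ?_) h3
  rw [Finset.card_filter]
  push_cast
  rfl

end Crest.Agent.KS
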