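import Crest.Agent.KS_C1

/-! # KS-C4 : cavity step (hard)

`n + 1` variables, `y` = last variable. By relabelling of the variables (`Equiv.swap`), `yy (n+1) L t i` is `≤ 1/2` times the
probability that `minV < L`, `OptH` nonempty and `y` is frozen in `OptH`.
* `y` occurs in one of the `i` hard 2-clauses: probability `≤ 2 i/(n+1)`.
* otherwise let `D` be the set of indices `j < t` of 3-clauses containing `y` (each clause contains `y` with
  probability `3/(n+1)`), `G` the other clauses (formulas on `n` variables), `B` the 2-clauses obtained by deleting `y`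
  from the clauses in `D`. If all elements of `OptH` agree at `y` with value `s`, then no optimal assignment `τ` of `G`
  satisfies `h` and all of `B`: otherwise `(τ, y = !s)` violates `minV G ≤ minV F` clauses of `F`, so it is in `OptH`.
  So the probability is `≤ ∑_D P(D) kap n L (t-|D|) (i+|D|)`, `P(D) ≤ (3/(n+1))^|D|`. -/

set_option autoImplicit false

noncomputable section
open Crest.ProbabilityR.RandomSAT
open Classical
namespace Crest.Agent.KS

namespace C4

/-- lift a clause to one more variable -/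
def liftC {k n : ℕ} (c : Clause k n) : Clause k (n + 1) :=
  (⟨fun r => (c.1.1 r).castSucc, fun a b h => c.1.2 (Fin.castSucc_injective n h)⟩, c.2)

/-- insert the last variable at position `p` with sign `s` -/
def insC {k n : ℕ} (p : Fin (k + 1)) (s : Bool) (b : Clause k n) : Clause (k + 1) (n + 1) :=
  (⟨Fin.insertNth (α := fun _ => Fin (n + 1)) p (Fin.last n) (fun r => (b.1.1 r).castSucc), by
    intro a c h
    rcases Fin.eq_self_or_eq_succAbove p a with ha | ⟨a', ha⟩ <;>
    rcases Fin.eq_self_or_eq_succAbove p c with hc | ⟨c', hc⟩ <;>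
    rw [ha, hc] at h
    · rw [ha, hc]
    · simp only [Fin.insertNth_apply_same, Fin.insertNth_apply_succAbove] at h
      exact absurd h.symm (Fin.castSucc_lt_last _).ne
    · simp only [Fin.insertNth_apply_same, Fin.insertNth_apply_succAbove] at h
      exact absurd h (Fin.castSucc_lt_last _).ne
    · simp only [Fin.insertNth_apply_succAbove] at h
      rw [ha, hc]
      rw [b.1.2 (Fin.castSucc_injective n h)]⟩,
    Fin.insertNth (α := fun _ => Bool) p s b.2)

/-- the clause contains the last variable -/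
def Has {k n : ℕ} (c : Clause k (n + 1)) : Prop := ∃ r, c.1.1 r = Fin.last n

theorem sat_lift {k n : ℕ} (σ : Fin (n + 1) → Bool) (c : Clause k n) :
    ClauseSat σ (liftC c) ↔ ClauseSat (fun j => σ j.castSucc) c := Iff.rfl

theorem sat_ins {k n : ℕ} (σ : Fin (n + 1) → Bool) (p : Fin (k + 1)) (s : Bool) (b : Clause k n)
    (h : ClauseSat (fun j => σ j.castSucc) b) : ClauseSat σ (insC p s b) := by
  obtain ⟨r, hr⟩ := h
  refine ⟨p.succAbove r, ?_⟩
  simp only [insC, Fin.insertNth_apply_succAbove]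
  exact hr

theorem exists_lift {k n : ℕ} (c : Clause k (n + 1)) (h : ¬ Has c) : ∃ c', liftC c' = c := by
  have h' : ∀ r, c.1.1 r ≠ Fin.last n := fun r hr => h ⟨r, hr⟩
  refine ⟨(⟨fun r => (c.1.1 r).castPred (h' r), ?_⟩, c.2), ?_⟩
  · intro a b hab
    exact c.1.2 (by simpa using hab)
  · refine Prod.ext (Subtype.ext (funext fun r => ?_)) rfl
    simp [liftC]

theorem exists_ins {k n : ℕ} (c : Clause (k + 1) (n + 1)) (h : Has c) :
    ∃ p s, ∃ b : Clause k n, insC p s b = c := by
  obtain ⟨p, hp⟩ := h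
  have h' : ∀ r, c.1.1 (p.succAbove r) ≠ Fin.last n := fun r hr =>
    Fin.succAbove_ne p r (c.1.2 (hr.trans hp.symm))
  refine ⟨p, c.2 p, (⟨fun r => (c.1.1 (p.succAbove r)).castPred (h' r), ?_⟩,
    fun r => c.2 (p.succAbove r)), ?_⟩
  · intro a b hab
    have := c.1.2 (by simpa using hab : c.1.1 (p.succAbove a) = c.1.1 (p.succAbove b))
    exact Fin.succAbove_right_injective this
  · refine Prod.ext (Subtype.ext (funext fun r => ?_)) (funext fun r => ?_)
    · rcases Fin.eq_self_or_eq_succAbove p r with rfl | ⟨r', rfl⟩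
      · simp [insC, hp]
      · simp [insC]
    · rcases Fin.eq_self_or_eq_succAbove p r with rfl | ⟨r', rfl⟩
      · simp [insC]
      · simp [insC]

theorem av_ind {α : Type*} {_ : Fintype α} (p : α → Prop) {_ : DecidablePred p} :
    av (fun x => if p x then (1 : ℝ) else 0) =
      (Nat.card {x // p x} : ℝ) / (Nat.card α : ℝ) := by
  unfold av
  rw [Finset.sum_boole, Nat.card_eq_fintype_card, Nat.card_eq_fintype_card, Fintype.card_subtype]

/-- marginal -/
theorem av_eval {i : ℕ} {α : Type*} [Fintype α] [Nonempty α] (j : Fin i) (g : α → ℝ) :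
    av (fun h : Fin i → α => g (h j)) = av g := by
  have h1 := av_equiv (Equiv.funSplitAt j α) (fun x : α × ({j' // j' ≠ j} → α) => g x.1)
  have h2 : (fun x : Fin i → α => g ((Equiv.funSplitAt j α) x).1) =
      fun h : Fin i → α => g (h j) := by
    funext h
    simp [Equiv.funSplitAt]
  rw [h2] at h1
  rw [h1, av_prod]
  congr 1
  funext a
  exact av_const (α := {j' // j' ≠ j} → α) (g a)

theorem ncard_clause (k n : ℕ) : Nat.card (Clause k n) = n.descFactorial k * 2 ^ k := by
  rw [Nat.card_eq_fintype_card, card_clause]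

/-- `2`-clauses containing the last variable -/
theorem av_has2 {n : ℕ} (hn : 1 ≤ n) :
    av (fun c : Clause 2 (n + 1) => if Has c then (1 : ℝ) else 0) ≤ 2 / ((n : ℝ) + 1) := by
  rw [av_ind]
  have h1 : Nat.card {c : Clause 2 (n + 1) // Has c} ≤
      Nat.card ((Fin 2 × Bool) × Clause 1 n) := by
    have hx : ∀ c : {c : Clause 2 (n + 1) // Has c}, ∃ z : (Fin 2 × Bool) × Clause 1 n,
        insC z.1.1 z.1.2 z.2 = c.1 := by
      intro c
      obtain ⟨p, s, b, hb⟩ := exists_ins c.1 c.2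
      exact ⟨((p, s), b), hb⟩
    choose g hg using hx
    refine Nat.card_le_card_of_injective g ?_
    intro c c' h
    apply Subtype.ext
    rw [← hg c, ← hg c', h]
  have h2 : Nat.card ((Fin 2 × Bool) × Clause 1 n) = 8 * n := by
    rw [Nat.card_prod, Nat.card_prod, Nat.card_fin, Nat.card_eq_fintype_card, Fintype.card_bool,
      ncard_clause, Nat.descFactorial_one]
    ring
  have h3 : Nat.card (Clause 2 (n + 1)) = 4 * ((n + 1) * n) := by
    rw [ncard_clause, Nat.succ_descFactorial_succ, Nat.descFactorial_one]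
    ring
  rw [h2] at h1
  have h1' : (Nat.card {c : Clause 2 (n + 1) // Has c} : ℝ) ≤ 8 * n := by
    exact_mod_cast h1
  rw [h3]
  have hn' : (0 : ℝ) < n := by exact_mod_cast hn
  rw [div_le_div_iff₀ (by positivity) (by positivity)]
  push_cast
  nlinarith

/-- general index types version of `kap` -/
def kapG (ι κ : Type) [Fintype ι] [Fintype κ] (n L : ℕ) : ℝ :=
  av (fun x : (ι → Clause 3 n) × (κ → Clause 2 n) =>
    if minV x.1 Finset.univ < L ∧ ¬ (OptH x.1 Finset.univ x.2 Finset.univ).Nonempty then 1 else 0)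

theorem kapG_eq {ι κ : Type} [Fintype ι] [Fintype κ] (n L : ℕ) {a b : ℕ} (e : ι ≃ Fin a)
    (e' : κ ≃ Fin b) : kapG ι κ n L = kap n L a b := by
  unfold kapG kap
  have h1 := av_equiv ((Equiv.arrowCongr e.symm (Equiv.refl (Clause 3 n))).prodCongr
      (Equiv.arrowCongr e'.symm (Equiv.refl (Clause 2 n))))
    (fun x : (ι → Clause 3 n) × (κ → Clause 2 n) =>
      if minV x.1 Finset.univ < L ∧ ¬ (OptH x.1 Finset.univ x.2 Finset.univ).Nonempty
        then (1 : ℝ) else 0)
  rw [← h1]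
  congr 1
  funext x
  have h2 : minV (fun j => x.1 (e j)) Finset.univ = minV x.1 Finset.univ := by
    have := minV_map e.toEmbedding x.1 Finset.univ
    rw [Finset.map_univ_equiv] at this
    exact this
  have h3 : OptH (fun j => x.1 (e j)) Finset.univ (fun j => x.2 (e' j)) Finset.univ =
      OptH x.1 Finset.univ x.2 Finset.univ := by
    have := OptH_map e.toEmbedding e'.toEmbedding x.1 Finset.univ x.2 Finset.univ
    rw [Finset.map_univ_equiv, Finset.map_univ_equiv] at this
    exact this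
  have h4 : ∀ j, ((Equiv.arrowCongr e.symm (Equiv.refl (Clause 3 n))) x.1) j = x.1 (e j) := by
    intro j; rfl
  show (if minV (fun j => x.1 (e j)) Finset.univ < L ∧
      ¬ (OptH (fun j => x.1 (e j)) Finset.univ (fun j => x.2 (e' j)) Finset.univ).Nonempty
        then (1 : ℝ) else 0) = _
  rw [h2, h3]

section D

variable {n t i : ℕ} (D : Finset (Fin t))

abbrev Zt (n i : ℕ) {t : ℕ} (D : Finset (Fin t)) : Type :=
  ({j // j ∈ D} → Fin 3 × Bool) ×
    (({j // j ∉ D} → Clause 3 n) × ((Fin i ⊕ {j // j ∈ D}) → Clause 2 n))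

def Phi (z : Zt n i D) : (Fin t → Clause 3 (n + 1)) × (Fin i → Clause 2 (n + 1)) :=
  (fun j => if hj : j ∈ D then insC (z.1 ⟨j, hj⟩).1 (z.1 ⟨j, hj⟩).2 (z.2.2 (Sum.inr ⟨j, hj⟩))
    else liftC (z.2.1 ⟨j, hj⟩), fun j => liftC (z.2.2 (Sum.inl j)))

/-- the set of clauses containing the last variable -/
def Ds (F : Fin t → Clause 3 (n + 1)) : Finset (Fin t) := Finset.univ.filter (fun j => Has (F j))

def Ev (L : ℕ) (x : (Fin t → Clause 3 (n + 1)) × (Fin i → Clause 2 (n + 1))) : Prop :=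
  minV x.1 Finset.univ < L ∧ (OptH x.1 Finset.univ x.2 Finset.univ).Nonempty ∧
    Fin.last n ∈ frz (OptH x.1 Finset.univ x.2 Finset.univ)

theorem Phi_surj (x : (Fin t → Clause 3 (n + 1)) × (Fin i → Clause 2 (n + 1)))
    (hD : Ds x.1 = D) (hh : ∀ j, ¬ Has (x.2 j)) : ∃ z : Zt n i D, Phi D z = x := by
  have h1 : ∀ j : {j // j ∈ D}, ∃ p s, ∃ b : Clause 2 n, insC p s b = x.1 j.1 := by
    intro j
    refine exists_ins _ ?_
    have h : j.1 ∈ Ds x.1 := by rw [hD]; exact j.2
    exact (Finset.mem_filter.mp h).2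
  have h2 : ∀ j : {j // j ∉ D}, ∃ c', liftC c' = x.1 j.1 := by
    intro j
    refine exists_lift _ ?_
    have h : j.1 ∉ Ds x.1 := by rw [hD]; exact j.2
    intro h'
    exact h (Finset.mem_filter.mpr ⟨Finset.mem_univ _, h'⟩)
  have h3 : ∀ j, ∃ c', liftC c' = x.2 j := fun j => exists_lift _ (hh j)
  choose p s b hb using h1
  choose c hc using h2
  choose g hg using h3
  refine ⟨(fun j => (p j, s j), (c, Sum.elim g b)), ?_⟩
  refine Prod.ext (funext fun j => ?_) (funext fun j => ?_)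
  · show (if hj : j ∈ D then insC (p ⟨j, hj⟩) (s ⟨j, hj⟩) (b ⟨j, hj⟩) else liftC (c ⟨j, hj⟩)) = _
    by_cases hj : j ∈ D
    · rw [dif_pos hj]; exact hb ⟨j, hj⟩
    · rw [dif_neg hj]; exact hc ⟨j, hj⟩
  · exact hg j

theorem viol_le_Phi (z : Zt n i D) (σ : Fin (n + 1) → Bool) :
    viol z.2.1 Finset.univ (fun j => σ j.castSucc) ≤ viol (Phi D z).1 Finset.univ σ := by
  unfold viol
  refine Finset.card_le_card_of_injOn Subtype.val ?_ Subtype.val_injective.injOn
  intro j hj
  have hj' : ¬ ClauseSat (fun j => σ j.castSucc) (z.2.1 j) := by simpa using hj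
  have e : (Phi D z).1 j.1 = liftC (z.2.1 j) := by
    show (if hj : j.1 ∈ D then _ else _) = _
    rw [dif_neg j.2]
  simp only [Finset.coe_filter, Finset.mem_univ, true_and, Set.mem_setOf_eq, e]
  exact hj'

theorem Phi_le_viol (z : Zt n i D) (σ : Fin (n + 1) → Bool)
    (h : ∀ j, ClauseSat (fun j => σ j.castSucc) (z.2.2 (Sum.inr j))) :
    viol (Phi D z).1 Finset.univ σ ≤ viol z.2.1 Finset.univ (fun j => σ j.castSucc) := by
  unfold viol
  rw [← Finset.card_map ⟨Subtype.val, Subtype.val_injective⟩]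
  refine Finset.card_le_card ?_
  intro j hj
  have hj' : ¬ ClauseSat σ ((Phi D z).1 j) := by simpa using hj
  by_cases hjD : j ∈ D
  · exfalso
    apply hj'
    show ClauseSat σ (if hj : j ∈ D then _ else _)
    rw [dif_pos hjD]
    exact sat_ins _ _ _ _ (h ⟨j, hjD⟩)
  · rw [Finset.mem_map]
    refine ⟨⟨j, hjD⟩, ?_, rfl⟩
    have e : (Phi D z).1 j = liftC (z.2.1 ⟨j, hjD⟩) := by
      show (if hj : j ∈ D then _ else _) = _
      rw [dif_neg hjD]
    rw [e] at hj'
    simp only [Finset.mem_filter, Finset.mem_univ, true_and]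
    exact hj'

theorem Phi_ev {L : ℕ} (z : Zt n i D) (h : Ev L (Phi D z)) :
    minV z.2.1 Finset.univ < L ∧ ¬ (OptH z.2.1 Finset.univ z.2.2 Finset.univ).Nonempty := by
  obtain ⟨hL, -, hfr⟩ := h
  have hle : minV z.2.1 Finset.univ ≤ minV (Phi D z).1 Finset.univ := by
    obtain ⟨σ, hσ⟩ := exists_opt (Phi D z).1 Finset.univ
    rw [← hσ]
    exact (minV_le _ _ _).trans (viol_le_Phi D z σ)
  refine ⟨hle.trans_lt hL, ?_⟩
  rintro ⟨τ, hτ1, hτ2⟩
  have key : ∀ s : Bool, Fin.snoc (α := fun _ => Bool) τ s ∈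
      OptH (Phi D z).1 Finset.univ (Phi D z).2 Finset.univ := by
    intro s
    have e : (fun j : Fin n => Fin.snoc (α := fun _ => Bool) τ s j.castSucc) = τ := by
      funext j; simp
    refine ⟨le_antisymm ?_ (minV_le _ _ _), ?_⟩
    · refine (Phi_le_viol D z _ ?_).trans ?_
      · intro j
        rw [e]
        exact hτ2 _ (Finset.mem_univ _)
      · rw [e, hτ1]; exact hle
    · intro j _
      show ClauseSat _ (liftC (z.2.2 (Sum.inl j)))
      rw [sat_lift, e]
      exact hτ2 _ (Finset.mem_univ _)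
  have h1 := (Finset.mem_filter.mp hfr).2 _ (key true) _ (key false)
  simp at h1

theorem card_D (L : ℕ) :
    Nat.card {x : (Fin t → Clause 3 (n + 1)) × (Fin i → Clause 2 (n + 1)) //
      (Ev L x ∧ ∀ j, ¬ Has (x.2 j)) ∧ Ds x.1 = D} ≤ 6 ^ D.card *
    Nat.card {w : ({j // j ∉ D} → Clause 3 n) ×
      ((Fin i ⊕ {j // j ∈ D}) → Clause 2 n) // minV w.1 Finset.univ < L ∧
        ¬ (OptH w.1 Finset.univ w.2 Finset.univ).Nonempty} := by
  have h1 : (6 : ℕ) ^ D.card = Nat.card ({j // j ∈ D} → Fin 3 × Bool) := by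
    rw [Nat.card_fun, Nat.card_prod, Nat.card_fin, Nat.card_eq_fintype_card,
      Nat.card_eq_fintype_card, Fintype.card_bool, Fintype.card_coe]
  rw [h1, ← Nat.card_prod]
  have hx : ∀ x : {x : (Fin t → Clause 3 (n + 1)) × (Fin i → Clause 2 (n + 1)) //
      (Ev L x ∧ ∀ j, ¬ Has (x.2 j)) ∧ Ds x.1 = D}, ∃ z : ({j // j ∈ D} → Fin 3 × Bool) ×
      {w : ({j // j ∉ D} → Clause 3 n) ×
      ((Fin i ⊕ {j // j ∈ D}) → Clause 2 n) // minV w.1 Finset.univ < L ∧
        ¬ (OptH w.1 Finset.univ w.2 Finset.univ).Nonempty}, Phi D (z.1, z.2.1) = x.1 := by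
    intro x
    obtain ⟨⟨hev, hh⟩, hD⟩ := x.2
    obtain ⟨z, hz⟩ := Phi_surj D x.1 hD hh
    refine ⟨(z.1, ⟨z.2, ?_⟩), hz⟩
    rw [← hz] at hev
    exact Phi_ev D z hev
  choose g hg using hx
  refine Nat.card_le_card_of_injective g ?_
  intro c c' h
  apply Subtype.ext
  rw [← hg c, ← hg c', h]

theorem av_D (hn : 3 ≤ n) (L : ℕ) :
    av (fun x : (Fin t → Clause 3 (n + 1)) × (Fin i → Clause 2 (n + 1)) =>
      if (Ev L x ∧ ∀ j, ¬ Has (x.2 j)) ∧ Ds x.1 = D then (1 : ℝ) else 0) ≤
    (3 / ((n : ℝ) + 1)) ^ D.card * kap n L (t - D.card) (i + D.card) := by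
  have e1 : Fintype.card {j // j ∉ D} = t - D.card := by
    rw [Fintype.card_subtype_compl, Fintype.card_coe, Fintype.card_fin]
  have e2 : Fintype.card (Fin i ⊕ {j // j ∈ D}) = i + D.card := by
    rw [Fintype.card_sum, Fintype.card_fin, Fintype.card_coe]
  rw [← kapG_eq n L (Fintype.equivFinOfCardEq e1) (Fintype.equivFinOfCardEq e2)]
  unfold kapG
  rw [av_ind, av_ind]
  have hc := card_D (n := n) (i := i) D L
  set A := Nat.card {x : (Fin t → Clause 3 (n + 1)) × (Fin i → Clause 2 (n + 1)) //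
      (Ev L x ∧ ∀ j, ¬ Has (x.2 j)) ∧ Ds x.1 = D} with hA
  set B := Nat.card {w : ({j // j ∉ D} → Clause 3 n) ×
      ((Fin i ⊕ {j // j ∈ D}) → Clause 2 n) // minV w.1 Finset.univ < L ∧
        ¬ (OptH w.1 Finset.univ w.2 Finset.univ).Nonempty} with hB
  have cX : Nat.card ((Fin t → Clause 3 (n + 1)) × (Fin i → Clause 2 (n + 1))) =
      ((n + 1) * n.descFactorial 2 * 2 ^ 3) ^ t * ((n + 1) * n * 2 ^ 2) ^ i := by
    rw [Nat.card_prod (Fin t → Clause 3 (n + 1)) (Fin i → Clause 2 (n + 1)),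
      Nat.card_fun (β := Clause 3 (n + 1)), Nat.card_fun (β := Clause 2 (n + 1)), ncard_clause,
      ncard_clause, Nat.card_fin, Nat.card_fin, Nat.succ_descFactorial_succ,
      Nat.succ_descFactorial_succ, Nat.descFactorial_one]
  have cW : Nat.card (({j // j ∉ D} → Clause 3 n) × ((Fin i ⊕ {j // j ∈ D}) → Clause 2 n)) =
      (n.descFactorial 3 * 2 ^ 3) ^ (t - D.card) * (n.descFactorial 2 * 2 ^ 2) ^ (i + D.card) := by
    rw [Nat.card_prod ({j // j ∉ D} → Clause 3 n) ((Fin i ⊕ {j // j ∈ D}) → Clause 2 n),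
      Nat.card_fun (β := Clause 3 n), Nat.card_fun (β := Clause 2 n), ncard_clause,
      ncard_clause, Nat.card_eq_fintype_card (α := {j // j ∉ D}), e1,
      Nat.card_eq_fintype_card (α := Fin i ⊕ {j // j ∈ D}), e2]
  rw [cX, cW]
  have hdt : D.card ≤ t := by
    have := Finset.card_le_univ D
    rwa [Fintype.card_fin] at this
  have h2 : n.descFactorial 2 = n * (n - 1) := by
    rw [Nat.descFactorial_succ, Nat.descFactorial_one]; ring
  have h3 : n.descFactorial 3 = n * (n - 1) * (n - 2) := by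
    rw [Nat.descFactorial_succ, h2]; ring
  rw [h2, h3]
  set d := D.card with hd
  have hcR : (A : ℝ) ≤ 6 ^ d * B := by exact_mod_cast hc
  have hnR : (3 : ℝ) ≤ n := by exact_mod_cast hn
  have c1 : ((n - 1 : ℕ) : ℝ) = n - 1 := by
    rw [Nat.cast_sub (by omega)]; norm_num
  have c2 : ((n - 2 : ℕ) : ℝ) = n - 2 := by
    rw [Nat.cast_sub (by omega)]; norm_num
  push_cast [c1, c2]
  have p1 : (0 : ℝ) < n - 1 := by linarith
  have p2 : (0 : ℝ) < n - 2 := by linarith
  have p0 : (0 : ℝ) < n := by linarith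
  have hX : (0 : ℝ) < (((n : ℝ) + 1) * (n * (n - 1)) * 8) ^ t *
      (((n : ℝ) + 1) * n * 4) ^ i := by positivity
  have hW : (0 : ℝ) < ((n : ℝ) * (n - 1) * (n - 2) * 8) ^ (t - d) *
      ((n : ℝ) * (n - 1) * 4) ^ (i + d) := by positivity
  rw [div_le_iff₀ hX]
  refine hcR.trans ?_
  have hBnn : (0 : ℝ) ≤ B := Nat.cast_nonneg _
  -- key inequality
  have hkey : (6 : ℝ) ^ d * (((n : ℝ) * (n - 1) * (n - 2) * 8) ^ (t - d) *
      ((n : ℝ) * (n - 1) * 4) ^ (i + d)) ≤ (3 / ((n : ℝ) + 1)) ^ d *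
      ((((n : ℝ) + 1) * (n * (n - 1)) * 8) ^ t * (((n : ℝ) + 1) * n * 4) ^ i) := by
    have ht : (((n : ℝ) + 1) * (n * (n - 1)) * 8) ^ t =
        (((n : ℝ) + 1) * (n * (n - 1)) * 8) ^ (t - d) *
          (((n : ℝ) + 1) * (n * (n - 1)) * 8) ^ d := by
      rw [← pow_add]; congr 1; omega
    rw [ht, pow_add]
    have k1 : ((n : ℝ) * (n - 1) * (n - 2) * 8) ^ (t - d) ≤
        (((n : ℝ) + 1) * (n * (n - 1)) * 8) ^ (t - d) := by
      refine pow_le_pow_left₀ (by positivity) ?_ _
      have : (n : ℝ) * (n - 1) * (n - 2) ≤ ((n : ℝ) + 1) * (n * (n - 1)) := by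
        have : (0 : ℝ) ≤ n * (n - 1) := by positivity
        nlinarith
      nlinarith
    have k2 : ((n : ℝ) * (n - 1) * 4) ^ i ≤ (((n : ℝ) + 1) * n * 4) ^ i := by
      refine pow_le_pow_left₀ (by positivity) ?_ _
      nlinarith
    have k3 : (6 : ℝ) ^ d * ((n : ℝ) * (n - 1) * 4) ^ d = (3 / ((n : ℝ) + 1)) ^ d *
        (((n : ℝ) + 1) * (n * (n - 1)) * 8) ^ d := by
      rw [← mul_pow, ← mul_pow]
      congr 1
      field_simp
      ring
    calc (6 : ℝ) ^ d * (((n : ℝ) * (n - 1) * (n - 2) * 8) ^ (t - d) *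
          (((n : ℝ) * (n - 1) * 4) ^ i * ((n : ℝ) * (n - 1) * 4) ^ d))
        = ((6 : ℝ) ^ d * ((n : ℝ) * (n - 1) * 4) ^ d) *
          (((n : ℝ) * (n - 1) * (n - 2) * 8) ^ (t - d) *
            ((n : ℝ) * (n - 1) * 4) ^ i) := by ring
      _ ≤ ((6 : ℝ) ^ d * ((n : ℝ) * (n - 1) * 4) ^ d) *
          ((((n : ℝ) + 1) * (n * (n - 1)) * 8) ^ (t - d) *
            (((n : ℝ) + 1) * n * 4) ^ i) := by
          refine mul_le_mul_of_nonneg_left ?_ (by positivity)
          exact mul_le_mul k1 k2 (by positivity) (by positivity)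
      _ = _ := by rw [k3]; ring
  have hfin : (6 : ℝ) ^ d * B = (6 : ℝ) ^ d * (((n : ℝ) * (n - 1) * (n - 2) * 8) ^ (t - d) *
      ((n : ℝ) * (n - 1) * 4) ^ (i + d)) * (B / (((n : ℝ) * (n - 1) * (n - 2) * 8) ^ (t - d) *
      ((n : ℝ) * (n - 1) * 4) ^ (i + d))) := by
    field_simp
  rw [hfin]
  have hBW : (0 : ℝ) ≤ B / (((n : ℝ) * (n - 1) * (n - 2) * 8) ^ (t - d) *
      ((n : ℝ) * (n - 1) * 4) ^ (i + d)) := div_nonneg hBnn hW.le
  calc _ ≤ ((3 / ((n : ℝ) + 1)) ^ d *
      ((((n : ℝ) + 1) * (n * (n - 1)) * 8) ^ t * (((n : ℝ) + 1) * n * 4) ^ i)) *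
        (B / (((n : ℝ) * (n - 1) * (n - 2) * 8) ^ (t - d) *
      ((n : ℝ) * (n - 1) * 4) ^ (i + d))) := mul_le_mul_of_nonneg_right hkey hBW
    _ = _ := by ring

end D

/-! ### relabelling -/

def permC {k N : ℕ} (π : Equiv.Perm (Fin N)) : Clause k N ≃ Clause k N where
  toFun c := (⟨fun r => π (c.1.1 r), fun a b h => c.1.2 (π.injective h)⟩, c.2)
  invFun c := (⟨fun r => π.symm (c.1.1 r), fun a b h => c.1.2 (π.symm.injective h)⟩, c.2)
  left_inv c := by
    refine Prod.ext (Subtype.ext (funext fun r => ?_)) rfl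
    simp
  right_inv c := by
    refine Prod.ext (Subtype.ext (funext fun r => ?_)) rfl
    simp

theorem sat_perm {k N : ℕ} (π : Equiv.Perm (Fin N)) (σ : Fin N → Bool) (c : Clause k N) :
    ClauseSat σ (permC π c) ↔ ClauseSat (fun j => σ (π j)) c := Iff.rfl

theorem viol_perm {k N : ℕ} {ι : Type*} (π : Equiv.Perm (Fin N)) (F : ι → Clause k N)
    (I : Finset ι) (σ : Fin N → Bool) :
    viol (fun j => permC π (F j)) I σ = viol F I (fun j => σ (π j)) := by
  unfold viol
  simp only [sat_perm]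

theorem minV_perm {k N : ℕ} {ι : Type*} (π : Equiv.Perm (Fin N)) (F : ι → Clause k N)
    (I : Finset ι) : minV (fun j => permC π (F j)) I = minV F I := by
  refine le_antisymm ?_ ?_
  · obtain ⟨σ, hσ⟩ := exists_opt F I
    rw [← hσ]
    have h := minV_le (fun j => permC π (F j)) I (fun j => σ (π.symm j))
    rw [viol_perm] at h
    simpa using h
  · obtain ⟨σ, hσ⟩ := exists_opt (fun j => permC π (F j)) I
    rw [← hσ, viol_perm]
    exact minV_le _ _ _

theorem OptH_perm {k l N : ℕ} {ι κ : Type*} (π : Equiv.Perm (Fin N)) (F : ι → Clause k N)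
    (I : Finset ι) (h : κ → Clause l N) (J : Finset κ) (σ : Fin N → Bool) :
    σ ∈ OptH (fun j => permC π (F j)) I (fun j => permC π (h j)) J ↔
      (fun j => σ (π j)) ∈ OptH F I h J := by
  unfold OptH
  simp only [Set.mem_setOf_eq, viol_perm, minV_perm, sat_perm]

theorem OptH_perm_nonempty {k l N : ℕ} {ι κ : Type*} (π : Equiv.Perm (Fin N)) (F : ι → Clause k N)
    (I : Finset ι) (h : κ → Clause l N) (J : Finset κ) :
    (OptH (fun j => permC π (F j)) I (fun j => permC π (h j)) J).Nonempty ↔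
      (OptH F I h J).Nonempty := by
  constructor
  · rintro ⟨σ, hσ⟩
    exact ⟨_, (OptH_perm π F I h J σ).mp hσ⟩
  · rintro ⟨σ, hσ⟩
    refine ⟨fun j => σ (π.symm j), (OptH_perm π F I h J _).mpr ?_⟩
    simpa using hσ

theorem frz_perm {k l N : ℕ} {ι κ : Type*} (π : Equiv.Perm (Fin N)) (F : ι → Clause k N)
    (I : Finset ι) (h : κ → Clause l N) (J : Finset κ) (y : Fin N) :
    π y ∈ frz (OptH (fun j => permC π (F j)) I (fun j => permC π (h j)) J) ↔
      y ∈ frz (OptH F I h J) := by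
  unfold frz
  simp only [Finset.mem_filter, Finset.mem_univ, true_and]
  constructor
  · intro H σ hσ τ hτ
    have h1 := H (fun j => σ (π.symm j)) ((OptH_perm π F I h J _).mpr (by simpa using hσ))
      (fun j => τ (π.symm j)) ((OptH_perm π F I h J _).mpr (by simpa using hτ))
    simpa using h1
  · intro H σ hσ τ hτ
    exact H _ ((OptH_perm π F I h J σ).mp hσ) _ ((OptH_perm π F I h J τ).mp hτ)

theorem av_frz_eq {N L t i : ℕ} (y z : Fin N) :
    av (fun x : (Fin t → Clause 3 N) × (Fin i → Clause 2 N) =>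
      if minV x.1 Finset.univ < L ∧ (OptH x.1 Finset.univ x.2 Finset.univ).Nonempty ∧
        y ∈ frz (OptH x.1 Finset.univ x.2 Finset.univ) then (1 : ℝ) else 0) =
    av (fun x : (Fin t → Clause 3 N) × (Fin i → Clause 2 N) =>
      if minV x.1 Finset.univ < L ∧ (OptH x.1 Finset.univ x.2 Finset.univ).Nonempty ∧
        z ∈ frz (OptH x.1 Finset.univ x.2 Finset.univ) then (1 : ℝ) else 0) := by
  set π : Equiv.Perm (Fin N) := Equiv.swap y z with hπ
  have h1 := av_equiv ((Equiv.arrowCongr (Equiv.refl (Fin t)) (permC (k := 3) π)).prodCongr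
      (Equiv.arrowCongr (Equiv.refl (Fin i)) (permC (k := 2) π)))
    (fun x : (Fin t → Clause 3 N) × (Fin i → Clause 2 N) =>
      if minV x.1 Finset.univ < L ∧ (OptH x.1 Finset.univ x.2 Finset.univ).Nonempty ∧
        z ∈ frz (OptH x.1 Finset.univ x.2 Finset.univ) then (1 : ℝ) else 0)
  rw [← h1]
  congr 1
  funext x
  show _ = if minV (fun j => permC π (x.1 j)) Finset.univ < L ∧
    (OptH (fun j => permC π (x.1 j)) Finset.univ (fun j => permC π (x.2 j)) Finset.univ).Nonempty ∧
    z ∈ frz (OptH (fun j => permC π (x.1 j)) Finset.univ (fun j => permC π (x.2 j)) Finset.univ)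
      then (1 : ℝ) else 0
  have hz : z = π y := by rw [hπ, Equiv.swap_apply_left]
  refine if_congr ?_ rfl rfl
  rw [minV_perm, OptH_perm_nonempty, hz, frz_perm]

end C4

open C4

theorem yy_succ {n : ℕ} (hn : 3 ≤ n) (L t i : ℕ) :
    yy (n + 1) L t i ≤ (i : ℝ) / (n + 1) +
      ∑ d ∈ Finset.range (t + 1), (t.choose d : ℝ) * (3 / ((n : ℝ) + 1)) ^ d *
        kap n L (t - d) (i + d) := by
  have hn1 : (0 : ℝ) < (n : ℝ) + 1 := by positivity
  -- step 1 : symmetry
  have h1 : yy (n + 1) L t i = (1 / 2) *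
      av (fun x : (Fin t → Clause 3 (n + 1)) × (Fin i → Clause 2 (n + 1)) =>
        if Ev L x then (1 : ℝ) else 0) := by
    unfold yy
    have e1 : ∀ x : (Fin t → Clause 3 (n + 1)) × (Fin i → Clause 2 (n + 1)),
        (if minV x.1 Finset.univ < L ∧ (OptH x.1 Finset.univ x.2 Finset.univ).Nonempty then
          ((frz (OptH x.1 Finset.univ x.2 Finset.univ)).card : ℝ) / (2 * ((n + 1 : ℕ) : ℝ))
            else 0) =
        ∑ y : Fin (n + 1), (1 / (2 * ((n : ℝ) + 1))) *
          (if minV x.1 Finset.univ < L ∧ (OptH x.1 Finset.univ x.2 Finset.univ).Nonempty ∧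
            y ∈ frz (OptH x.1 Finset.univ x.2 Finset.univ) then (1 : ℝ) else 0) := by
      intro x
      by_cases hE : minV x.1 Finset.univ < L ∧ (OptH x.1 Finset.univ x.2 Finset.univ).Nonempty
      · rw [if_pos hE, ← Finset.mul_sum]
        have e2 : ∀ y : Fin (n + 1), (if minV x.1 Finset.univ < L ∧
            (OptH x.1 Finset.univ x.2 Finset.univ).Nonempty ∧
            y ∈ frz (OptH x.1 Finset.univ x.2 Finset.univ) then (1 : ℝ) else 0) =
            if y ∈ frz (OptH x.1 Finset.univ x.2 Finset.univ) then (1 : ℝ) else 0 := by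
          intro y
          by_cases hy : y ∈ frz (OptH x.1 Finset.univ x.2 Finset.univ)
          · rw [if_pos ⟨hE.1, hE.2, hy⟩, if_pos hy]
          · rw [if_neg (fun h => hy h.2.2), if_neg hy]
        simp only [e2]
        rw [Finset.sum_ite_mem, Finset.univ_inter, Finset.sum_const, nsmul_eq_mul, mul_one]
        push_cast
        ring
      · rw [if_neg hE]
        symm
        refine Finset.sum_eq_zero fun y _ => ?_
        rw [if_neg (fun h => hE ⟨h.1, h.2.1⟩), mul_zero]
    have e3 : (fun x : (Fin t → Clause 3 (n + 1)) × (Fin i → Clause 2 (n + 1)) =>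
        if minV x.1 Finset.univ < L ∧ (OptH x.1 Finset.univ x.2 Finset.univ).Nonempty then
          ((frz (OptH x.1 Finset.univ x.2 Finset.univ)).card : ℝ) / (2 * ((n + 1 : ℕ) : ℝ))
            else 0) = fun x => ∑ y : Fin (n + 1), (1 / (2 * ((n : ℝ) + 1))) *
          (if minV x.1 Finset.univ < L ∧ (OptH x.1 Finset.univ x.2 Finset.univ).Nonempty ∧
            y ∈ frz (OptH x.1 Finset.univ x.2 Finset.univ) then (1 : ℝ) else 0) := funext e1
    rw [e3, av_sum]
    have e4 : ∀ y : Fin (n + 1),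
        av (fun x : (Fin t → Clause 3 (n + 1)) × (Fin i → Clause 2 (n + 1)) =>
          (1 / (2 * ((n : ℝ) + 1))) *
          (if minV x.1 Finset.univ < L ∧ (OptH x.1 Finset.univ x.2 Finset.univ).Nonempty ∧
            y ∈ frz (OptH x.1 Finset.univ x.2 Finset.univ) then (1 : ℝ) else 0)) =
        (1 / (2 * ((n : ℝ) + 1))) *
          av (fun x : (Fin t → Clause 3 (n + 1)) × (Fin i → Clause 2 (n + 1)) =>
            if Ev L x then (1 : ℝ) else 0) := by
      intro y
      rw [av_mul_left, av_frz_eq y (Fin.last n)]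
      exact congrArg _ (congrArg av (funext fun x => if_congr Iff.rfl rfl rfl))
    rw [Finset.sum_congr rfl fun y _ => e4 y, Finset.sum_const, Finset.card_univ,
      Fintype.card_fin, nsmul_eq_mul]
    push_cast
    field_simp
  -- step 2 : hard clauses containing the last variable
  have h2 : av (fun x : (Fin t → Clause 3 (n + 1)) × (Fin i → Clause 2 (n + 1)) =>
        if Ev L x then (1 : ℝ) else 0) ≤ (i : ℝ) * (2 / ((n : ℝ) + 1)) +
      ∑ D : Finset (Fin t), av (fun x : (Fin t → Clause 3 (n + 1)) × (Fin i → Clause 2 (n + 1)) =>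
        if (Ev L x ∧ ∀ j, ¬ Has (x.2 j)) ∧ Ds x.1 = D then (1 : ℝ) else 0) := by
    have e1 : ∀ x : (Fin t → Clause 3 (n + 1)) × (Fin i → Clause 2 (n + 1)),
        (if Ev L x then (1 : ℝ) else 0) ≤ (∑ j : Fin i, if Has (x.2 j) then (1 : ℝ) else 0) +
          ∑ D : Finset (Fin t), if (Ev L x ∧ ∀ j, ¬ Has (x.2 j)) ∧ Ds x.1 = D
            then (1 : ℝ) else 0 := by
      intro x
      have n1 : (0 : ℝ) ≤ ∑ j : Fin i, if Has (x.2 j) then (1 : ℝ) else 0 :=
        Finset.sum_nonneg fun j _ => by split_ifs <;> norm_num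
      have n2 : (0 : ℝ) ≤ ∑ D : Finset (Fin t), if (Ev L x ∧ ∀ j, ¬ Has (x.2 j)) ∧ Ds x.1 = D
            then (1 : ℝ) else 0 :=
        Finset.sum_nonneg fun j _ => by split_ifs <;> norm_num
      by_cases hE : Ev L x
      · rw [if_pos hE]
        by_cases hh : ∀ j, ¬ Has (x.2 j)
        · have : (1 : ℝ) ≤ ∑ D : Finset (Fin t), if (Ev L x ∧ ∀ j, ¬ Has (x.2 j)) ∧ Ds x.1 = D
              then (1 : ℝ) else 0 := by
            have := Finset.single_le_sum (f := fun D : Finset (Fin t) =>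
              if (Ev L x ∧ ∀ j, ¬ Has (x.2 j)) ∧ Ds x.1 = D then (1 : ℝ) else 0)
              (fun D _ => by split_ifs <;> norm_num) (Finset.mem_univ (Ds x.1))
            rw [if_pos ⟨⟨hE, hh⟩, rfl⟩] at this
            exact this
          linarith
        · push Not at hh
          obtain ⟨j, hj⟩ := hh
          have : (1 : ℝ) ≤ ∑ j : Fin i, if Has (x.2 j) then (1 : ℝ) else 0 := by
            have := Finset.single_le_sum (f := fun j : Fin i =>
              if Has (x.2 j) then (1 : ℝ) else 0)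
              (fun D _ => by split_ifs <;> norm_num) (Finset.mem_univ j)
            rw [if_pos hj] at this
            exact this
          linarith
      · rw [if_neg hE]
        linarith
    refine (av_mono e1).trans ?_
    rw [av_add, av_sum, av_sum]
    refine add_le_add ?_ le_rfl
    have e2 : ∀ j : Fin i, av (fun x : (Fin t → Clause 3 (n + 1)) × (Fin i → Clause 2 (n + 1)) =>
        if Has (x.2 j) then (1 : ℝ) else 0) ≤ 2 / ((n : ℝ) + 1) := by
      intro j
      have : Nonempty (Clause 3 (n + 1)) := clause_nonempty (by omega)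
      have : Nonempty (Clause 2 (n + 1)) := clause_nonempty (by omega)
      rw [av_prod]
      have e3 : (fun a : Fin t → Clause 3 (n + 1) =>
          av (fun b : Fin i → Clause 2 (n + 1) => if Has ((a, b).2 j) then (1 : ℝ) else 0)) =
          fun _ => av (fun c : Clause 2 (n + 1) => if Has c then (1 : ℝ) else 0) := by
        funext a
        exact av_eval j (fun c : Clause 2 (n + 1) => if Has c then (1 : ℝ) else 0)
      rw [e3, av_const]
      exact av_has2 (by omega)
    calc _ ≤ ∑ j : Fin i, 2 / ((n : ℝ) + 1) := Finset.sum_le_sum fun j _ => e2 j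
      _ = _ := by rw [Finset.sum_const, Finset.card_univ, Fintype.card_fin, nsmul_eq_mul]
  -- step 3
  have h3 : ∑ D : Finset (Fin t),
      av (fun x : (Fin t → Clause 3 (n + 1)) × (Fin i → Clause 2 (n + 1)) =>
        if (Ev L x ∧ ∀ j, ¬ Has (x.2 j)) ∧ Ds x.1 = D then (1 : ℝ) else 0) ≤
      ∑ d ∈ Finset.range (t + 1), (t.choose d : ℝ) * (3 / ((n : ℝ) + 1)) ^ d *
        kap n L (t - d) (i + d) := by
    calc _ ≤ ∑ D : Finset (Fin t),
          (3 / ((n : ℝ) + 1)) ^ D.card * kap n L (t - D.card) (i + D.card) :=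
          Finset.sum_le_sum fun D _ => av_D D hn L
      _ = _ := by
        have : ∑ D ∈ (Finset.univ : Finset (Fin t)).powerset,
            (3 / ((n : ℝ) + 1)) ^ D.card * kap n L (t - D.card) (i + D.card) = _ :=
          Finset.sum_powerset_apply_card
          (fun d => (3 / ((n : ℝ) + 1)) ^ d * kap n L (t - d) (i + d))
        rw [Finset.powerset_univ, Finset.card_univ, Fintype.card_fin] at this
        rw [this]
        refine Finset.sum_congr rfl fun d _ => ?_
        rw [nsmul_eq_mul, mul_assoc]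
  have h4 : (0 : ℝ) ≤ ∑ d ∈ Finset.range (t + 1), (t.choose d : ℝ) * (3 / ((n : ℝ) + 1)) ^ d *
        kap n L (t - d) (i + d) :=
    Finset.sum_nonneg fun d _ => mul_nonneg (by positivity) (kap_nonneg _ _ _ _)
  rw [h1]
  have h5 : (i : ℝ) * (2 / ((n : ℝ) + 1)) = 2 * ((i : ℝ) / (n + 1)) := by ring
  rw [h5] at h2
  linarith

end Crest.Agent.KS
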