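import Crest.Agent.KS_C3
import Crest.Agent.KS_C4

/-! # KS-C5 : summation over time (easy/medium) -/

set_option autoImplicit false

noncomputable section
open Crest.ProbabilityR.RandomSAT
open Classical
namespace Crest.Agent.KS

theorem C5_shift {g : ℕ → ℝ} (hg : ∀ t, 0 ≤ g t) (T d : ℕ) :
    ∑ t ∈ Finset.range T, (if d ≤ t then g (t - d) else 0) ≤ ∑ t ∈ Finset.range T, g t := by
  rw [← Finset.sum_filter]
  have h1 : (Finset.range T).filter (fun t => d ≤ t) = Finset.Ico d T := by
    ext t; simp; omega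
  rw [h1, Finset.sum_Ico_eq_sum_range]
  have h2 : ∀ k, d + k - d = k := fun k => by omega
  simp only [h2]
  exact Finset.sum_le_sum_of_subset_of_nonneg
    (Finset.range_subset_range.2 (Nat.sub_le _ _)) (fun t _ _ => hg t)

/-- sum `yy_succ` over `t < T`; `choose t d ≤ T^d/d!`, then exchange the sums (`t' = t - d`). -/
theorem YY_le {n : ℕ} (hn : 3 ≤ n) (L T i : ℕ) :
    YY (n + 1) L T i ≤ (i : ℝ) * T / (n + 1) +
      ∑ d ∈ Finset.range T, ((3 * T / ((n : ℝ) + 1)) ^ d / (d.factorial : ℝ)) * KK n L T (i + d) := by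
  unfold YY
  have hn1 : (0 : ℝ) < (n : ℝ) + 1 := by positivity
  set c : ℕ → ℝ := fun d => (3 * T / ((n : ℝ) + 1)) ^ d / (d.factorial : ℝ) with hc
  have hc0 : ∀ d, 0 ≤ c d := fun d => by rw [hc]; positivity
  have h1 : ∀ t ∈ Finset.range T, yy (n + 1) L t i ≤ (i : ℝ) / (n + 1) +
      ∑ d ∈ Finset.range T, (if d ≤ t then c d * kap n L (t - d) (i + d) else 0) := by
    intro t ht
    have htT := Finset.mem_range.1 ht
    refine (yy_succ hn L t i).trans ?_
    gcongr
    have h2 : ∑ d ∈ Finset.range T, (if d ≤ t then c d * kap n L (t - d) (i + d) else 0) =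
        ∑ d ∈ Finset.range (t + 1), c d * kap n L (t - d) (i + d) := by
      rw [← Finset.sum_filter]
      congr 1
      ext d; simp; omega
    rw [h2]
    refine Finset.sum_le_sum fun d _ => ?_
    refine mul_le_mul_of_nonneg_right ?_ (kap_nonneg _ _ _ _)
    have h3 : ((t.choose d : ℕ) : ℝ) ≤ (T : ℝ) ^ d / (d.factorial : ℝ) := by
      refine (Nat.choose_le_pow_div (α := ℝ) d t).trans ?_
      have : (t : ℝ) ≤ T := by exact_mod_cast htT.le
      gcongr
    calc ((t.choose d : ℕ) : ℝ) * (3 / ((n : ℝ) + 1)) ^ d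
        ≤ ((T : ℝ) ^ d / (d.factorial : ℝ)) * (3 / ((n : ℝ) + 1)) ^ d := by gcongr
      _ = c d := by
        rw [hc]
        have : (3 * (T : ℝ) / ((n : ℝ) + 1)) ^ d = (T : ℝ) ^ d * (3 / ((n : ℝ) + 1)) ^ d := by
          rw [← mul_pow]; congr 1; ring
        simp only [this]; ring
  refine (Finset.sum_le_sum h1).trans ?_
  rw [Finset.sum_add_distrib, Finset.sum_comm (s := Finset.range T) (t := Finset.range T)]
  refine add_le_add ?_ ?_
  · rw [Finset.sum_const, Finset.card_range, nsmul_eq_mul]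
    refine le_of_eq ?_
    ring
  · refine Finset.sum_le_sum fun d _ => ?_
    have h4 : ∀ t, (if d ≤ t then c d * kap n L (t - d) (i + d) else 0) =
        c d * (if d ≤ t then kap n L (t - d) (i + d) else 0) := by
      intro t; split_ifs <;> simp
    simp only [h4]
    rw [← Finset.mul_sum]
    refine mul_le_mul_of_nonneg_left ?_ (hc0 d)
    unfold KK
    exact C5_shift (g := fun t => kap n L t (i + d)) (fun t => kap_nonneg _ _ _ _) T d

theorem C5_kap_eq {n : ℕ} (hn : 2 ≤ n) (L t M : ℕ) :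
    kap n L t M = ∑ i ∈ Finset.range M, qq n L t i := by
  induction M with
  | zero => simp [kap_zero]
  | succ M ih => rw [kap_succ hn, Finset.sum_range_succ, ih]

/-- `kap_succ`, `kap_zero`, `qq_le`, `sum_zz` -/
theorem KK_le {n : ℕ} (hn : 3 ≤ n) (L T M : ℕ) {θ : ℝ} (hθ : 0 < θ) :
    KK n L T M ≤ ∑ i ∈ Finset.range M, ((θ + 1 / n) * YY n L T i + (9 / 2) / θ ^ 3 * L) := by
  unfold KK YY
  have h1 : ∀ t ∈ Finset.range T, kap n L t M = ∑ i ∈ Finset.range M, qq n L t i :=
    fun t _ => C5_kap_eq (by omega) L t M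
  rw [Finset.sum_congr rfl h1, Finset.sum_comm]
  refine Finset.sum_le_sum fun i _ => ?_
  refine (Finset.sum_le_sum fun t _ => qq_le (n := n) (by omega) L t i hθ.le).trans ?_
  rw [Finset.sum_add_distrib, ← Finset.mul_sum]
  exact add_le_add le_rfl (sum_zz hn L T i hθ)

/-- a priori bound -/
theorem KK_le_T (n L T M : ℕ) : KK n L T M ≤ T := by
  unfold KK
  refine (Finset.sum_le_sum fun t _ => kap_le_one n L t M).trans ?_
  simp

end Crest.Agent.KS
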