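import Crest.Agent.KS_C5

/-! # KS-C7 : the recursion in `n` (real analysis, medium)

Let `k_n = sup_M 2^{-M} KK n L T M ≤ T`. By `YY_le`: `YY n L T i ≤ i T/n + 2^i e^{2Λ} k_{n-1}`, `Λ = 3T/n`.
By `KK_le` (`∑_{i<M} 2^i ≤ 2^M`, `∑_{i<M} i ≤ 2^M`, `M ≤ 2^M`): `k_n ≤ (θ+1/n) e^{2Λ} k_{n-1} + (θ+1/n) T/n + (9/2) θ⁻³ L`.
For `T ≤ c n`, going down from `n` to `n - J`, `J = log2 T + 1 ≤ n/2`, `Λ ≤ 6c`: choose `θ` with `(θ + 2/n) e^{12 c} ≤ 1/2`; then
`k_n ≤ 2 C1 L + 2^{-J} T`. Finally `YY n L T 0 ≤ e^{2Λ} k_{n-1}`. -/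

set_option autoImplicit false

noncomputable section
open Crest.ProbabilityR.RandomSAT
open Classical
namespace Crest.Agent.KS

private theorem c7_YY {n L T : ℕ} (hn : 3 ≤ n) {B E : ℝ} (hB : 0 ≤ B)
    (hE : Real.exp (2 * (3 * T / ((n : ℝ) + 1))) ≤ E) (h : ∀ M, KK n L T M ≤ 2 ^ M * B) (i : ℕ) :
    YY (n + 1) L T i ≤ (i : ℝ) * T / (n + 1) + 2 ^ i * (E * B) := by
  refine (YY_le hn L T i).trans ?_
  set x : ℝ := 3 * T / ((n : ℝ) + 1) with hx
  have hx0 : 0 ≤ x := by positivity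
  have h1 : ∑ d ∈ Finset.range T, (x ^ d / (d.factorial : ℝ)) * KK n L T (i + d) ≤
      2 ^ i * (E * B) := by
    calc ∑ d ∈ Finset.range T, (x ^ d / (d.factorial : ℝ)) * KK n L T (i + d)
        ≤ ∑ d ∈ Finset.range T, (x ^ d / (d.factorial : ℝ)) * (2 ^ (i + d) * B) := by
          refine Finset.sum_le_sum fun d _ => mul_le_mul_of_nonneg_left (h _) (by positivity)
      _ = (2 ^ i * B) * ∑ d ∈ Finset.range T, ((2 * x) ^ d / (d.factorial : ℝ)) := by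
          rw [Finset.mul_sum]
          refine Finset.sum_congr rfl fun d _ => ?_
          rw [mul_pow, pow_add]
          ring
      _ ≤ (2 ^ i * B) * Real.exp (2 * x) :=
          mul_le_mul_of_nonneg_left (Real.sum_le_exp_of_nonneg (by positivity) T) (by positivity)
      _ ≤ (2 ^ i * B) * E := mul_le_mul_of_nonneg_left hE (by positivity)
      _ = 2 ^ i * (E * B) := by ring
  linarith

private theorem c7_sum_two (M : ℕ) : ∑ i ∈ Finset.range M, (2 : ℝ) ^ i ≤ 2 ^ M := by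
  induction M with
  | zero => simp
  | succ M ih => rw [Finset.sum_range_succ, pow_succ]; linarith

private theorem c7_le_two (M : ℕ) : (M : ℝ) ≤ 2 ^ M := by
  exact_mod_cast (Nat.lt_two_pow_self).le

private theorem c7_sum_id (M : ℕ) : ∑ i ∈ Finset.range M, (i : ℝ) ≤ 2 ^ M := by
  induction M with
  | zero => simp
  | succ M ih =>
    rw [Finset.sum_range_succ, pow_succ]
    have := c7_le_two M
    linarith

private theorem c7_KK {n L T : ℕ} (hn : 3 ≤ n) {θ : ℝ} (hθ : 0 < θ) {B E : ℝ} (hB : 0 ≤ B)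
    (hE : Real.exp (2 * (3 * T / ((n : ℝ) + 1))) ≤ E) (h : ∀ M, KK n L T M ≤ 2 ^ M * B) (M : ℕ) :
    KK (n + 1) L T M ≤ 2 ^ M * ((θ + 1 / ((n : ℝ) + 1)) * (T / ((n : ℝ) + 1) + E * B) +
      (9 / 2) / θ ^ 3 * L) := by
  have hE0 : 0 ≤ E := (Real.exp_pos _).le.trans hE
  have hn1 : (0 : ℝ) < (n : ℝ) + 1 := by positivity
  refine (KK_le (n := n + 1) (by omega) L T M hθ).trans ?_
  have h1 : ∀ i ∈ Finset.range M,
      ((θ + 1 / ((n + 1 : ℕ) : ℝ)) * YY (n + 1) L T i + (9 / 2) / θ ^ 3 * L) ≤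
      (θ + 1 / ((n : ℝ) + 1)) * (T / ((n : ℝ) + 1)) * (i : ℝ) +
      (θ + 1 / ((n : ℝ) + 1)) * (E * B) * 2 ^ i + (9 / 2) / θ ^ 3 * L := by
    intro i _
    have h2 := c7_YY hn hB hE h i
    have hc : ((n + 1 : ℕ) : ℝ) = (n : ℝ) + 1 := by push_cast; ring
    rw [hc]
    have h3 : (0 : ℝ) ≤ θ + 1 / ((n : ℝ) + 1) := by positivity
    have h4 := mul_le_mul_of_nonneg_left h2 h3
    have h5 : (θ + 1 / ((n : ℝ) + 1)) * ((i : ℝ) * T / (n + 1) + 2 ^ i * (E * B)) =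
        (θ + 1 / ((n : ℝ) + 1)) * (T / ((n : ℝ) + 1)) * (i : ℝ) +
        (θ + 1 / ((n : ℝ) + 1)) * (E * B) * 2 ^ i := by ring
    linarith
  refine (Finset.sum_le_sum h1).trans ?_
  rw [Finset.sum_add_distrib, Finset.sum_add_distrib, ← Finset.mul_sum, ← Finset.mul_sum,
    Finset.sum_const, Finset.card_range, nsmul_eq_mul]
  have a1 : (θ + 1 / ((n : ℝ) + 1)) * (T / ((n : ℝ) + 1)) * ∑ i ∈ Finset.range M, (i : ℝ) ≤
      (θ + 1 / ((n : ℝ) + 1)) * (T / ((n : ℝ) + 1)) * 2 ^ M :=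
    mul_le_mul_of_nonneg_left (c7_sum_id M) (by positivity)
  have a2 : (θ + 1 / ((n : ℝ) + 1)) * (E * B) * ∑ i ∈ Finset.range M, (2 : ℝ) ^ i ≤
      (θ + 1 / ((n : ℝ) + 1)) * (E * B) * 2 ^ M :=
    mul_le_mul_of_nonneg_left (c7_sum_two M) (by positivity)
  have a3 : (M : ℝ) * ((9 / 2) / θ ^ 3 * L) ≤ 2 ^ M * ((9 / 2) / θ ^ 3 * L) :=
    mul_le_mul_of_nonneg_right (c7_le_two M) (by positivity)
  calc _ ≤ (θ + 1 / ((n : ℝ) + 1)) * (T / ((n : ℝ) + 1)) * 2 ^ M +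
        (θ + 1 / ((n : ℝ) + 1)) * (E * B) * 2 ^ M + 2 ^ M * ((9 / 2) / θ ^ 3 * L) := by
        linarith
    _ = _ := by ring

private theorem c7_exists (c : ℝ) (hc : 0 < c) : ∃ J0 : ℕ, ∀ J : ℕ, J0 ≤ J →
    c * (4 * (J : ℝ) + 3) ≤ 2 ^ J := by
  have h := tendsto_pow_const_div_const_pow_of_one_lt 1 (r := (2 : ℝ)) (by norm_num)
  have h2 := h.eventually (gt_mem_nhds (show (0 : ℝ) < 1 / (7 * c) by positivity))
  obtain ⟨J1, hJ1⟩ := Filter.eventually_atTop.1 h2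
  refine ⟨max J1 1, fun J hJ => ?_⟩
  have h3 := hJ1 J (le_trans (le_max_left _ _) hJ)
  have hJ2 : (1 : ℝ) ≤ J := by exact_mod_cast (le_trans (le_max_right _ _) hJ)
  have hp : (0 : ℝ) < 2 ^ J := by positivity
  rw [pow_one, div_lt_div_iff₀ hp (by positivity)] at h3
  nlinarith

theorem YY_bound (c : ℝ) (hc : 0 < c) : ∃ C : ℝ, 0 < C ∧ ∃ n0 : ℕ, ∀ n : ℕ, n0 ≤ n → ∀ T : ℕ,
    (T : ℝ) ≤ c * n → ∀ L : ℕ, 1 ≤ L → YY n L T 0 ≤ C * L := by
  set E : ℝ := Real.exp (12 * c) with hEdef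
  have hE0 : 0 < E := Real.exp_pos _
  have hE1 : 1 ≤ E := by
    rw [hEdef]; exact Real.one_le_exp (by positivity)
  set θ : ℝ := 1 / (4 * E) with hθdef
  have hθ : 0 < θ := by positivity
  have hθE : θ * E = 1 / 4 := by rw [hθdef]; field_simp
  obtain ⟨J0, hJ0⟩ := c7_exists c hc
  set C1 : ℝ := c + (9 / 2) / θ ^ 3 with hC1
  have hC10 : 0 < C1 := by positivity
  obtain ⟨n1, hn1⟩ := exists_nat_gt (8 * E)
  refine ⟨E * (1 + 2 * C1), by positivity, max (max (4 * J0) n1) 16, fun n hn T hT L hL => ?_⟩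
  have hL1 : (1 : ℝ) ≤ L := by exact_mod_cast hL
  have hnJ : 4 * J0 ≤ n := le_trans (le_trans (le_max_left _ _) (le_max_left _ _)) hn
  have hnn1 : n1 ≤ n := le_trans (le_trans (le_max_right _ _) (le_max_left _ _)) hn
  have hn16 : 16 ≤ n := le_trans (le_max_right _ _) hn
  have hn8E : 8 * E < n := lt_of_lt_of_le hn1 (by exact_mod_cast hnn1)
  set J : ℕ := n / 4 with hJ
  have hJJ0 : J0 ≤ J := by omega
  have hT2 : (T : ℝ) ≤ 2 ^ J := by
    refine hT.trans ((mul_le_mul_of_nonneg_left ?_ hc.le).trans (hJ0 J hJJ0))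
    have : n ≤ 4 * J + 3 := by omega
    exact_mod_cast this
  -- bounds valid for all sizes between n/2 and n
  have hkey : ∀ k : ℕ, n ≤ 2 * (k + 1) →
      Real.exp (2 * (3 * T / ((k : ℝ) + 1))) ≤ E ∧
      (θ + 1 / ((k : ℝ) + 1)) * E ≤ 1 / 2 ∧ (T : ℝ) / ((k : ℝ) + 1) ≤ 2 * c := by
    intro k hk
    have hk1 : (0 : ℝ) < (k : ℝ) + 1 := by positivity
    have hk2 : (n : ℝ) ≤ 2 * ((k : ℝ) + 1) := by exact_mod_cast hk
    have hTk : (T : ℝ) / ((k : ℝ) + 1) ≤ 2 * c := by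
      rw [div_le_iff₀ hk1]
      nlinarith
    refine ⟨?_, ?_, hTk⟩
    · rw [hEdef]
      apply Real.exp_le_exp.2
      have : 3 * (T : ℝ) / ((k : ℝ) + 1) = 3 * ((T : ℝ) / ((k : ℝ) + 1)) := by ring
      rw [this]
      linarith
    · have h1 : 1 / ((k : ℝ) + 1) * E ≤ 1 / 4 := by
        rw [div_mul_eq_mul_div, one_mul, div_le_iff₀ hk1]
        linarith
      rw [add_mul, hθE]
      linarith
  -- iteration
  have hiter : ∀ r : ℕ, r ≤ J → ∀ M, KK (n - 1 - J + r) L T M ≤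
      2 ^ M * ((T : ℝ) / 2 ^ r + 2 * C1 * L) := by
    intro r
    induction r with
    | zero =>
      intro _ M
      refine (KK_le_T _ L T M).trans ?_
      have h1 : (1 : ℝ) ≤ 2 ^ M := one_le_pow₀ (by norm_num)
      have h2 : (0 : ℝ) ≤ (T : ℝ) / 2 ^ 0 + 2 * C1 * L := by positivity
      calc (T : ℝ) ≤ (T : ℝ) / 2 ^ 0 + 2 * C1 * L := by
            rw [pow_zero, div_one]
            have : 0 ≤ 2 * C1 * (L : ℝ) := by positivity
            linarith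
        _ ≤ 2 ^ M * ((T : ℝ) / 2 ^ 0 + 2 * C1 * L) := by nlinarith
    | succ r ih =>
      intro hr M
      have ih' := ih (by omega)
      obtain ⟨e1, e2, e3⟩ := hkey (n - 1 - J + r) (by omega)
      have hB : (0 : ℝ) ≤ (T : ℝ) / 2 ^ r + 2 * C1 * L := by positivity
      have h1 := c7_KK (n := n - 1 - J + r) (L := L) (T := T) (by omega) hθ hB e1 ih' M
      have hidx : n - 1 - J + (r + 1) = n - 1 - J + r + 1 := by omega
      rw [hidx]
      refine h1.trans (mul_le_mul_of_nonneg_left ?_ (by positivity))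
      set k : ℕ := n - 1 - J + r with hk
      have hk1 : (0 : ℝ) < (k : ℝ) + 1 := by positivity
      have hth : 0 ≤ θ + 1 / ((k : ℝ) + 1) := by positivity
      have hth2 : θ + 1 / ((k : ℝ) + 1) ≤ 1 / 2 := by nlinarith
      have b1 : (θ + 1 / ((k : ℝ) + 1)) * ((T : ℝ) / ((k : ℝ) + 1)) ≤ c := by
        calc (θ + 1 / ((k : ℝ) + 1)) * ((T : ℝ) / ((k : ℝ) + 1))
            ≤ (1 / 2) * (2 * c) := mul_le_mul hth2 e3 (by positivity) (by norm_num)
          _ = c := by ring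
      have b2 : (θ + 1 / ((k : ℝ) + 1)) * (E * ((T : ℝ) / 2 ^ r + 2 * C1 * L)) ≤
          (1 / 2) * ((T : ℝ) / 2 ^ r + 2 * C1 * L) := by
        rw [← mul_assoc]
        exact mul_le_mul_of_nonneg_right e2 hB
      have b3 : c ≤ c * L := by nlinarith
      have b4 : (T : ℝ) / 2 ^ (r + 1) = (1 / 2) * ((T : ℝ) / 2 ^ r) := by
        rw [pow_succ]; field_simp
      rw [b4, mul_add]
      have b5 : C1 * (L : ℝ) = c * L + (9 / 2) / θ ^ 3 * L := by rw [hC1]; ring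
      linarith
  have hfin := hiter J le_rfl
  have hidx : n - 1 - J + J = n - 1 := by omega
  rw [hidx] at hfin
  have hfin2 : ∀ M, KK (n - 1) L T M ≤ 2 ^ M * ((1 + 2 * C1) * L) := by
    intro M
    refine (hfin M).trans (mul_le_mul_of_nonneg_left ?_ (by positivity))
    have h1 : (T : ℝ) / 2 ^ J ≤ 1 := by
      rw [div_le_one (by positivity)]
      exact hT2
    have h2 : (1 + 2 * C1) * (L : ℝ) = L + 2 * C1 * L := by ring
    linarith
  obtain ⟨e1, -, -⟩ := hkey (n - 1) (by omega)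
  have h3 := c7_YY (n := n - 1) (L := L) (T := T) (by omega)
    (show (0 : ℝ) ≤ (1 + 2 * C1) * L by positivity) e1 hfin2 0
  have hn' : n - 1 + 1 = n := by omega
  rw [hn'] at h3
  calc YY n L T 0 ≤ _ := h3
    _ = E * (1 + 2 * C1) * L := by
      push_cast
      ring

end Crest.Agent.KS
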