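import Mathlib

/-!
# KS-Tree : witness tables for nested power means (medium, pure real analysis)

`U j a` (`j ≤ r`, `a < B ^ (j+1)`) satisfies the power mean recursion with exponents `E j / R`
(`IsU`). A table `S` of natural numbers (denominator `P`) with `∑_v g S^{M E_j} ≤ G S^{M E_j}` gives
`U j a ≤ (S j a / P)^{R M}`; such tables exist and are asymptotically sharp for `P → ∞`:
`S j a = ⌈P · leaf^{1/(RM)}⌉` and `S j a = ⌈(∑_v (g/G) S^{M E_j})^{1/(M E_j)}⌉`.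
Same for lower bounds (with `⌊ ⌋`).
-/

set_option autoImplicit false

open Filter Topology

namespace Crest.Agent.KS.UC

structure Tree where
  r : ℕ
  B : ℕ
  R : ℕ
  G : ℕ
  E : ℕ → ℕ
  g : ℕ → ℕ → ℕ → ℕ

structure Tree.Ok (t : Tree) : Prop where
  B_pos : 0 < t.B
  R_pos : 0 < t.R
  G_pos : 0 < t.G
  E_pos : ∀ j, j < t.r → 0 < t.E j
  g_sum : ∀ j, j < t.r → ∀ a, a < t.B ^ (j + 1) → ∑ v ∈ Finset.range t.B, t.g j a v = t.G

/-- power mean recursion -/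
def Tree.IsU (t : Tree) (U : ℕ → ℕ → ℝ) : Prop :=
  ∀ j, j < t.r → ∀ a, a < t.B ^ (j + 1) →
    U j a = (∑ v ∈ Finset.range t.B, (t.g j a v : ℝ) / (t.G : ℝ) *
      (U (j + 1) (v + t.B * a)) ^ ((t.E j : ℝ) / t.R)) ^ ((t.R : ℝ) / t.E j)

/-- witness table for upper bounds -/
def Tree.UpW (t : Tree) (M : ℕ) (S : ℕ → ℕ → ℕ) : Prop :=
  ∀ j, j < t.r → ∀ a, a < t.B ^ (j + 1) →
    ∑ v ∈ Finset.range t.B, t.g j a v * S (j + 1) (v + t.B * a) ^ (M * t.E j) ≤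
      t.G * S j a ^ (M * t.E j)

/-- witness table for lower bounds -/
def Tree.LoW (t : Tree) (M : ℕ) (S : ℕ → ℕ → ℕ) : Prop :=
  ∀ j, j < t.r → ∀ a, a < t.B ^ (j + 1) →
    t.G * S j a ^ (M * t.E j) ≤
      ∑ v ∈ Finset.range t.B, t.g j a v * S (j + 1) (v + t.B * a) ^ (M * t.E j)

variable {t : Tree} {U : ℕ → ℕ → ℝ}

theorem Tree.child_lt {j a v : ℕ} (ha : a < t.B ^ (j + 1)) (hv : v < t.B) :
    v + t.B * a < t.B ^ (j + 1 + 1) := by
  calc v + t.B * a < t.B + t.B * a := by omega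
    _ = t.B * (a + 1) := by ring
    _ ≤ t.B * t.B ^ (j + 1) := Nat.mul_le_mul_left _ ha
    _ = t.B ^ (j + 1 + 1) := by ring

/-- sum of the weights -/
theorem Tree.w_sum (ht : t.Ok) {j a : ℕ} (hj : j < t.r) (ha : a < t.B ^ (j + 1)) :
    ∑ v ∈ Finset.range t.B, (t.g j a v : ℝ) / (t.G : ℝ) = 1 := by
  have hG : (0 : ℝ) < t.G := by exact_mod_cast ht.G_pos
  rw [← Finset.sum_div, ← Nat.cast_sum, ht.g_sum j hj a ha, div_self hG.ne']

theorem Tree.w_nonneg {j a v : ℕ} : (0 : ℝ) ≤ (t.g j a v : ℝ) / (t.G : ℝ) := by positivity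

/-- one step: upper bound -/
theorem Tree.step_le (ht : t.Ok) (hU : t.IsU U) {j a : ℕ} (hj : j < t.r) (ha : a < t.B ^ (j + 1))
    {c : ℝ} (hc : 0 ≤ c) (h0 : ∀ v, v < t.B → 0 ≤ U (j + 1) (v + t.B * a))
    (h : ∑ v ∈ Finset.range t.B, (t.g j a v : ℝ) / (t.G : ℝ) *
      (U (j + 1) (v + t.B * a)) ^ ((t.E j : ℝ) / t.R) ≤ c ^ ((t.E j : ℝ) / t.R)) : U j a ≤ c := by
  have hE : (0 : ℝ) < t.E j := by exact_mod_cast ht.E_pos j hj
  have hR : (0 : ℝ) < t.R := by exact_mod_cast ht.R_pos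
  rw [hU j hj a ha]
  calc _ ≤ (c ^ ((t.E j : ℝ) / t.R)) ^ ((t.R : ℝ) / t.E j) := by
        refine Real.rpow_le_rpow (Finset.sum_nonneg fun v hv => ?_) h (by positivity)
        exact mul_nonneg (Tree.w_nonneg) (Real.rpow_nonneg (h0 v (Finset.mem_range.1 hv)) _)
    _ = c := by
        rw [← Real.rpow_mul hc]
        have : (t.E j : ℝ) / t.R * (t.R / t.E j) = 1 := by field_simp
        rw [this, Real.rpow_one]

/-- one step: lower bound -/
theorem Tree.le_step (ht : t.Ok) (hU : t.IsU U) {j a : ℕ} (hj : j < t.r) (ha : a < t.B ^ (j + 1))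
    {c : ℝ} (hc : 0 ≤ c)
    (h : c ^ ((t.E j : ℝ) / t.R) ≤ ∑ v ∈ Finset.range t.B, (t.g j a v : ℝ) / (t.G : ℝ) *
      (U (j + 1) (v + t.B * a)) ^ ((t.E j : ℝ) / t.R)) : c ≤ U j a := by
  have hE : (0 : ℝ) < t.E j := by exact_mod_cast ht.E_pos j hj
  have hR : (0 : ℝ) < t.R := by exact_mod_cast ht.R_pos
  rw [hU j hj a ha]
  calc c = (c ^ ((t.E j : ℝ) / t.R)) ^ ((t.R : ℝ) / t.E j) := by
        rw [← Real.rpow_mul hc]
        have : (t.E j : ℝ) / t.R * (t.R / t.E j) = 1 := by field_simp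
        rw [this, Real.rpow_one]
    _ ≤ _ := Real.rpow_le_rpow (Real.rpow_nonneg hc _) h (by positivity)

theorem Tree.step_const (ht : t.Ok) {j a : ℕ} (hj : j < t.r) (ha : a < t.B ^ (j + 1)) (c : ℝ) :
    ∑ v ∈ Finset.range t.B, (t.g j a v : ℝ) / (t.G : ℝ) * c = c := by
  rw [← Finset.sum_mul, Tree.w_sum ht hj ha, one_mul]

/-- downward induction -/
theorem Tree.down_ind {t : Tree} {Q : ℕ → ℕ → Prop} (h0 : ∀ a, a < t.B ^ (t.r + 1) → Q t.r a)
    (hs : ∀ j, j < t.r → (∀ a, a < t.B ^ (j + 1 + 1) → Q (j + 1) a) →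
      ∀ a, a < t.B ^ (j + 1) → Q j a) :
    ∀ j, j ≤ t.r → ∀ a, a < t.B ^ (j + 1) → Q j a := by
  have key : ∀ i, i ≤ t.r → ∀ a, a < t.B ^ (t.r - i + 1) → Q (t.r - i) a := by
    intro i
    induction i with
    | zero => intro _ a ha; exact h0 a ha
    | succ i ih =>
      intro hi a ha
      have he : t.r - (i + 1) + 1 = t.r - i := by omega
      refine hs (t.r - (i + 1)) (by omega) ?_ a ha
      rw [he]
      exact ih (by omega)
  intro j hj
  have := key (t.r - j) (by omega)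
  rwa [Nat.sub_sub_self hj] at this

/-- bounds of the leaves are inherited -/
theorem Tree.U_bounds (ht : t.Ok) (hU : t.IsU U) {lo : ℝ} (hlo : 0 < lo)
    (hleaf : ∀ a, a < t.B ^ (t.r + 1) → lo ≤ U t.r a ∧ U t.r a ≤ 1) :
    ∀ j, j ≤ t.r → ∀ a, a < t.B ^ (j + 1) → lo ≤ U j a ∧ U j a ≤ 1 := by
  refine Tree.down_ind hleaf fun j hj ih a ha => ?_
  have hch := fun v (hv : v < t.B) => ih _ (Tree.child_lt ha hv)
  have hER : (0 : ℝ) ≤ (t.E j : ℝ) / t.R := by positivity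
  constructor
  · refine Tree.le_step ht hU hj ha hlo.le ?_
    rw [← Tree.step_const ht hj ha (lo ^ ((t.E j : ℝ) / t.R))]
    refine Finset.sum_le_sum fun v hv => mul_le_mul_of_nonneg_left ?_ Tree.w_nonneg
    exact Real.rpow_le_rpow hlo.le (hch v (Finset.mem_range.1 hv)).1 hER
  · refine Tree.step_le ht hU hj ha zero_le_one
      (fun v hv => hlo.le.trans (hch v hv).1) ?_
    rw [← Tree.step_const ht hj ha (1 ^ ((t.E j : ℝ) / t.R))]
    refine Finset.sum_le_sum fun v hv => mul_le_mul_of_nonneg_left ?_ Tree.w_nonneg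
    exact Real.rpow_le_rpow (hlo.le.trans (hch v (Finset.mem_range.1 hv)).1)
      (hch v (Finset.mem_range.1 hv)).2 hER

theorem Tree.step_pos (ht : t.Ok) (hU : t.IsU U) {j a : ℕ} (hj : j < t.r) (ha : a < t.B ^ (j + 1))
    (h0 : ∀ v, v < t.B → 0 < U (j + 1) (v + t.B * a)) : 0 < U j a := by
  have hG : (0 : ℝ) < t.G := by exact_mod_cast ht.G_pos
  rw [hU j hj a ha]
  refine Real.rpow_pos_of_pos ?_ _
  obtain ⟨v, hv, hgv⟩ : ∃ v ∈ Finset.range t.B, t.g j a v ≠ 0 := by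
    by_contra hc
    push Not at hc
    have h1 := ht.g_sum j hj a ha
    rw [Finset.sum_eq_zero hc] at h1
    exact ht.G_pos.ne h1
  refine Finset.sum_pos' (fun v hv => mul_nonneg Tree.w_nonneg
    (Real.rpow_nonneg (h0 v (Finset.mem_range.1 hv)).le _)) ⟨v, hv, ?_⟩
  refine mul_pos (div_pos ?_ hG) (Real.rpow_pos_of_pos (h0 v (Finset.mem_range.1 hv)) _)
  exact_mod_cast Nat.pos_of_ne_zero hgv

theorem Tree.U_pos (ht : t.Ok) (hU : t.IsU U) (hleaf : ∀ a, a < t.B ^ (t.r + 1) → 0 < U t.r a) :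
    ∀ j, j ≤ t.r → ∀ a, a < t.B ^ (j + 1) → 0 < U j a :=
  Tree.down_ind hleaf fun j hj ih a ha =>
    Tree.step_pos ht hU hj ha fun v hv => ih _ (Tree.child_lt ha hv)

theorem Tree.pow_conv {x : ℝ} (hx : 0 ≤ x) {R M E : ℕ} (hR : 0 < R) :
    (x ^ (R * M)) ^ ((E : ℝ) / R) = x ^ (M * E) := by
  have hR' : (R : ℝ) ≠ 0 := by exact_mod_cast hR.ne'
  rw [← Real.rpow_natCast, ← Real.rpow_mul hx, ← Real.rpow_natCast]
  congr 1
  push_cast
  field_simp

theorem Tree.sum_div (ht : t.Ok) {j a M P : ℕ} (f : ℕ → ℕ) :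
    ∑ v ∈ Finset.range t.B, (t.g j a v : ℝ) / (t.G : ℝ) * ((f v : ℝ) / P) ^ (M * t.E j) =
      ((∑ v ∈ Finset.range t.B, t.g j a v * f v ^ (M * t.E j) : ℕ) : ℝ) /
        (t.G * (P : ℝ) ^ (M * t.E j)) := by
  push_cast
  rw [Finset.sum_div]
  refine Finset.sum_congr rfl fun v _ => ?_
  rw [div_pow, div_mul_div_comm]

theorem Tree.up_sound (ht : t.Ok) (hU : t.IsU U) {M P : ℕ} (hM : 0 < M) (hP : 0 < P)
    {S : ℕ → ℕ → ℕ} (hS : t.UpW M S)
    (hleaf : ∀ a, a < t.B ^ (t.r + 1) →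
      0 < U t.r a ∧ U t.r a ≤ ((S t.r a : ℝ) / P) ^ (t.R * M)) :
    ∀ j, j ≤ t.r → ∀ a, a < t.B ^ (j + 1) →
      0 < U j a ∧ U j a ≤ ((S j a : ℝ) / P) ^ (t.R * M) := by
  refine Tree.down_ind hleaf fun j hj ih a ha => ?_
  have hch := fun v (hv : v < t.B) => ih _ (Tree.child_lt ha hv)
  have hER : (0 : ℝ) ≤ (t.E j : ℝ) / t.R := by positivity
  have hG : (0 : ℝ) < t.G := by exact_mod_cast ht.G_pos
  have hP' : (0 : ℝ) < P := by exact_mod_cast hP
  refine ⟨Tree.step_pos ht hU hj ha fun v hv => (hch v hv).1, ?_⟩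
  refine Tree.step_le ht hU hj ha (by positivity) (fun v hv => (hch v hv).1.le) ?_
  rw [Tree.pow_conv (by positivity) ht.R_pos]
  calc _ ≤ ∑ v ∈ Finset.range t.B, (t.g j a v : ℝ) / (t.G : ℝ) *
          ((S (j + 1) (v + t.B * a) : ℝ) / P) ^ (M * t.E j) := by
        refine Finset.sum_le_sum fun v hv => mul_le_mul_of_nonneg_left ?_ Tree.w_nonneg
        rw [← Tree.pow_conv (by positivity) ht.R_pos]
        exact Real.rpow_le_rpow (hch v (Finset.mem_range.1 hv)).1.le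
          (hch v (Finset.mem_range.1 hv)).2 hER
    _ = ((∑ v ∈ Finset.range t.B, t.g j a v * S (j + 1) (v + t.B * a) ^ (M * t.E j) : ℕ) : ℝ) /
        (t.G * (P : ℝ) ^ (M * t.E j)) := Tree.sum_div ht (fun v => S (j + 1) (v + t.B * a))
    _ ≤ ((t.G * S j a ^ (M * t.E j) : ℕ) : ℝ) / (t.G * (P : ℝ) ^ (M * t.E j)) := by
        refine div_le_div_of_nonneg_right ?_ (by positivity)
        exact_mod_cast hS j hj a ha
    _ = ((S j a : ℝ) / P) ^ (M * t.E j) := by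
        push_cast
        rw [div_pow, mul_div_mul_left _ _ hG.ne']

theorem Tree.lo_sound (ht : t.Ok) (hU : t.IsU U) {M P : ℕ} (hM : 0 < M) (hP : 0 < P)
    {S : ℕ → ℕ → ℕ} (hS : t.LoW M S)
    (hleaf : ∀ a, a < t.B ^ (t.r + 1) →
      0 < U t.r a ∧ ((S t.r a : ℝ) / P) ^ (t.R * M) ≤ U t.r a) :
    ∀ j, j ≤ t.r → ∀ a, a < t.B ^ (j + 1) →
      0 < U j a ∧ ((S j a : ℝ) / P) ^ (t.R * M) ≤ U j a := by
  refine Tree.down_ind hleaf fun j hj ih a ha => ?_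
  have hch := fun v (hv : v < t.B) => ih _ (Tree.child_lt ha hv)
  have hER : (0 : ℝ) ≤ (t.E j : ℝ) / t.R := by positivity
  have hG : (0 : ℝ) < t.G := by exact_mod_cast ht.G_pos
  have hP' : (0 : ℝ) < P := by exact_mod_cast hP
  refine ⟨Tree.step_pos ht hU hj ha fun v hv => (hch v hv).1, ?_⟩
  refine Tree.le_step ht hU hj ha (by positivity) ?_
  rw [Tree.pow_conv (by positivity) ht.R_pos]
  calc ((S j a : ℝ) / P) ^ (M * t.E j)
      = ((t.G * S j a ^ (M * t.E j) : ℕ) : ℝ) / (t.G * (P : ℝ) ^ (M * t.E j)) := by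
        push_cast
        rw [div_pow, mul_div_mul_left _ _ hG.ne']
    _ ≤ ((∑ v ∈ Finset.range t.B, t.g j a v * S (j + 1) (v + t.B * a) ^ (M * t.E j) : ℕ) : ℝ) /
        (t.G * (P : ℝ) ^ (M * t.E j)) := by
        refine div_le_div_of_nonneg_right ?_ (by positivity)
        exact_mod_cast hS j hj a ha
    _ = ∑ v ∈ Finset.range t.B, (t.g j a v : ℝ) / (t.G : ℝ) *
          ((S (j + 1) (v + t.B * a) : ℝ) / P) ^ (M * t.E j) :=
        (Tree.sum_div ht (fun v => S (j + 1) (v + t.B * a))).symm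
    _ ≤ _ := by
        refine Finset.sum_le_sum fun v hv => mul_le_mul_of_nonneg_left ?_ Tree.w_nonneg
        rw [← Tree.pow_conv (by positivity) ht.R_pos]
        exact Real.rpow_le_rpow (by positivity) (hch v (Finset.mem_range.1 hv)).2 hER

/-! ### tables -/

/-- rounding -/
structure Rd (rd : ℝ → ℕ) : Prop where
  mono : Monotone rd
  nat : ∀ n : ℕ, rd n = n
  close : ∀ x, 0 ≤ x → |(rd x : ℝ) - x| ≤ 1

theorem Rd.ceil : Rd (fun x : ℝ => ⌈x⌉₊) := by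
  refine ⟨Nat.ceil_mono, Nat.ceil_natCast, fun x hx => ?_⟩
  have h1 := Nat.le_ceil x
  have h2 := Nat.ceil_lt_add_one hx
  rw [abs_le]; constructor <;> linarith

theorem Rd.floor : Rd (fun x : ℝ => ⌊x⌋₊) := by
  refine ⟨Nat.floor_mono, Nat.floor_natCast, fun x hx => ?_⟩
  have h1 := Nat.floor_le hx
  have h2 := Nat.lt_floor_add_one x
  rw [abs_le]; constructor <;> linarith

theorem Rd.lim {rd : ℝ → ℕ} (h : Rd rd) {x : ℕ → ℝ} (hx : ∀ P, 0 ≤ x P) {l : ℝ}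
    (hl : Tendsto x atTop (𝓝 l)) : Tendsto (fun P : ℕ => (rd (P * x P) : ℝ) / P) atTop (𝓝 l) := by
  have h1 : Tendsto (fun P : ℕ => (rd (P * x P) : ℝ) / P - x P) atTop (𝓝 0) := by
    refine squeeze_zero_norm' ?_ tendsto_one_div_atTop_nhds_zero_nat
    filter_upwards [eventually_gt_atTop 0] with P hP
    have hP' : (0 : ℝ) < P := by exact_mod_cast hP
    have h2 : (rd (P * x P) : ℝ) / P - x P = ((rd (P * x P) : ℝ) - P * x P) / P := by
      field_simp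
    rw [h2, Real.norm_eq_abs, abs_div, abs_of_pos hP']
    exact div_le_div_of_nonneg_right (h.close _ (mul_nonneg hP'.le (hx P))) hP'.le
  have := h1.add hl
  simpa using this

/-- the mean of the children -/
noncomputable def Tree.tabX (t : Tree) (M j : ℕ) (f : ℕ → ℕ) (a : ℕ) : ℝ :=
  ∑ v ∈ Finset.range t.B, (t.g j a v : ℝ) / (t.G : ℝ) * (f (v + t.B * a) : ℝ) ^ (M * t.E j)

/-- the table, counted from the leaves -/
noncomputable def Tree.tabD (t : Tree) (U : ℕ → ℕ → ℝ) (M : ℕ) (rd : ℝ → ℕ) (P : ℕ) :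
    ℕ → ℕ → ℕ
  | 0 => fun a => rd (P * (U t.r a) ^ (1 / ((t.R : ℝ) * M)))
  | (i + 1) => fun a => rd ((t.tabX M (t.r - (i + 1)) (Tree.tabD t U M rd P i) a) ^
      (1 / ((M : ℝ) * t.E (t.r - (i + 1)))))

/-- the table -/
noncomputable def Tree.tab (t : Tree) (U : ℕ → ℕ → ℝ) (M : ℕ) (rd : ℝ → ℕ) (P j : ℕ) : ℕ → ℕ :=
  Tree.tabD t U M rd P (t.r - j)

theorem Tree.tab_leaf (U : ℕ → ℕ → ℝ) (M : ℕ) (rd : ℝ → ℕ) (P a : ℕ) :
    t.tab U M rd P t.r a = rd (P * (U t.r a) ^ (1 / ((t.R : ℝ) * M))) := by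
  unfold Tree.tab
  rw [Nat.sub_self]
  rfl

theorem Tree.tab_step (U : ℕ → ℕ → ℝ) (M : ℕ) (rd : ℝ → ℕ) (P : ℕ) {j : ℕ} (hj : j < t.r) (a : ℕ) :
    t.tab U M rd P j a = rd ((t.tabX M j (t.tab U M rd P (j + 1)) a) ^
      (1 / ((M : ℝ) * t.E j))) := by
  unfold Tree.tab
  obtain ⟨i, hi⟩ : ∃ i, t.r - j = i + 1 := ⟨t.r - j - 1, by omega⟩
  have h1 : t.r - (j + 1) = i := by omega
  have h2 : t.r - (i + 1) = j := by omega
  rw [hi, h1]
  show rd ((t.tabX M (t.r - (i + 1)) (Tree.tabD t U M rd P i) a) ^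
      (1 / ((M : ℝ) * t.E (t.r - (i + 1))))) = _
  rw [h2]

theorem Tree.tabX_nonneg {M j : ℕ} {f : ℕ → ℕ} {a : ℕ} : 0 ≤ t.tabX M j f a :=
  Finset.sum_nonneg fun v _ => mul_nonneg Tree.w_nonneg (by positivity)

theorem Tree.tab_le (ht : t.Ok) {M : ℕ} (hM : 0 < M) {rd : ℝ → ℕ} (hrd : Rd rd)
    (hleaf : ∀ a, a < t.B ^ (t.r + 1) → 0 < U t.r a ∧ U t.r a ≤ 1) (P : ℕ) :
    ∀ j, j ≤ t.r → ∀ a, a < t.B ^ (j + 1) → t.tab U M rd P j a ≤ P := by
  refine Tree.down_ind (fun a ha => ?_) fun j hj ih a ha => ?_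
  · rw [Tree.tab_leaf, ← hrd.nat P]
    refine hrd.mono ?_
    have h1 : (U t.r a) ^ (1 / ((t.R : ℝ) * M)) ≤ 1 :=
      Real.rpow_le_one (hleaf a ha).1.le (hleaf a ha).2 (by positivity)
    rw [hrd.nat P]
    exact mul_le_of_le_one_right (Nat.cast_nonneg _) h1
  · rw [Tree.tab_step U M rd P hj]
    conv_rhs => rw [← hrd.nat P]
    refine hrd.mono ?_
    have hE : 0 < t.E j := ht.E_pos j hj
    have hME : ((M : ℝ) * t.E j) ≠ 0 := by
      have : 0 < M * t.E j := Nat.mul_pos hM hE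
      exact_mod_cast this.ne'
    have h1 : t.tabX M j (t.tab U M rd P (j + 1)) a ≤ (P : ℝ) ^ (M * t.E j) := by
      rw [← Tree.step_const ht hj ha ((P : ℝ) ^ (M * t.E j))]
      refine Finset.sum_le_sum fun v hv => mul_le_mul_of_nonneg_left ?_ Tree.w_nonneg
      refine pow_le_pow_left₀ (Nat.cast_nonneg _) ?_ _
      exact_mod_cast ih _ (Tree.child_lt ha (Finset.mem_range.1 hv))
    calc _ ≤ ((P : ℝ) ^ (M * t.E j)) ^ (1 / ((M : ℝ) * t.E j)) :=
          Real.rpow_le_rpow Tree.tabX_nonneg h1 (by positivity)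
      _ = P := by
          rw [← Real.rpow_natCast, ← Real.rpow_mul (Nat.cast_nonneg _)]
          push_cast
          rw [mul_one_div_cancel hME, Real.rpow_one]

theorem Tree.tab_lim (ht : t.Ok) (hU : t.IsU U) {M : ℕ} (hM : 0 < M) {rd : ℝ → ℕ} (hrd : Rd rd)
    (hleaf : ∀ a, a < t.B ^ (t.r + 1) → 0 < U t.r a) :
    ∀ j, j ≤ t.r → ∀ a, a < t.B ^ (j + 1) →
      Tendsto (fun P : ℕ => (t.tab U M rd P j a : ℝ) / P) atTop
          (𝓝 (U j a ^ (1 / ((t.R : ℝ) * M)))) := by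
  have hpos := Tree.U_pos ht hU hleaf
  have hR : (0 : ℝ) < t.R := by exact_mod_cast ht.R_pos
  have hM' : (0 : ℝ) < M := by exact_mod_cast hM
  refine Tree.down_ind (fun a ha => ?_) fun j hj ih a ha => ?_
  · simp only [Tree.tab_leaf]
    exact hrd.lim (fun _ => Real.rpow_nonneg (hleaf a ha).le _) tendsto_const_nhds
  · have hE : (0 : ℝ) < t.E j := by exact_mod_cast ht.E_pos j hj
    -- the averaged quantity
    have h1 : Tendsto (fun P : ℕ => ∑ v ∈ Finset.range t.B, (t.g j a v : ℝ) / (t.G : ℝ) *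
        ((t.tab U M rd P (j + 1) (v + t.B * a) : ℝ) / P) ^ (M * t.E j)) atTop
        (𝓝 (∑ v ∈ Finset.range t.B, (t.g j a v : ℝ) / (t.G : ℝ) *
          (U (j + 1) (v + t.B * a) ^ (1 / ((t.R : ℝ) * M))) ^ (M * t.E j))) := by
      refine tendsto_finset_sum _ fun v hv => ?_
      exact ((ih _ (Tree.child_lt ha (Finset.mem_range.1 hv))).pow _).const_mul _
    have h2 := h1.rpow_const (p := 1 / ((M : ℝ) * t.E j)) (Or.inr (by positivity))
    have h3 : (∑ v ∈ Finset.range t.B, (t.g j a v : ℝ) / (t.G : ℝ) *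
          (U (j + 1) (v + t.B * a) ^ (1 / ((t.R : ℝ) * M))) ^ (M * t.E j)) ^
            (1 / ((M : ℝ) * t.E j)) = U j a ^ (1 / ((t.R : ℝ) * M)) := by
      rw [hU j hj a ha, ← Real.rpow_mul]
      · have e1 : (t.R : ℝ) / t.E j * (1 / ((t.R : ℝ) * M)) = 1 / ((M : ℝ) * t.E j) := by
          field_simp
        rw [e1]
        congr 1
        refine Finset.sum_congr rfl fun v hv => ?_
        congr 1
        rw [← Real.rpow_natCast, ← Real.rpow_mul
          (hpos (j + 1) hj _ (Tree.child_lt ha (Finset.mem_range.1 hv))).le]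
        congr 1
        push_cast
        field_simp
      · exact Finset.sum_nonneg fun v hv => mul_nonneg Tree.w_nonneg (Real.rpow_nonneg
          (hpos (j + 1) hj _ (Tree.child_lt ha (Finset.mem_range.1 hv))).le _)
    rw [h3] at h2
    have h4 := hrd.lim (fun P => Real.rpow_nonneg (Finset.sum_nonneg fun v _ =>
      mul_nonneg Tree.w_nonneg (by positivity)) _) h2
    refine h4.congr' ?_
    filter_upwards [eventually_gt_atTop 0] with P hP
    have hP' : (0 : ℝ) < P := by exact_mod_cast hP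
    congr 2
    rw [Tree.tab_step U M rd P hj]
    congr 1
    have hME : ((M : ℝ) * t.E j) ≠ 0 := by positivity
    have h5 : t.tabX M j (t.tab U M rd P (j + 1)) a = (P : ℝ) ^ (M * t.E j) *
        ∑ v ∈ Finset.range t.B, (t.g j a v : ℝ) / (t.G : ℝ) *
          ((t.tab U M rd P (j + 1) (v + t.B * a) : ℝ) / P) ^ (M * t.E j) := by
      unfold Tree.tabX
      rw [Finset.mul_sum]
      refine Finset.sum_congr rfl fun v _ => ?_
      rw [div_pow]
      field_simp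
    rw [h5, Real.mul_rpow (by positivity) (Finset.sum_nonneg fun v _ =>
      mul_nonneg Tree.w_nonneg (by positivity))]
    congr 1
    rw [← Real.rpow_natCast, ← Real.rpow_mul hP'.le]
    push_cast
    rw [mul_one_div_cancel hME, Real.rpow_one]

/-- `∑ g f^(ME) = G tabX` -/
theorem Tree.tabX_eq (ht : t.Ok) (M j : ℕ) (f : ℕ → ℕ) (a : ℕ) :
    ((∑ v ∈ Finset.range t.B, t.g j a v * f (v + t.B * a) ^ (M * t.E j) : ℕ) : ℝ) =
      t.G * t.tabX M j f a := by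
  have hG : (t.G : ℝ) ≠ 0 := by exact_mod_cast ht.G_pos.ne'
  unfold Tree.tabX
  push_cast
  rw [Finset.mul_sum]
  refine Finset.sum_congr rfl fun v _ => ?_
  field_simp

theorem Tree.root_pow (ht : t.Ok) {M j : ℕ} (hM : 0 < M) (hj : j < t.r) {x : ℝ} (hx : 0 ≤ x) :
    (x ^ (1 / ((M : ℝ) * t.E j))) ^ (M * t.E j) = x := by
  have hME : ((M : ℝ) * t.E j) ≠ 0 := by
    have : 0 < M * t.E j := Nat.mul_pos hM (ht.E_pos j hj)
    exact_mod_cast this.ne'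
  rw [← Real.rpow_natCast, ← Real.rpow_mul hx]
  push_cast
  rw [one_div_mul_cancel hME, Real.rpow_one]

theorem Tree.leaf_pow (ht : t.Ok) {M : ℕ} (hM : 0 < M) {x : ℝ} (hx : 0 ≤ x) :
    (x ^ (1 / ((t.R : ℝ) * M))) ^ (t.R * M) = x := by
  have hME : ((t.R : ℝ) * M) ≠ 0 := by
    have : 0 < t.R * M := Nat.mul_pos ht.R_pos hM
    exact_mod_cast this.ne'
  rw [← Real.rpow_natCast, ← Real.rpow_mul hx]
  push_cast
  rw [one_div_mul_cancel hME, Real.rpow_one]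

theorem Tree.up_complete (ht : t.Ok) (hU : t.IsU U) {M : ℕ} (hM : 0 < M)
    (hleaf : ∀ a, a < t.B ^ (t.r + 1) → 0 < U t.r a ∧ U t.r a ≤ 1) :
    ∃ S : ℕ → ℕ → ℕ → ℕ, (∀ P, t.UpW M (S P)) ∧
      (∀ P, 0 < P → ∀ a, a < t.B ^ (t.r + 1) → U t.r a ≤ ((S P t.r a : ℝ) / P) ^ (t.R * M)) ∧
      (∀ P j, j ≤ t.r → ∀ a, a < t.B ^ (j + 1) → S P j a ≤ P) ∧
      (∀ j, j ≤ t.r → ∀ a, a < t.B ^ (j + 1) →
        Tendsto (fun P : ℕ => (S P j a : ℝ) / P) atTop
          (𝓝 (U j a ^ (1 / ((t.R : ℝ) * M))))) := by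
  have hG : (0 : ℝ) < t.G := by exact_mod_cast ht.G_pos
  refine ⟨t.tab U M (fun x => ⌈x⌉₊), fun P j hj a ha => ?_, fun P hP a ha => ?_,
    fun P => Tree.tab_le ht hM Rd.ceil hleaf P,
    Tree.tab_lim ht hU hM Rd.ceil fun a ha => (hleaf a ha).1⟩
  · have h1 := Tree.tabX_eq ht M j (t.tab U M (fun x => ⌈x⌉₊) P (j + 1)) a
    have h2 : t.tabX M j (t.tab U M (fun x => ⌈x⌉₊) P (j + 1)) a ≤
        (t.tab U M (fun x => ⌈x⌉₊) P j a : ℝ) ^ (M * t.E j) := by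
      rw [Tree.tab_step U M _ P hj]
      conv_lhs => rw [← Tree.root_pow ht hM hj (Tree.tabX_nonneg (t := t))]
      exact pow_le_pow_left₀ (Real.rpow_nonneg Tree.tabX_nonneg _) (Nat.le_ceil _) _
    have h3 := mul_le_mul_of_nonneg_left h2 hG.le
    rw [← h1] at h3
    exact_mod_cast h3
  · have hP' : (0 : ℝ) < P := by exact_mod_cast hP
    rw [Tree.tab_leaf]
    have h0 := (hleaf a ha).1.le
    conv_lhs => rw [← Tree.leaf_pow ht hM h0]
    refine pow_le_pow_left₀ (Real.rpow_nonneg h0 _) ?_ _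
    rw [le_div_iff₀ hP', mul_comm]
    exact Nat.le_ceil _

theorem Tree.lo_complete (ht : t.Ok) (hU : t.IsU U) {M : ℕ} (hM : 0 < M)
    (hleaf : ∀ a, a < t.B ^ (t.r + 1) → 0 < U t.r a ∧ U t.r a ≤ 1) :
    ∃ S : ℕ → ℕ → ℕ → ℕ, (∀ P, t.LoW M (S P)) ∧
      (∀ P, 0 < P → ∀ a, a < t.B ^ (t.r + 1) → ((S P t.r a : ℝ) / P) ^ (t.R * M) ≤ U t.r a) ∧
      (∀ P j, j ≤ t.r → ∀ a, a < t.B ^ (j + 1) → S P j a ≤ P) ∧
      (∀ j, j ≤ t.r → ∀ a, a < t.B ^ (j + 1) →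
        Tendsto (fun P : ℕ => (S P j a : ℝ) / P) atTop
          (𝓝 (U j a ^ (1 / ((t.R : ℝ) * M))))) := by
  have hG : (0 : ℝ) < t.G := by exact_mod_cast ht.G_pos
  refine ⟨t.tab U M (fun x => ⌊x⌋₊), fun P j hj a ha => ?_, fun P hP a ha => ?_,
    fun P => Tree.tab_le ht hM Rd.floor hleaf P,
    Tree.tab_lim ht hU hM Rd.floor fun a ha => (hleaf a ha).1⟩
  · have h1 := Tree.tabX_eq ht M j (t.tab U M (fun x => ⌊x⌋₊) P (j + 1)) a
    have h2 : (t.tab U M (fun x => ⌊x⌋₊) P j a : ℝ) ^ (M * t.E j) ≤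
        t.tabX M j (t.tab U M (fun x => ⌊x⌋₊) P (j + 1)) a := by
      rw [Tree.tab_step U M _ P hj]
      conv_rhs => rw [← Tree.root_pow ht hM hj (Tree.tabX_nonneg (t := t))]
      exact pow_le_pow_left₀ (Nat.cast_nonneg _)
        (Nat.floor_le (Real.rpow_nonneg Tree.tabX_nonneg _)) _
    have h3 := mul_le_mul_of_nonneg_left h2 hG.le
    rw [← h1] at h3
    exact_mod_cast h3
  · have hP' : (0 : ℝ) < P := by exact_mod_cast hP
    rw [Tree.tab_leaf]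
    have h0 := (hleaf a ha).1.le
    conv_rhs => rw [← Tree.leaf_pow ht hM h0]
    refine pow_le_pow_left₀ (by positivity) ?_ _
    rw [div_le_iff₀ hP', mul_comm]
    exact Nat.floor_le (mul_nonneg (Real.rpow_nonneg h0 _) hP'.le)

end Crest.Agent.KS.UC
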