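import Crest.Agent.KS_Leaf
import Crest.Agent.KS_Tree
import Crest.Agent.SGG_Pois

/-!
# KS-Cert : upper certificates, soundness (medium)

A certificate that `functional (core3 D) (q / 2^s) (T.trial) < 0`. All conditions are inequalities
between natural numbers.
-/

set_option autoImplicit false

open Crest.ProbabilityR.Diluted
open Crest.Agent.SGG
open Finset

namespace Crest.Agent.KS.UC

structure Cert where
  T : RT
  D : ℕ
  M : ℕ
  P : ℕ
  K : ℕ
  n : ℕ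
  Z : ℕ
  H : ℕ
  wt : ℕ → ℕ
  Gk : ℕ → ℕ
  S : ℕ → ℕ → ℕ → ℕ → ℕ
  Se : ℕ → ℕ → ℕ → ℕ
  V : ℕ → ℕ → ℕ

structure Cert.Ok (q s : ℕ) (c : Cert) : Prop where
  valid : c.T.Valid
  hD : 2 ≤ c.D
  hM : 0 < c.M
  hP : 0 < c.P
  hn : 0 < c.n ∧ 3 * q ≤ c.n * 2 ^ s
  /-- `2 ≤ (Z/P)^M`, so `log 2 ≤ M (Z - P) / P` -/
  hZ : 2 * c.P ^ c.M ≤ c.Z ^ c.M
  /-- `wt k / P ≤ (1 - λ/n)^n λ^k / k!`, `λ = 3 q / 2^s` -/
  hwt : ∀ k, k < c.K → c.wt k * ((c.n * 2 ^ s) ^ c.n * 2 ^ (s * k) * k.factorial) ≤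
    c.P * ((c.n * 2 ^ s - 3 * q) ^ c.n * (3 * q) ^ k)
  site_node : ∀ k, k < c.K → ∀ e, e < 8 ^ k → ∀ j, j < c.T.r →
    ∀ a, a < (c.T.nS ^ (k * 2)) ^ (j + 1) →
      ∑ v ∈ range (c.T.nS ^ (k * 2)), kw c.T (k * 2) (j + 1) a v *
        c.S k e (j + 1) (v + c.T.nS ^ (k * 2) * a) ^ (c.M * c.T.E j) ≤
      c.T.Q ^ (k * 2) * c.S k e j a ^ (c.M * c.T.E j)
  site_leaf : ∀ k, k < c.K → ∀ e, e < 8 ^ k → ∀ a, a < (c.T.nS ^ (k * 2)) ^ (c.T.r + 1) →
    siteNum c.T c.D k e a * c.P ^ (c.T.R * c.M) ≤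
      2 * (c.D * c.T.Q ^ 2) ^ k * c.S k e c.T.r a ^ (c.T.R * c.M)
  site_top : ∀ k, k < c.K → ∀ e, e < 8 ^ k → ∀ a, a < c.T.nS ^ (k * 2) → c.S k e 0 a ≤ c.P
  site_sum : ∀ k, k < c.K → c.Gk k * (8 ^ k * c.T.Q ^ (k * 2)) ≤
    ∑ e ∈ range (8 ^ k), ∑ a ∈ range (c.T.nS ^ (k * 2)),
      kw c.T (k * 2) 0 0 a * (c.P - c.S k e 0 a)
  edge_node : ∀ e, e < 8 → ∀ j, j < c.T.r → ∀ a, a < (c.T.nS ^ 3) ^ (j + 1) →
    c.T.Q ^ 3 * c.Se e j a ^ (c.M * c.T.E j) ≤
      ∑ v ∈ range (c.T.nS ^ 3), kw c.T 3 (j + 1) a v *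
        c.Se e (j + 1) (v + c.T.nS ^ 3 * a) ^ (c.M * c.T.E j)
  edge_leaf : ∀ e, e < 8 → ∀ a, a < (c.T.nS ^ 3) ^ (c.T.r + 1) →
    c.D * c.T.Q ^ 3 * c.Se e c.T.r a ^ (c.T.R * c.M) ≤
      edgeNum c.T c.D e a * c.P ^ (c.T.R * c.M)
  edge_top : ∀ e, e < 8 → ∀ a, a < c.T.nS ^ 3 →
    0 < c.Se e 0 a ∧ c.P * c.P ≤ c.Se e 0 a * c.V e a
  edge_sum : ∑ e ∈ range 8, ∑ a ∈ range (c.T.nS ^ 3), kw c.T 3 0 0 a * (c.V e a - c.P) ≤
    c.H * (8 * c.T.Q ^ 3)
  final : c.M * (c.Z - c.P) * c.P * 2 ^ s + 2 * q * c.T.R * c.M * c.H * c.P <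
    2 ^ s * c.T.R * c.M * ∑ k ∈ range c.K, c.wt k * c.Gk k

/-- the tree of the site term with `k` clauses (`l = k * 2`) or of the edge term (`l = 3`) -/
def RT.tree (T : RT) (l : ℕ) : Tree where
  r := T.r
  B := T.nS ^ l
  R := T.R
  G := T.Q ^ l
  E := T.E
  g := fun j a v => kw T l (j + 1) a v

theorem tree_ok {T : RT} (h : T.Valid) (l : ℕ) : (T.tree l).Ok where
  B_pos := pow_pos h.nS_pos l
  R_pos := h.R_pos
  G_pos := pow_pos h.Q_pos l
  E_pos := fun j hj => (h.E_pos j hj).1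
  g_sum := fun j hj a _ => kw_sum h (l := l) (j := j + 1) (by
    have : j < T.r := hj
    omega) a

theorem isU_site {T : RT} (h : T.Valid) {D : ℕ} (hD : 2 ≤ D) (k e : ℕ) :
    (T.tree (k * 2)).IsU (Us T h D hD k e) := by
  intro j hj a _
  exact TT_step h (finProdFinEquiv : Fin k × Fin 2 ≃ Fin (k * 2)) (siteW T h D hD k e) hj a

theorem isU_edge {T : RT} (h : T.Valid) {D : ℕ} (hD : 2 ≤ D) (e : ℕ) :
    (T.tree 3).IsU (Ue T h D hD e) := by
  intro j hj a _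
  exact TT_step h (Equiv.refl (Fin 3)) (edgeW T h D hD e) hj a

private theorem Us_leaf {T : RT} (h : T.Valid) {D : ℕ} (hD : 2 ≤ D) (k e a : ℕ) :
    Us T h D hD k e T.r a = (siteNum T D k e a : ℝ) / ((2 * (D * T.Q ^ 2) ^ k : ℕ) : ℝ) := by
  unfold Us
  rw [TT_last]
  exact siteW_leaf h hD k e a

private theorem Ue_leaf {T : RT} (h : T.Valid) {D : ℕ} (hD : 2 ≤ D) (e a : ℕ) :
    Ue T h D hD e T.r a = (edgeNum T D e a : ℝ) / ((D * T.Q ^ 3 : ℕ) : ℝ) := by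
  unfold Ue
  rw [TT_last]
  exact edgeW_leaf h hD e a

/-- `D^{-k} ≤ Us ≤ 1` -/
theorem Us_bounds {T : RT} (h : T.Valid) {D : ℕ} (hD : 2 ≤ D) (k e : ℕ) {j : ℕ} (hj : j ≤ T.r)
    {a : ℕ} (ha : a < (T.nS ^ (k * 2)) ^ (j + 1)) :
    (1 / (D : ℝ)) ^ k ≤ Us T h D hD k e j a ∧ Us T h D hD k e j a ≤ 1 := by
  have hD0 : (0 : ℝ) < D := by
    have : 0 < D := by omega
    exact_mod_cast this
  refine Tree.U_bounds (t := T.tree (k * 2)) (tree_ok h _) (isU_site h hD k e)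
    (by positivity) ?_ j hj a ha
  intro b _
  have hr : (T.tree (k * 2)).r = T.r := rfl
  rw [hr, Us_leaf h hD k e b]
  have hQ : 0 < T.Q := h.Q_pos
  have hden : (0 : ℝ) < ((2 * (D * T.Q ^ 2) ^ k : ℕ) : ℝ) := by
    have : 0 < 2 * (D * T.Q ^ 2) ^ k := by
      have : 0 < D := by omega
      positivity
    exact_mod_cast this
  constructor
  · rw [le_div_iff₀ hden, one_div, inv_pow, inv_mul_le_iff₀ (by positivity)]
    have := siteNum_ge h hD k e b
    exact_mod_cast this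
  · rw [div_le_one hden]
    exact_mod_cast siteNum_le D k e b

private theorem edgeNum_ge {T : RT} (h : T.Valid) {D : ℕ} (hD : 2 ≤ D) (e a : ℕ) :
    T.Q ^ 3 ≤ edgeNum T D e a := by
  unfold edgeNum
  have h1 : ∏ i ∈ Finset.range 3,
    nv T.Q (dg 2 e i) (T.x (lab T.nS 3 i (T.r + 1) a)) ≤ T.Q ^ 3 := by
    calc ∏ i ∈ Finset.range 3, nv T.Q (dg 2 e i) (T.x (lab T.nS 3 i (T.r + 1) a))
        ≤ ∏ _i ∈ Finset.range 3, T.Q := by
          apply Finset.prod_le_prod' (fun i _ => ?_)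
          exact nv_le (h.x_pos _ (lab_lt h.nS_pos _ _ _ _)).2
      _ = T.Q ^ 3 := by simp
  have h2 : (D - 1) * ∏ i ∈ Finset.range 3,
    nv T.Q (dg 2 e i) (T.x (lab T.nS 3 i (T.r + 1) a)) ≤ (D - 1) * T.Q ^ 3 :=
    Nat.mul_le_mul_left _ h1
  have h3 : D * T.Q ^ 3 = (D - 1) * T.Q ^ 3 + T.Q ^ 3 := by
    have : D = (D - 1) + 1 := by omega
    nth_rewrite 1 [this]
    ring
  omega

theorem Ue_bounds {T : RT} (h : T.Valid) {D : ℕ} (hD : 2 ≤ D) (e : ℕ) {j : ℕ} (hj : j ≤ T.r)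
    {a : ℕ} (ha : a < (T.nS ^ 3) ^ (j + 1)) :
    1 / (D : ℝ) ≤ Ue T h D hD e j a ∧ Ue T h D hD e j a ≤ 1 := by
  have hDn : 0 < D := by omega
  have hD0 : (0 : ℝ) < D := by exact_mod_cast hDn
  refine Tree.U_bounds (t := T.tree 3) (tree_ok h _) (isU_edge h hD e)
    (by positivity) ?_ j hj a ha
  intro b _
  have hr : (T.tree 3).r = T.r := rfl
  rw [hr, Ue_leaf h hD e b]
  have hQ : 0 < T.Q := h.Q_pos
  have hden : (0 : ℝ) < ((D * T.Q ^ 3 : ℕ) : ℝ) := by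
    have : 0 < D * T.Q ^ 3 := by positivity
    exact_mod_cast this
  constructor
  · rw [le_div_iff₀ hden, one_div, inv_mul_le_iff₀ hD0]
    have := edgeNum_ge h hD e b
    have h2 : D * T.Q ^ 3 ≤ D * edgeNum T D e b := Nat.mul_le_mul_left _ this
    exact_mod_cast h2
  · rw [div_le_one hden]
    exact_mod_cast edgeNum_le D e b

private theorem kw_total {T : RT} (h : T.Valid) (l : ℕ) :
    ∑ a ∈ range (T.nS ^ l), (kw T l 0 0 a : ℝ) = (T.Q : ℝ) ^ l := by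
  have := kw_sum h (l := l) (j := 0) (by omega) 0
  exact_mod_cast this

private theorem double_total {T : RT} (h : T.Valid) (n l : ℕ) (c : ℝ) :
    (∑ _e ∈ range n, ∑ a ∈ range (T.nS ^ l), (kw T l 0 0 a : ℝ) * c) = n * (T.Q : ℝ) ^ l * c := by
  have h1 : ∀ e ∈ range n, ∑ a ∈ range (T.nS ^ l), (kw T l 0 0 a : ℝ) * c = (T.Q : ℝ) ^ l * c := by
    intro e _
    rw [← Finset.sum_mul, kw_total h l]
  rw [Finset.sum_congr rfl h1, Finset.sum_const, card_range, nsmul_eq_mul]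
  ring

/-- `- k log D ≤ As k ≤ 0` -/
theorem As_bounds {T : RT} (h : T.Valid) {D : ℕ} (hD : 2 ≤ D) (k : ℕ) :
    -(k * Real.log D) ≤ As T h D hD k ∧ As T h D hD k ≤ 0 := by
  have hDn : 0 < D := by omega
  have hD0 : (0 : ℝ) < D := by exact_mod_cast hDn
  have hQ : (0 : ℝ) < T.Q := by exact_mod_cast h.Q_pos
  have hden : (0 : ℝ) < 8 ^ k * (T.Q : ℝ) ^ (k * 2) := by positivity
  have hb : ∀ e a : ℕ, a < T.nS ^ (k * 2) →
      -(k * Real.log D) ≤ Real.log (Us T h D hD k e 0 a) ∧ Real.log (Us T h D hD k e 0 a) ≤ 0 := by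
    intro e a ha
    obtain ⟨h1, h2⟩ := Us_bounds h hD k e (j := 0) (Nat.zero_le _) (a := a) (by simpa using ha)
    have h0 : 0 < (1 / (D : ℝ)) ^ k := by positivity
    constructor
    · have := Real.log_le_log h0 h1
      rw [Real.log_pow, one_div, Real.log_inv] at this
      linarith
    · exact Real.log_nonpos (h0.le.trans h1) h2
  unfold As
  constructor
  · rw [le_div_iff₀ hden]
    have h1 := double_total h (8 ^ k) (k * 2) (-(k * Real.log D))
    have h2 : -(k * Real.log D) * (8 ^ k * (T.Q : ℝ) ^ (k * 2)) =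
      ∑ _e ∈ range (8 ^ k), ∑ a ∈ range (T.nS ^ (k * 2)),
        (kw T (k * 2) 0 0 a : ℝ) * (-(k * Real.log D)) := by
      rw [h1]; push_cast; ring
    rw [h2]
    refine Finset.sum_le_sum fun e _ => Finset.sum_le_sum fun a ha => ?_
    exact mul_le_mul_of_nonneg_left (hb e a (mem_range.mp ha)).1 (Nat.cast_nonneg _)
  · apply div_nonpos_of_nonpos_of_nonneg _ hden.le
    refine Finset.sum_nonpos fun e _ => Finset.sum_nonpos fun a ha => ?_
    exact mul_nonpos_of_nonneg_of_nonpos (Nat.cast_nonneg _) (hb e a (mem_range.mp ha)).2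

/-- `wt k / P` is a lower bound of the Poisson weight -/
theorem Cert.Ok.wt_le {q s : ℕ} {c : Cert} (h : c.Ok q s) {k : ℕ} (hk : k < c.K) :
    (c.wt k : ℝ) / c.P ≤ poissonWeight ((q : ℝ) / 2 ^ s * 3) k := by
  have hP : (0 : ℝ) < c.P := by exact_mod_cast h.hP
  obtain ⟨hn, hqn⟩ := h.hn
  have hn0 : (0 : ℝ) < c.n := by exact_mod_cast hn
  have hw := h.hwt k hk
  set lam : ℝ := (q : ℝ) / 2 ^ s * 3 with hlam
  have hlam0 : 0 ≤ lam := by positivity
  have hqn' : (3 * (q : ℝ)) ≤ c.n * 2 ^ s := by exact_mod_cast hqn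
  have hlam1 : lam / c.n ≤ 1 := by
    rw [div_le_one hn0, hlam, div_mul_eq_mul_div, div_le_iff₀ (by positivity)]
    linarith
  -- real version of `hwt`
  have hw' : (c.wt k : ℝ) * ((c.n * 2 ^ s) ^ c.n * 2 ^ (s * k) * k.factorial) ≤
      c.P * ((c.n * 2 ^ s - 3 * q) ^ c.n * (3 * q) ^ k) := by
    have h1 : ((c.n * 2 ^ s - 3 * q : ℕ) : ℝ) = (c.n : ℝ) * 2 ^ s - 3 * q := by
      rw [Nat.cast_sub hqn]; push_cast; ring
    have h2 : ((c.wt k * ((c.n * 2 ^ s) ^ c.n * 2 ^ (s * k) * k.factorial) : ℕ) : ℝ) ≤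
      ((c.P * ((c.n * 2 ^ s - 3 * q) ^ c.n * (3 * q) ^ k) : ℕ) : ℝ) := by exact_mod_cast hw
    rw [Nat.cast_mul, Nat.cast_mul c.P, Nat.cast_mul, Nat.cast_mul, Nat.cast_mul,
      Nat.cast_pow, Nat.cast_pow, Nat.cast_pow, Nat.cast_pow, h1] at h2
    push_cast at h2
    exact h2
  rw [div_le_iff₀ hP]
  unfold poissonWeight
  have hfac : (0 : ℝ) < (k.factorial : ℝ) := by positivity
  have h3 : (c.wt k : ℝ) ≤ c.P * ((1 - lam / c.n) ^ c.n * lam ^ k / k.factorial) := by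
    have h4 : (1 - lam / c.n) ^ c.n * lam ^ k / k.factorial =
      ((c.n * 2 ^ s - 3 * q) ^ c.n * (3 * q) ^ k) /
        ((c.n * 2 ^ s) ^ c.n * 2 ^ (s * k) * k.factorial) := by
      have h5 : (1 - lam / c.n) = ((c.n : ℝ) * 2 ^ s - 3 * q) / (c.n * 2 ^ s) := by
        rw [hlam]; field_simp
      have h6 : lam = 3 * q / 2 ^ s := by rw [hlam]; ring
      rw [h5, div_pow, h6, div_pow, ← pow_mul]
      field_simp
    rw [h4, ← mul_div_assoc, le_div_iff₀ (by positivity)]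
    exact hw'
  have h7 : (1 - lam / c.n) ^ c.n ≤ Real.exp (-lam) := by
    have h8 : 1 - lam / c.n ≤ Real.exp (-(lam / c.n)) := by
      have := Real.add_one_le_exp (-(lam / c.n))
      linarith
    calc (1 - lam / c.n) ^ c.n ≤ (Real.exp (-(lam / c.n))) ^ c.n :=
          pow_le_pow_left₀ (by linarith) h8 _
      _ = Real.exp (-lam) := by
          rw [← Real.exp_nat_mul]
          congr 1
          field_simp
  calc (c.wt k : ℝ) ≤ c.P * ((1 - lam / c.n) ^ c.n * lam ^ k / k.factorial) := h3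
    _ ≤ c.P * (Real.exp (-lam) * lam ^ k / k.factorial) := by
        gcongr
    _ = Real.exp (-lam) * lam ^ k / k.factorial * c.P := by ring

theorem Cert.Ok.As_le {q s : ℕ} {c : Cert} (h : c.Ok q s) {k : ℕ} (hk : k < c.K) :
    As c.T h.valid c.D h.hD k ≤ -((c.T.R : ℝ) * c.M * c.Gk k / c.P) := by
  have hP : (0 : ℝ) < c.P := by exact_mod_cast h.hP
  have hQ : (0 : ℝ) < c.T.Q := by exact_mod_cast h.valid.Q_pos
  have hden : (0 : ℝ) < 8 ^ k * (c.T.Q : ℝ) ^ (k * 2) := by positivity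
  -- bound of the logarithm
  have hlog : ∀ e, e < 8 ^ k → ∀ a, a < c.T.nS ^ (k * 2) →
      Real.log (Us c.T h.valid c.D h.hD k e 0 a) ≤
        -((c.T.R : ℝ) * c.M / c.P * ((c.P - c.S k e 0 a : ℕ) : ℝ)) := by
    intro e he a ha
    have hup := Tree.up_sound (t := c.T.tree (k * 2)) (tree_ok h.valid _)
      (isU_site h.valid h.hD k e) (M := c.M) (P := c.P) h.hM h.hP (S := c.S k e)
      (fun j hj a ha => h.site_node k hk e he j hj a ha)
      (by
        intro b hb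
        have hr : (c.T.tree (k * 2)).r = c.T.r := rfl
        have hR : (c.T.tree (k * 2)).R = c.T.R := rfl
        have hb' : b < (c.T.nS ^ (k * 2)) ^ (c.T.r + 1) := hb
        rw [hr, hR, Us_leaf h.valid h.hD k e b]
        have hDn : 0 < c.D := by have := h.hD; omega
        have hden2 : (0 : ℝ) < ((2 * (c.D * c.T.Q ^ 2) ^ k : ℕ) : ℝ) := by
          have : 0 < 2 * (c.D * c.T.Q ^ 2) ^ k := by
            have := h.valid.Q_pos
            positivity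
          exact_mod_cast this
        constructor
        · have := siteNum_pos h.valid h.hD k e b
          have h2 : (0 : ℝ) < (siteNum c.T c.D k e b : ℝ) := by exact_mod_cast this
          positivity
        · rw [div_pow, div_le_div_iff₀ hden2 (by positivity)]
          have := h.site_leaf k hk e he b hb'
          have h2 : siteNum c.T c.D k e b * c.P ^ (c.T.R * c.M) ≤
            c.S k e c.T.r b ^ (c.T.R * c.M) * (2 * (c.D * c.T.Q ^ 2) ^ k) := by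
            rw [mul_comm (c.S k e c.T.r b ^ (c.T.R * c.M))]
            exact this
          exact_mod_cast h2)
      0 (Nat.zero_le _) a (by
        show a < (c.T.nS ^ (k * 2)) ^ (0 + 1)
        simpa using ha)
    have hR : (c.T.tree (k * 2)).R = c.T.R := rfl
    rw [hR] at hup
    obtain ⟨h1, h2⟩ := hup
    have hSP := h.site_top k hk e he a ha
    have hSpos : (0 : ℝ) < (c.S k e 0 a : ℝ) / c.P := by
      by_contra hneg
      have h3 : (c.S k e 0 a : ℝ) / c.P = 0 := by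
        have : (0 : ℝ) ≤ (c.S k e 0 a : ℝ) / c.P := by positivity
        linarith
      rw [h3, zero_pow (Nat.mul_pos h.valid.R_pos h.hM).ne'] at h2
      linarith
    calc Real.log (Us c.T h.valid c.D h.hD k e 0 a)
        ≤ Real.log (((c.S k e 0 a : ℝ) / c.P) ^ (c.T.R * c.M)) := Real.log_le_log h1 h2
      _ = (c.T.R * c.M : ℕ) * Real.log ((c.S k e 0 a : ℝ) / c.P) := Real.log_pow _ _
      _ ≤ (c.T.R * c.M : ℕ) * ((c.S k e 0 a : ℝ) / c.P - 1) :=
          mul_le_mul_of_nonneg_left (Real.log_le_sub_one_of_pos hSpos) (Nat.cast_nonneg _)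
      _ = -((c.T.R : ℝ) * c.M / c.P * ((c.P - c.S k e 0 a : ℕ) : ℝ)) := by
          rw [Nat.cast_sub hSP]
          push_cast
          field_simp
          ring
  unfold As
  rw [div_le_iff₀ hden]
  have hsum : (∑ e ∈ range (8 ^ k), ∑ a ∈ range (c.T.nS ^ (k * 2)),
      (kw c.T (k * 2) 0 0 a : ℝ) * Real.log (Us c.T h.valid c.D h.hD k e 0 a)) ≤
      -((c.T.R : ℝ) * c.M / c.P *
        ((∑ e ∈ range (8 ^ k), ∑ a ∈ range (c.T.nS ^ (k * 2)),
          kw c.T (k * 2) 0 0 a * (c.P - c.S k e 0 a) : ℕ) : ℝ)) := by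
    rw [Nat.cast_sum, Finset.mul_sum, ← Finset.sum_neg_distrib]
    refine Finset.sum_le_sum fun e he => ?_
    rw [Nat.cast_sum, Finset.mul_sum, ← Finset.sum_neg_distrib]
    refine Finset.sum_le_sum fun a ha => ?_
    have := mul_le_mul_of_nonneg_left (hlog e (mem_range.mp he) a (mem_range.mp ha))
      (Nat.cast_nonneg (α := ℝ) (kw c.T (k * 2) 0 0 a))
    refine this.trans (le_of_eq ?_)
    rw [Nat.cast_mul]
    ring
  refine hsum.trans ?_
  have h5 := h.site_sum k hk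
  have h6 : (c.Gk k : ℝ) * (8 ^ k * (c.T.Q : ℝ) ^ (k * 2)) ≤
      ((∑ e ∈ range (8 ^ k), ∑ a ∈ range (c.T.nS ^ (k * 2)),
          kw c.T (k * 2) 0 0 a * (c.P - c.S k e 0 a) : ℕ) : ℝ) := by
    exact_mod_cast h5
  have h7 := mul_le_mul_of_nonneg_left h6
    (show (0 : ℝ) ≤ (c.T.R : ℝ) * c.M / c.P by positivity)
  have h8 : -((c.T.R : ℝ) * c.M * c.Gk k / c.P) * (8 ^ k * (c.T.Q : ℝ) ^ (k * 2)) =
    -((c.T.R : ℝ) * c.M / c.P * ((c.Gk k : ℝ) * (8 ^ k * (c.T.Q : ℝ) ^ (k * 2)))) := by ring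
  rw [h8]
  linarith

theorem Cert.Ok.Ae_ge {q s : ℕ} {c : Cert} (h : c.Ok q s) :
    -((c.T.R : ℝ) * c.M * c.H / c.P) ≤ Ae c.T h.valid c.D h.hD := by
  have hP : (0 : ℝ) < c.P := by exact_mod_cast h.hP
  have hQ : (0 : ℝ) < c.T.Q := by exact_mod_cast h.valid.Q_pos
  have hden : (0 : ℝ) < 8 * (c.T.Q : ℝ) ^ 3 := by positivity
  have hlog : ∀ e, e < 8 → ∀ a, a < c.T.nS ^ 3 →
      -((c.T.R : ℝ) * c.M / c.P * ((c.V e a - c.P : ℕ) : ℝ)) ≤
        Real.log (Ue c.T h.valid c.D h.hD e 0 a) := by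
    intro e he a ha
    have hlo := Tree.lo_sound (t := c.T.tree 3) (tree_ok h.valid _)
      (isU_edge h.valid h.hD e) (M := c.M) (P := c.P) h.hM h.hP (S := c.Se e)
      (fun j hj a ha => h.edge_node e he j hj a ha)
      (by
        intro b hb
        have hr : (c.T.tree 3).r = c.T.r := rfl
        have hR : (c.T.tree 3).R = c.T.R := rfl
        have hb' : b < (c.T.nS ^ 3) ^ (c.T.r + 1) := hb
        rw [hr, hR, Ue_leaf h.valid h.hD e b]
        have hDn : 0 < c.D := by have := h.hD; omega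
        have hden2 : (0 : ℝ) < ((c.D * c.T.Q ^ 3 : ℕ) : ℝ) := by
          have : 0 < c.D * c.T.Q ^ 3 := by
            have := h.valid.Q_pos
            positivity
          exact_mod_cast this
        constructor
        · have := edgeNum_pos h.valid h.hD e b
          have h2 : (0 : ℝ) < (edgeNum c.T c.D e b : ℝ) := by exact_mod_cast this
          positivity
        · rw [div_pow, div_le_div_iff₀ (by positivity) hden2]
          have := h.edge_leaf e he b hb'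
          have h2 : c.Se e c.T.r b ^ (c.T.R * c.M) * (c.D * c.T.Q ^ 3) ≤
            edgeNum c.T c.D e b * c.P ^ (c.T.R * c.M) := by
            rw [mul_comm (c.Se e c.T.r b ^ (c.T.R * c.M))]
            exact this
          exact_mod_cast h2)
      0 (Nat.zero_le _) a (by
        show a < (c.T.nS ^ 3) ^ (0 + 1)
        simpa using ha)
    have hR : (c.T.tree 3).R = c.T.R := rfl
    rw [hR] at hlo
    obtain ⟨h1, h2⟩ := hlo
    obtain ⟨hS0, hSV⟩ := h.edge_top e he a ha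
    have hS0' : (0 : ℝ) < (c.Se e 0 a : ℝ) := by exact_mod_cast hS0
    have hSpos : (0 : ℝ) < (c.Se e 0 a : ℝ) / c.P := by positivity
    have hV : (c.P : ℝ) / c.Se e 0 a ≤ (c.V e a : ℝ) / c.P := by
      rw [div_le_div_iff₀ hS0' hP]
      have : c.P * c.P ≤ c.V e a * c.Se e 0 a := by rw [mul_comm (c.V e a)]; exact hSV
      exact_mod_cast this
    have hsubge : (c.V e a : ℝ) - c.P ≤ ((c.V e a - c.P : ℕ) : ℝ) := by
      rcases le_total c.P (c.V e a) with hle | hle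
      · rw [Nat.cast_sub hle]
      · have : (c.V e a : ℝ) ≤ c.P := by exact_mod_cast hle
        have h0 : (0 : ℝ) ≤ ((c.V e a - c.P : ℕ) : ℝ) := Nat.cast_nonneg _
        linarith
    have hlogS : 1 - (c.P : ℝ) / c.Se e 0 a ≤ Real.log ((c.Se e 0 a : ℝ) / c.P) := by
      have := Real.one_sub_inv_le_log_of_pos hSpos
      rwa [inv_div] at this
    have h3 : 1 - (c.V e a : ℝ) / c.P ≤ Real.log ((c.Se e 0 a : ℝ) / c.P) := by linarith
    calc -((c.T.R : ℝ) * c.M / c.P * ((c.V e a - c.P : ℕ) : ℝ))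
        ≤ -((c.T.R : ℝ) * c.M / c.P * ((c.V e a : ℝ) - c.P)) := by
          have := mul_le_mul_of_nonneg_left hsubge
            (show (0 : ℝ) ≤ (c.T.R : ℝ) * c.M / c.P by positivity)
          linarith
      _ = (c.T.R * c.M : ℕ) * (1 - (c.V e a : ℝ) / c.P) := by
          push_cast
          field_simp
          ring
      _ ≤ (c.T.R * c.M : ℕ) * Real.log ((c.Se e 0 a : ℝ) / c.P) :=
          mul_le_mul_of_nonneg_left h3 (Nat.cast_nonneg _)
      _ = Real.log (((c.Se e 0 a : ℝ) / c.P) ^ (c.T.R * c.M)) := (Real.log_pow _ _).symm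
      _ ≤ Real.log (Ue c.T h.valid c.D h.hD e 0 a) := Real.log_le_log (by positivity) h2
  unfold Ae
  rw [le_div_iff₀ hden]
  have hsum : -((c.T.R : ℝ) * c.M / c.P *
        ((∑ e ∈ range 8, ∑ a ∈ range (c.T.nS ^ 3),
          kw c.T 3 0 0 a * (c.V e a - c.P) : ℕ) : ℝ)) ≤
      (∑ e ∈ range 8, ∑ a ∈ range (c.T.nS ^ 3),
        (kw c.T 3 0 0 a : ℝ) * Real.log (Ue c.T h.valid c.D h.hD e 0 a)) := by
    rw [Nat.cast_sum, Finset.mul_sum, ← Finset.sum_neg_distrib]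
    refine Finset.sum_le_sum fun e he => ?_
    rw [Nat.cast_sum, Finset.mul_sum, ← Finset.sum_neg_distrib]
    refine Finset.sum_le_sum fun a ha => ?_
    have := mul_le_mul_of_nonneg_left (hlog e (mem_range.mp he) a (mem_range.mp ha))
      (Nat.cast_nonneg (α := ℝ) (kw c.T 3 0 0 a))
    refine (le_of_eq ?_).trans this
    rw [Nat.cast_mul]
    ring
  refine le_trans ?_ hsum
  have h6 : ((∑ e ∈ range 8, ∑ a ∈ range (c.T.nS ^ 3),
          kw c.T 3 0 0 a * (c.V e a - c.P) : ℕ) : ℝ) ≤ (c.H : ℝ) * (8 * (c.T.Q : ℝ) ^ 3) := by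
    exact_mod_cast h.edge_sum
  have h7 := mul_le_mul_of_nonneg_left h6
    (show (0 : ℝ) ≤ (c.T.R : ℝ) * c.M / c.P by positivity)
  have h8 : -((c.T.R : ℝ) * c.M * c.H / c.P) * (8 * (c.T.Q : ℝ) ^ 3) =
    -((c.T.R : ℝ) * c.M / c.P * ((c.H : ℝ) * (8 * (c.T.Q : ℝ) ^ 3))) := by ring
  rw [h8]
  linarith

theorem Cert.Ok.log_two {q s : ℕ} {c : Cert} (h : c.Ok q s) :
    Real.log 2 ≤ (c.M : ℝ) * ((c.Z - c.P : ℕ) : ℝ) / c.P := by
  have hP : (0 : ℝ) < c.P := by exact_mod_cast h.hP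
  have hM := h.hM
  have hZ : (2 : ℝ) * (c.P : ℝ) ^ c.M ≤ (c.Z : ℝ) ^ c.M := by exact_mod_cast h.hZ
  have hZpos : (0 : ℝ) < c.Z := by
    rcases Nat.eq_zero_or_pos c.Z with h0 | h0
    · rw [h0] at hZ
      have h1 : ((0 : ℕ) : ℝ) ^ c.M = 0 := by
        rw [Nat.cast_zero, zero_pow hM.ne']
      rw [h1] at hZ
      have : 0 < (2 : ℝ) * (c.P : ℝ) ^ c.M := by positivity
      linarith
    · exact_mod_cast h0
  have h2 : (2 : ℝ) ≤ ((c.Z : ℝ) / c.P) ^ c.M := by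
    rw [div_pow, le_div_iff₀ (by positivity)]
    exact hZ
  have hsubge : (c.Z : ℝ) - c.P ≤ ((c.Z - c.P : ℕ) : ℝ) := by
    rcases le_total c.P c.Z with hle | hle
    · rw [Nat.cast_sub hle]
    · have : (c.Z : ℝ) ≤ c.P := by exact_mod_cast hle
      have h0 : (0 : ℝ) ≤ ((c.Z - c.P : ℕ) : ℝ) := Nat.cast_nonneg _
      linarith
  calc Real.log 2 ≤ Real.log (((c.Z : ℝ) / c.P) ^ c.M) := Real.log_le_log (by norm_num) h2
    _ = c.M * Real.log ((c.Z : ℝ) / c.P) := Real.log_pow _ _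
    _ ≤ c.M * ((c.Z : ℝ) / c.P - 1) :=
        mul_le_mul_of_nonneg_left (Real.log_le_sub_one_of_pos (by positivity)) (Nat.cast_nonneg _)
    _ = (c.M : ℝ) * ((c.Z : ℝ) - c.P) / c.P := by
        field_simp
    _ ≤ (c.M : ℝ) * ((c.Z - c.P : ℕ) : ℝ) / c.P := by
        gcongr

/-- soundness -/
theorem Cert.Ok.sound {q s : ℕ} {c : Cert} (h : c.Ok q s) :
    (core3 c.D h.hD).functional ((q : ℝ) / 2 ^ s) (c.T.trial h.valid) < 0 := by
  rw [functional_eq]
  have hP : (0 : ℝ) < c.P := by exact_mod_cast h.hP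
  set lam : ℝ := (q : ℝ) / 2 ^ s * 3 with hlam
  have hlam0 : 0 ≤ lam := by positivity
  set A : ℕ → ℝ := fun k => As c.T h.valid c.D h.hD k with hA
  have hlogD : 0 ≤ Real.log c.D := Real.log_natCast_nonneg _
  have habs : ∀ k, |A k| ≤ 0 + Real.log c.D * k := by
    intro k
    obtain ⟨h1, h2⟩ := As_bounds h.valid h.hD k
    rw [abs_of_nonpos h2, zero_add, mul_comm]
    linarith
  have hsummable : Summable (fun k => poissonWeight lam k * A k) := summable_linear hlam0 habs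
  have hneg : ∀ k, poissonWeight lam k * A k ≤ 0 := fun k =>
    mul_nonpos_of_nonneg_of_nonpos (poissonWeight_nonneg hlam0 k) (As_bounds h.valid h.hD k).2
  have h1 : ∑' k, poissonWeight lam k * A k ≤ ∑ k ∈ range c.K, poissonWeight lam k * A k := by
    have := hsummable.neg.sum_le_tsum (range c.K) (fun k _ => neg_nonneg.mpr (hneg k))
    rw [tsum_neg, Finset.sum_neg_distrib] at this
    linarith
  have h2 : ∑ k ∈ range c.K, poissonWeight lam k * A k ≤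
      ∑ k ∈ range c.K, -((c.T.R : ℝ) * c.M * (c.wt k * c.Gk k) / (c.P * c.P)) := by
    refine Finset.sum_le_sum fun k hk => ?_
    have hk' := mem_range.mp hk
    have ha := h.As_le hk'
    have hw := h.wt_le hk'
    have hb : (0 : ℝ) ≤ (c.T.R : ℝ) * c.M * c.Gk k / c.P := by positivity
    calc poissonWeight lam k * A k
        ≤ poissonWeight lam k * (-((c.T.R : ℝ) * c.M * c.Gk k / c.P)) :=
          mul_le_mul_of_nonneg_left ha (poissonWeight_nonneg hlam0 k)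
      _ = -(poissonWeight lam k * ((c.T.R : ℝ) * c.M * c.Gk k / c.P)) := by ring
      _ ≤ -(((c.wt k : ℝ) / c.P) * ((c.T.R : ℝ) * c.M * c.Gk k / c.P)) := by
          have := mul_le_mul_of_nonneg_right hw hb
          linarith
      _ = -((c.T.R : ℝ) * c.M * (c.wt k * c.Gk k) / (c.P * c.P)) := by
          field_simp
  have h3 : ∑ k ∈ range c.K, -((c.T.R : ℝ) * c.M * (c.wt k * c.Gk k) / (c.P * c.P)) =
      -((c.T.R : ℝ) * c.M * (∑ k ∈ range c.K, (c.wt k : ℝ) * c.Gk k) / (c.P * c.P)) := by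
    rw [Finset.sum_neg_distrib, ← Finset.sum_div, ← Finset.mul_sum]
  have h4 := h.Ae_ge
  have h5 := h.log_two
  have hc : (0 : ℝ) ≤ (q : ℝ) / 2 ^ s * 2 := by positivity
  have h6 : -((q : ℝ) / 2 ^ s * 2 * Ae c.T h.valid c.D h.hD) ≤
      (q : ℝ) / 2 ^ s * 2 * ((c.T.R : ℝ) * c.M * c.H / c.P) := by
    have := mul_le_mul_of_nonneg_left h4 hc
    linarith
  have hfin : ((c.M * (c.Z - c.P) * c.P * 2 ^ s + 2 * q * c.T.R * c.M * c.H * c.P : ℕ) : ℝ) <
    ((2 ^ s * c.T.R * c.M * ∑ k ∈ range c.K, c.wt k * c.Gk k : ℕ) : ℝ) := by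
    exact_mod_cast h.final
  set ZP : ℕ := c.Z - c.P with hZP
  push_cast at hfin
  set G : ℝ := ∑ k ∈ range c.K, (c.wt k : ℝ) * c.Gk k with hG
  have h7 : (c.M : ℝ) * (ZP : ℝ) / c.P - (c.T.R : ℝ) * c.M * G / (c.P * c.P) +
      (q : ℝ) / 2 ^ s * 2 * ((c.T.R : ℝ) * c.M * c.H / c.P) < 0 := by
    have h8 : (c.M : ℝ) * (ZP : ℝ) / c.P - (c.T.R : ℝ) * c.M * G / (c.P * c.P) +
      (q : ℝ) / 2 ^ s * 2 * ((c.T.R : ℝ) * c.M * c.H / c.P) =
      ((c.M * ZP * c.P * 2 ^ s + 2 * q * c.T.R * c.M * c.H * c.P) - 2 ^ s * c.T.R * c.M * G) /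
        (c.P * c.P * 2 ^ s) := by
      field_simp
      ring
    rw [h8]
    apply div_neg_of_neg_of_pos _ (by positivity)
    linarith
  linarith

end Crest.Agent.KS.UC
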