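import Crest.Agent.KS_V

/-! # KS-Cnt : number of clauses which kill a set of assignments (medium)

For `S ≠ ∅` a clause `c` is violated by all `σ ∈ S` iff every variable `c.1.1 i` is frozen and
`c.2 i = !σ₀ (c.1.1 i)` (`σ₀ ∈ S`). So killing clauses correspond to injections `Fin k → frz S`. -/

set_option autoImplicit false

noncomputable section
open Crest.ProbabilityR.RandomSAT
open Classical
namespace Crest.Agent.KS

theorem card_clause (k n : ℕ) : Fintype.card (Clause k n) = n.descFactorial k * 2 ^ k := by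
  have h1 : Fintype.card {v : Fin k → Fin n // Function.Injective v} = n.descFactorial k := by
    rw [Fintype.card_congr (Equiv.subtypeInjectiveEquivEmbedding (Fin k) (Fin n)),
      Fintype.card_embedding_eq, Fintype.card_fin, Fintype.card_fin]
  have h2 : Fintype.card (Fin k → Bool) = 2 ^ k := by
    simp
  rw [Fintype.card_prod, h1, h2]

theorem Cnt_kills_iff {k n : ℕ} {S : Set (Fin n → Bool)} {σ₀ : Fin n → Bool} (hσ : σ₀ ∈ S)
    (c : Clause k n) : Kills S c ↔ ∀ i, c.1.1 i ∈ frz S ∧ c.2 i = !σ₀ (c.1.1 i) := by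
  unfold Kills ClauseSat frz
  simp only [not_exists, Finset.mem_filter, Finset.mem_univ, true_and]
  constructor
  · intro h i
    refine ⟨fun σ hs τ ht => ?_, ?_⟩
    · have h1 := h σ hs i
      have h2 := h τ ht i
      revert h1 h2
      generalize σ (c.1.1 i) = a
      generalize τ (c.1.1 i) = b
      generalize c.2 i = d
      revert a b d
      decide
    · have h1 := h σ₀ hσ i
      revert h1
      generalize σ₀ (c.1.1 i) = a
      generalize c.2 i = d
      revert a d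
      decide
  · intro h σ hs i
    rw [(h i).2, (h i).1 σ hs σ₀ hσ]
    generalize σ₀ (c.1.1 i) = a
    revert a
    decide

theorem card_kills {k n : ℕ} (S : Set (Fin n → Bool)) (hS : S.Nonempty) :
    (Finset.univ.filter (fun c : Clause k n => Kills S c)).card = (frz S).card.descFactorial k := by
  obtain ⟨σ₀, hσ⟩ := hS
  let g : (Fin k ↪ (frz S)) → Clause k n := fun e =>
    (⟨fun i => (e i).1, fun i j hij => e.injective (Subtype.ext hij)⟩, fun i => !σ₀ (e i).1)
  have hg : Function.Injective g := by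
    intro e e' h
    ext i
    have h1 : (g e).1.1 i = (g e').1.1 i := by rw [h]
    exact congrArg Fin.val h1
  have himg : Finset.univ.filter (fun c : Clause k n => Kills S c) = Finset.univ.image g := by
    ext c
    simp only [Finset.mem_filter, Finset.mem_univ, true_and, Finset.mem_image]
    rw [Cnt_kills_iff hσ]
    constructor
    · intro h
      refine ⟨⟨fun i => ⟨c.1.1 i, (h i).1⟩, fun i j hij => c.1.2 (congrArg Subtype.val hij)⟩, ?_⟩
      refine Prod.ext (Subtype.ext rfl) ?_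
      funext i
      exact ((h i).2).symm
    · rintro ⟨e, rfl⟩ i
      exact ⟨(e i).2, rfl⟩
  rw [himg, Finset.card_image_of_injective _ hg, Finset.card_univ, Fintype.card_embedding_eq,
    Fintype.card_fin, Fintype.card_coe]

/-- probability that a uniform clause kills `S ≠ ∅` -/
theorem av_kills {k n : ℕ} (S : Set (Fin n → Bool)) (hS : S.Nonempty) :
    av (fun c : Clause k n => if Kills S c then (1 : ℝ) else 0)
      = ((frz S).card.descFactorial k : ℕ) / ((n.descFactorial k : ℕ) * 2 ^ k) := by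
  unfold av
  rw [Finset.sum_boole, card_kills S hS, card_clause]
  push_cast
  rfl

theorem clause_nonempty {k n : ℕ} (h : k ≤ n) : Nonempty (Clause k n) :=
  ⟨(⟨Fin.castLE h, Fin.castLE_injective h⟩, fun _ => true)⟩

theorem Cnt_desc2 (m : ℕ) : ((m.descFactorial 2 : ℕ) : ℝ) = (m : ℝ) * (m - 1) := by
  have := Nat.cast_descFactorial_two ℝ m
  simpa using this

theorem Cnt_desc3 (m : ℕ) : ((m.descFactorial 3 : ℕ) : ℝ) = (m : ℝ) * (m - 1) * (m - 2) := by
  rcases m with _ | _ | _ | m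
  · norm_num [Nat.descFactorial]
  · norm_num [Nat.descFactorial]
  · norm_num [Nat.descFactorial]
  · simp only [Nat.descFactorial_succ, Nat.descFactorial_zero]
    have h1 : m + 1 + 1 + 1 - 2 = m + 1 := by omega
    have h2 : m + 1 + 1 + 1 - 1 = m + 2 := by omega
    rw [h1, h2]
    push_cast
    ring

/-- `m ≤ n`: `(m)_2/(4 (n)_2) ≤ (m/2n)^2`, and it is `≤ (1/n) (m/2n)` when `m ≤ 2` -/
theorem desc2_le {n m : ℕ} (hn : 2 ≤ n) (hm : m ≤ n) :
    ((m.descFactorial 2 : ℕ) : ℝ) / (4 * (n.descFactorial 2 : ℕ)) ≤ ((m : ℝ) / (2 * n)) ^ 2 := by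
  rw [Cnt_desc2, Cnt_desc2]
  have hn' : (2 : ℝ) ≤ n := by exact_mod_cast hn
  have hm' : (m : ℝ) ≤ n := by exact_mod_cast hm
  have hm0 : (0 : ℝ) ≤ m := Nat.cast_nonneg m
  have h1 : (0 : ℝ) < 4 * (n * (n - 1)) := by
    have : (0 : ℝ) < n - 1 := by linarith
    have : (0 : ℝ) < n := by linarith
    positivity
  rw [div_pow, div_le_div_iff₀ h1 (by positivity)]
  have h2 : 0 ≤ (m : ℝ) * (n * (4 * (n - m))) := by
    have : (0 : ℝ) ≤ n - m := by linarith
    positivity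
  nlinarith

theorem desc2_le' {n m : ℕ} (hn : 2 ≤ n) (hm : m ≤ 2) :
    ((m.descFactorial 2 : ℕ) : ℝ) / (4 * (n.descFactorial 2 : ℕ)) ≤ (1 / n) * ((m : ℝ) / (2 * n)) := by
  have hn' : (2 : ℝ) ≤ n := by exact_mod_cast hn
  have hn1 : (0 : ℝ) < n - 1 := by linarith
  have hn0 : (0 : ℝ) < n := by linarith
  rw [Cnt_desc2, Cnt_desc2]
  interval_cases m
  · simp
  · norm_num
    positivity
  · rw [div_mul_div_comm, div_le_div_iff₀ (by positivity) (by positivity)]
    push_cast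
    nlinarith

/-- `rr n m ≤ (m/2n)^3` for `m ≤ n` -/
theorem rr_le {n m : ℕ} (hn : 3 ≤ n) (hm : m ≤ n) : rr n m ≤ ((m : ℝ) / (2 * n)) ^ 3 := by
  unfold rr
  have hn' : (3 : ℝ) ≤ n := by exact_mod_cast hn
  have hn0 : (0 : ℝ) < n := by linarith
  have hn1 : (0 : ℝ) < n - 1 := by linarith
  have hn2 : (0 : ℝ) < n - 2 := by linarith
  rcases Nat.lt_or_ge m 3 with h | h
  · rw [Nat.descFactorial_of_lt h]
    simp only [Nat.cast_zero, zero_div]
    positivity
  · rw [Cnt_desc3, Cnt_desc3]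
    have hm3 : (3 : ℝ) ≤ m := by exact_mod_cast h
    have hm' : (m : ℝ) ≤ n := by exact_mod_cast hm
    have e1 : ((m : ℝ) - 1) / (n - 1) ≤ m / n := by
      rw [div_le_div_iff₀ hn1 hn0]
      nlinarith
    have e2 : ((m : ℝ) - 2) / (n - 2) ≤ m / n := by
      rw [div_le_div_iff₀ hn2 hn0]
      nlinarith
    have e0 : (0 : ℝ) ≤ (m : ℝ) / n := by positivity
    have e3 : (0 : ℝ) ≤ ((m : ℝ) - 2) / (n - 2) := div_nonneg (by linarith) hn2.le
    have e4 : ((m : ℝ) - 1) / (n - 1) * (((m : ℝ) - 2) / (n - 2)) ≤ m / n * (m / n) :=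
      mul_le_mul e1 e2 e3 e0
    calc (m : ℝ) * (m - 1) * (m - 2) / (8 * (n * (n - 1) * (n - 2)))
        = (m / n) * (((m : ℝ) - 1) / (n - 1) * (((m : ℝ) - 2) / (n - 2))) / 8 := by
          field_simp
      _ ≤ (m / n) * (m / n * (m / n)) / 8 := by
          have := mul_le_mul_of_nonneg_left e4 e0
          linarith
      _ = ((m : ℝ) / (2 * n)) ^ 3 := by
          field_simp
          ring

/-- `(2/9) (m/2n)^3 ≤ rr n m` for `3 ≤ m` -/
theorem le_rr {n m : ℕ} (hn : 3 ≤ n) (hm : 3 ≤ m) : (2 / 9) * ((m : ℝ) / (2 * n)) ^ 3 ≤ rr n m := by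
  unfold rr
  have hn' : (3 : ℝ) ≤ n := by exact_mod_cast hn
  have hn0 : (0 : ℝ) < n := by linarith
  have hn1 : (0 : ℝ) < n - 1 := by linarith
  have hn2 : (0 : ℝ) < n - 2 := by linarith
  have hm3 : (3 : ℝ) ≤ m := by exact_mod_cast hm
  rw [Cnt_desc3, Cnt_desc3]
  have h1 : (2 / 9) * ((m : ℝ) / (2 * n)) ^ 3 = (2 / 9 * (m : ℝ) ^ 3) / (8 * (n * n * n)) := by
    field_simp
    ring
  rw [h1]
  have h2 : 2 / 9 * (m : ℝ) ^ 3 ≤ m * (m - 1) * (m - 2) := by
    have : 0 ≤ (m : ℝ) * ((m - 3) * (7 * m - 6)) := by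
      have a1 : (0 : ℝ) ≤ m - 3 := by linarith
      have a2 : (0 : ℝ) ≤ 7 * m - 6 := by linarith
      positivity
    nlinarith
  have h3 : (n : ℝ) * (n - 1) * (n - 2) ≤ n * n * n := by
    have : (n - 1 : ℝ) * (n - 2) ≤ n * n := by nlinarith
    nlinarith
  have h4 : (0 : ℝ) ≤ m * (m - 1) * (m - 2) := by
    have a1 : (0 : ℝ) ≤ (m : ℝ) - 1 := by linarith
    have a2 : (0 : ℝ) ≤ (m : ℝ) - 2 := by linarith
    positivity
  exact div_le_div₀ h4 h2 (by positivity) (by linarith)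

theorem rr_nonneg (n m : ℕ) : 0 ≤ rr n m := by
  unfold rr
  positivity

theorem rr_le_one {n m : ℕ} (hm : m ≤ n) : rr n m ≤ 1 := by
  unfold rr
  refine div_le_one_of_le₀ ?_ (by positivity)
  have h1 : (m.descFactorial 3 : ℝ) ≤ (n.descFactorial 3 : ℕ) := by
    exact_mod_cast Nat.descFactorial_le 3 hm
  have h2 : (0 : ℝ) ≤ (n.descFactorial 3 : ℕ) := by positivity
  linarith

/-- `x (1-x)^(j^3) ≤ a / j^2` if `0 ≤ x ≤ a^3`, `x ≤ 1` (if `x j^3 ≤ 1` then `x = x^{1/3} x^{2/3}`; else use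
`x (1-x)^s ≤ 1/s`; here simply `x^{2/3} e^{-x s} ≤ s^{-2/3}`). -/
theorem two_time_real {x a : ℝ} {j : ℕ} (hj : 1 ≤ j) (hx : 0 ≤ x) (hx1 : x ≤ 1) (ha : 0 ≤ a)
    (hxa : x ≤ a ^ 3) : x * (1 - x) ^ (j ^ 3) ≤ a / (j : ℝ) ^ 2 := by
  set y : ℝ := x ^ ((1 : ℝ) / 3) with hy
  have hy0 : 0 ≤ y := Real.rpow_nonneg hx _
  have hy3 : y ^ 3 = x := by
    rw [hy, ← Real.rpow_natCast, ← Real.rpow_mul hx]
    norm_num
  have hya : y ≤ a := by
    refine le_of_pow_le_pow_left₀ (n := 3) (by norm_num) ha ?_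
    rw [hy3]
    exact hxa
  have hj0 : (0 : ℝ) < j := by exact_mod_cast hj
  set u : ℝ := j * y with hu
  have hu0 : 0 ≤ u := by positivity
  have h1 : (1 - x) ^ (j ^ 3) ≤ Real.exp (-(u ^ 3)) := by
    have h2 : 1 - x ≤ Real.exp (-x) := by
      have := Real.add_one_le_exp (-x)
      linarith
    have h3 : (1 - x) ^ (j ^ 3) ≤ (Real.exp (-x)) ^ (j ^ 3) :=
      pow_le_pow_left₀ (by linarith) h2 _
    refine h3.trans (le_of_eq ?_)
    rw [← Real.exp_nat_mul]
    congr 1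
    rw [hu, mul_pow, hy3]
    push_cast
    ring
  have h4 : u ^ 2 ≤ Real.exp (u ^ 3) := by
    have h5 : u ^ 2 ≤ u ^ 3 + 1 := by
      rcases le_total u 1 with h | h
      · have a1 : u ^ 2 ≤ 1 := pow_le_one₀ hu0 h
        have a2 : 0 ≤ u ^ 3 := by positivity
        linarith
      · have a1 : 0 ≤ u ^ 2 * (u - 1) := mul_nonneg (sq_nonneg u) (by linarith)
        nlinarith
    exact h5.trans (Real.add_one_le_exp _)
  have h6 : u ^ 2 * (1 - x) ^ (j ^ 3) ≤ 1 := by
    calc u ^ 2 * (1 - x) ^ (j ^ 3) ≤ Real.exp (u ^ 3) * Real.exp (-(u ^ 3)) :=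
          mul_le_mul h4 h1 (pow_nonneg (by linarith) _) (Real.exp_pos _).le
      _ = 1 := by rw [← Real.exp_add]; simp
  rw [le_div_iff₀ (by positivity)]
  calc x * (1 - x) ^ (j ^ 3) * (j : ℝ) ^ 2 = y * (u ^ 2 * (1 - x) ^ (j ^ 3)) := by
        rw [hu, ← hy3]
        ring
    _ ≤ y * 1 := mul_le_mul_of_nonneg_left h6 hy0
    _ ≤ a := by linarith

end Crest.Agent.KS
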