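import Crest.Agent.KS_RT

/-! # KS-Code : digit codes of histories, chain recursion in coded form (medium) -/

set_option autoImplicit false

open Crest.ProbabilityR.Diluted
open Crest.Agent.SGG

namespace Crest.Agent.KS.UC

theorem dg_lt {n : ℕ} (hn : 0 < n) (a p : ℕ) : dg n a p < n := Nat.mod_lt _ hn

/-- digits below `l` of `v + n ^ l * a` are those of `v` -/
theorem dg_lo {n l v a ω : ℕ} (hω : ω < l) : dg n (v + n ^ l * a) ω = dg n v ω := by
  obtain ⟨k, rfl⟩ : ∃ k, l = ω + (k + 1) := ⟨l - ω - 1, by omega⟩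
  rcases Nat.eq_zero_or_pos n with h0 | hn
  · subst h0
    simp [pow_add]
  · unfold dg
    have e : v + n ^ (ω + (k + 1)) * a = v + n ^ ω * (n ^ (k + 1) * a) := by
      rw [pow_add]; ring
    rw [e, Nat.add_mul_div_left _ _ (pow_pos hn ω)]
    have e2 : n ^ (k + 1) * a = n * (n ^ k * a) := by rw [pow_succ]; ring
    rw [e2, Nat.add_mul_mod_self_left]

private theorem code_div {n l v a : ℕ} (hn : 0 < n) (hv : v < n ^ l) :
    (v + n ^ l * a) / n ^ l = a := by
  rw [Nat.add_mul_div_left _ _ (pow_pos hn l), Nat.div_eq_of_lt hv, zero_add]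

/-- digits above `l` of `v + n ^ l * a` are those of `a` -/
theorem dg_hi {n l v a p : ℕ} (hn : 0 < n) (hv : v < n ^ l) :
    dg n (v + n ^ l * a) (l + p) = dg n a p := by
  unfold dg
  rw [pow_add, ← Nat.div_div_eq_div_mul, code_div hn hv]

private theorem dg_shift {n a l p : ℕ} : dg n a (l + p) = dg n (a / n ^ l) p := by
  unfold dg
  rw [pow_add, ← Nat.div_div_eq_div_mul]

theorem lab_lt {n : ℕ} (hn : 0 < n) (l ω j a : ℕ) : lab n l ω j a < n ^ j := by
  unfold lab
  induction j with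
  | zero => simp
  | succ j ih =>
    rw [Finset.sum_range_succ, pow_succ]
    have h := dg_lt hn a (l * j + ω)
    have h2 : (dg n a (l * j + ω) + 1) * n ^ j ≤ n * n ^ j := Nat.mul_le_mul_right _ h
    calc _ < n ^ j + dg n a (l * j + ω) * n ^ j := Nat.add_lt_add_right ih _
      _ = (dg n a (l * j + ω) + 1) * n ^ j := by ring
      _ ≤ n * n ^ j := h2
      _ = n ^ j * n := by ring

theorem lab_succ {n : ℕ} (hn : 0 < n) (l ω j a : ℕ) :
    lab n l ω (j + 1) a = dg n a ω + n * lab n l ω j (a / n ^ l) := by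
  unfold lab
  rw [Finset.sum_range_succ', add_comm, Finset.mul_sum]
  congr 1
  · simp
  · refine Finset.sum_congr rfl fun i _ => ?_
    have e : l * (i + 1) + ω = l + (l * i + ω) := by ring
    rw [e, dg_shift, pow_succ]
    ring

theorem hs_succ {n : ℕ} (hn : 0 < n) {l j v a : ℕ} (hv : v < n ^ l) (ω : Fin l) :
    hs hn l (j + 1) (v + n ^ l * a) ω = st hn v ω :: hs hn l j a ω := by
  rw [hs, code_div hn hv]
  congr 1
  unfold st
  exact Fin.ext (dg_lo ω.isLt)

theorem length_hs {n : ℕ} (hn : 0 < n) (l j a : ℕ) (ω : Fin l) : (hs hn l j a ω).length = j := by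
  induction j generalizing a with
  | zero => rfl
  | succ j ih => rw [hs, List.length_cons, ih]

theorem code_hs {n : ℕ} (hn : 0 < n) (l j a : ℕ) (ω : Fin l) :
    code (hs hn l j a ω) = lab n l ω j a := by
  induction j generalizing a with
  | zero => simp [hs, code, lab]
  | succ j ih =>
    rw [hs, code, ih, lab_succ hn]
    rfl

private theorem sum_col' {M : Type*} [AddCommMonoid M] {n : ℕ} (hn : 0 < n) (l : ℕ)
    (f : (Fin l → Fin n) → M) :
    ∑ v ∈ Finset.range (n ^ l), f (fun ω => st hn v ω) = ∑ v : Fin l → Fin n, f v := by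
  rw [Finset.sum_range, ← Equiv.sum_comp (finFunctionFinEquiv (m := n) (n := l)).symm f]
  refine Finset.sum_congr rfl fun v _ => ?_
  congr 1

/-- the codes `v < n ^ l` run through all columns -/
theorem sum_col {n : ℕ} (hn : 0 < n) (l : ℕ) (f : (Fin l → Fin n) → ℝ) :
    ∑ v ∈ Finset.range (n ^ l), f (fun ω => st hn v ω) = ∑ v : Fin l → Fin n, f v :=
  sum_col' hn l f

/-- `∑_v kw = Q ^ l` -/
theorem kw_sum {T : RT} (h : T.Valid) {l j : ℕ} (hj : j < T.r + 1) (a : ℕ) :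
    ∑ v ∈ Finset.range (T.nS ^ l), kw T l j a v = T.Q ^ l := by
  have e : ∀ v, kw T l j a v = (fun u : Fin l → Fin T.nS =>
      ∏ ω : Fin l, T.kap j (lab T.nS l ω j a) (u ω)) (fun ω => st h.nS_pos v ω) := by
    intro v
    unfold kw
    rw [Finset.prod_range]
    rfl
  rw [Finset.sum_congr rfl fun v _ => e v]
  refine (sum_col' h.nS_pos l (fun u : Fin l → Fin T.nS =>
      ∏ ω : Fin l, T.kap j (lab T.nS l ω j a) (u ω))).trans ?_
  have h2 := Finset.prod_univ_sum (fun _ : Fin l => (Finset.univ : Finset (Fin T.nS)))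
    (fun ω s => T.kap j (lab T.nS l ω j a) (s : ℕ))
  rw [Fintype.piFinset_univ] at h2
  rw [← h2]
  have h3 : ∀ ω : Fin l, ∑ s : Fin T.nS, T.kap j (lab T.nS l ω j a) (s : ℕ) = T.Q := by
    intro ω
    rw [← Finset.sum_range (fun s => T.kap j (lab T.nS l ω j a) s)]
    exact h.kap_sum j hj _ (lab_lt h.nS_pos _ _ _ _)
  rw [Finset.prod_congr rfl fun ω _ => h3 ω]
  simp

theorem TT_last {T : RT} (h : T.Valid) {L : Type} [Fintype L] [DecidableEq L] {l : ℕ}
    (σ : L ≃ Fin l) (Wf : (L → List (Fin T.nS)) → ℝ) (a : ℕ) :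
    TT T h σ Wf T.r a = Wf (fun ω => hs h.nS_pos l (T.r + 1) a (σ ω)) := by
  unfold TT
  have e : List.drop T.r (List.ofFn (T.trial h).m) = [] := by
    apply List.drop_eq_nil_of_le
    rw [List.length_ofFn]
    exact le_refl _
  rw [e, chainT_nil]
  rfl

/-- the kernel at a coded history -/
private theorem kappa_hs {T : RT} (h : T.Valid) {l j : ℕ} (hj : j < T.r + 1) (a v : ℕ)
    (ω : Fin l) :
    (T.trial h).κ (hs h.nS_pos l j a ω) (st h.nS_pos v ω) =
      (T.kap j (lab T.nS l ω j a) (dg T.nS v ω) : ℝ) / T.Q := by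
  show (if (hs h.nS_pos l j a ω).length < T.r + 1 then
    (T.kap (hs h.nS_pos l j a ω).length (code (hs h.nS_pos l j a ω)) (st h.nS_pos v ω) : ℝ) / T.Q
    else if ((st h.nS_pos v ω : Fin T.nS) : ℕ) = 0 then 1 else 0) = _
  rw [length_hs, if_pos hj, code_hs]
  rfl

private theorem prod_kappa {T : RT} (h : T.Valid) {L : Type} [Fintype L] [DecidableEq L] {l j : ℕ}
    (σ : L ≃ Fin l) (hj : j < T.r + 1) (a v : ℕ) :
    ∏ ω : L, (T.trial h).κ (hs h.nS_pos l j a (σ ω)) (st h.nS_pos v (σ ω)) =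
      (kw T l j a v : ℝ) / ((T.Q ^ l : ℕ) : ℝ) := by
  rw [Finset.prod_congr rfl fun ω _ => kappa_hs h hj a v (σ ω),
    Equiv.prod_comp σ (fun ω : Fin l => (T.kap j (lab T.nS l ω j a) (dg T.nS v ω) : ℝ) / T.Q),
    Finset.prod_div_distrib]
  unfold kw
  rw [Finset.prod_range]
  push_cast
  simp

/-- sum over columns indexed by `L` -/
private theorem sum_colL {n : ℕ} (hn : 0 < n) {L : Type} [Fintype L] [DecidableEq L] {l : ℕ}
    (σ : L ≃ Fin l) (f : (L → Fin n) → ℝ) :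
    ∑ v : L → Fin n, f v = ∑ v ∈ Finset.range (n ^ l), f (fun ω => st hn v (σ ω)) := by
  refine Eq.trans ?_ (sum_col hn l (fun u => f (fun ω => u (σ ω)))).symm
  exact (Equiv.sum_comp (σ.symm.arrowCongr (Equiv.refl (Fin n))) f).symm

theorem TT_step {T : RT} (h : T.Valid) {L : Type} [Fintype L] [DecidableEq L] {l : ℕ}
    (σ : L ≃ Fin l) (Wf : (L → List (Fin T.nS)) → ℝ) {j : ℕ} (hj : j < T.r) (a : ℕ) :
    TT T h σ Wf j a = (∑ v ∈ Finset.range (T.nS ^ l),
      (kw T l (j + 1) a v : ℝ) / ((T.Q ^ l : ℕ) : ℝ) *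
        (TT T h σ Wf (j + 1) (v + T.nS ^ l * a)) ^ ((T.E j : ℝ) / T.R)) ^ ((T.R : ℝ) / T.E j) := by
  have hlen : j < (List.ofFn (T.trial h).m).length := by
    rw [List.length_ofFn]; exact hj
  have e : List.drop j (List.ofFn (T.trial h).m) =
      ((T.E j : ℝ) / T.R) :: List.drop (j + 1) (List.ofFn (T.trial h).m) := by
    rw [List.drop_eq_getElem_cons hlen]
    congr 1
    rw [List.getElem_ofFn]
    rfl
  have hx : TT T h σ Wf j a = (∑ v : L → Fin T.nS,
      (∏ ω, (T.trial h).κ (hs h.nS_pos l (j + 1) a (σ ω)) (v ω)) *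
        (chainT (T.trial h).κ (List.drop (j + 1) (List.ofFn (T.trial h).m)) Wf
          (fun ω => v ω :: hs h.nS_pos l (j + 1) a (σ ω))) ^ ((T.E j : ℝ) / T.R)) ^
        (1 / ((T.E j : ℝ) / T.R)) := by
    unfold TT
    rw [e]
    exact chainT_cons _ _ _ _ _
  rw [hx, one_div_div]
  refine congrArg (fun z : ℝ => z ^ ((T.R : ℝ) / T.E j)) ?_
  refine (sum_colL h.nS_pos σ _).trans ?_
  refine Finset.sum_congr rfl fun v hv => ?_
  refine congrArg₂ (· * ·) (prod_kappa h σ (by omega : j + 1 < T.r + 1) a v) ?_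
  refine congrArg (fun z : ℝ => z ^ ((T.E j : ℝ) / T.R)) ?_
  unfold TT
  refine congrArg (chainT (T.trial h).κ (List.drop (j + 1) (List.ofFn (T.trial h).m)) Wf) ?_
  funext ω
  exact (hs_succ h.nS_pos (Finset.mem_range.1 hv) (σ ω)).symm

theorem logT0_eq {T : RT} (h : T.Valid) {L : Type} [Fintype L] [DecidableEq L] {l : ℕ}
    (σ : L ≃ Fin l) (Wf : (L → List (Fin T.nS)) → ℝ) :
    (T.trial h).logT0 Wf = (∑ a ∈ Finset.range (T.nS ^ l),
      (kw T l 0 0 a : ℝ) * Real.log (TT T h σ Wf 0 a)) / (T.Q : ℝ) ^ l := by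
  have hx : (T.trial h).logT0 Wf = ∑ v : L → Fin T.nS,
      (∏ ω, (T.trial h).κ [] (v ω)) *
        Real.log (chainT (T.trial h).κ (List.ofFn (T.trial h).m) Wf (fun ω => [v ω])) := rfl
  rw [hx, Finset.sum_div]
  refine (sum_colL h.nS_pos σ _).trans ?_
  refine Finset.sum_congr rfl fun v hv => ?_
  have h1 : (∏ ω : L, (T.trial h).κ [] (st h.nS_pos v (σ ω))) =
      (kw T l 0 0 v : ℝ) / ((T.Q ^ l : ℕ) : ℝ) := prod_kappa h σ (Nat.succ_pos T.r) 0 v
  have h3 : TT T h σ Wf 0 v = chainT (T.trial h).κ (List.ofFn (T.trial h).m) Wf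
      (fun ω => [st h.nS_pos v (σ ω)]) := by
    unfold TT
    rw [List.drop_zero]
    rfl
  rw [h3]
  refine (congrArg (fun z : ℝ => z * Real.log (chainT (T.trial h).κ (List.ofFn (T.trial h).m) Wf
      (fun ω => [st h.nS_pos v (σ ω)]))) h1).trans ?_
  push_cast
  ring

end Crest.Agent.KS.UC
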