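import Crest.Agent.KS_Cert

/-!
# KS-Comp : completeness of the upper certificates (medium/hard, real analysis)

`log 2 + ∑' pw_k As_k - 2 c Ae < 0` with `As_k ≤ 0`.
1. truncate the series (`exists_K`);
2. `(1 - λ/n)^n → e^{-λ}`, and for `M → ∞`: `M (2^{1/M} - 1) → log 2`,
   `R M (1 - u^{1/(R M)}) → - log u`, `R M (u^{-1/(R M)} - 1) → - log u` (`exists_nM`);
3. tables of `Tree.up_complete`, `Tree.lo_complete`, `P → ∞` (`cert_complete`):
   `S k e` from `up_complete` for the tree `T.tree (k*2)`, `U = Us k e`; `Se e` from `lo_complete` for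
   `T.tree 3`, `U = Ue e`; `Z = ⌈P 2^{1/M}⌉`, `wt k = ⌊P w_k⌋`,
   `Gk k = (∑∑ kw (P - S)) / (8^k Q^{2k})`, `V e a = P * P / Se e 0 a + 1`,
   `H = (∑∑ kw (V - P)) / (8 Q^3) + 1`. Divide `final` by `P^2 2^s` and let `P → ∞`.
-/

set_option autoImplicit false

open Crest.ProbabilityR.Diluted
open Crest.Agent.SGG
open Finset Filter Topology

namespace Crest.Agent.KS.UC

/-- lower approximation of the Poisson weight with parameter `3 q / 2^s` -/
noncomputable def pwn (q s n k : ℕ) : ℝ :=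
  (((n * 2 ^ s - 3 * q : ℕ) : ℝ) / ((n * 2 ^ s : ℕ) : ℝ)) ^ n * ((3 * q : ℕ) : ℝ) ^ k /
    (2 ^ (s * k) * (k.factorial : ℝ))

/-- `As` with `log u` replaced by `R M (u^{1/(R M)} - 1)` -/
noncomputable def AsM (T : RT) (h : T.Valid) (D : ℕ) (hD : 2 ≤ D) (M k : ℕ) : ℝ :=
  (∑ e ∈ range (8 ^ k), ∑ a ∈ range (T.nS ^ (k * 2)),
    (kw T (k * 2) 0 0 a : ℝ) * ((T.R : ℝ) * M *
      (Us T h D hD k e 0 a ^ (1 / ((T.R : ℝ) * M)) - 1))) / (8 ^ k * (T.Q : ℝ) ^ (k * 2))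

/-- `Ae` with `log u` replaced by `R M (1 - u^{-1/(R M)})` -/
noncomputable def AeM (T : RT) (h : T.Valid) (D : ℕ) (hD : 2 ≤ D) (M : ℕ) : ℝ :=
  (∑ e ∈ range 8, ∑ a ∈ range (T.nS ^ 3),
    (kw T 3 0 0 a : ℝ) * ((T.R : ℝ) * M *
      (1 - (Ue T h D hD e 0 a ^ (1 / ((T.R : ℝ) * M)))⁻¹))) / (8 * (T.Q : ℝ) ^ 3)

theorem Us_pos0 {T : RT} (h : T.Valid) {D : ℕ} (hD : 2 ≤ D) (k e : ℕ) {j : ℕ} (hj : j ≤ T.r)
    {a : ℕ} (ha : a < (T.nS ^ (k * 2)) ^ (j + 1)) : 0 < Us T h D hD k e j a := by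
  have h1 := (Us_bounds h hD k e hj ha).1
  have hD' : (0 : ℝ) < D := by exact_mod_cast (by omega : 0 < D)
  exact lt_of_lt_of_le (by positivity) h1

theorem Ue_pos0 {T : RT} (h : T.Valid) {D : ℕ} (hD : 2 ≤ D) (e : ℕ) {j : ℕ} (hj : j ≤ T.r)
    {a : ℕ} (ha : a < (T.nS ^ 3) ^ (j + 1)) : 0 < Ue T h D hD e j a := by
  have h1 := (Ue_bounds h hD e hj ha).1
  have hD' : (0 : ℝ) < D := by exact_mod_cast (by omega : 0 < D)
  exact lt_of_lt_of_le (by positivity) h1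

theorem Ae_nonpos {T : RT} (h : T.Valid) {D : ℕ} (hD : 2 ≤ D) : Ae T h D hD ≤ 0 := by
  unfold Ae
  refine div_nonpos_of_nonpos_of_nonneg ?_ (by positivity)
  refine Finset.sum_nonpos fun e _ => Finset.sum_nonpos fun a ha => ?_
  have ha' : a < (T.nS ^ 3) ^ (0 + 1) := by simpa using Finset.mem_range.mp ha
  refine mul_nonpos_of_nonneg_of_nonpos (Nat.cast_nonneg _) ?_
  exact Real.log_nonpos (Ue_pos0 h hD e (Nat.zero_le _) ha').le
    (Ue_bounds h hD e (Nat.zero_le _) ha').2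

theorem exists_K {T : RT} (h : T.Valid) {D : ℕ} (hD : 2 ≤ D) {c : ℝ} (hc : 0 ≤ c)
    (hneg : (core3 D hD).functional c (T.trial h) < 0) :
    ∃ K : ℕ, Real.log 2 + (∑ k ∈ range K, poissonWeight (c * 3) k * As T h D hD k) -
      c * 2 * Ae T h D hD < 0 := by
  rw [functional_eq] at hneg
  by_cases hs : Summable (fun k : ℕ => poissonWeight (c * 3) k * As T h D hD k)
  · have h1 := hs.hasSum.tendsto_sum_nat
    have h2 : Tendsto (fun K : ℕ => Real.log 2 +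
        (∑ k ∈ range K, poissonWeight (c * 3) k * As T h D hD k) - c * 2 * Ae T h D hD) atTop
        (𝓝 (Real.log 2 + (∑' k : ℕ, poissonWeight (c * 3) k * As T h D hD k) -
          c * 2 * Ae T h D hD)) := (h1.const_add _).sub_const _
    exact (h2.eventually (gt_mem_nhds hneg)).exists
  · exfalso
    rw [tsum_eq_zero_of_not_summable hs] at hneg
    have h1 := Ae_nonpos h hD
    have h2 : 0 < Real.log 2 := Real.log_pos (by norm_num)
    have h3 : c * 2 * Ae T h D hD ≤ 0 := mul_nonpos_of_nonneg_of_nonpos (by positivity) h1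
    linarith

theorem tendsto_pwn (q s k : ℕ) :
    Tendsto (fun n : ℕ => pwn q s n k) atTop (𝓝 (poissonWeight ((q : ℝ) / 2 ^ s * 3) k)) := by
  set lam : ℝ := (q : ℝ) / 2 ^ s * 3 with hlam
  have h1 : Tendsto (fun n : ℕ => (1 + (-lam) / (n : ℝ)) ^ n) atTop (𝓝 (Real.exp (-lam))) :=
    Real.tendsto_one_add_div_pow_exp (-lam)
  have h2 : Tendsto (fun n : ℕ => (1 + (-lam) / (n : ℝ)) ^ n * ((3 * q : ℕ) : ℝ) ^ k /
      (2 ^ (s * k) * (k.factorial : ℝ))) atTop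
      (𝓝 (Real.exp (-lam) * ((3 * q : ℕ) : ℝ) ^ k / (2 ^ (s * k) * (k.factorial : ℝ)))) :=
    (h1.mul_const _).div_const _
  have h3 : Real.exp (-lam) * ((3 * q : ℕ) : ℝ) ^ k / (2 ^ (s * k) * (k.factorial : ℝ)) =
      poissonWeight lam k := by
    unfold poissonWeight
    rw [hlam]
    push_cast
    rw [pow_mul, mul_pow, mul_pow, div_pow]
    field_simp
  rw [← h3]
  refine h2.congr' ?_
  filter_upwards [eventually_ge_atTop (3 * q + 1)] with n hn
  unfold pwn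
  have h2s : 1 ≤ 2 ^ s := Nat.one_le_two_pow
  have hle : 3 * q ≤ n * 2 ^ s := by nlinarith
  have hn0 : (0 : ℝ) < n := by exact_mod_cast (by omega : 0 < n)
  have h2s' : (0 : ℝ) < 2 ^ s := by positivity
  congr 3
  rw [Nat.cast_sub hle, hlam]
  push_cast
  field_simp
  ring

theorem tendsto_mul_rpow {u : ℝ} (hu : 0 < u) {R : ℕ} (hR : 0 < R) :
    Tendsto (fun M : ℕ => (R : ℝ) * M * (u ^ (1 / ((R : ℝ) * M)) - 1)) atTop (𝓝 (Real.log u)) := by
  have hR' : (0 : ℝ) < R := by exact_mod_cast hR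
  have h1 := (Real.hasStrictDerivAt_const_rpow hu 0).hasDerivAt
  rw [hasDerivAt_iff_tendsto_slope_zero] at h1
  simp only [Real.rpow_zero, one_mul, zero_add, smul_eq_mul] at h1
  have h2 : Tendsto (fun M : ℕ => 1 / ((R : ℝ) * M)) atTop (𝓝[≠] 0) := by
    rw [tendsto_nhdsWithin_iff]
    refine ⟨?_, ?_⟩
    · have h3 : Tendsto (fun M : ℕ => (R : ℝ) * (M : ℝ)) atTop atTop :=
        tendsto_natCast_atTop_atTop.const_mul_atTop hR'
      exact (h3.inv_tendsto_atTop).congr (fun M => by rw [Pi.inv_apply, one_div])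
    · filter_upwards [eventually_gt_atTop 0] with M hM
      have hM' : (0 : ℝ) < M := by exact_mod_cast hM
      exact (by positivity : (0 : ℝ) < 1 / ((R : ℝ) * M)).ne'
  have h3 := h1.comp h2
  refine h3.congr' ?_
  filter_upwards [eventually_gt_atTop 0] with M hM
  simp only [Function.comp, one_div, inv_inv]

theorem tendsto_AsM {T : RT} (h : T.Valid) {D : ℕ} (hD : 2 ≤ D) (k : ℕ) :
    Tendsto (fun M : ℕ => AsM T h D hD M k) atTop (𝓝 (As T h D hD k)) := by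
  unfold AsM As
  refine Tendsto.div_const ?_ _
  refine tendsto_finset_sum _ fun e _ => tendsto_finset_sum _ fun a ha => ?_
  have ha' : a < (T.nS ^ (k * 2)) ^ (0 + 1) := by simpa using Finset.mem_range.mp ha
  exact (tendsto_mul_rpow (Us_pos0 h hD k e (Nat.zero_le _) ha') h.R_pos).const_mul _

theorem tendsto_AeM {T : RT} (h : T.Valid) {D : ℕ} (hD : 2 ≤ D) :
    Tendsto (fun M : ℕ => AeM T h D hD M) atTop (𝓝 (Ae T h D hD)) := by
  unfold AeM Ae
  refine Tendsto.div_const ?_ _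
  refine tendsto_finset_sum _ fun e _ => tendsto_finset_sum _ fun a ha => ?_
  have ha' : a < (T.nS ^ 3) ^ (0 + 1) := by simpa using Finset.mem_range.mp ha
  have hU := Ue_pos0 h hD e (Nat.zero_le _) ha'
  have h1 := (tendsto_mul_rpow (inv_pos.mpr hU) h.R_pos).neg
  rw [Real.log_inv, neg_neg] at h1
  refine Tendsto.const_mul _ (h1.congr fun M => ?_)
  rw [Real.inv_rpow hU.le]
  ring

theorem exists_nM {T : RT} (h : T.Valid) {D : ℕ} (hD : 2 ≤ D) {q s : ℕ}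
    (hneg : (core3 D hD).functional ((q : ℝ) / 2 ^ s) (T.trial h) < 0) :
    ∃ K n M : ℕ, 0 < n ∧ 3 * q ≤ n * 2 ^ s ∧ 0 < M ∧
      (M : ℝ) * ((2 : ℝ) ^ (1 / (M : ℝ)) - 1) + (∑ k ∈ range K, pwn q s n k * AsM T h D hD M k) -
      (q : ℝ) / 2 ^ s * 2 * AeM T h D hD M < 0 := by
  obtain ⟨K, hK⟩ := exists_K h hD (by positivity) hneg
  have h1 : Tendsto (fun M : ℕ => (M : ℝ) * ((2 : ℝ) ^ (1 / (M : ℝ)) - 1)) atTop
      (𝓝 (Real.log 2)) := by
    have := tendsto_mul_rpow (u := 2) (by norm_num) (R := 1) one_pos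
    simpa using this
  have h2 : Tendsto (fun m : ℕ => ∑ k ∈ range K, pwn q s m k * AsM T h D hD m k) atTop
      (𝓝 (∑ k ∈ range K, poissonWeight ((q : ℝ) / 2 ^ s * 3) k * As T h D hD k)) :=
    tendsto_finset_sum _ fun k _ => (tendsto_pwn q s k).mul (tendsto_AsM h hD k)
  have h3 := (h1.add h2).sub ((tendsto_AeM h hD).const_mul ((q : ℝ) / 2 ^ s * 2))
  obtain ⟨m, hm1, hm2⟩ := ((h3.eventually (gt_mem_nhds hK)).and
    (eventually_ge_atTop (3 * q + 1))).exists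
  refine ⟨K, m, m, by omega, ?_, by omega, hm1⟩
  have h2s : 1 ≤ 2 ^ s := Nat.one_le_two_pow
  nlinarith

theorem comp_sub_cast (a b : ℕ) : ((a - b : ℕ) : ℝ) = max ((a : ℝ) - b) 0 := by
  rcases le_total b a with hab | hab
  · rw [Nat.cast_sub hab, max_eq_left]
    have : (b : ℝ) ≤ a := by exact_mod_cast hab
    linarith
  · rw [Nat.sub_eq_zero_of_le hab, max_eq_right]
    · simp
    · have : (a : ℝ) ≤ b := by exact_mod_cast hab
      linarith

theorem comp_lim_sub {f g : ℕ → ℕ} {l m : ℝ}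
    (hf : Tendsto (fun P : ℕ => (f P : ℝ) / P) atTop (𝓝 l))
    (hg : Tendsto (fun P : ℕ => (g P : ℝ) / P) atTop (𝓝 m)) (hlm : m ≤ l) :
    Tendsto (fun P : ℕ => ((f P - g P : ℕ) : ℝ) / P) atTop (𝓝 (l - m)) := by
  have h1 := (hf.sub hg).max (tendsto_const_nhds (x := (0 : ℝ)))
  rw [max_eq_left (by linarith)] at h1
  refine h1.congr fun P => ?_
  rw [comp_sub_cast, ← sub_div]
  have hP : (0 : ℝ) ≤ P := Nat.cast_nonneg _
  have := max_div_div_right hP ((f P : ℝ) - g P) 0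
  rw [zero_div] at this
  exact this

theorem comp_lim_div {A : ℕ → ℕ} {L : ℝ} (c : ℕ)
    (hA : Tendsto (fun P : ℕ => (A P : ℝ) / P) atTop (𝓝 L)) :
    Tendsto (fun P : ℕ => ((A P / c : ℕ) : ℝ) / P) atTop (𝓝 (L / c)) := by
  have h1 := Rd.floor.lim (x := fun P : ℕ => (A P : ℝ) / P / c) (fun P => by positivity)
    (hA.div_const (c : ℝ))
  refine h1.congr' ?_
  filter_upwards [eventually_gt_atTop 0] with P hP
  have hP' : (P : ℝ) ≠ 0 := by exact_mod_cast hP.ne'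
  have e : (P : ℝ) * ((A P : ℝ) / P / c) = (A P : ℝ) / c := by
    field_simp
  simp only [e, Nat.floor_div_eq_div]

theorem comp_lim_self : Tendsto (fun P : ℕ => (P : ℝ) / P) atTop (𝓝 1) := by
  refine tendsto_const_nhds.congr' ?_
  filter_upwards [eventually_gt_atTop 0] with P hP
  have hP' : (P : ℝ) ≠ 0 := by exact_mod_cast hP.ne'
  rw [div_self hP']

theorem cert_complete {T : RT} (h : T.Valid) {D : ℕ} (hD : 2 ≤ D) {q s : ℕ}
    (hneg : (core3 D hD).functional ((q : ℝ) / 2 ^ s) (T.trial h) < 0) :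
    ∃ c : Cert, c.Ok q s := by
  obtain ⟨K, n, M, hn0, hnq, hM, hlt⟩ := exists_nM h hD hneg
  have hsite : ∀ k e : ℕ, _ := fun k e =>
    Tree.up_complete (tree_ok h (k * 2)) (isU_site h hD k e) hM
      (fun a ha => ⟨Us_pos0 h hD k e le_rfl ha, (Us_bounds h hD k e le_rfl ha).2⟩)
  have hedge : ∀ e : ℕ, _ := fun e =>
    Tree.lo_complete (tree_ok h 3) (isU_edge h hD e) hM
      (fun a ha => ⟨Ue_pos0 h hD e le_rfl ha, (Ue_bounds h hD e le_rfl ha).2⟩)
  choose S hS1 hS2 hS3 hS4 using hsite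
  choose Se hE1 hE2 hE3 hE4 using hedge
  have hR : (0 : ℝ) < T.R := by exact_mod_cast h.R_pos
  have hM' : (0 : ℝ) < M := by exact_mod_cast hM
  have hQ : 0 < T.Q := h.Q_pos
  have hQR : (0 : ℝ) < T.Q := by exact_mod_cast hQ
  set ρ : ℝ := 1 / ((T.R : ℝ) * M) with hρ
  have hρ0 : 0 < ρ := by positivity
  -- the pieces
  set Z : ℕ → ℕ := fun P => ⌈(P : ℝ) * (2 : ℝ) ^ (1 / (M : ℝ))⌉₊ with hZ
  set wt : ℕ → ℕ → ℕ := fun P k => ⌊(P : ℝ) * pwn q s n k⌋₊ with hwt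
  set AG : ℕ → ℕ → ℕ := fun k P => ∑ e ∈ range (8 ^ k), ∑ a ∈ range (T.nS ^ (k * 2)),
    kw T (k * 2) 0 0 a * (P - S k e P 0 a) with hAG
  set Gk : ℕ → ℕ → ℕ := fun P k => AG k P / (8 ^ k * T.Q ^ (k * 2)) with hGk
  set V : ℕ → ℕ → ℕ → ℕ := fun P e a => P * P / Se e P 0 a + 1 with hV
  set AH : ℕ → ℕ := fun P => ∑ e ∈ range 8, ∑ a ∈ range (T.nS ^ 3),
    kw T 3 0 0 a * (V P e a - P) with hAH
  set H : ℕ → ℕ := fun P => AH P / (8 * T.Q ^ 3) + 1 with hH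
  have hpwn0 : ∀ k, 0 ≤ pwn q s n k := fun k => by unfold pwn; positivity
  -- limits
  have lZ : Tendsto (fun P : ℕ => ((Z P - P : ℕ) : ℝ) / P) atTop
      (𝓝 ((2 : ℝ) ^ (1 / (M : ℝ)) - 1)) := by
    refine comp_lim_sub (g := fun P => P) ?_ comp_lim_self ?_
    · exact Rd.ceil.lim (x := fun _ => (2 : ℝ) ^ (1 / (M : ℝ))) (fun _ => by positivity)
        tendsto_const_nhds
    · exact Real.one_le_rpow (by norm_num) (by positivity)
  have lw : ∀ k, Tendsto (fun P : ℕ => (wt P k : ℝ) / P) atTop (𝓝 (pwn q s n k)) := fun k =>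
    Rd.floor.lim (x := fun _ => pwn q s n k) (fun _ => hpwn0 k) tendsto_const_nhds
  have lG : ∀ k, Tendsto (fun P : ℕ => (Gk P k : ℝ) / P) atTop
      (𝓝 ((∑ e ∈ range (8 ^ k), ∑ a ∈ range (T.nS ^ (k * 2)), (kw T (k * 2) 0 0 a : ℝ) *
        (1 - Us T h D hD k e 0 a ^ ρ)) / ((8 ^ k * T.Q ^ (k * 2) : ℕ) : ℝ))) := by
    intro k
    refine comp_lim_div (A := AG k) _ ?_
    have h1 : Tendsto (fun P : ℕ => ∑ e ∈ range (8 ^ k), ∑ a ∈ range (T.nS ^ (k * 2)),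
        (kw T (k * 2) 0 0 a : ℝ) * (((P - S k e P 0 a : ℕ) : ℝ) / P)) atTop
        (𝓝 (∑ e ∈ range (8 ^ k), ∑ a ∈ range (T.nS ^ (k * 2)), (kw T (k * 2) 0 0 a : ℝ) *
        (1 - Us T h D hD k e 0 a ^ ρ))) := by
      refine tendsto_finset_sum _ fun e _ => tendsto_finset_sum _ fun a ha => ?_
      have ha' : a < (T.nS ^ (k * 2)) ^ (0 + 1) := by simpa using Finset.mem_range.mp ha
      refine Tendsto.const_mul _ ?_
      refine comp_lim_sub (f := fun P => P) comp_lim_self (hS4 k e 0 (Nat.zero_le _) a ha') ?_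
      exact Real.rpow_le_one (Us_pos0 h hD k e (Nat.zero_le _) ha').le
        (Us_bounds h hD k e (Nat.zero_le _) ha').2 hρ0.le
    refine h1.congr fun P => ?_
    rw [hAG]
    push_cast
    rw [Finset.sum_div]
    refine Finset.sum_congr rfl fun e _ => ?_
    rw [Finset.sum_div]
    refine Finset.sum_congr rfl fun a _ => ?_
    ring
  have lV : ∀ e a, a < (T.nS ^ 3) ^ (0 + 1) → Tendsto (fun P : ℕ => (V P e a : ℝ) / P) atTop
      (𝓝 ((Ue T h D hD e 0 a ^ ρ)⁻¹)) := by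
    intro e a ha
    have hU := Ue_pos0 h hD e (Nat.zero_le _) ha
    have hUr : 0 < Ue T h D hD e 0 a ^ ρ := Real.rpow_pos_of_pos hU _
    have h1 := hE4 e 0 (Nat.zero_le _) a ha
    have h2 := Rd.floor.lim (x := fun P : ℕ => ((Se e P 0 a : ℝ) / P)⁻¹) (fun P => by positivity)
      (h1.inv₀ hUr.ne')
    have h3 := h2.add tendsto_one_div_atTop_nhds_zero_nat
    rw [add_zero] at h3
    refine h3.congr' ?_
    filter_upwards [eventually_gt_atTop 0] with P hP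
    have hP' : (P : ℝ) ≠ 0 := by exact_mod_cast hP.ne'
    have e1 : (P : ℝ) * ((Se e P 0 a : ℝ) / P)⁻¹ = ((P * P : ℕ) : ℝ) / (Se e P 0 a : ℝ) := by
      rw [inv_div]
      push_cast
      ring
    simp only [e1, Nat.floor_div_eq_div, hV]
    push_cast
    ring
  have lH : Tendsto (fun P : ℕ => (H P : ℝ) / P) atTop
      (𝓝 ((∑ e ∈ range 8, ∑ a ∈ range (T.nS ^ 3), (kw T 3 0 0 a : ℝ) *
        ((Ue T h D hD e 0 a ^ ρ)⁻¹ - 1)) / ((8 * T.Q ^ 3 : ℕ) : ℝ))) := by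
    have h1 : Tendsto (fun P : ℕ => (AH P : ℝ) / P) atTop
        (𝓝 (∑ e ∈ range 8, ∑ a ∈ range (T.nS ^ 3), (kw T 3 0 0 a : ℝ) *
        ((Ue T h D hD e 0 a ^ ρ)⁻¹ - 1))) := by
      have h2 : Tendsto (fun P : ℕ => ∑ e ∈ range 8, ∑ a ∈ range (T.nS ^ 3),
          (kw T 3 0 0 a : ℝ) * (((V P e a - P : ℕ) : ℝ) / P)) atTop
          (𝓝 (∑ e ∈ range 8, ∑ a ∈ range (T.nS ^ 3), (kw T 3 0 0 a : ℝ) *
          ((Ue T h D hD e 0 a ^ ρ)⁻¹ - 1))) := by
        refine tendsto_finset_sum _ fun e _ => tendsto_finset_sum _ fun a ha => ?_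
        have ha' : a < (T.nS ^ 3) ^ (0 + 1) := by simpa using Finset.mem_range.mp ha
        refine Tendsto.const_mul _ ?_
        refine comp_lim_sub (g := fun P => P) (lV e a ha') comp_lim_self ?_
        have hU := Ue_pos0 h hD e (Nat.zero_le _) ha'
        have hUr : 0 < Ue T h D hD e 0 a ^ ρ := Real.rpow_pos_of_pos hU _
        exact (one_le_inv₀ hUr).mpr (Real.rpow_le_one hU.le
          (Ue_bounds h hD e (Nat.zero_le _) ha').2 hρ0.le)
      refine h2.congr fun P => ?_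
      rw [hAH]
      push_cast
      rw [Finset.sum_div]
      refine Finset.sum_congr rfl fun e _ => ?_
      rw [Finset.sum_div]
      refine Finset.sum_congr rfl fun a _ => ?_
      ring
    have h3 := (comp_lim_div (8 * T.Q ^ 3) h1).add tendsto_one_div_atTop_nhds_zero_nat
    rw [add_zero] at h3
    refine h3.congr fun P => ?_
    simp only [hH]
    push_cast
    ring
  -- the final inequality in the limit
  have lF : Tendsto (fun P : ℕ => (M : ℝ) * (((Z P - P : ℕ) : ℝ) / P) +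
      2 * ((q : ℝ) / 2 ^ s) * T.R * M * ((H P : ℝ) / P) -
      T.R * M * ∑ k ∈ range K, ((wt P k : ℝ) / P) * ((Gk P k : ℝ) / P)) atTop
      (𝓝 ((M : ℝ) * ((2 : ℝ) ^ (1 / (M : ℝ)) - 1) +
      2 * ((q : ℝ) / 2 ^ s) * T.R * M * ((∑ e ∈ range 8, ∑ a ∈ range (T.nS ^ 3),
        (kw T 3 0 0 a : ℝ) * ((Ue T h D hD e 0 a ^ ρ)⁻¹ - 1)) / ((8 * T.Q ^ 3 : ℕ) : ℝ)) -
      T.R * M * ∑ k ∈ range K, pwn q s n k *
        ((∑ e ∈ range (8 ^ k), ∑ a ∈ range (T.nS ^ (k * 2)), (kw T (k * 2) 0 0 a : ℝ) *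
        (1 - Us T h D hD k e 0 a ^ ρ)) / ((8 ^ k * T.Q ^ (k * 2) : ℕ) : ℝ)))) :=
    ((lZ.const_mul _).add (lH.const_mul _)).sub
      ((tendsto_finset_sum _ fun k _ => (lw k).mul (lG k)).const_mul _)
  have hLeq : (M : ℝ) * ((2 : ℝ) ^ (1 / (M : ℝ)) - 1) +
      2 * ((q : ℝ) / 2 ^ s) * T.R * M * ((∑ e ∈ range 8, ∑ a ∈ range (T.nS ^ 3),
        (kw T 3 0 0 a : ℝ) * ((Ue T h D hD e 0 a ^ ρ)⁻¹ - 1)) / ((8 * T.Q ^ 3 : ℕ) : ℝ)) -
      T.R * M * ∑ k ∈ range K, pwn q s n k *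
        ((∑ e ∈ range (8 ^ k), ∑ a ∈ range (T.nS ^ (k * 2)), (kw T (k * 2) 0 0 a : ℝ) *
        (1 - Us T h D hD k e 0 a ^ ρ)) / ((8 ^ k * T.Q ^ (k * 2) : ℕ) : ℝ)) =
      (M : ℝ) * ((2 : ℝ) ^ (1 / (M : ℝ)) - 1) + (∑ k ∈ range K, pwn q s n k * AsM T h D hD M k) -
      (q : ℝ) / 2 ^ s * 2 * AeM T h D hD M := by
    have e1 : AeM T h D hD M = -(T.R * M * ((∑ e ∈ range 8, ∑ a ∈ range (T.nS ^ 3),
        (kw T 3 0 0 a : ℝ) * ((Ue T h D hD e 0 a ^ ρ)⁻¹ - 1)) / ((8 * T.Q ^ 3 : ℕ) : ℝ))) := by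
      unfold AeM
      rw [← mul_div_assoc, ← neg_div, Finset.mul_sum, ← Finset.sum_neg_distrib]
      push_cast
      congr 1
      refine Finset.sum_congr rfl fun e _ => ?_
      rw [Finset.mul_sum, ← Finset.sum_neg_distrib]
      refine Finset.sum_congr rfl fun a _ => ?_
      ring
    have e2 : ∀ k, AsM T h D hD M k = -(T.R * M *
        ((∑ e ∈ range (8 ^ k), ∑ a ∈ range (T.nS ^ (k * 2)), (kw T (k * 2) 0 0 a : ℝ) *
        (1 - Us T h D hD k e 0 a ^ ρ)) / ((8 ^ k * T.Q ^ (k * 2) : ℕ) : ℝ))) := by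
      intro k
      unfold AsM
      rw [← mul_div_assoc, ← neg_div, Finset.mul_sum, ← Finset.sum_neg_distrib]
      push_cast
      congr 1
      refine Finset.sum_congr rfl fun e _ => ?_
      rw [Finset.mul_sum, ← Finset.sum_neg_distrib]
      refine Finset.sum_congr rfl fun a _ => ?_
      ring
    rw [e1]
    simp only [e2]
    have e3 : ∀ k, pwn q s n k * -(T.R * M *
        ((∑ e ∈ range (8 ^ k), ∑ a ∈ range (T.nS ^ (k * 2)), (kw T (k * 2) 0 0 a : ℝ) *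
        (1 - Us T h D hD k e 0 a ^ ρ)) / ((8 ^ k * T.Q ^ (k * 2) : ℕ) : ℝ))) =
        -(T.R * M) * (pwn q s n k *
        ((∑ e ∈ range (8 ^ k), ∑ a ∈ range (T.nS ^ (k * 2)), (kw T (k * 2) 0 0 a : ℝ) *
        (1 - Us T h D hD k e 0 a ^ ρ)) / ((8 ^ k * T.Q ^ (k * 2) : ℕ) : ℝ))) := fun k => by ring
    simp only [e3]
    rw [← Finset.mul_sum]
    ring
  rw [hLeq] at lF
  -- positivity of the edge table
  have hSepos : ∀ᶠ P : ℕ in atTop, ∀ e ∈ range 8, ∀ a ∈ range (T.nS ^ 3), 0 < Se e P 0 a := by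
    rw [Filter.eventually_all_finset]
    intro e _
    rw [Filter.eventually_all_finset]
    intro a ha
    have ha' : a < (T.nS ^ 3) ^ (0 + 1) := by simpa using Finset.mem_range.mp ha
    have hUr : 0 < Ue T h D hD e 0 a ^ ρ := Real.rpow_pos_of_pos (Ue_pos0 h hD e (Nat.zero_le _) ha') _
    filter_upwards [(hE4 e 0 (Nat.zero_le _) a ha').eventually (lt_mem_nhds hUr)] with P hP
    by_contra hcon
    have h0 : Se e P 0 a = 0 := by omega
    rw [h0] at hP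
    simp at hP
  obtain ⟨P, ⟨hPF, hPS⟩, hP0⟩ := (((lF.eventually (gt_mem_nhds hlt)).and hSepos).and
    (eventually_gt_atTop 0)).exists
  have hPR : (0 : ℝ) < P := by exact_mod_cast hP0
  refine ⟨{ T := T, D := D, M := M, P := P, K := K, n := n, Z := Z P, H := H P, wt := wt P,
            Gk := Gk P, S := fun k e => S k e P, Se := fun e => Se e P, V := V P }, ?_⟩
  refine
    { valid := h, hD := hD, hM := hM, hP := hP0, hn := ⟨hn0, hnq⟩, hZ := ?_, hwt := ?_,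
      site_node := ?_, site_leaf := ?_, site_top := ?_, site_sum := ?_, edge_node := ?_,
      edge_leaf := ?_, edge_top := ?_, edge_sum := ?_, final := ?_ }
  · -- hZ
    have h1 : (P : ℝ) * (2 : ℝ) ^ (1 / (M : ℝ)) ≤ Z P := Nat.le_ceil _
    have h2 := pow_le_pow_left₀ (by positivity) h1 M
    rw [mul_pow, ← Real.rpow_natCast ((2 : ℝ) ^ (1 / (M : ℝ))), ← Real.rpow_mul (by norm_num),
      one_div_mul_cancel hM'.ne', Real.rpow_one] at h2
    have h3 : ((2 * P ^ M : ℕ) : ℝ) ≤ ((Z P ^ M : ℕ) : ℝ) := by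
      push_cast; linarith
    exact_mod_cast h3
  · -- hwt
    intro k _
    have h1 : (wt P k : ℝ) ≤ P * pwn q s n k := Nat.floor_le (mul_nonneg hPR.le (hpwn0 k))
    have hn2 : (0 : ℝ) < ((n * 2 ^ s : ℕ) : ℝ) := by
      have : 0 < n * 2 ^ s := by positivity
      exact_mod_cast this
    have hfac : (0 : ℝ) < (k.factorial : ℝ) := by exact_mod_cast k.factorial_pos
    have h2 : ((wt P k * ((n * 2 ^ s) ^ n * 2 ^ (s * k) * k.factorial) : ℕ) : ℝ) ≤
        ((P * ((n * 2 ^ s - 3 * q) ^ n * (3 * q) ^ k) : ℕ) : ℝ) := by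
      have h3 : ((wt P k * ((n * 2 ^ s) ^ n * 2 ^ (s * k) * k.factorial) : ℕ) : ℝ) =
          (wt P k : ℝ) * (((n * 2 ^ s : ℕ) : ℝ) ^ n * 2 ^ (s * k) * k.factorial) := by
        push_cast; ring
      have h4 : ((P * ((n * 2 ^ s - 3 * q) ^ n * (3 * q) ^ k) : ℕ) : ℝ) =
          (P * pwn q s n k) * (((n * 2 ^ s : ℕ) : ℝ) ^ n * 2 ^ (s * k) * k.factorial) := by
        unfold pwn
        rw [div_pow, Nat.cast_mul, Nat.cast_mul, Nat.cast_pow, Nat.cast_pow]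
        field_simp
      rw [h3, h4]
      exact mul_le_mul_of_nonneg_right h1 (by positivity)
    exact_mod_cast h2
  · -- site_node
    intro k _ e _ j hj a ha
    exact hS1 k e P j hj a ha
  · -- site_leaf
    intro k _ e _ a ha
    have h1 := hS2 k e P hP0 a ha
    have h2 : Us T h D hD k e T.r a = (siteNum T D k e a : ℝ) / ((2 * (D * T.Q ^ 2) ^ k : ℕ) : ℝ) := by
      unfold Us
      rw [TT_last]
      exact siteW_leaf h hD k e a
    have h3 : (siteNum T D k e a : ℝ) / ((2 * (D * T.Q ^ 2) ^ k : ℕ) : ℝ) ≤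
        ((S k e P T.r a : ℝ) / P) ^ (T.R * M) := by
      rw [← h2]; exact h1
    have hDpos : 0 < D := by omega
    have hden : (0 : ℝ) < ((2 * (D * T.Q ^ 2) ^ k : ℕ) : ℝ) := by
      have : 0 < 2 * (D * T.Q ^ 2) ^ k := by positivity
      exact_mod_cast this
    rw [div_pow, div_le_div_iff₀ hden (by positivity)] at h3
    have h4 : ((siteNum T D k e a * P ^ (T.R * M) : ℕ) : ℝ) ≤
        ((2 * (D * T.Q ^ 2) ^ k * S k e P T.r a ^ (T.R * M) : ℕ) : ℝ) := by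
      rw [Nat.cast_mul, Nat.cast_pow, Nat.cast_mul _ (S k e P T.r a ^ (T.R * M)), Nat.cast_pow (S k e P T.r a)]
      linarith
    exact_mod_cast h4
  · -- site_top
    intro k _ e _ a ha
    exact hS3 k e P 0 (Nat.zero_le _) a (show a < (T.nS ^ (k * 2)) ^ (0 + 1) by simpa using ha)
  · -- site_sum
    intro k _
    exact Nat.div_mul_le_self _ _
  · -- edge_node
    intro e _ j hj a ha
    exact hE1 e P j hj a ha
  · -- edge_leaf
    intro e _ a ha
    have h1 := hE2 e P hP0 a ha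
    have h2 : Ue T h D hD e T.r a = (edgeNum T D e a : ℝ) / ((D * T.Q ^ 3 : ℕ) : ℝ) := by
      unfold Ue
      rw [TT_last]
      exact edgeW_leaf h hD e a
    have h3 : ((Se e P T.r a : ℝ) / P) ^ (T.R * M) ≤
        (edgeNum T D e a : ℝ) / ((D * T.Q ^ 3 : ℕ) : ℝ) := by
      rw [← h2]; exact h1
    have hDpos : 0 < D := by omega
    have hden : (0 : ℝ) < ((D * T.Q ^ 3 : ℕ) : ℝ) := by
      have : 0 < D * T.Q ^ 3 := by positivity
      exact_mod_cast this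
    rw [div_pow, div_le_div_iff₀ (by positivity) hden] at h3
    have h4 : ((D * T.Q ^ 3 * Se e P T.r a ^ (T.R * M) : ℕ) : ℝ) ≤
        ((edgeNum T D e a * P ^ (T.R * M) : ℕ) : ℝ) := by
      rw [Nat.cast_mul (edgeNum T D e a), Nat.cast_pow, Nat.cast_mul _ (Se e P T.r a ^ (T.R * M)),
        Nat.cast_pow (Se e P T.r a)]
      linarith
    exact_mod_cast h4
  · -- edge_top
    intro e he a ha
    have h1 := hPS e (Finset.mem_range.mpr he) a (Finset.mem_range.mpr ha)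
    refine ⟨h1, ?_⟩
    show P * P ≤ Se e P 0 a * (P * P / Se e P 0 a + 1)
    exact (Nat.lt_mul_div_succ (P * P) h1).le
  · -- edge_sum
    have h1 : 0 < 8 * T.Q ^ 3 := by positivity
    show AH P ≤ (AH P / (8 * T.Q ^ 3) + 1) * (8 * T.Q ^ 3)
    rw [mul_comm]
    exact (Nat.lt_mul_div_succ (AH P) h1).le
  · -- final
    show M * (Z P - P) * P * 2 ^ s + 2 * q * T.R * M * H P * P <
      2 ^ s * T.R * M * ∑ k ∈ range K, wt P k * Gk P k
    have h2s : (0 : ℝ) < 2 ^ s := by positivity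
    have h1 := mul_neg_of_neg_of_pos hPF (show (0 : ℝ) < (P : ℝ) ^ 2 * 2 ^ s by positivity)
    have e1 : ((M : ℝ) * (((Z P - P : ℕ) : ℝ) / P) +
      2 * ((q : ℝ) / 2 ^ s) * T.R * M * ((H P : ℝ) / P) -
      T.R * M * ∑ k ∈ range K, ((wt P k : ℝ) / P) * ((Gk P k : ℝ) / P)) * ((P : ℝ) ^ 2 * 2 ^ s) =
      M * ((Z P - P : ℕ) : ℝ) * P * 2 ^ s + 2 * q * T.R * M * H P * P -
        2 ^ s * T.R * M * ∑ k ∈ range K, (wt P k : ℝ) * (Gk P k : ℝ) := by
      have e2 : ∑ k ∈ range K, ((wt P k : ℝ) / P) * ((Gk P k : ℝ) / P) =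
          (∑ k ∈ range K, (wt P k : ℝ) * (Gk P k : ℝ)) / (P : ℝ) ^ 2 := by
        rw [Finset.sum_div]
        refine Finset.sum_congr rfl fun k _ => ?_
        field_simp
      rw [e2]
      field_simp
    rw [e1] at h1
    have h3 : ((M * (Z P - P) * P * 2 ^ s + 2 * q * T.R * M * H P * P : ℕ) : ℝ) <
        ((2 ^ s * T.R * M * ∑ k ∈ range K, wt P k * Gk P k : ℕ) : ℝ) := by
      simp only [Nat.cast_add, Nat.cast_mul, Nat.cast_pow, Nat.cast_sum, Nat.cast_ofNat]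
      linarith
    exact_mod_cast h3

end Crest.Agent.KS.UC
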