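import Crest.Agent.KS_Cnt

/-! # KS-D1 : two-time criticality (medium/hard)

`F : Fin (g+1+s) → Clause 3 n`, index `g` is "the clause `C`", indices `< g` are `G`, indices `> g` are `D` (`s` clauses).

* If `V(F) = V(F_{g+1}) = v` (`F_{g+1}` = the first `g+1` clauses), take `σ` optimal for `F`: it violates exactly `v` clauses, all with
  index `≤ g`. For every violated index `i ≤ g`: `V(pre (g+1) \ i) = v-1`, `V(univ \ i) = v - 1`. So `v ≤ #{i ≤ g : E_i}`,
  `E_i`: `V(pre(g+1) \ i) < L`, `V(pre (g+1)) = V(pre(g+1) \ i) + 1`, `V(univ \ i) = V(pre(g+1) \ i)`.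
* `P(E_i) = P(E_g)` by exchanging the coordinates `i` and `g` (`Equiv.swap`, `av_equiv`).
* `E_g`: given `G`: `C` kills `Opt G` and some `σ ∈ Opt G` satisfies all of `D`, hence no `D_j` kills `Opt G`: probability
  `≤ rr (1 - rr)^s`. -/

set_option autoImplicit false

noncomputable section
open Crest.ProbabilityR.RandomSAT
open Classical
namespace Crest.Agent.KS

namespace D1

theorem viol_erase {n : ℕ} {ι : Type*} [DecidableEq ι] (F : ι → Clause 3 n) (I : Finset ι)
    (σ : Fin n → Bool)
    {i : ι} (hi : i ∈ I) (hv : ¬ ClauseSat σ (F i)) : viol F (I.erase i) σ + 1 = viol F I σ := by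
  unfold viol
  rw [Finset.filter_erase]
  exact Finset.card_erase_add_one (Finset.mem_filter.mpr ⟨hi, hv⟩)

theorem minV_erase {n : ℕ} {ι : Type*} [DecidableEq ι] (F : ι → Clause 3 n) (I : Finset ι)
    (i : ι) : minV F I ≤ minV F (I.erase i) + 1 := by
  obtain ⟨σ, hσ⟩ := exists_opt F (I.erase i)
  rw [← hσ]
  refine (minV_le F I σ).trans ?_
  unfold viol
  rw [Finset.filter_erase]
  have := Finset.pred_card_le_card_erase (s := I.filter (fun j => ¬ ClauseSat σ (F j))) (a := i)
  omega

theorem minV_insert_eq' {n : ℕ} {ι : Type*} [DecidableEq ι] (F : ι → Clause 3 n) (I : Finset ι)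
    (j : ι) (hj : j ∉ I) :
    minV F (insert j I) = minV F I + (if Kills (Opt F I) (F j) then 1 else 0) := by
  convert minV_insert_eq F I j hj

theorem minV_union_eq_iff' {n : ℕ} {ι : Type*} [DecidableEq ι] (F : ι → Clause 3 n)
    (I D : Finset ι) (hD : Disjoint I D) :
    minV F (I ∪ D) = minV F I ↔ ∃ σ ∈ Opt F I, ∀ j ∈ D, ClauseSat σ (F j) := by
  convert minV_union_eq_iff F I D hD

/-- the exchange event -/
def EE {n T : ℕ} (g L : ℕ) (i : Fin T) (F : Fin T → Clause 3 n) : Prop :=
  minV F ((pre (g + 1)).erase i) < L ∧ minV F (pre (g + 1)) = minV F ((pre (g + 1)).erase i) + 1 ∧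
    minV F (Finset.univ.erase i) = minV F ((pre (g + 1)).erase i)

theorem count_pointwise {n g s L : ℕ} (F : Fin (g + 1 + s) → Clause 3 n) :
    (if minV F Finset.univ = minV F (pre (g + 1)) ∧ minV F Finset.univ ≤ L then
        (minV F Finset.univ : ℝ) else 0) ≤
    ∑ i ∈ pre (T := g + 1 + s) (g + 1), if EE g L i F then (1 : ℝ) else 0 := by
  by_cases h : minV F Finset.univ = minV F (pre (g + 1)) ∧ minV F Finset.univ ≤ L
  · rw [if_pos h]
    obtain ⟨h1, h2⟩ := h
    obtain ⟨σ, hσ⟩ := exists_opt F Finset.univ
    -- violated clauses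
    have hsub : (pre (g + 1)).filter (fun j => ¬ ClauseSat σ (F j)) ⊆
        Finset.univ.filter (fun j => ¬ ClauseSat σ (F j)) :=
      Finset.filter_subset_filter _ (Finset.subset_univ _)
    have hcard : (Finset.univ.filter (fun j => ¬ ClauseSat σ (F j))).card ≤
        ((pre (g + 1)).filter (fun j => ¬ ClauseSat σ (F j))).card := by
      show viol F Finset.univ σ ≤ viol F (pre (g + 1)) σ
      rw [hσ, h1]
      exact minV_le _ _ _
    have heq := Finset.eq_of_subset_of_card_le hsub hcard
    have hE : ∀ i ∈ (pre (g + 1)).filter (fun j => ¬ ClauseSat σ (F j)), EE g L i F := by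
      intro i hi
      obtain ⟨hi1, hi2⟩ := Finset.mem_filter.mp hi
      have a1 : viol F ((pre (g + 1)).erase i) σ + 1 = minV F Finset.univ := by
        rw [viol_erase F _ σ hi1 hi2, ← hσ]
        show ((pre (g + 1)).filter (fun j => ¬ ClauseSat σ (F j))).card = _
        rw [heq]
        rfl
      have a2 : viol F (Finset.univ.erase i) σ + 1 = minV F Finset.univ := by
        rw [viol_erase F _ σ (Finset.mem_univ i) hi2, hσ]
      have b1 := minV_le F ((pre (g + 1)).erase i) σ
      have b2 := minV_le F (Finset.univ.erase i) σ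
      have b3 := minV_erase F (pre (g + 1)) i
      have b4 : minV F ((pre (g + 1)).erase i) ≤ minV F (Finset.univ.erase i) :=
        minV_mono F (Finset.erase_subset_erase _ (Finset.subset_univ _))
      refine ⟨by omega, by omega, by omega⟩
    have h3 : (minV F Finset.univ : ℝ) =
        ∑ i ∈ (pre (T := g + 1 + s) (g + 1)).filter (fun j => ¬ ClauseSat σ (F j)), (1 : ℝ) := by
      rw [Finset.sum_const, nsmul_eq_mul, mul_one, heq, ← hσ]
      rfl
    rw [h3]
    calc ∑ i ∈ (pre (T := g + 1 + s) (g + 1)).filter (fun j => ¬ ClauseSat σ (F j)), (1 : ℝ)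
        = ∑ i ∈ (pre (T := g + 1 + s) (g + 1)).filter (fun j => ¬ ClauseSat σ (F j)),
            (if EE g L i F then (1 : ℝ) else 0) := by
          refine Finset.sum_congr rfl fun i hi => ?_
          rw [if_pos (hE i hi)]
      _ ≤ _ := Finset.sum_le_sum_of_subset_of_nonneg (Finset.filter_subset _ _)
          fun i _ _ => by split_ifs <;> norm_num
  · rw [if_neg h]
    exact Finset.sum_nonneg fun i _ => by split_ifs <;> norm_num

theorem minV_swap {n T : ℕ} (F : Fin T → Clause 3 n) (a b : Fin T) (I : Finset (Fin T)) :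
    minV (fun j => F (Equiv.swap a b j)) I = minV F (I.map (Equiv.swap a b).toEmbedding) :=
  minV_map (Equiv.swap a b).toEmbedding F I

theorem EE_swap {n g s L : ℕ} (i : Fin (g + 1 + s)) (hi : i ∈ pre (T := g + 1 + s) (g + 1)) :
    av (fun F : Fin (g + 1 + s) → Clause 3 n => if EE g L i F then (1 : ℝ) else 0) =
    av (fun F : Fin (g + 1 + s) → Clause 3 n =>
      if minV F (pre g) < L ∧ minV F (pre (g + 1)) = minV F (pre g) + 1 ∧
        minV F (Finset.univ.erase ⟨g, by omega⟩) = minV F (pre g) then 1 else 0) := by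
  set a : Fin (g + 1 + s) := ⟨g, by omega⟩ with ha
  have hi' : (i : ℕ) < g + 1 := (Finset.mem_filter.mp hi).2
  have h1 := av_equiv (Equiv.arrowCongr (Equiv.swap i a) (Equiv.refl (Clause 3 n)))
    (fun F : Fin (g + 1 + s) → Clause 3 n =>
      if minV F (pre g) < L ∧ minV F (pre (g + 1)) = minV F (pre g) + 1 ∧
        minV F (Finset.univ.erase a) = minV F (pre g) then (1 : ℝ) else 0)
  rw [← h1]
  congr 1
  funext F
  have h2 : (Equiv.arrowCongr (Equiv.swap i a) (Equiv.refl (Clause 3 n))) F =
      fun j => F (Equiv.swap i a j) := by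
    funext j
    rfl
  rw [h2]
  have ha' : a ∈ pre (T := g + 1 + s) (g + 1) := Finset.mem_filter.mpr ⟨Finset.mem_univ _, by simp [ha]⟩
  have e0 : (pre (T := g + 1 + s) g) = (pre (g + 1)).erase a := by
    ext j
    simp only [pre, Finset.mem_filter, Finset.mem_univ, true_and, Finset.mem_erase]
    constructor
    · intro h
      refine ⟨fun hj => ?_, by omega⟩
      rw [hj] at h; simp [ha] at h
    · rintro ⟨h, h'⟩
      have : (j : ℕ) ≠ g := fun hj => h (Fin.ext (by simp [ha, hj]))
      omega
  have e1 : (pre (T := g + 1 + s) (g + 1)).map (Equiv.swap i a).toEmbedding = pre (g + 1) := by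
    ext j
    rw [Finset.mem_map_equiv, Equiv.symm_swap]
    by_cases h : j = i
    · rw [h, Equiv.swap_apply_left]; exact ⟨fun _ => hi, fun _ => ha'⟩
    · by_cases h' : j = a
      · rw [h', Equiv.swap_apply_right]; exact ⟨fun _ => ha', fun _ => hi⟩
      · rw [Equiv.swap_apply_of_ne_of_ne h h']
  have e2 : ((pre (T := g + 1 + s) (g + 1)).erase a).map (Equiv.swap i a).toEmbedding =
      (pre (g + 1)).erase i := by
    rw [Finset.map_erase, e1]
    simp
  have e3 : ((Finset.univ : Finset (Fin (g + 1 + s))).erase a).map (Equiv.swap i a).toEmbedding =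
      Finset.univ.erase i := by
    rw [Finset.map_erase, Finset.map_univ_equiv]
    simp
  refine if_congr ?_ rfl rfl
  rw [e0, minV_swap, minV_swap, minV_swap, e1, e2, e3]
  rfl

/-- powers: independent coordinates -/
theorem av_pow {α : Type*} [Fintype α] (s : ℕ) (φ : α → ℝ) :
    av (fun D : Fin s → α => ∏ j, φ (D j)) = (av φ) ^ s := by
  induction s with
  | zero =>
    unfold av
    simp
  | succ s ih =>
    rw [av_snoc, av_prod]
    have h1 : (fun a : Fin s → α => av (fun b : α =>
        ∏ j, φ ((Fin.snoc (α := fun _ => α) a b : Fin (s + 1) → α) j))) =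
        fun a => (∏ j, φ (a j)) * av φ := by
      funext a
      rw [← av_mul_left]
      congr 1
      funext b
      rw [Fin.prod_univ_castSucc]
      simp
    show av (fun a : Fin s → α => av (fun b : α =>
        ∏ j, φ ((Fin.snoc (α := fun _ => α) a b : Fin (s + 1) → α) j))) = _
    rw [h1, av_mul_right, ih, pow_succ]

theorem Opt_map {n : ℕ} {ι ι' : Type*} (e : ι' ↪ ι) (F : ι → Clause 3 n) (I : Finset ι') :
    Opt (fun j => F (e j)) I = Opt F (I.map e) := by
  unfold Opt
  simp only [viol_map, minV_map]

theorem prob_pointwise {n g s L : ℕ} (G : Fin g → Clause 3 n) (C : Clause 3 n)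
    (D : Fin s → Clause 3 n) (F : Fin (g + 1 + s) → Clause 3 n)
    (hF : F = Fin.append (Fin.snoc (α := fun _ => Clause 3 n) G C) D) :
    (if minV F (pre g) < L ∧ minV F (pre (g + 1)) = minV F (pre g) + 1 ∧
        minV F (Finset.univ.erase ⟨g, by omega⟩) = minV F (pre g) then (1 : ℝ) else 0) ≤
    (if minV G Finset.univ < L then (1 : ℝ) else 0) *
      ((if Kills (Opt G Finset.univ) C then (1 : ℝ) else 0) *
        ∏ j, (if Kills (Opt G Finset.univ) (D j) then (0 : ℝ) else 1)) := by
  set a : Fin (g + 1 + s) := ⟨g, by omega⟩ with ha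
  set e : Fin g ↪ Fin (g + 1 + s) := Fin.castLEEmb (by omega) with he
  have hG : (fun j => F (e j)) = G := by
    funext j
    have : e j = Fin.castAdd s j.castSucc := by ext; simp [he]
    rw [this, hF, Fin.append_left, Fin.snoc_castSucc]
  have hC : F a = C := by
    have : a = Fin.castAdd s (Fin.last g) := by ext; simp [ha]
    rw [this, hF, Fin.append_left, Fin.snoc_last]
  have hD : ∀ j, F (Fin.natAdd (g + 1) j) = D j := by
    intro j
    rw [hF, Fin.append_right]
  have hpre : (Finset.univ : Finset (Fin g)).map e = pre g := by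
    ext j
    simp only [Finset.mem_map, Finset.mem_univ, true_and, pre, Finset.mem_filter]
    constructor
    · rintro ⟨i, rfl⟩
      simp [he]
    · intro h
      exact ⟨⟨j.1, h⟩, by ext; simp [he]⟩
  have hV : minV F (pre g) = minV G Finset.univ := by
    rw [← hpre, ← minV_map, hG]
  have hO : Opt F (pre g) = Opt G Finset.univ := by
    rw [← hpre, ← Opt_map, hG]
  have hnn : (0 : ℝ) ≤ (if minV G Finset.univ < L then (1 : ℝ) else 0) *
      ((if Kills (Opt G Finset.univ) C then (1 : ℝ) else 0) *
        ∏ j, (if Kills (Opt G Finset.univ) (D j) then (0 : ℝ) else 1)) := by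
    refine mul_nonneg (by split_ifs <;> norm_num) (mul_nonneg (by split_ifs <;> norm_num) ?_)
    exact Finset.prod_nonneg fun j _ => by split_ifs <;> norm_num
  by_cases h : minV F (pre g) < L ∧ minV F (pre (g + 1)) = minV F (pre g) + 1 ∧
        minV F (Finset.univ.erase a) = minV F (pre g)
  · obtain ⟨h1, h2, h3⟩ := h
    have hk : Kills (Opt G Finset.univ) C := by
      have e1 : pre (T := g + 1 + s) (g + 1) = insert a (pre g) := by
        ext j
        simp only [pre, Finset.mem_filter, Finset.mem_univ, true_and, Finset.mem_insert]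
        constructor
        · intro hj
          by_cases hjg : (j : ℕ) = g
          · left; ext; simp [ha, hjg]
          · right; omega
        · rintro (hj | hj)
          · rw [hj]; simp [ha]
          · omega
      have hna : a ∉ pre (T := g + 1 + s) g := by
        simp [pre, ha]
      rw [e1, minV_insert_eq' F _ a hna, hO, hC] at h2
      by_contra hk
      rw [if_neg hk] at h2
      omega
    have hnk : ∀ j, ¬ Kills (Opt G Finset.univ) (D j) := by
      have e1 : (Finset.univ : Finset (Fin (g + 1 + s))).erase a =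
          pre g ∪ Finset.univ.filter (fun j => g < (j : ℕ)) := by
        ext j
        simp only [pre, Finset.mem_filter, Finset.mem_univ, true_and, Finset.mem_union,
          Finset.mem_erase, and_true]
        constructor
        · intro hj
          have : (j : ℕ) ≠ g := fun hjg => hj (Fin.ext (by simp [ha, hjg]))
          omega
        · intro hj hja
          rw [hja] at hj
          simp [ha] at hj
      have hdis : Disjoint (pre (T := g + 1 + s) g) (Finset.univ.filter (fun j => g < (j : ℕ))) := by
        rw [Finset.disjoint_left]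
        intro j hj hj'
        simp only [pre, Finset.mem_filter, Finset.mem_univ, true_and] at hj hj'
        omega
      rw [e1, minV_union_eq_iff' F _ _ hdis, hO] at h3
      obtain ⟨σ, hσ, hsat⟩ := h3
      intro j hkj
      refine hkj σ hσ ?_
      rw [← hD j]
      refine hsat _ ?_
      simp only [Finset.mem_filter, Finset.mem_univ, true_and, Fin.coe_natAdd]
      omega
    rw [if_pos ⟨h1, h2, h3⟩, if_pos (by rw [← hV]; exact h1), if_pos hk]
    rw [Finset.prod_eq_one fun j _ => by rw [if_neg (hnk j)]]
    norm_num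
  · rw [if_neg h]
    exact hnn

end D1

open D1

theorem two_time_count {n g s L : ℕ} :
    av (fun F : Fin (g + 1 + s) → Clause 3 n =>
      if minV F Finset.univ = minV F (pre (g + 1)) ∧ minV F Finset.univ ≤ L then
        (minV F Finset.univ : ℝ) else 0)
    ≤ ((g : ℝ) + 1) * av (fun F : Fin (g + 1 + s) → Clause 3 n =>
      if minV F (pre g) < L ∧ minV F (pre (g + 1)) = minV F (pre g) + 1 ∧
        minV F (Finset.univ.erase ⟨g, by omega⟩) = minV F (pre g) then 1 else 0) := by
  refine (av_mono count_pointwise).trans ?_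
  rw [av_sum]
  rw [Finset.sum_congr rfl fun i hi => EE_swap (n := n) (L := L) i hi]
  rw [Finset.sum_const, nsmul_eq_mul]
  have hc : (pre (T := g + 1 + s) (g + 1)).card = g + 1 := by
    have : pre (T := g + 1 + s) (g + 1) =
        (Finset.univ : Finset (Fin (g + 1))).map (Fin.castAddEmb s) := by
      ext j
      simp only [pre, Finset.mem_filter, Finset.mem_univ, true_and, Finset.mem_map]
      constructor
      · intro h
        exact ⟨⟨j.1, h⟩, by ext; simp⟩
      · rintro ⟨i, rfl⟩
        exact i.2
    rw [this, Finset.card_map, Finset.card_univ, Fintype.card_fin]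
  rw [hc]
  push_cast
  exact le_rfl

theorem two_time_prob {n g s L : ℕ} (hn : 3 ≤ n) :
    av (fun F : Fin (g + 1 + s) → Clause 3 n =>
      if minV F (pre g) < L ∧ minV F (pre (g + 1)) = minV F (pre g) + 1 ∧
        minV F (Finset.univ.erase ⟨g, by omega⟩) = minV F (pre g) then (1 : ℝ) else 0)
    ≤ av (fun G : Fin g → Clause 3 n =>
      if minV G Finset.univ < L then
        rr n (frz (Opt G Finset.univ)).card * (1 - rr n (frz (Opt G Finset.univ)).card) ^ s
      else 0) := by
  have : Nonempty (Clause 3 n) := clause_nonempty hn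
  have h1 := av_equiv (Fin.appendEquiv (α := Clause 3 n) (g + 1) s)
    (fun F : Fin (g + 1 + s) → Clause 3 n =>
      if minV F (pre g) < L ∧ minV F (pre (g + 1)) = minV F (pre g) + 1 ∧
        minV F (Finset.univ.erase ⟨g, by omega⟩) = minV F (pre g) then (1 : ℝ) else 0)
  rw [← h1, av_prod, av_snoc, av_prod]
  refine av_mono fun G => ?_
  set S := Opt G Finset.univ with hS
  have hSne : S.Nonempty := Opt_nonempty G Finset.univ
  have hk : av (fun c : Clause 3 n => if Kills S c then (1 : ℝ) else 0) = rr n (frz S).card := by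
    rw [av_kills S hSne]
    unfold rr
    ring
  have hk' : av (fun c : Clause 3 n => if Kills S c then (0 : ℝ) else 1) =
      1 - rr n (frz S).card := by
    have : (fun c : Clause 3 n => if Kills S c then (0 : ℝ) else 1) =
        fun c => (1 : ℝ) - (if Kills S c then (1 : ℝ) else 0) := by
      funext c
      split_ifs <;> norm_num
    rw [this, av_sub, av_const, hk]
  calc _ ≤ av (fun C : Clause 3 n => av (fun D : Fin s → Clause 3 n =>
        (if minV G Finset.univ < L then (1 : ℝ) else 0) *
      ((if Kills S C then (1 : ℝ) else 0) *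
        ∏ j, (if Kills S (D j) then (0 : ℝ) else 1)))) := by
        refine av_mono fun C => av_mono fun D => ?_
        exact prob_pointwise G C D _ rfl
    _ = (if minV G Finset.univ < L then (1 : ℝ) else 0) *
        (rr n (frz S).card * (1 - rr n (frz S).card) ^ s) := by
        have e1 : (fun C : Clause 3 n => av (fun D : Fin s → Clause 3 n =>
            (if minV G Finset.univ < L then (1 : ℝ) else 0) *
          ((if Kills S C then (1 : ℝ) else 0) *
            ∏ j, (if Kills S (D j) then (0 : ℝ) else 1)))) = fun C =>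
            (if minV G Finset.univ < L then (1 : ℝ) else 0) *
              ((if Kills S C then (1 : ℝ) else 0) * (1 - rr n (frz S).card) ^ s) := by
          funext C
          rw [av_mul_left, av_mul_left, av_pow s (fun c => if Kills S c then (0 : ℝ) else 1), hk']
        rw [e1, av_mul_left, av_mul_right, hk]
    _ = _ := by
        split_ifs <;> ring

end Crest.Agent.KS
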