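import Crest.Agent.KS_C1
import Crest.Agent.KS_D1

/-! # KS-D3 : occupation time of `[L, 32 L)` (medium) -/

set_option autoImplicit false

noncomputable section
open Crest.ProbabilityR.RandomSAT
open Classical
namespace Crest.Agent.KS

private theorem yy_zero_eq (n L g : ℕ) :
    yy n L g 0 = av (fun G : Fin g → Clause 3 n =>
      if minV G Finset.univ < L then
        ((frz (Opt G Finset.univ)).card : ℝ) / (2 * n) else 0) := by
  unfold yy
  rw [av_prod]
  congr 1
  funext G
  have h : (fun h : Fin 0 → Clause 2 n =>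
      if minV G Finset.univ < L ∧ (OptH G Finset.univ h Finset.univ).Nonempty then
        ((frz (OptH G Finset.univ h Finset.univ)).card : ℝ) / (2 * n) else 0) =
      fun _ => if minV G Finset.univ < L then
        ((frz (Opt G Finset.univ)).card : ℝ) / (2 * n) else 0 := by
    funext h
    have e : OptH G Finset.univ h Finset.univ = Opt G Finset.univ := by
      have : (Finset.univ : Finset (Fin 0)) = ∅ := by simp
      rw [this, OptH_empty]
    rw [e]
    simp [Opt_nonempty G Finset.univ]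
  show av (fun h : Fin 0 → Clause 2 n =>
      if minV G Finset.univ < L ∧ (OptH G Finset.univ h Finset.univ).Nonempty then
        ((frz (OptH G Finset.univ h Finset.univ)).card : ℝ) / (2 * n) else 0) = _
  rw [h, av_const]

private theorem frz_card_le {n : ℕ} (S : Set (Fin n → Bool)) : (frz S).card ≤ n := by
  have := Finset.card_le_univ (frz S)
  simpa using this

/-- `two_time_count`, `two_time_prob`, `two_time_real` with `x = rr`, `a = card/(2n)`, `s = j³` -/
theorem two_time {n g j L : ℕ} (hn : 3 ≤ n) (hj : 1 ≤ j) :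
    av (fun F : Fin (g + 1 + j ^ 3) → Clause 3 n =>
      if minV F Finset.univ = minV F (pre (g + 1)) ∧ minV F Finset.univ ≤ L then
        (minV F Finset.univ : ℝ) else 0)
    ≤ ((g : ℝ) + 1) / (j : ℝ) ^ 2 * yy n L g 0 := by
  refine (two_time_count (n := n) (g := g) (s := j ^ 3) (L := L)).trans ?_
  have h1 := two_time_prob (n := n) (g := g) (s := j ^ 3) (L := L) hn
  have h2 : av (fun G : Fin g → Clause 3 n =>
      if minV G Finset.univ < L then
        rr n (frz (Opt G Finset.univ)).card * (1 - rr n (frz (Opt G Finset.univ)).card) ^ (j ^ 3)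
      else 0) ≤ 1 / (j : ℝ) ^ 2 * yy n L g 0 := by
    rw [yy_zero_eq, ← av_mul_left]
    apply av_mono
    intro G
    split_ifs with h
    · have hc := frz_card_le (Opt G Finset.univ)
      have := two_time_real (x := rr n (frz (Opt G Finset.univ)).card)
        (a := ((frz (Opt G Finset.univ)).card : ℝ) / (2 * n)) hj (rr_nonneg _ _)
        (rr_le_one hc) (by positivity) (rr_le hn hc)
      refine this.trans (le_of_eq ?_)
      ring
    · simp
  have h3 : (0 : ℝ) ≤ (g : ℝ) + 1 := by positivity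
  calc ((g : ℝ) + 1) * _ ≤ ((g : ℝ) + 1) * (1 / (j : ℝ) ^ 2 * yy n L g 0) :=
        mul_le_mul_of_nonneg_left (h1.trans h2) h3
    _ = ((g : ℝ) + 1) / (j : ℝ) ^ 2 * yy n L g 0 := by ring

/-- expected truncated energy -/
private def mm (n t : ℕ) (B : ℝ) : ℝ :=
  av (fun F : Fin t → Clause 3 n => min (minV F Finset.univ : ℝ) B)

private theorem mm_nonneg (n t : ℕ) {B : ℝ} (hB : 0 ≤ B) : 0 ≤ mm n t B :=
  av_nonneg fun _ => le_min (Nat.cast_nonneg _) hB

private theorem mm_le (n t : ℕ) {B : ℝ} (hB : 0 ≤ B) : mm n t B ≤ B :=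
  av_le_const hB fun _ => min_le_right _ _

private theorem minV_pre {n g s : ℕ} (F : Fin (g + s) → Clause 3 n) :
    minV (fun i : Fin g => F (Fin.castLE (Nat.le_add_right g s) i)) Finset.univ
      = minV F (pre g) := by
  have h := minV_map (Fin.castLEEmb (Nat.le_add_right g s)) F (Finset.univ : Finset (Fin g))
  have e : (Finset.univ : Finset (Fin g)).map (Fin.castLEEmb (Nat.le_add_right g s)) = pre g := by
    ext i
    simp only [pre, Finset.mem_map, Finset.mem_univ, true_and, Finset.mem_filter]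
    constructor
    · rintro ⟨a, rfl⟩
      simp
    · intro hi
      exact ⟨⟨i, hi⟩, by ext; simp⟩
  rw [e] at h
  exact h

private theorem av_pre {n g s : ℕ} (hn : 3 ≤ n) (B : ℝ) :
    av (fun F : Fin (g + s) → Clause 3 n => min (minV F (pre g) : ℝ) B) = mm n g B := by
  haveI : Nonempty (Clause 3 n) := clause_nonempty hn
  have h := av_castLE (α := Clause 3 n) (Nat.le_add_right g s)
    (fun G : Fin g → Clause 3 n => min (minV G Finset.univ : ℝ) B)
  rw [mm, ← h]
  congr 1
  funext F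
  rw [minV_pre]

private theorem step {n g s L : ℕ} (hn : 3 ≤ n) (hL : 1 ≤ L) :
    pV n (g + 1 + s) L (32 * L) ≤
      (1 / (L : ℝ)) * av (fun F : Fin (g + 1 + s) → Clause 3 n =>
        if minV F Finset.univ = minV F (pre (g + 1)) ∧ minV F Finset.univ ≤ 32 * L then
          (minV F Finset.univ : ℝ) else 0) +
      (mm n (g + 1 + s) (32 * L) - mm n (g + 1) (32 * L)) := by
  rw [← av_pre (g := g + 1) (s := s) hn (32 * (L : ℝ)), mm, ← av_sub, ← av_mul_left, ← av_add, pV]
  apply av_mono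
  intro F
  have hW : minV F (pre (g + 1)) ≤ minV F Finset.univ := minV_mono F (Finset.subset_univ _)
  set V := minV F Finset.univ
  set W := minV F (pre (g + 1))
  have hL0 : (0 : ℝ) < L := by exact_mod_cast hL
  have hV0 : (0 : ℝ) ≤ V := Nat.cast_nonneg _
  have hWV : (W : ℝ) ≤ V := by exact_mod_cast hW
  have hmin : min (W : ℝ) (32 * L) ≤ min (V : ℝ) (32 * L) := min_le_min_right _ hWV
  have hfirst : 0 ≤ (1 / (L : ℝ)) * (if V = W ∧ V ≤ 32 * L then (V : ℝ) else 0) := by
    split_ifs <;> positivity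
  by_cases hc : (L : ℝ) ≤ (V : ℝ) ∧ (V : ℝ) < 32 * L
  · rw [if_pos hc]
    have hc2 : V ≤ 32 * L := by
      have : (V : ℝ) ≤ ((32 * L : ℕ) : ℝ) := by push_cast; exact hc.2.le
      exact_mod_cast this
    by_cases he : V = W
    · rw [if_pos ⟨he, hc2⟩, ← he]
      have : 1 ≤ 1 / (L : ℝ) * V := by
        rw [one_div, inv_mul_eq_div, le_div_iff₀ hL0]; linarith [hc.1]
      linarith
    · have hlt : W + 1 ≤ V := by omega
      have hlt' : (W : ℝ) + 1 ≤ V := by exact_mod_cast hlt
      have e1 : min (V : ℝ) (32 * L) = V := min_eq_left hc.2.le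
      have e2 : min (W : ℝ) (32 * L) = W := min_eq_left (by linarith [hc.2])
      rw [e1, e2]
      linarith
  · rw [if_neg hc]
    linarith

private theorem telescoping (f : ℕ → ℝ) (B : ℝ) (h0 : ∀ t, 0 ≤ f t) (h1 : ∀ t, f t ≤ B)
    (G s : ℕ) : ∑ g ∈ Finset.range G, (f (g + s) - f g) ≤ s * B := by
  have e1 : ∑ x ∈ Finset.range (G + s), f x =
      ∑ x ∈ Finset.range G, f x + ∑ x ∈ Finset.range s, f (G + x) := Finset.sum_range_add _ _ _
  have e2 : ∑ x ∈ Finset.range (s + G), f x =
      ∑ x ∈ Finset.range s, f x + ∑ x ∈ Finset.range G, f (s + x) := Finset.sum_range_add _ _ _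
  have e3 : ∑ x ∈ Finset.range G, f (s + x) = ∑ x ∈ Finset.range G, f (x + s) :=
    Finset.sum_congr rfl fun x _ => by rw [Nat.add_comm]
  have e4 : 0 ≤ ∑ x ∈ Finset.range s, f x := Finset.sum_nonneg fun x _ => h0 x
  have e5 : ∑ x ∈ Finset.range s, f (G + x) ≤ s * B := by
    refine (Finset.sum_le_sum fun x _ => h1 (G + x)).trans ?_
    simp
  rw [Nat.add_comm s G] at e2
  rw [Finset.sum_sub_distrib]
  linarith

private theorem pV_le_one (n t : ℕ) (A B : ℝ) : pV n t A B ≤ 1 :=
  av_le_const zero_le_one fun _ => by split_ifs <;> norm_num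

/-- For `t ≥ j³ + 1` split `{L ≤ V_t < 32 L}` according to `V_t = V_{t - j³}` or not. First part: `≤ (1/L) E[V_t; V_t = V_{t-j³},
V_t ≤ 32 L]` and `two_time`. Second part: `1{V_t < 32L, V_t ≠ V_{t-s}} ≤ min(V_t, 32L) - min(V_{t-s}, 32L)`, telescoping:
`∑_t ≤ s · 32 L` (the expectation of `min(V_t, 32 L)` is in `[0, 32 L]`). -/
theorem occupation {n : ℕ} (hn : 3 ≤ n) (L T j : ℕ) (hL : 1 ≤ L) (hj : 1 ≤ j) :
    ∑ t ∈ Finset.range T, pV n t L (32 * L) ≤
      33 * L * (j : ℝ) ^ 3 + 2 + (T / (L * (j : ℝ) ^ 2)) * YY n (32 * L) T 0 := by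
  have hL1 : (1 : ℝ) ≤ L := by exact_mod_cast hL
  have hL0 : (0 : ℝ) < L := by linarith
  have hj1 : (1 : ℝ) ≤ j := by exact_mod_cast hj
  have hj3 : (0 : ℝ) ≤ (j : ℝ) ^ 3 := by positivity
  have hYY : 0 ≤ YY n (32 * L) T 0 := Finset.sum_nonneg fun t _ => yy_nonneg _ _ _ _
  have hcoef : 0 ≤ (T : ℝ) / (L * (j : ℝ) ^ 2) := by positivity
  have hjL : (j : ℝ) ^ 3 ≤ L * (j : ℝ) ^ 3 := le_mul_of_one_le_left hj3 hL1
  rcases le_total T (j ^ 3 + 1) with hT | hT
  · have h1 : ∑ t ∈ Finset.range T, pV n t L (32 * L) ≤ T := by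
      refine (Finset.sum_le_sum fun t _ => pV_le_one n t _ _).trans ?_
      simp
    have h2 : (T : ℝ) ≤ (j : ℝ) ^ 3 + 1 := by exact_mod_cast hT
    have h3 : 0 ≤ (T : ℝ) / (L * (j : ℝ) ^ 2) * YY n (32 * L) T 0 := mul_nonneg hcoef hYY
    linarith
  · obtain ⟨G, rfl⟩ := Nat.exists_eq_add_of_le hT
    set s := j ^ 3 with hs
    set T := s + 1 + G with hTdef
    have hsr : (s : ℝ) = (j : ℝ) ^ 3 := by rw [hs]; push_cast; ring
    have e1 : ∑ t ∈ Finset.range (s + 1 + G), pV n t L (32 * L) =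
        ∑ t ∈ Finset.range (s + 1), pV n t L (32 * L) +
        ∑ g ∈ Finset.range G, pV n (s + 1 + g) L (32 * L) := Finset.sum_range_add _ _ _
    have e2 : ∑ t ∈ Finset.range (s + 1), pV n t L (32 * L) ≤ (j : ℝ) ^ 3 + 1 := by
      refine (Finset.sum_le_sum fun t _ => pV_le_one n t _ _).trans ?_
      simp [hsr]
    have e3 : ∀ g ∈ Finset.range G, pV n (s + 1 + g) L (32 * L) ≤
        (T : ℝ) / (L * (j : ℝ) ^ 2) * yy n (32 * L) g 0 +
          (mm n (g + s + 1) (32 * L) - mm n (g + 1) (32 * L)) := by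
      intro g hg
      have hg' : g < G := Finset.mem_range.mp hg
      have h1 : s + 1 + g = g + 1 + s := by omega
      rw [h1]
      refine (step hn hL).trans ?_
      have h2 : g + 1 + s = g + s + 1 := by omega
      have h3 := two_time (n := n) (g := g) (j := j) (L := 32 * L) hn hj
      have h4 : 0 ≤ yy n (32 * L) g 0 := yy_nonneg _ _ _ _
      have h5 : (g : ℝ) + 1 ≤ T := by
        have : g + 1 ≤ T := by omega
        exact_mod_cast this
      have h6 : (1 / (L : ℝ)) * av (fun F : Fin (g + 1 + s) → Clause 3 n =>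
          if minV F Finset.univ = minV F (pre (g + 1)) ∧ minV F Finset.univ ≤ 32 * L then
            (minV F Finset.univ : ℝ) else 0) ≤
          (T : ℝ) / (L * (j : ℝ) ^ 2) * yy n (32 * L) g 0 := by
        calc _ ≤ (1 / (L : ℝ)) * (((g : ℝ) + 1) / (j : ℝ) ^ 2 * yy n (32 * L) g 0) :=
              mul_le_mul_of_nonneg_left h3 (by positivity)
          _ ≤ (1 / (L : ℝ)) * ((T : ℝ) / (j : ℝ) ^ 2 * yy n (32 * L) g 0) := by
              gcongr
          _ = (T : ℝ) / (L * (j : ℝ) ^ 2) * yy n (32 * L) g 0 := by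
              field_simp
      rw [h2] at *
      linarith
    have e4 : ∑ g ∈ Finset.range G, ((T : ℝ) / (L * (j : ℝ) ^ 2) * yy n (32 * L) g 0) ≤
        (T : ℝ) / (L * (j : ℝ) ^ 2) * YY n (32 * L) T 0 := by
      rw [← Finset.mul_sum]
      apply mul_le_mul_of_nonneg_left _ hcoef
      apply Finset.sum_le_sum_of_subset_of_nonneg
      · apply Finset.range_subset_range.mpr; omega
      · intro i _ _; exact yy_nonneg _ _ _ _
    have e5 : ∑ g ∈ Finset.range G, (mm n (g + s + 1) (32 * L) - mm n (g + 1) (32 * L)) ≤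
        s * (32 * (L : ℝ)) :=
      telescoping (fun g => mm n (g + 1) (32 * L)) (32 * L)
        (fun t => mm_nonneg n _ (by positivity)) (fun t => mm_le n _ (by positivity)) G s
    have e6 := Finset.sum_le_sum e3
    rw [Finset.sum_add_distrib] at e6
    rw [e1]
    rw [hsr] at e5
    linarith

end Crest.Agent.KS
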