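import Mathlib
import Crest.Prelude.Def_RandomSAT

/-!
# S0218: the random 3-SAT threshold is computable. Definitions (part P1: energy above threshold)

Paper proof: notes rid S0217 (helper84). Everything is a finite average `av` over uniform formulas.
`minV F I` = least number of violated clauses among the clauses `F j`, `j ∈ I`.
`OptH F I h J` = optimal assignments of `F` on `I` which satisfy the hard constraints `h j`, `j ∈ J`.
`frz S` = variables on which all elements of `S` agree (frozen variables).
-/

set_option autoImplicit false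

noncomputable section

open Crest.ProbabilityR.RandomSAT
open Classical

namespace Crest.Agent.KS

/-- average over a finite type -/
def av {α : Type*} [Fintype α] (f : α → ℝ) : ℝ := (∑ x, f x) / (Fintype.card α : ℝ)

/-- number of clauses with index in `I` violated by `σ` -/
def viol {k n : ℕ} {ι : Type*} (F : ι → Clause k n) (I : Finset ι) (σ : Fin n → Bool) : ℕ :=
  (I.filter (fun j => ¬ ClauseSat σ (F j))).card

/-- least number of violated clauses -/
def minV {k n : ℕ} {ι : Type*} (F : ι → Clause k n) (I : Finset ι) : ℕ :=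
  sInf (Set.range (viol F I))

/-- optimal assignments satisfying the hard constraints `h j`, `j ∈ J` -/
def OptH {k l n : ℕ} {ι κ : Type*} (F : ι → Clause k n) (I : Finset ι) (h : κ → Clause l n)
    (J : Finset κ) : Set (Fin n → Bool) :=
  {σ | viol F I σ = minV F I ∧ ∀ j ∈ J, ClauseSat σ (h j)}

/-- optimal assignments -/
def Opt {k n : ℕ} {ι : Type*} (F : ι → Clause k n) (I : Finset ι) : Set (Fin n → Bool) :=
  {σ | viol F I σ = minV F I}

/-- variables on which all assignments in `S` agree -/
def frz {n : ℕ} (S : Set (Fin n → Bool)) : Finset (Fin n) :=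
  Finset.univ.filter (fun y => ∀ σ ∈ S, ∀ τ ∈ S, σ y = τ y)

/-- the clause `c` is violated by all assignments in `S` -/
def Kills {k n : ℕ} (S : Set (Fin n → Bool)) (c : Clause k n) : Prop := ∀ σ ∈ S, ¬ ClauseSat σ c

/-- indices below `t` -/
def pre {T : ℕ} (t : ℕ) : Finset (Fin T) := Finset.univ.filter (fun j => (j : ℕ) < t)

/-- probability that `V(F_t) < L` and `M` random hard 2-clauses kill all optimal assignments -/
def kap (n L t M : ℕ) : ℝ :=
  av (fun x : (Fin t → Clause 3 n) × (Fin M → Clause 2 n) =>
    if minV x.1 Finset.univ < L ∧ ¬ (OptH x.1 Finset.univ x.2 Finset.univ).Nonempty then 1 else 0)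

/-- expected fraction (of all `2n` literals) of killed literals, `i` hard 2-clauses, alive, `V < L` -/
def yy (n L t i : ℕ) : ℝ :=
  av (fun x : (Fin t → Clause 3 n) × (Fin i → Clause 2 n) =>
    if minV x.1 Finset.univ < L ∧ (OptH x.1 Finset.univ x.2 Finset.univ).Nonempty then
      ((frz (OptH x.1 Finset.univ x.2 Finset.univ)).card : ℝ) / (2 * n) else 0)

/-- expected probability that one more hard 2-clause kills -/
def qq (n L t i : ℕ) : ℝ :=
  av (fun x : (Fin t → Clause 3 n) × (Fin i → Clause 2 n) =>
    if minV x.1 Finset.univ < L ∧ (OptH x.1 Finset.univ x.2 Finset.univ).Nonempty then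
      (((frz (OptH x.1 Finset.univ x.2 Finset.univ)).card.descFactorial 2 : ℕ) : ℝ) /
        (4 * (n.descFactorial 2 : ℕ)) else 0)

/-- probability that the fraction of killed literals is larger than `θ` (and at least 3 variables are
frozen) -/
def zz (n L t i : ℕ) (θ : ℝ) : ℝ :=
  av (fun x : (Fin t → Clause 3 n) × (Fin i → Clause 2 n) =>
    if minV x.1 Finset.univ < L ∧ (OptH x.1 Finset.univ x.2 Finset.univ).Nonempty ∧
      θ < ((frz (OptH x.1 Finset.univ x.2 Finset.univ)).card : ℝ) / (2 * n) ∧
      3 ≤ (frz (OptH x.1 Finset.univ x.2 Finset.univ)).card then 1 else 0)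

/-- `∑_{t<T} kap` -/
def KK (n L T M : ℕ) : ℝ := ∑ t ∈ Finset.range T, kap n L t M

/-- `∑_{t<T} yy` -/
def YY (n L T i : ℕ) : ℝ := ∑ t ∈ Finset.range T, yy n L t i

/-- probability that a uniform 3-clause kills `S` (given that `S` has `m` frozen variables, `S ≠ ∅`) -/
def rr (n m : ℕ) : ℝ := (m.descFactorial 3 : ℝ) / (8 * (n.descFactorial 3 : ℕ))

/-- probability that `A ≤ V(F_t) < B` for `t` random clauses on `n` variables -/
def pV (n t : ℕ) (A B : ℝ) : ℝ :=
  av (fun F : Fin t → Clause 3 n =>
    if A ≤ (minV F Finset.univ : ℝ) ∧ (minV F Finset.univ : ℝ) < B then 1 else 0)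

/-- expected energy of `m` random clauses -/
def uu (n m : ℕ) : ℝ := av (fun F : Fin m → Clause 3 n => (minV F Finset.univ : ℝ))

end Crest.Agent.KS
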