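import Crest.Agent.KS_C7
import Crest.Agent.KS_D3

/-! # KS-E : energy above the threshold (medium) -/

set_option autoImplicit false

noncomputable section
open Crest.ProbabilityR.RandomSAT
open Classical Filter
namespace Crest.Agent.KS

theorem occ_ceil {x : ℝ} {L : ℕ} (hL : L = ⌈x / 32⌉₊) (hx : 1 < x) :
    1 ≤ L ∧ (L : ℝ) ≤ 33 / 32 * x ∧ x ≤ 32 * L := by
  have h0 : 0 < x / 32 := by linarith
  have h1 : x / 32 ≤ (L : ℝ) := by rw [hL]; exact Nat.le_ceil _
  have h2 : (L : ℝ) < x / 32 + 1 := by rw [hL]; exact Nat.ceil_lt_add_one h0.le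
  refine ⟨?_, by linarith, by linarith⟩
  have : 0 < L := by rw [hL]; exact Nat.ceil_pos.2 h0
  exact this

theorem pV_split {n t : ℕ} {x : ℝ} {L : ℕ} (hL : L = ⌈x / 32⌉₊) (hx : 1 < x) :
    pV n t 1 x ≤ pV n t L (32 * L) + pV n t 1 (x / 32) := by
  unfold pV
  rw [← av_add]
  apply av_mono
  intro F
  have h3 := (occ_ceil hL hx).2.2
  by_cases h1 : (1 : ℝ) ≤ (minV F Finset.univ : ℝ) ∧ (minV F Finset.univ : ℝ) < x
  · rw [if_pos h1]
    by_cases h2 : (minV F Finset.univ : ℝ) < x / 32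
    · rw [if_pos (⟨h1.1, h2⟩ : (1 : ℝ) ≤ (minV F Finset.univ : ℝ) ∧
        (minV F Finset.univ : ℝ) < x / 32)]
      split_ifs <;> norm_num
    · have h4 : L ≤ minV F Finset.univ := by
        rw [hL]
        exact Nat.ceil_le.2 (not_lt.1 h2)
      have h5 : (L : ℝ) ≤ (minV F Finset.univ : ℝ) := by exact_mod_cast h4
      rw [if_pos (⟨h5, h1.2.trans_le h3⟩ : (L : ℝ) ≤ (minV F Finset.univ : ℝ) ∧
        (minV F Finset.univ : ℝ) < 32 * L)]
      split_ifs <;> norm_num
  · rw [if_neg h1]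
    split_ifs <;> norm_num

theorem occ_step_real {C c x N q T LL YYv : ℝ} {e : ℝ} (hC : 0 ≤ C)
    (he : 1 ≤ e) (hx : 1 < x) (hL1 : 1 ≤ LL) (hLx : LL ≤ 33 / 32 * x)
    (hN : N = x * 32 ^ (0:ℕ) * (e ^ 5)) (hq : q = N / e ^ 2) (hT : T ≤ c * N)
    (hc : 0 ≤ c) (hYY : YYv ≤ C * (32 * LL)) (hT0 : 0 ≤ T) :
    33 * LL * e ^ 3 + 2 + (T / (LL * e ^ 2)) * YYv ≤ (37 + 32 * C * c) * q := by
  have he0 : 0 < e := by linarith
  have hLL : 0 < LL := by linarith
  have hN' : N = x * e ^ 5 := by rw [hN]; ring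
  have hq' : q = x * e ^ 3 := by rw [hq, hN']; field_simp
  have h1 : 33 * LL * e ^ 3 ≤ 33 * (33 / 32 * x) * e ^ 3 := by
    apply mul_le_mul_of_nonneg_right _ (by positivity)
    linarith
  have h2 : (2 : ℝ) ≤ 2 * (x * e ^ 3) := by
    have : 1 ≤ e ^ 3 := one_le_pow₀ he
    nlinarith
  have h3 : (T / (LL * e ^ 2)) * YYv ≤ (T / (LL * e ^ 2)) * (C * (32 * LL)) :=
    mul_le_mul_of_nonneg_left hYY (by positivity)
  have h4 : (T / (LL * e ^ 2)) * (C * (32 * LL)) = 32 * C * (T / e ^ 2) := by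
    field_simp
  have h5 : T / e ^ 2 ≤ c * (x * e ^ 3) := by
    rw [div_le_iff₀ (by positivity)]
    calc T ≤ c * N := hT
      _ = c * (x * e ^ 3) * e ^ 2 := by rw [hN']; ring
  have h6 : 32 * C * (T / e ^ 2) ≤ 32 * C * (c * (x * e ^ 3)) :=
    mul_le_mul_of_nonneg_left h5 (by positivity)
  have h7 : 0 ≤ x * e ^ 3 := by positivity
  rw [hq']
  nlinarith

/-- sum `occupation` over `L = ⌈n/32^{i'+1}⌉`, `j = 2^{i'}`, `i' = i, i+1, …` while `n/32^{i'} ≥ 1`, with `YY_bound`. -/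
theorem occupation_sum (c : ℝ) (hc : 0 < c) : ∃ C : ℝ, 0 < C ∧ ∃ n0 : ℕ, ∀ n : ℕ, n0 ≤ n →
    ∀ T : ℕ, (T : ℝ) ≤ c * n → ∀ i : ℕ,
    ∑ t ∈ Finset.range T, pV n t 1 (n / 32 ^ i) ≤ C * n / 4 ^ i := by
  obtain ⟨C, hC, n0, hY⟩ := YY_bound c hc
  refine ⟨4 / 3 * (37 + 32 * C * c), by positivity, max n0 3, fun n hn T hT => ?_⟩
  have hn0 : n0 ≤ n := le_trans (le_max_left _ _) hn
  have hn3 : 3 ≤ n := le_trans (le_max_right _ _) hn
  have hnpos : (0 : ℝ) < n := by exact_mod_cast (by omega : 0 < n)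
  set K : ℝ := 37 + 32 * C * c with hK
  have hKpos : 0 < K := by positivity
  -- small case
  have small : ∀ i : ℕ, (n : ℝ) / 32 ^ i ≤ 1 →
      ∑ t ∈ Finset.range T, pV n t 1 (n / 32 ^ i) ≤ 4 / 3 * K * n / 4 ^ i := by
    intro i hi
    have h0 : ∀ t ∈ Finset.range T, pV n t 1 (n / 32 ^ i) = 0 := by
      intro t _
      unfold pV
      have : (fun F : Fin t → Clause 3 n =>
          if (1 : ℝ) ≤ (minV F Finset.univ : ℝ) ∧ (minV F Finset.univ : ℝ) < (n : ℝ) / 32 ^ i
            then (1 : ℝ) else 0) = fun _ => 0 := by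
        funext F
        rw [if_neg]
        rintro ⟨h1, h2⟩
        linarith
      rw [this]
      unfold av
      simp
    rw [Finset.sum_eq_zero h0]
    positivity
  have step : ∀ i : ℕ, ∑ t ∈ Finset.range T, pV n t 1 (n / 32 ^ (i + 1)) ≤
        4 / 3 * K * n / 4 ^ (i + 1) →
      ∑ t ∈ Finset.range T, pV n t 1 (n / 32 ^ i) ≤ 4 / 3 * K * n / 4 ^ i := by
    intro i hi
    rcases le_or_gt ((n : ℝ) / 32 ^ i) 1 with hx | hx
    · exact small i hx
    · obtain ⟨L, hL⟩ : ∃ L : ℕ, L = ⌈(n : ℝ) / 32 ^ i / 32⌉₊ := ⟨_, rfl⟩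
      obtain ⟨hL1, hL2, hL3⟩ := occ_ceil hL hx
      have e1 : (n : ℝ) / 32 ^ i / 32 = n / 32 ^ (i + 1) := by
        rw [pow_succ, div_div]
      have h1 : ∑ t ∈ Finset.range T, pV n t 1 (n / 32 ^ i) ≤
          ∑ t ∈ Finset.range T, pV n t L (32 * L) +
            ∑ t ∈ Finset.range T, pV n t 1 (n / 32 ^ (i + 1)) := by
        rw [← Finset.sum_add_distrib]
        apply Finset.sum_le_sum
        intro t _
        have := pV_split (n := n) (t := t) hL hx
        rw [e1] at this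
        exact this
      have h2 := occupation hn3 L T (2 ^ i) hL1 (Nat.one_le_two_pow)
      have h3 := hY n hn0 T hT (32 * L) (by omega)
      have hL1' : (1 : ℝ) ≤ L := by exact_mod_cast hL1
      have h4 : 33 * (L : ℝ) * ((2 : ℝ) ^ i) ^ 3 + 2 +
          ((T : ℝ) / ((L : ℝ) * ((2 : ℝ) ^ i) ^ 2)) * YY n (32 * L) T 0 ≤
            (37 + 32 * C * c) * ((n : ℝ) / 4 ^ i) := by
        apply occ_step_real (x := (n : ℝ) / 32 ^ i) (N := n) hC.le (one_le_pow₀ (by norm_num)) hx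
          hL1' hL2 _ _ hT hc.le _ (Nat.cast_nonneg _)
        · have : ((2 : ℝ) ^ i) ^ 5 = 32 ^ i := by
            rw [← pow_mul, mul_comm, pow_mul]; norm_num
          rw [this]
          have h32 : (32 : ℝ) ^ i ≠ 0 := by positivity
          field_simp
        · have : ((2 : ℝ) ^ i) ^ 2 = 4 ^ i := by
            rw [← pow_mul, mul_comm, pow_mul]; norm_num
          rw [this]
        · refine h3.trans (le_of_eq ?_)
          push_cast
          ring
      have h5 : ∑ t ∈ Finset.range T, pV n t L (32 * L) ≤ K * ((n : ℝ) / 4 ^ i) := by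
        refine h2.trans ?_
        push_cast
        exact h4
      have h6 : 4 / 3 * K * n / 4 ^ (i + 1) = 1 / 3 * K * ((n : ℝ) / 4 ^ i) := by
        rw [pow_succ]
        field_simp
        
      have h7 : 4 / 3 * K * n / 4 ^ i = 4 / 3 * (K * ((n : ℝ) / 4 ^ i)) := by
        ring
      rw [h7]
      rw [h6] at hi
      linarith
  have main : ∀ d i : ℕ, n ≤ i + d →
      ∑ t ∈ Finset.range T, pV n t 1 (n / 32 ^ i) ≤ 4 / 3 * K * n / 4 ^ i := by
    intro d
    induction d with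
    | zero =>
      intro i hi
      apply small
      rw [div_le_one (by positivity)]
      have h1 : n < 32 ^ n := Nat.lt_pow_self (by norm_num)
      have h2 : 32 ^ n ≤ 32 ^ i := Nat.pow_le_pow_right (by norm_num) (by omega)
      exact_mod_cast (h1.le.trans h2)
    | succ d ih =>
      intro i hi
      exact step i (ih (i + 1) (by omega))
  intro i
  exact main n i (by omega)

theorem satisfiable_iff {n m : ℕ} (F : Fin m → Clause 3 n) :
    Satisfiable F ↔ minV F Finset.univ = 0 := by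
  constructor
  · rintro ⟨σ, hσ⟩
    have h1 := minV_le F Finset.univ σ
    have h2 : viol F Finset.univ σ = 0 := by
      unfold viol
      rw [Finset.card_eq_zero, Finset.filter_eq_empty_iff]
      intro j _ h
      exact h (hσ j)
    omega
  · intro h
    obtain ⟨σ, hσ⟩ := exists_opt F Finset.univ
    refine ⟨σ, fun j => ?_⟩
    rw [h] at hσ
    unfold viol at hσ
    rw [Finset.card_eq_zero, Finset.filter_eq_empty_iff] at hσ
    exact not_not.1 (hσ (Finset.mem_univ j))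

/-- `satProb` is the probability that `minV = 0` -/
theorem satProb_eq (n m : ℕ) :
    satProb 3 n m = av (fun F : Fin m → Clause 3 n => if minV F Finset.univ = 0 then 1 else 0) := by
  unfold satProb Crest.FinProb.uniformProb av
  rw [Finset.sum_boole]
  congr 2
  apply congrArg Finset.card
  ext F
  rw [Finset.mem_filter, Finset.mem_filter, Set.mem_setOf_eq, satisfiable_iff]

theorem av_isEmpty {α : Type*} [Fintype α] [IsEmpty α] (f : α → ℝ) : av f = 0 := by
  unfold av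
  simp

theorem clause_isEmpty {n : ℕ} (hn : n < 3) : IsEmpty (Clause 3 n) := by
  refine ⟨fun c => ?_⟩
  have := Fintype.card_le_of_injective c.1.1 c.1.2
  simp at this
  omega

theorem univ_map_castLE {m m' : ℕ} (h : m ≤ m') {n : ℕ} (F : Fin m' → Clause 3 n) :
    minV (fun i => F (Fin.castLE h i)) Finset.univ ≤ minV F Finset.univ := by
  have h1 := minV_map (Fin.castLEEmb h) F Finset.univ
  have h2 : minV F (Finset.univ.map (Fin.castLEEmb h)) ≤ minV F Finset.univ :=
    minV_mono F (Finset.subset_univ _)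
  have h3 : (fun i => F (Fin.castLE h i)) = (fun j => F ((Fin.castLEEmb h) j)) := rfl
  rw [h3, h1]
  exact h2

/-- `satProb` is nonincreasing in the number of clauses -/
theorem satProb_anti (n : ℕ) {m m' : ℕ} (h : m ≤ m') : satProb 3 n m' ≤ satProb 3 n m := by
  rw [satProb_eq, satProb_eq]
  rcases lt_or_ge n 3 with hn | hn
  · rcases Nat.eq_zero_or_pos m' with h0 | h0
    · obtain rfl : m = m' := by omega
      exact le_refl _
    · haveI := clause_isEmpty hn
      haveI : IsEmpty (Fin m' → Clause 3 n) := ⟨fun F => (this.false (F ⟨0, h0⟩))⟩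
      rw [av_isEmpty]
      apply av_nonneg
      intro F
      split_ifs <;> norm_num
  · haveI : Nonempty (Clause 3 n) := clause_nonempty hn
    rw [← av_castLE h (fun F : Fin m → Clause 3 n => if minV F Finset.univ = 0 then (1 : ℝ) else 0)]
    apply av_mono
    intro F
    have h1 := univ_map_castLE h F
    by_cases h2 : minV F Finset.univ = 0
    · rw [if_pos h2, if_pos (by omega)]
    · rw [if_neg h2]
      split_ifs <;> norm_num

theorem uu_mono {n : ℕ} (hn : 3 ≤ n) {m m' : ℕ} (h : m ≤ m') : uu n m ≤ uu n m' := by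
  haveI : Nonempty (Clause 3 n) := clause_nonempty hn
  unfold uu
  rw [← av_castLE h (fun F : Fin m → Clause 3 n => (minV F Finset.univ : ℝ))]
  apply av_mono
  intro F
  exact_mod_cast univ_map_castLE h F

/-- probability that `V < B` is nonincreasing in the number of clauses -/
theorem pV_anti {n : ℕ} (hn : 3 ≤ n) {m m' : ℕ} (h : m ≤ m') (B : ℝ) :
    pV n m' 0 B ≤ pV n m 0 B := by
  haveI : Nonempty (Clause 3 n) := clause_nonempty hn
  unfold pV
  rw [← av_castLE h (fun F : Fin m → Clause 3 n =>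
    if (0 : ℝ) ≤ (minV F Finset.univ : ℝ) ∧ (minV F Finset.univ : ℝ) < B then (1 : ℝ) else 0)]
  apply av_mono
  intro F
  have h1 : (minV (fun i => F (Fin.castLE h i)) Finset.univ : ℝ) ≤ (minV F Finset.univ : ℝ) := by
    exact_mod_cast univ_map_castLE h F
  by_cases h2 : (0 : ℝ) ≤ (minV F Finset.univ : ℝ) ∧ (minV F Finset.univ : ℝ) < B
  · rw [if_pos h2, if_pos ⟨Nat.cast_nonneg _, lt_of_le_of_lt h1 h2.2⟩]
  · rw [if_neg h2]
    split_ifs <;> norm_num

theorem pV_zero_split (n t : ℕ) (B : ℝ) : pV n t 0 B ≤ satProb 3 n t + pV n t 1 B := by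
  rw [satProb_eq]
  unfold pV
  rw [← av_add]
  apply av_mono
  intro F
  by_cases h2 : (0 : ℝ) ≤ (minV F Finset.univ : ℝ) ∧ (minV F Finset.univ : ℝ) < B
  · rw [if_pos h2]
    by_cases h3 : minV F Finset.univ = 0
    · rw [if_pos h3]
      split_ifs <;> norm_num
    · rw [if_neg h3]
      have h4 : (1 : ℝ) ≤ (minV F Finset.univ : ℝ) := by
        exact_mod_cast Nat.one_le_iff_ne_zero.2 h3
      rw [if_pos ⟨h4, h2.2⟩]
      norm_num
  · rw [if_neg h2]
    split_ifs <;> norm_num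

/-- energy from below by the probability that `V ≥ B` -/
theorem uu_ge {n : ℕ} (hn : 3 ≤ n) (m : ℕ) {B : ℝ} (hB : 0 ≤ B) :
    B * (1 - pV n m 0 B) ≤ uu n m := by
  haveI : Nonempty (Clause 3 n) := clause_nonempty hn
  have h1 : (1 : ℝ) = av (fun _ : Fin m → Clause 3 n => (1 : ℝ)) := (av_const 1).symm
  rw [h1]
  unfold pV uu
  rw [← av_sub, ← av_mul_left]
  apply av_mono
  intro F
  by_cases h2 : (0 : ℝ) ≤ (minV F Finset.univ : ℝ) ∧ (minV F Finset.univ : ℝ) < B
  · rw [if_pos h2]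
    simp
  · rw [if_neg h2]
    have h3 : B ≤ (minV F Finset.univ : ℝ) := by
      by_contra h4
      exact h2 ⟨Nat.cast_nonneg _, not_le.1 h4⟩
    simpa using h3

theorem uu_nonneg (n m : ℕ) : 0 ≤ uu n m := av_nonneg fun _ => Nat.cast_nonneg _

theorem uu_le_sat {n : ℕ} (hn : 3 ≤ n) (m : ℕ) : uu n m ≤ m * (1 - satProb 3 n m) := by
  haveI : Nonempty (Clause 3 n) := clause_nonempty hn
  have h1 : (1 : ℝ) = av (fun _ : Fin m → Clause 3 n => (1 : ℝ)) := (av_const 1).symm
  rw [h1, satProb_eq]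
  unfold uu
  rw [← av_sub, ← av_mul_left]
  apply av_mono
  intro F
  by_cases h2 : minV F Finset.univ = 0
  · rw [if_pos h2, h2]
    simp
  · rw [if_neg h2]
    have h3 : (minV F Finset.univ : ℝ) ≤ m := by
      have := minV_le_card F Finset.univ
      rw [Finset.card_univ, Fintype.card_fin] at this
      exact_mod_cast this
    simpa using h3

/-- the counting step of `energy_above` for one `n` -/
theorem energy_count {n a b : ℕ} (hn : 3 ≤ n) (hab : a ≤ b) {B S : ℝ}
    (hS : ∑ t ∈ Finset.range b, pV n t 1 B ≤ S) :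
    ((b : ℝ) - a) * (pV n b 0 B - satProb 3 n a) ≤ S := by
  have h1 : ∑ t ∈ Finset.Ico a b, (pV n b 0 B - satProb 3 n a) ≤
      ∑ t ∈ Finset.Ico a b, pV n t 1 B := by
    apply Finset.sum_le_sum
    intro t ht
    rw [Finset.mem_Ico] at ht
    have h2 := pV_zero_split n t B
    have h3 := pV_anti hn ht.2.le B
    have h4 := satProb_anti n ht.1
    linarith
  rw [Finset.sum_const, Nat.card_Ico, nsmul_eq_mul, Nat.cast_sub hab] at h1
  have h5 : ∑ t ∈ Finset.Ico a b, pV n t 1 B ≤ ∑ t ∈ Finset.range b, pV n t 1 B := by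
    apply Finset.sum_le_sum_of_subset_of_nonneg
    · intro t ht
      rw [Finset.mem_Ico] at ht
      exact Finset.mem_range.2 ht.2
    · intro t _ _
      apply av_nonneg
      intro F
      split_ifs <;> norm_num
  linarith

theorem threshold_nonneg {α : ℝ} (hα : IsSharpThreshold (satProb 3) α) : 0 ≤ α := by
  by_contra h
  have h1 := (hα 0 le_rfl).2 (not_le.1 h)
  have h2 : (fun n : ℕ => satProb 3 n ⌊(0 : ℝ) * n⌋₊) = fun _ => 1 := by
    funext n
    rw [zero_mul, Nat.floor_zero, satProb_eq]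
    have : (fun F : Fin 0 → Clause 3 n => if minV F Finset.univ = 0 then (1 : ℝ) else 0)
        = fun _ => 1 := by
      funext F
      have h3 := minV_le_card F Finset.univ
      rw [Finset.card_univ, Fintype.card_fin] at h3
      rw [if_pos (by omega)]
    rw [this, av_const]
  rw [h2] at h1
  have := tendsto_nhds_unique h1 tendsto_const_nhds
  norm_num at this

theorem energy_real {C' Cn n b a P s q : ℝ} (hC' : 0 < C') (hCn : 16 * C' ≤ Cn)
    (hq : 1 ≤ q) (hn : 0 < n) (hb : (Cn / q) * n - 1 ≤ b) (ha : a ≤ (Cn / (2 * q)) * n)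
    (hbig : 4 * q ≤ Cn * n) (hS : (b - a) * (P - s) ≤ C' * n / q) (hs : s ≤ 1 / 4) :
    P ≤ 1 / 2 := by
  by_contra h
  have h1 : 1 / 4 < P - s := by
    have := not_le.1 h
    linarith
  have hq0 : 0 < q := by linarith
  have h2 : Cn / q * n / 4 ≤ b - a := by
    have h3 : 4 ≤ Cn / q * n := by
      rw [div_mul_eq_mul_div, le_div_iff₀ hq0]
      exact hbig
    have h4 : Cn / (2 * q) * n = (Cn / q * n) / 2 := by
      field_simp
    rw [h4] at ha
    linarith
  have hCn0 : 0 < Cn := by linarith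
  have h5 : 0 < Cn / q * n / 4 := by positivity
  have h6 : Cn / q * n / 4 * (1 / 4) < (b - a) * (P - s) := by
    apply mul_lt_mul' h2 h1 (by norm_num) (by linarith)
  have h7 : C' * n / q ≤ Cn / q * n / 4 * (1 / 4) := by
    have : Cn / q * n / 4 * (1 / 4) = Cn * n / 16 / q := by ring
    rw [this]
    apply div_le_div_of_nonneg_right _ hq0.le
    nlinarith
  linarith

/-- **linear energy above the threshold**: for `c ≥ α + C/4^i`: for `t` in `[(α+C/(2·4^i)) n, c n]`,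
`P(1 ≤ V_t < n/32^i) ≥ P(V_{cn} < n/32^i) - P(V_t = 0)`; the sum over `t` is `≤ C' n/4^i` (`occupation_sum`), so
`P(V_{cn} < n/32^i) ≤ 1/2` for large `n`, and the energy is at least `(1/2) n/32^i`. It is enough to treat
`c = α + C/4^i ≤ α + 1` (monotonicity). -/
theorem energy_above {α : ℝ} (hα : IsSharpThreshold (satProb 3) α) :
    ∃ C : ℕ, ∃ i0 : ℕ, ∀ i : ℕ, i0 ≤ i → ∀ c : ℝ, α + C / 4 ^ i ≤ c →
      ∀ᶠ n : ℕ in atTop, (n : ℝ) / (2 * 32 ^ i) ≤ uu n ⌊c * n⌋₊ := by
  have hα0 := threshold_nonneg hα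
  obtain ⟨C', hC', n0, hocc⟩ := occupation_sum (α + 1) (by linarith)
  obtain ⟨C, hC⟩ := exists_nat_ge (16 * C')
  have hCpos : (0 : ℝ) < C := by linarith
  obtain ⟨i0, hi0⟩ : ∃ i0 : ℕ, (C : ℝ) ≤ 4 ^ i0 := by
    obtain ⟨i0, hi0⟩ := pow_unbounded_of_one_lt (C : ℝ) (by norm_num : (1 : ℝ) < 4)
    exact ⟨i0, hi0.le⟩
  refine ⟨C, i0, fun i hi c hc => ?_⟩
  have h4pos : (0 : ℝ) < 4 ^ i := by positivity
  have h4one : (1 : ℝ) ≤ 4 ^ i := one_le_pow₀ (by norm_num)
  have hC4 : (C : ℝ) / 4 ^ i ≤ 1 := by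
    rw [div_le_one h4pos]
    exact hi0.trans (pow_le_pow_right₀ (by norm_num) hi)
  set c1 : ℝ := α + C / 4 ^ i with hc1
  set c0 : ℝ := α + C / (2 * 4 ^ i) with hc0
  have hc0α : α < c0 := by
    have : (0 : ℝ) < C / (2 * 4 ^ i) := by positivity
    linarith
  have hsat := (hα c0 (by linarith)).2 hc0α
  have hsat' : ∀ᶠ n : ℕ in atTop, satProb 3 n ⌊c0 * n⌋₊ ≤ 1 / 4 :=
    hsat.eventually (ge_mem_nhds (by norm_num))
  have hbig : ∀ᶠ n : ℕ in atTop, 4 * (4 : ℝ) ^ i ≤ C * n := by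
    have : Tendsto (fun n : ℕ => (C : ℝ) * n) atTop atTop :=
      tendsto_natCast_atTop_atTop.const_mul_atTop hCpos
    exact this.eventually (eventually_ge_atTop _)
  filter_upwards [hsat', hbig, eventually_ge_atTop n0, eventually_ge_atTop 3] with n hs hb hn0 hn3
  have hnpos : (0 : ℝ) < n := by exact_mod_cast (by omega : 0 < n)
  have hc01 : c0 ≤ c1 := by
    have : (C : ℝ) / (2 * 4 ^ i) ≤ C / 4 ^ i := by
      apply div_le_div_of_nonneg_left hCpos.le h4pos
      linarith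
    linarith
  have hab : ⌊c0 * n⌋₊ ≤ ⌊c1 * n⌋₊ :=
    Nat.floor_le_floor (mul_le_mul_of_nonneg_right hc01 hnpos.le)
  have hc1n : 0 ≤ c1 * n := by
    apply mul_nonneg _ hnpos.le
    linarith
  have hT : ((⌊c1 * n⌋₊ : ℕ) : ℝ) ≤ (α + 1) * n := by
    refine (Nat.floor_le hc1n).trans ?_
    apply mul_le_mul_of_nonneg_right _ hnpos.le
    linarith
  have hS := energy_count hn3 hab (hocc n hn0 _ hT i)
  have hP : pV n ⌊c1 * n⌋₊ 0 (n / 32 ^ i) ≤ 1 / 2 := by
    apply energy_real (b := (⌊c1 * n⌋₊ : ℝ) - α * n) (a := (⌊c0 * n⌋₊ : ℝ) - α * n) hC' hC h4one hnpos _ _ hb _ hs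
    · have := Nat.lt_floor_add_one (c1 * n)
      have e : c1 * n = α * n + C / 4 ^ i * n := by rw [hc1]; ring
      rw [e] at this
      have h9 : ((⌊c1 * n⌋₊ : ℕ) : ℝ) = ((⌊α * n + C / 4 ^ i * n⌋₊ : ℕ) : ℝ) := by rw [e]
      rw [h9]
      linarith
    · have h10 : 0 ≤ c0 * n := mul_nonneg (by linarith) hnpos.le
      have := Nat.floor_le h10
      have e : c0 * n = α * n + C / (2 * 4 ^ i) * n := by rw [hc0]; ring
      linarith
    · have e : ((⌊c1 * n⌋₊ : ℝ) - α * n) - ((⌊c0 * n⌋₊ : ℝ) - α * n) = (⌊c1 * n⌋₊ : ℝ) - ⌊c0 * n⌋₊ := by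
        ring
      rw [e]
      exact hS
  have hB : (0 : ℝ) ≤ n / 32 ^ i := by positivity
  have hU := uu_ge hn3 ⌊c1 * n⌋₊ hB
  have hmono : uu n ⌊c1 * n⌋₊ ≤ uu n ⌊c * n⌋₊ :=
    uu_mono hn3 (Nat.floor_le_floor (mul_le_mul_of_nonneg_right hc hnpos.le))
  calc (n : ℝ) / (2 * 32 ^ i) = n / 32 ^ i * (1 - 1 / 2) := by
        rw [mul_comm 2, ← div_div]; ring
    _ ≤ n / 32 ^ i * (1 - pV n ⌊c1 * n⌋₊ 0 (n / 32 ^ i)) := by
        apply mul_le_mul_of_nonneg_left _ hB
        linarith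
    _ ≤ uu n ⌊c1 * n⌋₊ := hU
    _ ≤ _ := hmono

/-- below the threshold the energy is `o(n)` -/
theorem energy_below {α : ℝ} (hα : IsSharpThreshold (satProb 3) α) {c : ℝ} (hc0 : 0 ≤ c)
    (hc : c < α) : Tendsto (fun n : ℕ => uu n ⌊c * n⌋₊ / n) atTop (nhds 0) := by
  have h1 := (hα c hc0).1 hc
  have h2 : Tendsto (fun n : ℕ => c * (1 - satProb 3 n ⌊c * n⌋₊)) atTop (nhds 0) := by
    have := (tendsto_const_nhds (x := (1 : ℝ)).sub h1).const_mul c
    simpa using this
  refine tendsto_of_tendsto_of_tendsto_of_le_of_le' tendsto_const_nhds h2 ?_ ?_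
  · exact Eventually.of_forall fun n => div_nonneg (uu_nonneg _ _) (Nat.cast_nonneg _)
  · filter_upwards [eventually_ge_atTop 3] with n hn
    have hnpos : (0 : ℝ) < n := by exact_mod_cast (by omega : 0 < n)
    have h3 := uu_le_sat hn ⌊c * n⌋₊
    have h4 : ((⌊c * n⌋₊ : ℕ) : ℝ) ≤ c * n := Nat.floor_le (by positivity)
    rw [div_le_iff₀ hnpos]
    rcases Nat.eq_zero_or_pos ⌊c * n⌋₊ with h0 | h0
    · rw [h0] at h3 ⊢
      have : uu n 0 ≤ 0 := by simpa using h3
      have h6 : satProb 3 n 0 ≤ 1 := by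
        rw [satProb_eq]
        apply av_le_const (by norm_num)
        intro F
        split_ifs <;> norm_num
      have : 0 ≤ c * (1 - satProb 3 n 0) * n := by
        apply mul_nonneg (mul_nonneg hc0 (by linarith)) hnpos.le
      linarith
    · have h6 : satProb 3 n ⌊c * n⌋₊ ≤ 1 := by
        rw [satProb_eq]
        apply av_le_const (by norm_num)
        intro F
        split_ifs <;> norm_num
      calc uu n ⌊c * n⌋₊ ≤ _ := h3
        _ ≤ (c * n) * (1 - satProb 3 n ⌊c * n⌋₊) :=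
          mul_le_mul_of_nonneg_right h4 (by linarith)
        _ = _ := by ring

end Crest.Agent.KS
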