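import Crest.Agent.KS_Rat1

/-!
# KS-Rat2 : rational approximation of a trial (easy/medium)

For a trial `t` and a large denominator `n`: exponents `⌊n m_d⌋ / n`, kernel
`(⌊n cum(s+1)⌋ - ⌊n cum(s)⌋) / n` where `cum s = ∑_{s' < s} κ H s'`, messages with
`tilt x true = x / n`, `x = ⌊n tilt(X H) true⌋` clamped to `1 … n-1`. Then `rawF_tendsto`.
-/

set_option autoImplicit false

open Crest.ProbabilityR.Diluted
open Crest.Agent.SGG
open Filter Topology

namespace Crest.Agent.KS.UC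

/-- the history of length `j` with code `h` -/
def dec {n : ℕ} (hn : 0 < n) : ℕ → ℕ → List (Fin n)
  | 0, _ => []
  | j + 1, h => ⟨h % n, Nat.mod_lt _ hn⟩ :: dec hn j (h / n)

theorem dec_code {n : ℕ} (hn : 0 < n) (H : List (Fin n)) : dec hn H.length (code H) = H := by
  induction H with
  | nil => rfl
  | cons s H ih =>
    rw [List.length_cons, code, dec]
    have h1 : ((s : ℕ) + n * code H) % n = s := by
      rw [Nat.add_mul_mod_self_left, Nat.mod_eq_of_lt s.isLt]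
    have h2 : ((s : ℕ) + n * code H) / n = code H := by
      rw [Nat.add_mul_div_left _ _ hn, Nat.div_eq_of_lt s.isLt, zero_add]
    rw [h2, ih]
    congr 1
    exact Fin.ext h1

theorem length_dec {n : ℕ} (hn : 0 < n) (j h : ℕ) : (dec hn j h).length = j := by
  induction j generalizing h with
  | zero => rfl
  | succ j ih => rw [dec, List.length_cons, ih]

/-- `∑_{s' < s} κ H s'` -/
noncomputable def cum {nS : ℕ} (κ : List (Fin nS) → Fin nS → ℝ) (H : List (Fin nS)) (s : ℕ) : ℝ :=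
  ∑ s' : Fin nS, if (s' : ℕ) < s then κ H s' else 0

theorem nS_pos (t : Trial) : 0 < t.nS := by
  rcases Nat.eq_zero_or_pos t.nS with h | h
  · exfalso
    have h1 := t.κ_sum []
    have h2 : IsEmpty (Fin t.nS) := by rw [h]; infer_instance
    rw [Finset.univ_eq_empty, Finset.sum_empty] at h1
    exact zero_ne_one h1
  · exact h

/-- rational approximation with denominator `n` -/
noncomputable def approx (t : Trial) (n : ℕ) : RT where
  r := t.r
  nS := t.nS
  Q := n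
  R := n
  E := fun d => if h : d < t.r then ⌊(n : ℝ) * t.m ⟨d, h⟩⌋₊ else 0
  kap := fun j h s => ⌊(n : ℝ) * cum t.κ (dec (nS_pos t) j h) (s + 1)⌋₊ -
    ⌊(n : ℝ) * cum t.κ (dec (nS_pos t) j h) s⌋₊
  x := fun h => max 1 (min (n - 1) ⌊(n : ℝ) * tilt (t.X (dec (nS_pos t) (t.r + 1) h)) true⌋₊)

private theorem rat2_cum_mono (t : Trial) (H : List (Fin t.nS)) : Monotone (cum t.κ H) := by
  intro a b hab
  unfold cum
  refine Finset.sum_le_sum fun s _ => ?_
  have := t.κ_nonneg H s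
  split_ifs with h1 h2
  · exact le_rfl
  · exact absurd (h1.trans_le hab) h2
  · exact this
  · exact le_rfl

private theorem rat2_cum_zero (t : Trial) (H : List (Fin t.nS)) : cum t.κ H 0 = 0 := by
  unfold cum
  simp

private theorem rat2_cum_nonneg (t : Trial) (H : List (Fin t.nS)) (s : ℕ) : 0 ≤ cum t.κ H s := by
  rw [← rat2_cum_zero t H]
  exact rat2_cum_mono t H (Nat.zero_le s)

private theorem rat2_cum_last (t : Trial) (H : List (Fin t.nS)) : cum t.κ H t.nS = 1 := by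
  unfold cum
  rw [← t.κ_sum H]
  refine Finset.sum_congr rfl fun s _ => ?_
  rw [if_pos s.isLt]

private theorem rat2_cum_succ (t : Trial) (H : List (Fin t.nS)) (s : Fin t.nS) :
    cum t.κ H ((s : ℕ) + 1) - cum t.κ H s = t.κ H s := by
  unfold cum
  rw [← Finset.sum_sub_distrib, Finset.sum_eq_single s]
  · simp
  · intro b _ hb
    have hb' : (b : ℕ) ≠ s := fun h => hb (Fin.ext h)
    by_cases h1 : (b : ℕ) < s
    · rw [if_pos h1, if_pos (by omega), sub_self]
    · rw [if_neg h1, if_neg (by omega), sub_self]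
  · simp

theorem approx_valid (t : Trial) : ∃ n0 : ℕ, ∀ n, n0 ≤ n → (approx t n).Valid := by
  -- bounds for the exponents
  have h1 : ∀ d : Fin t.r, ∃ n0 : ℕ, ∀ n : ℕ, n0 ≤ n → 1 ≤ (n : ℝ) * t.m d := by
    intro d
    obtain ⟨n0, hn0⟩ := exists_nat_ge (1 / t.m d)
    refine ⟨n0, fun n hn => ?_⟩
    have hd := (t.adm.2 d).1
    have : 1 / t.m d ≤ n := hn0.trans (by exact_mod_cast hn)
    rwa [div_le_iff₀ hd] at this
  have h2 : ∀ d : Fin t.r, ∃ n0 : ℕ, ∀ n : ℕ, n0 ≤ n → ∀ h : (d : ℕ) + 1 < t.r,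
      1 ≤ (n : ℝ) * (t.m ⟨d + 1, h⟩ - t.m d) := by
    intro d
    by_cases h : (d : ℕ) + 1 < t.r
    · have hd : 0 < t.m ⟨d + 1, h⟩ - t.m d := by
        have := t.adm.1 (show d < ⟨(d : ℕ) + 1, h⟩ from Fin.lt_def.2 (Nat.lt_succ_self _))
        linarith
      obtain ⟨n0, hn0⟩ := exists_nat_ge (1 / (t.m ⟨d + 1, h⟩ - t.m d))
      refine ⟨n0, fun n hn _ => ?_⟩
      have : 1 / (t.m ⟨d + 1, h⟩ - t.m d) ≤ n := hn0.trans (by exact_mod_cast hn)
      rwa [div_le_iff₀ hd] at this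
    · exact ⟨0, fun n _ h' => absurd h' h⟩
  choose a ha using h1
  choose b hb using h2
  refine ⟨2 + (∑ d, a d) + ∑ d, b d, fun n hn => ?_⟩
  have hn2 : 2 ≤ n := by omega
  have han : ∀ d, a d ≤ n := by
    intro d
    have := Finset.single_le_sum (f := a) (fun i _ => Nat.zero_le _) (Finset.mem_univ d)
    omega
  have hbn : ∀ d, b d ≤ n := by
    intro d
    have := Finset.single_le_sum (f := b) (fun i _ => Nat.zero_le _) (Finset.mem_univ d)
    omega
  have hnR : (0 : ℝ) < n := by exact_mod_cast (by omega : 0 < n)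
  refine
    { nS_pos := nS_pos t
      Q_pos := by show 0 < n; omega
      R_pos := by show 0 < n; omega
      E_pos := ?_
      E_lt := ?_
      kap_sum := ?_
      x_pos := ?_ }
  · intro d hd
    have hd' : d < t.r := hd
    show 0 < (if h : d < t.r then ⌊(n : ℝ) * t.m ⟨d, h⟩⌋₊ else 0) ∧
      (if h : d < t.r then ⌊(n : ℝ) * t.m ⟨d, h⟩⌋₊ else 0) < n
    rw [dif_pos hd']
    constructor
    · rw [Nat.floor_pos]
      exact ha ⟨d, hd'⟩ n (han _)
    · have h0 := t.adm.2 ⟨d, hd'⟩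
      rw [Nat.floor_lt (by have := h0.1; positivity)]
      have := h0.2
      nlinarith
  · intro d hd
    have hd' : d + 1 < t.r := hd
    have hd0 : d < t.r := by omega
    show (if h : d < t.r then ⌊(n : ℝ) * t.m ⟨d, h⟩⌋₊ else 0) <
      (if h : d + 1 < t.r then ⌊(n : ℝ) * t.m ⟨d + 1, h⟩⌋₊ else 0)
    rw [dif_pos hd', dif_pos hd0]
    have h0 := hb ⟨d, hd0⟩ n (hbn _) hd'
    have h00 := (t.adm.2 ⟨d, hd0⟩).1
    rw [← Nat.succ_le_iff, Nat.le_floor_iff (by have := (t.adm.2 ⟨d + 1, hd'⟩).1; positivity)]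
    push_cast
    have h3 := Nat.floor_le (show 0 ≤ (n : ℝ) * t.m ⟨d, hd0⟩ by positivity)
    have h4 : (n : ℝ) * (t.m ⟨d + 1, hd'⟩ - t.m ⟨d, hd0⟩) =
      n * t.m ⟨d + 1, hd'⟩ - n * t.m ⟨d, hd0⟩ := by ring
    have h5 : 1 ≤ (n : ℝ) * t.m ⟨d + 1, hd'⟩ - n * t.m ⟨d, hd0⟩ := by rw [← h4]; exact h0
    linarith
  · intro j _ h _
    show ∑ s ∈ Finset.range t.nS, (⌊(n : ℝ) * cum t.κ (dec (nS_pos t) j h) (s + 1)⌋₊ -
      ⌊(n : ℝ) * cum t.κ (dec (nS_pos t) j h) s⌋₊) = n
    have hm : Monotone fun s : ℕ => ⌊(n : ℝ) * cum t.κ (dec (nS_pos t) j h) s⌋₊ := by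
      intro a b hab
      exact Nat.floor_mono (mul_le_mul_of_nonneg_left (rat2_cum_mono t _ hab) hnR.le)
    rw [Finset.sum_range_tsub hm]
    simp only [rat2_cum_zero, rat2_cum_last, mul_zero, mul_one, Nat.floor_natCast, Nat.floor_zero,
      Nat.sub_zero]
  · intro h _
    show 0 < max 1 (min (n - 1) ⌊(n : ℝ) * tilt (t.X (dec (nS_pos t) (t.r + 1) h)) true⌋₊) ∧
      max 1 (min (n - 1) ⌊(n : ℝ) * tilt (t.X (dec (nS_pos t) (t.r + 1) h)) true⌋₊) < n
    constructor
    · exact lt_of_lt_of_le Nat.zero_lt_one (le_max_left _ _)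
    · rw [max_lt_iff]
      refine ⟨by omega, lt_of_le_of_lt (min_le_left _ _) (by omega)⟩

theorem tilt_true_inv (x : ℝ) :
    1 / 2 * Real.log (tilt x true / (1 - tilt x true)) = x := by
  have hs := tilt_sum x
  rw [Fintype.sum_bool] at hs
  have h1 : 1 - tilt x true = tilt x false := by linarith
  rw [h1]
  have hc := Real.cosh_pos x
  have h2 : tilt x true / tilt x false = Real.exp (2 * x) := by
    unfold tilt spinVal
    simp only [if_true, Bool.false_eq_true, if_false]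
    rw [div_div_div_cancel_right₀ (by positivity), ← Real.exp_sub]
    congr 1
    ring
  rw [h2, Real.log_exp]
  ring

private theorem rat2_floor (a : ℝ) (ha : 0 ≤ a) (n0 : ℕ) :
    Tendsto (fun k : ℕ => (⌊((k + n0 : ℕ) : ℝ) * a⌋₊ : ℝ) / ((k + n0 : ℕ) : ℝ)) atTop (𝓝 a) := by
  have h := tendsto_nat_floor_mul_div_atTop (R := ℝ) ha
  have h2 : Tendsto (fun k : ℕ => ((k + n0 : ℕ) : ℝ)) atTop atTop :=
    tendsto_natCast_atTop_atTop.comp (tendsto_add_atTop_nat n0)
  have h3 := h.comp h2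
  refine h3.congr fun k => ?_
  simp only [Function.comp]
  rw [mul_comm]

/-- rational trials suffice -/
theorem exists_rational {D : ℕ} (hD : 2 ≤ D) {c : ℝ} (hc : 0 ≤ c) (t : Trial)
    (ht : (core3 D hD).functional c t < 0) :
    ∃ (T : RT) (h : T.Valid), (core3 D hD).functional c (T.trial h) < 0 := by
  obtain ⟨n0, hn0⟩ := approx_valid t
  have hT : ∀ k, (approx t (k + n0)).Valid := fun k => hn0 _ (Nat.le_add_left _ _)
  have hQ : ∀ k, 0 < k + n0 := fun k => (hT k).Q_pos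
  rw [functional_eq_rawF] at ht
  have key : Tendsto (fun k => rawF D hD c (((approx t (k + n0)).trial (hT k)).κ)
      (((approx t (k + n0)).trial (hT k)).m) (((approx t (k + n0)).trial (hT k)).X)) atTop
      (𝓝 (rawF D hD c t.κ t.m t.X)) := by
    refine rawF_tendsto hD hc (nS := t.nS) (r := t.r) ?_ ?_ t.κ_nonneg t.κ_sum ?_
      (fun i => (t.adm.2 i).1) ?_ ?_ ?_
    · intro k H s
      exact ((approx t (k + n0)).trial (hT k)).κ_nonneg H s
    · intro k H
      exact ((approx t (k + n0)).trial (hT k)).κ_sum H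
    · intro k i
      exact (((approx t (k + n0)).trial (hT k)).adm.2 i).1
    · intro i
      have h := rat2_floor (t.m i) (t.adm.2 i).1.le n0
      refine h.congr fun k => ?_
      show _ = (((if h : (i : ℕ) < t.r then ⌊((k + n0 : ℕ) : ℝ) * t.m ⟨i, h⟩⌋₊ else 0 : ℕ)) : ℝ) /
        ((k + n0 : ℕ) : ℝ)
      rw [dif_pos i.isLt]
    · intro H hH s
      have h1 := rat2_floor (cum t.κ H ((s : ℕ) + 1)) (rat2_cum_nonneg t H _) n0
      have h0 := rat2_floor (cum t.κ H (s : ℕ)) (rat2_cum_nonneg t H _) n0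
      have h := h1.sub h0
      rw [rat2_cum_succ] at h
      refine h.congr fun k => ?_
      show _ = if H.length < t.r + 1 then
        (((⌊((k + n0 : ℕ) : ℝ) * cum t.κ (dec (nS_pos t) H.length (code H)) ((s : ℕ) + 1)⌋₊ -
          ⌊((k + n0 : ℕ) : ℝ) * cum t.κ (dec (nS_pos t) H.length (code H)) s⌋₊ : ℕ)) : ℝ) /
          ((k + n0 : ℕ) : ℝ) else if (s : ℕ) = 0 then 1 else 0
      rw [if_pos hH, dec_code, Nat.cast_sub, sub_div]
      exact Nat.floor_mono (mul_le_mul_of_nonneg_left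
        (rat2_cum_mono t H (Nat.le_succ _)) (Nat.cast_nonneg _))
    · intro H hH
      obtain ⟨τ, hτ⟩ : ∃ τ, τ = tilt (t.X H) true := ⟨_, rfl⟩
      have hτ0 : 0 < τ := by rw [hτ]; exact tilt_pos _ _
      have hτ1 : τ < 1 := by
        have hs := tilt_sum (t.X H)
        rw [Fintype.sum_bool] at hs
        have := tilt_pos (t.X H) false
        rw [hτ]; linarith
      have h1 := rat2_floor τ hτ0.le n0
      have h2 : Tendsto (fun k : ℕ => 1 / 2 * Real.log (((⌊((k + n0 : ℕ) : ℝ) * τ⌋₊ : ℝ) /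
          ((k + n0 : ℕ) : ℝ)) / (1 - (⌊((k + n0 : ℕ) : ℝ) * τ⌋₊ : ℝ) / ((k + n0 : ℕ) : ℝ)))) atTop
          (𝓝 (1 / 2 * Real.log (τ / (1 - τ)))) := by
        refine Tendsto.mul tendsto_const_nhds ?_
        refine Tendsto.log ?_ (div_pos hτ0 (by linarith)).ne'
        exact h1.div (tendsto_const_nhds.sub h1) (by linarith [sub_pos.2 hτ1] : (1 : ℝ) - τ ≠ 0)
      have h3 := tilt_true_inv (t.X H)
      rw [← hτ] at h3
      rw [h3] at h2
      refine h2.congr' ?_
      have e1 := h1.eventually (lt_mem_nhds hτ0)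
      have e2 := h1.eventually (gt_mem_nhds hτ1)
      filter_upwards [e1, e2] with k hk1 hk2
      have hk : (0 : ℝ) < ((k + n0 : ℕ) : ℝ) := by exact_mod_cast hQ k
      have g1 : 1 ≤ ⌊((k + n0 : ℕ) : ℝ) * τ⌋₊ := by
        have : (0 : ℝ) < (⌊((k + n0 : ℕ) : ℝ) * τ⌋₊ : ℝ) := by
          rcases (div_pos_iff.1 hk1) with h | h
          · exact h.1
          · exact absurd h.2 (not_lt.2 hk.le)
        exact_mod_cast this
      have g2 : ⌊((k + n0 : ℕ) : ℝ) * τ⌋₊ < k + n0 := by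
        rw [div_lt_one hk] at hk2
        exact_mod_cast hk2
      show _ = msg (k + n0) (max 1 (min (k + n0 - 1)
        ⌊((k + n0 : ℕ) : ℝ) * tilt (t.X (dec (nS_pos t) (t.r + 1) (code H))) true⌋₊))
      rw [← hH, dec_code, ← hτ, min_eq_right (by omega), max_eq_right g1]
      unfold msg
      congr 2
      have g3 : 1 - (⌊((k + n0 : ℕ) : ℝ) * τ⌋₊ : ℝ) / ((k + n0 : ℕ) : ℝ) =
          (((k + n0 : ℕ) : ℝ) - ⌊((k + n0 : ℕ) : ℝ) * τ⌋₊) / ((k + n0 : ℕ) : ℝ) := by
        field_simp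
      rw [g3, div_div_div_cancel_right₀ hk.ne']
  obtain ⟨k, hk⟩ := (key.eventually (gt_mem_nhds ht)).exists
  exact ⟨approx t (k + n0), hT k, by rw [functional_eq_rawF]; exact hk⟩

end Crest.Agent.KS.UC
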