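import Crest.Agent.KS_Low
import Crest.Agent.KS_Comp
import Crest.Agent.KS_Rat2

/-! # KS-Fin : final assembly of S0218 -/

set_option autoImplicit false

open Crest.ProbabilityR.RandomSAT
open Crest.ProbabilityR.Diluted
open Crest.Agent.SGG
open Finset Filter Topology

namespace Crest.Agent.KS.UC

theorem lvc {n m f t : (ℕ → ℕ) → ℕ} (hn : LocF n) (hm : LocF m) (hf : LocF f) (ht : LocF t) :
    LocF (fun W => vc (n W) (m W) (f W) (t W)) := by
  unfold vc
  locl

theorem lmm (C q s : ℕ) : LocF (fun W => mmW W C q s) := by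
  unfold mmW
  locl

theorem lowW_locF (C i0 q s : ℕ) : LocF (fun W => LowW W C i0 q s) := by
  unfold LowW
  have h1 := lmm C q s
  refine land ?_ (land ?_ (llt (lmul ?_ (ladd (lsum ?_ fun i => lvc ?_ ?_ ?_ ?_) ?_)) ?_)) <;> locl

theorem low_code {C i0 q s : ℕ} {W : ℕ → ℕ} (h : LowW W C i0 q s) :
    ∃ w, LowW (Nat.beta w) C i0 q s := by
  obtain ⟨N, hN⟩ := (lowW_locF C i0 q s).out W
  obtain ⟨w, hw⟩ := exists_beta W N
  refine ⟨w, ?_⟩
  have := hN (Nat.beta w) hw
  rw [this]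
  exact h

theorem pvc0 : Primrec (fun x : ℕ × ℕ × ℕ × ℕ => vc x.1 x.2.1 x.2.2.1 x.2.2.2) := by
  unfold vc
  primk

theorem pmm0 (C : ℕ) : Primrec (fun x : ℕ × ℕ × ℕ => mmW (Nat.beta x.2.2) C x.1 x.2.1) := by
  unfold mmW
  primk

attribute [local irreducible] vc mmW

theorem pvc {α : Type} [Primcodable α] {n m f t : α → ℕ} (hn : Primrec n) (hm : Primrec m)
    (hf : Primrec f) (ht : Primrec t) : Primrec (fun x => vc (n x) (m x) (f x) (t x)) :=
  pvc0.comp (hn.pair (hm.pair (hf.pair ht)))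

theorem pmm {α : Type} [Primcodable α] (C : ℕ) {n m f : α → ℕ} (hn : Primrec n) (hm : Primrec m)
    (hf : Primrec f) : Primrec (fun x => mmW (Nat.beta (f x)) C (n x) (m x)) :=
  (pmm0 C).comp (hn.pair (hm.pair hf))

theorem lowW_prim (C i0 : ℕ) :
    PrimrecPred (fun x : ℕ × ℕ × ℕ => LowW (Nat.beta x.2.2) C i0 x.1 x.2.1) := by
  unfold LowW
  repeat' (first
    | assumption
    | with_reducible exact Crest.Agent.KS.PR.pid
    | with_reducible exact Crest.Agent.KS.PR.pconst _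
    | with_reducible apply Crest.Agent.KS.PR.pand
    | with_reducible apply Crest.Agent.KS.PR.ple
    | with_reducible apply Crest.Agent.KS.PR.plt
    | with_reducible apply Crest.Agent.KS.UC.pvc
    | with_reducible apply Crest.Agent.KS.UC.pmm
    | with_reducible apply Crest.Agent.KS.PR.psum
    | with_reducible apply Crest.Agent.KS.PR.padd
    | with_reducible apply Crest.Agent.KS.PR.pmul
    | with_reducible apply Crest.Agent.KS.PR.ppow
    | with_reducible apply Crest.Agent.KS.PR.ppair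
    | with_reducible apply Crest.Agent.KS.PR.pbeta
    | with_reducible apply Crest.Agent.KS.PR.pfst
    | with_reducible apply Crest.Agent.KS.PR.psnd)

theorem up_sound {α : ℝ} (hα : IsSharpThreshold (satProb 3) α) {q s w : ℕ} (hq : 0 < q)
    (h : OkW (Nat.beta w) q s) : α ≤ (q : ℝ) / 2 ^ s := by
  by_contra hlt
  push Not at hlt
  have hc : (0 : ℝ) < (q : ℝ) / 2 ^ s := by positivity
  have h1 := (okW_iff (Nat.beta w) q s).2 h
  obtain ⟨δ, hδ, hev⟩ := upper_sound h1.hD hc _ h1.sound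
  have h2 := energy_below hα hc.le hlt
  have h3 := (h2.eventually (gt_mem_nhds hδ)).and hev
  obtain ⟨n, hn1, hn2⟩ := h3.exists
  exact absurd hn2 (not_le.2 hn1)

theorem up_complete {α : ℝ} (hα : IsSharpThreshold (satProb 3) α) {q s : ℕ}
    (h : α < (q : ℝ) / 2 ^ s) : ∃ w, OkW (Nat.beta w) q s := by
  have hα0 := threshold_nonneg hα
  have hc : (0 : ℝ) < (q : ℝ) / 2 ^ s := lt_of_le_of_lt hα0 h
  obtain ⟨C, i0, hE⟩ := energy_above hα
  have h1 : Tendsto (fun i : ℕ => α + (C : ℝ) / 4 ^ i) atTop (𝓝 (α + 0)) := by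
    refine tendsto_const_nhds.add ?_
    have := (tendsto_pow_atTop_nhds_zero_of_lt_one (r := (1 / 4 : ℝ)) (by norm_num)
      (by norm_num)).const_mul (C : ℝ)
    simp only [mul_zero] at this
    refine this.congr fun i => ?_
    rw [one_div, inv_pow, div_eq_mul_inv]
  rw [add_zero] at h1
  obtain ⟨i, hi1, hi2⟩ := ((h1.eventually (gt_mem_nhds h)).and (eventually_ge_atTop i0)).exists
  have h2 := hE i hi2 ((q : ℝ) / 2 ^ s) hi1.le
  have h3 : ∀ᶠ K : ℕ in atTop, (1 : ℝ) / (2 * 32 ^ i) ≤ uu K ⌊(q : ℝ) / 2 ^ s * K⌋₊ / K := by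
    filter_upwards [h2, eventually_gt_atTop 0] with n hn hn0
    have hn0' : (0 : ℝ) < n := by exact_mod_cast hn0
    rw [le_div_iff₀ hn0']
    calc 1 / (2 * 32 ^ i) * (n : ℝ) = (n : ℝ) / (2 * 32 ^ i) := by ring
      _ ≤ _ := hn
  obtain ⟨D, hD, t, ht⟩ := upper_complete hc (by positivity) h3
  obtain ⟨T, hT, hneg⟩ := exists_rational hD hc.le t ht
  obtain ⟨c, hok⟩ := cert_complete hT hD hneg
  exact exists_code hok

attribute [local irreducible] LowW OkW

theorem lowW_prim' (C i0 : ℕ) {β : Type} [Primcodable β] {w q s : β → ℕ} (hw : Primrec w)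
    (hq : Primrec q) (hs : Primrec s) :
    PrimrecPred (fun x => LowW (Nat.beta (w x)) C i0 (q x) (s x)) :=
  (lowW_prim C i0).comp (hq.pair (hs.pair hw))

theorem okW_prim' {β : Type} [Primcodable β] {w q s : β → ℕ} (hw : Primrec w)
    (hq : Primrec q) (hs : Primrec s) :
    PrimrecPred (fun x => OkW (Nat.beta (w x)) (q x) (s x)) :=
  okW_prim.comp (hq.pair (hs.pair hw))

theorem final {α : ℝ} (hα : IsSharpThreshold (satProb 3) α) :
    ∃ f : ℕ → ℕ, Computable f ∧ ∀ r : ℕ, |(f r : ℝ) / 2 ^ r - α| ≤ 1 / 2 ^ r := by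
  have hα0 := threshold_nonneg hα
  obtain ⟨C, i0, hE⟩ := energy_above hα
  -- n codes (q, w1, w2)
  let P : ℕ → ℕ → Prop := fun r n =>
    (n.unpair.1 = 0 ∨ LowW (Nat.beta n.unpair.2.unpair.1) C i0 (n.unpair.1 - 1) r) ∧
      OkW (Nat.beta n.unpair.2.unpair.2) (n.unpair.1 + 1) r
  have hP : PrimrecPred (fun x : ℕ × ℕ => P x.1 x.2) := by
    have e1 : Primrec (fun x : ℕ × ℕ => x.2.unpair.1) := by prim
    have e2 : Primrec (fun x : ℕ × ℕ => x.2.unpair.2.unpair.1) := by prim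
    have e3 : Primrec (fun x : ℕ × ℕ => x.2.unpair.2.unpair.2) := by prim
    refine PR.pand (PR.por (PR.peq e1 (PR.pconst 0)) ?_) ?_
    · exact lowW_prim' C i0 e2 (PR.psub e1 (PR.pconst 1)) Primrec.fst
    · exact okW_prim' e3 (PR.padd e1 (PR.pconst 1)) Primrec.fst
  have hex : ∀ r, ∃ n, P r n := by
    intro r
    have h2 : (0 : ℝ) < 2 ^ r := by positivity
    set q : ℕ := ⌊(2 : ℝ) ^ r * α⌋₊ with hq
    have hq1 : (q : ℝ) ≤ 2 ^ r * α := Nat.floor_le (by positivity)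
    have hq2 : 2 ^ r * α < (q : ℝ) + 1 := Nat.lt_floor_add_one _
    have hup : α < ((q + 1 : ℕ) : ℝ) / 2 ^ r := by
      rw [lt_div_iff₀ h2]; push_cast; linarith
    obtain ⟨w2, hw2⟩ := up_complete hα hup
    by_cases h0 : q = 0
    · refine ⟨Nat.pair q (Nat.pair 0 w2), ?_, ?_⟩
      · left; simp [h0]
      · simpa using hw2
    · have hlo : (((q - 1 : ℕ) : ℝ)) / 2 ^ r < α := by
        rw [div_lt_iff₀ h2, Nat.cast_sub (Nat.one_le_iff_ne_zero.2 h0)]; push_cast; linarith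
      obtain ⟨W, hW⟩ := low_complete hα C i0 hlo
      obtain ⟨w1, hw1⟩ := low_code hW
      refine ⟨Nat.pair q (Nat.pair w1 w2), ?_, ?_⟩
      · right; simpa using hw1
      · simpa using hw2
  obtain ⟨f, hf, hfP⟩ := PR.search hP hex
  refine ⟨fun r => (f r).unpair.1, (Primrec.fst.comp Primrec.unpair).to_comp.comp hf, fun r => ?_⟩
  obtain ⟨h1, h3⟩ := hfP r
  have h2 : (0 : ℝ) < 2 ^ r := by positivity
  have hup := up_sound hα (Nat.succ_pos _) h3
  have hlo : (((f r).unpair.1 : ℝ) - 1) / 2 ^ r ≤ α := by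
    rcases h1 with h1 | h1
    · rw [h1]
      refine le_trans ?_ hα0
      rw [div_le_iff₀ h2]; simp
    · by_cases h0 : (f r).unpair.1 = 0
      · rw [h0]
        refine le_trans ?_ hα0
        rw [div_le_iff₀ h2]; simp
      · have := low_sound hα hE h1
        rwa [Nat.cast_sub (Nat.one_le_iff_ne_zero.2 h0), Nat.cast_one] at this
  have e1 : (((f r).unpair.1 + 1 : ℕ) : ℝ) / 2 ^ r =
      ((f r).unpair.1 : ℝ) / 2 ^ r + 1 / 2 ^ r := by
    push_cast; ring
  have e2 : (((f r).unpair.1 : ℝ) - 1) / 2 ^ r =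
      ((f r).unpair.1 : ℝ) / 2 ^ r - 1 / 2 ^ r := by ring
  rw [e1] at hup
  rw [e2] at hlo
  rw [abs_le]
  constructor <;> linarith

end Crest.Agent.KS.UC
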