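import Crest.Agent.KS_Code
import Crest.Agent.SGG_Site

/-! # KS-Leaf : the leaves for `core3 D` and the functional in coded form (medium) -/

set_option autoImplicit false

open Crest.ProbabilityR.Diluted
open Crest.Agent.SGG

namespace Crest.Agent.KS.UC

private theorem leaf_msg {Q x : ℕ} (hx : 0 < x) (hxQ : x < Q) :
    Real.exp (msg Q x) ^ 2 = (x : ℝ) / ((Q : ℝ) - x) ∧ (0 : ℝ) < x ∧ (0 : ℝ) < (Q : ℝ) - x := by
  have h1 : (0 : ℝ) < x := by exact_mod_cast hx
  have h2 : (x : ℝ) < Q := by exact_mod_cast hxQ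
  have h3 : (0 : ℝ) < (Q : ℝ) - x := by linarith
  refine ⟨?_, h1, h3⟩
  rw [← Real.exp_nat_mul]
  unfold msg
  have : ((2 : ℕ) : ℝ) * (1 / 2 * Real.log ((x : ℝ) / ((Q : ℝ) - x))) =
      Real.log ((x : ℝ) / ((Q : ℝ) - x)) := by push_cast; ring
  rw [this, Real.exp_log (div_pos h1 h3)]

theorem tilt_msg_true {Q x : ℕ} (hx : 0 < x) (hxQ : x < Q) : tilt (msg Q x) true = (x : ℝ) / Q := by
  obtain ⟨h1, h2, h3⟩ := leaf_msg hx hxQ
  have h4 : 0 < Real.exp (msg Q x) := Real.exp_pos _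
  unfold tilt spinVal
  rw [Real.cosh_eq, Real.exp_neg]
  simp only [if_true, mul_one]
  have hQ : (0 : ℝ) < Q := by linarith
  rw [div_eq_div_iff (by positivity) hQ.ne']
  have h5 : Real.exp (msg Q x) ^ 2 * ((Q : ℝ) - x) = x := by
    rw [h1]; field_simp
  field_simp
  nlinarith

theorem tilt_msg_false {Q x : ℕ} (hx : 0 < x) (hxQ : x < Q) :
    tilt (msg Q x) false = ((Q - x : ℕ) : ℝ) / Q := by
  have h0 := tilt_sum (msg Q x)
  rw [Fintype.sum_bool, tilt_msg_true hx hxQ] at h0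
  have hQ : (0 : ℝ) < Q := by
    have : 0 < Q := by omega
    exact_mod_cast this
  rw [Nat.cast_sub hxQ.le, sub_div, div_self hQ.ne']
  linarith

theorem nv_le {Q ty x : ℕ} (hxQ : x < Q) : nv Q ty x ≤ Q := by
  unfold nv
  split_ifs <;> omega

/-- `e^θ = 1/D` if all three literals are violated, `1` otherwise -/
theorem exp_theta {D : ℕ} (hD : 2 ≤ D) (e p : ℕ) (s : Fin 3 → Bool) :
    Real.exp ((core3 D hD).theta (tyE D hD e p) s) =
      if ∀ i : Fin 3, s i ≠ decide (dg 2 e (p + i) = 0) then 1 / (D : ℝ) else 1 := by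
  have hD0 : (0 : ℝ) < D := by
    have : 0 < D := by omega
    exact_mod_cast this
  have h1 : ∀ i : Fin 3, (core3 D hD).f ((tyE D hD e p).2 i) (s i) =
      if s i = decide (dg 2 e (p + i) = 0) then 0 else 1 := by
    intro i
    show (if s i = decide ((⟨dg 2 e (p + i), _⟩ : Fin 2) = 0) then (0 : ℝ) else 1) = _
    have : ((⟨dg 2 e (p + i), Nat.mod_lt _ (by norm_num)⟩ : Fin 2) = 0) ↔ dg 2 e (p + i) = 0 := by
      rw [Fin.ext_iff]
      rfl
    simp only [this]
  have h2 : (core3 D hD).theta (tyE D hD e p) s =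
      Real.log (1 + bD D * ∏ l, (core3 D hD).f ((tyE D hD e p).2 l) (s l)) := rfl
  have h3 : ∏ l, (core3 D hD).f ((tyE D hD e p).2 l) (s l) =
      if ∀ i : Fin 3, s i ≠ decide (dg 2 e (p + i) = 0) then 1 else 0 := by
    simp_rw [h1]
    by_cases h : ∀ i : Fin 3, s i ≠ decide (dg 2 e (p + i) = 0)
    · rw [if_pos h]
      exact Finset.prod_eq_one fun i _ => if_neg (h i)
    · rw [if_neg h]
      push Not at h
      obtain ⟨i, hi⟩ := h
      exact Finset.prod_eq_zero (Finset.mem_univ i) (if_pos hi)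
  rw [h2, h3]
  by_cases h : ∀ i : Fin 3, s i ≠ decide (dg 2 e (p + i) = 0)
  · rw [if_pos h, if_pos h, mul_one, bD]
    have e1 : 1 + -(1 - 1 / (D : ℝ)) = 1 / D := by ring
    rw [e1, Real.exp_log (by positivity)]
  · rw [if_neg h, if_neg h, mul_zero, add_zero, Real.log_one, Real.exp_zero]

/-- probability of violating a literal -/
private theorem leaf_tilt {Q x : ℕ} (hx : 0 < x) (hxQ : x < Q) (ty : ℕ) :
    tilt (msg Q x) (!decide (ty = 0)) = (nv Q ty x : ℝ) / Q := by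
  unfold nv
  by_cases h : ty = 0
  · simp only [h, decide_true, Bool.not_true, if_true]
    exact tilt_msg_false hx hxQ
  · simp only [h, decide_false, Bool.not_false, if_false]
    exact tilt_msg_true hx hxQ

/-- general expansion: weights `1/D` on one configuration, `1` elsewhere. -/
private theorem leaf_sum {ι : Type} [Fintype ι] [DecidableEq ι] (x : ι → ℝ) (t : ι → Bool)
    (c : ℝ) [∀ s : ι → Bool, Decidable (∀ i, s i ≠ t i)] : ∑ s : ι → Bool, (if ∀ i, s i ≠ t i then c else 1) * ∏ i, tilt (x i) (s i) =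
      1 - (1 - c) * ∏ i, tilt (x i) (!(t i)) := by
  have h0 := sum_prod_tilt x
  have h1 : ∀ s : ι → Bool, (if ∀ i, s i ≠ t i then c else 1) * ∏ i, tilt (x i) (s i) =
      ∏ i, tilt (x i) (s i) - (if s = fun i => !(t i) then
        (1 - c) * ∏ i, tilt (x i) (s i) else 0) := by
    intro s
    have : (∀ i, s i ≠ t i) ↔ s = fun i => !(t i) := by
      constructor
      · intro h
        funext i
        have := h i
        cases hs : s i <;> cases ht : t i <;> simp_all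
      · intro h i
        rw [h]
        cases ht : t i <;> simp [ht]
    by_cases h : s = fun i => !(t i)
    · rw [if_pos (this.2 h), if_pos h]
      ring
    · rw [if_neg (fun h' => h (this.1 h')), if_neg h]
      ring
  simp_rw [h1]
  rw [Finset.sum_sub_distrib, h0, Finset.sum_ite_eq' Finset.univ]
  simp

private theorem leaf_X {T : RT} (h : T.Valid) (l ω a : ℕ) :
      0 < T.x (lab T.nS l ω (T.r + 1) a) ∧ T.x (lab T.nS l ω (T.r + 1) a) < T.Q :=
  h.x_pos _ (lab_lt h.nS_pos l ω (T.r + 1) a)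

theorem edgeW_leaf {T : RT} (h : T.Valid) {D : ℕ} (hD : 2 ≤ D) (e a : ℕ) :
    edgeW T h D hD e (fun ω => hs h.nS_pos 3 (T.r + 1) a ω) =
      (edgeNum T D e a : ℝ) / ((D * T.Q ^ 3 : ℕ) : ℝ) := by
  have hD0 : (0 : ℝ) < D := by
    have : 0 < D := by omega
    exact_mod_cast this
  have hQ0 : (0 : ℝ) < T.Q := by exact_mod_cast h.Q_pos
  show edgeTerm ((core3 D hD).theta (tyE D hD e 0))
    (fun l => msg T.Q (T.x (code (hs h.nS_pos 3 (T.r + 1) a l)))) = _
  unfold edgeTerm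
  simp_rw [exp_theta hD, zero_add, code_hs]
  rw [leaf_sum (fun l : Fin 3 => msg T.Q (T.x (lab T.nS 3 l (T.r + 1) a)))
    (fun i : Fin 3 => decide (dg 2 e i = 0)) (1 / (D : ℝ))]
  have h1 : ∀ i : Fin 3, tilt (msg T.Q (T.x (lab T.nS 3 i (T.r + 1) a)))
      (!decide (dg 2 e i = 0)) =
      (nv T.Q (dg 2 e i) (T.x (lab T.nS 3 i (T.r + 1) a)) : ℝ) / T.Q := by
    intro i
    obtain ⟨h3, h4⟩ := leaf_X h 3 i a
    exact leaf_tilt h3 h4 _
  simp_rw [h1]
  rw [Finset.prod_div_distrib, Finset.prod_const, Finset.card_univ, Fintype.card_fin]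
  have h5 : ∏ i : Fin 3, (nv T.Q (dg 2 e i) (T.x (lab T.nS 3 i (T.r + 1) a)) : ℝ) =
      ((∏ i ∈ Finset.range 3, nv T.Q (dg 2 e i) (T.x (lab T.nS 3 i (T.r + 1) a)) : ℕ) : ℝ) := by
    push_cast
    rw [Finset.prod_range]
  rw [h5]
  have h6 : (∏ i ∈ Finset.range 3, nv T.Q (dg 2 e i) (T.x (lab T.nS 3 i (T.r + 1) a))) ≤
      T.Q ^ 3 := by
    have := Finset.prod_le_pow_card (Finset.range 3)
      (fun i => nv T.Q (dg 2 e i) (T.x (lab T.nS 3 i (T.r + 1) a))) T.Q (fun i _ =>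
        nv_le (h.x_pos _ (lab_lt h.nS_pos 3 i (T.r + 1) a)).2)
    simpa using this
  have h7 : (D - 1) * (∏ i ∈ Finset.range 3, nv T.Q (dg 2 e i)
      (T.x (lab T.nS 3 i (T.r + 1) a))) ≤ D * T.Q ^ 3 :=
    Nat.mul_le_mul (Nat.sub_le _ _) h6
  unfold edgeNum
  rw [Nat.cast_sub h7]
  push_cast [Nat.cast_sub (show 1 ≤ D by omega)]
  field_simp

/-- the message of one clause towards its last variable, exponentiated -/
private theorem leaf_msgsum {D : ℕ} (hD : 2 ≤ D) (e p : ℕ) (x : Fin 2 → ℝ) (ε : Bool) :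
    ∑ s' : Fin 2 → Bool, Real.exp ((core3 D hD).theta (tyE D hD e p)
      (fun l : Fin 3 => if h : l.val < 3 - 1 then s' ⟨l.val, h⟩ else ε)) *
      ∏ l, tilt (x l) (s' l) =
      1 - (1 - (if ε ≠ decide (dg 2 e (p + 2) = 0) then 1 / (D : ℝ) else 1)) *
        ∏ i : Fin 2, tilt (x i) (!decide (dg 2 e (p + i) = 0)) := by
  rw [← leaf_sum x (fun i : Fin 2 => decide (dg 2 e (p + i) = 0))]
  refine Finset.sum_congr rfl fun s' _ => ?_
  congr 1
  rw [exp_theta hD]
  have h1 : (∀ i : Fin 3, (if h : i.val < 3 - 1 then s' ⟨i.val, h⟩ else ε) ≠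
      decide (dg 2 e (p + i) = 0)) ↔ ((∀ i : Fin 2, s' i ≠ decide (dg 2 e (p + i) = 0)) ∧
      ε ≠ decide (dg 2 e (p + 2) = 0)) := by
    constructor
    · intro H
      refine ⟨fun i => ?_, ?_⟩
      · have := H ⟨i.val, by omega⟩
        have hi : (i : ℕ) < 3 - 1 := i.isLt
        simpa only [hi, dif_pos] using this
      · have := H ⟨2, by norm_num⟩
        have hi : ¬ ((2 : ℕ) < 3 - 1) := by norm_num
        simpa only [hi, dif_neg, not_false_eq_true] using this
    · rintro ⟨H1, H2⟩ i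
      by_cases hi : (i : ℕ) < 3 - 1
      · rw [dif_pos hi]
        exact H1 ⟨i.val, hi⟩
      · rw [dif_neg hi]
        have : (i : ℕ) = 2 := by omega
        rw [this]
        exact H2
  by_cases ha : ∀ i : Fin 2, s' i ≠ decide (dg 2 e (p + i) = 0)
  · by_cases hb : ε ≠ decide (dg 2 e (p + 2) = 0)
    · rw [if_pos (h1.2 ⟨ha, hb⟩), if_pos ha, if_pos hb]
    · rw [if_neg (fun h => hb (h1.1 h).2), if_pos ha, if_neg hb]
  · rw [if_neg (fun h => ha (h1.1 h).1), if_neg ha]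

/-- the factor of a clause in `siteNum`. -/
private def leafF (T : RT) (D k e a ε j : ℕ) : ℕ :=
    (D * T.Q ^ 2 - if dg 2 e (3 * j + 2) = ε then
      (D - 1) * ∏ i ∈ Finset.range 2,
        nv T.Q (dg 2 e (3 * j + i)) (T.x (lab T.nS (k * 2) (i + 2 * j) (T.r + 1) a)) else 0)

private theorem leaf_prod_le {T : RT} (h : T.Valid) (k e a j : ℕ) :
    ∏ i ∈ Finset.range 2,
        nv T.Q (dg 2 e (3 * j + i)) (T.x (lab T.nS (k * 2) (i + 2 * j) (T.r + 1) a)) ≤ T.Q ^ 2 := by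
  have := Finset.prod_le_pow_card (Finset.range 2)
    (fun i => nv T.Q (dg 2 e (3 * j + i)) (T.x (lab T.nS (k * 2) (i + 2 * j) (T.r + 1) a))) T.Q
    (fun i _ => nv_le (h.x_pos _ (lab_lt h.nS_pos (k * 2) (i + 2 * j) (T.r + 1) a)).2)
  simpa using this

private theorem leafF_ge {T : RT} (h : T.Valid) {D : ℕ} (hD : 2 ≤ D) (k e a ε j : ℕ) :
    T.Q ^ 2 ≤ leafF T D k e a ε j := by
  have h1 := leaf_prod_le h k e a j
  unfold leafF
  set x := ∏ i ∈ Finset.range 2,
        nv T.Q (dg 2 e (3 * j + i)) (T.x (lab T.nS (k * 2) (i + 2 * j) (T.r + 1) a))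
  obtain ⟨d, rfl⟩ : ∃ d, D = d + 1 := ⟨D - 1, by omega⟩
  have h2 : (d + 1 - 1) * x ≤ d * T.Q ^ 2 := by
    rw [Nat.add_sub_cancel]
    exact Nat.mul_le_mul_left d h1
  have h3 : (d + 1) * T.Q ^ 2 = d * T.Q ^ 2 + T.Q ^ 2 := by ring
  split_ifs
  · omega
  · omega

private theorem leafF_le (T : RT) (D k e a ε j : ℕ) : leafF T D k e a ε j ≤ D * T.Q ^ 2 :=
  Nat.sub_le _ _

private theorem siteNum_eq (T : RT) (D k e a : ℕ) :
    siteNum T D k e a = ∑ ε ∈ Finset.range 2, ∏ j ∈ Finset.range k, leafF T D k e a ε j := rfl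

private theorem leaf_site_factor {T : RT} (h : T.Valid) {D : ℕ} (hD : 2 ≤ D) (k e a : ℕ)
    (j : Fin k) (ε : Bool) :
    Real.exp (siteMessage ((core3 D hD).theta (tyE D hD e (3 * j)))
      (fun l : Fin 2 => msg T.Q (T.x (lab T.nS (k * 2)
        ((finProdFinEquiv ((j, l) : Fin k × Fin 2) : Fin (k * 2)) : ℕ) (T.r + 1) a))) ε) =
      (leafF T D k e a (if ε then 1 else 0) j : ℝ) / (D * (T.Q : ℝ) ^ 2) := by
  have hD0 : (0 : ℝ) < D := by
    have : 0 < D := by omega
    exact_mod_cast this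
  have hQ0 : (0 : ℝ) < T.Q := by exact_mod_cast h.Q_pos
  unfold siteMessage
  rw [Real.exp_log (sum_exp_pos (S := Fin (3 - 1) → Bool) _
    (fun s' => (prod_tilt_pos _ s').le) (by rw [sum_prod_tilt]; exact one_pos) _)]
  rw [leaf_msgsum hD e (3 * j) (fun l : Fin 2 => msg T.Q (T.x (lab T.nS (k * 2)
        ((finProdFinEquiv ((j, l) : Fin k × Fin 2) : Fin (k * 2)) : ℕ) (T.r + 1) a))) ε]
  have h1 : ∀ i : Fin 2, tilt (msg T.Q (T.x (lab T.nS (k * 2)
        ((finProdFinEquiv ((j, i) : Fin k × Fin 2) : Fin (k * 2)) : ℕ) (T.r + 1) a)))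
      (!decide (dg 2 e (3 * j + i) = 0)) =
      (nv T.Q (dg 2 e (3 * j + i)) (T.x (lab T.nS (k * 2) (i + 2 * j) (T.r + 1) a)) : ℝ) / T.Q := by
    intro i
    have e1 : ((finProdFinEquiv ((j, i) : Fin k × Fin 2) : Fin (k * 2)) : ℕ) = i + 2 * j := rfl
    rw [e1]
    obtain ⟨h3, h4⟩ := leaf_X h (k * 2) (i + 2 * j) a
    exact leaf_tilt h3 h4 _
  simp_rw [h1]
  rw [Finset.prod_div_distrib, Finset.prod_const, Finset.card_univ, Fintype.card_fin]
  have h5 : ∏ i : Fin 2, (nv T.Q (dg 2 e (3 * j + i))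
      (T.x (lab T.nS (k * 2) (i + 2 * j) (T.r + 1) a)) : ℝ) =
      ((∏ i ∈ Finset.range 2, nv T.Q (dg 2 e (3 * j + i))
        (T.x (lab T.nS (k * 2) (i + 2 * j) (T.r + 1) a)) : ℕ) : ℝ) := by
    push_cast
    rw [Finset.prod_range]
  rw [h5]
  have h6 := leaf_prod_le h k e a j
  unfold leafF
  set x := ∏ i ∈ Finset.range 2,
        nv T.Q (dg 2 e (3 * j + i)) (T.x (lab T.nS (k * 2) (i + 2 * j) (T.r + 1) a)) with hx
  have h7 : (D - 1) * x ≤ D * T.Q ^ 2 := Nat.mul_le_mul (Nat.sub_le _ _) h6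
  have hdg : dg 2 e (3 * j + 2) < 2 := dg_lt (by norm_num) _ _
  have h8 : (ε ≠ decide (dg 2 e (3 * j + 2) = 0)) ↔
      (dg 2 e (3 * j + 2) = if ε then 1 else 0) := by
    cases ε
    · simp
    · simp only [if_true, ne_eq]
      rw [eq_comm, decide_eq_true_eq]
      omega
  by_cases h9 : dg 2 e (3 * j + 2) = if ε then 1 else 0
  · rw [if_pos (h8.2 h9), if_pos h9, Nat.cast_sub h7]
    push_cast [Nat.cast_sub (show 1 ≤ D by omega)]
    field_simp
  · rw [if_neg (fun h' => h9 (h8.1 h')), if_neg h9]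
    simp only [sub_self, zero_mul, sub_zero, Nat.sub_zero]
    push_cast
    field_simp

theorem siteW_leaf {T : RT} (h : T.Valid) {D : ℕ} (hD : 2 ≤ D) (k e a : ℕ) :
    siteW T h D hD k e (fun ω => hs h.nS_pos (k * 2) (T.r + 1) a (finProdFinEquiv ω)) =
      (siteNum T D k e a : ℝ) / ((2 * (D * T.Q ^ 2) ^ k : ℕ) : ℝ) := by
  have hD0 : (0 : ℝ) < D := by
    have : 0 < D := by omega
    exact_mod_cast this
  have hQ0 : (0 : ℝ) < T.Q := by exact_mod_cast h.Q_pos
  show siteTerm (p := 3) 0 (fun j : Fin k => (core3 D hD).theta (tyE D hD e (3 * j)))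
    (fun j l => msg T.Q (T.x (code (hs h.nS_pos (k * 2) (T.r + 1) a
      (finProdFinEquiv ((j, l) : Fin k × Fin 2)))))) = _
  unfold siteTerm
  simp_rw [code_hs, zero_mul, zero_add, Real.exp_sum]
  have h1 := fun (j : Fin k) (ε : Bool) => leaf_site_factor h hD k e a j ε
  simp only [h1]
  rw [siteNum_eq, Fintype.sum_bool, Finset.sum_range_succ, Finset.sum_range_one]
  simp only [if_true, Bool.false_eq_true, if_false]
  rw [Finset.prod_div_distrib, Finset.prod_div_distrib, Finset.prod_const, Finset.card_univ,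
    Fintype.card_fin]
  push_cast
  rw [Finset.prod_range, Finset.prod_range]
  have h2 : (0 : ℝ) < ((D : ℝ) * (T.Q : ℝ) ^ 2) ^ k := by positivity
  field_simp
  ring

theorem edgeNum_pos {T : RT} (h : T.Valid) {D : ℕ} (hD : 2 ≤ D) (e a : ℕ) :
    0 < edgeNum T D e a := by
  have h6 : (∏ i ∈ Finset.range 3, nv T.Q (dg 2 e i) (T.x (lab T.nS 3 i (T.r + 1) a))) ≤
      T.Q ^ 3 := by
    have := Finset.prod_le_pow_card (Finset.range 3)
      (fun i => nv T.Q (dg 2 e i) (T.x (lab T.nS 3 i (T.r + 1) a))) T.Q (fun i _ =>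
        nv_le (h.x_pos _ (lab_lt h.nS_pos 3 i (T.r + 1) a)).2)
    simpa using this
  unfold edgeNum
  set x := ∏ i ∈ Finset.range 3, nv T.Q (dg 2 e i) (T.x (lab T.nS 3 i (T.r + 1) a))
  obtain ⟨d, rfl⟩ : ∃ d, D = d + 1 := ⟨D - 1, by omega⟩
  have h2 : (d + 1 - 1) * x ≤ d * T.Q ^ 3 := by
    rw [Nat.add_sub_cancel]
    exact Nat.mul_le_mul_left d h6
  have h3 : (d + 1) * T.Q ^ 3 = d * T.Q ^ 3 + T.Q ^ 3 := by ring
  have h4 : 0 < T.Q ^ 3 := pow_pos h.Q_pos 3
  omega

theorem edgeNum_le {T : RT} (D e a : ℕ) : edgeNum T D e a ≤ D * T.Q ^ 3 :=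
  Nat.sub_le _ _

theorem siteNum_pos {T : RT} (h : T.Valid) {D : ℕ} (hD : 2 ≤ D) (k e a : ℕ) :
    0 < siteNum T D k e a := by
  rw [siteNum_eq]
  refine Finset.sum_pos (fun ε _ => Finset.prod_pos fun j _ => ?_) ⟨0, by simp⟩
  exact lt_of_lt_of_le (pow_pos h.Q_pos 2) (leafF_ge h hD k e a ε j)

theorem siteNum_le {T : RT} (D k e a : ℕ) : siteNum T D k e a ≤ 2 * (D * T.Q ^ 2) ^ k := by
  rw [siteNum_eq]
  calc ∑ ε ∈ Finset.range 2, ∏ j ∈ Finset.range k, leafF T D k e a ε j ≤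
      ∑ _ε ∈ Finset.range 2, (D * T.Q ^ 2) ^ k := by
        refine Finset.sum_le_sum fun ε _ => ?_
        have := Finset.prod_le_pow_card (Finset.range k) (fun j => leafF T D k e a ε j)
          (D * T.Q ^ 2) (fun j _ => leafF_le T D k e a ε j)
        simpa using this
    _ = 2 * (D * T.Q ^ 2) ^ k := by simp

/-- `siteNum / den ≥ D^{-k}` -/
theorem siteNum_ge {T : RT} (h : T.Valid) {D : ℕ} (hD : 2 ≤ D) (k e a : ℕ) :
    2 * (D * T.Q ^ 2) ^ k ≤ D ^ k * siteNum T D k e a := by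
  rw [siteNum_eq, Finset.mul_sum]
  have h1 : ∀ ε, (D * T.Q ^ 2) ^ k ≤ D ^ k * ∏ j ∈ Finset.range k, leafF T D k e a ε j := by
    intro ε
    rw [mul_pow]
    refine Nat.mul_le_mul_left _ ?_
    have := Finset.pow_card_le_prod (Finset.range k) (fun j => leafF T D k e a ε j)
      (T.Q ^ 2) (fun j _ => leafF_ge h hD k e a ε j)
    simpa using this
  rw [Finset.sum_range_succ, Finset.sum_range_one]
  have h2 := h1 0
  have h3 := h1 1
  omega

/-- literal types of `k` clauses as a single word. -/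
private def leafEquiv (k : ℕ) : (Fin (k * 3) → Fin 2) ≃ (Fin k → Fin 1 × (Fin 3 → Fin 2)) where
  toFun w := fun j => (0, fun i => w (finProdFinEquiv (j, i)))
  invFun e := fun ω => (e (finProdFinEquiv.symm ω).1).2 (finProdFinEquiv.symm ω).2
  left_inv w := by
    funext ω
    show w (finProdFinEquiv (finProdFinEquiv.symm ω)) = w ω
    rw [Equiv.apply_symm_apply]
  right_inv e := by
    funext j
    refine Prod.ext (Subsingleton.elim _ _) ?_
    funext i
    simp

private theorem leaf_wE {D : ℕ} (hD : 2 ≤ D) (e : (core3 D hD).E) :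
    (core3 D hD).wE e = 1 / 8 := by
  show (1 : ℝ) * ∏ _l : Fin 3, (1 / 2 : ℝ) = 1 / 8
  rw [Finset.prod_const, Finset.card_univ, Fintype.card_fin]
  norm_num

/-- average over the types of `k` clauses -/
theorem sum_types {D : ℕ} (hD : 2 ≤ D) (k : ℕ) (g : (Fin k → (core3 D hD).E) → ℝ) :
    ∑ e : Fin k → (core3 D hD).E, (∏ j, (core3 D hD).wE (e j)) * g e =
      (∑ e ∈ Finset.range (8 ^ k), g (fun j => tyE D hD e (3 * j))) / 8 ^ k := by
  simp_rw [leaf_wE hD]
  simp only [Finset.prod_const, Finset.card_univ, Fintype.card_fin]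
  rw [← Finset.mul_sum]
  have h8 : 8 ^ k = 2 ^ (k * 3) := by
    rw [mul_comm k 3, pow_mul]
    norm_num
  have h1 := sum_col (n := 2) (by norm_num) (k * 3)
    (fun w : Fin (k * 3) → Fin 2 => g (leafEquiv k w))
  have h2 : ∀ v : ℕ, g (leafEquiv k (fun ω : Fin (k * 3) => st (n := 2) (by norm_num) v ω)) =
      g (fun j => tyE D hD v (3 * j)) := by
    intro v
    congr 1
    funext j
    refine Prod.ext (Subsingleton.elim _ _) ?_
    funext i
    refine Fin.ext ?_
    show dg 2 v ((finProdFinEquiv ((j, i) : Fin k × Fin 3) : Fin (k * 3)) : ℕ) =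
      dg 2 v (3 * j + i)
    have e1 : ((finProdFinEquiv ((j, i) : Fin k × Fin 3) : Fin (k * 3)) : ℕ) = i + 3 * j := rfl
    rw [e1, add_comm]
  simp_rw [h2] at h1
  rw [h8, h1, (leafEquiv k).sum_comp g]
  rw [one_div, inv_pow, inv_mul_eq_div]
  rfl

theorem sum_type {D : ℕ} (hD : 2 ≤ D) (g : (core3 D hD).E → ℝ) :
    ∑ e : (core3 D hD).E, (core3 D hD).wE e * g e =
      (∑ e ∈ Finset.range 8, g (tyE D hD e 0)) / 8 := by
  have h1 := sum_types hD 1 (fun e => g (e 0))
  rw [← (Equiv.funUnique (Fin 1) (core3 D hD).E).sum_comp]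
  simp only [Fin.prod_univ_one, pow_one, Fin.val_eq_zero, mul_zero] at h1
  exact h1

theorem functional_eq {T : RT} (h : T.Valid) {D : ℕ} (hD : 2 ≤ D) (c : ℝ) :
    (core3 D hD).functional c (T.trial h) =
      Real.log 2 + (∑' k : ℕ, poissonWeight (c * 3) k * As T h D hD k) - c * 2 * Ae T h D hD := by
  have hs : ∀ k : ℕ, ∑ e : Fin k → (core3 D hD).E, (∏ j, (core3 D hD).wE (e j)) *
      ∑ y : Fin (core3 D hD).nH, (core3 D hD).wH y *
        (T.trial h).logT0 (L := Fin k × Fin (3 - 1))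
          (fun H => siteTerm ((core3 D hD).h y) (fun j => (core3 D hD).theta (e j))
            (fun j l => (T.trial h).X (H (j, l)))) = As T h D hD k := by
    intro k
    have h1 : ∀ e : Fin k → (core3 D hD).E, ∑ y : Fin (core3 D hD).nH, (core3 D hD).wH y *
        (T.trial h).logT0 (L := Fin k × Fin (3 - 1))
          (fun H => siteTerm ((core3 D hD).h y) (fun j => (core3 D hD).theta (e j))
            (fun j l => (T.trial h).X (H (j, l)))) =
        (T.trial h).logT0 (L := Fin k × Fin 2)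
          (fun H => siteTerm (p := 3) 0 (fun j => (core3 D hD).theta (e j))
            (fun j l => (T.trial h).X (H (j, l)))) := by
      intro e
      show ∑ y : Fin 1, (1 : ℝ) * (T.trial h).logT0 (L := Fin k × Fin 2)
          (fun H => siteTerm (p := 3) 0 (fun j => (core3 D hD).theta (e j))
            (fun j l => (T.trial h).X (H (j, l)))) = _
      simp
    simp_rw [h1]
    rw [sum_types hD k (fun e => (T.trial h).logT0 (L := Fin k × Fin 2)
          (fun H => siteTerm (p := 3) 0 (fun j => (core3 D hD).theta (e j))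
            (fun j l => (T.trial h).X (H (j, l)))))]
    unfold As
    have h2 : ∀ e : ℕ, (T.trial h).logT0 (L := Fin k × Fin 2)
          (fun H => siteTerm (p := 3) 0 (fun j => (core3 D hD).theta (tyE D hD e (3 * j)))
            (fun j l => (T.trial h).X (H (j, l)))) =
        (∑ a ∈ Finset.range (T.nS ^ (k * 2)),
          (kw T (k * 2) 0 0 a : ℝ) * Real.log (Us T h D hD k e 0 a)) / (T.Q : ℝ) ^ (k * 2) := by
      intro e
      exact logT0_eq h (finProdFinEquiv : Fin k × Fin 2 ≃ Fin (k * 2)) (siteW T h D hD k e)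
    simp_rw [h2]
    rw [← Finset.sum_div, div_div, mul_comm ((T.Q : ℝ) ^ (k * 2))]
  have he : ∑ e : (core3 D hD).E, (core3 D hD).wE e * (T.trial h).logT0 (L := Fin 3)
        (fun H => edgeTerm ((core3 D hD).theta e) (fun l => (T.trial h).X (H l))) =
        Ae T h D hD := by
    rw [sum_type hD (fun e => (T.trial h).logT0 (L := Fin 3)
        (fun H => edgeTerm ((core3 D hD).theta e) (fun l => (T.trial h).X (H l))))]
    unfold Ae
    have h2 : ∀ e : ℕ, (T.trial h).logT0 (L := Fin 3)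
        (fun H => edgeTerm ((core3 D hD).theta (tyE D hD e 0)) (fun l => (T.trial h).X (H l))) =
        (∑ a ∈ Finset.range (T.nS ^ 3),
          (kw T 3 0 0 a : ℝ) * Real.log (Ue T h D hD e 0 a)) / (T.Q : ℝ) ^ 3 := by
      intro e
      exact logT0_eq h (Equiv.refl (Fin 3)) (edgeW T h D hD e)
    simp_rw [h2]
    rw [← Finset.sum_div, div_div, mul_comm ((T.Q : ℝ) ^ 3)]
  unfold Core.functional
  rw [he]
  simp_rw [hs]
  norm_num

end Crest.Agent.KS.UC
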