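import Crest.Agent.KS_Cert

/-!
# KS-OkW : upper certificates coded by natural numbers

`OkW q s W` : the certificate read from the table `W : ℕ → ℕ` is correct. It depends on finitely
many values of `W` (`okW_loc`), hence tables `W = Nat.beta w` suffice (`exists_beta`), and it is
primitive recursive in `(q, s, w)` (`okW_primrec`).
-/

set_option autoImplicit false

open Finset

namespace Crest.Agent.KS.UC

/-! ### local functionals -/

/-- `f W` depends on finitely many values of `W` -/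
structure LocF {β : Type} (f : (ℕ → ℕ) → β) : Prop where
  out : ∀ W, ∃ N : ℕ, ∀ W', (∀ i, i < N → W' i = W i) → f W' = f W

theorem lconst {β : Type} (b : β) : LocF (fun _ => b) := ⟨fun _ => ⟨0, fun _ _ => rfl⟩⟩

theorem lapp {f : (ℕ → ℕ) → ℕ} (hf : LocF f) : LocF (fun W => W (f W)) := by
  refine ⟨fun W => ?_⟩
  obtain ⟨N, hN⟩ := hf.out W
  refine ⟨max N (f W + 1), fun W' h => ?_⟩
  have h1 : f W' = f W := hN W' fun i hi => h i (lt_of_lt_of_le hi (le_max_left _ _))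
  change W' (f W') = W (f W)
  rw [h1]
  exact h _ (lt_of_lt_of_le (Nat.lt_succ_self _) (le_max_right _ _))

theorem lmap2 {β γ δ : Type} (g : β → γ → δ) {f : (ℕ → ℕ) → β} {h : (ℕ → ℕ) → γ} (hf : LocF f)
    (hh : LocF h) : LocF (fun W => g (f W) (h W)) := by
  refine ⟨fun W => ?_⟩
  obtain ⟨N, hN⟩ := hf.out W
  obtain ⟨N', hN'⟩ := hh.out W
  refine ⟨max N N', fun W' h => ?_⟩
  have h1 := hN W' fun i hi => h i (lt_of_lt_of_le hi (le_max_left _ _))
  have h2 := hN' W' fun i hi => h i (lt_of_lt_of_le hi (le_max_right _ _))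
  change g (f W') _ = _
  rw [h1, h2]

theorem lmap {β γ : Type} (g : β → γ) {f : (ℕ → ℕ) → β} (hf : LocF f) :
    LocF (fun W => g (f W)) :=
  lmap2 (fun b (_ : Unit) => g b) hf (lconst ())

theorem ladd {f g : (ℕ → ℕ) → ℕ} (hf : LocF f) (hg : LocF g) : LocF (fun W => f W + g W) :=
  lmap2 _ hf hg
theorem lmul {f g : (ℕ → ℕ) → ℕ} (hf : LocF f) (hg : LocF g) : LocF (fun W => f W * g W) :=
  lmap2 _ hf hg
theorem lsub {f g : (ℕ → ℕ) → ℕ} (hf : LocF f) (hg : LocF g) : LocF (fun W => f W - g W) :=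
  lmap2 _ hf hg
theorem ldiv {f g : (ℕ → ℕ) → ℕ} (hf : LocF f) (hg : LocF g) : LocF (fun W => f W / g W) :=
  lmap2 _ hf hg
theorem lmod {f g : (ℕ → ℕ) → ℕ} (hf : LocF f) (hg : LocF g) : LocF (fun W => f W % g W) :=
  lmap2 _ hf hg
theorem lpow {f g : (ℕ → ℕ) → ℕ} (hf : LocF f) (hg : LocF g) : LocF (fun W => f W ^ g W) :=
  lmap2 _ hf hg
theorem lpair {f g : (ℕ → ℕ) → ℕ} (hf : LocF f) (hg : LocF g) :
    LocF (fun W => Nat.pair (f W) (g W)) := lmap2 _ hf hg
theorem lle {f g : (ℕ → ℕ) → ℕ} (hf : LocF f) (hg : LocF g) : LocF (fun W => f W ≤ g W) :=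
  lmap2 _ hf hg
theorem llt {f g : (ℕ → ℕ) → ℕ} (hf : LocF f) (hg : LocF g) : LocF (fun W => f W < g W) :=
  lmap2 _ hf hg
theorem leq {f g : (ℕ → ℕ) → ℕ} (hf : LocF f) (hg : LocF g) : LocF (fun W => f W = g W) :=
  lmap2 _ hf hg
theorem land {f g : (ℕ → ℕ) → Prop} (hf : LocF f) (hg : LocF g) : LocF (fun W => f W ∧ g W) :=
  lmap2 _ hf hg
theorem lite {f g u v : (ℕ → ℕ) → ℕ} (hf : LocF f) (hg : LocF g) (hu : LocF u) (hv : LocF v) :
    LocF (fun W => if f W = g W then u W else v W) := by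
  have h := lmap2 (fun (p : ℕ × ℕ) (q : ℕ × ℕ) => if p.1 = p.2 then q.1 else q.2)
    (lmap2 Prod.mk hf hg) (lmap2 Prod.mk hu hv)
  exact h

theorem exists_common {b : (ℕ → ℕ) → ℕ} {β : Type} {f : (ℕ → ℕ) → ℕ → β} (hb : LocF b)
    (hf : ∀ i, LocF (fun W => f W i)) (W : ℕ → ℕ) :
    ∃ N : ℕ, ∀ W', (∀ i, i < N → W' i = W i) → b W' = b W ∧ ∀ i, i < b W → f W' i = f W i := by
  obtain ⟨N, hN⟩ := hb.out W
  choose n hn using fun i => (hf i).out W
  refine ⟨max N ((range (b W)).sup n), fun W' h => ⟨?_, fun i hi => ?_⟩⟩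
  · exact hN W' fun i hi => h i (lt_of_lt_of_le hi (le_max_left _ _))
  · refine hn i W' fun j hj => h j (lt_of_lt_of_le hj (le_trans ?_ (le_max_right _ _)))
    exact Finset.le_sup (f := n) (Finset.mem_range.2 hi)

theorem lsum {b : (ℕ → ℕ) → ℕ} {f : (ℕ → ℕ) → ℕ → ℕ} (hb : LocF b)
    (hf : ∀ i, LocF (fun W => f W i)) : LocF (fun W => ∑ i ∈ range (b W), f W i) := by
  refine ⟨fun W => ?_⟩
  obtain ⟨N, hN⟩ := exists_common hb hf W
  refine ⟨N, fun W' h => ?_⟩
  obtain ⟨h1, h2⟩ := hN W' h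
  change ∑ i ∈ range (b W'), f W' i = ∑ i ∈ range (b W), f W i
  rw [h1]
  exact Finset.sum_congr rfl fun i hi => h2 i (Finset.mem_range.1 hi)

theorem lprod {b : (ℕ → ℕ) → ℕ} {f : (ℕ → ℕ) → ℕ → ℕ} (hb : LocF b)
    (hf : ∀ i, LocF (fun W => f W i)) : LocF (fun W => ∏ i ∈ range (b W), f W i) := by
  refine ⟨fun W => ?_⟩
  obtain ⟨N, hN⟩ := exists_common hb hf W
  refine ⟨N, fun W' h => ?_⟩
  obtain ⟨h1, h2⟩ := hN W' h
  change ∏ i ∈ range (b W'), f W' i = ∏ i ∈ range (b W), f W i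
  rw [h1]
  exact Finset.prod_congr rfl fun i hi => h2 i (Finset.mem_range.1 hi)

theorem lall {b : (ℕ → ℕ) → ℕ} {f : (ℕ → ℕ) → ℕ → Prop} (hb : LocF b)
    (hf : ∀ i, LocF (fun W => f W i)) : LocF (fun W => ∀ i, i < b W → f W i) := by
  refine ⟨fun W => ?_⟩
  obtain ⟨N, hN⟩ := exists_common hb hf W
  refine ⟨N, fun W' h => ?_⟩
  obtain ⟨h1, h2⟩ := hN W' h
  apply propext
  change (∀ i, i < b W' → f W' i) ↔ (∀ i, i < b W → f W i)
  rw [h1]
  constructor
  · intro h3 i hi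
    rw [← h2 i hi]; exact h3 i hi
  · intro h3 i hi
    rw [h2 i hi]; exact h3 i hi

theorem ldg {f g u : (ℕ → ℕ) → ℕ} (hf : LocF f) (hg : LocF g) (hu : LocF u) :
    LocF (fun W => dg (f W) (g W) (u W)) :=
  lmod (ldiv hg (lpow hf hu)) hf

theorem llab {n l ω j a : (ℕ → ℕ) → ℕ} (hn : LocF n) (hl : LocF l) (hω : LocF ω) (hj : LocF j)
    (ha : LocF a) : LocF (fun W => lab (n W) (l W) (ω W) (j W) (a W)) :=
  lsum (f := fun W i => dg (n W) (a W) (l W * i + ω W) * n W ^ i) hj fun i =>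
    lmul (ldg hn ha (ladd (lmul hl (lconst i)) hω)) (lpow hn (lconst i))

theorem lnv {f g u : (ℕ → ℕ) → ℕ} (hf : LocF f) (hg : LocF g) (hu : LocF u) :
    LocF (fun W => nv (f W) (g W) (u W)) :=
  lite hg (lconst 0) (lsub hf hu) hu

end Crest.Agent.KS.UC

/-- proves that an arithmetical expression is local -/
macro "locl" : tactic => `(tactic| repeat' (first
  | assumption
  | with_reducible exact Crest.Agent.KS.UC.lconst _
  | intro _
  | with_reducible apply Crest.Agent.KS.UC.lapp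
  | with_reducible apply Crest.Agent.KS.UC.land
  | with_reducible apply Crest.Agent.KS.UC.lle
  | with_reducible apply Crest.Agent.KS.UC.llt
  | with_reducible apply Crest.Agent.KS.UC.leq
  | with_reducible apply Crest.Agent.KS.UC.lall
  | with_reducible apply Crest.Agent.KS.UC.lite
  | with_reducible apply Crest.Agent.KS.UC.lsum
  | with_reducible apply Crest.Agent.KS.UC.lprod
  | with_reducible apply Crest.Agent.KS.UC.ladd
  | with_reducible apply Crest.Agent.KS.UC.lmul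
  | with_reducible apply Crest.Agent.KS.UC.lsub
  | with_reducible apply Crest.Agent.KS.UC.ldiv
  | with_reducible apply Crest.Agent.KS.UC.lmod
  | with_reducible apply Crest.Agent.KS.UC.lpow
  | with_reducible apply Crest.Agent.KS.UC.lpair
  | with_reducible apply Crest.Agent.KS.UC.ldg
  | with_reducible apply Crest.Agent.KS.UC.llab
  | with_reducible apply Crest.Agent.KS.UC.lnv))

namespace Crest.Agent.KS.UC

/-! ### the certificate coded by a table -/

section W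
variable (W : ℕ → ℕ)

local notation "D'" => W (Nat.pair 0 0)
local notation "r'" => W (Nat.pair 0 1)
local notation "nS'" => W (Nat.pair 0 2)
local notation "Q'" => W (Nat.pair 0 3)
local notation "R'" => W (Nat.pair 0 4)
local notation "M'" => W (Nat.pair 0 5)
local notation "P'" => W (Nat.pair 0 6)
local notation "K'" => W (Nat.pair 0 7)
local notation "n'" => W (Nat.pair 0 8)
local notation "Z'" => W (Nat.pair 0 9)
local notation "H'" => W (Nat.pair 0 10)

/-- the certificate coded by the table `W` -/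
def Cert.ofW : Cert where
  T :=
    { r := r'
      nS := nS'
      Q := Q'
      R := R'
      E := fun d => W (Nat.pair 1 d)
      kap := fun j h s => W (Nat.pair 2 (Nat.pair j (Nat.pair h s)))
      x := fun h => W (Nat.pair 3 h) }
  D := D'
  M := M'
  P := P'
  K := K'
  n := n'
  Z := Z'
  H := H'
  wt := fun k => W (Nat.pair 4 k)
  Gk := fun k => W (Nat.pair 5 k)
  S := fun k e j a => W (Nat.pair 6 (Nat.pair k (Nat.pair e (Nat.pair j a))))
  Se := fun e j a => W (Nat.pair 7 (Nat.pair e (Nat.pair j a)))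
  V := fun e a => W (Nat.pair 8 (Nat.pair e a))

def kwW (l j a v : ℕ) : ℕ :=
  ∏ ω ∈ range l, W (Nat.pair 2 (Nat.pair j (Nat.pair (lab nS' l ω j a) (dg nS' v ω))))

def edgeNumW (e a : ℕ) : ℕ :=
  D' * Q' ^ 3 - (D' - 1) * ∏ i ∈ range 3,
    nv Q' (dg 2 e i) (W (Nat.pair 3 (lab nS' 3 i (r' + 1) a)))

def siteNumW (k e a : ℕ) : ℕ :=
  ∑ ε ∈ range 2, ∏ j ∈ range k,
    (D' * Q' ^ 2 - if dg 2 e (3 * j + 2) = ε then
      (D' - 1) * ∏ i ∈ range 2,
        nv Q' (dg 2 e (3 * j + i)) (W (Nat.pair 3 (lab nS' (k * 2) (i + 2 * j) (r' + 1) a)))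
      else 0)

def SW (k e j a : ℕ) : ℕ := W (Nat.pair 6 (Nat.pair k (Nat.pair e (Nat.pair j a))))
def SeW (e j a : ℕ) : ℕ := W (Nat.pair 7 (Nat.pair e (Nat.pair j a)))
def VW (e a : ℕ) : ℕ := W (Nat.pair 8 (Nat.pair e a))

def Ok1 (q s : ℕ) : Prop :=
  0 < nS' ∧ 0 < Q' ∧ 0 < R' ∧
  (∀ d, d < r' → 0 < W (Nat.pair 1 d) ∧ W (Nat.pair 1 d) < R') ∧
  (∀ d, d < r' - 1 → W (Nat.pair 1 d) < W (Nat.pair 1 (d + 1))) ∧
  (∀ j, j < r' + 1 → ∀ h, h < nS' ^ j →
    ∑ t ∈ range nS', W (Nat.pair 2 (Nat.pair j (Nat.pair h t))) = Q') ∧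
  (∀ h, h < nS' ^ (r' + 1) → 0 < W (Nat.pair 3 h) ∧ W (Nat.pair 3 h) < Q') ∧
  2 ≤ D' ∧ 0 < M' ∧ 0 < P' ∧ (0 < n' ∧ 3 * q ≤ n' * 2 ^ s) ∧ 2 * P' ^ M' ≤ Z' ^ M' ∧
  (∀ k, k < K' → W (Nat.pair 4 k) * ((n' * 2 ^ s) ^ n' * 2 ^ (s * k) * Nat.factorial k) ≤
    P' * ((n' * 2 ^ s - 3 * q) ^ n' * (3 * q) ^ k))

def Ok2 : Prop :=
  ∀ k, k < K' → ∀ e, e < 8 ^ k → ∀ j, j < r' → ∀ a, a < (nS' ^ (k * 2)) ^ (j + 1) →
    ∑ v ∈ range (nS' ^ (k * 2)), kwW W (k * 2) (j + 1) a v *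
      SW W k e (j + 1) (v + nS' ^ (k * 2) * a) ^ (M' * W (Nat.pair 1 j)) ≤
    Q' ^ (k * 2) * SW W k e j a ^ (M' * W (Nat.pair 1 j))

def Ok3 : Prop :=
  ∀ k, k < K' → ∀ e, e < 8 ^ k → ∀ a, a < (nS' ^ (k * 2)) ^ (r' + 1) →
    siteNumW W k e a * P' ^ (R' * M') ≤ 2 * (D' * Q' ^ 2) ^ k * SW W k e r' a ^ (R' * M')

def Ok4 : Prop :=
  (∀ k, k < K' → ∀ e, e < 8 ^ k → ∀ a, a < nS' ^ (k * 2) → SW W k e 0 a ≤ P') ∧
  (∀ k, k < K' → W (Nat.pair 5 k) * (8 ^ k * Q' ^ (k * 2)) ≤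
    ∑ e ∈ range (8 ^ k), ∑ a ∈ range (nS' ^ (k * 2)), kwW W (k * 2) 0 0 a * (P' - SW W k e 0 a))

def Ok5 : Prop :=
  (∀ e, e < 8 → ∀ j, j < r' → ∀ a, a < (nS' ^ 3) ^ (j + 1) →
    Q' ^ 3 * SeW W e j a ^ (M' * W (Nat.pair 1 j)) ≤
      ∑ v ∈ range (nS' ^ 3), kwW W 3 (j + 1) a v *
        SeW W e (j + 1) (v + nS' ^ 3 * a) ^ (M' * W (Nat.pair 1 j))) ∧
  (∀ e, e < 8 → ∀ a, a < (nS' ^ 3) ^ (r' + 1) →
    D' * Q' ^ 3 * SeW W e r' a ^ (R' * M') ≤ edgeNumW W e a * P' ^ (R' * M')) ∧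
  (∀ e, e < 8 → ∀ a, a < nS' ^ 3 → 0 < SeW W e 0 a ∧ P' * P' ≤ SeW W e 0 a * VW W e a)

def Ok6 (q s : ℕ) : Prop :=
  ∑ e ∈ range 8, ∑ a ∈ range (nS' ^ 3), kwW W 3 0 0 a * (VW W e a - P') ≤ H' * (8 * Q' ^ 3) ∧
  M' * (Z' - P') * P' * 2 ^ s + 2 * q * R' * M' * H' * P' <
    2 ^ s * R' * M' * ∑ k ∈ range K', W (Nat.pair 4 k) * W (Nat.pair 5 k)

/-- the certificate coded by `W` is correct -/
def OkW (q s : ℕ) : Prop :=
  Ok1 W q s ∧ Ok2 W ∧ Ok3 W ∧ Ok4 W ∧ Ok5 W ∧ Ok6 W q s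

theorem okW_iff (q s : ℕ) : (Cert.ofW W).Ok q s ↔ OkW W q s := by
  constructor
  · intro h
    have hv := h.valid
    refine ⟨⟨hv.nS_pos, hv.Q_pos, hv.R_pos, hv.E_pos, fun d hd => hv.E_lt d ?_, hv.kap_sum,
      hv.x_pos, h.hD, h.hM, h.hP, h.hn, h.hZ, h.hwt⟩, h.site_node, h.site_leaf,
      ⟨h.site_top, h.site_sum⟩, ⟨h.edge_node, h.edge_leaf, h.edge_top⟩, ⟨h.edge_sum, h.final⟩⟩
    change d + 1 < W (Nat.pair 0 1)
    omega
  · rintro ⟨⟨h1, h2, h3, h4, h5, h6, h7, h8, h9, h10, h11, h12, h13⟩, h14, h15, ⟨h16, h17⟩,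
      ⟨h18, h19, h20⟩, ⟨h21, h22⟩⟩
    refine
      { valid :=
          { nS_pos := h1, Q_pos := h2, R_pos := h3, E_pos := h4, E_lt := fun d hd => h5 d ?_,
            kap_sum := h6, x_pos := h7 }
        hD := h8, hM := h9, hP := h10, hn := h11, hZ := h12, hwt := h13, site_node := h14
        site_leaf := h15, site_top := h16, site_sum := h17, edge_node := h18, edge_leaf := h19
        edge_top := h20, edge_sum := h21, final := h22 }
    change d + 1 < W (Nat.pair 0 1) at hd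
    omega

end W

/-! ### finite dependence -/

theorem lkw {l j a v : (ℕ → ℕ) → ℕ} (hl : LocF l) (hj : LocF j) (ha : LocF a) (hv : LocF v) :
    LocF (fun W => kwW W (l W) (j W) (a W) (v W)) := by
  unfold kwW
  locl

theorem lSW {k e j a : (ℕ → ℕ) → ℕ} (hl : LocF k) (hj : LocF e) (ha : LocF j) (hv : LocF a) :
    LocF (fun W => SW W (k W) (e W) (j W) (a W)) := by
  unfold SW
  locl

theorem lSeW {e j a : (ℕ → ℕ) → ℕ} (hj : LocF e) (ha : LocF j) (hv : LocF a) :
    LocF (fun W => SeW W (e W) (j W) (a W)) := by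
  unfold SeW
  locl

theorem lVW {e a : (ℕ → ℕ) → ℕ} (hj : LocF e) (hv : LocF a) :
    LocF (fun W => VW W (e W) (a W)) := by
  unfold VW
  locl

theorem ledge {e a : (ℕ → ℕ) → ℕ} (hj : LocF e) (hv : LocF a) :
    LocF (fun W => edgeNumW W (e W) (a W)) := by
  unfold edgeNumW
  locl

theorem lsite {k e a : (ℕ → ℕ) → ℕ} (hk : LocF k) (hj : LocF e) (hv : LocF a) :
    LocF (fun W => siteNumW W (k W) (e W) (a W)) := by
  unfold siteNumW
  locl

end Crest.Agent.KS.UC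

/-- extended `locl` -/
macro "loclk" : tactic => `(tactic| repeat' (first
  | assumption
  | with_reducible exact Crest.Agent.KS.UC.lconst _
  | intro _
  | with_reducible apply Crest.Agent.KS.UC.lapp
  | with_reducible apply Crest.Agent.KS.UC.land
  | with_reducible apply Crest.Agent.KS.UC.lle
  | with_reducible apply Crest.Agent.KS.UC.llt
  | with_reducible apply Crest.Agent.KS.UC.leq
  | with_reducible apply Crest.Agent.KS.UC.lall
  | with_reducible apply Crest.Agent.KS.UC.lite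
  | with_reducible apply Crest.Agent.KS.UC.lsum
  | with_reducible apply Crest.Agent.KS.UC.lprod
  | with_reducible apply Crest.Agent.KS.UC.ladd
  | with_reducible apply Crest.Agent.KS.UC.lmul
  | with_reducible apply Crest.Agent.KS.UC.lsub
  | with_reducible apply Crest.Agent.KS.UC.lpow
  | with_reducible apply Crest.Agent.KS.UC.lpair
  | with_reducible apply Crest.Agent.KS.UC.lkw
  | with_reducible apply Crest.Agent.KS.UC.lSW
  | with_reducible apply Crest.Agent.KS.UC.lSeW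
  | with_reducible apply Crest.Agent.KS.UC.lVW
  | with_reducible apply Crest.Agent.KS.UC.ledge
  | with_reducible apply Crest.Agent.KS.UC.lsite))

namespace Crest.Agent.KS.UC

theorem okW_locF (q s : ℕ) : LocF (fun W => OkW W q s) := by
  unfold OkW Ok1 Ok2 Ok3 Ok4 Ok5 Ok6
  loclk

end Crest.Agent.KS.UC

/-! ### primitive recursiveness -/

namespace Crest.Agent.KS.UC

section Prim
variable {α : Type} [Primcodable α]

theorem pdg {n a p : α → ℕ} (hn : Primrec n) (ha : Primrec a) (hp : Primrec p) :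
    Primrec (fun x => dg (n x) (a x) (p x)) := by
  unfold dg
  prim

theorem plab {n l ω j a : α → ℕ} (hn : Primrec n) (hl : Primrec l) (hω : Primrec ω)
    (hj : Primrec j) (ha : Primrec a) :
    Primrec (fun x => lab (n x) (l x) (ω x) (j x) (a x)) := by
  unfold lab
  refine PR.psum hj (PR.pmul ?_ ?_)
  · exact pdg (hn.comp Primrec.fst) (ha.comp Primrec.fst)
      (PR.padd (PR.pmul (hl.comp Primrec.fst) Primrec.snd) (hω.comp Primrec.fst))
  · exact PR.ppow (hn.comp Primrec.fst) Primrec.snd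

theorem pnv {n a p : α → ℕ} (hn : Primrec n) (ha : Primrec a) (hp : Primrec p) :
    Primrec (fun x => nv (n x) (a x) (p x)) := by
  unfold nv
  prim

end Prim

end Crest.Agent.KS.UC

/-- extended `prim` -/
macro "primk" : tactic => `(tactic| repeat' (first
  | assumption
  | with_reducible exact Crest.Agent.KS.PR.pid
  | with_reducible exact Crest.Agent.KS.PR.pconst _
  | with_reducible apply Crest.Agent.KS.PR.pand
  | with_reducible apply Crest.Agent.KS.PR.por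
  | with_reducible apply Crest.Agent.KS.PR.pnot
  | with_reducible apply Crest.Agent.KS.PR.ple
  | with_reducible apply Crest.Agent.KS.PR.plt
  | with_reducible apply Crest.Agent.KS.PR.peq
  | with_reducible apply Crest.Agent.KS.PR.pall
  | with_reducible apply Crest.Agent.KS.PR.pite
  | with_reducible apply Crest.Agent.KS.PR.psum
  | with_reducible apply Crest.Agent.KS.PR.pprodr
  | with_reducible apply Crest.Agent.KS.PR.padd
  | with_reducible apply Crest.Agent.KS.PR.pmul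
  | with_reducible apply Crest.Agent.KS.PR.psub
  | with_reducible apply Crest.Agent.KS.PR.pdiv
  | with_reducible apply Crest.Agent.KS.PR.pmod
  | with_reducible apply Crest.Agent.KS.PR.ppow
  | with_reducible apply Crest.Agent.KS.PR.ppair
  | with_reducible apply Crest.Agent.KS.PR.pbeta
  | with_reducible apply Crest.Agent.KS.PR.pfact
  | with_reducible apply Crest.Agent.KS.UC.pdg
  | with_reducible apply Crest.Agent.KS.UC.plab
  | with_reducible apply Crest.Agent.KS.UC.pnv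
  | with_reducible apply Crest.Agent.KS.PR.pfst
  | with_reducible apply Crest.Agent.KS.PR.psnd
  | with_reducible apply Crest.Agent.KS.PR.pprod))

namespace Crest.Agent.KS.UC

theorem pkw0 : Primrec (fun x : ℕ × ℕ × ℕ × ℕ × ℕ =>
    kwW (Nat.beta x.1) x.2.1 x.2.2.1 x.2.2.2.1 x.2.2.2.2) := by
  unfold kwW
  primk

theorem pSW0 : Primrec (fun x : ℕ × ℕ × ℕ × ℕ × ℕ =>
    SW (Nat.beta x.1) x.2.1 x.2.2.1 x.2.2.2.1 x.2.2.2.2) := by
  unfold SW
  primk

theorem pSeW0 : Primrec (fun x : ℕ × ℕ × ℕ × ℕ =>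
    SeW (Nat.beta x.1) x.2.1 x.2.2.1 x.2.2.2) := by
  unfold SeW
  primk

theorem pVW0 : Primrec (fun x : ℕ × ℕ × ℕ => VW (Nat.beta x.1) x.2.1 x.2.2) := by
  unfold VW
  primk

theorem pedge0 : Primrec (fun x : ℕ × ℕ × ℕ => edgeNumW (Nat.beta x.1) x.2.1 x.2.2) := by
  unfold edgeNumW
  primk

theorem psite0 : Primrec (fun x : ℕ × ℕ × ℕ × ℕ =>
    siteNumW (Nat.beta x.1) x.2.1 x.2.2.1 x.2.2.2) := by
  unfold siteNumW
  primk

attribute [local irreducible] kwW siteNumW edgeNumW SW SeW VW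

section Prim
variable {α : Type} [Primcodable α]

theorem pkw {w l j a v : α → ℕ} (hw : Primrec w) (hl : Primrec l) (hj : Primrec j)
    (ha : Primrec a) (hv : Primrec v) :
    Primrec (fun x => kwW (Nat.beta (w x)) (l x) (j x) (a x) (v x)) :=
  pkw0.comp (hw.pair (hl.pair (hj.pair (ha.pair hv))))

theorem pSW {w l j a v : α → ℕ} (hw : Primrec w) (hl : Primrec l) (hj : Primrec j)
    (ha : Primrec a) (hv : Primrec v) :
    Primrec (fun x => SW (Nat.beta (w x)) (l x) (j x) (a x) (v x)) :=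
  pSW0.comp (hw.pair (hl.pair (hj.pair (ha.pair hv))))

theorem pSeW {w l j a : α → ℕ} (hw : Primrec w) (hl : Primrec l) (hj : Primrec j)
    (ha : Primrec a) : Primrec (fun x => SeW (Nat.beta (w x)) (l x) (j x) (a x)) :=
  pSeW0.comp (hw.pair (hl.pair (hj.pair ha)))

theorem pVW {w l j : α → ℕ} (hw : Primrec w) (hl : Primrec l) (hj : Primrec j) :
    Primrec (fun x => VW (Nat.beta (w x)) (l x) (j x)) :=
  pVW0.comp (hw.pair (hl.pair hj))

theorem pedge {w l j : α → ℕ} (hw : Primrec w) (hl : Primrec l) (hj : Primrec j) :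
    Primrec (fun x => edgeNumW (Nat.beta (w x)) (l x) (j x)) :=
  pedge0.comp (hw.pair (hl.pair hj))

theorem psite {w l j a : α → ℕ} (hw : Primrec w) (hl : Primrec l) (hj : Primrec j)
    (ha : Primrec a) : Primrec (fun x => siteNumW (Nat.beta (w x)) (l x) (j x) (a x)) :=
  psite0.comp (hw.pair (hl.pair (hj.pair ha)))

end Prim

end Crest.Agent.KS.UC

/-- extended `primk` -/
macro "primw" : tactic => `(tactic| repeat' (first
  | assumption
  | with_reducible exact Crest.Agent.KS.PR.pid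
  | with_reducible exact Crest.Agent.KS.PR.pconst _
  | with_reducible apply Crest.Agent.KS.PR.pand
  | with_reducible apply Crest.Agent.KS.PR.ple
  | with_reducible apply Crest.Agent.KS.PR.plt
  | with_reducible apply Crest.Agent.KS.PR.peq
  | with_reducible apply Crest.Agent.KS.PR.pall
  | with_reducible apply Crest.Agent.KS.PR.psum
  | with_reducible apply Crest.Agent.KS.PR.padd
  | with_reducible apply Crest.Agent.KS.PR.pmul
  | with_reducible apply Crest.Agent.KS.PR.psub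
  | with_reducible apply Crest.Agent.KS.PR.ppow
  | with_reducible apply Crest.Agent.KS.PR.ppair
  | with_reducible apply Crest.Agent.KS.PR.pbeta
  | with_reducible apply Crest.Agent.KS.PR.pfact
  | with_reducible apply Crest.Agent.KS.UC.pkw
  | with_reducible apply Crest.Agent.KS.UC.pSW
  | with_reducible apply Crest.Agent.KS.UC.pSeW
  | with_reducible apply Crest.Agent.KS.UC.pVW
  | with_reducible apply Crest.Agent.KS.UC.pedge
  | with_reducible apply Crest.Agent.KS.UC.psite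
  | with_reducible apply Crest.Agent.KS.PR.pfst
  | with_reducible apply Crest.Agent.KS.PR.psnd))

namespace Crest.Agent.KS.UC

theorem ok1_prim : PrimrecPred (fun x : ℕ × ℕ × ℕ => Ok1 (Nat.beta x.2.2) x.1 x.2.1) := by
  unfold Ok1
  primw

theorem ok2_prim : PrimrecPred (fun x : ℕ × ℕ × ℕ => Ok2 (Nat.beta x.2.2)) := by
  unfold Ok2
  primw

theorem ok3_prim : PrimrecPred (fun x : ℕ × ℕ × ℕ => Ok3 (Nat.beta x.2.2)) := by
  unfold Ok3
  primw

theorem ok4_prim : PrimrecPred (fun x : ℕ × ℕ × ℕ => Ok4 (Nat.beta x.2.2)) := by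
  unfold Ok4
  primw

theorem ok5_prim : PrimrecPred (fun x : ℕ × ℕ × ℕ => Ok5 (Nat.beta x.2.2)) := by
  unfold Ok5
  primw

theorem ok6_prim : PrimrecPred (fun x : ℕ × ℕ × ℕ => Ok6 (Nat.beta x.2.2) x.1 x.2.1) := by
  unfold Ok6
  primw

theorem okW_prim : PrimrecPred (fun x : ℕ × ℕ × ℕ => OkW (Nat.beta x.2.2) x.1 x.2.1) :=
  ok1_prim.and (ok2_prim.and (ok3_prim.and (ok4_prim.and (ok5_prim.and ok6_prim))))

/-! ### codes -/

/-- every finite table is coded by a natural number -/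
theorem exists_beta (W : ℕ → ℕ) (N : ℕ) : ∃ w : ℕ, ∀ i, i < N → Nat.beta w i = W i := by
  refine ⟨Nat.unbeta ((List.range N).map W), fun i hi => ?_⟩
  have h := Nat.beta_unbeta_coe ((List.range N).map W) ⟨i, by simpa using hi⟩
  simpa using h

/-- the table of a certificate -/
def Cert.toW (c : Cert) (i : ℕ) : ℕ :=
  let u := i.unpair
  match u.1 with
  | 0 => match u.2 with
    | 0 => c.D
    | 1 => c.T.r
    | 2 => c.T.nS
    | 3 => c.T.Q
    | 4 => c.T.R
    | 5 => c.M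
    | 6 => c.P
    | 7 => c.K
    | 8 => c.n
    | 9 => c.Z
    | _ => c.H
  | 1 => c.T.E u.2
  | 2 => c.T.kap u.2.unpair.1 u.2.unpair.2.unpair.1 u.2.unpair.2.unpair.2
  | 3 => c.T.x u.2
  | 4 => c.wt u.2
  | 5 => c.Gk u.2
  | 6 => c.S u.2.unpair.1 u.2.unpair.2.unpair.1 u.2.unpair.2.unpair.2.unpair.1
      u.2.unpair.2.unpair.2.unpair.2
  | 7 => c.Se u.2.unpair.1 u.2.unpair.2.unpair.1 u.2.unpair.2.unpair.2
  | _ => c.V u.2.unpair.1 u.2.unpair.2

theorem ofW_toW (c : Cert) : Cert.ofW c.toW = c := by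
  obtain ⟨⟨r, nS, Q, R, E, kap, x⟩, D, M, P, K, n, Z, H, wt, Gk, S, Se, V⟩ := c
  simp [Cert.ofW, Cert.toW, Nat.unpair_pair]

/-- correct certificates are coded by natural numbers -/
theorem exists_code {q s : ℕ} {c : Cert} (h : c.Ok q s) : ∃ w, OkW (Nat.beta w) q s := by
  have h1 : OkW c.toW q s := (okW_iff c.toW q s).1 (by rw [ofW_toW]; exact h)
  obtain ⟨N, hN⟩ := (okW_locF q s).out c.toW
  obtain ⟨w, hw⟩ := exists_beta c.toW N
  refine ⟨w, ?_⟩
  have := hN (Nat.beta w) hw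
  rw [this]
  exact h1

end Crest.Agent.KS.UC
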