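import Crest.Agent.KS_Sub
import Crest.Agent.KS_OkW

/-!
# KS-Low : lower certificates for the threshold of 3-SAT (medium)

`LowW C i0 W q s` : with `i = W (0,0) ≥ i0`, `M = W (0,1)`, `N = M^2`, `c = q/2^s + C/4^i`,
`mm = ⌊c N⌋`, and one assignment `W (1,F)` for every formula `F < (2N)^(3 mm)` (`mm` clauses with
replacement, literal = digit `< 2N` of `F`, variable = digit / 2, required value = digit % 2), the
average number of violated clauses plus `M (q+C+1) + 1 ≥ √(cN) + 1` is `< N / (2·32^i)`.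
-/

set_option autoImplicit false

open Crest.ProbabilityR.RandomSAT
open Crest.ProbabilityR.Diluted
open Finset Filter Topology

namespace Crest.Agent.KS.UC

/-- number of clauses of the formula `F` violated by the assignment `σ` (binary digits) -/
def vc (N mm F σ : ℕ) : ℕ :=
  ∑ j ∈ range mm, ∏ l ∈ range 3,
    if dg 2 σ (dg (2 * N) F (3 * j + l) / 2) = dg (2 * N) F (3 * j + l) % 2 then 0 else 1

section W
variable (W : ℕ → ℕ)

local notation "i'" => W (Nat.pair 0 0)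
local notation "M'" => W (Nat.pair 0 1)

def mmW (C q s : ℕ) : ℕ := (q * 4 ^ i' + C * 2 ^ s) * M' ^ 2 / (2 ^ s * 4 ^ i')

def LowW (C i0 q s : ℕ) : Prop :=
  i0 ≤ i' ∧ 0 < M' ∧
    2 * 32 ^ i' * (∑ F ∈ range ((2 * M' ^ 2) ^ (3 * mmW W C q s)),
        vc (M' ^ 2) (mmW W C q s) F (W (Nat.pair 1 F)) +
      (M' * (q + C + 1) + 1) * (2 * M' ^ 2) ^ (3 * mmW W C q s)) <
    M' ^ 2 * (2 * M' ^ 2) ^ (3 * mmW W C q s)

end W

/-- the formula with code `F` -/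
def decF {N : ℕ} (hN : 0 < N) (mm F : ℕ) : Fin mm → RC N :=
  fun j l => (⟨dg (2 * N) F (3 * j + l) / 2, by
    have : dg (2 * N) F (3 * j + l) < 2 * N := Nat.mod_lt _ (by omega)
    omega⟩, decide (dg (2 * N) F (3 * j + l) % 2 = 1))

/-- the assignment with code `σ` -/
def decσ (N σ : ℕ) : Fin N → Bool := fun v => decide (dg 2 σ v = 1)

/-- every assignment has a code -/
theorem exists_σ {N : ℕ} (σ : Fin N → Bool) : ∃ t : ℕ, decσ N t = σ := by
  refine ⟨Nat.ofBits σ, ?_⟩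
  funext v
  have h := Nat.testBit_ofBits_lt σ v v.isLt
  have h2 : decσ N (Nat.ofBits σ) v = (Nat.ofBits σ).testBit v := by
    unfold decσ dg
    rw [Nat.testBit_eq_decide_div_mod_eq]
  rw [h2, h]

theorem violR_decF {N : ℕ} (hN : 0 < N) (mm F t : ℕ) :
    violR (decF hN mm F) (decσ N t) = vc N mm F t := by
  classical
  unfold violR vc
  rw [Finset.card_filter, Finset.sum_range]
  refine Finset.sum_congr rfl fun j _ => ?_
  rw [Finset.prod_range]
  have key : ∀ l : Fin 3, (decσ N t (decF hN mm F j l).1 ≠ (decF hN mm F j l).2) ↔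
      ¬ (dg 2 t (dg (2 * N) F (3 * j + l) / 2) = dg (2 * N) F (3 * j + l) % 2) := by
    intro l
    have h1 : dg 2 t (dg (2 * N) F (3 * j + l) / 2) < 2 := Nat.mod_lt _ (by norm_num)
    have h2 : dg (2 * N) F (3 * j + l) % 2 < 2 := Nat.mod_lt _ (by norm_num)
    have aux : ∀ x y : ℕ, x < 2 → y < 2 →
        ((decide (x = 1) ≠ decide (y = 1)) ↔ ¬ (x = y)) := by
      intro x y hx hy
      interval_cases x <;> interval_cases y <;> simp
    exact aux _ _ h1 h2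
  by_cases h : ∀ l : Fin 3, decσ N t (decF hN mm F j l).1 ≠ (decF hN mm F j l).2
  · rw [if_pos h]
    refine (Finset.prod_eq_one fun l _ => ?_).symm
    rw [if_neg ((key l).1 (h l))]
  · rw [if_neg h]
    push Not at h
    obtain ⟨l, hl⟩ := h
    refine (Finset.prod_eq_zero (Finset.mem_univ l) ?_).symm
    rw [if_pos]
    by_contra hcon
    exact (key l).2 hcon hl

private theorem dg_ext {b : ℕ} : ∀ (n a c : ℕ), a < b ^ n → c < b ^ n →
    (∀ p, p < n → dg b a p = dg b c p) → a = c := by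
  intro n
  induction n with
  | zero =>
    intro a c ha hc _
    rw [pow_zero] at ha hc
    omega
  | succ n ih =>
    intro a c ha hc h
    have h1 : a / b = c / b := by
      apply ih
      · exact Nat.div_lt_of_lt_mul (by rw [← pow_succ']; exact ha)
      · exact Nat.div_lt_of_lt_mul (by rw [← pow_succ']; exact hc)
      · intro p hp
        have h2 := h (p + 1) (by omega)
        unfold dg at h2 ⊢
        rw [pow_succ', ← Nat.div_div_eq_div_mul, ← Nat.div_div_eq_div_mul] at h2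
        exact h2
    have h3 := h 0 (by omega)
    unfold dg at h3
    rw [pow_zero, Nat.div_one, Nat.div_one] at h3
    rw [← Nat.div_add_mod a b, ← Nat.div_add_mod c b, h1, h3]

private theorem decF_bij {N : ℕ} (hN : 0 < N) (mm : ℕ) :
    Function.Bijective (fun F : Fin ((2 * N) ^ (3 * mm)) => decF hN mm (F : ℕ)) := by
  rw [Fintype.bijective_iff_injective_and_card]
  constructor
  · intro F G h
    apply Fin.ext
    refine dg_ext (3 * mm) F G F.isLt G.isLt fun p hp => ?_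
    have hj : p / 3 < mm := by omega
    have h3 := congrFun (congrFun h ⟨p / 3, hj⟩) ⟨p % 3, Nat.mod_lt _ (by norm_num)⟩
    simp only [decF, Prod.mk.injEq, Fin.mk.injEq, decide_eq_decide] at h3
    have hp3 : 3 * (p / 3) + p % 3 = p := Nat.div_add_mod p 3
    rw [hp3] at h3
    omega
  · simp only [Fintype.card_fin, Fintype.card_pi, Finset.prod_const, Finset.card_univ,
      Fintype.card_prod, Fintype.card_bool]
    rw [← pow_mul, mul_comm 2 N]

/-- the codes `F < (2N)^(3 mm)` run through all formulas -/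
theorem vv_eq_sum {N : ℕ} (hN : 0 < N) (mm : ℕ) :
    vv N mm = (∑ F ∈ range ((2 * N) ^ (3 * mm)), (minR (decF hN mm F) : ℝ)) /
      (2 * N : ℝ) ^ (3 * mm) := by
  have hb := decF_bij hN mm
  unfold vv av
  congr 1
  · rw [Finset.sum_range]
    exact (Function.Bijective.sum_comp hb (fun G => (minR G : ℝ))).symm
  · have h := Fintype.card_of_bijective hb
    rw [Fintype.card_fin] at h
    rw [← h]
    push_cast
    rfl

theorem mmW_eq (W : ℕ → ℕ) (C q s : ℕ) :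
    mmW W C q s = ⌊((q : ℝ) / 2 ^ s + (C : ℝ) / 4 ^ W (Nat.pair 0 0)) *
      ((W (Nat.pair 0 1) ^ 2 : ℕ) : ℝ)⌋₊ := by
  unfold mmW
  rw [← Nat.floor_div_eq_div (K := ℝ)]
  congr 1
  push_cast
  have h1 : (2 : ℝ) ^ s ≠ 0 := by positivity
  have h2 : (4 : ℝ) ^ W (Nat.pair 0 0) ≠ 0 := by positivity
  field_simp

/-- soundness -/
theorem low_sound {α : ℝ} (hα : IsSharpThreshold (satProb 3) α) {C i0 : ℕ}
    (hE : ∀ i : ℕ, i0 ≤ i → ∀ c : ℝ, α + C / 4 ^ i ≤ c →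
      ∀ᶠ n : ℕ in atTop, (n : ℝ) / (2 * 32 ^ i) ≤ uu n ⌊c * n⌋₊)
    {W : ℕ → ℕ} {q s : ℕ} (h : LowW W C i0 q s) : (q : ℝ) / 2 ^ s ≤ α := by
  obtain ⟨hi, hM, hlt⟩ := h
  by_contra hcon
  push Not at hcon
  have hα0 := threshold_nonneg hα
  set i := W (Nat.pair 0 0) with hidef
  set M := W (Nat.pair 0 1) with hMdef
  set c : ℝ := (q : ℝ) / 2 ^ s + (C : ℝ) / 4 ^ i with hc
  have hN : 0 < M ^ 2 := by positivity
  have hmm : mmW W C q s = ⌊c * ((M ^ 2 : ℕ) : ℝ)⌋₊ := mmW_eq W C q s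
  have hq0 : (0 : ℝ) < (q : ℝ) / 2 ^ s := by linarith
  have hC0 : (0 : ℝ) ≤ (C : ℝ) / 4 ^ i := by positivity
  have hcpos : 0 < c := by linarith
  -- the average of the certificate bounds `vv`
  have hT : (0 : ℝ) < (2 * (M ^ 2 : ℕ) : ℝ) ^ (3 * mmW W C q s) := by positivity
  have hvv : vv (M ^ 2) (mmW W C q s) * (2 * (M ^ 2 : ℕ) : ℝ) ^ (3 * mmW W C q s) ≤
      ((∑ F ∈ range ((2 * M ^ 2) ^ (3 * mmW W C q s)),
        vc (M ^ 2) (mmW W C q s) F (W (Nat.pair 1 F)) : ℕ) : ℝ) := by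
    rw [vv_eq_sum hN, div_mul_cancel₀ _ hT.ne']
    push_cast
    refine Finset.sum_le_sum fun F _ => ?_
    rw [← violR_decF hN]
    exact_mod_cast minR_le _ _
  have hlt' : (2 : ℝ) * 32 ^ i * (((∑ F ∈ range ((2 * M ^ 2) ^ (3 * mmW W C q s)),
        vc (M ^ 2) (mmW W C q s) F (W (Nat.pair 1 F)) : ℕ) : ℝ) +
      ((M : ℝ) * (q + C + 1) + 1) * (2 * (M ^ 2 : ℕ) : ℝ) ^ (3 * mmW W C q s)) <
      ((M ^ 2 : ℕ) : ℝ) * (2 * (M ^ 2 : ℕ) : ℝ) ^ (3 * mmW W C q s) := by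
    exact_mod_cast hlt
  have h32 : (0 : ℝ) < 2 * 32 ^ i := by positivity
  have h1 : vv (M ^ 2) (mmW W C q s) + ((M : ℝ) * (q + C + 1) + 1) <
      ((M ^ 2 : ℕ) : ℝ) / (2 * 32 ^ i) := by
    rw [lt_div_iff₀ h32]
    have h2 : (2 : ℝ) * 32 ^ i * ((vv (M ^ 2) (mmW W C q s) + ((M : ℝ) * (q + C + 1) + 1)) *
        (2 * (M ^ 2 : ℕ) : ℝ) ^ (3 * mmW W C q s)) <
        ((M ^ 2 : ℕ) : ℝ) * (2 * (M ^ 2 : ℕ) : ℝ) ^ (3 * mmW W C q s) := by
      refine lt_of_le_of_lt (mul_le_mul_of_nonneg_left ?_ h32.le) hlt'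
      rw [add_mul]
      exact add_le_add_left hvv _
    have h3 : (2 : ℝ) * 32 ^ i * ((vv (M ^ 2) (mmW W C q s) + ((M : ℝ) * (q + C + 1) + 1)) *
        (2 * (M ^ 2 : ℕ) : ℝ) ^ (3 * mmW W C q s)) =
        ((vv (M ^ 2) (mmW W C q s) + ((M : ℝ) * (q + C + 1) + 1)) * (2 * 32 ^ i)) *
        (2 * (M ^ 2 : ℕ) : ℝ) ^ (3 * mmW W C q s) := by ring
    rw [h3] at h2
    exact lt_of_mul_lt_mul_right h2 hT.le
  have h4 := eP_vv (N := M ^ 2) hN hcpos.le
  rw [← hmm] at h4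
  have h5 : Real.sqrt (c * ((M ^ 2 : ℕ) : ℝ)) ≤ (M : ℝ) * (q + C + 1) := by
    have hcle : c ≤ q + C + 1 := by
      have h6 : (q : ℝ) / 2 ^ s ≤ q :=
        div_le_self (Nat.cast_nonneg _) (one_le_pow₀ (by norm_num))
      have h7 : (C : ℝ) / 4 ^ i ≤ C :=
        div_le_self (Nat.cast_nonneg _) (one_le_pow₀ (by norm_num))
      linarith
    have hone : (1 : ℝ) ≤ q + C + 1 := by
      have : (0 : ℝ) ≤ q + C := by positivity
      linarith
    apply Real.sqrt_le_iff.2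
    constructor
    · positivity
    · push_cast
      rw [mul_pow, mul_comm c]
      apply mul_le_mul_of_nonneg_left _ (by positivity)
      nlinarith
  have h8 : eP c (M ^ 2) < ((M ^ 2 : ℕ) : ℝ) / (2 * 32 ^ i) := by
    have := (abs_le.1 h4).2
    linarith
  have hNr : (0 : ℝ) < ((M ^ 2 : ℕ) : ℝ) := by exact_mod_cast hN
  have h9 : eP c (M ^ 2) / ((M ^ 2 : ℕ) : ℝ) < 1 / (2 * 32 ^ i) := by
    rw [div_lt_div_iff₀ hNr h32]
    rw [lt_div_iff₀ h32] at h8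
    linarith
  have hη : 0 < (1 / (2 * 32 ^ i) - eP c (M ^ 2) / ((M ^ 2 : ℕ) : ℝ)) / 2 := by linarith
  have h10 := energy_sub hcpos (N := M ^ 2) hN hη
  have h11 := hE i hi c (by linarith)
  obtain ⟨K, ⟨hK1, hK2⟩, hK3⟩ := ((h10.and h11).and (eventually_ge_atTop 1)).exists
  have hKr : (0 : ℝ) < K := by exact_mod_cast hK3
  have h12 : (1 : ℝ) / (2 * 32 ^ i) ≤ uu K ⌊c * K⌋₊ / K := by
    rw [div_le_div_iff₀ h32 hKr]
    rw [div_le_iff₀ h32] at hK2
    linarith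
  linarith

/-- completeness -/
theorem low_complete {α : ℝ} (hα : IsSharpThreshold (satProb 3) α) (C i0 : ℕ)
    {q s : ℕ} (h : (q : ℝ) / 2 ^ s < α) : ∃ W : ℕ → ℕ, LowW W C i0 q s := by
  -- choose `i`
  have hlim : Tendsto (fun i : ℕ => (q : ℝ) / 2 ^ s + (C : ℝ) / 4 ^ i) atTop
      (nhds ((q : ℝ) / 2 ^ s + 0)) := by
    refine tendsto_const_nhds.add ?_
    have h1 := tendsto_pow_atTop_nhds_zero_of_lt_one (r := (1 / 4 : ℝ)) (by norm_num)
      (by norm_num)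
    have h2 := h1.const_mul (C : ℝ)
    rw [mul_zero] at h2
    refine h2.congr fun i => ?_
    rw [one_div, inv_pow, div_eq_mul_inv]
  rw [add_zero] at hlim
  obtain ⟨i, hi1, hi2⟩ := ((hlim.eventually_lt_const h).and (eventually_ge_atTop i0)).exists
  set c : ℝ := (q : ℝ) / 2 ^ s + (C : ℝ) / 4 ^ i with hc
  have hc0 : 0 ≤ c := by positivity
  have h32 : (0 : ℝ) < 2 * 32 ^ i := by positivity
  -- choose `M`
  have hE := energy_below hα hc0 hi1
  have hsq : Tendsto (fun M : ℕ => M ^ 2) atTop atTop :=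
    tendsto_pow_atTop (by norm_num)
  have hE2 := hE.comp hsq
  have hrest : Tendsto (fun M : ℕ => ((q : ℝ) + C + 1) * ((M : ℝ))⁻¹ +
      (3 * c + 1) * (((M : ℝ))⁻¹ * ((M : ℝ))⁻¹)) atTop
      (nhds (((q : ℝ) + C + 1) * 0 + (3 * c + 1) * (0 * 0))) := by
    have h0 : Tendsto (fun M : ℕ => ((M : ℝ))⁻¹) atTop (nhds 0) :=
      tendsto_inv_atTop_nhds_zero_nat
    exact (h0.const_mul _).add ((h0.mul h0).const_mul _)
  have htot := hE2.add hrest
  have hpos : (0 : ℝ) + (((q : ℝ) + C + 1) * 0 + (3 * c + 1) * (0 * 0)) < 1 / (2 * 32 ^ i) := by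
    simp
  obtain ⟨M, hM1, hM2⟩ :=
    ((htot.eventually_lt_const hpos).and (eventually_ge_atTop 2)).exists
  have hMr : (0 : ℝ) < M := by exact_mod_cast (by omega : 0 < M)
  have hN : 0 < M ^ 2 := by positivity
  have hN3 : 3 ≤ M ^ 2 := by nlinarith
  have hNr : (0 : ℝ) < ((M ^ 2 : ℕ) : ℝ) := by exact_mod_cast hN
  set mm : ℕ := (q * 4 ^ i + C * 2 ^ s) * M ^ 2 / (2 ^ s * 4 ^ i) with hmmdef
  -- optimal assignments
  have hex : ∀ F : ℕ, ∃ t : ℕ, violR (decF hN mm F) (decσ (M ^ 2) t) = minR (decF hN mm F) := by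
    intro F
    obtain ⟨σ, hσ⟩ := exists_minR (decF hN mm F)
    obtain ⟨t, ht⟩ := exists_σ σ
    exact ⟨t, by rw [ht, hσ]⟩
  choose t ht using hex
  let W : ℕ → ℕ := fun x =>
    if (Nat.unpair x).1 = 0 then (if (Nat.unpair x).2 = 0 then i else M) else t (Nat.unpair x).2
  have hW0 : W (Nat.pair 0 0) = i := by simp [W]
  have hW1 : W (Nat.pair 0 1) = M := by simp [W]
  have hW2 : ∀ F, W (Nat.pair 1 F) = t F := by intro F; simp [W]
  have hmmW : mmW W C q s = mm := by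
    unfold mmW
    rw [hW0, hW1]
  refine ⟨W, ?_⟩
  unfold LowW
  rw [hmmW, hW0, hW1]
  refine ⟨hi2, by omega, ?_⟩
  have hmm : mm = ⌊c * ((M ^ 2 : ℕ) : ℝ)⌋₊ := by
    have := mmW_eq W C q s
    rw [hmmW, hW0, hW1] at this
    exact this
  have hT : (0 : ℝ) < (2 * (M ^ 2 : ℕ) : ℝ) ^ (3 * mm) := by positivity
  have hsum : ((∑ F ∈ range ((2 * M ^ 2) ^ (3 * mm)),
        vc (M ^ 2) mm F (W (Nat.pair 1 F)) : ℕ) : ℝ) =
      vv (M ^ 2) mm * (2 * (M ^ 2 : ℕ) : ℝ) ^ (3 * mm) := by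
    rw [vv_eq_sum hN, div_mul_cancel₀ _ hT.ne']
    push_cast
    refine Finset.sum_congr rfl fun F _ => ?_
    rw [hW2, ← violR_decF hN, ht]
  have h1 := vv_uu hN3 mm
  have h2 : (mm : ℝ) ≤ c * ((M ^ 2 : ℕ) : ℝ) := by
    rw [hmm]
    exact Nat.floor_le (by positivity)
  have h3 : 3 * (mm : ℝ) / ((M ^ 2 : ℕ) : ℝ) ≤ 3 * c := by
    rw [div_le_iff₀ hNr]
    linarith
  have h4 : vv (M ^ 2) mm ≤ uu (M ^ 2) mm + 3 * c := by
    have := (abs_le.1 h1).2
    linarith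
  have h5 : uu (M ^ 2) mm + 3 * c + ((M : ℝ) * (q + C + 1) + 1) <
      ((M ^ 2 : ℕ) : ℝ) / (2 * 32 ^ i) := by
    simp only [Function.comp_apply] at hM1
    rw [← hmm] at hM1
    have h6 := mul_lt_mul_of_pos_right hM1 hNr
    have h7 : (uu (M ^ 2) mm / ((M ^ 2 : ℕ) : ℝ) + (((q : ℝ) + C + 1) * ((M : ℝ))⁻¹ +
      (3 * c + 1) * (((M : ℝ))⁻¹ * ((M : ℝ))⁻¹))) * ((M ^ 2 : ℕ) : ℝ) =
      uu (M ^ 2) mm + 3 * c + ((M : ℝ) * (q + C + 1) + 1) := by
      push_cast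
      field_simp
      ring
    rw [h7] at h6
    calc _ < _ := h6
      _ = _ := by ring
  have hfin : (2 : ℝ) * 32 ^ i * (((∑ F ∈ range ((2 * M ^ 2) ^ (3 * mm)),
        vc (M ^ 2) mm F (W (Nat.pair 1 F)) : ℕ) : ℝ) +
      ((M : ℝ) * (q + C + 1) + 1) * (2 * (M ^ 2 : ℕ) : ℝ) ^ (3 * mm)) <
      ((M ^ 2 : ℕ) : ℝ) * (2 * (M ^ 2 : ℕ) : ℝ) ^ (3 * mm) := by
    rw [hsum, ← add_mul, ← mul_assoc]
    apply mul_lt_mul_of_pos_right _ hT
    rw [lt_div_iff₀ h32] at h5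
    calc 2 * 32 ^ i * (vv (M ^ 2) mm + ((M : ℝ) * (q + C + 1) + 1))
        ≤ 2 * 32 ^ i * (uu (M ^ 2) mm + 3 * c + ((M : ℝ) * (q + C + 1) + 1)) := by
          apply mul_le_mul_of_nonneg_left _ h32.le
          linarith
      _ < _ := by linarith
  exact_mod_cast hfin

end Crest.Agent.KS.UC
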