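import Crest.Agent.KS_P3Defs
import Crest.Agent.KS_Av
import Crest.Agent.SG_P

/-! # KS-P3 : transfer between the models (medium) -/

set_option autoImplicit false

noncomputable section
open Crest.ProbabilityR.RandomSAT
open Crest.ProbabilityR.Diluted
open Crest.Agent.SGG
open Classical Filter
namespace Crest.Agent.KS

theorem exists_minR {N M : ℕ} (F : Fin M → RC N) : ∃ σ, violR F σ = minR F := by
  have := Nat.sInf_mem (s := Set.range (violR F)) ⟨_, ⟨fun _ => true, rfl⟩⟩
  exact this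

theorem minR_le {N M : ℕ} (F : Fin M → RC N) (σ : Fin N → Bool) : minR F ≤ violR F σ :=
  Nat.sInf_le ⟨σ, rfl⟩

theorem minR_le_M {N M : ℕ} (F : Fin M → RC N) : minR F ≤ M :=
  (minR_le F (fun _ => true)).trans ((Finset.card_filter_le _ _).trans (by simp))

theorem vv_nonneg (N M : ℕ) : 0 ≤ vv N M :=
  av_nonneg fun _ => Nat.cast_nonneg _

theorem vv_le (N M : ℕ) : vv N M ≤ M :=
  av_le_const (Nat.cast_nonneg _) fun F => by exact_mod_cast minR_le_M F

/-! ## general functional -/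

/-- minimum of a function of the assignment -/
def p3_min {N : ℕ} (g : (Fin N → Bool) → ℕ) : ℕ := sInf (Set.range g)

theorem p3_min_le {N : ℕ} (g : (Fin N → Bool) → ℕ) (σ : Fin N → Bool) : p3_min g ≤ g σ :=
  Nat.sInf_le ⟨σ, rfl⟩

theorem p3_exists_min {N : ℕ} (g : (Fin N → Bool) → ℕ) : ∃ σ, g σ = p3_min g := by
  have := Nat.sInf_mem (s := Set.range g) ⟨_, ⟨fun _ => true, rfl⟩⟩
  exact this

theorem p3_min_mono {N : ℕ} {g g' : (Fin N → Bool) → ℕ} {d : ℕ} (h : ∀ σ, g σ ≤ g' σ + d) :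
    p3_min g ≤ p3_min g' + d := by
  obtain ⟨σ, hσ⟩ := p3_exists_min g'
  rw [← hσ]
  exact (p3_min_le g σ).trans (h σ)

/-- expected least energy with base `b`, clause violation functions `w` -/
def p3_G {C : Type} [Fintype C] {N : ℕ} (w : C → (Fin N → Bool) → ℕ) (b : (Fin N → Bool) → ℕ)
    (M : ℕ) : ℝ :=
  av (fun F : Fin M → C => (p3_min (fun σ => b σ + ∑ j, w (F j) σ) : ℝ))

theorem p3_G_succ {C : Type} [Fintype C] {N : ℕ} (w : C → (Fin N → Bool) → ℕ)
    (b : (Fin N → Bool) → ℕ) (M : ℕ) :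
    p3_G w b (M + 1) = av (fun c : C => p3_G w (fun σ => b σ + w c σ) M) := by
  unfold p3_G
  rw [av_snoc, av_prod_swap]
  congr 1
  funext c
  congr 1
  funext F
  congr 2
  funext σ
  rw [Fin.sum_univ_castSucc]
  simp only [Fin.snoc_castSucc, Fin.snoc_last]
  ring

theorem p3_G_mono {C : Type} [Fintype C] {N : ℕ} (w : C → (Fin N → Bool) → ℕ)
    {b b' : (Fin N → Bool) → ℕ} (M : ℕ) (h : ∀ σ, b σ ≤ b' σ) : p3_G w b M ≤ p3_G w b' M := by
  refine av_mono fun F => ?_
  have := p3_min_mono (g := fun σ => b σ + ∑ j, w (F j) σ)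
    (g' := fun σ => b' σ + ∑ j, w (F j) σ) (d := 0) (fun σ => by have := h σ; omega)
  exact_mod_cast this

theorem p3_G_add_one {C : Type} [Fintype C] [Nonempty C] {N : ℕ} (w : C → (Fin N → Bool) → ℕ)
    {b b' : (Fin N → Bool) → ℕ} (M : ℕ) (h : ∀ σ, b σ ≤ b' σ + 1) :
    p3_G w b M ≤ p3_G w b' M + 1 := by
  have : p3_G w b' M + 1 = av (fun F : Fin M → C =>
      (p3_min (fun σ => b' σ + ∑ j, w (F j) σ) : ℝ) + 1) := by
    rw [av_add, av_const]; rfl
  rw [this]
  refine av_mono fun F => ?_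
  have := p3_min_mono (g := fun σ => b σ + ∑ j, w (F j) σ)
    (g' := fun σ => b' σ + ∑ j, w (F j) σ) (d := 1) (fun σ => by have := h σ; omega)
  exact_mod_cast this

/-- violation function of a clause with replacement -/
def p3_wR {N : ℕ} (c : RC N) (σ : Fin N → Bool) : ℕ := if ∀ i, σ (c i).1 ≠ (c i).2 then 1 else 0

/-- violation function of a clause -/
def p3_wC {N : ℕ} (c : Clause 3 N) (σ : Fin N → Bool) : ℕ := if ¬ ClauseSat σ c then 1 else 0

theorem p3_wR_le {N : ℕ} (c : RC N) (σ : Fin N → Bool) : p3_wR c σ ≤ 1 := by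
  unfold p3_wR; split_ifs <;> simp

theorem p3_vv (N M : ℕ) : vv N M = p3_G (p3_wR (N := N)) (fun _ => 0) M := by
  unfold vv p3_G
  congr 1
  funext F
  congr 2
  unfold minR p3_min
  congr 2
  funext σ
  unfold violR p3_wR
  rw [Finset.card_filter, zero_add]

theorem p3_uu (N M : ℕ) : uu N M = p3_G (p3_wC (N := N)) (fun _ => 0) M := by
  unfold uu p3_G
  congr 1
  funext F
  congr 2
  unfold minV p3_min
  congr 2
  funext σ
  unfold viol p3_wC
  rw [Finset.card_filter, zero_add]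

/-- one more clause raises the energy by `0` or `1` -/
theorem vv_succ {N : ℕ} (hN : 1 ≤ N) (M : ℕ) : vv N M ≤ vv N (M + 1) ∧ vv N (M + 1) ≤ vv N M + 1 := by
  have : Nonempty (Fin N) := ⟨⟨0, by omega⟩⟩
  have : Nonempty (RC N) := inferInstance
  rw [p3_vv, p3_vv, p3_G_succ]
  constructor
  · rw [← av_const (α := RC N) (p3_G (p3_wR (N := N)) (fun _ => 0) M)]
    refine av_mono fun c => ?_
    exact p3_G_mono _ _ fun σ => Nat.zero_le _
  · rw [← av_const (α := RC N) (p3_G (p3_wR (N := N)) (fun _ => 0) M + 1)]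
    refine av_mono fun c => ?_
    refine p3_G_add_one _ _ fun σ => ?_
    have := p3_wR_le c σ
    omega

/-- comparison of the uniform averages over all triples and over injective triples -/
theorem p3_inj {N : ℕ} (hN : 3 ≤ N) (ψ : (Fin 3 → Fin N) → ℝ) (a : ℝ)
    (h : ∀ v, a ≤ ψ v ∧ ψ v ≤ a + 1) :
    |av ψ - av (fun v : {v : Fin 3 → Fin N // Function.Injective v} => ψ v)| ≤ 3 / N := by
  have hNR : (3 : ℝ) ≤ N := by exact_mod_cast hN
  have : Nonempty (Fin N) := ⟨⟨0, by omega⟩⟩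
  have hcardT : (Fintype.card (Fin 3 → Fin N) : ℝ) = (N : ℝ) ^ 3 := by
    simp
  have hcardA : (Fintype.card {v : Fin 3 → Fin N // Function.Injective v} : ℝ) =
      N * ((N : ℝ) - 1) * ((N : ℝ) - 2) := by
    have h1 : Fintype.card {v : Fin 3 → Fin N // Function.Injective v} = N.descFactorial 3 := by
      rw [Fintype.card_congr (Equiv.subtypeInjectiveEquivEmbedding (Fin 3) (Fin N)),
        Fintype.card_embedding_eq]
      simp
    rw [h1]
    simp only [Nat.descFactorial_succ, Nat.descFactorial_zero, Nat.sub_zero]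
    push_cast [Nat.cast_sub (show 2 ≤ N by omega), Nat.cast_sub (show 1 ≤ N by omega)]
    ring
  have : Nonempty {v : Fin 3 → Fin N // Function.Injective v} := by
    refine ⟨⟨fun i => Fin.castLE hN i, Fin.castLE_injective hN⟩⟩
  -- shift
  obtain ⟨χ, hχ⟩ : ∃ χ : (Fin 3 → Fin N) → ℝ, χ = fun v => ψ v - a := ⟨_, rfl⟩
  have hχ0 : ∀ v, 0 ≤ χ v := fun v => by rw [hχ]; linarith [(h v).1]
  have hχ1 : ∀ v, χ v ≤ 1 := fun v => by rw [hχ]; linarith [(h v).2]
  have e1 : av ψ = av χ + a := by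
    have : ψ = fun v => χ v + a := by funext v; rw [hχ]; ring
    rw [this, av_add, av_const]
  have e2 : av (fun v : {v : Fin 3 → Fin N // Function.Injective v} => ψ v) =
      av (fun v : {v : Fin 3 → Fin N // Function.Injective v} => χ v) + a := by
    have : (fun v : {v : Fin 3 → Fin N // Function.Injective v} => ψ v) =
      fun v : {v : Fin 3 → Fin N // Function.Injective v} => χ v + a := by
      funext v; rw [hχ]; ring
    rw [this, av_add, av_const]
  rw [e1, e2, add_sub_add_right_eq_sub]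
  unfold av
  rw [hcardT, hcardA]
  -- sums
  obtain ⟨S, hS⟩ : ∃ S, S = ∑ v, χ v := ⟨_, rfl⟩
  obtain ⟨S1, hS1⟩ : ∃ S1, S1 = ∑ v : {v : Fin 3 → Fin N // Function.Injective v}, χ v := ⟨_, rfl⟩
  rw [← hS, ← hS1]
  have hS1' : S1 = ∑ v ∈ Finset.univ.filter (fun v : Fin 3 → Fin N => Function.Injective v), χ v := by
    rw [hS1]
    exact (Finset.sum_subtype _ (fun x => by simp) _).symm
  have hsplit : S = S1 + ∑ v ∈ Finset.univ.filter
      (fun v : Fin 3 → Fin N => ¬ Function.Injective v), χ v := by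
    rw [hS, hS1', Finset.sum_filter_add_sum_filter_not]
  have hcard : ((Finset.univ.filter (fun v : Fin 3 → Fin N => Function.Injective v)).card : ℝ) =
      N * ((N : ℝ) - 1) * ((N : ℝ) - 2) := by
    rw [← hcardA, Fintype.card_subtype]
  have hcard2 : ((Finset.univ.filter (fun v : Fin 3 → Fin N => ¬ Function.Injective v)).card : ℝ) =
      (N : ℝ) ^ 3 - N * ((N : ℝ) - 1) * ((N : ℝ) - 2) := by
    rw [← hcard, ← hcardT, ← Finset.card_univ,
      ← Finset.card_filter_add_card_filter_not (s := (Finset.univ : Finset (Fin 3 → Fin N)))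
        (p := fun v : Fin 3 → Fin N => Function.Injective v)]
    push_cast
    ring
  have b1 : 0 ≤ S1 := by rw [hS1']; exact Finset.sum_nonneg fun v _ => hχ0 v
  have b2 : S1 ≤ N * ((N : ℝ) - 1) * ((N : ℝ) - 2) := by
    rw [hS1', ← hcard]
    calc _ ≤ ∑ v ∈ Finset.univ.filter (fun v : Fin 3 → Fin N => Function.Injective v), (1 : ℝ) :=
          Finset.sum_le_sum fun v _ => hχ1 v
      _ = _ := by simp
  have b3 : S1 ≤ S := by
    rw [hsplit]
    have := Finset.sum_nonneg (s := Finset.univ.filter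
      (fun v : Fin 3 → Fin N => ¬ Function.Injective v)) (f := χ) fun v _ => hχ0 v
    linarith
  have b4 : S ≤ S1 + ((N : ℝ) ^ 3 - N * ((N : ℝ) - 1) * ((N : ℝ) - 2)) := by
    rw [hsplit, ← hcard2]
    have : ∑ v ∈ Finset.univ.filter (fun v : Fin 3 → Fin N => ¬ Function.Injective v), χ v ≤
        ∑ v ∈ Finset.univ.filter (fun v : Fin 3 → Fin N => ¬ Function.Injective v), (1 : ℝ) :=
      Finset.sum_le_sum fun v _ => hχ1 v
    have h2 : ∑ v ∈ Finset.univ.filter (fun v : Fin 3 → Fin N => ¬ Function.Injective v), (1 : ℝ) =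
      ((Finset.univ.filter (fun v : Fin 3 → Fin N => ¬ Function.Injective v)).card : ℝ) := by simp
    linarith
  -- arithmetic
  obtain ⟨x, hx⟩ : ∃ x : ℝ, x = N := ⟨_, rfl⟩
  rw [← hx] at b2 b4 hNR ⊢
  have hx0 : 0 < x := by linarith
  have hA : 0 < x * (x - 1) * (x - 2) := by
    have h1 : 0 < x - 1 := by linarith
    have h2 : 0 < x - 2 := by linarith
    positivity
  have hT : 0 < x ^ 3 := by positivity
  obtain ⟨A, hAe⟩ : ∃ A : ℝ, A = x * (x - 1) * (x - 2) := ⟨_, rfl⟩
  rw [← hAe] at b2 b4 hA ⊢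
  have hAT : A ≤ x ^ 3 := by rw [hAe]; nlinarith
  have hp : (x ^ 3 - A) / x ^ 3 ≤ 3 / x := by
    rw [div_le_div_iff₀ hT hx0, hAe]
    nlinarith [pow_pos hx0 2, pow_pos hx0 3]
  have c1 : S / x ^ 3 - S1 / A ≤ (x ^ 3 - A) / x ^ 3 := by
    have h1 : S / x ^ 3 ≤ (S1 + (x ^ 3 - A)) / x ^ 3 := div_le_div_of_nonneg_right b4 hT.le
    have h2 : S1 / x ^ 3 ≤ S1 / A := div_le_div_of_nonneg_left b1 hA hAT
    rw [add_div] at h1
    linarith
  have c2 : S1 / A - S / x ^ 3 ≤ (x ^ 3 - A) / x ^ 3 := by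
    have h1 : S1 / x ^ 3 ≤ S / x ^ 3 := div_le_div_of_nonneg_right b3 hT.le
    have h2 : S1 / A - S1 / x ^ 3 ≤ (x ^ 3 - A) / x ^ 3 := by
      rw [div_sub_div _ _ hA.ne' hT.ne', div_le_div_iff₀ (mul_pos hA hT) hT]
      have : (S1 * x ^ 3 - A * S1) * x ^ 3 = S1 * ((x ^ 3 - A) * x ^ 3) := by ring
      rw [this]
      have : (x ^ 3 - A) * (A * x ^ 3) = A * ((x ^ 3 - A) * x ^ 3) := by ring
      rw [this]
      exact mul_le_mul_of_nonneg_right b2 (mul_nonneg (by linarith) hT.le)
    linarith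
  rw [abs_le]
  constructor <;> linarith

theorem p3_wRC {N : ℕ} (c : Clause 3 N) : p3_wC c = p3_wR (fun i => (c.1.1 i, c.2 i)) := by
  funext σ
  unfold p3_wC p3_wR ClauseSat
  simp only [not_exists, ne_eq]

theorem p3_cmp {N : ℕ} (hN : 3 ≤ N) (φ : ((Fin N → Bool) → ℕ) → ℝ) (a : ℝ)
    (h : ∀ c : RC N, a ≤ φ (p3_wR c) ∧ φ (p3_wR c) ≤ a + 1) :
    |av (fun c : RC N => φ (p3_wR c)) - av (fun c : Clause 3 N => φ (p3_wC c))| ≤ 3 / N := by
  have e1 : av (fun c : RC N => φ (p3_wR c)) = av (fun v : Fin 3 → Fin N =>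
      av (fun s : Fin 3 → Bool => φ (p3_wR (fun i => (v i, s i))))) := by
    rw [← av_equiv (Equiv.arrowProdEquivProdArrow (Fin 3) (fun _ => Fin N) (fun _ => Bool)).symm
      (fun c : RC N => φ (p3_wR c)), av_prod]
    rfl
  have e2 : av (fun c : Clause 3 N => φ (p3_wC c)) =
      av (fun v : {v : Fin 3 → Fin N // Function.Injective v} =>
        av (fun s : Fin 3 → Bool => φ (p3_wR (fun i => (v.1 i, s i))))) := by
    rw [av_prod]
    congr 1
    funext v
    congr 1
    funext s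
    rw [p3_wRC]
  rw [e1, e2]
  refine p3_inj hN (fun v : Fin 3 → Fin N =>
      av (fun s : Fin 3 → Bool => φ (p3_wR (fun i => (v i, s i))))) a fun v => ⟨?_, ?_⟩
  · rw [← av_const (α := Fin 3 → Bool) a]
    exact av_mono fun s => (h _).1
  · rw [← av_const (α := Fin 3 → Bool) (a + 1)]
    exact av_mono fun s => (h _).2

theorem p3_hybrid {N : ℕ} (hN : 3 ≤ N) (M : ℕ) : ∀ b : (Fin N → Bool) → ℕ,
    |p3_G (p3_wR (N := N)) b M - p3_G (p3_wC (N := N)) b M| ≤ 3 * M / N := by
  have : Nonempty (Fin N) := ⟨⟨0, by omega⟩⟩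
  have : Nonempty (Clause 3 N) :=
    ⟨⟨⟨fun i => Fin.castLE hN i, Fin.castLE_injective hN⟩, fun _ => true⟩⟩
  induction M with
  | zero =>
    intro b
    have : p3_G (p3_wR (N := N)) b 0 = p3_G (p3_wC (N := N)) b 0 := by
      unfold p3_G
      simp only [Finset.univ_eq_empty, Finset.sum_empty, add_zero]
      rw [av_const, av_const]
    rw [this]
    simp
  | succ M ih =>
    intro b
    rw [p3_G_succ, p3_G_succ]
    have h1 : |av (fun c : RC N => p3_G (p3_wR (N := N)) (fun σ => b σ + p3_wR c σ) M) -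
        av (fun c : RC N => p3_G (p3_wC (N := N)) (fun σ => b σ + p3_wR c σ) M)| ≤ 3 * M / N := by
      rw [← av_sub, abs_le]
      constructor
      · rw [← av_const (α := RC N) (-(3 * (M : ℝ) / N))]
        exact av_mono fun c => (abs_le.1 (ih _)).1
      · rw [← av_const (α := RC N) (3 * (M : ℝ) / N)]
        exact av_mono fun c => (abs_le.1 (ih _)).2
    have h2 := p3_cmp hN (fun w => p3_G (p3_wC (N := N)) (fun σ => b σ + w σ) M)
      (p3_G (p3_wC (N := N)) b M) (fun c => ⟨p3_G_mono _ _ fun σ => Nat.le_add_right _ _,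
        p3_G_add_one _ _ fun σ => by have := p3_wR_le c σ; omega⟩)
    have h3 : (3 * ((M + 1 : ℕ) : ℝ) / N) = 3 * M / N + 3 / N := by push_cast; ring
    rw [h3]
    exact (abs_sub_le _ _ _).trans (add_le_add h1 h2)

/-- a clause with replacement has three distinct variables except with probability `≤ 3/N`;
compare with the clauses of the distinct model: `E V` changes by at most the expected number of
degenerate clauses (use `vv_succ`-type monotonicity: with `j` nondegenerate clauses the energy is between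
`V(nondegenerate)` and `V(nondegenerate) + #degenerate`, and `uu N M - d ≤ uu N (M-d) ≤ uu N M`). -/
theorem vv_uu {N : ℕ} (hN : 3 ≤ N) (M : ℕ) : |vv N M - uu N M| ≤ 3 * M / N := by
  rw [p3_vv, p3_uu]
  exact p3_hybrid hN M _

theorem p3_vv_lip {N : ℕ} (hN : 1 ≤ N) (M M' : ℕ) : |vv N M - vv N M'| ≤ |(M : ℝ) - M'| := by
  have key : ∀ M d : ℕ, 0 ≤ vv N (M + d) - vv N M ∧ vv N (M + d) - vv N M ≤ d := by
    intro M d
    induction d with
    | zero => simp
    | succ d ih =>
      have := vv_succ hN (M + d)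
      rw [← add_assoc]
      push_cast
      constructor <;> linarith [this.1, this.2, ih.1, ih.2]
  rcases Nat.le_total M M' with h | h
  · obtain ⟨d, rfl⟩ := Nat.exists_eq_add_of_le h
    have := key M d
    rw [abs_sub_comm, abs_of_nonneg this.1, abs_sub_comm, abs_of_nonneg (by push_cast; simp)]
    push_cast
    linarith [this.2]
  · obtain ⟨d, rfl⟩ := Nat.exists_eq_add_of_le h
    have := key M' d
    rw [abs_of_nonneg this.1, abs_of_nonneg (by push_cast; simp)]
    push_cast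
    linarith [this.2]

/-- `E |Poi(λ) - ⌊λ⌋| ≤ √λ + 1` and `vv_succ` -/
theorem eP_vv {N : ℕ} (hN : 1 ≤ N) {c : ℝ} (hc : 0 ≤ c) :
    |eP c N - vv N ⌊c * N⌋₊| ≤ Real.sqrt (c * N) + 1 := by
  have hlam : 0 ≤ c * N := mul_nonneg hc (Nat.cast_nonneg _)
  obtain ⟨lam, hl⟩ : ∃ lam, lam = c * N := ⟨_, rfl⟩
  have he : eP c N = Crest.SG.Poi (c * N) (fun M => vv N M) := rfl
  rw [he, ← hl]
  rw [← hl] at hlam
  rcases hlam.eq_or_lt with h0 | h0
  · rw [← h0, Crest.SG.Poi_zero]
    simp
  · obtain ⟨S, hS, hS2⟩ := Crest.SG.sgp_mad h0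
    have hLv : ∀ n : ℕ, |vv N n| ≤ 0 + 1 * n := by
      intro n
      rw [abs_of_nonneg (vv_nonneg N n)]
      linarith [vv_le N n]
    have hsum := summable_linear hlam hLv
    have hconst := (hasSum_poissonWeight lam).mul_right (vv N ⌊lam⌋₊)
    have hdiff : HasSum (fun n : ℕ => poissonWeight lam n * (vv N n - vv N ⌊lam⌋₊))
        (Crest.SG.Poi lam (fun M => vv N M) - vv N ⌊lam⌋₊) := by
      have := hsum.hasSum.sub hconst
      rw [one_mul] at this
      have e : (fun n : ℕ => poissonWeight lam n * (vv N n - vv N ⌊lam⌋₊)) =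
          fun n : ℕ => poissonWeight lam n * vv N n - poissonWeight lam n * vv N ⌊lam⌋₊ := by
        funext n
        ring
      rw [e]
      exact this
    have hmad : HasSum (fun n : ℕ => poissonWeight lam n * (|(n : ℝ) - lam| + 1)) (lam * S + 1) := by
      have := (hS.mul_left lam).add (hasSum_poissonWeight lam)
      have e : (fun n : ℕ => poissonWeight lam n * (|(n : ℝ) - lam| + 1)) =
          fun n : ℕ => lam * (poissonWeight lam n * |(n : ℝ) / lam - 1|) + poissonWeight lam n := ?_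
      · rw [e]
        exact this
      funext n
      have h1 : |(n : ℝ) - lam| = lam * |(n : ℝ) / lam - 1| := by
        rw [← abs_of_pos h0, ← abs_mul, abs_of_pos h0]
        congr 1
        field_simp
      rw [h1]
      ring
    have hb : ∀ n : ℕ, ‖poissonWeight lam n * (vv N n - vv N ⌊lam⌋₊)‖ ≤
        poissonWeight lam n * (|(n : ℝ) - lam| + 1) := by
      intro n
      rw [Real.norm_eq_abs, abs_mul, abs_of_nonneg (poissonWeight_nonneg hlam n)]
      refine mul_le_mul_of_nonneg_left ?_ (poissonWeight_nonneg hlam n)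
      refine (p3_vv_lip hN _ _).trans ?_
      have h1 : |(n : ℝ) - (⌊lam⌋₊ : ℝ)| ≤ |(n : ℝ) - lam| + |lam - (⌊lam⌋₊ : ℝ)| :=
        abs_sub_le _ _ _
      have h2 : |lam - (⌊lam⌋₊ : ℝ)| ≤ 1 := by
        have h3 := Nat.floor_le hlam
        have h4 := Nat.lt_floor_add_one lam
        rw [abs_le]; constructor <;> linarith
      linarith
    have := tsum_of_norm_bounded hmad hb
    rw [hdiff.tsum_eq, Real.norm_eq_abs] at this
    refine this.trans ?_
    have h5 : lam * S ≤ Real.sqrt lam := by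
      calc lam * S ≤ lam * (1 / Real.sqrt lam) := mul_le_mul_of_nonneg_left hS2 hlam
        _ = Real.sqrt lam := by
          have hs : Real.sqrt lam * Real.sqrt lam = lam := Real.mul_self_sqrt hlam
          have hs0 : Real.sqrt lam ≠ 0 := (Real.sqrt_pos.mpr h0).ne'
          field_simp
          linarith [hs, sq (Real.sqrt lam)]
    linarith

end Crest.Agent.KS
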