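import Crest.Agent.KS_P3
import Crest.Agent.SGG_Pois

/-! # KS-P3b : the pressure of `core3 D` and the energy (medium)

`exp (θ) = 1 + b ∏ f = 1/D` if all three literals are violated and `1` otherwise, `h = 0`, so
`logPartition = log ∑_σ D^{-viol σ}`, which is between `- viol_min log D` and `N log 2 - viol_min log D`.
The sum over types `e : Fin M → Fin 1 × (Fin 3 → Fin 2)` with weights `(1/2)^{3M}` and over `idx : Fin M → Fin 3 → Fin N`
with weight `N^{-3M}` is the uniform average over `Fin M → RC N`. -/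

set_option autoImplicit false

noncomputable section
open Crest.ProbabilityR.RandomSAT
open Crest.ProbabilityR.Diluted
open Crest.Agent.SGG
open Classical Filter
namespace Crest.Agent.KS

/-- the formula attached to types and indices -/
private def toF {M N : ℕ} (p : (Fin M → Fin 1 × (Fin 3 → Fin 2)) × (Fin M → Fin 3 → Fin N)) :
    Fin M → RC N :=
  fun k i => (p.2 k i, decide ((p.1 k).2 i = 0))

private theorem toF_bij (M N : ℕ) : Function.Bijective (toF (M := M) (N := N)) := by
  constructor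
  · rintro ⟨e, idx⟩ ⟨e', idx'⟩ h
    have h1 : ∀ k i, idx k i = idx' k i ∧
        decide ((e k).2 i = 0) = decide ((e' k).2 i = 0) := by
      intro k i
      have := congrFun (congrFun h k) i
      simpa [toF] using this
    refine Prod.ext (funext fun k => Prod.ext (Subsingleton.elim _ _) (funext fun i => ?_))
      (funext fun k => funext fun i => (h1 k i).1)
    have h2 := (h1 k i).2
    have h3 : ((e k).2 i = 0 ↔ (e' k).2 i = 0) := by simpa using h2
    generalize (e k).2 i = a at h3 ⊢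
    generalize (e' k).2 i = b at h3 ⊢
    fin_cases a <;> fin_cases b <;> simp_all
  · intro F
    refine ⟨(fun k => (0, fun i => if (F k i).2 then 0 else 1), fun k i => (F k i).1), ?_⟩
    funext k i
    unfold toF
    refine Prod.ext rfl ?_
    by_cases hb : (F k i).2 = true
    · simp [hb]
    · simp [hb]

/-- log partition function of a formula -/
private def LZ (D : ℕ) {M N : ℕ} (F : Fin M → RC N) : ℝ :=
  Real.log (∑ σ : Fin N → Bool, Real.exp (-(Real.log D) * (violR F σ : ℝ)))

private theorem theta_eq {D : ℕ} (hD : 2 ≤ D) (e : Fin 1 × (Fin 3 → Fin 2)) (s : Fin 3 → Bool) :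
    (core3 D hD).theta e s =
      if ∀ i, s i ≠ decide (e.2 i = 0) then -(Real.log D) else 0 := by
  have hD0 : (0 : ℝ) < D := by
    have : (2 : ℝ) ≤ D := by exact_mod_cast hD
    linarith
  change Real.log (1 + bD D * ∏ l, (if s l = decide (e.2 l = 0) then (0 : ℝ) else 1)) = _
  by_cases h : ∀ i, s i ≠ decide (e.2 i = 0)
  · rw [if_pos h]
    have h1 : ∏ l, (if s l = decide (e.2 l = 0) then (0 : ℝ) else 1) = 1 :=
      Finset.prod_eq_one fun l _ => if_neg (h l)
    rw [h1, mul_one, bD]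
    have h2 : (1 : ℝ) + -(1 - 1 / (D : ℝ)) = (D : ℝ)⁻¹ := by
      rw [one_div]; ring
    rw [h2, Real.log_inv]
  · rw [if_neg h]
    push Not at h
    obtain ⟨i, hi⟩ := h
    have h1 : ∏ l, (if s l = decide (e.2 l = 0) then (0 : ℝ) else 1) = 0 :=
      Finset.prod_eq_zero (Finset.mem_univ i) (if_pos hi)
    rw [h1, mul_zero, add_zero, Real.log_one]

private theorem logP_eq {D : ℕ} (hD : 2 ≤ D) {M N : ℕ} (e : Fin M → Fin 1 × (Fin 3 → Fin 2))
    (idx : Fin M → Fin 3 → Fin N) (hs : Fin N → ℝ) (h0 : ∀ i, hs i = 0) :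
    logPartition N (fun k => (core3 D hD).theta (e k)) idx hs = LZ D (toF (e, idx)) := by
  unfold logPartition LZ
  congr 1
  refine Finset.sum_congr rfl fun σ _ => ?_
  congr 1
  have h1 : ∑ i : Fin N, hs i * spinVal (σ i) = 0 :=
    Finset.sum_eq_zero fun i _ => by rw [h0 i, zero_mul]
  rw [h1, add_zero]
  have h2 : ∀ k, (core3 D hD).theta (e k) (fun l => σ (idx k l)) =
      -(Real.log D) * (if ∀ i, σ (toF (e, idx) k i).1 ≠ (toF (e, idx) k i).2 then 1 else 0) := by
    intro k
    rw [theta_eq hD]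
    unfold toF
    simp only [mul_ite, mul_one, mul_zero]
  simp only [h2]
  rw [← Finset.mul_sum, Finset.sum_boole]
  rfl

private theorem LZ_lower {D : ℕ} (_hD : 2 ≤ D) {M N : ℕ} (F : Fin M → RC N) :
    -(Real.log D) * (minR F : ℝ) ≤ LZ D F := by
  obtain ⟨σ, hσ⟩ := exists_minR F
  unfold LZ
  rw [Real.le_log_iff_exp_le]
  · rw [← hσ]
    exact Finset.single_le_sum (f := fun σ => Real.exp (-(Real.log D) * (violR F σ : ℝ)))
      (fun _ _ => (Real.exp_pos _).le) (Finset.mem_univ σ)
  · exact Finset.sum_pos (fun _ _ => Real.exp_pos _) ⟨σ, Finset.mem_univ σ⟩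

private theorem LZ_upper {D : ℕ} (hD : 2 ≤ D) {M N : ℕ} (F : Fin M → RC N) :
    LZ D F ≤ N * Real.log 2 + -(Real.log D) * (minR F : ℝ) := by
  have hD1 : (1 : ℝ) ≤ D := by
    have : (2 : ℝ) ≤ D := by exact_mod_cast hD
    linarith
  have hlog : 0 ≤ Real.log D := Real.log_nonneg hD1
  obtain ⟨σ, hσ⟩ := exists_minR F
  unfold LZ
  rw [Real.log_le_iff_le_exp]
  · calc ∑ σ : Fin N → Bool, Real.exp (-(Real.log D) * (violR F σ : ℝ))
        ≤ ∑ _σ : Fin N → Bool, Real.exp (-(Real.log D) * (minR F : ℝ)) := by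
          refine Finset.sum_le_sum fun σ _ => Real.exp_le_exp.mpr ?_
          have : (minR F : ℝ) ≤ violR F σ := by exact_mod_cast minR_le F σ
          nlinarith
      _ = 2 ^ N * Real.exp (-(Real.log D) * (minR F : ℝ)) := by
          rw [Finset.sum_const, Finset.card_univ, nsmul_eq_mul]
          simp
      _ = Real.exp (N * Real.log 2 + -(Real.log D) * (minR F : ℝ)) := by
          have e1 : Real.exp ((N : ℝ) * Real.log 2) = 2 ^ N := by
            rw [mul_comm, Real.exp_mul, Real.exp_log (by norm_num), Real.rpow_natCast]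
          rw [Real.exp_add, e1]
  · exact Finset.sum_pos (fun _ _ => Real.exp_pos _) ⟨σ, Finset.mem_univ σ⟩

/-- the inner average of the pressure -/
private def inner (D : ℕ) (N M : ℕ) : ℝ := av (fun F : Fin M → RC N => LZ D F)

private theorem inner_eq {D : ℕ} (hD : 2 ≤ D) {N : ℕ} (hN : 1 ≤ N) (M : ℕ) :
    (∑ e : Fin M → (core3 D hD).E, (∏ k, (core3 D hD).wE (e k)) *
      ∑ y : Fin N → Fin (core3 D hD).nH, (∏ i, (core3 D hD).wH (y i)) *
        ((Fintype.card (Fin M → Fin 3 → Fin N) : ℝ)⁻¹ *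
          ∑ idx : Fin M → Fin 3 → Fin N,
            logPartition N (fun k => (core3 D hD).theta (e k)) idx
              (fun i => (core3 D hD).h (y i)))) = inner D N M := by
  have hN0 : (N : ℝ) ≠ 0 := by
    have : (1 : ℝ) ≤ N := by exact_mod_cast hN
    linarith
  have hy : ∀ e : Fin M → Fin 1 × (Fin 3 → Fin 2),
      (∑ y : Fin N → Fin (core3 D hD).nH, (∏ i, (core3 D hD).wH (y i)) *
        ((Fintype.card (Fin M → Fin 3 → Fin N) : ℝ)⁻¹ *
          ∑ idx : Fin M → Fin 3 → Fin N,
            logPartition N (fun k => (core3 D hD).theta (e k)) idx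
              (fun i => (core3 D hD).h (y i)))) =
      (Fintype.card (Fin M → Fin 3 → Fin N) : ℝ)⁻¹ *
          ∑ idx : Fin M → Fin 3 → Fin N, LZ D (toF (e, idx)) := by
    intro e
    change (∑ y : Fin N → Fin 1, (∏ i : Fin N, (1 : ℝ)) *
        ((Fintype.card (Fin M → Fin 3 → Fin N) : ℝ)⁻¹ *
          ∑ idx : Fin M → Fin 3 → Fin N,
            logPartition N (fun k => (core3 D hD).theta (e k)) idx
              (fun i : Fin N => (0 : ℝ)))) = _
    simp only [logP_eq hD e _ (fun _ => 0) (fun _ => rfl)]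
    rw [Finset.prod_const_one, Fintype.sum_unique, one_mul]
  have hw : ∀ e : Fin M → Fin 1 × (Fin 3 → Fin 2),
      ∏ k, (core3 D hD).wE (e k) = ((1 / 2 : ℝ) ^ 3) ^ M := by
    intro e
    change ∏ k : Fin M, ((1 : ℝ) * ∏ l : Fin 3, (1 / 2 : ℝ)) = _
    simp only [Finset.prod_const, Finset.card_univ, Fintype.card_fin, one_mul]
  change (∑ e : Fin M → Fin 1 × (Fin 3 → Fin 2), (∏ k, (core3 D hD).wE (e k)) *
      ∑ y : Fin N → Fin (core3 D hD).nH, (∏ i, (core3 D hD).wH (y i)) *
        ((Fintype.card (Fin M → Fin 3 → Fin N) : ℝ)⁻¹ *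
          ∑ idx : Fin M → Fin 3 → Fin N,
            logPartition N (fun k => (core3 D hD).theta (e k)) idx
              (fun i => (core3 D hD).h (y i)))) = inner D N M
  simp only [hy, hw]
  rw [← Finset.mul_sum, ← Finset.mul_sum, ← Fintype.sum_prod_type'
    (f := fun e idx => LZ D (toF (e, idx)))]
  have hs : (∑ x : (Fin M → Fin 1 × (Fin 3 → Fin 2)) × (Fin M → Fin 3 → Fin N),
      LZ D (toF (x.1, x.2))) = ∑ F : Fin M → RC N, LZ D F :=
    Fintype.sum_bijective _ (toF_bij M N) _ _ fun x => rfl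
  have hcard : ((1 / 2 : ℝ) ^ 3) ^ M * (Fintype.card (Fin M → Fin 3 → Fin N) : ℝ)⁻¹ =
      (Fintype.card (Fin M → RC N) : ℝ)⁻¹ := by
    simp only [Fintype.card_fun, Fintype.card_fin, Fintype.card_prod, Fintype.card_bool]
    push_cast
    rw [mul_pow, mul_pow, mul_inv, one_div, inv_pow, inv_pow]
    ring
  rw [hs]
  unfold inner av
  rw [← mul_assoc, hcard, div_eq_inv_mul]

private theorem P3b_av_mono {α : Type*} [Fintype α] {f g : α → ℝ} (h : ∀ x, f x ≤ g x) :
    av f ≤ av g := by
  unfold av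
  exact div_le_div_of_nonneg_right (Finset.sum_le_sum fun x _ => h x) (Nat.cast_nonneg _)

private theorem P3b_av_lin {α : Type*} [Fintype α] [Nonempty α] (f : α → ℝ) (a b : ℝ) :
    av (fun x => a + b * f x) = a + b * av f := by
  unfold av
  have hc : (Fintype.card α : ℝ) ≠ 0 := by
    exact_mod_cast Fintype.card_ne_zero
  rw [Finset.sum_add_distrib, Finset.sum_const, Finset.card_univ, nsmul_eq_mul, ← Finset.mul_sum]
  field_simp

private theorem inner_lower {D : ℕ} (hD : 2 ≤ D) {N : ℕ} (hN : 1 ≤ N) (M : ℕ) :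
    -(Real.log D) * vv N M ≤ inner D N M := by
  have : Nonempty (Fin N) := ⟨⟨0, hN⟩⟩
  have h := P3b_av_lin (fun F : Fin M → RC N => (minR F : ℝ)) 0 (-(Real.log D))
  unfold vv inner
  rw [zero_add] at h
  rw [← h]
  refine P3b_av_mono fun F => ?_
  rw [zero_add]
  exact LZ_lower hD F

private theorem inner_upper {D : ℕ} (hD : 2 ≤ D) {N : ℕ} (hN : 1 ≤ N) (M : ℕ) :
    inner D N M ≤ N * Real.log 2 + -(Real.log D) * vv N M := by
  have : Nonempty (Fin N) := ⟨⟨0, hN⟩⟩
  have h := P3b_av_lin (fun F : Fin M → RC N => (minR F : ℝ)) (N * Real.log 2) (-(Real.log D))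
  unfold vv inner
  rw [← h]
  exact P3b_av_mono fun F => LZ_upper hD F

private theorem log_nn {D : ℕ} (hD : 2 ≤ D) : 0 ≤ Real.log D := by
  refine Real.log_nonneg ?_
  have : (2 : ℝ) ≤ D := by exact_mod_cast hD
  linarith

private theorem abs_low {D : ℕ} (hD : 2 ≤ D) (N M : ℕ) :
    |-(Real.log D) * vv N M| ≤ 0 + Real.log D * M := by
  rw [neg_mul, abs_neg, abs_of_nonneg (mul_nonneg (log_nn hD) (vv_nonneg N M)), zero_add]
  exact mul_le_mul_of_nonneg_left (vv_le N M) (log_nn hD)

private theorem abs_inner {D : ℕ} (hD : 2 ≤ D) {N : ℕ} (hN : 1 ≤ N) (M : ℕ) :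
    |inner D N M| ≤ N * Real.log 2 + Real.log D * M := by
  have h1 := inner_lower hD hN M
  have h2 := inner_upper hD hN M
  have h3 := mul_le_mul_of_nonneg_left (vv_le N M) (log_nn hD)
  have h4 := mul_nonneg (log_nn hD) (vv_nonneg N M)
  have h5 : 0 ≤ (N : ℝ) * Real.log 2 := mul_nonneg (Nat.cast_nonneg N) (Real.log_nonneg (by norm_num))
  rw [abs_le]
  constructor <;> linarith

private theorem pressure_eq {D : ℕ} (hD : 2 ≤ D) {c : ℝ} {N : ℕ} (hN : 1 ≤ N) :
    (core3 D hD).pressure c N =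
      (1 / (N : ℝ)) * ∑' M : ℕ, poissonWeight (c * N) M * inner D N M := by
  unfold Core.pressure
  congr 1
  refine tsum_congr fun M => ?_
  rw [inner_eq hD hN M]

private theorem tsum_low {D : ℕ} (c : ℝ) (N : ℕ) :
    ∑' M : ℕ, poissonWeight (c * N) M * (-(Real.log D) * vv N M) = -(Real.log D) * eP c N := by
  unfold eP
  rw [← tsum_mul_left]
  exact tsum_congr fun M => by ring

theorem pressure_lower {D : ℕ} (hD : 2 ≤ D) {c : ℝ} (hc : 0 ≤ c) {N : ℕ} (hN : 1 ≤ N) :
    -(Real.log D) * (eP c N / N) ≤ (core3 D hD).pressure c N := by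
  have hlam : 0 ≤ c * N := mul_nonneg hc (Nat.cast_nonneg N)
  have hN0 : (0 : ℝ) < N := by exact_mod_cast hN
  rw [pressure_eq hD hN]
  have h1 : ∑' M : ℕ, poissonWeight (c * N) M * (-(Real.log D) * vv N M) ≤
      ∑' M : ℕ, poissonWeight (c * N) M * inner D N M :=
    Summable.tsum_le_tsum (fun M => mul_le_mul_of_nonneg_left (inner_lower hD hN M)
      (poissonWeight_nonneg hlam M)) (summable_linear hlam (abs_low hD N))
      (summable_linear hlam (abs_inner hD hN))
  rw [tsum_low] at h1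
  calc -(Real.log D) * (eP c N / N) = (1 / (N : ℝ)) * (-(Real.log D) * eP c N) := by ring
    _ ≤ _ := mul_le_mul_of_nonneg_left h1 (by positivity)

theorem pressure_upper {D : ℕ} (hD : 2 ≤ D) {c : ℝ} (hc : 0 ≤ c) {N : ℕ} (hN : 1 ≤ N) :
    (core3 D hD).pressure c N ≤ Real.log 2 - Real.log D * (eP c N / N) := by
  have hlam : 0 ≤ c * N := mul_nonneg hc (Nat.cast_nonneg N)
  have hN0 : (0 : ℝ) < N := by exact_mod_cast hN
  rw [pressure_eq hD hN]
  have hup : ∀ M, inner D N M ≤ -(Real.log D) * vv N M + (N * Real.log 2 + 0 * (M : ℝ)) := by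
    intro M
    have := inner_upper hD hN M
    linarith
  have habs : ∀ M : ℕ, |-(Real.log D) * vv N M + (N * Real.log 2 + 0 * (M : ℝ))| ≤
      N * Real.log 2 + Real.log D * M := by
    intro M
    have h3 := abs_low hD N M
    have h5 : 0 ≤ (N : ℝ) * Real.log 2 :=
      mul_nonneg (Nat.cast_nonneg N) (Real.log_nonneg (by norm_num))
    rw [zero_mul, add_zero]
    refine (abs_add_le _ _).trans ?_
    rw [abs_of_nonneg h5]
    linarith
  have h1 : ∑' M : ℕ, poissonWeight (c * N) M * inner D N M ≤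
      ∑' M : ℕ, poissonWeight (c * N) M *
        (-(Real.log D) * vv N M + (N * Real.log 2 + 0 * (M : ℝ))) :=
    Summable.tsum_le_tsum (fun M => mul_le_mul_of_nonneg_left (hup M)
      (poissonWeight_nonneg hlam M)) (summable_linear hlam (abs_inner hD hN))
      (summable_linear hlam habs)
  rw [tsum_add_linear hlam (abs_low hD N), tsum_low] at h1
  calc (1 / (N : ℝ)) * ∑' M : ℕ, poissonWeight (c * N) M * inner D N M
      ≤ (1 / (N : ℝ)) * (-(Real.log D) * eP c N + (N * Real.log 2 + 0 * (c * N))) :=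
        mul_le_mul_of_nonneg_left h1 (by positivity)
    _ = Real.log 2 - Real.log D * (eP c N / N) := by
        field_simp
        ring

end Crest.Agent.KS
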