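import Mathlib

/-! # KS-PR : primitive recursion utilities

`prim` proves goals `Primrec (fun x => …)` and `PrimrecPred (fun x => …)` for expressions built from
`+ * - / % ^`, bounded sums and products `∑ i ∈ Finset.range b, …`, `∏`, bounded quantifiers
`∀ i, i < b → …`, `∧`, `∨`, `≤ < =`, pairs, `Nat.pair`, `Nat.beta`, `if … then … else …`. -/

set_option autoImplicit false

namespace Crest.Agent.KS.PR

variable {α β γ σ : Type} [Primcodable α] [Primcodable β] [Primcodable γ] [Primcodable σ]

theorem pconst (s : σ) : Primrec (fun _ : α => s) := Primrec.const s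
theorem pid : Primrec (fun a : α => a) := Primrec.id
theorem pfst {f : α → β × γ} (hf : Primrec f) : Primrec (fun a => (f a).1) := Primrec.fst.comp hf
theorem psnd {f : α → β × γ} (hf : Primrec f) : Primrec (fun a => (f a).2) := Primrec.snd.comp hf
theorem pprod {f : α → β} {g : α → γ} (hf : Primrec f) (hg : Primrec g) :
    Primrec (fun a => (f a, g a)) := hf.pair hg
theorem padd {f g : α → ℕ} (hf : Primrec f) (hg : Primrec g) : Primrec (fun a => f a + g a) :=
  Primrec.nat_add.comp hf hg
theorem pmul {f g : α → ℕ} (hf : Primrec f) (hg : Primrec g) : Primrec (fun a => f a * g a) :=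
  Primrec.nat_mul.comp hf hg
theorem psub {f g : α → ℕ} (hf : Primrec f) (hg : Primrec g) : Primrec (fun a => f a - g a) :=
  Primrec.nat_sub.comp hf hg
theorem pdiv {f g : α → ℕ} (hf : Primrec f) (hg : Primrec g) : Primrec (fun a => f a / g a) :=
  Primrec.nat_div.comp hf hg
theorem pmod {f g : α → ℕ} (hf : Primrec f) (hg : Primrec g) : Primrec (fun a => f a % g a) :=
  Primrec.nat_mod.comp hf hg
theorem ppow {f g : α → ℕ} (hf : Primrec f) (hg : Primrec g) : Primrec (fun a => f a ^ g a) :=
  (Primrec₂.unpaired'.1 Nat.Primrec.pow).comp hf hg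
theorem ppair {f g : α → ℕ} (hf : Primrec f) (hg : Primrec g) :
    Primrec (fun a => Nat.pair (f a) (g a)) :=
  Primrec₂.natPair.comp hf hg
theorem punpair {f : α → ℕ} (hf : Primrec f) : Primrec (fun a => Nat.unpair (f a)) :=
  Primrec.unpair.comp hf
theorem pbeta {f g : α → ℕ} (hf : Primrec f) (hg : Primrec g) :
    Primrec (fun a => Nat.beta (f a) (g a)) := by
  have h : Primrec (fun a => (f a).unpair.1 % ((g a + 1) * (f a).unpair.2 + 1)) :=
    pmod (pfst (punpair hf)) (padd (pmul (padd hg (pconst 1)) (psnd (punpair hf))) (pconst 1))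
  exact h
theorem pfact {f : α → ℕ} (hf : Primrec f) : Primrec (fun a => Nat.factorial (f a)) := by
  have h : Primrec (fun n : ℕ => Nat.factorial n) := by
    have h1 : Primrec (Nat.rec (motive := fun _ => ℕ) 1 (fun n y => (n + 1) * y)) :=
      Primrec.nat_rec₁ 1 (show Primrec (fun p : ℕ × ℕ => (p.1 + 1) * p.2) from
        pmul (padd (pfst pid) (pconst 1)) (psnd pid))
    refine h1.of_eq fun n => ?_
    induction n with
    | zero => rfl
    | succ n ih => rw [Nat.factorial_succ, ← ih]
  exact h.comp hf

theorem psum {b : α → ℕ} {f : α → ℕ → ℕ} (hb : Primrec b)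
    (hf : Primrec (fun x : α × ℕ => f x.1 x.2)) :
    Primrec (fun a => ∑ i ∈ Finset.range (b a), f a i) := by
  have h : Primrec (fun a => Nat.rec (motive := fun _ => ℕ) 0 (fun n y => y + f a n) (b a)) := by
    refine Primrec.nat_rec' (f := b) (g := fun _ => 0) (h := fun a p => p.2 + f a p.1) hb
      (pconst 0) ?_
    exact padd (psnd (psnd pid)) (hf.comp (pprod (pfst pid) (pfst (psnd pid))))
  refine h.of_eq fun a => ?_
  induction b a with
  | zero => rfl
  | succ n ih => rw [Finset.sum_range_succ, ← ih]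

theorem pprodr {b : α → ℕ} {f : α → ℕ → ℕ} (hb : Primrec b)
    (hf : Primrec (fun x : α × ℕ => f x.1 x.2)) :
    Primrec (fun a => ∏ i ∈ Finset.range (b a), f a i) := by
  have h : Primrec (fun a => Nat.rec (motive := fun _ => ℕ) 1 (fun n y => y * f a n) (b a)) := by
    refine Primrec.nat_rec' (f := b) (g := fun _ => 1) (h := fun a p => p.2 * f a p.1) hb
      (pconst 1) ?_
    exact pmul (psnd (psnd pid)) (hf.comp (pprod (pfst pid) (pfst (psnd pid))))
  refine h.of_eq fun a => ?_
  induction b a with
  | zero => rfl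
  | succ n ih => rw [Finset.prod_range_succ, ← ih]

theorem ple {f g : α → ℕ} (hf : Primrec f) (hg : Primrec g) : PrimrecPred (fun a => f a ≤ g a) :=
  Primrec.nat_le.comp hf hg
theorem plt {f g : α → ℕ} (hf : Primrec f) (hg : Primrec g) : PrimrecPred (fun a => f a < g a) :=
  Primrec.nat_lt.comp hf hg
theorem peq {f g : α → ℕ} (hf : Primrec f) (hg : Primrec g) : PrimrecPred (fun a => f a = g a) :=
  Primrec.eq.comp hf hg
theorem pand {P Q : α → Prop} (hP : PrimrecPred P) (hQ : PrimrecPred Q) :
    PrimrecPred (fun a => P a ∧ Q a) := hP.and hQ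
theorem por {P Q : α → Prop} (hP : PrimrecPred P) (hQ : PrimrecPred Q) :
    PrimrecPred (fun a => P a ∨ Q a) := hP.or hQ
theorem pnot {P : α → Prop} (hP : PrimrecPred P) : PrimrecPred (fun a => ¬ P a) := hP.not

theorem pall {b : α → ℕ} {P : α → ℕ → Prop} (hb : Primrec b)
    (hP : PrimrecPred (fun x : α × ℕ => P x.1 x.2)) :
    PrimrecPred (fun a => ∀ i, i < b a → P a i) := by
  have h1 : PrimrecRel (fun (i : ℕ) (a : α) => P a i) := by
    have := hP.comp (f := fun x : ℕ × α => (x.2, x.1)) (pprod (psnd pid) (pfst pid))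
    exact this
  have h2 := (PrimrecRel.forall_mem_list (R := fun (i : ℕ) (a : α) => P a i) h1).comp
    (Primrec.list_range.comp hb) pid
  exact h2.of_eq fun a => by simp

theorem pex {b : α → ℕ} {P : α → ℕ → Prop} (hb : Primrec b)
    (hP : PrimrecPred (fun x : α × ℕ => P x.1 x.2)) :
    PrimrecPred (fun a => ∃ i, i < b a ∧ P a i) := by
  have h1 : PrimrecRel (fun (i : ℕ) (a : α) => P a i) := by
    have := hP.comp (f := fun x : ℕ × α => (x.2, x.1)) (pprod (psnd pid) (pfst pid))
    exact this
  have h2 := (PrimrecRel.exists_mem_list (R := fun (i : ℕ) (a : α) => P a i) h1).comp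
    (Primrec.list_range.comp hb) pid
  exact h2.of_eq fun a => by simp

theorem pite {P : α → Prop} [DecidablePred P] {f g : α → σ} (hP : PrimrecPred P) (hf : Primrec f)
    (hg : Primrec g) : Primrec (fun a => if P a then f a else g a) :=
  Primrec.ite hP hf hg

end Crest.Agent.KS.PR

open Crest.Agent.KS.PR in
/-- proves primitive recursiveness of arithmetical expressions -/
macro "prim" : tactic => `(tactic| repeat' (first
  | assumption
  | with_reducible exact Crest.Agent.KS.PR.pid
  | with_reducible exact Crest.Agent.KS.PR.pconst _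
  | with_reducible apply Crest.Agent.KS.PR.pand
  | with_reducible apply Crest.Agent.KS.PR.por
  | with_reducible apply Crest.Agent.KS.PR.pnot
  | with_reducible apply Crest.Agent.KS.PR.ple
  | with_reducible apply Crest.Agent.KS.PR.plt
  | with_reducible apply Crest.Agent.KS.PR.peq
  | with_reducible apply Crest.Agent.KS.PR.pall
  | with_reducible apply Crest.Agent.KS.PR.pex
  | with_reducible apply Crest.Agent.KS.PR.pite
  | with_reducible apply Crest.Agent.KS.PR.psum
  | with_reducible apply Crest.Agent.KS.PR.pprodr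
  | with_reducible apply Crest.Agent.KS.PR.padd
  | with_reducible apply Crest.Agent.KS.PR.pmul
  | with_reducible apply Crest.Agent.KS.PR.psub
  | with_reducible apply Crest.Agent.KS.PR.pdiv
  | with_reducible apply Crest.Agent.KS.PR.pmod
  | with_reducible apply Crest.Agent.KS.PR.ppow
  | with_reducible apply Crest.Agent.KS.PR.ppair
  | with_reducible apply Crest.Agent.KS.PR.punpair
  | with_reducible apply Crest.Agent.KS.PR.pbeta
  | with_reducible apply Crest.Agent.KS.PR.pfact
  | with_reducible apply Crest.Agent.KS.PR.pfst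
  | with_reducible apply Crest.Agent.KS.PR.psnd
  | with_reducible apply Crest.Agent.KS.PR.pprod))

namespace Crest.Agent.KS.PR

/-- unbounded search for a primitive recursive condition -/
theorem search {P : ℕ → ℕ → Prop} (hP : PrimrecPred (fun x : ℕ × ℕ => P x.1 x.2))
    (h : ∀ r, ∃ n, P r n) :
    ∃ f : ℕ → ℕ, Computable f ∧ ∀ r, P r (f r) := by
  classical
  have h1 : Primrec (fun x : ℕ × ℕ => decide (P x.1 x.2)) := hP.decide
  have h2 : Computable₂ (fun (r n : ℕ) => decide (P r n)) := h1.to_comp
  let q : ℕ → ℕ →. Bool := fun r n => Part.some (decide (P r n))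
  have h3 : Partrec (fun r : ℕ => Nat.rfind (q r)) := Partrec.rfind (p := q) h2
  have hd : ∀ r, (Nat.rfind (q r)).Dom := by
    intro r
    obtain ⟨n, hn⟩ := h r
    refine Nat.rfind_dom.2 ⟨n, ?_, fun {m} _ => trivial⟩
    have : decide (P r n) = true := by simpa using hn
    change true ∈ Part.some (decide (P r n))
    rw [this]; exact Part.mem_some _
  refine ⟨fun r => (Nat.rfind (q r)).get (hd r), ?_, fun r => ?_⟩
  · refine Partrec.of_eq h3 fun r => ?_
    exact (Part.some_get (hd r)).symm
  · have h4 := Nat.rfind_spec (Part.get_mem (hd r))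
    change true ∈ Part.some (decide (P r _)) at h4
    rw [Part.mem_some_iff] at h4
    exact of_decide_eq_true h4.symm

example : Primrec (fun x : ℕ × ℕ => ∑ i ∈ Finset.range (x.1 + 3), (x.2 ^ i * ∏ j ∈ Finset.range i, (j + x.1) % 7)) := by
  prim

example : PrimrecPred (fun x : ℕ × ℕ => ∀ i, i < x.1 → ∀ j, j < i + x.2 →
    ∑ v ∈ Finset.range (j ^ i), Nat.beta x.2 (Nat.pair i v) * (x.1 - v) ≤ x.1 / (j + 1)) := by
  prim

end Crest.Agent.KS.PR
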