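import Crest.Agent.KS_P3Defs
import Crest.Agent.KS_PR

/-!
# S0218, upper certificates: rational trials and digit codes

* `dg n a p` : base `n` digit of `a` at position `p`.
* A natural number `a < (n ^ ℓ) ^ j` codes the histories (lists of length `j` of states `< n`) of `ℓ`
  labels: the state of label `ω` at depth `i` from the most recent is `dg n a (ℓ * i + ω)`;
  `hs n ℓ j a ω` is the history of label `ω`, `lab n ℓ ω j a` its code as a natural number `< n ^ j`.
* `RT` : data of a rational trial: `r` levels, `nS` states, exponents `E d / R`, kernel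
  `kap j (code H) s / Q` (`j` = length of `H`), message `tilt x true = x (code H) / Q`.
-/

set_option autoImplicit false

open Crest.ProbabilityR.Diluted
open Crest.Agent.SGG

namespace Crest.Agent.KS.UC

/-- base `n` digit of `a` at position `p` -/
def dg (n a p : ℕ) : ℕ := a / n ^ p % n

/-- code of a history, most recent state first -/
def code {n : ℕ} : List (Fin n) → ℕ
  | [] => 0
  | s :: H => (s : ℕ) + n * code H

/-- code of the history of the label `ω` (of `ℓ` labels) of length `j` in the code `a` -/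
def lab (n l ω j a : ℕ) : ℕ := ∑ i ∈ Finset.range j, dg n a (l * i + ω) * n ^ i

/-- state coded by the base `n` digit of `a` at position `p` -/
def st {n : ℕ} (hn : 0 < n) (a p : ℕ) : Fin n := ⟨dg n a p, Nat.mod_lt _ hn⟩

/-- the histories coded by `a` -/
def hs {n : ℕ} (hn : 0 < n) (l : ℕ) : ℕ → ℕ → Fin l → List (Fin n)
  | 0, _, _ => []
  | j + 1, a, ω => st hn a ω :: hs hn l j (a / n ^ l) ω

/-- data of a rational trial -/
structure RT where
  r : ℕ
  nS : ℕ
  Q : ℕ
  R : ℕ
  E : ℕ → ℕ
  kap : ℕ → ℕ → ℕ → ℕ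
  x : ℕ → ℕ

structure RT.Valid (T : RT) : Prop where
  nS_pos : 0 < T.nS
  Q_pos : 0 < T.Q
  R_pos : 0 < T.R
  E_pos : ∀ d, d < T.r → 0 < T.E d ∧ T.E d < T.R
  E_lt : ∀ d, d + 1 < T.r → T.E d < T.E (d + 1)
  kap_sum : ∀ j, j < T.r + 1 → ∀ h, h < T.nS ^ j → ∑ s ∈ Finset.range T.nS, T.kap j h s = T.Q
  x_pos : ∀ h, h < T.nS ^ (T.r + 1) → 0 < T.x h ∧ T.x h < T.Q

/-- message with `tilt (msg Q x) true = x / Q` -/
noncomputable def msg (Q x : ℕ) : ℝ := 1 / 2 * Real.log ((x : ℝ) / ((Q : ℝ) - x))

theorem code_lt {n : ℕ} (H : List (Fin n)) : code H < n ^ H.length := by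
  induction H with
  | nil => simp [code]
  | cons s H ih =>
    rw [code, List.length_cons, pow_succ]
    have hs := s.isLt
    nlinarith

/-- the trial of the data `T` -/
noncomputable def RT.trial (T : RT) (h : T.Valid) : Trial where
  r := T.r
  m := fun d => (T.E d : ℝ) / T.R
  nS := T.nS
  κ := fun H s => if H.length < T.r + 1 then (T.kap H.length (code H) s : ℝ) / T.Q
    else if (s : ℕ) = 0 then 1 else 0
  X := fun H => msg T.Q (T.x (code H))
  adm := by
    have hR : (0 : ℝ) < T.R := by exact_mod_cast h.R_pos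
    constructor
    · have key : ∀ i j : ℕ, i < j → j < T.r → T.E i < T.E j := by
        intro i j hij
        induction j with
        | zero => omega
        | succ j ih =>
          intro hj
          rcases Nat.lt_or_ge i j with h1 | h1
          · exact (ih h1 (by omega)).trans (h.E_lt j hj)
          · have : i = j := by omega
            subst this
            exact h.E_lt i hj
      intro i j hij
      have := key i j hij j.isLt
      have h2 : (T.E i : ℝ) < T.E j := by exact_mod_cast this
      exact div_lt_div_of_pos_right h2 hR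
    · intro d
      have := h.E_pos d d.isLt
      constructor
      · exact div_pos (by exact_mod_cast this.1) hR
      · rw [div_lt_one hR]; exact_mod_cast this.2
  κ_nonneg := by
    intro H s
    split_ifs <;> positivity
  κ_sum := by
    intro H
    have hQ : (0 : ℝ) < T.Q := by exact_mod_cast h.Q_pos
    by_cases h1 : H.length < T.r + 1
    · simp only [h1, if_true]
      rw [← Finset.sum_div]
      have h2 := h.kap_sum H.length h1 (code H) (code_lt H)
      have h3 : ∑ s : Fin T.nS, (T.kap H.length (code H) s : ℝ) = T.Q := by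
        rw [← h2]
        push_cast
        rw [Finset.sum_range]
      rw [h3, div_self hQ.ne']
    · simp only [h1, if_false]
      rw [Finset.sum_eq_single (⟨0, h.nS_pos⟩ : Fin T.nS)]
      · simp
      · intro b _ hb
        have : (b : ℕ) ≠ 0 := fun h0 => hb (Fin.ext h0)
        simp [this]
      · simp

/-! ### values of the leaves for `core3 D` -/

/-- probability numerator that the spin with message numerator `x` violates a literal of type `ty` -/
def nv (Q ty x : ℕ) : ℕ := if ty = 0 then Q - x else x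

/-- numerator of the edge term; the denominator is `D * Q ^ 3` -/
def edgeNum (T : RT) (D e a : ℕ) : ℕ :=
  D * T.Q ^ 3 - (D - 1) * ∏ i ∈ Finset.range 3,
    nv T.Q (dg 2 e i) (T.x (lab T.nS 3 i (T.r + 1) a))

/-- numerator of the site term with `k` clauses; the denominator is `2 * (D * Q ^ 2) ^ k` -/
def siteNum (T : RT) (D k e a : ℕ) : ℕ :=
  ∑ ε ∈ Finset.range 2, ∏ j ∈ Finset.range k,
    (D * T.Q ^ 2 - if dg 2 e (3 * j + 2) = ε then
      (D - 1) * ∏ i ∈ Finset.range 2,
        nv T.Q (dg 2 e (3 * j + i)) (T.x (lab T.nS (k * 2) (i + 2 * j) (T.r + 1) a)) else 0)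

/-- the type of the literals `p, p + 1, p + 2` of the code `e` -/
def tyE (D : ℕ) (hD : 2 ≤ D) (e p : ℕ) : (core3 D hD).E :=
  ((0 : Fin 1), fun i : Fin 3 => (st (n := 2) (by norm_num) e (p + i) : Fin 2))

/-- kernel weight numerator of the column `v` after the histories `a` of length `j` -/
def kw (T : RT) (l j a v : ℕ) : ℕ :=
  ∏ ω ∈ Finset.range l, T.kap j (lab T.nS l ω j a) (dg T.nS v ω)

/-- nested power means at the coded histories `a` of length `j + 1` -/
noncomputable def TT (T : RT) (h : T.Valid) {L : Type} [Fintype L] [DecidableEq L] {l : ℕ}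
    (σ : L ≃ Fin l) (Wf : (L → List (Fin T.nS)) → ℝ) (j a : ℕ) : ℝ :=
  chainT (T.trial h).κ (List.drop j (List.ofFn (T.trial h).m)) Wf
    (fun ω => hs h.nS_pos l (j + 1) a (σ ω))

/-- site term with `k` clauses of types `e` -/
noncomputable def siteW (T : RT) (h : T.Valid) (D : ℕ) (hD : 2 ≤ D) (k e : ℕ) :
    (Fin k × Fin 2 → List (Fin T.nS)) → ℝ :=
  fun H => siteTerm (p := 3) 0 (fun j : Fin k => (core3 D hD).theta (tyE D hD e (3 * j)))
    (fun j l => (T.trial h).X (H (j, l)))

/-- edge term with the type `e` -/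
noncomputable def edgeW (T : RT) (h : T.Valid) (D : ℕ) (hD : 2 ≤ D) (e : ℕ) :
    (Fin 3 → List (Fin T.nS)) → ℝ :=
  fun H => edgeTerm ((core3 D hD).theta (tyE D hD e 0)) (fun l => (T.trial h).X (H l))

noncomputable def Us (T : RT) (h : T.Valid) (D : ℕ) (hD : 2 ≤ D) (k e j a : ℕ) : ℝ :=
  TT T h (finProdFinEquiv : Fin k × Fin 2 ≃ Fin (k * 2)) (siteW T h D hD k e) j a

noncomputable def Ue (T : RT) (h : T.Valid) (D : ℕ) (hD : 2 ≤ D) (e j a : ℕ) : ℝ :=
  TT T h (Equiv.refl (Fin 3)) (edgeW T h D hD e) j a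

/-- average of `log T_0` of the site term with `k` clauses -/
noncomputable def As (T : RT) (h : T.Valid) (D : ℕ) (hD : 2 ≤ D) (k : ℕ) : ℝ :=
  (∑ e ∈ Finset.range (8 ^ k), ∑ a ∈ Finset.range (T.nS ^ (k * 2)),
    (kw T (k * 2) 0 0 a : ℝ) * Real.log (Us T h D hD k e 0 a)) / (8 ^ k * (T.Q : ℝ) ^ (k * 2))

/-- average of `log T_0` of the edge term -/
noncomputable def Ae (T : RT) (h : T.Valid) (D : ℕ) (hD : 2 ≤ D) : ℝ :=
  (∑ e ∈ Finset.range 8, ∑ a ∈ Finset.range (T.nS ^ 3),
    (kw T 3 0 0 a : ℝ) * Real.log (Ue T h D hD e 0 a)) / (8 * (T.Q : ℝ) ^ 3)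

end Crest.Agent.KS.UC
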