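import Crest.Agent.KS_RT
import Crest.Agent.SGG_Site
import Crest.Agent.SGG_Eval
import Crest.Agent.SGG_Pois

/-!
# KS-Rat1 : continuity of the cavity functional of `core3 D` in the trial (medium)

For data `κ n → κ`, `m n → m`, `X n → X` (pointwise, on the lists which are used) the functional
converges: induction over the levels for `chainT` (finite sums, `rpow` is continuous at positive
bases), then dominated convergence for the Poisson series (`|log T_0| ≤ k log D`).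
-/

set_option autoImplicit false

open Crest.ProbabilityR.Diluted
open Crest.Agent.SGG
open Filter Topology

namespace Crest.Agent.KS.UC

/-- the functional of `core3 D` for raw data -/
noncomputable def rawF (D : ℕ) (hD : 2 ≤ D) (c : ℝ) {nS r : ℕ}
    (κ : List (Fin nS) → Fin nS → ℝ) (m : Fin r → ℝ) (X : List (Fin nS) → ℝ) : ℝ :=
  Real.log 2 +
    (∑' k : ℕ, poissonWeight (c * (3 : ℕ)) k *
      ∑ e : Fin k → (core3 D hD).E, (∏ j, (core3 D hD).wE (e j)) *
        ∑ y : Fin (core3 D hD).nH, (core3 D hD).wH y *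
          ∑ v : Fin k × Fin (3 - 1) → Fin nS, (∏ ω, κ [] (v ω)) *
            Real.log (chainT κ (List.ofFn m) (fun H =>
              siteTerm ((core3 D hD).h y) (fun j => (core3 D hD).theta (e j))
                (fun j l => X (H (j, l)))) (fun ω => [v ω]))) -
    c * ((3 : ℕ) - 1 : ℝ) *
      ∑ e : (core3 D hD).E, (core3 D hD).wE e *
        ∑ v : Fin 3 → Fin nS, (∏ ω, κ [] (v ω)) *
          Real.log (chainT κ (List.ofFn m) (fun H =>
            edgeTerm ((core3 D hD).theta e) (fun l => X (H l))) (fun ω => [v ω]))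

theorem functional_eq_rawF (D : ℕ) (hD : 2 ≤ D) (c : ℝ) (t : Trial) :
    (core3 D hD).functional c t = rawF D hD c t.κ t.m t.X := rfl

private theorem rat1_sum_one {A S : Type} [Fintype A] [DecidableEq A] [Fintype S]
    (w : A → S → ℝ) (hw : ∀ a, ∑ s, w a s = 1) : ∑ v : A → S, ∏ a, w a (v a) = 1 := by
  have := Finset.prod_univ_sum (fun _ : A => (Finset.univ : Finset S)) w
  rw [Fintype.piFinset_univ] at this
  rw [← this]
  exact Finset.prod_eq_one fun a _ => hw a

private theorem rat1_avg_bounds {V : Type} [Fintype V] (p f : V → ℝ) (hp : ∀ v, 0 ≤ p v)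
    (h1 : ∑ v, p v = 1) {a b : ℝ} (hf : ∀ v, a ≤ f v ∧ f v ≤ b) :
    a ≤ ∑ v, p v * f v ∧ ∑ v, p v * f v ≤ b := by
  constructor
  · calc a = ∑ v, p v * a := by rw [← Finset.sum_mul, h1, one_mul]
      _ ≤ _ := Finset.sum_le_sum fun v _ => mul_le_mul_of_nonneg_left (hf v).1 (hp v)
  · calc ∑ v, p v * f v ≤ ∑ v, p v * b :=
          Finset.sum_le_sum fun v _ => mul_le_mul_of_nonneg_left (hf v).2 (hp v)
      _ = b := by rw [← Finset.sum_mul, h1, one_mul]

private theorem rat1_avg_abs {V : Type} [Fintype V] (p f : V → ℝ) (hp : ∀ v, 0 ≤ p v)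
    (h1 : ∑ v, p v = 1) {b : ℝ} (hf : ∀ v, |f v| ≤ b) :
    |∑ v, p v * f v| ≤ b :=
  abs_le.2 (rat1_avg_bounds p f hp h1 fun v => abs_le.1 (hf v))

/-- power means stay between the bounds of the leaves -/
theorem chainT_bounds {L : Type} [Fintype L] [DecidableEq L] {nS : ℕ}
    {κ : List (Fin nS) → Fin nS → ℝ} (hκ0 : ∀ H s, 0 ≤ κ H s) (hκ1 : ∀ H, ∑ s, κ H s = 1)
    {W : (L → List (Fin nS)) → ℝ} {lo : ℝ} (hlo : 0 < lo) (hW : ∀ H, lo ≤ W H ∧ W H ≤ 1)
    (ms : List ℝ) (hms : ∀ m ∈ ms, 0 < m) (H : L → List (Fin nS)) :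
    lo ≤ chainT κ ms W H ∧ chainT κ ms W H ≤ 1 := by
  induction ms generalizing H with
  | nil => rw [chainT_nil]; exact hW H
  | cons m ms ih =>
    have hm : 0 < m := hms m (by simp)
    have ih' := ih (fun m' hm' => hms m' (List.mem_cons_of_mem _ hm'))
    rw [chainT_cons]
    have hb := rat1_avg_bounds (fun v : L → Fin nS => ∏ ω, κ (H ω) (v ω))
      (fun v => (chainT κ ms W (fun ω => v ω :: H ω)) ^ m)
      (fun v => Finset.prod_nonneg fun ω _ => hκ0 _ _)
      (rat1_sum_one (fun ω => κ (H ω)) fun ω => hκ1 _) (a := lo ^ m) (b := 1) (fun v => by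
        have h := ih' (fun ω => v ω :: H ω)
        exact ⟨Real.rpow_le_rpow hlo.le h.1 hm.le,
          Real.rpow_le_one (hlo.le.trans h.1) h.2 hm.le⟩)
    have hlm : 0 < lo ^ m := Real.rpow_pos_of_pos hlo m
    have h1m : 0 ≤ 1 / m := by positivity
    refine ⟨?_, Real.rpow_le_one (hlm.le.trans hb.1) hb.2 h1m⟩
    have := Real.rpow_le_rpow hlm.le hb.1 h1m
    rwa [← Real.rpow_mul hlo.le, mul_one_div_cancel hm.ne', Real.rpow_one] at this

theorem chainT_tendsto {L : Type} [Fintype L] [DecidableEq L] {nS r : ℕ}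
    {κn : ℕ → List (Fin nS) → Fin nS → ℝ} {κ : List (Fin nS) → Fin nS → ℝ}
    (hκ0 : ∀ H s, 0 ≤ κ H s) (hκ1 : ∀ H, ∑ s, κ H s = 1)
    {mn : ℕ → Fin r → ℝ} {m : Fin r → ℝ} (hm : ∀ i, 0 < m i)
    (hmn : ∀ i, Tendsto (fun n => mn n i) atTop (𝓝 (m i)))
    (hκ : ∀ H : List (Fin nS), H.length < r + 1 → ∀ s,
      Tendsto (fun n => κn n H s) atTop (𝓝 (κ H s)))
    {Wn : ℕ → (L → List (Fin nS)) → ℝ} {W : (L → List (Fin nS)) → ℝ}
    {lo : ℝ} (hlo : 0 < lo) (hW : ∀ H, lo ≤ W H ∧ W H ≤ 1)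
    (hWn : ∀ H : L → List (Fin nS), (∀ ω, (H ω).length = r + 1) →
      Tendsto (fun n => Wn n H) atTop (𝓝 (W H)))
    {j : ℕ} (hj : j ≤ r) (H : L → List (Fin nS)) (hH : ∀ ω, (H ω).length = j + 1) :
    Tendsto (fun n => chainT (κn n) (List.drop j (List.ofFn (mn n))) (Wn n) H) atTop
      (𝓝 (chainT κ (List.drop j (List.ofFn m)) W H)) := by
  have hdrop : ∀ (m' : Fin r → ℝ) (j : ℕ) (h : j < r),
      List.drop j (List.ofFn m') = m' ⟨j, h⟩ :: List.drop (j + 1) (List.ofFn m') := by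
    intro m' j h
    rw [List.drop_eq_getElem_cons (by simpa using h)]
    simp
  obtain ⟨d, hd⟩ : ∃ d, d = r - j := ⟨_, rfl⟩
  induction d generalizing j H with
  | zero =>
    have hjr : j = r := by omega
    subst hjr
    have e1 : ∀ m' : Fin j → ℝ, List.drop j (List.ofFn m') = [] := by
      intro m'
      rw [List.drop_eq_nil_iff]
      simp
    simp only [e1, chainT_nil]
    exact hWn H hH
  | succ d ih =>
    have hjr : j < r := by omega
    have hmpos : ∀ m' ∈ List.drop (j + 1) (List.ofFn m), 0 < m' := by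
      intro m' hm'
      have := List.mem_of_mem_drop hm'
      obtain ⟨i, rfl⟩ := (List.mem_ofFn' _ _).1 this
      exact hm i
    have hb : ∀ H' : L → List (Fin nS),
        lo ≤ chainT κ (List.drop (j + 1) (List.ofFn m)) W H' ∧
          chainT κ (List.drop (j + 1) (List.ofFn m)) W H' ≤ 1 := fun H' =>
      chainT_bounds hκ0 hκ1 hlo hW _ hmpos H'
    have e1 : ∀ n, chainT (κn n) (List.drop j (List.ofFn (mn n))) (Wn n) H =
        (∑ v : L → Fin nS, (∏ ω, κn n (H ω) (v ω)) *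
          (chainT (κn n) (List.drop (j + 1) (List.ofFn (mn n))) (Wn n)
            (fun ω => v ω :: H ω)) ^ (mn n ⟨j, hjr⟩)) ^ (1 / mn n ⟨j, hjr⟩) := by
      intro n
      rw [hdrop _ j hjr, chainT_cons]
    have e2 : chainT κ (List.drop j (List.ofFn m)) W H =
        (∑ v : L → Fin nS, (∏ ω, κ (H ω) (v ω)) *
          (chainT κ (List.drop (j + 1) (List.ofFn m)) W
            (fun ω => v ω :: H ω)) ^ (m ⟨j, hjr⟩)) ^ (1 / m ⟨j, hjr⟩) := by
      rw [hdrop _ j hjr, chainT_cons]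
    simp only [e1]
    rw [e2]
    have hmj := hm ⟨j, hjr⟩
    refine Filter.Tendsto.rpow ?_ ?_ (Or.inr (by positivity))
    · refine tendsto_finsetSum _ fun v _ => ?_
      refine Tendsto.mul ?_ ?_
      · refine tendsto_finsetProd _ fun ω _ => ?_
        exact hκ (H ω) (by rw [hH ω]; omega) (v ω)
      · refine Filter.Tendsto.rpow ?_ (hmn _) (Or.inr hmj)
        exact ih (j := j + 1) (by omega) (fun ω => v ω :: H ω)
          (fun ω => by rw [List.length_cons, hH ω]) (by omega)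
    · exact Tendsto.div tendsto_const_nhds (hmn _) hmj.ne'

private theorem rat1_exp_theta' {D : ℕ} (hD : 2 ≤ D) (e : Fin 1 × (Fin 3 → Fin 2))
    (t : Fin 3 → Bool) :
    1 / (D : ℝ) ≤ Real.exp ((core3 D hD).theta e t) ∧ Real.exp ((core3 D hD).theta e t) ≤ 1 := by
  have h2 : (2 : ℝ) ≤ D := by exact_mod_cast hD
  have hD1 : 1 / (D : ℝ) ≤ 1 := by
    rw [div_le_one (by linarith)]; linarith
  have hD0 : 0 < 1 / (D : ℝ) := by positivity
  have h : (core3 D hD).theta e t =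
      Real.log (1 + bD D * ∏ l, (if t l = decide (e.2 l = 0) then (0 : ℝ) else 1)) := rfl
  have h0 : 0 ≤ ∏ l, (if t l = decide (e.2 l = 0) then (0 : ℝ) else 1) :=
    Finset.prod_nonneg fun l _ => by split_ifs <;> norm_num
  have h1 : ∏ l, (if t l = decide (e.2 l = 0) then (0 : ℝ) else 1) ≤ 1 :=
    Finset.prod_le_one (fun l _ => by split_ifs <;> norm_num)
      (fun l _ => by split_ifs <;> norm_num)
  obtain ⟨P, hP⟩ : ∃ P : ℝ, P = ∏ l, (if t l = decide (e.2 l = 0) then (0 : ℝ) else 1) := ⟨_, rfl⟩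
  rw [← hP] at h h0 h1
  have hval : 1 / (D : ℝ) ≤ 1 + bD D * P ∧ 1 + bD D * P ≤ 1 := by
    unfold bD
    constructor
    · nlinarith
    · nlinarith
  rw [h, Real.exp_log (hD0.trans_le hval.1)]
  exact hval

private theorem rat1_exp_theta {D : ℕ} (hD : 2 ≤ D) (e : (core3 D hD).E) (t : Fin 3 → Bool) :
    1 / (D : ℝ) ≤ Real.exp ((core3 D hD).theta e t) ∧ Real.exp ((core3 D hD).theta e t) ≤ 1 :=
  rat1_exp_theta' hD e t

private theorem rat1_msg {D : ℕ} (hD : 2 ≤ D) (e : (core3 D hD).E) (x : Fin (3 - 1) → ℝ)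
    (ε : Bool) :
    1 / (D : ℝ) ≤ Real.exp (siteMessage ((core3 D hD).theta e) x ε) ∧
      Real.exp (siteMessage ((core3 D hD).theta e) x ε) ≤ 1 := by
  have hb := rat1_avg_bounds (fun s' : Fin (3 - 1) → Bool => ∏ l, tilt (x l) (s' l))
    (fun s' => Real.exp ((core3 D hD).theta e
      (fun l => if h : l.val < 3 - 1 then s' ⟨l.val, h⟩ else ε)))
    (fun s' => (prod_tilt_pos x s').le) (sum_prod_tilt x)
    (fun s' => rat1_exp_theta hD e _)
  have e1 : ∑ s' : Fin (3 - 1) → Bool, (∏ l, tilt (x l) (s' l)) *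
      Real.exp ((core3 D hD).theta e (fun l => if h : l.val < 3 - 1 then s' ⟨l.val, h⟩ else ε)) =
      ∑ s' : Fin (3 - 1) → Bool,
      Real.exp ((core3 D hD).theta e (fun l => if h : l.val < 3 - 1 then s' ⟨l.val, h⟩ else ε)) *
        ∏ l, tilt (x l) (s' l) :=
    Finset.sum_congr rfl fun s' _ => mul_comm _ _
  rw [e1] at hb
  have h2 : (2 : ℝ) ≤ D := by exact_mod_cast hD
  have hD0 : 0 < 1 / (D : ℝ) := by positivity
  unfold siteMessage
  rw [Real.exp_log (hD0.trans_le hb.1)]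
  exact hb

/-- `D^{-k} ≤ siteTerm ≤ 1` -/
theorem siteTerm_bounds {D : ℕ} (hD : 2 ≤ D) {k : ℕ} (y : Fin (core3 D hD).nH)
    (e : Fin k → (core3 D hD).E) (x : Fin k → Fin (3 - 1) → ℝ) :
    (1 / (D : ℝ)) ^ k ≤
        siteTerm (p := 3) ((core3 D hD).h y) (fun j => (core3 D hD).theta (e j)) x ∧
      siteTerm (p := 3) ((core3 D hD).h y) (fun j => (core3 D hD).theta (e j)) x ≤ 1 := by
  have h2 : (2 : ℝ) ≤ D := by exact_mod_cast hD
  have hD0 : 0 < 1 / (D : ℝ) := by positivity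
  have hy : (core3 D hD).h y = 0 := rfl
  have hε : ∀ ε : Bool, (1 / (D : ℝ)) ^ k ≤ Real.exp ((core3 D hD).h y * spinVal ε +
      ∑ j : Fin k, siteMessage ((core3 D hD).theta (e j)) (x j) ε) ∧
      Real.exp ((core3 D hD).h y * spinVal ε +
      ∑ j : Fin k, siteMessage ((core3 D hD).theta (e j)) (x j) ε) ≤ 1 := by
    intro ε
    rw [hy, zero_mul, zero_add, Real.exp_sum]
    constructor
    · calc (1 / (D : ℝ)) ^ k = ∏ _j : Fin k, (1 / (D : ℝ)) := by simp
        _ ≤ _ := Finset.prod_le_prod (fun _ _ => hD0.le) fun j _ => (rat1_msg hD (e j) (x j) ε).1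
    · exact Finset.prod_le_one (fun _ _ => (Real.exp_pos _).le)
        fun j _ => (rat1_msg hD (e j) (x j) ε).2
  unfold siteTerm
  rw [Fintype.sum_bool]
  have ht := hε true
  have hf := hε false
  constructor
  · linarith [ht.1, hf.1]
  · linarith [ht.2, hf.2]

theorem edgeTerm_bounds {D : ℕ} (hD : 2 ≤ D) (e : (core3 D hD).E) (x : Fin 3 → ℝ) :
    1 / (D : ℝ) ≤ edgeTerm ((core3 D hD).theta e) x ∧
      edgeTerm ((core3 D hD).theta e) x ≤ 1 := by
  have hb := rat1_avg_bounds (fun s' : Fin 3 → Bool => ∏ l, tilt (x l) (s' l))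
    (fun s' => Real.exp ((core3 D hD).theta e s'))
    (fun s' => (prod_tilt_pos x s').le) (sum_prod_tilt x)
    (fun s' => rat1_exp_theta hD e _)
  have e1 : ∑ s' : Fin 3 → Bool, (∏ l, tilt (x l) (s' l)) *
      Real.exp ((core3 D hD).theta e s') = edgeTerm ((core3 D hD).theta e) x := by
    unfold edgeTerm
    exact Finset.sum_congr rfl fun s' _ => mul_comm _ _
  rw [e1] at hb
  exact hb

theorem siteTerm_tendsto {D : ℕ} (hD : 2 ≤ D) {k : ℕ} (y : Fin (core3 D hD).nH)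
    (e : Fin k → (core3 D hD).E) {xn : ℕ → Fin k → Fin (3 - 1) → ℝ} {x : Fin k → Fin (3 - 1) → ℝ}
    (hx : ∀ j l, Tendsto (fun n => xn n j l) atTop (𝓝 (x j l))) :
    Tendsto (fun n => siteTerm (p := 3) ((core3 D hD).h y)
      (fun j => (core3 D hD).theta (e j)) (xn n)) atTop
      (𝓝 (siteTerm (p := 3) ((core3 D hD).h y) (fun j => (core3 D hD).theta (e j)) x)) := by
  have h := continuous_siteTerm (p := 3) ((core3 D hD).h y) (fun j => (core3 D hD).theta (e j))
  refine (h.tendsto x).comp ?_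
  rw [tendsto_pi_nhds]
  intro j
  rw [tendsto_pi_nhds]
  intro l
  exact hx j l

theorem edgeTerm_tendsto {D : ℕ} (hD : 2 ≤ D) (e : (core3 D hD).E) {xn : ℕ → Fin 3 → ℝ}
    {x : Fin 3 → ℝ} (hx : ∀ l, Tendsto (fun n => xn n l) atTop (𝓝 (x l))) :
    Tendsto (fun n => edgeTerm ((core3 D hD).theta e) (xn n)) atTop
      (𝓝 (edgeTerm ((core3 D hD).theta e) x)) := by
  have h := continuous_edgeTerm ((core3 D hD).theta e)
  refine (h.tendsto x).comp ?_
  rw [tendsto_pi_nhds]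
  exact hx

private theorem rat1_logbound {lo x b : ℝ} (hlo : 0 < lo) (h : lo ≤ x ∧ x ≤ 1)
    (hb : -Real.log lo ≤ b) : |Real.log x| ≤ b := by
  have h1 := Real.log_le_log hlo h.1
  have h2 := Real.log_nonpos (hlo.le.trans h.1) h.2
  rw [abs_le]
  constructor <;> linarith

theorem rawF_tendsto {D : ℕ} (hD : 2 ≤ D) {c : ℝ} (hc : 0 ≤ c) {nS r : ℕ}
    {κn : ℕ → List (Fin nS) → Fin nS → ℝ} {κ : List (Fin nS) → Fin nS → ℝ}
    (hκn0 : ∀ n H s, 0 ≤ κn n H s) (hκn1 : ∀ n H, ∑ s, κn n H s = 1)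
    (hκ0 : ∀ H s, 0 ≤ κ H s) (hκ1 : ∀ H, ∑ s, κ H s = 1)
    {mn : ℕ → Fin r → ℝ} {m : Fin r → ℝ} (hmn0 : ∀ n i, 0 < mn n i) (hm : ∀ i, 0 < m i)
    (hmn : ∀ i, Tendsto (fun n => mn n i) atTop (𝓝 (m i)))
    (hκ : ∀ H : List (Fin nS), H.length < r + 1 → ∀ s,
      Tendsto (fun n => κn n H s) atTop (𝓝 (κ H s)))
    {Xn : ℕ → List (Fin nS) → ℝ} {X : List (Fin nS) → ℝ}
    (hX : ∀ H : List (Fin nS), H.length = r + 1 → Tendsto (fun n => Xn n H) atTop (𝓝 (X H))) :
    Tendsto (fun n => rawF D hD c (κn n) (mn n) (Xn n)) atTop (𝓝 (rawF D hD c κ m X)) := by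
  have h2 : (2 : ℝ) ≤ D := by exact_mod_cast hD
  have hD0 : 0 < 1 / (D : ℝ) := by positivity
  have hlog : -Real.log (1 / (D : ℝ)) = Real.log D := by rw [one_div, Real.log_inv, neg_neg]
  have hmem : ∀ (m' : Fin r → ℝ), (∀ i, 0 < m' i) → ∀ x ∈ List.ofFn m', 0 < x := by
    intro m' hm' x hx
    obtain ⟨i, rfl⟩ := (List.mem_ofFn' _ _).1 hx
    exact hm' i
  -- convergence of the averages of log T_0
  have key : ∀ (L : Type) [Fintype L] [DecidableEq L]
      (Wn : ℕ → (L → List (Fin nS)) → ℝ) (W : (L → List (Fin nS)) → ℝ) (lo : ℝ), 0 < lo →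
      (∀ H, lo ≤ W H ∧ W H ≤ 1) →
      (∀ H : L → List (Fin nS), (∀ ω, (H ω).length = r + 1) →
        Tendsto (fun n => Wn n H) atTop (𝓝 (W H))) →
      Tendsto (fun n => ∑ v : L → Fin nS, (∏ ω, κn n [] (v ω)) *
        Real.log (chainT (κn n) (List.ofFn (mn n)) (Wn n) (fun ω => [v ω]))) atTop
        (𝓝 (∑ v : L → Fin nS, (∏ ω, κ [] (v ω)) *
          Real.log (chainT κ (List.ofFn m) W (fun ω => [v ω])))) := by
    intro L _ _ Wn W lo hlo hW hWn
    refine tendsto_finsetSum _ fun v _ => ?_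
    refine Tendsto.mul ?_ ?_
    · refine tendsto_finsetProd _ fun ω _ => ?_
      exact hκ [] (by simp) (v ω)
    · have h1 := chainT_tendsto hκ0 hκ1 hm hmn hκ hlo hW hWn (j := 0) (Nat.zero_le _)
        (fun ω => [v ω]) (fun ω => by simp)
      simp only [List.drop_zero] at h1
      refine h1.log ?_
      exact (hlo.trans_le (chainT_bounds hκ0 hκ1 hlo hW _ (hmem m hm) _).1).ne'
  unfold rawF
  refine Tendsto.sub (Tendsto.add tendsto_const_nhds ?_) (Tendsto.mul tendsto_const_nhds ?_)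
  · have hc3 : 0 ≤ c * ((3 : ℕ) : ℝ) := by positivity
    refine tendsto_tsum_of_dominated_convergence
      (bound := fun k : ℕ => poissonWeight (c * ((3 : ℕ) : ℝ)) k * (k : ℝ) * Real.log D) ?_ ?_ ?_
    · exact (hasSum_poissonWeight_mul _).summable.mul_right _
    · intro k
      refine Tendsto.mul tendsto_const_nhds ?_
      refine tendsto_finsetSum _ fun e _ => Tendsto.mul tendsto_const_nhds ?_
      refine tendsto_finsetSum _ fun y _ => Tendsto.mul tendsto_const_nhds ?_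
      refine key (Fin k × Fin (3 - 1)) _ _ ((1 / (D : ℝ)) ^ k) (pow_pos hD0 k)
        (fun H => siteTerm_bounds hD y e _) ?_
      intro H hH
      exact siteTerm_tendsto hD y e fun j l => hX (H (j, l)) (hH (j, l))
    · refine Filter.Eventually.of_forall fun n k => ?_
      rw [Real.norm_eq_abs, abs_mul, abs_of_nonneg (poissonWeight_nonneg hc3 k), mul_assoc]
      apply mul_le_mul_of_nonneg_left _ (poissonWeight_nonneg hc3 k)
      refine rat1_avg_abs (fun e : Fin k → (core3 D hD).E => ∏ j, (core3 D hD).wE (e j)) _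
        (fun e => Finset.prod_nonneg fun j _ => Core.wE_nonneg _ _)
        (rat1_sum_one (fun _ => (core3 D hD).wE) fun _ => Core.wE_sum _) fun e => ?_
      refine rat1_avg_abs (core3 D hD).wH _ (core3 D hD).wH_nonneg (core3 D hD).wH_sum
        fun y => ?_
      refine rat1_avg_abs (fun v : Fin k × Fin (3 - 1) → Fin nS => ∏ ω, κn n [] (v ω)) _
        (fun v => Finset.prod_nonneg fun ω _ => hκn0 n _ _)
        (rat1_sum_one (fun _ => κn n []) fun _ => hκn1 n _) fun v => ?_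
      refine rat1_logbound (pow_pos hD0 k) (chainT_bounds (hκn0 n) (hκn1 n) (pow_pos hD0 k)
        (fun H => siteTerm_bounds hD y e _) _ (hmem _ (hmn0 n)) _) ?_
      rw [Real.log_pow, ← hlog]
      linarith
  · refine tendsto_finsetSum _ fun e _ => Tendsto.mul tendsto_const_nhds ?_
    refine key (Fin 3) _ _ (1 / (D : ℝ)) hD0 (fun H => edgeTerm_bounds hD e _) ?_
    intro H hH
    exact edgeTerm_tendsto hD e fun l => hX (H l) (hH l)

end Crest.Agent.KS.UC
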