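import Crest.Agent.KS_P3b
import Crest.Agent.KS_E
import Crest.Agent.SG_UB
import Crest.Agent.SG_LB

/-! # KS-Sub : consequences of the Mezard-Parisi formula for 3-SAT (easy/medium, given the inputs) -/

set_option autoImplicit false

noncomputable section
open Crest.ProbabilityR.RandomSAT
open Crest.ProbabilityR.Diluted
open Crest.Agent.SGG
open Classical Filter
namespace Crest.Agent.KS

theorem sub_uu_eP {c : ℝ} (hc : 0 < c) {η : ℝ} (hη : 0 < η) :
    ∀ᶠ K : ℕ in atTop, |uu K ⌊c * K⌋₊ / K - eP c K / K| ≤ η := by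
  have hlim : Tendsto (fun K : ℕ => (3 * c + 1) * ((K : ℝ))⁻¹ + Real.sqrt c * (Real.sqrt K)⁻¹)
      atTop (nhds ((3 * c + 1) * 0 + Real.sqrt c * 0)) := by
    refine (tendsto_const_nhds.mul tendsto_inv_atTop_nhds_zero_nat).add
      (tendsto_const_nhds.mul ?_)
    exact tendsto_inv_atTop_zero.comp (Real.tendsto_sqrt_atTop.comp tendsto_natCast_atTop_atTop)
  have h0 : (3 * c + 1) * 0 + Real.sqrt c * 0 < η := by simpa using hη
  filter_upwards [hlim.eventually_lt_const h0, eventually_ge_atTop 3] with K h1 h3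
  have hK : (0 : ℝ) < K := by
    have : 0 < K := by omega
    exact_mod_cast this
  have h4 := vv_uu h3 ⌊c * K⌋₊
  have h5 := eP_vv (N := K) (by omega) hc.le
  have hfl : (⌊c * K⌋₊ : ℝ) ≤ c * K := Nat.floor_le (by positivity)
  have h6 : 3 * (⌊c * (K : ℝ)⌋₊ : ℝ) / K ≤ 3 * c := by
    rw [div_le_iff₀ hK]
    linarith
  have h7 : |uu K ⌊c * K⌋₊ - eP c K| ≤ 3 * c + 1 + Real.sqrt (c * K) := by
    rw [abs_le] at *
    constructor <;> linarith [h4.1, h4.2, h5.1, h5.2]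
  rw [← sub_div, abs_div, abs_of_pos hK, div_le_iff₀ hK]
  have h8 : Real.sqrt (c * K) = Real.sqrt c * (Real.sqrt K)⁻¹ * K := by
    rw [Real.sqrt_mul hc.le]
    have hs : Real.sqrt (K : ℝ) ≠ 0 := (Real.sqrt_pos.2 hK).ne'
    have hss : Real.sqrt (K : ℝ) * Real.sqrt K = K := Real.mul_self_sqrt hK.le
    have : (Real.sqrt (K : ℝ))⁻¹ * K = Real.sqrt K := by
      rw [inv_mul_eq_div, div_eq_iff hs, hss]
    rw [mul_assoc, this]
  have h9 : (3 * c + 1) = (3 * c + 1) * ((K : ℝ))⁻¹ * K := by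
    rw [mul_assoc, inv_mul_cancel₀ hK.ne', mul_one]
  calc |uu K ⌊c * K⌋₊ - eP c K| ≤ 3 * c + 1 + Real.sqrt (c * K) := h7
    _ = ((3 * c + 1) * ((K : ℝ))⁻¹ + Real.sqrt c * (Real.sqrt K)⁻¹) * K := by
        rw [add_mul, ← h8, ← h9]
    _ ≤ η * K := mul_le_mul_of_nonneg_right h1.le hK.le

theorem sub_logD {x : ℝ} : ∃ D : ℕ, 2 ≤ D ∧ x ≤ Real.log D := by
  obtain ⟨D, hD⟩ := exists_nat_ge (max 2 (Real.exp x))
  have h2 : (2 : ℝ) ≤ D := (le_max_left _ _).trans hD
  refine ⟨D, by exact_mod_cast h2, ?_⟩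
  rw [Real.le_log_iff_exp_le (by linarith)]
  exact (le_max_right _ _).trans hD

/-- subadditivity of the energy, from `core_UB` and `core_LB` for `core3 D`, `D → ∞`:
`-(log D) eP c N / N ≤ pressure_N ≤ functional t ≤ pressure_K + ε ≤ log 2 - log D (eP c K / K) + ε`;
then `eP c K ≥ uu K ⌊cK⌋ - O(√K)` by `eP_vv`, `vv_uu`. -/
theorem energy_sub {c : ℝ} (hc : 0 < c) {N : ℕ} (hN : 1 ≤ N) {η : ℝ} (hη : 0 < η) :
    ∀ᶠ K : ℕ in atTop, uu K ⌊c * K⌋₊ / K ≤ eP c N / N + η := by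
  obtain ⟨D, hD, hlog⟩ := sub_logD (x := 2 * (Real.log 2 + 1) / η)
  have hl2 : 0 < Real.log 2 := Real.log_pos (by norm_num)
  have hlpos : 0 < Real.log D := lt_of_lt_of_le (by positivity) hlog
  obtain ⟨K₀, hK₀⟩ := Crest.SG.core_LB (by norm_num) (core3 D hD) hc 1 one_pos
  filter_upwards [sub_uu_eP hc (half_pos hη), eventually_ge_atTop (max K₀ 1)] with K h1 h2
  have hK1 : 1 ≤ K := (le_max_right _ _).trans h2
  obtain ⟨t, ht⟩ := hK₀ K ((le_max_left _ _).trans h2)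
  have h3 := Crest.SG.core_UB (by norm_num) (core3 D hD) (Or.inr (core3_pos D hD)) hc t N hN
  have h4 := pressure_lower hD hc.le hN
  have h5 := pressure_upper hD hc.le hK1
  have h6 : Real.log D * (eP c K / K - eP c N / N) ≤ Real.log 2 + 1 := by
    linarith
  have h7 : eP c K / K - eP c N / N ≤ η / 2 := by
    by_contra hcon
    push Not at hcon
    have h8 : Real.log D * (η / 2) < Real.log D * (eP c K / K - eP c N / N) :=
      mul_lt_mul_of_pos_left hcon hlpos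
    have h9 : Real.log 2 + 1 ≤ Real.log D * (η / 2) := by
      rw [div_le_iff₀ hη] at hlog
      linarith
    linarith
  have h10 := (abs_le.1 h1).2
  linarith

/-- soundness of the upper certificates -/
theorem upper_sound {D : ℕ} (hD : 2 ≤ D) {c : ℝ} (hc : 0 < c) (t : Trial)
    (ht : (core3 D hD).functional c t < 0) :
    ∃ δ : ℝ, 0 < δ ∧ ∀ᶠ K : ℕ in atTop, δ ≤ uu K ⌊c * K⌋₊ / K := by
  have hD' : (1 : ℝ) < D := by
    have : 1 < D := by omega
    exact_mod_cast this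
  have hlpos : 0 < Real.log D := Real.log_pos hD'
  set a : ℝ := -(core3 D hD).functional c t with ha
  have ha0 : 0 < a := by linarith
  refine ⟨a / Real.log D / 2, by positivity, ?_⟩
  filter_upwards [sub_uu_eP hc (show 0 < a / Real.log D / 2 by positivity),
    eventually_ge_atTop 1] with K h1 h2
  have h3 := Crest.SG.core_UB (by norm_num) (core3 D hD) (Or.inr (core3_pos D hD)) hc t K h2
  have h4 := pressure_lower hD hc.le h2
  have h5 : a / Real.log D ≤ eP c K / K := by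
    rw [div_le_iff₀ hlpos]
    linarith
  have h6 := (abs_le.1 h1).1
  linarith

/-- completeness of the upper certificates -/
theorem upper_complete {c : ℝ} (hc : 0 < c) {δ : ℝ} (hδ : 0 < δ)
    (h : ∀ᶠ K : ℕ in atTop, δ ≤ uu K ⌊c * K⌋₊ / K) :
    ∃ (D : ℕ) (hD : 2 ≤ D) (t : Trial), (core3 D hD).functional c t < 0 := by
  obtain ⟨D, hD, hlog⟩ := sub_logD (x := 2 * (Real.log 2 + 2) / δ)
  have hl2 : 0 < Real.log 2 := Real.log_pos (by norm_num)
  have hlpos : 0 < Real.log D := lt_of_lt_of_le (by positivity) hlog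
  refine ⟨D, hD, ?_⟩
  obtain ⟨K₀, hK₀⟩ := Crest.SG.core_LB (by norm_num) (core3 D hD) hc 1 one_pos
  obtain ⟨K, h1, h2, h3⟩ := (h.and ((sub_uu_eP hc (half_pos hδ)).and
    (eventually_ge_atTop (max K₀ 1)))).exists
  have hK1 : 1 ≤ K := (le_max_right _ _).trans h3
  obtain ⟨t, ht⟩ := hK₀ K ((le_max_left _ _).trans h3)
  refine ⟨t, ?_⟩
  have h5 := pressure_upper hD hc.le hK1
  have h6 := (abs_le.1 h2).2
  have h7 : δ / 2 ≤ eP c K / K := by linarith
  have h8 : Real.log D * (δ / 2) ≤ Real.log D * (eP c K / K) :=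
    mul_le_mul_of_nonneg_left h7 hlpos.le
  rw [div_le_iff₀ hδ] at hlog
  linarith

end Crest.Agent.KS
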