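import Crest.Agent.KS_Av

/-! # KS-V : basic facts on `minV`, `Opt`, `OptH`, `Kills`, `frz` (easy) -/

set_option autoImplicit false

noncomputable section
open Crest.ProbabilityR.RandomSAT
open Classical
namespace Crest.Agent.KS

variable {k l n : ℕ} {ι κ : Type*}

theorem exists_opt (F : ι → Clause k n) (I : Finset ι) : ∃ σ, viol F I σ = minV F I := by
  have h : minV F I ∈ Set.range (viol F I) := Nat.sInf_mem (Set.range_nonempty _)
  exact h

theorem minV_le (F : ι → Clause k n) (I : Finset ι) (σ : Fin n → Bool) : minV F I ≤ viol F I σ :=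
  Nat.sInf_le ⟨σ, rfl⟩

theorem le_minV (F : ι → Clause k n) (I : Finset ι) (m : ℕ) (h : ∀ σ, m ≤ viol F I σ) :
    m ≤ minV F I := by
  obtain ⟨σ, hσ⟩ := exists_opt F I
  rw [← hσ]
  exact h σ

theorem viol_mono (F : ι → Clause k n) {I J : Finset ι} (h : I ⊆ J) (σ : Fin n → Bool) :
    viol F I σ ≤ viol F J σ := by
  unfold viol
  exact Finset.card_le_card (Finset.filter_subset_filter _ h)

theorem viol_le_add (F : ι → Clause k n) (I J : Finset ι) (σ : Fin n → Bool) :
    viol F (I ∪ J) σ ≤ viol F I σ + viol F J σ := by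
  unfold viol
  rw [Finset.filter_union]
  exact Finset.card_union_le _ _

theorem minV_mono (F : ι → Clause k n) {I J : Finset ι} (h : I ⊆ J) : minV F I ≤ minV F J :=
  le_minV F J _ (fun σ => (minV_le F I σ).trans (viol_mono F h σ))

theorem minV_union_le (F : ι → Clause k n) (I D : Finset ι) :
    minV F (I ∪ D) ≤ minV F I + D.card := by
  obtain ⟨σ, hσ⟩ := exists_opt F I
  have h1 := minV_le F (I ∪ D) σ
  have h2 := viol_le_add F I D σ
  have h3 : viol F D σ ≤ D.card := Finset.card_filter_le _ _
  omega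

theorem minV_le_card (F : ι → Clause k n) (I : Finset ι) : minV F I ≤ I.card := by
  obtain ⟨σ, hσ⟩ := exists_opt F I
  rw [← hσ]
  exact Finset.card_filter_le _ _

/-- change of the index set -/
theorem viol_map {ι' : Type*} (e : ι' ↪ ι) (F : ι → Clause k n) (I : Finset ι') (σ : Fin n → Bool) :
    viol (fun j => F (e j)) I σ = viol F (I.map e) σ := by
  unfold viol
  rw [Finset.filter_map, Finset.card_map]
  rfl

theorem minV_map {ι' : Type*} (e : ι' ↪ ι) (F : ι → Clause k n) (I : Finset ι') :
    minV (fun j => F (e j)) I = minV F (I.map e) := by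
  unfold minV
  congr 2
  funext σ
  exact viol_map e F I σ

theorem OptH_map {ι' κ' : Type*} (e : ι' ↪ ι) (e' : κ' ↪ κ) (F : ι → Clause k n) (I : Finset ι')
    (h : κ → Clause l n) (J : Finset κ') :
    OptH (fun j => F (e j)) I (fun j => h (e' j)) J = OptH F (I.map e) h (J.map e') := by
  ext σ
  simp only [OptH, Set.mem_setOf_eq, viol_map, minV_map, Finset.mem_map]
  constructor
  · rintro ⟨h1, h2⟩
    refine ⟨h1, ?_⟩
    rintro _ ⟨j, hj, rfl⟩
    exact h2 j hj
  · rintro ⟨h1, h2⟩
    exact ⟨h1, fun j hj => h2 (e' j) ⟨j, hj, rfl⟩⟩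

theorem Opt_nonempty (F : ι → Clause k n) (I : Finset ι) : (Opt F I).Nonempty :=
  exists_opt F I

theorem OptH_subset (F : ι → Clause k n) (I : Finset ι) (h : κ → Clause l n) (J : Finset κ) :
    OptH F I h J ⊆ Opt F I := fun _ hσ => hσ.1

theorem OptH_anti (F : ι → Clause k n) (I : Finset ι) (h : κ → Clause l n) {J J' : Finset κ}
    (hJ : J ⊆ J') : OptH F I h J' ⊆ OptH F I h J :=
  fun _ hσ => ⟨hσ.1, fun j hj => hσ.2 j (hJ hj)⟩

theorem OptH_empty (F : ι → Clause k n) (I : Finset ι) (h : κ → Clause l n) :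
    OptH F I h ∅ = Opt F I := by
  ext σ
  simp [OptH, Opt]

/-- adding one hard constraint -/
theorem OptH_insert_nonempty (F : ι → Clause k n) (I : Finset ι) (h : κ → Clause l n)
    (J : Finset κ) (j : κ) :
    ¬ (OptH F I h (insert j J)).Nonempty ↔ Kills (OptH F I h J) (h j) := by
  constructor
  · intro hne σ hσ hsat
    apply hne
    refine ⟨σ, hσ.1, ?_⟩
    intro i hi
    rcases Finset.mem_insert.1 hi with rfl | hi
    · exact hsat
    · exact hσ.2 i hi
  · rintro hk ⟨σ, hσ⟩
    exact hk σ ⟨hσ.1, fun i hi => hσ.2 i (Finset.mem_insert_of_mem hi)⟩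
      (hσ.2 j (Finset.mem_insert_self _ _))

/-- adding clauses does not raise `minV` iff some optimal assignment satisfies all of them -/
theorem minV_union_eq_iff (F : ι → Clause k n) (I D : Finset ι) (hD : Disjoint I D) :
    minV F (I ∪ D) = minV F I ↔ ∃ σ ∈ Opt F I, ∀ j ∈ D, ClauseSat σ (F j) := by
  have hadd : ∀ σ, viol F (I ∪ D) σ = viol F I σ + viol F D σ := by
    intro σ
    unfold viol
    rw [Finset.filter_union, Finset.card_union_of_disjoint]
    exact Finset.disjoint_filter_filter hD
  constructor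
  · intro heq
    obtain ⟨σ, hσ⟩ := exists_opt F (I ∪ D)
    have h1 := hadd σ
    have h2 := minV_le F I σ
    have h3 : viol F D σ = 0 := by omega
    refine ⟨σ, ?_, ?_⟩
    · show viol F I σ = minV F I
      omega
    · intro j hj
      by_contra hns
      have : j ∈ D.filter (fun j => ¬ ClauseSat σ (F j)) := Finset.mem_filter.2 ⟨hj, hns⟩
      unfold viol at h3
      rw [Finset.card_eq_zero] at h3
      rw [h3] at this
      simp at this
  · rintro ⟨σ, hσ, hsat⟩
    have hσ' : viol F I σ = minV F I := hσ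
    have h3 : viol F D σ = 0 := by
      unfold viol
      rw [Finset.card_eq_zero, Finset.filter_eq_empty_iff]
      intro j hj hns
      exact hns (hsat j hj)
    have h1 := hadd σ
    have h2 := minV_le F (I ∪ D) σ
    have h4 : minV F I ≤ minV F (I ∪ D) := minV_mono F Finset.subset_union_left
    omega

theorem minV_insert_eq (F : ι → Clause k n) (I : Finset ι) (j : ι) (hj : j ∉ I) :
    minV F (insert j I) = minV F I + (if Kills (Opt F I) (F j) then 1 else 0) := by
  have hU : insert j I = I ∪ {j} := by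
    rw [Finset.union_comm]; rfl
  have hD : Disjoint I {j} := by simpa using hj
  have hiff := minV_union_eq_iff F I {j} hD
  rw [hU]
  have hle := minV_union_le F I {j}
  have hge : minV F I ≤ minV F (I ∪ {j}) := minV_mono F Finset.subset_union_left
  rw [Finset.card_singleton] at hle
  split_ifs with hk
  · have hne : minV F (I ∪ {j}) ≠ minV F I := by
      intro heq
      obtain ⟨σ, hσ, hsat⟩ := hiff.1 heq
      exact hk σ hσ (hsat j (Finset.mem_singleton_self j))
    omega
  · have : ∃ σ ∈ Opt F I, ∀ i ∈ ({j} : Finset ι), ClauseSat σ (F i) := by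
      unfold Kills at hk
      push_neg at hk
      obtain ⟨σ, hσ, hs⟩ := hk
      refine ⟨σ, hσ, ?_⟩
      intro i hi
      rw [Finset.mem_singleton.1 hi]
      exact hs
    rw [hiff.2 this]
    rfl

theorem frz_anti {S S' : Set (Fin n → Bool)} (h : S ⊆ S') : frz S' ⊆ frz S := by
  intro y hy
  unfold frz at *
  rw [Finset.mem_filter] at *
  exact ⟨hy.1, fun σ hσ τ hτ => hy.2 σ (h hσ) τ (h hτ)⟩

/-- an optimal assignment of a larger formula with the same optimal value is optimal for the
smaller formula -/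
theorem opt_of_opt (F : ι → Clause k n) {I J : Finset ι} (h : I ⊆ J) (heq : minV F J = minV F I)
    (σ : Fin n → Bool) (hσ : viol F J σ = minV F J) : viol F I σ = minV F I := by
  have h1 := viol_mono F h σ
  have h2 := minV_le F I σ
  omega

end Crest.Agent.KS
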