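import Mathlib
import Crest.Prelude.Def_Doubling

/-!
Definitions for S0392 (a compact doubling subset of every infinite-dimensional Banach space that does
not bi-Lipschitz embed into any `ℝ^n`).
-/

set_option autoImplicit false

namespace Crest.Agent.LP

open Set

/-- scales of the generations -/
noncomputable def rr (j : ℕ) : ℝ := (1 / 1000 : ℝ) ^ j

/-- number of labels of generation `j` -/
def NN (j : ℕ) : ℕ := (Nat.unpair (Nat.unpair j).1).1 + 1

/-- height (in units `rr j`) of the rows of generation `j` -/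
def HH (j : ℕ) : ℕ := (Nat.unpair (Nat.unpair j).1).2 + 5000

/-- The periodic family of closed intervals of length `H` and label `b` modulo `N`. -/
def strip (H N b : ℕ) : Set ℝ :=
  {s | ∃ k : ℤ, (H : ℝ) * (2 * ((N : ℝ) * (k : ℝ) + (b : ℝ))) ≤ s ∧
    s ≤ (H : ℝ) * (2 * ((N : ℝ) * (k : ℝ) + (b : ℝ)) + 1)}

/-- The network of label `b`: columns of width 5000 and rows of height `H`. -/
def net (H N b : ℕ) : Set (ℝ × ℝ) := {z | z.2 ∈ strip 5000 N b ∨ z.1 ∈ strip H N b}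

/-- The network of the nonzero label `m` at generation `j`. -/
def netj (j m : ℕ) : Set (ℝ × ℝ) :=
  {x | (x.1 / rr j, x.2 / rr j) ∈ net (HH j) (NN j) (m - 1)}

/-- The parameter set: a point of the unit square and a code. -/
def Par : Set ((ℝ × ℝ) × (ℕ → ℕ)) :=
  {p | p.1 ∈ Icc (0 : ℝ) 1 ×ˢ Icc (0 : ℝ) 1 ∧
    ∀ j, p.2 j ≤ NN j ∧ (p.2 j ≠ 0 → p.1 ∈ netj j (p.2 j))}

/-- The domain of the sheet with code `a`. -/
def Om (a : ℕ → ℕ) : Set (ℝ × ℝ) := {x | (x, a) ∈ Par}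

/-- A base system: a plane and a sequence of vectors separated modulo the plane. -/
structure Sys (B : Type*) [NormedAddCommGroup B] [NormedSpace ℝ B] where
  v1 : B
  v2 : B
  u : ℕ → B
  u_zero : u 0 = 0
  v1_le : ‖v1‖ ≤ 1
  v2_le : ‖v2‖ ≤ 1
  u_le : ∀ m, ‖u m‖ ≤ 1
  low1 : ∀ t y : ℝ, |t| ≤ 16 * ‖t • v1 + y • v2‖
  low2 : ∀ t y : ℝ, |y| ≤ 16 * ‖t • v1 + y • v2‖
  sep : ∀ m m' : ℕ, m ≠ m' → ∀ t y : ℝ, 1 / 2 ≤ ‖u m - u m' - (t • v1 + y • v2)‖

variable {B : Type*} [NormedAddCommGroup B] [NormedSpace ℝ B]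

/-- Inclusion of the base plane. -/
def Sys.io (S : Sys B) (x : ℝ × ℝ) : B := x.1 • S.v1 + x.2 • S.v2

/-- The point with base coordinate `x` and code `a`. -/
noncomputable def Sys.pt (S : Sys B) (x : ℝ × ℝ) (a : ℕ → ℕ) : B :=
  S.io x + ∑' j, rr j • S.u (a j)

/-- The compact doubling set. -/
def Sys.KK (S : Sys B) : Set B := {p | ∃ x a, (x, a) ∈ Par ∧ S.pt x a = p}

/-- Squared norms of the two partial derivatives of `f` along the sheets of finite codes. -/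
def jets (S : Sys B) {E : Type*} [NormedAddCommGroup E] [NormedSpace ℝ E] (f : B → E) :
    Set (ℝ × ℝ) :=
  {e | ∃ a : ℕ → ℕ, (∃ j₀, ∀ j ≥ j₀, a j = 0) ∧ ∃ x ∈ interior (Om a),
    DifferentiableAt ℝ (fun z => f (S.pt z a)) x ∧
    e = (‖fderiv ℝ (fun z => f (S.pt z a)) x (1, 0)‖ ^ 2,
      ‖fderiv ℝ (fun z => f (S.pt z a)) x (0, 1)‖ ^ 2)}

/-- The part of the network of label `b` inside the window `[0,T] × [0,W]` (unit scale). -/
def PP (H N : ℕ) (T W : ℝ) (b : ℕ) : Set (ℝ × ℝ) :=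
  {z | z.1 ∈ Icc 0 T ∧ z.2 ∈ Icc 0 W ∧ z ∈ net H N b}

/-- closed rectangle -/
def rect (t t' y y' : ℝ) : Set (ℝ × ℝ) := Icc t t' ×ˢ Icc y y'

end Crest.Agent.LP
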