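import Crest.Agent.LP_Defs

set_option autoImplicit false

namespace Crest.Agent.LP

open Set

theorem tower_lemma (J : Set (ℝ × ℝ)) (hne : J.Nonempty) (M : ℝ) (hM : 0 < M)
    (hJ : ∀ e ∈ J, 0 ≤ e.1 ∧ e.1 ≤ M ∧ 0 ≤ e.2 ∧ e.2 ≤ M) (g : ℝ) (hg : 0 < g)
    (Θ : ℝ → ℝ) (hΘ : ∀ s, 0 < s → 0 < Θ s) :
    ∃ s, 0 < s ∧ s ≤ 1 ∧ ∃ e ∈ J, (∀ e' ∈ J, e'.1 ≤ e.1 + Θ s) ∧
      ∀ e' ∈ J, M / s * e'.1 + e'.2 ≤ M / s * e.1 + e.2 + g := by
  classical
  -- sup of first coordinates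
  set A : Set ℝ := Prod.fst '' J with hA
  have hAne : A.Nonempty := hne.image _
  have hAb : BddAbove A := ⟨M, by rintro _ ⟨e, he, rfl⟩; exact (hJ e he).2.1⟩
  set L : ℝ := sSup A with hL
  have hLe : ∀ e ∈ J, e.1 ≤ L := fun e he => le_csSup hAb ⟨e, he, rfl⟩
  -- second-coordinate sets
  let S : ℝ → Set ℝ := fun s => Prod.snd '' {e ∈ J | L - s ≤ e.1}
  have hSne : ∀ s, 0 < s → (S s).Nonempty := by
    intro s hs
    obtain ⟨x, ⟨e, he, rfl⟩, hx⟩ := exists_lt_of_lt_csSup hAne (show L - s < sSup A by linarith)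
    exact ⟨e.2, e, ⟨he, hx.le⟩, rfl⟩
  have hSb : ∀ s, BddAbove (S s) := fun s =>
    ⟨M, by rintro _ ⟨e, he, rfl⟩; exact (hJ e he.1).2.2.2⟩
  let φ : ℝ → ℝ := fun s => sSup (S s)
  have hφle : ∀ s, ∀ e ∈ J, L - s ≤ e.1 → e.2 ≤ φ s := fun s e he h =>
    le_csSup (hSb s) ⟨e, ⟨he, h⟩, rfl⟩
  have hφM : ∀ s, 0 < s → φ s ≤ M := fun s hs =>
    csSup_le (hSne s hs) (by rintro _ ⟨e, he, rfl⟩; exact (hJ e he.1).2.2.2)
  have hφ0 : ∀ s, 0 < s → 0 ≤ φ s := by
    intro s hs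
    obtain ⟨x, e, he, rfl⟩ := hSne s hs
    exact le_trans (hJ e he.1).2.2.1 (hφle s e he.1 he.2)
  -- the sequence
  let nxt : ℝ → ℝ := fun s => min (Θ s) (min s (s * g / (4 * M)))
  let σ : ℕ → ℝ := fun k => nxt^[k] 1
  have hσs : ∀ k, σ (k + 1) = nxt (σ k) := fun k => Function.iterate_succ_apply' nxt k 1
  have hpos : ∀ k, 0 < σ k := by
    intro k
    induction k with
    | zero => simp [σ]
    | succ k ih =>
      rw [hσs]
      exact lt_min (hΘ _ ih) (lt_min ih (by positivity))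
  have hle1 : ∀ k, σ k ≤ 1 := by
    intro k
    induction k with
    | zero => simp [σ]
    | succ k ih =>
      rw [hσs]
      exact le_trans (le_trans (min_le_right _ _) (min_le_left _ _)) ih
  obtain ⟨k, hk⟩ : ∃ k, φ (σ k) ≤ φ (σ (k + 1)) + g / 4 := by
    by_contra hcon
    push Not at hcon
    have hind : ∀ n : ℕ, φ (σ n) + n * (g / 4) ≤ φ (σ 0) := by
      intro n
      induction n with
      | zero => simp
      | succ n ih =>
        have := hcon n
        push_cast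
        linarith
    obtain ⟨n, hn⟩ := exists_nat_gt (M / (g / 4))
    have h1 := hind n
    have h2 := hφM (σ 0) (hpos 0)
    have h3 := hφ0 (σ n) (hpos n)
    rw [div_lt_iff₀ (by positivity)] at hn
    linarith
  set s := σ k with hs
  have hs0 : 0 < s := hpos k
  have hnx0 : 0 < σ (k + 1) := hpos (k + 1)
  have hn1 : σ (k + 1) ≤ Θ s := by rw [hσs]; exact min_le_left _ _
  have hn2 : σ (k + 1) ≤ s * g / (4 * M) := by
    rw [hσs]; exact (min_le_right _ _).trans (min_le_right _ _)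
  obtain ⟨_, ⟨e, he, rfl⟩, hex⟩ := exists_lt_of_lt_csSup (hSne _ hnx0)
    (show φ (σ (k + 1)) - g / 4 < sSup (S (σ (k + 1))) by
      change φ (σ (k + 1)) - g / 4 < φ (σ (k + 1)); linarith)
  have hMs : 0 < M / s := by positivity
  have hkey : M / s * σ (k + 1) ≤ g / 4 := by
    calc M / s * σ (k + 1) ≤ M / s * (s * g / (4 * M)) := by gcongr
      _ = g / 4 := by field_simp
  have hLe' : L ≤ e.1 + σ (k + 1) := by linarith [he.2]
  refine ⟨s, hs0, hle1 k, e, he.1, fun e' he' => ?_, fun e' he' => ?_⟩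
  · linarith [hLe e' he']
  · by_cases hc : L - s ≤ e'.1
    · have h1 : e'.2 ≤ φ s := hφle s e' he' hc
      have h2 : M / s * e'.1 ≤ M / s * (e.1 + σ (k + 1)) := by
        gcongr
        exact (hLe e' he').trans hLe'
      have h3 : M / s * (e.1 + σ (k + 1)) = M / s * e.1 + M / s * σ (k + 1) := by ring
      linarith
    · push Not at hc
      have h2 : M / s * e'.1 ≤ M / s * (e.1 + σ (k + 1) - s) := by
        gcongr
        linarith
      have h3 : M / s * (e.1 + σ (k + 1) - s) = M / s * e.1 + M / s * σ (k + 1) - M := by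
        field_simp
      have h4 := (hJ e' he').2.2.2
      have h5 := (hJ e he.1).2.2.1
      linarith

end Crest.Agent.LP
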