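import Crest.Agent.LP_Defs

/-!
S0392, LP-T5a: `an1`
-/

set_option autoImplicit false

namespace Crest.Agent.LP

open Set MeasureTheory Filter Topology

/-- Rademacher and Fubini on a rectangle: for almost every horizontal line, the function is
differentiable at almost every point of the line. -/
theorem an_ae_ae {n : ℕ} (γ : ℝ × ℝ → EuclideanSpace ℝ (Fin n)) (t t' y y' : ℝ)
    (C : ℝ) (hC : 0 ≤ C)
    (hLip : ∀ z ∈ rect t t' y y', ∀ z' ∈ rect t t' y y', ‖γ z - γ z'‖ ≤ C * ‖z - z'‖) :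
    ∀ᵐ z : ℝ × ℝ, z ∈ interior (rect t t' y y') → DifferentiableAt ℝ γ z := by
  have hL : LipschitzOnWith C.toNNReal γ (rect t t' y y') := by
    refine LipschitzOnWith.of_dist_le_mul fun z hz z' hz' => ?_
    rw [dist_eq_norm, dist_eq_norm, Real.coe_toNNReal C hC]
    exact hLip z hz z' hz'
  filter_upwards [hL.ae_differentiableWithinAt_of_mem (μ := volume)] with z hz hzi
  exact (hz (interior_subset hzi)).differentiableAt (mem_interior_iff_mem_nhds.1 hzi)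

theorem an_horizontal {n : ℕ} (γ : ℝ × ℝ → EuclideanSpace ℝ (Fin n)) (t t' y y' : ℝ)
    (C : ℝ) (hC : 0 ≤ C)
    (hLip : ∀ z ∈ rect t t' y y', ∀ z' ∈ rect t t' y y', ‖γ z - γ z'‖ ≤ C * ‖z - z'‖) :
    ∀ᵐ υ : ℝ, ∀ᵐ τ : ℝ, (τ, υ) ∈ interior (rect t t' y y') → DifferentiableAt ℝ γ (τ, υ) := by
  have h1 := an_ae_ae γ t t' y y' C hC hLip
  have h2 : ∀ᵐ w : ℝ × ℝ ∂((volume : Measure ℝ).prod (volume : Measure ℝ)),
      w.swap ∈ interior (rect t t' y y') → DifferentiableAt ℝ γ w.swap :=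
    (Measure.measurePreserving_swap (μ := (volume : Measure ℝ))
      (ν := (volume : Measure ℝ))).quasiMeasurePreserving.ae h1
  exact Measure.ae_ae_of_ae_prod h2

theorem an_interior (t t' y y' : ℝ) :
    interior (rect t t' y y') = Ioo t t' ×ˢ Ioo y y' := by
  unfold rect
  rw [interior_prod_eq, interior_Icc, interior_Icc]

theorem an1 {n : ℕ} (γ : ℝ × ℝ → EuclideanSpace ℝ (Fin n)) (t t' y y' : ℝ) (ht : t < t')
    (hy : y < y') (C : ℝ) (hC : 0 ≤ C)
    (hLip : ∀ z ∈ rect t t' y y', ∀ z' ∈ rect t t' y y', ‖γ z - γ z'‖ ≤ C * ‖z - z'‖)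
    (M1 : ℝ) (hM1 : 0 ≤ M1)
    (hd : ∀ z ∈ interior (rect t t' y y'), DifferentiableAt ℝ γ z →
      ‖fderiv ℝ γ z (1, 0)‖ ^ 2 ≤ M1) (υ : ℝ) (hυ : υ ∈ Icc y y') :
    ‖γ (t', υ) - γ (t, υ)‖ ^ 2 ≤ (t' - t) ^ 2 * M1 := by
  have hgood := an_horizontal γ t t' y y' C hC hLip
  -- good lines
  have hline : ∀ υ ∈ Ioo y y', (∀ᵐ τ : ℝ, (τ, υ) ∈ interior (rect t t' y y') →
      DifferentiableAt ℝ γ (τ, υ)) → ‖γ (t', υ) - γ (t, υ)‖ ^ 2 ≤ (t' - t) ^ 2 * M1 := by
    intro υ hυ hae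
    set v := γ (t', υ) - γ (t, υ) with hv
    set g : ℝ → ℝ := fun τ => inner ℝ v (γ (τ, υ)) with hg
    have hmem : ∀ τ ∈ Icc t t', (τ, υ) ∈ rect t t' y y' :=
      fun τ hτ => ⟨hτ, hυ.1.le, hυ.2.le⟩
    have hgL : LipschitzOnWith (‖v‖ * C).toNNReal g (uIcc t t') := by
      rw [uIcc_of_le ht.le]
      refine LipschitzOnWith.of_dist_le_mul fun τ hτ τ' hτ' => ?_
      rw [Real.coe_toNNReal _ (by positivity), Real.dist_eq]
      have e1 : g τ - g τ' = inner ℝ v (γ (τ, υ) - γ (τ', υ)) := by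
        simp only [hg, inner_sub_right]
      rw [e1]
      refine (abs_real_inner_le_norm _ _).trans ?_
      rw [mul_assoc]
      refine mul_le_mul_of_nonneg_left ?_ (norm_nonneg _)
      refine (hLip _ (hmem τ hτ) _ (hmem τ' hτ')).trans ?_
      refine mul_le_mul_of_nonneg_left ?_ hC
      rw [Prod.mk_sub_mk, sub_self, Prod.norm_mk, norm_zero, max_eq_left (norm_nonneg _)]
      exact le_rfl
    have hAC := hgL.absolutelyContinuousOnInterval
    have hint := hAC.integral_deriv_eq_sub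
    have hgg : g t' - g t = ‖v‖ ^ 2 := by
      simp only [hg, ← inner_sub_right]
      rw [← hv, real_inner_self_eq_norm_sq]
    rw [hgg] at hint
    have hne : ∀ᵐ τ : ℝ, τ ≠ t' := by
      rw [ae_iff]; simp
    have hb : ∀ᵐ τ : ℝ, τ ∈ uIoc t t' → ‖deriv g τ‖ ≤ ‖v‖ * √M1 := by
      filter_upwards [hae, hne] with τ hτ hτne hτm
      rw [uIoc_of_le ht.le] at hτm
      have hin : (τ, υ) ∈ interior (rect t t' y y') := by
        rw [an_interior]
        exact ⟨⟨hτm.1, lt_of_le_of_ne hτm.2 hτne⟩, hυ⟩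
      have hD := hτ hin
      have hf : HasFDerivAt γ (fderiv ℝ γ (τ, υ)) (τ, υ) := hD.hasFDerivAt
      have hc : HasDerivAt (fun s : ℝ => (s, υ)) ((1 : ℝ), (0 : ℝ)) τ :=
        (hasDerivAt_id τ).prodMk (hasDerivAt_const τ υ)
      have h1 : HasDerivAt (fun s : ℝ => γ (s, υ)) (fderiv ℝ γ (τ, υ) (1, 0)) τ :=
        hf.comp_hasDerivAt τ hc
      have h2 : HasDerivAt g (inner ℝ v (fderiv ℝ γ (τ, υ) (1, 0))) τ := by
        have h3 := (hasDerivAt_const τ v).inner ℝ h1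
        simpa using h3
      rw [h2.deriv, Real.norm_eq_abs]
      refine (abs_real_inner_le_norm _ _).trans (mul_le_mul_of_nonneg_left ?_ (norm_nonneg _))
      exact Real.le_sqrt_of_sq_le (hd _ hin hD)
    have hI := intervalIntegral.norm_integral_le_of_norm_le_const_ae hb
    rw [hint, Real.norm_eq_abs, abs_of_nonneg (sq_nonneg _), abs_of_pos (sub_pos.2 ht)] at hI
    have hv2 : ‖v‖ ≤ √M1 * (t' - t) := by
      rcases (norm_nonneg v).eq_or_lt with h0 | h0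
      · rw [← h0]
        exact mul_nonneg (Real.sqrt_nonneg _) (sub_pos.2 ht).le
      · have : ‖v‖ * ‖v‖ ≤ ‖v‖ * (√M1 * (t' - t)) := by
          rw [← mul_assoc, ← pow_two]; exact hI
        exact le_of_mul_le_mul_left this h0
    calc ‖v‖ ^ 2 ≤ (√M1 * (t' - t)) ^ 2 := pow_le_pow_left₀ (norm_nonneg _) hv2 2
      _ = (t' - t) ^ 2 * M1 := by rw [mul_pow, Real.sq_sqrt hM1]; ring
  -- density
  have hdense : Dense {υ : ℝ | ∀ᵐ τ : ℝ, (τ, υ) ∈ interior (rect t t' y y') →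
      DifferentiableAt ℝ γ (τ, υ)} := Measure.dense_of_ae hgood
  have hcont : ContinuousOn (fun υ => ‖γ (t', υ) - γ (t, υ)‖ ^ 2) (Icc y y') := by
    have hγ : ContinuousOn γ (rect t t' y y') := by
      have hL : LipschitzOnWith C.toNNReal γ (rect t t' y y') := by
        refine LipschitzOnWith.of_dist_le_mul fun z hz z' hz' => ?_
        rw [dist_eq_norm, dist_eq_norm, Real.coe_toNNReal C hC]
        exact hLip z hz z' hz'
      exact hL.continuousOn
    have hc : ∀ s ∈ Icc t t', ContinuousOn (fun υ => γ (s, υ)) (Icc y y') := by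
      intro s hs
      exact hγ.comp (Continuous.prodMk_right s).continuousOn (fun υ hυ => ⟨hs, hυ⟩)
    exact ((hc t' ⟨ht.le, le_rfl⟩).sub (hc t ⟨le_rfl, ht.le⟩)).norm.pow 2
  have hclosed : IsClosed {υ ∈ Icc y y' | ‖γ (t', υ) - γ (t, υ)‖ ^ 2 ≤ (t' - t) ^ 2 * M1} := by
    have := hcont.preimage_isClosed_of_isClosed isClosed_Icc
      (isClosed_Iic (a := (t' - t) ^ 2 * M1))
    exact this
  have hsub : Ioo y y' ∩ {υ : ℝ | ∀ᵐ τ : ℝ, (τ, υ) ∈ interior (rect t t' y y') →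
      DifferentiableAt ℝ γ (τ, υ)} ⊆
      {υ ∈ Icc y y' | ‖γ (t', υ) - γ (t, υ)‖ ^ 2 ≤ (t' - t) ^ 2 * M1} := by
    rintro s ⟨hs, hs'⟩
    exact ⟨Ioo_subset_Icc_self hs, hline s hs hs'⟩
  have h3 : Icc y y' ⊆ {υ ∈ Icc y y' | ‖γ (t', υ) - γ (t, υ)‖ ^ 2 ≤ (t' - t) ^ 2 * M1} := by
    rw [← closure_Ioo hy.ne]
    have h4 : Ioo y y' ⊆ closure (Ioo y y' ∩ {υ : ℝ | ∀ᵐ τ : ℝ,
        (τ, υ) ∈ interior (rect t t' y y') → DifferentiableAt ℝ γ (τ, υ)}) :=
      hdense.open_subset_closure_inter isOpen_Ioo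
    refine (closure_mono h4).trans ?_
    rw [closure_closure]
    have h5 := closure_mono hsub
    rw [hclosed.closure_eq] at h5
    rw [closure_Ioo hy.ne]
    exact h5
  exact (h3 hυ).2

end Crest.Agent.LP
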