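import Crest.Agent.LP_Defs

set_option autoImplicit false

namespace Crest.Agent.LP

open Set MeasureTheory

theorem T6a_piece {n : ℕ} (W A : EuclideanSpace ℝ (Fin n)) (θ l : ℝ) (hl : 0 ≤ l)
    (hW : ‖W‖ ^ 2 ≤ l ^ 2 * (‖A‖ ^ 2 + θ)) :
    ‖W - l • A‖ ^ 2 ≤ l * (l * θ + 2 * (l * ‖A‖ ^ 2 - inner ℝ A W)) ∧
      0 ≤ l * θ + 2 * (l * ‖A‖ ^ 2 - inner ℝ A W) := by
  have h1 : ‖W - l • A‖ ^ 2 = ‖W‖ ^ 2 - 2 * (l * inner ℝ A W) + l ^ 2 * ‖A‖ ^ 2 := by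
    rw [norm_sub_sq_real, real_inner_smul_right, real_inner_comm W A, norm_smul, mul_pow]
    rw [Real.norm_eq_abs, sq_abs]
  have h2 : ‖W - l • A‖ ^ 2 ≤ l * (l * θ + 2 * (l * ‖A‖ ^ 2 - inner ℝ A W)) := by
    rw [h1]; nlinarith
  refine ⟨h2, ?_⟩
  rcases hl.eq_or_lt with h0 | hpos
  · subst h0
    have hW0 : ‖W‖ ^ 2 ≤ 0 := by simpa using hW
    have : W = 0 := by
      have : ‖W‖ = 0 := by nlinarith [norm_nonneg W]
      exact norm_eq_zero.mp this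
    subst this
    simp
  · have h3 : 0 ≤ l * (l * θ + 2 * (l * ‖A‖ ^ 2 - inner ℝ A W)) := le_trans (by positivity) h2
    exact nonneg_of_mul_nonneg_right h3 hpos

theorem T6a_block_le {n : ℕ} (w : ℝ → EuclideanSpace ℝ (Fin n)) (A : EuclideanSpace ℝ (Fin n))
    (θ : ℝ) (a b : ℝ)
    (hw : ∀ t ∈ Icc a b, ∀ t' ∈ Icc a b, t ≤ t' →
      ‖w t' - w t‖ ^ 2 ≤ (t' - t) ^ 2 * (‖A‖ ^ 2 + θ))
    (t t' : ℝ) (ht : t ∈ Icc a b) (ht' : t' ∈ Icc a b) (htt : t ≤ t') :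
    ‖w t' - w t - (t' - t) • A‖ ^ 2 ≤
      (b - a) * ((b - a) * θ + 2 * ((b - a) * ‖A‖ ^ 2 - inner ℝ A (w b - w a))) := by
  have hab : a ≤ b := ht.1.trans ht.2
  have hA : a ∈ Icc a b := ⟨le_rfl, hab⟩
  have hB : b ∈ Icc a b := ⟨hab, le_rfl⟩
  obtain ⟨-, p1⟩ := T6a_piece (w t - w a) A θ (t - a) (by linarith [ht.1]) (hw a hA t ht ht.1)
  obtain ⟨q, p2⟩ := T6a_piece (w t' - w t) A θ (t' - t) (by linarith) (hw t ht t' ht' htt)
  obtain ⟨-, p3⟩ := T6a_piece (w b - w t') A θ (b - t') (by linarith [ht'.2])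
    (hw t' ht' b hB ht'.2)
  have hsum : (b - a) * θ + 2 * ((b - a) * ‖A‖ ^ 2 - inner ℝ A (w b - w a)) =
      ((t - a) * θ + 2 * ((t - a) * ‖A‖ ^ 2 - inner ℝ A (w t - w a))) +
      ((t' - t) * θ + 2 * ((t' - t) * ‖A‖ ^ 2 - inner ℝ A (w t' - w t))) +
      ((b - t') * θ + 2 * ((b - t') * ‖A‖ ^ 2 - inner ℝ A (w b - w t'))) := by
    have : w b - w a = (w t - w a) + (w t' - w t) + (w b - w t') := by abel
    rw [this, inner_add_right, inner_add_right]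
    ring
  rw [hsum]
  refine q.trans ?_
  have hl : t' - t ≤ b - a := by linarith [ht.1, ht'.2]
  have hle : (t' - t) * θ + 2 * ((t' - t) * ‖A‖ ^ 2 - inner ℝ A (w t' - w t)) ≤
      ((t - a) * θ + 2 * ((t - a) * ‖A‖ ^ 2 - inner ℝ A (w t - w a))) +
      ((t' - t) * θ + 2 * ((t' - t) * ‖A‖ ^ 2 - inner ℝ A (w t' - w t))) +
      ((b - t') * θ + 2 * ((b - t') * ‖A‖ ^ 2 - inner ℝ A (w b - w t'))) := by linarith
  exact mul_le_mul hl hle p2 (by linarith)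

/-- Split at `t`, `t'`; for each piece `‖w_i - ℓ_i A‖² ≤ ℓ_i (ℓ_i θ + 2 (ℓ_i ‖A‖² - ⟪A, w_i⟫))`,
so the brackets are nonnegative and add up. -/
theorem u1_block {n : ℕ} (w : ℝ → EuclideanSpace ℝ (Fin n)) (A : EuclideanSpace ℝ (Fin n))
    (θ : ℝ) (hθ : 0 ≤ θ) (a b : ℝ)
    (hw : ∀ t ∈ Icc a b, ∀ t' ∈ Icc a b, t ≤ t' →
      ‖w t' - w t‖ ^ 2 ≤ (t' - t) ^ 2 * (‖A‖ ^ 2 + θ))
    (t t' : ℝ) (ht : t ∈ Icc a b) (ht' : t' ∈ Icc a b) :
    ‖w t' - w t - (t' - t) • A‖ ^ 2 ≤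
      (b - a) * ((b - a) * θ + 2 * ((b - a) * ‖A‖ ^ 2 - inner ℝ A (w b - w a))) := by
  rcases le_total t t' with h | h
  · exact T6a_block_le w A θ a b hw t t' ht ht' h
  · have := T6a_block_le w A θ a b hw t' t ht' ht h
    have h2 : w t' - w t - (t' - t) • A = -(w t - w t' - (t - t') • A) := by
      rw [sub_smul, sub_smul]; abel
    rw [h2, norm_neg]
    exact this

theorem u1_nonneg {n : ℕ} (w : ℝ → EuclideanSpace ℝ (Fin n)) (A : EuclideanSpace ℝ (Fin n))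
    (θ : ℝ) (a b : ℝ) (hab : a < b)
    (hw : ‖w b - w a‖ ^ 2 ≤ (b - a) ^ 2 * (‖A‖ ^ 2 + θ)) :
    0 ≤ (b - a) * θ + 2 * ((b - a) * ‖A‖ ^ 2 - inner ℝ A (w b - w a)) :=
  (T6a_piece (w b - w a) A θ (b - a) (by linarith) hw).2

theorem pigeon (N n1 n2 : ℕ) (hn1 : 1 ≤ n1) (hn2 : 1 ≤ n2) (α F : Fin N → ℕ → ℕ → ℝ)
    (hα0 : ∀ b l j, l < n1 → j < n2 → 0 ≤ α b l j)
    (hF0 : ∀ b l j, l < n1 → j < n2 → 0 ≤ F b l j)
    (ε1 ε2 a e : ℝ) (hε1 : 0 < ε1) (hε2 : 0 < ε2)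
    (hα : ∀ b, ∀ j < n2, ∑ l ∈ Finset.range n1, α b l j ≤ a)
    (hF : ∀ b, ∀ l < n1, ∑ j ∈ Finset.range n2, F b l j ≤ e)
    (h : N * (a / n1 / ε1 + e / n2 / ε2) < 1) :
    ∃ l < n1, ∃ j < n2, ∀ b, α b l j ≤ ε1 ∧ F b l j ≤ ε2 := by
  by_contra hcon
  push Not at hcon
  have hn1' : (0 : ℝ) < n1 := by exact_mod_cast hn1
  have hn2' : (0 : ℝ) < n2 := by exact_mod_cast hn2
  have key : ∀ l ∈ Finset.range n1, ∀ j ∈ Finset.range n2,
      (1 : ℝ) ≤ ∑ b : Fin N, (α b l j / ε1 + F b l j / ε2) := by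
    intro l hl j hj
    rw [Finset.mem_range] at hl hj
    obtain ⟨b, hb⟩ := hcon l hl j hj
    have h0 : ∀ b' : Fin N, 0 ≤ α b' l j / ε1 + F b' l j / ε2 := fun b' =>
      add_nonneg (div_nonneg (hα0 b' l j hl hj) hε1.le) (div_nonneg (hF0 b' l j hl hj) hε2.le)
    have h1 : (1 : ℝ) ≤ α b l j / ε1 + F b l j / ε2 := by
      by_cases hc : α b l j ≤ ε1
      · have hF2 := hb hc
        have : 1 ≤ F b l j / ε2 := by rw [le_div_iff₀ hε2]; linarith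
        have := div_nonneg (hα0 b l j hl hj) hε1.le
        linarith
      · have : 1 ≤ α b l j / ε1 := by rw [le_div_iff₀ hε1]; linarith
        have := div_nonneg (hF0 b l j hl hj) hε2.le
        linarith
    exact h1.trans (Finset.single_le_sum (f := fun b' => α b' l j / ε1 + F b' l j / ε2)
      (fun b' _ => h0 b') (Finset.mem_univ b))
  have hsum : (n1 : ℝ) * n2 ≤ ∑ l ∈ Finset.range n1, ∑ j ∈ Finset.range n2,
      ∑ b : Fin N, (α b l j / ε1 + F b l j / ε2) := by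
    have : ∑ l ∈ Finset.range n1, ∑ j ∈ Finset.range n2, (1 : ℝ) = (n1 : ℝ) * n2 := by simp
    rw [← this]
    exact Finset.sum_le_sum fun l hl => Finset.sum_le_sum fun j hj => key l hl j hj
  have hA : ∑ l ∈ Finset.range n1, ∑ j ∈ Finset.range n2, ∑ b : Fin N, α b l j / ε1 ≤
      N * (n2 * (a / ε1)) := by
    have e1 : ∑ l ∈ Finset.range n1, ∑ j ∈ Finset.range n2, ∑ b : Fin N, α b l j / ε1 =
        ∑ b : Fin N, ∑ j ∈ Finset.range n2, (∑ l ∈ Finset.range n1, α b l j) / ε1 := by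
      rw [Finset.sum_comm]
      rw [Finset.sum_comm (s := (Finset.univ : Finset (Fin N)))]
      refine Finset.sum_congr rfl fun j _ => ?_
      rw [Finset.sum_comm]
      refine Finset.sum_congr rfl fun b _ => ?_
      rw [Finset.sum_div]
    rw [e1]
    calc _ ≤ ∑ b : Fin N, ∑ j ∈ Finset.range n2, a / ε1 :=
          Finset.sum_le_sum fun b _ => Finset.sum_le_sum fun j hj =>
            div_le_div_of_nonneg_right (hα b j (Finset.mem_range.mp hj)) hε1.le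
      _ = N * (n2 * (a / ε1)) := by simp
  have hFF : ∑ l ∈ Finset.range n1, ∑ j ∈ Finset.range n2, ∑ b : Fin N, F b l j / ε2 ≤
      N * (n1 * (e / ε2)) := by
    have e1 : ∑ l ∈ Finset.range n1, ∑ j ∈ Finset.range n2, ∑ b : Fin N, F b l j / ε2 =
        ∑ b : Fin N, ∑ l ∈ Finset.range n1, (∑ j ∈ Finset.range n2, F b l j) / ε2 := by
      rw [Finset.sum_comm (s := (Finset.univ : Finset (Fin N)))]
      refine Finset.sum_congr rfl fun l _ => ?_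
      rw [Finset.sum_comm]
      refine Finset.sum_congr rfl fun b _ => ?_
      rw [Finset.sum_div]
    rw [e1]
    calc _ ≤ ∑ b : Fin N, ∑ l ∈ Finset.range n1, e / ε2 :=
          Finset.sum_le_sum fun b _ => Finset.sum_le_sum fun l hl =>
            div_le_div_of_nonneg_right (hF b l (Finset.mem_range.mp hl)) hε2.le
      _ = N * (n1 * (e / ε2)) := by simp
  have hsplit : ∑ l ∈ Finset.range n1, ∑ j ∈ Finset.range n2,
      ∑ b : Fin N, (α b l j / ε1 + F b l j / ε2) =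
      (∑ l ∈ Finset.range n1, ∑ j ∈ Finset.range n2, ∑ b : Fin N, α b l j / ε1) +
      ∑ l ∈ Finset.range n1, ∑ j ∈ Finset.range n2, ∑ b : Fin N, F b l j / ε2 := by
    simp only [Finset.sum_add_distrib]
  rw [hsplit] at hsum
  have hfin : (n1 : ℝ) * n2 ≤ (n1 * n2) * (N * (a / n1 / ε1 + e / n2 / ε2)) := by
    have : (n1 * n2 : ℝ) * (N * (a / n1 / ε1 + e / n2 / ε2)) =
        N * (n2 * (a / ε1)) + N * (n1 * (e / ε2)) := by
      field_simp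
    rw [this]
    linarith
  have hpos : (0 : ℝ) < n1 * n2 := by positivity
  nlinarith

end Crest.Agent.LP
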