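import Crest.Agent.LP_Defs

/-!
LP-T5b (S0392): the energy estimate `an2` for Lipschitz maps on a rectangle.
-/

set_option autoImplicit false

namespace Crest.Agent.LP

open Set MeasureTheory

namespace T5b

theorem ftc_lip {f : ℝ → ℝ} {C : NNReal} (hf : LipschitzWith C f) (a b : ℝ) :
    ∫ x in a..b, deriv f x = f b - f a :=
  (hf.lipschitzOnWith (s := uIcc a b)).absolutelyContinuousOnInterval.integral_deriv_eq_sub

/-- fundamental theorem of calculus along a line, for a Lipschitz map differentiable at almost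
every point of the line -/
theorem ftc_line {n : ℕ} {γ : ℝ × ℝ → EuclideanSpace ℝ (Fin n)} {C : NNReal}
    (hγ : LipschitzWith C γ) (l : ℝ → ℝ × ℝ) (w : ℝ × ℝ) (hl : ∀ s, HasDerivAt l w s)
    (hl1 : LipschitzWith 1 l)
    (t t' : ℝ) (htt : t ≤ t')
    (hdiff : ∀ᵐ τ ∂(volume.restrict (Ioo t t')), DifferentiableAt ℝ γ (l τ))
    (v : EuclideanSpace ℝ (Fin n)) :
    ∫ τ in Ioo t t', inner ℝ v (fderiv ℝ γ (l τ) w) = inner ℝ v (γ (l t') - γ (l t)) := by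
  have hlip : LipschitzWith (‖innerSL ℝ v‖₊ * (C * 1)) (fun τ => inner ℝ v (γ (l τ))) :=
    (innerSL ℝ v).lipschitz.comp (hγ.comp hl1)
  have h1 := ftc_lip hlip t t'
  rw [intervalIntegral.integral_of_le htt, integral_Ioc_eq_integral_Ioo] at h1
  rw [inner_sub_right, ← h1]
  apply integral_congr_ae
  filter_upwards [hdiff] with τ hτ
  have h2 : HasDerivAt (fun τ => γ (l τ)) (fderiv ℝ γ (l τ) w) τ :=
    hτ.hasFDerivAt.comp_hasDerivAt τ (hl τ)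
  have h3 : HasDerivAt (fun τ => inner ℝ v (γ (l τ))) (inner ℝ v (fderiv ℝ γ (l τ) w)) τ := by
    have := (innerSL ℝ v).hasFDerivAt.comp_hasDerivAt τ h2
    exact this
  exact h3.deriv.symm

theorem an2_global {n : ℕ} (γ : ℝ × ℝ → EuclideanSpace ℝ (Fin n)) (t t' y y' : ℝ) (ht : t < t')
    (hy : y < y') (C : NNReal) (hγ : LipschitzWith C γ)
    (A1 A2 : EuclideanSpace ℝ (Fin n)) (K g : ℝ) (hK : 0 ≤ K)
    (hd : ∀ z ∈ Ioo t t' ×ˢ Ioo y y', DifferentiableAt ℝ γ z →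
      K * ‖fderiv ℝ γ z (1, 0)‖ ^ 2 + ‖fderiv ℝ γ z (0, 1)‖ ^ 2 ≤
        K * ‖A1‖ ^ 2 + ‖A2‖ ^ 2 + g) :
    ∫ τ in Ioo t t', ‖γ (τ, y') - γ (τ, y) - (y' - y) • A2‖ ^ 2 ≤
      (y' - y) * (g * (t' - t) * (y' - y) +
        2 * K * (∫ υ in Ioo y y', ((t' - t) * ‖A1‖ ^ 2 - inner ℝ A1 (γ (t', υ) - γ (t, υ)))) +
        2 * ∫ τ in Ioo t t', ((y' - y) * ‖A2‖ ^ 2 - inner ℝ A2 (γ (τ, y') - γ (τ, y)))) := by
  set μ₁ : Measure ℝ := volume.restrict (Ioo t t') with hμ₁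
  set μ₂ : Measure ℝ := volume.restrict (Ioo y y') with hμ₂
  have hvol1 : μ₁.real univ = t' - t := by
    simp [hμ₁, Measure.real, ENNReal.toReal_ofReal, ht.le]
  have hvol2 : μ₂.real univ = y' - y := by
    simp [hμ₂, Measure.real, ENNReal.toReal_ofReal, hy.le]
  have hprod : μ₁.prod μ₂ = (volume : Measure (ℝ × ℝ)).restrict (Ioo t t' ×ˢ Ioo y y') := by
    rw [hμ₁, hμ₂, Measure.prod_restrict]; rfl
  have hae : ∀ᵐ z ∂(μ₁.prod μ₂), DifferentiableAt ℝ γ z := by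
    rw [hprod]
    exact ae_restrict_of_ae hγ.ae_differentiableAt
  have haeS : ∀ᵐ z ∂(μ₁.prod μ₂), z ∈ Ioo t t' ×ˢ Ioo y y' := by
    rw [hprod]
    exact ae_restrict_mem (measurableSet_Ioo.prod measurableSet_Ioo)
  -- lines
  have hae1 : ∀ᵐ τ ∂μ₁, ∀ᵐ υ ∂μ₂, DifferentiableAt ℝ γ (τ, υ) :=
    Measure.ae_ae_of_ae_prod hae
  have hae2 : ∀ᵐ υ ∂μ₂, ∀ᵐ τ ∂μ₁, DifferentiableAt ℝ γ (τ, υ) := by
    have h : ∀ᵐ z ∂(μ₂.prod μ₁), DifferentiableAt ℝ γ z.swap := by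
      have := (Measure.measurePreserving_swap (μ := μ₂) (ν := μ₁)).quasiMeasurePreserving.ae hae
      exact this
    exact Measure.ae_ae_of_ae_prod h
  have hbd : ∀ z, ‖fderiv ℝ γ z‖ ≤ C := fun z => norm_fderiv_le_of_lipschitz ℝ hγ
  have hm : ∀ w : ℝ × ℝ, Measurable (fun z => fderiv ℝ γ z w) := fun w =>
    measurable_fderiv_apply_const ℝ γ w
  have hI : ∀ (v : EuclideanSpace ℝ (Fin n)) (w : ℝ × ℝ),
      Integrable (fun z => inner ℝ v (fderiv ℝ γ z w)) (μ₁.prod μ₂) := by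
    intro v w
    apply Integrable.of_bound (C := ‖v‖ * (C * ‖w‖))
    · exact (measurable_const.inner (hm w)).aestronglyMeasurable
    · refine Filter.Eventually.of_forall fun z => ?_
      refine (norm_inner_le_norm _ _).trans ?_
      gcongr
      exact (ContinuousLinearMap.le_opNorm _ _).trans (by gcongr; exact hbd z)
  have hIP : Integrable (fun z => ‖fderiv ℝ γ z (0, 1) - A2‖ ^ 2) (μ₁.prod μ₂) := by
    refine Integrable.of_bound ?_ ((C * ‖((0 : ℝ), (1 : ℝ))‖ + ‖A2‖) ^ 2) ?_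
    · exact (((hm (0, 1)).sub measurable_const).norm.pow_const 2).aestronglyMeasurable
    · refine Filter.Eventually.of_forall fun z => ?_
      rw [Real.norm_of_nonneg (by positivity)]
      gcongr
      refine (norm_sub_le _ _).trans ?_
      gcongr
      exact (ContinuousLinearMap.le_opNorm _ _).trans (by gcongr; exact hbd z)
  have hP : ∀ᵐ z ∂(μ₁.prod μ₂), ‖fderiv ℝ γ z (0, 1) - A2‖ ^ 2 ≤
      (g + 2 * K * ‖A1‖ ^ 2 + 2 * ‖A2‖ ^ 2) -
        (2 * K * inner ℝ A1 (fderiv ℝ γ z (1, 0)) + 2 * inner ℝ A2 (fderiv ℝ γ z (0, 1))) := by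
    filter_upwards [hae, haeS] with z hz hzS
    have h1 := hd z hzS hz
    have h2 := @norm_sub_sq_real _ _ _ (fderiv ℝ γ z (0, 1)) A2
    have h3 := @norm_sub_sq_real _ _ _ (fderiv ℝ γ z (1, 0)) A1
    have h4 : 0 ≤ K * ‖fderiv ℝ γ z (1, 0) - A1‖ ^ 2 := by positivity
    rw [h3] at h4
    rw [h2, real_inner_comm A2, real_inner_comm A1] at *
    nlinarith
  have hintP : ∫ z, ‖fderiv ℝ γ z (0, 1) - A2‖ ^ 2 ∂(μ₁.prod μ₂) ≤
      (g + 2 * K * ‖A1‖ ^ 2 + 2 * ‖A2‖ ^ 2) * ((t' - t) * (y' - y)) -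
        (2 * K * (∫ υ in Ioo y y', inner ℝ A1 (γ (t', υ) - γ (t, υ))) +
         2 * (∫ τ in Ioo t t', inner ℝ A2 (γ (τ, y') - γ (τ, y)))) := by
    have h1 : ∫ z, ‖fderiv ℝ γ z (0, 1) - A2‖ ^ 2 ∂(μ₁.prod μ₂) ≤
        ∫ z, ((g + 2 * K * ‖A1‖ ^ 2 + 2 * ‖A2‖ ^ 2) -
        (2 * K * inner ℝ A1 (fderiv ℝ γ z (1, 0)) + 2 * inner ℝ A2 (fderiv ℝ γ z (0, 1))))
        ∂(μ₁.prod μ₂) := integral_mono_ae hIP (((integrable_const _).sub
      (((hI A1 (1, 0)).const_mul (2 * K)).add ((hI A2 (0, 1)).const_mul 2)))) hP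
    refine h1.trans (le_of_eq ?_)
    have hIadd : Integrable (fun z => 2 * K * inner ℝ A1 (fderiv ℝ γ z (1, 0)) +
        2 * inner ℝ A2 (fderiv ℝ γ z (0, 1))) (μ₁.prod μ₂) :=
      ((hI A1 (1, 0)).const_mul (2 * K)).add ((hI A2 (0, 1)).const_mul 2)
    rw [integral_sub (integrable_const _) hIadd,
      integral_add ((hI A1 (1, 0)).const_mul (2 * K)) ((hI A2 (0, 1)).const_mul 2),
      integral_const, integral_const_mul, integral_const_mul]
    have e1 : ∫ z, inner ℝ A1 (fderiv ℝ γ z (1, 0)) ∂(μ₁.prod μ₂) =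
        ∫ υ in Ioo y y', inner ℝ A1 (γ (t', υ) - γ (t, υ)) := by
      rw [integral_prod_symm _ (hI A1 (1, 0))]
      apply integral_congr_ae
      filter_upwards [hae2] with υ hυ
      exact ftc_line hγ (fun τ => (τ, υ)) (1, 0)
        (fun s => (hasDerivAt_id s).prodMk (hasDerivAt_const s υ))
        (LipschitzWith.of_dist_le_mul (by intro a b; simp [Prod.dist_eq])) t t' ht.le hυ A1
    have e2 : ∫ z, inner ℝ A2 (fderiv ℝ γ z (0, 1)) ∂(μ₁.prod μ₂) =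
        ∫ τ in Ioo t t', inner ℝ A2 (γ (τ, y') - γ (τ, y)) := by
      rw [integral_prod _ (hI A2 (0, 1))]
      apply integral_congr_ae
      filter_upwards [hae1] with τ hτ
      exact ftc_line hγ (fun υ => (τ, υ)) (0, 1)
        (fun s => (hasDerivAt_const s τ).prodMk (hasDerivAt_id s))
        (LipschitzWith.of_dist_le_mul (by intro a b; simp [Prod.dist_eq])) y y' hy.le hτ A2
    rw [e1, e2]
    have e3 : (μ₁.prod μ₂).real univ = (t' - t) * (y' - y) := by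
      rw [← hvol1, ← hvol2, ← univ_prod_univ, measureReal_prod_prod]
    rw [e3, smul_eq_mul, mul_comm ((t' - t) * (y' - y))]
  -- the left hand side
  have hleft : ∀ᵐ τ ∂μ₁, ‖γ (τ, y') - γ (τ, y) - (y' - y) • A2‖ ^ 2 ≤
      (y' - y) * ∫ υ, ‖fderiv ℝ γ (τ, υ) (0, 1) - A2‖ ^ 2 ∂μ₂ := by
    filter_upwards [hae1, hIP.prod_right_ae] with τ hτ hint
    set w := γ (τ, y') - γ (τ, y) - (y' - y) • A2 with hw
    have h1 := ftc_line hγ (fun υ => (τ, υ)) (0, 1)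
        (fun s => (hasDerivAt_const s τ).prodMk (hasDerivAt_id s))
        (LipschitzWith.of_dist_le_mul (by intro a b; simp [Prod.dist_eq])) y y' hy.le hτ w
    have hIw : Integrable (fun υ => inner ℝ w (fderiv ℝ γ (τ, υ) (0, 1))) μ₂ := by
      apply Integrable.of_bound (C := ‖w‖ * (C * ‖((0 : ℝ), (1 : ℝ))‖))
      · exact (measurable_const.inner
          ((hm (0, 1)).comp (measurable_const.prodMk measurable_id))).aestronglyMeasurable
      · refine Filter.Eventually.of_forall fun z => ?_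
        refine (norm_inner_le_norm _ _).trans ?_
        gcongr
        exact (ContinuousLinearMap.le_opNorm _ _).trans (by gcongr; exact hbd _)
    have h2 : ∫ υ, (inner ℝ w (fderiv ℝ γ (τ, υ) (0, 1)) - inner ℝ w A2) ∂μ₂ = ‖w‖ ^ 2 := by
      rw [integral_sub hIw (integrable_const _), integral_const, hvol2, h1, smul_eq_mul,
        ← real_inner_self_eq_norm_sq]
      conv_rhs => rw [hw, inner_sub_right, ← hw, real_inner_smul_right]
    have hpos : 0 < y' - y := sub_pos.2 hy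
    have h3 : ∫ υ, (inner ℝ w (fderiv ℝ γ (τ, υ) (0, 1)) - inner ℝ w A2) ∂μ₂ ≤
        ∫ υ, (‖w‖ ^ 2 / (2 * (y' - y)) +
          (y' - y) / 2 * ‖fderiv ℝ γ (τ, υ) (0, 1) - A2‖ ^ 2) ∂μ₂ := by
      apply integral_mono (hIw.sub (integrable_const _))
        ((integrable_const _).add (hint.const_mul _))
      intro υ
      change inner ℝ w (fderiv ℝ γ (τ, υ) (0, 1)) - inner ℝ w A2 ≤
        ‖w‖ ^ 2 / (2 * (y' - y)) + (y' - y) / 2 * ‖fderiv ℝ γ (τ, υ) (0, 1) - A2‖ ^ 2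
      rw [← inner_sub_right]
      set q := fderiv ℝ γ (τ, υ) (0, 1) - A2
      have h4 : inner ℝ w q ≤ ‖w‖ * ‖q‖ := real_inner_le_norm _ _
      refine h4.trans ?_
      have h5 : 0 ≤ (‖w‖ - (y' - y) * ‖q‖) ^ 2 / (2 * (y' - y)) := by positivity
      have h6 : (‖w‖ - (y' - y) * ‖q‖) ^ 2 / (2 * (y' - y)) =
          ‖w‖ ^ 2 / (2 * (y' - y)) + (y' - y) / 2 * ‖q‖ ^ 2 - ‖w‖ * ‖q‖ := by
        field_simp
        ring
      linarith
    rw [h2, integral_add (integrable_const _) (hint.const_mul _), integral_const,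
      integral_const_mul, hvol2, smul_eq_mul] at h3
    have h7 : (y' - y) * (‖w‖ ^ 2 / (2 * (y' - y))) = ‖w‖ ^ 2 / 2 := by
      field_simp
    rw [h7] at h3
    linarith
  have hcont : Continuous (fun τ => ‖γ (τ, y') - γ (τ, y) - (y' - y) • A2‖ ^ 2) := by
    have := hγ.continuous
    fun_prop
  have hfin : ∀ f : ℝ → ℝ, Continuous f → ∀ a b : ℝ, Integrable f (volume.restrict (Ioo a b)) :=
    fun f hf a b => (hf.integrableOn_Icc (a := a) (b := b)).mono_set Ioo_subset_Icc_self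
  have hmain : ∫ τ in Ioo t t', ‖γ (τ, y') - γ (τ, y) - (y' - y) • A2‖ ^ 2 ≤
      (y' - y) * ∫ z, ‖fderiv ℝ γ z (0, 1) - A2‖ ^ 2 ∂(μ₁.prod μ₂) := by
    rw [integral_prod _ hIP, ← integral_const_mul]
    exact integral_mono_ae (hfin _ hcont _ _) (hIP.integral_prod_left.const_mul _) hleft
  refine hmain.trans ?_
  apply mul_le_mul_of_nonneg_left _ (sub_pos.2 hy).le
  refine hintP.trans (le_of_eq ?_)
  have hc := hγ.continuous
  rw [integral_sub (integrable_const _) (hfin _ (by fun_prop) _ _),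
    integral_sub (integrable_const _) (hfin _ (by fun_prop) _ _), integral_const, integral_const]
  change _ = g * (t' - t) * (y' - y) + 2 * K * (μ₂.real univ • _ - _) +
    2 * (μ₁.real univ • _ - _)
  rw [hvol1, hvol2, smul_eq_mul, smul_eq_mul]
  ring

end T5b

/-- At a.e. point `‖∂₂γ - A2‖² ≤ g + 2 K (‖A1‖² - ⟪A1, ∂₁γ⟫) + 2 (‖A2‖² - ⟪A2, ∂₂γ⟫)`
(from `hd` and `K ‖∂₁γ - A1‖² ≥ 0`); integrate over the rectangle, and use
`‖∫ (∂₂γ - A2)‖² ≤ (y' - y) ∫ ‖∂₂γ - A2‖²` on vertical lines. -/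
theorem an2 {n : ℕ} (γ : ℝ × ℝ → EuclideanSpace ℝ (Fin n)) (t t' y y' : ℝ) (ht : t < t')
    (hy : y < y') (C : ℝ) (hC : 0 ≤ C)
    (hLip : ∀ z ∈ rect t t' y y', ∀ z' ∈ rect t t' y y', ‖γ z - γ z'‖ ≤ C * ‖z - z'‖)
    (A1 A2 : EuclideanSpace ℝ (Fin n)) (K g : ℝ) (hK : 0 ≤ K) (hg : 0 ≤ g)
    (hd : ∀ z ∈ interior (rect t t' y y'), DifferentiableAt ℝ γ z →
      K * ‖fderiv ℝ γ z (1, 0)‖ ^ 2 + ‖fderiv ℝ γ z (0, 1)‖ ^ 2 ≤
        K * ‖A1‖ ^ 2 + ‖A2‖ ^ 2 + g) :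
    ∫ τ in t..t', ‖γ (τ, y') - γ (τ, y) - (y' - y) • A2‖ ^ 2 ≤
      (y' - y) * (g * (t' - t) * (y' - y) +
        2 * K * (∫ υ in y..y', ((t' - t) * ‖A1‖ ^ 2 - inner ℝ A1 (γ (t', υ) - γ (t, υ)))) +
        2 * ∫ τ in t..t', ((y' - y) * ‖A2‖ ^ 2 - inner ℝ A2 (γ (τ, y') - γ (τ, y)))) := by
  have hL : LipschitzOnWith ⟨C, hC⟩ γ (rect t t' y y') := by
    apply LipschitzOnWith.of_dist_le_mul
    intro z hz z' hz'
    rw [dist_eq_norm, dist_eq_norm]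
    exact hLip z hz z' hz'
  obtain ⟨γ', hγ', heq⟩ := hL.extend_finite_dimension
  have hint : interior (rect t t' y y') = Ioo t t' ×ˢ Ioo y y' := by
    rw [rect, interior_prod_eq, interior_Icc, interior_Icc]
  have hd' : ∀ z ∈ Ioo t t' ×ˢ Ioo y y', DifferentiableAt ℝ γ' z →
      K * ‖fderiv ℝ γ' z (1, 0)‖ ^ 2 + ‖fderiv ℝ γ' z (0, 1)‖ ^ 2 ≤
        K * ‖A1‖ ^ 2 + ‖A2‖ ^ 2 + g := by
    intro z hz hdz
    rw [← hint] at hz
    have hev : γ =ᶠ[nhds z] γ' := by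
      filter_upwards [isOpen_interior.mem_nhds hz] with x hx
      exact heq (interior_subset hx)
    have h1 := hd z hz (hev.differentiableAt_iff.2 hdz)
    rwa [hev.fderiv_eq] at h1
  have key := T5b.an2_global γ' t t' y y' ht hy _ hγ' A1 A2 K g hK hd'
  have hmem : ∀ τ ∈ Icc t t', ∀ υ ∈ Icc y y', γ (τ, υ) = γ' (τ, υ) := fun τ hτ υ hυ =>
    heq ⟨hτ, hυ⟩
  have ht1 : t ∈ Icc t t' := ⟨le_rfl, ht.le⟩
  have ht2 : t' ∈ Icc t t' := ⟨ht.le, le_rfl⟩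
  have hy1 : y ∈ Icc y y' := ⟨le_rfl, hy.le⟩
  have hy2 : y' ∈ Icc y y' := ⟨hy.le, le_rfl⟩
  rw [intervalIntegral.integral_of_le ht.le, intervalIntegral.integral_of_le ht.le,
    intervalIntegral.integral_of_le hy.le, integral_Ioc_eq_integral_Ioo,
    integral_Ioc_eq_integral_Ioo, integral_Ioc_eq_integral_Ioo]
  have e1 : ∫ τ in Ioo t t', ‖γ (τ, y') - γ (τ, y) - (y' - y) • A2‖ ^ 2 =
      ∫ τ in Ioo t t', ‖γ' (τ, y') - γ' (τ, y) - (y' - y) • A2‖ ^ 2 := by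
    apply setIntegral_congr_fun measurableSet_Ioo
    intro τ hτ
    simp only
    rw [hmem τ (Ioo_subset_Icc_self hτ) y' hy2, hmem τ (Ioo_subset_Icc_self hτ) y hy1]
  have e2 : ∫ τ in Ioo t t', ((y' - y) * ‖A2‖ ^ 2 - inner ℝ A2 (γ (τ, y') - γ (τ, y))) =
      ∫ τ in Ioo t t', ((y' - y) * ‖A2‖ ^ 2 - inner ℝ A2 (γ' (τ, y') - γ' (τ, y))) := by
    apply setIntegral_congr_fun measurableSet_Ioo
    intro τ hτ
    simp only
    rw [hmem τ (Ioo_subset_Icc_self hτ) y' hy2, hmem τ (Ioo_subset_Icc_self hτ) y hy1]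
  have e3 : ∫ υ in Ioo y y', ((t' - t) * ‖A1‖ ^ 2 - inner ℝ A1 (γ (t', υ) - γ (t, υ))) =
      ∫ υ in Ioo y y', ((t' - t) * ‖A1‖ ^ 2 - inner ℝ A1 (γ' (t', υ) - γ' (t, υ))) := by
    apply setIntegral_congr_fun measurableSet_Ioo
    intro υ hυ
    simp only
    rw [hmem t' ht2 υ (Ioo_subset_Icc_self hυ), hmem t ht1 υ (Ioo_subset_Icc_self hυ)]
  rw [e1, e2, e3]
  exact key

end Crest.Agent.LP
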