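import Crest.Agent.LP_Defs
import Crest.Agent.LP_T5b

set_option autoImplicit false

namespace Crest.Agent.LP

open Set MeasureTheory

/-- abbreviation: if `γ` stays close to the linear map then increments are close to increments -/
theorem u2_inner_le {n : ℕ} (A w : EuclideanSpace ℝ (Fin n)) (D D' l : ℝ) (hD : 0 ≤ D)
    (hA : ‖A‖ ≤ D) (hw : ‖w - l • A‖ ≤ 2 * D') :
    l * ‖A‖ ^ 2 - inner ℝ A w ≤ 2 * D * D' := by
  have h1 : l * ‖A‖ ^ 2 - inner ℝ A w = - inner ℝ A (w - l • A) := by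
    rw [inner_sub_right, inner_smul_right, real_inner_self_eq_norm_sq]
    ring
  rw [h1]
  have h2 := abs_real_inner_le_norm A (w - l • A)
  have h3 := neg_abs_le (inner ℝ A (w - l • A))
  have h4 : ‖A‖ * ‖w - l • A‖ ≤ D * (2 * D') :=
    mul_le_mul hA hw (norm_nonneg _) hD
  linarith

theorem u2_row {n : ℕ} (γ : ℝ × ℝ → EuclideanSpace ℝ (Fin n)) (x0 H : ℝ) (hH : 0 < H) (Q : ℕ)
    (D D' : ℝ) (hD : 0 < D) (hD' : 0 < D')
    (hLip : ∀ z ∈ rect x0 (x0 + H) 0 (10000 * Q), ∀ z' ∈ rect x0 (x0 + H) 0 (10000 * Q),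
      ‖γ z - γ z'‖ ≤ D * ‖z - z'‖)
    (A1 A2 : EuclideanSpace ℝ (Fin n)) (hA1 : ‖A1‖ ≤ D) (hA2 : ‖A2‖ ≤ D)
    (hclose : ∀ z ∈ rect x0 (x0 + H) 0 (10000 * Q), ‖γ z - (z.1 • A1 + z.2 • A2)‖ ≤ D')
    (K g : ℝ) (hK : 0 ≤ K) (hg : 0 ≤ g)
    (hd : ∀ z ∈ interior (rect x0 (x0 + H) 0 (10000 * Q)), DifferentiableAt ℝ γ z →
      K * ‖fderiv ℝ γ z (1, 0)‖ ^ 2 + ‖fderiv ℝ γ z (0, 1)‖ ^ 2 ≤
        K * ‖A1‖ ^ 2 + ‖A2‖ ^ 2 + g) :
    ∑ i ∈ Finset.range Q, ∫ τ in x0..(x0 + H),
      ‖γ (τ, 10000 * (i + 1)) - γ (τ, 10000 * i) - (10000 : ℝ) • A2‖ ^ 2 ≤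
      10000 * (g * H * (10000 * Q) + 4 * K * D * D' * (10000 * Q) + 4 * D * D' * H) := by
  have hx : x0 < x0 + H := by linarith
  -- continuity of γ on the rectangle
  have hcont : ContinuousOn γ (rect x0 (x0 + H) 0 (10000 * Q)) := by
    have : LipschitzOnWith (Real.toNNReal D) γ (rect x0 (x0 + H) 0 (10000 * Q)) := by
      refine LipschitzOnWith.of_dist_le_mul ?_
      intro z hz z' hz'
      rw [dist_eq_norm, dist_eq_norm, Real.coe_toNNReal _ hD.le]
      exact hLip z hz z' hz'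
    exact this.continuousOn
  -- horizontal continuity
  have hch : ∀ y ∈ Icc (0 : ℝ) (10000 * Q), ContinuousOn (fun τ : ℝ => γ (τ, y))
      (Icc x0 (x0 + H)) := by
    intro y hy
    refine hcont.comp (by fun_prop) ?_
    intro τ hτ
    exact ⟨hτ, hy⟩
  have hcv : ∀ t ∈ Icc x0 (x0 + H), ContinuousOn (fun υ : ℝ => γ (t, υ))
      (Icc 0 (10000 * Q)) := by
    intro t ht
    refine hcont.comp (by fun_prop) ?_
    intro τ hτ
    exact ⟨ht, hτ⟩
  -- node facts
  have hnode : ∀ i ≤ Q, (10000 * (i : ℝ)) ∈ Icc (0 : ℝ) (10000 * Q) := by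
    intro i hi
    have : (i : ℝ) ≤ Q := by exact_mod_cast hi
    constructor
    · positivity
    · linarith
  -- step estimate
  have hstep : ∀ i ∈ Finset.range Q, ∫ τ in x0..(x0 + H),
      ‖γ (τ, 10000 * (i + 1)) - γ (τ, 10000 * i) - (10000 : ℝ) • A2‖ ^ 2 ≤
      10000 * (g * H * 10000 + 4 * K * D * D' * 10000 +
        2 * ∫ τ in x0..(x0 + H), (10000 * ‖A2‖ ^ 2 -
          inner ℝ A2 (γ (τ, 10000 * (i + 1)) - γ (τ, 10000 * i)))) := by
    intro i hi
    have hiQ : i < Q := Finset.mem_range.mp hi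
    have h0 := hnode i hiQ.le
    have h1 := hnode (i + 1) hiQ
    push_cast at h1
    have hyy : (10000 * (i : ℝ)) < 10000 * (i + 1) := by linarith
    have hsub : rect x0 (x0 + H) (10000 * i) (10000 * (i + 1)) ⊆
        rect x0 (x0 + H) 0 (10000 * Q) := by
      refine prod_mono le_rfl ?_
      exact Icc_subset_Icc h0.1 h1.2
    have := an2 γ x0 (x0 + H) (10000 * i) (10000 * (i + 1)) hx hyy D hD.le
      (fun z hz z' hz' => hLip z (hsub hz) z' (hsub hz')) A1 A2 K g hK hg
      (fun z hz hdz => hd z (interior_mono hsub hz) hdz)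
    have e1 : (10000 * ((i : ℝ) + 1) - 10000 * i) = 10000 := by ring
    have e2 : x0 + H - x0 = H := by ring
    rw [e1, e2] at this
    refine this.trans ?_
    have hint : ∫ υ in (10000 * (i : ℝ))..(10000 * (i + 1)),
        (H * ‖A1‖ ^ 2 - inner ℝ A1 (γ (x0 + H, υ) - γ (x0, υ))) ≤ 2 * D * D' * 10000 := by
      have hle : ∫ υ in (10000 * (i : ℝ))..(10000 * (i + 1)),
        (H * ‖A1‖ ^ 2 - inner ℝ A1 (γ (x0 + H, υ) - γ (x0, υ))) ≤
          ∫ υ in (10000 * (i : ℝ))..(10000 * (i + 1)), (2 * D * D') := by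
        refine intervalIntegral.integral_mono_on hyy.le ?_ (by simp) ?_
        · apply ContinuousOn.intervalIntegrable
          rw [uIcc_of_le hyy.le]
          have c1 := (hcv (x0 + H) ⟨hx.le, le_rfl⟩).mono (Icc_subset_Icc h0.1 h1.2)
          have c2 := (hcv x0 ⟨le_rfl, hx.le⟩).mono (Icc_subset_Icc h0.1 h1.2)
          exact continuousOn_const.sub (continuousOn_const.inner (𝕜 := ℝ) (c1.sub c2))
        · intro υ hυ
          apply u2_inner_le _ _ _ _ _ hD.le hA1
          have hυ' : υ ∈ Icc (0 : ℝ) (10000 * Q) := ⟨h0.1.trans hυ.1, hυ.2.trans h1.2⟩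
          have k1 := hclose (x0 + H, υ) ⟨⟨hx.le, le_rfl⟩, hυ'⟩
          have k2 := hclose (x0, υ) ⟨⟨le_rfl, hx.le⟩, hυ'⟩
          have e : γ (x0 + H, υ) - γ (x0, υ) - H • A1 =
              (γ (x0 + H, υ) - ((x0 + H) • A1 + υ • A2)) - (γ (x0, υ) - (x0 • A1 + υ • A2)) := by
            module
          rw [e]
          refine (norm_sub_le _ _).trans ?_
          simp only at k1 k2
          linarith
      rw [intervalIntegral.integral_const, e1, smul_eq_mul] at hle
      linarith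
    have hK2 : 2 * K * (∫ υ in (10000 * (i : ℝ))..(10000 * (i + 1)),
        (H * ‖A1‖ ^ 2 - inner ℝ A1 (γ (x0 + H, υ) - γ (x0, υ)))) ≤ 2 * K * (2 * D * D' * 10000) := by
      gcongr
    nlinarith
  refine (Finset.sum_le_sum hstep).trans ?_
  rw [← Finset.mul_sum]
  refine mul_le_mul_of_nonneg_left ?_ (by norm_num)
  rw [Finset.sum_add_distrib, Finset.sum_const, Finset.card_range, ← Finset.mul_sum]
  -- the telescoping sum
  have htel : ∑ i ∈ Finset.range Q, ∫ τ in x0..(x0 + H), (10000 * ‖A2‖ ^ 2 -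
          inner ℝ A2 (γ (τ, 10000 * (i + 1)) - γ (τ, 10000 * i))) ≤ 2 * D * D' * H := by
    rw [← intervalIntegral.integral_finsetSum]
    · have hle : ∫ τ in x0..(x0 + H), (∑ i ∈ Finset.range Q, (10000 * ‖A2‖ ^ 2 -
          inner ℝ A2 (γ (τ, 10000 * (i + 1)) - γ (τ, 10000 * i)))) ≤
          ∫ τ in x0..(x0 + H), (2 * D * D') := by
        refine intervalIntegral.integral_mono_on hx.le ?_ (by simp) ?_
        · apply ContinuousOn.intervalIntegrable
          rw [uIcc_of_le hx.le]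
          refine continuousOn_finsetSum _ ?_
          intro i hi
          have hiQ : i < Q := Finset.mem_range.mp hi
          have h0 := hnode i hiQ.le
          have h1 := hnode (i + 1) hiQ
          push_cast at h1
          exact continuousOn_const.sub (continuousOn_const.inner (𝕜 := ℝ) ((hch _ h1).sub (hch _ h0)))
        · intro τ hτ
          have hsum : ∑ i ∈ Finset.range Q, (10000 * ‖A2‖ ^ 2 -
              inner ℝ A2 (γ (τ, 10000 * (i + 1)) - γ (τ, 10000 * i))) =
              (10000 * Q) * ‖A2‖ ^ 2 - inner ℝ A2 (γ (τ, 10000 * Q) - γ (τ, 0)) := by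
            rw [Finset.sum_sub_distrib, Finset.sum_const, Finset.card_range, ← inner_sum]
            have : ∑ i ∈ Finset.range Q, (γ (τ, 10000 * ((i : ℝ) + 1)) - γ (τ, 10000 * i)) =
                γ (τ, 10000 * Q) - γ (τ, 0) := by
              have := Finset.sum_range_sub (fun i : ℕ => γ (τ, 10000 * (i : ℝ))) Q
              simpa using this
            rw [this, nsmul_eq_mul]
            ring
          rw [hsum]
          apply u2_inner_le _ _ _ _ _ hD.le hA2
          have k1 := hclose (τ, 10000 * Q) ⟨hτ, hnode Q le_rfl⟩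
          have k2 := hclose (τ, 0) ⟨hτ, by simpa using hnode 0 (Nat.zero_le _)⟩
          have e : γ (τ, 10000 * Q) - γ (τ, 0) - (10000 * (Q : ℝ)) • A2 =
              (γ (τ, 10000 * Q) - (τ • A1 + (10000 * (Q : ℝ)) • A2)) -
                (γ (τ, 0) - (τ • A1 + (0 : ℝ) • A2)) := by
            module
          rw [e]
          refine (norm_sub_le _ _).trans ?_
          simp only at k1 k2
          linarith
      rw [intervalIntegral.integral_const, smul_eq_mul] at hle
      linarith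
    · intro i hi
      have hiQ : i < Q := Finset.mem_range.mp hi
      have h0 := hnode i hiQ.le
      have h1 := hnode (i + 1) hiQ
      push_cast at h1
      apply ContinuousOn.intervalIntegrable
      rw [uIcc_of_le hx.le]
      exact continuousOn_const.sub (continuousOn_const.inner (𝕜 := ℝ) ((hch _ h1).sub (hch _ h0)))
  rw [nsmul_eq_mul]
  linarith

end Crest.Agent.LP
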