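import Crest.Agent.LP_Defs
import Crest.Agent.LP_T5a
import Crest.Agent.LP_T6a
import Crest.Agent.LP_T6b

set_option autoImplicit false

namespace Crest.Agent.LP

open Set MeasureTheory

/-! ### geometry of the window -/

theorem col_mem (N H n1 n2 : ℕ) (b : Fin N) (j : ℕ) (hj : j < n2) (t y : ℝ)
    (ht : t ∈ Icc (0 : ℝ) (n1 * (2 * H * N)))
    (hy : y ∈ Icc (10000 * ((N : ℝ) * j + (b : ℕ))) (10000 * ((N : ℝ) * j + (b : ℕ)) + 5000)) :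
    (t, y) ∈ PP H N (n1 * (2 * H * N)) (n2 * (10000 * N)) b := by
  have hb : ((b : ℕ) : ℝ) + 1 ≤ N := by exact_mod_cast b.2
  have hj' : (j : ℝ) + 1 ≤ n2 := by exact_mod_cast hj
  have hN0 : (0 : ℝ) ≤ N := Nat.cast_nonneg N
  refine ⟨ht, ⟨?_, ?_⟩, Or.inl ⟨(j : ℤ), ?_, ?_⟩⟩
  · have h1 := hy.1
    have : (0 : ℝ) ≤ 10000 * ((N : ℝ) * j + (b : ℕ)) := by positivity
    simp only
    linarith
  · have h2 := hy.2
    have h3 : (N : ℝ) * (j + 1) ≤ N * n2 := mul_le_mul_of_nonneg_left hj' hN0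
    simp only
    linarith
  · have h1 := hy.1
    simp only
    push_cast
    linarith
  · have h2 := hy.2
    simp only
    push_cast
    linarith

theorem row_mem (N H n1 n2 : ℕ) (b : Fin N) (l : ℕ) (hl : l < n1) (t y : ℝ)
    (ht : t ∈ Icc (2 * (H : ℝ) * ((N : ℝ) * l + (b : ℕ))) (2 * (H : ℝ) * ((N : ℝ) * l + (b : ℕ)) + H))
    (hy : y ∈ Icc (0 : ℝ) (n2 * (10000 * N))) :
    (t, y) ∈ PP H N (n1 * (2 * H * N)) (n2 * (10000 * N)) b := by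
  have hb : ((b : ℕ) : ℝ) + 1 ≤ N := by exact_mod_cast b.2
  have hl' : (l : ℝ) + 1 ≤ n1 := by exact_mod_cast hl
  have hN0 : (0 : ℝ) ≤ N := Nat.cast_nonneg N
  have hH0 : (0 : ℝ) ≤ H := Nat.cast_nonneg H
  refine ⟨⟨?_, ?_⟩, hy, Or.inr ⟨(l : ℤ), ?_, ?_⟩⟩
  · have h1 := ht.1
    have : (0 : ℝ) ≤ 2 * (H : ℝ) * ((N : ℝ) * l + (b : ℕ)) := by positivity
    simp only
    linarith
  · have h2 := ht.2
    have h3 : (N : ℝ) * (l + 1) ≤ N * n1 := mul_le_mul_of_nonneg_left hl' hN0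
    have h4 : (H : ℝ) * (2 * ((N : ℝ) * l + (b : ℕ)) + 1) ≤ H * (2 * (N * n1)) := by
      apply mul_le_mul_of_nonneg_left _ hH0
      linarith
    simp only
    linarith
  · have h1 := ht.1
    simp only
    push_cast
    linarith
  · have h2 := ht.2
    simp only
    push_cast
    linarith

/-! ### sums -/

theorem sum_blocks (g : ℕ → ℝ) (N n : ℕ) :
    ∑ j ∈ Finset.range n, ∑ m ∈ Finset.range N, g (N * j + m) = ∑ i ∈ Finset.range (n * N), g i := by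
  induction n with
  | zero => simp
  | succ n ih =>
    rw [Finset.sum_range_succ, ih, Nat.succ_mul, Finset.sum_range_add]
    congr 1
    apply Finset.sum_congr rfl
    intro m _
    rw [mul_comm]

theorem chain_le {n : ℕ} (v : ℕ → EuclideanSpace ℝ (Fin n)) (A : EuclideanSpace ℝ (Fin n))
    (N : ℕ) (δ : ℝ)
    (h : ∑ m ∈ Finset.range N, ‖v (m + 1) - v m - (10000 : ℝ) • A‖ ^ 2 ≤ δ) (m1 m2 : ℕ)
    (h12 : m1 ≤ m2) (h2 : m2 ≤ N) :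
    ‖v m2 - v m1 - (10000 * ((m2 : ℝ) - m1)) • A‖ ^ 2 ≤ N * δ := by
  have htel : v m2 - v m1 - (10000 * ((m2 : ℝ) - m1)) • A =
      ∑ m ∈ Finset.Ico m1 m2, (v (m + 1) - v m - (10000 : ℝ) • A) := by
    rw [Finset.sum_sub_distrib, Finset.sum_Ico_sub v h12, Finset.sum_const, Nat.card_Ico,
      ← Nat.cast_smul_eq_nsmul ℝ, smul_smul, Nat.cast_sub h12, mul_comm]
  have h3 : ‖v m2 - v m1 - (10000 * ((m2 : ℝ) - m1)) • A‖ ≤
      ∑ m ∈ Finset.Ico m1 m2, ‖v (m + 1) - v m - (10000 : ℝ) • A‖ := by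
    rw [htel]; exact norm_sum_le _ _
  have h4 : (∑ m ∈ Finset.Ico m1 m2, ‖v (m + 1) - v m - (10000 : ℝ) • A‖) ^ 2 ≤
      (Finset.Ico m1 m2).card * ∑ m ∈ Finset.Ico m1 m2, ‖v (m + 1) - v m - (10000 : ℝ) • A‖ ^ 2 :=
    sq_sum_le_card_mul_sum_sq
  have h5 : ∑ m ∈ Finset.Ico m1 m2, ‖v (m + 1) - v m - (10000 : ℝ) • A‖ ^ 2 ≤
      ∑ m ∈ Finset.range N, ‖v (m + 1) - v m - (10000 : ℝ) • A‖ ^ 2 := by
    apply Finset.sum_le_sum_of_subset_of_nonneg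
    · intro m hm
      rw [Finset.mem_Ico] at hm
      rw [Finset.mem_range]
      omega
    · intros; positivity
  have h6 : ((Finset.Ico m1 m2).card : ℝ) ≤ N := by
    rw [Nat.card_Ico]
    exact_mod_cast (by omega : m2 - m1 ≤ N)
  calc ‖v m2 - v m1 - (10000 * ((m2 : ℝ) - m1)) • A‖ ^ 2
      ≤ (∑ m ∈ Finset.Ico m1 m2, ‖v (m + 1) - v m - (10000 : ℝ) • A‖) ^ 2 := by gcongr
    _ ≤ (Finset.Ico m1 m2).card *
        ∑ m ∈ Finset.Ico m1 m2, ‖v (m + 1) - v m - (10000 : ℝ) • A‖ ^ 2 := h4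
    _ ≤ N * δ := by
        apply mul_le_mul h6 (h5.trans h) (Finset.sum_nonneg (by intros; positivity))
          (Nat.cast_nonneg N)

/-- a continuous function on an interval takes a value at most its average -/
theorem exists_le_avg (h : ℝ → ℝ) (a L : ℝ) (hL : 0 < L) (hc : ContinuousOn h (Icc a (a + L)))
    (ε : ℝ) (hint : ∫ τ in a..(a + L), h τ ≤ ε) : ∃ τ ∈ Icc a (a + L), h τ ≤ ε / L := by
  obtain ⟨τ, hτ, hmin⟩ := isCompact_Icc.exists_isMinOn (nonempty_Icc.mpr (by linarith)) hc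
  refine ⟨τ, hτ, ?_⟩
  rw [le_div_iff₀ hL]
  have h1 : ∫ s in a..(a + L), h τ ≤ ∫ s in a..(a + L), h s := by
    apply intervalIntegral.integral_mono_on (by linarith) (by simp)
    · exact ContinuousOn.intervalIntegrable (by rwa [uIcc_of_le (by linarith)])
    · intro s hs
      exact hmin hs
  rw [intervalIntegral.integral_const, smul_eq_mul] at h1
  have : (a + L - a) * h τ = h τ * L := by ring
  linarith

theorem rect_sub {a b c d a' b' c' d' : ℝ} (h1 : a ≤ a') (h2 : b' ≤ b) (h3 : c ≤ c')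
    (h4 : d' ≤ d) : rect a' b' c' d' ⊆ rect a b c d :=
  Set.prod_mono (Icc_subset_Icc h1 h2) (Icc_subset_Icc h3 h4)

/-- one column -/
theorem col_est {n : ℕ} (γ : ℝ × ℝ → EuclideanSpace ℝ (Fin n)) (T y0 D M1 : ℝ) (hD : 0 < D)
    (hM1 : 0 ≤ M1)
    (hLip : ∀ z ∈ rect 0 T y0 (y0 + 5000), ∀ z' ∈ rect 0 T y0 (y0 + 5000),
      ‖γ z - γ z'‖ ≤ D * ‖z - z'‖)
    (hd : ∀ z ∈ interior (rect 0 T y0 (y0 + 5000)), DifferentiableAt ℝ γ z →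
      ‖fderiv ℝ γ z (1, 0)‖ ^ 2 ≤ M1) :
    ∀ t ∈ Icc (0 : ℝ) T, ∀ t' ∈ Icc (0 : ℝ) T, t ≤ t' →
      ‖γ (t', y0) - γ (t, y0)‖ ^ 2 ≤ (t' - t) ^ 2 * M1 := by
  intro t ht t' ht' htt
  rcases htt.eq_or_lt with h | h
  · subst h; simp
  have hsub : rect t t' y0 (y0 + 5000) ⊆ rect 0 T y0 (y0 + 5000) :=
    rect_sub ht.1 ht'.2 le_rfl le_rfl
  exact an1 γ t t' y0 (y0 + 5000) h (by linarith) D hD.le
    (fun z hz z' hz' => hLip z (hsub hz) z' (hsub hz')) M1 hM1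
    (fun z hz hdz => hd z (interior_mono hsub hz) hdz) y0 ⟨le_rfl, by linarith⟩

theorem inner_disp_le {n : ℕ} (A w : EuclideanSpace ℝ (Fin n)) (ℓ D D' : ℝ) (hA : ‖A‖ ≤ D)
    (hD' : 0 ≤ D') (hw : ‖w - ℓ • A‖ ≤ 2 * D') : ℓ * ‖A‖ ^ 2 - inner ℝ A w ≤ 2 * D * D' := by
  have h1 : ℓ * ‖A‖ ^ 2 - inner ℝ A w = - inner ℝ A (w - ℓ • A) := by
    rw [inner_sub_right, inner_smul_right, real_inner_self_eq_norm_sq]
    ring
  rw [h1]
  have h2 : |inner ℝ A (w - ℓ • A)| ≤ ‖A‖ * ‖w - ℓ • A‖ := abs_real_inner_le_norm _ _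
  have h3 : ‖A‖ * ‖w - ℓ • A‖ ≤ D * (2 * D') := mul_le_mul hA hw (norm_nonneg _)
    (le_trans (norm_nonneg _) hA)
  have h4 := neg_le_abs (inner ℝ A (w - ℓ • A) : ℝ)
  linarith

/-- choice of a good vertical line in a row -/
theorem row_line {n : ℕ} (γ : ℝ × ℝ → EuclideanSpace ℝ (Fin n)) (x0 H W D : ℝ) (hH : 0 < H)
    (hLip : ∀ z ∈ rect x0 (x0 + H) 0 W, ∀ z' ∈ rect x0 (x0 + H) 0 W,
      ‖γ z - γ z'‖ ≤ D * ‖z - z'‖)
    (A2 : EuclideanSpace ℝ (Fin n)) (q N : ℕ) (hq : 10000 * ((q + N : ℕ) : ℝ) ≤ W) (ε : ℝ)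
    (hint : ∑ m ∈ Finset.range N, ∫ τ in x0..(x0 + H),
      ‖γ (τ, 10000 * (((q + m : ℕ) : ℝ) + 1)) - γ (τ, 10000 * ((q + m : ℕ) : ℝ)) -
        (10000 : ℝ) • A2‖ ^ 2 ≤ ε) :
    ∃ τ ∈ Icc x0 (x0 + H), ∑ m ∈ Finset.range N,
      ‖γ (τ, 10000 * (((q + m : ℕ) : ℝ) + 1)) - γ (τ, 10000 * ((q + m : ℕ) : ℝ)) -
        (10000 : ℝ) • A2‖ ^ 2 ≤ ε / H := by
  have hcont : ∀ y ∈ Icc (0 : ℝ) W, ContinuousOn (fun τ => γ (τ, y)) (Icc x0 (x0 + H)) := by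
    intro y hy
    have hL : LipschitzOnWith (Real.toNNReal D) (fun τ => γ (τ, y)) (Icc x0 (x0 + H)) := by
      apply LipschitzOnWith.of_dist_le_mul
      intro s hs t ht
      rw [dist_eq_norm, dist_eq_norm]
      have h1 := hLip (s, y) ⟨hs, hy⟩ (t, y) ⟨ht, hy⟩
      have h2 : ‖((s, y) : ℝ × ℝ) - (t, y)‖ = ‖s - t‖ := by
        rw [Prod.mk_sub_mk, sub_self, Prod.norm_def]
        simp
      rw [h2] at h1
      refine h1.trans ?_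
      apply mul_le_mul_of_nonneg_right (Real.le_coe_toNNReal D) (norm_nonneg _)
    exact hL.continuousOn
  have hterm : ∀ m ∈ Finset.range N, ContinuousOn (fun τ =>
      ‖γ (τ, 10000 * (((q + m : ℕ) : ℝ) + 1)) - γ (τ, 10000 * ((q + m : ℕ) : ℝ)) -
        (10000 : ℝ) • A2‖ ^ 2) (Icc x0 (x0 + H)) := by
    intro m hm
    rw [Finset.mem_range] at hm
    have h1 : ((q + m : ℕ) : ℝ) + 1 ≤ ((q + N : ℕ) : ℝ) := by
      have : q + m + 1 ≤ q + N := by omega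
      exact_mod_cast this
    have h0 : (0 : ℝ) ≤ ((q + m : ℕ) : ℝ) := Nat.cast_nonneg _
    apply ContinuousOn.pow
    apply ContinuousOn.norm
    apply ContinuousOn.sub _ continuousOn_const
    exact (hcont _ ⟨by positivity, by linarith⟩).sub (hcont _ ⟨by positivity, by linarith⟩)
  apply exists_le_avg _ x0 H hH (continuousOn_finsetSum _ hterm)
  rw [intervalIntegral.integral_finsetSum]
  · exact hint
  · intro m hm
    apply ContinuousOn.intervalIntegrable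
    rw [uIcc_of_le (by linarith)]
    exact hterm m hm

theorem unit_lemma {n : ℕ} (N H n1 n2 : ℕ) (hN : 1 ≤ N) (hH : 1 ≤ H) (hn1 : 1 ≤ n1)
    (hn2 : 1 ≤ n2) (D D' c' θ g K : ℝ) (hD : 0 < D) (hD' : 0 < D') (hc' : 0 < c')
    (hθ : 0 ≤ θ) (hg : 0 ≤ g) (hK : 0 ≤ K)
    (A1 A2 : EuclideanSpace ℝ (Fin n)) (hA1 : ‖A1‖ ≤ D) (hA2 : ‖A2‖ ≤ D)
    (γ : Fin N → ℝ × ℝ → EuclideanSpace ℝ (Fin n))
    (hLip : ∀ b : Fin N, ∀ z ∈ PP H N (n1 * (2 * H * N)) (n2 * (10000 * N)) b,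
      ∀ z' ∈ PP H N (n1 * (2 * H * N)) (n2 * (10000 * N)) b, ‖γ b z - γ b z'‖ ≤ D * ‖z - z'‖)
    (hclose : ∀ b : Fin N, ∀ z ∈ PP H N (n1 * (2 * H * N)) (n2 * (10000 * N)) b,
      ‖γ b z - (z.1 • A1 + z.2 • A2)‖ ≤ D')
    (hsep : ∀ b b' : Fin N, b ≠ b' → ∀ z ∈ PP H N (n1 * (2 * H * N)) (n2 * (10000 * N)) b,
      z ∈ PP H N (n1 * (2 * H * N)) (n2 * (10000 * N)) b' → c' ≤ ‖γ b z - γ b' z‖)
    (hd1 : ∀ b : Fin N, ∀ z ∈ interior (PP H N (n1 * (2 * H * N)) (n2 * (10000 * N)) b),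
      DifferentiableAt ℝ (γ b) z → ‖fderiv ℝ (γ b) z (1, 0)‖ ^ 2 ≤ ‖A1‖ ^ 2 + θ)
    (hd2 : ∀ b : Fin N, ∀ z ∈ interior (PP H N (n1 * (2 * H * N)) (n2 * (10000 * N)) b),
      DifferentiableAt ℝ (γ b) z →
      K * ‖fderiv ℝ (γ b) z (1, 0)‖ ^ 2 + ‖fderiv ℝ (γ b) z (0, 1)‖ ^ 2 ≤
        K * ‖A1‖ ^ 2 + ‖A2‖ ^ 2 + g)
    (hpar : (N : ℝ) * ((2 * D * D' / n1 + (2 * H * N) * θ / 2) * (32 * (2 * H * N) / c' ^ 2) +
      160000 * N / c' ^ 2 * (g * (10000 * N) + 4 * K * D * D' * (10000 * N) / H +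
        4 * D * D' / n2)) < 1) :
    ∃ u : Fin N → EuclideanSpace ℝ (Fin n), (∀ b, ‖u b‖ ≤ D') ∧
      ∀ b b', b ≠ b' → c' / 2 ≤ ‖u b - u b'‖ := by
  have hNR : (0 : ℝ) < N := by exact_mod_cast hN
  have hHR : (0 : ℝ) < H := by exact_mod_cast hH
  have hn1R : (0 : ℝ) < n1 := by exact_mod_cast hn1
  have hn2R : (0 : ℝ) < n2 := by exact_mod_cast hn2
  obtain ⟨T', hT'⟩ : ∃ T' : ℝ, T' = 2 * H * N := ⟨_, rfl⟩
  obtain ⟨W', hW'⟩ : ∃ W' : ℝ, W' = 10000 * N := ⟨_, rfl⟩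
  rw [← hT', ← hW'] at hLip hclose hsep hd1 hd2 hpar
  have hT'0 : 0 < T' := by rw [hT']; positivity
  have hW'0 : 0 < W' := by rw [hW']; positivity
  have hcol : ∀ (b : Fin N) (j : ℕ), j < n2 → ∀ t y : ℝ, t ∈ Icc (0 : ℝ) (n1 * T') →
      y ∈ Icc (10000 * ((N : ℝ) * j + (b : ℕ))) (10000 * ((N : ℝ) * j + (b : ℕ)) + 5000) →
      (t, y) ∈ PP H N (n1 * T') (n2 * W') b := by
    intro b j hj t y ht hy
    rw [hT', hW'] at *
    exact col_mem N H n1 n2 b j hj t y ht hy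
  have hrow : ∀ (b : Fin N) (l : ℕ), l < n1 → ∀ t y : ℝ,
      t ∈ Icc (2 * (H : ℝ) * ((N : ℝ) * l + (b : ℕ)))
        (2 * (H : ℝ) * ((N : ℝ) * l + (b : ℕ)) + H) → y ∈ Icc (0 : ℝ) (n2 * W') →
      (t, y) ∈ PP H N (n1 * T') (n2 * W') b := by
    intro b l hl t y ht hy
    rw [hT', hW'] at *
    exact row_mem N H n1 n2 b l hl t y ht hy
  -- columns
  have hw : ∀ (b : Fin N) (j : ℕ), j < n2 → ∀ t ∈ Icc (0 : ℝ) (n1 * T'),
      ∀ t' ∈ Icc (0 : ℝ) (n1 * T'), t ≤ t' →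
      ‖γ b (t', 10000 * ((N : ℝ) * j + (b : ℕ))) - γ b (t, 10000 * ((N : ℝ) * j + (b : ℕ)))‖ ^ 2 ≤
        (t' - t) ^ 2 * (‖A1‖ ^ 2 + θ) := by
    intro b j hj
    have hsub : rect 0 (n1 * T') (10000 * ((N : ℝ) * j + (b : ℕ)))
        (10000 * ((N : ℝ) * j + (b : ℕ)) + 5000) ⊆ PP H N (n1 * T') (n2 * W') b := by
      rintro ⟨t, y⟩ ⟨h1, h2⟩
      exact hcol b j hj t y h1 h2
    exact col_est (γ b) _ _ D _ hD (by positivity)
      (fun z hz z' hz' => hLip b z (hsub hz) z' (hsub hz'))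
      (fun z hz hdz => hd1 b z (interior_mono hsub hz) hdz)
  obtain ⟨α, hαdef⟩ : ∃ α : Fin N → ℕ → ℕ → ℝ, ∀ b l j, α b l j = T' * θ / 2 +
      (T' * ‖A1‖ ^ 2 - inner ℝ A1 (γ b (((l + 1 : ℕ) : ℝ) * T', 10000 * ((N : ℝ) * j + (b : ℕ))) -
        γ b ((l : ℝ) * T', 10000 * ((N : ℝ) * j + (b : ℕ))))) := ⟨_, fun _ _ _ => rfl⟩
  have hblock : ∀ l : ℕ, l < n1 → (l : ℝ) * T' ∈ Icc (0 : ℝ) (n1 * T') ∧
      ((l + 1 : ℕ) : ℝ) * T' ∈ Icc (0 : ℝ) (n1 * T') := by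
    intro l hl
    have h1 : (l : ℝ) ≤ n1 := by exact_mod_cast hl.le
    have h2 : ((l + 1 : ℕ) : ℝ) ≤ n1 := by exact_mod_cast hl
    exact ⟨⟨by positivity, mul_le_mul_of_nonneg_right h1 hT'0.le⟩,
      ⟨by positivity, mul_le_mul_of_nonneg_right h2 hT'0.le⟩⟩
  have hα0 : ∀ b l j, l < n1 → j < n2 → 0 ≤ α b l j := by
    intro b l j hl hj
    obtain ⟨h1, h2⟩ := hblock l hl
    have h3 : (l : ℝ) * T' < ((l + 1 : ℕ) : ℝ) * T' := by push_cast; linarith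
    have h4 := u1_nonneg (fun t => γ b (t, 10000 * ((N : ℝ) * j + (b : ℕ)))) A1 θ _ _ h3
      (hw b j hj _ h1 _ h2 h3.le)
    have h5 : ((l + 1 : ℕ) : ℝ) * T' - (l : ℝ) * T' = T' := by push_cast; ring
    rw [h5] at h4
    rw [hαdef]
    linarith
  have hαsum : ∀ b, ∀ j < n2, ∑ l ∈ Finset.range n1, α b l j ≤
      2 * D * D' + n1 * (T' * θ / 2) := by
    intro b j hj
    have h1 : ∑ l ∈ Finset.range n1, α b l j = n1 * (T' * θ / 2) + (n1 * T' * ‖A1‖ ^ 2 -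
        inner ℝ A1 (γ b ((n1 : ℝ) * T', 10000 * ((N : ℝ) * j + (b : ℕ))) -
          γ b (((0 : ℕ) : ℝ) * T', 10000 * ((N : ℝ) * j + (b : ℕ))))) := by
      simp_rw [hαdef]
      rw [Finset.sum_add_distrib, Finset.sum_sub_distrib, Finset.sum_const, Finset.sum_const,
        Finset.card_range, ← inner_sum,
        Finset.sum_range_sub (fun l : ℕ => γ b ((l : ℝ) * T', 10000 * ((N : ℝ) * j + (b : ℕ)))) n1]
      simp only [nsmul_eq_mul]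
      ring
    rw [h1]
    have h2 : (n1 : ℝ) * T' ∈ Icc (0 : ℝ) (n1 * T') := ⟨by positivity, le_rfl⟩
    have h3 : ((0 : ℕ) : ℝ) * T' ∈ Icc (0 : ℝ) (n1 * T') := ⟨by simp, by simp; positivity⟩
    have hy : (10000 * ((N : ℝ) * j + (b : ℕ))) ∈ Icc (10000 * ((N : ℝ) * j + (b : ℕ)))
        (10000 * ((N : ℝ) * j + (b : ℕ)) + 5000) := ⟨le_rfl, by linarith⟩
    have h4 := hclose b _ (hcol b j hj _ _ h2 hy)
    have h5 := hclose b _ (hcol b j hj _ _ h3 hy)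
    have h6 := inner_disp_le A1 (γ b ((n1 : ℝ) * T', 10000 * ((N : ℝ) * j + (b : ℕ))) -
          γ b (((0 : ℕ) : ℝ) * T', 10000 * ((N : ℝ) * j + (b : ℕ)))) (n1 * T') D D' hA1 hD'.le (by
        have h7 := norm_sub_le (γ b ((n1 : ℝ) * T', 10000 * ((N : ℝ) * j + (b : ℕ))) -
          (((n1 : ℝ) * T') • A1 + (10000 * ((N : ℝ) * j + (b : ℕ))) • A2))
          (γ b (((0 : ℕ) : ℝ) * T', 10000 * ((N : ℝ) * j + (b : ℕ))) -
          ((((0 : ℕ) : ℝ) * T') • A1 + (10000 * ((N : ℝ) * j + (b : ℕ))) • A2))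
        have h8 : γ b ((n1 : ℝ) * T', 10000 * ((N : ℝ) * j + (b : ℕ))) -
          γ b (((0 : ℕ) : ℝ) * T', 10000 * ((N : ℝ) * j + (b : ℕ))) - ((n1 : ℝ) * T') • A1 =
          (γ b ((n1 : ℝ) * T', 10000 * ((N : ℝ) * j + (b : ℕ))) -
          (((n1 : ℝ) * T') • A1 + (10000 * ((N : ℝ) * j + (b : ℕ))) • A2)) -
          (γ b (((0 : ℕ) : ℝ) * T', 10000 * ((N : ℝ) * j + (b : ℕ))) -
          ((((0 : ℕ) : ℝ) * T') • A1 + (10000 * ((N : ℝ) * j + (b : ℕ))) • A2)) := by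
          simp only [Nat.cast_zero, zero_mul, zero_smul]
          abel
        rw [h8]
        linarith)
    rw [add_comm]
    exact add_le_add h6 le_rfl
  -- rows
  obtain ⟨F, hFdef⟩ : ∃ F : Fin N → ℕ → ℕ → ℝ, ∀ b l j, F b l j =
      ∑ m ∈ Finset.range N, ∫ τ in (2 * (H : ℝ) * ((N : ℝ) * l + (b : ℕ)))..(2 * (H : ℝ) *
        ((N : ℝ) * l + (b : ℕ)) + H),
        ‖γ b (τ, 10000 * (((N * j + m : ℕ) : ℝ) + 1)) - γ b (τ, 10000 * ((N * j + m : ℕ) : ℝ)) -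
          (10000 : ℝ) • A2‖ ^ 2 := ⟨_, fun _ _ _ => rfl⟩
  have hF0 : ∀ b l j, l < n1 → j < n2 → 0 ≤ F b l j := by
    intro b l j _ _
    rw [hFdef]
    apply Finset.sum_nonneg
    intro m _
    apply intervalIntegral.integral_nonneg (by linarith)
    intro τ _
    positivity
  have hrsub : ∀ (b : Fin N) (l : ℕ), l < n1 →
      rect (2 * (H : ℝ) * ((N : ℝ) * l + (b : ℕ))) (2 * (H : ℝ) * ((N : ℝ) * l + (b : ℕ)) + H) 0
        (10000 * ((n2 * N : ℕ) : ℝ)) ⊆ PP H N (n1 * T') (n2 * W') b := by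
    rintro b l hl ⟨t, y⟩ ⟨h1, h2⟩
    refine hrow b l hl t y h1 ⟨h2.1, ?_⟩
    have h3 := h2.2
    rw [hW']
    push_cast at h3
    linarith
  have hFsum : ∀ b, ∀ l < n1, ∑ j ∈ Finset.range n2, F b l j ≤
      10000 * (g * H * (n2 * W') + 4 * K * D * D' * (n2 * W') + 4 * D * D' * H) := by
    intro b l hl
    have h1 : ∑ j ∈ Finset.range n2, F b l j = ∑ i ∈ Finset.range (n2 * N),
        ∫ τ in (2 * (H : ℝ) * ((N : ℝ) * l + (b : ℕ)))..(2 * (H : ℝ) *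
        ((N : ℝ) * l + (b : ℕ)) + H),
        ‖γ b (τ, 10000 * ((i : ℝ) + 1)) - γ b (τ, 10000 * (i : ℝ)) - (10000 : ℝ) • A2‖ ^ 2 := by
      rw [← sum_blocks (fun i : ℕ => ∫ τ in (2 * (H : ℝ) * ((N : ℝ) * l + (b : ℕ)))..(2 * (H : ℝ) *
        ((N : ℝ) * l + (b : ℕ)) + H),
        ‖γ b (τ, 10000 * ((i : ℝ) + 1)) - γ b (τ, 10000 * (i : ℝ)) - (10000 : ℝ) • A2‖ ^ 2) N n2]
      apply Finset.sum_congr rfl
      intro j _
      rw [hFdef]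
    rw [h1]
    have h2 := u2_row (γ b) (2 * (H : ℝ) * ((N : ℝ) * l + (b : ℕ))) H hHR (n2 * N) D D' hD hD'
      (fun z hz z' hz' => hLip b z (hrsub b l hl hz) z' (hrsub b l hl hz')) A1 A2 hA1 hA2
      (fun z hz => hclose b z (hrsub b l hl hz)) K g hK hg
      (fun z hz hdz => hd2 b z (interior_mono (hrsub b l hl) hz) hdz)
    have h3 : (10000 : ℝ) * ((n2 * N : ℕ) : ℝ) = n2 * W' := by rw [hW']; push_cast; ring
    rw [h3] at h2
    exact h2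
  -- choice of a block
  obtain ⟨l, hl, j, hj, hblk⟩ := pigeon N n1 n2 hn1 hn2 α F hα0 hF0 (c' ^ 2 / (32 * T'))
    (c' ^ 2 * H / (16 * N)) (2 * D * D' + n1 * (T' * θ / 2))
    (10000 * (g * H * (n2 * W') + 4 * K * D * D' * (n2 * W') + 4 * D * D' * H))
    (by positivity) (by positivity) hαsum hFsum (by
      refine lt_of_eq_of_lt ?_ hpar
      field_simp
      ring)
  -- the row lines
  have hex : ∀ b : Fin N, ∃ τ ∈ Icc (2 * (H : ℝ) * ((N : ℝ) * l + (b : ℕ)))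
      (2 * (H : ℝ) * ((N : ℝ) * l + (b : ℕ)) + H), ∑ m ∈ Finset.range N,
        ‖γ b (τ, 10000 * (((N * j + m : ℕ) : ℝ) + 1)) - γ b (τ, 10000 * ((N * j + m : ℕ) : ℝ)) -
          (10000 : ℝ) • A2‖ ^ 2 ≤ c' ^ 2 / (16 * N) := by
    intro b
    have hW2 : 10000 * ((N * j + N : ℕ) : ℝ) ≤ n2 * W' := by
      rw [hW']
      have h1 : ((N * j + N : ℕ) : ℝ) ≤ ((n2 * N : ℕ) : ℝ) := by
        have h2 : N * j + N ≤ n2 * N := by nlinarith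
        exact_mod_cast h2
      push_cast at h1 ⊢
      linarith
    have h3 : (10000 : ℝ) * ((n2 * N : ℕ) : ℝ) = n2 * W' := by rw [hW']; push_cast; ring
    have hsub := hrsub b l hl
    rw [h3] at hsub
    have h4 := (hblk b).2
    rw [hFdef] at h4
    obtain ⟨τ, hτ, hle⟩ := row_line (γ b) (2 * (H : ℝ) * ((N : ℝ) * l + (b : ℕ))) H (n2 * W') D
      hHR (fun z hz z' hz' => hLip b z (hsub hz) z' (hsub hz')) A2 (N * j) N hW2 _ h4
    refine ⟨τ, hτ, hle.trans (le_of_eq ?_)⟩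
    field_simp
  choose tt htt hte using hex
  -- the points
  have hlT : ∀ b : Fin N, tt b ∈ Icc ((l : ℝ) * T') (((l + 1 : ℕ) : ℝ) * T') := by
    intro b
    have hb : ((b : ℕ) : ℝ) + 1 ≤ N := by exact_mod_cast b.2
    have hb0 : (0 : ℝ) ≤ ((b : ℕ) : ℝ) := Nat.cast_nonneg _
    constructor
    · have h1 := (htt b).1
      rw [hT']
      have h2 : (0 : ℝ) ≤ 2 * H * ((b : ℕ) : ℝ) := by positivity
      nlinarith
    · have h1 := (htt b).2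
      rw [hT']
      push_cast
      have h2 : (H : ℝ) * (((b : ℕ) : ℝ) + 1) ≤ H * N := mul_le_mul_of_nonneg_left hb hHR.le
      nlinarith
  have hlT0 : ∀ b : Fin N, tt b ∈ Icc (0 : ℝ) (n1 * T') := by
    intro b
    obtain ⟨h1, h2⟩ := hblock l hl
    exact ⟨h1.1.trans (hlT b).1, (hlT b).2.trans h2.2⟩
  have hyW : ∀ b : Fin N, 10000 * ((N : ℝ) * j + (b : ℕ)) ∈ Icc (0 : ℝ) (n2 * W') := by
    intro b
    have := hcol b j hj 0 (10000 * ((N : ℝ) * j + (b : ℕ))) ⟨le_rfl, by positivity⟩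
      ⟨le_rfl, by linarith⟩
    exact this.2.1
  have hPb : ∀ b b' : Fin N, (tt b, 10000 * ((N : ℝ) * j + (b' : ℕ))) ∈
      PP H N (n1 * T') (n2 * W') b := fun b b' => hrow b l hl _ _ (htt b) (hyW b')
  have hPb' : ∀ b b' : Fin N, (tt b, 10000 * ((N : ℝ) * j + (b' : ℕ))) ∈
      PP H N (n1 * T') (n2 * W') b' := fun b b' =>
    hcol b' j hj _ _ (hlT0 b) ⟨le_rfl, by linarith⟩
  refine ⟨fun b => γ b (tt b, 10000 * ((N : ℝ) * j + (b : ℕ))) -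
    (tt b • A1 + (10000 * ((N : ℝ) * j + (b : ℕ))) • A2), fun b => hclose b _ (hPb b b), ?_⟩
  intro b b' hbb
  have hs := hsep b b' hbb _ (hPb b b') (hPb' b b')
  -- row comparison
  have hr : ‖γ b (tt b, 10000 * ((N : ℝ) * j + (b' : ℕ))) -
      γ b (tt b, 10000 * ((N : ℝ) * j + (b : ℕ))) -
      (10000 * (((b' : ℕ) : ℝ) - (b : ℕ))) • A2‖ ≤ c' / 4 := by
    have hv : ∑ m ∈ Finset.range N, ‖γ b (tt b, 10000 * ((N : ℝ) * j + ((m + 1 : ℕ) : ℝ))) -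
        γ b (tt b, 10000 * ((N : ℝ) * j + (m : ℝ))) - (10000 : ℝ) • A2‖ ^ 2 ≤
        c' ^ 2 / (16 * N) := by
      refine le_trans (le_of_eq ?_) (hte b)
      apply Finset.sum_congr rfl
      intro m _
      push_cast
      rw [add_assoc]
    have hsq : N * (c' ^ 2 / (16 * N)) = (c' / 4) ^ 2 := by field_simp; ring
    rcases le_total (b : ℕ) (b' : ℕ) with h | h
    · have h1 := chain_le (fun m : ℕ => γ b (tt b, 10000 * ((N : ℝ) * j + (m : ℝ)))) A2 N _ hv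
        b b' h b'.2.le
      rw [hsq] at h1
      exact abs_le_of_sq_le_sq' h1 (by positivity) |>.2
    · have h1 := chain_le (fun m : ℕ => γ b (tt b, 10000 * ((N : ℝ) * j + (m : ℝ)))) A2 N _ hv
        b' b h b.2.le
      rw [hsq] at h1
      have h2 := abs_le_of_sq_le_sq' h1 (by positivity) |>.2
      have h3 : γ b (tt b, 10000 * ((N : ℝ) * j + (b' : ℕ))) -
        γ b (tt b, 10000 * ((N : ℝ) * j + (b : ℕ))) -
        (10000 * (((b' : ℕ) : ℝ) - (b : ℕ))) • A2 =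
        -(γ b (tt b, 10000 * ((N : ℝ) * j + (b : ℕ))) -
          γ b (tt b, 10000 * ((N : ℝ) * j + (b' : ℕ))) -
        (10000 * (((b : ℕ) : ℝ) - (b' : ℕ))) • A2) := by
        have h4 : (10000 * (((b : ℕ) : ℝ) - (b' : ℕ))) = -(10000 * (((b' : ℕ) : ℝ) - (b : ℕ))) := by
          ring
        rw [h4, neg_smul]
        abel
      rw [h3, norm_neg]
      exact h2
  -- column comparison
  have hcl : ‖γ b' (tt b, 10000 * ((N : ℝ) * j + (b' : ℕ))) -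
      γ b' (tt b', 10000 * ((N : ℝ) * j + (b' : ℕ))) - (tt b - tt b') • A1‖ ≤ c' / 4 := by
    obtain ⟨hl1, hl2⟩ := hblock l hl
    have h1 := u1_block (fun t => γ b' (t, 10000 * ((N : ℝ) * j + (b' : ℕ)))) A1 θ hθ
      ((l : ℝ) * T') (((l + 1 : ℕ) : ℝ) * T') (fun t ht t' ht' htt' => hw b' j hj t
        ⟨hl1.1.trans ht.1, ht.2.trans hl2.2⟩ t' ⟨hl1.1.trans ht'.1, ht'.2.trans hl2.2⟩ htt')
      (tt b') (tt b) (hlT b') (hlT b)
    have h5 : ((l + 1 : ℕ) : ℝ) * T' - (l : ℝ) * T' = T' := by push_cast; ring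
    rw [h5] at h1
    have h6 := (hblk b').1
    rw [hαdef] at h6
    have h7 : T' * (T' * θ + 2 * (T' * ‖A1‖ ^ 2 - inner ℝ A1
        (γ b' (((l + 1 : ℕ) : ℝ) * T', 10000 * ((N : ℝ) * j + (b' : ℕ))) -
        γ b' ((l : ℝ) * T', 10000 * ((N : ℝ) * j + (b' : ℕ)))))) ≤ (c' / 4) ^ 2 := by
      have h8 : T' * θ + 2 * (T' * ‖A1‖ ^ 2 - inner ℝ A1
        (γ b' (((l + 1 : ℕ) : ℝ) * T', 10000 * ((N : ℝ) * j + (b' : ℕ))) -
        γ b' ((l : ℝ) * T', 10000 * ((N : ℝ) * j + (b' : ℕ))))) ≤ 2 * (c' ^ 2 / (32 * T')) := by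
        linarith
      have h9 := mul_le_mul_of_nonneg_left h8 hT'0.le
      refine h9.trans (le_of_eq ?_)
      field_simp
      ring
    exact abs_le_of_sq_le_sq' (h1.trans h7) (by positivity) |>.2
  have hkey : γ b (tt b, 10000 * ((N : ℝ) * j + (b' : ℕ))) -
      γ b' (tt b, 10000 * ((N : ℝ) * j + (b' : ℕ))) =
      ((γ b (tt b, 10000 * ((N : ℝ) * j + (b : ℕ))) -
        (tt b • A1 + (10000 * ((N : ℝ) * j + (b : ℕ))) • A2)) -
      (γ b' (tt b', 10000 * ((N : ℝ) * j + (b' : ℕ))) -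
        (tt b' • A1 + (10000 * ((N : ℝ) * j + (b' : ℕ))) • A2))) +
      (γ b (tt b, 10000 * ((N : ℝ) * j + (b' : ℕ))) -
      γ b (tt b, 10000 * ((N : ℝ) * j + (b : ℕ))) -
      (10000 * (((b' : ℕ) : ℝ) - (b : ℕ))) • A2) -
      (γ b' (tt b, 10000 * ((N : ℝ) * j + (b' : ℕ))) -
      γ b' (tt b', 10000 * ((N : ℝ) * j + (b' : ℕ))) - (tt b - tt b') • A1) := by
    have h1 : 10000 * (((b' : ℕ) : ℝ) - (b : ℕ)) = 10000 * ((N : ℝ) * j + (b' : ℕ)) -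
      10000 * ((N : ℝ) * j + (b : ℕ)) := by ring
    rw [h1, sub_smul, sub_smul]
    abel
  rw [hkey] at hs
  have h10 := norm_sub_le (((γ b (tt b, 10000 * ((N : ℝ) * j + (b : ℕ))) -
        (tt b • A1 + (10000 * ((N : ℝ) * j + (b : ℕ))) • A2)) -
      (γ b' (tt b', 10000 * ((N : ℝ) * j + (b' : ℕ))) -
        (tt b' • A1 + (10000 * ((N : ℝ) * j + (b' : ℕ))) • A2))) +
      (γ b (tt b, 10000 * ((N : ℝ) * j + (b' : ℕ))) -
      γ b (tt b, 10000 * ((N : ℝ) * j + (b : ℕ))) -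
      (10000 * (((b' : ℕ) : ℝ) - (b : ℕ))) • A2))
      (γ b' (tt b, 10000 * ((N : ℝ) * j + (b' : ℕ))) -
      γ b' (tt b', 10000 * ((N : ℝ) * j + (b' : ℕ))) - (tt b - tt b') • A1)
  have h11 := norm_add_le ((γ b (tt b, 10000 * ((N : ℝ) * j + (b : ℕ))) -
        (tt b • A1 + (10000 * ((N : ℝ) * j + (b : ℕ))) • A2)) -
      (γ b' (tt b', 10000 * ((N : ℝ) * j + (b' : ℕ))) -
        (tt b' • A1 + (10000 * ((N : ℝ) * j + (b' : ℕ))) • A2)))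
      (γ b (tt b, 10000 * ((N : ℝ) * j + (b' : ℕ))) -
      γ b (tt b, 10000 * ((N : ℝ) * j + (b : ℕ))) -
      (10000 * (((b' : ℕ) : ℝ) - (b : ℕ))) • A2)
  show c' / 2 ≤ ‖(γ b (tt b, 10000 * ((N : ℝ) * j + (b : ℕ))) -
        (tt b • A1 + (10000 * ((N : ℝ) * j + (b : ℕ))) • A2)) -
      (γ b' (tt b', 10000 * ((N : ℝ) * j + (b' : ℕ))) -
        (tt b' • A1 + (10000 * ((N : ℝ) * j + (b' : ℕ))) • A2))‖
  linarith

end Crest.Agent.LP
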