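import Crest.Agent.LP_Defs

set_option autoImplicit false

namespace Crest.Agent.LP

open Set MeasureTheory

/-- choice of parameters -/
theorem param (N : ℕ) (hN : 1 ≤ N) (D D' c' : ℝ) (hD : 0 < D) (hD' : 0 < D') (hc' : 0 < c') :
    ∃ g > 0, ∀ K : ℝ, 0 ≤ K → ∃ H : ℕ, 5000 ≤ H ∧ ∃ θ > 0, ∃ n1 n2 : ℕ, 1 ≤ n1 ∧ 1 ≤ n2 ∧
      (N : ℝ) * ((2 * D * D' / n1 + (2 * H * N) * θ / 2) * (32 * (2 * H * N) / c' ^ 2) +
      160000 * N / c' ^ 2 * (g * (10000 * N) + 4 * K * D * D' * (10000 * N) / H +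
        4 * D * D' / n2)) < 1 := by
  have hNR : (0 : ℝ) < N := by exact_mod_cast hN
  -- the constant in front of the row part
  obtain ⟨P, hP, hPpos⟩ : ∃ P : ℝ, P = 160000 * N / c' ^ 2 ∧ 0 < P := ⟨_, rfl, by positivity⟩
  rw [← hP]
  refine ⟨1 / (6 * N * P * (10000 * N)), by positivity, ?_⟩
  intro K hK
  obtain ⟨H, hH⟩ := exists_nat_gt (max 5000 (6 * N * P * (4 * K * D * D' * (10000 * N))))
  have hH1 : (5000 : ℝ) < H := lt_of_le_of_lt (le_max_left _ _) hH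
  have hH2 : 6 * N * P * (4 * K * D * D' * (10000 * N)) < H := lt_of_le_of_lt (le_max_right _ _) hH
  have hHR : (0 : ℝ) < H := by linarith
  refine ⟨H, by exact_mod_cast hH1.le, ?_⟩
  obtain ⟨Q, hQ, hQpos⟩ : ∃ Q : ℝ, Q = 32 * (2 * H * N) / c' ^ 2 ∧ 0 < Q := ⟨_, rfl, by positivity⟩
  rw [← hQ]
  refine ⟨1 / (6 * N * Q * (H * N)), by positivity, ?_⟩
  obtain ⟨n1, hn1⟩ := exists_nat_gt (max 1 (6 * N * Q * (2 * D * D')))
  obtain ⟨n2, hn2⟩ := exists_nat_gt (max 1 (6 * N * P * (4 * D * D')))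
  have h11 : (1 : ℝ) < n1 := lt_of_le_of_lt (le_max_left _ _) hn1
  have h12 : 6 * N * Q * (2 * D * D') < n1 := lt_of_le_of_lt (le_max_right _ _) hn1
  have h21 : (1 : ℝ) < n2 := lt_of_le_of_lt (le_max_left _ _) hn2
  have h22 : 6 * N * P * (4 * D * D') < n2 := lt_of_le_of_lt (le_max_right _ _) hn2
  have hn1R : (0 : ℝ) < n1 := by linarith
  have hn2R : (0 : ℝ) < n2 := by linarith
  refine ⟨n1, n2, by exact_mod_cast h11.le, by exact_mod_cast h21.le, ?_⟩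
  have e1 : (N : ℝ) * Q * (2 * D * D' / n1) < 1 / 6 := by
    rw [mul_div_assoc', div_lt_iff₀ hn1R]
    linarith
  have e2 : (N : ℝ) * Q * ((2 * H * N) * (1 / (6 * N * Q * (H * N))) / 2) = 1 / 6 := by
    field_simp
  have e3 : (N : ℝ) * P * (1 / (6 * N * P * (10000 * N)) * (10000 * N)) = 1 / 6 := by
    field_simp
  have e4 : (N : ℝ) * P * (4 * K * D * D' * (10000 * N) / H) < 1 / 6 := by
    rw [mul_div_assoc', div_lt_iff₀ hHR]
    linarith
  have e5 : (N : ℝ) * P * (4 * D * D' / n2) < 1 / 6 := by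
    rw [mul_div_assoc', div_lt_iff₀ hn2R]
    linarith
  have e6 : (N : ℝ) * ((2 * D * D' / n1 + (2 * H * N) * (1 / (6 * N * Q * (H * N))) / 2) * Q +
      P * (1 / (6 * N * P * (10000 * N)) * (10000 * N) + 4 * K * D * D' * (10000 * N) / H +
        4 * D * D' / n2)) =
      (N : ℝ) * Q * (2 * D * D' / n1) +
      (N : ℝ) * Q * ((2 * H * N) * (1 / (6 * N * Q * (H * N))) / 2) +
      (N : ℝ) * P * (1 / (6 * N * P * (10000 * N)) * (10000 * N)) +
      (N : ℝ) * P * (4 * K * D * D' * (10000 * N) / H) +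
      (N : ℝ) * P * (4 * D * D' / n2) := by ring
  rw [e6, e2, e3]
  linarith

end Crest.Agent.LP
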