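import Crest.Agent.LP_Defs

/-!
S0392, LP-T7: `packing`
-/

set_option autoImplicit false

namespace Crest.Agent.LP

open Set MeasureTheory

theorem packing (n : ℕ) (R δ : ℝ) (hδ : 0 < δ) :
    ∃ M : ℕ, ∀ (N : ℕ) (u : Fin N → EuclideanSpace ℝ (Fin n)), (∀ b, ‖u b‖ ≤ R) →
      (∀ b b', b ≠ b' → δ ≤ ‖u b - u b'‖) → N ≤ M := by
  have htb : TotallyBounded (Metric.closedBall (0 : EuclideanSpace ℝ (Fin n)) R) :=
    (isCompact_closedBall 0 R).totallyBounded
  obtain ⟨t, ht, hcov⟩ := Metric.totallyBounded_iff.1 htb (δ / 2) (by positivity)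
  refine ⟨ht.toFinset.card, fun N u hu hsep => ?_⟩
  have hex : ∀ b : Fin N, ∃ c ∈ t, u b ∈ Metric.ball c (δ / 2) := by
    intro b
    have hb : u b ∈ Metric.closedBall (0 : EuclideanSpace ℝ (Fin n)) R := by
      rw [mem_closedBall_zero_iff]; exact hu b
    have := hcov hb
    simpa using this
  choose c hc hcb using hex
  have hinj : Function.Injective c := by
    intro b b' h
    by_contra hne
    have h1 := hsep b b' hne
    have h2 := hcb b
    have h3 := hcb b'
    rw [Metric.mem_ball] at h2 h3
    rw [← h] at h3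
    have h4 := dist_triangle_right (u b) (u b') (c b)
    rw [dist_eq_norm] at h4
    linarith
  have h1 : (Finset.univ.image c).card = N := by
    rw [Finset.card_image_of_injective _ hinj, Finset.card_univ, Fintype.card_fin]
  rw [← h1]
  apply Finset.card_le_card
  intro x hx
  obtain ⟨b, -, rfl⟩ := Finset.mem_image.1 hx
  exact ht.mem_toFinset.2 (hc b)

end Crest.Agent.LP
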