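import Crest.Agent.LP_Defs
import Mathlib

set_option autoImplicit false

namespace Crest.Agent.LP

open Set MeasureTheory

section T8b
variable {B : Type*} [NormedAddCommGroup B] [NormedSpace ℝ B] [CompleteSpace B]
variable {n : ℕ}

private theorem rr_pos' (j : ℕ) : 0 < rr j := by
  unfold rr; positivity

private theorem summable_pt8 (S : Sys B) (a : ℕ → ℕ) : Summable (fun j => rr j • S.u (a j)) := by
  have h1 : Summable (fun j => rr j) := by
    unfold rr
    exact summable_geometric_of_lt_one (by norm_num) (by norm_num)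
  refine Summable.of_norm_bounded h1 ?_
  intro j
  rw [norm_smul, Real.norm_of_nonneg (rr_pos' j).le]
  calc rr j * ‖S.u (a j)‖ ≤ rr j * 1 := by
        exact mul_le_mul_of_nonneg_left (S.u_le _) (rr_pos' j).le
    _ = rr j := mul_one _

private theorem exists_gen8 (N H j₀ : ℕ) (hN : 1 ≤ N) (hH : 5000 ≤ H) :
    ∃ j ≥ j₀, NN j = N ∧ HH j = H := by
  refine ⟨Nat.pair (Nat.pair (N - 1) (H - 5000)) j₀, Nat.right_le_pair _ _, ?_, ?_⟩
  · simp only [NN, Nat.unpair_pair]; omega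
  · simp only [HH, Nat.unpair_pair]; omega

private theorem strip_shift8 (H N b : ℕ) (k : ℤ) (s : ℝ) :
    ((H : ℝ) * (2 * ((N : ℝ) * k)) + s) ∈ strip H N b ↔ s ∈ strip H N b := by
  unfold strip
  simp only [Set.mem_ofPred_eq]
  constructor
  · rintro ⟨l, h1, h2⟩
    refine ⟨l - k, ?_, ?_⟩
    · push_cast; linarith
    · push_cast; linarith
  · rintro ⟨l, h1, h2⟩
    refine ⟨l + k, ?_, ?_⟩
    · push_cast; linarith
    · push_cast; linarith

private theorem net_shift8 (H N b : ℕ) (k k' : ℤ) (z : ℝ × ℝ) :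
    (2 * (H : ℝ) * N * k + z.1, 10000 * (N : ℝ) * k' + z.2) ∈ net H N b ↔ z ∈ net H N b := by
  unfold net
  simp only [Set.mem_ofPred_eq]
  have h1 := strip_shift8 5000 N b k' z.2
  have h2 := strip_shift8 H N b k z.1
  have e1 : (10000 * (N : ℝ) * k' + z.2) = ((5000 : ℕ) : ℝ) * (2 * ((N : ℝ) * k')) + z.2 := by
    push_cast; ring
  have e2 : (2 * (H : ℝ) * N * k + z.1) = (H : ℝ) * (2 * ((N : ℝ) * k)) + z.1 := by ring
  rw [e1, e2, h1, h2]

/-- difference of two points with the same base coordinate whose codes differ at one place -/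
private theorem pt_update_sub (S : Sys B) (X : ℝ × ℝ) (a : ℕ → ℕ) (j m m' : ℕ) :
    S.pt X (Function.update a j m) - S.pt X (Function.update a j m') =
      rr j • (S.u m - S.u m') := by
  unfold Sys.pt
  have h1 := summable_pt8 S (Function.update a j m)
  have h2 := summable_pt8 S (Function.update a j m')
  rw [add_sub_add_left_eq_sub, ← h1.tsum_sub h2]
  rw [tsum_eq_single j]
  · simp [smul_sub]
  · intro i hi
    simp [Function.update_of_ne hi]

private theorem pt_same_sub (S : Sys B) (X Y : ℝ × ℝ) (a : ℕ → ℕ) :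
    S.pt X a - S.pt Y a = S.io (X - Y) := by
  unfold Sys.pt Sys.io
  simp only [Prod.fst_sub, Prod.snd_sub, sub_smul]
  abel

private theorem io_norm_le (S : Sys B) (X : ℝ × ℝ) : ‖S.io X‖ ≤ 2 * ‖X‖ := by
  unfold Sys.io
  have h1 : |X.1| ≤ ‖X‖ := by
    have := norm_fst_le X
    simpa using this
  have h2 : |X.2| ≤ ‖X‖ := by
    have := norm_snd_le X
    simpa using this
  calc ‖X.1 • S.v1 + X.2 • S.v2‖ ≤ ‖X.1 • S.v1‖ + ‖X.2 • S.v2‖ := norm_add_le _ _
    _ = |X.1| * ‖S.v1‖ + |X.2| * ‖S.v2‖ := by rw [norm_smul, norm_smul]; simp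
    _ ≤ |X.1| * 1 + |X.2| * 1 := by
        gcongr
        · exact S.v1_le
        · exact S.v2_le
    _ ≤ 2 * ‖X‖ := by linarith

theorem local_rescale (S : Sys B) (f : B → EuclideanSpace ℝ (Fin n)) (D c : ℝ) (hD : 0 < D)
    (hc : 0 < c) (hup : ∀ p ∈ S.KK, ∀ q ∈ S.KK, ‖f p - f q‖ ≤ D * ‖p - q‖)
    (hlow : ∀ p ∈ S.KK, ∀ q ∈ S.KK, c * ‖p - q‖ ≤ ‖f p - f q‖)
    (a : ℕ → ℕ) (ha : ∃ j₀, ∀ j ≥ j₀, a j = 0) (x : ℝ × ℝ) (hx : x ∈ interior (Om a))
    (hdiff : DifferentiableAt ℝ (fun z => f (S.pt z a)) x)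
    (N H : ℕ) (hN : 1 ≤ N) (hH : 5000 ≤ H) (T W : ℝ) (hT : 0 < T) (hW : 0 < W) :
    ∃ γ : Fin N → ℝ × ℝ → EuclideanSpace ℝ (Fin n),
      (∀ b : Fin N, ∀ z ∈ PP H N T W b, ∀ z' ∈ PP H N T W b,
        ‖γ b z - γ b z'‖ ≤ 2 * D * ‖z - z'‖) ∧
      (∀ b : Fin N, ∀ z ∈ PP H N T W b,
        ‖γ b z - (z.1 • fderiv ℝ (fun z => f (S.pt z a)) x (1, 0) +
          z.2 • fderiv ℝ (fun z => f (S.pt z a)) x (0, 1))‖ ≤ D + 1) ∧
      (∀ b b' : Fin N, b ≠ b' → ∀ z ∈ PP H N T W b, z ∈ PP H N T W b' →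
        c / 2 ≤ ‖γ b z - γ b' z‖) ∧
      (∀ b : Fin N, ∀ z ∈ interior (PP H N T W b), DifferentiableAt ℝ (γ b) z →
        (‖fderiv ℝ (γ b) z (1, 0)‖ ^ 2, ‖fderiv ℝ (γ b) z (0, 1)‖ ^ 2) ∈ jets S f) := by
  obtain ⟨j₀, hj₀⟩ := ha
  set φ : ℝ × ℝ → EuclideanSpace ℝ (Fin n) := fun z => f (S.pt z a) with hφ
  set L := fderiv ℝ φ x with hL
  set T' : ℝ := 2 * (H : ℝ) * N with hT'
  set W' : ℝ := 10000 * (N : ℝ) with hW'
  have hNpos : (0 : ℝ) < N := by exact_mod_cast hN
  have hHpos : (0 : ℝ) < H := by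
    have : 0 < H := by omega
    exact_mod_cast this
  have hT'pos : 0 < T' := by positivity
  have hW'pos : 0 < W' := by positivity
  set R : ℝ := T' + W' + T + W with hR
  have hRpos : 0 < R := by positivity
  -- neighbourhood of `x`
  have hnb : ∀ᶠ z in nhds x, z ∈ Om a := mem_interior_iff_mem_nhds.mp hx
  have hd := hdiff.hasFDerivAt.isLittleO.def (c := 1 / (2 * R)) (by positivity)
  obtain ⟨δ, hδ, hball⟩ := Metric.eventually_nhds_iff.mp (hnb.and hd)
  -- generation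
  obtain ⟨j₁, hj₁⟩ : ∃ j₁ : ℕ, (1 / 1000 : ℝ) ^ j₁ * R < δ := by
    obtain ⟨k, hk⟩ := exists_pow_lt_of_lt_one (show (0:ℝ) < δ / R by positivity)
      (show (1 / 1000 : ℝ) < 1 by norm_num)
    refine ⟨k, ?_⟩
    rwa [lt_div_iff₀ hRpos] at hk
  obtain ⟨j, hj, hNN, hHH⟩ := exists_gen8 N H (max j₀ j₁) hN hH
  have haj : a j = 0 := hj₀ j (le_trans (le_max_left _ _) hj)
  set r : ℝ := rr j with hr
  have hrpos : 0 < r := rr_pos' j
  have hrR : r * R < δ := by
    refine lt_of_le_of_lt ?_ hj₁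
    refine mul_le_mul_of_nonneg_right ?_ hRpos.le
    exact pow_le_pow_of_le_one (by norm_num) (by norm_num) (le_trans (le_max_right _ _) hj)
  set k : ℤ := ⌊x.1 / (r * T')⌋ with hk
  set k' : ℤ := ⌊x.2 / (r * W')⌋ with hk'
  set o : ℝ × ℝ := (r * (T' * k), r * (W' * k')) with ho
  have hrT' : 0 < r * T' := by positivity
  have hrW' : 0 < r * W' := by positivity
  have ho1 : |o.1 - x.1| ≤ r * T' := by
    have h1 : (k : ℝ) ≤ x.1 / (r * T') := Int.floor_le _
    have h2 : x.1 / (r * T') < k + 1 := Int.lt_floor_add_one _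
    rw [le_div_iff₀ hrT'] at h1
    rw [div_lt_iff₀ hrT'] at h2
    rw [abs_le]
    constructor
    · show -(r * T') ≤ r * (T' * k) - x.1
      nlinarith
    · show r * (T' * k) - x.1 ≤ r * T'
      nlinarith
  have ho2 : |o.2 - x.2| ≤ r * W' := by
    have h1 : (k' : ℝ) ≤ x.2 / (r * W') := Int.floor_le _
    have h2 : x.2 / (r * W') < k' + 1 := Int.lt_floor_add_one _
    rw [le_div_iff₀ hrW'] at h1
    rw [div_lt_iff₀ hrW'] at h2
    rw [abs_le]
    constructor
    · show -(r * W') ≤ r * (W' * k') - x.2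
      nlinarith
    · show r * (W' * k') - x.2 ≤ r * W'
      nlinarith
  -- points of the window
  have hwin : ∀ z : ℝ × ℝ, z.1 ∈ Icc 0 T → z.2 ∈ Icc 0 W → ‖(o + r • z) - x‖ ≤ r * R := by
    intro z hz1 hz2
    rw [Prod.norm_def]
    refine max_le ?_ ?_
    · show |o.1 + r * z.1 - x.1| ≤ r * R
      have : |r * z.1| ≤ r * T := by
        rw [abs_of_nonneg (mul_nonneg hrpos.le hz1.1)]
        exact mul_le_mul_of_nonneg_left hz1.2 hrpos.le
      calc |o.1 + r * z.1 - x.1| = |(o.1 - x.1) + r * z.1| := by ring_nf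
        _ ≤ |o.1 - x.1| + |r * z.1| := abs_add_le _ _
        _ ≤ r * T' + r * T := add_le_add ho1 this
        _ ≤ r * R := by
            rw [← mul_add]
            exact mul_le_mul_of_nonneg_left (by linarith) hrpos.le
    · show |o.2 + r * z.2 - x.2| ≤ r * R
      have : |r * z.2| ≤ r * W := by
        rw [abs_of_nonneg (mul_nonneg hrpos.le hz2.1)]
        exact mul_le_mul_of_nonneg_left hz2.2 hrpos.le
      calc |o.2 + r * z.2 - x.2| = |(o.2 - x.2) + r * z.2| := by ring_nf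
        _ ≤ |o.2 - x.2| + |r * z.2| := abs_add_le _ _
        _ ≤ r * W' + r * W := add_le_add ho2 this
        _ ≤ r * R := by
            rw [← mul_add]
            exact mul_le_mul_of_nonneg_left (by linarith) hrpos.le
  have hwinOm : ∀ z : ℝ × ℝ, z.1 ∈ Icc 0 T → z.2 ∈ Icc 0 W → (o + r • z) ∈ Om a := by
    intro z hz1 hz2
    refine (hball ?_).1
    rw [dist_eq_norm]
    exact lt_of_le_of_lt (hwin z hz1 hz2) hrR
  have hwinD : ∀ z : ℝ × ℝ, z.1 ∈ Icc 0 T → z.2 ∈ Icc 0 W →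
      ‖φ (o + r • z) - φ x - L ((o + r • z) - x)‖ ≤ 1 / (2 * R) * (r * R) := by
    intro z hz1 hz2
    refine le_trans ((hball ?_).2) ?_
    · rw [dist_eq_norm]
      exact lt_of_le_of_lt (hwin z hz1 hz2) hrR
    · exact mul_le_mul_of_nonneg_left (hwin z hz1 hz2) (by positivity)
  have h0T : (0 : ℝ) ∈ Icc 0 T := ⟨le_rfl, hT.le⟩
  have h0W : (0 : ℝ) ∈ Icc 0 W := ⟨le_rfl, hW.le⟩
  -- the codes
  set co : Fin N → ℕ → ℕ := fun b => Function.update a j ((b : ℕ) + 1) with hco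
  have hcoOm : ∀ b : Fin N, ∀ z ∈ PP H N T W b, (o + r • z) ∈ Om (co b) := by
    intro b z hz
    obtain ⟨hz1, hz2, hz3⟩ := hz
    have hOa := hwinOm z hz1 hz2
    refine ⟨hOa.1, ?_⟩
    intro i
    by_cases hi : i = j
    · subst hi
      have e : co b i = (b : ℕ) + 1 := by simp [hco]
      show co b i ≤ NN i ∧ (co b i ≠ 0 → (o + r • z) ∈ netj i (co b i))
      rw [e]
      refine ⟨by rw [hNN]; exact b.2, fun _ => ?_⟩
      unfold netj
      show ((o + r • z).1 / rr i, (o + r • z).2 / rr i) ∈ net (HH i) (NN i) ((b : ℕ) + 1 - 1)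
      rw [hNN, hHH, Nat.add_sub_cancel]
      have e1 : (o + r • z).1 / rr i = 2 * (H : ℝ) * N * k + z.1 := by
        show (r * (T' * k) + r * z.1) / r = _
        rw [← mul_add, mul_div_assoc, mul_comm, div_mul_cancel₀ _ hrpos.ne']
      have e2 : (o + r • z).2 / rr i = 10000 * (N : ℝ) * k' + z.2 := by
        show (r * (W' * k') + r * z.2) / r = _
        rw [← mul_add, mul_div_assoc, mul_comm, div_mul_cancel₀ _ hrpos.ne']
      rw [e1, e2, net_shift8]
      exact hz3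
    · have e : co b i = a i := by simp [hco, Function.update_of_ne hi]
      show co b i ≤ NN i ∧ (co b i ≠ 0 → (o + r • z) ∈ netj i (co b i))
      rw [e]
      exact hOa.2 i
  have hKco : ∀ b : Fin N, ∀ z ∈ PP H N T W b, S.pt (o + r • z) (co b) ∈ S.KK :=
    fun b z hz => ⟨_, _, hcoOm b z hz, rfl⟩
  have hKa : ∀ z : ℝ × ℝ, z.1 ∈ Icc 0 T → z.2 ∈ Icc 0 W → S.pt (o + r • z) a ∈ S.KK :=
    fun z h1 h2 => ⟨_, _, hwinOm z h1 h2, rfl⟩
  have hupd : a = Function.update a j 0 := by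
    rw [← haj]; simp
  refine ⟨fun b z => r⁻¹ • (f (S.pt (o + r • z) (co b)) - φ o), ?_, ?_, ?_, ?_⟩
  · -- Lipschitz
    intro b z hz z' hz'
    have h1 := hup _ (hKco b z hz) _ (hKco b z' hz')
    rw [pt_same_sub] at h1
    have h2 : (o + r • z) - (o + r • z') = r • (z - z') := by
      rw [add_sub_add_left_eq_sub, smul_sub]
    rw [h2] at h1
    have h3 := io_norm_le S (r • (z - z'))
    rw [norm_smul, Real.norm_of_nonneg hrpos.le] at h3
    have h4 : r⁻¹ • (f (S.pt (o + r • z) (co b)) - φ o) -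
        r⁻¹ • (f (S.pt (o + r • z') (co b)) - φ o) =
        r⁻¹ • (f (S.pt (o + r • z) (co b)) - f (S.pt (o + r • z') (co b))) := by
      rw [← smul_sub, sub_sub_sub_cancel_right]
    show ‖r⁻¹ • (f (S.pt (o + r • z) (co b)) - φ o) -
        r⁻¹ • (f (S.pt (o + r • z') (co b)) - φ o)‖ ≤ _
    rw [h4, norm_smul, norm_inv, Real.norm_of_nonneg hrpos.le, inv_mul_le_iff₀ hrpos]
    calc ‖f (S.pt (o + r • z) (co b)) - f (S.pt (o + r • z') (co b))‖
        ≤ D * ‖S.io (r • (z - z'))‖ := h1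
      _ ≤ D * (2 * (r * ‖z - z'‖)) := mul_le_mul_of_nonneg_left h3 hD.le
      _ = r * (2 * D * ‖z - z'‖) := by ring
  · -- closeness
    intro b z hz
    obtain ⟨hz1, hz2, hz3⟩ := id hz
    have h1 := hup _ (hKco b z hz) _ (hKa z hz1 hz2)
    have h2 : S.pt (o + r • z) (co b) - S.pt (o + r • z) a = r • (S.u ((b : ℕ) + 1) - S.u 0) := by
      conv_lhs => rw [hupd]
      have := pt_update_sub S (o + r • z) a j ((b : ℕ) + 1) 0
      rw [← this]
    rw [h2, norm_smul, Real.norm_of_nonneg hrpos.le, S.u_zero, sub_zero] at h1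
    have h3 : ‖f (S.pt (o + r • z) (co b)) - φ (o + r • z)‖ ≤ r * D := by
      calc ‖f (S.pt (o + r • z) (co b)) - φ (o + r • z)‖ ≤ D * (r * ‖S.u ((b : ℕ) + 1)‖) := h1
        _ ≤ D * (r * 1) := by
            gcongr
            exact S.u_le _
        _ = r * D := by ring
    have h4 := hwinD z hz1 hz2
    have h5 := hwinD 0 h0T h0W
    rw [smul_zero, add_zero] at h5
    have h6 : z.1 • L (1, 0) + z.2 • L (0, 1) = L z := by
      rw [← map_smul, ← map_smul, ← map_add]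
      congr 1
      ext <;> simp
    show ‖r⁻¹ • (f (S.pt (o + r • z) (co b)) - φ o) - (z.1 • L (1, 0) + z.2 • L (0, 1))‖ ≤ D + 1
    rw [h6]
    have h7 : r⁻¹ • (f (S.pt (o + r • z) (co b)) - φ o) - L z =
        r⁻¹ • ((f (S.pt (o + r • z) (co b)) - φ (o + r • z)) +
          (φ (o + r • z) - φ x - L ((o + r • z) - x)) - (φ o - φ x - L (o - x))) := by
      have e1 : L z = r⁻¹ • L (r • z) := by
        rw [map_smul, smul_smul, inv_mul_cancel₀ hrpos.ne', one_smul]
      rw [e1, ← smul_sub]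
      congr 1
      have e2 : L ((o + r • z) - x) = L (o - x) + L (r • z) := by
        rw [← map_add]; congr 1; abel
      rw [e2]; abel
    rw [h7, norm_smul, norm_inv, Real.norm_of_nonneg hrpos.le, inv_mul_le_iff₀ hrpos]
    have e3 : 1 / (2 * R) * (r * R) = r / 2 := by
      field_simp
    rw [e3] at h4 h5
    calc ‖(f (S.pt (o + r • z) (co b)) - φ (o + r • z)) +
          (φ (o + r • z) - φ x - L ((o + r • z) - x)) - (φ o - φ x - L (o - x))‖
        ≤ ‖(f (S.pt (o + r • z) (co b)) - φ (o + r • z)) +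
          (φ (o + r • z) - φ x - L ((o + r • z) - x))‖ + ‖φ o - φ x - L (o - x)‖ := norm_sub_le _ _
      _ ≤ (‖f (S.pt (o + r • z) (co b)) - φ (o + r • z)‖ +
          ‖φ (o + r • z) - φ x - L ((o + r • z) - x)‖) + ‖φ o - φ x - L (o - x)‖ := by
            gcongr
            exact norm_add_le _ _
      _ ≤ (r * D + r / 2) + r / 2 := by gcongr
      _ = r * (D + 1) := by ring
  · -- separation
    intro b b' hbb z hz hz'
    have h1 := hlow _ (hKco b z hz) _ (hKco b' z hz')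
    have h2 : S.pt (o + r • z) (co b) - S.pt (o + r • z) (co b') =
        r • (S.u ((b : ℕ) + 1) - S.u ((b' : ℕ) + 1)) := pt_update_sub S _ a j _ _
    rw [h2, norm_smul, Real.norm_of_nonneg hrpos.le] at h1
    have hne : (b : ℕ) + 1 ≠ (b' : ℕ) + 1 := by
      intro h
      exact hbb (Fin.ext (by omega))
    have h3 := S.sep _ _ hne 0 0
    rw [zero_smul, zero_smul, add_zero, sub_zero] at h3
    have h4 : r⁻¹ • (f (S.pt (o + r • z) (co b)) - φ o) -
        r⁻¹ • (f (S.pt (o + r • z) (co b')) - φ o) =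
        r⁻¹ • (f (S.pt (o + r • z) (co b)) - f (S.pt (o + r • z) (co b'))) := by
      rw [← smul_sub, sub_sub_sub_cancel_right]
    show c / 2 ≤ ‖r⁻¹ • (f (S.pt (o + r • z) (co b)) - φ o) -
        r⁻¹ • (f (S.pt (o + r • z) (co b')) - φ o)‖
    rw [h4, norm_smul, norm_inv, Real.norm_of_nonneg hrpos.le, ← div_eq_inv_mul, le_div_iff₀ hrpos]
    calc c / 2 * r = c * (r * (1 / 2)) := by ring
      _ ≤ c * (r * ‖S.u ((b : ℕ) + 1) - S.u ((b' : ℕ) + 1)‖) := by gcongr
      _ ≤ _ := h1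
  · -- jets
    intro b z hz hdz
    set γb : ℝ × ℝ → EuclideanSpace ℝ (Fin n) :=
      fun z => r⁻¹ • (f (S.pt (o + r • z) (co b)) - φ o) with hγb
    set X : ℝ × ℝ := o + r • z with hX
    have hfun : (fun w => f (S.pt w (co b))) = fun w => r • γb (r⁻¹ • (w - o)) + φ o := by
      funext w
      simp only [hγb]
      rw [smul_smul, smul_smul, mul_inv_cancel₀ hrpos.ne', one_smul, one_smul,
        add_sub_cancel, sub_add_cancel]
    have hzX : r⁻¹ • (X - o) = z := by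
      rw [hX, add_sub_cancel_left, smul_smul, inv_mul_cancel₀ hrpos.ne', one_smul]
    have hder : HasFDerivAt (fun w => f (S.pt w (co b))) (fderiv ℝ γb z) X := by
      rw [hfun]
      have h1 : HasFDerivAt (fun w : ℝ × ℝ => r⁻¹ • (w - o))
          (r⁻¹ • ContinuousLinearMap.id ℝ (ℝ × ℝ)) X :=
        ((hasFDerivAt_id X).sub_const o).const_smul r⁻¹
      have h2 : HasFDerivAt γb (fderiv ℝ γb z) (r⁻¹ • (X - o)) := by
        rw [hzX]; exact hdz.hasFDerivAt
      have h3 := ((h2.comp X h1).const_smul r).add_const (φ o)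
      refine h3.congr_fderiv ?_
      ext w
      all_goals simp [hrpos.ne']
    refine ⟨co b, ⟨max j₀ (j + 1), ?_⟩, X, ?_, hder.differentiableAt, ?_⟩
    · intro i hi
      have hij : i ≠ j := by
        have := le_trans (le_max_right _ _) hi
        omega
      simp only [hco]
      rw [Function.update_of_ne hij]
      exact hj₀ i (le_trans (le_max_left _ _) hi)
    · -- interior
      rw [mem_interior] at hz ⊢
      obtain ⟨U, hU, hUo, hzU⟩ := hz
      refine ⟨(fun w : ℝ × ℝ => r⁻¹ • (w - o)) ⁻¹' U, ?_, ?_, ?_⟩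
      · intro w hw
        have := hcoOm b _ (hU hw)
        rwa [smul_smul, mul_inv_cancel₀ hrpos.ne', one_smul, add_sub_cancel] at this
      · exact hUo.preimage (by fun_prop)
      · show r⁻¹ • (X - o) ∈ U
        rw [hzX]; exact hzU
    · rw [hder.fderiv]

end T8b

end Crest.Agent.LP
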