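import Crest.Agent.LP_Defs

set_option autoImplicit false

namespace Crest.Agent.LP

open Set MeasureTheory

section loc
variable {B : Type*} [NormedAddCommGroup B] [NormedSpace ℝ B] [CompleteSpace B]
variable {n : ℕ}

theorem T9_pt_sub (S : Sys B) (x x' : ℝ × ℝ) (a : ℕ → ℕ) :
    S.pt x a - S.pt x' a = (x.1 - x'.1) • S.v1 + (x.2 - x'.2) • S.v2 := by
  unfold Sys.pt Sys.io
  rw [sub_smul, sub_smul]
  abel

theorem T9_pt_lip (S : Sys B) (x x' : ℝ × ℝ) (a : ℕ → ℕ) :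
    ‖S.pt x a - S.pt x' a‖ ≤ 2 * ‖x - x'‖ := by
  rw [T9_pt_sub]
  have h1 : ‖(x.1 - x'.1) • S.v1‖ ≤ ‖x - x'‖ := by
    rw [norm_smul]
    calc ‖x.1 - x'.1‖ * ‖S.v1‖ ≤ ‖x.1 - x'.1‖ * 1 :=
          mul_le_mul_of_nonneg_left S.v1_le (norm_nonneg _)
      _ = ‖(x - x').1‖ := by simp
      _ ≤ ‖x - x'‖ := norm_fst_le _
  have h2 : ‖(x.2 - x'.2) • S.v2‖ ≤ ‖x - x'‖ := by
    rw [norm_smul]
    calc ‖x.2 - x'.2‖ * ‖S.v2‖ ≤ ‖x.2 - x'.2‖ * 1 :=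
          mul_le_mul_of_nonneg_left S.v2_le (norm_nonneg _)
      _ = ‖(x - x').2‖ := by simp
      _ ≤ ‖x - x'‖ := norm_snd_le _
  calc _ ≤ ‖(x.1 - x'.1) • S.v1‖ + ‖(x.2 - x'.2) • S.v2‖ := norm_add_le _ _
    _ ≤ 2 * ‖x - x'‖ := by linarith

theorem T9_mem_KK (S : Sys B) (a : ℕ → ℕ) (x : ℝ × ℝ) (hx : x ∈ Om a) : S.pt x a ∈ S.KK :=
  ⟨x, a, hx, rfl⟩

theorem T9_lip (S : Sys B) (f : B → EuclideanSpace ℝ (Fin n)) (D : ℝ) (hD : 0 < D)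
    (hup : ∀ p ∈ S.KK, ∀ q ∈ S.KK, ‖f p - f q‖ ≤ D * ‖p - q‖) (a : ℕ → ℕ) :
    LipschitzOnWith (Real.toNNReal (2 * D)) (fun z => f (S.pt z a)) (Om a) := by
  refine LipschitzOnWith.of_dist_le_mul ?_
  intro x hx y hy
  rw [dist_eq_norm, dist_eq_norm, Real.coe_toNNReal _ (by positivity)]
  calc _ ≤ D * ‖S.pt x a - S.pt y a‖ := hup _ (T9_mem_KK S a x hx) _ (T9_mem_KK S a y hy)
    _ ≤ D * (2 * ‖x - y‖) := mul_le_mul_of_nonneg_left (T9_pt_lip S x y a) hD.le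
    _ = 2 * D * ‖x - y‖ := by ring

theorem jets_bounded (S : Sys B) (f : B → EuclideanSpace ℝ (Fin n)) (D : ℝ) (hD : 0 < D)
    (hup : ∀ p ∈ S.KK, ∀ q ∈ S.KK, ‖f p - f q‖ ≤ D * ‖p - q‖) :
    ∀ e ∈ jets S f, 0 ≤ e.1 ∧ e.1 ≤ (2 * D) ^ 2 ∧ 0 ≤ e.2 ∧ e.2 ≤ (2 * D) ^ 2 := by
  rintro e ⟨a, -, x, hx, hdiff, rfl⟩
  have hlip := T9_lip S f D hD hup a
  have hs : Om a ∈ nhds x := mem_interior_iff_mem_nhds.mp hx
  have hn : ‖fderiv ℝ (fun z => f (S.pt z a)) x‖ ≤ 2 * D := by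
    have := hdiff.hasFDerivAt.le_of_lipschitzOn hs hlip
    rwa [Real.coe_toNNReal _ (by positivity)] at this
  have hb : ∀ v : ℝ × ℝ, ‖v‖ ≤ 1 → ‖fderiv ℝ (fun z => f (S.pt z a)) x v‖ ≤ 2 * D := by
    intro v hv
    calc _ ≤ ‖fderiv ℝ (fun z => f (S.pt z a)) x‖ * ‖v‖ := ContinuousLinearMap.le_opNorm _ _
      _ ≤ (2 * D) * 1 := mul_le_mul hn hv (norm_nonneg _) (by positivity)
      _ = 2 * D := by ring
  refine ⟨by positivity, ?_, by positivity, ?_⟩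
  · exact pow_le_pow_left₀ (norm_nonneg _) (hb (1, 0) (by simp)) 2
  · exact pow_le_pow_left₀ (norm_nonneg _) (hb (0, 1) (by simp)) 2

theorem T9_Om_zero : Om (fun _ => 0) = Icc (0 : ℝ) 1 ×ˢ Icc (0 : ℝ) 1 := by
  ext x
  simp [Om, Par]

theorem jets_nonempty (S : Sys B) (f : B → EuclideanSpace ℝ (Fin n)) (D : ℝ) (hD : 0 < D)
    (hup : ∀ p ∈ S.KK, ∀ q ∈ S.KK, ‖f p - f q‖ ≤ D * ‖p - q‖) : (jets S f).Nonempty := by
  have hlip := T9_lip S f D hD hup (fun _ => 0)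
  have hae := hlip.ae_differentiableWithinAt_of_mem (μ := (volume : Measure (ℝ × ℝ)))
  have hint : interior (Om (fun _ => 0)) = Ioo (0 : ℝ) 1 ×ˢ Ioo (0 : ℝ) 1 := by
    rw [T9_Om_zero, interior_prod_eq, interior_Icc]
  have hopen : IsOpen (interior (Om (fun _ => 0))) := isOpen_interior
  have hne : (interior (Om (fun _ => 0))).Nonempty := by
    rw [hint]
    exact ⟨(1 / 2, 1 / 2), by constructor <;> constructor <;> norm_num⟩
  have hpos : 0 < (volume : Measure (ℝ × ℝ)) (interior (Om (fun _ => 0))) :=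
    hopen.measure_pos _ hne
  have : ∃ x ∈ interior (Om (fun _ => 0)), (x ∈ Om (fun _ => 0) →
      DifferentiableWithinAt ℝ (fun z => f (S.pt z (fun _ => 0))) (Om (fun _ => 0)) x) := by
    by_contra hcon
    push Not at hcon
    have hsub : interior (Om (fun _ => 0)) ⊆ {x | ¬ (x ∈ Om (fun _ => 0) →
      DifferentiableWithinAt ℝ (fun z => f (S.pt z (fun _ => 0))) (Om (fun _ => 0)) x)} := by
      intro x hx
      have := hcon x hx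
      simp only [mem_setOf_eq]
      tauto
    have h0 := measure_mono_null hsub hae
    exact hpos.ne' h0
  obtain ⟨x, hx, hd⟩ := this
  have hdd := (hd (interior_subset hx)).differentiableAt (mem_interior_iff_mem_nhds.mp hx)
  exact ⟨_, fun _ => 0, ⟨0, fun _ _ => rfl⟩, x, hx, hdd, rfl⟩

end loc

end Crest.Agent.LP
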