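import Crest.Agent.LP_Defs
import Crest.Agent.LP_T4
import Crest.Agent.LP_T6c
import Crest.Agent.LP_T6d
import Crest.Agent.LP_T7
import Crest.Agent.LP_T8b
import Crest.Agent.LP_T9

set_option autoImplicit false

namespace Crest.Agent.LP

open Set MeasureTheory

section
variable {B : Type*} [NormedAddCommGroup B] [NormedSpace ℝ B] [CompleteSpace B]

theorem no_embed {n : ℕ} (S : Sys B) (f : B → EuclideanSpace ℝ (Fin n)) (D c : ℝ) (hD : 0 < D)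
    (hc : 0 < c) (hup : ∀ p ∈ S.KK, ∀ q ∈ S.KK, ‖f p - f q‖ ≤ D * ‖p - q‖)
    (hlow : ∀ p ∈ S.KK, ∀ q ∈ S.KK, c * ‖p - q‖ ≤ ‖f p - f q‖) : False := by
  obtain ⟨M, hM⟩ := packing n (D + 1) (c / 2 / 2) (by positivity)
  obtain ⟨g, hg, hpar⟩ := param (M + 1) (by omega) (2 * D) (D + 1) (c / 2) (by positivity)
    (by positivity) (by positivity)
  -- the threshold function
  have hΘ : ∀ s : ℝ, ∃ θ : ℝ, 0 < θ ∧ (0 < s → ∃ H : ℕ, 5000 ≤ H ∧ ∃ n1 n2 : ℕ, 1 ≤ n1 ∧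
      1 ≤ n2 ∧ ((M + 1 : ℕ) : ℝ) * ((2 * (2 * D) * (D + 1) / n1 +
        (2 * H * ((M + 1 : ℕ) : ℝ)) * θ / 2) *
        (32 * (2 * H * ((M + 1 : ℕ) : ℝ)) / (c / 2) ^ 2) +
      160000 * ((M + 1 : ℕ) : ℝ) / (c / 2) ^ 2 * (g * (10000 * ((M + 1 : ℕ) : ℝ)) +
        4 * ((2 * D) ^ 2 / s) * (2 * D) * (D + 1) * (10000 * ((M + 1 : ℕ) : ℝ)) / H +
        4 * (2 * D) * (D + 1) / n2)) < 1) := by
    intro s
    by_cases hs : 0 < s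
    · obtain ⟨H, hH, θ, hθ, n1, n2, hn1, hn2, h⟩ := hpar ((2 * D) ^ 2 / s) (by positivity)
      exact ⟨θ, hθ, fun _ => ⟨H, hH, n1, n2, hn1, hn2, h⟩⟩
    · exact ⟨1, one_pos, fun h => absurd h hs⟩
  choose Θ hΘ0 hΘ1 using hΘ
  obtain ⟨s, hs0, hs1, e, he, hL1, hL2⟩ := tower_lemma (jets S f) (jets_nonempty S f D hD hup)
    ((2 * D) ^ 2) (by positivity) (jets_bounded S f D hD hup) g hg Θ (fun s _ => hΘ0 s)
  obtain ⟨H, hH, n1, n2, hn1, hn2, hp⟩ := hΘ1 s hs0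
  have he2 := jets_bounded S f D hD hup e he
  obtain ⟨a, ha, x, hx, hdiff, rfl⟩ := he
  simp only at hL1 hL2 he2
  obtain ⟨γ, h1, h2, h3, h4⟩ := local_rescale S f D c hD hc hup hlow a ha x hx hdiff (M + 1) H
    (by omega) hH (n1 * (2 * H * ((M + 1 : ℕ) : ℝ))) (n2 * (10000 * ((M + 1 : ℕ) : ℝ)))
    (by positivity) (by positivity)
  set A1 := fderiv ℝ (fun z => f (S.pt z a)) x (1, 0) with hA1
  set A2 := fderiv ℝ (fun z => f (S.pt z a)) x (0, 1) with hA2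
  have hA1' : ‖A1‖ ≤ 2 * D := by
    have := he2.2.1
    exact (pow_le_pow_iff_left₀ (norm_nonneg _) (by positivity) two_ne_zero).mp this
  have hA2' : ‖A2‖ ≤ 2 * D := by
    have := he2.2.2.2
    exact (pow_le_pow_iff_left₀ (norm_nonneg _) (by positivity) two_ne_zero).mp this
  obtain ⟨u, hu1, hu2⟩ := unit_lemma (M + 1) H n1 n2 (by omega) (by omega) hn1 hn2 (2 * D)
    (D + 1) (c / 2) (Θ s) g ((2 * D) ^ 2 / s) (by positivity) (by positivity) (by positivity)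
    (hΘ0 s).le hg.le (by positivity) A1 A2 hA1' hA2' γ h1 h2 h3
    (fun b z hz hdz => hL1 _ (h4 b z hz hdz))
    (fun b z hz hdz => hL2 _ (h4 b z hz hdz)) hp
  have := hM (M + 1) u hu1 hu2
  omega

theorem no_embed_general (S : Sys B) (Y : Type*) [NormedAddCommGroup Y] [NormedSpace ℝ Y]
    [FiniteDimensional ℝ Y] (f : S.KK → Y) (c C : NNReal) :
    ¬ (LipschitzWith C f ∧ AntilipschitzWith c f) := by
  classical
  rintro ⟨h1, h2⟩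
  let e : Y ≃L[ℝ] EuclideanSpace ℝ (Fin (Module.finrank ℝ Y)) := toEuclidean
  let F : B → EuclideanSpace ℝ (Fin (Module.finrank ℝ Y)) :=
    fun p => if h : p ∈ S.KK then e (f ⟨p, h⟩) else 0
  have hF : ∀ p (h : p ∈ S.KK), F p = e (f ⟨p, h⟩) := fun p h => by simp only [F, dif_pos h]
  refine no_embed S F (‖(e : Y →L[ℝ] EuclideanSpace ℝ (Fin (Module.finrank ℝ Y)))‖ * C + 1)
    ((‖(e.symm : EuclideanSpace ℝ (Fin (Module.finrank ℝ Y)) →L[ℝ] Y)‖ * c + 1)⁻¹) (by positivity) (by positivity) ?_ ?_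
  · intro p hp q hq
    rw [hF p hp, hF q hq, ← map_sub]
    have h3 : ‖f ⟨p, hp⟩ - f ⟨q, hq⟩‖ ≤ C * ‖p - q‖ := by
      have := h1.dist_le_mul ⟨p, hp⟩ ⟨q, hq⟩
      rwa [dist_eq_norm, Subtype.dist_eq, dist_eq_norm] at this
    calc ‖e (f ⟨p, hp⟩ - f ⟨q, hq⟩)‖ ≤ ‖(e : Y →L[ℝ] EuclideanSpace ℝ (Fin (Module.finrank ℝ Y)))‖ * ‖f ⟨p, hp⟩ - f ⟨q, hq⟩‖ :=
          (e : Y →L[ℝ] EuclideanSpace ℝ (Fin (Module.finrank ℝ Y))).le_opNorm _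
      _ ≤ ‖(e : Y →L[ℝ] EuclideanSpace ℝ (Fin (Module.finrank ℝ Y)))‖ * (C * ‖p - q‖) := by gcongr
      _ ≤ (‖(e : Y →L[ℝ] EuclideanSpace ℝ (Fin (Module.finrank ℝ Y)))‖ * C + 1) * ‖p - q‖ := by nlinarith [norm_nonneg (p - q)]
  · intro p hp q hq
    rw [hF p hp, hF q hq, ← map_sub]
    have h3 : ‖p - q‖ ≤ c * ‖f ⟨p, hp⟩ - f ⟨q, hq⟩‖ := by
      have := h2.le_mul_dist ⟨p, hp⟩ ⟨q, hq⟩
      rwa [dist_eq_norm, Subtype.dist_eq, dist_eq_norm] at this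
    have h4 : ‖f ⟨p, hp⟩ - f ⟨q, hq⟩‖ ≤
        ‖(e.symm : EuclideanSpace ℝ (Fin (Module.finrank ℝ Y)) →L[ℝ] Y)‖ * ‖e (f ⟨p, hp⟩ - f ⟨q, hq⟩)‖ := by
      have := (e.symm : EuclideanSpace ℝ (Fin (Module.finrank ℝ Y)) →L[ℝ] Y).le_opNorm (e (f ⟨p, hp⟩ - f ⟨q, hq⟩))
      simpa using this
    rw [inv_mul_le_iff₀ (by positivity)]
    calc ‖p - q‖ ≤ c * ‖f ⟨p, hp⟩ - f ⟨q, hq⟩‖ := h3
      _ ≤ c * (‖(e.symm : EuclideanSpace ℝ (Fin (Module.finrank ℝ Y)) →L[ℝ] Y)‖ * ‖e (f ⟨p, hp⟩ - f ⟨q, hq⟩)‖) := by gcongr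
      _ ≤ (‖(e.symm : EuclideanSpace ℝ (Fin (Module.finrank ℝ Y)) →L[ℝ] Y)‖ * c + 1) * ‖e (f ⟨p, hp⟩ - f ⟨q, hq⟩)‖ := by
          nlinarith [norm_nonneg (e (f ⟨p, hp⟩ - f ⟨q, hq⟩))]

end

end Crest.Agent.LP
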