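import Crest.Agent.LP_Defs

set_option autoImplicit false

namespace Crest.Agent.LP

open Set

section T1

variable (B : Type*) [NormedAddCommGroup B] [NormedSpace ℝ B]

private theorem exists_far (hB : ¬ FiniteDimensional ℝ B) (F : Submodule ℝ B)
    (hF : FiniteDimensional ℝ F) : ∃ x : B, ‖x‖ = 1 ∧ ∀ y ∈ F, 3 / 4 ≤ ‖x - y‖ := by
  have hcl : IsClosed (F : Set B) := F.closed_of_finiteDimensional
  have hne : ∃ x : B, x ∉ F := by
    by_contra hcon
    push Not at hcon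
    apply hB
    have htop : F = ⊤ := by
      ext x
      simp [hcon x]
    subst htop
    exact Module.Finite.equiv (Submodule.topEquiv (R := ℝ) (M := B))
  obtain ⟨x₀, hx₀, h⟩ := riesz_lemma hcl hne (r := 3 / 4) (by norm_num)
  have hx0 : x₀ ≠ 0 := by
    rintro rfl
    exact hx₀ F.zero_mem
  have hn : 0 < ‖x₀‖ := norm_pos_iff.mpr hx0
  refine ⟨‖x₀‖⁻¹ • x₀, ?_, ?_⟩
  · rw [norm_smul, norm_inv, norm_norm]
    exact inv_mul_cancel₀ hn.ne'
  · intro y hy
    have h1 := h (‖x₀‖ • y) (F.smul_mem _ hy)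
    have h2 : ‖x₀‖⁻¹ • x₀ - y = ‖x₀‖⁻¹ • (x₀ - ‖x₀‖ • y) := by
      rw [smul_sub, smul_smul, inv_mul_cancel₀ hn.ne', one_smul]
    rw [h2, norm_smul, norm_inv, norm_norm]
    calc (3 / 4 : ℝ) = ‖x₀‖⁻¹ * (3 / 4 * ‖x₀‖) := by field_simp
      _ ≤ ‖x₀‖⁻¹ * ‖x₀ - ‖x₀‖ • y‖ := by gcongr

private theorem exists_w (hB : ¬ FiniteDimensional ℝ B) :
    ∃ (V : ℕ → Submodule ℝ B) (w : ℕ → B), Monotone V ∧ (∀ n, ‖w n‖ = 1) ∧
      (∀ n, w n ∈ V (n + 1)) ∧ ∀ n, ∀ y ∈ V n, 3 / 4 ≤ ‖w n - y‖ := by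
  classical
  choose g hg1 hg2 using exists_far B hB
  let V : ℕ → {F : Submodule ℝ B // FiniteDimensional ℝ F} := fun n =>
    Nat.rec (motive := fun _ => {F : Submodule ℝ B // FiniteDimensional ℝ F})
      ⟨⊥, inferInstance⟩
      (fun _ F => ⟨F.1 ⊔ Submodule.span ℝ {g F.1 F.2}, by
        have := F.2
        infer_instance⟩) n
  have hV : ∀ n, (V (n + 1)).1 = (V n).1 ⊔ Submodule.span ℝ {g (V n).1 (V n).2} := fun n => rfl
  refine ⟨fun n => (V n).1, fun n => g (V n).1 (V n).2, ?_, fun n => hg1 _ _, ?_,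
    fun n y hy => hg2 _ _ y hy⟩
  · apply monotone_nat_of_le_succ
    intro n
    show (V n).1 ≤ (V (n + 1)).1
    rw [hV]
    exact le_sup_left
  · intro n
    show g (V n).1 (V n).2 ∈ (V (n + 1)).1
    rw [hV]
    exact Submodule.mem_sup_right (Submodule.mem_span_singleton_self _)

end T1

theorem exists_sys (B : Type*) [NormedAddCommGroup B] [NormedSpace ℝ B]
    (hB : ¬ FiniteDimensional ℝ B) : Nonempty (Sys B) := by
  obtain ⟨V, w, hV, hw1, hwV, hw⟩ := exists_w B hB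
  have hmem : ∀ i n : ℕ, i < n → w i ∈ V n := fun i n h => hV (Nat.succ_le_of_lt h) (hwV i)
  have hlow2 : ∀ t y : ℝ, |y| * (3 / 4) ≤ ‖t • w 0 + y • w 1‖ := by
    intro t y
    rcases eq_or_ne y 0 with rfl | hy
    · simp only [abs_zero, zero_mul]
      positivity
    · have h1 := hw 1 (-(t / y) • w 0) ((V 1).smul_mem _ (hmem 0 1 (by norm_num)))
      have h2 : t • w 0 + y • w 1 = y • (w 1 - (-(t / y) • w 0)) := by
        rw [neg_smul, sub_neg_eq_add, smul_add, smul_smul, mul_div_cancel₀ _ hy]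
        abel
      rw [h2, norm_smul, Real.norm_eq_abs]
      gcongr
  have hbase : ∀ (t y : ℝ) (n : ℕ), 2 ≤ n → t • w 0 + y • w 1 ∈ V n := by
    intro t y n hn
    exact (V n).add_mem ((V n).smul_mem _ (hmem 0 n (by omega)))
      ((V n).smul_mem _ (hmem 1 n (by omega)))
  have humem : ∀ m n : ℕ, m + 1 < n → (if m = 0 then (0 : B) else w (m + 1)) ∈ V n := by
    intro m n hmn
    split_ifs with h
    · exact (V n).zero_mem
    · exact hmem _ _ hmn
  have hsep : ∀ m m' : ℕ, m < m' → ∀ t y : ℝ,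
      1 / 2 ≤ ‖(if m' = 0 then (0 : B) else w (m' + 1)) -
        (if m = 0 then (0 : B) else w (m + 1)) - (t • w 0 + y • w 1)‖ := by
    intro m m' hmm t y
    rw [if_neg (by omega : m' ≠ 0), sub_sub]
    have h1 := hw (m' + 1) ((if m = 0 then (0 : B) else w (m + 1)) + (t • w 0 + y • w 1))
      ((V (m' + 1)).add_mem (humem m _ (by omega)) (hbase t y _ (by omega)))
    linarith
  refine ⟨{
    v1 := w 0
    v2 := w 1
    u := fun m => if m = 0 then 0 else w (m + 1)
    u_zero := by simp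
    v1_le := (hw1 0).le
    v2_le := (hw1 1).le
    u_le := ?_
    low1 := ?_
    low2 := ?_
    sep := ?_ }⟩
  · intro m
    split_ifs with h
    · simp
    · exact (hw1 _).le
  · intro t y
    have h1 := hlow2 t y
    have h2 : |t| ≤ ‖t • w 0 + y • w 1‖ + |y| := by
      calc |t| = ‖t • w 0‖ := by rw [norm_smul, hw1, mul_one, Real.norm_eq_abs]
        _ = ‖(t • w 0 + y • w 1) - y • w 1‖ := by rw [add_sub_cancel_right]
        _ ≤ ‖t • w 0 + y • w 1‖ + ‖y • w 1‖ := norm_sub_le _ _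
        _ = ‖t • w 0 + y • w 1‖ + |y| := by rw [norm_smul (y) (w 1), hw1, mul_one, Real.norm_eq_abs]
    have h3 : (0 : ℝ) ≤ ‖t • w 0 + y • w 1‖ := norm_nonneg _
    linarith
  · intro t y
    have h1 := hlow2 t y
    have h3 : (0 : ℝ) ≤ ‖t • w 0 + y • w 1‖ := norm_nonneg _
    linarith
  · intro m m' hne t y
    rcases lt_or_gt_of_ne hne with h | h
    · have h1 := hsep m m' h (-t) (-y)
      have h2 : (if m = 0 then (0 : B) else w (m + 1)) - (if m' = 0 then (0 : B) else w (m' + 1)) -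
          (t • w 0 + y • w 1) = -((if m' = 0 then (0 : B) else w (m' + 1)) -
        (if m = 0 then (0 : B) else w (m + 1)) - ((-t) • w 0 + (-y) • w 1)) := by
        rw [neg_smul, neg_smul]
        abel
      rw [h2, norm_neg]
      exact h1
    · exact hsep m' m h t y

end Crest.Agent.LP
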