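import Crest.Agent.LP_Defs

set_option autoImplicit false

namespace Crest.Agent.LP

open Set
open scoped Pointwise

theorem isClosed_strip (H N b : ℕ) : IsClosed (strip H N b) := by
  have hA : IsClosed ((fun n : ℤ => (n : ℝ)) ''
      (range (fun k : ℤ => (H : ℤ) * (2 * ((N : ℤ) * k + (b : ℤ)))))) :=
    Int.isClosedEmbedding_coe_real.isClosedMap _ (isClosed_discrete _)
  have h := hA.add_right_of_isCompact (isCompact_Icc (a := (0 : ℝ)) (b := (H : ℝ)))
  have heq : strip H N b = (fun n : ℤ => (n : ℝ)) ''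
      (range (fun k : ℤ => (H : ℤ) * (2 * ((N : ℤ) * k + (b : ℤ))))) + Icc (0 : ℝ) (H : ℝ) := by
    ext s
    simp only [strip, mem_setOf_eq, Set.mem_add, mem_image, mem_range, mem_Icc]
    constructor
    · rintro ⟨k, h1, h2⟩
      refine ⟨_, ⟨_, ⟨k, rfl⟩, rfl⟩, s - (H : ℝ) * (2 * ((N : ℝ) * (k : ℝ) + (b : ℝ))),
        ⟨by linarith, by linarith⟩, ?_⟩
      push_cast
      ring
    · rintro ⟨_, ⟨_, ⟨k, rfl⟩, rfl⟩, t, ⟨h1, h2⟩, rfl⟩
      refine ⟨k, ?_, ?_⟩
      · push_cast
        linarith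
      · push_cast
        linarith
  rw [heq]
  exact h

theorem isClosed_netj (j m : ℕ) : IsClosed (netj j m) := by
  have h1 : IsClosed (net (HH j) (NN j) (m - 1)) := by
    have h2 : net (HH j) (NN j) (m - 1) =
        Prod.snd ⁻¹' (strip 5000 (NN j) (m - 1)) ∪ Prod.fst ⁻¹' (strip (HH j) (NN j) (m - 1)) := by
      ext z
      simp [net]
    rw [h2]
    exact ((isClosed_strip _ _ _).preimage continuous_snd).union
      ((isClosed_strip _ _ _).preimage continuous_fst)
  exact h1.preimage (f := fun x : ℝ × ℝ => (x.1 / rr j, x.2 / rr j)) (by fun_prop)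

theorem isCompact_Par : IsCompact Par := by
  have hK : IsCompact ((Icc (0 : ℝ) 1 ×ˢ Icc (0 : ℝ) 1) ×ˢ
      (Set.pi univ (fun j => Iic (NN j)) : Set (ℕ → ℕ))) := by
    apply IsCompact.prod
    · exact isCompact_Icc.prod isCompact_Icc
    · exact isCompact_univ_pi (fun j => (finite_Iic (NN j)).isCompact)
  refine hK.of_isClosed_subset ?_ ?_
  · have h1 : Par = Prod.fst ⁻¹' (Icc (0 : ℝ) 1 ×ˢ Icc (0 : ℝ) 1) ∩
        ⋂ j, ((fun p : (ℝ × ℝ) × (ℕ → ℕ) => p.2 j) ⁻¹' Iic (NN j) ∩
          ⋂ m : ℕ, ⋂ _ : m ≠ 0, ((fun p : (ℝ × ℝ) × (ℕ → ℕ) => p.2 j) ⁻¹' {m}ᶜ ∪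
            Prod.fst ⁻¹' (netj j m))) := by
      ext p
      simp only [Par, mem_setOf_eq, mem_inter_iff, mem_preimage, mem_iInter, mem_union, mem_Iic,
        mem_compl_iff, mem_singleton_iff]
      refine and_congr Iff.rfl (forall_congr' fun j => and_congr Iff.rfl ?_)
      constructor
      · intro h m hm
        by_cases hpm : p.2 j = m
        · right
          subst hpm
          exact h hm
        · left
          exact hpm
      · intro h hm
        rcases h _ hm with h' | h'
        · exact absurd rfl h'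
        · exact h'
    rw [h1]
    have hc : ∀ j, Continuous (fun p : (ℝ × ℝ) × (ℕ → ℕ) => p.2 j) := fun j => by fun_prop
    refine IsClosed.inter ((isClosed_Icc.prod isClosed_Icc).preimage continuous_fst) ?_
    refine isClosed_iInter fun j => IsClosed.inter ((isClosed_discrete _).preimage (hc j)) ?_
    refine isClosed_iInter fun m => isClosed_iInter fun hm => ?_
    exact ((isClosed_discrete _).preimage (hc j)).union ((isClosed_netj j m).preimage continuous_fst)
  · rintro p ⟨hp1, hp2⟩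
    exact ⟨hp1, fun j _ => (hp2 j).1⟩

end Crest.Agent.LP
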