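import Crest.Agent.LP_Defs
import Crest.Agent.LP_T2a

set_option autoImplicit false

namespace Crest.Agent.LP

open Set

section sys
variable {B : Type*} [NormedAddCommGroup B] [NormedSpace ℝ B] [CompleteSpace B]

private theorem rr_nonneg (j : ℕ) : 0 ≤ rr j := by
  unfold rr
  positivity

private theorem summable_rr : Summable rr := by
  unfold rr
  exact summable_geometric_of_lt_one (by norm_num) (by norm_num)

omit [CompleteSpace B] in
private theorem norm_term_le (S : Sys B) (j m : ℕ) : ‖rr j • S.u m‖ ≤ rr j := by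
  rw [norm_smul, Real.norm_of_nonneg (rr_nonneg j)]
  exact mul_le_of_le_one_right (rr_nonneg j) (S.u_le m)

theorem summable_pt (S : Sys B) (a : ℕ → ℕ) : Summable (fun j => rr j • S.u (a j)) :=
  Summable.of_norm_bounded summable_rr (fun j => norm_term_le S j (a j))

theorem continuous_pt (S : Sys B) :
    Continuous (fun p : (ℝ × ℝ) × (ℕ → ℕ) => S.pt p.1 p.2) := by
  unfold Sys.pt Sys.io
  refine Continuous.add (by fun_prop) ?_
  refine continuous_tsum (u := rr) ?_ summable_rr (fun j p => norm_term_le S j (p.2 j))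
  intro j
  have h1 : Continuous (fun p : (ℝ × ℝ) × (ℕ → ℕ) => p.2 j) := by fun_prop
  have h2 : Continuous (fun m : ℕ => rr j • S.u m) := continuous_of_discreteTopology
  exact h2.comp h1

theorem isCompact_KK (S : Sys B) : IsCompact S.KK := by
  have h : S.KK = (fun p : (ℝ × ℝ) × (ℕ → ℕ) => S.pt p.1 p.2) '' Par := by
    ext p
    constructor
    · rintro ⟨x, a, h1, h2⟩
      exact ⟨(x, a), h1, h2⟩
    · rintro ⟨⟨x, a⟩, h1, h2⟩
      exact ⟨x, a, h1, h2⟩
  rw [h]
  exact isCompact_Par.image (continuous_pt S)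

end sys

end Crest.Agent.LP
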