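import Crest.Agent.LP_Defs

/-!
S0392, task LP-T3a: metric estimates for the points of the doubling set.
-/

set_option autoImplicit false

namespace Crest.Agent.LP

open Set

section sys
variable {B : Type*} [NormedAddCommGroup B] [NormedSpace ℝ B] [CompleteSpace B]

theorem T3a_rr_pos (j : ℕ) : 0 < rr j := by unfold rr; positivity

theorem T3a_rr_add (j m : ℕ) : rr (j + m) = (1 / 1000 : ℝ) ^ j * rr m := by
  unfold rr; rw [pow_add]

theorem T3a_norm_diff_le (S : Sys B) (p q : ℕ) : ‖S.u p - S.u q‖ ≤ 2 := by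
  calc ‖S.u p - S.u q‖ ≤ ‖S.u p‖ + ‖S.u q‖ := norm_sub_le _ _
    _ ≤ 1 + 1 := add_le_add (S.u_le p) (S.u_le q)
    _ = 2 := by norm_num

theorem T3a_summable (S : Sys B) (a : ℕ → ℕ) : Summable (fun j => rr j • S.u (a j)) := by
  refine Summable.of_norm_bounded (g := fun j => (1 / 1000 : ℝ) ^ j) ?_ ?_
  · exact summable_geometric_of_lt_one (by norm_num) (by norm_num)
  · intro j
    rw [norm_smul, Real.norm_of_nonneg (T3a_rr_pos j).le]
    calc rr j * ‖S.u (a j)‖ ≤ rr j * 1 :=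
          mul_le_mul_of_nonneg_left (S.u_le _) (T3a_rr_pos j).le
      _ = (1 / 1000 : ℝ) ^ j := by rw [mul_one]; rfl

theorem T3a_diff (S : Sys B) (x x' : ℝ × ℝ) (a a' : ℕ → ℕ) :
    S.pt x a - S.pt x' a' = ((x.1 - x'.1) • S.v1 + (x.2 - x'.2) • S.v2) +
      ∑' j, rr j • (S.u (a j) - S.u (a' j)) := by
  have h1 : ∑' j, rr j • (S.u (a j) - S.u (a' j)) =
      (∑' j, rr j • S.u (a j)) - ∑' j, rr j • S.u (a' j) := by
    rw [← (T3a_summable S a).tsum_sub (T3a_summable S a')]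
    exact tsum_congr fun j => smul_sub _ _ _
  unfold Sys.pt Sys.io
  rw [h1, sub_smul, sub_smul]
  abel

/-- Decomposition of the difference of two points whose codes agree before `m`. -/
theorem T3a_split (S : Sys B) (x x' : ℝ × ℝ) (a a' : ℕ → ℕ) (m : ℕ) (h : ∀ j < m, a j = a' j) :
    ∃ T : B, ‖T‖ ≤ rr m * (2 / 999) ∧
      S.pt x a - S.pt x' a' = ((x.1 - x'.1) • S.v1 + (x.2 - x'.2) • S.v2) +
        (rr m • (S.u (a m) - S.u (a' m)) + T) := by
  have hs : Summable (fun j => rr j • (S.u (a j) - S.u (a' j))) := by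
    have := (T3a_summable S a).sub (T3a_summable S a')
    refine this.congr fun j => ?_
    simp only [smul_sub]
  refine ⟨∑' j, rr (j + (m + 1)) • (S.u (a (j + (m + 1))) - S.u (a' (j + (m + 1)))), ?_, ?_⟩
  · have hg : HasSum (fun j : ℕ => (1 / 1000 : ℝ) ^ j * (rr (m + 1) * 2))
        ((1 - 1 / 1000 : ℝ)⁻¹ * (rr (m + 1) * 2)) :=
      (hasSum_geometric_of_lt_one (by norm_num) (by norm_num)).mul_right _
    refine (tsum_of_norm_bounded hg fun j => ?_).trans ?_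
    · rw [norm_smul, Real.norm_of_nonneg (T3a_rr_pos _).le, T3a_rr_add, mul_assoc]
      have h1 := T3a_norm_diff_le S (a (j + (m + 1))) (a' (j + (m + 1)))
      have h2 : (0 : ℝ) ≤ (1 / 1000 : ℝ) ^ j := by positivity
      exact mul_le_mul_of_nonneg_left
        (mul_le_mul_of_nonneg_left h1 (T3a_rr_pos _).le) h2
    · have : rr (m + 1) = rr m * (1 / 1000) := by unfold rr; rw [pow_succ]
      rw [this]
      have h3 := T3a_rr_pos m
      have : (1 - 1 / 1000 : ℝ)⁻¹ * (rr m * (1 / 1000) * 2) = rr m * (2 / 999) := by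
        norm_num; ring
      rw [this]
  · rw [T3a_diff, ← hs.sum_add_tsum_nat_add (m + 1), Finset.sum_range_succ,
      Finset.sum_eq_zero, zero_add]
    intro j hj
    rw [h j (Finset.mem_range.mp hj), sub_self, smul_zero]

theorem T3a_mid (S : Sys B) (p q m : ℕ) : ‖rr m • (S.u p - S.u q)‖ ≤ 2 * rr m := by
  rw [norm_smul, Real.norm_of_nonneg (T3a_rr_pos _).le, mul_comm]
  exact mul_le_mul_of_nonneg_right (T3a_norm_diff_le S p q) (T3a_rr_pos _).le

theorem pt_low (S : Sys B) (x x' : ℝ × ℝ) (a a' : ℕ → ℕ) (m : ℕ) (h : ∀ j < m, a j = a' j)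
    (hm : a m ≠ a' m) :
    rr m ≤ 3 * ‖S.pt x a - S.pt x' a'‖ ∧
    |x.1 - x'.1| ≤ 16 * ‖S.pt x a - S.pt x' a'‖ + 33 * rr m ∧
    |x.2 - x'.2| ≤ 16 * ‖S.pt x a - S.pt x' a'‖ + 33 * rr m := by
  obtain ⟨T, hT, hd⟩ := T3a_split S x x' a a' m h
  have hr := T3a_rr_pos m
  set w : B := (x.1 - x'.1) • S.v1 + (x.2 - x'.2) • S.v2 with hw
  set d : B := S.pt x a - S.pt x' a' with hdd
  set e : B := rr m • (S.u (a m) - S.u (a' m)) with he
  have hmid : ‖e‖ ≤ 2 * rr m := T3a_mid S _ _ _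
  have hwle : ‖w‖ ≤ ‖d‖ + (2 * rr m + rr m * (2 / 999)) := by
    have : w = d - (e + T) := by rw [hd]; abel
    calc ‖w‖ = ‖d - (e + T)‖ := by rw [this]
      _ ≤ ‖d‖ + ‖e + T‖ := norm_sub_le _ _
      _ ≤ ‖d‖ + (‖e‖ + ‖T‖) := by gcongr; exact norm_add_le _ _
      _ ≤ _ := by gcongr
  refine ⟨?_, ?_, ?_⟩
  · -- separation
    have hsep : rr m / 2 ≤ ‖w + e‖ := by
      have h1 := S.sep (a m) (a' m) hm (-((rr m)⁻¹ * (x.1 - x'.1))) (-((rr m)⁻¹ * (x.2 - x'.2)))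
      have h2 : w + e = rr m • (S.u (a m) - S.u (a' m) -
          ((-((rr m)⁻¹ * (x.1 - x'.1))) • S.v1 + (-((rr m)⁻¹ * (x.2 - x'.2))) • S.v2)) := by
        rw [hw, he]
        simp only [smul_sub, smul_add, neg_smul, smul_neg, smul_smul]
        rw [mul_inv_cancel_left₀ hr.ne', mul_inv_cancel_left₀ hr.ne']
        abel
      rw [h2, norm_smul, Real.norm_of_nonneg hr.le]
      calc rr m / 2 = rr m * (1 / 2) := by ring
        _ ≤ _ := mul_le_mul_of_nonneg_left h1 hr.le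
    have h3 : ‖w + e‖ ≤ ‖d‖ + ‖T‖ := by
      have : w + e = d - T := by rw [hd]; abel
      rw [this]; exact norm_sub_le _ _
    linarith
  · have := S.low1 (x.1 - x'.1) (x.2 - x'.2)
    rw [← hw] at this
    linarith
  · have := S.low2 (x.1 - x'.1) (x.2 - x'.2)
    rw [← hw] at this
    linarith

theorem pt_low_same (S : Sys B) (x x' : ℝ × ℝ) (a : ℕ → ℕ) :
    |x.1 - x'.1| ≤ 16 * ‖S.pt x a - S.pt x' a‖ ∧ |x.2 - x'.2| ≤ 16 * ‖S.pt x a - S.pt x' a‖ := by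
  have hd : S.pt x a - S.pt x' a = (x.1 - x'.1) • S.v1 + (x.2 - x'.2) • S.v2 := by
    rw [T3a_diff]
    simp
  rw [hd]
  exact ⟨S.low1 _ _, S.low2 _ _⟩

theorem pt_up (S : Sys B) (x x' : ℝ × ℝ) (a a' : ℕ → ℕ) (m : ℕ) (h : ∀ j < m, a j = a' j) :
    ‖S.pt x a - S.pt x' a'‖ ≤ |x.1 - x'.1| + |x.2 - x'.2| + 201 / 100 * rr m := by
  obtain ⟨T, hT, hd⟩ := T3a_split S x x' a a' m h
  have hr := T3a_rr_pos m
  have h1 : ‖(x.1 - x'.1) • S.v1‖ ≤ |x.1 - x'.1| := by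
    rw [norm_smul, Real.norm_eq_abs]
    exact mul_le_of_le_one_right (abs_nonneg _) S.v1_le
  have h2 : ‖(x.2 - x'.2) • S.v2‖ ≤ |x.2 - x'.2| := by
    rw [norm_smul, Real.norm_eq_abs]
    exact mul_le_of_le_one_right (abs_nonneg _) S.v2_le
  have h3 := T3a_mid S (a m) (a' m) m
  rw [hd]
  refine (norm_add_le _ _).trans ?_
  have h4 := norm_add_le ((x.1 - x'.1) • S.v1) ((x.2 - x'.2) • S.v2)
  have h5 := norm_add_le (rr m • (S.u (a m) - S.u (a' m))) T
  linarith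

end sys

end Crest.Agent.LP
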