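import Crest.Agent.LP_Defs

set_option autoImplicit false

namespace Crest.Agent.LP

open Set

private theorem strip_aux (H : ℕ) (hH : 1 ≤ H) (n n' : ℤ) (s s' : ℝ) (hn : n < n')
    (h1 : s ≤ (H : ℝ) * (2 * (n : ℝ) + 1)) (h2 : (H : ℝ) * (2 * (n' : ℝ)) ≤ s')
    (h : |s - s'| < H) : False := by
  have hn' : (n : ℝ) + 1 ≤ (n' : ℝ) := by exact_mod_cast hn
  have hH' : (1 : ℝ) ≤ (H : ℝ) := by exact_mod_cast hH
  have h3 := (abs_lt.mp h).1
  have h4 : (H : ℝ) * (2 * (n : ℝ) + 2) ≤ (H : ℝ) * (2 * (n' : ℝ)) := by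
    apply mul_le_mul_of_nonneg_left _ (by linarith)
    linarith
  have h5 : (H : ℝ) * (2 * (n : ℝ) + 2) = (H : ℝ) * (2 * (n : ℝ) + 1) + H := by ring
  linarith

theorem strip_unique (H N b b' : ℕ) (hH : 1 ≤ H) (hb : b < N) (hb' : b' < N) (s s' : ℝ)
    (hs : s ∈ strip H N b) (hs' : s' ∈ strip H N b') (h : |s - s'| < H) : b = b' := by
  obtain ⟨k, hk1, hk2⟩ := hs
  obtain ⟨k', hk1', hk2'⟩ := hs'
  have key : (N : ℤ) * k + b = (N : ℤ) * k' + b' := by
    rcases lt_trichotomy ((N : ℤ) * k + b) ((N : ℤ) * k' + b') with hlt | heq | hgt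
    · exfalso
      refine strip_aux H hH _ _ s s' hlt ?_ ?_ h
      · push_cast
        exact hk2
      · push_cast
        exact hk1'
    · exact heq
    · exfalso
      refine strip_aux H hH _ _ s' s hgt ?_ ?_ (by rw [abs_sub_comm]; exact h)
      · push_cast
        exact hk2'
      · push_cast
        exact hk1
  have h1 : ((N : ℤ) * k + b) % N = b := by
    rw [Int.mul_add_emod_self_left]
    exact Int.emod_eq_of_lt (by positivity) (by exact_mod_cast hb)
  have h2 : ((N : ℤ) * k' + b') % N = b' := by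
    rw [Int.mul_add_emod_self_left]
    exact Int.emod_eq_of_lt (by positivity) (by exact_mod_cast hb')
  have h3 : (b : ℤ) = b' := by rw [← h1, ← h2, key]
  exact_mod_cast h3

theorem cover_of_code {X ι : Type*} [PseudoMetricSpace X] (S T : Set X) (r : ℝ) (hT : T ⊆ S)
    (code : X → ι) (Z : Finset ι) (hZ : ∀ p ∈ T, code p ∈ Z)
    (hcode : ∀ p ∈ T, ∀ q ∈ T, code p = code q → dist p q ≤ r) :
    ∃ C : Finset X, (↑C : Set X) ⊆ S ∧ C.card ≤ Z.card ∧
      T ⊆ ⋃ c ∈ C, Metric.closedBall c r := by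
  classical
  let Z' : Finset ι := Z.filter (fun z => ∃ p ∈ T, code p = z)
  have hex : ∀ z : Z', ∃ p ∈ T, code p = z.1 := fun z => (Finset.mem_filter.mp z.2).2
  choose g hgT hgc using hex
  refine ⟨Finset.univ.image g, ?_, ?_, ?_⟩
  · intro x hx
    simp only [Finset.coe_image, Finset.coe_univ, image_univ, mem_range] at hx
    obtain ⟨z, rfl⟩ := hx
    exact hT (hgT z)
  · calc (Finset.univ.image g).card ≤ (Finset.univ : Finset Z').card := Finset.card_image_le
      _ = Z'.card := by simp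
      _ ≤ Z.card := Finset.card_filter_le _ _
  · intro p hp
    have hz : code p ∈ Z' := Finset.mem_filter.mpr ⟨hZ p hp, p, hp, rfl⟩
    simp only [mem_iUnion]
    refine ⟨g ⟨code p, hz⟩, Finset.mem_image_of_mem _ (Finset.mem_univ _), ?_⟩
    rw [Metric.mem_closedBall]
    exact hcode p hp _ (hgT _) (hgc ⟨code p, hz⟩).symm

end Crest.Agent.LP
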