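import Crest.Agent.LP_Defs
import Crest.Agent.LP_T3a
import Crest.Agent.LP_T3b

set_option autoImplicit false

namespace Crest.Agent.LP

open Set

theorem T3c_rr_pos (j : ℕ) : 0 < rr j := by
  unfold rr; positivity

theorem T3c_rr_succ (j : ℕ) : rr (j + 1) = rr j / 1000 := by
  unfold rr; rw [pow_succ]; ring

theorem T3c_rr_anti {i j : ℕ} (h : i ≤ j) : rr j ≤ rr i := by
  unfold rr
  exact pow_le_pow_of_le_one (by norm_num) (by norm_num) h

theorem T3c_exists_rr_le (r : ℝ) (hr : 0 < r) : ∃ j, rr j ≤ 6 * r := by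
  obtain ⟨j, hj⟩ := exists_pow_lt_of_lt_one (show (0 : ℝ) < 6 * r by linarith)
    (show (1 / 1000 : ℝ) < 1 by norm_num)
  exact ⟨j, le_of_lt hj⟩

/-- the class of a parameter at generation `m` -/
noncomputable def T3c_cls (m : ℕ) (q : (ℝ × ℝ) × (ℕ → ℕ)) : Fin 3 :=
  open Classical in
  if q.2 m = 0 then 0 else
    if q.1.2 / rr m ∈ strip 5000 (NN m) (q.2 m - 1) then 1 else 2

theorem T3c_cls_eq (m : ℕ) (q q' : (ℝ × ℝ) × (ℕ → ℕ)) (hq : q ∈ Par) (hq' : q' ∈ Par)
    (h : T3c_cls m q = T3c_cls m q') (h1 : |q.1.1 - q'.1.1| < 5000 * rr m)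
    (h2 : |q.1.2 - q'.1.2| < 5000 * rr m) : q.2 m = q'.2 m := by
  have hrr := T3c_rr_pos m
  have key : ∀ s s' : ℝ, |s - s'| < 5000 * rr m → |s / rr m - s' / rr m| < 5000 := by
    intro s s' hs
    rw [← sub_div, abs_div, abs_of_pos hrr, div_lt_iff₀ hrr]
    exact hs
  have hq2 := hq.2 m
  have hq2' := hq'.2 m
  unfold T3c_cls at h
  by_cases h0 : q.2 m = 0
  · rw [if_pos h0] at h
    by_cases h0' : q'.2 m = 0
    · rw [h0, h0']
    · rw [if_neg h0'] at h
      exfalso
      split_ifs at h <;> simp at h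
  · rw [if_neg h0] at h
    by_cases h0' : q'.2 m = 0
    · rw [if_pos h0'] at h
      exfalso
      split_ifs at h <;> simp at h
    · rw [if_neg h0'] at h
      have hb : q.2 m - 1 < NN m := by omega
      have hb' : q'.2 m - 1 < NN m := by omega
      have hn := hq2.2 h0
      have hn' := hq2'.2 h0'
      have hres : q.2 m - 1 = q'.2 m - 1 := by
        by_cases hs : q.1.2 / rr m ∈ strip 5000 (NN m) (q.2 m - 1)
        · rw [if_pos hs] at h
          by_cases hs' : q'.1.2 / rr m ∈ strip 5000 (NN m) (q'.2 m - 1)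
          · refine strip_unique 5000 (NN m) _ _ (by norm_num) hb hb' _ _ hs hs' ?_
            have := key _ _ h2
            exact_mod_cast this
          · rw [if_neg hs'] at h
            exfalso; simp at h
        · rw [if_neg hs] at h
          by_cases hs' : q'.1.2 / rr m ∈ strip 5000 (NN m) (q'.2 m - 1)
          · rw [if_pos hs'] at h
            exfalso; simp at h
          · have hn1 : q.1.1 / rr m ∈ strip (HH m) (NN m) (q.2 m - 1) := by
              rcases hn with hn | hn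
              · exact absurd hn hs
              · exact hn
            have hn1' : q'.1.1 / rr m ∈ strip (HH m) (NN m) (q'.2 m - 1) := by
              rcases hn' with hn | hn
              · exact absurd hn hs'
              · exact hn
            have hHH : 5000 ≤ HH m := by unfold HH; omega
            refine strip_unique (HH m) (NN m) _ _ (by omega) hb hb' _ _ hn1 hn1' ?_
            have h5 := key _ _ h1
            have hHH' : (5000 : ℝ) ≤ (HH m : ℝ) := by exact_mod_cast hHH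
            linarith
      omega

theorem T3c_floor {r u : ℝ} (hr : 0 < r) (hu : |u| ≤ 230 * r) :
    -920 ≤ ⌊4 * u / r⌋ ∧ ⌊4 * u / r⌋ ≤ 920 := by
  rw [abs_le] at hu
  constructor
  · rw [Int.le_floor, le_div_iff₀ hr]
    push_cast
    linarith
  · have : (⌊4 * u / r⌋ : ℝ) ≤ 4 * u / r := Int.floor_le _
    have h2 : 4 * u / r ≤ 920 := by
      rw [div_le_iff₀ hr]; linarith
    have h3 : ((⌊4 * u / r⌋ : ℤ) : ℝ) ≤ ((920 : ℤ) : ℝ) := by push_cast; linarith
    exact_mod_cast h3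

theorem T3c_floor_eq {r u v : ℝ} (hr : 0 < r) (h : ⌊4 * u / r⌋ = ⌊4 * v / r⌋) :
    |u - v| ≤ r / 4 := by
  have h1 := Int.abs_sub_lt_one_of_floor_eq_floor h
  have h2 : 4 * u / r - 4 * v / r = 4 * (u - v) / r := by ring
  rw [h2, abs_div, abs_mul, abs_of_pos hr, div_lt_iff₀ hr] at h1
  norm_num at h1
  linarith

/-- the set of codes -/
@[irreducible] noncomputable def T3c_Z : Finset (ℤ × ℤ × Fin 3) :=
  Finset.Icc (-920) 920 ×ˢ (Finset.Icc (-920) 920 ×ˢ Finset.univ)

theorem T3c_Z_card : T3c_Z.card = 3 * 1841 * 1841 := by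
  have h1 : ((920 : ℤ) + 1 - (-920)).toNat = 1841 := by norm_num; rfl
  unfold T3c_Z
  rw [Finset.card_product, Finset.card_product, Int.card_Icc, Finset.card_univ, Fintype.card_fin,
    h1]

theorem T3c_mem_Z {a b : ℤ} {c : Fin 3} (ha : -920 ≤ a ∧ a ≤ 920)
    (hb : -920 ≤ b ∧ b ≤ 920) : (a, b, c) ∈ T3c_Z := by
  unfold T3c_Z
  rw [Finset.mem_product, Finset.mem_product, Finset.mem_Icc, Finset.mem_Icc]
  exact ⟨ha, hb, Finset.mem_univ _⟩

section sys
variable {B : Type*} [NormedAddCommGroup B] [NormedSpace ℝ B] [CompleteSpace B]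

theorem T3c_near (S : Sys B) (r : ℝ) (m : ℕ) (hm : rr m ≤ 6 * r)
    (hmin : ∀ j < m, 6 * r < rr j) (x x' : ℝ × ℝ) (a a' : ℕ → ℕ)
    (h : ‖S.pt x a - S.pt x' a'‖ ≤ 2 * r) :
    (∀ j < m, a j = a' j) ∧ |x.1 - x'.1| ≤ 230 * r ∧ |x.2 - x'.2| ≤ 230 * r := by
  classical
  have hr : 0 ≤ r := by
    have := T3c_rr_pos m
    linarith
  by_cases haa : a = a'
  · subst haa
    have h1 := pt_low_same S x x' a
    refine ⟨fun _ _ => rfl, ?_, ?_⟩
    · linarith [h1.1]
    · linarith [h1.2]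
  · have hex : ∃ j, a j ≠ a' j := by
      by_contra hcon
      push Not at hcon
      exact haa (funext hcon)
    have hk := Nat.find_spec hex
    have hklt : ∀ j < Nat.find hex, a j = a' j := by
      intro j hj
      by_contra hne
      exact Nat.find_min hex hj hne
    obtain ⟨h1, h2, h3⟩ := pt_low S x x' a a' (Nat.find hex) hklt hk
    have hmk : m ≤ Nat.find hex := by
      by_contra hlt
      push Not at hlt
      have := hmin _ hlt
      linarith
    have h4 : rr (Nat.find hex) ≤ rr m := T3c_rr_anti hmk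
    refine ⟨fun j hj => hklt j (lt_of_lt_of_le hj hmk), ?_, ?_⟩
    · linarith
    · linarith

theorem doubling_KK (S : Sys B) :
    Crest.GeometryTopology.DoublingConstLE S.KK (3 * 1841 * 1841) := by
  classical
  rintro p ⟨x, a, hxa, rfl⟩ r hr
  have hex := T3c_exists_rr_le r hr
  set m := Nat.find hex with hm_def
  have hm : rr m ≤ 6 * r := Nat.find_spec hex
  have hmin : ∀ j < m, 6 * r < rr j := by
    intro j hj
    by_contra hcon
    push Not at hcon
    exact Nat.find_min hex hj hcon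
  -- parameters
  have hpar : ∀ p : B, ∃ q : (ℝ × ℝ) × (ℕ → ℕ), p ∈ S.KK → (q ∈ Par ∧ S.pt q.1 q.2 = p) := by
    intro p
    by_cases hp : p ∈ S.KK
    · obtain ⟨x', a', h1, h2⟩ := hp
      exact ⟨(x', a'), fun _ => ⟨h1, h2⟩⟩
    · exact ⟨((0, 0), fun _ => 0), fun h => absurd h hp⟩
  choose φ hφ using hpar
  let code : B → ℤ × ℤ × Fin 3 := fun p =>
    (⌊4 * ((φ p).1.1 - x.1) / r⌋, ⌊4 * ((φ p).1.2 - x.2) / r⌋, T3c_cls m (φ p))
  have hnear : ∀ p ∈ S.KK ∩ Metric.closedBall (S.pt x a) (2 * r),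
      (∀ j < m, a j = (φ p).2 j) ∧ |x.1 - (φ p).1.1| ≤ 230 * r ∧ |x.2 - (φ p).1.2| ≤ 230 * r := by
    rintro p ⟨hp, hpb⟩
    obtain ⟨h1, h2⟩ := hφ p hp
    refine T3c_near S r m hm hmin x (φ p).1 a (φ p).2 ?_
    rw [h2, ← dist_eq_norm, dist_comm]
    exact Metric.mem_closedBall.mp hpb
  have hZ : ∀ p ∈ S.KK ∩ Metric.closedBall (S.pt x a) (2 * r), code p ∈ T3c_Z := by
    intro p hp
    have h0 := hnear p hp
    have h1 := h0.2.1
    have h2 := h0.2.2
    have h3 := T3c_floor hr (u := (φ p).1.1 - x.1) (by rw [abs_sub_comm]; exact h1)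
    have h4 := T3c_floor hr (u := (φ p).1.2 - x.2) (by rw [abs_sub_comm]; exact h2)
    have h5 := T3c_mem_Z (c := T3c_cls m (φ p)) h3 h4
    exact h5
  have hcode : ∀ p ∈ S.KK ∩ Metric.closedBall (S.pt x a) (2 * r),
      ∀ q ∈ S.KK ∩ Metric.closedBall (S.pt x a) (2 * r), code p = code q → dist p q ≤ r := by
    intro p hp q hq hpq
    obtain ⟨hp0, hp1, hp2⟩ := hnear p hp
    obtain ⟨hq0, hq1, hq2⟩ := hnear q hq
    obtain ⟨hpP, hpe⟩ := hφ p hp.1
    obtain ⟨hqP, hqe⟩ := hφ q hq.1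
    simp only [code, Prod.mk.injEq] at hpq
    obtain ⟨e1, e2, e3⟩ := hpq
    have d1 := T3c_floor_eq hr e1
    have d2 := T3c_floor_eq hr e2
    rw [sub_sub_sub_cancel_right] at d1 d2
    rw [dist_eq_norm, ← hpe, ← hqe]
    have hrr := T3c_rr_pos m
    by_cases hc : rr m ≤ r / 5
    · have hup := pt_up S (φ p).1 (φ q).1 (φ p).2 (φ q).2 m (fun j hj => by
        rw [← hp0 j hj, ← hq0 j hj])
      linarith
    · push Not at hc
      have hmm : (φ p).2 m = (φ q).2 m := by
        refine T3c_cls_eq m (φ p) (φ q) hpP hqP e3 ?_ ?_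
        · linarith
        · linarith
      have hup := pt_up S (φ p).1 (φ q).1 (φ p).2 (φ q).2 (m + 1) (fun j hj => by
        rcases Nat.lt_succ_iff_lt_or_eq.mp hj with h | h
        · rw [← hp0 j h, ← hq0 j h]
        · rw [h]; exact hmm)
      rw [T3c_rr_succ] at hup
      linarith
  obtain ⟨C, hC1, hC2, hC3⟩ := cover_of_code S.KK (S.KK ∩ Metric.closedBall (S.pt x a) (2 * r)) r
    Set.inter_subset_left code T3c_Z hZ hcode
  rw [T3c_Z_card] at hC2
  exact ⟨C, hC1, hC2, hC3⟩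

end sys

end Crest.Agent.LP
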