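import Mathlib

/-!
# LT: spectral tools for Hermitian matrices (trace formulas, Klein's inequality)
-/

set_option autoImplicit false
set_option linter.unusedSectionVars false
open Matrix MeasureTheory
open scoped Matrix.Norms.L2Operator ComplexOrder MatrixOrder

namespace LT

variable {n : Type*} [Fintype n] [DecidableEq n]

/-- real part of the trace. -/
noncomputable def rtr (A : Matrix n n ℂ) : ℝ := (Matrix.trace A).re

theorem rtr_add (A B : Matrix n n ℂ) : rtr (A + B) = rtr A + rtr B := by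
  simp [rtr, Matrix.trace_add]

theorem rtr_sub (A B : Matrix n n ℂ) : rtr (A - B) = rtr A - rtr B := by
  simp [rtr, Matrix.trace_sub]

theorem rtr_neg (A : Matrix n n ℂ) : rtr (-A) = - rtr A := by
  simp [rtr, Matrix.trace_neg]

theorem rtr_zero : rtr (0 : Matrix n n ℂ) = 0 := by simp [rtr]

theorem rtr_one : rtr (1 : Matrix n n ℂ) = Fintype.card n := by simp [rtr]

theorem rtr_smul (r : ℝ) (A : Matrix n n ℂ) : rtr (r • A) = r * rtr A := by
  simp [rtr, Matrix.trace_smul]

theorem rtr_mul_comm (A B : Matrix n n ℂ) : rtr (A * B) = rtr (B * A) := by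
  simp [rtr, Matrix.trace_mul_comm A B]

theorem rtr_conjTranspose (A : Matrix n n ℂ) : rtr Aᴴ = rtr A := by
  simp [rtr, Matrix.trace_conjTranspose]

/-- `rtr` as a linear map. -/
noncomputable def rtrL : Matrix n n ℂ →ₗ[ℝ] ℝ where
  toFun := rtr
  map_add' := rtr_add
  map_smul' := rtr_smul

/-- `rtr` as a continuous linear map. -/
noncomputable def rtrCLM : Matrix n n ℂ →L[ℝ] ℝ := LinearMap.toContinuousLinearMap rtrL

theorem rtrCLM_apply (A : Matrix n n ℂ) : rtrCLM A = rtr A := rfl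

theorem continuous_rtr : Continuous (rtr : Matrix n n ℂ → ℝ) := rtrCLM.continuous

theorem cfc_eq_conj {A : Matrix n n ℂ} (hA : A.IsHermitian) (f : ℝ → ℝ) :
    cfc f A = (hA.eigenvectorUnitary : Matrix n n ℂ) *
      diagonal (fun i => ((f (hA.eigenvalues i) : ℝ) : ℂ)) *
        (hA.eigenvectorUnitary : Matrix n n ℂ)ᴴ := by
  rw [hA.cfc_eq f]
  rfl

theorem U_conj_mul {A : Matrix n n ℂ} (hA : A.IsHermitian) :
    (hA.eigenvectorUnitary : Matrix n n ℂ)ᴴ * (hA.eigenvectorUnitary : Matrix n n ℂ) = 1 := by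
  have := (Matrix.mem_unitaryGroup_iff'.1 hA.eigenvectorUnitary.2)
  simpa [star_eq_conjTranspose] using this

theorem U_mul_conj {A : Matrix n n ℂ} (hA : A.IsHermitian) :
    (hA.eigenvectorUnitary : Matrix n n ℂ) * (hA.eigenvectorUnitary : Matrix n n ℂ)ᴴ = 1 := by
  have := (Matrix.mem_unitaryGroup_iff.1 hA.eigenvectorUnitary.2)
  simpa [star_eq_conjTranspose] using this

/-- functional calculus as a linear map in the eigenvalue vector. -/
noncomputable def specL {A : Matrix n n ℂ} (hA : A.IsHermitian) : (n → ℝ) →ₗ[ℝ] Matrix n n ℂ where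
  toFun v := (hA.eigenvectorUnitary : Matrix n n ℂ) * diagonal (fun i => ((v i : ℝ) : ℂ)) *
        (hA.eigenvectorUnitary : Matrix n n ℂ)ᴴ
  map_add' v w := by
    rw [← add_mul, ← mul_add]
    congr 2
    rw [diagonal_add]
    congr 1
    funext i
    simp
  map_smul' r v := by
    simp only [RingHom.id_apply]
    rw [← smul_mul_assoc, ← mul_smul_comm]
    congr 2
    rw [← diagonal_smul]
    congr 1
    funext i
    simp

noncomputable def specCLM {A : Matrix n n ℂ} (hA : A.IsHermitian) :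
    (n → ℝ) →L[ℝ] Matrix n n ℂ := LinearMap.toContinuousLinearMap (specL hA)

theorem cfc_eq_spec {A : Matrix n n ℂ} (hA : A.IsHermitian) (f : ℝ → ℝ) :
    cfc f A = specCLM hA (fun i => f (hA.eigenvalues i)) := by
  rw [cfc_eq_conj hA]; rfl

/-- differentiation of the functional calculus in a parameter. -/
theorem hasDerivAt_cfc_param {A : Matrix n n ℂ} (hA : A.IsHermitian) (f : ℝ → ℝ → ℝ) (f' : ℝ → ℝ)
    (q : ℝ) (h : ∀ i, HasDerivAt (fun s => f s (hA.eigenvalues i)) (f' (hA.eigenvalues i)) q) :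
    HasDerivAt (fun s => cfc (f s) A) (cfc f' A) q := by
  have h1 : HasDerivAt (fun s => (fun i => f s (hA.eigenvalues i) : n → ℝ))
      (fun i => f' (hA.eigenvalues i)) q := hasDerivAt_pi.2 h
  have h2 := (specCLM hA).hasFDerivAt.comp_hasDerivAt q h1
  rw [cfc_eq_spec hA f']
  refine h2.congr_of_eventuallyEq ?_
  filter_upwards with s
  rw [cfc_eq_spec hA]
  rfl

/-- the continuity of the functional calculus in a parameter. -/
theorem continuousAt_cfc_param {ι : Type*} [TopologicalSpace ι] {A : Matrix n n ℂ}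
    (hA : A.IsHermitian) (f : ι → ℝ → ℝ)
    (q : ι) (h : ∀ i, ContinuousAt (fun s => f s (hA.eigenvalues i)) q) :
    ContinuousAt (fun s => cfc (f s) A) q := by
  have h1 : ContinuousAt (fun s => (fun i => f s (hA.eigenvalues i) : n → ℝ)) q :=
    continuousAt_pi.2 h
  have h2 := (specCLM hA).continuous.continuousAt.comp h1
  refine h2.congr ?_
  filter_upwards with s
  rw [cfc_eq_spec hA]
  rfl

/-- integration of the functional calculus in a parameter. -/
theorem integral_cfc_param {α : Type*} [MeasurableSpace α] (μ : Measure α) {A : Matrix n n ℂ}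
    (hA : A.IsHermitian) (f : α → ℝ → ℝ)
    (h : ∀ i, Integrable (fun s => f s (hA.eigenvalues i)) μ) :
    Integrable (fun s => cfc (f s) A) μ ∧
      ∫ s, cfc (f s) A ∂μ = cfc (fun x => ∫ s, f s x ∂μ) A := by
  have h1 : Integrable (fun s => (fun i => f s (hA.eigenvalues i) : n → ℝ)) μ :=
    Integrable.of_eval h
  have h2 : (fun s => cfc (f s) A) = fun s => specCLM hA (fun i => f s (hA.eigenvalues i)) := by
    funext s
    exact cfc_eq_spec hA _
  rw [h2]
  refine ⟨(specCLM hA).integrable_comp h1, ?_⟩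
  rw [(specCLM hA).integral_comp_comm h1, cfc_eq_spec hA]
  congr 1
  funext i
  exact eval_integral h i

theorem cfc_id_eq {A : Matrix n n ℂ} (hA : A.IsHermitian) : cfc (fun x : ℝ => x) A = A :=
  cfc_id' ℝ A hA

theorem cfc_one_eq {A : Matrix n n ℂ} (hA : A.IsHermitian) : cfc (fun _ : ℝ => (1:ℝ)) A = 1 :=
  cfc_const_one ℝ A hA

theorem cfc_const_eq {A : Matrix n n ℂ} (hA : A.IsHermitian) (r : ℝ) :
    cfc (fun _ : ℝ => r) A = r • (1 : Matrix n n ℂ) :=
  (cfc_const r A hA).trans (Algebra.algebraMap_eq_smul_one r)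

theorem cfc_hermitian (A : Matrix n n ℂ) (f : ℝ → ℝ) : (cfc f A).IsHermitian :=
  cfc_predicate f A

/-- every function is continuous on the spectrum of a matrix. -/
theorem contOn_spec {A : Matrix n n ℂ} (hA : A.IsHermitian) (f : ℝ → ℝ) :
    ContinuousOn f (spectrum ℝ A) := by
  rw [hA.spectrum_real_eq_range_eigenvalues]
  exact (Set.finite_range _).continuousOn f

theorem cfc_mul_eq {A : Matrix n n ℂ} (hA : A.IsHermitian) (f g : ℝ → ℝ) :
    cfc f A * cfc g A = cfc (fun x => f x * g x) A :=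
  (cfc_mul f g A (contOn_spec hA f) (contOn_spec hA g)).symm

theorem cfc_add_eq {A : Matrix n n ℂ} (hA : A.IsHermitian) (f g : ℝ → ℝ) :
    cfc f A + cfc g A = cfc (fun x => f x + g x) A :=
  (cfc_add A f g (contOn_spec hA f) (contOn_spec hA g)).symm

theorem cfc_sub_eq {A : Matrix n n ℂ} (hA : A.IsHermitian) (f g : ℝ → ℝ) :
    cfc f A - cfc g A = cfc (fun x => f x - g x) A :=
  (cfc_sub f g A (contOn_spec hA f) (contOn_spec hA g)).symm

theorem cfc_congr_eigen {A : Matrix n n ℂ} (hA : A.IsHermitian) {f g : ℝ → ℝ}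
    (h : ∀ i, f (hA.eigenvalues i) = g (hA.eigenvalues i)) : cfc f A = cfc g A := by
  rw [cfc_eq_spec hA, cfc_eq_spec hA]
  congr 1
  funext i
  exact h i

/-- the transition weights between the eigenbases of two Hermitian matrices. -/
noncomputable def wt {A B : Matrix n n ℂ} (hA : A.IsHermitian) (hB : B.IsHermitian) (i j : n) : ℝ :=
  Complex.normSq (((hA.eigenvectorUnitary : Matrix n n ℂ)ᴴ *
    (hB.eigenvectorUnitary : Matrix n n ℂ)) i j)

theorem wt_nonneg {A B : Matrix n n ℂ} (hA : A.IsHermitian) (hB : B.IsHermitian) (i j : n) :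
    0 ≤ wt hA hB i j := Complex.normSq_nonneg _

theorem rtr_diag_mul (f g : n → ℝ) (P : Matrix n n ℂ) :
    rtr (diagonal (fun i => ((f i : ℝ) : ℂ)) * P * diagonal (fun i => ((g i : ℝ) : ℂ)) * Pᴴ)
      = ∑ i, ∑ j, Complex.normSq (P i j) * (f i * g j) := by
  unfold rtr Matrix.trace
  rw [Complex.re_sum]
  refine Finset.sum_congr rfl fun i _ => ?_
  rw [Matrix.diag_apply, Matrix.mul_apply, Complex.re_sum]
  refine Finset.sum_congr rfl fun j _ => ?_
  rw [Matrix.mul_diagonal, Matrix.diagonal_mul, Matrix.conjTranspose_apply]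
  have : ((f i : ℝ) : ℂ) * P i j * ((g j : ℝ) : ℂ) * star (P i j)
      = ((f i * g j : ℝ) : ℂ) * (P i j * star (P i j)) := by push_cast; ring
  rw [this, Complex.star_def, Complex.mul_conj, ← Complex.ofReal_mul, Complex.ofReal_re]
  ring

theorem rtr_cfc_mul_cfc {A B : Matrix n n ℂ} (hA : A.IsHermitian) (hB : B.IsHermitian)
    (f g : ℝ → ℝ) :
    rtr (cfc f A * cfc g B) =
      ∑ i, ∑ j, wt hA hB i j * (f (hA.eigenvalues i) * g (hB.eigenvalues j)) := by
  rw [cfc_eq_conj hA, cfc_eq_conj hB]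
  set U := (hA.eigenvectorUnitary : Matrix n n ℂ) with hU
  set W := (hB.eigenvectorUnitary : Matrix n n ℂ) with hW
  have h1 : U * diagonal (fun i => ((f (hA.eigenvalues i) : ℝ) : ℂ)) * Uᴴ *
      (W * diagonal (fun i => ((g (hB.eigenvalues i) : ℝ) : ℂ)) * Wᴴ)
      = U * (diagonal (fun i => ((f (hA.eigenvalues i) : ℝ) : ℂ)) * (Uᴴ * W) *
        diagonal (fun i => ((g (hB.eigenvalues i) : ℝ) : ℂ)) * Wᴴ) := by
    simp only [mul_assoc]
  rw [h1, rtr_mul_comm]
  have h2 : diagonal (fun i => ((f (hA.eigenvalues i) : ℝ) : ℂ)) * (Uᴴ * W) *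
        diagonal (fun i => ((g (hB.eigenvalues i) : ℝ) : ℂ)) * Wᴴ * U
      = diagonal (fun i => ((f (hA.eigenvalues i) : ℝ) : ℂ)) * (Uᴴ * W) *
        diagonal (fun i => ((g (hB.eigenvalues i) : ℝ) : ℂ)) * (Uᴴ * W)ᴴ := by
    rw [conjTranspose_mul, conjTranspose_conjTranspose]
    simp only [mul_assoc]
  rw [h2]
  exact rtr_diag_mul (fun i => f (hA.eigenvalues i)) (fun j => g (hB.eigenvalues j)) _

/-- trace of a function of one matrix. -/
theorem rtr_cfc {A : Matrix n n ℂ} (hA : A.IsHermitian) (f : ℝ → ℝ) :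
    rtr (cfc f A) = ∑ i, f (hA.eigenvalues i) := by
  rw [cfc_eq_conj hA, rtr_mul_comm, ← mul_assoc, U_conj_mul hA, one_mul]
  simp [rtr, Matrix.trace_diagonal]

/-- **Klein's inequality**. -/
theorem klein {A B : Matrix n n ℂ} (hA : A.IsHermitian) (hB : B.IsHermitian) (φ φ' : ℝ → ℝ)
    (h : ∀ i j, φ (hB.eigenvalues j) + (hA.eigenvalues i - hB.eigenvalues j) *
      φ' (hB.eigenvalues j) ≤ φ (hA.eigenvalues i)) :
    rtr (cfc φ B) + rtr ((A - B) * cfc φ' B) ≤ rtr (cfc φ A) := by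
  have e1 : rtr (cfc φ A) = rtr (cfc φ A * cfc (fun _ : ℝ => (1:ℝ)) B) := by
    rw [cfc_one_eq hB, mul_one]
  have e2 : rtr (cfc φ B) = rtr (cfc (fun _ : ℝ => (1:ℝ)) A * cfc φ B) := by
    rw [cfc_one_eq hA, one_mul]
  have e3 : rtr (A * cfc φ' B) = rtr (cfc (fun x : ℝ => x) A * cfc φ' B) := by
    rw [cfc_id_eq hA]
  have e4 : rtr (B * cfc φ' B) =
      rtr (cfc (fun _ : ℝ => (1:ℝ)) A * cfc (fun x => x * φ' x) B) := by
    rw [cfc_one_eq hA, one_mul, ← cfc_mul_eq hB, cfc_id_eq hB]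
  rw [sub_mul, rtr_sub, e1, e2, e3, e4, rtr_cfc_mul_cfc hA hB, rtr_cfc_mul_cfc hA hB,
    rtr_cfc_mul_cfc hA hB, rtr_cfc_mul_cfc hA hB]
  rw [← Finset.sum_sub_distrib, ← Finset.sum_add_distrib]
  refine Finset.sum_le_sum fun i _ => ?_
  rw [← Finset.sum_sub_distrib, ← Finset.sum_add_distrib]
  refine Finset.sum_le_sum fun j _ => ?_
  have h1 := mul_le_mul_of_nonneg_left (h i j) (wt_nonneg hA hB i j)
  nlinarith [h1]

/-- Gibbs variational inequality. -/
theorem gibbs {H D : Matrix n n ℂ} (hH : H.IsHermitian) (hD : D.PosDef) :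
    rtr D + rtr (D * H) - rtr (D * cfc Real.log D) ≤ rtr (cfc Real.exp H) := by
  have hDh := hD.isHermitian
  have e1 : rtr (cfc Real.exp H) = rtr (cfc Real.exp H * cfc (fun _ : ℝ => (1:ℝ)) D) := by
    rw [cfc_one_eq hDh, mul_one]
  have e2 : rtr D = rtr (cfc (fun _ : ℝ => (1:ℝ)) H * cfc (fun x : ℝ => x) D) := by
    rw [cfc_one_eq hH, one_mul, cfc_id_eq hDh]
  have e3 : rtr (D * H) = rtr (cfc (fun x : ℝ => x) H * cfc (fun x : ℝ => x) D) := by
    rw [cfc_id_eq hH, cfc_id_eq hDh, rtr_mul_comm]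
  have e4 : rtr (D * cfc Real.log D) =
      rtr (cfc (fun _ : ℝ => (1:ℝ)) H * cfc (fun x => x * Real.log x) D) := by
    rw [cfc_one_eq hH, one_mul, ← cfc_mul_eq hDh, cfc_id_eq hDh]
  rw [e1, e3, e4]
  conv_lhs => rw [e2]
  rw [rtr_cfc_mul_cfc hH hDh, rtr_cfc_mul_cfc hH hDh, rtr_cfc_mul_cfc hH hDh,
    rtr_cfc_mul_cfc hH hDh]
  rw [← Finset.sum_add_distrib, ← Finset.sum_sub_distrib]
  refine Finset.sum_le_sum fun i _ => ?_
  rw [← Finset.sum_add_distrib, ← Finset.sum_sub_distrib]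
  refine Finset.sum_le_sum fun j _ => ?_
  set h := hH.eigenvalues i
  set d := hDh.eigenvalues j with hd
  have hdp : 0 < d := hD.eigenvalues_pos j
  have h1 : d + h * d - d * Real.log d ≤ Real.exp h := by
    have h2 := Real.add_one_le_exp (h - Real.log d)
    rw [Real.exp_sub, Real.exp_log hdp, le_div_iff₀ hdp] at h2
    linarith
  have h3 := mul_le_mul_of_nonneg_left h1 (wt_nonneg hH hDh i j)
  nlinarith [h3]

end LT
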