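import Crest.Agent.LT_Defs
import Crest.Agent.LT_Spec

/-!
Task LT-T01: the doubly stochastic formula for `tr (f(A) g(B))` and its corollaries.
`w i j = |⟨u_i, v_j⟩|²` for the eigenbases `u, v` of `A, B`. Mathlib: `Matrix.IsHermitian.spectral_theorem`,
`Matrix.IsHermitian.cfc_eq`, `Matrix.IsHermitian.cfc`.
-/

set_option autoImplicit false

namespace Crest.Agent.LT

open MeasureTheory Matrix Set Filter
open Crest.MathPhysics.LiebThirring
open scoped ComplexOrder Topology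

theorem T01_sum_wt_right {N : ℕ} {A B : Mt N} (hA : A.IsHermitian) (hB : B.IsHermitian)
    (i : Fin N) : ∑ j, _root_.LT.wt hA hB i j = 1 := by
  have h1 : ((hA.eigenvectorUnitary : Mt N)ᴴ * (hB.eigenvectorUnitary : Mt N)) *
      ((hA.eigenvectorUnitary : Mt N)ᴴ * (hB.eigenvectorUnitary : Mt N))ᴴ = 1 := by
    rw [conjTranspose_mul, conjTranspose_conjTranspose, mul_assoc,
      ← mul_assoc (hB.eigenvectorUnitary : Mt N), _root_.LT.U_mul_conj hB, one_mul,
      _root_.LT.U_conj_mul hA]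
  have h2 := congrFun (congrFun h1 i) i
  rw [Matrix.mul_apply, Matrix.one_apply_eq] at h2
  have h3 := congrArg Complex.re h2
  rw [Complex.re_sum, Complex.one_re] at h3
  rw [← h3]
  refine Finset.sum_congr rfl fun j _ => ?_
  rw [Matrix.conjTranspose_apply, Complex.star_def, Complex.mul_conj, Complex.ofReal_re]
  rfl

theorem T01_sum_wt_left {N : ℕ} {A B : Mt N} (hA : A.IsHermitian) (hB : B.IsHermitian)
    (j : Fin N) : ∑ i, _root_.LT.wt hA hB i j = 1 := by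
  have h1 : ((hA.eigenvectorUnitary : Mt N)ᴴ * (hB.eigenvectorUnitary : Mt N))ᴴ *
      ((hA.eigenvectorUnitary : Mt N)ᴴ * (hB.eigenvectorUnitary : Mt N)) = 1 := by
    rw [conjTranspose_mul, conjTranspose_conjTranspose, mul_assoc,
      ← mul_assoc (hA.eigenvectorUnitary : Mt N), _root_.LT.U_mul_conj hA, one_mul,
      _root_.LT.U_conj_mul hB]
  have h2 := congrFun (congrFun h1 j) j
  rw [Matrix.mul_apply, Matrix.one_apply_eq] at h2
  have h3 := congrArg Complex.re h2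
  rw [Complex.re_sum, Complex.one_re] at h3
  rw [← h3]
  refine Finset.sum_congr rfl fun i _ => ?_
  rw [Matrix.conjTranspose_apply, mul_comm, Complex.star_def, Complex.mul_conj, Complex.ofReal_re]
  rfl

theorem T01_tr_mul {N : ℕ} {A B : Mt N} (hA : A.IsHermitian) (hB : B.IsHermitian)
    (f g : ℝ → ℝ) :
    tr (cfc f A * cfc g B) =
      ∑ i, ∑ j, _root_.LT.wt hA hB i j * (f (hA.eigenvalues i) * g (hB.eigenvalues j)) :=
  _root_.LT.rtr_cfc_mul_cfc hA hB f g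

theorem tr_cfc_mul_cfc {N : ℕ} {A B : Mt N} (hA : A.IsHermitian) (hB : B.IsHermitian) :
    ∃ w : Fin N → Fin N → ℝ, (∀ i j, 0 ≤ w i j) ∧ (∀ i, ∑ j, w i j = 1) ∧ (∀ j, ∑ i, w i j = 1) ∧
      ∀ f g : ℝ → ℝ, tr (cfc f A * cfc g B) =
        ∑ i, ∑ j, w i j * (f (hA.eigenvalues i) * g (hB.eigenvalues j)) :=
  ⟨_root_.LT.wt hA hB, _root_.LT.wt_nonneg hA hB, T01_sum_wt_right hA hB, T01_sum_wt_left hA hB,
    T01_tr_mul hA hB⟩

/-- `tr f(A) = ∑ f(λ_i)`. -/
theorem tr_cfc {N : ℕ} {A : Mt N} (hA : A.IsHermitian) (f : ℝ → ℝ) :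
    tr (cfc f A) = ∑ i, f (hA.eigenvalues i) :=
  _root_.LT.rtr_cfc hA f

/-- General Klein inequality. -/
theorem klein_general {N k : ℕ} {A B : Mt N} (hA : A.IsHermitian) (hB : B.IsHermitian)
    (f g : Fin k → ℝ → ℝ)
    (h : ∀ x ∈ spectrum ℝ A, ∀ y ∈ spectrum ℝ B, 0 ≤ ∑ l, f l x * g l y) :
    0 ≤ ∑ l, tr (cfc (f l) A * cfc (g l) B) := by
  have e : ∑ l, tr (cfc (f l) A * cfc (g l) B) =
      ∑ i, ∑ j, _root_.LT.wt hA hB i j *
        ∑ l, f l (hA.eigenvalues i) * g l (hB.eigenvalues j) := by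
    simp_rw [T01_tr_mul hA hB]
    rw [Finset.sum_comm]
    refine Finset.sum_congr rfl fun i _ => ?_
    rw [Finset.sum_comm]
    refine Finset.sum_congr rfl fun j _ => ?_
    rw [Finset.mul_sum]
  rw [e]
  refine Finset.sum_nonneg fun i _ => Finset.sum_nonneg fun j _ => ?_
  refine mul_nonneg (_root_.LT.wt_nonneg hA hB i j) (h _ ?_ _ ?_)
  · rw [hA.spectrum_real_eq_range_eigenvalues]; exact ⟨i, rfl⟩
  · rw [hB.spectrum_real_eq_range_eigenvalues]; exact ⟨j, rfl⟩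

/-- `hs2 A = tr (A^* A)` -/
theorem hs2_eq_tr {m N : ℕ} (A : Matrix (Fin m) (Fin N) ℂ) : hs2 A = tr (Aᴴ * A) := by
  unfold hs2 tr Matrix.trace
  rw [Complex.re_sum, Finset.sum_comm]
  refine Finset.sum_congr rfl fun j _ => ?_
  rw [Matrix.diag_apply, Matrix.mul_apply, Complex.re_sum]
  refine Finset.sum_congr rfl fun i _ => ?_
  rw [Matrix.conjTranspose_apply, mul_comm, Complex.star_def, Complex.mul_conj, Complex.ofReal_re,
    Complex.normSq_eq_norm_sq]

theorem T01_tr_add {N : ℕ} (A B : Mt N) : tr (A + B) = tr A + tr B := _root_.LT.rtr_add A B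
theorem T01_tr_sub {N : ℕ} (A B : Mt N) : tr (A - B) = tr A - tr B := _root_.LT.rtr_sub A B
theorem T01_tr_comm {N : ℕ} (A B : Mt N) : tr (A * B) = tr (B * A) :=
  _root_.LT.rtr_mul_comm A B

/-- `hs2 (f(A) - g(B))` in terms of the weights. -/
theorem T01_hs2_cfc_sub {N : ℕ} {A B : Mt N} (hA : A.IsHermitian) (hB : B.IsHermitian)
    (f g : ℝ → ℝ) :
    hs2 (cfc f A - cfc g B) =
      ∑ i, ∑ j, _root_.LT.wt hA hB i j * (f (hA.eigenvalues i) - g (hB.eigenvalues j)) ^ 2 := by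
  have hh : (cfc f A - cfc g B)ᴴ = cfc f A - cfc g B :=
    ((_root_.LT.cfc_hermitian A f).sub (_root_.LT.cfc_hermitian B g))
  rw [hs2_eq_tr, hh]
  have e0 : (cfc f A - cfc g B) * (cfc f A - cfc g B) =
      cfc f A * cfc f A - cfc f A * cfc g B - (cfc g B * cfc f A - cfc g B * cfc g B) := by
    noncomm_ring
  rw [e0, T01_tr_sub, T01_tr_sub, T01_tr_sub, T01_tr_comm (cfc g B) (cfc f A)]
  have e1 : tr (cfc f A * cfc f A) =
      ∑ i, ∑ j, _root_.LT.wt hA hB i j * (f (hA.eigenvalues i) * f (hA.eigenvalues i)) := by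
    have : cfc f A * cfc f A = cfc (fun x => f x * f x) A * cfc (fun _ : ℝ => (1 : ℝ)) B := by
      rw [_root_.LT.cfc_mul_eq hA, _root_.LT.cfc_one_eq hB, mul_one]
    rw [this, T01_tr_mul hA hB]
    simp
  have e2 : tr (cfc g B * cfc g B) =
      ∑ i, ∑ j, _root_.LT.wt hA hB i j * (g (hB.eigenvalues j) * g (hB.eigenvalues j)) := by
    have : cfc g B * cfc g B = cfc (fun _ : ℝ => (1 : ℝ)) A * cfc (fun x => g x * g x) B := by
      rw [_root_.LT.cfc_mul_eq hB, _root_.LT.cfc_one_eq hA, one_mul]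
    rw [this, T01_tr_mul hA hB]
    simp
  rw [e1, e2, T01_tr_mul hA hB]
  simp only [← Finset.sum_sub_distrib]
  refine Finset.sum_congr rfl fun i _ => Finset.sum_congr rfl fun j _ => ?_
  ring

theorem T01_hs2_sub {N : ℕ} {A B : Mt N} (hA : A.IsHermitian) (hB : B.IsHermitian) :
    hs2 (A - B) =
      ∑ i, ∑ j, _root_.LT.wt hA hB i j * (hA.eigenvalues i - hB.eigenvalues j) ^ 2 := by
  have := T01_hs2_cfc_sub hA hB (fun x => x) (fun x => x)
  rwa [_root_.LT.cfc_id_eq hA, _root_.LT.cfc_id_eq hB] at this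

/-- Lipschitz functions are Hilbert–Schmidt Lipschitz. -/
theorem hs2_cfc_sub_le {N : ℕ} {A B : Mt N} (hA : A.IsHermitian) (hB : B.IsHermitian)
    (f : ℝ → ℝ) (L : ℝ) (hL : 0 ≤ L)
    (h : ∀ x ∈ spectrum ℝ A, ∀ y ∈ spectrum ℝ B, |f x - f y| ≤ L * |x - y|) :
    hs2 (cfc f A - cfc f B) ≤ L ^ 2 * hs2 (A - B) := by
  rw [T01_hs2_cfc_sub hA hB, T01_hs2_sub hA hB, Finset.mul_sum]
  refine Finset.sum_le_sum fun i _ => ?_
  rw [Finset.mul_sum]
  refine Finset.sum_le_sum fun j _ => ?_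
  have h1 := h (hA.eigenvalues i) (by rw [hA.spectrum_real_eq_range_eigenvalues]; exact ⟨i, rfl⟩)
    (hB.eigenvalues j) (by rw [hB.spectrum_real_eq_range_eigenvalues]; exact ⟨j, rfl⟩)
  have h2 : (f (hA.eigenvalues i) - f (hB.eigenvalues j)) ^ 2 ≤
      L ^ 2 * (hA.eigenvalues i - hB.eigenvalues j) ^ 2 := by
    rw [← sq_abs, ← sq_abs (hA.eigenvalues i - hB.eigenvalues j), ← mul_pow]
    exact pow_le_pow_left₀ (abs_nonneg _) h1 2
  have h3 := mul_le_mul_of_nonneg_left h2 (_root_.LT.wt_nonneg hA hB i j)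
  linarith

/-- the Taylor remainder in terms of the weights -/
theorem T01_remainder {N : ℕ} {A B : Mt N} (hA : A.IsHermitian) (hB : B.IsHermitian)
    (f f' : ℝ → ℝ) :
    tr (cfc f B) - tr (cfc f A) - tr (cfc f' A * (B - A)) =
      ∑ i, ∑ j, _root_.LT.wt hA hB i j *
        (f (hB.eigenvalues j) - f (hA.eigenvalues i) -
          f' (hA.eigenvalues i) * (hB.eigenvalues j - hA.eigenvalues i)) := by
  have e1 : tr (cfc f B) =
      ∑ i, ∑ j, _root_.LT.wt hA hB i j * (f (hB.eigenvalues j)) := by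
    have : cfc f B = cfc (fun _ : ℝ => (1 : ℝ)) A * cfc f B := by
      rw [_root_.LT.cfc_one_eq hA, one_mul]
    rw [this, T01_tr_mul hA hB]
    simp
  have e2 : tr (cfc f A) =
      ∑ i, ∑ j, _root_.LT.wt hA hB i j * (f (hA.eigenvalues i)) := by
    have : cfc f A = cfc f A * cfc (fun _ : ℝ => (1 : ℝ)) B := by
      rw [_root_.LT.cfc_one_eq hB, mul_one]
    rw [this, T01_tr_mul hA hB]
    simp
  have e3 : tr (cfc f' A * B) =
      ∑ i, ∑ j, _root_.LT.wt hA hB i j * (f' (hA.eigenvalues i) * hB.eigenvalues j) := by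
    have : cfc f' A * B = cfc f' A * cfc (fun x : ℝ => x) B := by
      rw [_root_.LT.cfc_id_eq hB]
    rw [this, T01_tr_mul hA hB]
  have e4 : tr (cfc f' A * A) =
      ∑ i, ∑ j, _root_.LT.wt hA hB i j * (f' (hA.eigenvalues i) * hA.eigenvalues i) := by
    have : cfc f' A * A = cfc (fun x => f' x * x) A * cfc (fun _ : ℝ => (1 : ℝ)) B := by
      rw [_root_.LT.cfc_one_eq hB, mul_one, ← _root_.LT.cfc_mul_eq hA, _root_.LT.cfc_id_eq hA]
    rw [this, T01_tr_mul hA hB]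
    simp
  rw [mul_sub, T01_tr_sub, e1, e2, e3, e4]
  simp only [← Finset.sum_sub_distrib]
  refine Finset.sum_congr rfl fun i _ => Finset.sum_congr rfl fun j _ => ?_
  ring

theorem T01_hs2_comm {N : ℕ} (A B : Mt N) : hs2 (A - B) = hs2 (B - A) := by
  unfold hs2
  refine Finset.sum_congr rfl fun i _ => Finset.sum_congr rfl fun j _ => ?_
  rw [Matrix.sub_apply, Matrix.sub_apply, norm_sub_rev]

/-- Taylor remainder, upper bound. -/
theorem abs_tr_cfc_remainder_le {N : ℕ} {A B : Mt N} (hA : A.IsHermitian) (hB : B.IsHermitian)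
    (f f' : ℝ → ℝ) (M : ℝ)
    (h : ∀ x ∈ spectrum ℝ A, ∀ y ∈ spectrum ℝ B, |f y - f x - f' x * (y - x)| ≤ M * (y - x) ^ 2) :
    |tr (cfc f B) - tr (cfc f A) - tr (cfc f' A * (B - A))| ≤ M * hs2 (B - A) := by
  rw [T01_remainder hA hB, T01_hs2_comm, T01_hs2_sub hA hB, Finset.mul_sum]
  refine (Finset.abs_sum_le_sum_abs _ _).trans (Finset.sum_le_sum fun i _ => ?_)
  rw [Finset.mul_sum]
  refine (Finset.abs_sum_le_sum_abs _ _).trans (Finset.sum_le_sum fun j _ => ?_)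
  have h1 := h (hA.eigenvalues i) (by rw [hA.spectrum_real_eq_range_eigenvalues]; exact ⟨i, rfl⟩)
    (hB.eigenvalues j) (by rw [hB.spectrum_real_eq_range_eigenvalues]; exact ⟨j, rfl⟩)
  rw [abs_mul, abs_of_nonneg (_root_.LT.wt_nonneg hA hB i j)]
  have h3 := mul_le_mul_of_nonneg_left h1 (_root_.LT.wt_nonneg hA hB i j)
  refine h3.trans (le_of_eq ?_)
  ring

/-- Taylor remainder, lower bound (Klein's inequality with a quadratic gap; `c = 0` is Klein's inequality). -/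
theorem tr_cfc_remainder_ge {N : ℕ} {A B : Mt N} (hA : A.IsHermitian) (hB : B.IsHermitian)
    (f f' : ℝ → ℝ) (c : ℝ)
    (h : ∀ x ∈ spectrum ℝ A, ∀ y ∈ spectrum ℝ B, c * (y - x) ^ 2 ≤ f y - f x - f' x * (y - x)) :
    c * hs2 (B - A) ≤ tr (cfc f B) - tr (cfc f A) - tr (cfc f' A * (B - A)) := by
  rw [T01_remainder hA hB, T01_hs2_comm, T01_hs2_sub hA hB, Finset.mul_sum]
  refine Finset.sum_le_sum fun i _ => ?_
  rw [Finset.mul_sum]
  refine Finset.sum_le_sum fun j _ => ?_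
  have h1 := h (hA.eigenvalues i) (by rw [hA.spectrum_real_eq_range_eigenvalues]; exact ⟨i, rfl⟩)
    (hB.eigenvalues j) (by rw [hB.spectrum_real_eq_range_eigenvalues]; exact ⟨j, rfl⟩)
  have h3 := mul_le_mul_of_nonneg_left h1 (_root_.LT.wt_nonneg hA hB i j)
  refine (le_of_eq ?_).trans h3
  ring

end Crest.Agent.LT
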