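import Crest.Agent.LT_Defs

/-!
Task LT-T02: continuity of the functional calculus on Hermitian matrices, jointly in a parameter.
Mathlib: `Mathlib/Analysis/CStarAlgebra/ContinuousFunctionalCalculus/Continuity.lean`
(`ContinuousOn.cfc_of_mem_nhdsSet`, `continuousOn_cfc_setProd_nhdsSet`) with `open scoped Matrix.Norms.L2Operator`;
or a direct proof.
-/

set_option autoImplicit false

namespace Crest.Agent.LT

open MeasureTheory Matrix Set Filter
open Crest.MathPhysics.LiebThirring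
open scoped ComplexOrder Topology

section T02

open scoped Matrix.Norms.L2Operator

theorem T02_isSelfAdjoint {N : ℕ} {A : Mt N} (h : A.IsHermitian) : IsSelfAdjoint A := h

/-- norm estimate for the difference in the function variable -/
theorem T02_norm_cfc_sub_le {N : ℕ} {A : Mt N} {f g : ℝ → ℝ} {k : Set ℝ}
    (hk : spectrum ℝ A ⊆ k) (hf : ContinuousOn f k) (hg : ContinuousOn g k) {ε : ℝ} (hε : 0 ≤ ε)
    (h : ∀ y ∈ k, |f y - g y| ≤ ε) : ‖cfc f A - cfc g A‖ ≤ ε := by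
  rw [← cfc_sub f g A (hf.mono hk) (hg.mono hk)]
  exact norm_cfc_le hε (fun y hy => by simpa [Real.norm_eq_abs] using h y (hk hy))

theorem continuousOn_cfc_param {N : ℕ} {X : Type*} [TopologicalSpace X] {s : Set X} {A : X → Mt N}
    (hA : ContinuousOn A s) (hH : ∀ x ∈ s, (A x).IsHermitian) {f : X → ℝ → ℝ} {t : Set ℝ}
    (ht : IsOpen t) (hf : ContinuousOn (fun p : X × ℝ => f p.1 p.2) (s ×ˢ t))
    (hspec : ∀ x ∈ s, spectrum ℝ (A x) ⊆ t) :
    ContinuousOn (fun x => cfc (f x) (A x)) s := by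
  intro x₀ hx₀
  have hs := ContinuousFunctionalCalculus.isCompact_spectrum (R := ℝ) (A x₀)
  have htn : t ∈ 𝓝ˢ (spectrum ℝ (A x₀)) := ht.mem_nhdsSet.mpr (hspec x₀ hx₀)
  obtain ⟨k, ⟨hka, hk⟩, hks⟩ := hs.nhdsSet_basis_isCompact.mem_iff.mp htn
  have hopen := (upperHemicontinuous_spectrum ℝ (Mt N)).isOpen k
  have hev : ∀ᶠ x in 𝓝[s] x₀, spectrum ℝ (A x) ⊆ k := by
    have h1 : ∀ᶠ x in 𝓝[s] x₀, A x ∈ {a : Mt N | k ∈ 𝓝ˢ (spectrum ℝ a)} :=
      (hA x₀ hx₀).eventually (hopen.mem_nhds hka)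
    filter_upwards [h1] with x hx
    exact subset_of_mem_nhdsSet hx
  have hself : ∀ᶠ x in 𝓝[s] x₀, x ∈ s := self_mem_nhdsWithin
  have hfx : ∀ x ∈ s, ContinuousOn (f x) k := by
    intro x hx
    have : ContinuousOn (fun y : ℝ => (x, y)) k := by fun_prop
    exact hf.comp this (fun y hy => ⟨hx, hks hy⟩)
  have hsec : Tendsto (fun x => cfc (f x₀) (A x)) (𝓝[s] x₀) (𝓝 (cfc (f x₀) (A x₀))) :=
    Filter.Tendsto.cfc (p := IsSelfAdjoint) hk (f x₀) (hA x₀ hx₀) hev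
      (hself.mono fun x hx => hH x hx) (subset_of_mem_nhdsSet hka) (hH x₀ hx₀) (hfx x₀ hx₀)
  have hfirst : Tendsto (fun x => cfc (f x) (A x) - cfc (f x₀) (A x)) (𝓝[s] x₀) (𝓝 0) := by
    rw [tendsto_zero_iff_norm_tendsto_zero, Metric.tendsto_nhds]
    intro ε hε
    -- tube lemma
    have hunif : ∀ᶠ x in 𝓝[s] x₀, ∀ y ∈ k, |f x y - f x₀ y| ≤ ε / 2 := by
      have key : ∀ y ∈ k, ∀ᶠ p in 𝓝[s] x₀ ×ˢ 𝓝[k] y, |f p.1 p.2 - f x₀ p.2| ≤ ε / 2 := by
        intro y hy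
        have h1 : Tendsto (fun p : X × ℝ => f p.1 p.2) (𝓝[s] x₀ ×ˢ 𝓝[k] y) (𝓝 (f x₀ y)) := by
          have := (hf (x₀, y) ⟨hx₀, hks hy⟩).tendsto
          rw [nhdsWithin_prod_eq] at this
          exact this.mono_left (Filter.prod_mono le_rfl (nhdsWithin_mono _ hks))
        have h2 : Tendsto (fun p : X × ℝ => f x₀ p.2) (𝓝[s] x₀ ×ˢ 𝓝[k] y) (𝓝 (f x₀ y)) :=
          ((hfx x₀ hx₀) y hy).tendsto.comp tendsto_snd
        have h3 : Tendsto (fun p : X × ℝ => |f p.1 p.2 - f x₀ p.2|) (𝓝[s] x₀ ×ˢ 𝓝[k] y) (𝓝 0) := by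
          simpa using (h1.sub h2).abs
        exact (h3.eventually (gt_mem_nhds (half_pos hε))).mono fun p hp => le_of_lt hp
      refine hk.induction_on (p := fun u => ∀ᶠ x in 𝓝[s] x₀, ∀ y ∈ u, |f x y - f x₀ y| ≤ ε / 2)
        ?_ ?_ ?_ ?_
      · simp
      · intro u v huv hv
        filter_upwards [hv] with x hx y hy using hx y (huv hy)
      · intro u v hu hv
        filter_upwards [hu, hv] with x hx hx' y hy
        exact hy.elim (hx y) (hx' y)
      · intro y hy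
        obtain ⟨pa, hpa, pb, hpb, hp⟩ := Filter.eventually_prod_iff.mp (key y hy)
        exact ⟨{z | pb z}, hpb, hpa.mono fun x hx z hz => hp hx hz⟩
    filter_upwards [hunif, hev, hself] with x h1 h2 h3
    have := T02_norm_cfc_sub_le h2 (hfx x h3) (hfx x₀ hx₀) (half_pos hε).le h1
    rw [Real.dist_eq, sub_zero, abs_of_nonneg (norm_nonneg _)]
    linarith
  have := hfirst.add hsec
  simpa [ContinuousWithinAt] using this

end T02

end Crest.Agent.LT
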