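import Crest.Agent.LT_Defs
import Crest.Agent.LT_T01
import Crest.Agent.LT_T02
/-!
Task LT-T46: Klein inequalities for powers, in the variable `K` (`B = K²`), `A = diag(κ²)`.
(a) `γ ≥ 1`: `tr K^{2γ} ≥ ∑ κ^{2γ} + γ tr (κ^{2γ-2} (K² - κ²))`.
(b) `0 < γ ≤ 1`: `∑ κ^{2γ} ≤ tr (K²+ε)^γ + γ tr ((K²+ε)^{γ-1} (κ² - K²))`, and `(t²+ε)^γ ≤ t^{2γ} + ε^γ`.
-/

set_option autoImplicit false

namespace Crest.Agent.LT

open MeasureTheory Matrix Set Filter
open Crest.MathPhysics.LiebThirring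
open scoped ComplexOrder Topology

theorem T46_diag_herm {N : ℕ} (κ : Fin N → ℝ) :
    (Matrix.diagonal fun j => ((κ j : ℝ) : ℂ) : Mt N).IsHermitian := by
  rw [Matrix.IsHermitian, Matrix.diagonal_conjTranspose]
  congr 1
  ext j
  simp

theorem T46_spec_diag {N : ℕ} (κ : Fin N → ℝ) {x : ℝ}
    (hx : x ∈ spectrum ℝ (Matrix.diagonal fun j => ((κ j : ℝ) : ℂ) : Mt N)) : ∃ j, κ j = x := by
  have h : algebraMap ℝ ℂ x ∈ spectrum ℂ (Matrix.diagonal fun j => ((κ j : ℝ) : ℂ) : Mt N) :=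
    (spectrum.algebraMap_mem_iff ℂ).2 hx
  rw [spectrum_diagonal] at h
  obtain ⟨j, hj⟩ := h
  exact ⟨j, by simpa using hj⟩

theorem T46_cont {N : ℕ} (A : Mt N) (f : ℝ → ℝ) : ContinuousOn f (spectrum ℝ A) :=
  (A.finite_real_spectrum).continuousOn f

/-- functional calculus of a diagonal matrix -/
theorem T46_cfc_diag {N : ℕ} (κ : Fin N → ℝ) (f : ℝ → ℝ) :
    cfc f (Matrix.diagonal fun j => ((κ j : ℝ) : ℂ) : Mt N) =
      Matrix.diagonal fun j => ((f (κ j) : ℝ) : ℂ) := by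
  classical
  set D : Mt N := Matrix.diagonal fun j => ((κ j : ℝ) : ℂ) with hD
  have hDs : IsSelfAdjoint D := T46_diag_herm κ
  let p : Polynomial ℝ := Lagrange.interpolate (Finset.univ.image κ) id f
  have hp : ∀ j, p.eval (κ j) = f (κ j) := fun j =>
    Lagrange.eval_interpolate_at_node (s := Finset.univ.image κ) (v := id) f
      (Function.injective_id.injOn) (Finset.mem_image_of_mem κ (Finset.mem_univ j))
  have h1 : cfc f D = cfc p.eval D := by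
    apply cfc_congr
    intro x hx
    obtain ⟨j, rfl⟩ := T46_spec_diag κ hx
    exact (hp j).symm
  rw [h1, cfc_polynomial p D hDs]
  have h2 : D = Matrix.diagonalAlgHom ℝ (fun j => ((κ j : ℝ) : ℂ)) := rfl
  rw [h2, Polynomial.aeval_algHom_apply]
  change Matrix.diagonal (Polynomial.aeval (fun j => ((κ j : ℝ) : ℂ)) p) = _
  congr 1
  ext j
  have h3 : Polynomial.aeval (fun j => ((κ j : ℝ) : ℂ)) p j =
      Polynomial.aeval ((κ j : ℝ) : ℂ) p :=
    (Polynomial.aeval_algHom_apply (Pi.evalAlgHom ℝ (fun _ : Fin N => ℂ) j)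
      (fun j => ((κ j : ℝ) : ℂ)) p).symm
  rw [h3, ← hp j]
  exact Polynomial.aeval_algebraMap_apply ℂ (κ j) p

theorem T46_tr_add {N : ℕ} (A B : Mt N) : tr (A + B) = tr A + tr B := by
  simp [tr, Matrix.trace_add]

theorem T46_tr_sub {N : ℕ} (A B : Mt N) : tr (A - B) = tr A - tr B := by
  simp [tr, Matrix.trace_sub]

theorem T46_tr_smul {N : ℕ} (c : ℝ) (A : Mt N) : tr (c • A) = c * tr A := by
  simp [tr, Matrix.trace_smul]

theorem T46_tr_diag {N : ℕ} (g : Fin N → ℝ) :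
    tr (Matrix.diagonal fun j => ((g j : ℝ) : ℂ) : Mt N) = ∑ j, g j := by
  simp [tr, Matrix.trace_diagonal]

theorem T46_sq {N : ℕ} {K : Mt N} (hK : K.IsHermitian) : cfc (fun t : ℝ => t ^ 2) K = K * K := by
  have := cfc_pow_id (R := ℝ) K 2 (ha := hK)
  rw [this, sq]

theorem T46_spec_nonneg {N : ℕ} {K : Mt N} (hK : K.PosSemidef) {y : ℝ} (hy : y ∈ spectrum ℝ K) :
    0 ≤ y := by
  rw [hK.1.spectrum_real_eq_range_eigenvalues] at hy
  obtain ⟨i, rfl⟩ := hy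
  exact hK.eigenvalues_nonneg i

/-- Bernoulli (convexity): `u^γ + γ u^{γ-1} (v - u) ≤ v^γ`. -/
theorem T46_bern_ge {γ u v : ℝ} (hγ : 1 ≤ γ) (hu : 0 < u) (hv : 0 ≤ v) :
    u ^ γ + γ * u ^ (γ - 1) * (v - u) ≤ v ^ γ := by
  have h := one_add_mul_self_le_rpow_one_add (s := v / u - 1) (by
    have := div_nonneg hv hu.le; linarith) hγ
  have h1 : (1 + (v / u - 1)) = v / u := by ring
  rw [h1, Real.div_rpow hv hu.le] at h
  have hup : 0 < u ^ γ := Real.rpow_pos_of_pos hu γ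
  have h2 := mul_le_mul_of_nonneg_left h hup.le
  have h3 : u ^ γ * (v ^ γ / u ^ γ) = v ^ γ := by field_simp
  have h4 : u ^ (γ - 1) = u ^ γ / u := by rw [Real.rpow_sub_one hu.ne']
  rw [h3] at h2
  rw [h4]
  have h5 : u ^ γ * (1 + γ * (v / u - 1)) = u ^ γ + γ * (u ^ γ / u) * (v - u) := by
    field_simp
  linarith

/-- Bernoulli (concavity): `v^γ ≤ u^γ + γ u^{γ-1} (v - u)`. -/
theorem T46_bern_le {γ u v : ℝ} (hγ0 : 0 ≤ γ) (hγ : γ ≤ 1) (hu : 0 < u) (hv : 0 ≤ v) :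
    v ^ γ ≤ u ^ γ + γ * u ^ (γ - 1) * (v - u) := by
  have h := rpow_one_add_le_one_add_mul_self (s := v / u - 1) (by
    have := div_nonneg hv hu.le; linarith) hγ0 hγ
  have h1 : (1 + (v / u - 1)) = v / u := by ring
  rw [h1, Real.div_rpow hv hu.le] at h
  have hup : 0 < u ^ γ := Real.rpow_pos_of_pos hu γ
  have h2 := mul_le_mul_of_nonneg_left h hup.le
  have h3 : u ^ γ * (v ^ γ / u ^ γ) = v ^ γ := by field_simp
  have h4 : u ^ (γ - 1) = u ^ γ / u := by rw [Real.rpow_sub_one hu.ne']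
  rw [h3] at h2
  rw [h4]
  have h5 : u ^ γ * (1 + γ * (v / u - 1)) = u ^ γ + γ * (u ^ γ / u) * (v - u) := by
    field_simp
  linarith

theorem T46_pow2 {x : ℝ} (hx : 0 ≤ x) (γ : ℝ) : x ^ (2 * γ) = (x ^ 2) ^ γ := by
  rw [Real.rpow_mul hx]
  norm_cast

theorem klein_ge_one {N : ℕ} {γ : ℝ} (hγ : 1 ≤ γ) {K : Mt N} (hK : K.PosSemidef) {κ : Fin N → ℝ}
    (hκ : ∀ j, 0 < κ j) :
    ∑ j, κ j ^ (2 * γ) +
        tr (Matrix.diagonal (fun j => ((γ * κ j ^ (2 * γ - 2) : ℝ) : ℂ)) *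
          (K * K - Matrix.diagonal fun j => ((κ j ^ 2 : ℝ) : ℂ))) ≤
      tr (cfc (fun t : ℝ => t ^ (2 * γ)) K) := by
  have hDH := T46_diag_herm κ
  set D : Mt N := Matrix.diagonal fun j => ((κ j : ℝ) : ℂ) with hD
  let f : Fin 3 → ℝ → ℝ := ![fun _ => 1, fun x => (γ - 1) * x ^ (2 * γ),
    fun x => -(γ * x ^ (2 * γ - 2))]
  let g : Fin 3 → ℝ → ℝ := ![fun y => y ^ (2 * γ), fun _ => 1, fun y => y ^ 2]
  have h := klein_general hDH hK.1 f g (by
    intro x hx y hy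
    obtain ⟨j, rfl⟩ := T46_spec_diag κ hx
    have hy0 := T46_spec_nonneg hK hy
    have hx0 := hκ j
    have hb := T46_bern_ge hγ (u := κ j ^ 2) (v := y ^ 2) (by positivity) (by positivity)
    have e1 : (κ j ^ 2) ^ (γ - 1) = κ j ^ (2 * γ - 2) := by
      rw [← T46_pow2 hx0.le]; congr 1; ring
    have e2 : κ j ^ (2 * γ - 2) * κ j ^ 2 = κ j ^ (2 * γ) := by
      rw [← Real.rpow_natCast, ← Real.rpow_add hx0]; congr 1; push_cast; ring
    rw [e1, ← T46_pow2 hx0.le, ← T46_pow2 hy0] at hb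
    simp only [f, g, Fin.sum_univ_three, Matrix.cons_val_zero, Matrix.cons_val_one,
      Matrix.cons_val]
    have e3 : γ * κ j ^ (2 * γ - 2) * (y ^ 2 - κ j ^ 2) =
      γ * κ j ^ (2 * γ - 2) * y ^ 2 - γ * κ j ^ (2 * γ) := by rw [← e2]; ring
    rw [e3] at hb
    linarith)
  simp only [f, g, Fin.sum_univ_three, Matrix.cons_val_zero, Matrix.cons_val_one,
      Matrix.cons_val] at h
  have hDs : IsSelfAdjoint D := hDH
  have hKs : IsSelfAdjoint K := hK.1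
  rw [cfc_const_one ℝ D hDs, cfc_const_one ℝ K hKs, one_mul, mul_one, T46_sq hK.1,
    T46_cfc_diag, T46_cfc_diag, T46_tr_diag] at h
  rw [mul_sub, T46_tr_sub, Matrix.diagonal_mul_diagonal]
  have e4 : (Matrix.diagonal fun j => ((-(γ * κ j ^ (2 * γ - 2)) : ℝ) : ℂ) : Mt N) * (K * K) =
      -((Matrix.diagonal fun j => ((γ * κ j ^ (2 * γ - 2) : ℝ) : ℂ) : Mt N) * (K * K)) := by
    rw [← neg_mul]
    congr 1
    ext i j
    by_cases hij : i = j
    · subst hij; simp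
    · simp [hij]
  have e5 : tr (Matrix.diagonal fun j => (((γ * κ j ^ (2 * γ - 2) : ℝ) : ℂ) *
      ((κ j ^ 2 : ℝ) : ℂ)) : Mt N) = γ * ∑ j, κ j ^ (2 * γ) := by
    have : (fun j => (((γ * κ j ^ (2 * γ - 2) : ℝ) : ℂ) * ((κ j ^ 2 : ℝ) : ℂ))) =
        fun j => ((γ * κ j ^ (2 * γ) : ℝ) : ℂ) := by
      ext j
      rw [← Complex.ofReal_mul]
      congr 1
      rw [mul_assoc, ← Real.rpow_natCast, ← Real.rpow_add (hκ j)]; congr 2; push_cast; ring
    rw [this, T46_tr_diag, Finset.mul_sum]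
  rw [e4] at h
  have e6 : tr (-((Matrix.diagonal fun j => ((γ * κ j ^ (2 * γ - 2) : ℝ) : ℂ) : Mt N) * (K * K)))
      = -tr ((Matrix.diagonal fun j => ((γ * κ j ^ (2 * γ - 2) : ℝ) : ℂ) : Mt N) * (K * K)) := by
    simp [tr, Matrix.trace_neg]
  rw [e6, ← Finset.mul_sum] at h
  rw [e5]
  linarith

theorem klein_le_one {N : ℕ} {γ ε : ℝ} (hγ0 : 0 < γ) (hγ : γ ≤ 1) (hε : 0 < ε) {K : Mt N}
    (hK : K.PosSemidef) {κ : Fin N → ℝ} (hκ : ∀ j, 0 < κ j) :
    ∑ j, κ j ^ (2 * γ) +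
        tr (cfc (fun t : ℝ => γ * (t ^ 2 + ε) ^ (γ - 1)) K *
          (K * K - Matrix.diagonal fun j => ((κ j ^ 2 : ℝ) : ℂ))) ≤
      tr (cfc (fun t : ℝ => t ^ (2 * γ)) K) + N * ε ^ γ := by
  have hDH := T46_diag_herm κ
  set D : Mt N := Matrix.diagonal fun j => ((κ j : ℝ) : ℂ) with hD
  set w : ℝ → ℝ := fun t : ℝ => γ * (t ^ 2 + ε) ^ (γ - 1) with hw
  let f : Fin 5 → ℝ → ℝ := ![fun y => y ^ (2 * γ), fun _ => ε ^ γ, fun y => w y * y ^ 2,
    fun _ => 1, w]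
  let g : Fin 5 → ℝ → ℝ := ![fun _ => 1, fun _ => 1, fun _ => -1, fun x => -x ^ (2 * γ),
    fun x => x ^ 2]
  have h := klein_general hK.1 hDH f g (by
    intro y hy x hx
    obtain ⟨j, rfl⟩ := T46_spec_diag κ hx
    have hy0 := T46_spec_nonneg hK hy
    have hx0 := hκ j
    have hb := T46_bern_le hγ0.le hγ (u := y ^ 2 + ε) (v := κ j ^ 2) (by positivity)
      (by positivity)
    have hs := Real.rpow_add_le_add_rpow (a := y ^ 2) (b := ε) (by positivity) hε.le hγ0.le hγ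
    rw [← T46_pow2 hx0.le] at hb
    rw [← T46_pow2 hy0] at hs
    have hwp : 0 ≤ γ * (y ^ 2 + ε) ^ (γ - 1) := by positivity
    have hwe := mul_nonneg hwp hε.le
    simp only [f, g, Fin.sum_univ_five, Matrix.cons_val_zero, Matrix.cons_val_one,
      Matrix.cons_val, hw]
    linarith)
  simp only [f, g, Fin.sum_univ_five, Matrix.cons_val_zero, Matrix.cons_val_one,
      Matrix.cons_val] at h
  have hDs : IsSelfAdjoint D := hDH
  have hKs : IsSelfAdjoint K := hK.1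
  have c1 : cfc (fun _ : ℝ => (-1 : ℝ)) D = -1 := by
    rw [T46_cfc_diag]
    ext i j
    by_cases hij : i = j
    · subst hij; simp
    · simp [hij]
  have c2 : tr (cfc (fun _ : ℝ => ε ^ γ) K) = N * ε ^ γ := by
    rw [cfc_const (ε ^ γ) K hKs, Algebra.algebraMap_eq_smul_one, T46_tr_smul]
    simp [tr, mul_comm]
  have c3 : cfc (fun y : ℝ => w y * y ^ 2) K = cfc w K * (K * K) := by
    rw [cfc_mul w (fun y => y ^ 2) K (T46_cont _ _) (T46_cont _ _), T46_sq hK.1]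
  rw [cfc_const_one ℝ D hDs, cfc_const_one ℝ K hKs, one_mul, mul_one, mul_one, c1, c2, c3,
    T46_cfc_diag, T46_cfc_diag, T46_tr_diag] at h
  rw [mul_sub, T46_tr_sub]
  have e6 : tr (cfc w K * (K * K) * (-1 : Mt N)) = -tr (cfc w K * (K * K)) := by
    simp [tr, Matrix.trace_neg]
  rw [e6, Finset.sum_neg_distrib] at h
  linarith

end Crest.Agent.LT
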