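import Crest.Agent.LT_Conv1
import Crest.Agent.LT_T46

/-!
# LT-Conv2: soliton sums are extremal (backward direction of S0516)
-/

set_option autoImplicit false

namespace Crest.Agent.LT

open MeasureTheory Matrix Set Filter
open Crest.MathPhysics.LiebThirring
open scoped ComplexOrder Topology ContDiff

/-- functional calculus and unitary conjugation. -/
theorem Conv_cfc_conj {m : ℕ} (U : Matrix.unitaryGroup (Fin m) ℂ) {A : Mt m} (hA : A.IsHermitian)
    (f : ℝ → ℝ) :
    cfc f ((U : Mt m) * A * star (U : Mt m)) = (U : Mt m) * cfc f A * star (U : Mt m) := by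
  have hsa : IsSelfAdjoint A := hA
  have h := StarAlgHomClass.map_cfc (S := ℂ) (p := IsSelfAdjoint) (q := IsSelfAdjoint)
    (Unitary.conjStarAlgAut ℂ (Mt m) U) f A (T46_cont A f) (by
      show Continuous fun x : Mt m => (U : Mt m) * x * star (U : Mt m)
      fun_prop) hsa (by
      have : IsSelfAdjoint ((U : Mt m) * A * star (U : Mt m)) := by
        rw [isSelfAdjoint_iff, star_mul, star_mul, star_star, hsa.star_eq, mul_assoc]
      exact this)
  exact h.symm

theorem Conv_tracePow {m : ℕ} (U : Matrix.unitaryGroup (Fin m) ℂ) (κ : Fin m → ℝ) (p : ℝ) :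
    tracePow ((U : Mt m) * Matrix.diagonal (fun i => ((κ i : ℝ) : ℂ)) * star (U : Mt m)) p =
      ∑ i, κ i ^ p := by
  unfold tracePow
  rw [Conv_cfc_conj U (T46_diag_herm κ), Matrix.trace_mul_comm, ← mul_assoc,
    Unitary.coe_star_mul_self, one_mul, T46_cfc_diag]
  simp [Matrix.trace_diagonal]

theorem Conv_negMoment {m : ℕ} (E : Fin m → ℝ) (γ : ℝ) :
    negMoment (Matrix.diagonal (fun i => ((E i : ℝ) : ℂ)) : Mt m) γ =
      ∑ i, (max (-E i) 0) ^ γ := by
  unfold negMoment
  rw [T46_cfc_diag]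
  simp [Matrix.trace_diagonal]

/-- column of a unitary matrix as a vector -/
noncomputable def Cu {m : ℕ} (U : Matrix.unitaryGroup (Fin m) ℂ) (k : Fin m) : Vec m :=
  WithLp.toLp 2 (fun i => (U : Mt m) i k)

theorem Cu_inner {m : ℕ} (U : Matrix.unitaryGroup (Fin m) ℂ) (k l : Fin m) :
    inner ℂ (Cu U k) (Cu U l) = if k = l then (1:ℂ) else 0 := by
  have h1 : star (U : Mt m) * (U : Mt m) = 1 := Unitary.coe_star_mul_self U
  have h2 := congrFun (congrFun h1 k) l
  rw [Matrix.mul_apply, Matrix.one_apply] at h2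
  rw [← h2, PiLp.inner_apply]
  refine Finset.sum_congr rfl fun i _ => ?_
  simp [Cu, Matrix.star_apply, mul_comm]

theorem Cu_eigen {m : ℕ} (U : Matrix.unitaryGroup (Fin m) ℂ) (κ : Fin m → ℝ) (l : Fin m) :
    Matrix.toEuclideanLin ((U : Mt m) * Matrix.diagonal (fun i => ((κ i : ℝ) : ℂ)) *
      star (U : Mt m)) (Cu U l) = ((κ l : ℝ) : ℂ) • Cu U l := by
  have h1 : star (U : Mt m) * (U : Mt m) = 1 := Unitary.coe_star_mul_self U
  have h2 : (U : Mt m) * Matrix.diagonal (fun i => ((κ i : ℝ) : ℂ)) * star (U : Mt m) * (U : Mt m)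
      = (U : Mt m) * Matrix.diagonal (fun i => ((κ i : ℝ) : ℂ)) := by
    rw [mul_assoc, h1, mul_one]
  ext i
  have h3 := congrFun (congrFun h2 i) l
  rw [Matrix.mul_apply, Matrix.mul_diagonal] at h3
  simp only [Matrix.toLpLin_apply, Cu, Matrix.mulVec, dotProduct, PiLp.smul_apply, smul_eq_mul]
  rw [h3]
  ring

/-- **backward direction of S0516.** -/
theorem soliton_dir
    (γ : ℝ) (hγ : 1 / 2 < γ) (m : ℕ)
    (W : ℝ → Matrix (Fin m) (Fin m) ℂ)
    (U : Matrix.unitaryGroup (Fin m) ℂ) (a c : Fin m → ℝ) (ha : ∀ i, 0 ≤ a i)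
    (hW : ∀ᵐ x : ℝ, W x = (U : Matrix (Fin m) (Fin m) ℂ) *
          Matrix.diagonal (fun i => ((soliton (γ - 1 / 2)⁻¹ (a i) (c i) x : ℝ) : ℂ)) *
            star (U : Matrix (Fin m) (Fin m) ℂ))
    (ε : ℝ) (hε : 0 < ε) :
    ∃ (n : ℕ) (φ : Fin n → ℝ → Vec m), IsTrialFamily φ ∧
        sharpConst γ * (∫ x, tracePow (W x) (γ + 1 / 2)) - ε < negMoment (energyMatrix W φ) γ := by
  have h0 : 0 < γ - 1 / 2 := by linarith
  have hγ0 : 0 < γ := by linarith
  set r := (γ - 1 / 2)⁻¹ with hr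
  -- the right hand side
  have hint : sharpConst γ * (∫ x, tracePow (W x) (γ + 1 / 2)) = ∑ i, a i ^ (2 * γ) := by
    have h1 : ∫ x, tracePow (W x) (γ + 1 / 2) =
        ∫ x, ∑ i, (soliton r (a i) (c i) x) ^ (γ + 1 / 2) := by
      apply integral_congr_ae
      filter_upwards [hW] with x hx
      rw [hx, Conv_tracePow]
    rw [h1, integral_finsetSum _ fun i _ => (Conv_soliton_integral hγ (ha i) (c i)).1,
      Finset.mul_sum]
    exact Finset.sum_congr rfl fun i _ => (Conv_soliton_integral hγ (ha i) (c i)).2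
  rw [hint]
  -- choice of `δ`
  have hcont : Tendsto (fun δ : ℝ => ∑ i, (max (a i ^ 2 - δ) 0) ^ γ) (𝓝[>] 0)
      (𝓝 (∑ i, a i ^ (2 * γ))) := by
    have h1 : Continuous (fun δ : ℝ => ∑ i, (max (a i ^ 2 - δ) 0) ^ γ) := by
      apply continuous_finsetSum
      intro i _
      exact ((continuous_const.sub continuous_id).max continuous_const).rpow_const
        fun _ => Or.inr hγ0.le
    have h2 : Tendsto (fun δ : ℝ => ∑ i, (max (a i ^ 2 - δ) 0) ^ γ) (𝓝 0)
        (𝓝 (∑ i, (max (a i ^ 2 - 0) 0) ^ γ)) := h1.tendsto 0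
    have h3 : (∑ i, (max (a i ^ 2 - 0) 0) ^ γ) = ∑ i, a i ^ (2 * γ) := by
      refine Finset.sum_congr rfl fun i _ => ?_
      rw [sub_zero, max_eq_left (sq_nonneg _), ← Real.rpow_natCast (a i) 2,
        ← Real.rpow_mul (ha i)]
      norm_num
    rw [h3] at h2
    exact h2.mono_left nhdsWithin_le_nhds
  have hev : ∀ᶠ δ in 𝓝[>] (0:ℝ), (∑ i, a i ^ (2 * γ)) - ε < ∑ i, (max (a i ^ 2 - δ) 0) ^ γ :=
    hcont.eventually (lt_mem_nhds (by linarith))
  obtain ⟨δ, hδ1, hδ2⟩ := (hev.and self_mem_nhdsWithin).exists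
  have hδ : 0 < δ := hδ2
  choose s hs1 hs2 hs3 hs4 using fun i => soliton_trial h0 (a i) (c i) hδ
  have hsd : ∀ k x, HasDerivAt (s k) (deriv (s k) x) x := fun k x =>
    ((hs1 k).differentiable (by simp) x).hasDerivAt
  refine ⟨m, fun k x => ((s k x : ℝ) : ℂ) • Cu U k, ⟨?_, ?_, ?_⟩, ?_⟩
  · intro k
    have h1 : ContDiff ℝ ∞ (fun x => ((s k x : ℝ) : ℂ)) :=
      Complex.ofRealCLM.contDiff.comp (hs1 k)
    exact h1.smul contDiff_const
  · intro k
    apply (hs2 k).mono
    intro x hx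
    simp only [Function.mem_support] at hx ⊢
    intro h
    apply hx
    simp [h]
  · intro k l
    have h1 : ∀ x, inner ℂ (((s k x : ℝ) : ℂ) • Cu U k) (((s l x : ℝ) : ℂ) • Cu U l) =
        if k = l then (((s k x) ^ 2 : ℝ) : ℂ) else 0 := by
      intro x
      rw [inner_smul_left, inner_smul_right, Cu_inner, Complex.conj_ofReal]
      split_ifs with hkl
      · subst hkl; push_cast; ring
      · simp
    simp_rw [h1]
    split_ifs with hkl
    · rw [integral_complex_ofReal, hs3 k]; simp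
    · simp
  · -- the energy matrix
    set E : Fin m → ℝ := fun k => ∫ x, ((deriv (s k) x) ^ 2 - soliton r (a k) (c k) x * s k x ^ 2)
      with hE
    have hen : energyMatrix W (fun k x => ((s k x : ℝ) : ℂ) • Cu U k) =
        Matrix.diagonal (fun k => ((E k : ℝ) : ℂ)) := by
      ext k l
      unfold energyMatrix
      rw [Matrix.of_apply, Matrix.diagonal_apply]
      have hd : ∀ k x, deriv (fun x => ((s k x : ℝ) : ℂ) • Cu U k) x =
          ((deriv (s k) x : ℝ) : ℂ) • Cu U k := by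
        intro k x
        have h1 : HasDerivAt (fun x => ((s k x : ℝ) : ℂ)) ((deriv (s k) x : ℝ) : ℂ) x :=
          (hsd k x).ofReal_comp
        exact (h1.smul_const (Cu U k)).deriv
      have h1 : ∀ᵐ x : ℝ, inner ℂ (deriv (fun x => ((s k x : ℝ) : ℂ) • Cu U k) x)
          (deriv (fun x => ((s l x : ℝ) : ℂ) • Cu U l) x) -
          inner ℂ (((s k x : ℝ) : ℂ) • Cu U k)
            (Matrix.toEuclideanLin (W x) (((s l x : ℝ) : ℂ) • Cu U l)) =
          if k = l then (((deriv (s k) x) ^ 2 - soliton r (a k) (c k) x * s k x ^ 2 : ℝ) : ℂ)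
            else 0 := by
        filter_upwards [hW] with x hx
        rw [hd, hd, map_smul, hx, Cu_eigen, inner_smul_left, inner_smul_right, inner_smul_left,
          inner_smul_right, inner_smul_right, Cu_inner, Complex.conj_ofReal, Complex.conj_ofReal]
        split_ifs with hkl
        · subst hkl; push_cast; ring
        · simp
      rw [integral_congr_ae h1]
      split_ifs with hkl
      · rw [integral_complex_ofReal]
      · simp
    rw [hen, Conv_negMoment]
    refine hδ1.trans_le ?_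
    refine Finset.sum_le_sum fun k _ => ?_
    apply Real.rpow_le_rpow (le_max_right _ _) _ hγ0.le
    apply max_le_max _ le_rfl
    have := hs4 k
    simp only [hE]
    linarith

end Crest.Agent.LT
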