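import Crest.Agent.LTE_Defs
import Crest.Agent.LT_Conv2

/-!
Task LTE-B3: assembly of (⇐), from `soliton_dir` (helper79, `LT_Conv2.lean`).
-/

set_option autoImplicit false

namespace Crest.Agent.LT

open MeasureTheory Matrix Set Filter
open Crest.MathPhysics.LiebThirring
open scoped ComplexOrder Topology

theorem solitonSum_nearOpt {m : ℕ} {γ : ℝ} (hγ : 1 / 2 < γ)
    {W : ℝ → Matrix (Fin m) (Fin m) ℂ} (h : IsSolitonSum W γ) : NearOpt W γ := by
  obtain ⟨U, a, c, ha, hW⟩ := h
  intro ε hε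
  exact soliton_dir γ hγ m W U a c ha hW ε hε

end Crest.Agent.LT
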