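import Crest.Agent.LT_Defs

/-!
# Row S0515/S0516, equality cases (S0516): definitions of the blueprint `LTE_*`

Notation: `α = γ - 1/2 ∈ (0,1)`, `p = 1 + α`, `r = 1/α`, `s = r + 1`, `w₀ = (tr W^p)^{1/p}`.
-/

set_option autoImplicit false

namespace Crest.Agent.LT

open MeasureTheory Matrix Set Filter
open Crest.MathPhysics.LiebThirring
open scoped ComplexOrder Topology

/-- real diagonal matrix -/
noncomputable def dg {n : ℕ} (k : Fin n → ℝ) : Mt n := Matrix.diagonal fun j => ((k j : ℝ) : ℂ)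

/-- `V - s (K² - F²)`, `s = 1/α + 1` -/
noncomputable def vErr {N : ℕ} (α : ℝ) (K F V : Mt N) : Mt N :=
  V - ((1 / α + 1 : ℝ) : ℂ) • (K * K - F * F)

/-- The stability density: `‖[K², F]‖² + ‖V - s (K² - F²)‖² / (1 + tr V)`. -/
noncomputable def hjErr {N : ℕ} (α : ℝ) (K F V : Mt N) : ℝ :=
  hs2 (K * K * F - F * (K * K)) + hs2 (vErr α K F V) / (1 + tr V)

/-- `w₀(x) = (tr W(x)^{γ+1/2})^{1/(γ+1/2)}` -/
noncomputable def wzero {m : ℕ} (W : ℝ → Matrix (Fin m) (Fin m) ℂ) (γ : ℝ) (x : ℝ) : ℝ :=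
  (tracePow (W x) (γ + 1 / 2)) ^ (1 / (γ + 1 / 2))

/-- Schatten `s`-norm of a positive matrix. -/
noncomputable def sch {N : ℕ} (s : ℝ) (P : Mt N) : ℝ := (tr (cfc (fun t : ℝ => t ^ s) P)) ^ (1 / s)

/-- entries of a matrix, extended by zero to all indices in `ℕ` -/
noncomputable def ext0 {N : ℕ} (A : Mt N) (i j : ℕ) : ℂ :=
  if h : i < N ∧ j < N then A ⟨i, h.1⟩ ⟨j, h.2⟩ else 0

/-- upper left `n × n` block (extended by zero if `n > N`) -/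
noncomputable def blk {N : ℕ} (n : ℕ) (A : Mt N) : Mt n := Matrix.of fun i j => ext0 A i j

/-- squared Hilbert–Schmidt norm of the upper right block -/
noncomputable def offblk {N : ℕ} (n : ℕ) (A : Mt N) : ℝ :=
  ∑ i : Fin N, ∑ j : Fin N, if (i : ℕ) < n ∧ n ≤ (j : ℕ) then ‖A i j‖ ^ 2 else 0

/-- A vector extended by zero. -/
noncomputable def extv {N : ℕ} (k : Fin N → ℝ) (j : ℕ) : ℝ := if h : j < N then k ⟨j, h⟩ else 0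

/-- `Ψ' - Ψ F` for `Ψ = Φ G` -/
noncomputable def dErr {m N : ℕ} (φ : Fin N → ℝ → Vec m) (G : Mt N) (F : ℝ → Mt N) (x : ℝ) :
    Matrix (Fin m) (Fin N) ℂ := dPhi φ x * G - Phi φ x * G * F x

/-- Hölder deficit `w₀ ‖P‖_{r+1} - tr (W Ψ Ψ^*)` -/
noncomputable def hErr {m N : ℕ} (W : ℝ → Matrix (Fin m) (Fin m) ℂ) (γ : ℝ)
    (φ : Fin N → ℝ → Vec m) (G : Mt N) (x : ℝ) : ℝ :=
  wzero W γ x * sch (1 / (γ - 1 / 2) + 1) (Pmat φ G x) - tr (W x * (Phi φ x * G * (Phi φ x * G)ᴴ))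

/-- A weight `𝒢` adapted to the energies `κ`: bounded, bounded below on `K ≤ κ₁`, and satisfying Klein's inequality. -/
structure Weight {N : ℕ} (γ : ℝ) (κ : Fin N → ℝ) (κ₁ c₀ C₀ : ℝ) (𝒢 : Mt N → Mt N) : Prop where
  cont : ContinuousOn 𝒢 {K | K.PosSemidef}
  psd : ∀ K : Mt N, K.PosSemidef → (𝒢 K).PosSemidef
  upper : ∀ K : Mt N, K.PosSemidef → (((C₀ : ℝ) : ℂ) • (1 : Mt N) - 𝒢 K).PosSemidef
  lower : ∀ K : Mt N, K.PosSemidef → (((κ₁ : ℝ) : ℂ) • (1 : Mt N) - K).PosSemidef →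
    (𝒢 K - ((c₀ : ℝ) : ℂ) • (1 : Mt N)).PosSemidef
  klein : ∀ K : Mt N, K.PosSemidef → ∑ j, κ j ^ (2 * γ) +
    tr (𝒢 K * 𝒢 K * (K * K - dg fun j => κ j ^ 2)) ≤ tr (cfc (fun t : ℝ => t ^ (2 * γ)) K)

/-- A sequence of near-optimal Riccati paths (arbitrary dimensions `N i`), `K i = diag (k i)`. -/
structure PathSeq (m : ℕ) (α : ℝ) (f₀ : ℝ → ℝ) where
  N : ℕ → ℕ
  R : ℕ → ℝ
  k : ∀ i, Fin (N i) → ℝ
  F : ∀ i, ℝ → Mt (N i)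
  V : ∀ i, ℝ → Mt (N i)
  w : ℕ → ℝ → ℝ
  κ : ℝ
  ric : ∀ i, Riccati (R i) (dg (k i)) (F i) (V i)
  anti : ∀ i, Antitone (k i)
  nonneg : ∀ i j, 0 ≤ k i j
  kbound : ∀ i j, k i j ≤ κ
  ksum : ∀ i, ∑ j, (k i j) ^ (2 * α + 1) ≤ κ
  Vpsd : ∀ i x, (V i x).PosSemidef
  Vcont : ∀ i, Continuous (V i)
  rank : ∀ i x, (V i x).rank ≤ m
  wcont : ∀ i, Continuous (w i)
  wnonneg : ∀ i x, 0 ≤ w i x
  trV : ∀ i x, tr (cfc (fun t : ℝ => t ^ (1 + α)) (V i x)) ≤ (w i x) ^ (1 + α)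
  hR : Tendsto R atTop atTop
  hwint : ∀ i, Integrable fun x => |w i x - f₀ x| ^ (1 + α)
  hw : Tendsto (fun i => ∫ x, |w i x - f₀ x| ^ (1 + α)) atTop (𝓝 0)
  err : Tendsto (fun i => ∫ x in (-(R i))..(R i), hjErr α (dg (k i)) (F i x) (V i x)) atTop (𝓝 0)
  defect : Tendsto (fun i => ∫ x in (-(R i))..(R i),
    ((w i x) ^ (1 + α) - tr (cfc (fun t : ℝ => t ^ (1 + α)) (V i x)))) atTop (𝓝 0)

/-- A sequence of near-optimal families of fixed size `N` together with their Riccati paths. -/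
structure FamSeq (m N : ℕ) (γ : ℝ) (W : ℝ → Matrix (Fin m) (Fin m) ℂ) where
  φ : ℕ → Fin N → ℝ → Vec m
  trial : ∀ i, IsTrialFamily (φ i)
  κ : ℕ → Fin N → ℝ
  κ₀ : ℝ
  κ₀pos : 0 < κ₀
  κlower : ∀ i j, κ₀ ≤ κ i j
  energy : ∀ i, energyMatrix W (φ i) = Matrix.diagonal (fun j => ((-(κ i j ^ 2) : ℝ) : ℂ))
  G : ℕ → Mt N
  c₀ : ℝ
  C₀ : ℝ
  c₀pos : 0 < c₀
  Gherm : ∀ i, (G i).IsHermitian
  Glower : ∀ i, (G i - ((c₀ : ℝ) : ℂ) • (1 : Mt N)).PosSemidef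
  Gupper : ∀ i, (((C₀ : ℝ) : ℂ) • (1 : Mt N) - G i).PosSemidef
  R : ℕ → ℝ
  K : ℕ → Mt N
  F : ℕ → ℝ → Mt N
  w : ℕ → ℝ → ℝ
  δ : ℕ → ℝ
  δpos : ∀ i, 0 < δ i
  hδ : Tendsto δ atTop (𝓝 0)
  hR : Tendsto R atTop atTop
  ric : ∀ i, Riccati (R i) (K i) (F i) (fun x => VK (1 / (γ - 1 / 2)) (w i x) (δ i) (Pmat (φ i) (G i) x))
  κ₁ : ℝ
  Kbound : ∀ i, (((κ₁ : ℝ) : ℂ) • (1 : Mt N) - K i).PosSemidef
  supp : ∀ i k x, x ∉ Ioo (-(R i)) (R i) → φ i k x = 0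
  wcont : ∀ i, Continuous (w i)
  wnonneg : ∀ i x, 0 ≤ w i x
  hwint : ∀ i, Integrable fun x => |w i x - wzero W γ x| ^ (γ + 1 / 2)
  hw : Tendsto (fun i => ∫ x, |w i x - wzero W γ x| ^ (γ + 1 / 2)) atTop (𝓝 0)
  err : Tendsto (fun i => ∫ x in (-(R i))..(R i), hjErr (γ - 1 / 2) (K i) (F i x)
    (VK (1 / (γ - 1 / 2)) (w i x) (δ i) (Pmat (φ i) (G i) x))) atTop (𝓝 0)
  defect : Tendsto (fun i => ∫ x in (-(R i))..(R i),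
    ((w i x) ^ (γ + 1 / 2) - tr (cfc (fun t : ℝ => t ^ (γ + 1 / 2))
      (VK (1 / (γ - 1 / 2)) (w i x) (δ i) (Pmat (φ i) (G i) x))))) atTop (𝓝 0)
  derr : Tendsto (fun i => ∫ x in (-(R i))..(R i), hs2 (dErr (φ i) (G i) (F i) x)) atTop (𝓝 0)
  herr : Tendsto (fun i => ∫ x in (-(R i))..(R i), hErr W γ (φ i) (G i) x) atTop (𝓝 0)

/-- The hypothesis of S0516 (⇒): trial families come within every `ε` of the Lieb–Thirring bound. -/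
def NearOpt {m : ℕ} (W : ℝ → Matrix (Fin m) (Fin m) ℂ) (γ : ℝ) : Prop :=
  ∀ ε : ℝ, 0 < ε → ∃ (n : ℕ) (φ : Fin n → ℝ → Vec m), IsTrialFamily φ ∧
    sharpConst γ * (∫ x, tracePow (W x) (γ + 1 / 2)) - ε < negMoment (energyMatrix W φ) γ

/-- The conclusion of S0516 (⇒). -/
def IsSolitonSum {m : ℕ} (W : ℝ → Matrix (Fin m) (Fin m) ℂ) (γ : ℝ) : Prop :=
  ∃ (U : Matrix.unitaryGroup (Fin m) ℂ) (a c : Fin m → ℝ), (∀ i, 0 ≤ a i) ∧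
    ∀ᵐ x : ℝ, W x = (U : Matrix (Fin m) (Fin m) ℂ) *
      Matrix.diagonal (fun i => ((soliton (γ - 1 / 2)⁻¹ (a i) (c i) x : ℝ) : ℂ)) *
        star (U : Matrix (Fin m) (Fin m) ℂ)

end Crest.Agent.LT
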