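import Crest.Agent.LTE_Defs
import Crest.Agent.LT_T01
/-!
Task LTE-E01: commutators and the Hilbert–Schmidt norm. In the eigenbasis of `A`,
`[f(A), M]_{ij} = (f(a_i) - f(a_j)) M_{ij}`. (`LT_Spec.lean` has `cfc_eq_conj` etc.)
-/

set_option autoImplicit false

namespace Crest.Agent.LT

open MeasureTheory Matrix Set Filter
open Crest.MathPhysics.LiebThirring
open scoped ComplexOrder Topology

theorem E01_hs2_conj {m N : ℕ} (A : Matrix (Fin m) (Fin N) ℂ) : hs2 Aᴴ = hs2 A := by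
  unfold hs2
  rw [Finset.sum_comm]
  refine Finset.sum_congr rfl fun i _ => Finset.sum_congr rfl fun j _ => ?_
  rw [Matrix.conjTranspose_apply, norm_star]

theorem E01_hs2_nonneg {m N : ℕ} (A : Matrix (Fin m) (Fin N) ℂ) : 0 ≤ hs2 A :=
  Finset.sum_nonneg fun _ _ => Finset.sum_nonneg fun _ _ => by positivity

theorem E01_eq_zero {m N : ℕ} {A : Matrix (Fin m) (Fin N) ℂ} (h : hs2 A = 0) : A = 0 := by
  ext i j
  have h1 : ∀ i ∈ Finset.univ, ∑ j, ‖A i j‖ ^ 2 = 0 :=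
    (Finset.sum_eq_zero_iff_of_nonneg
      (fun i _ => Finset.sum_nonneg fun j _ => by positivity)).1 h
  have h2 := (Finset.sum_eq_zero_iff_of_nonneg
      (fun j _ => by positivity)).1 (h1 i (Finset.mem_univ _)) j (Finset.mem_univ _)
  simpa using h2

theorem E01_hs2_unitary_left {m N : ℕ} {U : Mt N} (hU : Uᴴ * U = 1)
    (M : Matrix (Fin N) (Fin m) ℂ) : hs2 (U * M) = hs2 M := by
  rw [hs2_eq_tr, hs2_eq_tr, conjTranspose_mul, Matrix.mul_assoc, ← Matrix.mul_assoc Uᴴ, hU,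
    Matrix.one_mul]

theorem E01_hs2_unitary_right {m N : ℕ} {U : Mt N} (hU : U * Uᴴ = 1)
    (M : Matrix (Fin m) (Fin N) ℂ) : hs2 (M * U) = hs2 M := by
  rw [← E01_hs2_conj, conjTranspose_mul, E01_hs2_unitary_left (by rw [conjTranspose_conjTranspose, hU]),
    E01_hs2_conj]

theorem E01_comm {N : ℕ} {A : Mt N} (hA : A.IsHermitian) (M : Mt N) :
    ∃ M' : Mt N, ∀ f : ℝ → ℝ, hs2 (cfc f A * M - M * cfc f A) =
      ∑ i, ∑ j, (f (hA.eigenvalues i) - f (hA.eigenvalues j)) ^ 2 * ‖M' i j‖ ^ 2 := by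
  obtain ⟨U, hU⟩ : ∃ U : Mt N, U = (hA.eigenvectorUnitary : Mt N) := ⟨_, rfl⟩
  have h1 : Uᴴ * U = 1 := by rw [hU]; exact _root_.LT.U_conj_mul hA
  have h2 : U * Uᴴ = 1 := by rw [hU]; exact _root_.LT.U_mul_conj hA
  refine ⟨Uᴴ * M * U, fun f => ?_⟩
  have hc : cfc f A = U * diagonal (fun i => ((f (hA.eigenvalues i) : ℝ) : ℂ)) * Uᴴ := by
    rw [hU]; exact _root_.LT.cfc_eq_conj hA f
  have hM : M = U * (Uᴴ * M * U) * Uᴴ := by
    calc M = (U * Uᴴ) * M * (U * Uᴴ) := by rw [h2, Matrix.one_mul, Matrix.mul_one]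
      _ = U * (Uᴴ * M * U) * Uᴴ := by simp only [Matrix.mul_assoc]
  obtain ⟨M', hM'⟩ : ∃ M' : Mt N, M' = Uᴴ * M * U := ⟨_, rfl⟩
  rw [← hM'] at hM ⊢
  obtain ⟨D, hD⟩ : ∃ D : Mt N, D = diagonal (fun i => ((f (hA.eigenvalues i) : ℝ) : ℂ)) := ⟨_, rfl⟩
  rw [← hD] at hc
  have e : cfc f A * M - M * cfc f A = U * (D * M' - M' * D) * Uᴴ := by
    rw [hc, hM]
    have e1 : U * D * Uᴴ * (U * M' * Uᴴ) = U * (D * M') * Uᴴ := by
      calc U * D * Uᴴ * (U * M' * Uᴴ) = U * D * (Uᴴ * U) * M' * Uᴴ := by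
            simp only [Matrix.mul_assoc]
        _ = _ := by rw [h1, Matrix.mul_one]; simp only [Matrix.mul_assoc]
    have e2 : U * M' * Uᴴ * (U * D * Uᴴ) = U * (M' * D) * Uᴴ := by
      calc U * M' * Uᴴ * (U * D * Uᴴ) = U * M' * (Uᴴ * U) * D * Uᴴ := by
            simp only [Matrix.mul_assoc]
        _ = _ := by rw [h1, Matrix.mul_one]; simp only [Matrix.mul_assoc]
    rw [e1, e2, ← Matrix.sub_mul, ← Matrix.mul_sub]
  rw [e, E01_hs2_unitary_right (by rw [conjTranspose_conjTranspose, h1]),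
    E01_hs2_unitary_left h1]
  unfold hs2
  refine Finset.sum_congr rfl fun i _ => Finset.sum_congr rfl fun j _ => ?_
  rw [hD, Matrix.sub_apply, Matrix.diagonal_mul, Matrix.mul_diagonal]
  have : ((f (hA.eigenvalues i) : ℝ) : ℂ) * M' i j - M' i j * ((f (hA.eigenvalues j) : ℝ) : ℂ) =
      ((f (hA.eigenvalues i) - f (hA.eigenvalues j) : ℝ) : ℂ) * M' i j := by
    push_cast; ring
  rw [this, norm_mul, mul_pow, Complex.norm_real, Real.norm_eq_abs, sq_abs]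

theorem hs2_comm_cfc_le {N : ℕ} {A M : Mt N} (hA : A.IsHermitian) {f : ℝ → ℝ} {L : ℝ}
    (h : ∀ x ∈ spectrum ℝ A, ∀ y ∈ spectrum ℝ A, |f x - f y| ≤ L * |x - y|) :
    hs2 (cfc f A * M - M * cfc f A) ≤ L ^ 2 * hs2 (A * M - M * A) := by
  obtain ⟨M', hM'⟩ := E01_comm hA M
  have h2 := hM' (fun x => x)
  rw [_root_.LT.cfc_id_eq hA] at h2
  rw [hM' f, h2, Finset.mul_sum]
  refine Finset.sum_le_sum fun i _ => ?_
  rw [Finset.mul_sum]
  refine Finset.sum_le_sum fun j _ => ?_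
  have h3 := h (hA.eigenvalues i) (by rw [hA.spectrum_real_eq_range_eigenvalues]; exact ⟨i, rfl⟩)
    (hA.eigenvalues j) (by rw [hA.spectrum_real_eq_range_eigenvalues]; exact ⟨j, rfl⟩)
  have h4 : (f (hA.eigenvalues i) - f (hA.eigenvalues j)) ^ 2 ≤
      L ^ 2 * (hA.eigenvalues i - hA.eigenvalues j) ^ 2 := by
    rw [← sq_abs, ← sq_abs (hA.eigenvalues i - hA.eigenvalues j), ← mul_pow]
    exact pow_le_pow_left₀ (abs_nonneg _) h3 2
  calc _ ≤ L ^ 2 * (hA.eigenvalues i - hA.eigenvalues j) ^ 2 * ‖M' i j‖ ^ 2 :=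
        mul_le_mul_of_nonneg_right h4 (by positivity)
    _ = _ := by ring

theorem E01_re_trace_nonneg {N : ℕ} {A : Mt N} (hA : A.PosSemidef) : 0 ≤ tr A := by
  have := hA.trace_nonneg
  exact (Complex.le_def.1 this).1

theorem hs2_mul_left_le {N m : ℕ} {A : Mt N} {M : Matrix (Fin N) (Fin m) ℂ} {C : ℝ}
    (hC : (((C ^ 2 : ℝ) : ℂ) • (1 : Mt N) - Aᴴ * A).PosSemidef) : hs2 (A * M) ≤ C ^ 2 * hs2 M := by
  have h1 := E01_re_trace_nonneg (hC.conjTranspose_mul_mul_same M)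
  have e : Mᴴ * (((C ^ 2 : ℝ) : ℂ) • (1 : Mt N) - Aᴴ * A) * M =
      ((C ^ 2 : ℝ) : ℂ) • (Mᴴ * M) - (A * M)ᴴ * (A * M) := by
    rw [Matrix.mul_sub, Matrix.sub_mul, conjTranspose_mul]
    simp only [Matrix.mul_assoc, Matrix.mul_smul, Matrix.smul_mul, Matrix.one_mul]
  rw [e] at h1
  rw [hs2_eq_tr, hs2_eq_tr]
  unfold tr at h1 ⊢
  rw [Matrix.trace_sub, Matrix.trace_smul, Complex.sub_re, smul_eq_mul, Complex.re_ofReal_mul] at h1
  linarith

theorem hs2_mul_right_le {N m : ℕ} {A : Mt N} {M : Matrix (Fin m) (Fin N) ℂ} {C : ℝ}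
    (hC : (((C ^ 2 : ℝ) : ℂ) • (1 : Mt N) - A * Aᴴ).PosSemidef) : hs2 (M * A) ≤ C ^ 2 * hs2 M := by
  rw [← E01_hs2_conj (M * A), ← E01_hs2_conj M, conjTranspose_mul]
  apply hs2_mul_left_le
  rw [conjTranspose_conjTranspose]
  exact hC

theorem hs2_add_le {N m : ℕ} (A B : Matrix (Fin m) (Fin N) ℂ) : hs2 (A + B) ≤ 2 * (hs2 A + hs2 B) := by
  unfold hs2
  rw [← Finset.sum_add_distrib, Finset.mul_sum]
  refine Finset.sum_le_sum fun i _ => ?_
  rw [← Finset.sum_add_distrib, Finset.mul_sum]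
  refine Finset.sum_le_sum fun j _ => ?_
  have h1 : ‖(A + B) i j‖ ≤ ‖A i j‖ + ‖B i j‖ := norm_add_le _ _
  have h2 : ‖(A + B) i j‖ ^ 2 ≤ (‖A i j‖ + ‖B i j‖) ^ 2 := pow_le_pow_left₀ (norm_nonneg _) h1 2
  nlinarith [sq_nonneg (‖A i j‖ - ‖B i j‖)]

theorem comm_of_sq_comm {N : ℕ} {K F : Mt N} (hK : K.PosSemidef) (h : K * K * F = F * (K * K)) :
    K * F = F * K := by
  have hA := hK.1
  obtain ⟨M', hM'⟩ := E01_comm hA F
  have h1 := hM' (fun x => x)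
  have h2 := hM' (fun x => x * x)
  rw [_root_.LT.cfc_id_eq hA] at h1
  have e2 : cfc (fun x : ℝ => x * x) K = K * K := by
    have := _root_.LT.cfc_mul_eq hA (fun x => x) (fun x => x)
    rw [_root_.LT.cfc_id_eq hA] at this
    first
      | exact this
      | exact this.symm
  rw [e2, h, sub_self] at h2
  have h0 : hs2 (0 : Mt N) = 0 := by simp [hs2]
  rw [h0] at h2
  have h3 := (Finset.sum_eq_zero_iff_of_nonneg
      (fun i _ => Finset.sum_nonneg fun j _ => by positivity)).1 h2.symm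
  have h4 : hs2 (K * F - F * K) = 0 := by
    rw [h1]
    refine Finset.sum_eq_zero fun i _ => Finset.sum_eq_zero fun j _ => ?_
    have h5 := (Finset.sum_eq_zero_iff_of_nonneg (fun j _ => by positivity)).1
      (h3 i (Finset.mem_univ _)) j (Finset.mem_univ _)
    rcases mul_eq_zero.1 h5 with h6 | h6
    · have h7 := pow_eq_zero_iff (two_ne_zero) |>.1 h6
      have p1 := hK.eigenvalues_nonneg i
      have p2 := hK.eigenvalues_nonneg j
      have h8 : hA.eigenvalues i = hA.eigenvalues j := by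
        have : (hA.eigenvalues i) ^ 2 = (hA.eigenvalues j) ^ 2 := by nlinarith
        exact (pow_left_inj₀ p1 p2 two_ne_zero).1 this
      rw [h8]; simp
    · rw [h6, mul_zero]
  exact sub_eq_zero.1 (E01_eq_zero h4)

end Crest.Agent.LT
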