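import Crest.Agent.LTE_Defs
import Crest.Agent.LTE_E01
/-!
Task LTE-E12: block lemmas. Writing `F = (F₁₁ F₁₂; F₂₁ F₂₂)`: `(F²)₁₁ = F₁₁² + F₁₂F₂₁`, `‖F₁₂F₂₁‖_HS ≤ ‖F₁₂‖_HS²`.
`rhoBlk = blk (K²-F²-V) + (1/α)(blk K ^2 - blk F ^2)`; with `V = s(K²-F²) + vErr`, `s = 1/α+1`,
`rhoBlk = (1/α) F₁₂F₂₁ - blk vErr`.
-/

set_option autoImplicit false

namespace Crest.Agent.LT

open MeasureTheory Matrix Set Filter
open Crest.MathPhysics.LiebThirring
open scoped ComplexOrder Topology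

noncomputable def rhoBlk {N : ℕ} (n : ℕ) (α : ℝ) (K F V : Mt N) : Mt n :=
  blk n (K * K - F * F - V) + ((1 / α : ℝ) : ℂ) • (blk n K * blk n K - blk n F * blk n F)

/-! ### helpers -/

theorem E12_blk_apply {N n : ℕ} (A : Mt N) (i j : Fin n) : blk n A i j = ext0 A i j := rfl

theorem E12_blk_add {N : ℕ} (n : ℕ) (A B : Mt N) : blk n (A + B) = blk n A + blk n B := by
  ext i j
  simp only [Matrix.add_apply, E12_blk_apply, ext0]
  split_ifs <;> simp

theorem E12_blk_sub {N : ℕ} (n : ℕ) (A B : Mt N) : blk n (A - B) = blk n A - blk n B := by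
  ext i j
  simp only [Matrix.sub_apply, E12_blk_apply, ext0]
  split_ifs <;> simp

theorem E12_blk_smul {N : ℕ} (n : ℕ) (c : ℂ) (A : Mt N) : blk n (c • A) = c • blk n A := by
  ext i j
  simp only [Matrix.smul_apply, E12_blk_apply, ext0]
  split_ifs <;> simp

/-- the `n × N` matrix of the compression -/
noncomputable def E12_J (n N : ℕ) : Matrix (Fin n) (Fin N) ℂ :=
  Matrix.of fun i j => if (i : ℕ) = (j : ℕ) then 1 else 0

theorem E12_blk_eq {N : ℕ} (n : ℕ) (A : Mt N) : blk n A = E12_J n N * A * (E12_J n N)ᴴ := by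
  ext i j
  rw [E12_blk_apply, Matrix.mul_apply, ext0]
  have h1 : ∀ l : Fin N, (E12_J n N * A) i l = if h : (i : ℕ) < N then A ⟨i, h⟩ l else 0 := by
    intro l
    rw [Matrix.mul_apply]
    split_ifs with h
    · rw [Finset.sum_eq_single (⟨i, h⟩ : Fin N)]
      · simp [E12_J]
      · intro b _ hb
        have : ¬ (i : ℕ) = (b : ℕ) := fun e => hb (Fin.ext e.symm)
        simp [E12_J, this]
      · simp
    · refine Finset.sum_eq_zero fun b _ => ?_
      have : ¬ (i : ℕ) = (b : ℕ) := fun e => h (e ▸ b.2)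
      simp [E12_J, this]
  simp_rw [h1, Matrix.conjTranspose_apply]
  by_cases hj : (j : ℕ) < N
  · rw [Finset.sum_eq_single (⟨j, hj⟩ : Fin N)]
    · by_cases hi : (i : ℕ) < N
      · simp [E12_J, hi, hj]
      · simp [E12_J, hi]
    · intro b _ hb
      have : ¬ (j : ℕ) = (b : ℕ) := fun e => hb (Fin.ext e.symm)
      simp [E12_J, this]
    · simp
  · rw [dif_neg (fun h => hj h.2), Finset.sum_eq_zero fun b _ => ?_]
    have : ¬ (j : ℕ) = (b : ℕ) := fun e => hj (e ▸ b.2)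
    simp [E12_J, this]

/-- `blk` as a continuous linear map -/
noncomputable def E12_blkCLM (N n : ℕ) : Mt N →L[ℝ] Mt n :=
  LinearMap.toContinuousLinearMap
    { toFun := fun B => blk n B
      map_add' := fun B B' => E12_blk_add n B B'
      map_smul' := fun r B => by
        ext i j
        simp only [Matrix.smul_apply, E12_blk_apply, ext0, RingHom.id_apply]
        split_ifs <;> simp }

theorem E12_blkCLM_apply (N n : ℕ) (A : Mt N) : E12_blkCLM N n A = blk n A := rfl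

theorem E12_dg_mul {N : ℕ} (k l : Fin N → ℝ) : dg k * dg l = dg fun j => k j * l j := by
  unfold dg
  rw [Matrix.diagonal_mul_diagonal]
  congr 1
  funext j
  push_cast
  rfl

theorem blk_dg {N : ℕ} (k : Fin N → ℝ) (n : ℕ) : blk n (dg k) = dg fun j : Fin n => extv k j := by
  ext i j
  rw [E12_blk_apply]
  unfold ext0 dg extv
  by_cases hij : i = j
  · subst hij
    by_cases hi : (i : ℕ) < N
    · simp [hi]
    · simp [hi]
  · rw [Matrix.diagonal_apply_ne _ hij]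
    split_ifs with h
    · rw [Matrix.diagonal_apply_ne]
      intro e
      exact hij (Fin.ext (by simpa using congrArg Fin.val e))
    · rfl

theorem blk_posSemidef {N : ℕ} {A : Mt N} (h : A.PosSemidef) (n : ℕ) : (blk n A).PosSemidef := by
  rw [E12_blk_eq]
  exact h.mul_mul_conjTranspose_same _

theorem continuous_blk {N : ℕ} (n : ℕ) : Continuous (blk n : Mt N → Mt n) :=
  (E12_blkCLM N n).continuous

theorem blk_rank_le {N : ℕ} (A : Mt N) (n : ℕ) : (blk n A).rank ≤ A.rank := by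
  rw [E12_blk_eq]
  exact (Matrix.rank_mul_le_left _ _).trans (Matrix.rank_mul_le_right _ _)

theorem blk_adm {N : ℕ} {K F : Mt N} (h : Adm K F) (n : ℕ) : Adm (blk n K) (blk n F) := by
  constructor
  · rw [← E12_blk_sub]; exact blk_posSemidef h.sub n
  · rw [← E12_blk_add]; exact blk_posSemidef h.add n

section
open scoped Matrix.Norms.L2Operator

theorem E12_hasDerivAt_blk {N : ℕ} {A : ℝ → Mt N} {A' : Mt N} {x : ℝ} (hA : HasDerivAt A A' x)
    (n : ℕ) : HasDerivAt (fun y => blk n (A y)) (blk n A') x :=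
  (E12_blkCLM N n).hasFDerivAt.comp_hasDerivAt x hA

end

theorem blk_hasDerivAt {N : ℕ} {α R : ℝ} {K : Mt N} {F V : ℝ → Mt N} (h : Riccati R K F V) (n : ℕ)
    {x : ℝ} (hx : x ∈ Ioo (-R) R) :
    HasDerivAt (fun y => blk n (F y)) (((-(1 / α) : ℝ) : ℂ) •
      (blk n K * blk n K - blk n (F x) * blk n (F x)) + rhoBlk n α K (F x) (V x)) x := by
  have h1 := E12_hasDerivAt_blk (h.deriv x hx) n
  have h2 : ((-(1 / α) : ℝ) : ℂ) • (blk n K * blk n K - blk n (F x) * blk n (F x)) +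
      rhoBlk n α K (F x) (V x) = blk n (K * K - F x * F x - V x) := by
    rw [rhoBlk]
    push_cast
    rw [neg_smul]
    abel
  rw [h2]
  exact h1

/-- `F₁₂ F₂₁` -/
noncomputable def E12_cross {N : ℕ} (n : ℕ) (F : Mt N) : Mt n :=
  Matrix.of fun i j => ∑ l : Fin N, if n ≤ (l : ℕ) then
    (if h : (i : ℕ) < N then F ⟨i, h⟩ l else 0) * (if h : (j : ℕ) < N then F l ⟨j, h⟩ else 0) else 0

theorem E12_sum_split {N n : ℕ} (g : ℕ → ℂ) (hg : ∀ l, ¬ l < N → g l = 0) :
    (∑ l : Fin N, if n ≤ (l : ℕ) then (0 : ℂ) else g l) = ∑ l : Fin n, g l := by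
  have h1 : (∑ l : Fin N, if n ≤ (l : ℕ) then (0 : ℂ) else g l) =
      ∑ l ∈ Finset.range N, if n ≤ l then (0 : ℂ) else g l :=
    Fin.sum_univ_eq_sum_range (fun l => if n ≤ l then (0 : ℂ) else g l) N
  have h2 : (∑ l : Fin n, g l) = ∑ l ∈ Finset.range n, g l := Fin.sum_univ_eq_sum_range g n
  rw [h1, h2]
  have h3 : (∑ l ∈ Finset.range N, if n ≤ l then (0 : ℂ) else g l) =
      ∑ l ∈ (Finset.range N).filter (fun l => l < n), g l := by
    rw [Finset.sum_filter]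
    refine Finset.sum_congr rfl fun l _ => ?_
    by_cases h : n ≤ l
    · rw [if_pos h, if_neg (not_lt.2 h)]
    · rw [if_neg h, if_pos (not_le.1 h)]
  rw [h3]
  refine Finset.sum_subset (fun l hl => ?_) fun l hl hl' => ?_
  · rw [Finset.mem_filter] at hl
    exact Finset.mem_range.2 hl.2
  · refine hg l fun h => hl' ?_
    rw [Finset.mem_filter]
    exact ⟨Finset.mem_range.2 h, Finset.mem_range.1 hl⟩

theorem E12_blk_mul_self {N : ℕ} (n : ℕ) (F : Mt N) :
    blk n (F * F) = blk n F * blk n F + E12_cross n F := by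
  ext i j
  rw [Matrix.add_apply, E12_blk_apply, Matrix.mul_apply]
  unfold E12_cross
  rw [Matrix.of_apply]
  set g : ℕ → ℂ := fun l => ext0 F i l * ext0 F l j with hg
  have h0 : ∀ l, ¬ l < N → g l = 0 := by
    intro l hl
    simp only [hg, ext0]
    rw [dif_neg (fun h => hl h.2), zero_mul]
  have h1 : (∑ l : Fin n, blk n F i l * blk n F l j) =
      ∑ l : Fin N, if n ≤ (l : ℕ) then (0 : ℂ) else g l := (E12_sum_split g h0).symm
  rw [h1, ← Finset.sum_add_distrib]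
  unfold ext0
  by_cases hi : (i : ℕ) < N
  · by_cases hj : (j : ℕ) < N
    · rw [dif_pos ⟨hi, hj⟩, Matrix.mul_apply]
      refine Finset.sum_congr rfl fun l _ => ?_
      rw [dif_pos hi, dif_pos hj]
      by_cases hl : n ≤ (l : ℕ)
      · rw [if_pos hl, if_pos hl, zero_add]
      · rw [if_neg hl, if_neg hl, add_zero]
        simp only [hg, ext0]
        rw [dif_pos ⟨hi, l.2⟩, dif_pos ⟨l.2, hj⟩]
    · rw [dif_neg (fun h => hj h.2)]
      refine (Finset.sum_eq_zero fun l _ => ?_).symm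
      rw [dif_neg hj]
      simp only [hg, ext0]
      rw [dif_neg (fun h : ((l : Fin N) : ℕ) < N ∧ (j : ℕ) < N => hj h.2)]
      simp
  · rw [dif_neg (fun h => hi h.1)]
    refine (Finset.sum_eq_zero fun l _ => ?_).symm
    rw [dif_neg hi]
    simp only [hg, ext0]
    rw [dif_neg (fun h : (i : ℕ) < N ∧ ((l : Fin N) : ℕ) < N => hi h.1)]
    simp

/-! ### Hilbert–Schmidt bounds -/

theorem E12_hs2_nonneg {m N : ℕ} (A : Matrix (Fin m) (Fin N) ℂ) : 0 ≤ hs2 A :=
  Finset.sum_nonneg fun _ _ => Finset.sum_nonneg fun _ _ => by positivity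

theorem E12_hs2_smul {m N : ℕ} (c : ℝ) (A : Matrix (Fin m) (Fin N) ℂ) :
    hs2 (((c : ℝ) : ℂ) • A) = c ^ 2 * hs2 A := by
  unfold hs2
  simp_rw [Finset.mul_sum, Matrix.smul_apply, norm_smul, mul_pow, Complex.norm_real,
    Real.norm_eq_abs, sq_abs]

theorem E12_hs2_sub_le {m N : ℕ} (A B : Matrix (Fin m) (Fin N) ℂ) :
    hs2 (A - B) ≤ 2 * hs2 A + 2 * hs2 B := by
  unfold hs2
  rw [Finset.mul_sum, Finset.mul_sum, ← Finset.sum_add_distrib]
  refine Finset.sum_le_sum fun i _ => ?_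
  rw [Finset.mul_sum, Finset.mul_sum, ← Finset.sum_add_distrib]
  refine Finset.sum_le_sum fun j _ => ?_
  rw [Matrix.sub_apply]
  have h := norm_sub_le (A i j) (B i j)
  have h0 := norm_nonneg (A i j - B i j)
  nlinarith [sq_nonneg (‖A i j‖ - ‖B i j‖)]

/-- the sum of a nonneg function over `Fin n × Fin n` extended by zero is at most the full one -/
theorem E12_sum_fin_le {N n : ℕ} (g : Fin N → ℝ) (_hg : ∀ l, 0 ≤ g l) :
    (∑ i : Fin n, if h : (i : ℕ) < N then g ⟨i, h⟩ else 0) =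
      ∑ i : Fin N, if (i : ℕ) < n then g i else 0 := by
  set G : ℕ → ℝ := fun l => if h : l < N then g ⟨l, h⟩ else 0 with hG
  have h1 : (∑ i : Fin n, if h : (i : ℕ) < N then g ⟨i, h⟩ else 0) = ∑ l ∈ Finset.range n, G l :=
    Fin.sum_univ_eq_sum_range G n
  have h2 : (∑ i : Fin N, if (i : ℕ) < n then g i else 0) =
      ∑ l ∈ Finset.range N, if l < n then G l else 0 := by
    rw [← Fin.sum_univ_eq_sum_range (fun l => if l < n then G l else 0) N]
    refine Finset.sum_congr rfl fun i _ => ?_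
    simp only [hG]
    rw [dif_pos i.2]
  rw [h1, h2, ← Finset.sum_filter]
  symm
  refine Finset.sum_subset (fun l hl => ?_) fun l hl hl' => ?_
  · rw [Finset.mem_filter] at hl
    exact Finset.mem_range.2 hl.2
  · simp only [hG]
    rw [dif_neg]
    intro h
    apply hl'
    rw [Finset.mem_filter]
    exact ⟨Finset.mem_range.2 h, Finset.mem_range.1 hl⟩

theorem E12_hs2_blk_le {N : ℕ} (n : ℕ) (A : Mt N) : hs2 (blk n A) ≤ hs2 A := by
  unfold hs2
  have h1 : (∑ i : Fin n, ∑ j : Fin n, ‖blk n A i j‖ ^ 2) ≤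
      ∑ i : Fin n, if h : (i : ℕ) < N then (∑ j : Fin N, ‖A ⟨i, h⟩ j‖ ^ 2) else 0 := by
    refine Finset.sum_le_sum fun i _ => ?_
    split_ifs with hi
    · have h2 : (∑ j : Fin n, ‖blk n A i j‖ ^ 2) =
          ∑ j : Fin n, if h : (j : ℕ) < N then ‖A ⟨i, hi⟩ ⟨j, h⟩‖ ^ 2 else 0 := by
        refine Finset.sum_congr rfl fun j _ => ?_
        rw [E12_blk_apply, ext0]
        by_cases hj : (j : ℕ) < N
        · rw [dif_pos ⟨hi, hj⟩, dif_pos hj]
        · rw [dif_neg (fun h => hj h.2), dif_neg hj]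
          simp
      rw [h2, E12_sum_fin_le (fun l => ‖A ⟨i, hi⟩ l‖ ^ 2) fun l => by positivity]
      refine Finset.sum_le_sum fun j _ => ?_
      split_ifs
      · exact le_rfl
      · positivity
    · refine (Finset.sum_eq_zero fun j _ => ?_).le
      rw [E12_blk_apply, ext0, dif_neg (fun h => hi h.1)]
      simp
  refine h1.trans ?_
  rw [E12_sum_fin_le (fun l => ∑ j : Fin N, ‖A l j‖ ^ 2) fun l =>
    Finset.sum_nonneg fun _ _ => by positivity]
  refine Finset.sum_le_sum fun i _ => ?_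
  split_ifs
  · exact le_rfl
  · exact Finset.sum_nonneg fun _ _ => by positivity

/-- the squared norm of the upper right part of row `i` -/
noncomputable def E12_row {N : ℕ} (n : ℕ) (F : Mt N) (i : Fin N) : ℝ :=
  ∑ l : Fin N, if n ≤ (l : ℕ) then ‖F i l‖ ^ 2 else 0

theorem E12_row_nonneg {N : ℕ} (n : ℕ) (F : Mt N) (i : Fin N) : 0 ≤ E12_row n F i :=
  Finset.sum_nonneg fun _ _ => by split_ifs <;> positivity

theorem E12_offblk_eq {N : ℕ} (n : ℕ) (F : Mt N) :
    offblk n F = ∑ i : Fin n, if h : (i : ℕ) < N then E12_row n F ⟨i, h⟩ else 0 := by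
  rw [E12_sum_fin_le (fun l => E12_row n F l) fun l => E12_row_nonneg n F l]
  unfold offblk E12_row
  refine Finset.sum_congr rfl fun i _ => ?_
  by_cases hi : (i : ℕ) < n
  · rw [if_pos hi]
    refine Finset.sum_congr rfl fun j _ => ?_
    by_cases hj : n ≤ (j : ℕ)
    · rw [if_pos ⟨hi, hj⟩, if_pos hj]
    · rw [if_neg (fun h => hj h.2), if_neg hj]
  · rw [if_neg hi]
    refine Finset.sum_eq_zero fun j _ => ?_
    rw [if_neg (fun h => hi h.1)]

theorem E12_hs2_cross_le {N : ℕ} (n : ℕ) {F : Mt N} (hF : F.IsHermitian) :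
    hs2 (E12_cross n F) ≤ (offblk n F) ^ 2 := by
  rw [E12_offblk_eq, sq, Finset.sum_mul_sum]
  unfold hs2
  refine Finset.sum_le_sum fun i _ => Finset.sum_le_sum fun j _ => ?_
  unfold E12_cross
  rw [Matrix.of_apply]
  by_cases hi : (i : ℕ) < N
  · by_cases hj : (j : ℕ) < N
    · rw [dif_pos hi, dif_pos hj]
      have h1 : ‖∑ l : Fin N, if n ≤ (l : ℕ) then
          (if h : (i : ℕ) < N then F ⟨i, h⟩ l else 0) *
            (if h : (j : ℕ) < N then F l ⟨j, h⟩ else 0) else 0‖ ≤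
          ∑ l : Fin N, (if n ≤ (l : ℕ) then ‖F ⟨i, hi⟩ l‖ else 0) *
            (if n ≤ (l : ℕ) then ‖F ⟨j, hj⟩ l‖ else 0) := by
        refine (norm_sum_le _ _).trans (Finset.sum_le_sum fun l _ => ?_)
        by_cases hl : n ≤ (l : ℕ)
        · rw [if_pos hl, if_pos hl, if_pos hl, dif_pos hi, dif_pos hj, norm_mul]
          have h2 : ‖F l ⟨j, hj⟩‖ = ‖F ⟨j, hj⟩ l‖ := by
            rw [← hF.apply l ⟨j, hj⟩, norm_star]
          rw [h2]
        · rw [if_neg hl, if_neg hl]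
          simp
      have h3 : (∑ l : Fin N, (if n ≤ (l : ℕ) then ‖F ⟨i, hi⟩ l‖ else 0) *
            (if n ≤ (l : ℕ) then ‖F ⟨j, hj⟩ l‖ else 0)) ^ 2 ≤
          E12_row n F ⟨i, hi⟩ * E12_row n F ⟨j, hj⟩ := by
        refine (Finset.sum_mul_sq_le_sq_mul_sq _ _ _).trans (le_of_eq ?_)
        unfold E12_row
        congr 1 <;>
        · refine Finset.sum_congr rfl fun l _ => ?_
          split_ifs <;> simp
      refine (pow_le_pow_left₀ (norm_nonneg _) h1 2).trans h3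
    · rw [dif_neg hj, mul_zero, Finset.sum_eq_zero fun l _ => ?_]
      · simp
      · rw [dif_neg hj]; simp
  · rw [dif_neg hi, zero_mul, Finset.sum_eq_zero fun l _ => ?_]
    · simp
    · rw [dif_neg hi]; simp

theorem E12_blk_dg_sq {N : ℕ} (k : Fin N → ℝ) (n : ℕ) :
    blk n (dg k * dg k) = blk n (dg k) * blk n (dg k) := by
  rw [E12_dg_mul, blk_dg, blk_dg, E12_dg_mul]
  congr 1
  funext j
  unfold extv
  split_ifs <;> simp

theorem E12_rhoBlk_eq {N : ℕ} {α : ℝ} {k : Fin N → ℝ} {F V : Mt N} (n : ℕ) :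
    rhoBlk n α (dg k) F V = ((1 / α : ℝ) : ℂ) • E12_cross n F - blk n (vErr α (dg k) F V) := by
  have h1 : blk n (vErr α (dg k) F V) = blk n V - ((1 / α + 1 : ℝ) : ℂ) •
      (blk n (dg k) * blk n (dg k) - (blk n F * blk n F + E12_cross n F)) := by
    unfold vErr
    rw [E12_blk_sub, E12_blk_smul, E12_blk_sub, E12_blk_mul_self n F, E12_blk_dg_sq]
  rw [h1]
  unfold rhoBlk
  rw [E12_blk_sub, E12_blk_sub, E12_blk_mul_self n F, E12_blk_dg_sq]
  ext i j
  simp only [Matrix.add_apply, Matrix.sub_apply, Matrix.smul_apply, smul_eq_mul]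
  push_cast
  ring

theorem hs2_rhoBlk_le {N : ℕ} {α : ℝ} (hα : 0 < α) {k : Fin N → ℝ} {F V : Mt N}
    (hF : F.IsHermitian) (n : ℕ) :
    hs2 (rhoBlk n α (dg k) F V) ≤ 2 * ((1 / α) * offblk n F) ^ 2 + 2 * hs2 (vErr α (dg k) F V) := by
  rw [E12_rhoBlk_eq]
  refine (E12_hs2_sub_le _ _).trans ?_
  rw [E12_hs2_smul]
  have h1 := E12_hs2_cross_le n hF
  have h2 := E12_hs2_blk_le n (vErr α (dg k) F V)
  have h3 : (1 / α) ^ 2 * hs2 (E12_cross n F) ≤ (1 / α) ^ 2 * (offblk n F) ^ 2 :=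
    mul_le_mul_of_nonneg_left h1 (by positivity)
  rw [mul_pow]
  linarith

theorem offblk_le {N : ℕ} {k : Fin N → ℝ} (F : Mt N) {n : ℕ} {g : ℝ} (hg : 0 < g)
    (hgap : ∀ a b : Fin N, (a : ℕ) < n → n ≤ (b : ℕ) → g ≤ k a ^ 2 - k b ^ 2) :
    offblk n F ≤ hs2 (dg k * dg k * F - F * (dg k * dg k)) / g ^ 2 := by
  rw [le_div_iff₀ (by positivity)]
  unfold offblk hs2
  rw [Finset.sum_mul]
  refine Finset.sum_le_sum fun i _ => ?_
  rw [Finset.sum_mul]
  refine Finset.sum_le_sum fun j _ => ?_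
  split_ifs with h
  · have h1 := hgap i j h.1 h.2
    have h2 : (dg k * dg k * F - F * (dg k * dg k)) i j = (((k i ^ 2 - k j ^ 2 : ℝ)) : ℂ) * F i j := by
      rw [E12_dg_mul, Matrix.sub_apply]
      unfold dg
      rw [Matrix.diagonal_mul, Matrix.mul_diagonal]
      push_cast
      ring
    rw [h2, norm_mul, Complex.norm_real, Real.norm_eq_abs, mul_pow, sq_abs, mul_comm]
    refine mul_le_mul_of_nonneg_right ?_ (by positivity)
    exact pow_le_pow_left₀ hg.le h1 2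
  · rw [zero_mul]
    positivity

theorem E12_diag_re_nonneg {N : ℕ} {A : Mt N} (h : A.PosSemidef) (i : Fin N) : 0 ≤ (A i i).re := by
  have := h.diag_nonneg (i := i)
  exact (Complex.le_def.1 this).1

theorem E12_dg_psd {N : ℕ} {k : Fin N → ℝ} (h : ∀ j, 0 ≤ k j) : (dg k).PosSemidef := by
  unfold dg
  refine Matrix.PosSemidef.diagonal fun j => ?_
  simpa using h j

theorem E12_sq_psd {N : ℕ} {k : Fin N → ℝ} {F : Mt N} (hadm : Adm (dg k) F) {κ : ℝ}
    (hκ : 0 < κ) (hk : ∀ j, k j ≤ κ) : (((κ ^ 2 : ℝ) : ℂ) • (1 : Mt N) - F * F).PosSemidef := by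
  have hd : (((κ : ℝ) : ℂ) • (1 : Mt N) - dg k).PosSemidef := by
    have e : ((κ : ℝ) : ℂ) • (1 : Mt N) - dg k = dg fun j => κ - k j := by
      ext i j
      unfold dg
      by_cases hij : i = j
      · subst hij; simp
      · simp [Matrix.one_apply_ne hij, Matrix.diagonal_apply_ne _ hij]
    rw [e]
    exact E12_dg_psd fun j => sub_nonneg.2 (hk j)
  have h1 : (((κ : ℝ) : ℂ) • (1 : Mt N) - F).PosSemidef := by
    have := hd.add hadm.sub
    rwa [sub_add_sub_cancel] at this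
  have h2 : (((κ : ℝ) : ℂ) • (1 : Mt N) + F).PosSemidef := by
    have := hd.add hadm.add
    rwa [← add_assoc, sub_add_cancel] at this
  have h3 := h2.mul_mul_conjTranspose_same (((κ : ℝ) : ℂ) • (1 : Mt N) - F)
  have h4 := h1.mul_mul_conjTranspose_same (((κ : ℝ) : ℂ) • (1 : Mt N) + F)
  rw [h1.1.eq] at h3
  rw [h2.1.eq] at h4
  have h5 := (h3.add h4).smul (show (0 : ℝ) ≤ (2 * κ)⁻¹ by positivity)
  have e : (2 * κ)⁻¹ • ((((κ : ℝ) : ℂ) • (1 : Mt N) - F) * (((κ : ℝ) : ℂ) • (1 : Mt N) + F) *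
      (((κ : ℝ) : ℂ) • (1 : Mt N) - F) + (((κ : ℝ) : ℂ) • (1 : Mt N) + F) *
      (((κ : ℝ) : ℂ) • (1 : Mt N) - F) * (((κ : ℝ) : ℂ) • (1 : Mt N) + F)) =
      ((κ ^ 2 : ℝ) : ℂ) • (1 : Mt N) - F * F := by
    have e1 : (((κ : ℝ) : ℂ) • (1 : Mt N) - F) * (((κ : ℝ) : ℂ) • (1 : Mt N) + F) *
      (((κ : ℝ) : ℂ) • (1 : Mt N) - F) + (((κ : ℝ) : ℂ) • (1 : Mt N) + F) *
      (((κ : ℝ) : ℂ) • (1 : Mt N) - F) * (((κ : ℝ) : ℂ) • (1 : Mt N) + F) =
      (((2 * κ : ℝ)) : ℂ) • (((κ ^ 2 : ℝ) : ℂ) • (1 : Mt N) - F * F) := by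
      simp only [mul_add, add_mul, mul_sub, sub_mul, smul_mul_assoc, mul_smul_comm, one_mul,
        mul_one, smul_sub, smul_smul, smul_add]
      ext i j
      simp only [Matrix.add_apply, Matrix.sub_apply, Matrix.smul_apply, smul_eq_mul]
      push_cast
      ring
    rw [e1]
    ext i j
    simp only [Matrix.smul_apply, smul_eq_mul, Complex.real_smul]
    rw [← mul_assoc, ← Complex.ofReal_mul, inv_mul_cancel₀ (by positivity), Complex.ofReal_one,
      one_mul]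
  rwa [e] at h5

theorem E12_sq_le {N : ℕ} {k : Fin N → ℝ} {F : Mt N} (hadm : Adm (dg k) F) {κ : ℝ}
    (hk : ∀ j, k j ≤ κ) (i : Fin N) : ∑ l, ‖F i l‖ ^ 2 ≤ κ ^ 2 := by
  have h0 : 0 ≤ k i := by
    have := E12_diag_re_nonneg hadm.posSemidef i
    unfold dg at this
    simpa using this
  have hκ0 : 0 ≤ κ := h0.trans (hk i)
  have key : ∀ κ' : ℝ, κ < κ' → ∑ l, ‖F i l‖ ^ 2 ≤ κ' ^ 2 := by
    intro κ' hκ'
    have h1 := E12_diag_re_nonneg (E12_sq_psd hadm (hκ0.trans_lt hκ')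
      (fun j => (hk j).trans hκ'.le)) i
    have h2 : (((κ' ^ 2 : ℝ) : ℂ) • (1 : Mt N) - F * F) i i =
        ((κ' ^ 2 - ∑ l, ‖F i l‖ ^ 2 : ℝ) : ℂ) := by
      rw [Matrix.sub_apply, Matrix.smul_apply, Matrix.one_apply_eq, Matrix.mul_apply]
      push_cast
      rw [smul_eq_mul, mul_one]
      congr 1
      refine Finset.sum_congr rfl fun l _ => ?_
      rw [← hadm.isHermitian_F.apply l i, Complex.star_def, Complex.mul_conj]
      rw [Complex.normSq_eq_norm_sq]
      push_cast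
      rfl
    rw [h2, Complex.ofReal_re] at h1
    linarith
  by_contra hcon
  push Not at hcon
  set S := ∑ l, ‖F i l‖ ^ 2 with hS
  have hS0 : 0 ≤ S := (sq_nonneg κ).trans hcon.le
  have h1 : κ < Real.sqrt S := Real.lt_sqrt_of_sq_lt hcon
  have h2 := key ((κ + Real.sqrt S) / 2) (by linarith)
  have h3 := Real.sq_sqrt hS0
  nlinarith [Real.sqrt_nonneg S]

theorem offblk_le_bound {N : ℕ} {k : Fin N → ℝ} {F : Mt N} (hadm : Adm (dg k) F) {κ : ℝ}
    (hk : ∀ j, k j ≤ κ) (n : ℕ) : offblk n F ≤ n * κ ^ 2 := by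
  rw [E12_offblk_eq]
  have h1 : (n : ℝ) * κ ^ 2 = ∑ _i : Fin n, κ ^ 2 := by simp
  rw [h1]
  refine Finset.sum_le_sum fun i _ => ?_
  split_ifs with hi
  · refine le_trans ?_ (E12_sq_le hadm hk ⟨i, hi⟩)
    unfold E12_row
    refine Finset.sum_le_sum fun l _ => ?_
    split_ifs
    · exact le_rfl
    · positivity
  · positivity

end Crest.Agent.LT
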