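import Crest.Agent.LTE_Defs
import Crest.Agent.LT_T01
import Crest.Agent.LTE_E12
/-!
Task LTE-E16: traces of powers and blocks. Lower: pinching/convexity (or `(blk V)` is a compression; Klein /
Peierls inequality). Upper: for `V ≥ 0` and the projection `Π` on the first `n` coordinates,
`V ≤ (1+t) Π V Π + (1+1/t) Π'VΠ'` (Cauchy–Schwarz), monotonicity of `tr (·)^p` (`p ≥ 1`); `Π'VΠ'` has rank `≤ m` and norm
`≤ s ‖Π'(K²-F²)Π'‖ + ‖vErr‖ ≤ s (2τ² + offblk) + √hs2 vErr` because `-K₂₂ ≤ F₂₂ ≤ K₂₂ ≤ τ`.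
-/

set_option autoImplicit false

namespace Crest.Agent.LT

open MeasureTheory Matrix Set Filter
open Crest.MathPhysics.LiebThirring
open scoped ComplexOrder Topology

/-! ### `tr f(M^*M) = tr f(MM^*)` -/

theorem E16_sum_roots {N : ℕ} {A : Mt N} (hA : A.IsHermitian) (f : ℝ → ℝ) :
    tr (cfc f A) = (A.charpoly.roots.map (fun z : ℂ => f z.re)).sum := by
  rw [tr_cfc hA, hA.roots_charpoly_eq_eigenvalues, Multiset.map_map]
  simp only [Function.comp_apply, RCLike.ofReal, Complex.coe_algebraMap, Complex.ofReal_re]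
  rfl

theorem E16_roots_X_pow {P : Polynomial ℂ} (hP : P ≠ 0) (k : ℕ) {g : ℂ → ℝ} (hg : g 0 = 0) :
    (((Polynomial.X ^ k * P).roots).map g).sum = (P.roots.map g).sum := by
  rw [Polynomial.roots_mul (mul_ne_zero (pow_ne_zero _ Polynomial.X_ne_zero) hP),
    Polynomial.roots_X_pow, Multiset.map_add, Multiset.sum_add, Multiset.map_nsmul,
    Multiset.sum_nsmul, Multiset.map_singleton, Multiset.sum_singleton, hg, smul_zero, zero_add]

theorem E16_tr_cfc_mul_comm {m n : ℕ} (M : Matrix (Fin m) (Fin n) ℂ) {f : ℝ → ℝ} (hf : f 0 = 0) :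
    tr (cfc f (Mᴴ * M)) = tr (cfc f (M * Mᴴ)) := by
  have h1 : (Mᴴ * M).IsHermitian := Matrix.isHermitian_conjTranspose_mul_self M
  have h2 : (M * Mᴴ).IsHermitian := Matrix.isHermitian_mul_conjTranspose_self M
  rw [E16_sum_roots h1, E16_sum_roots h2]
  have h3 := Matrix.charpoly_mul_comm' Mᴴ M
  have hg : (fun z : ℂ => f z.re) 0 = 0 := by simpa using hf
  rw [← E16_roots_X_pow (Matrix.charpoly_monic (Mᴴ * M)).ne_zero (Fintype.card (Fin m)) hg,
    ← E16_roots_X_pow (Matrix.charpoly_monic (M * Mᴴ)).ne_zero (Fintype.card (Fin n)) hg, h3]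

/-! ### small facts -/

theorem E16_contOn {N : ℕ} {A : Mt N} (hA : A.IsHermitian) (f : ℝ → ℝ) :
    ContinuousOn f (spectrum ℝ A) := _root_.LT.contOn_spec hA f

theorem E16_tr_mul_nonneg {N : ℕ} {A B : Mt N} (hA : A.PosSemidef) (hB : B.PosSemidef) :
    0 ≤ tr (A * B) := by
  obtain ⟨w, hw0, _, _, hw⟩ := tr_cfc_mul_cfc hA.1 hB.1
  have h3 := hw (fun t => t) (fun t => t)
  have e : cfc (fun t : ℝ => t) A = A := cfc_id' ℝ A hA.1
  have e' : cfc (fun t : ℝ => t) B = B := cfc_id' ℝ B hB.1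
  rw [e, e'] at h3
  rw [h3]
  exact Finset.sum_nonneg fun i _ => Finset.sum_nonneg fun j _ =>
    mul_nonneg (hw0 i j) (mul_nonneg (hA.eigenvalues_nonneg i) (hB.eigenvalues_nonneg j))

theorem E16_cfc_psd {N : ℕ} {A : Mt N} (hA : A.IsHermitian) {f : ℝ → ℝ}
    (hf : ∀ i, 0 ≤ f (hA.eigenvalues i)) : (cfc f A).PosSemidef := by
  have h : cfc f A = (cfc (fun t : ℝ => Real.sqrt (f t)) A)ᴴ *
      cfc (fun t : ℝ => Real.sqrt (f t)) A := by
    rw [(_root_.LT.cfc_hermitian A _).eq, _root_.LT.cfc_mul_eq hA]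
    refine _root_.LT.cfc_congr_eigen hA fun i => ?_
    exact (Real.mul_self_sqrt (hf i)).symm
  rw [h]
  exact Matrix.posSemidef_conjTranspose_mul_self _

theorem E16_smul_eq {N : ℕ} (c : ℝ) (V : Mt N) : ((c : ℝ) : ℂ) • V = c • V := by
  ext i j
  simp [Matrix.smul_apply]

theorem E16_rpow_smul {N : ℕ} {p c : ℝ} (hp : 0 < p) (hc : 0 ≤ c) {V : Mt N} (hV : V.PosSemidef) :
    tr (cfc (fun t : ℝ => t ^ p) (((c : ℝ) : ℂ) • V)) = c ^ p * tr (cfc (fun t : ℝ => t ^ p) V) := by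
  have hsa : IsSelfAdjoint V := hV.1
  rw [E16_smul_eq, ← cfc_comp_smul c (fun t : ℝ => t ^ p) V
    ((Real.continuous_rpow_const hp.le).continuousOn) hsa, tr_cfc hV.1, tr_cfc hV.1, Finset.mul_sum]
  refine Finset.sum_congr rfl fun i _ => ?_
  rw [smul_eq_mul, Real.mul_rpow hc (hV.eigenvalues_nonneg i)]

theorem E16_tr_rpow_nonneg {N : ℕ} {p : ℝ} {V : Mt N} (hV : V.PosSemidef) :
    0 ≤ tr (cfc (fun t : ℝ => t ^ p) V) := by
  rw [tr_cfc hV.1]
  exact Finset.sum_nonneg fun i _ => Real.rpow_nonneg (hV.eigenvalues_nonneg i) p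

/-- tangent line inequality for `t^p`. -/
theorem E16_tangent {p x y : ℝ} (hp : 1 ≤ p) (hx : 0 ≤ x) (hy : 0 ≤ y) :
    y ^ p + (x - y) * (p * y ^ (p - 1)) ≤ x ^ p := by
  rcases hy.eq_or_lt with rfl | hy0
  · rw [Real.zero_rpow (by linarith), sub_zero, zero_add]
    rcases hp.eq_or_lt with rfl | hp1
    · simp
    · rw [Real.zero_rpow (by linarith), mul_zero, mul_zero]
      exact Real.rpow_nonneg hx p
  · have h1 := one_add_mul_self_le_rpow_one_add (s := x / y - 1) (by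
      have : 0 ≤ x / y := by positivity
      linarith) hp
    have h2 : 1 + (x / y - 1) = x / y := by ring
    rw [h2, Real.div_rpow hx hy, le_div_iff₀ (Real.rpow_pos_of_pos hy0 p)] at h1
    have h3 : y ^ p = y * y ^ (p - 1) := by
      rw [Real.rpow_sub_one hy0.ne']
      field_simp
    have h4 : (1 + p * (x / y - 1)) * y ^ p = y ^ p + (x - y) * (p * y ^ (p - 1)) := by
      rw [add_mul, one_mul]
      congr 1
      rw [h3]
      field_simp
    linarith

theorem E16_klein {N : ℕ} {p : ℝ} (hp : 1 ≤ p) {A B : Mt N} (hA : A.PosSemidef)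
    (hB : B.PosSemidef) : tr (cfc (fun t : ℝ => t ^ p) B) +
      tr ((A - B) * cfc (fun t : ℝ => p * t ^ (p - 1)) B) ≤ tr (cfc (fun t : ℝ => t ^ p) A) :=
  _root_.LT.klein hA.1 hB.1 (fun t : ℝ => t ^ p) (fun t : ℝ => p * t ^ (p - 1)) fun i j =>
    E16_tangent hp (hA.eigenvalues_nonneg i) (hB.eigenvalues_nonneg j)

theorem E16_mono {N : ℕ} {p : ℝ} (hp : 1 ≤ p) {A B : Mt N} (hA : A.PosSemidef)
    (hAB : (B - A).PosSemidef) :
    tr (cfc (fun t : ℝ => t ^ p) A) ≤ tr (cfc (fun t : ℝ => t ^ p) B) := by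
  have hB : B.PosSemidef := by
    have := hAB.add hA
    rwa [sub_add_cancel] at this
  have h1 := E16_klein hp hB hA
  have h2 : 0 ≤ tr ((B - A) * cfc (fun t : ℝ => p * t ^ (p - 1)) A) :=
    E16_tr_mul_nonneg hAB (E16_cfc_psd hA.1 fun i => mul_nonneg (by linarith)
      (Real.rpow_nonneg (hA.eigenvalues_nonneg i) _))
  linarith

theorem E16_convex {N : ℕ} {p t : ℝ} (hp : 1 ≤ p) (ht : 0 < t) {X Y : Mt N} (hX : X.PosSemidef)
    (hY : Y.PosSemidef) : tr (cfc (fun t : ℝ => t ^ p) (X + Y)) ≤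
      (1 + t) ^ p * tr (cfc (fun t : ℝ => t ^ p) X) +
      (1 + 1 / t) ^ p * tr (cfc (fun t : ℝ => t ^ p) Y) := by
  have hZ := hX.add hY
  have hX' : (((1 + t : ℝ) : ℂ) • X).PosSemidef := by
    rw [E16_smul_eq]; exact hX.smul (by positivity)
  have hY' : (((1 + 1 / t : ℝ) : ℂ) • Y).PosSemidef := by
    rw [E16_smul_eq]; exact hY.smul (by positivity)
  have h1 := E16_klein hp hX' hZ
  have h2 := E16_klein hp hY' hZ
  rw [E16_rpow_smul (by linarith) (by positivity) hX] at h1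
  rw [E16_rpow_smul (by linarith) (by positivity) hY] at h2
  set D := cfc (fun t : ℝ => p * t ^ (p - 1)) (X + Y) with hD
  have h3 : (1 / (1 + t)) * tr ((((1 + t : ℝ) : ℂ) • X - (X + Y)) * D) +
      (t / (1 + t)) * tr ((((1 + 1 / t : ℝ) : ℂ) • Y - (X + Y)) * D) = 0 := by
    have e : ∀ (c : ℝ) (A : Mt N), c * tr A = tr (c • A) := fun c A =>
      (_root_.LT.rtr_smul c A).symm
    rw [e, e, ← T01_tr_add, ← smul_mul_assoc, ← smul_mul_assoc, ← add_mul]
    have e2 : (1 / (1 + t)) • (((1 + t : ℝ) : ℂ) • X - (X + Y)) +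
        (t / (1 + t)) • (((1 + 1 / t : ℝ) : ℂ) • Y - (X + Y)) = 0 := by
      rw [E16_smul_eq, E16_smul_eq, smul_sub, smul_sub, smul_smul, smul_smul]
      have e3 : 1 / (1 + t) * (1 + t) = 1 := by field_simp
      have e4 : t / (1 + t) * (1 + 1 / t) = 1 := by field_simp; ring
      rw [e3, e4, one_smul, one_smul]
      have e5 : (1 / (1 + t)) • (X + Y) + (t / (1 + t)) • (X + Y) = X + Y := by
        rw [← add_smul]
        have : 1 / (1 + t) + t / (1 + t) = 1 := by field_simp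
        rw [this, one_smul]
      have e6 : X - (1 / (1 + t)) • (X + Y) + (Y - (t / (1 + t)) • (X + Y)) =
        (X + Y) - ((1 / (1 + t)) • (X + Y) + (t / (1 + t)) • (X + Y)) := by abel
      rw [e6, e5, sub_self]
    rw [e2, zero_mul]
    simp [tr]
  have hx0 := E16_tr_rpow_nonneg (p := p) hX
  have hy0 := E16_tr_rpow_nonneg (p := p) hY
  have ha : 0 ≤ 1 / (1 + t) := by positivity
  have hb : 0 ≤ t / (1 + t) := by positivity
  have hab : 1 / (1 + t) + t / (1 + t) = 1 := by field_simp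
  have h4 := mul_le_mul_of_nonneg_left h1 ha
  have h5 := mul_le_mul_of_nonneg_left h2 hb
  set a := 1 / (1 + t)
  set b := t / (1 + t)
  have hu : 0 ≤ (1 + t) ^ p * tr (cfc (fun t : ℝ => t ^ p) X) :=
    mul_nonneg (Real.rpow_nonneg (by positivity) _) hx0
  have hv : 0 ≤ (1 + 1 / t) ^ p * tr (cfc (fun t : ℝ => t ^ p) Y) :=
    mul_nonneg (Real.rpow_nonneg (by positivity) _) hy0
  set u := (1 + t) ^ p * tr (cfc (fun t : ℝ => t ^ p) X)
  set v := (1 + 1 / t) ^ p * tr (cfc (fun t : ℝ => t ^ p) Y)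
  have h6 : a * u ≤ u := by nlinarith
  have h7 : b * v ≤ v := by nlinarith
  have h8 : tr (cfc (fun t : ℝ => t ^ p) (X + Y)) =
      a * tr (cfc (fun t : ℝ => t ^ p) (X + Y)) + b * tr (cfc (fun t : ℝ => t ^ p) (X + Y)) := by
    rw [← add_mul, hab, one_mul]
  nlinarith

/-! ### the projections -/

/-- projection on the first `n` coordinates -/
noncomputable def E16_P (N n : ℕ) : Mt N := Matrix.diagonal fun i => if (i : ℕ) < n then 1 else 0

/-- projection on the other coordinates -/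
noncomputable def E16_Q (N n : ℕ) : Mt N := Matrix.diagonal fun i => if (i : ℕ) < n then 0 else 1

theorem E16_P_add_Q (N n : ℕ) : E16_P N n + E16_Q N n = 1 := by
  unfold E16_P E16_Q
  rw [Matrix.diagonal_add, ← Matrix.diagonal_one]
  congr 1
  funext i
  split_ifs <;> simp

theorem E16_JJ (N n : ℕ) : (E12_J n N)ᴴ * E12_J n N = E16_P N n := by
  ext i j
  rw [Matrix.mul_apply]
  unfold E16_P
  by_cases hi : (i : ℕ) < n
  · rw [Finset.sum_eq_single (⟨i, hi⟩ : Fin n)]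
    · by_cases hij : i = j
      · subst hij
        simp [E12_J, hi]
      · rw [Matrix.diagonal_apply_ne _ hij]
        have : ¬ ((i : ℕ) = (j : ℕ)) := fun e => hij (Fin.ext e)
        simp [E12_J, this]
    · intro b _ hb
      have : ¬ ((b : ℕ) = (i : ℕ)) := fun e => hb (Fin.ext e)
      simp [E12_J, this]
    · simp
  · rw [Finset.sum_eq_zero fun b _ => ?_]
    · by_cases hij : i = j
      · subst hij
        simp [hi]
      · rw [Matrix.diagonal_apply_ne _ hij]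
    · have : ¬ ((b : ℕ) = (i : ℕ)) := fun e => hi (e ▸ b.2)
      simp [E12_J, this]

theorem E16_Q_herm (N n : ℕ) : (E16_Q N n)ᴴ = E16_Q N n := by
  unfold E16_Q
  rw [Matrix.diagonal_conjTranspose]
  congr 1
  funext i
  rw [Pi.star_apply]
  split_ifs <;> simp

theorem E16_QQ (N n : ℕ) : E16_Q N n * E16_Q N n = E16_Q N n := by
  unfold E16_Q
  rw [Matrix.diagonal_mul_diagonal]
  congr 1
  funext i
  split_ifs <;> simp

/-- square root -/
noncomputable def E16_sq {N : ℕ} (V : Mt N) : Mt N := cfc Real.sqrt V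

theorem E16_sq_herm {N : ℕ} (V : Mt N) : (E16_sq V)ᴴ = E16_sq V :=
  (_root_.LT.cfc_hermitian V Real.sqrt).eq

theorem E16_sq_mul {N : ℕ} {V : Mt N} (hV : V.PosSemidef) : E16_sq V * E16_sq V = V := by
  unfold E16_sq
  rw [_root_.LT.cfc_mul_eq hV.1]
  conv_rhs => rw [← _root_.LT.cfc_id_eq hV.1]
  exact _root_.LT.cfc_congr_eigen hV.1 fun i => Real.mul_self_sqrt (hV.eigenvalues_nonneg i)

theorem E16_blk_tr {N n : ℕ} {p : ℝ} (hp : 1 ≤ p) {V : Mt N} (hV : V.PosSemidef) :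
    tr (cfc (fun t : ℝ => t ^ p) (E16_sq V * E16_P N n * E16_sq V)) =
      tr (cfc (fun t : ℝ => t ^ p) (blk n V)) := by
  have h := E16_tr_cfc_mul_comm (E12_J n N * E16_sq V) (f := fun t : ℝ => t ^ p)
    (Real.zero_rpow (by linarith))
  rw [conjTranspose_mul, E16_sq_herm] at h
  have e1 : E16_sq V * (E12_J n N)ᴴ * (E12_J n N * E16_sq V) = E16_sq V * E16_P N n * E16_sq V := by
    rw [← E16_JJ]
    simp only [Matrix.mul_assoc]
  have e2 : E12_J n N * E16_sq V * (E16_sq V * (E12_J n N)ᴴ) = blk n V := by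
    rw [E12_blk_eq, Matrix.mul_assoc, ← Matrix.mul_assoc (E16_sq V), E16_sq_mul hV,
      ← Matrix.mul_assoc]
  rw [e1, e2] at h
  exact h

theorem E16_X_psd {N n : ℕ} {V : Mt N} : (E16_sq V * E16_P N n * E16_sq V).PosSemidef := by
  have h := Matrix.posSemidef_conjTranspose_mul_self (E12_J n N * E16_sq V)
  rw [conjTranspose_mul, E16_sq_herm] at h
  have e1 : E16_sq V * (E12_J n N)ᴴ * (E12_J n N * E16_sq V) = E16_sq V * E16_P N n * E16_sq V := by
    rw [← E16_JJ]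
    simp only [Matrix.mul_assoc]
  rwa [e1] at h

theorem E16_Y_eq {N n : ℕ} {V : Mt N} :
    (E16_Q N n * E16_sq V)ᴴ * (E16_Q N n * E16_sq V) = E16_sq V * E16_Q N n * E16_sq V := by
  rw [conjTranspose_mul, E16_sq_herm, E16_Q_herm, Matrix.mul_assoc,
    ← Matrix.mul_assoc (E16_Q N n), E16_QQ, ← Matrix.mul_assoc]

theorem E16_Y_psd {N n : ℕ} {V : Mt N} : (E16_sq V * E16_Q N n * E16_sq V).PosSemidef := by
  have h := Matrix.posSemidef_conjTranspose_mul_self (E16_Q N n * E16_sq V)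
  rwa [E16_Y_eq] at h

theorem E16_split {N n : ℕ} {V : Mt N} (hV : V.PosSemidef) :
    E16_sq V * E16_P N n * E16_sq V + E16_sq V * E16_Q N n * E16_sq V = V := by
  rw [← Matrix.add_mul, ← Matrix.mul_add, E16_P_add_Q, Matrix.mul_one, E16_sq_mul hV]

theorem tr_rpow_blk_ge {N n : ℕ} {p : ℝ} (hp : 1 ≤ p) {V : Mt N} (hV : V.PosSemidef) :
    tr (cfc (fun t : ℝ => t ^ p) (blk n V)) ≤ tr (cfc (fun t : ℝ => t ^ p) V) := by
  rw [← E16_blk_tr hp hV]
  refine E16_mono hp E16_X_psd ?_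
  have h := E16_split (n := n) hV
  have h2 : V - E16_sq V * E16_P N n * E16_sq V = E16_sq V * E16_Q N n * E16_sq V := by
    rw [sub_eq_iff_eq_add, add_comm]
    exact h.symm
  rw [h2]
  exact E16_Y_psd

open scoped MatrixOrder Matrix.Norms.L2Operator in
theorem E16_eig_le {N : ℕ} {X : Mt N} (hX : X.IsHermitian) {a : ℝ}
    (h : (((a : ℝ) : ℂ) • (1 : Mt N) - X).PosSemidef) (i : Fin N) : hX.eigenvalues i ≤ a := by
  have hsa : IsSelfAdjoint X := hX
  have h1 : X ≤ algebraMap ℝ (Mt N) a := by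
    rw [Algebra.algebraMap_eq_smul_one, Matrix.le_iff, ← E16_smul_eq]
    exact h
  rw [le_algebraMap_iff_spectrum_le (a := X) (r := a) hsa,
    hX.spectrum_real_eq_range_eigenvalues] at h1
  exact h1 _ ⟨i, rfl⟩

theorem E16_tr_le_rank {N m : ℕ} {p ν : ℝ} (hp : 1 ≤ p) (hν : 0 ≤ ν) {C : Mt N} (hC : C.PosSemidef)
    (hrank : C.rank ≤ m) (h : (((ν : ℝ) : ℂ) • (1 : Mt N) - C).PosSemidef) :
    tr (cfc (fun t : ℝ => t ^ p) C) ≤ m * ν ^ p := by
  rw [tr_cfc hC.1]
  have h1 : ∑ i, (hC.1.eigenvalues i) ^ p ≤ ∑ i, if hC.1.eigenvalues i ≠ 0 then ν ^ p else 0 := by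
    refine Finset.sum_le_sum fun i _ => ?_
    by_cases hi : hC.1.eigenvalues i = 0
    · rw [if_neg (not_not.2 hi), hi, Real.zero_rpow (by linarith)]
    · rw [if_pos hi]
      exact Real.rpow_le_rpow (hC.eigenvalues_nonneg i) (E16_eig_le hC.1 h i) (by linarith)
  refine h1.trans ?_
  rw [← Finset.sum_filter, Finset.sum_const, nsmul_eq_mul]
  refine mul_le_mul_of_nonneg_right ?_ (Real.rpow_nonneg hν p)
  have h2 := hC.1.rank_eq_card_non_zero_eigs
  rw [Fintype.card_subtype] at h2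
  rw [← h2]
  exact_mod_cast hrank

theorem E16_hs2_psd {N : ℕ} {Y : Mt N} (hY : Y.IsHermitian) {c : ℝ} (hc : 0 ≤ c)
    (h : hs2 Y ≤ c ^ 2) : (((c : ℝ) : ℂ) • (1 : Mt N) - Y).PosSemidef := by
  have e : ((c : ℝ) : ℂ) • (1 : Mt N) - Y = cfc (fun t : ℝ => c - t) Y := by
    rw [← _root_.LT.cfc_sub_eq hY (fun _ => c) (fun t => t), _root_.LT.cfc_id_eq hY,
      _root_.LT.cfc_const_eq hY, E16_smul_eq]
  rw [e]
  refine E16_cfc_psd hY fun i => ?_
  have h2 : hs2 Y = ∑ i, hY.eigenvalues i ^ 2 := by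
    rw [hs2_eq_tr, hY.eq]
    have h3 : Y * Y = cfc (fun t : ℝ => t * t) Y := by
      rw [← _root_.LT.cfc_mul_eq hY (fun t => t) (fun t => t), _root_.LT.cfc_id_eq hY]
    rw [h3, tr_cfc hY]
    exact Finset.sum_congr rfl fun i _ => (sq _).symm
  have h3 : hY.eigenvalues i ^ 2 ≤ c ^ 2 := by
    refine le_trans ?_ (h2 ▸ h)
    exact Finset.single_le_sum (f := fun i => hY.eigenvalues i ^ 2) (fun i _ => sq_nonneg _)
      (Finset.mem_univ i)
  have h4 := abs_le_of_sq_le_sq' h3 hc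
  linarith [h4.2]

theorem E16_Q_apply {N n : ℕ} (A : Mt N) (i j : Fin N) :
    (E16_Q N n * A * E16_Q N n) i j = if (i : ℕ) < n ∨ (j : ℕ) < n then 0 else A i j := by
  unfold E16_Q
  rw [Matrix.mul_diagonal, Matrix.diagonal_mul]
  by_cases hi : (i : ℕ) < n
  · simp [hi]
  · by_cases hj : (j : ℕ) < n
    · simp [hj]
    · simp [hi, hj]

theorem E16_hs2_Q {N n : ℕ} (A : Mt N) : hs2 (E16_Q N n * A * E16_Q N n) ≤ hs2 A := by
  unfold hs2
  refine Finset.sum_le_sum fun i _ => Finset.sum_le_sum fun j _ => ?_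
  rw [E16_Q_apply]
  split_ifs
  · simp
  · exact le_rfl

theorem E16_Q_compress_herm {N n : ℕ} {A : Mt N} (hA : A.IsHermitian) :
    (E16_Q N n * A * E16_Q N n).IsHermitian := by
  have := Matrix.isHermitian_mul_mul_conjTranspose (E16_Q N n) hA
  rwa [E16_Q_herm] at this

theorem E16_offblk_nonneg {N n : ℕ} (F : Mt N) : 0 ≤ offblk n F :=
  Finset.sum_nonneg fun _ _ => Finset.sum_nonneg fun _ _ => by split_ifs <;> positivity

theorem E16_C_le {N n : ℕ} {τ α : ℝ} (hα : 0 < α) (_hτ0 : 0 ≤ τ)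
    {k : Fin N → ℝ} {F V : Mt N} (hV : V.PosSemidef) (hadm : Adm (dg k) F)
    (hτ : ∀ j : Fin N, n ≤ (j : ℕ) → k j ≤ τ) :
    (((((1 / α + 1) * (2 * τ ^ 2 + offblk n F) +
        Real.sqrt (hs2 (vErr α (dg k) F V)) : ℝ)) : ℂ) • (1 : Mt N) -
      E16_Q N n * V * E16_Q N n).PosSemidef := by
  have hF := hadm.isHermitian_F
  have hK := hadm.isHermitian_K
  have hE : (vErr α (dg k) F V).IsHermitian := by
    unfold vErr
    have h1 : (dg k * dg k - F * F).IsHermitian := by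
      refine Matrix.IsHermitian.sub ?_ ?_
      · unfold Matrix.IsHermitian
        rw [conjTranspose_mul, hK.eq]
      · unfold Matrix.IsHermitian
        rw [conjTranspose_mul, hF.eq]
    refine hV.1.sub ?_
    unfold Matrix.IsHermitian
    rw [conjTranspose_smul, h1.eq]
    congr 1
    simp
  have h1 : (((Real.sqrt (hs2 (vErr α (dg k) F V)) : ℝ) : ℂ) • (1 : Mt N) -
      E16_Q N n * vErr α (dg k) F V * E16_Q N n).PosSemidef := by
    refine E16_hs2_psd (E16_Q_compress_herm hE) (Real.sqrt_nonneg _) ?_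
    rw [Real.sq_sqrt (E12_hs2_nonneg _)]
    exact E16_hs2_Q _
  have hk0 : ∀ i, 0 ≤ k i := by
    intro i
    have := E12_diag_re_nonneg hadm.posSemidef i
    unfold dg at this
    simpa using this
  -- the main part
  have h2 : (dg fun i : Fin N => (2 * τ ^ 2 + offblk n F) - if (i : ℕ) < n then 0 else k i ^ 2).PosSemidef := by
    refine E12_dg_psd fun i => ?_
    have := E16_offblk_nonneg (n := n) F
    split_ifs with hi
    · nlinarith
    · have h3 := hτ i (not_lt.1 hi)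
      have h4 : k i ^ 2 ≤ τ ^ 2 := pow_le_pow_left₀ (hk0 i) h3 2
      nlinarith
  have h3 : (E16_Q N n * (F * F) * E16_Q N n).PosSemidef := by
    have h4 : (F * F).PosSemidef := by
      have := Matrix.posSemidef_conjTranspose_mul_self F
      rwa [hF.eq] at this
    have := h4.mul_mul_conjTranspose_same (E16_Q N n)
    rwa [E16_Q_herm] at this
  have h4 := ((h2.add h3).smul (show (0 : ℝ) ≤ 1 / α + 1 by positivity)).add h1
  have e : (1 / α + 1) • ((dg fun i : Fin N => (2 * τ ^ 2 + offblk n F) -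
      if (i : ℕ) < n then 0 else k i ^ 2) + E16_Q N n * (F * F) * E16_Q N n) +
      (((Real.sqrt (hs2 (vErr α (dg k) F V)) : ℝ) : ℂ) • (1 : Mt N) -
      E16_Q N n * vErr α (dg k) F V * E16_Q N n) =
      ((((1 / α + 1) * (2 * τ ^ 2 + offblk n F) +
        Real.sqrt (hs2 (vErr α (dg k) F V)) : ℝ)) : ℂ) • (1 : Mt N) -
      E16_Q N n * V * E16_Q N n := by
    generalize Real.sqrt (hs2 (vErr α (dg k) F V)) = σ
    generalize offblk n F = ω
    ext i j
    simp only [Matrix.add_apply, Matrix.sub_apply, Matrix.smul_apply, E16_Q_apply]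
    unfold vErr
    simp only [Matrix.sub_apply, Matrix.smul_apply, E12_dg_mul]
    by_cases hij : i = j
    · subst hij
      by_cases hi : (i : ℕ) < n
      · simp [hi, dg]
        ring
      · simp only [hi, dg, Matrix.diagonal_apply_eq, Matrix.one_apply_eq, or_self, if_false,
          smul_eq_mul, Complex.real_smul]
        push_cast
        ring
    · simp only [dg, Matrix.diagonal_apply_ne _ hij, Matrix.one_apply_ne hij]
      by_cases hh : (i : ℕ) < n ∨ (j : ℕ) < n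
      · simp [hh]
      · simp only [hh, if_false, smul_eq_mul, Complex.real_smul]
        push_cast
        ring
  rwa [e] at h4

theorem tr_rpow_blk_le {N m n : ℕ} {p τ α t : ℝ} (hp : 1 ≤ p) (hα : 0 < α) (ht : 0 < t) (hτ0 : 0 ≤ τ)
    {k : Fin N → ℝ} {F V : Mt N} (hV : V.PosSemidef) (hrank : V.rank ≤ m) (hadm : Adm (dg k) F)
    (hτ : ∀ j : Fin N, n ≤ (j : ℕ) → k j ≤ τ) :
    tr (cfc (fun t : ℝ => t ^ p) V) ≤ (1 + t) ^ p * tr (cfc (fun t : ℝ => t ^ p) (blk n V)) +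
      (1 + 1 / t) ^ p * (m * ((1 / α + 1) * (2 * τ ^ 2 + offblk n F) +
        Real.sqrt (hs2 (vErr α (dg k) F V))) ^ p) := by
  have h1 := E16_convex hp ht (E16_X_psd (n := n) (V := V)) (E16_Y_psd (n := n) (V := V))
  rw [E16_split hV, E16_blk_tr hp hV, ← E16_Y_eq, E16_tr_cfc_mul_comm _
    (f := fun t : ℝ => t ^ p) (Real.zero_rpow (by linarith))] at h1
  refine h1.trans ?_
  refine add_le_add_right (mul_le_mul_of_nonneg_left ?_ (Real.rpow_nonneg (by positivity) _)) _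
  have e : E16_Q N n * E16_sq V * (E16_Q N n * E16_sq V)ᴴ = E16_Q N n * V * E16_Q N n := by
    rw [conjTranspose_mul, E16_sq_herm, E16_Q_herm, Matrix.mul_assoc,
      ← Matrix.mul_assoc (E16_sq V), E16_sq_mul hV, ← Matrix.mul_assoc]
  rw [e]
  have hC : (E16_Q N n * V * E16_Q N n).PosSemidef := by
    have := hV.mul_mul_conjTranspose_same (E16_Q N n)
    rwa [E16_Q_herm] at this
  have hr : (E16_Q N n * V * E16_Q N n).rank ≤ m :=
    ((Matrix.rank_mul_le_left _ _).trans (Matrix.rank_mul_le_right _ _)).trans hrank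
  refine E16_tr_le_rank hp ?_ hC hr (E16_C_le hα hτ0 hV hadm hτ)
  have := E16_offblk_nonneg (n := n) F
  positivity

end Crest.Agent.LT
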