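import Crest.Agent.LTE_Defs
import Crest.Agent.LTE_E01
import Crest.Agent.LTE_E16
/-!
Task LTE-E02: `e^{A+B} - e^A e^B` is controlled by `[A,B]`, dimension-free:
`d/ds (e^{s(A+B)} e^{(1-s)A} e^{(1-s)B}) = e^{s(A+B)} [B, e^{(1-s)A}] e^{(1-s)B}`, integrate over `[0,1]`, and use
`hs2_comm_cfc_le` for `[B, e^{(1-s)A}]` (Lipschitz constant `e^{M₀}`), `‖e^{s(A+B)}‖ ≤ e^{2M₀}`.
-/

set_option autoImplicit false

namespace Crest.Agent.LT

open MeasureTheory Matrix Set Filter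
open Crest.MathPhysics.LiebThirring
open scoped ComplexOrder Topology

section
open scoped Matrix.Norms.L2Operator

theorem E02_exp_eq {N : ℕ} {X : Mt N} (hX : X.IsHermitian) :
    NormedSpace.exp X = cfc Real.exp X :=
  (CFC.real_exp_eq_normedSpace_exp hX).symm

end

theorem E02_exp_bound {N : ℕ} {X : Mt N} (hX : X.IsHermitian) {c : ℝ}
    (h : (((c : ℝ) : ℂ) • (1 : Mt N) - X).PosSemidef) :
    (((Real.exp c ^ 2 : ℝ) : ℂ) • (1 : Mt N) - NormedSpace.exp X * NormedSpace.exp X).PosSemidef := by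
  have e : ((Real.exp c ^ 2 : ℝ) : ℂ) • (1 : Mt N) - NormedSpace.exp X * NormedSpace.exp X =
      cfc (fun t : ℝ => Real.exp c ^ 2 - Real.exp t * Real.exp t) X := by
    rw [← _root_.LT.cfc_sub_eq hX (fun _ => Real.exp c ^ 2) (fun t => Real.exp t * Real.exp t),
      _root_.LT.cfc_const_eq hX, E16_smul_eq, ← _root_.LT.cfc_mul_eq hX, E02_exp_eq hX]
  rw [e]
  refine E16_cfc_psd hX fun i => ?_
  have h1 := Real.exp_le_exp.2 (E16_eig_le hX h i)
  have h2 := Real.exp_pos (hX.eigenvalues i)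
  nlinarith

theorem E02_exp_herm {N : ℕ} {X : Mt N} (hX : X.IsHermitian) :
    (NormedSpace.exp X)ᴴ = NormedSpace.exp X := by
  rw [E02_exp_eq hX]
  exact (_root_.LT.cfc_hermitian X Real.exp).eq

theorem E02_triple {N : ℕ} {X Z : Mt N} (M : Mt N) (hX : X.IsHermitian) (hZ : Z.IsHermitian)
    {c d : ℝ} (h : (((c : ℝ) : ℂ) • (1 : Mt N) - X).PosSemidef)
    (h' : (((d : ℝ) : ℂ) • (1 : Mt N) - Z).PosSemidef) :
    hs2 (NormedSpace.exp X * (M * NormedSpace.exp Z)) ≤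
      Real.exp c ^ 2 * (Real.exp d ^ 2 * hs2 M) := by
  refine (hs2_mul_left_le (C := Real.exp c) ?_).trans
    (mul_le_mul_of_nonneg_left (hs2_mul_right_le (C := Real.exp d) ?_) (by positivity))
  · rw [E02_exp_herm hX]
    exact E02_exp_bound hX h
  · rw [E02_exp_herm hZ]
    exact E02_exp_bound hZ h'

theorem E02_psd_of_spec {N : ℕ} {A : Mt N} (hA : A.IsHermitian) {M₀ : ℝ}
    (h : ∀ x ∈ spectrum ℝ A, |x| ≤ M₀) : (((M₀ : ℝ) : ℂ) • (1 : Mt N) - A).PosSemidef := by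
  have e : ((M₀ : ℝ) : ℂ) • (1 : Mt N) - A = cfc (fun t : ℝ => M₀ - t) A := by
    rw [← _root_.LT.cfc_sub_eq hA (fun _ => M₀) (fun t => t), _root_.LT.cfc_id_eq hA,
      _root_.LT.cfc_const_eq hA, E16_smul_eq]
  rw [e]
  refine E16_cfc_psd hA fun i => ?_
  have h1 := h (hA.eigenvalues i) (by
    rw [hA.spectrum_real_eq_range_eigenvalues]; exact ⟨i, rfl⟩)
  linarith [le_abs_self (hA.eigenvalues i)]

theorem E02_lip {M₀ s x y : ℝ} (hs0 : 0 ≤ s) (hs1 : s ≤ 1) (hx : |x| ≤ M₀) (hy : |y| ≤ M₀) :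
    |Real.exp (s * x) - Real.exp (s * y)| ≤ Real.exp M₀ * |x - y| := by
  have hM : 0 ≤ M₀ := (abs_nonneg x).trans hx
  have key : ∀ u v : ℝ, |u| ≤ M₀ → |v| ≤ M₀ → u ≤ v →
      |Real.exp (s * u) - Real.exp (s * v)| ≤ Real.exp M₀ * |u - v| := by
    intro u v hu hv huv
    have h1 : s * u ≤ s * v := mul_le_mul_of_nonneg_left huv hs0
    rw [abs_of_nonpos (sub_nonpos.2 (Real.exp_le_exp.2 h1)), abs_of_nonpos (sub_nonpos.2 huv)]
    have h2 : s * v ≤ M₀ := by
      have := le_abs_self v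
      nlinarith
    have h3 := Real.add_one_le_exp (s * u - s * v)
    have h4 : Real.exp (s * u) = Real.exp (s * v) * Real.exp (s * u - s * v) := by
      rw [← Real.exp_add]
      congr 1
      ring
    have h5 : Real.exp (s * v) - Real.exp (s * u) ≤ Real.exp (s * v) * (s * v - s * u) := by
      rw [h4]
      have := Real.exp_pos (s * v)
      nlinarith
    have h6 : Real.exp (s * v) ≤ Real.exp M₀ := Real.exp_le_exp.2 h2
    have h7 : s * v - s * u ≤ v - u := by nlinarith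
    have h8 : Real.exp (s * v) * (s * v - s * u) ≤ Real.exp M₀ * (v - u) :=
      mul_le_mul h6 h7 (by linarith) (Real.exp_pos _).le
    linarith
  rcases le_total x y with h | h
  · exact key x y hx hy h
  · rw [abs_sub_comm, abs_sub_comm x y]
    exact key y x hy hx h

theorem E02_smul_herm {N : ℕ} {A : Mt N} (hA : A.IsHermitian) (s : ℝ) : (s • A).IsHermitian := by
  rw [Matrix.IsHermitian, conjTranspose_smul, hA.eq]; simp

theorem E02_exp_smul_eq {N : ℕ} {A : Mt N} (hA : A.IsHermitian) (s : ℝ) :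
    NormedSpace.exp (s • A) = cfc (fun t : ℝ => Real.exp (s * t)) A := by
  have hsa : IsSelfAdjoint A := hA
  rw [E02_exp_eq (E02_smul_herm hA s), ← cfc_comp_smul s Real.exp A
    (Real.continuous_exp.continuousOn) hsa]
  rfl

section
open scoped Matrix.Norms.Frobenius

theorem E02_norm_sq {N : ℕ} (A : Mt N) : ‖A‖ ^ 2 = hs2 A := by
  rw [Matrix.frobenius_norm_def]
  have h : (∑ i, ∑ j, ‖A i j‖ ^ (2 : ℝ)) = hs2 A := by
    unfold hs2
    simp only [Real.rpow_two]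
  rw [h, ← Real.sqrt_eq_rpow, Real.sq_sqrt]
  unfold hs2
  positivity

theorem E02_norm_le {N : ℕ} {A : Mt N} {B : ℝ} (hB : 0 ≤ B) (h : hs2 A ≤ B ^ 2) : ‖A‖ ≤ B := by
  rw [← E02_norm_sq] at h
  exact abs_le_of_sq_le_sq' h hB |>.2

/-- the interpolation -/
noncomputable def E02_G {N : ℕ} (A B : Mt N) (s : ℝ) : Mt N :=
  NormedSpace.exp (s • (A + B)) * (NormedSpace.exp ((1 - s) • A) * NormedSpace.exp ((1 - s) • B))

theorem E02_deriv {N : ℕ} (A B : Mt N) (s : ℝ) :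
    HasDerivAt (E02_G A B) (NormedSpace.exp (s • (A + B)) *
      ((B * NormedSpace.exp ((1 - s) • A) - NormedSpace.exp ((1 - s) • A) * B) *
        NormedSpace.exp ((1 - s) • B))) s := by
  have h1 : HasDerivAt (fun s : ℝ => NormedSpace.exp (s • (A + B)))
      (NormedSpace.exp (s • (A + B)) * (A + B)) s := hasDerivAt_exp_smul_const (𝕂 := ℝ) (A + B) s
  have h0 : HasDerivAt (fun s : ℝ => 1 - s) (-1) s := by
    simpa using (hasDerivAt_id s).const_sub 1
  have h2 : HasDerivAt (fun s : ℝ => NormedSpace.exp ((1 - s) • A))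
      ((-1 : ℝ) • (A * NormedSpace.exp ((1 - s) • A))) s :=
    (hasDerivAt_exp_smul_const' (𝕂 := ℝ) A (1 - s)).scomp s h0
  have h3 : HasDerivAt (fun s : ℝ => NormedSpace.exp ((1 - s) • B))
      ((-1 : ℝ) • (B * NormedSpace.exp ((1 - s) • B))) s :=
    (hasDerivAt_exp_smul_const' (𝕂 := ℝ) B (1 - s)).scomp s h0
  have h4 := h1.mul (h2.mul h3)
  refine h4.congr_deriv ?_
  rw [Pi.mul_apply]
  generalize NormedSpace.exp (s • (A + B)) = E
  generalize NormedSpace.exp ((1 - s) • A) = EA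
  generalize NormedSpace.exp ((1 - s) • B) = EB
  simp only [neg_smul, one_smul, neg_mul, mul_neg]
  noncomm_ring

theorem E02_main {N : ℕ} {A B : Mt N} (hA : A.IsHermitian) (hB : B.IsHermitian) {M₀ : ℝ}
    (hM : 0 ≤ M₀) (hsA : ∀ x ∈ spectrum ℝ A, |x| ≤ M₀) (hsB : ∀ x ∈ spectrum ℝ B, |x| ≤ M₀) :
    hs2 (cfc Real.exp (A + B) - cfc Real.exp A * cfc Real.exp B) ≤
      (Real.exp (2 * M₀) ^ 2 * (Real.exp M₀ ^ 2 * Real.exp M₀ ^ 2)) * hs2 (A * B - B * A) := by
  have hpA := E02_psd_of_spec hA hsA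
  have hpB := E02_psd_of_spec hB hsB
  have hone : (1 : Mt N).PosSemidef := Matrix.PosSemidef.one
  set c : ℝ := (Real.exp (2 * M₀) ^ 2 * (Real.exp M₀ ^ 2 * Real.exp M₀ ^ 2)) with hc
  have hc0 : 0 ≤ c := by positivity
  have hh0 : 0 ≤ hs2 (A * B - B * A) := E12_hs2_nonneg _
  have hbound : ∀ s ∈ Ico (0 : ℝ) 1, ‖NormedSpace.exp (s • (A + B)) *
      ((B * NormedSpace.exp ((1 - s) • A) - NormedSpace.exp ((1 - s) • A) * B) *
        NormedSpace.exp ((1 - s) • B))‖ ≤ Real.sqrt (c * hs2 (A * B - B * A)) := by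
    intro s hs
    refine E02_norm_le (Real.sqrt_nonneg _) ?_
    rw [Real.sq_sqrt (mul_nonneg hc0 hh0)]
    have hp1 : (((2 * M₀ : ℝ) : ℂ) • (1 : Mt N) - s • (A + B)).PosSemidef := by
      have h1 := ((hpA.smul hs.1).add (hpB.smul hs.1)).add
        (hone.smul (show (0 : ℝ) ≤ 2 * M₀ * (1 - s) by nlinarith [hs.2]))
      have e : s • (((M₀ : ℝ) : ℂ) • (1 : Mt N) - A) + s • (((M₀ : ℝ) : ℂ) • (1 : Mt N) - B) +
          (2 * M₀ * (1 - s)) • (1 : Mt N) = ((2 * M₀ : ℝ) : ℂ) • (1 : Mt N) - s • (A + B) := by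
        rw [E16_smul_eq, E16_smul_eq]
        ext i j
        simp only [Matrix.add_apply, Matrix.sub_apply, Matrix.smul_apply, Complex.real_smul]
        push_cast
        ring
      rwa [e] at h1
    have hp2 : (((M₀ : ℝ) : ℂ) • (1 : Mt N) - (1 - s) • B).PosSemidef := by
      have h1 := (hpB.smul (show (0 : ℝ) ≤ 1 - s by linarith [hs.2])).add
        (hone.smul (show (0 : ℝ) ≤ M₀ * s by nlinarith [hs.1]))
      have e : (1 - s) • (((M₀ : ℝ) : ℂ) • (1 : Mt N) - B) + (M₀ * s) • (1 : Mt N) =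
          ((M₀ : ℝ) : ℂ) • (1 : Mt N) - (1 - s) • B := by
        rw [E16_smul_eq]
        ext i j
        simp only [Matrix.add_apply, Matrix.sub_apply, Matrix.smul_apply, Complex.real_smul]
        push_cast
        ring
      rwa [e] at h1
    refine (E02_triple _ (E02_smul_herm (hA.add hB) s) (E02_smul_herm hB (1 - s)) hp1 hp2).trans ?_
    have h5 : hs2 (B * NormedSpace.exp ((1 - s) • A) - NormedSpace.exp ((1 - s) • A) * B) ≤
        Real.exp M₀ ^ 2 * hs2 (A * B - B * A) := by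
      rw [E02_exp_smul_eq hA]
      have h6 := hs2_comm_cfc_le (M := B) hA (f := fun t : ℝ => Real.exp ((1 - s) * t))
        (L := Real.exp M₀) fun x hx y hy => E02_lip (by linarith [hs.2]) (by linarith [hs.1])
          (hsA x hx) (hsA y hy)
      rwa [T01_hs2_comm] at h6
    rw [hc]
    have h7 := mul_le_mul_of_nonneg_left h5 (show 0 ≤ Real.exp (2 * M₀) ^ 2 * Real.exp M₀ ^ 2 by positivity)
    nlinarith
  have h8 := norm_image_sub_le_of_norm_deriv_le_segment_01' (f := E02_G A B)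
    (fun s _ => (E02_deriv A B s).hasDerivWithinAt) hbound
  have e1 : E02_G A B 1 = cfc Real.exp (A + B) := by
    unfold E02_G
    rw [sub_self, zero_smul, zero_smul, one_smul, NormedSpace.exp_zero, mul_one, mul_one,
      E02_exp_eq (hA.add hB)]
  have e0 : E02_G A B 0 = cfc Real.exp A * cfc Real.exp B := by
    unfold E02_G
    rw [sub_zero, zero_smul, one_smul, one_smul, NormedSpace.exp_zero, one_mul,
      E02_exp_eq hA, E02_exp_eq hB]
  rw [e1, e0] at h8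
  rw [← E02_norm_sq]
  calc ‖cfc Real.exp (A + B) - cfc Real.exp A * cfc Real.exp B‖ ^ 2
      ≤ (Real.sqrt (c * hs2 (A * B - B * A))) ^ 2 := pow_le_pow_left₀ (norm_nonneg _) h8 2
    _ = c * hs2 (A * B - B * A) := Real.sq_sqrt (mul_nonneg hc0 hh0)

end

theorem hs2_exp_add_sub_le (M₀ : ℝ) : ∃ C : ℝ, 0 ≤ C ∧ ∀ (N : ℕ) (A B : Mt N),
    A.IsHermitian → B.IsHermitian → (∀ x ∈ spectrum ℝ A, |x| ≤ M₀) → (∀ x ∈ spectrum ℝ B, |x| ≤ M₀) →
      hs2 (cfc Real.exp (A + B) - cfc Real.exp A * cfc Real.exp B) ≤ C * hs2 (A * B - B * A) := by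
  refine ⟨Real.exp (2 * |M₀|) ^ 2 * (Real.exp |M₀| ^ 2 * Real.exp |M₀| ^ 2), by positivity,
    fun N A B hA hB hsA hsB => ?_⟩
  exact E02_main hA hB (abs_nonneg _) (fun x hx => (hsA x hx).trans (le_abs_self _))
    fun x hx => (hsB x hx).trans (le_abs_self _)

end Crest.Agent.LT
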