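import Crest.Agent.LT_Spec

/-!
# LT: Golden-Thompson inequality for Hermitian matrices (power of two trace inequality + Lie-Trotter)
-/

set_option autoImplicit false
set_option linter.unusedSectionVars false
open Matrix MeasureTheory Filter Topology
open scoped Matrix.Norms.L2Operator ComplexOrder MatrixOrder

namespace LT

variable {n : Type*} [Fintype n] [DecidableEq n]

theorem rtr_mul_conjTranspose (M : Matrix n n ℂ) :
    rtr (M * Mᴴ) = ∑ i, ∑ j, Complex.normSq (M i j) := by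
  unfold rtr Matrix.trace
  rw [Complex.re_sum]
  refine Finset.sum_congr rfl fun i _ => ?_
  rw [Matrix.diag_apply, Matrix.mul_apply, Complex.re_sum]
  refine Finset.sum_congr rfl fun j _ => ?_
  rw [Matrix.conjTranspose_apply, Complex.star_def, Complex.mul_conj, Complex.ofReal_re]

theorem rtr_mul_conjTranspose_nonneg (M : Matrix n n ℂ) : 0 ≤ rtr (M * Mᴴ) := by
  rw [rtr_mul_conjTranspose]
  exact Finset.sum_nonneg fun i _ => Finset.sum_nonneg fun j _ => Complex.normSq_nonneg _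

/-- Cauchy-Schwarz for the trace. -/
theorem trace_cs (A B : Matrix n n ℂ) :
    ‖Matrix.trace (A * B)‖ ^ 2 ≤ rtr (A * Aᴴ) * rtr (B * Bᴴ) := by
  have h1 : ‖Matrix.trace (A * B)‖ ≤ ∑ p : n × n, ‖A p.1 p.2‖ * ‖B p.2 p.1‖ := by
    rw [Fintype.sum_prod_type]
    unfold Matrix.trace
    refine (norm_sum_le _ _).trans (Finset.sum_le_sum fun i _ => ?_)
    rw [Matrix.diag_apply, Matrix.mul_apply]
    refine (norm_sum_le _ _).trans (Finset.sum_le_sum fun j _ => ?_)
    rw [norm_mul]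
  have h2 := Finset.sum_mul_sq_le_sq_mul_sq (Finset.univ : Finset (n × n))
    (fun p => ‖A p.1 p.2‖) (fun p => ‖B p.2 p.1‖)
  have h3 : ∑ p : n × n, ‖A p.1 p.2‖ ^ 2 = rtr (A * Aᴴ) := by
    rw [rtr_mul_conjTranspose, Fintype.sum_prod_type]
    refine Finset.sum_congr rfl fun i _ => Finset.sum_congr rfl fun j _ => ?_
    rw [Complex.normSq_eq_norm_sq]
  have h4 : ∑ p : n × n, ‖B p.2 p.1‖ ^ 2 = rtr (B * Bᴴ) := by
    rw [rtr_mul_conjTranspose, Fintype.sum_prod_type, Finset.sum_comm]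
    refine Finset.sum_congr rfl fun i _ => Finset.sum_congr rfl fun j _ => ?_
    rw [Complex.normSq_eq_norm_sq]
  rw [h3, h4] at h2
  refine le_trans ?_ h2
  exact pow_le_pow_left₀ (norm_nonneg _) h1 2

theorem trace_mul_pow_comm (A B : Matrix n n ℂ) (m : ℕ) :
    Matrix.trace ((A * B) ^ m) = Matrix.trace ((B * A) ^ m) := by
  cases m with
  | zero => simp
  | succ m =>
    have h : (A * B) ^ (m + 1) = A * ((B * A) ^ m * B) := by
      induction m with
      | zero => simp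
      | succ m ih =>
        rw [pow_succ, ih, pow_succ (B * A) m]
        simp only [mul_assoc]
    rw [h, Matrix.trace_mul_comm, mul_assoc, ← pow_succ]

theorem conjTranspose_pow_two (A : Matrix n n ℂ) : (A ^ 2)ᴴ = Aᴴ ^ 2 := by
  rw [conjTranspose_pow]

/-- nonnegativity of the trace of a product of positive semidefinite matrices. -/
theorem norm_trace_mul_posSemidef {R S : Matrix n n ℂ} (hR : R.PosSemidef) (hS : S.PosSemidef) :
    ‖Matrix.trace (R * S)‖ = rtr (R * S) := by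
  obtain ⟨P, hP⟩ := CStarAlgebra.nonneg_iff_eq_star_mul_self.1 hR.nonneg
  obtain ⟨Q, hQ⟩ := CStarAlgebra.nonneg_iff_eq_star_mul_self.1 hS.nonneg
  rw [star_eq_conjTranspose] at hP hQ
  have h1 : Matrix.trace (R * S) = Matrix.trace ((P * Qᴴ) * (P * Qᴴ)ᴴ) := by
    rw [hP, hQ, conjTranspose_mul, conjTranspose_conjTranspose]
    have : Pᴴ * P * (Qᴴ * Q) = Pᴴ * (P * Qᴴ * Q) := by simp only [mul_assoc]
    rw [this, Matrix.trace_mul_comm]
    simp only [mul_assoc]
  have h2 : Matrix.trace (R * S) = ((rtr (R * S) : ℝ) : ℂ) := by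
    unfold rtr
    rw [h1]
    apply Complex.ext
    · simp
    · rw [Complex.ofReal_im]
      have h3 : star (Matrix.trace ((P * Qᴴ) * (P * Qᴴ)ᴴ)) =
          Matrix.trace ((P * Qᴴ) * (P * Qᴴ)ᴴ) := by
        rw [← Matrix.trace_conjTranspose]
        congr 1
        simp only [conjTranspose_mul, conjTranspose_conjTranspose, mul_assoc]
      exact Complex.conj_eq_iff_im.1 h3
  have h4 : 0 ≤ rtr (R * S) := by
    unfold rtr
    rw [h1]
    exact rtr_mul_conjTranspose_nonneg _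
  rw [h2, Complex.norm_real, Real.norm_eq_abs, abs_of_nonneg h4]

theorem pow_two_ineq (k : ℕ) :
    (∀ M : Matrix n n ℂ, ‖Matrix.trace (M ^ (2 ^ (k + 1)))‖ ≤ rtr ((M * Mᴴ) ^ (2 ^ k))) ∧
    (∀ R S : Matrix n n ℂ, R.PosSemidef → S.PosSemidef →
      ‖Matrix.trace ((R * S) ^ (2 ^ k))‖ ≤ rtr (R ^ (2 ^ k) * S ^ (2 ^ k))) := by
  induction k with
  | zero =>
    refine ⟨fun M => ?_, fun R S hR hS => ?_⟩
    · simp only [zero_add, pow_one, pow_zero]
      rw [pow_two]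
      have h := trace_cs M M
      have h0 := rtr_mul_conjTranspose_nonneg M
      rw [← pow_two (rtr (M * Mᴴ))] at h
      exact (pow_le_pow_iff_left₀ (norm_nonneg _) h0 two_ne_zero).1 h
    · simp only [pow_zero, pow_one]
      exact (norm_trace_mul_posSemidef hR hS).le
  | succ k ih =>
    obtain ⟨P, Q⟩ := ih
    refine ⟨fun M => ?_, fun R S hR hS => ?_⟩
    · -- the trace of a power
      have h1 : M ^ (2 ^ (k + 1 + 1)) = (M ^ 2) ^ (2 ^ (k + 1)) := by
        rw [← pow_mul]; congr 1; ring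
      rw [h1]
      refine (P (M ^ 2)).trans ?_
      have h2 : rtr ((M ^ 2 * (M ^ 2)ᴴ) ^ 2 ^ k) = rtr (((Mᴴ * M) * (M * Mᴴ)) ^ 2 ^ k) := by
        unfold rtr
        have e1 : M ^ 2 * (M ^ 2)ᴴ = (M * (M * Mᴴ)) * Mᴴ := by
          rw [conjTranspose_pow_two, pow_two, pow_two]
          simp only [mul_assoc]
        have e2 : (Mᴴ * M) * (M * Mᴴ) = Mᴴ * (M * (M * Mᴴ)) := by
          simp only [mul_assoc]
        rw [e1, e2, trace_mul_pow_comm]
      rw [h2]
      have hR : (Mᴴ * M).PosSemidef := Matrix.posSemidef_conjTranspose_mul_self M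
      have hS : (M * Mᴴ).PosSemidef := Matrix.posSemidef_self_mul_conjTranspose M
      have h3 := Q (Mᴴ * M) (M * Mᴴ) hR hS
      have h4 : rtr (((Mᴴ * M) * (M * Mᴴ)) ^ 2 ^ k) ≤
          ‖Matrix.trace (((Mᴴ * M) * (M * Mᴴ)) ^ 2 ^ k)‖ := by
        unfold rtr
        exact (Complex.re_le_norm _)
      refine (h4.trans h3).trans ?_
      have h5 := trace_cs ((Mᴴ * M) ^ 2 ^ k) ((M * Mᴴ) ^ 2 ^ k)
      have h6 : rtr ((Mᴴ * M) ^ 2 ^ k * ((Mᴴ * M) ^ 2 ^ k)ᴴ) = rtr ((M * Mᴴ) ^ 2 ^ (k + 1)) := by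
        rw [conjTranspose_pow, hR.isHermitian.eq, ← pow_add, ← two_mul, ← pow_succ']
        unfold rtr
        rw [trace_mul_pow_comm]
      have h7 : rtr ((M * Mᴴ) ^ 2 ^ k * ((M * Mᴴ) ^ 2 ^ k)ᴴ) = rtr ((M * Mᴴ) ^ 2 ^ (k + 1)) := by
        rw [conjTranspose_pow, hS.isHermitian.eq, ← pow_add, ← two_mul, ← pow_succ']
      rw [h6, h7, ← pow_two] at h5
      have h8 : 0 ≤ rtr ((M * Mᴴ) ^ 2 ^ (k + 1)) := by
        rw [← h7]; exact rtr_mul_conjTranspose_nonneg _
      have h9 := (pow_le_pow_iff_left₀ (norm_nonneg _) h8 two_ne_zero).1 h5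
      refine le_trans ?_ h9
      exact Complex.re_le_norm _
    · have h1 : (R * S) ^ (2 ^ (k + 1)) = (R * S) ^ 2 ^ (k + 1) := rfl
      refine (P (R * S)).trans ?_
      have h2 : rtr ((R * S * (R * S)ᴴ) ^ 2 ^ k) = rtr ((R ^ 2 * S ^ 2) ^ 2 ^ k) := by
        unfold rtr
        have e1 : R * S * (R * S)ᴴ = R * (S ^ 2 * R) := by
          rw [conjTranspose_mul, hR.isHermitian.eq, hS.isHermitian.eq, pow_two]
          simp only [mul_assoc]
        have e2 : R ^ 2 * S ^ 2 = R * (R * S ^ 2) := by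
          rw [pow_two R]; simp only [mul_assoc]
        have e3 : S ^ 2 * R * R = S ^ 2 * R ^ 2 := by
          rw [pow_two R]; simp only [mul_assoc]
        rw [e1, trace_mul_pow_comm, e3, trace_mul_pow_comm]
      rw [h2]
      have h3 := Q (R ^ 2) (S ^ 2) (hR.pow 2) (hS.pow 2)
      have h4 : rtr ((R ^ 2 * S ^ 2) ^ 2 ^ k) ≤ ‖Matrix.trace ((R ^ 2 * S ^ 2) ^ 2 ^ k)‖ :=
        Complex.re_le_norm _
      refine (h4.trans h3).trans (le_of_eq ?_)
      rw [← pow_mul, ← pow_mul, ← pow_succ']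

theorem norm_one_le' : ‖(1 : Matrix n n ℂ)‖ ≤ 1 := by
  rcases isEmpty_or_nonempty n with h | h
  · have : (1 : Matrix n n ℂ) = 0 := Subsingleton.elim _ _
    rw [this, norm_zero]; exact zero_le_one
  · exact (CStarRing.norm_one (E := Matrix n n ℂ)).le

theorem norm_pow_le_pow (x : Matrix n n ℂ) (m : ℕ) : ‖x ^ m‖ ≤ ‖x‖ ^ m := by
  cases m with
  | zero => simpa using norm_one_le'
  | succ m => exact norm_pow_le' x (Nat.succ_pos m)

theorem norm_exp_le (x : Matrix n n ℂ) : ‖NormedSpace.exp x‖ ≤ Real.exp ‖x‖ := by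
  have h1 : Summable fun k : ℕ => ‖((k.factorial : ℝ)⁻¹) • x ^ k‖ :=
    NormedSpace.norm_expSeries_summable' (𝕂 := ℝ) x
  rw [NormedSpace.exp_eq_tsum ℝ, Real.exp_eq_exp_ℝ, NormedSpace.exp_eq_tsum_div]
  refine (norm_tsum_le_tsum_norm h1).trans ?_
  have h2 : Summable fun k : ℕ => ‖x‖ ^ k / (k.factorial : ℝ) :=
    Real.summable_pow_div_factorial ‖x‖
  refine Summable.tsum_le_tsum (fun k => ?_) h1 h2
  rw [norm_smul, norm_inv, Real.norm_natCast, div_eq_inv_mul]
  exact mul_le_mul_of_nonneg_left (norm_pow_le_pow x k) (by positivity)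

theorem norm_pow_sub_pow_le (x y : Matrix n n ℂ) (c : ℝ) (hc : 1 ≤ c) (hx : ‖x‖ ≤ c)
    (hy : ‖y‖ ≤ c) (m : ℕ) : ‖x ^ m - y ^ m‖ ≤ m * c ^ m * ‖x - y‖ := by
  induction m with
  | zero => simp
  | succ m ih =>
    have h1 : x ^ (m + 1) - y ^ (m + 1) = x ^ m * (x - y) + (x ^ m - y ^ m) * y := by
      rw [pow_succ, pow_succ]; noncomm_ring
    have hc0 : 0 ≤ c := by linarith
    have h2 : ‖x ^ m‖ ≤ c ^ m := (norm_pow_le_pow x m).trans (pow_le_pow_left₀ (norm_nonneg _) hx m)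
    have h3 : c ^ m ≤ c ^ (m + 1) := pow_le_pow_right₀ hc (Nat.le_succ m)
    have hd : 0 ≤ ‖x - y‖ := norm_nonneg _
    rw [h1]
    calc ‖x ^ m * (x - y) + (x ^ m - y ^ m) * y‖
        ≤ ‖x ^ m‖ * ‖x - y‖ + ‖x ^ m - y ^ m‖ * ‖y‖ :=
          (norm_add_le _ _).trans (add_le_add (norm_mul_le _ _) (norm_mul_le _ _))
      _ ≤ c ^ (m + 1) * ‖x - y‖ + (m * c ^ m * ‖x - y‖) * c := by
          apply add_le_add
          · exact mul_le_mul_of_nonneg_right (h2.trans h3) hd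
          · exact mul_le_mul ih hy (norm_nonneg _) (by positivity)
      _ = ((m + 1 : ℕ) : ℝ) * c ^ (m + 1) * ‖x - y‖ := by push_cast; ring

/-- **Lie-Trotter product formula**. -/
theorem lie_trotter (a b : Matrix n n ℂ) :
    Tendsto (fun m : ℕ => (NormedSpace.exp ((m : ℝ)⁻¹ • a) * NormedSpace.exp ((m : ℝ)⁻¹ • b)) ^ m)
      atTop (𝓝 (NormedSpace.exp (a + b))) := by
  set φ : ℝ → Matrix n n ℂ := fun t =>
    NormedSpace.exp (t • a) * NormedSpace.exp (t • b) - NormedSpace.exp (t • (a + b)) with hφ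
  have hφ0 : φ 0 = 0 := by simp [hφ, NormedSpace.exp_zero]
  have hd : HasDerivAt φ 0 0 := by
    have h1 := hasDerivAt_exp_smul_const (𝕂 := ℝ) a 0
    have h2 := hasDerivAt_exp_smul_const (𝕂 := ℝ) b 0
    have h3 := hasDerivAt_exp_smul_const (𝕂 := ℝ) (a + b) 0
    have h4 : HasDerivAt φ (NormedSpace.exp ((0 : ℝ) • a) * a * NormedSpace.exp ((0 : ℝ) • b) +
        NormedSpace.exp ((0 : ℝ) • a) * (NormedSpace.exp ((0 : ℝ) • b) * b) -
        NormedSpace.exp ((0 : ℝ) • (a + b)) * (a + b)) 0 := (h1.mul h2).sub h3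
    have h5 : (NormedSpace.exp ((0 : ℝ) • a) * a * NormedSpace.exp ((0 : ℝ) • b) +
        NormedSpace.exp ((0 : ℝ) • a) * (NormedSpace.exp ((0 : ℝ) • b) * b) -
        NormedSpace.exp ((0 : ℝ) • (a + b)) * (a + b)) = 0 := by
      simp [NormedSpace.exp_zero]
    rw [h5] at h4
    exact h4
  have hs : Tendsto (fun m : ℕ => (m : ℝ) • φ ((m : ℝ)⁻¹)) atTop (𝓝 0) := by
    have h1 := hasDerivAt_iff_tendsto_slope_zero.1 hd
    have h2 : Tendsto (fun m : ℕ => ((m : ℝ))⁻¹) atTop (𝓝[≠] 0) := by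
      rw [tendsto_nhdsWithin_iff]
      refine ⟨tendsto_inv_atTop_nhds_zero_nat, ?_⟩
      filter_upwards [eventually_gt_atTop 0] with m hm
      have : (m : ℝ) ≠ 0 := by exact_mod_cast hm.ne'
      simpa using this
    have h3 := h1.comp h2
    refine h3.congr fun m => ?_
    show ((m : ℝ)⁻¹)⁻¹ • (φ (0 + (m : ℝ)⁻¹) - φ 0) = (m : ℝ) • φ ((m : ℝ)⁻¹)
    rw [hφ0, sub_zero, inv_inv, zero_add]
  set s := ‖a‖ + ‖b‖ with hs'
  have hs0 : 0 ≤ s := by positivity
  have hbd : ∀ m : ℕ, 0 < m →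
      ‖(NormedSpace.exp ((m : ℝ)⁻¹ • a) * NormedSpace.exp ((m : ℝ)⁻¹ • b)) ^ m
        - NormedSpace.exp (a + b)‖ ≤ Real.exp s * ‖(m : ℝ) • φ ((m : ℝ)⁻¹)‖ := by
    intro m hm
    have hm' : (0 : ℝ) < m := by exact_mod_cast hm
    have hi : (0 : ℝ) ≤ (m : ℝ)⁻¹ := by positivity
    have h1 : NormedSpace.exp (a + b) = (NormedSpace.exp ((m : ℝ)⁻¹ • (a + b))) ^ m := by
      rw [← Matrix.exp_nsmul]
      congr 1
      rw [← Nat.cast_smul_eq_nsmul ℝ, smul_smul, mul_inv_cancel₀ hm'.ne', one_smul]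
    have hna : ‖(m : ℝ)⁻¹ • a‖ = (m : ℝ)⁻¹ * ‖a‖ := by
      rw [norm_smul, Real.norm_of_nonneg hi]
    have hnb : ‖(m : ℝ)⁻¹ • b‖ = (m : ℝ)⁻¹ * ‖b‖ := by
      rw [norm_smul, Real.norm_of_nonneg hi]
    have h2 : ‖NormedSpace.exp ((m : ℝ)⁻¹ • a) * NormedSpace.exp ((m : ℝ)⁻¹ • b)‖
        ≤ Real.exp ((m : ℝ)⁻¹ * s) := by
      refine (norm_mul_le _ _).trans ?_
      rw [hs', mul_add, Real.exp_add, ← hna, ← hnb]
      exact mul_le_mul (norm_exp_le _) (norm_exp_le _) (norm_nonneg _) (Real.exp_nonneg _)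
    have h3 : ‖NormedSpace.exp ((m : ℝ)⁻¹ • (a + b))‖ ≤ Real.exp ((m : ℝ)⁻¹ * s) := by
      refine (norm_exp_le _).trans ?_
      rw [norm_smul, Real.norm_of_nonneg hi]
      exact Real.exp_le_exp.2 (mul_le_mul_of_nonneg_left (norm_add_le _ _) hi)
    have h4 : 1 ≤ Real.exp ((m : ℝ)⁻¹ * s) := Real.one_le_exp (by positivity)
    have h5 := norm_pow_sub_pow_le _ _ _ h4 h2 h3 m
    rw [← Real.exp_nat_mul, ← mul_assoc, mul_inv_cancel₀ hm'.ne', one_mul] at h5
    rw [h1, norm_smul, Real.norm_of_nonneg hm'.le]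
    refine h5.trans (le_of_eq ?_)
    simp only [hφ]
    ring
  rw [tendsto_iff_norm_sub_tendsto_zero]
  have h6 : Tendsto (fun m : ℕ => Real.exp s * ‖(m : ℝ) • φ ((m : ℝ)⁻¹)‖) atTop (𝓝 0) := by
    have := (hs.norm).const_mul (Real.exp s)
    simpa using this
  refine squeeze_zero' (Eventually.of_forall fun _ => norm_nonneg _) ?_ h6
  filter_upwards [eventually_gt_atTop 0] with m hm
  exact hbd m hm

theorem exp_posSemidef {a : Matrix n n ℂ} (ha : a.IsHermitian) :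
    (NormedSpace.exp a).PosSemidef := by
  rw [← Matrix.nonneg_iff_posSemidef]
  exact IsSelfAdjoint.exp_nonneg ha

/-- **Golden-Thompson inequality**. -/
theorem golden_thompson {a b : Matrix n n ℂ} (ha : a.IsHermitian) (hb : b.IsHermitian) :
    rtr (NormedSpace.exp (a + b)) ≤ rtr (NormedSpace.exp a * NormedSpace.exp b) := by
  have h1 : Tendsto (fun k : ℕ => (2 : ℕ) ^ k) atTop atTop :=
    tendsto_pow_atTop_atTop_of_one_lt (by norm_num)
  have h2 := (lie_trotter a b).comp h1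
  have h3 := (continuous_rtr.tendsto _).comp h2
  refine le_of_tendsto h3 (Eventually.of_forall fun k => ?_)
  simp only [Function.comp_apply]
  set t : ℝ := (((2 ^ k : ℕ) : ℝ))⁻¹ with ht
  have hk : (((2 ^ k : ℕ) : ℝ)) ≠ 0 := by positivity
  have hta : (t • a).IsHermitian := by
    rw [Matrix.IsHermitian, conjTranspose_smul, ha.eq]; simp
  have htb : (t • b).IsHermitian := by
    rw [Matrix.IsHermitian, conjTranspose_smul, hb.eq]; simp
  have h4 := (pow_two_ineq (n := n) k).2 (NormedSpace.exp (t • a)) (NormedSpace.exp (t • b))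
    (exp_posSemidef hta) (exp_posSemidef htb)
  have h5 : ∀ c : Matrix n n ℂ, NormedSpace.exp (t • c) ^ 2 ^ k = NormedSpace.exp c := by
    intro c
    rw [← Matrix.exp_nsmul]
    congr 1
    rw [← Nat.cast_smul_eq_nsmul ℝ, smul_smul, ht, mul_inv_cancel₀ hk, one_smul]
  rw [h5, h5] at h4
  exact (Complex.re_le_norm _).trans h4

/-- Golden-Thompson, in terms of positive definite matrices and the Gibbs variational principle. -/
theorem gt_gibbs {X Y D : Matrix n n ℂ} (hX : X.PosDef) (hY : Y.PosDef) (hD : D.PosDef) :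
    rtr D + rtr (D * (cfc Real.log X + cfc Real.log Y)) - rtr (D * cfc Real.log D)
      ≤ rtr (X * Y) := by
  have hlX := cfc_hermitian X Real.log
  have hlY := cfc_hermitian Y Real.log
  have h1 := gibbs (hlX.add hlY) hD
  have h2 := golden_thompson hlX hlY
  have h3 : cfc Real.exp (cfc Real.log X + cfc Real.log Y) =
      NormedSpace.exp (cfc Real.log X + cfc Real.log Y) :=
    CFC.real_exp_eq_normedSpace_exp (hlX.add hlY)
  have h4 : ∀ Z : Matrix n n ℂ, Z.PosDef → NormedSpace.exp (cfc Real.log Z) = Z := by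
    intro Z hZ
    have := CFC.exp_log Z (by exact hZ.isStrictlyPositive)
    exact this
  rw [h3] at h1
  rw [h4 X hX, h4 Y hY] at h2
  linarith

end LT
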