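import Crest.Agent.LT_Defs
import Crest.Agent.LT_GT

/-!
Task LT-T11 (helper79): Golden–Thompson + Gibbs variational inequality.
-/

set_option autoImplicit false

namespace Crest.Agent.LT

open MeasureTheory Matrix Set Filter
open Crest.MathPhysics.LiebThirring
open scoped ComplexOrder Topology

theorem gibbs_golden_thompson {N : ℕ} {X Y D : Mt N} (hX : X.PosDef) (hY : Y.PosDef) (hD : D.PosDef) :
    tr D + tr (D * (cfc Real.log X + cfc Real.log Y)) - tr (D * cfc Real.log D) ≤ tr (X * Y) :=
  _root_.LT.gt_gibbs hX hY hD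

end Crest.Agent.LT
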