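import Crest.Agent.LTE_Defs
import Crest.Agent.LT_T01
import Crest.Agent.LT_T11
/-!
Task LTE-E03: Golden–Thompson/Gibbs with a quadratic gap: `tr_cfc_remainder_ge` for `f = x log x`,
`f(y) - f(x) - f'(x)(y-x) ≥ (y-x)²/(2M)` on `(0,M]`, with `A = Z = exp (log X + log Y)`, `B = D`, and `tr Z ≤ tr (X Y)`
(Golden–Thompson, `LT_GT.lean`).
-/

set_option autoImplicit false

namespace Crest.Agent.LT

open MeasureTheory Matrix Set Filter
open Crest.MathPhysics.LiebThirring
open scoped ComplexOrder Topology

theorem E03_hasDeriv {z M x : ℝ} (hx : 0 < x) :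
    HasDerivAt (fun x : ℝ => x * Real.log x - x * Real.log z - x + z - (x - z) ^ 2 / (2 * M))
      (Real.log x - Real.log z - (x - z) / M) x := by
  have h1 : HasDerivAt (fun x : ℝ => x * Real.log x) (Real.log x + 1) x :=
    Real.hasDerivAt_mul_log hx.ne'
  have h2 : HasDerivAt (fun x : ℝ => x * Real.log z) (1 * Real.log z) x :=
    (hasDerivAt_id x).mul_const (Real.log z)
  have h3 : HasDerivAt (fun x : ℝ => (x - z) ^ 2 / (2 * M)) (2 * (x - z) / (2 * M)) x := by
    have h4 := (((hasDerivAt_id x).sub_const z).pow 2).div_const (2 * M)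
    simpa using h4
  have h5 := (((h1.sub h2).sub (hasDerivAt_id x)).add_const z).sub h3
  refine h5.congr_deriv ?_
  rcases eq_or_ne M 0 with hM | hM
  · subst hM; simp; ring
  · field_simp; ring

/-- scalar inequality behind the quadratic gap -/
theorem E03_scalar {d z M : ℝ} (hd : 0 < d) (hz : 0 < z) (hdM : d ≤ M) (hzM : z ≤ M) :
    (d - z) ^ 2 / (2 * M) ≤ d * Real.log d - d * Real.log z - d + z := by
  have hM : 0 < M := lt_of_lt_of_le hd hdM
  set ψ : ℝ → ℝ := fun x => x * Real.log x - x * Real.log z - x + z - (x - z) ^ 2 / (2 * M) with hψ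
  have hz0 : ψ z = 0 := by simp [hψ]
  have hder : ∀ x : ℝ, 0 < x → HasDerivAt ψ (Real.log x - Real.log z - (x - z) / M) x :=
    fun x hx => E03_hasDeriv hx
  have key : 0 ≤ ψ d := by
    rcases le_total z d with h | h
    · have hm : MonotoneOn ψ (Icc z d) := by
        refine monotoneOn_of_deriv_nonneg (convex_Icc z d) ?_ ?_ ?_
        · intro x hx
          exact (hder x (lt_of_lt_of_le hz hx.1)).continuousAt.continuousWithinAt
        · intro x hx
          rw [interior_Icc] at hx
          exact (hder x (lt_trans hz hx.1)).differentiableAt.differentiableWithinAt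
        · intro x hx
          rw [interior_Icc] at hx
          have hx0 : 0 < x := lt_trans hz hx.1
          rw [(hder x hx0).deriv]
          have h1 : 1 - z / x ≤ Real.log x - Real.log z := by
            have := Real.one_sub_inv_le_log_of_pos (div_pos hx0 hz)
            rw [Real.log_div hx0.ne' hz.ne', inv_div] at this
            exact this
          have h2 : (x - z) / M ≤ 1 - z / x := by
            rw [show 1 - z / x = (x - z) / x by field_simp]
            exact div_le_div_of_nonneg_left (by linarith [hx.1]) hx0 (by linarith [hx.2])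
          linarith
      have := hm (left_mem_Icc.2 h) (right_mem_Icc.2 h) h
      rwa [hz0] at this
    · have hm : AntitoneOn ψ (Icc d z) := by
        refine antitoneOn_of_deriv_nonpos (convex_Icc d z) ?_ ?_ ?_
        · intro x hx
          exact (hder x (lt_of_lt_of_le hd hx.1)).continuousAt.continuousWithinAt
        · intro x hx
          rw [interior_Icc] at hx
          exact (hder x (lt_trans hd hx.1)).differentiableAt.differentiableWithinAt
        · intro x hx
          rw [interior_Icc] at hx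
          have hx0 : 0 < x := lt_trans hd hx.1
          rw [(hder x hx0).deriv]
          have h1 : Real.log x - Real.log z ≤ x / z - 1 := by
            have := Real.log_le_sub_one_of_pos (div_pos hx0 hz)
            rwa [Real.log_div hx0.ne' hz.ne'] at this
          have h2 : x / z - 1 ≤ (x - z) / M := by
            rw [show x / z - 1 = -((z - x) / z) by field_simp; ring,
              show (x - z) / M = -((z - x) / M) by rw [← neg_div]; congr 1; ring]
            exact neg_le_neg (div_le_div_of_nonneg_left (by linarith [hx.2]) hz hzM)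
          linarith
      have := hm (left_mem_Icc.2 h) (right_mem_Icc.2 h) h
      rwa [hz0] at this
  have : ψ d = d * Real.log d - d * Real.log z - d + z - (d - z) ^ 2 / (2 * M) := rfl
  linarith

/-- Gibbs with a quadratic gap -/
theorem E03_gibbs {N : ℕ} {H D : Mt N} (hH : H.IsHermitian) (hD : D.PosDef) {M : ℝ}
    (hM : 0 < M) (h1 : ∀ x ∈ spectrum ℝ D, x ≤ M)
    (h2 : ∀ x ∈ spectrum ℝ (cfc Real.exp H), x ≤ M) :
    tr D + tr (D * H) - tr (D * cfc Real.log D) + hs2 (D - cfc Real.exp H) / (2 * M) ≤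
      tr (cfc Real.exp H) := by
  have hDh := hD.isHermitian
  have e1 : tr (cfc Real.exp H) = tr (cfc Real.exp H * cfc (fun _ : ℝ => (1:ℝ)) D) := by
    rw [_root_.LT.cfc_one_eq hDh, mul_one]
  have e2 : tr D = tr (cfc (fun _ : ℝ => (1:ℝ)) H * cfc (fun x : ℝ => x) D) := by
    rw [_root_.LT.cfc_one_eq hH, one_mul, _root_.LT.cfc_id_eq hDh]
  have e3 : tr (D * H) = tr (cfc (fun x : ℝ => x) H * cfc (fun x : ℝ => x) D) := by
    rw [_root_.LT.cfc_id_eq hH, _root_.LT.cfc_id_eq hDh, T01_tr_comm]
  have e4 : tr (D * cfc Real.log D) =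
      tr (cfc (fun _ : ℝ => (1:ℝ)) H * cfc (fun x => x * Real.log x) D) := by
    rw [_root_.LT.cfc_one_eq hH, one_mul, ← _root_.LT.cfc_mul_eq hDh, _root_.LT.cfc_id_eq hDh]
  have e5 : hs2 (D - cfc Real.exp H) =
      ∑ i, ∑ j, _root_.LT.wt hH hDh i j * (Real.exp (hH.eigenvalues i) - hDh.eigenvalues j) ^ 2 := by
    have := T01_hs2_cfc_sub hH hDh Real.exp (fun x => x)
    rw [_root_.LT.cfc_id_eq hDh] at this
    rw [T01_hs2_comm, this]
  rw [e1, e3, e4, e5]
  conv_lhs => rw [e2]
  rw [T01_tr_mul hH hDh, T01_tr_mul hH hDh, T01_tr_mul hH hDh,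
    T01_tr_mul hH hDh]
  rw [Finset.sum_div, ← Finset.sum_add_distrib, ← Finset.sum_sub_distrib, ← Finset.sum_add_distrib]
  refine Finset.sum_le_sum fun i _ => ?_
  rw [Finset.sum_div, ← Finset.sum_add_distrib, ← Finset.sum_sub_distrib, ← Finset.sum_add_distrib]
  refine Finset.sum_le_sum fun j _ => ?_
  set h := hH.eigenvalues i with hh
  set d := hDh.eigenvalues j with hd
  have hdp : 0 < d := hD.eigenvalues_pos j
  have hdM : d ≤ M := h1 d (by rw [hDh.spectrum_real_eq_range_eigenvalues]; exact ⟨j, rfl⟩)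
  have hzM : Real.exp h ≤ M := by
    refine h2 _ ?_
    have hsp : spectrum ℝ (cfc Real.exp H) = Real.exp '' spectrum ℝ H :=
      cfc_map_spectrum (R := ℝ) (p := IsSelfAdjoint) Real.exp H hH (_root_.LT.contOn_spec hH _)
    rw [hsp]
    exact ⟨h, by rw [hH.spectrum_real_eq_range_eigenvalues]; exact ⟨i, rfl⟩, rfl⟩
  have h3 := E03_scalar hdp (Real.exp_pos h) hdM hzM
  rw [Real.log_exp] at h3
  have h4 : d + h * d - d * Real.log d + (Real.exp h - d) ^ 2 / (2 * M) ≤ Real.exp h := by
    have : (Real.exp h - d) ^ 2 = (d - Real.exp h) ^ 2 := by ring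
    rw [this]; linarith
  have h5 := mul_le_mul_of_nonneg_left h4 (_root_.LT.wt_nonneg hH hDh i j)
  refine le_trans (le_of_eq ?_) (h5.trans (le_of_eq ?_))
  · ring
  · ring

section
open scoped Matrix.Norms.L2Operator ComplexOrder MatrixOrder

/-- Golden-Thompson for positive definite matrices -/
theorem E03_gt {N : ℕ} {X Y : Mt N} (hX : X.PosDef) (hY : Y.PosDef) :
    tr (cfc Real.exp (cfc Real.log X + cfc Real.log Y)) ≤ tr (X * Y) := by
  have hlX := _root_.LT.cfc_hermitian X Real.log
  have hlY := _root_.LT.cfc_hermitian Y Real.log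
  have h2 := _root_.LT.golden_thompson hlX hlY
  have h3 : cfc Real.exp (cfc Real.log X + cfc Real.log Y) =
      NormedSpace.exp (cfc Real.log X + cfc Real.log Y) :=
    CFC.real_exp_eq_normedSpace_exp (hlX.add hlY)
  have h4 : ∀ Z : Mt N, Z.PosDef → NormedSpace.exp (cfc Real.log Z) = Z := by
    intro Z hZ
    have := CFC.exp_log Z (by exact hZ.isStrictlyPositive)
    exact this
  rw [h4 X hX, h4 Y hY] at h2
  have h5 : _root_.LT.rtr (cfc Real.exp (cfc Real.log X + cfc Real.log Y)) ≤
      _root_.LT.rtr (X * Y) := by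
    rw [h3]; exact h2
  exact h5

end

theorem gibbs_gap {N : ℕ} {X Y D : Mt N} (hX : X.PosDef) (hY : Y.PosDef) (hD : D.PosDef) {M : ℝ}
    (hM : 0 < M) (h1 : ∀ x ∈ spectrum ℝ D, x ≤ M)
    (h2 : ∀ x ∈ spectrum ℝ (cfc Real.exp (cfc Real.log X + cfc Real.log Y)), x ≤ M) :
    tr D + tr (D * (cfc Real.log X + cfc Real.log Y)) - tr (D * cfc Real.log D)
      + hs2 (D - cfc Real.exp (cfc Real.log X + cfc Real.log Y)) / (2 * M) ≤ tr (X * Y) := by
  have hlX := _root_.LT.cfc_hermitian X Real.log
  have hlY := _root_.LT.cfc_hermitian Y Real.log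
  have g1 := E03_gibbs (hlX.add hlY) hD hM h1 h2
  have g2 := E03_gt hX hY
  linarith

end Crest.Agent.LT
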