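import Crest.Agent.LT_HJd
import Crest.Agent.LT_GT

/-!
# LT: the key matrix inequality (d) with deficit.
-/

set_option autoImplicit false
set_option linter.unusedSectionVars false
open Matrix MeasureTheory Filter Topology Set
open scoped Matrix.Norms.L2Operator ComplexOrder MatrixOrder

namespace LT

variable {n : Type*} [Fintype n] [DecidableEq n]

theorem sc_t4 {a : ℝ} (ha : 0 < a) :
    IntegrableOn (fun t : ℝ => t * ((a + t) ^ 4)⁻¹) (Ioi 0) ∧
      ∫ t in Ioi (0:ℝ), t * ((a + t) ^ 4)⁻¹ = (6 * a ^ 2)⁻¹ := by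
  have hd : ∀ x ∈ Ici (0:ℝ), HasDerivAt
      (fun t : ℝ => -(1/2) * ((a + t)⁻¹) ^ 2 + a / 3 * ((a + t)⁻¹) ^ 3)
      (x * ((a + x) ^ 4)⁻¹) x := by
    intro x hx
    have hx' : (0:ℝ) ≤ x := hx
    have h1 : HasDerivAt (fun t : ℝ => a + t) 1 x := (hasDerivAt_id x).const_add a
    have h2 : HasDerivAt (fun t : ℝ => (a + t)⁻¹) (-1 / (a + x) ^ 2) x := h1.inv (by positivity)
    have h3 := ((h2.pow 2).const_mul (-(1/2))).add ((h2.pow 3).const_mul (a / 3))
    have hne : a + x ≠ 0 := by positivity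
    have e : (-(1/2) * (((2:ℕ):ℝ) * (a + x)⁻¹ ^ (2 - 1) * (-1 / (a + x) ^ 2)) +
        a / 3 * (((3:ℕ):ℝ) * (a + x)⁻¹ ^ (3 - 1) * (-1 / (a + x) ^ 2))) = x * ((a + x) ^ 4)⁻¹ := by
      push_cast
      field_simp
      ring
    rw [← e]
    exact h3
  have hi : Tendsto (fun t : ℝ => (a + t)⁻¹) atTop (𝓝 0) := by
    have : Tendsto (fun t : ℝ => a + t) atTop atTop := tendsto_atTop_add_const_left _ _ tendsto_id
    exact this.inv_tendsto_atTop
  have hl : Tendsto (fun t : ℝ => -(1/2) * ((a + t)⁻¹) ^ 2 + a / 3 * ((a + t)⁻¹) ^ 3)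
      atTop (𝓝 0) := by
    have := ((hi.pow 2).const_mul (-(1/2))).add ((hi.pow 3).const_mul (a / 3))
    simpa using this
  have hp : ∀ x ∈ Ioi (0:ℝ), 0 ≤ x * ((a + x) ^ 4)⁻¹ := fun x hx => by
    have hx' : (0:ℝ) < x := hx
    positivity
  refine ⟨integrableOn_Ioi_deriv_of_nonneg' hd hp hl, ?_⟩
  rw [integral_Ioi_of_hasDerivAt_of_nonneg' hd hp hl]
  simp only [add_zero]
  field_simp
  ring

/-- `tr (A T A⁻¹ T) ≥ tr T² + ‖[A,T]‖²/(2a²)`. -/
theorem rtr_conj_ge_def {A T : Matrix n n ℂ} (hA : A.PosDef) (hT : T.IsHermitian) {a : ℝ}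
    (ha : 0 < a) (hAa : ∀ i, hA.isHermitian.eigenvalues i ≤ a) :
    rtr (T * T) + rtr ((A * T - T * A) * (A * T - T * A)ᴴ) / (2 * a ^ 2) ≤
      rtr (A * T * cfc (fun x : ℝ => x⁻¹) A * T) := by
  have hAh := hA.isHermitian
  set U := (hAh.eigenvectorUnitary : Matrix n n ℂ) with hU
  set P := Uᴴ * T * U with hP
  have hUU : U * Uᴴ = 1 := U_mul_conj hAh
  have hUU' : Uᴴ * U = 1 := U_conj_mul hAh
  have hPh : Pᴴ = P := by
    rw [hP, conjTranspose_mul, conjTranspose_mul, conjTranspose_conjTranspose, hT.eq, mul_assoc]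
  have hpos : ∀ i, 0 < hAh.eigenvalues i := hA.eigenvalues_pos
  set D1 : Matrix n n ℂ := diagonal (fun i => ((hAh.eigenvalues i : ℝ) : ℂ)) with hD1
  have hAD : A = U * D1 * Uᴴ := by
    have := cfc_eq_conj hAh (fun x : ℝ => x)
    rw [cfc_id_eq hAh] at this
    exact this
  have hTP : T = U * P * Uᴴ := by
    rw [hP]
    calc T = (U * Uᴴ) * T * (U * Uᴴ) := by rw [hUU]; simp
      _ = U * (Uᴴ * T * U) * Uᴴ := by simp only [mul_assoc]
  -- both sides in the eigenbasis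
  have e1 : rtr (T * T) = ∑ i, ∑ j, Complex.normSq (P i j) * ((1:ℝ) * 1) := by
    have h1 := rtr_diag_mul (fun _ : n => (1:ℝ)) (fun _ : n => (1:ℝ)) P
    rw [← h1, hPh]
    have h2 : diagonal (fun _ : n => (((1:ℝ) : ℝ) : ℂ)) = (1 : Matrix n n ℂ) := by
      simp
    rw [h2, one_mul, mul_one, hP]
    have h3 : Uᴴ * T * U * (Uᴴ * T * U) = Uᴴ * (T * T * U) := by
      calc Uᴴ * T * U * (Uᴴ * T * U) = Uᴴ * T * (U * Uᴴ) * T * U := by simp only [mul_assoc]
        _ = Uᴴ * (T * T * U) := by rw [hUU, mul_one]; simp only [mul_assoc]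
    rw [h3, rtr_mul_comm Uᴴ, mul_assoc, hUU, mul_one]
  have e2 : rtr (A * T * cfc (fun x : ℝ => x⁻¹) A * T) =
      ∑ i, ∑ j, Complex.normSq (P i j) * (hAh.eigenvalues i * (hAh.eigenvalues j)⁻¹) := by
    have h1 := rtr_diag_mul (fun i : n => hAh.eigenvalues i)
      (fun i : n => (hAh.eigenvalues i)⁻¹) P
    rw [← h1, hPh]
    have hAe : rtr (A * T * cfc (fun x : ℝ => x⁻¹) A * T) =
        rtr (cfc (fun x : ℝ => x) A * T * cfc (fun x : ℝ => x⁻¹) A * T) := by
      rw [cfc_id_eq hAh]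
    rw [hAe, cfc_eq_conj hAh (fun x : ℝ => x), cfc_eq_conj hAh (fun x : ℝ => x⁻¹), ← hU, hP]
    set D2 : Matrix n n ℂ := diagonal (fun i => (((hAh.eigenvalues i)⁻¹ : ℝ) : ℂ))
    rw [← hD1]
    have h3 : U * D1 * Uᴴ * T * (U * D2 * Uᴴ) * T = U * (D1 * (Uᴴ * T * U) * D2 * (Uᴴ * T)) := by
      simp only [mul_assoc]
    rw [h3, rtr_mul_comm]
    simp only [mul_assoc]
  have e3 : rtr ((A * T - T * A) * (A * T - T * A)ᴴ) =
      ∑ i, ∑ j, Complex.normSq (P i j) * (hAh.eigenvalues i - hAh.eigenvalues j) ^ 2 := by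
    set Z := D1 * P - P * D1 with hZ
    have h1 : A * T - T * A = U * Z * Uᴴ := by
      have a1 : A * T = U * (D1 * P) * Uᴴ := by
        conv_lhs => rw [hTP]
        rw [hAD]
        calc U * D1 * Uᴴ * (U * P * Uᴴ) = U * D1 * (Uᴴ * U) * P * Uᴴ := by simp only [mul_assoc]
          _ = U * (D1 * P) * Uᴴ := by rw [hUU', mul_one]; simp only [mul_assoc]
      have a2 : T * A = U * (P * D1) * Uᴴ := by
        conv_lhs => rw [hTP]
        rw [hAD]
        calc U * P * Uᴴ * (U * D1 * Uᴴ) = U * P * (Uᴴ * U) * D1 * Uᴴ := by simp only [mul_assoc]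
          _ = U * (P * D1) * Uᴴ := by rw [hUU', mul_one]; simp only [mul_assoc]
      rw [a1, a2, hZ, mul_sub, sub_mul]
    have h2 : (U * Z * Uᴴ) * (U * Z * Uᴴ)ᴴ = U * (Z * Zᴴ * Uᴴ) := by
      rw [conjTranspose_mul, conjTranspose_mul, conjTranspose_conjTranspose]
      calc U * Z * Uᴴ * (U * (Zᴴ * Uᴴ)) = U * Z * (Uᴴ * U) * Zᴴ * Uᴴ := by simp only [mul_assoc]
        _ = U * (Z * Zᴴ * Uᴴ) := by rw [hUU', mul_one]; simp only [mul_assoc]
    rw [h1, h2, rtr_mul_comm U, mul_assoc, hUU', mul_one, rtr_mul_conjTranspose]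
    refine Finset.sum_congr rfl fun i _ => Finset.sum_congr rfl fun j _ => ?_
    have h4 : Z i j = ((hAh.eigenvalues i - hAh.eigenvalues j : ℝ) : ℂ) * P i j := by
      rw [hZ, Matrix.sub_apply, hD1, Matrix.diagonal_mul, Matrix.mul_diagonal]
      push_cast; ring
    rw [h4, Complex.normSq_mul, Complex.normSq_ofReal]
    ring
  -- symmetrize
  have hsym : ∀ i j, Complex.normSq (P i j) = Complex.normSq (P j i) := by
    intro i j
    have : P i j = star (P j i) := by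
      conv_lhs => rw [← hPh]
      rfl
    rw [this, Complex.star_def, Complex.normSq_conj]
  have e4 : ∑ i, ∑ j, Complex.normSq (P i j) * (hAh.eigenvalues i * (hAh.eigenvalues j)⁻¹) =
      ∑ i, ∑ j, Complex.normSq (P i j) * (hAh.eigenvalues j * (hAh.eigenvalues i)⁻¹) := by
    rw [Finset.sum_comm]
    refine Finset.sum_congr rfl fun i _ => Finset.sum_congr rfl fun j _ => ?_
    rw [hsym]
  have h5 : 2 * rtr (A * T * cfc (fun x : ℝ => x⁻¹) A * T) =
      ∑ i, ∑ j, Complex.normSq (P i j) * (hAh.eigenvalues i * (hAh.eigenvalues j)⁻¹ +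
        hAh.eigenvalues j * (hAh.eigenvalues i)⁻¹) := by
    rw [two_mul]
    nth_rewrite 1 [e2]
    rw [e2]
    nth_rewrite 2 [e4]
    rw [← Finset.sum_add_distrib]
    refine Finset.sum_congr rfl fun i _ => ?_
    rw [← Finset.sum_add_distrib]
    refine Finset.sum_congr rfl fun j _ => ?_
    ring
  have e5 : 2 * (rtr (T * T) + rtr ((A * T - T * A) * (A * T - T * A)ᴴ) / (2 * a ^ 2)) ≤
      2 * rtr (A * T * cfc (fun x : ℝ => x⁻¹) A * T) := by
    have e6 : 2 * (rtr (T * T) + rtr ((A * T - T * A) * (A * T - T * A)ᴴ) / (2 * a ^ 2)) =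
        2 * rtr (T * T) + (a ^ 2)⁻¹ * rtr ((A * T - T * A) * (A * T - T * A)ᴴ) := by
      field_simp
    rw [e6, h5, e1, e3, Finset.mul_sum, Finset.mul_sum, ← Finset.sum_add_distrib]
    refine Finset.sum_le_sum fun i _ => ?_
    rw [Finset.mul_sum, Finset.mul_sum, ← Finset.sum_add_distrib]
    refine Finset.sum_le_sum fun j _ => ?_
    have hi := hpos i
    have hj := hpos j
    have hia := hAa i
    have hja := hAa j
    set x := hAh.eigenvalues i
    set y := hAh.eigenvalues j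
    have h6 : 2 + (a ^ 2)⁻¹ * (x - y) ^ 2 ≤ x * y⁻¹ + y * x⁻¹ := by
      have h7 : x * y⁻¹ + y * x⁻¹ = 2 + (x * y)⁻¹ * (x - y) ^ 2 := by
        field_simp
        ring
      rw [h7]
      have h8 : x * y ≤ a ^ 2 := by
        rw [pow_two]; exact mul_le_mul hia hja hj.le ha.le
      have h9 : (a ^ 2)⁻¹ ≤ (x * y)⁻¹ := inv_anti₀ (by positivity) h8
      have := mul_le_mul_of_nonneg_right h9 (sq_nonneg (x - y))
      linarith
    have h7 := mul_le_mul_of_nonneg_left h6 (Complex.normSq_nonneg (P i j))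
    nlinarith [h7]
  linarith

/-- nonnegativity of `tr (R S)`. -/
theorem rtr_mul_nonneg {R S : Matrix n n ℂ} (hR : R.PosSemidef) (hS : S.PosSemidef) :
    0 ≤ rtr (R * S) := by
  rw [← norm_trace_mul_posSemidef hR hS]; exact norm_nonneg _

/-- `‖B Z B‖² ≤ β⁴ ‖Z‖²` for `0 ≤ B ≤ β`. -/
theorem hs_conj_le {B Z : Matrix n n ℂ} (hB : B.IsHermitian) {β : ℝ}
    (hB2 : ((β ^ 2) • (1 : Matrix n n ℂ) - B * B).PosSemidef) :
    rtr ((B * Z * B) * (B * Z * B)ᴴ) ≤ β ^ 4 * rtr (Z * Zᴴ) := by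
  have h1 : (B * Z * B) * (B * Z * B)ᴴ = B * (Z * (B * B) * Zᴴ * B) := by
    rw [conjTranspose_mul, conjTranspose_mul, hB.eq]
    simp only [mul_assoc]
  have hBB : (B * B).PosSemidef := by
    have := Matrix.posSemidef_conjTranspose_mul_self B
    rwa [hB.eq] at this
  have hC : (Z * (B * B) * Zᴴ).PosSemidef := hBB.mul_mul_conjTranspose_same Z
  have h2 : rtr ((B * Z * B) * (B * Z * B)ᴴ) = rtr ((B * B) * (Z * (B * B) * Zᴴ)) := by
    rw [h1, rtr_mul_comm B, mul_assoc, rtr_mul_comm]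
  have h3 := rtr_mul_nonneg hB2 hC
  rw [sub_mul, rtr_sub, smul_mul_assoc, one_mul, rtr_smul] at h3
  have h4 : rtr (Z * (B * B) * Zᴴ) = rtr ((B * B) * (Zᴴ * Z)) := by
    rw [mul_assoc, rtr_mul_comm]
    simp only [mul_assoc]
  have h5 := rtr_mul_nonneg hB2 (Matrix.posSemidef_conjTranspose_mul_self Z)
  rw [sub_mul, rtr_sub, smul_mul_assoc, one_mul, rtr_smul] at h5
  have h6 : rtr (Zᴴ * Z) = rtr (Z * Zᴴ) := rtr_mul_comm _ _
  rw [h2]
  rw [h4] at h3
  rw [h6] at h5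
  have hb : 0 ≤ β ^ 2 := sq_nonneg β
  nlinarith [mul_le_mul_of_nonneg_left (sub_nonneg.1 h5) hb]

/-- pointwise (in the resolvent parameter) form of (d), with deficit. -/
theorem hjd_pointwise_def {X A : Matrix n n ℂ} {c a : ℝ} (hc : 0 < c) (hX : LB c X)
    (hXa : ∀ i, hX.herm.eigenvalues i ≤ a) (hA : A.PosDef)
    (ha : 0 < a) (hAa : ∀ i, hA.isHermitian.eigenvalues i ≤ a)
    {t : ℝ} (ht : 0 ≤ t) :
    rtr (((2:ℝ)⁻¹ • (X * (A - X) + (A - X) * X)) *
      (rs X t * cfc (fun x : ℝ => x⁻¹) A * rs X t)) +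
      rtr ((A * X - X * A) * (A * X - X * A)ᴴ) / (2 * a ^ 2) * (t * ((a + t) ^ 4)⁻¹) ≤
      rtr (X * rs X t * rs X t) -
        rtr (X * X * rs X t * rs X t * cfc (fun x : ℝ => x⁻¹) A) := by
  have hct : 0 < c + t := by linarith
  set T := rs X t with hT
  set G := cfc (fun x : ℝ => x⁻¹) A with hG
  have hAG : A * G = 1 := by
    have hAh := hA.isHermitian
    have h1 : A * G = cfc (fun x : ℝ => x) A * G := by rw [cfc_id_eq hAh]
    rw [h1, hG, cfc_mul_eq hAh, ← cfc_one_eq hAh]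
    exact cfc_congr_eigen hAh fun i => mul_inv_cancel₀ (hA.eigenvalues_pos i).ne'
  have hGA : G * A = 1 := mul_eq_one_comm.1 hAG
  have hBT : (X + t • (1 : Matrix n n ℂ)) * T = 1 := add_mul_rs hX hct
  have hTB : T * (X + t • (1 : Matrix n n ℂ)) = 1 := rs_mul_add hX hct
  have hXT : X * T = 1 - t • T := by
    have := hBT
    rw [add_mul, smul_mul_assoc, one_mul] at this
    exact eq_sub_of_add_eq this
  have hTX : T * X = 1 - t • T := by
    have := hTB
    rw [mul_add, mul_smul_comm, mul_one] at this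
    exact eq_sub_of_add_eq this
  have hcomm : X * T = T * X := by rw [hXT, hTX]
  -- the two mixed terms
  have m1 : rtr (X * A * (T * G * T)) = rtr T - t * rtr (A * T * G * T) := by
    have h1 : X * A * (T * G * T) = X * (A * T * G * T) := by simp only [mul_assoc]
    rw [h1, rtr_mul_comm]
    have h2 : A * T * G * T * X = A * T * G * (T * X) := by simp only [mul_assoc]
    rw [h2, hTX, mul_sub, mul_one, mul_smul_comm, rtr_sub, rtr_smul]
    congr 1
    rw [rtr_mul_comm, ← mul_assoc, hGA, one_mul]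
  have m2 : rtr (A * X * (T * G * T)) = rtr T - t * rtr (A * T * G * T) := by
    have h1 : A * X * (T * G * T) = A * (X * T) * G * T := by simp only [mul_assoc]
    rw [h1, hXT, mul_sub, mul_one, mul_smul_comm, sub_mul, sub_mul, hAG, one_mul, rtr_sub,
      smul_mul_assoc, smul_mul_assoc, rtr_smul]
  have m3 : rtr (X * X * (T * G * T)) = rtr (X * X * T * T * G) := by
    have h1 : X * X * (T * G * T) = (X * X * T * G) * T := by simp only [mul_assoc]
    rw [h1, rtr_mul_comm]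
    have h2 : T * (X * X * T * G) = (T * X) * X * T * G := by simp only [mul_assoc]
    rw [h2, ← hcomm]
    have h3 : X * T * X * T * G = X * (T * X) * T * G := by simp only [mul_assoc]
    rw [h3, ← hcomm]
    simp only [mul_assoc]
  have m4 : rtr (X * T * T) = rtr T - t * rtr (T * T) := by
    rw [hXT, sub_mul, one_mul, smul_mul_assoc, rtr_sub, rtr_smul]
  have key := rtr_conj_ge_def hA (rs_hermitian X t) ha hAa
  rw [← hT, ← hG] at key
  -- the commutators
  have hcom : rtr ((A * X - X * A) * (A * X - X * A)ᴴ) ≤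
      (a + t) ^ 4 * rtr ((A * T - T * A) * (A * T - T * A)ᴴ) := by
    set B := X + t • (1 : Matrix n n ℂ) with hB
    have hBh : B.IsHermitian := by
      have h1 : (t • (1 : Matrix n n ℂ)).IsHermitian := by
        rw [Matrix.IsHermitian, conjTranspose_smul, conjTranspose_one]; simp
      exact hX.herm.add h1
    have h1 : A * X - X * A = -(B * (A * T - T * A) * B) := by
      have h2 : B * (A * T - T * A) * B = B * A * (T * B) - (B * T) * (A * B) := by
        simp only [mul_sub, sub_mul, mul_assoc]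
      rw [h2, hTB, hBT, mul_one, one_mul, hB, add_mul, mul_add, smul_mul_assoc, one_mul,
        mul_smul_comm, mul_one]
      abel
    have h3 : (A * X - X * A) * (A * X - X * A)ᴴ =
        (B * (A * T - T * A) * B) * (B * (A * T - T * A) * B)ᴴ := by
      rw [h1, conjTranspose_neg, neg_mul_neg]
    rw [h3]
    apply hs_conj_le hBh
    -- (a+t)² - B² ≥ 0
    have h4 : (a + t) ^ 2 • (1 : Matrix n n ℂ) - B * B =
        cfc (fun x : ℝ => (a + t) ^ 2 - (x + t) * (x + t)) X := by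
      have h5 : B = cfc (fun x : ℝ => x + t) X := by
        rw [← cfc_add_eq hX.herm (fun x => x) (fun _ => t), cfc_id_eq hX.herm,
          cfc_const_eq hX.herm]
      rw [h5, cfc_mul_eq hX.herm, ← cfc_const_eq hX.herm, cfc_sub_eq hX.herm]
    rw [h4, ← Matrix.nonneg_iff_posSemidef]
    apply cfc_nonneg
    intro x hx
    rw [hX.herm.spectrum_real_eq_range_eigenvalues] at hx
    obtain ⟨i, rfl⟩ := hx
    have h6 := hX.eig hX.herm i
    have h7 := hXa i
    nlinarith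
  have e : ((2:ℝ)⁻¹ • (X * (A - X) + (A - X) * X)) * (T * G * T) =
      (2:ℝ)⁻¹ • (X * A * (T * G * T) + A * X * (T * G * T)) - X * X * (T * G * T) := by
    have h1 : X * (A - X) + (A - X) * X = X * A + A * X - (2:ℝ) • (X * X) := by
      rw [mul_sub, sub_mul, two_smul]; abel
    rw [h1, smul_sub, smul_smul, inv_mul_cancel₀ two_ne_zero, one_smul, sub_mul, smul_mul_assoc,
      add_mul]
  rw [e, rtr_sub, rtr_smul, rtr_add, m1, m2, m3, m4]
  have h8 := mul_le_mul_of_nonneg_left key ht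
  have hat : 0 < a + t := by linarith
  have h9 : rtr ((A * X - X * A) * (A * X - X * A)ᴴ) / (2 * a ^ 2) * (t * ((a + t) ^ 4)⁻¹) ≤
      t * (rtr ((A * T - T * A) * (A * T - T * A)ᴴ) / (2 * a ^ 2)) := by
    have h10 : rtr ((A * X - X * A) * (A * X - X * A)ᴴ) * ((a + t) ^ 4)⁻¹ ≤
        rtr ((A * T - T * A) * (A * T - T * A)ᴴ) := by
      rw [mul_inv_le_iff₀ (by positivity), mul_comm]
      exact hcom
    have h11 : 0 ≤ t / (2 * a ^ 2) := by positivity
    have := mul_le_mul_of_nonneg_left h10 h11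
    calc _ = t / (2 * a ^ 2) * (rtr ((A * X - X * A) * (A * X - X * A)ᴴ) * ((a + t) ^ 4)⁻¹) := by
          ring
      _ ≤ _ := this
      _ = _ := by ring
  linarith

/-- one half of (d), with deficit. -/
theorem hjd_half_def {X A : Matrix n n ℂ} (hX : X.PosDef) (hA : A.PosDef) {a : ℝ}
    (ha : 0 < a) (hXa : ∀ i, hX.isHermitian.eigenvalues i ≤ a)
    (hAa : ∀ i, hA.isHermitian.eigenvalues i ≤ a) :
    rtr (((2:ℝ)⁻¹ • (X * (A - X) + (A - X) * X)) * Dlog X (cfc (fun x : ℝ => x⁻¹) A)) +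
      rtr ((A * X - X * A) * (A * X - X * A)ᴴ) / (12 * a ^ 4) ≤
      Fintype.card n - rtr (X * cfc (fun x : ℝ => x⁻¹) A) := by
  obtain ⟨c, hc, hL⟩ := exists_LB hX
  set G := cfc (fun x : ℝ => x⁻¹) A with hG
  have hXh := hX.isHermitian
  obtain ⟨i1, e1⟩ := rtr_mul_Dlog hc hL ((2:ℝ)⁻¹ • (X * (A - X) + (A - X) * X)) G
  obtain ⟨i4, e4⟩ := sc_t4 ha
  rw [e1]
  set R := rtr ((A * X - X * A) * (A * X - X * A)ᴴ) with hR
  have hpos : ∀ i, 0 < hXh.eigenvalues i := hX.eigenvalues_pos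
  -- first integral
  have s1 : ∀ i, Integrable (fun t : ℝ => hXh.eigenvalues i * ((hXh.eigenvalues i + t) ^ 2)⁻¹)
      (volume.restrict (Ioi 0)) := fun i => (sc_inv_sq (hpos i)).1.const_mul _
  obtain ⟨i2, e2⟩ := integral_cfc_param (volume.restrict (Ioi (0:ℝ))) hXh
    (fun (t : ℝ) (x : ℝ) => x * ((x + t) ^ 2)⁻¹) s1
  have s2 : ∀ i, Integrable (fun t : ℝ => hXh.eigenvalues i * hXh.eigenvalues i *
      ((hXh.eigenvalues i + t) ^ 2)⁻¹)
      (volume.restrict (Ioi 0)) := fun i => (sc_inv_sq (hpos i)).1.const_mul _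
  obtain ⟨i3, e3⟩ := integral_cfc_param (volume.restrict (Ioi (0:ℝ))) hXh
    (fun (t : ℝ) (x : ℝ) => x * x * ((x + t) ^ 2)⁻¹) s2
  have f2 : cfc (fun x : ℝ => ∫ t in Ioi (0:ℝ), x * ((x + t) ^ 2)⁻¹) X = 1 := by
    rw [← cfc_one_eq hXh]
    apply cfc_congr_eigen hXh
    intro i
    rw [integral_const_mul, (sc_inv_sq (hpos i)).2, mul_inv_cancel₀ (hpos i).ne']
  have f3 : cfc (fun x : ℝ => ∫ t in Ioi (0:ℝ), x * x * ((x + t) ^ 2)⁻¹) X = X := by
    conv_rhs => rw [← cfc_id_eq hXh]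
    apply cfc_congr_eigen hXh
    intro i
    rw [integral_const_mul, (sc_inv_sq (hpos i)).2, mul_assoc, mul_inv_cancel₀ (hpos i).ne',
      mul_one]
  -- identify the integrands
  have g2 : ∀ t, X * rs X t * rs X t = cfc (fun x : ℝ => x * ((x + t) ^ 2)⁻¹) X := by
    intro t
    have : X * rs X t * rs X t = cfc (fun x : ℝ => x) X * rs X t * rs X t := by
      rw [cfc_id_eq hXh]
    rw [this]
    simp only [rs]
    rw [cfc_mul_eq hXh, cfc_mul_eq hXh]
    congr 1
    funext x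
    rw [pow_two, mul_inv]; ring
  have g3 : ∀ t, X * X * rs X t * rs X t = cfc (fun x : ℝ => x * x * ((x + t) ^ 2)⁻¹) X := by
    intro t
    have : X * X * rs X t * rs X t =
        cfc (fun x : ℝ => x) X * cfc (fun x : ℝ => x) X * rs X t * rs X t := by
      rw [cfc_id_eq hXh]
    rw [this]
    simp only [rs]
    rw [cfc_mul_eq hXh, cfc_mul_eq hXh, cfc_mul_eq hXh]
    congr 1
    funext x
    rw [pow_two, mul_inv]; ring
  let L2 : Matrix n n ℂ →L[ℝ] ℝ := rtrCLM
  let L3 : Matrix n n ℂ →L[ℝ] ℝ :=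
    rtrCLM.comp ((ContinuousLinearMap.mul ℝ (Matrix n n ℂ)).flip G)
  have hL3 : ∀ Z, L3 Z = rtr (Z * G) := fun Z => rfl
  have j2 := L2.integrable_comp i2
  have j3 := L3.integrable_comp i3
  have k2 := L2.integral_comp_comm i2
  have k3 := L3.integral_comp_comm i3
  rw [e2, f2] at k2
  rw [e3, f3] at k3
  have i5 := i4.const_mul (R / (2 * a ^ 2))
  have bound : ∫ t in Ioi (0:ℝ), (rtr (((2:ℝ)⁻¹ • (X * (A - X) + (A - X) * X)) *
      (rs X t * G * rs X t)) + R / (2 * a ^ 2) * (t * ((a + t) ^ 4)⁻¹)) ≤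
      ∫ t in Ioi (0:ℝ), (L2 (cfc (fun x : ℝ => x * ((x + t) ^ 2)⁻¹) X) -
        L3 (cfc (fun x : ℝ => x * x * ((x + t) ^ 2)⁻¹) X)) := by
    apply setIntegral_mono_on (i1.add i5) (j2.sub j3) measurableSet_Ioi
    intro t ht
    have ht' : (0:ℝ) < t := ht
    have h := hjd_pointwise_def hc hL hXa hA ha hAa ht'.le
    rw [g2 t, g3 t] at h
    exact h
  rw [integral_add i1 i5, integral_const_mul, e4] at bound
  have e6 : R / (2 * a ^ 2) * (6 * a ^ 2)⁻¹ = R / (12 * a ^ 4) := by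
    field_simp
    ring
  rw [e6] at bound
  refine bound.trans (le_of_eq ?_)
  rw [integral_sub j2 j3, k2, k3, hL3]
  have : L2 (1 : Matrix n n ℂ) = Fintype.card n := rtr_one
  rw [this]

/-- **the key inequality (d), with deficit**. -/
theorem hjd_def {X Y : Matrix n n ℂ} (hX : X.PosDef) (hY : Y.PosDef) {a : ℝ} (ha : 0 < a)
    (hXa : ∀ i, hX.isHermitian.eigenvalues i ≤ a) (hYa : ∀ i, hY.isHermitian.eigenvalues i ≤ a)
    (hAa : ∀ i, (hX.add hY).isHermitian.eigenvalues i ≤ a) :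
    rtr (((2:ℝ)⁻¹ • (X * Y + Y * X)) * (Dlog X (cfc (fun x : ℝ => x⁻¹) (X + Y)) +
      Dlog Y (cfc (fun x : ℝ => x⁻¹) (X + Y)))) +
      rtr ((X * Y - Y * X) * (X * Y - Y * X)ᴴ) / (6 * a ^ 4) ≤ Fintype.card n := by
  have hA : (X + Y).PosDef := hX.add hY
  have h1 := hjd_half_def hX hA ha hXa hAa
  have h2 := hjd_half_def hY hA ha hYa hAa
  have a1 : X + Y - X = Y := by abel
  have a2 : X + Y - Y = X := by abel
  rw [a1] at h1
  rw [a2, add_comm (Y * X)] at h2
  have c1 : (X + Y) * X - X * (X + Y) = -(X * Y - Y * X) := by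
    rw [add_mul, mul_add]; abel
  have c2 : (X + Y) * Y - Y * (X + Y) = X * Y - Y * X := by
    rw [add_mul, mul_add]; abel
  rw [c1, conjTranspose_neg, neg_mul_neg] at h1
  rw [c2] at h2
  set G := cfc (fun x : ℝ => x⁻¹) (X + Y) with hG
  have hAG : (X + Y) * G = 1 := by
    have hAh := hA.isHermitian
    have h1 : (X + Y) * G = cfc (fun x : ℝ => x) (X + Y) * G := by rw [cfc_id_eq hAh]
    rw [h1, hG, cfc_mul_eq hAh, ← cfc_one_eq hAh]
    exact cfc_congr_eigen hAh fun i => mul_inv_cancel₀ (hA.eigenvalues_pos i).ne'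
  have h3 : rtr (X * G) + rtr (Y * G) = Fintype.card n := by
    rw [← rtr_add, ← add_mul, hAG, rtr_one]
  rw [mul_add, rtr_add]
  set R := rtr ((X * Y - Y * X) * (X * Y - Y * X)ᴴ)
  have h4 : R / (6 * a ^ 4) = R / (12 * a ^ 4) + R / (12 * a ^ 4) := by
    field_simp
    ring
  rw [h4]
  linarith

end LT
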