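import Crest.Agent.LT_Defs
import Crest.Agent.LT_HJe

/-!
Task LT-T10 (HJ core, helper79): derivative in `q` of `E(q) = tr ((S+q) z_q) - tr S` with deficit.
`E' = tr z_q + tr ((S+q)(log X + log Y)') - N - tr S / q` where `X = K_q - F, Y = K_q + F, X' = Y' = (2 K_q)⁻¹ = A⁻¹`.
The two-line proof of `tr ((S+q)(log X + log Y)') ≤ N` is in the notes (rid S0515); the deficit is
`∑_{X,Y} (1/2) ∫_0^∞ t ‖A^{-1/2} [A, T] A^{-1/2}‖² dt`, `T = (X+t)⁻¹`, and `[A,X] = -T⁻¹ [A,T] T⁻¹`, `‖T⁻¹‖ ≤ 2‖K_q‖ + t`,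
`∫_0^∞ t (a+t)^{-4} dt = 1/(6a²)`, which gives the constant `1/24` below.
-/

set_option autoImplicit false

namespace Crest.Agent.LT

open MeasureTheory Matrix Set Filter
open Crest.MathPhysics.LiebThirring
open scoped ComplexOrder Topology

section
open scoped Matrix.Norms.L2Operator MatrixOrder

theorem T10_csmul {N : ℕ} (r : ℝ) (A : Mt N) : ((r : ℝ) : ℂ) • A = r • A := by
  ext i j
  simp

theorem T10_posDef_cfc {N : ℕ} {K : Mt N} (hK : K.IsHermitian) (f : ℝ → ℝ)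
    (hf : ∀ i, 0 < f (hK.eigenvalues i)) : (cfc f K).PosDef := by
  obtain ⟨c, hc, hc'⟩ : ∃ c : ℝ, 0 < c ∧ ∀ i, c ≤ f (hK.eigenvalues i) := by
    rcases isEmpty_or_nonempty (Fin N) with hn | hn
    · exact ⟨1, one_pos, fun i => (IsEmpty.false i).elim⟩
    · obtain ⟨i, hi⟩ := Finite.exists_min (fun i => f (hK.eigenvalues i))
      exact ⟨f (hK.eigenvalues i), hf i, hi⟩
  have h1 : algebraMap ℝ (Mt N) c ≤ cfc f K := by
    have hsa : IsSelfAdjoint K := hK
    refine algebraMap_le_cfc f c K ?_ (_root_.LT.contOn_spec hK f) hsa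
    intro x hx
    rw [hK.spectrum_real_eq_range_eigenvalues] at hx
    obtain ⟨i, rfl⟩ := hx
    exact hc' i
  exact (_root_.LT.lb_iff.2 ⟨_root_.LT.cfc_hermitian _ _, h1⟩).posDef hc

theorem T10_eig_le {N : ℕ} {X : Mt N} (hX : X.IsHermitian) {a : ℝ}
    (h : (a • (1 : Mt N) - X).PosSemidef) (i : Fin N) : hX.eigenvalues i ≤ a := by
  have hsa : IsSelfAdjoint X := hX
  have h1 : X ≤ algebraMap ℝ (Mt N) a := by
    rw [Algebra.algebraMap_eq_smul_one, Matrix.le_iff]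
    exact h
  rw [le_algebraMap_iff_spectrum_le (a := X) (r := a) hsa,
    hX.spectrum_real_eq_range_eigenvalues] at h1
  exact h1 _ ⟨i, rfl⟩

theorem T10_sqrt_pos {q : ℝ} (hq : 0 < q) (t : ℝ) : 0 < Real.sqrt (t ^ 2 + q) :=
  Real.sqrt_pos.2 (by positivity)

theorem T10_sqrt_gt {q : ℝ} (hq : 0 < q) (t : ℝ) : t < Real.sqrt (t ^ 2 + q) := by
  refine (le_abs_self t).trans_lt ?_
  rw [← Real.sqrt_sq_eq_abs]
  exact Real.sqrt_lt_sqrt (sq_nonneg _) (by linarith)

theorem T10_Kq_sub_K {N : ℕ} {K : Mt N} (hK : K.IsHermitian) {q : ℝ} (hq : 0 < q) :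
    (Kq K q - K).PosDef := by
  have h1 : Kq K q - K = cfc (fun t : ℝ => Real.sqrt (t ^ 2 + q) - t) K := by
    rw [← _root_.LT.cfc_sub_eq hK (fun t => Real.sqrt (t ^ 2 + q)) (fun t => t),
      _root_.LT.cfc_id_eq hK]
    rfl
  rw [h1]
  exact T10_posDef_cfc hK _ fun i => by linarith [T10_sqrt_gt hq (hK.eigenvalues i)]

theorem T10_X_posDef {N : ℕ} {K F : Mt N} (h : Adm K F) {q : ℝ} (hq : 0 < q) :
    (Kq K q - F).PosDef := by
  have h1 := (T10_Kq_sub_K h.isHermitian_K hq).add_posSemidef h.sub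
  have h2 : Kq K q - K + (K - F) = Kq K q - F := by abel
  rwa [h2] at h1

theorem T10_Y_posDef {N : ℕ} {K F : Mt N} (h : Adm K F) {q : ℝ} (hq : 0 < q) :
    (Kq K q + F).PosDef := by
  have h1 := (T10_Kq_sub_K h.isHermitian_K hq).add_posSemidef h.add
  have h2 : Kq K q - K + (K + F) = Kq K q + F := by abel
  rwa [h2] at h1

theorem T10_Kq_sq {N : ℕ} {K : Mt N} (hK : K.IsHermitian) {q : ℝ} (hq : 0 < q) :
    Kq K q * Kq K q = K * K + q • (1 : Mt N) := by
  have h1 : Kq K q * Kq K q = cfc (fun t : ℝ => t * t + q) K := by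
    unfold Kq
    rw [_root_.LT.cfc_mul_eq hK]
    congr 1
    funext t
    rw [Real.mul_self_sqrt (by positivity), pow_two]
  rw [h1, ← _root_.LT.cfc_add_eq hK (fun t => t * t) (fun _ => q), _root_.LT.cfc_const_eq hK,
    ← _root_.LT.cfc_mul_eq hK (fun t => t) (fun t => t), _root_.LT.cfc_id_eq hK]

/-- `(XY + YX)/2 = S + q`. -/
theorem T10_M {N : ℕ} {K F : Mt N} (hK : K.IsHermitian) {q : ℝ} (hq : 0 < q) :
    (2:ℝ)⁻¹ • ((Kq K q - F) * (Kq K q + F) + (Kq K q + F) * (Kq K q - F)) =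
      K * K - F * F + q • (1 : Mt N) := by
  have h1 : (Kq K q - F) * (Kq K q + F) + (Kq K q + F) * (Kq K q - F) =
      (2:ℝ) • (Kq K q * Kq K q - F * F) := by
    rw [two_smul]; noncomm_ring
  rw [h1, smul_smul, inv_mul_cancel₀ two_ne_zero, one_smul, T10_Kq_sq hK hq]
  abel

/-- the derivative of `K_q`. -/
theorem T10_hasDerivAt_Kq {N : ℕ} {K : Mt N} (hK : K.IsHermitian) {q : ℝ} (hq : 0 < q) :
    HasDerivAt (fun s => Kq K s) (cfc (fun t : ℝ => (2 * Real.sqrt (t ^ 2 + q))⁻¹) K) q := by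
  unfold Kq
  apply _root_.LT.hasDerivAt_cfc_param hK (fun s t => Real.sqrt (t ^ 2 + s))
  intro i
  have h1 : HasDerivAt (fun s : ℝ => hK.eigenvalues i ^ 2 + s) 1 q :=
    (hasDerivAt_id q).const_add _
  have h2 := h1.sqrt (by positivity)
  rw [one_div] at h2
  exact h2

/-- `K_q' = (X + Y)⁻¹`. -/
theorem T10_inv {N : ℕ} {K F : Mt N} (h : Adm K F) {q : ℝ} (hq : 0 < q) :
    cfc (fun x : ℝ => x⁻¹) ((Kq K q - F) + (Kq K q + F)) =
      cfc (fun t : ℝ => (2 * Real.sqrt (t ^ 2 + q))⁻¹) K := by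
  have hK := h.isHermitian_K
  set A := (Kq K q - F) + (Kq K q + F) with hA
  have hAp : A.PosDef := (T10_X_posDef h hq).add (T10_Y_posDef h hq)
  have hAG : A * cfc (fun x : ℝ => x⁻¹) A = 1 := by
    have hAh := hAp.isHermitian
    have h1 : A * cfc (fun x : ℝ => x⁻¹) A = cfc (fun x : ℝ => x) A * cfc (fun x : ℝ => x⁻¹) A := by
      rw [_root_.LT.cfc_id_eq hAh]
    rw [h1, _root_.LT.cfc_mul_eq hAh, ← _root_.LT.cfc_one_eq hAh]
    exact _root_.LT.cfc_congr_eigen hAh fun i => mul_inv_cancel₀ (hAp.eigenvalues_pos i).ne'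
  have hA2 : A = cfc (fun t : ℝ => Real.sqrt (t ^ 2 + q) + Real.sqrt (t ^ 2 + q)) K := by
    rw [← _root_.LT.cfc_add_eq hK]
    rw [hA]
    unfold Kq
    abel
  have hGA : cfc (fun t : ℝ => (2 * Real.sqrt (t ^ 2 + q))⁻¹) K * A = 1 := by
    rw [hA2, _root_.LT.cfc_mul_eq hK, ← _root_.LT.cfc_one_eq hK]
    congr 1
    funext t
    have := T10_sqrt_pos hq t
    field_simp
    ring
  calc cfc (fun x : ℝ => x⁻¹) A
      = (cfc (fun t : ℝ => (2 * Real.sqrt (t ^ 2 + q))⁻¹) K * A) * cfc (fun x : ℝ => x⁻¹) A := by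
        rw [hGA, one_mul]
    _ = _ := by rw [mul_assoc, hAG, mul_one]

/-- the derivative of `E`. -/
theorem T10_deriv {N : ℕ} {K F : Mt N} (h : Adm K F) {q : ℝ} (hq : 0 < q) :
    HasDerivAt (Ecal K F) (tr (zq K F q) - tr (K * K - F * F) / q - N +
      tr (((2:ℝ)⁻¹ • ((Kq K q - F) * (Kq K q + F) + (Kq K q + F) * (Kq K q - F))) *
        (_root_.LT.Dlog (Kq K q - F) (cfc (fun x : ℝ => x⁻¹) ((Kq K q - F) + (Kq K q + F))) +
          _root_.LT.Dlog (Kq K q + F) (cfc (fun x : ℝ => x⁻¹) ((Kq K q - F) + (Kq K q + F)))))) q := by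
  have hK := h.isHermitian_K
  have hF := h.isHermitian_F
  rw [T10_M hK hq, T10_inv h hq]
  set G := cfc (fun t : ℝ => (2 * Real.sqrt (t ^ 2 + q))⁻¹) K with hG
  set S := K * K - F * F with hS
  have hKqh : ∀ s, (Kq K s).IsHermitian := fun s => _root_.LT.cfc_hermitian _ _
  have dK := T10_hasDerivAt_Kq hK hq
  have dX : HasDerivAt (fun s => Kq K s - F) G q := dK.sub_const F
  have dY : HasDerivAt (fun s => Kq K s + F) G q := dK.add_const F
  have dlX : HasDerivAt (fun s => cfc Real.log (Kq K s - F)) (_root_.LT.Dlog (Kq K q - F) G) q :=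
    _root_.LT.hasDerivAt_log dX (Eventually.of_forall fun s => (hKqh s).sub hF) (T10_X_posDef h hq)
  have dlY : HasDerivAt (fun s => cfc Real.log (Kq K s + F)) (_root_.LT.Dlog (Kq K q + F) G) q :=
    _root_.LT.hasDerivAt_log dY (Eventually.of_forall fun s => (hKqh s).add hF) (T10_Y_posDef h hq)
  have dlog : HasDerivAt (fun s : ℝ => Real.log s • (1 : Mt N)) (q⁻¹ • (1 : Mt N)) q :=
    (Real.hasDerivAt_log hq.ne').smul_const (1 : Mt N)
  have dz : HasDerivAt (fun s => zq K F s)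
      (_root_.LT.Dlog (Kq K q - F) G + _root_.LT.Dlog (Kq K q + F) G - q⁻¹ • (1 : Mt N)) q := by
    have h1 := (dlX.add dlY).sub dlog
    refine h1.congr_of_eventuallyEq ?_
    filter_upwards with s
    show zq K F s = cfc Real.log (Kq K s - F) + cfc Real.log (Kq K s + F) -
      Real.log s • (1 : Mt N)
    unfold zq
    rw [T10_csmul]
  have dM : HasDerivAt (fun s : ℝ => S + s • (1 : Mt N)) (1 : Mt N) q := by
    have h1 := ((hasDerivAt_id q).smul_const (1 : Mt N)).const_add S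
    rw [one_smul] at h1
    exact h1
  have dP := dM.mul dz
  have dT : HasDerivAt (fun s => _root_.LT.rtrCLM ((S + s • (1 : Mt N)) * zq K F s))
      (_root_.LT.rtrCLM (1 * zq K F q + (S + q • (1 : Mt N)) *
        (_root_.LT.Dlog (Kq K q - F) G + _root_.LT.Dlog (Kq K q + F) G - q⁻¹ • (1 : Mt N)))) q :=
    (_root_.LT.rtrCLM (n := Fin N)).hasFDerivAt.comp_hasDerivAt q dP
  have dE := dT.sub_const (tr S)
  have hfun : Ecal K F = fun s => _root_.LT.rtrCLM ((S + s • (1 : Mt N)) * zq K F s) - tr S := by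
    funext s
    unfold Ecal
    rw [T10_csmul]
    rfl
  have e1 : ∀ Z : Mt N, _root_.LT.rtrCLM Z = _root_.LT.rtr Z := fun Z => rfl
  have e2 : ∀ Z : Mt N, tr Z = _root_.LT.rtr Z := fun Z => rfl
  have hval : tr (zq K F q) - tr S / q - N + tr ((S + q • (1 : Mt N)) *
      (_root_.LT.Dlog (Kq K q - F) G + _root_.LT.Dlog (Kq K q + F) G)) =
      _root_.LT.rtrCLM (1 * zq K F q + (S + q • (1 : Mt N)) *
        (_root_.LT.Dlog (Kq K q - F) G + _root_.LT.Dlog (Kq K q + F) G - q⁻¹ • (1 : Mt N))) := by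
    have r1 : ∀ A B C : Mt N, _root_.LT.rtr (A + (B - q⁻¹ • C)) =
        _root_.LT.rtr A + (_root_.LT.rtr B - q⁻¹ * _root_.LT.rtr C) := by
      intro A B C
      rw [_root_.LT.rtr_add, _root_.LT.rtr_sub, _root_.LT.rtr_smul]
    have r2 : _root_.LT.rtr (S + q • (1 : Mt N)) = _root_.LT.rtr S + q * N := by
      rw [_root_.LT.rtr_add, _root_.LT.rtr_smul, _root_.LT.rtr_one, Fintype.card_fin]
    rw [e1, e2, e2, e2, one_mul, mul_sub, mul_smul_comm, mul_one, r1, r2]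
    field_simp
    ring
  rw [hfun, hval]
  exact dE

end

theorem Ecal_hasDerivAt {N : ℕ} {K F : Mt N} (h : Adm K F) {κ : ℝ} (hκ0 : 0 ≤ κ)
    (hκ : (((κ : ℝ) : ℂ) • (1 : Mt N) - K).PosSemidef) {q : ℝ} (hq : 0 < q) :
    ∃ E' : ℝ, HasDerivAt (Ecal K F) E' q ∧
      E' + hs2 (Kq K q * F - F * Kq K q) / (24 * (κ ^ 2 + q) ^ 2) ≤
        tr (zq K F q) - tr (K * K - F * F) / q := by
  refine ⟨_, T10_deriv h hq, ?_⟩
  have hK := h.isHermitian_K
  have hF := h.isHermitian_F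
  set X := Kq K q - F with hX
  set Y := Kq K q + F with hY
  have hXp : X.PosDef := T10_X_posDef h hq
  have hYp : Y.PosDef := T10_Y_posDef h hq
  set b := Real.sqrt (κ ^ 2 + q) with hb
  have hbp : 0 < b := T10_sqrt_pos hq κ
  have hb2 : b ^ 2 = κ ^ 2 + q := Real.sq_sqrt (by positivity)
  rw [T10_csmul] at hκ
  -- upper bounds
  have hKb : (b • (1 : Mt N) - K).PosSemidef := by
    have h1 : ((b - κ) • (1 : Mt N)).PosSemidef :=
      Matrix.PosSemidef.one.smul (by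
        have : κ ≤ b := (T10_sqrt_gt hq κ).le
        linarith)
    have h2 := h1.add hκ
    have h3 : (b - κ) • (1 : Mt N) + (κ • (1 : Mt N) - K) = b • (1 : Mt N) - K := by
      rw [sub_smul]; abel
    rwa [h3] at h2
  have hKκ : ∀ i, hK.eigenvalues i ≤ κ := fun i => T10_eig_le hK hκ i
  have hK0 : ∀ i, 0 ≤ hK.eigenvalues i := fun i => h.posSemidef.eigenvalues_nonneg i
  have hKqb : (b • (1 : Mt N) - Kq K q).PosSemidef := by
    have h1 : b • (1 : Mt N) - Kq K q = cfc (fun t : ℝ => b - Real.sqrt (t ^ 2 + q)) K := by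
      rw [← _root_.LT.cfc_sub_eq hK (fun _ => b) (fun t => Real.sqrt (t ^ 2 + q)),
        _root_.LT.cfc_const_eq hK]
      rfl
    rw [h1]
    open scoped MatrixOrder Matrix.Norms.L2Operator in
    rw [← Matrix.nonneg_iff_posSemidef]
    open scoped MatrixOrder Matrix.Norms.L2Operator in
    apply cfc_nonneg
    intro x hx
    rw [hK.spectrum_real_eq_range_eigenvalues] at hx
    obtain ⟨i, rfl⟩ := hx
    rw [sub_nonneg, hb]
    apply Real.sqrt_le_sqrt
    have := hKκ i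
    have := hK0 i
    nlinarith
  have hXa : ∀ i, hXp.isHermitian.eigenvalues i ≤ 2 * b := by
    intro i
    apply T10_eig_le
    have h1 := (hKqb.add hKb).add h.add
    have h2 : b • (1 : Mt N) - Kq K q + (b • (1 : Mt N) - K) + (K + F) =
        (2 * b) • (1 : Mt N) - X := by
      rw [hX, two_mul, add_smul]; abel
    rwa [h2] at h1
  have hYa : ∀ i, hYp.isHermitian.eigenvalues i ≤ 2 * b := by
    intro i
    apply T10_eig_le
    have h1 := (hKqb.add hKb).add h.sub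
    have h2 : b • (1 : Mt N) - Kq K q + (b • (1 : Mt N) - K) + (K - F) =
        (2 * b) • (1 : Mt N) - Y := by
      rw [hY, two_mul, add_smul]; abel
    rwa [h2] at h1
  have hAa : ∀ i, (hXp.add hYp).isHermitian.eigenvalues i ≤ 2 * b := by
    intro i
    apply T10_eig_le
    have h1 := hKqb.add hKqb
    have h2 : b • (1 : Mt N) - Kq K q + (b • (1 : Mt N) - Kq K q) =
        (2 * b) • (1 : Mt N) - (X + Y) := by
      rw [hX, hY, two_mul, add_smul]; abel
    rwa [h2] at h1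
  have key := _root_.LT.hjd_def hXp hYp (show 0 < 2 * b by positivity) hXa hYa hAa
  have hcomm : X * Y - Y * X = (2:ℝ) • (Kq K q * F - F * Kq K q) := by
    rw [hX, hY, two_smul]; noncomm_ring
  have hR : _root_.LT.rtr ((X * Y - Y * X) * (X * Y - Y * X)ᴴ) =
      4 * hs2 (Kq K q * F - F * Kq K q) := by
    rw [hcomm, _root_.LT.rtr_mul_conjTranspose]
    unfold hs2
    rw [Finset.mul_sum]
    refine Finset.sum_congr rfl fun i _ => ?_
    rw [Finset.mul_sum]
    refine Finset.sum_congr rfl fun j _ => ?_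
    rw [Matrix.smul_apply, Complex.normSq_eq_norm_sq, norm_smul, mul_pow]
    norm_num
  rw [hR] at key
  have h24 : 4 * hs2 (Kq K q * F - F * Kq K q) / (6 * (2 * b) ^ 4) =
      hs2 (Kq K q * F - F * Kq K q) / (24 * (κ ^ 2 + q) ^ 2) := by
    rw [← hb2]
    have : b ≠ 0 := hbp.ne'
    field_simp
    ring
  rw [h24, Fintype.card_fin] at key
  have e2 : ∀ Z : Mt N, tr Z = _root_.LT.rtr Z := fun Z => rfl
  rw [e2 (((2:ℝ)⁻¹ • (X * Y + Y * X)) * _)]
  linarith

/-- The version without deficit (do this one first). -/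
theorem Ecal_hasDerivAt' {N : ℕ} {K F : Mt N} (h : Adm K F) {q : ℝ} (hq : 0 < q) :
    ∃ E' : ℝ, HasDerivAt (Ecal K F) E' q ∧ E' ≤ tr (zq K F q) - tr (K * K - F * F) / q := by
  refine ⟨_, T10_deriv h hq, ?_⟩
  have key := _root_.LT.hjd (T10_X_posDef h hq) (T10_Y_posDef h hq)
  rw [Fintype.card_fin] at key
  have e2 : ∀ Z : Mt N, tr Z = _root_.LT.rtr Z := fun Z => rfl
  rw [e2 (((2:ℝ)⁻¹ • (((Kq K q - F) * (Kq K q + F)) + ((Kq K q + F) * (Kq K q - F)))) * _)]
  linarith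

end Crest.Agent.LT
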