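import Crest.Agent.LT_Defs
import Crest.Agent.LT_Spec
import Crest.Agent.LT_T11
/-!
Task LT-T12: apply LT-T11 with `X = K_q - F`, `Y = K_q + F`, `D = q + V/s`.
`tr (X Y) = tr (K_q² - F²) = tr (S + q)`, `log X + log Y = z_q + log q`, so
`tr S ≥ tr V' - tr ((q+V') log (1+V'/q)) + q tr z + tr (V' z)`, `V' = V/s`; multiply by `s` and add `tr (S z)`.
-/

set_option autoImplicit false

namespace Crest.Agent.LT

open MeasureTheory Matrix Set Filter
open Crest.MathPhysics.LiebThirring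
open scoped ComplexOrder Topology

theorem tr_eq_rtr {N : ℕ} (A : Mt N) : tr A = _root_.LT.rtr A := rfl

theorem Kq_isHermitian {N : ℕ} (K : Mt N) (q : ℝ) : (Kq K q).IsHermitian :=
  cfc_predicate _ K

theorem cfc_posDef_of_pos {N : ℕ} {K : Mt N} (hK : K.IsHermitian) {f : ℝ → ℝ}
    (hf : ∀ i, 0 < f (hK.eigenvalues i)) : (cfc f K).PosDef := by
  rw [_root_.LT.cfc_eq_conj hK]
  have hd : (diagonal (fun i => ((f (hK.eigenvalues i) : ℝ) : ℂ))).PosDef := by
    rw [Matrix.posDef_diagonal_iff]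
    intro i
    exact_mod_cast hf i
  have h1 := _root_.LT.U_mul_conj hK
  have h2 := _root_.LT.U_conj_mul hK
  have hinj : Function.Injective
      ((hK.eigenvectorUnitary : Matrix (Fin N) (Fin N) ℂ)ᴴ).mulVec := by
    intro x y hxy
    have := congrArg (fun v => (hK.eigenvectorUnitary : Matrix (Fin N) (Fin N) ℂ) *ᵥ v) hxy
    simpa [Matrix.mulVec_mulVec, h1] using this
  have := hd.conjTranspose_mul_mul_same (B := (hK.eigenvectorUnitary : Matrix (Fin N) (Fin N) ℂ)ᴴ)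
    hinj
  rwa [conjTranspose_conjTranspose] at this

theorem cfc_const_eq' {N : ℕ} {K : Mt N} (hK : K.IsHermitian) (q : ℝ) :
    cfc (fun _ : ℝ => q) K = ((q : ℝ) : ℂ) • (1 : Mt N) := by
  have h1 : (fun _ : Fin N => q) = q • (fun _ : Fin N => (1 : ℝ)) := by
    funext i; simp
  rw [_root_.LT.cfc_eq_spec hK]
  show _root_.LT.specCLM hK (fun _ : Fin N => q) = _
  rw [h1, map_smul, ← _root_.LT.cfc_eq_spec hK (fun _ => (1 : ℝ)), _root_.LT.cfc_one_eq hK]
  ext i j
  simp [Matrix.smul_apply]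

theorem Kq_mul_self {N : ℕ} {K : Mt N} (hK : K.IsHermitian) {q : ℝ} (hq : 0 ≤ q) :
    Kq K q * Kq K q = K * K + ((q : ℝ) : ℂ) • (1 : Mt N) := by
  unfold Kq
  rw [_root_.LT.cfc_mul_eq hK]
  have h1 : K * K = cfc (fun t : ℝ => t * t) K := by
    conv_lhs => rw [← _root_.LT.cfc_id_eq hK]
    rw [_root_.LT.cfc_mul_eq hK]
  have h2 : ((q : ℝ) : ℂ) • (1 : Mt N) = cfc (fun _ : ℝ => q) K := (cfc_const_eq' hK q).symm
  rw [h1, h2, _root_.LT.cfc_add_eq hK]
  refine _root_.LT.cfc_congr_eigen hK fun i => ?_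
  rw [Real.mul_self_sqrt (by positivity)]
  ring

theorem Kq_sub_K_posDef {N : ℕ} {K : Mt N} (hK : K.IsHermitian) {q : ℝ} (hq : 0 < q) :
    (Kq K q - K).PosDef := by
  have h1 : Kq K q - K = cfc (fun t : ℝ => Real.sqrt (t ^ 2 + q) - t) K := by
    conv_lhs => rw [← _root_.LT.cfc_id_eq hK]
    unfold Kq
    rw [_root_.LT.cfc_id_eq hK]
    conv_lhs => enter [2]; rw [← _root_.LT.cfc_id_eq hK]
    rw [_root_.LT.cfc_sub_eq hK]
  rw [h1]
  refine cfc_posDef_of_pos hK fun i => ?_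
  have h2 : hK.eigenvalues i < Real.sqrt (hK.eigenvalues i ^ 2 + q) := by
    refine lt_of_le_of_lt (le_abs_self _) ?_
    rw [← Real.sqrt_sq_eq_abs]
    exact Real.sqrt_lt_sqrt (sq_nonneg _) (by linarith)
  linarith

/-- `K_q - F` and `K_q + F` are bounded below by `K_q - K ≥ c`. -/
theorem Kq_sub_posDef {N : ℕ} {K F : Mt N} (h : Adm K F) {q : ℝ} (hq : 0 < q) :
    (Kq K q - F).PosDef := by
  have h1 := (Kq_sub_K_posDef h.isHermitian_K hq).add_posSemidef h.sub
  have h2 : Kq K q - K + (K - F) = Kq K q - F := by abel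
  rwa [h2] at h1

theorem Kq_add_posDef {N : ℕ} {K F : Mt N} (h : Adm K F) {q : ℝ} (hq : 0 < q) :
    (Kq K q + F).PosDef := by
  have h1 := (Kq_sub_K_posDef h.isHermitian_K hq).add_posSemidef h.add
  have h2 : Kq K q - K + (K + F) = Kq K q + F := by abel
  rwa [h2] at h1

theorem tr_csmul {N : ℕ} (c : ℝ) (A : Mt N) : tr (((c : ℝ) : ℂ) • A) = c * tr A := by
  unfold tr
  rw [Matrix.trace_smul]
  simp

theorem tr_add' {N : ℕ} (A B : Mt N) : tr (A + B) = tr A + tr B := by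
  unfold tr; rw [Matrix.trace_add]; simp

theorem tr_sub' {N : ℕ} (A B : Mt N) : tr (A - B) = tr A - tr B := by
  unfold tr; rw [Matrix.trace_sub]; simp

theorem tr_mul_comm' {N : ℕ} (A B : Mt N) : tr (A * B) = tr (B * A) := by
  unfold tr; rw [Matrix.trace_mul_comm]

theorem tr_Kq_mul {N : ℕ} {K F : Mt N} (h : Adm K F) {q : ℝ} (hq : 0 < q) :
    tr ((Kq K q - F) * (Kq K q + F)) = tr (K * K - F * F) + q * tr (1 : Mt N) := by
  have h1 : (Kq K q - F) * (Kq K q + F) =
      Kq K q * Kq K q - F * F + (Kq K q * F - F * Kq K q) := by noncomm_ring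
  rw [h1, Kq_mul_self h.isHermitian_K hq.le, tr_add', tr_sub' (Kq K q * F),
    tr_mul_comm' (Kq K q) F, sub_self, add_zero]
  have h2 : K * K + ((q : ℝ) : ℂ) • (1 : Mt N) - F * F =
      (K * K - F * F) + ((q : ℝ) : ℂ) • (1 : Mt N) := by abel
  rw [h2, tr_add', tr_csmul]

theorem gt_core {N : ℕ} {K F V' : Mt N} (h : Adm K F) (hV'psd : V'.PosSemidef) {q : ℝ} (hq : 0 < q) :
    q * tr (zq K F q) + tr (V' * zq K F q) - tr (cfc (hfun q) V') ≤ tr (K * K - F * F) := by
  have hV'h : V'.IsHermitian := hV'psd.1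
  -- D = V' + q
  have hD : cfc (fun t : ℝ => t + q) V' = V' + ((q : ℝ) : ℂ) • (1 : Mt N) := by
    have h2 : ((q : ℝ) : ℂ) • (1 : Mt N) = cfc (fun _ : ℝ => q) V' := (cfc_const_eq' hV'h q).symm
    rw [h2]
    conv_rhs => enter [1]; rw [← _root_.LT.cfc_id_eq hV'h]
    rw [_root_.LT.cfc_add_eq hV'h]
  have hDpd : (cfc (fun t : ℝ => t + q) V').PosDef := by
    refine cfc_posDef_of_pos hV'h fun i => ?_
    have := hV'psd.eigenvalues_nonneg i
    linarith
  have hlogD : cfc Real.log (cfc (fun t : ℝ => t + q) V') = cfc (fun t : ℝ => Real.log (t + q)) V' := by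
    have := cfc_comp' Real.log (fun t : ℝ => t + q) V'
      (hg := by
        have hfin : ((fun t : ℝ => t + q) '' spectrum ℝ V').Finite := by
          rw [hV'h.spectrum_real_eq_range_eigenvalues]
          exact (Set.finite_range _).image _
        exact hfin.continuousOn _) (hf := _root_.LT.contOn_spec hV'h _) (ha := hV'h)
    rw [this]
  have hgg := gibbs_golden_thompson (Kq_sub_posDef h hq) (Kq_add_posDef h hq) hDpd
  rw [tr_Kq_mul h hq, hlogD] at hgg
  have hz : cfc Real.log (Kq K q - F) + cfc Real.log (Kq K q + F) =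
      zq K F q + ((Real.log q : ℝ) : ℂ) • (1 : Mt N) := by
    unfold zq; abel
  rw [hz] at hgg
  have e1 : tr (cfc (fun t : ℝ => t + q) V' * cfc (fun t : ℝ => Real.log (t + q)) V') =
      tr (cfc (hfun q) V') + tr V' + Real.log q * (tr V' + q * tr (1 : Mt N)) := by
    rw [_root_.LT.cfc_mul_eq hV'h]
    have e2 : tr V' = ∑ i, hV'h.eigenvalues i := by
      have := _root_.LT.rtr_cfc hV'h (fun x => x)
      rwa [_root_.LT.cfc_id_eq hV'h] at this
    have e3 : tr (1 : Mt N) = ∑ _i : Fin N, (1 : ℝ) := by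
      simp [tr]
    rw [e2, e3, tr_eq_rtr, tr_eq_rtr, _root_.LT.rtr_cfc hV'h, _root_.LT.rtr_cfc hV'h,
      Finset.mul_sum, ← Finset.sum_add_distrib, ← Finset.sum_add_distrib, Finset.mul_sum,
      ← Finset.sum_add_distrib]
    refine Finset.sum_congr rfl fun i _ => ?_
    have hv := hV'psd.eigenvalues_nonneg i
    set v := hV'h.eigenvalues i
    unfold hfun
    have h3 : 1 + v / q = (v + q) / q := by field_simp; ring
    rw [h3, Real.log_div (by positivity) hq.ne']
    ring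
  rw [e1, hD] at hgg
  have e4 : tr ((V' + ((q : ℝ) : ℂ) • (1 : Mt N)) * (zq K F q + ((Real.log q : ℝ) : ℂ) • (1 : Mt N)))
      = tr (V' * zq K F q) + q * tr (zq K F q) + Real.log q * (tr V' + q * tr (1 : Mt N)) := by
    rw [add_mul, mul_add, mul_add, tr_add', tr_add', tr_add', smul_mul_assoc, smul_mul_assoc,
      one_mul, one_mul, mul_smul_comm, mul_one, tr_csmul, tr_csmul, tr_csmul, tr_csmul]
    ring
  rw [e4, tr_add', tr_csmul] at hgg
  linarith

theorem gt_apply {N : ℕ} {K F V : Mt N} (h : Adm K F) (hV : V.PosSemidef) {q s : ℝ} (hq : 0 < q)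
    (hs : 0 < s) :
    tr ((K * K - F * F) * zq K F q) + s * (q * tr (zq K F q) - tr (K * K - F * F))
        - s * tr (cfc (hfun q) (((s⁻¹ : ℝ) : ℂ) • V)) ≤
      tr ((K * K - F * F - V) * zq K F q) := by
  have hV'psd : (((s⁻¹ : ℝ) : ℂ) • V).PosSemidef := by
    have : ((s⁻¹ : ℝ) : ℂ) • V = (s⁻¹ : ℝ) • V := by
      ext i j; simp [Matrix.smul_apply]
    rw [this]
    exact hV.smul (by positivity)
  have h1 := gt_core h hV'psd hq
  have e5 : tr ((((s⁻¹ : ℝ) : ℂ) • V) * zq K F q) = s⁻¹ * tr (V * zq K F q) := by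
    rw [smul_mul_assoc, tr_csmul]
  have e6 : tr ((K * K - F * F - V) * zq K F q) =
      tr ((K * K - F * F) * zq K F q) - tr (V * zq K F q) := by
    rw [sub_mul (K * K - F * F) V, tr_sub']
  rw [e5] at h1
  rw [e6]
  have h2 := mul_le_mul_of_nonneg_left h1 hs.le
  have h3 : s * (s⁻¹ * tr (V * zq K F q)) = tr (V * zq K F q) := by
    rw [← mul_assoc, mul_inv_cancel₀ hs.ne', one_mul]
  nlinarith [h2, h3]

/-- Case `V = 0`. -/
theorem tr_zq_le {N : ℕ} {K F : Mt N} (h : Adm K F) {q : ℝ} (hq : 0 < q) :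
    q * tr (zq K F q) ≤ tr (K * K - F * F) := by
  have h1 := gt_apply (V := 0) h Matrix.PosSemidef.zero hq one_pos
  rw [smul_zero, sub_zero, cfc_apply_zero] at h1
  have h2 : hfun q 0 = 0 := by simp [hfun]
  rw [h2, map_zero] at h1
  have h3 : tr (0 : Mt N) = 0 := by simp [tr]
  rw [h3] at h1
  linarith

end Crest.Agent.LT
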