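import Crest.Agent.LT_Defs
import Crest.Agent.LT_T02
import Crest.Agent.LT_T12
/-!
Task LT-T17: joint continuity of `(q, x) ↦ z_q(F(x))` and consequences.
-/

set_option autoImplicit false

namespace Crest.Agent.LT

open MeasureTheory Matrix Set Filter
open Crest.MathPhysics.LiebThirring
open scoped ComplexOrder Topology

theorem T17_spec {N : ℕ} {A : Mt N} (hA : A.PosDef) : spectrum ℝ A ⊆ Ioi (0 : ℝ) := by
  rw [hA.1.spectrum_real_eq_range_eigenvalues]
  rintro _ ⟨i, rfl⟩
  exact hA.eigenvalues_pos i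

theorem continuousOn_zq {N : ℕ} {X : Type*} [TopologicalSpace X] {s : Set X} {K : Mt N}
    (hK : K.IsHermitian) {F : X → Mt N} {q : X → ℝ} (hF : ContinuousOn F s) (hq : ContinuousOn q s)
    (hq0 : ∀ x ∈ s, 0 < q x) (hadm : ∀ x ∈ s, Adm K (F x)) :
    ContinuousOn (fun x => zq K (F x) (q x)) s := by
  have h1 : ContinuousOn (fun x => Kq K (q x)) s := by
    refine continuousOn_cfc_param (A := fun _ => K) (f := fun x t => Real.sqrt (t ^ 2 + q x))
      (t := Set.univ) continuousOn_const (fun _ _ => hK) isOpen_univ ?_ fun _ _ => subset_univ _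
    have h2 : ContinuousOn (fun p : X × ℝ => q p.1) (s ×ˢ univ) :=
      hq.comp continuousOn_fst fun p hp => hp.1
    exact ((continuousOn_snd.pow 2).add h2).sqrt
  have hlog : ContinuousOn (fun p : X × ℝ => Real.log p.2) (s ×ˢ Ioi (0 : ℝ)) :=
    continuousOn_snd.log fun p hp => (ne_of_gt hp.2)
  have h3 : ContinuousOn (fun x => cfc Real.log (Kq K (q x) - F x)) s :=
    continuousOn_cfc_param (A := fun x => Kq K (q x) - F x) (f := fun _ t => Real.log t)
      (t := Ioi 0) (h1.sub hF) (fun x hx => (Kq_sub_posDef (hadm x hx) (hq0 x hx)).1) isOpen_Ioi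
      hlog fun x hx => T17_spec (Kq_sub_posDef (hadm x hx) (hq0 x hx))
  have h4 : ContinuousOn (fun x => cfc Real.log (Kq K (q x) + F x)) s :=
    continuousOn_cfc_param (A := fun x => Kq K (q x) + F x) (f := fun _ t => Real.log t)
      (t := Ioi 0) (h1.add hF) (fun x hx => (Kq_add_posDef (hadm x hx) (hq0 x hx)).1) isOpen_Ioi
      hlog fun x hx => T17_spec (Kq_add_posDef (hadm x hx) (hq0 x hx))
  have h5 : ContinuousOn (fun x => ((Real.log (q x) : ℝ) : ℂ) • (1 : Mt N)) s :=
    (Complex.continuous_ofReal.comp_continuousOn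
      (hq.log fun x hx => (hq0 x hx).ne')).smul continuousOn_const
  exact (h3.add h4).sub h5

theorem continuousOn_tr {N : ℕ} {X : Type*} [TopologicalSpace X] {s : Set X} {A : X → Mt N}
    (hA : ContinuousOn A s) : ContinuousOn (fun x => tr (A x)) s := by
  have h : Continuous (fun B : Mt N => tr B) :=
    Complex.continuous_re.comp (continuous_id.matrix_trace)
  exact h.comp_continuousOn hA

theorem T17_hfun_eq {q v : ℝ} (hq : 0 < q) :
    hfun q v = (q + v) * Real.log (q + v) - (q + v) * Real.log q - v := by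
  unfold hfun
  by_cases h : q + v = 0
  · rw [h]; ring
  · have : 1 + v / q = (q + v) / q := by field_simp
    rw [this, Real.log_div h hq.ne']
    ring

theorem continuousOn_tr_hfun {N : ℕ} {X : Type*} [TopologicalSpace X] {s : Set X} {V : X → Mt N}
    {q : X → ℝ} (hV : ContinuousOn V s) (hq : ContinuousOn q s) (hq0 : ∀ x ∈ s, 0 < q x)
    (hpsd : ∀ x ∈ s, (V x).PosSemidef) :
    ContinuousOn (fun x => tr (cfc (hfun (q x)) (V x))) s := by
  refine continuousOn_tr ?_
  refine continuousOn_cfc_param (A := V) (f := fun x => hfun (q x)) (t := Set.univ) hV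
    (fun x hx => (hpsd x hx).1) isOpen_univ ?_ fun _ _ => subset_univ _
  have h2 : ContinuousOn (fun p : X × ℝ => q p.1) (s ×ˢ univ) :=
    hq.comp continuousOn_fst fun p hp => hp.1
  have h3 : ContinuousOn (fun p : X × ℝ => (q p.1 + p.2) * Real.log (q p.1 + p.2) -
      (q p.1 + p.2) * Real.log (q p.1) - p.2) (s ×ˢ univ) := by
    have h4 : ContinuousOn (fun p : X × ℝ => (q p.1 + p.2)) (s ×ˢ univ) := h2.add continuousOn_snd
    have h5 : ContinuousOn (fun p : X × ℝ => (q p.1 + p.2) * Real.log (q p.1 + p.2)) (s ×ˢ univ) :=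
      Real.continuous_mul_log.comp_continuousOn h4
    exact (h5.sub (h4.mul (h2.log fun p hp => (hq0 p.1 hp.1).ne'))).sub continuousOn_snd
  exact h3.congr fun p hp => T17_hfun_eq (hq0 p.1 hp.1)

end Crest.Agent.LT
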