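import Crest.Agent.LT_Defs
import Crest.Agent.LT_T10
import Crest.Agent.LT_T12
import Crest.Agent.LT_T17
/-!
Task LT-T18: pointwise integrated inequality. With `s = 1/α + 1`,
`d/dq (q^α E) = α q^{α-1} E + q^α E' ≤ α q^{α-1} (tr (S z) + s (q tr z - tr S)) - D ≤ α q^{α-1} (tr ((S-V) z) + s tr h_q(V/s)) - D`
(first inequality: LT-T10 and algebra, second: `gt_apply`), then integrate
(`sub_le_integral_of_hasDeriv_right_of_le`).
The general version allows a continuous deficit `D(q) ≤ RHS - (q^α E)'`, used for the equality cases.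
-/

set_option autoImplicit false

namespace Crest.Agent.LT

open MeasureTheory Matrix Set Filter
open Crest.MathPhysics.LiebThirring
open scoped ComplexOrder Topology

theorem T18_tr_add {N : ℕ} (A B : Mt N) : tr (A + B) = tr A + tr B := by
  simp [tr, Matrix.trace_add]

theorem T18_tr_smul {N : ℕ} (q : ℝ) (A : Mt N) : tr (((q : ℝ) : ℂ) • A) = q * tr A := by
  simp [tr, Matrix.trace_smul]

theorem T18_smul_psd {N : ℕ} {V : Mt N} (hV : V.PosSemidef) {c : ℝ} (hc : 0 ≤ c) :
    (((c : ℝ) : ℂ) • V).PosSemidef := by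
  have h1 : (c • V).PosSemidef := hV.smul hc
  have h2 : ((c : ℝ) : ℂ) • V = c • V := by
    ext i j
    simp [Matrix.smul_apply]
  rw [h2]; exact h1

theorem hj_pointwise_deriv {N : ℕ} {α : ℝ} (hα : 0 < α) {K F V : Mt N} (h : Adm K F)
    (hV : V.PosSemidef) {q : ℝ} (hq : 0 < q) :
    ∃ D' : ℝ, HasDerivAt (fun q : ℝ => q ^ α * Ecal K F q) D' q ∧
      D' ≤ α * q ^ (α - 1) * (tr ((K * K - F * F - V) * zq K F q)
        + (1 / α + 1) * tr (cfc (hfun q) ((((1 / α + 1)⁻¹ : ℝ) : ℂ) • V))) := by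
  obtain ⟨E', hE', hle⟩ := Ecal_hasDerivAt' h hq
  have hs : 0 < 1 / α + 1 := by positivity
  have hgt := gt_apply h hV hq hs
  have hpow : HasDerivAt (fun q : ℝ => q ^ α) (α * q ^ (α - 1)) q :=
    Real.hasDerivAt_rpow_const (Or.inl hq.ne')
  refine ⟨α * q ^ (α - 1) * Ecal K F q + q ^ α * E', hpow.mul hE', ?_⟩
  have hqpos : 0 < q ^ (α - 1) := Real.rpow_pos_of_pos hq _
  have hqα : q ^ α = q ^ (α - 1) * q := by
    rw [← Real.rpow_add_one hq.ne']; congr 1; ring
  have hEcal : Ecal K F q = tr ((K * K - F * F) * zq K F q) +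
      (q * tr (zq K F q) - tr (K * K - F * F)) := by
    unfold Ecal
    rw [add_mul, T18_tr_add, smul_mul_assoc, one_mul, T18_tr_smul]
    ring
  have h1 : q ^ α * E' ≤ q ^ (α - 1) * (q * tr (zq K F q) - tr (K * K - F * F)) := by
    rw [hqα, mul_assoc]
    apply mul_le_mul_of_nonneg_left _ hqpos.le
    have := mul_le_mul_of_nonneg_left hle hq.le
    have h2 : q * (tr (zq K F q) - tr (K * K - F * F) / q) =
        q * tr (zq K F q) - tr (K * K - F * F) := by
      field_simp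
    linarith
  have h3 : α * q ^ (α - 1) * Ecal K F q + q ^ (α - 1) *
      (q * tr (zq K F q) - tr (K * K - F * F)) =
      α * q ^ (α - 1) * (tr ((K * K - F * F) * zq K F q) +
        (1 / α + 1) * (q * tr (zq K F q) - tr (K * K - F * F))) := by
    rw [hEcal]
    field_simp
    ring
  have h4 : α * q ^ (α - 1) * (tr ((K * K - F * F) * zq K F q) +
        (1 / α + 1) * (q * tr (zq K F q) - tr (K * K - F * F))) ≤
      α * q ^ (α - 1) * (tr ((K * K - F * F - V) * zq K F q)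
        + (1 / α + 1) * tr (cfc (hfun q) ((((1 / α + 1)⁻¹ : ℝ) : ℂ) • V))) := by
    apply mul_le_mul_of_nonneg_left _ (by positivity)
    linarith
  linarith

theorem hj_pointwise {N : ℕ} {α : ℝ} (hα : 0 < α) {K F V : Mt N} (h : Adm K F)
    (hV : V.PosSemidef) {q₀ q₁ : ℝ} (hq₀ : 0 < q₀) (hq : q₀ ≤ q₁) :
    q₁ ^ α * Ecal K F q₁ - q₀ ^ α * Ecal K F q₀ ≤
      ∫ q in q₀..q₁, α * q ^ (α - 1) * (tr ((K * K - F * F - V) * zq K F q)
        + (1 / α + 1) * tr (cfc (hfun q) ((((1 / α + 1)⁻¹ : ℝ) : ℂ) • V))) := by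
  have hs : 0 < 1 / α + 1 := by positivity
  have hpos : ∀ q ∈ Icc q₀ q₁, 0 < q := fun q hq' => lt_of_lt_of_le hq₀ hq'.1
  choose! D' hD1 hD2 using fun q (hq' : 0 < q) => hj_pointwise_deriv hα h hV hq'
  apply intervalIntegral.sub_le_integral_of_hasDeriv_right_of_le hq
    (g := fun q : ℝ => q ^ α * Ecal K F q) (g' := D')
  · intro x hx
    exact ((hD1 x (hpos x hx)).continuousAt).continuousWithinAt
  · intro x hx
    exact (hD1 x (hpos x ⟨hx.1.le, hx.2.le⟩)).hasDerivWithinAt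
  · apply ContinuousOn.integrableOn_Icc
    have c1 : ContinuousOn (fun q : ℝ => zq K F q) (Icc q₀ q₁) :=
      continuousOn_zq h.isHermitian_K continuousOn_const continuousOn_id hpos (fun _ _ => h)
    have c2 : ContinuousOn (fun q : ℝ => tr ((K * K - F * F - V) * zq K F q)) (Icc q₀ q₁) :=
      continuousOn_tr (continuousOn_const.mul c1)
    have c3 : ContinuousOn (fun q : ℝ => tr (cfc (hfun q) ((((1 / α + 1)⁻¹ : ℝ) : ℂ) • V)))
        (Icc q₀ q₁) :=
      continuousOn_tr_hfun (V := fun _ : ℝ => (((1 / α + 1)⁻¹ : ℝ) : ℂ) • V) (q := fun q => q)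
        continuousOn_const continuousOn_id hpos
        (fun _ _ => T18_smul_psd hV (inv_nonneg.mpr hs.le))
    have c4 : ContinuousOn (fun q : ℝ => q ^ (α - 1)) (Icc q₀ q₁) :=
      continuousOn_id.rpow_const (fun x hx => Or.inl (hpos x hx).ne')
    exact (continuousOn_const.mul c4).mul (c2.add (continuousOn_const.mul c3))
  · intro x hx
    exact hD2 x (hpos x ⟨hx.1.le, hx.2.le⟩)

end Crest.Agent.LT
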