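import Crest.Agent.LTE_Defs
import Crest.Agent.LTE_E02
import Crest.Agent.LTE_E03
import Crest.Agent.LT_T10
import Crest.Agent.LT_T18
/-!
Task LTE-E04: the derivative inequality with deficit, `q ∈ [1,2]`, dimension-free constant.
`X = K_q - F`, `Y = K_q + F`, `Z = exp (log X + log Y)`, `D = q + V/s`, `s = 1/α + 1`. Deficits: (a) LT-T10:
`q^α hs2 [K_q,F] / (24 (κ²+q)²)`; (b) LTE-E03: `α q^{α-1} s hs2 (D - Z)/(2M)` with `M = C (1 + tr V)` (spectra of `X, Y` lie in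
`[c(κ), C(κ)]`: `K_q - K ≥ q/(2 K_q)`). Then `hs2 [K²,F] ≤ 4(κ²+2) hs2 [K_q,F]`, and
`V - s(K²-F²) = s (D - Z) + s (Z - XY) + s (XY - (XY+YX)/2)`, with `hs2 (Z - XY) ≤ C hs2 [log X, log Y] ≤ C' hs2 [X,Y]`,
`[X,Y] = 2 [K_q,F]`.
-/

set_option autoImplicit false

namespace Crest.Agent.LT

open MeasureTheory Matrix Set Filter
open Crest.MathPhysics.LiebThirring
open scoped ComplexOrder Topology

theorem E04_hs2_smul {m N : ℕ} (c : ℝ) (A : Matrix (Fin m) (Fin N) ℂ) :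
    hs2 (((c : ℝ) : ℂ) • A) = c ^ 2 * hs2 A := by
  unfold hs2
  rw [Finset.mul_sum]
  refine Finset.sum_congr rfl fun i _ => ?_
  rw [Finset.mul_sum]
  refine Finset.sum_congr rfl fun j _ => ?_
  rw [Matrix.smul_apply, norm_smul, mul_pow, Complex.norm_real, Real.norm_eq_abs, sq_abs]

theorem E04_hs2_nonneg {m N : ℕ} (A : Matrix (Fin m) (Fin N) ℂ) : 0 ≤ hs2 A :=
  Finset.sum_nonneg fun _ _ => Finset.sum_nonneg fun _ _ => sq_nonneg _

theorem E04_hs2_comm {m N : ℕ} (A B : Matrix (Fin m) (Fin N) ℂ) : hs2 (A - B) = hs2 (B - A) := by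
  unfold hs2
  refine Finset.sum_congr rfl fun i _ => Finset.sum_congr rfl fun j _ => ?_
  rw [Matrix.sub_apply, Matrix.sub_apply, norm_sub_rev]

section
open scoped Matrix.Norms.L2Operator MatrixOrder

theorem E04_spec_le {N : ℕ} {X : Mt N} (hX : X.IsHermitian) {a : ℝ}
    (h : (a • (1 : Mt N) - X).PosSemidef) : ∀ x ∈ spectrum ℝ X, x ≤ a := by
  intro x hx
  rw [hX.spectrum_real_eq_range_eigenvalues] at hx
  obtain ⟨i, rfl⟩ := hx
  exact T10_eig_le hX h i

theorem E04_spec_ge {N : ℕ} {X : Mt N} (hX : X.IsHermitian) {a : ℝ}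
    (h : (X - a • (1 : Mt N)).PosSemidef) : ∀ x ∈ spectrum ℝ X, a ≤ x := by
  have hsa : IsSelfAdjoint X := hX
  have h1 : algebraMap ℝ (Mt N) a ≤ X := by
    rw [Algebra.algebraMap_eq_smul_one, Matrix.le_iff]
    exact h
  rw [algebraMap_le_iff_le_spectrum (a := X) (r := a) hsa] at h1
  exact h1

theorem E04_psd_of_spec_le {N : ℕ} {X : Mt N} (hX : X.IsHermitian) {a : ℝ}
    (h : ∀ x ∈ spectrum ℝ X, x ≤ a) : (a • (1 : Mt N) - X).PosSemidef := by
  have hsa : IsSelfAdjoint X := hX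
  have h1 := (le_algebraMap_iff_spectrum_le (a := X) (r := a) hsa).2 h
  rw [Algebra.algebraMap_eq_smul_one, Matrix.le_iff] at h1
  exact h1

theorem E04_psd_of_spec_ge {N : ℕ} {X : Mt N} (hX : X.IsHermitian) {a : ℝ}
    (h : ∀ x ∈ spectrum ℝ X, a ≤ x) : (X - a • (1 : Mt N)).PosSemidef := by
  have hsa : IsSelfAdjoint X := hX
  have h1 := (algebraMap_le_iff_le_spectrum (a := X) (r := a) hsa).2 h
  rw [Algebra.algebraMap_eq_smul_one, Matrix.le_iff] at h1
  exact h1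

theorem E04_spec_cfc {N : ℕ} {X : Mt N} (hX : X.IsHermitian) (f : ℝ → ℝ) {y : ℝ}
    (hy : y ∈ spectrum ℝ (cfc f X)) : ∃ x ∈ spectrum ℝ X, f x = y := by
  have hsa : IsSelfAdjoint X := hX
  rw [cfc_map_spectrum f X (hf := _root_.LT.contOn_spec hX f) (ha := hsa)] at hy
  exact hy

end

/-- spectral bounds for `K_q ∓ F` -/
theorem E04_bounds {N : ℕ} {K F : Mt N} (h : Adm K F) {κ : ℝ} (hκ0 : 0 ≤ κ)
    (hκ : (((κ : ℝ) : ℂ) • (1 : Mt N) - K).PosSemidef) {q : ℝ} (hq : q ∈ Icc (1 : ℝ) 2) {b : ℝ}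
    (hb : b = Real.sqrt (κ ^ 2 + 2)) :
    (∀ x ∈ spectrum ℝ (Kq K q), 0 ≤ x ∧ x ≤ b) ∧
    (∀ x ∈ spectrum ℝ (Kq K q - F), 1 / (2 * b) ≤ x ∧ x ≤ 2 * b) ∧
    (∀ x ∈ spectrum ℝ (Kq K q + F), 1 / (2 * b) ≤ x ∧ x ≤ 2 * b) := by
  have hK := h.isHermitian_K
  have hF := h.isHermitian_F
  have hq0 : 0 < q := by linarith [hq.1]
  have hKqh : (Kq K q).IsHermitian := Kq_isHermitian K q
  have hbp : 0 < b := by rw [hb]; exact T10_sqrt_pos two_pos κ
  rw [T10_csmul] at hκ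
  have hKκ : ∀ x ∈ spectrum ℝ K, x ≤ κ := E04_spec_le hK hκ
  have hK0 : ∀ x ∈ spectrum ℝ K, 0 ≤ x := by
    intro x hx
    rw [hK.spectrum_real_eq_range_eigenvalues] at hx
    obtain ⟨i, rfl⟩ := hx
    exact h.posSemidef.eigenvalues_nonneg i
  have hsb : ∀ x ∈ spectrum ℝ K, Real.sqrt (x ^ 2 + q) ≤ b := by
    intro x hx
    rw [hb]
    apply Real.sqrt_le_sqrt
    have := hKκ x hx
    have := hK0 x hx
    nlinarith [hq.2]
  have hxb : ∀ x ∈ spectrum ℝ K, x ≤ b := by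
    intro x hx
    have := (T10_sqrt_gt hq0 x).le
    linarith [hsb x hx]
  have h1 : ∀ x ∈ spectrum ℝ (Kq K q), 0 ≤ x ∧ x ≤ b := by
    intro y hy
    obtain ⟨x, hx, rfl⟩ := E04_spec_cfc hK _ hy
    exact ⟨Real.sqrt_nonneg _, hsb x hx⟩
  have hKqb : (b • (1 : Mt N) - Kq K q).PosSemidef :=
    E04_psd_of_spec_le hKqh fun x hx => (h1 x hx).2
  have hKb : (b • (1 : Mt N) - K).PosSemidef := E04_psd_of_spec_le hK hxb
  have hKqK : ((Kq K q - K) - (1 / (2 * b)) • (1 : Mt N)).PosSemidef := by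
    have e1 : Kq K q - K = cfc (fun t : ℝ => Real.sqrt (t ^ 2 + q) - t) K := by
      rw [← _root_.LT.cfc_sub_eq hK (fun t => Real.sqrt (t ^ 2 + q)) (fun t => t),
        _root_.LT.cfc_id_eq hK]
      rfl
    refine E04_psd_of_spec_ge (hKqh.sub hK) ?_
    rw [e1]
    intro y hy
    obtain ⟨x, hx, rfl⟩ := E04_spec_cfc hK _ hy
    have s1 := hsb x hx
    have s2 := hxb x hx
    have s3 := hK0 x hx
    have s4 : Real.sqrt (x ^ 2 + q) * Real.sqrt (x ^ 2 + q) = x ^ 2 + q :=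
      Real.mul_self_sqrt (by positivity)
    have s5 := T10_sqrt_pos hq0 x
    have s6 := T10_sqrt_gt hq0 x
    rw [div_le_iff₀ (by positivity)]
    have s7 : (Real.sqrt (x ^ 2 + q) - x) * (Real.sqrt (x ^ 2 + q) + x) = q := by
      nlinarith
    calc (1 : ℝ) ≤ q := hq.1
      _ = (Real.sqrt (x ^ 2 + q) - x) * (Real.sqrt (x ^ 2 + q) + x) := s7.symm
      _ ≤ (Real.sqrt (x ^ 2 + q) - x) * (2 * b) :=
          mul_le_mul_of_nonneg_left (by linarith) (by linarith)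
  refine ⟨h1, ?_, ?_⟩
  · intro x hx
    constructor
    · refine E04_spec_ge (hKqh.sub hF) ?_ x hx
      have e := hKqK.add h.sub
      have e2 : Kq K q - K - (1 / (2 * b)) • (1 : Mt N) + (K - F) =
          Kq K q - F - (1 / (2 * b)) • (1 : Mt N) := by abel
      rwa [e2] at e
    · refine E04_spec_le (hKqh.sub hF) ?_ x hx
      have e := (hKqb.add hKb).add h.add
      have e2 : b • (1 : Mt N) - Kq K q + (b • (1 : Mt N) - K) + (K + F) =
          (2 * b) • (1 : Mt N) - (Kq K q - F) := by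
        rw [two_mul, add_smul]; abel
      rwa [e2] at e
  · intro x hx
    constructor
    · refine E04_spec_ge (hKqh.add hF) ?_ x hx
      have e := hKqK.add h.add
      have e2 : Kq K q - K - (1 / (2 * b)) • (1 : Mt N) + (K + F) =
          Kq K q + F - (1 / (2 * b)) • (1 : Mt N) := by abel
      rwa [e2] at e
    · refine E04_spec_le (hKqh.add hF) ?_ x hx
      have e := (hKqb.add hKb).add h.sub
      have e2 : b • (1 : Mt N) - Kq K q + (b • (1 : Mt N) - K) + (K - F) =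
          (2 * b) • (1 : Mt N) - (Kq K q + F) := by
        rw [two_mul, add_smul]; abel
      rwa [e2] at e

/-- `gt_core` with a gap. -/
theorem E04_gt_core {N : ℕ} {K F V' : Mt N} (h : Adm K F) (hV'psd : V'.PosSemidef) {q : ℝ}
    (hq : 0 < q) {M : ℝ} (hM : 0 < M)
    (h1 : ∀ x ∈ spectrum ℝ (V' + ((q : ℝ) : ℂ) • (1 : Mt N)), x ≤ M)
    (h2 : ∀ x ∈ spectrum ℝ (cfc Real.exp (cfc Real.log (Kq K q - F) + cfc Real.log (Kq K q + F))),
      x ≤ M) :
    q * tr (zq K F q) + tr (V' * zq K F q) - tr (cfc (hfun q) V')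
      + hs2 (V' + ((q : ℝ) : ℂ) • (1 : Mt N) -
          cfc Real.exp (cfc Real.log (Kq K q - F) + cfc Real.log (Kq K q + F))) / (2 * M)
      ≤ tr (K * K - F * F) := by
  have hV'h : V'.IsHermitian := hV'psd.1
  -- D = V' + q
  have hD : cfc (fun t : ℝ => t + q) V' = V' + ((q : ℝ) : ℂ) • (1 : Mt N) := by
    have h2 : ((q : ℝ) : ℂ) • (1 : Mt N) = cfc (fun _ : ℝ => q) V' := (cfc_const_eq' hV'h q).symm
    rw [h2]
    conv_rhs => enter [1]; rw [← _root_.LT.cfc_id_eq hV'h]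
    rw [_root_.LT.cfc_add_eq hV'h]
  have hDpd : (cfc (fun t : ℝ => t + q) V').PosDef := by
    refine cfc_posDef_of_pos hV'h fun i => ?_
    have := hV'psd.eigenvalues_nonneg i
    linarith
  have hlogD : cfc Real.log (cfc (fun t : ℝ => t + q) V') = cfc (fun t : ℝ => Real.log (t + q)) V' := by
    have := cfc_comp' Real.log (fun t : ℝ => t + q) V'
      (hg := by
        have hfin : ((fun t : ℝ => t + q) '' spectrum ℝ V').Finite := by
          rw [hV'h.spectrum_real_eq_range_eigenvalues]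
          exact (Set.finite_range _).image _
        exact hfin.continuousOn _) (hf := _root_.LT.contOn_spec hV'h _) (ha := hV'h)
    rw [this]
  rw [← hD] at h1
  have hgg := gibbs_gap (Kq_sub_posDef h hq) (Kq_add_posDef h hq) hDpd hM h1 h2
  rw [tr_Kq_mul h hq, hlogD] at hgg
  have hgap : hs2 (cfc (fun t : ℝ => t + q) V' -
      cfc Real.exp (cfc Real.log (Kq K q - F) + cfc Real.log (Kq K q + F))) =
      hs2 (V' + ((q : ℝ) : ℂ) • (1 : Mt N) -
          cfc Real.exp (cfc Real.log (Kq K q - F) + cfc Real.log (Kq K q + F))) := by rw [hD]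
  rw [hgap] at hgg
  set G := hs2 (V' + ((q : ℝ) : ℂ) • (1 : Mt N) -
          cfc Real.exp (cfc Real.log (Kq K q - F) + cfc Real.log (Kq K q + F))) / (2 * M) with hG
  have hz : cfc Real.log (Kq K q - F) + cfc Real.log (Kq K q + F) =
      zq K F q + ((Real.log q : ℝ) : ℂ) • (1 : Mt N) := by
    unfold zq; abel
  rw [hz] at hgg
  have e1 : tr (cfc (fun t : ℝ => t + q) V' * cfc (fun t : ℝ => Real.log (t + q)) V') =
      tr (cfc (hfun q) V') + tr V' + Real.log q * (tr V' + q * tr (1 : Mt N)) := by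
    rw [_root_.LT.cfc_mul_eq hV'h]
    have e2 : tr V' = ∑ i, hV'h.eigenvalues i := by
      have := _root_.LT.rtr_cfc hV'h (fun x => x)
      rwa [_root_.LT.cfc_id_eq hV'h] at this
    have e3 : tr (1 : Mt N) = ∑ _i : Fin N, (1 : ℝ) := by
      simp [tr]
    rw [e2, e3, tr_eq_rtr, tr_eq_rtr, _root_.LT.rtr_cfc hV'h, _root_.LT.rtr_cfc hV'h,
      Finset.mul_sum, ← Finset.sum_add_distrib, ← Finset.sum_add_distrib, Finset.mul_sum,
      ← Finset.sum_add_distrib]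
    refine Finset.sum_congr rfl fun i _ => ?_
    have hv := hV'psd.eigenvalues_nonneg i
    set v := hV'h.eigenvalues i
    unfold hfun
    have h3 : 1 + v / q = (v + q) / q := by field_simp; ring
    rw [h3, Real.log_div (by positivity) hq.ne']
    ring
  rw [e1, hD] at hgg
  have e4 : tr ((V' + ((q : ℝ) : ℂ) • (1 : Mt N)) * (zq K F q + ((Real.log q : ℝ) : ℂ) • (1 : Mt N)))
      = tr (V' * zq K F q) + q * tr (zq K F q) + Real.log q * (tr V' + q * tr (1 : Mt N)) := by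
    rw [add_mul, mul_add, mul_add, tr_add', tr_add', tr_add', smul_mul_assoc, smul_mul_assoc,
      one_mul, one_mul, mul_smul_comm, mul_one, tr_csmul, tr_csmul, tr_csmul, tr_csmul]
    ring
  rw [e4, tr_add', tr_csmul] at hgg
  linarith

theorem E04_tr_nonneg {N : ℕ} {V : Mt N} (hV : V.PosSemidef) : 0 ≤ tr V := by
  have := _root_.LT.rtr_cfc hV.1 (fun x => x)
  rw [_root_.LT.cfc_id_eq hV.1] at this
  rw [tr_eq_rtr, this]
  exact Finset.sum_nonneg fun i _ => hV.eigenvalues_nonneg i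

theorem E04_eig_le_tr {N : ℕ} {V : Mt N} (hV : V.PosSemidef) : ∀ x ∈ spectrum ℝ V, x ≤ tr V := by
  intro x hx
  rw [hV.1.spectrum_real_eq_range_eigenvalues] at hx
  obtain ⟨i, rfl⟩ := hx
  have := _root_.LT.rtr_cfc hV.1 (fun x => x)
  rw [_root_.LT.cfc_id_eq hV.1] at this
  rw [tr_eq_rtr, this]
  exact Finset.single_le_sum (f := fun i => hV.1.eigenvalues i)
    (fun i _ => hV.eigenvalues_nonneg i) (Finset.mem_univ i)

/-- `gt_apply` with a gap. -/
theorem E04_gt_apply {N : ℕ} {K F V : Mt N} (h : Adm K F) (hV : V.PosSemidef) {q s : ℝ} (hq : 0 < q)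
    (hs : 0 < s) {M : ℝ} (hM : 0 < M)
    (h1 : ∀ x ∈ spectrum ℝ (((s⁻¹ : ℝ) : ℂ) • V + ((q : ℝ) : ℂ) • (1 : Mt N)), x ≤ M)
    (h2 : ∀ x ∈ spectrum ℝ (cfc Real.exp (cfc Real.log (Kq K q - F) + cfc Real.log (Kq K q + F))),
      x ≤ M) :
    tr ((K * K - F * F) * zq K F q) + s * (q * tr (zq K F q) - tr (K * K - F * F))
        - s * tr (cfc (hfun q) (((s⁻¹ : ℝ) : ℂ) • V))
        + s * (hs2 (((s⁻¹ : ℝ) : ℂ) • V + ((q : ℝ) : ℂ) • (1 : Mt N) -
          cfc Real.exp (cfc Real.log (Kq K q - F) + cfc Real.log (Kq K q + F))) / (2 * M)) ≤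
      tr ((K * K - F * F - V) * zq K F q) := by
  have hV'psd : (((s⁻¹ : ℝ) : ℂ) • V).PosSemidef := T18_smul_psd hV (by positivity)
  have h1 := E04_gt_core h hV'psd hq hM h1 h2
  set G := hs2 (((s⁻¹ : ℝ) : ℂ) • V + ((q : ℝ) : ℂ) • (1 : Mt N) -
          cfc Real.exp (cfc Real.log (Kq K q - F) + cfc Real.log (Kq K q + F))) / (2 * M) with hG
  have e5 : tr ((((s⁻¹ : ℝ) : ℂ) • V) * zq K F q) = s⁻¹ * tr (V * zq K F q) := by
    rw [smul_mul_assoc, tr_csmul]
  have e6 : tr ((K * K - F * F - V) * zq K F q) =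
      tr ((K * K - F * F) * zq K F q) - tr (V * zq K F q) := by
    rw [sub_mul (K * K - F * F) V, tr_sub']
  rw [e5] at h1
  rw [e6]
  have h2 := mul_le_mul_of_nonneg_left h1 hs.le
  have h3 : s * (s⁻¹ * tr (V * zq K F q)) = tr (V * zq K F q) := by
    rw [← mul_assoc, mul_inv_cancel₀ hs.ne', one_mul]
  nlinarith [h2, h3]

/-- the derivative inequality with both gaps -/
theorem E04_deriv {N : ℕ} {α : ℝ} (hα : 0 < α) {κ : ℝ} (hκ0 : 0 ≤ κ) {K F V : Mt N} (h : Adm K F)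
    (hV : V.PosSemidef) (hκ : (((κ : ℝ) : ℂ) • (1 : Mt N) - K).PosSemidef) {q : ℝ} (hq : 0 < q)
    {M : ℝ} (hM : 0 < M)
    (h1 : ∀ x ∈ spectrum ℝ ((((1 / α + 1)⁻¹ : ℝ) : ℂ) • V + ((q : ℝ) : ℂ) • (1 : Mt N)), x ≤ M)
    (h2 : ∀ x ∈ spectrum ℝ (cfc Real.exp (cfc Real.log (Kq K q - F) + cfc Real.log (Kq K q + F))),
      x ≤ M) :
    ∃ D' : ℝ, HasDerivAt (fun q : ℝ => q ^ α * Ecal K F q) D' q ∧
      D' + (q ^ α * (hs2 (Kq K q * F - F * Kq K q) / (24 * (κ ^ 2 + q) ^ 2)) +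
        α * q ^ (α - 1) * ((1 / α + 1) * (hs2 ((((1 / α + 1)⁻¹ : ℝ) : ℂ) • V +
          ((q : ℝ) : ℂ) • (1 : Mt N) -
          cfc Real.exp (cfc Real.log (Kq K q - F) + cfc Real.log (Kq K q + F))) / (2 * M)))) ≤
      α * q ^ (α - 1) * (tr ((K * K - F * F - V) * zq K F q)
        + (1 / α + 1) * tr (cfc (hfun q) ((((1 / α + 1)⁻¹ : ℝ) : ℂ) • V))) := by
  obtain ⟨E', hE', hle⟩ := Ecal_hasDerivAt h hκ0 hκ hq
  have hs : 0 < 1 / α + 1 := by positivity
  have hgt := E04_gt_apply h hV hq hs hM h1 h2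
  have hpow : HasDerivAt (fun q : ℝ => q ^ α) (α * q ^ (α - 1)) q :=
    Real.hasDerivAt_rpow_const (Or.inl hq.ne')
  refine ⟨α * q ^ (α - 1) * Ecal K F q + q ^ α * E', hpow.mul hE', ?_⟩
  set G := hs2 ((((1 / α + 1)⁻¹ : ℝ) : ℂ) • V +
          ((q : ℝ) : ℂ) • (1 : Mt N) -
          cfc Real.exp (cfc Real.log (Kq K q - F) + cfc Real.log (Kq K q + F))) / (2 * M) with hG
  set H := hs2 (Kq K q * F - F * Kq K q) / (24 * (κ ^ 2 + q) ^ 2) with hH
  have hqpos : 0 < q ^ (α - 1) := Real.rpow_pos_of_pos hq _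
  have hqα : q ^ α = q ^ (α - 1) * q := by
    rw [← Real.rpow_add_one hq.ne']; congr 1; ring
  have hEcal : Ecal K F q = tr ((K * K - F * F) * zq K F q) +
      (q * tr (zq K F q) - tr (K * K - F * F)) := by
    unfold Ecal
    rw [add_mul, T18_tr_add, smul_mul_assoc, one_mul, T18_tr_smul]
    ring
  have h1 : q ^ α * E' + q ^ α * H ≤
      q ^ (α - 1) * (q * tr (zq K F q) - tr (K * K - F * F)) := by
    rw [← mul_add, hqα, mul_assoc]
    apply mul_le_mul_of_nonneg_left _ hqpos.le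
    have := mul_le_mul_of_nonneg_left hle hq.le
    have h2 : q * (tr (zq K F q) - tr (K * K - F * F) / q) =
        q * tr (zq K F q) - tr (K * K - F * F) := by
      field_simp
    linarith
  have h3 : α * q ^ (α - 1) * Ecal K F q + q ^ (α - 1) *
      (q * tr (zq K F q) - tr (K * K - F * F)) =
      α * q ^ (α - 1) * (tr ((K * K - F * F) * zq K F q) +
        (1 / α + 1) * (q * tr (zq K F q) - tr (K * K - F * F))) := by
    rw [hEcal]
    field_simp
    ring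
  have h4 : α * q ^ (α - 1) * (tr ((K * K - F * F) * zq K F q) +
        (1 / α + 1) * (q * tr (zq K F q) - tr (K * K - F * F)) + (1 / α + 1) * G) ≤
      α * q ^ (α - 1) * (tr ((K * K - F * F - V) * zq K F q)
        + (1 / α + 1) * tr (cfc (hfun q) ((((1 / α + 1)⁻¹ : ℝ) : ℂ) • V))) := by
    apply mul_le_mul_of_nonneg_left _ (by positivity)
    linarith
  have h5 : α * q ^ (α - 1) * (tr ((K * K - F * F) * zq K F q) +
        (1 / α + 1) * (q * tr (zq K F q) - tr (K * K - F * F)) + (1 / α + 1) * G) =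
      α * q ^ (α - 1) * (tr ((K * K - F * F) * zq K F q) +
        (1 / α + 1) * (q * tr (zq K F q) - tr (K * K - F * F))) +
      α * q ^ (α - 1) * ((1 / α + 1) * G) := by ring
  linarith

/-- commutator estimates -/
theorem E04_comm {N : ℕ} {X Y : Mt N} (hX : X.IsHermitian) (hY : Y.IsHermitian) {b : ℝ} (hb : 0 < b)
    (h1 : ∀ x ∈ spectrum ℝ X, 1 / (2 * b) ≤ x) (h2 : ∀ x ∈ spectrum ℝ Y, 1 / (2 * b) ≤ x) :
    hs2 (cfc Real.log X * cfc Real.log Y - cfc Real.log Y * cfc Real.log X) ≤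
      ((2 * b) ^ 2) ^ 2 * hs2 (X * Y - Y * X) := by
  have hlip : ∀ x y : ℝ, 1 / (2 * b) ≤ x → 1 / (2 * b) ≤ y →
      |Real.log x - Real.log y| ≤ (2 * b) * |x - y| := by
    have key : ∀ x y : ℝ, 1 / (2 * b) ≤ x → 1 / (2 * b) ≤ y → y ≤ x →
        Real.log x - Real.log y ≤ (2 * b) * (x - y) := by
      intro x y hx hy hxy
      have hb2 : 0 < 1 / (2 * b) := by positivity
      have hx0 : 0 < x := by linarith
      have hy0 : 0 < y := by linarith
      rw [← Real.log_div hx0.ne' hy0.ne']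
      have e1 := Real.log_le_sub_one_of_pos (div_pos hx0 hy0)
      have e2 : x / y - 1 = (1 / y) * (x - y) := by field_simp
      have e3 : 1 / y ≤ 2 * b := by
        rw [div_le_iff₀ hy0]
        rw [div_le_iff₀ (by positivity)] at hy
        linarith
      calc Real.log (x / y) ≤ x / y - 1 := e1
        _ = (1 / y) * (x - y) := e2
        _ ≤ (2 * b) * (x - y) := mul_le_mul_of_nonneg_right e3 (by linarith)
    intro x y hx hy
    rcases le_total y x with hxy | hxy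
    · have hlog : Real.log y ≤ Real.log x := Real.log_le_log (lt_of_lt_of_le (by positivity) hy) hxy
      rw [abs_of_nonneg (by linarith), abs_of_nonneg (by linarith)]
      exact key x y hx hy hxy
    · have hlog : Real.log x ≤ Real.log y := Real.log_le_log (lt_of_lt_of_le (by positivity) hx) hxy
      rw [abs_sub_comm, abs_sub_comm x y, abs_of_nonneg (by linarith), abs_of_nonneg (by linarith)]
      exact key y x hy hx hxy
  have s1 := hs2_comm_cfc_le (M := cfc Real.log Y) hX (f := Real.log) (L := 2 * b)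
    (fun x hx y hy => hlip x y (h1 x hx) (h1 y hy))
  have s2 := hs2_comm_cfc_le (M := X) hY (f := Real.log) (L := 2 * b)
    (fun x hx y hy => hlip x y (h2 x hx) (h2 y hy))
  rw [E04_hs2_comm] at s2
  rw [E04_hs2_comm (Y * X)] at s2
  calc _ ≤ (2 * b) ^ 2 * hs2 (X * cfc Real.log Y - cfc Real.log Y * X) := s1
    _ ≤ (2 * b) ^ 2 * ((2 * b) ^ 2 * hs2 (X * Y - Y * X)) :=
        mul_le_mul_of_nonneg_left s2 (by positivity)
    _ = _ := by ring

set_option maxHeartbeats 2000000 in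
theorem hj_deriv_stab {α : ℝ} (hα : 0 < α) {κ : ℝ} (hκ : 0 ≤ κ) :
    ∃ c : ℝ, 0 < c ∧ ∀ (N : ℕ) (K F V : Mt N), Adm K F → V.PosSemidef →
      (((κ : ℝ) : ℂ) • (1 : Mt N) - K).PosSemidef → ∀ q ∈ Icc (1 : ℝ) 2,
      ∃ D' : ℝ, HasDerivAt (fun q : ℝ => q ^ α * Ecal K F q) D' q ∧
        D' + c * hjErr α K F V ≤ α * q ^ (α - 1) * (tr ((K * K - F * F - V) * zq K F q)
          + (1 / α + 1) * tr (cfc (hfun q) ((((1 / α + 1)⁻¹ : ℝ) : ℂ) • V))) := by
  obtain ⟨b, hb⟩ : ∃ b : ℝ, b = Real.sqrt (κ ^ 2 + 2) := ⟨_, rfl⟩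
  have hb0 : 0 < b := by rw [hb]; exact T10_sqrt_pos two_pos κ
  have hb2 : b ^ 2 = κ ^ 2 + 2 := by rw [hb]; exact Real.sq_sqrt (by positivity)
  have hb1 : 1 ≤ b := by
    by_contra hcon
    have h1 : b ^ 2 < 1 := by
      have := pow_lt_pow_left₀ (not_le.1 hcon) hb0.le two_ne_zero
      simpa using this
    have h2 : 0 ≤ κ ^ 2 := sq_nonneg κ
    linarith
  obtain ⟨C₂, hC₂, hE02⟩ := hs2_exp_add_sub_le (Real.log (2 * b))
  obtain ⟨s, hs⟩ : ∃ s : ℝ, s = 1 / α + 1 := ⟨_, rfl⟩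
  have hs0 : 0 < s := by rw [hs]; positivity
  have hs1 : 1 ≤ s := by rw [hs]; have : 0 < 1 / α := by positivity
                         linarith
  set C₃ : ℝ := C₂ * (((2 * b) ^ 2) ^ 2 * 4) with hC₃
  have hC₃0 : 0 ≤ C₃ := by positivity
  set CM : ℝ := 4 * b ^ 2 + 2 with hCM
  have hCM0 : 0 < CM := by positivity
  set c₁ : ℝ := (α * (1 / 2) * s / (2 * CM)) / (2 * s ^ 2) with hc₁
  set c₂ : ℝ := (1 / (24 * b ^ 4)) / ((2 * b) ^ 2 + 4 * s ^ 2 * (C₃ + 1)) with hc₂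
  have hc₁0 : 0 < c₁ := by positivity
  have hc₂0 : 0 < c₂ := by positivity
  refine ⟨min c₁ c₂, lt_min hc₁0 hc₂0, ?_⟩
  intro N K F V h hV hK q hq
  have hq0 : 0 < q := by linarith [hq.1]
  have hKh := h.isHermitian_K
  have hFh := h.isHermitian_F
  have hKqh : (Kq K q).IsHermitian := Kq_isHermitian K q
  obtain ⟨bK, bX, bY⟩ := E04_bounds h hκ hK hq hb
  have htr := E04_tr_nonneg hV
  set X := Kq K q - F with hX
  set Y := Kq K q + F with hY
  have hXh : X.IsHermitian := hKqh.sub hFh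
  have hYh : Y.IsHermitian := hKqh.add hFh
  have hXp : X.PosDef := Kq_sub_posDef h hq0
  have hYp : Y.PosDef := Kq_add_posDef h hq0
  set M : ℝ := CM * (1 + tr V) with hM
  have hM0 : 0 < M := by positivity
  have hM1 : CM ≤ M := le_mul_of_one_le_right hCM0.le (by linarith)
  have hM2 : 2 * (1 + tr V) ≤ M := by
    refine mul_le_mul_of_nonneg_right ?_ (by linarith)
    have : 0 < b ^ 2 := by positivity
    rw [hCM]
    linarith
  -- spectral bounds of logs
  have hlogb : 0 ≤ Real.log (2 * b) := Real.log_nonneg (by linarith)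
  have blog : ∀ x : ℝ, 1 / (2 * b) ≤ x ∧ x ≤ 2 * b → |Real.log x| ≤ Real.log (2 * b) := by
    intro x hx
    have hx0 : 0 < x := lt_of_lt_of_le (by positivity) hx.1
    rw [abs_le]
    constructor
    · have := Real.log_le_log (by positivity) hx.1
      rw [one_div, Real.log_inv] at this
      exact this
    · exact Real.log_le_log hx0 hx.2
  have bA : ∀ x ∈ spectrum ℝ (cfc Real.log X), |x| ≤ Real.log (2 * b) := by
    intro y hy
    obtain ⟨x, hx, rfl⟩ := E04_spec_cfc hXh _ hy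
    exact blog x (bX x hx)
  have bB : ∀ x ∈ spectrum ℝ (cfc Real.log Y), |x| ≤ Real.log (2 * b) := by
    intro y hy
    obtain ⟨x, hx, rfl⟩ := E04_spec_cfc hYh _ hy
    exact blog x (bY x hx)
  have hAh : (cfc Real.log X).IsHermitian := _root_.LT.cfc_hermitian _ _
  have hBh : (cfc Real.log Y).IsHermitian := _root_.LT.cfc_hermitian _ _
  -- the bound for the spectrum of `Z`
  have bZ : ∀ x ∈ spectrum ℝ (cfc Real.exp (cfc Real.log X + cfc Real.log Y)), x ≤ M := by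
    intro y hy
    obtain ⟨x, hx, rfl⟩ := E04_spec_cfc (hAh.add hBh) _ hy
    have e1 : x ≤ 2 * Real.log (2 * b) := by
      refine E04_spec_le (hAh.add hBh) ?_ x hx
      have e2 := (E04_psd_of_spec_le hAh fun x hx => (abs_le.1 (bA x hx)).2).add
        (E04_psd_of_spec_le hBh fun x hx => (abs_le.1 (bB x hx)).2)
      have e3 : Real.log (2 * b) • (1 : Mt N) - cfc Real.log X +
          (Real.log (2 * b) • (1 : Mt N) - cfc Real.log Y) =
          (2 * Real.log (2 * b)) • (1 : Mt N) - (cfc Real.log X + cfc Real.log Y) := by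
        rw [two_mul (Real.log (2 * b)), add_smul]; abel
      rwa [e3] at e2
    have e2 : Real.exp x ≤ (2 * b) ^ 2 := by
      calc Real.exp x ≤ Real.exp (2 * Real.log (2 * b)) := Real.exp_le_exp.2 e1
        _ = (2 * b) ^ 2 := by
          rw [two_mul (Real.log (2 * b)), Real.exp_add, Real.exp_log (by positivity)]; ring
    have e4 : (2 * b) ^ 2 = 4 * b ^ 2 := by ring
    rw [e4] at e2
    rw [hCM] at hM1
    linarith
  have hsV : ∀ x ∈ spectrum ℝ ((((1 / α + 1)⁻¹ : ℝ) : ℂ) • V + ((q : ℝ) : ℂ) • (1 : Mt N)), x ≤ M := by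
    rw [← hs]
    have hV' : (((s⁻¹ : ℝ) : ℂ) • V).PosSemidef := T18_smul_psd hV (by positivity)
    have e0 : ((((q : ℝ) : ℂ) • (1 : Mt N))).IsHermitian := by
      rw [T10_csmul]
      exact (Matrix.PosSemidef.one.smul hq0.le).1
    have e1 : ∀ x ∈ spectrum ℝ (((s⁻¹ : ℝ) : ℂ) • V), x ≤ tr V := by
      intro x hx
      have := E04_eig_le_tr hV' x hx
      rw [tr_csmul] at this
      have e2 : s⁻¹ ≤ 1 := inv_le_one_of_one_le₀ hs1
      exact this.trans (mul_le_of_le_one_left htr e2)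
    refine E04_spec_le (hV'.1.add e0) ?_
    have e2 := E04_psd_of_spec_le hV'.1 e1
    have e3 : ((M - tr V - q) • (1 : Mt N)).PosSemidef := by
      refine Matrix.PosSemidef.one.smul ?_
      linarith [hq.2]
    have e4 := e2.add e3
    have e5 : tr V • (1 : Mt N) - ((s⁻¹ : ℝ) : ℂ) • V + (M - tr V - q) • (1 : Mt N) =
        M • (1 : Mt N) - (((s⁻¹ : ℝ) : ℂ) • V + ((q : ℝ) : ℂ) • (1 : Mt N)) := by
      rw [T10_csmul q, sub_smul, sub_smul]; abel
    rwa [e5] at e4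
  obtain ⟨D', hD', hle⟩ := E04_deriv hα hκ h hV hK hq0 hM0 hsV bZ
  refine ⟨D', hD', le_trans ?_ hle⟩
  rw [← hs]
  set Z := cfc Real.exp (cfc Real.log X + cfc Real.log Y) with hZ
  set D := ((s⁻¹ : ℝ) : ℂ) • V + ((q : ℝ) : ℂ) • (1 : Mt N) with hD
  set H := hs2 (Kq K q * F - F * Kq K q) with hH
  have hH0 : 0 ≤ H := E04_hs2_nonneg _
  have hG0 : 0 ≤ hs2 (D - Z) := E04_hs2_nonneg _
  -- bounds
  have hcomm : X * Y - Y * X = ((2 : ℝ) : ℂ) • (Kq K q * F - F * Kq K q) := by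
    rw [T10_csmul, hX, hY, two_smul]; noncomm_ring
  have hXY : hs2 (X * Y - Y * X) = 4 * H := by
    rw [hcomm, E04_hs2_smul]; ring
  have hexpX : cfc Real.exp (cfc Real.log X) = X := by
    have e1 : cfc Real.exp (cfc Real.log X) = cfc (fun x => Real.exp (Real.log x)) X := by
      have := cfc_comp' Real.exp Real.log X
        (hg := by exact Real.continuous_exp.continuousOn) (hf := _root_.LT.contOn_spec hXh _) (ha := hXh)
      rw [this]
    rw [e1]
    conv_rhs => rw [← _root_.LT.cfc_id_eq hXh]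
    exact _root_.LT.cfc_congr_eigen hXh fun i => Real.exp_log (hXp.eigenvalues_pos i)
  have hexpY : cfc Real.exp (cfc Real.log Y) = Y := by
    have e1 : cfc Real.exp (cfc Real.log Y) = cfc (fun x => Real.exp (Real.log x)) Y := by
      have := cfc_comp' Real.exp Real.log Y
        (hg := by exact Real.continuous_exp.continuousOn) (hf := _root_.LT.contOn_spec hYh _) (ha := hYh)
      rw [this]
    rw [e1]
    conv_rhs => rw [← _root_.LT.cfc_id_eq hYh]
    exact _root_.LT.cfc_congr_eigen hYh fun i => Real.exp_log (hYp.eigenvalues_pos i)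
  have hZXY : hs2 (Z - X * Y) ≤ C₃ * H := by
    have e1 := hE02 N _ _ hAh hBh bA bB
    rw [hexpX, hexpY, ← hZ] at e1
    have e2 := E04_comm hXh hYh hb0 (fun x hx => (bX x hx).1) (fun x hx => (bY x hx).1)
    rw [hXY] at e2
    calc hs2 (Z - X * Y) ≤ _ := e1
      _ ≤ C₂ * (((2 * b) ^ 2) ^ 2 * (4 * H)) := mul_le_mul_of_nonneg_left e2 hC₂
      _ = C₃ * H := by rw [hC₃]; ring
  have hKF : hs2 (K * K * F - F * (K * K)) ≤ (2 * b) ^ 2 * H := by
    have e1 := hs2_comm_cfc_le (M := F) hKqh (f := fun x => x * x) (L := 2 * b) (by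
      intro x hx y hy
      have a1 := bK x hx
      have a2 := bK y hy
      have a3 : x * x - y * y = (x + y) * (x - y) := by ring
      simp only [a3, abs_mul]
      refine mul_le_mul_of_nonneg_right ?_ (abs_nonneg _)
      rw [abs_of_nonneg (by linarith)]
      linarith)
    have e2 : cfc (fun x : ℝ => x * x) (Kq K q) = K * K + ((q : ℝ) : ℂ) • (1 : Mt N) := by
      rw [← _root_.LT.cfc_mul_eq hKqh, _root_.LT.cfc_id_eq hKqh, Kq_mul_self hKh hq0.le]
    have e3 : (K * K + ((q : ℝ) : ℂ) • (1 : Mt N)) * F - F * (K * K + ((q : ℝ) : ℂ) • (1 : Mt N)) =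
        K * K * F - F * (K * K) := by
      rw [add_mul, mul_add, smul_mul_assoc, mul_smul_comm, one_mul, mul_one]; abel
    rw [e2, e3] at e1
    exact e1
  have hvErr : vErr α K F V = ((s : ℝ) : ℂ) • (D - Z) +
      (((s : ℝ) : ℂ) • (Z - X * Y) + ((s : ℝ) : ℂ) • (Kq K q * F - F * Kq K q)) := by
    have e1 : X * Y = Kq K q * Kq K q - F * F + (Kq K q * F - F * Kq K q) := by
      rw [hX, hY]; noncomm_ring
    have e2 : V = ((s : ℝ) : ℂ) • (((s⁻¹ : ℝ) : ℂ) • V) := by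
      rw [smul_smul, ← Complex.ofReal_mul, mul_inv_cancel₀ hs0.ne', Complex.ofReal_one, one_smul]
    have e3 := Kq_mul_self hKh hq0.le
    unfold vErr
    rw [← hs, ← smul_add, ← smul_add, e1, e3, hD]
    conv_lhs => rw [e2]
    rw [← smul_sub]
    congr 1
    abel
  have hvErr2 : hs2 (vErr α K F V) ≤ 2 * s ^ 2 * hs2 (D - Z) + 4 * s ^ 2 * (C₃ + 1) * H := by
    rw [hvErr]
    have e1 := hs2_add_le (((s : ℝ) : ℂ) • (D - Z))
      (((s : ℝ) : ℂ) • (Z - X * Y) + ((s : ℝ) : ℂ) • (Kq K q * F - F * Kq K q))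
    have e2 := hs2_add_le (((s : ℝ) : ℂ) • (Z - X * Y)) (((s : ℝ) : ℂ) • (Kq K q * F - F * Kq K q))
    rw [E04_hs2_smul] at e1
    rw [E04_hs2_smul, E04_hs2_smul, ← hH] at e2
    have hs2pos : 0 ≤ s ^ 2 := by positivity
    have e3 := mul_le_mul_of_nonneg_left hZXY hs2pos
    have e4 : 4 * s ^ 2 * (C₃ + 1) * H = 4 * (s ^ 2 * (C₃ * H)) + 4 * (s ^ 2 * H) := by ring
    rw [e4]
    linarith
  -- the final estimate
  have htr1 : 1 ≤ 1 + tr V := by linarith
  have hv3 : hs2 (vErr α K F V) / (1 + tr V) ≤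
      2 * s ^ 2 * (hs2 (D - Z) / (1 + tr V)) + 4 * s ^ 2 * (C₃ + 1) * H := by
    rw [div_le_iff₀ (by positivity)]
    have e1 : (2 * s ^ 2 * (hs2 (D - Z) / (1 + tr V)) + 4 * s ^ 2 * (C₃ + 1) * H) * (1 + tr V) =
        2 * s ^ 2 * hs2 (D - Z) + 4 * s ^ 2 * (C₃ + 1) * H * (1 + tr V) := by
      field_simp
    rw [e1]
    have e2 : 4 * s ^ 2 * (C₃ + 1) * H ≤ 4 * s ^ 2 * (C₃ + 1) * H * (1 + tr V) :=
      le_mul_of_one_le_right (by positivity) htr1
    linarith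
  have hq1 : 1 ≤ q ^ α := Real.one_le_rpow hq.1 hα.le
  have hq2 : 1 / 2 ≤ q ^ (α - 1) := by
    rw [Real.rpow_sub_one hq0.ne', div_le_div_iff₀ two_pos hq0]
    linarith [hq.2]
  have f1 : H / (24 * b ^ 4) ≤ q ^ α * (H / (24 * (κ ^ 2 + q) ^ 2)) := by
    have g1 : H / (24 * b ^ 4) ≤ H / (24 * (κ ^ 2 + q) ^ 2) := by
      apply div_le_div_of_nonneg_left hH0 (by positivity)
      have : (κ ^ 2 + q) ^ 2 ≤ (b ^ 2) ^ 2 := by
        rw [hb2]
        apply pow_le_pow_left₀ (by positivity)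
        linarith [hq.2]
      have e4 : (b ^ 2) ^ 2 = b ^ 4 := by ring
      rw [e4] at this
      linarith
    have g2 : 0 ≤ H / (24 * (κ ^ 2 + q) ^ 2) := by positivity
    exact g1.trans (le_mul_of_one_le_left g2 hq1)
  have f2 : α * (1 / 2) * (s * (hs2 (D - Z) / (2 * M))) ≤
      α * q ^ (α - 1) * (s * (hs2 (D - Z) / (2 * M))) := by
    apply mul_le_mul_of_nonneg_right _ (by positivity)
    exact mul_le_mul_of_nonneg_left hq2 hα.le
  have f3 : min c₁ c₂ * hjErr α K F V ≤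
      H / (24 * b ^ 4) + α * (1 / 2) * (s * (hs2 (D - Z) / (2 * M))) := by
    have g0 : hjErr α K F V ≤ ((2 * b) ^ 2 + 4 * s ^ 2 * (C₃ + 1)) * H +
        2 * s ^ 2 * (hs2 (D - Z) / (1 + tr V)) := by
      unfold hjErr
      linarith
    have g1 : min c₁ c₂ * hjErr α K F V ≤
        min c₁ c₂ * (((2 * b) ^ 2 + 4 * s ^ 2 * (C₃ + 1)) * H +
        2 * s ^ 2 * (hs2 (D - Z) / (1 + tr V))) :=
      mul_le_mul_of_nonneg_left g0 (lt_min hc₁0 hc₂0).le
    have g2 : min c₁ c₂ * (((2 * b) ^ 2 + 4 * s ^ 2 * (C₃ + 1)) * H) ≤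
        c₂ * (((2 * b) ^ 2 + 4 * s ^ 2 * (C₃ + 1)) * H) :=
      mul_le_mul_of_nonneg_right (min_le_right _ _) (by positivity)
    have g3 : min c₁ c₂ * (2 * s ^ 2 * (hs2 (D - Z) / (1 + tr V))) ≤
        c₁ * (2 * s ^ 2 * (hs2 (D - Z) / (1 + tr V))) :=
      mul_le_mul_of_nonneg_right (min_le_left _ _) (by positivity)
    have g4 : c₂ * (((2 * b) ^ 2 + 4 * s ^ 2 * (C₃ + 1)) * H) = H / (24 * b ^ 4) := by
      rw [hc₂]
      have : (2 * b) ^ 2 + 4 * s ^ 2 * (C₃ + 1) ≠ 0 := by positivity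
      field_simp
    have g5 : c₁ * (2 * s ^ 2 * (hs2 (D - Z) / (1 + tr V))) =
        α * (1 / 2) * (s * (hs2 (D - Z) / (2 * M))) := by
      rw [hc₁, hM]
      field_simp
    linarith
  linarith

end Crest.Agent.LT
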