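import Crest.Agent.LT_Defs
import Crest.Agent.LT_T01
import Crest.Agent.LT_T12
/-!
Task LT-T14: `E(q) → 0` as `q → ∞`.  With `e = q^{-1/2}`: `q^{-1/2} X = 1 - eF + e²K²/2 + O(e⁴)`,
`log (1 + M) = M - M²/2 + O(‖M‖³)`, so `z_q = e² (K² - F²) + O(e³)`, and
`E = tr (S z) + q tr z - tr S → 0`.  (For Hermitian `M` with `-1/2 ≤ M ≤ 1/2`: `‖log(1+M) - M + M²/2‖ ≤ C‖M‖³`, from the
scalar inequality by `cfc`; only traces and a crude operator bound for `z_q` are needed: `tr z_q = e² tr S + O(e³)` and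
`z_q → 0`.)
-/

set_option autoImplicit false

namespace Crest.Agent.LT

open MeasureTheory Matrix Set Filter
open Crest.MathPhysics.LiebThirring
open scoped ComplexOrder Topology

theorem T14_cfc_const {N : ℕ} {A : Mt N} (hA : A.IsHermitian) (r : ℝ) :
    cfc (fun _ : ℝ => r) A = ((r : ℝ) : ℂ) • (1 : Mt N) := by
  have h := _root_.LT.cfc_eq_conj hA (fun _ : ℝ => r)
  have h2 : (diagonal (fun _ : Fin N => ((r : ℝ) : ℂ))) = ((r : ℝ) : ℂ) • (1 : Mt N) := by
    rw [Matrix.smul_one_eq_diagonal]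
  rw [h2, mul_smul_comm, mul_one, smul_mul_assoc, _root_.LT.U_mul_conj hA] at h
  exact h

theorem T14_tr_smul {N : ℕ} (r : ℝ) (A : Mt N) : tr (((r : ℝ) : ℂ) • A) = r * tr A := by
  simp [tr, Matrix.trace_smul]

theorem T14_tr_sq_nonneg {N : ℕ} {H : Mt N} (hH : H.IsHermitian) : 0 ≤ tr (H * H) := by
  have : tr (H * H) = hs2 H := by rw [hs2_eq_tr, hH]
  rw [this]; unfold hs2; positivity

theorem T14_cs {N : ℕ} {S Z : Mt N} (hS : S.IsHermitian) (hZ : Z.IsHermitian) {u : ℝ} (hu : 0 < u) :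
    |tr (S * Z)| ≤ (tr (S * S) / u + u * tr (Z * Z)) / 2 := by
  have key : ∀ ε : ℝ, ε ^ 2 = 1 → 0 ≤ tr (S * S) + ε * (2 * u) * tr (S * Z) + u ^ 2 * tr (Z * Z) := by
    intro ε hε
    have hH : (S + (((ε * u : ℝ)) : ℂ) • Z).IsHermitian := by
      apply hS.add
      unfold Matrix.IsHermitian
      rw [conjTranspose_smul, hZ]; simp
    have h := T14_tr_sq_nonneg hH
    have e : (S + (((ε * u : ℝ)) : ℂ) • Z) * (S + (((ε * u : ℝ)) : ℂ) • Z) =
        S * S + (((ε * u : ℝ)) : ℂ) • (S * Z) + ((((ε * u : ℝ)) : ℂ) • (Z * S)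
          + (((ε * u) ^ 2 : ℝ) : ℂ) • (Z * Z)) := by
      rw [add_mul, mul_add, mul_add, smul_mul_assoc, smul_mul_assoc, mul_smul_comm, mul_smul_comm,
        smul_smul]
      congr 3
      push_cast; ring
    rw [e, T01_tr_add, T01_tr_add, T01_tr_add, T14_tr_smul, T14_tr_smul, T14_tr_smul,
      T01_tr_comm Z S] at h
    have h2 : (ε * u) ^ 2 = u ^ 2 := by rw [mul_pow, hε, one_mul]
    rw [h2] at h
    linarith
  have h1 := key 1 (by norm_num)
  have h2 := key (-1) (by norm_num)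
  have e : (tr (S * S) / u + u * tr (Z * Z)) / 2 = (tr (S * S) + u ^ 2 * tr (Z * Z)) / (2 * u) := by
    field_simp
  rw [e, le_div_iff₀ (by positivity), ← abs_of_pos (by positivity : 0 < 2 * u), ← abs_mul, abs_le]
  constructor <;> linarith

theorem T14_log1 {x : ℝ} (hx : |x| ≤ 1/2) : |Real.log (1 + x)| ≤ 2 * |x| := by
  have h := Real.abs_log_sub_add_sum_range_le (x := -x) (by rw [abs_neg]; linarith) 0
  simp only [Finset.range_zero, Finset.sum_empty, zero_add, sub_neg_eq_add, abs_neg, pow_one] at h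
  refine h.trans ?_
  rw [div_le_iff₀ (by linarith)]
  nlinarith [abs_nonneg x]

theorem T14_log2 {x : ℝ} (hx : |x| ≤ 1/2) :
    |Real.log (1 + x) - x + x ^ 2 / 2| ≤ 2 * |x| ^ 3 := by
  have h := Real.abs_log_sub_add_sum_range_le (x := -x) (by rw [abs_neg]; linarith) 2
  simp only [Finset.sum_range_succ, Finset.range_zero, Finset.sum_empty, zero_add, sub_neg_eq_add,
    abs_neg] at h
  norm_num at h
  have e : Real.log (1 + x) - x + x ^ 2 / 2 = -x + x ^ 2 / 2 + Real.log (1 + x) := by ring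
  rw [e]
  refine h.trans ?_
  rw [div_le_iff₀ (by linarith)]
  have : 0 ≤ |x| ^ 3 := by positivity
  nlinarith

/-- basic estimate for one matrix -/
theorem T14_single {N : ℕ} {X : Mt N} (hX : X.IsHermitian) {u C : ℝ} (hu : 0 < u) (hC : 0 ≤ C)
    (hCu : 4 * C ≤ u ^ 2)
    (h : tr ((X - ((u : ℝ) : ℂ) • (1 : Mt N)) * (X - ((u : ℝ) : ℂ) • (1 : Mt N))) ≤ C) :
    tr ((cfc Real.log X - ((Real.log u : ℝ) : ℂ) • (1 : Mt N)) *
        (cfc Real.log X - ((Real.log u : ℝ) : ℂ) • (1 : Mt N))) ≤ 4 * C / u ^ 2 ∧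
    |tr (cfc Real.log X - ((Real.log u : ℝ) : ℂ) • (1 : Mt N))
      - tr (X - ((u : ℝ) : ℂ) • (1 : Mt N)) / u
      + tr ((X - ((u : ℝ) : ℂ) • (1 : Mt N)) * (X - ((u : ℝ) : ℂ) • (1 : Mt N))) / (2 * u ^ 2)|
      ≤ 2 * C * √C / u ^ 3 := by
  have e1 : X - ((u : ℝ) : ℂ) • (1 : Mt N) = cfc (fun t : ℝ => t - u) X := by
    rw [← _root_.LT.cfc_sub_eq hX (fun t => t) (fun _ => u), T14_cfc_const hX u,
      _root_.LT.cfc_id_eq hX]
  have e2 : cfc Real.log X - ((Real.log u : ℝ) : ℂ) • (1 : Mt N) =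
      cfc (fun t : ℝ => Real.log t - Real.log u) X := by
    rw [← _root_.LT.cfc_sub_eq hX Real.log (fun _ => Real.log u), T14_cfc_const hX (Real.log u)]
  have s1 : tr ((X - ((u : ℝ) : ℂ) • (1 : Mt N)) * (X - ((u : ℝ) : ℂ) • (1 : Mt N)))
      = ∑ i, (hX.eigenvalues i - u) ^ 2 := by
    rw [e1, _root_.LT.cfc_mul_eq hX, tr_cfc hX]
    exact Finset.sum_congr rfl fun i _ => by ring
  have s2 : tr (X - ((u : ℝ) : ℂ) • (1 : Mt N)) = ∑ i, (hX.eigenvalues i - u) := by
    rw [e1, tr_cfc hX]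
  have s3 : tr ((cfc Real.log X - ((Real.log u : ℝ) : ℂ) • (1 : Mt N)) *
        (cfc Real.log X - ((Real.log u : ℝ) : ℂ) • (1 : Mt N)))
      = ∑ i, (Real.log (hX.eigenvalues i) - Real.log u) ^ 2 := by
    rw [e2, _root_.LT.cfc_mul_eq hX, tr_cfc hX]
    exact Finset.sum_congr rfl fun i _ => by ring
  have s4 : tr (cfc Real.log X - ((Real.log u : ℝ) : ℂ) • (1 : Mt N))
      = ∑ i, (Real.log (hX.eigenvalues i) - Real.log u) := by
    rw [e2, tr_cfc hX]
  rw [s1] at h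
  rw [s1, s2, s3, s4]
  set x : Fin N → ℝ := fun i => (hX.eigenvalues i - u) / u with hx
  have hxu : ∀ i, hX.eigenvalues i - u = u * x i := by
    intro i; rw [hx]; field_simp
  have hsq : √C ≤ u / 2 := by
    rw [Real.sqrt_le_left (by positivity)]; nlinarith
  have habs : ∀ i, |u * x i| ≤ √C := by
    intro i
    apply Real.abs_le_sqrt
    rw [← hxu i]
    exact (Finset.single_le_sum (f := fun i => (hX.eigenvalues i - u) ^ 2)
      (fun j _ => sq_nonneg _) (Finset.mem_univ i)).trans h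
  have hx1 : ∀ i, |x i| ≤ √C / u := by
    intro i
    have := habs i
    rw [abs_mul, abs_of_pos hu] at this
    rw [le_div_iff₀ hu]; linarith
  have hx2 : ∀ i, |x i| ≤ 1 / 2 := by
    intro i
    refine (hx1 i).trans ?_
    rw [div_le_iff₀ hu]; linarith
  have hlog : ∀ i, Real.log (hX.eigenvalues i) - Real.log u = Real.log (1 + x i) := by
    intro i
    have h1 : hX.eigenvalues i = u * (1 + x i) := by have := hxu i; linarith
    have h2 : 0 < 1 + x i := by have := (abs_le.1 (hx2 i)).1; linarith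
    rw [h1, Real.log_mul hu.ne' h2.ne']; ring
  have hS : ∑ i, x i ^ 2 ≤ C / u ^ 2 := by
    rw [le_div_iff₀ (by positivity), Finset.sum_mul]
    refine le_trans (le_of_eq ?_) h
    refine Finset.sum_congr rfl fun i _ => ?_
    rw [hxu i]; ring
  constructor
  · calc ∑ i, (Real.log (hX.eigenvalues i) - Real.log u) ^ 2 ≤ ∑ i, 4 * x i ^ 2 := by
          refine Finset.sum_le_sum fun i _ => ?_
          rw [hlog i, ← sq_abs (Real.log (1 + x i)), ← sq_abs (x i)]
          have h1 := T14_log1 (hx2 i)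
          nlinarith [abs_nonneg (Real.log (1 + x i)), abs_nonneg (x i)]
      _ = 4 * ∑ i, x i ^ 2 := by rw [Finset.mul_sum]
      _ ≤ 4 * (C / u ^ 2) := by linarith
      _ = 4 * C / u ^ 2 := by ring
  · have e3 : (∑ i, (Real.log (hX.eigenvalues i) - Real.log u)) - (∑ i, (hX.eigenvalues i - u)) / u
        + (∑ i, (hX.eigenvalues i - u) ^ 2) / (2 * u ^ 2)
        = ∑ i, (Real.log (1 + x i) - x i + x i ^ 2 / 2) := by
      rw [Finset.sum_div, Finset.sum_div, ← Finset.sum_sub_distrib, ← Finset.sum_add_distrib]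
      refine Finset.sum_congr rfl fun i _ => ?_
      rw [hlog i, hxu i]
      field_simp
    rw [e3]
    calc |∑ i, (Real.log (1 + x i) - x i + x i ^ 2 / 2)|
        ≤ ∑ i, |Real.log (1 + x i) - x i + x i ^ 2 / 2| := Finset.abs_sum_le_sum_abs _ _
      _ ≤ ∑ i, 2 * (√C / u) * x i ^ 2 := by
          refine Finset.sum_le_sum fun i _ => ?_
          refine (T14_log2 (hx2 i)).trans ?_
          have h3 : |x i| ^ 3 = |x i| * x i ^ 2 := by rw [← sq_abs (x i)]; ring
          rw [h3]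
          have h4 := mul_le_mul_of_nonneg_right (hx1 i) (sq_nonneg (x i))
          linarith
      _ = 2 * (√C / u) * ∑ i, x i ^ 2 := by rw [Finset.mul_sum]
      _ ≤ 2 * (√C / u) * (C / u ^ 2) := by
          apply mul_le_mul_of_nonneg_left hS; positivity
      _ = 2 * C * √C / u ^ 3 := by field_simp

/-- `tr (K_q - √q)² ≤ tr K⁴ / (4 q)` -/
theorem T14_D {N : ℕ} {K : Mt N} (hK : K.IsHermitian) : ∃ c : ℝ, 0 ≤ c ∧ ∀ q : ℝ, 0 < q →
    tr ((Kq K q - ((√q : ℝ) : ℂ) • (1 : Mt N)) * (Kq K q - ((√q : ℝ) : ℂ) • (1 : Mt N)))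
      ≤ c / q := by
  refine ⟨∑ i, (hK.eigenvalues i) ^ 4, by positivity, ?_⟩
  intro q hq
  have hs : 0 < √q := Real.sqrt_pos.2 hq
  have hs2 : √q * √q = q := Real.mul_self_sqrt hq.le
  have e1 : Kq K q - ((√q : ℝ) : ℂ) • (1 : Mt N) = cfc (fun t : ℝ => √(t ^ 2 + q) - √q) K := by
    unfold Kq
    rw [← _root_.LT.cfc_sub_eq hK (fun t : ℝ => √(t ^ 2 + q)) (fun _ => √q), T14_cfc_const hK (√q)]
  rw [e1, _root_.LT.cfc_mul_eq hK, tr_cfc hK, Finset.sum_div]
  refine Finset.sum_le_sum fun i _ => ?_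
  set t := hK.eigenvalues i
  have h1 : 0 ≤ √(t ^ 2 + q) := Real.sqrt_nonneg _
  have h2 : √(t ^ 2 + q) * √(t ^ 2 + q) = t ^ 2 + q := Real.mul_self_sqrt (by positivity)
  have h3 : √q ≤ √(t ^ 2 + q) := Real.sqrt_le_sqrt (by nlinarith [sq_nonneg t])
  have h4 : (√(t ^ 2 + q) - √q) * (√(t ^ 2 + q) + √q) = t ^ 2 := by nlinarith
  have h5 : (√(t ^ 2 + q) - √q) * √q ≤ t ^ 2 := by nlinarith
  have h6 : 0 ≤ (√(t ^ 2 + q) - √q) * √q := mul_nonneg (by linarith) hs.le
  rw [le_div_iff₀ hq]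
  calc (√(t ^ 2 + q) - √q) * (√(t ^ 2 + q) - √q) * q
      = ((√(t ^ 2 + q) - √q) * √q) ^ 2 := by
        have e : ((√(t ^ 2 + q) - √q) * √q) ^ 2
          = (√(t ^ 2 + q) - √q) * (√(t ^ 2 + q) - √q) * (√q * √q) := by ring
        rw [e, hs2]
    _ ≤ (t ^ 2) ^ 2 := by nlinarith
    _ = t ^ 4 := by ring

theorem T14_bound {N : ℕ} {K F : Mt N} (h : Adm K F) {c C : ℝ} (hc : 0 ≤ c)
    (hD : ∀ q : ℝ, 0 < q →
      tr ((Kq K q - ((√q : ℝ) : ℂ) • (1 : Mt N)) * (Kq K q - ((√q : ℝ) : ℂ) • (1 : Mt N))) ≤ c / q)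
    (hC : C = 2 * c + 2 * tr (F * F)) {q : ℝ} (hq1 : 1 ≤ q) (hqC : 4 * C ≤ q) :
    |Ecal K F q| ≤ (tr ((K * K - F * F) * (K * K - F * F)) + 4 * C + 4 * C * √C) / √q
      + 2 * c / q := by
  have hq : 0 < q := by linarith
  have hK := h.isHermitian_K
  have hF := h.isHermitian_F
  have hs : 0 < √q := Real.sqrt_pos.2 hq
  have hs2 : √q * √q = q := Real.mul_self_sqrt hq.le
  set u := √q with hu
  set U : Mt N := ((u : ℝ) : ℂ) • (1 : Mt N) with hU
  set D : Mt N := Kq K q - U with hDdef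
  set S : Mt N := K * K - F * F with hS
  have hf2 : 0 ≤ tr (F * F) := T14_tr_sq_nonneg hF
  have hC0 : 0 ≤ C := by rw [hC]; positivity
  have hUh : U.IsHermitian := by
    rw [hU]; unfold Matrix.IsHermitian; rw [conjTranspose_smul]; simp
  have hDh : D.IsHermitian := (Kq_isHermitian K q).sub hUh
  have hSh : S.IsHermitian := by
    have h1 : (K * K).IsHermitian := by
      unfold Matrix.IsHermitian; rw [conjTranspose_mul, hK]
    have h2 : (F * F).IsHermitian := by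
      unfold Matrix.IsHermitian; rw [conjTranspose_mul, hF]
    exact h1.sub h2
  have hDD := hD q hq
  have hDD1 : tr (D * D) ≤ c := by
    refine hDD.trans ?_
    rw [div_le_iff₀ hq]; nlinarith
  have hDD0 : 0 ≤ tr (D * D) := T14_tr_sq_nonneg hDh
  have hDF := T14_cs hDh hF (u := 1) one_pos
  rw [div_one, one_mul, abs_le] at hDF
  have hWX : Kq K q - F - U = D - F := by rw [hDdef]; abel
  have hWY : Kq K q + F - U = D + F := by rw [hDdef]; abel
  have tX : tr ((D - F) * (D - F)) = tr (D * D) - 2 * tr (D * F) + tr (F * F) := by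
    have e : (D - F) * (D - F) = D * D - D * F - (F * D - F * F) := by noncomm_ring
    rw [e, T01_tr_sub, T01_tr_sub, T01_tr_sub, T01_tr_comm F D]; ring
  have tY : tr ((D + F) * (D + F)) = tr (D * D) + 2 * tr (D * F) + tr (F * F) := by
    have e : (D + F) * (D + F) = D * D + D * F + (F * D + F * F) := by noncomm_ring
    rw [e, T01_tr_add, T01_tr_add, T01_tr_add, T01_tr_comm F D]; ring
  have hu2 : u ^ 2 = q := by rw [sq, hs2]
  have sX := T14_single (X := Kq K q - F) (Kq_sub_posDef h hq).isHermitian hs hC0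
    (by rw [hu2]; exact hqC) (by
      show tr ((Kq K q - F - U) * (Kq K q - F - U)) ≤ C
      rw [hWX, tX, hC]; linarith [hDF.1, hDF.2])
  have sY := T14_single (X := Kq K q + F) (Kq_add_posDef h hq).isHermitian hs hC0
    (by rw [hu2]; exact hqC) (by
      show tr ((Kq K q + F - U) * (Kq K q + F - U)) ≤ C
      rw [hWY, tY, hC]; linarith [hDF.1, hDF.2])
  rw [← hU, hWX, tX] at sX
  rw [← hU, hWY, tY] at sY
  set ZX : Mt N := cfc Real.log (Kq K q - F) - ((Real.log u : ℝ) : ℂ) • (1 : Mt N) with hZX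
  set ZY : Mt N := cfc Real.log (Kq K q + F) - ((Real.log u : ℝ) : ℂ) • (1 : Mt N) with hZY
  have hLh : (((Real.log u : ℝ) : ℂ) • (1 : Mt N)).IsHermitian := by
    unfold Matrix.IsHermitian; rw [conjTranspose_smul]; simp
  have hZXh : ZX.IsHermitian := (_root_.LT.cfc_hermitian _ _).sub hLh
  have hZYh : ZY.IsHermitian := (_root_.LT.cfc_hermitian _ _).sub hLh
  have hz : zq K F q = ZX + ZY := by
    have hl : Real.log q = Real.log u + Real.log u := by
      rw [hu, Real.log_sqrt hq.le]; ring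
    unfold zq
    rw [hZX, hZY, hl, Complex.ofReal_add, add_smul]
    abel
  have cX := T14_cs hSh hZXh hs
  have cY := T14_cs hSh hZYh hs
  have htrD : 2 * u * tr D = tr (K * K) - tr (D * D) := by
    have e : D * D = K * K - (((2 * u : ℝ)) : ℂ) • D := by
      have h1 := Kq_mul_self hK hq.le
      have h2 : Kq K q = D + U := by rw [hDdef]; abel
      have h3 : D * D = Kq K q * Kq K q - U * Kq K q - Kq K q * U + U * U := by
        rw [hDdef]; noncomm_ring
      have h4 : U * Kq K q = ((u : ℝ) : ℂ) • Kq K q := by rw [hU, smul_mul_assoc, one_mul]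
      have h5 : Kq K q * U = ((u : ℝ) : ℂ) • Kq K q := by rw [hU, mul_smul_comm, mul_one]
      have h6 : U * U = ((q : ℝ) : ℂ) • (1 : Mt N) := by
        rw [hU, smul_mul_assoc, one_mul, smul_smul, ← Complex.ofReal_mul, hs2]
      rw [h3, h4, h5, h6, h1, h2, smul_add, hU, smul_smul, ← Complex.ofReal_mul, hs2]
      have h7 : (((2 * u : ℝ)) : ℂ) • D = ((u : ℝ) : ℂ) • D + ((u : ℝ) : ℂ) • D := by
        rw [← add_smul]; congr 1; push_cast; ring
      rw [h7]
      abel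
    have e2 : tr (D * D) = tr (K * K) - 2 * u * tr D := by
      conv_lhs => rw [e]
      rw [T01_tr_sub, T14_tr_smul]
    linarith
  have hE : Ecal K F q = tr (S * ZX) + tr (S * ZY) + (q * (tr ZX + tr ZY) - tr S) := by
    unfold Ecal
    rw [hz, add_mul, smul_mul_assoc, one_mul, T01_tr_add, T14_tr_smul, T01_tr_add, mul_add,
      T01_tr_add]
    ring
  have hSt : tr S = tr (K * K) - tr (F * F) := T01_tr_sub _ _
  have hDmF : tr (D - F) = tr D - tr F := T01_tr_sub _ _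
  have hDpF : tr (D + F) = tr D + tr F := T01_tr_add _ _
  rw [hDmF] at sX
  rw [hDpF] at sY
  rw [hE]
  set R := 2 * C * √C / u ^ 3 with hR
  set EX := tr ZX - (tr D - tr F) / u + (tr (D * D) - 2 * tr (D * F) + tr (F * F)) / (2 * u ^ 2)
    with hEX
  set EY := tr ZY - (tr D + tr F) / u + (tr (D * D) + 2 * tr (D * F) + tr (F * F)) / (2 * u ^ 2)
    with hEY
  have key1 : q * (tr ZX + tr ZY) - tr S + 2 * tr (D * D) = u ^ 2 * (EX + EY) := by
    have e : u ^ 2 * (EX + EY) = u ^ 2 * (tr ZX + tr ZY) - 2 * u * tr D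
        + tr (D * D) + tr (F * F) := by
      rw [hEX, hEY]; field_simp; ring
    rw [e, htrD, hSt, hu2]; ring
  have key2 : |u ^ 2 * (EX + EY)| ≤ 4 * C * √C / u := by
    have h1 : |EX + EY| ≤ R + R := (abs_add_le _ _).trans (add_le_add sX.2 sY.2)
    rw [abs_mul, abs_of_pos (by positivity : 0 < u ^ 2)]
    calc u ^ 2 * |EX + EY| ≤ u ^ 2 * (R + R) := by gcongr
      _ = 4 * C * √C / u := by rw [hR]; field_simp; ring
  have key3 : ∀ Z : Mt N, |tr (S * Z)| ≤ (tr (S * S) / u + u * tr (Z * Z)) / 2 →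
      tr (Z * Z) ≤ 4 * C / u ^ 2 → |tr (S * Z)| ≤ (tr (S * S) + 4 * C) / (2 * u) := by
    intro Z h1 h2
    refine h1.trans ?_
    have h3 : u * tr (Z * Z) ≤ 4 * C / u := by
      calc u * tr (Z * Z) ≤ u * (4 * C / u ^ 2) := by gcongr
        _ = 4 * C / u := by field_simp
    calc (tr (S * S) / u + u * tr (Z * Z)) / 2 ≤ (tr (S * S) / u + 4 * C / u) / 2 := by linarith
      _ = (tr (S * S) + 4 * C) / (2 * u) := by field_simp
  have k1 := key3 ZX cX sX.1
  have k2 := key3 ZY cY sY.1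
  have hDD' : tr (D * D) ≤ c / q := hDD
  have e4 : (tr (S * S) + 4 * C + 4 * C * √C) / u + 2 * c / q
      = (tr (S * S) + 4 * C) / (2 * u) + (tr (S * S) + 4 * C) / (2 * u) + 4 * C * √C / u
        + 2 * (c / q) := by field_simp; ring
  rw [e4]
  rw [← key1] at key2
  rw [abs_le] at k1 k2 key2 ⊢
  constructor <;> linarith [k1.1, k1.2, k2.1, k2.2, key2.1, key2.2]

theorem Ecal_tendsto_zero {N : ℕ} {K F : Mt N} (h : Adm K F) :
    Tendsto (Ecal K F) atTop (𝓝 0) := by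
  obtain ⟨c, hc, hD⟩ := T14_D h.isHermitian_K
  set C := 2 * c + 2 * tr (F * F) with hC
  set A := tr ((K * K - F * F) * (K * K - F * F)) + 4 * C + 4 * C * √C with hA
  have hlim : Tendsto (fun q : ℝ => A / √q + 2 * c / q) atTop (𝓝 0) := by
    have h1 : Tendsto (fun q : ℝ => A / √q) atTop (𝓝 0) :=
      Real.tendsto_sqrt_atTop.const_div_atTop A
    have h2 : Tendsto (fun q : ℝ => 2 * c / q) atTop (𝓝 0) := tendsto_id.const_div_atTop (2 * c)
    simpa using h1.add h2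
  refine squeeze_zero_norm' ?_ hlim
  filter_upwards [eventually_ge_atTop 1, eventually_ge_atTop (4 * C)] with q hq1 hq2
  rw [Real.norm_eq_abs]
  exact T14_bound h hc hD hC hq1 hq2

end Crest.Agent.LT
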