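import Crest.Agent.LT_Defs
import Crest.Agent.LT_T10
import Crest.Agent.LT_T12
import Crest.Agent.LT_T14
/-!
Task LT-T15: `E ≥ 0`, since `E' ≤ tr z_q - tr S / q ≤ 0` and `E → 0` at infinity.
-/

set_option autoImplicit false

namespace Crest.Agent.LT

open MeasureTheory Matrix Set Filter
open Crest.MathPhysics.LiebThirring
open scoped ComplexOrder Topology

theorem Ecal_nonneg {N : ℕ} {K F : Mt N} (h : Adm K F) {q : ℝ} (hq : 0 < q) : 0 ≤ Ecal K F q := by
  have hanti : AntitoneOn (Ecal K F) (Ioi (0 : ℝ)) := by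
    apply antitoneOn_of_deriv_nonpos (convex_Ioi 0)
    · intro x hx
      obtain ⟨E', hE', -⟩ := Ecal_hasDerivAt' h (q := x) hx
      exact hE'.continuousAt.continuousWithinAt
    · intro x hx
      rw [interior_Ioi] at hx
      obtain ⟨E', hE', -⟩ := Ecal_hasDerivAt' h (q := x) hx
      exact hE'.differentiableAt.differentiableWithinAt
    · intro x hx
      rw [interior_Ioi] at hx
      have hx0 : (0 : ℝ) < x := hx
      obtain ⟨E', hE', hle⟩ := Ecal_hasDerivAt' h hx0
      rw [hE'.deriv]
      have h1 := tr_zq_le h hx0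
      have h2 : tr (zq K F x) ≤ tr (K * K - F * F) / x := by
        rw [le_div_iff₀ hx0]
        linarith
      linarith
  have hlim := Ecal_tendsto_zero h
  refine le_of_tendsto hlim ?_
  filter_upwards [eventually_ge_atTop q] with x hx
  exact hanti hq (lt_of_lt_of_le hq hx) hx

end Crest.Agent.LT
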