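import Crest.Agent.LT_Defs
import Crest.Agent.LT_T12
/-!
Task LT-T16: crude bound for `E(q)` as `q → 0`, uniform in `F`. `K_q ± F ≥ K_q - K ≥ c q` and
`K_q ± F ≤ C`, so the eigenvalues of `log (K_q ± F)` are `O(1 + |log q|)`.
-/

set_option autoImplicit false

namespace Crest.Agent.LT

open MeasureTheory Matrix Set Filter
open Crest.MathPhysics.LiebThirring
open scoped ComplexOrder Topology

section T16

open scoped Matrix.Norms.L2Operator MatrixOrder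

/-- the real trace as a continuous linear map -/
noncomputable def T16_trL {N : ℕ} : Mt N →ₗ[ℝ] ℝ where
  toFun := tr
  map_add' A B := by simp [tr, Matrix.trace_add]
  map_smul' r A := by simp [tr, Matrix.trace_smul]

theorem T16_tr_bound {N : ℕ} : ∃ T : ℝ, 0 ≤ T ∧ ∀ A : Mt N, |tr A| ≤ T * ‖A‖ := by
  refine ⟨‖LinearMap.toContinuousLinearMap (T16_trL (N := N))‖, norm_nonneg _, fun A => ?_⟩
  exact (LinearMap.toContinuousLinearMap (T16_trL (N := N))).le_opNorm A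

theorem T16_contOn {N : ℕ} {A : Mt N} (hA : A.IsHermitian) (f : ℝ → ℝ) :
    ContinuousOn f (spectrum ℝ A) := by
  rw [hA.spectrum_real_eq_range_eigenvalues]
  exact (Set.finite_range _).continuousOn f

theorem T16_spec_bounds {N : ℕ} {K F : Mt N} (h : Adm K F) {q : ℝ} (hq : 0 < q) (hq1 : q ≤ 1)
    (x : ℝ) (hx : x ∈ spectrum ℝ (Kq K q - F)) :
    q / (2 * ‖K‖ + 1) ≤ x ∧ x ≤ 2 * ‖K‖ + 1 := by
  have hK : IsSelfAdjoint K := h.isHermitian_K
  have hF : IsSelfAdjoint F := h.isHermitian_F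
  have hKq : IsSelfAdjoint (Kq K q) := Kq_isHermitian K q
  have hspec : ∀ t ∈ spectrum ℝ K, 0 ≤ t ∧ t ≤ ‖K‖ := by
    intro t ht
    refine ⟨?_, ?_⟩
    · have : (0 : Mt N) ≤ K := h.posSemidef.nonneg
      exact spectrum_nonneg_of_nonneg this ht
    · exact (le_algebraMap_iff_spectrum_le hK).1 hK.le_algebraMap_norm_self t ht
  have hlow : algebraMap ℝ (Mt N) (q / (2 * ‖K‖ + 1)) ≤ Kq K q - F := by
    have h1 : Kq K q - K ≤ Kq K q - F := by
      have : F ≤ K := by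
        rw [Matrix.le_iff]; exact h.sub
      exact sub_le_sub_left this _
    refine le_trans ?_ h1
    have h2 : Kq K q - K = cfc (fun t : ℝ => Real.sqrt (t ^ 2 + q) - t) K := by
      unfold Kq
      conv_lhs => rw [← cfc_id' ℝ K hK]
      rw [cfc_id' ℝ K hK]
      rw [cfc_sub (fun t : ℝ => Real.sqrt (t ^ 2 + q)) (fun t : ℝ => t) K (T16_contOn hK _)
        (T16_contOn hK _)]
      rw [cfc_id' ℝ K hK]
    rw [h2]
    apply algebraMap_le_cfc _ _ _ _ (T16_contOn hK _) hK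
    intro t ht
    obtain ⟨h0, h1⟩ := hspec t ht
    have hn : 0 ≤ ‖K‖ := norm_nonneg _
    have hs : Real.sqrt (t ^ 2 + q) ≤ t + 1 := by
      apply Real.sqrt_le_iff.2
      constructor
      · positivity
      · nlinarith
    have hs2 : Real.sqrt (t ^ 2 + q) ^ 2 = t ^ 2 + q := Real.sq_sqrt (by positivity)
    have hs0 : 0 ≤ Real.sqrt (t ^ 2 + q) := Real.sqrt_nonneg _
    have hst : t ≤ Real.sqrt (t ^ 2 + q) := Real.le_sqrt_of_sq_le (by linarith)
    rw [div_le_iff₀ (by positivity)]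
    nlinarith
  have hup : Kq K q - F ≤ algebraMap ℝ (Mt N) (2 * ‖K‖ + 1) := by
    have h1 : Kq K q - F ≤ Kq K q + K := by
      have : -F ≤ K := by
        rw [Matrix.le_iff, sub_neg_eq_add]; exact h.add
      rw [sub_eq_add_neg]
      exact add_le_add_right this _
    refine le_trans h1 ?_
    have h2 : Kq K q + K = cfc (fun t : ℝ => Real.sqrt (t ^ 2 + q) + t) K := by
      unfold Kq
      rw [cfc_add K (fun t : ℝ => Real.sqrt (t ^ 2 + q)) (fun t : ℝ => t) (T16_contOn hK _)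
        (T16_contOn hK _)]
      rw [cfc_id' ℝ K hK]
    rw [h2]
    apply cfc_le_algebraMap _ _ _ _ (T16_contOn hK _) hK
    intro t ht
    obtain ⟨h0, h1⟩ := hspec t ht
    have hs : Real.sqrt (t ^ 2 + q) ≤ t + 1 := by
      apply Real.sqrt_le_iff.2
      constructor
      · positivity
      · nlinarith
    linarith
  have hsa : IsSelfAdjoint (Kq K q - F) := hKq.sub hF
  exact ⟨(algebraMap_le_iff_le_spectrum hsa).1 hlow x hx,
    (le_algebraMap_iff_spectrum_le hsa).1 hup x hx⟩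

theorem T16_log_bound {N : ℕ} {K F : Mt N} (h : Adm K F) {q : ℝ} (hq : 0 < q) (hq1 : q ≤ 1) :
    ‖cfc Real.log (Kq K q - F)‖ ≤ |Real.log q| + Real.log (2 * ‖K‖ + 1) := by
  have hn : 0 ≤ ‖K‖ := norm_nonneg _
  have hL : 0 ≤ Real.log (2 * ‖K‖ + 1) := Real.log_nonneg (by linarith)
  refine norm_cfc_le (by positivity) fun x hx => ?_
  obtain ⟨h1, h2⟩ := T16_spec_bounds h hq hq1 x hx
  have hpos : 0 < q / (2 * ‖K‖ + 1) := by positivity
  have hx0 : 0 < x := lt_of_lt_of_le hpos h1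
  have hl1 := Real.log_le_log hpos h1
  have hl2 := Real.log_le_log hx0 h2
  rw [Real.log_div hq.ne' (by positivity)] at hl1
  rw [Real.norm_eq_abs, abs_le]
  have := neg_abs_le (Real.log q)
  have := abs_nonneg (Real.log q)
  constructor <;> linarith

theorem T16_norm_F {N : ℕ} {K F : Mt N} (h : Adm K F) : ‖F‖ ≤ ‖K‖ := by
  have hF : IsSelfAdjoint F := h.isHermitian_F
  have hK : IsSelfAdjoint K := h.isHermitian_K
  rw [← cfc_id' ℝ F hF]
  refine norm_cfc_le (norm_nonneg _) fun x hx => ?_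
  have h1 : F ≤ algebraMap ℝ (Mt N) ‖K‖ := by
    have : F ≤ K := by
      rw [Matrix.le_iff]; exact h.sub
    exact this.trans hK.le_algebraMap_norm_self
  have h2 : algebraMap ℝ (Mt N) (-‖K‖) ≤ F := by
    have : -F ≤ K := by
      rw [Matrix.le_iff, sub_neg_eq_add]; exact h.add
    have h3 := this.trans hK.le_algebraMap_norm_self
    rw [map_neg]
    exact neg_le.1 h3
  rw [Real.norm_eq_abs, abs_le]
  exact ⟨(algebraMap_le_iff_le_spectrum hF).1 h2 x hx, (le_algebraMap_iff_spectrum_le hF).1 h1 x hx⟩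

end T16

theorem T16_num {T κ e L l a b c d s : ℝ} (hT : 0 ≤ T) (hκ : 0 ≤ κ) (he : 0 ≤ e) (hL : 0 ≤ L)
    (hl : 0 ≤ l) (ha : a ≤ T * (c * d)) (hb : -b ≤ T * s) (hc : c ≤ 2 * κ ^ 2 + e) (hd0 : 0 ≤ d)
    (hd : d ≤ 2 * (l + L) + l * e) (hs : s ≤ 2 * κ ^ 2) :
    a - b ≤ (T * ((2 * κ ^ 2 + e) * (2 + 2 * L + e)) + T * (2 * κ ^ 2)) * (1 + l) := by
  have h0 : 0 ≤ 2 * κ ^ 2 + e := by positivity
  have h1 : T * (c * d) ≤ T * ((2 * κ ^ 2 + e) * (2 * (l + L) + l * e)) := by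
    refine mul_le_mul_of_nonneg_left ?_ hT
    exact mul_le_mul hc hd hd0 h0
  have hb3 : 2 * (l + L) + l * e ≤ (2 + 2 * L + e) * (1 + l) := by
    nlinarith [mul_nonneg hL hl]
  have hb4 : T * ((2 * κ ^ 2 + e) * (2 * (l + L) + l * e)) ≤
      T * ((2 * κ ^ 2 + e) * ((2 + 2 * L + e) * (1 + l))) := by
    refine mul_le_mul_of_nonneg_left ?_ hT
    exact mul_le_mul_of_nonneg_left hb3 h0
  have hb6 : T * s ≤ T * (2 * κ ^ 2) := mul_le_mul_of_nonneg_left hs hT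
  have hb5 : T * (2 * κ ^ 2) ≤ T * (2 * κ ^ 2) * (1 + l) := by
    have : 0 ≤ T * (2 * κ ^ 2) := by positivity
    nlinarith [mul_nonneg this hl]
  have e1 : (T * ((2 * κ ^ 2 + e) * (2 + 2 * L + e)) + T * (2 * κ ^ 2)) * (1 + l) =
    T * ((2 * κ ^ 2 + e) * ((2 + 2 * L + e) * (1 + l))) + T * (2 * κ ^ 2) * (1 + l) := by ring
  rw [e1]
  linarith

section T16b

open scoped Matrix.Norms.L2Operator MatrixOrder

theorem T16_z_bound {N : ℕ} {K F : Mt N} (hF : Adm K F) {q : ℝ} (hq : 0 < q) (hq1 : q ≤ 1) :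
    ‖zq K F q‖ ≤ 2 * (|Real.log q| + Real.log (2 * ‖K‖ + 1)) + |Real.log q| * ‖(1 : Mt N)‖ := by
  have hF' : Adm K (-F) := ⟨by simpa using hF.add, by simpa [sub_eq_add_neg] using hF.sub⟩
  have hX := T16_log_bound hF hq hq1
  have hY := T16_log_bound hF' hq hq1
  rw [sub_neg_eq_add] at hY
  unfold zq
  refine (norm_sub_le _ _).trans ?_
  have h3 : ‖((Real.log q : ℝ) : ℂ) • (1 : Mt N)‖ = |Real.log q| * ‖(1 : Mt N)‖ := by
    rw [norm_smul, Complex.norm_real, Real.norm_eq_abs]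
  rw [h3]
  refine add_le_add_left ?_ _
  refine (norm_add_le _ _).trans ?_
  rw [two_mul]
  exact add_le_add hX hY

theorem T16_S_bound {N : ℕ} {K F : Mt N} (hF : Adm K F) :
    ‖K * K - F * F‖ ≤ 2 * ‖K‖ ^ 2 := by
  have hFn : ‖F‖ ≤ ‖K‖ := T16_norm_F hF
  refine (norm_sub_le _ _).trans ?_
  rw [two_mul, sq]
  exact add_le_add (norm_mul_le _ _)
    ((norm_mul_le _ _).trans (mul_le_mul hFn hFn (norm_nonneg _) (norm_nonneg _)))

theorem T16_Sq_bound {N : ℕ} {K F : Mt N} (hF : Adm K F) {q : ℝ} (hq : 0 < q) (hq1 : q ≤ 1) :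
    ‖K * K - F * F + ((q : ℝ) : ℂ) • (1 : Mt N)‖ ≤ 2 * ‖K‖ ^ 2 + ‖(1 : Mt N)‖ := by
  refine (norm_add_le _ _).trans ?_
  refine add_le_add (T16_S_bound hF) ?_
  rw [norm_smul, Complex.norm_real, Real.norm_eq_abs, abs_of_pos hq]
  exact mul_le_of_le_one_left (norm_nonneg _) hq1

theorem T16_final {N : ℕ} (K : Mt N) :
    ∃ C : ℝ, 0 ≤ C ∧ ∀ F : Mt N, Adm K F → ∀ q : ℝ, 0 < q → q ≤ 1 →
      Ecal K F q ≤ C * (1 + |Real.log q|) := by
  obtain ⟨T, hT, htr⟩ := T16_tr_bound (N := N)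
  have hn : 0 ≤ ‖K‖ := norm_nonneg _
  have h1n : 0 ≤ ‖(1 : Mt N)‖ := norm_nonneg _
  have hL : 0 ≤ Real.log (2 * ‖K‖ + 1) := Real.log_nonneg (by linarith)
  refine ⟨T * ((2 * ‖K‖ ^ 2 + ‖(1 : Mt N)‖) * (2 + 2 * Real.log (2 * ‖K‖ + 1) + ‖(1 : Mt N)‖))
    + T * (2 * ‖K‖ ^ 2), ?_, ?_⟩
  · have h0 : 0 ≤ 2 * ‖K‖ ^ 2 := mul_nonneg zero_le_two (pow_nonneg hn 2)
    exact add_nonneg (mul_nonneg hT (mul_nonneg (add_nonneg h0 h1n)
      (add_nonneg (add_nonneg zero_le_two (mul_nonneg zero_le_two hL)) h1n))) (mul_nonneg hT h0)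
  intro F hF q hq hq1
  refine T16_num (c := ‖K * K - F * F + ((q : ℝ) : ℂ) • (1 : Mt N)‖) (d := ‖zq K F q‖)
    (s := ‖K * K - F * F‖) hT hn h1n hL (abs_nonneg _) ?_ ?_ (T16_Sq_bound hF hq hq1)
    (norm_nonneg _) (T16_z_bound hF hq hq1) (T16_S_bound hF)
  · refine (le_abs_self _).trans ((htr _).trans ?_)
    exact mul_le_mul_of_nonneg_left (norm_mul_le _ _) hT
  · exact (neg_le_abs _).trans (htr _)

end T16b

theorem Ecal_le_log {N : ℕ} (K : Mt N) :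
    ∃ C : ℝ, 0 ≤ C ∧ ∀ F : Mt N, Adm K F → ∀ q : ℝ, 0 < q → q ≤ 1 →
      Ecal K F q ≤ C * (1 + |Real.log q|) :=
  T16_final K

end Crest.Agent.LT
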