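import Crest.Agent.LT_Defs
import Crest.Agent.LT_T01
/-!
Task LT-T03: derivative of `y ↦ tr f(A(y))`. From `abs_tr_cfc_remainder_le`:
`|tr f(A y) - tr f(A x) - tr f'(A x)(A y - A x)| ≤ M hs2 (A y - A x) = O(|y - x|²)`.
-/

set_option autoImplicit false

namespace Crest.Agent.LT

open MeasureTheory Matrix Set Filter
open Crest.MathPhysics.LiebThirring
open scoped ComplexOrder Topology

section
open scoped Matrix.Norms.L2Operator

/-- a linear functional on matrices, as a continuous linear map -/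
noncomputable def T03_trMul {N : ℕ} (C : Mt N) : Mt N →L[ℝ] ℝ :=
  LinearMap.toContinuousLinearMap
    { toFun := fun B => tr (C * B)
      map_add' := fun B B' => by simp [tr, Matrix.mul_add, Matrix.trace_add]
      map_smul' := fun r B => by simp [tr, Matrix.trace_smul] }

/-- an entry, as a continuous linear map -/
noncomputable def T03_entry {N : ℕ} (i j : Fin N) : Mt N →L[ℝ] ℂ :=
  LinearMap.toContinuousLinearMap
    { toFun := fun B => B i j
      map_add' := fun B B' => by simp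
      map_smul' := fun r B => by simp }

theorem T03_hasDerivAt_entry {N : ℕ} {A : ℝ → Mt N} {A' : Mt N} {x : ℝ} (hA : HasDerivAt A A' x)
    (i j : Fin N) : HasDerivAt (fun y => A y i j) (A' i j) x :=
  (T03_entry i j).hasFDerivAt.comp_hasDerivAt x hA

theorem T03_hasDerivAt_trMul {N : ℕ} {A : ℝ → Mt N} {A' : Mt N} {x : ℝ} (hA : HasDerivAt A A' x)
    (C : Mt N) : HasDerivAt (fun y => tr (C * A y)) (tr (C * A')) x :=
  (T03_trMul C).hasFDerivAt.comp_hasDerivAt x hA

end

theorem T03_hs2_isBigO {N : ℕ} {A : ℝ → Mt N} {A' : Mt N} {x : ℝ} (hA : HasDerivAt A A' x) :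
    (fun y => hs2 (A y - A x)) =O[𝓝 x] fun y => (y - x) ^ 2 := by
  unfold hs2
  have key : ∀ i j : Fin N,
      (fun y => ‖(A y - A x) i j‖ ^ 2) =O[𝓝 x] fun y => (y - x) ^ 2 := by
    intro i j
    have h := (T03_hasDerivAt_entry hA i j).isBigO_sub
    have h2 := h.norm_left.pow 2
    simpa using h2
  have key2 : ∀ i : Fin N,
      (fun y => ∑ j, ‖(A y - A x) i j‖ ^ 2) =O[𝓝 x] fun y => (y - x) ^ 2 := by
    intro i
    have e : (fun y => ∑ j, ‖(A y - A x) i j‖ ^ 2) = ∑ j, fun y => ‖(A y - A x) i j‖ ^ 2 := by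
      funext y
      simp [Finset.sum_apply]
    rw [e]
    exact Asymptotics.IsBigO.sum (fun j _ => key i j)
  have e : (fun y => ∑ i, ∑ j, ‖(A y - A x) i j‖ ^ 2) =
      ∑ i, fun y => ∑ j, ‖(A y - A x) i j‖ ^ 2 := by
    funext y
    simp [Finset.sum_apply]
  rw [e]
  exact Asymptotics.IsBigO.sum (fun i _ => key2 i)

theorem hasDerivAt_tr_cfc {N : ℕ} {A : ℝ → Mt N} {A' : Mt N} {x : ℝ} (hA : HasDerivAt A A' x)
    (hH : ∀ᶠ y in 𝓝 x, (A y).IsHermitian) {f f' : ℝ → ℝ} {t : Set ℝ} {M : ℝ}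
    (hspec : ∀ᶠ y in 𝓝 x, spectrum ℝ (A y) ⊆ t)
    (hf : ∀ a ∈ t, ∀ b ∈ t, |f b - f a - f' a * (b - a)| ≤ M * (b - a) ^ 2) :
    HasDerivAt (fun y => tr (cfc f (A y))) (tr (cfc f' (A x) * A')) x := by
  have hlin := T03_hasDerivAt_trMul hA (cfc f' (A x))
  have hHx : (A x).IsHermitian := hH.self_of_nhds
  have hsx : spectrum ℝ (A x) ⊆ t := hspec.self_of_nhds
  set r : ℝ → ℝ := fun y => tr (cfc f (A y)) - tr (cfc f' (A x) * A y) with hr
  have key : ∀ᶠ y in 𝓝 x, ‖r y - r x‖ ≤ M * hs2 (A y - A x) := by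
    filter_upwards [hH, hspec] with y hy hsy
    have := abs_tr_cfc_remainder_le hHx hy f f' M
      (fun a ha b hb => hf a (hsx ha) b (hsy hb))
    rw [Real.norm_eq_abs]
    refine le_trans (le_of_eq ?_) this
    congr 1
    have e : tr (cfc f' (A x) * (A y - A x)) = tr (cfc f' (A x) * A y) - tr (cfc f' (A x) * A x) := by
      simp [tr, Matrix.mul_sub, Matrix.trace_sub]
    rw [e]
    simp only [hr]
    ring
  have hO : (fun y => r y - r x) =O[𝓝 x] fun y => (y - x) ^ 2 := by
    refine Asymptotics.IsBigO.trans ?_ (T03_hs2_isBigO hA)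
    refine Asymptotics.IsBigO.of_bound M ?_
    filter_upwards [key] with y hy
    refine hy.trans (le_of_eq ?_)
    rw [Real.norm_of_nonneg]
    unfold hs2
    positivity
  have hr0 : HasDerivAt r 0 x := by
    rw [hasDerivAt_iff_isLittleO]
    simp only [smul_zero, sub_zero]
    refine hO.trans_isLittleO ?_
    have : (fun y : ℝ => (y - x) ^ 2) =o[𝓝 x] fun y => (y - x) := by
      have h1 : (fun y : ℝ => (y - x) ^ 2) = fun y => (y - x) * (y - x) := by
        funext y; ring
      rw [h1]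
      have h2 : (fun y : ℝ => (y - x)) =o[𝓝 x] fun _ => (1 : ℝ) := by
        rw [Asymptotics.isLittleO_one_iff]
        have : Tendsto (fun y : ℝ => y - x) (𝓝 x) (𝓝 (x - x)) :=
          (continuous_id.sub continuous_const).tendsto x
        simpa using this
      simpa using h2.mul_isBigO (Asymptotics.isBigO_refl (fun y : ℝ => y - x) (𝓝 x))
    exact this
  have := hr0.add hlin
  rw [zero_add] at this
  refine this.congr_of_eventuallyEq ?_
  filter_upwards with y
  simp [hr]

end Crest.Agent.LT
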