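import Crest.Agent.LT_Defs
import Crest.Agent.LT_T01
import Crest.Agent.LT_T02
import Crest.Agent.LT_T03
import Crest.Agent.LT_T12
import Crest.Agent.LT_T17
/-!
Task LT-T19: path integral. `Θ(F) = tr g(K_q + F) - tr g(K_q - F) - log q · tr F`, `g(t) = t log t - t`,
`d/dx Θ(F(x)) = tr (F' z_q(F))` (LT-T03 with `g' = log`, `t = Ici c`, `|g b - g a - log a (b - a)| ≤ (b-a)²/c`), and at
`F = ±K` everything is a function of `K`:
`Θ(K) = tr θ_q(K)`-type closed form `theta_eq`, `Θ(-K) = -Θ(K)`.
-/

set_option autoImplicit false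

namespace Crest.Agent.LT

open MeasureTheory Matrix Set Filter
open Crest.MathPhysics.LiebThirring
open scoped ComplexOrder Topology

/-- `g(t) = t log t - t` -/
noncomputable def T19_g (t : ℝ) : ℝ := t * Real.log t - t

theorem T19_g_rem {c : ℝ} (hc : 0 < c) : ∀ a ∈ Ici c, ∀ b ∈ Ici c,
    |T19_g b - T19_g a - Real.log a * (b - a)| ≤ c⁻¹ * (b - a) ^ 2 := by
  intro a ha b hb
  have ha0 : 0 < a := hc.trans_le ha
  have hb0 : 0 < b := hc.trans_le hb
  have e : T19_g b - T19_g a - Real.log a * (b - a) = b * Real.log (b / a) - (b - a) := by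
    rw [Real.log_div hb0.ne' ha0.ne']
    unfold T19_g; ring
  have h1 : Real.log (b / a) ≤ b / a - 1 := Real.log_le_sub_one_of_pos (by positivity)
  have h2 : Real.log (a / b) ≤ a / b - 1 := Real.log_le_sub_one_of_pos (by positivity)
  have h3 : Real.log (a / b) = - Real.log (b / a) := by
    rw [Real.log_div ha0.ne' hb0.ne', Real.log_div hb0.ne' ha0.ne']; ring
  rw [h3] at h2
  have l1 : 0 ≤ b * Real.log (b / a) - (b - a) := by
    have : b * (1 - a / b) ≤ b * Real.log (b / a) := by
      apply mul_le_mul_of_nonneg_left _ hb0.le; linarith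
    have e2 : b * (1 - a / b) = b - a := by field_simp
    linarith
  have l2 : b * Real.log (b / a) - (b - a) ≤ a⁻¹ * (b - a) ^ 2 := by
    have : b * Real.log (b / a) ≤ b * (b / a - 1) := mul_le_mul_of_nonneg_left h1 hb0.le
    have e2 : b * (b / a - 1) - (b - a) = a⁻¹ * (b - a) ^ 2 := by field_simp
    linarith
  rw [e, abs_of_nonneg l1]
  refine l2.trans ?_
  gcongr
  exact ha

theorem theta_eq {q k : ℝ} (hq : 0 < q) (hk : 0 ≤ k) :
    theta q k = (Real.sqrt (k ^ 2 + q) + k) * Real.log (Real.sqrt (k ^ 2 + q) + k)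
      - (Real.sqrt (k ^ 2 + q) - k) * Real.log (Real.sqrt (k ^ 2 + q) - k) - 2 * k - k * Real.log q := by
  set κ : ℝ := Real.sqrt (k ^ 2 + q) with hκ
  have hκ2 : κ ^ 2 = k ^ 2 + q := Real.sq_sqrt (by positivity)
  have hκk : k < κ := Real.lt_sqrt_of_sq_lt (by linarith)
  have hder : ∀ f ∈ uIcc 0 k, HasDerivAt (fun f : ℝ => (κ + f) * Real.log (κ + f)
      - (κ - f) * Real.log (κ - f) - 2 * f - f * Real.log q)
      (Real.log (1 + (k ^ 2 - f ^ 2) / q)) f := by
    intro f hf
    rw [uIcc_of_le hk] at hf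
    have hp : 0 < κ + f := by linarith [hf.1]
    have hm : 0 < κ - f := by linarith [hf.2]
    have d1 : HasDerivAt (fun f : ℝ => κ + f) 1 f := (hasDerivAt_id f).const_add κ
    have d2 : HasDerivAt (fun f : ℝ => κ - f) (-1) f := (hasDerivAt_id f).const_sub κ
    have d3 := d1.mul (d1.log hp.ne')
    have d4 := d2.mul (d2.log hm.ne')
    have d5 : HasDerivAt (fun f : ℝ => 2 * f) (2 * 1) f := (hasDerivAt_id f).const_mul 2
    have d6 : HasDerivAt (fun f : ℝ => f * Real.log q) (1 * Real.log q) f :=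
      (hasDerivAt_id f).mul_const _
    have d7 := ((d3.sub d4).sub d5).sub d6
    refine d7.congr_deriv ?_
    have e1 : 1 + (k ^ 2 - f ^ 2) / q = (κ + f) * (κ - f) / q := by
      field_simp
      nlinarith
    rw [e1, Real.log_div (by positivity) hq.ne', Real.log_mul hp.ne' hm.ne']
    field_simp
    ring
  have hint : IntervalIntegrable (fun f : ℝ => Real.log (1 + (k ^ 2 - f ^ 2) / q)) volume 0 k := by
    apply ContinuousOn.intervalIntegrable
    rw [uIcc_of_le hk]
    apply ContinuousOn.log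
    · fun_prop
    · intro f hf
      have : 0 ≤ (k ^ 2 - f ^ 2) / q := by
        apply div_nonneg _ hq.le
        nlinarith [hf.1, hf.2]
      positivity
  unfold theta
  rw [intervalIntegral.integral_eq_sub_of_hasDerivAt hder hint]
  simp

theorem T19_contOn {N : ℕ} {A : Mt N} (hA : A.IsHermitian) (f : ℝ → ℝ) :
    ContinuousOn f (spectrum ℝ A) := by
  rw [hA.spectrum_real_eq_range_eigenvalues]
  exact (Set.finite_range _).continuousOn f

section
open scoped MatrixOrder Matrix.Norms.L2Operator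

theorem T19_const_add {N : ℕ} {F : ℝ → Mt N} {D : Mt N} {x : ℝ} (hF : HasDerivAt F D x)
    (A : Mt N) : HasDerivAt (fun y => A + F y) D x := hF.const_add A

theorem T19_const_sub {N : ℕ} {F : ℝ → Mt N} {D : Mt N} {x : ℝ} (hF : HasDerivAt F D x)
    (A : Mt N) : HasDerivAt (fun y => A - F y) (-D) x := hF.const_sub A

theorem T19_lower {N : ℕ} {A : Mt N} (hA : A.PosDef) :
    ∃ c : ℝ, 0 < c ∧ ∀ B : Mt N, (B - A).PosSemidef → spectrum ℝ B ⊆ Ici c := by
  obtain ⟨c, hc, hcA⟩ : ∃ c : ℝ, 0 < c ∧ ∀ x ∈ spectrum ℝ A, c ≤ x := by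
    have hfin : (spectrum ℝ A).Finite := by
      rw [hA.1.spectrum_real_eq_range_eigenvalues]
      exact Set.finite_range _
    rcases (spectrum ℝ A).eq_empty_or_nonempty with he | hne
    · refine ⟨1, one_pos, ?_⟩
      rw [he]; simp
    · obtain ⟨m, hm, hmin⟩ := hfin.exists_minimalFor id _ hne
      refine ⟨m, T17_spec hA hm, fun x hx => ?_⟩
      by_contra hlt
      push Not at hlt
      exact absurd (hmin hx hlt.le) (not_le.2 hlt)
  refine ⟨c, hc, fun B hB x hx => ?_⟩
  have hAsa : IsSelfAdjoint A := hA.1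
  have hBh : B.IsHermitian := by
    have : B = (B - A) + A := by abel
    rw [this]; exact hB.1.add hA.1
  have hBsa : IsSelfAdjoint B := hBh
  have h1 : algebraMap ℝ (Mt N) c ≤ A := (algebraMap_le_iff_le_spectrum hAsa).2 hcA
  have h2 : A ≤ B := by
    rw [Matrix.le_iff]; exact hB
  exact (algebraMap_le_iff_le_spectrum hBsa).1 (h1.trans h2) x hx

end

theorem T19_tr_cfc_comp {N : ℕ} {K : Mt N} (hK : K.IsHermitian) (f g : ℝ → ℝ) :
    cfc f (cfc g K) = cfc (fun t => f (g t)) K := by
  have hK' : IsSelfAdjoint K := hK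
  exact (cfc_comp' f g K (((hK.spectrum_real_eq_range_eigenvalues ▸ (Set.finite_range _) :
    (spectrum ℝ K).Finite).image g).continuousOn f) (T19_contOn hK g)).symm

theorem path_integral {N : ℕ} {R : ℝ} {K : Mt N} {F V : ℝ → Mt N} (h : Riccati R K F V)
    {q : ℝ} (hq : 0 < q) :
    ∫ x in (-R)..R, tr ((K * K - F x * F x - V x) * zq K (F x) q) = - tr (cfc (fun k => 2 * theta q k) K) := by
  have hR := h.hR
  have hRR : -R ≤ R := by linarith
  have hadm0 : Adm K (F 0) := h.adm 0 ⟨by linarith, by linarith⟩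
  have hK : K.IsHermitian := hadm0.isHermitian_K
  have hKsa : IsSelfAdjoint K := hK
  have hKpsd : K.PosSemidef := hadm0.posSemidef
  obtain ⟨c, hc, hcB⟩ := T19_lower (Kq_sub_K_posDef hK hq)
  have hsp_add : ∀ x ∈ Icc (-R) R, spectrum ℝ (Kq K q + F x) ⊆ Ici c := by
    intro x hx
    apply hcB
    have : Kq K q + F x - (Kq K q - K) = K + F x := by abel
    rw [this]; exact (h.adm x hx).add
  have hsp_sub : ∀ x ∈ Icc (-R) R, spectrum ℝ (Kq K q - F x) ⊆ Ici c := by
    intro x hx
    apply hcB
    have : Kq K q - F x - (Kq K q - K) = K - F x := by abel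
    rw [this]; exact (h.adm x hx).sub
  set Θ : ℝ → ℝ := fun x => tr (cfc T19_g (Kq K q + F x)) - tr (cfc T19_g (Kq K q - F x))
    - Real.log q * tr (F x) with hΘ
  have hcont : ContinuousOn Θ (Icc (-R) R) := by
    have hg : ContinuousOn (fun p : ℝ × ℝ => T19_g p.2) (Icc (-R) R ×ˢ univ) := by
      have h1 : Continuous T19_g := Real.continuous_mul_log.sub continuous_id
      exact h1.comp_continuousOn continuousOn_snd
    have h1 : ContinuousOn (fun x => cfc T19_g (Kq K q + F x)) (Icc (-R) R) :=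
      continuousOn_cfc_param (A := fun x => Kq K q + F x) (f := fun _ t => T19_g t)
        (t := univ) (continuousOn_const.add h.contF)
        (fun x hx => (Kq_isHermitian K q).add (h.adm x hx).isHermitian_F) isOpen_univ hg
        fun _ _ => subset_univ _
    have h2 : ContinuousOn (fun x => cfc T19_g (Kq K q - F x)) (Icc (-R) R) :=
      continuousOn_cfc_param (A := fun x => Kq K q - F x) (f := fun _ t => T19_g t)
        (t := univ) (continuousOn_const.sub h.contF)
        (fun x hx => (Kq_isHermitian K q).sub (h.adm x hx).isHermitian_F) isOpen_univ hg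
        fun _ _ => subset_univ _
    exact ((continuousOn_tr h1).sub (continuousOn_tr h2)).sub
      (continuousOn_const.mul (continuousOn_tr h.contF))
  have hder : ∀ x ∈ Ioo (-R) R,
      HasDerivAt Θ (tr ((K * K - F x * F x - V x) * zq K (F x) q)) x := by
    intro x hx
    have hF' := h.deriv x hx
    set D : Mt N := K * K - F x * F x - V x with hD
    have hmem : ∀ᶠ y in 𝓝 x, y ∈ Icc (-R) R := Icc_mem_nhds hx.1 hx.2
    have hA1 : HasDerivAt (fun y => Kq K q + F y) D x := T19_const_add hF' (Kq K q)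
    have hA2 : HasDerivAt (fun y => Kq K q - F y) (-D) x := T19_const_sub hF' (Kq K q)
    have e1 := hasDerivAt_tr_cfc hA1
      (by filter_upwards [hmem] with y hy
          exact (Kq_isHermitian K q).add (h.adm y hy).isHermitian_F)
      (f := T19_g) (f' := Real.log) (t := Ici c) (M := c⁻¹)
      (by filter_upwards [hmem] with y hy
          exact hsp_add y hy) (T19_g_rem hc)
    have e2 := hasDerivAt_tr_cfc hA2
      (by filter_upwards [hmem] with y hy
          exact (Kq_isHermitian K q).sub (h.adm y hy).isHermitian_F)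
      (f := T19_g) (f' := Real.log) (t := Ici c) (M := c⁻¹)
      (by filter_upwards [hmem] with y hy
          exact hsp_sub y hy) (T19_g_rem hc)
    have e3 : HasDerivAt (fun y => tr (F y)) (tr D) x := by
      have := T03_hasDerivAt_trMul hF' 1
      simpa using this
    have e4 := (e1.sub e2).sub (e3.const_mul (Real.log q))
    refine e4.congr_deriv ?_
    unfold zq
    have t1 : tr (D * (cfc Real.log (Kq K q - F x) + cfc Real.log (Kq K q + F x)
        - ((Real.log q : ℝ) : ℂ) • (1 : Mt N))) =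
        tr (D * cfc Real.log (Kq K q - F x)) + tr (D * cfc Real.log (Kq K q + F x))
          - Real.log q * tr D := by
      rw [mul_sub, mul_add, tr_sub', tr_add', Matrix.mul_smul, mul_one, tr_csmul]
    rw [t1, tr_mul_comm' D, tr_mul_comm' D]
    have t2 : tr (cfc Real.log (Kq K q - F x) * -D) = - tr (cfc Real.log (Kq K q - F x) * D) := by
      rw [mul_neg]; simp [tr]
    rw [t2]
    ring
  have hint : IntervalIntegrable (fun x => tr ((K * K - F x * F x - V x) * zq K (F x) q))
      volume (-R) R := by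
    apply ContinuousOn.intervalIntegrable
    rw [uIcc_of_le hRR]
    apply continuousOn_tr
    have h1 : ContinuousOn (fun x => zq K (F x) q) (Icc (-R) R) :=
      continuousOn_zq (q := fun _ => q) hK h.contF continuousOn_const (fun _ _ => hq) h.adm
    exact ((continuousOn_const.sub (h.contF.mul h.contF)).sub h.contV).mul h1
  rw [intervalIntegral.integral_eq_sub_of_hasDerivAt_of_le hRR hcont hder hint]
  -- endpoint evaluation
  have hadd : Kq K q + K = cfc (fun t : ℝ => Real.sqrt (t ^ 2 + q) + t) K := by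
    unfold Kq
    rw [cfc_add K (fun t : ℝ => Real.sqrt (t ^ 2 + q)) (fun t : ℝ => t) (T19_contOn hK _)
      (T19_contOn hK _)]
    rw [cfc_id' ℝ K hKsa]
  have hsub : Kq K q - K = cfc (fun t : ℝ => Real.sqrt (t ^ 2 + q) - t) K := by
    unfold Kq
    rw [cfc_sub (fun t : ℝ => Real.sqrt (t ^ 2 + q)) (fun t : ℝ => t) K (T19_contOn hK _)
      (T19_contOn hK _)]
    rw [cfc_id' ℝ K hKsa]
  have hKK : tr K = tr (cfc (fun t : ℝ => t) K) := by rw [cfc_id' ℝ K hKsa]
  have hnegK : tr (-K) = - tr K := by simp [tr]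
  simp only [hΘ, h.left, h.right]
  have s1 : Kq K q + -K = Kq K q - K := by abel
  have s2 : Kq K q - -K = Kq K q + K := by abel
  rw [s1, s2, hnegK, hadd, hsub, T19_tr_cfc_comp hK, T19_tr_cfc_comp hK, hKK, tr_cfc hK, tr_cfc hK,
    tr_cfc hK, tr_cfc hK, Finset.mul_sum, ← Finset.sum_neg_distrib]
  have hθ : ∀ i, theta q (hK.eigenvalues i) = _ := fun i => theta_eq hq (hKpsd.eigenvalues_nonneg i)
  simp only [hθ]
  simp only [← Finset.sum_neg_distrib, ← Finset.sum_sub_distrib, ← Finset.mul_sum]
  simp only [Finset.mul_sum, ← Finset.sum_neg_distrib, ← Finset.sum_sub_distrib]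
  refine Finset.sum_congr rfl fun i _ => ?_
  unfold T19_g
  ring

end Crest.Agent.LT
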