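import Crest.Agent.LT_Defs

/-!
Task LT-T21: scalar integrals. `∫_0^∞ q^{α-1} log (1 + x/q) dq = I(α) x^α` (scaling `q = x q'`),
integrability (near 0: `q^{α-1} |log q|`; near ∞: `q^{α-2}`), `I(α) > 0`, then
`h_q(v) = ∫_0^v log (1 + s/q) ds` and Tonelli/Fubini; `2 θ_q(k) = ∫_{-k}^k log (1 + (k²-f²)/q) df`, `f = k u`.
-/

set_option autoImplicit false

namespace Crest.Agent.LT

open MeasureTheory Matrix Set Filter
open Crest.MathPhysics.LiebThirring
open scoped ComplexOrder Topology

theorem T21_log_nonneg {q x : ℝ} (hq : 0 < q) (hx : 0 ≤ x) : 0 ≤ Real.log (1 + x / q) :=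
  Real.log_nonneg (by have := div_nonneg hx hq.le; linarith)

theorem Ialpha_integrable {α : ℝ} (h0 : 0 < α) (h1 : α < 1) :
    IntegrableOn (fun q : ℝ => q ^ (α - 1) * Real.log (1 + 1 / q)) (Ioi 0) := by
  refine mellin_convergent_of_isBigO_scalar (a := 1) (b := α / 2) (s := α)
    (f := fun q => Real.log (1 + 1 / q)) ?_ ?_ h1 ?_ (by linarith)
  · refine ContinuousOn.locallyIntegrableOn ?_ measurableSet_Ioi
    refine ContinuousOn.log ?_ ?_
    · refine continuousOn_const.add (continuousOn_const.div continuousOn_id ?_)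
      intro q hq
      exact (ne_of_gt hq)
    · intro q hq
      have hq' : (0 : ℝ) < q := hq
      positivity
  · refine Asymptotics.IsBigO.of_bound 1 ?_
    filter_upwards [eventually_gt_atTop 0] with q hq
    rw [one_mul, Real.norm_of_nonneg (T21_log_nonneg hq zero_le_one),
      Real.norm_of_nonneg (Real.rpow_nonneg hq.le _), Real.rpow_neg_one]
    have := Real.log_le_sub_one_of_pos (show 0 < 1 + 1 / q by positivity)
    rw [inv_eq_one_div]
    linarith
  · refine Asymptotics.IsBigO.of_bound (2 ^ (α / 2) / (α / 2)) ?_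
    have hmem : Ioo (0 : ℝ) 1 ∈ 𝓝[>] (0 : ℝ) := Ioo_mem_nhdsGT (by norm_num)
    filter_upwards [hmem] with q hq
    have hq0 : 0 < q := hq.1
    rw [Real.norm_of_nonneg (T21_log_nonneg hq0 zero_le_one),
      Real.norm_of_nonneg (Real.rpow_nonneg hq0.le _)]
    have h2 : 1 + 1 / q ≤ 2 / q := by
      rw [le_div_iff₀ hq0, add_mul, div_mul_cancel₀ _ hq0.ne']
      linarith [hq.2]
    have h3 : Real.log (1 + 1 / q) ≤ (1 + 1 / q) ^ (α / 2) / (α / 2) :=
      Real.log_le_rpow_div (by positivity) (by linarith)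
    have h4 : (1 + 1 / q) ^ (α / 2) ≤ (2 / q) ^ (α / 2) :=
      Real.rpow_le_rpow (by positivity) h2 (by linarith)
    have h5 : (2 / q) ^ (α / 2) = 2 ^ (α / 2) * q ^ (-(α / 2)) := by
      rw [Real.div_rpow (by norm_num) hq0.le, Real.rpow_neg hq0.le, div_eq_mul_inv]
    rw [h5] at h4
    calc Real.log (1 + 1 / q) ≤ (1 + 1 / q) ^ (α / 2) / (α / 2) := h3
      _ ≤ (2 ^ (α / 2) * q ^ (-(α / 2))) / (α / 2) := by gcongr
      _ = 2 ^ (α / 2) / (α / 2) * q ^ (-(α / 2)) := by ring

theorem Ialpha_pos {α : ℝ} (h0 : 0 < α) (h1 : α < 1) : 0 < Ialpha α := by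
  unfold Ialpha
  rw [setIntegral_pos_iff_support_of_nonneg_ae _ (Ialpha_integrable h0 h1)]
  · have : Ioi (0 : ℝ) ⊆ Function.support (fun q : ℝ => q ^ (α - 1) * Real.log (1 + 1 / q)) ∩
        Ioi 0 := by
      intro q hq
      have hq' : (0 : ℝ) < q := hq
      refine ⟨?_, hq⟩
      rw [Function.mem_support]
      have h2 : 0 < Real.log (1 + 1 / q) := Real.log_pos (by
        have : 0 < 1 / q := by positivity
        linarith)
      positivity
    refine lt_of_lt_of_le ?_ (measure_mono this)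
    simp
  · refine (ae_restrict_iff' measurableSet_Ioi).2 (Eventually.of_forall fun q hq => ?_)
    have hq' : (0 : ℝ) < q := hq
    exact mul_nonneg (Real.rpow_nonneg hq'.le _) (T21_log_nonneg hq' zero_le_one)

theorem integral_log_scaled {α x : ℝ} (h0 : 0 < α) (h1 : α < 1) (hx : 0 ≤ x) :
    IntegrableOn (fun q : ℝ => q ^ (α - 1) * Real.log (1 + x / q)) (Ioi 0) ∧
      ∫ q in Ioi (0 : ℝ), q ^ (α - 1) * Real.log (1 + x / q) = Ialpha α * x ^ α := by
  rcases hx.eq_or_lt with rfl | hx
  · refine ⟨?_, ?_⟩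
    · simp only [zero_div, add_zero, Real.log_one, mul_zero]
      exact integrableOn_zero
    · simp [Real.zero_rpow h0.ne']
  · have hcongr : ∀ q ∈ Ioi (0 : ℝ), (x * q) ^ (α - 1) * Real.log (1 + x / (x * q)) =
        x ^ (α - 1) * (q ^ (α - 1) * Real.log (1 + 1 / q)) := by
      intro q hq
      have hq' : (0 : ℝ) < q := hq
      rw [Real.mul_rpow hx.le hq'.le]
      have : x / (x * q) = 1 / q := by field_simp
      rw [this]
      ring
    constructor
    · have h := (integrableOn_Ioi_comp_mul_left_iff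
        (fun q : ℝ => q ^ (α - 1) * Real.log (1 + x / q)) 0 hx)
      rw [mul_zero] at h
      rw [← h]
      refine IntegrableOn.congr_fun ((Ialpha_integrable h0 h1).const_mul (x ^ (α - 1)))
        (fun q hq => (hcongr q hq).symm) measurableSet_Ioi
    · have h := integral_comp_mul_left_Ioi'
        (fun q : ℝ => q ^ (α - 1) * Real.log (1 + x / q)) 0 hx
      rw [mul_zero] at h
      rw [← h, setIntegral_congr_fun measurableSet_Ioi hcongr, integral_const_mul]
      unfold Ialpha
      rw [smul_eq_mul]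
      have : x ^ α = x * x ^ (α - 1) := by
        rw [← Real.rpow_one_add' hx.le (by linarith)]
        congr 1
        ring
      rw [this]
      ring

theorem T21_gen {α k V : ℝ} (h0 : 0 < α) (h1 : α < 1) (hk : 0 ≤ k) (hV : 0 ≤ V) {g : ℝ → ℝ}
    (hg : Continuous g) (hg0 : ∀ s ∈ Ioc 0 k, 0 ≤ g s) (hgV : ∀ s ∈ Ioc 0 k, g s ≤ V) :
    IntegrableOn (fun q : ℝ => q ^ (α - 1) * ∫ s in (0 : ℝ)..k, Real.log (1 + g s / q)) (Ioi 0) ∧
      ∫ q in Ioi (0 : ℝ), (q ^ (α - 1) * ∫ s in (0 : ℝ)..k, Real.log (1 + g s / q)) =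
        Ialpha α * ∫ s in (0 : ℝ)..k, g s ^ α := by
  have hmeas : Measurable (fun p : ℝ × ℝ => p.1 ^ (α - 1) * Real.log (1 + g p.2 / p.1)) := by
    have hgm : Measurable g := hg.measurable
    fun_prop
  have hint : Integrable (fun p : ℝ × ℝ => p.1 ^ (α - 1) * Real.log (1 + g p.2 / p.1))
      ((volume.restrict (Ioi (0 : ℝ))).prod (volume.restrict (Ioc 0 k))) := by
    have hb : Integrable (fun p : ℝ × ℝ => (p.1 ^ (α - 1) * Real.log (1 + V / p.1)) * (1 : ℝ))
        ((volume.restrict (Ioi (0 : ℝ))).prod (volume.restrict (Ioc 0 k))) := by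
      have hI := (integral_log_scaled h0 h1 hV).1
      have hc : Integrable (fun _ : ℝ => (1 : ℝ)) (volume.restrict (Ioc 0 k)) :=
        integrable_const 1
      exact hI.mul_prod hc
    refine hb.mono hmeas.aestronglyMeasurable ?_
    rw [Measure.prod_restrict]
    refine (ae_restrict_iff' (measurableSet_Ioi.prod measurableSet_Ioc)).2
      (Eventually.of_forall fun p hp => ?_)
    have hp1 : (0 : ℝ) < p.1 := hp.1
    have hg0' := hg0 p.2 hp.2
    have hgV' := hgV p.2 hp.2
    have e1 := T21_log_nonneg hp1 hg0'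
    have e2 := T21_log_nonneg hp1 hV
    have e3 : (0 : ℝ) ≤ p.1 ^ (α - 1) := Real.rpow_nonneg hp1.le _
    rw [Real.norm_of_nonneg (mul_nonneg e3 e1), mul_one, Real.norm_of_nonneg (mul_nonneg e3 e2)]
    refine mul_le_mul_of_nonneg_left ?_ e3
    refine Real.log_le_log ?_ ?_
    · have := div_nonneg hg0' hp1.le
      linarith
    · have := div_le_div_of_nonneg_right hgV' hp1.le
      linarith
  have hpull : ∀ q : ℝ, (q ^ (α - 1) * ∫ s in (0 : ℝ)..k, Real.log (1 + g s / q)) =
      ∫ s, q ^ (α - 1) * Real.log (1 + g s / q) ∂(volume.restrict (Ioc 0 k)) := by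
    intro q
    rw [intervalIntegral.integral_of_le hk, integral_const_mul]
  refine ⟨?_, ?_⟩
  · have := hint.integral_prod_left
    refine this.congr (Eventually.of_forall fun q => ?_)
    exact (hpull q).symm
  · calc ∫ q in Ioi (0 : ℝ), (q ^ (α - 1) * ∫ s in (0 : ℝ)..k, Real.log (1 + g s / q))
        = ∫ q in Ioi (0 : ℝ), ∫ s in Ioc 0 k, q ^ (α - 1) * Real.log (1 + g s / q) := by
          refine integral_congr_ae (Eventually.of_forall fun q => ?_)
          exact hpull q
      _ = ∫ s in Ioc 0 k, ∫ q in Ioi (0 : ℝ), q ^ (α - 1) * Real.log (1 + g s / q) :=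
          integral_integral_swap hint
      _ = ∫ s in Ioc 0 k, Ialpha α * g s ^ α := by
          refine setIntegral_congr_fun measurableSet_Ioc fun s hs => ?_
          exact (integral_log_scaled h0 h1 (hg0 s hs)).2
      _ = Ialpha α * ∫ s in (0 : ℝ)..k, g s ^ α := by
          rw [integral_const_mul, intervalIntegral.integral_of_le hk]

theorem T21_hfun_eq {q v : ℝ} (hq : 0 < q) (hv : 0 ≤ v) :
    hfun q v = ∫ s in (0 : ℝ)..v, Real.log (1 + s / q) := by
  have hd : ∀ s ∈ uIcc 0 v, HasDerivAt (fun s => (q + s) * Real.log (1 + s / q) - s)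
      (Real.log (1 + s / q)) s := by
    intro s hs
    rw [uIcc_of_le hv] at hs
    have hpos : 0 < 1 + s / q := by
      have := div_nonneg hs.1 hq.le
      linarith
    have h1 : HasDerivAt (fun s : ℝ => 1 + s / q) (1 / q) s := by
      simpa using ((hasDerivAt_id s).div_const q).const_add 1
    have h2 := h1.log hpos.ne'
    have h3 : HasDerivAt (fun s : ℝ => q + s) 1 s := (hasDerivAt_id s).const_add q
    have h4 := (h3.mul h2).sub (hasDerivAt_id s)
    refine h4.congr_deriv ?_
    have : (q + s) * (1 / q / (1 + s / q)) = 1 := by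
      have hqs : q + s ≠ 0 := by
        have := hs.1
        linarith
      field_simp
    simp only [one_mul]
    linarith
  have hc : IntervalIntegrable (fun s => Real.log (1 + s / q)) volume 0 v := by
    refine ContinuousOn.intervalIntegrable ?_
    rw [uIcc_of_le hv]
    refine ContinuousOn.log (by fun_prop) ?_
    intro s hs
    have := div_nonneg hs.1 hq.le
    linarith
  rw [intervalIntegral.integral_eq_sub_of_hasDerivAt hd hc]
  simp [hfun]

theorem integral_hfun {α v : ℝ} (h0 : 0 < α) (h1 : α < 1) (hv : 0 ≤ v) :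
    IntegrableOn (fun q : ℝ => q ^ (α - 1) * hfun q v) (Ioi 0) ∧
      ∫ q in Ioi (0 : ℝ), q ^ (α - 1) * hfun q v = Ialpha α * v ^ (1 + α) / (1 + α) := by
  obtain ⟨hA, hB⟩ := T21_gen h0 h1 hv hv (g := fun s => s) continuous_id
    (fun s hs => hs.1.le) (fun s hs => hs.2)
  have hcongr : ∀ q ∈ Ioi (0 : ℝ), q ^ (α - 1) * hfun q v =
      q ^ (α - 1) * ∫ s in (0 : ℝ)..v, Real.log (1 + s / q) := by
    intro q hq
    rw [T21_hfun_eq hq hv]
  refine ⟨hA.congr_fun (fun q hq => (hcongr q hq).symm) measurableSet_Ioi, ?_⟩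
  rw [setIntegral_congr_fun measurableSet_Ioi hcongr, hB, integral_rpow (Or.inl (by linarith)),
    Real.zero_rpow (by linarith)]
  rw [add_comm α 1]
  ring

theorem integral_theta {α k : ℝ} (h0 : 0 < α) (h1 : α < 1) (hk : 0 ≤ k) :
    IntegrableOn (fun q : ℝ => q ^ (α - 1) * (2 * theta q k)) (Ioi 0) ∧
      ∫ q in Ioi (0 : ℝ), q ^ (α - 1) * (2 * theta q k) = Ialpha α * (beta α * k ^ (2 * α + 1)) := by
  obtain ⟨hA, hB⟩ := T21_gen h0 h1 hk (V := k ^ 2) (sq_nonneg k) (g := fun s => k ^ 2 - s ^ 2)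
    (by fun_prop)
    (fun s hs => by have := hs.1; have := hs.2; nlinarith)
    (fun s hs => by have := sq_nonneg s; linarith)
  have hcongr : ∀ q : ℝ, q ^ (α - 1) * (2 * theta q k) =
      2 * (q ^ (α - 1) * ∫ s in (0 : ℝ)..k, Real.log (1 + (k ^ 2 - s ^ 2) / q)) := by
    intro q
    unfold theta
    ring
  have hbeta : beta α = 2 * ∫ u in (0 : ℝ)..1, (1 - u ^ 2) ^ α := by
    unfold beta
    have hint : ∀ a b : ℝ, IntervalIntegrable (fun u : ℝ => (1 - u ^ 2) ^ α) volume a b := by
      intro a b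
      refine Continuous.intervalIntegrable ?_ a b
      exact Continuous.rpow_const (by fun_prop) (fun _ => Or.inr h0.le)
    rw [← intervalIntegral.integral_add_adjacent_intervals (hint (-1) 0) (hint 0 1)]
    have : ∫ u in (-1 : ℝ)..0, (1 - u ^ 2) ^ α = ∫ u in (0 : ℝ)..1, (1 - u ^ 2) ^ α := by
      have := intervalIntegral.integral_comp_neg (a := 0) (b := 1)
        (fun u : ℝ => (1 - u ^ 2) ^ α)
      simp only [neg_zero, neg_sq] at this
      exact this.symm
    rw [this]
    ring
  have hscale : ∫ s in (0 : ℝ)..k, (k ^ 2 - s ^ 2) ^ α =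
      k ^ (2 * α + 1) * ∫ u in (0 : ℝ)..1, (1 - u ^ 2) ^ α := by
    rcases hk.eq_or_lt with rfl | hk
    · rw [Real.zero_rpow (by linarith)]
      simp
    · have h2 := intervalIntegral.mul_integral_comp_mul_left (a := 0) (b := 1)
        (f := fun s : ℝ => (k ^ 2 - s ^ 2) ^ α) k
      simp only [mul_zero, mul_one] at h2
      rw [← h2]
      have h3 : ∀ u ∈ uIcc (0 : ℝ) 1, (k ^ 2 - (k * u) ^ 2) ^ α =
          k ^ (2 * α) * (1 - u ^ 2) ^ α := by
        intro u hu
        rw [uIcc_of_le zero_le_one] at hu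
        have h4 : k ^ 2 - (k * u) ^ 2 = k ^ 2 * (1 - u ^ 2) := by ring
        have h5 : (0 : ℝ) ≤ 1 - u ^ 2 := by
          have := hu.1
          have := hu.2
          nlinarith
        rw [h4, Real.mul_rpow (sq_nonneg k) h5, ← Real.rpow_natCast k 2, ← Real.rpow_mul hk.le]
        norm_num
      rw [intervalIntegral.integral_congr h3, intervalIntegral.integral_const_mul]
      rw [Real.rpow_add hk, Real.rpow_one]
      ring
  refine ⟨?_, ?_⟩
  · refine (hA.const_mul 2).congr (Eventually.of_forall fun q => ?_)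
    exact (hcongr q).symm
  · rw [integral_congr_ae (Eventually.of_forall hcongr), integral_const_mul, hB, hscale, hbeta]
    ring

theorem hfun_nonneg {q v : ℝ} (hq : 0 < q) (hv : 0 ≤ v) : 0 ≤ hfun q v := by
  rw [T21_hfun_eq hq hv]
  exact intervalIntegral.integral_nonneg hv fun s hs => T21_log_nonneg hq hs.1

theorem theta_nonneg {q k : ℝ} (hq : 0 < q) (hk : 0 ≤ k) : 0 ≤ theta q k := by
  unfold theta
  refine intervalIntegral.integral_nonneg hk fun s hs => T21_log_nonneg hq ?_
  have := hs.1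
  have := hs.2
  nlinarith

end Crest.Agent.LT
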