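import Crest.Agent.LT_Defs
import Crest.Agent.LT_T01
import Crest.Agent.LT_T02
import Crest.Agent.LT_T15
import Crest.Agent.LT_T16
import Crest.Agent.LT_T17
import Crest.Agent.LT_T18
import Crest.Agent.LT_T19
import Crest.Agent.LT_T21
/-!
Task LT-T24: the HJ inequality integrated along a Riccati path:
`β tr K^{2γ} ≤ α^α/(1+α)^{1+α} ∫ tr V^{1+α}`, `2γ = 2α + 1`.
Proof: integrate `hj_pointwise` over `x ∈ [-R, R]`, use `Ecal_nonneg` at `q₁`, `Ecal_le_log` at `q₀`, Fubini (jointly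
continuous integrand on `[q₀,q₁] × [-R,R]`), `path_integral`, then `q₀ → 0`, `q₁ → ∞` with LT-T21 (Tonelli for
`∫∫ q^{α-1} h_q(v_i(x)/s)`): `0 ≤ -α I β tr K^{2α+1} + α s ∫ tr (V/s)^{1+α} I/(1+α)`, `s = (1+α)/α`.
-/

set_option autoImplicit false

namespace Crest.Agent.LT

open MeasureTheory Matrix Set Filter
open Crest.MathPhysics.LiebThirring
open scoped ComplexOrder Topology

theorem T24_smul_eq {N : ℕ} (c : ℝ) (V : Mt N) : ((c : ℝ) : ℂ) • V = c • V := by
  ext i j
  simp [Matrix.smul_apply]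

theorem T24_rpow_smul {N : ℕ} {p c : ℝ} (hp : 0 < p) (hc : 0 ≤ c) {V : Mt N} (hV : V.PosSemidef) :
    tr (cfc (fun t : ℝ => t ^ p) (((c : ℝ) : ℂ) • V)) = c ^ p * tr (cfc (fun t : ℝ => t ^ p) V) := by
  have hsa : IsSelfAdjoint V := hV.1
  rw [T24_smul_eq, ← cfc_comp_smul c (fun t : ℝ => t ^ p) V
    ((Real.continuous_rpow_const hp.le).continuousOn) hsa, tr_cfc hV.1, tr_cfc hV.1, Finset.mul_sum]
  refine Finset.sum_congr rfl fun i _ => ?_
  rw [smul_eq_mul, Real.mul_rpow hc (hV.eigenvalues_nonneg i)]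

theorem T24_H {N : ℕ} {α : ℝ} (h0 : 0 < α) (h1 : α < 1) {W : Mt N} (hW : W.PosSemidef)
    {q₀ q₁ : ℝ} (hq₀ : 0 < q₀) (hq : q₀ ≤ q₁) :
    ∫ q in q₀..q₁, q ^ (α - 1) * tr (cfc (hfun q) W) ≤
      Ialpha α / (1 + α) * tr (cfc (fun t : ℝ => t ^ (1 + α)) W) := by
  have hsub : Ioc q₀ q₁ ⊆ Ioi (0 : ℝ) := fun q hq' => hq₀.trans hq'.1
  have hev : ∀ i, 0 ≤ hW.1.eigenvalues i := fun i => hW.eigenvalues_nonneg i
  have e1 : ∀ q : ℝ, q ^ (α - 1) * tr (cfc (hfun q) W) =
      ∑ i, q ^ (α - 1) * hfun q (hW.1.eigenvalues i) := by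
    intro q
    rw [tr_cfc hW.1, Finset.mul_sum]
  simp only [e1]
  rw [intervalIntegral.integral_of_le hq, integral_finset_sum]
  · rw [tr_cfc hW.1, Finset.mul_sum]
    refine Finset.sum_le_sum fun i _ => ?_
    obtain ⟨hi1, hi2⟩ := integral_hfun h0 h1 (hev i)
    calc ∫ q in Ioc q₀ q₁, q ^ (α - 1) * hfun q (hW.1.eigenvalues i)
        ≤ ∫ q in Ioi (0 : ℝ), q ^ (α - 1) * hfun q (hW.1.eigenvalues i) := by
          refine setIntegral_mono_set hi1 ?_ (HasSubset.Subset.eventuallyLE hsub)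
          filter_upwards [ae_restrict_mem measurableSet_Ioi] with q hq'
          exact mul_nonneg (Real.rpow_nonneg (le_of_lt hq') _) (hfun_nonneg hq' (hev i))
      _ = Ialpha α / (1 + α) * (hW.1.eigenvalues i) ^ (1 + α) := by
          rw [hi2]; ring
  · intro i _
    exact (integral_hfun h0 h1 (hev i)).1.mono_set hsub

theorem T24_theta {N : ℕ} {α : ℝ} (h0 : 0 < α) (h1 : α < 1) {K : Mt N} (hK : K.PosSemidef) :
    IntegrableOn (fun q : ℝ => q ^ (α - 1) * tr (cfc (fun k => 2 * theta q k) K)) (Ioi 0) ∧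
      ∫ q in Ioi (0 : ℝ), q ^ (α - 1) * tr (cfc (fun k => 2 * theta q k) K) =
        Ialpha α * (beta α * tr (cfc (fun t : ℝ => t ^ (2 * α + 1)) K)) := by
  have hev : ∀ i, 0 ≤ hK.1.eigenvalues i := fun i => hK.eigenvalues_nonneg i
  have e1 : (fun q : ℝ => q ^ (α - 1) * tr (cfc (fun k => 2 * theta q k) K)) =
      fun q => ∑ i, q ^ (α - 1) * (2 * theta q (hK.1.eigenvalues i)) := by
    funext q
    rw [tr_cfc hK.1, Finset.mul_sum]
  rw [e1]
  refine ⟨?_, ?_⟩
  · exact integrable_finset_sum _ fun i _ => (integral_theta h0 h1 (hev i)).1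
  · rw [integral_finset_sum _ fun i _ => (integral_theta h0 h1 (hev i)).1, tr_cfc hK.1,
      Finset.mul_sum, Finset.mul_sum]
    exact Finset.sum_congr rfl fun i _ => (integral_theta h0 h1 (hev i)).2

/-- the inequality at finite `q₀, q₁` -/
theorem T24_finite {N : ℕ} {α R : ℝ} (h0 : 0 < α) (h1 : α < 1) {K : Mt N} {F V : ℝ → Mt N}
    (h : Riccati R K F V) {C : ℝ}
    (hC : ∀ F : Mt N, Adm K F → ∀ q : ℝ, 0 < q → q ≤ 1 → Ecal K F q ≤ C * (1 + |Real.log q|))
    {q₀ q₁ : ℝ} (hq₀ : 0 < q₀) (hq₀1 : q₀ ≤ 1) (hq : q₀ ≤ q₁) :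
    α * ∫ q in q₀..q₁, q ^ (α - 1) * tr (cfc (fun k => 2 * theta q k) K) ≤
      Ialpha α * (α ^ (1 + α) / (1 + α) ^ (1 + α)) *
        (∫ x in (-R)..R, tr (cfc (fun t : ℝ => t ^ (1 + α)) (V x))) +
      2 * R * (q₀ ^ α * (C * (1 + |Real.log q₀|))) := by
  have hRR : -R ≤ R := by linarith [h.hR]
  set s : ℝ := 1 / α + 1 with hs
  have hspos : 0 < s := by positivity
  set Φ : ℝ → ℝ → ℝ := fun x q => α * q ^ (α - 1) * tr ((K * K - F x * F x - V x) * zq K (F x) q)
    with hΦ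
  have hKh : K.IsHermitian := (h.adm (-R) ⟨le_rfl, hRR⟩).isHermitian_K
  -- joint continuity
  have hcont : ContinuousOn (Function.uncurry Φ) (Icc (-R) R ×ˢ Icc q₀ q₁) := by
    have c1 : ContinuousOn (fun p : ℝ × ℝ => F p.1) (Icc (-R) R ×ˢ Icc q₀ q₁) :=
      h.contF.comp continuousOn_fst fun p hp => hp.1
    have c2 : ContinuousOn (fun p : ℝ × ℝ => V p.1) (Icc (-R) R ×ˢ Icc q₀ q₁) :=
      h.contV.comp continuousOn_fst fun p hp => hp.1
    have c3 : ContinuousOn (fun p : ℝ × ℝ => zq K (F p.1) p.2) (Icc (-R) R ×ˢ Icc q₀ q₁) :=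
      continuousOn_zq hKh c1 continuousOn_snd (fun p hp => hq₀.trans_le hp.2.1)
        (fun p hp => h.adm p.1 hp.1)
    have c4 : ContinuousOn (fun p : ℝ × ℝ => α * p.2 ^ (α - 1)) (Icc (-R) R ×ˢ Icc q₀ q₁) :=
      continuousOn_const.mul (continuousOn_snd.rpow_const
        fun p hp => Or.inl (hq₀.trans_le hp.2.1).ne')
    have c5 := continuousOn_tr (((continuousOn_const (c := K * K)).sub (c1.mul c1)).sub c2 |>.mul c3)
    exact c4.mul c5
  have hint : Integrable (Function.uncurry Φ)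
      ((volume.restrict (Ioc (-R) R)).prod (volume.restrict (Ioc q₀ q₁))) := by
    rw [Measure.prod_restrict]
    have := hcont.integrableOn_compact (μ := (volume : Measure ℝ).prod (volume : Measure ℝ))
      (isCompact_Icc.prod isCompact_Icc)
    exact this.mono_set (Set.prod_mono Ioc_subset_Icc_self Ioc_subset_Icc_self)
  -- pointwise inequality
  have hpt : ∀ x ∈ Icc (-R) R, - (q₀ ^ α * (C * (1 + |Real.log q₀|))) ≤
      (∫ q in q₀..q₁, Φ x q) + Ialpha α * (α ^ (1 + α) / (1 + α) ^ (1 + α)) *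
        tr (cfc (fun t : ℝ => t ^ (1 + α)) (V x)) := by
    intro x hx
    have hadm := h.adm x hx
    have hVx := h.Vpsd x hx
    have hW : ((((1 / α + 1)⁻¹ : ℝ) : ℂ) • V x).PosSemidef := by
      rw [T24_smul_eq]
      exact hVx.smul (by positivity)
    have hj := hj_pointwise h0 hadm hVx hq₀ hq
    have hE1 : 0 ≤ q₁ ^ α * Ecal K (F x) q₁ :=
      mul_nonneg (Real.rpow_nonneg (hq₀.le.trans hq) _) (Ecal_nonneg hadm (hq₀.trans_le hq))
    have hE0 : q₀ ^ α * Ecal K (F x) q₀ ≤ q₀ ^ α * (C * (1 + |Real.log q₀|)) :=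
      mul_le_mul_of_nonneg_left (hC (F x) hadm q₀ hq₀ hq₀1) (Real.rpow_nonneg hq₀.le _)
    have hcq : ContinuousOn (fun q : ℝ => Φ x q) (Icc q₀ q₁) := by
      have : ContinuousOn (fun q : ℝ => ((x, q) : ℝ × ℝ)) (Icc q₀ q₁) := by fun_prop
      exact hcont.comp this fun q hq' => ⟨hx, hq'⟩
    have hcH : ContinuousOn (fun q : ℝ => tr (cfc (hfun q) ((((1 / α + 1)⁻¹ : ℝ) : ℂ) • V x)))
        (Icc q₀ q₁) :=
      continuousOn_tr_hfun continuousOn_const continuousOn_id
        (fun q hq' => hq₀.trans_le hq'.1) fun _ _ => hW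
    have hcr : ContinuousOn (fun q : ℝ => q ^ (α - 1)) (Icc q₀ q₁) :=
      continuousOn_id.rpow_const fun q hq' => Or.inl (hq₀.trans_le hq'.1).ne'
    have hsplit : (∫ q in q₀..q₁, α * q ^ (α - 1) * (tr ((K * K - F x * F x - V x) * zq K (F x) q)
        + (1 / α + 1) * tr (cfc (hfun q) ((((1 / α + 1)⁻¹ : ℝ) : ℂ) • V x)))) =
        (∫ q in q₀..q₁, Φ x q) + (α * s) *
          ∫ q in q₀..q₁, q ^ (α - 1) * tr (cfc (hfun q) ((((1 / α + 1)⁻¹ : ℝ) : ℂ) • V x)) := by
      rw [← intervalIntegral.integral_const_mul, ← intervalIntegral.integral_add]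
      · refine intervalIntegral.integral_congr fun q _ => ?_
        simp only [hΦ, hs]
        ring
      · rw [intervalIntegrable_iff_integrableOn_Icc_of_le hq]
        exact hcq.integrableOn_compact isCompact_Icc
      · rw [intervalIntegrable_iff_integrableOn_Icc_of_le hq]
        exact (continuousOn_const.mul (hcr.mul hcH)).integrableOn_compact isCompact_Icc
    rw [hsplit] at hj
    have hH := T24_H h0 h1 hW hq₀ hq
    rw [T24_rpow_smul (by linarith : (0 : ℝ) < 1 + α) (by positivity) hVx] at hH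
    have hH2 : (α * s) * ∫ q in q₀..q₁, q ^ (α - 1) *
        tr (cfc (hfun q) ((((1 / α + 1)⁻¹ : ℝ) : ℂ) • V x)) ≤
        Ialpha α * (α ^ (1 + α) / (1 + α) ^ (1 + α)) *
        tr (cfc (fun t : ℝ => t ^ (1 + α)) (V x)) := by
      refine (mul_le_mul_of_nonneg_left hH (by positivity)).trans (le_of_eq ?_)
      have e1 : (1 / α + 1)⁻¹ = α / (1 + α) := by
        field_simp
        
      have e2 : α * s = 1 + α := by
        rw [hs]; field_simp
        
      rw [e1, e2, Real.div_rpow h0.le (by linarith)]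
      field_simp
    linarith
  -- integrate over x
  have hcV : ContinuousOn (fun x => tr (cfc (fun t : ℝ => t ^ (1 + α)) (V x))) (Icc (-R) R) := by
    refine continuousOn_tr ?_
    refine continuousOn_cfc_param (f := fun _ t => t ^ (1 + α)) (t := Set.univ) h.contV
      (fun x hx => (h.Vpsd x hx).1) isOpen_univ ?_ fun _ _ => Set.subset_univ _
    exact (continuousOn_snd.rpow_const fun p _ => Or.inr (by linarith))
  have hiΦ : IntervalIntegrable (fun x => ∫ q in q₀..q₁, Φ x q) volume (-R) R := by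
    rw [intervalIntegrable_iff_integrableOn_Ioc_of_le hRR]
    simp only [intervalIntegral.integral_of_le hq]
    exact hint.integral_prod_left
  have hiV : IntervalIntegrable (fun x => tr (cfc (fun t : ℝ => t ^ (1 + α)) (V x))) volume (-R) R := by
    rw [intervalIntegrable_iff_integrableOn_Icc_of_le hRR]
    exact hcV.integrableOn_compact isCompact_Icc
  have hmono := intervalIntegral.integral_mono_on hRR
    (intervalIntegrable_const (c := - (q₀ ^ α * (C * (1 + |Real.log q₀|)))) (μ := volume)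
      (a := -R) (b := R)) (hiΦ.add (hiV.const_mul _)) hpt
  rw [intervalIntegral.integral_const, intervalIntegral.integral_add hiΦ (hiV.const_mul _),
    intervalIntegral.integral_const_mul] at hmono
  -- Fubini
  have hfub : ∫ x in (-R)..R, ∫ q in q₀..q₁, Φ x q =
      - (α * ∫ q in q₀..q₁, q ^ (α - 1) * tr (cfc (fun k => 2 * theta q k) K)) := by
    have e1 : ∫ x in (-R)..R, ∫ q in q₀..q₁, Φ x q = ∫ q in q₀..q₁, ∫ x in (-R)..R, Φ x q := by
      simp only [intervalIntegral.integral_of_le hq, intervalIntegral.integral_of_le hRR]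
      exact integral_integral_swap hint
    rw [e1, ← neg_mul, ← intervalIntegral.integral_const_mul]
    refine intervalIntegral.integral_congr fun q hq' => ?_
    rw [uIcc_of_le hq] at hq'
    have hqpos : 0 < q := hq₀.trans_le hq'.1
    simp only [hΦ]
    rw [intervalIntegral.integral_const_mul, path_integral h hqpos]
    ring
  rw [hfub] at hmono
  simp only [smul_eq_mul] at hmono
  nlinarith [hmono]

theorem hj_total {N : ℕ} {α R : ℝ} (h0 : 0 < α) (h1 : α < 1) {K : Mt N} {F V : ℝ → Mt N}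
    (h : Riccati R K F V) :
    beta α * tr (cfc (fun t : ℝ => t ^ (2 * α + 1)) K) ≤
      α ^ α / (1 + α) ^ (1 + α) * ∫ x in (-R)..R, tr (cfc (fun t : ℝ => t ^ (1 + α)) (V x)) := by
  have hRR : -R ≤ R := by linarith [h.hR]
  have hK : K.PosSemidef := (h.adm (-R) ⟨le_rfl, hRR⟩).posSemidef
  obtain ⟨C, hC0, hC⟩ := Ecal_le_log K
  obtain ⟨hT1, hT2⟩ := T24_theta h0 h1 hK
  have hI := Ialpha_pos h0 h1
  set T := tr (cfc (fun t : ℝ => t ^ (2 * α + 1)) K) with hT
  set J := ∫ x in (-R)..R, tr (cfc (fun t : ℝ => t ^ (1 + α)) (V x)) with hJ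
  -- sequences
  set a : ℕ → ℝ := fun n => 1 / ((n : ℝ) + 1) with ha
  have hapos : ∀ n, 0 < a n := fun n => by positivity
  have ha1 : ∀ n, a n ≤ 1 := fun n => by
    rw [ha]
    simp only
    rw [div_le_one (by positivity)]
    have : (0 : ℝ) ≤ n := Nat.cast_nonneg n
    linarith
  have hab : ∀ n : ℕ, a n ≤ (n : ℝ) + 1 := fun n => by
    have : (0 : ℝ) ≤ n := Nat.cast_nonneg n
    linarith [ha1 n]
  have hineq : ∀ n : ℕ, α * (∫ q in Ioc (a n) ((n : ℝ) + 1), q ^ (α - 1) *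
      tr (cfc (fun k => 2 * theta q k) K)) ≤
      Ialpha α * (α ^ (1 + α) / (1 + α) ^ (1 + α)) * J +
      2 * R * ((a n) ^ α * (C * (1 + |Real.log (a n)|))) := by
    intro n
    have := T24_finite h0 h1 h hC (hapos n) (ha1 n) (hab n)
    rwa [intervalIntegral.integral_of_le (hab n)] at this
  have hmono : Monotone fun n : ℕ => Ioc (a n) ((n : ℝ) + 1) := by
    intro n m hnm
    refine Ioc_subset_Ioc ?_ ?_
    · simp only [ha]
      apply one_div_le_one_div_of_le (by positivity)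
      have : (n : ℝ) ≤ m := by exact_mod_cast hnm
      linarith
    · have : (n : ℝ) ≤ m := by exact_mod_cast hnm
      linarith
  have hunion : (⋃ n : ℕ, Ioc (a n) ((n : ℝ) + 1)) = Ioi (0 : ℝ) := by
    ext q
    simp only [mem_iUnion, mem_Ioc, mem_Ioi]
    constructor
    · rintro ⟨n, hn, _⟩
      exact (hapos n).trans hn
    · intro hq
      obtain ⟨n, hn⟩ := exists_nat_gt (max (1 / q) q)
      refine ⟨n, ?_, ?_⟩
      · simp only [ha]
        rw [div_lt_iff₀ (by positivity)]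
        have : 1 / q < n := lt_of_le_of_lt (le_max_left _ _) hn
        rw [div_lt_iff₀ hq] at this
        nlinarith
      · have : q < n := lt_of_le_of_lt (le_max_right _ _) hn
        linarith
  have hlim1 := tendsto_setIntegral_of_monotone (μ := volume)
    (f := fun q : ℝ => q ^ (α - 1) * tr (cfc (fun k => 2 * theta q k) K))
    (fun n : ℕ => (measurableSet_Ioc : MeasurableSet (Ioc (a n) ((n : ℝ) + 1)))) hmono
    (by rw [hunion]; exact hT1)
  rw [hunion, hT2] at hlim1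
  have hlima : Tendsto a atTop (𝓝[>] 0) := by
    rw [tendsto_nhdsWithin_iff]
    exact ⟨tendsto_one_div_add_atTop_nhds_zero_nat, Eventually.of_forall hapos⟩
  have hlim2 : Tendsto (fun n => (a n) ^ α * (C * (1 + |Real.log (a n)|))) atTop (𝓝 0) := by
    have e1 : Tendsto (fun x : ℝ => Real.log x * x ^ α) (𝓝[>] 0) (𝓝 0) :=
      tendsto_log_mul_rpow_nhdsGT_zero h0
    have e2 : Tendsto (fun x : ℝ => x ^ α) (𝓝[>] 0) (𝓝 0) := by
      have : Tendsto (fun x : ℝ => x ^ α) (𝓝 0) (𝓝 ((0 : ℝ) ^ α)) :=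
        (Real.continuous_rpow_const h0.le).tendsto 0
      rw [Real.zero_rpow h0.ne'] at this
      exact this.mono_left nhdsWithin_le_nhds
    have e3 : Tendsto (fun x : ℝ => C * (x ^ α + |Real.log x * x ^ α|)) (𝓝[>] 0) (𝓝 (C * (0 + |0|))) :=
      (e2.add e1.abs).const_mul C
    simp only [abs_zero, add_zero, mul_zero] at e3
    refine (e3.comp hlima).congr fun n => ?_
    simp only [Function.comp]
    rw [abs_mul, abs_of_nonneg (Real.rpow_nonneg (hapos n).le α)]
    ring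
  have hlim : α * (Ialpha α * (beta α * T)) ≤
      Ialpha α * (α ^ (1 + α) / (1 + α) ^ (1 + α)) * J + 2 * R * 0 :=
    le_of_tendsto_of_tendsto' (hlim1.const_mul α) (tendsto_const_nhds.add (hlim2.const_mul (2 * R)))
      hineq
  have e4 : α ^ (1 + α) = α * α ^ α := by
    rw [Real.rpow_add h0, Real.rpow_one]
  rw [e4] at hlim
  have hfin : (α * Ialpha α) * (beta α * T) ≤ (α * Ialpha α) * (α ^ α / (1 + α) ^ (1 + α) * J) := by
    have : Ialpha α * (α * α ^ α / (1 + α) ^ (1 + α)) * J + 2 * R * 0 =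
        (α * Ialpha α) * (α ^ α / (1 + α) ^ (1 + α) * J) := by ring
    rw [← this]
    linarith
  exact le_of_mul_le_mul_left hfin (by positivity)

end Crest.Agent.LT
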