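import Crest.Agent.LT_Defs
import Crest.Agent.LT_T01
import Crest.Agent.LT_T03
/-!
Task LT-T35: positivity along the truncated flow. `clampM T A = c(A)`, `c(t) = min (max t 0) T`.
`g(x) = tr f(X(x))` with `f(t) = (min t 0)²`, `f'(t) = 2 min t 0` (quadratic remainder with `M = 1`):
`g' = 2 tr (X_- ... )`: `tr (f'(X) V) ≤ 0` and `f'(X) c(X) = 0`, so `g' ≤ 0`, `g(-R) = 0`, hence `g = 0`.
-/

set_option autoImplicit false

namespace Crest.Agent.LT

open MeasureTheory Matrix Set Filter
open Crest.MathPhysics.LiebThirring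
open scoped ComplexOrder Topology

/-- clamp to `[0,T]` -/
noncomputable def clampM {N : ℕ} (T : ℝ) (A : Mt N) : Mt N := cfc (fun t : ℝ => min (max t 0) T) A

theorem T35_rem (a b : ℝ) :
    |(min b 0) ^ 2 - (min a 0) ^ 2 - (2 * min a 0) * (b - a)| ≤ 1 * (b - a) ^ 2 := by
  rw [abs_le]
  rcases le_total a 0 with ha | ha <;> rcases le_total b 0 with hb | hb
  · rw [min_eq_left ha, min_eq_left hb]; constructor <;> nlinarith [mul_self_nonneg (b - a)]
  · rw [min_eq_left ha, min_eq_right hb]
    constructor <;> nlinarith [mul_self_nonneg (b - a), mul_self_nonneg b, mul_nonneg (neg_nonneg.mpr ha) hb]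
  · rw [min_eq_right ha, min_eq_left hb]
    constructor <;> nlinarith [mul_self_nonneg (b - a), mul_self_nonneg b, mul_nonneg (neg_nonneg.mpr hb) ha]
  · rw [min_eq_right ha, min_eq_right hb]; constructor <;> nlinarith [mul_self_nonneg (b - a)]

theorem T35_contOn {N : ℕ} {A : Mt N} (hA : A.IsHermitian) (f : ℝ → ℝ) :
    ContinuousOn f (spectrum ℝ A) := by
  rw [hA.spectrum_real_eq_range_eigenvalues]
  exact (Set.finite_range _).continuousOn f

theorem T35_continuous_hs2 {m N : ℕ} : Continuous (hs2 : Matrix (Fin m) (Fin N) ℂ → ℝ) := by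
  unfold hs2
  refine continuous_finsetSum _ fun i _ => continuous_finsetSum _ fun j _ => ?_
  exact ((continuous_apply j).comp (continuous_apply i)).norm.pow 2

theorem T35_continuous_tr {N : ℕ} : Continuous (tr : Mt N → ℝ) := by
  unfold tr
  exact Complex.continuous_re.comp (Continuous.matrix_trace continuous_id)

theorem T35_tr_add {N : ℕ} (A B : Mt N) : tr (A + B) = tr A + tr B := by
  simp [tr, Matrix.trace_add]

theorem T35_tr_sub {N : ℕ} (A B : Mt N) : tr (A - B) = tr A - tr B := by
  simp [tr, Matrix.trace_sub]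

theorem T35_tr_comm {N : ℕ} (A B : Mt N) : tr (A * B) = tr (B * A) := by
  simp only [tr, Matrix.trace_mul_comm A B]

theorem psd_of_ode {N : ℕ} {R T : ℝ} (hR : 0 < R) (hT : 0 ≤ T) {X V Z : ℝ → Mt N}
    (hXc : ContinuousOn X (Icc (-R) R)) (hX0 : X (-R) = 0)
    (hXH : ∀ x ∈ Icc (-R) R, (X x).IsHermitian) (hV : ∀ x ∈ Icc (-R) R, (V x).PosSemidef)
    (hd : ∀ x ∈ Ioo (-R) R, HasDerivAt X
      (V x - (1 / 2 : ℂ) • (clampM T (X x) * Z x + Z x * clampM T (X x))) x) :
    ∀ x ∈ Icc (-R) R, (X x).PosSemidef := by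
  set f : ℝ → ℝ := fun t => (min t 0) ^ 2 with hf
  set f' : ℝ → ℝ := fun t => 2 * min t 0 with hf'
  -- continuity
  have hgc : ContinuousOn (fun x => tr (cfc f (X x))) (Icc (-R) R) := by
    intro x hx
    have h1 : Tendsto (fun y => 1 * hs2 (X y - X x) + |tr (cfc f' (X x) * (X y - X x))|)
        (𝓝[Icc (-R) R] x) (𝓝 0) := by
      have h2 : Tendsto (fun y => X y - X x) (𝓝[Icc (-R) R] x) (𝓝 0) := by
        have := (hXc x hx).tendsto.sub_const (X x)
        rwa [sub_self] at this
      have h3 : Continuous (fun D : Mt N => 1 * hs2 D + |tr (cfc f' (X x) * D)|) := by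
        refine (continuous_const.mul T35_continuous_hs2).add ?_
        exact (T35_continuous_tr.comp (continuous_const.mul continuous_id)).abs
      have h4 := (h3.tendsto 0).comp h2
      have h5 : 1 * hs2 (0 : Mt N) + |tr (cfc f' (X x) * 0)| = 0 := by
        simp [hs2, tr]
      rw [h5] at h4
      exact h4
    rw [ContinuousWithinAt, tendsto_iff_dist_tendsto_zero]
    refine squeeze_zero' (Eventually.of_forall fun _ => dist_nonneg) ?_ h1
    filter_upwards [self_mem_nhdsWithin] with y hy
    have h6 := abs_tr_cfc_remainder_le (hXH x hx) (hXH y hy) f f' 1 (fun a _ b _ => T35_rem a b)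
    rw [Real.dist_eq]
    have h7 : tr (cfc f (X y)) - tr (cfc f (X x)) =
        (tr (cfc f (X y)) - tr (cfc f (X x)) - tr (cfc f' (X x) * (X y - X x))) +
          tr (cfc f' (X x) * (X y - X x)) := by ring
    rw [h7]
    exact (abs_add_le _ _).trans (by linarith)
  -- the derivative
  have hder : ∀ x ∈ Ioo (-R) R, HasDerivAt (fun y => tr (cfc f (X y)))
      (tr (cfc f' (X x) * (V x - (1 / 2 : ℂ) • (clampM T (X x) * Z x + Z x * clampM T (X x))))) x := by
    intro x hx
    refine hasDerivAt_tr_cfc (t := univ) (M := 1) (hd x hx) ?_ ?_ (fun a _ b _ => T35_rem a b)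
    · filter_upwards [Ioo_mem_nhds hx.1 hx.2] with y hy
      exact hXH y (Ioo_subset_Icc_self hy)
    · filter_upwards with y
      exact subset_univ _
  have hneg : ∀ x ∈ Ioo (-R) R,
      tr (cfc f' (X x) * (V x - (1 / 2 : ℂ) • (clampM T (X x) * Z x + Z x * clampM T (X x)))) ≤ 0 := by
    intro x hx
    have hxI := Ioo_subset_Icc_self hx
    have hH := hXH x hxI
    have hVH := (hV x hxI).1
    have h0 : cfc f' (X x) * clampM T (X x) = 0 := by
      unfold clampM
      rw [← cfc_mul f' _ (X x) (T35_contOn hH _) (T35_contOn hH _)]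
      have : (fun t : ℝ => f' t * min (max t 0) T) = fun _ => 0 := by
        funext t
        simp only [hf']
        rcases le_total t 0 with ht | ht
        · rw [max_eq_right ht, min_eq_left hT, mul_zero]
        · rw [min_eq_right ht]; ring
      rw [this]
      exact cfc_const_zero ℝ (X x)
    have h0' : clampM T (X x) * cfc f' (X x) = 0 := by
      unfold clampM
      rw [← cfc_mul _ f' (X x) (T35_contOn hH _) (T35_contOn hH _)]
      have : (fun t : ℝ => min (max t 0) T * f' t) = fun _ => 0 := by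
        funext t
        simp only [hf']
        rcases le_total t 0 with ht | ht
        · rw [max_eq_right ht, min_eq_left hT, zero_mul]
        · rw [min_eq_right ht]; ring
      rw [this]
      exact cfc_const_zero ℝ (X x)
    have h1 : tr (cfc f' (X x) * ((1 / 2 : ℂ) • (clampM T (X x) * Z x + Z x * clampM T (X x)))) = 0 := by
      rw [mul_smul_comm, mul_add, ← mul_assoc, h0, zero_mul, zero_add]
      have h2 : tr ((1 / 2 : ℂ) • (cfc f' (X x) * (Z x * clampM T (X x)))) =
          1 / 2 * tr (cfc f' (X x) * (Z x * clampM T (X x))) := by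
        simp only [tr, Matrix.trace_smul, smul_eq_mul]
        have : ((1:ℂ)/2) = (((1:ℝ)/2 : ℝ) : ℂ) := by push_cast; rfl
        rw [this, Complex.re_ofReal_mul]
      rw [h2, T35_tr_comm, mul_assoc, h0', mul_zero]
      simp [tr]
    rw [mul_sub, T35_tr_sub, h1, sub_zero]
    obtain ⟨w, hw0, _, _, hw⟩ := tr_cfc_mul_cfc hH hVH
    have h3 := hw f' (fun t => t)
    have e : cfc (fun t : ℝ => t) (V x) = V x := cfc_id' ℝ (V x) hVH
    rw [e] at h3
    rw [h3]
    refine Finset.sum_nonpos fun i _ => Finset.sum_nonpos fun j _ => ?_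
    refine mul_nonpos_of_nonneg_of_nonpos (hw0 i j) ?_
    refine mul_nonpos_of_nonpos_of_nonneg ?_ ((hV x hxI).eigenvalues_nonneg j)
    simp only [hf']
    have := min_le_right (hH.eigenvalues i) 0
    linarith
  have hanti : AntitoneOn (fun x => tr (cfc f (X x))) (Icc (-R) R) := by
    refine antitoneOn_of_deriv_nonpos (convex_Icc _ _) hgc ?_ ?_
    · rw [interior_Icc]
      intro x hx
      exact (hder x hx).differentiableAt.differentiableWithinAt
    · rw [interior_Icc]
      intro x hx
      rw [(hder x hx).deriv]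
      exact hneg x hx
  intro x hx
  have h1 := hanti (left_mem_Icc.mpr (by linarith)) hx hx.1
  simp only at h1
  rw [hX0, cfc_apply_zero] at h1
  have h2 : tr ((algebraMap ℝ (Mt N)) (f 0)) = 0 := by
    simp [hf, tr]
  rw [h2, tr_cfc (hXH x hx)] at h1
  rw [(hXH x hx).posSemidef_iff_eigenvalues_nonneg]
  intro i
  have h3 : ∀ i ∈ Finset.univ, 0 ≤ f ((hXH x hx).eigenvalues i) := fun i _ => by
    simp only [hf]; positivity
  have h4 := (Finset.sum_eq_zero_iff_of_nonneg h3).mp (le_antisymm h1 (Finset.sum_nonneg h3)) i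
    (Finset.mem_univ i)
  simp only [hf] at h4
  have h5 : min ((hXH x hx).eigenvalues i) 0 = 0 := by
    exact pow_eq_zero_iff (two_ne_zero) |>.mp h4
  exact min_eq_right_iff.mp h5

end Crest.Agent.LT
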