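import Crest.Agent.LTE_Defs
import Crest.Agent.LTE_E04
import Crest.Agent.LT_T24
import Crest.Agent.LT_T35
/-!
Task LTE-E05: the HJ stability theorem (dimension-free). Same proof as `hj_total` (LT-T24, `T24_finite`), with the extra
term `c * hjErr` (constant in `q`) gained on `q ∈ [1,2]` in the pointwise inequality `hj_pointwise`.
-/

set_option autoImplicit false

namespace Crest.Agent.LT

open MeasureTheory Matrix Set Filter
open Crest.MathPhysics.LiebThirring
open scoped ComplexOrder Topology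

theorem E05_pointwise {N : ℕ} {α : ℝ} (hα : 0 < α) {K F V : Mt N} (h : Adm K F)
    (hV : V.PosSemidef) {c : ℝ} (hd : ∀ q ∈ Icc (1 : ℝ) 2,
      ∃ D' : ℝ, HasDerivAt (fun q : ℝ => q ^ α * Ecal K F q) D' q ∧
        D' + c * hjErr α K F V ≤ α * q ^ (α - 1) * (tr ((K * K - F * F - V) * zq K F q)
          + (1 / α + 1) * tr (cfc (hfun q) ((((1 / α + 1)⁻¹ : ℝ) : ℂ) • V))))
    {q₀ q₁ : ℝ} (hq₀ : 0 < q₀) (hq₀1 : q₀ ≤ 1) (hq2 : 2 ≤ q₁) :
    q₁ ^ α * Ecal K F q₁ - q₀ ^ α * Ecal K F q₀ + c * hjErr α K F V ≤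
      ∫ q in q₀..q₁, α * q ^ (α - 1) * (tr ((K * K - F * F - V) * zq K F q)
        + (1 / α + 1) * tr (cfc (hfun q) ((((1 / α + 1)⁻¹ : ℝ) : ℂ) • V))) := by
  have hs : 0 < 1 / α + 1 := by positivity
  have hq : q₀ ≤ q₁ := by linarith
  have hpos : ∀ q ∈ Icc q₀ q₁, 0 < q := fun q hq' => lt_of_lt_of_le hq₀ hq'.1
  obtain ⟨G, hG⟩ : ∃ G : ℝ → ℝ, G = fun q : ℝ => α * q ^ (α - 1) *
      (tr ((K * K - F * F - V) * zq K F q)
        + (1 / α + 1) * tr (cfc (hfun q) ((((1 / α + 1)⁻¹ : ℝ) : ℂ) • V))) := ⟨_, rfl⟩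
  have hcont : ContinuousOn G (Icc q₀ q₁) := by
    have c1 : ContinuousOn (fun q : ℝ => zq K F q) (Icc q₀ q₁) :=
      continuousOn_zq h.isHermitian_K continuousOn_const continuousOn_id hpos (fun _ _ => h)
    have c2 : ContinuousOn (fun q : ℝ => tr ((K * K - F * F - V) * zq K F q)) (Icc q₀ q₁) :=
      continuousOn_tr (continuousOn_const.mul c1)
    have c3 : ContinuousOn (fun q : ℝ => tr (cfc (hfun q) ((((1 / α + 1)⁻¹ : ℝ) : ℂ) • V)))
        (Icc q₀ q₁) :=
      continuousOn_tr_hfun (V := fun _ : ℝ => (((1 / α + 1)⁻¹ : ℝ) : ℂ) • V) (q := fun q => q)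
        continuousOn_const continuousOn_id hpos
        (fun _ _ => T18_smul_psd hV (inv_nonneg.mpr hs.le))
    have c4 : ContinuousOn (fun q : ℝ => q ^ (α - 1)) (Icc q₀ q₁) :=
      continuousOn_id.rpow_const (fun x hx => Or.inl (hpos x hx).ne')
    rw [hG]
    exact (continuousOn_const.mul c4).mul (c2.add (continuousOn_const.mul c3))
  have hii : ∀ a b : ℝ, q₀ ≤ a → a ≤ b → b ≤ q₁ → IntervalIntegrable G volume a b := by
    intro a b ha hab hb
    rw [intervalIntegrable_iff_integrableOn_Icc_of_le hab]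
    exact (hcont.mono (Icc_subset_Icc ha hb)).integrableOn_compact isCompact_Icc
  have i1 := hj_pointwise hα h hV hq₀ hq₀1
  have i3 := hj_pointwise hα h hV (by norm_num : (0 : ℝ) < 2) hq2
  have i2 : (2 : ℝ) ^ α * Ecal K F 2 - (1 : ℝ) ^ α * Ecal K F 1 + c * hjErr α K F V ≤
      ∫ q in (1 : ℝ)..2, G q := by
    choose! D' hD1 hD2 using hd
    have h12 : (1 : ℝ) ≤ 2 := by norm_num
    have key := intervalIntegral.sub_le_integral_of_hasDeriv_right_of_le h12
      (g := fun q : ℝ => q ^ α * Ecal K F q + (c * hjErr α K F V) * q)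
      (g' := fun q => D' q + c * hjErr α K F V) (φ := G) ?_ ?_ ?_ ?_
    · linarith
    · intro x hx
      have := ((hD1 x hx).add ((hasDerivAt_id x).const_mul (c * hjErr α K F V)))
      exact this.continuousAt.continuousWithinAt
    · intro x hx
      have := ((hD1 x ⟨hx.1.le, hx.2.le⟩).add ((hasDerivAt_id x).const_mul (c * hjErr α K F V)))
      rw [mul_one] at this
      exact this.hasDerivWithinAt
    · exact (hcont.mono (Icc_subset_Icc hq₀1 hq2)).integrableOn_Icc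
    · intro x hx
      rw [hG]
      exact hD2 x ⟨hx.1.le, hx.2.le⟩
  have e1 := intervalIntegral.integral_add_adjacent_intervals (hii q₀ 1 le_rfl hq₀1 (by linarith))
    (hii 1 2 hq₀1 (by norm_num) hq2)
  have e2 := intervalIntegral.integral_add_adjacent_intervals (hii q₀ 2 le_rfl (by linarith) hq2)
    (hii 2 q₁ (by linarith) hq2 le_rfl)
  have i1' : (1 : ℝ) ^ α * Ecal K F 1 - q₀ ^ α * Ecal K F q₀ ≤ ∫ q in q₀..1, G q := by
    rw [hG]; exact i1
  have i3' : q₁ ^ α * Ecal K F q₁ - (2 : ℝ) ^ α * Ecal K F 2 ≤ ∫ q in (2 : ℝ)..q₁, G q := by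
    rw [hG]; exact i3
  have efin : (∫ q in q₀..q₁, α * q ^ (α - 1) * (tr ((K * K - F * F - V) * zq K F q)
        + (1 / α + 1) * tr (cfc (hfun q) ((((1 / α + 1)⁻¹ : ℝ) : ℂ) • V)))) =
      ∫ q in q₀..q₁, G q := by rw [hG]
  rw [efin]
  linarith

theorem E05_cont_hjErr {N : ℕ} {α R : ℝ} {K : Mt N} {F V : ℝ → Mt N} (h : Riccati R K F V) :
    ContinuousOn (fun x => hjErr α K (F x) (V x)) (Icc (-R) R) := by
  unfold hjErr vErr
  have c1 : ContinuousOn (fun x => K * K * F x - F x * (K * K)) (Icc (-R) R) :=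
    (continuousOn_const.mul h.contF).sub (h.contF.mul continuousOn_const)
  have c2' : ContinuousOn (fun x => K * K - F x * F x) (Icc (-R) R) :=
    continuousOn_const.sub (h.contF.mul h.contF)
  have c2 : ContinuousOn (fun x => V x - ((1 / α + 1 : ℝ) : ℂ) • (K * K - F x * F x)) (Icc (-R) R) :=
    h.contV.sub (c2'.const_smul ((1 / α + 1 : ℝ) : ℂ))
  have c3 : ContinuousOn (fun x => 1 + tr (V x)) (Icc (-R) R) :=
    continuousOn_const.add (continuousOn_tr h.contV)
  refine (T35_continuous_hs2.comp_continuousOn c1).add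
    ((T35_continuous_hs2.comp_continuousOn c2).div c3 ?_)
  intro x hx
  have h1 := E01_re_trace_nonneg (h.Vpsd x hx)
  linarith

/-- the inequality at finite `q₀, q₁`, with the stability term -/
theorem E05_finite {N : ℕ} {α R : ℝ} (h0 : 0 < α) (h1 : α < 1) {K : Mt N} {F V : ℝ → Mt N}
    (h : Riccati R K F V) {C : ℝ}
    (hC : ∀ F : Mt N, Adm K F → ∀ q : ℝ, 0 < q → q ≤ 1 → Ecal K F q ≤ C * (1 + |Real.log q|))
    {c : ℝ} (hd : ∀ x ∈ Icc (-R) R, ∀ q ∈ Icc (1 : ℝ) 2,
      ∃ D' : ℝ, HasDerivAt (fun q : ℝ => q ^ α * Ecal K (F x) q) D' q ∧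
        D' + c * hjErr α K (F x) (V x) ≤ α * q ^ (α - 1) * (tr ((K * K - F x * F x - V x) * zq K (F x) q)
          + (1 / α + 1) * tr (cfc (hfun q) ((((1 / α + 1)⁻¹ : ℝ) : ℂ) • V x))))
    {q₀ q₁ : ℝ} (hq₀ : 0 < q₀) (hq₀1 : q₀ ≤ 1) (hq2 : 2 ≤ q₁) :
    α * (∫ q in q₀..q₁, q ^ (α - 1) * tr (cfc (fun k => 2 * theta q k) K)) +
      c * (∫ x in (-R)..R, hjErr α K (F x) (V x)) ≤
      Ialpha α * (α ^ (1 + α) / (1 + α) ^ (1 + α)) *
        (∫ x in (-R)..R, tr (cfc (fun t : ℝ => t ^ (1 + α)) (V x))) +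
      2 * R * (q₀ ^ α * (C * (1 + |Real.log q₀|))) := by
  have hRR : -R ≤ R := by linarith [h.hR]
  have hq : q₀ ≤ q₁ := by linarith
  set s : ℝ := 1 / α + 1 with hs
  have hspos : 0 < s := by positivity
  set Φ : ℝ → ℝ → ℝ := fun x q => α * q ^ (α - 1) * tr ((K * K - F x * F x - V x) * zq K (F x) q)
    with hΦ
  have hKh : K.IsHermitian := (h.adm (-R) ⟨le_rfl, hRR⟩).isHermitian_K
  -- joint continuity
  have hcont : ContinuousOn (Function.uncurry Φ) (Icc (-R) R ×ˢ Icc q₀ q₁) := by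
    have c1 : ContinuousOn (fun p : ℝ × ℝ => F p.1) (Icc (-R) R ×ˢ Icc q₀ q₁) :=
      h.contF.comp continuousOn_fst fun p hp => hp.1
    have c2 : ContinuousOn (fun p : ℝ × ℝ => V p.1) (Icc (-R) R ×ˢ Icc q₀ q₁) :=
      h.contV.comp continuousOn_fst fun p hp => hp.1
    have c3 : ContinuousOn (fun p : ℝ × ℝ => zq K (F p.1) p.2) (Icc (-R) R ×ˢ Icc q₀ q₁) :=
      continuousOn_zq hKh c1 continuousOn_snd (fun p hp => hq₀.trans_le hp.2.1)
        (fun p hp => h.adm p.1 hp.1)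
    have c4 : ContinuousOn (fun p : ℝ × ℝ => α * p.2 ^ (α - 1)) (Icc (-R) R ×ˢ Icc q₀ q₁) :=
      continuousOn_const.mul (continuousOn_snd.rpow_const
        fun p hp => Or.inl (hq₀.trans_le hp.2.1).ne')
    have c5 := continuousOn_tr (((continuousOn_const (c := K * K)).sub (c1.mul c1)).sub c2 |>.mul c3)
    exact c4.mul c5
  have hint : Integrable (Function.uncurry Φ)
      ((volume.restrict (Ioc (-R) R)).prod (volume.restrict (Ioc q₀ q₁))) := by
    rw [Measure.prod_restrict]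
    have := hcont.integrableOn_compact (μ := (volume : Measure ℝ).prod (volume : Measure ℝ))
      (isCompact_Icc.prod isCompact_Icc)
    exact this.mono_set (Set.prod_mono Ioc_subset_Icc_self Ioc_subset_Icc_self)
  -- pointwise inequality
  have hpt : ∀ x ∈ Icc (-R) R, - (q₀ ^ α * (C * (1 + |Real.log q₀|))) +
      c * hjErr α K (F x) (V x) ≤
      (∫ q in q₀..q₁, Φ x q) + Ialpha α * (α ^ (1 + α) / (1 + α) ^ (1 + α)) *
        tr (cfc (fun t : ℝ => t ^ (1 + α)) (V x)) := by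
    intro x hx
    have hadm := h.adm x hx
    have hVx := h.Vpsd x hx
    have hW : ((((1 / α + 1)⁻¹ : ℝ) : ℂ) • V x).PosSemidef := by
      rw [T24_smul_eq]
      exact hVx.smul (by positivity)
    have hj := E05_pointwise h0 hadm hVx (hd x hx) hq₀ hq₀1 hq2
    have hE1 : 0 ≤ q₁ ^ α * Ecal K (F x) q₁ :=
      mul_nonneg (Real.rpow_nonneg (hq₀.le.trans hq) _) (Ecal_nonneg hadm (hq₀.trans_le hq))
    have hE0 : q₀ ^ α * Ecal K (F x) q₀ ≤ q₀ ^ α * (C * (1 + |Real.log q₀|)) :=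
      mul_le_mul_of_nonneg_left (hC (F x) hadm q₀ hq₀ hq₀1) (Real.rpow_nonneg hq₀.le _)
    have hcq : ContinuousOn (fun q : ℝ => Φ x q) (Icc q₀ q₁) := by
      have : ContinuousOn (fun q : ℝ => ((x, q) : ℝ × ℝ)) (Icc q₀ q₁) := by fun_prop
      exact hcont.comp this fun q hq' => ⟨hx, hq'⟩
    have hcH : ContinuousOn (fun q : ℝ => tr (cfc (hfun q) ((((1 / α + 1)⁻¹ : ℝ) : ℂ) • V x)))
        (Icc q₀ q₁) :=
      continuousOn_tr_hfun continuousOn_const continuousOn_id
        (fun q hq' => hq₀.trans_le hq'.1) fun _ _ => hW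
    have hcr : ContinuousOn (fun q : ℝ => q ^ (α - 1)) (Icc q₀ q₁) :=
      continuousOn_id.rpow_const fun q hq' => Or.inl (hq₀.trans_le hq'.1).ne'
    have hsplit : (∫ q in q₀..q₁, α * q ^ (α - 1) * (tr ((K * K - F x * F x - V x) * zq K (F x) q)
        + (1 / α + 1) * tr (cfc (hfun q) ((((1 / α + 1)⁻¹ : ℝ) : ℂ) • V x)))) =
        (∫ q in q₀..q₁, Φ x q) + (α * s) *
          ∫ q in q₀..q₁, q ^ (α - 1) * tr (cfc (hfun q) ((((1 / α + 1)⁻¹ : ℝ) : ℂ) • V x)) := by
      rw [← intervalIntegral.integral_const_mul, ← intervalIntegral.integral_add]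
      · refine intervalIntegral.integral_congr fun q _ => ?_
        simp only [hΦ, hs]
        ring
      · rw [intervalIntegrable_iff_integrableOn_Icc_of_le hq]
        exact hcq.integrableOn_compact isCompact_Icc
      · rw [intervalIntegrable_iff_integrableOn_Icc_of_le hq]
        exact (continuousOn_const.mul (hcr.mul hcH)).integrableOn_compact isCompact_Icc
    rw [hsplit] at hj
    have hH := T24_H h0 h1 hW hq₀ hq
    rw [T24_rpow_smul (by linarith : (0 : ℝ) < 1 + α) (by positivity) hVx] at hH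
    have hH2 : (α * s) * ∫ q in q₀..q₁, q ^ (α - 1) *
        tr (cfc (hfun q) ((((1 / α + 1)⁻¹ : ℝ) : ℂ) • V x)) ≤
        Ialpha α * (α ^ (1 + α) / (1 + α) ^ (1 + α)) *
        tr (cfc (fun t : ℝ => t ^ (1 + α)) (V x)) := by
      refine (mul_le_mul_of_nonneg_left hH (by positivity)).trans (le_of_eq ?_)
      have e1 : (1 / α + 1)⁻¹ = α / (1 + α) := by
        field_simp
        
      have e2 : α * s = 1 + α := by
        rw [hs]; field_simp
        
      rw [e1, e2, Real.div_rpow h0.le (by linarith)]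
      field_simp
    linarith
  -- integrate over x
  have hcV : ContinuousOn (fun x => tr (cfc (fun t : ℝ => t ^ (1 + α)) (V x))) (Icc (-R) R) := by
    refine continuousOn_tr ?_
    refine continuousOn_cfc_param (f := fun _ t => t ^ (1 + α)) (t := Set.univ) h.contV
      (fun x hx => (h.Vpsd x hx).1) isOpen_univ ?_ fun _ _ => Set.subset_univ _
    exact (continuousOn_snd.rpow_const fun p _ => Or.inr (by linarith))
  have hiΦ : IntervalIntegrable (fun x => ∫ q in q₀..q₁, Φ x q) volume (-R) R := by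
    rw [intervalIntegrable_iff_integrableOn_Ioc_of_le hRR]
    simp only [intervalIntegral.integral_of_le hq]
    exact hint.integral_prod_left
  have hiV : IntervalIntegrable (fun x => tr (cfc (fun t : ℝ => t ^ (1 + α)) (V x))) volume (-R) R := by
    rw [intervalIntegrable_iff_integrableOn_Icc_of_le hRR]
    exact hcV.integrableOn_compact isCompact_Icc
  have hiE : IntervalIntegrable (fun x => hjErr α K (F x) (V x)) volume (-R) R := by
    rw [intervalIntegrable_iff_integrableOn_Icc_of_le hRR]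
    exact (E05_cont_hjErr h).integrableOn_compact isCompact_Icc
  have hi0 : IntervalIntegrable (fun _ : ℝ => - (q₀ ^ α * (C * (1 + |Real.log q₀|)))) volume
      (-R) R := intervalIntegrable_const
  have hmono := intervalIntegral.integral_mono_on hRR
    (hi0.add (hiE.const_mul c)) (hiΦ.add (hiV.const_mul _)) hpt
  rw [intervalIntegral.integral_add hi0 (hiE.const_mul c), intervalIntegral.integral_const,
    intervalIntegral.integral_add hiΦ (hiV.const_mul _),
    intervalIntegral.integral_const_mul, intervalIntegral.integral_const_mul] at hmono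
  -- Fubini
  have hfub : ∫ x in (-R)..R, ∫ q in q₀..q₁, Φ x q =
      - (α * ∫ q in q₀..q₁, q ^ (α - 1) * tr (cfc (fun k => 2 * theta q k) K)) := by
    have e1 : ∫ x in (-R)..R, ∫ q in q₀..q₁, Φ x q = ∫ q in q₀..q₁, ∫ x in (-R)..R, Φ x q := by
      simp only [intervalIntegral.integral_of_le hq, intervalIntegral.integral_of_le hRR]
      exact integral_integral_swap hint
    rw [e1, ← neg_mul, ← intervalIntegral.integral_const_mul]
    refine intervalIntegral.integral_congr fun q hq' => ?_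
    rw [uIcc_of_le hq] at hq'
    have hqpos : 0 < q := hq₀.trans_le hq'.1
    simp only [hΦ]
    rw [intervalIntegral.integral_const_mul, path_integral h hqpos]
    ring
  rw [hfub] at hmono
  simp only [smul_eq_mul] at hmono
  nlinarith [hmono]


theorem hj_stability {α : ℝ} (h0 : 0 < α) (h1 : α < 1) {κ : ℝ} (hκ : 0 ≤ κ) :
    ∃ C : ℝ, 0 ≤ C ∧ ∀ (N : ℕ) (R : ℝ) (K : Mt N) (F V : ℝ → Mt N), Riccati R K F V →
      (((κ : ℝ) : ℂ) • (1 : Mt N) - K).PosSemidef →
      ∫ x in (-R)..R, hjErr α K (F x) (V x) ≤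
        C * (α ^ α / (1 + α) ^ (1 + α) * (∫ x in (-R)..R, tr (cfc (fun t : ℝ => t ^ (1 + α)) (V x)))
          - beta α * tr (cfc (fun t : ℝ => t ^ (2 * α + 1)) K)) := by
  obtain ⟨c, hc, hstab⟩ := hj_deriv_stab h0 hκ
  have hI := Ialpha_pos h0 h1
  refine ⟨α * Ialpha α / c, by positivity, ?_⟩
  intro N R K F V h hKκ
  have hRR : -R ≤ R := by linarith [h.hR]
  have hK : K.PosSemidef := (h.adm (-R) ⟨le_rfl, hRR⟩).posSemidef
  obtain ⟨C, hC0, hC⟩ := Ecal_le_log K
  obtain ⟨hT1, hT2⟩ := T24_theta h0 h1 hK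
  have hd : ∀ x ∈ Icc (-R) R, ∀ q ∈ Icc (1 : ℝ) 2,
      ∃ D' : ℝ, HasDerivAt (fun q : ℝ => q ^ α * Ecal K (F x) q) D' q ∧
        D' + c * hjErr α K (F x) (V x) ≤ α * q ^ (α - 1) * (tr ((K * K - F x * F x - V x) * zq K (F x) q)
          + (1 / α + 1) * tr (cfc (hfun q) ((((1 / α + 1)⁻¹ : ℝ) : ℂ) • V x))) :=
    fun x hx q hq => hstab N K (F x) (V x) (h.adm x hx) (h.Vpsd x hx) hKκ q hq
  obtain ⟨T, hT⟩ : ∃ T : ℝ, T = tr (cfc (fun t : ℝ => t ^ (2 * α + 1)) K) := ⟨_, rfl⟩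
  obtain ⟨J, hJ⟩ : ∃ J : ℝ, J = ∫ x in (-R)..R, tr (cfc (fun t : ℝ => t ^ (1 + α)) (V x)) :=
    ⟨_, rfl⟩
  obtain ⟨D, hD⟩ : ∃ D : ℝ, D = ∫ x in (-R)..R, hjErr α K (F x) (V x) := ⟨_, rfl⟩
  rw [← hT] at hT2 ⊢
  rw [← hJ, ← hD]
  -- sequences
  set a : ℕ → ℝ := fun n => 1 / ((n : ℝ) + 1) with ha
  have hapos : ∀ n, 0 < a n := fun n => by positivity
  have ha1 : ∀ n, a n ≤ 1 := fun n => by
    rw [ha]
    simp only
    rw [div_le_one (by positivity)]
    have : (0 : ℝ) ≤ n := Nat.cast_nonneg n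
    linarith
  have hab : ∀ n : ℕ, a n ≤ (n : ℝ) + 1 := fun n => by
    have : (0 : ℝ) ≤ n := Nat.cast_nonneg n
    linarith [ha1 n]
  have hineq : ∀ᶠ n : ℕ in atTop, α * (∫ q in Ioc (a n) ((n : ℝ) + 1), q ^ (α - 1) *
      tr (cfc (fun k => 2 * theta q k) K)) ≤
      Ialpha α * (α ^ (1 + α) / (1 + α) ^ (1 + α)) * J +
      2 * R * ((a n) ^ α * (C * (1 + |Real.log (a n)|))) - c * D := by
    filter_upwards [eventually_ge_atTop 1] with n hn
    have hn' : (1 : ℝ) ≤ n := by exact_mod_cast hn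
    have := E05_finite h0 h1 h hC hd (hapos n) (ha1 n) (by linarith : (2 : ℝ) ≤ (n : ℝ) + 1)
    rw [intervalIntegral.integral_of_le (hab n), ← hJ, ← hD] at this
    linarith
  have hmono : Monotone fun n : ℕ => Ioc (a n) ((n : ℝ) + 1) := by
    intro n m hnm
    refine Ioc_subset_Ioc ?_ ?_
    · simp only [ha]
      apply one_div_le_one_div_of_le (by positivity)
      have : (n : ℝ) ≤ m := by exact_mod_cast hnm
      linarith
    · have : (n : ℝ) ≤ m := by exact_mod_cast hnm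
      linarith
  have hunion : (⋃ n : ℕ, Ioc (a n) ((n : ℝ) + 1)) = Ioi (0 : ℝ) := by
    ext q
    simp only [mem_iUnion, mem_Ioc, mem_Ioi]
    constructor
    · rintro ⟨n, hn, _⟩
      exact (hapos n).trans hn
    · intro hq
      obtain ⟨n, hn⟩ := exists_nat_gt (max (1 / q) q)
      refine ⟨n, ?_, ?_⟩
      · simp only [ha]
        rw [div_lt_iff₀ (by positivity)]
        have : 1 / q < n := lt_of_le_of_lt (le_max_left _ _) hn
        rw [div_lt_iff₀ hq] at this
        nlinarith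
      · have : q < n := lt_of_le_of_lt (le_max_right _ _) hn
        linarith
  have hlim1 := tendsto_setIntegral_of_monotone (μ := volume)
    (f := fun q : ℝ => q ^ (α - 1) * tr (cfc (fun k => 2 * theta q k) K))
    (fun n : ℕ => (measurableSet_Ioc : MeasurableSet (Ioc (a n) ((n : ℝ) + 1)))) hmono
    (by rw [hunion]; exact hT1)
  rw [hunion, hT2] at hlim1
  have hlima : Tendsto a atTop (𝓝[>] 0) := by
    rw [tendsto_nhdsWithin_iff]
    exact ⟨tendsto_one_div_add_atTop_nhds_zero_nat, Eventually.of_forall hapos⟩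
  have hlim2 : Tendsto (fun n => (a n) ^ α * (C * (1 + |Real.log (a n)|))) atTop (𝓝 0) := by
    have e1 : Tendsto (fun x : ℝ => Real.log x * x ^ α) (𝓝[>] 0) (𝓝 0) :=
      tendsto_log_mul_rpow_nhdsGT_zero h0
    have e2 : Tendsto (fun x : ℝ => x ^ α) (𝓝[>] 0) (𝓝 0) := by
      have : Tendsto (fun x : ℝ => x ^ α) (𝓝 0) (𝓝 ((0 : ℝ) ^ α)) :=
        (Real.continuous_rpow_const h0.le).tendsto 0
      rw [Real.zero_rpow h0.ne'] at this
      exact this.mono_left nhdsWithin_le_nhds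
    have e3 : Tendsto (fun x : ℝ => C * (x ^ α + |Real.log x * x ^ α|)) (𝓝[>] 0) (𝓝 (C * (0 + |0|))) :=
      (e2.add e1.abs).const_mul C
    simp only [abs_zero, add_zero, mul_zero] at e3
    refine (e3.comp hlima).congr fun n => ?_
    simp only [Function.comp]
    rw [abs_mul, abs_of_nonneg (Real.rpow_nonneg (hapos n).le α)]
    ring
  have hlim : α * (Ialpha α * (beta α * T)) ≤
      Ialpha α * (α ^ (1 + α) / (1 + α) ^ (1 + α)) * J + 2 * R * 0 - c * D :=
    le_of_tendsto_of_tendsto (hlim1.const_mul α)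
      ((tendsto_const_nhds.add (hlim2.const_mul (2 * R))).sub tendsto_const_nhds) hineq
  have e4 : α ^ (1 + α) = α * α ^ α := by
    rw [Real.rpow_add h0, Real.rpow_one]
  rw [e4] at hlim
  have e5 : c * D ≤ (α * Ialpha α) * (α ^ α / (1 + α) ^ (1 + α) * J - beta α * T) := by
    have : Ialpha α * (α * α ^ α / (1 + α) ^ (1 + α)) * J + 2 * R * 0 =
        (α * Ialpha α) * (α ^ α / (1 + α) ^ (1 + α) * J) := by ring
    linarith
  have e6 : α * Ialpha α / c * (α ^ α / (1 + α) ^ (1 + α) * J - beta α * T) =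
      ((α * Ialpha α) * (α ^ α / (1 + α) ^ (1 + α) * J - beta α * T)) / c := by ring
  rw [e6, le_div_iff₀ hc]
  linarith

end Crest.Agent.LT
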