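import Crest.Agent.LT_Defs

/-!
Task LT-T25: the constant. `β(α) = B(1/2, α+1) = √π Γ(α+1)/Γ(α+3/2)`, and
`Γ(γ+3/2) = (γ+1/2) Γ(γ+1/2)`.  Mathlib: `Complex.betaIntegral`, `Complex.Gamma_mul_Gamma_eq_betaIntegral`, substitution
`u² = t`.
-/

set_option autoImplicit false

namespace Crest.Agent.LT

open MeasureTheory Matrix Set Filter
open Crest.MathPhysics.LiebThirring
open scoped ComplexOrder Topology

theorem real_beta {α : ℝ} (h0 : 0 < α) :
    ∫ x in (0 : ℝ)..1, x ^ α * (1 - x) ^ α =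
      Real.Gamma (α + 1) * Real.Gamma (α + 1) / Real.Gamma (2 * (α + 1)) := by
  have h1 : (0 : ℝ) < ((α + 1 : ℝ) : ℂ).re := by simp; linarith
  have h2 := Complex.Gamma_mul_Gamma_eq_betaIntegral h1 h1
  have h3 : ((∫ x in (0 : ℝ)..1, x ^ α * (1 - x) ^ α : ℝ) : ℂ) =
      Complex.betaIntegral ((α + 1 : ℝ) : ℂ) ((α + 1 : ℝ) : ℂ) := by
    unfold Complex.betaIntegral
    rw [← intervalIntegral.integral_ofReal]
    refine intervalIntegral.integral_congr fun x hx => ?_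
    rw [uIcc_of_le zero_le_one] at hx
    rw [Complex.ofReal_mul, Complex.ofReal_cpow hx.1, Complex.ofReal_cpow (by linarith [hx.2])]
    push_cast
    congr 2 <;> ring
  have h4 : Real.Gamma (2 * (α + 1)) ≠ 0 := (Real.Gamma_pos_of_pos (by linarith)).ne'
  rw [eq_div_iff h4]
  have h5 : ((((∫ x in (0 : ℝ)..1, x ^ α * (1 - x) ^ α) * Real.Gamma (2 * (α + 1)) : ℝ)) : ℂ) =
      ((Real.Gamma (α + 1) * Real.Gamma (α + 1) : ℝ) : ℂ) := by
    rw [Complex.ofReal_mul, h3, Complex.ofReal_mul, ← Complex.Gamma_ofReal, ← Complex.Gamma_ofReal,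
      h2, mul_comm]
    congr 2
    push_cast
    ring
  exact_mod_cast h5

theorem beta_eq {α : ℝ} (h0 : 0 < α) :
    beta α = Real.sqrt Real.pi * Real.Gamma (α + 1) / Real.Gamma (α + 3 / 2) := by
  have h1 : beta α = 2 * (4 ^ α * ∫ x in (0 : ℝ)..1, x ^ α * (1 - x) ^ α) := by
    unfold beta
    have h2 := intervalIntegral.integral_comp_mul_add (fun u : ℝ => (1 - u ^ 2) ^ α)
      (a := 0) (b := 1) (two_ne_zero : (2 : ℝ) ≠ 0) (-1)
    have h3 : ∫ x in (0 : ℝ)..1, (1 - (2 * x + -1) ^ 2) ^ α =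
        4 ^ α * ∫ x in (0 : ℝ)..1, x ^ α * (1 - x) ^ α := by
      rw [← intervalIntegral.integral_const_mul]
      refine intervalIntegral.integral_congr fun x hx => ?_
      rw [uIcc_of_le zero_le_one] at hx
      have h4 : (1 : ℝ) - (2 * x + -1) ^ 2 = 4 * (x * (1 - x)) := by ring
      have h5 : 0 ≤ 1 - x := by linarith [hx.2]
      rw [h4, Real.mul_rpow (by norm_num) (mul_nonneg hx.1 h5), Real.mul_rpow hx.1 h5]
    rw [h3] at h2
    rw [h2]
    norm_num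
    ring
  rw [h1, real_beta h0]
  have h6 := Real.Gamma_mul_Gamma_add_half (α + 1)
  have h7 : α + 1 + 1 / 2 = α + 3 / 2 := by ring
  rw [h7] at h6
  have hG1 : 0 < Real.Gamma (α + 1) := Real.Gamma_pos_of_pos (by linarith)
  have hG2 : 0 < Real.Gamma (α + 3 / 2) := Real.Gamma_pos_of_pos (by linarith)
  have hG3 : 0 < Real.Gamma (2 * (α + 1)) := Real.Gamma_pos_of_pos (by linarith)
  have h8 : (2 : ℝ) ^ (1 - 2 * (α + 1)) * (2 * 4 ^ α) = 1 := by
    have h9 : (4 : ℝ) ^ α = 2 ^ (2 * α) := by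
      rw [Real.rpow_mul (by norm_num)]; norm_num
    rw [h9]
    have h10 : (2 : ℝ) * 2 ^ (2 * α) = 2 ^ (1 + 2 * α) := by
      rw [Real.rpow_add (by norm_num), Real.rpow_one]
    rw [h10, ← Real.rpow_add (by norm_num)]
    have : 1 - 2 * (α + 1) + (1 + 2 * α) = 0 := by ring
    rw [this, Real.rpow_zero]
  rw [eq_div_iff hG2.ne']
  have h11 : 2 * (4 ^ α * (Real.Gamma (α + 1) * Real.Gamma (α + 1) / Real.Gamma (2 * (α + 1)))) *
      Real.Gamma (α + 3 / 2) = (2 * 4 ^ α) * Real.Gamma (α + 1) *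
        (Real.Gamma (α + 1) * Real.Gamma (α + 3 / 2)) / Real.Gamma (2 * (α + 1)) := by ring
  rw [h11, h6, div_eq_iff hG3.ne']
  calc 2 * 4 ^ α * Real.Gamma (α + 1) *
        (Real.Gamma (2 * (α + 1)) * 2 ^ (1 - 2 * (α + 1)) * Real.sqrt Real.pi)
      = ((2 : ℝ) ^ (1 - 2 * (α + 1)) * (2 * 4 ^ α)) * (Real.sqrt Real.pi * Real.Gamma (α + 1) *
          Real.Gamma (2 * (α + 1))) := by ring
    _ = _ := by rw [h8, one_mul]

theorem beta_pos {α : ℝ} (h0 : 0 < α) : 0 < beta α := by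
  rw [beta_eq h0]
  have hG1 : 0 < Real.Gamma (α + 1) := Real.Gamma_pos_of_pos (by linarith)
  have hG2 : 0 < Real.Gamma (α + 3 / 2) := Real.Gamma_pos_of_pos (by linarith)
  have := Real.sqrt_pos.2 Real.pi_pos
  positivity

theorem sharpConst_eq {γ : ℝ} (hγ : 1 / 2 < γ) :
    sharpConst γ = ((γ - 1 / 2) ^ (γ - 1 / 2) / (1 + (γ - 1 / 2)) ^ (1 + (γ - 1 / 2))) / beta (γ - 1 / 2) := by
  rw [beta_eq (by linarith : 0 < γ - 1 / 2)]
  unfold sharpConst
  have hG1 : 0 < Real.Gamma (γ + 1) := Real.Gamma_pos_of_pos (by linarith)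
  have hG2 : 0 < Real.Gamma (γ + 1 / 2) := Real.Gamma_pos_of_pos (by linarith)
  have h1 : Real.Gamma (γ + 3 / 2) = (γ + 1 / 2) * Real.Gamma (γ + 1 / 2) := by
    rw [← Real.Gamma_add_one (by linarith)]
    congr 1; ring
  have h2 : γ - 1 / 2 + 1 = γ + 1 / 2 := by ring
  have h3 : γ - 1 / 2 + 3 / 2 = γ + 1 := by ring
  have h4 : 1 + (γ - 1 / 2) = γ + 1 / 2 := by ring
  rw [h1, h2, h3, h4, Real.div_rpow (by linarith) (by linarith)]
  have h5 : (γ + 1 / 2) ^ (γ + 1 / 2) = (γ + 1 / 2) ^ (γ - 1 / 2) * (γ + 1 / 2) := by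
    have : γ + 1 / 2 = (γ - 1 / 2) + 1 := by ring
    conv_lhs => rw [this, Real.rpow_add (by linarith), Real.rpow_one]
    rw [← this]
  rw [h5]
  have hp : 0 < (γ + 1 / 2) ^ (γ - 1 / 2) := Real.rpow_pos_of_pos (by linarith) _
  have hs := Real.sqrt_pos.2 Real.pi_pos
  have h6 : 0 < γ + 1 / 2 := by linarith
  field_simp

end Crest.Agent.LT
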