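import Crest.Agent.LT_Defs

/-!
Task LT-T34: global ODE solution on `[-R,R]` with continuous dependence on a parameter. Picard–Lindelöf (bounded,
globally Lipschitz right-hand side: one shot) and Grönwall; `sup_{t∈[-R,R]} ‖f p t (u_{p₀} t) - f p₀ t (u_{p₀} t)‖ → 0` as
`p → p₀` by compactness.
-/

set_option autoImplicit false

namespace Crest.Agent.LT

open MeasureTheory Matrix Set Filter
open Crest.MathPhysics.LiebThirring
open scoped ComplexOrder Topology

theorem T34_exists {E : Type*} [NormedAddCommGroup E] [NormedSpace ℝ E] [CompleteSpace E]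
    {R : ℝ} (hR : 0 < R) (f : ℝ → E → E)
    (hcont : Continuous (fun q : ℝ × E => f q.1 q.2))
    (L : NNReal) (hL : ∀ t, LipschitzWith L (f t)) (B : ℝ) (hB : ∀ t x, ‖f t x‖ ≤ B) :
    ∃ u : ℝ → E, u (-R) = 0 ∧ ∀ t ∈ Icc (-R) R, HasDerivWithinAt u (f t (u t)) (Icc (-R) R) t := by
  have hB0 : 0 ≤ B := (norm_nonneg _).trans (hB 0 0)
  have hpl : IsPicardLindelof f (tmin := -R) (tmax := R) ⟨-R, by constructor <;> linarith⟩ (0 : E)
      (⟨B, hB0⟩ * ⟨2 * R, by linarith⟩) 0 ⟨B, hB0⟩ L :=
    { lipschitzOnWith := fun t _ => (hL t).lipschitzOnWith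
      continuousOn := fun x _ => by
        have : Continuous (fun t : ℝ => f t x) := hcont.comp (by fun_prop : Continuous fun t : ℝ => (t, x))
        exact this.continuousOn
      norm_le := fun t _ x _ => hB t x
      mul_max_le := by
        simp only [NNReal.coe_mul, NNReal.coe_zero, sub_zero]
        rw [show R - -R = 2 * R by ring, sub_self, max_eq_left (by linarith)]
        exact le_rfl }
  obtain ⟨u, hu0, hu⟩ := hpl.exists_eq_forall_mem_Icc_hasDerivWithinAt₀
  exact ⟨u, hu0, hu⟩

theorem ode_param {E : Type*} [NormedAddCommGroup E] [NormedSpace ℝ E] [CompleteSpace E]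
    {P : Type*} [TopologicalSpace P] {R : ℝ} (hR : 0 < R) (f : P → ℝ → E → E)
    (hcont : Continuous (fun q : P × ℝ × E => f q.1 q.2.1 q.2.2))
    (L : NNReal) (hL : ∀ p t, LipschitzWith L (f p t)) (B : ℝ) (hB : ∀ p t x, ‖f p t x‖ ≤ B) :
    ∃ u : P → ℝ → E, (∀ p, u p (-R) = 0) ∧ (∀ p, ContinuousOn (u p) (Icc (-R) R)) ∧
      (∀ p, ∀ t ∈ Ioo (-R) R, HasDerivAt (u p) (f p t (u p t)) t) ∧
      Continuous (fun p => u p R) := by
  have hex : ∀ p, ∃ u : ℝ → E, u (-R) = 0 ∧
      ∀ t ∈ Icc (-R) R, HasDerivWithinAt u (f p t (u t)) (Icc (-R) R) t := fun p =>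
    T34_exists hR (f p) (hcont.comp (by fun_prop : Continuous fun q : ℝ × E => (p, q.1, q.2))) L
      (hL p) B (hB p)
  choose u hu0 hu using hex
  have hc : ∀ p, ContinuousOn (u p) (Icc (-R) R) := fun p t ht => (hu p t ht).continuousWithinAt
  have hIci : ∀ p, ∀ t ∈ Ico (-R) R, HasDerivWithinAt (u p) (f p t (u p t)) (Ici t) t := by
    intro p t ht
    exact (hu p t (Ico_subset_Icc_self ht)).mono_of_mem_nhdsWithin (Icc_mem_nhdsGE_of_mem ht)
  refine ⟨u, hu0, hc, ?_, ?_⟩
  · intro p t ht
    exact (hu p t (Ioo_subset_Icc_self ht)).hasDerivAt (Icc_mem_nhds ht.1 ht.2)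
  · rw [continuous_iff_continuousAt]
    intro p₀
    rw [Metric.continuousAt_iff']
    intro ε hε
    -- choose the size of the perturbation
    have hg : Tendsto (fun e : ℝ => gronwallBound 0 L e (R - -R)) (𝓝[>] 0) (𝓝 0) := by
      have h1 := (gronwallBound_continuous_ε 0 L (R - -R)).tendsto 0
      rw [gronwallBound_ε0_δ0] at h1
      exact h1.mono_left nhdsWithin_le_nhds
    obtain ⟨e, he1, he2⟩ := ((hg.eventually (gt_mem_nhds hε)).and self_mem_nhdsWithin).exists
    have he2 : 0 < e := he2
    -- the continuous extension of the solution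
    have hcl : Continuous (fun t : ℝ => u p₀ (projIcc (-R) R (by linarith) t)) := by
      have := (hc p₀).domRestrict
      exact this.comp continuous_projIcc
    have hF : Continuous (fun q : P × ℝ =>
        f q.1 q.2 (u p₀ (projIcc (-R) R (by linarith) q.2))) :=
      hcont.comp (continuous_fst.prodMk (continuous_snd.prodMk (hcl.comp continuous_snd)))
    have hev : ∀ᶠ p in 𝓝 p₀, ∀ t ∈ Icc (-R) R,
        dist (f p t (u p₀ (projIcc (-R) R (by linarith) t)))
          (f p₀ t (u p₀ (projIcc (-R) R (by linarith) t))) < e := by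
      refine isCompact_Icc.eventually_forall_of_forall_eventually ?_
      intro t _
      have h1 : Continuous (fun q : P × ℝ =>
          dist (f q.1 q.2 (u p₀ (projIcc (-R) R (by linarith) q.2)))
            (f p₀ q.2 (u p₀ (projIcc (-R) R (by linarith) q.2)))) := by
        refine hF.dist (hF.comp (by fun_prop : Continuous fun q : P × ℝ => (p₀, q.2)))
      have h2 := h1.tendsto (p₀, t)
      simp only [dist_self] at h2
      exact h2.eventually (gt_mem_nhds he2)
    filter_upwards [hev] with p hp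
    have hfin := dist_le_of_approx_trajectories_ODE (v := f p) (K := L) (f := u p) (g := u p₀)
      (f' := fun t => f p t (u p t)) (g' := fun t => f p₀ t (u p₀ t)) (a := -R) (b := R) (εf := 0)
      (εg := e) (δ := 0)
      (hL p) (hc p) (hIci p) (fun t _ => by simp) (hc p₀) (hIci p₀)
      (fun t ht => by
        have h1 := hp t (Ico_subset_Icc_self ht)
        rw [projIcc_of_mem (by linarith) (Ico_subset_Icc_self ht)] at h1
        rw [dist_comm]
        exact h1.le)
      (by rw [hu0, hu0, dist_self]) R ⟨by linarith, le_rfl⟩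
    rw [zero_add] at hfin
    exact lt_of_le_of_lt hfin he1

end Crest.Agent.LT
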