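import Crest.Agent.LT_Defs
import Crest.Agent.LT_T02
import Crest.Agent.LT_T33
import Crest.Agent.LT_T34
import Crest.Agent.LT_T35
/-!
Task LT-T36: existence of the Riccati path by Brouwer.
Let `T = 2 R M + 1`, `𝒦 = {K ≥ 0 : tr K ≤ T}` (compact, convex). For `K ∈ 𝒦` solve on `[-R,R]`
`X' = 𝒱 K x - (c(H X) Z + Z c(H X))/2`, `Z = c₂(2K - H X)`, `X(-R) = 0`, where `H X = (X + X^*)/2`, `c = clampM T`,
`c₂ = clampM (2T)` (bounded and Hilbert–Schmidt Lipschitz by `hs2_cfc_sub_le`; use a Frobenius norm on `Mt N`). The right side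
is Hermitian so `X` is; `X ≥ 0` by `psd_of_ode`; `(tr X)' ≤ tr 𝒱 ≤ M`, so `tr X ≤ 2RM ≤ T`, `c(X) = X`. The map
`K ↦ X_K(R)/2` maps `𝒦` to itself continuously: fixed point `2K = X(R)`. `Y = 2K - X`, `Y(R) = 0`;
`x ↦ Y(-x)` satisfies the hypotheses of `psd_of_ode` (with `2T`), so `Y ≥ 0`, `Y ≤ 2K ≤ 2T`, `c₂(Y) = Y`.
`F = K - X`: `F' = -𝒱 + (XY+YX)/2 = K² - F² - 𝒱`.
-/

set_option autoImplicit false

namespace Crest.Agent.LT

open MeasureTheory Matrix Set Filter
open Crest.MathPhysics.LiebThirring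
open scoped ComplexOrder Topology

section T36norm

open scoped Matrix.Norms.Frobenius

theorem T36_norm_sq {N : ℕ} (A : Mt N) : ‖A‖ ^ 2 = hs2 A := by
  rw [Matrix.frobenius_norm_def]
  have h : (∑ i, ∑ j, ‖A i j‖ ^ (2 : ℝ)) = hs2 A := by
    unfold hs2
    simp only [Real.rpow_two]
  rw [h, ← Real.sqrt_eq_rpow, Real.sq_sqrt]
  unfold hs2
  positivity

theorem T36_norm_le {N : ℕ} {A : Mt N} {B : ℝ} (hB : 0 ≤ B) (h : hs2 A ≤ B ^ 2) : ‖A‖ ≤ B := by
  rw [← T36_norm_sq] at h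
  exact abs_le_of_sq_le_sq' h hB |>.2

theorem T36_ode {N : ℕ} {P : Type*} [TopologicalSpace P] {R : ℝ} (hR : 0 < R)
    (f : P → ℝ → Mt N → Mt N)
    (hcont : Continuous (fun q : P × ℝ × Mt N => f q.1 q.2.1 q.2.2))
    (L : ℝ) (hL0 : 0 ≤ L) (hL : ∀ p t X Y, ‖f p t X - f p t Y‖ ≤ L * ‖X - Y‖)
    (B : ℝ) (hB : ∀ p t x, ‖f p t x‖ ≤ B) :
    ∃ u : P → ℝ → Mt N, (∀ p, u p (-R) = 0) ∧ (∀ p, ContinuousOn (u p) (Icc (-R) R)) ∧
      (∀ p, ∀ t ∈ Ioo (-R) R, HasDerivAt (u p) (f p t (u p t)) t) ∧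
      Continuous (fun p => u p R) :=
  ode_param (E := Mt N) hR f hcont ⟨L, hL0⟩
    (fun p t => LipschitzWith.of_dist_le_mul fun X Y => by
      rw [dist_eq_norm, dist_eq_norm]; exact hL p t X Y) B hB

theorem T36_isHermitian_cfc {N : ℕ} (f : ℝ → ℝ) (A : Mt N) : (cfc f A).IsHermitian :=
  cfc_predicate f A

theorem T36_hs2_cfc {N : ℕ} {A : Mt N} (hA : A.IsHermitian) (f : ℝ → ℝ) :
    hs2 (cfc f A) = ∑ i, f (hA.eigenvalues i) ^ 2 := by
  rw [hs2_eq_tr, (T36_isHermitian_cfc f A).eq,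
    ← cfc_mul f f A (T35_contOn hA f) (T35_contOn hA f), tr_cfc hA]
  refine Finset.sum_congr rfl fun i _ => ?_
  ring

theorem T36_norm_cfc_le {N : ℕ} {A : Mt N} (hA : A.IsHermitian) {f : ℝ → ℝ} {C : ℝ} (hC : 0 ≤ C)
    (hf : ∀ t, |f t| ≤ C) : ‖cfc f A‖ ≤ Real.sqrt N * C := by
  refine T36_norm_le (by positivity) ?_
  rw [T36_hs2_cfc hA, mul_pow, Real.sq_sqrt (by positivity)]
  calc ∑ i, f (hA.eigenvalues i) ^ 2 ≤ ∑ _i : Fin N, C ^ 2 := by
        refine Finset.sum_le_sum fun i _ => ?_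
        rw [← sq_abs]
        exact pow_le_pow_left₀ (abs_nonneg _) (hf _) 2
    _ = N * C ^ 2 := by simp

theorem T36_tr_eq_sum {N : ℕ} {A : Mt N} (hA : A.IsHermitian) : tr A = ∑ i, hA.eigenvalues i := by
  have h := tr_cfc hA (fun t => t)
  have e : cfc (fun t : ℝ => t) A = A := cfc_id' ℝ A hA
  rwa [e] at h

theorem T36_norm_psd_le {N : ℕ} {A : Mt N} (hA : A.PosSemidef) : ‖A‖ ≤ tr A := by
  have h0 : 0 ≤ tr A := by
    rw [T36_tr_eq_sum hA.1]
    exact Finset.sum_nonneg fun i _ => hA.eigenvalues_nonneg i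
  refine T36_norm_le h0 ?_
  have e : cfc (fun t : ℝ => t) A = A := cfc_id' ℝ A hA.1
  have h := T36_hs2_cfc hA.1 (fun t => t)
  rw [e] at h
  rw [h, T36_tr_eq_sum hA.1]
  exact Finset.sum_sq_le_sq_sum_of_nonneg fun i _ => hA.eigenvalues_nonneg i

theorem T36_eig_le_tr {N : ℕ} {A : Mt N} (hA : A.PosSemidef) (i : Fin N) :
    hA.1.eigenvalues i ≤ tr A := by
  rw [T36_tr_eq_sum hA.1]
  exact Finset.single_le_sum (f := fun i => hA.1.eigenvalues i)
    (fun i _ => hA.eigenvalues_nonneg i) (Finset.mem_univ i)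

theorem T36_clamp_eq {N : ℕ} {A : Mt N} (hA : A.PosSemidef) {T : ℝ} (hT : tr A ≤ T) :
    clampM T A = A := by
  have e : cfc (fun t : ℝ => t) A = A := cfc_id' ℝ A hA.1
  unfold clampM
  conv_rhs => rw [← e]
  refine cfc_congr ?_
  intro t ht
  rw [hA.1.spectrum_real_eq_range_eigenvalues] at ht
  obtain ⟨i, rfl⟩ := ht
  have h1 := hA.eigenvalues_nonneg i
  have h2 := (T36_eig_le_tr hA i).trans hT
  simp only
  rw [max_eq_left h1, min_eq_left h2]

theorem T36_clamp_norm {N : ℕ} {A : Mt N} (hA : A.IsHermitian) {T : ℝ} (hT : 0 ≤ T) :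
    ‖clampM T A‖ ≤ Real.sqrt N * T := by
  refine T36_norm_cfc_le hA hT fun t => ?_
  rw [abs_le]
  constructor
  · have : 0 ≤ min (max t 0) T := le_min (le_max_right _ _) hT
    linarith
  · exact min_le_right _ _

theorem T36_clamp_lip {N : ℕ} {A B : Mt N} (hA : A.IsHermitian) (hB : B.IsHermitian) {T : ℝ} :
    ‖clampM T A - clampM T B‖ ≤ ‖A - B‖ := by
  refine T36_norm_le (norm_nonneg _) ?_
  rw [T36_norm_sq]
  have h := hs2_cfc_sub_le hA hB (fun t : ℝ => min (max t 0) T) 1 zero_le_one (fun x _ y _ => by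
    have h1 := le_abs_self (x - y)
    have h2 := neg_abs_le (x - y)
    rw [abs_le]
    simp only [min_def, max_def]
    constructor <;> split_ifs <;> linarith)
  rw [one_pow, one_mul] at h
  exact h

theorem T36_clamp_psd {N : ℕ} {A : Mt N} (hA : A.IsHermitian) {T : ℝ} (hT : 0 ≤ T) :
    (clampM T A).PosSemidef := by
  have h : clampM T A = (cfc (fun t : ℝ => Real.sqrt (min (max t 0) T)) A)ᴴ *
      cfc (fun t : ℝ => Real.sqrt (min (max t 0) T)) A := by
    rw [(T36_isHermitian_cfc _ A).eq, ← cfc_mul _ _ A (T35_contOn hA _) (T35_contOn hA _)]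
    unfold clampM
    congr 1
    funext t
    exact (Real.mul_self_sqrt (le_min (le_max_right _ _) hT)).symm
  rw [h]
  exact Matrix.posSemidef_conjTranspose_mul_self _

theorem T36_tr_mul_nonneg {N : ℕ} {A B : Mt N} (hA : A.PosSemidef) (hB : B.PosSemidef) :
    0 ≤ tr (A * B) := by
  obtain ⟨w, hw0, _, _, hw⟩ := tr_cfc_mul_cfc hA.1 hB.1
  have h3 := hw (fun t => t) (fun t => t)
  have e : cfc (fun t : ℝ => t) A = A := cfc_id' ℝ A hA.1
  have e' : cfc (fun t : ℝ => t) B = B := cfc_id' ℝ B hB.1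
  rw [e, e'] at h3
  rw [h3]
  exact Finset.sum_nonneg fun i _ => Finset.sum_nonneg fun j _ =>
    mul_nonneg (hw0 i j) (mul_nonneg (hA.eigenvalues_nonneg i) (hB.eigenvalues_nonneg j))

/-- Hermitian part -/
noncomputable def T36_H {N : ℕ} (X : Mt N) : Mt N := (1 / 2 : ℂ) • (X + Xᴴ)

theorem T36_H_herm {N : ℕ} (X : Mt N) : (T36_H X).IsHermitian := by
  unfold T36_H Matrix.IsHermitian
  rw [conjTranspose_smul, conjTranspose_add, conjTranspose_conjTranspose, add_comm]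
  congr 1
  simp

theorem T36_H_eq {N : ℕ} {X : Mt N} (h : X.IsHermitian) : T36_H X = X := by
  unfold T36_H
  rw [h.eq, ← two_smul ℂ X, smul_smul]
  norm_num

theorem T36_H_lip {N : ℕ} (X Y : Mt N) : ‖T36_H X - T36_H Y‖ ≤ ‖X - Y‖ := by
  unfold T36_H
  rw [← smul_sub, norm_smul, add_sub_add_comm, ← conjTranspose_sub]
  have h1 := norm_add_le (X - Y) (X - Y)ᴴ
  rw [Matrix.frobenius_norm_conjTranspose] at h1
  have h2 : ‖(1 / 2 : ℂ)‖ = 1 / 2 := by norm_num
  rw [h2]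
  linarith

theorem T36_H_cont {N : ℕ} : Continuous (T36_H : Mt N → Mt N) := by
  unfold T36_H
  have h : Continuous fun X : Mt N => Xᴴ := Continuous.matrix_conjTranspose continuous_id
  have h2 : Continuous fun X : Mt N => X + Xᴴ := continuous_id.add h
  exact h2.const_smul (1 / 2 : ℂ)

/-- right hand side of the truncated flow -/
noncomputable def T36_rhs {N : ℕ} (T : ℝ) (V K X : Mt N) : Mt N :=
  V - (1 / 2 : ℂ) • (clampM T (T36_H X) * clampM (2 * T) (K + K - T36_H X) +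
    clampM (2 * T) (K + K - T36_H X) * clampM T (T36_H X))

theorem T36_rhs_herm {N : ℕ} {T : ℝ} {V K X : Mt N} (hV : V.IsHermitian) :
    (T36_rhs T V K X).IsHermitian := by
  have h1 : (clampM T (T36_H X)).IsHermitian := T36_isHermitian_cfc _ _
  have h2 : (clampM (2 * T) (K + K - T36_H X)).IsHermitian := T36_isHermitian_cfc _ _
  unfold T36_rhs Matrix.IsHermitian
  rw [conjTranspose_sub, conjTranspose_smul, conjTranspose_add, conjTranspose_mul,
    conjTranspose_mul, h1.eq, h2.eq, hV.eq, add_comm]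
  congr 2
  simp

theorem T36_rhs_norm {N : ℕ} {T M : ℝ} (hT : 0 ≤ T) {V K X : Mt N} (hV : ‖V‖ ≤ M)
    (hK : K.IsHermitian) :
    ‖T36_rhs T V K X‖ ≤ M + (Real.sqrt N * T) * (Real.sqrt N * (2 * T)) := by
  have hA := T36_clamp_norm (T36_H_herm X) hT
  have hB := T36_clamp_norm ((hK.add hK).sub (T36_H_herm X)) (T := 2 * T) (by linarith)
  unfold T36_rhs
  set A := clampM T (T36_H X)
  set B := clampM (2 * T) (K + K - T36_H X)
  have h1 : ‖A * B‖ ≤ (Real.sqrt N * T) * (Real.sqrt N * (2 * T)) :=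
    (Matrix.frobenius_norm_mul A B).trans (mul_le_mul hA hB (norm_nonneg _) (by positivity))
  have h2 : ‖B * A‖ ≤ (Real.sqrt N * T) * (Real.sqrt N * (2 * T)) := by
    refine (Matrix.frobenius_norm_mul B A).trans ?_
    rw [mul_comm ‖B‖]
    exact mul_le_mul hA hB (norm_nonneg _) (by positivity)
  have h3 := norm_sub_le V ((1 / 2 : ℂ) • (A * B + B * A))
  have h4 := norm_add_le (A * B) (B * A)
  rw [norm_smul] at h3
  have h5 : ‖(1 / 2 : ℂ)‖ = 1 / 2 := by norm_num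
  rw [h5] at h3
  linarith

theorem T36_rhs_lip {N : ℕ} {T : ℝ} (hT : 0 ≤ T) {V K X Y : Mt N} (hK : K.IsHermitian) :
    ‖T36_rhs T V K X - T36_rhs T V K Y‖ ≤
      (Real.sqrt N * T + Real.sqrt N * (2 * T)) * ‖X - Y‖ := by
  have hA := T36_clamp_norm (T36_H_herm X) hT
  have hA' := T36_clamp_norm (T36_H_herm Y) hT
  have hB := T36_clamp_norm ((hK.add hK).sub (T36_H_herm X)) (T := 2 * T) (by linarith)
  have hB' := T36_clamp_norm ((hK.add hK).sub (T36_H_herm Y)) (T := 2 * T) (by linarith)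
  have hAA : ‖clampM T (T36_H X) - clampM T (T36_H Y)‖ ≤ ‖X - Y‖ :=
    (T36_clamp_lip (T36_H_herm X) (T36_H_herm Y)).trans (T36_H_lip X Y)
  have hBB : ‖clampM (2 * T) (K + K - T36_H X) - clampM (2 * T) (K + K - T36_H Y)‖ ≤ ‖X - Y‖ := by
    refine (T36_clamp_lip ((hK.add hK).sub (T36_H_herm X))
      ((hK.add hK).sub (T36_H_herm Y))).trans ?_
    rw [sub_sub_sub_cancel_left, norm_sub_rev]
    exact T36_H_lip X Y
  unfold T36_rhs
  set A := clampM T (T36_H X)
  set B := clampM (2 * T) (K + K - T36_H X)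
  set A' := clampM T (T36_H Y)
  set B' := clampM (2 * T) (K + K - T36_H Y)
  have e : (V - (1 / 2 : ℂ) • (A * B + B * A)) - (V - (1 / 2 : ℂ) • (A' * B' + B' * A')) =
      -((1 / 2 : ℂ) • ((A * (B - B') + (A - A') * B') + (B * (A - A') + (B - B') * A'))) := by
    rw [sub_sub_sub_cancel_left, ← smul_sub, ← smul_neg]
    congr 1
    noncomm_ring
  rw [e, norm_neg, norm_smul]
  have h5 : ‖(1 / 2 : ℂ)‖ = 1 / 2 := by norm_num
  rw [h5]
  have n1 := norm_add_le (A * (B - B') + (A - A') * B') (B * (A - A') + (B - B') * A')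
  have n2 := norm_add_le (A * (B - B')) ((A - A') * B')
  have n3 := norm_add_le (B * (A - A')) ((B - B') * A')
  have m1 : ‖A * (B - B')‖ ≤ (Real.sqrt N * T) * ‖X - Y‖ :=
    (Matrix.frobenius_norm_mul _ _).trans (mul_le_mul hA hBB (norm_nonneg _) (by positivity))
  have m2 : ‖(A - A') * B'‖ ≤ ‖X - Y‖ * (Real.sqrt N * (2 * T)) :=
    (Matrix.frobenius_norm_mul _ _).trans (mul_le_mul hAA hB' (norm_nonneg _) (norm_nonneg _))
  have m3 : ‖B * (A - A')‖ ≤ (Real.sqrt N * (2 * T)) * ‖X - Y‖ :=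
    (Matrix.frobenius_norm_mul _ _).trans (mul_le_mul hB hAA (norm_nonneg _) (by positivity))
  have m4 : ‖(B - B') * A'‖ ≤ ‖X - Y‖ * (Real.sqrt N * T) :=
    (Matrix.frobenius_norm_mul _ _).trans (mul_le_mul hBB hA' (norm_nonneg _) (norm_nonneg _))
  nlinarith

theorem T36_clamp_cont {N : ℕ} {S : Type*} [TopologicalSpace S] {A : S → Mt N} (hA : Continuous A)
    (hH : ∀ x, (A x).IsHermitian) (T : ℝ) : Continuous (fun x => clampM T (A x)) := by
  have h := continuousOn_cfc_param (s := univ) (A := A) hA.continuousOn (fun x _ => hH x)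
    (f := fun _ t => min (max t 0) T) (t := univ) isOpen_univ
    (by fun_prop) (fun x _ => subset_univ _)
  rw [← continuousOn_univ]
  exact h

theorem T36_rhs_cont {N : ℕ} {S : Type*} [TopologicalSpace S] {T : ℝ} {V K X : S → Mt N}
    (hV : Continuous V) (hK : Continuous K) (hX : Continuous X) (hKH : ∀ x, (K x).IsHermitian) :
    Continuous (fun x => T36_rhs T (V x) (K x) (X x)) := by
  unfold T36_rhs
  have hHX : Continuous fun x => T36_H (X x) := T36_H_cont.comp hX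
  have hA : Continuous fun x => clampM T (T36_H (X x)) :=
    T36_clamp_cont hHX (fun x => T36_H_herm _) T
  have hB : Continuous fun x => clampM (2 * T) (K x + K x - T36_H (X x)) :=
    T36_clamp_cont ((hK.add hK).sub hHX) (fun x => ((hKH x).add (hKH x)).sub (T36_H_herm _)) _
  have hC : Continuous fun x => clampM T (T36_H (X x)) * clampM (2 * T) (K x + K x - T36_H (X x)) +
      clampM (2 * T) (K x + K x - T36_H (X x)) * clampM T (T36_H (X x)) :=
    (hA.mul hB).add (hB.mul hA)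
  exact hV.sub (hC.const_smul (1 / 2 : ℂ))

theorem T36_lin_le {N : ℕ} {R M : ℝ} (hR : 0 < R) {X X' : ℝ → Mt N}
    (hc : ContinuousOn X (Icc (-R) R)) (h0 : X (-R) = 0)
    (hd : ∀ x ∈ Ioo (-R) R, HasDerivAt X (X' x) x) (l : Mt N →L[ℝ] ℝ)
    (hM : ∀ x ∈ Ioo (-R) R, l (X' x) ≤ M) : ∀ x ∈ Icc (-R) R, l (X x) ≤ M * (x + R) := by
  intro x hx
  have hcont : ContinuousOn (fun t => l (X t)) (Icc (-R) R) := l.continuous.comp_continuousOn hc
  have hder : ∀ x ∈ Ioo (-R) R, HasDerivAt (fun t => l (X t)) (l (X' x)) x := fun x hx =>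
    l.hasFDerivAt.comp_hasDerivAt x (hd x hx)
  have h := (convex_Icc (-R) R).image_sub_le_mul_sub_of_deriv_le hcont
    (by
      rw [interior_Icc]
      intro x hx
      exact (hder x hx).differentiableAt.differentiableWithinAt)
    (C := M) (by
      rw [interior_Icc]
      intro x hx
      rw [(hder x hx).deriv]
      exact hM x hx) (-R) (left_mem_Icc.mpr (by linarith)) x hx hx.1
  rw [h0, map_zero, sub_zero, sub_neg_eq_add] at h
  exact h

theorem T36_herm_of_ode {N : ℕ} {R : ℝ} (hR : 0 < R) {X X' : ℝ → Mt N}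
    (hc : ContinuousOn X (Icc (-R) R)) (h0 : X (-R) = 0)
    (hd : ∀ x ∈ Ioo (-R) R, HasDerivAt X (X' x) x)
    (hH : ∀ x ∈ Ioo (-R) R, (X' x).IsHermitian) : ∀ x ∈ Icc (-R) R, (X x).IsHermitian := by
  intro x hx
  have key : ∀ l : Mt N →L[ℝ] ℝ, (∀ A : Mt N, A.IsHermitian → l A = 0) → l (X x) = 0 := by
    intro l hl
    have h1 := T36_lin_le (M := 0) hR hc h0 hd l (fun x hx => (hl _ (hH x hx)).le) x hx
    have h2 := T36_lin_le (M := 0) hR hc h0 hd (-l) (fun x hx => by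
      have : (-l) (X' x) = -(l (X' x)) := rfl
      rw [this, hl _ (hH x hx), neg_zero]) x hx
    have h3 : (-l) (X x) = -(l (X x)) := rfl
    rw [h3] at h2
    linarith
  -- real and imaginary parts of the entries of `X - Xᴴ`
  let lr : Fin N → Fin N → (Mt N →ₗ[ℝ] ℝ) := fun i j =>
    { toFun := fun A => (A i j).re - (A j i).re
      map_add' := fun A B => by simp; ring
      map_smul' := fun c A => by simp; ring }
  let li : Fin N → Fin N → (Mt N →ₗ[ℝ] ℝ) := fun i j =>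
    { toFun := fun A => (A i j).im + (A j i).im
      map_add' := fun A B => by simp; ring
      map_smul' := fun c A => by simp; ring }
  have hlr : ∀ i j, lr i j (X x) = 0 := by
    intro i j
    refine key (LinearMap.toContinuousLinearMap (lr i j)) (fun A hA => ?_)
    show (A i j).re - (A j i).re = 0
    rw [← hA.apply i j]
    simp
  have hli : ∀ i j, li i j (X x) = 0 := by
    intro i j
    refine key (LinearMap.toContinuousLinearMap (li i j)) (fun A hA => ?_)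
    show (A i j).im + (A j i).im = 0
    rw [← hA.apply i j]
    simp
  ext i j
  rw [conjTranspose_apply]
  have h1 : (X x i j).re - (X x j i).re = 0 := hlr i j
  have h2 : (X x i j).im + (X x j i).im = 0 := hli i j
  apply Complex.ext
  · simp; linarith
  · simp; linarith

/-- trace as a continuous linear functional. -/
noncomputable def T36_trL (N : ℕ) : Mt N →L[ℝ] ℝ := LinearMap.toContinuousLinearMap
  { toFun := fun A => tr A
    map_add' := T35_tr_add
    map_smul' := fun c A => by simp [tr] }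

theorem T36_trL_apply {N : ℕ} (A : Mt N) : T36_trL N A = tr A := rfl

theorem T36_tr_rhs_le {N : ℕ} {T M : ℝ} (hT : 0 ≤ T) {V K X : Mt N} (hV : tr V ≤ M)
    (hK : K.IsHermitian) : tr (T36_rhs T V K X) ≤ M := by
  have hA : (clampM T (T36_H X)).PosSemidef := T36_clamp_psd (T36_H_herm X) hT
  have hB : (clampM (2 * T) (K + K - T36_H X)).PosSemidef :=
    T36_clamp_psd ((hK.add hK).sub (T36_H_herm X)) (by linarith)
  unfold T36_rhs
  rw [T35_tr_sub]
  have h1 := T36_tr_mul_nonneg hA hB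
  have h2 := T36_tr_mul_nonneg hB hA
  have h3 : ∀ A : Mt N, tr ((1 / 2 : ℂ) • A) = 1 / 2 * tr A := by
    intro A
    simp only [tr, Matrix.trace_smul, smul_eq_mul]
    have : ((1:ℂ)/2) = (((1:ℝ)/2 : ℝ) : ℂ) := by push_cast; rfl
    rw [this, Complex.re_ofReal_mul]
  rw [h3, T35_tr_add]
  linarith

/-- the compact convex set -/
def T36_set (N : ℕ) (T : ℝ) : Set (Mt N) := {K | K.PosSemidef ∧ tr K ≤ T}

theorem T36_set_convex (N : ℕ) (T : ℝ) : Convex ℝ (T36_set N T) := by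
  intro A hA B hB a b ha hb hab
  refine ⟨(hA.1.smul ha).add (hB.1.smul hb), ?_⟩
  have h : tr (a • A + b • B) = a * tr A + b * tr B := by
    rw [T35_tr_add]; simp [tr]
  rw [h]
  have h1 := mul_le_mul_of_nonneg_left hA.2 ha
  have h2 := mul_le_mul_of_nonneg_left hB.2 hb
  have h3 : a * T + b * T = T := by rw [← add_mul, hab, one_mul]
  linarith

theorem T36_closed_psd (N : ℕ) : IsClosed {K : Mt N | K.PosSemidef} := by
  have h : {K : Mt N | K.PosSemidef} =
      {K : Mt N | Kᴴ = K} ∩ ⋂ x : Fin N → ℂ, {K : Mt N | 0 ≤ star x ⬝ᵥ (K *ᵥ x)} := by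
    ext K
    simp only [Set.mem_ofPred_eq, Set.mem_inter_iff, Set.mem_iInter]
    rw [Matrix.posSemidef_iff_dotProduct_mulVec]
    rfl
  rw [h]
  refine IsClosed.inter ?_ (isClosed_iInter fun x => ?_)
  · exact isClosed_eq (Continuous.matrix_conjTranspose continuous_id) continuous_id
  · refine isClosed_le continuous_const ?_
    exact Continuous.dotProduct continuous_const
      (Continuous.matrix_mulVec continuous_id continuous_const)

theorem T36_set_compact (N : ℕ) (T : ℝ) : IsCompact (T36_set N T) := by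
  have : ProperSpace (Mt N) := FiniteDimensional.proper ℝ (Mt N)
  have hcl : IsClosed (T36_set N T) :=
    (T36_closed_psd N).inter (isClosed_le T35_continuous_tr continuous_const)
  have hb : Bornology.IsBounded (T36_set N T) := by
    rw [isBounded_iff_forall_norm_le]
    exact ⟨T, fun K hK => (T36_norm_psd_le hK.1).trans hK.2⟩
  exact Metric.isCompact_of_isClosed_isBounded (α := Mt N) hcl hb

theorem T36_flow {N : ℕ} {R M : ℝ} (hR : 0 < R) (𝒱 : Mt N → ℝ → Mt N)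
    (hcont : ContinuousOn (fun p : Mt N × ℝ => 𝒱 p.1 p.2) ({K | K.PosSemidef} ×ˢ univ))
    (hpsd : ∀ K : Mt N, K.PosSemidef → ∀ x, (𝒱 K x).PosSemidef)
    (htr : ∀ K : Mt N, K.PosSemidef → ∀ x, tr (𝒱 K x) ≤ M) {T : ℝ} (hT : 0 ≤ T) :
    ∃ u : T36_set N T → ℝ → Mt N, (∀ p, u p (-R) = 0) ∧ (∀ p, ContinuousOn (u p) (Icc (-R) R)) ∧
      (∀ p : T36_set N T, ∀ t ∈ Ioo (-R) R,
        HasDerivAt (u p) (T36_rhs T (𝒱 p.1 t) p.1 (u p t)) t) ∧
      Continuous (fun p => u p R) := by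
  refine T36_ode hR (fun (p : T36_set N T) t X => T36_rhs T (𝒱 p.1 t) p.1 X) ?_
    (Real.sqrt N * T + Real.sqrt N * (2 * T)) (by positivity) ?_
    (M + (Real.sqrt N * T) * (Real.sqrt N * (2 * T))) ?_
  · refine T36_rhs_cont (V := fun q : T36_set N T × ℝ × Mt N => 𝒱 q.1.1 q.2.1)
      (K := fun q : T36_set N T × ℝ × Mt N => q.1.1) (X := fun q : T36_set N T × ℝ × Mt N => q.2.2)
      ?_ ?_ ?_ ?_
    · exact hcont.comp_continuous (f := fun q : T36_set N T × ℝ × Mt N => (q.1.1, q.2.1))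
        (by fun_prop) (fun q => ⟨q.1.2.1, mem_univ _⟩)
    · fun_prop
    · fun_prop
    · exact fun q => q.1.2.1.1
  · intro p t X Y
    exact T36_rhs_lip hT p.2.1.1
  · intro p t X
    exact T36_rhs_norm hT ((T36_norm_psd_le (hpsd p.1 p.2.1 t)).trans (htr p.1 p.2.1 t)) p.2.1.1

theorem T36_fix {N : ℕ} {T : ℝ} (hT : 0 ≤ T) (g : T36_set N T → Mt N) (hg : Continuous g)
    (hg2 : ∀ p, (g p).PosSemidef) (hg3 : ∀ p, tr (g p) ≤ T) :
    ∃ p : T36_set N T, g p = p.1 + p.1 := by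
  classical
  let Φ : Mt N → Mt N := fun K => if h : K ∈ T36_set N T then (1 / 2 : ℝ) • g ⟨K, h⟩ else 0
  have hΦ : ∀ K (h : K ∈ T36_set N T), Φ K = (1 / 2 : ℝ) • g ⟨K, h⟩ := fun K h => by
    simp only [Φ, dif_pos h]
  have hΦc : ContinuousOn Φ (T36_set N T) := by
    rw [continuousOn_iff_continuous_domRestrict]
    have : (T36_set N T).domRestrict Φ = fun p => (1 / 2 : ℝ) • g p := by
      funext p
      exact hΦ p.1 p.2
    rw [this]
    exact hg.const_smul (1 / 2 : ℝ)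
  have hmaps : MapsTo Φ (T36_set N T) (T36_set N T) := by
    intro K hK
    rw [hΦ K hK]
    refine ⟨(hg2 _).smul (by norm_num : (0:ℝ) ≤ 1/2), ?_⟩
    have h1 : tr ((1 / 2 : ℝ) • g ⟨K, hK⟩) = 1 / 2 * tr (g ⟨K, hK⟩) := by simp [tr]
    rw [h1]
    have := hg3 ⟨K, hK⟩
    linarith
  have hne : (T36_set N T).Nonempty := ⟨0, Matrix.PosSemidef.zero, by simpa [tr] using hT⟩
  obtain ⟨K, hK, hfix⟩ := brouwer_convex (E := Mt N) (T36_set_convex N T) (T36_set_compact N T) hne Φ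
    hΦc hmaps
  refine ⟨⟨K, hK⟩, ?_⟩
  rw [hΦ K hK] at hfix
  show g ⟨K, hK⟩ = K + K
  conv_rhs => rw [← hfix]
  rw [← add_smul]
  norm_num

theorem T36_hasDerivAt_comp_neg {N : ℕ} {X : ℝ → Mt N} {X' : Mt N} {x : ℝ}
    (h : HasDerivAt X X' (-x)) : HasDerivAt (fun t => X (-t)) (-X') x := by
  have h2 := HasDerivAt.scomp (F := Mt N) x h (hasDerivAt_neg x)
  rw [neg_one_smul] at h2
  exact h2

theorem T36_hasDerivAt_const_sub {N : ℕ} {X : ℝ → Mt N} {X' : Mt N} {x : ℝ} (C : Mt N)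
    (h : HasDerivAt X X' x) : HasDerivAt (fun t => C - X t) (-X') x :=
  HasDerivAt.const_sub (F := Mt N) C h

end T36norm

theorem exists_riccati {N : ℕ} {R M : ℝ} (hR : 0 < R) (𝒱 : Mt N → ℝ → Mt N)
    (hcont : ContinuousOn (fun p : Mt N × ℝ => 𝒱 p.1 p.2) ({K | K.PosSemidef} ×ˢ univ))
    (hpsd : ∀ K : Mt N, K.PosSemidef → ∀ x, (𝒱 K x).PosSemidef)
    (htr : ∀ K : Mt N, K.PosSemidef → ∀ x, tr (𝒱 K x) ≤ M) :
    ∃ (K : Mt N) (F : ℝ → Mt N), K.PosSemidef ∧ Riccati R K F (𝒱 K) := by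
  have hM0 : 0 ≤ M := by
    have h1 := htr 0 Matrix.PosSemidef.zero 0
    have h2 := hpsd 0 Matrix.PosSemidef.zero 0
    rw [T36_tr_eq_sum h2.1] at h1
    exact (Finset.sum_nonneg fun i _ => h2.eigenvalues_nonneg i).trans h1
  obtain ⟨T, hTdef⟩ : ∃ T, T = 2 * R * M + 1 := ⟨_, rfl⟩
  have hT : 0 ≤ T := by rw [hTdef]; positivity
  obtain ⟨u, hu0, huc, hud, huR⟩ := T36_flow hR 𝒱 hcont hpsd htr hT
  have hH : ∀ p, ∀ x ∈ Icc (-R) R, (u p x).IsHermitian := fun p =>
    T36_herm_of_ode hR (huc p) (hu0 p) (hud p) (fun x _ => T36_rhs_herm (hpsd p.1 p.2.1 x).1)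
  have hd2 : ∀ p, ∀ x ∈ Ioo (-R) R, HasDerivAt (u p) (𝒱 p.1 x - (1 / 2 : ℂ) •
      (clampM T (u p x) * clampM (2 * T) (p.1 + p.1 - u p x) +
        clampM (2 * T) (p.1 + p.1 - u p x) * clampM T (u p x))) x := by
    intro p x hx
    have h := hud p x hx
    rw [T36_rhs, T36_H_eq (hH p x (Ioo_subset_Icc_self hx))] at h
    exact h
  have hP : ∀ p, ∀ x ∈ Icc (-R) R, (u p x).PosSemidef := fun p =>
    psd_of_ode hR hT (V := 𝒱 p.1) (Z := fun x => clampM (2 * T) (p.1 + p.1 - u p x)) (huc p)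
      (hu0 p) (hH p) (fun x _ => hpsd p.1 p.2.1 x) (hd2 p)
  have htrX : ∀ p, ∀ x ∈ Icc (-R) R, tr (u p x) ≤ M * (x + R) := fun p =>
    T36_lin_le hR (huc p) (hu0 p) (hud p) (T36_trL N)
      (fun x _ => T36_tr_rhs_le hT (htr p.1 p.2.1 x) p.2.1.1)
  have htrT : ∀ p, ∀ x ∈ Icc (-R) R, tr (u p x) ≤ T := by
    intro p x hx
    refine (htrX p x hx).trans ?_
    rw [hTdef]
    nlinarith [hx.1, hx.2]
  have hRR : R ∈ Icc (-R) R := ⟨by linarith, le_rfl⟩
  obtain ⟨⟨K, hK⟩, hfix⟩ := T36_fix hT (fun p => u p R) huR (fun p => hP p R hRR)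
    (fun p => htrT p R hRR)
  simp only at hfix
  set X : ℝ → Mt N := u ⟨K, hK⟩ with hX
  have hXc : ContinuousOn X (Icc (-R) R) := huc _
  have hX0 : X (-R) = 0 := hu0 _
  have hXP : ∀ x ∈ Icc (-R) R, (X x).PosSemidef := hP _
  have hXT : ∀ x ∈ Icc (-R) R, tr (X x) ≤ T := htrT _
  have hXd : ∀ x ∈ Ioo (-R) R, HasDerivAt X (𝒱 K x - (1 / 2 : ℂ) •
      (clampM T (X x) * clampM (2 * T) (K + K - X x) +
        clampM (2 * T) (K + K - X x) * clampM T (X x))) x := hd2 ⟨K, hK⟩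
  have hKH : (K + K).IsHermitian := hK.1.1.add hK.1.1
  -- the reflected path
  have hneg : ∀ x, x ∈ Icc (-R) R → -x ∈ Icc (-R) R := fun x hx => ⟨by linarith [hx.2], by linarith [hx.1]⟩
  have hY : ∀ x ∈ Icc (-R) R, (K + K - X (-x)).PosSemidef := by
    refine psd_of_ode hR (T := 2 * T) (by linarith) (V := fun x => 𝒱 K (-x)) (Z := fun x => X (-x))
      ?_ ?_ ?_ (fun x _ => hpsd K hK.1 (-x)) ?_
    · refine continuousOn_const.sub (hXc.comp continuous_neg.continuousOn hneg)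
    · rw [neg_neg]
      show K + K - X R = 0
      rw [hfix, sub_self]
    · exact fun x hx => hKH.sub (hXP (-x) (hneg x hx)).1
    · intro x hx
      have hx' : -x ∈ Ioo (-R) R := ⟨by linarith [hx.2], by linarith [hx.1]⟩
      have h0 := hXd (-x) hx'
      rw [T36_clamp_eq (hXP (-x) (Ioo_subset_Icc_self hx')) (hXT _ (Ioo_subset_Icc_self hx'))] at h0
      have h1 := T36_hasDerivAt_comp_neg h0
      have h2 := T36_hasDerivAt_const_sub (K + K) h1
      rw [neg_neg, add_comm (X (-x) * _)] at h2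
      exact h2
  have hYP : ∀ x ∈ Icc (-R) R, (K + K - X x).PosSemidef := by
    intro x hx
    have := hY (-x) (hneg x hx)
    rwa [neg_neg] at this
  have htrY : ∀ x ∈ Icc (-R) R, tr (K + K - X x) ≤ 2 * T := by
    intro x hx
    rw [T35_tr_sub, T35_tr_add]
    have h1 := hK.2
    have h2 : 0 ≤ tr (X x) := by
      rw [T36_tr_eq_sum (hXP x hx).1]
      exact Finset.sum_nonneg fun i _ => (hXP x hx).eigenvalues_nonneg i
    linarith
  refine ⟨K, fun x => K - X x, hK.1, ?_⟩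
  refine
    { hR := hR
      contV := ?_
      Vpsd := fun x _ => hpsd K hK.1 x
      adm := ?_
      contF := continuousOn_const.sub hXc
      deriv := ?_
      left := by show K - X (-R) = K; rw [hX0, sub_zero]
      right := by show K - X R = -K; rw [hfix]; abel }
  · have h1 : ContinuousOn (fun x : ℝ => ((K, x) : Mt N × ℝ)) (Icc (-R) R) := by fun_prop
    exact hcont.comp h1 (fun x _ => ⟨hK.1, mem_univ _⟩)
  · intro x hx
    constructor
    · have : K - (K - X x) = X x := by abel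
      show (K - (K - X x)).PosSemidef
      rw [this]; exact hXP x hx
    · have : K + (K - X x) = K + K - X x := by abel
      show (K + (K - X x)).PosSemidef
      rw [this]; exact hYP x hx
  · intro x hx
    have hxI := Ioo_subset_Icc_self hx
    have h0 := hXd x hx
    rw [T36_clamp_eq (hXP x hxI) (hXT x hxI), T36_clamp_eq (hYP x hxI) (htrY x hxI)] at h0
    have h1 := T36_hasDerivAt_const_sub K h0
    have h2 : K * K - (K - X x) * (K - X x) - 𝒱 K x =
        -(𝒱 K x - (1 / 2 : ℂ) • (X x * (K + K - X x) + (K + K - X x) * X x)) := by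
      have h3 : X x * (K + K - X x) + (K + K - X x) * X x =
          (2 : ℂ) • (K * K - (K - X x) * (K - X x)) := by
        rw [two_smul]
        noncomm_ring
      rw [h3, smul_smul]
      norm_num
    show HasDerivAt (fun x => K - X x) (K * K - (K - X x) * (K - X x) - 𝒱 K x) x
    rw [h2]
    exact h1

end Crest.Agent.LT
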