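import Crest.Agent.LT_Defs
/-!
Task LT-T40: the trial identity
`∫ ‖Ψ' - ΨF‖² = tr (G A G) + tr (G² K²) + ∫ (tr (W ΨΨ^*) - tr (P V))`, `Ψ = Φ G`, `A = energyMatrix W φ`.
`(tr (F P))' = tr (F' P) + 2 Re tr (F Ψ^* Ψ')`, `P = Ψ^*Ψ`, boundary terms vanish (supports in `(-R,R)`).
First lemma: integrability of `⟨φ_k, W φ_l⟩` (`‖W‖ ≤ tr W ≤ m + tr W^p`-type bound, locally integrable).
-/

set_option autoImplicit false

namespace Crest.Agent.LT

open MeasureTheory Matrix Set Filter
open Crest.MathPhysics.LiebThirring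
open scoped ComplexOrder Topology ContDiff

/-! ### integrability of the potential term -/

theorem T40_entry_bound {m : ℕ} {W : Matrix (Fin m) (Fin m) ℂ} (hW : W.PosSemidef) {p : ℝ}
    (hp : 1 ≤ p) (a b : Fin m) : ‖W a b‖ ≤ m + tracePow W p := by
  have hH := hW.1
  set U : Matrix (Fin m) (Fin m) ℂ := (hH.eigenvectorUnitary : Matrix (Fin m) (Fin m) ℂ) with hU
  have hUn : ∀ i j, ‖U i j‖ ≤ 1 := fun i j => entry_norm_bound_of_unitary hH.eigenvectorUnitary.2 i j
  have h1 : Uᴴ * U = 1 := by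
    have := (Matrix.mem_unitaryGroup_iff'.1 hH.eigenvectorUnitary.2)
    simpa [star_eq_conjTranspose] using this
  have h2 : W = U * diagonal (fun i => ((hH.eigenvalues i : ℝ) : ℂ)) * Uᴴ := by
    conv_lhs => rw [hH.spectral_theorem]
    rfl
  have h3 : tracePow W p = ∑ i, hH.eigenvalues i ^ p := by
    have : cfc (fun t : ℝ => t ^ p) W = U *
      diagonal (fun i => ((hH.eigenvalues i ^ p : ℝ) : ℂ)) * Uᴴ := by
      rw [hH.cfc_eq]
      rfl
    rw [tracePow, this, Matrix.trace_mul_comm, ← Matrix.mul_assoc, h1, Matrix.one_mul]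
    simp [Matrix.trace_diagonal]
  have hnn : ∀ i, 0 ≤ hH.eigenvalues i := fun i => hW.eigenvalues_nonneg i
  have h4 : W a b = ∑ i, U a i * ((hH.eigenvalues i : ℝ) : ℂ) * star (U b i) := by
    conv_lhs => rw [h2]
    simp [Matrix.mul_apply, Matrix.diagonal_apply, Matrix.conjTranspose_apply]
  rw [h4, h3]
  calc ‖∑ i, U a i * ((hH.eigenvalues i : ℝ) : ℂ) * star (U b i)‖
      ≤ ∑ i, ‖U a i * ((hH.eigenvalues i : ℝ) : ℂ) * star (U b i)‖ := norm_sum_le _ _
    _ ≤ ∑ i, (1 + hH.eigenvalues i ^ p) := by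
        refine Finset.sum_le_sum fun i _ => ?_
        rw [norm_mul, norm_mul, norm_star, Complex.norm_real, Real.norm_of_nonneg (hnn i)]
        have e0 : ‖U a i‖ * hH.eigenvalues i ≤ 1 * hH.eigenvalues i :=
          mul_le_mul_of_nonneg_right (hUn a i) (hnn i)
        have e1 : ‖U a i‖ * hH.eigenvalues i * ‖U b i‖ ≤ 1 * hH.eigenvalues i * 1 :=
          mul_le_mul e0 (hUn b i) (norm_nonneg _) (by have := hnn i; linarith)
        have e2 : hH.eigenvalues i ≤ 1 + hH.eigenvalues i ^ p := by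
          rcases le_total (hH.eigenvalues i) 1 with h | h
          · have := Real.rpow_nonneg (hnn i) p
            linarith
          · have : hH.eigenvalues i ^ (1:ℝ) ≤ hH.eigenvalues i ^ p :=
              Real.rpow_le_rpow_of_exponent_le h hp
            rw [Real.rpow_one] at this
            linarith
        linarith
    _ = m + ∑ i, hH.eigenvalues i ^ p := by
        rw [Finset.sum_add_distrib]
        simp

theorem T40_tracePow_nonneg {m : ℕ} {W : Matrix (Fin m) (Fin m) ℂ} (hW : W.PosSemidef) (p : ℝ) :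
    0 ≤ tracePow W p := by
  have hH := hW.1
  set U : Matrix (Fin m) (Fin m) ℂ := (hH.eigenvectorUnitary : Matrix (Fin m) (Fin m) ℂ) with hU
  have h1 : Uᴴ * U = 1 := by
    have := (Matrix.mem_unitaryGroup_iff'.1 hH.eigenvectorUnitary.2)
    simpa [star_eq_conjTranspose] using this
  have h3 : tracePow W p = ∑ i, hH.eigenvalues i ^ p := by
    have : cfc (fun t : ℝ => t ^ p) W = U *
      diagonal (fun i => ((hH.eigenvalues i ^ p : ℝ) : ℂ)) * Uᴴ := by
      rw [hH.cfc_eq]
      rfl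
    rw [tracePow, this, Matrix.trace_mul_comm, ← Matrix.mul_assoc, h1, Matrix.one_mul]
    simp [Matrix.trace_diagonal]
  rw [h3]
  exact Finset.sum_nonneg fun i _ => Real.rpow_nonneg (hW.eigenvalues_nonneg i) p

theorem T40_inner_expand {m : ℕ} (W : Matrix (Fin m) (Fin m) ℂ) (f g : Vec m) :
    (inner ℂ f (Matrix.toEuclideanLin W g) : ℂ) = ∑ a, ∑ b, star (f a) * W a b * g b := by
  rw [PiLp.inner_apply]
  refine Finset.sum_congr rfl fun a _ => ?_
  have : (Matrix.toEuclideanLin W g) a = ∑ b, W a b * g b := by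
    simp [Matrix.toLpLin_apply, Matrix.mulVec, dotProduct]
  rw [this]
  simp only [RCLike.inner_apply, Finset.sum_mul]
  refine Finset.sum_congr rfl fun b _ => ?_
  simp only [starRingEnd_apply]
  ring

theorem integrable_potential {m : ℕ} {W : ℝ → Matrix (Fin m) (Fin m) ℂ}
    (hW : ∀ i j, Measurable fun x => W x i j) (hWp : ∀ x, (W x).PosSemidef) {p : ℝ} (hp : 1 ≤ p)
    (hWi : Integrable fun x => tracePow (W x) p) {f g : ℝ → Vec m} (hf : Continuous f)
    (hg : Continuous g) (hfs : HasCompactSupport f) :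
    Integrable fun x => inner ℂ (f x) (Matrix.toEuclideanLin (W x) (g x)) := by
  simp only [T40_inner_expand]
  refine integrable_finsetSum _ fun a _ => integrable_finsetSum _ fun b _ => ?_
  have hfa : Continuous fun x => star (f x a) :=
    continuous_star.comp ((EuclideanSpace.proj (𝕜 := ℂ) a).continuous.comp hf)
  have hgb : Continuous fun x => g x b :=
    (EuclideanSpace.proj (𝕜 := ℂ) b).continuous.comp hg
  have hc : Continuous fun x => star (f x a) * g x b := hfa.mul hgb
  have hcs : HasCompactSupport fun x => star (f x a) * g x b := by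
    refine HasCompactSupport.mono hfs ?_
    intro x hx
    rw [Function.mem_support] at hx ⊢
    intro h
    apply hx
    rw [h]
    simp
  obtain ⟨C, hC⟩ := hcs.exists_bound_of_continuous hc
  have hint1 : Integrable fun x => ‖star (f x a) * g x b‖ * (m : ℝ) :=
    (hc.integrable_of_hasCompactSupport hcs).norm.mul_const _
  have hint2 : Integrable fun x => C * tracePow (W x) p := hWi.const_mul C
  refine Integrable.mono' (hint1.add hint2) ?_ ?_
  · exact ((hfa.measurable.mul (hW a b)).mul hgb.measurable).aestronglyMeasurable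
  · refine Eventually.of_forall fun x => ?_
    have e1 := T40_entry_bound (hWp x) hp a b
    have e2 := T40_tracePow_nonneg (hWp x) p
    have e3 : ‖star (f x a) * W x a b * g x b‖ = ‖star (f x a) * g x b‖ * ‖W x a b‖ := by
      rw [norm_mul, norm_mul, norm_mul]
      ring
    rw [e3]
    calc ‖star (f x a) * g x b‖ * ‖W x a b‖
        ≤ ‖star (f x a) * g x b‖ * (m + tracePow (W x) p) := by gcongr
      _ = ‖star (f x a) * g x b‖ * m + ‖star (f x a) * g x b‖ * tracePow (W x) p := by ring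
      _ ≤ ‖star (f x a) * g x b‖ * m + C * tracePow (W x) p := by
          gcongr
          exact hC x

/-! ### the identity -/

theorem T40_tr_add {N : ℕ} (A B : Mt N) : tr (A + B) = tr A + tr B := by
  simp [tr, Matrix.trace_add]

theorem T40_tr_sub {N : ℕ} (A B : Mt N) : tr (A - B) = tr A - tr B := by
  simp [tr, Matrix.trace_sub]

/-- rectangular cyclicity -/
theorem T40_tr_comm {m N : ℕ} (A : Matrix (Fin m) (Fin N) ℂ) (B : Matrix (Fin N) (Fin m) ℂ) :
    tr (A * B) = tr (B * A) := by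
  simp only [tr]
  rw [Matrix.trace_mul_comm]

theorem T40_hs2 {m N : ℕ} (A : Matrix (Fin m) (Fin N) ℂ) : hs2 A = tr (Aᴴ * A) := by
  simp only [hs2, tr, Matrix.trace, Matrix.diag_apply, Matrix.mul_apply,
    Matrix.conjTranspose_apply, Complex.re_sum]
  rw [Finset.sum_comm]
  refine Finset.sum_congr rfl fun j _ => Finset.sum_congr rfl fun i _ => ?_
  have : star (A i j) * A i j = ((‖A i j‖ ^ 2 : ℝ) : ℂ) := by
    have := Complex.conj_mul' (A i j)
    rw [← starRingEnd_apply, this]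
    push_cast
    rfl
  rw [this, Complex.ofReal_re]

theorem T40_gram {m N : ℕ} (φ : Fin N → ℝ → Vec m) (x : ℝ) (k l : Fin N) :
    ((Phi φ x)ᴴ * Phi φ x) k l = inner ℂ (φ k x) (φ l x) := by
  rw [PiLp.inner_apply]
  simp only [Matrix.mul_apply, Matrix.conjTranspose_apply, Phi, Matrix.of_apply,
    RCLike.inner_apply, starRingEnd_apply]
  refine Finset.sum_congr rfl fun a _ => ?_
  ring

theorem T40_dgram {m N : ℕ} (φ : Fin N → ℝ → Vec m) (x : ℝ) (k l : Fin N) :
    ((dPhi φ x)ᴴ * dPhi φ x) k l = inner ℂ (deriv (φ k) x) (deriv (φ l) x) := by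
  rw [PiLp.inner_apply]
  simp only [Matrix.mul_apply, Matrix.conjTranspose_apply, dPhi, Matrix.of_apply,
    RCLike.inner_apply, starRingEnd_apply]
  refine Finset.sum_congr rfl fun a _ => ?_
  ring

theorem T40_wgram {m N : ℕ} (W : Matrix (Fin m) (Fin m) ℂ) (φ : Fin N → ℝ → Vec m) (x : ℝ)
    (k l : Fin N) :
    ((Phi φ x)ᴴ * (W * Phi φ x)) k l =
      inner ℂ (φ k x) (Matrix.toEuclideanLin W (φ l x)) := by
  rw [T40_inner_expand]
  simp only [Matrix.mul_apply, Matrix.conjTranspose_apply, Phi, Matrix.of_apply, Finset.mul_sum]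
  refine Finset.sum_congr rfl fun a _ => Finset.sum_congr rfl fun b _ => ?_
  ring

theorem T40_tr_integral {N : ℕ} (M : Mt N) {E : ℝ → Mt N}
    (hE : ∀ k l, Integrable fun x => E x k l) :
    (Integrable fun x => tr (M * E x)) ∧
      ∫ x, tr (M * E x) = tr (M * Matrix.of fun k l => ∫ x, E x k l) := by
  have hi : Integrable fun x => ∑ i, ∑ k, M i k * E x k i :=
    integrable_finsetSum _ fun i _ => integrable_finsetSum _ fun k _ => (hE k i).const_mul _
  have h1 : ∀ x, tr (M * E x) = Complex.reCLM (∑ i, ∑ k, M i k * E x k i) := by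
    intro x
    simp [tr, Matrix.trace, Matrix.mul_apply]
  refine ⟨?_, ?_⟩
  · simp only [h1]
    exact Complex.reCLM.integrable_comp hi
  · simp only [h1]
    have h2 : ∫ x, ∑ i, ∑ k, M i k * E x k i = ∑ i, ∑ k, M i k * ∫ x, E x k i := by
      refine (integral_finsetSum Finset.univ (f := fun i x => ∑ k, M i k * E x k i)
        fun i _ => integrable_finsetSum _ fun k _ => (hE k i).const_mul _).trans ?_
      refine Finset.sum_congr rfl fun i _ => ?_
      refine (integral_finsetSum Finset.univ (f := fun k x => M i k * E x k i)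
        fun k _ => (hE k i).const_mul _).trans ?_
      refine Finset.sum_congr rfl fun k _ => ?_
      exact integral_const_mul _ _
    rw [ContinuousLinearMap.integral_comp_comm _ hi, h2]
    simp only [tr, Matrix.trace, Matrix.diag_apply, Matrix.mul_apply, Matrix.of_apply]
    rfl

/-! entrywise calculus -/

theorem T40_entry_deriv {N : ℕ} {F : ℝ → Mt N} {F' : Mt N} {x : ℝ} (h : HasDerivAt F F' x)
    (i j : Fin N) : HasDerivAt (fun y => F y i j) (F' i j) x := by
  have h1 : HasDerivAt (fun y => F y i) (F' i) x := (hasDerivAt_pi (φ := F) (φ' := F')).1 h i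
  exact (hasDerivAt_pi (φ := fun y => F y i) (φ' := F' i)).1 h1 j

theorem T40_entry_cont {N : ℕ} {F : ℝ → Mt N} {s : Set ℝ} (h : ContinuousOn F s) (i j : Fin N) :
    ContinuousOn (fun y => F y i j) s :=
  (continuous_apply_apply i j).comp_continuousOn h

theorem T40_mul_deriv {p q r : ℕ} {A : ℝ → Matrix (Fin p) (Fin q) ℂ}
    {B : ℝ → Matrix (Fin q) (Fin r) ℂ} {A' : Matrix (Fin p) (Fin q) ℂ}
    {B' : Matrix (Fin q) (Fin r) ℂ} {x : ℝ}
    (hA : ∀ i j, HasDerivAt (fun y => A y i j) (A' i j) x)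
    (hB : ∀ i j, HasDerivAt (fun y => B y i j) (B' i j) x) (i : Fin p) (j : Fin r) :
    HasDerivAt (fun y => (A y * B y) i j) ((A' * B x + A x * B') i j) x := by
  simp only [Matrix.mul_apply, Matrix.add_apply]
  rw [← Finset.sum_add_distrib]
  exact HasDerivAt.fun_sum fun k _ => (hA i k).mul (hB k j)

theorem T40_mul_cont {p q r : ℕ} {A : ℝ → Matrix (Fin p) (Fin q) ℂ}
    {B : ℝ → Matrix (Fin q) (Fin r) ℂ} {s : Set ℝ}
    (hA : ∀ i j, ContinuousOn (fun y => A y i j) s)
    (hB : ∀ i j, ContinuousOn (fun y => B y i j) s) (i : Fin p) (j : Fin r) :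
    ContinuousOn (fun y => (A y * B y) i j) s := by
  simp only [Matrix.mul_apply]
  exact continuousOn_finsetSum _ fun k _ => (hA i k).mul (hB k j)

theorem T40_star_deriv {p q : ℕ} {A : ℝ → Matrix (Fin p) (Fin q) ℂ}
    {A' : Matrix (Fin p) (Fin q) ℂ} {x : ℝ}
    (hA : ∀ i j, HasDerivAt (fun y => A y i j) (A' i j) x) (i : Fin q) (j : Fin p) :
    HasDerivAt (fun y => (A y)ᴴ i j) (A'ᴴ i j) x := by
  simp only [Matrix.conjTranspose_apply]
  exact (hA j i).star

theorem T40_star_cont {p q : ℕ} {A : ℝ → Matrix (Fin p) (Fin q) ℂ} {s : Set ℝ}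
    (hA : ∀ i j, ContinuousOn (fun y => A y i j) s) (i : Fin q) (j : Fin p) :
    ContinuousOn (fun y => (A y)ᴴ i j) s := by
  simp only [Matrix.conjTranspose_apply]
  exact (hA j i).star

theorem T40_tr_deriv {N : ℕ} {A : ℝ → Mt N} {A' : Mt N} {x : ℝ}
    (hA : ∀ i j, HasDerivAt (fun y => A y i j) (A' i j) x) :
    HasDerivAt (fun y => tr (A y)) (tr A') x := by
  have h1 : HasDerivAt (fun y => ∑ i, A y i i) (∑ i, A' i i) x :=
    HasDerivAt.fun_sum fun i _ => hA i i
  have h2 := Complex.reCLM.hasFDerivAt.comp_hasDerivAt x h1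
  exact h2

theorem T40_tr_cont {N : ℕ} {A : ℝ → Mt N} {s : Set ℝ}
    (hA : ∀ i j, ContinuousOn (fun y => A y i j) s) : ContinuousOn (fun y => tr (A y)) s := by
  have h1 : ContinuousOn (fun y => ∑ i, A y i i) s :=
    continuousOn_finsetSum _ fun i _ => hA i i
  exact Complex.reCLM.continuous.comp_continuousOn h1

theorem T40_phi_deriv {m N : ℕ} {φ : Fin N → ℝ → Vec m} (hφ : IsTrialFamily φ) (x : ℝ)
    (a : Fin m) (k : Fin N) : HasDerivAt (fun y => Phi φ y a k) (dPhi φ x a k) x := by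
  have hd : HasDerivAt (φ k) (deriv (φ k) x) x :=
    ((hφ.1 k).differentiable (by simp)).differentiableAt.hasDerivAt
  have := ((EuclideanSpace.proj (𝕜 := ℂ) a).restrictScalars ℝ).hasFDerivAt.comp_hasDerivAt x hd
  exact this

theorem T40_phi_cont {m N : ℕ} {φ : Fin N → ℝ → Vec m} (hφ : IsTrialFamily φ)
    (a : Fin m) (k : Fin N) : Continuous (fun y => Phi φ y a k) :=
  (EuclideanSpace.proj (𝕜 := ℂ) a).continuous.comp (hφ.1 k).continuous

theorem T40_dphi_cont {m N : ℕ} {φ : Fin N → ℝ → Vec m} (hφ : IsTrialFamily φ)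
    (a : Fin m) (k : Fin N) : Continuous (fun y => dPhi φ y a k) :=
  (EuclideanSpace.proj (𝕜 := ℂ) a).continuous.comp ((hφ.1 k).continuous_deriv (by simp))

/-- integrals over `ℝ` of functions vanishing outside `[-R,R]` -/
theorem T40_integral_eq {f : ℝ → ℝ} {R : ℝ} (hR : 0 < R) (h : ∀ x, x ∉ Icc (-R) R → f x = 0) :
    ∫ x in (-R)..R, f x = ∫ x, f x := by
  rw [intervalIntegral.integral_of_le (by linarith), ← integral_Icc_eq_integral_Ioc]
  exact setIntegral_eq_integral_of_forall_compl_eq_zero h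

/-- pointwise algebra -/
theorem T40_pointwise {m N : ℕ} (Φ dΦ : Matrix (Fin m) (Fin N) ℂ) {G F K V : Mt N}
    (hG : G.IsHermitian) (hF : F.IsHermitian) :
    hs2 (dΦ * G - Φ * G * F) =
      tr ((G * G) * (dΦᴴ * dΦ)) + tr ((G * (K * K) * G) * (Φᴴ * Φ))
        - tr ((Φ * G)ᴴ * (Φ * G) * V)
        - tr ((K * K - F * F - V) * ((Φ * G)ᴴ * (Φ * G)) +
            F * ((dΦ * G)ᴴ * (Φ * G) + (Φ * G)ᴴ * (dΦ * G))) := by
  have hGe : Gᴴ = G := hG
  have hFe : Fᴴ = F := hF
  have e1 : tr ((G * G) * (dΦᴴ * dΦ)) = tr ((dΦ * G)ᴴ * (dΦ * G)) := by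
    rw [Matrix.conjTranspose_mul, hGe, Matrix.mul_assoc G dΦᴴ, ← Matrix.mul_assoc dΦᴴ,
      T40_tr_comm G (dΦᴴ * dΦ * G), Matrix.mul_assoc (dΦᴴ * dΦ), T40_tr_comm (dΦᴴ * dΦ)]
  have e2 : tr ((G * (K * K) * G) * (Φᴴ * Φ)) = tr ((K * K) * ((Φ * G)ᴴ * (Φ * G))) := by
    rw [Matrix.conjTranspose_mul, hGe, Matrix.mul_assoc (G * (K * K)) G, Matrix.mul_assoc G (K * K),
      T40_tr_comm G, Matrix.mul_assoc (K * K)]
    simp only [Matrix.mul_assoc]
  rw [e1, e2, T40_hs2]
  generalize dΦ * G = Y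
  generalize Φ * G = X
  have e3 : (Y - X * F)ᴴ * (Y - X * F) = Yᴴ * Y - Yᴴ * X * F - F * Xᴴ * Y + F * Xᴴ * X * F := by
    rw [Matrix.conjTranspose_sub, Matrix.conjTranspose_mul, hFe]
    simp only [Matrix.sub_mul, Matrix.mul_sub, Matrix.mul_assoc]
    abel
  have e4 : tr (Yᴴ * X * F) = tr (F * (Yᴴ * X)) := T40_tr_comm _ _
  have e5 : tr (F * Xᴴ * X * F) = tr (F * F * (Xᴴ * X)) := by
    rw [T40_tr_comm]
    simp only [Matrix.mul_assoc]
  have e6 : tr (Xᴴ * X * V) = tr (V * (Xᴴ * X)) := T40_tr_comm _ _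
  have e7 : tr (F * Xᴴ * Y) = tr (F * (Xᴴ * Y)) := by rw [Matrix.mul_assoc]
  rw [e3]
  simp only [T40_tr_add, T40_tr_sub, e4, e5, e6, e7, Matrix.sub_mul, Matrix.mul_add]
  ring

theorem var_identity {m N : ℕ} {W : ℝ → Matrix (Fin m) (Fin m) ℂ}
    (hW : ∀ i j, Measurable fun x => W x i j) (hWp : ∀ x, (W x).PosSemidef) {p : ℝ} (hp : 1 ≤ p)
    (hWi : Integrable fun x => tracePow (W x) p)
    {φ : Fin N → ℝ → Vec m} (hφ : IsTrialFamily φ) {R : ℝ} {K : Mt N} {F V : ℝ → Mt N}
    (hF : Riccati R K F V) (hsupp : ∀ k x, x ∉ Ioo (-R) R → φ k x = 0)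
    {G : Mt N} (hG : G.IsHermitian) :
    ∫ x in (-R)..R, hs2 (dPhi φ x * G - Phi φ x * G * F x) =
      tr (G * energyMatrix W φ * G) + tr (G * G * (K * K)) +
        ∫ x in (-R)..R, (tr (W x * (Phi φ x * G * (Phi φ x * G)ᴴ)) - tr (Pmat φ G x * V x)) := by
  have hR := hF.hR
  have hle : -R ≤ R := by linarith
  have hGe : Gᴴ = G := hG
  -- vanishing outside
  have hsupp' : ∀ k x, x ∉ Icc (-R) R → deriv (φ k) x = 0 := by
    intro k x hx
    have hnb : ∀ᶠ y in 𝓝 x, φ k y = 0 := by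
      filter_upwards [isClosed_Icc.isOpen_compl.mem_nhds hx] with y hy
      exact hsupp k y fun h => hy (Ioo_subset_Icc_self h)
    have : φ k =ᶠ[𝓝 x] fun _ => 0 := hnb
    rw [this.deriv_eq]
    simp
  have hsupp0 : ∀ k x, x ∉ Icc (-R) R → φ k x = 0 := fun k x hx =>
    hsupp k x fun h => hx (Ioo_subset_Icc_self h)
  -- integrability
  have hiW : ∀ k l, Integrable fun x => inner ℂ (φ k x) (Matrix.toEuclideanLin (W x) (φ l x)) :=
    fun k l => integrable_potential hW hWp hp hWi (hφ.1 k).continuous (hφ.1 l).continuous (hφ.2.1 k)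
  have hiφ : ∀ k l, Integrable fun x => inner ℂ (φ k x) (φ l x) := by
    intro k l
    refine Continuous.integrable_of_hasCompactSupport
      ((hφ.1 k).continuous.inner (hφ.1 l).continuous) ?_
    refine HasCompactSupport.mono (hφ.2.1 k) ?_
    intro x hx
    rw [Function.mem_support] at hx ⊢
    intro h
    apply hx
    rw [h, inner_zero_left]
  have hid : ∀ k l, Integrable fun x => inner ℂ (deriv (φ k) x) (deriv (φ l) x) := by
    intro k l
    refine Continuous.integrable_of_hasCompactSupport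
      (((hφ.1 k).continuous_deriv (by simp)).inner ((hφ.1 l).continuous_deriv (by simp))) ?_
    refine HasCompactSupport.mono (hφ.2.1 k).deriv ?_
    intro x hx
    rw [Function.mem_support] at hx ⊢
    intro h
    apply hx
    rw [h, inner_zero_left]
  -- the three integrals over ℝ
  obtain ⟨hA1, hA2⟩ := T40_tr_integral (G * G) (E := fun x => (dPhi φ x)ᴴ * dPhi φ x)
    (by simpa only [T40_dgram] using hid)
  obtain ⟨hB1, hB2⟩ := T40_tr_integral (G * (K * K) * G) (E := fun x => (Phi φ x)ᴴ * Phi φ x)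
    (by simpa only [T40_gram] using hiφ)
  obtain ⟨hC1, hC2⟩ := T40_tr_integral (G * G) (E := fun x => (Phi φ x)ᴴ * (W x * Phi φ x))
    (by simpa only [T40_wgram] using hiW)
  have hB3 : (Matrix.of fun k l => ∫ x, ((Phi φ x)ᴴ * Phi φ x) k l) = (1 : Mt N) := by
    ext k l
    simp only [Matrix.of_apply, T40_gram, Matrix.one_apply]
    exact hφ.2.2 k l
  have hE3 : energyMatrix W φ = (Matrix.of fun k l => ∫ x, ((dPhi φ x)ᴴ * dPhi φ x) k l) -
      (Matrix.of fun k l => ∫ x, ((Phi φ x)ᴴ * (W x * Phi φ x)) k l) := by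
    ext k l
    simp only [energyMatrix, Matrix.of_apply, Matrix.sub_apply, T40_dgram, T40_wgram]
    rw [integral_sub (hid k l) (hiW k l)]
  -- the potential term
  have hw : ∀ x, tr (W x * (Phi φ x * G * (Phi φ x * G)ᴴ)) =
      tr ((G * G) * ((Phi φ x)ᴴ * (W x * Phi φ x))) := by
    intro x
    rw [Matrix.conjTranspose_mul, hGe]
    calc tr (W x * (Phi φ x * G * (G * (Phi φ x)ᴴ)))
        = tr ((W x * Phi φ x) * (G * G * (Phi φ x)ᴴ)) := by simp only [Matrix.mul_assoc]
      _ = tr ((G * G * (Phi φ x)ᴴ) * (W x * Phi φ x)) := T40_tr_comm _ _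
      _ = tr ((G * G) * ((Phi φ x)ᴴ * (W x * Phi φ x))) := by simp only [Matrix.mul_assoc]
  -- the derivative
  set f : ℝ → ℝ := fun x => tr (F x * ((Phi φ x * G)ᴴ * (Phi φ x * G))) with hf
  set f' : ℝ → ℝ := fun x => tr ((K * K - F x * F x - V x) * ((Phi φ x * G)ᴴ * (Phi φ x * G)) +
            F x * ((dPhi φ x * G)ᴴ * (Phi φ x * G) + (Phi φ x * G)ᴴ * (dPhi φ x * G))) with hf'
  have cG : ∀ i j : Fin N, ContinuousOn (fun _ : ℝ => G i j) (Icc (-R) R) :=
    fun i j => continuousOn_const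
  have cK : ∀ i j : Fin N, ContinuousOn (fun _ : ℝ => (K * K) i j) (Icc (-R) R) :=
    fun i j => continuousOn_const
  have cX : ∀ i j, ContinuousOn (fun y => (Phi φ y * G) i j) (Icc (-R) R) :=
    T40_mul_cont (fun i j => (T40_phi_cont hφ i j).continuousOn) cG
  have cY : ∀ i j, ContinuousOn (fun y => (dPhi φ y * G) i j) (Icc (-R) R) :=
    T40_mul_cont (fun i j => (T40_dphi_cont hφ i j).continuousOn) cG
  have cF : ∀ i j, ContinuousOn (fun y => F y i j) (Icc (-R) R) := T40_entry_cont hF.contF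
  have cV : ∀ i j, ContinuousOn (fun y => V y i j) (Icc (-R) R) := T40_entry_cont hF.contV
  have cFF := T40_mul_cont cF cF
  have cP := T40_mul_cont (T40_star_cont cX) cX
  have cQ1 := T40_mul_cont (T40_star_cont cY) cX
  have cQ2 := T40_mul_cont (T40_star_cont cX) cY
  have cf : ContinuousOn f (Icc (-R) R) := T40_tr_cont (T40_mul_cont cF cP)
  have cf' : ContinuousOn f' (Icc (-R) R) := by
    have h1 : ∀ i j, ContinuousOn (fun y => (K * K - F y * F y - V y) i j) (Icc (-R) R) := by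
      intro i j
      simp only [Matrix.sub_apply]
      exact ((cK i j).sub (cFF i j)).sub (cV i j)
    have h2 : ∀ i j, ContinuousOn (fun y => ((dPhi φ y * G)ᴴ * (Phi φ y * G) +
        (Phi φ y * G)ᴴ * (dPhi φ y * G)) i j) (Icc (-R) R) := by
      intro i j
      simp only [Matrix.add_apply]
      exact (cQ1 i j).add (cQ2 i j)
    have h3 := T40_tr_cont (T40_mul_cont h1 cP)
    have h4 := T40_tr_cont (T40_mul_cont cF h2)
    simp only [hf', T40_tr_add]
    exact h3.add h4
  have hderiv : ∀ x ∈ Ioo (-R) R, HasDerivAt f (f' x) x := by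
    intro x hx
    have dF := T40_entry_deriv (hF.deriv x hx)
    have dG : ∀ i j : Fin N, HasDerivAt (fun _ : ℝ => G i j) ((0 : Mt N) i j) x :=
      fun i j => hasDerivAt_const _ _
    have dX : ∀ i j, HasDerivAt (fun y => (Phi φ y * G) i j) ((dPhi φ x * G) i j) x := by
      intro i j
      have := T40_mul_deriv (T40_phi_deriv hφ x) dG i j
      simpa using this
    have dP := T40_mul_deriv (T40_star_deriv dX) dX
    exact T40_tr_deriv (T40_mul_deriv dF dP)
  have hFTC : ∫ x in (-R)..R, f' x = 0 := by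
    rw [intervalIntegral.integral_eq_sub_of_hasDerivAt_of_le hle cf hderiv
      (cf'.intervalIntegrable_of_Icc hle)]
    have z : ∀ x, x ∉ Ioo (-R) R → f x = 0 := by
      intro x hx
      have : Phi φ x = 0 := by
        ext a k
        simp [Phi, hsupp k x hx]
      simp [hf, this, tr]
    rw [z R (by simp), z (-R) (by simp), sub_zero]
  have cν : ContinuousOn (fun x => tr (Pmat φ G x * V x)) (Icc (-R) R) :=
    T40_tr_cont (T40_mul_cont cP cV)
  have hpt : ∀ x ∈ uIcc (-R) R, hs2 (dPhi φ x * G - Phi φ x * G * F x) =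
      (tr ((G * G) * ((dPhi φ x)ᴴ * dPhi φ x)) + tr ((G * (K * K) * G) * ((Phi φ x)ᴴ * Phi φ x)))
        - tr (Pmat φ G x * V x) - f' x := by
    intro x hx
    rw [uIcc_of_le hle] at hx
    rw [T40_pointwise (K := K) (V := V x) (Phi φ x) (dPhi φ x) hG (hF.adm x hx).isHermitian_F]
    rfl
  rw [intervalIntegral.integral_congr hpt]
  have iA : IntervalIntegrable (fun x => tr ((G * G) * ((dPhi φ x)ᴴ * dPhi φ x))) volume (-R) R :=
    hA1.intervalIntegrable
  have iB : IntervalIntegrable (fun x => tr ((G * (K * K) * G) * ((Phi φ x)ᴴ * Phi φ x)))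
    volume (-R) R := hB1.intervalIntegrable
  have iν : IntervalIntegrable (fun x => tr (Pmat φ G x * V x)) volume (-R) R :=
    cν.intervalIntegrable_of_Icc hle
  have if' : IntervalIntegrable f' volume (-R) R := cf'.intervalIntegrable_of_Icc hle
  have iw : IntervalIntegrable (fun x => tr (W x * (Phi φ x * G * (Phi φ x * G)ᴴ)))
      volume (-R) R := by
    simp only [hw]
    exact hC1.intervalIntegrable
  rw [intervalIntegral.integral_sub ((iA.add iB).sub iν) if',
    intervalIntegral.integral_sub (iA.add iB) iν, intervalIntegral.integral_add iA iB, hFTC,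
    intervalIntegral.integral_sub iw iν]
  have IA : ∫ x in (-R)..R, tr ((G * G) * ((dPhi φ x)ᴴ * dPhi φ x)) =
      tr (G * G * Matrix.of fun k l => ∫ x, ((dPhi φ x)ᴴ * dPhi φ x) k l) := by
    rw [← hA2]
    apply T40_integral_eq hR
    intro x hx
    have : dPhi φ x = 0 := by
      ext a k
      simp [dPhi, hsupp' k x hx]
    simp [this, tr]
  have IB : ∫ x in (-R)..R, tr ((G * (K * K) * G) * ((Phi φ x)ᴴ * Phi φ x)) =
      tr (G * G * (K * K)) := by
    have : tr (G * G * (K * K)) = tr (G * (K * K) * G * (1 : Mt N)) := by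
      rw [Matrix.mul_one, Matrix.mul_assoc, T40_tr_comm]
    rw [this, ← hB3, ← hB2]
    apply T40_integral_eq hR
    intro x hx
    have : Phi φ x = 0 := by
      ext a k
      simp [Phi, hsupp0 k x hx]
    simp [this, tr]
  have IC : ∫ x in (-R)..R, tr (W x * (Phi φ x * G * (Phi φ x * G)ᴴ)) =
      tr (G * G * Matrix.of fun k l => ∫ x, ((Phi φ x)ᴴ * (W x * Phi φ x)) k l) := by
    rw [← hC2]
    simp only [hw]
    apply T40_integral_eq hR
    intro x hx
    have : Phi φ x = 0 := by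
      ext a k
      simp [Phi, hsupp0 k x hx]
    simp [this, tr]
  have ID : tr (G * energyMatrix W φ * G) =
      tr (G * G * Matrix.of fun k l => ∫ x, ((dPhi φ x)ᴴ * dPhi φ x) k l) -
      tr (G * G * Matrix.of fun k l => ∫ x, ((Phi φ x)ᴴ * (W x * Phi φ x)) k l) := by
    rw [← T40_tr_sub, ← Matrix.mul_sub, ← hE3, T40_tr_comm (G * energyMatrix W φ) G,
      ← Matrix.mul_assoc]
  rw [IA, IB, IC, ID]
  ring

end Crest.Agent.LT
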