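import Crest.Agent.LT_Defs
import Crest.Agent.LT_T01
/-!
Task LT-T41: Hölder inequality for traces, `tr (W Q) ≤ (tr W^p)^{1/p} (tr Q^{p'})^{1/p'}` (from
`tr_cfc_mul_cfc` with `f = g = id` and Hölder/Young for finite sums), and equality of Schatten traces of `ΨΨ^*`, `Ψ^*Ψ`.
-/

set_option autoImplicit false

namespace Crest.Agent.LT

open MeasureTheory Matrix Set Filter
open Crest.MathPhysics.LiebThirring
open scoped ComplexOrder Topology

theorem trace_holder {m : ℕ} {A B : Mt m} (hA : A.PosSemidef) (hB : B.PosSemidef) {p p' : ℝ}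
    (hp : p.HolderConjugate p') :
    tr (A * B) ≤ (tracePow A p) ^ (1 / p) * (tracePow B p') ^ (1 / p') := by
  obtain ⟨w, hw0, hw1, hw2, hw⟩ := tr_cfc_mul_cfc hA.1 hB.1
  have e1 : tr (A * B) = ∑ i, ∑ j, w i j * (hA.1.eigenvalues i * hB.1.eigenvalues j) := by
    have := hw (fun x => x) (fun x => x)
    rwa [_root_.LT.cfc_id_eq hA.1, _root_.LT.cfc_id_eq hB.1] at this
  have ha : ∀ i, 0 ≤ hA.1.eigenvalues i := hA.eigenvalues_nonneg
  have hb : ∀ i, 0 ≤ hB.1.eigenvalues i := hB.eigenvalues_nonneg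
  have hp0 : 0 < p := hp.pos
  have hp0' : 0 < p' := hp.symm.pos
  have e2 : tracePow A p = ∑ x : Fin m × Fin m, (w x.1 x.2 ^ (1 / p) * hA.1.eigenvalues x.1) ^ p := by
    have : tracePow A p = tr (cfc (fun t : ℝ => t ^ p) A) := rfl
    rw [this, tr_cfc hA.1, Fintype.sum_prod_type]
    refine Finset.sum_congr rfl fun i _ => ?_
    have e3 : ∀ j, (w i j ^ (1 / p) * hA.1.eigenvalues i) ^ p = w i j * hA.1.eigenvalues i ^ p := by
      intro j
      rw [Real.mul_rpow (Real.rpow_nonneg (hw0 i j) _) (ha i), ← Real.rpow_mul (hw0 i j),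
        one_div_mul_cancel hp0.ne', Real.rpow_one]
    simp_rw [e3]
    rw [← Finset.sum_mul, hw1, one_mul]
  have e2' : tracePow B p' =
      ∑ x : Fin m × Fin m, (w x.1 x.2 ^ (1 / p') * hB.1.eigenvalues x.2) ^ p' := by
    have : tracePow B p' = tr (cfc (fun t : ℝ => t ^ p') B) := rfl
    rw [this, tr_cfc hB.1, Fintype.sum_prod_type_right]
    refine Finset.sum_congr rfl fun i _ => ?_
    have e3 : ∀ j, (w j i ^ (1 / p') * hB.1.eigenvalues i) ^ p' = w j i * hB.1.eigenvalues i ^ p' := by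
      intro j
      rw [Real.mul_rpow (Real.rpow_nonneg (hw0 j i) _) (hb i), ← Real.rpow_mul (hw0 j i),
        one_div_mul_cancel hp0'.ne', Real.rpow_one]
    simp_rw [e3]
    rw [← Finset.sum_mul, hw2, one_mul]
  have e4 : tr (A * B) = ∑ x : Fin m × Fin m, (w x.1 x.2 ^ (1 / p) * hA.1.eigenvalues x.1) *
      (w x.1 x.2 ^ (1 / p') * hB.1.eigenvalues x.2) := by
    rw [e1, Fintype.sum_prod_type]
    refine Finset.sum_congr rfl fun i _ => Finset.sum_congr rfl fun j _ => ?_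
    have e5 : w i j ^ (1 / p) * w i j ^ (1 / p') = w i j := by
      have h1 : 1 / p + 1 / p' = 1 := by
        simpa [one_div] using hp.inv_add_inv_eq_one
      rcases (hw0 i j).eq_or_lt with h | h
      · rw [← h, Real.zero_rpow (one_div_pos.2 hp0).ne', zero_mul]
      · rw [← Real.rpow_add h, h1, Real.rpow_one]
    calc w i j * (hA.1.eigenvalues i * hB.1.eigenvalues j)
        = (w i j ^ (1 / p) * w i j ^ (1 / p')) * (hA.1.eigenvalues i * hB.1.eigenvalues j) := by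
          rw [e5]
      _ = _ := by ring
  rw [e4, e2, e2']
  refine Real.inner_le_Lp_mul_Lq_of_nonneg _ hp ?_ ?_
  · intro x _
    exact mul_nonneg (Real.rpow_nonneg (hw0 _ _) _) (ha _)
  · intro x _
    exact mul_nonneg (Real.rpow_nonneg (hw0 _ _) _) (hb _)

theorem T41_tr_cfc_roots {m : ℕ} {A : Mt m} (hA : A.IsHermitian) (f : ℝ → ℝ) :
    tr (cfc f A) = (A.charpoly.roots.map (fun z : ℂ => f z.re)).sum := by
  rw [tr_cfc hA, hA.roots_charpoly_eq_eigenvalues, Multiset.map_map]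
  simp [Finset.sum]

theorem tr_rpow_mul_comm {m N : ℕ} (Ψ : Matrix (Fin m) (Fin N) ℂ) {s : ℝ} (hs : 0 < s) :
    tr (cfc (fun t : ℝ => t ^ s) (Ψ * Ψᴴ)) = tr (cfc (fun t : ℝ => t ^ s) (Ψᴴ * Ψ)) := by
  have h1 : (Ψ * Ψᴴ).IsHermitian := Matrix.isHermitian_mul_conjTranspose_self Ψ
  have h2 : (Ψᴴ * Ψ).IsHermitian := Matrix.isHermitian_conjTranspose_mul_self Ψ
  rw [T41_tr_cfc_roots h1, T41_tr_cfc_roots h2]
  have h3 := Matrix.charpoly_mul_comm' Ψ Ψᴴ
  have h4 := congrArg (fun P : Polynomial ℂ => (P.roots.map (fun z : ℂ => z.re ^ s)).sum) h3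
  have hne1 : (Ψ * Ψᴴ).charpoly ≠ 0 := (Matrix.charpoly_monic _).ne_zero
  have hne2 : (Ψᴴ * Ψ).charpoly ≠ 0 := (Matrix.charpoly_monic _).ne_zero
  have hX : ∀ k : ℕ, (Polynomial.X : Polynomial ℂ) ^ k ≠ 0 := fun k => pow_ne_zero _ Polynomial.X_ne_zero
  rw [Polynomial.roots_mul (mul_ne_zero (hX _) hne1), Polynomial.roots_mul (mul_ne_zero (hX _) hne2),
    Multiset.map_add, Multiset.map_add, Multiset.sum_add, Multiset.sum_add, Polynomial.roots_X_pow,
    Polynomial.roots_X_pow] at h4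
  simpa [Multiset.map_nsmul, Multiset.sum_nsmul, Real.zero_rpow hs.ne'] using h4

end Crest.Agent.LT
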