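import Crest.Agent.LT_Defs
import Crest.Agent.LT_T01
/-!
Task LT-T43: properties of `VK r w δ P` (`P ≥ 0` with eigenvalues `π_i`; everything is a sum over `i`;
`n = (∑ π_i^{r+1})^{1/(r+1)}`, `VK` has eigenvalues `w π_i^r/(n^r + δ)`).
(b) `∑ (w π_i^r/(n^r+δ))^{(r+1)/r} = w^{(r+1)/r} n^{r+1}/(n^r+δ)^{(r+1)/r} ≤ w^{(r+1)/r}`;
(c) `w n^{r+1}/(n^r+δ) = w (n - δ n/(n^r+δ)) ≥ w (n - δ^{1/r})` since `δ n/(n^r + δ) ≤ δ^{1/r}` for `r ≥ 1`.
-/

set_option autoImplicit false

namespace Crest.Agent.LT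

open MeasureTheory Matrix Set Filter
open Crest.MathPhysics.LiebThirring
open scoped ComplexOrder Topology

theorem T43_cfc_posSemidef {N : ℕ} {A : Mt N} (hA : A.IsHermitian) (f : ℝ → ℝ)
    (hf : ∀ i, 0 ≤ f (hA.eigenvalues i)) : (cfc f A).PosSemidef := by
  rw [_root_.LT.cfc_eq_conj hA f]
  have h1 : (diagonal (fun i => ((f (hA.eigenvalues i) : ℝ) : ℂ)) : Mt N).PosSemidef := by
    rw [Matrix.posSemidef_diagonal_iff]
    intro i
    exact_mod_cast hf i
  exact h1.mul_mul_conjTranspose_same _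

/-- the normalised constant -/
theorem T43_VK_eq {N : ℕ} {r w δ : ℝ} {P : Mt N} (hP : P.IsHermitian) :
    VK r w δ P = cfc (fun t : ℝ =>
      (w / ((∑ i, hP.eigenvalues i ^ (r + 1)) ^ (r / (r + 1)) + δ)) * t ^ r) P := by
  unfold VK
  rw [tr_cfc hP]
  rw [_root_.LT.cfc_eq_conj hP, _root_.LT.cfc_eq_conj hP, ← smul_mul_assoc, ← mul_smul_comm]
  congr 2
  rw [← diagonal_smul]
  congr 1
  funext i
  simp

theorem T43_S_nonneg {N : ℕ} {s : ℝ} {P : Mt N} (hP : P.PosSemidef) :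
    0 ≤ ∑ i, hP.1.eigenvalues i ^ s :=
  Finset.sum_nonneg fun i _ => Real.rpow_nonneg (hP.eigenvalues_nonneg i) _

theorem VK_posSemidef {N : ℕ} {r w δ : ℝ} (hr : 1 ≤ r) (hw : 0 ≤ w) (hδ : 0 < δ) {P : Mt N}
    (hP : P.PosSemidef) : (VK r w δ P).PosSemidef := by
  rw [T43_VK_eq hP.1]
  refine T43_cfc_posSemidef hP.1 _ fun i => ?_
  have h1 : 0 ≤ (∑ i, hP.1.eigenvalues i ^ (r + 1)) ^ (r / (r + 1)) :=
    Real.rpow_nonneg (T43_S_nonneg hP) _
  have h2 := Real.rpow_nonneg (hP.eigenvalues_nonneg i) r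
  positivity

theorem VK_tr_rpow_le {N : ℕ} {r w δ : ℝ} (hr : 1 ≤ r) (hw : 0 ≤ w) (hδ : 0 < δ) {P : Mt N}
    (hP : P.PosSemidef) :
    tr (cfc (fun t : ℝ => t ^ ((r + 1) / r)) (VK r w δ P)) ≤ w ^ ((r + 1) / r) := by
  have hr0 : 0 < r := by linarith
  rw [T43_VK_eq hP.1]
  set S := ∑ i, hP.1.eigenvalues i ^ (r + 1) with hS
  have hS0 : 0 ≤ S := T43_S_nonneg hP
  have hT0 : 0 ≤ S ^ (r / (r + 1)) := Real.rpow_nonneg hS0 _
  set c := w / (S ^ (r / (r + 1)) + δ) with hc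
  have hc0 : 0 ≤ c := by positivity
  have e1 : cfc (fun t : ℝ => t ^ ((r + 1) / r)) (cfc (fun t : ℝ => c * t ^ r) P) =
      cfc (fun t : ℝ => (c * t ^ r) ^ ((r + 1) / r)) P := by
    have hPs : IsSelfAdjoint P := hP.1
    have hfin : (spectrum ℝ P).Finite := by
      rw [hP.1.spectrum_real_eq_range_eigenvalues]; exact Set.finite_range _
    have h1 : ContinuousOn (fun t : ℝ => t ^ ((r + 1) / r))
        ((fun t : ℝ => c * t ^ r) '' spectrum ℝ P) := (hfin.image _).continuousOn _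
    have h2 : ContinuousOn (fun t : ℝ => c * t ^ r) (spectrum ℝ P) := hfin.continuousOn _
    exact (cfc_comp' (fun t : ℝ => t ^ ((r + 1) / r)) (fun t : ℝ => c * t ^ r) P h1 h2 hPs).symm
  rw [e1, tr_cfc hP.1]
  have e2 : ∑ i, (c * hP.1.eigenvalues i ^ r) ^ ((r + 1) / r) = c ^ ((r + 1) / r) * S := by
    rw [hS, Finset.mul_sum]
    refine Finset.sum_congr rfl fun i _ => ?_
    have h0 := hP.eigenvalues_nonneg i
    rw [Real.mul_rpow hc0 (Real.rpow_nonneg h0 _), ← Real.rpow_mul h0]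
    congr 2
    field_simp
  rw [e2]
  have e3 : S = (S ^ (r / (r + 1))) ^ ((r + 1) / r) := by
    rw [← Real.rpow_mul hS0]
    have : r / (r + 1) * ((r + 1) / r) = 1 := by field_simp
    rw [this, Real.rpow_one]
  have hpos : 0 < S ^ (r / (r + 1)) + δ := by positivity
  calc c ^ ((r + 1) / r) * S = c ^ ((r + 1) / r) * (S ^ (r / (r + 1))) ^ ((r + 1) / r) := by
        rw [← e3]
    _ ≤ c ^ ((r + 1) / r) * (S ^ (r / (r + 1)) + δ) ^ ((r + 1) / r) := by
        refine mul_le_mul_of_nonneg_left ?_ (Real.rpow_nonneg hc0 _)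
        exact Real.rpow_le_rpow hT0 (by linarith) (by positivity)
    _ = w ^ ((r + 1) / r) := by
        rw [← Real.mul_rpow hc0 hpos.le, hc, div_mul_cancel₀ _ hpos.ne']

theorem VK_tr_mul_ge {N : ℕ} {r w δ : ℝ} (hr : 1 ≤ r) (hw : 0 ≤ w) (hδ : 0 < δ) {P : Mt N}
    (hP : P.PosSemidef) :
    w * ((tr (cfc (fun t : ℝ => t ^ (r + 1)) P)) ^ (1 / (r + 1)) - δ ^ (1 / r)) ≤ tr (P * VK r w δ P) := by
  have hr0 : 0 < r := by linarith
  rw [T43_VK_eq hP.1, tr_cfc hP.1]
  set S := ∑ i, hP.1.eigenvalues i ^ (r + 1) with hS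
  have hS0 : 0 ≤ S := T43_S_nonneg hP
  have hT0 : 0 ≤ S ^ (r / (r + 1)) := Real.rpow_nonneg hS0 _
  set c := w / (S ^ (r / (r + 1)) + δ) with hc
  have hc0 : 0 ≤ c := by positivity
  have e1 : P * cfc (fun t : ℝ => c * t ^ r) P = cfc (fun t : ℝ => t * (c * t ^ r)) P := by
    rw [← _root_.LT.cfc_mul_eq hP.1 (fun t => t) (fun t => c * t ^ r), _root_.LT.cfc_id_eq hP.1]
  rw [e1, tr_cfc hP.1]
  have e2 : ∑ i, hP.1.eigenvalues i * (c * hP.1.eigenvalues i ^ r) = c * S := by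
    rw [hS, Finset.mul_sum]
    refine Finset.sum_congr rfl fun i _ => ?_
    have h0 := hP.eigenvalues_nonneg i
    rw [Real.rpow_add_one' h0 (by linarith)]
    ring
  rw [e2]
  set n := S ^ (1 / (r + 1)) with hn
  set η := δ ^ (1 / r) with hη
  have hn0 : 0 ≤ n := Real.rpow_nonneg hS0 _
  have hη0 : 0 < η := Real.rpow_pos_of_pos hδ _
  have hnr : S ^ (r / (r + 1)) = n ^ r := by
    rw [hn, ← Real.rpow_mul hS0]; congr 1; field_simp
  have hηr : δ = η ^ r := by
    rw [hη, ← Real.rpow_mul hδ.le]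
    have : 1 / r * r = 1 := by field_simp
    rw [this, Real.rpow_one]
  have hSn : S = n ^ r * n := by
    rw [hn, ← Real.rpow_mul hS0, ← Real.rpow_add' hS0]
    · have : 1 / (r + 1) * r + 1 / (r + 1) = 1 := by field_simp
      rw [this, Real.rpow_one]
    · have : 1 / (r + 1) * r + 1 / (r + 1) = 1 := by field_simp
      rw [this]; norm_num
  have hpos : 0 < n ^ r + η ^ r := by
    have := Real.rpow_nonneg hn0 r
    have := Real.rpow_pos_of_pos hη0 r
    linarith
  have key : (n - η) * (n ^ r + η ^ r) ≤ n ^ r * n := by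
    have hnr0 := Real.rpow_nonneg hn0 r
    have hηr0 := Real.rpow_pos_of_pos hη0 r
    rcases le_total n η with hle | hle
    · have h1 : n * η ^ r ≤ η * η ^ r := mul_le_mul_of_nonneg_right hle hηr0.le
      have h2 : 0 ≤ η * n ^ r := by positivity
      nlinarith
    · have h3 : η ^ (r - 1) ≤ n ^ (r - 1) := Real.rpow_le_rpow hη0.le hle (by linarith)
      have hnp : 0 < n := lt_of_lt_of_le hη0 hle
      have h4 : η ^ r = η ^ (r - 1) * η := by
        rw [← Real.rpow_add_one hη0.ne']; congr 1; ring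
      have h5 : n ^ r = n ^ (r - 1) * n := by
        rw [← Real.rpow_add_one hnp.ne']; congr 1; ring
      have h6 : n * η ^ r ≤ η * n ^ r := by
        rw [h4, h5]
        have := mul_le_mul_of_nonneg_left h3 (by positivity : 0 ≤ n * η)
        nlinarith
      have h7 : 0 ≤ η * η ^ r := by positivity
      nlinarith
  have hcS : c * S = w * (n ^ r * n / (n ^ r + η ^ r)) := by
    rw [hc, hnr, ← hηr, ← hSn]; ring
  rw [hcS]
  refine mul_le_mul_of_nonneg_left ?_ hw
  rw [le_div_iff₀ hpos]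
  exact key

theorem VK_tr_le {N : ℕ} {r w δ : ℝ} (hr : 1 ≤ r) (hw : 0 ≤ w) (hδ : 0 < δ) {P : Mt N}
    (hP : P.PosSemidef) : tr (VK r w δ P) ≤ N * w := by
  have hr0 : 0 < r := by linarith
  rw [T43_VK_eq hP.1, tr_cfc hP.1]
  set S := ∑ i, hP.1.eigenvalues i ^ (r + 1) with hS
  have hS0 : 0 ≤ S := T43_S_nonneg hP
  have hT0 : 0 ≤ S ^ (r / (r + 1)) := Real.rpow_nonneg hS0 _
  have hpos : 0 < S ^ (r / (r + 1)) + δ := by positivity
  have h1 : ∀ i ∈ (Finset.univ : Finset (Fin N)),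
      w / (S ^ (r / (r + 1)) + δ) * hP.1.eigenvalues i ^ r ≤ w := by
    intro i _
    have h0 := hP.eigenvalues_nonneg i
    have h2 : hP.1.eigenvalues i ^ (r + 1) ≤ S := by
      rw [hS]
      exact Finset.single_le_sum (f := fun i => hP.1.eigenvalues i ^ (r + 1))
        (fun j _ => Real.rpow_nonneg (hP.eigenvalues_nonneg j) _) (Finset.mem_univ i)
    have h3 : hP.1.eigenvalues i ^ r ≤ S ^ (r / (r + 1)) := by
      have h4 : hP.1.eigenvalues i ^ r = (hP.1.eigenvalues i ^ (r + 1)) ^ (r / (r + 1)) := by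
        rw [← Real.rpow_mul h0]; congr 1; field_simp
      rw [h4]
      exact Real.rpow_le_rpow (Real.rpow_nonneg h0 _) h2 (by positivity)
    rw [div_mul_eq_mul_div, div_le_iff₀ hpos]
    exact mul_le_mul_of_nonneg_left (by linarith) hw
  refine (Finset.sum_le_sum h1).trans ?_
  simp

theorem schatten_le_tr {N : ℕ} {s : ℝ} (hs : 1 ≤ s) {P : Mt N} (hP : P.PosSemidef) :
    (tr (cfc (fun t : ℝ => t ^ s) P)) ^ (1 / s) ≤ tr P := by
  have hs0 : 0 < s := by linarith
  have e0 : tr P = ∑ i, hP.1.eigenvalues i := by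
    have := tr_cfc hP.1 (fun x => x)
    rwa [_root_.LT.cfc_id_eq hP.1] at this
  rw [tr_cfc hP.1, e0]
  set T := ∑ i, hP.1.eigenvalues i with hT
  have hT0 : 0 ≤ T := Finset.sum_nonneg fun i _ => hP.eigenvalues_nonneg i
  have h1 : ∑ i, hP.1.eigenvalues i ^ s ≤ T ^ s := by
    rcases hT0.eq_or_lt with hz | hpos
    · have hz' : ∀ i, hP.1.eigenvalues i = 0 := by
        intro i
        have := (Finset.sum_eq_zero_iff_of_nonneg (fun i _ => hP.eigenvalues_nonneg i)).1 hz.symm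
        exact this i (Finset.mem_univ i)
      rw [← hz]
      simp [hz', Real.zero_rpow hs0.ne']
    · have h2 : ∀ i ∈ (Finset.univ : Finset (Fin N)),
          hP.1.eigenvalues i ^ s ≤ T ^ (s - 1) * hP.1.eigenvalues i := by
        intro i _
        have h0 := hP.eigenvalues_nonneg i
        rcases h0.eq_or_lt with hz | hp
        · have hz2 : hP.1.eigenvalues i = 0 := hz.symm
          rw [hz2, Real.zero_rpow hs0.ne', mul_zero]
        · have h3 : hP.1.eigenvalues i ≤ T := by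
            rw [hT]
            exact Finset.single_le_sum (f := fun i => hP.1.eigenvalues i)
              (fun j _ => hP.eigenvalues_nonneg j) (Finset.mem_univ i)
          have h4 : hP.1.eigenvalues i ^ s = hP.1.eigenvalues i ^ (s - 1) * hP.1.eigenvalues i := by
            rw [← Real.rpow_add_one hp.ne']; congr 1; ring
          rw [h4]
          exact mul_le_mul_of_nonneg_right (Real.rpow_le_rpow h0 h3 (by linarith)) h0
      refine (Finset.sum_le_sum h2).trans ?_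
      rw [← Finset.mul_sum, ← hT, ← Real.rpow_add_one hpos.ne']
      simp
  have h5 := Real.rpow_le_rpow (Finset.sum_nonneg fun i _ =>
    Real.rpow_nonneg (hP.eigenvalues_nonneg i) s) h1 (by positivity : 0 ≤ 1 / s)
  refine h5.trans (le_of_eq ?_)
  rw [← Real.rpow_mul hT0]
  have : s * (1 / s) = 1 := by field_simp
  rw [this, Real.rpow_one]

end Crest.Agent.LT
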