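import Crest.Agent.LT_Defs
import Crest.Agent.LT_T02
import Crest.Agent.LT_T43
/-!
Task LT-T44: joint continuity of `(K, x) ↦ VK r (w x) δ (Pmat φ (𝒢 K) x)`.
-/

set_option autoImplicit false

namespace Crest.Agent.LT

open MeasureTheory Matrix Set Filter
open Crest.MathPhysics.LiebThirring
open scoped ComplexOrder Topology

theorem T44_continuous_tr {N : ℕ} : Continuous (tr : Mt N → ℝ) :=
  Complex.continuous_re.comp continuous_id.matrix_trace

theorem T44_posSemidef_Pmat {m N : ℕ} (φ : Fin N → ℝ → Vec m) (G : Mt N) (x : ℝ) :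
    (Pmat φ G x).PosSemidef :=
  Matrix.posSemidef_conjTranspose_mul_self _

theorem T44_tr_rpow_nonneg {N : ℕ} {P : Mt N} (hP : P.PosSemidef) (s : ℝ) :
    0 ≤ tr (cfc (fun t : ℝ => t ^ s) P) := by
  rw [tr_cfc hP.1]
  exact Finset.sum_nonneg fun i _ => Real.rpow_nonneg (hP.eigenvalues_nonneg i) s

theorem T44_continuous_Phi {m N : ℕ} {φ : Fin N → ℝ → Vec m} (hφ : IsTrialFamily φ) :
    Continuous (Phi φ) := by
  refine continuous_matrix fun a k => ?_
  have h1 : Continuous (φ k) := (hφ.1 k).continuous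
  exact (EuclideanSpace.proj (𝕜 := ℂ) a).continuous.comp h1

theorem T44_continuousOn_Pmat {m N : ℕ} {φ : Fin N → ℝ → Vec m} (hφ : IsTrialFamily φ)
    {𝒢 : Mt N → Mt N} {s : Set (Mt N)} (h𝒢 : ContinuousOn 𝒢 s) :
    ContinuousOn (fun p : Mt N × ℝ => Pmat φ (𝒢 p.1) p.2) (s ×ˢ univ) := by
  rw [continuousOn_iff_continuous_domRestrict]
  have h1 : Continuous (fun p : (s ×ˢ (univ : Set ℝ) : Set (Mt N × ℝ)) => 𝒢 p.1.1) := by
    have := h𝒢.comp (f := fun p : Mt N × ℝ => p.1) (s := s ×ˢ univ) continuous_fst.continuousOn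
      (fun p hp => hp.1)
    exact continuousOn_iff_continuous_domRestrict.1 this
  have h2 : Continuous (fun p : (s ×ˢ (univ : Set ℝ) : Set (Mt N × ℝ)) => Phi φ p.1.2) :=
    (T44_continuous_Phi hφ).comp (continuous_snd.comp continuous_subtype_val)
  have h3 := h2.matrix_mul h1
  exact (h3.matrix_conjTranspose).matrix_mul h3

theorem continuousOn_VK {m N : ℕ} {r δ : ℝ} (hr : 1 ≤ r) (hδ : 0 < δ) {w : ℝ → ℝ} (hw : Continuous w)
    {φ : Fin N → ℝ → Vec m} (hφ : IsTrialFamily φ) {𝒢 : Mt N → Mt N}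
    (h𝒢 : ContinuousOn 𝒢 {K | K.PosSemidef}) :
    ContinuousOn (fun p : Mt N × ℝ => VK r (w p.2) δ (Pmat φ (𝒢 p.1) p.2))
      ({K | K.PosSemidef} ×ˢ univ) := by
  have hP := T44_continuousOn_Pmat hφ h𝒢
  have hcfc : ∀ s : ℝ, 0 ≤ s → ContinuousOn
      (fun p : Mt N × ℝ => cfc (fun t : ℝ => t ^ s) (Pmat φ (𝒢 p.1) p.2))
      ({K | K.PosSemidef} ×ˢ univ) := by
    intro s hs
    refine continuousOn_cfc_param (f := fun _ t => t ^ s) hP
      (fun x _ => (T44_posSemidef_Pmat φ _ _).1) isOpen_univ ?_ (fun _ _ => subset_univ _)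
    exact ((Real.continuous_rpow_const hs).comp continuous_snd).continuousOn
  have h1 : ContinuousOn (fun p : Mt N × ℝ =>
      (tr (cfc (fun t : ℝ => t ^ (r + 1)) (Pmat φ (𝒢 p.1) p.2))) ^ (r / (r + 1)) + δ)
      ({K | K.PosSemidef} ×ˢ univ) := by
    have h2 := T44_continuous_tr.comp_continuousOn (hcfc (r + 1) (by linarith))
    exact (h2.rpow_const fun _ _ => Or.inr (by positivity)).add continuousOn_const
  have h2 : ContinuousOn (fun p : Mt N × ℝ =>
      w p.2 / ((tr (cfc (fun t : ℝ => t ^ (r + 1)) (Pmat φ (𝒢 p.1) p.2))) ^ (r / (r + 1)) + δ))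
      ({K | K.PosSemidef} ×ˢ univ) := by
    refine (hw.comp continuous_snd).continuousOn.div h1 fun p _ => ?_
    have := Real.rpow_nonneg (T44_tr_rpow_nonneg (T44_posSemidef_Pmat φ (𝒢 p.1) p.2) (r + 1))
      (r / (r + 1))
    exact (add_pos_of_nonneg_of_pos this hδ).ne'
  exact (Complex.continuous_ofReal.comp_continuousOn h2).smul (hcfc r (by linarith))

end Crest.Agent.LT
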