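import Crest.Agent.LT_Defs
import Crest.Agent.LT_T24
import Crest.Agent.LT_T25
import Crest.Agent.LT_T36
import Crest.Agent.LT_T40
import Crest.Agent.LT_T41
import Crest.Agent.LT_T43
import Crest.Agent.LT_T44
/-!
Task LT-T49: core step for a weight `𝒢 : K ↦ G_K` (`w0(x) = (tr W^p)^{1/p}`): combine `exists_riccati` for
`𝒱 K x = VK r (w x) δ (Pmat φ (𝒢 K) x)`, `var_identity`, `trace_holder`, `tr_rpow_mul_comm`, `VK_tr_mul_ge`,
`VK_tr_rpow_le`, `hj_total`.
-/

set_option autoImplicit false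

namespace Crest.Agent.LT

open MeasureTheory Matrix Set Filter
open Crest.MathPhysics.LiebThirring
open scoped ComplexOrder Topology

theorem T49_hs2_nonneg {m N : ℕ} (A : Matrix (Fin m) (Fin N) ℂ) : 0 ≤ hs2 A :=
  Finset.sum_nonneg fun _ _ => Finset.sum_nonneg fun _ _ => by positivity

/-- an interval integral is at most the integral of an integrable nonnegative majorant over the line
(no integrability of the smaller function needed) -/
theorem T49_interval_le {f g : ℝ → ℝ} {R : ℝ} (hR : 0 < R) (hg : Integrable g) (hg0 : ∀ x, 0 ≤ g x)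
    (hfg : ∀ x ∈ Icc (-R) R, f x ≤ g x) :
    ∫ x in (-R)..R, f x ≤ ∫ x, g x := by
  have hle : -R ≤ R := by linarith
  rw [intervalIntegral.integral_of_le hle]
  have h2 : ∫ x in Ioc (-R) R, g x ≤ ∫ x, g x :=
    setIntegral_le_integral hg (Eventually.of_forall hg0)
  refine le_trans ?_ h2
  by_cases hf : IntegrableOn f (Ioc (-R) R)
  · exact setIntegral_mono_on hf hg.integrableOn measurableSet_Ioc
      (fun x hx => hfg x (Ioc_subset_Icc_self hx))
  · rw [integral_undef hf]
    exact integral_nonneg hg0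

/-- common radius for the supports of a trial family -/
theorem T49_radius {m N : ℕ} {φ : Fin N → ℝ → Vec m} (hφ : IsTrialFamily φ) :
    ∃ R : ℝ, 0 < R ∧ ∀ k x, x ∉ Ioo (-R) R → φ k x = 0 := by
  have h1 : ∀ k, ∃ r : ℝ, tsupport (φ k) ⊆ Metric.ball 0 r := fun k =>
    (hφ.2.1 k).isCompact.isBounded.subset_ball 0
  choose r hr using h1
  refine ⟨1 + ∑ k, |r k|, by positivity, fun k x hx => ?_⟩
  by_contra hne
  apply hx
  have hx1 : x ∈ tsupport (φ k) := subset_tsupport _ hne
  have hx2 := hr k hx1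
  rw [Metric.mem_ball, dist_zero_right, Real.norm_eq_abs] at hx2
  have hx3 : r k ≤ ∑ k, |r k| :=
    (le_abs_self _).trans (Finset.single_le_sum (f := fun k => |r k|) (fun _ _ => abs_nonneg _)
      (Finset.mem_univ k))
  have := abs_lt.mp hx2
  constructor <;> linarith [this.1, this.2]

theorem T49_Phi_cont {m N : ℕ} {φ : Fin N → ℝ → Vec m} (hφ : IsTrialFamily φ) :
    Continuous fun x => Phi φ x := by
  refine continuous_matrix fun a k => ?_
  have h1 : Continuous (φ k) := (hφ.1 k).continuous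
  exact (EuclideanSpace.proj (𝕜 := ℂ) a).continuous.comp h1

theorem T49_trP_cont {m N : ℕ} {φ : Fin N → ℝ → Vec m} (hφ : IsTrialFamily φ) (G : Mt N) :
    Continuous fun x => tr (Pmat φ G x) := by
  have h1 : Continuous fun x => Phi φ x * G := (T49_Phi_cont hφ).matrix_mul continuous_const
  have h2 : Continuous fun x => (Phi φ x * G)ᴴ * (Phi φ x * G) :=
    h1.matrix_conjTranspose.matrix_mul h1
  exact Complex.continuous_re.comp h2.matrix_trace

theorem T49_trP_supp {m N : ℕ} {φ : Fin N → ℝ → Vec m} {R : ℝ}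
    (hR : ∀ k x, x ∉ Ioo (-R) R → φ k x = 0) (G : Mt N) :
    HasCompactSupport fun x => tr (Pmat φ G x) := by
  refine HasCompactSupport.intro (isCompact_Icc (a := -R) (b := R)) fun x hx => ?_
  have h0 : Phi φ x = 0 := by
    ext a k
    have : φ k x = 0 := hR k x fun h => hx (Ioo_subset_Icc_self h)
    simp [Phi, this]
  simp [Pmat, h0, tr]

theorem T49_integrable {m N : ℕ} {φ : Fin N → ℝ → Vec m} (hφ : IsTrialFamily φ) {R : ℝ}
    (hR : ∀ k x, x ∉ Ioo (-R) R → φ k x = 0) (G : Mt N) {A w : ℝ → ℝ} (hA : Integrable A)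
    (hw : Continuous w) (hws : HasCompactSupport w) {y : ℝ} (hy0 : 0 ≤ y) (hy1 : y ≤ 1) :
    Integrable fun x => |(A x) ^ y - w x| * tr (Pmat φ G x) := by
  have hPc := T49_trP_cont hφ G
  have hPs := T49_trP_supp hR G
  obtain ⟨C, hC⟩ := hPc.bounded_above_of_compact_support hPs
  have hPi : Integrable fun x => tr (Pmat φ G x) := hPc.integrable_of_hasCompactSupport hPs
  have hwi : Integrable w := hw.integrable_of_hasCompactSupport hws
  have hbound : Integrable fun x => ‖tr (Pmat φ G x)‖ + (C * ‖A x‖ + C * ‖w x‖) :=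
    hPi.norm.add ((hA.norm.const_mul C).add (hwi.norm.const_mul C))
  refine hbound.mono' ?_ (Eventually.of_forall fun x => ?_)
  · have h1 : AEMeasurable fun x => (A x) ^ y := hA.aestronglyMeasurable.aemeasurable.pow_const y
    have h2 : AEMeasurable fun x => |(A x) ^ y - w x| :=
      (h1.sub hw.measurable.aemeasurable).abs
    exact (h2.mul hPc.measurable.aemeasurable).aestronglyMeasurable
  · have hP := hC x
    have hP0 := norm_nonneg (tr (Pmat φ G x))
    have hC0 : 0 ≤ C := hP0.trans hP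
    have ha : |(A x) ^ y| ≤ 1 + |A x| := by
      refine (Real.abs_rpow_le_abs_rpow _ _).trans ?_
      rcases le_total (|A x|) 1 with h | h
      · have : |A x| ^ y ≤ 1 := Real.rpow_le_one (abs_nonneg _) h hy0
        linarith [abs_nonneg (A x)]
      · have : |A x| ^ y ≤ |A x| ^ (1 : ℝ) := Real.rpow_le_rpow_of_exponent_le h hy1
        rw [Real.rpow_one] at this
        linarith
    have hb : |(A x) ^ y - w x| ≤ 1 + |A x| + |w x| := by
      calc |(A x) ^ y - w x| ≤ |(A x) ^ y| + |w x| := abs_sub _ _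
        _ ≤ _ := by linarith
    rw [norm_mul, Real.norm_eq_abs, abs_abs]
    calc |(A x) ^ y - w x| * ‖tr (Pmat φ G x)‖ ≤ (1 + |A x| + |w x|) * ‖tr (Pmat φ G x)‖ := by
          gcongr
      _ = ‖tr (Pmat φ G x)‖ + (‖tr (Pmat φ G x)‖ * |A x| + ‖tr (Pmat φ G x)‖ * |w x|) := by ring
      _ ≤ ‖tr (Pmat φ G x)‖ + (C * ‖A x‖ + C * ‖w x‖) := by
          rw [Real.norm_eq_abs (A x), Real.norm_eq_abs (w x)]
          gcongr

theorem core_step {m N : ℕ} {γ : ℝ} (hγ : 1 / 2 < γ) (hγ' : γ < 3 / 2)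
    {W : ℝ → Matrix (Fin m) (Fin m) ℂ} (hW : ∀ i j, Measurable fun x => W x i j)
    (hWp : ∀ x, (W x).PosSemidef) (hWi : Integrable fun x => tracePow (W x) (γ + 1 / 2))
    {φ : Fin N → ℝ → Vec m} (hφ : IsTrialFamily φ) {κ : Fin N → ℝ}
    (hE : energyMatrix W φ = Matrix.diagonal (fun j => ((-(κ j ^ 2) : ℝ) : ℂ)))
    {𝒢 : Mt N → Mt N} (h𝒢c : ContinuousOn 𝒢 {K | K.PosSemidef})
    (h𝒢p : ∀ K : Mt N, K.PosSemidef → (𝒢 K).PosSemidef)
    {w : ℝ → ℝ} (hw : Continuous w) (hws : HasCompactSupport w) (hw0 : ∀ x, 0 ≤ w x)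
    {δ : ℝ} (hδ : 0 < δ) :
    ∃ K : Mt N, K.PosSemidef ∧
      tr (cfc (fun t : ℝ => t ^ (2 * γ)) K) ≤ sharpConst γ * ∫ x, w x ^ (γ + 1 / 2) ∧
      -(∫ x, |(tracePow (W x) (γ + 1 / 2)) ^ (1 / (γ + 1 / 2)) - w x| * tr (Pmat φ (𝒢 K) x))
          - δ ^ (γ - 1 / 2) * ∫ x, w x ≤
        tr (𝒢 K * 𝒢 K * (K * K - Matrix.diagonal fun j => ((κ j ^ 2 : ℝ) : ℂ))) := by
  obtain ⟨R, hR, hsupp⟩ := T49_radius hφ
  set α : ℝ := γ - 1 / 2 with hα
  have hα0 : 0 < α := by rw [hα]; linarith
  have hα1 : α < 1 := by rw [hα]; linarith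
  set r : ℝ := 1 / α with hr
  have hr1 : 1 ≤ r := by
    rw [hr, le_div_iff₀ hα0]; linarith
  have hr0 : 0 < r := by linarith
  have hinvr : 1 / r = α := by rw [hr]; field_simp
  have hrr : (r + 1) / r = γ + 1 / 2 := by
    have : (r + 1) / r = 1 + 1 / r := by field_simp
    rw [this, hinvr, hα]; ring
  have hpp : (γ + 1 / 2).HolderConjugate (r + 1) := by
    rw [Real.holderConjugate_iff]
    refine ⟨by linarith, ?_⟩
    have h1 : γ + 1 / 2 = (r + 1) / r := hrr.symm
    rw [h1]
    field_simp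
  obtain ⟨Cw, hCw⟩ := hw.bounded_above_of_compact_support hws
  have hPpsd : ∀ (G : Mt N) (x : ℝ), (Pmat φ G x).PosSemidef := fun G x =>
    Matrix.posSemidef_conjTranspose_mul_self _
  obtain ⟨K, F, hK, hRic⟩ := exists_riccati (N := N) (R := R) (M := N * Cw) hR
    (fun K x => VK r (w x) δ (Pmat φ (𝒢 K) x))
    (continuousOn_VK hr1 hδ hw hφ h𝒢c)
    (fun K _ x => VK_posSemidef hr1 (hw0 x) hδ (hPpsd _ x))
    (fun K _ x => (VK_tr_le hr1 (hw0 x) hδ (hPpsd _ x)).trans (by
      have := (le_abs_self (w x)).trans (hCw x)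
      gcongr))
  refine ⟨K, hK, ?_, ?_⟩
  · -- bound of `tr K^{2γ}`
    have h1 := hj_total hα0 hα1 hRic
    have h2 : ∫ x in (-R)..R, tr (cfc (fun t : ℝ => t ^ (1 + α)) (VK r (w x) δ (Pmat φ (𝒢 K) x))) ≤
        ∫ x, w x ^ (γ + 1 / 2) := by
      refine T49_interval_le hR ?_ (fun x => Real.rpow_nonneg (hw0 x) _) (fun x _ => ?_)
      · refine Continuous.integrable_of_hasCompactSupport
          (hw.rpow_const fun x => Or.inr (by linarith)) ?_
        have := hws.comp_left (g := fun t : ℝ => t ^ (γ + 1 / 2))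
          (Real.zero_rpow (by linarith))
        exact this
      · have h3 := VK_tr_rpow_le hr1 (hw0 x) hδ (hPpsd (𝒢 K) x)
        rw [hrr] at h3
        have e : (1 + α) = γ + 1 / 2 := by rw [hα]; ring
        rw [e]
        exact h3
    have hβ := beta_pos hα0
    have hc := sharpConst_eq hγ
    rw [← hα] at hc
    have e2 : 2 * α + 1 = 2 * γ := by rw [hα]; ring
    rw [e2] at h1
    have hcoef : 0 ≤ α ^ α / (1 + α) ^ (1 + α) := by positivity
    rw [hc, div_mul_eq_mul_div, le_div_iff₀ hβ]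
    calc tr (cfc (fun t : ℝ => t ^ (2 * γ)) K) * beta α
        = beta α * tr (cfc (fun t : ℝ => t ^ (2 * γ)) K) := mul_comm _ _
      _ ≤ _ := h1
      _ ≤ _ := mul_le_mul_of_nonneg_left h2 hcoef
  · -- trial identity
    set G : Mt N := 𝒢 K with hG
    have hGp : G.PosSemidef := h𝒢p K hK
    have hid := var_identity hW hWp (p := γ + 1 / 2) (by linarith) hWi hφ hRic hsupp hGp.1
    have hleft : 0 ≤ ∫ x in (-R)..R, hs2 (dPhi φ x * G - Phi φ x * G * F x) :=
      intervalIntegral.integral_nonneg (by linarith) fun x _ => T49_hs2_nonneg _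
    have hmaj : ∫ x in (-R)..R, (tr (W x * (Phi φ x * G * (Phi φ x * G)ᴴ)) -
          tr (Pmat φ G x * VK r (w x) δ (Pmat φ (𝒢 K) x))) ≤
        ∫ x, (|(tracePow (W x) (γ + 1 / 2)) ^ (1 / (γ + 1 / 2)) - w x| * tr (Pmat φ G x) +
          δ ^ α * w x) := by
      have hI1 : Integrable fun x =>
          |(tracePow (W x) (γ + 1 / 2)) ^ (1 / (γ + 1 / 2)) - w x| * tr (Pmat φ G x) :=
        T49_integrable hφ hsupp G hWi hw hws (by positivity) (by
          rw [div_le_one (by linarith)]; linarith)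
      have hI2 : Integrable fun x => δ ^ α * w x :=
        (hw.integrable_of_hasCompactSupport hws).const_mul _
      have htrP : ∀ x, 0 ≤ tr (Pmat φ G x) := fun x => by
        have h1 := schatten_le_tr (le_refl (1:ℝ)) (hPpsd G x)
        refine le_trans ?_ (schatten_le_tr (le_refl (1:ℝ)) (hPpsd G x))
        have h2 : 0 ≤ tr (cfc (fun t : ℝ => t ^ (1:ℝ)) (Pmat φ G x)) := by
          rw [tr_cfc (hPpsd G x).1]
          exact Finset.sum_nonneg fun i _ => Real.rpow_nonneg ((hPpsd G x).eigenvalues_nonneg i) _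
        exact Real.rpow_nonneg h2 _
      refine T49_interval_le hR (hI1.add hI2) (fun x => ?_) (fun x _ => ?_)
      · have := hw0 x
        have h3 := htrP x
        positivity
      · have hQ : (Phi φ x * G * (Phi φ x * G)ᴴ).PosSemidef :=
          Matrix.posSemidef_self_mul_conjTranspose _
        have h1 := trace_holder (hWp x) hQ hpp
        have h2 : tracePow (Phi φ x * G * (Phi φ x * G)ᴴ) (r + 1) =
            tr (cfc (fun t : ℝ => t ^ (r + 1)) (Pmat φ G x)) :=
          tr_rpow_mul_comm (Phi φ x * G) (by linarith)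
        rw [h2] at h1
        have h3 := VK_tr_mul_ge hr1 (hw0 x) hδ (hPpsd G x)
        have h4 := schatten_le_tr (s := r + 1) (by linarith) (hPpsd G x)
        rw [hinvr] at h3
        set n := (tr (cfc (fun t : ℝ => t ^ (r + 1)) (Pmat φ G x))) ^ (1 / (r + 1)) with hn
        set a := (tracePow (W x) (γ + 1 / 2)) ^ (1 / (γ + 1 / 2)) with ha
        have hn0 : 0 ≤ n := by
          refine Real.rpow_nonneg ?_ _
          rw [tr_cfc (hPpsd G x).1]
          exact Finset.sum_nonneg fun i _ => Real.rpow_nonneg ((hPpsd G x).eigenvalues_nonneg i) _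
        have h5 : (a - w x) * n ≤ |a - w x| * tr (Pmat φ G x) :=
          calc (a - w x) * n ≤ |a - w x| * n := mul_le_mul_of_nonneg_right (le_abs_self _) hn0
            _ ≤ _ := mul_le_mul_of_nonneg_left h4 (abs_nonneg _)
        have h6 : tr (Pmat φ G x * VK r (w x) δ (Pmat φ (𝒢 K) x)) =
            tr (Pmat φ G x * VK r (w x) δ (Pmat φ G x)) := rfl
        rw [h6]
        nlinarith [h1, h3, h5]
    have hI1 : Integrable fun x =>
        |(tracePow (W x) (γ + 1 / 2)) ^ (1 / (γ + 1 / 2)) - w x| * tr (Pmat φ G x) :=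
      T49_integrable hφ hsupp G hWi hw hws (by positivity) (by
        rw [div_le_one (by linarith)]; linarith)
    have hI2 : Integrable fun x => δ ^ α * w x :=
      (hw.integrable_of_hasCompactSupport hws).const_mul _
    rw [integral_add hI1 hI2, integral_const_mul] at hmaj
    have hdiag : energyMatrix W φ = -(Matrix.diagonal fun j => ((κ j ^ 2 : ℝ) : ℂ)) := by
      rw [hE]
      ext i j
      by_cases hij : i = j
      · subst hij; simp
      · simp [Matrix.diagonal_apply_ne _ hij]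
    have htrsum : tr (G * energyMatrix W φ * G) + tr (G * G * (K * K)) =
        tr (G * G * (K * K - Matrix.diagonal fun j => ((κ j ^ 2 : ℝ) : ℂ))) := by
      have e1 : Matrix.trace (G * energyMatrix W φ * G) = Matrix.trace (G * G * energyMatrix W φ) := by
        rw [Matrix.trace_mul_comm, ← Matrix.mul_assoc]
      unfold tr
      rw [e1, hdiag, Matrix.mul_sub, Matrix.trace_sub, Matrix.mul_neg, Matrix.trace_neg]
      simp only [Complex.neg_re, Complex.sub_re]
      ring
    have : 0 ≤ tr (G * G * (K * K - Matrix.diagonal fun j => ((κ j ^ 2 : ℝ) : ℂ))) +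
        ∫ x in (-R)..R, (tr (W x * (Phi φ x * G * (Phi φ x * G)ᴴ)) -
          tr (Pmat φ G x * VK r (w x) δ (Pmat φ (𝒢 K) x))) := by
      rw [← htrsum, ← hid]
      exact hleft
    linarith

end Crest.Agent.LT
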