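import Crest.Agent.LTE_Defs
import Crest.Agent.LT_T49
import Crest.Agent.LT_T02
/-!
Task LTE-E06: the core step LT-T49 with all data returned and the deficits kept (same proof; `R` can be taken as
large as we want, containing the supports of `φ` and `w`).
-/

set_option autoImplicit false

namespace Crest.Agent.LT

open MeasureTheory Matrix Set Filter
open Crest.MathPhysics.LiebThirring
open scoped ComplexOrder Topology

theorem hErr_nonneg {m N : ℕ} {γ : ℝ} (hγ : 1 / 2 < γ) {W : ℝ → Matrix (Fin m) (Fin m) ℂ}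
    (hWp : ∀ x, (W x).PosSemidef) (φ : Fin N → ℝ → Vec m) {G : Mt N} (hG : G.IsHermitian) (x : ℝ) :
    0 ≤ hErr W γ φ G x := by
  have hα0 : 0 < γ - 1 / 2 := by linarith
  have hpp : (γ + 1 / 2).HolderConjugate (1 / (γ - 1 / 2) + 1) := by
    rw [Real.holderConjugate_iff]
    refine ⟨by linarith, ?_⟩
    have e1 : 1 / (γ - 1 / 2) + 1 = (γ + 1 / 2) / (γ - 1 / 2) := by
      rw [eq_div_iff hα0.ne', add_mul, div_mul_cancel₀ _ hα0.ne']
      ring
    have h2 : γ + 1 / 2 ≠ 0 := by linarith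
    rw [e1, inv_div, inv_eq_one_div, ← add_div, div_eq_one_iff_eq h2]
    ring
  have hQ : (Phi φ x * G * (Phi φ x * G)ᴴ).PosSemidef :=
    Matrix.posSemidef_self_mul_conjTranspose _
  have h1 := trace_holder (hWp x) hQ hpp
  have h2 : tracePow (Phi φ x * G * (Phi φ x * G)ᴴ) (1 / (γ - 1 / 2) + 1) =
      tr (cfc (fun t : ℝ => t ^ (1 / (γ - 1 / 2) + 1)) (Pmat φ G x)) :=
    tr_rpow_mul_comm (Phi φ x * G) (by positivity)
  rw [h2] at h1
  unfold hErr wzero sch
  linarith

theorem E06_sch_cont {m N : ℕ} {φ : Fin N → ℝ → Vec m} (hφ : IsTrialFamily φ) (G : Mt N) {s : ℝ}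
    (hs : 0 < s) : Continuous fun x => sch s (Pmat φ G x) := by
  have hP : Continuous fun x => Pmat φ G x := by
    have h1 : Continuous fun x => Phi φ x * G := (T49_Phi_cont hφ).matrix_mul continuous_const
    exact h1.matrix_conjTranspose.matrix_mul h1
  have hc : ContinuousOn (fun x => cfc (fun t : ℝ => t ^ s) (Pmat φ G x)) Set.univ := by
    refine continuousOn_cfc_param (f := fun _ t => t ^ s) (t := Set.univ) hP.continuousOn
      (fun x _ => (T44_posSemidef_Pmat φ G x).1) isOpen_univ ?_ fun _ _ => Set.subset_univ _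
    refine Continuous.continuousOn ?_
    exact (Real.continuous_rpow_const hs.le).comp continuous_snd
  have hc' : Continuous fun x => cfc (fun t : ℝ => t ^ s) (Pmat φ G x) :=
    continuousOn_univ.1 hc
  unfold sch
  exact (T44_continuous_tr.comp hc').rpow_const fun x => Or.inr (by positivity)

theorem E06_W_ii {m : ℕ} {W : ℝ → Matrix (Fin m) (Fin m) ℂ}
    (hW : ∀ i j, Measurable fun x => W x i j) (hWp : ∀ x, (W x).PosSemidef) {p : ℝ} (hp : 1 ≤ p)
    (hWi : Integrable fun x => tracePow (W x) p) (a b : ℝ) (i j : Fin m) :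
    IntervalIntegrable (fun x => W x i j) volume a b := by
  have h1 : IntervalIntegrable (fun x => (m : ℝ) + tracePow (W x) p) volume a b :=
    intervalIntegrable_const.add hWi.intervalIntegrable
  refine h1.mono_fun (hW i j).aestronglyMeasurable.restrict (Eventually.of_forall fun x => ?_)
  refine (T40_entry_bound (hWp x) hp i j).trans (le_abs_self _)

theorem E06_trWQ_ii {m N : ℕ} {W : ℝ → Matrix (Fin m) (Fin m) ℂ}
    (hW : ∀ i j, Measurable fun x => W x i j) (hWp : ∀ x, (W x).PosSemidef) {p : ℝ} (hp : 1 ≤ p)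
    (hWi : Integrable fun x => tracePow (W x) p) {φ : Fin N → ℝ → Vec m} (hφ : IsTrialFamily φ)
    (G : Mt N) (a b : ℝ) :
    IntervalIntegrable (fun x => tr (W x * (Phi φ x * G * (Phi φ x * G)ᴴ))) volume a b := by
  have hQ : Continuous fun x => Phi φ x * G * (Phi φ x * G)ᴴ := by
    have h1 : Continuous fun x => Phi φ x * G := (T49_Phi_cont hφ).matrix_mul continuous_const
    exact h1.matrix_mul h1.matrix_conjTranspose
  have e : (fun x => tr (W x * (Phi φ x * G * (Phi φ x * G)ᴴ))) =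
      fun x => ∑ i, ∑ j, (W x i j * (Phi φ x * G * (Phi φ x * G)ᴴ) j i).re := by
    funext x
    unfold tr
    simp only [Matrix.trace, Matrix.diag_apply, Matrix.mul_apply (M := W x), Complex.re_sum]
  rw [e]
  have h2 : ∀ i j, IntervalIntegrable
      (fun x => (W x i j * (Phi φ x * G * (Phi φ x * G)ᴴ) j i).re) volume a b := by
    intro i j
    have h3 : Continuous fun x => (Phi φ x * G * (Phi φ x * G)ᴴ) j i := hQ.matrix_elem j i
    have h4 : IntervalIntegrable (fun x => W x i j * (Phi φ x * G * (Phi φ x * G)ᴴ) j i)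
        volume a b := (E06_W_ii hW hWp hp hWi a b i j).mul_continuousOn h3.continuousOn
    exact ⟨h4.1.re, h4.2.re⟩
  have h5 : IntervalIntegrable (∑ i, ∑ j, fun x =>
      (W x i j * (Phi φ x * G * (Phi φ x * G)ᴴ) j i).re) volume a b := by
    refine IntervalIntegrable.sum _ fun i _ => IntervalIntegrable.sum _ fun j _ => h2 i j
  refine h5.congr fun x _ => ?_
  simp only [Finset.sum_apply]

theorem hErr_intervalIntegrable {m N : ℕ} {γ : ℝ} (hγ : 1 / 2 < γ) (hγ' : γ < 3 / 2)
    {W : ℝ → Matrix (Fin m) (Fin m) ℂ} (hW : ∀ i j, Measurable fun x => W x i j)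
    (hWp : ∀ x, (W x).PosSemidef) (hWi : Integrable fun x => tracePow (W x) (γ + 1 / 2))
    {φ : Fin N → ℝ → Vec m} (hφ : IsTrialFamily φ) (G : Mt N) (a b : ℝ) :
    IntervalIntegrable (fun x => hErr W γ φ G x) volume a b := by
  have hα0 : 0 < γ - 1 / 2 := by linarith
  unfold hErr
  refine IntervalIntegrable.sub ?_ (E06_trWQ_ii hW hWp (by linarith) hWi hφ G a b)
  have h1 : IntervalIntegrable (fun x => wzero W γ x) volume a b := by
    have h2 : IntervalIntegrable (fun x => (1 : ℝ) + tracePow (W x) (γ + 1 / 2)) volume a b :=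
      intervalIntegrable_const.add hWi.intervalIntegrable
    refine h2.mono_fun ?_ (Eventually.of_forall fun x => ?_)
    · have h3 : AEMeasurable (fun x => (tracePow (W x) (γ + 1 / 2)) ^ (1 / (γ + 1 / 2))) volume :=
        hWi.aestronglyMeasurable.aemeasurable.pow_const _
      exact h3.aestronglyMeasurable.restrict
    · have h0 := T40_tracePow_nonneg (hWp x) (γ + 1 / 2)
      unfold wzero
      beta_reduce
      rw [Real.norm_eq_abs, Real.norm_eq_abs, abs_of_nonneg (Real.rpow_nonneg h0 _),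
        abs_of_nonneg (by linarith)]
      have hy0 : 0 ≤ 1 / (γ + 1 / 2) := by
        have : 0 < γ + 1 / 2 := by linarith
        positivity
      have hy1 : 1 / (γ + 1 / 2) ≤ 1 := by
        rw [div_le_one (by linarith)]; linarith
      rcases le_total (tracePow (W x) (γ + 1 / 2)) 1 with h | h
      · have := Real.rpow_le_one h0 h hy0
        linarith
      · have := Real.rpow_le_rpow_of_exponent_le h hy1
        rw [Real.rpow_one] at this
        linarith
  exact h1.mul_continuousOn (E06_sch_cont hφ G (by positivity)).continuousOn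

theorem core_deficit {m N : ℕ} {γ : ℝ} (hγ : 1 / 2 < γ) (hγ' : γ < 3 / 2)
    {W : ℝ → Matrix (Fin m) (Fin m) ℂ} (hW : ∀ i j, Measurable fun x => W x i j)
    (hWp : ∀ x, (W x).PosSemidef) (hWi : Integrable fun x => tracePow (W x) (γ + 1 / 2))
    {φ : Fin N → ℝ → Vec m} (hφ : IsTrialFamily φ) {κ : Fin N → ℝ}
    (hE : energyMatrix W φ = Matrix.diagonal (fun j => ((-(κ j ^ 2) : ℝ) : ℂ)))
    {𝒢 : Mt N → Mt N} (h𝒢c : ContinuousOn 𝒢 {K | K.PosSemidef})
    (h𝒢p : ∀ K : Mt N, K.PosSemidef → (𝒢 K).PosSemidef)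
    {w : ℝ → ℝ} (hw : Continuous w) (hws : HasCompactSupport w) (hw0 : ∀ x, 0 ≤ w x)
    {δ : ℝ} (hδ : 0 < δ) (R₀ : ℝ) :
    ∃ (R : ℝ) (K : Mt N) (F : ℝ → Mt N), R₀ ≤ R ∧ K.PosSemidef ∧
      Riccati R K F (fun x => VK (1 / (γ - 1 / 2)) (w x) δ (Pmat φ (𝒢 K) x)) ∧
      (∀ k x, x ∉ Ioo (-R) R → φ k x = 0) ∧ (∀ x, x ∉ Ioo (-R) R → w x = 0) ∧
      (∫ x in (-R)..R, hs2 (dErr φ (𝒢 K) F x)) + (∫ x in (-R)..R, hErr W γ φ (𝒢 K) x) ≤
        tr (𝒢 K * 𝒢 K * (K * K - dg fun j => κ j ^ 2)) +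
          (∫ x, |wzero W γ x - w x| * tr (Pmat φ (𝒢 K) x)) + δ ^ (γ - 1 / 2) * ∫ x, w x := by
  obtain ⟨R₁, hR₁, hsupp₁⟩ := T49_radius hφ
  obtain ⟨R₂, hR₂⟩ : ∃ R₂ : ℝ, tsupport w ⊆ Metric.ball 0 R₂ :=
    hws.isCompact.isBounded.subset_ball 0
  set R : ℝ := R₁ + |R₂| + |R₀| with hRdef
  have hR : 0 < R := by positivity
  have hRR₁ : R₁ ≤ R := by
    have := abs_nonneg R₂
    have := abs_nonneg R₀
    linarith
  have hRR₂ : R₂ ≤ R := by
    have := le_abs_self R₂
    have := abs_nonneg R₀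
    linarith
  have hRR₀ : R₀ ≤ R := by
    have := le_abs_self R₀
    have := abs_nonneg R₂
    linarith
  have hsupp : ∀ k x, x ∉ Ioo (-R) R → φ k x = 0 := fun k x hx =>
    hsupp₁ k x fun h => hx ⟨by linarith [h.1], by linarith [h.2]⟩
  have hsuppw : ∀ x, x ∉ Ioo (-R) R → w x = 0 := fun x hx => by
    by_contra hne
    apply hx
    have hx1 : x ∈ tsupport w := subset_tsupport _ hne
    have hx2 := hR₂ hx1
    rw [Metric.mem_ball, dist_zero_right, Real.norm_eq_abs] at hx2
    have := abs_lt.mp hx2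
    constructor <;> linarith [this.1, this.2]
  set α : ℝ := γ - 1 / 2 with hα
  have hα0 : 0 < α := by rw [hα]; linarith
  have hα1 : α < 1 := by rw [hα]; linarith
  set r : ℝ := 1 / α with hr
  have hr1 : 1 ≤ r := by
    rw [hr, le_div_iff₀ hα0]; linarith
  have hr0 : 0 < r := by linarith
  have hinvr : 1 / r = α := by rw [hr]; field_simp
  have hrr : (r + 1) / r = γ + 1 / 2 := by
    have : (r + 1) / r = 1 + 1 / r := by field_simp
    rw [this, hinvr, hα]; ring
  obtain ⟨Cw, hCw⟩ := hw.bounded_above_of_compact_support hws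
  have hPpsd : ∀ (G : Mt N) (x : ℝ), (Pmat φ G x).PosSemidef := fun G x =>
    Matrix.posSemidef_conjTranspose_mul_self _
  obtain ⟨K, F, hK, hRic⟩ := exists_riccati (N := N) (R := R) (M := N * Cw) hR
    (fun K x => VK r (w x) δ (Pmat φ (𝒢 K) x))
    (continuousOn_VK hr1 hδ hw hφ h𝒢c)
    (fun K _ x => VK_posSemidef hr1 (hw0 x) hδ (hPpsd _ x))
    (fun K _ x => (VK_tr_le hr1 (hw0 x) hδ (hPpsd _ x)).trans (by
      have := (le_abs_self (w x)).trans (hCw x)
      gcongr))
  refine ⟨R, K, F, hRR₀, hK, hRic, hsupp, hsuppw, ?_⟩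
  set G : Mt N := 𝒢 K with hG
  have hGp : G.PosSemidef := h𝒢p K hK
  have hid := var_identity hW hWp (p := γ + 1 / 2) (by linarith) hWi hφ hRic hsupp hGp.1
  have hid' : ∫ x in (-R)..R, hs2 (dErr φ G F x) =
      tr (G * energyMatrix W φ * G) + tr (G * G * (K * K)) +
        ∫ x in (-R)..R, (tr (W x * (Phi φ x * G * (Phi φ x * G)ᴴ)) -
          tr (Pmat φ G x * VK r (w x) δ (Pmat φ (𝒢 K) x))) := hid
  have hi1 : IntervalIntegrable (fun x => tr (W x * (Phi φ x * G * (Phi φ x * G)ᴴ)))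
      volume (-R) R := E06_trWQ_ii hW hWp (by linarith) hWi hφ G _ _
  have hle : -R ≤ R := by linarith
  have hi2 : IntervalIntegrable (fun x => tr (Pmat φ G x * VK r (w x) δ (Pmat φ (𝒢 K) x)))
      volume (-R) R := by
    refine ContinuousOn.intervalIntegrable ?_
    rw [uIcc_of_le hle]
    have hP : Continuous fun x => Pmat φ G x := by
      have h1 : Continuous fun x => Phi φ x * G := (T49_Phi_cont hφ).matrix_mul continuous_const
      exact h1.matrix_conjTranspose.matrix_mul h1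
    refine T44_continuous_tr.comp_continuousOn ?_
    exact hP.continuousOn.mul hRic.contV
  have hi3 := hErr_intervalIntegrable hγ hγ' hW hWp hWi hφ G (-R) R
  have hsum : (∫ x in (-R)..R, (tr (W x * (Phi φ x * G * (Phi φ x * G)ᴴ)) -
      tr (Pmat φ G x * VK r (w x) δ (Pmat φ (𝒢 K) x)))) + (∫ x in (-R)..R, hErr W γ φ G x) =
      ∫ x in (-R)..R, (wzero W γ x * sch (1 / (γ - 1 / 2) + 1) (Pmat φ G x) -
        tr (Pmat φ G x * VK r (w x) δ (Pmat φ (𝒢 K) x))) := by
    rw [← intervalIntegral.integral_add (hi1.sub hi2) hi3]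
    refine intervalIntegral.integral_congr fun x _ => ?_
    simp only [hErr]
    ring
  have hI1 : Integrable fun x =>
      |(tracePow (W x) (γ + 1 / 2)) ^ (1 / (γ + 1 / 2)) - w x| * tr (Pmat φ G x) :=
    T49_integrable hφ hsupp G hWi hw hws (by
      have : 0 < γ + 1 / 2 := by linarith
      positivity) (by
      rw [div_le_one (by linarith)]; linarith)
  have hI2 : Integrable fun x => δ ^ α * w x :=
    (hw.integrable_of_hasCompactSupport hws).const_mul _
  have htrP : ∀ x, 0 ≤ tr (Pmat φ G x) := fun x => by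
    refine le_trans ?_ (schatten_le_tr (le_refl (1:ℝ)) (hPpsd G x))
    exact Real.rpow_nonneg (T44_tr_rpow_nonneg (hPpsd G x) _) _
  have hmaj : ∫ x in (-R)..R, (wzero W γ x * sch (1 / (γ - 1 / 2) + 1) (Pmat φ G x) -
        tr (Pmat φ G x * VK r (w x) δ (Pmat φ (𝒢 K) x))) ≤
      ∫ x, (|(tracePow (W x) (γ + 1 / 2)) ^ (1 / (γ + 1 / 2)) - w x| * tr (Pmat φ G x) +
        δ ^ α * w x) := by
    refine T49_interval_le hR (hI1.add hI2) (fun x => ?_) (fun x _ => ?_)
    · have := hw0 x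
      have h3 := htrP x
      positivity
    · have h3 := VK_tr_mul_ge hr1 (hw0 x) hδ (hPpsd G x)
      have h4 := schatten_le_tr (s := r + 1) (by linarith) (hPpsd G x)
      rw [hinvr] at h3
      have hn : sch (1 / (γ - 1 / 2) + 1) (Pmat φ G x) =
        (tr (cfc (fun t : ℝ => t ^ (r + 1)) (Pmat φ G x))) ^ (1 / (r + 1)) := rfl
      rw [hn]
      set n := (tr (cfc (fun t : ℝ => t ^ (r + 1)) (Pmat φ G x))) ^ (1 / (r + 1)) with hn
      have hwz : wzero W γ x = (tracePow (W x) (γ + 1 / 2)) ^ (1 / (γ + 1 / 2)) := rfl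
      rw [hwz]
      set a := (tracePow (W x) (γ + 1 / 2)) ^ (1 / (γ + 1 / 2)) with ha
      have hn0 : 0 ≤ n := Real.rpow_nonneg (T44_tr_rpow_nonneg (hPpsd G x) _) _
      have h5 : (a - w x) * n ≤ |a - w x| * tr (Pmat φ G x) :=
        calc (a - w x) * n ≤ |a - w x| * n := mul_le_mul_of_nonneg_right (le_abs_self _) hn0
          _ ≤ _ := mul_le_mul_of_nonneg_left h4 (abs_nonneg _)
      have h6 : tr (Pmat φ G x * VK r (w x) δ (Pmat φ (𝒢 K) x)) =
          tr (Pmat φ G x * VK r (w x) δ (Pmat φ G x)) := rfl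
      rw [h6]
      nlinarith [h3, h5]
  rw [integral_add hI1 hI2, integral_const_mul] at hmaj
  have hdiag : energyMatrix W φ = -(dg fun j => κ j ^ 2) := by
    rw [hE]
    ext i j
    by_cases hij : i = j
    · subst hij; simp [dg]
    · simp [dg, Matrix.diagonal_apply_ne _ hij]
  have htrsum : tr (G * energyMatrix W φ * G) + tr (G * G * (K * K)) =
      tr (G * G * (K * K - dg fun j => κ j ^ 2)) := by
    have e1 : Matrix.trace (G * energyMatrix W φ * G) = Matrix.trace (G * G * energyMatrix W φ) := by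
      rw [Matrix.trace_mul_comm, ← Matrix.mul_assoc]
    unfold tr
    rw [e1, hdiag, Matrix.mul_sub, Matrix.trace_sub, Matrix.mul_neg, Matrix.trace_neg]
    simp only [Complex.neg_re, Complex.sub_re]
    ring
  have hw0eq : (∫ x, |wzero W γ x - w x| * tr (Pmat φ G x)) =
      ∫ x, |(tracePow (W x) (γ + 1 / 2)) ^ (1 / (γ + 1 / 2)) - w x| * tr (Pmat φ G x) := rfl
  rw [hid', htrsum, hw0eq]
  linarith

end Crest.Agent.LT
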