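import Crest.Agent.LT_Defs

/-!
Task LT-T48: approximation of `f₀ ∈ L^p`, `f₀ ≥ 0` by continuous compactly supported `w ≥ 0`
(`MeasureTheory.MemLp.exists_hasCompactSupport_eLpNorm_sub_le`, positive part, Hölder with the bounded compactly
supported `g`).
-/

set_option autoImplicit false

namespace Crest.Agent.LT

open MeasureTheory Matrix Set Filter
open Crest.MathPhysics.LiebThirring
open scoped ComplexOrder Topology

private theorem T48_int_eq {p : ℝ} (hp : 1 < p) {h : ℝ → ℝ} (hh : MemLp h (ENNReal.ofReal p) volume) :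
    ∫ x, |h x| ^ p = (eLpNorm h (ENNReal.ofReal p) volume).toReal ^ p := by
  have hP0 : ENNReal.ofReal p ≠ 0 := by
    simp only [Ne, ENNReal.ofReal_eq_zero, not_le]; linarith
  rw [hh.eLpNorm_eq_integral_rpow_norm hP0 ENNReal.ofReal_ne_top]
  rw [ENNReal.toReal_ofReal (by linarith : (0 : ℝ) ≤ p)]
  have h0 : 0 ≤ ∫ x, ‖h x‖ ^ p := integral_nonneg fun x => Real.rpow_nonneg (norm_nonneg _) _
  rw [ENNReal.toReal_ofReal (Real.rpow_nonneg h0 _)]
  rw [← Real.rpow_mul h0, inv_mul_cancel₀ (by linarith : p ≠ 0), Real.rpow_one]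
  rfl

theorem approx_weight {p : ℝ} (hp : 1 < p) {f₀ g : ℝ → ℝ} (hf₀ : ∀ x, 0 ≤ f₀ x)
    (hmeas : AEStronglyMeasurable f₀ volume) (hint : Integrable fun x => f₀ x ^ p)
    (hg : Continuous g) (hgs : HasCompactSupport g) (hg0 : ∀ x, 0 ≤ g x) {η : ℝ} (hη : 0 < η) :
    ∃ w : ℝ → ℝ, Continuous w ∧ HasCompactSupport w ∧ (∀ x, 0 ≤ w x) ∧
      |(∫ x, w x ^ p) - ∫ x, f₀ x ^ p| ≤ η ∧ (∫ x, |f₀ x - w x| ^ p) ≤ η ∧
      (∫ x, |f₀ x - w x| * g x) ≤ η ∧ (Integrable fun x => w x ^ p) ∧ (Integrable fun x => |f₀ x - w x| ^ p) ∧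
      (Integrable fun x => |f₀ x - w x| * g x) := by
  have hp0 : 0 < p := by linarith
  set P : ENNReal := ENNReal.ofReal p with hPdef
  have hP0 : P ≠ 0 := by
    simp only [hPdef, Ne, ENNReal.ofReal_eq_zero, not_le]; linarith
  have hPt : P ≠ ⊤ := ENNReal.ofReal_ne_top
  have hP1 : 1 ≤ P := by
    rw [hPdef, ← ENNReal.ofReal_one]
    exact ENNReal.ofReal_le_ofReal hp.le
  have hPr : P.toReal = p := ENNReal.toReal_ofReal hp0.le
  have hf : MemLp f₀ P volume := by
    rw [← integrable_norm_rpow_iff hmeas hP0 hPt, hPr]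
    refine hint.congr (Filter.Eventually.of_forall fun x => ?_)
    simp only [Real.norm_eq_abs, abs_of_nonneg (hf₀ x)]
  set q : ℝ := p.conjExponent with hq
  have hpq : p.HolderConjugate q := Real.HolderConjugate.conjExponent hp
  have hgP : MemLp g (ENNReal.ofReal q) volume := hg.memLp_of_hasCompactSupport hgs
  set A : ℝ := (eLpNorm f₀ P volume).toReal with hA
  set G : ℝ := (∫ x, g x ^ q) ^ (1 / q) with hG
  have hG0 : 0 ≤ G := Real.rpow_nonneg (integral_nonneg fun x => Real.rpow_nonneg (hg0 x) _) _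
  -- choose ε
  have h1 : ∀ᶠ e : ℝ in 𝓝[>] 0, e ^ p ≤ η := by
    have hc : Tendsto (fun e : ℝ => e ^ p) (𝓝[>] 0) (𝓝 (0 ^ p)) :=
      ((Real.continuousAt_rpow_const 0 p (Or.inr hp0.le)).tendsto).mono_left nhdsWithin_le_nhds
    rw [Real.zero_rpow hp0.ne'] at hc
    exact (hc.eventually_lt_const hη).mono fun e he => he.le
  have h2 : ∀ᶠ e : ℝ in 𝓝[>] 0, e * G ≤ η := by
    have hc : Tendsto (fun e : ℝ => e * G) (𝓝[>] 0) (𝓝 (0 * G)) :=
      (((continuous_id.mul continuous_const).tendsto (0 : ℝ))).mono_left nhdsWithin_le_nhds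
    rw [zero_mul] at hc
    exact (hc.eventually_lt_const hη).mono fun e he => he.le
  have h3 : ∀ᶠ e : ℝ in 𝓝[>] 0, ∀ y : ℝ, |y - A| ≤ e → |y ^ p - A ^ p| ≤ η := by
    have hc : ContinuousAt (fun y : ℝ => y ^ p) A := Real.continuousAt_rpow_const A p (Or.inr hp0.le)
    rw [Metric.continuousAt_iff] at hc
    obtain ⟨δ, hδ, hc⟩ := hc η hη
    filter_upwards [Ioo_mem_nhdsGT hδ] with e he y hy
    have := hc (x := y) (by rw [Real.dist_eq]; exact lt_of_le_of_lt hy he.2)
    rw [Real.dist_eq] at this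
    exact this.le
  obtain ⟨e, ⟨⟨he1, he2⟩, he3⟩, he0⟩ := (((h1.and h2).and h3).and self_mem_nhdsWithin).exists
  have he0' : 0 < e := he0
  obtain ⟨w₀, hw₀s, hw₀e, hw₀c, hw₀m⟩ := hf.exists_hasCompactSupport_eLpNorm_sub_le hPt
    (ε := ENNReal.ofReal e) (by simpa only [Ne, ENNReal.ofReal_eq_zero, not_le] using he0')
  set w : ℝ → ℝ := fun x => max (w₀ x) 0 with hw
  have hwc : Continuous w := hw₀c.max continuous_const
  have hws : HasCompactSupport w := by
    have : w = (fun t : ℝ => max t 0) ∘ w₀ := rfl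
    rw [this]
    exact hw₀s.comp_left (by simp)
  have hw0 : ∀ x, 0 ≤ w x := fun x => le_max_right _ _
  have hwm : MemLp w P volume := hwc.memLp_of_hasCompactSupport hws
  have hle : eLpNorm (f₀ - w) P volume ≤ ENNReal.ofReal e := by
    refine le_trans (eLpNorm_mono fun x => ?_) hw₀e
    simp only [Pi.sub_apply, Real.norm_eq_abs, hw]
    have := abs_max_sub_max_le_abs (f₀ x) (w₀ x) 0
    rwa [max_eq_left (hf₀ x)] at this
  have hsubm : MemLp (f₀ - w) P volume := hf.sub hwm
  have hN : (eLpNorm (f₀ - w) P volume).toReal ≤ e := by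
    have := ENNReal.toReal_mono ENNReal.ofReal_ne_top hle
    rwa [ENNReal.toReal_ofReal he0'.le] at this
  have hN0 : 0 ≤ (eLpNorm (f₀ - w) P volume).toReal := ENNReal.toReal_nonneg
  have hsub_int : ∫ x, |f₀ x - w x| ^ p = (eLpNorm (f₀ - w) P volume).toReal ^ p := by
    have := T48_int_eq hp hsubm
    simpa only [Pi.sub_apply] using this
  have hw_int : ∫ x, w x ^ p = (eLpNorm w P volume).toReal ^ p := by
    rw [← T48_int_eq hp hwm]
    refine integral_congr_ae (Filter.Eventually.of_forall fun x => ?_)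
    simp only [abs_of_nonneg (hw0 x)]
  have hf_int : ∫ x, f₀ x ^ p = A ^ p := by
    rw [hA, ← T48_int_eq hp hf]
    refine integral_congr_ae (Filter.Eventually.of_forall fun x => ?_)
    simp only [abs_of_nonneg (hf₀ x)]
  have hdiff : |(eLpNorm w P volume).toReal - A| ≤ e := by
    have ht1 : eLpNorm w P volume ≤ eLpNorm f₀ P volume + eLpNorm (f₀ - w) P volume := by
      have : w = f₀ - (f₀ - w) := by abel
      calc eLpNorm w P volume = eLpNorm (f₀ - (f₀ - w)) P volume := by rw [← this]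
        _ ≤ _ := eLpNorm_sub_le hf.1 hsubm.1 hP1
    have ht2 : eLpNorm f₀ P volume ≤ eLpNorm w P volume + eLpNorm (f₀ - w) P volume := by
      have : f₀ = w + (f₀ - w) := by abel
      calc eLpNorm f₀ P volume = eLpNorm (w + (f₀ - w)) P volume := by rw [← this]
        _ ≤ _ := eLpNorm_add_le hwm.1 hsubm.1 hP1
    have hfin1 : eLpNorm f₀ P volume ≠ ⊤ := hf.2.ne
    have hfin2 : eLpNorm w P volume ≠ ⊤ := hwm.2.ne
    have hfin3 : eLpNorm (f₀ - w) P volume ≠ ⊤ := hsubm.2.ne
    have ht1' := ENNReal.toReal_mono (ENNReal.add_ne_top.2 ⟨hfin1, hfin3⟩) ht1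
    have ht2' := ENNReal.toReal_mono (ENNReal.add_ne_top.2 ⟨hfin2, hfin3⟩) ht2
    rw [ENNReal.toReal_add hfin1 hfin3] at ht1'
    rw [ENNReal.toReal_add hfin2 hfin3] at ht2'
    rw [abs_le]
    constructor <;> linarith
  have hintsub : Integrable fun x => |f₀ x - w x| ^ p := by
    have := hsubm.integrable_norm_rpow hP0 hPt
    rw [hPr] at this
    simpa only [Pi.sub_apply, Real.norm_eq_abs] using this
  have hintw : Integrable fun x => w x ^ p := by
    have := hwm.integrable_norm_rpow hP0 hPt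
    rw [hPr] at this
    refine this.congr (Filter.Eventually.of_forall fun x => ?_)
    simp only [Real.norm_eq_abs, abs_of_nonneg (hw0 x)]
  have habsm : MemLp (fun x => |f₀ x - w x|) P volume := by
    have := hsubm.norm
    simpa only [Pi.sub_apply, Real.norm_eq_abs] using this
  have hintg : Integrable fun x => |f₀ x - w x| * g x := by
    have : ENNReal.HolderConjugate P (ENNReal.ofReal q) := hpq.ennrealOfReal
    have := MemLp.integrable_mul (p := P) (q := ENNReal.ofReal q) habsm hgP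
    exact this
  refine ⟨w, hwc, hws, hw0, ?_, ?_, ?_, hintw, hintsub, hintg⟩
  · rw [hw_int, hf_int]
    exact he3 _ hdiff
  · rw [hsub_int]
    exact le_trans (Real.rpow_le_rpow hN0 hN hp0.le) he1
  · have hH := integral_mul_le_Lp_mul_Lq_of_nonneg hpq
      (f := fun x => |f₀ x - w x|) (g := g) (μ := volume)
      (Filter.Eventually.of_forall fun x => abs_nonneg _) (Filter.Eventually.of_forall hg0) habsm hgP
    refine le_trans hH ?_
    rw [hsub_int, ← Real.rpow_mul hN0, mul_one_div_cancel hp0.ne', Real.rpow_one]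
    exact le_trans (mul_le_mul_of_nonneg_right hN hG0) he2

end Crest.Agent.LT
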