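import Crest.Agent.LT_Defs

/-!
Task LT-T47: reduction to a trial family with diagonal negative energy matrix: rotate by the eigenvector unitary of
`A = energyMatrix W φ` (Hermitian) and keep the columns with negative eigenvalue. (Also general facts on how
`energyMatrix` and `IsTrialFamily` behave under `φ'_j = ∑_k Q_{kj} φ_k` with `Q^* Q = 1`.)
-/

set_option autoImplicit false

namespace Crest.Agent.LT

open MeasureTheory Matrix Set Filter
open Crest.MathPhysics.LiebThirring
open scoped ComplexOrder Topology ContDiff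

/-- recombination of a family -/
noncomputable def recomb {m n N : ℕ} (φ : Fin n → ℝ → Vec m) (Q : Matrix (Fin n) (Fin N) ℂ) :
    Fin N → ℝ → Vec m := fun j x => ∑ k, Q k j • φ k x

theorem T47_continuous {m n : ℕ} {φ : Fin n → ℝ → Vec m} (hφ : IsTrialFamily φ) (k : Fin n) :
    Continuous (φ k) := (hφ.1 k).continuous

theorem T47_continuous_deriv {m n : ℕ} {φ : Fin n → ℝ → Vec m} (hφ : IsTrialFamily φ)
    (k : Fin n) : Continuous (deriv (φ k)) :=
  (hφ.1 k).continuous_deriv (by simp)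

theorem T47_integrable_inner {m n : ℕ} {φ : Fin n → ℝ → Vec m} (hφ : IsTrialFamily φ)
    (k l : Fin n) : Integrable fun x => inner ℂ (φ k x) (φ l x) := by
  refine Continuous.integrable_of_hasCompactSupport ?_ ?_
  · exact (T47_continuous hφ k).inner (T47_continuous hφ l)
  · refine HasCompactSupport.mono (hφ.2.1 k) ?_
    intro x hx
    rw [Function.mem_support] at hx ⊢
    intro h
    apply hx
    rw [h, inner_zero_left]

theorem T47_integrable_inner_deriv {m n : ℕ} {φ : Fin n → ℝ → Vec m} (hφ : IsTrialFamily φ)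
    (k l : Fin n) : Integrable fun x => inner ℂ (deriv (φ k) x) (deriv (φ l) x) := by
  refine Continuous.integrable_of_hasCompactSupport ?_ ?_
  · exact (T47_continuous_deriv hφ k).inner (T47_continuous_deriv hφ l)
  · refine HasCompactSupport.mono (hφ.2.1 k).deriv ?_
    intro x hx
    rw [Function.mem_support] at hx ⊢
    intro h
    apply hx
    rw [h, inner_zero_left]

theorem T47_inner_sum {m n N : ℕ} (a b : Fin n → Vec m) (Q : Matrix (Fin n) (Fin N) ℂ)
    (i j : Fin N) :
    inner ℂ (∑ k, Q k i • a k) (∑ l, Q l j • b l) =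
      ∑ k, ∑ l, (starRingEnd ℂ (Q k i) * Q l j) * inner ℂ (a k) (b l) := by
  rw [sum_inner]
  refine Finset.sum_congr rfl fun k _ => ?_
  rw [inner_sum]
  refine Finset.sum_congr rfl fun l _ => ?_
  rw [inner_smul_left, inner_smul_right]
  ring

theorem T47_mul_entry {n N : ℕ} (Q : Matrix (Fin n) (Fin N) ℂ) (A : Matrix (Fin n) (Fin n) ℂ)
    (i j : Fin N) :
    (Qᴴ * A * Q) i j = ∑ k, ∑ l, (starRingEnd ℂ (Q k i) * Q l j) * A k l := by
  rw [Matrix.mul_apply]
  simp only [Matrix.mul_apply, Matrix.conjTranspose_apply, Finset.sum_mul]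
  rw [Finset.sum_comm]
  refine Finset.sum_congr rfl fun k _ => Finset.sum_congr rfl fun l _ => ?_
  simp only [starRingEnd_apply]
  ring

theorem recomb_isTrialFamily {m n N : ℕ} {φ : Fin n → ℝ → Vec m} (hφ : IsTrialFamily φ)
    {Q : Matrix (Fin n) (Fin N) ℂ} (hQ : Qᴴ * Q = 1) : IsTrialFamily (recomb φ Q) := by
  refine ⟨fun j => ?_, fun j => ?_, fun i j => ?_⟩
  · unfold recomb
    exact ContDiff.sum fun k _ => (hφ.1 k).const_smul (Q k j)
  · have hs : IsCompact (⋃ k, tsupport (φ k)) := isCompact_iUnion fun k => hφ.2.1 k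
    refine HasCompactSupport.intro hs ?_
    intro x hx
    simp only [recomb]
    refine Finset.sum_eq_zero fun k _ => ?_
    have : φ k x = 0 := by
      apply image_eq_zero_of_notMem_tsupport
      intro h
      exact hx (mem_iUnion.2 ⟨k, h⟩)
    rw [this, smul_zero]
  · simp only [recomb, T47_inner_sum]
    rw [integral_finsetSum _ fun k _ => integrable_finsetSum _ fun l _ =>
      (T47_integrable_inner hφ k l).const_mul _]
    have e : ∀ k ∈ Finset.univ, ∫ x, ∑ l, (starRingEnd ℂ (Q k i) * Q l j) * inner ℂ (φ k x) (φ l x)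
        = ∑ l, (starRingEnd ℂ (Q k i) * Q l j) * (1 : Matrix (Fin n) (Fin n) ℂ) k l := by
      intro k _
      rw [integral_finsetSum _ fun l _ => (T47_integrable_inner hφ k l).const_mul _]
      refine Finset.sum_congr rfl fun l _ => ?_
      rw [integral_const_mul, hφ.2.2 k l, Matrix.one_apply]
    rw [Finset.sum_congr rfl e, ← T47_mul_entry, Matrix.mul_one, hQ, Matrix.one_apply]

theorem T47_deriv_recomb {m n N : ℕ} {φ : Fin n → ℝ → Vec m} (hφ : IsTrialFamily φ)
    (Q : Matrix (Fin n) (Fin N) ℂ) (j : Fin N) (x : ℝ) :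
    deriv (recomb φ Q j) x = ∑ k, Q k j • deriv (φ k) x := by
  have hd : ∀ k, DifferentiableAt ℝ (φ k) x := fun k =>
    ((hφ.1 k).differentiable (by simp)).differentiableAt
  have : HasDerivAt (recomb φ Q j) (∑ k, Q k j • deriv (φ k) x) x := by
    unfold recomb
    exact HasDerivAt.fun_sum fun k _ => (hd k).hasDerivAt.const_smul (Q k j)
  exact this.deriv

theorem T47_toLin_sum {m n N : ℕ} (W : Matrix (Fin m) (Fin m) ℂ) (b : Fin n → Vec m)
    (Q : Matrix (Fin n) (Fin N) ℂ) (j : Fin N) :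
    Matrix.toEuclideanLin W (∑ l, Q l j • b l) =
      ∑ l, Q l j • Matrix.toEuclideanLin W (b l) := by
  rw [map_sum]
  refine Finset.sum_congr rfl fun l _ => ?_
  rw [map_smul]

theorem energyMatrix_recomb {m n N : ℕ} {W : ℝ → Matrix (Fin m) (Fin m) ℂ}
    {φ : Fin n → ℝ → Vec m} (hφ : IsTrialFamily φ)
    (hint : ∀ k l, Integrable fun x => inner ℂ (φ k x) (Matrix.toEuclideanLin (W x) (φ l x)))
    (Q : Matrix (Fin n) (Fin N) ℂ) :
    energyMatrix W (recomb φ Q) = Qᴴ * energyMatrix W φ * Q := by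
  ext i j
  rw [T47_mul_entry]
  simp only [energyMatrix, Matrix.of_apply]
  have e1 : ∀ x, (inner ℂ (deriv (recomb φ Q i) x) (deriv (recomb φ Q j) x) -
      inner ℂ (recomb φ Q i x) (Matrix.toEuclideanLin (W x) (recomb φ Q j x)) : ℂ) =
      ∑ k, ∑ l, (starRingEnd ℂ (Q k i) * Q l j) * (inner ℂ (deriv (φ k) x) (deriv (φ l) x) -
        inner ℂ (φ k x) (Matrix.toEuclideanLin (W x) (φ l x))) := by
    intro x
    rw [T47_deriv_recomb hφ, T47_deriv_recomb hφ, T47_inner_sum]
    have : recomb φ Q i x = ∑ k, Q k i • φ k x := rfl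
    rw [this]
    have : recomb φ Q j x = ∑ k, Q k j • φ k x := rfl
    rw [this, T47_toLin_sum, T47_inner_sum, ← Finset.sum_sub_distrib]
    refine Finset.sum_congr rfl fun k _ => ?_
    rw [← Finset.sum_sub_distrib]
    refine Finset.sum_congr rfl fun l _ => ?_
    rw [mul_sub]
  simp only [e1]
  have hi : ∀ k l, Integrable fun x => (inner ℂ (deriv (φ k) x) (deriv (φ l) x) -
        inner ℂ (φ k x) (Matrix.toEuclideanLin (W x) (φ l x)) : ℂ) := fun k l =>
    (T47_integrable_inner_deriv hφ k l).sub (hint k l)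
  rw [integral_finsetSum _ fun k _ => integrable_finsetSum _ fun l _ => (hi k l).const_mul _]
  refine Finset.sum_congr rfl fun k _ => ?_
  rw [integral_finsetSum _ fun l _ => (hi k l).const_mul _]
  refine Finset.sum_congr rfl fun l _ => ?_
  rw [integral_const_mul]

theorem T47_inner_toLin {m : ℕ} {W : Matrix (Fin m) (Fin m) ℂ} (hW : W.IsHermitian)
    (a b : Vec m) : inner ℂ (Matrix.toEuclideanLin W a) b = inner ℂ a (Matrix.toEuclideanLin W b) :=
  (Matrix.isSymmetric_toEuclideanLin_iff.2 hW) a b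

theorem energyMatrix_isHermitian {m n : ℕ} {W : ℝ → Matrix (Fin m) (Fin m) ℂ}
    (hWp : ∀ x, (W x).PosSemidef) (φ : Fin n → ℝ → Vec m) : (energyMatrix W φ).IsHermitian := by
  ext i j
  simp only [Matrix.conjTranspose_apply, energyMatrix, Matrix.of_apply]
  have : star (∫ x, (inner ℂ (deriv (φ j) x) (deriv (φ i) x) -
      inner ℂ (φ j x) (Matrix.toEuclideanLin (W x) (φ i x)) : ℂ)) =
      ∫ x, (starRingEnd ℂ) (inner ℂ (deriv (φ j) x) (deriv (φ i) x) -
      inner ℂ (φ j x) (Matrix.toEuclideanLin (W x) (φ i x)) : ℂ) := by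
    rw [integral_conj]
    rfl
  rw [this]
  refine integral_congr_ae (Eventually.of_forall fun x => ?_)
  simp only [map_sub, inner_conj_symm]
  rw [T47_inner_toLin (hWp x).1]

theorem T47_conj_eq {n : ℕ} {A : Matrix (Fin n) (Fin n) ℂ} (hA : A.IsHermitian) :
    (hA.eigenvectorUnitary : Matrix (Fin n) (Fin n) ℂ)ᴴ *
      (hA.eigenvectorUnitary : Matrix (Fin n) (Fin n) ℂ) = 1 := by
  have := (Matrix.mem_unitaryGroup_iff'.1 hA.eigenvectorUnitary.2)
  simpa [star_eq_conjTranspose] using this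

theorem T47_conj_eq2 {n : ℕ} {A : Matrix (Fin n) (Fin n) ℂ} (hA : A.IsHermitian) :
    (hA.eigenvectorUnitary : Matrix (Fin n) (Fin n) ℂ)ᴴ * A *
      (hA.eigenvectorUnitary : Matrix (Fin n) (Fin n) ℂ) =
      diagonal (fun i => ((hA.eigenvalues i : ℝ) : ℂ)) := by
  have h1 := T47_conj_eq hA
  have h2 : A = (hA.eigenvectorUnitary : Matrix (Fin n) (Fin n) ℂ) *
      diagonal (fun i => ((hA.eigenvalues i : ℝ) : ℂ)) *
      (hA.eigenvectorUnitary : Matrix (Fin n) (Fin n) ℂ)ᴴ := by
    conv_lhs => rw [hA.spectral_theorem]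
    rfl
  generalize (hA.eigenvectorUnitary : Matrix (Fin n) (Fin n) ℂ) = U at h1 h2 ⊢
  generalize hA.eigenvalues = ev at h2 ⊢
  rw [h2]
  simp only [← Matrix.mul_assoc]
  rw [h1, Matrix.one_mul, Matrix.mul_assoc, h1, Matrix.mul_one]

theorem T47_trace_cfc {n : ℕ} {A : Matrix (Fin n) (Fin n) ℂ} (hA : A.IsHermitian) (f : ℝ → ℝ) :
    (Matrix.trace (cfc f A)).re = ∑ i, f (hA.eigenvalues i) := by
  have h1 := T47_conj_eq hA
  have : cfc f A = (hA.eigenvectorUnitary : Matrix (Fin n) (Fin n) ℂ) *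
      diagonal (fun i => ((f (hA.eigenvalues i) : ℝ) : ℂ)) *
        (hA.eigenvectorUnitary : Matrix (Fin n) (Fin n) ℂ)ᴴ := by
    rw [hA.cfc_eq f]
    rfl
  rw [this, Matrix.trace_mul_comm, ← Matrix.mul_assoc, h1, Matrix.one_mul]
  simp [Matrix.trace_diagonal]

theorem reduce_diag {m n : ℕ} {W : ℝ → Matrix (Fin m) (Fin m) ℂ} (hWp : ∀ x, (W x).PosSemidef)
    {φ : Fin n → ℝ → Vec m} (hφ : IsTrialFamily φ)
    (hint : ∀ k l, Integrable fun x => inner ℂ (φ k x) (Matrix.toEuclideanLin (W x) (φ l x)))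
    {γ : ℝ} (hγ : 0 < γ) :
    ∃ (N : ℕ) (Q : Matrix (Fin n) (Fin N) ℂ) (κ : Fin N → ℝ), Qᴴ * Q = 1 ∧ (∀ j, 0 < κ j) ∧
      energyMatrix W (recomb φ Q) = Matrix.diagonal (fun j => ((-(κ j ^ 2) : ℝ) : ℂ)) ∧
      negMoment (energyMatrix W φ) γ = ∑ j, κ j ^ (2 * γ) := by
  classical
  set A := energyMatrix W φ with hAdef
  have hA : A.IsHermitian := energyMatrix_isHermitian hWp φ
  set U : Matrix (Fin n) (Fin n) ℂ := (hA.eigenvectorUnitary : Matrix (Fin n) (Fin n) ℂ) with hU
  set ev := hA.eigenvalues with hev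
  have e := Fintype.equivFin {k : Fin n // ev k < 0}
  set N := Fintype.card {k : Fin n // ev k < 0} with hN
  set g : Fin N → Fin n := fun j => ((e.symm j : {k : Fin n // ev k < 0}) : Fin n) with hg
  have hginj : Function.Injective g := fun a b hab => e.symm.injective (Subtype.ext hab)
  have hgneg : ∀ j, ev (g j) < 0 := fun j => (e.symm j).2
  set Q : Matrix (Fin n) (Fin N) ℂ := U.submatrix id g with hQ
  have hQQ : Qᴴ * Q = 1 := by
    have h1 := T47_conj_eq hA
    ext i j
    have h2 : (Qᴴ * Q) i j = (Uᴴ * U) (g i) (g j) := by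
      simp [Matrix.mul_apply, hQ, Matrix.submatrix_apply]
    rw [h2, h1, Matrix.one_apply, Matrix.one_apply]
    by_cases hij : i = j
    · simp [hij]
    · rw [if_neg hij, if_neg (fun h => hij (hginj h))]
  refine ⟨N, Q, fun j => Real.sqrt (-(ev (g j))), hQQ, fun j => Real.sqrt_pos.2 (by
    have := hgneg j; linarith), ?_, ?_⟩
  · rw [energyMatrix_recomb hφ hint]
    have h1 := T47_conj_eq2 hA
    ext i j
    have h2 : (Qᴴ * A * Q) i j = (Uᴴ * A * U) (g i) (g j) := by
      simp [Matrix.mul_apply, hQ, Matrix.submatrix_apply]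
    rw [h2, h1, Matrix.diagonal_apply, Matrix.diagonal_apply]
    by_cases hij : i = j
    · subst hij
      rw [if_pos rfl, if_pos rfl]
      have := hgneg i
      rw [Real.sq_sqrt (by linarith)]
      simp [hev]
    · rw [if_neg hij, if_neg (fun h => hij (hginj h))]
  · rw [negMoment, T47_trace_cfc hA]
    have h0 : ∀ k, ¬ ev k < 0 → (max (-(ev k)) 0) ^ γ = 0 := by
      intro k hk
      rw [max_eq_right (by linarith), Real.zero_rpow hγ.ne']
    have h1 : ∑ k, (max (-(ev k)) 0) ^ γ = ∑ k ∈ Finset.univ.image g, (max (-(ev k)) 0) ^ γ := by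
      symm
      apply Finset.sum_subset (Finset.subset_univ _)
      intro k _ hk
      apply h0
      intro hneg
      apply hk
      rw [Finset.mem_image]
      exact ⟨e ⟨k, hneg⟩, Finset.mem_univ _, by simp [hg]⟩
    rw [h1, Finset.sum_image (fun a _ b _ hab => hginj hab)]
    refine Finset.sum_congr rfl fun j _ => ?_
    have := hgneg j
    rw [max_eq_left (by linarith), Real.rpow_mul (Real.sqrt_nonneg _)]
    congr 1
    rw [show ((2:ℝ)) = ((2 : ℕ) : ℝ) by norm_num, Real.rpow_natCast, Real.sq_sqrt (by linarith)]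

end Crest.Agent.LT
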