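import Crest.Agent.LT_Defs
import Crest.Agent.LT_T01
import Crest.Agent.LT_T02
import Crest.Agent.LT_T25
import Crest.Agent.LT_T46
import Crest.Agent.LT_T47
import Crest.Agent.LT_T48
import Crest.Agent.LT_T49
/-!
Task LT-T50: the inequality for a family with diagonal negative energy. `γ ≤ 1`: `𝒢 K = √γ (K²+ε)^{(γ-1)/2}`;
`γ ≥ 1`: `𝒢 K = diag (√γ κ^{γ-1})`; `tr (Pmat φ (𝒢 K) x) ≤ C hs2 (Phi φ x)` with `C` independent of `K`; then
`approx_weight`, `δ → 0`, `ε → 0`.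
-/

set_option autoImplicit false

namespace Crest.Agent.LT

open MeasureTheory Matrix Set Filter
open Crest.MathPhysics.LiebThirring
open scoped ComplexOrder Topology

theorem T50_cfc_posSemidef {N : ℕ} {A : Mt N} (hA : A.IsHermitian) {f : ℝ → ℝ}
    (hf : ∀ i, 0 ≤ f (hA.eigenvalues i)) : (cfc f A).PosSemidef := by
  rw [_root_.LT.cfc_eq_conj hA]
  refine Matrix.PosSemidef.mul_mul_conjTranspose_same ?_ _
  refine Matrix.PosSemidef.diagonal ?_
  intro i
  simpa using hf i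

theorem T50_tr_mul_le {N : ℕ} {A B : Mt N} (hA : A.PosSemidef) (hB : B.PosSemidef) :
    tr (A * B) ≤ tr A * tr B := by
  obtain ⟨w, hw0, hw1, hw2, hw⟩ := tr_cfc_mul_cfc hA.1 hB.1
  have h1 := hw (fun x => x) (fun x => x)
  rw [_root_.LT.cfc_id_eq hA.1, _root_.LT.cfc_id_eq hB.1] at h1
  have h2 := tr_cfc hA.1 (fun x => x)
  have h3 := tr_cfc hB.1 (fun x => x)
  rw [_root_.LT.cfc_id_eq hA.1] at h2
  rw [_root_.LT.cfc_id_eq hB.1] at h3
  rw [h1, h2, h3, Finset.sum_mul_sum]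
  refine Finset.sum_le_sum fun i _ => Finset.sum_le_sum fun j _ => ?_
  have hle : w i j ≤ 1 := by
    rw [← hw1 i]
    exact Finset.single_le_sum (fun k _ => hw0 i k) (Finset.mem_univ j)
  have h0 : 0 ≤ hA.1.eigenvalues i * hB.1.eigenvalues j :=
    mul_nonneg (hA.eigenvalues_nonneg i) (hB.eigenvalues_nonneg j)
  calc w i j * (hA.1.eigenvalues i * hB.1.eigenvalues j)
      ≤ 1 * (hA.1.eigenvalues i * hB.1.eigenvalues j) := mul_le_mul_of_nonneg_right hle h0
    _ = _ := one_mul _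

theorem T50_tr_nonneg {N : ℕ} {A : Mt N} (hA : A.PosSemidef) : 0 ≤ tr A := by
  have h2 := tr_cfc hA.1 (fun x => x)
  rw [_root_.LT.cfc_id_eq hA.1] at h2
  rw [h2]
  exact Finset.sum_nonneg fun i _ => hA.eigenvalues_nonneg i

theorem T50_Pmat_le {m N : ℕ} (φ : Fin N → ℝ → Vec m) {G : Mt N} (hG : G.IsHermitian) {C : ℝ}
    (hC : tr (G * G) ≤ C) (x : ℝ) : tr (Pmat φ G x) ≤ C * hs2 (Phi φ x) := by
  have hGG : (G * G).PosSemidef := by
    have := Matrix.posSemidef_conjTranspose_mul_self G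
    rwa [hG] at this
  have hPP : ((Phi φ x)ᴴ * Phi φ x).PosSemidef := Matrix.posSemidef_conjTranspose_mul_self _
  have e : tr (Pmat φ G x) = tr (((Phi φ x)ᴴ * Phi φ x) * (G * G)) := by
    unfold Pmat
    rw [Matrix.conjTranspose_mul, hG]
    have : G * (Phi φ x)ᴴ * (Phi φ x * G) = G * (((Phi φ x)ᴴ * Phi φ x) * G) := by
      simp only [Matrix.mul_assoc]
    rw [this, T01_tr_comm, Matrix.mul_assoc]
  have e2 : hs2 (Phi φ x) = tr ((Phi φ x)ᴴ * Phi φ x) := hs2_eq_tr _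
  rw [e, e2]
  calc _ ≤ tr ((Phi φ x)ᴴ * Phi φ x) * tr (G * G) := T50_tr_mul_le hPP hGG
    _ ≤ tr ((Phi φ x)ᴴ * Phi φ x) * C := mul_le_mul_of_nonneg_left hC (T50_tr_nonneg hPP)
    _ = _ := mul_comm _ _

theorem T50_hs2_nonneg {m N : ℕ} (A : Matrix (Fin m) (Fin N) ℂ) : 0 ≤ hs2 A := by
  unfold hs2
  positivity

theorem T50_hs2_cont {m N : ℕ} {φ : Fin N → ℝ → Vec m} (hφ : IsTrialFamily φ) :
    Continuous fun x => hs2 (Phi φ x) := by
  unfold hs2 Phi
  simp only [Matrix.of_apply]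
  refine continuous_finsetSum _ fun i _ => continuous_finsetSum _ fun j _ => ?_
  have h1 : Continuous (φ j) := T47_continuous hφ j
  have h2 : Continuous fun x => φ j x i := by
    exact (EuclideanSpace.proj (𝕜 := ℂ) i).continuous.comp h1
  exact h2.norm.pow 2

theorem T50_hs2_supp {m N : ℕ} {φ : Fin N → ℝ → Vec m} (hφ : IsTrialFamily φ) :
    HasCompactSupport fun x => hs2 (Phi φ x) := by
  have hs : IsCompact (⋃ k, tsupport (φ k)) := isCompact_iUnion fun k => hφ.2.1 k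
  refine HasCompactSupport.intro hs ?_
  intro x hx
  unfold hs2 Phi
  simp only [Matrix.of_apply]
  refine Finset.sum_eq_zero fun i _ => Finset.sum_eq_zero fun j _ => ?_
  have : φ j x = 0 := by
    apply image_eq_zero_of_notMem_tsupport
    intro h
    exact hx (mem_iUnion.2 ⟨j, h⟩)
  rw [this]
  simp

theorem T50_tracePow_nonneg {m : ℕ} {A : Matrix (Fin m) (Fin m) ℂ} (hA : A.PosSemidef) (p : ℝ) :
    0 ≤ tracePow A p := by
  have : tracePow A p = tr (cfc (fun t : ℝ => t ^ p) A) := rfl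
  rw [this, tr_cfc hA.1]
  exact Finset.sum_nonneg fun i _ => Real.rpow_nonneg (hA.eigenvalues_nonneg i) _

/-- the general step for a weight `𝒢` -/
theorem T50_main {m N : ℕ} {γ : ℝ} (hγ : 1 / 2 < γ) (hγ' : γ < 3 / 2)
    {W : ℝ → Matrix (Fin m) (Fin m) ℂ} (hW : ∀ i j, Measurable fun x => W x i j)
    (hWp : ∀ x, (W x).PosSemidef) (hWi : Integrable fun x => tracePow (W x) (γ + 1 / 2))
    {φ : Fin N → ℝ → Vec m} (hφ : IsTrialFamily φ) {κ : Fin N → ℝ}
    (hE : energyMatrix W φ = Matrix.diagonal (fun j => ((-(κ j ^ 2) : ℝ) : ℂ)))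
    {𝒢 : Mt N → Mt N} (h𝒢c : ContinuousOn 𝒢 {K | K.PosSemidef})
    (h𝒢p : ∀ K : Mt N, K.PosSemidef → (𝒢 K).PosSemidef) {C e : ℝ} (hC0 : 0 ≤ C)
    (hC : ∀ K : Mt N, K.PosSemidef → tr (𝒢 K * 𝒢 K) ≤ C)
    (hK : ∀ K : Mt N, K.PosSemidef → ∑ j, κ j ^ (2 * γ) +
      tr (𝒢 K * 𝒢 K * (K * K - Matrix.diagonal fun j => ((κ j ^ 2 : ℝ) : ℂ))) ≤
        tr (cfc (fun t : ℝ => t ^ (2 * γ)) K) + e) :
    ∑ j, κ j ^ (2 * γ) ≤ sharpConst γ * (∫ x, tracePow (W x) (γ + 1 / 2)) + e := by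
  set p : ℝ := γ + 1 / 2 with hp
  have hp1 : 1 < p := by rw [hp]; linarith
  have hp0 : 0 < p := by linarith
  set f₀ : ℝ → ℝ := fun x => (tracePow (W x) p) ^ (1 / p) with hf₀
  have hf₀0 : ∀ x, 0 ≤ f₀ x := fun x => Real.rpow_nonneg (T50_tracePow_nonneg (hWp x) p) _
  have hf₀p : ∀ x, f₀ x ^ p = tracePow (W x) p := by
    intro x
    simp only [hf₀]
    rw [← Real.rpow_mul (T50_tracePow_nonneg (hWp x) p), one_div, inv_mul_cancel₀ hp0.ne',
      Real.rpow_one]
  have hmeas : AEStronglyMeasurable f₀ volume := by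
    have h1 : AEMeasurable (fun x => tracePow (W x) p) volume := hWi.aestronglyMeasurable.aemeasurable
    exact (h1.pow_const (1 / p)).aestronglyMeasurable
  have hint : Integrable fun x => f₀ x ^ p := by
    simp only [hf₀p]
    exact hWi
  have hgc := T50_hs2_cont hφ
  have hgs := T50_hs2_supp hφ
  have hg0 : ∀ x, 0 ≤ hs2 (Phi φ x) := fun x => T50_hs2_nonneg _
  refine le_of_forall_pos_le_add fun η hη => ?_
  -- choose the approximation parameter
  set D : ℝ := |sharpConst γ| + C + 1 with hD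
  have hDpos : 0 < D := by positivity
  obtain ⟨w, hwc, hws, hw0, hw1, hw2, hw3, hw4, hw5, hw6⟩ :=
    approx_weight hp1 hf₀0 hmeas hint hgc hgs hg0 (η := η / D) (by positivity)
  have hwi : Integrable w := hwc.integrable_of_hasCompactSupport hws
  have hIw : 0 ≤ ∫ x, w x := integral_nonneg hw0
  -- choose δ
  obtain ⟨δ, hδ, hδ2⟩ : ∃ δ : ℝ, 0 < δ ∧ δ ^ (γ - 1 / 2) * ∫ x, w x ≤ η / D := by
    have ha : 0 < γ - 1 / 2 := by linarith
    have hpos : 0 < (∫ x, w x) + 1 := by linarith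
    refine ⟨(η / D / ((∫ x, w x) + 1)) ^ (1 / (γ - 1 / 2)), by positivity, ?_⟩
    rw [← Real.rpow_mul (by positivity), one_div, inv_mul_cancel₀ ha.ne', Real.rpow_one,
      div_mul_eq_mul_div, div_le_iff₀ hpos]
    have : 0 ≤ η / D := by positivity
    nlinarith
  obtain ⟨K, hKp, hK1, hK2⟩ := core_step hγ hγ' hW hWp hWi hφ hE h𝒢c h𝒢p hwc hws hw0 hδ
  have h3 := hK K hKp
  rw [← hp] at hK1 hK2
  -- the error term
  have herr : ∫ x, |(tracePow (W x) p) ^ (1 / p) - w x| * tr (Pmat φ (𝒢 K) x) ≤ C * (η / D) := by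
    calc ∫ x, |(tracePow (W x) p) ^ (1 / p) - w x| * tr (Pmat φ (𝒢 K) x)
        ≤ ∫ x, C * (|f₀ x - w x| * hs2 (Phi φ x)) := by
          refine integral_mono_of_nonneg (Eventually.of_forall fun x => ?_) (hw6.const_mul C)
            (Eventually.of_forall fun x => ?_)
          · refine mul_nonneg (abs_nonneg _) (T50_tr_nonneg ?_)
            exact Matrix.posSemidef_conjTranspose_mul_self _
          · have h4 := T50_Pmat_le φ (h𝒢p K hKp).1 (hC K hKp) x
            have h5 := mul_le_mul_of_nonneg_left h4 (abs_nonneg (f₀ x - w x))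
            refine h5.trans (le_of_eq ?_)
            ring
      _ = C * ∫ x, |f₀ x - w x| * hs2 (Phi φ x) := integral_const_mul _ _
      _ ≤ C * (η / D) := mul_le_mul_of_nonneg_left hw3 hC0
  have hI : ∫ x, f₀ x ^ p = ∫ x, tracePow (W x) p := by simp only [hf₀p]
  rw [hI] at hw1
  have h6 : sharpConst γ * ∫ x, w x ^ p ≤
      sharpConst γ * (∫ x, tracePow (W x) p) + |sharpConst γ| * (η / D) := by
    have h7 : sharpConst γ * ((∫ x, w x ^ p) - ∫ x, tracePow (W x) p) ≤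
        |sharpConst γ| * (η / D) := by
      refine (le_abs_self _).trans ?_
      rw [abs_mul]
      exact mul_le_mul_of_nonneg_left hw1 (abs_nonneg _)
    linarith
  have h8 : (|sharpConst γ| + C + 1) * (η / D) = η := by
    rw [← hD]
    field_simp
  have h9 : |sharpConst γ| * (η / D) + C * (η / D) + η / D = η := by
    calc |sharpConst γ| * (η / D) + C * (η / D) + η / D = (|sharpConst γ| + C + 1) * (η / D) := by
          ring
      _ = η := h8
  linarith

theorem T50_continuousOn {N : ℕ} {γ ε : ℝ} (hε : 0 < ε) :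
    ContinuousOn (fun K : Mt N => cfc (fun t : ℝ => Real.sqrt γ * (t ^ 2 + ε) ^ ((γ - 1) / 2)) K)
      {K | K.PosSemidef} := by
  refine continuousOn_cfc_param (f := fun _ t => Real.sqrt γ * (t ^ 2 + ε) ^ ((γ - 1) / 2))
    (t := Set.univ) continuousOn_id (fun K hK => ?_) isOpen_univ ?_ fun _ _ => Set.subset_univ _
  · exact Matrix.PosSemidef.isHermitian hK
  · refine Continuous.continuousOn ?_
    refine continuous_const.mul ?_
    refine Continuous.rpow_const (by fun_prop) fun q => Or.inl ?_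
    positivity

theorem T50_mul_self {N : ℕ} {γ ε : ℝ} (hγ : 0 < γ) (hε : 0 < ε) {K : Mt N} (hK : K.IsHermitian) :
    cfc (fun t : ℝ => Real.sqrt γ * (t ^ 2 + ε) ^ ((γ - 1) / 2)) K *
      cfc (fun t : ℝ => Real.sqrt γ * (t ^ 2 + ε) ^ ((γ - 1) / 2)) K =
      cfc (fun t : ℝ => γ * (t ^ 2 + ε) ^ (γ - 1)) K := by
  rw [_root_.LT.cfc_mul_eq hK]
  congr 1
  funext t
  have h1 : 0 < t ^ 2 + ε := by positivity
  have h2 : (t ^ 2 + ε) ^ ((γ - 1) / 2) * (t ^ 2 + ε) ^ ((γ - 1) / 2) = (t ^ 2 + ε) ^ (γ - 1) := by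
    rw [← Real.rpow_add h1]
    congr 1
    ring
  calc Real.sqrt γ * (t ^ 2 + ε) ^ ((γ - 1) / 2) * (Real.sqrt γ * (t ^ 2 + ε) ^ ((γ - 1) / 2))
      = (Real.sqrt γ * Real.sqrt γ) *
        ((t ^ 2 + ε) ^ ((γ - 1) / 2) * (t ^ 2 + ε) ^ ((γ - 1) / 2)) := by ring
    _ = _ := by rw [Real.mul_self_sqrt hγ.le, h2]

theorem lt_diag {m N : ℕ} {γ : ℝ} (hγ : 1 / 2 < γ) (hγ' : γ < 3 / 2)
    {W : ℝ → Matrix (Fin m) (Fin m) ℂ} (hW : ∀ i j, Measurable fun x => W x i j)
    (hWp : ∀ x, (W x).PosSemidef) (hWi : Integrable fun x => tracePow (W x) (γ + 1 / 2))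
    {φ : Fin N → ℝ → Vec m} (hφ : IsTrialFamily φ) {κ : Fin N → ℝ} (hκ : ∀ j, 0 < κ j)
    (hE : energyMatrix W φ = Matrix.diagonal (fun j => ((-(κ j ^ 2) : ℝ) : ℂ))) :
    ∑ j, κ j ^ (2 * γ) ≤ sharpConst γ * ∫ x, tracePow (W x) (γ + 1 / 2) := by
  have hγ0 : 0 < γ := by linarith
  rcases le_or_gt γ 1 with h1 | h1
  · -- `γ ≤ 1`
    refine le_of_forall_pos_le_add fun η hη => ?_
    obtain ⟨ε, hε, hε2⟩ : ∃ ε : ℝ, 0 < ε ∧ (N : ℝ) * ε ^ γ ≤ η := by
      have hpos : 0 < (N : ℝ) + 1 := by positivity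
      refine ⟨(η / ((N : ℝ) + 1)) ^ (1 / γ), by positivity, ?_⟩
      rw [← Real.rpow_mul (by positivity), one_div, inv_mul_cancel₀ hγ0.ne', Real.rpow_one,
        mul_div_assoc', div_le_iff₀ hpos]
      nlinarith
    refine (T50_main hγ hγ' hW hWp hWi hφ hE (T50_continuousOn (γ := γ) hε)
      (C := N * (γ * ε ^ (γ - 1))) (e := η) ?_ (by positivity) ?_ ?_)
    · intro K hK
      refine T50_cfc_posSemidef hK.1 fun i => ?_
      positivity
    · intro K hK
      rw [T50_mul_self hγ0 hε hK.1, tr_cfc hK.1]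
      calc ∑ i, γ * (hK.1.eigenvalues i ^ 2 + ε) ^ (γ - 1) ≤ ∑ _i : Fin N, γ * ε ^ (γ - 1) := by
            refine Finset.sum_le_sum fun i _ => ?_
            refine mul_le_mul_of_nonneg_left ?_ hγ0.le
            refine Real.rpow_le_rpow_of_nonpos hε ?_ (by linarith)
            nlinarith [sq_nonneg (hK.1.eigenvalues i)]
        _ = N * (γ * ε ^ (γ - 1)) := by simp
    · intro K hK
      rw [T50_mul_self hγ0 hε hK.1]
      have := klein_le_one hγ0 h1 hε hK hκ
      linarith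
  · -- `γ ≥ 1`
    set d : Fin N → ℝ := fun j => Real.sqrt γ * κ j ^ (γ - 1) with hd
    have hdd : (Matrix.diagonal fun j => ((d j : ℝ) : ℂ)) * (Matrix.diagonal fun j => ((d j : ℝ) : ℂ)) =
        Matrix.diagonal (fun j => ((γ * κ j ^ (2 * γ - 2) : ℝ) : ℂ)) := by
      rw [Matrix.diagonal_mul_diagonal]
      congr 1
      funext j
      rw [← Complex.ofReal_mul]
      congr 1
      have h2 : κ j ^ (γ - 1) * κ j ^ (γ - 1) = κ j ^ (2 * γ - 2) := by
        rw [← Real.rpow_add (hκ j)]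
        congr 1
        ring
      calc d j * d j = (Real.sqrt γ * Real.sqrt γ) * (κ j ^ (γ - 1) * κ j ^ (γ - 1)) := by
            simp only [hd]; ring
        _ = _ := by rw [Real.mul_self_sqrt hγ0.le, h2]
    have hmain := T50_main hγ hγ' hW hWp hWi hφ hE
      (𝒢 := fun _ => Matrix.diagonal fun j => ((d j : ℝ) : ℂ)) continuousOn_const
      (C := |tr (Matrix.diagonal (fun j => ((γ * κ j ^ (2 * γ - 2) : ℝ) : ℂ)))|) (e := 0)
      ?_ (abs_nonneg _) ?_ ?_
    · linarith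
    · intro K hK
      refine Matrix.PosSemidef.diagonal ?_
      intro j
      have : 0 ≤ d j := by
        simp only [hd]
        exact mul_nonneg (Real.sqrt_nonneg _) (Real.rpow_nonneg (hκ j).le _)
      simpa using this
    · intro K hK
      simp only [hdd]
      exact le_abs_self _
    · intro K hK
      simp only [hdd]
      have := klein_ge_one h1.le hK hκ
      linarith

end Crest.Agent.LT
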