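import Crest.Agent.LTE_Defs
import Crest.Agent.LTE_E06
import Crest.Agent.LT_T48
import Crest.Agent.LT_T50
/-!
Task LTE-E07: near-optimal step for a family with a `Weight` (like `T50_main`): choose `w` by `approx_weight`
(`g = hs2 (Phi φ ·)`), `δ` small; `tr (Pmat φ (𝒢 K) x) ≤ C₀² hs2 (Phi φ x)`.
-/

set_option autoImplicit false

namespace Crest.Agent.LT

open MeasureTheory Matrix Set Filter
open Crest.MathPhysics.LiebThirring
open scoped ComplexOrder Topology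

theorem near_opt_step {m N : ℕ} {γ : ℝ} (hγ : 1 / 2 < γ) (hγ' : γ < 3 / 2)
    {W : ℝ → Matrix (Fin m) (Fin m) ℂ} (hW : ∀ i j, Measurable fun x => W x i j)
    (hWp : ∀ x, (W x).PosSemidef) (hWi : Integrable fun x => tracePow (W x) (γ + 1 / 2))
    {φ : Fin N → ℝ → Vec m} (hφ : IsTrialFamily φ) {κ : Fin N → ℝ}
    (hE : energyMatrix W φ = Matrix.diagonal (fun j => ((-(κ j ^ 2) : ℝ) : ℂ)))
    {κ₁ c₀ C₀ : ℝ} {𝒢 : Mt N → Mt N} (h𝒢 : Weight γ κ κ₁ c₀ C₀ 𝒢) {η : ℝ} (hη : 0 < η) (R₀ : ℝ) :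
    ∃ (w : ℝ → ℝ) (δ R : ℝ) (K : Mt N) (F : ℝ → Mt N), Continuous w ∧ (∀ x, 0 ≤ w x) ∧
      0 < δ ∧ δ ≤ η ∧ R₀ ≤ R ∧ K.PosSemidef ∧
      Riccati R K F (fun x => VK (1 / (γ - 1 / 2)) (w x) δ (Pmat φ (𝒢 K) x)) ∧
      (∀ k x, x ∉ Ioo (-R) R → φ k x = 0) ∧
      (Integrable fun x => |w x - wzero W γ x| ^ (γ + 1 / 2)) ∧
      (∫ x, |w x - wzero W γ x| ^ (γ + 1 / 2)) ≤ η ∧
      (Integrable fun x => w x ^ (γ + 1 / 2)) ∧
      |(∫ x in (-R)..R, w x ^ (γ + 1 / 2)) - ∫ x, tracePow (W x) (γ + 1 / 2)| ≤ η ∧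
      (∫ x in (-R)..R, hs2 (dErr φ (𝒢 K) F x)) + (∫ x in (-R)..R, hErr W γ φ (𝒢 K) x) ≤
        tr (cfc (fun t : ℝ => t ^ (2 * γ)) K) - ∑ j, κ j ^ (2 * γ) + η := by
  set p : ℝ := γ + 1 / 2 with hp
  have hp1 : 1 < p := by rw [hp]; linarith
  have hp0 : 0 < p := by linarith
  have hf₀0 : ∀ x, 0 ≤ wzero W γ x := fun x =>
    Real.rpow_nonneg (T50_tracePow_nonneg (hWp x) p) _
  have hf₀p : ∀ x, wzero W γ x ^ p = tracePow (W x) p := by
    intro x
    unfold wzero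
    rw [← hp, ← Real.rpow_mul (T50_tracePow_nonneg (hWp x) p), one_div, inv_mul_cancel₀ hp0.ne',
      Real.rpow_one]
  have hmeas : AEStronglyMeasurable (wzero W γ) volume := by
    have h1 : AEMeasurable (fun x => tracePow (W x) p) volume := hWi.aestronglyMeasurable.aemeasurable
    exact (h1.pow_const (1 / p)).aestronglyMeasurable
  have hint : Integrable fun x => wzero W γ x ^ p := by
    simp only [hf₀p]
    exact hWi
  have hgc := T50_hs2_cont hφ
  have hgs := T50_hs2_supp hφ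
  have hg0 : ∀ x, 0 ≤ hs2 (Phi φ x) := fun x => T50_hs2_nonneg _
  -- the bound of the weight
  set C : ℝ := ((N : ℝ) * C₀) * ((N : ℝ) * C₀) with hCdef
  have hC0 : 0 ≤ C := mul_self_nonneg _
  have hC : ∀ K : Mt N, K.PosSemidef → tr (𝒢 K * 𝒢 K) ≤ C := by
    intro K hK
    have h1 : 0 ≤ tr (𝒢 K) := T50_tr_nonneg (h𝒢.psd K hK)
    have h2 : tr (𝒢 K) ≤ (N : ℝ) * C₀ := by
      have h3 := T50_tr_nonneg (h𝒢.upper K hK)
      rw [T01_tr_sub] at h3
      have h4 : tr (((C₀ : ℝ) : ℂ) • (1 : Mt N)) = (N : ℝ) * C₀ := by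
        unfold tr
        rw [Matrix.trace_smul, Matrix.trace_one, Fintype.card_fin, smul_eq_mul]
        simp
        ring
      linarith
    calc tr (𝒢 K * 𝒢 K) ≤ tr (𝒢 K) * tr (𝒢 K) := T50_tr_mul_le (h𝒢.psd K hK) (h𝒢.psd K hK)
      _ ≤ C := mul_le_mul h2 h2 h1 (h1.trans h2)
  -- choose the approximation parameter
  set D : ℝ := C + 2 with hD
  have hDpos : 0 < D := by positivity
  have hD1 : η / D ≤ η := by
    rw [div_le_iff₀ hDpos]
    nlinarith
  obtain ⟨w, hwc, hws, hw0, hw1, hw2, hw3, hw4, hw5, hw6⟩ :=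
    approx_weight hp1 hf₀0 hmeas hint hgc hgs hg0 (η := η / D) (by positivity)
  have hwi : Integrable w := hwc.integrable_of_hasCompactSupport hws
  have hIw : 0 ≤ ∫ x, w x := integral_nonneg hw0
  -- choose δ
  obtain ⟨δ, hδ, hδη, hδ2⟩ : ∃ δ : ℝ, 0 < δ ∧ δ ≤ η ∧ δ ^ (γ - 1 / 2) * ∫ x, w x ≤ η / D := by
    have ha : 0 < γ - 1 / 2 := by linarith
    have hpos : 0 < (∫ x, w x) + 1 := by linarith
    have hb : 0 < (η / D / ((∫ x, w x) + 1)) ^ (1 / (γ - 1 / 2)) := by positivity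
    refine ⟨min η ((η / D / ((∫ x, w x) + 1)) ^ (1 / (γ - 1 / 2))), lt_min hη hb,
      min_le_left _ _, ?_⟩
    have h1 : (min η ((η / D / ((∫ x, w x) + 1)) ^ (1 / (γ - 1 / 2)))) ^ (γ - 1 / 2) ≤
        ((η / D / ((∫ x, w x) + 1)) ^ (1 / (γ - 1 / 2))) ^ (γ - 1 / 2) :=
      Real.rpow_le_rpow (lt_min hη hb).le (min_le_right _ _) ha.le
    refine (mul_le_mul_of_nonneg_right h1 hIw).trans ?_
    rw [← Real.rpow_mul (by positivity), one_div, inv_mul_cancel₀ ha.ne', Real.rpow_one,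
      div_mul_eq_mul_div, div_le_iff₀ hpos]
    have : 0 ≤ η / D := by positivity
    nlinarith
  obtain ⟨R, K, F, hRR₀, hKp, hRic, hsupp, hsuppw, hmain⟩ :=
    core_deficit hγ hγ' hW hWp hWi hφ hE h𝒢.cont h𝒢.psd hwc hws hw0 hδ R₀
  have h3 := h𝒢.klein K hKp
  -- the error term
  have herr : ∫ x, |wzero W γ x - w x| * tr (Pmat φ (𝒢 K) x) ≤ C * (η / D) := by
    calc ∫ x, |wzero W γ x - w x| * tr (Pmat φ (𝒢 K) x)
        ≤ ∫ x, C * (|wzero W γ x - w x| * hs2 (Phi φ x)) := by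
          refine integral_mono_of_nonneg (Eventually.of_forall fun x => ?_) (hw6.const_mul C)
            (Eventually.of_forall fun x => ?_)
          · refine mul_nonneg (abs_nonneg _) (T50_tr_nonneg ?_)
            exact Matrix.posSemidef_conjTranspose_mul_self _
          · have h4 := T50_Pmat_le φ (h𝒢.psd K hKp).1 (hC K hKp) x
            have h5 := mul_le_mul_of_nonneg_left h4 (abs_nonneg (wzero W γ x - w x))
            refine h5.trans (le_of_eq ?_)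
            ring
      _ = C * ∫ x, |wzero W γ x - w x| * hs2 (Phi φ x) := integral_const_mul _ _
      _ ≤ C * (η / D) := mul_le_mul_of_nonneg_left hw3 hC0
  have hIw2 : ∫ x in (-R)..R, w x ^ p = ∫ x, w x ^ p := by
    have hR := hRic.hR
    refine T40_integral_eq hR fun x hx => ?_
    rw [hsuppw x fun h => hx (Ioo_subset_Icc_self h), Real.zero_rpow hp0.ne']
  have hI : ∫ x, wzero W γ x ^ p = ∫ x, tracePow (W x) p := by simp only [hf₀p]
  refine ⟨w, δ, R, K, F, hwc, hw0, hδ, hδη, hRR₀, hKp, hRic, hsupp, ?_, ?_, hw4, ?_, ?_⟩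
  · simpa only [abs_sub_comm] using hw5
  · have e : (∫ x, |w x - wzero W γ x| ^ p) = ∫ x, |wzero W γ x - w x| ^ p := by
      simp only [abs_sub_comm]
    rw [e]
    exact hw2.trans hD1
  · rw [hIw2, ← hI]
    exact hw1.trans hD1
  · have h9 : C * (η / D) + η / D + η / D = η := by
      calc C * (η / D) + η / D + η / D = (C + 2) * (η / D) := by ring
        _ = η := by rw [← hD]; field_simp
    have h10 : 0 ≤ η / D := by positivity
    linarith

end Crest.Agent.LT
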