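import Crest.Agent.LTE_Defs
import Crest.Agent.LT_T01
import Crest.Agent.LT_T02
import Crest.Agent.LT_T10
import Crest.Agent.LT_T46
/-!
Task LTE-E08: existence of a `Weight`. `γ ≥ 1`: `𝒢 K = diag (√γ κ^{γ-1})` (`klein_ge_one`). `γ < 1`:
`𝒢 K = cfc (√(g'(t²))) K` with `τ = κ₀²`, `g(t) = t^γ` for `t ≥ τ`,
`g'(t) = γ τ^{γ-1} + (1-γ) τ^{γ-2} (τ - t)` for `0 ≤ t ≤ τ`; `(1-v)^γ ≥ 1 - γ v - (1-γ) v²`, which follows
from Bernoulli `(1-v)^{γ-1} ≥ 1 + (1-γ) v`. Then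
`∑ κ^{2γ} ≤ tr (K^{2γ}) + tr (g'(K²)(κ² - K²))` (`klein_general`).
-/

set_option autoImplicit false

namespace Crest.Agent.LT

open MeasureTheory Matrix Set Filter
open Crest.MathPhysics.LiebThirring
open scoped ComplexOrder Topology

/-- the derivative weight for `γ < 1` -/
noncomputable def E08_G (γ τ u : ℝ) : ℝ :=
  γ * (max u τ) ^ (γ - 1) + (1 - γ) * τ ^ (γ - 2) * (τ - min u τ)

theorem E08_G_ge {γ τ u : ℝ} (h : τ ≤ u) : E08_G γ τ u = γ * u ^ (γ - 1) := by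
  unfold E08_G; rw [max_eq_left h, min_eq_right h]; ring

theorem E08_G_le {γ τ u : ℝ} (h : u ≤ τ) :
    E08_G γ τ u = γ * τ ^ (γ - 1) + (1 - γ) * τ ^ (γ - 2) * (τ - u) := by
  unfold E08_G; rw [max_eq_right h, min_eq_left h]

theorem E08_pow {γ τ : ℝ} (hτ : 0 < τ) : τ ^ (γ - 2) * τ = τ ^ (γ - 1) := by
  have := Real.rpow_add hτ (γ - 2) 1
  rw [Real.rpow_one] at this
  rw [← this]; congr 1; ring

theorem E08_pow' {γ τ : ℝ} (hτ : 0 < τ) : τ ^ (γ - 1) * τ = τ ^ γ := by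
  have := Real.rpow_add hτ (γ - 1) 1
  rw [Real.rpow_one] at this
  rw [← this]; congr 1; ring

/-- the chord inequality: `τ^γ - γ τ^{γ-1}(τ-u) - (1-γ) τ^{γ-2} (τ-u)² ≤ u^γ` -/
theorem E08_chord {γ τ u : ℝ} (hγ0 : 0 < γ) (hγ : γ ≤ 1) (hτ : 0 < τ) (hu : 0 ≤ u) (huτ : u ≤ τ) :
    τ ^ γ - E08_G γ τ u * (τ - u) ≤ u ^ γ := by
  rw [E08_G_le huτ]
  rcases hu.eq_or_lt with h0 | h0
  · subst h0
    rw [Real.zero_rpow hγ0.ne']
    have h1 := E08_pow (γ := γ) hτ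
    have h2 := E08_pow' (γ := γ) hτ
    have : τ ^ γ - (γ * τ ^ (γ - 1) + (1 - γ) * τ ^ (γ - 2) * (τ - 0)) * (τ - 0) = 0 := by
      have e : (γ * τ ^ (γ - 1) + (1 - γ) * τ ^ (γ - 2) * (τ - 0)) * (τ - 0) =
        γ * (τ ^ (γ - 1) * τ) + (1 - γ) * ((τ ^ (γ - 2) * τ) * τ) := by ring
      rw [e, h1, h2]; ring
    exact this.le
  · -- Bernoulli: `u^{1-γ} ≤ τ^{1-γ} + (1-γ) τ^{-γ} (u - τ)`
    have hb := T46_bern_le (γ := 1 - γ) (by linarith) (by linarith) hτ h0.le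
    have hu1 : 0 < u ^ γ := Real.rpow_pos_of_pos h0 γ
    have ht1 : 0 < τ ^ γ := Real.rpow_pos_of_pos hτ γ
    have e1 : u ^ (1 - γ) = u / u ^ γ := by rw [Real.rpow_sub h0, Real.rpow_one]
    have e2 : τ ^ (1 - γ - 1) = (τ ^ γ)⁻¹ := by
      rw [show (1 - γ - 1 : ℝ) = -γ by ring, Real.rpow_neg hτ.le]
    have e3 : τ ^ (1 - γ) = τ / τ ^ γ := by rw [Real.rpow_sub hτ, Real.rpow_one]
    have e4 : τ ^ (γ - 1) = τ ^ γ / τ := by rw [Real.rpow_sub hτ, Real.rpow_one]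
    have e5 : τ ^ (γ - 2) = τ ^ γ / τ ^ 2 := by
      rw [Real.rpow_sub hτ]; norm_cast
    rw [e1, e2, e3] at hb
    set T := τ ^ γ with hT
    set U := u ^ γ with hU
    have hb2 : T * u ≤ U * (τ - (1 - γ) * (τ - u)) := by
      have : u / U ≤ (τ - (1 - γ) * (τ - u)) / T := by
        refine hb.trans (le_of_eq ?_)
        field_simp
        ring
      rw [div_le_div_iff₀ hu1 ht1] at this
      linarith
    have hab : 0 ≤ (1 - γ) * (τ - u) := mul_nonneg (by linarith) (by linarith)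
    have hb3 : T * u * (τ + (1 - γ) * (τ - u)) ≤ U * τ ^ 2 := by
      have h3 := mul_le_mul_of_nonneg_right hb2
        (show 0 ≤ τ + (1 - γ) * (τ - u) by linarith)
      have h4 : U * (τ - (1 - γ) * (τ - u)) * (τ + (1 - γ) * (τ - u)) =
        U * τ ^ 2 - U * ((1 - γ) * (τ - u)) ^ 2 := by ring
      have h5 : 0 ≤ U * ((1 - γ) * (τ - u)) ^ 2 := by positivity
      linarith
    rw [e4, e5]
    have h6 : T - (γ * (T / τ) + (1 - γ) * (T / τ ^ 2) * (τ - u)) * (τ - u) =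
        T * u * (τ + (1 - γ) * (τ - u)) / τ ^ 2 := by
      field_simp
      ring
    rw [h6, div_le_iff₀ (by positivity)]
    exact hb3

theorem E08_G_lower {γ τ u : ℝ} (hγ : γ ≤ 1) (hτ : 0 < τ) (hu : u ≤ τ) :
    γ * τ ^ (γ - 1) ≤ E08_G γ τ u := by
  rw [E08_G_le hu]
  have : 0 ≤ (1 - γ) * τ ^ (γ - 2) * (τ - u) :=
    mul_nonneg (mul_nonneg (by linarith) (Real.rpow_nonneg hτ.le _)) (by linarith)
  linarith

/-- pointwise Klein inequality -/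
theorem E08_klein {γ τ u X : ℝ} (hγ0 : 0 < γ) (hγ : γ ≤ 1) (hτ : 0 < τ) (hu : 0 ≤ u)
    (hX : τ ≤ X) : X ^ γ ≤ u ^ γ + E08_G γ τ u * (X - u) := by
  rcases le_total τ u with h | h
  · rw [E08_G_ge h]
    exact T46_bern_le hγ0.le hγ (lt_of_lt_of_le hτ h) (hτ.le.trans hX)
  · have h1 := T46_bern_le hγ0.le hγ hτ (hτ.le.trans hX)
    have h2 := E08_chord hγ0 hγ hτ hu h
    have h3 := mul_le_mul_of_nonneg_right (E08_G_lower hγ hτ h) (show 0 ≤ X - τ by linarith)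
    have h4 : E08_G γ τ u * (X - u) = E08_G γ τ u * (X - τ) + E08_G γ τ u * (τ - u) := by ring
    rw [h4]
    linarith

theorem E08_G_pos {γ τ u : ℝ} (hγ0 : 0 < γ) (hγ : γ ≤ 1) (hτ : 0 < τ) : 0 < E08_G γ τ u := by
  rcases le_total τ u with h | h
  · rw [E08_G_ge h]
    have := Real.rpow_pos_of_pos (lt_of_lt_of_le hτ h) (γ - 1)
    positivity
  · have := Real.rpow_pos_of_pos hτ (γ - 1)
    exact lt_of_lt_of_le (by positivity) (E08_G_lower hγ hτ h)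

theorem E08_G_upper {γ τ u : ℝ} (hγ0 : 0 < γ) (hγ : γ ≤ 1) (hτ : 0 < τ) (hu : 0 ≤ u) :
    E08_G γ τ u ≤ τ ^ (γ - 1) := by
  have hp := Real.rpow_pos_of_pos hτ (γ - 1)
  rcases le_total τ u with h | h
  · rw [E08_G_ge h]
    have h1 : u ^ (γ - 1) ≤ τ ^ (γ - 1) := Real.rpow_le_rpow_of_nonpos hτ h (by linarith)
    have h2 := Real.rpow_pos_of_pos (lt_of_lt_of_le hτ h) (γ - 1)
    nlinarith
  · rw [E08_G_le h]
    have h1 := E08_pow (γ := γ) hτ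
    have h2 : (1 - γ) * τ ^ (γ - 2) * (τ - u) ≤ (1 - γ) * τ ^ (γ - 2) * τ :=
      mul_le_mul_of_nonneg_left (by linarith)
        (mul_nonneg (by linarith) (Real.rpow_nonneg hτ.le _))
    have h3 : (1 - γ) * τ ^ (γ - 2) * τ = (1 - γ) * τ ^ (γ - 1) := by rw [mul_assoc, h1]
    rw [h3] at h2
    linarith

theorem E08_G_lower' {γ τ u B : ℝ} (hγ0 : 0 < γ) (hγ : γ ≤ 1) (hτ : 0 < τ) (hu : u ≤ B)
    (hB : τ ≤ B) : γ * B ^ (γ - 1) ≤ E08_G γ τ u := by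
  rcases le_total τ u with h | h
  · rw [E08_G_ge h]
    exact mul_le_mul_of_nonneg_left
      (Real.rpow_le_rpow_of_nonpos (lt_of_lt_of_le hτ h) hu (by linarith)) hγ0.le
  · refine le_trans ?_ (E08_G_lower hγ hτ h)
    exact mul_le_mul_of_nonneg_left (Real.rpow_le_rpow_of_nonpos hτ hB (by linarith)) hγ0.le

theorem E08_G_cont {γ τ : ℝ} (hτ : 0 < τ) : Continuous fun u => E08_G γ τ u := by
  unfold E08_G
  refine Continuous.add ?_ (by fun_prop)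
  refine continuous_const.mul ?_
  refine Continuous.rpow_const (by fun_prop) fun u => Or.inl ?_
  exact (lt_of_lt_of_le hτ (le_max_right _ _)).ne'

theorem E08_psd_cfc {N : ℕ} {A : Mt N} (hA : A.IsHermitian) {f : ℝ → ℝ}
    (hf : ∀ i, 0 ≤ f (hA.eigenvalues i)) : (cfc f A).PosSemidef := by
  rw [_root_.LT.cfc_eq_conj hA]
  refine Matrix.PosSemidef.mul_mul_conjTranspose_same ?_ _
  refine Matrix.PosSemidef.diagonal ?_
  intro i
  simpa using hf i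

theorem E08_klein_mat {N : ℕ} {γ τ : ℝ} (hγ0 : 0 < γ) (hγ : γ ≤ 1) (hτ : 0 < τ) {K : Mt N}
    (hK : K.PosSemidef) {κ : Fin N → ℝ} (hκ : ∀ j, 0 < κ j) (hκτ : ∀ j, τ ≤ κ j ^ 2) :
    ∑ j, κ j ^ (2 * γ) +
        tr (cfc (fun t : ℝ => E08_G γ τ (t ^ 2)) K *
          (K * K - Matrix.diagonal fun j => ((κ j ^ 2 : ℝ) : ℂ))) ≤
      tr (cfc (fun t : ℝ => t ^ (2 * γ)) K) := by
  have hDH := T46_diag_herm κ
  set D : Mt N := Matrix.diagonal fun j => ((κ j : ℝ) : ℂ) with hD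
  set w : ℝ → ℝ := fun t : ℝ => E08_G γ τ (t ^ 2) with hw
  let f : Fin 4 → ℝ → ℝ := ![fun y => y ^ (2 * γ), fun y => w y * y ^ 2,
    fun _ => 1, w]
  let g : Fin 4 → ℝ → ℝ := ![fun _ => 1, fun _ => -1, fun x => -x ^ (2 * γ),
    fun x => x ^ 2]
  have h := klein_general hK.1 hDH f g (by
    intro y hy x hx
    obtain ⟨j, rfl⟩ := T46_spec_diag κ hx
    have hy0 := T46_spec_nonneg hK hy
    have hx0 := hκ j
    have hb := E08_klein hγ0 hγ hτ (u := y ^ 2) (X := κ j ^ 2) (by positivity) (hκτ j)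
    rw [← T46_pow2 hx0.le, ← T46_pow2 hy0] at hb
    simp only [f, g, Fin.sum_univ_four, Matrix.cons_val_zero, Matrix.cons_val_one,
      Matrix.cons_val, hw]
    linarith)
  simp only [f, g, Fin.sum_univ_four, Matrix.cons_val_zero, Matrix.cons_val_one,
      Matrix.cons_val] at h
  have hDs : IsSelfAdjoint D := hDH
  have hKs : IsSelfAdjoint K := hK.1
  have c1 : cfc (fun _ : ℝ => (-1 : ℝ)) D = -1 := by
    rw [T46_cfc_diag]
    ext i j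
    by_cases hij : i = j
    · subst hij; simp
    · simp [hij]
  have c3 : cfc (fun y : ℝ => w y * y ^ 2) K = cfc w K * (K * K) := by
    rw [cfc_mul w (fun y => y ^ 2) K (T46_cont _ _) (T46_cont _ _), T46_sq hK.1]
  rw [cfc_const_one ℝ D hDs, cfc_const_one ℝ K hKs, one_mul, mul_one, c1, c3,
    T46_cfc_diag, T46_cfc_diag, T46_tr_diag] at h
  rw [mul_sub, T46_tr_sub]
  have e6 : tr (cfc w K * (K * K) * (-1 : Mt N)) = -tr (cfc w K * (K * K)) := by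
    simp [tr, Matrix.trace_neg]
  rw [e6, Finset.sum_neg_distrib] at h
  linarith

/-- the case `γ < 1` -/
theorem E08_lt_one {γ κ₀ κ₁ : ℝ} (hγ0 : 0 < γ) (hγ : γ ≤ 1) (h0 : 0 < κ₀) (h01 : κ₀ ≤ κ₁) :
    ∃ c₀ C₀ : ℝ, 0 < c₀ ∧ 0 < C₀ ∧ ∀ (N : ℕ) (κ : Fin N → ℝ), (∀ j, κ₀ ≤ κ j) → (∀ j, κ j ≤ κ₁) →
      ∃ 𝒢 : Mt N → Mt N, Weight γ κ κ₁ c₀ C₀ 𝒢 := by
  set τ := κ₀ ^ 2 with hτdef
  have hτ : 0 < τ := by positivity
  have hB : τ ≤ κ₁ ^ 2 := by rw [hτdef]; exact pow_le_pow_left₀ h0.le h01 2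
  have hB0 : 0 < κ₁ ^ 2 := lt_of_lt_of_le hτ hB
  refine ⟨Real.sqrt (γ * (κ₁ ^ 2) ^ (γ - 1)), Real.sqrt (τ ^ (γ - 1)), ?_, ?_, ?_⟩
  · have := Real.rpow_pos_of_pos hB0 (γ - 1)
    positivity
  · have := Real.rpow_pos_of_pos hτ (γ - 1)
    positivity
  intro N κ hκ0 hκ1
  set h : ℝ → ℝ := fun t => Real.sqrt (E08_G γ τ (t ^ 2)) with hh
  refine ⟨fun K => cfc h K, ?_, ?_, ?_, ?_, ?_⟩
  · -- continuity
    refine continuousOn_cfc_param (f := fun _ => h) (t := univ) continuousOn_id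
      (fun K hK => hK.1) isOpen_univ ?_ (fun K _ => subset_univ _)
    refine Continuous.continuousOn ?_
    exact Real.continuous_sqrt.comp ((E08_G_cont hτ).comp (by fun_prop))
  · intro K hK
    exact E08_psd_cfc hK.1 fun i => Real.sqrt_nonneg _
  · intro K hK
    rw [T10_csmul, ← _root_.LT.cfc_const_eq hK.1, _root_.LT.cfc_sub_eq hK.1]
    refine E08_psd_cfc hK.1 fun i => ?_
    have := Real.sqrt_le_sqrt (E08_G_upper hγ0 hγ hτ (u := (hK.1.eigenvalues i) ^ 2) (by positivity))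
    simp only [hh]
    linarith
  · intro K hK hK1
    have hK1' : (κ₁ • (1 : Mt N) - K).PosSemidef := by rw [← T10_csmul]; exact hK1
    rw [T10_csmul, ← _root_.LT.cfc_const_eq hK.1, _root_.LT.cfc_sub_eq hK.1]
    refine E08_psd_cfc hK.1 fun i => ?_
    have hi := T10_eig_le hK.1 hK1' i
    have hi0 := hK.eigenvalues_nonneg i
    have hsq : (hK.1.eigenvalues i) ^ 2 ≤ κ₁ ^ 2 := pow_le_pow_left₀ hi0 hi 2
    have := Real.sqrt_le_sqrt (E08_G_lower' hγ0 hγ hτ hsq hB)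
    simp only [hh]
    linarith
  · intro K hK
    have e1 : cfc h K * cfc h K = cfc (fun t : ℝ => E08_G γ τ (t ^ 2)) K := by
      rw [_root_.LT.cfc_mul_eq hK.1]
      congr 1
      funext t
      exact Real.mul_self_sqrt (E08_G_pos hγ0 hγ hτ).le
    have e2 := E08_klein_mat hγ0 hγ hτ hK (κ := κ) (fun j => lt_of_lt_of_le h0 (hκ0 j))
      (fun j => by rw [hτdef]; exact pow_le_pow_left₀ h0.le (hκ0 j) 2)
    show ∑ j, κ j ^ (2 * γ) + tr (cfc h K * cfc h K * (K * K - dg fun j => κ j ^ 2)) ≤ _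
    rw [e1]
    exact e2

/-- the case `γ ≥ 1` -/
theorem E08_ge_one {γ κ₀ κ₁ : ℝ} (hγ : 1 ≤ γ) (h0 : 0 < κ₀) (h01 : κ₀ ≤ κ₁) :
    ∃ c₀ C₀ : ℝ, 0 < c₀ ∧ 0 < C₀ ∧ ∀ (N : ℕ) (κ : Fin N → ℝ), (∀ j, κ₀ ≤ κ j) → (∀ j, κ j ≤ κ₁) →
      ∃ 𝒢 : Mt N → Mt N, Weight γ κ κ₁ c₀ C₀ 𝒢 := by
  have hγ0 : 0 < γ := by linarith
  have h1 : 0 < κ₁ := lt_of_lt_of_le h0 h01
  refine ⟨Real.sqrt γ * κ₀ ^ (γ - 1), Real.sqrt γ * κ₁ ^ (γ - 1), ?_, ?_, ?_⟩
  · have := Real.rpow_pos_of_pos h0 (γ - 1)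
    positivity
  · have := Real.rpow_pos_of_pos h1 (γ - 1)
    positivity
  intro N κ hκ0 hκ1
  have hκ : ∀ j, 0 < κ j := fun j => lt_of_lt_of_le h0 (hκ0 j)
  set G : Mt N := Matrix.diagonal fun j => ((Real.sqrt γ * κ j ^ (γ - 1) : ℝ) : ℂ) with hG
  have hsub : ∀ (c : ℝ), (((c : ℝ) : ℂ) • (1 : Mt N) - G) =
      Matrix.diagonal fun j => ((c - Real.sqrt γ * κ j ^ (γ - 1) : ℝ) : ℂ) := by
    intro c
    ext i j
    by_cases hij : i = j
    · subst hij; simp [hG]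
    · simp [hG, hij]
  have hsub' : ∀ (c : ℝ), (G - ((c : ℝ) : ℂ) • (1 : Mt N)) =
      Matrix.diagonal fun j => ((Real.sqrt γ * κ j ^ (γ - 1) - c : ℝ) : ℂ) := by
    intro c
    ext i j
    by_cases hij : i = j
    · subst hij; simp [hG]
    · simp [hG, hij]
  have hpsd : ∀ a : Fin N → ℝ, (∀ j, 0 ≤ a j) →
      (Matrix.diagonal fun j => ((a j : ℝ) : ℂ) : Mt N).PosSemidef := by
    intro a ha
    refine Matrix.PosSemidef.diagonal fun i => ?_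
    simpa using ha i
  have hs : 0 ≤ Real.sqrt γ := Real.sqrt_nonneg _
  refine ⟨fun _ => G, continuousOn_const, ?_, ?_, ?_, ?_⟩
  · intro K _
    exact hpsd _ fun j => mul_nonneg hs (Real.rpow_nonneg (hκ j).le _)
  · intro K _
    rw [hsub]
    refine hpsd _ fun j => ?_
    have := Real.rpow_le_rpow (hκ j).le (hκ1 j) (show 0 ≤ γ - 1 by linarith)
    have := mul_le_mul_of_nonneg_left this hs
    linarith
  · intro K _ _
    show (G - _).PosSemidef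
    rw [hsub']
    refine hpsd _ fun j => ?_
    have := Real.rpow_le_rpow h0.le (hκ0 j) (show 0 ≤ γ - 1 by linarith)
    have := mul_le_mul_of_nonneg_left this hs
    linarith
  · intro K hK
    have e1 : G * G = Matrix.diagonal (fun j => ((γ * κ j ^ (2 * γ - 2) : ℝ) : ℂ)) := by
      rw [hG, Matrix.diagonal_mul_diagonal]
      congr 1
      funext j
      rw [← Complex.ofReal_mul]
      congr 1
      have e2 : κ j ^ (γ - 1) * κ j ^ (γ - 1) = κ j ^ (2 * γ - 2) := by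
        rw [← Real.rpow_add (hκ j)]; congr 1; ring
      have e3 := Real.mul_self_sqrt hγ0.le
      calc Real.sqrt γ * κ j ^ (γ - 1) * (Real.sqrt γ * κ j ^ (γ - 1))
          = (Real.sqrt γ * Real.sqrt γ) * (κ j ^ (γ - 1) * κ j ^ (γ - 1)) := by ring
        _ = _ := by rw [e2, e3]
    show ∑ j, κ j ^ (2 * γ) + tr (G * G * (K * K - dg fun j => κ j ^ 2)) ≤ _
    rw [e1]
    exact klein_ge_one hγ hK hκ

theorem exists_weight {γ κ₀ κ₁ : ℝ} (hγ : 1 / 2 < γ) (hγ' : γ < 3 / 2) (h0 : 0 < κ₀) (h01 : κ₀ ≤ κ₁) :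
    ∃ c₀ C₀ : ℝ, 0 < c₀ ∧ 0 < C₀ ∧ ∀ (N : ℕ) (κ : Fin N → ℝ), (∀ j, κ₀ ≤ κ j) → (∀ j, κ j ≤ κ₁) →
      ∃ 𝒢 : Mt N → Mt N, Weight γ κ κ₁ c₀ C₀ 𝒢 := by
  rcases le_total γ 1 with h | h
  · exact E08_lt_one (by linarith) h h0 h01
  · exact E08_ge_one h h0 h01

end Crest.Agent.LT
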