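import Crest.Agent.LTE_Defs
import Crest.Agent.LT_T01
import Crest.Agent.LT_T43
/-!
Task LTE-E10: sorted diagonalization and unitary covariance; rank and trace bounds for `VK`.
(`VK` is a function of `P = Ψ^*Ψ` vanishing at `0`, so its rank is at most `rank P ≤ m`; a positive matrix of rank `≤ m` with
`tr V^p ≤ w^p` has at most `m` nonzero eigenvalues, all `≤ w`.)
-/

set_option autoImplicit false

namespace Crest.Agent.LT

open MeasureTheory Matrix Set Filter
open Crest.MathPhysics.LiebThirring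
open scoped ComplexOrder Topology

theorem exists_sorted_diag {N : ℕ} {K : Mt N} (hK : K.PosSemidef) :
    ∃ (U : Mt N) (k : Fin N → ℝ), Uᴴ * U = 1 ∧ U * Uᴴ = 1 ∧ Antitone k ∧ (∀ j, 0 ≤ k j) ∧
      Uᴴ * K * U = dg k := by
  have hH := hK.1
  set U₀ : Mt N := (hH.eigenvectorUnitary : Mt N) with hU₀
  have h1 : U₀ᴴ * U₀ = 1 := _root_.LT.U_conj_mul hH
  have h2 : U₀ * U₀ᴴ = 1 := _root_.LT.U_mul_conj hH
  have h3 : U₀ᴴ * K * U₀ = Matrix.diagonal fun i => ((hH.eigenvalues i : ℝ) : ℂ) := by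
    have h4 := _root_.LT.cfc_eq_conj hH (fun x => x)
    rw [_root_.LT.cfc_id_eq hH] at h4
    have h5 : U₀ᴴ * K * U₀ = U₀ᴴ * (U₀ * (Matrix.diagonal fun i => ((hH.eigenvalues i : ℝ) : ℂ)) *
        U₀ᴴ) * U₀ := by
      rw [← h4]
    rw [h5]
    calc U₀ᴴ * (U₀ * (Matrix.diagonal fun i => ((hH.eigenvalues i : ℝ) : ℂ)) * U₀ᴴ) * U₀
        = (U₀ᴴ * U₀) * (Matrix.diagonal fun i => ((hH.eigenvalues i : ℝ) : ℂ)) * (U₀ᴴ * U₀) := by
          simp only [mul_assoc]
      _ = _ := by rw [h1, one_mul, mul_one]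
  set σ : Equiv.Perm (Fin N) := Tuple.sort fun i => -hH.eigenvalues i with hσ
  have hmono : Monotone ((fun i => -hH.eigenvalues i) ∘ σ) := Tuple.monotone_sort _
  refine ⟨U₀.submatrix id σ, fun j => hH.eigenvalues (σ j), ?_, ?_, ?_, ?_, ?_⟩
  · have : (U₀.submatrix id σ)ᴴ * U₀.submatrix id σ = (U₀ᴴ * U₀).submatrix σ σ := by
      ext i j
      simp [Matrix.mul_apply, Matrix.submatrix_apply]
    rw [this, h1]
    ext i j
    simp [Matrix.one_apply]
  · have : U₀.submatrix id σ * (U₀.submatrix id σ)ᴴ = U₀ * U₀ᴴ := by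
      ext i j
      simp only [Matrix.mul_apply, Matrix.submatrix_apply, Matrix.conjTranspose_apply, id]
      exact Equiv.sum_comp σ (fun k => U₀ i k * star (U₀ j k))
    rw [this, h2]
  · intro i j hij
    have := hmono hij
    simp only [Function.comp_apply, neg_le_neg_iff] at this
    exact this
  · intro j
    exact hK.eigenvalues_nonneg _
  · have : (U₀.submatrix id σ)ᴴ * K * U₀.submatrix id σ = (U₀ᴴ * K * U₀).submatrix σ σ := by
      ext i j
      simp [Matrix.mul_apply, Matrix.submatrix_apply]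
    rw [this, h3]
    ext i j
    simp [dg, Matrix.diagonal_apply]

theorem E10_conj_mul {N : ℕ} {U A B : Mt N} (hU' : U * Uᴴ = 1) :
    (Uᴴ * A * U) * (Uᴴ * B * U) = Uᴴ * (A * B) * U := by
  calc (Uᴴ * A * U) * (Uᴴ * B * U) = Uᴴ * A * (U * Uᴴ) * B * U := by simp only [mul_assoc]
    _ = _ := by rw [hU', mul_one]; simp only [mul_assoc]

theorem E10_entry_deriv {N : ℕ} {F : ℝ → Mt N} {F' : Mt N} {x : ℝ} (h : HasDerivAt F F' x)
    (i j : Fin N) : HasDerivAt (fun y => F y i j) (F' i j) x := by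
  have h1 : HasDerivAt (fun y => F y i) (F' i) x := (hasDerivAt_pi (φ := F) (φ' := F')).1 h i
  exact (hasDerivAt_pi (φ := fun y => F y i) (φ' := F' i)).1 h1 j

theorem E10_conj_deriv {N : ℕ} {F : ℝ → Mt N} {F' : Mt N} {x : ℝ} (h : HasDerivAt F F' x)
    (A B : Mt N) : HasDerivAt (fun y => A * F y * B) (A * F' * B) x := by
  refine (hasDerivAt_pi (φ := fun y => A * F y * B) (φ' := A * F' * B)).2 fun i => ?_
  refine (hasDerivAt_pi (φ := fun y => (A * F y * B) i) (φ' := (A * F' * B) i)).2 fun j => ?_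
  simp only [Matrix.mul_apply]
  refine HasDerivAt.fun_sum fun l _ => HasDerivAt.mul_const ?_ _
  exact HasDerivAt.fun_sum fun l' _ => (E10_entry_deriv h l' l).const_mul _

theorem E10_conj_cont {N : ℕ} {F : ℝ → Mt N} {s : Set ℝ} (h : ContinuousOn F s)
    (A B : Mt N) : ContinuousOn (fun y => A * F y * B) s := by
  have hc : Continuous fun X : Mt N => A * X * B := by fun_prop
  exact hc.comp_continuousOn h

theorem Riccati.conj {N : ℕ} {R : ℝ} {K : Mt N} {F V : ℝ → Mt N} (h : Riccati R K F V) {U : Mt N}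
    (hU : Uᴴ * U = 1) (hU' : U * Uᴴ = 1) :
    Riccati R (Uᴴ * K * U) (fun x => Uᴴ * F x * U) (fun x => Uᴴ * V x * U) where
  hR := h.hR
  contV := E10_conj_cont h.contV _ _
  Vpsd := fun x hx => (h.Vpsd x hx).conjTranspose_mul_mul_same U
  adm := fun x hx =>
    ⟨by
      have := (h.adm x hx).sub.conjTranspose_mul_mul_same U
      rwa [mul_sub, sub_mul] at this,
    by
      have := (h.adm x hx).add.conjTranspose_mul_mul_same U
      rwa [mul_add, add_mul] at this⟩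
  contF := E10_conj_cont h.contF _ _
  deriv := fun x hx => by
    have h1 := E10_conj_deriv (h.deriv x hx) Uᴴ U
    have h2 : Uᴴ * (K * K - F x * F x - V x) * U =
        Uᴴ * K * U * (Uᴴ * K * U) - Uᴴ * F x * U * (Uᴴ * F x * U) - Uᴴ * V x * U := by
      rw [E10_conj_mul hU', E10_conj_mul hU', mul_sub, mul_sub, sub_mul, sub_mul]
    rw [h2] at h1
    exact h1
  left := by rw [h.left]
  right := by rw [h.right]; simp

theorem tr_cfc_conj {N : ℕ} {U A : Mt N} (hU : Uᴴ * U = 1) (hU' : U * Uᴴ = 1) (hA : A.IsHermitian)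
    (f : ℝ → ℝ) : tr (cfc f (Uᴴ * A * U)) = tr (cfc f A) := by
  have hB : (Uᴴ * A * U).IsHermitian := isHermitian_conjTranspose_mul_mul U hA
  rw [tr_cfc hA, tr_cfc hB]
  have h1 : (Uᴴ * A * U).charpoly = A.charpoly := by
    rw [mul_assoc, Matrix.charpoly_mul_comm, mul_assoc, hU', mul_one]
  have h2 : hB.eigenvalues = hA.eigenvalues := (IsHermitian.eigenvalues_eq_eigenvalues_iff hB hA).2 h1
  rw [h2]

theorem E10_tr_conj {N : ℕ} {U A : Mt N} (hU' : U * Uᴴ = 1) : tr (Uᴴ * A * U) = tr A := by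
  rw [T01_tr_comm, ← mul_assoc, hU', one_mul]

theorem E10_hs2_conj {N : ℕ} {U A : Mt N} (hU' : U * Uᴴ = 1) : hs2 (Uᴴ * A * U) = hs2 A := by
  rw [hs2_eq_tr, hs2_eq_tr]
  have : (Uᴴ * A * U)ᴴ * (Uᴴ * A * U) = Uᴴ * (Aᴴ * A) * U := by
    rw [conjTranspose_mul, conjTranspose_mul, conjTranspose_conjTranspose, ← mul_assoc Uᴴ,
      E10_conj_mul hU']
  rw [this, E10_tr_conj hU']

theorem hjErr_conj {N : ℕ} {α : ℝ} {U K F V : Mt N} (hU : Uᴴ * U = 1) (hU' : U * Uᴴ = 1) :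
    hjErr α (Uᴴ * K * U) (Uᴴ * F * U) (Uᴴ * V * U) = hjErr α K F V := by
  unfold hjErr vErr
  rw [E10_conj_mul hU' (A := K) (B := K), E10_conj_mul hU', E10_conj_mul hU', E10_conj_mul hU',
    ← sub_mul, ← mul_sub, E10_hs2_conj hU', E10_tr_conj hU', ← sub_mul, ← mul_sub]
  have : Uᴴ * V * U - ((1 / α + 1 : ℝ) : ℂ) • (Uᴴ * (K * K - F * F) * U) =
      Uᴴ * (V - ((1 / α + 1 : ℝ) : ℂ) • (K * K - F * F)) * U := by
    rw [mul_sub Uᴴ V, sub_mul (Uᴴ * V), Matrix.mul_smul, Matrix.smul_mul]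
  rw [this, E10_hs2_conj hU']

theorem E10_hs2_nonneg {m N : ℕ} (A : Matrix (Fin m) (Fin N) ℂ) : 0 ≤ hs2 A :=
  Finset.sum_nonneg fun i _ => Finset.sum_nonneg fun j _ => sq_nonneg _

theorem E10_tr_nonneg {N : ℕ} {V : Mt N} (hV : V.PosSemidef) : 0 ≤ tr V := by
  have h := hV.trace_nonneg
  exact (Complex.nonneg_iff.1 h).1

theorem hjErr_nonneg {N : ℕ} {α : ℝ} {K F V : Mt N} (hV : V.PosSemidef) : 0 ≤ hjErr α K F V := by
  unfold hjErr
  have h1 := E10_hs2_nonneg (K * K * F - F * (K * K))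
  have h2 := E10_hs2_nonneg (vErr α K F V)
  have h3 := E10_tr_nonneg hV
  positivity

theorem E10_rank_cfc_le {N : ℕ} {A : Mt N} (hA : A.IsHermitian) (f : ℝ → ℝ) (hf : f 0 = 0) :
    (cfc f A).rank ≤ A.rank := by
  rw [_root_.LT.cfc_eq_conj hA f, hA.rank_eq_rank_diagonal]
  refine (Matrix.rank_mul_le_left _ _).trans ((Matrix.rank_mul_le_right _ _).trans ?_)
  rw [Matrix.rank_diagonal, Matrix.rank_diagonal]
  refine Fintype.card_subtype_mono _ _ fun i hi h0 => hi ?_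
  rw [h0, hf]
  simp

theorem VK_rank_le {m N : ℕ} {r w δ : ℝ} (hr : 1 ≤ r) (φ : Fin N → ℝ → Vec m) (G : Mt N) (x : ℝ) :
    (VK r w δ (Pmat φ G x)).rank ≤ m := by
  have hP : (Pmat φ G x).IsHermitian := (Matrix.posSemidef_conjTranspose_mul_self _).1
  rw [T43_VK_eq hP]
  refine (E10_rank_cfc_le hP _ ?_).trans ?_
  · rw [Real.zero_rpow (by linarith), mul_zero]
  · unfold Pmat
    rw [Matrix.rank_conjTranspose_mul_self]
    exact (Matrix.rank_le_height _)

theorem tr_le_rank_mul {N m : ℕ} {V : Mt N} (hV : V.PosSemidef) (hrank : V.rank ≤ m) {p w : ℝ}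
    (hp : 0 < p) (hw : 0 ≤ w) (h : tr (cfc (fun t : ℝ => t ^ p) V) ≤ w ^ p) : tr V ≤ m * w := by
  rw [tr_cfc hV.1] at h
  have e0 : tr V = ∑ i, hV.1.eigenvalues i := by
    have := tr_cfc hV.1 (fun x => x)
    rwa [_root_.LT.cfc_id_eq hV.1] at this
  have h1 : ∀ i, hV.1.eigenvalues i ≤ w := by
    intro i
    have h2 : hV.1.eigenvalues i ^ p ≤ w ^ p :=
      (Finset.single_le_sum (f := fun i => hV.1.eigenvalues i ^ p)
        (fun j _ => Real.rpow_nonneg (hV.eigenvalues_nonneg j) _) (Finset.mem_univ i)).trans h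
    exact (Real.rpow_le_rpow_iff (hV.eigenvalues_nonneg i) hw hp).1 h2
  have hcard : V.rank = Fintype.card {i // hV.1.eigenvalues i ≠ 0} :=
    hV.1.rank_eq_card_non_zero_eigs
  rw [e0]
  have h3 : ∑ i, hV.1.eigenvalues i ≤ ∑ i, (if hV.1.eigenvalues i ≠ 0 then w else 0) := by
    refine Finset.sum_le_sum fun i _ => ?_
    split_ifs with h4
    · exact h1 i
    · push Not at h4
      rw [h4]
  refine h3.trans ?_
  rw [← Finset.sum_filter, Finset.sum_const, nsmul_eq_mul]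
  refine mul_le_mul_of_nonneg_right ?_ hw
  rw [Fintype.card_subtype] at hcard
  have : (Finset.univ.filter fun i => hV.1.eigenvalues i ≠ 0).card ≤ m := by
    rw [← hcard]; exact hrank
  exact_mod_cast this

end Crest.Agent.LT
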