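import Crest.Agent.LTE_Defs
import Crest.Agent.LTE_E05
import Crest.Agent.LTE_E07
import Crest.Agent.LTE_E08
import Crest.Agent.LTE_E10
import Crest.Agent.LT_T24
import Crest.Agent.LT_T25
import Crest.Agent.LT_T50

/-!
Common step of LTE-E09 and LTE-E21: all data of a near-optimal Riccati path with error bounds.
-/

set_option autoImplicit false

namespace Crest.Agent.LT

open MeasureTheory Matrix Set Filter
open Crest.MathPhysics.LiebThirring
open scoped ComplexOrder Topology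

theorem Good_eig_le {N : ℕ} {K : Mt N} (hK : K.PosSemidef) {s T : ℝ} (hs : 0 < s)
    (hT : tr (cfc (fun t : ℝ => t ^ s) K) ≤ T) (i : Fin N) : hK.1.eigenvalues i ≤ T ^ (1 / s) := by
  rw [tr_cfc hK.1] at hT
  have h1 : hK.1.eigenvalues i ^ s ≤ T := by
    refine le_trans ?_ hT
    exact Finset.single_le_sum (f := fun i => hK.1.eigenvalues i ^ s)
      (fun j _ => Real.rpow_nonneg (hK.eigenvalues_nonneg j) _) (Finset.mem_univ i)
  have h2 : (hK.1.eigenvalues i ^ s) ^ (1 / s) ≤ T ^ (1 / s) :=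
    Real.rpow_le_rpow (Real.rpow_nonneg (hK.eigenvalues_nonneg i) _) h1 (by positivity)
  rwa [← Real.rpow_mul (hK.eigenvalues_nonneg i), mul_one_div_cancel hs.ne', Real.rpow_one] at h2

theorem Good_smul_sub_posSemidef {N : ℕ} {K : Mt N} (hK : K.IsHermitian) {c : ℝ}
    (h : ∀ i, hK.eigenvalues i ≤ c) : (((c : ℝ) : ℂ) • (1 : Mt N) - K).PosSemidef := by
  have e : ((c : ℝ) : ℂ) • (1 : Mt N) - K = cfc (fun t : ℝ => c - t) K := by
    have h1 := _root_.LT.cfc_eq_conj hK (fun t : ℝ => c - t)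
    have h2 := _root_.LT.cfc_eq_conj hK (fun t : ℝ => t)
    rw [_root_.LT.cfc_id_eq hK] at h2
    have h3 := _root_.LT.cfc_eq_conj hK (fun _ : ℝ => c)
    have h4 : cfc (fun _ : ℝ => c) K = ((c : ℝ) : ℂ) • (1 : Mt N) := by
      rw [cfc_const c K hK.isSelfAdjoint, Algebra.algebraMap_eq_smul_one]
      ext i j
      simp [Matrix.smul_apply, Matrix.one_apply]
    have h5 : cfc (fun t : ℝ => c - t) K = cfc (fun _ : ℝ => c) K - cfc (fun t : ℝ => t) K :=
      cfc_sub (a := K) (fun _ : ℝ => c) (fun t : ℝ => t) (by fun_prop) (by fun_prop)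
    rw [h5, h4, _root_.LT.cfc_id_eq hK]
  rw [e]
  exact T50_cfc_posSemidef hK fun i => by linarith [h i]

/-- Output data of `good_step`. -/
structure GoodData {m N : ℕ} (γ : ℝ) (W : ℝ → Matrix (Fin m) (Fin m) ℂ) (φ : Fin N → ℝ → Vec m)
    (κ₁ c₀ C₀ B e η R₀ : ℝ) (w : ℝ → ℝ) (δ R : ℝ) (K G : Mt N) (F : ℝ → Mt N) : Prop where
  wcont : Continuous w
  wnonneg : ∀ x, 0 ≤ w x
  δpos : 0 < δ
  δle : δ ≤ η
  hR : R₀ ≤ R
  Kpsd : K.PosSemidef
  ric : Riccati R K F (fun x => VK (1 / (γ - 1 / 2)) (w x) δ (Pmat φ G x))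
  supp : ∀ k x, x ∉ Ioo (-R) R → φ k x = 0
  hwint : Integrable fun x => |w x - wzero W γ x| ^ (γ + 1 / 2)
  hw : (∫ x, |w x - wzero W γ x| ^ (γ + 1 / 2)) ≤ η
  Kle : (((κ₁ : ℝ) : ℂ) • (1 : Mt N) - K).PosSemidef
  Ktr : tr (cfc (fun t : ℝ => t ^ (2 * γ)) K) ≤ κ₁ ^ (2 * γ)
  Gpsd : G.PosSemidef
  Glower : (G - ((c₀ : ℝ) : ℂ) • (1 : Mt N)).PosSemidef
  Gupper : (((C₀ : ℝ) : ℂ) • (1 : Mt N) - G).PosSemidef
  err : ∫ x in (-R)..R, hjErr (γ - 1 / 2) K (F x) (VK (1 / (γ - 1 / 2)) (w x) δ (Pmat φ G x)) ≤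
    B * (e + η)
  defect : ∫ x in (-R)..R, ((w x) ^ (γ + 1 / 2) - tr (cfc (fun t : ℝ => t ^ (γ + 1 / 2))
    (VK (1 / (γ - 1 / 2)) (w x) δ (Pmat φ G x)))) ≤ B * (e + η)
  defect0 : 0 ≤ ∫ x in (-R)..R, ((w x) ^ (γ + 1 / 2) - tr (cfc (fun t : ℝ => t ^ (γ + 1 / 2))
    (VK (1 / (γ - 1 / 2)) (w x) δ (Pmat φ G x))))
  derr : ∫ x in (-R)..R, hs2 (dErr φ G F x) ≤ B * (e + η)
  herr : ∫ x in (-R)..R, hErr W γ φ G x ≤ B * (e + η)

theorem Good_VK_continuous {m N : ℕ} {r δ : ℝ} (hr : 1 ≤ r) (hδ : 0 < δ) {w : ℝ → ℝ}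
    (hw : Continuous w) {φ : Fin N → ℝ → Vec m} (hφ : IsTrialFamily φ) (G : Mt N) :
    Continuous fun x => VK r (w x) δ (Pmat φ G x) := by
  have h := continuousOn_VK (N := N) hr hδ hw hφ (𝒢 := fun _ => G) continuousOn_const
  have h2 : Continuous fun x : ℝ => ((0 : Mt N), x) := by fun_prop
  have h3 := h.comp_continuous h2 (fun x => ⟨Matrix.PosSemidef.zero, mem_univ _⟩)
  exact h3

theorem Good_trcfc_continuous {N : ℕ} {s : ℝ} (hs : 0 < s) {V : ℝ → Mt N} (hV : Continuous V)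
    (hVh : ∀ x, (V x).IsHermitian) : Continuous fun x => tr (cfc (fun t : ℝ => t ^ s) (V x)) := by
  have h1 : ContinuousOn (fun x : ℝ => cfc (fun t : ℝ => t ^ s) (V x)) univ :=
    continuousOn_cfc_param (f := fun _ t => t ^ s) (t := univ) hV.continuousOn (fun x _ => hVh x)
      isOpen_univ ((Real.continuous_rpow_const hs.le).comp continuous_snd).continuousOn
      (fun _ _ => subset_univ _)
  exact T44_continuous_tr.comp (continuousOn_univ.1 h1)

set_option maxHeartbeats 1600000 in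
theorem good_step {m : ℕ} {γ : ℝ} (hγ : 1 / 2 < γ) (hγ' : γ < 3 / 2)
    {W : ℝ → Matrix (Fin m) (Fin m) ℂ} (hW : ∀ i j, Measurable fun x => W x i j)
    (hWp : ∀ x, (W x).PosSemidef) (hWi : Integrable fun x => tracePow (W x) (γ + 1 / 2)) :
    ∃ κ₁ B : ℝ, 0 < κ₁ ∧ 0 ≤ B ∧ ∀ κ₀ : ℝ, 0 < κ₀ → ∃ c₀ C₀ : ℝ, 0 < c₀ ∧ 0 < C₀ ∧
      ∀ (N : ℕ) (φ : Fin N → ℝ → Vec m) (κ : Fin N → ℝ) (e η R₀ : ℝ), IsTrialFamily φ →
        (∀ j, κ₀ ≤ κ j) →
        energyMatrix W φ = Matrix.diagonal (fun j => ((-(κ j ^ 2) : ℝ) : ℂ)) →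
        sharpConst γ * (∫ x, tracePow (W x) (γ + 1 / 2)) - e ≤ ∑ j, κ j ^ (2 * γ) →
        0 ≤ e → 0 < η → η ≤ 1 →
        ∃ (w : ℝ → ℝ) (δ R : ℝ) (K G : Mt N) (F : ℝ → Mt N),
          GoodData γ W φ κ₁ c₀ C₀ B e η R₀ w δ R K G F := by
  set α : ℝ := γ - 1 / 2 with hα
  have hα0 : 0 < α := by rw [hα]; linarith
  have hα1 : α < 1 := by rw [hα]; linarith
  set I : ℝ := ∫ x, tracePow (W x) (γ + 1 / 2) with hI
  have hI0 : 0 ≤ I := integral_nonneg fun x => T50_tracePow_nonneg (hWp x) _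
  have hβ : 0 < beta α := beta_pos hα0
  set cα : ℝ := α ^ α / (1 + α) ^ (1 + α) with hcα
  have hcα0 : 0 < cα := by rw [hcα]; positivity
  set C : ℝ := sharpConst γ with hC
  have hCeq : C = cα / beta α := sharpConst_eq hγ
  have hC0 : 0 < C := by rw [hCeq]; positivity
  have hβC : beta α * C = cα := by rw [hCeq]; field_simp
  set κ₁ : ℝ := (C * (I + 1)) ^ (1 / (2 * γ)) + 1 with hκ₁
  have hγ0 : 0 < 2 * γ := by linarith
  have hκ₁0 : 0 < κ₁ := by rw [hκ₁]; positivity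
  obtain ⟨C', hC'0, hC'⟩ := hj_stability hα0 hα1 hκ₁0.le
  set B : ℝ := C' * (cα + beta α) + (1 + beta α / cα) + (C + 1) with hB
  have hB1 : 0 ≤ C' * (cα + beta α) := by positivity
  have hB2 : 0 ≤ 1 + beta α / cα := by positivity
  have hB3 : 0 ≤ C + 1 := by positivity
  refine ⟨κ₁, B, hκ₁0, by positivity, fun κ₀ hκ₀ => ?_⟩
  set κ₀' : ℝ := min κ₀ κ₁ with hκ₀'
  have hκ₀'0 : 0 < κ₀' := lt_min hκ₀ hκ₁0
  obtain ⟨c₀, C₀, hc₀, hC₀, hw⟩ := exists_weight hγ hγ' hκ₀'0 (min_le_right _ _)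
  refine ⟨c₀, C₀, hc₀, hC₀, fun N φ κ e η R₀ hφ hκ hE hnear he hη hη1 => ?_⟩
  have hκpos : ∀ j, 0 < κ j := fun j => hκ₀.trans_le (hκ j)
  have hsum := lt_diag hγ hγ' hW hWp hWi hφ hκpos hE
  have hκle : ∀ j, κ j ≤ κ₁ := by
    intro j
    have h1 : κ j ^ (2 * γ) ≤ C * (I + 1) := by
      have h2 : κ j ^ (2 * γ) ≤ ∑ j, κ j ^ (2 * γ) :=
        Finset.single_le_sum (f := fun j => κ j ^ (2 * γ))
          (fun j _ => Real.rpow_nonneg (hκpos j).le _) (Finset.mem_univ j)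
      nlinarith
    have h3 : (κ j ^ (2 * γ)) ^ (1 / (2 * γ)) ≤ (C * (I + 1)) ^ (1 / (2 * γ)) :=
      Real.rpow_le_rpow (Real.rpow_nonneg (hκpos j).le _) h1 (by positivity)
    rw [← Real.rpow_mul (hκpos j).le, mul_one_div_cancel hγ0.ne', Real.rpow_one] at h3
    rw [hκ₁]; linarith
  obtain ⟨𝒢, h𝒢⟩ := hw N κ (fun j => (min_le_left _ _).trans (hκ j)) hκle
  obtain ⟨w, δ, R, K, F, hwc, hw0, hδ, hδη, hR₀, hKp, hric, hsupp, hwint, hwη, hwpint, hwI, hsumm⟩ :=
    near_opt_step hγ hγ' hW hWp hWi hφ hE h𝒢 hη R₀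
  have hr1 : 1 ≤ 1 / α := by rw [le_div_iff₀ hα0]; linarith
  have hrr : (1 / α + 1) / (1 / α) = γ + 1 / 2 := by
    have h1 : (1 / α + 1) / (1 / α) = 1 + α := by field_simp
    rw [h1]; simp only [hα]; ring
  have h1α : (1 + α) = γ + 1 / 2 := by simp only [hα]; ring
  have h2α : 2 * α + 1 = 2 * γ := by simp only [hα]; ring
  have hcα' : cα = α ^ α / (γ + 1 / 2) ^ (γ + 1 / 2) := by rw [hcα, h1α]
  set G : Mt N := 𝒢 K with hG
  set V : ℝ → Mt N := fun x => VK (1 / α) (w x) δ (Pmat φ G x) with hV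
  have hPpsd : ∀ x, (Pmat φ G x).PosSemidef := fun x => Matrix.posSemidef_conjTranspose_mul_self _
  have hVpsd : ∀ x, (V x).PosSemidef := fun x => VK_posSemidef hr1 (hw0 x) hδ (hPpsd x)
  have hVc : Continuous V := Good_VK_continuous hr1 hδ hwc hφ G
  have hRpos : 0 < R := hric.hR
  have hRR : -R ≤ R := by linarith
  have hp0 : 0 < γ + 1 / 2 := by linarith
  have hVtr : ∀ x, tr (cfc (fun t : ℝ => t ^ (γ + 1 / 2)) (V x)) ≤ w x ^ (γ + 1 / 2) := by
    intro x
    have := VK_tr_rpow_le hr1 (hw0 x) hδ (hPpsd x)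
    rwa [hrr] at this
  have hcV : Continuous fun x => tr (cfc (fun t : ℝ => t ^ (γ + 1 / 2)) (V x)) :=
    Good_trcfc_continuous hp0 hVc fun x => (hVpsd x).1
  have hcw : Continuous fun x => w x ^ (γ + 1 / 2) := hwc.rpow_const fun x => Or.inr hp0.le
  set J : ℝ := ∫ x in (-R)..R, tr (cfc (fun t : ℝ => t ^ (γ + 1 / 2)) (V x)) with hJ
  have hsplit : ∫ x in (-R)..R, ((w x) ^ (γ + 1 / 2) - tr (cfc (fun t : ℝ => t ^ (γ + 1 / 2)) (V x)))
      = (∫ x in (-R)..R, w x ^ (γ + 1 / 2)) - J := by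
    rw [hJ, intervalIntegral.integral_sub (hcw.intervalIntegrable _ _) (hcV.intervalIntegrable _ _)]
  have hdef0 : 0 ≤ ∫ x in (-R)..R,
      ((w x) ^ (γ + 1 / 2) - tr (cfc (fun t : ℝ => t ^ (γ + 1 / 2)) (V x))) :=
    intervalIntegral.integral_nonneg hRR fun x _ => by linarith [hVtr x]
  have hwI' := abs_le.1 hwI
  set T : ℝ := tr (cfc (fun t : ℝ => t ^ (2 * γ)) K) with hT
  have hHJ := hj_total hα0 hα1 hric
  rw [h2α, h1α] at hHJ
  have hHJ' : beta α * T ≤ cα * J := by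
    rw [hcα']; exact hHJ
  have hJle : J ≤ I + η := by linarith [hwI'.2]
  have hTle : T ≤ C * (I + η) := by
    have h1 : beta α * T ≤ beta α * (C * (I + η)) := by
      calc beta α * T ≤ cα * J := hHJ'
        _ ≤ cα * (I + η) := mul_le_mul_of_nonneg_left hJle hcα0.le
        _ = beta α * (C * (I + η)) := by rw [← hβC]; ring
    exact le_of_mul_le_mul_left h1 hβ
  have hTle1 : T ≤ C * (I + 1) := hTle.trans (by
    have : I + η ≤ I + 1 := by linarith
    exact mul_le_mul_of_nonneg_left this hC0.le)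
  have hderr0 : 0 ≤ ∫ x in (-R)..R, hs2 (dErr φ G F x) :=
    intervalIntegral.integral_nonneg hRR fun x _ => T50_hs2_nonneg _
  have hherr0 : 0 ≤ ∫ x in (-R)..R, hErr W γ φ G x :=
    intervalIntegral.integral_nonneg hRR fun x _ => hErr_nonneg hγ hWp φ (h𝒢.psd K hKp).1 x
  have hTlow : C * I - e - η ≤ T := by linarith
  have hdefc : cα * J - beta α * T ≤ (cα + beta α) * (e + η) := by
    have h1 : beta α * (C * I - e - η) ≤ beta α * T := mul_le_mul_of_nonneg_left hTlow hβ.le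
    have h2 : cα * J ≤ cα * (I + η) := mul_le_mul_of_nonneg_left hJle hcα0.le
    have h3 : beta α * (C * I - e - η) = cα * I - beta α * (e + η) := by rw [← hβC]; ring
    have h5 : (cα + beta α) * (e + η) = cα * e + cα * η + beta α * (e + η) := by ring
    have h6 : cα * (I + η) = cα * I + cα * η := by ring
    have h7 : 0 ≤ cα * e := mul_nonneg hcα0.le he
    linarith only [h1, h2, h3, h5, h6, h7]
  have hKeig : ∀ i, hKp.1.eigenvalues i ≤ κ₁ := by
    intro i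
    have := Good_eig_le hKp hγ0 hTle1 i
    rw [hκ₁]; linarith
  have hKle : (((κ₁ : ℝ) : ℂ) • (1 : Mt N) - K).PosSemidef :=
    Good_smul_sub_posSemidef hKp.1 hKeig
  have heη : 0 ≤ e + η := by linarith
  refine ⟨w, δ, R, K, G, F, ?_⟩
  refine
    { wcont := hwc
      wnonneg := hw0
      δpos := hδ
      δle := hδη
      hR := hR₀
      Kpsd := hKp
      ric := hric
      supp := hsupp
      hwint := hwint
      hw := hwη
      Kle := hKle
      Ktr := ?_
      Gpsd := h𝒢.psd K hKp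
      Glower := h𝒢.lower K hKp hKle
      Gupper := h𝒢.upper K hKp
      err := ?_
      defect := ?_
      defect0 := hdef0
      derr := ?_
      herr := ?_ }
  · -- Ktr
    refine hTle1.trans ?_
    have h1 : C * (I + 1) = ((C * (I + 1)) ^ (1 / (2 * γ))) ^ (2 * γ) := by
      rw [← Real.rpow_mul (by positivity), one_div_mul_cancel hγ0.ne', Real.rpow_one]
    rw [h1]
    exact Real.rpow_le_rpow (by positivity) (by rw [hκ₁]; linarith) hγ0.le
  · -- err
    have h1 := hC' N R K F V hric hKle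
    rw [h2α, h1α] at h1
    have h2 : C' * (α ^ α / (γ + 1 / 2) ^ (γ + 1 / 2) * J - beta α * T) ≤
        C' * ((cα + beta α) * (e + η)) := by
      refine mul_le_mul_of_nonneg_left ?_ hC'0
      rw [← hcα']; exact hdefc
    refine h1.trans (h2.trans ?_)
    have : C' * ((cα + beta α) * (e + η)) = (C' * (cα + beta α)) * (e + η) := by ring
    rw [this]
    exact mul_le_mul_of_nonneg_right (by rw [hB]; linarith) heη
  · -- defect
    have hmain : ∫ x in (-R)..R, ((w x) ^ (γ + 1 / 2) -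
        tr (cfc (fun t : ℝ => t ^ (γ + 1 / 2)) (V x))) ≤ (1 + beta α / cα) * (e + η) := by
      rw [hsplit]
      have h1 : cα * I - beta α * (e + η) ≤ cα * J := by
        have h2 : beta α * (C * I - e - η) ≤ beta α * T := mul_le_mul_of_nonneg_left hTlow hβ.le
        have h3 : beta α * (C * I - e - η) = cα * I - beta α * (e + η) := by rw [← hβC]; ring
        linarith
      have h4 : I - beta α / cα * (e + η) ≤ J := by
        have h5 : cα * (I - beta α / cα * (e + η)) ≤ cα * J := by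
          have : cα * (I - beta α / cα * (e + η)) = cα * I - beta α * (e + η) := by field_simp
          rw [this]; exact h1
        exact le_of_mul_le_mul_left h5 hcα0
      have h6 : (1 + beta α / cα) * (e + η) = (e + η) + beta α / cα * (e + η) := by ring
      rw [h6]
      linarith [hwI'.2]
    exact hmain.trans (mul_le_mul_of_nonneg_right (by rw [hB]; linarith) heη)
  · have h1 : ∫ x in (-R)..R, hs2 (dErr φ G F x) ≤ (C + 1) * (e + η) := by
      have h2 : (C + 1) * (e + η) = C * e + C * η + (e + η) := by ring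
      have h3 : C * (I + η) = C * I + C * η := by ring
      have h4 : 0 ≤ C * e := mul_nonneg hC0.le he
      linarith only [h2, h3, h4, hsumm, hTle, hnear, hherr0]
    exact h1.trans (mul_le_mul_of_nonneg_right (by rw [hB]; linarith) heη)
  · have h1 : ∫ x in (-R)..R, hErr W γ φ G x ≤ (C + 1) * (e + η) := by
      have h2 : (C + 1) * (e + η) = C * e + C * η + (e + η) := by ring
      have h3 : C * (I + η) = C * I + C * η := by ring
      have h4 : 0 ≤ C * e := mul_nonneg hC0.le he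
      linarith only [h2, h3, h4, hsumm, hTle, hnear, hderr0]
    exact h1.trans (mul_le_mul_of_nonneg_right (by rw [hB]; linarith) heη)

end Crest.Agent.LT
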