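import Crest.Agent.LTE_Defs
import Crest.Agent.LTE_Good
import Crest.Agent.LTE_E10
import Crest.Agent.LT_T25
import Crest.Agent.LT_T47
import Crest.Agent.LT_T50
/-!
Task LTE-E09: from near-optimality to a `PathSeq`. For `i`: a family with `negMoment > C ∫tr W^p - 1/(i+1)`, reduce to
diagonal negative energies (`reduce_diag`), weight (`exists_weight`, `κ₀ = min κ`, `κ₁ = (C(∫tr W^p + 1))^{1/(2γ)} + 1`),
`near_opt_step` with `η = 1/(i+1)`, `R₀ = i`; then `C ∫ w^p ≥ C ∫_{-R}^R tr V^p ≥ tr K^{2γ} ≥ ∑κ^{2γ} - η ≥ C∫tr W^p - 2η`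
(`hj_total`), so `err → 0` (`hj_stability`) and `defect → 0`; rotate to `K = dg k` (`LTE_E10`).
-/

set_option autoImplicit false

namespace Crest.Agent.LT

open MeasureTheory Matrix Set Filter
open Crest.MathPhysics.LiebThirring
open scoped ComplexOrder Topology

theorem E09_lower {N : ℕ} {κ : Fin N → ℝ} (h : ∀ j, 0 < κ j) : ∃ κ₀ : ℝ, 0 < κ₀ ∧ ∀ j, κ₀ ≤ κ j := by
  rcases Nat.eq_zero_or_pos N with h0 | h0
  · subst h0
    exact ⟨1, one_pos, fun j => j.elim0⟩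
  · haveI : Nonempty (Fin N) := ⟨⟨0, h0⟩⟩
    obtain ⟨i, hi⟩ := Finite.exists_min κ
    exact ⟨κ i, h i, hi⟩

theorem E09_tr_cfc_dg {N : ℕ} (k : Fin N → ℝ) (f : ℝ → ℝ) : tr (cfc f (dg k)) = ∑ j, f (k j) := by
  have h : cfc f (dg k) = dg fun j => f (k j) := by
    unfold dg
    exact T46_cfc_diag k f
  rw [h]
  simp [tr, dg, Matrix.trace]

theorem E09_squeeze {B : ℝ} {f : ℕ → ℝ} (h0 : ∀ i, 0 ≤ f i)
    (h1 : ∀ i : ℕ, f i ≤ B * (1 / ((i : ℝ) + 1) + 1 / ((i : ℝ) + 1))) : Tendsto f atTop (𝓝 0) := by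
  have h2 : Tendsto (fun i : ℕ => B * (1 / ((i : ℝ) + 1) + 1 / ((i : ℝ) + 1))) atTop (𝓝 0) := by
    have h3 := tendsto_one_div_add_atTop_nhds_zero_nat (𝕜 := ℝ)
    have h4 := (h3.add h3).const_mul B
    simpa using h4
  exact squeeze_zero h0 h1 h2

/-- near-optimal data for each `i` -/
theorem E09_key {m : ℕ} {γ : ℝ} (hγ : 1 / 2 < γ) (hγ' : γ < 3 / 2)
    {W : ℝ → Matrix (Fin m) (Fin m) ℂ} (hW : ∀ i j, Measurable fun x => W x i j)
    (hWp : ∀ x, (W x).PosSemidef) (hWi : Integrable fun x => tracePow (W x) (γ + 1 / 2))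
    (H : NearOpt W γ) : ∃ κ₁ B : ℝ, 0 < κ₁ ∧ ∀ i : ℕ, ∃ (N : ℕ) (φ : Fin N → ℝ → Vec m)
      (c₀ C₀ : ℝ) (w : ℝ → ℝ) (δ R : ℝ) (K G : Mt N) (F : ℝ → Mt N), IsTrialFamily φ ∧
        GoodData γ W φ κ₁ c₀ C₀ B (1 / ((i : ℝ) + 1)) (1 / ((i : ℝ) + 1)) i w δ R K G F := by
  obtain ⟨κ₁, B, hκ₁, hB, hg⟩ := good_step hγ hγ' hW hWp hWi
  refine ⟨κ₁, B, hκ₁, fun i => ?_⟩
  have hi : 0 < 1 / ((i : ℝ) + 1) := by positivity
  obtain ⟨n, φ, hφ, hne⟩ := H _ hi
  have hint : ∀ k l, Integrable fun x =>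
      inner ℂ (φ k x) (Matrix.toEuclideanLin (W x) (φ l x)) := fun k l =>
    integrable_potential hW hWp (by linarith : (1 : ℝ) ≤ γ + 1 / 2) hWi
      (hφ.1 k).continuous (hφ.1 l).continuous (hφ.2.1 k)
  obtain ⟨N, Q, κ, hQ, hκ, hE, hneg⟩ := reduce_diag hWp hφ hint (by linarith : 0 < γ)
  obtain ⟨κ₀, hκ₀, hκ₀'⟩ := E09_lower hκ
  obtain ⟨c₀, C₀, hc₀, hC₀, hg2⟩ := hg κ₀ hκ₀
  have hφ' := recomb_isTrialFamily hφ hQ
  obtain ⟨w, δ, R, K, G, F, hD⟩ := hg2 N (recomb φ Q) κ (1 / ((i : ℝ) + 1)) (1 / ((i : ℝ) + 1)) i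
    hφ' hκ₀' hE (by rw [← hneg]; exact hne.le) hi.le hi (by
      rw [div_le_one (by positivity)]
      have : (0 : ℝ) ≤ i := Nat.cast_nonneg i
      linarith)
  exact ⟨N, recomb φ Q, c₀, C₀, w, δ, R, K, G, F, hφ', hD⟩

set_option maxHeartbeats 1600000 in
theorem exists_pathSeq {m : ℕ} {γ : ℝ} (hγ : 1 / 2 < γ) (hγ' : γ < 3 / 2)
    {W : ℝ → Matrix (Fin m) (Fin m) ℂ} (hW : ∀ i j, Measurable fun x => W x i j)
    (hWp : ∀ x, (W x).PosSemidef) (hWi : Integrable fun x => tracePow (W x) (γ + 1 / 2))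
    (H : NearOpt W γ) : Nonempty (PathSeq m (γ - 1 / 2) (wzero W γ)) := by
  obtain ⟨κ₁, B, hκ₁, hkey⟩ := E09_key hγ hγ' hW hWp hWi H
  choose N φ c₀ C₀ w δ R K G F hφ hD using hkey
  choose U k hU hU' hanti hk0 hdiag using fun i => exists_sorted_diag (hD i).Kpsd
  have hα0 : 0 < γ - 1 / 2 := by linarith
  have hr1 : 1 ≤ 1 / (γ - 1 / 2) := by rw [le_div_iff₀ hα0]; linarith
  have hr0 : 0 < 1 / (γ - 1 / 2) := by positivity
  have hrr : (1 / (γ - 1 / 2) + 1) / (1 / (γ - 1 / 2)) = γ + 1 / 2 := by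
    have h1 : ∀ a : ℝ, 0 < a → (1 / a + 1) / (1 / a) = 1 + a := fun a ha => by field_simp
    rw [h1 _ hα0]; ring
  have h1α : 1 + (γ - 1 / 2) = γ + 1 / 2 := by ring
  have h2α : 2 * (γ - 1 / 2) + 1 = 2 * γ := by ring
  set V : ∀ i, ℝ → Mt (N i) := fun i x => VK (1 / (γ - 1 / 2)) (w i x) (δ i) (Pmat (φ i) (G i) x)
    with hVdef
  have hPpsd : ∀ i x, (Pmat (φ i) (G i) x).PosSemidef := fun i x =>
    Matrix.posSemidef_conjTranspose_mul_self _
  have hVpsd : ∀ i x, (V i x).PosSemidef := fun i x =>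
    VK_posSemidef hr1 ((hD i).wnonneg x) (hD i).δpos (hPpsd i x)
  have hVc : ∀ i, Continuous (V i) := fun i =>
    Good_VK_continuous hr1 (hD i).δpos (hD i).wcont (hφ i) (G i)
  have hkle : ∀ i j, k i j ≤ κ₁ := by
    intro i j
    have h1 := (hD i).Kle.conjTranspose_mul_mul_same (U i)
    have h2 : (U i)ᴴ * (((κ₁ : ℝ) : ℂ) • (1 : Mt (N i)) - K i) * U i = dg fun j => κ₁ - k i j := by
      rw [Matrix.mul_sub, Matrix.sub_mul, hdiag i, Matrix.mul_smul, Matrix.smul_mul, Matrix.mul_one,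
        hU i]
      ext a b
      by_cases hab : a = b
      · subst hab; simp [dg]
      · simp [dg, hab]
    rw [h2] at h1
    have h3 := h1.diag_nonneg (i := j)
    have h4 : (0 : ℂ) ≤ ((κ₁ - k i j : ℝ) : ℂ) := by simpa [dg] using h3
    have h5 : 0 ≤ κ₁ - k i j := by exact_mod_cast h4
    linarith
  refine ⟨{
    N := N
    R := R
    k := k
    F := fun i x => (U i)ᴴ * F i x * U i
    V := fun i x => (U i)ᴴ * V i x * U i
    w := w
    κ := max κ₁ (κ₁ ^ (2 * γ))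
    ric := fun i => ?_
    anti := hanti
    nonneg := hk0
    kbound := fun i j => (hkle i j).trans (le_max_left _ _)
    ksum := fun i => ?_
    Vpsd := fun i x => (hVpsd i x).conjTranspose_mul_mul_same _
    Vcont := fun i => (continuous_const.matrix_mul (hVc i)).matrix_mul continuous_const
    rank := fun i x => ?_
    wcont := fun i => (hD i).wcont
    wnonneg := fun i => (hD i).wnonneg
    trV := fun i x => ?_
    hR := ?_
    hwint := fun i => ?_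
    hw := ?_
    err := ?_
    defect := ?_ }⟩
  · -- ric
    have := (hD i).ric.conj (hU i) (hU' i)
    rw [hdiag i] at this
    exact this
  · -- ksum
    have h1 : ∑ j, k i j ^ (2 * (γ - 1 / 2) + 1) = tr (cfc (fun t : ℝ => t ^ (2 * γ)) (K i)) := by
      rw [h2α, ← tr_cfc_conj (hU i) (hU' i) (hD i).Kpsd.1, hdiag i, E09_tr_cfc_dg]
    rw [h1]
    exact (hD i).Ktr.trans (le_max_right _ _)
  · -- rank
    have h1 : ((U i)ᴴ * V i x * U i).rank ≤ (V i x).rank :=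
      (Matrix.rank_mul_le_left _ _).trans (Matrix.rank_mul_le_right _ _)
    exact h1.trans (VK_rank_le hr1 (φ i) (G i) x)
  · -- trV
    rw [h1α, tr_cfc_conj (hU i) (hU' i) (hVpsd i x).1]
    have := VK_tr_rpow_le hr1 ((hD i).wnonneg x) (hD i).δpos (hPpsd i x)
    rwa [hrr] at this
  · -- hR
    exact tendsto_atTop_mono (fun i => (hD i).hR) tendsto_natCast_atTop_atTop
  · have := (hD i).hwint
    rwa [h1α]
  · rw [h1α]
    have h3 := tendsto_one_div_add_atTop_nhds_zero_nat (𝕜 := ℝ)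
    exact squeeze_zero (fun i => integral_nonneg fun x => Real.rpow_nonneg (abs_nonneg _) _)
      (fun i => (hD i).hw) h3
  · -- err
    refine E09_squeeze (B := B) (fun i => ?_) (fun i => ?_)
    · refine intervalIntegral.integral_nonneg (by linarith [(hD i).ric.hR]) fun x _ => ?_
      exact hjErr_nonneg ((hVpsd i x).conjTranspose_mul_mul_same _)
    · have h1 := (hD i).err
      refine le_trans (le_of_eq ?_) h1
      refine intervalIntegral.integral_congr fun x _ => ?_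
      rw [← hdiag i, hjErr_conj (hU i) (hU' i)]
  · -- defect
    have h4 : ∀ i x, tr (cfc (fun t : ℝ => t ^ (γ + 1 / 2)) ((U i)ᴴ * V i x * U i)) =
        tr (cfc (fun t : ℝ => t ^ (γ + 1 / 2)) (V i x)) := fun i x =>
      tr_cfc_conj (hU i) (hU' i) (hVpsd i x).1 _
    simp only [h1α, h4]
    exact E09_squeeze (B := B) (fun i => (hD i).defect0) (fun i => (hD i).defect)

end Crest.Agent.LT
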