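import Crest.Agent.LTE_Defs
import Crest.Agent.LTE_E12
/-!
Task LTE-E13: tails. `Y = K + F ≥ 0`, `y = tr Y₁₁` (block of size `n`). On `(-R,R)`:
`y' = tr (K₁₁² - F₁₁²) - ‖F₁₂‖² - tr V₁₁ = tr (X₁₁ Y₁₁) - ‖F₁₂‖² - tr V₁₁`, `X₁₁ = 2K₁₁ - Y₁₁ ≥ 2κ₀ - y`, so
`y' ≥ (2κ₀ - y) y - offblk - v`; `y(R) = 0`. As long as `y ≤ κ₀` on `[x,R]`:
`y(x) ≤ ∫_x^R e^{-κ₀(t-x)} (offblk + v) ≤ ε₁ + ε₂ < κ₀`; continuity (first exit point going left from `R`).
-/

set_option autoImplicit false

namespace Crest.Agent.LT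

open MeasureTheory Matrix Set Filter
open Crest.MathPhysics.LiebThirring
open scoped ComplexOrder Topology

theorem E13_entry {N : ℕ} {A : ℝ → Mt N} {A' : Mt N} {x : ℝ} (hA : HasDerivAt A A' x)
    (i j : Fin N) : HasDerivAt (fun y => A y i j) (A' i j) x := by
  have h1 : HasDerivAt (fun y => A y i) (A' i) x := (hasDerivAt_pi (φ := A) (φ' := A')).1 hA i
  exact (hasDerivAt_pi (φ := fun y => A y i) (φ' := A' i)).1 h1 j

theorem E13_of_entry {N : ℕ} {A : ℝ → Mt N} {A' : Mt N} {x : ℝ}
    (hA : ∀ i j, HasDerivAt (fun y => A y i j) (A' i j) x) : HasDerivAt A A' x :=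
  (hasDerivAt_pi (φ := A) (φ' := A')).2 fun i =>
    (hasDerivAt_pi (φ := fun y => A y i) (φ' := A' i)).2 fun j => hA i j

theorem Riccati.reflect {N : ℕ} {R : ℝ} {K : Mt N} {F V : ℝ → Mt N} (h : Riccati R K F V) :
    Riccati R K (fun x => -F (-x)) (fun x => V (-x)) := by
  have hmem : ∀ x ∈ Icc (-R) R, -x ∈ Icc (-R) R := fun x hx => ⟨by linarith [hx.2], by linarith [hx.1]⟩
  refine ⟨h.hR, ?_, ?_, ?_, ?_, ?_, ?_, ?_⟩
  · exact h.contV.comp continuousOn_neg (fun x hx => hmem x hx)
  · intro x hx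
    exact h.Vpsd _ (hmem x hx)
  · intro x hx
    have h1 := h.adm _ (hmem x hx)
    refine ⟨?_, ?_⟩
    · rw [sub_neg_eq_add]; exact h1.add
    · rw [← sub_eq_add_neg]; exact h1.sub
  · exact (h.contF.comp continuousOn_neg (fun x hx => hmem x hx)).neg
  · intro x hx
    have hx' : -x ∈ Ioo (-R) R := ⟨by linarith [hx.2], by linarith [hx.1]⟩
    have h1 := h.deriv _ hx'
    refine E13_of_entry fun i j => ?_
    have h2 := E13_entry h1 i j
    have h3 := (h2.scomp x (hasDerivAt_neg x)).neg
    refine h3.congr_deriv ?_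
    simp
  · simp [h.right]
  · simp [h.left]

theorem E13_tr_blk {N : ℕ} (A : Mt N) (n : ℕ) :
    tr (blk n A) = ∑ i : Fin N, if (i : ℕ) < n then (A i i).re else 0 := by
  have h1 : tr (blk n A) = ∑ i ∈ Finset.range n, (ext0 A i i).re := by
    unfold tr Matrix.trace blk
    rw [Complex.re_sum]
    exact Fin.sum_univ_eq_sum_range (fun i => (ext0 A i i).re) n
  have h2 : (∑ i : Fin N, if (i : ℕ) < n then (A i i).re else 0) =
      ∑ i ∈ Finset.range N, if i < n then (ext0 A i i).re else 0 := by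
    rw [← Fin.sum_univ_eq_sum_range (fun i => if i < n then (ext0 A i i).re else 0) N]
    refine Finset.sum_congr rfl fun i _ => ?_
    have : ext0 A i i = A i i := by simp [ext0]
    rw [this]
  rw [h1, h2, ← Finset.sum_filter]
  symm
  refine Finset.sum_subset ?_ ?_
  · intro i hi
    simp only [Finset.mem_filter, Finset.mem_range] at hi ⊢
    exact hi.2
  · intro i hi hi'
    simp only [Finset.mem_filter, Finset.mem_range, not_and] at hi hi'
    have : ¬ i < N := fun h => hi' h hi
    simp [ext0, this]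

theorem E13_minor {N : ℕ} {A : Mt N} (hA : A.PosSemidef) (i j : Fin N) :
    ‖A i j‖ ^ 2 ≤ (A i i).re * (A j j).re := by
  have h1 := (hA.submatrix ![i, j]).det_nonneg
  rw [Matrix.det_fin_two] at h1
  simp only [Matrix.submatrix_apply, Matrix.cons_val_zero, Matrix.cons_val_one] at h1
  have h2 : A j i = star (A i j) := (hA.1.apply j i).symm
  have hii : (A i i).im = 0 := by
    have := hA.1.apply i i
    have := congrArg Complex.im this
    simp at this
    linarith
  have hjj : (A j j).im = 0 := by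
    have := hA.1.apply j j
    have := congrArg Complex.im this
    simp at this
    linarith
  have h3 := (Complex.le_def.1 h1).1
  rw [h2] at h3
  simp only [Complex.zero_re, Complex.sub_re, Complex.mul_re, hii, hjj, Complex.star_def,
    Complex.conj_re, Complex.conj_im] at h3
  rw [← Complex.normSq_eq_norm_sq, Complex.normSq_apply]
  linarith

theorem E13_sq_diag {N : ℕ} {F : Mt N} (hF : F.IsHermitian) (i : Fin N) :
    ((F * F) i i).re = ∑ j, ‖F i j‖ ^ 2 := by
  rw [Matrix.mul_apply, Complex.re_sum]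
  refine Finset.sum_congr rfl fun j _ => ?_
  have h2 : F j i = star (F i j) := (hF.apply j i).symm
  rw [h2, ← Complex.normSq_eq_norm_sq, Complex.star_def, Complex.mul_conj]
  simp

theorem E13_key {N : ℕ} {k : Fin N → ℝ} {F V : Mt N} (hadm : Adm (dg k) F) (hV : V.PosSemidef)
    (n : ℕ) {κ₀ : ℝ} (hk : ∀ j : Fin N, (j : ℕ) < n → κ₀ ≤ k j) :
    (2 * κ₀ - tr (blk n (dg k + F))) * tr (blk n (dg k + F)) - offblk n F - tr V ≤
      ∑ i : Fin N, if (i : ℕ) < n then ((dg k * dg k - F * F - V) i i).re else 0 := by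
  classical
  have hF := hadm.isHermitian_F
  set a : Fin N → ℝ := fun i => if (i : ℕ) < n then 1 else 0 with ha
  have ha0 : ∀ i, 0 ≤ a i := fun i => by simp only [ha]; split_ifs <;> norm_num
  have ha1 : ∀ i, a i ≤ 1 := fun i => by simp only [ha]; split_ifs <;> norm_num
  have haa : ∀ i, a i * a i = a i := fun i => by simp only [ha]; split_ifs <;> norm_num
  set Y : Mt N := dg k + F with hY
  have hYp : Y.PosSemidef := hadm.add
  have hYdiag : ∀ i, (Y i i).re = k i + (F i i).re := by
    intro i; simp [hY, dg]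
  have hYoff : ∀ i j, i ≠ j → Y i j = F i j := by
    intro i j hij; simp [hY, dg, Matrix.diagonal_apply_ne _ hij]
  have hFim : ∀ i, (F i i).im = 0 := by
    intro i
    have := congrArg Complex.im (hF.apply i i)
    simp at this
    linarith
  have hYii : ∀ i, ‖Y i i‖ ^ 2 = ‖F i i‖ ^ 2 + (k i ^ 2 + 2 * k i * (F i i).re) := by
    intro i
    have h1 : Y i i = ((k i : ℝ) : ℂ) + F i i := by simp [hY, dg]
    rw [← Complex.normSq_eq_norm_sq, ← Complex.normSq_eq_norm_sq, Complex.normSq_apply,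
      Complex.normSq_apply, h1]
    simp [hFim i]
    ring
  have hy : tr (blk n Y) = ∑ i, a i * (Y i i).re := by
    rw [E13_tr_blk]
    refine Finset.sum_congr rfl fun i _ => ?_
    simp only [ha]; split_ifs <;> simp
  have hoff : offblk n F = ∑ i, ∑ j, a i * (1 - a j) * ‖F i j‖ ^ 2 := by
    unfold offblk
    refine Finset.sum_congr rfl fun i _ => Finset.sum_congr rfl fun j _ => ?_
    simp only [ha]
    by_cases h1 : (i : ℕ) < n <;> by_cases h2 : (j : ℕ) < n
    · have : ¬ n ≤ (j : ℕ) := by omega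
      simp [h1, h2, this]
    · have : n ≤ (j : ℕ) := by omega
      simp [h1, h2, this]
    · simp [h1]
    · simp [h1]
  have hYd0 : ∀ i, 0 ≤ (Y i i).re := fun i => (Complex.le_def.1 (hYp.diag_nonneg (i := i))).1
  have hVd0 : ∀ i, 0 ≤ (V i i).re := fun i => (Complex.le_def.1 (hV.diag_nonneg (i := i))).1
  -- right-hand side
  have hR : (∑ i : Fin N, if (i : ℕ) < n then ((dg k * dg k - F * F - V) i i).re else 0) =
      ∑ i, a i * (k i ^ 2 - ∑ j, ‖F i j‖ ^ 2 - (V i i).re) := by
    refine Finset.sum_congr rfl fun i _ => ?_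
    have h1 : ((dg k * dg k - F * F - V) i i).re = k i ^ 2 - ∑ j, ‖F i j‖ ^ 2 - (V i i).re := by
      rw [Matrix.sub_apply, Matrix.sub_apply, Complex.sub_re, Complex.sub_re, E13_sq_diag hF]
      simp [dg, pow_two]
    rw [h1]
    simp only [ha]; split_ifs <;> simp
  rw [hR, hy, hoff]
  have htrV : ∑ i, a i * (V i i).re ≤ tr V := by
    unfold tr Matrix.trace
    rw [Complex.re_sum]
    refine Finset.sum_le_sum fun i _ => ?_
    have := hVd0 i
    have := ha1 i
    simp only [Matrix.diag_apply]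
    nlinarith [hVd0 i, ha1 i]
  -- the quadratic identity
  have hquad : ∀ i, ∑ j, a j * ‖Y i j‖ ^ 2 =
      ∑ j, a j * ‖F i j‖ ^ 2 + a i * (k i ^ 2 + 2 * k i * (F i i).re) := by
    intro i
    have h1 : ∀ j, a j * ‖Y i j‖ ^ 2 = a j * ‖F i j‖ ^ 2 +
        if j = i then a i * (k i ^ 2 + 2 * k i * (F i i).re) else 0 := by
      intro j
      by_cases hj : j = i
      · subst hj
        rw [if_pos rfl, hYii]; ring
      · rw [if_neg hj, hYoff i j (fun h => hj h.symm), add_zero]
    rw [Finset.sum_congr rfl fun j _ => h1 j, Finset.sum_add_distrib]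
    simp
  have hYY : ∑ i, a i * ∑ j, a j * ‖Y i j‖ ^ 2 ≤ (∑ i, a i * (Y i i).re) * ∑ i, a i * (Y i i).re := by
    rw [Finset.sum_mul]
    refine Finset.sum_le_sum fun i _ => ?_
    rw [mul_assoc]
    refine mul_le_mul_of_nonneg_left ?_ (ha0 i)
    rw [Finset.mul_sum]
    refine Finset.sum_le_sum fun j _ => ?_
    have := E13_minor hYp i j
    nlinarith [ha0 j]
  have hkY : κ₀ * ∑ i, a i * (Y i i).re ≤ ∑ i, a i * (k i * (Y i i).re) := by
    rw [Finset.mul_sum]
    refine Finset.sum_le_sum fun i _ => ?_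
    simp only [ha]
    split_ifs with h
    · nlinarith [hk i h, hYd0 i]
    · simp
  have hsplit : ∀ i, a i * (k i ^ 2 - ∑ j, ‖F i j‖ ^ 2 - (V i i).re) =
      2 * (a i * (k i * (Y i i).re)) - a i * (∑ j, a j * ‖Y i j‖ ^ 2) -
        ∑ j, a i * (1 - a j) * ‖F i j‖ ^ 2 - a i * (V i i).re := by
    intro i
    have h1 : ∑ j, a i * (1 - a j) * ‖F i j‖ ^ 2 =
        a i * ∑ j, ‖F i j‖ ^ 2 - a i * ∑ j, a j * ‖F i j‖ ^ 2 := by
      rw [Finset.mul_sum, Finset.mul_sum, ← Finset.sum_sub_distrib]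
      refine Finset.sum_congr rfl fun j _ => ?_
      ring
    rw [h1, hquad, hYdiag]
    have h2 := haa i
    linear_combination (k i ^ 2 + 2 * k i * (F i i).re) * h2
  rw [Finset.sum_congr rfl fun i _ => hsplit i]
  rw [Finset.sum_sub_distrib, Finset.sum_sub_distrib, Finset.sum_sub_distrib, ← Finset.mul_sum]
  nlinarith [hYY, hkY, htrV]

theorem tail_right {N : ℕ} {R L κ₀ ε₁ ε₂ : ℝ} {k : Fin N → ℝ} {F V : ℝ → Mt N}
    (h : Riccati R (dg k) F V) (n : ℕ) (hκ₀ : 0 < κ₀) (hk : ∀ j : Fin N, (j : ℕ) < n → κ₀ ≤ k j)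
    (hL : -R ≤ L) (hLR : L ≤ R) {v : ℝ → ℝ} (hv : Continuous v) (hv0 : ∀ x, 0 ≤ v x)
    (hvV : ∀ x ∈ Icc (-R) R, tr (V x) ≤ v x) (h1 : ∫ x in (-R)..R, offblk n (F x) ≤ ε₁)
    (h2 : ∀ x ∈ Icc L R, ∫ t in x..R, Real.exp (-κ₀ * (t - x)) * v t ≤ ε₂) (hε : ε₁ + ε₂ < κ₀) :
    ∀ x ∈ Icc L R, tr (blk n (dg k + F x)) ≤ ε₁ + ε₂ := by
  have hRpos := h.hR
  set y : ℝ → ℝ := fun x => tr (blk n (dg k + F x)) with hy
  set o : ℝ → ℝ := fun x => offblk n (F x) with ho
  have ho0 : ∀ x, 0 ≤ o x := by
    intro x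
    simp only [ho, offblk]
    refine Finset.sum_nonneg fun i _ => Finset.sum_nonneg fun j _ => ?_
    split_ifs <;> positivity
  have hFent : ∀ i j : Fin N, ContinuousOn (fun x => F x i j) (Icc (-R) R) := by
    intro i j
    exact (continuous_id.matrix_elem i j).comp_continuousOn h.contF
  have hyeq : ∀ x, y x = ∑ i : Fin N, if (i : ℕ) < n then k i + (F x i i).re else 0 := by
    intro x
    simp only [hy]
    rw [E13_tr_blk]
    refine Finset.sum_congr rfl fun i _ => ?_
    simp [dg]
  have hyc : ContinuousOn y (Icc (-R) R) := by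
    have : y = fun x => ∑ i : Fin N, if (i : ℕ) < n then k i + (F x i i).re else 0 := funext hyeq
    rw [this]
    refine continuousOn_finsetSum _ fun i _ => ?_
    split_ifs
    · exact continuousOn_const.add (Complex.continuous_re.comp_continuousOn (hFent i i))
    · exact continuousOn_const
  have hoc : ContinuousOn o (Icc (-R) R) := by
    simp only [ho]
    unfold offblk
    refine continuousOn_finsetSum _ fun i _ => continuousOn_finsetSum _ fun j _ => ?_
    split_ifs
    · exact (hFent i j).norm.pow 2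
    · exact continuousOn_const
  have hyR : y R = 0 := by
    simp only [hy, h.right]
    rw [add_neg_cancel, E13_tr_blk]
    simp
  have hyd : ∀ x ∈ Ioo (-R) R, HasDerivAt y (∑ i : Fin N, if (i : ℕ) < n then
      ((dg k * dg k - F x * F x - V x) i i).re else 0) x := by
    intro x hx
    have : y = fun x => ∑ i : Fin N, if (i : ℕ) < n then k i + (F x i i).re else 0 := funext hyeq
    rw [this]
    refine HasDerivAt.fun_sum fun i _ => ?_
    split_ifs
    · have h3 := E13_entry (h.deriv x hx) i i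
      have h4 := HasFDerivAt.comp_hasDerivAt (l := fun z : ℂ => z.re) (f := fun y => F y i i) x
        (Complex.reCLM.hasFDerivAt (x := F x i i)) h3
      have h5 : HasDerivAt (fun y => (F y i i).re) (((dg k * dg k - F x * F x - V x) i i).re) x := h4
      exact h5.const_add _
    · exact hasDerivAt_const _ _
  have hyd' : ∀ x ∈ Ioo (-R) R, (2 * κ₀ - y x) * y x - o x - v x ≤
      ∑ i : Fin N, if (i : ℕ) < n then ((dg k * dg k - F x * F x - V x) i i).re else 0 := by
    intro x hx
    have hx' : x ∈ Icc (-R) R := Ioo_subset_Icc_self hx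
    have h3 := E13_key (h.adm x hx') (h.Vpsd x hx') n hk
    have h4 := hvV x hx'
    simp only [hy, ho] at h3 ⊢
    linarith
  have hy0 : ∀ x ∈ Icc (-R) R, 0 ≤ y x := by
    intro x hx
    simp only [hy]
    rw [E13_tr_blk]
    refine Finset.sum_nonneg fun i _ => ?_
    split_ifs
    · exact (Complex.le_def.1 ((h.adm x hx).add.diag_nonneg (i := i))).1
    · exact le_rfl
  -- main estimate
  have main : ∀ a ∈ Icc L R, (∀ t ∈ Icc a R, y t ≤ κ₀) → y a ≤ ε₁ + ε₂ := by
    intro a ha hya
    have haR : a ≤ R := ha.2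
    have hsub : Icc a R ⊆ Icc (-R) R := Icc_subset_Icc (hL.trans ha.1) le_rfl
    have hexpc : Continuous fun x : ℝ => Real.exp (-κ₀ * (x - a)) := by fun_prop
    have hocI : ContinuousOn o (Icc a R) := hoc.mono hsub
    have hint1 : IntervalIntegrable (fun x => Real.exp (-κ₀ * (x - a)) * o x) volume a R :=
      (hexpc.continuousOn.mul hocI).intervalIntegrable_of_Icc haR
    have hint2 : IntervalIntegrable (fun x => Real.exp (-κ₀ * (x - a)) * v x) volume a R :=
      (hexpc.mul hv).intervalIntegrable _ _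
    have hcI : ContinuousOn (fun x => -(Real.exp (-κ₀ * (x - a)) * (o x + v x))) (Icc a R) :=
      (hexpc.continuousOn.mul (hocI.add hv.continuousOn)).neg
    have key := intervalIntegral.integral_le_sub_of_hasDeriv_right_of_le (a := a) (b := R)
      (g := fun x => Real.exp (-κ₀ * (x - a)) * y x)
      (g' := fun x => -κ₀ * Real.exp (-κ₀ * (x - a)) * y x + Real.exp (-κ₀ * (x - a)) *
        (∑ i : Fin N, if (i : ℕ) < n then ((dg k * dg k - F x * F x - V x) i i).re else 0))
      (φ := fun x => -(Real.exp (-κ₀ * (x - a)) * (o x + v x))) haR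
      (hexpc.continuousOn.mul (hyc.mono hsub)) ?_ (hcI.integrableOn_Icc) ?_
    · simp only [hyR, mul_zero, sub_self, Real.exp_zero, one_mul, zero_sub] at key
      rw [intervalIntegral.integral_neg] at key
      have hsum : ∫ x in a..R, Real.exp (-κ₀ * (x - a)) * (o x + v x) =
          (∫ x in a..R, Real.exp (-κ₀ * (x - a)) * o x) + ∫ x in a..R, Real.exp (-κ₀ * (x - a)) * v x := by
        rw [← intervalIntegral.integral_add hint1 hint2]
        congr 1
        ext x
        ring
      have ho1 : ∫ x in a..R, Real.exp (-κ₀ * (x - a)) * o x ≤ ∫ x in a..R, o x := by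
        refine intervalIntegral.integral_mono_on haR hint1 (hocI.intervalIntegrable_of_Icc haR) ?_
        intro x hx
        have : Real.exp (-κ₀ * (x - a)) ≤ 1 := by
          rw [Real.exp_le_one_iff]
          nlinarith [hx.1]
        nlinarith [ho0 x]
      have ho2 : ∫ x in a..R, o x ≤ ∫ x in (-R)..R, o x := by
        have hintR : IntervalIntegrable o volume (-R) R := hoc.intervalIntegrable_of_Icc (by linarith)
        refine intervalIntegral.integral_mono_interval (hL.trans ha.1) haR le_rfl ?_ hintR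
        exact Filter.Eventually.of_forall fun x => ho0 x
      have h2a := h2 a ha
      linarith
    · intro x hx
      have hx' : x ∈ Ioo (-R) R := ⟨lt_of_le_of_lt (hL.trans ha.1) hx.1, hx.2⟩
      have hd1 : HasDerivAt (fun x : ℝ => Real.exp (-κ₀ * (x - a)))
          (-κ₀ * Real.exp (-κ₀ * (x - a))) x := by
        have := ((((hasDerivAt_id x).sub_const a).const_mul (-κ₀))).exp
        refine this.congr_deriv ?_
        simp; ring
      exact (hd1.mul (hyd x hx')).hasDerivWithinAt
    · intro x hx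
      have hx' : x ∈ Ioo (-R) R := ⟨lt_of_le_of_lt (hL.trans ha.1) hx.1, hx.2⟩
      have h3 := hyd' x hx'
      have h4 := hya x (Ioo_subset_Icc_self hx)
      have h5 := hy0 x (Ioo_subset_Icc_self hx')
      have h6 : 0 < Real.exp (-κ₀ * (x - a)) := Real.exp_pos _
      have h7 : κ₀ * y x - o x - v x ≤
          ∑ i : Fin N, if (i : ℕ) < n then ((dg k * dg k - F x * F x - V x) i i).re else 0 := by
        nlinarith
      have h8 := mul_le_mul_of_nonneg_left h7 h6.le
      linarith
  have hεnn : 0 ≤ ε₁ + ε₂ := by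
    have h3 : 0 ≤ ε₁ := le_trans (intervalIntegral.integral_nonneg (by linarith) fun x _ => ho0 x) h1
    have h4 : 0 ≤ ε₂ := by
      have := h2 R ⟨hLR, le_rfl⟩
      simpa using this
    linarith
  intro x hx
  by_contra hlt
  push Not at hlt
  set η := min (y x) κ₀ with hηd
  have hη : ε₁ + ε₂ < η := lt_min hlt hε
  have hsub : Icc x R ⊆ Icc (-R) R := Icc_subset_Icc (hL.trans hx.1) le_rfl
  have hScomp : IsCompact (Icc x R ∩ {t | η ≤ y t}) := by
    have : IsClosed (Icc x R ∩ y ⁻¹' (Ici η)) :=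
      (hyc.mono hsub).preimage_isClosed_of_isClosed isClosed_Icc isClosed_Ici
    exact isCompact_Icc.of_isClosed_subset this inter_subset_left
  have hSne : (Icc x R ∩ {t | η ≤ y t}).Nonempty := 
    ⟨x, ⟨le_rfl, hx.2⟩, (min_le_left _ _ : η ≤ y x)⟩
  obtain ⟨a, haS, hamax⟩ := hScomp.exists_isGreatest hSne
  have hanot : ∀ t, a < t → t ≤ R → y t < η := by
    intro t hat htR
    by_contra hcon
    push Not at hcon
    have := hamax (⟨⟨haS.1.1.trans hat.le, htR⟩, hcon⟩ : t ∈ Icc x R ∩ {t | η ≤ y t})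
    linarith
  have hya : y a ≤ η := by
    by_contra hcon
    push Not at hcon
    have haR : a ≤ R := haS.1.2
    obtain ⟨c, hc, hcη⟩ := intermediate_value_Icc' haR
      (hyc.mono ((Icc_subset_Icc haS.1.1 le_rfl).trans hsub))
      (⟨by rw [hyR]; linarith, hcon.le⟩ : η ∈ Icc (y R) (y a))
    rcases eq_or_lt_of_le hc.1 with hac | hac
    · rw [← hac] at hcη
      linarith
    · have := hanot c hac hc.2
      linarith
  have h5 := main a ⟨hx.1.trans haS.1.1, haS.1.2⟩ (by
    intro t ht
    rcases eq_or_lt_of_le ht.1 with hat | hat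
    · rw [← hat]
      exact hya.trans (min_le_right _ _)
    · exact (hanot t hat ht.2).le.trans (min_le_right _ _))
  have h6 : η ≤ y a := haS.2
  linarith

end Crest.Agent.LT
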