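import Crest.Agent.LTE_Defs

/-!
Task LTE-E14: stability of the matrix Riccati equation and of the linear equation (Grönwall on `[-L,L]`, both
directions from `x₀`). `hs2` is the squared Frobenius norm.
-/

set_option autoImplicit false

namespace Crest.Agent.LT

open MeasureTheory Matrix Set Filter
open Crest.MathPhysics.LiebThirring
open scoped ComplexOrder Topology

section E14abs

variable {E : Type*} [NormedAddCommGroup E] [NormedSpace ℝ E]

/-- Grönwall in both directions. -/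
theorem E14_gron_one {L x₀ K ε δ : ℝ} (hx₀ : x₀ ∈ Ioo (-L) L)
    {u du : ℝ → E} (hc : ContinuousOn u (Icc (-L) L))
    (hd : ∀ x ∈ Ioo (-L) L, HasDerivAt u (du x) x)
    (hb : ∀ x ∈ Ioo (-L) L, ‖du x‖ ≤ K * ‖u x‖ + ε) (h0 : ‖u x₀‖ ≤ δ) :
    ∀ x ∈ Icc (-L) L, ‖u x‖ ≤ gronwallBound δ K ε |x - x₀| := by
  intro x hx
  rcases le_total x₀ x with h | h
  · rw [abs_of_nonneg (by linarith)]
    refine norm_le_gronwallBound_of_norm_deriv_right_le (f := u) (f' := du) (a := x₀) (b := L)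
      (hc.mono (Icc_subset_Icc hx₀.1.le le_rfl)) (fun y hy => ?_) h0 (fun y hy => ?_) x ⟨h, hx.2⟩
    · exact (hd y ⟨lt_of_lt_of_le hx₀.1 hy.1, hy.2⟩).hasDerivWithinAt
    · exact hb y ⟨lt_of_lt_of_le hx₀.1 hy.1, hy.2⟩
  · rw [abs_sub_comm, abs_of_nonneg (by linarith)]
    have hcomp : ContinuousOn (fun y => u (-y)) (Icc (-x₀) L) := by
      refine hc.comp continuous_neg.continuousOn ?_
      intro y hy
      exact ⟨by linarith [hy.2], by linarith [hy.1, hx₀.2]⟩
    have key := norm_le_gronwallBound_of_norm_deriv_right_le (f := fun y => u (-y))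
      (f' := fun y => -(du (-y))) (δ := δ) (K := K) (ε := ε) (a := -x₀) (b := L) hcomp
      (fun y hy => ?_) (by simpa using h0) (fun y hy => ?_) (-x) ⟨by linarith, by linarith [hx.1]⟩
    · have e : -x - -x₀ = x₀ - x := by ring
      rw [e] at key
      simpa using key
    · have hy' : -y ∈ Ioo (-L) L := ⟨by linarith [hy.2], by linarith [hy.1, hx₀.2]⟩
      have h1 := (hd (-y) hy').scomp y (hasDerivAt_neg y)
      have h2 : HasDerivAt (fun y => u (-y)) (-(du (-y))) y := by
        simpa [Function.comp_def] using h1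
      exact h2.hasDerivWithinAt
    · have hy' : -y ∈ Ioo (-L) L := ⟨by linarith [hy.2], by linarith [hy.1, hx₀.2]⟩
      rw [norm_neg]
      exact hb (-y) hy'

theorem E14_gron {L x₀ K : ℝ} (hx₀ : x₀ ∈ Ioo (-L) L) (hK : 0 < K)
    {u du : ℕ → ℝ → E} {ε : ℕ → ℝ}
    (hc : ∀ᶠ i in atTop, ContinuousOn (u i) (Icc (-L) L))
    (hd : ∀ᶠ i in atTop, ∀ x ∈ Ioo (-L) L, HasDerivAt (u i) (du i x) x)
    (hb : ∀ᶠ i in atTop, ∀ x ∈ Ioo (-L) L, ‖du i x‖ ≤ K * ‖u i x‖ + ε i)
    (hε : Tendsto ε atTop (𝓝 0))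
    (h0 : Tendsto (fun i => u i x₀) atTop (𝓝 0)) :
    ∀ x ∈ Icc (-L) L, Tendsto (fun i => u i x) atTop (𝓝 0) := by
  intro x hx
  have hlim : Tendsto (fun i => gronwallBound (‖u i x₀‖) K (ε i) |x - x₀|) atTop (𝓝 0) := by
    have e : (fun i => gronwallBound (‖u i x₀‖) K (ε i) |x - x₀|) =
        fun i => ‖u i x₀‖ * Real.exp (K * |x - x₀|) +
          ε i / K * (Real.exp (K * |x - x₀|) - 1) := by
      funext i
      rw [gronwallBound_of_K_ne_0 hK.ne']
    rw [e]
    have h1 : Tendsto (fun i => ‖u i x₀‖ * Real.exp (K * |x - x₀|)) atTop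
        (𝓝 (‖(0 : E)‖ * Real.exp (K * |x - x₀|))) := h0.norm.mul_const _
    have h2 : Tendsto (fun i => ε i / K * (Real.exp (K * |x - x₀|) - 1)) atTop
        (𝓝 (0 / K * (Real.exp (K * |x - x₀|) - 1))) := (hε.div_const K).mul_const _
    have := h1.add h2
    simpa using this
  rw [tendsto_zero_iff_norm_tendsto_zero]
  refine squeeze_zero' (Eventually.of_forall fun i => norm_nonneg _) ?_ hlim
  filter_upwards [hc, hd, hb] with i h1 h2 h3
  exact E14_gron_one hx₀ h1 h2 h3 le_rfl x hx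

/-- primitives of continuous functions -/
theorem E14_prim_cont {L x₀ : ℝ} (hx₀ : x₀ ∈ Ioo (-L) L) {f : ℝ → E}
    (hf : ContinuousOn f (Icc (-L) L)) :
    ContinuousOn (fun x => ∫ y in x₀..x, f y) (Icc (-L) L) := by
  have hL : -L ≤ L := (hx₀.1.trans hx₀.2).le
  have hint : IntervalIntegrable f volume (-L) L := by
    apply ContinuousOn.intervalIntegrable
    rwa [uIcc_of_le hL]
  have := intervalIntegral.continuousOn_primitive_interval' (μ := volume) (f := f) (a := x₀)
    (b₁ := -L) (b₂ := L) hint (by rw [uIcc_of_le hL]; exact ⟨hx₀.1.le, hx₀.2.le⟩)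
  rwa [uIcc_of_le hL] at this

theorem E14_prim_deriv [CompleteSpace E] {L x₀ : ℝ} (hx₀ : x₀ ∈ Ioo (-L) L) {f : ℝ → E}
    (hf : ContinuousOn f (Icc (-L) L)) {x : ℝ} (hx : x ∈ Ioo (-L) L) :
    HasDerivAt (fun x => ∫ y in x₀..x, f y) (f x) x := by
  have hcx : ContinuousAt f x := hf.continuousAt (Icc_mem_nhds hx.1 hx.2)
  refine intervalIntegral.integral_hasDerivAt_right ?_ ?_ hcx
  · apply ContinuousOn.intervalIntegrable
    refine hf.mono ?_
    intro y hy
    rcases le_total x₀ x with h | h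
    · rw [uIcc_of_le h] at hy
      exact ⟨hx₀.1.le.trans hy.1, hy.2.trans hx.2.le⟩
    · rw [uIcc_of_ge h] at hy
      exact ⟨hx.1.le.trans hy.1, hy.2.trans hx₀.2.le⟩
  · exact (hf.mono Ioo_subset_Icc_self).stronglyMeasurableAtFilter isOpen_Ioo x hx

theorem E14_prim_bound {L x₀ : ℝ} (hx₀ : x₀ ∈ Ioo (-L) L) {f : ℝ → E}
    (hf : ContinuousOn f (Icc (-L) L)) {x : ℝ} (hx : x ∈ Icc (-L) L) :
    ‖∫ y in x₀..x, f y‖ ≤ ∫ y in (-L)..L, ‖f y‖ := by
  have hL : -L ≤ L := (hx₀.1.trans hx₀.2).le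
  have hint : IntervalIntegrable (fun y => ‖f y‖) volume (-L) L := by
    apply ContinuousOn.intervalIntegrable
    rw [uIcc_of_le hL]
    exact hf.norm
  refine intervalIntegral.norm_integral_le_abs_integral_norm.trans ?_
  have h2 : |∫ y in x₀..x, ‖f y‖| ≤ |∫ y in (-L)..L, ‖f y‖| := by
    apply intervalIntegral.abs_integral_mono_interval
    · rw [uIoc_of_le hL]
      intro y hy
      rcases le_total x₀ x with h | h
      · rw [uIoc_of_le h] at hy
        exact ⟨lt_trans hx₀.1 hy.1, hy.2.trans hx.2⟩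
      · rw [uIoc_of_ge h] at hy
        exact ⟨lt_of_le_of_lt hx.1 hy.1, hy.2.trans hx₀.2.le⟩
    · exact Eventually.of_forall fun y => norm_nonneg _
    · exact hint
  refine h2.trans (le_of_eq (abs_of_nonneg ?_))
  exact intervalIntegral.integral_nonneg hL fun y _ => norm_nonneg _

end E14abs

section E14main

open scoped Matrix.Norms.Frobenius

theorem E14_norm_sq {m n : ℕ} (A : Matrix (Fin m) (Fin n) ℂ) : ‖A‖ ^ 2 = hs2 A := by
  rw [Matrix.frobenius_norm_def]
  have h : (∑ i, ∑ j, ‖A i j‖ ^ (2 : ℝ)) = hs2 A := by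
    unfold hs2
    simp only [Real.rpow_two]
  rw [h, ← Real.sqrt_eq_rpow, Real.sq_sqrt]
  unfold hs2
  positivity

theorem E14_norm_eq {m n : ℕ} (A : Matrix (Fin m) (Fin n) ℂ) : ‖A‖ = Real.sqrt (hs2 A) := by
  rw [← E14_norm_sq, Real.sqrt_sq (norm_nonneg _)]

theorem ode_stability {n : ℕ} {c L M x₀ : ℝ} (hx₀ : x₀ ∈ Ioo (-L) L) {A : ℕ → Mt n} {A' : Mt n}
    (hA : Tendsto A atTop (𝓝 A')) {G : ℕ → ℝ → Mt n} {G' : ℝ → Mt n} {ρ : ℕ → ℝ → Mt n}
    (hGc : ∀ᶠ i in atTop, ContinuousOn (G i) (Icc (-L) L))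
    (hρc : ∀ᶠ i in atTop, ContinuousOn (ρ i) (Icc (-L) L))
    (hG : ∀ᶠ i in atTop, ∀ x ∈ Ioo (-L) L,
      HasDerivAt (G i) (((c : ℝ) : ℂ) • (A i - G i x * G i x) + ρ i x) x)
    (hM : ∀ᶠ i in atTop, ∀ x ∈ Icc (-L) L, hs2 (G i x) ≤ M)
    (hρ : Tendsto (fun i => ∫ x in (-L)..L, Real.sqrt (hs2 (ρ i x))) atTop (𝓝 0))
    (hG' : ∀ x, HasDerivAt G' (((c : ℝ) : ℂ) • (A' - G' x * G' x)) x)
    (h0 : Tendsto (fun i => G i x₀) atTop (𝓝 (G' x₀))) :
    ∀ x ∈ Icc (-L) L, Tendsto (fun i => G i x) atTop (𝓝 (G' x)) := by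
  have hG'c : Continuous G' := continuous_iff_continuousAt.2 fun x => (hG' x).continuousAt
  obtain ⟨B, hB⟩ := isCompact_Icc.exists_bound_of_continuousOn
    (hG'c.continuousOn (s := Icc (-L) L))
  set N : ℝ := Real.sqrt M + |B| with hN
  have hN0 : 0 ≤ N := by positivity
  set η : ℕ → ℝ := fun i => ∫ y in (-L)..L, ‖ρ i y‖ with hη
  have hη0 : Tendsto η atTop (𝓝 0) := by
    refine hρ.congr fun i => ?_
    simp only [hη, E14_norm_eq]
  set R : ℕ → ℝ → Mt n := fun i x => ∫ y in x₀..x, ρ i y with hR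
  have hRlim : ∀ x ∈ Icc (-L) L, Tendsto (fun i => R i x) atTop (𝓝 0) := by
    intro x hx
    refine (tendsto_zero_iff_norm_tendsto_zero (E := Mt n)).2 ?_
    refine squeeze_zero' (Eventually.of_forall fun i => norm_nonneg _) ?_ hη0
    filter_upwards [hρc] with i hi
    exact E14_prim_bound hx₀ hi hx
  have hx₀' : x₀ ∈ Icc (-L) L := ⟨hx₀.1.le, hx₀.2.le⟩
  set u : ℕ → ℝ → Mt n := fun i x => G i x - G' x - R i x with hu
  set K : ℝ := |c| * N + 1 with hK
  have hK0 : 0 < K := by positivity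
  have key : ∀ x ∈ Icc (-L) L, Tendsto (fun i => u i x) atTop (𝓝 0) := by
    refine E14_gron (K := K) hx₀ hK0
      (du := fun i x => ((c : ℝ) : ℂ) • (A i - G i x * G i x)
        - ((c : ℝ) : ℂ) • (A' - G' x * G' x))
      (ε := fun i => |c| * ‖A i - A'‖ + |c| * N * η i) ?_ ?_ ?_ ?_ ?_
    · filter_upwards [hGc, hρc] with i h1 h2
      exact (h1.sub hG'c.continuousOn).sub (E14_prim_cont hx₀ h2)
    · filter_upwards [hG, hρc] with i h1 h2 x hx
      have h3 := ((h1 x hx).sub (hG' x)).sub (E14_prim_deriv hx₀ h2 hx)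
      refine h3.congr_deriv ?_
      abel
    · filter_upwards [hM, hρc] with i h1 h2 x hx
      have hxI : x ∈ Icc (-L) L := ⟨hx.1.le, hx.2.le⟩
      have hGn : ‖G i x‖ ≤ Real.sqrt M := by
        rw [E14_norm_eq]
        exact Real.sqrt_le_sqrt (h1 x hxI)
      have hG'n : ‖G' x‖ ≤ |B| := (hB x hxI).trans (le_abs_self _)
      have hRn : ‖R i x‖ ≤ η i := E14_prim_bound hx₀ h2 hxI
      have e : ((c : ℝ) : ℂ) • (A i - G i x * G i x) - ((c : ℝ) : ℂ) • (A' - G' x * G' x) =
          ((c : ℝ) : ℂ) • ((A i - A') - (G i x * (G i x - G' x) + (G i x - G' x) * G' x)) := by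
        rw [← smul_sub]
        congr 1
        noncomm_ring
      rw [e, norm_smul]
      have hcn : ‖((c : ℝ) : ℂ)‖ = |c| := by simp
      rw [hcn]
      have hdiff : ‖G i x - G' x‖ ≤ ‖u i x‖ + η i := by
        have : G i x - G' x = u i x + R i x := by simp [hu]
        rw [this]
        exact (norm_add_le _ _).trans (add_le_add le_rfl hRn)
      have h4 : ‖(A i - A') - (G i x * (G i x - G' x) + (G i x - G' x) * G' x)‖ ≤
          ‖A i - A'‖ + N * (‖u i x‖ + η i) := by
        refine (norm_sub_le _ _).trans (add_le_add le_rfl ?_)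
        refine (norm_add_le _ _).trans ?_
        have a1 : ‖G i x * (G i x - G' x)‖ ≤ Real.sqrt M * ‖G i x - G' x‖ :=
          (Matrix.frobenius_norm_mul _ _).trans
            (mul_le_mul_of_nonneg_right hGn (norm_nonneg _))
        have a2 : ‖(G i x - G' x) * G' x‖ ≤ ‖G i x - G' x‖ * |B| :=
          (Matrix.frobenius_norm_mul _ _).trans
            (mul_le_mul_of_nonneg_left hG'n (norm_nonneg _))
        calc ‖G i x * (G i x - G' x)‖ + ‖(G i x - G' x) * G' x‖
            ≤ Real.sqrt M * ‖G i x - G' x‖ + ‖G i x - G' x‖ * |B| := add_le_add a1 a2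
          _ = N * ‖G i x - G' x‖ := by rw [hN]; ring
          _ ≤ N * (‖u i x‖ + η i) := mul_le_mul_of_nonneg_left hdiff hN0
      calc |c| * ‖(A i - A') - (G i x * (G i x - G' x) + (G i x - G' x) * G' x)‖
          ≤ |c| * (‖A i - A'‖ + N * (‖u i x‖ + η i)) :=
            mul_le_mul_of_nonneg_left h4 (abs_nonneg _)
        _ = (|c| * N) * ‖u i x‖ + (|c| * ‖A i - A'‖ + |c| * N * η i) := by ring
        _ ≤ K * ‖u i x‖ + (|c| * ‖A i - A'‖ + |c| * N * η i) := by
            have : (|c| * N) * ‖u i x‖ ≤ K * ‖u i x‖ :=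
              mul_le_mul_of_nonneg_right (by rw [hK]; linarith) (norm_nonneg _)
            linarith
    · have h1 : Tendsto (fun i => ‖A i - A'‖) atTop (𝓝 0) := by
        have := (hA.sub_const A').norm
        simpa using this
      have h2 := (h1.const_mul |c|).add (hη0.const_mul (|c| * N))
      simpa using h2
    · have h1 := (h0.sub_const (G' x₀)).sub (hRlim x₀ hx₀')
      have e0 : G' x₀ - G' x₀ - 0 = 0 := by simp
      rw [e0] at h1
      exact h1
  intro x hx
  have h1 := ((key x hx).add (hRlim x hx)).add_const (G' x)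
  have e : (fun i => u i x + R i x + G' x) = fun i => G i x := by
    funext i
    simp [hu]
  rw [e] at h1
  simpa using h1

/-- `L²` convergence implies `L¹` convergence on a bounded interval. -/
theorem E14_L1_of_L2 {m n : ℕ} {L : ℝ} (hL : -L ≤ L) {E : ℕ → ℝ → Matrix (Fin m) (Fin n) ℂ}
    (hEc : ∀ᶠ i in atTop, ContinuousOn (E i) (Icc (-L) L))
    (hE : Tendsto (fun i => ∫ x in (-L)..L, hs2 (E i x)) atTop (𝓝 0)) :
    Tendsto (fun i => ∫ x in (-L)..L, ‖E i x‖) atTop (𝓝 0) := by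
  set s : ℕ → ℝ := fun i => ∫ x in (-L)..L, hs2 (E i x) with hs
  have hs0 : ∀ i, 0 ≤ s i := fun i =>
    intervalIntegral.integral_nonneg hL fun y _ => by rw [← E14_norm_sq]; positivity
  have hsq : Tendsto (fun i => Real.sqrt (s i)) atTop (𝓝 0) := by
    have := (Real.continuous_sqrt.tendsto 0).comp hE
    simpa [Function.comp_def] using this
  have hone : Tendsto (fun i : ℕ => 1 / ((i : ℝ) + 1)) atTop (𝓝 0) :=
    tendsto_one_div_add_atTop_nhds_zero_nat
  have hlim : Tendsto (fun i : ℕ => (L - -L) * (Real.sqrt (s i) + 1 / ((i : ℝ) + 1)) +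
      Real.sqrt (s i)) atTop (𝓝 0) := by
    have := ((hsq.add hone).const_mul (L - -L)).add hsq
    simpa using this
  refine squeeze_zero' ?_ ?_ hlim
  · exact Eventually.of_forall fun i => intervalIntegral.integral_nonneg hL fun y _ => norm_nonneg _
  · filter_upwards [hEc] with i hi
    set ε : ℝ := Real.sqrt (s i) + 1 / ((i : ℝ) + 1) with hε
    have hε0 : 0 < ε := by positivity
    have hpt : ∀ x ∈ Icc (-L) L, ‖E i x‖ ≤ ε + hs2 (E i x) / ε := by
      intro x _
      rw [← E14_norm_sq]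
      have h1 : ‖E i x‖ * ε ≤ ε * ε + ‖E i x‖ ^ 2 := by
        nlinarith [sq_nonneg (‖E i x‖ - ε), norm_nonneg (E i x), sq_nonneg (‖E i x‖ + ε),
          mul_nonneg (norm_nonneg (E i x)) hε0.le]
      have h2 : ε + ‖E i x‖ ^ 2 / ε = (ε * ε + ‖E i x‖ ^ 2) / ε := by
        field_simp
      rw [h2, le_div_iff₀ hε0]
      exact h1
    have hcn : ContinuousOn (fun x => ‖E i x‖) (Icc (-L) L) := hi.norm
    have hch : ContinuousOn (fun x => hs2 (E i x)) (Icc (-L) L) := by
      have : (fun x => hs2 (E i x)) = fun x => ‖E i x‖ ^ 2 := by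
        funext x
        rw [E14_norm_sq]
      rw [this]
      exact hcn.pow 2
    have hci : IntervalIntegrable (fun x => hs2 (E i x)) volume (-L) L := by
      apply ContinuousOn.intervalIntegrable
      rwa [uIcc_of_le hL]
    have hni : IntervalIntegrable (fun x => ‖E i x‖) volume (-L) L := by
      apply ContinuousOn.intervalIntegrable
      rwa [uIcc_of_le hL]
    calc ∫ x in (-L)..L, ‖E i x‖ ≤ ∫ x in (-L)..L, (ε + hs2 (E i x) / ε) :=
          intervalIntegral.integral_mono_on hL hni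
            (intervalIntegrable_const.add (hci.div_const ε)) hpt
      _ = (L - -L) * ε + s i / ε := by
          rw [intervalIntegral.integral_add intervalIntegrable_const (hci.div_const ε),
            intervalIntegral.integral_const, intervalIntegral.integral_div, smul_eq_mul]
      _ ≤ (L - -L) * ε + Real.sqrt (s i) := by
          have h3 : s i / ε ≤ Real.sqrt (s i) := by
            rw [div_le_iff₀ hε0]
            have h4 : Real.sqrt (s i) * Real.sqrt (s i) = s i := Real.mul_self_sqrt (hs0 i)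
            have h5 : 0 ≤ Real.sqrt (s i) * (1 / ((i : ℝ) + 1)) := by positivity
            rw [hε, mul_add, h4]
            linarith
          linarith

theorem linear_stability {m n : ℕ} {L M x₀ : ℝ} (hx₀ : x₀ ∈ Ioo (-L) L)
    {Ψ : ℕ → ℝ → Matrix (Fin m) (Fin n) ℂ} {Ψ' : ℝ → Matrix (Fin m) (Fin n) ℂ}
    {F : ℕ → ℝ → Mt n} {F' : ℝ → Mt n} {E : ℕ → ℝ → Matrix (Fin m) (Fin n) ℂ}
    (hΨc : ∀ᶠ i in atTop, ContinuousOn (Ψ i) (Icc (-L) L))
    (hFc : ∀ᶠ i in atTop, ContinuousOn (F i) (Icc (-L) L))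
    (hEc : ∀ᶠ i in atTop, ContinuousOn (E i) (Icc (-L) L))
    (hd : ∀ᶠ i in atTop, ∀ x ∈ Ioo (-L) L, HasDerivAt (Ψ i) (Ψ i x * F i x + E i x) x)
    (hM : ∀ᶠ i in atTop, ∀ x ∈ Icc (-L) L, hs2 (F i x) ≤ M)
    (hF : ∀ x ∈ Icc (-L) L, Tendsto (fun i => F i x) atTop (𝓝 (F' x))) (hF' : Continuous F')
    (hE : Tendsto (fun i => ∫ x in (-L)..L, hs2 (E i x)) atTop (𝓝 0))
    (hΨ' : ∀ x, HasDerivAt Ψ' (Ψ' x * F' x) x)
    (h0 : Tendsto (fun i => Ψ i x₀) atTop (𝓝 (Ψ' x₀))) :
    ∀ x ∈ Icc (-L) L, Tendsto (fun i => Ψ i x) atTop (𝓝 (Ψ' x)) := by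
  have hL : -L ≤ L := (hx₀.1.trans hx₀.2).le
  have hx₀' : x₀ ∈ Icc (-L) L := ⟨hx₀.1.le, hx₀.2.le⟩
  have hΨ'c : Continuous Ψ' := continuous_iff_continuousAt.2 fun x => (hΨ' x).continuousAt
  obtain ⟨B, hB⟩ := isCompact_Icc.exists_bound_of_continuousOn
    (hΨ'c.continuousOn (s := Icc (-L) L))
  obtain ⟨B2, hB2⟩ := isCompact_Icc.exists_bound_of_continuousOn
    (hF'.continuousOn (s := Icc (-L) L))
  have hFn : ∀ᶠ i in atTop, ∀ x ∈ Icc (-L) L, ‖F i x‖ ≤ Real.sqrt M := by
    filter_upwards [hM] with i hi x hx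
    rw [E14_norm_eq]
    exact Real.sqrt_le_sqrt (hi x hx)
  set D : ℕ → ℝ → Matrix (Fin m) (Fin n) ℂ := fun i x => Ψ' x * (F i x - F' x) with hD
  have hDc : ∀ᶠ i in atTop, ContinuousOn (D i) (Icc (-L) L) := by
    filter_upwards [hFc] with i hi
    have h1 : ContinuousOn (fun x => F i x - F' x) (Icc (-L) L) := hi.sub hF'.continuousOn
    rw [continuousOn_iff_continuous_restrict] at h1 ⊢
    exact (hΨ'c.comp continuous_subtype_val).matrix_mul h1
  have hDlim : Tendsto (fun i => ∫ x in (-L)..L, ‖D i x‖) atTop (𝓝 0) := by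
    have h1 : Tendsto (fun i => ∫ x in (-L)..L, ‖D i x‖) atTop
        (𝓝 (∫ _ in (-L)..L, (0 : ℝ))) := by
      refine intervalIntegral.tendsto_integral_filter_of_dominated_convergence
        (fun _ => |B| * (Real.sqrt M + |B2|)) ?_ ?_ intervalIntegrable_const ?_
      · filter_upwards [hDc] with i hi
        rw [uIoc_of_le hL]
        exact (hi.norm.mono Ioc_subset_Icc_self).aestronglyMeasurable measurableSet_Ioc
      · filter_upwards [hFn] with i hi
        refine Eventually.of_forall fun x hx => ?_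
        rw [uIoc_of_le hL] at hx
        have hx' : x ∈ Icc (-L) L := Ioc_subset_Icc_self hx
        rw [norm_norm]
        refine (Matrix.frobenius_norm_mul _ _).trans ?_
        refine mul_le_mul ((hB x hx').trans (le_abs_self _)) ?_ (norm_nonneg _) (abs_nonneg _)
        exact (norm_sub_le _ _).trans (add_le_add (hi x hx') ((hB2 x hx').trans (le_abs_self _)))
      · refine Eventually.of_forall fun x hx => ?_
        rw [uIoc_of_le hL] at hx
        have hx' : x ∈ Icc (-L) L := Ioc_subset_Icc_self hx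
        have h2 : Tendsto (fun i => ‖Ψ' x‖ * ‖F i x - F' x‖) atTop (𝓝 0) := by
          have h3 := ((hF x hx').sub_const (F' x)).norm.const_mul ‖Ψ' x‖
          simpa using h3
        exact squeeze_zero (fun i => norm_nonneg _)
          (fun i => Matrix.frobenius_norm_mul _ _) h2
    simpa using h1
  set T : ℕ → ℝ → Matrix (Fin m) (Fin n) ℂ := fun i x => E i x + D i x with hT
  have hTc : ∀ᶠ i in atTop, ContinuousOn (T i) (Icc (-L) L) := by
    filter_upwards [hEc, hDc] with i h1 h2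
    exact h1.add h2
  set η : ℕ → ℝ := fun i => ∫ y in (-L)..L, ‖T i y‖ with hη
  have hη0 : Tendsto η atTop (𝓝 0) := by
    have h1 := (E14_L1_of_L2 hL hEc hE).add hDlim
    rw [add_zero] at h1
    refine squeeze_zero' ?_ ?_ h1
    · exact Eventually.of_forall fun i =>
        intervalIntegral.integral_nonneg hL fun y _ => norm_nonneg _
    · filter_upwards [hEc, hDc, hTc] with i h2 h3 h4
      have i2 : IntervalIntegrable (fun x => ‖E i x‖) volume (-L) L := by
        apply ContinuousOn.intervalIntegrable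
        rw [uIcc_of_le hL]
        exact h2.norm
      have i3 : IntervalIntegrable (fun x => ‖D i x‖) volume (-L) L := by
        apply ContinuousOn.intervalIntegrable
        rw [uIcc_of_le hL]
        exact h3.norm
      have i4 : IntervalIntegrable (fun x => ‖T i x‖) volume (-L) L := by
        apply ContinuousOn.intervalIntegrable
        rw [uIcc_of_le hL]
        exact h4.norm
      rw [← intervalIntegral.integral_add i2 i3]
      exact intervalIntegral.integral_mono_on hL i4 (i2.add i3) fun x _ => norm_add_le _ _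
  set R : ℕ → ℝ → Matrix (Fin m) (Fin n) ℂ := fun i x => ∫ y in x₀..x, T i y with hR
  have hRlim : ∀ x ∈ Icc (-L) L, Tendsto (fun i => R i x) atTop (𝓝 0) := by
    intro x hx
    refine (tendsto_zero_iff_norm_tendsto_zero (E := Matrix (Fin m) (Fin n) ℂ)).2 ?_
    refine squeeze_zero' (Eventually.of_forall fun i => norm_nonneg _) ?_ hη0
    filter_upwards [hTc] with i hi
    exact E14_prim_bound hx₀ hi hx
  set u : ℕ → ℝ → Matrix (Fin m) (Fin n) ℂ := fun i x => Ψ i x - Ψ' x - R i x with hu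
  set K : ℝ := Real.sqrt M + 1 with hK
  have hK0 : 0 < K := by positivity
  have key : ∀ x ∈ Icc (-L) L, Tendsto (fun i => u i x) atTop (𝓝 0) := by
    refine E14_gron (K := K) hx₀ hK0
      (du := fun i x => (Ψ i x - Ψ' x) * F i x)
      (ε := fun i => Real.sqrt M * η i) ?_ ?_ ?_ ?_ ?_
    · filter_upwards [hΨc, hTc] with i h1 h2
      exact (h1.sub hΨ'c.continuousOn).sub (E14_prim_cont hx₀ h2)
    · filter_upwards [hd, hTc] with i h1 h2 x hx
      have h3 := ((h1 x hx).sub (hΨ' x)).sub (E14_prim_deriv hx₀ h2 hx)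
      refine h3.congr_deriv ?_
      simp only [hT, hD]
      rw [Matrix.mul_sub, Matrix.sub_mul]
      abel
    · filter_upwards [hFn, hTc] with i h1 h2 x hx
      have hxI : x ∈ Icc (-L) L := ⟨hx.1.le, hx.2.le⟩
      have hRn : ‖R i x‖ ≤ η i := E14_prim_bound hx₀ h2 hxI
      have hdiff : ‖Ψ i x - Ψ' x‖ ≤ ‖u i x‖ + η i := by
        have : Ψ i x - Ψ' x = u i x + R i x := by simp [hu]
        rw [this]
        exact (norm_add_le _ _).trans (add_le_add le_rfl hRn)
      have h5 : 0 ≤ ‖u i x‖ + η i := (norm_nonneg _).trans hdiff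
      calc ‖(Ψ i x - Ψ' x) * F i x‖ ≤ ‖Ψ i x - Ψ' x‖ * ‖F i x‖ := Matrix.frobenius_norm_mul _ _
        _ ≤ (‖u i x‖ + η i) * Real.sqrt M :=
            mul_le_mul hdiff (h1 x hxI) (norm_nonneg _) h5
        _ = Real.sqrt M * ‖u i x‖ + Real.sqrt M * η i := by ring
        _ ≤ K * ‖u i x‖ + Real.sqrt M * η i := by
            have : Real.sqrt M * ‖u i x‖ ≤ K * ‖u i x‖ :=
              mul_le_mul_of_nonneg_right (by rw [hK]; linarith) (norm_nonneg _)
            linarith
    · have h2 := hη0.const_mul (Real.sqrt M)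
      simpa using h2
    · have h1 := (h0.sub_const (Ψ' x₀)).sub (hRlim x₀ hx₀')
      have e0 : Ψ' x₀ - Ψ' x₀ - 0 = 0 := by simp
      rw [e0] at h1
      exact h1
  intro x hx
  have h1 := ((key x hx).add (hRlim x hx)).add_const (Ψ' x)
  have e : (fun i => u i x + R i x + Ψ' x) = fun i => Ψ i x := by
    funext i
    simp [hu]
  rw [e] at h1
  simpa using h1

end E14main

end Crest.Agent.LT
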