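import Crest.Agent.LTE_Defs

/-!
Task LTE-E15: explicit solution of `F' = -r (K² - F²)` for commuting data (joint diagonalization of two commuting
Hermitian matrices: e.g. `Mathlib/Analysis/InnerProductSpace/JointEigenspace.lean`, or diagonalize `K + t F₀` for generic `t`,
or block by block). Scalar: `k = 0`: `f = 0`; `|f(x₀)| = k`: constant; else `f = -k tanh (r k (x - c))`.
-/

set_option autoImplicit false

namespace Crest.Agent.LT

open MeasureTheory Matrix Set Filter
open Crest.MathPhysics.LiebThirring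
open scoped ComplexOrder Topology

private theorem E15_joint_basis {E : Type*} [NormedAddCommGroup E] [InnerProductSpace ℂ E]
    [FiniteDimensional ℂ E] {n : ℕ} (hn : Module.finrank ℂ E = n) {A B : E →ₗ[ℂ] E}
    (hA : A.IsSymmetric) (hB : B.IsSymmetric) (hAB : Commute A B) :
    ∃ (b : OrthonormalBasis (Fin n) ℂ E) (μ ν : Fin n → ℂ),
      ∀ i, A (b i) = μ i • b i ∧ B (b i) = ν i • b i := by
  classical
  let V : (Module.End.Eigenvalues A × Module.End.Eigenvalues B) → Submodule ℂ E :=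
    fun p => Module.End.eigenspace A (p.1 : ℂ) ⊓ Module.End.eigenspace B (p.2 : ℂ)
  have hO := LinearMap.IsSymmetric.orthogonalFamily_eigenspace_inf_eigenspace hA hB
  have hV' : OrthogonalFamily ℂ (fun i => V i) fun i => (V i).subtypeₗᵢ := by
    apply OrthogonalFamily.of_pairwise
    intro p q hpq v hv w hw
    have hne : ((p.2 : ℂ), (p.1 : ℂ)) ≠ ((q.2 : ℂ), (q.1 : ℂ)) := by
      intro h
      rw [Prod.mk.injEq] at h
      exact hpq (Prod.ext (Subtype.ext h.2) (Subtype.ext h.1))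
    exact hO.pairwise hne hv w hw
  have hV : DirectSum.IsInternal V := by
    rw [hV'.isInternal_iff, Submodule.orthogonal_eq_bot_iff]
    rw [eq_top_iff, ← LinearMap.IsSymmetric.iSup_iSup_eigenspace_inf_eigenspace_eq_top_of_commute
      hA hB hAB]
    apply iSup_le; intro a
    apply iSup_le; intro c
    by_cases ha : Module.End.HasEigenvalue A a
    · by_cases hc : Module.End.HasEigenvalue B c
      · exact le_iSup V (⟨a, ha⟩, ⟨c, hc⟩)
      · have : Module.End.eigenspace B c = ⊥ := by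
          by_contra h
          exact hc h
        rw [this, inf_bot_eq]; exact bot_le
    · have : Module.End.eigenspace A a = ⊥ := by
        by_contra h
        exact ha h
      rw [this, bot_inf_eq]; exact bot_le
  refine ⟨hV.subordinateOrthonormalBasis hn hV',
    fun i => ((hV.subordinateOrthonormalBasisIndex hn i hV').1 : ℂ),
    fun i => ((hV.subordinateOrthonormalBasisIndex hn i hV').2 : ℂ), fun i => ?_⟩
  have h := hV.subordinateOrthonormalBasis_subordinate hn i hV'
  have h' := Submodule.mem_inf.1 h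
  exact ⟨Module.End.mem_eigenspace_iff.1 h'.1, Module.End.mem_eigenspace_iff.1 h'.2⟩

private theorem E15_eig_real {E : Type*} [NormedAddCommGroup E] [InnerProductSpace ℂ E]
    {A : E →ₗ[ℂ] E} (hA : A.IsSymmetric) {v : E} (hv : v ≠ 0) {μ : ℂ} (h : A v = μ • v) :
    ((μ.re : ℝ) : ℂ) = μ := by
  have h1 := hA v v
  rw [h, inner_smul_left, inner_smul_right] at h1
  have h2 : inner ℂ v v ≠ 0 := inner_self_ne_zero.2 hv
  have h3 := mul_right_cancel₀ h2 h1
  exact Complex.conj_eq_iff_re.1 h3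

theorem exists_joint_diag {n : ℕ} {A B : Mt n} (hA : A.IsHermitian) (hB : B.IsHermitian)
    (h : A * B = B * A) : ∃ (U : Mt n) (a b : Fin n → ℝ), Uᴴ * U = 1 ∧ U * Uᴴ = 1 ∧
      A = U * dg a * Uᴴ ∧ B = U * dg b * Uᴴ := by
  have hA' := Matrix.isSymmetric_toEuclideanLin_iff.2 hA
  have hB' := Matrix.isSymmetric_toEuclideanLin_iff.2 hB
  have hAB : Commute (Matrix.toEuclideanLin A) (Matrix.toEuclideanLin B) := by
    rw [commute_iff_eq]
    apply LinearMap.ext
    intro v
    show Matrix.toEuclideanLin A (Matrix.toEuclideanLin B v)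
      = Matrix.toEuclideanLin B (Matrix.toEuclideanLin A v)
    simp only [Matrix.toLpLin_apply, Matrix.mulVec_mulVec, h]
  obtain ⟨b, μ, ν, hb⟩ := E15_joint_basis (n := n) (by simp) hA' hB' hAB
  let U : Mt n := Matrix.of fun i j => b j i
  have hU : Uᴴ * U = 1 := by
    ext j k
    have h1 : inner ℂ (b j) (b k) = if j = k then 1 else 0 :=
      orthonormal_iff_ite.1 b.orthonormal j k
    rw [Matrix.mul_apply, Matrix.one_apply, ← h1]
    simp only [Matrix.conjTranspose_apply, U, Matrix.of_apply, PiLp.inner_apply,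
      RCLike.inner_apply]
    apply Finset.sum_congr rfl
    intro i _
    rw [mul_comm]; rfl
  have hU' : U * Uᴴ = 1 := mul_eq_one_comm.1 hU
  have hne : ∀ i, b i ≠ 0 := fun i hi => by
    have := b.orthonormal.1 i
    rw [hi, norm_zero] at this
    exact zero_ne_one this
  have key : ∀ (C : Mt n) (γ : Fin n → ℂ), C.IsHermitian →
      (∀ i, Matrix.toEuclideanLin C (b i) = γ i • b i) →
      C = U * dg (fun i => (γ i).re) * Uᴴ := by
    intro C γ hC hγ
    have hr : ∀ i, (((γ i).re : ℝ) : ℂ) = γ i := fun i =>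
      E15_eig_real (Matrix.isSymmetric_toEuclideanLin_iff.2 hC) (hne i) (hγ i)
    have hCU : C * U = U * dg (fun i => (γ i).re) := by
      ext i j
      have h1 := congrArg (fun v : EuclideanSpace ℂ (Fin n) => v i) (hγ j)
      simp only [Matrix.toLpLin_apply, Matrix.mulVec, dotProduct, PiLp.smul_apply,
        smul_eq_mul] at h1
      rw [dg, Matrix.mul_diagonal, Matrix.mul_apply, hr]
      simp only [U, Matrix.of_apply]
      rw [mul_comm (b j i)]
      exact h1
    calc C = C * (U * Uᴴ) := by rw [hU', mul_one]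
      _ = C * U * Uᴴ := by rw [mul_assoc]
      _ = _ := by rw [hCU]
  exact ⟨U, _, _, hU, hU', key A μ hA (fun i => (hb i).1), key B ν hB (fun i => (hb i).2)⟩

private theorem E15_hasDerivAt_tanh (u : ℝ) : HasDerivAt Real.tanh (1 - Real.tanh u ^ 2) u := by
  have hc := Real.cosh_pos u
  have h1 := (Real.hasDerivAt_sinh u).div (Real.hasDerivAt_cosh u) hc.ne'
  have h2 : Real.tanh = fun x => Real.sinh x / Real.cosh x := by
    funext x; exact Real.tanh_eq_sinh_div_cosh x
  have h3 : 1 - Real.tanh u ^ 2 =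
      (Real.cosh u * Real.cosh u - Real.sinh u * Real.sinh u) / Real.cosh u ^ 2 := by
    rw [Real.tanh_eq_sinh_div_cosh]
    field_simp
  rw [h3, h2]
  exact h1

private theorem E15_abs_tanh_le (u : ℝ) : |Real.tanh u| ≤ 1 :=
  abs_le.2 ⟨(Real.neg_one_lt_tanh u).le, (Real.tanh_lt_one u).le⟩

theorem scalar_riccati {r k f₀ x₀ : ℝ} (hr : 0 < r) (hk : 0 ≤ k) (hf : |f₀| ≤ k) :
    ∃ f : ℝ → ℝ, f x₀ = f₀ ∧ (∀ x, HasDerivAt f (-r * (k ^ 2 - f x ^ 2)) x) ∧ (∀ x, |f x| ≤ k) ∧
      ((∀ x, f x = k) ∨ (∀ x, f x = -k) ∨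
        (0 < k ∧ ∃ c : ℝ, ∀ x, f x = -k * Real.tanh (r * k * (x - c)))) := by
  rcases eq_or_lt_of_le hf with h | h
  · rcases abs_eq hk |>.1 h with h1 | h1
    · refine ⟨fun _ => k, h1.symm, fun x => ?_, fun _ => (abs_of_nonneg hk).le, Or.inl fun _ => rfl⟩
      have : -r * (k ^ 2 - k ^ 2) = 0 := by ring
      rw [this]; exact hasDerivAt_const x k
    · refine ⟨fun _ => -k, h1.symm, fun x => ?_, fun _ => by rw [abs_neg, abs_of_nonneg hk],
        Or.inr (Or.inl fun _ => rfl)⟩
      have : -r * (k ^ 2 - (-k) ^ 2) = 0 := by ring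
      rw [this]; exact hasDerivAt_const x (-k)
  · have hk0 : 0 < k := lt_of_le_of_lt (abs_nonneg _) h
    have hmem : -f₀ / k ∈ Set.Ioo (-1 : ℝ) 1 := by
      rw [abs_lt] at h
      constructor
      · rw [lt_div_iff₀ hk0]; linarith [h.1, h.2]
      · rw [div_lt_iff₀ hk0]; linarith [h.1, h.2]
    set c : ℝ := x₀ - Real.artanh (-f₀ / k) / (r * k) with hc
    refine ⟨fun x => -k * Real.tanh (r * k * (x - c)), ?_, fun x => ?_, fun x => ?_,
      Or.inr (Or.inr ⟨hk0, c, fun _ => rfl⟩)⟩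
    · show -k * Real.tanh (r * k * (x₀ - c)) = f₀
      have e : r * k * (x₀ - c) = Real.artanh (-f₀ / k) := by
        rw [hc]; field_simp; ring
      rw [e, Real.tanh_artanh hmem]
      field_simp
    · have h1 : HasDerivAt (fun x : ℝ => r * k * (x - c)) (r * k) x := by
        have := ((hasDerivAt_id x).sub_const c).const_mul (r * k)
        simpa using this
      have h2 := ((E15_hasDerivAt_tanh (r * k * (x - c))).comp x h1).const_mul (-k)
      have e : -r * (k ^ 2 - (-k * Real.tanh (r * k * (x - c))) ^ 2) =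
          -k * ((1 - Real.tanh (r * k * (x - c)) ^ 2) * (r * k)) := by ring
      rw [e]
      exact h2
    · show |-k * Real.tanh (r * k * (x - c))| ≤ k
      rw [abs_mul, abs_neg, abs_of_pos hk0]
      calc k * |Real.tanh (r * k * (x - c))| ≤ k * 1 :=
            mul_le_mul_of_nonneg_left (E15_abs_tanh_le _) hk0.le
        _ = k := mul_one k

private theorem E15_dg_mul {n : ℕ} (a b : Fin n → ℝ) :
    dg a * dg b = dg (fun j => a j * b j) := by
  rw [dg, dg, dg, Matrix.diagonal_mul_diagonal]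
  congr 1
  funext j
  push_cast
  ring

private theorem E15_dg_sub {n : ℕ} (a b : Fin n → ℝ) :
    dg a - dg b = dg (fun j => a j - b j) := by
  rw [dg, dg, dg, Matrix.diagonal_sub]
  congr 1
  funext j
  push_cast
  ring

private theorem E15_dg_add {n : ℕ} (a b : Fin n → ℝ) :
    dg a + dg b = dg (fun j => a j + b j) := by
  rw [dg, dg, dg, Matrix.diagonal_add]
  congr 1
  funext j
  push_cast
  ring

private theorem E15_dg_smul {n : ℕ} (c : ℝ) (a : Fin n → ℝ) :
    ((c : ℝ) : ℂ) • dg a = dg (fun j => c * a j) := by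
  rw [dg, dg, ← Matrix.diagonal_smul]
  congr 1
  funext j
  simp

private theorem E15_nonneg {n : ℕ} {U : Mt n} {a : Fin n → ℝ} (hU : Uᴴ * U = 1)
    (h : (U * dg a * Uᴴ).PosSemidef) (j : Fin n) : 0 ≤ a j := by
  have h1 := h.conjTranspose_mul_mul_same U
  have h2 : Uᴴ * (U * dg a * Uᴴ) * U = dg a := by
    calc Uᴴ * (U * dg a * Uᴴ) * U = (Uᴴ * U) * dg a * (Uᴴ * U) := by
          simp only [Matrix.mul_assoc]
      _ = dg a := by rw [hU, one_mul, mul_one]
  rw [h2] at h1
  have h3 := h1.diag_nonneg (i := j)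
  rw [dg, Matrix.diagonal_apply_eq] at h3
  exact_mod_cast h3

private theorem E15_hasDerivAt {n : ℕ} (U W : Mt n) {f : Fin n → ℝ → ℝ} {f' : Fin n → ℝ} {x : ℝ}
    (h : ∀ j, HasDerivAt (f j) (f' j) x) :
    HasDerivAt (fun y => U * dg (fun j => f j y) * W) (U * dg f' * W) x := by
  have e : ∀ (v : Fin n → ℝ) (i k : Fin n),
      (U * dg v * W) i k = ∑ j, U i j * ((v j : ℝ) : ℂ) * W j k := by
    intro v i k
    rw [Matrix.mul_apply]
    apply Finset.sum_congr rfl
    intro j _
    rw [dg, Matrix.mul_diagonal]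
  apply hasDerivAt_pi.2
  intro i
  apply hasDerivAt_pi.2
  intro k
  have h1 : HasDerivAt (fun y => ∑ j, U i j * ((f j y : ℝ) : ℂ) * W j k)
      (∑ j, U i j * ((f' j : ℝ) : ℂ) * W j k) x := by
    apply HasDerivAt.fun_sum
    intro j _
    exact (((h j).ofReal_comp).const_mul (U i j)).mul_const (W j k)
  have h2 : (fun y => (U * dg (fun j => f j y) * W) i k)
      = fun y => ∑ j, U i j * ((f j y : ℝ) : ℂ) * W j k := by
    funext y
    exact e _ i k
  have h3 : (U * dg f' * W) i k = ∑ j, U i j * ((f' j : ℝ) : ℂ) * W j k := e _ i k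
  show HasDerivAt (fun y => (U * dg (fun j => f j y) * W) i k) ((U * dg f' * W) i k) x
  rw [h2, h3]
  exact h1

theorem explicit_riccati {n : ℕ} {r x₀ : ℝ} (hr : 0 < r) {K F₀ : Mt n} (hadm : Adm K F₀)
    (hcomm : K * F₀ = F₀ * K) :
    ∃ (U : Mt n) (k : Fin n → ℝ) (f : Fin n → ℝ → ℝ), Uᴴ * U = 1 ∧ U * Uᴴ = 1 ∧ (∀ j, 0 ≤ k j) ∧
      K = U * dg k * Uᴴ ∧ F₀ = U * dg (fun j => f j x₀) * Uᴴ ∧
      (∀ j x, HasDerivAt (f j) (-r * (k j ^ 2 - f j x ^ 2)) x) ∧ (∀ j x, |f j x| ≤ k j) ∧
      (∀ j, (∀ x, f j x = k j) ∨ (∀ x, f j x = -k j) ∨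
        (0 < k j ∧ ∃ c : ℝ, ∀ x, f j x = -k j * Real.tanh (r * k j * (x - c)))) ∧
      ∀ x, HasDerivAt (fun y => U * dg (fun j => f j y) * Uᴴ) (((-r : ℝ) : ℂ) •
        (K * K - (U * dg (fun j => f j x) * Uᴴ) * (U * dg (fun j => f j x) * Uᴴ))) x := by
  obtain ⟨U, k, g, hU, hU', hK, hF⟩ :=
    exists_joint_diag hadm.isHermitian_K hadm.isHermitian_F hcomm
  have hsub : ∀ j, 0 ≤ k j - g j := by
    intro j
    have h := hadm.sub
    rw [hK, hF, ← Matrix.sub_mul, ← Matrix.mul_sub, E15_dg_sub] at h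
    exact E15_nonneg hU h j
  have hadd : ∀ j, 0 ≤ k j + g j := by
    intro j
    have h := hadm.add
    rw [hK, hF, ← Matrix.add_mul, ← Matrix.mul_add, E15_dg_add] at h
    exact E15_nonneg hU h j
  have hk : ∀ j, 0 ≤ k j := fun j => by linarith [hsub j, hadd j]
  have hg : ∀ j, |g j| ≤ k j := fun j => abs_le.2 ⟨by linarith [hadd j], by linarith [hsub j]⟩
  choose f hf0 hfd hfb hfc using fun j => scalar_riccati (x₀ := x₀) hr (hk j) (hg j)
  refine ⟨U, k, f, hU, hU', hk, hK, ?_, hfd, hfb, hfc, fun x => ?_⟩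
  · have : (fun j => f j x₀) = g := funext hf0
    rw [this]; exact hF
  · have h1 := E15_hasDerivAt U Uᴴ (x := x) (fun j => hfd j x)
    have hprod : ∀ a : Fin n → ℝ, (U * dg a * Uᴴ) * (U * dg a * Uᴴ)
        = U * dg (fun j => a j * a j) * Uᴴ := by
      intro a
      calc (U * dg a * Uᴴ) * (U * dg a * Uᴴ) = U * dg a * (Uᴴ * U) * dg a * Uᴴ := by
            simp only [Matrix.mul_assoc]
        _ = U * (dg a * dg a) * Uᴴ := by rw [hU, mul_one]; simp only [Matrix.mul_assoc]
        _ = _ := by rw [E15_dg_mul]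
    have e : (((-r : ℝ) : ℂ) • (K * K - (U * dg (fun j => f j x) * Uᴴ) *
        (U * dg (fun j => f j x) * Uᴴ))) =
        U * dg (fun j => -r * (k j ^ 2 - f j x ^ 2)) * Uᴴ := by
      rw [hprod, hK, hprod, ← Matrix.sub_mul, ← Matrix.mul_sub, E15_dg_sub, ← Matrix.smul_mul,
        ← Matrix.mul_smul, E15_dg_smul]
      congr 3
      funext j
      ring
    rw [e]
    exact h1

/-- in the non-constant case `s (k² - f²)` is a soliton -/
theorem soliton_of_tanh {α k c x : ℝ} (hα : 0 < α) :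
    (1 / α + 1) * (k ^ 2 - (-k * Real.tanh ((1 / α) * k * (x - c))) ^ 2) = soliton (1 / α) k c x := by
  have h1 : 1 - Real.tanh ((1 / α) * k * (x - c)) ^ 2 =
      1 / Real.cosh ((1 / α) * k * (x - c)) ^ 2 := by
    generalize (1 / α) * k * (x - c) = u
    have hc := Real.cosh_pos u
    rw [Real.tanh_eq_sinh_div_cosh, div_pow]
    have := Real.cosh_sq_sub_sinh_sq u
    field_simp
    linarith
  unfold soliton
  have e : k ^ 2 - (-k * Real.tanh ((1 / α) * k * (x - c))) ^ 2 =
      k ^ 2 * (1 - Real.tanh ((1 / α) * k * (x - c)) ^ 2) := by ring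
  rw [e, h1]
  ring

end Crest.Agent.LT
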