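import Crest.Agent.LTE_Defs
import Crest.Agent.LTE_E10
import Crest.Agent.LT_T02
/-!
Task LTE-E17: subsequences of a `PathSeq` and a.e. convergence (L¹-convergence to 0 of nonnegative functions on
windows gives a.e. convergence along a subsequence; `tendstoInMeasure`/`TendstoInMeasure.exists_seq_tendsto_ae`).
-/

set_option autoImplicit false

namespace Crest.Agent.LT

open MeasureTheory Matrix Set Filter
open Crest.MathPhysics.LiebThirring
open scoped ComplexOrder Topology

/-- subsequence of a path sequence -/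
def PathSeq.sub {m : ℕ} {α : ℝ} {f₀ : ℝ → ℝ} (S : PathSeq m α f₀) (θ : ℕ → ℕ) (hθ : StrictMono θ) :
    PathSeq m α f₀ where
  N := fun i => S.N (θ i)
  R := fun i => S.R (θ i)
  k := fun i => S.k (θ i)
  F := fun i => S.F (θ i)
  V := fun i => S.V (θ i)
  w := fun i => S.w (θ i)
  κ := S.κ
  ric := fun i => S.ric (θ i)
  anti := fun i => S.anti (θ i)
  nonneg := fun i => S.nonneg (θ i)
  kbound := fun i => S.kbound (θ i)
  ksum := fun i => S.ksum (θ i)
  Vpsd := fun i => S.Vpsd (θ i)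
  Vcont := fun i => S.Vcont (θ i)
  rank := fun i => S.rank (θ i)
  wcont := fun i => S.wcont (θ i)
  wnonneg := fun i => S.wnonneg (θ i)
  trV := fun i => S.trV (θ i)
  hR := S.hR.comp hθ.tendsto_atTop
  hwint := fun i => S.hwint (θ i)
  hw := S.hw.comp hθ.tendsto_atTop
  err := S.err.comp hθ.tendsto_atTop
  defect := S.defect.comp hθ.tendsto_atTop

theorem E17_continuous_hs2 {m N : ℕ} : Continuous (hs2 : Matrix (Fin m) (Fin N) ℂ → ℝ) := by
  unfold hs2
  refine continuous_finsetSum _ fun i _ => continuous_finsetSum _ fun j _ => ?_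
  exact ((continuous_apply j).comp (continuous_apply i)).norm.pow 2

theorem E17_continuous_tr {N : ℕ} : Continuous (tr : Mt N → ℝ) := by
  unfold tr
  exact Complex.continuous_re.comp (Continuous.matrix_trace continuous_id)

theorem E17_tr_nonneg {N : ℕ} {V : Mt N} (hV : V.PosSemidef) : 0 ≤ tr V := by
  have h := hV.trace_nonneg
  rw [Complex.le_def] at h
  simpa [tr] using h.1

/-- `L¹`-convergence to zero of nonnegative functions gives a.e. convergence along a subsequence -/
theorem E17_subseq (g : ℕ → ℝ → ℝ) (hg : ∀ i, Integrable (g i)) (hnn : ∀ i x, 0 ≤ g i x)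
    (hlim : Tendsto (fun i => ∫ x, g i x) atTop (𝓝 0)) :
    ∃ θ : ℕ → ℕ, StrictMono θ ∧ ∀ᵐ x : ℝ, Tendsto (fun i => g (θ i) x) atTop (𝓝 0) := by
  have hmeas : TendstoInMeasure volume g atTop (fun _ => (0 : ℝ)) := by
    refine tendstoInMeasure_of_tendsto_eLpNorm (p := 1) one_ne_zero
      (fun i => (hg i).aestronglyMeasurable) aestronglyMeasurable_const ?_
    have hkey : ∀ i, eLpNorm (g i - fun _ => (0 : ℝ)) 1 volume = ENNReal.ofReal (∫ x, g i x) := by
      intro i
      have h0 : (g i - fun _ => (0 : ℝ)) = g i := by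
        funext x; simp
      rw [h0, eLpNorm_one_eq_lintegral_enorm,
        ofReal_integral_eq_lintegral_ofReal (hg i) (Eventually.of_forall (hnn i))]
      refine lintegral_congr fun x => ?_
      rw [Real.enorm_eq_ofReal (hnn i x)]
    simp_rw [hkey]
    have := (ENNReal.continuous_ofReal.tendsto (0 : ℝ)).comp hlim
    rw [ENNReal.ofReal_zero] at this
    exact this
  obtain ⟨θ, hθ, hae⟩ := hmeas.exists_seq_tendsto_ae
  exact ⟨θ, hθ, hae⟩

theorem E17_hjErr_contOn {N : ℕ} {α R : ℝ} {K : Mt N} {F V : ℝ → Mt N} (h : Riccati R K F V)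
    (hV : Continuous V) : ContinuousOn (fun x => hjErr α K (F x) (V x)) (Icc (-R) R) := by
  have hF := h.contF
  have hF' : Continuous (fun x : Icc (-R) R => F x) := continuousOn_iff_continuous_domRestrict.1 hF
  have hV' : Continuous (fun x : Icc (-R) R => V x) := hV.comp continuous_subtype_val
  rw [continuousOn_iff_continuous_domRestrict]
  change Continuous (fun x : Icc (-R) R => hjErr α K (F x) (V x))
  unfold hjErr
  refine Continuous.add ?_ (Continuous.div ?_ ?_ ?_)
  · refine E17_continuous_hs2.comp ?_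
    exact (continuous_const.matrix_mul hF').sub (hF'.matrix_mul continuous_const)
  · refine E17_continuous_hs2.comp ?_
    unfold vErr
    have hq : Continuous (fun x : Icc (-R) R => K * K - F x * F x) :=
      continuous_const.sub (hF'.matrix_mul hF')
    have hq2 : Continuous (fun x : Icc (-R) R => ((1 / α + 1 : ℝ) : ℂ) • (K * K - F x * F x)) :=
      hq.const_smul (((1 / α + 1 : ℝ) : ℂ))
    exact hV'.sub hq2
  · exact continuous_const.add (E17_continuous_tr.comp hV')
  · intro x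
    have := E17_tr_nonneg (h.Vpsd x.1 x.2)
    positivity

theorem E17_tr_rpow_cont {N : ℕ} {α : ℝ} (h0 : 0 < α) {V : ℝ → Mt N} (hV : Continuous V)
    (hp : ∀ x, (V x).PosSemidef) :
    Continuous (fun x => tr (cfc (fun t : ℝ => t ^ (1 + α)) (V x))) := by
  refine E17_continuous_tr.comp ?_
  rw [← continuousOn_univ]
  refine continuousOn_cfc_param (f := fun _ t => t ^ (1 + α)) hV.continuousOn
    (fun x _ => (hp x).1) isOpen_univ ?_ (fun _ _ => subset_univ _)
  exact ((Real.continuous_rpow_const (by linarith)).comp continuous_snd).continuousOn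

theorem pathSeq_ae {m : ℕ} {α : ℝ} (h0 : 0 < α) {f₀ : ℝ → ℝ} (hfm : AEStronglyMeasurable f₀ volume)
    (S : PathSeq m α f₀) :
    ∃ (θ : ℕ → ℕ) (hθ : StrictMono θ), ∀ᵐ x : ℝ,
      Tendsto (fun i => (S.sub θ hθ).w i x) atTop (𝓝 (f₀ x)) ∧
      Tendsto (fun i => hjErr α (dg ((S.sub θ hθ).k i)) ((S.sub θ hθ).F i x) ((S.sub θ hθ).V i x))
        atTop (𝓝 0) ∧
      Tendsto (fun i => ((S.sub θ hθ).w i x) ^ (1 + α) -
        tr (cfc (fun t : ℝ => t ^ (1 + α)) ((S.sub θ hθ).V i x))) atTop (𝓝 0) := by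
  have hRpos : ∀ i, 0 < S.R i := fun i => (S.ric i).hR
  set g1 : ℕ → ℝ → ℝ := fun i x => |S.w i x - f₀ x| ^ (1 + α) with hg1
  set e2 : ℕ → ℝ → ℝ := fun i x => hjErr α (dg (S.k i)) (S.F i x) (S.V i x) with he2
  set e3 : ℕ → ℝ → ℝ := fun i x => (S.w i x) ^ (1 + α) -
    tr (cfc (fun t : ℝ => t ^ (1 + α)) (S.V i x)) with he3
  set g2 : ℕ → ℝ → ℝ := fun i => (Ioc (-(S.R i)) (S.R i)).indicator (e2 i) with hg2
  set g3 : ℕ → ℝ → ℝ := fun i => (Ioc (-(S.R i)) (S.R i)).indicator (e3 i) with hg3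
  have he2nn : ∀ i x, 0 ≤ e2 i x := fun i x => hjErr_nonneg (S.Vpsd i x)
  have he3nn : ∀ i x, 0 ≤ e3 i x := fun i x => sub_nonneg.mpr (S.trV i x)
  have hg1nn : ∀ i x, 0 ≤ g1 i x := fun i x => Real.rpow_nonneg (abs_nonneg _) _
  have hg2nn : ∀ i x, 0 ≤ g2 i x := fun i x => indicator_nonneg (fun y _ => he2nn i y) x
  have hg3nn : ∀ i x, 0 ≤ g3 i x := fun i x => indicator_nonneg (fun y _ => he3nn i y) x
  have hg1i : ∀ i, Integrable (g1 i) := S.hwint
  have hle : ∀ i, -(S.R i) ≤ S.R i := fun i => by linarith [hRpos i]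
  have hg2i : ∀ i, Integrable (g2 i) := by
    intro i
    rw [hg2]
    rw [integrable_indicator_iff measurableSet_Ioc]
    exact ((E17_hjErr_contOn (α := α) (S.ric i) (S.Vcont i)).integrableOn_compact isCompact_Icc).mono_set
      Ioc_subset_Icc_self
  have hg3i : ∀ i, Integrable (g3 i) := by
    intro i
    rw [hg3]
    rw [integrable_indicator_iff measurableSet_Ioc]
    have hc : Continuous (e3 i) := by
      refine Continuous.sub ?_ (E17_tr_rpow_cont h0 (S.Vcont i) (S.Vpsd i))
      exact (Real.continuous_rpow_const (by linarith)).comp (S.wcont i)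
    exact (hc.continuousOn.integrableOn_compact isCompact_Icc).mono_set Ioc_subset_Icc_self
  have hlim1 : Tendsto (fun i => ∫ x, g1 i x) atTop (𝓝 0) := S.hw
  have hlim2 : Tendsto (fun i => ∫ x, g2 i x) atTop (𝓝 0) := by
    refine S.err.congr fun i => ?_
    rw [intervalIntegral.integral_of_le (hle i), hg2, integral_indicator measurableSet_Ioc]
  have hlim3 : Tendsto (fun i => ∫ x, g3 i x) atTop (𝓝 0) := by
    refine S.defect.congr fun i => ?_
    rw [intervalIntegral.integral_of_le (hle i), hg3, integral_indicator measurableSet_Ioc]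
  obtain ⟨θ, hθ, hae⟩ := E17_subseq (fun i x => g1 i x + (g2 i x + g3 i x))
    (fun i => (hg1i i).add ((hg2i i).add (hg3i i)))
    (fun i x => add_nonneg (hg1nn i x) (add_nonneg (hg2nn i x) (hg3nn i x))) (by
      have hsum : (fun i => ∫ x, (g1 i x + (g2 i x + g3 i x))) =
          fun i => (∫ x, g1 i x) + ((∫ x, g2 i x) + ∫ x, g3 i x) := by
        funext i
        have ha := integral_add (hg1i i) ((hg2i i).add (hg3i i))
        have hb := integral_add (hg2i i) (hg3i i)
        simp only [Pi.add_apply] at ha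
        rw [ha, hb]
      rw [hsum]
      simpa using hlim1.add (hlim2.add hlim3))
  refine ⟨θ, hθ, ?_⟩
  filter_upwards [hae] with x hx
  have hp : (0 : ℝ) < 1 + α := by linarith
  have h1 : Tendsto (fun i => g1 (θ i) x) atTop (𝓝 0) :=
    squeeze_zero (fun i => hg1nn _ _)
      (fun i => by linarith [hg2nn (θ i) x, hg3nn (θ i) x] : ∀ i, g1 (θ i) x ≤ _) hx
  have h2 : Tendsto (fun i => g2 (θ i) x) atTop (𝓝 0) :=
    squeeze_zero (fun i => hg2nn _ _)
      (fun i => by linarith [hg1nn (θ i) x, hg3nn (θ i) x] : ∀ i, g2 (θ i) x ≤ _) hx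
  have h3 : Tendsto (fun i => g3 (θ i) x) atTop (𝓝 0) :=
    squeeze_zero (fun i => hg3nn _ _)
      (fun i => by linarith [hg1nn (θ i) x, hg2nn (θ i) x] : ∀ i, g3 (θ i) x ≤ _) hx
  have hmem : ∀ᶠ i in atTop, x ∈ Ioc (-(S.R (θ i))) (S.R (θ i)) := by
    have hR := S.hR.comp hθ.tendsto_atTop
    filter_upwards [hR.eventually_gt_atTop |x|] with i hi
    have := abs_lt.mp hi
    exact ⟨by simpa using this.1, le_of_lt this.2⟩
  refine ⟨?_, ?_, ?_⟩
  · have habs : Tendsto (fun i => |S.w (θ i) x - f₀ x|) atTop (𝓝 0) := by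
      have hc := (Real.continuous_rpow_const (q := 1 / (1 + α)) (by positivity)).tendsto 0
      rw [Real.zero_rpow (by positivity)] at hc
      have hcomp := hc.comp h1
      refine hcomp.congr fun i => ?_
      change (|S.w (θ i) x - f₀ x| ^ (1 + α)) ^ (1 / (1 + α)) = _
      rw [← Real.rpow_mul (abs_nonneg _), mul_one_div_cancel hp.ne', Real.rpow_one]
    rw [tendsto_iff_norm_sub_tendsto_zero]
    exact habs
  · refine h2.congr' ?_
    filter_upwards [hmem] with i hi
    change (Ioc (-(S.R (θ i))) (S.R (θ i))).indicator (e2 (θ i)) x = e2 (θ i) x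
    rw [indicator_of_mem hi]
  · refine h3.congr' ?_
    filter_upwards [hmem] with i hi
    change (Ioc (-(S.R (θ i))) (S.R (θ i))).indicator (e3 (θ i)) x = e3 (θ i) x
    rw [indicator_of_mem hi]

theorem E17_extv_nonneg {N : ℕ} {k : Fin N → ℝ} (h : ∀ j, 0 ≤ k j) (j : ℕ) : 0 ≤ extv k j := by
  unfold extv
  split_ifs
  · exact h _
  · exact le_rfl

theorem E17_extv_antitone {N : ℕ} {k : Fin N → ℝ} (h : ∀ j, 0 ≤ k j) (ha : Antitone k) :
    Antitone (extv k) := by
  intro i j hij
  unfold extv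
  by_cases hj : j < N
  · rw [dif_pos hj, dif_pos (lt_of_le_of_lt hij hj)]
    exact ha (by simpa using hij)
  · rw [dif_neg hj]
    split_ifs
    · exact h _
    · exact le_rfl

/-- `(j+1) k_j^p ≤ ∑ k^p` -/
theorem E17_extv_sum {N : ℕ} {k : Fin N → ℝ} (h : ∀ j, 0 ≤ k j) (ha : Antitone k) {p κ : ℝ}
    (hp : 0 < p) (hs : ∑ j, (k j) ^ p ≤ κ) (j : ℕ) : ((j : ℝ) + 1) * (extv k j) ^ p ≤ κ := by
  have hκ : 0 ≤ κ := le_trans (Finset.sum_nonneg fun i _ => Real.rpow_nonneg (h i) p) hs
  by_cases hj : j < N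
  · have h1 : ((j : ℝ) + 1) * (extv k j) ^ p ≤ ∑ i : Fin N, (k i) ^ p := by
      have hsub : ∑ i ∈ Finset.univ.filter (fun i : Fin N => (i : ℕ) ≤ j), (extv k j) ^ p ≤
          ∑ i : Fin N, (k i) ^ p := by
        refine le_trans (Finset.sum_le_sum (g := fun i => (k i) ^ p) ?_)
          (Finset.sum_le_sum_of_subset_of_nonneg (Finset.filter_subset _ _)
            fun i _ _ => Real.rpow_nonneg (h i) p)
        intro i hi
        simp only [Finset.mem_filter, Finset.mem_univ, true_and] at hi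
        refine Real.rpow_le_rpow (E17_extv_nonneg h j) ?_ hp.le
        unfold extv
        rw [dif_pos hj]
        exact ha (by simpa [Fin.le_def] using hi)
      rw [Finset.sum_const, nsmul_eq_mul] at hsub
      have hcard : (Finset.univ.filter (fun i : Fin N => (i : ℕ) ≤ j)).card = j + 1 := by
        have : Finset.univ.filter (fun i : Fin N => (i : ℕ) ≤ j) = Finset.Iic ⟨j, hj⟩ := by
          ext i; simp [Fin.le_def]
        rw [this, Fin.card_Iic]
      rw [hcard] at hsub
      push_cast at hsub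
      exact hsub
    exact h1.trans hs
  · unfold extv
    rw [dif_neg hj, Real.zero_rpow hp.ne', mul_zero]
    exact hκ

/-- convergence of the (zero-extended) spectrum of `K` along a subsequence; the limits tend to `0` in `j` -/
theorem pathSeq_spectrum {m : ℕ} {α : ℝ} (h0 : 0 < α) {f₀ : ℝ → ℝ} (S : PathSeq m α f₀) :
    ∃ (θ : ℕ → ℕ) (hθ : StrictMono θ) (ks : ℕ → ℝ), Antitone ks ∧ (∀ j, 0 ≤ ks j) ∧
      Tendsto ks atTop (𝓝 0) ∧
      ∀ j, Tendsto (fun i => extv ((S.sub θ hθ).k i) j) atTop (𝓝 (ks j)) := by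
  have hp : (0 : ℝ) < 2 * α + 1 := by linarith
  have hκ : 0 ≤ S.κ := le_trans
    (Finset.sum_nonneg fun i _ => Real.rpow_nonneg (S.nonneg 0 i) _) (S.ksum 0)
  have hmem : ∀ i, (fun j => extv (S.k i) j) ∈ Set.pi univ (fun _ : ℕ => Icc (0 : ℝ) S.κ) := by
    intro i j _
    refine ⟨E17_extv_nonneg (S.nonneg i) j, ?_⟩
    change extv (S.k i) j ≤ S.κ
    unfold extv
    split_ifs
    · exact S.kbound i _
    · exact hκ
  have hcpt : IsCompact (Set.pi univ (fun _ : ℕ => Icc (0 : ℝ) S.κ)) :=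
    isCompact_univ_pi fun _ => isCompact_Icc
  obtain ⟨ks, -, θ, hθ, hlim⟩ := hcpt.tendsto_subseq hmem
  have hlim' : ∀ j, Tendsto (fun i => extv (S.k (θ i)) j) atTop (𝓝 (ks j)) := by
    intro j
    exact (tendsto_pi_nhds.mp hlim) j
  have hks0 : ∀ j, 0 ≤ ks j := fun j =>
    ge_of_tendsto (hlim' j) (Eventually.of_forall fun i => E17_extv_nonneg (S.nonneg _) j)
  refine ⟨θ, hθ, ks, ?_, hks0, ?_, hlim'⟩
  · intro i j hij
    exact le_of_tendsto_of_tendsto (hlim' j) (hlim' i)
      (Eventually.of_forall fun l => E17_extv_antitone (S.nonneg _) (S.anti _) hij)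
  · have hbd : ∀ j : ℕ, ks j ≤ (S.κ / ((j : ℝ) + 1)) ^ (1 / (2 * α + 1)) := by
      intro j
      have hj : (0 : ℝ) < (j : ℝ) + 1 := by positivity
      have h1 : ks j ^ (2 * α + 1) ≤ S.κ / ((j : ℝ) + 1) := by
        have hc : Tendsto (fun i => (extv (S.k (θ i)) j) ^ (2 * α + 1)) atTop
            (𝓝 (ks j ^ (2 * α + 1))) :=
          ((Real.continuous_rpow_const hp.le).tendsto _).comp (hlim' j)
        refine le_of_tendsto hc (Eventually.of_forall fun i => ?_)
        rw [le_div_iff₀ hj, mul_comm]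
        exact E17_extv_sum (S.nonneg _) (S.anti _) hp (S.ksum _) j
      calc ks j = (ks j ^ (2 * α + 1)) ^ (1 / (2 * α + 1)) := by
            rw [← Real.rpow_mul (hks0 j), mul_one_div_cancel hp.ne', Real.rpow_one]
        _ ≤ _ := Real.rpow_le_rpow (Real.rpow_nonneg (hks0 j) _) h1 (by positivity)
    refine squeeze_zero hks0 hbd ?_
    have h2 : Tendsto (fun j : ℕ => S.κ / ((j : ℝ) + 1)) atTop (𝓝 0) :=
      tendsto_const_nhds.div_atTop
        (tendsto_atTop_add_const_right _ _ tendsto_natCast_atTop_atTop)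
    have h3 := ((Real.continuous_rpow_const (q := 1 / (2 * α + 1)) (by positivity)).tendsto 0).comp h2
    rw [Real.zero_rpow (by positivity)] at h3
    exact h3

end Crest.Agent.LT
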