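import Crest.Agent.LTE_Defs
import Crest.Agent.LTE_E12
import Crest.Agent.LTE_E13
import Crest.Agent.LTE_E14
import Crest.Agent.LTE_E15
import Crest.Agent.LTE_E17
/-!
Lemmas for task LTE-E18 (limit of the top block): entries of admissible matrices, compactness, window and tail
estimates for the weights `w i`, `∫ √(hs2 rhoBlk) → 0` on windows.
-/

set_option autoImplicit false

namespace Crest.Agent.LT

open MeasureTheory Matrix Set Filter
open Crest.MathPhysics.LiebThirring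
open scoped ComplexOrder Topology

theorem E18_quad {n : ℕ} (A : Mt n) (a b : Fin n) (u : ℂ) :
    star (Pi.single a (1:ℂ) + u • Pi.single b (1:ℂ) : Fin n → ℂ) ⬝ᵥ
      (A *ᵥ (Pi.single a (1:ℂ) + u • Pi.single b (1:ℂ))) =
      A a a + u * A a b + star u * A b a + star u * u * A b b := by
  rw [Matrix.mulVec_add, Matrix.mulVec_smul, star_add, star_smul]
  simp only [add_dotProduct, dotProduct_add, smul_dotProduct, dotProduct_smul,
    Matrix.mulVec_single_one, smul_eq_mul]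
  simp [dotProduct, Pi.star_apply, Pi.single_apply]
  ring

theorem E18_entry {n : ℕ} {K F : Mt n} (h : Adm K F) {κ : ℝ} (hK : ∀ a, (K a a).re ≤ κ)
    (a b : Fin n) : ‖F a b‖ ≤ κ := by
  have key : ∀ u : ℂ, ‖u‖ = 1 → (u * F a b).re ≤ κ := by
    intro u hu
    have huu : star u * u = 1 := by
      have := Complex.mul_conj' u
      rw [mul_comm]
      change u * (starRingEnd ℂ) u = 1
      rw [Complex.mul_conj', hu]; simp
    have h1 := h.sub.re_dotProduct_nonneg (Pi.single a (1:ℂ) + u • Pi.single b (1:ℂ))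
    have h2 := h.add.re_dotProduct_nonneg (Pi.single a (1:ℂ) + (-u) • Pi.single b (1:ℂ))
    rw [E18_quad] at h1 h2
    have hF := h.isHermitian_F
    have hKh := h.isHermitian_K
    have e1 : F b a = star (F a b) := (hF.apply b a).symm
    have e2 : K b a = star (K a b) := (hKh.apply b a).symm
    have hu2 : star (-u) * (-u) = 1 := by rw [star_neg]; rw [neg_mul_neg]; exact huu
    rw [huu] at h1
    rw [hu2] at h2
    have ha := hK a
    have hb := hK b
    simp only [Matrix.sub_apply, Matrix.add_apply, e1, e2, star_neg] at h1 h2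
    have c1 : (star u * star (F a b)).re = (u * F a b).re := by
      rw [← star_mul', Complex.star_def, Complex.conj_re]
    have c2 : (star u * star (K a b)).re = (u * K a b).re := by
      rw [← star_mul', Complex.star_def, Complex.conj_re]
    simp only [mul_sub, mul_add, neg_mul, RCLike.re_eq_complex_re, Complex.add_re, Complex.sub_re, Complex.neg_re,
      c1, c2, one_mul] at h1 h2
    linarith
  by_cases h0 : F a b = 0
  · have := key 1 (by simp)
    rw [h0] at this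
    simp at this
    rw [h0, norm_zero]; exact this
  · have hn : (‖F a b‖ : ℂ) ≠ 0 := by exact_mod_cast norm_ne_zero_iff.2 h0
    have := key (star (F a b) / ‖F a b‖) (by
      rw [norm_div, norm_star]; simp [norm_ne_zero_iff.2 h0])
    have e : star (F a b) / ‖F a b‖ * F a b = (‖F a b‖ : ℂ) := by
      rw [div_mul_eq_mul_div, div_eq_iff hn]
      rw [Complex.star_def, mul_comm, Complex.mul_conj']; ring
    rw [e] at this
    simpa using this

theorem E18_hs2_nonneg {m N : ℕ} (A : Matrix (Fin m) (Fin N) ℂ) : 0 ≤ hs2 A :=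
  Finset.sum_nonneg fun _ _ => Finset.sum_nonneg fun _ _ => by positivity

theorem E18_continuous_hs2 {m N : ℕ} : Continuous (hs2 : Matrix (Fin m) (Fin N) ℂ → ℝ) := by
  unfold hs2
  refine continuous_finsetSum _ fun i _ => continuous_finsetSum _ fun j _ => ?_
  exact ((continuous_apply j).comp (continuous_apply i)).norm.pow 2

theorem E18_continuous_tr {N : ℕ} : Continuous (tr : Mt N → ℝ) := by
  unfold tr
  exact Complex.continuous_re.comp (Continuous.matrix_trace continuous_id)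

theorem E18_closed_psd (N : ℕ) : IsClosed {K : Mt N | K.PosSemidef} := by
  have h : {K : Mt N | K.PosSemidef} =
      {K : Mt N | Kᴴ = K} ∩ ⋂ x : Fin N → ℂ, {K : Mt N | 0 ≤ star x ⬝ᵥ (K *ᵥ x)} := by
    ext K
    simp only [Set.mem_ofPred_eq, Set.mem_inter_iff, Set.mem_iInter]
    rw [Matrix.posSemidef_iff_dotProduct_mulVec]
    rfl
  rw [h]
  refine IsClosed.inter ?_ (isClosed_iInter fun x => ?_)
  · exact isClosed_eq (Continuous.matrix_conjTranspose continuous_id) continuous_id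
  · refine isClosed_le continuous_const ?_
    exact Continuous.dotProduct continuous_const
      (Continuous.matrix_mulVec continuous_id continuous_const)

theorem E18_subseq {n : ℕ} {A : ℕ → Mt n} {κ : ℝ}
    (h : ∀ᶠ i in atTop, ∀ a b, ‖A i a b‖ ≤ κ) :
    ∃ (A₀ : Mt n) (θ : ℕ → ℕ), StrictMono θ ∧ Tendsto (A ∘ θ) atTop (𝓝 A₀) := by
  have hc : IsCompact {M : Mt n | ∀ a b, ‖M a b‖ ≤ κ} := by
    have h1 : IsCompact (Set.pi univ fun _ : Fin n => Set.pi univ fun _ : Fin n =>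
        Metric.closedBall (0 : ℂ) κ) :=
      isCompact_univ_pi fun _ => isCompact_univ_pi fun _ => isCompact_closedBall _ _
    have e : {M : Mt n | ∀ a b, ‖M a b‖ ≤ κ} = (Set.pi univ fun _ : Fin n =>
        Set.pi univ fun _ : Fin n => Metric.closedBall (0 : ℂ) κ : Set (Fin n → Fin n → ℂ)) := by
      apply Set.ext
      intro M
      constructor
      · intro h a _ b _
        rw [mem_closedBall_zero_iff]
        exact h a b
      · intro h a b
        have := h a (Set.mem_univ a) b (Set.mem_univ b)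
        rwa [mem_closedBall_zero_iff] at this
    rw [e]
    exact h1
  have : FirstCountableTopology (Mt n) :=
    inferInstanceAs (FirstCountableTopology (Fin n → Fin n → ℂ))
  obtain ⟨A₀, _, θ, hθ, hl⟩ := hc.tendsto_subseq' (x := A) h.frequently
  exact ⟨A₀, θ, hθ, hl⟩

theorem E18_adm_lim {n : ℕ} {K F : ℕ → Mt n} {K' F' : Mt n} (hK : Tendsto K atTop (𝓝 K'))
    (hF : Tendsto F atTop (𝓝 F')) (h : ∀ᶠ i in atTop, Adm (K i) (F i)) : Adm K' F' := by
  constructor
  · exact (E18_closed_psd n).mem_of_tendsto (hK.sub hF) (h.mono fun i hi => hi.sub)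
  · exact (E18_closed_psd n).mem_of_tendsto (hK.add hF) (h.mono fun i hi => hi.add)

theorem E18_comm {n : ℕ} {k : Fin n → ℝ} (hpos : ∀ j, 0 < k j) {F₀ : Mt n}
    (h : ∀ a b, ((k a ^ 2 - k b ^ 2 : ℝ) : ℂ) * F₀ a b = 0) : dg k * F₀ = F₀ * dg k := by
  ext a b
  unfold dg
  rw [Matrix.diagonal_mul, Matrix.mul_diagonal]
  rcases mul_eq_zero.1 (h a b) with h1 | h1
  · have h2 : k a ^ 2 - k b ^ 2 = 0 := by exact_mod_cast h1
    have h3 : k a = k b := by
      have h4 : (k a - k b) * (k a + k b) = 0 := by ring_nf; linarith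
      rcases mul_eq_zero.1 h4 with h5 | h5
      · linarith
      · have := hpos a; have := hpos b; linarith
    rw [h3, mul_comm]
  · rw [h1]; ring

theorem E18_blk_apply {N n : ℕ} (h : n ≤ N) (A : Mt N) (a b : Fin n) :
    blk n A a b = A ⟨a, a.2.trans_le h⟩ ⟨b, b.2.trans_le h⟩ := by
  unfold blk ext0
  rw [Matrix.of_apply, dif_pos ⟨a.2.trans_le h, b.2.trans_le h⟩]

theorem E18_extv {N n : ℕ} (h : n ≤ N) (k : Fin N → ℝ) (a : Fin n) :
    extv k a = k ⟨a, a.2.trans_le h⟩ := by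
  unfold extv
  rw [dif_pos (a.2.trans_le h)]

/-- entries of `[K², F]` -/
theorem E18_comm_entry {N : ℕ} (k : Fin N → ℝ) (F : Mt N) (a b : Fin N) :
    (dg k * dg k * F - F * (dg k * dg k)) a b = ((k a ^ 2 - k b ^ 2 : ℝ) : ℂ) * F a b := by
  unfold dg
  rw [Matrix.diagonal_mul_diagonal, Matrix.sub_apply, Matrix.diagonal_mul, Matrix.mul_diagonal]
  push_cast
  ring

theorem E18_entry_sq_le {m N : ℕ} (A : Matrix (Fin m) (Fin N) ℂ) (a : Fin m) (b : Fin N) :
    ‖A a b‖ ^ 2 ≤ hs2 A := by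
  unfold hs2
  calc ‖A a b‖ ^ 2 ≤ ∑ j, ‖A a j‖ ^ 2 :=
        Finset.single_le_sum (f := fun j => ‖A a j‖ ^ 2) (fun _ _ => by positivity)
          (Finset.mem_univ b)
    _ ≤ _ := Finset.single_le_sum (f := fun i => ∑ j, ‖A i j‖ ^ 2)
          (fun _ _ => Finset.sum_nonneg fun _ _ => by positivity) (Finset.mem_univ a)

theorem E18_hs2_le_card {n : ℕ} {A : Mt n} {κ : ℝ} (h : ∀ a b, ‖A a b‖ ≤ κ) :
    hs2 A ≤ n * (n * κ ^ 2) := by
  unfold hs2
  calc ∑ i, ∑ j, ‖A i j‖ ^ 2 ≤ ∑ _i : Fin n, ∑ _j : Fin n, κ ^ 2 :=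
        Finset.sum_le_sum fun i _ => Finset.sum_le_sum fun j _ => by
          have := h i j
          have h0 := norm_nonneg (A i j)
          gcongr
    _ = _ := by simp

theorem E18_tr_nonneg {N : ℕ} {A : Mt N} (h : A.PosSemidef) : 0 ≤ tr A := by
  unfold tr
  have := h.trace_nonneg
  exact (Complex.le_def.1 this).1

theorem E18_pow_le {a b α : ℝ} (ha : 0 ≤ a) (hb : 0 ≤ b) (hα : 0 < α) :
    a ^ (1 + α) ≤ 2 ^ (1 + α) * (|a - b| ^ (1 + α) + b ^ (1 + α)) := by
  have hp : 0 ≤ 1 + α := by linarith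
  have h1 : a ≤ 2 * max |a - b| b := by
    have h2 := le_max_left |a - b| b
    have h3 := le_max_right |a - b| b
    have h4 := le_abs_self (a - b)
    linarith
  have h5 : 0 ≤ max |a - b| b := le_max_of_le_right hb
  calc a ^ (1 + α) ≤ (2 * max |a - b| b) ^ (1 + α) := Real.rpow_le_rpow ha h1 hp
    _ = 2 ^ (1 + α) * (max |a - b| b) ^ (1 + α) := Real.mul_rpow (by norm_num) h5
    _ ≤ _ := by
        apply mul_le_mul_of_nonneg_left _ (by positivity)
        have h6 : 0 ≤ |a - b| ^ (1 + α) := Real.rpow_nonneg (abs_nonneg _) _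
        have h7 : 0 ≤ b ^ (1 + α) := Real.rpow_nonneg hb _
        rcases le_total |a - b| b with h | h
        · rw [max_eq_right h]; linarith
        · rw [max_eq_left h]; linarith

theorem E18_int_pow {w f₀ : ℝ → ℝ} {α : ℝ} (hα : 0 < α) (hw : Continuous w) (hw0 : ∀ x, 0 ≤ w x)
    (hf₀ : ∀ x, 0 ≤ f₀ x) (h1 : Integrable fun x => |w x - f₀ x| ^ (1 + α))
    (h2 : Integrable fun x => f₀ x ^ (1 + α)) : Integrable fun x => w x ^ (1 + α) := by
  refine Integrable.mono' ((h1.add h2).const_mul (2 ^ (1 + α))) ?_ ?_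
  · exact (hw.rpow_const fun x => Or.inr (by linarith)).aestronglyMeasurable
  · refine Eventually.of_forall fun x => ?_
    rw [Real.norm_eq_abs, abs_of_nonneg (Real.rpow_nonneg (hw0 x) _)]
    exact E18_pow_le (hw0 x) (hf₀ x) hα

theorem E18_setint {w f₀ : ℝ → ℝ} {α : ℝ} (hα : 0 < α) (hw : Continuous w) (hw0 : ∀ x, 0 ≤ w x)
    (hf₀ : ∀ x, 0 ≤ f₀ x) (h1 : Integrable fun x => |w x - f₀ x| ^ (1 + α))
    (h2 : Integrable fun x => f₀ x ^ (1 + α)) (T : Set ℝ) :
    ∫ x in T, w x ^ (1 + α) ≤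
      2 ^ (1 + α) * ((∫ x, |w x - f₀ x| ^ (1 + α)) + ∫ x in T, f₀ x ^ (1 + α)) := by
  have h3 := E18_int_pow hα hw hw0 hf₀ h1 h2
  calc ∫ x in T, w x ^ (1 + α)
      ≤ ∫ x in T, 2 ^ (1 + α) * (|w x - f₀ x| ^ (1 + α) + f₀ x ^ (1 + α)) := by
        apply integral_mono h3.integrableOn
          ((h1.integrableOn.add h2.integrableOn).const_mul (2 ^ (1 + α)))
        intro x
        exact E18_pow_le (hw0 x) (hf₀ x) hα
    _ = 2 ^ (1 + α) * ((∫ x in T, |w x - f₀ x| ^ (1 + α)) + ∫ x in T, f₀ x ^ (1 + α)) := by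
        rw [integral_const_mul, integral_add h1.integrableOn h2.integrableOn]
    _ ≤ _ := by
        apply mul_le_mul_of_nonneg_left _ (by positivity)
        have := setIntegral_le_integral (s := T) h1
          (Eventually.of_forall fun x => Real.rpow_nonneg (abs_nonneg _) _)
        linarith

theorem E18_le_add {w μ α : ℝ} (hw : 0 ≤ w) (hμ : 0 < μ) (hα : 0 < α) :
    w ≤ μ + μ ^ (-α) * w ^ (1 + α) := by
  rcases le_or_gt w μ with h | h
  · have : 0 ≤ μ ^ (-α) * w ^ (1 + α) := by positivity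
    linarith
  · have hw' : 0 < w := hμ.trans h
    have h1 : w ≤ μ ^ (-α) * w ^ (1 + α) := by
      rw [Real.rpow_add hw', Real.rpow_one, Real.rpow_neg hμ.le]
      have h2 : μ ^ α ≤ w ^ α := Real.rpow_le_rpow hμ.le h.le hα.le
      have h3 : 0 < μ ^ α := Real.rpow_pos_of_pos hμ _
      have h4 : 1 ≤ (μ ^ α)⁻¹ * w ^ α := by
        rw [inv_mul_eq_div, le_div_iff₀ h3]; linarith
      nlinarith
    linarith

theorem E18_tail {w : ℝ → ℝ} (hw : Continuous w) (hw0 : ∀ x, 0 ≤ w x) {α κ₀ μ : ℝ} (hα : 0 < α)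
    (hκ : 0 < κ₀) (hμ : 0 < μ) (hint : Integrable fun t => w t ^ (1 + α)) {L x R : ℝ}
    (hLx : L ≤ x) (hxR : x ≤ R) :
    ∫ t in x..R, Real.exp (-κ₀ * (t - x)) * w t ≤
      μ / κ₀ + μ ^ (-α) * ∫ t in Ioi L, w t ^ (1 + α) := by
  have hc1 : Continuous fun t => Real.exp (-κ₀ * (t - x)) := by fun_prop
  have hc2 : Continuous fun t => w t ^ (1 + α) := hw.rpow_const fun x => Or.inr (by linarith)
  have h1 : ∫ t in x..R, Real.exp (-κ₀ * (t - x)) * w t ≤
      ∫ t in x..R, (μ * Real.exp (-κ₀ * (t - x)) + μ ^ (-α) * w t ^ (1 + α)) := by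
    apply intervalIntegral.integral_mono_on hxR
    · exact (hc1.mul hw).intervalIntegrable _ _
    · exact ((continuous_const.mul hc1).add (continuous_const.mul hc2)).intervalIntegrable _ _
    · intro t ht
      have h2 := E18_le_add (hw0 t) hμ hα
      have h3 : Real.exp (-κ₀ * (t - x)) ≤ 1 := by
        rw [Real.exp_le_one_iff]
        have := ht.1
        nlinarith
      have h4 := Real.exp_pos (-κ₀ * (t - x))
      have h5 : 0 ≤ μ ^ (-α) * w t ^ (1 + α) :=
        mul_nonneg (Real.rpow_nonneg hμ.le _) (Real.rpow_nonneg (hw0 t) _)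
      calc Real.exp (-κ₀ * (t - x)) * w t
          ≤ Real.exp (-κ₀ * (t - x)) * (μ + μ ^ (-α) * w t ^ (1 + α)) :=
            mul_le_mul_of_nonneg_left h2 h4.le
        _ ≤ _ := by nlinarith
  have h6 : ∫ t in x..R, Real.exp (-κ₀ * (t - x)) ≤ 1 / κ₀ := by
    have h7 : ∀ t ∈ uIcc x R, HasDerivAt (fun t => -(1 / κ₀) * Real.exp (-κ₀ * (t - x)))
        (Real.exp (-κ₀ * (t - x))) t := by
      intro t _
      have h8 : HasDerivAt (fun t => -κ₀ * (t - x)) (-κ₀ * 1) t :=
        ((hasDerivAt_id t).sub_const x).const_mul (-κ₀)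
      have h9 := (h8.exp).const_mul (-(1 / κ₀))
      have e9 : -(1 / κ₀) * (Real.exp (-κ₀ * (t - x)) * (-κ₀ * 1)) = Real.exp (-κ₀ * (t - x)) := by
        field_simp
      rw [e9] at h9
      exact h9
    rw [intervalIntegral.integral_eq_sub_of_hasDerivAt h7 (hc1.intervalIntegrable _ _)]
    have h10 := Real.exp_pos (-κ₀ * (R - x))
    have h11 : 0 < 1 / κ₀ := by positivity
    simp only [sub_self, mul_zero, Real.exp_zero]
    nlinarith
  have h12 : ∫ t in x..R, w t ^ (1 + α) ≤ ∫ t in Ioi L, w t ^ (1 + α) := by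
    rw [intervalIntegral.integral_of_le hxR]
    apply setIntegral_mono_set hint.integrableOn
    · exact Eventually.of_forall fun t => Real.rpow_nonneg (hw0 t) _
    · have hsub : Ioc x R ⊆ Ioi L := fun t ht => lt_of_le_of_lt hLx ht.1
      exact hsub.eventuallyLE
  refine h1.trans ?_
  have i1 : IntervalIntegrable (fun t => μ * Real.exp (-κ₀ * (t - x))) volume x R :=
    (continuous_const.mul hc1).intervalIntegrable _ _
  have i2 : IntervalIntegrable (fun t => μ ^ (-α) * w t ^ (1 + α)) volume x R :=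
    (continuous_const.mul hc2).intervalIntegrable _ _
  rw [intervalIntegral.integral_add i1 i2, intervalIntegral.integral_const_mul,
    intervalIntegral.integral_const_mul]
  have h13 : 0 ≤ μ ^ (-α) := Real.rpow_nonneg hμ.le _
  have h14 := mul_le_mul_of_nonneg_left h12 h13
  have h15 := mul_le_mul_of_nonneg_left h6 hμ.le
  have h16 : μ * (1 / κ₀) = μ / κ₀ := by ring
  linarith

/-- tails of an integrable function -/
theorem E18_tail_zero {f : ℝ → ℝ} (hf : Integrable f) :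
    Tendsto (fun L : ℝ => ∫ t in Ioi L, f t) atTop (𝓝 0) := by
  have h1 := intervalIntegral_tendsto_integral_Ioi (f := f) 0 hf.integrableOn tendsto_id
  have h2 : ∀ᶠ L : ℝ in atTop, ∫ t in Ioi L, f t = (∫ t in Ioi (0:ℝ), f t) - ∫ t in (0:ℝ)..L, f t := by
    filter_upwards [eventually_ge_atTop (0:ℝ)] with L hL
    rw [intervalIntegral.integral_of_le hL]
    have h3 : Ioi (0:ℝ) = Ioc 0 L ∪ Ioi L := by rw [Ioc_union_Ioi_eq_Ioi hL]
    rw [h3, setIntegral_union (Set.Ioc_disjoint_Ioi le_rfl) measurableSet_Ioi hf.integrableOn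
      hf.integrableOn]
    ring
  have h4 : Tendsto (fun L : ℝ => (∫ t in Ioi (0:ℝ), f t) - ∫ t in (0:ℝ)..L, f t) atTop
      (𝓝 ((∫ t in Ioi (0:ℝ), f t) - ∫ t in Ioi (0:ℝ), f t)) := tendsto_const_nhds.sub h1
  rw [sub_self] at h4
  exact h4.congr' (h2.mono fun L hL => hL.symm)


theorem E18_hjErr_nonneg {N : ℕ} {α : ℝ} {K F V : Mt N} (hV : V.PosSemidef) :
    0 ≤ hjErr α K F V := by
  unfold hjErr
  have := E18_tr_nonneg hV
  have h1 := E18_hs2_nonneg (K * K * F - F * (K * K))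
  have h2 := E18_hs2_nonneg (vErr α K F V)
  positivity

theorem E18_comm_le {N : ℕ} {α : ℝ} {K F V : Mt N} (hV : V.PosSemidef) :
    hs2 (K * K * F - F * (K * K)) ≤ hjErr α K F V := by
  unfold hjErr
  have := E18_tr_nonneg hV
  have h2 := E18_hs2_nonneg (vErr α K F V)
  have : 0 ≤ hs2 (vErr α K F V) / (1 + tr V) := by positivity
  linarith

theorem E18_vErr_le {N : ℕ} {α : ℝ} {K F V : Mt N} (hV : V.PosSemidef) :
    hs2 (vErr α K F V) ≤ hjErr α K F V * (1 + tr V) := by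
  unfold hjErr
  have h0 := E18_tr_nonneg hV
  have h1 := E18_hs2_nonneg (K * K * F - F * (K * K))
  have h3 : 0 < 1 + tr V := by linarith
  rw [add_mul, div_mul_cancel₀ _ h3.ne']
  have : 0 ≤ hs2 (K * K * F - F * (K * K)) * (1 + tr V) := by positivity
  linarith

theorem E18_sqrt_rho {N m n : ℕ} {α l g w : ℝ} (hα : 0 < α) (hl : 0 < l) (hg : 0 < g)
    {k : Fin N → ℝ} {F V : Mt N} (hF : F.IsHermitian) (hV : V.PosSemidef)
    (hgap : ∀ a b : Fin N, (a : ℕ) < n → n ≤ (b : ℕ) → g ≤ k a ^ 2 - k b ^ 2)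
    (htr : tr V ≤ m * w) :
    Real.sqrt (hs2 (rhoBlk n α (dg k) F V)) ≤
      (2 * (1 / α) / g ^ 2 + 1 / l) * hjErr α (dg k) F V + l * (1 + m * w) := by
  have h1 := hs2_rhoBlk_le hα hF n (k := k) (V := V)
  have h2 := offblk_le F hg hgap
  have h3 : hs2 (dg k * dg k * F - F * (dg k * dg k)) ≤ hjErr α (dg k) F V := E18_comm_le hV
  have h4 : hs2 (vErr α (dg k) F V) ≤ hjErr α (dg k) F V * (1 + tr V) := E18_vErr_le hV
  have h5 : 0 ≤ hjErr α (dg k) F V := E18_hjErr_nonneg hV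
  have h6 := E18_tr_nonneg hV
  obtain ⟨e, he⟩ : ∃ e, e = hjErr α (dg k) F V := ⟨_, rfl⟩
  rw [← he] at h3 h4 h5 ⊢
  have h7 : offblk n F ≤ e / g ^ 2 := h2.trans (by gcongr)
  have h8 : 0 ≤ offblk n F := by
    unfold offblk
    refine Finset.sum_nonneg fun _ _ => Finset.sum_nonneg fun _ _ => ?_
    split_ifs <;> positivity
  have hT : 0 ≤ 1 + m * w := by linarith
  have h9 : hs2 (vErr α (dg k) F V) ≤ e * (1 + m * w) :=
    h4.trans (mul_le_mul_of_nonneg_left (by linarith) h5)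
  have hA : 0 ≤ 1 / α / g ^ 2 := by positivity
  have h10 : 1 / α * offblk n F ≤ (1 / α / g ^ 2) * e := by
    have : 1 / α * offblk n F ≤ 1 / α * (e / g ^ 2) := mul_le_mul_of_nonneg_left h7 (by positivity)
    calc _ ≤ _ := this
      _ = _ := by ring
  have h11 : (1 / α * offblk n F) ^ 2 ≤ ((1 / α / g ^ 2) * e) ^ 2 := by
    have : 0 ≤ 1 / α * offblk n F := by positivity
    gcongr
  rw [Real.sqrt_le_iff]
  constructor
  · positivity
  · have h12 : (e / l) * (l * (1 + m * w)) = e * (1 + m * w) := by field_simp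
    have h13 : 0 ≤ e / l := by positivity
    have h14 : 0 ≤ l * (1 + m * w) := by positivity
    have h15 : 0 ≤ (1 / α / g ^ 2) * e := by positivity
    have h16 : (2 * (1 / α) / g ^ 2 + 1 / l) * e + l * (1 + m * w) =
        2 * ((1 / α / g ^ 2) * e) + (e / l + l * (1 + m * w)) := by ring
    rw [h16]
    nlinarith [sq_nonneg (e / l - l * (1 + m * w)), mul_nonneg h15 h13, mul_nonneg h15 h14]

theorem E18_rho_cont {N : ℕ} (n : ℕ) (α : ℝ) (K : Mt N) {F V : ℝ → Mt N} {T : Set ℝ}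
    (hF : ContinuousOn F T) (hV : ContinuousOn V T) :
    ContinuousOn (fun x => rhoBlk n α K (F x) (V x)) T := by
  have hb := continuous_blk (N := N) n
  have h1 : Continuous fun A : Mt N => K * K - A * A :=
    continuous_const.sub (continuous_id.matrix_mul continuous_id)
  have h2 : ContinuousOn (fun x => K * K - F x * F x - V x) T := (h1.comp_continuousOn hF).sub hV
  have h3 : Continuous fun A : Mt N =>
      (((1 / α : ℝ) : ℂ)) • (blk n K * blk n K - blk n A * blk n A) :=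
    (continuous_const_smul (((1 / α : ℝ) : ℂ))).comp
      (continuous_const.sub (hb.matrix_mul hb))
  have h4 : ContinuousOn (fun x =>
      (((1 / α : ℝ) : ℂ)) • (blk n K * blk n K - blk n (F x) * blk n (F x))) T :=
    h3.comp_continuousOn hF
  exact (hb.comp_continuousOn h2).add h4

theorem E18_comm_cont {N : ℕ} (K : Mt N) :
    Continuous fun A : Mt N => hs2 (K * K * A - A * (K * K)) := by
  have h1 : Continuous fun A : Mt N => K * K * A := continuous_const.matrix_mul continuous_id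
  have h2 : Continuous fun A : Mt N => A * (K * K) := continuous_id.matrix_mul continuous_const
  exact E18_continuous_hs2.comp (h1.sub h2)

theorem E18_vErr_cont {N : ℕ} (α : ℝ) (K : Mt N) {F V : ℝ → Mt N} {T : Set ℝ}
    (hF : ContinuousOn F T) (hV : ContinuousOn V T) :
    ContinuousOn (fun x => hs2 (vErr α K (F x) (V x))) T := by
  have h1 : Continuous fun A : Mt N => (((1 / α + 1 : ℝ) : ℂ)) • (K * K - A * A) :=
    (continuous_const_smul (((1 / α + 1 : ℝ) : ℂ))).comp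
      (continuous_const.sub (continuous_id.matrix_mul continuous_id))
  have h2 : ContinuousOn (fun x => (((1 / α + 1 : ℝ) : ℂ)) • (K * K - F x * F x)) T :=
    h1.comp_continuousOn hF
  have h3 : ContinuousOn (fun x => vErr α K (F x) (V x)) T := hV.sub h2
  exact E18_continuous_hs2.comp_continuousOn h3

theorem E18_one_add_tr_cont {N : ℕ} {V : ℝ → Mt N} {T : Set ℝ} (hV : ContinuousOn V T) :
    ContinuousOn (fun x => 1 + tr (V x)) T :=
  continuousOn_const.add (E18_continuous_tr.comp_continuousOn hV)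

theorem E18_hjErr_cont {N : ℕ} {α : ℝ} {K : Mt N} {F V : ℝ → Mt N} {T : Set ℝ}
    (hF : ContinuousOn F T) (hV : ContinuousOn V T) (hp : ∀ x ∈ T, (V x).PosSemidef) :
    ContinuousOn (fun x => hjErr α K (F x) (V x)) T := by
  have h4 : ContinuousOn (fun x => hs2 (K * K * F x - F x * (K * K))) T :=
    (E18_comm_cont K).comp_continuousOn hF
  have h5 := E18_vErr_cont α K hF hV
  have h7 : ∀ x ∈ T, 1 + tr (V x) ≠ 0 := by
    intro x hx
    have := E18_tr_nonneg (hp x hx)
    linarith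
  exact h4.add (h5.div (E18_one_add_tr_cont hV) h7)

theorem E18_offblk_cont {N : ℕ} (n : ℕ) : Continuous (offblk n : Mt N → ℝ) := by
  unfold offblk
  refine continuous_finsetSum _ fun i _ => continuous_finsetSum _ fun j _ => ?_
  by_cases h : (i : ℕ) < n ∧ n ≤ (j : ℕ)
  · simp only [h, and_self, if_true]
    exact ((continuous_apply j).comp (continuous_apply i)).norm.pow 2
  · simp only [h, if_false]
    exact continuous_const

theorem E18_offblk_nonneg {N : ℕ} (n : ℕ) (F : Mt N) : 0 ≤ offblk n F := by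
  unfold offblk
  refine Finset.sum_nonneg fun _ _ => Finset.sum_nonneg fun _ _ => ?_
  split_ifs <;> positivity

theorem E18_offblk_neg {N : ℕ} (n : ℕ) (F : Mt N) : offblk n (-F) = offblk n F := by
  unfold offblk
  simp only [Matrix.neg_apply, norm_neg]

theorem E18_off_lim {m : ℕ} {α : ℝ} {f₀ : ℝ → ℝ} (S : PathSeq m α f₀) (n : ℕ) {g : ℝ}
    (hg : 0 < g)
    (hgap : ∀ᶠ i in atTop, ∀ a b : Fin (S.N i), (a : ℕ) < n → n ≤ (b : ℕ) →
      g ≤ (S.k i a) ^ 2 - (S.k i b) ^ 2) :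
    Tendsto (fun i => ∫ x in (-(S.R i))..(S.R i), offblk n (S.F i x)) atTop (𝓝 0) := by
  have h1 : Tendsto (fun i => (1 / g ^ 2) *
      ∫ x in (-(S.R i))..(S.R i), hjErr α (dg (S.k i)) (S.F i x) (S.V i x)) atTop (𝓝 0) := by
    have := S.err.const_mul (1 / g ^ 2)
    rwa [mul_zero] at this
  refine tendsto_of_tendsto_of_tendsto_of_le_of_le' tendsto_const_nhds h1 ?_ ?_
  · refine Eventually.of_forall fun i => ?_
    have hR := (S.ric i).hR
    exact intervalIntegral.integral_nonneg (by linarith) fun x _ => E18_offblk_nonneg n _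
  · filter_upwards [hgap] with i hi
    have hR := (S.ric i).hR
    have hle : -(S.R i) ≤ S.R i := by linarith
    rw [← intervalIntegral.integral_const_mul]
    have hu : uIcc (-(S.R i)) (S.R i) = Icc (-(S.R i)) (S.R i) := uIcc_of_le hle
    apply intervalIntegral.integral_mono_on hle
    · apply ContinuousOn.intervalIntegrable
      rw [hu]
      exact (E18_offblk_cont n).comp_continuousOn (S.ric i).contF
    · apply ContinuousOn.intervalIntegrable
      rw [hu]
      exact continuousOn_const.mul (E18_hjErr_cont (S.ric i).contF (S.ric i).contV (S.ric i).Vpsd)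
    · intro x hx
      have h2 := offblk_le (S.F i x) hg hi
      have h3 : hs2 (dg (S.k i) * dg (S.k i) * S.F i x - S.F i x * (dg (S.k i) * dg (S.k i))) ≤
        hjErr α (dg (S.k i)) (S.F i x) (S.V i x) := E18_comm_le (S.Vpsd i x)
      calc offblk n (S.F i x) ≤ _ := h2
        _ ≤ hjErr α (dg (S.k i)) (S.F i x) (S.V i x) / g ^ 2 := by gcongr
        _ = _ := by ring


theorem E18_w_bound {m : ℕ} {α : ℝ} (h0 : 0 < α) {f₀ : ℝ → ℝ} (hf₀ : ∀ x, 0 ≤ f₀ x)
    (hfi : Integrable fun x => f₀ x ^ (1 + α)) (S : PathSeq m α f₀) (i : ℕ) {L : ℝ} (hL : 0 ≤ L) :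
    ∫ x in (-L)..L, S.w i x ≤ 2 * L + 2 ^ (1 + α) *
      ((∫ x, |S.w i x - f₀ x| ^ (1 + α)) + ∫ x, f₀ x ^ (1 + α)) := by
  have hc : Continuous fun x => S.w i x ^ (1 + α) :=
    (S.wcont i).rpow_const fun x => Or.inr (by linarith)
  have h1 : ∫ x in (-L)..L, S.w i x ≤ ∫ x in (-L)..L, (1 + S.w i x ^ (1 + α)) := by
    apply intervalIntegral.integral_mono_on (by linarith)
    · exact (S.wcont i).intervalIntegrable _ _
    · exact (continuous_const.add hc).intervalIntegrable _ _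
    · intro x _
      have := E18_le_add (S.wnonneg i x) one_pos h0
      rwa [Real.one_rpow, one_mul] at this
  refine h1.trans ?_
  rw [intervalIntegral.integral_add (continuous_const.intervalIntegrable _ _)
    (hc.intervalIntegrable _ _), intervalIntegral.integral_const,
    intervalIntegral.integral_of_le (by linarith : -L ≤ L)]
  have h2 := E18_setint h0 (S.wcont i) (S.wnonneg i) hf₀ (S.hwint i) hfi (Ioc (-L) L)
  have h3 : ∫ x in Ioc (-L) L, f₀ x ^ (1 + α) ≤ ∫ x, f₀ x ^ (1 + α) :=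
    setIntegral_le_integral hfi (Eventually.of_forall fun x => Real.rpow_nonneg (hf₀ x) _)
  have h4 : (0:ℝ) ≤ 2 ^ (1 + α) := by positivity
  have h5 := mul_le_mul_of_nonneg_left h3 h4
  simp only [smul_eq_mul, mul_one]
  nlinarith

theorem E18_trV {m : ℕ} {α : ℝ} (h0 : 0 < α) {f₀ : ℝ → ℝ} (S : PathSeq m α f₀) (i : ℕ) (x : ℝ) :
    tr (S.V i x) ≤ m * S.w i x :=
  tr_le_rank_mul (S.Vpsd i x) (S.rank i x) (by linarith : 0 < 1 + α) (S.wnonneg i x) (S.trV i x)

theorem E18_rho_lim {m : ℕ} {α : ℝ} (h0 : 0 < α) {f₀ : ℝ → ℝ} (hf₀ : ∀ x, 0 ≤ f₀ x)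
    (hfi : Integrable fun x => f₀ x ^ (1 + α)) (S : PathSeq m α f₀) (n : ℕ) {g : ℝ} (hg : 0 < g)
    (hgap : ∀ᶠ i in atTop, ∀ a b : Fin (S.N i), (a : ℕ) < n → n ≤ (b : ℕ) →
      g ≤ (S.k i a) ^ 2 - (S.k i b) ^ 2) {L : ℝ} (hL : 0 ≤ L) :
    Tendsto (fun i => ∫ x in (-L)..L,
      Real.sqrt (hs2 (rhoBlk n α (dg (S.k i)) (S.F i x) (S.V i x)))) atTop (𝓝 0) := by
  obtain ⟨E, hE⟩ : ∃ E : ℕ → ℝ, E = fun i =>
    ∫ x in (-(S.R i))..(S.R i), hjErr α (dg (S.k i)) (S.F i x) (S.V i x) := ⟨_, rfl⟩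
  have hElim : Tendsto E atTop (𝓝 0) := by rw [hE]; exact S.err
  have hE0 : ∀ i, 0 ≤ E i := by
    intro i
    rw [hE]
    have hR := (S.ric i).hR
    exact intervalIntegral.integral_nonneg (by linarith) fun x _ => E18_hjErr_nonneg (S.Vpsd i x)
  obtain ⟨l, hl⟩ : ∃ l : ℕ → ℝ, l = fun i => Real.sqrt (E i) + 1 / ((i : ℝ) + 1) := ⟨_, rfl⟩
  have hl0 : ∀ i, 0 < l i := by
    intro i
    rw [hl]
    have := Real.sqrt_nonneg (E i)
    have h1 : 0 < 1 / ((i : ℝ) + 1) := by positivity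
    show 0 < Real.sqrt (E i) + 1 / ((i : ℝ) + 1)
    linarith
  have hsq : Tendsto (fun i => Real.sqrt (E i)) atTop (𝓝 0) := by
    have := (Real.continuous_sqrt.tendsto 0).comp hElim
    rw [Real.sqrt_zero] at this
    exact this
  have hllim : Tendsto l atTop (𝓝 0) := by
    rw [hl]
    have h1 : Tendsto (fun i : ℕ => 1 / ((i : ℝ) + 1)) atTop (𝓝 0) :=
      tendsto_one_div_add_atTop_nhds_zero_nat
    have := hsq.add h1
    rwa [add_zero] at this
  have hEl : ∀ i, 1 / l i * E i ≤ Real.sqrt (E i) := by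
    intro i
    have h1 : Real.sqrt (E i) ≤ l i := by
      rw [hl]
      have h1 : 0 < 1 / ((i : ℝ) + 1) := by positivity
      show Real.sqrt (E i) ≤ Real.sqrt (E i) + 1 / ((i : ℝ) + 1)
      linarith
    have h2 := Real.mul_self_sqrt (hE0 i)
    rw [one_div, inv_mul_eq_div, div_le_iff₀ (hl0 i)]
    calc E i = Real.sqrt (E i) * Real.sqrt (E i) := h2.symm
      _ ≤ _ := mul_le_mul_of_nonneg_left h1 (Real.sqrt_nonneg _)
  obtain ⟨J, hJ⟩ : ∃ J : ℝ, J = ∫ x, f₀ x ^ (1 + α) := ⟨_, rfl⟩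
  obtain ⟨I, hI⟩ : ∃ I : ℕ → ℝ, I = fun i => ∫ x, |S.w i x - f₀ x| ^ (1 + α) := ⟨_, rfl⟩
  have hIlim : Tendsto I atTop (𝓝 0) := by rw [hI]; exact S.hw
  have hB : Tendsto (fun i => 2 * (1 / α) / g ^ 2 * E i + Real.sqrt (E i) +
      l i * (2 * L + m * (2 * L + 2 ^ (1 + α) * (I i + J)))) atTop (𝓝 0) := by
    have h1 := hElim.const_mul (2 * (1 / α) / g ^ 2)
    have h2 : Tendsto (fun i => 2 * L + m * (2 * L + 2 ^ (1 + α) * (I i + J))) atTop
        (𝓝 (2 * L + m * (2 * L + 2 ^ (1 + α) * (0 + J)))) :=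
      tendsto_const_nhds.add (((hIlim.add_const J).const_mul (2 ^ (1 + α))).const_add (2 * L) |>.const_mul (m : ℝ))
    have h3 := (h1.add hsq).add (hllim.mul h2)
    simpa using h3
  refine tendsto_of_tendsto_of_tendsto_of_le_of_le' tendsto_const_nhds hB ?_ ?_
  · refine Eventually.of_forall fun i => ?_
    exact intervalIntegral.integral_nonneg (by linarith) fun x _ => Real.sqrt_nonneg _
  · filter_upwards [hgap, S.hR.eventually_ge_atTop L] with i hi hRL
    have hR := (S.ric i).hR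
    have hsub : Icc (-L) L ⊆ Icc (-(S.R i)) (S.R i) := Icc_subset_Icc (by linarith) hRL
    have hle : -L ≤ L := by linarith
    have hu : uIcc (-L) L = Icc (-L) L := uIcc_of_le hle
    have hce : ContinuousOn (fun x => hjErr α (dg (S.k i)) (S.F i x) (S.V i x))
        (Icc (-(S.R i)) (S.R i)) :=
      E18_hjErr_cont (S.ric i).contF (S.ric i).contV (S.ric i).Vpsd
    have i1 : IntervalIntegrable (fun x => hjErr α (dg (S.k i)) (S.F i x) (S.V i x)) volume
        (-L) L := by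
      apply ContinuousOn.intervalIntegrable
      rw [hu]
      exact hce.mono hsub
    have i2 : IntervalIntegrable (fun x => l i * (1 + m * S.w i x)) volume (-L) L :=
      (continuous_const.mul (continuous_const.add
        (continuous_const.mul (S.wcont i)))).intervalIntegrable _ _
    have h1 : ∫ x in (-L)..L, Real.sqrt (hs2 (rhoBlk n α (dg (S.k i)) (S.F i x) (S.V i x))) ≤
        ∫ x in (-L)..L, ((2 * (1 / α) / g ^ 2 + 1 / l i) *
          hjErr α (dg (S.k i)) (S.F i x) (S.V i x) + l i * (1 + m * S.w i x)) := by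
      apply intervalIntegral.integral_mono_on hle
      · apply ContinuousOn.intervalIntegrable
        rw [hu]
        exact Real.continuous_sqrt.comp_continuousOn (E18_continuous_hs2.comp_continuousOn
          (E18_rho_cont n α (dg (S.k i)) ((S.ric i).contF.mono hsub)
            ((S.ric i).contV.mono hsub)))
      · exact (i1.const_mul _).add i2
      · intro x hx
        exact E18_sqrt_rho h0 (hl0 i) hg ((S.ric i).adm x (hsub hx)).isHermitian_F (S.Vpsd i x) hi
          (E18_trV h0 S i x)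
    refine h1.trans ?_
    have i3 : IntervalIntegrable (fun x => (m : ℝ) * S.w i x) volume (-L) L :=
      (continuous_const.mul (S.wcont i)).intervalIntegrable _ _
    have i4 : IntervalIntegrable (fun _ : ℝ => (1 : ℝ)) volume (-L) L :=
      continuous_const.intervalIntegrable _ _
    rw [intervalIntegral.integral_add (i1.const_mul _) i2, intervalIntegral.integral_const_mul,
      intervalIntegral.integral_const_mul, intervalIntegral.integral_add i4 i3,
      intervalIntegral.integral_const_mul, intervalIntegral.integral_const]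
    have h2 : ∫ x in (-L)..L, hjErr α (dg (S.k i)) (S.F i x) (S.V i x) ≤ E i := by
      rw [hE]
      apply intervalIntegral.integral_mono_interval (by linarith) hle hRL
      · rw [Filter.EventuallyLE, ae_restrict_iff' measurableSet_Ioc]
        exact Eventually.of_forall fun x _ => E18_hjErr_nonneg (S.Vpsd i x)
      · apply ContinuousOn.intervalIntegrable
        rw [uIcc_of_le (by linarith)]
        exact hce
    have h3 := E18_w_bound h0 hf₀ hfi S i hL
    have h4 : (∫ x, |S.w i x - f₀ x| ^ (1 + α)) = I i := by rw [hI]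
    rw [h4, ← hJ] at h3
    have h5 : 0 ≤ 2 * (1 / α) / g ^ 2 + 1 / l i := by
      have := hl0 i
      positivity
    have h6 := mul_le_mul_of_nonneg_left h2 h5
    have h7 := hEl i
    have h8 : (0:ℝ) ≤ m := Nat.cast_nonneg m
    have h9 := mul_le_mul_of_nonneg_left h3 h8
    have h10 : l i * ((L - -L) • (1:ℝ) + m * ∫ x in (-L)..L, S.w i x) ≤
        l i * (2 * L + m * (2 * L + 2 ^ (1 + α) * (I i + J))) := by
      apply mul_le_mul_of_nonneg_left _ (hl0 i).le
      rw [smul_eq_mul]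
      linarith
    nlinarith

theorem E18_tail_aux {N n m : ℕ} {R L κ₀ ε μ α : ℝ} {k : Fin N → ℝ} {F V : ℝ → Mt N}
    {w f₀ : ℝ → ℝ} (h : Riccati R (dg k) F V) (hα : 0 < α) (hκ₀ : 0 < κ₀)
    (hk : ∀ j : Fin N, (j : ℕ) < n → κ₀ ≤ k j) (hL : -R ≤ L) (hLR : L ≤ R) (hw : Continuous w)
    (hw0 : ∀ x, 0 ≤ w x) (hf₀ : ∀ x, 0 ≤ f₀ x)
    (h1 : Integrable fun x => |w x - f₀ x| ^ (1 + α)) (h2 : Integrable fun x => f₀ x ^ (1 + α))
    (hVw : ∀ x ∈ Icc (-R) R, tr (V x) ≤ m * w x) (hμ : 0 < μ)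
    (hoff : ∫ x in (-R)..R, offblk n (F x) ≤ ε / 2)
    (hsmall : m * (μ / κ₀ + μ ^ (-α) * (2 ^ (1 + α) * ((∫ x, |w x - f₀ x| ^ (1 + α)) +
      ∫ x in Ioi L, f₀ x ^ (1 + α)))) ≤ ε / 2) (hε : ε < κ₀) :
    tr (blk n (dg k + F L)) ≤ ε := by
  have hm : (0:ℝ) ≤ m := Nat.cast_nonneg m
  have h3 := tail_right h n hκ₀ hk hL hLR (v := fun x => m * w x) (continuous_const.mul hw)
    (fun x => mul_nonneg hm (hw0 x)) hVw hoff (ε₂ := ε / 2) ?_ (by linarith) L ⟨le_rfl, hLR⟩
  · linarith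
  · intro x hx
    have h4 := E18_tail hw hw0 hα hκ₀ hμ (E18_int_pow hα hw hw0 hf₀ h1 h2) hx.1 hx.2
    have h5 := E18_setint hα hw hw0 hf₀ h1 h2 (Ioi L)
    have h6 : 0 ≤ μ ^ (-α) := Real.rpow_nonneg hμ.le _
    have h7 := mul_le_mul_of_nonneg_left h5 h6
    have h8 : ∫ t in x..R, Real.exp (-κ₀ * (t - x)) * (m * w t) =
        m * ∫ t in x..R, Real.exp (-κ₀ * (t - x)) * w t := by
      rw [← intervalIntegral.integral_const_mul]
      apply intervalIntegral.integral_congr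
      intro t _
      show Real.exp (-κ₀ * (t - x)) * (m * w t) = m * (Real.exp (-κ₀ * (t - x)) * w t)
      ring
    show ∫ t in x..R, Real.exp (-κ₀ * (t - x)) * (m * w t) ≤ ε / 2
    rw [h8]
    refine le_trans (mul_le_mul_of_nonneg_left (h4.trans ?_) hm) hsmall
    linarith

theorem E18_tails {m : ℕ} {α : ℝ} (h0 : 0 < α) {f₀ : ℝ → ℝ} (hf₀ : ∀ x, 0 ≤ f₀ x)
    (hfi : Integrable fun x => f₀ x ^ (1 + α)) (S : PathSeq m α f₀) (n : ℕ) {g : ℝ} (hg : 0 < g)
    (hgap : ∀ᶠ i in atTop, ∀ a b : Fin (S.N i), (a : ℕ) < n → n ≤ (b : ℕ) →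
      g ≤ (S.k i a) ^ 2 - (S.k i b) ^ 2) {κ₀ : ℝ} (hκ₀ : 0 < κ₀)
    (hk : ∀ᶠ i in atTop, ∀ j : Fin (S.N i), (j : ℕ) < n → κ₀ ≤ S.k i j) {ε : ℝ} (hε0 : 0 < ε)
    (hε : ε < κ₀) :
    ∀ᶠ L : ℝ in atTop, ∀ᶠ i in atTop, tr (blk n (dg (S.k i) + S.F i L)) ≤ ε ∧
      tr (blk n (dg (S.k i) + -(S.F i (-L)))) ≤ ε := by
  have hm : (0:ℝ) ≤ m := Nat.cast_nonneg m
  obtain ⟨μ, hμdef⟩ : ∃ μ : ℝ, μ = ε * κ₀ / (8 * (m + 1)) := ⟨_, rfl⟩
  have hμ : 0 < μ := by rw [hμdef]; positivity
  have hμ2 : m * (μ / κ₀) ≤ ε / 8 := by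
    rw [hμdef]
    have : m * (ε * κ₀ / (8 * (m + 1)) / κ₀) = ε / 8 * (m / (m + 1)) := by
      field_simp
    rw [this]
    have h1 : (m:ℝ) / (m + 1) ≤ 1 := by rw [div_le_one (by positivity)]; linarith
    nlinarith
  obtain ⟨B, hB⟩ : ∃ B : ℝ, B = m * (μ ^ (-α) * 2 ^ (1 + α)) := ⟨_, rfl⟩
  have hB0 : 0 ≤ B := by rw [hB]; positivity
  have hfr : Integrable fun x => f₀ (-x) ^ (1 + α) := hfi.comp_neg
  have t1 : ∀ᶠ L : ℝ in atTop, B * ∫ t in Ioi L, f₀ t ^ (1 + α) < ε / 8 := by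
    have := (E18_tail_zero hfi).const_mul B
    rw [mul_zero] at this
    exact this.eventually_lt_const (by linarith)
  have t2 : ∀ᶠ L : ℝ in atTop, B * ∫ t in Ioi L, f₀ (-t) ^ (1 + α) < ε / 8 := by
    have := (E18_tail_zero hfr).const_mul B
    rw [mul_zero] at this
    exact this.eventually_lt_const (by linarith)
  filter_upwards [t1, t2, eventually_ge_atTop (0:ℝ)] with L hL1 hL2 hL0
  have t3 : ∀ᶠ i in atTop, B * ∫ x, |S.w i x - f₀ x| ^ (1 + α) < ε / 8 := by
    have := S.hw.const_mul B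
    rw [mul_zero] at this
    exact this.eventually_lt_const (by linarith)
  have t4 : ∀ᶠ i in atTop, ∫ x in (-(S.R i))..(S.R i), offblk n (S.F i x) < ε / 2 :=
    (E18_off_lim S n hg hgap).eventually_lt_const (by linarith)
  filter_upwards [t3, t4, hk, S.hR.eventually_ge_atTop L] with i hi1 hi2 hi3 hi4
  constructor
  · refine E18_tail_aux (m := m) (S.ric i) h0 hκ₀ hi3 (by linarith) hi4 (S.wcont i) (S.wnonneg i)
      hf₀ (S.hwint i) hfi (fun x _ => E18_trV h0 S i x) hμ hi2.le ?_ hε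
    have e : m * (μ / κ₀ + μ ^ (-α) * (2 ^ (1 + α) * ((∫ x, |S.w i x - f₀ x| ^ (1 + α)) +
      ∫ x in Ioi L, f₀ x ^ (1 + α)))) = m * (μ / κ₀) + B * (∫ x, |S.w i x - f₀ x| ^ (1 + α)) +
        B * ∫ x in Ioi L, f₀ x ^ (1 + α) := by
      rw [hB]; ring
    rw [e]
    linarith
  · have hr := (S.ric i).reflect
    have hrev : (∫ x, |S.w i (-x) - f₀ (-x)| ^ (1 + α)) = ∫ x, |S.w i x - f₀ x| ^ (1 + α) :=
      integral_neg_eq_self (fun x => |S.w i x - f₀ x| ^ (1 + α)) volume
    have h1r : Integrable fun x => |S.w i (-x) - f₀ (-x)| ^ (1 + α) :=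
      Integrable.comp_neg (f := fun x => |S.w i x - f₀ x| ^ (1 + α)) (S.hwint i)
    have hwr : Continuous fun x => S.w i (-x) := (S.wcont i).comp continuous_neg
    have key := E18_tail_aux (m := m) (w := fun x => S.w i (-x)) (f₀ := fun x => f₀ (-x))
      (F := fun x => -S.F i (-x)) (V := fun x => S.V i (-x)) (ε := ε) hr h0 hκ₀ hi3
      (by linarith) hi4 hwr (fun x => S.wnonneg i (-x))
      (fun x => hf₀ (-x)) h1r hfr (fun x _ => E18_trV h0 S i (-x)) hμ
    refine key ?_ ?_ hε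
    · have : ∫ x in (-(S.R i))..(S.R i), offblk n (-S.F i (-x)) =
          ∫ x in (-(S.R i))..(S.R i), offblk n (S.F i x) := by
        simp only [E18_offblk_neg]
        rw [intervalIntegral.integral_comp_neg (fun x => offblk n (S.F i x)), neg_neg]
      show ∫ x in (-(S.R i))..(S.R i), offblk n (-S.F i (-x)) ≤ ε / 2
      rw [this]
      exact hi2.le
    · rw [hrev]
      have e : m * (μ / κ₀ + μ ^ (-α) * (2 ^ (1 + α) * ((∫ x, |S.w i x - f₀ x| ^ (1 + α)) +
        ∫ x in Ioi L, f₀ (-x) ^ (1 + α)))) = m * (μ / κ₀) + B * (∫ x, |S.w i x - f₀ x| ^ (1 + α)) +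
          B * ∫ x in Ioi L, f₀ (-x) ^ (1 + α) := by
        rw [hB]; ring
      rw [e]
      linarith

theorem E18_blk_add {N : ℕ} (n : ℕ) (A B : Mt N) : blk n (A + B) = blk n A + blk n B := by
  ext a b
  simp only [blk, ext0, Matrix.of_apply, Matrix.add_apply]
  split_ifs <;> simp

theorem E18_blk_neg {N : ℕ} (n : ℕ) (A : Mt N) : blk n (-A) = -blk n A := by
  ext a b
  simp only [blk, ext0, Matrix.of_apply, Matrix.neg_apply]
  split_ifs <;> simp

theorem E18_blk_smul {N : ℕ} (n : ℕ) (c : ℂ) (A : Mt N) : blk n (c • A) = c • blk n A := by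
  ext a b
  simp only [blk, ext0, Matrix.of_apply, Matrix.smul_apply]
  split_ifs <;> simp

theorem E18_blk_sub {N : ℕ} (n : ℕ) (A B : Mt N) : blk n (A - B) = blk n A - blk n B := by
  rw [sub_eq_add_neg, E18_blk_add, E18_blk_neg, ← sub_eq_add_neg]

theorem E18_V_eq {N : ℕ} (n : ℕ) {α : ℝ} (hα : 0 < α) (K F V : Mt N) :
    blk n V = (((1 / α + 1 : ℝ) : ℂ)) • (blk n K * blk n K - blk n F * blk n F) -
      ((α : ℝ) : ℂ) • ((((1 / α + 1 : ℝ) : ℂ)) • rhoBlk n α K F V + blk n (vErr α K F V)) := by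
  unfold rhoBlk vErr
  rw [E18_blk_sub n (K * K - F * F) V, E18_blk_sub n V, E18_blk_smul]
  have hα' : ((α : ℝ) : ℂ) ≠ 0 := by exact_mod_cast hα.ne'
  ext a b
  simp only [Matrix.sub_apply, Matrix.add_apply, Matrix.smul_apply, smul_eq_mul]
  push_cast
  field_simp
  ring

theorem E18_tendsto_zero {n : ℕ} {A : ℕ → Mt n} {b : ℕ → ℝ} (hb : Tendsto b atTop (𝓝 0))
    (h : ∀ᶠ i in atTop, ∀ a c, ‖A i a c‖ ^ 2 ≤ b i) : Tendsto A atTop (𝓝 0) := by
  have h1 : ∀ a c, Tendsto (fun i => A i a c) atTop (𝓝 0) := by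
    intro a c
    have h2 : Tendsto (fun i => Real.sqrt (b i)) atTop (𝓝 0) := by
      have := (Real.continuous_sqrt.tendsto 0).comp hb
      rw [Real.sqrt_zero] at this
      exact this
    refine squeeze_zero_norm' ?_ h2
    filter_upwards [h] with i hi
    exact Real.le_sqrt_of_sq_le (hi a c)
  exact tendsto_pi_nhds.2 fun a => tendsto_pi_nhds.2 fun c => h1 a c

theorem E18_blk_entry_le {N n : ℕ} (h : n ≤ N) (A : Mt N) (a b : Fin n) :
    ‖blk n A a b‖ ^ 2 ≤ hs2 A := by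
  rw [E18_blk_apply h]
  exact E18_entry_sq_le A _ _

theorem E18_conj_mul {n : ℕ} {U : Mt n} (hU : Uᴴ * U = 1) (a b : Fin n → ℝ) :
    (U * dg a * Uᴴ) * (U * dg b * Uᴴ) = U * dg (fun j => a j * b j) * Uᴴ := by
  have h1 : (U * dg a * Uᴴ) * (U * dg b * Uᴴ) = U * dg a * (Uᴴ * U) * dg b * Uᴴ := by
    simp only [Matrix.mul_assoc]
  rw [h1, hU, Matrix.mul_one, Matrix.mul_assoc U (dg a) (dg b)]
  congr 2
  unfold dg
  rw [Matrix.diagonal_mul_diagonal]
  push_cast
  rfl

theorem E18_conj_lin {n : ℕ} {U : Mt n} (s : ℝ) (a b : Fin n → ℝ) :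
    ((s : ℝ) : ℂ) • (U * dg a * Uᴴ - U * dg b * Uᴴ) = U * dg (fun j => s * (a j - b j)) * Uᴴ := by
  have h1 : dg (fun j => s * (a j - b j)) = ((s : ℝ) : ℂ) • (dg a - dg b) := by
    unfold dg
    ext i j
    simp only [Matrix.smul_apply, Matrix.sub_apply, Matrix.diagonal_apply]
    split_ifs
    · push_cast; simp
    · simp
  rw [h1, Matrix.mul_smul, Matrix.smul_mul, Matrix.mul_sub, Matrix.sub_mul]

theorem E18_conj_tr {n : ℕ} {U : Mt n} (hU : Uᴴ * U = 1) (a : Fin n → ℝ) :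
    tr (U * dg a * Uᴴ) = ∑ j, a j := by
  unfold tr
  rw [Matrix.trace_mul_comm, ← Matrix.mul_assoc, hU, Matrix.one_mul]
  unfold dg
  rw [Matrix.trace_diagonal]
  simp

theorem E18_conj_add {n : ℕ} {U : Mt n} (a b : Fin n → ℝ) :
    U * dg a * Uᴴ + U * dg b * Uᴴ = U * dg (fun j => a j + b j) * Uᴴ := by
  have h1 : dg (fun j => a j + b j) = dg a + dg b := by
    unfold dg
    ext i j
    simp only [Matrix.add_apply, Matrix.diagonal_apply]
    split_ifs
    · push_cast; simp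
    · simp
  rw [h1, Matrix.mul_add, Matrix.add_mul]

theorem E18_conj_sub {n : ℕ} {U : Mt n} (a b : Fin n → ℝ) :
    U * dg a * Uᴴ - U * dg b * Uᴴ = U * dg (fun j => a j - b j) * Uᴴ := by
  have h1 : dg (fun j => a j - b j) = dg a - dg b := by
    unfold dg
    ext i j
    simp only [Matrix.sub_apply, Matrix.diagonal_apply]
    split_ifs
    · push_cast; simp
    · simp
  rw [h1, Matrix.mul_sub, Matrix.sub_mul]

theorem E18_kpos {n : ℕ} {U : Mt n} (hU : Uᴴ * U = 1) {ks k : Fin n → ℝ} (hpos : ∀ j, 0 < ks j)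
    (h : dg ks = U * dg k * Uᴴ) (j : Fin n) : k j ≠ 0 := by
  intro hk
  have h1 : dg ks * U = U * dg k := by
    rw [h, Matrix.mul_assoc, hU, Matrix.mul_one]
  have h2 : ∀ a, U a j = 0 := by
    intro a
    have h3 := congrFun (congrFun h1 a) j
    unfold dg at h3
    rw [Matrix.diagonal_mul, Matrix.mul_diagonal, hk] at h3
    simp only [Complex.ofReal_zero, mul_zero] at h3
    have h4 : ((ks a : ℝ) : ℂ) ≠ 0 := by exact_mod_cast (hpos a).ne'
    exact (mul_eq_zero.1 h3).resolve_left h4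
  have h5 := congrFun (congrFun hU j) j
  rw [Matrix.mul_apply, Matrix.one_apply_eq] at h5
  rw [Finset.sum_eq_zero (fun a _ => by rw [h2 a, mul_zero])] at h5
  exact zero_ne_one h5

end Crest.Agent.LT
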