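import Crest.Agent.LTE_Defs
import Crest.Agent.LTE_E18a
import Crest.Agent.LTE_E12
import Crest.Agent.LTE_E13
import Crest.Agent.LTE_E14
import Crest.Agent.LTE_E15
import Crest.Agent.LTE_E17
/-!
Task LTE-E18: limit of the top block of a `PathSeq`. Steps: (1) choose `x₀` with `hjErr(x₀) → 0`, subsequence with
`blk n (F i x₀) → F₀`; `K_* = dg kstar` commutes with `F₀` (`comm_of_sq_comm`; the block of `[K²,F]`), `Adm K_* F₀`.
(2) `explicit_riccati` gives `F_*(x) = U diag(f_j(x)) U^*`. (3) On each window `[-L,L]`: `blk_hasDerivAt`, and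
`∫_{-L}^L √hs2 rhoBlk → 0` since `hs2 rhoBlk ≤ 2(offblk/α)² + 2 hs2 vErr`, `offblk ≤ hs2 [K²,F]/g²` (small in `L¹`),
`∫ √(hs2 vErr) ≤ (∫ hs2 vErr/(1+tr V))^{1/2} (∫_{-L}^L (1 + tr V))^{1/2}`, `tr V ≤ m w` (`tr_le_rank_mul`),
`∫_{-L}^L w` bounded; `ode_stability`: `blk n (F i x) → F_*(x)` for all `x`. (4) tails (`tail_right` and `Riccati.reflect`,
`v = m w`; `∫_x^∞ e^{-κ₀(t-x)} w_i ≤ C ‖w_i‖_{L^p(x,∞)}` small for `x ≥ L`, uniformly in `i`): `F_*(L) < 0 < F_*(-L)` for large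
`L`, which excludes the constant solutions `f_j = ± k_j`. (5) a.e. `x`: `hs2 vErr → 0`, `offblk → 0`, so
`blk n V → (1/α+1)(K_*² - F_*(x)²) = U diag(soliton) U^*` (`soliton_of_tanh`).
-/

set_option autoImplicit false

namespace Crest.Agent.LT

open MeasureTheory Matrix Set Filter
open Crest.MathPhysics.LiebThirring
open scoped ComplexOrder Topology

theorem E18_N {m : ℕ} {α : ℝ} {f₀ : ℝ → ℝ} (S : PathSeq m α f₀) (n : ℕ) {kstar : Fin n → ℝ}
    (hpos : ∀ j, 0 < kstar j)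
    (hlim : ∀ j : Fin n, Tendsto (fun i => extv (S.k i) j) atTop (𝓝 (kstar j))) :
    ∀ᶠ i in atTop, n ≤ S.N i := by
  rcases Nat.eq_zero_or_pos n with rfl | hn
  · exact Eventually.of_forall fun i => Nat.zero_le _
  · have h1 := (hlim ⟨n - 1, by omega⟩).eventually_const_lt (hpos ⟨n - 1, by omega⟩)
    filter_upwards [h1] with i hi
    by_contra hcon
    unfold extv at hi
    rw [dif_neg (by omega)] at hi
    exact lt_irrefl _ hi

theorem E18_main {m : ℕ} {α : ℝ} (h0 : 0 < α) {f₀ : ℝ → ℝ} (hf₀ : ∀ x, 0 ≤ f₀ x)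
    (hfi : Integrable fun x => f₀ x ^ (1 + α)) (S : PathSeq m α f₀)
    (haew : ∀ᵐ x : ℝ, Tendsto (fun i => S.w i x) atTop (𝓝 (f₀ x)))
    (haee : ∀ᵐ x : ℝ, Tendsto (fun i => hjErr α (dg (S.k i)) (S.F i x) (S.V i x)) atTop (𝓝 0))
    (n : ℕ) {kstar : Fin n → ℝ} (hpos : ∀ j, 0 < kstar j)
    (hlim : ∀ j : Fin n, Tendsto (fun i => extv (S.k i) j) atTop (𝓝 (kstar j))) {g : ℝ} (hg : 0 < g)
    (hgap : ∀ᶠ i in atTop, ∀ a b : Fin (S.N i), (a : ℕ) < n → n ≤ (b : ℕ) →
      g ≤ (S.k i a) ^ 2 - (S.k i b) ^ 2) {x₀ : ℝ} {F₀ : Mt n}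
    (hx₀ : Tendsto (fun i => hjErr α (dg (S.k i)) (S.F i x₀) (S.V i x₀)) atTop (𝓝 0))
    (hF₀ : Tendsto (fun i => blk n (S.F i x₀)) atTop (𝓝 F₀)) :
    ∃ (U : Mt n) (k c : Fin n → ℝ), Uᴴ * U = 1 ∧ U * Uᴴ = 1 ∧
      (∀ j, 0 < k j) ∧ ∀ᵐ x : ℝ, Tendsto (fun i => blk n (S.V i x)) atTop
        (𝓝 (U * dg (fun j => soliton (1 / α) (k j) (c j) x) * Uᴴ)) := by
  have hN := E18_N S n hpos hlim
  have hKlim : Tendsto (fun i => blk n (dg (S.k i))) atTop (𝓝 (dg kstar)) := by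
    have hc : Continuous (fun k : Fin n → ℝ => dg k) := by
      unfold dg
      exact Continuous.matrix_diagonal (by fun_prop)
    have := (hc.tendsto kstar).comp (tendsto_pi_nhds.2 hlim)
    refine this.congr fun i => ?_
    rw [blk_dg]
    rfl
  have hKK := hKlim.mul hKlim
  have hRx : ∀ x : ℝ, ∀ᶠ i in atTop, x ∈ Icc (-(S.R i)) (S.R i) := by
    intro x
    filter_upwards [S.hR.eventually_ge_atTop |x|] with i hi
    exact ⟨by linarith [neg_abs_le x], by linarith [le_abs_self x]⟩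
  have hadm : ∀ x : ℝ, ∀ᶠ i in atTop, Adm (blk n (dg (S.k i))) (blk n (S.F i x)) := by
    intro x
    filter_upwards [hRx x] with i hi
    exact blk_adm ((S.ric i).adm x hi) n
  have hadm0 : Adm (dg kstar) F₀ := E18_adm_lim hKlim hF₀ (hadm x₀)
  have hcomm : dg kstar * F₀ = F₀ * dg kstar := by
    apply E18_comm hpos
    intro a b
    have e1 : Tendsto (fun i => (((extv (S.k i) a) ^ 2 - (extv (S.k i) b) ^ 2 : ℝ) : ℂ) *
        blk n (S.F i x₀) a b) atTop (𝓝 (((kstar a ^ 2 - kstar b ^ 2 : ℝ) : ℂ) * F₀ a b)) := by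
      apply Tendsto.mul
      · exact (Complex.continuous_ofReal.tendsto _).comp
          (((hlim a).pow 2).sub ((hlim b).pow 2))
      · exact tendsto_pi_nhds.1 (tendsto_pi_nhds.1 hF₀ a) b
    have e2 : Tendsto (fun i => (((extv (S.k i) a) ^ 2 - (extv (S.k i) b) ^ 2 : ℝ) : ℂ) *
        blk n (S.F i x₀) a b) atTop (𝓝 0) := by
      have h2 : Tendsto (fun i => Real.sqrt (hjErr α (dg (S.k i)) (S.F i x₀) (S.V i x₀))) atTop
          (𝓝 0) := by
        have := (Real.continuous_sqrt.tendsto 0).comp hx₀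
        rw [Real.sqrt_zero] at this
        exact this
      refine squeeze_zero_norm' ?_ h2
      filter_upwards [hN] with i hi
      apply Real.le_sqrt_of_sq_le
      rw [E18_extv hi, E18_extv hi, E18_blk_apply hi, ← E18_comm_entry]
      exact (E18_entry_sq_le _ _ _).trans (E18_comm_le (S.Vpsd i x₀))
    exact tendsto_nhds_unique e1 e2
  obtain ⟨U, k, f, hU, hU', hk0, hKd, hFd, hder, hfk, hcase, hderM⟩ :=
    explicit_riccati (r := 1 / α) (x₀ := x₀) (by positivity) hadm0 hcomm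
  have hkpos : ∀ j, 0 < k j := fun j =>
    lt_of_le_of_ne (hk0 j) (Ne.symm (E18_kpos hU hpos hKd j))
  obtain ⟨Fs, hFs⟩ : ∃ Fs : ℝ → Mt n, Fs = fun y => U * dg (fun j => f j y) * Uᴴ := ⟨_, rfl⟩
  -- convergence of the blocks
  have hFx : ∀ x, Tendsto (fun i => blk n (S.F i x)) atTop (𝓝 (Fs x)) := by
    intro x
    obtain ⟨L, hL⟩ : ∃ L : ℝ, L = |x| + |x₀| + 1 := ⟨_, rfl⟩
    have hL0 : 0 ≤ L := by rw [hL]; positivity
    have hx1 : x ∈ Icc (-L) L := by
      constructor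
      · linarith [neg_abs_le x, abs_nonneg x₀]
      · linarith [le_abs_self x, abs_nonneg x₀]
    have hx2 : x₀ ∈ Ioo (-L) L := by
      constructor
      · linarith [neg_abs_le x₀, abs_nonneg x]
      · linarith [le_abs_self x₀, abs_nonneg x]
    have hRL := S.hR.eventually_ge_atTop L
    refine ode_stability (c := -(1 / α)) (L := L) (M := n * (n * S.κ ^ 2)) (x₀ := x₀) hx2
      (A := fun i => blk n (dg (S.k i)) * blk n (dg (S.k i))) (A' := dg kstar * dg kstar) hKK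
      (G := fun i y => blk n (S.F i y)) (G' := Fs)
      (ρ := fun i y => rhoBlk n α (dg (S.k i)) (S.F i y) (S.V i y)) ?_ ?_ ?_ ?_ ?_ ?_ ?_ x hx1
    · filter_upwards [hRL] with i hi
      exact (continuous_blk n).comp_continuousOn
        ((S.ric i).contF.mono (Icc_subset_Icc (by linarith) hi))
    · filter_upwards [hRL] with i hi
      exact E18_rho_cont n α (dg (S.k i))
        ((S.ric i).contF.mono (Icc_subset_Icc (by linarith) hi))
        ((S.ric i).contV.mono (Icc_subset_Icc (by linarith) hi))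
    · filter_upwards [hRL] with i hi y hy
      exact blk_hasDerivAt (S.ric i) n ⟨by linarith [hy.1], by linarith [hy.2]⟩
    · filter_upwards [hRL, hN] with i hi hNi y hy
      apply E18_hs2_le_card
      intro a b
      refine E18_entry (blk_adm ((S.ric i).adm y ⟨by linarith [hy.1], by linarith [hy.2]⟩) n) ?_ a b
      intro a
      rw [blk_dg]
      unfold dg
      rw [Matrix.diagonal_apply_eq]
      show (((extv (S.k i) (a : ℕ) : ℝ) : ℂ)).re ≤ S.κ
      rw [E18_extv hNi, Complex.ofReal_re]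
      exact S.kbound i _
    · exact E18_rho_lim h0 hf₀ hfi S n hg hgap hL0
    · intro y
      rw [hFs]
      exact hderM y
    · rw [hFs]
      show Tendsto (fun i => blk n (S.F i x₀)) atTop (𝓝 (U * dg (fun j => f j x₀) * Uᴴ))
      rw [← hFd]
      exact hF₀
  -- exclusion of the constant solutions
  obtain ⟨κ₀, hκ₀, hκ⟩ : ∃ κ₀ : ℝ, 0 < κ₀ ∧ ∀ j, κ₀ < kstar j := by
    have h1 : ∀ᶠ κ in 𝓝[>] (0:ℝ), ∀ j, κ < kstar j :=
      eventually_all.2 fun j => by
        filter_upwards [Ioo_mem_nhdsGT (hpos j)] with κ hκ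
        exact hκ.2
    obtain ⟨κ₀, h2, h3⟩ := (h1.and self_mem_nhdsWithin).exists
    exact ⟨κ₀, h3, h2⟩
  have hk : ∀ᶠ i in atTop, ∀ j : Fin (S.N i), (j : ℕ) < n → κ₀ ≤ S.k i j := by
    have h1 : ∀ᶠ i in atTop, ∀ j : Fin n, κ₀ < extv (S.k i) j :=
      eventually_all.2 fun j => (hlim j).eventually_const_lt (hκ j)
    filter_upwards [h1] with i hi j hj
    have h2 := hi ⟨j, hj⟩
    unfold extv at h2
    rw [dif_pos j.2] at h2
    exact h2.le
  have htail : ∀ ε : ℝ, 0 < ε → ε < κ₀ → ∃ L : ℝ, (∀ j, k j + f j L ≤ ε) ∧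
      ∀ j, k j - f j (-L) ≤ ε := by
    intro ε hε0 hε
    obtain ⟨L, hL⟩ := (E18_tails h0 hf₀ hfi S n hg hgap hκ₀ hk hε0 hε).exists
    refine ⟨L, ?_, ?_⟩
    · have h1 : Tendsto (fun i => tr (blk n (dg (S.k i) + S.F i L))) atTop
          (𝓝 (tr (dg kstar + Fs L))) := by
        have := (E18_continuous_tr.tendsto _).comp (hKlim.add (hFx L))
        refine this.congr fun i => ?_
        simp only [Function.comp, E18_blk_add]
      have h2 : tr (dg kstar + Fs L) ≤ ε := le_of_tendsto h1 (hL.mono fun i hi => hi.1)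
      rw [hFs, hKd] at h2
      simp only at h2
      rw [E18_conj_add, E18_conj_tr hU] at h2
      intro j
      have h3 : ∀ j, 0 ≤ k j + f j L := fun j => by linarith [(abs_le.1 (hfk j L)).1]
      exact (Finset.single_le_sum (fun j _ => h3 j) (Finset.mem_univ j)).trans h2
    · have h1 : Tendsto (fun i => tr (blk n (dg (S.k i) + -(S.F i (-L))))) atTop
          (𝓝 (tr (dg kstar - Fs (-L)))) := by
        have := (E18_continuous_tr.tendsto _).comp (hKlim.sub (hFx (-L)))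
        refine this.congr fun i => ?_
        simp only [Function.comp, E18_blk_add, E18_blk_neg, sub_eq_add_neg]
      have h2 : tr (dg kstar - Fs (-L)) ≤ ε := le_of_tendsto h1 (hL.mono fun i hi => hi.2)
      rw [hFs, hKd] at h2
      simp only at h2
      rw [E18_conj_sub, E18_conj_tr hU] at h2
      intro j
      have h3 : ∀ j, 0 ≤ k j - f j (-L) := fun j => by linarith [(abs_le.1 (hfk j (-L))).2]
      exact (Finset.single_le_sum (fun j _ => h3 j) (Finset.mem_univ j)).trans h2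
  have hc : ∀ j, ∃ c : ℝ, ∀ x, f j x = -k j * Real.tanh (1 / α * k j * (x - c)) := by
    intro j
    have hkj := hkpos j
    obtain ⟨L, hL1, hL2⟩ := htail (min κ₀ (k j) / 2) (by positivity)
      (by have := min_le_left κ₀ (k j); linarith)
    have hm := min_le_right κ₀ (k j)
    rcases hcase j with h1 | h1 | ⟨_, h1⟩
    · have := hL1 j
      rw [h1 L] at this
      linarith
    · have := hL2 j
      rw [h1 (-L)] at this
      linarith
    · exact h1
  choose c hc using hc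
  refine ⟨U, k, c, hU, hU', hkpos, ?_⟩
  filter_upwards [haew, haee] with x hxw hxe
  obtain ⟨e, he⟩ : ∃ e : ℕ → ℝ, e = fun i => hjErr α (dg (S.k i)) (S.F i x) (S.V i x) := ⟨_, rfl⟩
  have hel : Tendsto e atTop (𝓝 0) := by rw [he]; exact hxe
  have he0 : ∀ i, 0 ≤ e i := by intro i; rw [he]; exact E18_hjErr_nonneg (S.Vpsd i x)
  have hb : Tendsto (fun i => e i * (1 + m * S.w i x)) atTop (𝓝 0) := by
    have := hel.mul ((hxw.const_mul (m:ℝ)).const_add 1)
    rwa [zero_mul] at this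
  have hv : ∀ i, hs2 (vErr α (dg (S.k i)) (S.F i x) (S.V i x)) ≤ e i * (1 + m * S.w i x) := by
    intro i
    have h1 := E18_vErr_le (α := α) (K := dg (S.k i)) (F := S.F i x) (S.Vpsd i x)
    have h2 := E18_trV h0 S i x
    have h3 : hjErr α (dg (S.k i)) (S.F i x) (S.V i x) = e i := by rw [he]
    rw [h3] at h1
    exact h1.trans (mul_le_mul_of_nonneg_left (by linarith) (he0 i))
  have hverr : Tendsto (fun i => blk n (vErr α (dg (S.k i)) (S.F i x) (S.V i x))) atTop (𝓝 0) := by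
    refine E18_tendsto_zero hb ?_
    filter_upwards [hN] with i hi a b
    exact (E18_blk_entry_le hi _ a b).trans (hv i)
  have hrho : Tendsto (fun i => rhoBlk n α (dg (S.k i)) (S.F i x) (S.V i x)) atTop (𝓝 0) := by
    have hb2 : Tendsto (fun i => 2 * ((1 / α) * (e i / g ^ 2)) ^ 2 +
        2 * (e i * (1 + m * S.w i x))) atTop (𝓝 0) := by
      have h1 := (((hel.div_const (g ^ 2)).const_mul (1 / α)).pow 2).const_mul 2
      have h2 := h1.add (hb.const_mul 2)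
      simpa using h2
    refine E18_tendsto_zero hb2 ?_
    filter_upwards [hgap, hRx x] with i hi hR a b
    refine (E18_entry_sq_le _ a b).trans ?_
    refine (hs2_rhoBlk_le h0 ((S.ric i).adm x hR).isHermitian_F n).trans ?_
    have h1 := offblk_le (S.F i x) hg hi
    have h2 : hs2 (dg (S.k i) * dg (S.k i) * S.F i x - S.F i x * (dg (S.k i) * dg (S.k i))) ≤
        e i := by
      rw [he]; exact E18_comm_le (S.Vpsd i x)
    have h3 : offblk n (S.F i x) ≤ e i / g ^ 2 := h1.trans (by gcongr)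
    have h4 := E18_offblk_nonneg n (S.F i x)
    have h5 := hv i
    have h6 : (1 / α * offblk n (S.F i x)) ^ 2 ≤ (1 / α * (e i / g ^ 2)) ^ 2 := by gcongr
    linarith
  have hfin : Tendsto (fun i => (((1 / α + 1 : ℝ) : ℂ)) •
      (blk n (dg (S.k i)) * blk n (dg (S.k i)) - blk n (S.F i x) * blk n (S.F i x)) -
      ((α : ℝ) : ℂ) • ((((1 / α + 1 : ℝ) : ℂ)) • rhoBlk n α (dg (S.k i)) (S.F i x) (S.V i x) +
        blk n (vErr α (dg (S.k i)) (S.F i x) (S.V i x)))) atTop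
      (𝓝 ((((1 / α + 1 : ℝ) : ℂ)) • (dg kstar * dg kstar - Fs x * Fs x) -
        ((α : ℝ) : ℂ) • ((((1 / α + 1 : ℝ) : ℂ)) • (0 : Mt n) + 0))) :=
    ((hKK.sub ((hFx x).mul (hFx x))).const_smul _).sub
      (((hrho.const_smul _).add hverr).const_smul _)
  have hlimeq : (((1 / α + 1 : ℝ) : ℂ)) • (dg kstar * dg kstar - Fs x * Fs x) -
        ((α : ℝ) : ℂ) • ((((1 / α + 1 : ℝ) : ℂ)) • (0 : Mt n) + 0) =
      U * dg (fun j => soliton (1 / α) (k j) (c j) x) * Uᴴ := by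
    rw [smul_zero, add_zero, smul_zero, sub_zero, hFs, hKd]
    simp only
    rw [E18_conj_mul hU, E18_conj_mul hU, E18_conj_lin]
    congr 3
    funext j
    rw [← soliton_of_tanh h0, ← hc j x]
    ring
  rw [← hlimeq]
  refine hfin.congr fun i => ?_
  exact (E18_V_eq n h0 _ _ _).symm

theorem blk_limit {m : ℕ} {α : ℝ} (h0 : 0 < α) (h1 : α < 1) {f₀ : ℝ → ℝ} (hf₀ : ∀ x, 0 ≤ f₀ x)
    (hfm : AEStronglyMeasurable f₀ volume) (hfi : Integrable fun x => f₀ x ^ (1 + α))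
    (S : PathSeq m α f₀)
    (haew : ∀ᵐ x : ℝ, Tendsto (fun i => S.w i x) atTop (𝓝 (f₀ x)))
    (haee : ∀ᵐ x : ℝ, Tendsto (fun i => hjErr α (dg (S.k i)) (S.F i x) (S.V i x)) atTop (𝓝 0))
    (n : ℕ) {kstar : Fin n → ℝ} (hpos : ∀ j, 0 < kstar j)
    (hlim : ∀ j : Fin n, Tendsto (fun i => extv (S.k i) j) atTop (𝓝 (kstar j))) {g : ℝ} (hg : 0 < g)
    (hgap : ∀ᶠ i in atTop, ∀ a b : Fin (S.N i), (a : ℕ) < n → n ≤ (b : ℕ) →
      g ≤ (S.k i a) ^ 2 - (S.k i b) ^ 2) :
    ∃ (θ : ℕ → ℕ), StrictMono θ ∧ ∃ (U : Mt n) (k c : Fin n → ℝ), Uᴴ * U = 1 ∧ U * Uᴴ = 1 ∧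
      (∀ j, 0 < k j) ∧ ∀ᵐ x : ℝ, Tendsto (fun i => blk n (S.V (θ i) x)) atTop
        (𝓝 (U * dg (fun j => soliton (1 / α) (k j) (c j) x) * Uᴴ)) := by
  obtain ⟨x₀, hx₀⟩ := haee.exists
  have hN := E18_N S n hpos hlim
  have hbd : ∀ᶠ i in atTop, ∀ a b, ‖blk n (S.F i x₀) a b‖ ≤ S.κ := by
    filter_upwards [hN, S.hR.eventually_ge_atTop |x₀|] with i hi hR a b
    refine E18_entry (blk_adm ((S.ric i).adm x₀
      ⟨by linarith [neg_abs_le x₀], by linarith [le_abs_self x₀]⟩) n) ?_ a b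
    intro a
    rw [blk_dg]
    unfold dg
    rw [Matrix.diagonal_apply_eq]
    show (((extv (S.k i) (a : ℕ) : ℝ) : ℂ)).re ≤ S.κ
    rw [E18_extv hi, Complex.ofReal_re]
    exact S.kbound i _
  obtain ⟨F₀, θ, hθ, hF₀⟩ := E18_subseq hbd
  refine ⟨θ, hθ, ?_⟩
  have ht := hθ.tendsto_atTop
  exact E18_main h0 hf₀ hfi (S.sub θ hθ) (haew.mono fun x hx => hx.comp ht)
    (haee.mono fun x hx => hx.comp ht) n hpos (fun j => (hlim j).comp ht) hg
    (ht.eventually hgap) (hx₀.comp ht) hF₀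

end Crest.Agent.LT
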