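import Crest.Agent.LTE_Defs
import Crest.Agent.LTE_E16
import Crest.Agent.LTE_E17
import Crest.Agent.LTE_E18
import Crest.Agent.LT_T46
/-!
Task LTE-E19: the profile of `f₀`. With `pathSeq_spectrum`, `pathSeq_ae`: limits `ks j` of the eigenvalues.
(a) if `ks m > 0` (i.e. more than `m` positive limits), take `n > m` with `ks (n-1) = ks m > ks n` (exists as `ks → 0`): `blk_limit`
gives `blk n V → U diag(soliton > 0) U^*`, invertible, but `rank (blk n V) ≤ m < n` so `det = 0`: contradiction.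
(b) so `n = #{j : ks j > 0} ≤ m`, gap `ks (n-1) > 0 = ks n`; `blk_limit` with this `n`, `tr_rpow_blk_le/ge` with `τ → 0`, `t → 0`:
a.e. `tr V^p → ∑ soliton^p`, while `w^p - tr V^p → 0` and `w → f₀`.
-/

set_option autoImplicit false

namespace Crest.Agent.LT

open MeasureTheory Matrix Set Filter
open Crest.MathPhysics.LiebThirring
open scoped ComplexOrder Topology

theorem E19_tr_conj {n : ℕ} {U : Mt n} (hU : Uᴴ * U = 1) (hU' : U * Uᴴ = 1) (a : Fin n → ℝ)
    (f : ℝ → ℝ) : tr (cfc f (U * dg a * Uᴴ)) = ∑ j, f (a j) := by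
  have h := tr_cfc_conj (U := Uᴴ) (A := dg a) (by simpa using hU') (by simpa using hU)
    (T46_diag_herm a) f
  rw [conjTranspose_conjTranspose] at h
  rw [h]
  unfold dg
  rw [T46_cfc_diag, T46_tr_diag]

/-- continuity of `A ↦ tr A^p` on Hermitian matrices, sequential form -/
theorem E19_tr_tendsto {n : ℕ} {p : ℝ} (hp : 0 ≤ p) {A : ℕ → Mt n} {B : Mt n}
    (hA : ∀ i, (A i).IsHermitian) (h : Tendsto A atTop (𝓝 B)) :
    Tendsto (fun i => tr (cfc (fun t : ℝ => t ^ p) (A i))) atTop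
      (𝓝 (tr (cfc (fun t : ℝ => t ^ p) B))) := by
  have hcl : IsClosed {A : Mt n | A.IsHermitian} := by
    have : {A : Mt n | A.IsHermitian} = {A : Mt n | Aᴴ = A} := rfl
    rw [this]
    exact isClosed_eq continuous_id.matrix_conjTranspose continuous_id
  have hB : B.IsHermitian := hcl.mem_of_tendsto h (Eventually.of_forall hA)
  have hc : ContinuousOn (fun A : Mt n => cfc (fun t : ℝ => t ^ p) A) {A : Mt n | A.IsHermitian} := by
    refine continuousOn_cfc_param (f := fun _ t => t ^ p) continuousOn_id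
      (fun x hx => hx) isOpen_univ ?_ (fun _ _ => subset_univ _)
    exact ((Real.continuous_rpow_const hp).comp continuous_snd).continuousOn
  have h1 : Tendsto A atTop (𝓝[{A : Mt n | A.IsHermitian}] B) :=
    tendsto_nhdsWithin_iff.2 ⟨h, Eventually.of_forall hA⟩
  exact (E17_continuous_tr.tendsto _).comp ((hc B hB).tendsto.comp h1)

theorem E19_le_extv {N : ℕ} {k : Fin N → ℝ} (ha : Antitone k) {n : ℕ} {j : Fin N}
    (h : n ≤ (j : ℕ)) : k j ≤ extv k n := by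
  unfold extv
  rw [dif_pos (lt_of_le_of_lt h j.2)]
  exact ha (by simpa [Fin.le_def] using h)

theorem E19_extv_le {N : ℕ} {k : Fin N → ℝ} (ha : Antitone k) (h0 : ∀ j, 0 ≤ k j) {n : ℕ} {j : Fin N}
    (h : (j : ℕ) ≤ n) : extv k n ≤ k j := by
  unfold extv
  split_ifs with hn
  · exact ha (by simpa [Fin.le_def] using h)
  · exact h0 j

theorem E19_gap {m : ℕ} {α : ℝ} {f₀ : ℝ → ℝ} (T : PathSeq m α f₀) {ks : ℕ → ℝ}
    (hk0 : ∀ j, 0 ≤ ks j)
    (hk : ∀ j, Tendsto (fun i => extv (T.k i) j) atTop (𝓝 (ks j))) (n : ℕ)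
    (hgap : ∀ n', n = n' + 1 → ks n < ks n') :
    ∃ g : ℝ, 0 < g ∧ ∀ᶠ i in atTop, ∀ a b : Fin (T.N i), (a : ℕ) < n → n ≤ (b : ℕ) →
      g ≤ (T.k i a) ^ 2 - (T.k i b) ^ 2 := by
  rcases n with _ | n
  · exact ⟨1, one_pos, Eventually.of_forall fun i a b ha _ => absurd ha (Nat.not_lt_zero _)⟩
  · have h1 := hgap n rfl
    have h2 : ks (n + 1) ^ 2 < ks n ^ 2 := by
      have := hk0 (n + 1)
      nlinarith
    refine ⟨(ks n ^ 2 - ks (n + 1) ^ 2) / 2, by linarith, ?_⟩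
    have h3 : Tendsto (fun i => extv (T.k i) n ^ 2 - extv (T.k i) (n + 1) ^ 2) atTop
        (𝓝 (ks n ^ 2 - ks (n + 1) ^ 2)) := ((hk n).pow 2).sub ((hk (n + 1)).pow 2)
    filter_upwards [h3.eventually_const_lt (show (ks n ^ 2 - ks (n + 1) ^ 2) / 2 <
      ks n ^ 2 - ks (n + 1) ^ 2 by linarith)] with i hi a b ha hb
    have h4 : extv (T.k i) n ≤ T.k i a := E19_extv_le (T.anti i) (T.nonneg i) (by omega)
    have h5 : T.k i b ≤ extv (T.k i) (n + 1) := E19_le_extv (T.anti i) hb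
    have h6 : 0 ≤ extv (T.k i) n := E17_extv_nonneg (T.nonneg i) n
    have h7 := T.nonneg i b
    have h8 : extv (T.k i) n ^ 2 ≤ T.k i a ^ 2 := pow_le_pow_left₀ h6 h4 2
    have h9 : T.k i b ^ 2 ≤ extv (T.k i) (n + 1) ^ 2 := pow_le_pow_left₀ h7 h5 2
    linarith

theorem E19_hjErr_parts {N : ℕ} {α : ℝ} {K F V : Mt N} (hV : V.PosSemidef) :
    hs2 (K * K * F - F * (K * K)) ≤ hjErr α K F V ∧
      hs2 (vErr α K F V) ≤ hjErr α K F V * (1 + tr V) := by
  have h1 := E12_hs2_nonneg (K * K * F - F * (K * K))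
  have h2 := E12_hs2_nonneg (vErr α K F V)
  have h3 := E17_tr_nonneg hV
  have h4 : 0 ≤ hs2 (vErr α K F V) / (1 + tr V) := by positivity
  unfold hjErr
  refine ⟨by linarith, ?_⟩
  rw [add_mul, div_mul_cancel₀ _ (by positivity)]
  have : 0 ≤ hs2 (K * K * F - F * (K * K)) * (1 + tr V) := by positivity
  linarith

/-- `hs2 vErr → 0` at a point where `hjErr → 0` and `w` converges -/
theorem E19_vErr_tendsto {m : ℕ} {α : ℝ} (h0 : 0 < α) {f₀ : ℝ → ℝ} (T : PathSeq m α f₀) {x : ℝ}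
    (hw : Tendsto (fun i => T.w i x) atTop (𝓝 (f₀ x)))
    (he : Tendsto (fun i => hjErr α (dg (T.k i)) (T.F i x) (T.V i x)) atTop (𝓝 0)) :
    Tendsto (fun i => hs2 (vErr α (dg (T.k i)) (T.F i x) (T.V i x))) atTop (𝓝 0) := by
  have h1 : Tendsto (fun i => hjErr α (dg (T.k i)) (T.F i x) (T.V i x) * (1 + m * T.w i x)) atTop
      (𝓝 (0 * (1 + m * f₀ x))) := he.mul ((hw.const_mul _).const_add _)
  rw [zero_mul] at h1
  refine squeeze_zero (fun i => E12_hs2_nonneg _) (fun i => ?_) h1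
  refine (E19_hjErr_parts (T.Vpsd i x)).2.trans ?_
  refine mul_le_mul_of_nonneg_left ?_ (hjErr_nonneg (T.Vpsd i x))
  have := tr_le_rank_mul (T.Vpsd i x) (T.rank i x) (by linarith : (0 : ℝ) < 1 + α)
    (T.wnonneg i x) (T.trV i x)
  linarith

theorem E19_offblk_nonneg {N : ℕ} (n : ℕ) (A : Mt N) : 0 ≤ offblk n A := by
  unfold offblk
  refine Finset.sum_nonneg fun i _ => Finset.sum_nonneg fun j _ => ?_
  split_ifs <;> positivity

theorem E19_offblk_tendsto {m : ℕ} {α : ℝ} {f₀ : ℝ → ℝ} (T : PathSeq m α f₀) {x : ℝ} {n : ℕ}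
    {g : ℝ} (hg : 0 < g) (hgap : ∀ᶠ i in atTop, ∀ a b : Fin (T.N i), (a : ℕ) < n → n ≤ (b : ℕ) →
      g ≤ (T.k i a) ^ 2 - (T.k i b) ^ 2)
    (he : Tendsto (fun i => hjErr α (dg (T.k i)) (T.F i x) (T.V i x)) atTop (𝓝 0)) :
    Tendsto (fun i => offblk n (T.F i x)) atTop (𝓝 0) := by
  have h1 : Tendsto (fun i => hjErr α (dg (T.k i)) (T.F i x) (T.V i x) / g ^ 2) atTop
      (𝓝 (0 / g ^ 2)) := he.div_const _
  rw [zero_div] at h1
  refine squeeze_zero' (Eventually.of_forall fun i => E19_offblk_nonneg _ _) ?_ h1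
  filter_upwards [hgap] with i hi
  refine (offblk_le (T.F i x) hg hi).trans ?_
  exact div_le_div_of_nonneg_right (E19_hjErr_parts (T.Vpsd i x)).1 (by positivity)

/-- the limit of `tr V^p` at a good point -/
theorem E19_upper {m : ℕ} {α : ℝ} (h0 : 0 < α) {f₀ : ℝ → ℝ} (hf₀ : ∀ x, 0 ≤ f₀ x)
    (T : PathSeq m α f₀) {x : ℝ} {n : ℕ} {A : Mt n}
    (hw : Tendsto (fun i => T.w i x) atTop (𝓝 (f₀ x)))
    (hd : Tendsto (fun i => (T.w i x) ^ (1 + α) - tr (cfc (fun t : ℝ => t ^ (1 + α)) (T.V i x)))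
      atTop (𝓝 0))
    (hv : Tendsto (fun i => hs2 (vErr α (dg (T.k i)) (T.F i x) (T.V i x))) atTop (𝓝 0))
    (ho : Tendsto (fun i => offblk n (T.F i x)) atTop (𝓝 0))
    (hn : Tendsto (fun i => extv (T.k i) n) atTop (𝓝 0))
    (hb : Tendsto (fun i => blk n (T.V i x)) atTop (𝓝 A)) :
    f₀ x ^ (1 + α) = tr (cfc (fun t : ℝ => t ^ (1 + α)) A) := by
  have hp : (0 : ℝ) < 1 + α := by linarith
  have hB : Tendsto (fun i => tr (cfc (fun t : ℝ => t ^ (1 + α)) (blk n (T.V i x)))) atTop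
      (𝓝 (tr (cfc (fun t : ℝ => t ^ (1 + α)) A))) :=
    E19_tr_tendsto hp.le (fun i => (blk_posSemidef (T.Vpsd i x) n).1) hb
  have hV : Tendsto (fun i => tr (cfc (fun t : ℝ => t ^ (1 + α)) (T.V i x))) atTop
      (𝓝 (f₀ x ^ (1 + α))) := by
    have h1 : Tendsto (fun i => (T.w i x) ^ (1 + α)) atTop (𝓝 (f₀ x ^ (1 + α))) :=
      ((Real.continuous_rpow_const hp.le).tendsto _).comp hw
    have h2 := h1.sub hd
    rw [sub_zero] at h2
    refine h2.congr fun i => ?_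
    ring
  refine le_antisymm ?_ ?_
  · -- upper bound
    have hx : ∀ᶠ i in atTop, x ∈ Icc (-(T.R i)) (T.R i) := by
      filter_upwards [T.hR.eventually_gt_atTop |x|] with i hi
      have := abs_lt.mp hi
      exact ⟨this.1.le, this.2.le⟩
    have key : ∀ t : ℝ, 0 < t → f₀ x ^ (1 + α) ≤
        (1 + t) ^ (1 + α) * tr (cfc (fun t : ℝ => t ^ (1 + α)) A) := by
      intro t ht
      have h1 : Tendsto (fun i => (1 + t) ^ (1 + α) *
          tr (cfc (fun t : ℝ => t ^ (1 + α)) (blk n (T.V i x))) +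
          (1 + 1 / t) ^ (1 + α) * (m * ((1 / α + 1) * (2 * (extv (T.k i) n) ^ 2 +
            offblk n (T.F i x)) + Real.sqrt (hs2 (vErr α (dg (T.k i)) (T.F i x) (T.V i x)))) ^
              (1 + α))) atTop
          (𝓝 ((1 + t) ^ (1 + α) * tr (cfc (fun t : ℝ => t ^ (1 + α)) A) +
          (1 + 1 / t) ^ (1 + α) * (m * ((1 / α + 1) * (2 * (0 : ℝ) ^ 2 + 0) + Real.sqrt 0) ^
            (1 + α)))) := by
        refine (hB.const_mul _).add (Tendsto.const_mul _ (Tendsto.const_mul _ ?_))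
        refine ((Real.continuous_rpow_const hp.le).tendsto _).comp ?_
        refine Tendsto.add (Tendsto.const_mul _ (((hn.pow 2).const_mul _).add ho)) ?_
        exact (Real.continuous_sqrt.tendsto _).comp hv
      have h2 : (1 + t) ^ (1 + α) * tr (cfc (fun t : ℝ => t ^ (1 + α)) A) +
          (1 + 1 / t) ^ (1 + α) * (m * ((1 / α + 1) * (2 * (0 : ℝ) ^ 2 + 0) + Real.sqrt 0) ^
            (1 + α)) = (1 + t) ^ (1 + α) * tr (cfc (fun t : ℝ => t ^ (1 + α)) A) := by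
        have : ((1 / α + 1) * (2 * (0 : ℝ) ^ 2 + 0) + Real.sqrt 0) = 0 := by
          simp
        rw [this, Real.zero_rpow hp.ne']
        ring
      rw [h2] at h1
      refine le_of_tendsto_of_tendsto hV h1 ?_
      filter_upwards [hx] with i hi
      exact tr_rpow_blk_le (by linarith : (1 : ℝ) ≤ 1 + α) h0 ht (E17_extv_nonneg (T.nonneg i) n)
        (T.Vpsd i x) (T.rank i x) ((T.ric i).adm x hi) (fun j hj => E19_le_extv (T.anti i) hj)
    have h3 : Tendsto (fun t : ℝ => (1 + t) ^ (1 + α) * tr (cfc (fun t : ℝ => t ^ (1 + α)) A))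
        (𝓝[>] 0) (𝓝 ((1 + 0) ^ (1 + α) * tr (cfc (fun t : ℝ => t ^ (1 + α)) A))) := by
      refine Tendsto.mono_left ?_ nhdsWithin_le_nhds
      refine Tendsto.mul_const _ ?_
      exact ((Real.continuous_rpow_const hp.le).comp (continuous_const.add continuous_id)).tendsto 0
    rw [add_zero, Real.one_rpow, one_mul] at h3
    refine ge_of_tendsto h3 ?_
    filter_upwards [self_mem_nhdsWithin] with t ht
    exact key t ht
  · exact le_of_tendsto_of_tendsto' hB hV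
      fun i => tr_rpow_blk_ge (by linarith : (1 : ℝ) ≤ 1 + α) (T.Vpsd i x)

theorem E19_soliton_pos {r k c x : ℝ} (hr : 0 < r) (hk : 0 < k) : 0 < soliton r k c x := by
  unfold soliton
  have := Real.cosh_pos (r * k * (x - c))
  positivity

/-- a limit of matrices of rank `≤ m < n` is singular -/
theorem E19_rank_contra {m n : ℕ} (hmn : m < n) {A : ℕ → Mt n} {U : Mt n} {a : Fin n → ℝ}
    (hU' : U * Uᴴ = 1) (hr : ∀ i, (A i).rank ≤ m)
    (h : Tendsto A atTop (𝓝 (U * dg a * Uᴴ))) (ha : ∀ j, 0 < a j) : False := by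
  have h1 : Tendsto (fun i => (A i).det) atTop (𝓝 (U * dg a * Uᴴ).det) :=
    ((continuous_id.matrix_det).tendsto _).comp h
  have h2 : ∀ i, (A i).det = 0 := by
    intro i
    by_contra hne
    have := Matrix.rank_of_isUnit (A i) ((Matrix.isUnit_iff_isUnit_det _).2 (Ne.isUnit hne))
    rw [Fintype.card_fin] at this
    have := hr i
    omega
  have h3 : (U * dg a * Uᴴ).det = ((∏ j, a j : ℝ) : ℂ) := by
    rw [Matrix.det_mul, Matrix.det_mul, mul_right_comm, ← Matrix.det_mul, hU', Matrix.det_one,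
      one_mul]
    unfold dg
    rw [Matrix.det_diagonal]
    push_cast
    rfl
  simp_rw [h2] at h1
  have h4 := tendsto_nhds_unique h1 tendsto_const_nhds
  rw [h3] at h4
  have h5 : (0 : ℝ) < ∏ j, a j := Finset.prod_pos fun j _ => ha j
  have h6 : (∏ j, a j : ℝ) = 0 := by exact_mod_cast h4
  exact h5.ne' h6

theorem E19_core {m : ℕ} {α : ℝ} (h0 : 0 < α) (h1 : α < 1) {f₀ : ℝ → ℝ} (hf₀ : ∀ x, 0 ≤ f₀ x)
    (hfm : AEStronglyMeasurable f₀ volume) (hfi : Integrable fun x => f₀ x ^ (1 + α))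
    (T : PathSeq m α f₀)
    (haew : ∀ᵐ x : ℝ, Tendsto (fun i => T.w i x) atTop (𝓝 (f₀ x)))
    (haee : ∀ᵐ x : ℝ, Tendsto (fun i => hjErr α (dg (T.k i)) (T.F i x) (T.V i x)) atTop (𝓝 0))
    (haed : ∀ᵐ x : ℝ, Tendsto (fun i => (T.w i x) ^ (1 + α) -
      tr (cfc (fun t : ℝ => t ^ (1 + α)) (T.V i x))) atTop (𝓝 0))
    {ks : ℕ → ℝ} (hanti : Antitone ks) (hk0 : ∀ j, 0 ≤ ks j) (hkt : Tendsto ks atTop (𝓝 0))
    (hk : ∀ j, Tendsto (fun i => extv (T.k i) j) atTop (𝓝 (ks j))) :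
    ∃ (n : ℕ) (k c : Fin n → ℝ), (∀ j, 0 < k j) ∧
      ∀ᵐ x : ℝ, f₀ x ^ (1 + α) = ∑ j, (soliton (1 / α) (k j) (c j) x) ^ (1 + α) := by
  classical
  have hm : ks m = 0 := by
    by_contra hne
    have hpos : 0 < ks m := lt_of_le_of_ne (hk0 m) (Ne.symm hne)
    have hex : ∃ n, ks n < ks m := (hkt.eventually_lt_const hpos).exists
    set n := Nat.find hex with hn
    have hn1 : ks n < ks m := Nat.find_spec hex
    have hn2 : ∀ j < n, ks m ≤ ks j := fun j hj => not_lt.1 (Nat.find_min hex hj)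
    have hmn : m < n := by
      by_contra hcon
      exact absurd (hanti (not_lt.1 hcon)) (not_le.2 hn1)
    obtain ⟨g, hg, hgap⟩ := E19_gap T hk0 hk n
      (fun n' hn' => lt_of_lt_of_le hn1 (hn2 n' (by omega)))
    obtain ⟨θ, hθ, U, k, c, hU, hU', hkpos, hae⟩ := blk_limit h0 h1 hf₀ hfm hfi T haew haee n
      (kstar := fun j : Fin n => ks j) (fun j => lt_of_lt_of_le hpos (hn2 j j.2))
      (fun j => hk j) hg hgap
    obtain ⟨x, hx⟩ := hae.exists
    exact E19_rank_contra hmn hU' (fun i => (blk_rank_le _ _).trans (T.rank (θ i) x)) hx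
      (fun j => E19_soliton_pos (by positivity) (hkpos j))
  have hex : ∃ n, ks n = 0 := ⟨m, hm⟩
  set n := Nat.find hex with hn
  have hn1 : ks n = 0 := Nat.find_spec hex
  have hn2 : ∀ j < n, 0 < ks j := fun j hj =>
    lt_of_le_of_ne (hk0 j) (Ne.symm (Nat.find_min hex hj))
  obtain ⟨g, hg, hgap⟩ := E19_gap T hk0 hk n
    (fun n' hn' => by rw [hn1]; exact hn2 n' (by omega))
  obtain ⟨θ, hθ, U, k, c, hU, hU', hkpos, hae⟩ := blk_limit h0 h1 hf₀ hfm hfi T haew haee n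
    (kstar := fun j : Fin n => ks j) (fun j => hn2 j j.2) (fun j => hk j) hg hgap
  refine ⟨n, k, c, hkpos, ?_⟩
  filter_upwards [haew, haee, haed, hae] with x hw he hd hb
  have hv := E19_vErr_tendsto h0 T hw he
  have ho := E19_offblk_tendsto T hg hgap he
  have hkn := hk n
  rw [hn1] at hkn
  have hlim := hθ.tendsto_atTop
  have := E19_upper h0 hf₀ (T.sub θ hθ) (x := x) (n := n) (hw.comp hlim) (hd.comp hlim)
    (hv.comp hlim) (ho.comp hlim) (hkn.comp hlim) hb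
  rw [this, E19_tr_conj hU hU']

theorem pathSeq_profile {m : ℕ} {α : ℝ} (h0 : 0 < α) (h1 : α < 1) {f₀ : ℝ → ℝ} (hf₀ : ∀ x, 0 ≤ f₀ x)
    (hfm : AEStronglyMeasurable f₀ volume) (hfi : Integrable fun x => f₀ x ^ (1 + α))
    (S : PathSeq m α f₀) :
    ∃ (n : ℕ) (k c : Fin n → ℝ), (∀ j, 0 < k j) ∧
      ∀ᵐ x : ℝ, f₀ x ^ (1 + α) = ∑ j, (soliton (1 / α) (k j) (c j) x) ^ (1 + α) := by
  obtain ⟨θ₁, hθ₁, hae⟩ := pathSeq_ae h0 hfm S
  obtain ⟨θ₂, hθ₂, ks, hanti, hk0, hkt, hk⟩ := pathSeq_spectrum h0 (S.sub θ₁ hθ₁)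
  have hlim := hθ₂.tendsto_atTop
  refine E19_core h0 h1 hf₀ hfm hfi ((S.sub θ₁ hθ₁).sub θ₂ hθ₂) ?_ ?_ ?_ hanti hk0 hkt hk
  · filter_upwards [hae] with x hx
    exact hx.1.comp hlim
  · filter_upwards [hae] with x hx
    exact hx.2.1.comp hlim
  · filter_upwards [hae] with x hx
    exact hx.2.2.comp hlim

end Crest.Agent.LT
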