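import Crest.Agent.LTE_Defs
import Crest.Agent.LT_T41
import Crest.Agent.LT_T40
import Crest.Agent.LT_T47
/-!
Task LTE-E20: finiteness of the number of negative energies when `w₀ ≤ v`, `∫ (1+|x|) v < ∞`.
If `N > m * #grid`, there is a nonzero `φ = ∑ c_j φ_j` vanishing at all grid points of `[-X,X]` (mesh `ℓ`, `ℓ ∫ v ≤ 1`,
`∫_{|x|>X} |x| v ≤ 1`); on each interval `|φ(x)|² ≤ |x - x_l| ∫_I |φ'|²`, so `∫ v |φ|² ≤ ∫ |φ'|²`, but the energy
`∫|φ'|² - ∫ φ^*Wφ = -∑ κ_j² |c_j|² < 0` and `φ^*Wφ ≤ w₀ |φ|²`.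
-/

set_option autoImplicit false

namespace Crest.Agent.LT

open MeasureTheory Matrix Set Filter
open Crest.MathPhysics.LiebThirring
open scoped ComplexOrder Topology

theorem E20_eig_le {m : ℕ} {A : Matrix (Fin m) (Fin m) ℂ} (hA : A.PosSemidef) {p : ℝ} (hp : 0 < p)
    (i : Fin m) : hA.1.eigenvalues i ≤ (tracePow A p) ^ (1 / p) := by
  have h0 : ∀ i, 0 ≤ hA.1.eigenvalues i := fun i => hA.eigenvalues_nonneg i
  have h1 : tracePow A p = ∑ i, hA.1.eigenvalues i ^ p := by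
    rw [tracePow, T47_trace_cfc hA.1]
  have h2 : hA.1.eigenvalues i ^ p ≤ tracePow A p := by
    rw [h1]
    exact Finset.single_le_sum (f := fun i => hA.1.eigenvalues i ^ p)
      (fun j _ => Real.rpow_nonneg (h0 j) p) (Finset.mem_univ i)
  calc hA.1.eigenvalues i = (hA.1.eigenvalues i ^ p) ^ (1 / p) := by
        rw [← Real.rpow_mul (h0 i), mul_one_div_cancel hp.ne', Real.rpow_one]
    _ ≤ _ := Real.rpow_le_rpow (Real.rpow_nonneg (h0 i) p) h2 (by positivity)

theorem inner_W_le {m : ℕ} {γ : ℝ} (hγ : 1 / 2 < γ) {W : ℝ → Matrix (Fin m) (Fin m) ℂ}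
    (hWp : ∀ x, (W x).PosSemidef) (x : ℝ) (y : Vec m) :
    (inner ℂ y (Matrix.toEuclideanLin (W x) y)).re ≤ wzero W γ x * ‖y‖ ^ 2 := by
  have hH := (hWp x).1
  set b := hH.eigenvectorBasis with hb
  have h1 : (inner ℂ y (Matrix.toEuclideanLin (W x) y) : ℂ) =
      ∑ i, ((hH.eigenvalues i * ‖inner ℂ (b i) y‖ ^ 2 : ℝ) : ℂ) := by
    rw [← b.sum_inner_mul_inner y (Matrix.toEuclideanLin (W x) y)]
    refine Finset.sum_congr rfl fun i _ => ?_
    have h2 : (inner ℂ (b i) (Matrix.toEuclideanLin (W x) y) : ℂ) =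
        (hH.eigenvalues i : ℂ) * inner ℂ (b i) y := by
      rw [← T47_inner_toLin hH]
      have h3 : Matrix.toEuclideanLin (W x) (b i) = (hH.eigenvalues i : ℂ) • b i := by
        have := hH.mulVec_eigenvectorBasis i
        apply (WithLp.equiv 2 _).injective
        simpa using this
      rw [h3, inner_smul_left]
      simp
    rw [h2]
    have h4 : (inner ℂ y (b i) : ℂ) = (starRingEnd ℂ) (inner ℂ (b i) y) := (inner_conj_symm _ _).symm
    rw [h4]
    have h5 := Complex.normSq_eq_conj_mul_self (z := inner ℂ (b i) y)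
    rw [Complex.normSq_eq_norm_sq] at h5
    push_cast at h5 ⊢
    rw [h5]
    ring
  rw [h1, ← Complex.ofReal_sum, Complex.ofReal_re, ← b.sum_sq_norm_inner_right y, Finset.mul_sum]
  refine Finset.sum_le_sum fun i _ => ?_
  refine mul_le_mul_of_nonneg_right ?_ (by positivity)
  exact E20_eig_le (hWp x) (by linarith) i

theorem E20_cs {g : ℝ → ℝ} {S : Set ℝ} (hS : volume S ≠ ⊤) (h1 : IntegrableOn g S)
    (h2 : IntegrableOn (fun x => g x ^ 2) S) :
    (∫ x in S, g x) ^ 2 ≤ volume.real S * ∫ x in S, g x ^ 2 := by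
  have key : ∀ t : ℝ, 0 ≤ (∫ x in S, g x ^ 2) - 2 * t * (∫ x in S, g x) + t ^ 2 * volume.real S := by
    intro t
    have hc : IntegrableOn (fun _ : ℝ => t ^ 2) S := integrableOn_const hS
    have e : ∫ x in S, (g x - t) ^ 2 =
        (∫ x in S, g x ^ 2) - 2 * t * (∫ x in S, g x) + t ^ 2 * volume.real S := by
      have : ∀ x, (g x - t) ^ 2 = (g x ^ 2 - 2 * t * g x) + t ^ 2 := fun x => by ring
      simp_rw [this]
      have hA : IntegrableOn (fun x => 2 * t * g x) S := h1.const_mul _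
      have hB : IntegrableOn (fun x => g x ^ 2 - 2 * t * g x) S := h2.sub hA
      rw [integral_add hB hc, integral_sub h2 hA, integral_const_mul, setIntegral_const]
      simp [mul_comm]
    rw [← e]
    exact integral_nonneg fun x => sq_nonneg _
  rcases (measureReal_nonneg (μ := volume) (s := S)).eq_or_lt with h0 | h0
  · have : volume S = 0 := by
      rw [Measure.real, eq_comm, ENNReal.toReal_eq_zero_iff] at h0
      exact h0.resolve_right hS
    rw [setIntegral_measure_zero _ this]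
    simp [this]
  · have := key ((∫ x in S, g x) / volume.real S)
    set I := ∫ x in S, g x
    set J := ∫ x in S, g x ^ 2
    set L := volume.real S
    have e : J - 2 * (I / L) * I + (I / L) ^ 2 * L = J - I ^ 2 / L := by
      field_simp
      ring
    rw [e, sub_nonneg, div_le_iff₀ h0] at this
    linarith

theorem E20_sq_le {m : ℕ} {f : ℝ → Vec m} (hf : ContDiff ℝ 1 f) (hs : HasCompactSupport f)
    {a : ℝ} (ha : f a = 0) (x : ℝ) : ‖f x‖ ^ 2 ≤ |x - a| * ∫ y, ‖deriv f y‖ ^ 2 := by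
  have hd : Continuous (deriv f) := hf.continuous_deriv (by simp)
  have hi : Integrable fun y => ‖deriv f y‖ ^ 2 := by
    refine Continuous.integrable_of_hasCompactSupport (by fun_prop) ?_
    refine HasCompactSupport.mono hs.deriv ?_
    intro y hy
    rw [Function.mem_support] at hy ⊢
    intro h
    apply hy
    rw [h]
    simp
  have h1 : ∫ y in a..x, deriv f y = f x - f a := by
    refine intervalIntegral.integral_deriv_eq_sub (fun y _ => ?_) (hd.intervalIntegrable _ _)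
    exact (hf.differentiable (by simp)).differentiableAt
  rw [ha, sub_zero] at h1
  have h2 : ‖f x‖ ≤ ∫ y in Set.uIoc a x, ‖deriv f y‖ := by
    rw [← h1]
    exact intervalIntegral.norm_integral_le_integral_norm_uIoc
  have hv : volume (Set.uIoc a x) ≠ ⊤ := by
    rw [Real.volume_uIoc]
    exact ENNReal.ofReal_ne_top
  have h3 := E20_cs (g := fun y => ‖deriv f y‖) hv (hd.norm.intervalIntegrable a x).def'
    hi.integrableOn
  have h4 : volume.real (Set.uIoc a x) = |x - a| := by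
    rw [Measure.real, Real.volume_uIoc, ENNReal.toReal_ofReal (abs_nonneg _)]
  rw [h4] at h3
  calc ‖f x‖ ^ 2 ≤ (∫ y in Set.uIoc a x, ‖deriv f y‖) ^ 2 := by gcongr
    _ ≤ _ := h3
    _ ≤ |x - a| * ∫ y, ‖deriv f y‖ ^ 2 := by
        refine mul_le_mul_of_nonneg_left ?_ (abs_nonneg _)
        exact setIntegral_le_integral hi (Eventually.of_forall fun y => by positivity)

/-- the comparison weight -/
noncomputable def E20_b (v : ℝ → ℝ) (n : ℕ) (x : ℝ) : ℝ :=
  v x * (if |x| ≤ (n : ℝ) + 1 then 1 / ((n : ℝ) + 1) else |x|)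

theorem E20_b_le {v : ℝ → ℝ} (hv0 : ∀ x, 0 ≤ v x) (n : ℕ) (x : ℝ) :
    0 ≤ E20_b v n x ∧ E20_b v n x ≤ v x + |x| * v x := by
  have hn : (1 : ℝ) ≤ (n : ℝ) + 1 := by
    have : (0 : ℝ) ≤ n := Nat.cast_nonneg n
    linarith
  have h1 : 1 / ((n : ℝ) + 1) ≤ 1 := by
    rw [div_le_one (by linarith)]
    exact hn
  have h0 : 0 ≤ 1 / ((n : ℝ) + 1) := by positivity
  have hx := abs_nonneg x
  have hvx := hv0 x
  unfold E20_b
  split_ifs with h
  · exact ⟨by positivity, by nlinarith [mul_nonneg hx hvx]⟩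
  · exact ⟨by positivity, by nlinarith [mul_nonneg hx hvx]⟩

theorem E20_b_integrable {v : ℝ → ℝ} (hv0 : ∀ x, 0 ≤ v x) (hv : Integrable v)
    (hv1 : Integrable fun x => |x| * v x) (n : ℕ) : Integrable (E20_b v n) := by
  refine Integrable.mono' (hv.add hv1) ?_ ?_
  · refine AEStronglyMeasurable.mul hv.aestronglyMeasurable ?_
    refine Measurable.aestronglyMeasurable ?_
    exact Measurable.ite (measurableSet_le (by fun_prop) measurable_const) measurable_const
      (by fun_prop)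
  · refine Eventually.of_forall fun x => ?_
    rw [Real.norm_of_nonneg (E20_b_le hv0 n x).1]
    exact (E20_b_le hv0 n x).2

theorem E20_b_exists {v : ℝ → ℝ} (hv0 : ∀ x, 0 ≤ v x) (hv : Integrable v)
    (hv1 : Integrable fun x => |x| * v x) : ∃ n : ℕ, ∫ x, E20_b v n x ≤ 1 := by
  have h : Tendsto (fun n : ℕ => ∫ x, E20_b v n x) atTop (𝓝 (∫ _ : ℝ, (0 : ℝ))) := by
    refine tendsto_integral_of_dominated_convergence (fun x => v x + |x| * v x)
      (fun n => (E20_b_integrable hv0 hv hv1 n).aestronglyMeasurable) (hv.add hv1) ?_ ?_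
    · intro n
      refine Eventually.of_forall fun x => ?_
      rw [Real.norm_of_nonneg (E20_b_le hv0 n x).1]
      exact (E20_b_le hv0 n x).2
    · refine Eventually.of_forall fun x => ?_
      have h1 : Tendsto (fun n : ℕ => v x * (1 / ((n : ℝ) + 1))) atTop (𝓝 (v x * 0)) :=
        tendsto_one_div_add_atTop_nhds_zero_nat.const_mul _
      rw [mul_zero] at h1
      refine h1.congr' ?_
      obtain ⟨n₀, hn₀⟩ := exists_nat_ge |x|
      filter_upwards [eventually_ge_atTop n₀] with n hn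
      have : |x| ≤ (n : ℝ) + 1 := by
        have : (n₀ : ℝ) ≤ n := by exact_mod_cast hn
        linarith
      simp [E20_b, this]
  rw [integral_zero] at h
  obtain ⟨n, hn⟩ := (h.eventually (gt_mem_nhds (show (0 : ℝ) < 1 by norm_num))).exists
  exact ⟨n, hn.le⟩

theorem E20_grid {m : ℕ} {f : ℝ → Vec m} (hf : ContDiff ℝ 1 f) (hs : HasCompactSupport f) (n : ℕ)
    (hz : ∀ i : ℤ, -((n : ℤ) + 1) ^ 2 ≤ i → i ≤ ((n : ℤ) + 1) ^ 2 → f (i / ((n : ℝ) + 1)) = 0) (x : ℝ) :
    ‖f x‖ ^ 2 ≤ (if |x| ≤ (n : ℝ) + 1 then 1 / ((n : ℝ) + 1) else |x|) * ∫ y, ‖deriv f y‖ ^ 2 := by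
  have hD : 0 ≤ ∫ y, ‖deriv f y‖ ^ 2 := integral_nonneg fun y => by positivity
  have hn : (0 : ℝ) < (n : ℝ) + 1 := by positivity
  split_ifs with h
  · rw [abs_le] at h
    set i := ⌊x * ((n : ℝ) + 1)⌋ with hi
    have h1 : (i : ℝ) ≤ x * ((n : ℝ) + 1) := Int.floor_le _
    have h2 : x * ((n : ℝ) + 1) < i + 1 := Int.lt_floor_add_one _
    have h3 : -((n : ℤ) + 1) ^ 2 ≤ i := by
      rw [hi, Int.le_floor]
      push_cast
      nlinarith
    have h4 : i ≤ ((n : ℤ) + 1) ^ 2 := by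
      have : (i : ℝ) ≤ ((n : ℝ) + 1) ^ 2 := by nlinarith
      exact_mod_cast this
    refine (E20_sq_le hf hs (hz i h3 h4) x).trans ?_
    refine mul_le_mul_of_nonneg_right ?_ hD
    have e : x - i / ((n : ℝ) + 1) = (x * ((n : ℝ) + 1) - i) / ((n : ℝ) + 1) := by
      field_simp
    rw [e, abs_div, abs_of_pos hn, abs_of_nonneg (by linarith)]
    gcongr
    linarith
  · have h0 : f 0 = 0 := by
      have := hz 0 (by nlinarith) (by positivity)
      simpa using this
    have := E20_sq_le hf hs h0 x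
    rwa [sub_zero] at this

theorem E20_exists {m : ℕ} (n N : ℕ) (φ : Fin N → ℝ → Vec m)
    (hN : (2 * (n + 1) ^ 2 + 1) * m < N) :
    ∃ Q : Matrix (Fin N) (Fin 1) ℂ, Q ≠ 0 ∧
      ∀ i : ℤ, -((n : ℤ) + 1) ^ 2 ≤ i → i ≤ ((n : ℤ) + 1) ^ 2 →
        recomb φ Q 0 (i / ((n : ℝ) + 1)) = 0 := by
  classical
  set G := {i : ℤ // i ∈ Finset.Icc (-((n : ℤ) + 1) ^ 2) (((n : ℤ) + 1) ^ 2)} with hG
  have hcard : Fintype.card G = 2 * (n + 1) ^ 2 + 1 := by
    rw [Fintype.card_coe, Int.card_Icc]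
    have : ((n : ℤ) + 1) ^ 2 + 1 - -((n : ℤ) + 1) ^ 2 = ((2 * (n + 1) ^ 2 + 1 : ℕ) : ℤ) := by
      push_cast
      ring
    rw [this, Int.toNat_natCast]
  let A : Matrix (G × Fin m) (Fin N) ℂ := Matrix.of fun p k => φ k ((p.1 : ℤ) / ((n : ℝ) + 1)) p.2
  have hfr : Module.finrank ℂ (G × Fin m → ℂ) < Module.finrank ℂ (Fin N → ℂ) := by
    rw [Module.finrank_fintype_fun_eq_card, Module.finrank_fintype_fun_eq_card, Fintype.card_prod,
      hcard, Fintype.card_fin, Fintype.card_fin]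
    exact hN
  have hk : LinearMap.ker (Matrix.mulVecLin A) ≠ ⊥ := LinearMap.ker_ne_bot_of_finrank_lt hfr
  obtain ⟨c, hc, hc0⟩ := Submodule.exists_mem_ne_zero_of_ne_bot hk
  refine ⟨Matrix.of fun k _ => c k, ?_, ?_⟩
  · intro h
    apply hc0
    ext k
    have := congrFun (congrFun h k) 0
    simpa using this
  · intro i hi1 hi2
    have h1 : A *ᵥ c = 0 := by simpa using hc
    ext a
    have h2 := congrFun h1 (⟨i, Finset.mem_Icc.2 ⟨hi1, hi2⟩⟩, a)
    simp only [Matrix.mulVec, dotProduct, A, Matrix.of_apply, Pi.zero_apply] at h2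
    simp only [recomb, Matrix.of_apply]
    have h3 : (∑ k, c k • φ k (i / ((n : ℝ) + 1))) a = ∑ k, c k * φ k (i / ((n : ℝ) + 1)) a := by
      simp
    rw [h3]
    simp only [mul_comm (c _)]
    exact h2

theorem count_bound {m : ℕ} {γ : ℝ} (hγ : 1 / 2 < γ) (hγ' : γ < 3 / 2)
    {W : ℝ → Matrix (Fin m) (Fin m) ℂ} (hW : ∀ i j, Measurable fun x => W x i j)
    (hWp : ∀ x, (W x).PosSemidef) (hWi : Integrable fun x => tracePow (W x) (γ + 1 / 2))
    {v : ℝ → ℝ} (hv0 : ∀ x, 0 ≤ v x) (hv : Integrable v) (hv1 : Integrable fun x => |x| * v x)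
    (hWv : ∀ᵐ x : ℝ, wzero W γ x ≤ v x) :
    ∃ M₀ : ℕ, ∀ (N : ℕ) (φ : Fin N → ℝ → Vec m) (κ : Fin N → ℝ), IsTrialFamily φ → (∀ j, 0 < κ j) →
      energyMatrix W φ = Matrix.diagonal (fun j => ((-(κ j ^ 2) : ℝ) : ℂ)) → N ≤ M₀ := by
  obtain ⟨n, hn⟩ := E20_b_exists hv0 hv hv1
  refine ⟨(2 * (n + 1) ^ 2 + 1) * m, fun N φ κ hφ hκ hE => ?_⟩
  by_contra hN
  rw [not_le] at hN
  obtain ⟨Q, hQ0, hQ⟩ := E20_exists n N φ hN
  have hp1 : (1 : ℝ) ≤ γ + 1 / 2 := by linarith
  have hint : ∀ k l, Integrable fun x => inner ℂ (φ k x) (Matrix.toEuclideanLin (W x) (φ l x)) :=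
    fun k l => integrable_potential hW hWp hp1 hWi (T47_continuous hφ k) (T47_continuous hφ l)
      (hφ.2.1 k)
  set ψ := recomb φ Q 0 with hψ
  have hψ1 : ContDiff ℝ 1 ψ := by
    have : ContDiff ℝ 1 (fun x => ∑ k, Q k 0 • φ k x) :=
      ContDiff.sum fun k _ => ((hφ.1 k).of_le (by simp)).const_smul (Q k 0)
    exact this
  have hψs : HasCompactSupport ψ := by
    have hs : IsCompact (⋃ k, tsupport (φ k)) := isCompact_iUnion fun k => hφ.2.1 k
    refine HasCompactSupport.intro hs ?_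
    intro x hx
    rw [hψ]
    simp only [recomb]
    refine Finset.sum_eq_zero fun k _ => ?_
    have : φ k x = 0 := by
      apply image_eq_zero_of_notMem_tsupport
      intro h
      exact hx (mem_iUnion.2 ⟨k, h⟩)
    rw [this, smul_zero]
  have hD : Integrable fun y => ‖deriv ψ y‖ ^ 2 := by
    have hd : Continuous (deriv ψ) := hψ1.continuous_deriv (by simp)
    refine Continuous.integrable_of_hasCompactSupport (by fun_prop) ?_
    refine HasCompactSupport.mono hψs.deriv ?_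
    intro y hy
    rw [Function.mem_support] at hy ⊢
    intro h
    apply hy
    rw [h]
    simp
  have hP : Integrable fun x => (inner ℂ (ψ x) (Matrix.toEuclideanLin (W x) (ψ x)) : ℂ) :=
    integrable_potential hW hWp hp1 hWi hψ1.continuous hψ1.continuous hψs
  -- the energy
  have e1 : energyMatrix W (recomb φ Q) 0 0 =
      ((-∑ k, κ k ^ 2 * ‖Q k 0‖ ^ 2 : ℝ) : ℂ) := by
    rw [energyMatrix_recomb hφ hint, T47_mul_entry, hE]
    simp only [Matrix.diagonal_apply, mul_ite, mul_zero]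
    simp only [Finset.sum_ite_eq, Finset.mem_univ, if_true]
    push_cast
    rw [← Finset.sum_neg_distrib]
    refine Finset.sum_congr rfl fun k _ => ?_
    have h5 := Complex.normSq_eq_conj_mul_self (z := Q k 0)
    rw [Complex.normSq_eq_norm_sq] at h5
    push_cast at h5
    rw [← h5]
    ring
  have e2 : (energyMatrix W (recomb φ Q) 0 0).re =
      (∫ x, ‖deriv ψ x‖ ^ 2) - ∫ x, (inner ℂ (ψ x) (Matrix.toEuclideanLin (W x) (ψ x)) : ℂ).re := by
    have h1 : ∀ x, (inner ℂ (deriv ψ x) (deriv ψ x) : ℂ) = ((‖deriv ψ x‖ ^ 2 : ℝ) : ℂ) := by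
      intro x
      rw [inner_self_eq_norm_sq_to_K]
      simp
    have h2 : energyMatrix W (recomb φ Q) 0 0 = ∫ x, (((‖deriv ψ x‖ ^ 2 : ℝ) : ℂ) -
        inner ℂ (ψ x) (Matrix.toEuclideanLin (W x) (ψ x))) := by
      simp only [energyMatrix, Matrix.of_apply, ← h1]
      rfl
    have hDc : Integrable fun x => ((‖deriv ψ x‖ ^ 2 : ℝ) : ℂ) := hD.ofReal
    rw [h2, integral_sub hDc hP, Complex.sub_re, integral_complex_ofReal, Complex.ofReal_re]
    congr 1
    exact (integral_re hP).symm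
  have e3 : (energyMatrix W (recomb φ Q) 0 0).re < 0 := by
    rw [e1, Complex.ofReal_re, neg_lt_zero]
    obtain ⟨k, hk⟩ : ∃ k, Q k 0 ≠ 0 := by
      by_contra hc
      push Not at hc
      apply hQ0
      ext k j
      rw [Subsingleton.elim j 0]
      exact hc k
    refine Finset.sum_pos' (fun k _ => by positivity) ⟨k, Finset.mem_univ k, ?_⟩
    have := hκ k
    have h6 : 0 < ‖Q k 0‖ := norm_pos_iff.2 hk
    positivity
  have e4 : ∫ x, (inner ℂ (ψ x) (Matrix.toEuclideanLin (W x) (ψ x)) : ℂ).re ≤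
      ∫ x, E20_b v n x * ∫ y, ‖deriv ψ y‖ ^ 2 := by
    refine integral_mono_ae hP.re ((E20_b_integrable hv0 hv hv1 n).mul_const _) ?_
    filter_upwards [hWv] with x hx
    have h1 := inner_W_le hγ hWp x (ψ x)
    have h2 := E20_grid hψ1 hψs n hQ x
    calc (inner ℂ (ψ x) (Matrix.toEuclideanLin (W x) (ψ x)) : ℂ).re
        ≤ wzero W γ x * ‖ψ x‖ ^ 2 := h1
      _ ≤ v x * ‖ψ x‖ ^ 2 := mul_le_mul_of_nonneg_right hx (by positivity)
      _ ≤ v x * ((if |x| ≤ (n : ℝ) + 1 then 1 / ((n : ℝ) + 1) else |x|) *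
            ∫ y, ‖deriv ψ y‖ ^ 2) := mul_le_mul_of_nonneg_left h2 (hv0 x)
      _ = _ := by rw [E20_b]; ring
  rw [integral_mul_const] at e4
  have e5 : 0 ≤ ∫ y, ‖deriv ψ y‖ ^ 2 := integral_nonneg fun y => by positivity
  rw [e2] at e3
  nlinarith

end Crest.Agent.LT
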