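import Crest.Agent.LTE_Defs
import Crest.Agent.LTE_Good
import Crest.Agent.LTE_E09
/-!
Task LTE-E21: from near-optimality and a bound on the number of negative energies to a `FamSeq`. Families with
`N_i ≤ M₀`, `∑ κ^{2γ} → C∫tr W^p`; pass to a subsequence with `N_i` constant and `κ_i → κ^*`, keep the indices with `κ^*_j > 0`
(`φ ∘ e` for an injection `e`, `energyMatrix` restricts), drop finitely many `i` so that `κ ≥ κ₀ > 0`; then as in LTE-E09
(`exists_weight` with fixed `κ₀, κ₁`, `near_opt_step`, `hj_stability`).  `G i = 𝒢_i (K i)`.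
-/

set_option autoImplicit false

namespace Crest.Agent.LT

open MeasureTheory Matrix Set Filter
open Crest.MathPhysics.LiebThirring
open scoped ComplexOrder Topology

theorem E21_trial_comp {m n N : ℕ} {φ : Fin n → ℝ → Vec m} (hφ : IsTrialFamily φ) {e : Fin N → Fin n}
    (he : Function.Injective e) : IsTrialFamily (fun j => φ (e j)) := by
  refine ⟨fun k => hφ.1 _, fun k => hφ.2.1 _, fun k l => ?_⟩
  rw [hφ.2.2 (e k) (e l)]
  by_cases h : k = l
  · simp [h]
  · simp [h, he.ne h]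

theorem E21_energy_comp {m n N : ℕ} {W : ℝ → Matrix (Fin m) (Fin m) ℂ} {φ : Fin n → ℝ → Vec m}
    {κ : Fin n → ℝ} (hE : energyMatrix W φ = Matrix.diagonal (fun j => ((-(κ j ^ 2) : ℝ) : ℂ)))
    {e : Fin N → Fin n} (he : Function.Injective e) :
    energyMatrix W (fun j => φ (e j)) = Matrix.diagonal (fun j => ((-(κ (e j) ^ 2) : ℝ) : ℂ)) := by
  ext k l
  have h1 := congrFun (congrFun hE (e k)) (e l)
  have h2 : energyMatrix W (fun j => φ (e j)) k l = energyMatrix W φ (e k) (e l) := rfl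
  rw [h2, h1]
  by_cases h : k = l
  · subst h; simp
  · rw [Matrix.diagonal_apply_ne _ h, Matrix.diagonal_apply_ne _ (he.ne h)]

/-- families of constant size with convergent energies -/
theorem E21_seq {m : ℕ} {γ : ℝ} (hγ : 1 / 2 < γ) (hγ' : γ < 3 / 2)
    {W : ℝ → Matrix (Fin m) (Fin m) ℂ} (hW : ∀ i j, Measurable fun x => W x i j)
    (hWp : ∀ x, (W x).PosSemidef) (hWi : Integrable fun x => tracePow (W x) (γ + 1 / 2))
    (H : NearOpt W γ) {M₀ : ℕ}
    (hM₀ : ∀ (N : ℕ) (φ : Fin N → ℝ → Vec m) (κ : Fin N → ℝ), IsTrialFamily φ → (∀ j, 0 < κ j) →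
      energyMatrix W φ = Matrix.diagonal (fun j => ((-(κ j ^ 2) : ℝ) : ℂ)) → N ≤ M₀) :
    ∃ (N : ℕ) (φ : ℕ → Fin N → ℝ → Vec m) (κ : ℕ → Fin N → ℝ) (κs : Fin N → ℝ),
      (∀ i, IsTrialFamily (φ i)) ∧ (∀ i j, 0 < κ i j) ∧ (∀ j, 0 ≤ κs j) ∧
      (∀ i, energyMatrix W (φ i) = Matrix.diagonal (fun j => ((-(κ i j ^ 2) : ℝ) : ℂ))) ∧
      Tendsto κ atTop (𝓝 κs) ∧
      Tendsto (fun i => ∑ j, κ i j ^ (2 * γ)) atTop
        (𝓝 (sharpConst γ * ∫ x, tracePow (W x) (γ + 1 / 2))) := by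
  classical
  set CI : ℝ := sharpConst γ * ∫ x, tracePow (W x) (γ + 1 / 2) with hCI
  have hγ0 : 0 < 2 * γ := by linarith
  set P : ℕ → ℕ → Prop := fun N i => ∃ (φ : Fin N → ℝ → Vec m) (κ : Fin N → ℝ),
    IsTrialFamily φ ∧ (∀ j, 0 < κ j) ∧
      energyMatrix W φ = Matrix.diagonal (fun j => ((-(κ j ^ 2) : ℝ) : ℂ)) ∧
      CI - 1 / ((i : ℝ) + 1) < ∑ j, κ j ^ (2 * γ) with hP
  have hex : ∀ i : ℕ, ∃ N ∈ Finset.range (M₀ + 1), P N i := by
    intro i
    have hi : 0 < 1 / ((i : ℝ) + 1) := by positivity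
    obtain ⟨n, φ, hφ, hne⟩ := H _ hi
    have hint : ∀ k l, Integrable fun x =>
        inner ℂ (φ k x) (Matrix.toEuclideanLin (W x) (φ l x)) := fun k l =>
      integrable_potential hW hWp (by linarith : (1 : ℝ) ≤ γ + 1 / 2) hWi
        (hφ.1 k).continuous (hφ.1 l).continuous (hφ.2.1 k)
    obtain ⟨N, Q, κ, hQ, hκ, hE, hneg⟩ := reduce_diag hWp hφ hint (by linarith : 0 < γ)
    have hφ' := recomb_isTrialFamily hφ hQ
    refine ⟨N, Finset.mem_range.2 (Nat.lt_succ_of_le (hM₀ N _ κ hφ' hκ hE)), recomb φ Q, κ, hφ', hκ,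
      hE, ?_⟩
    rw [← hneg]
    exact hne
  obtain ⟨N, hN⟩ : ∃ N, ∃ᶠ i in atTop, P N i := by
    by_contra hcon
    push Not at hcon
    have h1 : ∀ᶠ i in atTop, ∀ N ∈ Finset.range (M₀ + 1), ¬ P N i := by
      rw [Filter.eventually_all_finset]
      intro N _
      exact hcon N
    obtain ⟨i, hi⟩ := h1.exists
    obtain ⟨N, hN, hPN⟩ := hex i
    exact hi N hN hPN
  obtain ⟨θ, hθ, hθP⟩ := Filter.extraction_of_frequently_atTop hN
  choose φ κ hφ hκ hE hnear using hθP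
  have hupper : ∀ i, ∑ j, κ i j ^ (2 * γ) ≤ CI := fun i =>
    lt_diag hγ hγ' hW hWp hWi (hφ i) (hκ i) (hE i)
  have hbd : ∀ i, κ i ∈ Set.pi univ fun _ : Fin N => Icc (0 : ℝ) (CI ^ (1 / (2 * γ))) := by
    intro i j _
    refine ⟨(hκ i j).le, ?_⟩
    have h2 : κ i j ^ (2 * γ) ≤ ∑ j, κ i j ^ (2 * γ) :=
      Finset.single_le_sum (f := fun j => κ i j ^ (2 * γ))
        (fun j _ => Real.rpow_nonneg (hκ i j).le _) (Finset.mem_univ j)
    have h3 : (κ i j ^ (2 * γ)) ^ (1 / (2 * γ)) ≤ CI ^ (1 / (2 * γ)) :=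
      Real.rpow_le_rpow (Real.rpow_nonneg (hκ i j).le _) (h2.trans (hupper i)) (by positivity)
    rwa [← Real.rpow_mul (hκ i j).le, mul_one_div_cancel hγ0.ne', Real.rpow_one] at h3
  obtain ⟨κs, hκs, ψ, hψ, hlim⟩ := (isCompact_univ_pi fun _ => isCompact_Icc).tendsto_subseq hbd
  refine ⟨N, fun i => φ (ψ i), fun i => κ (ψ i), κs, fun i => hφ _, fun i => hκ _,
    fun j => (hκs j (mem_univ j)).1, fun i => hE _, hlim, ?_⟩
  have h4 : Tendsto (fun i => ∑ j, κ i j ^ (2 * γ)) atTop (𝓝 CI) := by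
    have h3 := tendsto_one_div_add_atTop_nhds_zero_nat (𝕜 := ℝ)
    have h5 : Tendsto (fun i : ℕ => CI - 1 / ((i : ℝ) + 1)) atTop (𝓝 CI) := by
      simpa using h3.const_sub CI
    have h6 : Tendsto (fun i : ℕ => CI - 1 / ((θ i : ℝ) + 1)) atTop (𝓝 CI) :=
      h5.comp hθ.tendsto_atTop
    exact tendsto_of_tendsto_of_tendsto_of_le_of_le h6 tendsto_const_nhds
      (fun i => (hnear i).le) hupper
  exact h4.comp hψ.tendsto_atTop

set_option maxHeartbeats 1600000 in
theorem exists_famSeq {m : ℕ} {γ : ℝ} (hγ : 1 / 2 < γ) (hγ' : γ < 3 / 2)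
    {W : ℝ → Matrix (Fin m) (Fin m) ℂ} (hW : ∀ i j, Measurable fun x => W x i j)
    (hWp : ∀ x, (W x).PosSemidef) (hWi : Integrable fun x => tracePow (W x) (γ + 1 / 2))
    (H : NearOpt W γ) {M₀ : ℕ}
    (hM₀ : ∀ (N : ℕ) (φ : Fin N → ℝ → Vec m) (κ : Fin N → ℝ), IsTrialFamily φ → (∀ j, 0 < κ j) →
      energyMatrix W φ = Matrix.diagonal (fun j => ((-(κ j ^ 2) : ℝ) : ℂ)) → N ≤ M₀)
    (hpos : 0 < ∫ x, tracePow (W x) (γ + 1 / 2)) :
    ∃ N : ℕ, 0 < N ∧ Nonempty (FamSeq m N γ W) := by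
  classical
  obtain ⟨N', φ', κ', κs, hφ', hκ', hκs0, hE', hlim', hsum'⟩ := E21_seq hγ hγ' hW hWp hWi H hM₀
  set CI : ℝ := sharpConst γ * ∫ x, tracePow (W x) (γ + 1 / 2) with hCI
  have hγ0 : 0 < 2 * γ := by linarith
  have hC0 : 0 < sharpConst γ := by
    have hβ : 0 < beta (γ - 1 / 2) := beta_pos (by linarith)
    have h0 : 0 < γ - 1 / 2 := by linarith
    rw [sharpConst_eq hγ]
    positivity
  have hCI0 : 0 < CI := mul_pos hC0 hpos
  have hlimj : ∀ j, Tendsto (fun i => κ' i j) atTop (𝓝 (κs j)) := fun j =>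
    (tendsto_pi_nhds.1 hlim') j
  have hpow : ∀ j, Tendsto (fun i => κ' i j ^ (2 * γ)) atTop (𝓝 (κs j ^ (2 * γ))) := fun j =>
    (hlimj j).rpow_const (Or.inr hγ0.le)
  have hsums : ∑ j, κs j ^ (2 * γ) = CI :=
    tendsto_nhds_unique (tendsto_finsetSum _ fun j _ => hpow j) hsum'
  set J : Finset (Fin N') := Finset.univ.filter fun j => 0 < κs j with hJ
  set N : ℕ := J.card with hNdef
  set e : Fin N → Fin N' := fun j => (J.equivFin.symm j : Fin N') with he
  have hinj : Function.Injective e := fun a b hab => by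
    have : J.equivFin.symm a = J.equivFin.symm b := Subtype.ext hab
    exact J.equivFin.symm.injective this
  have heJ : ∀ j, 0 < κs (e j) := fun j => (Finset.mem_filter.1 (J.equivFin.symm j).2).2
  have hsumJ : ∑ j : Fin N, κs (e j) ^ (2 * γ) = CI := by
    have h1 : ∑ j : Fin N, κs (e j) ^ (2 * γ) = ∑ j ∈ J, κs j ^ (2 * γ) := by
      rw [← Finset.sum_coe_sort J (fun j => κs j ^ (2 * γ))]
      exact Equiv.sum_comp J.equivFin.symm (fun j : J => κs (j : Fin N') ^ (2 * γ))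
    rw [h1, ← hsums]
    refine Finset.sum_subset (Finset.subset_univ _) fun j _ hj => ?_
    have h2 : κs j = 0 := by
      have h3 : ¬ 0 < κs j := fun h => hj (Finset.mem_filter.2 ⟨Finset.mem_univ _, h⟩)
      exact le_antisymm (not_lt.1 h3) (hκs0 j)
    rw [h2, Real.zero_rpow hγ0.ne']
  have hN : 0 < N := by
    rcases Nat.eq_zero_or_pos N with h0 | h0
    · exfalso
      have : ∑ j : Fin N, κs (e j) ^ (2 * γ) = 0 := by
        have : IsEmpty (Fin N) := by rw [h0]; infer_instance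
        exact Finset.sum_of_isEmpty _
      rw [this] at hsumJ
      exact hCI0.ne hsumJ
    · exact h0
  obtain ⟨κm, hκm, hκm'⟩ := E09_lower heJ
  -- eventually `κ ≥ κm/2`
  have hev : ∀ᶠ i in atTop, ∀ j : Fin N, κm / 2 ≤ κ' i (e j) := by
    rw [Filter.eventually_all]
    intro j
    have h1 : κm / 2 < κs (e j) := by linarith [hκm' j]
    exact ((hlimj (e j)).eventually (lt_mem_nhds h1)).mono fun i hi => hi.le
  obtain ⟨i₀, hi₀⟩ := eventually_atTop.1 hev
  set φ : ℕ → Fin N → ℝ → Vec m := fun i j => φ' (i + i₀) (e j) with hφdef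
  set κ : ℕ → Fin N → ℝ := fun i j => κ' (i + i₀) (e j) with hκdef
  have hφ : ∀ i, IsTrialFamily (φ i) := fun i => E21_trial_comp (hφ' _) hinj
  have hE : ∀ i, energyMatrix W (φ i) = Matrix.diagonal (fun j => ((-(κ i j ^ 2) : ℝ) : ℂ)) :=
    fun i => E21_energy_comp (hE' _) hinj
  have hκlow : ∀ i j, κm / 2 ≤ κ i j := fun i j => hi₀ _ (Nat.le_add_left _ _) j
  have hsumκ : Tendsto (fun i => ∑ j, κ i j ^ (2 * γ)) atTop (𝓝 CI) := by
    rw [← hsumJ]
    refine tendsto_finsetSum _ fun j _ => ?_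
    exact (hpow (e j)).comp (tendsto_add_atTop_nat i₀)
  obtain ⟨κ₁, B, hκ₁, hB, hg⟩ := good_step hγ hγ' hW hWp hWi
  obtain ⟨c₀, C₀, hc₀, hC₀, hg2⟩ := hg (κm / 2) (by positivity)
  set er : ℕ → ℝ := fun i => max 0 (CI - ∑ j, κ i j ^ (2 * γ)) with her
  have her0 : Tendsto er atTop (𝓝 0) := by
    have h1 : Tendsto (fun i => CI - ∑ j, κ i j ^ (2 * γ)) atTop (𝓝 0) := by
      simpa using hsumκ.const_sub CI
    simpa using (tendsto_const_nhds (x := (0 : ℝ))).max h1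
  have hdat : ∀ i : ℕ, ∃ (w : ℝ → ℝ) (δ R : ℝ) (K G : Mt N) (F : ℝ → Mt N),
      GoodData γ W (φ i) κ₁ c₀ C₀ B (er i) (1 / ((i : ℝ) + 1)) i w δ R K G F := by
    intro i
    have hi : 0 < 1 / ((i : ℝ) + 1) := by positivity
    refine hg2 N (φ i) (κ i) (er i) (1 / ((i : ℝ) + 1)) i (hφ i) (hκlow i) (hE i) ?_
      (le_max_left _ _) hi ?_
    · have := le_max_right 0 (CI - ∑ j, κ i j ^ (2 * γ))
      simp only [her]
      linarith
    · rw [div_le_one (by positivity)]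
      have : (0 : ℝ) ≤ i := Nat.cast_nonneg i
      linarith
  choose w δ R K G F hD using hdat
  have hη0 := tendsto_one_div_add_atTop_nhds_zero_nat (𝕜 := ℝ)
  have hbound : Tendsto (fun i : ℕ => B * (er i + 1 / ((i : ℝ) + 1))) atTop (𝓝 0) := by
    simpa using (her0.add hη0).const_mul B
  have hr1 : 1 ≤ 1 / (γ - 1 / 2) := by
    rw [le_div_iff₀ (by linarith)]; linarith
  have hVpsd : ∀ i x, (VK (1 / (γ - 1 / 2)) (w i x) (δ i) (Pmat (φ i) (G i) x)).PosSemidef :=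
    fun i x => VK_posSemidef hr1 ((hD i).wnonneg x) (hD i).δpos
      (Matrix.posSemidef_conjTranspose_mul_self _)
  refine ⟨N, hN, ⟨{
    φ := φ
    trial := hφ
    κ := κ
    κ₀ := κm / 2
    κ₀pos := by positivity
    κlower := hκlow
    energy := hE
    G := G
    c₀ := c₀
    C₀ := C₀
    c₀pos := hc₀
    Gherm := fun i => (hD i).Gpsd.1
    Glower := fun i => (hD i).Glower
    Gupper := fun i => (hD i).Gupper
    R := R
    K := K
    F := F
    w := w
    δ := δ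
    δpos := fun i => (hD i).δpos
    hδ := ?_
    hR := ?_
    ric := fun i => (hD i).ric
    κ₁ := κ₁
    Kbound := fun i => (hD i).Kle
    supp := fun i => (hD i).supp
    wcont := fun i => (hD i).wcont
    wnonneg := fun i => (hD i).wnonneg
    hwint := fun i => (hD i).hwint
    hw := ?_
    err := ?_
    defect := ?_
    derr := ?_
    herr := ?_ }⟩⟩
  · exact squeeze_zero (fun i => (hD i).δpos.le) (fun i => (hD i).δle) hη0
  · exact tendsto_atTop_mono (fun i => (hD i).hR) tendsto_natCast_atTop_atTop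
  · exact squeeze_zero (fun i => integral_nonneg fun x => Real.rpow_nonneg (abs_nonneg _) _)
      (fun i => (hD i).hw) hη0
  · refine squeeze_zero (fun i => ?_) (fun i => (hD i).err) hbound
    exact intervalIntegral.integral_nonneg (by linarith [(hD i).ric.hR]) fun x _ =>
      hjErr_nonneg (hVpsd i x)
  · exact squeeze_zero (fun i => (hD i).defect0) (fun i => (hD i).defect) hbound
  · refine squeeze_zero (fun i => ?_) (fun i => (hD i).derr) hbound
    exact intervalIntegral.integral_nonneg (by linarith [(hD i).ric.hR]) fun x _ => T50_hs2_nonneg _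
  · refine squeeze_zero (fun i => ?_) (fun i => (hD i).herr) hbound
    exact intervalIntegral.integral_nonneg (by linarith [(hD i).ric.hR]) fun x _ =>
      hErr_nonneg hγ hWp (φ i) (hD i).Gpsd.1 x

end Crest.Agent.LT
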