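import Crest.Agent.LTE_Defs
import Crest.Agent.LTE_E20
import Crest.Agent.LT_T40
import Crest.Agent.LT_T41
import Crest.Agent.LT_T44
/-!
Task LTE-E22: a priori bounds for a family with diagonal negative energy when `w₀ ≤ B` a.e.: kinetic energy
`∫|φ_j'|² = ∫ φ_j^*Wφ_j - κ_j² ≤ B`, `|φ_j(x)|² ≤ 2 ‖φ_j‖ ‖φ_j'‖`; and the lower bound
`∫ w₀ ‖P‖_{r+1} ≥ ∫ tr (W ΨΨ^*) = tr (G (κ² + T) G) ≥ c₀² κ₀²` (`trace_holder`, `T = ∫Φ'^*Φ' ≥ 0`).
-/

set_option autoImplicit false

namespace Crest.Agent.LT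

open MeasureTheory Matrix Set Filter
open Crest.MathPhysics.LiebThirring
open scoped ComplexOrder Topology

theorem E22_int_inner {m N : ℕ} {φ : Fin N → ℝ → Vec m} (hφ : IsTrialFamily φ) (k l : Fin N) :
    Integrable fun x => inner ℂ (φ k x) (φ l x) := by
  refine Continuous.integrable_of_hasCompactSupport
    ((hφ.1 k).continuous.inner (hφ.1 l).continuous) ?_
  refine HasCompactSupport.mono (hφ.2.1 k) ?_
  intro x hx
  rw [Function.mem_support] at hx ⊢
  intro h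
  apply hx
  rw [h, inner_zero_left]

theorem E22_int_inner_deriv {m N : ℕ} {φ : Fin N → ℝ → Vec m} (hφ : IsTrialFamily φ) (k l : Fin N) :
    Integrable fun x => inner ℂ (deriv (φ k) x) (deriv (φ l) x) := by
  refine Continuous.integrable_of_hasCompactSupport
    (((hφ.1 k).continuous_deriv (by simp)).inner ((hφ.1 l).continuous_deriv (by simp))) ?_
  refine HasCompactSupport.mono (hφ.2.1 k).deriv ?_
  intro x hx
  rw [Function.mem_support] at hx ⊢
  intro h
  apply hx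
  rw [h, inner_zero_left]

theorem E22_int_sq {m N : ℕ} {φ : Fin N → ℝ → Vec m} (hφ : IsTrialFamily φ) (k : Fin N) :
    Integrable fun x => ‖φ k x‖ ^ 2 := by
  have := (E22_int_inner hφ k k).re
  refine this.congr (Eventually.of_forall fun x => ?_)
  simp only
  rw [inner_self_eq_norm_sq (𝕜 := ℂ)]

theorem E22_int_sq_deriv {m N : ℕ} {φ : Fin N → ℝ → Vec m} (hφ : IsTrialFamily φ) (k : Fin N) :
    Integrable fun x => ‖deriv (φ k) x‖ ^ 2 := by
  have := (E22_int_inner_deriv hφ k k).re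
  refine this.congr (Eventually.of_forall fun x => ?_)
  simp only
  rw [inner_self_eq_norm_sq (𝕜 := ℂ)]

theorem E22_norm_one {m N : ℕ} {φ : Fin N → ℝ → Vec m} (hφ : IsTrialFamily φ) (k : Fin N) :
    ∫ x, ‖φ k x‖ ^ 2 = 1 := by
  have h := hφ.2.2 k k
  rw [if_pos rfl] at h
  have h2 : ∫ x, inner ℂ (φ k x) (φ k x) = ((∫ x, ‖φ k x‖ ^ 2 : ℝ) : ℂ) := by
    rw [← integral_complex_ofReal]
    refine integral_congr_ae (Eventually.of_forall fun x => ?_)
    simp only
    rw [inner_self_eq_norm_sq_to_K]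
    push_cast
    rfl
  rw [h2] at h
  exact_mod_cast h

theorem E22_energy {m N : ℕ} {γ : ℝ} (hγ : 1 / 2 < γ)
    {W : ℝ → Matrix (Fin m) (Fin m) ℂ} (hW : ∀ i j, Measurable fun x => W x i j)
    (hWp : ∀ x, (W x).PosSemidef) (hWi : Integrable fun x => tracePow (W x) (γ + 1 / 2))
    {φ : Fin N → ℝ → Vec m} (hφ : IsTrialFamily φ) {κ : Fin N → ℝ}
    (hE : energyMatrix W φ = Matrix.diagonal (fun j => ((-(κ j ^ 2) : ℝ) : ℂ))) (j : Fin N) :
    (∫ x, ‖deriv (φ j) x‖ ^ 2) =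
      (∫ x, (inner ℂ (φ j x) (Matrix.toEuclideanLin (W x) (φ j x))).re) - κ j ^ 2 := by
  have hiW := integrable_potential hW hWp (by linarith : (1:ℝ) ≤ γ + 1 / 2) hWi
    (hφ.1 j).continuous (hφ.1 j).continuous (hφ.2.1 j)
  have h := congrFun (congrFun hE j) j
  rw [Matrix.diagonal_apply_eq] at h
  simp only [energyMatrix, Matrix.of_apply] at h
  rw [integral_sub (E22_int_inner_deriv hφ j j) hiW] at h
  have h2 := congrArg Complex.re h
  rw [Complex.sub_re, Complex.ofReal_re] at h2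
  have h3 : (∫ x, inner ℂ (deriv (φ j) x) (deriv (φ j) x)).re = ∫ x, ‖deriv (φ j) x‖ ^ 2 := by
    have := Complex.reCLM.integral_comp_comm (E22_int_inner_deriv hφ j j)
    simp only [Complex.reCLM_apply] at this
    rw [← this]
    refine integral_congr_ae (Eventually.of_forall fun x => ?_)
    simp only
    exact inner_self_eq_norm_sq (𝕜 := ℂ) _
  have h4 : (∫ x, inner ℂ (φ j x) (Matrix.toEuclideanLin (W x) (φ j x))).re =
      ∫ x, (inner ℂ (φ j x) (Matrix.toEuclideanLin (W x) (φ j x))).re := by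
    have := Complex.reCLM.integral_comp_comm hiW
    simp only [Complex.reCLM_apply] at this
    rw [← this]
  rw [h3, h4] at h2
  linarith

theorem fam_bound {m N : ℕ} {γ : ℝ} (hγ : 1 / 2 < γ) (hγ' : γ < 3 / 2)
    {W : ℝ → Matrix (Fin m) (Fin m) ℂ} (hW : ∀ i j, Measurable fun x => W x i j)
    (hWp : ∀ x, (W x).PosSemidef) (hWi : Integrable fun x => tracePow (W x) (γ + 1 / 2))
    {B : ℝ} (hB0 : 0 ≤ B) (hB : ∀ᵐ x : ℝ, wzero W γ x ≤ B) {φ : Fin N → ℝ → Vec m}
    (hφ : IsTrialFamily φ) {κ : Fin N → ℝ}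
    (hE : energyMatrix W φ = Matrix.diagonal (fun j => ((-(κ j ^ 2) : ℝ) : ℂ))) (j : Fin N) :
    (∫ x, ‖deriv (φ j) x‖ ^ 2) ≤ B ∧ ∀ x, ‖φ j x‖ ^ 2 ≤ 2 * Real.sqrt B := by
  have hiW := integrable_potential hW hWp (by linarith : (1:ℝ) ≤ γ + 1 / 2) hWi
    (hφ.1 j).continuous (hφ.1 j).continuous (hφ.2.1 j)
  have h1 : (∫ x, ‖deriv (φ j) x‖ ^ 2) ≤ B := by
    rw [E22_energy hγ hW hWp hWi hφ hE j]
    have h2 : (∫ x, (inner ℂ (φ j x) (Matrix.toEuclideanLin (W x) (φ j x))).re) ≤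
        ∫ x, B * ‖φ j x‖ ^ 2 := by
      refine integral_mono_ae hiW.re ((E22_int_sq hφ j).const_mul B) ?_
      filter_upwards [hB] with x hx
      exact (inner_W_le hγ hWp x (φ j x)).trans (mul_le_mul_of_nonneg_right hx (sq_nonneg _))
    rw [integral_const_mul, E22_norm_one hφ j, mul_one] at h2
    have := sq_nonneg (κ j)
    linarith
  refine ⟨h1, fun x => ?_⟩
  -- choose a point to the left of `x` outside the support
  have hder : ∀ t, HasDerivAt (fun t => ‖φ j t‖ ^ 2) (2 * inner ℝ (φ j t) (deriv (φ j) t)) t := by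
    intro t
    have hd : HasDerivAt (φ j) (deriv (φ j) t) t :=
      ((hφ.1 j).differentiable (by simp)).differentiableAt.hasDerivAt
    exact hd.norm_sq
  have hcont : Continuous fun t => 2 * inner ℝ (φ j t) (deriv (φ j) t) :=
    continuous_const.mul ((hφ.1 j).continuous.inner ((hφ.1 j).continuous_deriv (by simp)))
  obtain ⟨a, hax, ha⟩ : ∃ a ≤ x, φ j a = 0 := by
    have h2 := (hφ.2.1 j).isBounded
    obtain ⟨r, hr⟩ := h2.subset_closedBall 0
    refine ⟨min x (-|r| - 1), min_le_left _ _, ?_⟩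
    by_contra hne
    have h3 : min x (-|r| - 1) ∈ tsupport (φ j) := subset_tsupport _ hne
    have h4 := hr h3
    rw [Metric.mem_closedBall, dist_zero_right, Real.norm_eq_abs, abs_le] at h4
    have h5 := min_le_right x (-|r| - 1)
    have h6 := le_abs_self r
    linarith [h4.1]
  have hFTC := intervalIntegral.integral_eq_sub_of_hasDerivAt (fun t _ => hder t)
    (hcont.intervalIntegrable a x)
  rw [ha, norm_zero] at hFTC
  have hall : ∀ c : ℝ, 0 < c → ‖φ j x‖ ^ 2 ≤ c + B / c := by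
    intro c hc
    have hb : ∀ t, 2 * inner ℝ (φ j t) (deriv (φ j) t) ≤
        c * ‖φ j t‖ ^ 2 + (1 / c) * ‖deriv (φ j) t‖ ^ 2 := by
      intro t
      have h3 := real_inner_le_norm (φ j t) (deriv (φ j) t)
      have h4 : 0 ≤ (c * ‖φ j t‖ - ‖deriv (φ j) t‖) ^ 2 / c := by positivity
      have h5 : (c * ‖φ j t‖ - ‖deriv (φ j) t‖) ^ 2 / c =
          c * ‖φ j t‖ ^ 2 + (1 / c) * ‖deriv (φ j) t‖ ^ 2 - 2 * (‖φ j t‖ * ‖deriv (φ j) t‖) := by
        field_simp
        ring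
      linarith
    have hi : Integrable fun t => c * ‖φ j t‖ ^ 2 + (1 / c) * ‖deriv (φ j) t‖ ^ 2 :=
      ((E22_int_sq hφ j).const_mul c).add ((E22_int_sq_deriv hφ j).const_mul (1 / c))
    have h6 : ∫ t in a..x, 2 * inner ℝ (φ j t) (deriv (φ j) t) ≤
        ∫ t in a..x, (c * ‖φ j t‖ ^ 2 + (1 / c) * ‖deriv (φ j) t‖ ^ 2) :=
      intervalIntegral.integral_mono_on hax (hcont.intervalIntegrable a x) hi.intervalIntegrable
        (fun t _ => hb t)
    have h7 : ∫ t in a..x, (c * ‖φ j t‖ ^ 2 + (1 / c) * ‖deriv (φ j) t‖ ^ 2) ≤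
        ∫ t, (c * ‖φ j t‖ ^ 2 + (1 / c) * ‖deriv (φ j) t‖ ^ 2) := by
      rw [intervalIntegral.integral_of_le hax]
      exact setIntegral_le_integral hi (Eventually.of_forall fun t => by positivity)
    rw [integral_add ((E22_int_sq hφ j).const_mul c) ((E22_int_sq_deriv hφ j).const_mul (1 / c)),
      integral_const_mul, integral_const_mul, E22_norm_one hφ j, mul_one] at h7
    have h8 : 1 / c * ∫ t, ‖deriv (φ j) t‖ ^ 2 ≤ 1 / c * B :=
      mul_le_mul_of_nonneg_left h1 (by positivity)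
    have h9 : 1 / c * B = B / c := by ring
    have h10 : ‖φ j x‖ ^ 2 - 0 ^ 2 = ‖φ j x‖ ^ 2 := by ring
    rw [h10] at hFTC
    linarith
  refine le_of_forall_pos_le_add fun ε hε => ?_
  have hs := Real.sqrt_nonneg B
  have h2 := hall (Real.sqrt B + ε) (by linarith)
  have h3 : B / (Real.sqrt B + ε) ≤ Real.sqrt B := by
    rw [div_le_iff₀ (by linarith)]
    have := Real.mul_self_sqrt hB0
    nlinarith
  linarith

theorem E22_sch_cont {m N : ℕ} {s : ℝ} (hs : 0 < s) {φ : Fin N → ℝ → Vec m} (hφ : IsTrialFamily φ)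
    (G : Mt N) : Continuous fun x => sch s (Pmat φ G x) := by
  have hP : Continuous fun x => Pmat φ G x := by
    have h1 := T44_continuous_Phi hφ
    unfold Pmat
    have h2 : Continuous fun x => Phi φ x * G := h1.matrix_mul continuous_const
    exact h2.matrix_conjTranspose.matrix_mul h2
  have h1 : Continuous fun x => cfc (fun t : ℝ => t ^ s) (Pmat φ G x) := by
    rw [← continuousOn_univ]
    refine continuousOn_cfc_param (f := fun _ t => t ^ s) (t := univ) hP.continuousOn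
      (fun x _ => (T44_posSemidef_Pmat φ G x).1) isOpen_univ ?_ (fun x _ => subset_univ _)
    exact ((Real.continuous_rpow_const hs.le).comp continuous_snd).continuousOn
  unfold sch
  exact (Real.continuous_rpow_const (by positivity)).comp (T44_continuous_tr.comp h1)

theorem E22_wzero_int {m : ℕ} {γ : ℝ} (hγ : 1 / 2 < γ)
    {W : ℝ → Matrix (Fin m) (Fin m) ℂ}
    (hWp : ∀ x, (W x).PosSemidef) (hWi : Integrable fun x => tracePow (W x) (γ + 1 / 2)) (a b : ℝ) :
    IntervalIntegrable (wzero W γ) volume a b := by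
  have h1 : IntervalIntegrable (fun x => 1 + tracePow (W x) (γ + 1 / 2)) volume a b :=
    (continuous_const.intervalIntegrable a b).add hWi.intervalIntegrable
  refine h1.mono_fun ?_ ?_
  · have h2 : AEStronglyMeasurable (wzero W γ) volume := by
      unfold wzero
      exact (Real.continuous_rpow_const (by positivity)).comp_aestronglyMeasurable hWi.1
    exact h2.restrict
  · refine Eventually.of_forall fun x => ?_
    have h3 := T40_tracePow_nonneg (hWp x) (γ + 1 / 2)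
    have h4 : 0 ≤ wzero W γ x := Real.rpow_nonneg h3 _
    show ‖wzero W γ x‖ ≤ ‖1 + tracePow (W x) (γ + 1 / 2)‖
    rw [Real.norm_of_nonneg h4, Real.norm_of_nonneg (by linarith)]
    unfold wzero
    have hp : 1 / (γ + 1 / 2) ≤ 1 := by
      rw [div_le_one (by linarith)]
      linarith
    rcases le_total (tracePow (W x) (γ + 1 / 2)) 1 with h | h
    · have := Real.rpow_le_one h3 h (by positivity : 0 ≤ 1 / (γ + 1 / 2))
      linarith
    · have := Real.rpow_le_rpow_of_exponent_le h hp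
      rw [Real.rpow_one] at this
      linarith

theorem E22_trW_le {m N : ℕ} {γ : ℝ} (hγ : 1 / 2 < γ)
    {W : Matrix (Fin m) (Fin m) ℂ} (hWp : W.PosSemidef) (Ψ : Matrix (Fin m) (Fin N) ℂ) :
    tr (W * (Ψ * Ψᴴ)) ≤ (tracePow W (γ + 1 / 2)) ^ (1 / (γ + 1 / 2)) *
      sch (1 / (γ - 1 / 2) + 1) (Ψᴴ * Ψ) := by
  have hα : 0 < γ - 1 / 2 := by linarith
  have hpq : (γ + 1 / 2).HolderConjugate (1 / (γ - 1 / 2) + 1) := by
    rw [Real.holderConjugate_iff]
    refine ⟨by linarith, ?_⟩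
    have h1 : γ + 1 / 2 ≠ 0 := by linarith
    have h0 : γ - 1 / 2 ≠ 0 := hα.ne'
    have h2 : 1 / (γ - 1 / 2) + 1 = (γ + 1 / 2) / (γ - 1 / 2) := by
      rw [div_add_one h0]
      congr 1
      ring
    rw [h2, inv_div, ← one_div, ← add_div]
    rw [div_eq_one_iff_eq h1]
    ring
  have h := trace_holder hWp (Matrix.posSemidef_self_mul_conjTranspose Ψ) hpq
  have h2 : tracePow (Ψ * Ψᴴ) (1 / (γ - 1 / 2) + 1) =
      tr (cfc (fun t : ℝ => t ^ (1 / (γ - 1 / 2) + 1)) (Ψᴴ * Ψ)) :=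
    tr_rpow_mul_comm Ψ (by positivity)
  rw [h2] at h
  exact h

theorem E22_tr_GGD {N : ℕ} (hN : 0 < N) {G : Mt N} (hG : G.IsHermitian) {c₀ κ₀ : ℝ} (hc : 0 < c₀)
    (hGl : (G - ((c₀ : ℝ) : ℂ) • (1 : Mt N)).PosSemidef) {d : Fin N → ℝ} (hκ : 0 < κ₀)
    (hd : ∀ j, κ₀ ^ 2 ≤ d j) :
    c₀ ^ 2 * κ₀ ^ 2 ≤ tr (G * G * Matrix.diagonal fun j => ((d j : ℝ) : ℂ)) := by
  have h1 : tr (G * G * Matrix.diagonal fun j => ((d j : ℝ) : ℂ)) =
      ∑ j, ∑ i, ‖G i j‖ ^ 2 * d j := by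
    simp only [tr, Matrix.trace, Matrix.diag_apply, Complex.re_sum]
    refine Finset.sum_congr rfl fun j _ => ?_
    rw [Matrix.mul_diagonal, Matrix.mul_apply, Finset.sum_mul, Complex.re_sum]
    refine Finset.sum_congr rfl fun i _ => ?_
    have h2 : G j i = star (G i j) := (hG.apply i j).symm ▸ by simp
    rw [h2]
    have h3 : star (G i j) * G i j = ((‖G i j‖ ^ 2 : ℝ) : ℂ) := by
      have := Complex.conj_mul' (G i j)
      rw [← starRingEnd_apply, this]
      push_cast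
      rfl
    rw [h3, ← Complex.ofReal_mul, Complex.ofReal_re]
  rw [h1]
  have hdn : ∀ j, 0 ≤ d j := fun j => (sq_nonneg _).trans (hd j)
  set z : Fin N := ⟨0, hN⟩
  have h4 : ‖G z z‖ ^ 2 * d z ≤ ∑ j, ∑ i, ‖G i j‖ ^ 2 * d j := by
    have e1 : ∑ i, ‖G i z‖ ^ 2 * d z ≤ ∑ j, ∑ i, ‖G i j‖ ^ 2 * d j :=
      Finset.single_le_sum (f := fun j => ∑ i, ‖G i j‖ ^ 2 * d j)
        (fun j _ => Finset.sum_nonneg fun i _ => mul_nonneg (sq_nonneg _) (hdn j))
        (Finset.mem_univ z)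
    have e2 : ‖G z z‖ ^ 2 * d z ≤ ∑ i, ‖G i z‖ ^ 2 * d z :=
      Finset.single_le_sum (f := fun i => ‖G i z‖ ^ 2 * d z)
        (fun i _ => mul_nonneg (sq_nonneg _) (hdn z)) (Finset.mem_univ z)
    exact e2.trans e1
  have h5 : c₀ ≤ ‖G z z‖ := by
    have e1 := hGl.diag_nonneg (i := z)
    have e2 : 0 ≤ (G z z).re - c₀ := by
      have := (Complex.le_def.1 e1).1
      simpa using this
    have e3 := Complex.re_le_norm (G z z)
    linarith
  have h6 : c₀ ^ 2 ≤ ‖G z z‖ ^ 2 := by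
    have := hc.le
    gcongr
  calc c₀ ^ 2 * κ₀ ^ 2 ≤ ‖G z z‖ ^ 2 * d z :=
        mul_le_mul h6 (hd z) (sq_nonneg _) (sq_nonneg _)
    _ ≤ _ := h4

theorem fam_lower {m N : ℕ} {γ : ℝ} (hγ : 1 / 2 < γ) (hγ' : γ < 3 / 2)
    {W : ℝ → Matrix (Fin m) (Fin m) ℂ} (hW : ∀ i j, Measurable fun x => W x i j)
    (hWp : ∀ x, (W x).PosSemidef) (hWi : Integrable fun x => tracePow (W x) (γ + 1 / 2))
    (hN : 0 < N) (S : FamSeq m N γ W) (i : ℕ) :
    S.c₀ ^ 2 * S.κ₀ ^ 2 ≤ ∫ x in (-(S.R i))..(S.R i),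
      wzero W γ x * sch (1 / (γ - 1 / 2) + 1) (Pmat (S.φ i) (S.G i) x) := by
  have hR := (S.ric i).hR
  have hle : -(S.R i) ≤ S.R i := by linarith
  set φ := S.φ i with hφd
  set G := S.G i with hGd
  set R := S.R i with hRd
  have hφ : IsTrialFamily φ := S.trial i
  have hG : G.IsHermitian := S.Gherm i
  have hGe : Gᴴ = G := hG
  have hp : (1:ℝ) ≤ γ + 1 / 2 := by linarith
  have hiW : ∀ k l, Integrable fun x => inner ℂ (φ k x) (Matrix.toEuclideanLin (W x) (φ l x)) :=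
    fun k l => integrable_potential hW hWp hp hWi (hφ.1 k).continuous (hφ.1 l).continuous (hφ.2.1 k)
  have hid := E22_int_inner_deriv hφ
  obtain ⟨hA1, hA2⟩ := T40_tr_integral (G * G) (E := fun x => (dPhi φ x)ᴴ * dPhi φ x)
    (by simpa only [T40_dgram] using hid)
  obtain ⟨hC1, hC2⟩ := T40_tr_integral (G * G) (E := fun x => (Phi φ x)ᴴ * (W x * Phi φ x))
    (by simpa only [T40_wgram] using hiW)
  have hE3 : energyMatrix W φ = (Matrix.of fun k l => ∫ x, ((dPhi φ x)ᴴ * dPhi φ x) k l) -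
      (Matrix.of fun k l => ∫ x, ((Phi φ x)ᴴ * (W x * Phi φ x)) k l) := by
    ext k l
    simp only [energyMatrix, Matrix.of_apply, Matrix.sub_apply, T40_dgram, T40_wgram]
    rw [integral_sub (hid k l) (hiW k l)]
  have hw : ∀ x, tr (W x * (Phi φ x * G * (Phi φ x * G)ᴴ)) =
      tr ((G * G) * ((Phi φ x)ᴴ * (W x * Phi φ x))) := by
    intro x
    rw [Matrix.conjTranspose_mul, hGe]
    calc tr (W x * (Phi φ x * G * (G * (Phi φ x)ᴴ)))
        = tr ((W x * Phi φ x) * (G * G * (Phi φ x)ᴴ)) := by simp only [Matrix.mul_assoc]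
      _ = tr ((G * G * (Phi φ x)ᴴ) * (W x * Phi φ x)) := T40_tr_comm _ _
      _ = tr ((G * G) * ((Phi φ x)ᴴ * (W x * Phi φ x))) := by simp only [Matrix.mul_assoc]
  have IC : ∫ x in (-R)..R, tr (W x * (Phi φ x * G * (Phi φ x * G)ᴴ)) =
      tr (G * G * Matrix.of fun k l => ∫ x, ((Phi φ x)ᴴ * (W x * Phi φ x)) k l) := by
    rw [← hC2]
    simp only [hw]
    apply T40_integral_eq hR
    intro x hx
    have : Phi φ x = 0 := by
      ext a k
      simp [Phi, S.supp i k x fun h => hx (Ioo_subset_Icc_self h), hφd]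
    simp [this, tr]
  -- the kinetic part is nonnegative
  have hT : 0 ≤ tr (G * G * Matrix.of fun k l => ∫ x, ((dPhi φ x)ᴴ * dPhi φ x) k l) := by
    rw [← hA2]
    refine integral_nonneg fun x => ?_
    simp only
    have e1 : tr (G * G * ((dPhi φ x)ᴴ * dPhi φ x)) = tr ((dPhi φ x * G)ᴴ * (dPhi φ x * G)) := by
      rw [Matrix.conjTranspose_mul, hGe]
      calc tr (G * G * ((dPhi φ x)ᴴ * dPhi φ x))
          = tr (G * (G * (dPhi φ x)ᴴ * dPhi φ x)) := by simp only [Matrix.mul_assoc]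
        _ = tr (G * (dPhi φ x)ᴴ * dPhi φ x * G) := T40_tr_comm _ _
        _ = _ := by simp only [Matrix.mul_assoc]
    rw [e1, ← T40_hs2]
    unfold hs2
    exact Finset.sum_nonneg fun i _ => Finset.sum_nonneg fun j _ => sq_nonneg _
  have hWg : (Matrix.of fun k l => ∫ x, ((Phi φ x)ᴴ * (W x * Phi φ x)) k l) =
      (Matrix.of fun k l => ∫ x, ((dPhi φ x)ᴴ * dPhi φ x) k l) +
        Matrix.diagonal (fun j => ((S.κ i j ^ 2 : ℝ) : ℂ)) := by
    have e1 := S.energy i
    rw [← hφd, hE3] at e1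
    have e2 : Matrix.diagonal (fun j => ((-(S.κ i j ^ 2) : ℝ) : ℂ)) =
        - Matrix.diagonal (fun j => ((S.κ i j ^ 2 : ℝ) : ℂ)) := by
      ext a b
      rw [Matrix.neg_apply, Matrix.diagonal_apply, Matrix.diagonal_apply]
      split_ifs <;> simp
    rw [e2] at e1
    rw [sub_eq_iff_eq_add] at e1
    rw [e1]
    abel
  have hlow : S.c₀ ^ 2 * S.κ₀ ^ 2 ≤
      ∫ x in (-R)..R, tr (W x * (Phi φ x * G * (Phi φ x * G)ᴴ)) := by
    rw [IC, hWg, Matrix.mul_add, T40_tr_add]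
    have := E22_tr_GGD hN hG S.c₀pos (S.Glower i) (d := fun j => S.κ i j ^ 2) S.κ₀pos
      (fun j => by
        have h1 := S.κlower i j
        have h2 := S.κ₀pos.le
        gcongr)
    linarith
  refine hlow.trans ?_
  refine intervalIntegral.integral_mono_on hle ?_ ?_ fun x _ => ?_
  · simp only [hw]
    exact hC1.intervalIntegrable
  · exact (E22_wzero_int hγ hWp hWi _ _).mul_continuousOn
      (E22_sch_cont (by have : 0 < γ - 1 / 2 := by linarith
                        positivity) hφ G).continuousOn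
  · exact E22_trW_le hγ (hWp x) _

end Crest.Agent.LT
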