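import Crest.Agent.LTE_Defs
import Crest.Agent.LTE_E17
import Crest.Agent.LTE_E22
import Crest.Agent.LTE_E01
import Crest.Agent.LT_T36
import Crest.Agent.LT_T43
import Crest.Agent.LT_T44
/-!
Task LTE-E23: compactness for a `FamSeq` (fixed size `N`): subsequence and base point `x₀` with all convergences.
(`K`, `G` bounded; `F i x₀` bounded by `Adm`; `Phi (φ i) x₀` bounded by `fam_bound`; a.e. convergences as in `pathSeq_ae`;
choose `x₀` in the full measure set; `comm` from `hs2 [K²,F](x₀) → 0` and `comm_of_sq_comm`.)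
-/

set_option autoImplicit false

namespace Crest.Agent.LT

open MeasureTheory Matrix Set Filter
open Crest.MathPhysics.LiebThirring
open scoped ComplexOrder Topology

/-- subsequence of a family sequence -/
def FamSeq.sub {m N : ℕ} {γ : ℝ} {W : ℝ → Matrix (Fin m) (Fin m) ℂ} (S : FamSeq m N γ W) (θ : ℕ → ℕ)
    (hθ : StrictMono θ) : FamSeq m N γ W where
  φ := fun i => S.φ (θ i)
  trial := fun i => S.trial (θ i)
  κ := fun i => S.κ (θ i)
  κ₀ := S.κ₀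
  κ₀pos := S.κ₀pos
  κlower := fun i => S.κlower (θ i)
  energy := fun i => S.energy (θ i)
  G := fun i => S.G (θ i)
  c₀ := S.c₀
  C₀ := S.C₀
  c₀pos := S.c₀pos
  Gherm := fun i => S.Gherm (θ i)
  Glower := fun i => S.Glower (θ i)
  Gupper := fun i => S.Gupper (θ i)
  R := fun i => S.R (θ i)
  K := fun i => S.K (θ i)
  F := fun i => S.F (θ i)
  w := fun i => S.w (θ i)
  δ := fun i => S.δ (θ i)
  δpos := fun i => S.δpos (θ i)
  hδ := S.hδ.comp hθ.tendsto_atTop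
  hR := S.hR.comp hθ.tendsto_atTop
  ric := fun i => S.ric (θ i)
  κ₁ := S.κ₁
  Kbound := fun i => S.Kbound (θ i)
  supp := fun i => S.supp (θ i)
  wcont := fun i => S.wcont (θ i)
  wnonneg := fun i => S.wnonneg (θ i)
  hwint := fun i => S.hwint (θ i)
  hw := S.hw.comp hθ.tendsto_atTop
  err := S.err.comp hθ.tendsto_atTop
  defect := S.defect.comp hθ.tendsto_atTop
  derr := S.derr.comp hθ.tendsto_atTop
  herr := S.herr.comp hθ.tendsto_atTop

/-- the `N × N` potential of a family sequence -/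
noncomputable def FamSeq.V {m N : ℕ} {γ : ℝ} {W : ℝ → Matrix (Fin m) (Fin m) ℂ} (S : FamSeq m N γ W)
    (i : ℕ) (x : ℝ) : Mt N := VK (1 / (γ - 1 / 2)) (S.w i x) (S.δ i) (Pmat (S.φ i) (S.G i) x)

structure FamConv {m N : ℕ} {γ : ℝ} {W : ℝ → Matrix (Fin m) (Fin m) ℂ} (S : FamSeq m N γ W)
    (x₀ : ℝ) (Ks F₀ Gs : Mt N) (Φ₀ : Matrix (Fin m) (Fin N) ℂ) : Prop where
  K : Tendsto S.K atTop (𝓝 Ks)
  F : Tendsto (fun i => S.F i x₀) atTop (𝓝 F₀)
  G : Tendsto S.G atTop (𝓝 Gs)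
  Φ : Tendsto (fun i => Phi (S.φ i) x₀) atTop (𝓝 Φ₀)
  adm : Adm Ks F₀
  comm : Ks * F₀ = F₀ * Ks
  aew : ∀ᵐ x : ℝ, Tendsto (fun i => S.w i x) atTop (𝓝 (wzero W γ x))
  aeerr : ∀ᵐ x : ℝ, Tendsto (fun i => hjErr (γ - 1 / 2) (S.K i) (S.F i x) (S.V i x)) atTop (𝓝 0)
  aedef : ∀ᵐ x : ℝ, Tendsto (fun i => (S.w i x) ^ (γ + 1 / 2) -
    tr (cfc (fun t : ℝ => t ^ (γ + 1 / 2)) (S.V i x))) atTop (𝓝 0)

section E23

variable {m N : ℕ} {γ : ℝ} {W : ℝ → Matrix (Fin m) (Fin m) ℂ}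

theorem E23_r (hγ : 1 / 2 < γ) (hγ' : γ < 3 / 2) : 1 ≤ 1 / (γ - 1 / 2) := by
  rw [le_div_iff₀ (by linarith)]
  linarith

theorem E23_V_psd (hγ : 1 / 2 < γ) (hγ' : γ < 3 / 2) (S : FamSeq m N γ W) (i : ℕ) (x : ℝ) :
    (S.V i x).PosSemidef :=
  VK_posSemidef (E23_r hγ hγ') (S.wnonneg i x) (S.δpos i) (T44_posSemidef_Pmat _ _ _)

theorem E23_V_cont (hγ : 1 / 2 < γ) (hγ' : γ < 3 / 2) (S : FamSeq m N γ W) (i : ℕ) :
    Continuous (S.V i) := by
  have h := continuousOn_VK (N := N) (E23_r hγ hγ') (S.δpos i) (S.wcont i) (S.trial i)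
    (𝒢 := fun _ => S.G i) continuousOn_const
  have h2 : Continuous fun x : ℝ => ((0 : Mt N), x) := by fun_prop
  have h3 := h.comp (f := fun x : ℝ => ((0 : Mt N), x)) (s := univ) h2.continuousOn
    (fun x _ => ⟨Matrix.PosSemidef.zero, trivial⟩)
  exact continuousOn_univ.1 h3

theorem E23_trV (hγ : 1 / 2 < γ) (hγ' : γ < 3 / 2) (S : FamSeq m N γ W) (i : ℕ) (x : ℝ) :
    tr (cfc (fun t : ℝ => t ^ (γ + 1 / 2)) (S.V i x)) ≤ (S.w i x) ^ (γ + 1 / 2) := by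
  have h := VK_tr_rpow_le (E23_r hγ hγ') (S.wnonneg i x) (S.δpos i)
    (T44_posSemidef_Pmat (S.φ i) (S.G i) x)
  have e : (1 / (γ - 1 / 2) + 1) / (1 / (γ - 1 / 2)) = γ + 1 / 2 := by
    obtain ⟨a, ha⟩ : ∃ a, a = γ - 1 / 2 := ⟨_, rfl⟩
    have ha0 : a ≠ 0 := by rw [ha]; linarith
    have hg : γ + 1 / 2 = 1 + a := by rw [ha]; ring
    rw [← ha, hg, div_div_eq_mul_div, div_one, add_mul, one_mul, one_div_mul_cancel ha0]
  rw [e] at h
  exact h

theorem E23_ae (hγ : 1 / 2 < γ) (hγ' : γ < 3 / 2) (S : FamSeq m N γ W) :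
    ∃ (θ : ℕ → ℕ) (_ : StrictMono θ), ∀ᵐ x : ℝ,
      Tendsto (fun i => S.w (θ i) x) atTop (𝓝 (wzero W γ x)) ∧
      Tendsto (fun i => hjErr (γ - 1 / 2) (S.K (θ i)) (S.F (θ i) x) (S.V (θ i) x))
        atTop (𝓝 0) ∧
      Tendsto (fun i => (S.w (θ i) x) ^ (γ + 1 / 2) -
        tr (cfc (fun t : ℝ => t ^ (γ + 1 / 2)) (S.V (θ i) x))) atTop (𝓝 0) := by
  have hRpos : ∀ i, 0 < S.R i := fun i => (S.ric i).hR
  have hp : (0 : ℝ) < γ + 1 / 2 := by linarith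
  set g1 : ℕ → ℝ → ℝ := fun i x => |S.w i x - wzero W γ x| ^ (γ + 1 / 2) with hg1
  set e2 : ℕ → ℝ → ℝ := fun i x => hjErr (γ - 1 / 2) (S.K i) (S.F i x) (S.V i x) with he2
  set e3 : ℕ → ℝ → ℝ := fun i x => (S.w i x) ^ (γ + 1 / 2) -
    tr (cfc (fun t : ℝ => t ^ (γ + 1 / 2)) (S.V i x)) with he3
  set g2 : ℕ → ℝ → ℝ := fun i => (Ioc (-(S.R i)) (S.R i)).indicator (e2 i) with hg2
  set g3 : ℕ → ℝ → ℝ := fun i => (Ioc (-(S.R i)) (S.R i)).indicator (e3 i) with hg3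
  have he2nn : ∀ i x, 0 ≤ e2 i x := fun i x => hjErr_nonneg (E23_V_psd hγ hγ' S i x)
  have he3nn : ∀ i x, 0 ≤ e3 i x := fun i x => sub_nonneg.mpr (E23_trV hγ hγ' S i x)
  have hg1nn : ∀ i x, 0 ≤ g1 i x := fun i x => Real.rpow_nonneg (abs_nonneg _) _
  have hg2nn : ∀ i x, 0 ≤ g2 i x := fun i x => indicator_nonneg (fun y _ => he2nn i y) x
  have hg3nn : ∀ i x, 0 ≤ g3 i x := fun i x => indicator_nonneg (fun y _ => he3nn i y) x
  have hg1i : ∀ i, Integrable (g1 i) := S.hwint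
  have hle : ∀ i, -(S.R i) ≤ S.R i := fun i => by linarith [hRpos i]
  have hg2i : ∀ i, Integrable (g2 i) := by
    intro i
    rw [hg2]
    rw [integrable_indicator_iff measurableSet_Ioc]
    exact ((E17_hjErr_contOn (α := γ - 1 / 2) (S.ric i)
      (E23_V_cont hγ hγ' S i)).integrableOn_compact isCompact_Icc).mono_set Ioc_subset_Icc_self
  have hg3i : ∀ i, Integrable (g3 i) := by
    intro i
    rw [hg3]
    rw [integrable_indicator_iff measurableSet_Ioc]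
    have hc : Continuous (e3 i) := by
      refine Continuous.sub ?_ ?_
      · exact (Real.continuous_rpow_const hp.le).comp (S.wcont i)
      · have h1 := E17_tr_rpow_cont (α := γ - 1 / 2) (by linarith) (E23_V_cont hγ hγ' S i)
          (E23_V_psd hγ hγ' S i)
        have e : (1 : ℝ) + (γ - 1 / 2) = γ + 1 / 2 := by ring
        rw [e] at h1
        exact h1
    exact (hc.continuousOn.integrableOn_compact isCompact_Icc).mono_set Ioc_subset_Icc_self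
  have hlim1 : Tendsto (fun i => ∫ x, g1 i x) atTop (𝓝 0) := S.hw
  have hlim2 : Tendsto (fun i => ∫ x, g2 i x) atTop (𝓝 0) := by
    refine S.err.congr fun i => ?_
    rw [intervalIntegral.integral_of_le (hle i), hg2, integral_indicator measurableSet_Ioc]
    rfl
  have hlim3 : Tendsto (fun i => ∫ x, g3 i x) atTop (𝓝 0) := by
    refine S.defect.congr fun i => ?_
    rw [intervalIntegral.integral_of_le (hle i), hg3, integral_indicator measurableSet_Ioc]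
    rfl
  obtain ⟨θ, hθ, hae⟩ := E17_subseq (fun i x => g1 i x + (g2 i x + g3 i x))
    (fun i => (hg1i i).add ((hg2i i).add (hg3i i)))
    (fun i x => add_nonneg (hg1nn i x) (add_nonneg (hg2nn i x) (hg3nn i x))) (by
      have hsum : (fun i => ∫ x, (g1 i x + (g2 i x + g3 i x))) =
          fun i => (∫ x, g1 i x) + ((∫ x, g2 i x) + ∫ x, g3 i x) := by
        funext i
        have ha := integral_add (hg1i i) ((hg2i i).add (hg3i i))
        have hb := integral_add (hg2i i) (hg3i i)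
        simp only [Pi.add_apply] at ha
        rw [ha, hb]
      rw [hsum]
      simpa using hlim1.add (hlim2.add hlim3))
  refine ⟨θ, hθ, ?_⟩
  filter_upwards [hae] with x hx
  have h1 : Tendsto (fun i => g1 (θ i) x) atTop (𝓝 0) :=
    squeeze_zero (fun i => hg1nn _ _)
      (fun i => by linarith [hg2nn (θ i) x, hg3nn (θ i) x] : ∀ i, g1 (θ i) x ≤ _) hx
  have h2 : Tendsto (fun i => g2 (θ i) x) atTop (𝓝 0) :=
    squeeze_zero (fun i => hg2nn _ _)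
      (fun i => by linarith [hg1nn (θ i) x, hg3nn (θ i) x] : ∀ i, g2 (θ i) x ≤ _) hx
  have h3 : Tendsto (fun i => g3 (θ i) x) atTop (𝓝 0) :=
    squeeze_zero (fun i => hg3nn _ _)
      (fun i => by linarith [hg1nn (θ i) x, hg2nn (θ i) x] : ∀ i, g3 (θ i) x ≤ _) hx
  have hmem : ∀ᶠ i in atTop, x ∈ Ioc (-(S.R (θ i))) (S.R (θ i)) := by
    have hR := S.hR.comp hθ.tendsto_atTop
    filter_upwards [hR.eventually_gt_atTop |x|] with i hi
    have := abs_lt.mp hi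
    exact ⟨by simpa using this.1, le_of_lt this.2⟩
  refine ⟨?_, ?_, ?_⟩
  · have habs : Tendsto (fun i => |S.w (θ i) x - wzero W γ x|) atTop (𝓝 0) := by
      have hc := (Real.continuous_rpow_const (q := 1 / (γ + 1 / 2)) (by positivity)).tendsto 0
      rw [Real.zero_rpow (by positivity)] at hc
      have hcomp := hc.comp h1
      refine hcomp.congr fun i => ?_
      change (|S.w (θ i) x - wzero W γ x| ^ (γ + 1 / 2)) ^ (1 / (γ + 1 / 2)) = _
      rw [← Real.rpow_mul (abs_nonneg _), mul_one_div_cancel hp.ne', Real.rpow_one]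
    rw [tendsto_iff_norm_sub_tendsto_zero]
    exact habs
  · refine h2.congr' ?_
    filter_upwards [hmem] with i hi
    change (Ioc (-(S.R (θ i))) (S.R (θ i))).indicator (e2 (θ i)) x = e2 (θ i) x
    rw [indicator_of_mem hi]
  · refine h3.congr' ?_
    filter_upwards [hmem] with i hi
    change (Ioc (-(S.R (θ i))) (S.R (θ i))).indicator (e3 (θ i)) x = e3 (θ i) x
    rw [indicator_of_mem hi]

theorem E23_hs2_eq_zero {N : ℕ} {A : Mt N} (h : hs2 A = 0) : A = 0 := by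
  ext i j
  unfold hs2 at h
  have h7 := (Finset.sum_eq_zero_iff_of_nonneg (fun i _ =>
    Finset.sum_nonneg fun j _ => sq_nonneg _)).1 h i (Finset.mem_univ _)
  have h8 := (Finset.sum_eq_zero_iff_of_nonneg (fun j _ => sq_nonneg _)).1 h7 j
    (Finset.mem_univ _)
  simpa using h8

theorem E23_comm {N : ℕ} {K F : ℕ → Mt N} {Ks Fs : Mt N} (hK : Tendsto K atTop (𝓝 Ks))
    (hF : Tendsto F atTop (𝓝 Fs))
    (h : Tendsto (fun i => hs2 (K i * K i * F i - F i * (K i * K i))) atTop (𝓝 0)) :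
    Ks * Ks * Fs = Fs * (Ks * Ks) := by
  have h1 : Tendsto (fun i => K i * K i * F i - F i * (K i * K i)) atTop
      (𝓝 (Ks * Ks * Fs - Fs * (Ks * Ks))) :=
    ((hK.mul hK).mul hF).sub (hF.mul (hK.mul hK))
  have h2 := (E17_continuous_hs2.tendsto (Ks * Ks * Fs - Fs * (Ks * Ks))).comp h1
  have h3 : hs2 (Ks * Ks * Fs - Fs * (Ks * Ks)) = 0 := tendsto_nhds_unique h2 h
  exact sub_eq_zero.1 (E23_hs2_eq_zero h3)

theorem E23_comm_err {N : ℕ} {α : ℝ} {K F V : ℕ → Mt N} {Ks Fs : Mt N}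
    (hK : Tendsto K atTop (𝓝 Ks)) (hF : Tendsto F atTop (𝓝 Fs)) (hV : ∀ i, (V i).PosSemidef)
    (h : Tendsto (fun i => hjErr α (K i) (F i) (V i)) atTop (𝓝 0)) :
    Ks * Ks * Fs = Fs * (Ks * Ks) := by
  refine E23_comm hK hF (squeeze_zero (fun i => ?_) (fun i => ?_) h)
  · unfold hs2
    positivity
  · unfold hjErr
    have h4 : 0 ≤ hs2 (vErr α (K i) (F i) (V i)) / (1 + tr (V i)) := by
      apply div_nonneg
      · unfold hs2
        positivity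
      · linarith [E17_tr_nonneg (hV i)]
    linarith

/-- compactness, extracted -/
theorem E23_compact {m N : ℕ} {T1 T2 T3 C : ℝ} {A1 A2 A3 : ℕ → Mt N}
    {A4 : ℕ → Matrix (Fin m) (Fin N) ℂ} (h1 : ∀ i, A1 i ∈ T36_set N T1)
    (h2 : ∀ᶠ i in atTop, A2 i ∈ T36_set N T2) (h3 : ∀ i, A3 i ∈ T36_set N T3)
    (h4 : ∀ i a k, ‖A4 i a k‖ ≤ C) :
    ∃ (θ : ℕ → ℕ) (_ : StrictMono θ) (B1 B2 B3 : Mt N) (B4 : Matrix (Fin m) (Fin N) ℂ),
      Tendsto (fun i => A1 (θ i)) atTop (𝓝 B1) ∧ Tendsto (fun i => A2 (θ i)) atTop (𝓝 B2) ∧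
      Tendsto (fun i => A3 (θ i)) atTop (𝓝 B3) ∧ Tendsto (fun i => A4 (θ i)) atTop (𝓝 B4) := by
  have i1 : FirstCountableTopology (Mt N) :=
    inferInstanceAs (FirstCountableTopology (Fin N → Fin N → ℂ))
  have hc4 : IsCompact (Set.pi univ (fun _ => Set.pi univ (fun _ => Metric.closedBall (0 : ℂ) C)) :
      Set (Fin m → Fin N → ℂ)) :=
    isCompact_univ_pi fun _ => isCompact_univ_pi fun _ => isCompact_closedBall _ _
  obtain ⟨B1, -, θ1, hθ1, hl1⟩ := (T36_set_compact N T1).tendsto_subseq h1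
  obtain ⟨B3, -, θ3, hθ3, hl3⟩ := (T36_set_compact N T3).tendsto_subseq (fun i => h3 (θ1 i))
  obtain ⟨B4, -, θ4, hθ4, hl4⟩ := IsCompact.tendsto_subseq
    (X := Fin m → Fin N → ℂ) hc4 (x := fun i a k => A4 (θ1 (θ3 i)) a k)
    (fun i a _ k _ => mem_closedBall_zero_iff.2 (h4 _ a k))
  have hθ : StrictMono (fun i => θ1 (θ3 (θ4 i))) := hθ1.comp (hθ3.comp hθ4)
  obtain ⟨B2, -, θ2, hθ2, hl2⟩ := (T36_set_compact N T2).tendsto_subseq'
    (x := fun i => A2 (θ1 (θ3 (θ4 i)))) (hθ.tendsto_atTop.eventually h2).frequently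
  refine ⟨fun i => θ1 (θ3 (θ4 (θ2 i))), hθ.comp hθ2, B1, B2, B3, B4, ?_, hl2, ?_, ?_⟩
  · exact hl1.comp (hθ3.comp (hθ4.comp hθ2)).tendsto_atTop
  · exact hl3.comp (hθ4.comp hθ2).tendsto_atTop
  · exact hl4.comp hθ2.tendsto_atTop

end E23

set_option maxHeartbeats 400000 in
theorem famSeq_conv {m N : ℕ} {γ : ℝ} (hγ : 1 / 2 < γ) (hγ' : γ < 3 / 2)
    {W : ℝ → Matrix (Fin m) (Fin m) ℂ} (hW : ∀ i j, Measurable fun x => W x i j)
    (hWp : ∀ x, (W x).PosSemidef) (hWi : Integrable fun x => tracePow (W x) (γ + 1 / 2))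
    {B : ℝ} (hB0 : 0 ≤ B) (hB : ∀ᵐ x : ℝ, wzero W γ x ≤ B) (S : FamSeq m N γ W) :
    ∃ (θ : ℕ → ℕ) (hθ : StrictMono θ) (x₀ : ℝ) (Ks F₀ Gs : Mt N) (Φ₀ : Matrix (Fin m) (Fin N) ℂ),
      FamConv (S.sub θ hθ) x₀ Ks F₀ Gs Φ₀ := by
  obtain ⟨θ₁, hθ₁, hae⟩ := E23_ae hγ hγ' S
  obtain ⟨x₀, hx₀⟩ := hae.exists
  -- compactness
  have hKT : ∀ i, S.K i ∈ T36_set N (N * S.κ₁) := by
    intro i
    have hpsd : (S.K i).PosSemidef :=
      ((S.ric i).adm 0 ⟨by linarith [(S.ric i).hR], (S.ric i).hR.le⟩).posSemidef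
    refine ⟨hpsd, ?_⟩
    have h1 := E17_tr_nonneg (S.Kbound i)
    have h2 : tr (((S.κ₁ : ℝ) : ℂ) • (1 : Mt N) - S.K i) = N * S.κ₁ - tr (S.K i) := by
      simp [tr, Matrix.trace_sub, Matrix.trace_smul, mul_comm]
    linarith
  have hGT : ∀ i, S.G i ∈ T36_set N (N * S.C₀) := by
    intro i
    have hpsd : (S.G i).PosSemidef := by
      have h1 := (S.Glower i).add
        ((Matrix.PosSemidef.one (n := Fin N) (R := ℂ)).smul (a := ((S.c₀ : ℝ) : ℂ)) (by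
          exact_mod_cast S.c₀pos.le))
      simpa using h1
    refine ⟨hpsd, ?_⟩
    have h1 := E17_tr_nonneg (S.Gupper i)
    have h2 : tr (((S.C₀ : ℝ) : ℂ) • (1 : Mt N) - S.G i) = N * S.C₀ - tr (S.G i) := by
      simp [tr, Matrix.trace_sub, Matrix.trace_smul, mul_comm]
    linarith
  have hmem : ∀ᶠ i in atTop, x₀ ∈ Icc (-(S.R i)) (S.R i) := by
    filter_upwards [S.hR.eventually_gt_atTop |x₀|] with i hi
    have := abs_lt.mp hi
    exact ⟨this.1.le, this.2.le⟩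
  have hFT : ∀ᶠ i in atTop, S.K i + S.F i x₀ ∈ T36_set N (2 * (N * S.κ₁)) := by
    filter_upwards [hmem] with i hi
    have hadm := (S.ric i).adm x₀ hi
    refine ⟨hadm.add, ?_⟩
    have h1 := E17_tr_nonneg hadm.sub
    have h2 : tr (S.K i - S.F i x₀) = tr (S.K i) - tr (S.F i x₀) := by
      simp [tr, Matrix.trace_sub]
    have h3 : tr (S.K i + S.F i x₀) = tr (S.K i) + tr (S.F i x₀) := by
      simp [tr, Matrix.trace_add]
    linarith [(hKT i).2]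
  have hΦT : ∀ i a k, ‖Phi (S.φ i) x₀ a k‖ ≤ Real.sqrt (2 * Real.sqrt B) := by
    intro i a k
    have h1 := (fam_bound hγ hγ' hW hWp hWi hB0 hB (S.trial i) (S.energy i) k).2 x₀
    have h2 : ‖S.φ i k x₀ a‖ ≤ ‖S.φ i k x₀‖ := PiLp.norm_apply_le _ _
    exact h2.trans (Real.le_sqrt_of_sq_le h1)
  obtain ⟨θ₂, hθ₂, Ks, KF, Gs, Φ₀, hK, hKF, hG, hΦ⟩ := E23_compact
    (A1 := fun i => S.K (θ₁ i)) (A2 := fun i => S.K (θ₁ i) + S.F (θ₁ i) x₀)
    (A3 := fun i => S.G (θ₁ i)) (A4 := fun i => Phi (S.φ (θ₁ i)) x₀)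
    (fun i => hKT _) (hθ₁.tendsto_atTop.eventually hFT) (fun i => hGT _) (fun i => hΦT _)
  have hF : Tendsto (fun i => S.F (θ₁ (θ₂ i)) x₀) atTop (𝓝 (KF - Ks)) := by
    have h1 := hKF.sub hK
    refine h1.congr fun i => ?_
    abel
  have hθ : StrictMono (fun i => θ₁ (θ₂ i)) := hθ₁.comp hθ₂
  have hev : ∀ᶠ i in atTop, Adm (S.K (θ₁ (θ₂ i))) (S.F (θ₁ (θ₂ i)) x₀) := by
    filter_upwards [hθ.tendsto_atTop.eventually hmem] with i hi
    exact (S.ric _).adm x₀ hi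
  have hadm : Adm Ks (KF - Ks) := by
    constructor
    · exact (T36_closed_psd N).mem_of_tendsto (hK.sub hF) (hev.mono fun i hi => hi.sub)
    · exact (T36_closed_psd N).mem_of_tendsto (hK.add hF) (hev.mono fun i hi => hi.add)
  have hcomm : Ks * (KF - Ks) = (KF - Ks) * Ks :=
    comm_of_sq_comm hadm.posSemidef (E23_comm_err (V := fun i => S.V (θ₁ (θ₂ i)) x₀) hK hF
      (fun i => E23_V_psd hγ hγ' S _ _) (hx₀.2.1.comp hθ₂.tendsto_atTop))
  refine ⟨fun i => θ₁ (θ₂ i), hθ, x₀, Ks, KF - Ks, Gs, Φ₀, ?_⟩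
  refine ⟨hK, hF, hG, hΦ, hadm, hcomm, ?_, ?_, ?_⟩
  · filter_upwards [hae] with x hx
    exact hx.1.comp hθ₂.tendsto_atTop
  · filter_upwards [hae] with x hx
    exact hx.2.1.comp hθ₂.tendsto_atTop
  · filter_upwards [hae] with x hx
    exact hx.2.2.comp hθ₂.tendsto_atTop

end Crest.Agent.LT
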