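import Crest.Agent.LTE_Defs
import Crest.Agent.LTE_E14
import Crest.Agent.LTE_E15
import Crest.Agent.LTE_E23
import Crest.Agent.LTE_E01
import Crest.Agent.LTE_E10
import Crest.Agent.LTE_E17
import Crest.Agent.LT_T36
import Crest.Agent.LT_T40
import Crest.Agent.LT_T44
import Crest.Agent.LT_T49
/-!
Task LTE-E24: convergence of the flows for a `FamSeq`: `explicit_riccati` for `Ks, F₀`, `ode_stability` for `F`
(`F' = K² - F² - V = -(1/α)(K² - F²) - vErr`; `∫_{-L}^L √hs2 vErr → 0` as in LTE-E18) and `linear_stability` for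
`Ψ_i = Phi (φ i) * G i`, `Ψ_i' = Ψ_i F_i + dErr`; the limit is `Φ₀ Gs U diag(exp ∫_{x₀}^x f_j) U^*`.
-/

set_option autoImplicit false

namespace Crest.Agent.LT

open MeasureTheory Matrix Set Filter
open Crest.MathPhysics.LiebThirring
open scoped ComplexOrder Topology

theorem E24_tr_nonneg {N : ℕ} {A : Mt N} (hA : A.PosSemidef) : 0 ≤ tr A := by
  have := hA.trace_nonneg
  exact (Complex.le_def.1 this).1

theorem E24_hs2_psd {N : ℕ} {A : Mt N} (hA : A.PosSemidef) : hs2 A ≤ (tr A) ^ 2 := by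
  have e : cfc (fun t : ℝ => t) A = A := cfc_id' ℝ A hA.1
  have h := T36_hs2_cfc hA.1 (fun t => t)
  rw [e] at h
  rw [h, T36_tr_eq_sum hA.1]
  exact Finset.sum_sq_le_sq_sum_of_nonneg fun i _ => hA.eigenvalues_nonneg i

theorem E24_hs2_smul {m N : ℕ} (c : ℝ) (A : Matrix (Fin m) (Fin N) ℂ) :
    hs2 (((c : ℝ) : ℂ) • A) = c ^ 2 * hs2 A := by
  unfold hs2
  simp only [Matrix.smul_apply, smul_eq_mul, norm_mul, mul_pow, Complex.norm_real,
    Real.norm_eq_abs, sq_abs]
  rw [Finset.mul_sum]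
  refine Finset.sum_congr rfl fun i _ => ?_
  rw [Finset.mul_sum]

theorem E24_hs2_neg {m N : ℕ} (A : Matrix (Fin m) (Fin N) ℂ) : hs2 (-A) = hs2 A := by
  unfold hs2
  simp only [Matrix.neg_apply, norm_neg]

theorem E24_hs2_adm {N : ℕ} {K F : Mt N} {κ : ℝ} (h : Adm K F)
    (hK : (((κ : ℝ) : ℂ) • (1 : Mt N) - K).PosSemidef) : hs2 F ≤ 2 * (N * κ) ^ 2 := by
  have h1 := E24_hs2_psd h.add
  have h2 := E24_hs2_psd h.sub
  have t1 := E24_tr_nonneg h.add
  have t2 := E24_tr_nonneg h.sub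
  have t3 := E24_tr_nonneg hK
  have e1 : tr (K + F) = tr K + tr F := by simp [tr]
  have e2 : tr (K - F) = tr K - tr F := by simp [tr]
  have e3 : tr (((κ : ℝ) : ℂ) • (1 : Mt N) - K) = N * κ - tr K := by
    simp [tr, mul_comm]
  rw [e1] at h1 t1
  rw [e2] at h2 t2
  rw [e3] at t3
  have h3 := hs2_add_le (K + F) (-(K - F))
  have e4 : (K + F) + -(K - F) = (((2 : ℝ)) : ℂ) • F := by
    ext i j
    simp only [Matrix.add_apply, Matrix.neg_apply, Matrix.sub_apply, Matrix.smul_apply, smul_eq_mul]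
    push_cast
    ring
  rw [e4, E24_hs2_smul, E24_hs2_neg] at h3
  have h4 : (tr K + tr F) ^ 2 + (tr K - tr F) ^ 2 ≤ (2 * tr K) ^ 2 := by nlinarith
  have h5 : tr K ≤ N * κ := by linarith
  have h6 : 0 ≤ tr K := by linarith
  have h7 : (tr K) ^ 2 ≤ (N * κ) ^ 2 := pow_le_pow_left₀ h6 h5 2
  nlinarith

theorem E24_sqrt_tendsto {L C : ℝ} (hL : -L ≤ L) {a b r : ℕ → ℝ → ℝ}
    (ha : ∀ᶠ i in atTop, IntervalIntegrable (a i) volume (-L) L)
    (hb : ∀ᶠ i in atTop, IntervalIntegrable (b i) volume (-L) L)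
    (hr : ∀ᶠ i in atTop, IntervalIntegrable (r i) volume (-L) L)
    (ha0 : ∀ᶠ i in atTop, ∀ x ∈ Icc (-L) L, 0 ≤ a i x)
    (hb0 : ∀ᶠ i in atTop, ∀ x ∈ Icc (-L) L, 0 ≤ b i x)
    (hr0 : ∀ᶠ i in atTop, ∀ x ∈ Icc (-L) L, 0 ≤ r i x)
    (hab : ∀ᶠ i in atTop, ∀ x ∈ Icc (-L) L, (r i x) ^ 2 ≤ a i x * b i x)
    (hA : Tendsto (fun i => ∫ x in (-L)..L, a i x) atTop (𝓝 0))
    (hB : ∀ᶠ i in atTop, ∫ x in (-L)..L, b i x ≤ C) :
    Tendsto (fun i => ∫ x in (-L)..L, r i x) atTop (𝓝 0) := by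
  rw [Metric.tendsto_atTop']
  intro η hη
  set ε : ℝ := η / (2 * (|C| + 1)) with hε
  have hC1 : 0 < |C| + 1 := by positivity
  have hε0 : 0 < ε := by positivity
  have hA' : ∀ᶠ i in atTop, ∫ x in (-L)..L, a i x < η * ε := by
    have := hA.eventually (gt_mem_nhds (show (0 : ℝ) < η * ε by positivity))
    exact this
  have key : ∀ᶠ i in atTop, dist (∫ x in (-L)..L, r i x) 0 < η := by
    filter_upwards [ha, hb, hr, ha0, hb0, hr0, hab, hA', hB] with i ha hb hr ha0 hb0 hr0 hab hA' hB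
    rw [Real.dist_eq, sub_zero, abs_of_nonneg (intervalIntegral.integral_nonneg hL hr0)]
    have h1 : ∫ x in (-L)..L, r i x ≤ ∫ x in (-L)..L, (1 / (2 * ε) * a i x + ε / 2 * b i x) := by
      apply intervalIntegral.integral_mono_on hL hr ((ha.const_mul _).add (hb.const_mul _))
      intro x hx
      have h2 : r i x ≤ Real.sqrt (a i x * b i x) := Real.le_sqrt_of_sq_le (hab x hx)
      have h3 : a i x * b i x ≤ (1 / (2 * ε) * a i x + ε / 2 * b i x) ^ 2 := by
        have e : (1 / (2 * ε) * a i x + ε / 2 * b i x) ^ 2 - a i x * b i x =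
            (1 / (2 * ε) * a i x - ε / 2 * b i x) ^ 2 := by
          field_simp
          ring
        nlinarith [sq_nonneg (1 / (2 * ε) * a i x - ε / 2 * b i x)]
      have h4 : 0 ≤ 1 / (2 * ε) * a i x + ε / 2 * b i x := by
        have := ha0 x hx
        have := hb0 x hx
        positivity
      calc r i x ≤ Real.sqrt (a i x * b i x) := h2
        _ ≤ Real.sqrt ((1 / (2 * ε) * a i x + ε / 2 * b i x) ^ 2) := Real.sqrt_le_sqrt h3
        _ = _ := Real.sqrt_sq h4
    rw [intervalIntegral.integral_add (ha.const_mul _) (hb.const_mul _),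
      intervalIntegral.integral_const_mul, intervalIntegral.integral_const_mul] at h1
    have h5 : 1 / (2 * ε) * ∫ x in (-L)..L, a i x < 1 / (2 * ε) * (η * ε) :=
      mul_lt_mul_of_pos_left hA' (by positivity)
    have h6 : 1 / (2 * ε) * (η * ε) = η / 2 := by field_simp
    have h7 : ε / 2 * ∫ x in (-L)..L, b i x ≤ ε / 2 * (|C| + 1) :=
      mul_le_mul_of_nonneg_left (hB.trans (by linarith [le_abs_self C])) (by positivity)
    have h8 : ε / 2 * (|C| + 1) = η / 4 := by
      rw [hε]; field_simp; norm_num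
    linarith
  exact (eventually_atTop.1 key).imp fun n hn i hi => hn i hi.le

theorem E24_dg_entry {m n : ℕ} (A : Matrix (Fin m) (Fin n) ℂ) (W : Mt n) (v : Fin n → ℝ)
    (i : Fin m) (k : Fin n) : (A * dg v * W) i k = ∑ j, A i j * ((v j : ℝ) : ℂ) * W j k := by
  rw [Matrix.mul_apply]
  apply Finset.sum_congr rfl
  intro j _
  rw [dg, Matrix.mul_diagonal]

theorem E24_hasDerivAt {m n : ℕ} (A : Matrix (Fin m) (Fin n) ℂ) (W : Mt n) {f : Fin n → ℝ → ℝ}
    {f' : Fin n → ℝ} {x : ℝ} (h : ∀ j, HasDerivAt (f j) (f' j) x) :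
    HasDerivAt (fun y => A * dg (fun j => f j y) * W) (A * dg f' * W) x := by
  apply hasDerivAt_pi.2
  intro i
  apply hasDerivAt_pi.2
  intro k
  have h1 : HasDerivAt (fun y => ∑ j, A i j * ((f j y : ℝ) : ℂ) * W j k)
      (∑ j, A i j * ((f' j : ℝ) : ℂ) * W j k) x := by
    apply HasDerivAt.fun_sum
    intro j _
    exact (((h j).ofReal_comp).const_mul (A i j)).mul_const (W j k)
  have h2 : (fun y => (A * dg (fun j => f j y) * W) i k)
      = fun y => ∑ j, A i j * ((f j y : ℝ) : ℂ) * W j k := by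
    funext y
    exact E24_dg_entry _ _ _ i k
  have h3 : (A * dg f' * W) i k = ∑ j, A i j * ((f' j : ℝ) : ℂ) * W j k := E24_dg_entry _ _ _ i k
  show HasDerivAt (fun y => (A * dg (fun j => f j y) * W) i k) ((A * dg f' * W) i k) x
  rw [h2, h3]
  exact h1

theorem E24_continuous {m n : ℕ} (A : Matrix (Fin m) (Fin n) ℂ) (W : Mt n) {f : Fin n → ℝ → ℝ}
    (h : ∀ j, Continuous (f j)) : Continuous (fun y => A * dg (fun j => f j y) * W) := by
  refine continuous_matrix fun i k => ?_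
  have h2 : (fun y => (A * dg (fun j => f j y) * W) i k)
      = fun y => ∑ j, A i j * ((f j y : ℝ) : ℂ) * W j k := by
    funext y
    exact E24_dg_entry _ _ _ i k
  rw [h2]
  refine continuous_finsetSum _ fun j _ => ?_
  exact (continuous_const.mul (Complex.continuous_ofReal.comp (h j))).mul continuous_const

section

variable {m N : ℕ} {γ : ℝ} {W : ℝ → Matrix (Fin m) (Fin m) ℂ}

theorem E24_V_psd (hγ : 1 / 2 < γ) (hγ' : γ < 3 / 2) (S : FamSeq m N γ W) (i : ℕ) (x : ℝ) :
    (S.V i x).PosSemidef := by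
  have hα : 0 < γ - 1 / 2 := by linarith
  refine VK_posSemidef ?_ (S.wnonneg i x) (S.δpos i) (T44_posSemidef_Pmat _ _ _)
  rw [le_div_iff₀ hα]; linarith

theorem E24_V_tr (hγ : 1 / 2 < γ) (hγ' : γ < 3 / 2) (S : FamSeq m N γ W) (i : ℕ) (x : ℝ) :
    tr (S.V i x) ≤ N * S.w i x := by
  have hα : 0 < γ - 1 / 2 := by linarith
  refine VK_tr_le ?_ (S.wnonneg i x) (S.δpos i) (T44_posSemidef_Pmat _ _ _)
  rw [le_div_iff₀ hα]; linarith

theorem E24_V_cont (hγ : 1 / 2 < γ) (hγ' : γ < 3 / 2) (S : FamSeq m N γ W) (i : ℕ) :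
    Continuous (S.V i) := by
  have hα : 0 < γ - 1 / 2 := by linarith
  have hr : 1 ≤ 1 / (γ - 1 / 2) := by
    rw [le_div_iff₀ hα]; linarith
  have h1 := continuousOn_VK hr (S.δpos i) (S.wcont i) (S.trial i) (𝒢 := fun _ => S.G i)
    continuousOn_const
  have h2 : Continuous fun x : ℝ => ((0 : Mt N), x) := by fun_prop
  have h3 := h1.comp_continuous h2 (fun x => ⟨Matrix.PosSemidef.zero, mem_univ _⟩)
  exact h3

theorem E24_w_bound (hγ : 1 / 2 < γ) (hWp : ∀ x, (W x).PosSemidef)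
    (hWi : Integrable fun x => tracePow (W x) (γ + 1 / 2)) (S : FamSeq m N γ W) {L : ℝ}
    (hL : 0 < L) :
    ∀ᶠ i in atTop, ∫ x in (-L)..L, S.w i x ≤ 4 * L + 1 + ∫ x, tracePow (W x) (γ + 1 / 2) := by
  have hLL : -L ≤ L := by linarith
  have h1 : ∀ᶠ i in atTop, ∫ x, |S.w i x - wzero W γ x| ^ (γ + 1 / 2) < 1 :=
    S.hw.eventually (gt_mem_nhds (show (0 : ℝ) < 1 by norm_num))
  filter_upwards [h1] with i hi
  have hpow : ∀ t : ℝ, 0 ≤ t → t ≤ 1 + t ^ (γ + 1 / 2) := by
    intro t ht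
    rcases le_total t 1 with h | h
    · have := Real.rpow_nonneg ht (γ + 1 / 2)
      linarith
    · have : t ^ (1 : ℝ) ≤ t ^ (γ + 1 / 2) := Real.rpow_le_rpow_of_exponent_le h (by linarith)
      rw [Real.rpow_one] at this
      linarith
  have hT0 : ∀ x, 0 ≤ tracePow (W x) (γ + 1 / 2) := fun x => T40_tracePow_nonneg (hWp x) _
  have hz0 : ∀ x, 0 ≤ wzero W γ x := fun x => Real.rpow_nonneg (hT0 x) _
  have hz : ∀ x, wzero W γ x ^ (γ + 1 / 2) = tracePow (W x) (γ + 1 / 2) := by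
    intro x
    unfold wzero
    rw [← Real.rpow_mul (hT0 x), one_div_mul_cancel (by linarith), Real.rpow_one]
  have hpt : ∀ x, S.w i x ≤ 2 + (|S.w i x - wzero W γ x| ^ (γ + 1 / 2) +
      tracePow (W x) (γ + 1 / 2)) := by
    intro x
    have a1 := hpow _ (abs_nonneg (S.w i x - wzero W γ x))
    have a2 := hpow _ (hz0 x)
    rw [hz] at a2
    have a3 := le_abs_self (S.w i x - wzero W γ x)
    linarith
  have hi1 : IntervalIntegrable (fun x => |S.w i x - wzero W γ x| ^ (γ + 1 / 2)) volume (-L) L :=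
    (S.hwint i).intervalIntegrable
  have hi2 : IntervalIntegrable (fun x => tracePow (W x) (γ + 1 / 2)) volume (-L) L :=
    hWi.intervalIntegrable
  have h3 : ∫ x in (-L)..L, S.w i x ≤ ∫ x in (-L)..L, (2 + (|S.w i x - wzero W γ x| ^ (γ + 1 / 2) +
      tracePow (W x) (γ + 1 / 2))) :=
    intervalIntegral.integral_mono_on hLL ((S.wcont i).intervalIntegrable _ _)
      (intervalIntegrable_const.add (hi1.add hi2)) fun x _ => hpt x
  rw [intervalIntegral.integral_add intervalIntegrable_const (hi1.add hi2),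
    intervalIntegral.integral_add hi1 hi2, intervalIntegral.integral_const, smul_eq_mul] at h3
  have h4 : ∫ x in (-L)..L, |S.w i x - wzero W γ x| ^ (γ + 1 / 2) ≤
      ∫ x, |S.w i x - wzero W γ x| ^ (γ + 1 / 2) :=
    T49_interval_le hL (S.hwint i) (fun x => Real.rpow_nonneg (abs_nonneg _) _) fun x _ => le_rfl
  have h5 : ∫ x in (-L)..L, tracePow (W x) (γ + 1 / 2) ≤ ∫ x, tracePow (W x) (γ + 1 / 2) :=
    T49_interval_le hL hWi hT0 fun x _ => le_rfl
  linarith

/-- `∫_{-L}^L` of a nonnegative continuous function is at most `∫_{-R}^R` -/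
theorem E24_mono {L R : ℝ} (hL : 0 < L) (hLR : L ≤ R) {f : ℝ → ℝ}
    (hf : ContinuousOn f (Icc (-R) R)) (hf0 : ∀ x ∈ Icc (-R) R, 0 ≤ f x) :
    ∫ x in (-L)..L, f x ≤ ∫ x in (-R)..R, f x := by
  have hR : -R ≤ R := by linarith
  refine intervalIntegral.integral_mono_interval (by linarith) (by linarith) hLR ?_ ?_
  · refine (ae_restrict_mem measurableSet_Ioc).mono fun x hx => ?_
    exact hf0 x (Ioc_subset_Icc_self hx)
  · apply ContinuousOn.intervalIntegrable
    rwa [uIcc_of_le hR]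

theorem E24_vErr_cont {L : ℝ} {α : ℝ} {K : Mt N} {F V : ℝ → Mt N} (hF : ContinuousOn F (Icc (-L) L))
    (hV : Continuous V) : ContinuousOn (fun x => vErr α K (F x) (V x)) (Icc (-L) L) := by
  have hF' : Continuous (fun x : Icc (-L) L => F x) := continuousOn_iff_continuous_domRestrict.1 hF
  have hV' : Continuous (fun x : Icc (-L) L => V x) := hV.comp continuous_subtype_val
  rw [continuousOn_iff_continuous_domRestrict]
  change Continuous (fun x : Icc (-L) L => vErr α K (F x) (V x))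
  unfold vErr
  have hq : Continuous (fun x : Icc (-L) L => K * K - F x * F x) :=
    continuous_const.sub (hF'.matrix_mul hF')
  have hq2 : Continuous (fun x : Icc (-L) L => ((1 / α + 1 : ℝ) : ℂ) • (K * K - F x * F x)) :=
    hq.const_smul (((1 / α + 1 : ℝ) : ℂ))
  exact hV'.sub hq2

theorem E24_rho (hγ : 1 / 2 < γ) (hγ' : γ < 3 / 2) (hWp : ∀ x, (W x).PosSemidef)
    (hWi : Integrable fun x => tracePow (W x) (γ + 1 / 2)) (S : FamSeq m N γ W) {L : ℝ}
    (hL : 0 < L) :
    Tendsto (fun i => ∫ x in (-L)..L,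
      Real.sqrt (hs2 (vErr (γ - 1 / 2) (S.K i) (S.F i x) (S.V i x)))) atTop (𝓝 0) := by
  have hLL : -L ≤ L := by linarith
  have hRL : ∀ᶠ i in atTop, L < S.R i := S.hR.eventually_gt_atTop L
  have hsub : ∀ i, L < S.R i → Icc (-L) L ⊆ Icc (-(S.R i)) (S.R i) := fun i hi =>
    Icc_subset_Icc (by linarith) (by linarith)
  have hvc : ∀ᶠ i in atTop, ContinuousOn
      (fun x => hs2 (vErr (γ - 1 / 2) (S.K i) (S.F i x) (S.V i x))) (Icc (-L) L) := by
    filter_upwards [hRL] with i hi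
    have h1 := E24_vErr_cont (α := γ - 1 / 2) (K := S.K i) ((S.ric i).contF.mono (hsub i hi))
      (E24_V_cont hγ hγ' S i)
    exact E17_continuous_hs2.comp_continuousOn h1
  have hVtc : ∀ i, Continuous fun x => 1 + tr (S.V i x) := fun i =>
    continuous_const.add (E17_continuous_tr.comp (E24_V_cont hγ hγ' S i))
  have ht0 : ∀ i x, 0 < 1 + tr (S.V i x) := fun i x => by
    have := E24_tr_nonneg (E24_V_psd hγ hγ' S i x)
    linarith
  refine E24_sqrt_tendsto hLL
    (a := fun i x => hs2 (vErr (γ - 1 / 2) (S.K i) (S.F i x) (S.V i x)) / (1 + tr (S.V i x)))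
    (b := fun i x => 1 + tr (S.V i x))
    (C := 2 * L + N * (4 * L + 1 + ∫ x, tracePow (W x) (γ + 1 / 2))) ?_ ?_ ?_ ?_ ?_ ?_ ?_ ?_ ?_
  · filter_upwards [hvc] with i hi
    apply ContinuousOn.intervalIntegrable
    rw [uIcc_of_le hLL]
    exact hi.div (hVtc i).continuousOn fun x _ => (ht0 i x).ne'
  · exact Eventually.of_forall fun i => (hVtc i).intervalIntegrable _ _
  · filter_upwards [hvc] with i hi
    apply ContinuousOn.intervalIntegrable
    rw [uIcc_of_le hLL]
    exact Real.continuous_sqrt.comp_continuousOn hi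
  · exact Eventually.of_forall fun i x _ => div_nonneg (E10_hs2_nonneg _) (ht0 i x).le
  · exact Eventually.of_forall fun i x _ => (ht0 i x).le
  · exact Eventually.of_forall fun i x _ => Real.sqrt_nonneg _
  · refine Eventually.of_forall fun i x _ => ?_
    rw [Real.sq_sqrt (E10_hs2_nonneg _), div_mul_cancel₀ _ (ht0 i x).ne']
  · have hlim := S.err
    refine squeeze_zero' (Eventually.of_forall fun i => ?_) ?_ hlim
    · exact intervalIntegral.integral_nonneg hLL fun x _ =>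
        div_nonneg (E10_hs2_nonneg _) (ht0 i x).le
    · filter_upwards [hRL, hvc] with i hi hc
      have hcont := E17_hjErr_contOn (α := γ - 1 / 2) (S.ric i) (E24_V_cont hγ hγ' S i)
      have h2 : ∫ x in (-L)..L, hjErr (γ - 1 / 2) (S.K i) (S.F i x) (S.V i x) ≤
          ∫ x in (-(S.R i))..(S.R i), hjErr (γ - 1 / 2) (S.K i) (S.F i x) (S.V i x) :=
        E24_mono hL hi.le hcont fun x _ => hjErr_nonneg (E24_V_psd hγ hγ' S i x)
      refine le_trans ?_ h2
      apply intervalIntegral.integral_mono_on hLL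
      · apply ContinuousOn.intervalIntegrable
        rw [uIcc_of_le hLL]
        exact hc.div (hVtc i).continuousOn fun x _ => (ht0 i x).ne'
      · apply ContinuousOn.intervalIntegrable
        rw [uIcc_of_le hLL]
        exact hcont.mono (hsub i hi)
      · intro x _
        unfold hjErr
        have := E10_hs2_nonneg (S.K i * S.K i * S.F i x - S.F i x * (S.K i * S.K i))
        linarith
  · filter_upwards [E24_w_bound hγ hWp hWi S hL] with i hi
    have h1 : ∫ x in (-L)..L, (1 + tr (S.V i x)) ≤ ∫ x in (-L)..L, (1 + N * S.w i x) := by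
      apply intervalIntegral.integral_mono_on hLL ((hVtc i).intervalIntegrable _ _)
      · exact (continuous_const.add (continuous_const.mul (S.wcont i))).intervalIntegrable _ _
      · intro x _
        have := E24_V_tr hγ hγ' S i x
        linarith
    have hwi : IntervalIntegrable (fun x => (N : ℝ) * S.w i x) volume (-L) L :=
      (continuous_const.mul (S.wcont i)).intervalIntegrable _ _
    rw [intervalIntegral.integral_add intervalIntegrable_const hwi,
      intervalIntegral.integral_const, intervalIntegral.integral_const_mul, smul_eq_mul] at h1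
    have h2 : (N : ℝ) * ∫ x in (-L)..L, S.w i x ≤
        N * (4 * L + 1 + ∫ x, tracePow (W x) (γ + 1 / 2)) :=
      mul_le_mul_of_nonneg_left hi (Nat.cast_nonneg N)
    linarith

theorem E24_adm_bound (S : FamSeq m N γ W) (i : ℕ) {x : ℝ} (hx : x ∈ Icc (-(S.R i)) (S.R i)) :
    hs2 (S.F i x) ≤ 2 * (N * S.κ₁) ^ 2 :=
  E24_hs2_adm ((S.ric i).adm x hx) (S.Kbound i)

theorem E24_F_deriv (S : FamSeq m N γ W) (i : ℕ) {x : ℝ}
    (hx : x ∈ Ioo (-(S.R i)) (S.R i)) :
    HasDerivAt (S.F i) (((-(1 / (γ - 1 / 2)) : ℝ) : ℂ) • (S.K i * S.K i - S.F i x * S.F i x) +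
      -vErr (γ - 1 / 2) (S.K i) (S.F i x) (S.V i x)) x := by
  have h1 := (S.ric i).deriv x hx
  have e : S.K i * S.K i - S.F i x * S.F i x - S.V i x =
      ((-(1 / (γ - 1 / 2)) : ℝ) : ℂ) • (S.K i * S.K i - S.F i x * S.F i x) +
      -vErr (γ - 1 / 2) (S.K i) (S.F i x) (S.V i x) := by
    unfold vErr
    ext a b
    simp only [Matrix.sub_apply, Matrix.add_apply, Matrix.neg_apply, Matrix.smul_apply, smul_eq_mul]
    push_cast
    ring
  have h2 : HasDerivAt (S.F i) (S.K i * S.K i - S.F i x * S.F i x - S.V i x) x := h1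
  rw [e] at h2
  exact h2

theorem E24_Psi_cont (S : FamSeq m N γ W) (i : ℕ) :
    Continuous fun x => Phi (S.φ i) x * S.G i :=
  (T44_continuous_Phi (S.trial i)).matrix_mul continuous_const

theorem E24_Psi_deriv (S : FamSeq m N γ W) (i : ℕ) (x : ℝ) :
    HasDerivAt (fun x => Phi (S.φ i) x * S.G i)
      (Phi (S.φ i) x * S.G i * S.F i x + dErr (S.φ i) (S.G i) (S.F i) x) x := by
  have e : Phi (S.φ i) x * S.G i * S.F i x + dErr (S.φ i) (S.G i) (S.F i) x =
      dPhi (S.φ i) x * S.G i := by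
    unfold dErr
    abel
  rw [e]
  apply hasDerivAt_pi.2
  intro a
  apply hasDerivAt_pi.2
  intro k
  have h1 : HasDerivAt (fun y => ∑ j, Phi (S.φ i) y a j * S.G i j k)
      (∑ j, dPhi (S.φ i) x a j * S.G i j k) x := by
    apply HasDerivAt.fun_sum
    intro j _
    exact (T40_phi_deriv (S.trial i) x a j).mul_const _
  exact h1

theorem E24_dErr_cont (S : FamSeq m N γ W) (i : ℕ) {s : Set ℝ} (hs : s ⊆ Icc (-(S.R i)) (S.R i)) :
    ContinuousOn (fun x => dErr (S.φ i) (S.G i) (S.F i) x) s := by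
  have hF := (S.ric i).contF.mono hs
  have hF' : Continuous (fun x : s => S.F i x) := continuousOn_iff_continuous_domRestrict.1 hF
  rw [continuousOn_iff_continuous_domRestrict]
  change Continuous (fun x : s => dErr (S.φ i) (S.G i) (S.F i) x)
  unfold dErr
  have h1 : Continuous (fun x : s => Phi (S.φ i) x * S.G i) :=
    (E24_Psi_cont S i).comp continuous_subtype_val
  have h2 : Continuous (dPhi (S.φ i)) :=
    continuous_matrix fun a k => T40_dphi_cont (S.trial i) a k
  have h3 : Continuous (fun x : s => dPhi (S.φ i) x * S.G i) :=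
    (h2.comp continuous_subtype_val).matrix_mul continuous_const
  exact h3.sub (h1.matrix_mul hF')

theorem E24_derr (S : FamSeq m N γ W) {L : ℝ} (hL : 0 < L) :
    Tendsto (fun i => ∫ x in (-L)..L, hs2 (dErr (S.φ i) (S.G i) (S.F i) x)) atTop (𝓝 0) := by
  have hLL : -L ≤ L := by linarith
  have hRL : ∀ᶠ i in atTop, L < S.R i := S.hR.eventually_gt_atTop L
  refine squeeze_zero' (Eventually.of_forall fun i => ?_) ?_ S.derr
  · exact intervalIntegral.integral_nonneg hLL fun x _ => E10_hs2_nonneg _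
  · filter_upwards [hRL] with i hi
    exact E24_mono hL hi.le (E17_continuous_hs2.comp_continuousOn (E24_dErr_cont S i le_rfl))
      fun x _ => E10_hs2_nonneg _

end

theorem E24_mul_tendsto {m N : ℕ} {A : ℕ → Matrix (Fin m) (Fin N) ℂ} {B : ℕ → Mt N}
    {A' : Matrix (Fin m) (Fin N) ℂ} {B' : Mt N} (hA : Tendsto A atTop (𝓝 A'))
    (hB : Tendsto B atTop (𝓝 B')) : Tendsto (fun i => A i * B i) atTop (𝓝 (A' * B')) := by
  have hc : Continuous fun p : Matrix (Fin m) (Fin N) ℂ × Mt N => p.1 * p.2 :=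
    continuous_fst.matrix_mul continuous_snd
  have h1 : Tendsto (fun i => (A i, B i)) atTop (𝓝 (A', B')) := hA.prodMk_nhds hB
  have h2 := (hc.tendsto (A', B')).comp h1
  exact h2

theorem famConv_flow {m N : ℕ} {γ : ℝ} (hγ : 1 / 2 < γ) (hγ' : γ < 3 / 2)
    {W : ℝ → Matrix (Fin m) (Fin m) ℂ} (hW : ∀ i j, Measurable fun x => W x i j)
    (hWp : ∀ x, (W x).PosSemidef) (hWi : Integrable fun x => tracePow (W x) (γ + 1 / 2))
    {S : FamSeq m N γ W} {x₀ : ℝ} {Ks F₀ Gs : Mt N} {Φ₀ : Matrix (Fin m) (Fin N) ℂ}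
    (h : FamConv S x₀ Ks F₀ Gs Φ₀) :
    ∃ (U : Mt N) (k : Fin N → ℝ) (f : Fin N → ℝ → ℝ), Uᴴ * U = 1 ∧ U * Uᴴ = 1 ∧ (∀ j, 0 ≤ k j) ∧
      Ks = U * dg k * Uᴴ ∧ (∀ j, Continuous (f j)) ∧ (∀ j x, |f j x| ≤ k j) ∧
      (∀ j, (∀ x, f j x = k j) ∨ (∀ x, f j x = -k j) ∨
        (0 < k j ∧ ∃ c : ℝ, ∀ x, f j x = -k j * Real.tanh ((1 / (γ - 1 / 2)) * k j * (x - c)))) ∧
      (∀ x, Tendsto (fun i => S.F i x) atTop (𝓝 (U * dg (fun j => f j x) * Uᴴ))) ∧
      ∀ x, Tendsto (fun i => Phi (S.φ i) x * S.G i) atTop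
        (𝓝 (Φ₀ * Gs * U * dg (fun j => Real.exp (∫ t in x₀..x, f j t)) * Uᴴ)) := by
  have hα : 0 < γ - 1 / 2 := by linarith
  have hr : 0 < 1 / (γ - 1 / 2) := by positivity
  obtain ⟨U, k, f, hU, hU', hk, hKs, hF₀, hfd, hfb, hfc, hFd⟩ :=
    explicit_riccati (x₀ := x₀) hr h.adm h.comm
  have hfcont : ∀ j, Continuous (f j) := fun j =>
    continuous_iff_continuousAt.2 fun x => (hfd j x).continuousAt
  set F' : ℝ → Mt N := fun x => U * dg (fun j => f j x) * Uᴴ with hF'
  have hF'c : Continuous F' := E24_continuous U Uᴴ hfcont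
  have hKK : Tendsto (fun i => S.K i * S.K i) atTop (𝓝 (Ks * Ks)) := h.K.mul h.K
  have hFlim : ∀ L : ℝ, x₀ ∈ Ioo (-L) L → ∀ x ∈ Icc (-L) L,
      Tendsto (fun i => S.F i x) atTop (𝓝 (F' x)) := by
    intro L hx₀
    have hL : 0 < L := by linarith [hx₀.1, hx₀.2]
    have hRL : ∀ᶠ i in atTop, L < S.R i := S.hR.eventually_gt_atTop L
    have hsub : ∀ i, L < S.R i → Icc (-L) L ⊆ Icc (-(S.R i)) (S.R i) := fun i hi =>
      Icc_subset_Icc (by linarith) (by linarith)
    refine ode_stability (c := -(1 / (γ - 1 / 2))) (M := 2 * (N * S.κ₁) ^ 2) hx₀ hKK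
      (G := S.F) (G' := F')
      (ρ := fun i x => -vErr (γ - 1 / 2) (S.K i) (S.F i x) (S.V i x)) ?_ ?_ ?_ ?_ ?_ ?_ ?_
    · filter_upwards [hRL] with i hi
      exact (S.ric i).contF.mono (hsub i hi)
    · filter_upwards [hRL] with i hi
      exact (E24_vErr_cont ((S.ric i).contF.mono (hsub i hi)) (E24_V_cont hγ hγ' S i)).neg
    · filter_upwards [hRL] with i hi x hx
      exact E24_F_deriv S i ⟨by linarith [hx.1], by linarith [hx.2]⟩
    · filter_upwards [hRL] with i hi x hx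
      exact E24_adm_bound S i (hsub i hi hx)
    · have := E24_rho hγ hγ' hWp hWi S hL
      simp only [E24_hs2_neg]
      exact this
    · exact hFd
    · have : F' x₀ = F₀ := hF₀.symm
      rw [this]
      exact h.F
  refine ⟨U, k, f, hU, hU', hk, hKs, hfcont, hfb, hfc, fun x => ?_, fun x => ?_⟩
  · refine hFlim (|x| + |x₀| + 1) ?_ x ?_
    · have := abs_nonneg x
      exact ⟨by linarith [neg_abs_le x₀], by linarith [le_abs_self x₀]⟩
    · have := abs_nonneg x₀
      exact ⟨by linarith [neg_abs_le x], by linarith [le_abs_self x]⟩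
  · set L : ℝ := |x| + |x₀| + 1 with hLdef
    have hx₀ : x₀ ∈ Ioo (-L) L := by
      have := abs_nonneg x
      exact ⟨by linarith [neg_abs_le x₀], by linarith [le_abs_self x₀]⟩
    have hx : x ∈ Icc (-L) L := by
      have := abs_nonneg x₀
      exact ⟨by linarith [neg_abs_le x], by linarith [le_abs_self x]⟩
    have hL : 0 < L := by positivity
    have hRL : ∀ᶠ i in atTop, L < S.R i := S.hR.eventually_gt_atTop L
    have hsub : ∀ i, L < S.R i → Icc (-L) L ⊆ Icc (-(S.R i)) (S.R i) := fun i hi =>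
      Icc_subset_Icc (by linarith) (by linarith)
    have hgd : ∀ j y, HasDerivAt (fun y => Real.exp (∫ t in x₀..y, f j t))
        (f j y * Real.exp (∫ t in x₀..y, f j t)) y := by
      intro j y
      have h1 : HasDerivAt (fun y => ∫ t in x₀..y, f j t) (f j y) y :=
        intervalIntegral.integral_hasDerivAt_right ((hfcont j).intervalIntegrable _ _)
          (hfcont j).aestronglyMeasurable.stronglyMeasurableAtFilter (hfcont j).continuousAt
      have h2 := h1.exp
      rw [mul_comm]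
      exact h2
    refine linear_stability (M := 2 * (N * S.κ₁) ^ 2) hx₀ (F := S.F) (F' := F')
      (E := fun i x => dErr (S.φ i) (S.G i) (S.F i) x)
      (Ψ := fun i x => Phi (S.φ i) x * S.G i)
      (Ψ' := fun y => Φ₀ * Gs * U * dg (fun j => Real.exp (∫ t in x₀..y, f j t)) * Uᴴ)
      ?_ ?_ ?_ ?_ ?_ ?_ ?_ ?_ ?_ ?_ x hx
    · exact Eventually.of_forall fun i => (E24_Psi_cont S i).continuousOn
    · filter_upwards [hRL] with i hi
      exact (S.ric i).contF.mono (hsub i hi)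
    · filter_upwards [hRL] with i hi
      exact E24_dErr_cont S i (hsub i hi)
    · exact Eventually.of_forall fun i y _ => E24_Psi_deriv S i y
    · filter_upwards [hRL] with i hi y hy
      exact E24_adm_bound S i (hsub i hi hy)
    · exact hFlim L hx₀
    · exact hF'c
    · exact E24_derr S hL
    · intro y
      have h1 := E24_hasDerivAt (Φ₀ * Gs * U) Uᴴ (x := y) (fun j => hgd j y)
      have e : Φ₀ * Gs * U * dg (fun j => Real.exp (∫ t in x₀..y, f j t)) * Uᴴ * F' y =
          Φ₀ * Gs * U * dg (fun j => f j y * Real.exp (∫ t in x₀..y, f j t)) * Uᴴ := by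
        have e1 : dg (fun j => Real.exp (∫ t in x₀..y, f j t)) * dg (fun j => f j y) =
            dg (fun j => f j y * Real.exp (∫ t in x₀..y, f j t)) := by
          unfold dg
          rw [Matrix.diagonal_mul_diagonal]
          congr 1
          funext j
          push_cast
          ring
        rw [hF', ← e1]
        calc _ = Φ₀ * Gs * U * dg (fun j => Real.exp (∫ t in x₀..y, f j t)) * (Uᴴ * U) *
              dg (fun j => f j y) * Uᴴ := by simp only [Matrix.mul_assoc]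
          _ = _ := by rw [hU, Matrix.mul_one]; simp only [Matrix.mul_assoc]
      rw [← e] at h1
      exact h1
    · have e : Φ₀ * Gs * U * dg (fun j => Real.exp (∫ t in x₀..x₀, f j t)) * Uᴴ = Φ₀ * Gs := by
        have e1 : dg (fun j => Real.exp (∫ t in x₀..x₀, f j t)) = (1 : Mt N) := by
          unfold dg
          simp
        rw [e1, Matrix.mul_one, Matrix.mul_assoc, hU', Matrix.mul_one]
      show Tendsto (fun i => Phi (S.φ i) x₀ * S.G i) atTop
        (𝓝 (Φ₀ * Gs * U * dg (fun j => Real.exp (∫ t in x₀..x₀, f j t)) * Uᴴ))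
      rw [e]
      exact E24_mul_tendsto h.Φ h.G

end Crest.Agent.LT
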