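import Crest.Agent.LTE_Defs
import Crest.Agent.LTE_E22
import Crest.Agent.LTE_E23
import Crest.Agent.LTE_E24
import Crest.Agent.LT_T43
/-!
Task LTE-E25: non-vanishing. If `Φ₀ Gs = 0` then `Ψ_i(x) → 0` for all `x` (LTE-E24), so
`∫_{-L}^L w₀ ‖P_i‖ → 0` (dominated, `P_i` bounded by `fam_bound`), while `∫_{|x|>L} w₀ tr P_i ≤ sup_{|x|>L} w₀ · N C₀²` is small:
contradiction with `fam_lower`. (`sch s P ≤ tr P`: `schatten_le_tr`; `∫ tr P_i = tr G²`.)
-/

set_option autoImplicit false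

namespace Crest.Agent.LT

open MeasureTheory Matrix Set Filter
open Crest.MathPhysics.LiebThirring
open scoped ComplexOrder Topology

theorem E25_entry {N : ℕ} {A : Mt N} (hA : A.PosSemidef) {C : ℝ}
    (hC : (((C : ℝ) : ℂ) • (1 : Mt N) - A).PosSemidef) (k l : Fin N) : ‖A k l‖ ≤ C := by
  have hdiag : ∀ i, (A i i).re ≤ C := by
    intro i
    have h := hC.diag_nonneg (i := i)
    rw [Complex.le_def] at h
    have := h.1
    simp only [Matrix.sub_apply, Matrix.smul_apply, Matrix.one_apply_eq, smul_eq_mul, mul_one,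
      Complex.sub_re, Complex.ofReal_re, Complex.zero_re] at this
    linarith
  obtain ⟨n, v, hv⟩ := (Matrix.posSemidef_iff_eq_sum_vecMulVec).1 hA
  have hent : ∀ i j, A i j = ∑ a, v a i * star (v a j) := by
    intro i j
    rw [hv]
    simp [Matrix.sum_apply, Matrix.vecMulVec_apply]
  have hd : ∀ i, (A i i).re = ∑ a, ‖v a i‖ ^ 2 := by
    intro i
    rw [hent i i, Complex.re_sum]
    refine Finset.sum_congr rfl fun a _ => ?_
    have : v a i * star (v a i) = ((‖v a i‖ ^ 2 : ℝ) : ℂ) := by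
      have := Complex.mul_conj' (v a i)
      rw [← starRingEnd_apply, this]
      push_cast
      rfl
    rw [this, Complex.ofReal_re]
  have h1 : ‖A k l‖ ≤ ∑ a, (‖v a k‖ ^ 2 + ‖v a l‖ ^ 2) / 2 := by
    rw [hent k l]
    refine (norm_sum_le _ _).trans (Finset.sum_le_sum fun a _ => ?_)
    rw [norm_mul, norm_star]
    nlinarith [sq_nonneg (‖v a k‖ - ‖v a l‖)]
  rw [← Finset.sum_div, Finset.sum_add_distrib, ← hd k, ← hd l] at h1
  linarith [hdiag k, hdiag l]

theorem E25_hs2_mul_le {m N : ℕ} (A : Matrix (Fin m) (Fin N) ℂ) (G : Mt N) {C : ℝ} (hC : 0 ≤ C)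
    (h : ∀ k l, ‖G k l‖ ≤ C) : hs2 (A * G) ≤ (N : ℝ) ^ 2 * C ^ 2 * hs2 A := by
  unfold hs2
  rw [Finset.mul_sum]
  refine Finset.sum_le_sum fun a _ => ?_
  have h1 : ∀ l ∈ (Finset.univ : Finset (Fin N)),
      ‖(A * G) a l‖ ^ 2 ≤ (N : ℝ) * C ^ 2 * ∑ k, ‖A a k‖ ^ 2 := by
    intro l _
    have h2 : ‖(A * G) a l‖ ≤ ∑ k, ‖A a k‖ * C := by
      rw [Matrix.mul_apply]
      refine (norm_sum_le _ _).trans (Finset.sum_le_sum fun k _ => ?_)
      rw [norm_mul]
      exact mul_le_mul_of_nonneg_left (h k l) (norm_nonneg _)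
    rw [← Finset.sum_mul] at h2
    have h3 : (∑ k : Fin N, ‖A a k‖) ^ 2 ≤ (N : ℝ) * ∑ k, ‖A a k‖ ^ 2 := by
      have := sq_sum_le_card_mul_sum_sq (s := (Finset.univ : Finset (Fin N))) (f := fun k => ‖A a k‖)
      simpa using this
    have h4 : ‖(A * G) a l‖ ^ 2 ≤ ((∑ k : Fin N, ‖A a k‖) * C) ^ 2 :=
      pow_le_pow_left₀ (norm_nonneg _) h2 2
    calc ‖(A * G) a l‖ ^ 2 ≤ ((∑ k : Fin N, ‖A a k‖) * C) ^ 2 := h4
      _ = (∑ k : Fin N, ‖A a k‖) ^ 2 * C ^ 2 := by ring
      _ ≤ ((N : ℝ) * ∑ k, ‖A a k‖ ^ 2) * C ^ 2 :=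
          mul_le_mul_of_nonneg_right h3 (sq_nonneg C)
      _ = (N : ℝ) * C ^ 2 * ∑ k, ‖A a k‖ ^ 2 := by ring
  refine (Finset.sum_le_sum h1).trans (le_of_eq ?_)
  rw [Finset.sum_const, Finset.card_univ, Fintype.card_fin, nsmul_eq_mul]
  ring

theorem E25_hs2_Phi {m N : ℕ} (φ : Fin N → ℝ → Vec m) (x : ℝ) :
    hs2 (Phi φ x) = ∑ k, ‖φ k x‖ ^ 2 := by
  unfold hs2
  rw [Finset.sum_comm]
  refine Finset.sum_congr rfl fun k _ => ?_
  rw [EuclideanSpace.norm_sq_eq]
  rfl

theorem E25_norm_sq_integral {m N : ℕ} {φ : Fin N → ℝ → Vec m} (hφ : IsTrialFamily φ) (k : Fin N) :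
    Integrable (fun x => ‖φ k x‖ ^ 2) ∧ ∫ x, ‖φ k x‖ ^ 2 = 1 := by
  have hc : Continuous (φ k) := (hφ.1 k).continuous
  have hcs : HasCompactSupport (fun x => ‖φ k x‖ ^ 2) := by
    refine HasCompactSupport.mono (hφ.2.1 k) ?_
    intro x hx
    rw [Function.mem_support] at hx ⊢
    intro h0
    apply hx
    simp [h0]
  have hint : Integrable (fun x => ‖φ k x‖ ^ 2) :=
    (hc.norm.pow 2).integrable_of_hasCompactSupport hcs
  refine ⟨hint, ?_⟩
  have h1 := hφ.2.2 k k
  rw [if_pos rfl] at h1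
  have h2 : (fun x => inner ℂ (φ k x) (φ k x)) = fun x => (((‖φ k x‖ ^ 2 : ℝ)) : ℂ) := by
    funext x
    rw [inner_self_eq_norm_sq_to_K]
    push_cast
    rfl
  rw [h2, integral_complex_ofReal] at h1
  exact_mod_cast h1

theorem famConv_ne_zero {m N : ℕ} {γ : ℝ} (hγ : 1 / 2 < γ) (hγ' : γ < 3 / 2)
    {W : ℝ → Matrix (Fin m) (Fin m) ℂ} (hW : ∀ i j, Measurable fun x => W x i j)
    (hWp : ∀ x, (W x).PosSemidef) (hWi : Integrable fun x => tracePow (W x) (γ + 1 / 2))
    {B : ℝ} (hB0 : 0 ≤ B) (hB : ∀ᵐ x : ℝ, wzero W γ x ≤ B)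
    (hdec : ∀ ε : ℝ, 0 < ε → ∃ L : ℝ, ∀ᵐ x : ℝ, L ≤ |x| → wzero W γ x ≤ ε) (hN : 0 < N)
    {S : FamSeq m N γ W} {x₀ : ℝ} {Ks F₀ Gs : Mt N} {Φ₀ : Matrix (Fin m) (Fin N) ℂ}
    (h : FamConv S x₀ Ks F₀ Gs Φ₀) : Φ₀ * Gs ≠ 0 := by
  intro hzero
  -- basic facts on `G`
  have hGpsd : ∀ i, (S.G i).PosSemidef := by
    intro i
    have h1 := (S.Glower i).add ((Matrix.PosSemidef.one (n := Fin N) (R := ℂ)).smul
      (show (0 : ℂ) ≤ ((S.c₀ : ℝ) : ℂ) by exact_mod_cast S.c₀pos.le))
    simpa using h1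
  have hC0 : 0 ≤ S.C₀ := by
    have := E25_entry (hGpsd 0) (S.Gupper 0) ⟨0, hN⟩ ⟨0, hN⟩
    exact (norm_nonneg _).trans this
  set t : ℕ → ℝ → ℝ := fun i x => hs2 (Phi (S.φ i) x * S.G i) with ht
  set C1 : ℝ := (N : ℝ) ^ 2 * S.C₀ ^ 2 with hC1
  have hC1n : 0 ≤ C1 := by positivity
  have htn : ∀ i x, 0 ≤ t i x := by
    intro i x
    simp only [ht, hs2]
    positivity
  have ht1 : ∀ i x, t i x ≤ C1 * ∑ k, ‖S.φ i k x‖ ^ 2 := by
    intro i x
    have := E25_hs2_mul_le (Phi (S.φ i) x) (S.G i) hC0 (E25_entry (hGpsd i) (S.Gupper i))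
    rwa [E25_hs2_Phi] at this
  have htcont : ∀ i, Continuous (t i) := by
    intro i
    refine E17_continuous_hs2.comp ?_
    refine Continuous.matrix_mul ?_ continuous_const
    refine continuous_pi fun a => continuous_pi fun k => ?_
    exact T40_phi_cont (S.trial i) a k
  have hsumint : ∀ i, Integrable (fun x => C1 * ∑ k, ‖S.φ i k x‖ ^ 2) := fun i =>
    (integrable_finsetSum _ fun k _ => (E25_norm_sq_integral (S.trial i) k).1).const_mul _
  have htint : ∀ i, Integrable (t i) := by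
    intro i
    refine Integrable.mono' (hsumint i) (htcont i).aestronglyMeasurable
      (Eventually.of_forall fun x => ?_)
    rw [Real.norm_of_nonneg (htn i x)]
    exact ht1 i x
  have htot : ∀ i, ∫ x, t i x ≤ C1 * N := by
    intro i
    refine (integral_mono (htint i) (hsumint i) (fun x => ht1 i x)).trans (le_of_eq ?_)
    rw [integral_const_mul, integral_finsetSum _ fun k _ => (E25_norm_sq_integral (S.trial i) k).1]
    simp [(fun k => (E25_norm_sq_integral (S.trial i) k).2)]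
  set D : ℝ := C1 * (N * (2 * Real.sqrt B)) with hD
  have htD : ∀ i x, t i x ≤ D := by
    intro i x
    refine (ht1 i x).trans (mul_le_mul_of_nonneg_left ?_ hC1n)
    have : ∑ k, ‖S.φ i k x‖ ^ 2 ≤ ∑ _k : Fin N, 2 * Real.sqrt B :=
      Finset.sum_le_sum fun k _ =>
        (fam_bound hγ hγ' hW hWp hWi hB0 hB (S.trial i) (S.energy i) k).2 x
    simpa using this
  -- pointwise convergence to zero
  obtain ⟨U, k, f, -, -, -, -, -, -, -, -, hflow⟩ := famConv_flow hγ hγ' hW hWp hWi h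
  have htlim : ∀ x, Tendsto (fun i => t i x) atTop (𝓝 0) := by
    intro x
    have h1 := hflow x
    rw [hzero] at h1
    simp only [Matrix.zero_mul] at h1
    have h2 := (E17_continuous_hs2 (m := m) (N := N)).tendsto 0
    have h3 := h2.comp h1
    have h4 : hs2 (0 : Matrix (Fin m) (Fin N) ℂ) = 0 := by simp [hs2]
    rw [h4] at h3
    exact h3
  -- the constants
  set c : ℝ := S.c₀ ^ 2 * S.κ₀ ^ 2 with hc
  have hcpos : 0 < c := by
    have h1 := S.c₀pos
    have h2 := S.κ₀pos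
    positivity
  set M : ℝ := C1 * N with hM
  have hMn : 0 ≤ M := by positivity
  set ε : ℝ := c / (4 * (M + 1)) with hε
  have hεpos : 0 < ε := by positivity
  obtain ⟨L, hL⟩ := hdec ε hεpos
  -- the integral over `(-L, L)` tends to zero
  have hJ : Tendsto (fun i => ∫ x in Ioo (-L) L, t i x) atTop (𝓝 0) := by
    have h0 : (0 : ℝ) = ∫ x in Ioo (-L) L, (0 : ℝ) := by simp
    rw [h0]
    refine tendsto_integral_of_dominated_convergence (fun _ => D)
      (fun i => (htcont i).aestronglyMeasurable) ?_ ?_ ?_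
    · exact integrableOn_const (by simp) (by simp)
    · intro i
      refine Eventually.of_forall fun x => ?_
      rw [Real.norm_of_nonneg (htn i x)]
      exact htD i x
    · exact Eventually.of_forall fun x => htlim x
  -- the main inequality
  have hs1 : (1 : ℝ) ≤ 1 / (γ - 1 / 2) + 1 := by
    have : 0 < 1 / (γ - 1 / 2) := by
      apply one_div_pos.mpr
      linarith
    linarith
  have hmain : ∀ i, c ≤ B * (∫ x in Ioo (-L) L, t i x) + ε * M := by
    intro i
    refine (fam_lower hγ hγ' hW hWp hWi hN S i).trans ?_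
    have hRi : 0 < S.R i := (S.ric i).hR
    rw [intervalIntegral.integral_of_le (by linarith)]
    set g : ℝ → ℝ := fun x => (Ioo (-L) L).indicator (fun x => B * t i x) x + ε * t i x with hg
    have hgint : Integrable g :=
      (((htint i).const_mul B).indicator measurableSet_Ioo).add ((htint i).const_mul ε)
    have hgn : ∀ x, 0 ≤ g x := by
      intro x
      have h1 : 0 ≤ (Ioo (-L) L).indicator (fun x => B * t i x) x :=
        indicator_nonneg (fun y _ => mul_nonneg hB0 (htn i y)) x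
      have h2 : 0 ≤ ε * t i x := mul_nonneg hεpos.le (htn i x)
      simp only [hg]
      linarith
    have hPp : ∀ x, (Pmat (S.φ i) (S.G i) x).PosSemidef := fun x =>
      Matrix.posSemidef_conjTranspose_mul_self _
    have hw0 : ∀ x, 0 ≤ wzero W γ x := fun x =>
      Real.rpow_nonneg (T40_tracePow_nonneg (hWp x) _) _
    have hsch0 : ∀ x, 0 ≤ sch (1 / (γ - 1 / 2) + 1) (Pmat (S.φ i) (S.G i) x) := by
      intro x
      unfold sch
      rw [tr_cfc (hPp x).1]
      exact Real.rpow_nonneg (T43_S_nonneg (hPp x)) _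
    have hsch1 : ∀ x, sch (1 / (γ - 1 / 2) + 1) (Pmat (S.φ i) (S.G i) x) ≤ t i x := by
      intro x
      have h1 := schatten_le_tr hs1 (hPp x)
      have h2 : tr (Pmat (S.φ i) (S.G i) x) = t i x := by
        simp only [ht]
        rw [T40_hs2]
        rfl
      unfold sch
      rwa [h2] at h1
    have hle : (fun x => wzero W γ x * sch (1 / (γ - 1 / 2) + 1) (Pmat (S.φ i) (S.G i) x))
        ≤ᵐ[volume.restrict (Ioc (-(S.R i)) (S.R i))] g := by
      refine ae_restrict_of_ae ?_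
      filter_upwards [hB, hL] with x hx1 hx2
      have h3 : wzero W γ x * sch (1 / (γ - 1 / 2) + 1) (Pmat (S.φ i) (S.G i) x) ≤
          wzero W γ x * t i x := mul_le_mul_of_nonneg_left (hsch1 x) (hw0 x)
      refine h3.trans ?_
      simp only [hg]
      by_cases hxL : x ∈ Ioo (-L) L
      · rw [indicator_of_mem hxL]
        have h4 : wzero W γ x * t i x ≤ B * t i x := mul_le_mul_of_nonneg_right hx1 (htn i x)
        have h5 : 0 ≤ ε * t i x := mul_nonneg hεpos.le (htn i x)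
        linarith
      · rw [indicator_of_notMem hxL, zero_add]
        have h6 : L ≤ |x| := by
          by_contra hcon
          exact hxL (by simpa [abs_lt] using not_le.mp hcon)
        exact mul_le_mul_of_nonneg_right (hx2 h6) (htn i x)
    have h7 : ∫ x in Ioc (-(S.R i)) (S.R i),
        wzero W γ x * sch (1 / (γ - 1 / 2) + 1) (Pmat (S.φ i) (S.G i) x) ≤
        ∫ x in Ioc (-(S.R i)) (S.R i), g x :=
      integral_mono_of_nonneg
        (Eventually.of_forall fun x => mul_nonneg (hw0 x) (hsch0 x)) hgint.integrableOn hle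
    have h8 : ∫ x in Ioc (-(S.R i)) (S.R i), g x ≤ ∫ x, g x :=
      setIntegral_le_integral hgint (Eventually.of_forall hgn)
    have h9 : ∫ x, g x = B * (∫ x in Ioo (-L) L, t i x) + ε * ∫ x, t i x := by
      have ha := integral_add (((htint i).const_mul B).indicator (measurableSet_Ioo (a := -L) (b := L)))
        ((htint i).const_mul ε)
      simp only [hg]
      rw [ha, integral_indicator measurableSet_Ioo, integral_const_mul, integral_const_mul]
    have h10 : ε * ∫ x, t i x ≤ ε * M := mul_le_mul_of_nonneg_left (htot i) hεpos.le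
    linarith
  have hlim2 : Tendsto (fun i => B * (∫ x in Ioo (-L) L, t i x) + ε * M) atTop (𝓝 (B * 0 + ε * M)) :=
    (hJ.const_mul B).add tendsto_const_nhds
  have hfin : c ≤ B * 0 + ε * M := ge_of_tendsto hlim2 (Eventually.of_forall hmain)
  have hεM : ε * M ≤ c / 4 := by
    rw [hε, div_mul_eq_mul_div, div_le_div_iff₀ (by positivity) (by norm_num)]
    nlinarith
  linarith

end Crest.Agent.LT
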