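import Crest.Agent.LTE_Defs
import Crest.Agent.LTE_E24
import Crest.Agent.LTE_E25
import Crest.Agent.LTE_E06
import Crest.Agent.LTE_E10
import Crest.Agent.LT_T01
import Crest.Agent.LT_T02
import Crest.Agent.LT_T35
import Crest.Agent.LT_T43
import Crest.Agent.LT_T44
import Crest.Agent.LT_T46
import Crest.Agent.LT_T47
/-!
Task LTE-E26: the limit identities. In the basis `U`: `Ψ x = Φ₀ Gs U diag(g_j(x))`, `g_j = exp ∫_{x₀}^x f_j`,
`P = Ψ^*Ψ`, `v_j = (1/α+1)(k_j² - f_j²)`. a.e. `x`: `V_i → U diag(v) U^*` (vErr → 0), `w^p - tr V^p → 0`, `w → w₀` give (1);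
`VK r (w_i x) δ_i P_i → (w₀/(tr P^{r+1})^{r/(r+1)}) P^r` (`P ≠ 0`) gives (2); `∫ hErr → 0`, `hErr ≥ 0` and Fatou on windows give
(3). Everything is conjugated by `U`.
-/

set_option autoImplicit false

namespace Crest.Agent.LT

open MeasureTheory Matrix Set Filter
open Crest.MathPhysics.LiebThirring
open scoped ComplexOrder Topology

/-- continuity of `cfc (t^s)` along sequences of PSD matrices -/
theorem E26_tendsto_cfc {N : ℕ} {s : ℝ} (hs : 0 ≤ s) {A : ℕ → Mt N} {B : Mt N}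
    (hA : ∀ i, (A i).PosSemidef) (hB : B.PosSemidef) (h : Tendsto A atTop (𝓝 B)) :
    Tendsto (fun i => cfc (fun t : ℝ => t ^ s) (A i)) atTop (𝓝 (cfc (fun t : ℝ => t ^ s) B)) := by
  have hc : ContinuousOn (fun X : Mt N => cfc (fun t : ℝ => t ^ s) X) {X | X.PosSemidef} := by
    refine continuousOn_cfc_param (X := Mt N) (s := {X | X.PosSemidef}) (A := fun X => X)
      (f := fun _ t => t ^ s) (t := univ) continuousOn_id (fun X hX => hX.1) isOpen_univ ?_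
      (fun _ _ => subset_univ _)
    exact ((Real.continuous_rpow_const hs).comp continuous_snd).continuousOn
  exact (hc B hB).tendsto.comp (tendsto_nhdsWithin_iff.2 ⟨h, Eventually.of_forall hA⟩)

/-- unitary covariance of the functional calculus -/
theorem E26_cfc_conj {N : ℕ} {U A : Mt N} (hU : Uᴴ * U = 1) (hU' : U * Uᴴ = 1)
    (hA : A.IsHermitian) (f : ℝ → ℝ) : cfc f (U * A * Uᴴ) = U * cfc f A * Uᴴ := by
  have hmem : U ∈ unitary (Mt N) := Unitary.mem_iff.2 ⟨hU, hU'⟩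
  have hsa : IsSelfAdjoint A := hA
  have h := StarAlgHomClass.map_cfc (S := ℂ) (p := IsSelfAdjoint) (q := IsSelfAdjoint)
    (Unitary.conjStarAlgAut ℂ (Mt N) ⟨U, hmem⟩) f A (T46_cont A f) (by
      show Continuous fun x : Mt N => U * x * star U
      fun_prop) hsa (by
      have : IsSelfAdjoint (U * A * star U) := by
        rw [isSelfAdjoint_iff, star_mul, star_mul, star_star, hsa.star_eq, mul_assoc]
      exact this)
  exact h.symm

theorem E26_tr_conj {N : ℕ} {U A : Mt N} (hU : Uᴴ * U = 1) : tr (U * A * Uᴴ) = tr A := by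
  rw [T35_tr_comm, ← mul_assoc, hU, one_mul]

theorem E26_hs2_eq_zero {m N : ℕ} {A : Matrix (Fin m) (Fin N) ℂ} (h : hs2 A = 0) : A = 0 := by
  unfold hs2 at h
  ext i j
  have h1 := (Finset.sum_eq_zero_iff_of_nonneg (fun i _ =>
    Finset.sum_nonneg fun j _ => by positivity)).1 h i (Finset.mem_univ i)
  have h2 := (Finset.sum_eq_zero_iff_of_nonneg (fun j _ => by positivity)).1 h1 j
    (Finset.mem_univ j)
  simpa using h2

theorem E26_hs2_nonneg {m N : ℕ} (A : Matrix (Fin m) (Fin N) ℂ) : 0 ≤ hs2 A :=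
  Finset.sum_nonneg fun _ _ => Finset.sum_nonneg fun _ _ => by positivity

theorem E26_tr_pos {N : ℕ} {s : ℝ} {P : Mt N} (hP : P.PosSemidef) (hP0 : P ≠ 0) :
    0 < tr (cfc (fun t : ℝ => t ^ s) P) := by
  rw [tr_cfc hP.1]
  have h0 : ∀ i ∈ Finset.univ, 0 ≤ hP.1.eigenvalues i ^ s := fun i _ =>
    Real.rpow_nonneg (hP.eigenvalues_nonneg i) s
  rcases (Finset.sum_nonneg h0).lt_or_eq with h | h
  · exact h
  · exfalso
    apply hP0
    rw [← hP.1.eigenvalues_eq_zero_iff]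
    funext i
    have h2 := (Finset.sum_eq_zero_iff_of_nonneg h0).1 h.symm i (Finset.mem_univ i)
    by_contra hne
    have h3 : 0 < hP.1.eigenvalues i := lt_of_le_of_ne (hP.eigenvalues_nonneg i) (Ne.symm hne)
    exact (Real.rpow_pos_of_pos h3 s).ne' h2

/-- convergence of the potentials -/
theorem E26_tendsto_VK {N : ℕ} {r : ℝ} (hr : 1 ≤ r) {P : ℕ → Mt N} {Q : Mt N}
    (hP : ∀ i, (P i).PosSemidef) (hQ : Q.PosSemidef) (hQ0 : Q ≠ 0) (h : Tendsto P atTop (𝓝 Q))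
    {w δ : ℕ → ℝ} {w₀ : ℝ} (hw : Tendsto w atTop (𝓝 w₀)) (hδ : Tendsto δ atTop (𝓝 0)) :
    Tendsto (fun i => VK r (w i) (δ i) (P i)) atTop (𝓝 (VK r w₀ 0 Q)) := by
  have h1 := E26_tendsto_cfc (s := r) (by linarith) hP hQ h
  have h2 := E26_tendsto_cfc (s := r + 1) (by linarith) hP hQ h
  have h3 : Tendsto (fun i => tr (cfc (fun t : ℝ => t ^ (r + 1)) (P i))) atTop
      (𝓝 (tr (cfc (fun t : ℝ => t ^ (r + 1)) Q))) :=
    (T35_continuous_tr.tendsto _).comp h2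
  have hpos : 0 < tr (cfc (fun t : ℝ => t ^ (r + 1)) Q) := E26_tr_pos hQ hQ0
  have h4 : Tendsto (fun i => (tr (cfc (fun t : ℝ => t ^ (r + 1)) (P i))) ^ (r / (r + 1)) + δ i)
      atTop (𝓝 ((tr (cfc (fun t : ℝ => t ^ (r + 1)) Q)) ^ (r / (r + 1)) + 0)) :=
    (h3.rpow_const (Or.inl hpos.ne')).add hδ
  have hne : (tr (cfc (fun t : ℝ => t ^ (r + 1)) Q)) ^ (r / (r + 1)) + 0 ≠ 0 := by
    rw [add_zero]
    exact (Real.rpow_pos_of_pos hpos _).ne'
  have h5 := hw.div h4 hne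
  unfold VK
  exact ((Complex.continuous_ofReal.tendsto _).comp h5).smul h1

theorem E26_VK_conj {N : ℕ} {U P : Mt N} (hU : Uᴴ * U = 1) (hU' : U * Uᴴ = 1)
    (hP : P.IsHermitian) (r w δ : ℝ) : VK r w δ (U * P * Uᴴ) = U * VK r w δ P * Uᴴ := by
  unfold VK
  rw [E26_cfc_conj hU hU' hP, E26_cfc_conj hU hU' hP, E26_tr_conj hU]
  simp only [Matrix.mul_smul, Matrix.smul_mul]

theorem E26_dg_mul {N : ℕ} (a b : Fin N → ℝ) : dg a * dg b = dg fun j => a j * b j := by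
  unfold dg
  rw [diagonal_mul_diagonal]
  congr 1
  funext j
  push_cast
  rfl

theorem E26_dg_ct {N : ℕ} (a : Fin N → ℝ) : (dg a)ᴴ = dg a := T46_diag_herm a

/-- Fatou on a window -/
theorem E26_fatou {L : ℝ} {h : ℕ → ℝ → ℝ} {H : ℝ → ℝ} (R : ℕ → ℝ) (hR : Tendsto R atTop atTop)
    (hL : 0 ≤ L)
    (h0 : ∀ i x, 0 ≤ h i x) (hi : ∀ i a b, IntervalIntegrable (h i) volume a b)
    (hlim : ∀ x, Tendsto (fun i => h i x) atTop (𝓝 (H x)))
    (hint : Tendsto (fun i => ∫ x in (-(R i))..(R i), h i x) atTop (𝓝 0)) :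
    ∀ᵐ x ∂(volume.restrict (Ioc (-L) L)), H x = 0 := by
  have hm : ∀ i, AEMeasurable (h i) (volume.restrict (Ioc (-L) L)) := fun i =>
    ((intervalIntegrable_iff_integrableOn_Ioc_of_le (by linarith)).1
      (hi i (-L) L)).aestronglyMeasurable.aemeasurable
  have hH0 : ∀ x, 0 ≤ H x := fun x => ge_of_tendsto' (hlim x) fun i => h0 i x
  have hHm : AEMeasurable H (volume.restrict (Ioc (-L) L)) :=
    aemeasurable_of_tendsto_metrizable_ae atTop hm (Eventually.of_forall hlim)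
  have key : ∀ i, ∫⁻ x in Ioc (-L) L, ENNReal.ofReal (h i x) =
      ENNReal.ofReal (∫ x in (-L)..L, h i x) := by
    intro i
    rw [intervalIntegral.integral_of_le (by linarith), ofReal_integral_eq_lintegral_ofReal]
    · exact (intervalIntegrable_iff_integrableOn_Ioc_of_le (by linarith)).1 (hi i (-L) L)
    · exact Eventually.of_forall fun x => h0 i x
  have hle : ∀ᶠ i in atTop, (∫ x in (-L)..L, h i x) ≤ ∫ x in (-(R i))..(R i), h i x := by
    filter_upwards [hR.eventually_ge_atTop L] with i hLi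
    exact intervalIntegral.integral_mono_interval (by linarith) (by linarith) hLi
      (Eventually.of_forall fun x => h0 i x) (hi i _ _)
  have hge : ∀ i, 0 ≤ ∫ x in (-L)..L, h i x := fun i =>
    intervalIntegral.integral_nonneg (by linarith) fun x _ => h0 i x
  have hL0 : Tendsto (fun i => ∫ x in (-L)..L, h i x) atTop (𝓝 0) :=
    tendsto_of_tendsto_of_tendsto_of_le_of_le' tendsto_const_nhds hint
      (Eventually.of_forall hge) hle
  have hfat := lintegral_liminf_le' (μ := volume.restrict (Ioc (-L) L)) (u := atTop)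
    (f := fun i x => ENNReal.ofReal (h i x)) (fun i => (hm i).ennreal_ofReal)
  have e1 : ∀ x, liminf (fun i => ENNReal.ofReal (h i x)) atTop = ENNReal.ofReal (H x) := fun x =>
    ((ENNReal.continuous_ofReal.tendsto _).comp (hlim x)).liminf_eq
  have e2 : liminf (fun i => ∫⁻ x in Ioc (-L) L, ENNReal.ofReal (h i x)) atTop = 0 := by
    simp only [key]
    have := ((ENNReal.continuous_ofReal.tendsto _).comp hL0).liminf_eq
    rw [ENNReal.ofReal_zero] at this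
    exact this
  simp only [e1] at hfat
  rw [e2] at hfat
  have h3 := (lintegral_eq_zero_iff' hHm.ennreal_ofReal).1 (le_antisymm hfat bot_le)
  filter_upwards [h3] with x hx
  have : H x ≤ 0 := by simpa [ENNReal.ofReal_eq_zero] using hx
  exact le_antisymm this (hH0 x)

theorem famConv_limit {m N : ℕ} {γ : ℝ} (hγ : 1 / 2 < γ) (hγ' : γ < 3 / 2)
    {W : ℝ → Matrix (Fin m) (Fin m) ℂ} (hW : ∀ i j, Measurable fun x => W x i j)
    (hWp : ∀ x, (W x).PosSemidef) (hWi : Integrable fun x => tracePow (W x) (γ + 1 / 2))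
    {B : ℝ} (hB0 : 0 ≤ B) (hB : ∀ᵐ x : ℝ, wzero W γ x ≤ B)
    (hdec : ∀ ε : ℝ, 0 < ε → ∃ L : ℝ, ∀ᵐ x : ℝ, L ≤ |x| → wzero W γ x ≤ ε) (hN : 0 < N)
    (S : FamSeq m N γ W) :
    ∃ (k : Fin N → ℝ) (f g : Fin N → ℝ → ℝ) (Ψ₀ : Matrix (Fin m) (Fin N) ℂ), Ψ₀ ≠ 0 ∧
      (∀ j, 0 ≤ k j) ∧ (∀ j x, |f j x| ≤ k j) ∧ (∀ j x, 0 < g j x) ∧
      (∀ j, (∀ x, f j x = k j) ∨ (∀ x, f j x = -k j) ∨
        (0 < k j ∧ ∃ c : ℝ, ∀ x, f j x = -k j * Real.tanh ((1 / (γ - 1 / 2)) * k j * (x - c)))) ∧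
      ∀ᵐ x : ℝ,
        (wzero W γ x) ^ (γ + 1 / 2) =
          ∑ j, ((1 / (γ - 1 / 2) + 1) * (k j ^ 2 - f j x ^ 2)) ^ (γ + 1 / 2) ∧
        dg (fun j => (1 / (γ - 1 / 2) + 1) * (k j ^ 2 - f j x ^ 2)) =
          VK (1 / (γ - 1 / 2)) (wzero W γ x) 0
            ((Ψ₀ * dg (fun j => g j x))ᴴ * (Ψ₀ * dg (fun j => g j x))) ∧
        tr (W x * (Ψ₀ * dg (fun j => g j x) * (Ψ₀ * dg (fun j => g j x))ᴴ)) =
          wzero W γ x * sch (1 / (γ - 1 / 2) + 1)
            ((Ψ₀ * dg (fun j => g j x))ᴴ * (Ψ₀ * dg (fun j => g j x))) := by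
  have hα0 : 0 < γ - 1 / 2 := by linarith
  have hα1 : γ - 1 / 2 < 1 := by linarith
  have hr : 1 ≤ 1 / (γ - 1 / 2) := by
    rw [le_div_iff₀ hα0]; linarith
  obtain ⟨θ, hθ, x₀, Ks, F₀, Gs, Φ₀, hc⟩ := famSeq_conv hγ hγ' hW hWp hWi hB0 hB S
  set T := S.sub θ hθ with hT
  obtain ⟨U, k, f, hU, hU', hk0, hKs, hfc, hfk, hform, hF, hΨ⟩ :=
    famConv_flow hγ hγ' hW hWp hWi hc
  have hne := famConv_ne_zero hγ hγ' hW hWp hWi hB0 hB hdec hN hc
  set g : Fin N → ℝ → ℝ := fun j x => Real.exp (∫ t in x₀..x, f j t) with hg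
  set Ψ₀ : Matrix (Fin m) (Fin N) ℂ := Φ₀ * Gs * U with hΨ₀
  have hΨ₀ne : Ψ₀ ≠ 0 := by
    intro h0
    apply hne
    calc Φ₀ * Gs = Φ₀ * Gs * (U * Uᴴ) := by rw [hU', Matrix.mul_one]
      _ = Ψ₀ * Uᴴ := by rw [hΨ₀, Matrix.mul_assoc (Φ₀ * Gs)]
      _ = 0 := by rw [h0, Matrix.zero_mul]
  have hgpos : ∀ j x, 0 < g j x := fun j x => Real.exp_pos _
  set Ψ : ℝ → Matrix (Fin m) (Fin N) ℂ := fun x => Ψ₀ * dg (fun j => g j x) with hΨdef
  set P : ℝ → Mt N := fun x => (Ψ x)ᴴ * Ψ x with hPdef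
  have hPpsd : ∀ x, (P x).PosSemidef := fun x => Matrix.posSemidef_conjTranspose_mul_self _
  have hΨne : ∀ x, Ψ x ≠ 0 := by
    intro x h0
    apply hΨ₀ne
    have h1 : dg (fun j => g j x) * dg (fun j => (g j x)⁻¹) = (1 : Mt N) := by
      rw [E26_dg_mul]
      unfold dg
      rw [← Matrix.diagonal_one]
      congr 1
      funext j
      show ((g j x * (g j x)⁻¹ : ℝ) : ℂ) = 1
      rw [mul_inv_cancel₀ (hgpos j x).ne']
      simp
    calc Ψ₀ = Ψ₀ * (dg (fun j => g j x) * dg (fun j => (g j x)⁻¹)) := by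
          rw [h1, Matrix.mul_one]
      _ = Ψ x * dg (fun j => (g j x)⁻¹) := by rw [← Matrix.mul_assoc]
      _ = 0 := by rw [h0, Matrix.zero_mul]
  have hPne : ∀ x, P x ≠ 0 := fun x h0 => hΨne x (Matrix.conjTranspose_mul_self_eq_zero.1 h0)
  -- limits
  have hΨlim : ∀ x, Tendsto (fun i => Phi (T.φ i) x * T.G i) atTop (𝓝 (Ψ x * Uᴴ)) := hΨ
  have hPlim : ∀ x, Tendsto (fun i => Pmat (T.φ i) (T.G i) x) atTop (𝓝 (U * P x * Uᴴ)) := by
    intro x
    have hcont : Continuous fun A : Matrix (Fin m) (Fin N) ℂ => Aᴴ * A :=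
      (Continuous.matrix_conjTranspose continuous_id).matrix_mul continuous_id
    have h1 := (hcont.tendsto (Ψ x * Uᴴ)).comp (hΨlim x)
    have e : (Ψ x * Uᴴ)ᴴ * (Ψ x * Uᴴ) = U * P x * Uᴴ := by
      rw [hPdef]
      simp only [conjTranspose_mul, conjTranspose_conjTranspose, Matrix.mul_assoc]
    simp only [e] at h1
    exact h1
  have hUPU : ∀ x, (U * P x * Uᴴ).PosSemidef := fun x => (hPpsd x).mul_mul_conjTranspose_same U
  have hUPUne : ∀ x, U * P x * Uᴴ ≠ 0 := by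
    intro x h0
    apply hPne x
    calc P x = (Uᴴ * U) * P x * (Uᴴ * U) := by rw [hU, Matrix.one_mul, Matrix.mul_one]
      _ = Uᴴ * (U * P x * Uᴴ) * U := by simp only [Matrix.mul_assoc]
      _ = 0 := by rw [h0, Matrix.mul_zero, Matrix.zero_mul]
  -- Fatou part
  set H : ℝ → ℝ := fun x => wzero W γ x * sch (1 / (γ - 1 / 2) + 1) (P x) -
    tr (W x * (Ψ x * (Ψ x)ᴴ)) with hH
  have hHlim : ∀ x, Tendsto (fun i => hErr W γ (T.φ i) (T.G i) x) atTop (𝓝 (H x)) := by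
    intro x
    have h1 := E26_tendsto_cfc (s := 1 / (γ - 1 / 2) + 1) (by linarith)
      (fun i => T44_posSemidef_Pmat (T.φ i) (T.G i) x) (hUPU x) (hPlim x)
    have h2 := (T35_continuous_tr.tendsto _).comp h1
    rw [E26_cfc_conj hU hU' (hPpsd x).1, E26_tr_conj hU] at h2
    have h3 := h2.rpow_const (p := 1 / (1 / (γ - 1 / 2) + 1))
      (Or.inl (E26_tr_pos (hPpsd x) (hPne x)).ne')
    have hcont : Continuous fun A : Matrix (Fin m) (Fin N) ℂ => tr (W x * (A * Aᴴ)) :=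
      T35_continuous_tr.comp (continuous_const.matrix_mul
        (continuous_id.matrix_mul (Continuous.matrix_conjTranspose continuous_id)))
    have h4 := (hcont.tendsto (Ψ x * Uᴴ)).comp (hΨlim x)
    have e : (Ψ x * Uᴴ) * (Ψ x * Uᴴ)ᴴ = Ψ x * (Ψ x)ᴴ := by
      rw [conjTranspose_mul, conjTranspose_conjTranspose]
      calc Ψ x * Uᴴ * (U * (Ψ x)ᴴ) = Ψ x * (Uᴴ * U) * (Ψ x)ᴴ := by simp only [Matrix.mul_assoc]
        _ = Ψ x * (Ψ x)ᴴ := by rw [hU, Matrix.mul_one]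
    simp only [e] at h4
    have h5 := (h3.const_mul (wzero W γ x)).sub h4
    exact h5
  have hHae : ∀ᵐ x : ℝ, H x = 0 := by
    have h1 : ∀ n : ℕ, ∀ᵐ x ∂(volume.restrict (Ioc (-(n : ℝ)) n)), H x = 0 := fun n =>
      E26_fatou T.R T.hR (Nat.cast_nonneg n)
        (fun i x => hErr_nonneg hγ hWp (T.φ i) (T.Gherm i) x)
        (fun i a b => hErr_intervalIntegrable hγ hγ' hW hWp hWi (T.trial i) (T.G i) a b)
        hHlim T.herr
    have h2 : ∀ᵐ x ∂(volume.restrict (⋃ n : ℕ, Ioc (-(n : ℝ)) n)), H x = 0 :=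
      ae_restrict_iUnion_iff _ _ |>.2 h1
    have h3 : (⋃ n : ℕ, Ioc (-(n : ℝ)) n) = univ := by
      refine eq_univ_of_forall fun x => mem_iUnion.2 ?_
      obtain ⟨n, hn⟩ := exists_nat_gt |x|
      exact ⟨n, (abs_lt.1 hn).1, (abs_lt.1 hn).2.le⟩
    rwa [h3, Measure.restrict_univ] at h2
  refine ⟨k, f, g, Ψ₀, hΨ₀ne, hk0, hfk, hgpos, hform, ?_⟩
  filter_upwards [hc.aew, hc.aeerr, hc.aedef, hHae] with x hw herr hdef hHx
  have hVlim : Tendsto (fun i => T.V i x) atTop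
      (𝓝 (U * VK (1 / (γ - 1 / 2)) (wzero W γ x) 0 (P x) * Uᴴ)) := by
    rw [← E26_VK_conj hU hU' (hPpsd x).1]
    exact E26_tendsto_VK hr (fun i => T44_posSemidef_Pmat (T.φ i) (T.G i) x) (hUPU x) (hUPUne x)
      (hPlim x) hw T.hδ
  have hVpsd : ∀ i, (T.V i x).PosSemidef := fun i =>
    VK_posSemidef hr (T.wnonneg i x) (T.δpos i) (T44_posSemidef_Pmat (T.φ i) (T.G i) x)
  -- vErr limit
  set v : Fin N → ℝ := fun j => (1 / (γ - 1 / 2) + 1) * (k j ^ 2 - f j x ^ 2) with hv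
  have hKlim := hc.K
  have hvE : Tendsto (fun i => vErr (γ - 1 / 2) (T.K i) (T.F i x) (T.V i x)) atTop
      (𝓝 (vErr (γ - 1 / 2) Ks (U * dg (fun j => f j x) * Uᴴ)
        (U * VK (1 / (γ - 1 / 2)) (wzero W γ x) 0 (P x) * Uᴴ))) := by
    unfold vErr
    exact hVlim.sub (((hKlim.mul hKlim).sub ((hF x).mul (hF x))).const_smul _)
  have hhs := (T35_continuous_hs2.tendsto _).comp hvE
  have hup : ∀ i, hs2 (vErr (γ - 1 / 2) (T.K i) (T.F i x) (T.V i x)) ≤
      hjErr (γ - 1 / 2) (T.K i) (T.F i x) (T.V i x) * (1 + tr (T.V i x)) := by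
    intro i
    have htr : 0 ≤ tr (T.V i x) := by
      have := (hVpsd i).trace_nonneg
      exact (Complex.le_def.1 this).1
    have h1 : hs2 (vErr (γ - 1 / 2) (T.K i) (T.F i x) (T.V i x)) =
        hs2 (vErr (γ - 1 / 2) (T.K i) (T.F i x) (T.V i x)) / (1 + tr (T.V i x)) *
          (1 + tr (T.V i x)) := by
      field_simp
    rw [h1]
    refine mul_le_mul_of_nonneg_right ?_ (by linarith)
    unfold hjErr
    linarith [E26_hs2_nonneg (T.K i * T.K i * T.F i x - T.F i x * (T.K i * T.K i))]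
  have hzero : hs2 (vErr (γ - 1 / 2) Ks (U * dg (fun j => f j x) * Uᴴ)
        (U * VK (1 / (γ - 1 / 2)) (wzero W γ x) 0 (P x) * Uᴴ)) = 0 := by
    refine le_antisymm ?_ (E26_hs2_nonneg _)
    have h1 : Tendsto (fun i => hjErr (γ - 1 / 2) (T.K i) (T.F i x) (T.V i x) *
        (1 + tr (T.V i x))) atTop (𝓝 (0 * (1 + tr (U * VK (1 / (γ - 1 / 2)) (wzero W γ x) 0 (P x)
          * Uᴴ)))) :=
      herr.mul (((T35_continuous_tr.tendsto _).comp hVlim).const_add 1)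
    rw [zero_mul] at h1
    exact le_of_tendsto_of_tendsto' hhs h1 hup
  have hveq := E26_hs2_eq_zero hzero
  have hdgv : VK (1 / (γ - 1 / 2)) (wzero W γ x) 0 (P x) = dg v := by
    unfold vErr at hveq
    rw [sub_eq_zero, hKs] at hveq
    have e1 : U * dg k * Uᴴ * (U * dg k * Uᴴ) = U * (dg k * dg k) * Uᴴ := by
      calc U * dg k * Uᴴ * (U * dg k * Uᴴ) = U * dg k * (Uᴴ * U) * (dg k * Uᴴ) := by
            simp only [Matrix.mul_assoc]
        _ = U * (dg k * dg k) * Uᴴ := by rw [hU, Matrix.mul_one]; simp only [Matrix.mul_assoc]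
    have e2 : U * dg (fun j => f j x) * Uᴴ * (U * dg (fun j => f j x) * Uᴴ) =
        U * (dg (fun j => f j x) * dg (fun j => f j x)) * Uᴴ := by
      calc U * dg (fun j => f j x) * Uᴴ * (U * dg (fun j => f j x) * Uᴴ) =
            U * dg (fun j => f j x) * (Uᴴ * U) * (dg (fun j => f j x) * Uᴴ) := by
            simp only [Matrix.mul_assoc]
        _ = U * (dg (fun j => f j x) * dg (fun j => f j x)) * Uᴴ := by
            rw [hU, Matrix.mul_one]; simp only [Matrix.mul_assoc]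
    rw [e1, e2, ← Matrix.sub_mul, ← Matrix.mul_sub, E26_dg_mul, E26_dg_mul] at hveq
    have e3 : ((1 / (γ - 1 / 2) + 1 : ℝ) : ℂ) • (U * (dg (fun j => k j * k j) -
        dg (fun j => f j x * f j x)) * Uᴴ) = U * dg v * Uᴴ := by
      rw [← Matrix.smul_mul, ← Matrix.mul_smul]
      congr 2
      unfold dg
      rw [Matrix.diagonal_sub, ← Matrix.diagonal_smul]
      congr 1
      funext j
      simp only [Pi.smul_apply, smul_eq_mul, hv]
      push_cast
      ring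
    rw [e3] at hveq
    have key : ∀ A : Mt N, Uᴴ * (U * A * Uᴴ) * U = A := by
      intro A
      calc Uᴴ * (U * A * Uᴴ) * U = (Uᴴ * U) * A * (Uᴴ * U) := by simp only [Matrix.mul_assoc]
        _ = A := by rw [hU, Matrix.one_mul, Matrix.mul_one]
    rw [← key (VK (1 / (γ - 1 / 2)) (wzero W γ x) 0 (P x)), hveq, key]
  refine ⟨?_, hdgv.symm, ?_⟩
  · -- (1)
    have hvd : (dg v).PosSemidef := by
      unfold dg
      rw [Matrix.posSemidef_diagonal_iff]
      intro j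
      have h1 : f j x ^ 2 ≤ k j ^ 2 := sq_le_sq' (by linarith [(abs_le.1 (hfk j x)).1])
        (abs_le.1 (hfk j x)).2
      have h2 : 0 ≤ v j := mul_nonneg (by linarith) (by linarith)
      exact_mod_cast h2
    have hVpsd' : (U * dg v * Uᴴ).PosSemidef := hvd.mul_mul_conjTranspose_same U
    rw [hdgv] at hVlim
    have h1 := E26_tendsto_cfc (s := γ + 1 / 2) (by linarith) hVpsd hVpsd' hVlim
    have h2 := (T35_continuous_tr.tendsto _).comp h1
    rw [E26_cfc_conj hU hU' hvd.1, E26_tr_conj hU] at h2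
    have e1 : tr (cfc (fun t : ℝ => t ^ (γ + 1 / 2)) (dg v)) = ∑ j, v j ^ (γ + 1 / 2) := by
      unfold dg
      rw [T46_cfc_diag, T46_tr_diag]
    rw [e1] at h2
    have h3 : Tendsto (fun i => (T.w i x) ^ (γ + 1 / 2)) atTop
        (𝓝 ((wzero W γ x) ^ (γ + 1 / 2))) :=
      hw.rpow_const (Or.inr (by linarith))
    have h4 := tendsto_nhds_unique (h3.sub h2) hdef
    linarith
  · -- (3)
    simp only [hH] at hHx
    linarith

end Crest.Agent.LT
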