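import Crest.Agent.LTE_Defs
import Crest.Agent.LT_T41
/-!
Task LTE-E27: equality in the trace Hölder inequality. Normalize; Young's equality case in
`tr_cfc_mul_cfc`: `w_{ij} > 0 → a_i^p/‖a‖^p = b_j^{p'}/‖b‖^{p'}`, so
`hs2 (A/‖A‖_p - (B/‖B‖_{p'})^{p'/p}) = ∑ w_{ij} (a_i/‖a‖ - (b_j/‖b‖)^{p'/p})² = 0`.
-/

set_option autoImplicit false

namespace Crest.Agent.LT

open MeasureTheory Matrix Set Filter
open Crest.MathPhysics.LiebThirring
open scoped ComplexOrder Topology

theorem E27_hs2_eq_zero {m : ℕ} {A B : Mt m} (h : hs2 (A - B) = 0) : A = B := by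
  unfold hs2 at h
  rw [Finset.sum_eq_zero_iff_of_nonneg (fun i _ => Finset.sum_nonneg fun j _ => by positivity)] at h
  ext i j
  have h1 := h i (Finset.mem_univ i)
  rw [Finset.sum_eq_zero_iff_of_nonneg (fun j _ => by positivity)] at h1
  have h2 := h1 j (Finset.mem_univ j)
  have h3 : ‖(A - B) i j‖ = 0 := by
    rcases pow_eq_zero_iff (two_ne_zero) |>.mp h2 with h3
    exact h3
  rw [norm_eq_zero, Matrix.sub_apply, sub_eq_zero] at h3
  exact h3

theorem E27_young {u v p p' : ℝ} (hp : p.HolderConjugate p') (hu : 0 ≤ u) (hv : 0 ≤ v)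
    (h : u * v = u ^ p / p + v ^ p' / p') : u = v ^ (p' - 1) := by
  have h1 := (Real.young_inequality_eq_iff_of_nonneg hu hv hp).mp h
  have hp0 : 0 < p := hp.pos
  have h2 : u = (u ^ p) ^ (1 / p) := by
    rw [← Real.rpow_mul hu, mul_one_div_cancel hp0.ne', Real.rpow_one]
  rw [h2, h1, ← Real.rpow_mul hv]
  congr 1
  rw [mul_one_div]
  exact hp.symm.div_conj_eq_sub_one

theorem trace_holder_eq {m : ℕ} {A B : Mt m} (hA : A.PosSemidef) (hB : B.PosSemidef) (hB0 : B ≠ 0)
    {p p' : ℝ} (hp : p.HolderConjugate p')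
    (h : tr (A * B) = (tracePow A p) ^ (1 / p) * (tracePow B p') ^ (1 / p')) :
    A = (((tracePow A p) ^ (1 / p) / (tracePow B p') ^ (1 / p) : ℝ) : ℂ) •
      cfc (fun t : ℝ => t ^ (p' - 1)) B := by
  have ha : ∀ i, 0 ≤ hA.1.eigenvalues i := hA.eigenvalues_nonneg
  have hb : ∀ i, 0 ≤ hB.1.eigenvalues i := hB.eigenvalues_nonneg
  have hp0 : 0 < p := hp.pos
  have hp0' : 0 < p' := hp.symm.pos
  have hpp : 1 / p + 1 / p' = 1 := by simpa [one_div] using hp.inv_add_inv_eq_one
  have hx : tracePow A p = ∑ i, hA.1.eigenvalues i ^ p := by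
    have : tracePow A p = tr (cfc (fun t : ℝ => t ^ p) A) := rfl
    rw [this, tr_cfc hA.1]
  have hy : tracePow B p' = ∑ i, hB.1.eigenvalues i ^ p' := by
    have : tracePow B p' = tr (cfc (fun t : ℝ => t ^ p') B) := rfl
    rw [this, tr_cfc hB.1]
  obtain ⟨x, hxx⟩ : ∃ x, x = tracePow A p := ⟨_, rfl⟩
  obtain ⟨y, hyy⟩ : ∃ y, y = tracePow B p' := ⟨_, rfl⟩
  rw [← hxx, ← hyy] at h ⊢
  rw [← hxx] at hx
  rw [← hyy] at hy
  have hx0 : 0 ≤ x := by
    rw [hx]; exact Finset.sum_nonneg fun i _ => Real.rpow_nonneg (ha i) _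
  have hy0 : 0 < y := by
    have hne : ∃ j, hB.1.eigenvalues j ≠ 0 := by
      by_contra hcon
      push Not at hcon
      apply hB0
      rw [← hB.1.eigenvalues_eq_zero_iff]
      funext j
      exact hcon j
    obtain ⟨j, hj⟩ := hne
    rw [hy]
    apply Finset.sum_pos' (fun i _ => Real.rpow_nonneg (hb i) _)
    exact ⟨j, Finset.mem_univ j, Real.rpow_pos_of_pos (lt_of_le_of_ne (hb j) (Ne.symm hj)) _⟩
  rcases hx0.eq_or_lt with hx1 | hx1
  · -- `A = 0`
    have hA0 : A = 0 := by
      rw [← hA.1.eigenvalues_eq_zero_iff]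
      funext i
      have h1 : ∑ i, hA.1.eigenvalues i ^ p = 0 := by rw [← hx, ← hx1]
      rw [Finset.sum_eq_zero_iff_of_nonneg (fun i _ => Real.rpow_nonneg (ha i) _)] at h1
      have h2 := h1 i (Finset.mem_univ i)
      rw [Real.rpow_eq_zero_iff_of_nonneg (ha i)] at h2
      exact h2.1
    rw [hA0, ← hx1, Real.zero_rpow (by positivity), zero_div]
    simp
  · set X : ℝ := x ^ (1 / p) with hX
    set Y : ℝ := y ^ (1 / p') with hY
    have hXpos : 0 < X := Real.rpow_pos_of_pos hx1 _
    have hYpos : 0 < Y := Real.rpow_pos_of_pos hy0 _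
    have hXp : X ^ p = x := by
      rw [hX, ← Real.rpow_mul hx1.le, one_div_mul_cancel hp0.ne', Real.rpow_one]
    have hYp : Y ^ p' = y := by
      rw [hY, ← Real.rpow_mul hy0.le, one_div_mul_cancel hp0'.ne', Real.rpow_one]
    have hYc : Y ^ (p' - 1) = y ^ (1 / p) := by
      rw [hY, ← Real.rpow_mul hy0.le]
      congr 1
      have : 1 / p = 1 - 1 / p' := by linarith
      rw [this, mul_sub, one_div_mul_cancel hp0'.ne', mul_one]
    have hw0 := _root_.LT.wt_nonneg hA.1 hB.1
    have hw1 := T01_sum_wt_right hA.1 hB.1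
    have hw2 := T01_sum_wt_left hA.1 hB.1
    set w := _root_.LT.wt hA.1 hB.1 with hw
    set a := hA.1.eigenvalues with haa
    set b := hB.1.eigenvalues with hbb
    have e1 : tr (A * B) = ∑ i, ∑ j, w i j * (a i * b j) := by
      have := T01_tr_mul hA.1 hB.1 (fun x => x) (fun x => x)
      rwa [_root_.LT.cfc_id_eq hA.1, _root_.LT.cfc_id_eq hB.1] at this
    -- the deficits
    set d : Fin m → Fin m → ℝ := fun i j =>
      (a i / X) ^ p / p + (b j / Y) ^ p' / p' - a i / X * (b j / Y) with hd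
    have hd0 : ∀ i j, 0 ≤ d i j := by
      intro i j
      have := Real.young_inequality_of_nonneg (div_nonneg (ha i) hXpos.le)
        (div_nonneg (hb j) hYpos.le) hp
      simp only [hd]
      linarith
    have hsum : ∑ i, ∑ j, w i j * d i j = 0 := by
      have s1 : ∑ i, ∑ j, w i j * ((a i / X) ^ p / p) = 1 / p := by
        have : ∀ i, ∑ j, w i j * ((a i / X) ^ p / p) = a i ^ p * (1 / (x * p)) := by
          intro i
          rw [← Finset.sum_mul, hw1, one_mul, Real.div_rpow (ha i) hXpos.le, hXp]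
          field_simp
        rw [Finset.sum_congr rfl (fun i _ => this i), ← Finset.sum_mul, ← hx]
        field_simp
      have s2 : ∑ i, ∑ j, w i j * ((b j / Y) ^ p' / p') = 1 / p' := by
        rw [Finset.sum_comm]
        have : ∀ j, ∑ i, w i j * ((b j / Y) ^ p' / p') = b j ^ p' * (1 / (y * p')) := by
          intro j
          rw [← Finset.sum_mul, hw2, one_mul, Real.div_rpow (hb j) hYpos.le, hYp]
          field_simp
        rw [Finset.sum_congr rfl (fun j _ => this j), ← Finset.sum_mul, ← hy]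
        field_simp
      have s3 : ∑ i, ∑ j, w i j * (a i / X * (b j / Y)) = 1 := by
        have : ∀ i j, w i j * (a i / X * (b j / Y)) = (w i j * (a i * b j)) * (1 / (X * Y)) := by
          intro i j
          field_simp
        simp_rw [this]
        simp_rw [← Finset.sum_mul]
        rw [← e1, h]
        field_simp
      have s4 : ∀ i j, w i j * d i j = w i j * ((a i / X) ^ p / p) +
          w i j * ((b j / Y) ^ p' / p') - w i j * (a i / X * (b j / Y)) := by
        intro i j
        simp only [hd]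
        ring
      simp_rw [s4, Finset.sum_sub_distrib, Finset.sum_add_distrib]
      rw [s1, s2, s3]
      linarith
    have hzero : ∀ i j, w i j * d i j = 0 := by
      intro i j
      rw [Finset.sum_eq_zero_iff_of_nonneg
        (fun i _ => Finset.sum_nonneg fun j _ => mul_nonneg (hw0 i j) (hd0 i j))] at hsum
      have h1 := hsum i (Finset.mem_univ i)
      rw [Finset.sum_eq_zero_iff_of_nonneg (fun j _ => mul_nonneg (hw0 i j) (hd0 i j))] at h1
      exact h1 j (Finset.mem_univ j)
    obtain ⟨c, hc⟩ : ∃ c : ℝ, c = X / y ^ (1 / p) := ⟨_, rfl⟩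
    have hkey : ∀ i j, w i j * (a i - c * b j ^ (p' - 1)) ^ 2 = 0 := by
      intro i j
      rcases mul_eq_zero.mp (hzero i j) with h1 | h1
      · rw [h1, zero_mul]
      · have h2 : a i / X = (b j / Y) ^ (p' - 1) := by
          apply E27_young hp (div_nonneg (ha i) hXpos.le) (div_nonneg (hb j) hYpos.le)
          simp only [hd] at h1
          linarith
        rw [Real.div_rpow (hb j) hYpos.le, hYc] at h2
        have h3 : a i = c * b j ^ (p' - 1) := by
          rw [hc]
          rw [div_eq_iff hXpos.ne'] at h2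
          rw [h2]
          ring
        rw [h3]
        ring
    have hhs : hs2 (A - cfc (fun t : ℝ => c * t ^ (p' - 1)) B) = 0 := by
      have h1 := T01_hs2_cfc_sub hA.1 hB.1 (fun x => x) (fun t : ℝ => c * t ^ (p' - 1))
      rw [_root_.LT.cfc_id_eq hA.1] at h1
      rw [h1]
      apply Finset.sum_eq_zero
      intro i _
      apply Finset.sum_eq_zero
      intro j _
      exact hkey i j
    have hfin := E27_hs2_eq_zero hhs
    have h5 : cfc (fun t : ℝ => c * t ^ (p' - 1)) B =
        ((c : ℝ) : ℂ) • cfc (fun t : ℝ => t ^ (p' - 1)) B := by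
      rw [cfc_const_mul c (fun t : ℝ => t ^ (p' - 1)) B (_root_.LT.contOn_spec hB.1 _)]
      ext i j
      simp
    rw [← hc]
    exact hfin.trans h5

end Crest.Agent.LT
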