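import Crest.Agent.LTE_Defs
import Crest.Agent.LTE_E15
import Crest.Agent.LTE_E27
import Crest.Agent.LT_Conv2
/-!
Task LTE-E28: final algebra. If all `v_j ≡ 0` then `w₀ = 0` a.e. and `W = 0` a.e. (take `a = 0`). Otherwise `w₀ > 0` a.e.;
pick one good `x`: `diag(v_j)` is a positive multiple of `P^r`, `P_{ij} = ⟨b_i, b_j⟩ g_i g_j` (`b_j` columns of `Ψ₀`), so `P` is
diagonal and the `b_j` are mutually orthogonal, and `b_j ≠ 0 ↔ v_j > 0`. `ΨΨ^* = ∑ g_j² b_j b_j^*`, equality in trace Hölder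
(LTE-E27) gives `W(x) = ∑_{b_j ≠ 0} v_j(x) b̂_j b̂_j^*`, `v_j = soliton (1/α) k_j c_j` (`soliton_of_tanh`). Extend the orthonormal
set `{b̂_j}` to an orthonormal basis of `ℂ^m` (`a_i = 0` for the new vectors).
-/

set_option autoImplicit false

namespace Crest.Agent.LT

open MeasureTheory Matrix Set Filter
open Crest.MathPhysics.LiebThirring
open scoped ComplexOrder Topology

theorem E28_spec_nonneg {N : ℕ} {P : Mt N} (hP : P.PosSemidef) {t : ℝ} (ht : t ∈ spectrum ℝ P) :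
    0 ≤ t := T46_spec_nonneg hP ht

theorem E28_diag_of_rpow {N : ℕ} {P : Mt N} (hP : P.PosSemidef) {r : ℝ} (hr : 0 < r)
    {q : Fin N → ℝ} (h : cfc (fun t : ℝ => t ^ r) P = dg q) :
    P = dg (fun j => q j ^ (1 / r)) := by
  have h1 : cfc (fun t : ℝ => (t ^ r) ^ (1 / r)) P = P := by
    have h2 : cfc (fun t : ℝ => (t ^ r) ^ (1 / r)) P = cfc (fun t : ℝ => t) P := by
      apply cfc_congr
      intro t ht
      have ht0 := E28_spec_nonneg hP ht
      show (t ^ r) ^ (1 / r) = t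
      rw [← Real.rpow_mul ht0, mul_one_div_cancel hr.ne', Real.rpow_one]
    rw [h2]
    exact _root_.LT.cfc_id_eq hP.1
  have h3 : cfc (fun t : ℝ => (t ^ r) ^ (1 / r)) P =
      cfc (fun t : ℝ => t ^ (1 / r)) (cfc (fun t : ℝ => t ^ r) P) := by
    have hsa : IsSelfAdjoint P := hP.1
    exact cfc_comp' (R := ℝ) (fun t : ℝ => t ^ (1 / r)) (fun t : ℝ => t ^ r) P
      (((P.finite_real_spectrum).image _).continuousOn _) (T46_cont P _) hsa
  rw [← h1, h3, h]
  exact T46_cfc_diag q _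

theorem E28_tr_pos {N : ℕ} {P : Mt N} (hP : P.PosSemidef) (h0 : P ≠ 0) (s : ℝ) :
    0 < tr (cfc (fun t : ℝ => t ^ s) P) := by
  rw [tr_cfc hP.1]
  have h1 : hP.1.eigenvalues ≠ 0 := fun h => h0 (hP.1.eigenvalues_eq_zero_iff.1 h)
  obtain ⟨i, hi⟩ := Function.ne_iff.1 h1
  have hi' : 0 < hP.1.eigenvalues i := lt_of_le_of_ne (hP.eigenvalues_nonneg i) (Ne.symm hi)
  exact Finset.sum_pos' (fun j _ => Real.rpow_nonneg (hP.eigenvalues_nonneg j) _)
    ⟨i, Finset.mem_univ _, Real.rpow_pos_of_pos hi' _⟩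

/-- the pointwise consequence of the three identities -/
theorem E28_point {m N : ℕ} {γ : ℝ} (hγ : 1 / 2 < γ)
    {W : Mt m} (hW : W.PosSemidef) {Ψ : Matrix (Fin m) (Fin N) ℂ} (hΨ : Ψ ≠ 0)
    {w : ℝ} (hw : w = (tracePow W (γ + 1 / 2)) ^ (1 / (γ + 1 / 2))) (hw0 : 0 < w)
    {v : Fin N → ℝ} (hv : ∀ j, 0 ≤ v j)
    (h2 : dg v = VK (1 / (γ - 1 / 2)) w 0 (Ψᴴ * Ψ))
    (h3 : tr (W * (Ψ * Ψᴴ)) = w * sch (1 / (γ - 1 / 2) + 1) (Ψᴴ * Ψ)) :
    ∃ (κ : ℝ) (q : Fin N → ℝ), 0 < κ ∧ (∀ j, 0 ≤ q j) ∧ Ψᴴ * Ψ = dg q ∧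
      (∀ j, v j = κ * q j ^ (1 / (γ - 1 / 2))) ∧
      W = ((κ : ℝ) : ℂ) • cfc (fun t : ℝ => t ^ (1 / (γ - 1 / 2))) (Ψ * Ψᴴ) := by
  have hα : 0 < γ - 1 / 2 := by linarith
  have hp : 0 < γ + 1 / 2 := by linarith
  set r : ℝ := 1 / (γ - 1 / 2) with hr
  have hr0 : 0 < r := by positivity
  have hP : (Ψᴴ * Ψ).PosSemidef := posSemidef_conjTranspose_mul_self Ψ
  have hQ : (Ψ * Ψᴴ).PosSemidef := posSemidef_self_mul_conjTranspose Ψ
  have hP0 : Ψᴴ * Ψ ≠ 0 := fun h => hΨ (conjTranspose_mul_self_eq_zero.1 h)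
  have hQ0 : Ψ * Ψᴴ ≠ 0 := fun h => hΨ (self_mul_conjTranspose_eq_zero.1 h)
  set T : ℝ := tr (cfc (fun t : ℝ => t ^ (r + 1)) (Ψᴴ * Ψ)) with hT
  have hT0 : 0 < T := E28_tr_pos hP hP0 _
  have hTQ : tracePow (Ψ * Ψᴴ) (r + 1) = T := tr_rpow_mul_comm Ψ (by linarith)
  have hr1 : r * (γ - 1 / 2) = 1 := one_div_mul_cancel hα.ne'
  have hr2 : r + 1 ≠ 0 := by linarith
  have hrp : r / (r + 1) = 1 / (γ + 1 / 2) := by
    rw [div_eq_div_iff hr2 hp.ne']
    linear_combination hr1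
  set κ : ℝ := w / (T ^ (r / (r + 1))) with hκ
  have hκ0 : 0 < κ := div_pos hw0 (Real.rpow_pos_of_pos hT0 _)
  have h2' : dg v = ((κ : ℝ) : ℂ) • cfc (fun t : ℝ => t ^ r) (Ψᴴ * Ψ) := by
    rw [h2, VK, ← hT, add_zero]
  have h4 : cfc (fun t : ℝ => t ^ r) (Ψᴴ * Ψ) = dg (fun j => v j / κ) := by
    have h5 : cfc (fun t : ℝ => t ^ r) (Ψᴴ * Ψ) = ((κ : ℝ) : ℂ)⁻¹ • dg v := by
      rw [h2', smul_smul, inv_mul_cancel₀ (by exact_mod_cast hκ0.ne'), one_smul]
    rw [h5, dg, dg, ← diagonal_smul]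
    congr 1
    funext j
    simp only [Pi.smul_apply, smul_eq_mul]
    push_cast
    field_simp
  have h6 := E28_diag_of_rpow hP hr0 h4
  have hhc : (γ + 1 / 2).HolderConjugate (r + 1) := by
    rw [Real.holderConjugate_iff]
    refine ⟨by linarith, ?_⟩
    rw [inv_add_inv hp.ne' hr2, div_eq_one_iff_eq (mul_ne_zero hp.ne' hr2)]
    linear_combination -hr1
  have h7 := trace_holder_eq hW hQ hQ0 hhc (by
    rw [h3, hTQ, sch, ← hw])
  refine ⟨κ, fun j => (v j / κ) ^ (1 / r), hκ0, fun j => Real.rpow_nonneg (div_nonneg (hv j) hκ0.le) _,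
    h6, fun j => ?_, ?_⟩
  · rw [← Real.rpow_mul (div_nonneg (hv j) hκ0.le), one_div_mul_cancel hr0.ne', Real.rpow_one]
    field_simp
  · have h8 : r + 1 - 1 = r := by ring
    rw [hTQ, ← hw, h8, ← hrp] at h7
    exact h7


/-- the unitary matrix adapted to a matrix with orthogonal columns -/
theorem E28_unitary {m N : ℕ} (Ψ : Matrix (Fin m) (Fin N) ℂ)
    (horth : ∀ i j, i ≠ j → (Ψᴴ * Ψ) i j = 0) :
    ∃ (U : Matrix.unitaryGroup (Fin m) ℂ) (e : {j : Fin N // (fun a => Ψ a j) ≠ 0} → Fin m),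
      Function.Injective e ∧ ∀ (j : {j : Fin N // (fun a => Ψ a j) ≠ 0}) (i : Fin m),
        (star (U : Mt m) * Ψ) i j.1 = if i = e j then ((Real.sqrt (((Ψᴴ * Ψ) j.1 j.1).re) : ℝ) : ℂ)
          else 0 := by
  classical
  set S := {j : Fin N // (fun a => Ψ a j) ≠ 0} with hS
  let col : Fin N → Vec m := fun j => WithLp.toLp 2 (fun a => Ψ a j)
  have hinner : ∀ i j, inner ℂ (col i) (col j) = (Ψᴴ * Ψ) i j := by
    intro i j
    rw [PiLp.inner_apply, Matrix.mul_apply]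
    refine Finset.sum_congr rfl fun a _ => ?_
    simp [col, mul_comm]
  have hcol0 : ∀ j : S, col j.1 ≠ 0 := by
    intro j h
    apply j.2
    funext a
    have := congrArg (fun v : Vec m => v a) h
    simpa [col] using this
  have hnorm : ∀ j : Fin N, ‖col j‖ = Real.sqrt (((Ψᴴ * Ψ) j j).re) := by
    intro j
    have h1 : (inner ℂ (col j) (col j)).re = ‖col j‖ ^ 2 := by
      simpa using inner_self_eq_norm_sq (𝕜 := ℂ) (col j)
    rw [← hinner j j, h1, Real.sqrt_sq (norm_nonneg _)]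
  let nc : S → Vec m := fun j => ((‖col j.1‖⁻¹ : ℝ) : ℂ) • col j.1
  have hon : Orthonormal ℂ nc := by
    constructor
    · intro j
      simp only [nc, norm_smul, Complex.norm_real, norm_inv, norm_norm]
      exact inv_mul_cancel₀ (norm_ne_zero_iff.2 (hcol0 j))
    · intro i j hij
      have hij' : i.1 ≠ j.1 := fun h => hij (Subtype.ext h)
      show inner ℂ (nc i) (nc j) = 0
      simp only [nc, inner_smul_left, inner_smul_right, hinner, horth _ _ hij', mul_zero]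
  have hcard : Fintype.card S ≤ Fintype.card (Fin m) := by
    have := hon.linearIndependent.fintype_card_le_finrank
    simpa using this
  obtain ⟨e⟩ := Function.Embedding.nonempty_of_card_le hcard
  let v : Fin m → Vec m := Function.extend e nc 0
  have hve : ∀ j, v (e j) = nc j := fun j => e.injective.extend_apply nc 0 j
  have hon2 : Orthonormal ℂ ((Set.range e).domRestrict v) := by
    let e' : S ≃ Set.range e := Equiv.ofInjective e e.injective
    have : (Set.range e).domRestrict v ∘ e' = nc := by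
      funext j
      exact hve j
    have h2 : (Set.range e).domRestrict v = nc ∘ e'.symm := by
      funext x
      obtain ⟨j, rfl⟩ := e'.surjective x
      simp only [Function.comp_apply, Equiv.symm_apply_apply]
      exact hve j
    rw [h2]
    exact hon.comp _ e'.symm.injective
  obtain ⟨b, hb⟩ := hon2.exists_orthonormalBasis_extension_of_card_eq (by simp)
  let Um : Mt m := Matrix.of fun a i => b i a
  have hUm : star Um * Um = 1 := by
    ext i j
    rw [Matrix.mul_apply, Matrix.one_apply]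
    have h1 := orthonormal_iff_ite.1 b.orthonormal i j
    rw [← h1, PiLp.inner_apply]
    refine Finset.sum_congr rfl fun a _ => ?_
    simp [Um, Matrix.star_apply, mul_comm]
  refine ⟨⟨Um, Matrix.mem_unitaryGroup_iff'.2 hUm⟩, e, e.injective, fun j i => ?_⟩
  have h1 : (star Um * Ψ) i j.1 = inner ℂ (b i) (col j.1) := by
    rw [PiLp.inner_apply, Matrix.mul_apply]
    refine Finset.sum_congr rfl fun a _ => ?_
    simp [Um, col, Matrix.star_apply, mul_comm]
  have h2 : col j.1 = ((‖col j.1‖ : ℝ) : ℂ) • b (e j) := by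
    rw [hb (e j) (Set.mem_range_self j), hve j]
    simp only [nc, smul_smul]
    rw [← Complex.ofReal_mul, mul_inv_cancel₀ (norm_ne_zero_iff.2 (hcol0 j))]
    simp
  show (star Um * Ψ) i j.1 = _
  rw [h1, h2, inner_smul_right, orthonormal_iff_ite.1 b.orthonormal i (e j), hnorm]
  split_ifs <;> simp

/-- `Ψ D² Ψ^*` in the adapted basis -/
theorem E28_Q {m N : ℕ} {Ψ : Matrix (Fin m) (Fin N) ℂ} (U : Matrix.unitaryGroup (Fin m) ℂ)
    (e : {j : Fin N // (fun a => Ψ a j) ≠ 0} → Fin m) (he : Function.Injective e)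
    (hU : ∀ (j : {j : Fin N // (fun a => Ψ a j) ≠ 0}) (i : Fin m),
        (star (U : Mt m) * Ψ) i j.1 = if i = e j then ((Real.sqrt (((Ψᴴ * Ψ) j.1 j.1).re) : ℝ) : ℂ)
          else 0) (g : Fin N → ℝ) {q : Fin N → ℝ} (hq : (Ψ * dg g)ᴴ * (Ψ * dg g) = dg q) :
    (Ψ * dg g) * (Ψ * dg g)ᴴ = (U : Mt m) *
      Matrix.diagonal (fun i => ((Function.extend e (fun j => q j.1) 0 i : ℝ) : ℂ)) *
        star (U : Mt m) := by
  classical
  have h1 : star (U : Mt m) * (U : Mt m) = 1 := Unitary.coe_star_mul_self U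
  have h2 : (U : Mt m) * star (U : Mt m) = 1 := Unitary.coe_mul_star_self U
  have h3 : star (U : Mt m) * ((Ψ * dg g) * (Ψ * dg g)ᴴ) * (U : Mt m) =
      Matrix.diagonal (fun i => ((Function.extend e (fun j => q j.1) 0 i : ℝ) : ℂ)) := by
    have h4 : star (U : Mt m) * ((Ψ * dg g) * (Ψ * dg g)ᴴ) * (U : Mt m) =
        (star (U : Mt m) * Ψ * dg g) * (star (U : Mt m) * Ψ * dg g)ᴴ := by
      simp only [conjTranspose_mul, star_eq_conjTranspose, conjTranspose_conjTranspose,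
        Matrix.mul_assoc]
    rw [h4]
    set M : Matrix (Fin m) (Fin N) ℂ := star (U : Mt m) * Ψ with hM
    have hM0 : ∀ i j, (fun a => Ψ a j) = 0 → M i j = 0 := by
      intro i j h
      rw [hM, Matrix.mul_apply]
      refine Finset.sum_eq_zero fun a _ => ?_
      have := congrFun h a
      simp only [Pi.zero_apply] at this
      rw [this, mul_zero]
    have hMg : ∀ i j, (M * dg g) i j = M i j * ((g j : ℝ) : ℂ) := by
      intro i j
      rw [dg, Matrix.mul_diagonal]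
    have hqj : ∀ j, ((Ψᴴ * Ψ) j j).re * g j ^ 2 = q j := by
      intro j
      have h5 := congrFun (congrFun hq j) j
      have h6 : ((Ψ * dg g)ᴴ * (Ψ * dg g)) j j = (Ψᴴ * Ψ) j j * ((g j : ℝ) : ℂ) ^ 2 := by
        rw [Matrix.mul_apply, Matrix.mul_apply, Finset.sum_mul]
        refine Finset.sum_congr rfl fun a _ => ?_
        rw [conjTranspose_apply, conjTranspose_apply, dg, Matrix.mul_diagonal]
        simp only [star_mul', RCLike.star_def, Complex.conj_ofReal]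
        ring
      rw [h6, dg, Matrix.diagonal_apply_eq] at h5
      have h7 := congrArg Complex.re h5
      rw [Complex.ofReal_re, ← Complex.ofReal_pow, Complex.re_mul_ofReal] at h7
      exact h7
    have hnn : ∀ j, 0 ≤ ((Ψᴴ * Ψ) j j).re := by
      intro j
      have := (posSemidef_conjTranspose_mul_self Ψ).diag_nonneg (i := j)
      exact (Complex.nonneg_iff.1 this).1
    ext i i'
    rw [Matrix.mul_apply, Matrix.diagonal_apply]
    simp only [conjTranspose_apply, hMg]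
    split_ifs with hii
    · subst hii
      by_cases hi : ∃ j, e j = i
      · obtain ⟨j₀, rfl⟩ := hi
        rw [he.extend_apply, Finset.sum_eq_single j₀.1]
        · rw [hU j₀ (e j₀), if_pos rfl]
          simp only [star_mul', RCLike.star_def, Complex.conj_ofReal]
          have h8 := Real.sq_sqrt (hnn j₀.1)
          rw [← hqj j₀.1, ← h8, Real.sqrt_sq (Real.sqrt_nonneg _)]
          push_cast
          ring
        · intro j _ hj
          by_cases hj0 : (fun a => Ψ a j) = 0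
          · rw [hM0 _ _ hj0]; simp
          · rw [hU ⟨j, hj0⟩ (e j₀), if_neg]
            · simp
            · intro h
              exact hj (congrArg Subtype.val (he h)).symm
        · simp
      · rw [Function.extend_apply' _ _ _ hi]
        rw [Finset.sum_eq_zero]
        · simp
        · intro j _
          by_cases hj0 : (fun a => Ψ a j) = 0
          · rw [hM0 _ _ hj0]; simp
          · rw [hU ⟨j, hj0⟩ i, if_neg]
            · simp
            · intro h
              exact hi ⟨_, h.symm⟩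
    · refine Finset.sum_eq_zero fun j _ => ?_
      by_cases hj0 : (fun a => Ψ a j) = 0
      · rw [hM0 _ _ hj0]; simp
      · rw [hU ⟨j, hj0⟩ i, hU ⟨j, hj0⟩ i']
        by_cases h : i = e ⟨j, hj0⟩
        · rw [if_pos h, if_neg (fun h' : i' = e ⟨j, hj0⟩ => hii (h.trans h'.symm))]
          simp
        · rw [if_neg h]
          simp
  calc (Ψ * dg g) * (Ψ * dg g)ᴴ
      = ((U : Mt m) * star (U : Mt m)) * ((Ψ * dg g) * (Ψ * dg g)ᴴ) * ((U : Mt m) * star (U : Mt m)) := by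
        rw [h2, one_mul, mul_one]
    _ = (U : Mt m) * (star (U : Mt m) * ((Ψ * dg g) * (Ψ * dg g)ᴴ) * (U : Mt m)) * star (U : Mt m) := by
        simp only [mul_assoc]
    _ = _ := by rw [h3]


theorem E28_gram {m N : ℕ} (Ψ : Matrix (Fin m) (Fin N) ℂ) (g : Fin N → ℝ) (i j : Fin N) :
    ((Ψ * dg g)ᴴ * (Ψ * dg g)) i j = ((g i : ℝ) : ℂ) * (Ψᴴ * Ψ) i j * ((g j : ℝ) : ℂ) := by
  rw [Matrix.mul_apply, Matrix.mul_apply, Finset.mul_sum, Finset.sum_mul]
  refine Finset.sum_congr rfl fun a _ => ?_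
  rw [conjTranspose_apply, conjTranspose_apply, dg, Matrix.mul_diagonal, Matrix.mul_diagonal]
  simp only [star_mul', RCLike.star_def, Complex.conj_ofReal]
  ring

theorem E28_tracePow_nonneg {m : ℕ} {W : Mt m} (hW : W.PosSemidef) (p : ℝ) :
    0 ≤ tracePow W p := by
  have h : tracePow W p = tr (cfc (fun t : ℝ => t ^ p) W) := rfl
  rw [h, tr_cfc hW.1]
  exact Finset.sum_nonneg fun j _ => Real.rpow_nonneg (hW.eigenvalues_nonneg j) _

theorem E28_zero_of_tracePow {m : ℕ} {W : Mt m} (hW : W.PosSemidef) {p : ℝ}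
    (h : (tracePow W p) ^ (1 / p) = 0) : W = 0 := by
  by_contra h0
  have h1 : 0 < tracePow W p := E28_tr_pos hW h0 p
  exact (Real.rpow_pos_of_pos h1 (1 / p)).ne' h

theorem final_algebra {m N : ℕ} {γ : ℝ} (hγ : 1 / 2 < γ) (hγ' : γ < 3 / 2)
    {W : ℝ → Matrix (Fin m) (Fin m) ℂ} (hWp : ∀ x, (W x).PosSemidef)
    {k : Fin N → ℝ} {f g : Fin N → ℝ → ℝ} {Ψ₀ : Matrix (Fin m) (Fin N) ℂ} (hΨ₀ : Ψ₀ ≠ 0)
    (hk : ∀ j, 0 ≤ k j) (hf : ∀ j x, |f j x| ≤ k j) (hg : ∀ j x, 0 < g j x)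
    (htri : ∀ j, (∀ x, f j x = k j) ∨ (∀ x, f j x = -k j) ∨
      (0 < k j ∧ ∃ c : ℝ, ∀ x, f j x = -k j * Real.tanh ((1 / (γ - 1 / 2)) * k j * (x - c))))
    (hae : ∀ᵐ x : ℝ,
        (wzero W γ x) ^ (γ + 1 / 2) =
          ∑ j, ((1 / (γ - 1 / 2) + 1) * (k j ^ 2 - f j x ^ 2)) ^ (γ + 1 / 2) ∧
        dg (fun j => (1 / (γ - 1 / 2) + 1) * (k j ^ 2 - f j x ^ 2)) =
          VK (1 / (γ - 1 / 2)) (wzero W γ x) 0
            ((Ψ₀ * dg (fun j => g j x))ᴴ * (Ψ₀ * dg (fun j => g j x))) ∧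
        tr (W x * (Ψ₀ * dg (fun j => g j x) * (Ψ₀ * dg (fun j => g j x))ᴴ)) =
          wzero W γ x * sch (1 / (γ - 1 / 2) + 1)
            ((Ψ₀ * dg (fun j => g j x))ᴴ * (Ψ₀ * dg (fun j => g j x)))) :
    IsSolitonSum W γ := by
  classical
  have hα : 0 < γ - 1 / 2 := by linarith
  have hp : 0 < γ + 1 / 2 := by linarith
  have hr0 : 0 < 1 / (γ - 1 / 2) := by positivity
  have hv0 : ∀ j x, 0 ≤ (1 / (γ - 1 / 2) + 1) * (k j ^ 2 - f j x ^ 2) := by
    intro j x
    have h1 : f j x ^ 2 ≤ k j ^ 2 := by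
      rw [← sq_abs (f j x)]
      exact pow_le_pow_left₀ (abs_nonneg _) (hf j x) 2
    exact mul_nonneg (by linarith) (by linarith)
  have hwnn : ∀ x, 0 ≤ wzero W γ x := fun x =>
    Real.rpow_nonneg (E28_tracePow_nonneg (hWp x) _) _
  by_cases hA : ∃ j, 0 < k j ∧ ∃ c : ℝ, ∀ x,
      f j x = -k j * Real.tanh ((1 / (γ - 1 / 2)) * k j * (x - c))
  · obtain ⟨j₀, hk₀, c₀, hc₀⟩ := hA
    have hw0 : ∀ᵐ x : ℝ, 0 < wzero W γ x := by
      filter_upwards [hae] with x hx
      refine lt_of_le_of_ne (hwnn x) fun h => ?_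
      have h1 := hx.1
      rw [← h, Real.zero_rpow hp.ne'] at h1
      have h2 := (Finset.sum_eq_zero_iff_of_nonneg
        (fun j _ => Real.rpow_nonneg (hv0 j x) (γ + 1 / 2))).1 h1.symm j₀ (Finset.mem_univ _)
      rw [hc₀ x, soliton_of_tanh hα] at h2
      have h3 : 0 < soliton (1 / (γ - 1 / 2)) (k j₀) c₀ x := by
        unfold soliton
        have := Real.cosh_pos (1 / (γ - 1 / 2) * k j₀ * (x - c₀))
        positivity
      exact (Real.rpow_pos_of_pos h3 _).ne' h2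
    have hpt : ∀ᵐ x : ℝ, ∃ (κ : ℝ) (q : Fin N → ℝ), 0 < κ ∧ (∀ j, 0 ≤ q j) ∧
        (Ψ₀ * dg (fun j => g j x))ᴴ * (Ψ₀ * dg (fun j => g j x)) = dg q ∧
        (∀ j, (1 / (γ - 1 / 2) + 1) * (k j ^ 2 - f j x ^ 2) = κ * q j ^ (1 / (γ - 1 / 2))) ∧
        W x = ((κ : ℝ) : ℂ) • cfc (fun t : ℝ => t ^ (1 / (γ - 1 / 2)))
          ((Ψ₀ * dg (fun j => g j x)) * (Ψ₀ * dg (fun j => g j x))ᴴ) := by
      filter_upwards [hae, hw0] with x hx hwx
      have hΨ : Ψ₀ * dg (fun j => g j x) ≠ 0 := by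
        intro h
        apply hΨ₀
        ext a j
        have h1 := congrFun (congrFun h a) j
        rw [dg, Matrix.mul_diagonal, Matrix.zero_apply] at h1
        have h2 : ((g j x : ℝ) : ℂ) ≠ 0 := by exact_mod_cast (hg j x).ne'
        exact (mul_eq_zero.1 h1).resolve_right h2
      exact E28_point hγ (hWp x) hΨ rfl hwx (fun j => hv0 j x) hx.2.1 hx.2.2
    obtain ⟨x₀, κ₀, q₀, hκ₀, hq₀, hP₀, hvq₀, -⟩ := hpt.exists
    have horth : ∀ i j, i ≠ j → (Ψ₀ᴴ * Ψ₀) i j = 0 := by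
      intro i j hij
      have h1 := congrFun (congrFun hP₀ i) j
      rw [E28_gram, dg, Matrix.diagonal_apply_ne _ hij] at h1
      have h2 : ((g i x₀ : ℝ) : ℂ) ≠ 0 := by exact_mod_cast (hg i x₀).ne'
      have h3 : ((g j x₀ : ℝ) : ℂ) ≠ 0 := by exact_mod_cast (hg j x₀).ne'
      exact (mul_eq_zero.1 ((mul_eq_zero.1 h1).resolve_right h3)).resolve_left h2
    obtain ⟨U, e, he, hU⟩ := E28_unitary Ψ₀ horth
    have hS : ∀ j : {j : Fin N // (fun a => Ψ₀ a j) ≠ 0}, ∃ c : ℝ, ∀ x,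
        f j.1 x = -k j.1 * Real.tanh ((1 / (γ - 1 / 2)) * k j.1 * (x - c)) := by
      intro j
      have h1 : (Ψ₀ᴴ * Ψ₀) j.1 j.1 ≠ 0 := by
        intro h
        apply j.2
        funext a
        have h2 : (Ψ₀ᴴ * Ψ₀) j.1 j.1 = ((∑ a, ‖Ψ₀ a j.1‖ ^ 2 : ℝ) : ℂ) := by
          rw [Matrix.mul_apply]
          push_cast
          refine Finset.sum_congr rfl fun a _ => ?_
          rw [conjTranspose_apply, RCLike.star_def, Complex.conj_mul']
        rw [h2] at h
        have h3 : (∑ a, ‖Ψ₀ a j.1‖ ^ 2 : ℝ) = 0 := by exact_mod_cast h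
        have h4 := (Finset.sum_eq_zero_iff_of_nonneg (fun a _ => sq_nonneg ‖Ψ₀ a j.1‖)).1 h3 a
          (Finset.mem_univ _)
        simpa using h4
      have h2 := congrFun (congrFun hP₀ j.1) j.1
      rw [E28_gram, dg, Matrix.diagonal_apply_eq] at h2
      have h3 : ((g j.1 x₀ : ℝ) : ℂ) ≠ 0 := by exact_mod_cast (hg j.1 x₀).ne'
      have h4 : ((q₀ j.1 : ℝ) : ℂ) ≠ 0 := by
        rw [← h2]
        exact mul_ne_zero (mul_ne_zero h3 h1) h3
      have h5 : 0 < q₀ j.1 := lt_of_le_of_ne (hq₀ _) (fun h => h4 (by rw [← h]; simp))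
      have h6 : 0 < (1 / (γ - 1 / 2) + 1) * (k j.1 ^ 2 - f j.1 x₀ ^ 2) := by
        rw [hvq₀ j.1]
        exact mul_pos hκ₀ (Real.rpow_pos_of_pos h5 _)
      rcases htri j.1 with h | h | h
      · rw [h x₀] at h6; simp at h6
      · rw [h x₀] at h6; simp at h6
      · exact h.2
    choose c hc using hS
    refine ⟨U, Function.extend e (fun j => k j.1) 0, Function.extend e c 0, fun i => ?_, ?_⟩
    · by_cases hi : ∃ j, e j = i
      · obtain ⟨j, rfl⟩ := hi
        rw [he.extend_apply]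
        exact hk _
      · rw [Function.extend_apply' _ _ _ hi]
        simp
    · filter_upwards [hpt] with x hx
      obtain ⟨κ, q, hκ, hq, hP, hvq, hWx⟩ := hx
      rw [hWx, E28_Q U e he hU (fun j => g j x) hP, Conv_cfc_conj U (T46_diag_herm _),
        T46_cfc_diag, ← Matrix.smul_mul, ← Matrix.mul_smul, ← Matrix.diagonal_smul]
      congr 3
      funext i
      simp only [Pi.smul_apply, smul_eq_mul]
      by_cases hi : ∃ j, e j = i
      · obtain ⟨j, rfl⟩ := hi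
        rw [he.extend_apply, he.extend_apply, he.extend_apply, ← Complex.ofReal_mul, ← hvq j.1,
          hc j x, soliton_of_tanh hα, one_div]
      · rw [Function.extend_apply' _ _ _ hi, Function.extend_apply' _ _ _ hi,
          Function.extend_apply' _ _ _ hi]
        have hz : (0 : ℝ) ^ (1 / (γ - 1 / 2)) = 0 := Real.zero_rpow hr0.ne'
        simp only [Pi.zero_apply, hz, soliton]
        simp
  · have hz : ∀ j x, (1 / (γ - 1 / 2) + 1) * (k j ^ 2 - f j x ^ 2) = 0 := by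
      intro j x
      rcases htri j with h | h | h
      · rw [h x]; simp
      · rw [h x]; simp
      · exact absurd ⟨j, h⟩ hA
    refine ⟨1, 0, 0, fun i => le_refl _, ?_⟩
    filter_upwards [hae] with x hx
    have h1 := hx.1
    simp only [hz, Real.zero_rpow hp.ne', Finset.sum_const_zero] at h1
    have h2 : wzero W γ x = 0 := by
      rcases (hwnn x).eq_or_lt with h | h
      · exact h.symm
      · exact absurd h1 (Real.rpow_pos_of_pos h _).ne'
    rw [E28_zero_of_tracePow (hWp x) h2]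
    simp [soliton]

end Crest.Agent.LT
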