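import Crest.Agent.LTE_Defs
import Crest.Agent.LTE_E09
import Crest.Agent.LTE_E19
import Crest.Agent.LTE_E20
import Crest.Agent.LTE_E21
import Crest.Agent.LTE_E26
import Crest.Agent.LTE_E28
/-!
Task LTE-E29: assembly of (⇒). `exists_pathSeq`, `pathSeq_profile` (`f₀ = wzero W γ`): `w₀^p = ∑ soliton^p`, so `w₀` is
bounded, tends to 0, and `w₀ ≤ v := ∑ soliton` (sub-additivity of `t ↦ t^{1/p}`) with `∫ (1+|x|) v < ∞`; `count_bound`,
`exists_famSeq`, `famConv_limit`, `final_algebra`. If `∫ tr W^p = 0` then `W = 0` a.e.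
-/

set_option autoImplicit false

namespace Crest.Agent.LT

open MeasureTheory Matrix Set Filter
open Crest.MathPhysics.LiebThirring
open scoped ComplexOrder Topology

theorem E29_cosh (y : ℝ) : 1 + y ^ 2 / 2 ≤ Real.cosh y := by
  have h : Real.cosh y = 1 + 2 * Real.sinh (y / 2) ^ 2 := by
    have h1 := Real.cosh_two_mul (y / 2)
    rw [show 2 * (y / 2) = y by ring, Real.cosh_sq] at h1
    rw [h1]; ring
  have h2 : (y / 2) ^ 2 ≤ Real.sinh (y / 2) ^ 2 := by
    rw [sq_le_sq, Real.abs_sinh]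
    exact Real.self_le_sinh_iff.2 (abs_nonneg _)
  rw [h]
  nlinarith

theorem E29_sol_nonneg {r : ℝ} (hr : 0 < r) (a c x : ℝ) : 0 ≤ soliton r a c x := by
  unfold soliton
  positivity

theorem E29_sol_cont (r a c : ℝ) : Continuous (soliton r a c) := by
  unfold soliton
  refine Continuous.div (by fun_prop) ?_ ?_
  · exact (Real.continuous_cosh.comp (by fun_prop)).pow 2
  · intro x
    have := Real.cosh_pos (r * a * (x - c))
    positivity

theorem E29_sol_bound {r a : ℝ} (hr : 0 < r) (ha : 0 < a) (c : ℝ) :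
    ∃ C : ℝ, 0 ≤ C ∧ ∀ x, (1 + |x|) * soliton r a c x ≤ C * (1 + (x - c) ^ 2)⁻¹ := by
  obtain ⟨μ, hμ0, hμ1, hμ2⟩ : ∃ μ : ℝ, 0 < μ ∧ μ ≤ 1 ∧ μ ≤ (r * a) ^ 2 / 2 :=
    ⟨min 1 ((r * a) ^ 2 / 2), by positivity, min_le_left _ _, min_le_right _ _⟩
  refine ⟨(2 + |c|) * ((r + 1) * a ^ 2 / μ ^ 2), by positivity, ?_⟩
  intro x
  set q := 1 + (x - c) ^ 2 with hq
  have hq0 : 0 < q := by positivity
  have h1 : μ * q ≤ Real.cosh (r * a * (x - c)) := by
    refine le_trans ?_ (E29_cosh _)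
    have h2 := mul_le_mul_of_nonneg_right hμ2 (sq_nonneg (x - c))
    have h3 : (r * a * (x - c)) ^ 2 / 2 = (r * a) ^ 2 / 2 * (x - c) ^ 2 := by ring
    rw [h3, hq]
    linarith
  have h2 : (μ * q) ^ 2 ≤ Real.cosh (r * a * (x - c)) ^ 2 :=
    pow_le_pow_left₀ (by positivity) h1 2
  have h3 : soliton r a c x ≤ (r + 1) * a ^ 2 / (μ * q) ^ 2 := by
    unfold soliton
    exact div_le_div_of_nonneg_left (by positivity) (by positivity) h2
  have h4 : 1 + |x| ≤ (2 + |c|) * q := by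
    have h5 : |x| ≤ |c| + |x - c| := by
      have := abs_add_le c (x - c)
      simpa using this
    have h6 : |x - c| ≤ q := by
      rw [hq, ← sq_abs (x - c)]
      nlinarith [sq_nonneg (|x - c| - 1), abs_nonneg (x - c)]
    have h7 : 1 ≤ q := by rw [hq]; nlinarith [sq_nonneg (x - c)]
    nlinarith [abs_nonneg c]
  calc (1 + |x|) * soliton r a c x ≤ ((2 + |c|) * q) * ((r + 1) * a ^ 2 / (μ * q) ^ 2) :=
        mul_le_mul h4 h3 (E29_sol_nonneg hr _ _ _) (by positivity)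
    _ = (2 + |c|) * ((r + 1) * a ^ 2 / μ ^ 2) * q⁻¹ := by
        field_simp

theorem E29_sum_bound {r : ℝ} (hr : 0 < r) {n : ℕ} (k c : Fin n → ℝ) (hk : ∀ j, 0 < k j) :
    ∃ (C : ℝ) (D : ℝ → ℝ), 0 ≤ C ∧ Integrable D ∧ (∀ x, D x ≤ C) ∧
      ∀ x, (1 + |x|) * (∑ j, soliton r (k j) (c j) x) ≤ D x := by
  choose C hC0 hC using fun j => E29_sol_bound hr (hk j) (c j)
  refine ⟨∑ j, C j, fun x => ∑ j, C j * (1 + (x - c j) ^ 2)⁻¹, Finset.sum_nonneg fun j _ => hC0 j,
    ?_, ?_, ?_⟩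
  · refine integrable_finsetSum _ fun j _ => Integrable.const_mul ?_ _
    exact integrable_inv_one_add_sq.comp_sub_right (c j)
  · intro x
    refine Finset.sum_le_sum fun j _ => ?_
    have h1 : (1 + (x - c j) ^ 2)⁻¹ ≤ 1 := inv_le_one_of_one_le₀ (by nlinarith [sq_nonneg (x - c j)])
    have := mul_le_mul_of_nonneg_left h1 (hC0 j)
    linarith
  · intro x
    rw [Finset.mul_sum]
    exact Finset.sum_le_sum fun j _ => hC j x

/-- `∑ s_j^p ≤ (∑ s_j)^p`, `p ≥ 1` -/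
theorem E29_sum_rpow {n : ℕ} (s : Fin n → ℝ) (hs : ∀ j, 0 ≤ s j) {p : ℝ} (hp : 1 ≤ p) :
    ∑ j, s j ^ p ≤ (∑ j, s j) ^ p := by
  have hv : 0 ≤ ∑ j, s j := Finset.sum_nonneg fun j _ => hs j
  have e : ∀ t : ℝ, 0 ≤ t → t ^ p = t * t ^ (p - 1) := by
    intro t ht
    rcases ht.eq_or_lt with rfl | ht
    · rw [Real.zero_rpow (by linarith)]; ring
    · rw [Real.rpow_sub_one ht.ne']; field_simp
  rw [e _ hv, Finset.sum_mul]
  refine Finset.sum_le_sum fun j _ => ?_
  rw [e _ (hs j)]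
  refine mul_le_mul_of_nonneg_left ?_ (hs j)
  exact Real.rpow_le_rpow (hs j) (Finset.single_le_sum (fun i _ => hs i) (Finset.mem_univ j))
    (by linarith)

theorem E29_zero {m : ℕ} {A : Mt m} (hA : A.PosSemidef) {p : ℝ} (h : tracePow A p = 0) :
    A = 0 := by
  have h1 : tracePow A p = ∑ i, hA.1.eigenvalues i ^ p := tr_cfc hA.1 _
  rw [h1, Finset.sum_eq_zero_iff_of_nonneg
    (fun i _ => Real.rpow_nonneg (hA.eigenvalues_nonneg i) _)] at h
  refine hA.1.eigenvalues_eq_zero_iff.1 ?_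
  funext i
  by_contra h2
  have h3 : 0 < hA.1.eigenvalues i := lt_of_le_of_ne (hA.eigenvalues_nonneg i) (Ne.symm h2)
  exact (Real.rpow_pos_of_pos h3 p).ne' (h i (Finset.mem_univ i))

theorem nearOpt_solitonSum {m : ℕ} {γ : ℝ} (hγ : 1 / 2 < γ) (hγ' : γ < 3 / 2)
    {W : ℝ → Matrix (Fin m) (Fin m) ℂ} (hW : ∀ i j, Measurable fun x => W x i j)
    (hWp : ∀ x, (W x).PosSemidef) (hWi : Integrable fun x => tracePow (W x) (γ + 1 / 2))
    (H : NearOpt W γ) : IsSolitonSum W γ := by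
  have hp : 0 < γ + 1 / 2 := by linarith
  have htp : ∀ x, 0 ≤ tracePow (W x) (γ + 1 / 2) := fun x => T40_tracePow_nonneg (hWp x) _
  have hw0 : ∀ x, 0 ≤ wzero W γ x := fun x => Real.rpow_nonneg (htp x) _
  have hwp : ∀ x, (wzero W γ x) ^ (γ + 1 / 2) = tracePow (W x) (γ + 1 / 2) := by
    intro x
    unfold wzero
    rw [← Real.rpow_mul (htp x), one_div_mul_cancel hp.ne', Real.rpow_one]
  have e1 : (1 : ℝ) + (γ - 1 / 2) = γ + 1 / 2 := by ring
  have hr : 0 < 1 / (γ - 1 / 2) := by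
    have : 0 < γ - 1 / 2 := by linarith
    positivity
  obtain ⟨S⟩ := exists_pathSeq hγ hγ' hW hWp hWi H
  have hmeas : AEStronglyMeasurable (wzero W γ) volume :=
    ((Real.continuous_rpow_const (by positivity)).measurable.comp_aemeasurable
      hWi.aestronglyMeasurable.aemeasurable).aestronglyMeasurable
  obtain ⟨n, k, c, hk, hae⟩ := pathSeq_profile (by linarith : 0 < γ - 1 / 2)
    (by linarith : γ - 1 / 2 < 1) hw0 hmeas (by
      rw [e1]
      simp only [hwp]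
      exact hWi) S
  rw [e1] at hae
  obtain ⟨C, D, hC, hDi, hDC, hD⟩ := E29_sum_bound hr k c hk
  set v : ℝ → ℝ := fun x => ∑ j, soliton (1 / (γ - 1 / 2)) (k j) (c j) x with hv
  have hv0 : ∀ x, 0 ≤ v x := fun x => Finset.sum_nonneg fun j _ => E29_sol_nonneg hr _ _ _
  have hvc : Continuous v := continuous_finsetSum _ fun j _ => E29_sol_cont _ _ _
  have hwv : ∀ᵐ x : ℝ, wzero W γ x ≤ v x := by
    filter_upwards [hae] with x hx
    have h1 : (wzero W γ x) ^ (γ + 1 / 2) ≤ (v x) ^ (γ + 1 / 2) := by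
      rw [hx]
      exact E29_sum_rpow _ (fun j => E29_sol_nonneg hr _ _ _) (by linarith)
    exact (Real.rpow_le_rpow_iff (hw0 x) (hv0 x) hp).1 h1
  have hvD : ∀ x, v x ≤ D x := fun x => by
    refine le_trans ?_ (hD x)
    nlinarith [hv0 x, abs_nonneg x]
  have hxvD : ∀ x, |x| * v x ≤ D x := fun x => by
    refine le_trans ?_ (hD x)
    nlinarith [hv0 x, abs_nonneg x]
  have hvi : Integrable v := by
    refine hDi.mono' hvc.aestronglyMeasurable (Eventually.of_forall fun x => ?_)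
    rw [Real.norm_eq_abs, abs_of_nonneg (hv0 x)]
    exact hvD x
  have hxvi : Integrable fun x => |x| * v x := by
    refine hDi.mono' (continuous_abs.mul hvc).aestronglyMeasurable
      (Eventually.of_forall fun x => ?_)
    rw [Real.norm_eq_abs, abs_of_nonneg (mul_nonneg (abs_nonneg x) (hv0 x))]
    exact hxvD x
  obtain ⟨M₀, hM₀⟩ := count_bound hγ hγ' hW hWp hWi hv0 hvi hxvi hwv
  have hint0 : 0 ≤ ∫ x, tracePow (W x) (γ + 1 / 2) := integral_nonneg htp
  rcases hint0.eq_or_lt with hz | hpos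
  · have h1 := (integral_eq_zero_iff_of_nonneg htp hWi).1 hz.symm
    refine ⟨1, fun _ => 0, fun _ => 0, fun _ => le_rfl, ?_⟩
    filter_upwards [h1] with x hx
    have h2 : W x = 0 := E29_zero (hWp x) hx
    rw [h2]
    have h3 : (Matrix.diagonal (fun _ : Fin m => ((soliton (γ - 1 / 2)⁻¹ 0 0 x : ℝ) : ℂ))) = 0 := by
      have : soliton (γ - 1 / 2)⁻¹ 0 0 x = 0 := by unfold soliton; simp
      rw [this]
      simp
    rw [h3]
    simp
  · obtain ⟨N, hN, ⟨S'⟩⟩ := exists_famSeq hγ hγ' hW hWp hWi H hM₀ hpos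
    obtain ⟨k', f, g, Ψ₀, a1, a2, a3, a4, a5, a6⟩ := famConv_limit (B := C) hγ hγ' hW hWp hWi hC
      (by
        filter_upwards [hwv] with x hx
        exact hx.trans ((hvD x).trans (hDC x)))
      (by
        intro ε hε
        refine ⟨C / ε, ?_⟩
        filter_upwards [hwv] with x hx hL
        refine hx.trans ?_
        have h1 := (hD x).trans (hDC x)
        have h2 : C ≤ |x| * ε := by rwa [div_le_iff₀ hε] at hL
        have h3 : (1 + |x|) * v x ≤ (1 + |x|) * ε := by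
          refine h1.trans (h2.trans ?_)
          nlinarith [abs_nonneg x]
        exact le_of_mul_le_mul_left h3 (by positivity)) hN S'
    exact final_algebra hγ hγ' hWp a1 a2 a3 a4 a5 a6

end Crest.Agent.LT
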