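import Crest.Agent.LT_Defs
import Crest.Agent.LT_T25

/-!
# LT-Conv1: the scalar soliton: exact integral, and trial functions with energy close to `-a²`
-/

set_option autoImplicit false

namespace Crest.Agent.LT

open MeasureTheory Matrix Set Filter
open Crest.MathPhysics.LiebThirring
open scoped ComplexOrder Topology ContDiff

/-! ### the integral -/

theorem Conv_hasDerivAt_tanh (u : ℝ) : HasDerivAt Real.tanh ((Real.cosh u ^ 2)⁻¹) u := by
  have hc := Real.cosh_pos u
  have h1 := (Real.hasDerivAt_sinh u).div (Real.hasDerivAt_cosh u) hc.ne'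
  have h2 : Real.tanh = fun x => Real.sinh x / Real.cosh x := by
    funext x; exact Real.tanh_eq_sinh_div_cosh x
  rw [h2]
  have h3 : (Real.cosh u * Real.cosh u - Real.sinh u * Real.sinh u) / Real.cosh u ^ 2 =
      (Real.cosh u ^ 2)⁻¹ := by
    have := Real.cosh_sq_sub_sinh_sq u
    rw [div_eq_mul_inv]
    have e : Real.cosh u * Real.cosh u - Real.sinh u * Real.sinh u = 1 := by nlinarith
    rw [e, one_mul]
  rw [← h3]
  exact h1

theorem Conv_one_sub_tanh_sq (u : ℝ) : 1 - Real.tanh u ^ 2 = (Real.cosh u ^ 2)⁻¹ := by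
  have hc := Real.cosh_pos u
  rw [Real.tanh_eq_sinh_div_cosh, div_pow]
  have := Real.cosh_sq_sub_sinh_sq u
  field_simp
  linarith

theorem Conv_integral_cosh {α : ℝ} (h0 : 0 < α) :
    Integrable (fun u : ℝ => ((Real.cosh u ^ 2)⁻¹) ^ (1 + α)) ∧
      ∫ u : ℝ, ((Real.cosh u ^ 2)⁻¹) ^ (1 + α) = beta α := by
  have him : Real.tanh '' univ = Ioo (-1) 1 := Real.tanh_bijOn.image_eq
  have hinj : InjOn Real.tanh univ := Real.tanh_injective.injOn
  have hd : ∀ x ∈ (univ : Set ℝ), HasDerivWithinAt Real.tanh ((Real.cosh x ^ 2)⁻¹) univ x :=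
    fun x _ => (Conv_hasDerivAt_tanh x).hasDerivWithinAt
  have hfun : (fun u : ℝ => |(Real.cosh u ^ 2)⁻¹| • ((1 - Real.tanh u ^ 2) ^ α)) =
      fun u : ℝ => ((Real.cosh u ^ 2)⁻¹) ^ (1 + α) := by
    funext u
    have hc := Real.cosh_pos u
    have hp : 0 < (Real.cosh u ^ 2)⁻¹ := by positivity
    rw [Conv_one_sub_tanh_sq, abs_of_pos hp, smul_eq_mul, Real.rpow_add hp, Real.rpow_one]
  have hint : IntegrableOn (fun s : ℝ => (1 - s ^ 2) ^ α) (Ioo (-1) 1) := by
    have hcont : Continuous (fun s : ℝ => (1 - s ^ 2) ^ α) :=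
      (by fun_prop : Continuous fun s : ℝ => 1 - s ^ 2).rpow_const fun _ => Or.inr h0.le
    exact (hcont.continuousOn.integrableOn_compact isCompact_Icc).mono_set Ioo_subset_Icc_self
  constructor
  · have h1 := (integrableOn_image_iff_integrableOn_abs_deriv_smul MeasurableSet.univ hd hinj
      (fun s : ℝ => (1 - s ^ 2) ^ α)).1 (by rw [him]; exact hint)
    rw [hfun] at h1
    exact integrableOn_univ.1 h1
  · have h1 := integral_image_eq_integral_abs_deriv_smul MeasurableSet.univ hd hinj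
      (fun s : ℝ => (1 - s ^ 2) ^ α)
    rw [him, hfun, setIntegral_univ] at h1
    rw [← h1]
    unfold beta
    rw [intervalIntegral.integral_of_le (by norm_num), integral_Ioc_eq_integral_Ioo]

theorem Conv_soliton_integral {γ : ℝ} (hγ : 1 / 2 < γ) {a : ℝ} (ha : 0 ≤ a) (c : ℝ) :
    Integrable (fun x => (soliton (γ - 1 / 2)⁻¹ a c x) ^ (γ + 1 / 2)) ∧
      sharpConst γ * ∫ x, (soliton (γ - 1 / 2)⁻¹ a c x) ^ (γ + 1 / 2) = a ^ (2 * γ) := by
  set α := γ - 1 / 2 with hα
  have h0 : 0 < α := by rw [hα]; linarith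
  have hγα : γ = α + 1 / 2 := by rw [hα]; ring
  have hp : γ + 1 / 2 = 1 + α := by rw [hα]; ring
  rw [hp]
  rcases ha.eq_or_lt with h | hapos
  · -- `a = 0`
    subst_vars
    have h1 : (fun x => (soliton (γ - 1/2)⁻¹ 0 c x) ^ (1 + (γ - 1/2))) = fun _ => (0:ℝ) := by
      funext x
      unfold soliton
      simp only [ne_eq, OfNat.ofNat_ne_zero, not_false_eq_true, zero_pow, mul_zero, zero_div]
      exact Real.zero_rpow (by linarith)
    rw [h1]
    refine ⟨integrable_zero _ _ _, ?_⟩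
    rw [integral_zero, mul_zero, Real.zero_rpow (by linarith)]
  · obtain ⟨i1, e1⟩ := Conv_integral_cosh h0
    set r := α⁻¹ with hr
    have hrp : 0 < r := inv_pos.2 h0
    have hra : 0 < r * a := mul_pos hrp hapos
    have hfun : (fun x => (soliton r a c x) ^ (1 + α)) = fun x =>
        ((r + 1) * a ^ 2) ^ (1 + α) * (fun u : ℝ => ((Real.cosh u ^ 2)⁻¹) ^ (1 + α))
          ((r * a) * (x - c)) := by
      funext x
      unfold soliton
      have hc := Real.cosh_pos (r * a * (x - c))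
      rw [div_eq_mul_inv, Real.mul_rpow (by positivity) (by positivity)]
    have i2 : Integrable (fun x => (fun u : ℝ => ((Real.cosh u ^ 2)⁻¹) ^ (1 + α))
          ((r * a) * (x - c))) := by
      have := (i1.comp_mul_left' hra.ne').comp_sub_right c
      exact this
    have e2 : ∫ x, (fun u : ℝ => ((Real.cosh u ^ 2)⁻¹) ^ (1 + α)) ((r * a) * (x - c)) =
        (r * a)⁻¹ * beta α := by
      rw [integral_sub_right_eq_self (fun x => (fun u : ℝ => ((Real.cosh u ^ 2)⁻¹) ^ (1 + α))
        ((r * a) * x)) c]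
      rw [Measure.integral_comp_mul_left (fun u : ℝ => ((Real.cosh u ^ 2)⁻¹) ^ (1 + α)) (r * a),
        e1, abs_of_pos (inv_pos.2 hra), smul_eq_mul]
    rw [hfun]
    refine ⟨i2.const_mul _, ?_⟩
    rw [integral_const_mul, e2, sharpConst_eq hγ, ← hα]
    have hb := beta_pos h0
    have h2 : (r + 1) * a ^ 2 = (1 + α) * α⁻¹ * a ^ 2 := by
      rw [hr]; field_simp
    rw [h2, Real.mul_rpow (by positivity) (by positivity),
      Real.mul_rpow (by positivity) (by positivity), Real.inv_rpow h0.le]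
    have h3 : (a ^ 2) ^ (1 + α) = a ^ (2 * γ) * a := by
      rw [← Real.rpow_natCast a 2, ← Real.rpow_mul hapos.le]
      nth_rewrite 3 [← Real.rpow_one a]
      rw [← Real.rpow_add hapos]
      congr 1
      rw [hγα]; push_cast; ring
    have h4 : α ^ (1 + α) = α * α ^ α := by
      rw [Real.rpow_add h0, Real.rpow_one]
    rw [h3, h4, hr]
    have h5 : 0 < (1 + α) ^ (1 + α) := Real.rpow_pos_of_pos (by linarith) _
    have h6 : 0 < α ^ α := Real.rpow_pos_of_pos h0 _
    field_simp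

/-! ### trial functions -/

/-- algebraic identity behind the ground state representation. -/
theorem Conv_ident (r a ch sh g x x' : ℝ) (hch : 0 < ch) (h1 : ch ^ 2 - sh ^ 2 = 1) :
    (x' * g - a * x * (sh / ch) * g) ^ 2 - (r + 1) * a ^ 2 / ch ^ 2 * (x * g) ^ 2 =
      -a ^ 2 * (x * g) ^ 2 + x' ^ 2 * g ^ 2 +
        (-a * (2 * x * x' * (sh / ch) * g ^ 2 + x ^ 2 * (r * a / ch ^ 2) * g ^ 2 +
          x ^ 2 * (sh / ch) * (2 * g * (-a * (sh / ch) * g)))) := by
  have h2 : sh ^ 2 = ch ^ 2 - 1 := by linarith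
  have h3 : (sh / ch) ^ 2 = 1 - 1 / ch ^ 2 := by
    rw [div_pow, h2]; field_simp
  have h4 : (r + 1) * a ^ 2 / ch ^ 2 = (r + 1) * a ^ 2 * (1 / ch ^ 2) := by ring
  have h5 : r * a / ch ^ 2 = r * a * (1 / ch ^ 2) := by ring
  rw [h4, h5]
  set T := sh / ch
  set w := 1 / ch ^ 2
  have h6 : w = 1 - T ^ 2 := by linarith
  rw [h6]
  ring

/-- the ground state of the soliton -/
noncomputable def Cg (α a c x : ℝ) : ℝ := (Real.cosh (α⁻¹ * a * (x - c))) ^ (-α)

theorem Cg_pos (α a c x : ℝ) : 0 < Cg α a c x := Real.rpow_pos_of_pos (Real.cosh_pos _) _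

theorem Cg_le_one {α : ℝ} (h0 : 0 < α) (a c x : ℝ) : Cg α a c x ≤ 1 := by
  unfold Cg
  exact Real.rpow_le_one_of_one_le_of_nonpos (Real.one_le_cosh _) (by linarith)

theorem Cg_contDiff (α a c : ℝ) : ContDiff ℝ ∞ (Cg α a c) := by
  unfold Cg
  have h1 : ContDiff ℝ ∞ (fun x : ℝ => Real.cosh (α⁻¹ * a * (x - c))) :=
    Real.contDiff_cosh.comp (by fun_prop)
  exact h1.rpow_const_of_ne fun x => (Real.cosh_pos _).ne'

theorem Cg_hasDerivAt {α : ℝ} (h0 : 0 < α) (a c x : ℝ) :
    HasDerivAt (Cg α a c) (-a * (Real.sinh (α⁻¹ * a * (x - c)) / Real.cosh (α⁻¹ * a * (x - c))) *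
      Cg α a c x) x := by
  have hθ : HasDerivAt (fun x : ℝ => α⁻¹ * a * (x - c)) (α⁻¹ * a) x := by
    have := ((hasDerivAt_id x).sub_const c).const_mul (α⁻¹ * a)
    rw [mul_one] at this
    exact this
  have h1 := hθ.cosh
  have hc := Real.cosh_pos (α⁻¹ * a * (x - c))
  have h2 := h1.rpow_const (p := -α) (Or.inl hc.ne')
  have e : Real.sinh (α⁻¹ * a * (x - c)) * (α⁻¹ * a) * -α *
      Real.cosh (α⁻¹ * a * (x - c)) ^ (-α - 1) =
      -a * (Real.sinh (α⁻¹ * a * (x - c)) / Real.cosh (α⁻¹ * a * (x - c))) * Cg α a c x := by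
    unfold Cg
    rw [Real.rpow_sub hc, Real.rpow_one]
    field_simp
  rw [← e]
  exact h2

theorem Conv_T_hasDerivAt (α a c x : ℝ) :
    HasDerivAt (fun x => Real.sinh (α⁻¹ * a * (x - c)) / Real.cosh (α⁻¹ * a * (x - c)))
      (α⁻¹ * a / Real.cosh (α⁻¹ * a * (x - c)) ^ 2) x := by
  have hθ : HasDerivAt (fun x : ℝ => α⁻¹ * a * (x - c)) (α⁻¹ * a) x := by
    have := ((hasDerivAt_id x).sub_const c).const_mul (α⁻¹ * a)
    rw [mul_one] at this
    exact this
  have hc := Real.cosh_pos (α⁻¹ * a * (x - c))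
  have h2 := hθ.sinh.div hθ.cosh hc.ne'
  have e : (Real.cosh (α⁻¹ * a * (x - c)) * (α⁻¹ * a) * Real.cosh (α⁻¹ * a * (x - c)) -
      Real.sinh (α⁻¹ * a * (x - c)) * (Real.sinh (α⁻¹ * a * (x - c)) * (α⁻¹ * a))) /
      Real.cosh (α⁻¹ * a * (x - c)) ^ 2 = α⁻¹ * a / Real.cosh (α⁻¹ * a * (x - c)) ^ 2 := by
    congr 1
    have := Real.cosh_sq_sub_sinh_sq (α⁻¹ * a * (x - c))
    linear_combination (α⁻¹ * a) * this
  rw [← e]
  exact h2

/-- energy of a localized ground state. -/
theorem Conv_energy {α : ℝ} (h0 : 0 < α) (a c : ℝ) (χ : ℝ → ℝ) (hχ : ContDiff ℝ ∞ χ)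
    (hs : HasCompactSupport χ) :
    ∫ x, ((deriv (fun x => χ x * Cg α a c x) x) ^ 2 -
      soliton α⁻¹ a c x * (χ x * Cg α a c x) ^ 2) =
      -a ^ 2 * (∫ x, (χ x * Cg α a c x) ^ 2) + ∫ x, (deriv χ x) ^ 2 * (Cg α a c x) ^ 2 := by
  have hχd : ∀ x, HasDerivAt χ (deriv χ x) x := fun x =>
    (hχ.differentiable (by simp) x).hasDerivAt
  have hdc : Continuous (deriv χ) := hχ.continuous_deriv (by simp)
  have hgc : Continuous (Cg α a c) := (Cg_contDiff α a c).continuous
  have hds : HasCompactSupport (deriv χ) := hs.deriv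
  have hcc : Continuous fun x : ℝ => Real.cosh (α⁻¹ * a * (x - c)) :=
    Real.continuous_cosh.comp (by fun_prop)
  have hcs : Continuous fun x : ℝ => Real.sinh (α⁻¹ * a * (x - c)) :=
    Real.continuous_sinh.comp (by fun_prop)
  have hT : Continuous fun x : ℝ =>
      Real.sinh (α⁻¹ * a * (x - c)) / Real.cosh (α⁻¹ * a * (x - c)) :=
    hcs.div hcc fun x => (Real.cosh_pos _).ne'
  have hcw : Continuous fun x : ℝ => α⁻¹ * a / Real.cosh (α⁻¹ * a * (x - c)) ^ 2 :=
    continuous_const.div (hcc.pow 2) fun x => (pow_pos (Real.cosh_pos _) 2).ne'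
  -- the total derivative
  set P : ℝ → ℝ := fun x => -a * (χ x ^ 2 *
    (Real.sinh (α⁻¹ * a * (x - c)) / Real.cosh (α⁻¹ * a * (x - c))) * Cg α a c x ^ 2) with hP
  set P' : ℝ → ℝ := fun x => -a * (2 * χ x * deriv χ x *
    (Real.sinh (α⁻¹ * a * (x - c)) / Real.cosh (α⁻¹ * a * (x - c))) * Cg α a c x ^ 2 +
      χ x ^ 2 * (α⁻¹ * a / Real.cosh (α⁻¹ * a * (x - c)) ^ 2) * Cg α a c x ^ 2 +
      χ x ^ 2 * (Real.sinh (α⁻¹ * a * (x - c)) / Real.cosh (α⁻¹ * a * (x - c))) *
        (2 * Cg α a c x * (-a * (Real.sinh (α⁻¹ * a * (x - c)) /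
          Real.cosh (α⁻¹ * a * (x - c))) * Cg α a c x))) with hP'
  have hPd : ∀ x, HasDerivAt P (P' x) x := by
    intro x
    have h1 := (((hχd x).pow 2).mul (Conv_T_hasDerivAt α a c x)).mul
      ((Cg_hasDerivAt h0 a c x).pow 2)
    have h2 := h1.const_mul (-a)
    refine HasDerivAt.congr_deriv h2 ?_
    simp only [hP', Pi.mul_apply, Pi.pow_apply]
    push_cast
    ring
  have hPs : HasCompactSupport P := by
    apply hs.mono
    intro x hx
    simp only [Function.mem_support] at hx ⊢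
    intro h
    apply hx
    simp [hP, h]
  have hP's : HasCompactSupport P' := by
    apply hs.mono
    intro x hx
    simp only [Function.mem_support] at hx ⊢
    intro h
    apply hx
    simp [hP', h]
  have hPi : Integrable P :=
    (by fun_prop : Continuous P).integrable_of_hasCompactSupport hPs
  have hP'i : Integrable P' :=
    (by fun_prop : Continuous P').integrable_of_hasCompactSupport hP's
  have hzero : ∫ x, P' x = 0 := integral_eq_zero_of_hasDerivAt_of_integrable hPd hP'i hPi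
  have i1 : Integrable fun x => (χ x * Cg α a c x) ^ 2 := by
    apply Continuous.integrable_of_hasCompactSupport (by fun_prop)
    apply hs.mono
    intro x hx
    simp only [Function.mem_support] at hx ⊢
    intro h
    apply hx
    simp [h]
  have i2 : Integrable fun x => (deriv χ x) ^ 2 * (Cg α a c x) ^ 2 := by
    apply Continuous.integrable_of_hasCompactSupport (by fun_prop)
    apply hds.mono
    intro x hx
    simp only [Function.mem_support] at hx ⊢
    intro h
    apply hx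
    simp [h]
  have hfun : ∀ x, (deriv (fun x => χ x * Cg α a c x) x) ^ 2 -
      soliton α⁻¹ a c x * (χ x * Cg α a c x) ^ 2 =
      (-a ^ 2 * (χ x * Cg α a c x) ^ 2 + (deriv χ x) ^ 2 * (Cg α a c x) ^ 2) + P' x := by
    intro x
    have h1 : deriv (fun x => χ x * Cg α a c x) x = deriv χ x * Cg α a c x -
        a * χ x * (Real.sinh (α⁻¹ * a * (x - c)) / Real.cosh (α⁻¹ * a * (x - c))) *
          Cg α a c x := by
      have := ((hχd x).mul (Cg_hasDerivAt h0 a c x)).deriv
      have e : deriv (fun x => χ x * Cg α a c x) x = deriv (χ * Cg α a c) x := rfl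
      rw [e, this]
      ring
    rw [h1]
    unfold soliton
    rw [Conv_ident α⁻¹ a _ _ (Cg α a c x) (χ x) (deriv χ x) (Real.cosh_pos _)
      (Real.cosh_sq_sub_sinh_sq _)]
  rw [integral_congr_ae (Eventually.of_forall hfun)]
  have e1 := integral_add ((i1.const_mul (-a ^ 2)).add i2) hP'i
  have e2 := integral_add (i1.const_mul (-a ^ 2)) i2
  rw [integral_const_mul] at e2
  rw [hzero, add_zero] at e1
  exact e1.trans e2

/-- **trial functions of the soliton.** -/
theorem soliton_trial {α : ℝ} (h0 : 0 < α) (a c : ℝ) {δ : ℝ} (hδ : 0 < δ) :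
    ∃ s : ℝ → ℝ, ContDiff ℝ ∞ s ∧ HasCompactSupport s ∧ (∫ x, s x ^ 2 = 1) ∧
      ∫ x, ((deriv s x) ^ 2 - soliton α⁻¹ a c x * s x ^ 2) < -a ^ 2 + δ := by
  let b : ContDiffBump (0 : ℝ) := ⟨1, 2, one_pos, one_lt_two⟩
  have hb : ContDiff ℝ ∞ (b : ℝ → ℝ) := b.contDiff
  have hbs : HasCompactSupport (b : ℝ → ℝ) := b.hasCompactSupport
  have hbd : ∀ x, HasDerivAt (b : ℝ → ℝ) (deriv b x) x := fun x =>
    (hb.differentiable (by simp) x).hasDerivAt
  have hbdc : Continuous (deriv (b : ℝ → ℝ)) := hb.continuous_deriv (by simp)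
  set C := ∫ x, (deriv (b : ℝ → ℝ) x) ^ 2 with hC
  have hC0 : 0 ≤ C := integral_nonneg fun x => sq_nonneg _
  set d := ∫ x in Icc (-1:ℝ) 1, (Cg α a c x) ^ 2 with hd
  have hgc : Continuous (Cg α a c) := (Cg_contDiff α a c).continuous
  have hdpos : 0 < d := by
    rw [hd, integral_Icc_eq_integral_Ioc, ← intervalIntegral.integral_of_le (by norm_num)]
    apply intervalIntegral.intervalIntegral_pos_of_pos_on
    · exact (hgc.pow 2).intervalIntegrable _ _
    · intro x _
      exact pow_pos (Cg_pos α a c x) 2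
    · norm_num
  set R := 1 + C / (d * δ) with hR
  have hR1 : 1 ≤ R := by
    rw [hR]; have : 0 ≤ C / (d * δ) := by positivity
    linarith
  have hRp : 0 < R := by linarith
  set χ : ℝ → ℝ := fun x => b (R⁻¹ * x) with hχdef
  have hχ : ContDiff ℝ ∞ χ := hb.comp (by fun_prop)
  have hχs : HasCompactSupport χ := by
    have := hbs.comp_homeomorph (Homeomorph.mulLeft₀ R⁻¹ (inv_pos.2 hRp).ne')
    exact this
  have hχd : ∀ x, deriv χ x = R⁻¹ * deriv b (R⁻¹ * x) := by
    intro x
    have h1 : HasDerivAt (fun x : ℝ => R⁻¹ * x) R⁻¹ x := by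
      have := (hasDerivAt_id x).const_mul R⁻¹
      rw [mul_one] at this
      exact this
    have h2 := (hbd (R⁻¹ * x)).comp x h1
    rw [mul_comm]
    exact h2.deriv
  have hχdc : Continuous (deriv χ) := hχ.continuous_deriv (by simp)
  set M := ∫ x, (χ x * Cg α a c x) ^ 2 with hM
  set A := ∫ x, (deriv χ x) ^ 2 * (Cg α a c x) ^ 2 with hA
  have i1 : Integrable fun x => (χ x * Cg α a c x) ^ 2 := by
    apply Continuous.integrable_of_hasCompactSupport
    · have := hχ.continuous
      fun_prop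
    · apply hχs.mono
      intro x hx
      simp only [Function.mem_support] at hx ⊢
      intro h
      apply hx
      simp [h]
  have i3 : Integrable fun x => (deriv χ x) ^ 2 := by
    apply Continuous.integrable_of_hasCompactSupport (by fun_prop)
    apply hχs.deriv.mono
    intro x hx
    simp only [Function.mem_support] at hx ⊢
    intro h
    apply hx
    simp [h]
  have hMd : d ≤ M := by
    have h1 : d = ∫ x in Icc (-1:ℝ) 1, (χ x * Cg α a c x) ^ 2 := by
      rw [hd]
      apply setIntegral_congr_fun measurableSet_Icc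
      intro x hx
      have h2 : χ x = 1 := by
        apply b.one_of_mem_closedBall
        show R⁻¹ * x ∈ Metric.closedBall (0:ℝ) 1
        rw [mem_closedBall_zero_iff, Real.norm_eq_abs, abs_mul, abs_of_pos (inv_pos.2 hRp)]
        have h3 : |x| ≤ 1 := abs_le.2 ⟨hx.1, hx.2⟩
        have h4 : R⁻¹ ≤ 1 := inv_le_one_of_one_le₀ hR1
        have := mul_le_mul h4 h3 (abs_nonneg x) zero_le_one
        linarith
      simp only [h2, one_mul]
    rw [h1]
    exact setIntegral_le_integral i1 (Eventually.of_forall fun x => sq_nonneg _)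
  have hMp : 0 < M := hdpos.trans_le hMd
  have hAC : A ≤ R⁻¹ * C := by
    have h1 : A ≤ ∫ x, (deriv χ x) ^ 2 := by
      apply integral_mono_of_nonneg (Eventually.of_forall fun x => by positivity) i3
      refine Eventually.of_forall fun x => ?_
      have h2 : (Cg α a c x) ^ 2 ≤ 1 := pow_le_one₀ (Cg_pos α a c x).le (Cg_le_one h0 a c x)
      show (deriv χ x) ^ 2 * (Cg α a c x) ^ 2 ≤ (deriv χ x) ^ 2
      have := mul_le_mul_of_nonneg_left h2 (sq_nonneg (deriv χ x))
      linarith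
    have h2 : ∫ x, (deriv χ x) ^ 2 = R⁻¹ * C := by
      have h3 : (fun x => (deriv χ x) ^ 2) =
          fun x => R⁻¹ ^ 2 * (fun y => (deriv (b : ℝ → ℝ) y) ^ 2) (R⁻¹ * x) := by
        funext x
        rw [hχd x, mul_pow]
      rw [h3, integral_const_mul, Measure.integral_comp_mul_left
        (fun y => (deriv (b : ℝ → ℝ) y) ^ 2) R⁻¹, ← hC, inv_inv, abs_of_pos hRp, smul_eq_mul]
      field_simp
    linarith
  have hE := Conv_energy h0 a c χ hχ hχs
  rw [← hM, ← hA] at hE
  -- normalize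
  set κ := (Real.sqrt M)⁻¹ with hκ
  have hκp : 0 < κ := inv_pos.2 (Real.sqrt_pos.2 hMp)
  have hκ2 : κ ^ 2 = M⁻¹ := by rw [hκ, inv_pow, Real.sq_sqrt hMp.le]
  refine ⟨fun x => κ * (χ x * Cg α a c x), ?_, ?_, ?_, ?_⟩
  · exact contDiff_const.mul (hχ.mul (Cg_contDiff α a c))
  · apply hχs.mono
    intro x hx
    simp only [Function.mem_support] at hx ⊢
    intro h
    apply hx
    simp [h]
  · have h1 : (fun x => (κ * (χ x * Cg α a c x)) ^ 2) =
        fun x => κ ^ 2 * (χ x * Cg α a c x) ^ 2 := by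
      funext x; ring
    rw [h1, integral_const_mul, hκ2, ← hM, inv_mul_cancel₀ hMp.ne']
  · have h1 : (fun x => (deriv (fun x => κ * (χ x * Cg α a c x)) x) ^ 2 -
        soliton α⁻¹ a c x * (κ * (χ x * Cg α a c x)) ^ 2) =
        fun x => κ ^ 2 * ((deriv (fun x => χ x * Cg α a c x) x) ^ 2 -
          soliton α⁻¹ a c x * (χ x * Cg α a c x) ^ 2) := by
      funext x
      have h2 : deriv (fun x => κ * (χ x * Cg α a c x)) x =
          κ * deriv (fun x => χ x * Cg α a c x) x := by
        apply deriv_const_mul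
        exact (hχ.differentiable (by simp) x).mul ((Cg_contDiff α a c).differentiable (by simp) x)
      rw [h2]; ring
    rw [h1, integral_const_mul, hE, hκ2]
    have h3 : M⁻¹ * (-a ^ 2 * M + A) = -a ^ 2 + A / M := by
      field_simp
    rw [h3]
    have h4 : A / M < δ := by
      rw [div_lt_iff₀ hMp]
      have h5 : R⁻¹ * C < δ * d := by
        rw [inv_mul_lt_iff₀ hRp, hR]
        have : (1 + C / (d * δ)) * (δ * d) = δ * d + C := by
          field_simp
        rw [this]
        have : 0 < δ * d := by positivity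
        linarith
      have h6 : δ * d ≤ δ * M := mul_le_mul_of_nonneg_left hMd hδ.le
      linarith
    linarith

end Crest.Agent.LT
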