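import Crest.Agent.LT_Log

/-!
# LT: the key matrix inequality (d): for `X, Y > 0`, `G = (X+Y)⁻¹`,
`tr[(XY+YX)/2 (Dlog_X[G] + Dlog_Y[G])] ≤ N`.
-/

set_option autoImplicit false
set_option linter.unusedSectionVars false
open Matrix MeasureTheory Filter Topology Set
open scoped Matrix.Norms.L2Operator ComplexOrder MatrixOrder

namespace LT

variable {n : Type*} [Fintype n] [DecidableEq n]

theorem rtr_mul_Dlog {X : Matrix n n ℂ} {c : ℝ} (hc : 0 < c) (hX : LB c X) (M G : Matrix n n ℂ) :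
    IntegrableOn (fun t => rtr (M * (rs X t * G * rs X t))) (Ioi 0) ∧
    rtr (M * Dlog X G) = ∫ t in Ioi (0:ℝ), rtr (M * (rs X t * G * rs X t)) := by
  have h1 := integrable_rs_mul hc hX hX G
  let L : Matrix n n ℂ →L[ℝ] ℝ := rtrCLM.comp (ContinuousLinearMap.mul ℝ (Matrix n n ℂ) M)
  have hL : ∀ Z, L Z = rtr (M * Z) := fun Z => rfl
  have h2 := L.integrable_comp h1
  have h3 := L.integral_comp_comm h1
  refine ⟨?_, ?_⟩
  · exact h2
  · rw [← hL]
    exact h3.symm

/-- `tr (A T A⁻¹ T) ≥ tr T²` for Hermitian `T` and positive definite `A`. -/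
theorem rtr_conj_ge {A T : Matrix n n ℂ} (hA : A.PosDef) (hT : T.IsHermitian) :
    rtr (T * T) ≤ rtr (A * T * cfc (fun x : ℝ => x⁻¹) A * T) := by
  have hAh := hA.isHermitian
  set U := (hAh.eigenvectorUnitary : Matrix n n ℂ) with hU
  set P := Uᴴ * T * U with hP
  have hUU : U * Uᴴ = 1 := U_mul_conj hAh
  have hPh : Pᴴ = P := by
    rw [hP, conjTranspose_mul, conjTranspose_mul, conjTranspose_conjTranspose, hT.eq, mul_assoc]
  have hpos : ∀ i, 0 < hAh.eigenvalues i := hA.eigenvalues_pos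
  -- both sides in the eigenbasis
  have e1 : rtr (T * T) = ∑ i, ∑ j, Complex.normSq (P i j) * ((1:ℝ) * 1) := by
    have h1 := rtr_diag_mul (fun _ : n => (1:ℝ)) (fun _ : n => (1:ℝ)) P
    rw [← h1, hPh]
    have h2 : diagonal (fun _ : n => (((1:ℝ) : ℝ) : ℂ)) = (1 : Matrix n n ℂ) := by
      simp
    rw [h2, one_mul, mul_one, hP]
    have h3 : Uᴴ * T * U * (Uᴴ * T * U) = Uᴴ * (T * T * U) := by
      calc Uᴴ * T * U * (Uᴴ * T * U) = Uᴴ * T * (U * Uᴴ) * T * U := by simp only [mul_assoc]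
        _ = Uᴴ * (T * T * U) := by rw [hUU, mul_one]; simp only [mul_assoc]
    rw [h3, rtr_mul_comm Uᴴ, mul_assoc, hUU, mul_one]
  have e2 : rtr (A * T * cfc (fun x : ℝ => x⁻¹) A * T) =
      ∑ i, ∑ j, Complex.normSq (P i j) * (hAh.eigenvalues i * (hAh.eigenvalues j)⁻¹) := by
    have h1 := rtr_diag_mul (fun i : n => hAh.eigenvalues i)
      (fun i : n => (hAh.eigenvalues i)⁻¹) P
    rw [← h1, hPh]
    have hAe : rtr (A * T * cfc (fun x : ℝ => x⁻¹) A * T) =
        rtr (cfc (fun x : ℝ => x) A * T * cfc (fun x : ℝ => x⁻¹) A * T) := by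
      rw [cfc_id_eq hAh]
    rw [hAe, cfc_eq_conj hAh (fun x : ℝ => x), cfc_eq_conj hAh (fun x : ℝ => x⁻¹), ← hU, hP]
    set D1 : Matrix n n ℂ := diagonal (fun i => ((hAh.eigenvalues i : ℝ) : ℂ))
    set D2 : Matrix n n ℂ := diagonal (fun i => (((hAh.eigenvalues i)⁻¹ : ℝ) : ℂ))
    have h3 : U * D1 * Uᴴ * T * (U * D2 * Uᴴ) * T = U * (D1 * (Uᴴ * T * U) * D2 * (Uᴴ * T)) := by
      simp only [mul_assoc]
    rw [h3, rtr_mul_comm]
    simp only [mul_assoc]
  -- symmetrize
  have hsym : ∀ i j, Complex.normSq (P i j) = Complex.normSq (P j i) := by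
    intro i j
    have : P i j = star (P j i) := by
      conv_lhs => rw [← hPh]
      rfl
    rw [this, Complex.star_def, Complex.normSq_conj]
  have e3 : ∑ i, ∑ j, Complex.normSq (P i j) * (hAh.eigenvalues i * (hAh.eigenvalues j)⁻¹) =
      ∑ i, ∑ j, Complex.normSq (P i j) * (hAh.eigenvalues j * (hAh.eigenvalues i)⁻¹) := by
    rw [Finset.sum_comm]
    refine Finset.sum_congr rfl fun i _ => Finset.sum_congr rfl fun j _ => ?_
    rw [hsym]
  have e4 : 2 * rtr (T * T) ≤ 2 * rtr (A * T * cfc (fun x : ℝ => x⁻¹) A * T) := by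
    have h5 : 2 * rtr (A * T * cfc (fun x : ℝ => x⁻¹) A * T) =
        ∑ i, ∑ j, Complex.normSq (P i j) * (hAh.eigenvalues i * (hAh.eigenvalues j)⁻¹ +
          hAh.eigenvalues j * (hAh.eigenvalues i)⁻¹) := by
      rw [two_mul]
      nth_rewrite 1 [e2]
      rw [e2, e3, ← e3]
      nth_rewrite 2 [e3]
      rw [← Finset.sum_add_distrib]
      refine Finset.sum_congr rfl fun i _ => ?_
      rw [← Finset.sum_add_distrib]
      refine Finset.sum_congr rfl fun j _ => ?_
      ring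
    rw [h5, e1, Finset.mul_sum]
    refine Finset.sum_le_sum fun i _ => ?_
    rw [Finset.mul_sum]
    refine Finset.sum_le_sum fun j _ => ?_
    have hi := hpos i
    have hj := hpos j
    have h6 : 2 ≤ hAh.eigenvalues i * (hAh.eigenvalues j)⁻¹ +
        hAh.eigenvalues j * (hAh.eigenvalues i)⁻¹ := by
      rw [← div_eq_mul_inv, ← div_eq_mul_inv, div_add_div _ _ hj.ne' hi.ne',
        le_div_iff₀ (by positivity)]
      nlinarith [sq_nonneg (hAh.eigenvalues i - hAh.eigenvalues j)]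
    have h7 := mul_le_mul_of_nonneg_left h6 (Complex.normSq_nonneg (P i j))
    linarith
  linarith

/-- pointwise (in the resolvent parameter) form of (d). -/
theorem hjd_pointwise {X A : Matrix n n ℂ} {c : ℝ} (hX : LB c X) (hA : A.PosDef)
    {t : ℝ} (ht : 0 ≤ t) (hct : 0 < c + t) :
    rtr (((2:ℝ)⁻¹ • (X * (A - X) + (A - X) * X)) *
      (rs X t * cfc (fun x : ℝ => x⁻¹) A * rs X t)) ≤
      rtr (X * rs X t * rs X t) -
        rtr (X * X * rs X t * rs X t * cfc (fun x : ℝ => x⁻¹) A) := by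
  set T := rs X t with hT
  set G := cfc (fun x : ℝ => x⁻¹) A with hG
  have hAG : A * G = 1 := by
    have hAh := hA.isHermitian
    have h1 : A * G = cfc (fun x : ℝ => x) A * G := by rw [cfc_id_eq hAh]
    rw [h1, hG, cfc_mul_eq hAh, ← cfc_one_eq hAh]
    exact cfc_congr_eigen hAh fun i => mul_inv_cancel₀ (hA.eigenvalues_pos i).ne'
  have hGA : G * A = 1 := mul_eq_one_comm.1 hAG
  have hXT : X * T = 1 - t • T := by
    have := add_mul_rs hX hct
    rw [← hT, add_mul, smul_mul_assoc, one_mul] at this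
    exact eq_sub_of_add_eq this
  have hTX : T * X = 1 - t • T := by
    have := rs_mul_add hX hct
    rw [← hT, mul_add, mul_smul_comm, mul_one] at this
    exact eq_sub_of_add_eq this
  have hcomm : X * T = T * X := by rw [hXT, hTX]
  -- the two mixed terms
  have m1 : rtr (X * A * (T * G * T)) = rtr T - t * rtr (A * T * G * T) := by
    have h1 : X * A * (T * G * T) = X * (A * T * G * T) := by simp only [mul_assoc]
    rw [h1, rtr_mul_comm]
    have h2 : A * T * G * T * X = A * T * G * (T * X) := by simp only [mul_assoc]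
    rw [h2, hTX, mul_sub, mul_one, mul_smul_comm, rtr_sub, rtr_smul]
    congr 1
    rw [rtr_mul_comm, ← mul_assoc, hGA, one_mul]
  have m2 : rtr (A * X * (T * G * T)) = rtr T - t * rtr (A * T * G * T) := by
    have h1 : A * X * (T * G * T) = A * (X * T) * G * T := by simp only [mul_assoc]
    rw [h1, hXT, mul_sub, mul_one, mul_smul_comm, sub_mul, sub_mul, hAG, one_mul, rtr_sub,
      smul_mul_assoc, smul_mul_assoc, rtr_smul]
  have m3 : rtr (X * X * (T * G * T)) = rtr (X * X * T * T * G) := by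
    have h1 : X * X * (T * G * T) = (X * X * T * G) * T := by simp only [mul_assoc]
    rw [h1, rtr_mul_comm]
    have h2 : T * (X * X * T * G) = (T * X) * X * T * G := by simp only [mul_assoc]
    rw [h2, ← hcomm]
    have h3 : X * T * X * T * G = X * (T * X) * T * G := by simp only [mul_assoc]
    rw [h3, ← hcomm]
    simp only [mul_assoc]
  have m4 : rtr (X * T * T) = rtr T - t * rtr (T * T) := by
    rw [hXT, sub_mul, one_mul, smul_mul_assoc, rtr_sub, rtr_smul]
  have key := rtr_conj_ge hA (rs_hermitian X t)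
  rw [← hT, ← hG] at key
  have e : ((2:ℝ)⁻¹ • (X * (A - X) + (A - X) * X)) * (T * G * T) =
      (2:ℝ)⁻¹ • (X * A * (T * G * T) + A * X * (T * G * T)) - X * X * (T * G * T) := by
    have h1 : X * (A - X) + (A - X) * X = X * A + A * X - (2:ℝ) • (X * X) := by
      rw [mul_sub, sub_mul, two_smul]; abel
    rw [h1, smul_sub, smul_smul, inv_mul_cancel₀ two_ne_zero, one_smul, sub_mul, smul_mul_assoc,
      add_mul]
  rw [e, rtr_sub, rtr_smul, rtr_add, m1, m2, m3, m4]
  have := mul_le_mul_of_nonneg_left key ht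
  linarith

/-- one half of (d). -/
theorem hjd_half {X A : Matrix n n ℂ} (hX : X.PosDef) (hA : A.PosDef) :
    rtr (((2:ℝ)⁻¹ • (X * (A - X) + (A - X) * X)) * Dlog X (cfc (fun x : ℝ => x⁻¹) A)) ≤
      Fintype.card n - rtr (X * cfc (fun x : ℝ => x⁻¹) A) := by
  obtain ⟨c, hc, hL⟩ := exists_LB hX
  set G := cfc (fun x : ℝ => x⁻¹) A with hG
  have hXh := hX.isHermitian
  obtain ⟨i1, e1⟩ := rtr_mul_Dlog hc hL ((2:ℝ)⁻¹ • (X * (A - X) + (A - X) * X)) G
  rw [e1]
  have hpos : ∀ i, 0 < hXh.eigenvalues i := hX.eigenvalues_pos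
  -- first integral
  have s1 : ∀ i, Integrable (fun t : ℝ => hXh.eigenvalues i * ((hXh.eigenvalues i + t) ^ 2)⁻¹)
      (volume.restrict (Ioi 0)) := fun i => (sc_inv_sq (hpos i)).1.const_mul _
  obtain ⟨i2, e2⟩ := integral_cfc_param (volume.restrict (Ioi (0:ℝ))) hXh
    (fun (t : ℝ) (x : ℝ) => x * ((x + t) ^ 2)⁻¹) s1
  have s2 : ∀ i, Integrable (fun t : ℝ => hXh.eigenvalues i * hXh.eigenvalues i *
      ((hXh.eigenvalues i + t) ^ 2)⁻¹)
      (volume.restrict (Ioi 0)) := fun i => (sc_inv_sq (hpos i)).1.const_mul _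
  obtain ⟨i3, e3⟩ := integral_cfc_param (volume.restrict (Ioi (0:ℝ))) hXh
    (fun (t : ℝ) (x : ℝ) => x * x * ((x + t) ^ 2)⁻¹) s2
  have f2 : cfc (fun x : ℝ => ∫ t in Ioi (0:ℝ), x * ((x + t) ^ 2)⁻¹) X = 1 := by
    rw [← cfc_one_eq hXh]
    apply cfc_congr_eigen hXh
    intro i
    rw [integral_const_mul, (sc_inv_sq (hpos i)).2, mul_inv_cancel₀ (hpos i).ne']
  have f3 : cfc (fun x : ℝ => ∫ t in Ioi (0:ℝ), x * x * ((x + t) ^ 2)⁻¹) X = X := by
    conv_rhs => rw [← cfc_id_eq hXh]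
    apply cfc_congr_eigen hXh
    intro i
    rw [integral_const_mul, (sc_inv_sq (hpos i)).2, mul_assoc, mul_inv_cancel₀ (hpos i).ne',
      mul_one]
  -- identify the integrands
  have g2 : ∀ t, X * rs X t * rs X t = cfc (fun x : ℝ => x * ((x + t) ^ 2)⁻¹) X := by
    intro t
    have : X * rs X t * rs X t = cfc (fun x : ℝ => x) X * rs X t * rs X t := by
      rw [cfc_id_eq hXh]
    rw [this]
    simp only [rs]
    rw [cfc_mul_eq hXh, cfc_mul_eq hXh]
    congr 1
    funext x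
    rw [pow_two, mul_inv]; ring
  have g3 : ∀ t, X * X * rs X t * rs X t = cfc (fun x : ℝ => x * x * ((x + t) ^ 2)⁻¹) X := by
    intro t
    have : X * X * rs X t * rs X t =
        cfc (fun x : ℝ => x) X * cfc (fun x : ℝ => x) X * rs X t * rs X t := by
      rw [cfc_id_eq hXh]
    rw [this]
    simp only [rs]
    rw [cfc_mul_eq hXh, cfc_mul_eq hXh, cfc_mul_eq hXh]
    congr 1
    funext x
    rw [pow_two, mul_inv]; ring
  let L2 : Matrix n n ℂ →L[ℝ] ℝ := rtrCLM
  let L3 : Matrix n n ℂ →L[ℝ] ℝ :=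
    rtrCLM.comp ((ContinuousLinearMap.mul ℝ (Matrix n n ℂ)).flip G)
  have hL3 : ∀ Z, L3 Z = rtr (Z * G) := fun Z => rfl
  have j2 := L2.integrable_comp i2
  have j3 := L3.integrable_comp i3
  have k2 := L2.integral_comp_comm i2
  have k3 := L3.integral_comp_comm i3
  rw [e2, f2] at k2
  rw [e3, f3] at k3
  have bound : ∫ t in Ioi (0:ℝ), rtr (((2:ℝ)⁻¹ • (X * (A - X) + (A - X) * X)) *
      (rs X t * G * rs X t)) ≤
      ∫ t in Ioi (0:ℝ), (L2 (cfc (fun x : ℝ => x * ((x + t) ^ 2)⁻¹) X) -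
        L3 (cfc (fun x : ℝ => x * x * ((x + t) ^ 2)⁻¹) X)) := by
    apply setIntegral_mono_on i1 (j2.sub j3) measurableSet_Ioi
    intro t ht
    have ht' : (0:ℝ) < t := ht
    have h := hjd_pointwise hL hA ht'.le (show 0 < c + t by linarith)
    rw [g2 t, g3 t] at h
    exact h
  refine bound.trans (le_of_eq ?_)
  rw [integral_sub j2 j3, k2, k3, hL3]
  have : L2 (1 : Matrix n n ℂ) = Fintype.card n := rtr_one
  rw [this]

/-- **the key inequality (d)**. -/
theorem hjd {X Y : Matrix n n ℂ} (hX : X.PosDef) (hY : Y.PosDef) :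
    rtr (((2:ℝ)⁻¹ • (X * Y + Y * X)) * (Dlog X (cfc (fun x : ℝ => x⁻¹) (X + Y)) +
      Dlog Y (cfc (fun x : ℝ => x⁻¹) (X + Y)))) ≤ Fintype.card n := by
  have hA : (X + Y).PosDef := hX.add hY
  have h1 := hjd_half hX hA
  have h2 := hjd_half hY hA
  have a1 : X + Y - X = Y := by abel
  have a2 : X + Y - Y = X := by abel
  rw [a1] at h1
  rw [a2, add_comm (Y * X)] at h2
  set G := cfc (fun x : ℝ => x⁻¹) (X + Y) with hG
  have hAG : (X + Y) * G = 1 := by
    have hAh := hA.isHermitian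
    have h1 : (X + Y) * G = cfc (fun x : ℝ => x) (X + Y) * G := by rw [cfc_id_eq hAh]
    rw [h1, hG, cfc_mul_eq hAh, ← cfc_one_eq hAh]
    exact cfc_congr_eigen hAh fun i => mul_inv_cancel₀ (hA.eigenvalues_pos i).ne'
  have h3 : rtr (X * G) + rtr (Y * G) = Fintype.card n := by
    rw [← rtr_add, ← add_mul, hAG, rtr_one]
  rw [mul_add, rtr_add]
  linarith

end LT
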