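import Crest.Agent.LT_Spec

/-!
# LT: resolvents, the integral representation of the matrix logarithm and its derivative
-/

set_option autoImplicit false
set_option linter.unusedSectionVars false
open Matrix MeasureTheory Filter Topology Set
open scoped Matrix.Norms.L2Operator ComplexOrder MatrixOrder

namespace LT

/-! ### scalar integrals -/

theorem sc_inv_sq {c : ℝ} (hc : 0 < c) :
    IntegrableOn (fun t : ℝ => ((c + t) ^ 2)⁻¹) (Ioi 0) ∧
      ∫ t in Ioi (0:ℝ), ((c + t) ^ 2)⁻¹ = c⁻¹ := by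
  have hd : ∀ x ∈ Ici (0:ℝ), HasDerivAt (fun t : ℝ => -(c + t)⁻¹) (((c + x) ^ 2)⁻¹) x := by
    intro x hx
    have hx' : (0:ℝ) ≤ x := hx
    have h1 : HasDerivAt (fun t : ℝ => c + t) 1 x := (hasDerivAt_id x).const_add c
    have h2 := (h1.inv (by positivity)).neg
    have e : -(-1 / (c + x) ^ 2) = ((c + x) ^ 2)⁻¹ := by rw [neg_div, neg_neg, one_div]
    rw [e] at h2
    exact h2
  have hl : Tendsto (fun t : ℝ => -(c + t)⁻¹) atTop (𝓝 0) := by
    have : Tendsto (fun t : ℝ => c + t) atTop atTop := tendsto_atTop_add_const_left _ _ tendsto_id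
    have := this.inv_tendsto_atTop.neg
    simpa using this
  have hp : ∀ x ∈ Ioi (0:ℝ), 0 ≤ ((c + x) ^ 2)⁻¹ := fun x _ => by positivity
  refine ⟨integrableOn_Ioi_deriv_of_nonneg' hd hp hl, ?_⟩
  rw [integral_Ioi_of_hasDerivAt_of_nonneg' hd hp hl]
  simp

theorem sc_log {x : ℝ} (hx : 0 < x) :
    IntegrableOn (fun t : ℝ => (1 + t)⁻¹ - (x + t)⁻¹) (Ioi 0) ∧
      ∫ t in Ioi (0:ℝ), ((1 + t)⁻¹ - (x + t)⁻¹) = Real.log x := by
  have hd : ∀ s ∈ Ici (0:ℝ), HasDerivAt (fun t : ℝ => Real.log (1 + t) - Real.log (x + t))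
      ((1 + s)⁻¹ - (x + s)⁻¹) s := by
    intro s hs
    have hs' : (0:ℝ) ≤ s := hs
    have h1 : HasDerivAt (fun t : ℝ => 1 + t) 1 s := (hasDerivAt_id s).const_add 1
    have h2 : HasDerivAt (fun t : ℝ => x + t) 1 s := (hasDerivAt_id s).const_add x
    have h3 := (h1.log (by positivity)).sub (h2.log (by positivity))
    rw [one_div, one_div] at h3
    exact h3
  have hl : Tendsto (fun t : ℝ => Real.log (1 + t) - Real.log (x + t)) atTop (𝓝 0) := by
    have h1 : Tendsto (fun t : ℝ => x + t) atTop atTop := tendsto_atTop_add_const_left _ _ tendsto_id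
    have h2 : Tendsto (fun t : ℝ => 1 + (1 - x) * (x + t)⁻¹) atTop (𝓝 (1 + (1 - x) * 0)) :=
      (h1.inv_tendsto_atTop.const_mul (1 - x)).const_add 1
    rw [mul_zero, add_zero] at h2
    have h3 := h2.log one_ne_zero
    rw [Real.log_one] at h3
    refine h3.congr' ?_
    filter_upwards [eventually_ge_atTop 0] with t ht
    rw [← Real.log_div (by positivity) (by positivity)]
    congr 1
    field_simp
    ring
  rcases le_total 1 x with h | h
  · have hp : ∀ s ∈ Ioi (0:ℝ), 0 ≤ (1 + s)⁻¹ - (x + s)⁻¹ := by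
      intro s hs
      have hs' : (0:ℝ) < s := hs
      rw [sub_nonneg]
      exact inv_anti₀ (by positivity) (by linarith)
    refine ⟨integrableOn_Ioi_deriv_of_nonneg' hd hp hl, ?_⟩
    rw [integral_Ioi_of_hasDerivAt_of_nonneg' hd hp hl]
    simp
  · have hp : ∀ s ∈ Ioi (0:ℝ), (1 + s)⁻¹ - (x + s)⁻¹ ≤ 0 := by
      intro s hs
      have hs' : (0:ℝ) < s := hs
      rw [sub_nonpos]
      exact inv_anti₀ (by positivity) (by linarith)
    refine ⟨integrableOn_Ioi_deriv_of_nonpos' hd hp hl, ?_⟩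
    rw [integral_Ioi_of_hasDerivAt_of_nonpos' hd hp hl]
    simp

variable {n : Type*} [Fintype n] [DecidableEq n]

/-! ### resolvents -/

/-- the resolvent `(X + t)⁻¹`. -/
noncomputable def rs (X : Matrix n n ℂ) (t : ℝ) : Matrix n n ℂ := cfc (fun x : ℝ => (x + t)⁻¹) X

/-- `X` is Hermitian with spectrum in `[c,∞)`. -/
def LB (c : ℝ) (X : Matrix n n ℂ) : Prop := ∃ h : X.IsHermitian, ∀ i, c ≤ h.eigenvalues i

theorem LB.herm {c : ℝ} {X : Matrix n n ℂ} (h : LB c X) : X.IsHermitian := h.1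

theorem LB.eig {c : ℝ} {X : Matrix n n ℂ} (h : LB c X) (h' : X.IsHermitian) (i : n) :
    c ≤ h'.eigenvalues i := h.2 i

theorem lb_iff {c : ℝ} {X : Matrix n n ℂ} :
    LB c X ↔ X.IsHermitian ∧ algebraMap ℝ (Matrix n n ℂ) c ≤ X := by
  constructor
  · rintro ⟨h, hc⟩
    refine ⟨h, ?_⟩
    have hsa : IsSelfAdjoint X := h
    rw [algebraMap_le_iff_le_spectrum (a := X) (r := c) hsa, h.spectrum_real_eq_range_eigenvalues]
    rintro x ⟨i, rfl⟩
    exact hc i
  · rintro ⟨h, hc⟩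
    refine ⟨h, fun i => ?_⟩
    have hsa : IsSelfAdjoint X := h
    rw [algebraMap_le_iff_le_spectrum (a := X) (r := c) hsa,
      h.spectrum_real_eq_range_eigenvalues] at hc
    exact hc _ ⟨i, rfl⟩

theorem LB.posDef {c : ℝ} {X : Matrix n n ℂ} (h : LB c X) (hc : 0 < c) : X.PosDef :=
  h.herm.posDef_iff_eigenvalues_pos.2 fun i => hc.trans_le (h.eig _ i)

theorem exists_LB {X : Matrix n n ℂ} (h : X.PosDef) : ∃ c, 0 < c ∧ LB c X := by
  rcases isEmpty_or_nonempty n with hn | hn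
  · exact ⟨1, one_pos, h.isHermitian, fun i => (IsEmpty.false i).elim⟩
  · obtain ⟨i, hi⟩ := Finite.exists_min h.isHermitian.eigenvalues
    exact ⟨h.isHermitian.eigenvalues i, h.eigenvalues_pos i, h.isHermitian, hi⟩

theorem LB.mono {c d : ℝ} {X : Matrix n n ℂ} (h : LB c X) (hd : d ≤ c) : LB d X :=
  ⟨h.herm, fun i => hd.trans (h.eig _ i)⟩

/-- stability of the lower bound. -/
theorem LB.perturb {c : ℝ} {X Y : Matrix n n ℂ} (h : LB c X) (hY : Y.IsHermitian) {δ : ℝ}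
    (hXY : ‖Y - X‖ ≤ δ) : LB (c - δ) Y := by
  rw [lb_iff] at h ⊢
  refine ⟨hY, ?_⟩
  have hsa : IsSelfAdjoint (Y - X) := (hY.sub h.1)
  have h1 := hsa.neg_algebraMap_norm_le_self
  have h2 : algebraMap ℝ (Matrix n n ℂ) (-δ) ≤ -(algebraMap ℝ (Matrix n n ℂ) ‖Y - X‖) := by
    rw [← map_neg]
    exact algebraMap_mono _ (neg_le_neg hXY)
  have h3 := add_le_add h.2 (h2.trans h1)
  rw [← map_add, add_sub_cancel] at h3
  exact h3

theorem norm_cfc_le_of {X : Matrix n n ℂ} (hX : X.IsHermitian) (f : ℝ → ℝ) {C : ℝ} (hC : 0 ≤ C)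
    (h : ∀ i, |f (hX.eigenvalues i)| ≤ C) : ‖cfc f X‖ ≤ C := by
  apply norm_cfc_le hC
  intro x hx
  rw [hX.spectrum_real_eq_range_eigenvalues] at hx
  obtain ⟨i, rfl⟩ := hx
  exact h i

theorem norm_rs_le {X : Matrix n n ℂ} {c : ℝ} (h : LB c X) {t : ℝ} (hct : 0 < c + t) :
    ‖rs X t‖ ≤ (c + t)⁻¹ := by
  apply norm_cfc_le_of h.herm _ (by positivity)
  intro i
  have h1 := h.eig h.herm i
  rw [abs_of_nonneg (inv_nonneg.2 (by linarith))]
  exact inv_anti₀ hct (by linarith)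

theorem add_mul_rs {X : Matrix n n ℂ} {c : ℝ} (h : LB c X) {t : ℝ} (hct : 0 < c + t) :
    (X + t • (1 : Matrix n n ℂ)) * rs X t = 1 := by
  have hX := h.herm
  have h1 : X + t • (1 : Matrix n n ℂ) = cfc (fun x : ℝ => x + t) X := by
    rw [← cfc_add_eq hX (fun x => x) (fun _ => t), cfc_id_eq hX, cfc_const_eq hX]
  rw [h1, rs, cfc_mul_eq hX, ← cfc_one_eq hX]
  apply cfc_congr_eigen hX
  intro i
  have := h.eig hX i
  exact mul_inv_cancel₀ (by linarith)

theorem rs_mul_add {X : Matrix n n ℂ} {c : ℝ} (h : LB c X) {t : ℝ} (hct : 0 < c + t) :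
    rs X t * (X + t • (1 : Matrix n n ℂ)) = 1 :=
  mul_eq_one_comm.1 (add_mul_rs h hct)

theorem rs_hermitian (X : Matrix n n ℂ) (t : ℝ) : (rs X t).IsHermitian := cfc_hermitian _ _

/-- resolvent identity. -/
theorem rs_sub_rs {X Y : Matrix n n ℂ} {c : ℝ} (hX : LB c X) (hY : LB c Y) {t : ℝ}
    (hct : 0 < c + t) : rs X t - rs Y t = rs Y t * (Y - X) * rs X t := by
  have h1 : Y - X = (Y + t • (1 : Matrix n n ℂ)) - (X + t • (1 : Matrix n n ℂ)) := by abel
  rw [h1, mul_sub, sub_mul, rs_mul_add hY hct, one_mul, mul_assoc, add_mul_rs hX hct, mul_one]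

theorem continuousOn_rs {X : Matrix n n ℂ} {c : ℝ} (hc : 0 < c) (h : LB c X) :
    ContinuousOn (rs X) (Ioi 0) := by
  intro t ht
  have ht' : (0:ℝ) < t := ht
  apply ContinuousAt.continuousWithinAt
  apply continuousAt_cfc_param h.herm (fun (t : ℝ) (x : ℝ) => (x + t)⁻¹)
  intro i
  have := h.eig h.herm i
  apply ContinuousAt.inv₀
  · fun_prop
  · linarith

theorem integrable_rs_mul {X Y : Matrix n n ℂ} {c : ℝ} (hc : 0 < c) (hX : LB c X) (hY : LB c Y)
    (H : Matrix n n ℂ) : IntegrableOn (fun t => rs Y t * H * rs X t) (Ioi 0) := by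
  have h1 := (sc_inv_sq hc).1.const_mul ‖H‖
  refine Integrable.mono' h1 ?_ ?_
  · apply ContinuousOn.aestronglyMeasurable _ measurableSet_Ioi
    exact ((continuousOn_rs hc hY).mul continuousOn_const).mul (continuousOn_rs hc hX)
  · rw [ae_restrict_iff' measurableSet_Ioi]
    refine Eventually.of_forall fun t ht => ?_
    have ht' : (0:ℝ) < t := ht
    have h2 := norm_rs_le hX (show 0 < c + t by linarith)
    have h3 := norm_rs_le hY (show 0 < c + t by linarith)
    have h4 : 0 ≤ (c + t)⁻¹ := by positivity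
    calc ‖rs Y t * H * rs X t‖ ≤ ‖rs Y t‖ * ‖H‖ * ‖rs X t‖ :=
          (norm_mul_le _ _).trans (mul_le_mul_of_nonneg_right (norm_mul_le _ _) (norm_nonneg _))
      _ ≤ (c + t)⁻¹ * ‖H‖ * (c + t)⁻¹ := by gcongr
      _ = ‖H‖ * ((c + t) ^ 2)⁻¹ := by rw [pow_two, mul_inv]; ring

/-- derivative of the logarithm at `X` in the direction `G`. -/
noncomputable def Dlog (X G : Matrix n n ℂ) : Matrix n n ℂ :=
  ∫ t in Ioi (0:ℝ), rs X t * G * rs X t

/-- the integral representation of the logarithm. -/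
theorem log_eq_integral {X : Matrix n n ℂ} {c : ℝ} (hc : 0 < c) (h : LB c X) :
    IntegrableOn (fun t => cfc (fun x : ℝ => (1 + t)⁻¹ - (x + t)⁻¹) X) (Ioi 0) ∧
      cfc Real.log X = ∫ t in Ioi (0:ℝ), cfc (fun x : ℝ => (1 + t)⁻¹ - (x + t)⁻¹) X := by
  have h1 : ∀ i, Integrable (fun t : ℝ => (1 + t)⁻¹ - (h.herm.eigenvalues i + t)⁻¹)
      (volume.restrict (Ioi 0)) := fun i => (sc_log (hc.trans_le (h.eig h.herm i))).1
  obtain ⟨h2, h3⟩ := integral_cfc_param (volume.restrict (Ioi (0:ℝ))) h.herm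
    (fun (t : ℝ) (x : ℝ) => (1 + t)⁻¹ - (x + t)⁻¹) h1
  refine ⟨h2, ?_⟩
  rw [h3]
  apply cfc_congr_eigen h.herm
  intro i
  exact ((sc_log (hc.trans_le (h.eig h.herm i))).2).symm

/-- difference of two logarithms. -/
theorem log_sub_log {X Y : Matrix n n ℂ} {c : ℝ} (hc : 0 < c) (hX : LB c X) (hY : LB c Y) :
    cfc Real.log Y - cfc Real.log X = ∫ t in Ioi (0:ℝ), rs Y t * (Y - X) * rs X t := by
  obtain ⟨i1, e1⟩ := log_eq_integral hc hX
  obtain ⟨i2, e2⟩ := log_eq_integral hc hY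
  rw [e1, e2, ← integral_sub i2 i1]
  apply setIntegral_congr_fun measurableSet_Ioi
  intro t ht
  have ht' : (0:ℝ) < t := ht
  simp only
  rw [← rs_sub_rs hX hY (show 0 < c + t by linarith)]
  rw [← cfc_sub_eq hX.herm (fun _ => (1 + t)⁻¹) (fun x => (x + t)⁻¹),
    ← cfc_sub_eq hY.herm (fun _ => (1 + t)⁻¹) (fun x => (x + t)⁻¹),
    cfc_const_eq hX.herm, cfc_const_eq hY.herm]
  simp only [rs]
  abel

/-- the logarithm is Lipschitz on `{X ≥ c}`. -/
theorem norm_log_sub_log_le {X Y : Matrix n n ℂ} {c : ℝ} (hc : 0 < c) (hX : LB c X)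
    (hY : LB c Y) : ‖cfc Real.log Y - cfc Real.log X‖ ≤ c⁻¹ * ‖Y - X‖ := by
  rw [log_sub_log hc hX hY]
  have h1 := (sc_inv_sq hc).1.const_mul ‖Y - X‖
  have h2 : ∫ t in Ioi (0:ℝ), ‖Y - X‖ * ((c + t) ^ 2)⁻¹ = c⁻¹ * ‖Y - X‖ := by
    rw [integral_const_mul, (sc_inv_sq hc).2, mul_comm]
  rw [← h2]
  refine norm_integral_le_of_norm_le h1 ?_
  rw [ae_restrict_iff' measurableSet_Ioi]
  refine Eventually.of_forall fun t ht => ?_
  have ht' : (0:ℝ) < t := ht
  have h2 := norm_rs_le hX (show 0 < c + t by linarith)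
  have h3 := norm_rs_le hY (show 0 < c + t by linarith)
  have h4 : 0 ≤ (c + t)⁻¹ := by positivity
  calc ‖rs Y t * (Y - X) * rs X t‖ ≤ ‖rs Y t‖ * ‖Y - X‖ * ‖rs X t‖ :=
        (norm_mul_le _ _).trans (mul_le_mul_of_nonneg_right (norm_mul_le _ _) (norm_nonneg _))
    _ ≤ (c + t)⁻¹ * ‖Y - X‖ * (c + t)⁻¹ := by gcongr
    _ = ‖Y - X‖ * ((c + t) ^ 2)⁻¹ := by rw [pow_two, mul_inv]; ring

/-- **derivative of the matrix logarithm** along a curve. -/
theorem hasDerivAt_log {X : ℝ → Matrix n n ℂ} {X' : Matrix n n ℂ} {q : ℝ}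
    (hX : HasDerivAt X X' q) (hH : ∀ᶠ s in 𝓝 q, (X s).IsHermitian) (hp : (X q).PosDef) :
    HasDerivAt (fun s => cfc Real.log (X s)) (Dlog (X q) X') q := by
  obtain ⟨c0, hc0, hL0⟩ := exists_LB hp
  set c := c0 / 2 with hcdef
  have hc : 0 < c := by positivity
  have hLq : LB c (X q) := hL0.mono (by linarith)
  have hLs : ∀ᶠ s in 𝓝 q, LB c (X s) := by
    have h1 : ∀ᶠ s in 𝓝 q, ‖X s - X q‖ ≤ c := by
      have h2 : Tendsto (fun s => ‖X s - X q‖) (𝓝 q) (𝓝 ‖X q - X q‖) :=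
        (hX.continuousAt.tendsto.sub_const _).norm
      rw [sub_self, norm_zero] at h2
      exact (h2.eventually (gt_mem_nhds hc)).mono fun s hs => le_of_lt hs
    filter_upwards [h1, hH] with s hs1 hs2
    have := hL0.perturb hs2 hs1
    exact this.mono (by linarith)
  rw [hasDerivAt_iff_tendsto_slope]
  have hsl : Tendsto (slope X q) (𝓝[≠] q) (𝓝 X') := hasDerivAt_iff_tendsto_slope.1 hX
  have hbd : ∀ᶠ s in 𝓝[≠] q, ‖slope X q s‖ ≤ ‖X'‖ + 1 := by
    have h1 := hsl.norm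
    exact (h1.eventually (gt_mem_nhds (lt_add_one ‖X'‖))).mono fun s hs => le_of_lt hs
  have hslope : ∀ᶠ s in 𝓝[≠] q, slope (fun s => cfc Real.log (X s)) q s =
      ∫ t in Ioi (0:ℝ), rs (X s) t * (slope X q s) * rs (X q) t := by
    filter_upwards [nhdsWithin_le_nhds hLs] with s hs
    rw [slope_def_module, slope_def_module, log_sub_log hc hLq hs, ← integral_smul]
    apply setIntegral_congr_fun measurableSet_Ioi
    intro t _
    simp only
    rw [mul_smul_comm, smul_mul_assoc]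
  have key : Tendsto (fun s => ∫ t in Ioi (0:ℝ), rs (X s) t * (slope X q s) * rs (X q) t)
      (𝓝[≠] q) (𝓝 (∫ t in Ioi (0:ℝ), rs (X q) t * X' * rs (X q) t)) := by
    apply tendsto_integral_filter_of_dominated_convergence
      (fun t => (‖X'‖ + 1) * ((c + t) ^ 2)⁻¹)
    · filter_upwards [nhdsWithin_le_nhds hLs] with s hs
      exact (integrable_rs_mul hc hLq hs (slope X q s)).aestronglyMeasurable
    · filter_upwards [nhdsWithin_le_nhds hLs, hbd] with s hs hs2
      rw [ae_restrict_iff' measurableSet_Ioi]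
      refine Eventually.of_forall fun t ht => ?_
      have ht' : (0:ℝ) < t := ht
      have h2 := norm_rs_le hLq (show 0 < c + t by linarith)
      have h3 := norm_rs_le hs (show 0 < c + t by linarith)
      have h4 : 0 ≤ (c + t)⁻¹ := by positivity
      calc ‖rs (X s) t * (slope X q s) * rs (X q) t‖
          ≤ ‖rs (X s) t‖ * ‖slope X q s‖ * ‖rs (X q) t‖ :=
            (norm_mul_le _ _).trans (mul_le_mul_of_nonneg_right (norm_mul_le _ _) (norm_nonneg _))
        _ ≤ (c + t)⁻¹ * (‖X'‖ + 1) * (c + t)⁻¹ := by gcongr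
        _ = (‖X'‖ + 1) * ((c + t) ^ 2)⁻¹ := by rw [pow_two, mul_inv]; ring
    · exact (sc_inv_sq hc).1.const_mul _
    · rw [ae_restrict_iff' measurableSet_Ioi]
      refine Eventually.of_forall fun t ht => ?_
      have ht' : (0:ℝ) < t := ht
      have hct : 0 < c + t := by linarith
      have hr : Tendsto (fun s => rs (X s) t) (𝓝[≠] q) (𝓝 (rs (X q) t)) := by
        rw [tendsto_iff_norm_sub_tendsto_zero]
        have h1 : Tendsto (fun s => (c + t)⁻¹ * ‖X s - X q‖ * (c + t)⁻¹) (𝓝[≠] q) (𝓝 0) := by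
          have h2 : Tendsto (fun s => ‖X s - X q‖) (𝓝[≠] q) (𝓝 ‖X q - X q‖) :=
            ((hX.continuousAt.tendsto.mono_left nhdsWithin_le_nhds).sub_const _).norm
          rw [sub_self, norm_zero] at h2
          have := (h2.const_mul (c + t)⁻¹).mul_const (c + t)⁻¹
          simpa using this
        refine squeeze_zero' (Eventually.of_forall fun _ => norm_nonneg _) ?_ h1
        filter_upwards [nhdsWithin_le_nhds hLs] with s hs
        rw [← norm_neg, neg_sub, rs_sub_rs hLq hs hct]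
        have h2 := norm_rs_le hLq hct
        have h3 := norm_rs_le hs hct
        have h4 : 0 ≤ (c + t)⁻¹ := by positivity
        calc ‖rs (X s) t * (X s - X q) * rs (X q) t‖
            ≤ ‖rs (X s) t‖ * ‖X s - X q‖ * ‖rs (X q) t‖ :=
              (norm_mul_le _ _).trans (mul_le_mul_of_nonneg_right (norm_mul_le _ _) (norm_nonneg _))
          _ ≤ (c + t)⁻¹ * ‖X s - X q‖ * (c + t)⁻¹ := by gcongr
      exact (hr.mul hsl).mul tendsto_const_nhds
  exact key.congr' (hslope.mono fun s hs => hs.symm)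

end LT
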