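import Mathlib
import Crest.Prelude.Def_LubinTate

/-!
S0351 (blueprint LU), part (5): derivations and dual numbers.

`LUA.dlift D : A →+* A[ε]`, `a ↦ a + ε D a`, for a derivation `D : A → A`;
`LUA.mapD D f` : `D` applied to the coefficients of a power series.
-/

set_option autoImplicit false

noncomputable section

namespace Crest.Agent.LUA

open TrivSqZeroExt

/-- `ℤ`-derivations of a commutative ring (use this, not `Derivation ℤ _ _`, to avoid instance
problems on quotient rings). -/
abbrev Der (A : Type*) [CommRing A] : Type _ := Derivation ℤ A A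

variable {A : Type*} [CommRing A]

/-- `a ↦ a + ε D a`. -/
def dlift (D : Der A) : A →+* DualNumber A where
  toFun a := inl a + inr (D a)
  map_one' := by ext <;> simp
  map_mul' a b := by
    ext
    · simp
    · simp [mul_comm]
  map_zero' := by simp
  map_add' a b := by
    ext
    · simp
    · simp

/-- the constant embedding `a ↦ a`. -/
def cst (A : Type*) [CommRing A] : A →+* DualNumber A := inlHom A A

/-- the projection `a + ε b ↦ a`. -/
def pr (A : Type*) [CommRing A] : DualNumber A →+* A := (fstHom A A A).toRingHom

@[simp] theorem fst_dlift (D : Der A) (a : A) : (dlift D a).fst = a := by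
  show (inl a + inr (D a) : DualNumber A).fst = a
  simp

@[simp] theorem snd_dlift (D : Der A) (a : A) : (dlift D a).snd = D a := by
  show (inl a + inr (D a) : DualNumber A).snd = D a
  simp

@[simp] theorem fst_cst (a : A) : (cst A a).fst = a := fst_inl A a
@[simp] theorem snd_cst (a : A) : (cst A a).snd = 0 := snd_inl A a
@[simp] theorem pr_apply (x : DualNumber A) : pr A x = x.fst := rfl

theorem pr_comp_dlift (D : Der A) : (pr A).comp (dlift D) = RingHom.id A := by
  ext a; simp

theorem pr_comp_cst : (pr A).comp (cst A) = RingHom.id A := by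
  ext a; simp

/-- `D` applied to all coefficients of a power series in any variables. -/
def mapD (D : Der A) {σ : Type*} (f : MvPowerSeries σ A) : MvPowerSeries σ A :=
  fun d => D (MvPowerSeries.coeff d f)

@[simp] theorem coeff_mapD (D : Der A) {σ : Type*} (f : MvPowerSeries σ A)
    (d : σ →₀ ℕ) : MvPowerSeries.coeff d (mapD D f) = D (MvPowerSeries.coeff d f) := rfl

/-- the `ε`-part of a power series over `A[ε]`. -/
def sndPS {σ : Type*} (f : MvPowerSeries σ (DualNumber A)) : MvPowerSeries σ A :=
  fun d => (MvPowerSeries.coeff d f).snd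

@[simp] theorem coeff_sndPS {σ : Type*} (f : MvPowerSeries σ (DualNumber A))
    (d : σ →₀ ℕ) : MvPowerSeries.coeff d (sndPS f) = (MvPowerSeries.coeff d f).snd := rfl

/-- the reduction modulo `ε` of a power series over `A[ε]`. -/
def fstPS {σ : Type*} (f : MvPowerSeries σ (DualNumber A)) : MvPowerSeries σ A :=
  MvPowerSeries.map (pr A) f

@[simp] theorem coeff_fstPS {σ : Type*} (f : MvPowerSeries σ (DualNumber A))
    (d : σ →₀ ℕ) : MvPowerSeries.coeff d (fstPS f) = (MvPowerSeries.coeff d f).fst := by
  unfold fstPS
  rw [MvPowerSeries.coeff_map, pr_apply]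

/-- `a + ε b` for power series. -/
def mkPS {σ : Type*} (a b : MvPowerSeries σ A) : MvPowerSeries σ (DualNumber A) :=
  fun d => inl (MvPowerSeries.coeff d a) + inr (MvPowerSeries.coeff d b)

@[simp] theorem fstPS_mkPS {σ : Type*} (a b : MvPowerSeries σ A) : fstPS (mkPS a b) = a := by
  ext d
  rw [coeff_fstPS]
  show (inl (MvPowerSeries.coeff d a) + inr (MvPowerSeries.coeff d b) : DualNumber A).fst = _
  simp

@[simp] theorem sndPS_mkPS {σ : Type*} (a b : MvPowerSeries σ A) : sndPS (mkPS a b) = b := by
  ext d
  rw [coeff_sndPS]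
  show (inl (MvPowerSeries.coeff d a) + inr (MvPowerSeries.coeff d b) : DualNumber A).snd = _
  simp

theorem ps_ext {σ : Type*} {f g : MvPowerSeries σ (DualNumber A)} (h1 : fstPS f = fstPS g)
    (h2 : sndPS f = sndPS g) : f = g := by
  ext d
  · have := congrArg (MvPowerSeries.coeff d) h1
    simpa using this
  · have := congrArg (MvPowerSeries.coeff d) h2
    simpa using this

end Crest.Agent.LUA
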