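import Mathlib
import Crest.Prelude.Def_LubinTate

/-!
S0351 (blueprint LU), part A: formal group algebra.

`LU.fadd F a b = F(a,b)` for power series `a b` in any variables, and its elementary properties.
Everything here is a repackaging of `Mathlib.RingTheory.FormalGroup.Basic` (`assoc'`, `comm'`,
`add_zero`, `zero_add`), for series with ZERO constant coefficient.
-/

set_option autoImplicit false

noncomputable section

namespace Crest.Agent.LU

open Crest.LubinTate

variable {R : Type*} [CommRing R]

/-- `F(a,b)` for power series `a`, `b` in any set of variables. -/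
def fadd (F : FormalGroup R) {σ : Type*} (a b : MvPowerSeries σ R) : MvPowerSeries σ R :=
  F.toPowerSeries.subst ![a, b]

theorem hasSubst_pair {σ : Type*} {a b : MvPowerSeries σ R}
    (ha : MvPowerSeries.constantCoeff a = 0) (hb : MvPowerSeries.constantCoeff b = 0) :
    MvPowerSeries.HasSubst ![a, b] :=
  MvPowerSeries.hasSubst_of_constantCoeff_zero fun s => by fin_cases s <;> simpa

theorem constantCoeff_fadd (F : FormalGroup R) {σ : Type*} {a b : MvPowerSeries σ R}
    (ha : MvPowerSeries.constantCoeff a = 0) (hb : MvPowerSeries.constantCoeff b = 0) :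
    MvPowerSeries.constantCoeff (fadd F a b) = 0 :=
  MvPowerSeries.constantCoeff_subst_eq_zero (hasSubst_pair ha hb)
    (fun i => by fin_cases i <;> simpa) F.zero_constantCoeff

theorem fadd_assoc (F : FormalGroup R) {σ : Type*} {a b c : MvPowerSeries σ R}
    (ha : MvPowerSeries.constantCoeff a = 0) (hb : MvPowerSeries.constantCoeff b = 0)
    (hc : MvPowerSeries.constantCoeff c = 0) :
    fadd F (fadd F a b) c = fadd F a (fadd F b c) :=
  F.assoc' (PowerSeries.HasSubst.of_constantCoeff_zero ha)
    (PowerSeries.HasSubst.of_constantCoeff_zero hb) (PowerSeries.HasSubst.of_constantCoeff_zero hc)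

theorem fadd_comm (F : FormalGroup R) [F.IsComm] {σ : Type*} {a b : MvPowerSeries σ R}
    (ha : MvPowerSeries.constantCoeff a = 0) (hb : MvPowerSeries.constantCoeff b = 0) :
    fadd F a b = fadd F b a :=
  F.comm' (PowerSeries.HasSubst.of_constantCoeff_zero ha)
    (PowerSeries.HasSubst.of_constantCoeff_zero hb)

theorem fadd_zero (F : FormalGroup R) {σ : Type*} {a : MvPowerSeries σ R}
    (ha : MvPowerSeries.constantCoeff a = 0) : fadd F a 0 = a :=
  F.add_zero (PowerSeries.HasSubst.of_constantCoeff_zero ha)

theorem zero_fadd (F : FormalGroup R) {σ : Type*} {a : MvPowerSeries σ R}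
    (ha : MvPowerSeries.constantCoeff a = 0) : fadd F 0 a = a :=
  F.zero_add (PowerSeries.HasSubst.of_constantCoeff_zero ha)

end Crest.Agent.LU
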