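import Mathlib
import Crest.Agent.LU_A0

/-!
S0351 (blueprint LU), task A1: existence of the inverse series of a formal group law.
-/

set_option autoImplicit false

noncomputable section

namespace Crest.Agent.LU

open Crest.LubinTate

variable {R : Type*} [CommRing R]

private theorem A1_coeff_subst (G : MvPowerSeries (Fin 2) R) {a b : PowerSeries R}
    (ha : PowerSeries.constantCoeff a = 0) (hb : PowerSeries.constantCoeff b = 0) (n : ℕ) :
    PowerSeries.coeff n (G.subst ![a, b] : PowerSeries R) =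
      finsum fun d : Fin 2 →₀ ℕ =>
        MvPowerSeries.coeff d G • PowerSeries.coeff n (a ^ d 0 * b ^ d 1) := by
  have h := MvPowerSeries.coeff_subst (hasSubst_pair (σ := Unit) (a := a) (b := b) ha hb) G
    (Finsupp.single () n)
  rw [PowerSeries.coeff, h]
  refine finsum_congr fun d => ?_
  congr 2
  rw [Finsupp.prod_fintype _ _ (by simp)]
  simp [Fin.prod_univ_two]

private theorem A1_congr (F : FormalGroup R) {a b a' b' : PowerSeries R} {k : ℕ}
    (ha : PowerSeries.constantCoeff a = 0) (hb : PowerSeries.constantCoeff b = 0)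
    (ha' : PowerSeries.constantCoeff a' = 0) (hb' : PowerSeries.constantCoeff b' = 0)
    (h1 : (PowerSeries.X : PowerSeries R) ^ k ∣ a - a')
    (h2 : (PowerSeries.X : PowerSeries R) ^ k ∣ b - b') {n : ℕ} (hn : n < k) :
    PowerSeries.coeff n (fadd F a b : PowerSeries R) =
      PowerSeries.coeff n (fadd F a' b' : PowerSeries R) := by
  unfold fadd
  rw [A1_coeff_subst _ ha hb, A1_coeff_subst _ ha' hb']
  refine finsum_congr fun d => ?_
  congr 1
  have h3 : (PowerSeries.X : PowerSeries R) ^ k ∣ a ^ d 0 * b ^ d 1 - a' ^ d 0 * b' ^ d 1 := by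
    have e1 := h1.trans (sub_dvd_pow_sub_pow a a' (d 0))
    have e2 := h2.trans (sub_dvd_pow_sub_pow b b' (d 1))
    have : a ^ d 0 * b ^ d 1 - a' ^ d 0 * b' ^ d 1 =
      (a ^ d 0 - a' ^ d 0) * b ^ d 1 + a' ^ d 0 * (b ^ d 1 - b' ^ d 1) := by ring
    rw [this]
    exact dvd_add (Dvd.dvd.mul_right e1 _) (Dvd.dvd.mul_left e2 _)
  have h4 := (PowerSeries.X_pow_dvd_iff.1 h3) n hn
  rw [map_sub, sub_eq_zero] at h4
  exact h4

/-- `F(a, -a)` is divisible by `X^(k+1)` if `a` is divisible by `X^k`, `k ≥ 1`. -/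
private theorem A1_neg (F : FormalGroup R) {a : PowerSeries R} {k : ℕ} (hk : 1 ≤ k)
    (h : (PowerSeries.X : PowerSeries R) ^ k ∣ a) :
    (PowerSeries.X : PowerSeries R) ^ (k + 1) ∣ (fadd F a (-a) : PowerSeries R) := by
  have ha : PowerSeries.constantCoeff a = 0 := by
    rw [← PowerSeries.coeff_zero_eq_constantCoeff_apply]
    exact (PowerSeries.X_pow_dvd_iff.1 h) 0 (by omega)
  have ha' : PowerSeries.constantCoeff (-a) = 0 := by rw [map_neg, ha, neg_zero]
  set G : MvPowerSeries (Fin 2) R := F.toPowerSeries - MvPowerSeries.X 0 - MvPowerSeries.X 1 with hG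
  have hs := hasSubst_pair (σ := Unit) (a := a) (b := -a) ha ha'
  have e1 : (fadd F a (-a) : PowerSeries R) = (G.subst ![a, -a] : PowerSeries R) := by
    have : F.toPowerSeries = G + MvPowerSeries.X 0 + MvPowerSeries.X 1 := by rw [hG]; ring
    unfold fadd
    rw [this, MvPowerSeries.subst_add hs, MvPowerSeries.subst_add hs, MvPowerSeries.subst_X hs,
      MvPowerSeries.subst_X hs]
    simp [add_assoc]
  rw [e1, PowerSeries.X_pow_dvd_iff]
  intro m hm
  rw [A1_coeff_subst _ ha ha', ← finsum_zero (α := Fin 2 →₀ ℕ) (M := R)]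
  refine finsum_congr fun d => ?_
  by_cases hd : 2 ≤ d 0 + d 1
  · have h3 : (PowerSeries.X : PowerSeries R) ^ (k + 1) ∣ a ^ d 0 * (-a) ^ d 1 := by
      have e2 : (PowerSeries.X : PowerSeries R) ^ (k * (d 0 + d 1)) ∣ a ^ d 0 * (-a) ^ d 1 := by
        rw [pow_mul, pow_add]
        exact mul_dvd_mul (pow_dvd_pow_of_dvd h _) (pow_dvd_pow_of_dvd ((dvd_neg).2 h) _)
      refine (pow_dvd_pow _ ?_).trans e2
      nlinarith
    rw [(PowerSeries.X_pow_dvd_iff.1 h3) m hm, smul_zero]
  · have h0 : MvPowerSeries.coeff d G = 0 := by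
      have hd' : d = 0 ∨ d = Finsupp.single 0 1 ∨ d = Finsupp.single 1 1 := by
        have : (d 0 = 0 ∧ d 1 = 0) ∨ (d 0 = 1 ∧ d 1 = 0) ∨ (d 0 = 0 ∧ d 1 = 1) := by omega
        rcases this with ⟨h0, h1⟩ | ⟨h0, h1⟩ | ⟨h0, h1⟩
        · left; ext i; fin_cases i <;> simp [h0, h1]
        · right; left; ext i; fin_cases i <;> simp [h0, h1]
        · right; right; ext i; fin_cases i <;> simp [h0, h1]
      have hne : (Finsupp.single (0 : Fin 2) 1 : Fin 2 →₀ ℕ) ≠ Finsupp.single 1 1 := by
        intro h; have := DFunLike.congr_fun h 0; simp at this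
      rcases hd' with rfl | rfl | rfl
      · simp [hG, F.zero_constantCoeff]
      · simp [hG, F.lin_coeff_X, MvPowerSeries.coeff_X, hne]
      · simp [hG, F.lin_coeff_Y, MvPowerSeries.coeff_X, hne.symm]
    rw [h0, zero_smul]

/-- approximations: pairs `(ι_m, r_m)` with `F(X, ι_m) = r_m`. -/
private def A1_seq (F : FormalGroup R) : ℕ → PowerSeries R × PowerSeries R
  | 0 => (0, PowerSeries.X)
  | m + 1 => (fadd F (A1_seq F m).1 (-(A1_seq F m).2), fadd F (A1_seq F m).2 (-(A1_seq F m).2))

private theorem A1_cc {k : ℕ} {a : PowerSeries R} (hk : 1 ≤ k)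
    (h : (PowerSeries.X : PowerSeries R) ^ k ∣ a) : PowerSeries.constantCoeff a = 0 := by
  rw [← PowerSeries.coeff_zero_eq_constantCoeff_apply]
  exact (PowerSeries.X_pow_dvd_iff.1 h) 0 (by omega)

private theorem A1_seq_spec (F : FormalGroup R) (m : ℕ) :
    PowerSeries.constantCoeff (A1_seq F m).1 = 0 ∧
      (PowerSeries.X : PowerSeries R) ^ (m + 1) ∣ (A1_seq F m).2 ∧
      (fadd F (PowerSeries.X : PowerSeries R) (A1_seq F m).1 : PowerSeries R) = (A1_seq F m).2 := by
  induction m with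
  | zero =>
    refine ⟨by simp [A1_seq], by simp [A1_seq], ?_⟩
    exact fadd_zero F (σ := Unit) (a := PowerSeries.X) (PowerSeries.constantCoeff_X)
  | succ m ih =>
    obtain ⟨h1, h2, h3⟩ := ih
    have hr : PowerSeries.constantCoeff (A1_seq F m).2 = 0 := A1_cc (by omega) h2
    have hr' : PowerSeries.constantCoeff (-(A1_seq F m).2) = 0 := by rw [map_neg, hr, neg_zero]
    refine ⟨constantCoeff_fadd F (σ := Unit) h1 hr', A1_neg F (by omega) h2, ?_⟩
    show fadd F (PowerSeries.X : PowerSeries R) (fadd F (A1_seq F m).1 (-(A1_seq F m).2)) =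
      fadd F (A1_seq F m).2 (-(A1_seq F m).2)
    rw [← fadd_assoc F (σ := Unit) (a := PowerSeries.X) PowerSeries.constantCoeff_X h1 hr', h3]

private theorem A1_step (F : FormalGroup R) (m n : ℕ) (h : n ≤ m) :
    PowerSeries.coeff n (A1_seq F (m + 1)).1 = PowerSeries.coeff n (A1_seq F m).1 := by
  obtain ⟨h1, h2, h3⟩ := A1_seq_spec F m
  have hr : PowerSeries.constantCoeff (A1_seq F m).2 = 0 := A1_cc (by omega) h2
  have hr' : PowerSeries.constantCoeff (-(A1_seq F m).2) = 0 := by rw [map_neg, hr, neg_zero]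
  have e := A1_congr F (a := (A1_seq F m).1) (b := -(A1_seq F m).2) (a' := (A1_seq F m).1) (b' := 0)
    (k := m + 1) h1 hr' h1 (by simp) (by simp) (by simpa using h2) (n := n) (by omega)
  rw [fadd_zero F (σ := Unit) h1] at e
  exact e

private theorem A1_stab (F : FormalGroup R) (n m : ℕ) (h : n ≤ m) :
    PowerSeries.coeff n (A1_seq F m).1 = PowerSeries.coeff n (A1_seq F n).1 := by
  induction m, h using Nat.le_induction with
  | base => rfl
  | succ m hm ih => rw [A1_step F m n hm, ih]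

/-- TASK A1.  Existence of the formal inverse `ι` with `F(X, ι(X)) = 0`. -/
theorem exists_inv (F : FormalGroup R) :
    ∃ ι : PowerSeries R, PowerSeries.constantCoeff ι = 0 ∧
      fadd F (PowerSeries.X : PowerSeries R) ι = 0 := by
  set ι : PowerSeries R := PowerSeries.mk fun n => PowerSeries.coeff n (A1_seq F n).1 with hι
  have h0 : PowerSeries.constantCoeff ι = 0 := by
    rw [← PowerSeries.coeff_zero_eq_constantCoeff_apply, hι, PowerSeries.coeff_mk,
      PowerSeries.coeff_zero_eq_constantCoeff_apply]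
    exact (A1_seq_spec F 0).1
  refine ⟨ι, h0, ?_⟩
  have key : ∀ n : ℕ, PowerSeries.coeff n (fadd F (PowerSeries.X : PowerSeries R) ι) = 0 := by
    intro n
    obtain ⟨h1, h2, h3⟩ := A1_seq_spec F n
    have e := A1_congr F (a := PowerSeries.X) (b := ι) (a' := PowerSeries.X) (b' := (A1_seq F n).1)
      (k := n + 1) PowerSeries.constantCoeff_X h0 PowerSeries.constantCoeff_X h1 (by simp)
      (by
        rw [PowerSeries.X_pow_dvd_iff]
        intro m hm
        rw [map_sub, hι, PowerSeries.coeff_mk, A1_stab F m n (by omega), sub_self])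
      (n := n) (by omega)
    rw [e, h3]
    exact (PowerSeries.X_pow_dvd_iff.1 h2) n (by omega)
  exact PowerSeries.ext fun n => by rw [key n, map_zero]

end Crest.Agent.LU
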