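import Mathlib
import Crest.Agent.LU_A1

/-!
S0351 (blueprint LU), part A: the abelian group `FPt F σ` of formal points (power series in the
variables `σ` with zero constant coefficient, with the addition `F(a,b)`).
-/

set_option autoImplicit false

noncomputable section

namespace Crest.Agent.LU

open Crest.LubinTate

variable {R : Type*} [CommRing R]

/-- The chosen inverse series. -/
def inv (F : FormalGroup R) : PowerSeries R := Classical.choose (exists_inv F)

theorem constantCoeff_inv (F : FormalGroup R) : PowerSeries.constantCoeff (inv F) = 0 :=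
  (Classical.choose_spec (exists_inv F)).1

theorem fadd_inv (F : FormalGroup R) : fadd F (PowerSeries.X : PowerSeries R) (inv F) = 0 :=
  (Classical.choose_spec (exists_inv F)).2

/-- Formal points: power series with zero constant coefficient. -/
@[ext] structure FPt (F : FormalGroup R) (σ : Type*) where
  /-- the series -/
  val : MvPowerSeries σ R
  /-- zero constant coefficient -/
  prop : MvPowerSeries.constantCoeff val = 0

namespace FPt

variable {F : FormalGroup R} {σ : Type*}

instance : Zero (FPt F σ) := ⟨⟨0, by simp⟩⟩
instance : Add (FPt F σ) := ⟨fun a b => ⟨fadd F a.val b.val, constantCoeff_fadd F a.prop b.prop⟩⟩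
instance : Neg (FPt F σ) := ⟨fun a => ⟨PowerSeries.subst a.val (inv F), by
  have := PowerSeries.constantCoeff_subst_eq_zero (a := a.val) a.prop (inv F) (constantCoeff_inv F)
  exact this⟩⟩

@[simp] theorem val_zero : (0 : FPt F σ).val = 0 := rfl
@[simp] theorem val_add (a b : FPt F σ) : (a + b).val = fadd F a.val b.val := rfl
theorem val_neg (a : FPt F σ) : (-a).val = PowerSeries.subst a.val (inv F) := rfl

theorem hasSubst (a : FPt F σ) : PowerSeries.HasSubst a.val :=
  PowerSeries.HasSubst.of_constantCoeff_zero a.prop

theorem add_neg_aux (a : FPt F σ) : a + (-a) = 0 := by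
  ext1
  rw [val_add, val_neg, val_zero]
  have h1 : PowerSeries.subst a.val (fadd F (PowerSeries.X : PowerSeries R) (inv F)) = 0 := by
    rw [fadd_inv]
    rw [← PowerSeries.coe_substAlgHom a.hasSubst, map_zero]
  rw [← h1]
  unfold fadd PowerSeries.subst
  rw [MvPowerSeries.subst_comp_subst_apply
    (hasSubst_pair (by exact PowerSeries.constantCoeff_X) (constantCoeff_inv F)) a.hasSubst.const]
  congr! 2 with s
  fin_cases s
  · simp [PowerSeries.X, MvPowerSeries.subst_X a.hasSubst.const]
  · rfl

instance [F.IsComm] : AddCommGroup (FPt F σ) where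
  add_assoc a b c := FPt.ext (fadd_assoc F a.prop b.prop c.prop)
  zero_add a := FPt.ext (zero_fadd F a.prop)
  add_zero a := FPt.ext (fadd_zero F a.prop)
  add_comm a b := FPt.ext (fadd_comm F a.prop b.prop)
  nsmul := nsmulRec
  zsmul := zsmulRec
  neg_add_cancel a := by
    have h : (-a) + a = a + (-a) := FPt.ext (fadd_comm F (-a).prop a.prop)
    rw [h, add_neg_aux]

end FPt

/-- The point `X`. -/
def ptX (F : FormalGroup R) : FPt F Unit := ⟨PowerSeries.X, PowerSeries.constantCoeff_X⟩

end Crest.Agent.LU
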