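import Mathlib
import Crest.Agent.LU_Pt

/-!
S0351 (blueprint LU), task A2: composition `cmp φ a = φ(a)` of a one-variable power series with
a power series (in any variables) with zero constant coefficient.
-/

set_option autoImplicit false

noncomputable section

namespace Crest.Agent.LU

open Crest.LubinTate

variable {R : Type*} [CommRing R]

/-- `cmp φ a = φ(a)`; for one-variable `a` this is the composition `φ ∘ a`. -/
abbrev cmp (φ : PowerSeries R) {σ : Type*} (a : MvPowerSeries σ R) : MvPowerSeries σ R :=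
  PowerSeries.subst a φ

/-- TASK A2.  `φ(X) = φ`.  (`PowerSeries.map_algebraMap_eq_subst_X` / `PowerSeries.subst_X`-type
lemmas; or coefficientwise.) -/
theorem cmp_X (φ : PowerSeries R) : cmp φ (PowerSeries.X : PowerSeries R) = φ := by
  exact PowerSeries.X_subst φ

/-- `X(a) = a`. -/
theorem X_cmp {σ : Type*} {a : MvPowerSeries σ R} (ha : MvPowerSeries.constantCoeff a = 0) :
    cmp (PowerSeries.X : PowerSeries R) a = a := by
  exact PowerSeries.subst_X (PowerSeries.HasSubst.of_constantCoeff_zero ha)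

/-- `(φ ∘ ψ)(a) = φ(ψ(a))`. (`PowerSeries.subst_comp_subst_apply`) -/
theorem cmp_assoc (φ : PowerSeries R) {ψ : PowerSeries R}
    (hψ : PowerSeries.constantCoeff ψ = 0) {σ : Type*} {a : MvPowerSeries σ R}
    (ha : MvPowerSeries.constantCoeff a = 0) :
    cmp (cmp φ ψ : PowerSeries R) a = cmp φ (cmp ψ a) := by
  exact PowerSeries.subst_comp_subst_apply (PowerSeries.HasSubst.of_constantCoeff_zero' hψ)
    (PowerSeries.HasSubst.of_constantCoeff_zero ha) φ

theorem constantCoeff_cmp {φ : PowerSeries R} (hφ : PowerSeries.constantCoeff φ = 0)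
    {σ : Type*} {a : MvPowerSeries σ R} (ha : MvPowerSeries.constantCoeff a = 0) :
    MvPowerSeries.constantCoeff (cmp φ a) = 0 := by
  exact PowerSeries.constantCoeff_subst_eq_zero ha φ hφ

/-- Chain rule at the origin. -/
theorem coeff_one_cmp (φ : PowerSeries R) {ψ : PowerSeries R}
    (hψ : PowerSeries.constantCoeff ψ = 0) :
    PowerSeries.coeff 1 (cmp φ ψ : PowerSeries R) =
      PowerSeries.coeff 1 φ * PowerSeries.coeff 1 ψ := by
  have h : PowerSeries.HasSubst ψ := PowerSeries.HasSubst.of_constantCoeff_zero' hψ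
  have h1 : PowerSeries.coeff 1 (cmp φ ψ : PowerSeries R) =
      finsum (fun d : ℕ => PowerSeries.coeff d φ • PowerSeries.coeff 1 (ψ ^ d)) :=
    PowerSeries.coeff_subst' h φ 1
  rw [h1, finsum_eq_single _ 1]
  · rw [pow_one, smul_eq_mul]
  · intro d hd
    rcases Nat.lt_or_gt_of_ne hd with h0 | h2
    · have : d = 0 := by omega
      subst this
      simp [PowerSeries.coeff_one]
    · have hX : (PowerSeries.X : PowerSeries R) ∣ ψ := by
        rw [PowerSeries.X_dvd_iff]; exact hψ
      have h3 : (PowerSeries.X : PowerSeries R) ^ d ∣ ψ ^ d := pow_dvd_pow_of_dvd hX d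
      rw [PowerSeries.X_pow_dvd_iff] at h3
      rw [h3 1 h2, smul_zero]

/-- Compositional inverse (Mathlib: `PowerSeries.substInv`, `subst_substInv_left`,
`subst_substInv_right`). -/
theorem exists_cmp_inv {φ : PowerSeries R} (hφ : PowerSeries.constantCoeff φ = 0)
    (h1 : IsUnit (PowerSeries.coeff 1 φ)) :
    ∃ ψ : PowerSeries R, PowerSeries.constantCoeff ψ = 0 ∧ IsUnit (PowerSeries.coeff 1 ψ) ∧
      cmp φ ψ = (PowerSeries.X : PowerSeries R) ∧ cmp ψ φ = (PowerSeries.X : PowerSeries R) := by
  refine ⟨φ.substInvOfIsUnit h1, PowerSeries.constantCoeff_substInvOfIsUnit φ h1, ?_,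
    PowerSeries.subst_substInvOfIsUnit_right φ hφ h1, PowerSeries.subst_substInvOfIsUnit_left φ hφ h1⟩
  rw [PowerSeries.coeff_one_substInvOfIsUnit]
  exact Units.isUnit _

/-- Compatibility with ring homomorphisms. -/
theorem map_cmp {S : Type*} [CommRing S] (f : R →+* S) (φ : PowerSeries R) {σ : Type*}
    {a : MvPowerSeries σ R} (ha : MvPowerSeries.constantCoeff a = 0) :
    MvPowerSeries.map f (cmp φ a) = cmp (PowerSeries.map f φ) (MvPowerSeries.map f a) := by
  exact PowerSeries.map_subst (PowerSeries.HasSubst.of_constantCoeff_zero ha) φ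

/-- Substituting into a composite: `G(b_0, b_1)` evaluated at `a`:
`(G(b_0,b_1))(a) = G(b_0(a), b_1(a))` for one-variable series `b_0,b_1`. -/
theorem cmp_fadd (G : FormalGroup R) {b c : PowerSeries R}
    (hb : PowerSeries.constantCoeff b = 0) (hc : PowerSeries.constantCoeff c = 0)
    {σ : Type*} {a : MvPowerSeries σ R} (ha : MvPowerSeries.constantCoeff a = 0) :
    cmp (fadd G b c : PowerSeries R) a = fadd G (cmp b a) (cmp c a) := by
  have ha' : PowerSeries.HasSubst a := PowerSeries.HasSubst.of_constantCoeff_zero ha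
  unfold cmp fadd PowerSeries.subst
  rw [MvPowerSeries.subst_comp_subst_apply (hasSubst_pair hb hc) ha'.const]
  congr! 2 with s
  fin_cases s
  · rfl
  · rfl

end Crest.Agent.LU
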