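import Mathlib
import Crest.Agent.LUA_Defs
import Crest.Agent.LU_A2

/-!
S0351 (blueprint LU), part (5), TASK LUA-2: power series over `A[ε]`.

`mkPS a b = a + ε b`, `fstPS`, `sndPS` are the two components (see `LUA_Defs`).
All statements are componentwise checks (`ps_ext`); products: `fst (x*y) = fst x * fst y`,
`snd (x*y) = fst x * snd y + snd x * fst y` plus `MvPowerSeries.coeff_mul` and `Finset.sum`.
-/

set_option autoImplicit false

noncomputable section

namespace Crest.Agent.LUA

open TrivSqZeroExt Crest.Agent.LU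

variable {A : Type*} [CommRing A]

theorem fstPS_add {σ : Type*} (f g : MvPowerSeries σ (DualNumber A)) :
    fstPS (f + g) = fstPS f + fstPS g := by
  exact map_add _ f g

theorem sndPS_add {σ : Type*} (f g : MvPowerSeries σ (DualNumber A)) :
    sndPS (f + g) = sndPS f + sndPS g := by
  ext d
  rw [coeff_sndPS, map_add, map_add, coeff_sndPS, coeff_sndPS, snd_add]

theorem sndPS_sub {σ : Type*} (f g : MvPowerSeries σ (DualNumber A)) :
    sndPS (f - g) = sndPS f - sndPS g := by
  ext d
  rw [coeff_sndPS, map_sub, map_sub, coeff_sndPS, coeff_sndPS, snd_sub]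

theorem fstPS_mul {σ : Type*} (f g : MvPowerSeries σ (DualNumber A)) :
    fstPS (f * g) = fstPS f * fstPS g := by
  exact map_mul _ f g

theorem sndPS_mul {σ : Type*} (f g : MvPowerSeries σ (DualNumber A)) :
    sndPS (f * g) = fstPS f * sndPS g + sndPS f * fstPS g := by
  classical
  ext d
  rw [coeff_sndPS, map_add, MvPowerSeries.coeff_mul, MvPowerSeries.coeff_mul,
    MvPowerSeries.coeff_mul, snd_sum, ← Finset.sum_add_distrib]
  refine Finset.sum_congr rfl fun x _ => ?_
  rw [snd_mul, coeff_fstPS, coeff_fstPS, coeff_sndPS, coeff_sndPS]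
  simp [mul_comm]

/-- The Leibniz rule for `mapD`. -/
theorem mapD_mul (D : Der A) {σ : Type*} (f g : MvPowerSeries σ A) :
    mapD D (f * g) = f * mapD D g + mapD D f * g := by
  classical
  ext d
  rw [coeff_mapD, map_add, MvPowerSeries.coeff_mul, MvPowerSeries.coeff_mul,
    MvPowerSeries.coeff_mul, map_sum, ← Finset.sum_add_distrib]
  refine Finset.sum_congr rfl fun x _ => ?_
  rw [Derivation.leibniz, coeff_mapD, coeff_mapD, smul_eq_mul, smul_eq_mul]
  ring

theorem map_cst {σ : Type*} (f : MvPowerSeries σ A) :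
    MvPowerSeries.map (cst A) f = mkPS f 0 := by
  refine ps_ext ?_ ?_
  · rw [fstPS_mkPS]
    ext d
    rw [coeff_fstPS, MvPowerSeries.coeff_map, fst_cst]
  · rw [sndPS_mkPS]
    ext d
    rw [coeff_sndPS, MvPowerSeries.coeff_map, snd_cst, map_zero]

theorem map_dlift (D : Der A) {σ : Type*} (f : MvPowerSeries σ A) :
    MvPowerSeries.map (dlift D) f = mkPS f (mapD D f) := by
  refine ps_ext ?_ ?_
  · rw [fstPS_mkPS]
    ext d
    rw [coeff_fstPS, MvPowerSeries.coeff_map, fst_dlift]
  · rw [sndPS_mkPS]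
    ext d
    rw [coeff_sndPS, MvPowerSeries.coeff_map, snd_dlift, coeff_mapD]

theorem fstPS_C_eps {σ : Type*} :
    fstPS (MvPowerSeries.C DualNumber.eps : MvPowerSeries σ (DualNumber A)) = 0 := by
  classical
  ext d
  rw [coeff_fstPS, MvPowerSeries.coeff_C, map_zero]
  split_ifs
  · exact DualNumber.fst_eps
  · exact fst_zero

theorem sndPS_C_eps {σ : Type*} :
    sndPS (MvPowerSeries.C DualNumber.eps : MvPowerSeries σ (DualNumber A)) = 1 := by
  classical
  ext d
  rw [coeff_sndPS, MvPowerSeries.coeff_C, MvPowerSeries.coeff_one]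
  split_ifs
  · exact DualNumber.snd_eps
  · exact snd_zero

/-- Substituting a constant series `φ` (in any variables) into `a + ε b` gives
`a(φ) + ε b(φ)`. (`mkPS a b = map (cst A) a + C ε * map (cst A) b`, with `ε = DualNumber.eps`;
use `PowerSeries.subst_add`, `PowerSeries.subst_mul`, `PowerSeries.subst_C`, and `LU.map_cmp` for the
ring hom `cst A`.) -/
theorem cmp_mkPS_cst (a b : PowerSeries A) {σ : Type*} {φ : MvPowerSeries σ A}
    (hφ : MvPowerSeries.constantCoeff φ = 0) :
    cmp (mkPS a b : PowerSeries (DualNumber A)) (MvPowerSeries.map (cst A) φ) =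
      mkPS (cmp a φ) (cmp b φ) := by
  have hφ' : MvPowerSeries.constantCoeff (MvPowerSeries.map (cst A) φ) = 0 := by
    rw [MvPowerSeries.constantCoeff_map, hφ, map_zero]
  have hs : PowerSeries.HasSubst (MvPowerSeries.map (cst A) φ) :=
    PowerSeries.HasSubst.of_constantCoeff_zero hφ'
  have hC1 : fstPS (MvPowerSeries.C DualNumber.eps : MvPowerSeries Unit (DualNumber A)) = 0 :=
    fstPS_C_eps
  have hC2 : sndPS (MvPowerSeries.C DualNumber.eps : MvPowerSeries Unit (DualNumber A)) = 1 :=
    sndPS_C_eps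
  have e1 : (mkPS a b : PowerSeries (DualNumber A)) =
      PowerSeries.map (cst A) a + PowerSeries.C DualNumber.eps * PowerSeries.map (cst A) b := by
    have ha : PowerSeries.map (cst A) a = mkPS a 0 := map_cst (σ := Unit) a
    have hb : PowerSeries.map (cst A) b = mkPS b 0 := map_cst (σ := Unit) b
    have hC : (PowerSeries.C DualNumber.eps : PowerSeries (DualNumber A)) =
      (MvPowerSeries.C DualNumber.eps : MvPowerSeries Unit (DualNumber A)) := rfl
    rw [ha, hb, hC]
    refine ps_ext ?_ ?_
    · have h1 := fstPS_add (mkPS a 0 : MvPowerSeries Unit (DualNumber A))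
        ((MvPowerSeries.C DualNumber.eps : MvPowerSeries Unit (DualNumber A)) * mkPS b 0)
      have h2 := fstPS_mul (MvPowerSeries.C DualNumber.eps : MvPowerSeries Unit (DualNumber A))
        (mkPS b 0)
      rw [hC1, zero_mul] at h2
      rw [h2, fstPS_mkPS, add_zero] at h1
      rw [fstPS_mkPS]
      exact h1.symm
    · have h1 := sndPS_add (mkPS a 0 : MvPowerSeries Unit (DualNumber A))
        ((MvPowerSeries.C DualNumber.eps : MvPowerSeries Unit (DualNumber A)) * mkPS b 0)
      have h2 := sndPS_mul (MvPowerSeries.C DualNumber.eps : MvPowerSeries Unit (DualNumber A))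
        (mkPS b 0)
      rw [hC1, hC2, zero_mul, zero_add, one_mul, fstPS_mkPS] at h2
      rw [h2, sndPS_mkPS, zero_add] at h1
      rw [sndPS_mkPS]
      exact h1.symm
  have ea : cmp (PowerSeries.map (cst A) a) (MvPowerSeries.map (cst A) φ) =
      mkPS (cmp a φ) 0 := by
    rw [← map_cmp (cst A) a hφ, map_cst]
  have eb : cmp (PowerSeries.map (cst A) b) (MvPowerSeries.map (cst A) φ) =
      mkPS (cmp b φ) 0 := by
    rw [← map_cmp (cst A) b hφ, map_cst]
  have eC : cmp (PowerSeries.C DualNumber.eps : PowerSeries (DualNumber A))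
      (MvPowerSeries.map (cst A) φ) = MvPowerSeries.C DualNumber.eps := by
    exact PowerSeries.subst_C _
  have e2 : cmp (mkPS a b : PowerSeries (DualNumber A)) (MvPowerSeries.map (cst A) φ) =
      mkPS (cmp a φ) 0 + MvPowerSeries.C DualNumber.eps * mkPS (cmp b φ) 0 := by
    rw [e1, ← ea, ← eb, ← eC]
    show PowerSeries.subst _ (_ + _) = _
    rw [PowerSeries.subst_add hs, PowerSeries.subst_mul hs]
  have hC1' : fstPS (MvPowerSeries.C DualNumber.eps : MvPowerSeries σ (DualNumber A)) = 0 :=
    fstPS_C_eps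
  have hC2' : sndPS (MvPowerSeries.C DualNumber.eps : MvPowerSeries σ (DualNumber A)) = 1 :=
    sndPS_C_eps
  rw [e2]
  refine ps_ext ?_ ?_
  · rw [fstPS_add, fstPS_mul, hC1', zero_mul, add_zero, fstPS_mkPS, fstPS_mkPS]
  · rw [sndPS_add, sndPS_mul, hC1', hC2', zero_mul, zero_add, one_mul, fstPS_mkPS, sndPS_mkPS,
      sndPS_mkPS, zero_add]

end Crest.Agent.LUA
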