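import Mathlib
import Crest.Agent.LU_A2

/-!
S0351 (blueprint LU), task A3: homomorphisms of formal group laws acting on points.
-/

set_option autoImplicit false

noncomputable section

namespace Crest.Agent.LU

open Crest.LubinTate

variable {R : Type*} [CommRing R]

private theorem A3_hasSubst {σ : Type*} {a : MvPowerSeries σ R}
    (ha : MvPowerSeries.constantCoeff a = 0) :
    MvPowerSeries.HasSubst (fun _ : Unit => a) :=
  (PowerSeries.HasSubst.of_constantCoeff_zero ha).const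

/-- TASK A3.  A homomorphism `φ : F → G` satisfies `φ(F(a,b)) = G(φ(a), φ(b))` for all series
`a, b` with zero constant coefficient (substitute `X_0 ↦ a, X_1 ↦ b` in the definition of
`IsFGHom`; `MvPowerSeries.subst_comp_subst_apply`). -/
theorem hom_fadd {F G : FormalGroup R} {φ : PowerSeries R} (hφ : IsFGHom F G φ) {σ : Type*}
    {a b : MvPowerSeries σ R} (ha : MvPowerSeries.constantCoeff a = 0)
    (hb : MvPowerSeries.constantCoeff b = 0) :
    cmp φ (fadd F a b) = fadd G (cmp φ a) (cmp φ b) := by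
  have h2 := congrArg (MvPowerSeries.subst ![a, b]) hφ.2
  have hF : MvPowerSeries.HasSubst (fun _ : Unit => F.toPowerSeries) :=
    A3_hasSubst F.zero_constantCoeff
  have hX0 : MvPowerSeries.constantCoeff (MvPowerSeries.X 0 : MvPowerSeries (Fin 2) R) = 0 := by
    simp
  have hX1 : MvPowerSeries.constantCoeff (MvPowerSeries.X 1 : MvPowerSeries (Fin 2) R) = 0 := by
    simp
  have hc0 : MvPowerSeries.constantCoeff
      (PowerSeries.subst (MvPowerSeries.X 0 : MvPowerSeries (Fin 2) R) φ) = 0 :=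
    constantCoeff_cmp hφ.1 hX0
  have hc1 : MvPowerSeries.constantCoeff
      (PowerSeries.subst (MvPowerSeries.X 1 : MvPowerSeries (Fin 2) R) φ) = 0 :=
    constantCoeff_cmp hφ.1 hX1
  unfold PowerSeries.subst at h2 hc0 hc1
  rw [MvPowerSeries.subst_comp_subst_apply hF (hasSubst_pair ha hb),
    MvPowerSeries.subst_comp_subst_apply (hasSubst_pair hc0 hc1) (hasSubst_pair ha hb)] at h2
  unfold cmp fadd PowerSeries.subst
  rw [h2]
  congr 1
  funext s
  fin_cases s
  · simp only [Fin.zero_eta, Matrix.cons_val_zero]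
    rw [MvPowerSeries.subst_comp_subst_apply (A3_hasSubst hX0) (hasSubst_pair ha hb)]
    congr 1
    funext u
    rw [MvPowerSeries.subst_X (hasSubst_pair ha hb)]
    rfl
  · simp only [Fin.mk_one, Matrix.cons_val_one, Matrix.cons_val_fin_one]
    rw [MvPowerSeries.subst_comp_subst_apply (A3_hasSubst hX1) (hasSubst_pair ha hb)]
    congr 1
    funext u
    rw [MvPowerSeries.subst_X (hasSubst_pair ha hb)]
    rfl

/-- Converse: it is enough to know it for `a = X_0`, `b = X_1` (this is the definition). -/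
theorem isFGHom_of_fadd {F G : FormalGroup R} {φ : PowerSeries R}
    (h0 : PowerSeries.constantCoeff φ = 0)
    (h : ∀ a b : MvPowerSeries (Fin 2) R, MvPowerSeries.constantCoeff a = 0 →
      MvPowerSeries.constantCoeff b = 0 → cmp φ (fadd F a b) = fadd G (cmp φ a) (cmp φ b)) :
    IsFGHom F G φ := by
  refine ⟨h0, ?_⟩
  have h1 := h (MvPowerSeries.X 0) (MvPowerSeries.X 1) (by simp) (by simp)
  have h2 : fadd F (MvPowerSeries.X 0 : MvPowerSeries (Fin 2) R) (MvPowerSeries.X 1) =
      F.toPowerSeries := by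
    unfold fadd
    have e : (![MvPowerSeries.X 0, MvPowerSeries.X 1] : Fin 2 → MvPowerSeries (Fin 2) R) =
        MvPowerSeries.X := by
      funext s
      fin_cases s <;> rfl
    rw [e, MvPowerSeries.subst_self]
    rfl
  rw [h2] at h1
  exact h1

theorem hom_X (F : FormalGroup R) : IsFGHom F F (PowerSeries.X : PowerSeries R) := by
  refine isFGHom_of_fadd PowerSeries.constantCoeff_X fun a b ha hb => ?_
  rw [X_cmp (constantCoeff_fadd F ha hb), X_cmp ha, X_cmp hb]

private theorem A3_cmp_zero {σ : Type*} {a : MvPowerSeries σ R}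
    (ha : MvPowerSeries.constantCoeff a = 0) : cmp (0 : PowerSeries R) a = 0 := by
  show PowerSeries.subst a (0 : PowerSeries R) = 0
  rw [← PowerSeries.coe_substAlgHom (PowerSeries.HasSubst.of_constantCoeff_zero ha), map_zero]

theorem hom_zero (F G : FormalGroup R) : IsFGHom F G (0 : PowerSeries R) := by
  refine isFGHom_of_fadd (by simp) fun a b ha hb => ?_
  rw [A3_cmp_zero (constantCoeff_fadd F ha hb), A3_cmp_zero ha, A3_cmp_zero hb,
    fadd_zero G (by simp)]

/-- Composition of homomorphisms. -/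
theorem hom_comp {F G K : FormalGroup R} {φ ψ : PowerSeries R} (hψ : IsFGHom G K ψ)
    (hφ : IsFGHom F G φ) : IsFGHom F K (cmp ψ φ) := by
  refine isFGHom_of_fadd (constantCoeff_cmp hψ.1 hφ.1) fun a b ha hb => ?_
  rw [cmp_assoc ψ hφ.1 (constantCoeff_fadd F ha hb), cmp_assoc ψ hφ.1 ha, cmp_assoc ψ hφ.1 hb,
    hom_fadd hφ ha hb, hom_fadd hψ (constantCoeff_cmp hφ.1 ha) (constantCoeff_cmp hφ.1 hb)]

/-- A homomorphism induces a homomorphism of groups of points. -/
def FPt.mapHom {F G : FormalGroup R} [F.IsComm] [G.IsComm] {φ : PowerSeries R}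
    (hφ : IsFGHom F G φ) (σ : Type*) : FPt F σ →+ FPt G σ where
  toFun a := ⟨cmp φ a.val, constantCoeff_cmp hφ.1 a.prop⟩
  map_zero' := by
    ext1
    show cmp φ (0 : MvPowerSeries σ R) = 0
    exact PowerSeries.subst_zero_of_constantCoeff_zero hφ.1
  map_add' a b := FPt.ext (hom_fadd hφ a.prop b.prop)

/-- Sum of two homomorphisms into a commutative law. -/
theorem hom_add {F G : FormalGroup R} [G.IsComm] {φ ψ : PowerSeries R} (hφ : IsFGHom F G φ)
    (hψ : IsFGHom F G ψ) : IsFGHom F G (fadd G φ ψ) := by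
  refine isFGHom_of_fadd (constantCoeff_fadd G hφ.1 hψ.1) fun a b ha hb => ?_
  rw [cmp_fadd G hφ.1 hψ.1 (constantCoeff_fadd F ha hb), cmp_fadd G hφ.1 hψ.1 ha,
    cmp_fadd G hφ.1 hψ.1 hb, hom_fadd hφ ha hb, hom_fadd hψ ha hb]
  have h := add_add_add_comm
    (⟨cmp φ a, constantCoeff_cmp hφ.1 ha⟩ : FPt G (Fin 2))
    ⟨cmp φ b, constantCoeff_cmp hφ.1 hb⟩ ⟨cmp ψ a, constantCoeff_cmp hψ.1 ha⟩
    ⟨cmp ψ b, constantCoeff_cmp hψ.1 hb⟩
  exact congrArg FPt.val h

/-- Negative of a homomorphism into a commutative law. -/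
theorem hom_neg {F G : FormalGroup R} [G.IsComm] {φ : PowerSeries R} (hφ : IsFGHom F G φ) :
    IsFGHom F G (cmp (inv G) φ) := by
  refine isFGHom_of_fadd (constantCoeff_cmp (constantCoeff_inv G) hφ.1) fun a b ha hb => ?_
  rw [cmp_assoc (inv G) hφ.1 (constantCoeff_fadd F ha hb), cmp_assoc (inv G) hφ.1 ha,
    cmp_assoc (inv G) hφ.1 hb, hom_fadd hφ ha hb]
  have h := neg_add (⟨cmp φ a, constantCoeff_cmp hφ.1 ha⟩ : FPt G (Fin 2))
    ⟨cmp φ b, constantCoeff_cmp hφ.1 hb⟩
  exact congrArg FPt.val h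

/-- The inverse series of an isomorphism is a homomorphism. -/
theorem hom_inverse {F G : FormalGroup R} {φ ψ : PowerSeries R} (hφ : IsFGHom F G φ)
    (hψ : PowerSeries.constantCoeff ψ = 0) (h1 : cmp φ ψ = (PowerSeries.X : PowerSeries R))
    (h2 : cmp ψ φ = (PowerSeries.X : PowerSeries R)) : IsFGHom G F ψ := by
  refine isFGHom_of_fadd hψ fun a b ha hb => ?_
  have ea : cmp φ (cmp ψ a) = a := by rw [← cmp_assoc φ hψ ha, h1, X_cmp ha]
  have eb : cmp φ (cmp ψ b) = b := by rw [← cmp_assoc φ hψ hb, h1, X_cmp hb]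
  have hpa := constantCoeff_cmp hψ ha
  have hpb := constantCoeff_cmp hψ hb
  calc cmp ψ (fadd G a b) = cmp ψ (fadd G (cmp φ (cmp ψ a)) (cmp φ (cmp ψ b))) := by rw [ea, eb]
    _ = cmp ψ (cmp φ (fadd F (cmp ψ a) (cmp ψ b))) := by rw [hom_fadd hφ hpa hpb]
    _ = fadd F (cmp ψ a) (cmp ψ b) := by
      rw [← cmp_assoc ψ hφ.1 (constantCoeff_fadd F hpa hpb), h2,
        X_cmp (constantCoeff_fadd F hpa hpb)]

end Crest.Agent.LU
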