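import Mathlib
import Crest.Agent.LU_A3

/-!
S0351 (blueprint LU), part (5), TASK LUA-3: iterated Weierstrass division by a homomorphism.

`A` is a complete local domain, `V : F → G` a homomorphism of formal group laws over `A` with
`V'(0) ≠ 0` and nonzero reduction modulo the maximal ideal.  If `f(F(X,Y)) ≡ f(X)` modulo `V(Y)` in
`A[[X,Y]]`, then `f = r(V)` for a series `r`.

Here `cmp V (MvPowerSeries.X 1) = V(Y)`, `cmp V (MvPowerSeries.X 0) = V(X)` in
`MvPowerSeries (Fin 2) A`.
-/

set_option autoImplicit false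

noncomputable section

namespace Crest.Agent.LUA

open Crest.LubinTate Crest.Agent.LU IsLocalRing

variable {A : Type*} [CommRing A]

/-- TASK LUA-3a.  If `V ∣ a·s` with `a ∈ A`, `a ≠ 0`, then `V ∣ s`.
Weierstrass division (`PowerSeries.exists_isWeierstrassDivision`): `s = V q + r`, `r` a polynomial of
degree `<` order of `V mod m`; `a s = V (a q) + a r` and `a s = V t + 0`: by uniqueness
(`PowerSeries.IsWeierstrassDivision.elim`) `a r = 0`, so `r = 0` (`A` is a domain). -/
theorem dvd_of_dvd_C_mul [IsDomain A] [IsLocalRing A] [IsAdicComplete (maximalIdeal A) A]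
    {V : PowerSeries A} (hm : PowerSeries.map (residue A) V ≠ 0) {a : A} (ha : a ≠ 0)
    {s : PowerSeries A} (h : V ∣ PowerSeries.C a * s) : V ∣ s := by
  obtain ⟨q, r, H⟩ := PowerSeries.exists_isWeierstrassDivision (g := V) s hm
  obtain ⟨t, ht⟩ := h
  have H1 : (a • s).IsWeierstrassDivision V (a • q) (a • r) := H.smul a
  have H2 : (a • s).IsWeierstrassDivision V t 0 := by
    refine ⟨?_, ?_⟩
    · rw [Polynomial.degree_zero]
      exact WithBot.bot_lt_coe _
    · rw [PowerSeries.smul_eq_C_mul, ht]
      simp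
  obtain ⟨-, h2⟩ := H1.elim hm H2
  have h3 : r = 0 := by
    rcases smul_eq_zero.1 h2 with h | h
    · exact absurd h ha
    · exact h
  refine ⟨q, ?_⟩
  have h4 := H.eq_mul_add
  rw [h3] at h4
  simpa using h4

/-- the variable `0` becomes the outer variable, `1` the inner one -/
private def LUA3_e : Fin 2 ≃ Option Unit where
  toFun i := if i = 0 then none else some ()
  invFun o := o.elim 0 (fun _ => 1)
  left_inv := by intro i; fin_cases i <;> rfl
  right_inv := by rintro (_ | ⟨⟩) <;> rfl

private def LUA3_E : MvPowerSeries (Fin 2) A ≃ₐ[A] PowerSeries (PowerSeries A) :=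
  (MvPowerSeries.renameEquiv A LUA3_e).trans (MvPowerSeries.optionEquivLeft Unit A)

private theorem LUA3_rename (V : PowerSeries A) (i : Fin 2) :
    MvPowerSeries.renameEquiv A LUA3_e (cmp V (MvPowerSeries.X i : MvPowerSeries (Fin 2) A)) =
      cmp V (MvPowerSeries.X (LUA3_e i) : MvPowerSeries (Option Unit) A) := by
  have hX : MvPowerSeries.HasSubst (fun _ : Unit => (MvPowerSeries.X i : MvPowerSeries (Fin 2) A)) :=
    (PowerSeries.HasSubst.of_constantCoeff_zero (MvPowerSeries.constantCoeff_X i)).const
  have hs : MvPowerSeries.HasSubst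
      (MvPowerSeries.X ∘ LUA3_e : Fin 2 → MvPowerSeries (Option Unit) A) :=
    MvPowerSeries.HasSubst.X_comp _
  have e1 : MvPowerSeries.renameEquiv A LUA3_e
      (cmp V (MvPowerSeries.X i : MvPowerSeries (Fin 2) A)) =
      MvPowerSeries.rename LUA3_e (cmp V (MvPowerSeries.X i : MvPowerSeries (Fin 2) A)) := rfl
  rw [e1, MvPowerSeries.rename_eq_subst]
  unfold LU.cmp PowerSeries.subst
  rw [MvPowerSeries.subst_comp_subst_apply hX hs]
  congr 1
  funext _
  rw [MvPowerSeries.subst_X hs]
  rfl

private theorem LUA3_coeff (V : PowerSeries A) (i : Fin 2) (k : ℕ) (x : Unit →₀ ℕ) :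
    MvPowerSeries.coeff x
      (PowerSeries.coeff k (LUA3_E (cmp V (MvPowerSeries.X i : MvPowerSeries (Fin 2) A)))) =
      if x.optionElim k = Finsupp.single (LUA3_e i) ((x.optionElim k) (LUA3_e i)) then
        PowerSeries.coeff ((x.optionElim k) (LUA3_e i)) V else 0 := by
  have e1 : LUA3_E (cmp V (MvPowerSeries.X i : MvPowerSeries (Fin 2) A)) =
      MvPowerSeries.optionEquivLeft Unit A (MvPowerSeries.renameEquiv A LUA3_e
        (cmp V (MvPowerSeries.X i : MvPowerSeries (Fin 2) A))) := rfl
  rw [e1, LUA3_rename]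
  erw [MvPowerSeries.coeff_coeff_optionEquivLeft]
  exact PowerSeries.coeff_subst_single _ _ _

private theorem LUA3_E_one (V : PowerSeries A) :
    LUA3_E (cmp V (MvPowerSeries.X 1 : MvPowerSeries (Fin 2) A)) = PowerSeries.C V := by
  refine PowerSeries.ext fun k => MvPowerSeries.ext fun x => ?_
  rw [LUA3_coeff, PowerSeries.coeff_C]
  have e1 : LUA3_e 1 = some () := rfl
  rw [e1, Finsupp.optionElim_apply_some]
  by_cases hk : k = 0
  · subst hk
    have e2 : x.optionElim 0 = Finsupp.single (some ()) (x ()) := by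
      ext a
      cases a with
      | none => simp
      | some u => simp
    rw [if_pos e2, if_pos rfl]
    have e3 : x = Finsupp.single () (x ()) := by
      ext
      simp
    conv_rhs => rw [e3]
    rfl
  · rw [if_neg, if_neg hk, map_zero]
    intro h
    have h2 := DFunLike.congr_fun h none
    rw [Finsupp.optionElim_apply_none] at h2
    simp at h2
    exact hk h2

private theorem LUA3_E_zero (V : PowerSeries A) :
    LUA3_E (cmp V (MvPowerSeries.X 0 : MvPowerSeries (Fin 2) A)) =
      PowerSeries.map (PowerSeries.C : A →+* PowerSeries A) V := by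
  refine PowerSeries.ext fun k => MvPowerSeries.ext fun x => ?_
  rw [LUA3_coeff, PowerSeries.coeff_map]
  have e1 : LUA3_e 0 = none := rfl
  rw [e1, Finsupp.optionElim_apply_none]
  have e2 : MvPowerSeries.coeff x (PowerSeries.C (PowerSeries.coeff k V) : PowerSeries A) =
      if x = 0 then PowerSeries.coeff k V else 0 := by
    classical
    have := MvPowerSeries.coeff_C (σ := Unit) x (PowerSeries.coeff k V)
    convert this
    rfl
  rw [e2]
  by_cases hx : x = 0
  · subst hx
    rw [if_pos, if_pos rfl]
    ext a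
    cases a with
    | none => simp
    | some u => simp
  · rw [if_neg, if_neg hx]
    intro h
    apply hx
    ext
    have h2 := DFunLike.congr_fun h (some ())
    rw [Finsupp.optionElim_apply_some] at h2
    simpa using h2

/-- TASK LUA-3b.  In `A[[X,Y]]`: if `V(Y) ∣ V(X)·s` then `V(Y) ∣ s`.
Write `s = Σ s_i(Y) X^i` (`s_i` = the series in `Y` whose `j`-th coefficient is the coefficient of
`X^i Y^j`; e.g. transport along `MvPowerSeries.finSuccEquiv A 1`, or work with
`fun i => PowerSeries.mk fun j => coeff (single 0 i + single 1 j) s`).  `V(Y) t = V(X) s` gives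
`V(Y) t_{m+1}(Y) = v_1 s_m(Y) + Σ_{i<m} v_{m+1-i} s_i(Y)` (`v_i = coeff i V`, `v_0 = 0`).  By strong
induction on `m`, `V(Y) ∣ s_i(Y)` for `i < m`, so `V ∣ v_1 s_m`, so `V ∣ s_m` by `dvd_of_dvd_C_mul`.
Finally `s = V(Y)·(Σ (s_i/V) X^i)`. -/
theorem dvd_of_dvd_mul_two [IsDomain A] [IsLocalRing A] [IsAdicComplete (maximalIdeal A) A]
    {V : PowerSeries A} (h0 : PowerSeries.constantCoeff V = 0) (h1 : PowerSeries.coeff 1 V ≠ 0)
    (hm : PowerSeries.map (residue A) V ≠ 0) {s : MvPowerSeries (Fin 2) A}
    (h : cmp V (MvPowerSeries.X 1 : MvPowerSeries (Fin 2) A) ∣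
      cmp V (MvPowerSeries.X 0 : MvPowerSeries (Fin 2) A) * s) :
    cmp V (MvPowerSeries.X 1 : MvPowerSeries (Fin 2) A) ∣ s := by
  obtain ⟨t, ht⟩ := h
  have hE := congrArg LUA3_E ht
  rw [map_mul, map_mul, LUA3_E_one, LUA3_E_zero] at hE
  have key : ∀ m : ℕ, V ∣ PowerSeries.coeff m (LUA3_E s) := by
    intro m
    induction m using Nat.strong_induction_on with
    | _ m ih =>
      have h2 := congrArg (PowerSeries.coeff (m + 1)) hE
      rw [PowerSeries.coeff_C_mul, PowerSeries.coeff_mul] at h2
      have hmem : ((1, m) : ℕ × ℕ) ∈ Finset.HasAntidiagonal.antidiagonal (m + 1) := by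
        rw [Finset.HasAntidiagonal.mem_antidiagonal]
        omega
      rw [← Finset.add_sum_erase _ _ hmem] at h2
      have h3 : V ∣ ∑ x ∈ (Finset.HasAntidiagonal.antidiagonal (m + 1)).erase (1, m),
          PowerSeries.coeff x.1 (PowerSeries.map (PowerSeries.C : A →+* PowerSeries A) V) *
            PowerSeries.coeff x.2 (LUA3_E s) := by
        refine Finset.dvd_sum fun x hx => ?_
        rw [Finset.mem_erase, Finset.HasAntidiagonal.mem_antidiagonal] at hx
        obtain ⟨hx1, hx2⟩ := hx
        by_cases h0' : x.1 = 0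
        · rw [h0', PowerSeries.coeff_map, PowerSeries.coeff_zero_eq_constantCoeff_apply, h0,
            map_zero, zero_mul]
          exact dvd_zero _
        · have hlt : x.2 < m := by
            by_contra hc
            apply hx1
            ext
            · show x.1 = 1
              omega
            · show x.2 = m
              omega
          exact (ih _ hlt).mul_left _
      have h4 : V ∣ PowerSeries.coeff 1
          (PowerSeries.map (PowerSeries.C : A →+* PowerSeries A) V) *
            PowerSeries.coeff m (LUA3_E s) := by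
        refine (dvd_add_left h3).1 ?_
        rw [h2]
        exact dvd_mul_right _ _
      rw [PowerSeries.coeff_map] at h4
      exact dvd_of_dvd_C_mul hm h1 h4
  choose U hU using key
  refine ⟨LUA3_E.symm (PowerSeries.mk U), ?_⟩
  apply LUA3_E.injective
  rw [map_mul, LUA3_E_one, AlgEquiv.apply_symm_apply]
  refine PowerSeries.ext fun m => ?_
  rw [PowerSeries.coeff_C_mul, PowerSeries.coeff_mk, hU m]

end Crest.Agent.LUA
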