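import Mathlib
import Crest.Agent.LUA_3

/-!
S0351 (blueprint LU), part (5), TASK LUA-3c: iterated Weierstrass division by a homomorphism.
-/

set_option autoImplicit false

noncomputable section

namespace Crest.Agent.LUA

open Crest.LubinTate Crest.Agent.LU IsLocalRing

variable {A : Type*} [CommRing A]

private theorem c3_subst_cmp {σ τ : Type*} {c : σ → MvPowerSeries τ A}
    (hc : MvPowerSeries.HasSubst c) (φ : PowerSeries A) {a : MvPowerSeries σ A}
    (ha : MvPowerSeries.constantCoeff a = 0) :
    (cmp φ a).subst c = cmp φ (a.subst c) := by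
  show MvPowerSeries.subst c (PowerSeries.subst a φ) = PowerSeries.subst (a.subst c) φ
  unfold PowerSeries.subst
  rw [MvPowerSeries.subst_comp_subst_apply (PowerSeries.HasSubst.of_constantCoeff_zero ha).const hc]

private theorem c3_coeff_subst (G : MvPowerSeries (Fin 2) A) {a b : PowerSeries A}
    (ha : PowerSeries.constantCoeff a = 0) (hb : PowerSeries.constantCoeff b = 0) (n : ℕ) :
    PowerSeries.coeff n (G.subst ![a, b] : PowerSeries A) =
      finsum fun d : Fin 2 →₀ ℕ =>
        MvPowerSeries.coeff d G • PowerSeries.coeff n (a ^ d 0 * b ^ d 1) := by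
  have h := MvPowerSeries.coeff_subst (hasSubst_pair (σ := Unit) (a := a) (b := b) ha hb) G
    (Finsupp.single () n)
  rw [PowerSeries.coeff, h]
  refine finsum_congr fun d => ?_
  congr 2
  rw [Finsupp.prod_fintype _ _ (by simp)]
  simp [Fin.prod_univ_two]

/-- `F(X,Y) - X` is divisible by `Y`. -/
private theorem c3_dvd (F : FormalGroup A) :
    (MvPowerSeries.X 1 : MvPowerSeries (Fin 2) A) ∣ F.toPowerSeries - MvPowerSeries.X 0 := by
  rw [MvPowerSeries.X_dvd_iff]
  intro m hm
  have hX : PowerSeries.constantCoeff (PowerSeries.X : PowerSeries A) = 0 := by simp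
  have h0 : PowerSeries.constantCoeff (0 : PowerSeries A) = 0 := by simp
  have key : PowerSeries.coeff (m 0) ((F.toPowerSeries - MvPowerSeries.X 0).subst
      ![(PowerSeries.X : PowerSeries A), 0] : PowerSeries A) = 0 := by
    have hs := hasSubst_pair (σ := Unit) (a := (PowerSeries.X : PowerSeries A)) (b := 0) hX h0
    rw [MvPowerSeries.subst_sub hs, MvPowerSeries.subst_X hs]
    have e1 : (F.toPowerSeries.subst ![(PowerSeries.X : PowerSeries A), 0] : PowerSeries A) =
        PowerSeries.X := fadd_zero F (σ := Unit) (a := PowerSeries.X) hX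
    rw [e1]
    simp
  rw [c3_coeff_subst _ hX h0, finsum_eq_single _ m] at key
  · rw [hm, pow_zero, mul_one, PowerSeries.coeff_X_pow_self, smul_eq_mul, mul_one] at key
    exact key
  · intro d hd
    by_cases h1 : d 1 = 0
    · have h2 : d 0 ≠ m 0 := by
        intro h
        apply hd
        ext i
        fin_cases i
        · exact h
        · exact h1.trans hm.symm
      rw [h1, pow_zero, mul_one, PowerSeries.coeff_X_pow, if_neg (Ne.symm h2), smul_zero]
    · rw [zero_pow h1, mul_zero, map_zero, smul_zero]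

/-- In `A[[X,Y]]`, `b ∣ F(a,b) - a` (`F(X,Y) = X + Y·(...)`). -/
theorem dvd_fadd_sub (F : FormalGroup A) {σ : Type*} {a b : MvPowerSeries σ A}
    (ha : MvPowerSeries.constantCoeff a = 0) (hb : MvPowerSeries.constantCoeff b = 0) :
    b ∣ fadd F a b - a := by
  obtain ⟨G, hG⟩ := c3_dvd F
  have hs := hasSubst_pair ha hb
  refine ⟨G.subst ![a, b], ?_⟩
  have e : F.toPowerSeries = MvPowerSeries.X 0 + MvPowerSeries.X 1 * G := by rw [← hG]; ring
  unfold fadd
  rw [e, MvPowerSeries.subst_add hs, MvPowerSeries.subst_mul hs, MvPowerSeries.subst_X hs,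
    MvPowerSeries.subst_X hs]
  simp

private theorem c3_hs {σ : Type*} {a : MvPowerSeries σ A}
    (ha : MvPowerSeries.constantCoeff a = 0) : PowerSeries.HasSubst a :=
  PowerSeries.HasSubst.of_constantCoeff_zero ha

private theorem c3_cmp_split {σ : Type*} {a : MvPowerSeries σ A}
    (ha : MvPowerSeries.constantCoeff a = 0) (c : A) (V s : PowerSeries A) :
    cmp (PowerSeries.C c + V * s) a = MvPowerSeries.C c + cmp V a * cmp s a := by
  show PowerSeries.subst a (PowerSeries.C c + V * s) = _
  rw [PowerSeries.subst_add (c3_hs ha), PowerSeries.subst_mul (c3_hs ha), PowerSeries.subst_C]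

/-- TASK LUA-3c.  Iterated division.
Let `S` be the set of all `f` with `V(Y) ∣ f(F(X,Y)) - f(X)`.  For `f ∈ S`, putting `X = 0` gives
`V(Y) ∣ f(Y) - f(0)` in `A[[Y]]`, so `f = C (f 0) + V·s`.  Then `s ∈ S`: indeed
`V(F(X,Y)) = G(V X, V Y) ≡ V(X)` modulo `V(Y)` (`dvd_fadd_sub`), so
`V(X)·(s(F(X,Y)) - s(X)) ≡ s(F(X,Y)) V(F(X,Y)) - s(X) V(X) = f(F(X,Y)) - f(X) ≡ 0` modulo `V(Y)`,
and `dvd_of_dvd_mul_two` applies.  Iterating, `f = Σ_{i<N} c_i V^i + V^N s_N` for all `N`; let
`r = Σ c_i X^i`; then `X^N ∣ V^N ∣ f - r(V)` for all `N`, so `f = r(V)`. -/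
theorem exists_cmp_of_invariant [IsDomain A] [IsLocalRing A]
    [IsAdicComplete (maximalIdeal A) A] {F G : FormalGroup A} {V : PowerSeries A}
    (hV : IsFGHom F G V) (h1 : PowerSeries.coeff 1 V ≠ 0)
    (hm : PowerSeries.map (residue A) V ≠ 0) {f : PowerSeries A}
    (hf : cmp V (MvPowerSeries.X 1 : MvPowerSeries (Fin 2) A) ∣
      cmp f F.toPowerSeries - cmp f (MvPowerSeries.X 0 : MvPowerSeries (Fin 2) A)) :
    ∃ r : PowerSeries A, (cmp r V : PowerSeries A) = f := by
  classical
  have hx0 : MvPowerSeries.constantCoeff (MvPowerSeries.X 0 : MvPowerSeries (Fin 2) A) = 0 := by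
    simp
  have hx1 : MvPowerSeries.constantCoeff (MvPowerSeries.X 1 : MvPowerSeries (Fin 2) A) = 0 := by
    simp
  have hX : PowerSeries.constantCoeff (PowerSeries.X : PowerSeries A) = 0 := by simp
  have h0 : PowerSeries.constantCoeff (0 : PowerSeries A) = 0 := by simp
  -- F.toPowerSeries = F(X, Y)
  have hFxy : fadd F (MvPowerSeries.X 0 : MvPowerSeries (Fin 2) A) (MvPowerSeries.X 1) =
      F.toPowerSeries := by
    unfold fadd
    have e : (![MvPowerSeries.X 0, MvPowerSeries.X 1] : Fin 2 → MvPowerSeries (Fin 2) A) =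
        MvPowerSeries.X := by
      funext s
      fin_cases s <;> rfl
    rw [e, MvPowerSeries.subst_self]
    rfl
  -- `V(F(X,Y)) ≡ V(X)` modulo `V(Y)`
  obtain ⟨t, ht⟩ : cmp V (MvPowerSeries.X 1 : MvPowerSeries (Fin 2) A) ∣
      cmp V F.toPowerSeries - cmp V (MvPowerSeries.X 0 : MvPowerSeries (Fin 2) A) := by
    rw [← hFxy, hom_fadd hV hx0 hx1]
    exact dvd_fadd_sub G (constantCoeff_cmp hV.1 hx0) (constantCoeff_cmp hV.1 hx1)
  -- step A + step B
  have step : ∀ g : PowerSeries A, cmp V (MvPowerSeries.X 1 : MvPowerSeries (Fin 2) A) ∣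
      cmp g F.toPowerSeries - cmp g (MvPowerSeries.X 0 : MvPowerSeries (Fin 2) A) →
      ∃ s : PowerSeries A, g = PowerSeries.C (PowerSeries.constantCoeff g) + V * s ∧
        cmp V (MvPowerSeries.X 1 : MvPowerSeries (Fin 2) A) ∣
          cmp s F.toPowerSeries - cmp s (MvPowerSeries.X 0 : MvPowerSeries (Fin 2) A) := by
    intro g hg
    have hs := hasSubst_pair (σ := Unit) (a := (0 : PowerSeries A))
      (b := (PowerSeries.X : PowerSeries A)) h0 hX
    have hA : ∃ s : PowerSeries A, g = PowerSeries.C (PowerSeries.constantCoeff g) + V * s := by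
      obtain ⟨w, hw⟩ := hg
      refine ⟨w.subst ![(0 : PowerSeries A), PowerSeries.X], ?_⟩
      have h2 := congrArg (MvPowerSeries.subst ![(0 : PowerSeries A), PowerSeries.X]) hw
      rw [MvPowerSeries.subst_sub hs, MvPowerSeries.subst_mul hs,
        c3_subst_cmp hs g F.zero_constantCoeff, c3_subst_cmp hs g hx0, c3_subst_cmp hs V hx1,
        MvPowerSeries.subst_X hs, MvPowerSeries.subst_X hs] at h2
      have e1 : (F.toPowerSeries.subst ![(0 : PowerSeries A), PowerSeries.X] : PowerSeries A) =
          PowerSeries.X := zero_fadd F (σ := Unit) (a := PowerSeries.X) hX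
      rw [e1] at h2
      simp only [Matrix.cons_val_zero, Matrix.cons_val_one, Matrix.cons_val_fin_one] at h2
      have e2 : cmp g (PowerSeries.X : PowerSeries A) = g := cmp_X g
      have e3 : cmp V (PowerSeries.X : PowerSeries A) = V := cmp_X V
      have e4 : cmp g (0 : PowerSeries A) = PowerSeries.C (PowerSeries.constantCoeff g) :=
        PowerSeries.subst_zero_eq_C_constantCoeff
      rw [e2, e3, e4] at h2
      rw [← h2]
      ring
    obtain ⟨s, hs'⟩ := hA
    refine ⟨s, hs', ?_⟩
    apply dvd_of_dvd_mul_two hV.1 h1 hm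
    obtain ⟨w, hw⟩ := hg
    rw [hs', c3_cmp_split F.zero_constantCoeff, c3_cmp_split hx0] at hw
    have ht' : cmp V F.toPowerSeries = cmp V (MvPowerSeries.X 0 : MvPowerSeries (Fin 2) A) +
        cmp V (MvPowerSeries.X 1 : MvPowerSeries (Fin 2) A) * t := by
      rw [← ht]; ring
    rw [ht'] at hw
    refine ⟨w - t * cmp s F.toPowerSeries, ?_⟩
    linear_combination hw
  choose! nxt hn1 hn2 using step
  -- the sequence of quotients
  set S : ℕ → PowerSeries A := fun n => nxt^[n] f with hS
  have hSd : ∀ n, cmp V (MvPowerSeries.X 1 : MvPowerSeries (Fin 2) A) ∣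
      cmp (S n) F.toPowerSeries - cmp (S n) (MvPowerSeries.X 0 : MvPowerSeries (Fin 2) A) := by
    intro n
    induction n with
    | zero => exact hf
    | succ n ih =>
      have : S (n + 1) = nxt (S n) := by
        simp only [hS, Function.iterate_succ_apply']
      rw [this]
      exact hn2 _ ih
  have hSs : ∀ n, S n = PowerSeries.C (PowerSeries.constantCoeff (S n)) + V * S (n + 1) := by
    intro n
    have : S (n + 1) = nxt (S n) := by
      simp only [hS, Function.iterate_succ_apply']
    rw [this]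
    exact hn1 _ (hSd n)
  set r : ℕ → PowerSeries A := fun n => PowerSeries.mk fun i =>
    PowerSeries.constantCoeff (S (n + i)) with hr
  have hrs : ∀ n, r n = PowerSeries.C (PowerSeries.constantCoeff (S n)) +
      PowerSeries.X * r (n + 1) := by
    intro n
    ext i
    cases i with
    | zero => simp [hr]
    | succ i =>
      rw [map_add, PowerSeries.coeff_succ_X_mul, PowerSeries.coeff_C]
      simp only [hr, PowerSeries.coeff_mk]
      rw [if_neg (Nat.succ_ne_zero i), zero_add]
      congr 2
      omega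
  have hV0 : MvPowerSeries.constantCoeff (V : MvPowerSeries Unit A) = 0 := hV.1
  have hXV : (PowerSeries.X : PowerSeries A) ∣ V := PowerSeries.X_dvd_iff.2 hV.1
  have hdiff : ∀ n, S n - (cmp (r n) V : PowerSeries A) =
      V * (S (n + 1) - (cmp (r (n + 1)) V : PowerSeries A)) := by
    intro n
    have e1 : (cmp (r n) V : PowerSeries A) =
        PowerSeries.C (PowerSeries.constantCoeff (S n)) + V * (cmp (r (n + 1)) V : PowerSeries A) := by
      conv_lhs => rw [hrs n]
      rw [c3_cmp_split hV0, X_cmp hV0]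
      rfl
    rw [e1]
    linear_combination hSs n
  have hdvd : ∀ N n, (PowerSeries.X : PowerSeries A) ^ N ∣ S n - (cmp (r n) V : PowerSeries A) := by
    intro N
    induction N with
    | zero => intro n; simp
    | succ N ih =>
      intro n
      rw [hdiff n, pow_succ']
      exact mul_dvd_mul hXV (ih (n + 1))
  refine ⟨r 0, ?_⟩
  have hfin : S 0 - (cmp (r 0) V : PowerSeries A) = 0 := by
    ext n
    rw [map_zero]
    exact PowerSeries.X_pow_dvd_iff.1 (hdvd (n + 1) 0) n (Nat.lt_succ_self n)
  have : S 0 = f := rfl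
  rw [this, sub_eq_zero] at hfin
  exact hfin.symm

end Crest.Agent.LUA
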