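import Mathlib
import Crest.Agent.LU_A3

/-!
S0351 (blueprint LU), task A4: the series `[m]_F`.
-/

set_option autoImplicit false

noncomputable section

namespace Crest.Agent.LU

open Crest.LubinTate

variable {R : Type*} [CommRing R]

theorem mulSeries_succ (F : FormalGroup R) (m : ℕ) :
    mulSeries F (m + 1) = fadd F (mulSeries F m) (PowerSeries.X : PowerSeries R) := rfl

/-- TASK A4. -/
theorem constantCoeff_mulSeries (F : FormalGroup R) (m : ℕ) :
    PowerSeries.constantCoeff (mulSeries F m) = 0 := by
  induction m with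
  | zero => exact map_zero _
  | succ m ih =>
    rw [mulSeries_succ]
    exact constantCoeff_fadd F (a := mulSeries F m) (b := (PowerSeries.X : PowerSeries R)) ih
      PowerSeries.constantCoeff_X

theorem cmp_zero_left {σ : Type*} {a : MvPowerSeries σ R}
    (ha : MvPowerSeries.constantCoeff a = 0) : cmp (0 : PowerSeries R) a = 0 := by
  unfold cmp
  rw [← PowerSeries.coe_substAlgHom (PowerSeries.HasSubst.of_constantCoeff_zero ha), map_zero]

/-- `[m]_F(a) = m • a` in the group of points. -/
theorem nsmul_val {F : FormalGroup R} [F.IsComm] {σ : Type*} (m : ℕ) (a : FPt F σ) :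
    (m • a).val = cmp (mulSeries F m) a.val := by
  induction m with
  | zero =>
    rw [zero_smul]
    exact (cmp_zero_left a.prop).symm
  | succ m ih =>
    rw [succ_nsmul, FPt.val_add, ih, mulSeries_succ,
      cmp_fadd F (constantCoeff_mulSeries F m) PowerSeries.constantCoeff_X a.prop, X_cmp a.prop]

/-- linear coefficient of `F(a,b)` for one-variable series -/
theorem coeff_one_fadd (F : FormalGroup R) {a b : PowerSeries R}
    (ha : PowerSeries.constantCoeff a = 0) (hb : PowerSeries.constantCoeff b = 0) :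
    PowerSeries.coeff 1 (fadd F a b : PowerSeries R) =
      PowerSeries.coeff 1 a + PowerSeries.coeff 1 b := by
  have hs : MvPowerSeries.HasSubst ![a, b] := hasSubst_pair ha hb
  have h0 : ∀ s : Fin 2, PowerSeries.constantCoeff ((![a, b] s : PowerSeries R)) = 0 := by
    intro s; fin_cases s
    · exact ha
    · exact hb
  unfold fadd
  show MvPowerSeries.coeff (Finsupp.single () 1) (MvPowerSeries.subst ![a, b] F.toPowerSeries) = _
  rw [MvPowerSeries.coeff_subst hs]
  have hterm : ∀ d : Fin 2 →₀ ℕ, d ≠ Finsupp.single 0 1 → d ≠ Finsupp.single 1 1 →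
      MvPowerSeries.coeff d F.toPowerSeries •
        MvPowerSeries.coeff (Finsupp.single () 1) (d.prod fun s e => (![a, b] s) ^ e) = 0 := by
    intro d hd0 hd1
    by_cases hd : d = 0
    · subst hd
      have : MvPowerSeries.coeff 0 F.toPowerSeries = 0 := F.zero_constantCoeff
      rw [this, zero_smul]
    · have hX : ∀ s : Fin 2, (PowerSeries.X : PowerSeries R) ∣ (![a, b] s : PowerSeries R) :=
        fun s => PowerSeries.X_dvd_iff.2 (h0 s)
      have hprod : (d.prod fun s e => (![a, b] s) ^ e) =
          (a ^ (d 0) * b ^ (d 1) : PowerSeries R) := by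
        rw [Finsupp.prod_fintype _ _ (fun i => pow_zero _), Fin.prod_univ_two]
        rfl
      have hge : 2 ≤ d 0 + d 1 := by
        by_contra hlt
        push Not at hlt
        have hcases : (d 0 = 0 ∧ d 1 = 0) ∨ (d 0 = 1 ∧ d 1 = 0) ∨ (d 0 = 0 ∧ d 1 = 1) := by
          omega
        rcases hcases with ⟨e0, e1⟩ | ⟨e0, e1⟩ | ⟨e0, e1⟩
        · apply hd; ext s; fin_cases s
          · exact e0
          · exact e1
        · apply hd0; ext s; fin_cases s
          · simpa using e0
          · simpa using e1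
        · apply hd1; ext s; fin_cases s
          · simpa using e0
          · simpa using e1
      have hdvd : (PowerSeries.X : PowerSeries R) ^ 2 ∣ (a ^ (d 0) * b ^ (d 1) : PowerSeries R) := by
        have h1 : (PowerSeries.X : PowerSeries R) ^ (d 0 + d 1) ∣
            (a ^ (d 0) * b ^ (d 1) : PowerSeries R) := by
          rw [pow_add]
          exact mul_dvd_mul (pow_dvd_pow_of_dvd (hX 0) _) (pow_dvd_pow_of_dvd (hX 1) _)
        exact (pow_dvd_pow _ hge).trans h1
      have hc : PowerSeries.coeff 1 (a ^ (d 0) * b ^ (d 1) : PowerSeries R) = 0 :=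
        PowerSeries.X_pow_dvd_iff.1 hdvd 1 (by norm_num)
      rw [hprod]
      have hc' : MvPowerSeries.coeff (Finsupp.single () 1)
          (a ^ (d 0) * b ^ (d 1) : MvPowerSeries Unit R) = 0 := hc
      rw [hc', smul_zero]
  have hne : (Finsupp.single (0 : Fin 2) 1 : Fin 2 →₀ ℕ) ≠ Finsupp.single 1 1 := by
    intro h
    have := DFunLike.congr_fun h 0
    simp at this
  rw [finsum_eq_sum_of_support_subset (s := {Finsupp.single 0 1, Finsupp.single 1 1})]
  · have p0 : ((Finsupp.single (0 : Fin 2) 1).prod fun s e => (![a, b] s) ^ e) =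
        (![a, b] 0) ^ 1 := Finsupp.prod_single_index (h := fun s e => (![a, b] s) ^ e) (pow_zero _)
    have p1 : ((Finsupp.single (1 : Fin 2) 1).prod fun s e => (![a, b] s) ^ e) =
        (![a, b] 1) ^ 1 := Finsupp.prod_single_index (h := fun s e => (![a, b] s) ^ e) (pow_zero _)
    rw [Finset.sum_pair hne, F.lin_coeff_X, F.lin_coeff_Y, one_smul, one_smul, p0, p1, pow_one,
      pow_one]
    rfl
  · intro d hd
    rw [Function.mem_support] at hd
    by_contra hcon
    simp only [Finset.coe_insert, Finset.coe_singleton, Set.mem_insert_iff,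
      Set.mem_singleton_iff, not_or] at hcon
    exact hd (hterm d hcon.1 hcon.2)

theorem coeff_one_mulSeries (F : FormalGroup R) (m : ℕ) :
    PowerSeries.coeff 1 (mulSeries F m) = (m : R) := by
  induction m with
  | zero =>
    rw [Nat.cast_zero]
    exact map_zero _
  | succ m ih =>
    rw [mulSeries_succ, coeff_one_fadd F (constantCoeff_mulSeries F m)
      PowerSeries.constantCoeff_X, ih, PowerSeries.coeff_one_X, Nat.cast_succ]

/-- `[m]_F` is an endomorphism. -/
theorem hom_mulSeries (F : FormalGroup R) [F.IsComm] (m : ℕ) : IsFGHom F F (mulSeries F m) := by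
  refine isFGHom_of_fadd (constantCoeff_mulSeries F m) ?_
  intro a b ha hb
  have h := congrArg FPt.val (nsmul_add (⟨a, ha⟩ : FPt F (Fin 2)) ⟨b, hb⟩ m)
  rw [nsmul_val, FPt.val_add, FPt.val_add, nsmul_val, nsmul_val] at h
  exact h

/-- Homomorphisms commute with `[m]`. -/
theorem hom_comm_mulSeries {F G : FormalGroup R} [F.IsComm] [G.IsComm] {φ : PowerSeries R}
    (hφ : IsFGHom F G φ) (m : ℕ) {σ : Type*} {a : MvPowerSeries σ R}
    (ha : MvPowerSeries.constantCoeff a = 0) :
    cmp φ (cmp (mulSeries F m) a) = cmp (mulSeries G m) (cmp φ a) := by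
  have h := congrArg FPt.val (map_nsmul (FPt.mapHom hφ σ) m (⟨a, ha⟩ : FPt F σ))
  rw [nsmul_val] at h
  have h1 : (FPt.mapHom hφ σ (m • (⟨a, ha⟩ : FPt F σ))).val =
      cmp φ (m • (⟨a, ha⟩ : FPt F σ)).val := rfl
  rw [h1, nsmul_val] at h
  exact h

theorem mulSeries_mul (F : FormalGroup R) [F.IsComm] (m l : ℕ) :
    mulSeries F (m * l) = cmp (mulSeries F m) (mulSeries F l) := by
  have h := congrArg FPt.val (mul_nsmul' (ptX F) m l)
  have hX : (ptX F).val = (PowerSeries.X : PowerSeries R) := rfl
  rw [nsmul_val, nsmul_val, nsmul_val, hX, cmp_X, cmp_X] at h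
  exact h

end Crest.Agent.LU
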