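import Mathlib
import Crest.Agent.LU_A4

/-!
S0351 (blueprint LU), task A6: base change along a ring homomorphism.
-/

set_option autoImplicit false

noncomputable section

namespace Crest.Agent.LU

open Crest.LubinTate

variable {R : Type*} [CommRing R] {S : Type*} [CommRing S]

/-- TASK A6. -/
theorem map_fadd (F : FormalGroup R) (f : R →+* S) {σ : Type*} {a b : MvPowerSeries σ R}
    (ha : MvPowerSeries.constantCoeff a = 0) (hb : MvPowerSeries.constantCoeff b = 0) :
    MvPowerSeries.map f (fadd F a b) =
      fadd (F.map f) (MvPowerSeries.map f a) (MvPowerSeries.map f b) := by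
  unfold fadd
  rw [MvPowerSeries.map_subst (hasSubst_pair ha hb)]
  have h : (fun i => MvPowerSeries.map f ((![a, b] : Fin 2 → MvPowerSeries σ R) i)) =
      ![MvPowerSeries.map f a, MvPowerSeries.map f b] := by
    funext i
    fin_cases i <;> rfl
  rw [h]
  rfl

theorem hom_map {F G : FormalGroup R} {φ : PowerSeries R} (hφ : IsFGHom F G φ) (f : R →+* S) :
    IsFGHom (F.map f) (G.map f) (PowerSeries.map f φ) := by
  obtain ⟨h0, h1⟩ := hφ
  refine ⟨?_, ?_⟩
  · rw [← PowerSeries.coeff_zero_eq_constantCoeff_apply, PowerSeries.coeff_map,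
      PowerSeries.coeff_zero_eq_constantCoeff_apply, h0, map_zero]
  · have hX : ∀ s : Fin 2, MvPowerSeries.constantCoeff (MvPowerSeries.X s : MvPowerSeries (Fin 2) R)
        = 0 := fun s => MvPowerSeries.constantCoeff_X s
    have e1 : PowerSeries.subst (F.map f).toPowerSeries (PowerSeries.map f φ) =
        MvPowerSeries.map f (PowerSeries.subst F.toPowerSeries φ) := by
      rw [PowerSeries.map_subst
        (PowerSeries.HasSubst.of_constantCoeff_zero F.zero_constantCoeff)]
      rfl
    have e2 : ∀ s : Fin 2, MvPowerSeries.map f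
        (PowerSeries.subst (MvPowerSeries.X s : MvPowerSeries (Fin 2) R) φ) =
        PowerSeries.subst (MvPowerSeries.X s : MvPowerSeries (Fin 2) S) (PowerSeries.map f φ) := by
      intro s
      rw [PowerSeries.map_subst (PowerSeries.HasSubst.of_constantCoeff_zero (hX s)),
        MvPowerSeries.map_X]
    have c0 : ∀ s : Fin 2, MvPowerSeries.constantCoeff
        (PowerSeries.subst (MvPowerSeries.X s : MvPowerSeries (Fin 2) R) φ) = 0 := fun s =>
      constantCoeff_cmp h0 (hX s)
    have e3 := map_fadd G f (c0 0) (c0 1)
    rw [e1, h1]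
    rw [e2 0, e2 1] at e3
    exact e3

theorem mulSeries_map (F : FormalGroup R) (f : R →+* S) (m : ℕ) :
    mulSeries (F.map f) m = PowerSeries.map f (mulSeries F m) := by
  induction m with
  | zero =>
    show (0 : PowerSeries S) = PowerSeries.map f (0 : PowerSeries R)
    rw [map_zero]
  | succ m ih =>
    show fadd (F.map f) (mulSeries (F.map f) m) PowerSeries.X =
      PowerSeries.map f (fadd F (mulSeries F m) PowerSeries.X)
    have h := map_fadd (σ := Unit) F f (a := mulSeries F m) (b := PowerSeries.X)
      (constantCoeff_mulSeries F m) PowerSeries.constantCoeff_X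
    rw [ih]
    have hX : (MvPowerSeries.map f : MvPowerSeries Unit R →+* MvPowerSeries Unit S)
        (PowerSeries.X : PowerSeries R) = (PowerSeries.X : PowerSeries S) := PowerSeries.map_X f
    rw [hX] at h
    exact h.symm

instance isComm_map (F : FormalGroup R) [F.IsComm] (f : R →+* S) : (F.map f).IsComm := by
  constructor
  have hc : F.toPowerSeries = F.toPowerSeries.subst
      ![(MvPowerSeries.X 1 : MvPowerSeries (Fin 2) R), MvPowerSeries.X 0] := FormalGroup.IsComm.comm
  have h := map_fadd F f (a := (MvPowerSeries.X 1 : MvPowerSeries (Fin 2) R))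
    (b := MvPowerSeries.X 0) (MvPowerSeries.constantCoeff_X _) (MvPowerSeries.constantCoeff_X _)
  rw [MvPowerSeries.map_X, MvPowerSeries.map_X] at h
  unfold fadd at h
  rw [← hc] at h
  exact h

theorem map_map {T : Type*} [CommRing T] (F : FormalGroup R) (f : R →+* S) (g : S →+* T) :
    (F.map f).map g = F.map (g.comp f) := by
  apply FormalGroup.ext
  show MvPowerSeries.map g (MvPowerSeries.map f F.toPowerSeries) =
    MvPowerSeries.map (g.comp f) F.toPowerSeries
  rw [MvPowerSeries.map_comp]
  rfl

theorem map_id (F : FormalGroup R) : F.map (RingHom.id R) = F := by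
  apply FormalGroup.ext
  show MvPowerSeries.map (RingHom.id R) F.toPowerSeries = F.toPowerSeries
  rw [MvPowerSeries.map_id]
  rfl

end Crest.Agent.LU
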