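import Mathlib
import Crest.Agent.LU_A3

/-!
S0351 (blueprint LU), task A8: cancellation of a series with non-zero-divisor linear coefficient.
-/

set_option autoImplicit false

noncomputable section

namespace Crest.Agent.LU

open Crest.LubinTate

variable {R : Type*} [CommRing R]

/-- TASK A8.  If `V = v X + ...` with `v` a non-zero-divisor and `f(V(X)) = 0` then `f = 0`.
(Lowest coefficient: if `f = c X^i + ...` then `f(V(X)) = c v^i X^i + ...`.) -/
theorem cmp_eq_zero {V : PowerSeries R} (h0 : PowerSeries.constantCoeff V = 0)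
    (h1 : PowerSeries.coeff 1 V ∈ nonZeroDivisors R) {f : PowerSeries R}
    (h : cmp f V = (0 : PowerSeries R)) : f = 0 := by
  by_contra hf
  have hV : PowerSeries.HasSubst V := PowerSeries.HasSubst.of_constantCoeff_zero' h0
  obtain ⟨W, hW⟩ : ∃ W : PowerSeries R, V = PowerSeries.X * W :=
    (PowerSeries.X_dvd_iff.mpr h0)
  obtain ⟨i, g, hg0, hg⟩ : ∃ (i : ℕ) (g : PowerSeries R), PowerSeries.constantCoeff g ≠ 0 ∧
      f = PowerSeries.X ^ i * g := by
    classical
    have hex : ∃ i, PowerSeries.coeff i f ≠ 0 := by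
      by_contra hcon
      push Not at hcon
      exact hf (PowerSeries.ext (fun n => by rw [hcon n]; simp))
    have hdvd : PowerSeries.X ^ (Nat.find hex) ∣ f := by
      rw [PowerSeries.X_pow_dvd_iff]
      intro m hm
      by_contra hm'
      exact Nat.find_min hex hm hm'
    obtain ⟨g, hg⟩ := hdvd
    refine ⟨Nat.find hex, g, ?_, hg⟩
    have h2 := Nat.find_spec hex
    have h3 : PowerSeries.coeff (Nat.find hex) f = PowerSeries.constantCoeff g := by
      have h31 := PowerSeries.coeff_X_pow_mul g (Nat.find hex) 0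
      rw [zero_add, PowerSeries.coeff_zero_eq_constantCoeff, ← hg] at h31
      exact h31
    rwa [h3] at h2
  have h2 : cmp f V = (PowerSeries.X : PowerSeries R) ^ i * (W ^ i * cmp g V) := by
    show PowerSeries.subst V f = _
    rw [hg, PowerSeries.subst_mul hV, PowerSeries.subst_pow hV, PowerSeries.subst_X hV]
    rw [← mul_assoc, ← mul_pow, ← hW]
  rw [h2] at h
  have h3 : W ^ i * cmp g V = (0 : PowerSeries R) := by
    apply PowerSeries.ext
    intro n
    have h4 := congrArg (PowerSeries.coeff (n + i)) h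
    rw [PowerSeries.coeff_X_pow_mul] at h4
    simpa using h4
  have h5 : PowerSeries.constantCoeff W = PowerSeries.coeff 1 V := by
    rw [hW]
    have := PowerSeries.coeff_succ_X_mul 0 W
    rw [zero_add] at this
    rw [this, PowerSeries.coeff_zero_eq_constantCoeff]
  have h6 := congrArg PowerSeries.constantCoeff h3
  rw [map_mul, map_pow, h5, map_zero] at h6
  have h7 : PowerSeries.constantCoeff (cmp g V : PowerSeries R) = PowerSeries.constantCoeff g := by
    have h8 : PowerSeries.constantCoeff (cmp (g - PowerSeries.C (PowerSeries.constantCoeff g)) V :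
        PowerSeries R) = 0 := by
      apply constantCoeff_cmp
      · simp
      · exact h0
    have h9 : (cmp (g - PowerSeries.C (PowerSeries.constantCoeff g)) V : PowerSeries R) =
        cmp g V - PowerSeries.C (PowerSeries.constantCoeff g) := by
      show PowerSeries.subst V _ = _
      rw [PowerSeries.subst_sub hV]
      congr 1
      exact PowerSeries.subst_C (a := V) _
    rw [h9, map_sub] at h8
    simpa [sub_eq_zero] using h8
  rw [h7] at h6
  have h8 : PowerSeries.coeff 1 V ^ i ∈ nonZeroDivisors R := pow_mem h1 i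
  rw [mem_nonZeroDivisors_iff] at h8
  exact hg0 (h8.1 _ h6)

/-- Two-variable version: `f(V(X),V(Y)) = 0` implies `f = 0`.
(Take a monomial `X^i Y^j` of least total degree in `f`, with coefficient `c ≠ 0`; the
coefficient of `X^i Y^j` in `f(V(X),V(Y))` is `c v^{i+j}`.) -/
theorem subst_pair_eq_zero {V : PowerSeries R} (h0 : PowerSeries.constantCoeff V = 0)
    (h1 : PowerSeries.coeff 1 V ∈ nonZeroDivisors R) {f : MvPowerSeries (Fin 2) R}
    (h : f.subst ![cmp V (MvPowerSeries.X 0 : MvPowerSeries (Fin 2) R),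
      cmp V (MvPowerSeries.X 1 : MvPowerSeries (Fin 2) R)] = 0) : f = 0 := by
  classical
  by_contra hf
  obtain ⟨W, hW⟩ : ∃ W : PowerSeries R, V = PowerSeries.X * W :=
    (PowerSeries.X_dvd_iff.mpr h0)
  have h5 : PowerSeries.constantCoeff W = PowerSeries.coeff 1 V := by
    rw [hW]
    have := PowerSeries.coeff_succ_X_mul 0 W
    rw [zero_add] at this
    rw [this, PowerSeries.coeff_zero_eq_constantCoeff]
  have hXs : ∀ s : Fin 2, PowerSeries.HasSubst (MvPowerSeries.X s : MvPowerSeries (Fin 2) R) :=
    fun s => PowerSeries.HasSubst.X s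
  -- the two series `V(X_s) = X_s * W(X_s)`
  have ha : (![cmp V (MvPowerSeries.X 0 : MvPowerSeries (Fin 2) R),
      cmp V (MvPowerSeries.X 1 : MvPowerSeries (Fin 2) R)] : Fin 2 → MvPowerSeries (Fin 2) R) =
      fun s => MvPowerSeries.X s * cmp W (MvPowerSeries.X s : MvPowerSeries (Fin 2) R) := by
    have hs : ∀ s : Fin 2, cmp V (MvPowerSeries.X s : MvPowerSeries (Fin 2) R) =
        MvPowerSeries.X s * cmp W (MvPowerSeries.X s : MvPowerSeries (Fin 2) R) := by
      intro s
      show PowerSeries.subst _ V = _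
      conv_lhs => rw [hW]
      rw [PowerSeries.subst_mul (hXs s), PowerSeries.subst_X (hXs s)]
    funext s
    fin_cases s
    · exact hs 0
    · exact hs 1
  rw [ha] at h
  have hWc : ∀ s : Fin 2, MvPowerSeries.constantCoeff
      (cmp W (MvPowerSeries.X s : MvPowerSeries (Fin 2) R)) = PowerSeries.coeff 1 V := by
    intro s
    have h8 : MvPowerSeries.constantCoeff (cmp (W - PowerSeries.C (PowerSeries.constantCoeff W))
        (MvPowerSeries.X s : MvPowerSeries (Fin 2) R)) = 0 := by
      apply constantCoeff_cmp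
      · simp
      · simp
    have h9 : (cmp (W - PowerSeries.C (PowerSeries.constantCoeff W))
        (MvPowerSeries.X s : MvPowerSeries (Fin 2) R)) =
        cmp W (MvPowerSeries.X s : MvPowerSeries (Fin 2) R) -
          MvPowerSeries.C (PowerSeries.constantCoeff W) := by
      show PowerSeries.subst _ _ = _
      rw [PowerSeries.subst_sub (hXs s)]
      congr 1
      exact PowerSeries.subst_C _
    rw [h9, map_sub, MvPowerSeries.constantCoeff_C, sub_eq_zero] at h8
    rw [h8, h5]
  set a : Fin 2 → MvPowerSeries (Fin 2) R :=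
    fun s => MvPowerSeries.X s * cmp W (MvPowerSeries.X s : MvPowerSeries (Fin 2) R) with ha'
  have hsub : MvPowerSeries.HasSubst a :=
    MvPowerSeries.hasSubst_of_constantCoeff_zero fun s => by simp [ha']
  -- a monomial of least degree
  have hex : ∃ N : ℕ, ∃ d : Fin 2 →₀ ℕ, d.degree = N ∧ MvPowerSeries.coeff d f ≠ 0 := by
    by_contra hcon
    push Not at hcon
    exact hf (MvPowerSeries.ext fun d => by rw [hcon _ d rfl]; simp)
  obtain ⟨e, heN, hec⟩ := Nat.find_spec hex
  have hmin : ∀ d : Fin 2 →₀ ℕ, MvPowerSeries.coeff d f ≠ 0 → e.degree ≤ d.degree := by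
    intro d hd
    rw [heN]
    exact Nat.find_min' hex ⟨d, rfl, hd⟩
  have hprod : ∀ d : Fin 2 →₀ ℕ, (d.prod fun s k => (a s) ^ k) =
      MvPowerSeries.monomial d 1 *
        (d.prod fun s k => (cmp W (MvPowerSeries.X s : MvPowerSeries (Fin 2) R)) ^ k) := by
    intro d
    rw [MvPowerSeries.monomial_one_eq, ← Finsupp.prod_mul]
    apply Finsupp.prod_congr
    intro s _
    simp only [ha', mul_pow]
  have hcoef := congrArg (MvPowerSeries.coeff e) h
  rw [MvPowerSeries.coeff_subst hsub, finsum_eq_single _ e] at hcoef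
  · rw [hprod e, MvPowerSeries.coeff_monomial_mul, if_pos le_rfl, tsub_self, one_mul,
      MvPowerSeries.coeff_zero_eq_constantCoeff, map_finsuppProd] at hcoef
    simp only [map_pow, hWc, map_zero, smul_eq_mul] at hcoef
    have h8 : (e.prod fun _ k => PowerSeries.coeff 1 V ^ k) ∈ nonZeroDivisors R := by
      apply Submonoid.prod_mem
      intro s _
      exact pow_mem h1 _
    rw [mem_nonZeroDivisors_iff] at h8
    exact hec (h8.2 _ hcoef)
  · intro d hd
    by_cases hdf : MvPowerSeries.coeff d f = 0
    · rw [hdf, zero_smul]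
    · rw [hprod d, MvPowerSeries.coeff_monomial_mul]
      have hle : ¬ d ≤ e := by
        intro hle
        apply hd
        have hdeg := hmin d hdf
        have h9 : d + (e - d) = e := add_tsub_cancel_of_le hle
        have h10 : d.degree + (e - d).degree = e.degree := by rw [← map_add, h9]
        have h11 : (e - d).degree = 0 := by omega
        have h12 : e - d = 0 := by
          rwa [Finsupp.degree_eq_zero_iff] at h11
        rw [h12, add_zero] at h9
        exact h9
      rw [if_neg hle, smul_zero]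

/-- If `V : F → G₁` and `θ ∘ V : F → G₂` are homomorphisms then so is `θ : G₁ → G₂`
(`V` with non-zero-divisor linear coefficient).
`θ(G₁(V X, V Y)) = θ(V(F(X,Y))) = G₂(θ V X, θ V Y)`, then `subst_pair_eq_zero`. -/
theorem hom_of_comp {F G₁ G₂ : FormalGroup R} {V θ : PowerSeries R} (hV : IsFGHom F G₁ V)
    (h1 : PowerSeries.coeff 1 V ∈ nonZeroDivisors R) (hθ : PowerSeries.constantCoeff θ = 0)
    (h : IsFGHom F G₂ (cmp θ V)) : IsFGHom G₁ G₂ θ := by
  refine ⟨hθ, ?_⟩
  have hX0 : MvPowerSeries.constantCoeff (MvPowerSeries.X 0 : MvPowerSeries (Fin 2) R) = 0 := by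
    simp
  have hX1 : MvPowerSeries.constantCoeff (MvPowerSeries.X 1 : MvPowerSeries (Fin 2) R) = 0 := by
    simp
  have hV0 := hV.1
  have hVX0 := constantCoeff_cmp (σ := Fin 2) hV0 hX0
  have hVX1 := constantCoeff_cmp (σ := Fin 2) hV0 hX1
  have hsub := hasSubst_pair hVX0 hVX1
  have hθX0 := constantCoeff_cmp (σ := Fin 2) hθ hX0
  have hθX1 := constantCoeff_cmp (σ := Fin 2) hθ hX1
  rw [← sub_eq_zero]
  apply subst_pair_eq_zero hV.1 h1
  rw [MvPowerSeries.subst_sub hsub, sub_eq_zero]
  have e1 : MvPowerSeries.subst ![cmp V (MvPowerSeries.X 0 : MvPowerSeries (Fin 2) R),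
      cmp V (MvPowerSeries.X 1 : MvPowerSeries (Fin 2) R)] (PowerSeries.subst G₁.toPowerSeries θ) =
      cmp θ (fadd G₁ (cmp V (MvPowerSeries.X 0 : MvPowerSeries (Fin 2) R))
        (cmp V (MvPowerSeries.X 1 : MvPowerSeries (Fin 2) R))) := by
    show MvPowerSeries.subst _ (MvPowerSeries.subst _ θ) = MvPowerSeries.subst _ θ
    rw [MvPowerSeries.subst_comp_subst_apply
      (PowerSeries.HasSubst.of_constantCoeff_zero G₁.zero_constantCoeff).const hsub]
    rfl
  have e2 : fadd G₁ (cmp V (MvPowerSeries.X 0 : MvPowerSeries (Fin 2) R))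
        (cmp V (MvPowerSeries.X 1 : MvPowerSeries (Fin 2) R)) = cmp V F.toPowerSeries := hV.2.symm
  have e3 : cmp (cmp θ V : PowerSeries R) F.toPowerSeries = cmp θ (cmp V F.toPowerSeries) :=
    cmp_assoc θ hV0 F.zero_constantCoeff
  have e4 := h.2
  rw [e1, e2, ← e3]
  refine e4.trans ?_
  rw [MvPowerSeries.subst_comp_subst_apply (hasSubst_pair hθX0 hθX1) hsub]
  congr 1
  have e5 : ∀ s : Fin 2, PowerSeries.subst (MvPowerSeries.X s : MvPowerSeries (Fin 2) R)
      (cmp θ V : PowerSeries R) = MvPowerSeries.subst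
        ![cmp V (MvPowerSeries.X 0 : MvPowerSeries (Fin 2) R),
          cmp V (MvPowerSeries.X 1 : MvPowerSeries (Fin 2) R)]
        (PowerSeries.subst (MvPowerSeries.X s : MvPowerSeries (Fin 2) R) θ) := by
    intro s
    have hXs : MvPowerSeries.constantCoeff (MvPowerSeries.X s : MvPowerSeries (Fin 2) R) = 0 := by
      simp
    have e6 := cmp_assoc (σ := Fin 2) θ hV0 hXs
    refine e6.trans ?_
    show MvPowerSeries.subst _ θ = MvPowerSeries.subst _ (MvPowerSeries.subst _ θ)
    rw [MvPowerSeries.subst_comp_subst_apply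
      (PowerSeries.HasSubst.of_constantCoeff_zero hXs).const hsub]
    congr 1
    funext _
    rw [MvPowerSeries.subst_X hsub]
    fin_cases s <;> rfl
  funext s
  fin_cases s
  · exact e5 0
  · exact e5 1

end Crest.Agent.LU
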