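import Mathlib
import Crest.Agent.LUA_2
import Crest.Agent.LUA_3c
import Crest.Agent.LU_A6
import Crest.Agent.LU_A8

/-!
S0351 (blueprint LU), part (5), TASK LUA-4: a derivation `D` of the base ring `A` with `V ∣ D V`
gives a `⋆`-isomorphism between the constant law `G` and the infinitesimally deformed law
`G_D = G.map (dlift D)` over `A[ε]`.
-/

set_option autoImplicit false

noncomputable section

namespace Crest.Agent.LUA

open Crest.LubinTate Crest.Agent.LU IsLocalRing

variable {A : Type*} [CommRing A]

/-- TASK LUA-4.  Let `V : F → G` be a homomorphism over the complete local domain `A`, with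
`V'(0) ≠ 0` and `V mod m ≠ 0`, `D` a derivation of `A` such that the coefficients of `F` are killed
by `D` (in the form `F.map (dlift D) = F.map (cst A)`) and `V ∣ D V`.  Then there is a homomorphism
`θ = X + ε r(X) : G.map (cst A) → G.map (dlift D)`.

Proof.  `V_ε := V + ε D V = map (dlift D) V : F' → G_D := G.map (dlift D)` is a homomorphism
(`hom_map`), `F' = F.map (cst A)`.  Write `D V = V s`, so that `V_ε = V (1 + ε s)`
(`map (dlift D) V = map (cst A) V * mkPS 1 s`).  In `A[ε][[X,Y]]`:
`V_ε(F'(X,Y)) - V_ε(X) = G_D(V_ε X, V_ε Y) - V_ε X` is divisible by `V_ε(Y)` (`dvd_fadd_sub`), hence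
equal to `map (cst A) (V(Y)) * w`; taking `sndPS` (use `cmp_mkPS_cst`, `sndPS_mul`):
`(D V)(F(X,Y)) - (D V)(X)` is divisible by `V(Y)`.  By `exists_cmp_of_invariant` there is `r` with
`r(V) = D V`; its constant coefficient is that of `D V`, i.e. `D 0 = 0`.  Put `θ = mkPS X r`; then
`θ ∘ map (cst A) V = mkPS V (r(V)) = V_ε` (`cmp_mkPS_cst`) is a homomorphism `F' → G_D`, and
`map (cst A) V : F' → G.map (cst A)` has non-zero-divisor linear coefficient, so
`LU.hom_of_comp` shows that `θ` is a homomorphism. -/
theorem exists_theta [IsDomain A] [IsLocalRing A] [IsAdicComplete (maximalIdeal A) A]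
    {F G : FormalGroup A} {V : PowerSeries A} (hV : IsFGHom F G V)
    (h1 : PowerSeries.coeff 1 V ≠ 0) (hm : PowerSeries.map (residue A) V ≠ 0)
    (D : Der A) (hF : F.map (dlift D) = F.map (cst A))
    (hdiv : V ∣ (mapD D V : PowerSeries A)) :
    ∃ θ : PowerSeries (DualNumber A), IsFGHom (G.map (cst A)) (G.map (dlift D)) θ ∧
      PowerSeries.map (pr A) θ = PowerSeries.X := by
  obtain ⟨DV, hDV⟩ : ∃ DV : PowerSeries A, DV = mapD D V := ⟨_, rfl⟩
  rw [← hDV] at hdiv
  obtain ⟨s, hs⟩ := hdiv
  have hX0 : MvPowerSeries.constantCoeff (MvPowerSeries.X 0 : MvPowerSeries (Fin 2) A) = 0 := by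
    simp
  have hX1 : MvPowerSeries.constantCoeff (MvPowerSeries.X 1 : MvPowerSeries (Fin 2) A) = 0 := by
    simp
  have hVeps : (PowerSeries.map (dlift D) V : PowerSeries (DualNumber A)) = mkPS V DV := by
    rw [hDV]
    exact map_dlift D V
  have hVc : (PowerSeries.map (cst A) V : PowerSeries (DualNumber A)) = mkPS V 0 := map_cst V
  have hDV0 : PowerSeries.constantCoeff DV = 0 := by
    rw [hDV]
    have h2 : PowerSeries.constantCoeff (mapD D V : PowerSeries A)
        = D (PowerSeries.constantCoeff V) := rfl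
    rw [h2, hV.1, map_zero]
  -- the hom `V_ε`
  have hhε : IsFGHom (F.map (cst A)) (G.map (dlift D)) (mkPS V DV : PowerSeries (DualNumber A)) := by
    rw [← hF, ← hVeps]
    exact hom_map hV (dlift D)
  have hhc : IsFGHom (F.map (cst A)) (G.map (cst A)) (mkPS V 0 : PowerSeries (DualNumber A)) := by
    rw [← hVc]
    exact hom_map hV (cst A)
  -- evaluation at constant series
  have hXs : ∀ t : Fin 2, (MvPowerSeries.X t : MvPowerSeries (Fin 2) (DualNumber A))
      = MvPowerSeries.map (cst A) (MvPowerSeries.X t : MvPowerSeries (Fin 2) A) := by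
    intro t
    rw [MvPowerSeries.map_X]
  have eX : ∀ t : Fin 2, cmp (mkPS V DV : PowerSeries (DualNumber A))
      (MvPowerSeries.X t : MvPowerSeries (Fin 2) (DualNumber A))
      = mkPS (cmp V (MvPowerSeries.X t : MvPowerSeries (Fin 2) A))
          (cmp DV (MvPowerSeries.X t : MvPowerSeries (Fin 2) A)) := by
    intro t
    rw [hXs t]
    exact cmp_mkPS_cst V DV (by simp)
  have eF : cmp (mkPS V DV : PowerSeries (DualNumber A)) (F.map (cst A)).toPowerSeries
      = mkPS (cmp V F.toPowerSeries) (cmp DV F.toPowerSeries) :=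
    cmp_mkPS_cst V DV F.zero_constantCoeff
  have hinv : cmp V (MvPowerSeries.X 1 : MvPowerSeries (Fin 2) A) ∣
      cmp DV F.toPowerSeries - cmp DV (MvPowerSeries.X 0 : MvPowerSeries (Fin 2) A) := by
    have c0 : MvPowerSeries.constantCoeff (cmp (mkPS V DV : PowerSeries (DualNumber A))
        (MvPowerSeries.X 0 : MvPowerSeries (Fin 2) (DualNumber A))) = 0 :=
      constantCoeff_cmp hhε.1 (by simp)
    have c1 : MvPowerSeries.constantCoeff (cmp (mkPS V DV : PowerSeries (DualNumber A))
        (MvPowerSeries.X 1 : MvPowerSeries (Fin 2) (DualNumber A))) = 0 :=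
      constantCoeff_cmp hhε.1 (by simp)
    obtain ⟨w, hw⟩ := dvd_fadd_sub (G.map (dlift D)) c0 c1
    have e1 : fadd (G.map (dlift D)) (cmp (mkPS V DV : PowerSeries (DualNumber A))
          (MvPowerSeries.X 0 : MvPowerSeries (Fin 2) (DualNumber A)))
        (cmp (mkPS V DV : PowerSeries (DualNumber A))
          (MvPowerSeries.X 1 : MvPowerSeries (Fin 2) (DualNumber A)))
        = cmp (mkPS V DV : PowerSeries (DualNumber A)) (F.map (cst A)).toPowerSeries :=
      hhε.2.symm
    rw [e1, eF, eX 0, eX 1] at hw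
    have hw2 := congrArg sndPS hw
    rw [sndPS_sub, sndPS_mul, sndPS_mkPS, sndPS_mkPS, sndPS_mkPS, fstPS_mkPS] at hw2
    have e2 : cmp DV (MvPowerSeries.X 1 : MvPowerSeries (Fin 2) A)
        = cmp V (MvPowerSeries.X 1 : MvPowerSeries (Fin 2) A)
          * cmp s (MvPowerSeries.X 1 : MvPowerSeries (Fin 2) A) := by
      rw [hs]
      exact PowerSeries.subst_mul (PowerSeries.HasSubst.of_constantCoeff_zero hX1) V s
    rw [hw2, e2]
    refine ⟨sndPS w + cmp s (MvPowerSeries.X 1 : MvPowerSeries (Fin 2) A) * fstPS w, ?_⟩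
    ring
  obtain ⟨r, hr⟩ := exists_cmp_of_invariant hV h1 hm hinv
  have hr0 : PowerSeries.constantCoeff r = 0 := by
    have hVs : PowerSeries.HasSubst V := PowerSeries.HasSubst.of_constantCoeff_zero' hV.1
    have h8 : PowerSeries.constantCoeff (cmp (r - PowerSeries.C (PowerSeries.constantCoeff r)) V :
        PowerSeries A) = 0 := by
      apply constantCoeff_cmp
      · simp
      · exact hV.1
    have h9 : (cmp (r - PowerSeries.C (PowerSeries.constantCoeff r)) V : PowerSeries A) =
        cmp r V - PowerSeries.C (PowerSeries.constantCoeff r) := by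
      show PowerSeries.subst V _ = _
      rw [PowerSeries.subst_sub hVs]
      congr 1
      exact PowerSeries.subst_C (a := V) _
    rw [h9, map_sub, hr, hDV0] at h8
    simpa using h8
  refine ⟨mkPS PowerSeries.X r, ?_, ?_⟩
  · have hθ0 : PowerSeries.constantCoeff (mkPS PowerSeries.X r : PowerSeries (DualNumber A)) = 0 := by
      have h2 : PowerSeries.constantCoeff (mkPS PowerSeries.X r : PowerSeries (DualNumber A))
          = TrivSqZeroExt.inl (PowerSeries.constantCoeff (PowerSeries.X : PowerSeries A))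
            + TrivSqZeroExt.inr (PowerSeries.constantCoeff r) := rfl
      rw [h2, hr0, PowerSeries.constantCoeff_X]
      simp
    have hcomp : cmp (mkPS PowerSeries.X r : PowerSeries (DualNumber A))
        (mkPS V 0 : PowerSeries (DualNumber A)) = mkPS V DV := by
      have h2 := cmp_mkPS_cst (PowerSeries.X : PowerSeries A) r (φ := V) hV.1
      have h3 : MvPowerSeries.map (cst A) V = mkPS V 0 := map_cst V
      rw [h3] at h2
      rw [h2, hr]
      congr 1
      exact PowerSeries.subst_X (PowerSeries.HasSubst.of_constantCoeff_zero' hV.1)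
    have hnz : PowerSeries.coeff 1 (mkPS V 0 : PowerSeries (DualNumber A))
        ∈ nonZeroDivisors (DualNumber A) := by
      rw [← hVc, PowerSeries.coeff_map]
      rw [mem_nonZeroDivisors_iff_right]
      intro x hx
      have hx1 := congrArg TrivSqZeroExt.fst hx
      have hx2 := congrArg TrivSqZeroExt.snd hx
      rw [TrivSqZeroExt.fst_mul, fst_cst, TrivSqZeroExt.fst_zero] at hx1
      rw [TrivSqZeroExt.snd_mul, fst_cst, snd_cst, TrivSqZeroExt.snd_zero] at hx2
      have hf : x.fst = 0 := (mul_eq_zero.mp hx1).resolve_right h1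
      have hsn : x.snd = 0 := by
        simp only [mul_zero, zero_add, smul_eq_mul, MulOpposite.smul_eq_mul_unop,
          MulOpposite.unop_op] at hx2
        exact (mul_eq_zero.mp hx2).resolve_right h1
      exact TrivSqZeroExt.ext hf hsn
    refine hom_of_comp hhc hnz hθ0 ?_
    rw [hcomp]
    exact hhε
  · exact fstPS_mkPS _ _

end Crest.Agent.LUA
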