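import Mathlib
import Crest.Agent.LU_A6

/-!
S0351 (blueprint LU), part B: definitions.  `IsTest` = test rings of the universal property,
`vv H h` = the coefficient of `X^{p^h}` in `[p]_H`.
-/

set_option autoImplicit false

noncomputable section

namespace Crest.Agent.LU

open Crest.LubinTate

/-- Test rings: `(B, r)` Noetherian, complete with respect to `ker r`, `r : B → k` extending the
residue map of `W(k)`. (They are automatically local with maximal ideal `ker r`.) -/
structure IsTest (p : ℕ) [Fact p.Prime] (n : ℕ) (B : Type) [CommRing B]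
    [Algebra (WittVector p (GaloisField p n)) B] (r : B →+* GaloisField p n) : Prop where
  noe : IsNoetherianRing B
  comp : r.comp (algebraMap (WittVector p (GaloisField p n)) B) = WittVector.constantCoeff
  complete : IsAdicComplete (RingHom.ker r) B

/-- `v_h`: the coefficient of `X^{p^h}` in `[p]_H`. -/
def vv {p : ℕ} [Fact p.Prime] {n : ℕ} (H : FormalGroup (LTRing p n)) (h : ℕ) : LTRing p n :=
  PowerSeries.coeff (p ^ h) (mulSeries H p)

theorem heightIdeal_succ {p : ℕ} [Fact p.Prime] {n : ℕ} (H : FormalGroup (LTRing p n)) (h : ℕ) :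
    heightIdeal p n H (h + 1) = heightIdeal p n H h ⊔ Ideal.span {vv H h} := rfl

theorem heightIdeal_zero {p : ℕ} [Fact p.Prime] {n : ℕ} (H : FormalGroup (LTRing p n)) :
    heightIdeal p n H 0 = ⊥ := rfl

end Crest.Agent.LU
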