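import Mathlib
import Crest.Agent.LU_B0

/-!
S0351 (blueprint LU), task B1: basic facts on test rings.
-/

set_option autoImplicit false

noncomputable section

namespace Crest.Agent.LU

open Crest.LubinTate

variable {p : ℕ} [Fact p.Prime] {n : ℕ}

namespace IsTest

variable {B : Type} [CommRing B] [Algebra (WittVector p (GaloisField p n)) B]
  {r : B →+* GaloisField p n}

/-- TASK B1. (`WittVector.constantCoeff` is surjective: Teichmüller representatives.) -/
theorem surj (hB : IsTest p n B r) : Function.Surjective r := by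
  intro x
  refine ⟨algebraMap _ B (WittVector.teichmuller p x), ?_⟩
  have h := congrArg (fun f => f (WittVector.teichmuller p x)) hB.comp
  simp only [RingHom.comp_apply] at h
  rw [h]
  exact WittVector.teichmuller_coeff_zero p x

private theorem isMaximal_ker (hB : IsTest p n B r) : (RingHom.ker r).IsMaximal :=
  RingHom.ker_isMaximal_of_surjective r hB.surj

/-- `ker r` is maximal and `B` is `ker r`-adically complete
(`isLocalRing_of_isAdicComplete_maximal`). -/
theorem isLocalRing (hB : IsTest p n B r) : IsLocalRing B := by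
  haveI := hB.isMaximal_ker
  haveI := hB.complete
  exact isLocalRing_of_isAdicComplete_maximal (RingHom.ker r)

theorem ker_eq (hB : IsTest p n B r) [IsLocalRing B] :
    RingHom.ker r = IsLocalRing.maximalIdeal B :=
  IsLocalRing.eq_maximalIdeal hB.isMaximal_ker

/-- An element outside `ker r` is a unit. -/
theorem isUnit (hB : IsTest p n B r) {b : B} (hb : r b ≠ 0) : IsUnit b := by
  haveI := hB.isLocalRing
  by_contra h
  apply hb
  have h1 : b ∈ IsLocalRing.maximalIdeal B := (IsLocalRing.mem_maximalIdeal b).2 h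
  rw [← hB.ker_eq] at h1
  exact h1

/-- `p ∈ ker r`. -/
theorem p_mem (hB : IsTest p n B r) : (p : B) ∈ RingHom.ker r := by
  rw [RingHom.mem_ker, map_natCast]
  exact CharP.cast_eq_zero (GaloisField p n) p

/-- Krull intersection. -/
theorem eq_zero_of_mem_pow (hB : IsTest p n B r) {b : B}
    (h : ∀ N : ℕ, b ∈ (RingHom.ker r) ^ N) : b = 0 := by
  haveI := hB.complete
  refine IsHausdorff.haus (I := RingHom.ker r) inferInstance b fun N => ?_
  rw [SModEq.zero, smul_eq_mul, Ideal.mul_top]
  exact h N

/-- The universal property in terms of `IsTest`: uniqueness. -/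
theorem univ_unique (hB : IsTest p n B r) {Γ : FormalGroup (GaloisField p n)}
    {H : FormalGroup (LTRing p n)} (hH : IsUniversalDeformation p n Γ H)
    (φ₁ φ₂ : LTRing p n →ₐ[WittVector p (GaloisField p n)] B)
    (h1 : r.comp φ₁.toRingHom = LTRing.residue p n)
    (h2 : r.comp φ₂.toRingHom = LTRing.residue p n)
    (θ : PowerSeries B) (hθ : IsFGHom (H.map φ₁.toRingHom) (H.map φ₂.toRingHom) θ)
    (hθr : PowerSeries.map r θ = PowerSeries.X) : φ₁ = φ₂ := by
  haveI := hB.isLocalRing
  haveI := hB.noe
  have hc : IsAdicComplete (IsLocalRing.maximalIdeal B) B := by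
    rw [← hB.ker_eq]; exact hB.complete
  have hG : (H.map φ₂.toRingHom).map r = Γ := by
    rw [map_map, h2]; exact hH.1
  obtain ⟨φ, -, huniq⟩ := hH.2 B hc r hB.surj hB.ker_eq hB.comp (H.map φ₂.toRingHom) hG
  rw [huniq φ₁ ⟨h1, θ, hθ, hθr⟩, huniq φ₂ ⟨h2, PowerSeries.X, hom_X _, PowerSeries.map_X _⟩]

/-- The universal property in terms of `IsTest`: existence. -/
theorem univ_exists (hB : IsTest p n B r) {Γ : FormalGroup (GaloisField p n)}
    {H : FormalGroup (LTRing p n)} (hH : IsUniversalDeformation p n Γ H)
    (G : FormalGroup B) (hG : G.map r = Γ) :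
    ∃ φ : LTRing p n →ₐ[WittVector p (GaloisField p n)] B,
      r.comp φ.toRingHom = LTRing.residue p n ∧
      ∃ θ : PowerSeries B, IsFGHom (H.map φ.toRingHom) G θ ∧
        PowerSeries.map r θ = PowerSeries.X := by
  haveI := hB.isLocalRing
  haveI := hB.noe
  have hc : IsAdicComplete (IsLocalRing.maximalIdeal B) B := by
    rw [← hB.ker_eq]; exact hB.complete
  exact (hH.2 B hc r hB.surj hB.ker_eq hB.comp G hG).exists

end IsTest

end Crest.Agent.LU
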