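import Mathlib
import Crest.Agent.LU_B1

/-!
S0351 (blueprint LU), task B2a: `E₀ = W(k)[[u]]` is a test ring.
-/

set_option autoImplicit false

noncomputable section

namespace Crest.Agent.LU

open Crest.LubinTate

section aux

variable {A : Type*} [CommRing A] {σ : Type*}

private theorem B2a_coeff_mem {P : Ideal A} {I : Ideal (MvPowerSeries σ A)}
    (hI : ∀ f ∈ I, MvPowerSeries.constantCoeff f ∈ P) (N : ℕ) :
    ∀ {f : MvPowerSeries σ A}, f ∈ I ^ N → ∀ d : σ →₀ ℕ,
      MvPowerSeries.coeff d f ∈ P ^ (N - d.degree) := by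
  classical
  induction N with
  | zero =>
    intro f _ d
    rw [Nat.zero_sub, pow_zero, Ideal.one_eq_top]
    trivial
  | succ N ih =>
    intro f hf
    rw [pow_succ] at hf
    refine Submodule.mul_induction_on hf ?_ ?_
    · intro a ha b hb d
      rw [MvPowerSeries.coeff_mul]
      refine Ideal.sum_mem _ fun x hx => ?_
      have hxd : x.1 + x.2 = d := Finset.HasAntidiagonal.mem_antidiagonal.1 hx
      have h1 := ih ha x.1
      have h2 : MvPowerSeries.coeff x.2 b ∈ P ^ (1 - x.2.degree) := by
        by_cases h0 : x.2 = 0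
        · rw [h0, map_zero, Nat.sub_zero, pow_one]
          exact hI b hb
        · have h3 : x.2.degree ≠ 0 := fun h => h0 ((Finsupp.degree_eq_zero_iff _).1 h)
          have h4 : 1 - x.2.degree = 0 := by omega
          rw [h4, pow_zero, Ideal.one_eq_top]
          trivial
      have h5 := Ideal.mul_mem_mul h1 h2
      rw [← pow_add] at h5
      refine Ideal.pow_le_pow_right ?_ h5
      have h6 : d.degree = x.1.degree + x.2.degree := by rw [← hxd, map_add]
      omega
    · intro a b ha hb d
      rw [map_add]
      exact Ideal.add_mem _ (ha d) (hb d)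

private theorem B2a_monomial_mem {I : Ideal (MvPowerSeries σ A)}
    (hX : ∀ s, MvPowerSeries.X s ∈ I) (e : σ →₀ ℕ) :
    MvPowerSeries.monomial e (1 : A) ∈ I ^ e.degree := by
  rw [MvPowerSeries.monomial_one_eq, Finsupp.prod, Finsupp.degree_apply,
    ← Finset.prod_pow_eq_pow_sum]
  exact Ideal.prod_mem_prod fun s _ => Ideal.pow_mem_pow (hX s) _

private theorem B2a_mem_pow [Finite σ] {π : A} {I : Ideal (MvPowerSeries σ A)}
    (hX : ∀ s, MvPowerSeries.X s ∈ I) (hπ : MvPowerSeries.C π ∈ I) (N : ℕ)
    {f : MvPowerSeries σ A}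
    (hf : ∀ d : σ →₀ ℕ, MvPowerSeries.coeff d f ∈ (Ideal.span {π}) ^ (N - d.degree)) :
    f ∈ I ^ N := by
  classical
  have hC : ∀ (j : ℕ) (c : A), c ∈ (Ideal.span {π}) ^ j → MvPowerSeries.C c ∈ I ^ j := by
    intro j c hc
    rw [Ideal.span_singleton_pow, Ideal.mem_span_singleton] at hc
    obtain ⟨w, rfl⟩ := hc
    rw [map_mul, map_pow]
    exact Ideal.mul_mem_right _ _ (Ideal.pow_mem_pow hπ j)
  have he : ∀ d : σ →₀ ℕ, ∃ e : σ →₀ ℕ, e ≤ d ∧ e.degree = min N d.degree := fun d =>
    Finsupp.exists_le_degree_eq d (min N d.degree) (min_le_right _ _)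
  choose e he1 he2 using he
  set S : Finset (σ →₀ ℕ) := (Finsupp.finite_of_degree_le (σ := σ) N).toFinset with hS
  have hmemS : ∀ x : σ →₀ ℕ, x ∈ S ↔ x.degree ≤ N := by
    intro x
    rw [hS, Set.Finite.mem_toFinset]
    exact Iff.rfl
  let g : (σ →₀ ℕ) → MvPowerSeries σ A := fun x d' =>
    if e (d' + x) = x then MvPowerSeries.coeff (d' + x) f else 0
  have hg : ∀ x d', MvPowerSeries.coeff d' (g x) =
      if e (d' + x) = x then MvPowerSeries.coeff (d' + x) f else 0 := fun _ _ => rfl
  have hfe : f = ∑ x ∈ S, MvPowerSeries.monomial x (1 : A) * g x := by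
    ext d
    rw [map_sum, Finset.sum_eq_single (e d)]
    · rw [MvPowerSeries.coeff_monomial_mul, if_pos (he1 d), hg, tsub_add_cancel_of_le (he1 d),
        if_pos rfl, one_mul]
    · intro x _ hx
      rw [MvPowerSeries.coeff_monomial_mul]
      split_ifs with h
      · rw [hg, tsub_add_cancel_of_le h, if_neg (fun h' => hx h'.symm), mul_zero]
      · rfl
    · intro h
      exact absurd ((hmemS (e d)).2 (by rw [he2]; exact min_le_left _ _)) h
  rw [hfe]
  refine Ideal.sum_mem _ fun x hx => ?_
  rcases Nat.lt_or_ge x.degree N with hlt | hge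
  · have hgC : g x = MvPowerSeries.C (MvPowerSeries.coeff 0 (g x)) := by
      ext d'
      rw [MvPowerSeries.coeff_C]
      split_ifs with h0
      · rw [h0]
      · rw [hg, if_neg]
        intro h
        have h1 := he2 (d' + x)
        rw [h, map_add] at h1
        have h2 : d'.degree ≠ 0 := fun h' => h0 ((Finsupp.degree_eq_zero_iff _).1 h')
        omega
    have hc : MvPowerSeries.coeff 0 (g x) ∈ (Ideal.span {π}) ^ (N - x.degree) := by
      rw [hg, zero_add]
      split_ifs
      · exact hf x
      · exact Ideal.zero_mem _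
    have h3 := Ideal.mul_mem_mul (B2a_monomial_mem hX x) (hC _ _ hc)
    rw [← hgC, ← pow_add, Nat.add_sub_cancel' hlt.le] at h3
    exact h3
  · have h4 : x.degree = N := le_antisymm ((hmemS x).1 hx) hge
    have h5 := B2a_monomial_mem hX x
    rw [h4] at h5
    exact Ideal.mul_mem_right _ _ h5

end aux

variable (p : ℕ) [Fact p.Prime] (n : ℕ)

private theorem B2a_mem_ker (f : LTRing p n) :
    f ∈ RingHom.ker (LTRing.residue p n) ↔
      MvPowerSeries.constantCoeff f ∈
        Ideal.span {(p : WittVector p (GaloisField p n))} := by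
  rw [← WittVector.ker_constantCoeff, RingHom.mem_ker, RingHom.mem_ker]
  exact Iff.rfl

/-- The kernel of the residue map is `(p, u_1, ..., u_{n-1})`. -/
theorem ker_residue : RingHom.ker (LTRing.residue p n) =
    Ideal.span {(p : LTRing p n)} ⊔
      Ideal.span (Set.range (MvPowerSeries.X : Fin (n - 1) → LTRing p n)) := by
  apply le_antisymm
  · intro f hf
    have h := B2a_mem_pow (A := WittVector p (GaloisField p n)) (σ := Fin (n - 1))
      (π := (p : WittVector p (GaloisField p n)))
      (I := Ideal.span {(p : LTRing p n)} ⊔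
        Ideal.span (Set.range (MvPowerSeries.X : Fin (n - 1) → LTRing p n)))
      (fun s => Ideal.mem_sup_right (Ideal.subset_span ⟨s, rfl⟩))
      (by rw [map_natCast]; exact Ideal.mem_sup_left (Ideal.mem_span_singleton_self _))
      1 (f := f) ?_
    · rwa [pow_one] at h
    · intro d
      by_cases h0 : d = 0
      · rw [h0, map_zero, Nat.sub_zero, pow_one]
        exact (B2a_mem_ker p n f).1 hf
      · have h3 : d.degree ≠ 0 := fun h => h0 ((Finsupp.degree_eq_zero_iff _).1 h)
        have h4 : 1 - d.degree = 0 := by omega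
        rw [h4, pow_zero, Ideal.one_eq_top]
        trivial
  · apply sup_le
    · rw [Ideal.span_singleton_le_iff_mem, B2a_mem_ker, map_natCast]
      exact Ideal.mem_span_singleton_self _
    · rw [Ideal.span_le]
      rintro _ ⟨s, rfl⟩
      show _ ∈ RingHom.ker (LTRing.residue p n)
      rw [B2a_mem_ker, MvPowerSeries.constantCoeff_X]
      exact Ideal.zero_mem _

private theorem B2a_pow_iff (N : ℕ) (f : LTRing p n) :
    f ∈ (RingHom.ker (LTRing.residue p n)) ^ N ↔ ∀ d : Fin (n - 1) →₀ ℕ,
      MvPowerSeries.coeff d f ∈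
        (Ideal.span {(p : WittVector p (GaloisField p n))}) ^ (N - d.degree) := by
  constructor
  · intro h
    exact B2a_coeff_mem (fun f hf => (B2a_mem_ker p n f).1 hf) N h
  · intro h
    refine B2a_mem_pow (fun s => ?_) ?_ N h
    · rw [B2a_mem_ker, MvPowerSeries.constantCoeff_X]
      exact Ideal.zero_mem _
    · rw [B2a_mem_ker, MvPowerSeries.constantCoeff_C]
      exact Ideal.mem_span_singleton_self _

/-- TASK B2a.  `E₀` is complete with respect to `𝔪 = ker residue`.
Hausdorff: Krull for the Noetherian local ring `E₀` (instance for `maximalIdeal`; `𝔪` is the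
maximal ideal), or directly: if `f ∈ 𝔪^N` for all `N` then the coefficient of a monomial of
degree `s` lies in `p^{N-s} W(k)` for all `N`.
Precomplete: if `f_{N+1} - f_N ∈ 𝔪^N` then for every monomial `d` the coefficients
`coeff d f_N` converge `p`-adically in `W(k)` (`WittVector.isAdicCompleteIdealSpanP`); let `f` be
the series of limits; `coeff d (f - f_N) ∈ p^{N - |d|} W(k)`, and a series `g` with
`coeff d g ∈ p^{N-|d|} W(k)` for all `d` with `|d| < N` lies in `𝔪^N`: it is a finite sum of terms
`p^{N-|d|} w X^d` plus a series of order `≥ N`, which lies in `(X_i)^N`. -/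
theorem isTest_E0 : IsTest p n (LTRing p n) (LTRing.residue p n) := by
  have hP : IsAdicComplete (Ideal.span {(p : WittVector p (GaloisField p n))})
      (WittVector p (GaloisField p n)) := inferInstance
  refine ⟨inferInstance, ?_, ?_⟩
  · ext x
    show WittVector.constantCoeff (MvPowerSeries.constantCoeff
      (algebraMap (WittVector p (GaloisField p n)) (LTRing p n) x)) = _
    rw [← MvPowerSeries.c_eq_algebraMap, MvPowerSeries.constantCoeff_C]
  · refine { haus' := ?_, prec' := ?_ }
    · intro f hf
      simp only [smul_eq_mul, Ideal.mul_top, SModEq.zero] at hf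
      ext1 d
      rw [map_zero]
      apply hP.toIsHausdorff.haus'
      intro j
      simp only [smul_eq_mul, Ideal.mul_top, SModEq.zero]
      have h := (B2a_pow_iff p n (j + d.degree) f).1 (hf _) d
      rwa [Nat.add_sub_cancel] at h
    · intro f hf
      simp only [smul_eq_mul, Ideal.mul_top, SModEq.sub_mem] at hf
      have hL : ∀ d : Fin (n - 1) →₀ ℕ, ∃ L : WittVector p (GaloisField p n), ∀ j : ℕ,
          MvPowerSeries.coeff d (f (j + d.degree)) - L ∈
            (Ideal.span {(p : WittVector p (GaloisField p n))}) ^ j := by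
        intro d
        obtain ⟨L, hL⟩ := hP.toIsPrecomplete.prec'
          (fun j => MvPowerSeries.coeff d (f (j + d.degree))) (by
            intro i j hij
            simp only [smul_eq_mul, Ideal.mul_top, SModEq.sub_mem]
            have h := (B2a_pow_iff p n _ _).1
              (hf (Nat.add_le_add_right hij d.degree)) d
            rw [Nat.add_sub_cancel, map_sub] at h
            exact h)
        refine ⟨L, fun j => ?_⟩
        have h := hL j
        simp only [smul_eq_mul, Ideal.mul_top, SModEq.sub_mem] at h
        exact h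
      choose L hL using hL
      obtain ⟨Lf, hLf⟩ : ∃ Lf : LTRing p n, ∀ d, MvPowerSeries.coeff d Lf = L d :=
        ⟨fun d => L d, fun _ => rfl⟩
      refine ⟨Lf, ?_⟩
      intro m
      simp only [smul_eq_mul, Ideal.mul_top, SModEq.sub_mem]
      rw [B2a_pow_iff]
      intro d
      rcases Nat.lt_or_ge m d.degree with hlt | hge
      · have h4 : m - d.degree = 0 := by omega
        rw [h4, pow_zero, Ideal.one_eq_top]
        trivial
      · have h := hL d (m - d.degree)
        rw [Nat.sub_add_cancel hge] at h
        rw [map_sub, hLf]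
        exact h

end Crest.Agent.LU
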