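import Mathlib
import Crest.Agent.LU_B1

/-!
S0351 (blueprint LU), task B2b: quotients of test rings are test rings.
-/

set_option autoImplicit false

noncomputable section

namespace Crest.Agent.LU

open Crest.LubinTate

variable {p : ℕ} [Fact p.Prime] {n : ℕ} {B : Type} [CommRing B]
  [Algebra (WittVector p (GaloisField p n)) B] {r : B →+* GaloisField p n}

/-- A surjective image (as a module) of a precomplete module is precomplete. -/
private theorem lu_b2b_isPrecomplete_quot {R M : Type} [CommRing R] (I : Ideal R) [AddCommGroup M]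
    [Module R M] [IsPrecomplete I M] (N : Submodule R M) : IsPrecomplete I (M ⧸ N) := by
  rw [← AdicCompletion.of_surjective_iff]
  intro y
  obtain ⟨x, rfl⟩ := AdicCompletion.map_surjective I (f := N.mkQ) (Submodule.mkQ_surjective N) y
  obtain ⟨x, rfl⟩ := AdicCompletion.of_surjective I M x
  exact ⟨N.mkQ x, (AdicCompletion.map_of I N.mkQ x).symm⟩

/-- TASK B2b.  A quotient of a test ring by an ideal `J ≤ ker r` is a test ring.
Completeness of `B/J` with respect to the image of `𝔪`: Hausdorff by Krull for the Noetherian
local ring `B/J`; precomplete: lift a Cauchy sequence `b̄_N` (with `b̄_{N+1} - b̄_N ∈ 𝔪̄^N`) step by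
step to `b_{N+1} = b_N + c_N`, `c_N ∈ 𝔪^N`, take the limit in `B` and project. -/
theorem isTest_quot (hB : IsTest p n B r) (J : Ideal B) (hJ : ∀ a ∈ J, r a = 0) :
    IsTest p n (B ⧸ J) (Ideal.Quotient.lift J r hJ) := by
  have hnoe := hB.noe
  have hcomp := hB.complete
  refine ⟨inferInstance, ?_, ?_⟩
  · ext x
    have := congrArg (fun f => f x) hB.comp
    simp only [RingHom.comp_apply] at this ⊢
    rw [← this]
    rfl
  · have hker : RingHom.ker (Ideal.Quotient.lift J r hJ)
        = (RingHom.ker r).map (algebraMap B (B ⧸ J)) := by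
      ext x
      obtain ⟨b, rfl⟩ := Ideal.Quotient.mk_surjective x
      constructor
      · intro h
        rw [RingHom.mem_ker, Ideal.Quotient.lift_mk] at h
        exact Ideal.mem_map_of_mem (algebraMap B (B ⧸ J)) h
      · intro h
        have h2 : (RingHom.ker r).map (algebraMap B (B ⧸ J)) ≤
            RingHom.ker (Ideal.Quotient.lift J r hJ) := by
          rw [Ideal.map_le_iff_le_comap]
          intro a ha
          rw [Ideal.mem_comap, RingHom.mem_ker]
          exact ha
        exact h2 h
    have hH : IsHausdorff (RingHom.ker r) (B ⧸ J) :=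
      IsHausdorff.of_le_jacobson _ _ (IsAdicComplete.le_jacobson_bot _)
    have hP : IsPrecomplete (RingHom.ker r) (B ⧸ J) :=
      lu_b2b_isPrecomplete_quot (RingHom.ker r) J
    rw [hker]
    exact { toIsHausdorff := IsHausdorff.map_algebraMap_iff.2 hH
            toIsPrecomplete := IsPrecomplete.map_algebraMap_iff.2 hP }

end Crest.Agent.LU
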