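import Mathlib
import Crest.Agent.LU_B1

/-!
S0351 (blueprint LU), task B2c: dual numbers over a test ring form a test ring.
-/

set_option autoImplicit false

noncomputable section

namespace Crest.Agent.LU

open Crest.LubinTate

variable {p : ℕ} [Fact p.Prime] {n : ℕ} {B : Type} [CommRing B]
  [Algebra (WittVector p (GaloisField p n)) B] {r : B →+* GaloisField p n}

/-- The residue map of `B[ε]`. -/
def dualRes (r : B →+* GaloisField p n) : DualNumber B →+* GaloisField p n :=
  r.comp (TrivSqZeroExt.fstHom B B B).toRingHom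

theorem dualRes_apply' (r : B →+* GaloisField p n) (x : DualNumber B) :
    dualRes r x = r (TrivSqZeroExt.fst x) := rfl

theorem mem_ker_dualRes' (r : B →+* GaloisField p n) (x : DualNumber B) :
    x ∈ RingHom.ker (dualRes r) ↔ TrivSqZeroExt.fst x ∈ RingHom.ker r := by
  rw [RingHom.mem_ker, RingHom.mem_ker, dualRes_apply']

theorem dual_pow_succ' (r : B →+* GaloisField p n) (N : ℕ) :
    (RingHom.ker (dualRes r)) ^ (N + 1) =
      (RingHom.ker (dualRes r)) ^ N * RingHom.ker (dualRes r) := Submodule.pow_succ _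

theorem dual_pow_one' (r : B →+* GaloisField p n) :
    (RingHom.ker (dualRes r)) ^ 1 = RingHom.ker (dualRes r) := pow_one _

theorem dual_pow_zero' (r : B →+* GaloisField p n) :
    (RingHom.ker (dualRes r)) ^ 0 = ⊤ := (pow_zero _).trans Ideal.one_eq_top

theorem dual_pow_le' (r : B →+* GaloisField p n) (N : ℕ) (x : DualNumber B)
    (hx : x ∈ (RingHom.ker (dualRes r)) ^ (N + 1)) :
    TrivSqZeroExt.fst x ∈ (RingHom.ker r) ^ (N + 1) ∧
      TrivSqZeroExt.snd x ∈ (RingHom.ker r) ^ N := by
  induction N generalizing x with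
  | zero =>
    rw [zero_add, dual_pow_one'] at hx
    refine ⟨?_, ?_⟩
    · rw [zero_add, pow_one]; exact (mem_ker_dualRes' r x).1 hx
    · rw [pow_zero, Ideal.one_eq_top]; trivial
  | succ N ih =>
    rw [dual_pow_succ'] at hx
    refine Submodule.mul_induction_on hx ?_ ?_
    · intro a ha b hb
      obtain ⟨h1, h2⟩ := ih a ha
      have hb' := (mem_ker_dualRes' r b).1 hb
      refine ⟨?_, ?_⟩
      · rw [TrivSqZeroExt.fst_mul, pow_succ]
        exact Ideal.mul_mem_mul h1 hb'
      · rw [TrivSqZeroExt.snd_mul]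
        refine Ideal.add_mem _ ?_ ?_
        · rw [smul_eq_mul]
          exact Ideal.mul_mem_right _ _ h1
        · rw [MulOpposite.smul_eq_mul_unop, MulOpposite.unop_op, pow_succ]
          exact Ideal.mul_mem_mul h2 hb'
    · intro a b ha hb
      exact ⟨by rw [TrivSqZeroExt.fst_add]; exact Ideal.add_mem _ ha.1 hb.1,
        by rw [TrivSqZeroExt.snd_add]; exact Ideal.add_mem _ ha.2 hb.2⟩

theorem dual_inl_mem' (r : B →+* GaloisField p n) (N : ℕ) (a : B)
    (ha : a ∈ (RingHom.ker r) ^ N) :
    (TrivSqZeroExt.inl a : DualNumber B) ∈ (RingHom.ker (dualRes r)) ^ N := by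
  have h1 : Ideal.map (TrivSqZeroExt.inlHom B B) (RingHom.ker r) ≤ RingHom.ker (dualRes r) := by
    rw [Ideal.map_le_iff_le_comap]
    intro b hb
    rw [Ideal.mem_comap, mem_ker_dualRes']
    simpa using hb
  have h2 : Ideal.map (TrivSqZeroExt.inlHom B B) ((RingHom.ker r) ^ N) ≤
      (RingHom.ker (dualRes r)) ^ N := by
    rw [Ideal.map_pow]
    exact Ideal.pow_right_mono h1 N
  exact h2 (Ideal.mem_map_of_mem (TrivSqZeroExt.inlHom B B) ha)

theorem dual_inr_mem' (r : B →+* GaloisField p n) (N : ℕ) (b : B)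
    (hb : b ∈ (RingHom.ker r) ^ N) :
    (TrivSqZeroExt.inr b : DualNumber B) ∈ (RingHom.ker (dualRes r)) ^ (N + 1) := by
  have h1 : (TrivSqZeroExt.inr b : DualNumber B) =
      (TrivSqZeroExt.inl b : DualNumber B) * (TrivSqZeroExt.inr 1 : DualNumber B) := by
    rw [TrivSqZeroExt.inl_mul_inr, smul_eq_mul, mul_one]
  rw [h1, dual_pow_succ']
  refine Ideal.mul_mem_mul (dual_inl_mem' r N b hb) ?_
  rw [mem_ker_dualRes', TrivSqZeroExt.fst_inr]
  exact Ideal.zero_mem _

theorem dual_mem_pow' (r : B →+* GaloisField p n) (N : ℕ) (x : DualNumber B)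
    (h1 : TrivSqZeroExt.fst x ∈ (RingHom.ker r) ^ (N + 1))
    (h2 : TrivSqZeroExt.snd x ∈ (RingHom.ker r) ^ N) :
    x ∈ (RingHom.ker (dualRes r)) ^ (N + 1) := by
  rw [← TrivSqZeroExt.inl_fst_add_inr_snd_eq x]
  exact Ideal.add_mem _ (dual_inl_mem' r _ _ h1) (dual_inr_mem' r _ _ h2)

/-- TASK B2c.  `B[ε]` is a test ring.  Noetherian: it is a finite `B`-module (spanned by `1, ε`).
The kernel is `𝔫 = 𝔪 + εB`; `𝔪^N + ε 𝔪^N ⊆ 𝔫^N ⊆ 𝔪^N + ε 𝔪^{N-1}` for `N ≥ 1`, so completeness
follows componentwise from completeness of `B`. -/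
theorem isTest_dual (hB : IsTest p n B r) : IsTest p n (DualNumber B) (dualRes r) := by
  refine ⟨?_, ?_, ?_⟩
  · haveI := hB.noe
    haveI : Module.Finite B (DualNumber B) := inferInstanceAs (Module.Finite B (B × B))
    exact IsNoetherianRing.of_finite B (DualNumber B)
  · rw [← hB.comp]
    ext w
    rfl
  · haveI := hB.complete
    have key : ∀ (C : Type) [CommRing C] (I : Ideal C) (N : ℕ) (x y : C),
        x ≡ y [SMOD (I ^ N • ⊤ : Submodule C C)] ↔ x - y ∈ I ^ N := by
      intro C _ I N x y
      rw [SModEq.sub_mem, smul_eq_mul, Ideal.mul_top]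
    haveI hh : IsHausdorff (RingHom.ker (dualRes r)) (DualNumber B) := by
      refine ⟨?_⟩
      intro x hx
      have h1 : ∀ N : ℕ, x ∈ (RingHom.ker (dualRes r)) ^ N := by
        intro N
        have := (key _ _ _ _ _).1 (hx N)
        rwa [sub_zero] at this
      refine TrivSqZeroExt.ext ?_ ?_
      · refine IsHausdorff.haus (inferInstance : IsHausdorff (RingHom.ker r) B) _ ?_
        intro N
        rw [key, sub_zero]
        have := (dual_pow_le' r N x (h1 (N + 1))).1
        exact Ideal.pow_le_pow_right (Nat.le_succ N) this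
      · refine IsHausdorff.haus (inferInstance : IsHausdorff (RingHom.ker r) B) _ ?_
        intro N
        rw [key, sub_zero]
        exact (dual_pow_le' r N x (h1 (N + 1))).2
    haveI hp : IsPrecomplete (RingHom.ker (dualRes r)) (DualNumber B) := by
      refine ⟨?_⟩
      intro f hf
      have hf' : ∀ {m k : ℕ}, m ≤ k → f m - f k ∈ (RingHom.ker (dualRes r)) ^ m :=
        fun {m k} h => (key _ _ _ _ _).1 (hf h)
      obtain ⟨L1, hL1⟩ := IsPrecomplete.prec (inferInstance : IsPrecomplete (RingHom.ker r) B)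
        (f := fun k => TrivSqZeroExt.fst (f (k + 1))) (by
          intro m k hmk
          rw [key, ← TrivSqZeroExt.fst_sub]
          exact Ideal.pow_le_pow_right (Nat.le_succ m)
            (dual_pow_le' r m _ (hf' (Nat.succ_le_succ hmk))).1)
      obtain ⟨L2, hL2⟩ := IsPrecomplete.prec (inferInstance : IsPrecomplete (RingHom.ker r) B)
        (f := fun k => TrivSqZeroExt.snd (f (k + 1))) (by
          intro m k hmk
          rw [key, ← TrivSqZeroExt.snd_sub]
          exact (dual_pow_le' r m _ (hf' (Nat.succ_le_succ hmk))).2)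
      refine ⟨TrivSqZeroExt.inl L1 + TrivSqZeroExt.inr L2, ?_⟩
      intro N
      rw [key]
      cases N with
      | zero => rw [dual_pow_zero']; trivial
      | succ N =>
        refine dual_mem_pow' r N _ ?_ ?_
        · have h1 := (key _ _ _ _ _).1 (hL1 (N + 1))
          have h2 := (dual_pow_le' r N _ (hf' (Nat.le_succ (N + 1)))).1
          have h3 : TrivSqZeroExt.fst (f (N + 1) - (TrivSqZeroExt.inl L1 + TrivSqZeroExt.inr L2)) =
              TrivSqZeroExt.fst (f (N + 1) - f (N + 1 + 1)) +
                (TrivSqZeroExt.fst (f (N + 1 + 1)) - L1) := by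
            simp only [TrivSqZeroExt.fst_sub, TrivSqZeroExt.fst_add, TrivSqZeroExt.fst_inl,
              TrivSqZeroExt.fst_inr]
            ring
          rw [h3]
          exact Ideal.add_mem _ h2 h1
        · have h1 := (key _ _ _ _ _).1 (hL2 N)
          have h3 : TrivSqZeroExt.snd (f (N + 1) - (TrivSqZeroExt.inl L1 + TrivSqZeroExt.inr L2)) =
              TrivSqZeroExt.snd (f (N + 1)) - L2 := by
            simp only [TrivSqZeroExt.snd_sub, TrivSqZeroExt.snd_add, TrivSqZeroExt.snd_inl,
              TrivSqZeroExt.snd_inr]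
            ring
          rw [h3]
          exact h1
    exact { hh, hp with }

end Crest.Agent.LU
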