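import Mathlib
import Crest.Agent.LU_A6

/-!
S0351 (blueprint LU), task A7: in characteristic `p` a homomorphism with zero derivative at `0`
factors through Frobenius.
-/

set_option autoImplicit false

noncomputable section

namespace Crest.Agent.LU

open Crest.LubinTate

/-! ### Auxiliary lemmas -/

namespace A7

variable {R : Type*} [CommRing R]

/-- A power of a series with zero constant coefficient times anything has no low coefficients. -/
theorem coeff_pow_mul_eq_zero {σ : Type*} {g : MvPowerSeries σ R}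
    (hg : MvPowerSeries.constantCoeff g = 0) (D : MvPowerSeries σ R) {N : ℕ} {d : σ →₀ ℕ}
    (hN : d.degree < N) : MvPowerSeries.coeff d (g ^ N * D) = 0 := by
  apply MvPowerSeries.coeff_of_lt_order
  have h1 : (1 : ℕ∞) ≤ g.order := MvPowerSeries.one_le_order_iff_constCoeff_eq_zero.mpr hg
  have h2 : (N : ℕ∞) ≤ (g ^ N).order := by
    calc (N : ℕ∞) = N • (1 : ℕ∞) := by simp
      _ ≤ N • g.order := by gcongr
      _ ≤ (g ^ N).order := MvPowerSeries.le_order_pow _
  calc ((d.degree : ℕ) : ℕ∞) < N := by exact_mod_cast hN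
    _ ≤ (g ^ N).order := h2
    _ ≤ (g ^ N).order + D.order := le_self_add
    _ ≤ (g ^ N * D).order := MvPowerSeries.le_order_mul

theorem pderiv_subst_coe {σ : Type*} (i : σ) (q : Polynomial R) {g : MvPowerSeries σ R}
    (hg : PowerSeries.HasSubst g) :
    MvPowerSeries.pderiv R i (PowerSeries.subst g (q : PowerSeries R)) =
      PowerSeries.subst g (PowerSeries.derivative R (q : PowerSeries R)) *
        MvPowerSeries.pderiv R i g := by
  rw [PowerSeries.derivative_coe, PowerSeries.subst_coe hg, PowerSeries.subst_coe hg]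
  simp [Derivation.comp_aeval_eq (a := g) (MvPowerSeries.pderiv R i) q, smul_eq_mul]

/-- Chain rule. -/
theorem pderiv_subst {σ : Type*} (i : σ) (φ : PowerSeries R) {g : MvPowerSeries σ R}
    (hg0 : MvPowerSeries.constantCoeff g = 0) :
    MvPowerSeries.pderiv R i (PowerSeries.subst g φ) =
      PowerSeries.subst g (PowerSeries.derivative R φ) * MvPowerSeries.pderiv R i g := by
  have hg : PowerSeries.HasSubst g := PowerSeries.HasSubst.of_constantCoeff_zero hg0
  ext d
  set N := d.degree + 1 with hN
  -- decompose `φ = trunc + X^N * ρ`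
  obtain ⟨ρ, hρ⟩ : ∃ ρ : PowerSeries R,
      φ = (PowerSeries.trunc N φ : Polynomial R) + (PowerSeries.X : PowerSeries R) ^ N * ρ := by
    refine ⟨PowerSeries.mk fun k => PowerSeries.coeff (k + N) φ, ?_⟩
    ext k
    rw [map_add, Polynomial.coeff_coe, PowerSeries.coeff_trunc, PowerSeries.coeff_X_pow_mul']
    by_cases hk : k < N
    · rw [if_pos hk, if_neg (by omega), add_zero]
    · rw [if_neg hk, if_pos (by omega), zero_add, PowerSeries.coeff_mk]
      congr 2; omega
  set q := PowerSeries.trunc N φ
  have key : MvPowerSeries.pderiv R i (PowerSeries.subst g φ) -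
      PowerSeries.subst g (PowerSeries.derivative R φ) * MvPowerSeries.pderiv R i g =
      g ^ N * (MvPowerSeries.pderiv R i (PowerSeries.subst g ρ) -
        PowerSeries.subst g (PowerSeries.derivative R ρ) * MvPowerSeries.pderiv R i g) := by
    have e1 := pderiv_subst_coe i q hg
    conv_lhs => rw [hρ]
    rw [PowerSeries.subst_add hg, PowerSeries.subst_mul hg, PowerSeries.subst_pow hg,
      PowerSeries.subst_X hg, map_add, map_add, PowerSeries.subst_add hg, e1]
    rw [Derivation.leibniz, Derivation.leibniz, MvPowerSeries.pderiv_pow, smul_eq_mul,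
      smul_eq_mul, smul_eq_mul, smul_eq_mul, PowerSeries.subst_add hg, PowerSeries.subst_mul hg,
      PowerSeries.subst_mul hg, PowerSeries.subst_pow hg, PowerSeries.subst_X hg,
      PowerSeries.derivative_pow, PowerSeries.derivative_X, mul_one, PowerSeries.subst_mul hg,
      PowerSeries.subst_pow hg, PowerSeries.subst_X hg]
    have e2 : PowerSeries.subst g ((N : ℕ) : PowerSeries R) = ((N : ℕ) : MvPowerSeries σ R) := by
      rw [← PowerSeries.coe_substAlgHom hg, map_natCast]
    rw [e2]
    ring
  have h0 := coeff_pow_mul_eq_zero hg0 (MvPowerSeries.pderiv R i (PowerSeries.subst g ρ) -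
        PowerSeries.subst g (PowerSeries.derivative R ρ) * MvPowerSeries.pderiv R i g)
        (show d.degree < N by omega)
  rw [← key, map_sub, sub_eq_zero] at h0
  exact h0

/-- `coeff (single 0 n) G = coeff n X`. -/
theorem coeff_single_zero (G : FormalGroup R) (n : ℕ) :
    MvPowerSeries.coeff (Finsupp.single (0 : Fin 2) n) G.toPowerSeries =
      PowerSeries.coeff n (PowerSeries.X : PowerSeries R) := by
  have h := congrArg (PowerSeries.coeff n) G.Xzero_eq_X
  have h10 : MvPowerSeries.HasSubst (![PowerSeries.X, 0] : Fin 2 → PowerSeries R) :=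
    MvPowerSeries.HasSubst.X_zero
  rw [← h, PowerSeries.coeff, FormalGroup.Xzero,
    MvPowerSeries.coeff_subst h10,
    finsum_eq_single _ (Finsupp.single 0 n)]
  · simp [MvPowerSeries.coeff_X_pow, PowerSeries.X]
  · intro d hd
    by_cases hd₁ : d 1 = 0
    · by_cases hd₀ : d 0 = n
      · exact absurd (Finsupp.ext fun s => by fin_cases s <;> simp [hd₀, hd₁]) hd
      · have : ¬ n = d 0 := fun h => hd₀ h.symm
        simp [hd₁, MvPowerSeries.coeff_X_pow, PowerSeries.X, this]
    · simp [hd₁]

/-- The coefficient-shifted series `K` with `G = X_0 + X_1 K`. -/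
def shiftK (G : FormalGroup R) : MvPowerSeries (Fin 2) R :=
  fun d => MvPowerSeries.coeff (d + Finsupp.single 1 1) G.toPowerSeries

theorem coeff_shiftK (G : FormalGroup R) (d : Fin 2 →₀ ℕ) :
    MvPowerSeries.coeff d (shiftK G) =
      MvPowerSeries.coeff (d + Finsupp.single 1 1) G.toPowerSeries := rfl

/-- Every law is `X_0 + X_1 K` with `K` of constant coefficient `1`. -/
theorem exists_decomp (G : FormalGroup R) :
    ∃ K : MvPowerSeries (Fin 2) R, MvPowerSeries.constantCoeff K = 1 ∧
      G.toPowerSeries = MvPowerSeries.X 0 + MvPowerSeries.X 1 * K := by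
  classical
  refine ⟨shiftK G, ?_, ?_⟩
  · rw [← MvPowerSeries.coeff_zero_eq_constantCoeff_apply, coeff_shiftK, zero_add, G.lin_coeff_Y]
  · ext d
    rw [map_add, MvPowerSeries.coeff_X, mul_comm, MvPowerSeries.X, MvPowerSeries.coeff_mul_monomial]
    by_cases h : Finsupp.single (1 : Fin 2) 1 ≤ d
    · rw [if_pos h, coeff_shiftK, tsub_add_cancel_of_le h, mul_one, if_neg, zero_add]
      rintro rfl
      have := h 1
      simp at this
    · rw [if_neg h, add_zero]
      have hd1 : d 1 = 0 := by
        by_contra h1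
        exact h (Finsupp.single_le_iff.mpr (Nat.one_le_iff_ne_zero.mpr h1))
      have hd : d = Finsupp.single 0 (d 0) := by
        ext s; fin_cases s <;> simp [hd1]
      rw [hd, coeff_single_zero, PowerSeries.coeff_X]
      by_cases h0 : d 0 = 1
      · simp [h0]
      · rw [if_neg h0, if_neg]
        intro h2
        apply h0
        simpa using DFunLike.congr_fun h2 0

theorem constantCoeff_subst {σ τ : Type*} {a : σ → MvPowerSeries τ R} (ha : MvPowerSeries.HasSubst a)
    (ha0 : ∀ s, MvPowerSeries.constantCoeff (a s) = 0) (f : MvPowerSeries σ R) :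
    MvPowerSeries.constantCoeff (MvPowerSeries.subst a f) = MvPowerSeries.constantCoeff f := by
  have h : f = MvPowerSeries.C (MvPowerSeries.constantCoeff f) +
      (f - MvPowerSeries.C (MvPowerSeries.constantCoeff f)) := by ring
  have h2 : MvPowerSeries.constantCoeff
      (f - MvPowerSeries.C (MvPowerSeries.constantCoeff f)) = 0 := by simp
  conv_lhs => rw [h]
  rw [MvPowerSeries.subst_add ha, map_add,
    MvPowerSeries.constantCoeff_subst_eq_zero ha ha0 h2, add_zero, MvPowerSeries.subst_C]
  simp

/-- Substitution into a one-variable composite. -/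
theorem subst_psubst {σ τ : Type*} {c : σ → MvPowerSeries τ R} (hc : MvPowerSeries.HasSubst c)
    {g : MvPowerSeries σ R} (hg : PowerSeries.HasSubst g) (f : PowerSeries R) :
    MvPowerSeries.subst c (PowerSeries.subst g f) =
      PowerSeries.subst (MvPowerSeries.subst c g) f := by
  unfold PowerSeries.subst
  rw [MvPowerSeries.subst_comp_subst_apply hg.const hc]

/-- The derivative of a homomorphism with zero linear coefficient vanishes. -/
theorem derivative_eq_zero {F G : FormalGroup R} {φ : PowerSeries R} (hφ : IsFGHom F G φ)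
    (h1 : PowerSeries.coeff 1 φ = 0) : PowerSeries.derivative R φ = 0 := by
  obtain ⟨h0, hE⟩ := hφ
  obtain ⟨K, hK, hGK⟩ := exists_decomp G
  obtain ⟨L, hL, hFL⟩ := exists_decomp F
  have hX : ∀ s : Fin 2, PowerSeries.HasSubst (MvPowerSeries.X s : MvPowerSeries (Fin 2) R) :=
    fun s => PowerSeries.HasSubst.X s
  set a := PowerSeries.subst (MvPowerSeries.X 0 : MvPowerSeries (Fin 2) R) φ with ha
  set b := PowerSeries.subst (MvPowerSeries.X 1 : MvPowerSeries (Fin 2) R) φ with hb
  have ha0 : MvPowerSeries.constantCoeff a = 0 :=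
    PowerSeries.constantCoeff_subst_eq_zero (by simp) φ h0
  have hb0 : MvPowerSeries.constantCoeff b = 0 :=
    PowerSeries.constantCoeff_subst_eq_zero (by simp) φ h0
  have hab := hasSubst_pair ha0 hb0
  have hF0 : MvPowerSeries.constantCoeff F.toPowerSeries = 0 := F.zero_constantCoeff
  set H := MvPowerSeries.subst ![a, b] K with hH
  have hR : G.toPowerSeries.subst ![a, b] = a + b * H := by
    rw [hGK, MvPowerSeries.subst_add hab, MvPowerSeries.subst_mul hab, MvPowerSeries.subst_X hab,
      MvPowerSeries.subst_X hab]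
    simp [hH]
  rw [hR] at hE
  have hD := congrArg (MvPowerSeries.pderiv R 1) hE
  rw [pderiv_subst 1 φ hF0, map_add, Derivation.leibniz, ha, hb,
    pderiv_subst 1 φ (by simp : MvPowerSeries.constantCoeff
      (MvPowerSeries.X 0 : MvPowerSeries (Fin 2) R) = 0),
    pderiv_subst 1 φ (by simp : MvPowerSeries.constantCoeff
      (MvPowerSeries.X 1 : MvPowerSeries (Fin 2) R) = 0), ← hb,
    MvPowerSeries.pderiv_X_self, MvPowerSeries.pderiv_X_of_ne (by decide), mul_zero, zero_add,
    mul_one, smul_eq_mul, smul_eq_mul] at hD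
  have h10 : MvPowerSeries.HasSubst (![PowerSeries.X, 0] : Fin 2 → PowerSeries R) :=
    MvPowerSeries.HasSubst.X_zero
  have hD2 := congrArg (MvPowerSeries.subst (![PowerSeries.X, 0] : Fin 2 → PowerSeries R)) hD
  have e1 : MvPowerSeries.subst (![PowerSeries.X, 0] : Fin 2 → PowerSeries R)
      (PowerSeries.subst F.toPowerSeries (PowerSeries.derivative R φ)) =
      PowerSeries.derivative R φ := by
    rw [subst_psubst h10 (PowerSeries.HasSubst.of_constantCoeff_zero hF0)]
    have := F.Xzero_eq_X
    rw [FormalGroup.Xzero] at this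
    rw [this]
    exact PowerSeries.X_subst _
  have e2 : MvPowerSeries.subst (![PowerSeries.X, 0] : Fin 2 → PowerSeries R) b = 0 := by
    rw [hb, subst_psubst h10 (hX 1), MvPowerSeries.subst_X h10]
    exact PowerSeries.subst_zero_of_constantCoeff_zero h0
  have e3 : MvPowerSeries.subst (![PowerSeries.X, 0] : Fin 2 → PowerSeries R)
      (PowerSeries.subst (MvPowerSeries.X 1 : MvPowerSeries (Fin 2) R)
        (PowerSeries.derivative R φ)) = 0 := by
    rw [subst_psubst h10 (hX 1), MvPowerSeries.subst_X h10]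
    apply PowerSeries.subst_zero_of_constantCoeff_zero
    rw [← PowerSeries.coeff_zero_eq_constantCoeff_apply, PowerSeries.coeff_derivative, zero_add,
      h1, zero_mul]
  rw [MvPowerSeries.subst_mul h10, MvPowerSeries.subst_add h10, MvPowerSeries.subst_mul h10,
    MvPowerSeries.subst_mul h10, e1, e2, e3, zero_mul, mul_zero, add_zero] at hD2
  have hu : IsUnit (MvPowerSeries.subst (![PowerSeries.X, 0] : Fin 2 → PowerSeries R)
      (MvPowerSeries.pderiv R 1 F.toPowerSeries)) := by
    rw [PowerSeries.isUnit_iff_constantCoeff]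
    have h3 : PowerSeries.constantCoeff (MvPowerSeries.subst
        (![PowerSeries.X, 0] : Fin 2 → PowerSeries R)
        (MvPowerSeries.pderiv R 1 F.toPowerSeries)) = 1 := by
      have := constantCoeff_subst h10 (fun s => by
        fin_cases s
        · exact PowerSeries.constantCoeff_X
        · simp) (MvPowerSeries.pderiv R 1 F.toPowerSeries)
      refine this.trans ?_
      rw [← MvPowerSeries.coeff_zero_eq_constantCoeff_apply, MvPowerSeries.coeff_pderiv, zero_add,
        F.lin_coeff_Y]
      simp
    rw [h3]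
    exact isUnit_one
  exact (hu.mul_left_eq_zero).mp hD2

theorem coeff_eq_zero_of_not_dvd (p : ℕ) [Fact p.Prime] [CharP R p] {φ : PowerSeries R}
    (h : PowerSeries.derivative R φ = 0) {i : ℕ} (hi : ¬ p ∣ i) : PowerSeries.coeff i φ = 0 := by
  obtain ⟨n, rfl⟩ : ∃ n, i = n + 1 := by
    cases i with
    | zero => exact absurd (dvd_zero p) hi
    | succ n => exact ⟨n, rfl⟩
  have h1 := congrArg (PowerSeries.coeff n) h
  rw [PowerSeries.coeff_derivative, map_zero] at h1
  have h2 : IsUnit (((n + 1 : ℕ) : ZMod p)) := by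
    rw [isUnit_iff_ne_zero]
    intro h3
    exact hi ((ZMod.natCast_eq_zero_iff _ _).mp h3)
  have h3 := h2.map (ZMod.castHom (dvd_refl p) R)
  rw [map_natCast] at h3
  have h4 : ((n + 1 : ℕ) : R) = (n : R) + 1 := by push_cast; ring
  rw [h4] at h3
  exact (h3.mul_left_eq_zero).mp h1

theorem expand_injective {σ : Type*} (p : ℕ) (hp : p ≠ 0) :
    Function.Injective (MvPowerSeries.expand (σ := σ) (R := R) p hp) := by
  intro f g h
  ext m
  rw [← MvPowerSeries.coeff_expand_smul p hp f m, h, MvPowerSeries.coeff_expand_smul]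

end A7

variable {R : Type*} [CommRing R] (p : ℕ) [Fact p.Prime] [CharP R p]

/-- TASK A7.  One Frobenius step.
Proof: differentiate `φ(F(X,Y)) = G(φ(X),φ(Y))` with respect to `Y` and put `Y = 0`:
`φ'(X) · F_2(X,0) = G_2(φ(X),0) · φ'(0) = 0`, and `F_2(X,0)` has constant coefficient `1`, so
`φ' = 0`, i.e. `i · coeff i φ = 0` for all `i`, so `coeff i φ = 0` unless `p ∣ i`
(`(i : R)` is a unit when `p ∤ i`, being the image of a unit of `ZMod p`).  Hence
`φ = ψ(X^p)` (define `coeff i ψ = coeff (p i) φ`; `PowerSeries.expand`, `coeff_expand`).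
Then `ψ(F^{(p)}(X^p,Y^p)) = ψ(F(X,Y)^p) = φ(F(X,Y)) = G(φ X, φ Y) = G(ψ(X^p), ψ(Y^p))`
(Mathlib: `MvPowerSeries.map_frobenius_expand`) and `f(X,Y) ↦ f(X^p,Y^p)` is injective
(`MvPowerSeries.expand`).
(An algebraic way to avoid derivations: compare the coefficients of `X^i Y` in
`φ(F(X,Y)) = G(φ(X),φ(Y))`.  The coefficient of `Y^1` (as a series in `X`) is
`φ'(X) F_2(X,0)` resp. `G_2(φ(X),0) φ'(0)`.) -/
theorem frobenius_factor {F G : FormalGroup R} {φ : PowerSeries R} (hφ : IsFGHom F G φ)
    (h1 : PowerSeries.coeff 1 φ = 0) :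
    ∃ ψ : PowerSeries R, φ = cmp ψ (PowerSeries.X ^ p : PowerSeries R) ∧
      IsFGHom (F.map (frobenius R p)) G ψ := by
  have hp : p ≠ 0 := (Fact.out : p.Prime).ne_zero
  have hd := A7.derivative_eq_zero hφ h1
  obtain ⟨h0, hE⟩ := hφ
  set ψ : PowerSeries R := PowerSeries.mk fun i => PowerSeries.coeff (p * i) φ with hψ
  have hφψ : φ = PowerSeries.subst (PowerSeries.X ^ p : PowerSeries R) ψ := by
    rw [← PowerSeries.expand_apply p hp]
    ext i
    rw [PowerSeries.coeff_expand]
    split_ifs with h
    · rw [hψ, PowerSeries.coeff_mk, Nat.mul_div_cancel' h]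
    · exact A7.coeff_eq_zero_of_not_dvd p hd h
  have hψ0 : PowerSeries.constantCoeff ψ = 0 := by
    rw [← PowerSeries.coeff_zero_eq_constantCoeff_apply, hψ, PowerSeries.coeff_mk, mul_zero,
      PowerSeries.coeff_zero_eq_constantCoeff_apply, h0]
  refine ⟨ψ, hφψ, hψ0, ?_⟩
  have hF0 : MvPowerSeries.constantCoeff F.toPowerSeries = 0 := F.zero_constantCoeff
  have hF0' : MvPowerSeries.constantCoeff (F.map (frobenius R p)).toPowerSeries = 0 :=
    (F.map (frobenius R p)).zero_constantCoeff
  have hXp : ∀ {σ : Type} {a : MvPowerSeries σ R}, MvPowerSeries.constantCoeff a = 0 →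
      PowerSeries.subst a φ = PowerSeries.subst (a ^ p) ψ := by
    intro σ a ha
    have h2 := cmp_assoc ψ (ψ := (PowerSeries.X ^ p : PowerSeries R)) (by simp [hp]) ha
    have h3 : cmp (PowerSeries.X ^ p : PowerSeries R) a = a ^ p := by
      have ha' := PowerSeries.HasSubst.of_constantCoeff_zero ha
      show PowerSeries.subst a (PowerSeries.X ^ p : PowerSeries R) = a ^ p
      rw [PowerSeries.subst_pow ha', PowerSeries.subst_X ha']
    rw [h3] at h2
    have h4 : cmp ψ (PowerSeries.X ^ p : PowerSeries R) = φ := hφψ.symm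
    rw [h4] at h2
    exact h2
  apply A7.expand_injective p hp
  have hx : ∀ s : Fin 2, MvPowerSeries.expand p hp
      (PowerSeries.subst (MvPowerSeries.X s : MvPowerSeries (Fin 2) R) ψ) =
      PowerSeries.subst (MvPowerSeries.X s : MvPowerSeries (Fin 2) R) φ := by
    intro s
    rw [hXp (by simp)]
    unfold PowerSeries.subst
    rw [MvPowerSeries.expand_subst p hp (PowerSeries.HasSubst.X s).const]
    simp
  have hL : MvPowerSeries.expand p hp (PowerSeries.subst (F.map (frobenius R p)).toPowerSeries ψ) =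
      PowerSeries.subst F.toPowerSeries φ := by
    rw [hXp hF0]
    unfold PowerSeries.subst
    rw [MvPowerSeries.expand_subst p hp (PowerSeries.HasSubst.of_constantCoeff_zero hF0').const]
    congr 1
    funext _
    rw [FormalGroup.map_toPowerSeries, ← MvPowerSeries.map_expand, MvPowerSeries.map_frobenius_expand]
  have hR : MvPowerSeries.expand p hp (G.toPowerSeries.subst
      ![PowerSeries.subst (MvPowerSeries.X 0 : MvPowerSeries (Fin 2) R) ψ,
        PowerSeries.subst (MvPowerSeries.X 1 : MvPowerSeries (Fin 2) R) ψ]) =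
      G.toPowerSeries.subst
      ![PowerSeries.subst (MvPowerSeries.X 0 : MvPowerSeries (Fin 2) R) φ,
        PowerSeries.subst (MvPowerSeries.X 1 : MvPowerSeries (Fin 2) R) φ] := by
    rw [MvPowerSeries.expand_subst p hp (hasSubst_pair
      (PowerSeries.constantCoeff_subst_eq_zero (by simp) ψ hψ0)
      (PowerSeries.constantCoeff_subst_eq_zero (by simp) ψ hψ0))]
    congr 1
    funext s
    fin_cases s
    · exact hx 0
    · exact hx 1
  rw [hL, hR]
  exact hE

/-- Coefficients of `ψ(X^m)`. (`PowerSeries.coeff_subst_X_pow` or `PowerSeries.expand`.) -/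
theorem coeff_cmp_X_pow (ψ : PowerSeries R) {m : ℕ} (hm : m ≠ 0) (i : ℕ) :
    PowerSeries.coeff (m * i) (cmp ψ (PowerSeries.X ^ m : PowerSeries R)) =
      PowerSeries.coeff i ψ := by
  show PowerSeries.coeff (m * i) (PowerSeries.subst (PowerSeries.X ^ m : PowerSeries R) ψ) = _
  rw [← PowerSeries.expand_apply m hm, PowerSeries.coeff_expand_mul]

/-- Iterated version: if the coefficients of `X^{p^i}`, `i < h`, vanish then `φ` is a series in
`X^{p^h}`.  (Induction on `h` with `frobenius_factor`; the coefficient of `X^{p^h}` of `φ` is the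
linear coefficient of `ψ`.) -/
theorem frobenius_factor_iter {F G : FormalGroup R} {φ : PowerSeries R} (hφ : IsFGHom F G φ)
    (h : ℕ) (hc : ∀ i < h, PowerSeries.coeff (p ^ i) φ = 0) :
    ∃ ψ : PowerSeries R, φ = cmp ψ (PowerSeries.X ^ (p ^ h) : PowerSeries R) ∧
      IsFGHom (F.map (iterateFrobenius R p h)) G ψ := by
  have hp : p ≠ 0 := (Fact.out : p.Prime).ne_zero
  induction h generalizing F φ with
  | zero =>
    refine ⟨φ, ?_, ?_⟩
    · rw [pow_zero, pow_one]
      exact (cmp_X φ).symm
    · have : iterateFrobenius R p 0 = RingHom.id R := by ext x; simp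
      rw [this, map_id]
      exact hφ
  | succ h ih =>
    obtain ⟨ψ₁, h1, h2⟩ := frobenius_factor p hφ (by simpa using hc 0 (Nat.succ_pos h))
    obtain ⟨ψ, h3, h4⟩ := ih h2 (fun i hi => by
      have := hc (i + 1) (by omega)
      rw [h1, pow_succ', coeff_cmp_X_pow ψ₁ hp] at this
      exact this)
    refine ⟨ψ, ?_, ?_⟩
    · rw [h1, h3, cmp_assoc ψ (by simp [hp]) (by
        show PowerSeries.constantCoeff (PowerSeries.X ^ p : PowerSeries R) = 0
        simp [hp])]
      congr 1
      have hs : PowerSeries.HasSubst (PowerSeries.X ^ p : PowerSeries R) :=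
        PowerSeries.HasSubst.X_pow hp
      show PowerSeries.subst (PowerSeries.X ^ p : PowerSeries R)
        (PowerSeries.X ^ p ^ h : PowerSeries R) = _
      rw [PowerSeries.subst_pow hs, PowerSeries.subst_X hs, ← pow_mul, pow_succ']
    · rw [map_map] at h4
      have : (iterateFrobenius R p h).comp (frobenius R p) = iterateFrobenius R p (h + 1) := by
        ext x
        simp [iterateFrobenius_def, frobenius_def, ← pow_mul, pow_succ']
      rwa [this] at h4

/-- `F(a,b)^{p^h} = F^{(p^h)}(a^{p^h}, b^{p^h})`. -/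
theorem fadd_pow (F : FormalGroup R) (h : ℕ) {σ : Type*} {a b : MvPowerSeries σ R}
    (ha : MvPowerSeries.constantCoeff a = 0) (hb : MvPowerSeries.constantCoeff b = 0) :
    (fadd F a b) ^ (p ^ h) = fadd (F.map (iterateFrobenius R p h)) (a ^ (p ^ h)) (b ^ (p ^ h)) := by
  have hp : p ≠ 0 := (Fact.out : p.Prime).ne_zero
  have hab := hasSubst_pair ha hb
  unfold fadd
  rw [← MvPowerSeries.subst_pow hab, ← MvPowerSeries.map_iterateFrobenius_expand p hp,
    MvPowerSeries.map_expand, MvPowerSeries.expand, MvPowerSeries.substAlgHom_apply,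
    MvPowerSeries.subst_comp_subst_apply (MvPowerSeries.HasSubst.X_pow (pow_ne_zero h hp)) hab,
    FormalGroup.map_toPowerSeries]
  congr 1
  funext s
  rw [MvPowerSeries.subst_pow hab, MvPowerSeries.subst_X hab]
  fin_cases s <;> rfl

/-- `φ(a)^{p^h} = φ^{(p^h)}(a^{p^h})`. -/
theorem cmp_pow (φ : PowerSeries R) (h : ℕ) {σ : Type*} {a : MvPowerSeries σ R}
    (ha : MvPowerSeries.constantCoeff a = 0) :
    (cmp φ a) ^ (p ^ h) =
      cmp (PowerSeries.map (iterateFrobenius R p h) φ) (a ^ (p ^ h)) := by
  have hp : p ≠ 0 := (Fact.out : p.Prime).ne_zero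
  have ha' := PowerSeries.HasSubst.of_constantCoeff_zero ha
  show (PowerSeries.subst a φ) ^ (p ^ h) = PowerSeries.subst (a ^ (p ^ h)) _
  rw [← PowerSeries.subst_pow ha']
  have h1 : (φ ^ p ^ h : PowerSeries R) =
      PowerSeries.subst (PowerSeries.X ^ (p ^ h) : PowerSeries R)
        (PowerSeries.map (iterateFrobenius R p h) φ) := by
    rw [← PowerSeries.expand_apply _ (pow_ne_zero h hp), ← PowerSeries.map_expand]
    exact (MvPowerSeries.map_iterateFrobenius_expand p hp φ h).symm
  rw [h1]
  have h2 := cmp_assoc (PowerSeries.map (iterateFrobenius R p h) φ)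
    (ψ := (PowerSeries.X ^ (p ^ h) : PowerSeries R)) (by simp [hp]) ha
  refine h2.trans ?_
  show PowerSeries.subst (PowerSeries.subst a (PowerSeries.X ^ (p ^ h) : PowerSeries R)) _ = _
  rw [PowerSeries.subst_pow ha', PowerSeries.subst_X ha']

end Crest.Agent.LU
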