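import Mathlib
import Crest.Agent.LU_A7
import Crest.Agent.LU_B2a
import Crest.Agent.LU_B2b

/-!
S0351 (blueprint LU), task B4: heights.
-/

set_option autoImplicit false

noncomputable section

namespace Crest.Agent.LU

open Crest.LubinTate

variable {p : ℕ} [Fact p.Prime] {n : ℕ} {Γ : FormalGroup (GaloisField p n)} [Γ.IsComm]
  {H : FormalGroup (LTRing p n)} [H.IsComm]

/-- TASK B4. `v_0 = p`. -/
theorem vv_zero : vv H 0 = (p : LTRing p n) := by
  unfold vv
  rw [pow_zero]
  exact coeff_one_mulSeries H p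

theorem heightIdeal_one : heightIdeal p n H 1 = Ideal.span {(p : LTRing p n)} := by
  rw [heightIdeal_succ, heightIdeal_zero, vv_zero, bot_sup_eq]

theorem heightIdeal_mono {i j : ℕ} (h : i ≤ j) : heightIdeal p n H i ≤ heightIdeal p n H j := by
  induction j, h using Nat.le_induction with
  | base => exact le_refl _
  | succ m _ ih =>
    rw [heightIdeal_succ]
    exact ih.trans le_sup_left

/-- `v_i ∈ I_j` for `i < j`. -/
theorem vv_mem {i j : ℕ} (h : i < j) : vv H i ∈ heightIdeal p n H j := by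
  refine heightIdeal_mono (Nat.succ_le_of_lt h) ?_
  rw [Nat.succ_eq_add_one, heightIdeal_succ]
  exact Ideal.mem_sup_right (Ideal.subset_span rfl)

private theorem B4_residue_vv (hΓ : mulSeries Γ p = PowerSeries.X ^ (p ^ n))
    (hH : H.map (LTRing.residue p n) = Γ) (h : ℕ) :
    LTRing.residue p n (vv H h) = if p ^ h = p ^ n then 1 else 0 := by
  have e1 : mulSeries (H.map (LTRing.residue p n)) p =
      PowerSeries.map (LTRing.residue p n) (mulSeries H p) := mulSeries_map H _ p
  rw [hH, hΓ] at e1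
  have e2 := congrArg (PowerSeries.coeff (p ^ h)) e1
  rw [PowerSeries.coeff_map, PowerSeries.coeff_X_pow] at e2
  exact e2.symm

/-- residue of `v_h` for `h < n` is `0` (`[p]_Γ = X^{p^n}`), and for `h = n` it is `1`. -/
theorem residue_vv_lt (hΓ : mulSeries Γ p = PowerSeries.X ^ (p ^ n))
    (hH : H.map (LTRing.residue p n) = Γ) {h : ℕ} (h1 : h < n) :
    LTRing.residue p n (vv H h) = 0 := by
  rw [B4_residue_vv hΓ hH h, if_neg]
  intro e
  exact absurd (Nat.pow_right_injective (Fact.out : p.Prime).two_le e) (Nat.ne_of_lt h1)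

theorem residue_vv_n (hΓ : mulSeries Γ p = PowerSeries.X ^ (p ^ n))
    (hH : H.map (LTRing.residue p n) = Γ) : LTRing.residue p n (vv H n) = 1 := by
  rw [B4_residue_vv hΓ hH n, if_pos rfl]

theorem heightIdeal_le (hΓ : mulSeries Γ p = PowerSeries.X ^ (p ^ n))
    (hH : H.map (LTRing.residue p n) = Γ) {h : ℕ} (h1 : h ≤ n) :
    heightIdeal p n H h ≤ RingHom.ker (LTRing.residue p n) := by
  induction h with
  | zero =>
    rw [heightIdeal_zero]
    exact bot_le
  | succ m ih =>
    rw [heightIdeal_succ]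
    refine sup_le (ih (by omega)) ?_
    rw [Ideal.span_singleton_le_iff_mem]
    exact residue_vv_lt hΓ hH (by omega)

/-- A proper quotient of `E₀` in which `p = 0` has characteristic `p`. -/
theorem charP_quot {J : Ideal (LTRing p n)} (hJ : J ≠ ⊤) (hp : (p : LTRing p n) ∈ J) :
    CharP (LTRing p n ⧸ J) p := by
  haveI : Nontrivial (LTRing p n ⧸ J) := Ideal.Quotient.nontrivial_iff.2 hJ
  refine (CharP.charP_iff_prime_eq_zero (Fact.out : p.Prime)).2 ?_
  have h := Ideal.Quotient.eq_zero_iff_mem.2 hp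
  rw [map_natCast] at h
  exact h

/-- Over a quotient `E₀/J` with `I_h ≤ J`, `h ≥ 1`: `[p]_H(X) = V(X^{p^h})` with
`V : H^{(p^h)} → H` a homomorphism (`frobenius_factor_iter`), and the coefficient of `X^{p^j}` in
`V` is the class of `v_{h+j}`. -/
theorem exists_V {h : ℕ} {J : Ideal (LTRing p n)} [CharP (LTRing p n ⧸ J) p]
    (hJ : heightIdeal p n H h ≤ J) :
    ∃ V : PowerSeries (LTRing p n ⧸ J),
      mulSeries (H.map (Ideal.Quotient.mk J)) p =
        cmp V (PowerSeries.X ^ (p ^ h) : PowerSeries (LTRing p n ⧸ J)) ∧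
      IsFGHom ((H.map (Ideal.Quotient.mk J)).map (iterateFrobenius (LTRing p n ⧸ J) p h))
        (H.map (Ideal.Quotient.mk J)) V ∧
      ∀ j : ℕ, PowerSeries.coeff (p ^ j) V = Ideal.Quotient.mk J (vv H (h + j)) := by
  have e1 : mulSeries (H.map (Ideal.Quotient.mk J)) p =
      PowerSeries.map (Ideal.Quotient.mk J) (mulSeries H p) := mulSeries_map H _ p
  have e2 : ∀ i : ℕ, PowerSeries.coeff (p ^ i) (mulSeries (H.map (Ideal.Quotient.mk J)) p) =
      Ideal.Quotient.mk J (vv H i) := by
    intro i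
    rw [e1, PowerSeries.coeff_map]
    rfl
  obtain ⟨V, hV1, hV2⟩ := frobenius_factor_iter p
    (hom_mulSeries (H.map (Ideal.Quotient.mk J)) p) h (by
      intro i hi
      rw [e2 i]
      exact Ideal.Quotient.eq_zero_iff_mem.2 (hJ (vv_mem hi)))
  refine ⟨V, hV1, hV2, ?_⟩
  intro j
  rw [← e2 (h + j), hV1, pow_add]
  exact (coeff_cmp_X_pow V (pow_ne_zero h (Fact.out : p.Prime).ne_zero) (p ^ j)).symm

end Crest.Agent.LU
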