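import Mathlib
import Crest.Agent.LUA_4
import Crest.Agent.LU_B2a
import Crest.Agent.LU_B2b
import Crest.Agent.LU_B2c
import Crest.Agent.LU_B4

/-!
S0351 (blueprint LU), part (5), TASK LUA-5: a derivation `D` of `A = E₀/P` with `V ∣ D V` is zero.
-/

set_option autoImplicit false

noncomputable section

namespace Crest.Agent.LUA

open Crest.LubinTate Crest.Agent.LU IsLocalRing

variable {p : ℕ} [Fact p.Prime] {n : ℕ} {Γ : FormalGroup (GaloisField p n)} [Γ.IsComm]
  {H : FormalGroup (LTRing p n)} [H.IsComm]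

theorem der_pow' {A : Type*} [CommRing A] (D : Der A) (a : A) (m : ℕ) :
    D (a ^ m) = (m : A) * (a ^ (m - 1) * D a) := by
  rw [Derivation.leibniz_pow, ← Nat.cast_smul_eq_nsmul A, smul_eq_mul, smul_eq_mul]

theorem der_ext' {A : Type*} [CommRing A] (D : Der A) (h : ∀ a, D a = 0) : D = 0 := by
  ext a
  exact h a

theorem der_add' {A : Type*} [CommRing A] (D : Der A) (a b : A) : D (a + b) = D a + D b :=
  map_add D a b

/-- A proper ideal is contained in the kernel of the residue map. -/
theorem le_ker_residue {P : Ideal (LTRing p n)} (hP : P ≠ ⊤) :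
    P ≤ RingHom.ker (LTRing.residue p n) := by
  have ht := isTest_E0 p n
  haveI := ht.isLocalRing
  rw [ht.ker_eq]
  exact IsLocalRing.le_maximalIdeal hP

/-- The residue map of `E₀/P`. -/
def resQ (P : Ideal (LTRing p n)) (hP : P ≠ ⊤) : LTRing p n ⧸ P →+* GaloisField p n :=
  Ideal.Quotient.lift P (LTRing.residue p n) (fun _ ha => le_ker_residue hP ha)

theorem isTest_A {P : Ideal (LTRing p n)} (hP : P ≠ ⊤) :
    IsTest p n (LTRing p n ⧸ P) (resQ P hP) :=
  isTest_quot (isTest_E0 p n) P _

/-- If `p ∈ P`, a derivation of `E₀/P` kills the image of `W(k)`: every `w ∈ W(k)` is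
`(w')^p + p w''` (`k` is perfect; `WittVector.constantCoeff` is surjective with kernel `(p)`), and
`D(a^p) = p a^{p-1} D a = 0` in characteristic `p`. -/
theorem derivation_const {P : Ideal (LTRing p n)} [CharP (LTRing p n ⧸ P) p]
    (D : Der (LTRing p n ⧸ P))
    (w : WittVector p (GaloisField p n)) :
    D (algebraMap (WittVector p (GaloisField p n)) (LTRing p n ⧸ P) w) = 0 := by
  obtain ⟨y, hy⟩ := (surjective_frobenius (GaloisField p n) p) (WittVector.constantCoeff w)
  have h1 : w - (WittVector.teichmuller p y) ^ p ∈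
      RingHom.ker (WittVector.constantCoeff : WittVector p (GaloisField p n) →+* _) := by
    rw [RingHom.mem_ker, map_sub, map_pow, sub_eq_zero, ← hy, frobenius_def]
    congr 1
  rw [WittVector.ker_constantCoeff, Ideal.mem_span_singleton] at h1
  obtain ⟨b, hb⟩ := h1
  have h2 : w = (WittVector.teichmuller p y) ^ p + (p : WittVector p (GaloisField p n)) * b := by
    rw [← hb]; ring
  rw [h2, map_add, map_mul, map_pow, map_natCast, CharP.cast_eq_zero, zero_mul, add_zero,
    der_pow', CharP.cast_eq_zero, zero_mul]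

/-- `D` kills `p^h`-th powers, `h ≥ 1`, so the Frobenius twist of a law does not see `D`. -/
theorem map_dlift_frob {A : Type*} [CommRing A] [CharP A p] (D : Der A)
    (G : FormalGroup A) {h : ℕ} (h1 : 1 ≤ h) :
    (G.map (iterateFrobenius A p h)).map (dlift D) =
      (G.map (iterateFrobenius A p h)).map (cst A) := by
  rw [map_map, map_map]
  congr 1
  ext a
  · simp
  · simp only [RingHom.comp_apply, snd_dlift, snd_cst, iterateFrobenius_def]
    rw [der_pow', Nat.cast_pow, CharP.cast_eq_zero, zero_pow (by omega), zero_mul]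

/-- TASK LUA-5.  Let `A = E₀/P`, `P` prime, `I_h ≤ P`, `v_h ∉ P`, `h ≥ 1`, `[p]_{H_A} = V(X^Q)`.
A derivation `D` of `A` with `V ∣ D V` is zero.

Proof.  `H_A = H.map mk`, `F = H_A^{(Q)} = H_A.map (iterateFrobenius ..)`, `V : F → H_A`.
`V'(0) ≠ 0` (it is the class of `v_h`) and `V mod m ≠ 0` (otherwise `[p]_Γ = 0`: map
`[p]_{H_A} = V(X^Q)` to the residue field, `mulSeries_map`, `map_cmp`).  `exists_theta` gives a
homomorphism `θ : H_A.map (cst A) → H_A.map (dlift D)` with `θ ≡ X` modulo `ε`.  The maps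
`φ₁ = cst ∘ mk`, `φ₂ = dlift D ∘ mk : E₀ → A[ε]` are `W(k)`-algebra homomorphisms
(`derivation_const`), compatible with the residue map `dualRes (resQ P _)` of the test ring `A[ε]`
(`isTest_dual`).  `univ_unique` gives `φ₁ = φ₂`, hence `D ∘ mk = 0` and `D = 0`. -/
theorem derivation_eq_zero {P : Ideal (LTRing p n)} (hPp : P.IsPrime)
    [CharP (LTRing p n ⧸ P) p] (hn : 1 ≤ n)
    (hΓ : mulSeries Γ p = PowerSeries.X ^ (p ^ n)) (hH : IsUniversalDeformation p n Γ H)
    {h : ℕ} (h1 : 1 ≤ h) {V : PowerSeries (LTRing p n ⧸ P)}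
    (hV : mulSeries (H.map (Ideal.Quotient.mk P)) p =
      cmp V (PowerSeries.X ^ (p ^ h) : PowerSeries (LTRing p n ⧸ P)))
    (hVhom : IsFGHom ((H.map (Ideal.Quotient.mk P)).map (iterateFrobenius (LTRing p n ⧸ P) p h))
      (H.map (Ideal.Quotient.mk P)) V)
    (hV1 : PowerSeries.coeff 1 V ≠ 0)
    (D : Der (LTRing p n ⧸ P))
    (hdiv : V ∣ (mapD D V : PowerSeries (LTRing p n ⧸ P))) : D = 0 := by
  have hP : P ≠ ⊤ := hPp.ne_top
  have ht := isTest_A hP
  haveI : IsDomain (LTRing p n ⧸ P) := (Ideal.Quotient.isDomain_iff_prime P).2 hPp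
  haveI : IsLocalRing (LTRing p n ⧸ P) := ht.isLocalRing
  haveI : IsAdicComplete (maximalIdeal (LTRing p n ⧸ P)) (LTRing p n ⧸ P) := by
    rw [← ht.ker_eq]; exact ht.complete
  have hres : (resQ P hP).comp (Ideal.Quotient.mk P) = LTRing.residue p n := by
    ext x; rfl
  have hm : PowerSeries.map (residue (LTRing p n ⧸ P)) V ≠ 0 := by
    intro h0
    have hV0 : PowerSeries.map (resQ P hP) V = 0 := by
      ext i
      have h3 := congrArg (PowerSeries.coeff i) h0
      rw [PowerSeries.coeff_map, map_zero, residue_eq_zero_iff, ← ht.ker_eq,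
        RingHom.mem_ker] at h3
      rw [PowerSeries.coeff_map, h3, map_zero]
    have h4 : mulSeries ((H.map (Ideal.Quotient.mk P)).map (resQ P hP)) p =
        PowerSeries.map (resQ P hP) (mulSeries (H.map (Ideal.Quotient.mk P)) p) :=
      mulSeries_map _ _ p
    rw [map_map, hres, hH.1, hΓ, hV] at h4
    have hX : MvPowerSeries.constantCoeff
        (PowerSeries.X ^ (p ^ h) : PowerSeries (LTRing p n ⧸ P)) = 0 := by
      have : PowerSeries.constantCoeff (PowerSeries.X ^ (p ^ h) : PowerSeries (LTRing p n ⧸ P))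
          = 0 := by
        rw [map_pow, PowerSeries.constantCoeff_X, zero_pow]
        exact pow_ne_zero h (Fact.out : p.Prime).ne_zero
      exact this
    have h5 : PowerSeries.map (resQ P hP)
        (cmp V (PowerSeries.X ^ (p ^ h) : PowerSeries (LTRing p n ⧸ P)) :
          PowerSeries (LTRing p n ⧸ P)) = 0 := by
      have h6 := map_cmp (resQ P hP) V hX
      rw [hV0] at h6
      refine h6.trans ?_
      apply cmp_zero_left
      rw [← MvPowerSeries.coeff_zero_eq_constantCoeff_apply, MvPowerSeries.coeff_map,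
        MvPowerSeries.coeff_zero_eq_constantCoeff_apply, hX, map_zero]
    rw [h5] at h4
    exact pow_ne_zero _ PowerSeries.X_ne_zero h4
  obtain ⟨θ, hθ, hθX⟩ := exists_theta (F := (H.map (Ideal.Quotient.mk P)).map
    (iterateFrobenius (LTRing p n ⧸ P) p h)) hVhom hV1 hm D (map_dlift_frob D _ h1) hdiv
  have htd := isTest_dual ht
  let φ₁ : LTRing p n →ₐ[WittVector p (GaloisField p n)] DualNumber (LTRing p n ⧸ P) :=
    { (cst (LTRing p n ⧸ P)).comp (Ideal.Quotient.mk P) with
      commutes' := fun w => rfl }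
  let φ₂ : LTRing p n →ₐ[WittVector p (GaloisField p n)] DualNumber (LTRing p n ⧸ P) :=
    { (dlift D).comp (Ideal.Quotient.mk P) with
      commutes' := fun w => by
        have hw := derivation_const (P := P) D w
        refine TrivSqZeroExt.ext ?_ ?_
        · exact fst_dlift D _
        · exact (snd_dlift D _).trans hw }
  have e1 : φ₁.toRingHom = (cst (LTRing p n ⧸ P)).comp (Ideal.Quotient.mk P) := by
    ext x <;> rfl
  have e2 : φ₂.toRingHom = (dlift D).comp (Ideal.Quotient.mk P) := by
    ext x <;> rfl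
  have key : φ₁ = φ₂ := by
    refine htd.univ_unique hH φ₁ φ₂ ?_ ?_ θ ?_ ?_
    · rw [e1]
      ext x
      rfl
    · rw [e2]
      ext x
      show (resQ P hP) ((dlift D (Ideal.Quotient.mk P x)).fst) = _
      rw [fst_dlift]
      rfl
    · rw [e1, e2, ← map_map, ← map_map]
      exact hθ
    · have h7 : dualRes (resQ P hP) = (resQ P hP).comp (pr (LTRing p n ⧸ P)) := rfl
      have h8 : PowerSeries.map ((resQ P hP).comp (pr (LTRing p n ⧸ P))) θ =
          PowerSeries.map (resQ P hP) (PowerSeries.map (pr (LTRing p n ⧸ P)) θ) := by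
        ext i
        simp only [PowerSeries.coeff_map, RingHom.comp_apply]
      rw [h7, h8, hθX, PowerSeries.map_X]
  apply der_ext'
  intro a
  obtain ⟨x, rfl⟩ := Ideal.Quotient.mk_surjective a
  have h9 := congrArg (fun f => TrivSqZeroExt.snd (f x)) key
  have h10 : TrivSqZeroExt.snd (φ₁ x) = 0 := snd_cst _
  have h11 : TrivSqZeroExt.snd (φ₂ x) = D (Ideal.Quotient.mk P x) := snd_dlift D _
  simp only [h10, h11] at h9
  exact h9.symm

end Crest.Agent.LUA
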