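import Mathlib

/-!
S0351 (blueprint LU), part (5): `p`-independence and `p`-degree of a field of characteristic `p`.
-/

set_option autoImplicit false

noncomputable section

namespace Crest.Agent.LUA

variable {K : Type*} [Field K] (p : ℕ) [Fact p.Prime] [CharP K p]

/-- The subfield `K^p(S)` of `K`. -/
def padj (S : Set K) : Subfield K :=
  Subfield.closure (Set.range (frobenius K p) ∪ S)

/-- `p`-independence: no `τ u` lies in `K^p(τ j : j ≠ u)`. -/
def PIndep {ι : Type*} (τ : ι → K) : Prop := ∀ u, τ u ∉ padj p (τ '' {j | j ≠ u})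

/-- `[K : K^p] ≤ p^e`. -/
structure PDegLE (K : Type*) [Field K] (p : ℕ) [Fact p.Prime] [CharP K p] (e : ℕ) : Prop where
  /-- `K` is finite over `K^p` -/
  finite : Module.Finite (frobenius K p).fieldRange K
  /-- `[K : K^p] ≤ p^e` -/
  le : Module.finrank (frobenius K p).fieldRange K ≤ p ^ e

theorem pow_mem_padj (S : Set K) (x : K) : x ^ p ∈ padj p S :=
  Subfield.subset_closure (Or.inl ⟨x, rfl⟩)

theorem subset_padj (S : Set K) : S ⊆ padj p S :=
  fun _ hx => Subfield.subset_closure (Or.inr hx)

theorem padj_mono {S T : Set K} (h : S ⊆ T) : padj p S ≤ padj p T :=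
  Subfield.closure_mono (Set.union_subset_union_right _ h)

end Crest.Agent.LUA
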