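import Mathlib
import Crest.Agent.LUA_FDefs

/-!
S0351 (blueprint LU), part (5), TASK LUA-F1: counting `p`-independent elements.

Let `L_i = K^p(τ_0, ..., τ_{i-1})` (a subfield of `K` containing `K^p`).  If `τ_i ∉ L_i` then
`[L_{i+1} : L_i] = p`: `τ_i^p ∈ K^p ⊆ L_i` and `X^p - τ_i^p` is irreducible over `L_i`
(Mathlib: `X_pow_sub_C_irreducible_of_prime`-type lemmas, or `IsPurelyInseparable`/minpoly degree of
an element of a purely inseparable extension of exponent one).  Hence `[K^p(τ) : K^p] = p^r` and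
`p^r ≤ [K : K^p] ≤ p^e`.  (Alternatively show that the monomials `τ^α`, `0 ≤ α_i < p`, are linearly
independent over `K^p`.)  If `r = e` the field `K^p(τ)` has degree `p^e ≥ [K:K^p]` so it is `K`.
Hint: use `IntermediateField (frobenius K p).fieldRange K` and `IntermediateField.adjoin`.
-/

set_option autoImplicit false

noncomputable section

namespace Crest.Agent.LUA

variable {K : Type*} [Field K] {p : ℕ} [Fact p.Prime] [CharP K p]

/-- `p`-independence passes to initial segments (or any injective reindexing). -/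
theorem PIndep.comp {ι ι' : Type*} {τ : ι → K} (h : PIndep p τ) {f : ι' → ι}
    (hf : Function.Injective f) : PIndep p (τ ∘ f) := by
  intro u hu
  apply h (f u)
  refine padj_mono p ?_ hu
  rintro _ ⟨j, hj, rfl⟩
  exact ⟨f j, fun h0 => hj (hf h0), rfl⟩

open Polynomial IntermediateField in
private theorem F1_step (L L' : Subfield K) (hLL : L ≤ L') (hk : ∀ y : K, y ^ p ∈ L) {x : K}
    (hx : x ∉ L) (hx' : x ∈ L') (hfin : 0 < Module.finrank L K) :
    p * Module.finrank L' K ≤ Module.finrank L K := by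
  have hp : p.Prime := Fact.out
  have hirr : Irreducible (X ^ p - C (⟨x ^ p, hk x⟩ : L)) := by
    refine X_pow_sub_C_irreducible_of_prime hp ?_
    intro b hb
    apply hx
    have h1 : (b : K) ^ p = x ^ p := congrArg Subtype.val hb
    have h2 : (b : K) = x := frobenius_inj K p h1
    rw [← h2]
    exact b.2
  have hmonic : (X ^ p - C (⟨x ^ p, hk x⟩ : L)).Monic := monic_X_pow_sub_C _ hp.ne_zero
  have hroot : Polynomial.aeval x (X ^ p - C (⟨x ^ p, hk x⟩ : L)) = 0 := by
    rw [map_sub, map_pow, aeval_X, aeval_C]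
    exact sub_self _
  have hmin : minpoly L x = X ^ p - C (⟨x ^ p, hk x⟩ : L) :=
    (minpoly.eq_of_irreducible_of_monic hirr hroot hmonic).symm
  have hint : IsIntegral L x := ⟨_, hmonic, hroot⟩
  have h1 : Module.finrank L L⟮x⟯ = p := by
    rw [IntermediateField.adjoin.finrank hint, hmin, natDegree_X_pow_sub_C]
  have h2 : Module.finrank L L⟮x⟯ * Module.finrank L⟮x⟯ K = Module.finrank L K :=
    Module.finrank_mul_finrank L L⟮x⟯ K
  have hle : (L⟮x⟯).toSubfield ≤ L' := by
    show Subfield.closure _ ≤ L'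
    rw [Subfield.closure_le]
    rintro y (⟨z, rfl⟩ | hy)
    · exact hLL z.2
    · rw [Set.mem_singleton_iff] at hy
      rw [hy]; exact hx'
  have h3 : Subfield.relfinrank (L⟮x⟯).toSubfield L' * Module.finrank L' K = Module.finrank (L⟮x⟯).toSubfield K :=
    Subfield.relfinrank_mul_finrank_top hle
  have h4 : Module.finrank (L⟮x⟯).toSubfield K = Module.finrank L⟮x⟯ K := rfl
  rw [h4] at h3
  rw [h1, ← h3] at h2
  rw [← h2] at hfin ⊢
  have h5 : 0 < Subfield.relfinrank (L⟮x⟯).toSubfield L' := by
    rcases Nat.eq_zero_or_pos (Subfield.relfinrank (L⟮x⟯).toSubfield L') with h | h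
    · rw [h] at hfin; simp at hfin
    · exact h
  refine Nat.mul_le_mul_left p ?_
  exact Nat.le_mul_of_pos_left _ h5

/-- the chain of subfields -/
private def F1c (p : ℕ) [Fact p.Prime] [CharP K p] {r : ℕ} (τ : Fin r → K) (i : ℕ) : Subfield K :=
  padj p (τ '' {j | j.1 < i})

private theorem F1_base (S : Set K) : (frobenius K p).fieldRange ≤ padj p S := by
  rintro y ⟨x, rfl⟩
  exact pow_mem_padj p S x

private theorem F1_pos {e : ℕ} (hK : PDegLE K p e) (S : Set K) : 0 < Module.finrank (padj p S) K := by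
  have h0 : 0 < Module.finrank (frobenius K p).fieldRange K := by
    haveI := hK.finite
    exact Module.finrank_pos
  have h1 := Subfield.relfinrank_mul_finrank_top (F1_base (p := p) S)
  rw [← h1] at h0
  exact Nat.pos_of_mul_pos_left h0

private theorem F1_le {e : ℕ} (hK : PDegLE K p e) (S : Set K) : Module.finrank (padj p S) K ≤ p ^ e := by
  have h0 : 0 < Module.finrank (frobenius K p).fieldRange K := by
    haveI := hK.finite
    exact Module.finrank_pos
  have h1 := Subfield.relfinrank_mul_finrank_top (F1_base (p := p) S)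
  refine le_trans ?_ hK.le
  rw [← h1] at h0 ⊢
  exact Nat.le_mul_of_pos_left _ (Nat.pos_of_mul_pos_right h0)

private theorem F1_chain {e : ℕ} (hK : PDegLE K p e) {r : ℕ} {τ : Fin r → K} (h : PIndep p τ) :
    ∀ i, i ≤ r → p ^ i * Module.finrank (F1c p τ i) K ≤ p ^ e := by
  intro i
  induction i with
  | zero =>
    intro _
    rw [pow_zero, one_mul]
    exact F1_le hK _
  | succ i ih =>
    intro hi
    refine le_trans ?_ (ih (by omega))
    rw [pow_succ, mul_assoc]
    refine Nat.mul_le_mul_left _ ?_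
    have hi' : i < r := by omega
    refine F1_step (x := τ ⟨i, hi'⟩) _ _ ?_ ?_ ?_ ?_ (F1_pos hK _)
    · apply padj_mono
      apply Set.image_mono
      intro j hj
      exact Nat.lt_succ_of_lt hj
    · exact fun y => pow_mem_padj p _ y
    · intro hmem
      apply h ⟨i, hi'⟩
      refine padj_mono p ?_ hmem
      apply Set.image_mono
      intro j hj h0
      rw [h0] at hj
      exact lt_irrefl i hj
    · apply subset_padj
      exact ⟨⟨i, hi'⟩, Nat.lt_succ_self i, rfl⟩

/-- TASK LUA-F1a. -/
theorem card_le_of_pindep {e : ℕ} (hK : PDegLE K p e) {r : ℕ} {τ : Fin r → K}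
    (h : PIndep p τ) : r ≤ e := by
  have hp : p.Prime := Fact.out
  have h1 := F1_chain hK h r le_rfl
  have h2 : 0 < Module.finrank (F1c p τ r) K := F1_pos hK _
  have h3 : p ^ r ≤ p ^ e := le_trans (Nat.le_mul_of_pos_right _ h2) h1
  exact (Nat.pow_le_pow_iff_right hp.one_lt).mp h3

/-- TASK LUA-F1b. -/
theorem padj_eq_top_of_pindep {e : ℕ} (hK : PDegLE K p e) {τ : Fin e → K}
    (h : PIndep p τ) : padj p (Set.range τ) = ⊤ := by
  have hp : p.Prime := Fact.out
  have h1 := F1_chain hK h e le_rfl
  have h2 : 0 < Module.finrank (F1c p τ e) K := F1_pos hK _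
  have h3 : Module.finrank (F1c p τ e) K ≤ 1 := by
    have hpe : 0 < p ^ e := pow_pos hp.pos e
    by_contra hcon
    push Not at hcon
    have : p ^ e * 2 ≤ p ^ e * Module.finrank (F1c p τ e) K := Nat.mul_le_mul_left _ hcon
    omega
  have h4 : Module.finrank (F1c p τ e) K = 1 := le_antisymm h3 h2
  have h5 : F1c p τ e = padj p (Set.range τ) := by
    unfold F1c
    congr 1
    ext y
    constructor
    · rintro ⟨j, _, rfl⟩
      exact ⟨j, rfl⟩
    · rintro ⟨j, rfl⟩
      exact ⟨j, j.2, rfl⟩
  rw [← h5, eq_top_iff]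
  intro y _
  obtain ⟨c, hc⟩ := (finrank_eq_one_iff_of_nonzero' (K := F1c p τ e) (1 : K) one_ne_zero).mp h4 y
  rw [← hc]
  have : c • (1:K) = (c : K) := by
    rw [Subfield.smul_def, smul_eq_mul, mul_one]
  rw [this]
  exact c.2

end Crest.Agent.LUA
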