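import Mathlib
import Crest.Agent.LUA_FDefs

/-!
S0351 (blueprint LU), part (5), TASK LUA-F2: `[K₁ : K₁^p] = [K : K^p]` for a finite extension.

Proof: inside `K₁` let `L` be the image of `K`; `L^p = L.map (frobenius K₁ p)`,
`K₁^p = ⊤.map (frobenius K₁ p)`.  By `Subfield.relfinrank_map_map` (or `relrank`),
`[K₁^p : L^p] = [K₁ : L]`; the tower formulas
`[K₁ : L^p] = [K₁ : K₁^p][K₁^p : L^p] = [K₁ : L][L : L^p]` give the claim
(`Subfield.relfinrank_mul_relfinrank`), all degrees being finite and nonzero.
-/

set_option autoImplicit false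

noncomputable section

namespace Crest.Agent.LUA

/-- TASK LUA-F2a. -/
theorem PDegLE.extend {K K₁ : Type*} [Field K] [Field K₁] [Algebra K K₁] {p : ℕ} [Fact p.Prime]
    [CharP K p] [CharP K₁ p] [FiniteDimensional K K₁] {e : ℕ} (h : PDegLE K p e) :
    PDegLE K₁ p e := by
  set i : K →+* K₁ := algebraMap K K₁ with hi
  set F : K₁ →+* K₁ := frobenius K₁ p with hF
  have hcomm : F.comp i = i.comp (frobenius K p) := by
    ext x
    simp only [hF, RingHom.comp_apply, frobenius_def, map_pow]
  -- the image of K
  have hM : Subfield.map i ⊤ = i.fieldRange := (RingHom.fieldRange_eq_map i).symm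
  have hP : Subfield.map F ⊤ = F.fieldRange := (RingHom.fieldRange_eq_map F).symm
  have hL : Subfield.map F i.fieldRange = Subfield.map i (frobenius K p).fieldRange := by
    rw [RingHom.fieldRange_eq_map i, RingHom.fieldRange_eq_map (frobenius K p),
      Subfield.map_map, Subfield.map_map, hcomm]
  have h1 : Subfield.relfinrank (Subfield.map F i.fieldRange) F.fieldRange =
      Subfield.relfinrank i.fieldRange ⊤ := by
    rw [← hP]
    exact Subfield.relfinrank_map_map _ _ F
  have h2 : Subfield.relfinrank (Subfield.map F i.fieldRange) i.fieldRange =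
      Module.finrank (frobenius K p).fieldRange K := by
    rw [hL, ← hM, Subfield.relfinrank_map_map, Subfield.relfinrank_top_right]
  have h3 : Subfield.relfinrank i.fieldRange ⊤ = Module.finrank K K₁ := by
    rw [Subfield.relfinrank_top_right]
    refine (Algebra.finrank_eq_of_equiv_equiv i.rangeRestrictFieldEquiv (RingEquiv.refl K₁)
      ?_).symm
    ext x
    rfl
  have h4 : 0 < Module.finrank K K₁ := Module.finrank_pos
  have hle1 : Subfield.map F i.fieldRange ≤ F.fieldRange := by
    rw [← hP]
    exact (Subfield.gc_map_comap _).monotone_l le_top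
  have hle2 : Subfield.map F i.fieldRange ≤ i.fieldRange := by
    rw [hL, ← hM]
    exact (Subfield.gc_map_comap _).monotone_l le_top
  have t1 := Subfield.relfinrank_mul_relfinrank hle1 (le_top : F.fieldRange ≤ ⊤)
  have t2 := Subfield.relfinrank_mul_relfinrank hle2 (le_top : i.fieldRange ≤ ⊤)
  rw [h1, h3] at t1
  rw [h2, h3, ← t1, mul_comm] at t2
  have t3 : Module.finrank (frobenius K p).fieldRange K = Subfield.relfinrank F.fieldRange ⊤ :=
    Nat.eq_of_mul_eq_mul_left h4 t2
  rw [Subfield.relfinrank_top_right] at t3
  haveI := h.finite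
  have h5 : 0 < Module.finrank (frobenius K p).fieldRange K := Module.finrank_pos
  constructor
  · apply Module.finite_of_finrank_pos
    rw [← hF, ← t3]
    exact h5
  · rw [← hF, ← t3]
    exact h.le

/-- TASK LUA-F2b.  `A` a domain of characteristic `p`, generated as a module over the subring of
`p`-th powers by `p^e` elements: then `[K : K^p] ≤ p^e` for the fraction field `K`
(an element of `K` is `a/b = a b^{p-1}/b^p`). -/
theorem pDegLE_of_generators {A K : Type*} [CommRing A] [IsDomain A] [Field K] [Algebra A K]
    [IsFractionRing A K] {p : ℕ} [Fact p.Prime] [CharP A p] [CharP K p] {e : ℕ}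
    (g : Fin (p ^ e) → A)
    (hg : ∀ a : A, ∃ c : Fin (p ^ e) → A, a = ∑ i, c i ^ p * g i) : PDegLE K p e := by
  have hspan : Submodule.span (frobenius K p).fieldRange
      (Set.range (fun i => algebraMap A K (g i))) = ⊤ := by
    rw [eq_top_iff]
    intro x _
    obtain ⟨a, b, hb, rfl⟩ := IsFractionRing.div_surjective (A := A) x
    have hb0 : algebraMap A K b ≠ 0 := by
      rw [Ne, IsFractionRing.to_map_eq_zero_iff]
      exact nonZeroDivisors.ne_zero hb
    have hp0 : p ≠ 0 := (Fact.out : p.Prime).ne_zero
    obtain ⟨c, hc⟩ := hg (a * b ^ (p - 1))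
    have h1 : algebraMap A K a / algebraMap A K b =
        ∑ i, (algebraMap A K (c i) / algebraMap A K b) ^ p * algebraMap A K (g i) := by
      have h2 := congrArg (algebraMap A K) hc
      rw [map_mul, map_pow, map_sum] at h2
      simp only [map_mul, map_pow] at h2
      have h3 : algebraMap A K a / algebraMap A K b =
          (algebraMap A K a * algebraMap A K b ^ (p - 1)) / algebraMap A K b ^ p := by
        rw [div_eq_div_iff hb0 (pow_ne_zero _ hb0), mul_assoc, ← pow_succ,
          Nat.sub_add_cancel (Nat.one_le_iff_ne_zero.2 hp0)]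
      rw [h3, h2, Finset.sum_div]
      refine Finset.sum_congr rfl fun i _ => ?_
      rw [div_pow, div_mul_eq_mul_div]
    rw [h1]
    refine Submodule.sum_mem _ fun i _ => ?_
    have h4 : (algebraMap A K (c i) / algebraMap A K b) ^ p * algebraMap A K (g i) =
        (⟨(algebraMap A K (c i) / algebraMap A K b) ^ p,
          ⟨algebraMap A K (c i) / algebraMap A K b, rfl⟩⟩ : (frobenius K p).fieldRange) •
          algebraMap A K (g i) := rfl
    rw [h4]
    exact Submodule.smul_mem _ _ (Submodule.subset_span ⟨i, rfl⟩)
  constructor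
  · exact ⟨⟨(Set.finite_range _).toFinset, by rw [Set.Finite.coe_toFinset]; exact hspan⟩⟩
  · have h1 := finrank_range_le_card (R := (frobenius K p).fieldRange)
      (b := fun i => algebraMap A K (g i))
    unfold Set.finrank at h1
    rw [hspan, finrank_top, Fintype.card_fin] at h1
    exact h1

end Crest.Agent.LUA
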