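import Mathlib
import Crest.Agent.LUA_FDefs

/-!
S0351 (blueprint LU), part (5), TASK LUA-F3: elements of `K^p(w)` as polynomials in `w`, and
derivatives of such polynomials.
-/

set_option autoImplicit false

noncomputable section

namespace Crest.Agent.LUA

open MvPolynomial

variable {K : Type*} [Field K] {p : ℕ} [Fact p.Prime] [CharP K p]

/-- The values `G(w)^{(p)}` with no bound on the degree form a subfield. -/
private def f3Sub {r : ℕ} (w : Fin r → K) : Subfield K where
  carrier := {z | ∃ G : MvPolynomial (Fin r) K, z = eval w (G.map (frobenius K p))}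
  mul_mem' := by
    rintro a b ⟨G, rfl⟩ ⟨H, rfl⟩
    exact ⟨G * H, by simp⟩
  one_mem' := ⟨1, by simp⟩
  add_mem' := by
    rintro a b ⟨G, rfl⟩ ⟨H, rfl⟩
    exact ⟨G + H, by simp⟩
  zero_mem' := ⟨0, by simp⟩
  neg_mem' := by
    rintro a ⟨G, rfl⟩
    exact ⟨-G, by simp⟩
  inv_mem' := by
    rintro a ⟨G, hG⟩
    refine ⟨G ^ (p - 1) * C (a⁻¹), ?_⟩
    have hp : 0 < p := (Fact.out : p.Prime).pos
    rw [map_mul, map_mul, map_pow, map_pow, ← hG, map_C, eval_C, frobenius_def, inv_pow]
    by_cases ha : a = 0
    · subst ha
      simp [zero_pow hp.ne']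
    · rw [← div_eq_mul_inv, eq_div_iff (pow_ne_zero _ ha)]
      have : p = (p - 1) + 1 := by omega
      conv_lhs => rw [this, pow_succ]
      field_simp

/-- TASK LUA-F3a.  Every element of `K^p(w)` is a polynomial in `w` with coefficients in `K^p`, of
degree `< p` in each variable.  (The set of such values is a subring containing `K^p` and the `w_j`
-- reduce exponents using `w_j^p ∈ K^p`; it is closed under inverses since
`x⁻¹ = x^{p-1} (x⁻¹)^p`.) -/
theorem exists_poly_of_mem_padj {r : ℕ} (w : Fin r → K) {z : K}
    (hz : z ∈ padj p (Set.range w)) :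
    ∃ G : MvPolynomial (Fin r) K, (∀ j, G.degreeOf j < p) ∧
      z = eval w (G.map (frobenius K p)) := by
  have hp : 0 < p := (Fact.out : p.Prime).pos
  have h1 : padj p (Set.range w) ≤ f3Sub (p := p) w := by
    unfold padj
    rw [Subfield.closure_le]
    rintro x (⟨y, rfl⟩ | ⟨j, rfl⟩)
    · exact ⟨C y, by simp⟩
    · exact ⟨X j, by simp⟩
  obtain ⟨G, hG⟩ := h1 hz
  -- reduce the exponents
  let red : (Fin r →₀ ℕ) → (Fin r →₀ ℕ) := fun α => Finsupp.equivFunOnFinite.symm fun j => α j % p
  refine ⟨∑ α ∈ G.support, monomial (red α) (G.coeff α * ∏ j, w j ^ (α j / p)), ?_, ?_⟩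
  · intro j
    refine lt_of_le_of_lt (degreeOf_sum_le _ _ _) ?_
    rw [Finset.sup_lt_iff (by simpa using hp)]
    intro α _
    by_cases h0 : (G.coeff α * ∏ j, w j ^ (α j / p)) = 0
    · rw [h0]; simpa using hp
    · rw [degreeOf_monomial_eq _ _ h0]
      simpa [red] using Nat.mod_lt _ hp
  · rw [hG, map_sum, map_sum]
    rw [eval_map, eval₂_eq']
    refine Finset.sum_congr rfl fun α _ => ?_
    rw [map_monomial, eval_monomial, frobenius_def, frobenius_def, mul_pow, mul_assoc]
    congr 1
    rw [Finsupp.prod_fintype _ _ (by simp), ← Finset.prod_pow, ← Finset.prod_mul_distrib]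
    refine Finset.prod_congr rfl fun j _ => ?_
    simp only [red, Finsupp.equivFunOnFinite_symm_apply_apply]
    rw [← pow_mul, ← pow_add, mul_comm, Nat.div_add_mod]

/-- A non-`p`-th-power root of `X^p - a` is not killed by a polynomial of degree `< p`. -/
private theorem f3_poly_eq_zero (L : Subfield K) {x : K} (hx : x ∉ L) (hxp : x ^ p ∈ L)
    (q : Polynomial K) (hq : ∀ i, q.coeff i ∈ L) (hd : q.natDegree < p) (h0 : q.eval x = 0) :
    q = 0 := by
  have hpp : p.Prime := Fact.out
  by_contra hne
  obtain ⟨q', hq'⟩ : ∃ q' : Polynomial L, q'.map L.subtype = q := by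
    have : q ∈ Polynomial.lifts L.subtype := by
      rw [Polynomial.lifts_iff_coeff_lifts]
      intro i
      exact ⟨⟨q.coeff i, hq i⟩, rfl⟩
    exact this
  have hinj : Function.Injective L.subtype := L.subtype.injective
  have hq'0 : q' ≠ 0 := by
    rintro rfl
    apply hne
    rw [← hq', Polynomial.map_zero]
  let a : L := ⟨x ^ p, hxp⟩
  have hirr : Irreducible (Polynomial.X ^ p - Polynomial.C a) := by
    refine X_pow_sub_C_irreducible_of_prime hpp fun b hb => hx ?_
    have h2 : (b : K) ^ p = x ^ p := by
      have := congrArg (Subtype.val) hb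
      simpa [a] using this
    have h3 : (b : K) = x := frobenius_inj K p (by simpa [frobenius_def] using h2)
    rw [← h3]
    exact b.2
  have hmon : (Polynomial.X ^ p - Polynomial.C a).Monic :=
    Polynomial.monic_X_pow_sub_C a hpp.ne_zero
  have hmin : Polynomial.X ^ p - Polynomial.C a = minpoly L x := by
    refine minpoly.eq_of_irreducible_of_monic hirr ?_ hmon
    have : (algebraMap L K) a = x ^ p := rfl
    simp [this]
  have hae : Polynomial.aeval x q' = 0 := by
    rw [Polynomial.aeval_def, ← Polynomial.eval_map]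
    have : (algebraMap L K) = L.subtype := rfl
    rw [this, hq', h0]
  have hle := Polynomial.natDegree_le_natDegree (minpoly.degree_le_of_ne_zero L x hq'0 hae)
  rw [← hmin, Polynomial.natDegree_X_pow_sub_C] at hle
  have : q.natDegree = q'.natDegree := by
    rw [← hq', Polynomial.natDegree_map_eq_of_injective hinj]
  omega

/-- TASK LUA-F3b.  If `w` is `p`-independent, the monomials `w^α`, `0 ≤ α_j < p`, are linearly
independent over `K^p`.  (Induction on the number of variables: `w_{r-1}` has degree `p` over
`K^p(w_0..w_{r-2})`, since `X^p - w^p` is irreducible.) -/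
theorem eq_zero_of_eval_eq_zero {r : ℕ} {w : Fin r → K} (hw : PIndep p w)
    (G : MvPolynomial (Fin r) K) (hG : ∀ j, G.degreeOf j < p)
    (h0 : eval w (G.map (frobenius K p)) = 0) : G = 0 := by
  have hpp : p.Prime := Fact.out
  have hp : 0 < p := hpp.pos
  induction r with
  | zero =>
    have hC : G = C (G.coeff 0) := by
      ext m
      rw [Subsingleton.elim m 0]
      simp
    rw [hC] at h0 ⊢
    rw [map_C, eval_C, frobenius_def] at h0
    rw [pow_eq_zero_iff hp.ne'] at h0
    rw [h0, C_0]
  | succ n ih =>
    -- the tail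
    have hwt : PIndep p (fun j : Fin n => w j.succ) := by
      intro u hu
      refine hw u.succ (padj_mono p ?_ hu)
      rintro x ⟨j, hj, rfl⟩
      exact ⟨j.succ, fun h => hj (Fin.succ_injective _ h), rfl⟩
    have hw0 : w 0 ∉ padj p (Set.range fun j : Fin n => w j.succ) := by
      intro hu
      refine hw 0 (padj_mono p ?_ hu)
      rintro x ⟨j, rfl⟩
      exact ⟨j.succ, Fin.succ_ne_zero j, rfl⟩
    have hcons : w = Fin.cons (w 0) (fun j : Fin n => w j.succ) := by
      funext j
      refine Fin.cases ?_ (fun j => ?_) j <;> simp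
    rw [hcons, eval_eq_eval_mv_eval'] at h0
    set Q := finSuccEquiv K n G with hQ
    have hmapQ : finSuccEquiv K n (G.map (frobenius K p)) =
        Q.map (MvPolynomial.map (frobenius K p)) := by
      ext i m
      rw [finSuccEquiv_coeff_coeff, coeff_map, Polynomial.coeff_map, coeff_map, hQ,
        finSuccEquiv_coeff_coeff]
    rw [hmapQ] at h0
    have hkill := f3_poly_eq_zero (p := p) (padj p (Set.range fun j : Fin n => w j.succ)) hw0
      (pow_mem_padj p _ _) _ ?_ ?_ h0
    · have hcoef : ∀ i, Q.coeff i = 0 := by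
        intro i
        refine ih hwt _ (fun j => lt_of_le_of_lt (degreeOf_coeff_finSuccEquiv G j i) (hG _)) ?_
        have := congrArg (fun P => Polynomial.coeff P i) hkill
        simpa [Polynomial.coeff_map] using this
      have hQ0 : Q = 0 := by
        ext1 i
        rw [hcoef i, Polynomial.coeff_zero]
      rw [hQ] at hQ0
      exact (map_eq_zero_iff _ (finSuccEquiv K n).injective).1 hQ0
    · intro i
      rw [Polynomial.coeff_map, Polynomial.coeff_map, eval_map, eval₂_eq']
      refine Subfield.sum_mem _ fun α _ => Subfield.mul_mem _ ?_ ?_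
      · rw [frobenius_def]
        exact pow_mem_padj p _ _
      · refine Subfield.prod_mem _ fun j _ => Subfield.pow_mem _ ?_ _
        exact subset_padj p _ ⟨j, rfl⟩
    · refine lt_of_le_of_lt Polynomial.natDegree_map_le ?_
      refine lt_of_le_of_lt Polynomial.natDegree_map_le ?_
      rw [hQ, natDegree_finSuccEquiv]
      exact hG 0

/-- TASK LUA-F3c.  If `w` is `p`-independent, `z = G(w)` with `G` of degree `< p` in each variable
and coefficients in `K^p`, and all partial derivatives of `G` vanish at `w`, then `z ∈ K^p`.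
(`∂_j G` has again degrees `< p` and coefficients in `K^p` -- natural numbers are `p`-th powers of
themselves in characteristic `p` -- so `∂_j G = 0` for all `j` by F3b; since the exponents are `< p`,
`G` is constant.) -/
theorem mem_range_frobenius_of_pderiv {r : ℕ} {w : Fin r → K} (hw : PIndep p w)
    (G : MvPolynomial (Fin r) K) (hG : ∀ j, G.degreeOf j < p)
    (h0 : ∀ j, eval w (pderiv j (G.map (frobenius K p))) = 0) :
    ∃ y : K, eval w (G.map (frobenius K p)) = y ^ p := by
  have hpp : p.Prime := Fact.out
  have hp : 0 < p := hpp.pos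
  have hder : ∀ j, pderiv j G = 0 := by
    intro j
    refine eq_zero_of_eval_eq_zero hw _ (fun i => ?_) ?_
    · rw [degreeOf_lt_iff hp]
      intro m hm
      rw [mem_support_iff, coeff_pderiv] at hm
      have h1 : G.coeff (m + Finsupp.single j 1) ≠ 0 := fun h => hm (by rw [h, zero_mul])
      have h2 := (degreeOf_lt_iff hp).1 (hG i) _ (mem_support_iff.2 h1)
      refine lt_of_le_of_lt ?_ h2
      simp
    · rw [← pderiv_map]
      exact h0 j
  have hC : G = C (G.coeff 0) := by
    ext m
    rw [coeff_C]
    split_ifs with h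
    · rw [h]
    · obtain ⟨j, hj⟩ : ∃ j, m j ≠ 0 := by
        by_contra hcon
        push Not at hcon
        apply h
        ext j
        simp [hcon j]
      by_contra hne
      have h1 := (degreeOf_lt_iff hp).1 (hG j) _ (mem_support_iff.2 hne)
      have h2 : coeff (m - Finsupp.single j 1) (pderiv j G) = 0 := by rw [hder j, coeff_zero]
      rw [coeff_pderiv] at h2
      have h3 : m - Finsupp.single j 1 + Finsupp.single j 1 = m := by
        ext i
        by_cases hi : i = j
        · subst hi
          simp
          omega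
        · simp [Ne.symm hi]
      rw [h3] at h2
      have h4 : (((m - Finsupp.single j 1 : Fin r →₀ ℕ) j : ℕ) : K) + 1 = ((m j : ℕ) : K) := by
        have : (m - Finsupp.single j 1 : Fin r →₀ ℕ) j = m j - 1 := by simp
        rw [this]
        have h5 : m j = (m j - 1) + 1 := by omega
        conv_rhs => rw [h5]
        push_cast
        ring
      rw [h4] at h2
      rcases mul_eq_zero.1 h2 with h5 | h5
      · exact hne h5
      · rw [CharP.cast_eq_zero_iff K p] at h5
        exact absurd (Nat.le_of_dvd (Nat.pos_of_ne_zero hj) h5) (by omega)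
  refine ⟨G.coeff 0, ?_⟩
  conv_lhs => rw [hC]
  rw [map_C, eval_C, frobenius_def]

end Crest.Agent.LUA
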