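import Mathlib
import Crest.Agent.LUA_FDefs
import Crest.Agent.LUA_Defs

/-!
S0351 (blueprint LU), part (5), TASK LUA-F4: generation of `K` over `K^p` from the vanishing of
derivations; derivations of the fraction field of a ring which is finite over its `p`-th powers.
-/

set_option autoImplicit false

noncomputable section

namespace Crest.Agent.LUA

/-- TASK LUA-F4a.  Let `K` be finite over `K^p`.  If every derivation of `K` killing `S` is zero,
then `K^p(S) = K`.
Proof: let `F = K^p(S)`, suppose `F ≠ ⊤`; `K/F` is finite.  If every `F`-derivation `K → K` is zero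
then `Ω[K/F] = 0` (a `K`-vector space whose dual `Derivation F K K` vanishes), i.e. `K/F` is
formally unramified, hence separable (`Algebra.FormallyUnramified.iff_isSeparable` or similar), but
it is purely inseparable (`x^p ∈ F`), so `F = K`.  (Or directly: choose a maximal proper subfield
`F' ⊇ F`, `a ∉ F'`, `K = F'(a) = F'[X]/(X^p - a^p)`, and take `d/dX`.)  An `F`-derivation is in
particular a `ℤ`-derivation killing `S`. -/
theorem padj_eq_top_of_derivation {K : Type*} [Field K] {p : ℕ} [Fact p.Prime] [CharP K p]
    (hfin : Module.Finite (frobenius K p).fieldRange K) (S : Set K)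
    (h : ∀ D : Der K, (∀ s ∈ S, D s = 0) → D = 0) : padj p S = ⊤ := by
  have hle : (frobenius K p).fieldRange ≤ padj p S := by
    rintro _ ⟨x, rfl⟩
    exact Subfield.subset_closure (Or.inl ⟨x, rfl⟩)
  -- `K` is finite over `F`
  have hfinF : Module.Finite (padj p S) K := by
    obtain ⟨s, hs⟩ := hfin.fg_top
    refine ⟨⟨s, ?_⟩⟩
    rw [eq_top_iff]
    intro x _
    have hx : x ∈ Submodule.span (frobenius K p).fieldRange (s : Set K) := by rw [hs]; trivial
    induction hx using Submodule.span_induction with
    | mem x hx => exact Submodule.subset_span hx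
    | zero => exact Submodule.zero_mem _
    | add x y _ _ hx hy => exact Submodule.add_mem _ (hx trivial) (hy trivial)
    | smul a x _ hx =>
      have : a • x = (⟨(a : K), hle a.2⟩ : padj p S) • x := rfl
      rw [this]
      exact Submodule.smul_mem _ _ (hx trivial)
  -- unramified
  have hunr : Algebra.FormallyUnramified (padj p S) K := by
    constructor
    refine ⟨fun v w => ?_⟩
    rw [← sub_eq_zero]
    rw [← Module.forall_dual_apply_eq_zero_iff K]
    intro f
    let D : Derivation (padj p S) K K := f.compDer (KaehlerDifferential.D (padj p S) K)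
    have hD : D = 0 := by
      have h0 : (D.restrictScalars ℤ : Der K) = 0 := by
        apply h
        intro s hs
        have h1 : D (algebraMap (padj p S) K ⟨s, subset_padj p S hs⟩) = 0 :=
          D.map_algebraMap _
        exact h1
      ext x
      exact congrArg (fun E : Der K => E x) h0
    have hf : f = 0 := by
      apply (KaehlerDifferential.linearMapEquivDerivation (padj p S) K).injective
      rw [map_zero]
      exact hD
    rw [hf]
    rfl
  have hsep : Algebra.IsSeparable (padj p S) K :=
    (Algebra.FormallyUnramified.iff_isSeparable (padj p S) K).1 hunr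
  haveI : CharP (padj p S) p := inferInstance
  haveI : ExpChar (padj p S) p := ExpChar.prime (Fact.out)
  have hpi : IsPurelyInseparable (padj p S) K := by
    rw [isPurelyInseparable_iff_pow_mem (padj p S) p]
    intro x
    refine ⟨1, ⟨⟨x ^ p, pow_mem_padj p S x⟩, ?_⟩⟩
    rw [pow_one]
    rfl
  rw [eq_top_iff]
  intro x _
  obtain ⟨y, hy⟩ := IsPurelyInseparable.surjective_algebraMap_of_isSeparable (padj p S) K x
  rw [← hy]
  exact y.2

/-- TASK LUA-F4b.  Let `A` be a domain of characteristic `p`, finitely generated as a module over
its `p`-th powers, with fraction field `K`, and `S ⊆ A`.  If every derivation of `A` killing `S` is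
zero, the same holds for `K`.
Proof: let `D : K → K` be a derivation killing `S`, `g_i` the generators; there is a nonzero `b ∈ A`
with `b D(g_i) ∈ A` for all `i`; for `a = Σ c_i^p g_i`, `b D a = Σ c_i^p (b D g_i) ∈ A`.  So `b D`
restricts to a derivation of `A` killing `S`, which is zero; so `D = 0` on `A` and on `K`. -/
theorem derivation_frac_eq_zero {A K : Type*} [CommRing A] [IsDomain A] [Field K] [Algebra A K]
    [IsFractionRing A K] {p : ℕ} [Fact p.Prime] [CharP A p] {N : ℕ} (g : Fin N → A)
    (hg : ∀ a : A, ∃ c : Fin N → A, a = ∑ i, c i ^ p * g i) (S : Set A)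
    (h : ∀ D : Der A, (∀ s ∈ S, D s = 0) → D = 0)
    (D : Der K) (hD : ∀ s ∈ S, D (algebraMap A K s) = 0) : D = 0 := by
  have hinj : Function.Injective (algebraMap A K) := IsFractionRing.injective A K
  haveI : CharP K p := charP_of_injective_algebraMap hinj p
  obtain ⟨b, hb⟩ := IsLocalization.exist_integer_multiples_of_finite (nonZeroDivisors A)
    (fun i => D (algebraMap A K (g i)))
  have hb0 : algebraMap A K (b : A) ≠ 0 := by
    intro h0
    have : (b : A) = 0 := hinj (by rw [h0, map_zero])
    exact nonZeroDivisors.ne_zero b.2 this
  have hpow : ∀ x : K, D (x ^ p) = 0 := by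
    intro x
    rw [Derivation.leibniz_pow]
    rw [← Nat.cast_smul_eq_nsmul K, CharP.cast_eq_zero, zero_smul]
  have hint : ∀ a : A, ∃ a' : A, algebraMap A K a' = algebraMap A K b * D (algebraMap A K a) := by
    intro a
    obtain ⟨c, hc⟩ := hg a
    choose e he using hb
    refine ⟨∑ i, c i ^ p * e i, ?_⟩
    rw [map_sum]
    conv_rhs => rw [hc, map_sum, map_sum, Finset.mul_sum]
    refine Finset.sum_congr rfl (fun i _ => ?_)
    rw [RingHom.map_mul, RingHom.map_mul, map_pow, he i, Derivation.leibniz, hpow, smul_zero,
      add_zero, Algebra.smul_def, smul_eq_mul]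
    ring
  choose f hf using hint
  let D' : Der A := Derivation.mk'
    ({ toFun := f
       map_add' := by
        intro x y
        apply hinj
        rw [map_add, hf, hf, hf, map_add, map_add, mul_add]
       map_smul' := by
        intro n x
        apply hinj
        rw [hf, eq_intCast, Int.cast_id, zsmul_eq_mul, zsmul_eq_mul, RingHom.map_mul,
          RingHom.map_mul, hf, Derivation.leibniz, map_intCast]
        have : D ((n : ℤ) : K) = 0 := by
          have := D.map_algebraMap n
          simpa using this
        rw [this, smul_zero, add_zero, smul_eq_mul]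
        ring } : A →ₗ[ℤ] A)
    (by
      intro x y
      apply hinj
      show algebraMap A K (f (x * y)) = algebraMap A K (x • f y + y • f x)
      rw [hf, RingHom.map_add, smul_eq_mul, smul_eq_mul, RingHom.map_mul, RingHom.map_mul,
        RingHom.map_mul, hf, hf, Derivation.leibniz, smul_eq_mul, smul_eq_mul]
      ring)
  have hD' : D' = 0 := by
    apply h
    intro s hs
    apply hinj
    show algebraMap A K (f s) = algebraMap A K 0
    rw [hf, hD s hs, mul_zero, map_zero]
  have hA : ∀ a : A, D (algebraMap A K a) = 0 := by
    intro a
    have h1 : f a = 0 := congrArg (fun E : Der A => E a) hD'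
    have h2 := hf a
    rw [h1, map_zero] at h2
    rcases mul_eq_zero.1 h2.symm with h3 | h3
    · exact absurd h3 hb0
    · exact h3
  ext x
  obtain ⟨a, c, hc, rfl⟩ := IsFractionRing.div_surjective (A := A) x
  have hc0 : algebraMap A K c ≠ 0 := by
    intro h0
    have : c = 0 := hinj (by rw [h0, map_zero])
    exact nonZeroDivisors.ne_zero hc this
  have h1 : D (algebraMap A K a / algebraMap A K c * algebraMap A K c) = 0 := by
    rw [div_mul_cancel₀ _ hc0]
    exact hA a
  rw [Derivation.leibniz, hA c, smul_zero, zero_add, smul_eq_mul] at h1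
  rcases mul_eq_zero.1 h1 with h3 | h3
  · exact absurd h3 hc0
  · simpa using h3

end Crest.Agent.LUA
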