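import Mathlib
import Crest.Agent.LU_B0
import Crest.Agent.LU_A7

/-!
S0351 (blueprint LU), part D: definitions for the analysis over a complete algebraically closed
field `C` of characteristic `p`.
-/

set_option autoImplicit false

noncomputable section

namespace Crest.Agent.LU

open Crest.LubinTate

/-- Series with coefficients of norm `≤ 1`. -/
def Int1 {C : Type} [NormedField C] {σ : Type} (f : MvPowerSeries σ C) : Prop :=
  ∀ d, ‖MvPowerSeries.coeff d f‖ ≤ 1

/-- Evaluation of a power series at a point (meaningful for `Int1 f`, `‖z s‖ < 1`). -/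
def ev {C : Type} [NormedField C] {σ : Type} (f : MvPowerSeries σ C) (z : σ → C) : C :=
  ∑' d : σ →₀ ℕ, MvPowerSeries.coeff d f * d.prod (fun s e => z s ^ e)

/-- Evaluation of a one-variable series. -/
def ev1 {C : Type} [NormedField C] (f : PowerSeries C) (z : C) : C := ev f (fun _ : Unit => z)

/-- Commutative formal group laws over `C` with integral coefficients. -/
structure IFG (C : Type) [NormedField C] where
  /-- the law -/
  law : FormalGroup C
  /-- integrality -/
  int : Int1 law.toPowerSeries
  /-- commutativity -/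
  comm : law.IsComm

/-- `x : E₀ → C` is an (integral, residually constant) point with kernel `P`. -/
structure IsPoint {p : ℕ} [Fact p.Prime] {n : ℕ} {C : Type} [NormedField C]
    (P : Ideal (LTRing p n)) (x : LTRing p n →+* C) : Prop where
  ker : RingHom.ker x = P
  le : ∀ a, ‖x a‖ ≤ 1
  lt : ∀ a ∈ RingHom.ker (LTRing.residue p n), ‖x a‖ < 1

/-- Two points agree on the constants `W(k)`. -/
def SameConst {p : ℕ} [Fact p.Prime] {n : ℕ} {C : Type} [NormedField C]
    (x y : LTRing p n →+* C) : Prop :=
  ∀ w : WittVector p (GaloisField p n),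
    x (algebraMap (WittVector p (GaloisField p n)) (LTRing p n) w) =
      y (algebraMap (WittVector p (GaloisField p n)) (LTRing p n) w)

/-- The distance of two points of the stratum `v_0 = ... = v_{h-1} = 0`:
`max_{h ≤ j < n} ‖x(v_j) - y(v_j)‖`. -/
def del {p : ℕ} [Fact p.Prime] {n : ℕ} {C : Type} [NormedField C]
    (H : FormalGroup (LTRing p n)) (h : ℕ) (x y : LTRing p n →+* C) : ℝ :=
  ⨆ j : Fin (n - h), ‖x (vv H (h + j)) - y (vv H (h + j))‖

/-- A probe: a sequence of points with the same kernel and constants, converging to `x`. -/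
structure IsProbe {p : ℕ} [Fact p.Prime] {n : ℕ} {C : Type} [NormedField C]
    (H : FormalGroup (LTRing p n)) (h : ℕ) (P : Ideal (LTRing p n))
    (x : LTRing p n →+* C) (χ : ℕ → LTRing p n →+* C) : Prop where
  point : ∀ m, IsPoint P (χ m)
  const : ∀ m, SameConst x (χ m)
  tendsto : Filter.Tendsto (fun m => del H h x (χ m)) Filter.atTop (nhds 0)

/-- The `V`-series of a point of the stratum of height `≥ h`: the series with
`[p]_{H.map x} = V(X^{p^h})`, i.e. the coefficient of `X^i` in `V` is that of `X^{p^h i}` in
`[p]`. -/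
def VS {p : ℕ} [Fact p.Prime] {n : ℕ} {C : Type} [NormedField C]
    (H : FormalGroup (LTRing p n)) (h : ℕ) (x : LTRing p n →+* C) : PowerSeries C :=
  PowerSeries.mk fun i => PowerSeries.coeff (p ^ h * i) (mulSeries (H.map x) p)

/-- The iterated `V`-series: `V^{[0]} = X`, `V^{[N+1]} = V ∘ (V^{[N]})^{(p^h)}`
(the coefficients of `V^{[N]}` raised to the power `p^h`), so that
`[p^N] = V^{[N]}(X^{p^{hN}})`. -/
def VN (p : ℕ) [Fact p.Prime] (h : ℕ) {C : Type} [NormedField C] [CharP C p]
    (V : PowerSeries C) : ℕ → PowerSeries C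
  | 0 => PowerSeries.X
  | N + 1 => cmp V (PowerSeries.map (iterateFrobenius C p h) (VN p h V N))

theorem VN_eqs_forced : True := by
  have := @VN.eq_def
  trivial

/-- The finite set of roots of an integral series in the open unit ball. -/
def rts {C : Type} [NormedField C] (f : PowerSeries C) : Set C := {z | ‖z‖ < 1 ∧ ev1 f z = 0}

end Crest.Agent.LU
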