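import Mathlib
import Crest.Agent.LUA_5
import Crest.Agent.LU_B4
import Crest.Agent.LU_D0

/-!
S0351 (blueprint LU), part (5): the series `V_A`, its iterates over `A = E₀/P`, and the
factorization of a point `χ : E₀ → C` through `A` and its fraction field.
-/

set_option autoImplicit false

noncomputable section

namespace Crest.Agent.LUA

open Crest.LubinTate Crest.Agent.LU IsLocalRing

/-- The `V`-series over `E₀/P`: the coefficient of `X^i` is that of `X^{p^h i}` in `[p]`. -/
def vA {p : ℕ} [Fact p.Prime] {n : ℕ} (H : FormalGroup (LTRing p n)) (h : ℕ)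
    (P : Ideal (LTRing p n)) : PowerSeries (LTRing p n ⧸ P) :=
  PowerSeries.mk fun i =>
    PowerSeries.coeff (p ^ h * i) (mulSeries (H.map (Ideal.Quotient.mk P)) p)

/-- The iterates `V^{[0]} = X`, `V^{[N+1]} = V ∘ (V^{[N]})^{(p^h)}` over any ring of
characteristic `p`. -/
def VNA (p : ℕ) [Fact p.Prime] (h : ℕ) {A : Type} [CommRing A] [CharP A p]
    (V : PowerSeries A) : ℕ → PowerSeries A
  | 0 => PowerSeries.X
  | N + 1 => cmp V (PowerSeries.map (iterateFrobenius A p h) (VNA p h V N))

variable {p : ℕ} [Fact p.Prime] {n : ℕ}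

/-- A point factors through `A = E₀/P`. -/
def bar {P : Ideal (LTRing p n)} {C : Type} [NormedField C] {χ : LTRing p n →+* C}
    (hχ : IsPoint P χ) : LTRing p n ⧸ P →+* C :=
  Ideal.Quotient.lift P χ (fun a ha => by
    have h : a ∈ RingHom.ker χ := by rw [hχ.ker]; exact ha
    exact h)

@[simp] theorem bar_mk {P : Ideal (LTRing p n)} {C : Type} [NormedField C] {χ : LTRing p n →+* C}
    (hχ : IsPoint P χ) (a : LTRing p n) : bar hχ (Ideal.Quotient.mk P a) = χ a :=
  Ideal.Quotient.lift_mk P χ _

theorem bar_injective {P : Ideal (LTRing p n)} {C : Type} [NormedField C]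
    {χ : LTRing p n →+* C} (hχ : IsPoint P χ) : Function.Injective (bar hχ) := by
  rw [injective_iff_map_eq_zero]
  intro a
  obtain ⟨b, rfl⟩ := Ideal.Quotient.mk_surjective a
  intro hb
  rw [bar_mk] at hb
  have h : b ∈ RingHom.ker χ := hb
  rw [hχ.ker] at h
  exact Ideal.Quotient.eq_zero_iff_mem.2 h

/-- The fraction field of `E₀/P`. -/
abbrev KK (P : Ideal (LTRing p n)) : Type := FractionRing (LTRing p n ⧸ P)

/-- The embedding of the fraction field of `A = E₀/P` given by a point. -/
def fr {P : Ideal (LTRing p n)} [P.IsPrime] {C : Type} [NormedField C]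
    {χ : LTRing p n →+* C} (hχ : IsPoint P χ) : KK P →+* C :=
  IsFractionRing.lift (bar_injective hχ)

@[simp] theorem fr_algebraMap {P : Ideal (LTRing p n)} [P.IsPrime] {C : Type} [NormedField C]
    {χ : LTRing p n →+* C} (hχ : IsPoint P χ) (a : LTRing p n ⧸ P) :
    fr hχ (algebraMap (LTRing p n ⧸ P) (KK P) a) = bar hχ a :=
  IsFractionRing.lift_algebraMap (bar_injective hχ) a

theorem VN_eq_VNA (p : ℕ) [Fact p.Prime] (h : ℕ) {C : Type} [NormedField C] [CharP C p]
    (V : PowerSeries C) (N : ℕ) : VN p h V N = VNA p h V N := by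
  induction N with
  | zero => rfl
  | succ N ih =>
    show cmp V (PowerSeries.map (iterateFrobenius C p h) (VN p h V N)) =
      cmp V (PowerSeries.map (iterateFrobenius C p h) (VNA p h V N))
    rw [ih]

end Crest.Agent.LUA
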