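import Mathlib
import Crest.Agent.LUA_R0

/-!
S0351 (blueprint LU), part (5), TASK LUA-R1: the iterates of `V` over `A = E₀/P`.
-/

set_option autoImplicit false

noncomputable section

namespace Crest.Agent.LUA

open Crest.LubinTate Crest.Agent.LU IsLocalRing

variable {p : ℕ} [Fact p.Prime] {n : ℕ} {Γ : FormalGroup (GaloisField p n)} [Γ.IsComm]
  {H : FormalGroup (LTRing p n)} [H.IsComm]

private theorem R1_vA_zero (H : FormalGroup (LTRing p n)) (h : ℕ) (P : Ideal (LTRing p n)) :
    PowerSeries.constantCoeff (vA H h P) = 0 := by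
  unfold vA
  rw [← PowerSeries.coeff_zero_eq_constantCoeff_apply, PowerSeries.coeff_mk, mul_zero,
    PowerSeries.coeff_zero_eq_constantCoeff_apply]
  exact constantCoeff_mulSeries _ p

private theorem R1_cc_map {A B : Type} [CommRing A] [CommRing B] (f : A →+* B)
    {V : PowerSeries A} (hV : PowerSeries.constantCoeff V = 0) :
    PowerSeries.constantCoeff (PowerSeries.map f V) = 0 := by
  rw [← PowerSeries.coeff_zero_eq_constantCoeff_apply, PowerSeries.coeff_map,
    PowerSeries.coeff_zero_eq_constantCoeff_apply, hV, map_zero]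

private theorem R1_cc (h : ℕ) {A : Type} [CommRing A] [CharP A p]
    {V : PowerSeries A} (hV : PowerSeries.constantCoeff V = 0) (N : ℕ) :
    PowerSeries.constantCoeff (VNA p h V N) = 0 := by
  induction N with
  | zero => exact PowerSeries.constantCoeff_X
  | succ N ih => exact constantCoeff_cmp (σ := Unit) hV (R1_cc_map _ ih)

/-- TASK LUA-R1a.  `[p]_{H_A} = V_A(X^Q)`, `V_A : H_A^{(Q)} → H_A`, coefficients `v_{h+j}`.
(From `LU.exists_V`: the series given there has the same coefficients, `coeff_cmp_X_pow`.) -/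
theorem vA_spec {h : ℕ} {P : Ideal (LTRing p n)} [CharP (LTRing p n ⧸ P) p]
    (hle : heightIdeal p n H h ≤ P) :
    mulSeries (H.map (Ideal.Quotient.mk P)) p =
        cmp (vA H h P) (PowerSeries.X ^ (p ^ h) : PowerSeries (LTRing p n ⧸ P)) ∧
      IsFGHom ((H.map (Ideal.Quotient.mk P)).map (iterateFrobenius (LTRing p n ⧸ P) p h))
        (H.map (Ideal.Quotient.mk P)) (vA H h P) ∧
      ∀ j : ℕ, PowerSeries.coeff (p ^ j) (vA H h P) = Ideal.Quotient.mk P (vv H (h + j)) := by
  obtain ⟨V, hV1, hV2, hV3⟩ := exists_V (H := H) hle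
  have hp : p ≠ 0 := (Fact.out : p.Prime).ne_zero
  have hVA : vA H h P = V := by
    apply PowerSeries.ext
    intro i
    unfold vA
    rw [PowerSeries.coeff_mk, hV1]
    exact coeff_cmp_X_pow V (pow_ne_zero h hp) i
  rw [hVA]
  exact ⟨hV1, hV2, hV3⟩

/-- TASK LUA-R1b.  The `V`-series of a point is the image of `V_A` (coefficientwise:
`mulSeries_map`). -/
theorem VS_eq (h : ℕ) {P : Ideal (LTRing p n)} {C : Type} [NormedField C]
    {χ : LTRing p n →+* C} (hχ : IsPoint P χ) :
    VS H h χ = PowerSeries.map (bar hχ) (vA H h P) := by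
  have h1 : (H.map (Ideal.Quotient.mk P)).map (bar hχ) = H.map χ := by
    rw [map_map]
    congr 1
  have h2 : mulSeries (H.map χ) p =
      PowerSeries.map (bar hχ) (mulSeries (H.map (Ideal.Quotient.mk P)) p) := by
    rw [← h1]
    exact mulSeries_map _ _ p
  apply PowerSeries.ext
  intro i
  unfold VS vA
  rw [PowerSeries.coeff_mk, PowerSeries.coeff_map, PowerSeries.coeff_mk, h2,
    PowerSeries.coeff_map]

/-- TASK LUA-R1c.  Iterates commute with ring homomorphisms (`map_cmp`; the Frobenius commutes with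
`f`). -/
theorem map_VNA (h : ℕ) {A B : Type} [CommRing A] [CharP A p] [CommRing B] [CharP B p]
    (f : A →+* B) {V : PowerSeries A} (hV : PowerSeries.constantCoeff V = 0) (N : ℕ) :
    PowerSeries.map f (VNA p h V N) = VNA p h (PowerSeries.map f V) N := by
  induction N with
  | zero => exact PowerSeries.map_X f
  | succ N ih =>
    have h1 := map_cmp f V (a := PowerSeries.map (iterateFrobenius A p h) (VNA p h V N))
      (R1_cc_map _ (R1_cc h hV N))
    refine h1.trans ?_
    show cmp (PowerSeries.map f V) (PowerSeries.map f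
      (PowerSeries.map (iterateFrobenius A p h) (VNA p h V N)) : PowerSeries B) =
      cmp (PowerSeries.map f V) (PowerSeries.map (iterateFrobenius B p h)
        (VNA p h (PowerSeries.map f V) N))
    rw [← ih]
    congr 1
    apply PowerSeries.ext
    intro i
    rw [PowerSeries.coeff_map, PowerSeries.coeff_map, PowerSeries.coeff_map,
      PowerSeries.coeff_map, iterateFrobenius_def, iterateFrobenius_def, map_pow]

/-- TASK LUA-R1d.  Iterates are homomorphisms `G^{(Q^N)} → G` with linear coefficient a product of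
powers of that of `V` (nonzero over a domain). -/
theorem VNA_hom (h : ℕ) {A : Type} [CommRing A] [CharP A p] {G : FormalGroup A} [G.IsComm]
    {V : PowerSeries A} (hV : IsFGHom (G.map (iterateFrobenius A p h)) G V) (N : ℕ) :
    IsFGHom (G.map (iterateFrobenius A p (h * N))) G (VNA p h V N) := by
  induction N with
  | zero =>
    have h1 : iterateFrobenius A p (h * 0) = RingHom.id A := by
      ext x
      simp
    rw [h1, map_id]
    exact hom_X G
  | succ N ih =>
    have h1 := hom_map ih (iterateFrobenius A p h)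
    rw [map_map] at h1
    have h2 : (iterateFrobenius A p h).comp (iterateFrobenius A p (h * N)) =
        iterateFrobenius A p (h * (N + 1)) := by
      ext x
      rw [RingHom.comp_apply, iterateFrobenius_def, iterateFrobenius_def, iterateFrobenius_def,
        ← pow_mul, ← pow_add, mul_add, mul_one]
    rw [h2] at h1
    exact hom_comp hV h1

theorem coeff_one_VNA_ne (h : ℕ) {A : Type} [CommRing A] [IsDomain A] [CharP A p]
    {V : PowerSeries A} (hV : PowerSeries.constantCoeff V = 0) (h1 : PowerSeries.coeff 1 V ≠ 0)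
    (N : ℕ) : PowerSeries.coeff 1 (VNA p h V N) ≠ 0 := by
  induction N with
  | zero =>
    show PowerSeries.coeff 1 (PowerSeries.X : PowerSeries A) ≠ 0
    rw [PowerSeries.coeff_one_X]
    exact one_ne_zero
  | succ N ih =>
    have h2 := coeff_one_cmp V (ψ := PowerSeries.map (iterateFrobenius A p h) (VNA p h V N))
      (R1_cc_map _ (R1_cc h hV N))
    intro h3
    have h4 : PowerSeries.coeff 1 V *
        PowerSeries.coeff 1 (PowerSeries.map (iterateFrobenius A p h) (VNA p h V N)) = 0 :=
      h2.symm.trans h3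
    rcases mul_eq_zero.1 h4 with h5 | h5
    · exact h1 h5
    · rw [PowerSeries.coeff_map, iterateFrobenius_def] at h5
      exact ih (pow_eq_zero_iff (pow_ne_zero h (Fact.out : p.Prime).ne_zero) |>.1 h5)

theorem constantCoeff_VNA (h : ℕ) {A : Type} [CommRing A] [CharP A p]
    {V : PowerSeries A} (hV : PowerSeries.constantCoeff V = 0) (N : ℕ) :
    PowerSeries.constantCoeff (VNA p h V N) = 0 := by
  exact R1_cc h hV N

/-- TASK LUA-R1e.  Reduction to the residue field: `V_A ↦ X^{p^{n-h}}` (from `[p]_Γ = X^{p^n}`),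
hence `V_A^{[N]} ↦ X^{p^{(n-h)N}}`. -/
theorem map_resQ_VNA (hΓ : mulSeries Γ p = PowerSeries.X ^ (p ^ n))
    (hH : IsUniversalDeformation p n Γ H) {h : ℕ} (h2 : h ≤ n) {P : Ideal (LTRing p n)}
    [CharP (LTRing p n ⧸ P) p] (hP : P ≠ ⊤) (N : ℕ) :
    PowerSeries.map (resQ P hP) (VNA p h (vA H h P) N) =
      PowerSeries.X ^ (p ^ ((n - h) * N)) := by
  have hp : p ≠ 0 := (Fact.out : p.Prime).ne_zero
  have hp1 : 1 < p := (Fact.out : p.Prime).one_lt
  have hres : (resQ P hP).comp (Ideal.Quotient.mk P) = LTRing.residue p n := by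
    ext x; rfl
  have h4 : mulSeries ((H.map (Ideal.Quotient.mk P)).map (resQ P hP)) p =
      PowerSeries.map (resQ P hP) (mulSeries (H.map (Ideal.Quotient.mk P)) p) :=
    mulSeries_map _ _ p
  rw [map_map, hres, hH.1, hΓ] at h4
  have hV : PowerSeries.map (resQ P hP) (vA H h P) =
      (PowerSeries.X : PowerSeries (GaloisField p n)) ^ (p ^ (n - h)) := by
    apply PowerSeries.ext
    intro i
    have h5 := congrArg (PowerSeries.coeff (p ^ h * i)) h4
    rw [PowerSeries.coeff_map] at h5
    unfold vA
    rw [PowerSeries.coeff_map, PowerSeries.coeff_mk, ← h5, PowerSeries.coeff_X_pow,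
      PowerSeries.coeff_X_pow]
    have h6 : p ^ n = p ^ h * p ^ (n - h) := by
      rw [← pow_add]; congr 1; omega
    have h7 : (p ^ h * i = p ^ n) ↔ (i = p ^ (n - h)) := by
      rw [h6]
      exact mul_right_inj' (pow_ne_zero h hp)
    simp only [h7]
  rw [map_VNA h (resQ P hP) (R1_vA_zero H h P) N, hV]
  induction N with
  | zero =>
    rw [mul_zero, pow_zero, pow_one]
    rfl
  | succ N ih =>
    show cmp (PowerSeries.X ^ (p ^ (n - h)) : PowerSeries (GaloisField p n))
      (PowerSeries.map (iterateFrobenius (GaloisField p n) p h)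
        (VNA p h (PowerSeries.X ^ (p ^ (n - h)) : PowerSeries (GaloisField p n)) N)) = _
    rw [ih, map_pow, PowerSeries.map_X]
    have hs : PowerSeries.HasSubst (PowerSeries.X ^ (p ^ ((n - h) * N)) :
        PowerSeries (GaloisField p n)) := PowerSeries.HasSubst.X_pow (pow_ne_zero _ hp)
    show PowerSeries.subst (PowerSeries.X ^ (p ^ ((n - h) * N)) : PowerSeries (GaloisField p n))
      (PowerSeries.X ^ (p ^ (n - h)) : PowerSeries (GaloisField p n)) = _
    rw [PowerSeries.subst_pow hs, PowerSeries.subst_X hs, ← pow_mul, ← pow_add, mul_add, mul_one]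

/-- TASK LUA-R1f.  The derivative of a homomorphism of formal group laws is its value at `0` times
a unit: differentiate `φ(F(X,Y)) = G(φ(X),φ(Y))` in `Y` at `Y = 0`:
`φ'(X) F_2(X,0) = G_2(φ(X),0) φ'(0)`, `F_2(X,0)`, `G_2(φ(X),0)` have constant coefficient `1`.
(Algebraically: compare the coefficients of `Y^1`, as in the proof of `LU.frobenius_factor`.) -/
theorem derivative_hom {A : Type} [CommRing A] {F G : FormalGroup A} {φ : PowerSeries A}
    (hφ : IsFGHom F G φ) :
    ∃ u : PowerSeries A, IsUnit (PowerSeries.constantCoeff u) ∧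
      PowerSeries.derivative A φ = PowerSeries.C (PowerSeries.coeff 1 φ) * u := by
  obtain ⟨h0, hE⟩ := hφ
  obtain ⟨K, hK, hGK⟩ := A7.exists_decomp G
  obtain ⟨L, hL, hFL⟩ := A7.exists_decomp F
  have hX : ∀ s : Fin 2, PowerSeries.HasSubst (MvPowerSeries.X s : MvPowerSeries (Fin 2) A) :=
    fun s => PowerSeries.HasSubst.X s
  set a := PowerSeries.subst (MvPowerSeries.X 0 : MvPowerSeries (Fin 2) A) φ with ha
  set b := PowerSeries.subst (MvPowerSeries.X 1 : MvPowerSeries (Fin 2) A) φ with hb
  have ha0 : MvPowerSeries.constantCoeff a = 0 :=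
    PowerSeries.constantCoeff_subst_eq_zero (by simp) φ h0
  have hb0 : MvPowerSeries.constantCoeff b = 0 :=
    PowerSeries.constantCoeff_subst_eq_zero (by simp) φ h0
  have hab := hasSubst_pair ha0 hb0
  have hF0 : MvPowerSeries.constantCoeff F.toPowerSeries = 0 := F.zero_constantCoeff
  set W := MvPowerSeries.subst ![a, b] K with hW
  have hR : G.toPowerSeries.subst ![a, b] = a + b * W := by
    rw [hGK, MvPowerSeries.subst_add hab, MvPowerSeries.subst_mul hab, MvPowerSeries.subst_X hab,
      MvPowerSeries.subst_X hab]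
    simp [hW]
  rw [hR] at hE
  have hD := congrArg (MvPowerSeries.pderiv A 1) hE
  rw [A7.pderiv_subst 1 φ hF0, map_add, Derivation.leibniz, ha, hb,
    A7.pderiv_subst 1 φ (by simp : MvPowerSeries.constantCoeff
      (MvPowerSeries.X 0 : MvPowerSeries (Fin 2) A) = 0),
    A7.pderiv_subst 1 φ (by simp : MvPowerSeries.constantCoeff
      (MvPowerSeries.X 1 : MvPowerSeries (Fin 2) A) = 0), ← hb,
    MvPowerSeries.pderiv_X_self, MvPowerSeries.pderiv_X_of_ne (by decide), mul_zero, zero_add,
    mul_one, smul_eq_mul, smul_eq_mul] at hD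
  have h10 : MvPowerSeries.HasSubst (![PowerSeries.X, 0] : Fin 2 → PowerSeries A) :=
    MvPowerSeries.HasSubst.X_zero
  have hD2 := congrArg (MvPowerSeries.subst (![PowerSeries.X, 0] : Fin 2 → PowerSeries A)) hD
  have e1 : MvPowerSeries.subst (![PowerSeries.X, 0] : Fin 2 → PowerSeries A)
      (PowerSeries.subst F.toPowerSeries (PowerSeries.derivative A φ)) =
      PowerSeries.derivative A φ := by
    rw [A7.subst_psubst h10 (PowerSeries.HasSubst.of_constantCoeff_zero hF0)]
    have := F.Xzero_eq_X
    rw [FormalGroup.Xzero] at this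
    rw [this]
    exact PowerSeries.X_subst _
  have e2 : MvPowerSeries.subst (![PowerSeries.X, 0] : Fin 2 → PowerSeries A) b = 0 := by
    rw [hb, A7.subst_psubst h10 (hX 1), MvPowerSeries.subst_X h10]
    exact PowerSeries.subst_zero_of_constantCoeff_zero h0
  have e3 : MvPowerSeries.subst (![PowerSeries.X, 0] : Fin 2 → PowerSeries A)
      (PowerSeries.subst (MvPowerSeries.X 1 : MvPowerSeries (Fin 2) A)
        (PowerSeries.derivative A φ)) = PowerSeries.C (PowerSeries.coeff 1 φ) := by
    rw [A7.subst_psubst h10 (hX 1), MvPowerSeries.subst_X h10]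
    have h5 : PowerSeries.derivative A φ = PowerSeries.C (PowerSeries.coeff 1 φ) +
        (PowerSeries.derivative A φ - PowerSeries.C (PowerSeries.coeff 1 φ)) := by ring
    have h6 : PowerSeries.constantCoeff
        (PowerSeries.derivative A φ - PowerSeries.C (PowerSeries.coeff 1 φ)) = 0 := by
      rw [map_sub, PowerSeries.constantCoeff_C, ← PowerSeries.coeff_zero_eq_constantCoeff_apply,
        PowerSeries.coeff_derivative, zero_add]
      simp
    show PowerSeries.subst (0 : MvPowerSeries Unit A) (PowerSeries.derivative A φ) = _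
    rw [h5, PowerSeries.subst_add PowerSeries.HasSubst.zero,
      PowerSeries.subst_zero_of_constantCoeff_zero h6, add_zero, PowerSeries.subst_C]
    rfl
  rw [MvPowerSeries.subst_mul h10, MvPowerSeries.subst_add h10, MvPowerSeries.subst_mul h10,
    MvPowerSeries.subst_mul h10, e1, e2, e3, zero_mul, zero_add] at hD2
  have hu : PowerSeries.constantCoeff (MvPowerSeries.subst
        (![PowerSeries.X, 0] : Fin 2 → PowerSeries A)
        (MvPowerSeries.pderiv A 1 F.toPowerSeries)) = 1 := by
    have := A7.constantCoeff_subst h10 (fun s => by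
      fin_cases s
      · exact PowerSeries.constantCoeff_X
      · simp) (MvPowerSeries.pderiv A 1 F.toPowerSeries)
    refine this.trans ?_
    rw [← MvPowerSeries.coeff_zero_eq_constantCoeff_apply, MvPowerSeries.coeff_pderiv, zero_add,
      F.lin_coeff_Y]
    simp
  have hw : PowerSeries.constantCoeff (MvPowerSeries.subst
        (![PowerSeries.X, 0] : Fin 2 → PowerSeries A) W) = 1 := by
    have := A7.constantCoeff_subst h10 (fun s => by
      fin_cases s
      · exact PowerSeries.constantCoeff_X
      · simp) W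
    refine this.trans ?_
    have h7 := A7.constantCoeff_subst hab (fun s => by
      fin_cases s
      · exact ha0
      · exact hb0) K
    exact h7.trans hK
  generalize MvPowerSeries.subst (![PowerSeries.X, 0] : Fin 2 → PowerSeries A)
        (MvPowerSeries.pderiv A 1 F.toPowerSeries) = u1 at hu hD2
  generalize MvPowerSeries.subst (![PowerSeries.X, 0] : Fin 2 → PowerSeries A) W = u2 at hw hD2
  have hu1 : IsUnit (u1 : PowerSeries A) := by
    rw [PowerSeries.isUnit_iff_constantCoeff, hu]
    exact isUnit_one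
  obtain ⟨v, hv⟩ := hu1.exists_right_inv
  have hv1 : PowerSeries.constantCoeff v = 1 := by
    have h8 := congrArg PowerSeries.constantCoeff hv
    rw [map_mul, hu, one_mul, map_one] at h8
    exact h8
  refine ⟨(u2 : PowerSeries A) * v, ?_, ?_⟩
  · rw [map_mul, hw, hv1, one_mul]
    exact isUnit_one
  · have hD3 : PowerSeries.derivative A φ * (u1 : PowerSeries A) =
        (u2 : PowerSeries A) * PowerSeries.C (PowerSeries.coeff 1 φ) := hD2
    calc PowerSeries.derivative A φ = PowerSeries.derivative A φ * ((u1 : PowerSeries A) * v) := by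
          rw [hv, mul_one]
      _ = (PowerSeries.derivative A φ * (u1 : PowerSeries A)) * v := (mul_assoc _ _ _).symm
      _ = PowerSeries.C (PowerSeries.coeff 1 φ) * ((u2 : PowerSeries A) * v) := by
          rw [hD3]; ring

/-- TASK LUA-R1g.  Weierstrass preparation for the iterates
(`PowerSeries.exists_isWeierstrassFactorization`; `A` is a complete local ring, `isTest_A`). -/
theorem exists_weierstrass (hΓ : mulSeries Γ p = PowerSeries.X ^ (p ^ n))
    (hH : IsUniversalDeformation p n Γ H) {h : ℕ} (h2 : h ≤ n) {P : Ideal (LTRing p n)}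
    [CharP (LTRing p n ⧸ P) p] (hP : P ≠ ⊤) (N : ℕ) :
    ∃ (W : Polynomial (LTRing p n ⧸ P)) (U : PowerSeries (LTRing p n ⧸ P)), IsUnit U ∧
      VNA p h (vA H h P) N = (W : PowerSeries (LTRing p n ⧸ P)) * U ∧ W.Monic ∧
      W.natDegree = p ^ ((n - h) * N) ∧ ∀ i < W.natDegree, resQ P hP (W.coeff i) = 0 := by
  have ht := isTest_A hP
  haveI : IsLocalRing (LTRing p n ⧸ P) := ht.isLocalRing
  haveI : IsAdicComplete (maximalIdeal (LTRing p n ⧸ P)) (LTRing p n ⧸ P) := by
    rw [← ht.ker_eq]; exact ht.complete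
  have hred := map_resQ_VNA hΓ hH h2 hP N
  have hiff : ∀ a : LTRing p n ⧸ P, residue (LTRing p n ⧸ P) a = 0 ↔ resQ P hP a = 0 := by
    intro a
    rw [residue_eq_zero_iff, ← ht.ker_eq, RingHom.mem_ker]
  have hcoef : ∀ i : ℕ, resQ P hP (PowerSeries.coeff i (VNA p h (vA H h P) N)) =
      if i = p ^ ((n - h) * N) then 1 else 0 := by
    intro i
    rw [← PowerSeries.coeff_map, hred, PowerSeries.coeff_X_pow]
  have hord : (PowerSeries.map (residue (LTRing p n ⧸ P)) (VNA p h (vA H h P) N)).order =
      ((p ^ ((n - h) * N) : ℕ) : ℕ∞) := by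
    rw [PowerSeries.order_eq_nat]
    constructor
    · rw [PowerSeries.coeff_map, Ne, hiff, hcoef, if_pos rfl]
      exact one_ne_zero
    · intro i hi
      rw [PowerSeries.coeff_map, hiff, hcoef, if_neg hi.ne]
  have hne : PowerSeries.map (residue (LTRing p n ⧸ P)) (VNA p h (vA H h P) N) ≠ 0 := by
    rw [← PowerSeries.order_finite_iff_ne_zero, hord]
    exact ENat.coe_lt_top _
  obtain ⟨W, U, hWU⟩ := PowerSeries.exists_isWeierstrassFactorization hne
  refine ⟨W, U, hWU.isUnit, hWU.eq_mul, hWU.isDistinguishedAt.monic, ?_, ?_⟩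
  · rw [hWU.natDegree_eq_toNat_order_map, hord, ENat.toNat_coe]
  · intro i hi
    rw [← hiff, residue_eq_zero_iff]
    exact hWU.isDistinguishedAt.mem hi

end Crest.Agent.LUA
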