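import Mathlib
import Crest.Agent.LU_D0

/-!
S0351 (blueprint LU), task D1: evaluation of integral power series on the open unit ball of a
complete ultrametric field.
-/

set_option autoImplicit false

noncomputable section

namespace Crest.Agent.LU

variable {C : Type} [NontriviallyNormedField C] [IsUltrametricDist C] [CompleteSpace C]
  {σ τ : Type} [Finite σ] [Finite τ]

section aux

omit [IsUltrametricDist C] [CompleteSpace C] [Finite σ] in
private theorem D1_mon_add (z : σ → C) (a b : σ →₀ ℕ) :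
    (a + b).prod (fun s e => z s ^ e) =
      a.prod (fun s e => z s ^ e) * b.prod (fun s e => z s ^ e) :=
  Finsupp.prod_add_index' (by simp) (by intro i x y; rw [pow_add])

omit [IsUltrametricDist C] [CompleteSpace C] [Finite σ] in
private theorem D1_norm_mon {z : σ → C} {r : ℝ} (hz : ∀ s, ‖z s‖ ≤ r)
    (d : σ →₀ ℕ) : ‖d.prod (fun s e => z s ^ e)‖ ≤ r ^ d.degree := by
  unfold Finsupp.prod
  rw [norm_prod]
  have e : r ^ d.degree = ∏ s ∈ d.support, r ^ d s := by
    rw [Finset.prod_pow_eq_pow_sum]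
    rfl
  rw [e]
  refine Finset.prod_le_prod (fun s _ => norm_nonneg _) fun s _ => ?_
  rw [norm_pow]
  exact pow_le_pow_left₀ (norm_nonneg _) (hz s) _

omit [IsUltrametricDist C] [CompleteSpace C] [Finite σ] in
private theorem D1_norm_mon_le_one {z : σ → C} (hz : ∀ s, ‖z s‖ ≤ 1)
    (d : σ →₀ ℕ) : ‖d.prod (fun s e => z s ^ e)‖ ≤ 1 := by
  have h := D1_norm_mon hz d
  rwa [one_pow] at h

omit [IsUltrametricDist C] [CompleteSpace C] in
private theorem D1_exists_r {z : σ → C} (hz : ∀ s, ‖z s‖ < 1) :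
    ∃ r : ℝ, 0 ≤ r ∧ r < 1 ∧ ∀ s, ‖z s‖ ≤ r := by
  classical
  cases nonempty_fintype σ
  refine ⟨((Finset.univ.sup fun s => ‖z s‖₊ : NNReal) : ℝ), NNReal.coe_nonneg _, ?_, ?_⟩
  · rw [← NNReal.coe_one, NNReal.coe_lt_coe, Finset.sup_lt_iff (by simp)]
    intro s _
    rw [← NNReal.coe_lt_coe, coe_nnnorm, NNReal.coe_one]
    exact hz s
  · intro s
    rw [← coe_nnnorm, NNReal.coe_le_coe]
    exact Finset.le_sup (f := fun s => ‖z s‖₊) (Finset.mem_univ s)

private theorem D1_tendsto_degree :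
    Filter.Tendsto (fun d : σ →₀ ℕ => d.degree) Filter.cofinite Filter.atTop := by
  rw [Filter.tendsto_atTop]
  intro N
  rw [Filter.eventually_cofinite]
  refine (Finsupp.finite_of_degree_lt (σ := σ) N).subset ?_
  intro d hd
  simp only [Set.mem_ofPred_eq, not_le] at hd ⊢
  exact hd

omit [IsUltrametricDist C] [CompleteSpace C] in
private theorem D1_norm_term {f : MvPowerSeries σ C} {ε : ℝ}
    (h : ∀ d, ‖MvPowerSeries.coeff d f‖ ≤ ε) {z : σ → C} {r : ℝ} (hr : 0 ≤ r)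
    (hz : ∀ s, ‖z s‖ ≤ r) (d : σ →₀ ℕ) :
    ‖MvPowerSeries.coeff d f * d.prod (fun s e => z s ^ e)‖ ≤ ε * r ^ d.degree := by
  rw [norm_mul]
  have hε : 0 ≤ ε := (norm_nonneg _).trans (h d)
  exact mul_le_mul (h d) (D1_norm_mon hz d) (norm_nonneg _) hε

omit [CompleteSpace C] [Finite σ] in
private theorem D1_norm_prod_sub (T : Finset σ) {a b : σ → C} {ε : ℝ} (hε : 0 ≤ ε)
    (ha : ∀ s, ‖a s‖ ≤ 1) (hb : ∀ s, ‖b s‖ ≤ 1) (hab : ∀ s, ‖a s - b s‖ ≤ ε) :
    ‖∏ s ∈ T, a s - ∏ s ∈ T, b s‖ ≤ ε := by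
  classical
  induction T using Finset.induction_on with
  | empty => simpa using hε
  | insert s T hs ih =>
    rw [Finset.prod_insert hs, Finset.prod_insert hs]
    have e : a s * ∏ x ∈ T, a x - b s * ∏ x ∈ T, b x =
        (a s - b s) * ∏ x ∈ T, a x + b s * (∏ x ∈ T, a x - ∏ x ∈ T, b x) := by ring
    rw [e]
    refine (IsUltrametricDist.norm_add_le_max _ _).trans (max_le ?_ ?_)
    · rw [norm_mul]
      have h1 : ‖∏ x ∈ T, a x‖ ≤ 1 := by
        rw [norm_prod]
        exact Finset.prod_le_one (fun x _ => norm_nonneg _) fun x _ => ha x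
      calc ‖a s - b s‖ * ‖∏ x ∈ T, a x‖ ≤ ε * 1 :=
            mul_le_mul (hab s) h1 (norm_nonneg _) hε
        _ = ε := mul_one ε
    · rw [norm_mul]
      calc ‖b s‖ * ‖∏ x ∈ T, a x - ∏ x ∈ T, b x‖ ≤ 1 * ε :=
            mul_le_mul (hb s) ih (norm_nonneg _) zero_le_one
        _ = ε := one_mul ε

omit [CompleteSpace C] in
private theorem D1_norm_pow_sub {a b : C} {ε : ℝ} (hε : 0 ≤ ε)
    (ha : ‖a‖ ≤ 1) (hb : ‖b‖ ≤ 1) (hab : ‖a - b‖ ≤ ε) (e : ℕ) : ‖a ^ e - b ^ e‖ ≤ ε := by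
  have h := D1_norm_prod_sub (σ := ℕ) (Finset.range e) (a := fun _ => a) (b := fun _ => b) hε
    (fun _ => ha) (fun _ => hb) (fun _ => hab)
  simpa using h

omit [CompleteSpace C] [Finite σ] in
private theorem D1_norm_mon_sub {z w : σ → C} {ε : ℝ} (hε : 0 ≤ ε)
    (hz : ∀ s, ‖z s‖ ≤ 1) (hw : ∀ s, ‖w s‖ ≤ 1) (h : ∀ s, ‖z s - w s‖ ≤ ε) (d : σ →₀ ℕ) :
    ‖d.prod (fun s e => z s ^ e) - d.prod (fun s e => w s ^ e)‖ ≤ ε := by
  unfold Finsupp.prod
  refine D1_norm_prod_sub _ hε (fun s => ?_) (fun s => ?_) (fun s => ?_)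
  · rw [norm_pow]
    exact pow_le_one₀ (norm_nonneg _) (hz s)
  · rw [norm_pow]
    exact pow_le_one₀ (norm_nonneg _) (hw s)
  · exact D1_norm_pow_sub hε (hz s) (hw s) (h s) _

end aux

/-- TASK D1a. Closure properties of `Int1`. -/
theorem Int1.add {f g : MvPowerSeries σ C} (hf : Int1 f) (hg : Int1 g) : Int1 (f + g) := by
  intro d
  rw [map_add]
  exact (IsUltrametricDist.norm_add_le_max _ _).trans (max_le (hf d) (hg d))

theorem Int1.neg {f : MvPowerSeries σ C} (hf : Int1 f) : Int1 (-f) := by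
  intro d
  rw [map_neg, norm_neg]
  exact hf d

theorem Int1.sub {f g : MvPowerSeries σ C} (hf : Int1 f) (hg : Int1 g) : Int1 (f - g) := by
  rw [sub_eq_add_neg]
  exact hf.add hg.neg

theorem Int1.mul {f g : MvPowerSeries σ C} (hf : Int1 f) (hg : Int1 g) : Int1 (f * g) := by
  classical
  intro d
  rw [MvPowerSeries.coeff_mul]
  refine IsUltrametricDist.norm_sum_le_of_forall_le_of_nonneg zero_le_one fun x _ => ?_
  rw [norm_mul]
  exact mul_le_one₀ (hf _) (norm_nonneg _) (hg _)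

theorem Int1.const {c : C} (hc : ‖c‖ ≤ 1) : Int1 (MvPowerSeries.C c : MvPowerSeries σ C) := by
  classical
  intro d
  rw [MvPowerSeries.coeff_C]
  split_ifs
  · exact hc
  · rw [norm_zero]
    exact zero_le_one

theorem Int1.pow {f : MvPowerSeries σ C} (hf : Int1 f) (k : ℕ) : Int1 (f ^ k) := by
  induction k with
  | zero =>
    rw [pow_zero, ← map_one MvPowerSeries.C]
    exact Int1.const (by rw [norm_one])
  | succ k ih =>
    rw [pow_succ]
    exact ih.mul hf

theorem Int1.var (s : σ) : Int1 (MvPowerSeries.X s : MvPowerSeries σ C) := by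
  classical
  intro d
  rw [MvPowerSeries.coeff_X]
  split_ifs
  · rw [norm_one]
  · rw [norm_zero]
    exact zero_le_one

/-- The terms of the defining series tend to `0`, so it is summable (ultrametric, complete). -/
theorem ev_summable {f : MvPowerSeries σ C} (hf : Int1 f) {z : σ → C} (hz : ∀ s, ‖z s‖ < 1) :
    Summable fun d : σ →₀ ℕ => MvPowerSeries.coeff d f * d.prod (fun s e => z s ^ e) := by
  obtain ⟨r, hr0, hr1, hr⟩ := D1_exists_r hz
  refine NonarchimedeanAddGroup.summable_of_tendsto_cofinite_zero ?_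
  refine squeeze_zero_norm (fun d => D1_norm_term hf hr0 hr d) ?_
  have h1 : Filter.Tendsto (fun d : σ →₀ ℕ => r ^ d.degree) Filter.cofinite (nhds 0) :=
    (tendsto_pow_atTop_nhds_zero_of_lt_one hr0 hr1).comp D1_tendsto_degree
  simpa using h1

theorem ev_add {f g : MvPowerSeries σ C} (hf : Int1 f) (hg : Int1 g) {z : σ → C}
    (hz : ∀ s, ‖z s‖ < 1) : ev (f + g) z = ev f z + ev g z := by
  unfold ev
  rw [← (ev_summable hf hz).tsum_add (ev_summable hg hz)]
  refine tsum_congr fun d => ?_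
  rw [map_add, add_mul]

theorem ev_neg {f : MvPowerSeries σ C} {z : σ → C} : ev (-f) z = -ev f z := by
  unfold ev
  rw [← tsum_neg]
  refine tsum_congr fun d => ?_
  rw [map_neg, neg_mul]

theorem ev_sub {f g : MvPowerSeries σ C} (hf : Int1 f) (hg : Int1 g) {z : σ → C}
    (hz : ∀ s, ‖z s‖ < 1) : ev (f - g) z = ev f z - ev g z := by
  rw [sub_eq_add_neg, ev_add hf hg.neg hz, ev_neg, sub_eq_add_neg]

set_option maxHeartbeats 1600000 in
/-- Cauchy product. -/
theorem ev_mul {f g : MvPowerSeries σ C} (hf : Int1 f) (hg : Int1 g) {z : σ → C}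
    (hz : ∀ s, ‖z s‖ < 1) : ev (f * g) z = ev f z * ev g z := by
  classical
  have hC : NonarchimedeanRing C :=
    { is_nonarchimedean := NonarchimedeanAddGroup.is_nonarchimedean }
  unfold ev
  rw [(ev_summable hf hz).tsum_mul_tsum_eq_tsum_sum_antidiagonal (ev_summable hg hz)
    ((ev_summable hf hz).mul_of_nonarchimedean (ev_summable hg hz))]
  refine tsum_congr fun d => ?_
  rw [MvPowerSeries.coeff_mul, Finset.sum_mul]
  refine Finset.sum_congr rfl fun x hx => ?_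
  rw [← Finset.HasAntidiagonal.mem_antidiagonal.1 hx, D1_mon_add]
  ring

theorem ev_zero (z : σ → C) : ev (0 : MvPowerSeries σ C) z = 0 := by
  unfold ev
  simp

theorem ev_C (c : C) (z : σ → C) : ev (MvPowerSeries.C c : MvPowerSeries σ C) z = c := by
  classical
  unfold ev
  rw [tsum_eq_single 0]
  · rw [MvPowerSeries.coeff_C, if_pos rfl]
    simp
  · intro d hd
    rw [MvPowerSeries.coeff_C, if_neg hd, zero_mul]

theorem ev_X (s : σ) (z : σ → C) : ev (MvPowerSeries.X s : MvPowerSeries σ C) z = z s := by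
  classical
  unfold ev
  rw [tsum_eq_single (Finsupp.single s 1)]
  · rw [MvPowerSeries.coeff_X, if_pos rfl]
    simp
  · intro d hd
    rw [MvPowerSeries.coeff_X, if_neg hd, zero_mul]

theorem ev_pow {f : MvPowerSeries σ C} (hf : Int1 f) {z : σ → C}
    (hz : ∀ s, ‖z s‖ < 1) (k : ℕ) : ev (f ^ k) z = ev f z ^ k := by
  induction k with
  | zero =>
    rw [pow_zero, pow_zero, ← map_one MvPowerSeries.C]
    exact ev_C 1 z
  | succ k ih =>
    rw [pow_succ, pow_succ, ev_mul (hf.pow k) hf hz, ih]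

/-- Norm bounds. -/
theorem norm_ev_le {f : MvPowerSeries σ C} {z : σ → C} (hz : ∀ s, ‖z s‖ < 1) {ε : ℝ}
    (hε : 0 ≤ ε) (h : ∀ d, ‖MvPowerSeries.coeff d f‖ ≤ ε) : ‖ev f z‖ ≤ ε := by
  unfold ev
  refine IsUltrametricDist.norm_tsum_le_of_forall_le_of_nonneg hε fun d => ?_
  have h1 := D1_norm_term h zero_le_one (fun s => (hz s).le) d
  rwa [one_pow, mul_one] at h1

/-- If the constant coefficient vanishes, `‖f(z)‖ ≤ ε · max ‖z s‖`. -/
theorem norm_ev_le_mul {f : MvPowerSeries σ C} (h0 : MvPowerSeries.constantCoeff f = 0)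
    {z : σ → C} {r ε : ℝ} (hr : r < 1) (hr0 : 0 ≤ r) (hz : ∀ s, ‖z s‖ ≤ r)
    (hε : 0 ≤ ε) (h : ∀ d, ‖MvPowerSeries.coeff d f‖ ≤ ε) : ‖ev f z‖ ≤ ε * r := by
  unfold ev
  refine IsUltrametricDist.norm_tsum_le_of_forall_le_of_nonneg (mul_nonneg hε hr0) fun d => ?_
  by_cases hd : d = 0
  · rw [hd, MvPowerSeries.coeff_zero_eq_constantCoeff_apply, h0, zero_mul, norm_zero]
    exact mul_nonneg hε hr0
  · refine (D1_norm_term h hr0 hz d).trans (mul_le_mul_of_nonneg_left ?_ hε)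
    have hd1 : 1 ≤ d.degree := by
      rw [Nat.one_le_iff_ne_zero]
      intro h1
      exact hd ((Finsupp.degree_eq_zero_iff d).1 h1)
    calc r ^ d.degree ≤ r ^ 1 := pow_le_pow_of_le_one hr0 hr.le hd1
      _ = r := pow_one r

/-- Lipschitz estimate `‖f(z) - f(w)‖ ≤ max ‖z s - w s‖`. -/
theorem norm_ev_sub_le {f : MvPowerSeries σ C} (hf : Int1 f) {z w : σ → C}
    (hz : ∀ s, ‖z s‖ < 1) (hw : ∀ s, ‖w s‖ < 1) {ε : ℝ} (hε : 0 ≤ ε)
    (h : ∀ s, ‖z s - w s‖ ≤ ε) : ‖ev f z - ev f w‖ ≤ ε := by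
  unfold ev
  rw [← (ev_summable hf hz).tsum_sub (ev_summable hf hw)]
  refine IsUltrametricDist.norm_tsum_le_of_forall_le_of_nonneg hε fun d => ?_
  rw [← mul_sub, norm_mul]
  calc ‖MvPowerSeries.coeff d f‖ *
        ‖d.prod (fun s e => z s ^ e) - d.prod (fun s e => w s ^ e)‖ ≤ 1 * ε :=
        mul_le_mul (hf d)
          (D1_norm_mon_sub hε (fun s => (hz s).le) (fun s => (hw s).le) h d) (norm_nonneg _)
          zero_le_one
    _ = ε := one_mul ε

end Crest.Agent.LU
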