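import Mathlib
import Crest.Agent.LU_D1

/-!
S0351 (blueprint LU), task D2: evaluation and substitution.
-/

set_option autoImplicit false

noncomputable section

namespace Crest.Agent.LU

open Crest.LubinTate

variable {C : Type} [NontriviallyNormedField C] [IsUltrametricDist C] [CompleteSpace C]
  {σ τ : Type} [Finite σ] [Finite τ]

private theorem D2_one : Int1 (1 : MvPowerSeries τ C) := by
  have h := Int1.const (σ := τ) (c := (1 : C)) (by simp)
  rwa [map_one] at h

private theorem D2_prod {ι : Type*} (s : Finset ι) {g : ι → MvPowerSeries τ C}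
    (h : ∀ i ∈ s, Int1 (g i)) : Int1 (∏ i ∈ s, g i) := by
  classical
  induction s using Finset.induction_on with
  | empty => rw [Finset.prod_empty]; exact D2_one
  | insert i s hi ih =>
    rw [Finset.prod_insert hi]
    exact (h i (Finset.mem_insert_self i s)).mul
      (ih fun j hj => h j (Finset.mem_insert_of_mem hj))

private theorem D2_monom {a : σ → MvPowerSeries τ C} (ha : ∀ s, Int1 (a s)) (d : σ →₀ ℕ) :
    Int1 (d.prod fun s e => a s ^ e) :=
  D2_prod _ fun s _ => (ha s).pow _

private theorem D2_ev_one (z : τ → C) : ev (1 : MvPowerSeries τ C) z = 1 := by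
  have h := ev_C (σ := τ) (1 : C) z
  rwa [map_one] at h

private theorem D2_ev_prod {ι : Type*} (s : Finset ι) {g : ι → MvPowerSeries τ C}
    (h : ∀ i ∈ s, Int1 (g i)) {z : τ → C} (hz : ∀ t, ‖z t‖ < 1) :
    ev (∏ i ∈ s, g i) z = ∏ i ∈ s, ev (g i) z := by
  classical
  induction s using Finset.induction_on with
  | empty => rw [Finset.prod_empty, Finset.prod_empty, D2_ev_one]
  | insert i s hi ih =>
    rw [Finset.prod_insert hi, Finset.prod_insert hi,
      ev_mul (h i (Finset.mem_insert_self i s))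
        (D2_prod s fun j hj => h j (Finset.mem_insert_of_mem hj)) hz,
      ih fun j hj => h j (Finset.mem_insert_of_mem hj)]

private theorem D2_ev_monom {a : σ → MvPowerSeries τ C} (ha : ∀ s, Int1 (a s)) (d : σ →₀ ℕ)
    {z : τ → C} (hz : ∀ t, ‖z t‖ < 1) :
    ev (d.prod fun s e => a s ^ e) z = d.prod fun s e => ev (a s) z ^ e := by
  unfold Finsupp.prod
  rw [D2_ev_prod _ (fun s _ => (ha s).pow _) hz]
  exact Finset.prod_congr rfl fun s _ => ev_pow (ha s) hz _

/-- TASK D2a. `f(a)` is integral if `f` and `a` are. (`MvPowerSeries.coeff_subst`: a finite sum of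
`coeff d f * coeff e (∏ a_s^{d_s})`.) -/
theorem Int1.subst {f : MvPowerSeries σ C} (hf : Int1 f) {a : σ → MvPowerSeries τ C}
    (ha : ∀ s, Int1 (a s)) (ha0 : ∀ s, MvPowerSeries.constantCoeff (a s) = 0) :
    Int1 (f.subst a) := by
  intro e
  rw [MvPowerSeries.coeff_subst (MvPowerSeries.hasSubst_of_constantCoeff_zero ha0)]
  refine finsum_induction (fun x => ‖x‖ ≤ 1) (by simp)
    (fun x y hx hy => (IsUltrametricDist.norm_add_le_max x y).trans (max_le hx hy)) fun d => ?_
  rw [smul_eq_mul, norm_mul]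
  exact mul_le_one₀ (hf d) (norm_nonneg _) (D2_monom ha d e)

private theorem D2_max (z : τ → C) (hz : ∀ t, ‖z t‖ < 1) :
    ∃ r : ℝ, 0 ≤ r ∧ r < 1 ∧ ∀ t, ‖z t‖ ≤ r := by
  have hfin : (insert 0 (Set.range fun t => ‖z t‖) : Set ℝ).Finite :=
    (Set.finite_range _).insert 0
  obtain ⟨r, hr, hmax⟩ := Set.exists_max_image _ id hfin ⟨0, Set.mem_insert _ _⟩
  refine ⟨r, hmax 0 (Set.mem_insert _ _), ?_, fun t => hmax _ (Set.mem_insert_of_mem _ ⟨t, rfl⟩)⟩
  rcases hr with h | ⟨t, h⟩
  · rw [h]; exact one_pos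
  · rw [← h]; exact hz t

private theorem D2_norm_monom {z : τ → C} {r : ℝ} (hz : ∀ t, ‖z t‖ ≤ r) (e : τ →₀ ℕ) :
    ‖e.prod fun t k => z t ^ k‖ ≤ r ^ e.degree := by
  unfold Finsupp.prod
  rw [norm_prod, Finsupp.degree_apply, ← Finset.prod_pow_eq_pow_sum]
  refine Finset.prod_le_prod (fun _ _ => norm_nonneg _) fun t _ => ?_
  rw [norm_pow]
  exact pow_le_pow_left₀ (norm_nonneg _) (hz t) _

private theorem D2_order {a : σ → MvPowerSeries τ C}
    (ha0 : ∀ s, MvPowerSeries.constantCoeff (a s) = 0) (d : σ →₀ ℕ) {e : τ →₀ ℕ}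
    (h : e.degree < d.degree) :
    MvPowerSeries.coeff e (d.prod fun s k => a s ^ k) = 0 := by
  apply MvPowerSeries.coeff_of_lt_order
  refine lt_of_lt_of_le (b := (d.degree : ℕ∞)) (by exact_mod_cast h) ?_
  unfold Finsupp.prod
  refine le_trans ?_ (MvPowerSeries.le_order_prod _ _)
  rw [Finsupp.degree_apply]
  push_cast
  refine Finset.sum_le_sum fun s _ => ?_
  exact MvPowerSeries.le_order_pow_of_constantCoeff_eq_zero _ (ha0 s)

private theorem D2_summable {f : MvPowerSeries σ C} (hf : Int1 f) {a : σ → MvPowerSeries τ C}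
    (ha : ∀ s, Int1 (a s)) (ha0 : ∀ s, MvPowerSeries.constantCoeff (a s) = 0) {z : τ → C}
    (hz : ∀ t, ‖z t‖ < 1) :
    Summable (Function.uncurry fun (e : τ →₀ ℕ) (d : σ →₀ ℕ) =>
      MvPowerSeries.coeff d f * MvPowerSeries.coeff e (d.prod fun s k => a s ^ k) *
        e.prod (fun t k => z t ^ k)) := by
  obtain ⟨r, hr0, hr1, hr⟩ := D2_max z hz
  apply NonarchimedeanAddGroup.summable_of_tendsto_cofinite_zero
  rw [Metric.tendsto_nhds]
  intro ε hε
  rw [Filter.eventually_cofinite]
  obtain ⟨N, hN⟩ := exists_pow_lt_of_lt_one hε hr1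
  have hfin : ({e : τ →₀ ℕ | e.degree ≤ N} ×ˢ {d : σ →₀ ℕ | d.degree ≤ N} :
      Set ((τ →₀ ℕ) × (σ →₀ ℕ))).Finite :=
    (Finsupp.finite_of_degree_le N).prod (Finsupp.finite_of_degree_le N)
  refine hfin.subset ?_
  rintro ⟨e, d⟩ hed
  simp only [Set.mem_ofPred_eq, Function.uncurry_apply_pair, dist_zero_right, not_lt] at hed
  have h1 : e.degree ≤ N := by
    by_contra hcon
    push Not at hcon
    have h2 : ‖MvPowerSeries.coeff d f * MvPowerSeries.coeff e (d.prod fun s k => a s ^ k) *
        e.prod (fun t k => z t ^ k)‖ ≤ r ^ e.degree := by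
      rw [norm_mul, norm_mul]
      calc _ ≤ 1 * r ^ e.degree := by
            refine mul_le_mul ?_ (D2_norm_monom hr e) (norm_nonneg _) zero_le_one
            exact mul_le_one₀ (hf d) (norm_nonneg _) (D2_monom ha d e)
        _ = _ := one_mul _
    have h3 : r ^ e.degree ≤ r ^ N := pow_le_pow_of_le_one hr0 hr1.le hcon.le
    linarith
  refine ⟨h1, ?_⟩
  show d.degree ≤ N
  by_contra hcon
  push Not at hcon
  rw [D2_order ha0 d (lt_of_le_of_lt h1 hcon), mul_zero, zero_mul, norm_zero] at hed
  linarith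

/-- TASK D2b. `(f(a))(z) = f(a(z))`.
Proof: both sides are additive in `f`; for `f` a monomial it is `ev_mul`/`ev_pow`; hence for
polynomials; if `f` has order `≥ N` then so has `f.subst a`, and both sides have norm
`≤ r^N`, `r = max ‖z t‖ < 1`.  Write `f` = truncation + rest.  (Alternative: Mathlib's
`MvPowerSeries.eval₂_subst` for the closed unit ball.) -/
theorem ev_subst {f : MvPowerSeries σ C} (hf : Int1 f) {a : σ → MvPowerSeries τ C}
    (ha : ∀ s, Int1 (a s)) (ha0 : ∀ s, MvPowerSeries.constantCoeff (a s) = 0) {z : τ → C}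
    (hz : ∀ t, ‖z t‖ < 1) : ev (f.subst a) z = ev f (fun s => ev (a s) z) := by
  have hsub := MvPowerSeries.hasSubst_of_constantCoeff_zero ha0
  have h1 : ev (f.subst a) z = ∑' e : τ →₀ ℕ, ∑' d : σ →₀ ℕ,
      MvPowerSeries.coeff d f * MvPowerSeries.coeff e (d.prod fun s k => a s ^ k) *
        e.prod (fun t k => z t ^ k) := by
    unfold ev
    refine tsum_congr fun e => ?_
    rw [tsum_mul_right, MvPowerSeries.coeff_subst hsub]
    congr 1
    exact (tsum_eq_finsum (MvPowerSeries.coeff_subst_finite hsub f e)).symm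
  have h2 : ev f (fun s => ev (a s) z) = ∑' d : σ →₀ ℕ, ∑' e : τ →₀ ℕ,
      MvPowerSeries.coeff d f * MvPowerSeries.coeff e (d.prod fun s k => a s ^ k) *
        e.prod (fun t k => z t ^ k) := by
    show (∑' d : σ →₀ ℕ, MvPowerSeries.coeff d f * d.prod (fun s e => (ev (a s) z) ^ e)) = _
    refine tsum_congr fun d => ?_
    rw [← D2_ev_monom ha d hz]
    unfold ev
    rw [← tsum_mul_left]
    exact tsum_congr fun e => (mul_assoc _ _ _).symm
  rw [h1, h2]
  exact (D2_summable hf ha ha0 hz).tsum_comm.symm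

private def D2_e : ℕ ≃ (Unit →₀ ℕ) where
  toFun i := Finsupp.single () i
  invFun d := d ()
  left_inv i := by simp
  right_inv d := by ext; simp

/-- One-variable versions. -/
theorem ev1_eq (f : PowerSeries C) (z : C) : ev1 f z = ∑' i : ℕ, PowerSeries.coeff i f * z ^ i := by
  unfold ev1 ev
  rw [← D2_e.tsum_eq]
  refine tsum_congr fun i => ?_
  have h : (D2_e i).prod (fun (_ : Unit) (e : ℕ) => z ^ e) = z ^ i :=
    Finsupp.prod_single_index (h := fun (_ : Unit) (e : ℕ) => z ^ e) (pow_zero _)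
  rw [h]
  rfl

theorem Int1.cmp {f : PowerSeries C} (hf : Int1 f) {a : MvPowerSeries τ C} (ha : Int1 a)
    (ha0 : MvPowerSeries.constantCoeff a = 0) : Int1 (cmp f a) :=
  Int1.subst (σ := Unit) (f := f) hf (a := fun _ => a) (fun _ => ha) (fun _ => ha0)

theorem ev_cmp {f : PowerSeries C} (hf : Int1 f) {a : MvPowerSeries τ C} (ha : Int1 a)
    (ha0 : MvPowerSeries.constantCoeff a = 0) {z : τ → C} (hz : ∀ t, ‖z t‖ < 1) :
    ev (cmp f a) z = ev1 f (ev a z) :=
  ev_subst (σ := Unit) (f := f) hf (a := fun _ => a) (fun _ => ha) (fun _ => ha0) hz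

theorem ev1_cmp {f a : PowerSeries C} (hf : Int1 f) (ha : Int1 a)
    (ha0 : PowerSeries.constantCoeff a = 0) {z : C} (hz : ‖z‖ < 1) :
    ev1 (cmp f a) z = ev1 f (ev1 a z) :=
  ev_cmp (τ := Unit) hf ha ha0 (z := fun _ => z) fun _ => hz

theorem ev1_X (z : C) : ev1 (PowerSeries.X : PowerSeries C) z = z :=
  ev_X (σ := Unit) () fun _ => z

theorem ev1_X_pow (k : ℕ) {z : C} (hz : ‖z‖ < 1) :
    ev1 ((PowerSeries.X : PowerSeries C) ^ k) z = z ^ k := by
  have h := ev_pow (σ := Unit) (f := (PowerSeries.X : PowerSeries C)) (Int1.var (C := C) ())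
    (z := fun _ => z) (fun _ => hz) k
  have h2 : ev (PowerSeries.X : PowerSeries C) (fun _ : Unit => z) = z := ev1_X z
  rw [h2] at h
  exact h

/-- the closed unit ball -/
private def D2_O (C : Type) [NontriviallyNormedField C] [IsUltrametricDist C] : Subring C where
  carrier := {x | ‖x‖ ≤ 1}
  mul_mem' := fun {a b} ha hb => by
    show ‖a * b‖ ≤ 1
    rw [norm_mul]
    exact mul_le_one₀ ha (norm_nonneg _) hb
  one_mem' := by
    show ‖(1 : C)‖ ≤ 1
    simp
  add_mem' := fun {a b} ha hb =>
    (IsUltrametricDist.norm_add_le_max a b).trans (max_le ha hb)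
  zero_mem' := by
    show ‖(0 : C)‖ ≤ 1
    simp
  neg_mem' := fun {a} ha => by
    show ‖-a‖ ≤ 1
    rw [norm_neg]
    exact ha

private theorem D2_map_inj {ρ : Type} {f g : MvPowerSeries ρ (D2_O C)}
    (h : MvPowerSeries.map (D2_O C).subtype f = MvPowerSeries.map (D2_O C).subtype g) :
    f = g := by
  ext d
  have := congrArg (MvPowerSeries.coeff d) h
  rw [MvPowerSeries.coeff_map, MvPowerSeries.coeff_map] at this
  exact this

private theorem D2_map_pair {ρ : Type} (P : MvPowerSeries (Fin 2) (D2_O C))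
    {a b : MvPowerSeries ρ (D2_O C)} (ha : MvPowerSeries.constantCoeff a = 0)
    (hb : MvPowerSeries.constantCoeff b = 0) :
    MvPowerSeries.map (D2_O C).subtype (P.subst ![a, b]) =
      (MvPowerSeries.map (D2_O C).subtype P).subst
        ![MvPowerSeries.map (D2_O C).subtype a, MvPowerSeries.map (D2_O C).subtype b] := by
  rw [MvPowerSeries.map_subst (hasSubst_pair ha hb)]
  congr 1
  funext i
  fin_cases i <;> rfl

/-- an integral law over the unit ball -/
private def D2_law (F : IFG C) : FormalGroup (D2_O C) where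
  toPowerSeries := fun d => ⟨MvPowerSeries.coeff d F.law.toPowerSeries, F.int d⟩
  zero_constantCoeff := Subtype.ext F.law.zero_constantCoeff
  lin_coeff_X := Subtype.ext F.law.lin_coeff_X
  lin_coeff_Y := Subtype.ext F.law.lin_coeff_Y
  assoc := by
    set P : MvPowerSeries (Fin 2) (D2_O C) :=
      fun d => ⟨MvPowerSeries.coeff d F.law.toPowerSeries, F.int d⟩ with hP
    have hPm : MvPowerSeries.map (D2_O C).subtype P = F.law.toPowerSeries := by
      ext d
      rfl
    have hP0 : MvPowerSeries.constantCoeff P = 0 := Subtype.ext F.law.zero_constantCoeff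
    have hY : ∀ i : Fin 3, MvPowerSeries.constantCoeff
        (MvPowerSeries.X i : MvPowerSeries (Fin 3) (D2_O C)) = 0 :=
      fun i => MvPowerSeries.constantCoeff_X i
    have hc : ∀ i j : Fin 3, MvPowerSeries.constantCoeff
        (P.subst ![(MvPowerSeries.X i : MvPowerSeries (Fin 3) (D2_O C)),
          MvPowerSeries.X j]) = 0 := fun i j =>
      MvPowerSeries.constantCoeff_subst_eq_zero (hasSubst_pair (hY i) (hY j))
        (fun s => by fin_cases s <;> simp) hP0
    apply D2_map_inj
    rw [D2_map_pair P (hc 0 1) (hY 2), D2_map_pair P (hY 0) (hc 1 2),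
      D2_map_pair P (hY 0) (hY 1), D2_map_pair P (hY 1) (hY 2), hPm, MvPowerSeries.map_X,
      MvPowerSeries.map_X, MvPowerSeries.map_X]
    exact F.law.assoc

private theorem D2_law_map (F : IFG C) : (D2_law F).map (D2_O C).subtype = F.law := by
  apply FormalGroup.ext
  ext d
  rfl

/-- The additive inverse series of an integral law is integral. (The inverse series is unique;
or: it has coefficients in the subring generated by the coefficients of `F`.) -/
theorem Int1.inv (F : IFG C) : Int1 (LU.inv F.law) := by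
  haveI := F.comm
  have h1 : fadd F.law (PowerSeries.X : PowerSeries C)
      (PowerSeries.map (D2_O C).subtype (LU.inv (D2_law F))) = 0 := by
    have h2 := map_fadd (σ := Unit) (D2_law F) (D2_O C).subtype
      (a := (PowerSeries.X : PowerSeries (D2_O C))) (b := LU.inv (D2_law F))
      PowerSeries.constantCoeff_X (constantCoeff_inv _)
    have h3 := fadd_inv (D2_law F)
    have h4 : (fadd (D2_law F) (PowerSeries.X : PowerSeries (D2_O C)) (LU.inv (D2_law F)) :
      MvPowerSeries Unit (D2_O C)) = 0 := h3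
    rw [h4, map_zero, D2_law_map] at h2
    have h5 : (MvPowerSeries.map (D2_O C).subtype : MvPowerSeries Unit (D2_O C) →+* _)
        (PowerSeries.X : PowerSeries (D2_O C)) = (PowerSeries.X : PowerSeries C) :=
      PowerSeries.map_X _
    rw [h5] at h2
    exact h2.symm
  have h0 : PowerSeries.constantCoeff
      (PowerSeries.map (D2_O C).subtype (LU.inv (D2_law F))) = 0 := by
    rw [← PowerSeries.coeff_zero_eq_constantCoeff_apply, PowerSeries.coeff_map,
      PowerSeries.coeff_zero_eq_constantCoeff_apply, constantCoeff_inv, map_zero]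
  have hA : ptX F.law + (⟨PowerSeries.map (D2_O C).subtype (LU.inv (D2_law F)), h0⟩ :
      FPt F.law Unit) = 0 := FPt.ext h1
  have hB : ptX F.law + (⟨LU.inv F.law, constantCoeff_inv _⟩ : FPt F.law Unit) = 0 :=
    FPt.ext (fadd_inv F.law)
  have hAB := congrArg FPt.val (add_left_cancel (hA.trans hB.symm))
  have hAB' : PowerSeries.map (D2_O C).subtype (LU.inv (D2_law F)) = LU.inv F.law := hAB
  rw [← hAB']
  intro d
  exact (MvPowerSeries.coeff d (LU.inv (D2_law F) : MvPowerSeries Unit (D2_O C))).2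

theorem Int1.mulSeries (F : IFG C) (m : ℕ) : Int1 (Crest.LubinTate.mulSeries F.law m) := by
  induction m with
  | zero =>
    intro d
    show ‖MvPowerSeries.coeff d (0 : MvPowerSeries Unit C)‖ ≤ 1
    simp
  | succ m ih =>
    show Int1 (F.law.toPowerSeries.subst ![Crest.LubinTate.mulSeries F.law m, PowerSeries.X] :
      MvPowerSeries Unit C)
    refine Int1.subst F.int (a := ![Crest.LubinTate.mulSeries F.law m, PowerSeries.X]) ?_ ?_
    · intro s
      fin_cases s
      · exact ih
      · exact Int1.var (C := C) ()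
    · intro s
      fin_cases s
      · exact constantCoeff_mulSeries F.law m
      · exact PowerSeries.constantCoeff_X

/-- Frobenius twist of an evaluation: `(f(z))^{p^h} = f^{(p^h)}(z^{p^h})`. -/
theorem ev_pow_frob (p : ℕ) [Fact p.Prime] [CharP C p] (h : ℕ) {f : MvPowerSeries σ C}
    (hf : Int1 f) {z : σ → C} (hz : ∀ s, ‖z s‖ < 1) :
    (ev f z) ^ (p ^ h) = ev (MvPowerSeries.map (iterateFrobenius C p h) f)
      (fun s => z s ^ (p ^ h)) := by
  have hcont : Continuous (iterateFrobenius C p h) := by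
    have : (iterateFrobenius C p h : C → C) = fun x => x ^ (p ^ h) := by
      funext x
      exact iterateFrobenius_def p h x
    rw [this]
    exact continuous_pow _
  have h1 := (ev_summable hf hz).hasSum.map (iterateFrobenius C p h) hcont
  have h2 := h1.tsum_eq
  rw [iterateFrobenius_def] at h2
  unfold ev
  rw [← h2]
  refine tsum_congr fun d => ?_
  simp only [Function.comp_apply, map_mul, MvPowerSeries.coeff_map]
  congr 1
  unfold Finsupp.prod
  rw [map_prod]
  refine Finset.prod_congr rfl fun s _ => ?_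
  rw [map_pow, iterateFrobenius_def]

theorem Int1.map_frob (p : ℕ) [Fact p.Prime] [CharP C p] (h : ℕ) {f : MvPowerSeries σ C}
    (hf : Int1 f) : Int1 (MvPowerSeries.map (iterateFrobenius C p h) f) := by
  intro d
  rw [MvPowerSeries.coeff_map, iterateFrobenius_def, norm_pow]
  exact pow_le_one₀ (norm_nonneg _) (hf d)

end Crest.Agent.LU
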