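import Mathlib
import Crest.Agent.LUA_R1
import Crest.Agent.LU_D2

/-!
S0351 (blueprint LU), part (5), TASK LUA-R2: the roots of `V^{[N]}` at a point are the roots of the
Weierstrass polynomial; they are simple.
-/

set_option autoImplicit false

noncomputable section

namespace Crest.Agent.LUA

open Crest.LubinTate Crest.Agent.LU IsLocalRing

variable {C : Type} [NontriviallyNormedField C] [IsUltrametricDist C] [CompleteSpace C]

omit [IsUltrametricDist C] [CompleteSpace C] in
private theorem r2_int {f : PowerSeries C} (h : ∀ i, ‖PowerSeries.coeff i f‖ ≤ 1) : Int1 f := by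
  intro d
  have := h (d ())
  rw [PowerSeries.coeff_def (s := d) rfl] at this
  exact this

omit [IsUltrametricDist C] [CompleteSpace C] in
private theorem r2_int' {f : PowerSeries C} (h : Int1 f) (i : ℕ) :
    ‖PowerSeries.coeff i f‖ ≤ 1 := h (Finsupp.single () i)

omit [CompleteSpace C] in
private theorem r2_int_der {f : PowerSeries C} (h : Int1 f) :
    Int1 (PowerSeries.derivative C f : PowerSeries C) := by
  apply r2_int
  intro i
  rw [PowerSeries.coeff_derivative, norm_mul]
  refine mul_le_one₀ (r2_int' h _) (norm_nonneg _) ?_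
  have := IsUltrametricDist.norm_natCast_le_one C (i + 1)
  push_cast at this
  exact this

private theorem r2_ev_unit {U : PowerSeries C} (hU : Int1 U)
    (hU0 : ‖PowerSeries.constantCoeff U‖ = 1) {z : C} (hz : ‖z‖ < 1) : ‖ev1 U z‖ = 1 := by
  set c := PowerSeries.constantCoeff U with hc
  have hC : Int1 (MvPowerSeries.C c : MvPowerSeries Unit C) := Int1.const hU0.le
  have hz' : ∀ s : Unit, ‖(fun _ : Unit => z) s‖ < 1 := fun _ => hz
  have e1 : ev1 U z = ev (U - MvPowerSeries.C c : MvPowerSeries Unit C) (fun _ => z) + c := by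
    rw [ev_sub hU hC hz', ev_C, sub_add_cancel]
    rfl
  have e2 : ‖ev (U - MvPowerSeries.C c : MvPowerSeries Unit C) (fun _ => z)‖ ≤ 1 * ‖z‖ := by
    refine norm_ev_le_mul ?_ hz (norm_nonneg _) (fun _ => le_refl _) zero_le_one (hU.sub hC)
    rw [map_sub, MvPowerSeries.constantCoeff_C, sub_eq_zero]
    rfl
  have e3 : ‖ev (U - MvPowerSeries.C c : MvPowerSeries Unit C) (fun _ => z)‖ < ‖c‖ := by
    rw [hU0]
    linarith
  rw [e1, IsUltrametricDist.norm_add_eq_max_of_norm_ne_norm e3.ne, max_eq_right e3.le, hU0]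

omit [CompleteSpace C] in
private theorem r2_lt {W : Polynomial C} (hW : W.Monic)
    (hlt : ∀ i < W.natDegree, ‖W.coeff i‖ < 1) {z : C} (hz : W.eval z = 0) : ‖z‖ < 1 := by
  by_contra hcon
  push Not at hcon
  have h1 : W.eval z = z ^ W.natDegree + ∑ i ∈ Finset.range W.natDegree, W.coeff i * z ^ i := by
    rw [Polynomial.eval_eq_sum_range, Finset.sum_range_succ, hW.coeff_natDegree, one_mul, add_comm]
  have h2 : ∀ s : Finset ℕ, (∀ i ∈ s, i < W.natDegree) →
      ‖∑ i ∈ s, W.coeff i * z ^ i‖ < ‖z‖ ^ W.natDegree := by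
    intro s
    induction s using Finset.induction_on with
    | empty =>
      intro _
      rw [Finset.sum_empty, norm_zero]
      exact pow_pos (by linarith) _
    | insert a s ha ih =>
      intro hs
      rw [Finset.sum_insert ha]
      refine lt_of_le_of_lt (IsUltrametricDist.norm_add_le_max _ _) (max_lt ?_ ?_)
      · have ha' : a < W.natDegree := hs a (Finset.mem_insert_self _ _)
        rw [norm_mul, norm_pow]
        have g1 : 0 < ‖z‖ ^ a := pow_pos (by linarith) _
        calc ‖W.coeff a‖ * ‖z‖ ^ a < 1 * ‖z‖ ^ a := mul_lt_mul_of_pos_right (hlt a ha') g1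
          _ = ‖z‖ ^ a := one_mul _
          _ ≤ ‖z‖ ^ W.natDegree := pow_le_pow_right₀ hcon ha'.le
      · exact ih fun i hi => hs i (Finset.mem_insert_of_mem hi)
  have h3 := h2 (Finset.range W.natDegree) fun i hi => Finset.mem_range.1 hi
  have h4 : z ^ W.natDegree = -∑ i ∈ Finset.range W.natDegree, W.coeff i * z ^ i := by
    rw [h1] at hz
    exact eq_neg_of_add_eq_zero_left hz
  have h5 : ‖z‖ ^ W.natDegree = ‖∑ i ∈ Finset.range W.natDegree, W.coeff i * z ^ i‖ := by
    rw [← norm_pow, h4, norm_neg]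
  linarith

omit [IsUltrametricDist C] [CompleteSpace C] in
private theorem r2_int_W {W : Polynomial C} (hW : W.Monic)
    (hlt : ∀ i < W.natDegree, ‖W.coeff i‖ < 1) : Int1 (W : PowerSeries C) := by
  apply r2_int
  intro i
  rw [Polynomial.coeff_coe]
  rcases lt_trichotomy i W.natDegree with h | h | h
  · exact (hlt i h).le
  · rw [h, hW.coeff_natDegree, norm_one]
  · rw [Polynomial.coeff_eq_zero_of_natDegree_lt h, norm_zero]
    exact zero_le_one

private theorem r2_ev1_mul {f g : PowerSeries C} (hf : Int1 f) (hg : Int1 g) {z : C}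
    (hz : ‖z‖ < 1) : ev1 (f * g) z = ev1 f z * ev1 g z :=
  ev_mul (σ := Unit) hf hg fun _ => hz

private theorem r2_ev1_add {f g : PowerSeries C} (hf : Int1 f) (hg : Int1 g) {z : C}
    (hz : ‖z‖ < 1) : ev1 (f + g) z = ev1 f z + ev1 g z :=
  ev_add (σ := Unit) hf hg fun _ => hz

/-- Evaluation of a polynomial as a power series. -/
theorem ev1_coe (W : Polynomial C) (z : C) : ev1 (W : PowerSeries C) z = W.eval z := by
  rw [ev1_eq, Polynomial.eval_eq_sum_range, tsum_eq_sum (s := Finset.range (W.natDegree + 1))]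
  · simp only [Polynomial.coeff_coe]
  · intro i hi
    rw [Finset.mem_range, not_lt] at hi
    rw [Polynomial.coeff_coe, Polynomial.coeff_eq_zero_of_natDegree_lt (by omega), zero_mul]

/-- TASK LUA-R2a.  `f = W·U` with `W` monic, lower coefficients of norm `< 1`, `U` integral with
constant coefficient of norm `1`: the zeros of `f` in the open unit ball are the zeros of `W` in
`C` (all of them have norm `< 1`, and `‖U(z)‖ = 1`). -/
theorem rts_eq_roots {f : PowerSeries C} {W : Polynomial C} {U : PowerSeries C}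
    (hf : f = (W : PowerSeries C) * U) (hW : W.Monic) (hlt : ∀ i < W.natDegree, ‖W.coeff i‖ < 1)
    (hU : Int1 U) (hU0 : ‖PowerSeries.constantCoeff U‖ = 1) :
    rts f = {z | W.eval z = 0} := by
  have hWi := r2_int_W hW hlt
  ext z
  constructor
  · rintro ⟨hz, h0⟩
    rw [hf, r2_ev1_mul hWi hU hz, ev1_coe] at h0
    have h1 := r2_ev_unit hU hU0 hz
    rcases mul_eq_zero.1 h0 with h2 | h2
    · exact h2
    · rw [h2, norm_zero] at h1
      exact absurd h1 zero_ne_one
  · intro h0
    have hz := r2_lt hW hlt h0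
    refine ⟨hz, ?_⟩
    rw [hf, r2_ev1_mul hWi hU hz, ev1_coe]
    have h1 : W.eval z = 0 := h0
    rw [h1, zero_mul]

/-- Evaluation of the formal derivative is the derivative; what is needed: if `f = W·U` as above
and `f' = C a * u`, `a ≠ 0`, `u` integral with constant coefficient of norm `1`, then all roots of
`W` are simple (`f' = W' U + W U'`, at a root `z`: `0 ≠ a u(z) = W'(z) U(z)`). -/
theorem derivative_ne_zero_of_root {f : PowerSeries C} {W : Polynomial C} {U : PowerSeries C}
    (hf : f = (W : PowerSeries C) * U) (hW : W.Monic) (hlt : ∀ i < W.natDegree, ‖W.coeff i‖ < 1)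
    (hU : Int1 U) (hU0 : ‖PowerSeries.constantCoeff U‖ = 1)
    {a : C} {u : PowerSeries C} (ha : a ≠ 0)
    (hu : Int1 u) (hu0 : ‖PowerSeries.constantCoeff u‖ = 1)
    (hder : PowerSeries.derivative C f = PowerSeries.C a * u) {z : C} (hz : W.eval z = 0) :
    W.derivative.eval z ≠ 0 := by
  have hz1 := r2_lt hW hlt hz
  have hWi := r2_int_W hW hlt
  have hWi' : Int1 (W.derivative : PowerSeries C) := by
    have := r2_int_der hWi
    rwa [PowerSeries.derivative_coe] at this
  have hU' := r2_int_der hU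
  have hfi : Int1 f := by rw [hf]; exact hWi.mul hU
  have hfi' := r2_int_der hfi
  have ha1 : ‖a‖ ≤ 1 := by
    have h1 := r2_int' hfi' 0
    rw [hder, PowerSeries.coeff_zero_eq_constantCoeff_apply, map_mul,
      PowerSeries.constantCoeff_C, norm_mul, hu0, mul_one] at h1
    exact h1
  have hCa : Int1 (PowerSeries.C a : PowerSeries C) := Int1.const (σ := Unit) ha1
  have e1 : PowerSeries.derivative C f =
      (W : PowerSeries C) * PowerSeries.derivative C U + U * (W.derivative : PowerSeries C) := by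
    rw [hf, Derivation.leibniz, smul_eq_mul, smul_eq_mul, PowerSeries.derivative_coe]
  have e2 : ev1 (PowerSeries.derivative C f) z = ev1 U z * W.derivative.eval z := by
    rw [e1, r2_ev1_add (hWi.mul hU') (hU.mul hWi') hz1, r2_ev1_mul hWi hU' hz1,
      r2_ev1_mul hU hWi' hz1, ev1_coe, ev1_coe, hz, zero_mul, zero_add]
  have e3 : ev1 (PowerSeries.derivative C f) z = a * ev1 u z := by
    rw [hder, r2_ev1_mul hCa hu hz1]
    congr 1
    exact ev_C (σ := Unit) a _
  intro h0
  rw [h0, mul_zero, e3] at e2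
  have h1 := r2_ev_unit hu hu0 hz1
  rcases mul_eq_zero.1 e2 with h2 | h2
  · exact ha h2
  · rw [h2, norm_zero] at h1
    exact absurd h1 zero_ne_one

variable {p : ℕ} [Fact p.Prime] {n : ℕ} {Γ : FormalGroup (GaloisField p n)} [Γ.IsComm]
  {H : FormalGroup (LTRing p n)} [H.IsComm]

omit [IsUltrametricDist C] [CompleteSpace C] in
private theorem r2_bar_le {P : Ideal (LTRing p n)} {χ : LTRing p n →+* C} (hχ : IsPoint P χ)
    (a : LTRing p n ⧸ P) : ‖bar hχ a‖ ≤ 1 := by
  obtain ⟨b, rfl⟩ := Ideal.Quotient.mk_surjective a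
  rw [bar_mk]
  exact hχ.le b

omit [IsUltrametricDist C] [CompleteSpace C] in
private theorem r2_bar_unit {P : Ideal (LTRing p n)} {χ : LTRing p n →+* C} (hχ : IsPoint P χ)
    {a : LTRing p n ⧸ P} (ha : IsUnit a) : ‖bar hχ a‖ = 1 := by
  obtain ⟨b, hb⟩ := ha.exists_right_inv
  have h1 : ‖bar hχ a‖ * ‖bar hχ b‖ = 1 := by
    rw [← norm_mul, ← map_mul, hb, map_one, norm_one]
  have h2 := r2_bar_le hχ a
  have h3 := r2_bar_le hχ b
  have h4 := norm_nonneg (bar hχ a)
  nlinarith [mul_le_mul_of_nonneg_left h3 h4]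

omit [IsUltrametricDist C] [CompleteSpace C] in
private theorem r2_bar_lt {P : Ideal (LTRing p n)} (hP : P ≠ ⊤) {χ : LTRing p n →+* C}
    (hχ : IsPoint P χ) {a : LTRing p n ⧸ P} (ha : resQ P hP a = 0) : ‖bar hχ a‖ < 1 := by
  obtain ⟨b, rfl⟩ := Ideal.Quotient.mk_surjective a
  rw [bar_mk]
  exact hχ.lt b ha

omit [IsUltrametricDist C] [CompleteSpace C] in
private theorem r2_map_W {P : Ideal (LTRing p n)} (hP : P ≠ ⊤) {χ : LTRing p n →+* C}
    (hχ : IsPoint P χ) {W : Polynomial (LTRing p n ⧸ P)} (hW : W.Monic)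
    (hWl : ∀ i < W.natDegree, resQ P hP (W.coeff i) = 0) :
    (W.map (bar hχ)).Monic ∧
      ∀ i < (W.map (bar hχ)).natDegree, ‖(W.map (bar hχ)).coeff i‖ < 1 := by
  refine ⟨hW.map _, ?_⟩
  intro i hi
  rw [hW.natDegree_map] at hi
  rw [Polynomial.coeff_map]
  exact r2_bar_lt hP hχ (hWl i hi)

omit [IsUltrametricDist C] [CompleteSpace C] in
private theorem r2_map_U {P : Ideal (LTRing p n)} {χ : LTRing p n →+* C}
    (hχ : IsPoint P χ) {U : PowerSeries (LTRing p n ⧸ P)} (hU : IsUnit (PowerSeries.constantCoeff U)) :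
    Int1 (PowerSeries.map (bar hχ) U) ∧
      ‖PowerSeries.constantCoeff (PowerSeries.map (bar hχ) U)‖ = 1 := by
  constructor
  · apply r2_int
    intro i
    rw [PowerSeries.coeff_map]
    exact r2_bar_le hχ _
  · rw [← PowerSeries.coeff_zero_eq_constantCoeff_apply, PowerSeries.coeff_map,
      PowerSeries.coeff_zero_eq_constantCoeff_apply]
    exact r2_bar_unit hχ hU

omit [H.IsComm] in
private theorem r2_vA0 (h : ℕ) (P : Ideal (LTRing p n)) :
    PowerSeries.constantCoeff (vA H h P) = 0 := by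
  rw [← PowerSeries.coeff_zero_eq_constantCoeff_apply]
  unfold vA
  rw [PowerSeries.coeff_mk, mul_zero, PowerSeries.coeff_zero_eq_constantCoeff_apply]
  exact constantCoeff_mulSeries _ _

omit [IsUltrametricDist C] [CompleteSpace C] in
private theorem r2_VN [CharP C p] {h : ℕ} {P : Ideal (LTRing p n)}
    [CharP (LTRing p n ⧸ P) p] (N : ℕ) {χ : LTRing p n →+* C} (hχ : IsPoint P χ) :
    VN p h (VS H h χ) N = PowerSeries.map (bar hχ) (VNA p h (vA H h P) N) := by
  rw [VN_eq_VNA, VS_eq h hχ, map_VNA h (bar hχ) (r2_vA0 h P) N]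

/-- TASK LUA-R2b.  Roots at a point, for `W` as in `exists_weierstrass` (any such `W`, `U`).
(`VS_eq`, `VN_eq_VNA`, `map_VNA`, `rts_eq_roots`; units of `A` are mapped to elements of norm `1`:
`χ` has norm `≤ 1` on `A` and on the inverse.) -/
theorem rts_VN_eq [CharP C p] {h : ℕ} {P : Ideal (LTRing p n)}
    [CharP (LTRing p n ⧸ P) p] (hP : P ≠ ⊤) (hle : heightIdeal p n H h ≤ P) (N : ℕ)
    {W : Polynomial (LTRing p n ⧸ P)} {U : PowerSeries (LTRing p n ⧸ P)} (hU : IsUnit U)
    (hWU : VNA p h (vA H h P) N = (W : PowerSeries (LTRing p n ⧸ P)) * U) (hW : W.Monic)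
    (hWl : ∀ i < W.natDegree, resQ P hP (W.coeff i) = 0)
    {χ : LTRing p n →+* C} (hχ : IsPoint P χ) :
    rts (VN p h (VS H h χ) N) = {z | (W.map (bar hχ)).eval z = 0} := by
  obtain ⟨h1, h2⟩ := r2_map_W hP hχ hW hWl
  obtain ⟨h3, h4⟩ := r2_map_U hχ (PowerSeries.isUnit_constantCoeff U hU)
  refine rts_eq_roots (U := PowerSeries.map (bar hχ) U) ?_ h1 h2 h3 h4
  rw [r2_VN N hχ, hWU, map_mul, Polynomial.polynomial_map_coe]

/-- TASK LUA-R2c.  `W` is separable over the fraction field of `A` and its images in `C` have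
simple roots: from `derivative_ne_zero_of_root`, `derivative_hom`, `VNA_hom`, `coeff_one_VNA_ne`. -/
theorem weierstrass_simple [CharP C p] {h : ℕ} {P : Ideal (LTRing p n)} [P.IsPrime]
    [CharP (LTRing p n ⧸ P) p] (hP : P ≠ ⊤) (hle : heightIdeal p n H h ≤ P) (hv : vv H h ∉ P)
    (N : ℕ) {W : Polynomial (LTRing p n ⧸ P)} {U : PowerSeries (LTRing p n ⧸ P)} (hU : IsUnit U)
    (hWU : VNA p h (vA H h P) N = (W : PowerSeries (LTRing p n ⧸ P)) * U) (hW : W.Monic)
    (hWl : ∀ i < W.natDegree, resQ P hP (W.coeff i) = 0)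
    {χ : LTRing p n →+* C} (hχ : IsPoint P χ) {z : C} (hz : (W.map (bar hχ)).eval z = 0) :
    (W.map (bar hχ)).derivative.eval z ≠ 0 := by
  obtain ⟨h1, h2⟩ := r2_map_W hP hχ hW hWl
  obtain ⟨h3, h4⟩ := r2_map_U hχ (PowerSeries.isUnit_constantCoeff U hU)
  obtain ⟨-, hhom, hco⟩ := vA_spec (H := H) hle
  have hhom' := VNA_hom h hhom N
  obtain ⟨u, hu, hder⟩ := derivative_hom hhom'
  obtain ⟨h5, h6⟩ := r2_map_U hχ hu
  have hc1 : PowerSeries.coeff 1 (vA H h P) ≠ 0 := by
    have := hco 0
    rw [pow_zero, add_zero] at this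
    rw [this]
    intro h0
    exact hv (Ideal.Quotient.eq_zero_iff_mem.1 h0)
  have hc2 := coeff_one_VNA_ne h (r2_vA0 h P) hc1 N
  have hc3 : bar hχ (PowerSeries.coeff 1 (VNA p h (vA H h P) N)) ≠ 0 := by
    intro h0
    exact hc2 ((map_eq_zero_iff _ (bar_injective hχ)).1 h0)
  refine derivative_ne_zero_of_root (f := PowerSeries.map (bar hχ) (VNA p h (vA H h P) N))
    (U := PowerSeries.map (bar hχ) U) ?_ h1 h2 h3 h4 hc3 h5 h6 ?_ hz
  · rw [hWU, map_mul, Polynomial.polynomial_map_coe]
  · have e1 : PowerSeries.derivative C (PowerSeries.map (bar hχ) (VNA p h (vA H h P) N)) =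
        PowerSeries.map (bar hχ) (PowerSeries.derivative (LTRing p n ⧸ P)
          (VNA p h (vA H h P) N)) := by
      ext i
      rw [PowerSeries.coeff_derivative, PowerSeries.coeff_map, PowerSeries.coeff_map,
        PowerSeries.coeff_derivative, map_mul, map_add, map_natCast, map_one]
    rw [e1, hder, map_mul, PowerSeries.map_C]

end Crest.Agent.LUA
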