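import Mathlib
import Crest.Agent.LUA_FDefs

/-!
S0351 (blueprint LU), part (5): sequences of embeddings `σ m : K → C` converging to `ι : K → C` at
speed `δ m`.
-/

set_option autoImplicit false

noncomputable section

namespace Crest.Agent.LUA

open Filter Asymptotics

/-- `σ m z - ι z = O(δ m)` for every `z ∈ K`. -/
def Close {K C : Type*} [Field K] [NormedField C] (ι : K →+* C) (σ : ℕ → K →+* C)
    (δ : ℕ → ℝ) : Prop :=
  ∀ z : K, (fun m => σ m z - ι z) =O[atTop] δ

end Crest.Agent.LUA
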