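import Mathlib
import Crest.Agent.LUA_T0

/-!
S0351 (blueprint LU), part (5), TASK LUA-T1: first order calculus for a sequence of embeddings.
-/

set_option autoImplicit false

noncomputable section

namespace Crest.Agent.LUA

open Filter Asymptotics Topology

variable {K C : Type*} [Field K] [NormedField C] {ι : K →+* C} {σ : ℕ → K →+* C} {δ : ℕ → ℝ}

private theorem T1_tend (hδ : Tendsto δ atTop (𝓝 0)) {z : K}
    (h : (fun m => σ m z - ι z) =O[atTop] δ) : Tendsto (fun m => σ m z) atTop (𝓝 (ι z)) := by
  have h1 : Tendsto (fun m => σ m z - ι z) atTop (𝓝 0) := h.trans_tendsto hδ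
  have h2 := h1.add_const (ι z)
  simpa using h2

private theorem T1_bdd (hδ : Tendsto δ atTop (𝓝 0)) {z : K}
    (h : (fun m => σ m z - ι z) =O[atTop] δ) : (fun m => σ m z) =O[atTop] (fun _ => (1 : ℝ)) :=
  (T1_tend hδ h).isBigO_one ℝ

/-- TASK LUA-T1a.  It is enough to check `Close` on generators of the field.
`{z | σ m z - ι z = O(δ m)}` is a subfield: sums are clear; products:
`σ(xy) - xy = σx (σy - y) + (σx - x) y` and `σ x` is bounded; inverses:
`σ(x)⁻¹ - x⁻¹ = -(σx - x)/(x σx)` with `σ x → ι x ≠ 0`. -/
theorem close_of_closure {S : Set K} (hS : Subfield.closure S = ⊤)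
    (hδ : Tendsto δ atTop (𝓝 0))
    (h : ∀ s ∈ S, (fun m => σ m s - ι s) =O[atTop] δ) : Close ι σ δ := by
  intro z
  have hz : z ∈ Subfield.closure S := by rw [hS]; trivial
  refine Subfield.closure_induction (p := fun z _ => (fun m => σ m z - ι z) =O[atTop] δ)
    ?_ ?_ ?_ ?_ ?_ ?_ hz
  · intro x hx
    exact h x hx
  · simp only [map_one, sub_self]
    exact isBigO_zero _ _
  · intro x y _ _ hx hy
    have := hx.add hy
    refine this.congr_left fun m => ?_
    rw [map_add, map_add]
    ring
  · intro x _ hx
    refine hx.neg_left.congr_left fun m => ?_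
    rw [map_neg, map_neg]
    ring
  · intro x _ hx
    by_cases hx0 : x = 0
    · subst hx0
      simp only [inv_zero, map_zero, sub_self]
      exact isBigO_zero _ _
    · have hι : ι x ≠ 0 := (map_ne_zero ι).2 hx0
      have ht := T1_tend hδ hx
      have hb : (fun m => (σ m x)⁻¹) =O[atTop] (fun _ => (1 : ℝ)) :=
        (ht.inv₀ hι).isBigO_one ℝ
      have h1 : (fun m => -(ι x)⁻¹ * (σ m x)⁻¹ * (σ m x - ι x)) =O[atTop]
          (fun m => (1 : ℝ) * δ m) :=
        (hb.const_mul_left (-(ι x)⁻¹)).mul hx
      refine (h1.congr (fun m => ?_) (fun m => one_mul _))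
      have hσ : σ m x ≠ 0 := (map_ne_zero (σ m)).2 hx0
      rw [map_inv₀, map_inv₀]
      field_simp
      ring
  · intro x y _ _ hx hy
    have hb := T1_bdd hδ hx
    have h1 : (fun m => σ m x * (σ m y - ι y)) =O[atTop] (fun m => (1 : ℝ) * δ m) := hb.mul hy
    have h2 : (fun m => (σ m x - ι x) * ι y) =O[atTop] δ := by
      have := hx.const_mul_left (ι y)
      exact this.congr_left fun m => mul_comm _ _
    have h3 := (h1.congr_right (fun m => one_mul _)).add h2
    refine h3.congr_left fun m => ?_
    rw [map_mul, map_mul]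
    ring

theorem Close.tendsto (h : Close ι σ δ) (hδ : Tendsto δ atTop (𝓝 0)) (z : K) :
    Tendsto (fun m => σ m z) atTop (𝓝 (ι z)) :=
  T1_tend hδ (h z)

/-- TASK LUA-T1b.  Taylor expansion to first order of a polynomial in elements `w_j ∈ K` with
coefficients in `K^p` (`G.map frobenius`): for the coefficients
`σ(c^p) - c^p = (σ c - c)^p = O(δ^p) = O(δ²)` in characteristic `p` (eventually `|δ| ≤ 1`), and
`(w + d)^α = w^α + Σ_j ∂_j(w^α) d_j + O(δ²)` for monomials (induct on `G`:
`MvPolynomial.induction_on`, the set of `G` for which the expansion holds is closed under sums and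
under multiplication by a variable; `pderiv` is a derivation). -/
theorem taylor_poly {p : ℕ} [Fact p.Prime] [CharP K p] [CharP C p] (h : Close ι σ δ)
    (hδ : Tendsto δ atTop (𝓝 0)) {r : ℕ} (w : Fin r → K) (G : MvPolynomial (Fin r) K) :
    (fun m => σ m (MvPolynomial.eval w (G.map (frobenius K p))) -
        ι (MvPolynomial.eval w (G.map (frobenius K p))) -
        ∑ j, ι (MvPolynomial.eval w (MvPolynomial.pderiv j (G.map (frobenius K p)))) *
          (σ m (w j) - ι (w j))) =O[atTop] (fun m => δ m ^ 2) := by
  induction G using MvPolynomial.induction_on with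
  | C c =>
    simp only [MvPolynomial.map_C, MvPolynomial.eval_C, MvPolynomial.pderiv_C, map_zero, zero_mul,
      Finset.sum_const_zero, sub_zero]
    have hp : 2 ≤ p := (Fact.out : p.Prime).two_le
    have h1 : (fun m => (σ m c - ι c) ^ p) =O[atTop] (fun m => δ m ^ p) := (h c).pow p
    have h2 : (fun m => δ m ^ p) =O[atTop] (fun m => δ m ^ 2) := by
      have h3 : (fun m => δ m ^ (p - 2)) =O[atTop] (fun _ => (1 : ℝ)) :=
        (hδ.pow (p - 2)).isBigO_one ℝ
      have h4 := (isBigO_refl (fun m => δ m ^ 2) atTop).mul h3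
      refine h4.congr (fun m => ?_) (fun m => ?_)
      · rw [← pow_add]
        congr 1
        omega
      · rw [mul_one]
    refine (h1.trans h2).congr_left fun m => ?_
    rw [frobenius_def, map_pow, map_pow, sub_pow_char]
  | add G1 G2 h1 h2 =>
    refine (h1.add h2).congr_left fun m => ?_
    simp only [map_add, add_mul, Finset.sum_add_distrib]
    ring
  | mul_X G i hG =>
    set P := G.map (frobenius K p) with hP
    set g := MvPolynomial.eval w P with hg
    -- difference of the evaluations
    have hgc : (fun m => σ m g - ι g) =O[atTop] δ := h g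
    have h1 : (fun m => (σ m g - ι g) * (σ m (w i) - ι (w i))) =O[atTop] (fun m => δ m ^ 2) := by
      have := hgc.mul (h (w i))
      exact this.congr_right fun m => (sq (δ m)).symm
    have h2 := hG.const_mul_left (ι (w i))
    refine (h1.add h2).congr_left fun m => ?_
    have e1 : MvPolynomial.eval w ((G * MvPolynomial.X i).map (frobenius K p)) = g * w i := by
      rw [map_mul, map_mul, MvPolynomial.map_X, MvPolynomial.eval_X]
    have e2 : ∀ j, MvPolynomial.eval w (MvPolynomial.pderiv j
        ((G * MvPolynomial.X i).map (frobenius K p))) =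
        MvPolynomial.eval w (MvPolynomial.pderiv j P) * w i + g * (if j = i then 1 else 0) := by
      intro j
      rw [map_mul, MvPolynomial.map_X, ← hP, MvPolynomial.pderiv_mul, map_add, map_mul, map_mul,
        MvPolynomial.eval_X, MvPolynomial.pderiv_X, ← hg]
      by_cases hji : j = i
      · subst hji
        rw [Pi.single_eq_same, map_one, if_pos rfl]
      · rw [if_neg hji, Pi.single_eq_of_ne (Ne.symm hji), map_zero]
    rw [e1]
    have e3 : ∑ j, ι (MvPolynomial.eval w (MvPolynomial.pderiv j
        ((G * MvPolynomial.X i).map (frobenius K p)))) * (σ m (w j) - ι (w j)) =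
        ι (w i) * (∑ j, ι (MvPolynomial.eval w (MvPolynomial.pderiv j P)) *
          (σ m (w j) - ι (w j))) + ι g * (σ m (w i) - ι (w i)) := by
      rw [Finset.mul_sum]
      have : ∀ j, ι (MvPolynomial.eval w (MvPolynomial.pderiv j
        ((G * MvPolynomial.X i).map (frobenius K p)))) * (σ m (w j) - ι (w j)) =
        ι (w i) * (ι (MvPolynomial.eval w (MvPolynomial.pderiv j P)) * (σ m (w j) - ι (w j))) +
        if j = i then ι g * (σ m (w i) - ι (w i)) else 0 := by
        intro j
        rw [e2, map_add, map_mul, map_mul]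
        by_cases hji : j = i
        · subst hji
          simp
          ring
        · simp [hji]
          ring
      rw [Finset.sum_congr rfl fun j _ => this j, Finset.sum_add_distrib,
        Finset.sum_ite_eq' Finset.univ i]
      simp
    rw [e3, map_mul, map_mul]
    ring

end Crest.Agent.LUA
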