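import Mathlib
import Crest.Agent.LU_B1

/-!
S0351 (blueprint LU), task B3: `[p]` is topologically nilpotent; rigidity of homomorphisms.
-/

set_option autoImplicit false

noncomputable section

namespace Crest.Agent.LU

open Crest.LubinTate

/-- All coefficients of `f` lie in the ideal `J`. -/
def CoeffIn {R : Type*} [CommRing R] (J : Ideal R) {σ : Type*} (f : MvPowerSeries σ R) : Prop :=
  ∀ d, MvPowerSeries.coeff d f ∈ J

variable {R : Type*} [CommRing R]

private theorem B3_iff (J : Ideal R) {σ : Type*} (f : MvPowerSeries σ R) :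
    CoeffIn J f ↔ MvPowerSeries.map (Ideal.Quotient.mk J) f = 0 := by
  constructor
  · intro h
    ext d
    rw [MvPowerSeries.coeff_map, Ideal.Quotient.eq_zero_iff_mem.2 (h d)]
    simp
  · intro h d
    have h1 := congrArg (MvPowerSeries.coeff d) h
    rw [MvPowerSeries.coeff_map, map_zero] at h1
    exact Ideal.Quotient.eq_zero_iff_mem.1 h1

private theorem B3_mul {J K : Ideal R} {σ : Type*} {f g : MvPowerSeries σ R} (hf : CoeffIn J f)
    (hg : CoeffIn K g) : CoeffIn (J * K) (f * g) := by
  classical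
  intro d
  rw [MvPowerSeries.coeff_mul]
  exact Ideal.sum_mem _ fun x _ => Ideal.mul_mem_mul (hf x.1) (hg x.2)

private theorem B3_pow {J : Ideal R} {σ : Type*} {f : MvPowerSeries σ R} (hf : CoeffIn J f)
    (i : ℕ) : CoeffIn (J ^ i) (f ^ i) := by
  induction i with
  | zero => intro d; rw [pow_zero, Ideal.one_eq_top]; trivial
  | succ i ih => rw [pow_succ, pow_succ]; exact B3_mul ih hf

private theorem B3_mul_left {J : Ideal R} {σ : Type*} {f : MvPowerSeries σ R}
    (g : MvPowerSeries σ R) (hf : CoeffIn J f) : CoeffIn J (g * f) := by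
  have h : CoeffIn (⊤ : Ideal R) g := fun _ => Submodule.mem_top
  have := B3_mul h hf
  rwa [Ideal.top_mul] at this

private theorem B3_map_const {J : Ideal R} {σ : Type*} {a : MvPowerSeries σ R}
    (ha : MvPowerSeries.constantCoeff a = 0) :
    MvPowerSeries.constantCoeff (MvPowerSeries.map (Ideal.Quotient.mk J) a) = 0 := by
  rw [MvPowerSeries.constantCoeff_map, ha, map_zero]

/-- `φ(a) - φ(b)` has coefficients in `K J` when `φ` has coefficients in `K` and `a - b` in `J`. -/
private theorem B3_diff {J K : Ideal R} {φ : PowerSeries R} (hφ : CoeffIn K φ) {σ : Type*}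
    {a b : MvPowerSeries σ R} (ha : MvPowerSeries.constantCoeff a = 0)
    (hb : MvPowerSeries.constantCoeff b = 0) (hab : CoeffIn J (a - b)) :
    CoeffIn (K * J) (cmp φ a - cmp φ b) := by
  intro d
  have ha' : PowerSeries.HasSubst a := PowerSeries.HasSubst.of_constantCoeff_zero ha
  have hb' : PowerSeries.HasSubst b := PowerSeries.HasSubst.of_constantCoeff_zero hb
  rw [map_sub, PowerSeries.coeff_subst ha', PowerSeries.coeff_subst hb',
    ← finsum_sub_distrib (PowerSeries.coeff_subst_finite ha' φ d)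
      (PowerSeries.coeff_subst_finite hb' φ d)]
  refine finsum_induction (fun x => x ∈ K * J) (Ideal.zero_mem _)
    (fun x y hx hy => Ideal.add_mem _ hx hy) ?_
  intro i
  rw [← smul_sub, smul_eq_mul, ← map_sub]
  refine Ideal.mul_mem_mul (hφ _) ?_
  obtain ⟨c, hc⟩ := sub_dvd_pow_sub_pow a b i
  rw [hc, mul_comm]
  exact B3_mul_left c hab d

/-- TASK B3. Two series congruent modulo `J` have images congruent modulo `J` under every `φ`
(pass to `R/J`; `MvPowerSeries.map`, `map_cmp`). -/
theorem cmp_congr (J : Ideal R) (φ : PowerSeries R) {σ : Type*} {a b : MvPowerSeries σ R}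
    (ha : MvPowerSeries.constantCoeff a = 0) (hb : MvPowerSeries.constantCoeff b = 0)
    (hab : CoeffIn J (a - b)) : CoeffIn J (cmp φ a - cmp φ b) := by
  rw [B3_iff] at hab ⊢
  rw [map_sub, sub_eq_zero] at hab ⊢
  rw [map_cmp _ φ ha, map_cmp _ φ hb, hab]

/-- `φ` with all coefficients in `J` gives `φ(a)` with all coefficients in `J`. -/
theorem cmp_coeffIn (J : Ideal R) {φ : PowerSeries R} (hφ : CoeffIn J φ) {σ : Type*}
    {a : MvPowerSeries σ R} (ha : MvPowerSeries.constantCoeff a = 0) :
    CoeffIn J (cmp φ a) := by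
  rw [B3_iff] at hφ ⊢
  rw [map_cmp _ φ ha]
  have h : PowerSeries.map (Ideal.Quotient.mk J) φ = 0 := hφ
  rw [h]
  exact cmp_zero_left (B3_map_const ha)

/-- If `m ∈ J` (here `m = p`) and all coefficients of `z` are in `J^j`, `j ≥ 1`, then all
coefficients of `[m]_G(z)` are in `J^{j+1}`: `[m]_G(X) = m X + Σ_{i ≥ 2} c_i X^i`. -/
theorem mulSeries_contract (G : FormalGroup R) (J : Ideal R) (m : ℕ) (hm : (m : R) ∈ J)
    {j : ℕ} (hj : 1 ≤ j) {σ : Type*} {z : MvPowerSeries σ R}
    (hz0 : MvPowerSeries.constantCoeff z = 0) (hz : CoeffIn (J ^ j) z) :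
    CoeffIn (J ^ (j + 1)) (cmp (mulSeries G m) z) := by
  intro d
  have hz' : PowerSeries.HasSubst z := PowerSeries.HasSubst.of_constantCoeff_zero hz0
  rw [PowerSeries.coeff_subst hz']
  refine finsum_induction (fun x => x ∈ J ^ (j + 1)) (Ideal.zero_mem _)
    (fun x y hx hy => Ideal.add_mem _ hx hy) ?_
  intro i
  rw [smul_eq_mul]
  rcases Nat.lt_or_ge i 2 with h2 | h2
  · interval_cases i
    · rw [PowerSeries.coeff_zero_eq_constantCoeff_apply, constantCoeff_mulSeries, zero_mul]
      exact Ideal.zero_mem _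
    · rw [coeff_one_mulSeries, pow_one, pow_succ, mul_comm (J ^ j) J]
      exact Ideal.mul_mem_mul hm (hz d)
  · apply Ideal.mul_mem_left
    have h3 := B3_pow hz i d
    rw [← pow_mul] at h3
    refine Ideal.pow_le_pow_right ?_ h3
    nlinarith

/-- Iterated: all coefficients of `[m^N]_G(z)` are in `J^{N+1}` when those of `z` are in `J`.
(`mulSeries_mul`.) -/
theorem mulSeries_pow_contract (G : FormalGroup R) [G.IsComm] (J : Ideal R) (m : ℕ)
    (hm : (m : R) ∈ J) (N : ℕ) {σ : Type*} {z : MvPowerSeries σ R}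
    (hz0 : MvPowerSeries.constantCoeff z = 0) (hz : CoeffIn J z) :
    CoeffIn (J ^ (N + 1)) (cmp (mulSeries G (m ^ N)) z) := by
  induction N with
  | zero =>
    have h1 : mulSeries G (m ^ 0) = (PowerSeries.X : PowerSeries R) := by
      rw [pow_zero]
      show mulSeries G (0 + 1) = _
      rw [mulSeries_succ]
      exact zero_fadd G PowerSeries.constantCoeff_X
    rw [h1, X_cmp hz0, zero_add, pow_one]
    exact hz
  | succ N ih =>
    have h1 : mulSeries G (m ^ (N + 1)) = cmp (mulSeries G m) (mulSeries G (m ^ N)) := by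
      rw [pow_succ, mul_comm, mulSeries_mul]
    rw [h1, cmp_assoc _ (constantCoeff_mulSeries G _) hz0]
    exact mulSeries_contract G J m hm (Nat.succ_pos N)
      (constantCoeff_cmp (constantCoeff_mulSeries G _) hz0) ih

/-- RIGIDITY. Let `J` be an ideal with `⋂ J^N = 0`, `p ∈ J`, and let `F, G` be commutative laws
with `[p]_F ≡ X^q mod J` (`q ≥ 1`).  A homomorphism `ψ : F → G` with all coefficients in `J` is `0`.
Proof: show by induction that all coefficients of `ψ` lie in `J^j`.  If they lie in `J^j`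
(`j ≥ 1`), then `ψ([p]_F(X)) = [p]_G(ψ(X))` has coefficients in `J^{j+1}` by `mulSeries_contract`,
while `ψ([p]_F(X)) ≡ ψ(X^q) mod J^{j+1}` (write `ψ = Σ ψ_i X^i`, `ψ_i ∈ J^j`,
`[p]_F^i ≡ X^{qi} mod J`). -/
theorem rigid {F G : FormalGroup R} [F.IsComm] [G.IsComm] (J : Ideal R)
    (hJ : ∀ b : R, (∀ N : ℕ, b ∈ J ^ N) → b = 0) (p q : ℕ) (hq : q ≠ 0) (hp : (p : R) ∈ J)
    (hF : CoeffIn J (mulSeries F p - (PowerSeries.X : PowerSeries R) ^ q))
    {ψ : PowerSeries R} (hψ : IsFGHom F G ψ) (h0 : CoeffIn J ψ) : ψ = 0 := by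
  have key : ∀ j : ℕ, CoeffIn (J ^ (j + 1)) ψ := by
    intro j
    induction j with
    | zero => rw [zero_add, pow_one]; exact h0
    | succ j ih =>
      have hXq : PowerSeries.constantCoeff ((PowerSeries.X : PowerSeries R) ^ q) = 0 := by
        rw [map_pow, PowerSeries.constantCoeff_X, zero_pow hq]
      have h1 : CoeffIn (J ^ (j + 1 + 1)) (cmp ψ (mulSeries F p) : PowerSeries R) := by
        have h0' := hom_comm_mulSeries hψ p (a := (PowerSeries.X : PowerSeries R))
          PowerSeries.constantCoeff_X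
        rw [cmp_X, cmp_X] at h0'
        rw [h0']
        exact mulSeries_contract G J p hp (Nat.succ_pos j) hψ.1 ih
      have h2 : CoeffIn (J ^ (j + 1 + 1))
          (cmp ψ (mulSeries F p) - cmp ψ ((PowerSeries.X : PowerSeries R) ^ q) :
            PowerSeries R) := by
        rw [pow_succ]
        exact B3_diff ih (constantCoeff_mulSeries F p) hXq hF
      intro d
      have h3 : MvPowerSeries.coeff (Finsupp.single () (q * d ()))
          (cmp ψ ((PowerSeries.X : PowerSeries R) ^ q) : PowerSeries R) ∈ J ^ (j + 1 + 1) := by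
        have h4 := Ideal.sub_mem _ (h1 (Finsupp.single () (q * d ())))
          (h2 (Finsupp.single () (q * d ())))
        rw [← map_sub, sub_sub_cancel] at h4
        exact h4
      have h5 : PowerSeries.coeff (q * d ())
          (PowerSeries.subst ((PowerSeries.X : PowerSeries R) ^ q) ψ : PowerSeries R) =
          PowerSeries.coeff (d ()) ψ := by
        rw [PowerSeries.coeff_subst_X_pow hq, if_pos (dvd_mul_right q (d ())),
          Nat.mul_div_cancel_left _ (Nat.pos_of_ne_zero hq)]
        rfl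
      have h6 : PowerSeries.coeff (d ()) ψ ∈ J ^ (j + 1 + 1) := by
        rw [← h5]; exact h3
      have h7 : d = Finsupp.single () (d ()) := by
        ext; simp
      rw [h7]
      exact h6
  ext i
  rw [map_zero]
  apply hJ
  intro N
  rcases N with _ | N
  · rw [pow_zero, Ideal.one_eq_top]; trivial
  · exact key N (Finsupp.single () i)

end Crest.Agent.LU
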