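import Mathlib
import Crest.Agent.LU_B3
import Crest.Agent.LU_B4

/-!
S0351 (blueprint LU), task B5: `I_n` is the maximal ideal.
-/

set_option autoImplicit false

noncomputable section

namespace Crest.Agent.LU

open Crest.LubinTate

variable {p : ℕ} [Fact p.Prime] {n : ℕ} {Γ : FormalGroup (GaloisField p n)} [Γ.IsComm]
  {H : FormalGroup (LTRing p n)} [H.IsComm]

/-- TASK B5.  `I_n = 𝔪`.
Proof: let `𝔪 = ker residue`, `J = I_n + 𝔪²`, `B = E₀/J` (a test ring, `isTest_E0`,
`isTest_quot`; `J ≤ 𝔪` by `heightIdeal_le`), `x : E₀ → B` the projection.  By `exists_V` (h = n)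
`[p]_{H_B} = V(X^q)` with `V : H_B^{(q)} → H_B`, `q = p^n`.  Reducing to `k` gives
`V(X^q) = X^q`, so `V` reduces to `X`.  The Frobenius `b ↦ b^q` of `B` kills `𝔪_B` (`𝔪_B² = 0`,
`q ≥ 2`) and is the identity on constants: `b^q = c(r(b))` where `c : k → B` is the ring
homomorphism `k = W(k)/p → B` (`p ∈ I_1 ≤ J`; `k` has `q` elements), so `H_B^{(q)} = Γ_B =`
push-forward of `H` along `x' : E₀ → k → B`.  Hence `V` is a star-isomorphism
`H.map x' → H.map x`, and `univ_unique` gives `x = x'`; so `x` kills `𝔪`, i.e. `𝔪 ≤ I_n + 𝔪²`,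
and Nakayama (`𝔪` f.g., `𝔪 ≤ jacobson`) gives `𝔪 ≤ I_n`. -/
theorem heightIdeal_n (hn : 1 ≤ n) (hΓ : mulSeries Γ p = PowerSeries.X ^ (p ^ n))
    (hH : IsUniversalDeformation p n Γ H) :
    heightIdeal p n H n = RingHom.ker (LTRing.residue p n) := by
  have hle : heightIdeal p n H n ≤ RingHom.ker (LTRing.residue p n) :=
    heightIdeal_le hΓ hH.1 (le_refl n)
  refine le_antisymm hle ?_
  have hE := isTest_E0 p n
  have := hE.noe
  have := hE.complete
  have hfg : (RingHom.ker (LTRing.residue p n)).FG := IsNoetherian.noetherian _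
  have hjac : RingHom.ker (LTRing.residue p n) ≤ (⊥ : Ideal (LTRing p n)).jacobson :=
    IsAdicComplete.le_jacobson_bot _
  refine Submodule.le_of_le_smul_of_le_jacobson_bot hfg hjac ?_
  set m : Ideal (LTRing p n) := RingHom.ker (LTRing.residue p n) with hm
  rw [smul_eq_mul]
  set J : Ideal (LTRing p n) := heightIdeal p n H n ⊔ m * m with hJdef
  have hJm : J ≤ m := sup_le hle Ideal.mul_le_left
  have hJr : ∀ a ∈ J, LTRing.residue p n a = 0 := fun a ha => hJm ha
  have hJtop : J ≠ ⊤ := by
    intro h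
    have h1 : (1 : LTRing p n) ∈ J := by rw [h]; trivial
    have := hJr 1 h1
    rw [map_one] at this
    exact one_ne_zero this
  have hpJ : (p : LTRing p n) ∈ J := by
    refine Ideal.mem_sup_left (heightIdeal_mono (H := H) hn ?_)
    rw [heightIdeal_one]
    exact Ideal.subset_span rfl
  have : CharP (LTRing p n ⧸ J) p := charP_quot hJtop hpJ
  have : ExpChar (LTRing p n ⧸ J) p := ExpChar.prime (Fact.out : p.Prime)
  obtain ⟨V, hV1, hV2, -⟩ := exists_V (H := H) (J := J) (h := n) le_sup_left
  have hB := isTest_quot hE J hJr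
  set r : (LTRing p n ⧸ J) →+* GaloisField p n := Ideal.Quotient.lift J (LTRing.residue p n) hJr
    with hr
  have hn0 : n ≠ 0 := by omega
  have hq0 : p ^ n ≠ 0 := pow_ne_zero _ (Fact.out : p.Prime).ne_zero
  have hcard : ∀ a : GaloisField p n, a ^ (p ^ n) = a := by
    intro a
    have : Fintype (GaloisField p n) := Fintype.ofFinite _
    have h1 := FiniteField.pow_card a
    rwa [← Nat.card_eq_fintype_card, GaloisField.card p n hn0] at h1
  -- the projection as an algebra map
  let x : LTRing p n →ₐ[WittVector p (GaloisField p n)] (LTRing p n ⧸ J) :=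
    Ideal.Quotient.mkₐ (WittVector p (GaloisField p n)) J
  have hp0 : ((p : ℕ) : LTRing p n ⧸ J) = 0 := CharP.cast_eq_zero _ p
  let x' : LTRing p n →ₐ[WittVector p (GaloisField p n)] (LTRing p n ⧸ J) :=
    { (iterateFrobenius (LTRing p n ⧸ J) p n).comp x.toRingHom with
      commutes' := by
        intro w
        show (x (algebraMap _ _ w)) ^ (p ^ n) = _
        rw [AlgHom.commutes, ← map_pow, ← sub_eq_zero, ← map_sub]
        have h1 : w ^ (p ^ n) - w ∈ RingHom.ker
            (WittVector.constantCoeff : WittVector p (GaloisField p n) →+* GaloisField p n) := by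
          rw [RingHom.mem_ker, map_sub, map_pow, hcard, sub_self]
        rw [WittVector.ker_constantCoeff, Ideal.mem_span_singleton] at h1
        obtain ⟨c, hc⟩ := h1
        rw [hc, map_mul, map_natCast, hp0, zero_mul] }
  have hx1 : r.comp x.toRingHom = LTRing.residue p n := by
    ext a
    rfl
  have hx2 : r.comp x'.toRingHom = LTRing.residue p n := by
    ext a
    show r ((x a) ^ (p ^ n)) = _
    rw [map_pow]
    exact hcard _
  have hVr : PowerSeries.map r V = PowerSeries.X := by
    have h1 := congrArg (PowerSeries.map r) hV1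
    rw [← mulSeries_map, map_map] at h1
    have h2 : r.comp (Ideal.Quotient.mk J) = LTRing.residue p n := by ext a; rfl
    rw [h2, hH.1, hΓ] at h1
    have h3 := map_cmp r V (σ := Unit) (a := (PowerSeries.X ^ (p ^ n) : PowerSeries (LTRing p n ⧸ J)))
      (by
        show PowerSeries.constantCoeff (PowerSeries.X ^ (p ^ n) : PowerSeries (LTRing p n ⧸ J)) = 0
        rw [map_pow, PowerSeries.constantCoeff_X, zero_pow hq0])
    have h4 : PowerSeries.map r (PowerSeries.X ^ (p ^ n) : PowerSeries (LTRing p n ⧸ J))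
        = (PowerSeries.X ^ (p ^ n) : PowerSeries (GaloisField p n)) := by
      rw [map_pow, PowerSeries.map_X]
    ext i
    have h5 := coeff_cmp_X_pow (PowerSeries.map r V) hq0 i
    have h6 := coeff_cmp_X_pow (PowerSeries.X : PowerSeries (GaloisField p n)) hq0 i
    rw [← h5, ← h6]
    congr 1
    have h7 : cmp (PowerSeries.X : PowerSeries (GaloisField p n))
        (PowerSeries.X ^ (p ^ n) : PowerSeries (GaloisField p n)) = PowerSeries.X ^ (p ^ n) :=
      X_cmp (by
        show PowerSeries.constantCoeff (PowerSeries.X ^ (p ^ n) : PowerSeries (GaloisField p n)) = 0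
        rw [map_pow, PowerSeries.constantCoeff_X, zero_pow hq0])
    rw [h7]
    exact ((h1.trans h3).trans (congrArg (cmp (PowerSeries.map r V)) h4)).symm
  have hxx : x' = x := by
    refine hB.univ_unique hH x' x hx2 hx1 V ?_ hVr
    rw [map_map] at hV2
    exact hV2
  intro a ha
  have h1 : x' a = x a := by rw [hxx]
  have h2 : (x a) ^ (p ^ n) = x a := h1
  have h3 : (x a) ^ 2 = 0 := by
    rw [← map_pow]
    refine Ideal.Quotient.eq_zero_iff_mem.2 (Ideal.mem_sup_right ?_)
    rw [pow_two]
    exact Ideal.mul_mem_mul ha ha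
  have h4 : 2 ≤ p ^ n := by
    calc 2 ≤ p := (Fact.out : p.Prime).two_le
      _ = p ^ 1 := (pow_one p).symm
      _ ≤ p ^ n := Nat.pow_le_pow_right (Fact.out : p.Prime).pos hn
  have h5 : x a = 0 := by
    rw [← h2, ← Nat.sub_add_cancel h4, pow_add, h3, mul_zero]
  exact Ideal.Quotient.eq_zero_iff_mem.1 h5

end Crest.Agent.LU
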