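import Mathlib
import Crest.Agent.LU_B5

/-!
S0351 (blueprint LU), task B6: coordinates `v_h, ..., v_{n-1}` on `E₀/I_h`.
-/

set_option autoImplicit false

noncomputable section

namespace Crest.Agent.LU

open Crest.LubinTate Finset

variable {p : ℕ} [Fact p.Prime] {n : ℕ} {Γ : FormalGroup (GaloisField p n)} [Γ.IsComm]
  {H : FormalGroup (LTRing p n)} [H.IsComm]

/-- a surjective endomorphism of a Noetherian ring is injective -/
private theorem B6_inj {R : Type*} [CommRing R] [IsNoetherianRing R] (f : R →+* R)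
    (hf : Function.Surjective f) : Function.Injective f := by
  -- kernels of the iterates
  let K : ℕ →o Ideal R :=
    { toFun := fun m => RingHom.ker (f ^ m)
      monotone' := by
        apply monotone_nat_of_le_succ
        intro m a ha
        rw [RingHom.mem_ker] at ha ⊢
        rw [pow_succ']
        show f ((f ^ m) a) = 0
        rw [ha, map_zero] }
  obtain ⟨m, hm⟩ := monotone_stabilizes_iff_noetherian.2 (inferInstance : IsNoetherian R R) K
  have hK : RingHom.ker (f ^ m) = RingHom.ker (f ^ (m + 1)) := hm (m + 1) (Nat.le_succ m)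
  rw [injective_iff_map_eq_zero]
  intro a ha
  have hsm : Function.Surjective (f ^ m) := by
    clear hm hK
    induction m with
    | zero => intro x; exact ⟨x, rfl⟩
    | succ m ih =>
      intro x
      obtain ⟨y, hy⟩ := hf x
      obtain ⟨z, hz⟩ := ih y
      refine ⟨z, ?_⟩
      rw [pow_succ']
      show f ((f ^ m) z) = x
      rw [hz, hy]
  obtain ⟨b, hb⟩ := hsm a
  have h1 : b ∈ RingHom.ker (f ^ (m + 1)) := by
    rw [RingHom.mem_ker, pow_succ']
    show f ((f ^ m) b) = 0
    rw [hb, ha]
  rw [← hK, RingHom.mem_ker, hb] at h1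
  exact h1

/-- a power series all of whose monomials involve a variable of `S` lies in the ideal
generated by the variables of `S` -/
private theorem B6_mem_span {A σ : Type*} [CommRing A] [DecidableEq σ] (S : Finset σ) :
    ∀ f : MvPowerSeries σ A, (∀ d : σ →₀ ℕ, (∀ i ∈ S, d i = 0) → MvPowerSeries.coeff d f = 0) →
      f ∈ Ideal.span (MvPowerSeries.X '' (S : Set σ) : Set (MvPowerSeries σ A)) := by
  induction S using Finset.induction_on with
  | empty =>
    intro f hf
    have h0 : f = 0 := by
      ext d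
      rw [hf d (by simp), map_zero]
    rw [h0]
    exact Ideal.zero_mem _
  | insert s S hs ih =>
    intro f hf
    obtain ⟨f', hf'⟩ : ∃ f' : MvPowerSeries σ A, ∀ d, MvPowerSeries.coeff d f' =
        if d s = 0 then MvPowerSeries.coeff d f else 0 :=
      ⟨fun d => if d s = 0 then MvPowerSeries.coeff d f else 0, fun _ => rfl⟩
    have h1 : f' ∈ Ideal.span (MvPowerSeries.X '' (S : Set σ) : Set (MvPowerSeries σ A)) := by
      apply ih
      intro d hd
      rw [hf']
      split_ifs with h
      · apply hf
        intro i hi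
        rcases Finset.mem_insert.1 hi with rfl | hi
        · exact h
        · exact hd i hi
      · rfl
    have h2 : (MvPowerSeries.X s : MvPowerSeries σ A) ∣ f - f' := by
      rw [MvPowerSeries.X_dvd_iff]
      intro d hd
      rw [map_sub, hf', if_pos hd, sub_self]
    have h3 : f = (f - f') + f' := by ring
    rw [h3]
    apply Ideal.add_mem
    · obtain ⟨g, hg⟩ := h2
      rw [hg]
      apply Ideal.mul_mem_right
      exact Ideal.subset_span ⟨s, by simp, rfl⟩
    · refine Ideal.span_mono ?_ h1
      apply Set.image_mono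
      simp

/-- TASK B6a. A `W(k)`-algebra endomorphism of `E₀` compatible with the residue map whose image
of `𝔪` generates `𝔪` is bijective.  (Surjective: `E₀` is `𝔪`-adically complete, and
`𝔪 = φ(𝔪) E₀`, `E₀ = W(k) + 𝔪`: every element of `𝔪^N` is congruent modulo `𝔪^{N+1}` to an
element of `φ(𝔪^N)`; sum up, using completeness of the source and separatedness of the target and
that `φ` is continuous as `φ(𝔪) ⊆ 𝔪`.  Injective: a surjective endomorphism of a Noetherian ring
is injective.) -/
theorem endo_bijective (φ : LTRing p n →ₐ[WittVector p (GaloisField p n)] LTRing p n)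
    (hr : (LTRing.residue p n).comp φ.toRingHom = LTRing.residue p n)
    (hm : RingHom.ker (LTRing.residue p n) ≤
      Ideal.map φ.toRingHom (RingHom.ker (LTRing.residue p n))) : Function.Bijective φ := by
  have hT := isTest_E0 p n
  have hmap : Ideal.map φ.toRingHom (RingHom.ker (LTRing.residue p n)) =
      RingHom.ker (LTRing.residue p n) := by
    apply le_antisymm _ hm
    rw [Ideal.map_le_iff_le_comap]
    intro a ha
    rw [Ideal.mem_comap, RingHom.mem_ker]
    have h1 : (LTRing.residue p n) (φ.toRingHom a) = LTRing.residue p n a :=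
      congrArg (fun f => f a) hr
    rw [h1]
    exact ha
  haveI := hT.complete
  haveI := hT.noe
  haveI hP : IsPrecomplete (RingHom.ker (LTRing.residue p n)) (LTRing p n) := inferInstance
  haveI hHd : IsHausdorff (Ideal.map φ.toRingHom (RingHom.ker (LTRing.residue p n)))
      (LTRing p n) := by
    rw [hmap]; infer_instance
  have hsurj : Function.Surjective φ.toRingHom := by
    apply surjective_of_mk_map_comp_surjective (I := RingHom.ker (LTRing.residue p n)) φ.toRingHom
    intro y
    obtain ⟨b, rfl⟩ := Ideal.Quotient.mk_surjective y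
    refine ⟨b, ?_⟩
    rw [RingHom.comp_apply, Ideal.Quotient.eq, hmap, RingHom.mem_ker, map_sub]
    have h1 : (LTRing.residue p n) (φ.toRingHom b) = LTRing.residue p n b :=
      congrArg (fun f => f b) hr
    rw [h1, sub_self]
  exact ⟨B6_inj φ.toRingHom hsurj, hsurj⟩

/-- the constant of `v_{i+1}` -/
private def B6_c (H : FormalGroup (LTRing p n)) (i : ℕ) : WittVector p (GaloisField p n) :=
  MvPowerSeries.constantCoeff (vv H i)

private def B6_a (H : FormalGroup (LTRing p n)) (i : Fin (n - 1)) : LTRing p n :=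
  vv H (i + 1) - MvPowerSeries.C (B6_c H (i + 1))

private theorem B6_a_const (H : FormalGroup (LTRing p n)) (i : Fin (n - 1)) :
    MvPowerSeries.constantCoeff (B6_a H i) = 0 := by
  unfold B6_a B6_c
  rw [map_sub, MvPowerSeries.constantCoeff_C, sub_self]

private theorem B6_hasSubst (H : FormalGroup (LTRing p n)) :
    MvPowerSeries.HasSubst (B6_a H) :=
  MvPowerSeries.hasSubst_of_constantCoeff_zero (B6_a_const H)

private def B6_psi (H : FormalGroup (LTRing p n)) :
    LTRing p n →ₐ[WittVector p (GaloisField p n)] LTRing p n :=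
  MvPowerSeries.substAlgHom (B6_hasSubst H)

private theorem B6_psi_X (H : FormalGroup (LTRing p n)) (i : Fin (n - 1)) :
    B6_psi H (MvPowerSeries.X i) = B6_a H i := by
  unfold B6_psi
  rw [MvPowerSeries.substAlgHom_X]

private theorem B6_psi_C (H : FormalGroup (LTRing p n)) (w : WittVector p (GaloisField p n)) :
    B6_psi H (MvPowerSeries.C w) = MvPowerSeries.C w := by
  have h := (B6_psi H).commutes w
  rw [MvPowerSeries.algebraMap_apply] at h
  simpa using h

private theorem B6_psi_const (H : FormalGroup (LTRing p n)) (f : LTRing p n) :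
    MvPowerSeries.constantCoeff (B6_psi H f) = MvPowerSeries.constantCoeff f := by
  have h1 : f = (f - MvPowerSeries.C (MvPowerSeries.constantCoeff f)) +
      MvPowerSeries.C (MvPowerSeries.constantCoeff f) := by ring
  have h2 : MvPowerSeries.constantCoeff
      (B6_psi H (f - MvPowerSeries.C (MvPowerSeries.constantCoeff f))) = 0 := by
    unfold B6_psi
    rw [MvPowerSeries.substAlgHom_apply]
    apply MvPowerSeries.constantCoeff_subst_eq_zero (B6_hasSubst H) (B6_a_const H)
    rw [map_sub, MvPowerSeries.constantCoeff_C, sub_self]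
  conv_lhs => rw [h1]
  rw [map_add, map_add, h2, B6_psi_C, MvPowerSeries.constantCoeff_C, zero_add]

private theorem B6_psi_res (H : FormalGroup (LTRing p n)) :
    (LTRing.residue p n).comp (B6_psi H).toRingHom = LTRing.residue p n := by
  ext f
  show WittVector.constantCoeff (MvPowerSeries.constantCoeff (B6_psi H f)) =
    WittVector.constantCoeff (MvPowerSeries.constantCoeff f)
  rw [B6_psi_const]

private theorem B6_vv (H : FormalGroup (LTRing p n)) {i : ℕ} (hi : i < n - 1) :
    vv H (i + 1) = B6_psi H (MvPowerSeries.X ⟨i, hi⟩ + MvPowerSeries.C (B6_c H (i + 1))) := by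
  rw [map_add, B6_psi_X, B6_psi_C]
  unfold B6_a
  ring

/-- `I_h` is generated by `v_0, ..., v_{h-1}`. -/
private theorem B6_height_le (H : FormalGroup (LTRing p n)) (J : Ideal (LTRing p n)) (h : ℕ)
    (hJ : ∀ i < h, vv H i ∈ J) : heightIdeal p n H h ≤ J := by
  induction h with
  | zero => rw [heightIdeal_zero]; exact bot_le
  | succ m ih =>
    rw [heightIdeal_succ]
    refine sup_le (ih fun i hi => hJ i (by omega)) ?_
    rw [Ideal.span_singleton_le_iff_mem]
    exact hJ m (by omega)

/-- constants `c_i` are divisible by `p` -/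
private theorem B6_c_p (hΓ : mulSeries Γ p = PowerSeries.X ^ (p ^ n))
    (hH : H.map (LTRing.residue p n) = Γ) {i : ℕ} (hi : i < n) :
    WittVector.constantCoeff (B6_c H i) = 0 :=
  residue_vv_lt hΓ hH hi

private theorem B6_bij (hn : 1 ≤ n) (hΓ : mulSeries Γ p = PowerSeries.X ^ (p ^ n))
    (hH : IsUniversalDeformation p n Γ H) : Function.Bijective (B6_psi H) := by
  apply endo_bijective _ (B6_psi_res H)
  rw [← heightIdeal_n hn hΓ hH]
  apply B6_height_le
  intro i hi
  have hpm : (p : LTRing p n) ∈ Ideal.map (B6_psi H).toRingHom (heightIdeal p n H n) := by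
    have h1 : (p : LTRing p n) ∈ heightIdeal p n H n := by
      rw [← vv_zero (H := H)]
      exact vv_mem (by omega)
    have h2 := Ideal.mem_map_of_mem (B6_psi H).toRingHom h1
    rwa [map_natCast] at h2
  rcases i with _ | i
  · rw [vv_zero]
    exact hpm
  · rw [B6_vv H (show i < n - 1 by omega), map_add]
    apply Ideal.add_mem
    · apply Ideal.mem_map_of_mem (B6_psi H).toRingHom
      rw [heightIdeal_n hn hΓ hH, RingHom.mem_ker]
      show WittVector.constantCoeff (MvPowerSeries.constantCoeff _) = 0
      rw [MvPowerSeries.constantCoeff_X, map_zero]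
    · rw [B6_psi_C]
      have h3 : B6_c H (i + 1) ∈ Ideal.span {(p : WittVector p (GaloisField p n))} := by
        rw [← WittVector.ker_constantCoeff, RingHom.mem_ker]
        exact B6_c_p hΓ hH.1 hi
      rw [Ideal.mem_span_singleton] at h3
      obtain ⟨w, hw⟩ := h3
      rw [hw, map_mul, map_natCast]
      exact Ideal.mul_mem_right _ _ hpm

/-- the embedding of the surviving variables -/
private def B6_e {n h : ℕ} (h1 : 1 ≤ h) : Fin (n - h) ↪ Fin (n - 1) where
  toFun j := ⟨h - 1 + j, by have := j.2; omega⟩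
  inj' := by
    intro i j hij
    have := congrArg Fin.val hij
    simp only at this
    ext
    omega

private theorem B6_e_apply {n h : ℕ} (h1 : 1 ≤ h) (j : Fin (n - h)) :
    ((B6_e h1 j : Fin (n - 1)) : ℕ) = h - 1 + j := rfl

private def B6_pi0 {h : ℕ} (h1 : 1 ≤ h) :
    LTRing p n →+* MvPowerSeries (Fin (n - h)) (GaloisField p n) :=
  (MvPowerSeries.map WittVector.constantCoeff).comp
    (MvPowerSeries.killCompl (R := WittVector p (GaloisField p n)) (B6_e (n := n) h1)).toRingHom

private theorem B6_pi0_apply {h : ℕ} (h1 : 1 ≤ h) (f : LTRing p n) :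
    B6_pi0 h1 f = MvPowerSeries.map WittVector.constantCoeff
      (MvPowerSeries.killCompl (R := WittVector p (GaloisField p n)) (B6_e (n := n) h1) f) := rfl

private theorem B6_pi0_C {h : ℕ} (h1 : 1 ≤ h) (w : WittVector p (GaloisField p n)) :
    B6_pi0 (n := n) h1 (MvPowerSeries.C w) = MvPowerSeries.C (WittVector.constantCoeff w) := by
  rw [B6_pi0_apply, MvPowerSeries.killCompl_C, MvPowerSeries.map_C]

private theorem B6_pi0_const {h : ℕ} (h1 : 1 ≤ h) (f : LTRing p n) :
    MvPowerSeries.constantCoeff (B6_pi0 h1 f) = LTRing.residue p n f := by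
  rw [B6_pi0_apply, MvPowerSeries.constantCoeff_map, ← MvPowerSeries.coeff_zero_eq_constantCoeff,
    MvPowerSeries.coeff_killCompl, Finsupp.embDomain_zero]
  rfl

private theorem B6_pi0_X {h : ℕ} (h1 : 1 ≤ h) {i : ℕ} (hi : i < n - 1) (j : Fin (n - h))
    (hij : i = h - 1 + j) :
    B6_pi0 (p := p) h1 (MvPowerSeries.X ⟨i, hi⟩) = MvPowerSeries.X j := by
  have h2 : (⟨i, hi⟩ : Fin (n - 1)) = B6_e (n := n) h1 j := by
    ext; exact hij
  rw [B6_pi0_apply, h2, MvPowerSeries.killCompl_X, MvPowerSeries.map_X]

private theorem B6_pi0_X0 {h : ℕ} (h1 : 1 ≤ h) {i : ℕ} (hi : i < n - 1) (hih : i < h - 1) :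
    B6_pi0 (p := p) h1 (MvPowerSeries.X ⟨i, hi⟩) = 0 := by
  rw [B6_pi0_apply, MvPowerSeries.killCompl_X_eq_zero, map_zero]
  rintro ⟨j, hj⟩
  have := congrArg Fin.val hj
  rw [B6_e_apply] at this
  simp only at this
  omega

private theorem B6_pi0_surj {h : ℕ} (h1 : 1 ≤ h) :
    Function.Surjective (B6_pi0 (p := p) (n := n) h1) := by
  intro g
  have hs : Function.Surjective (WittVector.constantCoeff :
      WittVector p (GaloisField p n) →+* GaloisField p n) := by
    intro x
    exact ⟨WittVector.teichmuller p x, WittVector.teichmuller_coeff_zero p x⟩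
  obtain ⟨g', hg'⟩ : ∃ g' : MvPowerSeries (Fin (n - h)) (WittVector p (GaloisField p n)),
      MvPowerSeries.map WittVector.constantCoeff g' = g := by
    choose c hc using hs
    obtain ⟨g', hg'⟩ : ∃ g' : MvPowerSeries (Fin (n - h)) (WittVector p (GaloisField p n)),
        ∀ d, MvPowerSeries.coeff d g' = c (MvPowerSeries.coeff d g) :=
      ⟨fun d => c (MvPowerSeries.coeff d g), fun _ => rfl⟩
    refine ⟨g', ?_⟩
    ext d
    rw [MvPowerSeries.coeff_map, hg']
    exact hc _
  refine ⟨MvPowerSeries.rename (B6_e (n := n) h1) g', ?_⟩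
  rw [B6_pi0_apply, MvPowerSeries.killCompl_rename_app, hg']

private theorem B6_ker {h : ℕ} (h1 : 1 ≤ h) (h2 : h ≤ n) (f : LTRing p n)
    (hf : B6_pi0 h1 f = 0) (J : Ideal (LTRing p n)) (hp : (p : LTRing p n) ∈ J)
    (hX : ∀ (i : ℕ) (hi : i < n - 1), i < h - 1 → MvPowerSeries.X ⟨i, hi⟩ ∈ J) : f ∈ J := by
  classical
  have hc : ∀ x : Fin (n - h) →₀ ℕ, MvPowerSeries.coeff (Finsupp.embDomain (B6_e h1) x) f ∈
      Ideal.span {(p : WittVector p (GaloisField p n))} := by
    intro x
    rw [← WittVector.ker_constantCoeff, RingHom.mem_ker]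
    have h3 := congrArg (MvPowerSeries.coeff x) hf
    rw [B6_pi0_apply, MvPowerSeries.coeff_map, MvPowerSeries.coeff_killCompl, map_zero] at h3
    exact h3
  obtain ⟨g, hg⟩ : ∃ g : MvPowerSeries (Fin (n - h)) (WittVector p (GaloisField p n)),
      ∀ x, MvPowerSeries.coeff (Finsupp.embDomain (B6_e h1) x) f =
        (p : WittVector p (GaloisField p n)) * MvPowerSeries.coeff x g := by
    have h4 : ∀ x : Fin (n - h) →₀ ℕ, ∃ w : WittVector p (GaloisField p n),
        MvPowerSeries.coeff (Finsupp.embDomain (B6_e h1) x) f =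
          (p : WittVector p (GaloisField p n)) * w := fun x => Ideal.mem_span_singleton.1 (hc x)
    choose w hw using h4
    exact ⟨fun x => w x, hw⟩
  have h5 : f = (p : LTRing p n) * MvPowerSeries.rename (B6_e (n := n) h1) g +
      (f - (p : LTRing p n) * MvPowerSeries.rename (B6_e (n := n) h1) g) := by ring
  rw [h5]
  apply Ideal.add_mem _ (Ideal.mul_mem_right _ _ hp)
  have h6 : f - (p : LTRing p n) * MvPowerSeries.rename (B6_e (n := n) h1) g ∈
      Ideal.span (MvPowerSeries.X '' ((univ.filter (fun i : Fin (n - 1) => (i : ℕ) < h - 1) :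
        Finset (Fin (n - 1))) : Set (Fin (n - 1))) : Set (LTRing p n)) := by
    apply B6_mem_span
    intro d hd
    have h7 : ∃ x : Fin (n - h) →₀ ℕ, d = Finsupp.embDomain (B6_e h1) x := by
      have h8 : d ∈ Set.range (Finsupp.embDomain (M := ℕ) (B6_e (n := n) h1)) := by
        rw [Finsupp.mem_range_embDomain_iff]
        intro i hi
        have h9 : ¬ ((i : ℕ) < h - 1) := by
          intro h10
          have := hd i (by simp [h10])
          rw [Finset.mem_coe, Finsupp.mem_support_iff] at hi
          exact hi this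
        refine ⟨⟨(i : ℕ) - (h - 1), by have := i.2; omega⟩, ?_⟩
        ext
        rw [B6_e_apply]
        simp only
        omega
      obtain ⟨x, hx⟩ := h8
      exact ⟨x, hx.symm⟩
    obtain ⟨x, rfl⟩ := h7
    have h11 : (p : LTRing p n) = MvPowerSeries.C (p : WittVector p (GaloisField p n)) := by
      rw [map_natCast]
    rw [map_sub, h11, MvPowerSeries.coeff_C_mul, MvPowerSeries.coeff_embDomain_rename, hg x,
      sub_self]
  refine (Ideal.span_le.2 ?_) h6
  rintro _ ⟨i, hi, rfl⟩
  simp only [Finset.coe_filter, Finset.mem_univ, true_and, Set.mem_ofPred_eq] at hi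
  exact hX i i.2 hi

/-- TASK B6b.  For `1 ≤ h ≤ n` there is a surjection `π : E₀ → k[[X_0, ..., X_{n-h-1}]]` with
kernel `I_h`, sending `v_{h+j}` to `X_j`.
Proof: let `c_i ∈ W(k)` be the constant coefficient of `v_i`, `1 ≤ i ≤ n-1`; `c_i ∈ pW(k)`.  The
substitution `u_i ↦ v_i - c_i` is an endomorphism `ψ` of `E₀` with `ψ(p) = p`, and
`𝔪 = I_n = (p, v_1, ..., v_{n-1})` (`heightIdeal_n`) `= (p, ψ(u_1), ..., ψ(u_{n-1}))`, so `ψ` is
bijective by B6a.  Compose `ψ⁻¹` with the surjection
`π_0 : E₀ = W(k)[[u]] → k[[X_0, ..]]`, coefficients mod `p`, `u_i ↦ 0` for `i < h`,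
`u_{h+j} ↦ X_j`; its kernel is `(p, u_1, ..., u_{h-1})`, whose image under `ψ` is
`(p, v_1 - c_1, ..., v_{h-1} - c_{h-1}) = I_h`. -/
theorem exists_coord (hn : 1 ≤ n) (hΓ : mulSeries Γ p = PowerSeries.X ^ (p ^ n))
    (hH : IsUniversalDeformation p n Γ H) {h : ℕ} (h1 : 1 ≤ h) (h2 : h ≤ n) :
    ∃ π : LTRing p n →+* MvPowerSeries (Fin (n - h)) (GaloisField p n),
      Function.Surjective π ∧ RingHom.ker π = heightIdeal p n H h ∧
      (∀ j : Fin (n - h), π (vv H (h + j)) = MvPowerSeries.X j) ∧
      (∀ w : WittVector p (GaloisField p n),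
        π (algebraMap (WittVector p (GaloisField p n)) (LTRing p n) w) =
          MvPowerSeries.C (WittVector.constantCoeff w)) ∧
      (∀ a : LTRing p n, MvPowerSeries.constantCoeff (π a) = LTRing.residue p n a) := by
  have hbij := B6_bij hn hΓ hH
  let e := AlgEquiv.ofBijective (B6_psi H) hbij
  have he : ∀ f, e f = B6_psi H f := fun _ => rfl
  have hes : ∀ f, e.symm (B6_psi H f) = f := fun f => by rw [← he, AlgEquiv.symm_apply_apply]
  let π : LTRing p n →+* MvPowerSeries (Fin (n - h)) (GaloisField p n) :=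
    (B6_pi0 h1).comp (e.symm : LTRing p n →ₐ[WittVector p (GaloisField p n)] LTRing p n).toRingHom
  have hπ : ∀ f, π (B6_psi H f) = B6_pi0 h1 f := by
    intro f
    show B6_pi0 h1 (e.symm (B6_psi H f)) = _
    rw [hes]
  have hvv : ∀ i : ℕ, ∀ hi : i < n - 1, π (vv H (i + 1)) =
      B6_pi0 h1 (MvPowerSeries.X ⟨i, hi⟩) := by
    intro i hi
    rw [B6_vv H hi, hπ, map_add, B6_pi0_C, B6_c_p hΓ hH.1 (by omega), map_zero, add_zero]
  have hCw : ∀ w, π (MvPowerSeries.C w) = MvPowerSeries.C (WittVector.constantCoeff w) := by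
    intro w
    rw [← B6_psi_C H w, hπ, B6_pi0_C]
  refine ⟨π, ?_, ?_, ?_, ?_, ?_⟩
  · intro g
    obtain ⟨f, hf⟩ := B6_pi0_surj (p := p) (n := n) h1 g
    exact ⟨B6_psi H f, by rw [hπ, hf]⟩
  · apply le_antisymm
    · intro a ha
      rw [RingHom.mem_ker] at ha
      obtain ⟨f, rfl⟩ := hbij.2 a
      rw [hπ] at ha
      have h3 : f ∈ Ideal.comap (B6_psi H).toRingHom (heightIdeal p n H h) := by
        have hp : (p : LTRing p n) ∈ heightIdeal p n H h := by
          rw [← vv_zero (H := H)]
          exact vv_mem (by omega)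
        apply B6_ker h1 h2 f ha
        · rw [Ideal.mem_comap, map_natCast]
          exact hp
        · intro i hi hih
          rw [Ideal.mem_comap]
          have h4 : (B6_psi H).toRingHom (MvPowerSeries.X ⟨i, hi⟩) = B6_a H ⟨i, hi⟩ :=
            B6_psi_X H _
          rw [h4]
          unfold B6_a
          apply Ideal.sub_mem
          · exact vv_mem (by simp only; omega)
          · have h5 : B6_c H (i + 1) ∈ Ideal.span {(p : WittVector p (GaloisField p n))} := by
              rw [← WittVector.ker_constantCoeff, RingHom.mem_ker]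
              exact B6_c_p hΓ hH.1 (by omega)
            rw [Ideal.mem_span_singleton] at h5
            obtain ⟨w, hw⟩ := h5
            simp only
            rw [hw, map_mul, map_natCast]
            exact Ideal.mul_mem_right _ _ hp
      exact h3
    · apply B6_height_le
      intro i hi
      rw [RingHom.mem_ker]
      rcases i with _ | i
      · rw [vv_zero, map_natCast, ← map_natCast (MvPowerSeries.C (σ := Fin (n - h))
          (R := GaloisField p n)), CharP.cast_eq_zero (GaloisField p n) p, map_zero]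
      · rw [hvv i (by omega)]
        exact B6_pi0_X0 h1 (by omega) (by omega)
  · intro j
    have hj := j.2
    have h3 : h + (j : ℕ) = (h - 1 + j) + 1 := by omega
    rw [h3, hvv _ (by omega)]
    exact B6_pi0_X h1 (by omega) j rfl
  · intro w
    rw [← hCw w]
    congr 1
  · intro a
    obtain ⟨f, rfl⟩ := hbij.2 a
    rw [hπ, B6_pi0_const]
    exact (congrArg (fun g => g f) (B6_psi_res H)).symm

/-- Height ideals are prime. (`h = 0`: `E₀` is a domain.) -/
theorem heightIdeal_isPrime (hn : 1 ≤ n) (hΓ : mulSeries Γ p = PowerSeries.X ^ (p ^ n))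
    (hH : IsUniversalDeformation p n Γ H) {h : ℕ} (h2 : h ≤ n) :
    (heightIdeal p n H h).IsPrime := by
  rcases Nat.eq_zero_or_pos h with rfl | h1
  · rw [heightIdeal_zero]
    exact Ideal.isPrime_bot
  · obtain ⟨π, -, hker, -⟩ := exists_coord hn hΓ hH h1 h2
    rw [← hker]
    haveI : IsDomain (MvPowerSeries (Fin (n - h)) (GaloisField p n)) :=
      NoZeroDivisors.to_isDomain _
    exact RingHom.ker_isPrime π

end Crest.Agent.LU
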