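import Mathlib
import Crest.Agent.LUA_R0
import Crest.Agent.LUA_T1
import Crest.Agent.LU_B6

/-!
S0351 (blueprint LU), part (5), TASK LUA-R3: the displacement `del` controls all elements of `E₀`
and of the fraction field of `E₀/P`.
-/

set_option autoImplicit false

noncomputable section

namespace Crest.Agent.LUA

open Crest.LubinTate Crest.Agent.LU IsLocalRing Filter Asymptotics Topology

variable {p : ℕ} [Fact p.Prime] {n : ℕ} {Γ : FormalGroup (GaloisField p n)} [Γ.IsComm]
  {H : FormalGroup (LTRing p n)} [H.IsComm]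

theorem del_nonneg {C : Type} [NormedField C] (h : ℕ) (x y : LTRing p n →+* C) :
    0 ≤ del H h x y :=
  Real.iSup_nonneg fun _ => norm_nonneg _

/-- a power series all of whose monomials involve a variable of `S` lies in the ideal
generated by the variables of `S` -/
private theorem R3_mem_span {A σ : Type*} [CommRing A] [DecidableEq σ] (S : Finset σ) :
    ∀ f : MvPowerSeries σ A, (∀ d : σ →₀ ℕ, (∀ i ∈ S, d i = 0) → MvPowerSeries.coeff d f = 0) →
      f ∈ Ideal.span (MvPowerSeries.X '' (S : Set σ) : Set (MvPowerSeries σ A)) := by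
  induction S using Finset.induction_on with
  | empty =>
    intro f hf
    have h0 : f = 0 := by
      ext d
      rw [hf d (by simp), map_zero]
    rw [h0]
    exact Ideal.zero_mem _
  | insert s S hs ih =>
    intro f hf
    obtain ⟨f', hf'⟩ : ∃ f' : MvPowerSeries σ A, ∀ d, MvPowerSeries.coeff d f' =
        if d s = 0 then MvPowerSeries.coeff d f else 0 :=
      ⟨fun d => if d s = 0 then MvPowerSeries.coeff d f else 0, fun _ => rfl⟩
    have h1 : f' ∈ Ideal.span (MvPowerSeries.X '' (S : Set σ) : Set (MvPowerSeries σ A)) := by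
      apply ih
      intro d hd
      rw [hf']
      split_ifs with h
      · apply hf
        intro i hi
        rcases Finset.mem_insert.1 hi with rfl | hi
        · exact h
        · exact hd i hi
      · rfl
    have h2 : (MvPowerSeries.X s : MvPowerSeries σ A) ∣ f - f' := by
      rw [MvPowerSeries.X_dvd_iff]
      intro d hd
      rw [map_sub, hf', if_pos hd, sub_self]
    have h3 : f = (f - f') + f' := by ring
    rw [h3]
    apply Ideal.add_mem
    · obtain ⟨g, hg⟩ := h2
      rw [hg]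
      apply Ideal.mul_mem_right
      exact Ideal.subset_span ⟨s, by simp, rfl⟩
    · refine Ideal.span_mono ?_ h1
      apply Set.image_mono
      simp

/-- every power series is `C c + Σ_j G_j X_j` -/
private theorem R3_split {A : Type*} [CommRing A] {d : ℕ} (F : MvPowerSeries (Fin d) A) :
    ∃ G : Fin d → MvPowerSeries (Fin d) A,
      F = MvPowerSeries.C (MvPowerSeries.constantCoeff F) + ∑ j, G j * MvPowerSeries.X j := by
  have h : F - MvPowerSeries.C (MvPowerSeries.constantCoeff F) ∈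
      Ideal.span (MvPowerSeries.X '' ((Finset.univ : Finset (Fin d)) : Set (Fin d)) :
        Set (MvPowerSeries (Fin d) A)) := by
    apply R3_mem_span
    intro e he
    have : e = 0 := by
      ext i
      exact he i (Finset.mem_univ i)
    rw [this, map_sub, MvPowerSeries.coeff_zero_C, MvPowerSeries.coeff_zero_eq_constantCoeff_apply,
      sub_self]
  rw [Finset.coe_univ, Set.image_univ, Ideal.mem_span_range_iff_exists_fun] at h
  obtain ⟨G, hG⟩ := h
  exact ⟨G, by rw [hG]; ring⟩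

private theorem R3_step {κ C : Type} [Field κ] [NormedField C] [IsUltrametricDist C]
    {d : ℕ} (y y' : MvPowerSeries (Fin d) κ →+* C) (h1 : ∀ F, ‖y F‖ ≤ 1) (h1' : ∀ F, ‖y' F‖ ≤ 1)
    (hc : ∀ c : κ, y (MvPowerSeries.C c) = y' (MvPowerSeries.C c)) {r : ℝ} (hr0 : 0 ≤ r)
    (hr : r < 1)
    (hX' : ∀ j, ‖y' (MvPowerSeries.X j)‖ ≤ r)
    {ε : ℝ} (hε : 0 ≤ ε) (h : ∀ j, ‖y (MvPowerSeries.X j) - y' (MvPowerSeries.X j)‖ ≤ ε)
    (N : ℕ) : ∀ F : MvPowerSeries (Fin d) κ, ‖y F - y' F‖ ≤ max ε (r ^ N) := by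
  induction N with
  | zero =>
    intro F
    rw [pow_zero]
    rw [sub_eq_add_neg]
    refine ((IsUltrametricDist.norm_add_le_max _ _).trans (max_le (h1 F) ?_)).trans
      (le_max_right _ _)
    rw [norm_neg]
    exact h1' F
  | succ N ih =>
    intro F
    obtain ⟨G, hG⟩ := R3_split F
    have e : y F - y' F = ∑ j, (y (G j) * y (MvPowerSeries.X j) -
        y' (G j) * y' (MvPowerSeries.X j)) := by
      rw [hG]
      rw [map_add, map_add, hc, map_sum, map_sum, add_sub_add_left_eq_sub,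
        Finset.sum_sub_distrib]
      simp only [map_mul]
    rw [e]
    have hM : 0 ≤ max ε (r ^ (N + 1)) := hε.trans (le_max_left _ _)
    refine IsUltrametricDist.norm_sum_le_of_forall_le_of_nonneg hM fun j _ => ?_
    have e2 : y (G j) * y (MvPowerSeries.X j) - y' (G j) * y' (MvPowerSeries.X j) =
        y (G j) * (y (MvPowerSeries.X j) - y' (MvPowerSeries.X j)) +
          (y (G j) - y' (G j)) * y' (MvPowerSeries.X j) := by ring
    rw [e2]
    refine (IsUltrametricDist.norm_add_le_max _ _).trans (max_le ?_ ?_)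
    · rw [norm_mul]
      refine le_trans ?_ (le_max_left _ _)
      calc ‖y (G j)‖ * ‖y (MvPowerSeries.X j) - y' (MvPowerSeries.X j)‖ ≤ 1 * ε :=
            mul_le_mul (h1 _) (h j) (norm_nonneg _) zero_le_one
        _ = ε := one_mul ε
    · rw [norm_mul]
      calc ‖y (G j) - y' (G j)‖ * ‖y' (MvPowerSeries.X j)‖ ≤ max ε (r ^ N) * r :=
            mul_le_mul (ih _) (hX' j) (norm_nonneg _) (hε.trans (le_max_left _ _))
        _ = max (ε * r) (r ^ N * r) := max_mul_of_nonneg _ _ hr0
        _ ≤ max ε (r ^ (N + 1)) := by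
          refine max_le_max ?_ (le_of_eq (pow_succ r N).symm)
          calc ε * r ≤ ε * 1 := mul_le_mul_of_nonneg_left hr.le hε
            _ = ε := mul_one ε

/-- TASK LUA-R3a.  Two ring homomorphisms `y, y'` from `κ[[X_1..X_d]]` to an ultrametric field, with
`‖y F‖ ≤ 1`, equal on constants, `‖y X_j‖, ‖y' X_j‖ ≤ r < 1` satisfy
`‖y F - y' F‖ ≤ ε` if `‖y X_j - y' X_j‖ ≤ ε` for all `j`.
Proof: for polynomials (truncations) by induction / `‖∏a_i - ∏b_i‖ ≤ max ‖a_i - b_i‖`;
`F - trunc` lies in the `N`-th power of the ideal generated by the variables, so both values have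
norm `≤ r^N`; let `N → ∞` (so `‖y F - y' F‖ ≤ max ε (r^N)`). -/
theorem norm_sub_le_powerSeries {κ C : Type} [Field κ] [NormedField C] [IsUltrametricDist C]
    {d : ℕ} (y y' : MvPowerSeries (Fin d) κ →+* C) (h1 : ∀ F, ‖y F‖ ≤ 1) (h1' : ∀ F, ‖y' F‖ ≤ 1)
    (hc : ∀ c : κ, y (MvPowerSeries.C c) = y' (MvPowerSeries.C c)) {r : ℝ} (hr : r < 1)
    (hX : ∀ j, ‖y (MvPowerSeries.X j)‖ ≤ r) (hX' : ∀ j, ‖y' (MvPowerSeries.X j)‖ ≤ r)
    {ε : ℝ} (hε : 0 ≤ ε) (h : ∀ j, ‖y (MvPowerSeries.X j) - y' (MvPowerSeries.X j)‖ ≤ ε)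
    (F : MvPowerSeries (Fin d) κ) : ‖y F - y' F‖ ≤ ε := by
  have hr0 : 0 ≤ max r 0 := le_max_right _ _
  have hr1 : max r 0 < 1 := max_lt hr one_pos
  have key := fun N : ℕ => R3_step y y' h1 h1' hc hr0 hr1
    (fun j => (hX' j).trans (le_max_left _ _)) hε h N F
  have hlim : Tendsto (fun N : ℕ => max ε ((max r 0) ^ N)) atTop (𝓝 (max ε 0)) :=
    tendsto_const_nhds.max (tendsto_pow_atTop_nhds_zero_of_lt_one hr0 hr1)
  have h2 := ge_of_tendsto' hlim key
  rwa [max_eq_left hε] at h2

/-- TASK LUA-R3b.  `‖x a - y a‖ ≤ del H h x y` for all `a ∈ E₀` (both points factor through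
`E₀/I_h ≅ k[[X_0..X_{n-h-1}]]`, `v_{h+j} ↦ X_j`, by `exists_coord`: `π` is surjective with kernel
`I_h ≤ P`). -/
theorem norm_sub_le_del (hn : 1 ≤ n) (hΓ : mulSeries Γ p = PowerSeries.X ^ (p ^ n))
    (hH : IsUniversalDeformation p n Γ H) {h : ℕ} (h1 : 1 ≤ h) (h2 : h ≤ n)
    {P : Ideal (LTRing p n)} (hle : heightIdeal p n H h ≤ P) {C : Type} [NormedField C]
    [IsUltrametricDist C] {x y : LTRing p n →+* C} (hx : IsPoint P x) (hy : IsPoint P y)
    (hc : SameConst x y) (a : LTRing p n) : ‖x a - y a‖ ≤ del H h x y := by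
  obtain ⟨π, hπs, hπk, hπv, hπc, hπr⟩ := exists_coord hn hΓ hH h1 h2
  have hkx : RingHom.ker π ≤ RingHom.ker x := by rw [hπk, hx.ker]; exact hle
  have hky : RingHom.ker π ≤ RingHom.ker y := by rw [hπk, hy.ker]; exact hle
  set x' : MvPowerSeries (Fin (n - h)) (GaloisField p n) →+* C :=
    (π.liftOfSurjective hπs) ⟨x, hkx⟩ with hx'
  set y' : MvPowerSeries (Fin (n - h)) (GaloisField p n) →+* C :=
    (π.liftOfSurjective hπs) ⟨y, hky⟩ with hy'
  have ex : ∀ b, x' (π b) = x b := fun b => π.liftOfSurjective_comp_apply hπs ⟨x, hkx⟩ b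
  have ey : ∀ b, y' (π b) = y b := fun b => π.liftOfSurjective_comp_apply hπs ⟨y, hky⟩ b
  have hvlt : ∀ j : Fin (n - h), vv H (h + j) ∈ RingHom.ker (LTRing.residue p n) := fun j =>
    residue_vv_lt hΓ hH.1 (by have := j.2; omega)
  obtain ⟨r, hr1, hr⟩ : ∃ r : ℝ, r < 1 ∧ ∀ j : Fin (n - h),
      max ‖x (vv H (h + j))‖ ‖y (vv H (h + j))‖ ≤ r := by
    by_cases hne : Nonempty (Fin (n - h))
    · obtain ⟨j0, hj0⟩ := Finite.exists_max fun j : Fin (n - h) =>
        max ‖x (vv H (h + j))‖ ‖y (vv H (h + j))‖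
      exact ⟨_, max_lt (hx.lt _ (hvlt j0)) (hy.lt _ (hvlt j0)), hj0⟩
    · exact ⟨0, one_pos, fun j => absurd ⟨j⟩ hne⟩
  have hfin := norm_sub_le_powerSeries x' y'
    (fun F => by obtain ⟨b, rfl⟩ := hπs F; rw [ex]; exact hx.le b)
    (fun F => by obtain ⟨b, rfl⟩ := hπs F; rw [ey]; exact hy.le b)
    (fun c => by
      obtain ⟨w, rfl⟩ := WittVector.constantCoeff_surjective p c
      rw [← hπc w, ex, ey]
      exact hc w)
    hr1
    (fun j => by rw [← hπv j, ex]; exact (le_max_left _ _).trans (hr j))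
    (fun j => by rw [← hπv j, ey]; exact (le_max_right _ _).trans (hr j))
    (del_nonneg (H := H) h x y)
    (fun j => by
      rw [← hπv j, ex, ey]
      exact le_ciSup (f := fun j : Fin (n - h) => ‖x (vv H (h + j)) - y (vv H (h + j))‖)
        (Set.finite_range _).bddAbove j)
    (π a)
  rwa [ex, ey] at hfin

/-- TASK LUA-R3c.  Along a probe the embeddings of the fraction field converge with speed `del`.
(`close_of_closure` for `S = range (algebraMap A K)`, whose field closure is `⊤`.) -/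
theorem close_fr (hn : 1 ≤ n) (hΓ : mulSeries Γ p = PowerSeries.X ^ (p ^ n))
    (hH : IsUniversalDeformation p n Γ H) {h : ℕ} (h1 : 1 ≤ h) (h2 : h ≤ n)
    {P : Ideal (LTRing p n)} [P.IsPrime] (hle : heightIdeal p n H h ≤ P) {C : Type}
    [NormedField C] [IsUltrametricDist C] {x : LTRing p n →+* C} (hx : IsPoint P x)
    {χ : ℕ → LTRing p n →+* C} (hχ : IsProbe H h P x χ) :
    Close (fr hx) (fun m => fr (hχ.point m)) (fun m => del H h x (χ m)) := by
  refine close_of_closure (IsFractionRing.closure_range_algebraMap (LTRing p n ⧸ P) (KK P))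
    hχ.tendsto ?_
  rintro s ⟨a, rfl⟩
  obtain ⟨b, rfl⟩ := Ideal.Quotient.mk_surjective a
  refine IsBigO.of_bound 1 (Eventually.of_forall fun m => ?_)
  rw [fr_algebraMap, fr_algebraMap, bar_mk, bar_mk, one_mul, norm_sub_rev,
    Real.norm_of_nonneg (del_nonneg h x (χ m))]
  exact norm_sub_le_del hn hΓ hH h1 h2 hle hx (hχ.point m) (hχ.const m) b

end Crest.Agent.LUA
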