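import Mathlib
import Crest.Agent.LUA_R2
import Crest.Agent.LU_D2

/-!
S0351 (blueprint LU), TASK LUA-R4: number of roots (black box BB4).
-/

set_option autoImplicit false

noncomputable section

namespace Crest.Agent.LUA

open Crest.LubinTate Crest.Agent.LU IsLocalRing

variable {C : Type} [NontriviallyNormedField C] [IsUltrametricDist C] [CompleteSpace C]
  [IsAlgClosed C]

variable {p : ℕ} [Fact p.Prime] {n : ℕ} {Γ : FormalGroup (GaloisField p n)} [Γ.IsComm]
  {H : FormalGroup (LTRing p n)} [H.IsComm]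

/-- TASK LUA-R4.  `V^{[N]}_x` has exactly `p^{(n-h)N}` roots (`exists_weierstrass`, `rts_VN_eq`,
`weierstrass_simple`; a monic polynomial of degree `D` with simple roots over an algebraically
closed field has `D` roots). -/
theorem ncard_rts [CharP C p] (hΓ : mulSeries Γ p = PowerSeries.X ^ (p ^ n))
    (hH : IsUniversalDeformation p n Γ H) {h : ℕ} (h2 : h ≤ n) {P : Ideal (LTRing p n)}
    (hP : P.IsPrime) (h1 : 1 ≤ h) (hle : heightIdeal p n H h ≤ P) (hv : vv H h ∉ P)
    {x : LTRing p n →+* C} (hx : IsPoint P x) (N : ℕ) :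
    (rts (VN p h (VS H h x) N)).Finite ∧
      (rts (VN p h (VS H h x) N)).ncard = p ^ ((n - h) * N) := by
  classical
  have hPt : P ≠ ⊤ := hP.ne_top
  have hch : CharP (LTRing p n ⧸ P) p := charP_quot hPt (hle (by
    rw [← vv_zero (H := H)]
    exact vv_mem (by omega)))
  obtain ⟨W, U, hU, hWU, hW, hdeg, hWl⟩ := exists_weierstrass hΓ hH h2 hPt N
  have hr := rts_VN_eq hPt hle N hU hWU hW hWl hx
  have hsimple : ∀ z : C, (W.map (bar hx)).eval z = 0 →
      (W.map (bar hx)).derivative.eval z ≠ 0 := fun z hz =>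
    weierstrass_simple hPt hle hv N hU hWU hW hWl hx hz
  obtain ⟨w, hw⟩ : ∃ w : Polynomial C, w = W.map (bar hx) := ⟨_, rfl⟩
  rw [← hw] at hr hsimple
  have hwm : w.Monic := by rw [hw]; exact hW.map _
  have hwd : w.natDegree = p ^ ((n - h) * N) := by rw [hw, hW.natDegree_map, hdeg]
  have hw0 : w ≠ 0 := hwm.ne_zero
  have hnd : w.roots.Nodup := by
    rw [Multiset.nodup_iff_count_le_one]
    intro z
    rw [Polynomial.count_roots]
    by_contra hcon
    push Not at hcon
    rw [Polynomial.one_lt_rootMultiplicity_iff_isRoot hw0] at hcon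
    exact hsimple z hcon.1 hcon.2
  have hcard : w.roots.card = w.natDegree :=
    (IsAlgClosed.splits w).natDegree_eq_card_roots.symm
  have hset : rts (VN p h (VS H h x) N) = (w.roots.toFinset : Set C) := by
    rw [hr]
    ext z
    simp only [Set.mem_ofPred_eq, Finset.mem_coe, Multiset.mem_toFinset]
    rw [Polynomial.mem_roots hw0]
    rfl
  rw [hset]
  refine ⟨Finset.finite_toSet _, ?_⟩
  rw [Set.ncard_coe_finset, Multiset.toFinset_card_of_nodup hnd, hcard, hwd]

end Crest.Agent.LUA
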