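import Mathlib
import Crest.Agent.LU_D2

/-!
S0351 (blueprint LU), task D3: the group of points of an integral law on the open unit ball.
-/

set_option autoImplicit false

noncomputable section

namespace Crest.Agent.LU

open Crest.LubinTate

variable {C : Type} [NontriviallyNormedField C] [IsUltrametricDist C] [CompleteSpace C]

/-- `F(a,b)` for `a, b` in the open unit ball. -/
def cadd (F : IFG C) (a b : C) : C := ev F.law.toPowerSeries ![a, b]

/-- The inverse of `a`. -/
def cneg (F : IFG C) (a : C) : C := ev1 (inv F.law) a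

private theorem D3_cc (F : IFG C) : MvPowerSeries.constantCoeff F.law.toPowerSeries = 0 :=
  F.law.zero_constantCoeff

private theorem D3_lt2 {a b : C} (ha : ‖a‖ < 1) (hb : ‖b‖ < 1) : ∀ s : Fin 2, ‖![a, b] s‖ < 1 := by
  intro s; fin_cases s <;> simpa

/-- TASK D3. -/
theorem norm_cadd_le (F : IFG C) {a b : C} (ha : ‖a‖ < 1) (hb : ‖b‖ < 1) :
    ‖cadd F a b‖ ≤ max ‖a‖ ‖b‖ := by
  have h := norm_ev_le_mul (f := F.law.toPowerSeries) (D3_cc F) (z := ![a, b])
    (r := max ‖a‖ ‖b‖) (ε := 1) (max_lt ha hb) (le_max_of_le_left (norm_nonneg _))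
    (by intro s; fin_cases s <;> simp) zero_le_one F.int
  rw [one_mul] at h
  exact h

theorem norm_cneg_le (F : IFG C) {a : C} (ha : ‖a‖ < 1) : ‖cneg F a‖ ≤ ‖a‖ := by
  have h := norm_ev_le_mul (f := (inv F.law : MvPowerSeries Unit C)) (constantCoeff_inv F.law)
    (z := fun _ : Unit => a) (r := ‖a‖) (ε := 1) ha (norm_nonneg _) (fun _ => le_rfl) zero_le_one
    (Int1.inv F)
  rw [one_mul] at h
  exact h

/-- From `F.assoc` and `ev_subst` (three variables). -/
theorem cadd_assoc (F : IFG C) {a b c : C} (ha : ‖a‖ < 1) (hb : ‖b‖ < 1) (hc : ‖c‖ < 1) :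
    cadd F (cadd F a b) c = cadd F a (cadd F b c) := by
  have hz : ∀ t : Fin 3, ‖![a, b, c] t‖ < 1 := by
    intro t; fin_cases t <;> simpa
  have hX : ∀ i : Fin 3, Int1 (MvPowerSeries.X i : MvPowerSeries (Fin 3) C) := fun i => Int1.var i
  have hX0 : ∀ i : Fin 3, MvPowerSeries.constantCoeff (MvPowerSeries.X i : MvPowerSeries (Fin 3) C) = 0 :=
    fun i => MvPowerSeries.constantCoeff_X i
  have hpair : ∀ i j : Fin 3, ∀ s : Fin 2, Int1 ((![MvPowerSeries.X i, MvPowerSeries.X j] :
      Fin 2 → MvPowerSeries (Fin 3) C) s) := by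
    intro i j s; fin_cases s
    · exact hX i
    · exact hX j
  have hpair0 : ∀ i j : Fin 3, ∀ s : Fin 2, MvPowerSeries.constantCoeff ((![MvPowerSeries.X i, MvPowerSeries.X j] :
      Fin 2 → MvPowerSeries (Fin 3) C) s) = 0 := by
    intro i j s; fin_cases s
    · exact hX0 i
    · exact hX0 j
  have hI : ∀ i j : Fin 3, Int1 (F.law.toPowerSeries.subst
      (![MvPowerSeries.X i, MvPowerSeries.X j] : Fin 2 → MvPowerSeries (Fin 3) C)) := fun i j =>
    Int1.subst F.int (hpair i j) (hpair0 i j)
  have hI0 : ∀ i j : Fin 3, MvPowerSeries.constantCoeff (F.law.toPowerSeries.subst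
      (![MvPowerSeries.X i, MvPowerSeries.X j] : Fin 2 → MvPowerSeries (Fin 3) C)) = 0 :=
    fun i j => constantCoeff_fadd F.law (hX0 i) (hX0 j)
  have hev : ∀ i j : Fin 3, ev (F.law.toPowerSeries.subst
      (![MvPowerSeries.X i, MvPowerSeries.X j] : Fin 2 → MvPowerSeries (Fin 3) C)) ![a, b, c] =
      ev F.law.toPowerSeries ![![a, b, c] i, ![a, b, c] j] := by
    intro i j
    rw [ev_subst F.int (hpair i j) (hpair0 i j) hz]
    congr 1
    funext s
    fin_cases s
    · exact ev_X i _
    · exact ev_X j _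
  have h := congrArg (fun f : MvPowerSeries (Fin 3) C => ev f ![a, b, c]) F.law.assoc
  rw [ev_subst F.int, ev_subst F.int] at h
  · have e1 : (fun s : Fin 2 => ev ((![F.law.toPowerSeries.subst
        (![MvPowerSeries.X 0, MvPowerSeries.X 1] : Fin 2 → MvPowerSeries (Fin 3) C),
        MvPowerSeries.X 2] : Fin 2 → MvPowerSeries (Fin 3) C) s) ![a, b, c]) =
        ![cadd F a b, c] := by
      funext s
      fin_cases s
      · exact hev 0 1
      · exact ev_X 2 _
    have e2 : (fun s : Fin 2 => ev ((![MvPowerSeries.X 0, F.law.toPowerSeries.subst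
        (![MvPowerSeries.X 1, MvPowerSeries.X 2] : Fin 2 → MvPowerSeries (Fin 3) C)] :
        Fin 2 → MvPowerSeries (Fin 3) C) s) ![a, b, c]) =
        ![a, cadd F b c] := by
      funext s
      fin_cases s
      · exact ev_X 0 _
      · exact hev 1 2
    rw [e1, e2] at h
    exact h
  · intro s; fin_cases s
    · exact hX 0
    · exact hI 1 2
  · intro s; fin_cases s
    · exact hX0 0
    · exact hI0 1 2
  · exact hz
  · intro s; fin_cases s
    · exact hI 0 1
    · exact hX 2
  · intro s; fin_cases s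
    · exact hI0 0 1
    · exact hX0 2
  · exact hz

theorem cadd_comm (F : IFG C) {a b : C} (ha : ‖a‖ < 1) (hb : ‖b‖ < 1) :
    cadd F a b = cadd F b a := by
  have hz := D3_lt2 ha hb
  have h := congrArg (fun f : MvPowerSeries (Fin 2) C => ev f ![a, b]) F.comm.comm
  rw [ev_subst F.int] at h
  · have e1 : (fun s : Fin 2 => ev ((![MvPowerSeries.X 1, MvPowerSeries.X 0] :
        Fin 2 → MvPowerSeries (Fin 2) C) s) ![a, b]) = ![b, a] := by
      funext s
      fin_cases s
      · exact ev_X 1 _
      · exact ev_X 0 _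
    rw [e1] at h
    exact h
  · intro s; fin_cases s
    · exact Int1.var 1
    · exact Int1.var 0
  · intro s; fin_cases s
    · exact MvPowerSeries.constantCoeff_X 1
    · exact MvPowerSeries.constantCoeff_X 0
  · exact hz

/-- Evaluation of `fadd F a b` for one-variable series. -/
theorem ev1_fadd (F : IFG C) {u v : PowerSeries C} (hu : Int1 u) (hv : Int1 v)
    (hu0 : PowerSeries.constantCoeff u = 0) (hv0 : PowerSeries.constantCoeff v = 0) {z : C}
    (hz : ‖z‖ < 1) : ev1 (fadd F.law u v : PowerSeries C) z = cadd F (ev1 u z) (ev1 v z) := by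
  unfold ev1 fadd cadd
  rw [ev_subst F.int (a := ![u, v])]
  · congr 1
    funext s
    fin_cases s <;> rfl
  · intro s; fin_cases s
    · exact hu
    · exact hv
  · intro s; fin_cases s
    · exact hu0
    · exact hv0
  · exact fun _ => hz

theorem cadd_zero (F : IFG C) {a : C} (ha : ‖a‖ < 1) : cadd F a 0 = a := by
  have h0 : Int1 (0 : PowerSeries C) := by
    intro d
    rw [map_zero, norm_zero]
    exact zero_le_one
  have h := ev1_fadd F (u := PowerSeries.X) (v := 0) (Int1.var (C := C) ()) h0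
    PowerSeries.constantCoeff_X (map_zero _) ha
  rw [fadd_zero F.law (σ := Unit) (a := PowerSeries.X) PowerSeries.constantCoeff_X, ev1_X] at h
  have h1 : ev1 (0 : PowerSeries C) a = 0 := ev_zero _
  rw [h1] at h
  exact h.symm

theorem cadd_cneg (F : IFG C) {a : C} (ha : ‖a‖ < 1) : cadd F a (cneg F a) = 0 := by
  have h := ev1_fadd F (u := PowerSeries.X) (v := inv F.law) (Int1.var (C := C) ()) (Int1.inv F)
    PowerSeries.constantCoeff_X (constantCoeff_inv F.law) ha
  rw [fadd_inv F.law, ev1_X] at h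
  have h1 : ev1 (0 : PowerSeries C) a = 0 := ev_zero _
  rw [h1] at h
  exact h.symm

private theorem D3_coeff_single_one {R : Type*} [CommRing R] (G : FormalGroup R) (n : ℕ) :
    MvPowerSeries.coeff (Finsupp.single (1 : Fin 2) n) G.toPowerSeries =
      PowerSeries.coeff n (PowerSeries.X : PowerSeries R) := by
  have h := congrArg (PowerSeries.coeff n) G.zeroX_eq_X
  have h10 : MvPowerSeries.HasSubst (![0, PowerSeries.X] : Fin 2 → PowerSeries R) :=
    MvPowerSeries.HasSubst.zero_X
  rw [← h, PowerSeries.coeff, FormalGroup.zeroX,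
    MvPowerSeries.coeff_subst h10,
    finsum_eq_single _ (Finsupp.single 1 n)]
  · simp [MvPowerSeries.coeff_X_pow, PowerSeries.X]
  · intro d hd
    by_cases hd₁ : d 0 = 0
    · by_cases hd₀ : d 1 = n
      · exact absurd (Finsupp.ext fun s => by fin_cases s <;> simp [hd₀, hd₁]) hd
      · have : ¬ n = d 1 := fun h => hd₀ h.symm
        simp [hd₁, MvPowerSeries.coeff_X_pow, PowerSeries.X, this]
    · simp [hd₁]

/-- The cofactor `K` in `G = X + Y + XYK`. -/
def shiftK2 {R : Type*} [CommRing R] (G : FormalGroup R) : MvPowerSeries (Fin 2) R :=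
  fun d => MvPowerSeries.coeff (d + Finsupp.single 1 1 + Finsupp.single 0 1) G.toPowerSeries

theorem coeff_shiftK2 {R : Type*} [CommRing R] (G : FormalGroup R) (d : Fin 2 →₀ ℕ) :
    MvPowerSeries.coeff d (shiftK2 G) =
      MvPowerSeries.coeff (d + Finsupp.single 1 1 + Finsupp.single 0 1) G.toPowerSeries := rfl

private theorem D3_coeff_single_zero {R : Type*} [CommRing R] (G : FormalGroup R) (n : ℕ) :
    MvPowerSeries.coeff (Finsupp.single (0 : Fin 2) n) G.toPowerSeries =
      PowerSeries.coeff n (PowerSeries.X : PowerSeries R) := by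
  have h := congrArg (PowerSeries.coeff n) G.Xzero_eq_X
  have h10 : MvPowerSeries.HasSubst (![PowerSeries.X, 0] : Fin 2 → PowerSeries R) :=
    MvPowerSeries.HasSubst.X_zero
  rw [← h, PowerSeries.coeff, FormalGroup.Xzero,
    MvPowerSeries.coeff_subst h10,
    finsum_eq_single _ (Finsupp.single 0 n)]
  · simp [MvPowerSeries.coeff_X_pow, PowerSeries.X]
  · intro d hd
    by_cases hd₁ : d 1 = 0
    · by_cases hd₀ : d 0 = n
      · exact absurd (Finsupp.ext fun s => by fin_cases s <;> simp [hd₀, hd₁]) hd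
      · have : ¬ n = d 0 := fun h => hd₀ h.symm
        simp [hd₁, MvPowerSeries.coeff_X_pow, PowerSeries.X, this]
    · simp [hd₁]

private theorem D3_coeff_X_mul {R : Type*} [CommRing R] (i : Fin 2) (d : Fin 2 →₀ ℕ)
    (K : MvPowerSeries (Fin 2) R) (hd : d i = 0) :
    MvPowerSeries.coeff d (MvPowerSeries.X i * K) = 0 := by
  classical
  rw [MvPowerSeries.X, MvPowerSeries.coeff_monomial_mul, if_neg]
  intro h2
  have := h2 i
  simp [hd] at this

private theorem D3_coeff_X_mul' {R : Type*} [CommRing R] (i : Fin 2) (d : Fin 2 →₀ ℕ)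
    (K : MvPowerSeries (Fin 2) R) (hd : d i ≠ 0) :
    MvPowerSeries.coeff d (MvPowerSeries.X i * K) =
      MvPowerSeries.coeff (d - Finsupp.single i 1) K := by
  classical
  rw [MvPowerSeries.X, MvPowerSeries.coeff_monomial_mul, if_pos, one_mul]
  rw [Finsupp.single_le_iff]
  omega

theorem decomp_shiftK2 {R : Type*} [CommRing R] (G : FormalGroup R) :
    G.toPowerSeries = MvPowerSeries.X 0 + MvPowerSeries.X 1 + MvPowerSeries.X 0 *
      (MvPowerSeries.X 1 * shiftK2 G) := by
  classical
  ext d
  rw [map_add, map_add]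
  by_cases h0 : d 0 = 0
  · have hd : d = Finsupp.single 1 (d 1) := by
      ext s; fin_cases s <;> simp [h0]
    rw [D3_coeff_X_mul 0 d _ h0, add_zero, MvPowerSeries.coeff_X, MvPowerSeries.coeff_X]
    have e1 : ¬ d = Finsupp.single 0 1 := by
      intro h2
      have := DFunLike.congr_fun h2 0
      simp [h0] at this
    rw [if_neg e1, zero_add]
    conv_lhs => rw [hd]
    rw [D3_coeff_single_one, PowerSeries.coeff_X]
    by_cases h1 : d 1 = 1
    · rw [if_pos h1, if_pos]
      rw [hd, h1]
    · rw [if_neg h1, if_neg]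
      intro h2
      apply h1
      have := DFunLike.congr_fun h2 1
      simpa using this
  · by_cases h1 : d 1 = 0
    · have hd : d = Finsupp.single 0 (d 0) := by
        ext s; fin_cases s <;> simp [h1]
      rw [D3_coeff_X_mul' 0 d _ h0, D3_coeff_X_mul 1 _ _ (by simp [h1]), add_zero,
        MvPowerSeries.coeff_X, MvPowerSeries.coeff_X]
      have e1 : ¬ d = Finsupp.single 1 1 := by
        intro h2
        have := DFunLike.congr_fun h2 1
        simp [h1] at this
      rw [if_neg e1, add_zero]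
      conv_lhs => rw [hd]
      rw [D3_coeff_single_zero, PowerSeries.coeff_X]
      by_cases h2 : d 0 = 1
      · rw [if_pos h2, if_pos]
        rw [hd, h2]
      · rw [if_neg h2, if_neg]
        intro h3
        apply h2
        have := DFunLike.congr_fun h3 0
        simpa using this
    · rw [D3_coeff_X_mul' 0 d _ h0, D3_coeff_X_mul' 1 _ _ (by simpa using h1),
        MvPowerSeries.coeff_X, MvPowerSeries.coeff_X, if_neg, if_neg, zero_add, zero_add,
        coeff_shiftK2]
      · congr 2
        ext s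
        fin_cases s
        · simp; omega
        · simp; omega
      · rintro rfl
        simp at h0
      · rintro rfl
        simp at h1

/-- `F(X,Y) = X + Y + XY(...)`. -/
theorem norm_cadd_sub_le (F : IFG C) {a b : C} (ha : ‖a‖ < 1) (hb : ‖b‖ < 1) :
    ‖cadd F a b - (a + b)‖ ≤ ‖a‖ * ‖b‖ := by
  have hz := D3_lt2 ha hb
  set K : MvPowerSeries (Fin 2) C := shiftK2 F.law with hK
  have hKi : Int1 K := fun d => F.int _
  have hX0 : Int1 (MvPowerSeries.X 0 : MvPowerSeries (Fin 2) C) := Int1.var 0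
  have hX1 : Int1 (MvPowerSeries.X 1 : MvPowerSeries (Fin 2) C) := Int1.var 1
  have h : cadd F a b = a + b + a * (b * ev K ![a, b]) := by
    unfold cadd
    rw [decomp_shiftK2 F.law, ← hK, ev_add (hX0.add hX1) (hX0.mul (hX1.mul hKi)) hz,
      ev_add hX0 hX1 hz, ev_mul hX0 (hX1.mul hKi) hz, ev_mul hX1 hKi hz, ev_X, ev_X]
    rfl
  rw [h, add_sub_cancel_left, norm_mul, norm_mul]
  have h1 : ‖ev K ![a, b]‖ ≤ 1 := norm_ev_le hz zero_le_one hKi
  have h2 := mul_le_mul_of_nonneg_left h1 (norm_nonneg b)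
  rw [mul_one] at h2
  exact mul_le_mul_of_nonneg_left h2 (norm_nonneg a)

/-- The open unit ball with the group law `F`. -/
@[ext] structure Pt (F : IFG C) where
  /-- the underlying element of `C` -/
  val : C
  /-- it lies in the open unit ball -/
  lt : ‖val‖ < 1

namespace Pt

variable {F : IFG C}

instance : Zero (Pt F) := ⟨⟨0, by simp⟩⟩
instance : Add (Pt F) := ⟨fun a b => ⟨cadd F a.val b.val,
  (norm_cadd_le F a.lt b.lt).trans_lt (max_lt a.lt b.lt)⟩⟩
instance : Neg (Pt F) := ⟨fun a => ⟨cneg F a.val, (norm_cneg_le F a.lt).trans_lt a.lt⟩⟩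

@[simp] theorem val_zero : (0 : Pt F).val = 0 := rfl
theorem val_add (a b : Pt F) : (a + b).val = cadd F a.val b.val := rfl
theorem val_neg (a : Pt F) : (-a).val = cneg F a.val := rfl

theorem add_comm_aux (a b : Pt F) : a + b = b + a := Pt.ext (cadd_comm F a.lt b.lt)

theorem add_zero_aux (a : Pt F) : a + 0 = a := Pt.ext (cadd_zero F a.lt)

instance : AddCommGroup (Pt F) where
  add_assoc a b c := Pt.ext (cadd_assoc F a.lt b.lt c.lt)
  zero_add a := by rw [add_comm_aux, add_zero_aux]
  add_zero a := add_zero_aux a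
  add_comm a b := add_comm_aux a b
  nsmul := nsmulRec
  zsmul := zsmulRec
  neg_add_cancel a := by
    rw [add_comm_aux]
    exact Pt.ext (cadd_cneg F a.lt)

end Pt

end Crest.Agent.LU
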