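import Mathlib
import Crest.Agent.LU_D3

/-!
S0351 (blueprint LU), task D4: homomorphisms and `[m]` on points, differences, Frobenius.
-/

set_option autoImplicit false

noncomputable section

namespace Crest.Agent.LU

open Crest.LubinTate

variable {C : Type} [NontriviallyNormedField C] [IsUltrametricDist C] [CompleteSpace C]

theorem ev_pair_eq (F : IFG C) (z : Fin 2 → C) : ev F.law.toPowerSeries z = cadd F (z 0) (z 1) := by
  unfold cadd
  congr 1
  funext s
  fin_cases s <;> rfl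

/-- Homomorphisms on values. -/
theorem hom_cadd {F G : IFG C} {φ : PowerSeries C} (hi : Int1 φ) (hφ : IsFGHom F.law G.law φ)
    {a b : C} (ha : ‖a‖ < 1) (hb : ‖b‖ < 1) :
    ev1 φ (cadd F a b) = cadd G (ev1 φ a) (ev1 φ b) := by
  have hz : ∀ s : Fin 2, ‖(![a, b] : Fin 2 → C) s‖ < 1 := by
    intro s; fin_cases s
    · exact ha
    · exact hb
  have hX0 : ∀ s : Fin 2, MvPowerSeries.constantCoeff (MvPowerSeries.X s : MvPowerSeries (Fin 2) C) = 0 :=
    fun s => MvPowerSeries.constantCoeff_X s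
  have h1 : ev (cmp φ F.law.toPowerSeries) ![a, b] = ev1 φ (ev F.law.toPowerSeries ![a, b]) :=
    ev_cmp hi F.int F.law.zero_constantCoeff hz
  have h2 : ∀ s : Fin 2, ev (cmp φ (MvPowerSeries.X s : MvPowerSeries (Fin 2) C)) ![a, b] =
      ev1 φ ((![a, b] : Fin 2 → C) s) := by
    intro s
    rw [ev_cmp hi (Int1.var s) (hX0 s) hz, ev_X]
  have hint : ∀ s : Fin 2, Int1 ((![cmp φ (MvPowerSeries.X 0 : MvPowerSeries (Fin 2) C),
      cmp φ (MvPowerSeries.X 1 : MvPowerSeries (Fin 2) C)] : Fin 2 → MvPowerSeries (Fin 2) C) s) := by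
    intro s; fin_cases s
    · exact Int1.cmp hi (Int1.var 0) (hX0 0)
    · exact Int1.cmp hi (Int1.var 1) (hX0 1)
  have hcc : ∀ s : Fin 2, MvPowerSeries.constantCoeff
      ((![cmp φ (MvPowerSeries.X 0 : MvPowerSeries (Fin 2) C),
      cmp φ (MvPowerSeries.X 1 : MvPowerSeries (Fin 2) C)] : Fin 2 → MvPowerSeries (Fin 2) C) s) = 0 := by
    intro s; fin_cases s
    · exact constantCoeff_cmp hφ.1 (hX0 0)
    · exact constantCoeff_cmp hφ.1 (hX0 1)
  have h3 := ev_subst G.int hint hcc hz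
  have h4 : cmp φ F.law.toPowerSeries = G.law.toPowerSeries.subst
      ![cmp φ (MvPowerSeries.X 0 : MvPowerSeries (Fin 2) C),
      cmp φ (MvPowerSeries.X 1 : MvPowerSeries (Fin 2) C)] := hφ.2
  rw [← h4, h1, ev_pair_eq, ev_pair_eq] at h3
  rw [show cadd F a b = cadd F ((![a, b] : Fin 2 → C) 0) ((![a, b] : Fin 2 → C) 1) from rfl, h3]
  show cadd G (ev (cmp φ (MvPowerSeries.X 0 : MvPowerSeries (Fin 2) C)) ![a, b])
    (ev (cmp φ (MvPowerSeries.X 1 : MvPowerSeries (Fin 2) C)) ![a, b]) = _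
  rw [h2, h2]
  rfl

/-- A homomorphism of integral laws with integral coefficients acts on points. -/
def Pt.hom {F G : IFG C} (φ : PowerSeries C) (hi : Int1 φ) (hφ : IsFGHom F.law G.law φ) :
    Pt F →+ Pt G :=
  AddMonoidHom.mk' (fun a => ⟨ev1 φ a.val, by
      have := norm_ev_le_mul (σ := Unit) (f := φ) (z := fun _ => a.val) (r := ‖a.val‖) (ε := 1)
        hφ.1 a.lt (norm_nonneg _) (fun _ => le_rfl) zero_le_one hi
      rw [one_mul] at this
      exact this.trans_lt a.lt⟩) (by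
    intro a b
    exact Pt.ext (hom_cadd hi hφ a.lt b.lt))

theorem Pt.hom_val {F G : IFG C} {φ : PowerSeries C} (hi : Int1 φ)
    (hφ : IsFGHom F.law G.law φ) (a : Pt F) : (Pt.hom φ hi hφ a).val = ev1 φ a.val := rfl

/-- TASK D4. `(m • a).val = [m](a)`. -/
theorem Pt.nsmul_val {F : IFG C} (m : ℕ) (a : Pt F) :
    (m • a).val = ev1 (mulSeries F.law m) a.val := by
  induction m with
  | zero =>
    rw [zero_smul]
    exact (ev_zero (σ := Unit) (fun _ => a.val)).symm
  | succ m ih =>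
    rw [succ_nsmul, Pt.val_add, ih]
    have hz : ∀ _ : Unit, ‖a.val‖ < 1 := fun _ => a.lt
    have hint : ∀ s : Fin 2, Int1 ((![mulSeries F.law m, PowerSeries.X] :
        Fin 2 → MvPowerSeries Unit C) s) := by
      intro s; fin_cases s
      · exact Int1.mulSeries F m
      · exact Int1.var ()
    have hcc : ∀ s : Fin 2, MvPowerSeries.constantCoeff ((![mulSeries F.law m, PowerSeries.X] :
        Fin 2 → MvPowerSeries Unit C) s) = 0 := by
      intro s; fin_cases s
      · exact constantCoeff_mulSeries F.law m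
      · exact MvPowerSeries.constantCoeff_X ()
    have h := ev_subst F.int hint hcc hz
    rw [ev_pair_eq] at h
    have hX : ev (PowerSeries.X : PowerSeries C) (fun _ : Unit => a.val) = a.val := ev1_X a.val
    show cadd F (ev1 (mulSeries F.law m) a.val) a.val =
      ev (F.law.toPowerSeries.subst ![mulSeries F.law m, PowerSeries.X]) (fun _ : Unit => a.val)
    rw [h]
    show _ = cadd F (ev (mulSeries F.law m) (fun _ : Unit => a.val))
      (ev (PowerSeries.X : PowerSeries C) (fun _ : Unit => a.val))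
    rw [hX]
    rfl

theorem Pt.norm_add_le {F : IFG C} (a b : Pt F) : ‖(a + b).val‖ ≤ max ‖a.val‖ ‖b.val‖ :=
  norm_cadd_le F a.lt b.lt

theorem Pt.norm_neg {F : IFG C} (a : Pt F) : ‖(-a).val‖ = ‖a.val‖ := by
  apply le_antisymm
  · exact norm_cneg_le F a.lt
  · have h := norm_cneg_le F (-a).lt
    have h2 : cneg F (-a).val = a.val := by
      have h3 : (- -a).val = cneg F (-a).val := Pt.val_neg (-a)
      rw [← h3, neg_neg]
    rwa [h2] at h

/-- `‖a - b‖` in the group equals the distance in `C`:  with `c = a - b` (group),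
`a = b + c` in the group, so `‖a.val - (b.val + c.val)‖ ≤ ‖b.val‖ ‖c.val‖ < ‖c.val‖`. -/
theorem Pt.norm_sub {F : IFG C} (a b : Pt F) : ‖(a - b).val‖ = ‖a.val - b.val‖ := by
  have h1 : b + (a - b) = a := by abel
  have h2 := norm_cadd_sub_le F b.lt (a - b).lt
  have h3 : cadd F b.val (a - b).val = a.val := by
    rw [← Pt.val_add, h1]
  rw [h3] at h2
  by_cases hc : (a - b).val = 0
  · have h4 : a - b = 0 := Pt.ext hc
    rw [sub_eq_zero.mp h4]
    simp
  · have hpos : 0 < ‖(a - b).val‖ := norm_pos_iff.mpr hc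
    have h4 : ‖(a.val - b.val) - (a - b).val‖ < ‖(a - b).val‖ := by
      have h5 : (a.val - b.val) - (a - b).val = a.val - (b.val + (a - b).val) := by ring
      rw [h5]
      refine lt_of_le_of_lt h2 ?_
      calc ‖b.val‖ * ‖(a - b).val‖ < 1 * ‖(a - b).val‖ := mul_lt_mul_of_pos_right b.lt hpos
        _ = ‖(a - b).val‖ := one_mul _
    have h6 : a.val - b.val = ((a.val - b.val) - (a - b).val) + (a - b).val := by ring
    rw [h6]
    exact (IsUltrametricDist.norm_add_eq_max_of_norm_ne_norm (ne_of_lt h4)).trans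
      (max_eq_right h4.le) |>.symm

theorem Pt.norm_add_sub_le {F : IFG C} (a b : Pt F) :
    ‖(a + b).val - (a.val + b.val)‖ ≤ ‖a.val‖ * ‖b.val‖ :=
  norm_cadd_sub_le F a.lt b.lt

theorem Pt.norm_sum_le {F : IFG C} {ι : Type} (s : Finset ι) (a : ι → Pt F) {r : ℝ} (hr : 0 ≤ r)
    (h : ∀ i ∈ s, ‖(a i).val‖ ≤ r) : ‖(∑ i ∈ s, a i).val‖ ≤ r := by
  classical
  induction s using Finset.induction_on with
  | empty => simpa using hr
  | insert i s hi ih =>
    rw [Finset.sum_insert hi]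
    refine (Pt.norm_add_le _ _).trans (max_le (h i (Finset.mem_insert_self i s)) ?_)
    exact ih fun j hj => h j (Finset.mem_insert_of_mem hj)

theorem Pt.norm_nsmul_le {F : IFG C} (m : ℕ) (a : Pt F) : ‖(m • a).val‖ ≤ ‖a.val‖ := by
  induction m with
  | zero => rw [zero_smul]; simp
  | succ m ih =>
    rw [succ_nsmul]
    exact (Pt.norm_add_le _ _).trans (max_le ih le_rfl)

/-- An integral series with zero constant and unit (norm one) linear coefficient preserves norms. -/
theorem norm_ev1_eq {φ : PowerSeries C} (hi : Int1 φ) (h0 : PowerSeries.constantCoeff φ = 0)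
    (h1 : ‖PowerSeries.coeff 1 φ‖ = 1) {z : C} (hz : ‖z‖ < 1) : ‖ev1 φ z‖ = ‖z‖ := by
  set χ : PowerSeries C := PowerSeries.mk fun n => PowerSeries.coeff (n + 1) φ with hχ
  have hz' : ∀ _ : Unit, ‖z‖ < 1 := fun _ => hz
  have hφ : φ = χ * PowerSeries.X := by
    have := PowerSeries.eq_shift_mul_X_add_const φ
    rw [h0, map_zero, add_zero] at this
    exact this
  have hc : ∀ n : ℕ, ‖PowerSeries.coeff n φ‖ ≤ 1 := fun n => hi _
  have hχi : Int1 χ := by
    intro d
    have hd : d = Finsupp.single () (d ()) := by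
      ext; simp
    have : MvPowerSeries.coeff d χ = PowerSeries.coeff (d ()) χ := by
      rw [PowerSeries.coeff, ← hd]
    rw [this, hχ, PowerSeries.coeff_mk]
    exact hc _
  have hXi : Int1 (PowerSeries.X : PowerSeries C) := Int1.var ()
  have hX : ev (PowerSeries.X : PowerSeries C) (fun _ : Unit => z) = z := ev1_X z
  have e1 : ev1 φ z = ev1 χ z * z := by
    rw [hφ]
    show ev (χ * PowerSeries.X) (fun _ : Unit => z) = _
    rw [ev_mul hχi hXi hz', hX]
    rfl
  have hχ0 : PowerSeries.constantCoeff χ = PowerSeries.coeff 1 φ := by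
    rw [← PowerSeries.coeff_zero_eq_constantCoeff_apply, hχ, PowerSeries.coeff_mk]
  set c : C := PowerSeries.coeff 1 φ with hcdef
  have hCi : Int1 (MvPowerSeries.C c : MvPowerSeries Unit C) := Int1.const h1.le
  have e2 : ev1 χ z = ev (χ - MvPowerSeries.C c) (fun _ : Unit => z) + c := by
    rw [ev_sub hχi hCi hz', ev_C]
    show ev1 χ z = ev1 χ z - c + c
    ring
  have h2 : ‖ev (χ - MvPowerSeries.C c : MvPowerSeries Unit C) (fun _ : Unit => z)‖ ≤ 1 * ‖z‖ := by
    refine norm_ev_le_mul (σ := Unit) ?_ hz (norm_nonneg _) (fun _ => le_rfl) zero_le_one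
      (Int1.sub hχi hCi)
    rw [map_sub, MvPowerSeries.constantCoeff_C]
    exact sub_eq_zero.mpr hχ0
  rw [one_mul] at h2
  have h3 : ‖ev1 χ z‖ = 1 := by
    have h4 : ‖ev (χ - MvPowerSeries.C c : MvPowerSeries Unit C) (fun _ : Unit => z)‖ < ‖c‖ := by
      rw [h1]; exact lt_of_le_of_lt h2 hz
    rw [e2, IsUltrametricDist.norm_add_eq_max_of_norm_ne_norm (ne_of_lt h4), max_eq_right h4.le, h1]
  rw [e1, norm_mul, h3, one_mul]

/-- In characteristic `p`, the difference of two values: `‖φ(z^{p^k}) - φ(w^{p^k})‖ ≤ ‖z-w‖^{p^k}`. -/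
theorem norm_ev1_pow_sub_le (p : ℕ) [Fact p.Prime] [CharP C p] {φ : PowerSeries C} (hi : Int1 φ)
    (k : ℕ) {z w : C} (hz : ‖z‖ < 1) (hw : ‖w‖ < 1) :
    ‖ev1 φ (z ^ (p ^ k)) - ev1 φ (w ^ (p ^ k))‖ ≤ ‖z - w‖ ^ (p ^ k) := by
  have hp : p ^ k ≠ 0 := pow_ne_zero _ (Fact.out : p.Prime).ne_zero
  have hz' : ∀ _ : Unit, ‖z ^ (p ^ k)‖ < 1 := fun _ => by
    rw [norm_pow]; exact pow_lt_one₀ (norm_nonneg _) hz hp
  have hw' : ∀ _ : Unit, ‖w ^ (p ^ k)‖ < 1 := fun _ => by
    rw [norm_pow]; exact pow_lt_one₀ (norm_nonneg _) hw hp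
  refine norm_ev_sub_le (σ := Unit) hi hz' hw' (by positivity) ?_
  intro _
  rw [← sub_pow_char_pow, norm_pow]

end Crest.Agent.LU
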