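import Mathlib
import Crest.Agent.LUA_R4
import Crest.Agent.LU_D4
import Crest.Agent.LU_B5

/-!
S0351 (blueprint LU), TASK LUA-R5: the last slope group of the roots of `V_x` (black box BB5).
-/

set_option autoImplicit false

noncomputable section

namespace Crest.Agent.LUA

open Crest.LubinTate Crest.Agent.LU IsLocalRing

private theorem R5_dom {C : Type} [NormedField C] [IsUltrametricDist C] {a b : C}
    (h : ‖b‖ < ‖a‖) : ‖a + b‖ = ‖a‖ := by
  rw [IsUltrametricDist.norm_add_eq_max_of_norm_ne_norm (ne_of_gt h), max_eq_left h.le]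

private theorem R5_aux {C : Type} [NormedField C] [IsUltrametricDist C] {I : Type}
    [DecidableEq I] (τ : I → C) {μ : ℝ} (hμ : 0 < μ) (s : Finset I) :
    (∀ i ∈ s, ‖τ i‖ ≤ μ) →
    (∀ j ≤ s.card, ‖(∏ i ∈ s, (Polynomial.X - Polynomial.C (τ i))).coeff j‖ ≤
        μ ^ (s.card - j)) ∧
    ‖(∏ i ∈ s, (Polynomial.X - Polynomial.C (τ i))).coeff
        (s.filter fun i => ‖τ i‖ < μ).card‖ =
        μ ^ (s.card - (s.filter fun i => ‖τ i‖ < μ).card) ∧
    (∀ j < (s.filter fun i => ‖τ i‖ < μ).card,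
      ‖(∏ i ∈ s, (Polynomial.X - Polynomial.C (τ i))).coeff j‖ < μ ^ (s.card - j)) := by
  induction s using Finset.induction_on with
  | empty =>
    intro _
    refine ⟨?_, ?_, ?_⟩
    · intro j hj
      have : j = 0 := by simpa using hj
      subst this
      simp
    · simp
    · intro j hj
      simp at hj
  | insert a s ha ih =>
    intro hτ
    obtain ⟨h1, h2, h3⟩ := ih fun i hi => hτ i (Finset.mem_insert_of_mem hi)
    set P : Polynomial C := ∏ i ∈ s, (Polynomial.X - Polynomial.C (τ i)) with hP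
    set D : ℕ := s.card with hD
    set w : ℕ := (s.filter fun i => ‖τ i‖ < μ).card with hw
    have hwD : w ≤ D := Finset.card_filter_le _ _
    have hPdeg : P.natDegree = D := by
      rw [hP, Polynomial.natDegree_finsetProd_X_sub_C_eq_card]
    have hPbig : ∀ j, D < j → P.coeff j = 0 := fun j hj =>
      Polynomial.coeff_eq_zero_of_natDegree_lt (by rw [hPdeg]; exact hj)
    rw [Finset.prod_insert ha, ← hP, Finset.card_insert_of_notMem ha, ← hD]
    have hc0 : ((Polynomial.X - Polynomial.C (τ a)) * P).coeff 0 = -(τ a * P.coeff 0) := by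
      rw [sub_mul, Polynomial.coeff_sub, Polynomial.coeff_X_mul_zero, Polynomial.coeff_C_mul,
        zero_sub]
    have hcs : ∀ j, ((Polynomial.X - Polynomial.C (τ a)) * P).coeff (j + 1) =
        P.coeff j - τ a * P.coeff (j + 1) := by
      intro j
      rw [sub_mul, Polynomial.coeff_sub, Polynomial.coeff_X_mul, Polynomial.coeff_C_mul]
    have haμ : ‖τ a‖ ≤ μ := hτ a (Finset.mem_insert_self a s)
    -- bound of `τ a * coeff j P`
    have hm : ∀ j ≤ D, ‖τ a * P.coeff j‖ ≤ μ ^ (D + 1 - j) := by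
      intro j hj
      rw [norm_mul, show D + 1 - j = (D - j) + 1 by omega, pow_succ']
      exact mul_le_mul haμ (h1 j hj) (norm_nonneg _) hμ.le
    have hm' : ‖τ a‖ < μ → ∀ j ≤ D, ‖τ a * P.coeff j‖ < μ ^ (D + 1 - j) := by
      intro ha' j hj
      rw [norm_mul, show D + 1 - j = (D - j) + 1 by omega, pow_succ']
      calc ‖τ a‖ * ‖P.coeff j‖ ≤ ‖τ a‖ * μ ^ (D - j) :=
            mul_le_mul_of_nonneg_left (h1 j hj) (norm_nonneg _)
        _ < μ * μ ^ (D - j) := mul_lt_mul_of_pos_right ha' (pow_pos hμ _)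
    have hmbig : ∀ j, D < j → τ a * P.coeff j = 0 := fun j hj => by
      rw [hPbig j hj, mul_zero]
    refine ⟨?_, ?_, ?_⟩
    · intro j hj
      rcases j with _ | j
      · rw [hc0, norm_neg]
        exact hm 0 (Nat.zero_le _)
      · rw [hcs, sub_eq_add_neg]
        refine (IsUltrametricDist.norm_add_le_max _ _).trans (max_le ?_ ?_)
        · have := h1 j (by omega)
          rwa [show D + 1 - (j + 1) = D - j by omega]
        · rw [norm_neg]
          rcases Nat.lt_or_ge D (j + 1) with hlt | hge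
          · rw [hmbig _ hlt, norm_zero]
            exact pow_nonneg hμ.le _
          · exact hm _ hge
    · by_cases ha' : ‖τ a‖ < μ
      · have hw' : ((insert a s).filter fun i => ‖τ i‖ < μ).card = w + 1 := by
          rw [Finset.filter_insert, if_pos ha', Finset.card_insert_of_notMem]
          intro hmem
          exact ha (Finset.mem_filter.1 hmem).1
        rw [hw', hcs, sub_eq_add_neg, R5_dom, h2, show D + 1 - (w + 1) = D - w by omega]
        rw [norm_neg, h2]
        rcases Nat.lt_or_ge D (w + 1) with hlt | hge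
        · rw [hmbig _ hlt, norm_zero]
          exact pow_pos hμ _
        · have := hm' ha' _ hge
          rwa [show D + 1 - (w + 1) = D - w by omega] at this
      · have hw' : ((insert a s).filter fun i => ‖τ i‖ < μ).card = w := by
          rw [Finset.filter_insert, if_neg ha']
        have haeq : ‖τ a‖ = μ := le_antisymm haμ (not_lt.1 ha')
        have hmain : ‖-(τ a * P.coeff w)‖ = μ ^ (D + 1 - w) := by
          rw [norm_neg, norm_mul, haeq, h2, show D + 1 - w = (D - w) + 1 by omega, pow_succ']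
        rw [hw']
        rcases hwz : w with _ | v
        · rw [hc0]
          rw [hwz] at hmain
          exact hmain
        · rw [hwz] at hmain h3
          rw [hcs, sub_eq_add_neg, add_comm, R5_dom, hmain]
          rw [hmain]
          have := h3 v (Nat.lt_succ_self v)
          rwa [show D + 1 - (v + 1) = D - v by omega]
    · intro j hj
      have key : ∀ j < w, ‖τ a * P.coeff j‖ < μ ^ (D + 1 - j) := by
        intro j hj
        rw [norm_mul, show D + 1 - j = (D - j) + 1 by omega, pow_succ']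
        calc ‖τ a‖ * ‖P.coeff j‖ ≤ μ * ‖P.coeff j‖ :=
              mul_le_mul_of_nonneg_right haμ (norm_nonneg _)
          _ < μ * μ ^ (D - j) := mul_lt_mul_of_pos_left (h3 j hj) hμ
      have key2 : ∀ j, (j < w ∨ (‖τ a‖ < μ ∧ j ≤ w)) →
          ‖τ a * P.coeff j‖ < μ ^ (D + 1 - j) := by
        rintro j (hj | ⟨ha', hj⟩)
        · exact key j hj
        · exact hm' ha' j (hj.trans hwD)
      have hjw : j < w ∨ (‖τ a‖ < μ ∧ j ≤ w) := by
        by_cases ha' : ‖τ a‖ < μ
        · rw [Finset.filter_insert, if_pos ha', Finset.card_insert_of_notMem (by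
            intro hmem
            exact ha (Finset.mem_filter.1 hmem).1)] at hj
          exact Or.inr ⟨ha', by omega⟩
        · rw [Finset.filter_insert, if_neg ha'] at hj
          exact Or.inl hj
      have k2 := key2 j hjw
      rcases j with _ | j
      · rw [hc0, norm_neg]
        exact k2
      · rw [hcs, sub_eq_add_neg]
        refine (IsUltrametricDist.norm_add_le_max _ _).trans_lt (max_lt ?_ ?_)
        · have h4 : j < w := by
            rcases hjw with h | ⟨_, h⟩ <;> omega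
          have := h3 j h4
          rwa [show D + 1 - (j + 1) = D - j by omega]
        · rw [norm_neg]
          exact k2

/-- TASK LUA-R5a (Vieta, ultrametric).  Let `W = ∏_{i∈s} (X - τ_i)`, `‖τ_i‖ ≤ μ`, `w` the number of
`i` with `‖τ_i‖ < μ` and `μ > 0`.  Then `‖coeff w W‖ = μ^{D - w}` (`D = #s`), and
`‖coeff j W‖ ≤ μ^{D-j}` for all `j ≤ D`.
(`W = W₁ W₂`, `W₁ = ∏_{‖τ‖<μ}` of degree `w`, `W₂ = ∏_{‖τ‖=μ}` of degree `D-w`;
`coeff w W = coeff w W₁ · coeff 0 W₂ + Σ_{j<w} coeff j W₁ · coeff (w-j) W₂`, with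
`‖coeff 0 W₂‖ = μ^{D-w}`, `‖coeff j W₁‖ < μ^{w-j}`, `‖coeff i W₂‖ ≤ μ^{D-w-i}`.) -/
theorem norm_coeff_prod {C : Type} [NormedField C] [IsUltrametricDist C] {I : Type}
    [DecidableEq I] (s : Finset I) (τ : I → C) {μ : ℝ} (hμ : 0 < μ) (hτ : ∀ i ∈ s, ‖τ i‖ ≤ μ)
    (w : ℕ) (hw : (s.filter fun i => ‖τ i‖ < μ).card = w) :
    ‖(∏ i ∈ s, (Polynomial.X - Polynomial.C (τ i))).coeff w‖ = μ ^ (s.card - w) ∧
      ∀ j ≤ s.card, ‖(∏ i ∈ s, (Polynomial.X - Polynomial.C (τ i))).coeff j‖ ≤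
        μ ^ (s.card - j) := by
  obtain ⟨h1, h2, -⟩ := R5_aux τ hμ s hτ
  subst hw
  exact ⟨h2, h1⟩

variable {C : Type} [NontriviallyNormedField C] [IsUltrametricDist C] [CompleteSpace C]
  [IsAlgClosed C]

variable {p : ℕ} [Fact p.Prime] {n : ℕ} {Γ : FormalGroup (GaloisField p n)} [Γ.IsComm]
  {H : FormalGroup (LTRing p n)} [H.IsComm]

private theorem R5_VN_one [CharP C p] (h : ℕ) (V : PowerSeries C) : VN p h V 1 = V := by
  show cmp V (PowerSeries.map (iterateFrobenius C p h) (PowerSeries.X : PowerSeries C)) = V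
  rw [PowerSeries.map_X]
  exact cmp_X V

private theorem R5_VNA_one (h : ℕ) {A : Type} [CommRing A] [CharP A p] (V : PowerSeries A) :
    VNA p h V 1 = V := by
  show cmp V (PowerSeries.map (iterateFrobenius A p h) (PowerSeries.X : PowerSeries A)) = V
  rw [PowerSeries.map_X]
  exact cmp_X V

/-- product of a polynomial with dominating coefficient and a unit series -/
private theorem R5_mul {W : Polynomial C} {U : PowerSeries C} {μ : ℝ} (hμ0 : 0 < μ) (hμ1 : μ < 1)
    {D w : ℕ} (hwD : w ≤ D) (hU : ∀ i, ‖PowerSeries.coeff i U‖ ≤ 1)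
    (hU0 : ‖PowerSeries.coeff 0 U‖ = 1) (hw : ‖W.coeff w‖ = μ ^ (D - w))
    (hj : ∀ j ≤ D, ‖W.coeff j‖ ≤ μ ^ (D - j)) :
    ‖PowerSeries.coeff w ((W : PowerSeries C) * U)‖ = μ ^ (D - w) ∧
      ∀ j ≤ D, ‖PowerSeries.coeff j ((W : PowerSeries C) * U)‖ ≤ μ ^ (D - j) := by
  constructor
  · rw [PowerSeries.coeff_mul, ← Finset.add_sum_erase _ _
      (Finset.HasAntidiagonal.mem_antidiagonal.2 (add_zero w) : (w, 0) ∈ Finset.HasAntidiagonal.antidiagonal w)]
    have hmain : ‖PowerSeries.coeff w (W : PowerSeries C) * PowerSeries.coeff 0 U‖ =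
        μ ^ (D - w) := by
      rw [norm_mul, hU0, mul_one, Polynomial.coeff_coe, hw]
    have hlt : ‖∑ x ∈ (Finset.HasAntidiagonal.antidiagonal w).erase (w, 0),
        PowerSeries.coeff x.1 (W : PowerSeries C) * PowerSeries.coeff x.2 U‖ < μ ^ (D - w) := by
      rcases ((Finset.HasAntidiagonal.antidiagonal w).erase (w, 0)).eq_empty_or_nonempty with he | hne
      · rw [he, Finset.sum_empty, norm_zero]
        exact pow_pos hμ0 _
      · obtain ⟨x, hx, hle⟩ := IsUltrametricDist.exists_norm_finsetSum_le_of_nonempty hne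
          (fun x => PowerSeries.coeff x.1 (W : PowerSeries C) * PowerSeries.coeff x.2 U)
        refine hle.trans_lt ?_
        obtain ⟨hx1, hx2⟩ := Finset.mem_erase.1 hx
        have hx3 : x.1 + x.2 = w := Finset.HasAntidiagonal.mem_antidiagonal.1 hx2
        have hx4 : x.1 < w := by
          rcases Nat.lt_or_ge x.1 w with h | h
          · exact h
          · exfalso
            apply hx1
            ext
            · show x.1 = w
              omega
            · show x.2 = 0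
              omega
        show ‖PowerSeries.coeff x.1 (W : PowerSeries C) * PowerSeries.coeff x.2 U‖ < _
        rw [norm_mul, Polynomial.coeff_coe]
        calc ‖W.coeff x.1‖ * ‖PowerSeries.coeff x.2 U‖ ≤ μ ^ (D - x.1) * 1 :=
              mul_le_mul (hj x.1 (by omega)) (hU _) (norm_nonneg _) (pow_nonneg hμ0.le _)
          _ = μ ^ (D - x.1) := mul_one _
          _ < μ ^ (D - w) := pow_lt_pow_right_of_lt_one₀ hμ0 hμ1 (by omega)
    rw [R5_dom, hmain]
    rw [hmain]
    exact hlt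
  · intro j hjD
    rw [PowerSeries.coeff_mul]
    refine IsUltrametricDist.norm_sum_le_of_forall_le_of_nonneg (pow_nonneg hμ0.le _) ?_
    intro x hx
    have hx3 : x.1 + x.2 = j := Finset.HasAntidiagonal.mem_antidiagonal.1 hx
    rw [norm_mul, Polynomial.coeff_coe]
    calc ‖W.coeff x.1‖ * ‖PowerSeries.coeff x.2 U‖ ≤ μ ^ (D - x.1) * 1 :=
          mul_le_mul (hj x.1 (by omega)) (hU _) (norm_nonneg _) (pow_nonneg hμ0.le _)
      _ = μ ^ (D - x.1) := mul_one _
      _ ≤ μ ^ (D - j) := pow_le_pow_of_le_one hμ0.le hμ1.le (by omega)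

/-- TASK LUA-R5b.  Let `V_x = W·U` as in `rts_VN_eq` (`N = 1`), all roots of norm `≤ μ` (with
equality for one root) and `w` the number of roots of norm `< μ`.  Then `‖coeff w V_x‖ = μ^{D-w}`,
`‖coeff j V_x‖ ≤ μ^{D-j}` for `j ≤ D = p^{n-h}`.
(`coeff w (W U) = Σ_j coeff j W · coeff (w-j) U`, `‖coeff 0 U‖ = 1`, `U` integral and
`μ^{D-j} < μ^{D-w}` for `j < w`.) -/
theorem norm_coeff_VS [CharP C p] (hΓ : mulSeries Γ p = PowerSeries.X ^ (p ^ n))
    (hH : IsUniversalDeformation p n Γ H) {h : ℕ} (h2 : h < n) {P : Ideal (LTRing p n)}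
    (hP : P.IsPrime) (h1 : 1 ≤ h) (hle : heightIdeal p n H h ≤ P) (hv : vv H h ∉ P)
    {x : LTRing p n →+* C} (hx : IsPoint P x) {μ : ℝ} (hμ0 : 0 < μ) (hμ1 : μ < 1)
    (hτ : ∀ τ ∈ rts (VS H h x), ‖τ‖ ≤ μ) :
    ‖PowerSeries.coeff ({τ ∈ rts (VS H h x) | ‖τ‖ < μ}.ncard) (VS H h x)‖ =
        μ ^ (p ^ (n - h) - {τ ∈ rts (VS H h x) | ‖τ‖ < μ}.ncard) ∧
      ∀ j ≤ p ^ (n - h), ‖PowerSeries.coeff j (VS H h x)‖ ≤ μ ^ (p ^ (n - h) - j) := by
  classical
  have hPt : P ≠ ⊤ := hP.ne_top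
  have hpP : (p : LTRing p n) ∈ P := by
    apply hle
    have := vv_mem (H := H) (show 0 < h by omega)
    rwa [vv_zero] at this
  haveI : CharP (LTRing p n ⧸ P) p := charP_quot hPt hpP
  obtain ⟨W, U, hU, hWU, hW, hWdeg, hWl⟩ := exists_weierstrass hΓ hH h2.le hPt (p := p) 1
  rw [mul_one] at hWdeg
  set W' : Polynomial C := W.map (bar hx) with hW'
  set U' : PowerSeries C := PowerSeries.map (bar hx) U with hU'
  have hW'm : W'.Monic := hW.map _
  have hW'deg : W'.natDegree = p ^ (n - h) := by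
    rw [hW', hW.natDegree_map, hWdeg]
  have hVS : VS H h x = (W' : PowerSeries C) * U' := by
    rw [VS_eq h hx, ← R5_VNA_one (p := p) h (vA H h P), hWU, map_mul, hW', hU',
      Polynomial.polynomial_map_coe]
  have hrts : rts (VS H h x) = {z | W'.eval z = 0} := by
    have := rts_VN_eq hPt hle 1 hU hWU hW hWl hx
    rwa [R5_VN_one] at this
  have hsimple : ∀ z, W'.eval z = 0 → W'.derivative.eval z ≠ 0 := fun z hz =>
    weierstrass_simple hPt hle hv 1 hU hWU hW hWl hx hz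
  have hnodup : W'.roots.Nodup := by
    rw [Multiset.nodup_iff_count_le_one]
    intro z
    rw [Polynomial.count_roots]
    by_contra hcon
    rw [not_le, Polynomial.one_lt_rootMultiplicity_iff_isRoot hW'm.ne_zero] at hcon
    exact hsimple z hcon.1 hcon.2
  set s : Finset C := W'.roots.toFinset with hs
  have hprod : W' = ∏ i ∈ s, (Polynomial.X - Polynomial.C (id i)) := by
    conv_lhs => rw [(IsAlgClosed.splits W').eq_prod_roots_of_monic hW'm]
    rw [hs, Finset.prod, Multiset.toFinset_val, hnodup.dedup]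
    rfl
  have hscard : s.card = p ^ (n - h) := by
    rw [← hW'deg]
    conv_rhs => rw [hprod]
    rw [Polynomial.natDegree_finsetProd_X_sub_C_eq_card]
  have hmem : ∀ z, z ∈ s ↔ z ∈ rts (VS H h x) := by
    intro z
    rw [hs, Multiset.mem_toFinset, Polynomial.mem_roots hW'm.ne_zero, hrts]
    rfl
  have hncard : {τ ∈ rts (VS H h x) | ‖τ‖ < μ}.ncard = (s.filter fun i => ‖id i‖ < μ).card := by
    rw [← Set.ncard_coe_finset]
    congr 1
    ext z
    simp only [Set.mem_ofPred_eq, Finset.coe_filter, hmem, id]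
  have hR5a := norm_coeff_prod s id hμ0 (fun i hi => hτ i ((hmem i).1 hi)) _ rfl
  rw [← hprod, hscard, ← hncard] at hR5a
  have hwD : {τ ∈ rts (VS H h x) | ‖τ‖ < μ}.ncard ≤ p ^ (n - h) := by
    rw [hncard, ← hscard]
    exact Finset.card_filter_le _ _
  have hbar : ∀ a : LTRing p n ⧸ P, ‖bar hx a‖ ≤ 1 := by
    intro a
    obtain ⟨b, rfl⟩ := Ideal.Quotient.mk_surjective a
    rw [bar_mk]
    exact hx.le b
  have hU0 : ‖PowerSeries.coeff 0 U'‖ = 1 := by
    rw [hU', PowerSeries.coeff_map]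
    have hu : IsUnit (PowerSeries.coeff 0 U) := by
      rw [PowerSeries.coeff_zero_eq_constantCoeff_apply]
      exact hU.map _
    obtain ⟨u, hu⟩ := hu
    rw [← hu]
    have h1 : bar hx (u : LTRing p n ⧸ P) * bar hx ((u⁻¹ : (LTRing p n ⧸ P)ˣ) : LTRing p n ⧸ P)
        = 1 := by
      rw [← map_mul, Units.mul_inv, map_one]
    have h2 := congrArg norm h1
    rw [norm_mul, norm_one] at h2
    have h3 := hbar (u : LTRing p n ⧸ P)
    have h4 := hbar ((u⁻¹ : (LTRing p n ⧸ P)ˣ) : LTRing p n ⧸ P)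
    refine le_antisymm h3 ?_
    calc (1 : ℝ) = ‖bar hx (u : LTRing p n ⧸ P)‖ *
          ‖bar hx ((u⁻¹ : (LTRing p n ⧸ P)ˣ) : LTRing p n ⧸ P)‖ := h2.symm
      _ ≤ ‖bar hx (u : LTRing p n ⧸ P)‖ * 1 := mul_le_mul_of_nonneg_left h4 (norm_nonneg _)
      _ = _ := mul_one _
  have := R5_mul (W := W') (U := U') hμ0 hμ1 hwD
    (fun i => by rw [hU', PowerSeries.coeff_map]; exact hbar _) hU0 hR5a.1 hR5a.2
  rwa [← hVS] at this

omit [IsUltrametricDist C] [CompleteSpace C] [IsAlgClosed C] [H.IsComm] in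
private theorem R5_coeff_VS {h : ℕ} {x : LTRing p n →+* C} (j : ℕ) :
    PowerSeries.coeff (p ^ j) (VS H h x) = x (vv H (h + j)) := by
  rw [VS, PowerSeries.coeff_mk, mulSeries_map, PowerSeries.coeff_map, ← pow_add]
  rfl

omit [IsUltrametricDist C] [CompleteSpace C] [IsAlgClosed C] [H.IsComm] in
private theorem R5_VS_int {h : ℕ} {P : Ideal (LTRing p n)} {x : LTRing p n →+* C}
    (hx : IsPoint P x) : Int1 (VS H h x) := by
  intro d
  show ‖PowerSeries.coeff (p ^ h * d ()) (mulSeries (H.map x) p)‖ ≤ 1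
  rw [mulSeries_map, PowerSeries.coeff_map]
  exact hx.le _

omit [IsUltrametricDist C] [CompleteSpace C] [IsAlgClosed C] in
private theorem R5_VS_hom [CharP C p] {h : ℕ} {P : Ideal (LTRing p n)}
    (hle : heightIdeal p n H h ≤ P) {x : LTRing p n →+* C} (hx : IsPoint P x) :
    IsFGHom ((H.map x).map (iterateFrobenius C p h)) (H.map x) (VS H h x) := by
  have e1 : mulSeries (H.map x) p = PowerSeries.map x (mulSeries H p) := mulSeries_map H _ p
  obtain ⟨V, hV1, hV2⟩ := frobenius_factor_iter p (hom_mulSeries (H.map x) p) h (by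
    intro i hi
    rw [e1, PowerSeries.coeff_map]
    have h1 : vv H i ∈ P := hle (vv_mem hi)
    rw [← hx.ker] at h1
    exact h1)
  have hV : V = VS H h x := by
    ext i
    rw [VS, PowerSeries.coeff_mk, hV1,
      coeff_cmp_X_pow V (pow_ne_zero h (Fact.out : p.Prime).ne_zero) i]
  rw [← hV]
  exact hV2

/-- `H_x`. -/
private def R5_G (H : FormalGroup (LTRing p n)) [H.IsComm] {P : Ideal (LTRing p n)}
    {x : LTRing p n →+* C} (hx : IsPoint P x) : IFG C where
  law := H.map x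
  int := fun d => by
    show ‖MvPowerSeries.coeff d (MvPowerSeries.map x H.toPowerSeries)‖ ≤ 1
    rw [MvPowerSeries.coeff_map]
    exact hx.le _
  comm := isComm_map H x

/-- `H_x^{(Q)}`. -/
private def R5_F [CharP C p] (H : FormalGroup (LTRing p n)) [H.IsComm] {P : Ideal (LTRing p n)}
    {x : LTRing p n →+* C} (hx : IsPoint P x) (h : ℕ) : IFG C where
  law := (H.map x).map (iterateFrobenius C p h)
  int := fun d => by
    show ‖MvPowerSeries.coeff d (MvPowerSeries.map (iterateFrobenius C p h)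
      (MvPowerSeries.map x H.toPowerSeries))‖ ≤ 1
    rw [MvPowerSeries.coeff_map, MvPowerSeries.coeff_map, iterateFrobenius_def, norm_pow]
    exact pow_le_one₀ (norm_nonneg _) (hx.le _)
  comm := by
    haveI := isComm_map H x
    exact isComm_map (H.map x) (iterateFrobenius C p h)

/-- TASK LUA-R5c.  The roots of `V_x` of norm `< μ` form a subgroup of the group
`ker (V_x : H_x^{(Q)} → H_x)`, of order `p^{n-h}` (R4), so their number is a power `p^{i₀}`,
`i₀ ≤ n - h` (Lagrange).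
(The set of roots is a subgroup of `Pt F`, `F = H_x^{(Q)}` as an `IFG C`; norms: `Pt.norm_add_le`,
`Pt.norm_neg`.) -/
theorem ncard_lt_eq_pow [CharP C p] (hΓ : mulSeries Γ p = PowerSeries.X ^ (p ^ n))
    (hH : IsUniversalDeformation p n Γ H) {h : ℕ} (h2 : h < n) {P : Ideal (LTRing p n)}
    (hP : P.IsPrime) (h1 : 1 ≤ h) (hle : heightIdeal p n H h ≤ P) (hv : vv H h ∉ P)
    {x : LTRing p n →+* C} (hx : IsPoint P x) {μ : ℝ} (hμ0 : 0 < μ) (hμ1 : μ < 1) :
    ∃ i₀ ≤ n - h, {τ ∈ rts (VS H h x) | ‖τ‖ < μ}.ncard = p ^ i₀ := by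
  classical
  have _ := hμ1
  obtain ⟨hfin, hcard⟩ := ncard_rts hΓ hH h2.le hP h1 hle hv hx 1
  rw [R5_VN_one] at hfin hcard
  rw [mul_one] at hcard
  set φ : Pt (R5_F H hx h) →+ Pt (R5_G H hx) :=
    Pt.hom (VS H h x) (R5_VS_int hx) (R5_VS_hom hle hx) with hφ
  -- the kernel
  have hker : ∀ a : Pt (R5_F H hx h), a ∈ φ.ker ↔ a.val ∈ rts (VS H h x) := by
    intro a
    rw [AddMonoidHom.mem_ker]
    constructor
    · intro h0
      exact ⟨a.lt, congrArg Pt.val h0⟩
    · intro h0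
      exact Pt.ext h0.2
  let e : φ.ker ≃ rts (VS H h x) :=
    { toFun := fun a => ⟨a.1.val, (hker a.1).1 a.2⟩
      invFun := fun z => ⟨⟨z.1, z.2.1⟩, (hker _).2 z.2⟩
      left_inv := fun a => rfl
      right_inv := fun z => rfl }
  have hKcard : Nat.card φ.ker = p ^ (n - h) := by
    rw [Nat.card_congr e, ← hcard]
    rfl
  haveI : Finite φ.ker := Nat.finite_of_card_ne_zero (by
    rw [hKcard]
    exact pow_ne_zero _ (Fact.out : p.Prime).ne_zero)
  -- the subgroup of small elements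
  let S : AddSubgroup φ.ker :=
    { carrier := {a | ‖a.1.val‖ < μ}
      add_mem' := by
        intro a b ha hb
        exact (Pt.norm_add_le a.1 b.1).trans_lt (max_lt ha hb)
      zero_mem' := by
        show ‖((0 : Pt (R5_F H hx h)).val)‖ < μ
        rw [Pt.val_zero, norm_zero]
        exact hμ0
      neg_mem' := by
        intro a ha
        show ‖(-a.1).val‖ < μ
        rw [Pt.norm_neg]
        exact ha }
  have hdvd : Nat.card S ∣ p ^ (n - h) := by
    rw [← hKcard]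
    exact AddSubgroup.card_addSubgroup_dvd_card S
  obtain ⟨i₀, hi₀, hcS⟩ := (Nat.dvd_prime_pow (Fact.out : p.Prime)).1 hdvd
  refine ⟨i₀, hi₀, ?_⟩
  rw [← hcS]
  let e2 : S ≃ {τ ∈ rts (VS H h x) | ‖τ‖ < μ} :=
    { toFun := fun a => ⟨a.1.1.val, (hker a.1.1).1 a.1.2, a.2⟩
      invFun := fun z => ⟨⟨⟨z.1, z.2.1.1⟩, (hker _).2 z.2.1⟩, z.2.2⟩
      left_inv := fun a => rfl
      right_inv := fun z => rfl }
  rw [Nat.card_congr e2]
  rfl

/-- TASK LUA-R5d.  The largest norm `μ` of a root, BB5.  With `i₀` from R5c and `w = p^{i₀}`: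
`i₀ < n - h` since some root has norm `μ`; `‖x(v_{h+i₀})‖ = ‖coeff p^{i₀} V_x‖ = μ^{p^d - p^{i₀}}`
(`d = n - h`) and `‖x v_h‖ = ‖coeff 1 V_x‖ ≤ μ^{p^d - 1}`.  If `h + i₀ ≥ h'` then `i₀ ≥ 1` and
`‖x v_{h+i₀}‖ ≤ ‖x v_h‖` gives `μ^{p^d - p^{i₀}} ≤ μ^{p^d - 1}`, a contradiction; so
`i₀ ≤ h' - h - 1`.  Finally `‖x v_{h+i}‖ = ‖coeff p^i V_x‖ ≤ μ^{p^d - p^i} ≤ μ` for `i < d`.
`μ > 0`: there are `p^d > 1` roots, so a nonzero one exists. -/
theorem last_slope [CharP C p] (hΓ : mulSeries Γ p = PowerSeries.X ^ (p ^ n))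
    (hH : IsUniversalDeformation p n Γ H) {h h' : ℕ} (h2 : h + 2 ≤ h') (h3 : h' ≤ n)
    {P : Ideal (LTRing p n)}
    (hP : P.IsPrime) (h1 : 1 ≤ h) (hle : heightIdeal p n H h ≤ P) (hv : vv H h ∉ P)
    {x : LTRing p n →+* C} (hx : IsPoint P x)
    (hval : ∀ j, h' ≤ j → j < n → ‖x (vv H j)‖ ≤ ‖x (vv H h)‖) :
    ∃ μ : ℝ, 0 < μ ∧ μ < 1 ∧ (∃ τ ∈ rts (VS H h x), ‖τ‖ = μ) ∧
      (∀ τ ∈ rts (VS H h x), ‖τ‖ ≤ μ) ∧
      {τ ∈ rts (VS H h x) | ‖τ‖ < μ}.ncard ≤ p ^ (h' - h - 1) ∧
      (∀ i, i < n - h → ‖x (vv H (h + i))‖ ≤ μ) := by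
  classical
  have hhn : h < n := by omega
  have hp2 : 2 ≤ p := (Fact.out : p.Prime).two_le
  obtain ⟨hfin, hcard⟩ := ncard_rts hΓ hH hhn.le hP h1 hle hv hx 1
  rw [R5_VN_one] at hfin hcard
  rw [mul_one] at hcard
  have hd1 : 1 < p ^ (n - h) := Nat.one_lt_pow (by omega) (by omega)
  have hne : (rts (VS H h x)).Nonempty := by
    rw [Set.nonempty_iff_ne_empty]
    intro he
    rw [he, Set.ncard_empty] at hcard
    omega
  obtain ⟨τ₀, hτ₀, hmax⟩ := Set.exists_max_image (rts (VS H h x)) (fun τ => ‖τ‖) hfin hne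
  set μ : ℝ := ‖τ₀‖ with hμ
  have hμ1 : μ < 1 := hτ₀.1
  have hμ0 : 0 < μ := by
    by_contra hcon
    have h0 : ∀ τ ∈ rts (VS H h x), τ = 0 := by
      intro τ hτ
      exact norm_le_zero_iff.1 ((hmax τ hτ).trans (not_lt.1 hcon))
    have hsub : rts (VS H h x) ⊆ {0} := fun τ hτ => h0 τ hτ
    have := Set.ncard_le_ncard hsub (Set.finite_singleton 0)
    rw [Set.ncard_singleton, hcard] at this
    omega
  obtain ⟨hB1, hB2⟩ := norm_coeff_VS hΓ hH hhn hP h1 hle hv hx hμ0 hμ1 hmax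
  obtain ⟨i₀, hi₀, hw⟩ := ncard_lt_eq_pow hΓ hH hhn hP h1 hle hv hx hμ0 hμ1
  have hlt : {τ ∈ rts (VS H h x) | ‖τ‖ < μ}.ncard < p ^ (n - h) := by
    rw [← hcard]
    refine Set.ncard_lt_ncard ?_ hfin
    refine ⟨fun τ hτ => hτ.1, fun hsub => ?_⟩
    exact lt_irrefl μ (hsub hτ₀).2
  rw [hw] at hlt hB1
  have hi₀' : i₀ < n - h := (Nat.pow_lt_pow_iff_right (by omega)).1 hlt
  rw [R5_coeff_VS] at hB1
  have hB1' : ‖x (vv H h)‖ ≤ μ ^ (p ^ (n - h) - 1) := by
    have := hB2 1 hd1.le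
    have e := R5_coeff_VS (H := H) (h := h) (x := x) 0
    rw [pow_zero, add_zero] at e
    rwa [e] at this
  have hi₀2 : h + i₀ < h' := by
    by_contra hcon
    have h4 := hval (h + i₀) (by omega) (by omega)
    rw [hB1] at h4
    have h5 := h4.trans hB1'
    have h6 : p ^ (n - h) - p ^ i₀ < p ^ (n - h) - 1 := by
      have : 1 < p ^ i₀ := Nat.one_lt_pow (by omega) (by omega)
      omega
    exact absurd (pow_lt_pow_right_of_lt_one₀ hμ0 hμ1 h6) (not_lt.2 h5)
  refine ⟨μ, hμ0, hμ1, ⟨τ₀, hτ₀, rfl⟩, hmax, ?_, ?_⟩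
  · rw [hw]
    exact Nat.pow_le_pow_right (by omega) (by omega)
  · intro i hi
    have h4 : p ^ i < p ^ (n - h) := Nat.pow_lt_pow_right (by omega) hi
    have h5 := hB2 (p ^ i) h4.le
    rw [R5_coeff_VS] at h5
    refine h5.trans ?_
    calc μ ^ (p ^ (n - h) - p ^ i) ≤ μ ^ 1 := pow_le_pow_of_le_one hμ0.le hμ1.le (by omega)
      _ = μ := pow_one μ

end Crest.Agent.LUA
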