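import Mathlib
import Crest.Agent.LUA_T1

/-!
S0351 (blueprint LU), part (5), TASK LUA-T2: extension of a convergent sequence of embeddings to a
finite separable extension; identification of the values on roots.
-/

set_option autoImplicit false

noncomputable section

namespace Crest.Agent.LUA

open Filter Asymptotics Topology Polynomial

/-- TASK LUA-T2a.  Nearest root: a monic (or just split) polynomial `f` over the algebraically
closed ultrametric field `C`, `y ∈ C`, `f'(y) ≠ 0`: some root `α` satisfies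
`‖y - α‖ * ‖f'(y)‖ ≤ ‖f(y)‖`.
(`f = c ∏ (X - α_i)`, `f' = Σ_i c ∏_{j ≠ i} (X - α_j)`; for the root `α_{i₀}` closest to `y`:
`‖f'(y)‖ ≤ max_i ‖c ∏_{j≠i} (y - α_j)‖`, and `‖y - α_{i₀}‖ ‖c ∏_{j≠i}(y-α_j)‖ ≤ ‖f(y)‖`.) -/
theorem exists_root_near {C : Type*} [NormedField C] [IsUltrametricDist C] [IsAlgClosed C]
    (f : C[X]) (y : C) (hf : f.derivative.eval y ≠ 0) :
    ∃ α : C, f.eval α = 0 ∧ ‖y - α‖ * ‖f.derivative.eval y‖ ≤ ‖f.eval y‖ := by
  classical
  by_cases hy : f.eval y = 0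
  · exact ⟨y, hy, by simp⟩
  · have hsp : f.Splits := IsAlgClosed.splits f
    have hmul := hsp.eval_derivative_eq_eval_mul_sum hy
    obtain ⟨α, hα1, hα2⟩ := IsUltrametricDist.exists_norm_multiset_sum_le f.roots
      (f := fun z => 1 / (y - z))
    have hne : f.roots ≠ 0 := by
      intro h0
      rw [h0] at hmul
      apply hf
      rw [hmul]
      simp
    have hαr : α ∈ f.roots := hα1 hne
    have hα0 : f.eval α = 0 := (Polynomial.mem_roots'.1 hαr).2
    have hyα : y - α ≠ 0 := by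
      intro h
      apply hy
      rw [sub_eq_zero.1 h]
      exact hα0
    refine ⟨α, hα0, ?_⟩
    rw [hmul, norm_mul]
    have h1 : ‖y - α‖ * ‖1 / (y - α)‖ = 1 := by
      rw [← norm_mul, mul_one_div_cancel hyα, norm_one]
    calc ‖y - α‖ * (‖f.eval y‖ * ‖(f.roots.map fun z => 1 / (y - z)).sum‖)
        ≤ ‖y - α‖ * (‖f.eval y‖ * ‖1 / (y - α)‖) := by
          apply mul_le_mul_of_nonneg_left _ (norm_nonneg _)
          exact mul_le_mul_of_nonneg_left hα2 (norm_nonneg _)
      _ = ‖f.eval y‖ * (‖y - α‖ * ‖1 / (y - α)‖) := by ring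
      _ = ‖f.eval y‖ := by rw [h1, mul_one]

/-- TASK LUA-T2b.  Extension to a finite separable extension `K₁/K`.
Primitive element `K₁ = K(α)`, `f = minpoly K α`, `f'(α) ≠ 0`.  For every `m` let `α_m` be a root
of `f_m = f.map (σ m)` as in `exists_root_near` (with `y = ι₁ α`; if `f_m'(y) = 0` take any root);
`σ₁ m` = the extension of `σ m` with `α ↦ α_m` (`PowerBasis.lift` for `IntermediateField.adjoin`/
`Field.powerBasisOfFiniteOfSeparable`, with `C` seen as a `K`-algebra through `σ m`).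
`f_m(y) = f_m(y) - f(y) = O(δ)` (coefficients), `f_m'(y) → f'(y) ≠ 0`, so `α_m - y = O(δ)`.  Then
`close_of_closure` for the set `range (algebraMap K K₁) ∪ {α}`. -/
theorem exists_extension {K K₁ C : Type*} [Field K] [Field K₁] [Algebra K K₁]
    [FiniteDimensional K K₁] [Algebra.IsSeparable K K₁] [NormedField C] [IsUltrametricDist C]
    [IsAlgClosed C] (ι₁ : K₁ →+* C) (σ : ℕ → K →+* C) {δ : ℕ → ℝ}
    (hδ : Tendsto δ atTop (𝓝 0)) (h : Close (ι₁.comp (algebraMap K K₁)) σ δ) :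
    ∃ σ₁ : ℕ → K₁ →+* C, (∀ m, (σ₁ m).comp (algebraMap K K₁) = σ m) ∧ Close ι₁ σ₁ δ := by
  classical
  obtain ⟨pb⟩ : Nonempty (PowerBasis K K₁) := ⟨Field.powerBasisOfFiniteOfSeparable K K₁⟩
  obtain ⟨f, hfdef⟩ : ∃ f : K[X], f = minpoly K pb.gen := ⟨_, rfl⟩
  have hint : IsIntegral K pb.gen := IsIntegral.of_finite K pb.gen
  have hf0 : Polynomial.aeval pb.gen f = 0 := by rw [hfdef]; exact minpoly.aeval K pb.gen
  have hsep : f.Separable := by rw [hfdef]; exact Algebra.IsSeparable.isSeparable K pb.gen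
  have hfd : Polynomial.aeval pb.gen f.derivative ≠ 0 := hsep.aeval_derivative_ne_zero hf0
  have hfdeg : 0 < f.degree := by
    rw [hfdef]
    exact minpoly.degree_pos hint
  -- coefficients
  have hcoef : ∀ g : K[X], (fun m => (g.map (σ m)).eval (ι₁ pb.gen) - ι₁ (Polynomial.aeval pb.gen g)) =O[atTop] δ := by
    intro g
    have e1 : ∀ m, (g.map (σ m)).eval (ι₁ pb.gen) - ι₁ (Polynomial.aeval pb.gen g) =
        ∑ i ∈ Finset.range (g.natDegree + 1), (ι₁ pb.gen) ^ i * (σ m (g.coeff i) - (ι₁.comp (algebraMap K K₁)) (g.coeff i)) := by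
      intro m
      rw [Polynomial.eval_map, Polynomial.eval₂_eq_sum_range, Polynomial.aeval_def, Polynomial.hom_eval₂,
        Polynomial.eval₂_eq_sum_range, ← Finset.sum_sub_distrib]
      apply Finset.sum_congr rfl
      intro i _
      ring
    simp only [e1]
    apply Asymptotics.IsBigO.fun_sum
    intro i _
    exact (h (g.coeff i)).const_mul_left _
  have hroot : ∀ m, ∃ a : C, (f.map (σ m)).eval a = 0 ∧
      ((f.map (σ m)).derivative.eval (ι₁ pb.gen) ≠ 0 →
        ‖ι₁ pb.gen - a‖ * ‖(f.map (σ m)).derivative.eval (ι₁ pb.gen)‖ ≤ ‖(f.map (σ m)).eval (ι₁ pb.gen)‖) := by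
    intro m
    by_cases hd : (f.map (σ m)).derivative.eval (ι₁ pb.gen) = 0
    · obtain ⟨a, ha⟩ := IsAlgClosed.exists_root (f.map (σ m)) (by
        rw [Polynomial.degree_map]
        exact hfdeg.ne')
      exact ⟨a, ha, fun h => absurd hd h⟩
    · obtain ⟨a, ha1, ha2⟩ := exists_root_near (f.map (σ m)) (ι₁ pb.gen) hd
      exact ⟨a, ha1, fun _ => ha2⟩
  choose a ha1 ha2 using hroot
  have hext : ∀ m, ∃ τ : K₁ →+* C, τ.comp (algebraMap K K₁) = σ m ∧ τ pb.gen = a m := by
    intro m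
    let _ : Algebra K C := (σ m).toAlgebra
    have hy : Polynomial.aeval (a m) (minpoly K pb.gen) = 0 := by
      have := ha1 m
      rw [Polynomial.eval_map, hfdef] at this
      exact this
    refine ⟨(pb.lift (a m) hy).toRingHom, ?_, ?_⟩
    · ext x
      exact (pb.lift (a m) hy).commutes x
    · exact pb.lift_gen (a m) hy
  choose σ₁ hσ1 hσ2 using hext
  refine ⟨σ₁, hσ1, ?_⟩
  -- derivative bounded below
  have hlim : Tendsto (fun m => (f.map (σ m)).derivative.eval (ι₁ pb.gen)) atTop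
      (𝓝 (ι₁ (Polynomial.aeval pb.gen f.derivative))) := by
    have h1 := hcoef f.derivative
    have h2 := h1.trans_tendsto hδ
    have h3 := h2.add_const (ι₁ (Polynomial.aeval pb.gen f.derivative))
    simp only [sub_add_cancel, zero_add] at h3
    refine h3.congr (fun m => ?_)
    rw [Polynomial.derivative_map]
  have hne : ι₁ (Polynomial.aeval pb.gen f.derivative) ≠ 0 := by
    intro h0
    exact hfd ((map_eq_zero ι₁).1 h0)
  obtain ⟨c, hc0, hc⟩ : ∃ c : ℝ, 0 < c ∧ ∀ᶠ m in atTop, c ≤ ‖(f.map (σ m)).derivative.eval (ι₁ pb.gen)‖ := by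
    refine ⟨‖ι₁ (Polynomial.aeval pb.gen f.derivative)‖ / 2, by positivity, ?_⟩
    have h4 := hlim.norm
    have h5 : ‖ι₁ (Polynomial.aeval pb.gen f.derivative)‖ / 2 < ‖ι₁ (Polynomial.aeval pb.gen f.derivative)‖ := by
      have : 0 < ‖ι₁ (Polynomial.aeval pb.gen f.derivative)‖ := norm_pos_iff.2 hne
      linarith
    exact (h4.eventually (lt_mem_nhds h5)).mono (fun m hm => hm.le)
  have hgen : (fun m => σ₁ m pb.gen - ι₁ pb.gen) =O[atTop] δ := by
    have h1 := hcoef f
    rw [hf0, map_zero] at h1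
    simp only [sub_zero] at h1
    refine Asymptotics.IsBigO.trans ?_ h1
    apply Asymptotics.IsBigO.of_bound (1 / c)
    filter_upwards [hc] with m hm
    have hd : (f.map (σ m)).derivative.eval (ι₁ pb.gen) ≠ 0 := by
      intro h0
      rw [h0, norm_zero] at hm
      linarith
    have h2 := ha2 m hd
    rw [hσ2 m, norm_sub_rev]
    rw [one_div, inv_mul_eq_div, le_div_iff₀ hc0]
    calc ‖ι₁ pb.gen - a m‖ * c ≤ ‖ι₁ pb.gen - a m‖ * ‖(f.map (σ m)).derivative.eval (ι₁ pb.gen)‖ :=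
          mul_le_mul_of_nonneg_left hm (norm_nonneg _)
      _ ≤ _ := h2
  apply close_of_closure (S := Set.range (algebraMap K K₁) ∪ {pb.gen}) _ hδ
  · intro s hs
    rcases hs with ⟨x, rfl⟩ | hs
    · have h1 := h x
      refine h1.congr_left (fun m => ?_)
      have h2 : σ m x = σ₁ m (algebraMap K K₁ x) := by
        rw [← hσ1 m]
        rfl
      rw [h2]
      rfl
    · rw [Set.mem_singleton_iff] at hs
      rw [hs]
      exact hgen
  · rw [eq_top_iff]
    intro z _
    obtain ⟨g, rfl⟩ := pb.exists_eq_aeval' z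
    rw [Polynomial.aeval_eq_sum_range]
    apply Subfield.sum_mem
    intro i _
    rw [Algebra.smul_def]
    apply Subfield.mul_mem
    · exact Subfield.subset_closure (Or.inl ⟨_, rfl⟩)
    · apply Subfield.pow_mem
      exact Subfield.subset_closure (Or.inr rfl)

/-- TASK LUA-T2c.  Let `W ∈ K[X]` split over `K₁` (`W ≠ 0`), `τ ∈ K₁`, and `t m` a root of
`W.map (σ m)` for large `m` with `t m → ι₁ τ`.  Then `t m = σ₁ m τ` for large `m`.
(`W.map (σ m) = (W.map alg).map (σ₁ m)` has roots `σ₁ m (τ_j)`, `τ_j` the roots of `W` in `K₁`;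
`σ₁ m τ_j → ι₁ τ_j`, and `ι₁ τ_j ≠ ι₁ τ` for `τ_j ≠ τ`: finitely many separated limits.) -/
theorem eventually_eq_root {K K₁ C : Type*} [Field K] [Field K₁] [Algebra K K₁]
    [NormedField C] (ι₁ : K₁ →+* C) (σ₁ : ℕ → K₁ →+* C) {δ : ℕ → ℝ}
    (hδ : Tendsto δ atTop (𝓝 0)) (h : Close ι₁ σ₁ δ) {W : K[X]} (hW0 : W ≠ 0)
    (hW : (W.map (algebraMap K K₁)).Splits) {τ : K₁} {t : ℕ → C}
    (ht : ∀ᶠ m in atTop, (W.map ((σ₁ m).comp (algebraMap K K₁))).eval (t m) = 0)
    (hlim : Tendsto t atTop (𝓝 (ι₁ τ))) :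
    ∀ᶠ m in atTop, t m = σ₁ m τ := by
  classical
  obtain ⟨G, hG⟩ : ∃ G : K₁[X], G = W.map (algebraMap K K₁) := ⟨_, rfl⟩
  rw [← hG] at hW
  have hG0 : G ≠ 0 := by
    rw [hG]
    exact (Polynomial.map_ne_zero_iff (algebraMap K K₁).injective).2 hW0
  have h1 : ∀ᶠ m in atTop, ∃ w ∈ G.roots.toFinset, t m = σ₁ m w := by
    filter_upwards [ht] with m hm
    rw [← Polynomial.map_map, ← hG] at hm
    rw [Polynomial.eval_map, hW.eq_prod_roots] at hm
    rw [Polynomial.eval₂_mul, Polynomial.eval₂_C, mul_eq_zero] at hm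
    rcases hm with hm | hm
    · exfalso
      rw [map_eq_zero, Polynomial.leadingCoeff_eq_zero] at hm
      exact hG0 hm
    · rw [Polynomial.eval₂_multiset_prod, Multiset.prod_eq_zero_iff, Multiset.map_map, Multiset.mem_map] at hm
      obtain ⟨w, hw, hw2⟩ := hm
      refine ⟨w, Multiset.mem_toFinset.2 hw, ?_⟩
      simp only [Function.comp_apply, Polynomial.eval₂_sub, Polynomial.eval₂_X, Polynomial.eval₂_C] at hw2
      exact sub_eq_zero.1 hw2
  have h2 : ∀ w ∈ G.roots.toFinset, ∀ᶠ m in atTop, w ≠ τ → t m ≠ σ₁ m w := by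
    intro w _
    by_cases hw : w = τ
    · exact Filter.Eventually.of_forall (fun m hne => absurd hw hne)
    · have h3 : Tendsto (fun m => σ₁ m w) atTop (𝓝 (ι₁ w)) := h.tendsto hδ w
      have hne : ι₁ τ ≠ ι₁ w := fun h4 => hw (ι₁.injective h4).symm
      have h5 := hlim.sub h3
      have h6 : ∀ᶠ m in atTop, t m - σ₁ m w ≠ 0 := h5.eventually_ne (sub_ne_zero.2 hne)
      filter_upwards [h6] with m hm _
      exact sub_ne_zero.1 hm
  have h3 : ∀ᶠ m in atTop, ∀ w ∈ G.roots.toFinset, w ≠ τ → t m ≠ σ₁ m w :=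
    (Filter.eventually_all_finset _).2 h2
  filter_upwards [h1, h3] with m hm1 hm3
  obtain ⟨w, hw, hw2⟩ := hm1
  by_cases hwτ : w = τ
  · rw [← hwτ]
    exact hw2
  · exact absurd hw2 (hm3 w hw hwτ)

end Crest.Agent.LUA
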