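import Mathlib
import Crest.Agent.LUA_5
import Crest.Agent.LU_B6

/-!
S0351 (blueprint LU), part (1), TASK LUB-2: `A = E₀/P` is finite over a power series ring
`k[[S_0, ..., S_{e-1}]]`, `e = 1 + n - h'`, `S_0 = v_h`, `S_i = v_{h'+i-1}`.
-/

set_option autoImplicit false

noncomputable section

namespace Crest.Agent.LUA

open Crest.LubinTate Crest.Agent.LU IsLocalRing

variable {p : ℕ} [Fact p.Prime] {n : ℕ} {Γ : FormalGroup (GaloisField p n)} [Γ.IsComm]
  {H : FormalGroup (LTRing p n)} [H.IsComm]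

/-- The index of the `i`-th parameter: `h` for `i = 0`, `h' + i - 1` for `i ≥ 1`. -/
def sIdx (h h' : ℕ) (i : ℕ) : ℕ := if i = 0 then h else h' + i - 1

/-- `I_m` is generated by `v_0, ..., v_{m-1}`. -/
private theorem LUB2_height_le (H : FormalGroup (LTRing p n)) (J : Ideal (LTRing p n)) (m : ℕ)
    (hJ : ∀ i < m, vv H i ∈ J) : heightIdeal p n H m ≤ J := by
  induction m with
  | zero => rw [heightIdeal_zero]; exact bot_le
  | succ m ih =>
    rw [heightIdeal_succ]
    refine sup_le (ih fun i hi => hJ i (by omega)) ?_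
    rw [Ideal.span_singleton_le_iff_mem]
    exact hJ m (by omega)

private theorem LUB2_sIdx_lt {h h' : ℕ} (h2 : h < h') (h3 : h' ≤ n) (i : Fin (1 + n - h')) :
    sIdx h h' i < n := by
  have := i.2
  unfold sIdx
  split_ifs <;> omega

private theorem LUB2_le_sIdx {h h' : ℕ} (h2 : h < h') (i : Fin (1 + n - h')) :
    h ≤ sIdx h h' i := by
  unfold sIdx
  split_ifs <;> omega

/-- TASK LUB-2a.  The substitution homomorphism `ψ : k[[S]] → A = E₀/P`, `S_i ↦ v_{sIdx i}`
(`I_h ≤ P`).
Proof: by `exists_coord` (for `h`) `E₀/I_h ≅ k[[X_0..X_{n-h-1}]]`, `v_{h+j} ↦ X_j`.  Compose the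
substitution `k[[S]] → k[[X]]`, `S_i ↦ X_{sIdx i - h}` (`MvPowerSeries.rename` along the injective
map `i ↦ sIdx i - h`, or `MvPowerSeries.substAlgHom`) with `k[[X]] ≅ E₀/I_h → E₀/P`. -/
theorem exists_psi (hn : 1 ≤ n) (hΓ : mulSeries Γ p = PowerSeries.X ^ (p ^ n))
    (hH : IsUniversalDeformation p n Γ H) {h h' : ℕ} (h1 : 1 ≤ h) (h2 : h < h') (h3 : h' ≤ n)
    {P : Ideal (LTRing p n)} (hle : heightIdeal p n H h ≤ P) :
    ∃ ψ : MvPowerSeries (Fin (1 + n - h')) (GaloisField p n) →+* (LTRing p n ⧸ P),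
      (∀ i : Fin (1 + n - h'),
        ψ (MvPowerSeries.X i) = Ideal.Quotient.mk P (vv H (sIdx h h' i))) ∧
      ∀ w : WittVector p (GaloisField p n), ψ (MvPowerSeries.C (WittVector.constantCoeff w)) =
        algebraMap (WittVector p (GaloisField p n)) (LTRing p n ⧸ P) w := by
  obtain ⟨π, hπs, hπk, hπX, hπC, -⟩ := exists_coord hn hΓ hH h1 (by omega : h ≤ n)
  have hker : RingHom.ker π ≤ RingHom.ker (Ideal.Quotient.mk P) := by
    rw [hπk, Ideal.mk_ker]
    exact hle
  obtain ⟨ρ, hρ⟩ : ∃ ρ : MvPowerSeries (Fin (n - h)) (GaloisField p n) →+* (LTRing p n ⧸ P),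
      ∀ a, ρ (π a) = Ideal.Quotient.mk P a :=
    ⟨RingHom.liftOfSurjective π hπs ⟨Ideal.Quotient.mk P, hker⟩,
      fun a => RingHom.liftOfRightInverse_comp_apply π _ (Function.rightInverse_surjInv hπs)
        ⟨Ideal.Quotient.mk P, hker⟩ a⟩
  let ι : Fin (1 + n - h') → Fin (n - h) := fun i =>
    ⟨sIdx h h' i - h, by
      have h4 := LUB2_sIdx_lt (n := n) h2 h3 i
      have h5 := LUB2_le_sIdx (n := n) h2 i
      omega⟩
  refine ⟨ρ.comp (MvPowerSeries.rename (R := GaloisField p n) ι).toRingHom, ?_, ?_⟩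
  · intro i
    show ρ (MvPowerSeries.rename ι (MvPowerSeries.X i)) = _
    rw [MvPowerSeries.rename_X, ← hπX, hρ]
    congr 2
    show h + (sIdx h h' i - h) = sIdx h h' i
    have h5 := LUB2_le_sIdx (n := n) h2 i
    omega
  · intro w
    show ρ (MvPowerSeries.rename ι (MvPowerSeries.C (WittVector.constantCoeff w))) = _
    rw [MvPowerSeries.rename_C, ← hπC, hρ]
    rfl

/-- TASK LUB-2b.  The parameters generate an ideal with radical the maximal ideal:
`rad(P + (v_h)) = I_{h'}` contains `v_0, ..., v_{h'-1}`, and `I_n = 𝔪` (`heightIdeal_n`), so a power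
of every element of `𝔪` lies in `P + (v_h, v_{h'}, ..., v_{n-1})`. -/
theorem pow_mem_span (hn : 1 ≤ n) (hΓ : mulSeries Γ p = PowerSeries.X ^ (p ^ n))
    (hH : IsUniversalDeformation p n Γ H) {h h' : ℕ} (h1 : 1 ≤ h) (h2 : h < h') (h3 : h' ≤ n)
    {P : Ideal (LTRing p n)}
    (hrad : (P ⊔ Ideal.span {vv H h}).radical = heightIdeal p n H h')
    (a : LTRing p n ⧸ P) (ha : ∃ b ∈ RingHom.ker (LTRing.residue p n), a = Ideal.Quotient.mk P b) :
    ∃ N : ℕ, a ^ N ∈ Ideal.span (Set.range fun i : Fin (1 + n - h') =>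
      Ideal.Quotient.mk P (vv H (sIdx h h' i))) := by
  obtain ⟨b, hb, rfl⟩ := ha
  have hle : heightIdeal p n H n ≤ (P ⊔ Ideal.span (Set.range fun i : Fin (1 + n - h') =>
      vv H (sIdx h h' i))).radical := by
    apply LUB2_height_le
    intro i hi
    by_cases hih : i < h'
    · have h4 : vv H i ∈ heightIdeal p n H h' := vv_mem hih
      rw [← hrad] at h4
      refine Ideal.radical_mono ?_ h4
      refine sup_le_sup_left ?_ P
      rw [Ideal.span_singleton_le_iff_mem]
      exact Ideal.subset_span ⟨⟨0, by omega⟩, by simp [sIdx]⟩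
    · apply Ideal.le_radical
      apply Ideal.mem_sup_right
      refine Ideal.subset_span ⟨⟨i - h' + 1, by omega⟩, ?_⟩
      have h5 : sIdx h h' (i - h' + 1) = i := by
        unfold sIdx
        rw [if_neg (by omega)]
        omega
      show vv H (sIdx h h' (i - h' + 1)) = vv H i
      rw [h5]
  rw [← heightIdeal_n hn hΓ hH] at hb
  obtain ⟨N, hN⟩ := hle hb
  refine ⟨N, ?_⟩
  have h6 := Ideal.mem_map_of_mem (Ideal.Quotient.mk P) hN
  rw [Ideal.map_sup, Ideal.map_quotient_self, bot_sup_eq, Ideal.map_span, map_pow] at h6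
  convert h6 using 2
  ext x
  simp

private theorem LUB2_fin_aux {R A : Type*} [CommRing R] [CommRing A] [Algebra R A] (M : Ideal A)
    [IsNoetherianRing A]
    (hc : ∀ a : A, ∃ r : R, a - algebraMap R A r ∈ M) (m : ℕ) :
    ∃ S : Submodule R A, S.FG ∧ S ⊔ (M ^ m).restrictScalars R = ⊤ := by
  induction m with
  | zero =>
    refine ⟨⊥, Submodule.fg_bot, ?_⟩
    rw [pow_zero, Ideal.one_eq_top, Submodule.restrictScalars_top, bot_sup_eq]
  | succ m ih =>
    obtain ⟨S, hS, hST⟩ := ih
    obtain ⟨T, hT⟩ : (M ^ m).FG := IsNoetherian.noetherian _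
    refine ⟨S ⊔ Submodule.span R (T : Set A), hS.sup ⟨T, rfl⟩, ?_⟩
    have hkey : (M ^ m).restrictScalars R ≤
        Submodule.span R (T : Set A) ⊔ (M ^ (m + 1)).restrictScalars R := by
      intro x hx
      have hx' : x ∈ Submodule.span A (T : Set A) := by
        have : x ∈ M ^ m := hx
        rw [← hT] at this
        exact this
      refine Submodule.span_induction (p := fun x _ => x ∈
        Submodule.span R (T : Set A) ⊔ (M ^ (m + 1)).restrictScalars R) ?_ ?_ ?_ ?_ hx'
      · intro y hy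
        exact Submodule.mem_sup_left (Submodule.subset_span hy)
      · exact Submodule.zero_mem _
      · intro y z _ _ hy hz
        exact Submodule.add_mem _ hy hz
      · intro a y hy hy'
        obtain ⟨r, hr⟩ := hc a
        have h1 : a • y = r • y + (a - algebraMap R A r) * y := by
          rw [Algebra.smul_def r y, smul_eq_mul]; ring
        rw [h1]
        refine Submodule.add_mem _ (Submodule.smul_mem _ r hy') (Submodule.mem_sup_right ?_)
        show (a - algebraMap R A r) * y ∈ M ^ (m + 1)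
        rw [pow_succ']
        refine Ideal.mul_mem_mul hr ?_
        rw [← hT]
        exact hy
    rw [eq_top_iff, ← hST, sup_assoc]
    exact sup_le_sup_left hkey S

private theorem LUB2_mem_smul_top {R : Type*} [CommRing R] (I : Ideal R) {s : ℕ}
    (x : Fin s → R) : x ∈ (I • ⊤ : Submodule R (Fin s → R)) ↔ ∀ j, x j ∈ I := by
  constructor
  · intro hx j
    have h1 : Submodule.map (LinearMap.proj (R := R) (φ := fun _ : Fin s => R) j)
        (I • ⊤ : Submodule R (Fin s → R)) ≤ I := by
      rw [Submodule.map_smul'']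
      exact (smul_mono_right I le_top).trans (by simp)
    exact h1 ⟨x, hx, rfl⟩
  · intro hx
    rw [pi_eq_sum_univ x]
    refine Submodule.sum_mem _ fun j _ => ?_
    exact Submodule.smul_mem_smul (hx j) trivial

private theorem LUB2_precomplete {R : Type*} [CommRing R] (I : Ideal R) [IsPrecomplete I R]
    (s : ℕ) : IsPrecomplete I (Fin s → R) := by
  refine ⟨fun f hf => ?_⟩
  have h1 : ∀ j : Fin s, ∃ L : R, ∀ m, f m j ≡ L [SMOD (I ^ m • ⊤ : Submodule R R)] := by
    intro j
    apply IsPrecomplete.prec' (I := I) (M := R) (fun m => f m j)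
    intro m m' hmm
    have h2 := hf hmm
    rw [SModEq.sub_mem, LUB2_mem_smul_top] at h2
    rw [SModEq.sub_mem]
    simpa using h2 j
  choose L hL using h1
  refine ⟨L, fun m => ?_⟩
  rw [SModEq.sub_mem, LUB2_mem_smul_top]
  intro j
  have h3 := hL j m
  rw [SModEq.sub_mem] at h3
  simpa using h3

private theorem LUB2_finite_of_complete {R A : Type*} [CommRing R] [CommRing A] [Algebra R A]
    (I : Ideal R) [IsPrecomplete I R] [IsHausdorff I A] (S : Submodule R A) (hS : S.FG)
    (hST : S ⊔ (I • ⊤ : Submodule R A) = ⊤) : Module.Finite R A := by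
  obtain ⟨s, g, hg⟩ := Submodule.fg_iff_exists_fin_generating_family.1 hS
  haveI := LUB2_precomplete I s
  have hsurj : Function.Surjective (Fintype.linearCombination R g) := by
    apply surjective_of_mkQ_comp_surjective (I := I)
    intro y
    obtain ⟨a, rfl⟩ := Submodule.mkQ_surjective _ y
    have ha : a ∈ S ⊔ (I • ⊤ : Submodule R A) := by rw [hST]; trivial
    obtain ⟨b, hb, c, hc, rfl⟩ := Submodule.mem_sup.1 ha
    rw [← hg, ← Fintype.range_linearCombination] at hb
    obtain ⟨x, rfl⟩ := hb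
    refine ⟨x, ?_⟩
    rw [LinearMap.comp_apply, map_add]
    have h4 : (Submodule.mkQ (I • ⊤ : Submodule R A)) c = 0 := by
      rw [Submodule.mkQ_apply, Submodule.Quotient.mk_eq_zero]
      exact hc
    rw [h4, add_zero]
  exact Module.Finite.of_surjective _ hsurj

private theorem LUB2_ringHom_finite {R A : Type*} [CommRing R] [CommRing A] (χ : R →+* A)
    (I : Ideal R) [IsPrecomplete I R] [IsNoetherianRing A] [IsLocalRing A] (M : Ideal A)
    (hc : ∀ a : A, ∃ r : R, a - χ r ∈ M) {N : ℕ} (hN : M ^ N ≤ Ideal.map χ I)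
    (htop : Ideal.map χ I ≠ ⊤) : χ.Finite := by
  letI : Algebra R A := χ.toAlgebra
  have hH : IsHausdorff (I.map (algebraMap R A)) A := IsHausdorff.of_isLocalRing _ _ htop
  have hH' : IsHausdorff I A := IsHausdorff.map_algebraMap_iff.mp hH
  obtain ⟨S, hS, hST⟩ := LUB2_fin_aux (R := R) M hc N
  have hfin : Module.Finite R A := by
    refine LUB2_finite_of_complete I S hS ?_
    rw [Ideal.smul_top_eq_map, eq_top_iff]
    refine hST.ge.trans ?_
    exact sup_le_sup_left (fun x hx => hN hx) S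
  exact hfin

/-- TASK LUB-2c.  `A` is finite over `k[[S]]`.
Proof (topological Nakayama): let `J = (S_0, ..., S_{e-1}) A`; by LUB-2b and noetherianity
`𝔪_A^N ≤ J` for some `N`, so `A/J` is spanned over `k` by the classes of finitely many `g_1..g_s`
(`A/𝔪_A^N` is a finite-dimensional `k`-vector space: `𝔪^i/𝔪^{i+1}` is finite over `A/𝔪 = k`, all
constants being in the image of `ψ ∘ C`).  Given `a ∈ A`, build recursively
`a = Σ_j ψ(F_j^{(N)}) g_j + a_N` with `a_N ∈ J^N` and `F_j^{(N+1)} - F_j^{(N)}` homogeneous of degree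
`N` in `S`; the series `F_j = lim F_j^{(N)}` exist, and `a = Σ ψ(F_j) g_j` since `A` is `𝔪_A`-adically
separated and `ψ` maps `(S)^N` into `J^N`.  (Mathlib may help: `IsAdicComplete`, e.g. a module which
is finite modulo `I` and `I`-adically separated over an `I`-adically complete ring is finite.) -/
theorem psi_finite (hn : 1 ≤ n) (hΓ : mulSeries Γ p = PowerSeries.X ^ (p ^ n))
    (hH : IsUniversalDeformation p n Γ H) {h h' : ℕ} (h1 : 1 ≤ h) (h2 : h < h') (h3 : h' ≤ n)
    {P : Ideal (LTRing p n)} (hP : P ≠ ⊤)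
    (hrad : (P ⊔ Ideal.span {vv H h}).radical = heightIdeal p n H h')
    (ψ : MvPowerSeries (Fin (1 + n - h')) (GaloisField p n) →+* (LTRing p n ⧸ P))
    (hψ : ∀ i : Fin (1 + n - h'),
        ψ (MvPowerSeries.X i) = Ideal.Quotient.mk P (vv H (sIdx h h' i)))
    (hψc : ∀ w : WittVector p (GaloisField p n), ψ (MvPowerSeries.C (WittVector.constantCoeff w)) =
        algebraMap (WittVector p (GaloisField p n)) (LTRing p n ⧸ P) w) :
    ψ.Finite := by
  obtain ⟨π, hπs, hπk, hπX, hπC, hπc⟩ : ∃ π : LTRing p n →+*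
      MvPowerSeries (Fin (1 + n - h')) (GaloisField p n),
      Function.Surjective π ∧ RingHom.ker π = heightIdeal p n H (h' - 1) ∧
      (∀ j : Fin (1 + n - h'), π (vv H (h' - 1 + j)) = MvPowerSeries.X j) ∧
      (∀ w : WittVector p (GaloisField p n),
        π (algebraMap (WittVector p (GaloisField p n)) (LTRing p n) w) =
          MvPowerSeries.C (WittVector.constantCoeff w)) ∧
      (∀ a : LTRing p n, MvPowerSeries.constantCoeff (π a) = LTRing.residue p n a) := by
    have hcast : 1 + n - h' = n - (h' - 1) := by omega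
    rw [hcast]
    exact exists_coord hn hΓ hH (by omega : 1 ≤ h' - 1) (by omega : h' - 1 ≤ n)
  have hT := isTest_E0 p n
  have hA := isTest_A (p := p) (n := n) hP
  haveI := hT.complete
  haveI := hT.noe
  haveI := hA.isLocalRing
  haveI : IsNoetherianRing (LTRing p n ⧸ P) := hA.noe
  let χ : LTRing p n →+* (LTRing p n ⧸ P) := ψ.comp π
  let J : Ideal (LTRing p n ⧸ P) := Ideal.span (Set.range fun i : Fin (1 + n - h') =>
      Ideal.Quotient.mk P (vv H (sIdx h h' i)))
  have hn' := heightIdeal_n hn hΓ hH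
  have hmapJ : Ideal.map χ (RingHom.ker (LTRing.residue p n)) = J := by
    apply le_antisymm
    · rw [Ideal.map_le_iff_le_comap, ← hn']
      apply LUB2_height_le
      intro i hi
      rw [Ideal.mem_comap]
      show ψ (π (vv H i)) ∈ J
      by_cases hih : i < h' - 1
      · have h4 : vv H i ∈ RingHom.ker π := by
          rw [hπk]; exact vv_mem hih
        rw [RingHom.mem_ker] at h4
        rw [h4, map_zero]
        exact Ideal.zero_mem _
      · have h5 := hπX ⟨i - (h' - 1), by omega⟩
        have h6 : h' - 1 + (i - (h' - 1)) = i := by omega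
        simp only [h6] at h5
        rw [h5, hψ]
        exact Ideal.subset_span ⟨_, rfl⟩
    · refine Ideal.span_le.2 ?_
      rintro _ ⟨i, rfl⟩
      show Ideal.Quotient.mk P (vv H (sIdx h h' i)) ∈ _
      rw [← hψ, ← hπX]
      apply Ideal.mem_map_of_mem χ
      rw [← hn']
      apply vv_mem
      have := i.2
      omega
  have hJtop : J ≠ ⊤ := by
    have h7 : J ≤ maximalIdeal (LTRing p n ⧸ P) := by
      refine Ideal.span_le.2 ?_
      rintro _ ⟨i, rfl⟩
      show Ideal.Quotient.mk P (vv H (sIdx h h' i)) ∈ maximalIdeal (LTRing p n ⧸ P)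
      rw [← hA.ker_eq, RingHom.mem_ker]
      show LTRing.residue p n (vv H (sIdx h h' i)) = 0
      rw [← RingHom.mem_ker, ← hn']
      exact vv_mem (LUB2_sIdx_lt h2 h3 i)
    exact fun h8 => (maximalIdeal.isMaximal (LTRing p n ⧸ P)).ne_top (top_le_iff.1 (h8 ▸ h7))
  let M : Ideal (LTRing p n ⧸ P) :=
    Ideal.map (Ideal.Quotient.mk P) (RingHom.ker (LTRing.residue p n))
  have hMrad : M ≤ J.radical := by
    intro a ha
    obtain ⟨b, hb, hab⟩ := (Ideal.mem_map_iff_of_surjective _ Ideal.Quotient.mk_surjective).1 ha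
    exact pow_mem_span hn hΓ hH h1 h2 h3 hrad a ⟨b, hb, hab.symm⟩
  obtain ⟨N, hN⟩ := Ideal.exists_pow_le_of_le_radical_of_fg hMrad (IsNoetherian.noetherian M)
  have hχ : χ.Finite := by
    refine LUB2_ringHom_finite χ (RingHom.ker (LTRing.residue p n)) M ?_
      (N := N) (by rw [hmapJ]; exact hN) (by rw [hmapJ]; exact hJtop)
    intro a
    obtain ⟨b, rfl⟩ := Ideal.Quotient.mk_surjective a
    refine ⟨algebraMap (WittVector p (GaloisField p n)) (LTRing p n)
      (MvPowerSeries.constantCoeff b), ?_⟩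
    have h9 : χ (algebraMap (WittVector p (GaloisField p n)) (LTRing p n)
        (MvPowerSeries.constantCoeff b)) = Ideal.Quotient.mk P
        (algebraMap (WittVector p (GaloisField p n)) (LTRing p n)
          (MvPowerSeries.constantCoeff b)) := by
      show ψ (π _) = _
      rw [hπC, hψc]
      rfl
    rw [h9, ← map_sub]
    apply Ideal.mem_map_of_mem
    rw [RingHom.mem_ker]
    show WittVector.constantCoeff (MvPowerSeries.constantCoeff (b - _)) = 0
    rw [map_sub, MvPowerSeries.algebraMap_apply, MvPowerSeries.constantCoeff_C]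
    simp
  exact RingHom.Finite.of_comp_finite hχ

end Crest.Agent.LUA
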