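import Mathlib
import Crest.Agent.LUB_2

/-!
S0351 (blueprint LU), part (1), TASK LUB-2d: injectivity of `ψ : k[[S]] → A`.
-/

set_option autoImplicit false

noncomputable section

namespace Crest.Agent.LUA

open Crest.LubinTate Crest.Agent.LU IsLocalRing

variable {p : ℕ} [Fact p.Prime] {n : ℕ} {Γ : FormalGroup (GaloisField p n)} [Γ.IsComm]
  {H : FormalGroup (LTRing p n)} [H.IsComm]

/-- a surjective endomorphism of a Noetherian ring is injective -/
private theorem lub2d_inj {R : Type*} [CommRing R] [IsNoetherianRing R] (f : R →+* R)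
    (hf : Function.Surjective f) : Function.Injective f := by
  let K : ℕ →o Ideal R :=
    { toFun := fun m => RingHom.ker (f ^ m)
      monotone' := by
        apply monotone_nat_of_le_succ
        intro m a ha
        rw [RingHom.mem_ker] at ha ⊢
        rw [pow_succ']
        show f ((f ^ m) a) = 0
        rw [ha, map_zero] }
  obtain ⟨m, hm⟩ := monotone_stabilizes_iff_noetherian.2 (inferInstance : IsNoetherian R R) K
  have hK : RingHom.ker (f ^ m) = RingHom.ker (f ^ (m + 1)) := hm (m + 1) (Nat.le_succ m)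
  rw [injective_iff_map_eq_zero]
  intro a ha
  have hsm : Function.Surjective (f ^ m) := by
    clear hm hK
    induction m with
    | zero => intro x; exact ⟨x, rfl⟩
    | succ m ih =>
      intro x
      obtain ⟨y, hy⟩ := hf x
      obtain ⟨z, hz⟩ := ih y
      refine ⟨z, ?_⟩
      rw [pow_succ']
      show f ((f ^ m) z) = x
      rw [hz, hy]
  obtain ⟨b, hb⟩ := hsm a
  have h1 : b ∈ RingHom.ker (f ^ (m + 1)) := by
    rw [RingHom.mem_ker, pow_succ']
    show f ((f ^ m) b) = 0
    rw [hb, ha]
  rw [← hK, RingHom.mem_ker, hb] at h1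
  exact h1

/-- a power series all of whose monomials involve a variable of `S` lies in the ideal
generated by the variables of `S` -/
private theorem lub2d_mem_span {A σ : Type*} [CommRing A] [DecidableEq σ] (S : Finset σ) :
    ∀ f : MvPowerSeries σ A, (∀ d : σ →₀ ℕ, (∀ i ∈ S, d i = 0) → MvPowerSeries.coeff d f = 0) →
      f ∈ Ideal.span (MvPowerSeries.X '' (S : Set σ) : Set (MvPowerSeries σ A)) := by
  induction S using Finset.induction_on with
  | empty =>
    intro f hf
    have h0 : f = 0 := by
      ext d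
      rw [hf d (by simp), map_zero]
    rw [h0]
    exact Ideal.zero_mem _
  | insert s S hs ih =>
    intro f hf
    obtain ⟨f', hf'⟩ : ∃ f' : MvPowerSeries σ A, ∀ d, MvPowerSeries.coeff d f' =
        if d s = 0 then MvPowerSeries.coeff d f else 0 :=
      ⟨fun d => if d s = 0 then MvPowerSeries.coeff d f else 0, fun _ => rfl⟩
    have h1 : f' ∈ Ideal.span (MvPowerSeries.X '' (S : Set σ) : Set (MvPowerSeries σ A)) := by
      apply ih
      intro d hd
      rw [hf']
      split_ifs with h
      · apply hf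
        intro i hi
        rcases Finset.mem_insert.1 hi with rfl | hi
        · exact h
        · exact hd i hi
      · rfl
    have h2 : (MvPowerSeries.X s : MvPowerSeries σ A) ∣ f - f' := by
      rw [MvPowerSeries.X_dvd_iff]
      intro d hd
      rw [map_sub, hf', if_pos hd, sub_self]
    have h3 : f = (f - f') + f' := by ring
    rw [h3]
    apply Ideal.add_mem
    · obtain ⟨g, hg⟩ := h2
      rw [hg]
      apply Ideal.mul_mem_right
      exact Ideal.subset_span ⟨s, by simp, rfl⟩
    · refine Ideal.span_mono ?_ h1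
      apply Set.image_mono
      simp

/-- an endomorphism of `k[[X]]` fixing constants and variables is injective -/
private theorem lub2d_endo {k : Type} [Field k] {m : ℕ}
    (hN : IsNoetherianRing (MvPowerSeries (Fin m) k))
    (hC : IsAdicComplete (RingHom.ker (MvPowerSeries.constantCoeff (σ := Fin m) (R := k)))
      (MvPowerSeries (Fin m) k))
    (θ : MvPowerSeries (Fin m) k →+* MvPowerSeries (Fin m) k)
    (hX : ∀ i, θ (MvPowerSeries.X i) = MvPowerSeries.X i)
    (hCc : ∀ c, θ (MvPowerSeries.C c) = MvPowerSeries.C c) : Function.Injective θ := by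
  classical
  have hM : RingHom.ker (MvPowerSeries.constantCoeff (σ := Fin m) (R := k)) =
      Ideal.span (MvPowerSeries.X '' ((Finset.univ : Finset (Fin m)) : Set (Fin m))) := by
    apply le_antisymm
    · intro f hf
      apply lub2d_mem_span
      intro d hd
      have h0 : d = 0 := by
        ext i
        exact hd i (Finset.mem_univ i)
      rw [h0]
      exact hf
    · rw [Ideal.span_le]
      rintro _ ⟨i, _, rfl⟩
      rw [SetLike.mem_coe, RingHom.mem_ker, MvPowerSeries.constantCoeff_X]
  have hmap : Ideal.map θ (RingHom.ker (MvPowerSeries.constantCoeff (σ := Fin m) (R := k))) =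
      RingHom.ker (MvPowerSeries.constantCoeff (σ := Fin m) (R := k)) := by
    rw [hM, Ideal.map_span, Set.image_image]
    simp only [hX]
  haveI hP : IsPrecomplete (RingHom.ker (MvPowerSeries.constantCoeff (σ := Fin m) (R := k)))
      (MvPowerSeries (Fin m) k) := inferInstance
  haveI hHd : IsHausdorff (Ideal.map θ
      (RingHom.ker (MvPowerSeries.constantCoeff (σ := Fin m) (R := k))))
      (MvPowerSeries (Fin m) k) := by
    rw [hmap]; infer_instance
  apply lub2d_inj
  apply surjective_of_mk_map_comp_surjective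
    (I := RingHom.ker (MvPowerSeries.constantCoeff (σ := Fin m) (R := k))) θ
  intro y
  obtain ⟨b, rfl⟩ := Ideal.Quotient.mk_surjective y
  refine ⟨MvPowerSeries.C (MvPowerSeries.constantCoeff b), ?_⟩
  rw [RingHom.comp_apply, Ideal.Quotient.eq, hmap, RingHom.mem_ker, map_sub, hCc,
    MvPowerSeries.constantCoeff_C, sub_self]

/-- the embedding of the variables other than `S_0` -/
private def lub2d_emb {n h' : ℕ} (h3 : h' ≤ n) : Fin (n - h') ↪ Fin (1 + n - h') where
  toFun j := ⟨(j : ℕ) + 1, by have := j.2; omega⟩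
  inj' := by
    intro i j hij
    have := congrArg Fin.val hij
    simp only at this
    ext
    omega

/-- TASK LUB-2d.  `ψ` is injective.
Proof: let `F ≠ 0`, `ψ F = 0`.  Write `F = S_0^a F'` with `S_0 ∤ F'` (`F ≠ 0`; the exponent of `S_0`
in the monomials of `F` is bounded below: take `a` minimal).  `A` is a domain and `ψ S_0` = class of
`v_h` is nonzero, so `ψ F' = 0`.  Let `B = E₀/I_{h'} ≅ k[[X_0..X_{n-h'-1}]]` (`exists_coord` for
`h'`); `P ≤ rad(P + (v_h)) = I_{h'}` so there is `A → B`.  The composite `k[[S]] → A → B` is the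
homomorphism `S_0 ↦ 0`, `S_i ↦ X_{i-1}` (both agree on constants and variables and are continuous:
a ring homomorphism `φ` from `k[[S]]` to the (adically separated) noetherian local ring `B` with
`φ(S_i) ∈ 𝔪_B` is determined by its values on `k` and the `S_i`, since it maps `(S)^N` to `𝔪_B^N`).
So the part of `F'` not involving `S_0` vanishes, i.e. `S_0 ∣ F'`; contradiction. -/
theorem psi_injective (hn : 1 ≤ n) (hΓ : mulSeries Γ p = PowerSeries.X ^ (p ^ n))
    (hH : IsUniversalDeformation p n Γ H) {h h' : ℕ} (h1 : 1 ≤ h) (h2 : h < h') (h3 : h' ≤ n)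
    {P : Ideal (LTRing p n)} (hP : P.IsPrime) (hle : heightIdeal p n H h ≤ P)
    (hv : vv H h ∉ P)
    (hrad : (P ⊔ Ideal.span {vv H h}).radical = heightIdeal p n H h')
    (ψ : MvPowerSeries (Fin (1 + n - h')) (GaloisField p n) →+* (LTRing p n ⧸ P))
    (hψ : ∀ i : Fin (1 + n - h'),
        ψ (MvPowerSeries.X i) = Ideal.Quotient.mk P (vv H (sIdx h h' i)))
    (hψc : ∀ w : WittVector p (GaloisField p n), ψ (MvPowerSeries.C (WittVector.constantCoeff w)) =
        algebraMap (WittVector p (GaloisField p n)) (LTRing p n ⧸ P) w) :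
    Function.Injective ψ := by
  classical
  have hE := isTest_E0 p n
  haveI := hE.noe
  haveI := hE.complete
  obtain ⟨π, hπs, hπk, hπv, hπw, hπc⟩ := exists_coord hn hΓ hH (h := h') (by omega) h3
  have hN : IsNoetherianRing (MvPowerSeries (Fin (n - h')) (GaloisField p n)) :=
    isNoetherianRing_of_surjective _ _ π hπs
  have hJ : ∀ a ∈ RingHom.ker π, LTRing.residue p n a = 0 := by
    intro a ha
    rw [← hπc, RingHom.mem_ker.1 ha, map_zero]
  have hC : IsAdicComplete (RingHom.ker
      (MvPowerSeries.constantCoeff (σ := Fin (n - h')) (R := GaloisField p n)))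
      (MvPowerSeries (Fin (n - h')) (GaloisField p n)) := by
    have hT := isTest_quot hE (RingHom.ker π) hJ
    have hc := hT.complete
    have h4 := (IsAdicComplete.congr_ringEquiv
      (RingHom.ker (Ideal.Quotient.lift (RingHom.ker π) (LTRing.residue p n) hJ))
      (RingHom.quotientKerEquivOfSurjective hπs)).2 hc
    have h5 : (RingHom.ker (Ideal.Quotient.lift (RingHom.ker π) (LTRing.residue p n) hJ)).map
        (RingHom.quotientKerEquivOfSurjective hπs) = RingHom.ker
          (MvPowerSeries.constantCoeff (σ := Fin (n - h')) (R := GaloisField p n)) := by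
      ext x
      obtain ⟨a, rfl⟩ := hπs x
      have h6 : π a = (RingHom.quotientKerEquivOfSurjective hπs)
          (Ideal.Quotient.mk (RingHom.ker π) a) := rfl
      rw [RingHom.mem_ker, hπc, h6]
      constructor
      · intro h7
        rw [Ideal.mem_map_of_equiv] at h7
        obtain ⟨y, hy, hyx⟩ := h7
        have h8 : y = Ideal.Quotient.mk (RingHom.ker π) a :=
          (RingHom.quotientKerEquivOfSurjective hπs).injective hyx
        rw [h8, RingHom.mem_ker, Ideal.Quotient.lift_mk] at hy
        exact hy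
      · intro h7
        apply Ideal.mem_map_of_mem
        rw [RingHom.mem_ker, Ideal.Quotient.lift_mk]
        exact h7
    rw [h5] at h4
    exact h4
  -- the map `A → k[[X]]`
  have hPk : ∀ a ∈ P, π a = 0 := by
    intro a ha
    rw [← RingHom.mem_ker, hπk, ← hrad]
    exact Ideal.le_radical (Ideal.mem_sup_left ha)
  obtain ⟨ρ, hρ⟩ : ∃ ρ : (LTRing p n ⧸ P) →+* MvPowerSeries (Fin (n - h')) (GaloisField p n),
      ∀ a, ρ (Ideal.Quotient.mk P a) = π a :=
    ⟨Ideal.Quotient.lift P π hPk, fun a => Ideal.Quotient.lift_mk P π hPk⟩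
  have h0lt : 0 < 1 + n - h' := by omega
  have hS0 : ψ (MvPowerSeries.X ⟨0, h0lt⟩) = Ideal.Quotient.mk P (vv H h) := by
    rw [hψ]
    rfl
  have hρS0 : ρ (ψ (MvPowerSeries.X ⟨0, h0lt⟩)) = 0 := by
    rw [hS0, hρ, ← RingHom.mem_ker, hπk]
    exact vv_mem h2
  obtain ⟨θ, hθ⟩ : ∃ θ : MvPowerSeries (Fin (n - h')) (GaloisField p n) →+*
      MvPowerSeries (Fin (n - h')) (GaloisField p n),
      ∀ f, θ f = ρ (ψ (MvPowerSeries.rename (lub2d_emb h3) f)) :=
    ⟨(ρ.comp ψ).comp (MvPowerSeries.rename (R := GaloisField p n)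
      (lub2d_emb h3)).toRingHom, fun _ => rfl⟩
  have hθi : Function.Injective θ := by
    apply lub2d_endo hN hC
    · intro j
      rw [hθ, MvPowerSeries.rename_X, hψ, hρ]
      have h4 : sIdx h h' ((lub2d_emb h3 j : Fin (1 + n - h')) : ℕ) = h' + (j : ℕ) := by
        show sIdx h h' ((j : ℕ) + 1) = h' + (j : ℕ)
        unfold sIdx
        rw [if_neg (by omega)]
        omega
      rw [h4]
      exact hπv j
    · intro c
      obtain ⟨w, rfl⟩ : ∃ w : WittVector p (GaloisField p n), WittVector.constantCoeff w = c :=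
        ⟨WittVector.teichmuller p c, WittVector.teichmuller_coeff_zero p c⟩
      rw [hθ, MvPowerSeries.rename_C, hψc]
      have h4 : algebraMap (WittVector p (GaloisField p n)) (LTRing p n ⧸ P) w =
          Ideal.Quotient.mk P (algebraMap (WittVector p (GaloisField p n)) (LTRing p n) w) := rfl
      rw [h4, hρ, hπw]
  -- every element of the kernel is divisible by `S_0`
  have hdvd : ∀ F : MvPowerSeries (Fin (1 + n - h')) (GaloisField p n), ψ F = 0 →
      MvPowerSeries.X ⟨0, h0lt⟩ ∣ F := by
    intro F hF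
    have h4 : MvPowerSeries.X ⟨0, h0lt⟩ ∣
        F - MvPowerSeries.rename (lub2d_emb h3) (MvPowerSeries.killCompl (lub2d_emb h3) F) := by
      rw [MvPowerSeries.X_dvd_iff]
      intro d hd
      have h8 : d ∈ Set.range (Finsupp.embDomain (M := ℕ) (lub2d_emb (n := n) h3)) := by
        rw [Finsupp.mem_range_embDomain_iff]
        intro i hi
        have h9 : (i : ℕ) ≠ 0 := by
          intro h10
          have h11 : i = ⟨0, h0lt⟩ := by ext; exact h10
          rw [Finset.mem_coe, Finsupp.mem_support_iff, h11] at hi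
          exact hi hd
        refine ⟨⟨(i : ℕ) - 1, by have := i.2; omega⟩, ?_⟩
        ext
        show (i : ℕ) - 1 + 1 = i
        omega
      obtain ⟨x, rfl⟩ := h8
      rw [map_sub, MvPowerSeries.coeff_embDomain_rename, MvPowerSeries.coeff_killCompl, sub_self]
    obtain ⟨G, hG⟩ := h4
    have h5 : θ (MvPowerSeries.killCompl (lub2d_emb h3) F) = 0 := by
      rw [hθ]
      have h6 : MvPowerSeries.rename (lub2d_emb h3) (MvPowerSeries.killCompl (lub2d_emb h3) F) =
          F - MvPowerSeries.X ⟨0, h0lt⟩ * G := by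
        rw [← hG]; ring
      rw [h6, map_sub, map_sub, map_mul, map_mul, hF, hρS0, map_zero, zero_mul, sub_zero]
    have h6 : MvPowerSeries.killCompl (R := GaloisField p n) (lub2d_emb h3) F = 0 := by
      apply hθi
      rw [h5, map_zero]
    rw [h6, map_zero, sub_zero] at hG
    exact ⟨G, hG⟩
  have hne : ψ (MvPowerSeries.X ⟨0, h0lt⟩) ≠ 0 := by
    rw [hS0]
    intro h4
    exact hv (Ideal.Quotient.eq_zero_iff_mem.1 h4)
  rw [injective_iff_map_eq_zero]
  intro F hF
  have hall : ∀ t : ℕ, ∃ G, F = MvPowerSeries.X ⟨0, h0lt⟩ ^ t * G ∧ ψ G = 0 := by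
    intro t
    induction t with
    | zero => exact ⟨F, by rw [pow_zero, one_mul], hF⟩
    | succ t ih =>
      obtain ⟨G, hG, hG0⟩ := ih
      obtain ⟨G', hG'⟩ := hdvd G hG0
      refine ⟨G', ?_, ?_⟩
      · rw [hG, hG']; ring
      · rw [hG', map_mul] at hG0
        exact (mul_eq_zero.1 hG0).resolve_left hne
  ext d
  rw [map_zero]
  obtain ⟨G, hG, _⟩ := hall (d ⟨0, h0lt⟩ + 1)
  have h4 : MvPowerSeries.X ⟨0, h0lt⟩ ^ (d ⟨0, h0lt⟩ + 1) ∣ F := ⟨G, hG⟩
  rw [MvPowerSeries.X_pow_dvd_iff] at h4
  exact h4 d (Nat.lt_succ_self _)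

end Crest.Agent.LUA
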