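import Mathlib
import Crest.Agent.LUB_2d
import Crest.Agent.LUA_F2

/-!
S0351 (blueprint LU), part (1), TASK LUB-3: `p`-degree of the fraction field of `A = E₀/P`.
-/

set_option autoImplicit false

noncomputable section

namespace Crest.Agent.LUA

open Crest.LubinTate Crest.Agent.LU IsLocalRing

/-- TASK LUB-3a.  Over a perfect field `κ` of characteristic `p`, every power series in `e`
variables is `Σ_{0 ≤ α_i < p} F_α^p X^α`: there are `p^e` generators over the `p`-th powers.
(The coefficient of `X^β` in `F_α` is the `p`-th root of the coefficient of `X^{pβ+α}` in `F`;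
`F_α^p` has coefficients `(coeff β F_α)^p` at `pβ` and `0` elsewhere, `MvPowerSeries.expand` and
`map_frobenius_expand`.) -/
theorem mvPowerSeries_generators (κ : Type) [Field κ] (p : ℕ) [Fact p.Prime] [CharP κ p]
    [PerfectRing κ p] (e : ℕ) :
    ∃ g : Fin (p ^ e) → MvPowerSeries (Fin e) κ, ∀ F : MvPowerSeries (Fin e) κ,
      ∃ c : Fin (p ^ e) → MvPowerSeries (Fin e) κ, F = ∑ i, c i ^ p * g i := by
  classical
  have hp : p.Prime := Fact.out
  have hp0 : p ≠ 0 := hp.ne_zero
  -- exponents
  let al : Fin (p ^ e) → (Fin e →₀ ℕ) := fun i =>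
    Finsupp.equivFunOnFinite.symm (fun j => ((finFunctionFinEquiv.symm i) j : ℕ))
  have hal : ∀ i j, al i j = ((finFunctionFinEquiv.symm i) j : ℕ) := fun i j => rfl
  refine ⟨fun i => MvPowerSeries.monomial (al i) 1, fun F => ?_⟩
  let c : Fin (p ^ e) → MvPowerSeries (Fin e) κ := fun i =>
    (fun b => (frobeniusEquiv κ p).symm (MvPowerSeries.coeff (p • b + al i) F))
  have hc : ∀ i b, MvPowerSeries.coeff b (c i) =
      (frobeniusEquiv κ p).symm (MvPowerSeries.coeff (p • b + al i) F) := fun i b => rfl
  have hcp : ∀ i b, MvPowerSeries.coeff (p • b) (c i ^ p) = MvPowerSeries.coeff (p • b + al i) F := by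
    intro i b
    rw [← MvPowerSeries.map_frobenius_expand p hp0, MvPowerSeries.coeff_map,
      MvPowerSeries.coeff_expand_smul, hc]
    exact frobenius_apply_frobeniusEquiv_symm κ p _
  have hcn : ∀ i (m : Fin e →₀ ℕ) (j : Fin e), ¬ p ∣ m j →
      MvPowerSeries.coeff m (c i ^ p) = 0 := by
    intro i m j hj
    rw [← MvPowerSeries.map_frobenius_expand p hp0, MvPowerSeries.coeff_map,
      MvPowerSeries.coeff_expand_of_not_dvd p hp0 _ hj, map_zero]
  refine ⟨c, ?_⟩
  ext m
  rw [map_sum]
  -- the unique index
  let f0 : Fin e → Fin p := fun j => ⟨m j % p, Nat.mod_lt _ hp.pos⟩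
  let i0 : Fin (p ^ e) := finFunctionFinEquiv f0
  have hi0 : ∀ j, al i0 j = m j % p := by
    intro j
    rw [hal]
    simp only [i0, Equiv.symm_apply_apply, f0]
  rw [Finset.sum_eq_single i0]
  · rw [MvPowerSeries.coeff_mul_monomial]
    have hle : al i0 ≤ m := by
      intro j
      rw [hi0]
      exact Nat.mod_le _ _
    rw [if_pos hle, mul_one]
    let b : Fin e →₀ ℕ := Finsupp.equivFunOnFinite.symm (fun j => m j / p)
    have hb : m - al i0 = p • b := by
      ext j
      rw [Finsupp.tsub_apply, hi0, Finsupp.smul_apply]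
      show m j - m j % p = p • (m j / p)
      rw [smul_eq_mul]
      have := Nat.div_add_mod (m j) p
      omega
    have hb' : p • b + al i0 = m := by
      rw [← hb]
      exact tsub_add_cancel_of_le hle
    rw [hb, hcp, hb']
  · intro i _ hi
    rw [MvPowerSeries.coeff_mul_monomial]
    split_ifs with hle
    · rw [mul_one]
      by_contra hne
      apply hi
      have hdvd : ∀ j, p ∣ (m - al i) j := by
        intro j
        by_contra hj
        exact hne (hcn i _ j hj)
      have : finFunctionFinEquiv.symm i = f0 := by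
        funext j
        apply Fin.ext
        show ((finFunctionFinEquiv.symm i) j : ℕ) = m j % p
        have h1 := hdvd j
        rw [Finsupp.tsub_apply, hal] at h1
        have h2 : ((finFunctionFinEquiv.symm i) j : ℕ) ≤ m j := hle j
        have h3 : ((finFunctionFinEquiv.symm i) j : ℕ) < p := ((finFunctionFinEquiv.symm i) j).2
        have h4 : ((finFunctionFinEquiv.symm i) j : ℕ) ≡ m j [MOD p] :=
          (Nat.modEq_iff_dvd' h2).2 h1
        have h5 : ((finFunctionFinEquiv.symm i) j : ℕ) % p = m j % p := h4
        rw [← h5, Nat.mod_eq_of_lt h3]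
      rw [← Equiv.apply_symm_apply finFunctionFinEquiv i, this]
    · rfl
  · intro h
    exact absurd (Finset.mem_univ _) h

/-- TASK LUB-3b.  Let `R → A` be an injective finite homomorphism of domains of characteristic
`p` and let `R` be generated over its `p`-th powers by `p^e` elements.  Then the fraction field of
`A` has `p`-degree `≤ p^e`, and `A` is finite over its `p`-th powers.
(`pDegLE_of_generators` for `Frac R`, `Frac A` is finite over `Frac R`, `PDegLE.extend`.) -/
theorem pDeg_of_finite {R A : Type} [CommRing R] [IsDomain R] [CommRing A] [IsDomain A]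
    {p : ℕ} [Fact p.Prime] [CharP R p] [CharP A p] (ψ : R →+* A) (hψ : Function.Injective ψ)
    (hfin : ψ.Finite) {e : ℕ} (g : Fin (p ^ e) → R)
    (hg : ∀ a : R, ∃ c : Fin (p ^ e) → R, a = ∑ i, c i ^ p * g i)
    (K : Type) [Field K] [Algebra A K] [IsFractionRing A K] [CharP K p] :
    PDegLE K p e ∧ ∃ (N : ℕ) (g' : Fin N → A), ∀ a : A, ∃ c : Fin N → A, a = ∑ i, c i ^ p * g' i := by
  classical
  letI : Algebra R A := ψ.toAlgebra
  haveI hRA : Module.Finite R A := hfin
  obtain ⟨M, s, hs⟩ := Module.Finite.exists_fin (R := R) (M := A)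
  have hrep : ∀ a : A, ∃ r : Fin M → R, a = ∑ j, ψ (r j) * s j := by
    intro a
    have ha : a ∈ Submodule.span R (Set.range s) := by rw [hs]; trivial
    obtain ⟨r, hr⟩ := (Submodule.mem_span_range_iff_exists_fun R).1 ha
    exact ⟨r, by rw [← hr]; rfl⟩
  refine ⟨?_, ?_⟩
  · -- fraction fields
    let K₀ := FractionRing R
    haveI : CharP K₀ p := charP_of_injective_algebraMap (IsFractionRing.injective R K₀) p
    have hinj : Function.Injective ((algebraMap A K).comp ψ) := by
      rw [RingHom.coe_comp]
      exact (IsFractionRing.injective A K).comp hψ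
    letI : Algebra K₀ K := (IsFractionRing.lift hinj).toAlgebra
    have hmap : ∀ r : R, algebraMap K₀ K (algebraMap R K₀ r) = algebraMap A K (ψ r) := by
      intro r
      exact IsFractionRing.lift_algebraMap hinj r
    have hint : ∀ a : A, IsIntegral K₀ (algebraMap A K a) := by
      intro a
      have h1 : IsIntegral R a := Algebra.IsIntegral.isIntegral a
      obtain ⟨P, hPm, hP⟩ := h1
      refine ⟨P.map (algebraMap R K₀), hPm.map _, ?_⟩
      rw [Polynomial.eval₂_map]
      have h2 : (algebraMap K₀ K).comp (algebraMap R K₀) = (algebraMap A K).comp (algebraMap R A) := by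
        ext r
        exact hmap r
      rw [h2, ← Polynomial.hom_eval₂, hP, map_zero]
    let T : Set K := Set.range fun j => algebraMap A K (s j)
    have hTfin : T.Finite := Set.finite_range _
    haveI : Finite T := hTfin
    haveI hfd : FiniteDimensional K₀ (IntermediateField.adjoin K₀ T) := by
      apply IntermediateField.finiteDimensional_adjoin
      rintro _ ⟨j, rfl⟩
      exact hint _
    have htop : IntermediateField.adjoin K₀ T = ⊤ := by
      rw [eq_top_iff]
      intro x _
      have hA : ∀ a : A, algebraMap A K a ∈ IntermediateField.adjoin K₀ T := by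
        intro a
        obtain ⟨r, hr⟩ := hrep a
        rw [hr, map_sum]
        refine sum_mem fun j _ => ?_
        rw [map_mul, ← hmap]
        refine mul_mem ?_ ?_
        · exact IntermediateField.algebraMap_mem _ _
        · exact IntermediateField.subset_adjoin K₀ T ⟨j, rfl⟩
      obtain ⟨a, b, hb, rfl⟩ := IsFractionRing.div_surjective (A := A) x
      exact div_mem (hA a) (hA b)
    haveI : FiniteDimensional K₀ K := by
      have h1 : FiniteDimensional K₀ (⊤ : IntermediateField K₀ K) := by
        rw [← htop]; exact hfd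
      exact LinearEquiv.finiteDimensional (IntermediateField.topEquiv (F := K₀) (E := K)).toLinearEquiv
    have h0 : PDegLE K₀ p e := pDegLE_of_generators g hg
    exact h0.extend
  · refine ⟨p ^ e * M, fun x => ψ (g (finProdFinEquiv.symm x).1) * s (finProdFinEquiv.symm x).2,
      fun a => ?_⟩
    obtain ⟨r, hr⟩ := hrep a
    choose c hc using fun j => hg (r j)
    refine ⟨fun x => ψ (c (finProdFinEquiv.symm x).2 (finProdFinEquiv.symm x).1), ?_⟩
    rw [← Equiv.sum_comp finProdFinEquiv]
    simp only [Equiv.symm_apply_apply]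
    rw [Fintype.sum_prod_type, Finset.sum_comm]
    conv_lhs => rw [hr]
    refine Finset.sum_congr rfl fun j _ => ?_
    conv_lhs => rw [hc j]
    rw [map_sum, Finset.sum_mul]
    refine Finset.sum_congr rfl fun i _ => ?_
    rw [map_mul, map_pow, mul_assoc]

end Crest.Agent.LUA
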