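import Mathlib
import Crest.Agent.LUA_R2
import Crest.Agent.LUA_R3
import Crest.Agent.LUA_T2
import Crest.Agent.LUA_F2
import Crest.Agent.LUB_3

/-!
S0351 (blueprint LU), part (5), TASK LUA-R6: the finite separable extension `K₁` of
`K = Frac(E₀/P)` in `C` generated by the roots of `V_x` and `V_x^{[N']}`, with the extended
embeddings along probes.
-/

set_option autoImplicit false

noncomputable section

namespace Crest.Agent.LUA

open Crest.LubinTate Crest.Agent.LU IsLocalRing Filter Asymptotics Topology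

/-- TASK LUA-R6a.  Two separable polynomials `f₁, f₂` over `K` (in the form: simple roots in the
algebraically closed field `C`) split in a finite separable extension `K₁` of `K` embedded in `C`:
`K₁ = IntermediateField.adjoin K (roots of f₁, f₂ in C)`
(`IntermediateField.isSeparable_adjoin_iff_isSeparable`), or the splitting field of `f₁ * f₂`. -/
theorem exists_K1 {K C : Type} [Field K] [Field C] [IsAlgClosed C] (ι : K →+* C)
    (f₁ f₂ : Polynomial K) (h1 : f₁.Monic) (h2 : f₂.Monic)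
    (hs1 : ∀ z : C, (f₁.map ι).eval z = 0 → (f₁.map ι).derivative.eval z ≠ 0)
    (hs2 : ∀ z : C, (f₂.map ι).eval z = 0 → (f₂.map ι).derivative.eval z ≠ 0) :
    ∃ (K₁ : Type) (_ : Field K₁) (_ : Algebra K K₁) (ι₁ : K₁ →+* C),
      ι₁.comp (algebraMap K K₁) = ι ∧ FiniteDimensional K K₁ ∧ Algebra.IsSeparable K K₁ ∧
      (f₁.map (algebraMap K K₁)).Splits ∧ (f₂.map (algebraMap K K₁)).Splits := by
  let _ : Algebra K C := ι.toAlgebra
  have hal : algebraMap K C = ι := rfl
  have hsep : ∀ f : Polynomial K,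
      (∀ z : C, (f.map ι).eval z = 0 → (f.map ι).derivative.eval z ≠ 0) → f.Separable := by
    intro f hf
    refine (Polynomial.isCoprime_iff_aeval_ne_zero_of_isAlgClosed K C f f.derivative).2 ?_
    intro a
    by_cases h0 : Polynomial.aeval a f = 0
    · right
      have h := hf a (by rw [Polynomial.eval_map, ← hal]; exact h0)
      rw [Polynomial.derivative_map, Polynomial.eval_map, ← hal] at h
      exact h
    · left; exact h0
  have hS1 := hsep f₁ hs1
  have hS2 := hsep f₂ hs2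
  let S : Set C := f₁.rootSet C ∪ f₂.rootSet C
  have : Finite S := ((Polynomial.rootSet_finite f₁ C).union (Polynomial.rootSet_finite f₂ C))
  have hsepS : ∀ x ∈ S, IsSeparable K x := by
    rintro x (hx | hx)
    · exact hS1.of_dvd (minpoly.dvd K x (Polynomial.aeval_eq_zero_of_mem_rootSet hx))
    · exact hS2.of_dvd (minpoly.dvd K x (Polynomial.aeval_eq_zero_of_mem_rootSet hx))
  refine ⟨IntermediateField.adjoin K S, inferInstance, inferInstance,
    algebraMap (IntermediateField.adjoin K S) C, rfl, ?_, ?_, ?_, ?_⟩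
  · exact IntermediateField.finiteDimensional_adjoin fun x hx => (hsepS x hx).isIntegral
  · exact (IntermediateField.isSeparable_adjoin_iff_isSeparable K C).2 hsepS
  · exact IntermediateField.splits_of_splits (IsAlgClosed.splits _) fun x hx =>
      IntermediateField.subset_adjoin K S (Or.inl hx)
  · exact IntermediateField.splits_of_splits (IsAlgClosed.splits _) fun x hx =>
      IntermediateField.subset_adjoin K S (Or.inr hx)

variable {p : ℕ} [Fact p.Prime] {n : ℕ} {Γ : FormalGroup (GaloisField p n)} [Γ.IsComm]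
  {H : FormalGroup (LTRing p n)} [H.IsComm]

/-- `E₀/P` has characteristic `p` if `I_h ≤ P ≠ ⊤`, `h ≥ 1`. -/
theorem charP_quot_of_le {h : ℕ} (h1 : 1 ≤ h) {P : Ideal (LTRing p n)} (hP : P ≠ ⊤)
    (hle : heightIdeal p n H h ≤ P) : CharP (LTRing p n ⧸ P) p :=
  charP_quot hP (by
    have h := vv_mem (H := H) (i := 0) (j := h) h1
    rw [vv_zero] at h
    exact hle h)

/-- TASK LUA-R6b.  The `p`-degree of `K = Frac(E₀/P)` is at most `e = 1 + n - h'`, and `A = E₀/P` is
finite over its `p`-th powers (`exists_psi`, `psi_finite`, `psi_injective`, `pDeg_of_finite`,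
`mvPowerSeries_generators`). -/
theorem pDeg_KK (hn : 1 ≤ n) (hΓ : mulSeries Γ p = PowerSeries.X ^ (p ^ n))
    (hH : IsUniversalDeformation p n Γ H) {h h' : ℕ} (h1 : 1 ≤ h) (h2 : h < h') (h3 : h' ≤ n)
    {P : Ideal (LTRing p n)} [P.IsPrime] (hle : heightIdeal p n H h ≤ P)
    (hv : vv H h ∉ P)
    (hrad : (P ⊔ Ideal.span {vv H h}).radical = heightIdeal p n H h') [CharP (KK P) p] :
    PDegLE (KK P) p (1 + n - h') ∧ ∃ (N : ℕ) (g' : Fin N → LTRing p n ⧸ P),
      ∀ a : LTRing p n ⧸ P, ∃ c : Fin N → LTRing p n ⧸ P, a = ∑ i, c i ^ p * g' i := by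
  have hPt : P ≠ ⊤ := Ideal.IsPrime.ne_top inferInstance
  have hch : CharP (LTRing p n ⧸ P) p := charP_quot_of_le h1 hPt hle
  obtain ⟨ψ, hψ, hψc⟩ := exists_psi hn hΓ hH h1 h2 h3 hle
  have hfin := psi_finite hn hΓ hH h1 h2 h3 hPt hrad ψ hψ hψc
  have hinj := psi_injective hn hΓ hH h1 h2 h3 inferInstance hle hv hrad ψ hψ hψc
  obtain ⟨g, hg⟩ := mvPowerSeries_generators (GaloisField p n) p (1 + n - h')
  have : CharP (MvPowerSeries (Fin (1 + n - h')) (GaloisField p n)) p :=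
    (RingHom.charP_iff ψ hinj p).2 hch
  have : IsDomain (MvPowerSeries (Fin (1 + n - h')) (GaloisField p n)) := hinj.isDomain ψ
  exact pDeg_of_finite ψ hinj hfin g hg (KK P)

/-- The package of data used in the proofs of BB1-BB3: a finite separable extension `K₁` of
`K = Frac(E₀/P)` in `C` over which the Weierstrass polynomials `W₁` of `V_A` and `W₂` of
`V_A^{[N']}` split, with the extension of the embeddings along every probe. -/
structure Pack {P : Ideal (LTRing p n)} [P.IsPrime] {C : Type} [NontriviallyNormedField C]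
    [CharP C p] (H : FormalGroup (LTRing p n)) (h e N' : ℕ)
    {x : LTRing p n →+* C} (hx : IsPoint P x) (K₁ : Type) [Field K₁] [Algebra (KK P) K₁]
    [CharP K₁ p] (ι₁ : K₁ →+* C) (W₁ W₂ : Polynomial (LTRing p n ⧸ P)) : Prop where
  comp : ι₁.comp (algebraMap (KK P) K₁) = fr hx
  deg : PDegLE K₁ p e
  monic₁ : W₁.Monic
  monic₂ : W₂.Monic
  split₁ : ((W₁.map (algebraMap (LTRing p n ⧸ P) (KK P))).map (algebraMap (KK P) K₁)).Splits
  split₂ : ((W₂.map (algebraMap (LTRing p n ⧸ P) (KK P))).map (algebraMap (KK P) K₁)).Splits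
  /-- `W₁` is a Weierstrass polynomial of `V_A` -/
  dvd₁ : ∃ U : PowerSeries (LTRing p n ⧸ P), IsUnit U ∧
    vA H h P = (W₁ : PowerSeries (LTRing p n ⧸ P)) * U
  simple₁ : ∀ z : C, (W₁.map (bar hx)).eval z = 0 → (W₁.map (bar hx)).derivative.eval z ≠ 0
  rts₁ : ∀ (χ : LTRing p n →+* C) (hχ : IsPoint P χ) (z : C),
    z ∈ rts (VS H h χ) ↔ (W₁.map (bar hχ)).eval z = 0
  rts₂ : ∀ (χ : LTRing p n →+* C) (hχ : IsPoint P χ) (z : C),
    z ∈ rts (VN p h (VS H h χ) N') ↔ (W₂.map (bar hχ)).eval z = 0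
  /-- extension of the embeddings along a probe -/
  probe : ∀ (χ : ℕ → LTRing p n →+* C) (hχ : IsProbe H h P x χ), ∃ σ₁ : ℕ → K₁ →+* C,
    (∀ m, (σ₁ m).comp (algebraMap (KK P) K₁) = fr (hχ.point m)) ∧
    Close ι₁ σ₁ (fun m => del H h x (χ m))

/-- TASK LUA-R6c.  The package exists: `exists_weierstrass`, `rts_VN_eq` (for `N = 1`:
`VNA p h V 1 = V`, `VN p h V 1 = V` by `cmp_X`), `weierstrass_simple`, `exists_K1` for
`f_i = W_i.map (algebraMap A K)`, `PDegLE.extend`, `pDeg_KK`, `exists_extension` with `close_fr`. -/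
theorem exists_pack (hn : 1 ≤ n) (hΓ : mulSeries Γ p = PowerSeries.X ^ (p ^ n))
    (hH : IsUniversalDeformation p n Γ H) {h h' : ℕ} (h1 : 1 ≤ h) (h2 : h < h') (h3 : h' ≤ n)
    {P : Ideal (LTRing p n)} [P.IsPrime] (hle : heightIdeal p n H h ≤ P)
    (hv : vv H h ∉ P)
    (hrad : (P ⊔ Ideal.span {vv H h}).radical = heightIdeal p n H h')
    {C : Type} [NontriviallyNormedField C] [IsUltrametricDist C] [CompleteSpace C]
    [IsAlgClosed C] [CharP C p] {x : LTRing p n →+* C} (hx : IsPoint P x) (N' : ℕ) :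
    ∃ (K₁ : Type) (_ : Field K₁) (_ : Algebra (KK P) K₁) (_ : CharP K₁ p) (ι₁ : K₁ →+* C)
      (W₁ W₂ : Polynomial (LTRing p n ⧸ P)),
      Pack H h (1 + n - h') N' hx K₁ ι₁ W₁ W₂ := by
  have hPt : P ≠ ⊤ := Ideal.IsPrime.ne_top inferInstance
  have hch : CharP (LTRing p n ⧸ P) p := charP_quot_of_le h1 hPt hle
  have hchK : CharP (KK P) p :=
    (RingHom.charP_iff (fr hx) (fr hx).injective p).2 inferInstance
  obtain ⟨W₁, U₁, hU₁, hWU₁, hm₁, hd₁, hl₁⟩ :=
    exists_weierstrass (P := P) hΓ hH (h2.le.trans h3) hPt 1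
  obtain ⟨W₂, U₂, hU₂, hWU₂, hm₂, hd₂, hl₂⟩ :=
    exists_weierstrass (P := P) hΓ hH (h2.le.trans h3) hPt N'
  have hfr : ∀ W : Polynomial (LTRing p n ⧸ P),
      (W.map (algebraMap (LTRing p n ⧸ P) (KK P))).map (fr hx) = W.map (bar hx) := by
    intro W
    ext i
    rw [Polynomial.coeff_map, Polynomial.coeff_map, Polynomial.coeff_map, fr_algebraMap]
  obtain ⟨K₁, iF, iA, ι₁, hcomp, hfd, hse, hsp₁, hsp₂⟩ := exists_K1 (fr hx)
    (W₁.map (algebraMap (LTRing p n ⧸ P) (KK P))) (W₂.map (algebraMap (LTRing p n ⧸ P) (KK P)))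
    (hm₁.map _) (hm₂.map _)
    (fun z hz => by
      rw [hfr] at hz ⊢
      exact weierstrass_simple hPt hle hv 1 hU₁ hWU₁ hm₁ hl₁ hx hz)
    (fun z hz => by
      rw [hfr] at hz ⊢
      exact weierstrass_simple hPt hle hv N' hU₂ hWU₂ hm₂ hl₂ hx hz)
  have hchK₁ : CharP K₁ p := (RingHom.charP_iff ι₁ ι₁.injective p).2 inferInstance
  have hcmp1 : ∀ {A : Type} [CommRing A] [CharP A p] (V : PowerSeries A), VNA p h V 1 = V := by
    intro A _ _ V
    show cmp V (PowerSeries.map (iterateFrobenius A p h) PowerSeries.X) = V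
    rw [PowerSeries.map_X, cmp_X]
  refine ⟨K₁, iF, iA, hchK₁, ι₁, W₁, W₂, hcomp, ?_, hm₁, hm₂, hsp₁, hsp₂, ?_, ?_, ?_, ?_, ?_⟩
  · exact (pDeg_KK hn hΓ hH h1 h2 h3 hle hv hrad).1.extend
  · refine ⟨U₁, hU₁, ?_⟩
    rw [← hWU₁, hcmp1]
  · exact fun z hz => weierstrass_simple hPt hle hv 1 hU₁ hWU₁ hm₁ hl₁ hx hz
  · intro χ hχ z
    have h := rts_VN_eq hPt hle 1 hU₁ hWU₁ hm₁ hl₁ hχ
    rw [VN_eq_VNA, hcmp1] at h
    rw [h]
    rfl
  · intro χ hχ z
    have h := rts_VN_eq hPt hle N' hU₂ hWU₂ hm₂ hl₂ hχ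
    rw [h]
    rfl
  · intro χ hχ
    have hc := close_fr hn hΓ hH h1 (h2.le.trans h3) hle hx hχ
    rw [← hcomp] at hc
    exact exists_extension ι₁ (fun m => fr (hχ.point m)) hχ.tendsto hc

end Crest.Agent.LUA
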