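import Mathlib
import Crest.Agent.LUA_T1
import Crest.Agent.LUA_F3

/-!
S0351 (blueprint LU), part (5), TASK LUA-T3: the lower bound.
-/

set_option autoImplicit false

noncomputable section

namespace Crest.Agent.LUA

open Filter Asymptotics Topology Polynomial

/-- TASK LUA-T3a.  Linear expansion of an element of `K₁^p(τ)`.
From `exists_poly_of_mem_padj` (choose `G` with degrees `< p`), `γ_j = ∂_j G(τ)`, `taylor_poly` and
`mem_range_frobenius_of_pderiv`. -/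
theorem exists_linear {K : Type*} [Field K] {p : ℕ} [Fact p.Prime] [CharP K p] {r : ℕ}
    (τ : Fin r → K) {z : K} (hz : z ∈ padj p (Set.range τ)) :
    ∃ γ : Fin r → K, (PIndep p τ → (∀ y, z ≠ y ^ p) → γ ≠ 0) ∧
      ∀ (C : Type) [NormedField C] [CharP C p] (ι : K →+* C) (σ : ℕ → K →+* C) (δ : ℕ → ℝ),
        Tendsto δ atTop (𝓝 0) → Close ι σ δ →
        (fun m => σ m z - ι z - ∑ j, ι (γ j) * (σ m (τ j) - ι (τ j))) =O[atTop]
          (fun m => δ m ^ 2) := by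
  obtain ⟨G, hG, hzG⟩ := exists_poly_of_mem_padj τ hz
  refine ⟨fun j => MvPolynomial.eval τ (MvPolynomial.pderiv j (G.map (frobenius K p))), ?_, ?_⟩
  · intro hτ hne h0
    obtain ⟨y, hy⟩ := mem_range_frobenius_of_pderiv hτ G hG (fun j => congrFun h0 j)
    exact hne y (hzG.trans hy)
  · intro C _ _ ι σ δ hδ h
    rw [hzG]
    exact taylor_poly h hδ τ G

/-- the elements with `σ z - ι z = O(η)` form a subring -/
private theorem t3_mul {K₁ C : Type} [Field K₁] [NormedField C] {ι₁ : K₁ →+* C}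
    {σ₁ : ℕ → K₁ →+* C} {δ η : ℕ → ℝ} (hδ : Tendsto δ atTop (𝓝 0)) (h : Close ι₁ σ₁ δ) {x y : K₁}
    (hx : (fun m => σ₁ m x - ι₁ x) =O[atTop] η) (hy : (fun m => σ₁ m y - ι₁ y) =O[atTop] η) :
    (fun m => σ₁ m (x * y) - ι₁ (x * y)) =O[atTop] η := by
  have hδ1 : δ =O[atTop] (fun _ => (1 : ℝ)) := hδ.isBigO_one ℝ
  have hb : (fun m => σ₁ m x) =O[atTop] (fun _ => (1 : ℝ)) := by
    have h1 : (fun m => σ₁ m x - ι₁ x) =O[atTop] (fun _ => (1 : ℝ)) := (h x).trans hδ1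
    have h2 : (fun _ : ℕ => ι₁ x) =O[atTop] (fun _ => (1 : ℝ)) :=
      isBigO_const_const _ one_ne_zero _
    have h3 := h1.add h2
    simpa using h3
  have e : (fun m => σ₁ m (x * y) - ι₁ (x * y)) =
      fun m => σ₁ m x * (σ₁ m y - ι₁ y) + (σ₁ m x - ι₁ x) * ι₁ y := by
    funext m
    rw [map_mul, map_mul]
    ring
  rw [e]
  have h4 : (fun m => σ₁ m x * (σ₁ m y - ι₁ y)) =O[atTop] (fun m => (1 : ℝ) * η m) := hb.mul hy
  have h5 : (fun m => (σ₁ m x - ι₁ x) * ι₁ y) =O[atTop] (fun m => η m * (1 : ℝ)) :=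
    hx.mul (isBigO_const_const _ one_ne_zero _)
  simp only [one_mul] at h4
  simp only [mul_one] at h5
  exact h4.add h5

private def t3R {K₁ C : Type} [Field K₁] [NormedField C] (ι₁ : K₁ →+* C)
    (σ₁ : ℕ → K₁ →+* C) {δ : ℕ → ℝ} (η : ℕ → ℝ) (hδ : Tendsto δ atTop (𝓝 0))
    (h : Close ι₁ σ₁ δ) : Subring K₁ where
  carrier := {z | (fun m => σ₁ m z - ι₁ z) =O[atTop] η}
  mul_mem' := fun hx hy => t3_mul hδ h hx hy
  one_mem' := by
    simp only [Set.mem_ofPred_eq, map_one, sub_self]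
    exact isBigO_zero _ _
  add_mem' := by
    intro x y hx hy
    have e : (fun m => σ₁ m (x + y) - ι₁ (x + y)) =
        fun m => (σ₁ m x - ι₁ x) + (σ₁ m y - ι₁ y) := by
      funext m
      rw [map_add, map_add]
      ring
    simp only [Set.mem_ofPred_eq]
    rw [e]
    exact hx.add hy
  zero_mem' := by
    simp only [Set.mem_ofPred_eq, map_zero, sub_self]
    exact isBigO_zero _ _
  neg_mem' := by
    intro x hx
    have e : (fun m => σ₁ m (-x) - ι₁ (-x)) = fun m => -(σ₁ m x - ι₁ x) := by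
      funext m
      rw [map_neg, map_neg]
      ring
    simp only [Set.mem_ofPred_eq]
    rw [e]
    exact hx.neg_left

/-- TASK LUA-T3b.  Lower bound: `K ⊆ K₁`, `W ∈ K[X]` monic, `W = ∏ (X - τ_i)` over `K₁`, the
coefficients of `W` generate `K` over `K^p`, and `δ m = max_j ‖σ m (y j) - ι (y j)‖` for finitely
many `y_j ∈ K` (given as: `δ m ≤ ‖σ m (y j) - ι (y j)‖` for some `j`, for all `m`).  Then `δ m` is
bounded by a constant times `max_i ‖σ₁ m τ_i - ι₁ τ_i‖`.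
Proof: let `η m = max_i ‖σ₁ m τ_i - ι₁ τ_i‖ = O(δ)`.  The coefficients `w_k` of `W` are polynomials
(with integer coefficients) in the `τ_i`, so `σ m w_k - ι w_k = O(η)`.  By `exists_linear` (in `K`,
with `τ` = the family of coefficients of `W`, `z = y j`)
`σ m (y j) - ι (y j) = O(η) + O(δ²)`.  Hence `δ m ≤ A η m + B δ m²` eventually, and since `δ → 0`,
`δ m ≤ 2 A η m` eventually. -/
theorem lower_bound {K K₁ C : Type} [Field K] [Field K₁] [Algebra K K₁] [NormedField C]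
    {p : ℕ} [Fact p.Prime] [CharP K p] [CharP C p] (ι₁ : K₁ →+* C) (σ₁ : ℕ → K₁ →+* C)
    {δ : ℕ → ℝ} (hδ0 : ∀ m, 0 ≤ δ m) (hδ : Tendsto δ atTop (𝓝 0)) (h : Close ι₁ σ₁ δ)
    {W : K[X]} {I : Type} [Fintype I] [Nonempty I] (τ : I → K₁)
    (hW : W.map (algebraMap K K₁) = ∏ i, (X - Polynomial.C (τ i)))
    (hgen : padj p {c : K | ∃ k, c = W.coeff k} = ⊤)
    {J : Type} [Finite J] (y : J → K)
    (hy : ∀ m, ∃ j, δ m ≤ ‖σ₁ m (algebraMap K K₁ (y j)) - ι₁ (algebraMap K K₁ (y j))‖) :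
    ∃ A : ℝ, ∀ᶠ m in atTop, ∃ i, δ m ≤ A * ‖σ₁ m (τ i) - ι₁ (τ i)‖ := by
  classical
  -- the maximum
  obtain ⟨η, hηle, hηex⟩ : ∃ η : ℕ → ℝ, (∀ m i, ‖σ₁ m (τ i) - ι₁ (τ i)‖ ≤ η m) ∧
      ∀ m, ∃ i, η m = ‖σ₁ m (τ i) - ι₁ (τ i)‖ := by
    refine ⟨fun m => Finset.univ.sup' Finset.univ_nonempty
      (fun i => ‖σ₁ m (τ i) - ι₁ (τ i)‖), ?_, ?_⟩
    · intro m i
      exact Finset.le_sup' (fun i => ‖σ₁ m (τ i) - ι₁ (τ i)‖) (Finset.mem_univ i)
    · intro m
      obtain ⟨i, _, hi⟩ := Finset.exists_mem_eq_sup' Finset.univ_nonempty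
        (fun i => ‖σ₁ m (τ i) - ι₁ (τ i)‖)
      exact ⟨i, hi⟩
  have hη0 : ∀ m, 0 ≤ η m := fun m => by
    obtain ⟨i, hi⟩ := hηex m
    rw [hi]
    exact norm_nonneg _
  -- the roots are in the subring
  have hτR : ∀ i, τ i ∈ t3R ι₁ σ₁ η hδ h := by
    intro i
    show (fun m => σ₁ m (τ i) - ι₁ (τ i)) =O[atTop] η
    refine IsBigO.of_bound 1 (Filter.Eventually.of_forall (fun m => ?_))
    rw [one_mul, Real.norm_of_nonneg (hη0 m)]
    exact hηle m i
  -- the coefficients are in the subring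
  have hwR : ∀ k, algebraMap K K₁ (W.coeff k) ∈ t3R ι₁ σ₁ η hδ h := by
    intro k
    have h1 : algebraMap K K₁ (W.coeff k) = (∏ i, (X - Polynomial.C (τ i))).coeff k := by
      rw [← hW, Polynomial.coeff_map]
    have h2 : (∏ i, (X - Polynomial.C (τ i))) =
        (∏ i, (X - Polynomial.C (⟨τ i, hτR i⟩ : t3R ι₁ σ₁ η hδ h))).map
          (t3R ι₁ σ₁ η hδ h).subtype := by
      rw [Polynomial.map_prod]
      refine Finset.prod_congr rfl (fun i _ => ?_)
      rw [Polynomial.map_sub, Polynomial.map_X, Polynomial.map_C]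
      rfl
    rw [h1, h2, Polynomial.coeff_map]
    exact Subtype.mem _
  -- the family of coefficients
  set w : Fin (W.natDegree + 1) → K := fun k => W.coeff k with hwdef
  have htop : padj p (Set.range w) = ⊤ := by
    rw [eq_top_iff, ← hgen]
    unfold padj
    rw [Subfield.closure_le]
    rintro x (hx | ⟨k, rfl⟩)
    · exact Subfield.subset_closure (Or.inl hx)
    · rcases Nat.lt_or_ge k (W.natDegree + 1) with hk | hk
      · exact Subfield.subset_closure (Or.inr ⟨⟨k, hk⟩, rfl⟩)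
      · rw [Polynomial.coeff_eq_zero_of_natDegree_lt (by omega)]
        exact Subfield.zero_mem _
  have hclose : Close (ι₁.comp (algebraMap K K₁)) (fun m => (σ₁ m).comp (algebraMap K K₁)) δ :=
    fun z => h (algebraMap K K₁ z)
  -- estimate for each `y j`
  have hyj : ∀ j, ∃ A B : ℝ, 0 ≤ A ∧ 0 ≤ B ∧ ∀ᶠ m in atTop,
      ‖σ₁ m (algebraMap K K₁ (y j)) - ι₁ (algebraMap K K₁ (y j))‖ ≤ A * η m + B * δ m ^ 2 := by
    intro j
    have hz : y j ∈ padj p (Set.range w) := by rw [htop]; trivial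
    obtain ⟨γ, _, hγ⟩ := exists_linear w hz
    have h1 := hγ C (ι₁.comp (algebraMap K K₁)) (fun m => (σ₁ m).comp (algebraMap K K₁)) δ hδ
      hclose
    simp only [RingHom.comp_apply] at h1
    have h2 : (fun m => ∑ k, ι₁ (algebraMap K K₁ (γ k)) *
        (σ₁ m (algebraMap K K₁ (w k)) - ι₁ (algebraMap K K₁ (w k)))) =O[atTop] η := by
      refine IsBigO.fun_sum (fun k _ => ?_)
      exact (hwR k : (fun m => σ₁ m (algebraMap K K₁ (w k)) -
        ι₁ (algebraMap K K₁ (w k))) =O[atTop] η).const_mul_left _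
    obtain ⟨A, hA, h3⟩ := h2.exists_nonneg
    obtain ⟨B, hB, h4⟩ := h1.exists_nonneg
    refine ⟨A, B, hA, hB, ?_⟩
    filter_upwards [h3.bound, h4.bound] with m h5 h6
    rw [Real.norm_of_nonneg (hη0 m)] at h5
    rw [Real.norm_of_nonneg (sq_nonneg (δ m))] at h6
    have h7 : σ₁ m (algebraMap K K₁ (y j)) - ι₁ (algebraMap K K₁ (y j)) =
        (∑ k, ι₁ (algebraMap K K₁ (γ k)) *
        (σ₁ m (algebraMap K K₁ (w k)) - ι₁ (algebraMap K K₁ (w k)))) +
        (σ₁ m (algebraMap K K₁ (y j)) - ι₁ (algebraMap K K₁ (y j)) -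
          ∑ k, ι₁ (algebraMap K K₁ (γ k)) *
        (σ₁ m (algebraMap K K₁ (w k)) - ι₁ (algebraMap K K₁ (w k)))) := by
      ring
    rw [h7]
    exact (norm_add_le _ _).trans (add_le_add h5 h6)
  choose A B hA hB hAB using hyj
  cases nonempty_fintype J
  have hall : ∀ᶠ m in atTop, ∀ j,
      ‖σ₁ m (algebraMap K K₁ (y j)) - ι₁ (algebraMap K K₁ (y j))‖ ≤
        A j * η m + B j * δ m ^ 2 := Filter.eventually_all.2 hAB
  set A0 := ∑ j, A j with hA0
  set B0 := ∑ j, B j with hB0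
  have hB00 : 0 ≤ B0 := Finset.sum_nonneg (fun j _ => hB j)
  have hsmall : ∀ᶠ m in atTop, B0 * δ m ≤ 1 / 2 := by
    have h1 : Tendsto (fun m => B0 * δ m) atTop (𝓝 (B0 * 0)) := hδ.const_mul B0
    rw [mul_zero] at h1
    exact h1.eventually (ge_mem_nhds (by norm_num))
  refine ⟨2 * A0, ?_⟩
  filter_upwards [hall, hsmall] with m h1 h2
  obtain ⟨i, hi⟩ := hηex m
  refine ⟨i, ?_⟩
  rw [← hi]
  obtain ⟨j, hj⟩ := hy m
  have h3 : A j ≤ A0 := Finset.single_le_sum (fun j _ => hA j) (Finset.mem_univ j)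
  have h4 : B j ≤ B0 := Finset.single_le_sum (fun j _ => hB j) (Finset.mem_univ j)
  have h5 : δ m ≤ A0 * η m + B0 * δ m ^ 2 := by
    refine (hj.trans (h1 j)).trans (add_le_add ?_ ?_)
    · exact mul_le_mul_of_nonneg_right h3 (hη0 m)
    · exact mul_le_mul_of_nonneg_right h4 (sq_nonneg _)
  have h6 : B0 * δ m ^ 2 ≤ 1 / 2 * δ m := by
    have := mul_le_mul_of_nonneg_right h2 (hδ0 m)
    calc B0 * δ m ^ 2 = B0 * δ m * δ m := by ring
      _ ≤ 1 / 2 * δ m := this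
  linarith

end Crest.Agent.LUA
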