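import Mathlib
import Crest.Agent.LUA_R6
import Crest.Agent.LUA_T3
import Crest.Agent.LUA_F1
import Crest.Agent.LUA_F4

/-!
S0351 (blueprint LU), part (5), TASK LUA-R7: first order relations between roots (black boxes
BB1, BB2).
-/

set_option autoImplicit false

noncomputable section

namespace Crest.Agent.LUA

open Crest.LubinTate Crest.Agent.LU IsLocalRing Filter Asymptotics Topology

variable {p : ℕ} [Fact p.Prime] {n : ℕ} {H : FormalGroup (LTRing p n)}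
  {P : Ideal (LTRing p n)} [P.IsPrime] {C : Type} [NontriviallyNormedField C]
  [IsUltrametricDist C] [CompleteSpace C] [IsAlgClosed C] [CharP C p] {h e N' : ℕ}
  {x : LTRing p n →+* C} {hx : IsPoint P x} {K₁ : Type} [Field K₁] [Algebra (KK P) K₁]
  [CharP K₁ p] {ι₁ : K₁ →+* C} {W₁ W₂ : Polynomial (LTRing p n ⧸ P)}

/-- A root in `C` of a polynomial splitting over `K₁` comes from `K₁`. -/
private theorem r7_root {K₁ C : Type} [Field K₁] [Field C] (ι : K₁ →+* C) {G : Polynomial K₁}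
    (hG : G.Splits) (hG0 : G ≠ 0) {z : C} (hz : (G.map ι).eval z = 0) : ∃ y, ι y = z := by
  rw [Polynomial.eval_map, hG.eq_prod_roots] at hz
  rw [Polynomial.eval₂_mul, Polynomial.eval₂_C, mul_eq_zero] at hz
  rcases hz with hm | hm
  · exfalso
    rw [map_eq_zero, Polynomial.leadingCoeff_eq_zero] at hm
    exact hG0 hm
  · rw [Polynomial.eval₂_multiset_prod, Multiset.prod_eq_zero_iff, Multiset.map_map,
      Multiset.mem_map] at hm
    obtain ⟨w, _, hw2⟩ := hm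
    refine ⟨w, ?_⟩
    simp only [Function.comp_apply, Polynomial.eval₂_sub, Polynomial.eval₂_X,
      Polynomial.eval₂_C] at hw2
    exact (sub_eq_zero.1 hw2).symm

private theorem r7_fr {P : Ideal (LTRing p n)} [P.IsPrime] {C : Type} [NormedField C]
    {χ : LTRing p n →+* C} (hχ : IsPoint P χ) :
    (fr hχ).comp (algebraMap (LTRing p n ⧸ P) (KK P)) = bar hχ := by
  ext a
  simp

private theorem r7_map {P : Ideal (LTRing p n)} [P.IsPrime] {C : Type} [NormedField C]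
    {K₁ : Type} [Field K₁] [Algebra (KK P) K₁] {χ : LTRing p n →+* C} (hχ : IsPoint P χ)
    {τ : K₁ →+* C} (hτ : τ.comp (algebraMap (KK P) K₁) = fr hχ)
    (W : Polynomial (LTRing p n ⧸ P)) :
    (W.map (algebraMap (LTRing p n ⧸ P) (KK P))).map (τ.comp (algebraMap (KK P) K₁)) =
      W.map (bar hχ) := by
  rw [hτ, Polynomial.map_map, r7_fr]

private theorem r7_ne {P : Ideal (LTRing p n)} [P.IsPrime]
    {W : Polynomial (LTRing p n ⧸ P)} (hW : W.Monic) :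
    W.map (algebraMap (LTRing p n ⧸ P) (KK P)) ≠ 0 := (hW.map _).ne_zero

/-- TASK LUA-R7a.  Roots in `C` come from `K₁`. -/
theorem Pack.exists_preimage₁ (S : Pack H h e N' hx K₁ ι₁ W₁ W₂) {z : C}
    (hz : z ∈ rts (VS H h x)) : ∃ y : K₁, ι₁ y = z := by
  refine r7_root ι₁ S.split₁ ((S.monic₁.map _).map _).ne_zero ?_
  rw [Polynomial.map_map, r7_map hx S.comp]
  exact (S.rts₁ x hx z).1 hz

theorem Pack.exists_preimage₂ (S : Pack H h e N' hx K₁ ι₁ W₁ W₂) {z : C}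
    (hz : z ∈ rts (VN p h (VS H h x) N')) : ∃ y : K₁, ι₁ y = z := by
  refine r7_root ι₁ S.split₂ ((S.monic₂.map _).map _).ne_zero ?_
  rw [Polynomial.map_map, r7_map hx S.comp]
  exact (S.rts₂ x hx z).1 hz

/-- TASK LUA-R7b.  Along a probe, with `σ₁` as in `Pack.probe`, a sequence of roots converging to
`ι₁ y` is eventually `σ₁ m y` (`eventually_eq_root`). -/
theorem Pack.eventually_eq₁ (S : Pack H h e N' hx K₁ ι₁ W₁ W₂) {χ : ℕ → LTRing p n →+* C}
    (hχ : IsProbe H h P x χ) {σ₁ : ℕ → K₁ →+* C}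
    (hσ : ∀ m, (σ₁ m).comp (algebraMap (KK P) K₁) = fr (hχ.point m))
    (hc : Close ι₁ σ₁ (fun m => del H h x (χ m))) {t : ℕ → C} {y : K₁}
    (ht : ∀ᶠ m in atTop, t m ∈ rts (VS H h (χ m))) (hlim : Tendsto t atTop (𝓝 (ι₁ y))) :
    ∀ᶠ m in atTop, t m = σ₁ m y := by
  refine eventually_eq_root ι₁ σ₁ hχ.tendsto hc (r7_ne S.monic₁) S.split₁ ?_ hlim
  filter_upwards [ht] with m hm
  rw [r7_map (hχ.point m) (hσ m)]
  exact (S.rts₁ (χ m) (hχ.point m) (t m)).1 hm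

theorem Pack.eventually_eq₂ (S : Pack H h e N' hx K₁ ι₁ W₁ W₂) {χ : ℕ → LTRing p n →+* C}
    (hχ : IsProbe H h P x χ) {σ₁ : ℕ → K₁ →+* C}
    (hσ : ∀ m, (σ₁ m).comp (algebraMap (KK P) K₁) = fr (hχ.point m))
    (hc : Close ι₁ σ₁ (fun m => del H h x (χ m))) {t : ℕ → C} {y : K₁}
    (ht : ∀ᶠ m in atTop, t m ∈ rts (VN p h (VS H h (χ m)) N'))
    (hlim : Tendsto t atTop (𝓝 (ι₁ y))) :
    ∀ᶠ m in atTop, t m = σ₁ m y := by
  refine eventually_eq_root ι₁ σ₁ hχ.tendsto hc (r7_ne S.monic₂) S.split₂ ?_ hlim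
  filter_upwards [ht] with m hm
  rw [r7_map (hχ.point m) (hσ m)]
  exact (S.rts₂ (χ m) (hχ.point m) (t m)).1 hm

/-- TASK LUA-R7c.  A `p`-dependent family of roots satisfies a linear relation to first order.
(`τ i = ι₁ (y i)`, `y u ∈ K₁^p(y j : j ≠ u)`: apply `exists_linear` to the family
`fun j => if j = u then 0 else y j`, with values `γ`; take `c u = -1`, `c j = ι₁ (γ j)`; use
`Pack.probe`, `Pack.eventually_eq₁`.) -/
theorem Pack.relation_of_not_pindep (S : Pack H h e N' hx K₁ ι₁ W₁ W₂) {r : ℕ} (y : Fin r → K₁)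
    (hy : ¬ PIndep p y) :
    ∃ c : Fin r → C, c ≠ 0 ∧ ∀ χ, IsProbe H h P x χ → ∀ t : ℕ → Fin r → C,
      (∀ i, ∀ᶠ m in atTop, t m i ∈ rts (VS H h (χ m))) →
      (∀ i, Tendsto (fun m => t m i) atTop (𝓝 (ι₁ (y i)))) →
      (fun m => ∑ i, c i * (t m i - ι₁ (y i))) =O[atTop] (fun m => (del H h x (χ m)) ^ 2) := by
  classical
  unfold PIndep at hy
  push Not at hy
  obtain ⟨u, hu⟩ := hy
  set τ : Fin r → K₁ := fun j => if j = u then 0 else y j with hτ
  have hz : y u ∈ padj p (Set.range τ) := by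
    refine padj_mono p ?_ hu
    rintro _ ⟨j, hj, rfl⟩
    refine ⟨j, ?_⟩
    rw [hτ]
    exact if_neg hj
  obtain ⟨γ, -, hγ⟩ := exists_linear τ hz
  refine ⟨fun j => if j = u then -1 else ι₁ (γ j), ?_, ?_⟩
  · intro h0
    have h1 := congrFun h0 u
    simp at h1
  · intro χ hχ t ht hlim
    obtain ⟨σ₁, hσ, hc⟩ := S.probe χ hχ
    have heq : ∀ᶠ m in atTop, ∀ i, t m i = σ₁ m (y i) :=
      Filter.eventually_all.2 fun i => S.eventually_eq₁ hχ hσ hc (ht i) (hlim i)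
    have h1 := (hγ C ι₁ σ₁ _ hχ.tendsto hc).neg_left
    refine h1.congr' ?_ (Filter.EventuallyEq.refl _ _)
    filter_upwards [heq] with m hm
    have e1 : ∑ j, ι₁ (γ j) * (σ₁ m (τ j) - ι₁ (τ j)) =
        ∑ j, if j = u then 0 else ι₁ (γ j) * (σ₁ m (y j) - ι₁ (y j)) := by
      refine Finset.sum_congr rfl fun j _ => ?_
      by_cases hj : j = u
      · rw [hτ]
        simp [hj]
      · rw [hτ]
        simp [hj]
    have e2 : ∑ i, (if i = u then (-1 : C) else ι₁ (γ i)) * (t m i - ι₁ (y i)) =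
        ∑ i, ((if i = u then -(σ₁ m (y i) - ι₁ (y i)) else 0) +
          (if i = u then 0 else ι₁ (γ i) * (σ₁ m (y i) - ι₁ (y i)))) := by
      refine Finset.sum_congr rfl fun j _ => ?_
      rw [hm j]
      by_cases hj : j = u
      · simp [hj]
      · simp [hj]
    rw [e1, e2, Finset.sum_add_distrib, Finset.sum_ite_eq' Finset.univ u]
    simp
    ring

/-- TASK LUA-R7d (BB2).  `y : Fin e → K₁` `p`-independent, `y₀ ∈ K₁`, `J ∈ ℕ`.  Let `j ≤ J` be the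
largest with `y₀ = z^{p^j}` for some `z ∈ K₁`; `z ∈ K₁ = K₁^p(y)` (`padj_eq_top_of_pindep`), and
`exists_linear` gives `γ`, nonzero if `j < J` (then `z` is not a `p`-th power).  Along a probe
`t₀ m = σ₁ m y₀ = (σ₁ m z)^{p^j}`, so `t₀ m - ι₁ y₀ = (σ₁ m z - ι₁ z)^{p^j}` for large `m`; take
`ε m = σ₁ m z - ι₁ z` for these `m` and any `p^j`-th root otherwise. -/
theorem Pack.expansion (S : Pack H h e N' hx K₁ ι₁ W₁ W₂) (y : Fin e → K₁)
    (hy : PIndep p y) (y₀ : K₁) (J : ℕ) :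
    ∃ j ≤ J, ∃ γ : Fin e → C, (j < J → γ ≠ 0) ∧
      ∀ χ, IsProbe H h P x χ → ∀ (t : ℕ → Fin e → C) (t₀ : ℕ → C),
        (∀ i, ∀ᶠ m in atTop, t m i ∈ rts (VS H h (χ m))) →
        (∀ i, Tendsto (fun m => t m i) atTop (𝓝 (ι₁ (y i)))) →
        (∀ᶠ m in atTop, t₀ m ∈ rts (VN p h (VS H h (χ m)) N')) →
        Tendsto t₀ atTop (𝓝 (ι₁ y₀)) →
        ∃ ε : ℕ → C, (∀ m, ε m ^ (p ^ j) = t₀ m - ι₁ y₀) ∧
          (fun m => ε m - ∑ i, γ i * (t m i - ι₁ (y i))) =O[atTop]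
            (fun m => (del H h x (χ m)) ^ 2) := by
  classical
  have hpp : p.Prime := Fact.out
  set Q : ℕ → Prop := fun j => ∃ z : K₁, y₀ = z ^ (p ^ j) with hQ
  have hQ0 : Q 0 := ⟨y₀, by simp⟩
  have hQj : Q (Nat.findGreatest Q J) := Nat.findGreatest_spec (Nat.zero_le J) hQ0
  obtain ⟨z, hz⟩ := hQj
  have hztop : z ∈ padj p (Set.range y) := by
    rw [padj_eq_top_of_pindep S.deg hy]
    trivial
  obtain ⟨γ, hγ0, hγ⟩ := exists_linear y hztop
  refine ⟨Nat.findGreatest Q J, Nat.findGreatest_le J, fun i => ι₁ (γ i), ?_, ?_⟩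
  · intro hlt h0
    refine hγ0 hy ?_ ?_
    · intro w hw
      refine Nat.findGreatest_is_greatest (Nat.lt_succ_self (Nat.findGreatest Q J)) hlt ?_
      refine ⟨w, ?_⟩
      rw [hz, hw, ← pow_mul, ← pow_succ']
    · funext i
      have h1 := congrFun h0 i
      exact (map_eq_zero ι₁).1 h1
  · intro χ hχ t t₀ ht hlim ht₀ hlim₀
    obtain ⟨σ₁, hσ, hc⟩ := S.probe χ hχ
    have heq : ∀ᶠ m in atTop, ∀ i, t m i = σ₁ m (y i) :=
      Filter.eventually_all.2 fun i => S.eventually_eq₁ hχ hσ hc (ht i) (hlim i)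
    have heq₀ : ∀ᶠ m in atTop, t₀ m = σ₁ m y₀ := S.eventually_eq₂ hχ hσ hc ht₀ hlim₀
    have hroot : ∀ m, ∃ ε : C, ε ^ (p ^ Nat.findGreatest Q J) = t₀ m - ι₁ y₀ ∧
        (t₀ m = σ₁ m y₀ → ε = σ₁ m z - ι₁ z) := by
      intro m
      by_cases hm : t₀ m = σ₁ m y₀
      · refine ⟨σ₁ m z - ι₁ z, ?_, fun _ => rfl⟩
        rw [sub_pow_char_pow, ← map_pow, ← map_pow, ← hz, hm]
      · obtain ⟨ε, hε⟩ := IsAlgClosed.exists_pow_nat_eq (t₀ m - ι₁ y₀)
          (pow_pos hpp.pos (Nat.findGreatest Q J))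
        exact ⟨ε, hε, fun h => absurd h hm⟩
    choose ε hε hε' using hroot
    refine ⟨ε, hε, ?_⟩
    refine (hγ C ι₁ σ₁ _ hχ.tendsto hc).congr' ?_ (Filter.EventuallyEq.refl _ _)
    filter_upwards [heq, heq₀] with m hm hm₀
    rw [hε' m hm₀]
    congr 1
    refine Finset.sum_congr rfl fun j _ => ?_
    rw [hm j]

end Crest.Agent.LUA
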