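import Mathlib
import Crest.Agent.LUA_R7

/-!
S0351 (blueprint LU), part (5), TASK LUA-R8: the roots of `V_x` control the displacement (BB3).
-/

set_option autoImplicit false

noncomputable section

namespace Crest.Agent.LUA

open Crest.LubinTate Crest.Agent.LU IsLocalRing Filter Asymptotics Topology

variable {p : ℕ} [Fact p.Prime] {n : ℕ} {Γ : FormalGroup (GaloisField p n)} [Γ.IsComm]
  {H : FormalGroup (LTRing p n)} [H.IsComm]

/-- TASK LUA-R8a.  The coefficients of the Weierstrass polynomial of `V_A` generate `K` over `K^p`: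
a derivation `D` of `A` killing the coefficients of `W` satisfies `V ∣ D V`
(`V = W U`, `mapD_mul`, `mapD D W = 0`), hence is zero (`derivation_eq_zero`); then
`derivation_frac_eq_zero` and `padj_eq_top_of_derivation`. -/
theorem padj_weierstrass_eq_top (hn : 1 ≤ n) (hΓ : mulSeries Γ p = PowerSeries.X ^ (p ^ n))
    (hH : IsUniversalDeformation p n Γ H) {h h' : ℕ} (h1 : 1 ≤ h) (h2 : h < h') (h3 : h' ≤ n)
    {P : Ideal (LTRing p n)} [P.IsPrime] (hle : heightIdeal p n H h ≤ P)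
    (hv : vv H h ∉ P)
    (hrad : (P ⊔ Ideal.span {vv H h}).radical = heightIdeal p n H h') [CharP (KK P) p]
    {W : Polynomial (LTRing p n ⧸ P)}
    (hW : ∃ U : PowerSeries (LTRing p n ⧸ P), IsUnit U ∧
      vA H h P = (W : PowerSeries (LTRing p n ⧸ P)) * U) :
    padj p {c : KK P | ∃ k, c = (W.map (algebraMap (LTRing p n ⧸ P) (KK P))).coeff k} = ⊤ := by
  have hPp : P.IsPrime := inferInstance
  have hA : CharP (LTRing p n ⧸ P) p := charP_quot_of_le h1 hPp.ne_top hle
  obtain ⟨hdeg, N, g', hg'⟩ := pDeg_KK hn hΓ hH h1 h2 h3 hle hv hrad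
  obtain ⟨U, hU, hVW⟩ := hW
  refine padj_eq_top_of_derivation hdeg.finite _ fun D hD => ?_
  refine derivation_frac_eq_zero g' hg' {c : LTRing p n ⧸ P | ∃ k, c = W.coeff k} ?_ D ?_
  · intro D hD
    obtain ⟨e1, e2, e3⟩ := vA_spec (H := H) hle
    have hV1 : PowerSeries.coeff 1 (vA H h P) ≠ 0 := by
      have h0 := e3 0
      rw [pow_zero, add_zero] at h0
      rw [h0]
      intro hz
      exact hv (Ideal.Quotient.eq_zero_iff_mem.1 hz)
    refine derivation_eq_zero hPp hn hΓ hH h1 e1 e2 hV1 D ?_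
    have hDW : (mapD D (W : PowerSeries (LTRing p n ⧸ P)) : PowerSeries (LTRing p n ⧸ P)) = 0 := by
      ext d
      have h4 : PowerSeries.coeff d (mapD D (W : PowerSeries (LTRing p n ⧸ P)) :
          PowerSeries (LTRing p n ⧸ P)) = D (PowerSeries.coeff d
            (W : PowerSeries (LTRing p n ⧸ P))) := rfl
      rw [h4, Polynomial.coeff_coe, hD _ ⟨d, rfl⟩, map_zero]
    have h5 : (mapD D (vA H h P) : PowerSeries (LTRing p n ⧸ P)) =
        (W : PowerSeries (LTRing p n ⧸ P)) * (mapD D U : PowerSeries (LTRing p n ⧸ P)) := by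
      have h6 := mapD_mul D (σ := Unit) (W : PowerSeries (LTRing p n ⧸ P)) U
      rw [hVW]
      refine h6.trans ?_
      have h7 : (mapD D (W : PowerSeries (LTRing p n ⧸ P)) : MvPowerSeries Unit (LTRing p n ⧸ P)) =
        0 := hDW
      rw [h7, zero_mul, add_zero]
    rw [h5, hVW]
    obtain ⟨u, rfl⟩ := hU
    refine ⟨(↑u⁻¹ : PowerSeries (LTRing p n ⧸ P)) * mapD D (u : PowerSeries (LTRing p n ⧸ P)), ?_⟩
    have h8 : (u : PowerSeries (LTRing p n ⧸ P)) * (↑u⁻¹ : PowerSeries (LTRing p n ⧸ P)) = 1 :=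
      u.mul_inv
    calc (W : PowerSeries (LTRing p n ⧸ P)) *
          (mapD D (u : PowerSeries (LTRing p n ⧸ P)) : PowerSeries (LTRing p n ⧸ P))
        = (W : PowerSeries (LTRing p n ⧸ P)) *
          ((u : PowerSeries (LTRing p n ⧸ P)) * (↑u⁻¹ : PowerSeries (LTRing p n ⧸ P))) *
          (mapD D (u : PowerSeries (LTRing p n ⧸ P)) : PowerSeries (LTRing p n ⧸ P)) := by
          rw [h8, mul_one]
      _ = _ := by ring
  · rintro s ⟨k, rfl⟩
    exact hD _ ⟨k, (Polynomial.coeff_map _ _).symm⟩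

/-- The value at `0`. -/
private theorem r8_ev1_zero {C : Type} [NontriviallyNormedField C] [IsUltrametricDist C]
    [CompleteSpace C] (f : PowerSeries C) (h0 : PowerSeries.coeff 0 f = 0) : ev1 f 0 = 0 := by
  rw [ev1_eq, tsum_eq_single 0]
  · rw [h0, zero_mul]
  · intro i hi
    rw [zero_pow hi, mul_zero]

/-- TASK LUA-R8b (BB3).  From `lower_bound` with `I = rts (VS H h x)` (finite, contains `0`),
`τ = ` preimages in `K₁` (`W₁` has simple roots, so `W₁ = ∏ (X - τ)` over `K₁`), `y_j` the classes of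
`v_{h+j}`, `j : Fin (n - h)` (`del` is the maximum over a nonempty finite set). -/
theorem roots_control (hn : 1 ≤ n) (hΓ : mulSeries Γ p = PowerSeries.X ^ (p ^ n))
    (hH : IsUniversalDeformation p n Γ H) {h h' : ℕ} (h1 : 1 ≤ h) (h2 : h < h') (h3 : h' ≤ n)
    {P : Ideal (LTRing p n)} (hP : P.IsPrime) (hle : heightIdeal p n H h ≤ P)
    (hv : vv H h ∉ P)
    (hrad : (P ⊔ Ideal.span {vv H h}).radical = heightIdeal p n H h')
    {C : Type} [NontriviallyNormedField C] [IsUltrametricDist C] [CompleteSpace C]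
    [IsAlgClosed C] [CharP C p] {x : LTRing p n →+* C} (hx : IsPoint P x)
    {χ : ℕ → LTRing p n →+* C} (hχ : IsProbe H h P x χ) (t : ℕ → rts (VS H h x) → C)
    (ht : ∀ τ, ∀ᶠ m in atTop, t m τ ∈ rts (VS H h (χ m)))
    (hlim : ∀ τ : rts (VS H h x), Tendsto (fun m => t m τ) atTop (𝓝 (τ : C))) :
    ∃ K : ℝ, ∀ᶠ m in atTop, ∃ τ : rts (VS H h x), del H h x (χ m) ≤ K * ‖t m τ - τ‖ := by
  classical
  have := hP
  obtain ⟨K₁, _, _, _, ι₁, W₁, W₂, S⟩ := exists_pack hn hΓ hH h1 h2 h3 hle hv hrad hx 0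
  obtain ⟨σ₁, hσ, hc⟩ := S.probe χ hχ
  have hA : CharP (LTRing p n ⧸ P) p := charP_quot_of_le h1 hP.ne_top hle
  have hK : CharP (KK P) p :=
    charP_of_injective_algebraMap (IsFractionRing.injective (LTRing p n ⧸ P) (KK P)) p
  have hgen := padj_weierstrass_eq_top hn hΓ hH h1 h2 h3 hle hv hrad S.dvd₁
  set W : Polynomial (KK P) := W₁.map (algebraMap (LTRing p n ⧸ P) (KK P)) with hWdef
  have hWm : (W.map (algebraMap (KK P) K₁)).Monic := (S.monic₁.map _).map _
  set L : List K₁ := (W.map (algebraMap (KK P) K₁)).roots.toList with hL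
  have hprod : W.map (algebraMap (KK P) K₁) =
      ∏ i : Fin L.length, (Polynomial.X - Polynomial.C (L[i.1])) := by
    conv_lhs => rw [S.split₁.eq_prod_roots_of_monic hWm]
    rw [Fin.prod_univ_fun_getElem L (fun a => Polynomial.X - Polynomial.C a), hL,
      ← Multiset.prod_coe, ← Multiset.map_coe, Multiset.coe_toList]
  have hroot : ∀ a ∈ L, (W.map (algebraMap (KK P) K₁)).eval a = 0 := by
    intro a ha
    rw [hL, Multiset.mem_toList] at ha
    exact (Polynomial.mem_roots'.1 ha).2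
  have hmapC : ∀ a : K₁, (W₁.map (bar hx)).eval (ι₁ a) =
      ι₁ ((W.map (algebraMap (KK P) K₁)).eval a) := by
    intro a
    have e1 : W₁.map (bar hx) = (W.map (algebraMap (KK P) K₁)).map ι₁ := by
      rw [hWdef, Polynomial.map_map, Polynomial.map_map]
      congr 1
      ext b
      show bar hx (Ideal.Quotient.mk P b) = ι₁ (algebraMap (KK P) K₁
        (algebraMap (LTRing p n ⧸ P) (KK P) (Ideal.Quotient.mk P b)))
      have e2 := congrArg (fun f : KK P →+* C => f (algebraMap (LTRing p n ⧸ P) (KK P)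
        (Ideal.Quotient.mk P b))) S.comp
      have e3 : ι₁ (algebraMap (KK P) K₁ (algebraMap (LTRing p n ⧸ P) (KK P)
        (Ideal.Quotient.mk P b))) = fr hx (algebraMap (LTRing p n ⧸ P) (KK P)
        (Ideal.Quotient.mk P b)) := e2
      rw [e3, fr_algebraMap]
    rw [e1, Polynomial.eval_map, Polynomial.eval₂_at_apply]
  have hmem : ∀ i : Fin L.length, ι₁ (L[i.1]) ∈ rts (VS H h x) := by
    intro i
    rw [S.rts₁ x hx, hmapC, hroot _ (List.getElem_mem i.2), map_zero]
  -- there is a root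
  have hne : Nonempty (Fin L.length) := by
    have h0 : (0 : C) ∈ rts (VS H h x) := by
      refine ⟨by rw [norm_zero]; exact one_pos, r8_ev1_zero _ ?_⟩
      show PowerSeries.coeff 0 (PowerSeries.mk fun i =>
        PowerSeries.coeff (p ^ h * i) (mulSeries (H.map x) p)) = 0
      rw [PowerSeries.coeff_mk, mul_zero, PowerSeries.coeff_zero_eq_constantCoeff_apply]
      exact constantCoeff_mulSeries _ _
    rw [S.rts₁ x hx] at h0
    have h00 : ι₁ ((W.map (algebraMap (KK P) K₁)).eval 0) = 0 := by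
      rw [← hmapC, map_zero]
      exact h0
    rw [map_eq_zero] at h00
    have h0' : (0 : K₁) ∈ L := by
      rw [hL, Multiset.mem_toList, Polynomial.mem_roots']
      exact ⟨hWm.ne_zero, h00⟩
    exact ⟨⟨0, List.length_pos_of_mem h0'⟩⟩
  have hδ0 : ∀ m, 0 ≤ del H h x (χ m) := fun m => del_nonneg h x (χ m)
  have : Nonempty (Fin (n - h)) := ⟨⟨0, by omega⟩⟩
  have hy : ∀ m, ∃ j : Fin (n - h), del H h x (χ m) ≤
      ‖σ₁ m (algebraMap (KK P) K₁ (algebraMap (LTRing p n ⧸ P) (KK P)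
          (Ideal.Quotient.mk P (vv H (h + j))))) -
        ι₁ (algebraMap (KK P) K₁ (algebraMap (LTRing p n ⧸ P) (KK P)
          (Ideal.Quotient.mk P (vv H (h + j)))))‖ := by
    intro m
    obtain ⟨j, hj⟩ := exists_eq_ciSup_of_finite
      (f := fun j : Fin (n - h) => ‖x (vv H (h + j)) - χ m (vv H (h + j))‖)
    refine ⟨j, ?_⟩
    have e1 : ι₁ (algebraMap (KK P) K₁ (algebraMap (LTRing p n ⧸ P) (KK P)
        (Ideal.Quotient.mk P (vv H (h + j))))) = x (vv H (h + j)) := by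
      have e2 := congrArg (fun f : KK P →+* C => f (algebraMap (LTRing p n ⧸ P) (KK P)
        (Ideal.Quotient.mk P (vv H (h + j))))) S.comp
      refine Eq.trans e2 ?_
      rw [fr_algebraMap, bar_mk]
    have e3 : σ₁ m (algebraMap (KK P) K₁ (algebraMap (LTRing p n ⧸ P) (KK P)
        (Ideal.Quotient.mk P (vv H (h + j))))) = χ m (vv H (h + j)) := by
      have e2 := congrArg (fun f : KK P →+* C => f (algebraMap (LTRing p n ⧸ P) (KK P)
        (Ideal.Quotient.mk P (vv H (h + j))))) (hσ m)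
      refine Eq.trans e2 ?_
      rw [fr_algebraMap, bar_mk]
    rw [e1, e3, norm_sub_rev, hj]
    exact le_refl _
  obtain ⟨A, hA⟩ := lower_bound ι₁ σ₁ hδ0 hχ.tendsto hc (fun i : Fin L.length => L[i.1]) hprod
    hgen (fun j : Fin (n - h) => algebraMap (LTRing p n ⧸ P) (KK P)
      (Ideal.Quotient.mk P (vv H (h + j)))) hy
  refine ⟨A, ?_⟩
  have hev : ∀ᶠ m in atTop, ∀ i : Fin L.length, t m ⟨ι₁ (L[i.1]), hmem i⟩ = σ₁ m (L[i.1]) :=
    Filter.eventually_all.2 fun i =>
      S.eventually_eq₁ hχ hσ hc (ht ⟨ι₁ (L[i.1]), hmem i⟩) (hlim ⟨ι₁ (L[i.1]), hmem i⟩)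
  filter_upwards [hA, hev] with m h4 h5
  obtain ⟨i, hi⟩ := h4
  refine ⟨⟨ι₁ (L[i.1]), hmem i⟩, ?_⟩
  rw [h5 i]
  exact hi

end Crest.Agent.LUA
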