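import Mathlib
import Crest.Agent.LUA_5
import Crest.Agent.LU_B6

/-!
S0351 (blueprint LU), part (1), TASK LUB-1: the case `h' = h + 1`.
-/

set_option autoImplicit false

noncomputable section

namespace Crest.Agent.LUA

open Crest.LubinTate Crest.Agent.LU IsLocalRing

variable {p : ℕ} [Fact p.Prime] {n : ℕ} {Γ : FormalGroup (GaloisField p n)} [Γ.IsComm]
  {H : FormalGroup (LTRing p n)} [H.IsComm]

/-- TASK LUB-1.  `I_h ≤ P`, `P` prime, `v_h ∉ P`, `rad(P + (v_h)) = I_{h+1}` imply `P = I_h`.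
Proof: `P ≤ I_{h+1} = I_h + (v_h)`; for `f ∈ P`, `f = g + c v_h` with `g ∈ I_h ≤ P`, so
`c v_h ∈ P`, `c ∈ P`.  Hence `P ≤ I_h + v_h P ≤ I_h + 𝔪 P` (`v_h ∈ 𝔪` by `residue_vv_lt`) and
Nakayama (`P` is finitely generated, `E₀` local Noetherian: `isTest_E0`) gives `P ≤ I_h`
(`Submodule.le_of_le_smul_of_le_jacobson_bot`). -/
theorem eq_height_of_rad {h : ℕ} {P : Ideal (LTRing p n)}
    (hΓ : mulSeries Γ p = PowerSeries.X ^ (p ^ n)) (hH : IsUniversalDeformation p n Γ H)
    (h2 : h < n) (hP : P.IsPrime) (hle : heightIdeal p n H h ≤ P)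
    (hv : vv H h ∉ P)
    (hrad : (P ⊔ Ideal.span {vv H h}).radical = heightIdeal p n H (h + 1)) :
    P = heightIdeal p n H h := by
  have ht := isTest_E0 p n
  haveI := ht.isLocalRing
  haveI := ht.noe
  refine le_antisymm ?_ hle
  have hvm : vv H h ∈ maximalIdeal (LTRing p n) := by
    rw [← ht.ker_eq]
    exact residue_vv_lt hΓ hH.1 h2
  refine Submodule.le_of_le_smul_of_le_jacobson_bot (I := maximalIdeal (LTRing p n))
    (IsNoetherian.noetherian P) (IsLocalRing.maximalIdeal_le_jacobson _) ?_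
  intro f hf
  have hf1 : f ∈ heightIdeal p n H (h + 1) := by
    rw [← hrad]
    exact Ideal.le_radical (Ideal.mem_sup_left hf)
  rw [heightIdeal_succ, Submodule.mem_sup] at hf1
  obtain ⟨g, hg, z, hz, hgz⟩ := hf1
  obtain ⟨c, rfl⟩ := Ideal.mem_span_singleton'.1 hz
  have h3 : c * vv H h ∈ P := by
    have : c * vv H h = f - g := by rw [← hgz]; ring
    rw [this]
    exact P.sub_mem hf (hle hg)
  have h4 : c ∈ P := (hP.mem_or_mem h3).resolve_right hv
  rw [← hgz]
  refine Submodule.add_mem_sup hg ?_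
  rw [mul_comm]
  exact Submodule.smul_mem_smul hvm h4

end Crest.Agent.LUA
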