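import Mathlib

/-!
S0351 (blueprint LU), part (1), TASK LUB-4: complete algebraically closed ultrametric fields.
-/

set_option autoImplicit false

noncomputable section

open scoped NNReal
open Polynomial

namespace Crest.Agent.LUA

/-- In a complete field of characteristic `p` with a dense algebraically closed subfield every
element is a `p`-th power. -/
private theorem frob_surj {K L : Type*} [Field K] [NontriviallyNormedField L]
    [CompleteSpace L] [Algebra K L] (hi : DenseRange (algebraMap K L)) [IsAlgClosed K]
    (p : ℕ) [Fact p.Prime] [ExpChar L p] : Function.Surjective (frobenius L p) := by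
  have hp : p.Prime := Fact.out
  have hp0 : p ≠ 0 := hp.ne_zero
  intro x
  have hx : x ∈ closure (Set.range (algebraMap K L)) := by
    rw [hi.closure_range]; trivial
  obtain ⟨u, hu, hux⟩ := mem_closure_iff_seq_limit.1 hx
  choose k hk using hu
  have hroot : ∀ n, ∃ r : K, r ^ p = k n := fun n =>
    IsAlgClosed.exists_pow_nat_eq (k n) hp.pos
  choose r hr using hroot
  let y : ℕ → L := fun n => algebraMap K L (r n)
  have hy : ∀ n, y n ^ p = u n := by
    intro n
    rw [← hk n, ← hr n, map_pow]
  have hdist : ∀ m n, dist (y m) (y n) ^ p = dist (u m) (u n) := by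
    intro m n
    have h1 : (y m - y n) ^ p = u m - u n := by
      rw [← hy m, ← hy n]
      have := map_sub (frobenius L p) (y m) (y n)
      simpa [frobenius_def] using this
    rw [dist_eq_norm, dist_eq_norm, ← norm_pow, h1]
  have hcau : CauchySeq y := by
    rw [Metric.cauchySeq_iff]
    intro ε hε
    have hc := hux.cauchySeq
    rw [Metric.cauchySeq_iff] at hc
    obtain ⟨N, hN⟩ := hc (ε ^ p) (by positivity)
    refine ⟨N, fun m hm n hn => ?_⟩
    have h1 := hN m hm n hn
    rw [← hdist m n] at h1
    exact lt_of_pow_lt_pow_left₀ p hε.le h1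
  obtain ⟨z, hz⟩ := cauchySeq_tendsto_of_complete hcau
  refine ⟨z, ?_⟩
  rw [frobenius_def]
  have h1 : Filter.Tendsto (fun n => y n ^ p) Filter.atTop (nhds (z ^ p)) := hz.pow p
  have h2 : (fun n => y n ^ p) = u := funext hy
  rw [h2] at h1
  exact tendsto_nhds_unique h1 hux

/-- Version of `IsAlgClosed.of_denseRange` in every characteristic. -/
private theorem isAlgClosed_of_dense {K L : Type*} [Field K] [NontriviallyNormedField L]
    [CompleteSpace L] [IsUltrametricDist L] [Algebra K L]
    (hi : DenseRange (algebraMap K L)) [IsAlgClosed K] : IsAlgClosed L := by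
  have hperf : PerfectField L := by
    obtain ⟨q, hq⟩ := ExpChar.exists L
    cases hq with
    | zero => infer_instance
    | prime hp =>
      haveI : Fact q.Prime := ⟨hp⟩
      haveI : ExpChar L q := ExpChar.prime hp
      haveI : PerfectRing L q := PerfectRing.ofSurjective L q (frob_surj hi q)
      exact PerfectRing.toPerfectField L q
  -- Fix any monic irreducible polynomial `f` in `L`.
  apply IsAlgClosed.of_exists_root
  intro f fmon firr
  have fnatdeg0 : f.natDegree ≠ 0 := (Irreducible.natDegree_pos firr).ne'
  let F := f.SplittingField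
  let : NormedField F := spectralNorm.normedField L F
  let : NormedAlgebra L F := spectralNorm.normedAlgebra L F
  let a := rootOfSplits (SplittingField.splits f)
      (by simpa using degree_ne_of_natDegree_ne fnatdeg0)
  have fa0 : f.aeval a = 0 := by
    rw [← eval_map_algebraMap]
    exact eval_rootOfSplits (Polynomial.SplittingField.splits f)
      (by simpa using degree_ne_of_natDegree_ne fnatdeg0)
  classical
    let S : Finset F := {x ∈ (f.rootSet F).toFinset | x ≠ a}
  let δ : ℝ := if hS : S.Nonempty then Finset.min' (S.image fun x => ‖a - x‖)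
      (Finset.image_nonempty.mpr hS) else 1
  have norm_sub_le : ∀ a' : F, IsConjRoot L a a' → a ≠ a' → δ ≤ ‖a - a'‖ := by
    intro a' conj ne
    by_cases hS : S.Nonempty <;> simp only [hS, ↓reduceDIte, δ]
    · apply Finset.min'_le (S.image fun x => ‖a - x‖) (‖a - a'‖)
      apply Finset.mem_image_of_mem
      simp only [minpoly.eq_of_irreducible_of_monic firr fa0 fmon, Finset.mem_filter,
        Set.mem_toFinset, S]
      rw [← (isConjRoot_iff_mem_minpoly_rootSet ⟨f, fmon, fa0⟩)]
      exact ⟨conj, ne.symm⟩
    · simp only [ne_eq, Finset.not_nonempty_iff_eq_empty, Finset.filter_eq_empty_iff,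
      Set.mem_toFinset, not_not, S] at hS
      rw [isConjRoot_iff_mem_minpoly_rootSet ⟨f, fmon, fa0⟩,
          ← minpoly.eq_of_irreducible_of_monic firr fa0 fmon] at conj
      exact (ne (hS conj).symm).elim
  have δpos : δ > 0 := by
    by_cases hS : S.Nonempty <;> simp only [hS, ↓reduceDIte, δ]
    · simp only [gt_iff_lt, Finset.lt_min'_iff, Finset.mem_image, forall_exists_index, and_imp,
        forall_apply_eq_imp_iff₂]
      rintro a' ha'
      simp only [Finset.mem_filter, Set.mem_toFinset, S] at ha'
      rw [norm_pos_iff, sub_ne_zero]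
      exact ha'.2.symm
    · linarith
  have hε : (δ / (max ‖a‖ 1)) ^ f.natDegree / (f.natDegree + 1) > 0 := by positivity
  obtain ⟨g, gmon, gdeg, gcoeff⟩ :=
    exists_monic_and_natDegree_eq_and_norm_map_algebraMap_coeff_sub_lt hi fmon hε
  let ⟨b, hb, hab⟩ := exists_aroots_norm_sub_lt_of_norm_coeff_sub_lt
      hε fa0 fmon (gmon.map _) (gdeg ▸ (g.natDegree_map _)) gcoeff
      (by simpa [Polynomial.map_map] using (IsAlgClosed.splits g).map ((algebraMap L F).comp _))
  have hab : ‖a - b‖ < δ := by
    rw [← Real.rpow_natCast, ← mul_comm_div, div_self, one_mul,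
        ← Real.rpow_mul (div_pos δpos (by positivity)).le, mul_inv_cancel₀] at hab
    · simpa [mul_assoc, div_mul_cancel₀ _ (by positivity : (max ‖a‖ 1) > 0).ne'] using hab
    · simp [fnatdeg0]
    · positivity
  have bbot : b ∈ (⊥ : IntermediateField L F) := by
    rw [Polynomial.aroots_def, Splits.roots_map ((IsAlgClosed.splits g).map _),
        Multiset.mem_map] at hb
    obtain ⟨bCp, _, hbCp⟩ := hb
    rw [IntermediateField.mem_bot]
    exact ⟨bCp, hbCp⟩
  simp only [Polynomial.mem_roots', ne_eq, Polynomial.map_eq_zero, Polynomial.IsRoot.def,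
    Polynomial.eval_map_algebraMap] at hb
  have abot : a ∈ (⊥ : IntermediateField L F) := by
    have masp : ((minpoly L a).map (algebraMap L F)).Splits := by
      simpa [minpoly.eq_of_irreducible_of_monic firr fa0 fmon] using
        (Polynomial.SplittingField.splits f)
    simpa [IntermediateField.adjoin_simple_eq_bot_iff.mpr bbot] using
      IsKrasner.krasner (PerfectField.separable_of_irreducible
        (minpoly.irreducible ⟨f, fmon, fa0⟩))
        masp ⟨(g.map _), gmon.map _, hb.2⟩ fun a' h1 h2 ↦ lt_of_lt_of_le hab (norm_sub_le a' h1 h2)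
  obtain ⟨aCp, haCp⟩ := IntermediateField.mem_bot.mp abot
  use aCp
  apply_fun algebraMap L F
  · rwa [← Polynomial.aeval_algebraMap_apply_eq_algebraMap_eval, haCp, map_zero]
  · exact RingHom.injective _

@[instance_reducible]
private def nnfCompl (L : Type) [NontriviallyNormedField L] :
    NontriviallyNormedField (UniformSpace.Completion L) where
  __ := (inferInstance : NormedField (UniformSpace.Completion L))
  non_trivial := by
    obtain ⟨x, hx⟩ := NontriviallyNormedField.non_trivial (α := L)
    refine ⟨(x : UniformSpace.Completion L), ?_⟩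
    rw [UniformSpace.Completion.norm_coe]
    exact hx

/-- TASK LUB-4a.  The fraction field of a domain with a multiplicative ultrametric norm.
(On `FractionRing R` put `‖a/b‖ = N a / N b`; well defined by multiplicativity.) -/
theorem exists_norm_frac (R : Type) [CommRing R] [IsDomain R] (N : R → ℝ) (h0 : N 0 = 0)
    (h1 : N 1 = 1) (hpos : ∀ x, x ≠ 0 → 0 < N x) (hmul : ∀ x y, N (x * y) = N x * N y)
    (hadd : ∀ x y, N (x + y) ≤ max (N x) (N y)) (hnt : ∃ x, x ≠ 0 ∧ N x < 1) :
    ∃ (L : Type) (_ : NontriviallyNormedField L) (_ : IsUltrametricDist L) (f : R →+* L),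
      ∀ x, ‖f x‖ = N x := by
  have hnn : ∀ x, 0 ≤ N x := by
    intro x
    by_cases hx : x = 0
    · rw [hx, h0]
    · exact (hpos x hx).le
  let v : Valuation R ℝ≥0 :=
    { toFun := fun x => ⟨N x, hnn x⟩
      map_zero' := by ext; exact h0
      map_one' := by ext; exact h1
      map_mul' := fun x y => by ext; exact hmul x y
      map_add_le_max' := fun x y => by
        have h := hadd x y
        rcases le_max_iff.1 h with h | h
        · exact le_max_of_le_left (Subtype.mk_le_mk.2 h)
        · exact le_max_of_le_right (Subtype.mk_le_mk.2 h) }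
  have hv : ∀ x, ((v x : ℝ≥0) : ℝ) = N x := fun x => rfl
  have hS : nonZeroDivisors R ≤ v.supp.primeCompl := by
    intro x hx
    have hx0 : x ≠ 0 := nonZeroDivisors.ne_zero hx
    show x ∉ v.supp
    rw [Valuation.mem_supp_iff]
    intro h
    have h2 := hpos x hx0
    rw [← hv, h] at h2
    simp at h2
  let w : Valuation (FractionRing R) ℝ≥0 := v.extendToLocalization hS (FractionRing R)
  have hw : ∀ a, w (algebraMap R (FractionRing R) a) = v a := fun a =>
    v.extendToLocalization_apply_map_apply hS (FractionRing R) a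
  let av : AbsoluteValue (FractionRing R) ℝ :=
    { toFun := fun x => ((w x : ℝ≥0) : ℝ)
      map_mul' := fun x y => by rw [map_mul]; push_cast; rfl
      nonneg' := fun x => NNReal.coe_nonneg _
      eq_zero' := fun x => by
        rw [NNReal.coe_eq_zero]
        exact map_eq_zero w
      add_le' := fun x y => by
        have h := w.map_add x y
        have h' : ((w (x + y) : ℝ≥0) : ℝ) ≤ max ((w x : ℝ≥0) : ℝ) ((w y : ℝ≥0) : ℝ) := by
          rw [← NNReal.coe_max]
          exact_mod_cast h
        exact h'.trans (max_le_add_of_nonneg (NNReal.coe_nonneg _) (NNReal.coe_nonneg _)) }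
  have hav : ∀ x, av x = ((w x : ℝ≥0) : ℝ) := fun x => rfl
  letI nf : NormedField (FractionRing R) := av.toNormedField
  have hn : ∀ x : FractionRing R, ‖x‖ = ((w x : ℝ≥0) : ℝ) := fun x => rfl
  letI nnf : NontriviallyNormedField (FractionRing R) :=
    { nf with
      non_trivial := by
        obtain ⟨x, hx0, hx1⟩ := hnt
        refine ⟨(algebraMap R (FractionRing R) x)⁻¹, ?_⟩
        rw [norm_inv, hn, hw, hv]
        exact (one_lt_inv₀ (hpos x hx0)).2 hx1 }
  haveI : IsUltrametricDist (FractionRing R) :=
    IsUltrametricDist.isUltrametricDist_of_forall_norm_add_le_max_norm (fun x y => by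
      rw [hn, hn, hn, ← NNReal.coe_max]
      exact_mod_cast w.map_add x y)
  refine ⟨FractionRing R, nnf, inferInstance, algebraMap R (FractionRing R), ?_⟩
  intro x
  have : ‖algebraMap R (FractionRing R) x‖ = ((w (algebraMap R (FractionRing R) x) : ℝ≥0) : ℝ) := rfl
  rw [this, hw, hv]

/-- TASK LUB-4b.  Every ultrametric nontrivially normed field embeds isometrically into a complete
algebraically closed one.
(As in Mathlib's construction of `ℂ_[p]`: completion `L' = UniformSpace.Completion L` (a
`NontriviallyNormedField`, ultrametric), `AlgebraicClosure L'` with the spectral norm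
(`spectralNorm.normedField`, `isUltrametricDist`), completion again, `IsAlgClosed.of_denseRange`
from `Mathlib/Analysis/Normed/Field/Dense.lean`; see `Mathlib/NumberTheory/Padics/Complex.lean`.) -/
theorem exists_complete_algClosed (L : Type) [NontriviallyNormedField L] [IsUltrametricDist L] :
    ∃ (C : Type) (_ : NontriviallyNormedField C) (_ : IsUltrametricDist C) (_ : CompleteSpace C)
      (_ : IsAlgClosed C) (f : L →+* C), ∀ x, ‖f x‖ = ‖x‖ := by
  -- completion of `L`
  let L' := UniformSpace.Completion L
  letI nnL' : NontriviallyNormedField L' := nnfCompl L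
  haveI : IsUltrametricDist L' := IsUltrametricDist.of_normedAlgebra L
  let A := AlgebraicClosure L'
  letI nfA : NormedField A := spectralNorm.normedField L' A
  letI naA : NormedAlgebra L' A := spectralNorm.normedAlgebra L' A
  letI nnA : NontriviallyNormedField A := spectralNorm.nontriviallyNormedField L' A
  haveI uA : IsUltrametricDist A :=
    IsUltrametricDist.isUltrametricDist_of_forall_norm_add_le_max_norm
      (isNonarchimedean_spectralNorm (K := L') (L := A))
  let C := UniformSpace.Completion A
  letI nnC : NontriviallyNormedField C := nnfCompl A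
  haveI uC : IsUltrametricDist C := IsUltrametricDist.of_normedAlgebra A
  haveI : IsAlgClosed C := isAlgClosed_of_dense (K := A) UniformSpace.Completion.denseRange_coe
  refine ⟨C, inferInstance, inferInstance, inferInstance, inferInstance,
    (algebraMap A C).comp ((algebraMap L' A).comp (algebraMap L L')), ?_⟩
  intro x
  have e1 : ∀ y : A, ‖algebraMap A C y‖ = ‖y‖ := fun y => UniformSpace.Completion.norm_coe y
  have e2 : ∀ y : L', ‖algebraMap L' A y‖ = ‖y‖ := fun y => spectralNorm_extends y
  have e3 : ∀ y : L, ‖algebraMap L L' y‖ = ‖y‖ := fun y => UniformSpace.Completion.norm_coe y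
  rw [RingHom.comp_apply, RingHom.comp_apply, e1, e2, e3]

/-- TASK LUB-4c.  For `R = κ[[S_0..S_{e-1}]]` with the norm `2^{-order}` (multiplicative by
`MvPowerSeries.order_mul`). -/
theorem exists_C (κ : Type) [Field κ] (p : ℕ) [Fact p.Prime] [CharP κ p] (e : ℕ) (he : 1 ≤ e) :
    ∃ (C : Type) (_ : NontriviallyNormedField C) (_ : IsUltrametricDist C) (_ : CompleteSpace C)
      (_ : IsAlgClosed C) (_ : CharP C p) (ι : MvPowerSeries (Fin e) κ →+* C),
      Function.Injective ι ∧ (∀ F, ‖ι F‖ ≤ 1) ∧ ∀ j, ‖ι (MvPowerSeries.X j)‖ = 1 / 2 := by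
  classical
  let R := MvPowerSeries (Fin e) κ
  let N : R → ℝ := fun F => if F = 0 then 0 else (1 / 2 : ℝ) ^ F.order.toNat
  have hN0 : N 0 = 0 := by simp [N]
  have hNv : ∀ F : R, F ≠ 0 → N F = (1 / 2 : ℝ) ^ F.order.toNat := fun F hF => by simp [N, hF]
  have hfin : ∀ F : R, F ≠ 0 → (F.order.toNat : ℕ∞) = F.order := fun F hF =>
    MvPowerSeries.ne_zero_iff_order_finite.1 hF
  have hN1 : N 1 = 1 := by
    have h1 : (1 : R) ≠ 0 := one_ne_zero
    rw [hNv 1 h1]
    have : (1 : R).order = 0 := by
      have := MvPowerSeries.order_monomial_of_ne_zero (σ := Fin e) (R := κ) (d := 0) (a := 1) one_ne_zero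
      simpa using this
    rw [this]; simp
  have hpos : ∀ F : R, F ≠ 0 → 0 < N F := fun F hF => by
    rw [hNv F hF]; positivity
  have hmul : ∀ F G : R, N (F * G) = N F * N G := by
    intro F G
    by_cases hF : F = 0
    · simp [hF, N]
    by_cases hG : G = 0
    · simp [hG, N]
    rw [hNv _ (mul_ne_zero hF hG), hNv F hF, hNv G hG, ← pow_add]
    congr 1
    have h := MvPowerSeries.order_mul F G
    rw [← hfin _ (mul_ne_zero hF hG), ← hfin F hF, ← hfin G hG] at h
    exact_mod_cast h
  have hadd : ∀ F G : R, N (F + G) ≤ max (N F) (N G) := by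
    intro F G
    by_cases hF : F = 0
    · subst hF; rw [zero_add]; exact le_max_right _ _
    by_cases hG : G = 0
    · subst hG; rw [add_zero]; exact le_max_left _ _
    by_cases hFG : F + G = 0
    · rw [hFG, hN0]; exact le_max_of_le_left (hpos F hF).le
    have h := MvPowerSeries.min_order_le_add (f := F) (g := G)
    rw [← hfin _ hFG, ← hfin F hF, ← hfin G hG] at h
    rw [hNv _ hFG, hNv F hF, hNv G hG]
    rcases min_le_iff.1 h with h' | h'
    · have h'' : F.order.toNat ≤ (F + G).order.toNat := by exact_mod_cast h'
      exact le_max_of_le_left (pow_le_pow_of_le_one (by norm_num) (by norm_num) h'')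
    · have h'' : G.order.toNat ≤ (F + G).order.toNat := by exact_mod_cast h'
      exact le_max_of_le_right (pow_le_pow_of_le_one (by norm_num) (by norm_num) h'')
  have hXo : ∀ j : Fin e, (MvPowerSeries.X j : R).order = 1 := by
    intro j
    have := MvPowerSeries.order_monomial_of_ne_zero (σ := Fin e) (R := κ)
      (d := Finsupp.single j 1) (a := 1) one_ne_zero
    simpa [MvPowerSeries.X] using this
  have hXne : ∀ j : Fin e, (MvPowerSeries.X j : R) ≠ 0 := by
    intro j h
    have h1 := hXo j
    rw [h, MvPowerSeries.order_zero] at h1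
    exact absurd h1 (by decide)
  have hX : ∀ j : Fin e, N (MvPowerSeries.X j) = 1 / 2 := by
    intro j
    rw [hNv _ (hXne j), hXo j]
    norm_num
  have hle : ∀ F : R, N F ≤ 1 := by
    intro F
    by_cases hF : F = 0
    · rw [hF, hN0]; norm_num
    · rw [hNv F hF]; exact pow_le_one₀ (by norm_num) (by norm_num)
  haveI hdom : IsDomain R := NoZeroDivisors.to_isDomain R
  obtain ⟨L, iL, uL, f, hf⟩ := exists_norm_frac R N hN0 hN1 hpos hmul hadd
    ⟨MvPowerSeries.X ⟨0, he⟩, hXne _, by rw [hX]; norm_num⟩
  obtain ⟨C, iC, uC, cC, aC, g, hg⟩ := exists_complete_algClosed L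
  have hchar : CharP C p := by
    let h : κ →+* C := (g.comp f).comp (MvPowerSeries.C (σ := Fin e) (R := κ))
    exact charP_of_injective_ringHom h.injective p
  have hnorm : ∀ F, ‖(g.comp f) F‖ = N F := fun F => by
    rw [RingHom.comp_apply, hg, hf]
  refine ⟨C, iC, uC, cC, aC, hchar, g.comp f, ?_, ?_, ?_⟩
  · rw [injective_iff_map_eq_zero]
    intro F hF
    by_contra hne
    have h1 := hpos F hne
    rw [← hnorm F, hF, norm_zero] at h1
    exact lt_irrefl _ h1
  · intro F; rw [hnorm]; exact hle F
  · intro j; rw [hnorm]; exact hX j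

end Crest.Agent.LUA
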