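import Mathlib
import Crest.Agent.LUB_2d
import Crest.Agent.LUB_4
import Crest.Agent.LU_D0

/-!
S0351 (blueprint LU), part (1), TASK LUB-5: existence of the field `C` and of the point `x`.
-/

set_option autoImplicit false

noncomputable section

namespace Crest.Agent.LUA

open Crest.LubinTate Crest.Agent.LU IsLocalRing

variable {p : ℕ} [Fact p.Prime] {n : ℕ} {Γ : FormalGroup (GaloisField p n)} [Γ.IsComm]
  {H : FormalGroup (LTRing p n)} [H.IsComm]

/-- TASK LUB-5a.  An integral element over the unit ball has norm `≤ 1`: if `a` is integral over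
`R` (through `ψ`), `x : A → C` a ring hom with `‖x (ψ r)‖ ≤ 1` for all `r`, then `‖x a‖ ≤ 1`. -/
theorem norm_le_one_of_integral {R A C : Type} [CommRing R] [CommRing A] [NormedField C]
    [IsUltrametricDist C] (ψ : R →+* A) (x : A →+* C) (hx : ∀ r, ‖x (ψ r)‖ ≤ 1) {a : A}
    (ha : ψ.IsIntegralElem a) : ‖x a‖ ≤ 1 := by
  obtain ⟨f, hf, hfa⟩ := ha
  by_contra hlt
  push Not at hlt
  have h0 : (Polynomial.eval₂ ψ a f) = 0 := hfa
  have h1 := congrArg x h0
  rw [Polynomial.hom_eval₂, map_zero, Polynomial.eval₂_eq_sum_range, Finset.sum_range_succ] at h1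
  rw [hf.coeff_natDegree, map_one, one_mul] at h1
  have h2 : x a ^ f.natDegree =
      -∑ i ∈ Finset.range f.natDegree, (x.comp ψ) (f.coeff i) * x a ^ i :=
    eq_neg_of_add_eq_zero_right h1
  have hd : f.natDegree ≠ 0 := by
    intro hd
    rw [hd] at h2
    simp at h2
  have h3 : ‖∑ i ∈ Finset.range f.natDegree, (x.comp ψ) (f.coeff i) * x a ^ i‖ ≤
      ‖x a‖ ^ (f.natDegree - 1) := by
    refine IsUltrametricDist.norm_sum_le_of_forall_le_of_nonneg (by positivity) ?_
    intro i hi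
    rw [Finset.mem_range] at hi
    rw [norm_mul, norm_pow]
    calc ‖(x.comp ψ) (f.coeff i)‖ * ‖x a‖ ^ i ≤ 1 * ‖x a‖ ^ i := by
          exact mul_le_mul_of_nonneg_right (hx _) (by positivity)
      _ = ‖x a‖ ^ i := one_mul _
      _ ≤ ‖x a‖ ^ (f.natDegree - 1) := pow_le_pow_right₀ hlt.le (by omega)
  have h4 := congrArg norm h2
  rw [norm_neg, norm_pow] at h4
  rw [← h4] at h3
  have h5 : ‖x a‖ ^ (f.natDegree - 1) < ‖x a‖ ^ f.natDegree :=
    pow_lt_pow_right₀ hlt (by omega)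
  exact absurd h3 (not_le.mpr h5)

/-- TASK LUB-5b.  Extension of an injective homomorphism `ι : R → C` to a domain `A` finite over
`R` (`ψ : R → A` injective): `IsAlgClosed.lift`; the extension is injective because a nonzero ideal
of `A` meets `ψ(R)` (integral extension of domains). -/
theorem exists_extension_algClosed {R A C : Type} [CommRing R] [IsDomain R] [CommRing A]
    [IsDomain A] [Field C] [IsAlgClosed C] (ψ : R →+* A) (hψ : Function.Injective ψ)
    (hfin : ψ.Finite) (ι : R →+* C) (hι : Function.Injective ι) :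
    ∃ x : A →+* C, x.comp ψ = ι ∧ Function.Injective x := by
  letI : Algebra R A := ψ.toAlgebra
  letI : Algebra R C := ι.toAlgebra
  have e1 : algebraMap R A = ψ := rfl
  have e2 : algebraMap R C = ι := rfl
  haveI : Module.Finite R A := hfin
  haveI : Algebra.IsIntegral R A := Algebra.IsIntegral.of_finite R A
  haveI : Module.IsTorsionFree R A := by
    refine ⟨fun r hr a b hab => ?_⟩
    have hab' : ψ r * a = ψ r * b := hab
    have hr0 : ψ r ≠ 0 := by
      rw [Ne, map_eq_zero_iff ψ hψ]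
      exact hr.ne_zero
    exact mul_left_cancel₀ hr0 hab'
  haveI : Module.IsTorsionFree R C := by
    refine ⟨fun r hr a b hab => ?_⟩
    have hab' : ι r * a = ι r * b := hab
    have hr0 : ι r ≠ 0 := by
      rw [Ne, map_eq_zero_iff ι hι]
      exact hr.ne_zero
    exact mul_left_cancel₀ hr0 hab'
  let φ : A →ₐ[R] C := IsAlgClosed.lift
  have hφ : (φ : A →+* C).comp ψ = ι := by
    ext r
    exact φ.commutes r
  refine ⟨φ, hφ, ?_⟩
  rw [RingHom.injective_iff_ker_eq_bot]
  apply Ideal.eq_bot_of_comap_eq_bot (R := R)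
  rw [e1, RingHom.comap_ker, hφ]
  exact (RingHom.injective_iff_ker_eq_bot ι).mp hι

/-- TASK LUB-5c.  The point `x`.
`exists_psi`, `psi_finite`, `psi_injective`, `exists_C` (`κ = GaloisField p n`,
`e = 1 + n - h' ≥ 1`), then LUB-5b, `x = x̄ ∘ mk`.  `‖x a‖ ≤ 1` by LUB-5a; for `a ∈ ker residue`
some power of the class of `a` lies in the ideal generated by the `ψ(S_i)` (`pow_mem_span`), so
`‖x a‖^N ≤ 1/2`.  `‖x v_h‖ = ‖ι S_0‖ = 1/2 = ‖x v_j‖` for `h' ≤ j < n`. -/
theorem exists_point (hn : 1 ≤ n) (hΓ : mulSeries Γ p = PowerSeries.X ^ (p ^ n))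
    (hH : IsUniversalDeformation p n Γ H) {h h' : ℕ} (h1 : 1 ≤ h) (h2 : h < h') (h3 : h' ≤ n)
    {P : Ideal (LTRing p n)} (hP : P.IsPrime) (hle : heightIdeal p n H h ≤ P)
    (hv : vv H h ∉ P)
    (hrad : (P ⊔ Ideal.span {vv H h}).radical = heightIdeal p n H h') :
    ∃ (C : Type) (_ : NontriviallyNormedField C) (_ : IsUltrametricDist C) (_ : CompleteSpace C)
      (_ : IsAlgClosed C) (_ : CharP C p) (x : LTRing p n →+* C), IsPoint P x ∧
      ∀ j, h' ≤ j → j < n → ‖x (vv H j)‖ ≤ ‖x (vv H h)‖ := by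
  obtain ⟨ψ, hψ, hψc⟩ := exists_psi hn hΓ hH h1 h2 h3 hle
  have hfin := psi_finite hn hΓ hH h1 h2 h3 hP.ne_top hrad ψ hψ hψc
  have hinj := psi_injective hn hΓ hH h1 h2 h3 hP hle hv hrad ψ hψ hψc
  obtain ⟨C, i1, i2, i3, i4, i5, ι, hι, hι1, hιX⟩ :=
    exists_C (GaloisField p n) p (1 + n - h') (by omega)
  haveI : IsDomain (LTRing p n ⧸ P) := Ideal.Quotient.isDomain P
  haveI : IsDomain (MvPowerSeries (Fin (1 + n - h')) (GaloisField p n)) :=
    NoZeroDivisors.to_isDomain _
  obtain ⟨y, hy, hyinj⟩ := exists_extension_algClosed ψ hinj hfin ι hι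
  have hle1 : ∀ a, ‖y a‖ ≤ 1 := by
    intro a
    refine norm_le_one_of_integral ψ y (fun r => ?_) (RingHom.Finite.to_isIntegral hfin a)
    have : y (ψ r) = ι r := congrArg (fun f => f r) hy
    rw [this]
    exact hι1 r
  have hS : ∀ i : Fin (1 + n - h'), ‖y (Ideal.Quotient.mk P (vv H (sIdx h h' i)))‖ = 1 / 2 := by
    intro i
    rw [← hψ i]
    have : y (ψ (MvPowerSeries.X i)) = ι (MvPowerSeries.X i) :=
      DFunLike.congr_fun hy (MvPowerSeries.X i)
    rw [this]
    exact hιX i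
  have hspan : ∀ a ∈ Ideal.span (Set.range fun i : Fin (1 + n - h') =>
      Ideal.Quotient.mk P (vv H (sIdx h h' i))), ‖y a‖ ≤ 1 / 2 := by
    intro a ha
    refine Submodule.span_induction ?_ ?_ ?_ ?_ ha
    · rintro _ ⟨i, rfl⟩
      exact (hS i).le
    · rw [map_zero, norm_zero]
      norm_num
    · intro u v _ _ hu hv'
      rw [map_add]
      exact (IsUltrametricDist.norm_add_le_max _ _).trans (max_le hu hv')
    · intro c u _ hu
      rw [smul_eq_mul, map_mul, norm_mul]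
      calc ‖y c‖ * ‖y u‖ ≤ 1 * (1 / 2) :=
            mul_le_mul (hle1 c) hu (norm_nonneg _) zero_le_one
        _ = 1 / 2 := one_mul _
  refine ⟨C, i1, i2, i3, i4, i5, y.comp (Ideal.Quotient.mk P), ⟨?_, fun a => hle1 _, ?_⟩, ?_⟩
  · rw [← RingHom.comap_ker, (RingHom.injective_iff_ker_eq_bot y).mp hyinj,
      ← RingHom.ker_eq_comap_bot, Ideal.mk_ker]
  · intro a ha
    obtain ⟨N, hN⟩ := pow_mem_span hn hΓ hH h1 h2 h3 hrad (Ideal.Quotient.mk P a) ⟨a, ha, rfl⟩
    have h5 := hspan _ hN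
    rw [map_pow, norm_pow] at h5
    show ‖y (Ideal.Quotient.mk P a)‖ < 1
    by_contra hc
    push Not at hc
    have h6 := one_le_pow₀ hc (n := N)
    linarith
  · intro j hj1 hj2
    have e1 := hS ⟨j - h' + 1, by omega⟩
    have e2 := hS ⟨0, by omega⟩
    have e3 : sIdx h h' (j - h' + 1) = j := by
      unfold sIdx
      rw [if_neg (by omega)]
      omega
    have e4 : sIdx h h' 0 = h := by
      unfold sIdx
      rw [if_pos rfl]
    rw [show ((⟨j - h' + 1, by omega⟩ : Fin (1 + n - h')) : ℕ) = j - h' + 1 from rfl, e3] at e1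
    rw [show ((⟨0, by omega⟩ : Fin (1 + n - h')) : ℕ) = 0 from rfl, e4] at e2
    show ‖y (Ideal.Quotient.mk P (vv H j))‖ ≤ ‖y (Ideal.Quotient.mk P (vv H h))‖
    rw [e1, e2]

end Crest.Agent.LUA
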