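import Mathlib

/-!
S0351 (blueprint LU), part LUC (helper89): Lazard's symmetric 2-cocycle lemma in characteristic `p`,
in coefficient form.

`f(X,Y) = ∑_{0<i<m} c_i X^i Y^{m-i}` symmetric, `f(X,Y) + f(X+Y,Z) = f(Y,Z) + f(X,Y+Z)`, and
`∑_{t<p} f(1,t) = 0`  ⟹  `f = γ ((X+Y)^m - X^m - Y^m)`.
-/

set_option autoImplicit false
set_option linter.unusedSectionVars false

namespace Crest.Agent.LU

namespace LUC

open Finset

variable {K : Type*} [Field K] (p : ℕ) [Fact p.Prime] [CharP K p]

include p in
theorem natCast_eq_of_modEq {a b : ℕ} (h : a ≡ b [MOD p]) : (a : K) = (b : K) :=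
  (CharP.natCast_eq_natCast K p).2 h

theorem natCast_ne_zero {a : ℕ} (h : ¬ p ∣ a) : (a : K) ≠ 0 := fun h0 =>
  h ((CharP.cast_eq_zero_iff K p a).1 h0)

theorem natCast_pow_p (t : ℕ) : ((t : K)) ^ p = (t : K) := by
  have h := map_natCast (frobenius K p) t
  rwa [frobenius_def] at h

/-- `N_i = choose(p,i)/p`. -/
def Nch (p i : ℕ) : ℕ := p.choose i / p

theorem p_mul_Nch {i : ℕ} (hi : 0 < i) (hip : i < p) : p * Nch p i = p.choose i := by
  have hp : p.Prime := Fact.out
  exact Nat.mul_div_cancel' (hp.dvd_choose_self hi.ne' hip)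

/-- `∑_{t<p} ((1+t)^p - 1 - t^p)/p = p^{p-1} - 1` in integers, in the form with
`N_i = choose(p,i)/p`. -/
theorem sum_N : (∑ t ∈ range p, ∑ i ∈ Ioo 0 p, (Nch p i : ℤ) * (t : ℤ) ^ (p - i))
    = (p : ℤ) ^ (p - 1) - 1 := by
  have hp : p.Prime := Fact.out
  have hp0 : (p : ℤ) ≠ 0 := by exact_mod_cast hp.ne_zero
  apply mul_left_cancel₀ hp0
  rw [mul_sum]
  have h1 : ∀ t ∈ range p, (p : ℤ) * ∑ i ∈ Ioo 0 p, (Nch p i : ℤ) * (t : ℤ) ^ (p - i)
      = ((t + 1 : ℕ) : ℤ) ^ p - (t : ℤ) ^ p - 1 := by
    intro t _
    rw [mul_sum]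
    have h2 : ((t + 1 : ℕ) : ℤ) ^ p = ∑ i ∈ range (p + 1), (p.choose i : ℤ) * (t : ℤ) ^ (p - i) := by
      push_cast
      rw [add_comm, add_pow]
      refine sum_congr rfl fun i _ => ?_
      rw [one_pow, one_mul, mul_comm]
    have h3 : range (p + 1) = insert 0 (insert p (Ioo 0 p)) := by
      ext i
      have := hp.pos
      simp only [mem_range, mem_insert, mem_Ioo]
      omega
    rw [h2, h3, sum_insert (by simp [hp.ne_zero.symm]), sum_insert (by simp)]
    simp only [Nat.choose_zero_right, Nat.cast_one, one_mul, tsub_zero, Nat.choose_self,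
      tsub_self, pow_zero]
    have h4 : ∑ i ∈ Ioo 0 p, (p : ℤ) * ((Nch p i : ℤ) * (t : ℤ) ^ (p - i))
        = ∑ i ∈ Ioo 0 p, (p.choose i : ℤ) * (t : ℤ) ^ (p - i) := by
      refine sum_congr rfl fun i hi => ?_
      rw [mem_Ioo] at hi
      have h5 := p_mul_Nch p hi.1 hi.2
      rw [← mul_assoc]
      congr 1
      exact_mod_cast h5
    rw [h4]
    ring
  rw [sum_congr rfl h1]
  have h6 : ∀ M : ℕ, ∑ t ∈ range M, (((t + 1 : ℕ) : ℤ) ^ p - (t : ℤ) ^ p - 1) = (M : ℤ) ^ p - M := by
    intro M
    induction M with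
    | zero => simp [hp.ne_zero]
    | succ M ih => rw [sum_range_succ, ih]; push_cast; ring
  rw [h6, mul_sub, mul_one, ← pow_succ', Nat.sub_add_cancel hp.one_lt.le]

/-- The number `N_i = choose(p,i)/p` in `K`: `i N_i = choose(p-1,i-1)`. -/
theorem N_mul {i : ℕ} (hi : 0 < i) (hip : i < p) :
    (Nch p i : K) * (i : K) = ((p - 1).choose (i - 1) : K) := by
  have hp : p.Prime := Fact.out
  have h5 := p_mul_Nch p hi hip
  have h6 : p.choose i * i = p * (p - 1).choose (i - 1) := by
    obtain ⟨p', rfl⟩ : ∃ p', p = p' + 1 := ⟨p - 1, by have := hp.pos; omega⟩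
    obtain ⟨i', rfl⟩ : ∃ i', i = i' + 1 := ⟨i - 1, by omega⟩
    simp only [Nat.add_sub_cancel]
    exact (Nat.add_one_mul_choose_eq p' i').symm
  have h7 : Nch p i * i = (p - 1).choose (i - 1) := by
    apply Nat.eq_of_mul_eq_mul_left hp.pos
    rw [← mul_assoc, h5, h6]
  exact_mod_cast congrArg (Nat.cast (R := K)) h7

theorem lazard (m : ℕ) (hm : 2 ≤ m) (c : ℕ → K)
    (hs : ∀ i, 0 < i → i < m → c i = c (m - i))
    (hc : ∀ i j, 0 < i → 0 < j → i + j < m →
      c (i + j) * ((i + j).choose i : K) = c i * ((m - i).choose j : K))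
    (hsum : ∑ t ∈ range p, ∑ i ∈ Ioo 0 m, c i * (t : K) ^ (m - i) = 0) :
    ∃ γ : K, ∀ i, 0 < i → i < m → c i = γ * (m.choose i : K) := by
  have hp : p.Prime := Fact.out
  induction m using Nat.strong_induction_on generalizing c with
  | _ m ih =>
  -- the basic relation: `t c_t = c_1 choose(m-1,t-1)`
  have hb : ∀ t, 0 < t → t < m → c t * (t : K) = c 1 * ((m - 1).choose (t - 1) : K) := by
    intro t ht htm
    rcases Nat.eq_or_lt_of_le (show 1 ≤ t from ht) with h | h
    · subst h; simp
    · have := hc 1 (t - 1) one_pos (by omega) (by omega)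
      rw [show 1 + (t - 1) = t by omega, Nat.choose_one_right] at this
      exact this
  have hch : ∀ t, 0 < t → (m.choose t : K) * (t : K) = (m : K) * ((m - 1).choose (t - 1) : K) := by
    intro t ht
    obtain ⟨m', rfl⟩ : ∃ m', m = m' + 1 := ⟨m - 1, by omega⟩
    obtain ⟨t', rfl⟩ : ∃ t', t = t' + 1 := ⟨t - 1, by omega⟩
    simp only [Nat.add_sub_cancel]
    exact_mod_cast congrArg (Nat.cast (R := K)) (Nat.add_one_mul_choose_eq m' t').symm
  by_cases hpm : p ∣ m
  · rcases Nat.eq_or_lt_of_le (Nat.le_of_dvd (by omega) hpm) with h | h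
    · -- `m = p`
      subst h
      have hct : ∀ t, 0 < t → t < p → c t = c 1 * (Nch p t : K) := by
        intro t ht htp
        have ht0 : (t : K) ≠ 0 := natCast_ne_zero p (Nat.not_dvd_of_pos_of_lt ht htp)
        apply mul_right_cancel₀ ht0
        rw [hb t ht htp, mul_assoc, N_mul p ht htp]
      have hc1 : c 1 = 0 := by
        have h1 : ∑ t ∈ range p, ∑ i ∈ Ioo 0 p, c i * (t : K) ^ (p - i)
            = c 1 * ((∑ t ∈ range p, ∑ i ∈ Ioo 0 p,
              (Nch p i : ℤ) * (t : ℤ) ^ (p - i) : ℤ) : K) := by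
          push_cast
          rw [mul_sum]
          refine sum_congr rfl fun t _ => ?_
          rw [mul_sum]
          refine sum_congr rfl fun i hi => ?_
          rw [mem_Ioo] at hi
          rw [hct i hi.1 hi.2]
          push_cast
          ring
        rw [h1, sum_N] at hsum
        push_cast at hsum
        rw [CharP.cast_eq_zero, zero_pow (by have := hp.two_le; omega)] at hsum
        simpa using hsum
      refine ⟨0, fun i hi him => ?_⟩
      rw [hct i hi him, hc1, zero_mul, zero_mul]
    · -- `p ∣ m`, `p < m`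
      obtain ⟨m', rfl⟩ := hpm
      have hm' : 2 ≤ m' := by
        by_contra hlt
        have h2 : m' = 0 ∨ m' = 1 := by omega
        rcases h2 with rfl | rfl
        · omega
        · omega
      have hlt : m' < p * m' := by have := hp.two_le; nlinarith
      have hc1 : c 1 = 0 := by
        have h1 := hb p hp.pos h
        rw [CharP.cast_eq_zero K p, mul_zero] at h1
        have h2 : (((p * m' - 1).choose (p - 1) : ℕ) : K) = ((1 : ℕ) : K) := by
          apply natCast_eq_of_modEq p
          have h3 := Choose.choose_modEq_choose_mod_mul_choose_div_nat (p := p)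
            (n := p * m' - 1) (k := p - 1)
          have h4 : (p * m' - 1) % p = p - 1 := by
            obtain ⟨m'', rfl⟩ : ∃ m'', m' = m'' + 1 := ⟨m' - 1, by omega⟩
            have : p * (m'' + 1) - 1 = (p - 1) + p * m'' := by
              have := hp.pos
              rw [Nat.mul_add, Nat.mul_one]; omega
            rw [this, Nat.add_mul_mod_self_left]
            exact Nat.mod_eq_of_lt (by have := hp.pos; omega)
          have h5 : (p - 1) % p = p - 1 := Nat.mod_eq_of_lt (by have := hp.pos; omega)
          have h6 : (p - 1) / p = 0 := Nat.div_eq_of_lt (by have := hp.pos; omega)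
          rw [h4, h5, h6, Nat.choose_self, Nat.choose_zero_right, mul_one] at h3
          exact h3
        rw [h2, Nat.cast_one, mul_one] at h1
        exact h1.symm
      have hnd : ∀ t, 0 < t → t < p * m' → ¬ p ∣ t → c t = 0 := by
        intro t ht htm hpt
        have h1 := hb t ht htm
        rw [hc1, zero_mul] at h1
        exact (mul_eq_zero.1 h1).resolve_right (natCast_ne_zero p hpt)
      obtain ⟨γ, hγ⟩ := ih m' hlt hm' (fun i => c (p * i))
        (by
          intro i hi him
          show c (p * i) = c (p * (m' - i))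
          rw [hs (p * i) (Nat.mul_pos hp.pos hi) (Nat.mul_lt_mul_of_pos_left him hp.pos),
            Nat.mul_sub])
        (by
          intro i j hi hj hij
          show c (p * (i + j)) * _ = c (p * i) * _
          have h1 := hc (p * i) (p * j) (Nat.mul_pos hp.pos hi) (Nat.mul_pos hp.pos hj)
            (by rw [← Nat.mul_add]; exact Nat.mul_lt_mul_of_pos_left hij hp.pos)
          rw [← Nat.mul_add, ← Nat.mul_sub] at h1
          rw [natCast_eq_of_modEq (K := K) p (Choose.choose_mul_mul_modEq_choose_nat (p := p)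
              (a := i + j) (b := i)),
            natCast_eq_of_modEq (K := K) p (Choose.choose_mul_mul_modEq_choose_nat (p := p)
              (a := m' - i) (b := j))] at h1
          exact h1)
        (by
          rw [← hsum]
          refine sum_congr rfl fun t _ => ?_
          have h1 : ∑ i ∈ Ioo 0 (p * m'), c i * (t : K) ^ (p * m' - i)
              = ∑ i ∈ (Ioo 0 m').image (fun i => p * i), c i * (t : K) ^ (p * m' - i) := by
            symm
            apply sum_subset
            · intro i hi
              rw [mem_image] at hi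
              obtain ⟨j, hj, rfl⟩ := hi
              rw [mem_Ioo] at hj ⊢
              exact ⟨Nat.mul_pos hp.pos hj.1, Nat.mul_lt_mul_of_pos_left hj.2 hp.pos⟩
            · intro i hi hni
              rw [mem_Ioo] at hi
              rw [hnd i hi.1 hi.2, zero_mul]
              rintro ⟨j, rfl⟩
              apply hni
              rw [mem_image]
              refine ⟨j, ?_, rfl⟩
              rw [mem_Ioo]
              exact ⟨Nat.pos_of_mul_pos_left hi.1, Nat.lt_of_mul_lt_mul_left hi.2⟩
          rw [h1, sum_image (fun a _ b _ h => Nat.eq_of_mul_eq_mul_left hp.pos h)]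
          refine sum_congr rfl fun i _ => ?_
          rw [← Nat.mul_sub, pow_mul, natCast_pow_p p t])
      refine ⟨γ, fun i hi him => ?_⟩
      by_cases hpi : p ∣ i
      · obtain ⟨j, rfl⟩ := hpi
        have h1 := hγ j (Nat.pos_of_mul_pos_left hi) (Nat.lt_of_mul_lt_mul_left him)
        rw [natCast_eq_of_modEq (K := K) p (Choose.choose_mul_mul_modEq_choose_nat (p := p)
          (a := m') (b := j))]
        exact h1
      · rw [hnd i hi him hpi]
        have h1 := hch i hi
        rw [Nat.cast_mul, CharP.cast_eq_zero K p, zero_mul, zero_mul] at h1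
        rw [(mul_eq_zero.1 h1).resolve_right (natCast_ne_zero p hpi), mul_zero]
  · -- `p ∤ m`
    have hm0 : (m : K) ≠ 0 := natCast_ne_zero p hpm
    have key : ∀ t, 0 < t → t < m → ¬ p ∣ t → c t = c 1 / m * (m.choose t : K) := by
      intro t ht htm hpt
      have ht0 : (t : K) ≠ 0 := natCast_ne_zero p hpt
      apply mul_right_cancel₀ ht0
      rw [hb t ht htm, mul_assoc, hch t ht]
      field_simp
    refine ⟨c 1 / m, fun t ht htm => ?_⟩
    by_cases hpt : p ∣ t
    · rw [hs t ht htm, key (m - t) (by omega) (by omega) (fun h => hpm (by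
        have := dvd_add h hpt
        rwa [Nat.sub_add_cancel htm.le] at this)), Nat.choose_symm htm.le]
    · exact key t ht htm hpt

end LUC

end Crest.Agent.LU
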