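import Mathlib
import Crest.Agent.LU_A4
import Crest.Agent.LU_A6
import Crest.Agent.LU_A7

/-!
S0351 (blueprint LU), part LUC (helper89): coboundaries of series in the group of formal points,
leading coefficients.
-/

set_option autoImplicit false
set_option linter.unusedSectionVars false

noncomputable section

namespace Crest.Agent.LU

open Crest.LubinTate

namespace LUC

open Finset

variable {R : Type*} [CommRing R] {F : FormalGroup R} [F.IsComm]

/-- Evaluation of a series at a point, additive in the series. -/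
def evPt {σ : Type*} (a : FPt F σ) : FPt F Unit →+ FPt F σ where
  toFun φ := ⟨cmp (φ.val : PowerSeries R) a.val, constantCoeff_cmp φ.prop a.prop⟩
  map_zero' := by
    ext1
    exact cmp_zero_left a.prop
  map_add' φ ψ := FPt.ext (cmp_fadd F φ.prop ψ.prop a.prop)

theorem evPt_val {σ : Type*} (a : FPt F σ) (φ : FPt F Unit) :
    (evPt a φ).val = cmp (φ.val : PowerSeries R) a.val := rfl

/-- The coboundary of `φ` at the points `a, b`. -/
def dlt {σ : Type*} (a b : FPt F σ) : FPt F Unit →+ FPt F σ :=
  evPt (a + b) - evPt a - evPt b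

theorem dlt_apply {σ : Type*} (a b : FPt F σ) (φ : FPt F Unit) :
    dlt a b φ = evPt (a + b) φ - evPt a φ - evPt b φ := rfl

theorem dlt_symm {σ : Type*} (a b : FPt F σ) (φ : FPt F Unit) :
    dlt a b φ = dlt b a φ := by
  rw [dlt_apply, dlt_apply, add_comm a b]; abel

theorem dlt_cocycle {σ : Type*} (a b c : FPt F σ) (φ : FPt F Unit) :
    dlt a b φ + dlt (a + b) c φ = dlt b c φ + dlt a (b + c) φ := by
  rw [dlt_apply, dlt_apply, dlt_apply, dlt_apply, add_assoc a b c]; abel

theorem evPt_zero {σ : Type*} (φ : FPt F Unit) : evPt (0 : FPt F σ) φ = 0 := by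
  ext1
  exact PowerSeries.subst_zero_of_constantCoeff_zero φ.prop

theorem dlt_zero_right {σ : Type*} (a : FPt F σ) (φ : FPt F Unit) :
    dlt a 0 φ = 0 := by
  rw [dlt_apply, evPt_zero, add_zero]; abel

/-- The two coordinate points. -/
def pX (F : FormalGroup R) (s : Fin 2) : FPt F (Fin 2) := ⟨MvPowerSeries.X s, by simp⟩

/-- Substitution of a pair of points. -/
def sub2 {σ : Type*} (a b : FPt F σ) : FPt F (Fin 2) →+ FPt F σ where
  toFun f := ⟨MvPowerSeries.subst ![a.val, b.val] f.val, by
    rw [A7.constantCoeff_subst (hasSubst_pair a.prop b.prop)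
      (fun s => by fin_cases s <;> [exact a.prop; exact b.prop])]
    exact f.prop⟩
  map_zero' := by
    ext1
    show MvPowerSeries.subst ![a.val, b.val] (0 : MvPowerSeries (Fin 2) R) = 0
    rw [← MvPowerSeries.coe_substAlgHom (hasSubst_pair a.prop b.prop), map_zero]
  map_add' f g := by
    ext1
    show MvPowerSeries.subst ![a.val, b.val] (fadd F f.val g.val) =
      fadd F (MvPowerSeries.subst ![a.val, b.val] f.val)
        (MvPowerSeries.subst ![a.val, b.val] g.val)
    unfold fadd
    rw [MvPowerSeries.subst_comp_subst_apply (hasSubst_pair f.prop g.prop)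
      (hasSubst_pair a.prop b.prop)]
    congr! 2 with s
    fin_cases s <;> rfl

theorem sub2_pX_zero {σ : Type*} (a b : FPt F σ) : sub2 a b (pX F 0) = a := by
  ext1
  show MvPowerSeries.subst ![a.val, b.val] (MvPowerSeries.X 0) = a.val
  rw [MvPowerSeries.subst_X (hasSubst_pair a.prop b.prop)]
  rfl

theorem sub2_pX_one {σ : Type*} (a b : FPt F σ) : sub2 a b (pX F 1) = b := by
  ext1
  show MvPowerSeries.subst ![a.val, b.val] (MvPowerSeries.X 1) = b.val
  rw [MvPowerSeries.subst_X (hasSubst_pair a.prop b.prop)]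
  rfl

theorem sub2_evPt {σ : Type*} (a b : FPt F σ) (c : FPt F (Fin 2)) (φ : FPt F Unit) :
    sub2 a b (evPt c φ) = evPt (sub2 a b c) φ := by
  ext1
  exact A7.subst_psubst (hasSubst_pair a.prop b.prop)
    (PowerSeries.HasSubst.of_constantCoeff_zero c.prop) (φ.val : PowerSeries R)

theorem dlt_eq_sub2 {σ : Type*} (a b : FPt F σ) (φ : FPt F Unit) :
    dlt a b φ = sub2 a b (dlt (pX F 0) (pX F 1) φ) := by
  rw [dlt_apply, dlt_apply, map_sub, map_sub, sub2_evPt, sub2_evPt, sub2_evPt, map_add,
    sub2_pX_zero, sub2_pX_one]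

/-- A series with zero coboundary is an endomorphism. -/
theorem isFGHom_of_dlt {φ : FPt F Unit} (h : dlt (pX F 0) (pX F 1) φ = 0) :
    IsFGHom F F (φ.val : PowerSeries R) := by
  refine isFGHom_of_fadd φ.prop fun a b ha hb => ?_
  have h1 := dlt_eq_sub2 (⟨a, ha⟩ : FPt F (Fin 2)) ⟨b, hb⟩ φ
  rw [h, map_zero, dlt_apply, sub_sub, sub_eq_zero] at h1
  exact congrArg FPt.val h1

/-! ### leading coefficients -/

/-- `F(u,v)` coefficients when `v` has order `≥ m`. -/
theorem coeff_fadd_of_ord (F : FormalGroup R) {m : ℕ} {u v : PowerSeries R}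
    (hu : PowerSeries.constantCoeff u = 0) (hv : PowerSeries.constantCoeff v = 0)
    (hm : ∀ l < m, PowerSeries.coeff l v = 0) {l : ℕ} (hl : l ≤ m) :
    PowerSeries.coeff l (fadd F u v : PowerSeries R) =
      PowerSeries.coeff l u + PowerSeries.coeff l v := by
  obtain ⟨K, hK, hF⟩ := A7.exists_decomp F
  have hs : MvPowerSeries.HasSubst ![u, v] := hasSubst_pair hu hv
  have h1 : (fadd F u v : PowerSeries R) = u + v * (MvPowerSeries.subst ![u, v] K) := by
    unfold fadd
    rw [hF, MvPowerSeries.subst_add hs, MvPowerSeries.subst_mul hs, MvPowerSeries.subst_X hs,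
      MvPowerSeries.subst_X hs]
    rfl
  have h2 : PowerSeries.constantCoeff (MvPowerSeries.subst ![u, v] K : PowerSeries R) = 1 := by
    have := A7.constantCoeff_subst hs (fun s => by fin_cases s <;> [exact hu; exact hv]) K
    rw [hK] at this
    exact this
  obtain ⟨w, hw⟩ := PowerSeries.X_pow_dvd_iff.2 hm
  rw [h1, map_add]
  congr 1
  generalize (MvPowerSeries.subst ![u, v] K : PowerSeries R) = Z at h2
  rw [hw, mul_assoc, PowerSeries.coeff_X_pow_mul', PowerSeries.coeff_X_pow_mul']
  split_ifs with h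
  · have : l - m = 0 := by omega
    rw [this, PowerSeries.coeff_zero_eq_constantCoeff_apply, map_mul, h2, mul_one,
      PowerSeries.coeff_zero_eq_constantCoeff_apply]
  · rfl

/-- The points of order `≥ m`. -/
def U (F : FormalGroup R) [F.IsComm] (m : ℕ) : AddSubgroup (FPt F Unit) where
  carrier := {u | ∀ l < m, PowerSeries.coeff l (u.val : PowerSeries R) = 0}
  zero_mem' := fun l _ => by exact map_zero _
  add_mem' := by
    intro u v hu hv l hl
    have := coeff_fadd_of_ord F u.prop v.prop hv hl.le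
    rw [hu l hl, hv l hl, add_zero] at this
    exact this
  neg_mem' := by
    intro v hv l hl
    have h1 : (-v) + v = 0 := neg_add_cancel v
    have := coeff_fadd_of_ord F (-v).prop v.prop hv hl.le
    have h2 : (fadd F (-v).val v.val) = 0 := congrArg FPt.val h1
    rw [h2, hv l hl, add_zero] at this
    rw [← this]
    exact map_zero _

theorem mem_U {m : ℕ} {u : FPt F Unit} :
    u ∈ U F m ↔ ∀ l < m, PowerSeries.coeff l (u.val : PowerSeries R) = 0 := Iff.rfl

theorem U_mono {m m' : ℕ} (h : m ≤ m') {u : FPt F Unit} (hu : u ∈ U F m') : u ∈ U F m :=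
  fun l hl => hu l (by omega)

theorem coeff_add_of_mem {m : ℕ} (u : FPt F Unit) {v : FPt F Unit} (hv : v ∈ U F m) {l : ℕ}
    (hl : l ≤ m) : PowerSeries.coeff l ((u + v).val : PowerSeries R) =
      PowerSeries.coeff l (u.val : PowerSeries R) + PowerSeries.coeff l (v.val : PowerSeries R) :=
  coeff_fadd_of_ord F u.prop v.prop hv hl

theorem coeff_neg_of_mem {m : ℕ} {v : FPt F Unit} (hv : v ∈ U F m) {l : ℕ}
    (hl : l ≤ m) : PowerSeries.coeff l ((-v).val : PowerSeries R) =
      - PowerSeries.coeff l (v.val : PowerSeries R) := by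
  have h := coeff_add_of_mem (-v) hv hl
  rw [neg_add_cancel] at h
  have h0 : PowerSeries.coeff l ((0 : FPt F Unit).val : PowerSeries R) = 0 := map_zero _
  rw [h0] at h
  exact eq_neg_of_add_eq_zero_left h.symm

theorem coeff_sub_of_mem {m : ℕ} (u : FPt F Unit) {v : FPt F Unit} (hv : v ∈ U F m) {l : ℕ}
    (hl : l ≤ m) : PowerSeries.coeff l ((u - v).val : PowerSeries R) =
      PowerSeries.coeff l (u.val : PowerSeries R) - PowerSeries.coeff l (v.val : PowerSeries R) := by
  rw [sub_eq_add_neg, coeff_add_of_mem u (neg_mem hv) hl, coeff_neg_of_mem hv hl, sub_eq_add_neg]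

/-- Points whose coefficients agree up to `M` differ by a point of order `≥ M`. -/
theorem sub_mem_U_of_coeff {M : ℕ} {u v : FPt F Unit}
    (h : ∀ l < M, PowerSeries.coeff l (u.val : PowerSeries R) =
      PowerSeries.coeff l (v.val : PowerSeries R)) : u - v ∈ U F M := by
  induction M with
  | zero => intro l hl; omega
  | succ M ih =>
    have h1 := ih (fun l hl => h l (by omega))
    intro l hl
    rcases Nat.lt_succ_iff_lt_or_eq.1 hl with h2 | rfl
    · exact h1 l h2
    · have h3 := coeff_add_of_mem v h1 le_rfl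
      rw [add_sub_cancel, h l (by omega)] at h3
      exact (left_eq_add.1 h3)

theorem coeff_of_lt_of_const {a : PowerSeries R} (ha : PowerSeries.constantCoeff a = 0) {l k : ℕ}
    (h : l < k) : PowerSeries.coeff l (a ^ k) = 0 := by
  have h1 : (PowerSeries.X : PowerSeries R) ∣ a := PowerSeries.X_dvd_iff.2 ha
  exact PowerSeries.X_pow_dvd_iff.1 (pow_dvd_pow_of_dvd h1 k) l h

theorem coeff_pow_self {a : PowerSeries R} (ha : PowerSeries.constantCoeff a = 0) (k : ℕ) :
    PowerSeries.coeff k (a ^ k) = (PowerSeries.coeff 1 a) ^ k := by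
  obtain ⟨b, rfl⟩ := PowerSeries.X_dvd_iff.2 ha
  rw [mul_pow, PowerSeries.coeff_X_pow_mul', if_pos le_rfl, Nat.sub_self,
    PowerSeries.coeff_zero_eq_constantCoeff_apply, map_pow]
  congr 1
  have := PowerSeries.coeff_succ_X_mul 0 b
  rw [zero_add] at this
  rw [this, PowerSeries.coeff_zero_eq_constantCoeff_apply]

end LUC

end Crest.Agent.LU
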