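import Mathlib
import Crest.Agent.LUC_2

/-!
S0351 (blueprint LU), part LUC (helper89): coefficient extraction for `f(a,b)` and base change.
-/

set_option autoImplicit false
set_option linter.unusedSectionVars false

noncomputable section

namespace Crest.Agent.LU

open Crest.LubinTate

namespace LUC

open Finset

variable {R : Type*} [CommRing R] {F : FormalGroup R} [F.IsComm]

/-- exponent `(i,j)` -/
def ex (i j : ℕ) : Fin 2 →₀ ℕ := Finsupp.single 0 i + Finsupp.single 1 j

@[simp] theorem ex_zero (i j : ℕ) : ex i j 0 = i := by simp [ex]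
@[simp] theorem ex_one (i j : ℕ) : ex i j 1 = j := by simp [ex]

theorem ex_self (d : Fin 2 →₀ ℕ) : ex (d 0) (d 1) = d := by
  ext s; fin_cases s <;> simp

theorem degree_ex (i j : ℕ) : (ex i j).degree = i + j := by
  rw [ex, map_add, Finsupp.degree_single, Finsupp.degree_single]

theorem degree_eq (d : Fin 2 →₀ ℕ) : d.degree = d 0 + d 1 := by
  conv_lhs => rw [← ex_self d]
  exact degree_ex _ _

theorem coeff_subst_pair (G : MvPowerSeries (Fin 2) R) {a b : PowerSeries R}
    (ha : PowerSeries.constantCoeff a = 0) (hb : PowerSeries.constantCoeff b = 0) (n : ℕ) :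
    PowerSeries.coeff n (G.subst ![a, b] : PowerSeries R) =
      finsum fun d : Fin 2 →₀ ℕ =>
        MvPowerSeries.coeff d G • PowerSeries.coeff n (a ^ d 0 * b ^ d 1) := by
  have h := MvPowerSeries.coeff_subst (hasSubst_pair (σ := Unit) (a := a) (b := b) ha hb) G
    (Finsupp.single () n)
  rw [PowerSeries.coeff, h]
  refine finsum_congr fun d => ?_
  congr 2
  rw [Finsupp.prod_fintype _ _ (by simp)]
  simp [Fin.prod_univ_two]

theorem coeff_mul_pow_of_lt {a b : PowerSeries R}
    (ha : PowerSeries.constantCoeff a = 0) (hb : PowerSeries.constantCoeff b = 0) {i j l : ℕ}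
    (h : l < i + j) : PowerSeries.coeff l (a ^ i * b ^ j) = 0 := by
  have h1 : (PowerSeries.X : PowerSeries R) ^ i ∣ a ^ i :=
    pow_dvd_pow_of_dvd (PowerSeries.X_dvd_iff.2 ha) i
  have h2 : (PowerSeries.X : PowerSeries R) ^ j ∣ b ^ j :=
    pow_dvd_pow_of_dvd (PowerSeries.X_dvd_iff.2 hb) j
  have h3 := mul_dvd_mul h1 h2
  rw [← pow_add] at h3
  exact PowerSeries.X_pow_dvd_iff.1 h3 l h

theorem coeff_mul_pow_self {a b : PowerSeries R}
    (ha : PowerSeries.constantCoeff a = 0) (hb : PowerSeries.constantCoeff b = 0) (i j : ℕ) :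
    PowerSeries.coeff (i + j) (a ^ i * b ^ j) =
      (PowerSeries.coeff 1 a) ^ i * (PowerSeries.coeff 1 b) ^ j := by
  obtain ⟨a', rfl⟩ := PowerSeries.X_dvd_iff.2 ha
  obtain ⟨b', rfl⟩ := PowerSeries.X_dvd_iff.2 hb
  have e : (PowerSeries.X * a') ^ i * (PowerSeries.X * b') ^ j =
      PowerSeries.X ^ (i + j) * (a' ^ i * b' ^ j) := by ring
  have h1 : ∀ c : PowerSeries R, PowerSeries.coeff 1 (PowerSeries.X * c) =
      PowerSeries.constantCoeff c := by
    intro c
    have := PowerSeries.coeff_succ_X_mul 0 c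
    rw [zero_add] at this
    rw [this, PowerSeries.coeff_zero_eq_constantCoeff_apply]
  rw [e, PowerSeries.coeff_X_pow_mul', if_pos le_rfl, Nat.sub_self,
    PowerSeries.coeff_zero_eq_constantCoeff_apply, map_mul, map_pow, map_pow, h1, h1]

/-- reduce a finsum over exponents to the antidiagonal. -/
theorem finsum_antidiagonal {M : Type*} [AddCommMonoid M] (m : ℕ) (g : (Fin 2 →₀ ℕ) → M)
    (hg : ∀ d : Fin 2 →₀ ℕ, d.degree ≠ m → g d = 0) :
    finsum g = ∑ ij ∈ antidiagonal m, g (ex ij.1 ij.2) := by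
  classical
  have hinj : Set.InjOn (fun ij : ℕ × ℕ => ex ij.1 ij.2) (antidiagonal m : Finset (ℕ × ℕ)) := by
    rintro ⟨i, j⟩ _ ⟨i', j'⟩ _ h
    have h0 := DFunLike.congr_fun h 0
    have h1 := DFunLike.congr_fun h 1
    simp only [ex_zero, ex_one] at h0 h1
    rw [h0, h1]
  rw [← sum_image (f := g) (s := antidiagonal m) (g := fun ij : ℕ × ℕ => ex ij.1 ij.2) hinj]
  apply finsum_eq_sum_of_support_subset
  intro d hd
  rw [Function.mem_support] at hd
  rw [mem_coe, mem_image]
  refine ⟨(d 0, d 1), ?_, ex_self d⟩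
  rw [HasAntidiagonal.mem_antidiagonal]
  by_contra h
  exact hd (hg d (by rwa [degree_eq]))

/-- L1: leading coefficient of `f(a,b)` for `f` of order `≥ m`. -/
theorem coeff_subst_of_ord {m : ℕ} (G : MvPowerSeries (Fin 2) R)
    (hG : ∀ i j, i + j < m → MvPowerSeries.coeff (ex i j) G = 0) {a b : PowerSeries R}
    (ha : PowerSeries.constantCoeff a = 0) (hb : PowerSeries.constantCoeff b = 0) :
    (∀ l < m, PowerSeries.coeff l (G.subst ![a, b] : PowerSeries R) = 0) ∧
    PowerSeries.coeff m (G.subst ![a, b] : PowerSeries R) =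
      ∑ ij ∈ antidiagonal m, MvPowerSeries.coeff (ex ij.1 ij.2) G *
        ((PowerSeries.coeff 1 a) ^ ij.1 * (PowerSeries.coeff 1 b) ^ ij.2) := by
  constructor
  · intro l hl
    rw [coeff_subst_pair G ha hb, ← finsum_zero (α := Fin 2 →₀ ℕ) (M := R)]
    refine finsum_congr fun d => ?_
    by_cases hd : d 0 + d 1 < m
    · have := hG _ _ hd
      rw [ex_self] at this
      rw [this, zero_smul]
    · rw [coeff_mul_pow_of_lt ha hb (by omega), smul_zero]
  · rw [coeff_subst_pair G ha hb, finsum_antidiagonal m]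
    · refine sum_congr rfl fun ij hij => ?_
      rw [HasAntidiagonal.mem_antidiagonal] at hij
      rw [ex_zero, ex_one, smul_eq_mul]
      congr 1
      rw [← hij, coeff_mul_pow_self ha hb]
    · intro d hd
      rw [degree_eq] at hd
      by_cases h : d 0 + d 1 < m
      · have := hG _ _ h
        rw [ex_self] at this
        rw [this, zero_smul]
      · rw [coeff_mul_pow_of_lt ha hb (by omega), smul_zero]

/-- G1: `f(rX, X)`. -/
theorem coeff_subst_line (G : MvPowerSeries (Fin 2) R) (r : R) (l : ℕ) :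
    PowerSeries.coeff l (G.subst ![(PowerSeries.C r * PowerSeries.X : PowerSeries R),
      (PowerSeries.X : PowerSeries R)] : PowerSeries R) =
      ∑ ij ∈ antidiagonal l, MvPowerSeries.coeff (ex ij.1 ij.2) G * r ^ ij.1 := by
  have ha : PowerSeries.constantCoeff (PowerSeries.C r * PowerSeries.X : PowerSeries R) = 0 := by
    simp
  have hb : PowerSeries.constantCoeff (PowerSeries.X : PowerSeries R) = 0 := by simp
  have e : ∀ i j : ℕ, (PowerSeries.C r * PowerSeries.X : PowerSeries R) ^ i * PowerSeries.X ^ j =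
      PowerSeries.C (r ^ i) * PowerSeries.X ^ (i + j) := by
    intro i j
    rw [mul_pow, map_pow, pow_add]; ring
  rw [coeff_subst_pair G ha hb, finsum_antidiagonal l]
  · refine sum_congr rfl fun ij hij => ?_
    rw [HasAntidiagonal.mem_antidiagonal] at hij
    rw [ex_zero, ex_one, smul_eq_mul, e, PowerSeries.coeff_C_mul, PowerSeries.coeff_X_pow,
      if_pos hij.symm, mul_one]
  · intro d hd
    rw [degree_eq] at hd
    rw [e, PowerSeries.coeff_C_mul, PowerSeries.coeff_X_pow, if_neg (Ne.symm hd), mul_zero,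
      smul_zero]

/-! ### base change -/

variable {S : Type*} [CommRing S]

/-- Base change of points. -/
def bc (f : R →+* S) (σ : Type*) : FPt F σ →+ FPt (F.map f) σ where
  toFun a := ⟨MvPowerSeries.map f a.val, by
    rw [← MvPowerSeries.coeff_zero_eq_constantCoeff_apply, MvPowerSeries.coeff_map,
      MvPowerSeries.coeff_zero_eq_constantCoeff_apply, a.prop, map_zero]⟩
  map_zero' := by ext1; exact map_zero _
  map_add' a b := FPt.ext (map_fadd F f a.prop b.prop)

theorem bc_evPt (f : R →+* S) {σ : Type*} (a : FPt F σ) (φ : FPt F Unit) :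
    bc f σ (evPt a φ) = evPt (bc f σ a) (bc f Unit φ) := by
  ext1
  exact map_cmp f (φ.val : PowerSeries R) a.prop

theorem bc_dlt (f : R →+* S) {σ : Type*} (a b : FPt F σ) (φ : FPt F Unit) :
    bc f σ (dlt a b φ) = dlt (bc f σ a) (bc f σ b) (bc f Unit φ) := by
  rw [dlt_apply, dlt_apply, map_sub, map_sub, bc_evPt, bc_evPt, bc_evPt, map_add]

theorem bc_pX (f : R →+* S) (s : Fin 2) : bc f (Fin 2) (pX F s) = pX (F.map f) s := by
  ext1
  exact MvPowerSeries.map_X f s

/-- the coefficients of the coboundary -/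
def cc (φ : FPt F Unit) (i j : ℕ) : R :=
  MvPowerSeries.coeff (ex i j) (dlt (pX F 0) (pX F 1) φ).val

theorem cc_bc (f : R →+* S) (φ : FPt F Unit) (i j : ℕ) :
    cc (bc f Unit φ) i j = f (cc φ i j) := by
  unfold cc
  rw [← bc_pX f, ← bc_pX f, ← bc_dlt]
  exact MvPowerSeries.coeff_map f _ _

/-- the point `rX` -/
def ln (F : FormalGroup R) (r : R) : FPt F Unit :=
  ⟨(PowerSeries.C r * PowerSeries.X : PowerSeries R), by
    show PowerSeries.constantCoeff (PowerSeries.C r * PowerSeries.X : PowerSeries R) = 0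
    simp⟩

theorem coeff_one_ln (r : R) : PowerSeries.coeff 1 ((ln F r).val : PowerSeries R) = r := by
  show PowerSeries.coeff 1 (PowerSeries.C r * PowerSeries.X : PowerSeries R) = r
  simp

theorem coeff_one_add (a b : FPt F Unit) :
    PowerSeries.coeff 1 ((a + b).val : PowerSeries R) =
      PowerSeries.coeff 1 (a.val : PowerSeries R) + PowerSeries.coeff 1 (b.val : PowerSeries R) :=
  coeff_one_fadd F a.prop b.prop

/-- L1 for coboundaries. -/
theorem dlt_mem {m : ℕ} {φ : FPt F Unit} (h : ∀ i j, i + j < m → cc φ i j = 0)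
    (a b : FPt F Unit) :
    dlt a b φ ∈ U F m ∧ PowerSeries.coeff m ((dlt a b φ).val : PowerSeries R) =
      ∑ ij ∈ antidiagonal m, cc φ ij.1 ij.2 *
        ((PowerSeries.coeff 1 (a.val : PowerSeries R)) ^ ij.1 *
          (PowerSeries.coeff 1 (b.val : PowerSeries R)) ^ ij.2) := by
  rw [dlt_eq_sub2]
  exact coeff_subst_of_ord _ h a.prop b.prop

/-- G1 for coboundaries. -/
theorem coeff_dlt_line (φ : FPt F Unit) (r : R) (l : ℕ) :
    PowerSeries.coeff l ((dlt (ln F r) (ptX F) φ).val : PowerSeries R) =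
      ∑ ij ∈ antidiagonal l, cc φ ij.1 ij.2 * r ^ ij.1 := by
  rw [dlt_eq_sub2]
  exact coeff_subst_line _ r l

/-- Monomial points `γ X^m`. -/
def mon (F : FormalGroup R) (γ : R) (m : ℕ) (hm : 0 < m) : FPt F Unit :=
  ⟨(PowerSeries.C γ * PowerSeries.X ^ m : PowerSeries R), by
    show PowerSeries.constantCoeff (PowerSeries.C γ * PowerSeries.X ^ m : PowerSeries R) = 0
    simp [hm.ne']⟩

theorem bc_mon (f : R →+* S) (γ : R) (m : ℕ) (hm : 0 < m) :
    bc f Unit (mon F γ m hm) = mon (F.map f) (f γ) m hm := by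
  ext1
  show PowerSeries.map f (PowerSeries.C γ * PowerSeries.X ^ m) =
    PowerSeries.C (f γ) * PowerSeries.X ^ m
  simp

theorem evPt_mon (γ : R) (m : ℕ) (hm : 0 < m) (a : FPt F Unit) :
    ((evPt a (mon F γ m hm)).val : PowerSeries R) =
      PowerSeries.C γ * (a.val : PowerSeries R) ^ m := by
  have ha : PowerSeries.HasSubst (a.val : PowerSeries R) :=
    PowerSeries.HasSubst.of_constantCoeff_zero a.prop
  show PowerSeries.subst (a.val : PowerSeries R) (PowerSeries.C γ * PowerSeries.X ^ m) = _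
  rw [PowerSeries.subst_mul ha, PowerSeries.subst_pow ha, PowerSeries.subst_X ha,
    PowerSeries.subst_C]
  rfl

end LUC

end Crest.Agent.LU
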