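import Mathlib
import Crest.Agent.LUC_1
import Crest.Agent.LUC_3

/-!
S0351 (blueprint LU), part LUC (helper89): the leading form of a coboundary is a symmetric cocycle;
the correction step.
-/

set_option autoImplicit false
set_option linter.unusedSectionVars false

noncomputable section

namespace Crest.Agent.LU

open Crest.LubinTate

namespace LUC

open Finset

variable {K : Type*} [Field K] {F : FormalGroup K} [F.IsComm]

theorem coeff_one_ptX {R : Type*} [CommRing R] (F : FormalGroup R) :
    PowerSeries.coeff 1 ((ptX F).val : PowerSeries R) = 1 := by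
  show PowerSeries.coeff 1 (PowerSeries.X : PowerSeries R) = 1
  simp

theorem sum_antidiagonal_coeff {A : Type*} [CommRing A] (m : ℕ) (c : ℕ → ℕ → A) {t : ℕ}
    (ht : t ≤ m) :
    (∑ ij ∈ antidiagonal m, Polynomial.C (c ij.1 ij.2) * Polynomial.X ^ ij.1).coeff t =
      c t (m - t) := by
  rw [Polynomial.finsetSum_coeff, Finset.sum_eq_single (t, m - t)]
  · simp
  · rintro ⟨i, j⟩ hij hne
    rw [HasAntidiagonal.mem_antidiagonal] at hij
    rw [Polynomial.coeff_C_mul, Polynomial.coeff_X_pow, if_neg, mul_zero]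
    intro h
    apply hne
    simp only at h hij ⊢
    subst h
    rw [Prod.mk.injEq]
    exact ⟨rfl, by omega⟩
  · intro h
    exact absurd (HasAntidiagonal.mem_antidiagonal.2 (by simp only; omega)) h

theorem sum_antidiagonal_coeff' {A : Type*} [CommRing A] (m : ℕ) (c : ℕ → ℕ → A) {t : ℕ}
    (ht : t ≤ m) :
    (∑ ij ∈ antidiagonal m, Polynomial.C (c ij.1 ij.2) * Polynomial.X ^ ij.2).coeff t =
      c (m - t) t := by
  rw [Polynomial.finsetSum_coeff, Finset.sum_eq_single (m - t, t)]
  · simp
  · rintro ⟨i, j⟩ hij hne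
    rw [HasAntidiagonal.mem_antidiagonal] at hij
    rw [Polynomial.coeff_C_mul, Polynomial.coeff_X_pow, if_neg, mul_zero]
    intro h
    apply hne
    simp only at h hij ⊢
    subst h
    rw [Prod.mk.injEq]
    exact ⟨by omega, rfl⟩
  · intro h
    exact absurd (HasAntidiagonal.mem_antidiagonal.2 (by simp only; omega)) h

theorem cc_bc_zero {S : Type*} [CommRing S] (f : K →+* S) {m : ℕ} {φ : FPt F Unit}
    (h : ∀ i j, i + j < m → cc φ i j = 0) :
    ∀ i j, i + j < m → cc (bc f Unit φ) i j = 0 := fun i j hij => by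
  rw [cc_bc, h i j hij, map_zero]

/-- symmetry -/
theorem cc_symm {m : ℕ} {φ : FPt F Unit} (h : ∀ i j, i + j < m → cc φ i j = 0) {t : ℕ}
    (ht : t ≤ m) : cc φ t (m - t) = cc φ (m - t) t := by
  set f : K →+* Polynomial K := Polynomial.C with hf
  have h' := cc_bc_zero f h
  have e1 := (dlt_mem h' (ln (F.map f) Polynomial.X) (ptX (F.map f))).2
  have e2 := (dlt_mem h' (ptX (F.map f)) (ln (F.map f) Polynomial.X)).2
  rw [dlt_symm, e2] at e1
  simp only [coeff_one_ln, coeff_one_ptX, one_pow, mul_one, one_mul, cc_bc, hf] at e1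
  have e3 := congrArg (fun q : Polynomial K => q.coeff t) e1
  rw [sum_antidiagonal_coeff m (cc φ) ht, sum_antidiagonal_coeff' m (cc φ) ht] at e3
  exact e3.symm

theorem cc_left_zero {m : ℕ} (_hm : 0 < m) {φ : FPt F Unit}
    (h : ∀ i j, i + j < m → cc φ i j = 0) : cc φ m 0 = 0 := by
  have e1 := (dlt_mem h (ptX F) 0).2
  rw [dlt_zero_right] at e1
  have h0 : PowerSeries.coeff m ((0 : FPt F Unit).val : PowerSeries K) = 0 := map_zero _
  have h1 : PowerSeries.coeff 1 ((0 : FPt F Unit).val : PowerSeries K) = 0 := map_zero _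
  rw [h0, h1, Finset.sum_eq_single (m, 0)] at e1
  · simpa [coeff_one_ptX] using e1.symm
  · rintro ⟨i, j⟩ hij hne
    rw [HasAntidiagonal.mem_antidiagonal] at hij
    have : j ≠ 0 := by
      rintro rfl
      apply hne
      simp only [add_zero] at hij
      rw [hij]
    simp [this]
  · intro h2
    exact absurd (HasAntidiagonal.mem_antidiagonal.2 (by simp)) h2

theorem cc_right_zero {m : ℕ} (hm : 0 < m) {φ : FPt F Unit}
    (h : ∀ i j, i + j < m → cc φ i j = 0) : cc φ 0 m = 0 := by
  have h1 := cc_symm h (t := 0) (Nat.zero_le m)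
  rw [Nat.sub_zero] at h1
  rw [h1, cc_left_zero hm h]

/-- the cocycle relation, in coefficients -/
theorem cc_cocycle {m : ℕ} {φ : FPt F Unit} (h : ∀ i j, i + j < m → cc φ i j = 0) {I J : ℕ}
    (hI : 0 < I) (hJ : 0 < J) (hIJ : I + J < m) :
    cc φ (I + J) (m - (I + J)) * ((I + J).choose I : K) =
      cc φ I (m - I) * ((m - I).choose J : K) := by
  set f : K →+* Polynomial (Polynomial K) := Polynomial.C.comp Polynomial.C with hf
  have h' := cc_bc_zero f h
  set x : Polynomial (Polynomial K) := Polynomial.C Polynomial.X with hx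
  set y : Polynomial (Polynomial K) := Polynomial.X with hy
  set ψ := bc f Unit φ with hψ
  set a := ln (F.map f) x with ha
  set b := ln (F.map f) y with hb
  set c := ptX (F.map f) with hc
  have e0 := dlt_cocycle a b c ψ
  have e1 := congrArg (fun u : FPt (F.map f) Unit => PowerSeries.coeff m
    (u.val : PowerSeries (Polynomial (Polynomial K)))) e0
  rw [coeff_add_of_mem _ (dlt_mem h' (a + b) c).1 le_rfl,
    coeff_add_of_mem _ (dlt_mem h' a (b + c)).1 le_rfl, (dlt_mem h' a b).2,
    (dlt_mem h' (a + b) c).2, (dlt_mem h' b c).2, (dlt_mem h' a (b + c)).2] at e1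
  rw [coeff_one_add, coeff_one_add, ha, hb, hc, coeff_one_ln, coeff_one_ln, coeff_one_ptX] at e1
  simp only [one_pow, mul_one, hψ, cc_bc] at e1
  have e2 := congrArg (fun q : Polynomial (Polynomial K) => (q.coeff J).coeff I) e1
  simp only [Polynomial.coeff_add] at e2
  have t1 : ((∑ ij ∈ antidiagonal m, f (cc φ ij.1 ij.2) * (x ^ ij.1 * y ^ ij.2)).coeff J).coeff I
      = 0 := by
    rw [Polynomial.finsetSum_coeff, Polynomial.finsetSum_coeff]
    refine Finset.sum_eq_zero fun ij hij => ?_
    rw [HasAntidiagonal.mem_antidiagonal] at hij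
    have : f (cc φ ij.1 ij.2) * (x ^ ij.1 * y ^ ij.2) =
        Polynomial.C (Polynomial.C (cc φ ij.1 ij.2) * Polynomial.X ^ ij.1) *
          Polynomial.X ^ ij.2 := by
      rw [hf, hx, hy, RingHom.comp_apply, map_mul, map_pow]; ring
    rw [this, Polynomial.coeff_C_mul, Polynomial.coeff_X_pow]
    split_ifs with h1
    · rw [mul_one, Polynomial.coeff_C_mul, Polynomial.coeff_X_pow, if_neg (by omega), mul_zero]
    · rw [mul_zero, Polynomial.coeff_zero]
  have t2 : ((∑ ij ∈ antidiagonal m, f (cc φ ij.1 ij.2) * (x + y) ^ ij.1).coeff J).coeff I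
      = cc φ (I + J) (m - (I + J)) * ((I + J).choose I : K) := by
    rw [Polynomial.finsetSum_coeff, Polynomial.finsetSum_coeff,
      Finset.sum_eq_single (I + J, m - (I + J))]
    · have : f (cc φ (I + J) (m - (I + J))) * (x + y) ^ (I + J) =
          Polynomial.C (Polynomial.C (cc φ (I + J) (m - (I + J)))) *
            (Polynomial.X + Polynomial.C Polynomial.X) ^ (I + J) := by
        rw [hf, hx, hy, RingHom.comp_apply, add_comm (Polynomial.C Polynomial.X)]
      simp only
      rw [this, Polynomial.coeff_C_mul, Polynomial.coeff_X_add_C_pow, Nat.add_sub_cancel,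
        ← mul_assoc, ← Polynomial.C_eq_natCast, Polynomial.coeff_mul_C, Polynomial.coeff_C_mul,
        Polynomial.coeff_X_pow, if_pos rfl, mul_one, Nat.choose_symm_add]
    · rintro ⟨i, j⟩ hij hne
      rw [HasAntidiagonal.mem_antidiagonal] at hij
      simp only at hij ⊢
      have hi : i ≠ I + J := by
        rintro rfl
        apply hne
        rw [Prod.mk.injEq]
        exact ⟨rfl, by omega⟩
      have : f (cc φ i j) * (x + y) ^ i =
          Polynomial.C (Polynomial.C (cc φ i j)) *
            (Polynomial.X + Polynomial.C Polynomial.X) ^ i := by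
        rw [hf, hx, hy, RingHom.comp_apply, add_comm (Polynomial.C Polynomial.X)]
      rw [this, Polynomial.coeff_C_mul, Polynomial.coeff_X_add_C_pow,
        ← mul_assoc, ← Polynomial.C_eq_natCast, Polynomial.coeff_mul_C, Polynomial.coeff_C_mul,
        Polynomial.coeff_X_pow]
      by_cases hiJ : i < J
      · rw [Nat.choose_eq_zero_of_lt hiJ, Nat.cast_zero, mul_zero]
      · rw [if_neg (by omega), mul_zero, zero_mul]
    · intro h2
      exact absurd (HasAntidiagonal.mem_antidiagonal.2 (by simp only; omega)) h2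
  have t3 : ((∑ ij ∈ antidiagonal m, f (cc φ ij.1 ij.2) * y ^ ij.1).coeff J).coeff I
      = 0 := by
    rw [Polynomial.finsetSum_coeff, Polynomial.finsetSum_coeff]
    refine Finset.sum_eq_zero fun ij hij => ?_
    have : f (cc φ ij.1 ij.2) * y ^ ij.1 =
        Polynomial.C (Polynomial.C (cc φ ij.1 ij.2)) * Polynomial.X ^ ij.1 := by
      rw [hf, hy, RingHom.comp_apply]
    rw [this, Polynomial.coeff_C_mul, Polynomial.coeff_X_pow]
    split_ifs with h1
    · rw [mul_one, Polynomial.coeff_C, if_neg hI.ne']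
    · rw [mul_zero, Polynomial.coeff_zero]
  have t4 : ((∑ ij ∈ antidiagonal m, f (cc φ ij.1 ij.2) *
      (x ^ ij.1 * (y + 1) ^ ij.2)).coeff J).coeff I
      = cc φ I (m - I) * ((m - I).choose J : K) := by
    rw [Polynomial.finsetSum_coeff, Polynomial.finsetSum_coeff,
      Finset.sum_eq_single (I, m - I)]
    · have : f (cc φ I (m - I)) * (x ^ I * (y + 1) ^ (m - I)) =
          Polynomial.C (Polynomial.C (cc φ I (m - I)) * Polynomial.X ^ I) *
            (Polynomial.X + 1) ^ (m - I) := by
        rw [hf, hx, hy, RingHom.comp_apply, map_mul, map_pow]; ring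
      simp only
      rw [this, Polynomial.coeff_C_mul, Polynomial.coeff_X_add_one_pow, ← Polynomial.C_eq_natCast,
        Polynomial.coeff_mul_C, Polynomial.coeff_C_mul,
        Polynomial.coeff_X_pow, if_pos rfl, mul_one]
    · rintro ⟨i, j⟩ hij hne
      rw [HasAntidiagonal.mem_antidiagonal] at hij
      simp only at hij ⊢
      have hi : i ≠ I := by
        rintro rfl
        apply hne
        rw [Prod.mk.injEq]
        exact ⟨rfl, by omega⟩
      have : f (cc φ i j) * (x ^ i * (y + 1) ^ j) =
          Polynomial.C (Polynomial.C (cc φ i j) * Polynomial.X ^ i) *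
            (Polynomial.X + 1) ^ j := by
        rw [hf, hx, hy, RingHom.comp_apply, map_mul, map_pow]; ring
      rw [this, Polynomial.coeff_C_mul, Polynomial.coeff_X_add_one_pow, ← Polynomial.C_eq_natCast,
        Polynomial.coeff_mul_C, Polynomial.coeff_C_mul,
        Polynomial.coeff_X_pow, if_neg (Ne.symm hi), mul_zero, zero_mul]
    · intro h2
      exact absurd (HasAntidiagonal.mem_antidiagonal.2 (by simp only; omega)) h2
  rw [t1, t2, t3, t4, zero_add, zero_add] at e2
  exact e2

/-- telescoping sum -/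
theorem sum_dlt (φ : FPt F Unit) (M : ℕ) :
    ∑ t ∈ range M, dlt (ptX F) (t • ptX F) φ =
      evPt (M • ptX F) φ - M • evPt (ptX F) φ := by
  induction M with
  | zero => simp [evPt_zero]
  | succ M ih =>
    have e1 : ptX F + M • ptX F = (M + 1) • ptX F := (succ_nsmul' _ _).symm
    rw [sum_range_succ, ih, dlt_apply, e1, succ_nsmul (evPt (ptX F) φ) M]
    abel

theorem coeff_one_nsmul (t : ℕ) :
    PowerSeries.coeff 1 ((t • ptX F).val : PowerSeries K) = (t : K) := by
  have : (t • ptX F).val = mulSeries F t := by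
    rw [nsmul_val]
    exact cmp_X _
  rw [this]
  exact coeff_one_mulSeries F t

theorem coeff_sum_of_mem {ι : Type*} {m : ℕ} (s : Finset ι) (u : ι → FPt F Unit)
    (h : ∀ i ∈ s, u i ∈ U F m) : PowerSeries.coeff m ((∑ i ∈ s, u i).val : PowerSeries K) =
      ∑ i ∈ s, PowerSeries.coeff m ((u i).val : PowerSeries K) := by
  classical
  induction s using Finset.induction_on with
  | empty => simp
  | insert i s hi ih =>
    rw [sum_insert hi, sum_insert hi, coeff_add_of_mem _
      (sum_mem fun j hj => h j (mem_insert_of_mem hj)) le_rfl,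
      ih fun j hj => h j (mem_insert_of_mem hj)]

/-- the sum condition -/
theorem cc_sum {m : ℕ} (hm : 0 < m) {φ : FPt F Unit} (h : ∀ i j, i + j < m → cc φ i j = 0)
    (p : ℕ) (hp : evPt (p • ptX F) φ = p • evPt (ptX F) φ) :
    ∑ t ∈ range p, ∑ i ∈ Ioo 0 m, cc φ i (m - i) * (t : K) ^ (m - i) = 0 := by
  have h1 := sum_dlt φ p
  rw [hp, sub_self] at h1
  have h2 := congrArg (fun u : FPt F Unit => PowerSeries.coeff m (u.val : PowerSeries K)) h1
  rw [coeff_sum_of_mem _ _ (fun t _ => (dlt_mem h (ptX F) (t • ptX F)).1)] at h2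
  have h0 : PowerSeries.coeff m ((0 : FPt F Unit).val : PowerSeries K) = 0 := map_zero _
  rw [h0] at h2
  rw [← h2]
  refine sum_congr rfl fun t _ => ?_
  rw [(dlt_mem h (ptX F) (t • ptX F)).2, coeff_one_ptX, coeff_one_nsmul,
    Finset.Nat.sum_antidiagonal_eq_sum_range_succ_mk]
  simp only [one_pow, one_mul]
  have e3 : range (m + 1) = insert 0 (insert m (Ioo 0 m)) := by
    ext i
    simp only [mem_range, mem_insert, mem_Ioo]
    omega
  rw [e3, sum_insert (by simp [hm.ne]), sum_insert (by simp), Nat.sub_zero, Nat.sub_self,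
    cc_right_zero hm h, cc_left_zero hm h, zero_mul, zero_mul, zero_add, zero_add]

end LUC

end Crest.Agent.LU
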