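import Mathlib
import Crest.Agent.LUC_4

/-!
S0351 (blueprint LU), part LUC (helper89): existence of endomorphisms with prescribed leading term.
-/

set_option autoImplicit false
set_option linter.unusedSectionVars false

noncomputable section

namespace Crest.Agent.LU

open Crest.LubinTate

namespace LUC

open Finset

variable {K : Type*} [Field K] {F : FormalGroup K} [F.IsComm]

/-- The coboundary of `φ` has order `≥ m`. -/
def Good (φ : FPt F Unit) (m : ℕ) : Prop := ∀ i j, i + j < m → cc φ i j = 0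

/-- The line over `K[x]`. -/
def linePt (F : FormalGroup K) : FPt (F.map (Polynomial.C : K →+* Polynomial K)) Unit :=
  ln (F.map Polynomial.C) Polynomial.X

theorem good_iff (φ : FPt F Unit) (m : ℕ) :
    Good φ m ↔ dlt (linePt F) (ptX (F.map (Polynomial.C : K →+* Polynomial K)))
      (bc Polynomial.C Unit φ) ∈ U (F.map (Polynomial.C : K →+* Polynomial K)) m := by
  constructor
  · intro h
    exact (dlt_mem (cc_bc_zero Polynomial.C h) _ _).1
  · intro h i j hij
    have h1 := h (i + j) hij
    unfold linePt at h1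
    rw [coeff_dlt_line] at h1
    simp only [cc_bc] at h1
    have h2 := sum_antidiagonal_coeff (i + j) (cc φ) (t := i) (by omega)
    rw [h1, Nat.add_sub_cancel_left, Polynomial.coeff_zero] at h2
    exact h2.symm

theorem good_add {m : ℕ} {φ ψ : FPt F Unit} (h1 : Good φ m) (h2 : Good ψ m) :
    Good (φ + ψ) m := by
  rw [good_iff] at *
  rw [map_add, map_add]
  exact add_mem h1 h2

theorem good_sub {m : ℕ} {φ ψ : FPt F Unit} (h1 : Good φ m) (h2 : Good ψ m) :
    Good (φ - ψ) m := by
  rw [good_iff] at *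
  rw [map_sub, map_sub]
  exact sub_mem h1 h2

/-- Evaluation of a point of order `≥ m` has order `≥ m`. -/
theorem evPt_mem {R : Type*} [CommRing R] {F : FormalGroup R} [F.IsComm] {m : ℕ}
    {w : FPt F Unit} (hw : w ∈ U F m) (a : FPt F Unit) : evPt a w ∈ U F m := by
  intro l hl
  have ha : PowerSeries.HasSubst (a.val : PowerSeries R) :=
    PowerSeries.HasSubst.of_constantCoeff_zero a.prop
  obtain ⟨v, hv⟩ := PowerSeries.X_pow_dvd_iff.2 hw
  show PowerSeries.coeff l (PowerSeries.subst (a.val : PowerSeries R) (w.val : PowerSeries R)) = 0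
  rw [hv, PowerSeries.subst_mul ha, PowerSeries.subst_pow ha, PowerSeries.subst_X ha]
  have h1 : (PowerSeries.X : PowerSeries R) ∣ (a.val : PowerSeries R) :=
    PowerSeries.X_dvd_iff.2 a.prop
  exact PowerSeries.X_pow_dvd_iff.1 ((pow_dvd_pow_of_dvd h1 m).mul_right _) l hl

theorem bc_mem {R S : Type*} [CommRing R] [CommRing S] {F : FormalGroup R} [F.IsComm] {m : ℕ}
    (f : R →+* S) {w : FPt F Unit} (hw : w ∈ U F m) : bc f Unit w ∈ U (F.map f) m := by
  intro l hl
  show PowerSeries.coeff l (PowerSeries.map f (w.val : PowerSeries R)) = 0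
  rw [PowerSeries.coeff_map, hw l hl, map_zero]

theorem good_of_mem {m : ℕ} {w : FPt F Unit} (hw : w ∈ U F m) : Good w m := by
  rw [good_iff, dlt_apply]
  have := bc_mem (Polynomial.C : K →+* Polynomial K) hw
  exact sub_mem (sub_mem (evPt_mem this _) (evPt_mem this _)) (evPt_mem this _)

theorem good_mono {m m' : ℕ} (h : m ≤ m') {φ : FPt F Unit} (hφ : Good φ m') : Good φ m :=
  fun i j hij => hφ i j (by omega)

theorem isFGHom_of_good {φ : FPt F Unit} (h : ∀ m, Good φ m) :
    IsFGHom F F (φ.val : PowerSeries K) := by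
  apply isFGHom_of_dlt
  ext1
  show (dlt (pX F 0) (pX F 1) φ).val = (0 : MvPowerSeries (Fin 2) K)
  ext d
  have := h (d 0 + d 1 + 1) (d 0) (d 1) (by omega)
  unfold cc at this
  rw [ex_self] at this
  rw [this, map_zero]

/-- the coboundary of a monomial -/
theorem mon_mem {R : Type*} [CommRing R] {F : FormalGroup R} [F.IsComm] (γ : R) {m : ℕ}
    (hm : 0 < m) (a : FPt F Unit) : evPt a (mon F γ m hm) ∈ U F m ∧
      PowerSeries.coeff m ((evPt a (mon F γ m hm)).val : PowerSeries R) =
        γ * (PowerSeries.coeff 1 (a.val : PowerSeries R)) ^ m := by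
  constructor
  · intro l hl
    rw [evPt_mon, PowerSeries.coeff_C_mul, coeff_of_lt_of_const a.prop hl, mul_zero]
  · rw [evPt_mon, PowerSeries.coeff_C_mul, coeff_pow_self a.prop]

theorem dlt_mon {R : Type*} [CommRing R] {F : FormalGroup R} [F.IsComm] (γ : R) {m : ℕ}
    (hm : 0 < m) (a b : FPt F Unit) : dlt a b (mon F γ m hm) ∈ U F m ∧
      PowerSeries.coeff m ((dlt a b (mon F γ m hm)).val : PowerSeries R) =
        γ * ((PowerSeries.coeff 1 (a.val : PowerSeries R) +
          PowerSeries.coeff 1 (b.val : PowerSeries R)) ^ m -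
          (PowerSeries.coeff 1 (a.val : PowerSeries R)) ^ m -
          (PowerSeries.coeff 1 (b.val : PowerSeries R)) ^ m) := by
  obtain ⟨h1, e1⟩ := mon_mem γ hm (a + b)
  obtain ⟨h2, e2⟩ := mon_mem γ hm a
  obtain ⟨h3, e3⟩ := mon_mem γ hm b
  refine ⟨sub_mem (sub_mem h1 h2) h3, ?_⟩
  rw [dlt_apply, coeff_sub_of_mem _ h3 le_rfl, coeff_sub_of_mem _ h2 le_rfl, e1, e2, e3,
    coeff_one_add]
  ring

/-- The correction step. -/
theorem step (p : ℕ) [Fact p.Prime] [CharP K p] {m : ℕ} (hm : 2 ≤ m) {φ : FPt F Unit}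
    (h : Good φ m) (hp : evPt (p • ptX F) φ = p • evPt (ptX F) φ) :
    ∃ γ : K, Good (φ - mon F γ m (by omega)) (m + 1) := by
  have hm0 : 0 < m := by omega
  obtain ⟨γ, hγ⟩ := lazard p m hm (fun i => cc φ i (m - i))
    (by
      intro i hi him
      show cc φ i (m - i) = cc φ (m - i) (m - (m - i))
      rw [cc_symm h him.le]
      congr 1
      omega)
    (by
      intro i j hi hj hij
      exact cc_cocycle h hi hj hij)
    (cc_sum hm0 h p hp)
  refine ⟨γ, ?_⟩
  rw [good_iff]
  have h1 := (good_iff φ m).1 h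
  have e1 := (dlt_mem (cc_bc_zero (Polynomial.C : K →+* Polynomial K) h) (linePt F)
    (ptX (F.map (Polynomial.C : K →+* Polynomial K)))).2
  obtain ⟨h2, e2⟩ := dlt_mon (F := F.map (Polynomial.C : K →+* Polynomial K))
    (Polynomial.C γ) hm0 (linePt F) (ptX (F.map (Polynomial.C : K →+* Polynomial K)))
  rw [map_sub, bc_mon, map_sub]
  intro l hl
  rcases Nat.lt_succ_iff_lt_or_eq.1 hl with h3 | rfl
  · exact (sub_mem h1 h2) l h3
  · rw [coeff_sub_of_mem _ h2 le_rfl, e1, e2]
    unfold linePt
    simp only [coeff_one_ln, coeff_one_ptX, one_pow, mul_one, cc_bc]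
    rw [Finset.Nat.sum_antidiagonal_eq_sum_range_succ_mk]
    have e3 : range (l + 1) = insert 0 (insert l (Ioo 0 l)) := by
      ext i
      simp only [mem_range, mem_insert, mem_Ioo]
      omega
    have e4 : ((Polynomial.X : Polynomial K) + 1) ^ l = ∑ i ∈ range (l + 1),
        Polynomial.X ^ i * Polynomial.C ((l.choose i : ℕ) : K) := by
      rw [add_pow]
      refine sum_congr rfl fun i _ => ?_
      rw [one_pow, mul_one, Polynomial.C_eq_natCast]
    rw [e4, e3, sum_insert (by simp [hm0.ne]), sum_insert (by simp), sum_insert (by simp [hm0.ne]),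
      sum_insert (by simp), Nat.sub_zero, Nat.sub_self,
      cc_right_zero hm0 h, cc_left_zero hm0 h]
    simp only [map_zero, zero_mul, zero_add, pow_zero, Nat.choose_zero_right, Nat.cast_one, map_one,
      mul_one, Nat.choose_self]
    have e5 : (1 : Polynomial K) + (Polynomial.X ^ l + ∑ i ∈ Ioo 0 l,
        Polynomial.X ^ i * Polynomial.C ((l.choose i : ℕ) : K)) - Polynomial.X ^ l - 1 =
        ∑ i ∈ Ioo 0 l, Polynomial.X ^ i * Polynomial.C ((l.choose i : ℕ) : K) := by ring
    rw [e5, mul_sum, sub_eq_zero]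
    refine sum_congr rfl fun i hi => ?_
    rw [mem_Ioo] at hi
    have := hγ i hi.1 hi.2
    rw [this, map_mul]
    ring

/-- Monomials `ζ X^{p^k}` have coboundary of order `> p^k`. -/
theorem good_mon (p : ℕ) [Fact p.Prime] [CharP K p] (ζ : K) (k : ℕ) (hk : 0 < p ^ k) :
    Good (mon F ζ (p ^ k) hk) (p ^ k + 1) := by
  rw [good_iff, bc_mon]
  obtain ⟨h2, e2⟩ := dlt_mon (F := F.map (Polynomial.C : K →+* Polynomial K))
    (Polynomial.C ζ) hk (linePt F) (ptX (F.map (Polynomial.C : K →+* Polynomial K)))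
  intro l hl
  rcases Nat.lt_succ_iff_lt_or_eq.1 hl with h3 | rfl
  · exact h2 l h3
  · rw [e2, add_pow_char_pow]
    ring

end LUC

open LUC in
/-- **Existence of endomorphisms with prescribed leading term** over a field of characteristic `p`
for a law such that every series commutes with `[p]`. -/
theorem exists_end_gen {K : Type*} [Field K] (F : FormalGroup K) [F.IsComm] (p : ℕ)
    [Fact p.Prime] [CharP K p]
    (hp : ∀ φ : PowerSeries K, PowerSeries.constantCoeff φ = 0 →
      cmp φ (mulSeries F p) = cmp (mulSeries F p) φ) (ζ : K) (k : ℕ) :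
    ∃ a : PowerSeries K, IsFGHom F F a ∧ (∀ i < p ^ k, PowerSeries.coeff i a = 0) ∧
      PowerSeries.coeff (p ^ k) a = ζ := by
  classical
  have hp' : ∀ φ : FPt F Unit, evPt (p • ptX F) φ = p • evPt (ptX F) φ := by
    intro φ
    ext1
    rw [nsmul_val]
    show cmp (φ.val : PowerSeries K) ((p • ptX F).val) =
      cmp (mulSeries F p) (cmp (φ.val : PowerSeries K) (ptX F).val)
    rw [nsmul_val]
    have e1 : (ptX F).val = (PowerSeries.X : PowerSeries K) := rfl
    rw [e1, cmp_X, cmp_X]
    exact hp _ φ.prop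
  have hk : 0 < p ^ k := Nat.pow_pos (Fact.out : p.Prime).pos
  -- the sequence of approximations
  have hstep : ∀ (i : ℕ) (φ : {φ : FPt F Unit // Good φ (p ^ k + 1 + i)}),
      ∃ ψ : {φ : FPt F Unit // Good φ (p ^ k + 1 + (i + 1))},
        ∀ l < p ^ k + 1 + i, PowerSeries.coeff l (ψ.1.val : PowerSeries K) =
          PowerSeries.coeff l (φ.1.val : PowerSeries K) := by
    rintro i ⟨φ, hφ⟩
    obtain ⟨γ, hγ⟩ := step p (m := p ^ k + 1 + i) (by omega) hφ (hp' φ)
    refine ⟨⟨_, hγ⟩, fun l hl => ?_⟩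
    have hm : mon F γ (p ^ k + 1 + i) (by omega) ∈ U F (p ^ k + 1 + i) := by
      intro l hl
      show PowerSeries.coeff l (PowerSeries.C γ * PowerSeries.X ^ (p ^ k + 1 + i)) = 0
      rw [PowerSeries.coeff_C_mul, PowerSeries.coeff_X_pow, if_neg hl.ne, mul_zero]
    show PowerSeries.coeff l ((φ - mon F γ (p ^ k + 1 + i) (by omega)).val : PowerSeries K) = _
    rw [coeff_sub_of_mem _ hm hl.le, hm l hl, sub_zero]
  choose nxt hnxt using hstep
  let seq : ∀ i : ℕ, {φ : FPt F Unit // Good φ (p ^ k + 1 + i)} := fun i =>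
    Nat.rec (motive := fun i => {φ : FPt F Unit // Good φ (p ^ k + 1 + i)})
      ⟨mon F ζ (p ^ k) hk, good_mon p ζ k hk⟩ (fun i φ => nxt i φ) i
  have hseq : ∀ i, ∀ l < p ^ k + 1 + i, PowerSeries.coeff l ((seq (i + 1)).1.val : PowerSeries K) =
      PowerSeries.coeff l ((seq i).1.val : PowerSeries K) := fun i => hnxt i (seq i)
  have hstab : ∀ l i, l ≤ i → PowerSeries.coeff l ((seq i).1.val : PowerSeries K) =
      PowerSeries.coeff l ((seq l).1.val : PowerSeries K) := by
    intro l i hi
    induction i, hi using Nat.le_induction with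
    | base => rfl
    | succ i hi ih => rw [hseq i l (by omega), ih]
  have hstab0 : ∀ l i, l ≤ p ^ k → PowerSeries.coeff l ((seq i).1.val : PowerSeries K) =
      PowerSeries.coeff l ((mon F ζ (p ^ k) hk).val : PowerSeries K) := by
    intro l i hl
    induction i with
    | zero => rfl
    | succ i ih => rw [hseq i l (by omega), ih]
  let a : PowerSeries K := PowerSeries.mk fun l =>
    PowerSeries.coeff l ((seq l).1.val : PowerSeries K)
  have hmon : ∀ l, PowerSeries.coeff l ((mon F ζ (p ^ k) hk).val : PowerSeries K) =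
      if l = p ^ k then ζ else 0 := by
    intro l
    show PowerSeries.coeff l (PowerSeries.C ζ * PowerSeries.X ^ (p ^ k)) = _
    rw [PowerSeries.coeff_C_mul, PowerSeries.coeff_X_pow]
    split_ifs <;> simp
  have ha0 : PowerSeries.constantCoeff a = 0 := by
    rw [← PowerSeries.coeff_zero_eq_constantCoeff_apply, PowerSeries.coeff_mk]
    exact (PowerSeries.coeff_zero_eq_constantCoeff_apply _).trans (seq 0).1.prop
  let A : FPt F Unit := ⟨a, ha0⟩
  refine ⟨a, ?_, ?_, ?_⟩
  · apply isFGHom_of_good (φ := A)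
    intro m
    have h1 : A - (seq m).1 ∈ U F m := by
      apply sub_mem_U_of_coeff
      intro l hl
      show PowerSeries.coeff l a = _
      rw [PowerSeries.coeff_mk, hstab l m hl.le]
    have h2 : A = (A - (seq m).1) + (seq m).1 := by abel
    rw [h2]
    exact good_add (good_of_mem h1) (good_mono (by omega) (seq m).2)
  · intro i hi
    rw [PowerSeries.coeff_mk, hstab0 i i hi.le, hmon, if_neg hi.ne]
  · rw [PowerSeries.coeff_mk, hstab0 _ _ le_rfl, hmon, if_pos rfl]

/-- Over the field with `p^n` elements every series commutes with `X^{p^n}`. -/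
theorem cmp_X_pow_card (p : ℕ) [Fact p.Prime] {n : ℕ} (hn : 1 ≤ n)
    (φ : PowerSeries (GaloisField p n)) (h0 : PowerSeries.constantCoeff φ = 0) :
    cmp φ (PowerSeries.X ^ (p ^ n) : PowerSeries (GaloisField p n)) =
      cmp (PowerSeries.X ^ (p ^ n) : PowerSeries (GaloisField p n)) φ := by
  have : Finite (GaloisField p n) := inferInstance
  letI : Fintype (GaloisField p n) := Fintype.ofFinite _
  have hcard : Fintype.card (GaloisField p n) = p ^ n := by
    rw [Fintype.card_eq_nat_card, GaloisField.card p n (by omega)]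
  have hid : iterateFrobenius (GaloisField p n) p n = RingHom.id _ := by
    ext x
    rw [iterateFrobenius_def, RingHom.id_apply, ← hcard, FiniteField.pow_card]
  have h1 := cmp_pow p φ n (σ := Unit) (a := (PowerSeries.X : PowerSeries (GaloisField p n)))
    PowerSeries.constantCoeff_X
  rw [hid, PowerSeries.map_id, cmp_X] at h1
  have h2 : cmp (PowerSeries.X ^ (p ^ n) : PowerSeries (GaloisField p n)) φ = φ ^ (p ^ n) := by
    have hs : PowerSeries.HasSubst φ := PowerSeries.HasSubst.of_constantCoeff_zero' h0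
    show PowerSeries.subst φ (PowerSeries.X ^ (p ^ n)) = _
    rw [PowerSeries.subst_pow hs, PowerSeries.subst_X hs]
  rw [h2, h1]
  rfl

/-- TASK LUC (helper89).  For `Γ` over `k = F_q` with `[p]_Γ = X^q`, every `ζ ∈ k` and every `j`
there is an endomorphism of `Γ` with leading term `ζ X^{p^j}`. -/
theorem exists_end {p : ℕ} [Fact p.Prime] {n : ℕ} (hn : 1 ≤ n) {Γ : FormalGroup (GaloisField p n)}
    [Γ.IsComm] (hΓ : mulSeries Γ p = PowerSeries.X ^ (p ^ n)) (ζ : GaloisField p n) (j : ℕ) :
    ∃ a : PowerSeries (GaloisField p n), IsFGHom Γ Γ a ∧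
      (∀ i < p ^ j, PowerSeries.coeff i a = 0) ∧ PowerSeries.coeff (p ^ j) a = ζ :=
  exists_end_gen Γ p (fun φ h0 => by rw [hΓ]; exact cmp_X_pow_card p hn φ h0) ζ j

end Crest.Agent.LU
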