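import Mathlib
import Crest.Agent.LU_A3

/-!
S0351 (blueprint LU), task A5: transport of a law along an invertible series.
-/

set_option autoImplicit false

noncomputable section

namespace Crest.Agent.LU

open Crest.LubinTate

variable {R : Type*} [CommRing R]

private theorem A5_subst_cmp (φ : PowerSeries R) {σ τ : Type*} {u : MvPowerSeries σ R}
    (hu : MvPowerSeries.constantCoeff u = 0) {ζ : σ → MvPowerSeries τ R}
    (hζ : MvPowerSeries.HasSubst ζ) :
    MvPowerSeries.subst ζ (cmp φ u) = cmp φ (MvPowerSeries.subst ζ u) := by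
  have hu' : PowerSeries.HasSubst u := PowerSeries.HasSubst.of_constantCoeff_zero hu
  unfold cmp PowerSeries.subst
  rw [MvPowerSeries.subst_comp_subst_apply hu'.const hζ]

private theorem A5_subst_fadd (F : FormalGroup R) {σ τ : Type*} {a b : MvPowerSeries σ R}
    (ha : MvPowerSeries.constantCoeff a = 0) (hb : MvPowerSeries.constantCoeff b = 0)
    {ζ : σ → MvPowerSeries τ R} (hζ : MvPowerSeries.HasSubst ζ) :
    MvPowerSeries.subst ζ (fadd F a b) =
      fadd F (MvPowerSeries.subst ζ a) (MvPowerSeries.subst ζ b) := by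
  unfold fadd
  rw [MvPowerSeries.subst_comp_subst_apply (hasSubst_pair ha hb) hζ]
  congr! 2 with s
  fin_cases s
  · rfl
  · rfl

private theorem A5_cX (i : Fin 2) :
    MvPowerSeries.constantCoeff (MvPowerSeries.X i : MvPowerSeries (Fin 2) R) = 0 :=
  MvPowerSeries.constantCoeff_X i

/-- the conjugated series -/
private def A5_ser (F : FormalGroup R) (ψ χ : PowerSeries R) : MvPowerSeries (Fin 2) R :=
  cmp χ (fadd F (cmp ψ (MvPowerSeries.X 0 : MvPowerSeries (Fin 2) R))
    (cmp ψ (MvPowerSeries.X 1 : MvPowerSeries (Fin 2) R)))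

private theorem A5_key (F : FormalGroup R) {ψ χ : PowerSeries R}
    (h0 : PowerSeries.constantCoeff ψ = 0) {σ : Type*}
    {a b : MvPowerSeries σ R} (ha : MvPowerSeries.constantCoeff a = 0)
    (hb : MvPowerSeries.constantCoeff b = 0) :
    MvPowerSeries.subst ![a, b] (A5_ser F ψ χ) = cmp χ (fadd F (cmp ψ a) (cmp ψ b)) := by
  have hζ := hasSubst_pair ha hb
  have c0 := constantCoeff_cmp h0 (A5_cX (R := R) 0)
  have c1 := constantCoeff_cmp h0 (A5_cX (R := R) 1)
  unfold A5_ser
  rw [A5_subst_cmp χ (constantCoeff_fadd F c0 c1) hζ, A5_subst_fadd F c0 c1 hζ,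
    A5_subst_cmp ψ (A5_cX 0) hζ, A5_subst_cmp ψ (A5_cX 1) hζ, MvPowerSeries.subst_X hζ,
    MvPowerSeries.subst_X hζ]
  rfl

private theorem A5_cancel {ψ χ : PowerSeries R}
    (g0 : PowerSeries.constantCoeff χ = 0) (h : cmp ψ χ = (PowerSeries.X : PowerSeries R))
    {σ : Type*} {w : MvPowerSeries σ R} (hw : MvPowerSeries.constantCoeff w = 0) :
    cmp ψ (cmp χ w) = w := by
  rw [← cmp_assoc ψ g0 hw, h, X_cmp hw]

private theorem A5_coeff_left (P : MvPowerSeries (Fin 2) R) :
    PowerSeries.coeff 1 (MvPowerSeries.subst ![(PowerSeries.X : PowerSeries R), 0] P) =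
      MvPowerSeries.coeff (Finsupp.single 0 1) P := by
  rw [PowerSeries.coeff, MvPowerSeries.coeff_subst, finsum_eq_single _ (Finsupp.single 0 1)]
  · simp
  · intro d hd
    by_cases hd₁ : d 1 = 0
    · by_cases hd₀ : d 0 = 0
      · simp [hd₀, hd₁]
      simp [hd₁, PowerSeries.coeff_X_pow]
      grind
    simp [hd₁]
  · exact MvPowerSeries.HasSubst.X_zero

private theorem A5_coeff_right (P : MvPowerSeries (Fin 2) R) :
    PowerSeries.coeff 1 (MvPowerSeries.subst ![0, (PowerSeries.X : PowerSeries R)] P) =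
      MvPowerSeries.coeff (Finsupp.single 1 1) P := by
  rw [PowerSeries.coeff, MvPowerSeries.coeff_subst, finsum_eq_single _ (Finsupp.single 1 1)]
  · simp
  · intro d hd
    by_cases hd₁ : d 0 = 0
    · by_cases hd₀ : d 1 = 0
      · simp [hd₀, hd₁]
      simp [hd₁, PowerSeries.coeff_X_pow]
      grind
    simp [hd₁]
  · exact MvPowerSeries.HasSubst.zero_X

private theorem A5_cmp_zero {ψ : PowerSeries R} (h0 : PowerSeries.constantCoeff ψ = 0)
    {σ : Type*} : cmp ψ (0 : MvPowerSeries σ R) = 0 :=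
  PowerSeries.subst_zero_of_constantCoeff_zero h0

private def A5_law (F : FormalGroup R) {ψ χ : PowerSeries R}
    (h0 : PowerSeries.constantCoeff ψ = 0) (g0 : PowerSeries.constantCoeff χ = 0)
    (h1 : cmp ψ χ = (PowerSeries.X : PowerSeries R))
    (h2 : cmp χ ψ = (PowerSeries.X : PowerSeries R)) : FormalGroup R where
  toPowerSeries := A5_ser F ψ χ
  zero_constantCoeff := constantCoeff_cmp g0
    (constantCoeff_fadd F (constantCoeff_cmp h0 (A5_cX 0)) (constantCoeff_cmp h0 (A5_cX 1)))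
  lin_coeff_X := by
    have hX : MvPowerSeries.constantCoeff (PowerSeries.X : PowerSeries R) = 0 :=
      PowerSeries.constantCoeff_X
    rw [← A5_coeff_left, A5_key F h0 hX (map_zero _), A5_cmp_zero h0,
      fadd_zero F (constantCoeff_cmp h0 hX), cmp_X, h2]
    exact PowerSeries.coeff_one_X
  lin_coeff_Y := by
    have hX : MvPowerSeries.constantCoeff (PowerSeries.X : PowerSeries R) = 0 :=
      PowerSeries.constantCoeff_X
    rw [← A5_coeff_right, A5_key F h0 (map_zero _) hX, A5_cmp_zero h0,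
      zero_fadd F (constantCoeff_cmp h0 hX), cmp_X, h2]
    exact PowerSeries.coeff_one_X
  assoc := by
    have hY : ∀ i : Fin 3, MvPowerSeries.constantCoeff
        (MvPowerSeries.X i : MvPowerSeries (Fin 3) R) = 0 :=
      fun i => MvPowerSeries.constantCoeff_X i
    have cY := fun i => constantCoeff_cmp h0 (hY i)
    rw [A5_key F h0 (hY 0) (hY 1), A5_key F h0 (hY 1) (hY 2),
      A5_key F h0 (constantCoeff_cmp g0 (constantCoeff_fadd F (cY 0) (cY 1))) (hY 2),
      A5_key F h0 (hY 0) (constantCoeff_cmp g0 (constantCoeff_fadd F (cY 1) (cY 2))),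
      A5_cancel g0 h1 (constantCoeff_fadd F (cY 0) (cY 1)),
      A5_cancel g0 h1 (constantCoeff_fadd F (cY 1) (cY 2)),
      fadd_assoc F (cY 0) (cY 1) (cY 2)]

/-- TASK A5.  Transport of structure: for an invertible series `ψ` there is a law
`G = ψ⁻¹(F(ψ(X),ψ(Y)))` (commutative if `F` is) such that `ψ : G → F` is a homomorphism.
Use `exists_cmp_inv`. -/
theorem exists_conj (F : FormalGroup R) {ψ : PowerSeries R}
    (h0 : PowerSeries.constantCoeff ψ = 0) (h1 : IsUnit (PowerSeries.coeff 1 ψ)) :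
    ∃ G : FormalGroup R, (F.IsComm → G.IsComm) ∧ IsFGHom G F ψ := by
  obtain ⟨χ, g0, -, e1, e2⟩ := exists_cmp_inv h0 h1
  have c0 := constantCoeff_cmp h0 (A5_cX (R := R) 0)
  have c1 := constantCoeff_cmp h0 (A5_cX (R := R) 1)
  refine ⟨A5_law F h0 g0 e1 e2, fun hF => ⟨?_⟩, h0, ?_⟩
  · have h := A5_key F (χ := χ) h0 (A5_cX (R := R) 1) (A5_cX (R := R) 0)
    have hc := fadd_comm F c1 c0
    rw [hc] at h
    exact h.symm
  · exact A5_cancel g0 e1 (constantCoeff_fadd F c0 c1)

/-- The source law of an invertible homomorphism is determined by the target and the series. -/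
theorem source_unique {F G G' : FormalGroup R} {ψ : PowerSeries R}
    (h1 : IsUnit (PowerSeries.coeff 1 ψ)) (hG : IsFGHom G F ψ) (hG' : IsFGHom G' F ψ) :
    G = G' := by
  obtain ⟨χ, g0, -, e1, e2⟩ := exists_cmp_inv hG.1 h1
  have h : cmp ψ G.toPowerSeries = cmp ψ G'.toPowerSeries := hG.2.trans hG'.2.symm
  have h2 := congrArg (cmp χ) h
  rw [A5_cancel hG.1 e2 G.zero_constantCoeff, A5_cancel hG.1 e2 G'.zero_constantCoeff] at h2
  exact FormalGroup.ext h2

/-- The target law of an invertible homomorphism is determined by the source and the series. -/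
theorem target_unique {F G G' : FormalGroup R} {ψ : PowerSeries R}
    (h1 : IsUnit (PowerSeries.coeff 1 ψ)) (hG : IsFGHom F G ψ) (hG' : IsFGHom F G' ψ) :
    G = G' := by
  obtain ⟨χ, g0, -, e1, e2⟩ := exists_cmp_inv hG.1 h1
  have key : ∀ K : FormalGroup R, IsFGHom F K ψ →
      MvPowerSeries.subst ![cmp χ (MvPowerSeries.X 0 : MvPowerSeries (Fin 2) R),
        cmp χ (MvPowerSeries.X 1 : MvPowerSeries (Fin 2) R)] (cmp ψ F.toPowerSeries) =
      K.toPowerSeries := by
    intro K hK
    have c0 := constantCoeff_cmp g0 (A5_cX (R := R) 0)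
    have c1 := constantCoeff_cmp g0 (A5_cX (R := R) 1)
    have d0 := constantCoeff_cmp hK.1 (A5_cX (R := R) 0)
    have d1 := constantCoeff_cmp hK.1 (A5_cX (R := R) 1)
    have hζ := hasSubst_pair c0 c1
    have hh : cmp ψ F.toPowerSeries = fadd K (cmp ψ (MvPowerSeries.X 0 : MvPowerSeries (Fin 2) R))
      (cmp ψ (MvPowerSeries.X 1 : MvPowerSeries (Fin 2) R)) := hK.2
    rw [hh, A5_subst_fadd K d0 d1 hζ, A5_subst_cmp ψ (A5_cX 0) hζ, A5_subst_cmp ψ (A5_cX 1) hζ,
      MvPowerSeries.subst_X hζ, MvPowerSeries.subst_X hζ]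
    show fadd K (cmp ψ (cmp χ (MvPowerSeries.X 0 : MvPowerSeries (Fin 2) R)))
      (cmp ψ (cmp χ (MvPowerSeries.X 1 : MvPowerSeries (Fin 2) R))) = K.toPowerSeries
    rw [A5_cancel g0 e1 (A5_cX 0), A5_cancel g0 e1 (A5_cX 1)]
    unfold fadd
    have hX : (![MvPowerSeries.X 0, MvPowerSeries.X 1] : Fin 2 → MvPowerSeries (Fin 2) R) =
        MvPowerSeries.X := by
      funext i
      fin_cases i <;> rfl
    rw [hX, MvPowerSeries.subst_self]
    rfl
  exact FormalGroup.ext ((key G hG).symm.trans (key G' hG'))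

end Crest.Agent.LU
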