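import Mathlib
import Crest.Agent.LU_A5
import Crest.Agent.LU_A7
import Crest.Agent.LU_A8
import Crest.Agent.LU_B2b
import Crest.Agent.LU_B2c
import Crest.Agent.LU_B3

/-!
S0351 (blueprint LU), part LUZ (helper85): characteristic zero primes.  Definitions only.

`om F` = the invariant differential, `lg F` = the logarithm over a `ℚ`-algebra, `PRing` = a
complete local domain `O` of characteristic zero with `𝔪^c ⊆ pO`, `InP N s` = "the series `s` over
the fraction field lies in `p^N O[[σ]]`", `Bdd` = series with bounded denominators.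
-/

set_option autoImplicit false

noncomputable section

namespace Crest.Agent.LU

open Crest.LubinTate

namespace Z

section logarithm

variable {A : Type*} [CommRing A]

/-- `(∂₂F)(X,0)`: its `i`-th coefficient is the coefficient of `X^i Y` in `F`. -/
def dY (F : FormalGroup A) : PowerSeries A :=
  PowerSeries.mk fun i =>
    MvPowerSeries.coeff (Finsupp.single (0 : Fin 2) i + Finsupp.single 1 1) F.toPowerSeries

/-- The invariant differential `ω_F(X) = 1/(∂₂F)(X,0)`. -/
def om (F : FormalGroup A) : PowerSeries A := PowerSeries.invOfUnit (dY F) 1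

/-- The logarithm `∫ ω_F` of a law over a `ℚ`-algebra. -/
def lg [Algebra ℚ A] (F : FormalGroup A) : PowerSeries A :=
  PowerSeries.mk fun i => ((i : ℚ)⁻¹) • PowerSeries.coeff (i - 1) (om F)

end logarithm

/-- `O` is a complete Noetherian local domain with residue field `k`, of characteristic zero, in
which `𝔪^c ⊆ pO`. -/
structure PRing (p : ℕ) [Fact p.Prime] (n : ℕ) (O : Type) [CommRing O]
    [Algebra (WittVector p (GaloisField p n)) O] where
  /-- the residue map -/
  r : O →+* GaloisField p n
  test : IsTest p n O r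
  hp : (p : O) ≠ 0
  /-- the exponent -/
  c : ℕ
  hc : (RingHom.ker r) ^ c ≤ Ideal.span {(p : O)}

section InP

variable (p : ℕ) (O : Type) [CommRing O] {L : Type} [Field L] [Algebra O L]

/-- `s ∈ p^N O[[σ]]`. -/
def InP (N : ℕ) {σ : Type*} (s : MvPowerSeries σ L) : Prop :=
  ∀ d, ∃ b : O, MvPowerSeries.coeff d s = algebraMap O L ((p : O) ^ N * b)

/-- Base change to the fraction field. -/
abbrev toL (L : Type) [Field L] [Algebra O L] {σ : Type*} (z : MvPowerSeries σ O) :
    MvPowerSeries σ L := MvPowerSeries.map (algebraMap O L) z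

end InP

/-- Ring homomorphism of dual numbers. -/
def dmap {A B : Type*} [CommRing A] [CommRing B] (f : A →+* B) : DualNumber A →+* DualNumber B where
  toFun z := TrivSqZeroExt.inl (f z.fst) + TrivSqZeroExt.inr (f z.snd)
  map_one' := by ext <;> simp
  map_zero' := by ext <;> simp
  map_add' a b := by ext <;> simp
  map_mul' a b := by ext <;> simp

/-- `A → A[ε]`. -/
abbrev inlH (A : Type*) [CommRing A] : A →+* DualNumber A := TrivSqZeroExt.inlHom A A

/-- `A[ε] → A`. -/
def fstH (A : Type*) [CommRing A] : DualNumber A →+* A :=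
  (TrivSqZeroExt.fstHom A A A).toRingHom

theorem fstH_apply {A : Type*} [CommRing A] (z : DualNumber A) : fstH A z = z.fst := rfl

/-- `a + ε b` for series `a`, `b`. -/
def mkD {A : Type*} [CommRing A] {σ : Type*} (a b : MvPowerSeries σ A) :
    MvPowerSeries σ (DualNumber A) := fun d =>
  TrivSqZeroExt.inl (MvPowerSeries.coeff d a) + TrivSqZeroExt.inr (MvPowerSeries.coeff d b)

theorem coeff_mkD {A : Type*} [CommRing A] {σ : Type*} (a b : MvPowerSeries σ A) (d : σ →₀ ℕ) :
    MvPowerSeries.coeff d (mkD a b) = TrivSqZeroExt.inl (MvPowerSeries.coeff d a) +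
      TrivSqZeroExt.inr (MvPowerSeries.coeff d b) := rfl

/-- Series with bounded denominators: `b s ∈ O[[X]]` for some `b ≠ 0`. -/
def Bdd (O : Type) [CommRing O] [IsDomain O] (L : Type) [Field L] [Algebra O L]
    [IsFractionRing O L] : Submodule L (PowerSeries L) where
  carrier := {s | ∃ b : O, b ≠ 0 ∧
    ∀ i, ∃ a : O, algebraMap O L b * PowerSeries.coeff i s = algebraMap O L a}
  zero_mem' := ⟨1, one_ne_zero, fun i => ⟨0, by simp⟩⟩
  add_mem' := by
    rintro s t ⟨b, hb, hs⟩ ⟨c, hc, ht⟩
    refine ⟨b * c, mul_ne_zero hb hc, fun i => ?_⟩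
    obtain ⟨u, hu⟩ := hs i
    obtain ⟨v, hv⟩ := ht i
    refine ⟨c * u + b * v, ?_⟩
    rw [map_add, map_add, map_mul, map_mul, map_mul, ← hu, ← hv]
    ring
  smul_mem' := by
    rintro l s ⟨b, hb, hs⟩
    obtain ⟨u, v, hv, rfl⟩ := IsFractionRing.div_surjective (A := O) l
    have hv0 : v ≠ 0 := nonZeroDivisors.ne_zero hv
    refine ⟨v * b, mul_ne_zero hv0 hb, fun i => ?_⟩
    obtain ⟨a, ha⟩ := hs i
    refine ⟨u * a, ?_⟩
    have hv1 : algebraMap O L v ≠ 0 := by
      intro h
      exact hv0 ((IsFractionRing.injective O L) (by rw [h, map_zero]))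
    rw [map_mul, map_mul, ← ha, map_smul, smul_eq_mul]
    field_simp

end Z

end Crest.Agent.LU
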