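import Mathlib
import Crest.Agent.LUZ_0

/-!
S0351 (blueprint LU), part LUZ, task Z1: the logarithm.
-/

set_option autoImplicit false

noncomputable section

namespace Crest.Agent.LU

open Crest.LubinTate

namespace Z

variable {A : Type*} [CommRing A]

section Z1aux

variable {σ τ : Type*}

/-- coefficients of `G(X, 0)` -/
private theorem Z1_coeff_X0 (G : MvPowerSeries (Fin 2) A) (n : ℕ) :
    PowerSeries.coeff n (MvPowerSeries.subst (![PowerSeries.X, 0] : Fin 2 → PowerSeries A) G :
      PowerSeries A) = MvPowerSeries.coeff (Finsupp.single (0 : Fin 2) n) G := by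
  have h10 : MvPowerSeries.HasSubst (![PowerSeries.X, 0] : Fin 2 → PowerSeries A) :=
    MvPowerSeries.HasSubst.X_zero
  rw [PowerSeries.coeff, MvPowerSeries.coeff_subst h10,
    finsum_eq_single _ (Finsupp.single 0 n)]
  · simp [MvPowerSeries.coeff_X_pow, PowerSeries.X]
  · intro d hd
    by_cases hd₁ : d 1 = 0
    · by_cases hd₀ : d 0 = n
      · exact absurd (Finsupp.ext fun s => by fin_cases s <;> simp [hd₀, hd₁]) hd
      · have : ¬ n = d 0 := fun h => hd₀ h.symm
        simp [hd₁, MvPowerSeries.coeff_X_pow, PowerSeries.X, this]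
    · simp [hd₁]

private theorem Z1_dY (F : FormalGroup A) :
    dY F = (MvPowerSeries.subst (![PowerSeries.X, 0] : Fin 2 → PowerSeries A)
      (MvPowerSeries.pderiv A (1 : Fin 2) F.toPowerSeries) : PowerSeries A) := by
  ext n
  rw [Z1_coeff_X0, MvPowerSeries.coeff_pderiv, dY, PowerSeries.coeff_mk]
  simp

/-- chain rule for polynomials -/
private theorem Z1_chain_poly (i : τ) {a : Fin 2 → MvPowerSeries τ A}
    (ha : MvPowerSeries.HasSubst a) (q : MvPolynomial (Fin 2) A) :
    MvPowerSeries.pderiv A i (MvPowerSeries.subst a (q : MvPowerSeries (Fin 2) A)) =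
      ∑ s, MvPowerSeries.subst a (MvPowerSeries.pderiv A s (q : MvPowerSeries (Fin 2) A)) *
        MvPowerSeries.pderiv A i (a s) := by
  induction q using MvPolynomial.induction_on with
  | C r =>
    simp only [MvPolynomial.coe_C, MvPowerSeries.pderiv_C]
    rw [MvPowerSeries.subst_C]
    have h0 : MvPowerSeries.subst a (0 : MvPowerSeries (Fin 2) A) = 0 := by
      rw [← MvPowerSeries.coe_substAlgHom ha, map_zero]
    simp [h0]
  | add p q hp hq =>
    simp only [MvPolynomial.coe_add, map_add, MvPowerSeries.subst_add ha, hp, hq, add_mul,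
      Finset.sum_add_distrib]
  | mul_X p j hp =>
    simp only [MvPolynomial.coe_mul, MvPolynomial.coe_X, MvPowerSeries.subst_mul ha,
      MvPowerSeries.subst_X ha, Derivation.leibniz, smul_eq_mul, hp, MvPowerSeries.subst_add ha]
    rw [Finset.mul_sum]
    have h1 : ∀ s, MvPowerSeries.subst a (MvPowerSeries.pderiv A s
        (MvPowerSeries.X j : MvPowerSeries (Fin 2) A)) = if s = j then 1 else 0 := by
      intro s
      by_cases h : s = j
      · subst h
        rw [MvPowerSeries.pderiv_X_self, if_pos rfl, ← MvPowerSeries.coe_substAlgHom ha, map_one]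
      · rw [MvPowerSeries.pderiv_X_of_ne (Ne.symm h), if_neg h, ← MvPowerSeries.coe_substAlgHom ha,
          map_zero]
    simp only [h1]
    rw [Fin.sum_univ_two, Fin.sum_univ_two]
    fin_cases j
    · simp
      ring
    · simp
      ring

/-- chain rule -/
private theorem Z1_chain (i : τ) {a : Fin 2 → MvPowerSeries τ A}
    (ha0 : ∀ s, MvPowerSeries.constantCoeff (a s) = 0) (F : MvPowerSeries (Fin 2) A) :
    MvPowerSeries.pderiv A i (MvPowerSeries.subst a F) =
      ∑ s, MvPowerSeries.subst a (MvPowerSeries.pderiv A s F) * MvPowerSeries.pderiv A i (a s) := by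
  have ha : MvPowerSeries.HasSubst a := MvPowerSeries.hasSubst_of_constantCoeff_zero ha0
  have hord : (1 : ℕ∞) ≤ ⨅ s, (a s).order :=
    le_iInf fun s => MvPowerSeries.one_le_order_iff_constCoeff_eq_zero.mpr (ha0 s)
  -- series of order `≥ N` have small substitutions
  have hsmall : ∀ (G : MvPowerSeries (Fin 2) A) (N : ℕ),
      (∀ e : Fin 2 →₀ ℕ, e.degree < N → MvPowerSeries.coeff e G = 0) →
      ∀ e : τ →₀ ℕ, e.degree < N → MvPowerSeries.coeff e (MvPowerSeries.subst a G) = 0 := by
    intro G N hG e he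
    apply MvPowerSeries.coeff_of_lt_order
    have h1 : (N : ℕ∞) ≤ G.order := MvPowerSeries.nat_le_order hG
    have h2 := MvPowerSeries.le_order_subst ha G
    calc ((e.degree : ℕ) : ℕ∞) < N := by exact_mod_cast he
      _ ≤ G.order := h1
      _ = 1 * G.order := (one_mul _).symm
      _ ≤ (⨅ s, (a s).order) * G.order := mul_le_mul_left hord _
      _ ≤ _ := h2
  ext d
  set N := d.degree + 2 with hN
  set q := MvPowerSeries.truncTotal N F with hq
  set G := F - (q : MvPowerSeries (Fin 2) A) with hG
  have hFG : F = (q : MvPowerSeries (Fin 2) A) + G := by rw [hG]; ring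
  have hGc : ∀ e : Fin 2 →₀ ℕ, e.degree < N → MvPowerSeries.coeff e G = 0 := by
    intro e he
    rw [hG, map_sub, hq, MvPolynomial.coeff_coe, MvPowerSeries.coeff_truncTotal _ he, sub_self]
  have hGd : ∀ (s : Fin 2) (e : Fin 2 →₀ ℕ), e.degree < N - 1 →
      MvPowerSeries.coeff e (MvPowerSeries.pderiv A s G) = 0 := by
    intro s e he
    rw [MvPowerSeries.coeff_pderiv, hGc, zero_mul]
    rw [map_add, Finsupp.degree_single]
    omega
  have hpoly := Z1_chain_poly i ha q
  have h1 : MvPowerSeries.coeff d (MvPowerSeries.pderiv A i (MvPowerSeries.subst a G)) = 0 := by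
    rw [MvPowerSeries.coeff_pderiv, hsmall G N hGc, zero_mul]
    rw [map_add, Finsupp.degree_single]
    omega
  have h2 : ∀ s, MvPowerSeries.coeff d (MvPowerSeries.subst a (MvPowerSeries.pderiv A s G) *
      MvPowerSeries.pderiv A i (a s)) = 0 := by
    intro s
    classical
    rw [MvPowerSeries.coeff_mul]
    refine Finset.sum_eq_zero fun x hx => ?_
    rw [hsmall (MvPowerSeries.pderiv A s G) (N - 1) (hGd s), zero_mul]
    have h3 := Finset.HasAntidiagonal.mem_antidiagonal.1 hx
    have h4 : x.1.degree ≤ d.degree := by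
      rw [← h3, map_add]
      exact Nat.le_add_right _ _
    omega
  rw [hFG, MvPowerSeries.subst_add ha, map_add, map_add, hpoly, h1, add_zero]
  simp only [map_add, MvPowerSeries.subst_add ha, add_mul, Finset.sum_add_distrib]
  simp only [map_sum, h2, Finset.sum_const_zero, add_zero]

end Z1aux

/-- TASK Z1.  `dY F` has constant coefficient `1` and `om F * dY F = 1`. -/
theorem constantCoeff_dY (F : FormalGroup A) : PowerSeries.constantCoeff (dY F) = 1 := by
  rw [← PowerSeries.coeff_zero_eq_constantCoeff_apply, dY, PowerSeries.coeff_mk,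
    Finsupp.single_zero, zero_add]
  exact F.lin_coeff_Y

theorem om_mul_dY (F : FormalGroup A) : om F * dY F = 1 := by
  rw [mul_comm, om]
  exact PowerSeries.mul_invOfUnit _ _ (by rw [constantCoeff_dY, Units.val_one])

theorem constantCoeff_om (F : FormalGroup A) : PowerSeries.constantCoeff (om F) = 1 := by
  have h := congrArg PowerSeries.constantCoeff (om_mul_dY F)
  rw [map_mul, constantCoeff_dY, mul_one, map_one] at h
  exact h

/-- Base change. -/
theorem map_dY {B : Type*} [CommRing B] (f : A →+* B) (F : FormalGroup A) :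
    dY (F.map f) = PowerSeries.map f (dY F) := by
  ext i
  rw [PowerSeries.coeff_map, dY, dY, PowerSeries.coeff_mk, PowerSeries.coeff_mk,
    FormalGroup.map_toPowerSeries, MvPowerSeries.coeff_map]

theorem map_om {B : Type*} [CommRing B] (f : A →+* B) (F : FormalGroup A) :
    om (F.map f) = PowerSeries.map f (om F) := by
  have h1 := om_mul_dY (F.map f)
  have h2 := congrArg (PowerSeries.map f) (om_mul_dY F)
  rw [map_mul, map_one, ← map_dY] at h2
  calc om (F.map f) = om (F.map f) * (PowerSeries.map f (om F) * dY (F.map f)) := by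
        rw [h2, mul_one]
    _ = (om (F.map f) * dY (F.map f)) * PowerSeries.map f (om F) := by ring
    _ = PowerSeries.map f (om F) := by rw [h1, one_mul]

/-- Addition in the additive group. -/
theorem fadd_Ga {σ : Type*} {a b : MvPowerSeries σ A} (ha : MvPowerSeries.constantCoeff a = 0)
    (hb : MvPowerSeries.constantCoeff b = 0) : fadd (FormalGroup.𝔾ₐ (R := A)) a b = a + b := by
  have hab := hasSubst_pair ha hb
  show MvPowerSeries.subst ![a, b]
    (MvPowerSeries.X 0 + MvPowerSeries.X 1 : MvPowerSeries (Fin 2) A) = a + b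
  rw [MvPowerSeries.subst_add hab, MvPowerSeries.subst_X hab, MvPowerSeries.subst_X hab]
  rfl

/-- The invariance of `ω`: `ω(F(X,Y)) ∂₂F(X,Y) = ω(Y)`.
(Differentiate `F(X, F(Y,Z)) = F(F(X,Y), Z)` with respect to `Z` at `Z = 0`:
`(∂₂F)(X,Y) · (∂₂F)(Y,0) = (∂₂F)(F(X,Y),0)`; write `F(a, Z) = a + Z·(dY F)(a) + O(Z²)`.) -/
theorem om_invariant (F : FormalGroup A) :
    cmp (om F) F.toPowerSeries * MvPowerSeries.pderiv A (1 : Fin 2) F.toPowerSeries =
      cmp (om F) (MvPowerSeries.X 1 : MvPowerSeries (Fin 2) A) := by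
  set G := MvPowerSeries.pderiv A (1 : Fin 2) F.toPowerSeries with hG
  -- `subst ![a, 0] G = cmp (dY F) a`
  have hd : ∀ {σ : Type} {a : MvPowerSeries σ A}, MvPowerSeries.constantCoeff a = 0 →
      MvPowerSeries.subst ![a, 0] G = cmp (dY F) a := by
    intro σ a ha
    have ha' := (PowerSeries.HasSubst.of_constantCoeff_zero ha).const
    have h10 : MvPowerSeries.HasSubst (![PowerSeries.X, 0] : Fin 2 → PowerSeries A) :=
      MvPowerSeries.HasSubst.X_zero
    rw [Z1_dY]
    show _ = MvPowerSeries.subst (fun _ : Unit => a)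
      (MvPowerSeries.subst (![PowerSeries.X, 0] : Fin 2 → PowerSeries A) G)
    rw [MvPowerSeries.subst_comp_subst_apply h10 ha']
    congr 1
    funext s
    fin_cases s
    · show a = MvPowerSeries.subst (fun _ : Unit => a) (PowerSeries.X : PowerSeries A)
      exact (MvPowerSeries.subst_X ha' (s := ())).symm
    · show 0 = MvPowerSeries.subst (fun _ : Unit => a) (0 : MvPowerSeries Unit A)
      rw [← MvPowerSeries.coe_substAlgHom ha', map_zero]
  -- associativity in three variables
  let x : MvPowerSeries (Fin 3) A := MvPowerSeries.X 0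
  let y : MvPowerSeries (Fin 3) A := MvPowerSeries.X 1
  let z : MvPowerSeries (Fin 3) A := MvPowerSeries.X 2
  have hx : MvPowerSeries.constantCoeff x = 0 := MvPowerSeries.constantCoeff_X 0
  have hy : MvPowerSeries.constantCoeff y = 0 := MvPowerSeries.constantCoeff_X 1
  have hz : MvPowerSeries.constantCoeff z = 0 := MvPowerSeries.constantCoeff_X 2
  have hass := fadd_assoc F hx hy hz
  have hxy := constantCoeff_fadd F hx hy
  have hyz := constantCoeff_fadd F hy hz
  have hpair : ∀ {a b : MvPowerSeries (Fin 3) A}, MvPowerSeries.constantCoeff a = 0 →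
      MvPowerSeries.constantCoeff b = 0 → ∀ s, MvPowerSeries.constantCoeff (![a, b] s) = 0 := by
    intro a b ha hb s
    fin_cases s
    · exact ha
    · exact hb
  have hpx : MvPowerSeries.pderiv A (2 : Fin 3) x = 0 := MvPowerSeries.pderiv_X_of_ne (by decide)
  have hpy : MvPowerSeries.pderiv A (2 : Fin 3) y = 0 := MvPowerSeries.pderiv_X_of_ne (by decide)
  have hpz : MvPowerSeries.pderiv A (2 : Fin 3) z = 1 := MvPowerSeries.pderiv_X_self
  have hD := congrArg (MvPowerSeries.pderiv A (2 : Fin 3)) hass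
  unfold fadd at hD hxy hyz
  rw [Z1_chain (2 : Fin 3) (hpair hxy hz), Z1_chain (2 : Fin 3) (hpair hx hyz),
    Fin.sum_univ_two, Fin.sum_univ_two] at hD
  simp only [Matrix.cons_val_zero, Matrix.cons_val_one, Matrix.cons_val_fin_one] at hD
  rw [Z1_chain (2 : Fin 3) (hpair hx hy), Z1_chain (2 : Fin 3) (hpair hy hz),
    Fin.sum_univ_two, Fin.sum_univ_two] at hD
  simp only [Matrix.cons_val_zero, Matrix.cons_val_one, Matrix.cons_val_fin_one, hpx, hpy, hpz,
    mul_zero, mul_one, zero_add, add_zero] at hD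
  -- put `z = 0`
  let c : Fin 3 → MvPowerSeries (Fin 2) A := ![MvPowerSeries.X 0, MvPowerSeries.X 1, 0]
  have hc0 : ∀ s, MvPowerSeries.constantCoeff (c s) = 0 := by
    intro s
    fin_cases s
    · exact MvPowerSeries.constantCoeff_X 0
    · exact MvPowerSeries.constantCoeff_X 1
    · exact map_zero _
  have hc : MvPowerSeries.HasSubst c := MvPowerSeries.hasSubst_of_constantCoeff_zero hc0
  have hcx : MvPowerSeries.subst c x = MvPowerSeries.X 0 := MvPowerSeries.subst_X hc 0
  have hcy : MvPowerSeries.subst c y = MvPowerSeries.X 1 := MvPowerSeries.subst_X hc 1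
  have hcz : MvPowerSeries.subst c z = 0 := MvPowerSeries.subst_X hc 2
  have hsub2 : ∀ {a b : MvPowerSeries (Fin 3) A}, MvPowerSeries.constantCoeff a = 0 →
      MvPowerSeries.constantCoeff b = 0 → ∀ K : MvPowerSeries (Fin 2) A,
      MvPowerSeries.subst c (MvPowerSeries.subst ![a, b] K) =
        MvPowerSeries.subst ![MvPowerSeries.subst c a, MvPowerSeries.subst c b] K := by
    intro a b ha hb K
    rw [MvPowerSeries.subst_comp_subst_apply (hasSubst_pair ha hb) hc]
    congr 1
    funext s
    fin_cases s <;> rfl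
  have hE := congrArg (MvPowerSeries.subst c) hD
  rw [MvPowerSeries.subst_mul hc, hsub2 hxy hz, hsub2 hx hyz, hsub2 hy hz, hsub2 hx hy,
    hsub2 hy hz, hcx, hcy, hcz] at hE
  have hX0 : MvPowerSeries.constantCoeff (MvPowerSeries.X 0 : MvPowerSeries (Fin 2) A) = 0 :=
    MvPowerSeries.constantCoeff_X 0
  have hX1 : MvPowerSeries.constantCoeff (MvPowerSeries.X 1 : MvPowerSeries (Fin 2) A) = 0 :=
    MvPowerSeries.constantCoeff_X 1
  have hid : (![MvPowerSeries.X 0, MvPowerSeries.X 1] : Fin 2 → MvPowerSeries (Fin 2) A) =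
      MvPowerSeries.X := by
    funext s; fin_cases s <;> rfl
  have hY0 : MvPowerSeries.subst ![(MvPowerSeries.X 1 : MvPowerSeries (Fin 2) A), 0]
      F.toPowerSeries = MvPowerSeries.X 1 := fadd_zero F hX1
  rw [hY0, hid, MvPowerSeries.subst_self, id, id, hd F.zero_constantCoeff, hd hX1] at hE
  -- conclude
  have hF := PowerSeries.HasSubst.of_constantCoeff_zero F.zero_constantCoeff
  have hX := PowerSeries.HasSubst.of_constantCoeff_zero hX1
  have h1 : cmp (om F) F.toPowerSeries * cmp (dY F) F.toPowerSeries = 1 := by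
    show PowerSeries.subst _ _ * PowerSeries.subst _ _ = 1
    rw [← PowerSeries.subst_mul hF, om_mul_dY, ← PowerSeries.coe_substAlgHom hF, map_one]
  have h2 : cmp (om F) (MvPowerSeries.X 1 : MvPowerSeries (Fin 2) A) *
      cmp (dY F) (MvPowerSeries.X 1 : MvPowerSeries (Fin 2) A) = 1 := by
    show PowerSeries.subst _ _ * PowerSeries.subst _ _ = 1
    rw [← PowerSeries.subst_mul hX, om_mul_dY, ← PowerSeries.coe_substAlgHom hX, map_one]
  calc cmp (om F) F.toPowerSeries * G
      = cmp (om F) F.toPowerSeries * (G * cmp (dY F) (MvPowerSeries.X 1 : MvPowerSeries (Fin 2) A)) *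
        cmp (om F) (MvPowerSeries.X 1 : MvPowerSeries (Fin 2) A) := by
        rw [mul_assoc, mul_assoc, mul_comm (cmp (dY F) _) (cmp (om F) _), h2, mul_one]
    _ = cmp (om F) F.toPowerSeries * cmp (dY F) F.toPowerSeries *
        cmp (om F) (MvPowerSeries.X 1 : MvPowerSeries (Fin 2) A) := by rw [← hE]
    _ = _ := by rw [h1, one_mul]

variable [Algebra ℚ A]

theorem constantCoeff_lg (F : FormalGroup A) : PowerSeries.constantCoeff (lg F) = 0 := by
  rw [← PowerSeries.coeff_zero_eq_constantCoeff_apply, lg, PowerSeries.coeff_mk]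
  simp

theorem coeff_one_lg (F : FormalGroup A) : PowerSeries.coeff 1 (lg F) = 1 := by
  rw [lg, PowerSeries.coeff_mk]
  simp [constantCoeff_om]

theorem derivative_lg (F : FormalGroup A) : PowerSeries.derivative A (lg F) = om F := by
  ext n
  rw [PowerSeries.coeff_derivative, lg, PowerSeries.coeff_mk, Nat.add_sub_cancel]
  have h1 : ((n : A) + 1) = algebraMap ℚ A ((n : ℚ) + 1) := by
    rw [map_add, map_natCast, map_one]
  rw [h1, smul_mul_assoc, mul_comm, ← Algebra.smul_def, smul_smul]
  have h2 : (((n + 1 : ℕ) : ℚ)⁻¹ * ((n : ℚ) + 1)) = 1 := by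
    push_cast
    exact inv_mul_cancel₀ (by positivity)
  rw [h2, one_smul]

theorem map_lg {B : Type*} [CommRing B] [Algebra ℚ B] (f : A →+* B) (F : FormalGroup A) :
    lg (F.map f) = PowerSeries.map f (lg F) := by
  ext n
  rw [PowerSeries.coeff_map, lg, lg, PowerSeries.coeff_mk, PowerSeries.coeff_mk, map_rat_smul,
    map_om, PowerSeries.coeff_map]

/-- The logarithm is a homomorphism to the additive group.
(`g = lg F (F(X,Y)) - lg F (Y)` satisfies `∂g/∂Y = 0` by `om_invariant` and `A7.pderiv_subst`, so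
over a `ℚ`-algebra `g` does not involve `Y`; putting `Y = 0` gives `g = lg F (X)`.) -/
theorem hom_lg (F : FormalGroup A) : IsFGHom F (FormalGroup.𝔾ₐ (R := A)) (lg F) := by
  refine ⟨constantCoeff_lg F, ?_⟩
  have hX0 : MvPowerSeries.constantCoeff (MvPowerSeries.X 0 : MvPowerSeries (Fin 2) A) = 0 :=
    MvPowerSeries.constantCoeff_X 0
  have hX1 : MvPowerSeries.constantCoeff (MvPowerSeries.X 1 : MvPowerSeries (Fin 2) A) = 0 :=
    MvPowerSeries.constantCoeff_X 1
  have hl0 := constantCoeff_lg F
  have hga := fadd_Ga (A := A) (constantCoeff_cmp hl0 hX0) (constantCoeff_cmp hl0 hX1)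
  have hga' : (FormalGroup.𝔾ₐ (R := A)).toPowerSeries.subst
      ![PowerSeries.subst (MvPowerSeries.X 0 : MvPowerSeries (Fin 2) A) (lg F),
        PowerSeries.subst (MvPowerSeries.X 1 : MvPowerSeries (Fin 2) A) (lg F)] =
      cmp (lg F) (MvPowerSeries.X 0 : MvPowerSeries (Fin 2) A) +
        cmp (lg F) (MvPowerSeries.X 1 : MvPowerSeries (Fin 2) A) := hga
  rw [hga']
  set g : MvPowerSeries (Fin 2) A := cmp (lg F) F.toPowerSeries -
    (cmp (lg F) (MvPowerSeries.X 0 : MvPowerSeries (Fin 2) A) +
        cmp (lg F) (MvPowerSeries.X 1 : MvPowerSeries (Fin 2) A)) with hg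
  suffices h : g = 0 by
    rw [hg, sub_eq_zero] at h
    exact h
  -- derivative in the second variable
  have hD : MvPowerSeries.pderiv A (1 : Fin 2) g = 0 := by
    have e1 : MvPowerSeries.pderiv A (1 : Fin 2) (cmp (lg F) F.toPowerSeries) =
        cmp (om F) F.toPowerSeries * MvPowerSeries.pderiv A (1 : Fin 2) F.toPowerSeries := by
      have := A7.pderiv_subst (1 : Fin 2) (lg F) F.zero_constantCoeff
      rw [derivative_lg] at this
      exact this
    have e2 : MvPowerSeries.pderiv A (1 : Fin 2)
        (cmp (lg F) (MvPowerSeries.X 0 : MvPowerSeries (Fin 2) A)) = 0 := by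
      have := A7.pderiv_subst (1 : Fin 2) (lg F) hX0
      rw [MvPowerSeries.pderiv_X_of_ne (by decide), mul_zero] at this
      exact this
    have e3 : MvPowerSeries.pderiv A (1 : Fin 2)
        (cmp (lg F) (MvPowerSeries.X 1 : MvPowerSeries (Fin 2) A)) =
        cmp (om F) (MvPowerSeries.X 1 : MvPowerSeries (Fin 2) A) := by
      have := A7.pderiv_subst (1 : Fin 2) (lg F) hX1
      rw [MvPowerSeries.pderiv_X_self, mul_one, derivative_lg] at this
      exact this
    rw [hg, map_sub, map_add, e1, e2, e3, om_invariant, zero_add, sub_self]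
  -- value at `X_1 = 0`
  have h10 : MvPowerSeries.HasSubst (![PowerSeries.X, 0] : Fin 2 → PowerSeries A) :=
    MvPowerSeries.HasSubst.X_zero
  have hV : (MvPowerSeries.subst (![PowerSeries.X, 0] : Fin 2 → PowerSeries A) g :
      PowerSeries A) = 0 := by
    have hsub : ∀ f : MvPowerSeries (Fin 2) A, MvPowerSeries.constantCoeff f = 0 →
        MvPowerSeries.subst (![PowerSeries.X, 0] : Fin 2 → PowerSeries A) (cmp (lg F) f) =
        cmp (lg F) (MvPowerSeries.subst (![PowerSeries.X, 0] : Fin 2 → PowerSeries A) f) :=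
      fun f hf => A7.subst_psubst h10 (PowerSeries.HasSubst.of_constantCoeff_zero hf) (lg F)
    have hF0 : MvPowerSeries.subst (![PowerSeries.X, 0] : Fin 2 → PowerSeries A)
        F.toPowerSeries = PowerSeries.X := F.Xzero_eq_X
    have e0 : MvPowerSeries.subst (![PowerSeries.X, 0] : Fin 2 → PowerSeries A)
        (MvPowerSeries.X 0 : MvPowerSeries (Fin 2) A) = PowerSeries.X :=
      MvPowerSeries.subst_X h10 0
    have e1 : MvPowerSeries.subst (![PowerSeries.X, 0] : Fin 2 → PowerSeries A)
        (MvPowerSeries.X 1 : MvPowerSeries (Fin 2) A) = 0 :=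
      MvPowerSeries.subst_X h10 1
    have e2 : cmp (lg F) (0 : MvPowerSeries Unit A) = 0 :=
      PowerSeries.subst_zero_of_constantCoeff_zero hl0
    rw [hg, ← MvPowerSeries.coe_substAlgHom h10, map_sub, map_add,
      MvPowerSeries.coe_substAlgHom h10, hsub _ F.zero_constantCoeff, hsub _ hX0, hsub _ hX1,
      hF0, e0, e1, e2, add_zero, sub_self]
  ext d
  rw [map_zero]
  by_cases hd : d 1 = 0
  · have hd' : d = Finsupp.single 0 (d 0) := by
      ext s; fin_cases s <;> simp [hd]
    rw [hd', ← Z1_coeff_X0, hV, map_zero]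
  · have h1 := congrArg (MvPowerSeries.coeff (d - Finsupp.single 1 1)) hD
    have h2 : d - Finsupp.single 1 1 + Finsupp.single 1 1 = d := by
      apply tsub_add_cancel_of_le
      rw [Finsupp.single_le_iff]
      exact Nat.one_le_iff_ne_zero.mpr hd
    rw [MvPowerSeries.coeff_pderiv, h2, map_zero] at h1
    generalize (d - Finsupp.single 1 1 : Fin 2 →₀ ℕ) 1 = n at h1
    have h3 : ((n : A) + 1) = algebraMap ℚ A ((n : ℚ) + 1) := by
      rw [map_add, map_natCast, map_one]
    rw [h3, mul_comm, ← Algebra.smul_def] at h1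
    have h4 : ((n : ℚ) + 1) ≠ 0 := by positivity
    have h5 := congrArg (fun t => ((n : ℚ) + 1)⁻¹ • t) h1
    simp only [smul_smul, inv_mul_cancel₀ h4, one_smul, smul_zero] at h5
    exact h5

/-- Additivity in the form used everywhere. -/
theorem lg_fadd (F : FormalGroup A) {σ : Type*} {a b : MvPowerSeries σ A}
    (ha : MvPowerSeries.constantCoeff a = 0) (hb : MvPowerSeries.constantCoeff b = 0) :
    cmp (lg F) (fadd F a b) = cmp (lg F) a + cmp (lg F) b := by
  have h0 := constantCoeff_lg F
  rw [hom_fadd (hom_lg F) ha hb, fadd_Ga (constantCoeff_cmp h0 ha) (constantCoeff_cmp h0 hb)]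

/-- Homomorphisms to the additive group over a `ℚ`-algebra are multiples of the logarithm.
(`A7.derivative_eq_zero` applied to `h - C(coeff 1 h) * lg F`; a series over a `ℚ`-algebra with
zero derivative and zero constant coefficient is `0`.) -/
theorem hom_Ga_unique (F : FormalGroup A) {h : PowerSeries A}
    (hh : IsFGHom F (FormalGroup.𝔾ₐ (R := A)) h) :
    h = PowerSeries.C (PowerSeries.coeff 1 h) * lg F := by
  have hX0 : MvPowerSeries.constantCoeff (MvPowerSeries.X 0 : MvPowerSeries (Fin 2) A) = 0 :=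
    MvPowerSeries.constantCoeff_X 0
  have hX1 : MvPowerSeries.constantCoeff (MvPowerSeries.X 1 : MvPowerSeries (Fin 2) A) = 0 :=
    MvPowerSeries.constantCoeff_X 1
  set k : PowerSeries A := h - PowerSeries.C (PowerSeries.coeff 1 h) * lg F with hk
  have hk0 : PowerSeries.constantCoeff k = 0 := by
    rw [hk, map_sub, hh.1, map_mul, constantCoeff_lg, mul_zero, sub_zero]
  have hcmp : ∀ a : MvPowerSeries (Fin 2) A, MvPowerSeries.constantCoeff a = 0 →
      cmp k a = cmp h a - MvPowerSeries.C (PowerSeries.coeff 1 h) * cmp (lg F) a := by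
    intro a ha
    have ha' := PowerSeries.HasSubst.of_constantCoeff_zero ha
    show PowerSeries.subst a k = PowerSeries.subst a h -
      MvPowerSeries.C (PowerSeries.coeff 1 h) * PowerSeries.subst a (lg F)
    rw [hk, ← PowerSeries.coe_substAlgHom ha', map_sub, map_mul]
    congr 2
    rw [PowerSeries.coe_substAlgHom ha']
    exact PowerSeries.subst_C (S := A) (PowerSeries.coeff 1 h)
  have hkh : IsFGHom F (FormalGroup.𝔾ₐ (R := A)) k := by
    apply isFGHom_of_fadd hk0
    intro a b ha hb
    have hc := constantCoeff_fadd F ha hb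
    have e1 := hom_fadd hh ha hb
    rw [fadd_Ga (constantCoeff_cmp hh.1 ha) (constantCoeff_cmp hh.1 hb)] at e1
    rw [fadd_Ga (constantCoeff_cmp hk0 ha) (constantCoeff_cmp hk0 hb), hcmp _ hc, hcmp _ ha,
      hcmp _ hb, e1, lg_fadd F ha hb]
    ring
  have hk1 : PowerSeries.coeff 1 k = 0 := by
    rw [hk, map_sub, PowerSeries.coeff_C_mul, coeff_one_lg, mul_one, sub_self]
  have hkd := A7.derivative_eq_zero hkh hk1
  have hkz : k = 0 := by
    ext n
    rw [map_zero]
    cases n with
    | zero => rw [PowerSeries.coeff_zero_eq_constantCoeff_apply, hk0]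
    | succ n =>
      have h1 := congrArg (PowerSeries.coeff n) hkd
      rw [PowerSeries.coeff_derivative, map_zero] at h1
      have h3 : ((n : A) + 1) = algebraMap ℚ A ((n : ℚ) + 1) := by
        rw [map_add, map_natCast, map_one]
      rw [h3, mul_comm, ← Algebra.smul_def] at h1
      have h4 : ((n : ℚ) + 1) ≠ 0 := by positivity
      have h5 := congrArg (fun t => ((n : ℚ) + 1)⁻¹ • t) h1
      simp only [smul_smul, inv_mul_cancel₀ h4, one_smul, smul_zero] at h5
      exact h5
  rw [hk, sub_eq_zero] at hkz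
  exact hkz

end Z

end Crest.Agent.LU
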