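import Mathlib
import Crest.Agent.LUZ_0

/-!
S0351 (blueprint LU), part LUZ, task Z2a: elementary facts on `InP` and on the denominators `1/j`.
-/

set_option autoImplicit false

noncomputable section

namespace Crest.Agent.LU

open Crest.LubinTate

namespace Z

section alg

variable {p : ℕ} {O : Type} [CommRing O] {L : Type} [Field L] [Algebra O L] {σ : Type*}

/-- TASK Z2a. -/
theorem InP.exists_series {N : ℕ} {s : MvPowerSeries σ L} (h : InP p O N s) :
    ∃ t : MvPowerSeries σ O, s = toL O L (MvPowerSeries.C ((p : O) ^ N) * t) := by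
  choose b hb using h
  refine ⟨(fun d => b d : MvPowerSeries σ O), ?_⟩
  ext d
  rw [hb d, MvPowerSeries.coeff_map]
  erw [MvPowerSeries.coeff_C_mul]
  rfl

theorem inP_toL {N : ℕ} {t : MvPowerSeries σ O} (h : ∀ d, (p : O) ^ N ∣ MvPowerSeries.coeff d t) :
    InP p O N (toL O L t) := by
  intro d
  obtain ⟨b, hb⟩ := h d
  exact ⟨b, by rw [MvPowerSeries.coeff_map, hb]⟩

theorem inP_C_mul (N : ℕ) (t : MvPowerSeries σ O) :
    InP p O N (toL O L (MvPowerSeries.C ((p : O) ^ N) * t)) := by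
  refine inP_toL fun d => ?_
  rw [MvPowerSeries.coeff_C_mul]
  exact dvd_mul_right _ _

theorem inP_zero (N : ℕ) : InP p O N (0 : MvPowerSeries σ L) := by
  intro d
  exact ⟨0, by simp⟩

theorem InP.add {N : ℕ} {s t : MvPowerSeries σ L} (hs : InP p O N s) (ht : InP p O N t) :
    InP p O N (s + t) := by
  intro d
  obtain ⟨b, hb⟩ := hs d
  obtain ⟨c, hc⟩ := ht d
  exact ⟨b + c, by rw [map_add, hb, hc, mul_add, map_add]⟩

theorem InP.neg {N : ℕ} {s : MvPowerSeries σ L} (hs : InP p O N s) : InP p O N (-s) := by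
  intro d
  obtain ⟨b, hb⟩ := hs d
  exact ⟨-b, by rw [map_neg, hb, mul_neg, map_neg]⟩

theorem InP.sub {N : ℕ} {s t : MvPowerSeries σ L} (hs : InP p O N s) (ht : InP p O N t) :
    InP p O N (s - t) := by
  rw [sub_eq_add_neg]
  exact hs.add ht.neg

theorem InP.mono {N M : ℕ} (h : N ≤ M) {s : MvPowerSeries σ L} (hs : InP p O M s) :
    InP p O N s := by
  intro d
  obtain ⟨b, hb⟩ := hs d
  refine ⟨(p : O) ^ (M - N) * b, ?_⟩
  rw [hb, ← mul_assoc, ← pow_add, Nat.add_sub_cancel' h]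

theorem InP.mul {N M : ℕ} {s t : MvPowerSeries σ L} (hs : InP p O N s) (ht : InP p O M t) :
    InP p O (N + M) (s * t) := by
  obtain ⟨s', rfl⟩ := hs.exists_series
  obtain ⟨t', rfl⟩ := ht.exists_series
  rw [← map_mul]
  have e : MvPowerSeries.C ((p : O) ^ N) * s' * (MvPowerSeries.C ((p : O) ^ M) * t') =
      MvPowerSeries.C ((p : O) ^ (N + M)) * (s' * t') := by
    rw [pow_add, map_mul]; ring
  rw [e]
  exact inP_C_mul _ _

/-- Multiplication by `p^M` shifts. -/
theorem InP.C_mul {N : ℕ} (M : ℕ) {s : MvPowerSeries σ L} (hs : InP p O N s) :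
    InP p O (N + M) (MvPowerSeries.C (algebraMap O L ((p : O) ^ M)) * s) := by
  intro d
  obtain ⟨b, hb⟩ := hs d
  refine ⟨b, ?_⟩
  rw [MvPowerSeries.coeff_C_mul, hb, ← map_mul, pow_add]
  congr 1
  ring

theorem inP_of_C_mul [IsDomain O] [IsFractionRing O L] (hp : (p : O) ≠ 0) {N M : ℕ}
    {s : MvPowerSeries σ L}
    (hs : InP p O (N + M) (MvPowerSeries.C (algebraMap O L ((p : O) ^ M)) * s)) : InP p O N s := by
  intro d
  obtain ⟨b, hb⟩ := hs d
  refine ⟨b, ?_⟩
  have hpM : algebraMap O L ((p : O) ^ M) ≠ 0 := by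
    intro h0
    exact pow_ne_zero M hp ((IsFractionRing.injective O L) (by rw [h0, map_zero]))
  rw [MvPowerSeries.coeff_C_mul, pow_add] at hb
  apply mul_left_cancel₀ hpM
  rw [hb, ← map_mul]
  congr 1
  ring

theorem inP_toL_iff [IsDomain O] [IsFractionRing O L] {N : ℕ} {t : MvPowerSeries σ O} :
    InP p O N (toL O L t) ↔ ∀ d, (p : O) ^ N ∣ MvPowerSeries.coeff d t := by
  refine ⟨fun h d => ?_, inP_toL⟩
  obtain ⟨b, hb⟩ := h d
  rw [MvPowerSeries.coeff_map] at hb
  exact ⟨b, IsFractionRing.injective O L hb⟩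

theorem toL_injective [IsDomain O] [IsFractionRing O L] :
    Function.Injective (toL O L : MvPowerSeries σ O → MvPowerSeries σ L) := by
  intro a b h
  ext d
  have := congrArg (MvPowerSeries.coeff d) h
  rw [MvPowerSeries.coeff_map, MvPowerSeries.coeff_map] at this
  exact IsFractionRing.injective O L this

/-- Substituting series over `O` into a series in `p^N O[[X]]`. -/
theorem InP.cmp {N : ℕ} {s : PowerSeries L} (hs : InP p O N s) {z : MvPowerSeries σ O}
    (hz : MvPowerSeries.constantCoeff z = 0) : InP p O N (cmp s (toL O L z)) := by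
  obtain ⟨t, ht⟩ := InP.exists_series hs
  have hz' : PowerSeries.HasSubst z := PowerSeries.HasSubst.of_constantCoeff_zero hz
  have e1 : s = PowerSeries.map (algebraMap O L) (PowerSeries.C ((p : O) ^ N) * t) := ht
  rw [e1, ← map_cmp (algebraMap O L) _ hz]
  have e2 : LU.cmp (PowerSeries.C ((p : O) ^ N) * t) z =
      MvPowerSeries.C ((p : O) ^ N) * LU.cmp t z := by
    unfold LU.cmp
    rw [PowerSeries.subst_mul hz']
    congr 1
    rw [← PowerSeries.coe_substAlgHom hz']
    exact (PowerSeries.substAlgHom hz').commutes ((p : O) ^ N)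
  rw [e2]
  exact inP_C_mul _ _

end alg

variable {p : ℕ} [Fact p.Prime] {n : ℕ} {O : Type} [CommRing O] [IsDomain O]
  [Algebra (WittVector p (GaloisField p n)) O]

/-- Integers prime to `p` are units of `O`. -/
theorem nat_unit (Z : PRing p n O) {j : ℕ} (hj : ¬ p ∣ j) : IsUnit (j : O) := by
  apply Z.test.isUnit
  rw [map_natCast]
  intro h
  exact hj ((CharP.cast_eq_zero_iff (GaloisField p n) p j).1 h)

/-- `j = p^{v(j)} · unit` in `O`. -/
theorem nat_split (Z : PRing p n O) {j : ℕ} (hj : j ≠ 0) :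
    ∃ u : O, IsUnit u ∧ (j : O) = (p : O) ^ (padicValNat p j) * u := by
  obtain ⟨m, hm⟩ : p ^ padicValNat p j ∣ j := pow_padicValNat_dvd
  refine ⟨(m : O), nat_unit Z ?_, ?_⟩
  · rintro ⟨c, hc⟩
    apply pow_succ_padicValNat_not_dvd (p := p) hj
    refine ⟨c, ?_⟩
    conv_lhs => rw [hm, hc]
    ring
  · conv_lhs => rw [hm]
    push_cast
    ring

/-- `p^m / j` is `p^{m - v(j)}` times an element of `O`. -/
theorem inv_nat (Z : PRing p n O) {L : Type} [Field L] [CharZero L] [Algebra O L]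
    [IsFractionRing O L] {j m : ℕ} (hj : j ≠ 0) (h : padicValNat p j ≤ m) :
    ∃ b : O, algebraMap O L ((p : O) ^ m) * (j : L)⁻¹ =
      algebraMap O L ((p : O) ^ (m - padicValNat p j) * b) := by
  obtain ⟨u, hu, hju⟩ := nat_split Z hj
  obtain ⟨w, hw⟩ := hu.exists_right_inv
  refine ⟨w, ?_⟩
  have hj' : (j : L) ≠ 0 := Nat.cast_ne_zero.2 hj
  rw [← div_eq_mul_inv, div_eq_iff hj', ← map_natCast (algebraMap O L) j, ← map_mul, hju]
  congr 1
  have e : (p : O) ^ m = (p : O) ^ (m - padicValNat p j) * (p : O) ^ padicValNat p j := by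
    rw [← pow_add, Nat.sub_add_cancel h]
  rw [e]
  calc (p : O) ^ (m - padicValNat p j) * (p : O) ^ padicValNat p j =
      (p : O) ^ (m - padicValNat p j) * (p : O) ^ padicValNat p j * 1 := by ring
    _ = (p : O) ^ (m - padicValNat p j) * (p : O) ^ padicValNat p j * (u * w) := by rw [hw]
    _ = _ := by ring

/-- `p ∈ ker r`, `p^N` tends to `0`. -/
theorem eq_zero_of_pow_dvd (Z : PRing p n O) {b : O} (h : ∀ N : ℕ, (p : O) ^ N ∣ b) : b = 0 := by
  refine Z.test.eq_zero_of_mem_pow fun N => ?_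
  obtain ⟨c, hc⟩ := h N
  rw [hc]
  exact Ideal.mul_mem_right _ _ (Ideal.pow_mem_pow Z.test.p_mem N)

end Z

end Crest.Agent.LU
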