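import Mathlib
import Crest.Agent.LUZ_2a

/-!
S0351 (blueprint LU), part LUZ, task Z2c: second order expansion of series with integral
derivative.
-/

set_option autoImplicit false

noncomputable section

namespace Crest.Agent.LU

open Crest.LubinTate

namespace Z

variable {p : ℕ} [Fact p.Prime] {n : ℕ} {O : Type} [CommRing O] [IsDomain O]
  [Algebra (WittVector p (GaloisField p n)) O] (Z : PRing p n O)
  {L : Type} [Field L] [CharZero L] [Algebra O L] [IsFractionRing O L] {σ : Type*}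

private theorem luz2c_decomp {R : Type*} [CommRing R] {τ : Type*} (φ : PowerSeries R) (N : ℕ)
    {z : MvPowerSeries τ R} (hz : MvPowerSeries.constantCoeff z = 0) :
    ∃ ρ : MvPowerSeries τ R, LU.cmp φ z =
      ∑ i ∈ Finset.range N, MvPowerSeries.C (PowerSeries.coeff i φ) * z ^ i + z ^ N * ρ := by
  have hz' : PowerSeries.HasSubst z := PowerSeries.HasSubst.of_constantCoeff_zero hz
  obtain ⟨ρ, hρ⟩ : ∃ ρ : PowerSeries R,
      φ = (PowerSeries.trunc N φ : Polynomial R) + (PowerSeries.X : PowerSeries R) ^ N * ρ := by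
    refine ⟨PowerSeries.mk fun k => PowerSeries.coeff (k + N) φ, ?_⟩
    ext k
    rw [map_add, Polynomial.coeff_coe, PowerSeries.coeff_trunc, PowerSeries.coeff_X_pow_mul']
    by_cases hk : k < N
    · rw [if_pos hk, if_neg (by omega), add_zero]
    · rw [if_neg hk, if_pos (by omega), zero_add, PowerSeries.coeff_mk]
      congr 2; omega
  refine ⟨LU.cmp ρ z, ?_⟩
  conv_lhs => rw [hρ]
  unfold LU.cmp
  rw [PowerSeries.subst_add hz', PowerSeries.subst_mul hz', PowerSeries.subst_pow hz',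
    PowerSeries.subst_X hz', PowerSeries.subst_coe hz']
  congr 1
  rw [Polynomial.aeval_def, PowerSeries.eval₂_trunc_eq_sum_range]
  rfl

private theorem luz2c_cmp_coeff {p : ℕ} [Fact p.Prime] {n : ℕ} {O : Type} [CommRing O] [IsDomain O]
    [Algebra (WittVector p (GaloisField p n)) O] (Z : PRing p n O) {k : ℕ} (hk : 1 ≤ k)
    (i j : ℕ) (hi : 1 ≤ i) (hj : 2 ≤ j) :
    ∃ c : O, ((i.choose j : ℕ) : O) * (p : O) ^ (j * k) = (p : O) ^ (2 * k - 1) * (i * c) := by
  have hp : p.Prime := Fact.out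
  obtain ⟨v, hv, hjv⟩ := nat_split Z (j := j) (by omega)
  obtain ⟨w, hw⟩ := hv.exists_right_inv
  have hvj : padicValNat p j ≤ j * k - (2 * k - 1) := by
    have h1 : padicValNat p j < j := by
      have h2 : p ^ padicValNat p j ≤ j := Nat.le_of_dvd (by omega) pow_padicValNat_dvd
      exact lt_of_lt_of_le (Nat.lt_pow_self hp.one_lt) h2
    have h3 : j - 1 ≤ j * k - (2 * k - 1) := by
      obtain ⟨j', rfl⟩ : ∃ j', j = j' + 2 := ⟨j - 2, by omega⟩
      have h4 : (j' + 2) * k = j' * k + 2 * k := by ring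
      have h5 : j' ≤ j' * k := Nat.le_mul_of_pos_right _ (by omega)
      omega
    omega
  obtain ⟨e, he⟩ : ∃ e, j * k = (2 * k - 1) + padicValNat p j + e := by
    refine ⟨j * k - (2 * k - 1) - padicValNat p j, ?_⟩
    have h6 : 2 * k - 1 ≤ j * k := by
      have : 2 * k ≤ j * k := Nat.mul_le_mul_right _ hj
      omega
    omega
  refine ⟨(p : O) ^ e * w * ((i - 1).choose (j - 1) : ℕ), ?_⟩
  have hch : (i.choose j : O) * (j : O) = (i : O) * ((i - 1).choose (j - 1) : ℕ) := by
    obtain ⟨i', rfl⟩ : ∃ i', i = i' + 1 := ⟨i - 1, by omega⟩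
    obtain ⟨j', rfl⟩ : ∃ j', j = j' + 1 := ⟨j - 1, by omega⟩
    have := Nat.add_one_mul_choose_eq i' j'
    simp only [Nat.add_sub_cancel]
    exact_mod_cast congrArg (Nat.cast (R := O)) this.symm
  rw [he, pow_add, pow_add]
  calc (i.choose j : O) * ((p : O) ^ (2 * k - 1) * (p : O) ^ padicValNat p j * (p : O) ^ e) =
      (p : O) ^ (2 * k - 1) * (p : O) ^ e * ((i.choose j : O) * ((p : O) ^ padicValNat p j * 1)) := by
        ring
    _ = (p : O) ^ (2 * k - 1) * (p : O) ^ e *
        ((i.choose j : O) * ((p : O) ^ padicValNat p j * (v * w))) := by rw [hw]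
    _ = (p : O) ^ (2 * k - 1) * (p : O) ^ e * w * ((i.choose j : O) *
        ((p : O) ^ padicValNat p j * v)) := by ring
    _ = (p : O) ^ (2 * k - 1) * (p : O) ^ e * w * ((i : O) * ((i - 1).choose (j - 1) : ℕ)) := by
        rw [← hjv, hch]
    _ = _ := by ring

include Z

/-- Monomial case: `((u + p^k s)^i - u^i - i p^k s u^{i-1})/i ∈ p^{2k-1} O[[σ]]` for `i ≥ 1`.
It equals `Σ_{j≥2} choose(i-1,j-1) (p^{jk}/j) s^j u^{i-j}` (as `choose(i,j)/i = choose(i-1,j-1)/j`),
and `v_p(j) ≤ j - 1 ≤ jk - (2k-1)` for `j ≥ 2`, `k ≥ 1` (use `inv_nat`). -/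
theorem expand_monomial {k : ℕ} (hk : 1 ≤ k) (u s : MvPowerSeries σ O) {i : ℕ} (hi : 1 ≤ i) :
    ∃ w : MvPowerSeries σ O, (u + MvPowerSeries.C ((p : O) ^ k) * s) ^ i - u ^ i -
      MvPowerSeries.C ((p : O) ^ k) * s * ((i : MvPowerSeries σ O) * u ^ (i - 1)) =
        MvPowerSeries.C ((p : O) ^ (2 * k - 1)) * ((i : MvPowerSeries σ O) * w) := by
  have hc : ∀ m : ℕ, ∃ c : O, ((i.choose (m + 2) : ℕ) : O) * (p : O) ^ ((m + 2) * k) =
      (p : O) ^ (2 * k - 1) * (i * c) := fun m => luz2c_cmp_coeff Z hk i (m + 2) hi (by omega)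
  choose c hc using hc
  obtain ⟨i', rfl⟩ : ∃ i', i = i' + 1 := ⟨i - 1, by omega⟩
  refine ⟨∑ m ∈ Finset.range i', MvPowerSeries.C (c m) * s ^ (m + 2) * u ^ (i' + 1 - (m + 2)), ?_⟩
  rw [add_comm u, add_pow, Finset.sum_range_succ', Finset.sum_range_succ']
  have e1 : ∀ m ∈ Finset.range i', (MvPowerSeries.C ((p : O) ^ k) * s) ^ (m + 1 + 1) *
      u ^ (i' + 1 - (m + 1 + 1)) * (((i' + 1).choose (m + 1 + 1) : ℕ) : MvPowerSeries σ O) =
      MvPowerSeries.C ((p : O) ^ (2 * k - 1)) * (((i' + 1 : ℕ) : MvPowerSeries σ O) *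
        (MvPowerSeries.C (c m) * s ^ (m + 2) * u ^ (i' + 1 - (m + 2)))) := by
    intro m _
    have h1 := congrArg (MvPowerSeries.C (σ := σ) (R := O)) (hc m)
    rw [map_mul, map_mul, map_mul, map_natCast, map_natCast] at h1
    have h2 : (MvPowerSeries.C ((p : O) ^ k) * s) ^ (m + 1 + 1) =
        MvPowerSeries.C ((p : O) ^ ((m + 2) * k)) * s ^ (m + 2) := by
      rw [mul_pow, ← map_pow, ← pow_mul]
      congr 3
      ring
    rw [h2]
    calc MvPowerSeries.C ((p : O) ^ ((m + 2) * k)) * s ^ (m + 2) * u ^ (i' + 1 - (m + 1 + 1)) *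
        (((i' + 1).choose (m + 1 + 1) : ℕ) : MvPowerSeries σ O) =
        ((((i' + 1).choose (m + 2) : ℕ) : MvPowerSeries σ O) *
          MvPowerSeries.C ((p : O) ^ ((m + 2) * k))) * s ^ (m + 2) * u ^ (i' + 1 - (m + 2)) := by
          ring
      _ = _ := by rw [h1]; ring
  rw [Finset.sum_congr rfl e1, ← Finset.mul_sum, ← Finset.mul_sum]
  simp only [Nat.cast_add, Nat.cast_one, zero_add, pow_one, Nat.choose_one_right, pow_zero,
    Nat.choose_zero_right, Nat.sub_zero, Nat.add_sub_cancel, mul_one, one_mul]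
  ring

/-- TASK Z2c.  Let `q` be a series over `L` with `q' = q₁` integral.  Then
`q(u + p^k s) = q(u) + p^k s q₁(u) + O(p^{2k-1})`.
Coefficientwise: `coeff i q = ι(coeff (i-1) q₁)/i`; only finitely many `i` matter for each
coefficient `d` (`MvPowerSeries`/`PowerSeries.coeff_subst` finsum; monomials `(..)^i` with
`i > d.degree` do not contribute), and `expand_monomial` for each `i ≥ 1`. -/
theorem expand {k : ℕ} (hk : 1 ≤ k) {q : PowerSeries L} {q₁ : PowerSeries O}
    (hq : PowerSeries.derivative L q = PowerSeries.map (algebraMap O L) q₁)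
    {u s : MvPowerSeries σ O} (hu : MvPowerSeries.constantCoeff u = 0)
    (hs : MvPowerSeries.constantCoeff s = 0) :
    InP p O (2 * k - 1) (cmp q (toL O L (u + MvPowerSeries.C ((p : O) ^ k) * s)) -
      cmp q (toL O L u) - toL O L (MvPowerSeries.C ((p : O) ^ k) * s * cmp q₁ u)) := by
  choose w hw using fun i : ℕ => expand_monomial Z hk u s (i := i + 1) (by omega)
  intro d
  set N := d.degree + 1 with hN
  set u' := u + MvPowerSeries.C ((p : O) ^ k) * s with hu'
  have hu'0 : MvPowerSeries.constantCoeff u' = 0 := by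
    rw [hu', map_add, map_mul, hu, hs, mul_zero, add_zero]
  have hLu' : MvPowerSeries.constantCoeff (toL O L u') = 0 := by
    rw [MvPowerSeries.constantCoeff_map, hu'0, map_zero]
  have hLu : MvPowerSeries.constantCoeff (toL O L u) = 0 := by
    rw [MvPowerSeries.constantCoeff_map, hu, map_zero]
  obtain ⟨ρ1, h1⟩ := luz2c_decomp q (N + 1) hLu'
  obtain ⟨ρ2, h2⟩ := luz2c_decomp q (N + 1) hLu
  obtain ⟨ρ3, h3⟩ := luz2c_decomp q₁ N hu
  have hqc : ∀ i : ℕ, PowerSeries.coeff (i + 1) q * ((i + 1 : ℕ) : L) =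
      algebraMap O L (PowerSeries.coeff i q₁) := by
    intro i
    have := congrArg (PowerSeries.coeff i) hq
    rw [PowerSeries.coeff_derivative, PowerSeries.coeff_map] at this
    rw [← this]; push_cast; ring
  set W : MvPowerSeries σ O := ∑ i ∈ Finset.range N, MvPowerSeries.C (PowerSeries.coeff i q₁) * w i
    with hW
  have key : ∑ i ∈ Finset.range (N + 1), MvPowerSeries.C (PowerSeries.coeff i q) * (toL O L u') ^ i -
      ∑ i ∈ Finset.range (N + 1), MvPowerSeries.C (PowerSeries.coeff i q) * (toL O L u) ^ i =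
      toL O L (MvPowerSeries.C ((p : O) ^ k) * s *
        ∑ i ∈ Finset.range N, MvPowerSeries.C (PowerSeries.coeff i q₁) * u ^ i) +
      toL O L (MvPowerSeries.C ((p : O) ^ (2 * k - 1)) * W) := by
    have hsr : ∀ z : MvPowerSeries σ L,
        ∑ i ∈ Finset.range (N + 1), MvPowerSeries.C (PowerSeries.coeff i q) * z ^ i =
        ∑ i ∈ Finset.range N, MvPowerSeries.C (PowerSeries.coeff (i + 1) q) * z ^ (i + 1) +
          MvPowerSeries.C (PowerSeries.coeff 0 q) * z ^ 0 := fun z => Finset.sum_range_succ' _ _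
    rw [hsr, hsr, hW, Finset.mul_sum, Finset.mul_sum]
    have hm1 : toL O L (∑ i ∈ Finset.range N, MvPowerSeries.C ((p : O) ^ k) * s *
        (MvPowerSeries.C (PowerSeries.coeff i q₁) * u ^ i)) =
        ∑ i ∈ Finset.range N, toL O L (MvPowerSeries.C ((p : O) ^ k) * s *
        (MvPowerSeries.C (PowerSeries.coeff i q₁) * u ^ i)) := map_sum _ _ _
    have hm2 : toL O L (∑ i ∈ Finset.range N, MvPowerSeries.C ((p : O) ^ (2 * k - 1)) *
        (MvPowerSeries.C (PowerSeries.coeff i q₁) * w i)) =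
        ∑ i ∈ Finset.range N, toL O L (MvPowerSeries.C ((p : O) ^ (2 * k - 1)) *
        (MvPowerSeries.C (PowerSeries.coeff i q₁) * w i)) := map_sum _ _ _
    rw [hm1, hm2, ← Finset.sum_add_distrib]
    rw [add_sub_add_comm, pow_zero, pow_zero, sub_self, add_zero, ← Finset.sum_sub_distrib]
    refine Finset.sum_congr rfl fun i _ => ?_
    have hwi := hw i
    rw [Nat.add_sub_cancel] at hwi
    have e1 : u' ^ (i + 1) - u ^ (i + 1) = ((i + 1 : ℕ) : MvPowerSeries σ O) *
        (MvPowerSeries.C ((p : O) ^ k) * s * u ^ i +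
          MvPowerSeries.C ((p : O) ^ (2 * k - 1)) * w i) := by
      linear_combination hwi
    rw [← mul_sub, ← map_pow, ← map_pow, ← map_sub, e1, map_mul, map_natCast, ← map_add,
      ← mul_assoc, ← map_natCast (MvPowerSeries.C (σ := σ) (R := L)), ← map_mul, hqc i,
      ← MvPowerSeries.map_C, ← map_mul]
    congr 1
    ring
  refine ⟨MvPowerSeries.coeff d W, ?_⟩
  have z1 := A7.coeff_pow_mul_eq_zero hLu' ρ1 (N := N + 1) (d := d) (by omega)
  have z2 := A7.coeff_pow_mul_eq_zero hLu ρ2 (N := N + 1) (d := d) (by omega)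
  have z3 := A7.coeff_pow_mul_eq_zero hu (MvPowerSeries.C ((p : O) ^ k) * s * ρ3) (N := N) (d := d)
    (by omega)
  have e2 : LU.cmp q (toL O L u') - LU.cmp q (toL O L u) -
      toL O L (MvPowerSeries.C ((p : O) ^ k) * s * LU.cmp q₁ u) =
      toL O L (MvPowerSeries.C ((p : O) ^ (2 * k - 1)) * W) +
      (toL O L u' ^ (N + 1) * ρ1 - toL O L u ^ (N + 1) * ρ2 -
        toL O L (u ^ N * (MvPowerSeries.C ((p : O) ^ k) * s * ρ3))) := by
    rw [h1, h2, h3]
    have e3 : MvPowerSeries.C ((p : O) ^ k) * s *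
        (∑ i ∈ Finset.range N, MvPowerSeries.C (PowerSeries.coeff i q₁) * u ^ i + u ^ N * ρ3) =
        MvPowerSeries.C ((p : O) ^ k) * s *
        (∑ i ∈ Finset.range N, MvPowerSeries.C (PowerSeries.coeff i q₁) * u ^ i) +
        u ^ N * (MvPowerSeries.C ((p : O) ^ k) * s * ρ3) := by ring
    have e4 := map_add (MvPowerSeries.map (σ := σ) (algebraMap O L)) (MvPowerSeries.C ((p : O) ^ k) * s *
        (∑ i ∈ Finset.range N, MvPowerSeries.C (PowerSeries.coeff i q₁) * u ^ i))
        (u ^ N * (MvPowerSeries.C ((p : O) ^ k) * s * ρ3))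
    rw [e3]
    linear_combination key - e4
  rw [e2, map_add, map_sub, map_sub, z1, z2, MvPowerSeries.coeff_map (f := algebraMap O L)
    (φ := u ^ N * (MvPowerSeries.C ((p : O) ^ k) * s * ρ3)), z3, map_zero, sub_zero, sub_zero,
    add_zero, MvPowerSeries.coeff_map, MvPowerSeries.coeff_C_mul]

/-- First order version. -/
theorem expand_one {k : ℕ} (hk : 1 ≤ k) {q : PowerSeries L} {q₁ : PowerSeries O}
    (hq : PowerSeries.derivative L q = PowerSeries.map (algebraMap O L) q₁)
    {u s : MvPowerSeries σ O} (hu : MvPowerSeries.constantCoeff u = 0)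
    (hs : MvPowerSeries.constantCoeff s = 0) :
    InP p O k (cmp q (toL O L (u + MvPowerSeries.C ((p : O) ^ k) * s)) - cmp q (toL O L u)) := by
  have h1 := (expand Z hk hq hu hs).mono (show k ≤ 2 * k - 1 by omega)
  have h2 : InP p O k (toL O L (MvPowerSeries.C ((p : O) ^ k) * (s * LU.cmp q₁ u))) :=
    inP_C_mul _ _
  have h3 := h1.add h2
  rw [← mul_assoc, sub_add_cancel] at h3
  exact h3

end Z

end Crest.Agent.LU
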