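import Mathlib
import Crest.Agent.LUZ_1
import Crest.Agent.LUZ_2c

/-!
S0351 (blueprint LU), part LUZ, task Z2d: size of the logarithm.
-/

set_option autoImplicit false

noncomputable section

namespace Crest.Agent.LU

open Crest.LubinTate

namespace Z

variable {p : ℕ} [Fact p.Prime] {n : ℕ} {O : Type} [CommRing O] [IsDomain O]
  [Algebra (WittVector p (GaloisField p n)) O] (Z : PRing p n O)
  {L : Type} [Field L] [CharZero L] [Algebra O L] [IsFractionRing O L] {σ : Type*}
  (F : FormalGroup O) [F.IsComm]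

/-- The derivative of the logarithm is integral. -/
theorem derivative_lg_map : PowerSeries.derivative L (lg (F.map (algebraMap O L))) =
    PowerSeries.map (algebraMap O L) (om F) := by
  rw [derivative_lg, map_om]

theorem lg_fadd_toL {a b : MvPowerSeries σ O} (ha : MvPowerSeries.constantCoeff a = 0)
    (hb : MvPowerSeries.constantCoeff b = 0) :
    cmp (lg (F.map (algebraMap O L))) (toL O L (fadd F a b)) =
      cmp (lg (F.map (algebraMap O L))) (toL O L a) +
        cmp (lg (F.map (algebraMap O L))) (toL O L b) := by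
  have h1 : toL O L (fadd F a b) =
      fadd (F.map (algebraMap O L)) (toL O L a) (toL O L b) :=
    map_fadd F (algebraMap O L) ha hb
  rw [h1]
  exact lg_fadd (F.map (algebraMap O L))
    (by rw [MvPowerSeries.constantCoeff_map, ha, map_zero])
    (by rw [MvPowerSeries.constantCoeff_map, hb, map_zero])

/-- `lg([m] z) = m lg(z)` (`hom_lg`, `nsmul_val`, induction). -/
theorem lg_mulSeries (m : ℕ) {z : MvPowerSeries σ O} (hz : MvPowerSeries.constantCoeff z = 0) :
    cmp (lg (F.map (algebraMap O L))) (toL O L (cmp (mulSeries F m) z)) =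
      MvPowerSeries.C (m : L) * cmp (lg (F.map (algebraMap O L))) (toL O L z) := by
  induction m with
  | zero =>
    have h0 : cmp (mulSeries F 0) z = 0 := cmp_zero_left hz
    have t0 : toL O L (0 : MvPowerSeries σ O) = 0 := map_zero _
    rw [h0, t0, Nat.cast_zero, map_zero, zero_mul]
    exact PowerSeries.subst_zero_of_constantCoeff_zero (constantCoeff_lg _)
  | succ m ih =>
    rw [mulSeries_succ, cmp_fadd F (constantCoeff_mulSeries F m) PowerSeries.constantCoeff_X hz,
      X_cmp hz, lg_fadd_toL F (constantCoeff_cmp (constantCoeff_mulSeries F m) hz) hz, ih,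
      Nat.cast_succ, map_add, map_one]
    ring

include Z

/-- If `z ∈ p O[[σ]]` then `lg(z) ∈ O[[σ]]`: `coeff j lg = ι b_j/j` and `p^j/j` is integral.
(Or `expand_one` with `k = 1`, `u = 0`.) -/
theorem lg_inP_of_dvd {z : MvPowerSeries σ O} (hz0 : MvPowerSeries.constantCoeff z = 0)
    (hz : ∀ d, (p : O) ∣ MvPowerSeries.coeff d z) :
    InP p O 0 (cmp (lg (F.map (algebraMap O L))) (toL O L z)) := by
  obtain ⟨s, hs⟩ : ∃ s : MvPowerSeries σ O,
      ∀ d, MvPowerSeries.coeff d z = (p : O) * MvPowerSeries.coeff d s := by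
    choose s hs using hz
    exact ⟨s, hs⟩
  have e1 : z = MvPowerSeries.C ((p : O) ^ 1) * s := by
    ext d
    rw [MvPowerSeries.coeff_C_mul, pow_one, hs d]
  have hs0 : MvPowerSeries.constantCoeff s = 0 := by
    have h1 := hs 0
    rw [MvPowerSeries.coeff_zero_eq_constantCoeff_apply,
      MvPowerSeries.coeff_zero_eq_constantCoeff_apply, hz0] at h1
    exact (mul_eq_zero.1 h1.symm).resolve_left Z.hp
  have h3 := expand_one Z (L := L) (k := 1) le_rfl (derivative_lg_map (L := L) F)
    (u := (0 : MvPowerSeries σ O)) (s := s) (map_zero _) hs0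
  have t0 : toL O L (0 : MvPowerSeries σ O) = 0 := map_zero _
  rw [zero_add, ← e1, t0] at h3
  have h4 : cmp (lg (F.map (algebraMap O L))) (0 : MvPowerSeries σ L) = 0 :=
    PowerSeries.subst_zero_of_constantCoeff_zero (constantCoeff_lg _)
  rw [h4, sub_zero] at h3
  exact h3.mono (Nat.zero_le 1)

/-- TASK Z2d.  If all coefficients of `z` are in the maximal ideal then `p^c lg(z)` is integral.
Proof: `w = [p^c](z)` has coefficients in `𝔪^{c+1} ⊆ 𝔪^c ⊆ pO` (`mulSeries_pow_contract`), and
`lg(w) = p^c lg(z)` (`lg_mulSeries`) is integral by `lg_inP_of_dvd`. -/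
theorem lg_bdd {z : MvPowerSeries σ O} (hz0 : MvPowerSeries.constantCoeff z = 0)
    (hz : CoeffIn (RingHom.ker Z.r) z) :
    InP p O 0 (MvPowerSeries.C (algebraMap O L ((p : O) ^ Z.c)) *
      cmp (lg (F.map (algebraMap O L))) (toL O L z)) := by
  have hpm : (p : O) ∈ RingHom.ker Z.r := by
    rw [RingHom.mem_ker, map_natCast]
    exact CharP.cast_eq_zero _ p
  have h1 := mulSeries_pow_contract F (RingHom.ker Z.r) p hpm Z.c hz0 hz
  have h2 : ∀ d, (p : O) ∣ MvPowerSeries.coeff d (cmp (mulSeries F (p ^ Z.c)) z) := by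
    intro d
    rw [← Ideal.mem_span_singleton]
    exact Z.hc (Ideal.pow_le_pow_right (Nat.le_succ _) (h1 d))
  have h3 := lg_inP_of_dvd Z (L := L) F
    (constantCoeff_cmp (constantCoeff_mulSeries F (p ^ Z.c)) hz0) h2
  rw [lg_mulSeries F (p ^ Z.c) hz0] at h3
  have h4 : ((p ^ Z.c : ℕ) : L) = algebraMap O L ((p : O) ^ Z.c) := by
    rw [Nat.cast_pow, map_pow, map_natCast]
  rwa [h4] at h3

end Z

end Crest.Agent.LU
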