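import Mathlib
import Crest.Agent.LUZ_2d

/-!
S0351 (blueprint LU), part LUZ, task Z2e: the logarithm is isometric on series without constant
term.
-/

set_option autoImplicit false

noncomputable section

namespace Crest.Agent.LU

open Crest.LubinTate

namespace Z

variable {p : ℕ} [Fact p.Prime] {n : ℕ} {O : Type} [CommRing O] [IsDomain O]
  [Algebra (WittVector p (GaloisField p n)) O] (Z : PRing p n O)
  {L : Type} [Field L] [CharZero L] [Algebra O L] [IsFractionRing O L] {σ : Type*}
  (F : FormalGroup O) [F.IsComm]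

include Z

/-- If `[p](z) ∈ p^M O[[σ]]`, `M ≥ 2`, and `z` has zero constant coefficient then
`z ∈ p^{M-1} O[[σ]]`.
Proof: strong induction on the degree of `d`.  `[p](X) = p X + Σ_{j≥2} b_j X^j`, so
`coeff d ([p] z) = p coeff d z + Σ_{j≥2} b_j coeff d (z^j)`, and `coeff d (z^j)` (`j ≥ 2`) is a sum
of products of `≥ 2` coefficients of `z` of degrees `< |d|` (the constant coefficient of `z` is
zero), each in `p^{M-1}O`, so it lies in `p^{2(M-1)}O ⊆ p^M O`.  Cancel `p`.
(E.g. apply the statement "all coefficients of degree `< m` of `z` are in `p^{M-1}`" by induction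
on `m`, splitting `z = z_{<m} + z_{≥m}` with `z_{<m} = C(p^{M-1}) t`.) -/
theorem mul_descend {z : MvPowerSeries σ O} (hz0 : MvPowerSeries.constantCoeff z = 0) {M : ℕ}
    (hM : 2 ≤ M) (h : ∀ d, (p : O) ^ M ∣ MvPowerSeries.coeff d (cmp (mulSeries F p) z)) :
    ∀ d, (p : O) ^ (M - 1) ∣ MvPowerSeries.coeff d z := by
  classical
  have hp := Z.hp
  have hz' : PowerSeries.HasSubst z := PowerSeries.HasSubst.of_constantCoeff_zero hz0
  -- decompose `[p]`
  obtain ⟨ρ, hρ⟩ : ∃ ρ : PowerSeries O, mulSeries F p =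
      PowerSeries.C (p : O) * PowerSeries.X + PowerSeries.X * (PowerSeries.X * ρ) := by
    refine ⟨PowerSeries.mk fun i => PowerSeries.coeff (i + 2) (mulSeries F p), ?_⟩
    ext i
    rw [map_add, PowerSeries.coeff_C_mul]
    rcases i with _ | _ | i
    · rw [PowerSeries.coeff_zero_eq_constantCoeff_apply, constantCoeff_mulSeries]
      simp
    · rw [zero_add, coeff_one_mulSeries]
      have h1 : PowerSeries.coeff 1 ((PowerSeries.X : PowerSeries O) * (PowerSeries.X *
          PowerSeries.mk fun i => PowerSeries.coeff (i + 2) (mulSeries F p))) = 0 := by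
        rw [show (1 : ℕ) = 0 + 1 from rfl, PowerSeries.coeff_succ_X_mul]
        simp
      rw [h1, PowerSeries.coeff_one_X, mul_one, add_zero]
    · rw [PowerSeries.coeff_succ_X_mul, PowerSeries.coeff_succ_X_mul, PowerSeries.coeff_mk,
        PowerSeries.coeff_X, if_neg (by omega), mul_zero, zero_add]
  have hcmp : cmp (mulSeries F p) z = MvPowerSeries.C (p : O) * z + z * (z * cmp ρ z) := by
    show PowerSeries.subst z (mulSeries F p) = _
    rw [hρ, PowerSeries.subst_add hz', PowerSeries.subst_mul hz', PowerSeries.subst_mul hz',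
      PowerSeries.subst_mul hz', PowerSeries.subst_X hz',
      PowerSeries.subst_C (S := O) (p : O)]
  set W := cmp ρ z with hW
  have key : ∀ m : ℕ, ∀ d : σ →₀ ℕ, d.degree ≤ m → (p : O) ^ (M - 1) ∣ MvPowerSeries.coeff d z := by
    intro m
    induction m with
    | zero =>
      intro d hd
      have hd0 : d = 0 := by
        rw [← Finsupp.degree_eq_zero_iff]
        omega
      rw [hd0, MvPowerSeries.coeff_zero_eq_constantCoeff_apply, hz0]
      exact dvd_zero _
    | succ m ih =>
      intro d hd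
      have h1 := h d
      rw [hcmp, map_add, MvPowerSeries.coeff_C_mul] at h1
      -- inner product
      have h2 : ∀ f : σ →₀ ℕ, f.degree ≤ m → (p : O) ^ (M - 1) ∣ MvPowerSeries.coeff f (z * W) := by
        intro f hf
        rw [MvPowerSeries.coeff_mul]
        refine Finset.dvd_sum fun x hx => ?_
        have h3 := Finset.HasAntidiagonal.mem_antidiagonal.1 hx
        have h4 : x.1.degree ≤ m := by
          have : x.1.degree + x.2.degree = f.degree := by rw [← map_add, h3]
          omega
        exact (ih _ h4).mul_right _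
      have h5 : (p : O) ^ M ∣ MvPowerSeries.coeff d (z * (z * W)) := by
        rw [MvPowerSeries.coeff_mul]
        refine Finset.dvd_sum fun x hx => ?_
        have h3 := Finset.HasAntidiagonal.mem_antidiagonal.1 hx
        have h4 : x.1.degree + x.2.degree = d.degree := by rw [← map_add, h3]
        by_cases hx1 : x.1 = 0
        · rw [hx1, MvPowerSeries.coeff_zero_eq_constantCoeff_apply, hz0, zero_mul]
          exact dvd_zero _
        by_cases hx2 : x.2 = 0
        · rw [hx2, MvPowerSeries.coeff_zero_eq_constantCoeff_apply, map_mul, hz0, zero_mul, mul_zero]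
          exact dvd_zero _
        have h6 : x.1.degree ≠ 0 := fun h => hx1 ((Finsupp.degree_eq_zero_iff _).1 h)
        have h7 : x.2.degree ≠ 0 := fun h => hx2 ((Finsupp.degree_eq_zero_iff _).1 h)
        have h8 : (p : O) ^ M ∣ (p : O) ^ (M - 1) * (p : O) ^ (M - 1) := by
          rw [← pow_add]
          exact pow_dvd_pow _ (by omega)
        exact h8.trans (mul_dvd_mul (ih _ (by omega)) (h2 _ (by omega)))
      have h9 : (p : O) ^ M ∣ (p : O) * MvPowerSeries.coeff d z := (dvd_add_left h5).1 h1
      have h10 : (p : O) ^ M = (p : O) * (p : O) ^ (M - 1) := by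
        rw [← pow_succ']
        congr 1
        omega
      rw [h10] at h9
      exact (mul_dvd_mul_iff_left hp).1 h9
  exact fun d => key _ d le_rfl

/-- If `z ∈ p² O[[σ]]` and `lg(z) ∈ p^N O[[σ]]` then `z ∈ p^N O[[σ]]`.
Proof: `z ∈ p^s`, `2 ≤ s < N` implies `z ∈ p^{s+1}`: `lg(z) = z + Σ_{j≥2} (ι b_j/j) z^j` and
`p^{sj}/j ∈ p^{s+1}O` for `j ≥ 2`, `s ≥ 2`.  (Or `expand` with `u = 0`, `k = s`:
`lg(p^s t) = p^s t ω(0) + O(p^{2s-1})`, `ω(0) = 1`, `2s - 1 ≥ s + 1`.) -/
theorem lg_near {z : MvPowerSeries σ O} (hz0 : MvPowerSeries.constantCoeff z = 0)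
    (hz : ∀ d, (p : O) ^ 2 ∣ MvPowerSeries.coeff d z) {N : ℕ}
    (h : InP p O N (cmp (lg (F.map (algebraMap O L))) (toL O L z))) :
    ∀ d, (p : O) ^ N ∣ MvPowerSeries.coeff d z := by
  have hp := Z.hp
  have step : ∀ s : ℕ, 2 ≤ s → s < N → (∀ d, (p : O) ^ s ∣ MvPowerSeries.coeff d z) →
      ∀ d, (p : O) ^ (s + 1) ∣ MvPowerSeries.coeff d z := by
    intro s hs hsN hd
    choose t ht using hd
    set T : MvPowerSeries σ O := t with hT
    have hzT : z = 0 + MvPowerSeries.C ((p : O) ^ s) * T := by
      ext d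
      rw [zero_add, MvPowerSeries.coeff_C_mul, ht d]
      rfl
    have hT0 : MvPowerSeries.constantCoeff T = 0 := by
      have h1 := congrArg MvPowerSeries.constantCoeff hzT
      rw [hz0, zero_add, map_mul, MvPowerSeries.constantCoeff_C] at h1
      exact (mul_eq_zero.1 h1.symm).resolve_left (pow_ne_zero _ hp)
    have hE := expand (L := L) Z (k := s) (by omega) (derivative_lg_map F) (u := 0) (s := T)
      (map_zero _) hT0
    rw [← hzT] at hE
    have h0 : cmp (lg (F.map (algebraMap O L))) (toL O L (0 : MvPowerSeries σ O)) = 0 := by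
      have e0 : toL O L (0 : MvPowerSeries σ O) = 0 :=
        (MvPowerSeries.map (σ := σ) (algebraMap O L)).map_zero
      rw [e0]
      exact PowerSeries.subst_zero_of_constantCoeff_zero (constantCoeff_lg _)
    have h00 : PowerSeries.HasSubst (0 : MvPowerSeries σ O) :=
      PowerSeries.HasSubst.of_constantCoeff_zero (map_zero _)
    have hom : cmp (om F) (0 : MvPowerSeries σ O) = 1 := by
      have h1 : om F = PowerSeries.C (1 : O) + (om F - PowerSeries.C (1 : O)) := by ring
      rw [h1]
      show PowerSeries.subst _ _ = _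
      rw [PowerSeries.subst_add h00, PowerSeries.subst_C (S := O) (1 : O),
        PowerSeries.subst_zero_of_constantCoeff_zero (by rw [map_sub, constantCoeff_om]; simp)]
      simp
    rw [h0, sub_zero, hom, mul_one] at hE
    have hzT' : MvPowerSeries.C ((p : O) ^ s) * T = z := by rw [hzT, zero_add]
    rw [hzT'] at hE
    have h1 : InP p O (s + 1) (toL O L z) := by
      have h2 := (h.mono (N := s + 1) (by omega)).sub (hE.mono (N := s + 1) (by omega))
      rw [sub_sub_cancel] at h2
      exact h2
    exact inP_toL_iff.1 h1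
  have key : ∀ s : ℕ, s + 2 ≤ max N 2 → ∀ d, (p : O) ^ (s + 2) ∣ MvPowerSeries.coeff d z := by
    intro s
    induction s with
    | zero => intro _; exact hz
    | succ s ih =>
      intro hs
      exact step (s + 2) (by omega) (by omega) (ih (by omega))
  intro d
  rcases Nat.lt_or_ge N 2 with h2 | h2
  · exact (pow_dvd_pow _ h2.le).trans (hz d)
  · have h3 := key (N - 2) (by omega) d
    rwa [Nat.sub_add_cancel h2] at h3

/-- TASK Z2e.  If `z` has coefficients in the maximal ideal, zero constant coefficient and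
`lg(z) ∈ p^N O[[σ]]`, `N ≥ 1`, then `z ∈ p^N O[[σ]]`.
Proof: `w = [p^{2c}](z)` has coefficients in `𝔪^{2c+1} ⊆ p²O` (`mulSeries_pow_contract`, `hc`), and
`lg(w) = p^{2c} lg(z) ∈ p^{N+2c}`, so `w ∈ p^{N+2c}` by `lg_near`; apply `mul_descend` `2c` times
(`mulSeries_mul`: `[p^{j+1}] = [p]∘[p^j]`). -/
theorem lg_iso {z : MvPowerSeries σ O} (hz0 : MvPowerSeries.constantCoeff z = 0)
    (hz : CoeffIn (RingHom.ker Z.r) z) {N : ℕ} (hN : 1 ≤ N)
    (h : InP p O N (cmp (lg (F.map (algebraMap O L))) (toL O L z))) :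
    ∀ d, (p : O) ^ N ∣ MvPowerSeries.coeff d z := by
  set c := Z.c with hc
  have hpmem : ((p : ℕ) : O) ∈ RingHom.ker Z.r := Z.test.p_mem
  set w : ℕ → MvPowerSeries σ O := fun j => cmp (mulSeries F (p ^ j)) z with hw
  have hw0 : w 0 = z := by
    have h1 : mulSeries F (p ^ 0) = (PowerSeries.X : PowerSeries O) := by
      rw [pow_zero]
      show mulSeries F (0 + 1) = _
      rw [mulSeries_succ]
      exact zero_fadd F PowerSeries.constantCoeff_X
    rw [hw]
    simp only
    rw [h1, X_cmp hz0]
  have hwc : ∀ j, MvPowerSeries.constantCoeff (w j) = 0 := fun j =>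
    constantCoeff_cmp (constantCoeff_mulSeries F _) hz0
  have hws : ∀ j, w (j + 1) = cmp (mulSeries F p) (w j) := by
    intro j
    have h1 : mulSeries F (p ^ (j + 1)) = cmp (mulSeries F p) (mulSeries F (p ^ j)) := by
      rw [pow_succ, mul_comm, mulSeries_mul]
    rw [hw]
    simp only
    rw [h1, cmp_assoc _ (constantCoeff_mulSeries F _) hz0]
  have hwm := mulSeries_pow_contract F (RingHom.ker Z.r) p hpmem (2 * c) hz0 hz
  have hw2 : ∀ d, (p : O) ^ 2 ∣ MvPowerSeries.coeff d (w (2 * c)) := by
    intro d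
    have h1 := hwm d
    have h2 : (RingHom.ker Z.r) ^ (2 * c + 1) ≤ Ideal.span {(p : O) ^ 2} := by
      calc (RingHom.ker Z.r) ^ (2 * c + 1) ≤ (RingHom.ker Z.r) ^ (2 * c) :=
            Ideal.pow_le_pow_right (Nat.le_succ _)
        _ = ((RingHom.ker Z.r) ^ c) ^ 2 := by rw [← pow_mul, mul_comm]
        _ ≤ (Ideal.span {(p : O)}) ^ 2 := Ideal.pow_right_mono Z.hc 2
        _ = Ideal.span {(p : O) ^ 2} := Ideal.span_singleton_pow _ _
    exact Ideal.mem_span_singleton.1 (h2 h1)
  have hlw : InP p O (N + 2 * c) (cmp (lg (F.map (algebraMap O L))) (toL O L (w (2 * c)))) := by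
    have h1 := lg_mulSeries (L := L) F (p ^ (2 * c)) hz0
    have h2 : ((p ^ (2 * c) : ℕ) : L) = algebraMap O L ((p : O) ^ (2 * c)) := by
      rw [map_pow, map_natCast]
      push_cast
      rfl
    rw [h2] at h1
    rw [hw]
    simp only
    rw [h1]
    exact h.C_mul (2 * c)
  have hbig := lg_near Z F (hwc _) hw2 hlw
  have key : ∀ i, i ≤ 2 * c → ∀ d, (p : O) ^ (N + (2 * c - i)) ∣ MvPowerSeries.coeff d (w (2 * c - i)) := by
    intro i
    induction i with
    | zero => intro _; exact hbig
    | succ i ih =>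
      intro hi
      have h1 := ih (by omega)
      have h2 : 2 * c - i = (2 * c - (i + 1)) + 1 := by omega
      rw [h2, hws] at h1
      have h3 := mul_descend Z F (hwc (2 * c - (i + 1))) (M := N + (2 * c - (i + 1) + 1))
        (by omega) h1
      have h4 : N + (2 * c - (i + 1) + 1) - 1 = N + (2 * c - (i + 1)) := by omega
      rw [h4] at h3
      exact h3
  have h5 := key (2 * c) le_rfl
  rw [Nat.sub_self, add_zero, hw0] at h5
  exact h5

end Z

end Crest.Agent.LU
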