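import Mathlib
import Crest.Agent.LUZ_1
import Crest.Agent.LUZ_2a

/-!
S0351 (blueprint LU), part LUZ, task Z3a: power series over dual numbers.
-/

set_option autoImplicit false

noncomputable section

namespace Crest.Agent.LU

open Crest.LubinTate

namespace Z

variable {A : Type*} [CommRing A] {B : Type*} [CommRing B] {σ : Type*}

theorem dmap_fst (f : A →+* B) (z : DualNumber A) : (dmap f z).fst = f z.fst := by
  simp [dmap]

theorem dmap_snd (f : A →+* B) (z : DualNumber A) : (dmap f z).snd = f z.snd := by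
  simp [dmap]

theorem dmap_injective {f : A →+* B} (hf : Function.Injective f) :
    Function.Injective (dmap f) := by
  intro x y h
  apply TrivSqZeroExt.ext
  · apply hf
    rw [← dmap_fst, ← dmap_fst, h]
  · apply hf
    rw [← dmap_snd, ← dmap_snd, h]

private theorem Z3a_fst_mkD (a b : MvPowerSeries σ A) (d : σ →₀ ℕ) :
    (MvPowerSeries.coeff d (mkD a b)).fst = MvPowerSeries.coeff d a := by
  rw [coeff_mkD]; simp

private theorem Z3a_snd_mkD (a b : MvPowerSeries σ A) (d : σ →₀ ℕ) :
    (MvPowerSeries.coeff d (mkD a b)).snd = MvPowerSeries.coeff d b := by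
  rw [coeff_mkD]; simp

/-- Extensionality for series over the dual numbers. -/
private theorem Z3a_ext {s t : MvPowerSeries σ (DualNumber A)}
    (h1 : ∀ d, (MvPowerSeries.coeff d s).fst = (MvPowerSeries.coeff d t).fst)
    (h2 : ∀ d, (MvPowerSeries.coeff d s).snd = (MvPowerSeries.coeff d t).snd) : s = t :=
  MvPowerSeries.ext fun d => TrivSqZeroExt.ext (h1 d) (h2 d)

theorem map_fst_mkD (a b : MvPowerSeries σ A) : MvPowerSeries.map (fstH A) (mkD a b) = a := by
  ext d
  rw [MvPowerSeries.coeff_map, fstH_apply, Z3a_fst_mkD]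

/-- Every series over the dual numbers is a `mkD`. -/
theorem exists_mkD (s : MvPowerSeries σ (DualNumber A)) :
    ∃ b : MvPowerSeries σ A, s = mkD (MvPowerSeries.map (fstH A) s) b ∧
      ∀ d, MvPowerSeries.coeff d b = (MvPowerSeries.coeff d s).snd := by
  let b : MvPowerSeries σ A := fun d => (MvPowerSeries.coeff d s).snd
  have hb : ∀ d, MvPowerSeries.coeff d b = (MvPowerSeries.coeff d s).snd := fun d => rfl
  refine ⟨b, ?_, hb⟩
  refine Z3a_ext (fun d => ?_) (fun d => ?_)
  · rw [Z3a_fst_mkD, MvPowerSeries.coeff_map, fstH_apply]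
  · rw [Z3a_snd_mkD, hb]

theorem mkD_inj {a b a' b' : MvPowerSeries σ A} (h : mkD a b = mkD a' b') : a = a' ∧ b = b' := by
  constructor
  · ext d
    rw [← Z3a_fst_mkD a b, h, Z3a_fst_mkD]
  · ext d
    rw [← Z3a_snd_mkD a b, h, Z3a_snd_mkD]

theorem mkD_zero : mkD (0 : MvPowerSeries σ A) 0 = 0 := by
  refine Z3a_ext (fun d => ?_) (fun d => ?_)
  · rw [Z3a_fst_mkD]; simp
  · rw [Z3a_snd_mkD]; simp

theorem mkD_one : mkD (1 : MvPowerSeries σ A) 0 = 1 := by
  classical
  refine Z3a_ext (fun d => ?_) (fun d => ?_)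
  · rw [Z3a_fst_mkD, MvPowerSeries.coeff_one, MvPowerSeries.coeff_one]
    split_ifs <;> simp
  · rw [Z3a_snd_mkD, MvPowerSeries.coeff_one]
    split_ifs <;> simp

theorem mkD_add (a b a' b' : MvPowerSeries σ A) : mkD a b + mkD a' b' = mkD (a + a') (b + b') := by
  refine Z3a_ext (fun d => ?_) (fun d => ?_)
  · rw [Z3a_fst_mkD, map_add, TrivSqZeroExt.fst_add, Z3a_fst_mkD, Z3a_fst_mkD, map_add]
  · rw [Z3a_snd_mkD, map_add, TrivSqZeroExt.snd_add, Z3a_snd_mkD, Z3a_snd_mkD, map_add]

theorem mkD_mul (a b a' b' : MvPowerSeries σ A) :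
    mkD a b * mkD a' b' = mkD (a * a') (a * b' + b * a') := by
  classical
  refine Z3a_ext (fun d => ?_) (fun d => ?_)
  · rw [Z3a_fst_mkD, MvPowerSeries.coeff_mul, MvPowerSeries.coeff_mul, TrivSqZeroExt.fst_sum]
    refine Finset.sum_congr rfl fun x _ => ?_
    rw [TrivSqZeroExt.fst_mul, Z3a_fst_mkD, Z3a_fst_mkD]
  · rw [Z3a_snd_mkD, map_add, MvPowerSeries.coeff_mul, MvPowerSeries.coeff_mul,
      MvPowerSeries.coeff_mul, TrivSqZeroExt.snd_sum, ← Finset.sum_add_distrib]
    refine Finset.sum_congr rfl fun x _ => ?_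
    rw [TrivSqZeroExt.snd_mul, Z3a_fst_mkD, Z3a_fst_mkD, Z3a_snd_mkD, Z3a_snd_mkD]
    simp

theorem mkD_C (z : DualNumber A) : (MvPowerSeries.C z : MvPowerSeries σ (DualNumber A)) =
    mkD (MvPowerSeries.C z.fst) (MvPowerSeries.C z.snd) := by
  classical
  refine Z3a_ext (fun d => ?_) (fun d => ?_)
  · rw [Z3a_fst_mkD, MvPowerSeries.coeff_C, MvPowerSeries.coeff_C]
    split_ifs <;> simp
  · rw [Z3a_snd_mkD, MvPowerSeries.coeff_C, MvPowerSeries.coeff_C]
    split_ifs <;> simp

theorem mkD_X (s : σ) : (MvPowerSeries.X s : MvPowerSeries σ (DualNumber A)) =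
    mkD (MvPowerSeries.X s) 0 := by
  classical
  refine Z3a_ext (fun d => ?_) (fun d => ?_)
  · rw [Z3a_fst_mkD, MvPowerSeries.coeff_X, MvPowerSeries.coeff_X]
    split_ifs <;> simp
  · rw [Z3a_snd_mkD, MvPowerSeries.coeff_X]
    split_ifs <;> simp

theorem map_dmap_mkD (f : A →+* B) (a b : MvPowerSeries σ A) :
    MvPowerSeries.map (dmap f) (mkD a b) = mkD (MvPowerSeries.map f a) (MvPowerSeries.map f b) := by
  refine Z3a_ext (fun d => ?_) (fun d => ?_)
  · rw [Z3a_fst_mkD, MvPowerSeries.coeff_map, dmap_fst, Z3a_fst_mkD, MvPowerSeries.coeff_map]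
  · rw [Z3a_snd_mkD, MvPowerSeries.coeff_map, dmap_snd, Z3a_snd_mkD, MvPowerSeries.coeff_map]

theorem constantCoeff_mkD {a b : MvPowerSeries σ A} (ha : MvPowerSeries.constantCoeff a = 0)
    (hb : MvPowerSeries.constantCoeff b = 0) : MvPowerSeries.constantCoeff (mkD a b) = 0 := by
  rw [← MvPowerSeries.coeff_zero_eq_constantCoeff_apply] at ha hb ⊢
  rw [coeff_mkD, ha, hb]
  simp

private theorem Z3a_pow (a b : MvPowerSeries σ A) (k : ℕ) :
    (mkD a b) ^ k = mkD (a ^ k) ((k : MvPowerSeries σ A) * a ^ (k - 1) * b) := by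
  induction k with
  | zero =>
    rw [pow_zero, pow_zero, Nat.cast_zero, zero_mul, zero_mul, mkD_one]
  | succ k ih =>
    rw [pow_succ, ih, mkD_mul]
    congr 1
    rcases Nat.eq_zero_or_pos k with rfl | hk
    · simp
    · obtain ⟨m, rfl⟩ : ∃ m, k = m + 1 := ⟨k - 1, by omega⟩
      simp only [Nat.add_sub_cancel]
      push_cast
      ring

/-- Coefficients of a composite are finite sums. -/
private theorem Z3a_coeff_cmp {R : Type*} [CommRing R] (q : PowerSeries R) {a : MvPowerSeries σ R}
    (ha : MvPowerSeries.constantCoeff a = 0) {N : ℕ} {d : σ →₀ ℕ} (hN : d.degree < N) :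
    MvPowerSeries.coeff d (cmp q a) =
      ∑ k ∈ Finset.range N, PowerSeries.coeff k q * MvPowerSeries.coeff d (a ^ k) := by
  have h : PowerSeries.HasSubst a := PowerSeries.HasSubst.of_constantCoeff_zero ha
  show MvPowerSeries.coeff d (PowerSeries.subst a q) = _
  rw [PowerSeries.coeff_subst h]
  rw [finsum_eq_sum_of_support_subset (s := Finset.range N)]
  · rfl
  · intro k hk
    rw [Function.mem_support] at hk
    by_contra hk2
    apply hk
    have hk3 : N ≤ k := by simpa using hk2
    have h1 := A7.coeff_pow_mul_eq_zero ha (1 : MvPowerSeries σ R) (show d.degree < k by omega)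
    rw [mul_one] at h1
    rw [h1, smul_zero]

/-- The coefficient of a product with a composite. -/
private theorem Z3a_coeff_cmp_mul {R : Type*} [CommRing R] (q : PowerSeries R)
    {a : MvPowerSeries σ R} (b : MvPowerSeries σ R)
    (ha : MvPowerSeries.constantCoeff a = 0) {N : ℕ} {d : σ →₀ ℕ} (hN : d.degree < N) :
    MvPowerSeries.coeff d (cmp q a * b) =
      ∑ k ∈ Finset.range N, PowerSeries.coeff k q * MvPowerSeries.coeff d (a ^ k * b) := by
  classical
  rw [MvPowerSeries.coeff_mul]
  have h1 : ∀ x ∈ Finset.HasAntidiagonal.antidiagonal d, MvPowerSeries.coeff x.1 (cmp q a) * MvPowerSeries.coeff x.2 b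
      = ∑ k ∈ Finset.range N, PowerSeries.coeff k q *
        (MvPowerSeries.coeff x.1 (a ^ k) * MvPowerSeries.coeff x.2 b) := by
    intro x hx
    have h3 := Finset.HasAntidiagonal.mem_antidiagonal.1 hx
    have h4 : x.1.degree ≤ d.degree := by
      rw [← h3, map_add]
      exact Nat.le_add_right _ _
    rw [Z3a_coeff_cmp q ha (show x.1.degree < N by omega), Finset.sum_mul]
    exact Finset.sum_congr rfl fun k _ => by ring
  rw [Finset.sum_congr rfl h1, Finset.sum_comm]
  refine Finset.sum_congr rfl fun k _ => ?_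
  rw [MvPowerSeries.coeff_mul, Finset.mul_sum]

/-- TASK Z3a (key).  First order Taylor expansion over the dual numbers:
`(q + ε q₂)(a + ε b) = q(a) + ε (q'(a) b + q₂(a))`.
(Coefficientwise `finsum`, or: both sides are additive and "continuous" in `q`, check on monomials:
`(a + ε b)^i = a^i + ε i a^{i-1} b`; the coefficient of a given monomial only involves finitely many
coefficients of `q`.) -/
theorem cmp_mkD (q q₂ : PowerSeries A) {a b : MvPowerSeries σ A}
    (ha : MvPowerSeries.constantCoeff a = 0) (hb : MvPowerSeries.constantCoeff b = 0) :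
    cmp (mkD q q₂ : PowerSeries (DualNumber A)) (mkD a b) =
      mkD (cmp q a) (cmp (PowerSeries.derivative A q) a * b + cmp q₂ a) := by
  have hab := constantCoeff_mkD ha hb
  have hq1 : ∀ k, (PowerSeries.coeff k (mkD q q₂ : PowerSeries (DualNumber A))).fst =
      PowerSeries.coeff k q := fun k => Z3a_fst_mkD q q₂ _
  have hq2 : ∀ k, (PowerSeries.coeff k (mkD q q₂ : PowerSeries (DualNumber A))).snd =
      PowerSeries.coeff k q₂ := fun k => Z3a_snd_mkD q q₂ _
  refine Z3a_ext (fun d => ?_) (fun d => ?_)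
  · rw [Z3a_fst_mkD, Z3a_coeff_cmp _ hab (Nat.lt_succ_self d.degree),
      Z3a_coeff_cmp _ ha (Nat.lt_succ_self d.degree), TrivSqZeroExt.fst_sum]
    refine Finset.sum_congr rfl fun k _ => ?_
    rw [TrivSqZeroExt.fst_mul, hq1, Z3a_pow, Z3a_fst_mkD]
  · rw [Z3a_snd_mkD, map_add, Z3a_coeff_cmp _ hab (show d.degree < d.degree + 2 by omega),
      Z3a_coeff_cmp _ ha (show d.degree < d.degree + 2 by omega),
      Z3a_coeff_cmp_mul _ _ ha (show d.degree < d.degree + 1 by omega),
      TrivSqZeroExt.snd_sum]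
    have h1 : ∀ k ∈ Finset.range (d.degree + 2),
        (PowerSeries.coeff k (mkD q q₂ : PowerSeries (DualNumber A)) *
          MvPowerSeries.coeff d (mkD a b ^ k)).snd =
        PowerSeries.coeff k q * MvPowerSeries.coeff d ((k : MvPowerSeries σ A) * a ^ (k - 1) * b) +
          PowerSeries.coeff k q₂ * MvPowerSeries.coeff d (a ^ k) := by
      intro k _
      rw [TrivSqZeroExt.snd_mul, hq1, hq2, Z3a_pow, Z3a_fst_mkD, Z3a_snd_mkD]
      simp only [smul_eq_mul, MulOpposite.smul_eq_mul_unop, MulOpposite.unop_op]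
    rw [Finset.sum_congr rfl h1, Finset.sum_add_distrib]
    congr 1
    rw [Finset.sum_range_succ']
    simp only [Nat.cast_zero, zero_mul, map_zero, mul_zero, add_zero, Nat.add_sub_cancel]
    refine Finset.sum_congr rfl fun k _ => ?_
    rw [PowerSeries.coeff_derivative]
    have h2 : ((k + 1 : ℕ) : MvPowerSeries σ A) * a ^ k * b =
        MvPowerSeries.C ((k : A) + 1) * (a ^ k * b) := by
      rw [map_add, map_natCast, map_one]
      push_cast
      ring
    rw [h2, MvPowerSeries.coeff_C_mul]
    ring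

/-- A series over a subring which becomes a formal group law over the bigger ring is one. -/
theorem exists_law_of_injective {f : A →+* B} (hf : Function.Injective f)
    (T : MvPowerSeries (Fin 2) A) (G : FormalGroup B)
    (hT : MvPowerSeries.map f T = G.toPowerSeries) :
    ∃ G₀ : FormalGroup A, G₀.toPowerSeries = T ∧ G₀.map f = G := by
  have hT0 : MvPowerSeries.constantCoeff T = 0 := by
    apply hf
    rw [← MvPowerSeries.coeff_zero_eq_constantCoeff_apply, ← MvPowerSeries.coeff_map, hT,
      MvPowerSeries.coeff_zero_eq_constantCoeff_apply, G.zero_constantCoeff, map_zero]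
  refine ⟨{ toPowerSeries := T, zero_constantCoeff := hT0, lin_coeff_X := ?_, lin_coeff_Y := ?_,
            assoc := ?_ }, rfl, ?_⟩
  · apply hf
    rw [← MvPowerSeries.coeff_map, hT, G.lin_coeff_X, map_one]
  · apply hf
    rw [← MvPowerSeries.coeff_map, hT, G.lin_coeff_Y, map_one]
  · have hinj : Function.Injective (MvPowerSeries.map (σ := Fin 3) f) := by
      intro u v huv
      ext d
      apply hf
      rw [← MvPowerSeries.coeff_map, huv, MvPowerSeries.coeff_map]
    apply hinj
    have hX : ∀ i : Fin 3, MvPowerSeries.constantCoeff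
        (MvPowerSeries.X i : MvPowerSeries (Fin 3) A) = 0 := fun i =>
      MvPowerSeries.constantCoeff_X i
    have hm : ∀ {u v : MvPowerSeries (Fin 3) A}, MvPowerSeries.constantCoeff u = 0 →
        MvPowerSeries.constantCoeff v = 0 →
        MvPowerSeries.map f (MvPowerSeries.subst ![u, v] T) =
        MvPowerSeries.subst ![MvPowerSeries.map f u, MvPowerSeries.map f v] G.toPowerSeries := by
      intro u v hu hv
      rw [MvPowerSeries.map_subst (hasSubst_pair hu hv), hT]
      congr 1
      funext i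
      fin_cases i <;> rfl
    have hc : ∀ {u v : MvPowerSeries (Fin 3) A}, MvPowerSeries.constantCoeff u = 0 →
        MvPowerSeries.constantCoeff v = 0 →
        MvPowerSeries.constantCoeff (MvPowerSeries.subst ![u, v] T) = 0 := by
      intro u v hu hv
      refine MvPowerSeries.constantCoeff_subst_eq_zero (hasSubst_pair hu hv) ?_ hT0
      intro i
      fin_cases i
      · exact hu
      · exact hv
    rw [hm (hc (hX 0) (hX 1)) (hX 2), hm (hX 0) (hc (hX 1) (hX 2)), hm (hX 0) (hX 1),
      hm (hX 1) (hX 2), MvPowerSeries.map_X, MvPowerSeries.map_X, MvPowerSeries.map_X]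
    exact G.assoc
  · cases G
    simp only [FormalGroup.map] at *
    congr

end Z

end Crest.Agent.LU
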