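import Mathlib
import Crest.Agent.LUZ_3a

/-!
S0351 (blueprint LU), part LUZ, task Z3b: the first order deformation attached to a quasi-logarithm.
-/

set_option autoImplicit false

noncomputable section

namespace Crest.Agent.LU

open Crest.LubinTate

namespace Z

variable {O : Type} [CommRing O] [IsDomain O]
  {L : Type} [Field L] [CharZero L] [Algebra O L] [IsFractionRing O L]

private theorem z3b_cancel {R : Type*} [CommRing R] {ψ χ : PowerSeries R}
    (hψ : PowerSeries.constantCoeff ψ = 0) (hc : cmp χ ψ = (PowerSeries.X : PowerSeries R))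
    {σ : Type*} {a b : MvPowerSeries σ R} (ha : MvPowerSeries.constantCoeff a = 0)
    (hb : MvPowerSeries.constantCoeff b = 0) (h : cmp ψ a = cmp ψ b) : a = b := by
  have h1 := congrArg (cmp χ) h
  rw [← cmp_assoc χ hψ ha, ← cmp_assoc χ hψ hb] at h1
  have h2 : cmp (cmp χ ψ : PowerSeries R) a = a := by
    rw [hc]
    exact X_cmp ha
  have h3 : cmp (cmp χ ψ : PowerSeries R) b = b := by
    rw [hc]
    exact X_cmp hb
  rw [h2, h3] at h1
  exact h1

/-- TASK Z3b.  Let `q ∈ L[[X]]`, `q(0) = 0`, with integral coboundary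
`D = q(F(X,Y)) - q(X) - q(Y) ∈ O[[X,Y]]`.  Then `F - ε D/f'(F)` (`1/f'(F) = (dY F)(F)`) is a formal
group law over `O[ε]` with logarithm `f + ε q`.
Proof: over `L[ε]` let `ψ = mkD f q`, `f = lg`; `exists_conj 𝔾ₐ` gives `G_L` with `ψ : G_L → 𝔾ₐ`.  By
`cmp_mkD`, `derivative_lg`, `om_mul_dY`, `hom_lg` and the definition of `D` the series
`T_L = mkD F (-(D · (dY F)(F)))` satisfies `ψ(T_L) = ψ(X) + ψ(Y) = ψ(G_L)`, so `T_L = G_L` (compose
with the inverse of `ψ`, `exists_cmp_inv`); conclude with `exists_law_of_injective`. -/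
theorem exists_law (F : FormalGroup O) {q : PowerSeries L}
    (hq0 : PowerSeries.constantCoeff q = 0) {D : MvPowerSeries (Fin 2) O}
    (hD : toL O L D = cmp q (toL O L F.toPowerSeries) -
      cmp q (MvPowerSeries.X 0 : MvPowerSeries (Fin 2) L) -
      cmp q (MvPowerSeries.X 1 : MvPowerSeries (Fin 2) L)) :
    ∃ G : FormalGroup (DualNumber O),
      G.toPowerSeries = mkD F.toPowerSeries (-(D * cmp (dY F) F.toPowerSeries)) ∧
      IsFGHom (G.map (dmap (algebraMap O L))) (FormalGroup.𝔾ₐ (R := DualNumber L))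
        (mkD (lg (F.map (algebraMap O L))) q) := by
  have hX0 : MvPowerSeries.constantCoeff (MvPowerSeries.X 0 : MvPowerSeries (Fin 2) L) = 0 :=
    MvPowerSeries.constantCoeff_X 0
  have hX1 : MvPowerSeries.constantCoeff (MvPowerSeries.X 1 : MvPowerSeries (Fin 2) L) = 0 :=
    MvPowerSeries.constantCoeff_X 1
  have hY0 : MvPowerSeries.constantCoeff
      (MvPowerSeries.X 0 : MvPowerSeries (Fin 2) (DualNumber L)) = 0 :=
    MvPowerSeries.constantCoeff_X 0
  have hY1 : MvPowerSeries.constantCoeff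
      (MvPowerSeries.X 1 : MvPowerSeries (Fin 2) (DualNumber L)) = 0 :=
    MvPowerSeries.constantCoeff_X 1
  set FL : FormalGroup L := F.map (algebraMap O L) with hFL
  have hFLs : FL.toPowerSeries = toL O L F.toPowerSeries := rfl
  set f : PowerSeries L := lg FL with hf
  have hf0 : PowerSeries.constantCoeff f = 0 := constantCoeff_lg FL
  set ψ : PowerSeries (DualNumber L) := mkD f q with hψdef
  have hψ0 : PowerSeries.constantCoeff ψ = 0 := constantCoeff_mkD (σ := Unit) hf0 hq0
  have hψ1 : IsUnit (PowerSeries.coeff 1 ψ) := by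
    have h1 : PowerSeries.coeff 1 ψ = TrivSqZeroExt.inl (PowerSeries.coeff 1 f) +
        TrivSqZeroExt.inr (PowerSeries.coeff 1 q) := rfl
    rw [h1, TrivSqZeroExt.isUnit_iff_isUnit_fst]
    simp [hf, coeff_one_lg]
  obtain ⟨G, -, hG⟩ := exists_conj (FormalGroup.𝔾ₐ (R := DualNumber L)) hψ0 hψ1
  obtain ⟨χ, -, -, -, hχ⟩ := exists_cmp_inv hψ0 hψ1
  -- the constant coefficient of `D`
  have hF0 : MvPowerSeries.constantCoeff FL.toPowerSeries = 0 := FL.zero_constantCoeff
  set DL : MvPowerSeries (Fin 2) L := toL O L D with hDL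
  have hDL0 : MvPowerSeries.constantCoeff DL = 0 := by
    rw [hD, map_sub, map_sub, constantCoeff_cmp hq0 (hFLs ▸ hF0), constantCoeff_cmp hq0 hX0,
      constantCoeff_cmp hq0 hX1, sub_zero, sub_zero]
  set b : MvPowerSeries (Fin 2) L := -(DL * cmp (dY FL) FL.toPowerSeries) with hb
  have hb0 : MvPowerSeries.constantCoeff b = 0 := by
    rw [hb, map_neg, map_mul, hDL0, zero_mul, neg_zero]
  -- the series over `L[ε]`
  have hTL : MvPowerSeries.map (dmap (algebraMap O L))
      (mkD F.toPowerSeries (-(D * cmp (dY F) F.toPowerSeries))) = mkD FL.toPowerSeries b := by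
    rw [map_dmap_mkD]
    congr 1
    rw [map_neg, map_mul, hb]
    congr 2
    rw [map_cmp (algebraMap O L) (dY F) F.zero_constantCoeff, hFL, map_dY]
    rfl
  -- `f(F(X,Y)) = f(X) + f(Y)`
  have hfF : cmp f FL.toPowerSeries = cmp f (MvPowerSeries.X 0 : MvPowerSeries (Fin 2) L) +
      cmp f (MvPowerSeries.X 1 : MvPowerSeries (Fin 2) L) := by
    have h1 := (hom_lg FL).2
    have h2 := fadd_Ga (A := L) (constantCoeff_cmp hf0 hX0) (constantCoeff_cmp hf0 hX1)
    exact h1.trans h2
  have hom1 : cmp (PowerSeries.derivative L f) FL.toPowerSeries *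
      cmp (dY FL) FL.toPowerSeries = 1 := by
    have hs := PowerSeries.HasSubst.of_constantCoeff_zero hF0
    rw [hf, derivative_lg]
    show PowerSeries.subst _ _ * PowerSeries.subst _ _ = 1
    rw [← PowerSeries.subst_mul hs, om_mul_dY, ← PowerSeries.coe_substAlgHom hs, map_one]
  have e1 : cmp ψ (mkD FL.toPowerSeries b) =
      mkD (cmp f (MvPowerSeries.X 0 : MvPowerSeries (Fin 2) L) +
          cmp f (MvPowerSeries.X 1 : MvPowerSeries (Fin 2) L))
        (cmp q (MvPowerSeries.X 0 : MvPowerSeries (Fin 2) L) +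
          cmp q (MvPowerSeries.X 1 : MvPowerSeries (Fin 2) L)) := by
    have h1 := cmp_mkD f q hF0 hb0
    rw [hψdef]
    refine h1.trans ?_
    rw [hfF]
    congr 1
    have h2 : cmp (PowerSeries.derivative L f) FL.toPowerSeries * b = -DL := by
      rw [hb]
      calc _ = -(DL * (cmp (PowerSeries.derivative L f) FL.toPowerSeries *
            cmp (dY FL) FL.toPowerSeries)) := by ring
        _ = -DL := by rw [hom1, mul_one]
    rw [h2, hD]
    have h3 : cmp q FL.toPowerSeries = cmp q (toL O L F.toPowerSeries) := rfl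
    rw [h3]
    ring
  have e2 : ∀ i : Fin 2, cmp ψ (MvPowerSeries.X i : MvPowerSeries (Fin 2) (DualNumber L)) =
      mkD (cmp f (MvPowerSeries.X i : MvPowerSeries (Fin 2) L))
        (cmp q (MvPowerSeries.X i : MvPowerSeries (Fin 2) L)) := by
    intro i
    rw [mkD_X, hψdef, cmp_mkD f q (MvPowerSeries.constantCoeff_X i) (map_zero _), mul_zero,
      zero_add]
  have e3 : cmp ψ G.toPowerSeries =
      mkD (cmp f (MvPowerSeries.X 0 : MvPowerSeries (Fin 2) L) +
          cmp f (MvPowerSeries.X 1 : MvPowerSeries (Fin 2) L))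
        (cmp q (MvPowerSeries.X 0 : MvPowerSeries (Fin 2) L) +
          cmp q (MvPowerSeries.X 1 : MvPowerSeries (Fin 2) L)) := by
    have h1 := hG.2
    have h2 := fadd_Ga (A := DualNumber L) (constantCoeff_cmp hψ0 hY0) (constantCoeff_cmp hψ0 hY1)
    rw [e2, e2, mkD_add] at h2
    refine Eq.trans (h1.trans ?_) h2
    show fadd (FormalGroup.𝔾ₐ (R := DualNumber L))
      (cmp ψ (MvPowerSeries.X 0 : MvPowerSeries (Fin 2) (DualNumber L)))
      (cmp ψ (MvPowerSeries.X 1 : MvPowerSeries (Fin 2) (DualNumber L))) = _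
    rw [e2, e2]
  have hT : MvPowerSeries.map (dmap (algebraMap O L))
      (mkD F.toPowerSeries (-(D * cmp (dY F) F.toPowerSeries))) = G.toPowerSeries := by
    rw [hTL]
    exact z3b_cancel hψ0 hχ (constantCoeff_mkD hF0 hb0) G.zero_constantCoeff (e1.trans e3.symm)
  obtain ⟨G₀, hG1, hG2⟩ := exists_law_of_injective
    (dmap_injective (IsFractionRing.injective O L)) _ G hT
  refine ⟨G₀, hG1, ?_⟩
  rw [hG2]
  exact hG

end Z

end Crest.Agent.LU
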