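import Mathlib
import Crest.Agent.LUZ_3b
import Crest.Agent.LU_B4

/-!
S0351 (blueprint LU), part LUZ, task Z3c: universality over `O[ε]`.
-/

set_option autoImplicit false

noncomputable section

namespace Crest.Agent.LU

open Crest.LubinTate

namespace Z

section aux

variable {A : Type*} [CommRing A] {σ : Type*}

private theorem Z3c_monomial_mem {I : Ideal (MvPowerSeries σ A)}
    (hX : ∀ s, MvPowerSeries.X s ∈ I) (e : σ →₀ ℕ) :
    MvPowerSeries.monomial e (1 : A) ∈ I ^ e.degree := by
  rw [MvPowerSeries.monomial_one_eq, Finsupp.prod, Finsupp.degree_apply,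
    ← Finset.prod_pow_eq_pow_sum]
  exact Ideal.prod_mem_prod fun s _ => Ideal.pow_mem_pow (hX s) _

/-- A series of order `≥ N` is in `(X_i)^N`. -/
private theorem Z3c_mem_pow [Finite σ] {I : Ideal (MvPowerSeries σ A)}
    (hX : ∀ s, MvPowerSeries.X s ∈ I) (N : ℕ) {f : MvPowerSeries σ A}
    (hf : ∀ d : σ →₀ ℕ, d.degree < N → MvPowerSeries.coeff d f = 0) : f ∈ I ^ N := by
  classical
  have he : ∀ d : σ →₀ ℕ, ∃ e : σ →₀ ℕ, e ≤ d ∧ e.degree = min N d.degree := fun d =>
    Finsupp.exists_le_degree_eq d (min N d.degree) (min_le_right _ _)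
  choose e he1 he2 using he
  set S : Finset (σ →₀ ℕ) := (Finsupp.finite_of_degree_le (σ := σ) N).toFinset with hS
  have hmemS : ∀ x : σ →₀ ℕ, x ∈ S ↔ x.degree ≤ N := by
    intro x
    rw [hS, Set.Finite.mem_toFinset]
    exact Iff.rfl
  let g : (σ →₀ ℕ) → MvPowerSeries σ A := fun x d' =>
    if e (d' + x) = x then MvPowerSeries.coeff (d' + x) f else 0
  have hg : ∀ x d', MvPowerSeries.coeff d' (g x) =
      if e (d' + x) = x then MvPowerSeries.coeff (d' + x) f else 0 := fun _ _ => rfl
  have hfe : f = ∑ x ∈ S, MvPowerSeries.monomial x (1 : A) * g x := by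
    ext d
    rw [map_sum, Finset.sum_eq_single (e d)]
    · rw [MvPowerSeries.coeff_monomial_mul, if_pos (he1 d), hg, tsub_add_cancel_of_le (he1 d),
        if_pos rfl, one_mul]
    · intro x _ hx
      rw [MvPowerSeries.coeff_monomial_mul]
      split_ifs with h
      · rw [hg, tsub_add_cancel_of_le h, if_neg (fun h' => hx h'.symm), mul_zero]
      · rfl
    · intro h
      exact absurd ((hmemS (e d)).2 (by rw [he2]; exact min_le_left _ _)) h
  rw [hfe]
  refine Ideal.sum_mem _ fun x hx => ?_
  rcases Nat.lt_or_ge x.degree N with hlt | hge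
  · have hgC : g x = 0 := by
      ext d'
      rw [hg, map_zero]
      split_ifs with h
      · apply hf
        have h1 := he2 (d' + x)
        rw [h] at h1
        by_contra h2
        rw [not_lt] at h2
        rw [min_eq_left h2] at h1
        omega
      · rfl
    rw [hgC, mul_zero]
    exact Ideal.zero_mem _
  · have h4 : x.degree = N := le_antisymm ((hmemS x).1 hx) hge
    have h5 := Z3c_monomial_mem (A := A) hX x
    rw [h4] at h5
    exact Ideal.mul_mem_right _ _ h5

/-- Every series is a finite sum of monomials modulo `(X_i)^N`. -/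
private theorem Z3c_trunc [Finite σ] {I : Ideal (MvPowerSeries σ A)}
    (hX : ∀ s, MvPowerSeries.X s ∈ I) (N : ℕ) (f : MvPowerSeries σ A) :
    ∃ S : Finset (σ →₀ ℕ), f - ∑ d ∈ S, MvPowerSeries.C (MvPowerSeries.coeff d f) *
      d.prod (fun s k => (MvPowerSeries.X s : MvPowerSeries σ A) ^ k) ∈ I ^ N := by
  classical
  refine ⟨(Finsupp.finite_of_degree_le (σ := σ) N).toFinset, Z3c_mem_pow hX N fun d hd => ?_⟩
  rw [map_sub, map_sum, sub_eq_zero, Finset.sum_eq_single d]
  · rw [← MvPowerSeries.monomial_one_eq, MvPowerSeries.coeff_C_mul,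
      MvPowerSeries.coeff_monomial_same, mul_one]
  · intro x _ hx
    rw [← MvPowerSeries.monomial_one_eq, MvPowerSeries.coeff_C_mul,
      MvPowerSeries.coeff_monomial_ne (Ne.symm hx), mul_zero]
  · intro h
    refine absurd ?_ h
    rw [Set.Finite.mem_toFinset]
    exact hd.le

end aux

variable {p : ℕ} [Fact p.Prime] {n : ℕ} {Γ : FormalGroup (GaloisField p n)} [Γ.IsComm]
  {H : FormalGroup (LTRing p n)} [H.IsComm] {O : Type} [CommRing O] [IsDomain O]
  [Algebra (WittVector p (GaloisField p n)) O] (Z : PRing p n O)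
  (x : LTRing p n →ₐ[WittVector p (GaloisField p n)] O)

/-- TASK Z3c (1).  A `W(k)`-algebra homomorphism `φ : E₀ → O[ε]` lifting `x` is given by a derivation:
`(φ a).snd = Σ_i x(∂_i a) (φ u_i).snd`.
Proof: both sides are `W(k)`-linear in `a`, satisfy the Leibniz rule over `x` and agree on the
`u_i = MvPowerSeries.X i` and on constants, so `δ(a)` = the difference vanishes on polynomials; for
`a ∈ (ker residue)^{N+1}` both sides are in `(ker r)^N` (`Submodule.pow_induction_on_left'` or
induction on `N`: a product `b a'` with `b ∈ ker residue`, `a' ∈ (ker residue)^N`).  Every `a` is a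
polynomial plus a series of order `> N`, which lies in `(ker residue)^{N+1}` (see the proof of
`isTest_E0`/`ker_residue` in `LU_B2a`, or use `MvPowerSeries` order lemmas); finally
`Z.test.eq_zero_of_mem_pow`. -/
theorem snd_eq_sum (hx : Z.r.comp x.toRingHom = LTRing.residue p n)
    (φ : LTRing p n →ₐ[WittVector p (GaloisField p n)] DualNumber O)
    (hφ : ∀ a, (φ a).fst = x a) (a : LTRing p n) :
    (φ a).snd = ∑ i, x (MvPowerSeries.pderiv (WittVector p (GaloisField p n)) i a) *
      (φ (MvPowerSeries.X i)).snd := by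
  classical
  let W := WittVector p (GaloisField p n)
  let δ : LTRing p n → O := fun a => (φ a).snd -
    ∑ i, x (MvPowerSeries.pderiv (WittVector p (GaloisField p n)) i a) *
      (φ (MvPowerSeries.X i)).snd
  have hδ : ∀ a, δ a = (φ a).snd -
    ∑ i, x (MvPowerSeries.pderiv (WittVector p (GaloisField p n)) i a) *
      (φ (MvPowerSeries.X i)).snd := fun _ => rfl
  have hadd : ∀ a b, δ (a + b) = δ a + δ b := by
    intro a b
    simp only [hδ, map_add, TrivSqZeroExt.snd_add, add_mul, Finset.sum_add_distrib]
    ring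
  have hzero : δ 0 = 0 := by
    have h := hadd 0 0
    rw [add_zero] at h
    exact left_eq_add.1 h
  have hneg : ∀ a b, δ (a - b) = δ a - δ b := by
    intro a b
    have h := hadd (a - b) b
    rw [sub_add_cancel] at h
    rw [h, add_sub_cancel_right]
  have hmul : ∀ a b, δ (a * b) = x a * δ b + x b * δ a := by
    intro a b
    have h1 : (φ (a * b)).snd = x a * (φ b).snd + x b * (φ a).snd := by
      rw [map_mul, TrivSqZeroExt.snd_mul, hφ, hφ]
      simp only [smul_eq_mul, MulOpposite.smul_eq_mul_unop, MulOpposite.unop_op]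
      ring
    have h2 : ∀ i, x (MvPowerSeries.pderiv (WittVector p (GaloisField p n)) i (a * b)) *
        (φ (MvPowerSeries.X i)).snd =
        x a * (x (MvPowerSeries.pderiv (WittVector p (GaloisField p n)) i b) *
          (φ (MvPowerSeries.X i)).snd) +
        x b * (x (MvPowerSeries.pderiv (WittVector p (GaloisField p n)) i a) *
          (φ (MvPowerSeries.X i)).snd) := by
      intro i
      rw [Derivation.leibniz, smul_eq_mul, smul_eq_mul, map_add, map_mul, map_mul]
      ring
    rw [hδ, hδ, hδ, h1, Finset.sum_congr rfl fun i _ => h2 i, Finset.sum_add_distrib,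
      ← Finset.mul_sum, ← Finset.mul_sum]
    ring
  have hC : ∀ c : WittVector p (GaloisField p n), δ (MvPowerSeries.C c) = 0 := by
    intro c
    have h1 : (φ (MvPowerSeries.C c)).snd = 0 := by
      rw [MvPowerSeries.c_eq_algebraMap, AlgHom.commutes,
        TrivSqZeroExt.algebraMap_eq_inl', TrivSqZeroExt.snd_inl]
    rw [hδ, h1, zero_sub, neg_eq_zero]
    refine Finset.sum_eq_zero fun i _ => ?_
    rw [MvPowerSeries.pderiv_C, map_zero, zero_mul]
  have hX : ∀ j, δ (MvPowerSeries.X j) = 0 := by
    intro j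
    rw [hδ, sub_eq_zero, Finset.sum_eq_single j]
    · rw [MvPowerSeries.pderiv_X_self, map_one, one_mul]
    · intro i _ hij
      rw [MvPowerSeries.pderiv_X_of_ne hij.symm, map_zero, zero_mul]
    · intro h
      exact absurd (Finset.mem_univ j) h
  have hone : δ 1 = 0 := by
    have h := hC 1
    rwa [map_one] at h
  have hmul0 : ∀ a b, δ a = 0 → δ b = 0 → δ (a * b) = 0 := by
    intro a b ha hb
    rw [hmul, ha, hb, mul_zero, mul_zero, add_zero]
  have hpow : ∀ a, δ a = 0 → ∀ k : ℕ, δ (a ^ k) = 0 := by
    intro a ha k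
    induction k with
    | zero => rw [pow_zero]; exact hone
    | succ k ih => rw [pow_succ]; exact hmul0 _ _ ih ha
  have hprod : ∀ (s : Finset (Fin (n - 1))) (g : Fin (n - 1) → LTRing p n),
      (∀ i ∈ s, δ (g i) = 0) → δ (∏ i ∈ s, g i) = 0 := by
    intro s g
    induction s using Finset.induction_on with
    | empty => intro _; rw [Finset.prod_empty]; exact hone
    | insert i s hi ih =>
      intro h
      rw [Finset.prod_insert hi]
      exact hmul0 _ _ (h i (Finset.mem_insert_self i s))
        (ih fun j hj => h j (Finset.mem_insert_of_mem hj))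
  have hsum : ∀ (S : Finset (Fin (n - 1) →₀ ℕ)) (g : (Fin (n - 1) →₀ ℕ) → LTRing p n),
      (∀ i ∈ S, δ (g i) = 0) → δ (∑ i ∈ S, g i) = 0 := by
    intro S g
    induction S using Finset.induction_on with
    | empty => intro _; rw [Finset.sum_empty]; exact hzero
    | insert i S hi ih =>
      intro h
      rw [Finset.sum_insert hi, hadd, h i (Finset.mem_insert_self i S),
        ih fun j hj => h j (Finset.mem_insert_of_mem hj), add_zero]
  -- ideals
  have hker : RingHom.ker (LTRing.residue p n) ≤ Ideal.comap x.toRingHom (RingHom.ker Z.r) := by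
    intro a ha
    rw [Ideal.mem_comap, RingHom.mem_ker]
    have h := congrArg (fun f => f a) hx
    exact h.trans ha
  have hkerN : ∀ (N : ℕ) (a : LTRing p n), a ∈ (RingHom.ker (LTRing.residue p n)) ^ N →
      x a ∈ (RingHom.ker Z.r) ^ N := by
    intro N a ha
    have h1 := Ideal.pow_right_mono hker N ha
    exact Ideal.le_comap_pow x.toRingHom N h1
  have hδN : ∀ (N : ℕ) (a : LTRing p n), a ∈ (RingHom.ker (LTRing.residue p n)) ^ (N + 1) →
      δ a ∈ (RingHom.ker Z.r) ^ N := by
    intro N
    induction N with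
    | zero =>
      intro a _
      rw [pow_zero, Ideal.one_eq_top]
      trivial
    | succ N ih =>
      intro a ha
      rw [pow_succ] at ha
      refine Submodule.mul_induction_on ha ?_ ?_
      · intro b hb c hc
        rw [hmul]
        refine Ideal.add_mem _ (Ideal.mul_mem_right _ _ (hkerN _ _ hb)) ?_
        have h1 : x c ∈ RingHom.ker Z.r := hker hc
        rw [pow_succ']
        exact Ideal.mul_mem_mul h1 (ih b hb)
      · intro b c hb hc
        rw [hadd]
        exact Ideal.add_mem _ hb hc
  have hXm : ∀ s : Fin (n - 1), (MvPowerSeries.X s : LTRing p n) ∈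
      RingHom.ker (LTRing.residue p n) := by
    intro s
    rw [ker_residue]
    exact Ideal.mem_sup_right (Ideal.subset_span ⟨s, rfl⟩)
  have key : δ a = 0 := by
    refine Z.test.eq_zero_of_mem_pow fun N => ?_
    obtain ⟨S, hS⟩ := Z3c_trunc hXm (N + 1) a
    have h1 := hδN N _ hS
    have h2 : δ (∑ d ∈ S, MvPowerSeries.C (MvPowerSeries.coeff d a) *
        d.prod (fun s k => (MvPowerSeries.X s : LTRing p n) ^ k)) = 0 := by
      refine hsum S _ fun d _ => hmul0 _ _ (hC _) ?_
      rw [Finsupp.prod]
      exact hprod _ _ fun i _ => hpow _ (hX i) _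
    rw [hneg, h2, sub_zero] at h1
    exact h1
  exact sub_eq_zero.1 key

end Z

end Crest.Agent.LU
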