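import Mathlib
import Crest.Agent.LUZ_3b
import Crest.Agent.LU_B4

/-!
S0351 (blueprint LU), part LUZ, task Z3d: universality over `O[ε]`.
-/

set_option autoImplicit false

noncomputable section

namespace Crest.Agent.LU

open Crest.LubinTate

namespace Z

variable {p : ℕ} [Fact p.Prime] {n : ℕ} {Γ : FormalGroup (GaloisField p n)} [Γ.IsComm]
  {H : FormalGroup (LTRing p n)} [H.IsComm] {O : Type} [CommRing O] [IsDomain O]
  [Algebra (WittVector p (GaloisField p n)) O] (Z : PRing p n O)
  (x : LTRing p n →ₐ[WittVector p (GaloisField p n)] O)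

/-- TASK Z3d.  Universality over `O[ε]` for a law `G` lifting `H.map x`.
Proof: `isTest_dual`, `univ_exists` give `φ` and `θ : H.map φ → G` reducing to `X`.  Applying
`O[ε] → O` and `univ_unique` over `O`: `fst ∘ φ = x`; so `θ₀ = map fst θ` is an endomorphism of
`H.map x` reducing to `X`, and `rigid` applied to `θ₀ -_H X` (`hom_add`, `hom_neg`) gives `θ₀ = X`
(`J = ker r`, `[p] ≡ X^q mod J` by `mulSeries_map`, `hΓ`). -/
theorem exists_phi (hn : 1 ≤ n) (hΓ : mulSeries Γ p = PowerSeries.X ^ (p ^ n))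
    (hU : IsUniversalDeformation p n Γ H) (hx : Z.r.comp x.toRingHom = LTRing.residue p n)
    (G : FormalGroup (DualNumber O)) (hG : G.map (fstH O) = H.map x.toRingHom) :
    ∃ φ : LTRing p n →ₐ[WittVector p (GaloisField p n)] DualNumber O, (∀ a, (φ a).fst = x a) ∧
      ∃ η : PowerSeries O, PowerSeries.constantCoeff η = 0 ∧
        IsFGHom (H.map φ.toRingHom) G (mkD (PowerSeries.X : PowerSeries O) η) := by
  have hB := Z.test
  have hD : IsTest p n (DualNumber O) (dualRes Z.r) := isTest_dual hB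
  have hres : dualRes Z.r = Z.r.comp (fstH O) := rfl
  have hHx : (H.map x.toRingHom).map Z.r = Γ := by
    rw [map_map, hx]
    exact hU.1
  have hGr : G.map (dualRes Z.r) = Γ := by
    rw [hres, ← map_map, hG, hHx]
  obtain ⟨φ, hφr, θ, hθ, hθr⟩ := hD.univ_exists hU G hGr
  -- the reduction modulo `ε`
  let φ₀ : LTRing p n →ₐ[WittVector p (GaloisField p n)] O :=
    (TrivSqZeroExt.fstHom (WittVector p (GaloisField p n)) O O).comp φ
  have hφ₀ : φ₀.toRingHom = (fstH O).comp φ.toRingHom := rfl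
  have h1 : Z.r.comp φ₀.toRingHom = LTRing.residue p n := by
    rw [hφ₀, ← RingHom.comp_assoc]
    exact hφr
  set θ₀ : PowerSeries O := PowerSeries.map (fstH O) θ with hθ₀
  have hθ₀h : IsFGHom (H.map φ₀.toRingHom) (H.map x.toRingHom) θ₀ := by
    have h := hom_map hθ (fstH O)
    rw [map_map, hG] at h
    exact h
  have hθ₀r : PowerSeries.map Z.r θ₀ = PowerSeries.X := by
    have h2 : PowerSeries.map Z.r (PowerSeries.map (fstH O) θ) =
        PowerSeries.map (dualRes Z.r) θ := by
      ext i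
      rw [PowerSeries.coeff_map, PowerSeries.coeff_map, PowerSeries.coeff_map, hres]
      rfl
    rw [hθ₀, h2, hθr]
  have heq : φ₀ = x := hB.univ_unique hU φ₀ x h1 hx θ₀ hθ₀h hθ₀r
  have hfst : ∀ a, (φ a).fst = x a := by
    intro a
    rw [← heq]
    rfl
  -- rigidity
  rw [heq] at hθ₀h
  have hmod : CoeffIn (RingHom.ker Z.r)
      (mulSeries (H.map x.toRingHom) p - (PowerSeries.X : PowerSeries O) ^ (p ^ n)) := by
    intro d
    rw [RingHom.mem_ker]
    have e : PowerSeries.map Z.r (mulSeries (H.map x.toRingHom) p -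
        (PowerSeries.X : PowerSeries O) ^ (p ^ n)) = 0 := by
      rw [map_sub, map_pow, PowerSeries.map_X, ← mulSeries_map, hHx, hΓ, sub_self]
    have e2 := congrArg (MvPowerSeries.coeff d) e
    rw [map_zero] at e2
    exact e2
  let a : FPt (H.map x.toRingHom) Unit := ⟨θ₀, hθ₀h.1⟩
  set ψ : PowerSeries O := fadd (H.map x.toRingHom) θ₀
    (cmp (inv (H.map x.toRingHom)) (PowerSeries.X : PowerSeries O)) with hψdef
  have hψ : IsFGHom (H.map x.toRingHom) (H.map x.toRingHom) ψ :=
    hom_add hθ₀h (hom_neg (hom_X _))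
  have hψX : fadd (H.map x.toRingHom) ψ (PowerSeries.X : PowerSeries O) = θ₀ := by
    have h := neg_add_cancel_right a (ptX (H.map x.toRingHom))
    exact congrArg FPt.val h
  have hψ0 : MvPowerSeries.map Z.r ψ = 0 := by
    have hc : MvPowerSeries.constantCoeff (MvPowerSeries.map Z.r ψ) = 0 := by
      rw [MvPowerSeries.constantCoeff_map]
      have := hψ.1
      change MvPowerSeries.constantCoeff ψ = 0 at this
      rw [this, map_zero]
    let c : FPt ((H.map x.toRingHom).map Z.r) Unit := ⟨MvPowerSeries.map Z.r ψ, hc⟩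
    have h := congrArg (MvPowerSeries.map Z.r) hψX
    rw [map_fadd (H.map x.toRingHom) Z.r hψ.1 PowerSeries.constantCoeff_X] at h
    have hX : MvPowerSeries.map Z.r (PowerSeries.X : PowerSeries O) = PowerSeries.X :=
      PowerSeries.map_X Z.r
    have h3 : MvPowerSeries.map Z.r θ₀ = PowerSeries.X := hθ₀r
    rw [hX, h3] at h
    have h4 : c + ptX _ = 0 + ptX _ := by
      rw [zero_add]
      exact FPt.ext h
    exact congrArg FPt.val (add_right_cancel h4)
  have hψ1 : ψ = 0 := by
    refine rigid (F := H.map x.toRingHom) (G := H.map x.toRingHom) (RingHom.ker Z.r)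
      (fun b hb => Z.test.eq_zero_of_mem_pow hb) p (p ^ n)
      (pow_ne_zero n (Fact.out : p.Prime).ne_zero) Z.test.p_mem hmod hψ ?_
    intro d
    rw [RingHom.mem_ker, ← MvPowerSeries.coeff_map, hψ0, map_zero]
  have hθX : θ₀ = PowerSeries.X := by
    rw [hψ1] at hψX
    rw [← hψX]
    exact zero_fadd _ PowerSeries.constantCoeff_X
  obtain ⟨η, hη1, hη2⟩ := exists_mkD (A := O) (σ := Unit) θ
  refine ⟨φ, hfst, η, ?_, ?_⟩
  · have h5 : PowerSeries.constantCoeff η = (MvPowerSeries.coeff (0 : Unit →₀ ℕ) θ).snd := by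
      rw [← hη2 0]
      rfl
    have h6 : MvPowerSeries.coeff (0 : Unit →₀ ℕ) θ = 0 := hθ.1
    rw [h5, h6]
    rfl
  · have h7 : MvPowerSeries.map (fstH O) θ = PowerSeries.X := hθX
    rw [h7] at hη1
    rw [← hη1]
    exact hθ

end Z

end Crest.Agent.LU
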