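import Mathlib
import Crest.Agent.LUZ_3b
import Crest.Agent.LUZ_3c
import Crest.Agent.LU_B4

/-!
S0351 (blueprint LU), part LUZ, task Z3e: comparison of logarithms.
-/

set_option autoImplicit false

noncomputable section

namespace Crest.Agent.LU

open Crest.LubinTate

namespace Z

variable {p : ℕ} [Fact p.Prime] {n : ℕ} {Γ : FormalGroup (GaloisField p n)} [Γ.IsComm]
  {H : FormalGroup (LTRing p n)} [H.IsComm] {O : Type} [CommRing O] [IsDomain O]
  [Algebra (WittVector p (GaloisField p n)) O] (Z : PRing p n O)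
  (x : LTRing p n →ₐ[WittVector p (GaloisField p n)] O)

variable (L : Type) [Field L] [CharZero L] [Algebra O L] [IsFractionRing O L]

/-- The derivative of the logarithm of `H` with respect to `u_i` at the point `x`: its `j`-th
coefficient is `x(∂_i ω_{j-1})/j`, `ω = om H`. -/
def gi (H : FormalGroup (LTRing p n))
    (x : LTRing p n →ₐ[WittVector p (GaloisField p n)] O) (i : Fin (n - 1)) : PowerSeries L :=
  PowerSeries.mk fun j => (j : L)⁻¹ * algebraMap O L
    (x (MvPowerSeries.pderiv (WittVector p (GaloisField p n)) i (PowerSeries.coeff (j - 1) (om H))))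

/-- TASK Z3e.  Comparison of logarithms: if `θ = X + ε η : H.map φ → G` and `G` has logarithm
`f + ε q` (`f` = the logarithm of `H.map x`), then `q = c f + Σ d_i g_i - f' η`, `d_i = (φ u_i).snd`,
`c ∈ O`.
Proof: over `L[ε]`, `(f + ε q) ∘ θ = f + ε (f' η + q)` (`cmp_mkD`) is a homomorphism from
`(H.map φ).map (dmap ι)` to `𝔾ₐ`, hence (`hom_Ga_unique`) equal to `C(1 + ε c)` times its logarithm,
which is `mkD f (Σ d_i g_i)` by `map_lg`-type computation (`lg` of `H.map (dmap ι ∘ φ)` has
coefficients `(1/j) dmap ι (φ (ω_{j-1}))`, `map_om`; `snd_eq_sum`).  `c` = the coefficient of `X` in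
`f' η + q`, integral since `q' ∈ O[[X]]`. -/
theorem formula (hx : Z.r.comp x.toRingHom = LTRing.residue p n)
    {q : PowerSeries L} {q₁ : PowerSeries O}
    (hq : PowerSeries.derivative L q = PowerSeries.map (algebraMap O L) q₁)
    {G : FormalGroup (DualNumber O)}
    (hG : IsFGHom (G.map (dmap (algebraMap O L))) (FormalGroup.𝔾ₐ (R := DualNumber L))
      (mkD (lg ((H.map x.toRingHom).map (algebraMap O L))) q))
    {φ : LTRing p n →ₐ[WittVector p (GaloisField p n)] DualNumber O}
    (hφ : ∀ a, (φ a).fst = x a) {η : PowerSeries O} (hη : PowerSeries.constantCoeff η = 0)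
    (hθ : IsFGHom (H.map φ.toRingHom) G (mkD (PowerSeries.X : PowerSeries O) η)) :
    ∃ c : O, q = PowerSeries.C (algebraMap O L c) * lg ((H.map x.toRingHom).map (algebraMap O L)) +
      ∑ i, PowerSeries.C (algebraMap O L (φ (MvPowerSeries.X i)).snd) * gi L H x i -
        PowerSeries.map (algebraMap O L) (om (H.map x.toRingHom) * η) := by
  -- abbreviations
  obtain ⟨f, hf⟩ : ∃ f : PowerSeries L, f = lg ((H.map x.toRingHom).map (algebraMap O L)) :=
    ⟨_, rfl⟩
  obtain ⟨g, hg⟩ : ∃ g : PowerSeries L, g =
      ∑ i, PowerSeries.C (algebraMap O L (φ (MvPowerSeries.X i)).snd) * gi L H x i := ⟨_, rfl⟩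
  obtain ⟨e, he⟩ : ∃ e : PowerSeries L, e = PowerSeries.map (algebraMap O L) η := ⟨_, rfl⟩
  have he0 : MvPowerSeries.constantCoeff e = 0 := by
    rw [he]
    show PowerSeries.constantCoeff (PowerSeries.map (algebraMap O L) η) = 0
    rw [← PowerSeries.coeff_zero_eq_constantCoeff_apply, PowerSeries.coeff_map,
      PowerSeries.coeff_zero_eq_constantCoeff_apply, hη, map_zero]
  have hdf : PowerSeries.derivative L f = PowerSeries.map (algebraMap O L) (om (H.map x.toRingHom)) := by
    rw [hf, derivative_lg, map_om]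
  -- the composite homomorphism
  have h1 : IsFGHom ((H.map φ.toRingHom).map (dmap (algebraMap O L)))
      (G.map (dmap (algebraMap O L))) (mkD (PowerSeries.X : PowerSeries L) e) := by
    have h := hom_map hθ (dmap (algebraMap O L))
    have e1 : PowerSeries.map (dmap (algebraMap O L)) (mkD (PowerSeries.X : PowerSeries O) η) =
        mkD (PowerSeries.X : PowerSeries L) e := by
      have h2 := map_dmap_mkD (σ := Unit) (algebraMap O L) (PowerSeries.X : PowerSeries O) η
      have h3 : MvPowerSeries.map (algebraMap O L) (PowerSeries.X : PowerSeries O) =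
        (PowerSeries.X : PowerSeries L) := PowerSeries.map_X _
      rw [h3] at h2
      rw [he]
      exact h2
    rw [e1] at h
    exact h
  have h2 := hom_comp hG h1
  rw [← hf] at h2
  have h3 : cmp (mkD f q : PowerSeries (DualNumber L)) (mkD (PowerSeries.X : PowerSeries L) e) =
      mkD f (PowerSeries.derivative L f * e + q) := by
    have h := cmp_mkD f q (σ := Unit) (a := (PowerSeries.X : PowerSeries L)) (b := e)
      PowerSeries.constantCoeff_X he0
    rw [cmp_X, cmp_X, cmp_X] at h
    exact h
  have h4 := hom_Ga_unique _ h2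
  rw [h3] at h4
  -- the logarithm of `H.map φ`
  have h5 : lg ((H.map φ.toRingHom).map (dmap (algebraMap O L))) = mkD f g := by
    have key : ∀ j : ℕ, PowerSeries.coeff j
        (lg ((H.map φ.toRingHom).map (dmap (algebraMap O L)))) =
        TrivSqZeroExt.inl (PowerSeries.coeff j f) + TrivSqZeroExt.inr (PowerSeries.coeff j g) := by
      intro j
      obtain ⟨a, ha⟩ : ∃ a, a = PowerSeries.coeff (j - 1) (om H) := ⟨_, rfl⟩
      have k1 : PowerSeries.coeff j (lg ((H.map φ.toRingHom).map (dmap (algebraMap O L)))) =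
          ((j : ℚ)⁻¹) • (dmap (algebraMap O L) (φ a)) := by
        rw [lg, PowerSeries.coeff_mk, map_om, map_om, PowerSeries.coeff_map, PowerSeries.coeff_map,
          ha]
        rfl
      have k2 : PowerSeries.coeff j f = ((j : ℚ)⁻¹) • (algebraMap O L (x a)) := by
        rw [hf, lg, PowerSeries.coeff_mk, map_om, map_om, PowerSeries.coeff_map,
          PowerSeries.coeff_map, ha]
        rfl
      have k3 : PowerSeries.coeff j g = ((j : ℚ)⁻¹) • (algebraMap O L (φ a).snd) := by
        rw [hg, map_sum, snd_eq_sum Z x hx φ hφ a, map_sum, Finset.smul_sum]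
        apply Finset.sum_congr rfl
        intro i _
        rw [PowerSeries.coeff_C_mul, gi, PowerSeries.coeff_mk, ← ha, map_mul, Algebra.smul_def,
          map_inv₀, map_natCast]
        ring
      rw [k1, k2, k3]
      ext
      · rw [TrivSqZeroExt.fst_smul, dmap_fst, hφ]
        simp
      · rw [TrivSqZeroExt.snd_smul, dmap_snd]
        simp [Algebra.algebraMap_eq_smul_one]
    refine MvPowerSeries.ext fun d => ?_
    rw [coeff_mkD]
    have hd : d = Finsupp.single () (d ()) := by ext; simp
    rw [hd]
    exact key (d ())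
  obtain ⟨c', hc'⟩ : ∃ c' : L, c' = PowerSeries.coeff 1 (PowerSeries.derivative L f * e + q) :=
    ⟨_, rfl⟩
  have h6 : PowerSeries.coeff 1 (mkD f (PowerSeries.derivative L f * e + q) :
      PowerSeries (DualNumber L)) = TrivSqZeroExt.inl 1 + TrivSqZeroExt.inr c' := by
    have h : PowerSeries.coeff 1 (mkD f (PowerSeries.derivative L f * e + q) :
      PowerSeries (DualNumber L)) = TrivSqZeroExt.inl (PowerSeries.coeff 1 f) +
        TrivSqZeroExt.inr (PowerSeries.coeff 1 (PowerSeries.derivative L f * e + q)) :=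
      coeff_mkD _ _ _
    rw [h, ← hc', hf, coeff_one_lg]
  have h7 : (PowerSeries.C (TrivSqZeroExt.inl 1 + TrivSqZeroExt.inr c' : DualNumber L) :
      PowerSeries (DualNumber L)) = mkD (1 : PowerSeries L) (PowerSeries.C c') := by
    have h := mkD_C (σ := Unit) (TrivSqZeroExt.inl 1 + TrivSqZeroExt.inr c' : DualNumber L)
    simp only [TrivSqZeroExt.fst_add, TrivSqZeroExt.fst_inl, TrivSqZeroExt.fst_inr, add_zero,
      TrivSqZeroExt.snd_add, TrivSqZeroExt.snd_inl, TrivSqZeroExt.snd_inr, zero_add, map_one] at h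
    exact h
  rw [h6, h7, h5] at h4
  have h8 : mkD (1 : PowerSeries L) (PowerSeries.C c') * mkD f g =
      (mkD f (g + PowerSeries.C c' * f) : PowerSeries (DualNumber L)) := by
    have h := mkD_mul (σ := Unit) (1 : PowerSeries L) (PowerSeries.C c') f g
    rw [one_mul, one_mul] at h
    exact h
  rw [h8] at h4
  have h9 := (mkD_inj h4).2
  refine ⟨PowerSeries.coeff 1 (om (H.map x.toRingHom) * η) + PowerSeries.coeff 0 q₁, ?_⟩
  have hc : c' = algebraMap O L (PowerSeries.coeff 1 (om (H.map x.toRingHom) * η) +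
      PowerSeries.coeff 0 q₁) := by
    rw [hc', map_add, map_add, hdf, he, ← map_mul, PowerSeries.coeff_map]
    congr 1
    have h := congrArg (PowerSeries.coeff 0) hq
    rw [PowerSeries.coeff_derivative, PowerSeries.coeff_map] at h
    simpa using h
  rw [← hc, ← hf, ← hg, map_mul, ← hdf, ← he]
  have h10 : PowerSeries.derivative L f * e + q = g + PowerSeries.C c' * f := h9
  rw [eq_sub_iff_add_eq, add_comm q, h10, add_comm]

end Z

end Crest.Agent.LU
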