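import Mathlib
import Crest.Agent.LU_A5
import Crest.Agent.LU_B6

/-!
S0351 (blueprint LU), task B7: stabilizer maps exist, are automorphisms, fix the height ideals.
-/

set_option autoImplicit false

noncomputable section

namespace Crest.Agent.LU

open Crest.LubinTate

namespace B7

variable {R : Type*} [CommRing R]

private theorem exists_X_pow {f : PowerSeries R} {m : ℕ}
    (hf : ∀ i < m, PowerSeries.coeff i f = 0) :
    ∃ f' : PowerSeries R, f = PowerSeries.X ^ m * f' ∧
      PowerSeries.constantCoeff f' = PowerSeries.coeff m f := by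
  obtain ⟨f', hf'⟩ := PowerSeries.X_pow_dvd_iff.2 hf
  refine ⟨f', hf', ?_⟩
  have h := PowerSeries.coeff_X_pow_mul f' m 0
  rw [zero_add, ← hf', PowerSeries.coeff_zero_eq_constantCoeff_apply] at h
  exact h.symm

/-- the constant coefficient of a substitution. -/
private theorem constantCoeff_cmp_eq (f : PowerSeries R) {A : PowerSeries R}
    (hA : PowerSeries.constantCoeff A = 0) :
    PowerSeries.constantCoeff (cmp f A : PowerSeries R) = PowerSeries.constantCoeff f := by
  have hV : PowerSeries.HasSubst A := PowerSeries.HasSubst.of_constantCoeff_zero' hA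
  have h8 : PowerSeries.constantCoeff (cmp (f - PowerSeries.C (PowerSeries.constantCoeff f)) A :
      PowerSeries R) = 0 := by
    apply constantCoeff_cmp
    · simp
    · exact hA
  have h9 : (cmp (f - PowerSeries.C (PowerSeries.constantCoeff f)) A : PowerSeries R) =
      cmp f A - PowerSeries.C (PowerSeries.constantCoeff f) := by
    show PowerSeries.subst A _ = _
    rw [PowerSeries.subst_sub hV]
    congr 1
    exact PowerSeries.subst_C (a := A) _
  rw [h9, map_sub] at h8
  simpa [sub_eq_zero] using h8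

/-- lowest coefficient of `f(A)` for `A = O(X^m)`. -/
private theorem coeff_cmp_of_low {f A : PowerSeries R} {m : ℕ} (hm : m ≠ 0)
    (hf : PowerSeries.constantCoeff f = 0) (hA : ∀ i < m, PowerSeries.coeff i A = 0) :
    PowerSeries.coeff m (cmp f A : PowerSeries R) =
      PowerSeries.coeff 1 f * PowerSeries.coeff m A := by
  have hA0 : PowerSeries.constantCoeff A = 0 := by
    rw [← PowerSeries.coeff_zero_eq_constantCoeff_apply]
    exact hA 0 (Nat.pos_of_ne_zero hm)
  have hs : PowerSeries.HasSubst A := PowerSeries.HasSubst.of_constantCoeff_zero' hA0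
  obtain ⟨f', hf', hf'0⟩ := exists_X_pow (f := f) (m := 1) (by
    intro i hi
    have : i = 0 := by omega
    subst this
    rw [PowerSeries.coeff_zero_eq_constantCoeff_apply, hf])
  obtain ⟨A', hA', hA'0⟩ := exists_X_pow hA
  have e1 : (cmp f A : PowerSeries R) = A * cmp f' A := by
    show PowerSeries.subst A f = _
    conv_lhs => rw [hf']
    rw [pow_one, PowerSeries.subst_mul hs, PowerSeries.subst_X hs]
  have e2 : (cmp f A : PowerSeries R) = PowerSeries.X ^ m * (A' * cmp f' A) := by
    rw [e1]
    conv_lhs => rw [show A * (cmp f' A : PowerSeries R) = (PowerSeries.X ^ m * A') * cmp f' A by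
      rw [← hA']]
    rw [mul_assoc]
  have h := PowerSeries.coeff_X_pow_mul (A' * cmp f' A : PowerSeries R) m 0
  rw [zero_add, ← e2, PowerSeries.coeff_zero_eq_constantCoeff_apply, map_mul, hA'0,
    constantCoeff_cmp_eq f' hA0, hf'0] at h
  rw [h, mul_comm]

/-- lowest coefficient of `f(A)` for `f = O(X^m)`. -/
private theorem coeff_cmp_of_low' {f A : PowerSeries R} {m : ℕ}
    (hf : ∀ i < m, PowerSeries.coeff i f = 0) (hA : PowerSeries.constantCoeff A = 0) :
    PowerSeries.coeff m (cmp f A : PowerSeries R) =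
      PowerSeries.coeff m f * PowerSeries.coeff 1 A ^ m := by
  have hs : PowerSeries.HasSubst A := PowerSeries.HasSubst.of_constantCoeff_zero' hA
  obtain ⟨f', hf', hf'0⟩ := exists_X_pow hf
  obtain ⟨A', hA', hA'0⟩ := exists_X_pow (f := A) (m := 1) (by
    intro i hi
    have : i = 0 := by omega
    subst this
    rw [PowerSeries.coeff_zero_eq_constantCoeff_apply, hA])
  rw [pow_one] at hA'
  have e1 : (cmp f A : PowerSeries R) = A ^ m * cmp f' A := by
    show PowerSeries.subst A f = _
    conv_lhs => rw [hf']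
    rw [PowerSeries.subst_mul hs, PowerSeries.subst_pow hs, PowerSeries.subst_X hs]
  have e2 : (cmp f A : PowerSeries R) = PowerSeries.X ^ m * (A' ^ m * cmp f' A) := by
    rw [e1, ← mul_assoc, ← mul_pow, ← hA']
  have h := PowerSeries.coeff_X_pow_mul (A' ^ m * cmp f' A : PowerSeries R) m 0
  rw [zero_add, ← e2, PowerSeries.coeff_zero_eq_constantCoeff_apply, map_mul, map_pow, hA'0,
    constantCoeff_cmp_eq f' hA, hf'0] at h
  rw [h, mul_comm]

/-- `V(X^m)` is `O(X^m)`. -/
private theorem coeff_cmp_X_pow_lt {V : PowerSeries R} (hV : PowerSeries.constantCoeff V = 0)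
    {m i : ℕ} (hi : i < m) :
    PowerSeries.coeff i (cmp V (PowerSeries.X ^ m : PowerSeries R) : PowerSeries R) = 0 := by
  have hm : m ≠ 0 := by omega
  have hs : PowerSeries.HasSubst (PowerSeries.X ^ m : PowerSeries R) :=
    PowerSeries.HasSubst.X_pow hm
  obtain ⟨V', hV', -⟩ := exists_X_pow (f := V) (m := 1) (by
    intro i hi
    have : i = 0 := by omega
    subst this
    rw [PowerSeries.coeff_zero_eq_constantCoeff_apply, hV])
  have e1 : (cmp V (PowerSeries.X ^ m : PowerSeries R) : PowerSeries R) =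
      PowerSeries.X ^ m * cmp V' (PowerSeries.X ^ m : PowerSeries R) := by
    show PowerSeries.subst _ V = _
    conv_lhs => rw [hV']
    rw [pow_one, PowerSeries.subst_mul hs, PowerSeries.subst_X hs]
  rw [e1]
  exact PowerSeries.X_pow_dvd_iff.1 (dvd_mul_right _ _) i hi

end B7

variable {p : ℕ} [Fact p.Prime] {n : ℕ} {Γ : FormalGroup (GaloisField p n)} [Γ.IsComm]
  {H : FormalGroup (LTRing p n)} [H.IsComm]

/-- the coefficients of `[p]_H` below `p^h` lie in `I_h`. -/
private theorem B7_low (hΓ : mulSeries Γ p = PowerSeries.X ^ (p ^ n))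
    (hH : H.map (LTRing.residue p n) = Γ) {h : ℕ} (h2 : h ≤ n) {i : ℕ} (hi : i < p ^ h) :
    PowerSeries.coeff i (mulSeries H p) ∈ heightIdeal p n H h := by
  rcases Nat.eq_zero_or_pos h with h0 | h0
  · subst h0
    have : i = 0 := by
      rw [pow_zero] at hi
      omega
    subst this
    rw [PowerSeries.coeff_zero_eq_constantCoeff_apply, constantCoeff_mulSeries]
    exact Ideal.zero_mem _
  · have hle := heightIdeal_le (Γ := Γ) hΓ hH h2
    have hne : heightIdeal p n H h ≠ ⊤ := by
      intro e
      rw [e, top_le_iff] at hle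
      exact RingHom.ker_ne_top _ hle
    have hp : (p : LTRing p n) ∈ heightIdeal p n H h := by
      rw [← vv_zero (H := H)]
      exact vv_mem h0
    haveI := charP_quot hne hp
    obtain ⟨V, hV, hV2, -⟩ := exists_V (H := H) (h := h) (J := heightIdeal p n H h) le_rfl
    have e := mulSeries_map H (Ideal.Quotient.mk (heightIdeal p n H h)) p
    have e1 := congrArg (PowerSeries.coeff i) e
    rw [PowerSeries.coeff_map, hV, B7.coeff_cmp_X_pow_lt hV2.1 hi] at e1
    exact Ideal.Quotient.eq_zero_iff_mem.1 e1.symm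

private theorem B7_residue_ne {t : LTRing p n} (h : LTRing.residue p n t ≠ 0) : IsUnit t :=
  (isTest_E0 p n).isUnit h

/-- the key congruence. -/
private theorem B7_key (hΓ : mulSeries Γ p = PowerSeries.X ^ (p ^ n))
    (hH : H.map (LTRing.residue p n) = Γ) {φ : LTRing p n →+* LTRing p n}
    {θ : PowerSeries (LTRing p n)} (hθ : IsFGHom (H.map φ) H θ) {h : ℕ} (h2 : h ≤ n)
    (hmap : Ideal.map φ (heightIdeal p n H h) ≤ heightIdeal p n H h) :
    PowerSeries.coeff 1 θ * φ (vv H h) - vv H h * PowerSeries.coeff 1 θ ^ (p ^ h) ∈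
      heightIdeal p n H h := by
  set J := heightIdeal p n H h with hJ
  have hpm : p ^ h ≠ 0 := pow_ne_zero h (Fact.out : p.Prime).ne_zero
  have hθ1 : IsFGHom ((H.map φ).map (Ideal.Quotient.mk J)) (H.map (Ideal.Quotient.mk J))
      (PowerSeries.map (Ideal.Quotient.mk J) θ) := hom_map hθ (Ideal.Quotient.mk J)
  have hc := hom_comm_mulSeries hθ1 p (a := (PowerSeries.X : PowerSeries (LTRing p n ⧸ J)))
    PowerSeries.constantCoeff_X
  rw [cmp_X, cmp_X] at hc
  have eF : mulSeries ((H.map φ).map (Ideal.Quotient.mk J)) p =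
      PowerSeries.map (Ideal.Quotient.mk J) (PowerSeries.map φ (mulSeries H p)) := by
    rw [mulSeries_map, mulSeries_map]
  have eG : mulSeries (H.map (Ideal.Quotient.mk J)) p =
      PowerSeries.map (Ideal.Quotient.mk J) (mulSeries H p) := mulSeries_map _ _ _
  have hFlow : ∀ i < p ^ h,
      PowerSeries.coeff i (mulSeries ((H.map φ).map (Ideal.Quotient.mk J)) p) = 0 := by
    intro i hi
    rw [eF, PowerSeries.coeff_map, PowerSeries.coeff_map]
    exact Ideal.Quotient.eq_zero_iff_mem.2
      (hmap (Ideal.mem_map_of_mem φ (B7_low hΓ hH h2 hi)))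
  have hGlow : ∀ i < p ^ h,
      PowerSeries.coeff i (mulSeries (H.map (Ideal.Quotient.mk J)) p) = 0 := by
    intro i hi
    rw [eG, PowerSeries.coeff_map]
    exact Ideal.Quotient.eq_zero_iff_mem.2 (B7_low hΓ hH h2 hi)
  have h1 := congrArg (PowerSeries.coeff (p ^ h)) hc
  rw [B7.coeff_cmp_of_low hpm hθ1.1 hFlow, B7.coeff_cmp_of_low' hGlow hθ1.1, eF, eG,
    PowerSeries.coeff_map, PowerSeries.coeff_map, PowerSeries.coeff_map,
    PowerSeries.coeff_map] at h1
  rw [← Ideal.Quotient.eq_zero_iff_mem, map_sub, map_mul, map_mul, map_pow, sub_eq_zero]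
  exact h1

/-- TASK B7a.  If `φ` realises the automorphism `g` then `φ(v_h) ∈ unit·v_h + I_h`, hence
`φ(I_h) E₀ = I_h`.
Proof by induction on `h`: let `θ : H.map φ → H` lift `g`, `t = θ'(0)` a unit.  Suppose
`Ideal.map φ I_h = I_h`.  Over `E₀/I_h` the law `H.map φ` has `[p] = V^φ(X^{p^h})` (for `h = 0`
just the series `[p]`), and `θ ∘ [p]_{H.map φ} = [p]_H ∘ θ` (`hom_comm_mulSeries`,
`mulSeries_map`); comparing the coefficients of `X^{p^h}` modulo `I_h` (all lower coefficients of
both `p`-series vanish modulo `I_h`): `t · φ(v_h) ≡ v_h · t^{p^h} mod I_h`. -/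
theorem map_heightIdeal (hn : 1 ≤ n) (hΓ : mulSeries Γ p = PowerSeries.X ^ (p ^ n))
    (hH : IsUniversalDeformation p n Γ H) {g : PowerSeries (GaloisField p n)}
    {φ : LTRing p n →ₐ[WittVector p (GaloisField p n)] LTRing p n}
    (hg : IsFGAut Γ g) (hφ : IsStabilizerMap p n H g φ) {h : ℕ} (h2 : h ≤ n) :
    Ideal.map φ.toRingHom (heightIdeal p n H h) = heightIdeal p n H h := by
  obtain ⟨hr, θ, hθ, hθg⟩ := hφ
  have ht : IsUnit (PowerSeries.coeff 1 θ) := by
    apply B7_residue_ne
    have : LTRing.residue p n (PowerSeries.coeff 1 θ) = PowerSeries.coeff 1 g := by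
      rw [← hθg, PowerSeries.coeff_map]
    rw [this]
    exact hg.2.ne_zero
  induction h with
  | zero => rw [heightIdeal_zero, Ideal.map_bot]
  | succ h ih =>
    have ih' := ih (by omega)
    have hk := B7_key hΓ hH.1 hθ (h := h) (by omega) ih'.le
    set t := PowerSeries.coeff 1 θ
    rw [heightIdeal_succ, Ideal.map_sup, ih', Ideal.map_span, Set.image_singleton]
    set I := heightIdeal p n H h
    have htm : IsUnit (t ^ (p ^ h)) := ht.pow _
    apply le_antisymm
    · refine sup_le le_sup_left ?_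
      rw [Ideal.span_singleton_le_iff_mem]
      have h3 : t * φ.toRingHom (vv H h) ∈ I ⊔ Ideal.span {vv H h} := by
        have h4 : t * φ.toRingHom (vv H h) =
            (t * φ.toRingHom (vv H h) - vv H h * t ^ (p ^ h)) + vv H h * t ^ (p ^ h) := by ring
        rw [h4]
        refine Ideal.add_mem _ (Ideal.mem_sup_left hk) (Ideal.mem_sup_right ?_)
        exact Ideal.mul_mem_right _ _ (Ideal.subset_span rfl)
      exact (Ideal.unit_mul_mem_iff_mem _ ht).1 h3
    · refine sup_le le_sup_left ?_
      rw [Ideal.span_singleton_le_iff_mem]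
      have h3 : t ^ (p ^ h) * vv H h ∈ I ⊔ Ideal.span {φ.toRingHom (vv H h)} := by
        have h4 : t ^ (p ^ h) * vv H h =
            t * φ.toRingHom (vv H h) - (t * φ.toRingHom (vv H h) - vv H h * t ^ (p ^ h)) := by
          ring
        rw [h4]
        refine Ideal.sub_mem _ (Ideal.mem_sup_right ?_) (Ideal.mem_sup_left hk)
        exact Ideal.mul_mem_left _ _ (Ideal.subset_span rfl)
      exact (Ideal.unit_mul_mem_iff_mem _ htm).1 h3

/-- TASK B7b.  `φ` is bijective (`endo_bijective` with `I_n = 𝔪`). -/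
theorem stab_bijective (hn : 1 ≤ n) (hΓ : mulSeries Γ p = PowerSeries.X ^ (p ^ n))
    (hH : IsUniversalDeformation p n Γ H) {g : PowerSeries (GaloisField p n)}
    {φ : LTRing p n →ₐ[WittVector p (GaloisField p n)] LTRing p n}
    (hg : IsFGAut Γ g) (hφ : IsStabilizerMap p n H g φ) : Function.Bijective φ := by
  refine endo_bijective φ hφ.1 ?_
  rw [← heightIdeal_n hn hΓ hH]
  exact (map_heightIdeal hn hΓ hH hg hφ le_rfl).ge

/-- Height ideals are stable. -/
theorem heightIdeal_stable (hn : 1 ≤ n) (hΓ : mulSeries Γ p = PowerSeries.X ^ (p ^ n))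
    (hH : IsUniversalDeformation p n Γ H) (M : ℕ) {h : ℕ} (h2 : h ≤ n) :
    IsStableIdeal p n Γ H M (heightIdeal p n H h) := by
  intro g φ hg _ hφ
  have hb : Function.Bijective φ.toRingHom := stab_bijective hn hΓ hH hg hφ
  conv_lhs => rw [← map_heightIdeal hn hΓ hH hg hφ h2]
  exact Ideal.comap_map_of_bijective φ.toRingHom hb

/-- TASK B7c.  Existence of stabilizer maps.  Lift `g` coefficientwise to `g' ∈ E₀[[X]]` with
zero constant coefficient (linear coefficient is a unit, `E₀` is local); let `G` be the law with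
`g' : G → H` (`exists_conj`).  `G.map residue = Γ` by `source_unique` (both it and `Γ` are sources
of `g : _ → Γ`).  `univ_exists` for `B = E₀` gives `φ` and a star-isomorphism `θ : H.map φ → G`;
`g' ∘ θ : H.map φ → H` reduces to `g`. -/
theorem exists_stab (hH : IsUniversalDeformation p n Γ H) {g : PowerSeries (GaloisField p n)}
    (hg : IsFGAut Γ g) :
    ∃ φ : LTRing p n →ₐ[WittVector p (GaloisField p n)] LTRing p n,
      IsStabilizerMap p n H g φ := by
  have hs := (isTest_E0 p n).surj
  choose s hs using hs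
  let g' : PowerSeries (LTRing p n) :=
    PowerSeries.mk fun i => if i = 0 then 0 else s (PowerSeries.coeff i g)
  have hg0 : PowerSeries.constantCoeff g' = 0 := by
    rw [← PowerSeries.coeff_zero_eq_constantCoeff_apply, PowerSeries.coeff_mk, if_pos rfl]
  have hgr : PowerSeries.map (LTRing.residue p n) g' = g := by
    ext i
    rw [PowerSeries.coeff_map, PowerSeries.coeff_mk]
    split_ifs with h
    · subst h
      rw [map_zero, PowerSeries.coeff_zero_eq_constantCoeff_apply, hg.1.1]
    · exact hs _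
  have hg1 : IsUnit (PowerSeries.coeff 1 g') := by
    apply B7_residue_ne
    rw [← PowerSeries.coeff_map, hgr]
    exact hg.2.ne_zero
  obtain ⟨G, -, hG⟩ := exists_conj H hg0 hg1
  have hGr : G.map (LTRing.residue p n) = Γ := by
    have h1 := hom_map hG (LTRing.residue p n)
    rw [hgr, hH.1] at h1
    exact source_unique hg.2 h1 hg.1
  obtain ⟨φ, hφ, θ, hθ, hθr⟩ := (isTest_E0 p n).univ_exists hH G hGr
  refine ⟨φ, hφ, cmp g' θ, hom_comp hG hθ, ?_⟩
  have h1 := map_cmp (σ := Unit) (LTRing.residue p n) g' (a := θ) hθ.1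
  rw [hgr] at h1
  have h2 : (MvPowerSeries.map (LTRing.residue p n) : MvPowerSeries Unit (LTRing p n) →+* _) θ =
      (PowerSeries.X : PowerSeries (GaloisField p n)) := hθr
  rw [h2, cmp_X] at h1
  exact h1

end Crest.Agent.LU
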