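import Mathlib
import Crest.Agent.LU_B7

/-!
S0351 (blueprint LU), task B8: endomorphisms of `Γ` divisible by `[p^N]`; continuity of the action.
-/

set_option autoImplicit false

noncomputable section

namespace Crest.Agent.LU

open Crest.LubinTate

variable {p : ℕ} [Fact p.Prime] {n : ℕ} {Γ : FormalGroup (GaloisField p n)} [Γ.IsComm]
  {H : FormalGroup (LTRing p n)} [H.IsComm]

/-- `X^m` evaluated at `a` is `a^m`. -/
private theorem b8_X_pow_cmp {R : Type*} [CommRing R] (m : ℕ) {σ : Type*} {a : MvPowerSeries σ R}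
    (ha : MvPowerSeries.constantCoeff a = 0) :
    cmp (PowerSeries.X ^ m : PowerSeries R) a = a ^ m := by
  have hs : PowerSeries.HasSubst a := PowerSeries.HasSubst.of_constantCoeff_zero ha
  unfold cmp
  rw [← PowerSeries.coe_substAlgHom hs, map_pow, PowerSeries.coe_substAlgHom hs,
    PowerSeries.subst_X hs]

/-- `[p^N]_Γ = X^{q^N}`. -/
theorem mulSeries_pow_Gamma (hΓ : mulSeries Γ p = PowerSeries.X ^ (p ^ n)) (N : ℕ) :
    mulSeries Γ (p ^ N) = PowerSeries.X ^ ((p ^ n) ^ N) := by
  induction N with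
  | zero =>
    rw [pow_zero, pow_zero, pow_one]
    have h1 : mulSeries Γ 1 = fadd Γ (0 : PowerSeries (GaloisField p n)) PowerSeries.X := rfl
    rw [h1]
    exact zero_fadd Γ (a := (PowerSeries.X : PowerSeries (GaloisField p n)))
      PowerSeries.constantCoeff_X
  | succ N ih =>
    rw [pow_succ p N, mulSeries_mul, ih,
      b8_X_pow_cmp (σ := Unit) ((p ^ n) ^ N) (a := mulSeries Γ p) (constantCoeff_mulSeries Γ p), hΓ]
    rw [← pow_mul, ← pow_succ']

private theorem b8_iterateFrobenius (hn : 1 ≤ n) (N : ℕ) :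
    iterateFrobenius (GaloisField p n) p (n * N) = RingHom.id (GaloisField p n) := by
  ext x
  rw [iterateFrobenius_def, RingHom.id_apply]
  have : Finite (GaloisField p n) := inferInstance
  have : Fintype (GaloisField p n) := Fintype.ofFinite _
  have hcard : Fintype.card (GaloisField p n) = p ^ n := by
    rw [← Nat.card_eq_fintype_card]
    exact GaloisField.card p n (by omega)
  rw [pow_mul, ← hcard]
  exact FiniteField.pow_card_pow N x

/-- `Γ` is defined over `F_q`: the `q^N`-power Frobenius twist of `Γ` is `Γ`. -/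
theorem map_iterateFrobenius_Gamma (hn : 1 ≤ n) (N : ℕ) :
    Γ.map (iterateFrobenius (GaloisField p n) p (n * N)) = Γ := by
  rw [b8_iterateFrobenius hn, map_id]

/-- Every series over `F_q` commutes with `X^{q^N}`. -/
theorem cmp_X_pow_comm (hn : 1 ≤ n) (N : ℕ) (a : PowerSeries (GaloisField p n)) :
    cmp a (PowerSeries.X ^ ((p ^ n) ^ N) : PowerSeries (GaloisField p n)) =
      a ^ ((p ^ n) ^ N) := by
  have h := cmp_pow p a (n * N) (σ := Unit)
    (a := (PowerSeries.X : PowerSeries (GaloisField p n))) PowerSeries.constantCoeff_X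
  rw [b8_iterateFrobenius hn] at h
  have e1 : (cmp a (PowerSeries.X : PowerSeries (GaloisField p n)) :
      MvPowerSeries Unit (GaloisField p n)) = a := cmp_X a
  have e2 : PowerSeries.map (RingHom.id (GaloisField p n)) a = a := by
    ext i
    simp
  rw [e1, e2, pow_mul] at h
  exact h.symm

/-- TASK B8a.  An endomorphism `b` of `Γ` with `coeff i b = 0` for `i < q^N` is `c ∘ [p^N]` with `c`
an endomorphism of `Γ` (`frobenius_factor_iter` with `h = n N`). -/
theorem end_factor (hn : 1 ≤ n) (N : ℕ) {b : PowerSeries (GaloisField p n)}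
    (hb : IsFGHom Γ Γ b) (h0 : ∀ i < (p ^ n) ^ N, PowerSeries.coeff i b = 0) :
    ∃ c : PowerSeries (GaloisField p n), IsFGHom Γ Γ c ∧
      b = cmp c (PowerSeries.X ^ ((p ^ n) ^ N) : PowerSeries (GaloisField p n)) := by
  obtain ⟨c, hc1, hc2⟩ := frobenius_factor_iter p hb (n * N) (by
    intro i hi
    apply h0
    rw [← pow_mul]
    exact Nat.pow_lt_pow_right (Fact.out : p.Prime).one_lt hi)
  rw [map_iterateFrobenius_Gamma hn] at hc2
  rw [pow_mul] at hc1
  exact ⟨c, hc2, hc1⟩

/-- The reduction map on points. -/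
private def b8_red {R S : Type*} [CommRing R] [CommRing S] (G : FormalGroup R) [G.IsComm]
    (f : R →+* S) (σ : Type*) : FPt G σ →+ FPt (G.map f) σ where
  toFun a := ⟨MvPowerSeries.map f a.val, by
    rw [MvPowerSeries.constantCoeff_map, a.prop, map_zero]⟩
  map_zero' := by
    ext1
    exact map_zero _
  map_add' a b := by
    ext1
    exact map_fadd G f a.prop b.prop

private theorem b8_red_val {R S : Type*} [CommRing R] [CommRing S] (G : FormalGroup R) [G.IsComm]
    (f : R →+* S) (σ : Type*) (a : FPt G σ) :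
    (b8_red G f σ a).val = MvPowerSeries.map f a.val := rfl

private theorem b8_mapHom_val {R : Type*} [CommRing R] {F G : FormalGroup R} [F.IsComm] [G.IsComm]
    {φ : PowerSeries R} (hφ : IsFGHom F G φ) (σ : Type*) (a : FPt F σ) :
    (FPt.mapHom hφ σ a).val = cmp φ a.val := rfl

/-- TASK B8b.  Over a test ring `B` with `(ker r)^{N+1} = 0`, for every endomorphism `c` of `Γ`
the endomorphism `X +_Γ [p^N]∘c` lifts to an endomorphism of every law `G` over `B` reducing
to `Γ`.
Proof: lift `c` coefficientwise to `c' ∈ B[[X]]`, zero constant coefficient.  Put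
`Δ = c'(F(X,Y)) -_G (c'(X) +_G c'(Y))` in the group `FPt G (Fin 2)`, it reduces to `0` so its
coefficients are in `ker r` and `[p^N]_G(Δ) = 0` by `mulSeries_pow_contract`; hence `[p^N]_G ∘ c'` is
an endomorphism; so is `X +_G [p^N]_G ∘ c'` (`hom_add`). -/
theorem exists_lift_end {B : Type} [CommRing B] [Algebra (WittVector p (GaloisField p n)) B]
    {r : B →+* GaloisField p n} (hB : IsTest p n B r) (N : ℕ)
    (hN : (RingHom.ker r) ^ (N + 1) = ⊥) (G : FormalGroup B) [G.IsComm] (hG : G.map r = Γ)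
    {c : PowerSeries (GaloisField p n)} (hc : IsFGHom Γ Γ c) :
    ∃ γ : PowerSeries B, IsFGHom G G γ ∧
      PowerSeries.map r γ = fadd Γ (PowerSeries.X : PowerSeries (GaloisField p n))
        (cmp (mulSeries Γ (p ^ N)) c) := by
  subst hG
  -- lift `c`
  have hlift : ∀ i : ℕ, ∃ b : B, r b = PowerSeries.coeff i c ∧ (i = 0 → b = 0) := by
    intro i
    by_cases hi : i = 0
    · refine ⟨0, ?_, fun _ => rfl⟩
      rw [map_zero, hi, PowerSeries.coeff_zero_eq_constantCoeff_apply]
      exact hc.1.symm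
    · obtain ⟨b, hb⟩ := hB.surj (PowerSeries.coeff i c)
      exact ⟨b, hb, fun h => absurd h hi⟩
  choose cf hcf1 hcf2 using hlift
  set c' : PowerSeries B := PowerSeries.mk cf with hc'
  have hc'0 : PowerSeries.constantCoeff c' = 0 := by
    rw [← PowerSeries.coeff_zero_eq_constantCoeff_apply, hc', PowerSeries.coeff_mk]
    exact hcf2 0 rfl
  have hc'r : PowerSeries.map r c' = c := by
    ext i
    rw [PowerSeries.coeff_map, hc', PowerSeries.coeff_mk]
    exact hcf1 i
  set m : PowerSeries B := mulSeries G (p ^ N) with hm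
  have hm0 : PowerSeries.constantCoeff m = 0 := constantCoeff_mulSeries G _
  have hmr : PowerSeries.map r m = mulSeries (G.map r) (p ^ N) := (mulSeries_map G r _).symm
  -- `[p^N] ∘ c'` is an endomorphism
  have hδ : IsFGHom G G (cmp m c') := by
    apply isFGHom_of_fadd
    · exact constantCoeff_cmp (σ := Unit) hm0 hc'0
    · intro a b ha hb
      have hab : MvPowerSeries.constantCoeff (fadd G a b) = 0 := constantCoeff_fadd G ha hb
      rw [cmp_assoc m hc'0 hab, cmp_assoc m hc'0 ha, cmp_assoc m hc'0 hb]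
      -- points
      let A : FPt G (Fin 2) := ⟨cmp c' a, constantCoeff_cmp hc'0 ha⟩
      let Bp : FPt G (Fin 2) := ⟨cmp c' b, constantCoeff_cmp hc'0 hb⟩
      let C : FPt G (Fin 2) := ⟨cmp c' (fadd G a b), constantCoeff_cmp hc'0 hab⟩
      let D : FPt G (Fin 2) := C - (A + Bp)
      have hD0 : b8_red G r (Fin 2) D = 0 := by
        have h1 : b8_red G r (Fin 2) C = b8_red G r (Fin 2) A + b8_red G r (Fin 2) Bp := by
          ext1
          rw [FPt.val_add, b8_red_val, b8_red_val, b8_red_val]
          show MvPowerSeries.map r (cmp c' (fadd G a b)) =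
            fadd (G.map r) (MvPowerSeries.map r (cmp c' a)) (MvPowerSeries.map r (cmp c' b))
          rw [map_cmp r c' hab, map_cmp r c' ha, map_cmp r c' hb, hc'r, map_fadd G r ha hb]
          refine hom_fadd hc ?_ ?_
          · rw [MvPowerSeries.constantCoeff_map, ha, map_zero]
          · rw [MvPowerSeries.constantCoeff_map, hb, map_zero]
        rw [map_sub, map_add, h1, sub_self]
      have hD1 : CoeffIn (RingHom.ker r) D.val := by
        intro d
        have h2 : MvPowerSeries.map r D.val = 0 := by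
          rw [← b8_red_val, hD0]
          rfl
        have h3 := congrArg (MvPowerSeries.coeff d) h2
        rw [MvPowerSeries.coeff_map] at h3
        rw [RingHom.mem_ker, h3]
        exact map_zero _
      have hD2 : (p ^ N) • D = 0 := by
        ext1
        rw [nsmul_val]
        have h4 := mulSeries_pow_contract G (RingHom.ker r) p (by exact hB.p_mem) N D.prop hD1
        rw [hN] at h4
        ext d
        have h5 := h4 d
        rw [Ideal.mem_bot] at h5
        rw [h5]
        exact (map_zero _).symm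
      have hD3 : (p ^ N) • C = (p ^ N) • A + (p ^ N) • Bp := by
        rw [← sub_eq_zero, ← nsmul_add, ← nsmul_sub]
        exact hD2
      have hD4 := congrArg FPt.val hD3
      rw [FPt.val_add, nsmul_val, nsmul_val, nsmul_val] at hD4
      exact hD4
  refine ⟨fadd G (PowerSeries.X : PowerSeries B) (cmp m c'), hom_add (hom_X G) hδ, ?_⟩
  have h6 := map_fadd G r (σ := Unit) (a := (PowerSeries.X : PowerSeries B)) (b := cmp m c')
    PowerSeries.constantCoeff_X (constantCoeff_cmp (σ := Unit) hm0 hc'0)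
  have h7 : MvPowerSeries.map r (PowerSeries.X : PowerSeries B) =
    (PowerSeries.X : PowerSeries (GaloisField p n)) := PowerSeries.map_X r
  have h8 := map_cmp r m (σ := Unit) (a := c') hc'0
  have h9 : MvPowerSeries.map r c' = c := hc'r
  rw [h7, h8, hmr, h9] at h6
  exact h6

/-- If `g ≡ X mod X^M` then `g -_Γ X` has no coefficients in degrees `< M`. -/
private theorem b8_sub_coeff {R : Type*} [CommRing R] (F : FormalGroup R) [F.IsComm]
    {g : PowerSeries R} (hg0 : PowerSeries.constantCoeff g = 0) (M : ℕ)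
    (hg : ∀ i < M, PowerSeries.coeff i g = PowerSeries.coeff i PowerSeries.X)
    {b : PowerSeries R} (hb0 : PowerSeries.constantCoeff b = 0)
    (hb : fadd F (PowerSeries.X : PowerSeries R) b = g) :
    ∀ i < M, PowerSeries.coeff i b = 0 := by
  obtain ⟨K, hK1, hK2⟩ := A7.exists_decomp F
  have hs : MvPowerSeries.HasSubst ![(PowerSeries.X : PowerSeries R), b] :=
    hasSubst_pair PowerSeries.constantCoeff_X hb0
  set u : PowerSeries R := MvPowerSeries.subst ![(PowerSeries.X : PowerSeries R), b] K with hu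
  have hu1 : PowerSeries.constantCoeff u = 1 := by
    have := A7.constantCoeff_subst hs (by
      intro s
      fin_cases s
      · exact PowerSeries.constantCoeff_X
      · exact hb0) K
    rw [hK1] at this
    exact this
  have e1 : g = PowerSeries.X + b * u := by
    rw [← hb]
    unfold fadd
    rw [hK2, MvPowerSeries.subst_add hs, MvPowerSeries.subst_mul hs, MvPowerSeries.subst_X hs,
      MvPowerSeries.subst_X hs]
    rfl
  have hdvd : (PowerSeries.X : PowerSeries R) ^ M ∣ b * u := by
    rw [PowerSeries.X_pow_dvd_iff]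
    intro i hi
    have e2 : b * u = g - PowerSeries.X := by rw [e1]; ring
    rw [e2, map_sub, hg i hi, sub_self]
  have hunit : IsUnit u := by
    rw [PowerSeries.isUnit_iff_constantCoeff, hu1]
    exact isUnit_one
  have hdvd2 : (PowerSeries.X : PowerSeries R) ^ M ∣ b := hunit.dvd_mul_right.1 hdvd
  exact PowerSeries.X_pow_dvd_iff.1 hdvd2

/-- TASK B8c.  Continuity.  Given `K`, take `N = K`, `M' = q^N + 1` (or larger).  If `g ≡ X mod X^{M'}`
then `b = g -_Γ X` (an endomorphism, `hom_add`, `hom_neg`) has `coeff i b = 0` for `i < M'`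
(over the field `k`; `g -_Γ X ≡ g - X` modulo the ideal generated by `g - X`), so
`b = c ∘ [p^N] = [p^N] ∘ c` (`end_factor`, `cmp_X_pow_comm`, `mulSeries_pow_Gamma`).  Let
`B = E₀/𝔪^K` (test ring, `(ker r)^{K} = 0`), `x : E₀ → B` the projection, `γ` from
`exists_lift_end` for `G = H.map x`; `γ` reduces to `g`.  If `θ : H.map φ → H` lifts `g` then
`γ⁻¹ ∘ θ : H.map (x ∘ φ) → H.map x` is a star-isomorphism so `x ∘ φ = x` by `univ_unique`. -/
theorem stab_continuous (hn : 1 ≤ n) (hΓ : mulSeries Γ p = PowerSeries.X ^ (p ^ n))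
    (hH : IsUniversalDeformation p n Γ H) (K : ℕ) :
    ∃ M' : ℕ, 1 ≤ M' ∧ ∀ (g : PowerSeries (GaloisField p n))
      (φ : LTRing p n →ₐ[WittVector p (GaloisField p n)] LTRing p n),
      IsFGAut Γ g → (∀ i < M', PowerSeries.coeff i g = PowerSeries.coeff i PowerSeries.X) →
      IsStabilizerMap p n H g φ →
      ∀ a : LTRing p n, φ a - a ∈ (RingHom.ker (LTRing.residue p n)) ^ K := by
  rcases Nat.eq_zero_or_pos K with hK | hK
  · subst hK
    refine ⟨1, le_refl _, ?_⟩
    intro g φ _ _ _ a
    rw [pow_zero, Ideal.one_eq_top]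
    exact Submodule.mem_top
  obtain ⟨N, rfl⟩ : ∃ N, K = N + 1 := ⟨K - 1, by omega⟩
  refine ⟨(p ^ n) ^ N + 1, by omega, ?_⟩
  intro g φ hg hgX hφ
  obtain ⟨hφ1, θ, hθ1, hθ2⟩ := hφ
  set 𝔪 : Ideal (LTRing p n) := RingHom.ker (LTRing.residue p n) with h𝔪
  have hJ : ∀ a ∈ 𝔪 ^ (N + 1), LTRing.residue p n a = 0 := by
    intro a ha
    exact Ideal.pow_le_self (Nat.succ_ne_zero N) ha
  have hB : IsTest p n (LTRing p n ⧸ 𝔪 ^ (N + 1))
      (Ideal.Quotient.lift (𝔪 ^ (N + 1)) (LTRing.residue p n) hJ) :=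
    isTest_quot (isTest_E0 p n) (𝔪 ^ (N + 1)) hJ
  set r' : (LTRing p n ⧸ 𝔪 ^ (N + 1)) →+* GaloisField p n :=
    Ideal.Quotient.lift (𝔪 ^ (N + 1)) (LTRing.residue p n) hJ with hr'
  set x : LTRing p n →ₐ[WittVector p (GaloisField p n)] (LTRing p n ⧸ 𝔪 ^ (N + 1)) :=
    Ideal.Quotient.mkₐ (WittVector p (GaloisField p n)) (𝔪 ^ (N + 1)) with hx
  have hrx : r'.comp x.toRingHom = LTRing.residue p n := by
    ext a
    rfl
  have hkerpow : (RingHom.ker r') ^ (N + 1) = ⊥ := by
    have hk : RingHom.ker r' = Ideal.map (Ideal.Quotient.mk (𝔪 ^ (N + 1))) 𝔪 := by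
      ext y
      obtain ⟨a, rfl⟩ := Ideal.Quotient.mk_surjective y
      constructor
      · intro h
        apply Ideal.mem_map_of_mem
        exact h
      · intro h
        have h2 : Ideal.map (Ideal.Quotient.mk (𝔪 ^ (N + 1))) 𝔪 ≤ RingHom.ker r' := by
          rw [Ideal.map_le_iff_le_comap]
          intro a ha
          exact ha
        exact h2 h
    rw [hk, ← Ideal.map_pow, Ideal.map_quotient_self]
  have hHres : H.map (LTRing.residue p n) = Γ := hH.1
  have hGr : (H.map x.toRingHom).map r' = Γ := by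
    rw [map_map, hrx, hHres]
  -- the endomorphism `b = g - X`
  have hbhom : IsFGHom Γ Γ (fadd Γ g (cmp (inv Γ) (PowerSeries.X : PowerSeries (GaloisField p n)))) :=
    hom_add hg.1 (hom_neg (hom_X Γ))
  set b : PowerSeries (GaloisField p n) :=
    fadd Γ g (cmp (inv Γ) (PowerSeries.X : PowerSeries (GaloisField p n))) with hb
  have hbX : fadd Γ (PowerSeries.X : PowerSeries (GaloisField p n)) b = g := by
    let P : FPt Γ Unit := ⟨g, hg.1.1⟩
    have h1 : ptX Γ + (P + -ptX Γ) = P := by abel
    exact congrArg FPt.val h1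
  have hb0 : PowerSeries.constantCoeff b = 0 := hbhom.1
  have hbc : ∀ i < (p ^ n) ^ N, PowerSeries.coeff i b = 0 := by
    intro i hi
    exact b8_sub_coeff Γ hg.1.1 ((p ^ n) ^ N + 1) hgX hb0 hbX i (by omega)
  obtain ⟨c, hc1, hc2⟩ := end_factor hn N hbhom hbc
  have hbc2 : b = cmp (mulSeries Γ (p ^ N)) c := by
    rw [hc2, cmp_X_pow_comm hn, mulSeries_pow_Gamma hΓ]
    exact (b8_X_pow_cmp (σ := Unit) ((p ^ n) ^ N) (a := c) hc1.1).symm
  obtain ⟨γ, hγ1, hγ2⟩ := exists_lift_end hB N hkerpow (H.map x.toRingHom) hGr hc1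
  rw [← hbc2, hbX] at hγ2
  -- inverse of `γ`
  have hγ0 : PowerSeries.constantCoeff γ = 0 := hγ1.1
  have hγu : IsUnit (PowerSeries.coeff 1 γ) := by
    apply hB.isUnit
    have h3 : r' (PowerSeries.coeff 1 γ) = PowerSeries.coeff 1 g := by
      rw [← hγ2, PowerSeries.coeff_map]
    rw [h3]
    exact hg.2.ne_zero
  obtain ⟨δ, hδ0, hδu, hδ1, hδ2⟩ := exists_cmp_inv hγ0 hγu
  have hδhom : IsFGHom (H.map x.toRingHom) (H.map x.toRingHom) δ := hom_inverse hγ1 hδ0 hδ1 hδ2
  -- push `θ` forward
  have hθx : IsFGHom ((H.map φ.toRingHom).map x.toRingHom) (H.map x.toRingHom)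
      (PowerSeries.map x.toRingHom θ) := hom_map hθ1 x.toRingHom
  rw [map_map] at hθx
  have hθx2 : IsFGHom (H.map (x.comp φ).toRingHom) (H.map x.toRingHom)
      (cmp δ (PowerSeries.map x.toRingHom θ)) := hom_comp hδhom hθx
  have hθx0 : PowerSeries.constantCoeff (PowerSeries.map x.toRingHom θ) = 0 := hθx.1
  have hred : PowerSeries.map r' (cmp δ (PowerSeries.map x.toRingHom θ)) = PowerSeries.X := by
    have h4 := map_cmp r' δ (σ := Unit) (a := PowerSeries.map x.toRingHom θ) hθx0
    have h5 : (MvPowerSeries.map r' (PowerSeries.map x.toRingHom θ : MvPowerSeries Unit _)) = g := by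
      show PowerSeries.map r' (PowerSeries.map x.toRingHom θ) = g
      rw [← hθ2]
      ext i
      rw [PowerSeries.coeff_map, PowerSeries.coeff_map, PowerSeries.coeff_map]
      rfl
    rw [h5] at h4
    have h6 := map_cmp r' δ (σ := Unit) (a := γ) hγ0
    have h7 : MvPowerSeries.map r' (γ : MvPowerSeries Unit _) = g := hγ2
    rw [h7] at h6
    rw [← h6] at h4
    refine Eq.trans h4 ?_
    rw [hδ2]
    exact PowerSeries.map_X r'
  have hfin := hB.univ_unique hH (x.comp φ) x (by
      ext a
      have h8 := congrArg (fun f => f a) hφ1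
      exact h8) hrx _ hθx2 hred
  intro a
  have h9 : x (φ a) = x a := by
    have := congrArg (fun f => f a) hfin
    exact this
  exact (Ideal.Quotient.eq).1 h9

end Crest.Agent.LU
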