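import Mathlib
import Crest.Agent.LU_B8
import Crest.Agent.LUC_5

/-!
S0351 (blueprint LU), part LUZ: the ring of endomorphisms of a commutative formal group law.
-/

set_option autoImplicit false

noncomputable section

namespace Crest.Agent.LU

open Crest.LubinTate

namespace Z

variable {R : Type*} [CommRing R]

/-- Endomorphisms of a formal group law. -/
@[ext] structure FEnd (F : FormalGroup R) where
  /-- the series -/
  val : PowerSeries R
  prop : IsFGHom F F val

namespace FEnd

variable {F : FormalGroup R} [F.IsComm]

instance : Zero (FEnd F) := ⟨⟨0, hom_zero F F⟩⟩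
instance : One (FEnd F) := ⟨⟨PowerSeries.X, hom_X F⟩⟩
instance : Add (FEnd F) := ⟨fun a b => ⟨fadd F a.val b.val, hom_add a.prop b.prop⟩⟩
instance : Neg (FEnd F) := ⟨fun a => ⟨cmp (inv F) a.val, hom_neg a.prop⟩⟩
instance : Mul (FEnd F) := ⟨fun a b => ⟨cmp a.val b.val, hom_comp a.prop b.prop⟩⟩

theorem val_zero : (0 : FEnd F).val = 0 := rfl
theorem val_one : (1 : FEnd F).val = PowerSeries.X := rfl
theorem val_add (a b : FEnd F) : (a + b).val = fadd F a.val b.val := rfl
theorem val_neg (a : FEnd F) : (-a).val = cmp (inv F) a.val := rfl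
theorem val_mul (a b : FEnd F) : (a * b).val = cmp a.val b.val := rfl

/-- The underlying formal point. -/
def pt (a : FEnd F) : FPt F Unit := ⟨a.val, a.prop.1⟩

theorem pt_injective : Function.Injective (pt : FEnd F → FPt F Unit) := fun a b h => by
  ext1
  exact congrArg FPt.val h

theorem pt_add (a b : FEnd F) : pt (a + b) = pt a + pt b := rfl
theorem pt_zero : pt (0 : FEnd F) = 0 := rfl
theorem pt_neg (a : FEnd F) : pt (-a) = -pt a := rfl

instance : AddCommGroup (FEnd F) where
  add_assoc a b c := pt_injective (by rw [pt_add, pt_add, pt_add, pt_add, add_assoc])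
  zero_add a := pt_injective (by rw [pt_add, pt_zero, zero_add])
  add_zero a := pt_injective (by rw [pt_add, pt_zero, add_zero])
  add_comm a b := pt_injective (by rw [pt_add, pt_add, add_comm])
  nsmul := nsmulRec
  zsmul := zsmulRec
  neg_add_cancel a := pt_injective (by rw [pt_add, pt_neg, pt_zero, neg_add_cancel])

instance : Ring (FEnd F) where
  mul_assoc a b c := by
    ext1
    exact cmp_assoc a.val b.prop.1 c.prop.1
  one_mul a := by
    ext1
    exact X_cmp a.prop.1
  mul_one a := by
    ext1
    exact cmp_X a.val
  left_distrib a b c := by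
    ext1
    exact hom_fadd a.prop b.prop.1 c.prop.1
  right_distrib a b c := by
    ext1
    exact cmp_fadd F a.prop.1 b.prop.1 c.prop.1
  zero_mul a := by
    ext1
    exact cmp_zero_left a.prop.1
  mul_zero a := by
    ext1
    exact PowerSeries.subst_zero_of_constantCoeff_zero a.prop.1
  neg_add_cancel := neg_add_cancel
  zsmul := zsmulRec

/-- `(m : End F) = [m]_F`. -/
theorem val_natCast (m : ℕ) : ((m : ℕ) : FEnd F).val = mulSeries F m := by
  induction m with
  | zero => rw [Nat.cast_zero, val_zero]; rfl
  | succ m ih =>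
    rw [Nat.cast_succ, val_add, val_one, ih]
    rfl

/-- The linear coefficient. -/
def lin : FEnd F →+* R where
  toFun a := PowerSeries.coeff 1 a.val
  map_one' := by rw [val_one, PowerSeries.coeff_one_X]
  map_mul' a b := coeff_one_cmp a.val b.prop.1
  map_zero' := map_zero _
  map_add' a b := coeff_one_fadd F a.prop.1 b.prop.1

theorem lin_apply (a : FEnd F) : lin a = PowerSeries.coeff 1 a.val := rfl

end FEnd

end Z

end Crest.Agent.LU
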