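import Mathlib
import Crest.Agent.LUZ_4

/-!
S0351 (blueprint LU), part LUZ, task Z4a: endomorphisms of `Γ` with zero linear coefficient.
-/

set_option autoImplicit false

noncomputable section

namespace Crest.Agent.LU

open Crest.LubinTate

namespace Z

variable {p : ℕ} [Fact p.Prime] {n : ℕ} {Γ : FormalGroup (GaloisField p n)} [Γ.IsComm]

private theorem Z4a_exists {R : Type*} [CommRing R] {f : PowerSeries R} {m : ℕ}
    (hf : ∀ i < m, PowerSeries.coeff i f = 0) :
    ∃ f' : PowerSeries R, f = PowerSeries.X ^ m * f' ∧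
      PowerSeries.constantCoeff f' = PowerSeries.coeff m f := by
  obtain ⟨f', hf'⟩ := PowerSeries.X_pow_dvd_iff.2 hf
  refine ⟨f', hf', ?_⟩
  have h := PowerSeries.coeff_X_pow_mul f' m 0
  rw [zero_add, ← hf', PowerSeries.coeff_zero_eq_constantCoeff_apply] at h
  exact h.symm

private theorem Z4a_const {R : Type*} [CommRing R] (f : PowerSeries R) {A : PowerSeries R}
    (hA : PowerSeries.constantCoeff A = 0) :
    PowerSeries.constantCoeff (cmp f A : PowerSeries R) = PowerSeries.constantCoeff f := by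
  have hV : PowerSeries.HasSubst A := PowerSeries.HasSubst.of_constantCoeff_zero' hA
  have h8 : PowerSeries.constantCoeff (cmp (f - PowerSeries.C (PowerSeries.constantCoeff f)) A :
      PowerSeries R) = 0 := by
    apply constantCoeff_cmp
    · simp
    · exact hA
  have h9 : (cmp (f - PowerSeries.C (PowerSeries.constantCoeff f)) A : PowerSeries R) =
      cmp f A - PowerSeries.C (PowerSeries.constantCoeff f) := by
    show PowerSeries.subst A _ = _
    rw [PowerSeries.subst_sub hV]
    congr 1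
    exact PowerSeries.subst_C (a := A) _
  rw [h9, map_sub] at h8
  simpa [sub_eq_zero] using h8

/-- `a = X^m a'`, `b = X^l b'` give `a ∘ b = X^{l m} (b'^m · a' ∘ b)` -/
private theorem Z4a_decomp {R : Type*} [CommRing R] {a b : PowerSeries R} {m l : ℕ}
    (ha : ∀ i < m, PowerSeries.coeff i a = 0) (hb : ∀ i < l, PowerSeries.coeff i b = 0)
    (hb0 : PowerSeries.constantCoeff b = 0) :
    ∃ g : PowerSeries R, (cmp a b : PowerSeries R) = PowerSeries.X ^ (m * l) * g ∧
      PowerSeries.constantCoeff g = PowerSeries.coeff m a * PowerSeries.coeff l b ^ m := by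
  have hs : PowerSeries.HasSubst b := PowerSeries.HasSubst.of_constantCoeff_zero' hb0
  obtain ⟨a', ha', ha0⟩ := Z4a_exists ha
  obtain ⟨b', hb', hb'0⟩ := Z4a_exists hb
  refine ⟨b' ^ m * (cmp a' b : PowerSeries R), ?_, ?_⟩
  · have e1 : (cmp a b : PowerSeries R) = b ^ m * (cmp a' b : PowerSeries R) := by
      show PowerSeries.subst b a = _
      conv_lhs => rw [ha']
      rw [PowerSeries.subst_mul hs, PowerSeries.subst_pow hs, PowerSeries.subst_X hs]
    have e2 : b ^ m = PowerSeries.X ^ (m * l) * b' ^ m := by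
      conv_lhs => rw [hb']
      rw [mul_pow, ← pow_mul, mul_comm l m]
    rw [e1, e2, mul_assoc]
  · rw [map_mul, map_pow, hb'0, Z4a_const a' hb0, ha0, mul_comm]

/-- TASK Z4a.  An endomorphism with zero linear coefficient has order `≥ p`
(`frobenius_factor`, `coeff` of `cmp ψ (X^p)` below `p` vanish). -/
theorem coeff_eq_zero_of_lin {a : FEnd Γ} (h : FEnd.lin a = 0) :
    ∀ i < p, PowerSeries.coeff i a.val = 0 := by
  have hp : p ≠ 0 := (Fact.out : p.Prime).ne_zero
  obtain ⟨ψ, hψ, hh⟩ := frobenius_factor p a.prop h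
  obtain ⟨g, hg, -⟩ := Z4a_decomp (a := ψ) (b := (PowerSeries.X ^ p : PowerSeries _)) (m := 1)
    (l := p) (fun i hi => by
      have : i = 0 := by omega
      subst this
      rw [PowerSeries.coeff_zero_eq_constantCoeff_apply]
      exact hh.1)
    (fun i hi => by rw [PowerSeries.coeff_X_pow, if_neg hi.ne])
    (by rw [map_pow, PowerSeries.constantCoeff_X, zero_pow hp])
  intro i hi
  rw [hψ, hg, one_mul]
  exact PowerSeries.X_pow_dvd_iff.1 (dvd_mul_right _ _) i hi

/-- The order of a composite is at least the product of the orders. -/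
theorem coeff_cmp_order {R : Type*} [CommRing R] {a b : PowerSeries R} {m l : ℕ}
    (ha : ∀ i < m, PowerSeries.coeff i a = 0) (hb : ∀ i < l, PowerSeries.coeff i b = 0)
    (hb0 : PowerSeries.constantCoeff b = 0) :
    ∀ i < m * l, PowerSeries.coeff i (cmp a b : PowerSeries R) = 0 := by
  obtain ⟨g, hg, -⟩ := Z4a_decomp ha hb hb0
  intro i hi
  rw [hg]
  exact PowerSeries.X_pow_dvd_iff.1 (dvd_mul_right _ _) i hi

/-- If the linear coefficient of `a` is `0` then `a^n` is divisible by `p` in `End Γ`: it has order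
`≥ p^n`, so `a^n = c ∘ X^{p^n} = c ∘ [p]` (`end_factor` with `N = 1`). -/
theorem pow_n_dvd (hn : 1 ≤ n) (hΓ : mulSeries Γ p = PowerSeries.X ^ (p ^ n)) {a : FEnd Γ}
    (h : FEnd.lin a = 0) : ∃ c : FEnd Γ, a ^ n = c * ((p : ℕ) : FEnd Γ) := by
  have h1 : ∀ k : ℕ, ∀ i < p ^ k, PowerSeries.coeff i (a ^ k).val = 0 := by
    intro k
    induction k with
    | zero =>
      intro i hi
      rw [pow_zero] at hi
      have : i = 0 := by omega
      subst this
      rw [PowerSeries.coeff_zero_eq_constantCoeff_apply]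
      exact (a ^ 0).prop.1
    | succ k ih =>
      intro i hi
      rw [pow_succ, FEnd.val_mul]
      rw [pow_succ] at hi
      exact coeff_cmp_order ih (coeff_eq_zero_of_lin h) a.prop.1 i hi
  obtain ⟨c, hc, hc'⟩ := end_factor hn 1 (a ^ n).prop (by
    intro i hi
    rw [pow_one] at hi
    exact h1 n i hi)
  refine ⟨⟨c, hc⟩, ?_⟩
  ext1
  rw [FEnd.val_mul, FEnd.val_natCast, hΓ, hc', pow_one]

/-- An endomorphism of order `≥ p^m` (all coefficients below `p^m` vanish). -/
def Ord (m : ℕ) (a : FEnd Γ) : Prop := ∀ i < p ^ m, PowerSeries.coeff i a.val = 0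

theorem Ord.add {m : ℕ} {a b : FEnd Γ} (ha : Ord m a) (hb : Ord m b) : Ord m (a + b) := by
  intro i hi
  have h := LUC.coeff_fadd_of_ord Γ a.prop.1 b.prop.1 hb hi.le
  rw [FEnd.val_add, h, ha i hi, hb i hi, add_zero]

theorem Ord.neg {m : ℕ} {a : FEnd Γ} (ha : Ord m a) : Ord m (-a) := by
  intro i hi
  rw [FEnd.val_neg]
  refine coeff_cmp_order (m := 1) (l := p ^ m) (fun j hj => ?_) ha a.prop.1 i (by rwa [one_mul])
  have : j = 0 := by omega
  subst this
  rw [PowerSeries.coeff_zero_eq_constantCoeff_apply]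
  exact constantCoeff_inv Γ

theorem Ord.mul {m l : ℕ} {a b : FEnd Γ} (ha : Ord m a) (hb : Ord l b) : Ord (m + l) (a * b) := by
  intro i hi
  rw [FEnd.val_mul]
  rw [pow_add] at hi
  exact coeff_cmp_order ha hb b.prop.1 i hi

theorem Ord.mono {m l : ℕ} (h : l ≤ m) {a : FEnd Γ} (ha : Ord m a) : Ord l a := by
  intro i hi
  exact ha i (hi.trans_le (Nat.pow_le_pow_right (Fact.out : p.Prime).pos h))

theorem ord_zero_iff (a : FEnd Γ) : Ord 0 a := by
  intro i hi
  rw [pow_zero] at hi
  have : i = 0 := by omega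
  subst this
  rw [PowerSeries.coeff_zero_eq_constantCoeff_apply]
  exact a.prop.1

theorem ord_one_iff (a : FEnd Γ) : Ord 1 a ↔ FEnd.lin a = 0 := by
  constructor
  · intro h
    exact h 1 (by rw [pow_one]; exact (Fact.out : p.Prime).one_lt)
  · intro h i hi
    rw [pow_one] at hi
    exact coeff_eq_zero_of_lin h i hi

/-- `p` has order `n` (`≥ 1`). -/
theorem ord_p (hΓ : mulSeries Γ p = PowerSeries.X ^ (p ^ n)) : Ord n (((p : ℕ) : FEnd Γ)) := by
  intro i hi
  rw [FEnd.val_natCast, hΓ, PowerSeries.coeff_X_pow, if_neg hi.ne]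

/-- Sum of leading coefficients. -/
theorem coeff_add_of_ord {m : ℕ} {a b : FEnd Γ} (ha : Ord m a) (hb : Ord m b) :
    PowerSeries.coeff (p ^ m) (a + b).val =
      PowerSeries.coeff (p ^ m) a.val + PowerSeries.coeff (p ^ m) b.val := by
  rw [FEnd.val_add]
  exact LUC.coeff_fadd_of_ord Γ a.prop.1 b.prop.1 hb le_rfl

/-- Product of leading coefficients: `a = α X^{p^m} + ..`, `b = β X^{p^l} + ..` gives
`a ∘ b = α β^{p^m} X^{p^{m+l}} + ..`. -/
theorem coeff_mul_of_ord {m l : ℕ} {a b : FEnd Γ} (ha : Ord m a) (hb : Ord l b) :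
    PowerSeries.coeff (p ^ (m + l)) (a * b).val =
      PowerSeries.coeff (p ^ m) a.val * PowerSeries.coeff (p ^ l) b.val ^ (p ^ m) := by
  obtain ⟨g, hg, hg0⟩ := Z4a_decomp ha hb b.prop.1
  rw [FEnd.val_mul, hg, pow_add]
  have h := PowerSeries.coeff_X_pow_mul g (p ^ m * p ^ l) 0
  rw [zero_add, PowerSeries.coeff_zero_eq_constantCoeff_apply] at h
  rw [h, hg0]

/-- An element all of whose coefficients vanish is zero. -/
theorem eq_zero_of_ord {a : FEnd Γ} (h : ∀ m, Ord m a) : a = 0 := by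
  ext1
  rw [FEnd.val_zero]
  ext i
  rw [map_zero]
  exact h i i (Nat.lt_pow_self (Fact.out : p.Prime).one_lt)

end Z

end Crest.Agent.LU
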