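import Mathlib
import Crest.Agent.LUZ_4a

/-!
S0351 (blueprint LU), part LUZ, task Z4b: Teichmüller representatives in `End Γ`.
-/

set_option autoImplicit false

noncomputable section

namespace Crest.Agent.LU

open Crest.LubinTate

namespace Z

variable {p : ℕ} [Fact p.Prime] {n : ℕ} {Γ : FormalGroup (GaloisField p n)} [Γ.IsComm]

open LUC in
private theorem Z4b_ord_iff {m : ℕ} {a : FEnd Γ} : Ord m a ↔ FEnd.pt a ∈ U Γ (p ^ m) := Iff.rfl

private theorem Z4b_pt_sub (a b : FEnd Γ) : FEnd.pt (a - b) = FEnd.pt a - FEnd.pt b := by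
  rw [sub_eq_add_neg, FEnd.pt_add, FEnd.pt_neg, sub_eq_add_neg]

open LUC in
private theorem Z4b_good (a : FEnd Γ) (m : ℕ) : Good (FEnd.pt a) m := by
  intro i j _
  have h1 : dlt (pX Γ 0) (pX Γ 1) (FEnd.pt a) = 0 := by
    rw [dlt_apply, sub_sub, sub_eq_zero]
    exact FPt.ext (hom_fadd a.prop (pX Γ 0).prop (pX Γ 1).prop)
  unfold cc
  rw [h1]
  exact map_zero _

private theorem Z4b_ord_zero (m : ℕ) : Ord m (0 : FEnd Γ) := fun _ _ => by
  rw [FEnd.val_zero, map_zero]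

private theorem Z4b_ord_sub {m : ℕ} {a b : FEnd Γ} (ha : Ord m a) (hb : Ord m b) :
    Ord m (a - b) := by
  rw [sub_eq_add_neg]
  exact ha.add hb.neg

/-- TASK Z4b (1).  `End Γ` is complete: a sequence with `a (N+1) - a N` of order `≥ p^N` has a
limit.  The limit series: `coeff i ζ = coeff i (a N).val` for `N` large (`p^N > i`); `u -_Γ v` of
order `≥ m` iff `u ≡ v mod X^m` (`A7.exists_decomp`: `Γ(X,Y) = X + Y·K`).  It is an endomorphism
since the coefficients of `φ(Γ(X,Y))` and `Γ(φX, φY)` in total degree `< m` only depend on the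
coefficients of `φ` below `m` (compare `LUC.isFGHom_of_good`, `LUC.Good`, `LUC.good_of_mem`:
`Good φ m` for all `m`). -/
theorem exists_limit (a : ℕ → FEnd Γ) (h : ∀ N, Ord N (a (N + 1) - a N)) :
    ∃ ζ : FEnd Γ, ∀ N, Ord N (ζ - a N) := by
  have hp : 2 ≤ p := (Fact.out : p.Prime).two_le
  have hstep : ∀ N, ∀ l < p ^ N, PowerSeries.coeff l (a (N + 1)).val =
      PowerSeries.coeff l (a N).val := by
    intro N l hl
    have h1 : FEnd.pt (a (N + 1)) = FEnd.pt (a N) + FEnd.pt (a (N + 1) - a N) := by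
      rw [Z4b_pt_sub]; abel
    have h2 := LUC.coeff_add_of_mem (FEnd.pt (a N)) (Z4b_ord_iff.1 (h N)) hl.le
    rw [← h1] at h2
    have h3 : PowerSeries.coeff l ((FEnd.pt (a (N + 1) - a N)).val : PowerSeries _) = 0 :=
      h N l hl
    rw [h3, add_zero] at h2
    exact h2
  have hstab : ∀ N M, N ≤ M → ∀ l < p ^ N, PowerSeries.coeff l (a M).val =
      PowerSeries.coeff l (a N).val := by
    intro N M hNM l hl
    induction M, hNM using Nat.le_induction with
    | base => rfl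
    | succ M hM ih =>
      rw [hstep M l (lt_of_lt_of_le hl (Nat.pow_le_pow_right (by omega) hM)), ih]
  set s : PowerSeries (GaloisField p n) := PowerSeries.mk fun l =>
    PowerSeries.coeff l (a l).val with hs
  have hcs : ∀ N, ∀ l < p ^ N, PowerSeries.coeff l s = PowerSeries.coeff l (a N).val := by
    intro N l hl
    rw [hs, PowerSeries.coeff_mk]
    rcases le_total N l with h1 | h1
    · exact hstab N l h1 l hl
    · exact (hstab l N h1 l (Nat.lt_pow_self (by omega))).symm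
  have hs0 : PowerSeries.constantCoeff s = 0 := by
    rw [← PowerSeries.coeff_zero_eq_constantCoeff_apply, hcs 0 0 (by simp)]
    exact (PowerSeries.coeff_zero_eq_constantCoeff_apply _).trans (a 0).prop.1
  let A : FPt Γ Unit := ⟨s, hs0⟩
  have hA : ∀ N, A - FEnd.pt (a N) ∈ LUC.U Γ (p ^ N) := fun N =>
    LUC.sub_mem_U_of_coeff fun l hl => hcs N l hl
  have hgood : ∀ m, LUC.Good A m := by
    intro m
    have h2 : A = (A - FEnd.pt (a m)) + FEnd.pt (a m) := by abel
    rw [h2]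
    exact LUC.good_add (LUC.good_of_mem (LUC.U_mono (Nat.lt_pow_self (by omega)).le (hA m)))
      (Z4b_good _ _)
  refine ⟨⟨s, LUC.isFGHom_of_good (φ := A) hgood⟩, fun N => ?_⟩
  rw [Z4b_ord_iff, Z4b_pt_sub]
  exact hA N

private theorem Z4b_ord_pow {m : ℕ} {a : FEnd Γ} (ha : Ord m a) (k : ℕ) : Ord (m * k) (a ^ k) := by
  induction k with
  | zero => exact ord_zero_iff _
  | succ k ih =>
    rw [pow_succ, Nat.mul_succ]
    exact ih.mul ha

/-- `(1+β)^p - 1` has order `≥ m + 1` if `β` has order `≥ m ≥ 1`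
(`(1+β)^p = Σ choose(p,i) β^i`, `β` commutes with `1`; `p β` has order `≥ n + m`). -/
theorem ord_pow_p_sub_one (hn : 1 ≤ n) (hΓ : mulSeries Γ p = PowerSeries.X ^ (p ^ n)) {m : ℕ}
    (hm : 1 ≤ m) {a : FEnd Γ} (ha : Ord m (a - 1)) : Ord (m + 1) (a ^ p - 1) := by
  have hp : p.Prime := Fact.out
  obtain ⟨r, hr⟩ := (Commute.one_right (a - 1)).exists_add_pow_prime_eq hp
  have e : a ^ p - 1 = (a - 1) ^ p + (p : FEnd Γ) * (a - 1) * r := by
    rw [sub_add_cancel, one_pow, mul_one] at hr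
    rw [hr]
    abel
  rw [e]
  refine Ord.add ?_ ?_
  · have h1 := Z4b_ord_pow ha p
    refine h1.mono ?_
    have := hp.two_le
    nlinarith
  · have h1 := ((ord_p (Γ := Γ) hΓ).mul ha).mul (ord_zero_iff r)
    exact h1.mono (by omega)

private theorem Z4b_pow_sub {m : ℕ} {x y : FEnd Γ} (h : Ord m (x - y)) (k : ℕ) :
    Ord m (x ^ k - y ^ k) := by
  induction k with
  | zero => rw [pow_zero, pow_zero, sub_self]; exact Z4b_ord_zero m
  | succ k ih =>
    have e : x ^ (k + 1) - y ^ (k + 1) = x ^ k * (x - y) + (x ^ k - y ^ k) * y := by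
      rw [pow_succ, pow_succ]
      noncomm_ring
    rw [e]
    refine Ord.add ?_ ?_
    · have := (ord_zero_iff (x ^ k)).mul h
      rwa [zero_add] at this
    · have := ih.mul (ord_zero_iff y)
      rwa [add_zero] at this

private theorem Z4b_pow_pow (hn : 1 ≤ n) (hΓ : mulSeries Γ p = PowerSeries.X ^ (p ^ n))
    {b : FEnd Γ} (hb : Ord 1 (b - 1)) (N : ℕ) : Ord (N + 1) (b ^ (p ^ N) - 1) := by
  induction N with
  | zero => rw [pow_zero, pow_one]; exact hb
  | succ N ih =>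
    rw [pow_succ, pow_mul]
    exact ord_pow_p_sub_one hn hΓ (by omega) ih

/-- TASK Z4b (2).  Teichmüller representative: for `ω ≠ 0` in `k` there is `ζ ∈ End Γ` with linear
coefficient `ω` and `ζ^{q-1} = 1`, `q = p^n`.
Proof: take `a` with linear coefficient `ω` (`exists_end`, `j = 0`).  `a^{q-1} = 1 + β`, `β` of
order `≥ p`, so `(a^{q-1})^{p^N} - 1` has order `≥ N + 1` and `a_N = a^{q^N}` satisfies
`a_{N+1} - a_N = a_N ((a^{q-1})^{q^N} - 1)` of order `≥ N`; `ζ = lim a_N`; `a_N^{q-1} → 1` and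
`a_N^{q-1} → ζ^{q-1}` (differences `ζ^{q-1} - a_N^{q-1}` have order `≥ N`; all congruences modulo the
two-sided ideals `{Ord N}`).  Linear coefficient: `ω^{q^N} = ω`. -/
theorem exists_teich (hn : 1 ≤ n) (hΓ : mulSeries Γ p = PowerSeries.X ^ (p ^ n))
    {ω : GaloisField p n} (hω : ω ≠ 0) :
    ∃ ζ : FEnd Γ, FEnd.lin ζ = ω ∧ ζ ^ (p ^ n - 1) = 1 := by
  have hp : p.Prime := Fact.out
  have hfin : Finite (GaloisField p n) := inferInstance
  let _ : Fintype (GaloisField p n) := Fintype.ofFinite _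
  have hcard : Fintype.card (GaloisField p n) = p ^ n := by
    rw [Fintype.card_eq_nat_card, GaloisField.card p n (by omega)]
  have hq : ω ^ (p ^ n) = ω := by rw [← hcard, FiniteField.pow_card]
  have hq1 : ω ^ (p ^ n - 1) = 1 := by
    rw [← hcard]
    exact FiniteField.pow_card_sub_one_eq_one ω hω
  have hq0 : 1 ≤ p ^ n := Nat.one_le_pow _ _ hp.pos
  obtain ⟨a₀, ha₀, -, hlin₀⟩ := exists_end hn hΓ ω 0
  set A : FEnd Γ := ⟨a₀, ha₀⟩ with hA
  have hlin : FEnd.lin A = ω := by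
    rw [FEnd.lin_apply, ← hlin₀, pow_zero]
  have hb : Ord 1 (A ^ (p ^ n - 1) - 1) := by
    rw [ord_one_iff, map_sub, map_pow, hlin, hq1, map_one, sub_self]
  have hbN : ∀ N : ℕ, Ord N ((A ^ (p ^ n - 1)) ^ ((p ^ n) ^ N) - 1) := by
    intro N
    have h1 := Z4b_pow_pow hn hΓ hb (n * N)
    rw [pow_mul] at h1
    refine h1.mono ?_
    nlinarith
  have hstep : ∀ N, Ord N (A ^ ((p ^ n) ^ (N + 1)) - A ^ ((p ^ n) ^ N)) := by
    intro N
    have e : A ^ ((p ^ n) ^ (N + 1)) - A ^ ((p ^ n) ^ N) =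
        A ^ ((p ^ n) ^ N) * ((A ^ (p ^ n - 1)) ^ ((p ^ n) ^ N) - 1) := by
      rw [mul_sub, mul_one, ← pow_mul A, ← pow_add]
      congr 2
      rw [pow_succ (p ^ n) N]
      obtain ⟨q, hq⟩ : ∃ q, p ^ n = q + 1 := ⟨p ^ n - 1, by omega⟩
      rw [hq]
      simp only [Nat.add_sub_cancel]
      ring
    rw [e]
    have := (ord_zero_iff (A ^ ((p ^ n) ^ N))).mul (hbN N)
    rwa [zero_add] at this
  obtain ⟨ζ, hζ⟩ := exists_limit (fun N => A ^ ((p ^ n) ^ N)) hstep
  refine ⟨ζ, ?_, ?_⟩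
  · have h1 := (ord_one_iff _).1 (hζ 1)
    rw [map_sub, sub_eq_zero] at h1
    rw [h1, map_pow, hlin, pow_one, hq]
  · rw [← sub_eq_zero]
    refine eq_zero_of_ord fun N => ?_
    have e : ζ ^ (p ^ n - 1) - 1 = (ζ ^ (p ^ n - 1) - (A ^ ((p ^ n) ^ N)) ^ (p ^ n - 1)) +
        ((A ^ (p ^ n - 1)) ^ ((p ^ n) ^ N) - 1) := by
      rw [← pow_mul A, ← pow_mul A, mul_comm (p ^ n - 1)]
      abel
    rw [e]
    exact (Z4b_pow_sub (hζ N) _).add (hbN N)

end Z

end Crest.Agent.LU
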