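import Mathlib
import Crest.Agent.LUZ_4a

/-!
S0351 (blueprint LU), part LUZ, task Z4c: the Frobenius type elements of `End Γ`.
-/

set_option autoImplicit false

noncomputable section

namespace Crest.Agent.LU

open Crest.LubinTate

namespace Z

variable {p : ℕ} [Fact p.Prime] {n : ℕ} {Γ : FormalGroup (GaloisField p n)} [Γ.IsComm]

/-- `X^m` evaluated at `a` is `a^m`. -/
private theorem z4c_X_pow_cmp {R : Type*} [CommRing R] (m : ℕ) {σ : Type*}
    {a : MvPowerSeries σ R} (ha : MvPowerSeries.constantCoeff a = 0) :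
    cmp (PowerSeries.X ^ m : PowerSeries R) a = a ^ m := by
  have hs : PowerSeries.HasSubst a := PowerSeries.HasSubst.of_constantCoeff_zero ha
  unfold cmp
  rw [← PowerSeries.coe_substAlgHom hs, map_pow, PowerSeries.coe_substAlgHom hs,
    PowerSeries.subst_X hs]

/-- `X^{p^h}` is a homomorphism `F → F^{(p^h)}`. -/
private theorem z4c_hom_X_pow {R : Type*} [CommRing R] (p : ℕ) [Fact p.Prime] [CharP R p]
    (F : FormalGroup R) (h : ℕ) :
    IsFGHom F (F.map (iterateFrobenius R p h)) (PowerSeries.X ^ (p ^ h) : PowerSeries R) := by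
  have hp : p ≠ 0 := (Fact.out : p.Prime).ne_zero
  refine isFGHom_of_fadd (by simp [hp]) fun a b ha hb => ?_
  rw [z4c_X_pow_cmp _ (constantCoeff_fadd F ha hb), z4c_X_pow_cmp _ ha, z4c_X_pow_cmp _ hb]
  exact fadd_pow p F h ha hb

/-- TASK Z4c (1).  An endomorphism `S` of order exactly `p` divides `[p]` on the right:
`T ∘ S = [p]`.
Proof: `S = σ ∘ X^p` with `σ : Γ^{(p)} → Γ` (`frobenius_factor`), the linear coefficient of `σ` is
`coeff p S ≠ 0`, so `σ` has an inverse `τ : Γ → Γ^{(p)}` (`exists_cmp_inv`, `hom_inverse`), and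
`X^{p^{n-1}} : Γ^{(p)} → Γ^{(p^n)} = Γ` is a homomorphism; `T = X^{p^{n-1}} ∘ τ`. -/
theorem exists_complement (hn : 1 ≤ n) (hΓ : mulSeries Γ p = PowerSeries.X ^ (p ^ n))
    {S : FEnd Γ} (h1 : Ord 1 S) (h2 : PowerSeries.coeff p S.val ≠ 0) :
    ∃ T : FEnd Γ, T * S = ((p : ℕ) : FEnd Γ) := by
  have hp : p ≠ 0 := (Fact.out : p.Prime).ne_zero
  have hlin : PowerSeries.coeff 1 S.val = 0 :=
    h1 1 (by rw [pow_one]; exact (Fact.out : p.Prime).one_lt)
  obtain ⟨σ, hσ, hσhom⟩ := frobenius_factor p S.prop hlin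
  have hσ1 : PowerSeries.coeff 1 σ = PowerSeries.coeff p S.val := by
    rw [hσ]
    have := coeff_cmp_X_pow σ hp 1
    rw [mul_one] at this
    exact this.symm
  have hu : IsUnit (PowerSeries.coeff 1 σ) := by
    rw [hσ1]
    exact isUnit_iff_ne_zero.2 h2
  obtain ⟨τ, hτ0, -, hστ, hτσ⟩ := exists_cmp_inv hσhom.1 hu
  have hτhom : IsFGHom Γ (Γ.map (frobenius (GaloisField p n) p)) τ :=
    hom_inverse hσhom hτ0 hστ hτσ
  have hX := z4c_hom_X_pow p (Γ.map (frobenius (GaloisField p n) p)) (n - 1)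
  have hmap : (Γ.map (frobenius (GaloisField p n) p)).map
      (iterateFrobenius (GaloisField p n) p (n - 1)) = Γ := by
    rw [map_map]
    have e : (iterateFrobenius (GaloisField p n) p (n - 1)).comp
        (frobenius (GaloisField p n) p) = iterateFrobenius (GaloisField p n) p (n * 1) := by
      ext x
      have hn' : n * 1 = (n - 1) + 1 := by omega
      rw [hn']
      simp [iterateFrobenius_def, frobenius_def, ← pow_mul, pow_succ']
    rw [e]
    exact map_iterateFrobenius_Gamma hn 1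
  rw [hmap] at hX
  have hT := hom_comp hX hτhom
  refine ⟨⟨_, hT⟩, ?_⟩
  ext1
  rw [FEnd.val_natCast, hΓ, FEnd.val_mul]
  show cmp (cmp (PowerSeries.X ^ p ^ (n - 1) : PowerSeries (GaloisField p n)) τ :
    PowerSeries (GaloisField p n)) S.val = _
  have hXp : PowerSeries.constantCoeff
      (PowerSeries.X ^ p : PowerSeries (GaloisField p n)) = 0 := by simp [hp]
  have e1 : (cmp τ S.val : PowerSeries (GaloisField p n)) = PowerSeries.X ^ p := by
    rw [hσ]
    have h3 := cmp_assoc τ (ψ := σ) hσhom.1 (σ := Unit)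
      (a := (PowerSeries.X ^ p : PowerSeries (GaloisField p n))) hXp
    rw [← h3, hτσ]
    exact X_cmp hXp
  have h4 := cmp_assoc (PowerSeries.X ^ p ^ (n - 1) : PowerSeries (GaloisField p n))
    (ψ := τ) hτ0 (σ := Unit) (a := S.val) S.prop.1
  rw [h4, e1]
  have h5 := z4c_X_pow_cmp (p ^ (n - 1)) (σ := Unit)
    (a := (PowerSeries.X ^ p : PowerSeries (GaloisField p n))) hXp
  rw [h5, ← pow_mul, ← pow_succ']
  congr 2
  omega

/-- TASK Z4c (2).  Given `ζ` with `ζ^{q-1} = 1`, linear coefficient `ω ≠ 0`, there are `S, T` with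
`S ζ = ζ^p S` and `T S = p`.
Proof: let `S₀` have leading term `X^p` (`exists_end`, `j = 1`), and
`S = Σ_{i < q-1} (ζ^(q-1-i))^p S₀ ζ^i`.  Then `S ζ = ζ^p S` (shift of the summation index,
`ζ^{q-1} = 1`), all terms have order `≥ p` and the coefficient of `X^p` of each term is
`(ω^(q-1-i))^p ω^{ip} = (ω^{q-1})^p = 1`, so that of `S` is `q - 1 = -1 ≠ 0`
(`coeff_add_of_ord`, `coeff_mul_of_ord`).  `T` from `exists_complement`. -/
theorem exists_S_T (hn : 1 ≤ n) (hΓ : mulSeries Γ p = PowerSeries.X ^ (p ^ n))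
    {ζ : FEnd Γ} (hω : FEnd.lin ζ ≠ 0) (hζ : ζ ^ (p ^ n - 1) = 1) :
    ∃ S T : FEnd Γ, S * ζ = ζ ^ p * S ∧ T * S = ((p : ℕ) : FEnd Γ) := by
  classical
  obtain ⟨s, hs, hs0, hs1⟩ := exists_end hn hΓ (1 : GaloisField p n) 1
  let S₀ : FEnd Γ := ⟨s, hs⟩
  have hS0 : Ord 1 S₀ := hs0
  have hS1 : PowerSeries.coeff (p ^ 1) S₀.val = 1 := hs1
  set N := p ^ n - 1 with hN
  let f : ℕ → FEnd Γ := fun i => (ζ ^ (N - i)) ^ p * S₀ * ζ ^ i
  have hlinN : FEnd.lin ζ ^ N = 1 := by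
    rw [← map_pow, hζ, map_one]
  have hfOrd : ∀ i, Ord 1 (f i) := by
    intro i
    have h1 : Ord (0 + 1) ((ζ ^ (N - i)) ^ p * S₀) := Ord.mul (ord_zero_iff _) hS0
    have h2 : Ord (0 + 1 + 0) (f i) := Ord.mul h1 (ord_zero_iff _)
    simpa using h2
  have hlin0 : ∀ a : FEnd Γ, PowerSeries.coeff (p ^ 0) a.val = FEnd.lin a := by
    intro a
    rw [pow_zero, FEnd.lin_apply]
  have hfc : ∀ i < N, PowerSeries.coeff (p ^ 1) (f i).val = 1 := by
    intro i hi
    have h1 : Ord (0 + 1) ((ζ ^ (N - i)) ^ p * S₀) := Ord.mul (ord_zero_iff _) hS0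
    have e1 := coeff_mul_of_ord (m := 0) (l := 1) (ord_zero_iff ((ζ ^ (N - i)) ^ p)) hS0
    have e2 := coeff_mul_of_ord (m := 0 + 1) (l := 0) h1 (ord_zero_iff (ζ ^ i))
    rw [e1, hS1, hlin0, hlin0, one_pow, mul_one] at e2
    have e3 : PowerSeries.coeff (p ^ (0 + 1 + 0)) ((ζ ^ (N - i)) ^ p * S₀ * ζ ^ i).val =
        PowerSeries.coeff (p ^ 1) (f i).val := rfl
    rw [e3] at e2
    rw [e2, map_pow, map_pow, map_pow, zero_add, pow_one, ← mul_pow, ← pow_add,
      Nat.sub_add_cancel hi.le, hlinN, one_pow]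
  have hsum : ∀ m ≤ N, Ord 1 (∑ i ∈ Finset.range m, f i) ∧
      PowerSeries.coeff (p ^ 1) (∑ i ∈ Finset.range m, f i).val = (m : GaloisField p n) := by
    intro m hm
    induction m with
    | zero =>
      rw [Finset.sum_range_zero, FEnd.val_zero, map_zero, Nat.cast_zero]
      refine ⟨fun i _ => ?_, rfl⟩
      rw [FEnd.val_zero, map_zero]
    | succ m ih =>
      obtain ⟨h1, h2⟩ := ih (by omega)
      rw [Finset.sum_range_succ]
      refine ⟨Ord.add h1 (hfOrd m), ?_⟩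
      rw [coeff_add_of_ord h1 (hfOrd m), h2, hfc m (by omega)]
      push_cast
      ring
  obtain ⟨hO, hc⟩ := hsum N le_rfl
  set S : FEnd Γ := ∑ i ∈ Finset.range N, f i with hS
  have hp2 : 2 ≤ p := (Fact.out : p.Prime).two_le
  have hNne : ((N : ℕ) : GaloisField p n) ≠ 0 := by
    intro h0
    rw [CharP.cast_eq_zero_iff (GaloisField p n) p] at h0
    have h1 : p ∣ p ^ n := dvd_pow_self p (by omega)
    have h2 : 1 ≤ p ^ n := Nat.one_le_pow _ _ (by omega)
    have h3 : p ∣ 1 := by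
      have h4 := (Nat.dvd_sub h1 h0)
      have h5 : p ^ n - N = 1 := by omega
      rwa [h5] at h4
    have := Nat.le_of_dvd one_pos h3
    omega
  obtain ⟨T, hT⟩ := exists_complement hn hΓ hO (by
    rw [pow_one] at hc
    rw [hc]
    exact hNne)
  refine ⟨S, T, ?_, hT⟩
  have hstep : ∀ i < N, f i * ζ = ζ ^ p * f (i + 1) := by
    intro i hi
    have e : (ζ ^ (N - i)) ^ p = ζ ^ p * (ζ ^ (N - (i + 1))) ^ p := by
      rw [← pow_mul, ← pow_mul, ← pow_add]
      congr 1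
      obtain ⟨d, hd⟩ : ∃ d, N - i = d + 1 := ⟨N - i - 1, by omega⟩
      have hd' : N - (i + 1) = d := by omega
      rw [hd, hd']
      ring
    show (ζ ^ (N - i)) ^ p * S₀ * ζ ^ i * ζ =
      ζ ^ p * ((ζ ^ (N - (i + 1))) ^ p * S₀ * ζ ^ (i + 1))
    rw [e, pow_succ]
    simp only [mul_assoc]
  have hshift : ∑ i ∈ Finset.range N, f (i + 1) = S := by
    have h1 := Finset.sum_range_succ f N
    have h2 := Finset.sum_range_succ' f N
    have h3 : f N = f 0 := by
      show (ζ ^ (N - N)) ^ p * S₀ * ζ ^ N = (ζ ^ (N - 0)) ^ p * S₀ * ζ ^ 0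
      rw [Nat.sub_self, Nat.sub_zero, hζ, pow_zero, one_pow]
    rw [h1, h3] at h2
    exact (add_right_cancel h2).symm
  calc S * ζ = ∑ i ∈ Finset.range N, f i * ζ := by rw [hS, Finset.sum_mul]
    _ = ∑ i ∈ Finset.range N, ζ ^ p * f (i + 1) :=
      Finset.sum_congr rfl fun i hi => hstep i (Finset.mem_range.1 hi)
    _ = ζ ^ p * ∑ i ∈ Finset.range N, f (i + 1) := by rw [Finset.mul_sum]
    _ = ζ ^ p * S := by rw [hshift]

end Z

end Crest.Agent.LU
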