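import Mathlib
import Crest.Agent.LUZ_0
import Crest.Agent.LUZ_2a

/-!
S0351 (blueprint LU), part LUZ, task Z4d: the linear algebra behind `dim V ≥ n` (abstract).
-/

set_option autoImplicit false

noncomputable section

namespace Crest.Agent.LU

open Crest.LubinTate

namespace Z

variable {p : ℕ} [Fact p.Prime] {n : ℕ} {O : Type} [CommRing O] [IsDomain O]
  [Algebra (WittVector p (GaloisField p n)) O]

private theorem z4d_aeval {A B : Type*} [Ring A] [Ring B] (f : A →+* B) (x : A)
    (P : Polynomial ℤ) : f (Polynomial.aeval x P) = Polynomial.aeval (f x) P :=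
  (Polynomial.aeval_algHom_apply f.toIntAlgHom x P).symm

private theorem z4d_pow {L V : Type*} [Field L] [AddCommGroup V] [Module L V]
    {f : Module.End L V} {v : V} {a : L} (h : f v = a • v) (m : ℕ) : (f ^ m) v = a ^ m • v := by
  induction m with
  | zero => rw [pow_zero, pow_zero, one_smul]; rfl
  | succ m ih =>
    rw [pow_succ, Module.End.mul_apply, h, map_smul, ih, smul_smul, pow_succ, mul_comm]

/-- The Teichmüller representative in `O` of a generator of `k^×` is a primitive root of unity. -/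
theorem exists_tau (Z : PRing p n O) (hn : 1 ≤ n) {ω : GaloisField p n}
    (hω : IsPrimitiveRoot ω (p ^ n - 1)) :
    ∃ τ : O, Z.r τ = ω ∧ IsPrimitiveRoot τ (p ^ n - 1) := by
  have hr : ∀ w : WittVector p (GaloisField p n),
      Z.r (algebraMap (WittVector p (GaloisField p n)) O w) = WittVector.constantCoeff w := by
    intro w
    have h := congrArg (fun f => f w) Z.test.comp
    exact h
  have hτ : Z.r (algebraMap (WittVector p (GaloisField p n)) O (WittVector.teichmuller p ω)) = ω := by
    rw [hr]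
    exact WittVector.teichmuller_coeff_zero p ω
  refine ⟨algebraMap _ O (WittVector.teichmuller p ω), hτ, ?_, ?_⟩
  · rw [← map_pow, ← map_pow, hω.pow_eq_one, map_one, map_one]
  · intro m hm
    apply hω.dvd_of_pow_eq_one
    rw [← hτ, ← map_pow, hm, map_one]

/-- If `ω^s` is a root of the minimal polynomial over `𝔽_p` of the generator `ω` of `k^×` then the
elements `(ω^s)^{p^i}`, `0 ≤ i < n`, are pairwise distinct.
(Formulated with integer polynomials: every `P ∈ ℤ[T]` with `P(ω) = 0` has `P(ω^s) = 0`.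
`isConjRoot_iff_exists_algEquiv` for `k/𝔽_p`: `ω^s = σ(ω)` is again a primitive `(q-1)`-st root of
unity; and `0 < |p^i - p^j| < q - 1` for `i ≠ j < n`.) -/
theorem pow_distinct (hn : 1 ≤ n) {ω : GaloisField p n} (hω : IsPrimitiveRoot ω (p ^ n - 1))
    {η : GaloisField p n}
    (h : ∀ P : Polynomial ℤ, Polynomial.aeval ω P = 0 → Polynomial.aeval η P = 0) :
    ∀ i < n, ∀ j < n, η ^ (p ^ i) = η ^ (p ^ j) → i = j := by
  classical
  have hp := (Fact.out : p.Prime)
  -- the minimal polynomial
  have hint : IsIntegral (ZMod p) ω := Algebra.IsIntegral.isIntegral ω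
  obtain ⟨P, hP⟩ := Polynomial.map_surjective (Int.castRingHom (ZMod p)) ZMod.intCast_surjective
    (minpoly (ZMod p) ω)
  have haev : ∀ x : GaloisField p n, Polynomial.aeval x (minpoly (ZMod p) ω) =
      Polynomial.aeval x P := by
    intro x
    rw [← hP]
    exact Polynomial.aeval_map_algebraMap (ZMod p) x P
  have h1 : Polynomial.aeval η (minpoly (ZMod p) ω) = 0 := by
    rw [haev]
    apply h
    rw [← haev, minpoly.aeval]
  have h2 : minpoly (ZMod p) ω = minpoly (ZMod p) η :=
    minpoly.eq_of_irreducible_of_monic (minpoly.irreducible hint) h1 (minpoly.monic hint)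
  have h3 : IsConjRoot (ZMod p) η ω := h2.symm
  obtain ⟨σ, hσ⟩ := isConjRoot_iff_exists_algEquiv.1 h3
  have hη : IsPrimitiveRoot η (p ^ n - 1) := by
    rw [← hσ]
    exact hω.map_of_injective σ.injective
  intro i hi j hj hij
  rcases Nat.lt_or_ge 1 n with hn2 | hn1
  · have hlt : ∀ l < n, p ^ l < p ^ n - 1 := by
      intro l hl
      have g1 : p ^ l ≤ p ^ (n - 1) := Nat.pow_le_pow_right hp.pos (by omega)
      have g2 : p ^ n = p ^ (n - 1) * p := by
        rw [← pow_succ]
        congr 1
        omega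
      have g3 : 2 * p ^ (n - 1) ≤ p ^ n := by
        rw [g2, mul_comm]
        exact Nat.mul_le_mul_left _ hp.two_le
      have g4 : 2 ≤ p ^ (n - 1) := by
        calc 2 ≤ p := hp.two_le
          _ = p ^ 1 := (pow_one p).symm
          _ ≤ p ^ (n - 1) := Nat.pow_le_pow_right hp.pos (by omega)
      omega
    have h4 := hη.pow_inj (hlt i hi) (hlt j hj) hij
    exact Nat.pow_right_injective hp.two_le h4
  · omega

/-- Krull: in a finitely generated submodule of a torsion free module, an element divisible by all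
powers of `p` inside the submodule is zero. -/
theorem eq_zero_of_divisible (Z : PRing p n O) {V : Type} [AddCommGroup V] [Module O V]
    {Λ : Submodule O V} (hΛ : Λ.FG) {v : V}
    (h : ∀ N : ℕ, ∃ w ∈ Λ, v = ((p : O) ^ N) • w) : v = 0 := by
  haveI := Z.test.noe
  haveI := Z.test.isLocalRing
  haveI : Module.Finite O Λ := Module.Finite.iff_fg.2 hΛ
  have hp1 : (Ideal.span {(p : O)}) ≠ ⊤ := by
    intro htop
    have h1 : Ideal.span {(p : O)} ≤ RingHom.ker Z.r := by
      rw [Ideal.span_singleton_le_iff_mem]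
      exact Z.test.p_mem
    rw [htop, top_le_iff] at h1
    have h2 : (1 : O) ∈ RingHom.ker Z.r := by rw [h1]; trivial
    rw [RingHom.mem_ker, map_one] at h2
    exact one_ne_zero h2
  have hkr := Ideal.iInf_pow_smul_eq_bot_of_isLocalRing (M := Λ) (Ideal.span {(p : O)}) hp1
  have hv : v ∈ Λ := by
    obtain ⟨w, hw, hvw⟩ := h 0
    rw [pow_zero, one_smul] at hvw
    rw [hvw]
    exact hw
  have h3 : (⟨v, hv⟩ : Λ) ∈ (⨅ i : ℕ, (Ideal.span {(p : O)}) ^ i • (⊤ : Submodule O Λ)) := by
    rw [Submodule.mem_iInf]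
    intro N
    obtain ⟨w, hw, hvw⟩ := h N
    have h4 : (⟨v, hv⟩ : Λ) = ((p : O) ^ N) • (⟨w, hw⟩ : Λ) := Subtype.ext hvw
    rw [h4]
    refine Submodule.smul_mem_smul ?_ trivial
    exact Ideal.pow_mem_pow (Ideal.mem_span_singleton_self _) N
  rw [hkr, Submodule.mem_bot] at h3
  exact congrArg Subtype.val h3

/-- TASK Z4d.  Let `E` be a ring with a ring homomorphism `ℓ : E → k`, elements `ζ, S, T` with
`ζ^{q-1} = 1`, `ℓ ζ = ω` a generator of `k^×`, `S ζ = ζ^p S`, `T S = p`, and such that
`ℓ a = 0` implies `a^n ∈ E p`.  Let `V ≠ 0` be a finite dimensional `L`-vector space with a right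
`E`-action (`R (a b) = R b ∘ R a`) such that for every `v` some multiple `b v`, `b ≠ 0` in `O`, has
`b v E ⊆ Λ`, `Λ` a finitely generated `O`-submodule.  Then `dim V ≥ n`.
Proof.  `τ ∈ O` primitive root lifting `ω` (`exists_tau`).  `(R ζ)^{q-1} = 1`, and
`T^{q-1} - 1 = ∏ (T - τ^s)` over `L` (`X_pow_sub_one_eq_prod`), so some `R ζ - τ^s` is not
injective: `v ≠ 0`, `R ζ v = τ^s v`.  Claim: `η = ω^s` satisfies the hypothesis of `pow_distinct`.
If `P ∈ ℤ[T]`, `P(ω) = 0` but `P(η) ≠ 0` then `u = P(τ^s)` is a unit of `O` (`Z.test.isUnit`);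
`ℓ(P(ζ)) = P(ω) = 0` so `P(ζ)^n = c p`, and `R(P(ζ)) v = u v`; hence for all `N`
`u^{nN} v = R((c p)^N) v = p^N R(c^N) v` (`c` commutes with `p`).  With `b` for `v`:
`b v = u^{-nN} p^N (b R(c^N) v) ∈ p^N Λ` for all `N`, so `b v = 0` by `eq_zero_of_divisible`,
contradiction.
`R S` is surjective (`R(T S) = R S ∘ R T = p`), hence injective.  If `R ζ w = μ w` then
`R ζ (R S w) = R(S ζ) w = R(ζ^p S) w = R S (R (ζ^p) w) = μ^p R S w`.  So `(R S)^i v ≠ 0`, `i < n`, are
eigenvectors with eigenvalues `τ^{s p^i}`, distinct since their residues `η^{p^i}` are distinct.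
(`Module.End.eigenvectors_linearIndependent'`.) -/
theorem dim_ge (Z : PRing p n O) (hn : 1 ≤ n) {ω : GaloisField p n}
    (hω : IsPrimitiveRoot ω (p ^ n - 1))
    {E : Type} [Ring E] (ℓ : E →+* GaloisField p n) {ζ S T : E} (hζ : ζ ^ (p ^ n - 1) = 1)
    (hζω : ℓ ζ = ω) (hS : S * ζ = ζ ^ p * S) (hT : T * S = ((p : ℕ) : E))
    (hnil : ∀ a : E, ℓ a = 0 → ∃ c : E, a ^ n = c * ((p : ℕ) : E))
    {L : Type} [Field L] [CharZero L] [Algebra O L] [IsFractionRing O L]
    {V : Type} [AddCommGroup V] [Module L V] [Module O V] [IsScalarTower O L V]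
    [FiniteDimensional L V] [Nontrivial V]
    (R : E →+ Module.End L V) (hR1 : R 1 = 1) (hRmul : ∀ a b, R (a * b) = R b * R a)
    {Λ : Submodule O V} (hΛ : Λ.FG)
    (hb : ∀ v : V, ∃ b : O, b ≠ 0 ∧ ∀ a : E, b • R a v ∈ Λ) :
    n ≤ Module.finrank L V := by
  classical
  have hprime := (Fact.out : p.Prime)
  have hq : 2 ≤ p ^ n := by
    calc 2 ≤ p := hprime.two_le
      _ = p ^ 1 := (pow_one p).symm
      _ ≤ p ^ n := Nat.pow_le_pow_right hprime.pos hn
  haveI : NeZero (p ^ n - 1) := ⟨by omega⟩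
  obtain ⟨τ, hτω, hτ⟩ := exists_tau Z hn hω
  have hinj : Function.Injective (algebraMap O L) := IsFractionRing.injective O L
  have hτL : IsPrimitiveRoot (algebraMap O L τ) (p ^ n - 1) := hτ.map_of_injective hinj
  -- powers
  have hRpow : ∀ (a : E) (m : ℕ), R (a ^ m) = (R a) ^ m := by
    intro a m
    induction m with
    | zero => rw [pow_zero, pow_zero, hR1]
    | succ m ih => rw [pow_succ, hRmul, ih, pow_succ']
  have hRp : ∀ N : ℕ, R (((p : ℕ) : E) ^ N) = ((p : L) ^ N) • (1 : Module.End L V) := by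
    intro N
    have h1 : R ((p : ℕ) : E) = (p : L) • (1 : Module.End L V) := by
      have h2 : ((p : ℕ) : E) = p • (1 : E) := by rw [nsmul_eq_mul, mul_one]
      rw [h2, map_nsmul, hR1, Nat.cast_smul_eq_nsmul]
    rw [hRpow, h1, smul_pow, one_pow]
  -- an eigenvalue of `R ζ`
  have hA : (R ζ) ^ (p ^ n - 1) = 1 := by rw [← hRpow, hζ, hR1]
  have hdvd : minpoly L (R ζ) ∣ (Polynomial.X ^ (p ^ n - 1) - Polynomial.C 1 : Polynomial L) := by
    apply minpoly.dvd
    rw [map_sub, map_pow, Polynomial.aeval_X, Polynomial.aeval_C, map_one, hA, sub_self]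
  have hne : (Polynomial.X ^ (p ^ n - 1) - Polynomial.C 1 : Polynomial L) ≠ 0 :=
    Polynomial.X_pow_sub_C_ne_zero (NeZero.pos _) 1
  have hsplit := (Polynomial.X_pow_sub_one_splits hτL).of_dvd hne hdvd
  obtain ⟨μ, hμ⟩ := hsplit.exists_eval_eq_zero
    (minpoly.degree_pos (Algebra.IsIntegral.isIntegral (R ζ))).ne'
  have heig : (R ζ).HasEigenvalue μ := Module.End.hasEigenvalue_of_isRoot hμ
  obtain ⟨v, hv⟩ := heig.exists_hasEigenvector
  have hμ1 : μ ^ (p ^ n - 1) = 1 := by
    obtain ⟨g, hg⟩ := hdvd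
    have h1 := congrArg (Polynomial.eval μ) hg
    rw [Polynomial.eval_mul, hμ, zero_mul, Polynomial.eval_sub, Polynomial.eval_pow,
      Polynomial.eval_X, Polynomial.eval_C] at h1
    exact sub_eq_zero.1 h1
  obtain ⟨s, -, hs⟩ := hτL.eq_pow_of_pow_eq_one hμ1
  set t : O := τ ^ s with ht
  have hμt : μ = algebraMap O L t := by rw [ht, map_pow, hs]
  have hrt : Z.r t = ω ^ s := by rw [ht, map_pow, hτω]
  -- integer polynomials
  have hRaev : ∀ P : Polynomial ℤ, R (Polynomial.aeval ζ P) = Polynomial.aeval (R ζ) P := by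
    intro P
    induction P using Polynomial.induction_on' with
    | add P Q hP hQ => rw [map_add, map_add, map_add, hP, hQ]
    | monomial m a =>
      rw [Polynomial.aeval_monomial, Polynomial.aeval_monomial, ← Algebra.smul_def,
        ← Algebra.smul_def, map_zsmul, hRpow]
  have hRv : ∀ P : Polynomial ℤ, R (Polynomial.aeval ζ P) v =
      algebraMap O L (Polynomial.aeval t P) • v := by
    intro P
    have h1 := Module.End.aeval_apply_of_hasEigenvector (p := P.map (algebraMap ℤ L)) hv
    rw [Polynomial.aeval_map_algebraMap] at h1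
    rw [hRaev, h1]
    congr 1
    rw [Polynomial.eval_map_algebraMap, hμt, ← z4d_aeval (algebraMap O L)]
  have hv0 : v ≠ 0 := hv.2
  have hconj : ∀ P : Polynomial ℤ, Polynomial.aeval ω P = 0 →
      Polynomial.aeval (ω ^ s) P = 0 := by
    intro P hPω
    by_contra hPη
    have hu : IsUnit (Polynomial.aeval t P) := by
      apply Z.test.isUnit
      rw [z4d_aeval, hrt]
      exact hPη
    obtain ⟨c, hc⟩ := hnil (Polynomial.aeval ζ P) (by rw [z4d_aeval, hζω, hPω])
    set u : O := Polynomial.aeval t P with hudef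
    have hM : ∀ N : ℕ, ((p : O) ^ N) • R (c ^ N) v = (u ^ (n * N)) • v := by
      intro N
      have h1 : R ((Polynomial.aeval ζ P) ^ (n * N)) v = (algebraMap O L u) ^ (n * N) • v := by
        rw [hRpow]
        exact z4d_pow (hRv P) _
      have h2 : (Polynomial.aeval ζ P) ^ (n * N) = c ^ N * ((p : ℕ) : E) ^ N := by
        rw [pow_mul, hc]
        exact (Nat.cast_commute p c).symm.mul_pow N
      rw [h2, hRmul, hRp, Module.End.mul_apply, LinearMap.smul_apply, Module.End.one_apply] at h1
      have e1 : algebraMap O L ((p : O) ^ N) = (p : L) ^ N := by rw [map_pow, map_natCast]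
      have e2 : algebraMap O L (u ^ (n * N)) = (algebraMap O L u) ^ (n * N) := map_pow _ _ _
      rw [← algebraMap_smul L ((p : O) ^ N), ← algebraMap_smul L (u ^ (n * N)), e1, e2]
      exact h1
    obtain ⟨b, hb0, hbΛ⟩ := hb v
    obtain ⟨w, hw⟩ := hu.exists_right_inv
    have hz : b • v = 0 := by
      refine eq_zero_of_divisible Z hΛ fun N =>
        ⟨w ^ (n * N) • (b • R (c ^ N) v), Λ.smul_mem _ (hbΛ _), ?_⟩
      calc b • v = (w ^ (n * N) * b) • ((u ^ (n * N)) • v) := by
            rw [smul_smul]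
            congr 1
            calc b = b * (u * w) ^ (n * N) := by rw [hw, one_pow, mul_one]
              _ = _ := by rw [mul_pow]; ring
        _ = (w ^ (n * N) * b) • (((p : O) ^ N) • R (c ^ N) v) := by rw [hM]
        _ = ((p : O) ^ N) • w ^ (n * N) • (b • R (c ^ N) v) := by
            rw [smul_smul, smul_smul, smul_smul]
            congr 1
            ring
    rw [← algebraMap_smul L b v] at hz
    rcases smul_eq_zero.1 hz with h3 | h3
    · exact hb0 (hinj (by rw [h3, map_zero]))
    · exact hv0 h3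
  have hdist := pow_distinct hn hω hconj
  -- the operator `R S`
  have hpL : (p : L) ≠ 0 := Nat.cast_ne_zero.2 hprime.ne_zero
  have hSsurj : Function.Surjective (R S) := by
    intro x
    refine ⟨(p : L)⁻¹ • R T x, ?_⟩
    have h1 : R S (R T x) = (p : L) • x := by
      have h2 : R (T * S) x = R S (R T x) := by rw [hRmul]; rfl
      have h3 := hRp 1
      rw [pow_one, pow_one] at h3
      rw [← h2, hT, h3]
      rfl
    rw [map_smul, h1, smul_smul, inv_mul_cancel₀ hpL, one_smul]
  have hSinj : Function.Injective (R S) := LinearMap.injective_iff_surjective.2 hSsurj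
  have hstep : ∀ i : ℕ, R ζ (((R S) ^ i) v) = (μ ^ (p ^ i)) • ((R S) ^ i) v ∧
      ((R S) ^ i) v ≠ 0 := by
    intro i
    induction i with
    | zero =>
      rw [pow_zero, pow_zero, pow_one]
      exact ⟨hv.apply_eq_smul, hv0⟩
    | succ i ih =>
      obtain ⟨ih1, ih2⟩ := ih
      rw [pow_succ', Module.End.mul_apply]
      set x := ((R S) ^ i) v with hx
      constructor
      · have h1 : R ζ (R S x) = R (S * ζ) x := by rw [hRmul]; rfl
        have h2 : R (ζ ^ p * S) x = R S (R (ζ ^ p) x) := by rw [hRmul]; rfl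
        rw [h1, hS, h2, hRpow, z4d_pow ih1, map_smul, ← pow_mul, ← pow_succ]
      · intro h0
        exact ih2 (hSinj (by rw [h0, map_zero]))
  have hli := Module.End.eigenvectors_linearIndependent' (R ζ)
    (fun i : Fin n => μ ^ (p ^ (i : ℕ))) (by
      intro i j hij
      apply Fin.ext
      apply hdist i i.2 j j.2
      simp only at hij
      rw [hμt, ← map_pow, ← map_pow] at hij
      have h1 := congrArg Z.r (hinj hij)
      have e3 : ∀ m : ℕ, Z.r (t ^ m) = (ω ^ s) ^ m := fun m => by
        rw [RingHom.map_pow Z.r t m, hrt]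
      rw [e3, e3] at h1
      exact h1)
    (fun i : Fin n => ((R S) ^ (i : ℕ)) v) (fun i =>
      ⟨Module.End.mem_eigenspace_iff.2 (hstep i).1, (hstep i).2⟩)
  have hcard := hli.fintype_card_le_finrank
  rw [Fintype.card_fin] at hcard
  exact hcard

end Z

end Crest.Agent.LU
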