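import Mathlib
import Crest.Agent.LUZ_2d
import Crest.Agent.LUZ_4

/-!
S0351 (blueprint LU), part LUZ: the space `V` of quasi-logarithms modulo bounded series
(definitions).
-/

set_option autoImplicit false

noncomputable section

namespace Crest.Agent.LU

open Crest.LubinTate

namespace Z

variable {p : ℕ} [Fact p.Prime] {n : ℕ} {O : Type} [CommRing O] [IsDomain O]
  [Algebra (WittVector p (GaloisField p n)) O]

/-- A coefficientwise lift with zero constant coefficient. -/
def lft (Z : PRing p n O) (y : PowerSeries (GaloisField p n)) : PowerSeries O :=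
  PowerSeries.mk fun i =>
    if i = 0 then 0 else Function.surjInv Z.test.surj (PowerSeries.coeff i y)

theorem constantCoeff_lft (Z : PRing p n O) (y : PowerSeries (GaloisField p n)) :
    PowerSeries.constantCoeff (lft Z y) = 0 := by
  rw [← PowerSeries.coeff_zero_eq_constantCoeff_apply, lft, PowerSeries.coeff_mk, if_pos rfl]

theorem map_lft (Z : PRing p n O) {y : PowerSeries (GaloisField p n)}
    (hy : PowerSeries.constantCoeff y = 0) : PowerSeries.map Z.r (lft Z y) = y := by
  ext i
  rw [PowerSeries.coeff_map, lft, PowerSeries.coeff_mk]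
  split_ifs with h
  · subst h
    rw [map_zero, PowerSeries.coeff_zero_eq_constantCoeff_apply, hy]
  · exact Function.surjInv_eq Z.test.surj _

variable (L : Type) [Field L] [CharZero L] [Algebra O L] [IsFractionRing O L]

/-- `f ∘ ỹ`, `f` the logarithm of `F`. -/
def qs (Z : PRing p n O) (F : FormalGroup O) (y : PowerSeries (GaloisField p n)) : PowerSeries L :=
  cmp (lg (F.map (algebraMap O L))) (toL O L (lft Z y) : PowerSeries L)

/-- Power series modulo bounded series. -/
abbrev VV (O : Type) [CommRing O] [IsDomain O] (L : Type) [Field L] [Algebra O L]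
    [IsFractionRing O L] : Type := PowerSeries L ⧸ Bdd O L

/-- The class of a series. -/
abbrev cl (O : Type) [CommRing O] [IsDomain O] {L : Type} [Field L] [Algebra O L]
    [IsFractionRing O L] (s : PowerSeries L) : VV O L := (Bdd O L).mkQ s

/-- The class of `f ∘ ỹ` modulo bounded series. -/
def cls (Z : PRing p n O) (F : FormalGroup O) {Γ : FormalGroup (GaloisField p n)} (y : FEnd Γ) :
    VV O L := cl O (qs L Z F y.val)

/-- The span of the classes. -/
def V0 (Z : PRing p n O) (F : FormalGroup O) (Γ : FormalGroup (GaloisField p n)) :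
    Submodule L (VV O L) := Submodule.span L (Set.range (cls L Z F (Γ := Γ)))

theorem cls_mem (Z : PRing p n O) (F : FormalGroup O) {Γ : FormalGroup (GaloisField p n)}
    (y : FEnd Γ) : cls L Z F y ∈ V0 L Z F Γ := Submodule.subset_span ⟨y, rfl⟩

end Z

end Crest.Agent.LU
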