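import Mathlib
import Crest.Agent.LUZ_5

/-!
S0351 (blueprint LU), part LUZ, task Z5a: `V` is a right module over `End Γ`.
-/

set_option autoImplicit false

noncomputable section

namespace Crest.Agent.LU

open Crest.LubinTate

namespace Z

variable {p : ℕ} [Fact p.Prime] {n : ℕ} {O : Type} [CommRing O] [IsDomain O]
  [Algebra (WittVector p (GaloisField p n)) O] (Z : PRing p n O)
  {Γ : FormalGroup (GaloisField p n)} [Γ.IsComm] {F : FormalGroup O} [F.IsComm]
  {L : Type} [Field L] [CharZero L] [Algebra O L] [IsFractionRing O L]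

/-- Two series over `O` with the same reduction: the difference in the group of `F` reduces
to zero. (`bc`, `map_fadd`.) -/
theorem sub_coeffIn {σ : Type*} {a b : MvPowerSeries σ O} (ha : MvPowerSeries.constantCoeff a = 0)
    (hb : MvPowerSeries.constantCoeff b = 0)
    (h : MvPowerSeries.map Z.r a = MvPowerSeries.map Z.r b) :
    ∃ z : MvPowerSeries σ O, MvPowerSeries.constantCoeff z = 0 ∧ CoeffIn (RingHom.ker Z.r) z ∧
      a = fadd F z b := by
  let A : FPt F σ := ⟨a, ha⟩
  let B : FPt F σ := ⟨b, hb⟩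
  refine ⟨(A + -B).val, (A + -B).prop, fun d => ?_, ?_⟩
  · have h1 : MvPowerSeries.map Z.r (A + -B).val = MvPowerSeries.map Z.r (B + -B).val := by
      rw [FPt.val_add, FPt.val_add, map_fadd F Z.r A.prop (-B).prop,
        map_fadd F Z.r B.prop (-B).prop]
      have h2 : MvPowerSeries.map Z.r A.val = MvPowerSeries.map Z.r B.val := h
      rw [h2]
    rw [RingHom.mem_ker, ← MvPowerSeries.coeff_map, h1, add_neg_cancel, FPt.val_zero, map_zero,
      map_zero]
  · have h3 : A = (A + -B) + B := by abel
    exact congrArg FPt.val h3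

/-- TASK Z5a (1).  Independence of the lift: `p^c (f(a) - f(b))` is integral if `a`, `b` have the
same reduction (`sub_coeffIn`, `lg_fadd_toL`, `lg_bdd`). -/
theorem lg_sub_inP {σ : Type*} {a b : MvPowerSeries σ O} (ha : MvPowerSeries.constantCoeff a = 0)
    (hb : MvPowerSeries.constantCoeff b = 0)
    (h : MvPowerSeries.map Z.r a = MvPowerSeries.map Z.r b) :
    InP p O 0 (MvPowerSeries.C (algebraMap O L ((p : O) ^ Z.c)) *
      (cmp (lg (F.map (algebraMap O L))) (toL O L a) -
        cmp (lg (F.map (algebraMap O L))) (toL O L b))) := by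
  obtain ⟨z, hz0, hz, hza⟩ := sub_coeffIn Z (F := F) ha hb h
  rw [hza, lg_fadd_toL F hz0 hb, add_sub_cancel_right]
  exact lg_bdd Z F hz0 hz

/-- A series `s` with `p^c s` integral is bounded. -/
theorem cl_eq_zero_of_inP {s : PowerSeries L}
    (h : InP p O 0 (MvPowerSeries.C (algebraMap O L ((p : O) ^ Z.c)) * s : MvPowerSeries Unit L)) :
    cl O s = 0 := by
  rw [cl, Submodule.mkQ_apply, Submodule.Quotient.mk_eq_zero]
  refine ⟨(p : O) ^ Z.c, pow_ne_zero _ Z.hp, fun i => ?_⟩
  obtain ⟨b, hb⟩ := h (Finsupp.single () i)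
  refine ⟨b, ?_⟩
  rw [MvPowerSeries.coeff_C_mul, pow_zero, one_mul] at hb
  exact hb

/-- The class of `f ∘ a` for any lift `a` of `y`. -/
theorem cls_eq {y : FEnd Γ} {a : PowerSeries O} (ha : PowerSeries.constantCoeff a = 0)
    (h : PowerSeries.map Z.r a = y.val) :
    cls L Z F y = cl O (cmp (lg (F.map (algebraMap O L))) (toL O L a) : PowerSeries L) := by
  have h1 : PowerSeries.map Z.r (lft Z y.val) = PowerSeries.map Z.r a := by
    rw [h, map_lft Z y.prop.1]
  have h2 := cl_eq_zero_of_inP Z (L := L) (lg_sub_inP Z (F := F) (L := L) (σ := Unit)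
    (constantCoeff_lft Z y.val) ha h1)
  rw [cl, map_sub, sub_eq_zero] at h2
  exact h2

/-- Additivity (needs `F.map Z.r = Γ`). -/
theorem cls_add (hF : F.map Z.r = Γ) (y z : FEnd Γ) :
    cls L Z F (y + z) = cls L Z F y + cls L Z F z := by
  have hy := constantCoeff_lft Z y.val
  have hz := constantCoeff_lft Z z.val
  have h1 : PowerSeries.map Z.r (fadd F (lft Z y.val) (lft Z z.val) : PowerSeries O) =
      (y + z).val := by
    have h2 : PowerSeries.map Z.r (fadd F (lft Z y.val) (lft Z z.val) : PowerSeries O) =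
        fadd (F.map Z.r) (PowerSeries.map Z.r (lft Z y.val)) (PowerSeries.map Z.r (lft Z z.val)) :=
      map_fadd F Z.r (σ := Unit) hy hz
    rw [h2, hF, map_lft Z y.prop.1, map_lft Z z.prop.1, FEnd.val_add]
  have h3 := cls_eq Z (L := L) (F := F) (y := y + z)
    (a := (fadd F (lft Z y.val) (lft Z z.val) : PowerSeries O))
    (constantCoeff_fadd F (σ := Unit) hy hz) h1
  have h4 := lg_fadd_toL F (L := L) (σ := Unit) (a := lft Z y.val) (b := lft Z z.val) hy hz
  rw [h3]
  unfold cls qs
  rw [← map_add]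
  exact congrArg (cl O) h4

theorem cls_zero (hF : F.map Z.r = Γ) : cls L Z F (0 : FEnd Γ) = 0 := by
  have h := cls_add Z (L := L) (F := F) hF (0 : FEnd Γ) 0
  rw [add_zero] at h
  exact left_eq_add.1 h

/-- `cls 1` is the class of the logarithm. -/
theorem cls_one : cls L Z F (1 : FEnd Γ) = cl O (lg (F.map (algebraMap O L))) := by
  have h1 : PowerSeries.map Z.r (PowerSeries.X : PowerSeries O) = (1 : FEnd Γ).val :=
    PowerSeries.map_X Z.r
  rw [cls_eq Z (L := L) (F := F) (y := (1 : FEnd Γ)) PowerSeries.constantCoeff_X h1]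
  congr 1
  have h2 : (toL O L (PowerSeries.X : PowerSeries O) : PowerSeries L) = PowerSeries.X :=
    PowerSeries.map_X (algebraMap O L)
  rw [h2]
  exact cmp_X _

private theorem Z5a_toL0 {a : PowerSeries O} (ha : PowerSeries.constantCoeff a = 0) :
    PowerSeries.HasSubst (toL O L a : PowerSeries L) := by
  refine PowerSeries.HasSubst.of_constantCoeff_zero ?_
  have h1 : MvPowerSeries.constantCoeff (toL O L a : MvPowerSeries Unit L) =
      algebraMap O L (MvPowerSeries.constantCoeff (a : MvPowerSeries Unit O)) :=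
    MvPowerSeries.constantCoeff_map _ _
  have h2 : MvPowerSeries.constantCoeff (a : MvPowerSeries Unit O) = 0 := ha
  rw [h1, h2, map_zero]

private theorem Z5a_add {a : PowerSeries O} (ha : PowerSeries.constantCoeff a = 0)
    (s t : PowerSeries L) : (cmp (s + t) (toL O L a : PowerSeries L) : PowerSeries L) =
      cmp s (toL O L a : PowerSeries L) + cmp t (toL O L a : PowerSeries L) := by
  have h := Z5a_toL0 (L := L) ha
  show PowerSeries.subst _ _ = PowerSeries.subst _ _ + PowerSeries.subst _ _
  rw [← PowerSeries.coe_substAlgHom h, map_add]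

private theorem Z5a_smul {a : PowerSeries O} (ha : PowerSeries.constantCoeff a = 0) (l : L)
    (s : PowerSeries L) : (cmp (l • s) (toL O L a : PowerSeries L) : PowerSeries L) =
      l • (cmp s (toL O L a : PowerSeries L) : PowerSeries L) := by
  have h := Z5a_toL0 (L := L) ha
  show PowerSeries.subst _ _ = l • PowerSeries.subst _ _
  rw [← PowerSeries.coe_substAlgHom h, map_smul]

private theorem Z5a_bdd {a : PowerSeries O} (ha : PowerSeries.constantCoeff a = 0)
    {s : PowerSeries L} (hs : s ∈ Bdd O L) :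
    (cmp s (toL O L a : PowerSeries L) : PowerSeries L) ∈ Bdd O L := by
  obtain ⟨b, hb, hbs⟩ := hs
  choose t ht using hbs
  refine ⟨b, hb, fun i => ⟨PowerSeries.coeff i (cmp (PowerSeries.mk t) a : PowerSeries O), ?_⟩⟩
  have h1 : algebraMap O L b • s = PowerSeries.map (algebraMap O L) (PowerSeries.mk t) := by
    ext j
    rw [PowerSeries.coeff_map, PowerSeries.coeff_mk, ← ht j, map_smul, smul_eq_mul]
  have h2 : (cmp (PowerSeries.map (algebraMap O L) (PowerSeries.mk t))
      (toL O L a : PowerSeries L) : PowerSeries L) =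
      PowerSeries.map (algebraMap O L) (cmp (PowerSeries.mk t) a : PowerSeries O) :=
    (map_cmp (algebraMap O L) (PowerSeries.mk t) (σ := Unit) ha).symm
  rw [← h1, Z5a_smul ha] at h2
  have h3 := congrArg (PowerSeries.coeff i) h2
  rw [map_smul, smul_eq_mul, PowerSeries.coeff_map] at h3
  exact h3

/-- Composition with a series over `O` maps bounded series to bounded series. -/
def compQ (a : PowerSeries O) (ha : PowerSeries.constantCoeff a = 0) : VV O L →ₗ[L] VV O L :=
  (Bdd O L).mapQ (Bdd O L)
    { toFun := fun s => (cmp s (toL O L a : PowerSeries L) : PowerSeries L)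
      map_add' := by
        intro s t
        exact Z5a_add ha s t
      map_smul' := by
        intro l s
        exact Z5a_smul ha l s }
    (by
      intro s hs
      exact Z5a_bdd ha hs)

theorem compQ_cl (a : PowerSeries O) (ha : PowerSeries.constantCoeff a = 0) (s : PowerSeries L) :
    compQ (L := L) a ha (cl O s) = cl O (cmp s (toL O L a : PowerSeries L) : PowerSeries L) := by
  rfl

/-- `cls y` composed with a lift of `z` is `cls (y z)`. -/
theorem compQ_cls (y z : FEnd Γ) :
    compQ (L := L) (lft Z z.val) (constantCoeff_lft Z z.val) (cls L Z F y) =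
      cls L Z F (y * z) := by
  have hy := constantCoeff_lft Z y.val
  have hz := constantCoeff_lft Z z.val
  have h1 : PowerSeries.map Z.r (cmp (lft Z y.val) (lft Z z.val) : PowerSeries O) =
      (y * z).val := by
    have h2 : PowerSeries.map Z.r (cmp (lft Z y.val) (lft Z z.val) : PowerSeries O) =
        cmp (PowerSeries.map Z.r (lft Z y.val)) (PowerSeries.map Z.r (lft Z z.val)) :=
      map_cmp Z.r (lft Z y.val) (σ := Unit) hz
    rw [h2, map_lft Z y.prop.1, map_lft Z z.prop.1, FEnd.val_mul]
  have h3 := cls_eq Z (L := L) (F := F) (y := y * z)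
    (a := (cmp (lft Z y.val) (lft Z z.val) : PowerSeries O))
    (constantCoeff_cmp (σ := Unit) hy hz) h1
  rw [h3]
  show cl O (cmp (cmp (lg (F.map (algebraMap O L))) (toL O L (lft Z y.val) : PowerSeries L))
    (toL O L (lft Z z.val) : PowerSeries L) : PowerSeries L) = _
  have hy' : PowerSeries.constantCoeff (toL O L (lft Z y.val) : PowerSeries L) = 0 := by
    have h5 : PowerSeries.constantCoeff (toL O L (lft Z y.val) : PowerSeries L) =
      algebraMap O L (PowerSeries.constantCoeff (lft Z y.val)) :=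
      MvPowerSeries.constantCoeff_map _ _
    rw [h5, hy, map_zero]
  have hz' : PowerSeries.constantCoeff (toL O L (lft Z z.val) : PowerSeries L) = 0 := by
    have h5 : PowerSeries.constantCoeff (toL O L (lft Z z.val) : PowerSeries L) =
      algebraMap O L (PowerSeries.constantCoeff (lft Z z.val)) :=
      MvPowerSeries.constantCoeff_map _ _
    rw [h5, hz, map_zero]
  have h6 := cmp_assoc (lg (F.map (algebraMap O L))) (σ := Unit) hy' hz'
  have h7 : (toL O L (cmp (lft Z y.val) (lft Z z.val) : PowerSeries O) : PowerSeries L) =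
      cmp (toL O L (lft Z y.val) : PowerSeries L) (toL O L (lft Z z.val) : PowerSeries L) :=
    map_cmp (algebraMap O L) (lft Z y.val) (σ := Unit) hz
  rw [h7]
  exact congrArg (cl O) h6

/-- TASK Z5a (2).  The right action of `End Γ` on `V₀`: `R z` is the restriction of `compQ (lft z)`
(`V₀` is stable by `compQ_cls`); additivity and multiplicativity are checked on the generators
`cls y` (`Submodule.span_induction`). -/
theorem exists_action (hF : F.map Z.r = Γ) :
    ∃ R : FEnd Γ →+ Module.End L (V0 L Z F Γ), R 1 = 1 ∧ (∀ a b, R (a * b) = R b * R a) ∧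
      ∀ a y, ((R a ⟨cls L Z F y, cls_mem L Z F y⟩ : V0 L Z F Γ) : VV O L) = cls L Z F (y * a) := by
  have hstab : ∀ a : FEnd Γ, ∀ x ∈ V0 L Z F Γ,
      compQ (L := L) (lft Z a.val) (constantCoeff_lft Z a.val) x ∈ V0 L Z F Γ := by
    intro a x hx
    have h1 : V0 L Z F Γ ≤
        (V0 L Z F Γ).comap (compQ (L := L) (lft Z a.val) (constantCoeff_lft Z a.val)) := by
      refine Submodule.span_le.2 ?_
      rintro _ ⟨y, rfl⟩
      show compQ (L := L) (lft Z a.val) (constantCoeff_lft Z a.val) (cls L Z F y) ∈ V0 L Z F Γ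
      rw [compQ_cls]
      exact cls_mem L Z F (y * a)
    exact h1 hx
  have hext : ∀ f g : VV O L →ₗ[L] VV O L, (∀ y : FEnd Γ, f (cls L Z F y) = g (cls L Z F y)) →
      ∀ x ∈ V0 L Z F Γ, f x = g x := by
    intro f g h x hx
    have h1 : Set.EqOn f g (Set.range (cls L Z F (Γ := Γ))) := by
      rintro _ ⟨y, rfl⟩
      exact h y
    exact LinearMap.eqOn_span h1 hx
  let R0 : FEnd Γ → Module.End L (V0 L Z F Γ) := fun a =>
    (compQ (L := L) (lft Z a.val) (constantCoeff_lft Z a.val)).restrict (hstab a)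
  have hR0 : ∀ a (x : V0 L Z F Γ), ((R0 a x : V0 L Z F Γ) : VV O L) =
      compQ (L := L) (lft Z a.val) (constantCoeff_lft Z a.val) x := fun a x => rfl
  have hadd : ∀ a b, R0 (a + b) = R0 a + R0 b := by
    intro a b
    refine LinearMap.ext fun x => Subtype.ext ?_
    rw [LinearMap.add_apply, Submodule.coe_add, hR0, hR0, hR0, ← LinearMap.add_apply]
    refine hext _ _ (fun y => ?_) x x.2
    rw [LinearMap.add_apply, compQ_cls, compQ_cls, compQ_cls, mul_add, cls_add Z hF]
  refine ⟨AddMonoidHom.mk' R0 hadd, ?_, ?_, ?_⟩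
  · refine LinearMap.ext fun x => Subtype.ext ?_
    show ((R0 1 x : V0 L Z F Γ) : VV O L) = (x : VV O L)
    rw [hR0]
    refine hext _ LinearMap.id (fun y => ?_) x x.2
    rw [compQ_cls, mul_one, LinearMap.id_apply]
  · intro a b
    refine LinearMap.ext fun x => Subtype.ext ?_
    show ((R0 (a * b) x : V0 L Z F Γ) : VV O L) = ((R0 b (R0 a x) : V0 L Z F Γ) : VV O L)
    rw [hR0, hR0, hR0, ← LinearMap.comp_apply]
    refine hext _ _ (fun y => ?_) x x.2
    rw [LinearMap.comp_apply, compQ_cls, compQ_cls, compQ_cls, mul_assoc]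
  · intro a y
    show ((R0 a ⟨cls L Z F y, cls_mem L Z F y⟩ : V0 L Z F Γ) : VV O L) = _
    rw [hR0]
    exact compQ_cls Z y a

end Z

end Crest.Agent.LU
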