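import Mathlib
import Crest.Agent.LUZ_5

/-!
S0351 (blueprint LU), part LUZ, task Z5b: the logarithm is not bounded.
-/

set_option autoImplicit false

noncomputable section

namespace Crest.Agent.LU

open Crest.LubinTate

namespace Z

private theorem Z5b_C_mul_cmp {A : Type*} [CommRing A] (b : A) (h : PowerSeries A) {σ : Type*}
    {a : MvPowerSeries σ A} (ha : MvPowerSeries.constantCoeff a = 0) :
    cmp (PowerSeries.C b * h) a = MvPowerSeries.C b * cmp h a := by
  show PowerSeries.subst a (PowerSeries.C b * h) = _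
  rw [PowerSeries.subst_mul (PowerSeries.HasSubst.of_constantCoeff_zero ha), PowerSeries.subst_C]

private theorem Z5b_smul_hom {A : Type*} [CommRing A] {F : FormalGroup A} {h : PowerSeries A}
    (hh : IsFGHom F (FormalGroup.𝔾ₐ (R := A)) h) (b : A) :
    IsFGHom F (FormalGroup.𝔾ₐ (R := A)) (PowerSeries.C b * h) := by
  have h0 : PowerSeries.constantCoeff (PowerSeries.C b * h) = 0 := by
    rw [map_mul, hh.1, mul_zero]
  refine isFGHom_of_fadd h0 fun x y hx hy => ?_
  rw [fadd_Ga (constantCoeff_cmp h0 hx) (constantCoeff_cmp h0 hy),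
    Z5b_C_mul_cmp b h (constantCoeff_fadd F hx hy), Z5b_C_mul_cmp b h hx, Z5b_C_mul_cmp b h hy,
    hom_fadd hh hx hy, fadd_Ga (constantCoeff_cmp hh.1 hx) (constantCoeff_cmp hh.1 hy), mul_add]

variable {p : ℕ} [Fact p.Prime] {n : ℕ} {O : Type} [CommRing O] [IsDomain O]
  [Algebra (WittVector p (GaloisField p n)) O] (Z : PRing p n O)
  {Γ : FormalGroup (GaloisField p n)} [Γ.IsComm] {F : FormalGroup O} [F.IsComm]

include Z

/-- TASK Z5b (1).  An integral additive series is zero: if `h : F → 𝔾ₐ` is a homomorphism over `O`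
then `h = 0`.  (`rigid` with `J = ker r` applied to `p h`, which has coefficients in `J` and is a
homomorphism to `𝔾ₐ`; `[p]_F ≡ X^q mod J` by `mulSeries_map` and `hΓ`.) -/
theorem additive_eq_zero (hn : 1 ≤ n) (hΓ : mulSeries Γ p = PowerSeries.X ^ (p ^ n))
    (hF : F.map Z.r = Γ) {h : PowerSeries O} (hh : IsFGHom F (FormalGroup.𝔾ₐ (R := O)) h) :
    h = 0 := by
  have hp0 : p ^ n ≠ 0 := pow_ne_zero n (Fact.out : p.Prime).ne_zero
  have hmod : CoeffIn (RingHom.ker Z.r)
      (mulSeries F p - (PowerSeries.X : PowerSeries O) ^ (p ^ n)) := by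
    intro d
    rw [RingHom.mem_ker]
    have e : PowerSeries.map Z.r (mulSeries F p - (PowerSeries.X : PowerSeries O) ^ (p ^ n)) = 0 := by
      rw [map_sub, map_pow, PowerSeries.map_X, ← mulSeries_map, hF, hΓ, sub_self]
    have e2 := congrArg (MvPowerSeries.coeff d) e
    rw [map_zero] at e2
    exact e2
  have hC : CoeffIn (RingHom.ker Z.r) (PowerSeries.C (p : O) * h) := by
    intro d
    have e : MvPowerSeries.coeff d (PowerSeries.C (p : O) * h) = (p : O) * MvPowerSeries.coeff d h :=
      MvPowerSeries.coeff_C_mul _ _ _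
    rw [e]
    exact Ideal.mul_mem_right _ _ Z.test.p_mem
  have h1 := rigid (F := F) (G := FormalGroup.𝔾ₐ (R := O)) (RingHom.ker Z.r)
    (fun b hb => Z.test.eq_zero_of_mem_pow hb) p (p ^ n) hp0 Z.test.p_mem hmod
    (Z5b_smul_hom hh (p : O)) hC
  ext d
  have h2 := congrArg (PowerSeries.coeff d) h1
  rw [PowerSeries.coeff_C_mul, map_zero] at h2
  rw [map_zero]
  exact (mul_eq_zero.1 h2).resolve_left Z.hp

variable {L : Type} [Field L] [CharZero L] [Algebra O L] [IsFractionRing O L]

/-- TASK Z5b (2).  The logarithm is not bounded: if `b f = h` has coefficients in `O`, `b ≠ 0`, then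
`h : F → 𝔾ₐ` is a homomorphism over `O` (injectivity of `O → L`), so `h = 0`, but its linear
coefficient is `b`. -/
theorem cl_lg_ne_zero (hn : 1 ≤ n) (hΓ : mulSeries Γ p = PowerSeries.X ^ (p ^ n))
    (hF : F.map Z.r = Γ) : cl O (lg (F.map (algebraMap O L))) ≠ 0 := by
  intro hcl
  have hmem : lg (F.map (algebraMap O L)) ∈ Bdd O L :=
    (Submodule.Quotient.mk_eq_zero (Bdd O L)).1 hcl
  obtain ⟨b, hb, ha⟩ := hmem
  choose a ha using ha
  set h : PowerSeries O := PowerSeries.mk a with hh
  have hmap : PowerSeries.map (algebraMap O L) h =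
      PowerSeries.C (algebraMap O L b) * lg (F.map (algebraMap O L)) := by
    ext i
    rw [PowerSeries.coeff_map, hh, PowerSeries.coeff_mk, PowerSeries.coeff_C_mul, ha i]
  have hinj := IsFractionRing.injective O L
  have h0 : PowerSeries.constantCoeff h = 0 := by
    apply hinj
    have e := congrArg PowerSeries.constantCoeff hmap
    rw [map_mul, constantCoeff_lg, mul_zero, ← PowerSeries.coeff_zero_eq_constantCoeff_apply,
      PowerSeries.coeff_map, PowerSeries.coeff_zero_eq_constantCoeff_apply] at e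
    rw [e, map_zero]
  have hcmp : ∀ z : MvPowerSeries (Fin 2) O, MvPowerSeries.constantCoeff z = 0 →
      toL O L (cmp h z) = MvPowerSeries.C (algebraMap O L b) *
        cmp (lg (F.map (algebraMap O L))) (toL O L z) := by
    intro z hz
    have hz' : MvPowerSeries.constantCoeff (toL O L z) = 0 := by
      rw [MvPowerSeries.constantCoeff_map, hz, map_zero]
    have e1 : toL O L (cmp h z) = cmp (PowerSeries.map (algebraMap O L) h) (toL O L z) :=
      map_cmp (algebraMap O L) h hz
    rw [e1, hmap, Z5b_C_mul_cmp _ _ hz']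
  have hhom : IsFGHom F (FormalGroup.𝔾ₐ (R := O)) h := by
    refine isFGHom_of_fadd h0 fun x y hx hy => ?_
    rw [fadd_Ga (constantCoeff_cmp h0 hx) (constantCoeff_cmp h0 hy)]
    apply toL_injective (O := O) (L := L)
    have e : toL O L (cmp h x + cmp h y) = toL O L (cmp h x) + toL O L (cmp h y) := map_add _ _ _
    rw [e, hcmp _ (constantCoeff_fadd F hx hy), hcmp _ hx, hcmp _ hy, lg_fadd_toL F hx hy, mul_add]
  have hz := additive_eq_zero Z hn hΓ hF hhom
  have e1 : PowerSeries.coeff 1 (PowerSeries.map (algebraMap O L) h) = 0 := by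
    rw [hz, map_zero, map_zero]
  rw [hmap, PowerSeries.coeff_C_mul, coeff_one_lg, mul_one] at e1
  exact hb (hinj (by rw [e1, map_zero]))

end Z

end Crest.Agent.LU
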