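import Mathlib
import Crest.Agent.LUZ_4b
import Crest.Agent.LUZ_4c
import Crest.Agent.LUZ_4d
import Crest.Agent.LUZ_5a
import Crest.Agent.LUZ_5b

/-!
S0351 (blueprint LU), part LUZ, task Z5c: `dim V₀ ≥ n` and the spanning statement.
-/

set_option autoImplicit false

noncomputable section

namespace Crest.Agent.LU

open Crest.LubinTate

namespace Z

variable {p : ℕ} [Fact p.Prime] {n : ℕ} {O : Type} [CommRing O] [IsDomain O]
  [Algebra (WittVector p (GaloisField p n)) O] (Z : PRing p n O)
  {Γ : FormalGroup (GaloisField p n)} [Γ.IsComm] {F : FormalGroup O} [F.IsComm]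
  {L : Type} [Field L] [CharZero L] [Algebra O L] [IsFractionRing O L]

private theorem exists_prim (hn : 1 ≤ n) :
    ∃ ω : GaloisField p n, IsPrimitiveRoot ω (p ^ n - 1) := by
  obtain ⟨g, hg⟩ := IsCyclic.exists_generator (α := (GaloisField p n)ˣ)
  have h1 : orderOf g = p ^ n - 1 := by
    rw [orderOf_eq_card_of_forall_mem_zpowers hg, Nat.card_units, GaloisField.card p n (by omega)]
  refine ⟨(g : GaloisField p n), ?_⟩
  rw [IsPrimitiveRoot.coe_units_iff, ← h1]
  exact IsPrimitiveRoot.orderOf g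

omit [IsDomain O] [CharZero L] in
private theorem algebraMap_p_ne (Z : PRing p n O) (m : ℕ) : algebraMap O L ((p : O) ^ m) ≠ 0 := by
  have h1 : algebraMap O L (p : O) ≠ 0 := by
    rw [Ne, IsFractionRing.to_map_eq_zero_iff]
    exact Z.hp
  rw [map_pow]
  exact pow_ne_zero _ h1

/-- TASK Z5c (1).  If all `p^c cls y` lie in a finitely generated `O`-submodule `Λ` of `VV O L` then
`dim V₀ ≥ n`.
Proof: `dim_ge` with `V = V₀` (an `O`-module by restriction of scalars along `O → L`:
`VV O L` is an `O`-module as a quotient of `PowerSeries L`; `IsScalarTower O L (VV O L)`),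
`E = FEnd Γ`, `ℓ = FEnd.lin`, `ω` a generator of `k^×`, `ζ` from `exists_teich`, `S, T` from
`exists_S_T`, `pow_n_dvd`, `R` from `exists_action`, `Λ' = Λ ∩ V₀` (f.g. since `O` is Noetherian and
`Λ` f.g.; `Z.test.noe`).  For `v = Σ l_j cls y_j`, `l_j = a_j / b₀`: `b = b₀ p^c` works, as
`R a (cls y) = cls (y a)`.  `V₀` is finite dimensional: it is contained in the `L`-span of `Λ`;
nontrivial: `cls 1 ≠ 0` (`cls_one`, `cl_lg_ne_zero`). -/
theorem finrank_V0_ge (hn : 1 ≤ n) (hΓ : mulSeries Γ p = PowerSeries.X ^ (p ^ n))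
    (hF : F.map Z.r = Γ) {Λ : Submodule O (VV O L)} (hΛ : Λ.FG)
    (h : ∀ y : FEnd Γ, ((p : O) ^ Z.c) • cls L Z F y ∈ Λ) :
    n ≤ Module.finrank L (V0 L Z F Γ) := by
  classical
  have hnoe : IsNoetherianRing O := Z.test.noe
  obtain ⟨ω, hω⟩ := exists_prim (p := p) hn
  have hω0 : ω ≠ 0 := hω.ne_zero (by
    have h1 : 1 < p ^ n := Nat.one_lt_pow (by omega) (Fact.out : p.Prime).one_lt
    omega)
  obtain ⟨ζ, hζω, hζ⟩ := exists_teich hn hΓ hω0
  obtain ⟨S, T, hS, hT⟩ := exists_S_T hn hΓ (by rw [hζω]; exact hω0) hζ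
  obtain ⟨R, hR1, hRmul, hR⟩ := exists_action (L := L) Z hF (Γ := Γ)
  have hpc : algebraMap O L ((p : O) ^ Z.c) ≠ 0 := algebraMap_p_ne Z Z.c
  -- finite dimensionality
  have hfd : FiniteDimensional L (V0 L Z F Γ) := by
    obtain ⟨s, hs⟩ := hΛ
    have h1 : V0 L Z F Γ ≤ Submodule.span L (s : Set (VV O L)) := by
      apply Submodule.span_le.mpr
      rintro _ ⟨y, rfl⟩
      have h2 : ((p : O) ^ Z.c) • cls L Z F y ∈ Submodule.span L (s : Set (VV O L)) := by
        have h3 : Λ ≤ (Submodule.span L (s : Set (VV O L))).restrictScalars O := by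
          rw [← hs]
          apply Submodule.span_le.mpr
          intro x hx
          exact Submodule.subset_span hx
        exact h3 (h y)
      rw [← algebraMap_smul L] at h2
      have h4 := Submodule.smul_mem _ (algebraMap O L ((p : O) ^ Z.c))⁻¹ h2
      rwa [smul_smul, inv_mul_cancel₀ hpc, one_smul] at h4
    have : FiniteDimensional L (Submodule.span L (s : Set (VV O L))) :=
      FiniteDimensional.span_finset L s
    exact Submodule.finiteDimensional_of_le h1
  -- nontriviality
  have hnt : Nontrivial (V0 L Z F Γ) := by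
    refine ⟨⟨⟨cls L Z F (1 : FEnd Γ), cls_mem L Z F 1⟩, 0, fun h0 => ?_⟩⟩
    have h1 := congrArg Subtype.val h0
    change cls L Z F (1 : FEnd Γ) = 0 at h1
    rw [cls_one] at h1
    exact cl_lg_ne_zero Z hn hΓ hF h1
  -- the lattice
  let ι : V0 L Z F Γ →ₗ[O] VV O L := (V0 L Z F Γ).subtype.restrictScalars O
  have hι : Function.Injective ι := (V0 L Z F Γ).injective_subtype
  have hΛn : IsNoetherian O Λ := isNoetherian_of_fg_of_noetherian Λ hΛ
  have hΛ' : (Λ.comap ι).FG := by
    apply Submodule.fg_of_fg_map_injective ι hι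
    have h1 : (Λ.comap ι).map ι ≤ Λ := Submodule.map_comap_le _ _
    have h2 := IsNoetherian.noetherian (((Λ.comap ι).map ι).comap Λ.subtype)
    have h3 := h2.map Λ.subtype
    rwa [Submodule.map_comap_subtype, inf_eq_right.mpr h1] at h3
  refine dim_ge Z hn hω (FEnd.lin (F := Γ)) hζ hζω hS hT (fun a ha => pow_n_dvd hn hΓ ha) R hR1
    hRmul hΛ' ?_
  rintro ⟨v, hv⟩
  have key : ∀ (v : VV O L) (hv : v ∈ V0 L Z F Γ), ∃ b : O, b ≠ 0 ∧
      ∀ a : FEnd Γ, b • R a ⟨v, hv⟩ ∈ Λ.comap ι := by
    intro v hv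
    induction hv using Submodule.span_induction with
    | mem x hx =>
      obtain ⟨y, rfl⟩ := hx
      refine ⟨(p : O) ^ Z.c, pow_ne_zero _ Z.hp, fun a => ?_⟩
      rw [Submodule.mem_comap, map_smul]
      have h1 : ι (R a ⟨cls L Z F y, cls_mem L Z F y⟩) = cls L Z F (y * a) := hR a y
      have h2 : ι (R a ⟨cls L Z F y, Submodule.subset_span ⟨y, rfl⟩⟩) = cls L Z F (y * a) := h1
      rw [h2]
      exact h _
    | zero =>
      refine ⟨1, one_ne_zero, fun a => ?_⟩
      have h1 : (⟨0, Submodule.zero_mem _⟩ : V0 L Z F Γ) = 0 := rfl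
      rw [h1, map_zero, smul_zero]
      exact Submodule.zero_mem _
    | add x y hx hy ihx ihy =>
      obtain ⟨b, hb, hbx⟩ := ihx
      obtain ⟨c, hc, hcy⟩ := ihy
      refine ⟨b * c, mul_ne_zero hb hc, fun a => ?_⟩
      have h1 : (⟨x + y, Submodule.add_mem _ hx hy⟩ : V0 L Z F Γ) = ⟨x, hx⟩ + ⟨y, hy⟩ := rfl
      rw [h1, map_add, smul_add]
      apply Submodule.add_mem
      · rw [mul_comm, mul_smul]
        exact Submodule.smul_mem _ _ (hbx a)
      · rw [mul_smul]
        exact Submodule.smul_mem _ _ (hcy a)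
    | smul l x hx ih =>
      obtain ⟨b, hb, hbx⟩ := ih
      obtain ⟨u, w, hw, rfl⟩ := IsFractionRing.div_surjective (A := O) l
      have hw0 : w ≠ 0 := nonZeroDivisors.ne_zero hw
      have hw1 : algebraMap O L w ≠ 0 := by
        rw [Ne, IsFractionRing.to_map_eq_zero_iff]
        exact hw0
      refine ⟨w * b, mul_ne_zero hw0 hb, fun a => ?_⟩
      have h1 : (⟨(algebraMap O L u / algebraMap O L w) • x, Submodule.smul_mem _ _ hx⟩ :
          V0 L Z F Γ) = (algebraMap O L u / algebraMap O L w) • ⟨x, hx⟩ := rfl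
      have h2 : (w * b) • R a ⟨(algebraMap O L u / algebraMap O L w) • x,
          Submodule.smul_mem _ _ hx⟩ = u • b • R a ⟨x, hx⟩ := by
        rw [h1, map_smul, ← algebraMap_smul L (w * b), ← algebraMap_smul L u,
          ← algebraMap_smul L b, smul_smul, smul_smul, map_mul]
        congr 1
        field_simp
      rw [h2]
      exact Submodule.smul_mem _ _ (hbx a)
  exact key v hv

/-- TASK Z5c (2).  Suppose `p^c cls y = c_y [f] + Σ_i d_y(i) [g_i]` for all `y` in `End Γ`, with
`c_y, d_y(i) ∈ O`, `i : Fin (n-1)`.  Then the vectors `d_y` span `L^{n-1}`: a linear form vanishing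
on all `d_y` is zero.
Proof: `Λ` = the `O`-span of `[f], [g_i]`; by (1) `dim V₀ ≥ n`.  If `μ ≠ 0` kills all `d_y` then `V₀` is
contained in the image of the subspace `{(c, d) : Σ μ_i d_i = 0}` of `L × L^{n-1}`, of dimension
`n - 1`, under `(c, d) ↦ c [f] + Σ d_i [g_i]` (`p^c` is invertible in `L`); contradiction. -/
theorem span_d (hn : 1 ≤ n) (hΓ : mulSeries Γ p = PowerSeries.X ^ (p ^ n))
    (hF : F.map Z.r = Γ) (g : Fin (n - 1) → PowerSeries L) (cc : FEnd Γ → O)
    (d : FEnd Γ → Fin (n - 1) → O)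
    (h : ∀ y : FEnd Γ, ((p : O) ^ Z.c) • cls L Z F y =
      cc y • cl O (lg (F.map (algebraMap O L))) + ∑ i, d y i • cl O (g i))
    (μ : Fin (n - 1) → O) (hμ : ∀ y : FEnd Γ, ∑ i, μ i * d y i = 0) : μ = 0 := by
  classical
  by_contra hne
  have hpc : algebraMap O L ((p : O) ^ Z.c) ≠ 0 := algebraMap_p_ne Z Z.c
  -- the lattice
  let s : Finset (VV O L) := insert (cl O (lg (F.map (algebraMap O L))))
    (Finset.univ.image fun i => cl O (g i))
  have hs : ∀ y : FEnd Γ, ((p : O) ^ Z.c) • cls L Z F y ∈ Submodule.span O (s : Set (VV O L)) := by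
    intro y
    rw [h y]
    apply Submodule.add_mem
    · apply Submodule.smul_mem
      apply Submodule.subset_span
      simp [s]
    · apply Submodule.sum_mem
      intro i _
      apply Submodule.smul_mem
      apply Submodule.subset_span
      simp [s]
  have h1 := finrank_V0_ge Z hn hΓ hF (Λ := Submodule.span O (s : Set (VV O L))) ⟨s, rfl⟩ hs
  -- the linear form
  let lf : (L × (Fin (n - 1) → L)) →ₗ[L] L :=
    (∑ i, (algebraMap O L (μ i)) • LinearMap.proj i) ∘ₗ LinearMap.snd L L (Fin (n - 1) → L)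
  have hlf : ∀ x : L × (Fin (n - 1) → L), lf x = ∑ i, algebraMap O L (μ i) * x.2 i := by
    intro x
    simp [lf, Algebra.smul_def]
  have hlf0 : lf ≠ 0 := by
    intro h0
    apply hne
    funext i
    have h2 : lf (0, Pi.single i 1) = 0 := by rw [h0]; rfl
    rw [hlf, Finset.sum_eq_single i] at h2
    · simpa using h2
    · intro j _ hj
      simp [Pi.single_eq_of_ne hj]
    · intro hi
      exact absurd (Finset.mem_univ i) hi
  let Φ : (L × (Fin (n - 1) → L)) →ₗ[L] VV O L :=
    LinearMap.coprod (LinearMap.toSpanSingleton L (VV O L) (cl O (lg (F.map (algebraMap O L)))))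
      (∑ i, (LinearMap.toSpanSingleton L (VV O L) (cl O (g i))) ∘ₗ LinearMap.proj i)
  have hΦ : ∀ x : L × (Fin (n - 1) → L), Φ x = x.1 • cl O (lg (F.map (algebraMap O L))) +
      ∑ i, x.2 i • cl O (g i) := by
    intro x
    simp only [Φ, LinearMap.coprod_apply, LinearMap.toSpanSingleton_apply, LinearMap.sum_apply,
      LinearMap.comp_apply, LinearMap.proj_apply]
  have hle : V0 L Z F Γ ≤ (LinearMap.ker lf).map Φ := by
    apply Submodule.span_le.mpr
    rintro _ ⟨y, rfl⟩
    refine ⟨(algebraMap O L ((p : O) ^ Z.c))⁻¹ • (algebraMap O L (cc y),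
      fun i => algebraMap O L (d y i)), ?_, ?_⟩
    · apply Submodule.smul_mem
      rw [LinearMap.mem_ker, hlf]
      change ∑ i, algebraMap O L (μ i) * algebraMap O L (d y i) = 0
      simp_rw [← map_mul]
      rw [← map_sum, hμ y, map_zero]
    · rw [map_smul, hΦ]
      change (algebraMap O L ((p : O) ^ Z.c))⁻¹ • (algebraMap O L (cc y) •
        cl O (lg (F.map (algebraMap O L))) + ∑ i, algebraMap O L (d y i) • cl O (g i)) = _
      simp_rw [algebraMap_smul]
      rw [← h y, ← algebraMap_smul L ((p : O) ^ Z.c), smul_smul, inv_mul_cancel₀ hpc, one_smul]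
  have h2 : Module.finrank L (V0 L Z F Γ) ≤ Module.finrank L ((LinearMap.ker lf).map Φ) :=
    Submodule.finrank_mono hle
  have h3 : Module.finrank L ((LinearMap.ker lf).map Φ) ≤ Module.finrank L (LinearMap.ker lf) :=
    Submodule.finrank_map_le Φ _
  have h4 := LinearMap.finrank_range_add_finrank_ker lf
  have h5 : Module.finrank L (L × (Fin (n - 1) → L)) = n := by
    rw [Module.finrank_prod, Module.finrank_self, Module.finrank_fin_fun]
    omega
  have h6 : 0 < Module.finrank L (LinearMap.range lf) := by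
    rw [Module.finrank_pos_iff_exists_ne_zero]
    by_contra hcon
    push Not at hcon
    apply hlf0
    refine LinearMap.ext fun x => ?_
    exact congrArg Subtype.val (hcon ⟨lf x, LinearMap.mem_range_self _ _⟩)
  omega

end Z

end Crest.Agent.LU
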