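import Mathlib
import Crest.Agent.LUZ_5a
import Crest.Agent.LUZ_3a

/-!
S0351 (blueprint LU), part LUZ, task Z6a: the integral quasi-logarithm `q_y = p^c f ∘ ỹ`.
-/

set_option autoImplicit false

noncomputable section

namespace Crest.Agent.LU

open Crest.LubinTate

namespace Z

variable {p : ℕ} [Fact p.Prime] {n : ℕ} {O : Type} [CommRing O] [IsDomain O]
  [Algebra (WittVector p (GaloisField p n)) O]
  {Γ : FormalGroup (GaloisField p n)} [Γ.IsComm]
  (L : Type) [Field L] [CharZero L] [Algebra O L] [IsFractionRing O L]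
  (Z : PRing p n O) (F : FormalGroup O) [F.IsComm]

/-- `q_y = p^c f ∘ ỹ`. -/
def qq (y : FEnd Γ) : PowerSeries L :=
  PowerSeries.C (algebraMap O L ((p : O) ^ Z.c)) * qs L Z F y.val

private theorem cc_toL {σ : Type*} {a : MvPowerSeries σ O}
    (ha : MvPowerSeries.constantCoeff a = 0) : MvPowerSeries.constantCoeff (toL O L a) = 0 := by
  rw [MvPowerSeries.constantCoeff_map, ha, map_zero]

/-- TASK Z6a. -/
theorem constantCoeff_qq (y : FEnd Γ) : PowerSeries.constantCoeff (qq L Z F y) = 0 := by
  have h : PowerSeries.constantCoeff (qs L Z F y.val) = 0 :=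
    constantCoeff_cmp (constantCoeff_lg _) (cc_toL L (constantCoeff_lft Z y.val))
  rw [qq, map_mul, h, mul_zero]

private theorem derivative_map_aux (s : PowerSeries O) :
    PowerSeries.derivative L (PowerSeries.map (algebraMap O L) s) =
      PowerSeries.map (algebraMap O L) (PowerSeries.derivative O s) := by
  ext i
  rw [PowerSeries.coeff_derivative, PowerSeries.coeff_map, PowerSeries.coeff_map,
    PowerSeries.coeff_derivative, map_mul, map_add, map_natCast, map_one]

private theorem derivative_C_mul_aux (a : L) (s : PowerSeries L) :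
    PowerSeries.derivative L (PowerSeries.C a * s) =
      PowerSeries.C a * PowerSeries.derivative L s := by
  ext i
  rw [PowerSeries.coeff_derivative, PowerSeries.coeff_C_mul, PowerSeries.coeff_C_mul,
    PowerSeries.coeff_derivative, mul_assoc]

/-- `q_y' = p^c ω(ỹ) ỹ'` is integral (`PowerSeries.derivative_subst`, `derivative_lg_map`,
`map_cmp`). -/
theorem exists_q1 (y : FEnd Γ) : ∃ q₁ : PowerSeries O,
    PowerSeries.derivative L (qq L Z F y) = PowerSeries.map (algebraMap O L) q₁ := by
  have ha : PowerSeries.constantCoeff (lft Z y.val) = 0 := constantCoeff_lft Z y.val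
  refine ⟨PowerSeries.C ((p : O) ^ Z.c) *
    ((cmp (om F) (lft Z y.val) : PowerSeries O) * PowerSeries.derivative O (lft Z y.val)), ?_⟩
  have h1 : PowerSeries.derivative L (qs L Z F y.val) =
      (cmp (PowerSeries.map (algebraMap O L) (om F))
        (toL O L (lft Z y.val)) : PowerSeries L) *
        PowerSeries.derivative L (PowerSeries.map (algebraMap O L) (lft Z y.val)) := by
    rw [← derivative_lg_map]
    exact PowerSeries.derivative_subst
      (PowerSeries.HasSubst.of_constantCoeff_zero (cc_toL L ha))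
  have h2 : (cmp (PowerSeries.map (algebraMap O L) (om F))
        (toL O L (lft Z y.val)) : PowerSeries L) =
      PowerSeries.map (algebraMap O L) (cmp (om F) (lft Z y.val) : PowerSeries O) :=
    (map_cmp (algebraMap O L) (om F) ha).symm
  rw [qq, derivative_C_mul_aux, h1, h2, derivative_map_aux, map_mul, map_mul, PowerSeries.map_C]

private theorem fadd_X_aux {R : Type*} [CommRing R] (G : FormalGroup R) :
    fadd G (MvPowerSeries.X 0 : MvPowerSeries (Fin 2) R) (MvPowerSeries.X 1) =
      G.toPowerSeries := by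
  have hid : (![MvPowerSeries.X 0, MvPowerSeries.X 1] : Fin 2 → MvPowerSeries (Fin 2) R) =
      MvPowerSeries.X := by
    funext s
    fin_cases s <;> rfl
  rw [fadd, hid, MvPowerSeries.subst_self, id]

private theorem cmp_qq_aux (y : FEnd Γ) {σ : Type*} {T : MvPowerSeries σ O}
    (hT : MvPowerSeries.constantCoeff T = 0) :
    cmp (qq L Z F y) (toL O L T) = MvPowerSeries.C (algebraMap O L ((p : O) ^ Z.c)) *
      cmp (lg (F.map (algebraMap O L))) (toL O L (cmp (lft Z y.val) T)) := by
  have ha : PowerSeries.constantCoeff (lft Z y.val) = 0 := constantCoeff_lft Z y.val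
  have hT' := cc_toL L hT
  have hs : PowerSeries.HasSubst (toL O L T) := PowerSeries.HasSubst.of_constantCoeff_zero hT'
  have e1 : cmp (qq L Z F y) (toL O L T) =
      cmp (PowerSeries.C (algebraMap O L ((p : O) ^ Z.c))) (toL O L T) *
        cmp (qs L Z F y.val) (toL O L T) := by
    unfold cmp qq
    rw [PowerSeries.subst_mul hs]
  have e2 : cmp (PowerSeries.C (algebraMap O L ((p : O) ^ Z.c))) (toL O L T) =
      MvPowerSeries.C (algebraMap O L ((p : O) ^ Z.c)) := by
    unfold cmp
    rw [← PowerSeries.coe_substAlgHom hs]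
    exact (PowerSeries.substAlgHom hs).commutes _
  have e3 : cmp (qs L Z F y.val) (toL O L T) =
      cmp (lg (F.map (algebraMap O L))) (toL O L (cmp (lft Z y.val) T)) := by
    rw [qs, cmp_assoc _ (cc_toL L ha) hT']
    congr 1
    exact (map_cmp (algebraMap O L) (lft Z y.val) hT).symm
  rw [e1, e2, e3]

/-- The coboundary of `q_y` is integral: `ỹ(F(X,Y))` and `F(ỹ(X), ỹ(Y))` have the same reduction as
`y` is an endomorphism of `Γ` (`lg_sub_inP`, `lg_fadd_toL`, `InP.exists_series` with `N = 0`). -/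
theorem exists_D (hF : F.map Z.r = Γ) (y : FEnd Γ) : ∃ D : MvPowerSeries (Fin 2) O,
    toL O L D = cmp (qq L Z F y) (toL O L F.toPowerSeries) -
      cmp (qq L Z F y) (MvPowerSeries.X 0 : MvPowerSeries (Fin 2) L) -
      cmp (qq L Z F y) (MvPowerSeries.X 1 : MvPowerSeries (Fin 2) L) := by
  have ha : PowerSeries.constantCoeff (lft Z y.val) = 0 := constantCoeff_lft Z y.val
  have hX : ∀ i : Fin 2, MvPowerSeries.constantCoeff
      (MvPowerSeries.X i : MvPowerSeries (Fin 2) O) = 0 := fun i => MvPowerSeries.constantCoeff_X i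
  have hXr : ∀ i : Fin 2, MvPowerSeries.constantCoeff
      (MvPowerSeries.X i : MvPowerSeries (Fin 2) (GaloisField p n)) = 0 :=
    fun i => MvPowerSeries.constantCoeff_X i
  have hXL : ∀ i : Fin 2, (MvPowerSeries.X i : MvPowerSeries (Fin 2) L) =
      toL O L (MvPowerSeries.X i : MvPowerSeries (Fin 2) O) := fun i =>
    (MvPowerSeries.map_X (algebraMap O L) i).symm
  have hyr : PowerSeries.map Z.r (lft Z y.val) = y.val := map_lft Z y.prop.1
  have h0 : MvPowerSeries.constantCoeff (cmp (lft Z y.val) F.toPowerSeries) = 0 :=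
    constantCoeff_cmp ha F.zero_constantCoeff
  have h1 : ∀ i, MvPowerSeries.constantCoeff
      (cmp (lft Z y.val) (MvPowerSeries.X i : MvPowerSeries (Fin 2) O)) = 0 := fun i =>
    constantCoeff_cmp ha (hX i)
  have hred : ∀ {T : MvPowerSeries (Fin 2) O}, MvPowerSeries.constantCoeff T = 0 →
      MvPowerSeries.map Z.r (cmp (lft Z y.val) T) = cmp y.val (MvPowerSeries.map Z.r T) := by
    intro T hT
    rw [map_cmp Z.r _ hT, hyr]
  have hΓ : MvPowerSeries.map Z.r F.toPowerSeries = Γ.toPowerSeries := by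
    rw [← hF, FormalGroup.map_toPowerSeries]
  have h2 : MvPowerSeries.map Z.r (cmp (lft Z y.val) F.toPowerSeries) =
      MvPowerSeries.map Z.r (fadd F (cmp (lft Z y.val) (MvPowerSeries.X 0))
        (cmp (lft Z y.val) (MvPowerSeries.X 1))) := by
    rw [map_fadd F Z.r (h1 0) (h1 1), hF, hred F.zero_constantCoeff, hred (hX 0), hred (hX 1), hΓ,
      MvPowerSeries.map_X, MvPowerSeries.map_X, ← fadd_X_aux Γ]
    exact hom_fadd y.prop (hXr 0) (hXr 1)
  have h3 := lg_sub_inP (L := L) (F := F) Z h0 (constantCoeff_fadd F (h1 0) (h1 1)) h2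
  obtain ⟨t, ht⟩ := h3.exists_series
  refine ⟨MvPowerSeries.C ((p : O) ^ 0) * t, ?_⟩
  rw [← ht, hXL 0, hXL 1, cmp_qq_aux L Z F y F.zero_constantCoeff, cmp_qq_aux L Z F y (hX 0),
    cmp_qq_aux L Z F y (hX 1), lg_fadd_toL F (h1 0) (h1 1)]
  ring

theorem cl_qq (y : FEnd Γ) : cl O (qq L Z F y) = ((p : O) ^ Z.c) • cls L Z F y := by
  have h : qq L Z F y = ((p : O) ^ Z.c) • qs L Z F y.val := by
    ext i
    rw [qq, PowerSeries.coeff_C_mul]
    change _ = ((p : O) ^ Z.c) • PowerSeries.coeff i (qs L Z F y.val)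
    rw [Algebra.smul_def]
  rw [h]
  rfl

/-- An integral series is bounded. -/
theorem cl_map (s : PowerSeries O) : cl O (PowerSeries.map (algebraMap O L) s) = 0 := by
  refine (Submodule.Quotient.mk_eq_zero _).2 ?_
  refine ⟨1, one_ne_zero, fun i => ⟨PowerSeries.coeff i s, ?_⟩⟩
  rw [PowerSeries.coeff_map, map_one, one_mul]

end Z

end Crest.Agent.LU
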