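import Mathlib
import Crest.Agent.LUZ_6a
import Crest.Agent.LUZ_2e

/-!
S0351 (blueprint LU), part LUZ, task Z6b: the law `ψ⁻¹ F(ψX, ψY)` for `ψ = X +_F [p^{k+c}] ỹ`
is congruent modulo `p^{2k-1}` to `F - p^k D/f'(F)`.
-/

set_option autoImplicit false

noncomputable section

namespace Crest.Agent.LU

open Crest.LubinTate

namespace Z

variable {p : ℕ} [Fact p.Prime] {n : ℕ} {O : Type} [CommRing O] [IsDomain O]
  [Algebra (WittVector p (GaloisField p n)) O]
  {Γ : FormalGroup (GaloisField p n)} [Γ.IsComm]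
  {L : Type} [Field L] [CharZero L] [Algebra O L] [IsFractionRing O L]
  (Z : PRing p n O) (F : FormalGroup O) [F.IsComm]

/-- `ψ = X +_F [p^{k+c}](ỹ)`. -/
def psi (y : FEnd Γ) (k : ℕ) : PowerSeries O :=
  fadd F (PowerSeries.X : PowerSeries O) (cmp (mulSeries F (p ^ (k + Z.c))) (lft Z y.val))

/-- TASK Z6b. -/
theorem constantCoeff_psi (y : FEnd Γ) (k : ℕ) :
    PowerSeries.constantCoeff (psi Z F y k) = 0 := by
  exact constantCoeff_fadd F PowerSeries.constantCoeff_X
    (constantCoeff_cmp (constantCoeff_mulSeries F _) (constantCoeff_lft Z _))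

/-- `ψ` reduces to `g = 1 + p^{k+c} y`. -/
theorem map_psi (hF : F.map Z.r = Γ) (y : FEnd Γ) (k : ℕ) :
    PowerSeries.map Z.r (psi Z F y k) = (1 + ((p ^ (k + Z.c) : ℕ) : FEnd Γ) * y).val := by
  have hu : MvPowerSeries.constantCoeff
      (cmp (mulSeries F (p ^ (k + Z.c))) (lft Z y.val) : MvPowerSeries Unit O) = 0 :=
    constantCoeff_cmp (constantCoeff_mulSeries F _) (constantCoeff_lft Z _)
  have h1 := map_fadd F Z.r (σ := Unit) (a := (PowerSeries.X : PowerSeries O))
    PowerSeries.constantCoeff_X hu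
  have h2 : MvPowerSeries.map Z.r (PowerSeries.X : PowerSeries O) =
      (PowerSeries.X : PowerSeries (GaloisField p n)) := PowerSeries.map_X _
  have h3 : MvPowerSeries.map Z.r
      (cmp (mulSeries F (p ^ (k + Z.c))) (lft Z y.val) : MvPowerSeries Unit O) =
      cmp (mulSeries Γ (p ^ (k + Z.c))) y.val := by
    rw [map_cmp Z.r _ (constantCoeff_lft Z _), ← mulSeries_map, hF]
    have h4 : MvPowerSeries.map Z.r (lft Z y.val) = y.val := map_lft Z y.prop.1
    rw [h4]
  rw [h2, h3, hF] at h1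
  have h5 : (1 + ((p ^ (k + Z.c) : ℕ) : FEnd Γ) * y).val =
      fadd Γ (PowerSeries.X : PowerSeries (GaloisField p n))
        (cmp (mulSeries Γ (p ^ (k + Z.c))) y.val) := by
    rw [FEnd.val_add, FEnd.val_one, FEnd.val_mul, FEnd.val_natCast]
  rw [h5]
  exact h1

/-- The linear coefficient of `ψ` is `1 + p^{k+c} ỹ_1`, a unit. -/
theorem isUnit_psi (y : FEnd Γ) {k : ℕ} (hk : 1 ≤ k) :
    IsUnit (PowerSeries.coeff 1 (psi Z F y k)) := by
  have hu : PowerSeries.constantCoeff
      (cmp (mulSeries F (p ^ (k + Z.c))) (lft Z y.val) : PowerSeries O) = 0 :=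
    constantCoeff_cmp (constantCoeff_mulSeries F _) (constantCoeff_lft Z _)
  have h1 : PowerSeries.coeff 1 (psi Z F y k) =
      1 + ((p ^ (k + Z.c) : ℕ) : O) * PowerSeries.coeff 1 (lft Z y.val) := by
    unfold psi
    rw [coeff_one_fadd F PowerSeries.constantCoeff_X hu, PowerSeries.coeff_one_X,
      coeff_one_cmp _ (constantCoeff_lft Z _), coeff_one_mulSeries]
  rw [h1]
  apply Z.test.isUnit
  rw [map_add, map_one, map_mul, map_natCast, Nat.cast_pow, CharP.cast_eq_zero,
    zero_pow (by omega), zero_mul, add_zero]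
  exact one_ne_zero

/-- `f(ψ(T)) = f(T) + p^k q_y(T)` (`lg_fadd_toL`, `lg_mulSeries`, `cmp_assoc`, `cmp_fadd`). -/
theorem lg_psi (y : FEnd Γ) (k : ℕ) {σ : Type*} {T : MvPowerSeries σ O}
    (hT : MvPowerSeries.constantCoeff T = 0) :
    cmp (lg (F.map (algebraMap O L))) (toL O L (cmp (psi Z F y k) T)) =
      cmp (lg (F.map (algebraMap O L))) (toL O L T) +
        MvPowerSeries.C (algebraMap O L ((p : O) ^ k)) * cmp (qq L Z F y) (toL O L T) := by
  have hy0 := constantCoeff_lft Z y.val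
  have hm0 := constantCoeff_mulSeries F (p ^ (k + Z.c))
  have hu : PowerSeries.constantCoeff
      (cmp (mulSeries F (p ^ (k + Z.c))) (lft Z y.val) : PowerSeries O) = 0 :=
    constantCoeff_cmp hm0 hy0
  have hyT : MvPowerSeries.constantCoeff (cmp (lft Z y.val) T) = 0 := constantCoeff_cmp hy0 hT
  have h1 : cmp (psi Z F y k) T =
      fadd F T (cmp (mulSeries F (p ^ (k + Z.c))) (cmp (lft Z y.val) T)) := by
    unfold psi
    rw [cmp_fadd F PowerSeries.constantCoeff_X hu hT, X_cmp hT, cmp_assoc _ hy0 hT]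
  have hTL : MvPowerSeries.constantCoeff (toL O L T) = 0 := by
    rw [MvPowerSeries.constantCoeff_map, hT, map_zero]
  have hyL : PowerSeries.constantCoeff (toL O L (lft Z y.val) : PowerSeries L) = 0 := by
    have := MvPowerSeries.constantCoeff_map (algebraMap O L) (lft Z y.val : MvPowerSeries Unit O)
    refine this.trans ?_
    have h2 : MvPowerSeries.constantCoeff (lft Z y.val : MvPowerSeries Unit O) = 0 := hy0
    rw [h2, map_zero]
  have h2 : cmp (qq L Z F y) (toL O L T) = MvPowerSeries.C (algebraMap O L ((p : O) ^ Z.c)) *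
      cmp (lg (F.map (algebraMap O L))) (toL O L (cmp (lft Z y.val) T)) := by
    have hs := PowerSeries.HasSubst.of_constantCoeff_zero hTL
    have e1 : toL O L (cmp (lft Z y.val) T) =
        cmp (toL O L (lft Z y.val) : PowerSeries L) (toL O L T) :=
      map_cmp (algebraMap O L) _ hT
    rw [e1, ← cmp_assoc _ hyL hTL]
    show PowerSeries.subst _ (PowerSeries.C _ * qs L Z F y.val) = _
    rw [PowerSeries.subst_mul hs, PowerSeries.subst_C (S := L)]
    rfl
  rw [h1, lg_fadd_toL F hT (constantCoeff_cmp hm0 hyT), lg_mulSeries F _ hyT, h2, ← mul_assoc,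
    ← map_mul, ← map_mul, ← pow_add]
  have h3 : ((p ^ (k + Z.c) : ℕ) : L) = algebraMap O L ((p : O) ^ (k + Z.c)) := by
    rw [map_pow, map_natCast, Nat.cast_pow]
  rw [h3]

/-- TASK Z6b (main).  Let `D` be the coboundary of `q_y` and `k ≥ 1`.  There is a law `G'` over `O`
with `ψ : G' → F`, reducing to `Γ`, congruent modulo `p^{2k-1}` to `T_k = F - p^k D (dY F)(F)`.
Proof: `G'` from `exists_conj`, `G'.map r = Γ` by `source_unique` (both are sources of the
automorphism `g` of `Γ`, `map_psi`).  With `E = -(D (dY F)(F))`, `T_k = F + p^k E`,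
`f(ψ(T_k)) = f(T_k) + p^k q(T_k)` (`lg_psi`); `f(T_k) = f(F) + p^k E ω(F) + O(p^{2k-1})`
`= f(F) - p^k D + O(p^{2k-1})` (`expand`, `om_mul_dY`), `p^k q(T_k) = p^k q(F) + O(p^{2k})` (`expand_one`),
so `f(ψ(T_k)) = f(X) + f(Y) + p^k (q(X) + q(Y)) + O(p^{2k-1}) = f(ψ(X)) + f(ψ(Y)) + O(p^{2k-1})
= f(ψ(G')) + O(p^{2k-1})` (`ψ(G') = F(ψX, ψY)`).  The difference `z = ψ(T_k) -_F ψ(G')` in the group
`FPt F (Fin 2)` reduces to `0` (`T_k ≡ F`, `G'` both reduce to `Γ`), so by `lg_iso`
`z ∈ p^{2k-1}`, hence `ψ(T_k) ≡ ψ(G')` modulo `p^{2k-1}` (`fadd F z b ≡ b`), and `T_k ≡ G'` by composing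
with the inverse of `ψ` modulo `p^{2k-1}` (`exists_cmp_inv`, `cmp_congr`). -/
theorem exists_conj_law (hF : F.map Z.r = Γ) (y : FEnd Γ) {D : MvPowerSeries (Fin 2) O}
    (hD : toL O L D = cmp (qq L Z F y) (toL O L F.toPowerSeries) -
      cmp (qq L Z F y) (MvPowerSeries.X 0 : MvPowerSeries (Fin 2) L) -
      cmp (qq L Z F y) (MvPowerSeries.X 1 : MvPowerSeries (Fin 2) L)) {k : ℕ} (hk : 1 ≤ k) :
    ∃ G' : FormalGroup O, IsFGHom G' F (psi Z F y k) ∧ G'.map Z.r = Γ ∧
      ∀ d, (p : O) ^ (2 * k - 1) ∣ MvPowerSeries.coeff d (G'.toPowerSeries -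
        (F.toPowerSeries + MvPowerSeries.C ((p : O) ^ k) *
          (-(D * cmp (dY F) F.toPowerSeries)))) := by
  classical
  set ψ : PowerSeries O := psi Z F y k with hψ
  have hψ0 : PowerSeries.constantCoeff ψ = 0 := constantCoeff_psi Z F y k
  have hψ1 : IsUnit (PowerSeries.coeff 1 ψ) := isUnit_psi Z F y hk
  obtain ⟨G', -, hG'⟩ := exists_conj F hψ0 hψ1
  obtain ⟨χ, -, -, -, hχ⟩ := exists_cmp_inv hψ0 hψ1
  -- the reduction
  have hred : G'.map Z.r = Γ := by
    have h1 := hom_map hG' Z.r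
    have h2 := map_psi Z F hF y k
    rw [hF] at h1
    have h3 : PowerSeries.map Z.r ψ = (1 + ((p ^ (k + Z.c) : ℕ) : FEnd Γ) * y).val := h2
    have h4 : IsFGHom Γ Γ (PowerSeries.map Z.r ψ) := by
      rw [h3]
      exact (1 + ((p ^ (k + Z.c) : ℕ) : FEnd Γ) * y).prop
    refine source_unique ?_ h1 h4
    rw [PowerSeries.coeff_map]
    exact hψ1.map Z.r
  refine ⟨G', hG', hred, ?_⟩
  -- abbreviations
  set q : PowerSeries L := qq L Z F y with hq
  set f : PowerSeries L := lg (F.map (algebraMap O L)) with hf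
  have hq0 : PowerSeries.constantCoeff q = 0 := constantCoeff_qq L Z F y
  have hf0 : PowerSeries.constantCoeff f = 0 := constantCoeff_lg _
  have hFc : MvPowerSeries.constantCoeff F.toPowerSeries = 0 := F.zero_constantCoeff
  have hFLc : MvPowerSeries.constantCoeff (toL O L F.toPowerSeries) = 0 := by
    rw [MvPowerSeries.constantCoeff_map, hFc, map_zero]
  have hX : ∀ i : Fin 2, MvPowerSeries.constantCoeff
      (MvPowerSeries.X i : MvPowerSeries (Fin 2) O) = 0 := fun i => MvPowerSeries.constantCoeff_X i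
  have hXL : ∀ i : Fin 2, MvPowerSeries.constantCoeff
      (MvPowerSeries.X i : MvPowerSeries (Fin 2) L) = 0 := fun i => MvPowerSeries.constantCoeff_X i
  have hXm : ∀ i : Fin 2, toL O L (MvPowerSeries.X i : MvPowerSeries (Fin 2) O) =
      MvPowerSeries.X i := fun i => MvPowerSeries.map_X _ i
  have hD0 : MvPowerSeries.constantCoeff D = 0 := by
    apply IsFractionRing.injective O L
    have h1 := congrArg MvPowerSeries.constantCoeff hD
    rw [MvPowerSeries.constantCoeff_map, map_sub, map_sub, constantCoeff_cmp hq0 hFLc,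
      constantCoeff_cmp hq0 (hXL 0), constantCoeff_cmp hq0 (hXL 1), sub_zero, sub_zero] at h1
    rw [h1, map_zero]
  set E : MvPowerSeries (Fin 2) O := -(D * cmp (dY F) F.toPowerSeries) with hE
  have hE0 : MvPowerSeries.constantCoeff E = 0 := by
    rw [hE, map_neg, map_mul, hD0, zero_mul, neg_zero]
  set T : MvPowerSeries (Fin 2) O := F.toPowerSeries + MvPowerSeries.C ((p : O) ^ k) * E with hT
  have hT0 : MvPowerSeries.constantCoeff T = 0 := by
    rw [hT, map_add, map_mul, hFc, hE0, mul_zero, add_zero]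
  have hGc : MvPowerSeries.constantCoeff G'.toPowerSeries = 0 := G'.zero_constantCoeff
  -- (a)
  have ha := lg_psi (L := L) Z F y k hT0
  -- (b)
  have hb := expand (L := L) Z hk (derivative_lg_map (L := L) F) hFc hE0
  have hEom : E * cmp (om F) F.toPowerSeries = -D := by
    have hs := PowerSeries.HasSubst.of_constantCoeff_zero hFc
    have h1 : cmp (om F) F.toPowerSeries * cmp (dY F) F.toPowerSeries = 1 := by
      show PowerSeries.subst _ _ * PowerSeries.subst _ _ = 1
      rw [← PowerSeries.subst_mul hs, om_mul_dY, ← PowerSeries.coe_substAlgHom hs, map_one]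
    rw [hE]
    calc _ = -(D * (cmp (om F) F.toPowerSeries * cmp (dY F) F.toPowerSeries)) := by ring
      _ = -D := by rw [h1, mul_one]
  rw [mul_assoc, hEom] at hb
  -- (c)
  obtain ⟨q₁, hq₁⟩ := exists_q1 L Z F y
  have hc := (expand_one (L := L) Z hk hq₁ hFc hE0).C_mul k
  -- `f(F) = f(X) + f(Y)`
  have hfF : cmp f (toL O L F.toPowerSeries) =
      cmp f (MvPowerSeries.X 0 : MvPowerSeries (Fin 2) L) +
        cmp f (MvPowerSeries.X 1 : MvPowerSeries (Fin 2) L) := by
    have h1 := (hom_lg (F.map (algebraMap O L))).2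
    have h2 := fadd_Ga (A := L) (constantCoeff_cmp hf0 (hXL 0)) (constantCoeff_cmp hf0 (hXL 1))
    exact h1.trans h2
  -- (d)
  have hGF : cmp ψ G'.toPowerSeries =
      fadd F (cmp ψ (MvPowerSeries.X 0 : MvPowerSeries (Fin 2) O))
        (cmp ψ (MvPowerSeries.X 1 : MvPowerSeries (Fin 2) O)) := hG'.2
  have hd : cmp f (toL O L (cmp ψ G'.toPowerSeries)) =
      (cmp f (MvPowerSeries.X 0 : MvPowerSeries (Fin 2) L) +
        MvPowerSeries.C (algebraMap O L ((p : O) ^ k)) *
          cmp q (MvPowerSeries.X 0 : MvPowerSeries (Fin 2) L)) +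
      (cmp f (MvPowerSeries.X 1 : MvPowerSeries (Fin 2) L) +
        MvPowerSeries.C (algebraMap O L ((p : O) ^ k)) *
          cmp q (MvPowerSeries.X 1 : MvPowerSeries (Fin 2) L)) := by
    have h0 := lg_psi (L := L) Z F y k (hX 0)
    have h1 := lg_psi (L := L) Z F y k (hX 1)
    rw [hXm] at h0 h1
    rw [hGF, hf, lg_fadd_toL F (constantCoeff_cmp hψ0 (hX 0)) (constantCoeff_cmp hψ0 (hX 1)),
      h0, h1]
  -- the difference of the logarithms
  have hdiff : InP p O (2 * k - 1) (cmp f (toL O L (cmp ψ T)) -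
      cmp f (toL O L (cmp ψ G'.toPowerSeries))) := by
    have h1 := hb.add (hc.mono (show 2 * k - 1 ≤ k + k by omega))
    have h2 : toL O L (MvPowerSeries.C ((p : O) ^ k) * -D) =
        -(MvPowerSeries.C (algebraMap O L ((p : O) ^ k)) * toL O L D) := by
      rw [mul_neg]
      have e1 := map_neg (MvPowerSeries.map (σ := Fin 2) (algebraMap O L))
        (MvPowerSeries.C ((p : O) ^ k) * D)
      refine e1.trans ?_
      rw [map_mul, MvPowerSeries.map_C]
    have h3 : cmp f (toL O L (cmp ψ T)) - cmp f (toL O L (cmp ψ G'.toPowerSeries)) =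
        cmp f (toL O L T) - cmp f (toL O L F.toPowerSeries) -
          toL O L (MvPowerSeries.C ((p : O) ^ k) * -D) +
        MvPowerSeries.C (algebraMap O L ((p : O) ^ k)) *
          (cmp q (toL O L T) - cmp q (toL O L F.toPowerSeries)) := by
      rw [hd, h2, hD, hfF]
      have ha' : cmp f (toL O L (cmp ψ T)) = cmp f (toL O L T) +
        MvPowerSeries.C (algebraMap O L ((p : O) ^ k)) * cmp q (toL O L T) := ha
      rw [ha']
      ring
    rw [h3]
    exact h1
  -- (e)
  have hmapT : MvPowerSeries.map Z.r T = MvPowerSeries.map Z.r G'.toPowerSeries := by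
    have h1 : MvPowerSeries.map Z.r T = MvPowerSeries.map Z.r F.toPowerSeries := by
      have h2 : Z.r ((p : O) ^ k) = 0 := by
        rw [map_pow, map_natCast, CharP.cast_eq_zero, zero_pow (by omega)]
      rw [hT, map_add, map_mul, MvPowerSeries.map_C, h2, map_zero, zero_mul, add_zero]
    have h2 : MvPowerSeries.map Z.r F.toPowerSeries = Γ.toPowerSeries := by
      rw [← hF]; rfl
    have h3 : MvPowerSeries.map Z.r G'.toPowerSeries = Γ.toPowerSeries := by
      rw [← hred]; rfl
    rw [h1, h2, h3]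
  have hac := constantCoeff_cmp hψ0 hT0
  have hbc := constantCoeff_cmp hψ0 hGc
  obtain ⟨z, hz0, hzm, hz⟩ := sub_coeffIn Z (F := F) hac hbc (by
    rw [map_cmp Z.r ψ hT0, map_cmp Z.r ψ hGc, hmapT])
  have hzl : InP p O (2 * k - 1) (cmp (lg (F.map (algebraMap O L))) (toL O L z)) := by
    have h1 : cmp f (toL O L (cmp ψ T)) =
        cmp f (toL O L z) + cmp f (toL O L (cmp ψ G'.toPowerSeries)) := by
      rw [hz, hf, lg_fadd_toL F hz0 hbc]
    rw [h1, add_sub_cancel_right] at hdiff
    exact hdiff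
  have hzp := lg_iso Z (L := L) F hz0 hzm (N := 2 * k - 1) (by omega) hzl
  set J : Ideal O := Ideal.span {(p : O) ^ (2 * k - 1)} with hJ
  have hzJ : MvPowerSeries.map (Ideal.Quotient.mk J) z = 0 := by
    ext d
    rw [MvPowerSeries.coeff_map, map_zero]
    exact Ideal.Quotient.eq_zero_iff_mem.2 (Ideal.mem_span_singleton.2 (hzp d))
  have hab : CoeffIn J (cmp ψ T - cmp ψ G'.toPowerSeries) := by
    have h1 : MvPowerSeries.map (Ideal.Quotient.mk J) (cmp ψ T) =
        MvPowerSeries.map (Ideal.Quotient.mk J) (cmp ψ G'.toPowerSeries) := by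
      rw [hz, map_fadd F (Ideal.Quotient.mk J) hz0 hbc, hzJ]
      apply zero_fadd
      rw [MvPowerSeries.constantCoeff_map, hbc, map_zero]
    intro d
    rw [← Ideal.Quotient.eq_zero_iff_mem, map_sub, map_sub, sub_eq_zero]
    have h2 := congrArg (MvPowerSeries.coeff d) h1
    rw [MvPowerSeries.coeff_map, MvPowerSeries.coeff_map] at h2
    exact h2
  -- (f)
  have hfin := cmp_congr J χ hac hbc hab
  have hcan : ∀ {a : MvPowerSeries (Fin 2) O}, MvPowerSeries.constantCoeff a = 0 →
      cmp χ (cmp ψ a) = a := by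
    intro a ha0
    rw [← cmp_assoc χ hψ0 ha0, hχ]
    exact X_cmp ha0
  rw [hcan hT0, hcan hGc] at hfin
  intro d
  have h1 := Ideal.mem_span_singleton.1 (hfin d)
  have h2 : MvPowerSeries.coeff d (G'.toPowerSeries - T) =
      -MvPowerSeries.coeff d (T - G'.toPowerSeries) := by
    rw [map_sub, map_sub, neg_sub]
  rw [h2]
  exact h1.neg_right

end Z

end Crest.Agent.LU
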