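import Mathlib
import Crest.Agent.LUZ_6b
import Crest.Agent.LUZ_3c
import Crest.Agent.LUZ_3d

/-!
S0351 (blueprint LU), part LUZ, task Z6c: `x ∘ φ_g ≡ x + p^k d` modulo `p^{2k-1}`.
-/

set_option autoImplicit false

noncomputable section

namespace Crest.Agent.LU

open Crest.LubinTate

namespace Z

variable {p : ℕ} [Fact p.Prime] {n : ℕ} {Γ : FormalGroup (GaloisField p n)} [Γ.IsComm]
  {H : FormalGroup (LTRing p n)} [H.IsComm] {O : Type} [CommRing O] [IsDomain O]
  [Algebra (WittVector p (GaloisField p n)) O] (Z : PRing p n O)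
  (x : LTRing p n →ₐ[WittVector p (GaloisField p n)] O)
  {L : Type} [Field L] [CharZero L] [Algebra O L] [IsFractionRing O L]

/-- Specialisation `ε ↦ π` in `O/I` when `π² ∈ I`. -/
def sp {O : Type} [CommRing O] (π : O) (I : Ideal O) (h : π ^ 2 ∈ I) :
    DualNumber O →+* O ⧸ I where
  toFun z := Ideal.Quotient.mk I (z.fst + π * z.snd)
  map_one' := by simp
  map_zero' := by simp
  map_add' a b := by
    rw [← map_add]
    congr 1
    simp only [TrivSqZeroExt.fst_add, TrivSqZeroExt.snd_add]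
    ring
  map_mul' a b := by
    rw [← map_mul, Ideal.Quotient.eq]
    have e : (a * b).fst + π * (a * b).snd - (a.fst + π * a.snd) * (b.fst + π * b.snd) =
        -(a.snd * b.snd) * π ^ 2 := by
      simp only [TrivSqZeroExt.fst_mul, TrivSqZeroExt.snd_mul, smul_eq_mul,
        MulOpposite.smul_eq_mul_unop, MulOpposite.unop_op]
      ring
    rw [e]
    exact I.mul_mem_left _ h

/-- TASK Z6c.  For `g = 1 + p^{k+c} y` and a stabilizer map `φ_g`: `x(φ_g a) ≡ x(a) + p^k d(a)` modulo
`p^{2k-1}`, `d(a) = (φ a).snd`.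
Proof: `B = O/I`, `I = (p^{2k-1})` is a test ring (`isTest_quot`, `I ⊆ ker r` as `2k-1 ≥ 1`).  The
specialisation `s = sp (p^k) I` is a `W(k)`-algebra map `O[ε] → B` over the residue maps, and pushes
`θ = X + ε η : H.map φ → G` to a homomorphism `H.map (s ∘ φ) → G.map s` reducing to `X`
(`r(p^k η) = 0`).  By `exists_conj_law` and the formula `hG` for `G`, `G.map s = G'.map (mk I)` (the
series `F + p^k E`), and `ψ : G'.map mk → H.map (mk ∘ x)`.  So `ψ ∘ θ : H.map (s ∘ φ) → H.map (mk ∘ x)`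
reduces to `g` (`map_psi`).  On the other hand a lift `ϑ : H.map φ_g → H` of `g` pushed forward along
`mk ∘ x` is a homomorphism `H.map (mk ∘ x ∘ φ_g) → H.map (mk ∘ x)` reducing to `g`, with inverse `ϑ'`
(`exists_cmp_inv`, `hom_inverse`).  `ϑ' ∘ ψ ∘ θ` reduces to `X`, so `univ_unique` gives
`s ∘ φ = mk ∘ x ∘ φ_g`. -/
theorem key (hn : 1 ≤ n) (hΓ : mulSeries Γ p = PowerSeries.X ^ (p ^ n))
    (hU : IsUniversalDeformation p n Γ H) (hx : Z.r.comp x.toRingHom = LTRing.residue p n)
    (y : FEnd Γ) {D : MvPowerSeries (Fin 2) O}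
    (hD : toL O L D = cmp (qq L Z (H.map x.toRingHom) y) (toL O L (H.map x.toRingHom).toPowerSeries) -
      cmp (qq L Z (H.map x.toRingHom) y) (MvPowerSeries.X 0 : MvPowerSeries (Fin 2) L) -
      cmp (qq L Z (H.map x.toRingHom) y) (MvPowerSeries.X 1 : MvPowerSeries (Fin 2) L))
    {G : FormalGroup (DualNumber O)}
    (hG : G.toPowerSeries = mkD (H.map x.toRingHom).toPowerSeries
      (-(D * cmp (dY (H.map x.toRingHom)) (H.map x.toRingHom).toPowerSeries)))
    {φ : LTRing p n →ₐ[WittVector p (GaloisField p n)] DualNumber O}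
    (hφ : ∀ a, (φ a).fst = x a) {η : PowerSeries O} (hη : PowerSeries.constantCoeff η = 0)
    (hθ : IsFGHom (H.map φ.toRingHom) G (mkD (PowerSeries.X : PowerSeries O) η))
    {k : ℕ} (hk : 1 ≤ k) {φg : LTRing p n →ₐ[WittVector p (GaloisField p n)] LTRing p n}
    (hφg : IsStabilizerMap p n H (1 + ((p ^ (k + Z.c) : ℕ) : FEnd Γ) * y).val φg)
    (a : LTRing p n) :
    (p : O) ^ (2 * k - 1) ∣ x (φg a) - (x a + (p : O) ^ k * (φ a).snd) := by
  have hpG : ((p : ℕ) : GaloisField p n) = 0 := CharP.cast_eq_zero (GaloisField p n) p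
  set I : Ideal O := Ideal.span {(p : O) ^ (2 * k - 1)} with hI
  have hIr : ∀ b ∈ I, Z.r b = 0 := by
    intro b hb
    rw [hI, Ideal.mem_span_singleton] at hb
    obtain ⟨c, rfl⟩ := hb
    rw [map_mul, map_pow, map_natCast, hpG, zero_pow (by omega), zero_mul]
  have hpk : ((p : O) ^ k) ^ 2 ∈ I := by
    rw [hI, Ideal.mem_span_singleton, ← pow_mul]
    exact pow_dvd_pow _ (by omega)
  have hB := isTest_quot Z.test I hIr
  set r' : (O ⧸ I) →+* GaloisField p n := Ideal.Quotient.lift I Z.r hIr with hr'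
  have hrmk : ∀ b : O, r' (Ideal.Quotient.mk I b) = Z.r b := fun b => rfl
  set s : DualNumber O →+* O ⧸ I := sp ((p : O) ^ k) I hpk with hs
  have hsv : ∀ z : DualNumber O, s z = Ideal.Quotient.mk I (z.fst + (p : O) ^ k * z.snd) :=
    fun z => rfl
  have hrs : ∀ z : DualNumber O, r' (s z) = Z.r z.fst := by
    intro z
    rw [hsv, hrmk, map_add, map_mul, map_pow, map_natCast, hpG, zero_pow (by omega), zero_mul,
      add_zero]
  let mkA : O →ₐ[WittVector p (GaloisField p n)] (O ⧸ I) :=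
    Ideal.Quotient.mkₐ (WittVector p (GaloisField p n)) I
  -- the two algebra maps
  let x₁ : LTRing p n →ₐ[WittVector p (GaloisField p n)] (O ⧸ I) :=
    { s.comp φ.toRingHom with
      commutes' := by
        intro w
        show s (φ (algebraMap _ _ w)) = _
        rw [AlgHom.commutes, hsv]
        have h1 : (algebraMap (WittVector p (GaloisField p n)) (DualNumber O) w).fst =
            algebraMap (WittVector p (GaloisField p n)) O w := rfl
        have h2 : (algebraMap (WittVector p (GaloisField p n)) (DualNumber O) w).snd = 0 := rfl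
        rw [h1, h2, mul_zero, add_zero]
        rfl }
  let xm : LTRing p n →ₐ[WittVector p (GaloisField p n)] (O ⧸ I) := mkA.comp x
  let x₂ : LTRing p n →ₐ[WittVector p (GaloisField p n)] (O ⧸ I) := xm.comp φg
  have hrx : ∀ b, Z.r (x b) = LTRing.residue p n b := fun b =>
    congrArg (fun f => f b) hx
  have hx1 : r'.comp x₁.toRingHom = LTRing.residue p n := by
    ext b
    show r' (s (φ b)) = _
    rw [hrs, hφ, hrx]
  have hxm : r'.comp xm.toRingHom = LTRing.residue p n := by
    ext b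
    show r' (Ideal.Quotient.mk I (x b)) = _
    rw [hrmk, hrx]
  have hx2 : r'.comp x₂.toRingHom = LTRing.residue p n := by
    ext b
    show r' (Ideal.Quotient.mk I (x (φg b))) = _
    rw [hrmk, hrx]
    exact congrArg (fun f => f b) hφg.1
  -- the law `F`
  have hF : (H.map x.toRingHom).map Z.r = Γ := by
    rw [map_map, hx]
    exact hU.1
  obtain ⟨G', hG'ψ, hG'r, hG'd⟩ := exists_conj_law (L := L) Z (H.map x.toRingHom) hF y hD hk
  have hGG : G.map s = G'.map (Ideal.Quotient.mk I) := by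
    apply FormalGroup.ext
    show MvPowerSeries.map s G.toPowerSeries =
      MvPowerSeries.map (Ideal.Quotient.mk I) G'.toPowerSeries
    ext d
    rw [MvPowerSeries.coeff_map, MvPowerSeries.coeff_map, hG, coeff_mkD, hsv]
    refine (Ideal.Quotient.eq.2 ?_).symm
    rw [hI, Ideal.mem_span_singleton]
    have h1 := hG'd d
    rw [map_sub, map_add, MvPowerSeries.coeff_C_mul] at h1
    rw [TrivSqZeroExt.fst_add, TrivSqZeroExt.snd_add, TrivSqZeroExt.fst_inl,
      TrivSqZeroExt.fst_inr, TrivSqZeroExt.snd_inl, TrivSqZeroExt.snd_inr, add_zero, zero_add]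
    exact h1
  -- `θs : H.map x₁ → G'.map mk`
  have hθs : IsFGHom (H.map x₁.toRingHom) (G'.map (Ideal.Quotient.mk I))
      (PowerSeries.map s (mkD (PowerSeries.X : PowerSeries O) η)) := by
    have h1 := hom_map hθ s
    rw [map_map, hGG] at h1
    exact h1
  have hθsr : PowerSeries.map r' (PowerSeries.map s (mkD (PowerSeries.X : PowerSeries O) η)) =
      PowerSeries.X := by
    ext i
    rw [PowerSeries.coeff_map, PowerSeries.coeff_map, hrs]
    have h1 : (PowerSeries.coeff i (mkD (PowerSeries.X : PowerSeries O) η)).fst =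
        PowerSeries.coeff i (PowerSeries.X : PowerSeries O) := by
      unfold PowerSeries.coeff
      rw [coeff_mkD, TrivSqZeroExt.fst_add, TrivSqZeroExt.fst_inl, TrivSqZeroExt.fst_inr, add_zero]
    rw [h1, ← PowerSeries.coeff_map, PowerSeries.map_X]
  -- `ψ' : G'.map mk → H.map xm`
  have hψ' : IsFGHom (G'.map (Ideal.Quotient.mk I)) (H.map xm.toRingHom)
      (PowerSeries.map (Ideal.Quotient.mk I) (psi Z (H.map x.toRingHom) y k)) := by
    have h1 := hom_map hG'ψ (Ideal.Quotient.mk I)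
    rw [map_map H] at h1
    exact h1
  set gs : PowerSeries (GaloisField p n) := (1 + ((p ^ (k + Z.c) : ℕ) : FEnd Γ) * y).val with hgs
  have hψ'r : PowerSeries.map r' (PowerSeries.map (Ideal.Quotient.mk I)
      (psi Z (H.map x.toRingHom) y k)) = gs := by
    rw [hgs, ← map_psi Z (H.map x.toRingHom) hF y k]
    ext i
    rw [PowerSeries.coeff_map, PowerSeries.coeff_map, PowerSeries.coeff_map, hrmk]
  -- `ϑm : H.map x₂ → H.map xm`
  obtain ⟨ϑ, hϑ, hϑr⟩ := hφg.2
  have hϑm : IsFGHom (H.map x₂.toRingHom) (H.map xm.toRingHom)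
      (PowerSeries.map xm.toRingHom ϑ) := by
    have h1 := hom_map hϑ xm.toRingHom
    rw [map_map] at h1
    exact h1
  have hϑmr : PowerSeries.map r' (PowerSeries.map xm.toRingHom ϑ) = gs := by
    rw [← hϑr]
    ext i
    rw [PowerSeries.coeff_map, PowerSeries.coeff_map, PowerSeries.coeff_map]
    exact congrArg (fun f => f (PowerSeries.coeff i ϑ)) hxm
  have hunit : IsUnit (PowerSeries.coeff 1 (PowerSeries.map xm.toRingHom ϑ)) := by
    refine hB.isUnit ?_
    show r' (PowerSeries.coeff 1 (PowerSeries.map xm.toRingHom ϑ)) ≠ 0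
    rw [← PowerSeries.coeff_map, hϑmr, hgs, ← FEnd.lin_apply, map_add, map_one, map_mul,
      map_natCast, Nat.cast_pow, hpG, zero_pow (by omega), zero_mul, add_zero]
    exact one_ne_zero
  obtain ⟨χ, hχ0, -, hχ1, hχ2⟩ := exists_cmp_inv hϑm.1 hunit
  have hχ : IsFGHom (H.map xm.toRingHom) (H.map x₂.toRingHom) χ := hom_inverse hϑm hχ0 hχ1 hχ2
  have hfin := hom_comp hχ (hom_comp hψ' hθs)
  have hfinr : PowerSeries.map r' (cmp χ (cmp (PowerSeries.map (Ideal.Quotient.mk I)
      (psi Z (H.map x.toRingHom) y k))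
      (PowerSeries.map s (mkD (PowerSeries.X : PowerSeries O) η)))) = PowerSeries.X := by
    have e1 := map_cmp r' χ (σ := Unit) (a := cmp (PowerSeries.map (Ideal.Quotient.mk I)
      (psi Z (H.map x.toRingHom) y k))
      (PowerSeries.map s (mkD (PowerSeries.X : PowerSeries O) η))) (constantCoeff_cmp hψ'.1 hθs.1)
    have e2 := map_cmp r' (PowerSeries.map (Ideal.Quotient.mk I)
      (psi Z (H.map x.toRingHom) y k)) (σ := Unit)
      (a := PowerSeries.map s (mkD (PowerSeries.X : PowerSeries O) η)) hθs.1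
    have e3 := map_cmp r' χ (σ := Unit) (a := PowerSeries.map xm.toRingHom ϑ) hϑm.1
    have e4 : MvPowerSeries.map r' (PowerSeries.map s (mkD (PowerSeries.X : PowerSeries O) η)) =
      PowerSeries.X := hθsr
    have e5 : MvPowerSeries.map r' (PowerSeries.map xm.toRingHom ϑ) = gs := hϑmr
    have e6 : (MvPowerSeries.map r' (PowerSeries.X : PowerSeries (O ⧸ I)) :
      MvPowerSeries Unit (GaloisField p n)) = PowerSeries.X := PowerSeries.map_X r'
    rw [hψ'r, e4, cmp_X] at e2
    rw [e2] at e1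
    rw [hχ2, e5, e6] at e3
    exact e1.trans e3.symm
  have hxx : x₁ = x₂ := hB.univ_unique hU x₁ x₂ hx1 hx2 _ hfin hfinr
  have h1 : x₁ a = x₂ a := by rw [hxx]
  have h2 : Ideal.Quotient.mk I (x (φg a)) =
      Ideal.Quotient.mk I (x a + (p : O) ^ k * (φ a).snd) := by
    have h3 : x₁ a = Ideal.Quotient.mk I ((φ a).fst + (p : O) ^ k * (φ a).snd) := rfl
    rw [hφ] at h3
    rw [← h3, h1]
    rfl
  have h3 := Ideal.Quotient.eq.1 h2
  rw [hI, Ideal.mem_span_singleton] at h3
  exact h3

end Z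

end Crest.Agent.LU
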