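import Mathlib
import Crest.Agent.LUZ_6c
import Crest.Agent.LUZ_3e
import Crest.Agent.LUZ_4a
import Crest.Agent.LU_B7

/-!
S0351 (blueprint LU), part LUZ, task Z6d: the derivation attached to `y ∈ End Γ` kills a stable
prime; conclusion of the analytic part.
-/

set_option autoImplicit false

noncomputable section

namespace Crest.Agent.LU

open Crest.LubinTate

namespace Z

variable {p : ℕ} [Fact p.Prime] {n : ℕ} {Γ : FormalGroup (GaloisField p n)} [Γ.IsComm]
  {H : FormalGroup (LTRing p n)} [H.IsComm] {O : Type} [CommRing O] [IsDomain O]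
  [Algebra (WittVector p (GaloisField p n)) O] (Z : PRing p n O)
  (x : LTRing p n →ₐ[WittVector p (GaloisField p n)] O)
  (L : Type) [Field L] [CharZero L] [Algebra O L] [IsFractionRing O L]

private theorem Z6d_ord_pow (hΓ : mulSeries Γ p = PowerSeries.X ^ (p ^ n)) (m : ℕ) :
    Ord (n * m) (((p ^ m : ℕ) : FEnd Γ)) := by
  induction m with
  | zero => exact ord_zero_iff _
  | succ m ih =>
    rw [pow_succ, Nat.cast_mul, Nat.mul_succ]
    exact ih.mul (ord_p hΓ)

/-- `1 + p^{k+c} y` is an automorphism of `Γ`, congruent to `X` modulo `X^M` for `k ≥ M`, `k ≥ 1`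
(`p^m y = y ∘ X^{q^m}` has order `≥ q^m ≥ m + 1`; `A7.exists_decomp` or `LUC.coeff_fadd_of_ord`). -/
theorem aut_one_add (hn : 1 ≤ n) (hΓ : mulSeries Γ p = PowerSeries.X ^ (p ^ n)) (y : FEnd Γ)
    {M k : ℕ} (hk : 1 ≤ k) (hM : M ≤ k) :
    IsFGAut Γ (1 + ((p ^ (k + Z.c) : ℕ) : FEnd Γ) * y).val ∧
      ∀ i < M, PowerSeries.coeff i (1 + ((p ^ (k + Z.c) : ℕ) : FEnd Γ) * y).val =
        PowerSeries.coeff i PowerSeries.X := by
  have hord : Ord (n * (k + Z.c)) (((p ^ (k + Z.c) : ℕ) : FEnd Γ) * y) := by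
    have := (Z6d_ord_pow hΓ (k + Z.c)).mul (ord_zero_iff y)
    rwa [add_zero] at this
  have hlt : ∀ i, i ≤ k → i < p ^ (n * (k + Z.c)) := by
    intro i hi
    have h1 : i < p ^ i := Nat.lt_pow_self (Fact.out : p.Prime).one_lt
    refine h1.trans_le (Nat.pow_le_pow_right (Fact.out : p.Prime).pos ?_)
    nlinarith [Nat.zero_le Z.c]
  have hcoeff : ∀ i, i ≤ k → PowerSeries.coeff i (1 + ((p ^ (k + Z.c) : ℕ) : FEnd Γ) * y).val =
      PowerSeries.coeff i PowerSeries.X := by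
    intro i hi
    rw [FEnd.val_add, FEnd.val_one]
    have h := LUC.coeff_fadd_of_ord Γ (u := (PowerSeries.X : PowerSeries (GaloisField p n)))
      (v := (((p ^ (k + Z.c) : ℕ) : FEnd Γ) * y).val) PowerSeries.constantCoeff_X
      (((p ^ (k + Z.c) : ℕ) : FEnd Γ) * y).prop.1 hord (hlt i hi).le
    rw [h, hord i (hlt i hi), add_zero]
  refine ⟨⟨(1 + ((p ^ (k + Z.c) : ℕ) : FEnd Γ) * y).prop, ?_⟩, fun i hi => hcoeff i (by omega)⟩
  rw [hcoeff 1 hk, PowerSeries.coeff_one_X]
  exact isUnit_one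

omit [CharZero L] in
private theorem Z6d_cl_C_mul (c : O) (s : PowerSeries L) :
    cl O (PowerSeries.C (algebraMap O L c) * s) = c • cl O s := by
  have e : PowerSeries.C (algebraMap O L c) * s = c • s := by
    ext i
    rw [PowerSeries.coeff_C_mul]
    show _ = c • PowerSeries.coeff i s
    rw [Algebra.smul_def]
  rw [e]
  rfl

/-- TASK Z6d.  For `y ∈ End Γ` there are `c ∈ O`, `d ∈ O^{n-1}` with
`p^c cls y = c [f] + Σ d_i [g_i]` and `Σ_i x(∂_i a) d_i = 0` for all `a` in a stable ideal `P` killed by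
`x`.
Proof: `q = qq L Z F y`, `F = H.map x`; `exists_q1`, `exists_D`, `exists_law`, `exists_phi` (with
`map_fst_mkD`), `formula`; `d_i = (φ u_i).snd`; take classes (`cl_qq`, `cl_map`).  For `a ∈ P` and
`k ≥ max(1, M)`: `g` is an automorphism `≡ X` mod `X^M` (`aut_one_add`), `exists_stab` gives `φ_g`,
`comap φ_g P = P` so `φ_g a ∈ P` and `x(φ_g a) = 0 = x(a)`; `key` gives `p^{2k-1} ∣ p^k (φ a).snd`,
`p^{k-1} ∣ (φ a).snd` for all large `k`, so `(φ a).snd = 0` (`eq_zero_of_pow_dvd`); `snd_eq_sum`. -/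
theorem exists_cd (hn : 1 ≤ n) (hΓ : mulSeries Γ p = PowerSeries.X ^ (p ^ n))
    (hU : IsUniversalDeformation p n Γ H) (hx : Z.r.comp x.toRingHom = LTRing.residue p n)
    {M : ℕ} {P : Ideal (LTRing p n)} (hst : IsStableIdeal p n Γ H M P) (hPx : ∀ a ∈ P, x a = 0)
    (y : FEnd Γ) :
    ∃ (c : O) (d : Fin (n - 1) → O), ((p : O) ^ Z.c) • cls L Z (H.map x.toRingHom) y =
      c • cl O (lg ((H.map x.toRingHom).map (algebraMap O L))) + ∑ i, d i • cl O (gi L H x i) ∧
      ∀ a ∈ P, ∑ i, x (MvPowerSeries.pderiv (WittVector p (GaloisField p n)) i a) * d i = 0 := by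
  have hF : (H.map x.toRingHom).map Z.r = Γ := by
    rw [map_map, hx]
    exact hU.1
  obtain ⟨q₁, hq⟩ := exists_q1 L Z (H.map x.toRingHom) y
  obtain ⟨D, hD⟩ := exists_D L Z (H.map x.toRingHom) hF y
  obtain ⟨G, hGs, hGh⟩ := exists_law (H.map x.toRingHom)
    (constantCoeff_qq L Z (H.map x.toRingHom) y) hD
  have hGf : G.map (fstH O) = H.map x.toRingHom := by
    apply FormalGroup.ext
    show MvPowerSeries.map (fstH O) G.toPowerSeries = (H.map x.toRingHom).toPowerSeries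
    rw [hGs, map_fst_mkD]
  obtain ⟨φ, hφ, η, hη, hθ⟩ := exists_phi Z x hn hΓ hU hx G hGf
  obtain ⟨c, hc⟩ := formula Z x L hx hq hGh hφ hη hθ
  refine ⟨c, fun i => (φ (MvPowerSeries.X i)).snd, ?_, ?_⟩
  · rw [← cl_qq, hc]
    have e1 : cl O (PowerSeries.C (algebraMap O L c) *
        lg ((H.map x.toRingHom).map (algebraMap O L)) +
        ∑ i, PowerSeries.C (algebraMap O L (φ (MvPowerSeries.X i)).snd) * gi L H x i -
        PowerSeries.map (algebraMap O L) (om (H.map x.toRingHom) * η)) =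
        cl O (PowerSeries.C (algebraMap O L c) *
          lg ((H.map x.toRingHom).map (algebraMap O L))) +
        ∑ i, cl O (PowerSeries.C (algebraMap O L (φ (MvPowerSeries.X i)).snd) * gi L H x i) -
        cl O (PowerSeries.map (algebraMap O L) (om (H.map x.toRingHom) * η)) := by
      unfold cl
      rw [map_sub, map_add, map_sum]
    rw [e1, cl_map, sub_zero, Z6d_cl_C_mul]
    congr 1
    exact Finset.sum_congr rfl fun i _ => Z6d_cl_C_mul L _ _
  · intro a ha
    rw [← snd_eq_sum Z x hx φ hφ a]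
    refine eq_zero_of_pow_dvd Z fun N => ?_
    set k : ℕ := max (N + 1) (max 1 M) with hk
    have hk1 : 1 ≤ k := le_trans (le_max_left 1 M) (le_max_right _ _)
    have hkM : M ≤ k := le_trans (le_max_right 1 M) (le_max_right _ _)
    have hkN : N + 1 ≤ k := le_max_left _ _
    obtain ⟨hg1, hg2⟩ := aut_one_add Z hn hΓ y hk1 hkM
    obtain ⟨φg, hφg⟩ := exists_stab hU hg1
    have hcom := hst _ φg hg1 hg2 hφg
    have hmem : φg a ∈ P := by
      rw [← hcom] at ha
      exact ha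
    have hkey := key Z x hn hΓ hU hx y hD hGs hφ hη hθ hk1 hφg a
    rw [hPx _ hmem, hPx a ha, zero_add, zero_sub, dvd_neg] at hkey
    have h2k : 2 * k - 1 = k + (k - 1) := by omega
    rw [h2k, pow_add] at hkey
    have h3 : (p : O) ^ (k - 1) ∣ (φ a).snd :=
      (mul_dvd_mul_iff_left (pow_ne_zero k Z.hp)).1 hkey
    exact (pow_dvd_pow _ (by omega)).trans h3

end Z

end Crest.Agent.LU
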