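import Mathlib
import Crest.Agent.LU_B2a
import Crest.Agent.LU_B2b

/-!
S0351 (blueprint LU), characteristic 0 part, LUZa-1: a prime ideal `P` of `E₀ = W(k)[[u]]` with
`p ∉ P` which is stable under all `∂/∂u_i` is zero.
-/

set_option autoImplicit false

noncomputable section

namespace Crest.Agent.LUZ

open Crest.LubinTate Crest.Agent.LU

/-- Ideals of Noetherian local rings are closed (Krull). -/
theorem mem_of_forall_pow {B : Type*} [CommRing B] [IsNoetherianRing B] [IsLocalRing B]
    (I : Ideal B) {x : B} (h : ∀ N : ℕ, x ∈ I ⊔ (IsLocalRing.maximalIdeal B) ^ N) : x ∈ I := by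
  by_cases hI : I = ⊤
  · rw [hI]; trivial
  have : Nontrivial (B ⧸ I) := Ideal.Quotient.nontrivial_iff.mpr hI
  have : IsLocalRing (B ⧸ I) := IsLocalRing.of_surjective' (Ideal.Quotient.mk I)
    Ideal.Quotient.mk_surjective
  have : IsLocalHom (Ideal.Quotient.mk I) := by
    refine Function.Surjective.isLocalHom _ Ideal.Quotient.mk_surjective
  rw [← Ideal.Quotient.eq_zero_iff_mem]
  have h1 : Ideal.Quotient.mk I x ∈ ⨅ N : ℕ, (IsLocalRing.maximalIdeal (B ⧸ I)) ^ N := by
    rw [Ideal.mem_iInf]
    intro N
    have h2 := Ideal.mem_map_of_mem (Ideal.Quotient.mk I) (h N)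
    rw [Ideal.map_sup, Ideal.map_quotient_self, bot_sup_eq, Ideal.map_pow] at h2
    refine Ideal.pow_right_mono ?_ N h2
    rw [Ideal.map_le_iff_le_comap]
    intro y hy
    rw [Ideal.mem_comap, IsLocalRing.mem_maximalIdeal, mem_nonunits_iff]
    intro hu
    exact (IsLocalRing.mem_maximalIdeal y).mp hy (isUnit_of_map_unit (Ideal.Quotient.mk I) y hu)
  rw [Ideal.iInf_pow_eq_bot_of_isLocalRing _ (IsLocalRing.maximalIdeal.isMaximal _).ne_top] at h1
  exact h1

section aux

variable {A : Type*} [CommRing A] {σ : Type*}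

private theorem LUZa_monomial_mem {I : Ideal (MvPowerSeries σ A)}
    (hX : ∀ s, MvPowerSeries.X s ∈ I) (e : σ →₀ ℕ) :
    MvPowerSeries.monomial e (1 : A) ∈ I ^ e.degree := by
  rw [MvPowerSeries.monomial_one_eq, Finsupp.prod, Finsupp.degree_apply,
    ← Finset.prod_pow_eq_pow_sum]
  exact Ideal.prod_mem_prod fun s _ => Ideal.pow_mem_pow (hX s) _

private theorem LUZa_mem_pow [Finite σ] {π : A} {I : Ideal (MvPowerSeries σ A)}
    (hX : ∀ s, MvPowerSeries.X s ∈ I) (hπ : MvPowerSeries.C π ∈ I) (N : ℕ)
    {f : MvPowerSeries σ A}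
    (hf : ∀ d : σ →₀ ℕ, MvPowerSeries.coeff d f ∈ (Ideal.span {π}) ^ (N - d.degree)) :
    f ∈ I ^ N := by
  classical
  have hC : ∀ (j : ℕ) (c : A), c ∈ (Ideal.span {π}) ^ j → MvPowerSeries.C c ∈ I ^ j := by
    intro j c hc
    rw [Ideal.span_singleton_pow, Ideal.mem_span_singleton] at hc
    obtain ⟨w, rfl⟩ := hc
    rw [map_mul, map_pow]
    exact Ideal.mul_mem_right _ _ (Ideal.pow_mem_pow hπ j)
  have he : ∀ d : σ →₀ ℕ, ∃ e : σ →₀ ℕ, e ≤ d ∧ e.degree = min N d.degree := fun d =>
    Finsupp.exists_le_degree_eq d (min N d.degree) (min_le_right _ _)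
  choose e he1 he2 using he
  set S : Finset (σ →₀ ℕ) := (Finsupp.finite_of_degree_le (σ := σ) N).toFinset with hS
  have hmemS : ∀ x : σ →₀ ℕ, x ∈ S ↔ x.degree ≤ N := by
    intro x
    rw [hS, Set.Finite.mem_toFinset]
    exact Iff.rfl
  let g : (σ →₀ ℕ) → MvPowerSeries σ A := fun x d' =>
    if e (d' + x) = x then MvPowerSeries.coeff (d' + x) f else 0
  have hg : ∀ x d', MvPowerSeries.coeff d' (g x) =
      if e (d' + x) = x then MvPowerSeries.coeff (d' + x) f else 0 := fun _ _ => rfl
  have hfe : f = ∑ x ∈ S, MvPowerSeries.monomial x (1 : A) * g x := by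
    ext d
    rw [map_sum, Finset.sum_eq_single (e d)]
    · rw [MvPowerSeries.coeff_monomial_mul, if_pos (he1 d), hg, tsub_add_cancel_of_le (he1 d),
        if_pos rfl, one_mul]
    · intro x _ hx
      rw [MvPowerSeries.coeff_monomial_mul]
      split_ifs with h
      · rw [hg, tsub_add_cancel_of_le h, if_neg (fun h' => hx h'.symm), mul_zero]
      · rfl
    · intro h
      exact absurd ((hmemS (e d)).2 (by rw [he2]; exact min_le_left _ _)) h
  rw [hfe]
  refine Ideal.sum_mem _ fun x hx => ?_
  rcases Nat.lt_or_ge x.degree N with hlt | hge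
  · have hgC : g x = MvPowerSeries.C (MvPowerSeries.coeff 0 (g x)) := by
      ext d'
      rw [MvPowerSeries.coeff_C]
      split_ifs with h0
      · rw [h0]
      · rw [hg, if_neg]
        intro h
        have h1 := he2 (d' + x)
        rw [h, map_add] at h1
        have h2 : d'.degree ≠ 0 := fun h' => h0 ((Finsupp.degree_eq_zero_iff _).1 h')
        omega
    have hc : MvPowerSeries.coeff 0 (g x) ∈ (Ideal.span {π}) ^ (N - x.degree) := by
      rw [hg, zero_add]
      split_ifs
      · exact hf x
      · exact Ideal.zero_mem _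
    have h3 := Ideal.mul_mem_mul (LUZa_monomial_mem hX x) (hC _ _ hc)
    rw [← hgC, ← pow_add, Nat.add_sub_cancel' hlt.le] at h3
    exact h3
  · have h4 : x.degree = N := le_antisymm ((hmemS x).1 hx) hge
    have h5 := LUZa_monomial_mem hX x
    rw [h4] at h5
    exact Ideal.mul_mem_right _ _ h5

end aux

/-- A power series without terms of degree `< N` lies in `𝔪^N`. -/
theorem mem_ker_pow_of_coeff {p : ℕ} [Fact p.Prime] {n : ℕ} (N : ℕ) (f : LTRing p n)
    (hf : ∀ d : Fin (n - 1) →₀ ℕ, d.degree < N → MvPowerSeries.coeff d f = 0) :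
    f ∈ (RingHom.ker (LTRing.residue p n)) ^ N := by
  refine LUZa_mem_pow (π := (p : WittVector p (GaloisField p n))) (fun s => ?_) ?_ N ?_
  · rw [ker_residue]
    exact Ideal.mem_sup_right (Ideal.subset_span ⟨s, rfl⟩)
  · rw [ker_residue, map_natCast]
    exact Ideal.mem_sup_left (Ideal.mem_span_singleton_self _)
  · intro d
    rcases Nat.lt_or_ge d.degree N with h | h
    · rw [hf d h]
      exact Ideal.zero_mem _
    · rw [Nat.sub_eq_zero_of_le h, pow_zero, Ideal.one_eq_top]
      trivial

variable {p : ℕ} [Fact p.Prime] {n : ℕ}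

/-- coefficients of the Euler operator. -/
private theorem coeff_euler (F : LTRing p n) (d : Fin (n - 1) →₀ ℕ) :
    MvPowerSeries.coeff d (∑ i, MvPowerSeries.X i *
      MvPowerSeries.pderiv (WittVector p (GaloisField p n)) i F) =
      (d.degree : WittVector p (GaloisField p n)) * MvPowerSeries.coeff d F := by
  classical
  rw [map_sum]
  have h1 : ∀ i : Fin (n - 1), MvPowerSeries.coeff d (MvPowerSeries.X i *
      MvPowerSeries.pderiv (WittVector p (GaloisField p n)) i F) =
      (d i : WittVector p (GaloisField p n)) * MvPowerSeries.coeff d F := by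
    intro i
    rw [MvPowerSeries.X, MvPowerSeries.coeff_monomial_mul]
    split_ifs with h
    · rw [one_mul, MvPowerSeries.coeff_pderiv, tsub_add_cancel_of_le h]
      have h2 : 1 ≤ d i := by
        have := h i
        rwa [Finsupp.single_eq_same] at this
      have h3 : ((d - Finsupp.single i 1 : Fin (n - 1) →₀ ℕ) i) = d i - 1 := by
        rw [Finsupp.tsub_apply, Finsupp.single_eq_same]
      rw [h3, mul_comm]
      congr 1
      rw [Nat.cast_sub h2]
      simp
    · have h2 : d i = 0 := by
        by_contra h3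
        apply h
        intro j
        by_cases hj : j = i
        · rw [hj, Finsupp.single_eq_same]
          omega
        · rw [Finsupp.single_apply, if_neg (fun h4 => hj h4.symm)]
          exact Nat.zero_le _
      rw [h2]
      simp
  rw [Finset.sum_congr rfl (fun i _ => h1 i), ← Finset.sum_mul]
  congr 1
  rw [Finsupp.degree_eq_sum, Nat.cast_sum]

/-- natural numbers `≠ 0` are not in a prime ideal not containing `p`. -/
theorem natCast_notMem {P : Ideal (LTRing p n)} (hP : P.IsPrime) (hp : (p : LTRing p n) ∉ P)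
    {j : ℕ} (hj : j ≠ 0) : (j : LTRing p n) ∉ P := by
  obtain ⟨a, b, hb, hab⟩ := Nat.exists_eq_pow_mul_and_not_dvd hj p (Fact.out : p.Prime).ne_one
  intro hmem
  rw [hab] at hmem
  push_cast at hmem
  rcases hP.mem_or_mem hmem with h | h
  · exact hp (hP.mem_of_pow_mem _ h)
  · have h1 : LTRing.residue p n (b : LTRing p n) ≠ 0 := by
      rw [map_natCast]
      intro h2
      exact hb ((CharP.cast_eq_zero_iff (GaloisField p n) p b).mp h2)
    exact hP.ne_top (Ideal.eq_top_of_isUnit_mem _ h ((isTest_E0 p n).isUnit h1))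

/-- the constant coefficient of an element of `P` lies in `P`. -/
private theorem C_mem {P : Ideal (LTRing p n)} (hP : P.IsPrime) (hp : (p : LTRing p n) ∉ P)
    (hst : ∀ i, ∀ F ∈ P, MvPowerSeries.pderiv (WittVector p (GaloisField p n)) i F ∈ P)
    {F : LTRing p n} (hF : F ∈ P) :
    (MvPowerSeries.C (MvPowerSeries.constantCoeff F) : LTRing p n) ∈ P := by
  classical
  have := (isTest_E0 p n).isLocalRing
  have := (isTest_E0 p n).noe
  apply mem_of_forall_pow
  intro N
  -- the iterates of the Euler operator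
  have hiter : ∀ M : ℕ, ∃ G ∈ P, ∀ d : Fin (n - 1) →₀ ℕ, MvPowerSeries.coeff d G =
      (∏ j ∈ Finset.range M, ((d.degree : WittVector p (GaloisField p n)) - ((j : ℕ) + 1))) *
        MvPowerSeries.coeff d F := by
    intro M
    induction M with
    | zero =>
      exact ⟨F, hF, fun d => by rw [Finset.prod_range_zero, one_mul]⟩
    | succ M ih =>
      obtain ⟨G, hG, hGc⟩ := ih
      refine ⟨(∑ i, MvPowerSeries.X i *
        MvPowerSeries.pderiv (WittVector p (GaloisField p n)) i G) - ((M + 1 : ℕ) : LTRing p n) * G,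
        ?_, ?_⟩
      · apply Ideal.sub_mem
        · exact Ideal.sum_mem _ fun i _ => Ideal.mul_mem_left _ _ (hst i G hG)
        · exact Ideal.mul_mem_left _ _ hG
      · intro d
        rw [map_sub, coeff_euler, Finset.prod_range_succ]
        have h1 : ((M + 1 : ℕ) : LTRing p n) = MvPowerSeries.C ((M + 1 : ℕ) :
            WittVector p (GaloisField p n)) := by rw [map_natCast]
        rw [h1, MvPowerSeries.coeff_C_mul, hGc]
        push_cast
        ring
  obtain ⟨G, hG, hGc⟩ := hiter N
  -- divide by `N!`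
  let c : ℕ → WittVector p (GaloisField p n) := fun t =>
    if t = 0 then (-1) ^ N else ((t - 1).choose N : WittVector p (GaloisField p n))
  let G' : LTRing p n := fun d => c d.degree * MvPowerSeries.coeff d F
  have hG'c : ∀ d : Fin (n - 1) →₀ ℕ, MvPowerSeries.coeff d G' =
      c d.degree * MvPowerSeries.coeff d F := fun _ => rfl
  have hfac : ((N.factorial : ℕ) : LTRing p n) * G' = G := by
    have h1 : ((N.factorial : ℕ) : LTRing p n) = MvPowerSeries.C ((N.factorial : ℕ) :
        WittVector p (GaloisField p n)) := by rw [map_natCast]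
    ext1 d
    rw [h1, MvPowerSeries.coeff_C_mul, hG'c, hGc, ← mul_assoc]
    congr 1
    by_cases ht : d.degree = 0
    · rw [ht]
      simp only [c, if_true]
      have h2 : ∀ M : ℕ, (∏ j ∈ Finset.range M, (((0 : ℕ) : WittVector p (GaloisField p n)) -
          ((j : ℕ) + 1))) = (M.factorial : WittVector p (GaloisField p n)) * (-1) ^ M := by
        intro M
        induction M with
        | zero => simp
        | succ M ih =>
          rw [Finset.prod_range_succ, ih, Nat.factorial_succ, pow_succ]
          push_cast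
          ring
      rw [h2 N]
    · obtain ⟨t, ht'⟩ : ∃ t, d.degree = t + 1 := ⟨d.degree - 1, by omega⟩
      rw [ht']
      simp only [c, if_neg (Nat.succ_ne_zero t), Nat.add_sub_cancel]
      have h2 : ∀ M : ℕ, (∏ j ∈ Finset.range M, (((t + 1 : ℕ) : WittVector p (GaloisField p n)) -
          ((j : ℕ) + 1))) = ((t.descFactorial M : ℕ) : WittVector p (GaloisField p n)) := by
        intro M
        induction M with
        | zero => simp
        | succ M ih =>
          rw [Finset.prod_range_succ, ih, Nat.descFactorial_succ]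
          rcases Nat.lt_or_ge t M with h3 | h3
          · rw [Nat.descFactorial_eq_zero_iff_lt.mpr h3]
            simp
          · rw [Nat.cast_mul, Nat.cast_sub h3]
            push_cast
            ring
      rw [h2 N, Nat.descFactorial_eq_factorial_mul_choose]
      push_cast
      ring
  have hG' : G' ∈ P := by
    rw [← hfac] at hG
    exact (hP.mem_or_mem hG).resolve_left (natCast_notMem hP hp (Nat.factorial_ne_zero N))
  have hdec : (MvPowerSeries.C (MvPowerSeries.constantCoeff F) : LTRing p n)
      = ((-1) ^ N * G') + (MvPowerSeries.C (MvPowerSeries.constantCoeff F) - (-1) ^ N * G') := by ring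
  rw [hdec]
  apply Ideal.add_mem
  · exact Ideal.mem_sup_left (Ideal.mul_mem_left _ _ hG')
  · apply Ideal.mem_sup_right
    rw [← (isTest_E0 p n).ker_eq]
    apply mem_ker_pow_of_coeff
    intro d hd
    have h1 : ((-1 : LTRing p n)) ^ N = MvPowerSeries.C ((-1 : WittVector p (GaloisField p n)) ^ N) := by
      rw [map_pow, map_neg, map_one]
    rw [map_sub, h1, MvPowerSeries.coeff_C_mul, hG'c]
    by_cases h0 : d = 0
    · rw [h0]
      have h2 : (0 : Fin (n - 1) →₀ ℕ).degree = 0 := map_zero _
      rw [h2]
      simp only [c, if_true]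
      rw [MvPowerSeries.coeff_zero_C, ← mul_assoc, ← mul_pow]
      simp
    · have h3 : d.degree ≠ 0 := fun h => h0 ((Finsupp.degree_eq_zero_iff _).1 h)
      rw [MvPowerSeries.coeff_C, if_neg h0]
      simp only [c, if_neg h3]
      have h4 : (d.degree - 1).choose N = 0 := Nat.choose_eq_zero_of_lt (by omega)
      rw [h4]
      simp

/-- LUZa-1. -/
theorem eq_bot_of_pderiv_stable {P : Ideal (LTRing p n)} (hP : P.IsPrime)
    (hp : (p : LTRing p n) ∉ P)
    (hst : ∀ i, ∀ F ∈ P, MvPowerSeries.pderiv (WittVector p (GaloisField p n)) i F ∈ P) :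
    P = ⊥ := by
  have h0 : ∀ F ∈ P, MvPowerSeries.constantCoeff F = 0 := by
    intro F hF
    by_contra hne
    have h1 := C_mem hP hp hst hF
    obtain ⟨m, b, hb⟩ := WittVector.exists_eq_pow_p_mul' (MvPowerSeries.constantCoeff F) hne
    rw [hb, map_mul, map_pow, map_natCast] at h1
    rcases hP.mem_or_mem h1 with h2 | h2
    · exact hp (hP.mem_of_pow_mem _ h2)
    · exact hP.ne_top (Ideal.eq_top_of_isUnit_mem _ h2 ((b.isUnit).map MvPowerSeries.C))
  have hall : ∀ N : ℕ, ∀ F ∈ P, ∀ d : Fin (n - 1) →₀ ℕ, d.degree = N →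
      MvPowerSeries.coeff d F = 0 := by
    intro N
    induction N with
    | zero =>
      intro F hF d hd
      have h1 : d = 0 := (Finsupp.degree_eq_zero_iff _).1 hd
      rw [h1]
      exact h0 F hF
    | succ N ih =>
      intro F hF d hd
      have h1 : d ≠ 0 := by
        rintro rfl
        rw [map_zero] at hd
        omega
      obtain ⟨i, hi⟩ : ∃ i, d i ≠ 0 := by
        by_contra hcon
        push Not at hcon
        exact h1 (Finsupp.ext hcon)
      have hle : Finsupp.single i 1 ≤ d := by
        intro j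
        by_cases hj : j = i
        · rw [hj, Finsupp.single_eq_same]
          omega
        · rw [Finsupp.single_apply, if_neg (fun h4 => hj h4.symm)]
          exact Nat.zero_le _
      have h2 := ih _ (hst i F hF) (d - Finsupp.single i 1) (by
        have h3 : (d - Finsupp.single i 1).degree + (Finsupp.single i 1 : Fin (n - 1) →₀ ℕ).degree
            = d.degree := by
          rw [← map_add, tsub_add_cancel_of_le hle]
        rw [Finsupp.degree_single] at h3
        omega)
      rw [MvPowerSeries.coeff_pderiv, tsub_add_cancel_of_le hle] at h2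
      have h4 : (((d - Finsupp.single i 1 : Fin (n - 1) →₀ ℕ) i : ℕ) :
          WittVector p (GaloisField p n)) + 1 ≠ 0 := by
        rw [← Nat.cast_succ]
        intro h5
        apply natCast_notMem hP hp (Nat.succ_ne_zero ((d - Finsupp.single i 1 : Fin (n - 1) →₀ ℕ) i))
        have h6 : (((Nat.succ ((d - Finsupp.single i 1 : Fin (n - 1) →₀ ℕ) i)) : ℕ) : LTRing p n) =
            MvPowerSeries.C (((Nat.succ ((d - Finsupp.single i 1 : Fin (n - 1) →₀ ℕ) i)) : ℕ) :
            WittVector p (GaloisField p n)) := by rw [map_natCast]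
        rw [h6, h5, map_zero]
        exact Ideal.zero_mem _
      exact (mul_eq_zero.mp h2).resolve_right h4
  rw [eq_bot_iff]
  intro F hF
  rw [Ideal.mem_bot]
  ext1 d
  rw [hall _ F hF d rfl, map_zero]

end Crest.Agent.LUZ
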