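import Mathlib
import Crest.Agent.LU_B1
import Crest.Agent.LU_B2a

/-!
S0351 (blueprint LU), characteristic 0 part, (Q): for a prime ideal `P` of `E₀` with `p ∉ P` and
`D ∉ P` there is a prime ideal `Q ≥ P` with `p ∉ Q`, `D ∉ Q` such that `E₀/(Q + p)` is Artinian.
-/

set_option autoImplicit false

noncomputable section

namespace Crest.Agent.LUZ

open Crest.LubinTate Crest.Agent.LU

/-- In a Noetherian local domain in which every nonzero prime contains a fixed nonzero element,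
the maximal ideal is the only nonzero prime. -/
theorem eq_maximalIdeal_of_forall_mem {O : Type*} [CommRing O] [IsDomain O] [IsNoetherianRing O]
    [IsLocalRing O] {g : O} (hg0 : g ≠ 0) (hg : ∀ q : Ideal O, q.IsPrime → q ≠ ⊥ → g ∈ q)
    {q : Ideal O} (hq : q.IsPrime) (hq0 : q ≠ ⊥) : q = IsLocalRing.maximalIdeal O := by
  classical
  have hgq : g ∈ q := hg q hq hq0
  have hqm : q ≤ IsLocalRing.maximalIdeal O := IsLocalRing.le_maximalIdeal hq.ne_top
  have hfin := Ideal.finite_minimalPrimes_of_isNoetherianRing O (Ideal.span {g})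
  have hgm : Ideal.span {g} ≤ IsLocalRing.maximalIdeal O := by
    rw [Ideal.span_singleton_le_iff_mem]
    exact hqm hgq
  by_cases h : IsLocalRing.maximalIdeal O ∈ (Ideal.span {g}).minimalPrimes
  · apply le_antisymm hqm
    apply h.2 ⟨hq, _⟩ hqm
    rw [Ideal.span_singleton_le_iff_mem]
    exact hgq
  · exfalso
    -- prime avoidance
    have hav : ∃ x ∈ IsLocalRing.maximalIdeal O, ∀ i ∈ (Ideal.span {g}).minimalPrimes, x ∉ i := by
      by_contra hcon
      push Not at hcon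
      have h1 : ((IsLocalRing.maximalIdeal O : Ideal O) : Set O) ⊆
          ⋃ i ∈ (↑hfin.toFinset : Set (Ideal O)), ((fun i : Ideal O => i) i : Set O) := by
        intro x hx
        obtain ⟨i, hi, hxi⟩ := hcon x hx
        rw [Set.mem_iUnion₂]
        exact ⟨i, by simpa using hi, hxi⟩
      rw [Ideal.subset_union_prime ⊥ ⊥ (fun i hi _ _ => by
        have : i ∈ (Ideal.span {g}).minimalPrimes := by simpa using hi
        exact this.1.1)] at h1
      obtain ⟨i, hi, hle⟩ := h1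
      have hi' : i ∈ (Ideal.span {g}).minimalPrimes := by simpa using hi
      apply h
      have h2 : i = IsLocalRing.maximalIdeal O :=
        le_antisymm (IsLocalRing.le_maximalIdeal hi'.1.1.ne_top) hle
      rwa [← h2]
    obtain ⟨x, hxm, hx⟩ := hav
    have hx0 : x ≠ 0 := by
      obtain ⟨i, hi, -⟩ := Ideal.exists_minimalPrimes_le hgm
      rintro rfl
      exact hx i hi (Ideal.zero_mem _)
    have hxm' : Ideal.span {x} ≤ IsLocalRing.maximalIdeal O := by
      rw [Ideal.span_singleton_le_iff_mem]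
      exact hxm
    obtain ⟨r, hr, hrm⟩ := Ideal.exists_minimalPrimes_le hxm'
    have hrp : r.IsPrime := hr.1.1
    have hxr : x ∈ r := hr.1.2 (Ideal.mem_span_singleton_self x)
    have hr0 : r ≠ ⊥ := by
      rintro rfl
      exact hx0 (by simpa using hxr)
    have hgr : g ∈ r := hg r hrp hr0
    have hgr' : Ideal.span {g} ≤ r := by
      rw [Ideal.span_singleton_le_iff_mem]
      exact hgr
    obtain ⟨i, hi, hir⟩ := Ideal.exists_minimalPrimes_le hgr'
    have hip : i.IsPrime := hi.1.1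
    have hgi : g ∈ i := hi.1.2 (Ideal.mem_span_singleton_self g)
    have hir' : i ≠ r := by
      rintro rfl
      exact hx i hi hxr
    have hlt : i < r := lt_of_le_of_ne hir hir'
    have hbot : (⊥ : Ideal O) < i := by
      rw [bot_lt_iff_ne_bot]
      rintro rfl
      exact hg0 (by simpa using hgi)
    have hbp : (⊥ : Ideal O).IsPrime := Ideal.isPrime_bot
    have h1 := Ideal.height_add_one_le_of_lt_of_isPrime hbot
    have h2 := Ideal.height_add_one_le_of_lt_of_isPrime hlt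
    have h3 := Ideal.height_le_one_of_isPrincipal_of_mem_minimalPrimes (Ideal.span {x}) r hr
    have h4 : (1 : ℕ∞) ≤ i.height := le_trans (by simp) h1
    have h5 : (1 : ℕ∞) + 1 ≤ 1 := le_trans (le_trans (by gcongr) h2) h3
    exact absurd h5 (by decide)

/-- A prime ideal `Q ≥ P` of a Noetherian local ring, maximal among those not containing `g`:
the only prime ideal strictly larger than `Q` is the maximal ideal. -/
theorem exists_prime_dim_one {B : Type*} [CommRing B] [IsNoetherianRing B] [IsLocalRing B]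
    {P : Ideal B} (hP : P.IsPrime) {g : B} (hg : g ∉ P) :
    ∃ Q : Ideal B, Q.IsPrime ∧ P ≤ Q ∧ g ∉ Q ∧
      ∀ Q' : Ideal B, Q'.IsPrime → Q < Q' → Q' = IsLocalRing.maximalIdeal B := by
  obtain ⟨Q, hQ, hmax⟩ := set_has_maximal_iff_noetherian.mpr (inferInstance : IsNoetherianRing B)
    {Q : Ideal B | Q.IsPrime ∧ P ≤ Q ∧ g ∉ Q} ⟨P, hP, le_rfl, hg⟩
  obtain ⟨hQp, hPQ, hgQ⟩ := hQ
  refine ⟨Q, hQp, hPQ, hgQ, ?_⟩
  intro Q' hQ' hlt
  have hnt : Nontrivial (B ⧸ Q) := Ideal.Quotient.nontrivial_iff.mpr hQp.ne_top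
  have hloc : IsLocalRing (B ⧸ Q) := IsLocalRing.of_surjective' (Ideal.Quotient.mk Q)
    Ideal.Quotient.mk_surjective
  have hdom : IsDomain (B ⧸ Q) := Ideal.Quotient.isDomain Q
  have key : ∀ q : Ideal (B ⧸ Q), q.IsPrime → q ≠ ⊥ → Ideal.Quotient.mk Q g ∈ q := by
    intro q hq hq0
    by_contra hcon
    have h1 : Q ≤ q.comap (Ideal.Quotient.mk Q) := by
      intro b hb
      rw [Ideal.mem_comap, Ideal.Quotient.eq_zero_iff_mem.mpr hb]
      exact Ideal.zero_mem _
    have h2 : Q ≠ q.comap (Ideal.Quotient.mk Q) := by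
      intro h3
      apply hq0
      rw [eq_bot_iff]
      intro y hy
      obtain ⟨b, rfl⟩ := Ideal.Quotient.mk_surjective y
      have h4 : b ∈ q.comap (Ideal.Quotient.mk Q) := hy
      rw [← h3] at h4
      rw [Ideal.mem_bot, Ideal.Quotient.eq_zero_iff_mem]
      exact h4
    exact hmax (q.comap (Ideal.Quotient.mk Q)) ⟨hq.comap _, hPQ.trans h1, hcon⟩
      (lt_of_le_of_ne h1 h2)
  have hg0 : Ideal.Quotient.mk Q g ≠ 0 := by
    rw [Ne, Ideal.Quotient.eq_zero_iff_mem]
    exact hgQ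
  have hle : Q ≤ Q' := hlt.le
  have hq' : (Q'.map (Ideal.Quotient.mk Q)).IsPrime := by
    apply Ideal.map_isPrime_of_surjective Ideal.Quotient.mk_surjective
    rw [Ideal.mk_ker]
    exact hle
  have hcm : (Q'.map (Ideal.Quotient.mk Q)).comap (Ideal.Quotient.mk Q) = Q' := by
    rw [Ideal.comap_map_of_surjective _ Ideal.Quotient.mk_surjective, ← RingHom.ker_eq_comap_bot,
      Ideal.mk_ker, sup_eq_left]
    exact hle
  have hq0' : Q'.map (Ideal.Quotient.mk Q) ≠ ⊥ := by
    intro h1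
    rw [h1, ← RingHom.ker_eq_comap_bot, Ideal.mk_ker] at hcm
    exact hlt.ne hcm
  have h1 := eq_maximalIdeal_of_forall_mem hg0 key hq' hq0'
  have h2 : Q'.IsMaximal := by
    rw [← hcm, h1]
    exact Ideal.comap_isMaximal_of_surjective _ Ideal.Quotient.mk_surjective
  exact IsLocalRing.eq_maximalIdeal h2

/-- (Q), general form. -/
theorem exists_prime_pow_le {B : Type*} [CommRing B] [IsNoetherianRing B] [IsLocalRing B]
    {P : Ideal B} (hP : P.IsPrime) {a b : B} (ha : a ∉ P) (hb : b ∉ P) :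
    ∃ Q : Ideal B, Q.IsPrime ∧ P ≤ Q ∧ a ∉ Q ∧ b ∉ Q ∧
      ∃ c : ℕ, (IsLocalRing.maximalIdeal B) ^ c ≤ Q ⊔ Ideal.span {a} := by
  have hab : a * b ∉ P := fun h => (hP.mem_or_mem h).elim ha hb
  obtain ⟨Q, hQ, hPQ, hgQ, hmax⟩ := exists_prime_dim_one hP hab
  have haQ : a ∉ Q := fun h => hgQ (Ideal.mul_mem_right _ _ h)
  have hbQ : b ∉ Q := fun h => hgQ (Ideal.mul_mem_left _ _ h)
  refine ⟨Q, hQ, hPQ, haQ, hbQ, ?_⟩
  have hrad : IsLocalRing.maximalIdeal B ≤ (Q ⊔ Ideal.span {a}).radical := by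
    rw [Ideal.radical_eq_sInf]
    apply le_sInf
    rintro J ⟨hJ, hJp⟩
    have h1 : Q ≤ J := le_sup_left.trans hJ
    have h2 : a ∈ J := hJ (Ideal.mem_sup_right (Ideal.mem_span_singleton_self a))
    have h3 : Q < J := lt_of_le_of_ne h1 (by rintro rfl; exact haQ h2)
    exact (hmax J hJp h3).ge
  obtain ⟨c, hc⟩ := Ideal.exists_radical_pow_le_of_fg (Q ⊔ Ideal.span {a})
    (IsNoetherian.noetherian _)
  exact ⟨c, (Ideal.pow_right_mono hrad c).trans hc⟩

variable {p : ℕ} [Fact p.Prime] {n : ℕ}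

/-- (Q). -/
theorem exists_prime_Q {P : Ideal (LTRing p n)} (hP : P.IsPrime) (hp : (p : LTRing p n) ∉ P)
    {D : LTRing p n} (hD : D ∉ P) :
    ∃ Q : Ideal (LTRing p n), Q.IsPrime ∧ P ≤ Q ∧ (p : LTRing p n) ∉ Q ∧ D ∉ Q ∧
      ∃ c : ℕ, (RingHom.ker (LTRing.residue p n)) ^ c ≤ Q ⊔ Ideal.span {(p : LTRing p n)} := by
  have := (isTest_E0 p n).isLocalRing
  have := (isTest_E0 p n).noe
  rw [(isTest_E0 p n).ker_eq]
  exact exists_prime_pow_le hP hp hD

end Crest.Agent.LUZ
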