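import Mathlib
import Crest.Agent.LUZ_6d
import Crest.Agent.LUZ_5c
import Crest.Agent.LUZa_1
import Crest.Agent.LUZa_Q

/-!
S0351 (blueprint LU), part LUZ: characteristic zero primes (final assembly).
-/

set_option autoImplicit false

noncomputable section

namespace Crest.Agent.LU

open Crest.LubinTate

namespace Z

variable {p : ℕ} [Fact p.Prime] {n : ℕ} {Γ : FormalGroup (GaloisField p n)} [Γ.IsComm]
  {H : FormalGroup (LTRing p n)} [H.IsComm]

/-- A prime of `E₀` is contained in the kernel of the residue map. -/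
theorem le_ker_residue {Q : Ideal (LTRing p n)} (hQ : Q ≠ ⊤) :
    Q ≤ RingHom.ker (LTRing.residue p n) := by
  intro a ha
  by_contra h
  exact hQ (Ideal.eq_top_of_isUnit_mem _ ha ((isTest_E0 p n).isUnit h))

/-- The ring `E₀/Q`. -/
def mkPRing {Q : Ideal (LTRing p n)} (hQ : Q.IsPrime) (hp : (p : LTRing p n) ∉ Q) {c : ℕ}
    (hc : (RingHom.ker (LTRing.residue p n)) ^ c ≤ Q ⊔ Ideal.span {(p : LTRing p n)}) :
    PRing p n (LTRing p n ⧸ Q) where
  r := Ideal.Quotient.lift Q (LTRing.residue p n) (fun a ha => le_ker_residue hQ.ne_top ha)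
  test := isTest_quot (isTest_E0 p n) Q (fun a ha => le_ker_residue hQ.ne_top ha)
  hp := by
    intro h
    apply hp
    rw [← Ideal.Quotient.eq_zero_iff_mem, map_natCast]
    exact h
  c := c
  hc := by
    have hk : RingHom.ker (Ideal.Quotient.lift Q (LTRing.residue p n)
        (fun a ha => le_ker_residue hQ.ne_top ha)) =
        Ideal.map (Ideal.Quotient.mk Q) (RingHom.ker (LTRing.residue p n)) := by
      ext y
      obtain ⟨a, rfl⟩ := Ideal.Quotient.mk_surjective y
      constructor
      · intro h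
        exact Ideal.mem_map_of_mem _ h
      · intro h
        have h2 : Ideal.map (Ideal.Quotient.mk Q) (RingHom.ker (LTRing.residue p n)) ≤
            RingHom.ker (Ideal.Quotient.lift Q (LTRing.residue p n)
              (fun a ha => le_ker_residue hQ.ne_top ha)) := by
          rw [Ideal.map_le_iff_le_comap]
          intro a ha
          exact ha
        exact h2 h
    rw [hk, ← Ideal.map_pow]
    refine (Ideal.map_mono hc).trans ?_
    rw [Ideal.map_sup, Ideal.map_quotient_self, bot_sup_eq, Ideal.map_span, Set.image_singleton,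
      map_natCast]

theorem charZero_of_PRing {O : Type} [CommRing O] [IsDomain O]
    [Algebra (WittVector p (GaloisField p n)) O] (Z : PRing p n O) : CharZero O := by
  refine charZero_of_inj_zero fun m hm => ?_
  by_contra h0
  obtain ⟨u, hu, he⟩ := nat_split Z h0
  rw [hm] at he
  exact mul_ne_zero (pow_ne_zero _ Z.hp) hu.ne_zero he.symm

/-- **Characteristic zero part of S0351**: a stable prime not containing `p` is zero. -/
theorem char0 (hn : 1 ≤ n) (hΓ : mulSeries Γ p = PowerSeries.X ^ (p ^ n))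
    (hH : IsUniversalDeformation p n Γ H) {M : ℕ} {P : Ideal (LTRing p n)} (hP : P.IsPrime)
    (hst : IsStableIdeal p n Γ H M P) (hp : (p : LTRing p n) ∉ P) : P = ⊥ := by
  refine LUZ.eq_bot_of_pderiv_stable hP hp fun i F hF => ?_
  by_contra hD
  obtain ⟨Q, hQ, hPQ, hpQ, hDQ, c, hc⟩ := LUZ.exists_prime_Q hP hp hD
  haveI := hQ
  let Z : PRing p n (LTRing p n ⧸ Q) := mkPRing hQ hpQ hc
  let x : LTRing p n →ₐ[WittVector p (GaloisField p n)] (LTRing p n ⧸ Q) :=
    Ideal.Quotient.mkₐ (WittVector p (GaloisField p n)) Q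
  have hx : Z.r.comp x.toRingHom = LTRing.residue p n := by
    ext a
    rfl
  haveI : CharZero (LTRing p n ⧸ Q) := charZero_of_PRing Z
  haveI : CharZero (FractionRing (LTRing p n ⧸ Q)) :=
    charZero_of_injective_algebraMap (IsFractionRing.injective (LTRing p n ⧸ Q) _)
  have hPx : ∀ a ∈ P, x a = 0 := fun a ha => Ideal.Quotient.eq_zero_iff_mem.2 (hPQ ha)
  have hF' : (H.map x.toRingHom).map Z.r = Γ := by
    rw [map_map, hx]
    exact hH.1
  choose cc d h1 h2 using fun y : FEnd Γ =>
    exists_cd Z x (FractionRing (LTRing p n ⧸ Q)) hn hΓ hH hx hst hPx y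
  have h3 := span_d Z hn hΓ hF' (fun i => gi (FractionRing (LTRing p n ⧸ Q)) H x i) cc d h1
    (fun i => x (MvPowerSeries.pderiv (WittVector p (GaloisField p n)) i F))
    (fun y => h2 y F hF)
  have h4 := congrFun h3 i
  exact hDQ (Ideal.Quotient.eq_zero_iff_mem.1 h4)

end Z

/-- A stable prime not containing `p` is zero. -/
theorem char0 {p : ℕ} [Fact p.Prime] {n : ℕ} {Γ : FormalGroup (GaloisField p n)} [Γ.IsComm]
    {H : FormalGroup (LTRing p n)} [H.IsComm] (hn : 1 ≤ n)
    (hΓ : mulSeries Γ p = PowerSeries.X ^ (p ^ n))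
    (hH : IsUniversalDeformation p n Γ H) {M : ℕ} {P : Ideal (LTRing p n)} (hP : P.IsPrime)
    (hst : IsStableIdeal p n Γ H M P) (hp : (p : LTRing p n) ∉ P) : P = ⊥ :=
  Z.char0 hn hΓ hH hP hst hp

end Crest.Agent.LU
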