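import Mathlib
import Crest.Agent.LU_B8

/-!
S0351 (blueprint LU), task B9: minimal primes of stable ideals are stable for larger `M`;
radical stable ideals.
-/

set_option autoImplicit false

noncomputable section

namespace Crest.Agent.LU

open Crest.LubinTate

variable {p : ℕ} [Fact p.Prime] {n : ℕ} {Γ : FormalGroup (GaloisField p n)} [Γ.IsComm]
  {H : FormalGroup (LTRing p n)} [H.IsComm]

theorem stable_mono {M M' : ℕ} (h : M ≤ M') {J : Ideal (LTRing p n)}
    (hJ : IsStableIdeal p n Γ H M J) : IsStableIdeal p n Γ H M' J :=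
  fun g φ hg hgi hφ => hJ g φ hg (fun i hi => hgi i (lt_of_lt_of_le hi h)) hφ

/-- Krull: an element outside a proper ideal `P` of `E₀` is outside `P + 𝔪^K` for some `K`. -/
private theorem B9_krull {P : Ideal (LTRing p n)} (hP : P ≠ ⊤) {a : LTRing p n} (ha : a ∉ P) :
    ∃ K : ℕ, a ∉ P ⊔ (RingHom.ker (LTRing.residue p n)) ^ K := by
  have := (isTest_E0 p n).isLocalRing
  have := (isTest_E0 p n).noe
  by_contra hcon
  push Not at hcon
  apply ha
  have hm : RingHom.ker (LTRing.residue p n) ≠ ⊤ := RingHom.ker_ne_top _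
  have h1 := Ideal.iInf_pow_smul_eq_bot_of_isLocalRing (M := LTRing p n ⧸ P)
    (RingHom.ker (LTRing.residue p n)) hm
  have h2 : (Ideal.Quotient.mk P a) ∈ (⨅ i : ℕ, (RingHom.ker (LTRing.residue p n)) ^ i •
      (⊤ : Submodule (LTRing p n) (LTRing p n ⧸ P))) := by
    rw [Submodule.mem_iInf]
    intro i
    obtain ⟨x, hx, y, hy, hxy⟩ := Submodule.mem_sup.1 (hcon i)
    have h3 : Ideal.Quotient.mk P a = y • Ideal.Quotient.mk P 1 := by
      rw [← hxy, map_add, Ideal.Quotient.eq_zero_iff_mem.2 hx, zero_add]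
      show _ = Ideal.Quotient.mk P (y • 1)
      rw [smul_eq_mul, mul_one]
    rw [h3]
    exact Submodule.smul_mem_smul hy Submodule.mem_top
  rw [h1, Submodule.mem_bot] at h2
  exact Ideal.Quotient.eq_zero_iff_mem.1 h2

private theorem B9_map_eq {φ : LTRing p n →+* LTRing p n} (hφ : Function.Bijective φ)
    {J : Ideal (LTRing p n)} (h : Ideal.comap φ J = J) : Ideal.map φ J = J := by
  conv_lhs => rw [← h]
  exact Ideal.map_comap_of_surjective φ hφ.2 J

/-- TASK B9a.  Let `J` be stable for `M` and `P` a minimal prime over `J`.  Then `P` is stable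
for some `M'`.
Proof: `E₀` is Noetherian, so `J` has finitely many minimal primes `P_1, ..., P_s`
(`Ideal.finite_minimalPrimes_of_isNoetherianRing`).  For `g ∈ G_M` the automorphism `φ`
(`stab_bijective`) satisfies `comap φ J = J`, hence `comap φ P` is again one of the `P_i`.  For
each `P_i ≠ P`, `P_i ⊄ P`; by Krull (`⋂_K (P + 𝔪^K) = P`, `E₀/P` Noetherian local) there is `K_i`
with `P_i ⊄ P + 𝔪^{K_i}`.  Let `K = max K_i`, `M' ≥ M` from `stab_continuous` for `K`.  For
`g ∈ G_{M'}`: if `a ∈ comap φ P` then `a = φ a - (φ a - a) ∈ P + 𝔪^K`; so `comap φ P = P_i` forces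
`P_i = P`. -/
theorem minimalPrime_stable (hn : 1 ≤ n) (hΓ : mulSeries Γ p = PowerSeries.X ^ (p ^ n))
    (hH : IsUniversalDeformation p n Γ H) {M : ℕ} {J P : Ideal (LTRing p n)}
    (hJ : IsStableIdeal p n Γ H M J) (hP : P ∈ J.minimalPrimes) :
    ∃ M' : ℕ, 1 ≤ M' ∧ IsStableIdeal p n Γ H M' P := by
  have := (isTest_E0 p n).isLocalRing
  have := (isTest_E0 p n).noe
  have hPprime : P.IsPrime := hP.1.1
  have hex : ∀ Q : Ideal (LTRing p n), ∃ K : ℕ, Q ∈ J.minimalPrimes → Q ≠ P →
      ∃ a ∈ Q, a ∉ P ⊔ (RingHom.ker (LTRing.residue p n)) ^ K := by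
    intro Q
    by_cases hQ : Q ∈ J.minimalPrimes ∧ Q ≠ P
    · have hnot : ¬ Q ≤ P := by
        intro hle
        exact hQ.2 (le_antisymm hle (hP.2 hQ.1.1 hle))
      obtain ⟨a, haQ, haP⟩ := SetLike.not_le_iff_exists.1 hnot
      obtain ⟨K, hK⟩ := B9_krull hPprime.ne_top haP
      exact ⟨K, fun _ _ => ⟨a, haQ, hK⟩⟩
    · exact ⟨0, fun h1 h2 => absurd ⟨h1, h2⟩ hQ⟩
  choose K hK using hex
  have hfin : J.minimalPrimes.Finite := Ideal.finite_minimalPrimes_of_isNoetherianRing _ J
  obtain ⟨K0, hK0⟩ : ∃ K0 : ℕ, ∀ Q ∈ J.minimalPrimes, K Q ≤ K0 := by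
    refine ⟨hfin.toFinset.sup K, fun Q hQ => ?_⟩
    exact Finset.le_sup (f := K) (hfin.mem_toFinset.2 hQ)
  obtain ⟨M', hM', hcont⟩ := stab_continuous hn hΓ hH K0
  refine ⟨max M M', le_trans hM' (le_max_right _ _), ?_⟩
  intro g φ hg hgi hφ
  have hbij : Function.Bijective φ := stab_bijective hn hΓ hH hg hφ
  have hJ' : Ideal.comap φ.toRingHom J = J :=
    hJ g φ hg (fun i hi => hgi i (lt_of_lt_of_le hi (le_max_left _ _))) hφ
  have hQ : Ideal.comap φ.toRingHom P ∈ J.minimalPrimes := by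
    have h1 := Ideal.comap_minimalPrimes_eq_of_surjective (f := φ.toRingHom) hbij.2 J
    rw [hJ'] at h1
    rw [h1]
    exact ⟨P, hP, rfl⟩
  by_contra hne
  obtain ⟨a, haQ, haP⟩ := hK _ hQ hne
  apply haP
  have h1 : φ a ∈ P := haQ
  have h2 := hcont g φ hg (fun i hi => hgi i (lt_of_lt_of_le hi (le_max_right _ _))) hφ a
  have h3 : a = φ a + -(φ a - a) := by ring
  rw [h3]
  refine Ideal.add_mem _ (Ideal.mem_sup_left h1) (Ideal.mem_sup_right (neg_mem ?_))
  exact Ideal.pow_le_pow_right (hK0 _ hQ) h2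

/-- The sum of a stable ideal containing `I_h` and `(v_h)` is stable (`h < n`).
(`map_heightIdeal`, `stab_bijective`; for a bijective `φ`, `comap φ J = J ↔ map φ J = J`.) -/
theorem stable_sup_vv (hn : 1 ≤ n) (hΓ : mulSeries Γ p = PowerSeries.X ^ (p ^ n))
    (hH : IsUniversalDeformation p n Γ H) {M h : ℕ} (h1 : h < n) {J : Ideal (LTRing p n)}
    (hJ : IsStableIdeal p n Γ H M J) (hI : heightIdeal p n H h ≤ J) :
    IsStableIdeal p n Γ H M (J ⊔ Ideal.span {vv H h}) := by
  intro g φ hg hgi hφ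
  have hbij : Function.Bijective φ := stab_bijective hn hΓ hH hg hφ
  have hJ' : Ideal.map φ.toRingHom J = J := B9_map_eq hbij (hJ g φ hg hgi hφ)
  have hL : J ⊔ Ideal.span {vv H h} = J ⊔ heightIdeal p n H (h + 1) := by
    rw [heightIdeal_succ, ← sup_assoc, sup_eq_left.2 hI]
  have hmap : Ideal.map φ.toRingHom (J ⊔ heightIdeal p n H (h + 1)) =
      J ⊔ heightIdeal p n H (h + 1) := by
    rw [Ideal.map_sup, hJ', map_heightIdeal hn hΓ hH hg hφ (Nat.succ_le_of_lt h1)]
  rw [hL]
  conv_lhs => rw [← hmap]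
  exact Ideal.comap_map_of_bijective φ.toRingHom hbij

/-- TASK B9b.  If all minimal primes over `J ≠ ⊤` are height ideals then `J.radical` is a height
ideal: the height ideals form a chain and minimal primes over `J` are pairwise incomparable, so
there is exactly one; the radical is the intersection of the minimal primes. -/
theorem radical_eq_height {J : Ideal (LTRing p n)} (hJ : J ≠ ⊤)
    (h : ∀ P ∈ J.minimalPrimes, ∃ j, j ≤ n ∧ P = heightIdeal p n H j) :
    ∃ j, j ≤ n ∧ J.radical = heightIdeal p n H j := by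
  obtain ⟨P, hP⟩ : J.minimalPrimes.Nonempty := by
    obtain ⟨Q, hQm, hQ⟩ := Ideal.exists_le_maximal J hJ
    have := hQm.isPrime
    obtain ⟨P, hP, -⟩ := Ideal.exists_minimalPrimes_le hQ
    exact ⟨P, hP⟩
  obtain ⟨j, hj, hPj⟩ := h P hP
  refine ⟨j, hj, ?_⟩
  rw [← Ideal.sInf_minimalPrimes]
  have hall : J.minimalPrimes = {P} := by
    ext Q
    rw [Set.mem_singleton_iff]
    constructor
    · intro hQ
      obtain ⟨i, -, hQi⟩ := h Q hQ
      rcases le_total i j with hij | hij
      · have hle : Q ≤ P := by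
          rw [hQi, hPj]
          exact heightIdeal_mono hij
        exact le_antisymm hle (hP.2 hQ.1 hle)
      · have hle : P ≤ Q := by
          rw [hQi, hPj]
          exact heightIdeal_mono hij
        exact le_antisymm (hQ.2 hP.1 hle) hle
    · rintro rfl
      exact hP
  rw [hall, sInf_singleton, hPj]

end Crest.Agent.LU
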