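import Mathlib
import Crest.Agent.LUA_R5
import Crest.Agent.LUA_R8
import Crest.Agent.LUB_1
import Crest.Agent.LUB_5

/-!
S0351 (blueprint LU): INTERFACE statements of parts (1) and (5) (owner: helper27), used as black
boxes in parts (6), (7).  Proofs: `LUA_*`, `LUB_*`.

Common situation: `1 ≤ h < n`, `P` prime, `I_h ≤ P`, `v_h ∉ P`,
`rad(P + (v_h)) = I_{h'}` with `h + 2 ≤ h' ≤ n`, and `e = 1 + n - h'`.
-/

set_option autoImplicit false

noncomputable section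

namespace Crest.Agent.LU

open Crest.LubinTate Filter Asymptotics

variable {p : ℕ} [Fact p.Prime] {n : ℕ} {Γ : FormalGroup (GaloisField p n)} [Γ.IsComm]
  {H : FormalGroup (LTRing p n)} [H.IsComm]

/-- The standing hypotheses of the characteristic `p` part. -/
structure Situ {p : ℕ} [Fact p.Prime] {n : ℕ} (Γ : FormalGroup (GaloisField p n)) [Γ.IsComm]
    (H : FormalGroup (LTRing p n)) [H.IsComm] (h h' : ℕ) (P : Ideal (LTRing p n)) : Prop where
  hn : 1 ≤ n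
  hΓ : mulSeries Γ p = PowerSeries.X ^ (p ^ n)
  hH : IsUniversalDeformation p n Γ H
  h1 : 1 ≤ h
  h2 : h + 2 ≤ h'
  h3 : h' ≤ n
  prime : P.IsPrime
  le : heightIdeal p n H h ≤ P
  notMem : vv H h ∉ P
  rad : (P ⊔ Ideal.span {vv H h}).radical = heightIdeal p n H h'

/-- Root sequences along a probe: `t m i → τ i`, `t m i` a root of `V_{χ m}` for large `m`. -/
structure RootSeq {p : ℕ} [Fact p.Prime] {n : ℕ} {C : Type} [NontriviallyNormedField C]
    (H : FormalGroup (LTRing p n)) (h : ℕ) (χ : ℕ → LTRing p n →+* C) {ι : Type}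
    (τ : ι → C) (t : ℕ → ι → C) : Prop where
  root : ∀ i, ∀ᶠ m in atTop, t m i ∈ rts (VS H h (χ m))
  tendsto : ∀ i, Tendsto (fun m => t m i) atTop (nhds (τ i))

/-- BB0a: if `h' = h + 1` then `P = I_h`. -/
theorem bb0_eq {h : ℕ} {P : Ideal (LTRing p n)} (hn : 1 ≤ n)
    (hΓ : mulSeries Γ p = PowerSeries.X ^ (p ^ n)) (hH : IsUniversalDeformation p n Γ H)
    (h1 : 1 ≤ h) (h2 : h < n) (hP : P.IsPrime) (hle : heightIdeal p n H h ≤ P)
    (hv : vv H h ∉ P)
    (hrad : (P ⊔ Ideal.span {vv H h}).radical = heightIdeal p n H (h + 1)) :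
    P = heightIdeal p n H h := by
  exact LUA.eq_height_of_rad hΓ hH h2 hP hle hv hrad

/-- BB0b: existence of the field `C` and of the point `x`. -/
theorem bb0_exists {h h' : ℕ} {P : Ideal (LTRing p n)} (S : Situ Γ H h h' P) :
    ∃ (C : Type) (_ : NontriviallyNormedField C) (_ : IsUltrametricDist C) (_ : CompleteSpace C)
      (_ : IsAlgClosed C) (_ : CharP C p) (x : LTRing p n →+* C), IsPoint P x ∧
      ∀ j, h' ≤ j → j < n → ‖x (vv H j)‖ ≤ ‖x (vv H h)‖ := by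
  have h2 := S.h2
  exact LUA.exists_point S.hn S.hΓ S.hH S.h1 (by omega) S.h3 S.prime S.le S.notMem S.rad

variable {C : Type} [NontriviallyNormedField C] [IsUltrametricDist C] [CompleteSpace C]
  [IsAlgClosed C] [CharP C p]

/-- BB1: more than `e = 1 + n - h'` roots of `V_x` satisfy a linear relation to first order. -/
theorem bb1 {h h' : ℕ} {P : Ideal (LTRing p n)} (S : Situ Γ H h h' P)
    {x : LTRing p n →+* C} (hx : IsPoint P x) {r : ℕ} (hr : 1 + n - h' < r) (τ : Fin r → C)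
    (hτ : ∀ i, τ i ∈ rts (VS H h x)) :
    ∃ c : Fin r → C, c ≠ 0 ∧ ∀ χ, IsProbe H h P x χ → ∀ t : ℕ → Fin r → C,
      RootSeq H h χ τ t →
      (fun m => ∑ i, c i * (t m i - τ i)) =O[atTop] (fun m => (del H h x (χ m)) ^ 2) := by
  have h2 := S.h2
  haveI := S.prime
  obtain ⟨K₁, i1, i2, i3, ι₁, W₁, W₂, Pk⟩ := LUA.exists_pack (C := C) S.hn S.hΓ S.hH S.h1
    (show h < h' by omega) S.h3 S.le S.notMem S.rad hx 1
  choose y hy using fun i => Pk.exists_preimage₁ (hτ i)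
  have hnot : ¬ LUA.PIndep p y := fun hp => absurd (LUA.card_le_of_pindep Pk.deg hp) (by omega)
  obtain ⟨c, hc0, hc⟩ := Pk.relation_of_not_pindep y hnot
  refine ⟨c, hc0, fun χ hχ t ht => ?_⟩
  have h3 := hc χ hχ t ht.root (fun i => by rw [hy i]; exact ht.tendsto i)
  simpa only [hy] using h3

/-- BB2: if `e` roots of `V_x` satisfy no linear relation to first order, every root of an iterate
`V_x^{[N']}` is, to first order, a `p^j`-th power of a nontrivial linear combination of them. -/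
theorem bb2 {h h' : ℕ} {P : Ideal (LTRing p n)} (S : Situ Γ H h h' P)
    {x : LTRing p n →+* C} (hx : IsPoint P x) (τ : Fin (1 + n - h') → C)
    (hτ : ∀ i, τ i ∈ rts (VS H h x))
    (hind : ∀ c : Fin (1 + n - h') → C,
      (∀ χ, IsProbe H h P x χ → ∀ t : ℕ → Fin (1 + n - h') → C, RootSeq H h χ τ t →
        (fun m => ∑ i, c i * (t m i - τ i)) =O[atTop] (fun m => (del H h x (χ m)) ^ 2)) → c = 0)
    (N' : ℕ) {τ₀ : C} (hτ₀ : τ₀ ∈ rts (VN p h (VS H h x) N')) (J : ℕ) :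
    ∃ j ≤ J, ∃ γ : Fin (1 + n - h') → C, (j < J → γ ≠ 0) ∧
      ∀ χ, IsProbe H h P x χ → ∀ (t : ℕ → Fin (1 + n - h') → C) (t₀ : ℕ → C),
        RootSeq H h χ τ t → (∀ᶠ m in atTop, t₀ m ∈ rts (VN p h (VS H h (χ m)) N')) →
        Tendsto t₀ atTop (nhds τ₀) →
        ∃ ε : ℕ → C, (∀ m, ε m ^ (p ^ j) = t₀ m - τ₀) ∧
          (fun m => ε m - ∑ i, γ i * (t m i - τ i)) =O[atTop]
            (fun m => (del H h x (χ m)) ^ 2) := by
  have h2 := S.h2
  haveI := S.prime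
  obtain ⟨K₁, i1, i2, i3, ι₁, W₁, W₂, Pk⟩ := LUA.exists_pack (C := C) S.hn S.hΓ S.hH S.h1
    (show h < h' by omega) S.h3 S.le S.notMem S.rad hx N'
  choose y hy using fun i => Pk.exists_preimage₁ (hτ i)
  obtain ⟨y₀, hy₀⟩ := Pk.exists_preimage₂ hτ₀
  have hp : LUA.PIndep p y := by
    by_contra hnot
    obtain ⟨c, hc0, hc⟩ := Pk.relation_of_not_pindep y hnot
    refine hc0 (hind c fun χ hχ t ht => ?_)
    have h3 := hc χ hχ t ht.root (fun i => by rw [hy i]; exact ht.tendsto i)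
    simpa only [hy] using h3
  obtain ⟨j, hj, γ, hγ, hexp⟩ := Pk.expansion y hp y₀ J
  refine ⟨j, hj, γ, hγ, fun χ hχ t t₀ ht ht₀ hlim => ?_⟩
  have h3 := hexp χ hχ t t₀ ht.root (fun i => by rw [hy i]; exact ht.tendsto i) ht₀
    (by rw [hy₀]; exact hlim)
  simpa only [hy, hy₀] using h3

/-- BB3: the roots of `V_x` control the displacement. -/
theorem bb3 {h h' : ℕ} {P : Ideal (LTRing p n)} (S : Situ Γ H h h' P)
    {x : LTRing p n →+* C} (hx : IsPoint P x) {χ : ℕ → LTRing p n →+* C}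
    (hχ : IsProbe H h P x χ) (t : ℕ → rts (VS H h x) → C)
    (ht : RootSeq H h χ (fun τ : rts (VS H h x) => (τ : C)) t) :
    ∃ K : ℝ, ∀ᶠ m in atTop, ∃ τ : rts (VS H h x), del H h x (χ m) ≤ K * ‖t m τ - τ‖ := by
  have h2 := S.h2
  exact LUA.roots_control S.hn S.hΓ S.hH S.h1 (show h < h' by omega) S.h3 S.prime S.le S.notMem
    S.rad hx hχ t ht.root ht.tendsto

/-- BB4: the number of roots: `V^{[N]}_x` has exactly `p^{(n-h)N}` roots in the open unit ball.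
(Weierstrass preparation over `A = E₀/P`; the roots are simple because a homomorphism `f` satisfies
`f'(X) = f'(0)·unit`.) -/
theorem bb4 {h h' : ℕ} {P : Ideal (LTRing p n)} (S : Situ Γ H h h' P)
    {x : LTRing p n →+* C} (hx : IsPoint P x) (N : ℕ) :
    (rts (VN p h (VS H h x) N)).Finite ∧
      (rts (VN p h (VS H h x) N)).ncard = p ^ ((n - h) * N) := by
  have h2 := S.h2
  have h3 := S.h3
  exact LUA.ncard_rts S.hΓ S.hH (show h ≤ n by omega) S.prime S.h1 S.le S.notMem hx N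

/-- BB5: the dimension of the last slope group is at least `e`: there is `μ ∈ (0,1)` bounding the
roots of `V_x` and at most `p^{h'-h-1}` roots have norm `< μ`; moreover all `x(v_{h+i})`, `i < n-h`,
have norm `≤ μ`.
Proof (Vieta): `V = P₁·U`, `P₁ = ∏ (X - τ)` of degree `p^d`, `U` a unit series with `U ≡ 1`
modulo `𝔪`; `μ = max ‖τ‖`, `w = #{‖τ‖ < μ}`: the coefficient `a_w` of `P₁` has norm exactly
`μ^{p^d - w}`, `‖a_i‖ ≤ μ^{p^d-i}`, so the coefficient `V_w` has norm `μ^{p^d - w}`;  `w` is a power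
`p^{i₀}` (order of a subgroup of the group of roots), so `‖x(v_{h+i₀})‖ = μ^{p^d - p^{i₀}}`, while
`‖x(v_h)‖ ≤ μ^{p^d - 1}`; if `h + i₀ ≥ h'` then `‖x(v_{h+i₀})‖ ≤ ‖x(v_h)‖` contradicts `i₀ ≥ 1`. -/
theorem bb5 {h h' : ℕ} {P : Ideal (LTRing p n)} (S : Situ Γ H h h' P)
    {x : LTRing p n →+* C} (hx : IsPoint P x)
    (hval : ∀ j, h' ≤ j → j < n → ‖x (vv H j)‖ ≤ ‖x (vv H h)‖) :
    ∃ μ : ℝ, 0 < μ ∧ μ < 1 ∧ (∃ τ ∈ rts (VS H h x), ‖τ‖ = μ) ∧
      (∀ τ ∈ rts (VS H h x), ‖τ‖ ≤ μ) ∧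
      {τ ∈ rts (VS H h x) | ‖τ‖ < μ}.ncard ≤ p ^ (h' - h - 1) ∧
      (∀ i, i < n - h → ‖x (vv H (h + i))‖ ≤ μ) := by
  exact LUA.last_slope S.hΓ S.hH S.h2 S.h3 S.prime S.h1 S.le S.notMem hx hval

end Crest.Agent.LU
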