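import Mathlib
import Crest.Agent.LU_D4

/-!
S0351 (blueprint LU), part D: the analytic datum `(Γ, H, V, ρ)` and the exponential-like map
`E : Γ(𝔪_C) → H(𝔪_C)`.
-/

set_option autoImplicit false

noncomputable section

namespace Crest.Agent.LU

open Crest.LubinTate

/-- Analytic datum: `Γ` defined over `F_q` with `[p]_Γ = X^q`, `H ≡ Γ` modulo `ρ`,
`[p]_H = V(X^Q)`, `q = p^n`, `Q = p^h`, `V : H^{(Q)} → H`, `V'(0) ≠ 0`. -/
structure Datum (p n h : ℕ) [Fact p.Prime] {C : Type} [NontriviallyNormedField C] [CharP C p]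
    (Γ : IFG C) where
  h1 : 1 ≤ h
  h2 : h < n
  Γ_frob : Γ.law.map (iterateFrobenius C p n) = Γ.law
  Γ_p : mulSeries Γ.law p = PowerSeries.X ^ (p ^ n)
  /-- the deformation -/
  H : IFG C
  /-- `[p]_H = V(X^Q)` -/
  V : PowerSeries C
  /-- bound for `H - Γ` -/
  ρ : ℝ
  ρ0 : 0 < ρ
  ρ1 : ρ < 1
  close : ∀ d, ‖MvPowerSeries.coeff d (H.law.toPowerSeries - Γ.law.toPowerSeries)‖ ≤ ρ
  V_int : Int1 V
  V_p : mulSeries H.law p = cmp V (PowerSeries.X ^ (p ^ h) : PowerSeries C)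
  V_hom : IsFGHom (H.law.map (iterateFrobenius C p h)) H.law V
  V_ne : PowerSeries.coeff 1 V ≠ 0

variable {p n h : ℕ} [Fact p.Prime] {C : Type} [NontriviallyNormedField C] [IsUltrametricDist C]
  [CompleteSpace C] [IsAlgClosed C] [CharP C p] {Γ : IFG C}

/-- `z ↦ z^{q^{-N}}` on the unit ball. -/
def rt (p n : ℕ) [Fact p.Prime] [CharP C p] {Γ : IFG C} (N : ℕ) (z : Pt Γ) : Pt Γ :=
  ⟨(iterateFrobeniusEquiv C p (n * N)).symm z.val, by
    have h := z.lt
    have e : z.val = ((iterateFrobeniusEquiv C p (n * N)).symm z.val) ^ (p ^ (n * N)) := by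
      rw [← iterateFrobeniusEquiv_def, RingEquiv.apply_symm_apply]
    rw [e, norm_pow] at h
    by_contra hc
    push Not at hc
    exact absurd h (not_lt.mpr (one_le_pow₀ hc))⟩

theorem rt_pow (N : ℕ) (z : Pt Γ) : (rt p n N z).val ^ (p ^ (n * N)) = z.val := by
  show ((iterateFrobeniusEquiv C p (n * N)).symm z.val) ^ (p ^ (n * N)) = z.val
  rw [← iterateFrobeniusEquiv_def, RingEquiv.apply_symm_apply]

section ExistsE

/-- a point of `Γ` viewed as a point of `H` -/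
private def iot {F : IFG C} (G : IFG C) (z : Pt F) : Pt G := ⟨z.val, z.lt⟩

private theorem cadd_close (D : Datum p n h Γ) {a b : C} (ha : ‖a‖ < 1) (hb : ‖b‖ < 1) :
    ‖cadd D.H a b - cadd Γ a b‖ ≤ D.ρ := by
  have hz : ∀ s : Fin 2, ‖(![a, b] : Fin 2 → C) s‖ < 1 := by
    intro s
    fin_cases s
    · exact ha
    · exact hb
  unfold cadd
  rw [← ev_sub D.H.int Γ.int hz]
  exact norm_ev_le hz D.ρ0.le D.close

private theorem cadd_lip (G : IFG C) {a b a' b' : C} (ha : ‖a‖ < 1) (hb : ‖b‖ < 1)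
    (ha' : ‖a'‖ < 1) (hb' : ‖b'‖ < 1) {ε : ℝ} (h1 : ‖a - a'‖ ≤ ε) (h2 : ‖b - b'‖ ≤ ε) :
    ‖cadd G a b - cadd G a' b'‖ ≤ ε := by
  have hz : ∀ s : Fin 2, ‖(![a, b] : Fin 2 → C) s‖ < 1 := by
    intro s
    fin_cases s
    · exact ha
    · exact hb
  have hz' : ∀ s : Fin 2, ‖(![a', b'] : Fin 2 → C) s‖ < 1 := by
    intro s
    fin_cases s
    · exact ha'
    · exact hb'
  unfold cadd
  refine norm_ev_sub_le G.int hz hz' ((norm_nonneg _).trans h1) ?_
  intro s
  fin_cases s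
  · exact h1
  · exact h2

private theorem umax {a b c : C} {ε : ℝ} (h1 : ‖a - b‖ ≤ ε) (h2 : ‖b - c‖ ≤ ε) :
    ‖a - c‖ ≤ ε := by
  have : a - c = (a - b) + (b - c) := by ring
  rw [this]
  exact (IsUltrametricDist.norm_add_le_max _ _).trans (max_le h1 h2)

private theorem nsmul_close (D : Datum p n h Γ) (w : Pt Γ) (m : ℕ) :
    ‖(m • iot D.H w).val - (m • w).val‖ ≤ D.ρ := by
  induction m with
  | zero => simpa using D.ρ0.le
  | succ m ih =>
    rw [succ_nsmul, succ_nsmul, Pt.val_add, Pt.val_add]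
    refine umax (b := cadd D.H (m • w).val w.val) ?_ (cadd_close D (m • w).lt w.lt)
    refine cadd_lip D.H (m • iot D.H w).lt (iot D.H w).lt (m • w).lt w.lt ih ?_
    show ‖w.val - w.val‖ ≤ D.ρ
    simpa using D.ρ0.le

private theorem p_nsmul_val (D : Datum p n h Γ) (a : Pt D.H) :
    (p • a).val = ev1 D.V (a.val ^ (p ^ h)) := by
  have hp : p ≠ 0 := (Fact.out : p.Prime).ne_zero
  have hQ : p ^ h ≠ 0 := pow_ne_zero _ hp
  rw [Pt.nsmul_val, D.V_p]
  have hX : Int1 (PowerSeries.X ^ (p ^ h) : PowerSeries C) :=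
    Int1.pow (Int1.var ()) _
  have h0 : PowerSeries.constantCoeff (PowerSeries.X ^ (p ^ h) : PowerSeries C) = 0 := by
    simp [hp]
  rw [ev1_cmp D.V_int hX h0 a.lt, ev1_X_pow _ a.lt]

private theorem p_nsmul_lip (D : Datum p n h Γ) (a b : Pt D.H) :
    ‖(p • a).val - (p • b).val‖ ≤ ‖a.val - b.val‖ ^ (p ^ h) := by
  rw [p_nsmul_val, p_nsmul_val]
  exact norm_ev1_pow_sub_le p D.V_int h a.lt b.lt

private theorem pN_nsmul_lip (D : Datum p n h Γ) (N : ℕ) (a b : Pt D.H) :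
    ‖(p ^ N • a).val - (p ^ N • b).val‖ ≤ ‖a.val - b.val‖ ^ ((p ^ h) ^ N) := by
  induction N with
  | zero => simp
  | succ N ih =>
    rw [pow_succ' p N, mul_nsmul', mul_nsmul']
    refine (p_nsmul_lip D _ _).trans ?_
    refine (pow_le_pow_left₀ (norm_nonneg _) ih _).trans ?_
    rw [← pow_mul, ← pow_succ]

private theorem rt_succ (N : ℕ) (z : Pt Γ) :
    (rt p n N z).val = (rt p n (N + 1) z).val ^ (p ^ n) := by
  apply iterateFrobenius_inj C p (n * N)
  rw [iterateFrobenius_def, iterateFrobenius_def, rt_pow, ← pow_mul, ← pow_add,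
    show n + n * N = n * (N + 1) by ring, rt_pow]

/-- the approximations -/
private def eN (D : Datum p n h Γ) (N : ℕ) (z : Pt Γ) : Pt D.H := p ^ N • iot D.H (rt p n N z)

private theorem eN_step (D : Datum p n h Γ) (N : ℕ) (z : Pt Γ) :
    ‖(eN D (N + 1) z).val - (eN D N z).val‖ ≤ D.ρ ^ ((p ^ h) ^ N) := by
  unfold eN
  rw [pow_succ p N, mul_nsmul']
  refine (pN_nsmul_lip D N _ _).trans ?_
  refine pow_le_pow_left₀ (norm_nonneg _) ?_ _
  have h1 := nsmul_close D (rt p n (N + 1) z) p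
  have h2 : (p • rt p n (N + 1) z).val = (iot D.H (rt p n N z)).val := by
    rw [Pt.nsmul_val, D.Γ_p, ev1_X_pow _ (rt p n (N + 1) z).lt]
    exact (rt_succ N z).symm
  rwa [h2] at h1

private theorem eN_mono (D : Datum p n h Γ) (N : ℕ) (z : Pt Γ) (k : ℕ) :
    ‖(eN D (N + k) z).val - (eN D N z).val‖ ≤ D.ρ ^ ((p ^ h) ^ N) := by
  induction k with
  | zero => simpa using pow_nonneg D.ρ0.le _
  | succ k ih =>
    refine umax (b := (eN D (N + k) z).val) ?_ ih
    refine (eN_step D (N + k) z).trans ?_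
    refine pow_le_pow_of_le_one D.ρ0.le D.ρ1.le ?_
    exact Nat.pow_le_pow_right (pow_pos (Fact.out : p.Prime).pos h) (Nat.le_add_right N k)

private theorem le_QN (hh : 1 ≤ h) (N : ℕ) : N ≤ (p ^ h) ^ N := by
  have hp : 2 ≤ p := (Fact.out : p.Prime).two_le
  have h2 : 2 ≤ p ^ h := by
    calc 2 ≤ p := hp
      _ = p ^ 1 := (pow_one p).symm
      _ ≤ p ^ h := Nat.pow_le_pow_right (by omega) hh
  calc N ≤ 2 ^ N := Nat.lt_two_pow_self.le
    _ ≤ (p ^ h) ^ N := Nat.pow_le_pow_left h2 N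

private theorem eN_cauchy (D : Datum p n h Γ) (z : Pt Γ) :
    CauchySeq fun N => (eN D N z).val := by
  refine cauchySeq_of_le_geometric D.ρ 1 D.ρ1 fun N => ?_
  rw [dist_comm, dist_eq_norm, one_mul]
  exact (eN_step D N z).trans (pow_le_pow_of_le_one D.ρ0.le D.ρ1.le (le_QN D.h1 N))

/-- the limit -/
private def lim (D : Datum p n h Γ) (z : Pt Γ) : C :=
  Classical.choose (cauchySeq_tendsto_of_complete (eN_cauchy D z))

private theorem lim_spec (D : Datum p n h Γ) (z : Pt Γ) :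
    Filter.Tendsto (fun N => (eN D N z).val) Filter.atTop (nhds (lim D z)) :=
  Classical.choose_spec (cauchySeq_tendsto_of_complete (eN_cauchy D z))

private theorem lim_close (D : Datum p n h Γ) (N : ℕ) (z : Pt Γ) :
    ‖lim D z - (eN D N z).val‖ ≤ D.ρ ^ ((p ^ h) ^ N) := by
  have h1 : Filter.Tendsto (fun k => ‖(eN D k z).val - (eN D N z).val‖) Filter.atTop
      (nhds ‖lim D z - (eN D N z).val‖) := ((lim_spec D z).sub_const _).norm
  refine le_of_tendsto h1 ?_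
  filter_upwards [Filter.eventually_ge_atTop N] with k hk
  obtain ⟨j, rfl⟩ := Nat.exists_eq_add_of_le hk
  exact eN_mono D N z j

private theorem lim_lt (D : Datum p n h Γ) (z : Pt Γ) : ‖lim D z‖ < 1 := by
  have h1 := lim_close D 0 z
  have h2 : lim D z = (lim D z - (eN D 0 z).val) + (eN D 0 z).val := by ring
  rw [h2]
  refine (IsUltrametricDist.norm_add_le_max _ _).trans_lt (max_lt (h1.trans_lt ?_) (eN D 0 z).lt)
  simpa using D.ρ1

private theorem coeff_frob (D : Datum p n h Γ) (N : ℕ) :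
    MvPowerSeries.map (iterateFrobenius C p (n * N)) Γ.law.toPowerSeries =
      Γ.law.toPowerSeries := by
  have h0 : MvPowerSeries.map (iterateFrobenius C p n) Γ.law.toPowerSeries =
      Γ.law.toPowerSeries := congrArg FormalGroup.toPowerSeries D.Γ_frob
  ext d
  rw [MvPowerSeries.coeff_map, iterateFrobenius_def]
  have h1 : (MvPowerSeries.coeff d Γ.law.toPowerSeries) ^ (p ^ n) =
      MvPowerSeries.coeff d Γ.law.toPowerSeries := by
    have h2 := congrArg (MvPowerSeries.coeff d) h0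
    rwa [MvPowerSeries.coeff_map, iterateFrobenius_def] at h2
  induction N with
  | zero => simp
  | succ N ih => rw [mul_add, mul_one, pow_add, pow_mul, ih, h1]

private theorem rt_add (D : Datum p n h Γ) (N : ℕ) (a b : Pt Γ) :
    rt p n N (a + b) = rt p n N a + rt p n N b := by
  apply Pt.ext
  apply iterateFrobenius_inj C p (n * N)
  rw [iterateFrobenius_def, iterateFrobenius_def, rt_pow, Pt.val_add, Pt.val_add]
  unfold cadd
  have hz : ∀ s : Fin 2, ‖(![(rt p n N a).val, (rt p n N b).val] : Fin 2 → C) s‖ < 1 := by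
    intro s
    fin_cases s
    · exact (rt p n N a).lt
    · exact (rt p n N b).lt
  rw [ev_pow_frob p (n * N) Γ.int hz, coeff_frob D N]
  congr 1
  funext s
  fin_cases s
  · exact (rt_pow N a).symm
  · exact (rt_pow N b).symm

private theorem lim_add (D : Datum p n h Γ) (a b : Pt Γ) :
    lim D (a + b) = cadd D.H (lim D a) (lim D b) := by
  have key : ∀ N : ℕ, ‖lim D (a + b) - cadd D.H (lim D a) (lim D b)‖ ≤ D.ρ ^ N := by
    intro N
    refine le_trans ?_ (pow_le_pow_of_le_one D.ρ0.le D.ρ1.le (le_QN (p := p) D.h1 N))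
    refine umax (lim_close D N (a + b)) ?_
    have h1 : ‖(eN D N (a + b)).val - (eN D N a + eN D N b).val‖ ≤ D.ρ ^ ((p ^ h) ^ N) := by
      unfold eN
      rw [← nsmul_add]
      refine (pN_nsmul_lip D N _ _).trans ?_
      refine pow_le_pow_left₀ (norm_nonneg _) ?_ _
      rw [rt_add D, Pt.val_add, norm_sub_rev]
      exact cadd_close D (rt p n N a).lt (rt p n N b).lt
    refine umax h1 ?_
    rw [Pt.val_add]
    refine cadd_lip D.H (eN D N a).lt (eN D N b).lt (lim_lt D a) (lim_lt D b) ?_ ?_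
    · rw [norm_sub_rev]
      exact lim_close D N a
    · rw [norm_sub_rev]
      exact lim_close D N b
  have h0 : ‖lim D (a + b) - cadd D.H (lim D a) (lim D b)‖ ≤ 0 :=
    ge_of_tendsto' (tendsto_pow_atTop_nhds_zero_of_lt_one D.ρ0.le D.ρ1) key
  exact sub_eq_zero.mp (norm_le_zero_iff.mp h0)

end ExistsE

/-- TASK D5a.  Existence of `E`.
`E(z) = lim [p^N]_H(z^{q^{-N}})`.  With `w = z^{q^{-N-1}}`: `[p^{N+1}]_H(w) = [p^N]_H([p]_H(w))` and
`‖[p]_H(w) - w^q‖ ≤ ρ` since `[p]_H ≡ [p]_Γ = X^q` modulo `ρ`; `[p^N]_H(X) = V^{[N]}(X^{Q^N})`, so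
`‖[p^N]_H(a) - [p^N]_H(b)‖ ≤ ‖a - b‖^{Q^N}` (`norm_ev1_pow_sub_le`).  So the sequence is Cauchy
with `‖e_{N+1} - e_N‖ ≤ ρ^{Q^N}`, and the limit satisfies `‖E(z) - e_N‖ ≤ ρ^{Q^N}`.
Additivity: `Γ` is defined over `F_q` so `(a +_Γ b)^{q^{-N}} = a^{q^{-N}} +_Γ b^{q^{-N}}`, which is
`≡ a^{q^{-N}} +_H b^{q^{-N}}` modulo `ρ`; apply `[p^N]_H` (error `ρ^{Q^N} → 0`). -/
theorem Datum.exists_E (D : Datum p n h Γ) :
    ∃ E : Pt Γ →+ Pt D.H, ∀ (z : Pt Γ) (N : ℕ),
      ‖(E z).val - ev1 (mulSeries D.H.law (p ^ N)) (rt p n N z).val‖ ≤ D.ρ ^ ((p ^ h) ^ N) := by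
  refine ⟨AddMonoidHom.mk' (fun z => (⟨lim D z, lim_lt D z⟩ : Pt D.H))
    (fun a b => Pt.ext (lim_add D a b)), fun z N => ?_⟩
  have h1 := lim_close D N z
  unfold eN at h1
  rw [Pt.nsmul_val] at h1
  exact h1

/-- The map `E : Γ(𝔪_C) → H(𝔪_C)`. -/
def Datum.E (D : Datum p n h Γ) : Pt Γ →+ Pt D.H := Classical.choose D.exists_E

theorem Datum.E_spec (D : Datum p n h Γ) (z : Pt Γ) (N : ℕ) :
    ‖(D.E z).val - ev1 (mulSeries D.H.law (p ^ N)) (rt p n N z).val‖ ≤ D.ρ ^ ((p ^ h) ^ N) :=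
  Classical.choose_spec D.exists_E z N

/-- The Tate module `T = ker E`. -/
def Datum.T (D : Datum p n h Γ) : AddSubgroup (Pt Γ) := D.E.ker

end Crest.Agent.LU
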