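import Mathlib
import Crest.Agent.LU_BB
import Crest.Agent.LU_B6
import Crest.Agent.LU_D5

/-!
S0351 (blueprint LU), task D8: the analytic datum of a point `x : E₀ → C`.
-/

set_option autoImplicit false

noncomputable section

namespace Crest.Agent.LU

open Crest.LubinTate

variable {p : ℕ} [Fact p.Prime] {n : ℕ} {Γ : FormalGroup (GaloisField p n)} [Γ.IsComm]
  {H : FormalGroup (LTRing p n)} [H.IsComm]
  {C : Type} [NontriviallyNormedField C] [IsUltrametricDist C] [CompleteSpace C]
  [IsAlgClosed C] [CharP C p]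

/-- `x` restricted to `W(k)` is `ι ∘ (residue)`. -/
def IsOver (ι : GaloisField p n →+* C) (x : LTRing p n →+* C) : Prop :=
  ∀ w : WittVector p (GaloisField p n),
    x (algebraMap (WittVector p (GaloisField p n)) (LTRing p n) w) =
      ι (WittVector.constantCoeff w)

/-- TASK D8. (`x p = 0`, and `ker constantCoeff = (p)`: `WittVector.ker_constantCoeff`.) -/
theorem exists_iota {P : Ideal (LTRing p n)} {x : LTRing p n →+* C} (hx : IsPoint P x) :
    ∃ ι : GaloisField p n →+* C, IsOver ι x := by
  have _ := hx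
  have hsurj : Function.Surjective
      (WittVector.constantCoeff : WittVector p (GaloisField p n) →+* GaloisField p n) :=
    WittVector.constantCoeff_surjective p
  have hker : RingHom.ker
      (WittVector.constantCoeff : WittVector p (GaloisField p n) →+* GaloisField p n) ≤
      RingHom.ker (x.comp (algebraMap (WittVector p (GaloisField p n)) (LTRing p n))) := by
    rw [WittVector.ker_constantCoeff, Ideal.span_le, Set.singleton_subset_iff]
    show (x.comp (algebraMap (WittVector p (GaloisField p n)) (LTRing p n)))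
      (p : WittVector p (GaloisField p n)) = 0
    rw [map_natCast]
    exact CharP.cast_eq_zero C p
  refine ⟨(WittVector.constantCoeff : WittVector p (GaloisField p n) →+*
    GaloisField p n).liftOfSurjective hsurj ⟨_, hker⟩, fun w => ?_⟩
  rw [RingHom.liftOfSurjective_comp_apply]
  rfl

omit [IsUltrametricDist C] [CompleteSpace C] [IsAlgClosed C] [CharP C p] in
private theorem D8_norm_iota (ι : GaloisField p n →+* C) {c : GaloisField p n}
    (hc : c ≠ 0) : ‖ι c‖ = 1 := by
  obtain ⟨k, hk, hk1⟩ := isOfFinOrder_iff_pow_eq_one.1 (isOfFinOrder_of_finite (Units.mk0 c hc))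
  have h1 : c ^ k = 1 := by
    have := congrArg Units.val hk1
    simpa using this
  have h2 : ‖ι c‖ ^ k = 1 := by
    rw [← norm_pow, ← map_pow, h1, map_one, norm_one]
  exact (pow_eq_one_iff_of_nonneg (norm_nonneg _) hk.ne').1 h2

omit [IsUltrametricDist C] [CompleteSpace C] [IsAlgClosed C] [CharP C p] in
theorem IsOver.same {ι : GaloisField p n →+* C} {x y : LTRing p n →+* C} (hx : IsOver ι x)
    (hxy : SameConst x y) : IsOver ι y := fun w => (hxy w).symm.trans (hx w)

/-- Elements of a finite field have norm `0` or `1`. -/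
theorem norm_iota_le (hn : 1 ≤ n) (ι : GaloisField p n →+* C) (c : GaloisField p n) :
    ‖ι c‖ ≤ 1 := by
  have _ := hn
  by_cases hc : c = 0
  · rw [hc, map_zero, norm_zero]
    exact zero_le_one
  · exact (D8_norm_iota ι hc).le

theorem norm_iota_eq (hn : 1 ≤ n) (ι : GaloisField p n →+* C) {c : GaloisField p n}
    (hc : c ≠ 0) : ‖ι c‖ = 1 := by
  have _ := hn
  exact D8_norm_iota ι hc

/-- `Γ` over `C`. -/
def ΓC (hn : 1 ≤ n) (Γ : FormalGroup (GaloisField p n)) [Γ.IsComm]
    (ι : GaloisField p n →+* C) : IFG C where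
  law := Γ.map ι
  int := fun d => by
    show ‖MvPowerSeries.coeff d (MvPowerSeries.map ι Γ.toPowerSeries)‖ ≤ 1
    rw [MvPowerSeries.coeff_map]
    exact norm_iota_le hn ι _
  comm := isComm_map Γ ι

/-- `H_x`. -/
def HC (H : FormalGroup (LTRing p n)) [H.IsComm] {P : Ideal (LTRing p n)}
    {x : LTRing p n →+* C} (hx : IsPoint P x) : IFG C where
  law := H.map x
  int := fun d => by
    show ‖MvPowerSeries.coeff d (MvPowerSeries.map x H.toPowerSeries)‖ ≤ 1
    rw [MvPowerSeries.coeff_map]
    exact hx.le _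
  comm := isComm_map H x

/-- The bound `ρ = max ‖x(v_{h+j})‖`. -/
def rhoC (H : FormalGroup (LTRing p n)) (h : ℕ) (x : LTRing p n →+* C) : ℝ :=
  ⨆ j : Fin (n - h), ‖x (vv H (h + j))‖

omit [IsUltrametricDist C] [CompleteSpace C] [IsAlgClosed C] [CharP C p] [H.IsComm] in
private theorem D8_le_rhoC (h : ℕ) (x : LTRing p n →+* C) (j : Fin (n - h)) :
    ‖x (vv H (h + j))‖ ≤ rhoC H h x :=
  le_ciSup (f := fun j : Fin (n - h) => ‖x (vv H (h + j))‖) (Set.finite_range _).bddAbove j

theorem rhoC_pos {h h' : ℕ} {P : Ideal (LTRing p n)} (S : Situ Γ H h h' P)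
    {x : LTRing p n →+* C} (hx : IsPoint P x) : 0 < rhoC H h x := by
  have h2 := S.h2
  have h3 := S.h3
  refine lt_of_lt_of_le ?_ (D8_le_rhoC h x ⟨0, by omega⟩)
  rw [norm_pos_iff]
  intro hz
  apply S.notMem
  rw [← hx.ker]
  exact hz

theorem rhoC_lt {h h' : ℕ} {P : Ideal (LTRing p n)} (S : Situ Γ H h h' P)
    {x : LTRing p n →+* C} (hx : IsPoint P x) : rhoC H h x < 1 := by
  have h2 := S.h2
  have h3 := S.h3
  haveI : Nonempty (Fin (n - h)) := ⟨⟨0, by omega⟩⟩
  obtain ⟨j, hj⟩ := exists_eq_ciSup_of_finite (f := fun j : Fin (n - h) => ‖x (vv H (h + j))‖)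
  unfold rhoC
  rw [← hj]
  refine hx.lt _ ?_
  have hj2 := j.2
  exact residue_vv_lt S.hΓ S.hH.1 (by omega)

/-- Every element of `𝔪 = I_n = (v_0, ..., v_{n-1})` has `‖x a‖ ≤ ρ` (`heightIdeal_n`). -/
theorem norm_le_rhoC {h h' : ℕ} {P : Ideal (LTRing p n)} (S : Situ Γ H h h' P)
    {x : LTRing p n →+* C} (hx : IsPoint P x) {a : LTRing p n}
    (ha : LTRing.residue p n a = 0) : ‖x a‖ ≤ rhoC H h x := by
  have hρ0 := (rhoC_pos S hx).le
  have key : ∀ m ≤ n, ∀ a ∈ heightIdeal p n H m, ‖x a‖ ≤ rhoC H h x := by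
    intro m
    induction m with
    | zero =>
      intro _ a ha
      rw [heightIdeal_zero, Ideal.mem_bot] at ha
      rw [ha, map_zero, norm_zero]
      exact hρ0
    | succ m ih =>
      intro hm a ha
      rw [heightIdeal_succ, Submodule.mem_sup] at ha
      obtain ⟨b, hb, c, hc, rfl⟩ := ha
      obtain ⟨d, rfl⟩ := Ideal.mem_span_singleton'.1 hc
      rw [map_add]
      refine (IsUltrametricDist.norm_add_le_max _ _).trans (max_le (ih (by omega) b hb) ?_)
      rw [map_mul, norm_mul]
      have hv : ‖x (vv H m)‖ ≤ rhoC H h x := by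
        rcases Nat.lt_or_ge m h with hlt | hge
        · have h0 : x (vv H m) = 0 := by
            have h1 : vv H m ∈ P := S.le (vv_mem hlt)
            rw [← hx.ker] at h1
            exact h1
          rw [h0, norm_zero]
          exact hρ0
        · obtain ⟨j, rfl⟩ := Nat.exists_eq_add_of_le hge
          exact D8_le_rhoC h x ⟨j, by omega⟩
      calc ‖x d‖ * ‖x (vv H m)‖ ≤ 1 * rhoC H h x :=
            mul_le_mul (hx.le d) hv (norm_nonneg _) zero_le_one
        _ = rhoC H h x := one_mul _
  refine key n le_rfl a ?_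
  rw [heightIdeal_n S.hn S.hΓ S.hH]
  exact ha

/-- `‖x a - ι(residue a)‖ ≤ ρ`. -/
theorem norm_sub_iota_le {h h' : ℕ} {P : Ideal (LTRing p n)} (S : Situ Γ H h h' P)
    {x : LTRing p n →+* C} (hx : IsPoint P x) {ι : GaloisField p n →+* C} (hι : IsOver ι x)
    (a : LTRing p n) : ‖x a - ι (LTRing.residue p n a)‖ ≤ rhoC H h x := by
  have h1 : ι (LTRing.residue p n a) =
      x (algebraMap (WittVector p (GaloisField p n)) (LTRing p n)
        (MvPowerSeries.constantCoeff a)) := (hι _).symm
  rw [h1, ← map_sub]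
  refine norm_le_rhoC S hx ?_
  rw [map_sub, sub_eq_zero]
  show WittVector.constantCoeff (MvPowerSeries.constantCoeff a) =
    WittVector.constantCoeff (MvPowerSeries.constantCoeff
      (algebraMap (WittVector p (GaloisField p n)) (LTRing p n) (MvPowerSeries.constantCoeff a)))
  congr 1

private theorem D8_VS {h h' : ℕ} {P : Ideal (LTRing p n)} (S : Situ Γ H h h' P)
    {x : LTRing p n →+* C} (hx : IsPoint P x) :
    mulSeries (H.map x) p = cmp (VS H h x) (PowerSeries.X ^ (p ^ h) : PowerSeries C) ∧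
      IsFGHom ((H.map x).map (iterateFrobenius C p h)) (H.map x) (VS H h x) := by
  have e1 : mulSeries (H.map x) p = PowerSeries.map x (mulSeries H p) := mulSeries_map H _ p
  obtain ⟨V, hV1, hV2⟩ := frobenius_factor_iter p (hom_mulSeries (H.map x) p) h (by
    intro i hi
    rw [e1, PowerSeries.coeff_map]
    have h1 : vv H i ∈ P := S.le (vv_mem hi)
    rw [← hx.ker] at h1
    exact h1)
  have hV : V = VS H h x := by
    ext i
    rw [VS, PowerSeries.coeff_mk, hV1,
      coeff_cmp_X_pow V (pow_ne_zero h (Fact.out : p.Prime).ne_zero) i]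
  rw [← hV]
  exact ⟨hV1, hV2⟩

/-- `[p]_{H_x} = V(X^{p^h})`. -/
theorem VS_spec {h h' : ℕ} {P : Ideal (LTRing p n)} (S : Situ Γ H h h' P)
    {x : LTRing p n →+* C} (hx : IsPoint P x) :
    mulSeries (H.map x) p = cmp (VS H h x) (PowerSeries.X ^ (p ^ h) : PowerSeries C) :=
  (D8_VS S hx).1

theorem VS_hom {h h' : ℕ} {P : Ideal (LTRing p n)} (S : Situ Γ H h h' P)
    {x : LTRing p n →+* C} (hx : IsPoint P x) :
    IsFGHom ((H.map x).map (iterateFrobenius C p h)) (H.map x) (VS H h x) :=
  (D8_VS S hx).2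

theorem coeff_VS {h : ℕ} {x : LTRing p n →+* C} (j : ℕ) :
    PowerSeries.coeff (p ^ j) (VS H h x) = x (vv H (h + j)) := by
  rw [VS, PowerSeries.coeff_mk, mulSeries_map, PowerSeries.coeff_map, ← pow_add]
  rfl

theorem VS_int {h : ℕ} {P : Ideal (LTRing p n)} {x : LTRing p n →+* C} (hx : IsPoint P x) :
    Int1 (VS H h x) := by
  intro d
  show ‖PowerSeries.coeff (p ^ h * d ()) (mulSeries (H.map x) p)‖ ≤ 1
  rw [mulSeries_map, PowerSeries.coeff_map]
  exact hx.le _

/-- `Γ` over `C` is fixed by the `q`-Frobenius and has `[p] = X^q`. -/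
theorem ΓC_frob (hn : 1 ≤ n) (ι : GaloisField p n →+* C) :
    (ΓC hn Γ ι).law.map (iterateFrobenius C p n) = (ΓC hn Γ ι).law := by
  show (Γ.map ι).map (iterateFrobenius C p n) = Γ.map ι
  rw [map_map]
  congr 1
  ext c
  haveI : Fintype (GaloisField p n) := Fintype.ofFinite _
  rw [RingHom.comp_apply, iterateFrobenius_def, ← map_pow]
  congr 1
  have hcard : Fintype.card (GaloisField p n) = p ^ n := by
    rw [← Nat.card_eq_fintype_card]
    exact GaloisField.card p n (by omega)
  rw [← hcard]
  exact FiniteField.pow_card c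

theorem ΓC_p (hn : 1 ≤ n) (hΓ : mulSeries Γ p = PowerSeries.X ^ (p ^ n))
    (ι : GaloisField p n →+* C) :
    mulSeries (ΓC hn Γ ι).law p = PowerSeries.X ^ (p ^ n) := by
  show mulSeries (Γ.map ι) p = PowerSeries.X ^ (p ^ n)
  rw [mulSeries_map, hΓ, map_pow, PowerSeries.map_X]

theorem close_aux {h h' : ℕ} {P : Ideal (LTRing p n)} (S : Situ Γ H h h' P)
    {x : LTRing p n →+* C} (hx : IsPoint P x) {ι : GaloisField p n →+* C} (hι : IsOver ι x) (d) :
    ‖MvPowerSeries.coeff d ((H.map x).toPowerSeries - (ΓC S.hn Γ ι).law.toPowerSeries)‖ ≤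
      rhoC H h x := by
  rw [map_sub]
  have e1 : MvPowerSeries.coeff d (H.map x).toPowerSeries =
      x (MvPowerSeries.coeff d H.toPowerSeries) := rfl
  have e2 : MvPowerSeries.coeff d (ΓC S.hn Γ ι).law.toPowerSeries =
      ι (MvPowerSeries.coeff d Γ.toPowerSeries) := rfl
  have e3 : MvPowerSeries.coeff d Γ.toPowerSeries =
      LTRing.residue p n (MvPowerSeries.coeff d H.toPowerSeries) := by
    have h1 := congrArg FormalGroup.toPowerSeries S.hH.1
    rw [← h1]
    rfl
  rw [e1, e2, e3]
  exact norm_sub_iota_le S hx hι _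

/-- The datum of a point. -/
def mkD {h h' : ℕ} {P : Ideal (LTRing p n)} (S : Situ Γ H h h' P)
    {ι : GaloisField p n →+* C} {x : LTRing p n →+* C} (hx : IsPoint P x) (hι : IsOver ι x) :
    Datum p n h (ΓC S.hn Γ ι) where
  h1 := S.h1
  h2 := by have := S.h2; have := S.h3; omega
  Γ_frob := ΓC_frob S.hn ι
  Γ_p := ΓC_p S.hn S.hΓ ι
  H := HC H hx
  V := VS H h x
  ρ := rhoC H h x
  ρ0 := rhoC_pos S hx
  ρ1 := rhoC_lt S hx
  close := close_aux S hx hι
  V_int := VS_int hx
  V_p := VS_spec S hx
  V_hom := VS_hom S hx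
  V_ne := by
    have h0 := coeff_VS (H := H) (h := h) (x := x) 0
    rw [pow_zero, add_zero] at h0
    rw [h0]
    intro hz
    apply S.notMem
    rw [← hx.ker]
    exact hz

/-- The laws of two points differ by at most `del`. (Every `a ∈ E₀` is, modulo `I_h`, a power
series over `k` in `v_h, ..., v_{n-1}` (`exists_coord`), so `‖x a - y a‖ ≤ del H h x y`.) -/
theorem norm_sub_le_del {h h' : ℕ} {P : Ideal (LTRing p n)} (S : Situ Γ H h h' P)
    {x y : LTRing p n →+* C} (hx : IsPoint P x) (hy : IsPoint P y) (hxy : SameConst x y)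
    (a : LTRing p n) : ‖x a - y a‖ ≤ del H h x y := by
  have h2 := S.h2
  have h3 := S.h3
  haveI : Nonempty (Fin (n - h)) := ⟨⟨0, by omega⟩⟩
  set δ : ℝ := del H h x y with hδ
  have hle : ∀ j : Fin (n - h), ‖x (vv H (h + j)) - y (vv H (h + j))‖ ≤ δ := fun j =>
    le_ciSup (f := fun j : Fin (n - h) => ‖x (vv H (h + j)) - y (vv H (h + j))‖)
      (Set.finite_range _).bddAbove j
  have hδ0 : 0 ≤ δ := (norm_nonneg _).trans (hle ⟨0, by omega⟩)
  -- the subring of elements with small difference
  let A : Subring (LTRing p n) :=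
    { carrier := {a | ‖x a - y a‖ ≤ δ}
      mul_mem' := by
        intro a b ha hb
        show ‖x (a * b) - y (a * b)‖ ≤ δ
        have e : x (a * b) - y (a * b) = x a * (x b - y b) + (x a - y a) * y b := by
          rw [map_mul, map_mul]; ring
        rw [e]
        refine (IsUltrametricDist.norm_add_le_max _ _).trans (max_le ?_ ?_)
        · rw [norm_mul]
          calc ‖x a‖ * ‖x b - y b‖ ≤ 1 * δ :=
                mul_le_mul (hx.le a) hb (norm_nonneg _) zero_le_one
            _ = δ := one_mul _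
        · rw [norm_mul]
          calc ‖x a - y a‖ * ‖y b‖ ≤ δ * 1 := mul_le_mul ha (hy.le b) (norm_nonneg _) hδ0
            _ = δ := mul_one _
      one_mem' := by
        show ‖x 1 - y 1‖ ≤ δ
        rw [map_one, map_one, sub_self, norm_zero]
        exact hδ0
      add_mem' := by
        intro a b ha hb
        show ‖x (a + b) - y (a + b)‖ ≤ δ
        have e : x (a + b) - y (a + b) = (x a - y a) + (x b - y b) := by
          rw [map_add, map_add]; ring
        rw [e]
        exact (IsUltrametricDist.norm_add_le_max _ _).trans (max_le ha hb)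
      zero_mem' := by
        show ‖x 0 - y 0‖ ≤ δ
        rw [map_zero, map_zero, sub_self, norm_zero]
        exact hδ0
      neg_mem' := by
        intro a ha
        show ‖x (-a) - y (-a)‖ ≤ δ
        have e : x (-a) - y (-a) = -(x a - y a) := by
          rw [map_neg, map_neg]; ring
        rw [e, norm_neg]
        exact ha }
  have hA : ∀ a, a ∈ A ↔ ‖x a - y a‖ ≤ δ := fun _ => Iff.rfl
  have hW : ∀ w : WittVector p (GaloisField p n),
      algebraMap (WittVector p (GaloisField p n)) (LTRing p n) w ∈ A := by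
    intro w
    rw [hA, hxy w, sub_self, norm_zero]
    exact hδ0
  have hv : ∀ m < n, vv H m ∈ A := by
    intro m hm
    rcases Nat.lt_or_ge m h with hlt | hge
    · have h1 : vv H m ∈ P := S.le (vv_mem hlt)
      have hx0 : x (vv H m) = 0 := by
        have h1' := h1
        rw [← hx.ker] at h1'
        exact h1'
      have hy0 : y (vv H m) = 0 := by
        have h1' := h1
        rw [← hy.ker] at h1'
        exact h1'
      rw [hA, hx0, hy0, sub_self, norm_zero]
      exact hδ0
    · obtain ⟨j, rfl⟩ := Nat.exists_eq_add_of_le hge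
      exact hle ⟨j, by omega⟩
  set 𝔪 : Ideal (LTRing p n) := RingHom.ker (LTRing.residue p n) with h𝔪
  -- density
  have hdec : ∀ (N : ℕ) (a : LTRing p n), ∃ s ∈ A, a - s ∈ 𝔪 ^ N := by
    intro N
    induction N with
    | zero =>
      intro a
      exact ⟨0, A.zero_mem, by rw [pow_zero, Ideal.one_eq_top]; trivial⟩
    | succ N ih =>
      -- elements of height ideals
      have hI : ∀ m ≤ n, ∀ a ∈ heightIdeal p n H m, ∃ s ∈ A, a - s ∈ 𝔪 ^ (N + 1) := by
        intro m
        induction m with
        | zero =>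
          intro _ a ha
          rw [heightIdeal_zero, Ideal.mem_bot] at ha
          exact ⟨0, A.zero_mem, by rw [ha, sub_zero]; exact Ideal.zero_mem _⟩
        | succ m ih2 =>
          intro hm a ha
          rw [heightIdeal_succ, Submodule.mem_sup] at ha
          obtain ⟨b, hb, c, hc, rfl⟩ := ha
          obtain ⟨d, rfl⟩ := Ideal.mem_span_singleton'.1 hc
          obtain ⟨s, hs, hs2⟩ := ih2 (by omega) b hb
          obtain ⟨t, ht, ht2⟩ := ih d
          refine ⟨s + t * vv H m, A.add_mem hs (A.mul_mem ht (hv m (by omega))), ?_⟩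
          have e : b + d * vv H m - (s + t * vv H m) = (b - s) + (d - t) * vv H m := by ring
          rw [e]
          refine Ideal.add_mem _ hs2 ?_
          rw [pow_succ]
          exact Ideal.mul_mem_mul ht2 (residue_vv_lt S.hΓ S.hH.1 (by omega))
      intro a
      set w : LTRing p n := algebraMap (WittVector p (GaloisField p n)) (LTRing p n)
        (MvPowerSeries.constantCoeff a) with hw
      have haw : a - w ∈ heightIdeal p n H n := by
        rw [heightIdeal_n S.hn S.hΓ S.hH]
        show LTRing.residue p n (a - w) = 0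
        rw [map_sub, sub_eq_zero]
        show WittVector.constantCoeff (MvPowerSeries.constantCoeff a) =
          WittVector.constantCoeff (MvPowerSeries.constantCoeff w)
        congr 1
      obtain ⟨s, hs, hs2⟩ := hI n le_rfl _ haw
      refine ⟨w + s, A.add_mem (hW _) hs, ?_⟩
      rwa [← sub_sub]
  -- smallness of the elements of `𝔪 ^ N`
  have hsmall : ∀ {z : LTRing p n →+* C} (hz : IsPoint P z) (N : ℕ) (a : LTRing p n),
      a ∈ 𝔪 ^ N → ‖z a‖ ≤ rhoC H h z ^ N := by
    intro z hz N
    have hρ0 := (rhoC_pos S hz).le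
    induction N with
    | zero =>
      intro a _
      rw [pow_zero]
      exact hz.le a
    | succ N ih =>
      intro a ha
      rw [pow_succ] at ha
      refine Submodule.mul_induction_on ha ?_ ?_
      · intro b hb c hc
        rw [map_mul, norm_mul, pow_succ]
        exact mul_le_mul (ih b hb) (norm_le_rhoC S hz hc) (norm_nonneg _) (pow_nonneg hρ0 _)
      · intro b c hb hc
        rw [map_add]
        exact (IsUltrametricDist.norm_add_le_max _ _).trans (max_le hb hc)
  have key : ∀ N : ℕ, ‖x a - y a‖ ≤ max δ (max (rhoC H h x ^ N) (rhoC H h y ^ N)) := by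
    intro N
    obtain ⟨s, hs, hs2⟩ := hdec N a
    have e : x a - y a = (x s - y s) + (x (a - s) - y (a - s)) := by
      rw [map_sub, map_sub]; ring
    rw [e]
    refine (IsUltrametricDist.norm_add_le_max _ _).trans (max_le_max hs ?_)
    rw [sub_eq_add_neg]
    refine (IsUltrametricDist.norm_add_le_max _ _).trans ?_
    rw [norm_neg]
    exact max_le_max (hsmall hx N _ hs2) (hsmall hy N _ hs2)
  have hlim : Filter.Tendsto
      (fun N : ℕ => max δ (max (rhoC H h x ^ N) (rhoC H h y ^ N))) Filter.atTop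
      (nhds (max δ (max 0 0))) :=
    tendsto_const_nhds.max
      ((tendsto_pow_atTop_nhds_zero_of_lt_one (rhoC_pos S hx).le (rhoC_lt S hx)).max
        (tendsto_pow_atTop_nhds_zero_of_lt_one (rhoC_pos S hy).le (rhoC_lt S hy)))
  have := ge_of_tendsto' hlim key
  rwa [max_self, max_eq_left hδ0] at this

end Crest.Agent.LU
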