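import Mathlib
import Crest.Agent.LU_D5

/-!
S0351 (blueprint LU), task D6: first properties of `E`.
-/

set_option autoImplicit false

noncomputable section

namespace Crest.Agent.LU

open Crest.LubinTate

variable {p n h : ℕ} [Fact p.Prime] {C : Type} [NontriviallyNormedField C] [IsUltrametricDist C]
  [CompleteSpace C] [IsAlgClosed C] [CharP C p] {Γ : IFG C} (D : Datum p n h Γ)

section aux

private def D6_iot {F : IFG C} (G : IFG C) (z : Pt F) : Pt G := ⟨z.val, z.lt⟩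

omit [IsAlgClosed C] [CompleteSpace C] in
private theorem D6_umax {a b c : C} {ε : ℝ} (h1 : ‖a - b‖ ≤ ε) (h2 : ‖b - c‖ ≤ ε) :
    ‖a - c‖ ≤ ε := by
  have : a - c = (a - b) + (b - c) := by ring
  rw [this]
  exact (IsUltrametricDist.norm_add_le_max _ _).trans (max_le h1 h2)

omit [IsAlgClosed C] in
private theorem D6_cadd_close (F G : IFG C) {δ : ℝ} (hδ0 : 0 ≤ δ)
    (hδ : ∀ d, ‖MvPowerSeries.coeff d (F.law.toPowerSeries - G.law.toPowerSeries)‖ ≤ δ)
    {a b : C} (ha : ‖a‖ < 1) (hb : ‖b‖ < 1) : ‖cadd F a b - cadd G a b‖ ≤ δ := by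
  have hz : ∀ s : Fin 2, ‖(![a, b] : Fin 2 → C) s‖ < 1 := by
    intro s
    fin_cases s
    · exact ha
    · exact hb
  unfold cadd
  rw [← ev_sub F.int G.int hz]
  exact norm_ev_le hz hδ0 hδ

omit [IsAlgClosed C] in
private theorem D6_cadd_lip (G : IFG C) {a b a' b' : C} (ha : ‖a‖ < 1) (hb : ‖b‖ < 1)
    (ha' : ‖a'‖ < 1) (hb' : ‖b'‖ < 1) {ε : ℝ} (h1 : ‖a - a'‖ ≤ ε) (h2 : ‖b - b'‖ ≤ ε) :
    ‖cadd G a b - cadd G a' b'‖ ≤ ε := by
  have hz : ∀ s : Fin 2, ‖(![a, b] : Fin 2 → C) s‖ < 1 := by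
    intro s
    fin_cases s
    · exact ha
    · exact hb
  have hz' : ∀ s : Fin 2, ‖(![a', b'] : Fin 2 → C) s‖ < 1 := by
    intro s
    fin_cases s
    · exact ha'
    · exact hb'
  unfold cadd
  refine norm_ev_sub_le G.int hz hz' ((norm_nonneg _).trans h1) ?_
  intro s
  fin_cases s
  · exact h1
  · exact h2

omit [IsAlgClosed C] in
private theorem D6_nsmul_close (F G : IFG C) {δ : ℝ} (hδ0 : 0 ≤ δ)
    (hδ : ∀ d, ‖MvPowerSeries.coeff d (F.law.toPowerSeries - G.law.toPowerSeries)‖ ≤ δ)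
    (a : Pt F) (b : Pt G) (hab : a.val = b.val) (m : ℕ) :
    ‖(m • a).val - (m • b).val‖ ≤ δ := by
  induction m with
  | zero => simpa using hδ0
  | succ m ih =>
    rw [succ_nsmul, succ_nsmul, Pt.val_add, Pt.val_add]
    refine D6_umax (b := cadd F (m • b).val b.val) ?_
      (D6_cadd_close F G hδ0 hδ (m • b).lt b.lt)
    refine D6_cadd_lip F (m • a).lt a.lt (m • b).lt b.lt ih ?_
    rw [hab, sub_self, norm_zero]
    exact hδ0

omit [IsAlgClosed C] in
private theorem D6_p_nsmul_lip (D : Datum p n h Γ) (a b : Pt D.H) :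
    ‖(p • a).val - (p • b).val‖ ≤ ‖a.val - b.val‖ ^ (p ^ h) := by
  have hv : ∀ a : Pt D.H, (p • a).val = ev1 D.V (a.val ^ (p ^ h)) := by
    intro a
    have hp : p ≠ 0 := (Fact.out : p.Prime).ne_zero
    rw [Pt.nsmul_val, D.V_p]
    have hX : Int1 (PowerSeries.X ^ (p ^ h) : PowerSeries C) :=
      Int1.pow (Int1.var ()) _
    have h0 : PowerSeries.constantCoeff (PowerSeries.X ^ (p ^ h) : PowerSeries C) = 0 := by
      simp [hp]
    rw [ev1_cmp D.V_int hX h0 a.lt, ev1_X_pow _ a.lt]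
  rw [hv, hv]
  exact norm_ev1_pow_sub_le p D.V_int h a.lt b.lt

omit [IsAlgClosed C] in
private theorem D6_pN_nsmul_lip (D : Datum p n h Γ) (N : ℕ) (a b : Pt D.H) :
    ‖(p ^ N • a).val - (p ^ N • b).val‖ ≤ ‖a.val - b.val‖ ^ ((p ^ h) ^ N) := by
  induction N with
  | zero => simp
  | succ N ih =>
    rw [pow_succ' p N, mul_nsmul', mul_nsmul']
    refine (D6_p_nsmul_lip D _ _).trans ?_
    refine (pow_le_pow_left₀ (norm_nonneg _) ih _).trans ?_
    rw [← pow_mul, ← pow_succ]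

private theorem D6_le_QN {p h : ℕ} [Fact p.Prime] (hh : 1 ≤ h) (N : ℕ) : N ≤ (p ^ h) ^ N := by
  have hp : 2 ≤ p := (Fact.out : p.Prime).two_le
  have h2 : 2 ≤ p ^ h := by
    calc 2 ≤ p := hp
      _ = p ^ 1 := (pow_one p).symm
      _ ≤ p ^ h := Nat.pow_le_pow_right (by omega) hh
  calc N ≤ 2 ^ N := Nat.lt_two_pow_self.le
    _ ≤ (p ^ h) ^ N := Nat.pow_le_pow_left h2 N

private theorem D6_pow_le {p h : ℕ} [Fact p.Prime] (hh : 1 ≤ h) {ρ r : ℝ} (h0 : 0 ≤ ρ)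
    (h1 : ρ ≤ r) (hr : r ≤ 1) (N : ℕ) : ρ ^ ((p ^ h) ^ N) ≤ r ^ N :=
  (pow_le_pow_left₀ h0 h1 _).trans
    (pow_le_pow_of_le_one (h0.trans h1) hr (D6_le_QN (p := p) hh N))

private theorem D6_spec (D : Datum p n h Γ) (z : Pt Γ) (N : ℕ) :
    ‖(D.E z).val - (p ^ N • (D6_iot D.H (rt p n N z))).val‖ ≤ D.ρ ^ ((p ^ h) ^ N) := by
  rw [Pt.nsmul_val]
  exact D.E_spec z N

omit [IsUltrametricDist C] [CompleteSpace C] [IsAlgClosed C] in
private theorem D6_frob_inj (k : ℕ) {a b : C} (hab : a ^ (p ^ k) = b ^ (p ^ k)) : a = b := by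
  apply iterateFrobenius_inj C p k
  rw [iterateFrobenius_def, iterateFrobenius_def, hab]

end aux

include D

/-- TASK D6. `‖E(z) - z‖ ≤ ρ` (`E_spec` with `N = 0`). -/
theorem Datum.norm_E_sub (z : Pt Γ) : ‖(D.E z).val - z.val‖ ≤ D.ρ := by
  have h1 := D6_spec D z 0
  rw [pow_zero, pow_zero, pow_one, one_nsmul] at h1
  have h2 : (rt p n 0 z).val = z.val := by
    have h3 := rt_pow (p := p) (n := n) 0 z
    rwa [mul_zero, pow_zero, pow_one] at h3
  have h4 : (D6_iot D.H (rt p n 0 z)).val = z.val := h2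
  rwa [h4] at h1

theorem Datum.norm_E_le (z : Pt Γ) : ‖(D.E z).val‖ ≤ max ‖z.val‖ D.ρ := by
  have h1 : (D.E z).val = ((D.E z).val - z.val) + z.val := by ring
  rw [h1]
  refine (IsUltrametricDist.norm_add_le_max _ _).trans (max_le ?_ (le_max_left _ _))
  exact (D.norm_E_sub z).trans (le_max_right _ _)

theorem Datum.norm_E_eq {z : Pt Γ} (hz : D.ρ < ‖z.val‖) : ‖(D.E z).val‖ = ‖z.val‖ := by
  have h1 : (D.E z).val = ((D.E z).val - z.val) + z.val := by ring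
  have h2 : ‖(D.E z).val - z.val‖ < ‖z.val‖ := (D.norm_E_sub z).trans_lt hz
  rw [h1, IsUltrametricDist.norm_add_eq_max_of_norm_ne_norm (ne_of_lt h2), max_eq_right h2.le]

/-- `[p]_Γ(z) = z^q`. -/
theorem Datum.nsmul_p_val (z : Pt Γ) : (p • z).val = z.val ^ (p ^ n) := by
  rw [Pt.nsmul_val, D.Γ_p, ev1_X_pow _ z.lt]

theorem Datum.nsmul_pow_val (N : ℕ) (z : Pt Γ) :
    ((p ^ N) • z).val = z.val ^ (p ^ (n * N)) := by
  induction N with
  | zero => simp
  | succ N ih =>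
    rw [pow_succ' p N, mul_nsmul', D.nsmul_p_val, ih, ← pow_mul, ← pow_add]
    congr 2

theorem Datum.nsmul_rt (N : ℕ) (z : Pt Γ) : (p ^ N) • rt p n N z = z := by
  apply Pt.ext
  rw [D.nsmul_pow_val, rt_pow]

theorem Datum.rt_nsmul (N : ℕ) (z : Pt Γ) : rt p n N ((p ^ N) • z) = z := by
  apply Pt.ext
  apply D6_frob_inj (p := p) (n * N)
  rw [rt_pow, D.nsmul_pow_val]

/-- `z ↦ z^{q^{-N}}` is additive on `Γ(𝔪)`, since `Γ` is defined over `F_q`. -/
theorem Datum.rt_add (N : ℕ) (z w : Pt Γ) :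
    rt p n N (z + w) = rt p n N z + rt p n N w := by
  have hf : MvPowerSeries.map (iterateFrobenius C p (n * N)) Γ.law.toPowerSeries =
      Γ.law.toPowerSeries := by
    have h0 : MvPowerSeries.map (iterateFrobenius C p n) Γ.law.toPowerSeries =
        Γ.law.toPowerSeries := congrArg FormalGroup.toPowerSeries D.Γ_frob
    ext d
    rw [MvPowerSeries.coeff_map, iterateFrobenius_def]
    have h1 : (MvPowerSeries.coeff d Γ.law.toPowerSeries) ^ (p ^ n) =
        MvPowerSeries.coeff d Γ.law.toPowerSeries := by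
      have h2 := congrArg (MvPowerSeries.coeff d) h0
      rwa [MvPowerSeries.coeff_map, iterateFrobenius_def] at h2
    induction N with
    | zero => simp
    | succ N ih => rw [mul_add, mul_one, pow_add, pow_mul, ih, h1]
  apply Pt.ext
  apply D6_frob_inj (p := p) (n * N)
  rw [rt_pow, Pt.val_add, Pt.val_add]
  unfold cadd
  have hz : ∀ s : Fin 2, ‖(![(rt p n N z).val, (rt p n N w).val] : Fin 2 → C) s‖ < 1 := by
    intro s
    fin_cases s
    · exact (rt p n N z).lt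
    · exact (rt p n N w).lt
  rw [ev_pow_frob p (n * N) Γ.int hz, hf]
  congr 1
  funext s
  fin_cases s
  · exact (rt_pow N z).symm
  · exact (rt_pow N w).symm

theorem Datum.nsmul_rt_succ (N : ℕ) (z : Pt Γ) : p • rt p n (N + 1) z = rt p n N z := by
  apply Pt.ext
  rw [D.nsmul_p_val]
  apply D6_frob_inj (p := p) (n * N)
  rw [rt_pow, ← pow_mul, ← pow_add, show n + n * N = n * (N + 1) by ring, rt_pow]

/-- Two data with the same `Γ`: if `H ≡ H'` modulo `δ` then `E ≡ E'` modulo `δ`. -/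
theorem Datum.norm_E_sub_E (D' : Datum p n h Γ) {δ : ℝ}
    (hδ : ∀ d, ‖MvPowerSeries.coeff d (D.H.law.toPowerSeries - D'.H.law.toPowerSeries)‖ ≤ δ)
    (z : Pt Γ) : ‖(D.E z).val - (D'.E z).val‖ ≤ δ := by
  have hδ0 : 0 ≤ δ := (norm_nonneg _).trans (hδ 0)
  set r : ℝ := max D.ρ D'.ρ with hr
  have hr0 : 0 ≤ r := D.ρ0.le.trans (le_max_left _ _)
  have hr1 : r < 1 := max_lt D.ρ1 D'.ρ1
  have key : ∀ N : ℕ, ‖(D.E z).val - (D'.E z).val‖ ≤ max δ (r ^ N) := by
    intro N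
    refine D6_umax ((D6_spec D z N).trans
      ((D6_pow_le D.h1 D.ρ0.le (le_max_left _ _) hr1.le N).trans (le_max_right _ _))) ?_
    refine D6_umax (b := (p ^ N • (D6_iot D'.H (rt p n N z))).val) ?_ ?_
    · exact (D6_nsmul_close D.H D'.H hδ0 hδ _ _ rfl _).trans (le_max_left _ _)
    · rw [norm_sub_rev]
      exact (D6_spec D' z N).trans
        ((D6_pow_le D'.h1 D'.ρ0.le (le_max_right _ _) hr1.le N).trans (le_max_right _ _))
  have h1 : Filter.Tendsto (fun N : ℕ => max δ (r ^ N)) Filter.atTop (nhds (max δ 0)) :=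
    tendsto_const_nhds.max (tendsto_pow_atTop_nhds_zero_of_lt_one hr0 hr1)
  rw [max_eq_left hδ0] at h1
  exact ge_of_tendsto' h1 key

/-- If `θ : H' → H` lifts `g : Γ → Γ` (defined over `F_q`) modulo some `r < 1`, then
`E(g z) = θ(E'(z))`.
Proof: `θ([p^N]_{H'}(w)) = [p^N]_H(θ(w))` with `w = z^{q^{-N}}`, and
`‖θ(w) - g(w)‖ ≤ r`, `g(w) = (g z)^{q^{-N}}`; so
`‖θ([p^N]_{H'}(w)) - [p^N]_H((g z)^{q^{-N}})‖ ≤ r^{Q^N}`; let `N → ∞`. -/
theorem Datum.E_theta (D' : Datum p n h Γ) {g θ : PowerSeries C} (hgi : Int1 g)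
    (hg : IsFGHom Γ.law Γ.law g) (hgf : PowerSeries.map (iterateFrobenius C p n) g = g)
    (hθi : Int1 θ) (hθ : IsFGHom D'.H.law D.H.law θ) {r : ℝ} (hr : r < 1)
    (hc : ∀ i, ‖PowerSeries.coeff i (θ - g)‖ ≤ r) (z : Pt Γ) :
    D.E (Pt.hom g hgi hg z) = Pt.hom θ hθi hθ (D'.E z) := by
  have hr0 : 0 ≤ r := (norm_nonneg _).trans (hc 0)
  set t : ℝ := max r (max D.ρ D'.ρ) with ht
  have ht0 : 0 ≤ t := hr0.trans (le_max_left _ _)
  have ht1 : t < 1 := max_lt hr (max_lt D.ρ1 D'.ρ1)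
  have hclose : ∀ w : C, ‖w‖ < 1 → ‖ev1 θ w - ev1 g w‖ ≤ r := by
    intro w hw
    unfold ev1
    rw [← ev_sub (σ := Unit) hθi hgi (fun _ => hw)]
    refine norm_ev_le (σ := Unit) (fun _ => hw) hr0 ?_
    intro d
    have h2 := hc (d ())
    have h3 : d = Finsupp.single () (d ()) := by ext; simp
    rw [h3]
    exact h2
  have hfr : ∀ k : ℕ, MvPowerSeries.map (iterateFrobenius C p (n * k)) g = g := by
    intro k
    refine MvPowerSeries.ext fun d => ?_
    rw [MvPowerSeries.coeff_map, iterateFrobenius_def]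
    have h1 : (MvPowerSeries.coeff d g) ^ (p ^ n) = MvPowerSeries.coeff d g := by
      have h2 := congrArg (MvPowerSeries.coeff d) (show MvPowerSeries.map
        (iterateFrobenius C p n) g = g from hgf)
      rwa [MvPowerSeries.coeff_map, iterateFrobenius_def] at h2
    induction k with
    | zero => simp
    | succ k ih => rw [mul_add, mul_one, pow_add, pow_mul, ih, h1]
  have hrt : ∀ N : ℕ, (rt p n N (Pt.hom g hgi hg z)).val = ev1 g (rt p n N z).val := by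
    intro N
    apply D6_frob_inj (p := p) (n * N)
    rw [rt_pow, Pt.hom_val]
    have h1 := ev_pow_frob (σ := Unit) p (n * N) hgi (z := fun _ => (rt p n N z).val)
      (fun _ => (rt p n N z).lt)
    rw [hfr N] at h1
    have h2 : (fun _ : Unit => (rt p n N z).val ^ (p ^ (n * N))) = fun _ : Unit => z.val := by
      funext _
      exact rt_pow N z
    rw [h2] at h1
    exact h1.symm
  have key : ∀ N : ℕ, ‖(D.E (Pt.hom g hgi hg z)).val - (Pt.hom θ hθi hθ (D'.E z)).val‖ ≤ t ^ N := by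
    intro N
    refine D6_umax ((D6_spec D (Pt.hom g hgi hg z) N).trans
      (D6_pow_le D.h1 D.ρ0.le ((le_max_left _ _).trans (le_max_right _ _)) ht1.le N)) ?_
    refine D6_umax (b := (p ^ N • Pt.hom θ hθi hθ (D6_iot D'.H (rt p n N z))).val) ?_ ?_
    · refine (D6_pN_nsmul_lip D N _ _).trans ?_
      have h1 : ‖(D6_iot D.H (rt p n N (Pt.hom g hgi hg z))).val -
          (Pt.hom θ hθi hθ (D6_iot D'.H (rt p n N z))).val‖ ≤ r := by
        show ‖(rt p n N (Pt.hom g hgi hg z)).val - ev1 θ (rt p n N z).val‖ ≤ r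
        rw [hrt N, norm_sub_rev]
        exact hclose _ (rt p n N z).lt
      exact (pow_le_pow_left₀ (norm_nonneg _) h1 _).trans
        (D6_pow_le D.h1 hr0 (le_max_left _ _) ht1.le N)
    · rw [← map_nsmul, Pt.hom_val, Pt.hom_val, norm_sub_rev]
      have h2 : ‖(D'.E z).val - (p ^ N • (D6_iot D'.H (rt p n N z))).val‖ ≤ t ^ N :=
        (D6_spec D' z N).trans
          (D6_pow_le D'.h1 D'.ρ0.le ((le_max_right _ _).trans (le_max_right _ _)) ht1.le N)
      exact norm_ev_sub_le (σ := Unit) hθi (fun _ => (D'.E z).lt)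
        (fun _ => (p ^ N • (D6_iot D'.H (rt p n N z))).lt) (by positivity) (fun _ => h2)
  have h0 : ‖(D.E (Pt.hom g hgi hg z)).val - (Pt.hom θ hθi hθ (D'.E z)).val‖ ≤ 0 :=
    ge_of_tendsto' (tendsto_pow_atTop_nhds_zero_of_lt_one ht0 ht1) key
  exact Pt.ext (sub_eq_zero.mp (norm_le_zero_iff.mp h0))

/-- Lifting compatible sequences: if `p • t_{N+1} = t_N` in `H(𝔪)` there is `z ∈ Γ(𝔪)` with
`E(z^{q^{-N}}) = t_N` for all `N`.
Proof: `z = lim t_N^{q^N}`: `‖[p]_H(t) - t^q‖ ≤ ρ` gives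
`‖t_N^{q^N} - t_{N+1}^{q^{N+1}}‖ ≤ ρ^{q^N}`; so `‖z - t_N^{q^N}‖ ≤ ρ^{q^N}`,
`‖z^{q^{-N}} - t_N‖ ≤ ρ`; hence for `M ≥ 0`
`‖[p^M]_H((z^{q^{-N}})^{q^{-M}}) - [p^M]_H(t_{N+M})‖ ≤ ρ^{Q^M}` and `[p^M]_H(t_{N+M}) = t_N`. -/
theorem Datum.exists_lift (t : ℕ → Pt D.H) (ht : ∀ N, p • t (N + 1) = t N) :
    ∃ z : Pt Γ, ∀ N, D.E (rt p n N z) = t N := by
  have hpn : ∀ k : ℕ, p ^ (n * k) ≠ 0 := fun k => pow_ne_zero _ (Fact.out : p.Prime).ne_zero
  have hstep : ∀ N : ℕ, ‖(t N).val - (t (N + 1)).val ^ (p ^ n)‖ ≤ D.ρ := by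
    intro N
    have h1 := D6_nsmul_close D.H Γ D.ρ0.le D.close (t (N + 1))
      (⟨(t (N + 1)).val, (t (N + 1)).lt⟩ : Pt Γ) rfl p
    rwa [ht N, D.nsmul_p_val] at h1
  set u : ℕ → C := fun N => (t N).val ^ (p ^ (n * N)) with hu
  have hustep : ∀ N : ℕ, ‖u (N + 1) - u N‖ ≤ D.ρ ^ (p ^ (n * N)) := by
    intro N
    have h1 : u N - u (N + 1) = ((t N).val - (t (N + 1)).val ^ (p ^ n)) ^ (p ^ (n * N)) := by
      rw [sub_pow_char_pow, ← pow_mul, ← pow_add]
      have : n + n * N = n * (N + 1) := by ring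
      rw [this]
    rw [norm_sub_rev, h1, norm_pow]
    exact pow_le_pow_left₀ (norm_nonneg _) (hstep N) _
  have hn : 1 ≤ n := by have := D.h1; have := D.h2; omega
  have hle : ∀ N : ℕ, N ≤ p ^ (n * N) := by
    intro N
    rw [pow_mul]
    exact D6_le_QN (p := p) hn N
  have humono : ∀ N k : ℕ, ‖u (N + k) - u N‖ ≤ D.ρ ^ (p ^ (n * N)) := by
    intro N k
    induction k with
    | zero => simpa using pow_nonneg D.ρ0.le _
    | succ k ih =>
      refine D6_umax (b := u (N + k)) ?_ ih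
      refine (hustep (N + k)).trans ?_
      refine pow_le_pow_of_le_one D.ρ0.le D.ρ1.le ?_
      exact Nat.pow_le_pow_right (Fact.out : p.Prime).pos (Nat.mul_le_mul_left n (Nat.le_add_right N k))
  have hcau : CauchySeq u := by
    refine cauchySeq_of_le_geometric D.ρ 1 D.ρ1 fun N => ?_
    rw [dist_comm, dist_eq_norm, one_mul]
    exact (hustep N).trans (pow_le_pow_of_le_one D.ρ0.le D.ρ1.le (hle N))
  obtain ⟨z, hz⟩ := cauchySeq_tendsto_of_complete hcau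
  have hzN : ∀ N : ℕ, ‖z - u N‖ ≤ D.ρ ^ (p ^ (n * N)) := by
    intro N
    have h1 : Filter.Tendsto (fun k => ‖u k - u N‖) Filter.atTop (nhds ‖z - u N‖) :=
      (hz.sub_const _).norm
    refine le_of_tendsto h1 ?_
    filter_upwards [Filter.eventually_ge_atTop N] with k hk
    obtain ⟨j, rfl⟩ := Nat.exists_eq_add_of_le hk
    exact humono N j
  have hzlt : ‖z‖ < 1 := by
    have h1 := hzN 0
    have h2 : z = (z - u 0) + u 0 := by ring
    rw [h2]
    refine (IsUltrametricDist.norm_add_le_max _ _).trans_lt (max_lt (h1.trans_lt ?_) ?_)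
    · simpa using D.ρ1
    · simpa [hu] using (t 0).lt
  refine ⟨⟨z, hzlt⟩, fun N => ?_⟩
  set z' : Pt Γ := ⟨z, hzlt⟩ with hz'
  have hrtN : ∀ k : ℕ, ‖(rt p n k z').val - (t k).val‖ ≤ D.ρ := by
    intro k
    have h1 : ‖(rt p n k z').val - (t k).val‖ ^ (p ^ (n * k)) ≤ D.ρ ^ (p ^ (n * k)) := by
      rw [← norm_pow, sub_pow_char_pow, rt_pow]
      exact hzN k
    exact (pow_le_pow_iff_left₀ (norm_nonneg _) D.ρ0.le (hpn k)).1 h1
  have htt : ∀ M : ℕ, p ^ M • t (N + M) = t N := by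
    intro M
    induction M with
    | zero => simp
    | succ M ih => rw [pow_succ p M, mul_nsmul', ← add_assoc, ht, ih]
  have hrr : ∀ M : ℕ, rt p n M (rt p n N z') = rt p n (N + M) z' := by
    intro M
    apply Pt.ext
    apply D6_frob_inj (p := p) (n * (N + M))
    rw [rt_pow, mul_add, add_comm, pow_add, pow_mul, rt_pow, rt_pow]
  have key : ∀ M : ℕ, ‖(D.E (rt p n N z')).val - (t N).val‖ ≤ D.ρ ^ M := by
    intro M
    refine D6_umax ((D6_spec D (rt p n N z') M).trans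
      (D6_pow_le D.h1 D.ρ0.le le_rfl D.ρ1.le M)) ?_
    rw [← htt M]
    refine (D6_pN_nsmul_lip D M _ _).trans ?_
    refine le_trans (pow_le_pow_left₀ (norm_nonneg _) ?_ _)
      (D6_pow_le D.h1 D.ρ0.le le_rfl D.ρ1.le M)
    rw [hrr M]
    exact hrtN (N + M)
  have h0 : ‖(D.E (rt p n N z')).val - (t N).val‖ ≤ 0 :=
    ge_of_tendsto' (tendsto_pow_atTop_nhds_zero_of_lt_one D.ρ0.le D.ρ1) key
  exact Pt.ext (sub_eq_zero.mp (norm_le_zero_iff.mp h0))

end Crest.Agent.LU
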