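import Mathlib
import Crest.Agent.LU_D5

/-!
S0351 (blueprint LU), task D7: the iterates `V^{[N]}` and the linear regime of `[p]_H`.
-/

set_option autoImplicit false

noncomputable section

namespace Crest.Agent.LU

open Crest.LubinTate

variable {p n h : ℕ} [Fact p.Prime] {C : Type} [NontriviallyNormedField C] [IsUltrametricDist C]
  [CompleteSpace C] [IsAlgClosed C] [CharP C p] {Γ : IFG C} (D : Datum p n h Γ)


section D7aux

private theorem D7_iF_comp (a b : ℕ) :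
    (iterateFrobenius C p a).comp (iterateFrobenius C p b) = iterateFrobenius C p (a + b) := by
  ext x
  rw [RingHom.comp_apply, iterateFrobenius_def, iterateFrobenius_def, iterateFrobenius_def,
    ← pow_mul, ← pow_add, add_comm b a]

private theorem D7_iF_zero : iterateFrobenius C p 0 = RingHom.id C := by
  ext x
  rw [iterateFrobenius_def, pow_zero, pow_one, RingHom.id_apply]

private theorem D7_cmp_pow_left {R : Type*} [CommRing R] (k : ℕ) {σ : Type*}
    {a : MvPowerSeries σ R} (ha : MvPowerSeries.constantCoeff a = 0) :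
    cmp ((PowerSeries.X : PowerSeries R) ^ k) a = a ^ k := by
  have h : PowerSeries.HasSubst a := PowerSeries.HasSubst.of_constantCoeff_zero ha
  show PowerSeries.subst a (PowerSeries.X ^ k) = a ^ k
  rw [PowerSeries.subst_pow h, PowerSeries.subst_X h]

private theorem D7_constX {R : Type*} [CommRing R] {k : ℕ} (hk : k ≠ 0) :
    PowerSeries.constantCoeff ((PowerSeries.X : PowerSeries R) ^ k) = 0 := by
  rw [map_pow, PowerSeries.constantCoeff_X, zero_pow hk]

private theorem D7_one {R : Type*} [CommRing R] (F : FormalGroup R) :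
    mulSeries F 1 = PowerSeries.X := by
  rw [mulSeries_succ F 0]
  exact zero_fadd F (σ := Unit) (a := PowerSeries.X) PowerSeries.constantCoeff_X

/-- Coefficientwise bound. -/
private def Bd (ε : ℝ) {σ : Type} (f : MvPowerSeries σ C) : Prop :=
  ∀ d, ‖MvPowerSeries.coeff d f‖ ≤ ε

omit [CompleteSpace C] [IsAlgClosed C] in
private theorem D7_bd_mul {ε : ℝ} (hε : 0 ≤ ε) {σ : Type} {f g : MvPowerSeries σ C} (hf : Bd ε f)
    (hg : Int1 g) : Bd ε (f * g) := by
  classical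
  intro d
  rw [MvPowerSeries.coeff_mul]
  refine IsUltrametricDist.norm_sum_le_of_forall_le_of_nonneg hε fun x _ => ?_
  rw [norm_mul]
  calc ‖MvPowerSeries.coeff x.1 f‖ * ‖MvPowerSeries.coeff x.2 g‖ ≤ ε * 1 :=
        mul_le_mul (hf _) (hg _) (norm_nonneg _) hε
    _ = ε := mul_one ε

omit [CompleteSpace C] [IsAlgClosed C] in
private theorem D7_bd_add {ε : ℝ} {σ : Type} {f g : MvPowerSeries σ C} (hf : Bd ε f)
    (hg : Bd ε g) : Bd ε (f + g) := by
  intro d
  rw [map_add]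
  exact (IsUltrametricDist.norm_add_le_max _ _).trans (max_le (hf d) (hg d))

omit [IsAlgClosed C] in
private theorem D7_bd_pow {ε : ℝ} (hε : 0 ≤ ε) {σ : Type} [Finite σ] {f g : MvPowerSeries σ C}
    (hf : Int1 f) (hg : Int1 g) (h : Bd ε (f - g)) (k : ℕ) : Bd ε (f ^ k - g ^ k) := by
  induction k with
  | zero =>
    intro d
    simpa using hε
  | succ k ih =>
    have e : f ^ (k + 1) - g ^ (k + 1) = (f ^ k - g ^ k) * f + (f - g) * g ^ k := by ring
    rw [e]
    exact D7_bd_add (D7_bd_mul hε ih hf) (D7_bd_mul hε h (hg.pow k))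

private theorem D7_coeff_subst {R : Type*} [CommRing R] (G : MvPowerSeries (Fin 2) R)
    {a b : PowerSeries R}
    (ha : PowerSeries.constantCoeff a = 0) (hb : PowerSeries.constantCoeff b = 0) (n : Unit →₀ ℕ) :
    MvPowerSeries.coeff n (G.subst ![a, b] : PowerSeries R) =
      finsum fun d : Fin 2 →₀ ℕ =>
        MvPowerSeries.coeff d G • MvPowerSeries.coeff n (a ^ d 0 * b ^ d 1) := by
  have h := MvPowerSeries.coeff_subst (hasSubst_pair (σ := Unit) (a := a) (b := b) ha hb) G n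
  rw [h]
  refine finsum_congr fun d => ?_
  congr 2
  rw [Finsupp.prod_fintype _ _ (by simp)]
  simp [Fin.prod_univ_two]

omit [IsAlgClosed C] in
private theorem D7_bd_subst {ε : ℝ} (hε : 0 ≤ ε) {G : MvPowerSeries (Fin 2) C}
    (hG : Bd ε G) {a b : PowerSeries C} (ha : Int1 a) (hb : Int1 b)
    (ha0 : PowerSeries.constantCoeff a = 0) (hb0 : PowerSeries.constantCoeff b = 0) :
    Bd ε (G.subst ![a, b] : PowerSeries C) := by
  intro e
  rw [D7_coeff_subst G ha0 hb0]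
  refine finsum_induction (fun x => ‖x‖ ≤ ε) (by simpa using hε)
    (fun x y hx hy => (IsUltrametricDist.norm_add_le_max x y).trans (max_le hx hy)) fun d => ?_
  rw [smul_eq_mul, norm_mul]
  calc _ ≤ ε * 1 := mul_le_mul (hG d) ((ha.pow (d 0)).mul (hb.pow (d 1)) e) (norm_nonneg _) hε
    _ = ε := mul_one ε

omit [IsAlgClosed C] in
private theorem D7_bd_subst_sub {ε : ℝ} (hε : 0 ≤ ε) {G : MvPowerSeries (Fin 2) C}
    (hG : Int1 G) {a a' b : PowerSeries C} (ha : Int1 a) (ha' : Int1 a') (hb : Int1 b)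
    (ha0 : PowerSeries.constantCoeff a = 0) (ha0' : PowerSeries.constantCoeff a' = 0)
    (hb0 : PowerSeries.constantCoeff b = 0) (h : Bd ε (a - a')) :
    Bd ε ((G.subst ![a, b] : PowerSeries C) - (G.subst ![a', b] : PowerSeries C)) := by
  intro e
  rw [map_sub, D7_coeff_subst G ha0 hb0, D7_coeff_subst G ha0' hb0,
    ← finsum_sub_distrib]
  · refine finsum_induction (fun x => ‖x‖ ≤ ε) (by simpa using hε)
      (fun x y hx hy => (IsUltrametricDist.norm_add_le_max x y).trans (max_le hx hy)) fun d => ?_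
    rw [smul_eq_mul, smul_eq_mul, ← mul_sub, norm_mul, ← map_sub, ← sub_mul]
    calc _ ≤ 1 * ε := mul_le_mul (hG d)
            (D7_bd_mul hε (D7_bd_pow hε ha ha' h (d 0)) (hb.pow (d 1)) e) (norm_nonneg _)
            zero_le_one
      _ = ε := one_mul ε
  · have h1 := MvPowerSeries.coeff_subst_finite
      (hasSubst_pair (σ := Unit) (a := a) (b := b) ha0 hb0) G e
    refine h1.subset ?_
    intro d hd
    rw [Function.mem_support] at hd ⊢
    intro h2
    apply hd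
    rw [← h2]
    congr 2
    rw [Finsupp.prod_fintype _ _ (by simp)]
    simp [Fin.prod_univ_two]
  · have h1 := MvPowerSeries.coeff_subst_finite
      (hasSubst_pair (σ := Unit) (a := a') (b := b) ha0' hb0) G e
    refine h1.subset ?_
    intro d hd
    rw [Function.mem_support] at hd ⊢
    intro h2
    apply hd
    rw [← h2]
    congr 2
    rw [Finsupp.prod_fintype _ _ (by simp)]
    simp [Fin.prod_univ_two]

omit [IsAlgClosed C] in
private theorem D7_subst_sub (G G' : MvPowerSeries (Fin 2) C) {a b : PowerSeries C}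
    (ha0 : PowerSeries.constantCoeff a = 0) (hb0 : PowerSeries.constantCoeff b = 0) :
    ((G - G').subst ![a, b] : PowerSeries C) =
      (G.subst ![a, b] : PowerSeries C) - (G'.subst ![a, b] : PowerSeries C) := by
  have h := hasSubst_pair (σ := Unit) (a := a) (b := b) ha0 hb0
  rw [← MvPowerSeries.coe_substAlgHom h, map_sub]

private theorem D7_mulSeries_close (m : ℕ) :
    Bd D.ρ (mulSeries D.H.law m - mulSeries Γ.law m) := by
  induction m with
  | zero =>
    intro d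
    have : (mulSeries D.H.law 0 - mulSeries Γ.law 0 : PowerSeries C) = 0 := sub_self 0
    rw [this]
    simpa using D.ρ0.le
  | succ m ih =>
    rw [mulSeries_succ, mulSeries_succ]
    unfold fadd
    have hXv : Int1 (PowerSeries.X : PowerSeries C) := Int1.var (C := C) ()
    have h1 := D7_bd_subst D.ρ0.le D.close (Int1.mulSeries D.H m) hXv
      (constantCoeff_mulSeries D.H.law m) PowerSeries.constantCoeff_X
    rw [D7_subst_sub _ _ (constantCoeff_mulSeries D.H.law m) PowerSeries.constantCoeff_X] at h1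
    have h2 := D7_bd_subst_sub D.ρ0.le Γ.int (Int1.mulSeries D.H m) (Int1.mulSeries Γ m)
      hXv (constantCoeff_mulSeries D.H.law m)
      (constantCoeff_mulSeries Γ.law m) PowerSeries.constantCoeff_X ih
    have h3 := D7_bd_add h1 h2
    rwa [sub_add_sub_cancel] at h3

end D7aux

private theorem D7_VN_succ (V : PowerSeries C) (N : ℕ) :
    VN p h V (N + 1) = cmp V (PowerSeries.map (iterateFrobenius C p h) (VN p h V N)) := rfl

private theorem D7_const {V : PowerSeries C} (h0 : PowerSeries.constantCoeff V = 0) (N : ℕ) :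
    PowerSeries.constantCoeff (VN p h V N) = 0 := by
  induction N with
  | zero => exact PowerSeries.constantCoeff_X
  | succ N ih =>
    rw [D7_VN_succ]
    refine constantCoeff_cmp (σ := Unit) h0 ?_
    show PowerSeries.constantCoeff (PowerSeries.map _ _) = 0
    rw [← PowerSeries.coeff_zero_eq_constantCoeff_apply, PowerSeries.coeff_map,
      PowerSeries.coeff_zero_eq_constantCoeff_apply, ih, map_zero]

private theorem D7_const_map {V : PowerSeries C} (h0 : PowerSeries.constantCoeff V = 0)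
    (N k : ℕ) : MvPowerSeries.constantCoeff
      (PowerSeries.map (iterateFrobenius C p k) (VN p h V N) : MvPowerSeries Unit C) = 0 := by
  show PowerSeries.constantCoeff (PowerSeries.map _ _) = 0
  rw [← PowerSeries.coeff_zero_eq_constantCoeff_apply, PowerSeries.coeff_map,
    PowerSeries.coeff_zero_eq_constantCoeff_apply, D7_const h0, map_zero]

/-- TASK D7. -/
theorem Datum.VN_int (N : ℕ) : Int1 (VN p h D.V N) := by
  induction N with
  | zero => exact Int1.var (C := C) ()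
  | succ N ih =>
    rw [D7_VN_succ]
    exact Int1.cmp D.V_int (Int1.map_frob p h ih) (D7_const_map D.V_hom.1 N h)

theorem Datum.VN_hom (N : ℕ) :
    IsFGHom (D.H.law.map (iterateFrobenius C p (h * N))) D.H.law (VN p h D.V N) := by
  induction N with
  | zero =>
    rw [mul_zero, D7_iF_zero, map_id]
    exact hom_X _
  | succ N ih =>
    have h1 := hom_map ih (iterateFrobenius C p h)
    rw [map_map, D7_iF_comp, show h + h * N = h * (N + 1) by ring] at h1
    rw [D7_VN_succ]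
    exact hom_comp D.V_hom h1

/-- `[p^N]_H = V^{[N]}(X^{Q^N})`. -/
theorem Datum.mulSeries_eq (N : ℕ) :
    mulSeries D.H.law (p ^ N) =
      cmp (VN p h D.V N) (PowerSeries.X ^ (p ^ (h * N)) : PowerSeries C) := by
  have := D.H.comm
  have hp : p ≠ 0 := (Fact.out : p.Prime).ne_zero
  induction N with
  | zero =>
    rw [pow_zero, mul_zero, pow_zero, pow_one, D7_one]
    exact (cmp_X _).symm
  | succ N ih =>
    have hc : MvPowerSeries.constantCoeff
        (PowerSeries.X ^ (p ^ (h * N)) : PowerSeries C) = 0 := D7_constX (pow_ne_zero _ hp)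
    have hc2 : MvPowerSeries.constantCoeff
        (cmp (VN p h D.V N) (PowerSeries.X ^ (p ^ (h * N)) : PowerSeries C)) = 0 :=
      constantCoeff_cmp (D7_const D.V_hom.1 N) hc
    have hc3 : PowerSeries.constantCoeff ((PowerSeries.X : PowerSeries C) ^ (p ^ h)) = 0 :=
      D7_constX (pow_ne_zero _ hp)
    rw [pow_succ' p N, mulSeries_mul, ih, D.V_p, cmp_assoc _ hc3 hc2, D7_cmp_pow_left _ hc2,
      cmp_pow p _ h hc, D7_VN_succ, ← pow_mul, ← pow_add, show h * N + h = h * (N + 1) by ring]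
    refine (cmp_assoc _ (D7_const_map D.V_hom.1 N h) ?_).symm
    exact D7_constX (pow_ne_zero _ hp)

/-- Value form: `(p^N • w) = V^{[N]}(w^{Q^N})`. -/
theorem Datum.nsmul_pow_eq (N : ℕ) (w : Pt D.H) :
    ((p ^ N) • w).val = ev1 (VN p h D.V N) (w.val ^ (p ^ (h * N))) := by
  have hp : p ≠ 0 := (Fact.out : p.Prime).ne_zero
  rw [Pt.nsmul_val, D.mulSeries_eq N]
  have hX : Int1 (PowerSeries.X ^ (p ^ (h * N)) : PowerSeries C) := Int1.pow (Int1.var ()) _
  rw [ev1_cmp (D.VN_int N) hX (D7_constX (pow_ne_zero _ hp)) w.lt, ev1_X_pow _ w.lt]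

/-- `V^{[1]} = V`. -/
theorem VN_one (V : PowerSeries C) : VN p h V 1 = V := by
  rw [D7_VN_succ V 0]
  show cmp V (PowerSeries.map (iterateFrobenius C p h) PowerSeries.X) = V
  rw [PowerSeries.map_X]
  exact cmp_X V

/-- Any choice of decomposition: `V^{[N+M]} = V^{[N]} ∘ (V^{[M]})^{(Q^N)}`. -/
theorem Datum.VN_add (N M : ℕ) :
    VN p h D.V (N + M) =
      cmp (VN p h D.V N) (PowerSeries.map (iterateFrobenius C p (h * N)) (VN p h D.V M)) := by
  induction N with
  | zero =>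
    rw [zero_add, mul_zero, D7_iF_zero]
    have h1 : PowerSeries.map (RingHom.id C) (VN p h D.V M) = VN p h D.V M := by
      rw [PowerSeries.map_id]
      rfl
    rw [h1]
    exact (X_cmp (D7_const D.V_hom.1 M)).symm
  | succ N ih =>
    have h0 := D7_const_map (p := p) (h := h) D.V_hom.1 M (h * N)
    rw [show N + 1 + M = N + M + 1 by ring, D7_VN_succ, ih]
    have h1 : PowerSeries.map (iterateFrobenius C p h)
        (cmp (VN p h D.V N) (PowerSeries.map (iterateFrobenius C p (h * N)) (VN p h D.V M))) =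
        cmp (PowerSeries.map (iterateFrobenius C p h) (VN p h D.V N))
          (PowerSeries.map (iterateFrobenius C p (h * (N + 1))) (VN p h D.V M)) := by
      refine (map_cmp (iterateFrobenius C p h) (VN p h D.V N) h0).trans ?_
      congr 1
      show PowerSeries.map _ (PowerSeries.map _ _) = _
      rw [← RingHom.comp_apply, ← PowerSeries.map_comp, D7_iF_comp,
        show h + h * N = h * (N + 1) by ring]
    rw [h1, D7_VN_succ]
    exact (cmp_assoc _ (D7_const_map D.V_hom.1 N h)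
      (D7_const_map (p := p) (h := h) D.V_hom.1 M (h * (N + 1)))).symm

/-- `V^{[N]} ≡ X^{p^{(n-h)N}}` modulo `ρ` (from `[p^N]_H ≡ [p^N]_Γ = X^{q^N}`). -/
theorem Datum.VN_close (N i : ℕ) :
    ‖PowerSeries.coeff i (VN p h D.V N - (PowerSeries.X : PowerSeries C) ^ (p ^ ((n - h) * N)))‖
      ≤ D.ρ := by
  have := Γ.comm
  have hp : p ≠ 0 := (Fact.out : p.Prime).ne_zero
  have hΓ : mulSeries Γ.law (p ^ N) = (PowerSeries.X : PowerSeries C) ^ (p ^ (n * N)) := by
    induction N with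
    | zero => rw [pow_zero, mul_zero, pow_zero, pow_one, D7_one]
    | succ N ih =>
      rw [pow_succ' p N, mulSeries_mul, ih, D.Γ_p]
      have hc : MvPowerSeries.constantCoeff
        (PowerSeries.X ^ (p ^ (n * N)) : PowerSeries C) = 0 := D7_constX (pow_ne_zero _ hp)
      rw [D7_cmp_pow_left _ hc, ← pow_mul, ← pow_add, show n * N + n = n * (N + 1) by ring]
  have hX : (PowerSeries.X : PowerSeries C) ^ (p ^ (n * N)) =
      cmp ((PowerSeries.X : PowerSeries C) ^ (p ^ ((n - h) * N)))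
        (PowerSeries.X ^ (p ^ (h * N)) : PowerSeries C) := by
    have hc : MvPowerSeries.constantCoeff
        (PowerSeries.X ^ (p ^ (h * N)) : PowerSeries C) = 0 := D7_constX (pow_ne_zero _ hp)
    rw [D7_cmp_pow_left _ hc, ← pow_mul, ← pow_add, ← add_mul,
      Nat.add_sub_cancel' D.h2.le]
  have h1 := D7_mulSeries_close D (p ^ N) (Finsupp.single () (p ^ (h * N) * i))
  have h2 : MvPowerSeries.coeff (Finsupp.single () (p ^ (h * N) * i))
      (mulSeries D.H.law (p ^ N) - mulSeries Γ.law (p ^ N)) =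
      PowerSeries.coeff i
        (VN p h D.V N - (PowerSeries.X : PowerSeries C) ^ (p ^ ((n - h) * N))) := by
    show PowerSeries.coeff (p ^ (h * N) * i) (mulSeries D.H.law (p ^ N) -
      mulSeries Γ.law (p ^ N)) = _
    rw [hΓ, D.mulSeries_eq N, hX, map_sub, map_sub,
      coeff_cmp_X_pow _ (pow_ne_zero _ hp), coeff_cmp_X_pow _ (pow_ne_zero _ hp)]
  rwa [h2] at h1

theorem Datum.norm_v_le : ‖PowerSeries.coeff 1 D.V‖ ≤ D.ρ := by
  have h1 := D.VN_close 1 1
  have h3 : p ^ ((n - h) * 1) ≠ 1 := by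
    rw [mul_one]
    have hp : 2 ≤ p := (Fact.out : p.Prime).two_le
    have h4 : n - h ≠ 0 := by have := D.h2; omega
    exact (Nat.one_lt_pow h4 (by omega)).ne'
  rw [VN_one, map_sub, PowerSeries.coeff_X_pow, if_neg (Ne.symm h3), sub_zero] at h1
  exact h1

private theorem D7_one_lt (D : Datum p n h Γ) : 1 < p ^ h :=
  Nat.one_lt_pow (by have := D.h1; omega) (Fact.out : p.Prime).one_lt

/-- A `(Q-1)`-st root of `v = V'(0)`. -/
theorem Datum.exists_varpi : ∃ ϖ : C, ϖ ≠ 0 ∧ ‖ϖ‖ < 1 ∧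
    ϖ ^ (p ^ h - 1) = PowerSeries.coeff 1 D.V := by
  have hQ := D7_one_lt D
  obtain ⟨z, hz⟩ := IsAlgClosed.exists_pow_nat_eq (PowerSeries.coeff 1 D.V)
    (show 0 < p ^ h - 1 by omega)
  refine ⟨z, ?_, ?_, hz⟩
  · rintro rfl
    rw [zero_pow (by omega)] at hz
    exact D.V_ne hz.symm
  · by_contra hcon
    push Not at hcon
    have h1 : ‖PowerSeries.coeff 1 D.V‖ < 1 := D.norm_v_le.trans_lt D.ρ1
    rw [← hz, norm_pow] at h1
    exact absurd h1 (not_lt.mpr (one_le_pow₀ hcon))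

private theorem D7_step (w : Pt D.H) :
    ‖(p • w).val - PowerSeries.coeff 1 D.V * w.val ^ (p ^ h)‖ ≤ (‖w.val‖ ^ (p ^ h)) ^ 2 := by
  have hp : p ≠ 0 := (Fact.out : p.Prime).ne_zero
  have h1 := D.nsmul_pow_eq 1 w
  rw [pow_one, VN_one, mul_one] at h1
  rw [h1]
  have hz : ‖w.val ^ (p ^ h)‖ < 1 := by
    rw [norm_pow]
    exact pow_lt_one₀ (norm_nonneg _) w.lt (pow_ne_zero _ hp)
  rw [← norm_pow]
  generalize w.val ^ (p ^ h) = z at hz
  have hV0 : PowerSeries.coeff 0 D.V = 0 := by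
    rw [PowerSeries.coeff_zero_eq_constantCoeff_apply]
    exact D.V_hom.1
  have hcX : Int1 (PowerSeries.C (PowerSeries.coeff 1 D.V) * PowerSeries.X : PowerSeries C) :=
    Int1.mul (σ := Unit) (Int1.const (σ := Unit) (D.norm_v_le.trans D.ρ1.le))
      (Int1.var (C := C) ())
  have h2 : ev1 (PowerSeries.C (PowerSeries.coeff 1 D.V) * PowerSeries.X : PowerSeries C) z =
      PowerSeries.coeff 1 D.V * z := by
    have h3 := ev_mul (σ := Unit) (f := MvPowerSeries.C (PowerSeries.coeff 1 D.V))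
      (g := MvPowerSeries.X ()) (Int1.const (D.norm_v_le.trans D.ρ1.le)) (Int1.var ())
      (z := fun _ => z) (fun _ => hz)
    rw [ev_C, ev_X] at h3
    exact h3
  have h4 : ev1 D.V z - PowerSeries.coeff 1 D.V * z =
      ev1 (D.V - PowerSeries.C (PowerSeries.coeff 1 D.V) * PowerSeries.X) z := by
    rw [← h2]
    exact (ev_sub (σ := Unit) D.V_int hcX (z := fun _ => z) fun _ => hz).symm
  rw [h4, ev1_eq]
  refine IsUltrametricDist.norm_tsum_le_of_forall_le_of_nonneg (by positivity) fun i => ?_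
  rcases i with _ | _ | i
  · rw [map_sub, hV0]
    simp
  · rw [map_sub, PowerSeries.coeff_succ_mul_X]
    simp
  · have h5 : ‖PowerSeries.coeff (i + 1 + 1)
        (D.V - PowerSeries.C (PowerSeries.coeff 1 D.V) * PowerSeries.X)‖ ≤ 1 :=
      Int1.sub (σ := Unit) D.V_int hcX _
    rw [norm_mul, norm_pow]
    calc _ ≤ 1 * ‖z‖ ^ 2 := by
          refine mul_le_mul h5 ?_ (by positivity) zero_le_one
          exact pow_le_pow_of_le_one (norm_nonneg _) hz.le (by omega)
      _ = _ := one_mul _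

/-- LINEAR REGIME.  If `‖w‖^Q < ‖v‖` then
`[p^m]_H(w) = ϖ⁻¹ (ϖ w)^{Q^m} (1 + ε_m)` with `ε_m → 0`.
Proof: `‖V(X) - vX‖ ≤ ‖X‖²`, so `[p]w = V(w^Q) = v w^Q (1 + η)`, `‖η‖ ≤ ‖w‖^Q/‖v‖ =: η₁ < 1`; so
`‖[p]w‖ = ‖v‖‖w‖^Q` and `‖[p]w‖^Q/‖v‖ ≤ η₁^Q`.  By induction
`‖ε_m‖ ≤ η₁^{Q^{m-1}}` for `m ≥ 1`: `1 + ε_{m+1} = (1+ε_m)^Q (1 + η')`, `‖η'‖ ≤ η₁^{Q^m}`.
(`v ϖ⁻¹ ^Q ... : v · (ϖ⁻¹ (ϖw)^{Q^m})^Q = ϖ⁻¹ (ϖ w)^{Q^{m+1}}` as `v = ϖ^{Q-1}`.) -/
theorem Datum.linear_regime {ϖ : C} (hϖ : ϖ ^ (p ^ h - 1) = PowerSeries.coeff 1 D.V)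
    (hϖ0 : ϖ ≠ 0) (w : Pt D.H) (hw : ‖w.val‖ ^ (p ^ h) < ‖PowerSeries.coeff 1 D.V‖) :
    ∃ ε : ℕ → C, Filter.Tendsto ε Filter.atTop (nhds 0) ∧
      ∀ m, ((p ^ m) • w).val = ϖ⁻¹ * (ϖ * w.val) ^ ((p ^ h) ^ m) * (1 + ε m) := by
  have hQ := D7_one_lt D
  by_cases hw0 : w.val = 0
  · refine ⟨fun _ => 0, tendsto_const_nhds, fun m => ?_⟩
    have h1 : w = 0 := Pt.ext hw0
    rw [h1, smul_zero, Pt.val_zero, mul_zero, zero_pow (pow_ne_zero _ (by omega)), mul_zero,
      zero_mul]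
  have hvn : ‖ϖ‖ ^ (p ^ h - 1) = ‖PowerSeries.coeff 1 D.V‖ := by rw [← hϖ, norm_pow]
  have hϖ1 : ‖ϖ‖ < 1 := by
    by_contra hcon
    push Not at hcon
    have h1 : ‖PowerSeries.coeff 1 D.V‖ < 1 := D.norm_v_le.trans_lt D.ρ1
    rw [← hvn] at h1
    exact absurd h1 (not_lt.mpr (one_le_pow₀ hcon))
  have hϖp : 0 < ‖ϖ‖ := norm_pos_iff.2 hϖ0
  have hwp : 0 < ‖w.val‖ := norm_pos_iff.2 hw0
  have hstep0 : ∀ w : Pt D.H, ‖(p • w).val - PowerSeries.coeff 1 D.V * w.val ^ (p ^ h)‖ ≤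
      (‖w.val‖ ^ (p ^ h)) ^ 2 := fun w => D7_step D w
  have hfr0 : ∀ x : C, x ^ (p ^ h) - 1 = (x - 1) ^ (p ^ h) := by
    intro x
    rw [sub_pow_char_pow, one_pow]
  obtain ⟨Q, hQdef⟩ : ∃ Q, Q = p ^ h := ⟨_, rfl⟩
  simp only [← hQdef] at hQ hw hϖ hvn hstep0 hfr0 ⊢
  have hϖw : ϖ * w.val ≠ 0 := mul_ne_zero hϖ0 hw0
  set t := ‖ϖ * w.val‖ with ht
  have htp : 0 < t := norm_pos_iff.2 hϖw
  set c := ‖ϖ‖ / ‖ϖ‖ ^ (2 * Q) with hc
  have hc1 : 1 ≤ c := by
    rw [hc, one_le_div (by positivity)]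
    calc ‖ϖ‖ ^ (2 * Q) ≤ ‖ϖ‖ ^ 1 := pow_le_pow_of_le_one hϖp.le hϖ1.le (by omega)
      _ = ‖ϖ‖ := pow_one _
  set r := t ^ Q * c with hr
  have hr1 : r < 1 := by
    have e : r = ‖w.val‖ ^ Q / ‖PowerSeries.coeff 1 D.V‖ := by
      have e1 : ‖ϖ‖ * ‖PowerSeries.coeff 1 D.V‖ = ‖ϖ‖ ^ Q := by
        rw [← hvn, ← pow_succ', Nat.sub_add_cancel hQ.le]
      have hv0 : ‖PowerSeries.coeff 1 D.V‖ ≠ 0 := norm_ne_zero_iff.2 D.V_ne
      rw [hr, hc, ht, norm_mul, mul_pow, two_mul, pow_add, ← e1]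
      field_simp
    rw [e, div_lt_one (norm_pos_iff.2 D.V_ne)]
    exact hw
  have hrp : 0 < r := by positivity
  -- the normalised sequence
  obtain ⟨u, hu⟩ : ∃ u : ℕ → C, ∀ m, u m = ϖ * ((p ^ m) • w).val / (ϖ * w.val) ^ (Q ^ m) :=
    ⟨_, fun _ => rfl⟩
  have hx : ∀ m, ((p ^ m) • w).val = ϖ⁻¹ * (ϖ * w.val) ^ (Q ^ m) * u m := by
    intro m
    rw [hu]
    field_simp
  have hxn : ∀ m, ‖((p ^ m) • w).val‖ = ‖ϖ‖⁻¹ * t ^ (Q ^ m) * ‖u m‖ := by
    intro m
    rw [hx m, norm_mul, norm_mul, norm_inv, norm_pow]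
  have hstep : ∀ m, ‖u m‖ ≤ 1 → ‖u (m + 1) - u m ^ Q‖ ≤ r ^ (Q ^ m) := by
    intro m hum
    have h1 := hstep0 ((p ^ m) • w)
    have h2 : p • (p ^ m) • w = (p ^ (m + 1)) • w := by
      rw [← mul_nsmul', ← pow_succ']
    rw [h2] at h1
    have h3 : u (m + 1) - u m ^ Q = ϖ * (((p ^ (m + 1)) • w).val -
        PowerSeries.coeff 1 D.V * ((p ^ m) • w).val ^ Q) / (ϖ * w.val) ^ (Q ^ (m + 1)) := by
      have e1 : ϖ * PowerSeries.coeff 1 D.V = ϖ ^ Q := by
        rw [← hϖ, ← pow_succ', Nat.sub_add_cancel hQ.le]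
      have e2 : ((ϖ * w.val) ^ (Q ^ m)) ^ Q = (ϖ * w.val) ^ (Q ^ (m + 1)) := by
        rw [← pow_mul, ← pow_succ]
      rw [hu, hu, div_pow, e2, mul_sub, ← mul_assoc ϖ (PowerSeries.coeff 1 D.V),
        e1, ← mul_pow, sub_div]
    rw [h3, norm_div, norm_mul, norm_pow, ← ht, div_le_iff₀ (by positivity)]
    have h4 : ‖((p ^ m) • w).val‖ ≤ ‖ϖ‖⁻¹ * t ^ (Q ^ m) := by
      rw [hxn m]
      exact mul_le_of_le_one_right (by positivity) hum
    calc _ ≤ ‖ϖ‖ * (‖((p ^ m) • w).val‖ ^ Q) ^ 2 :=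
          mul_le_mul_of_nonneg_left h1 (norm_nonneg _)
      _ ≤ ‖ϖ‖ * ((‖ϖ‖⁻¹ * t ^ (Q ^ m)) ^ Q) ^ 2 := by
          refine mul_le_mul_of_nonneg_left ?_ (norm_nonneg _)
          exact pow_le_pow_left₀ (by positivity)
            (pow_le_pow_left₀ (norm_nonneg _) h4 _) _
      _ = c * t ^ (Q ^ (m + 1)) * t ^ (Q ^ (m + 1)) := by
          have e3 : ((‖ϖ‖⁻¹ * t ^ (Q ^ m)) ^ Q) ^ 2 = (‖ϖ‖ ^ (2 * Q))⁻¹ *
              (t ^ (Q ^ (m + 1)) * t ^ (Q ^ (m + 1))) := by
            rw [mul_pow, ← pow_mul, ← pow_succ, mul_pow, ← sq, inv_pow, ← inv_pow, ← inv_pow,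
              ← pow_mul, mul_comm Q 2]
          rw [e3, hc]
          ring
      _ ≤ r ^ (Q ^ m) * t ^ (Q ^ (m + 1)) := by
          refine mul_le_mul_of_nonneg_right ?_ (by positivity)
          rw [hr, mul_pow, ← pow_mul, mul_comm Q (Q ^ m), ← pow_succ, mul_comm]
          refine mul_le_mul_of_nonneg_left ?_ (by positivity)
          calc c = c ^ 1 := (pow_one c).symm
            _ ≤ c ^ (Q ^ m) := pow_le_pow_right₀ hc1 (Nat.one_le_pow _ _ (by omega))
  have hu0 : u 0 = 1 := by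
    rw [hu, pow_zero, one_smul, pow_zero, pow_one]
    exact div_self hϖw
  have hkey : ∀ m, ‖u m - 1‖ ≤ 1 ∧ ‖u (m + 1) - 1‖ ≤ r ^ (Q ^ m) := by
    have hQr : ∀ m, r ^ (Q ^ m) ≤ 1 := fun m => pow_le_one₀ hrp.le hr1.le
    have hle : ∀ m, ‖u m - 1‖ ≤ 1 → ‖u m‖ ≤ 1 := by
      intro m hm
      have e : u m = (u m - 1) + 1 := by ring
      rw [e]
      exact (IsUltrametricDist.norm_add_le_max _ _).trans (max_le hm (by rw [norm_one]))
    have hfr : ∀ m, u m ^ Q - 1 = (u m - 1) ^ Q := by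
      intro m
      exact hfr0 (u m)
    intro m
    induction m with
    | zero =>
      refine ⟨by rw [hu0, sub_self, norm_zero]; exact zero_le_one, ?_⟩
      have h1 := hstep 0 (by rw [hu0, norm_one])
      rwa [hu0, one_pow] at h1
    | succ m ih =>
      have h1 : ‖u (m + 1) - 1‖ ≤ 1 := ih.2.trans (hQr m)
      refine ⟨h1, ?_⟩
      have e : u (m + 1 + 1) - 1 = (u (m + 1 + 1) - u (m + 1) ^ Q) + (u (m + 1) ^ Q - 1) := by
        ring
      rw [e]
      refine (IsUltrametricDist.norm_add_le_max _ _).trans (max_le (hstep _ (hle _ h1)) ?_)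
      rw [hfr, norm_pow, pow_succ Q m, pow_mul]
      exact pow_le_pow_left₀ (norm_nonneg _) ih.2 _
  refine ⟨fun m => u m - 1, ?_, fun m => ?_⟩
  · rw [← Filter.tendsto_add_atTop_iff_nat 1]
    refine squeeze_zero_norm (fun m => (hkey m).2.trans ?_)
      (tendsto_pow_atTop_nhds_zero_of_lt_one hrp.le hr1)
    refine pow_le_pow_of_le_one hrp.le hr1.le ?_
    exact (Nat.lt_pow_self hQ).le
  · rw [hx m]
    congr 1
    ring

/-- One step with explicit error: `‖[p]w - v w^Q‖ ≤ ‖w^Q‖²`. -/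
theorem Datum.norm_nsmul_p_sub_le (w : Pt D.H) :
    ‖(p • w).val - PowerSeries.coeff 1 D.V * w.val ^ (p ^ h)‖ ≤ (‖w.val‖ ^ (p ^ h)) ^ 2 :=
  D7_step D w

/-- Translation: for every `t` there is `u` of norm `1` with
`(t + ω).val = t.val + u ω.val + O(ω²)` (`u = ∂_2 H(t, 0)`, constant coefficient `1`). -/
theorem Pt.exists_translation {F : IFG C} (t : Pt F) :
    ∃ u : C, ‖u‖ = 1 ∧ ∀ ω : Pt F, ‖(t + ω).val - t.val - u * ω.val‖ ≤ ‖ω.val‖ ^ 2 := by
  have hK : Int1 (shiftK2 F.law) := fun d => by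
    rw [coeff_shiftK2]
    exact F.int _
  have hX : ∀ i : Fin 2, Int1 (MvPowerSeries.X i : MvPowerSeries (Fin 2) C) :=
    fun i => Int1.var i
  have hlt : ∀ ω : Pt F, ∀ s : Fin 2, ‖(![t.val, ω.val] : Fin 2 → C) s‖ < 1 := by
    intro ω s
    fin_cases s
    · exact t.lt
    · exact ω.lt
  have hval : ∀ ω : Pt F, (t + ω).val = t.val + ω.val +
      t.val * (ω.val * ev (shiftK2 F.law) ![t.val, ω.val]) := by
    intro ω
    rw [Pt.val_add]
    unfold cadd
    have h1 := hlt ω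
    rw [decomp_shiftK2 F.law, ev_add ((hX 0).add (hX 1)) ((hX 0).mul ((hX 1).mul hK)) h1,
      ev_add (hX 0) (hX 1) h1, ev_mul (hX 0) ((hX 1).mul hK) h1, ev_mul (hX 1) hK h1, ev_X, ev_X]
    rfl
  have hk1 : ∀ ω : Pt F, ‖ev (shiftK2 F.law) ![t.val, ω.val]‖ ≤ 1 := fun ω =>
    norm_ev_le (hlt ω) zero_le_one hK
  refine ⟨1 + t.val * ev (shiftK2 F.law) ![t.val, (0 : Pt F).val], ?_, ?_⟩
  · have h1 : ‖t.val * ev (shiftK2 F.law) ![t.val, (0 : Pt F).val]‖ < 1 := by
      rw [norm_mul]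
      calc _ ≤ ‖t.val‖ * 1 := mul_le_mul_of_nonneg_left (hk1 0) (norm_nonneg _)
        _ < 1 := by rw [mul_one]; exact t.lt
    have h2 : ‖(1 : C)‖ = 1 := norm_one
    rw [IsUltrametricDist.norm_add_eq_max_of_norm_ne_norm (by rw [h2]; exact h1.ne'), h2]
    exact max_eq_left h1.le
  · intro ω
    have e : (t + ω).val - t.val - (1 + t.val * ev (shiftK2 F.law) ![t.val, (0 : Pt F).val]) *
        ω.val = t.val * (ω.val * (ev (shiftK2 F.law) ![t.val, ω.val] -
          ev (shiftK2 F.law) ![t.val, (0 : Pt F).val])) := by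
      rw [hval ω]
      ring
    rw [e, norm_mul, norm_mul]
    have h3 : ‖ev (shiftK2 F.law) ![t.val, ω.val] -
        ev (shiftK2 F.law) ![t.val, (0 : Pt F).val]‖ ≤ ‖ω.val‖ := by
      refine norm_ev_sub_le hK (hlt ω) (hlt 0) (norm_nonneg _) ?_
      intro s
      fin_cases s
      · show ‖t.val - t.val‖ ≤ _
        rw [sub_self, norm_zero]
        exact norm_nonneg _
      · show ‖ω.val - (0 : Pt F).val‖ ≤ _
        rw [Pt.val_zero, sub_zero]
    calc _ ≤ 1 * (‖ω.val‖ * ‖ω.val‖) :=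
          mul_le_mul t.lt.le (mul_le_mul_of_nonneg_left h3 (norm_nonneg _)) (by positivity)
            zero_le_one
      _ = _ := by ring

end Crest.Agent.LU
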