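import Mathlib
import Crest.Agent.LU_D6
import Crest.Agent.LU_D7

/-!
S0351 (blueprint LU), task D9: displacement of the roots.
-/

set_option autoImplicit false

noncomputable section

namespace Crest.Agent.LU

open Crest.LubinTate Filter

variable {p n h : ℕ} [Fact p.Prime] {C : Type} [NontriviallyNormedField C] [IsUltrametricDist C]
  [CompleteSpace C] [IsAlgClosed C] [CharP C p] {Γ : IFG C} (D : Datum p n h Γ)

/-- `U_N(z) = (E(z^{q^{-N}}))^{Q^N}`. -/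
def Datum.U (N : ℕ) (z : Pt Γ) : C := (D.E (rt p n N z)).val ^ (p ^ (h * N))

/-- TASK D9a. `V^{[N]}(U_N(z)) = E(z)`. -/
theorem Datum.VN_U (N : ℕ) (z : Pt Γ) : ev1 (VN p h D.V N) (D.U N z) = (D.E z).val := by
  unfold Datum.U
  rw [← D.nsmul_pow_eq N (D.E (rt p n N z)), ← map_nsmul, D.nsmul_rt]

theorem Datum.norm_U_lt (N : ℕ) (z : Pt Γ) : ‖D.U N z‖ < 1 := by
  unfold Datum.U
  rw [norm_pow]
  exact pow_lt_one₀ (norm_nonneg _) (D.E (rt p n N z)).lt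
    (pow_ne_zero _ (Fact.out : p.Prime).ne_zero)

/-- For `y ∈ T`, `U_N(y)` is a root of `V^{[N]}`. -/
theorem Datum.U_mem (N : ℕ) {y : Pt Γ} (hy : y ∈ D.T) : D.U N y ∈ rts (VN p h D.V N) := by
  refine ⟨D.norm_U_lt N y, ?_⟩
  have hy0 : D.E y = 0 := hy
  rw [D.VN_U, hy0, Pt.val_zero]

/-- TASK D9b.  Displacement.  Let `D'` be a second datum with the same `Γ`,
`‖H - H'‖ ≤ δ`; `a, g : Γ → Γ` integral homomorphisms fixed by the `q`-Frobenius with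
`g ∘ (1 + p^m a) = 1` on points; `θ : H' → H` a lift of `g` (modulo some `r < 1`).  For `y ∈ T` and
`N ≤ m` the element `U'_N(y + p^m a(y))` is a root of `V'^{[N]}` and is within `δ^{Q^N}` of
`((E(y^{q^{-N}}) + p^{m-N} E(a y)).val)^{Q^N}`.
Proof: `y' = y + p^m a(y)`; `θ(E'(y')) = E(g y') = E(y) = 0` (`E_theta`), so `E'(y') = 0`
(`norm_ev1_eq` for `θ`), so `VN_U` for `D'` gives the root property.
`‖E'(y'^{q^{-N}}) - E(y'^{q^{-N}})‖ ≤ δ` (`norm_E_sub_E`); raise to the power `Q^N`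
(characteristic `p`); `y'^{q^{-N}} = y^{q^{-N}} + p^{m-N} a(y)` and `E` is additive. -/
theorem Datum.displacement (D' : Datum p n h Γ) {a g θ : PowerSeries C}
    (hai : Int1 a) (ha : IsFGHom Γ.law Γ.law a)
    (haf : PowerSeries.map (iterateFrobenius C p n) a = a)
    (hgi : Int1 g) (hg : IsFGHom Γ.law Γ.law g)
    (hgf : PowerSeries.map (iterateFrobenius C p n) g = g)
    (hθi : Int1 θ) (hθ : IsFGHom D'.H.law D.H.law θ) (hθ1 : ‖PowerSeries.coeff 1 θ‖ = 1)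
    {r : ℝ} (hr : r < 1) (hc : ∀ i, ‖PowerSeries.coeff i (θ - g)‖ ≤ r) {δ : ℝ}
    (hδ : ∀ d, ‖MvPowerSeries.coeff d (D.H.law.toPowerSeries - D'.H.law.toPowerSeries)‖ ≤ δ)
    {m N : ℕ} (hN : N ≤ m)
    (hinv : ∀ z : Pt Γ, Pt.hom g hgi hg (z + (p ^ m) • Pt.hom a hai ha z) = z)
    {y : Pt Γ} (hy : y ∈ D.T) :
    D'.U N (y + (p ^ m) • Pt.hom a hai ha y) ∈ rts (VN p h D'.V N) ∧
      ‖D'.U N (y + (p ^ m) • Pt.hom a hai ha y) -
        ((D.E (rt p n N y) + (p ^ (m - N)) • D.E (Pt.hom a hai ha y)).val) ^ (p ^ (h * N))‖ ≤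
        δ ^ (p ^ (h * N)) := by
  have hy0 : D.E y = 0 := hy
  set y' : Pt Γ := y + (p ^ m) • Pt.hom a hai ha y with hy'
  have h1 : D.E (Pt.hom g hgi hg y') = Pt.hom θ hθi hθ (D'.E y') :=
    D.E_theta D' hgi hg hgf hθi hθ hr hc y'
  have h2 : Pt.hom g hgi hg y' = y := hinv y
  rw [h2, hy0] at h1
  have h3 : ‖(D'.E y').val‖ = 0 := by
    rw [← norm_ev1_eq hθi hθ.1 hθ1 (D'.E y').lt, ← Pt.hom_val hθi hθ, ← h1]
    simp
  have h4 : y' ∈ D'.T := by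
    show D'.E y' = 0
    exact Pt.ext (norm_eq_zero.mp h3)
  refine ⟨D'.U_mem N h4, ?_⟩
  have h5 : rt p n N y' = rt p n N y + (p ^ (m - N)) • Pt.hom a hai ha y := by
    rw [hy', D.rt_add]
    congr 1
    have e : p ^ m = p ^ N * p ^ (m - N) := by rw [← pow_add, Nat.add_sub_cancel' hN]
    rw [e, mul_nsmul', D.rt_nsmul]
  have h6 : D.E (rt p n N y') =
      D.E (rt p n N y) + (p ^ (m - N)) • D.E (Pt.hom a hai ha y) := by
    rw [h5, map_add, map_nsmul]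
  rw [← h6]
  unfold Datum.U
  rw [← sub_pow_char_pow, norm_pow, norm_sub_rev]
  exact pow_le_pow_left₀ (norm_nonneg _) (D.norm_E_sub_E D' hδ (rt p n N y')) _

/-- TASK D9c.  Asymptotics of the main term.  For every `y` and `N` there is a constant
`κ = (u/ϖ)^{Q^N}`, `‖u‖ = 1` (`u` from `exists_translation` for `t = E(y^{q^{-N}})`), such that for
every `w` in the linear regime
`((t + p^{m-N} w).val)^{Q^N} - (t.val)^{Q^N} = κ (ϖ w)^{Q^m} (1 + ε_m)`, `ε_m → 0`.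
(`linear_regime` with `m - N`; `((t+ω).val - t.val)^{Q^N}`, characteristic `p`.) -/
theorem Datum.asym {ϖ : C} (hϖ : ϖ ^ (p ^ h - 1) = PowerSeries.coeff 1 D.V) (hϖ0 : ϖ ≠ 0)
    (y : Pt Γ) (N : ℕ) :
    ∃ κ : C, ‖κ‖ = (‖ϖ‖⁻¹) ^ ((p ^ h) ^ N) ∧ ∀ w : Pt D.H,
      ‖w.val‖ ^ (p ^ h) < ‖PowerSeries.coeff 1 D.V‖ →
      ∃ ε : ℕ → C, Tendsto ε atTop (nhds 0) ∧ ∀ m, N ≤ m →
        ((D.E (rt p n N y) + (p ^ (m - N)) • w).val) ^ (p ^ (h * N)) - D.U N y =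
          κ * (ϖ * w.val) ^ ((p ^ h) ^ m) * (1 + ε m) := by
  have hp : p ≠ 0 := (Fact.out : p.Prime).ne_zero
  have hQ2 : 2 ≤ p ^ h := by
    calc 2 ≤ p := (Fact.out : p.Prime).two_le
      _ = p ^ 1 := (pow_one p).symm
      _ ≤ p ^ h := Nat.pow_le_pow_right (Fact.out : p.Prime).pos D.h1
  have hqN : p ^ (h * N) ≠ 0 := pow_ne_zero _ hp
  set t : Pt D.H := D.E (rt p n N y) with ht
  obtain ⟨u, hu, hut⟩ := Pt.exists_translation t
  have hu0 : u ≠ 0 := by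
    intro h0
    rw [h0, norm_zero] at hu
    exact zero_ne_one hu
  refine ⟨(u * ϖ⁻¹) ^ ((p ^ h) ^ N), ?_, ?_⟩
  · rw [norm_pow, norm_mul, hu, one_mul, norm_inv]
  intro w hw
  obtain ⟨ε', hε', hlin⟩ := D.linear_regime hϖ hϖ0 w hw
  by_cases hw0 : w.val = 0
  · refine ⟨fun _ => 0, tendsto_const_nhds, fun m hm => ?_⟩
    have hw1 : w = 0 := Pt.ext hw0
    have hQm : (p ^ h) ^ m ≠ 0 := pow_ne_zero _ (pow_ne_zero _ hp)
    rw [hw1, smul_zero, add_zero, Pt.val_zero, mul_zero, zero_pow hQm, mul_zero, zero_mul]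
    unfold Datum.U
    rw [← ht, sub_self]
  have hϖ1 : ‖ϖ‖ ≤ 1 := by
    by_contra hc
    push Not at hc
    have h1 : ‖PowerSeries.coeff 1 D.V‖ ≤ 1 := D.V_int _
    rw [← hϖ, norm_pow] at h1
    exact absurd (one_lt_pow₀ hc (by omega : p ^ h - 1 ≠ 0)) (not_lt.mpr h1)
  have hϖn : 0 < ‖ϖ‖ := norm_pos_iff.mpr hϖ0
  have hb : ‖ϖ * w.val‖ < 1 := by
    rw [norm_mul]
    calc ‖ϖ‖ * ‖w.val‖ ≤ 1 * ‖w.val‖ := mul_le_mul_of_nonneg_right hϖ1 (norm_nonneg _)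
      _ = ‖w.val‖ := one_mul _
      _ < 1 := w.lt
  have hb0 : ϖ * w.val ≠ 0 := mul_ne_zero hϖ0 hw0
  have hd0 : ∀ k : ℕ, u * ϖ⁻¹ * (ϖ * w.val) ^ ((p ^ h) ^ k) ≠ 0 := fun k =>
    mul_ne_zero (mul_ne_zero hu0 (inv_ne_zero hϖ0)) (pow_ne_zero _ hb0)
  set η : ℕ → C := fun k => (t + (p ^ k) • w).val - t.val - u * ((p ^ k) • w).val with hη
  set η' : ℕ → C := fun k => η k / (u * ϖ⁻¹ * (ϖ * w.val) ^ ((p ^ h) ^ k)) with hη'
  have hη'_le : ∀ k, ‖η' k‖ ≤ ‖ϖ‖⁻¹ * ‖ϖ * w.val‖ ^ ((p ^ h) ^ k) * ‖1 + ε' k‖ ^ 2 := by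
    intro k
    have hpos : 0 < ‖ϖ * w.val‖ ^ ((p ^ h) ^ k) := pow_pos (norm_pos_iff.mpr hb0) _
    have h1 : ‖η k‖ ≤ ‖((p ^ k) • w).val‖ ^ 2 := hut _
    have h2 : ‖u * ϖ⁻¹ * (ϖ * w.val) ^ ((p ^ h) ^ k)‖ =
        ‖ϖ‖⁻¹ * ‖ϖ * w.val‖ ^ ((p ^ h) ^ k) := by
      rw [norm_mul, norm_mul, hu, one_mul, norm_inv, norm_pow]
    have h3 : ‖((p ^ k) • w).val‖ =
        ‖ϖ‖⁻¹ * ‖ϖ * w.val‖ ^ ((p ^ h) ^ k) * ‖1 + ε' k‖ := by
      rw [hlin k, norm_mul, norm_mul, norm_inv, norm_pow]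
    rw [hη']
    simp only
    rw [norm_div, h2, div_le_iff₀ (mul_pos (inv_pos.mpr hϖn) hpos)]
    refine h1.trans (le_of_eq ?_)
    rw [h3]
    ring
  have hη'_lim : Tendsto η' atTop (nhds 0) := by
    refine squeeze_zero_norm hη'_le ?_
    have h1 : Tendsto (fun k : ℕ => ‖ϖ * w.val‖ ^ ((p ^ h) ^ k)) atTop (nhds 0) :=
      (tendsto_pow_atTop_nhds_zero_of_lt_one (norm_nonneg _) hb).comp
        (tendsto_pow_atTop_atTop_of_one_lt (by omega : 1 < p ^ h))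
    have h2 : Tendsto (fun k : ℕ => ‖1 + ε' k‖ ^ 2) atTop (nhds (‖(1 : C) + 0‖ ^ 2)) :=
      ((hε'.const_add 1).norm).pow 2
    have h3 := (h1.const_mul ‖ϖ‖⁻¹).mul h2
    rw [mul_zero, zero_mul] at h3
    exact h3
  refine ⟨fun m => (ε' (m - N) + η' (m - N)) ^ (p ^ (h * N)), ?_, fun m hm => ?_⟩
  · have h1 : Tendsto (fun k => (ε' k + η' k) ^ (p ^ (h * N))) atTop (nhds 0) := by
      have h2 := (hε'.add hη'_lim).pow (p ^ (h * N))
      rw [add_zero, zero_pow hqN] at h2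
      exact h2
    exact h1.comp (tendsto_sub_atTop_nat N)
  · set k := m - N with hk
    have hmk : m = k + N := (Nat.sub_add_cancel hm).symm
    have e1 : (t + (p ^ k) • w).val - t.val =
        u * ϖ⁻¹ * (ϖ * w.val) ^ ((p ^ h) ^ k) * (1 + (ε' k + η' k)) := by
      have e2 : η k = u * ϖ⁻¹ * (ϖ * w.val) ^ ((p ^ h) ^ k) * η' k := by
        rw [hη']
        simp only
        rw [mul_div_cancel₀ _ (hd0 k)]
      have e3 : (t + (p ^ k) • w).val - t.val = u * ((p ^ k) • w).val + η k := by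
        rw [hη]; ring
      rw [e3, e2, hlin k]
      ring
    have e4 : ((t + (p ^ k) • w).val) ^ (p ^ (h * N)) - D.U N y =
        ((t + (p ^ k) • w).val - t.val) ^ (p ^ (h * N)) := by
      unfold Datum.U
      rw [← ht, sub_pow_char_pow]
    have e5 : (1 + (ε' k + η' k)) ^ (p ^ (h * N)) = 1 + (ε' k + η' k) ^ (p ^ (h * N)) := by
      rw [add_pow_char_pow, one_pow]
    rw [e4, e1, mul_pow, mul_pow, e5, ← pow_mul (ϖ * w.val), ← pow_mul p h N]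
    have e6 : (p ^ h) ^ k * p ^ (h * N) = (p ^ h) ^ m := by
      rw [hmk, pow_add, ← pow_mul p h N]
    rw [e6]

end Crest.Agent.LU
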