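import Mathlib
import Crest.Agent.LU_B8
import Crest.Agent.LU_D8
import Crest.Agent.LU_D9

/-!
S0351 (blueprint LU), task D10: probes attached to endomorphisms of `Γ`.
-/

set_option autoImplicit false

noncomputable section

namespace Crest.Agent.LU

open Crest.LubinTate Filter Asymptotics

variable {p : ℕ} [Fact p.Prime] {n : ℕ} {Γ : FormalGroup (GaloisField p n)} [Γ.IsComm]
  {H : FormalGroup (LTRing p n)} [H.IsComm]

private theorem d10_X_pow_cmp {R : Type*} [CommRing R] (m : ℕ) {σ : Type*}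
    {a : MvPowerSeries σ R} (ha : MvPowerSeries.constantCoeff a = 0) :
    cmp (PowerSeries.X ^ m : PowerSeries R) a = a ^ m := by
  have hs : PowerSeries.HasSubst a := PowerSeries.HasSubst.of_constantCoeff_zero ha
  unfold cmp
  rw [← PowerSeries.coe_substAlgHom hs, map_pow, PowerSeries.coe_substAlgHom hs,
    PowerSeries.subst_X hs]

private theorem d10_frob (hn : 1 ≤ n) (c : GaloisField p n) : c ^ (p ^ n) = c := by
  have : Finite (GaloisField p n) := inferInstance
  have : Fintype (GaloisField p n) := Fintype.ofFinite _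
  have hcard : Fintype.card (GaloisField p n) = p ^ n := by
    rw [← Nat.card_eq_fintype_card]
    exact GaloisField.card p n (by omega)
  rw [← hcard]
  exact FiniteField.pow_card c

/-- TASK D10a.  For an endomorphism `a` of `Γ` and `m ≥ 1` the series `g' = X +_Γ [p^m]∘a` is an
automorphism, it has an inverse automorphism `g` (`exists_cmp_inv`, `hom_inverse`), and both are
`≡ X` modulo `X^{q^m}` (`[p^m]∘a = a(X)^{q^m}`; `mulSeries_pow_Gamma`, `cmp_X_pow_comm`). -/
theorem exists_inverse_aut (hn : 1 ≤ n) (hΓ : mulSeries Γ p = PowerSeries.X ^ (p ^ n))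
    {a : PowerSeries (GaloisField p n)} (ha : IsFGHom Γ Γ a) {m : ℕ} (hm : 1 ≤ m) :
    ∃ g : PowerSeries (GaloisField p n), IsFGAut Γ g ∧
      cmp g (fadd Γ (PowerSeries.X : PowerSeries (GaloisField p n))
        (cmp (mulSeries Γ (p ^ m)) a)) = (PowerSeries.X : PowerSeries (GaloisField p n)) ∧
      ∀ i < (p ^ n) ^ m, PowerSeries.coeff i g = PowerSeries.coeff i PowerSeries.X := by
  have hp0 : p ≠ 0 := (Fact.out : p.Prime).ne_zero
  set A : PowerSeries (GaloisField p n) := cmp (mulSeries Γ (p ^ m)) a with hA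
  have hAhom : IsFGHom Γ Γ A := hom_comp (hom_mulSeries Γ _) ha
  have hghom : IsFGHom Γ Γ (fadd Γ (PowerSeries.X : PowerSeries (GaloisField p n)) A) :=
    hom_add (hom_X Γ) hAhom
  set g' : PowerSeries (GaloisField p n) :=
    fadd Γ (PowerSeries.X : PowerSeries (GaloisField p n)) A with hg'
  have hA1 : PowerSeries.coeff 1 A = 0 := by
    rw [hA, coeff_one_cmp _ ha.1, coeff_one_mulSeries, Nat.cast_pow, CharP.cast_eq_zero,
      zero_pow (by omega), zero_mul]
  have hg1 : PowerSeries.coeff 1 g' = 1 := by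
    rw [hg', coeff_one_fadd Γ PowerSeries.constantCoeff_X hAhom.1, hA1, add_zero,
      PowerSeries.coeff_one_X]
  have hg1u : IsUnit (PowerSeries.coeff 1 g') := by rw [hg1]; exact isUnit_one
  obtain ⟨g, hg0, hgu, h1, h2⟩ := exists_cmp_inv hghom.1 hg1u
  refine ⟨g, ⟨hom_inverse hghom hg0 h1 h2, hgu⟩, h2, ?_⟩
  -- the congruence
  have h3 : cmp g' g = fadd Γ g (cmp A g) := by
    have h := cmp_fadd Γ (b := (PowerSeries.X : PowerSeries (GaloisField p n))) (c := A)
      PowerSeries.constantCoeff_X hAhom.1 (σ := Unit) (a := g) hg0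
    have hX : cmp (PowerSeries.X : PowerSeries (GaloisField p n)) g = g := X_cmp (σ := Unit) hg0
    rw [hX] at h
    exact h
  have hag0 : PowerSeries.constantCoeff (cmp a g : PowerSeries (GaloisField p n)) = 0 :=
    constantCoeff_cmp (σ := Unit) ha.1 hg0
  have h4 : (cmp A g : PowerSeries (GaloisField p n)) = (cmp a g) ^ ((p ^ n) ^ m) := by
    have h := cmp_assoc (mulSeries Γ (p ^ m)) (ψ := a) ha.1 (σ := Unit) (a := g) hg0
    have h' := d10_X_pow_cmp (R := GaloisField p n) ((p ^ n) ^ m) (σ := Unit) (a := cmp a g) hag0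
    rw [mulSeries_pow_Gamma hΓ, h'] at h
    rw [hA, mulSeries_pow_Gamma hΓ]
    exact h
  have hdvd : (PowerSeries.X : PowerSeries (GaloisField p n)) ^ ((p ^ n) ^ m) ∣
      (cmp A g : PowerSeries (GaloisField p n)) := by
    rw [h4]
    exact pow_dvd_pow_of_dvd (PowerSeries.X_dvd_iff.2 hag0) _
  have hAg0 : PowerSeries.constantCoeff (cmp A g : PowerSeries (GaloisField p n)) = 0 :=
    constantCoeff_cmp (σ := Unit) hAhom.1 hg0
  obtain ⟨K, -, hK2⟩ := A7.exists_decomp Γ
  have hs : MvPowerSeries.HasSubst ![g, (cmp A g : PowerSeries (GaloisField p n))] :=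
    hasSubst_pair hg0 hAg0
  have h5 : fadd Γ g (cmp A g) = g + (cmp A g : PowerSeries (GaloisField p n)) *
      (MvPowerSeries.subst ![g, (cmp A g : PowerSeries (GaloisField p n))] K :
        PowerSeries (GaloisField p n)) := by
    unfold fadd
    rw [hK2, MvPowerSeries.subst_add hs, MvPowerSeries.subst_mul hs, MvPowerSeries.subst_X hs,
      MvPowerSeries.subst_X hs]
    rfl
  rw [h3, h5] at h1
  intro i hi
  have h6 := congrArg (PowerSeries.coeff i) h1
  rw [map_add, PowerSeries.X_pow_dvd_iff.1 (hdvd.mul_right _) i hi, add_zero] at h6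
  exact h6

variable {C : Type} [NontriviallyNormedField C] [IsUltrametricDist C] [CompleteSpace C]
  [IsAlgClosed C] [CharP C p]

/-- Base change of an endomorphism of `Γ` to `C`: integrality, homomorphism, Frobenius. -/
theorem map_iota_int (hn : 1 ≤ n) (ι : GaloisField p n →+* C)
    (a : PowerSeries (GaloisField p n)) : Int1 (PowerSeries.map ι a) := by
  intro d
  show ‖MvPowerSeries.coeff d (MvPowerSeries.map ι a)‖ ≤ 1
  rw [MvPowerSeries.coeff_map]
  exact norm_iota_le hn ι _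

theorem map_iota_hom (hn : 1 ≤ n) (ι : GaloisField p n →+* C)
    {a : PowerSeries (GaloisField p n)} (ha : IsFGHom Γ Γ a) :
    IsFGHom (ΓC hn Γ ι).law (ΓC hn Γ ι).law (PowerSeries.map ι a) :=
  hom_map ha ι

theorem map_iota_frob (hn : 1 ≤ n) (ι : GaloisField p n →+* C)
    (a : PowerSeries (GaloisField p n)) :
    PowerSeries.map (iterateFrobenius C p n) (PowerSeries.map ι a) = PowerSeries.map ι a := by
  ext i
  rw [PowerSeries.coeff_map, PowerSeries.coeff_map, iterateFrobenius_def, ← map_pow, d10_frob hn]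

/-- The action of an endomorphism of `Γ` on `Γ(𝔪_C)`. -/
def act (hn : 1 ≤ n) (ι : GaloisField p n →+* C) {a : PowerSeries (GaloisField p n)}
    (ha : IsFGHom Γ Γ a) : Pt (ΓC hn Γ ι) →+ Pt (ΓC hn Γ ι) :=
  Pt.hom (PowerSeries.map ι a) (map_iota_int hn ι a) (map_iota_hom hn ι ha)

/-- TASK D10b.  If `P` is stable for `M`, `g` an automorphism `≡ X mod X^M` with stabilizer map `φ`,
then `x ∘ φ` is again a point with kernel `P` and the same constants. -/
theorem point_comp {M : ℕ} {P : Ideal (LTRing p n)} (hst : IsStableIdeal p n Γ H M P)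
    {x : LTRing p n →+* C} (hx : IsPoint P x) {g : PowerSeries (GaloisField p n)}
    (hg : IsFGAut Γ g) (hgM : ∀ i < M, PowerSeries.coeff i g = PowerSeries.coeff i PowerSeries.X)
    {φ : LTRing p n →ₐ[WittVector p (GaloisField p n)] LTRing p n}
    (hφ : IsStabilizerMap p n H g φ) :
    IsPoint P (x.comp φ.toRingHom) ∧ SameConst x (x.comp φ.toRingHom) := by
  refine ⟨⟨?_, fun a => hx.le _, fun a ha => ?_⟩, fun w => ?_⟩
  · rw [← RingHom.comap_ker, hx.ker]
    exact hst g φ hg hgM hφ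
  · refine hx.lt _ ?_
    have h1 := congrArg (fun f : LTRing p n →+* GaloisField p n => f a) hφ.1
    rw [RingHom.mem_ker] at ha ⊢
    exact h1.trans ha
  · show x _ = x (φ _)
    rw [φ.commutes]

/-- Elements of `𝔪^K` have `‖x a‖ ≤ ρ^K`. -/
private theorem d10_pow_le {h h' : ℕ} {P : Ideal (LTRing p n)} (S : Situ Γ H h h' P)
    {x : LTRing p n →+* C} (hx : IsPoint P x) (K : ℕ) {a : LTRing p n}
    (ha : a ∈ (RingHom.ker (LTRing.residue p n)) ^ K) : ‖x a‖ ≤ (rhoC H h x) ^ K := by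
  have hρ0 : 0 ≤ rhoC H h x := (rhoC_pos S hx).le
  induction K generalizing a with
  | zero =>
    rw [pow_zero]
    exact hx.le a
  | succ K ih =>
    rw [pow_succ] at ha
    refine Submodule.mul_induction_on ha (fun b hb c hc => ?_) (fun b c hb hc => ?_)
    · rw [map_mul, norm_mul, pow_succ]
      exact mul_le_mul (ih hb) (norm_le_rhoC S hx hc) (norm_nonneg _) (pow_nonneg hρ0 _)
    · rw [map_add]
      exact (IsUltrametricDist.norm_add_le_max _ _).trans (max_le hb hc)

/-- The displacement statement for one `m`. -/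
private theorem d10_step {h h' M : ℕ} {P : Ideal (LTRing p n)} (S : Situ Γ H h h' P)
    (hst : IsStableIdeal p n Γ H M P) {x : LTRing p n →+* C} (hx : IsPoint P x)
    {ι : GaloisField p n →+* C} (hι : IsOver ι x) {a : PowerSeries (GaloisField p n)}
    (ha : IsFGHom Γ Γ a) {m : ℕ} (hm : 1 ≤ m) (hM : M ≤ (p ^ n) ^ m) :
    ∃ χ : LTRing p n →+* C, ∃ hχ : IsPoint P χ, ∃ hc : SameConst x χ,
      (∀ M' K : ℕ, M' ≤ (p ^ n) ^ m →
        (∀ (g : PowerSeries (GaloisField p n))
          (φ : LTRing p n →ₐ[WittVector p (GaloisField p n)] LTRing p n),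
          IsFGAut Γ g → (∀ i < M', PowerSeries.coeff i g = PowerSeries.coeff i PowerSeries.X) →
          IsStabilizerMap p n H g φ →
          ∀ a : LTRing p n, φ a - a ∈ (RingHom.ker (LTRing.residue p n)) ^ K) →
        ∀ b : LTRing p n, ‖x b - χ b‖ ≤ (rhoC H h x) ^ K) ∧
      ∀ (N : ℕ) (y : Pt (ΓC S.hn Γ ι)), y ∈ (mkD S hx hι).T → N ≤ m →
        (mkD S hχ (hι.same hc)).U N (y + (p ^ m) • act S.hn ι ha y) ∈
            rts (VN p h (VS H h χ) N) ∧
          ‖(mkD S hχ (hι.same hc)).U N (y + (p ^ m) • act S.hn ι ha y) -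
            (((mkD S hx hι).E (rt p n N y) +
              (p ^ (m - N)) • (mkD S hx hι).E (act S.hn ι ha y)).val) ^ (p ^ (h * N))‖ ≤
              (del H h x χ) ^ (p ^ (h * N)) := by
  obtain ⟨g, hg, hg1, hg2⟩ := exists_inverse_aut S.hn S.hΓ ha hm
  obtain ⟨φ, hφ⟩ := exists_stab S.hH hg
  obtain ⟨hχ, hc⟩ := point_comp hst hx hg (fun i hi => hg2 i (lt_of_lt_of_le hi hM)) hφ
  refine ⟨x.comp φ.toRingHom, hχ, hc, ?_, ?_⟩
  · intro M' K hM' hK b
    have h1 := hK g φ hg (fun i hi => hg2 i (lt_of_lt_of_le hi hM')) hφ b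
    have h2 := d10_pow_le S hx K h1
    rw [norm_sub_rev]
    rw [map_sub] at h2
    exact h2
  · intro N y hy hN
    obtain ⟨hφr, θ, hθ, hθg⟩ := hφ
    have hθx : IsFGHom ((H.map φ.toRingHom).map x) (H.map x) (PowerSeries.map x θ) := hom_map hθ x
    rw [map_map] at hθx
    have hθi : Int1 (PowerSeries.map x θ) := by
      intro d
      show ‖MvPowerSeries.coeff d (MvPowerSeries.map x θ)‖ ≤ 1
      rw [MvPowerSeries.coeff_map]
      exact hx.le _
    have hcg : ∀ i, LTRing.residue p n (PowerSeries.coeff i θ) = PowerSeries.coeff i g := by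
      intro i
      rw [← hθg, PowerSeries.coeff_map]
    have hcl : ∀ i, ‖x (PowerSeries.coeff i θ) - ι (PowerSeries.coeff i g)‖ ≤ rhoC H h x := by
      intro i
      rw [← hcg i]
      exact norm_sub_iota_le S hx hι _
    have hρ1 := rhoC_lt S hx
    have hθ1 : ‖PowerSeries.coeff 1 (PowerSeries.map x θ)‖ = 1 := by
      rw [PowerSeries.coeff_map]
      have h1 : ‖ι (PowerSeries.coeff 1 g)‖ = 1 := norm_iota_eq S.hn ι hg.2.ne_zero
      have h2 : x (PowerSeries.coeff 1 θ) =
          (x (PowerSeries.coeff 1 θ) - ι (PowerSeries.coeff 1 g)) + ι (PowerSeries.coeff 1 g) := by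
        ring
      have h3 : ‖x (PowerSeries.coeff 1 θ) - ι (PowerSeries.coeff 1 g)‖ <
          ‖ι (PowerSeries.coeff 1 g)‖ := by
        rw [h1]
        exact (hcl 1).trans_lt hρ1
      rw [h2, IsUltrametricDist.norm_add_eq_max_of_norm_ne_norm (ne_of_lt h3),
        max_eq_right h3.le, h1]
    have hinv : ∀ z : Pt (ΓC S.hn Γ ι),
        Pt.hom (PowerSeries.map ι g) (map_iota_int S.hn ι g) (map_iota_hom S.hn ι hg.1)
          (z + (p ^ m) • Pt.hom (PowerSeries.map ι a) (map_iota_int S.hn ι a)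
            (map_iota_hom S.hn ι ha) z) = z := by
      intro z
      apply Pt.ext
      have hA0 : PowerSeries.constantCoeff (cmp (mulSeries Γ (p ^ m)) a :
          PowerSeries (GaloisField p n)) = 0 :=
        constantCoeff_cmp (σ := Unit) (constantCoeff_mulSeries Γ _) ha.1
      have hgA0 : PowerSeries.constantCoeff (fadd Γ (PowerSeries.X : PowerSeries (GaloisField p n))
          (cmp (mulSeries Γ (p ^ m)) a) : PowerSeries (GaloisField p n)) = 0 :=
        constantCoeff_fadd Γ (σ := Unit) (a := (PowerSeries.X : PowerSeries (GaloisField p n)))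
          (b := cmp (mulSeries Γ (p ^ m)) a) PowerSeries.constantCoeff_X hA0
      have e1 := map_cmp ι g (σ := Unit) (a := fadd Γ (PowerSeries.X : PowerSeries (GaloisField p n))
          (cmp (mulSeries Γ (p ^ m)) a)) hgA0
      have e2 := map_fadd Γ ι (σ := Unit) (a := (PowerSeries.X : PowerSeries (GaloisField p n)))
          (b := cmp (mulSeries Γ (p ^ m)) a) PowerSeries.constantCoeff_X hA0
      have e3 := map_cmp ι (mulSeries Γ (p ^ m)) (σ := Unit) (a := a) ha.1
      have eX : (MvPowerSeries.map ι : MvPowerSeries Unit (GaloisField p n) →+* _)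
          (PowerSeries.X : PowerSeries (GaloisField p n)) = (PowerSeries.X : PowerSeries C) :=
        PowerSeries.map_X ι
      have e4 : PowerSeries.map ι (mulSeries Γ (p ^ m)) = mulSeries (ΓC S.hn Γ ι).law (p ^ m) :=
        (mulSeries_map Γ ι _).symm
      rw [eX] at e2
      rw [e4] at e3
      rw [hg1, eX, e2, e3] at e1
      -- evaluate
      have ha0 : PowerSeries.constantCoeff (PowerSeries.map ι a) = 0 :=
        (map_iota_hom S.hn ι ha).1
      have hai : Int1 (PowerSeries.map ι a) := map_iota_int S.hn ι a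
      have hgi : Int1 (PowerSeries.map ι g) := map_iota_int S.hn ι g
      have hmi : Int1 (mulSeries (ΓC S.hn Γ ι).law (p ^ m)) := Int1.mulSeries (ΓC S.hn Γ ι) _
      have hXi : Int1 (PowerSeries.X : PowerSeries C) := Int1.var (C := C) ()
      have hci : Int1 (cmp (mulSeries (ΓC S.hn Γ ι).law (p ^ m)) (PowerSeries.map ι a) : PowerSeries C) :=
        Int1.cmp (τ := Unit) hmi hai ha0
      have hc0 : PowerSeries.constantCoeff
          (cmp (mulSeries (ΓC S.hn Γ ι).law (p ^ m)) (PowerSeries.map ι a) : PowerSeries C) = 0 :=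
        constantCoeff_cmp (σ := Unit) (constantCoeff_mulSeries (ΓC S.hn Γ ι).law _) ha0
      have f1 : ev1 (cmp (mulSeries (ΓC S.hn Γ ι).law (p ^ m)) (PowerSeries.map ι a) : PowerSeries C) z.val =
          ((p ^ m) • Pt.hom (PowerSeries.map ι a) (map_iota_int S.hn ι a)
            (map_iota_hom S.hn ι ha) z).val := by
        rw [ev1_cmp hmi hai ha0 z.lt, Pt.nsmul_val, Pt.hom_val]
      have f2 : ev1 (fadd (ΓC S.hn Γ ι).law (PowerSeries.X : PowerSeries C)
          (cmp (mulSeries (ΓC S.hn Γ ι).law (p ^ m)) (PowerSeries.map ι a)) : PowerSeries C) z.val =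
          (z + (p ^ m) • Pt.hom (PowerSeries.map ι a) (map_iota_int S.hn ι a)
            (map_iota_hom S.hn ι ha) z).val := by
        rw [ev1_fadd (ΓC S.hn Γ ι) hXi hci PowerSeries.constantCoeff_X hc0 z.lt, f1, ev1_X]
        rfl
      have hfi : Int1 (fadd (ΓC S.hn Γ ι).law (PowerSeries.X : PowerSeries C)
          (cmp (mulSeries (ΓC S.hn Γ ι).law (p ^ m)) (PowerSeries.map ι a)) : PowerSeries C) := by
        refine Int1.subst (τ := Unit) (ΓC S.hn Γ ι).int ?_ ?_
        · intro s; fin_cases s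
          · exact hXi
          · exact hci
        · intro s; fin_cases s
          · exact PowerSeries.constantCoeff_X
          · exact hc0
      have hf0 : PowerSeries.constantCoeff (fadd (ΓC S.hn Γ ι).law (PowerSeries.X : PowerSeries C)
          (cmp (mulSeries (ΓC S.hn Γ ι).law (p ^ m)) (PowerSeries.map ι a)) : PowerSeries C) = 0 :=
        constantCoeff_fadd (ΓC S.hn Γ ι).law (σ := Unit) PowerSeries.constantCoeff_X hc0
      rw [Pt.hom_val, ← f2, ← ev1_cmp hgi hfi hf0 z.lt]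
      have f3 := congrArg (fun f : PowerSeries C => ev1 f z.val) e1
      have f4 : ev1 (PowerSeries.X : PowerSeries C) z.val = z.val := ev1_X z.val
      exact f3.symm.trans f4
    have key := (mkD S hx hι).displacement (mkD S hχ (hι.same hc))
      (a := PowerSeries.map ι a) (g := PowerSeries.map ι g) (θ := PowerSeries.map x θ)
      (map_iota_int S.hn ι a) (map_iota_hom S.hn ι ha) (map_iota_frob S.hn ι a)
      (map_iota_int S.hn ι g) (map_iota_hom S.hn ι hg.1) (map_iota_frob S.hn ι g)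
      hθi hθx hθ1 (r := rhoC H h x) hρ1
      (by
        intro i
        rw [map_sub, PowerSeries.coeff_map, PowerSeries.coeff_map]
        exact hcl i)
      (δ := del H h x (x.comp φ.toRingHom))
      (by
        intro d
        rw [map_sub]
        show ‖MvPowerSeries.coeff d (MvPowerSeries.map x H.toPowerSeries) -
          MvPowerSeries.coeff d (MvPowerSeries.map (x.comp φ.toRingHom) H.toPowerSeries)‖ ≤ _
        rw [MvPowerSeries.coeff_map, MvPowerSeries.coeff_map]
        exact norm_sub_le_del S hx hχ hc _)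
      hN hinv hy
    exact key

/-- TASK D10c.  The probe attached to an endomorphism `a` of `Γ`: for large `m` take the stabilizer
map `φ_m` (`exists_stab`) of the inverse `g_m` of `1 + [p^m] a` (`exists_inverse_aut`) and
`χ_m = x ∘ φ_m` (for the finitely many `m` with `q^m < M` or `m = 0` put `χ_m = x`).  It is a probe by
`point_comp` and `stab_continuous` (`‖x(φ v - v)‖ ≤ ρ^K`).  If `θ : H.map φ_m → H` lifts `g_m`, then
`θ_x = θ.map x : H.map χ_m → H.map x` satisfies `‖θ_x - (g_m)_C‖ ≤ ρ` (`norm_sub_iota_le`), and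
`displacement` applies with `δ = del H h x χ_m` (`norm_sub_le_del`). -/
theorem exists_probe {h h' M : ℕ} {P : Ideal (LTRing p n)} (S : Situ Γ H h h' P)
    (hst : IsStableIdeal p n Γ H M P) {x : LTRing p n →+* C} (hx : IsPoint P x)
    {ι : GaloisField p n →+* C} (hι : IsOver ι x) {a : PowerSeries (GaloisField p n)}
    (ha : IsFGHom Γ Γ a) :
    ∃ χ : ℕ → LTRing p n →+* C, IsProbe H h P x χ ∧
      ∀ (N : ℕ) (y : Pt (ΓC S.hn Γ ι)), y ∈ (mkD S hx hι).T →
        ∃ t : ℕ → C, (∀ᶠ m in atTop, t m ∈ rts (VN p h (VS H h (χ m)) N)) ∧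
          ∀ᶠ m in atTop, ‖t m - (((mkD S hx hι).E (rt p n N y) +
            (p ^ (m - N)) • (mkD S hx hι).E (act S.hn ι ha y)).val) ^ (p ^ (h * N))‖ ≤
              (del H h x (χ m)) ^ (p ^ (h * N)) := by
  classical
  have hq : 1 < p ^ n := Nat.one_lt_pow (by have := S.hn; omega) (Fact.out : p.Prime).one_lt
  have hlarge : ∀ B : ℕ, ∀ᶠ m : ℕ in atTop, B ≤ (p ^ n) ^ m := by
    intro B
    filter_upwards [eventually_ge_atTop B] with m hm
    exact hm.trans (Nat.lt_pow_self hq).le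
  have hex : ∀ m : ℕ, ∃ χ : LTRing p n →+* C, ∃ hχ : IsPoint P χ, ∃ hc : SameConst x χ,
      (1 ≤ m → M ≤ (p ^ n) ^ m →
      (∀ M' K : ℕ, M' ≤ (p ^ n) ^ m →
        (∀ (g : PowerSeries (GaloisField p n))
          (φ : LTRing p n →ₐ[WittVector p (GaloisField p n)] LTRing p n),
          IsFGAut Γ g → (∀ i < M', PowerSeries.coeff i g = PowerSeries.coeff i PowerSeries.X) →
          IsStabilizerMap p n H g φ →
          ∀ a : LTRing p n, φ a - a ∈ (RingHom.ker (LTRing.residue p n)) ^ K) →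
        ∀ b : LTRing p n, ‖x b - χ b‖ ≤ (rhoC H h x) ^ K) ∧
      ∀ (N : ℕ) (y : Pt (ΓC S.hn Γ ι)), y ∈ (mkD S hx hι).T → N ≤ m →
        (mkD S hχ (hι.same hc)).U N (y + (p ^ m) • act S.hn ι ha y) ∈
            rts (VN p h (VS H h χ) N) ∧
          ‖(mkD S hχ (hι.same hc)).U N (y + (p ^ m) • act S.hn ι ha y) -
            (((mkD S hx hι).E (rt p n N y) +
              (p ^ (m - N)) • (mkD S hx hι).E (act S.hn ι ha y)).val) ^ (p ^ (h * N))‖ ≤
              (del H h x χ) ^ (p ^ (h * N))) := by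
    intro m
    by_cases hm : 1 ≤ m ∧ M ≤ (p ^ n) ^ m
    · obtain ⟨χ, hχ, hc, h1⟩ := d10_step S hst hx hι ha hm.1 hm.2
      exact ⟨χ, hχ, hc, fun _ _ => h1⟩
    · exact ⟨x, hx, fun _ => rfl, fun h1 h2 => absurd ⟨h1, h2⟩ hm⟩
  choose χ hχ hc hprop using hex
  refine ⟨χ, ⟨hχ, hc, ?_⟩, ?_⟩
  · -- convergence
    have hρ0 : 0 ≤ rhoC H h x := (rhoC_pos S hx).le
    have hρ1 : rhoC H h x < 1 := rhoC_lt S hx
    have hdel0 : ∀ m, 0 ≤ del H h x (χ m) := fun m => Real.iSup_nonneg fun _ => norm_nonneg _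
    rw [Metric.tendsto_atTop]
    intro ε hε
    obtain ⟨K, hK⟩ := exists_pow_lt_of_lt_one hε hρ1
    obtain ⟨M', -, hM'⟩ := stab_continuous S.hn S.hΓ S.hH K
    have hev := (hlarge M).and ((hlarge M').and (eventually_ge_atTop 1))
    obtain ⟨m₀, hm₀⟩ := eventually_atTop.1 hev
    refine ⟨m₀, fun m hm => ?_⟩
    obtain ⟨hmM, hmM', hm1⟩ := hm₀ m hm
    rw [Real.dist_eq, sub_zero, abs_of_nonneg (hdel0 m)]
    refine lt_of_le_of_lt (Real.iSup_le (fun j => ?_) (pow_nonneg hρ0 K)) hK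
    exact (hprop m hm1 hmM).1 M' K hmM' hM' _
  · intro N y hy
    refine ⟨fun m => (mkD S (hχ m) (hι.same (hc m))).U N (y + (p ^ m) • act S.hn ι ha y), ?_, ?_⟩
    · filter_upwards [hlarge M, eventually_ge_atTop 1, eventually_ge_atTop N] with m h1 h2 h3
      exact ((hprop m h2 h1).2 N y hy h3).1
    · filter_upwards [hlarge M, eventually_ge_atTop 1, eventually_ge_atTop N] with m h1 h2 h3
      exact ((hprop m h2 h1).2 N y hy h3).2

/-- TASK D10d.  Combination of `exists_probe` and `asym`. -/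
theorem probe_asym {h h' M : ℕ} {P : Ideal (LTRing p n)} (S : Situ Γ H h h' P)
    (hst : IsStableIdeal p n Γ H M P) {x : LTRing p n →+* C} (hx : IsPoint P x)
    {ι : GaloisField p n →+* C} (hι : IsOver ι x) {ϖ : C}
    (hϖ : ϖ ^ (p ^ h - 1) = x (vv H h)) (hϖ0 : ϖ ≠ 0) :
    ∃ κ : ℕ → Pt (ΓC S.hn Γ ι) → C, (∀ N y, ‖κ N y‖ = (‖ϖ‖⁻¹) ^ ((p ^ h) ^ N)) ∧
      ∀ (a : PowerSeries (GaloisField p n)) (ha : IsFGHom Γ Γ a),
        (∀ y ∈ (mkD S hx hι).T,
          ‖((mkD S hx hι).E (act S.hn ι ha y)).val‖ ^ (p ^ h) < ‖x (vv H h)‖) →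
        ∃ χ : ℕ → LTRing p n →+* C, IsProbe H h P x χ ∧
          ∀ (N : ℕ) (y : Pt (ΓC S.hn Γ ι)), y ∈ (mkD S hx hι).T →
            ∃ (t ε : ℕ → C), (∀ᶠ m in atTop, t m ∈ rts (VN p h (VS H h (χ m)) N)) ∧
              Tendsto t atTop (nhds ((mkD S hx hι).U N y)) ∧ Tendsto ε atTop (nhds 0) ∧
              (fun m => t m - (mkD S hx hι).U N y -
                κ N y * (ϖ * ((mkD S hx hι).E (act S.hn ι ha y)).val) ^ ((p ^ h) ^ m) *
                  (1 + ε m)) =O[atTop] (fun m => (del H h x (χ m)) ^ (p ^ (h * N))) := by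
  have hp : p ≠ 0 := (Fact.out : p.Prime).ne_zero
  have hV1 : PowerSeries.coeff 1 (mkD S hx hι).V = x (vv H h) := by
    have h0 := coeff_VS (H := H) (h := h) (x := x) 0
    rw [pow_zero, add_zero] at h0
    exact h0
  have hϖ' : ϖ ^ (p ^ h - 1) = PowerSeries.coeff 1 (mkD S hx hι).V := hϖ.trans hV1.symm
  have hasym := fun (N : ℕ) (y : Pt (ΓC S.hn Γ ι)) => (mkD S hx hι).asym hϖ' hϖ0 y N
  choose κ hκ1 hκ2 using hasym
  refine ⟨κ, hκ1, fun a ha hreg => ?_⟩
  obtain ⟨χ, hprobe, hχ⟩ := exists_probe S hst hx hι ha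
  refine ⟨χ, hprobe, fun N y hy => ?_⟩
  obtain ⟨t, ht1, ht2⟩ := hχ N y hy
  have hw : ‖((mkD S hx hι).E (act S.hn ι ha y)).val‖ ^ (p ^ h) <
      ‖PowerSeries.coeff 1 (mkD S hx hι).V‖ := by
    rw [hV1]
    exact hreg y hy
  obtain ⟨ε, hε1, hε2⟩ := hκ2 N y ((mkD S hx hι).E (act S.hn ι ha y)) hw
  have hdel0 : ∀ m, 0 ≤ del H h x (χ m) := fun m => Real.iSup_nonneg fun _ => norm_nonneg _
  have hbound : ∀ᶠ m in atTop, ‖t m - (mkD S hx hι).U N y -
      κ N y * (ϖ * ((mkD S hx hι).E (act S.hn ι ha y)).val) ^ ((p ^ h) ^ m) * (1 + ε m)‖ ≤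
        (del H h x (χ m)) ^ (p ^ (h * N)) := by
    filter_upwards [ht2, eventually_ge_atTop N] with m h1 h2
    rw [← hε2 m h2]
    have e : t m - (mkD S hx hι).U N y -
        (((mkD S hx hι).E (rt p n N y) +
          (p ^ (m - N)) • (mkD S hx hι).E (act S.hn ι ha y)).val ^ (p ^ (h * N)) -
          (mkD S hx hι).U N y) =
        t m - ((mkD S hx hι).E (rt p n N y) +
          (p ^ (m - N)) • (mkD S hx hι).E (act S.hn ι ha y)).val ^ (p ^ (h * N)) := by ring
    rw [e]
    exact h1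
  have hO : (fun m => t m - (mkD S hx hι).U N y -
      κ N y * (ϖ * ((mkD S hx hι).E (act S.hn ι ha y)).val) ^ ((p ^ h) ^ m) *
        (1 + ε m)) =O[atTop] (fun m => (del H h x (χ m)) ^ (p ^ (h * N))) := by
    refine IsBigO.of_bound 1 ?_
    filter_upwards [hbound] with m hm
    rw [one_mul, Real.norm_of_nonneg (pow_nonneg (hdel0 m) _)]
    exact hm
  refine ⟨t, ε, ht1, ?_, hε1, hO⟩
  -- convergence of `t`
  have hQ1 : 1 < p ^ h := Nat.one_lt_pow (by have := S.h1; omega) (Fact.out : p.Prime).one_lt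
  have hϖ1 : ‖ϖ‖ ≤ 1 := by
    by_contra hcon
    push Not at hcon
    have h1 : ‖x (vv H h)‖ ≤ 1 := hx.le _
    rw [← hϖ, norm_pow] at h1
    exact absurd (one_lt_pow₀ hcon (by omega : p ^ h - 1 ≠ 0)) (not_lt.mpr h1)
  have hb : ‖ϖ * ((mkD S hx hι).E (act S.hn ι ha y)).val‖ < 1 := by
    rw [norm_mul]
    calc ‖ϖ‖ * ‖((mkD S hx hι).E (act S.hn ι ha y)).val‖
        ≤ 1 * ‖((mkD S hx hι).E (act S.hn ι ha y)).val‖ :=
          mul_le_mul_of_nonneg_right hϖ1 (norm_nonneg _)
      _ = ‖((mkD S hx hι).E (act S.hn ι ha y)).val‖ := one_mul _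
      _ < 1 := ((mkD S hx hι).E (act S.hn ι ha y)).lt
  have hd : Tendsto (fun m => (del H h x (χ m)) ^ (p ^ (h * N))) atTop (nhds 0) := by
    have h1 := hprobe.tendsto.pow (p ^ (h * N))
    rwa [zero_pow (pow_ne_zero _ hp)] at h1
  have h1 : Tendsto (fun m => t m - (mkD S hx hι).U N y -
      κ N y * (ϖ * ((mkD S hx hι).E (act S.hn ι ha y)).val) ^ ((p ^ h) ^ m) *
        (1 + ε m)) atTop (nhds 0) := hO.trans_tendsto hd
  have h2 : Tendsto (fun m : ℕ => (ϖ * ((mkD S hx hι).E (act S.hn ι ha y)).val) ^ ((p ^ h) ^ m))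
      atTop (nhds 0) :=
    (tendsto_pow_atTop_nhds_zero_of_norm_lt_one hb).comp
      (tendsto_pow_atTop_atTop_of_one_lt hQ1)
  have h3 : Tendsto (fun m => κ N y *
      (ϖ * ((mkD S hx hι).E (act S.hn ι ha y)).val) ^ ((p ^ h) ^ m) * (1 + ε m)) atTop
      (nhds 0) := by
    have h4 := (h2.const_mul (κ N y)).mul (hε1.const_add 1)
    rw [mul_zero, zero_mul] at h4
    exact h4
  have h5 := (h1.add h3).add_const ((mkD S hx hι).U N y)
  rw [add_zero, zero_add] at h5
  refine h5.congr fun m => ?_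
  ring

end Crest.Agent.LU
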