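import Mathlib
import Crest.Agent.LU_D8
import Crest.Agent.LU_D9

/-!
S0351 (blueprint LU), task T1: torsion points and the Tate module `T = ker E`.
-/

set_option autoImplicit false

noncomputable section

namespace Crest.Agent.LU

open Crest.LubinTate

variable {p : ℕ} [Fact p.Prime] {n : ℕ} {Γ : FormalGroup (GaloisField p n)} [Γ.IsComm]
  {H : FormalGroup (LTRing p n)} [H.IsComm]
  {C : Type} [NontriviallyNormedField C] [IsUltrametricDist C] [CompleteSpace C]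
  [IsAlgClosed C] [CharP C p]

section T1aux

variable {h : ℕ} {G : IFG C}

omit [IsUltrametricDist C] [CompleteSpace C] in
private theorem T1_frob_inj (k : ℕ) {a b : C} (hab : a ^ (p ^ k) = b ^ (p ^ k)) : a = b := by
  have h1 : (iterateFrobeniusEquiv C p k) a = (iterateFrobeniusEquiv C p k) b := by
    rw [iterateFrobeniusEquiv_def, iterateFrobeniusEquiv_def]
    exact hab
  exact (iterateFrobeniusEquiv C p k).injective h1

/-- a point of `F` with given `p^k`-th power -/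
private theorem T1_exists_root {F : IFG C} (k : ℕ) {a : C} (ha : ‖a‖ < 1) :
    ∃ w : Pt F, w.val ^ (p ^ k) = a := by
  have e : a = ((iterateFrobeniusEquiv C p k).symm a) ^ (p ^ k) := by
    rw [← iterateFrobeniusEquiv_def, RingEquiv.apply_symm_apply]
  have hlt : ‖(iterateFrobeniusEquiv C p k).symm a‖ < 1 := by
    by_contra hc
    push Not at hc
    rw [e, norm_pow] at ha
    exact absurd ha (not_lt.mpr (one_le_pow₀ hc))
  exact ⟨⟨_, hlt⟩, e.symm⟩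

/-- the `p^M`-torsion of `H` -/
private def T1K (D : Datum p n h G) (M : ℕ) : AddSubgroup (Pt D.H) :=
  (nsmulAddMonoidHom (p ^ M) : Pt D.H →+ Pt D.H).ker

private theorem T1_memK {D : Datum p n h G} {M : ℕ} {w : Pt D.H} :
    w ∈ T1K D M ↔ (p ^ M) • w = 0 := Iff.rfl

private theorem T1_bij (D : Datum p n h G) (M : ℕ) :
    Set.BijOn (fun w : Pt D.H => w.val ^ (p ^ (h * M))) (T1K D M : Set (Pt D.H))
      (rts (VN p h D.V M)) := by
  refine ⟨?_, ?_, ?_⟩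
  · intro w hw
    have hw' : (p ^ M) • w = 0 := hw
    refine ⟨?_, ?_⟩
    · rw [norm_pow]
      exact pow_lt_one₀ (norm_nonneg _) w.lt (pow_ne_zero _ (Fact.out : p.Prime).ne_zero)
    · rw [← D.nsmul_pow_eq M w, hw', Pt.val_zero]
  · intro a _ b _ hab
    exact Pt.ext (T1_frob_inj (p := p) _ hab)
  · intro τ hτ
    obtain ⟨w, hw⟩ := T1_exists_root (p := p) (F := D.H) (h * M) hτ.1
    refine ⟨w, ?_, hw⟩
    show (p ^ M) • w = 0
    apply Pt.ext
    rw [D.nsmul_pow_eq M w, hw, Pt.val_zero]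
    exact hτ.2

private theorem T1_cardK (D : Datum p n h G) (M : ℕ) :
    Nat.card (T1K D M) = (rts (VN p h D.V M)).ncard := by
  have h1 := (T1_bij D M).ncard_eq
  rw [← h1]
  rfl

private theorem T1_surj (D : Datum p n h G) {d : ℕ}
    (hc : ∀ M, (rts (VN p h D.V M)).ncard = p ^ (d * M)) (M : ℕ) {w : Pt D.H}
    (hw : (p ^ M) • w = 0) : ∃ w' : Pt D.H, (p ^ (M + 1)) • w' = 0 ∧ p • w' = w := by
  have hp := (Fact.out : p.Prime)
  have hcard : ∀ M, Nat.card (T1K D M) = p ^ (d * M) := fun M => by rw [T1_cardK, hc]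
  set f : Pt D.H →+ Pt D.H := nsmulAddMonoidHom p with hf
  have hker : f.ker = T1K D 1 := by
    ext w
    show p • w = 0 ↔ (p ^ 1) • w = 0
    rw [pow_one]
  have hle : f.ker ≤ T1K D (M + 1) := by
    intro w hw
    have hw' : p • w = 0 := hw
    show (p ^ (M + 1)) • w = 0
    rw [pow_succ, mul_smul, hw', smul_zero]
  have hmap : (T1K D (M + 1)).map f ≤ T1K D M := by
    rintro _ ⟨w, hw, rfl⟩
    have hw' : (p ^ (M + 1)) • w = 0 := hw
    show (p ^ M) • (p • w) = 0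
    rw [← mul_smul, ← pow_succ, hw']
  have h1 := AddSubgroup.relIndex_mul_relIndex (⊥ : AddSubgroup (Pt D.H)) f.ker (T1K D (M + 1))
    bot_le hle
  rw [AddSubgroup.relIndex_bot_left, AddSubgroup.relIndex_bot_left, AddSubgroup.relIndex_ker,
    hker, hcard, hcard] at h1
  have h2 : Nat.card ((T1K D (M + 1)).map f) = p ^ (d * M) := by
    have hpos : 0 < p ^ (d * 1) := pow_pos hp.pos _
    have h3 : p ^ (d * (M + 1)) = p ^ (d * 1) * p ^ (d * M) := by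
      rw [← pow_add]; congr 1; ring
    rw [h3] at h1
    exact Nat.eq_of_mul_eq_mul_left hpos h1
  have : Finite (T1K D M) := by
    apply Nat.finite_of_card_ne_zero
    rw [hcard]
    exact pow_ne_zero _ hp.ne_zero
  have h4 : (T1K D (M + 1)).map f = T1K D M :=
    AddSubgroup.eq_of_le_of_card_ge hmap (by rw [h2, hcard])
  have h5 : w ∈ (T1K D (M + 1)).map f := by rw [h4]; exact hw
  obtain ⟨w', hw', hw2⟩ := h5
  exact ⟨w', hw', hw2⟩

private theorem T1_main (D : Datum p n h G) {d : ℕ}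
    (hc : ∀ M, (rts (VN p h D.V M)).ncard = p ^ (d * M)) (N : ℕ) {τ : C}
    (hτ : τ ∈ rts (VN p h D.V N)) : ∃ y ∈ D.T, D.U N y = τ := by
  obtain ⟨w, hwK, hw⟩ := (T1_bij D N).surjOn hτ
  have hwK' : (p ^ N) • w = 0 := hwK
  have hw2 : w.val ^ (p ^ (h * N)) = τ := hw
  -- the sequence of successive preimages
  have hex : ∀ (k : ℕ) (v : {v : Pt D.H // (p ^ (N + k)) • v = 0}),
      ∃ v' : {v : Pt D.H // (p ^ (N + (k + 1))) • v = 0}, p • v'.1 = v.1 := by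
    intro k v
    obtain ⟨v', h1, h2⟩ := T1_surj D hc (N + k) v.2
    exact ⟨⟨v', h1⟩, h2⟩
  choose nxt hnxt using hex
  let s : (k : ℕ) → {v : Pt D.H // (p ^ (N + k)) • v = 0} := fun k =>
    Nat.rec ⟨w, hwK'⟩ (fun k v => nxt k v) k
  have hs0 : (s 0).1 = w := rfl
  have hs : ∀ k, p • (s (k + 1)).1 = (s k).1 := fun k => hnxt k (s k)
  have hsk : ∀ k, (p ^ k) • (s k).1 = w := by
    intro k
    induction k with
    | zero => rw [pow_zero, one_smul, hs0]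
    | succ k ih => rw [pow_succ, mul_smul, hs, ih]
  obtain ⟨z, hz⟩ := D.exists_lift (fun j => (p ^ N) • (s j).1) (fun j => by
    show p • ((p ^ N) • (s (j + 1)).1) = (p ^ N) • (s j).1
    rw [smul_comm, hs])
  refine ⟨z, ?_, ?_⟩
  · show D.E z = 0
    have h0 := hz 0
    have h1 : rt p n 0 z = z := by
      apply Pt.ext
      have := rt_pow (p := p) (n := n) 0 z
      simpa using this
    rw [h1] at h0
    rw [h0]
    show (p ^ N) • (s 0).1 = 0
    rw [hs0, hwK']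
  · unfold Datum.U
    rw [hz N]
    show ((p ^ N) • (s N).1).val ^ (p ^ (h * N)) = τ
    rw [hsk N, hw2]

end T1aux

/-- TASK T1a.  Every root of `V^{[N]}` is `U_N(y)` for some `y ∈ T`.
Proof: let `G_M = {w ∈ Pt H | p^M • w = 0}`; `w ↦ w^{Q^M}` is a bijection from `G_M` onto
`rts (V^{[M]})` (`nsmul_pow_eq`; Frobenius is bijective on `C`), so `|G_M| = p^{(n-h)M}` (`bb4`);
`[p] : G_{M+1} → G_M` has kernel `G_1`, so its image has `p^{(n-h)M}` elements: it is onto.  Let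
`t_N` be the point with `t_N^{Q^N} = τ` (so `p^N • t_N = 0`), `t_j = p^{N-j} • t_N` for `j ≤ N`, and choose
successive preimages `t_{j+1}` of `t_j` for `j ≥ N`; apply `exists_lift`: `E(z) = t_0 = 0`. -/
theorem exists_U_eq {h h' : ℕ} {P : Ideal (LTRing p n)} (S : Situ Γ H h h' P)
    {x : LTRing p n →+* C} (hx : IsPoint P x) {ι : GaloisField p n →+* C} (hι : IsOver ι x)
    (N : ℕ) {τ : C} (hτ : τ ∈ rts (VN p h (VS H h x) N)) :
    ∃ y ∈ (mkD S hx hι).T, (mkD S hx hι).U N y = τ :=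
  T1_main (mkD S hx hι) (d := n - h) (fun M => (bb4 S hx M).2) N hτ

/-- TASK T1b. For `y ∈ T`: `U_N(y) = 0` iff `y ∈ p^N T`. (`y = p^N • y^{q^{-N}}`.) -/
theorem Datum.U_eq_zero_iff {h : ℕ} {G : IFG C} (D : Datum p n h G) (N : ℕ) {y : Pt G}
    (hy : y ∈ D.T) : D.U N y = 0 ↔ ∃ y' ∈ D.T, y = (p ^ N) • y' := by
  have _ := hy
  have hne : p ^ (h * N) ≠ 0 := pow_ne_zero _ (Fact.out : p.Prime).ne_zero
  constructor
  · intro h0
    refine ⟨rt p n N y, ?_, (D.nsmul_rt N y).symm⟩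
    show D.E (rt p n N y) = 0
    apply Pt.ext
    exact (pow_eq_zero_iff hne).1 h0
  · rintro ⟨y', hy', rfl⟩
    have hy0 : D.E y' = 0 := hy'
    unfold Datum.U
    rw [D.rt_nsmul, hy0, Pt.val_zero, zero_pow hne]

/-- TASK T1c. `‖p • w‖ ≤ ‖w‖^Q` on `H`. -/
theorem Datum.norm_nsmul_p_le {h : ℕ} {G : IFG C} (D : Datum p n h G) (w : Pt D.H) :
    ‖(p • w).val‖ ≤ ‖w.val‖ ^ (p ^ h) := by
  have h1 := D.nsmul_pow_eq 1 w
  rw [pow_one, VN_one, mul_one] at h1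
  rw [h1]
  have hlt : ‖w.val ^ (p ^ h)‖ < 1 := by
    rw [norm_pow]
    exact pow_lt_one₀ (norm_nonneg _) w.lt (pow_ne_zero _ (Fact.out : p.Prime).ne_zero)
  have h2 := norm_ev_le_mul (σ := Unit) (f := D.V) (z := fun _ => w.val ^ (p ^ h))
    (r := ‖w.val ^ (p ^ h)‖) (ε := 1) D.V_hom.1 hlt (norm_nonneg _) (fun _ => le_rfl) zero_le_one
    D.V_int
  rw [one_mul, norm_pow] at h2
  exact h2

/-- TASK T1d.  Norms on `T`: let `μ` bound the roots of `V` and the `‖x(v_{h+i})‖`.  Then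
`‖y‖ ≤ μ^{p^{n-h}}` for `y ∈ T`, with equality iff `‖U_1(y)‖ = μ`.
Proof: `t = E(y^{1/q})`, `‖t‖^Q = ‖U_1(y)‖ ≤ μ`, `ρ ≤ μ`.  If `‖y^{1/q}‖ > ρ` then
`‖t‖ = ‖y^{1/q}‖` and `‖y‖ = ‖t‖^q = ‖U_1(y)‖^{p^{n-h}}`.  Otherwise `‖y‖ ≤ ρ^q ≤ μ^q < μ^{p^{n-h}}`
and `‖U_1(y)‖ ≤ ρ^Q ≤ μ^Q < μ`. -/
theorem norm_T {h h' : ℕ} {P : Ideal (LTRing p n)} (S : Situ Γ H h h' P)
    {x : LTRing p n →+* C} (hx : IsPoint P x) {ι : GaloisField p n →+* C} (hι : IsOver ι x)
    {μ : ℝ} (h0 : 0 < μ) (h1 : μ < 1) (hr : ∀ τ ∈ rts (VS H h x), ‖τ‖ ≤ μ)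
    (hv : ∀ i, i < n - h → ‖x (vv H (h + i))‖ ≤ μ) {y : Pt (ΓC S.hn Γ ι)}
    (hy : y ∈ (mkD S hx hι).T) :
    ‖y.val‖ ≤ μ ^ (p ^ (n - h)) ∧
      (‖y.val‖ = μ ^ (p ^ (n - h)) ↔ ‖(mkD S hx hι).U 1 y‖ = μ) := by
  have hp := (Fact.out : p.Prime)
  have h1μ : μ < 1 := h1
  set D := mkD S hx hι with hD
  have hh1 : 1 ≤ h := D.h1
  have hh2 : h < n := D.h2
  have hρμ : D.ρ ≤ μ := by
    show (⨆ j : Fin (n - h), ‖x (vv H (h + j))‖) ≤ μ
    haveI : Nonempty (Fin (n - h)) := ⟨⟨0, by omega⟩⟩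
    exact ciSup_le fun j => hv j j.2
  have hd0 : p ^ (n - h) ≠ 0 := pow_ne_zero _ hp.ne_zero
  have hU1 : ‖D.U 1 y‖ ≤ μ := by
    have h2 := D.U_mem 1 hy
    rw [VN_one] at h2
    exact hr _ h2
  have hyv : ‖y.val‖ = ‖(rt p n 1 y).val‖ ^ (p ^ n) := by
    rw [← norm_pow]
    congr 1
    have := rt_pow (p := p) (n := n) 1 y
    rw [mul_one] at this
    exact this.symm
  have hUv : ‖D.U 1 y‖ = ‖(D.E (rt p n 1 y)).val‖ ^ (p ^ h) := by
    unfold Datum.U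
    rw [norm_pow, mul_one]
  have hpn : p ^ n = p ^ h * p ^ (n - h) := by
    rw [← pow_add]; congr 1; omega
  rcases lt_or_ge D.ρ ‖(rt p n 1 y).val‖ with hlt | hge
  · have h1 := D.norm_E_eq hlt
    have h2 : ‖y.val‖ = ‖D.U 1 y‖ ^ (p ^ (n - h)) := by
      rw [hyv, hUv, h1, hpn, pow_mul]
    refine ⟨?_, ?_⟩
    · rw [h2]
      exact pow_le_pow_left₀ (norm_nonneg _) hU1 _
    · rw [h2]
      exact pow_left_inj₀ (norm_nonneg _) h0.le hd0
  · have h1 : ‖(D.E (rt p n 1 y)).val‖ ≤ μ :=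
      (D.norm_E_le _).trans (max_le (hge.trans hρμ) hρμ)
    have h2 : ‖y.val‖ < μ ^ (p ^ (n - h)) := by
      rw [hyv]
      refine lt_of_le_of_lt (pow_le_pow_left₀ (norm_nonneg _) (hge.trans hρμ) _) ?_
      exact pow_lt_pow_right_of_lt_one₀ h0 h1μ (Nat.pow_lt_pow_right hp.one_lt (by omega))
    have h3 : ‖D.U 1 y‖ < μ := by
      rw [hUv]
      refine lt_of_le_of_lt (pow_le_pow_left₀ (norm_nonneg _) h1 _) ?_
      have h4 : μ ^ (p ^ h) < μ ^ 1 :=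
        pow_lt_pow_right_of_lt_one₀ h0 h1μ (one_lt_pow₀ hp.one_lt (by omega))
      rwa [pow_one] at h4
    exact ⟨h2.le, fun h => absurd h h2.ne, fun h => absurd h h3.ne⟩

end Crest.Agent.LU
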