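import Mathlib
import Crest.Agent.LU_D0

/-!
S0351 (blueprint LU), task K: the residue field of `C`, and integral powers of Frobenius.
-/

set_option autoImplicit false

noncomputable section

namespace Crest.Agent.LU

variable (C : Type) [NontriviallyNormedField C] [IsUltrametricDist C] [CompleteSpace C]
  [IsAlgClosed C]

/-- The closed unit ball of `C` as a valuation subring. -/
def OC : ValuationSubring C := (NormedField.valuation (K := C)).valuationSubring

/-- The residue field. -/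
abbrev kap : Type := IsLocalRing.ResidueField (OC C)

variable {C}

theorem mem_OC (z : C) : z ∈ OC C ↔ ‖z‖ ≤ 1 := by
  rw [OC, Valuation.mem_valuationSubring_iff]
  rfl

open Classical in
/-- The residue class of an element of norm `≤ 1` (junk value `0` otherwise). -/
def rs (z : C) : kap C := if h : z ∈ OC C then IsLocalRing.residue (OC C) ⟨z, h⟩ else 0

theorem rs_of_mem {z : C} (hz : z ∈ OC C) : rs z = IsLocalRing.residue (OC C) ⟨z, hz⟩ := by
  rw [rs, dif_pos hz]

/-- TASK K. -/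
theorem rs_add {z w : C} (hz : ‖z‖ ≤ 1) (hw : ‖w‖ ≤ 1) : rs (z + w) = rs z + rs w := by
  have hz' := (mem_OC z).2 hz
  have hw' := (mem_OC w).2 hw
  rw [rs_of_mem hz', rs_of_mem hw', rs_of_mem (add_mem hz' hw'), ← map_add]
  rfl

theorem rs_sub {z w : C} (hz : ‖z‖ ≤ 1) (hw : ‖w‖ ≤ 1) : rs (z - w) = rs z - rs w := by
  have hz' := (mem_OC z).2 hz
  have hw' := (mem_OC w).2 hw
  rw [rs_of_mem hz', rs_of_mem hw', rs_of_mem (sub_mem hz' hw'), ← map_sub]
  rfl

theorem rs_mul {z w : C} (hz : ‖z‖ ≤ 1) (hw : ‖w‖ ≤ 1) : rs (z * w) = rs z * rs w := by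
  have hz' := (mem_OC z).2 hz
  have hw' := (mem_OC w).2 hw
  rw [rs_of_mem hz', rs_of_mem hw', rs_of_mem (mul_mem hz' hw'), ← map_mul]
  rfl

theorem rs_pow {z : C} (hz : ‖z‖ ≤ 1) (k : ℕ) : rs (z ^ k) = rs z ^ k := by
  have hz' := (mem_OC z).2 hz
  rw [rs_of_mem hz', rs_of_mem (pow_mem hz' k), ← map_pow]
  rfl

theorem rs_one : rs (1 : C) = 1 := by
  rw [rs_of_mem (one_mem _)]
  exact map_one _

theorem rs_zero : rs (0 : C) = 0 := by
  rw [rs_of_mem (zero_mem _)]
  exact map_zero _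

theorem rs_sum {ι : Type} (s : Finset ι) (f : ι → C) (hf : ∀ i ∈ s, ‖f i‖ ≤ 1) :
    rs (∑ i ∈ s, f i) = ∑ i ∈ s, rs (f i) := by
  classical
  induction s using Finset.induction_on with
  | empty => simpa using rs_zero
  | insert a s ha ih =>
    have h1 : ∀ i ∈ s, ‖f i‖ ≤ 1 := fun i hi => hf i (Finset.mem_insert_of_mem hi)
    have h2 : ‖∑ i ∈ s, f i‖ ≤ 1 := by
      rw [← mem_OC]
      exact sum_mem fun i hi => (mem_OC _).2 (h1 i hi)
    rw [Finset.sum_insert ha, Finset.sum_insert ha, rs_add (hf a (Finset.mem_insert_self _ _)) h2,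
      ih h1]

theorem rs_eq_zero_iff {z : C} (hz : ‖z‖ ≤ 1) : rs z = 0 ↔ ‖z‖ < 1 := by
  have hz' := (mem_OC z).2 hz
  rw [rs_of_mem hz', IsLocalRing.residue_eq_zero_iff, IsLocalRing.mem_maximalIdeal,
    mem_nonunits_iff]
  constructor
  · intro h
    by_contra hlt
    have h1 : ‖z‖ = 1 := le_antisymm hz (not_lt.mp hlt)
    have hz0 : z ≠ 0 := by
      rintro rfl
      simp at h1
    have hinv : z⁻¹ ∈ OC C := by
      rw [mem_OC, norm_inv, h1, inv_one]
    apply h
    refine IsUnit.of_mul_eq_one (⟨z⁻¹, hinv⟩ : OC C) ?_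
    apply Subtype.ext
    exact mul_inv_cancel₀ hz0
  · intro h hu
    obtain ⟨w, hw⟩ := hu.exists_right_inv
    have h1 : z * (w : C) = 1 := congrArg Subtype.val hw
    have h2 : ‖z‖ * ‖(w : C)‖ = 1 := by rw [← norm_mul, h1, norm_one]
    have h3 : ‖(w : C)‖ ≤ 1 := (mem_OC _).1 w.2
    nlinarith [norm_nonneg z, norm_nonneg (w : C)]

/-- Congruent elements have the same residue. -/
theorem rs_eq_of_lt {z w : C} (hz : ‖z‖ ≤ 1) (h : ‖z - w‖ < 1) : rs z = rs w := by
  have hzw : ‖z - w‖ ≤ 1 := h.le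
  have hw : ‖w‖ ≤ 1 := by
    have : w = z - (z - w) := by ring
    rw [← mem_OC, this]
    exact sub_mem ((mem_OC _).2 hz) ((mem_OC _).2 hzw)
  rw [← sub_eq_zero, ← rs_sub hz hw, rs_eq_zero_iff hzw]
  exact h

theorem rs_surj (b : kap C) : ∃ z : C, ‖z‖ ≤ 1 ∧ rs z = b := by
  obtain ⟨a, ha⟩ := IsLocalRing.residue_surjective b
  refine ⟨a, (mem_OC _).1 a.2, ?_⟩
  rw [rs_of_mem a.2]
  exact ha

theorem kap_isAlgClosed_aux : IsAlgClosed (kap C) := by
  apply IsAlgClosed.of_exists_root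
  intro f hf hirr
  obtain ⟨q, hq1, hq2, hq3⟩ := Polynomial.lifts_and_natDegree_eq_and_monic
    (f := IsLocalRing.residue (OC C)) (p := f)
    (Polynomial.mem_lifts _ |>.2 (Polynomial.map_surjective _ IsLocalRing.residue_surjective f)) hf
  have hdeg : (q.map (algebraMap (OC C) C)).degree ≠ 0 := by
    rw [hq3.degree_map, Polynomial.degree_eq_natDegree hq3.ne_zero, hq2]
    intro h
    exact (Polynomial.natDegree_pos_iff_degree_pos.2
      (Polynomial.degree_pos_of_irreducible hirr)).ne' (by exact_mod_cast h)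
  obtain ⟨z, hz⟩ := IsAlgClosed.exists_root _ hdeg
  have hint : IsIntegral (OC C) z := by
    refine ⟨q, hq3, ?_⟩
    rw [Polynomial.IsRoot.def, Polynomial.eval_map] at hz
    exact hz
  obtain ⟨y, hy⟩ := IsIntegrallyClosed.isIntegral_iff.1 hint
  refine ⟨IsLocalRing.residue (OC C) y, ?_⟩
  have h1 : Polynomial.eval y q = 0 := by
    have h2 : algebraMap (OC C) C (Polynomial.eval y q) = 0 := by
      rw [← Polynomial.eval_map_apply, hy]
      exact hz
    exact (map_eq_zero_iff _ (FaithfulSMul.algebraMap_injective (OC C) C)).1 h2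
  rw [← hq1, Polynomial.eval_map_apply, h1, map_zero]

instance kap_infinite : Infinite (kap C) := by
  have : IsAlgClosed (kap C) := kap_isAlgClosed_aux
  infer_instance

instance kap_isAlgClosed : IsAlgClosed (kap C) := kap_isAlgClosed_aux

instance kap_charP (p : ℕ) [Fact p.Prime] [CharP C p] : CharP (kap C) p := by
  rw [CharP.charP_iff_prime_eq_zero Fact.out]
  have h1 : ((p : ℕ) : OC C) = 0 := by
    apply Subtype.ext
    have : ((p : ℕ) : C) = 0 := CharP.cast_eq_zero C p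
    simpa using this
  have h2 : IsLocalRing.residue (OC C) ((p : ℕ) : OC C) = ((p : ℕ) : kap C) := map_natCast _ _
  rw [← h2, h1, map_zero]

/-- The residue of a ring homomorphism from a finite field. -/
def iotaK {k : Type} [Field k] (ι : k →+* C) (h : ∀ c, ‖ι c‖ ≤ 1) : k →+* kap C where
  toFun c := rs (ι c)
  map_one' := by rw [map_one, rs_one]
  map_mul' a b := by rw [map_mul, rs_mul (h a) (h b)]
  map_zero' := by rw [map_zero, rs_zero]
  map_add' a b := by rw [map_add, rs_add (h a) (h b)]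

section frz

variable {K : Type} [Field K] [IsAlgClosed K] (p : ℕ) [Fact p.Prime] [CharP K p]

/-- `z ↦ z^{p^i}` for `i ∈ ℤ`, on a perfect (here: algebraically closed) field. -/
def frz (i : ℤ) : K ≃+* K := ((frobeniusEquiv K p : RingAut K) ^ i : RingAut K)

theorem frz_add (i j : ℤ) (z : K) : frz p (i + j) z = frz p i (frz p j z) := by
  unfold frz
  rw [zpow_add]
  rfl

theorem frz_zero (z : K) : frz p 0 z = z := by
  unfold frz
  rw [zpow_zero]
  rfl

theorem frz_natCast (k : ℕ) (z : K) : frz p (k : ℤ) z = z ^ (p ^ k) := by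
  induction k with
  | zero => simpa using frz_zero p z
  | succ k ih =>
    have h1 : ((k + 1 : ℕ) : ℤ) = 1 + (k : ℤ) := by push_cast; ring
    rw [h1, frz_add, ih]
    have h2 : ∀ w : K, frz p 1 w = w ^ p := by
      intro w
      unfold frz
      rw [zpow_one]
      rfl
    rw [h2, ← pow_mul, pow_succ]

end frz

theorem frz_neg_pow {K : Type} [Field K] [IsAlgClosed K] (p : ℕ) [Fact p.Prime] [CharP K p]
    (k : ℕ) (z : K) : (frz p (-(k : ℤ)) z) ^ (p ^ k) = z := by
  rw [← frz_natCast, ← frz_add, add_neg_cancel, frz_zero]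

theorem norm_frz (p : ℕ) [Fact p.Prime] [CharP C p] (i : ℤ) (z : C) :
    ‖frz p i z‖ = ‖z‖ ^ ((p : ℝ) ^ i) := by
  obtain ⟨k, rfl | rfl⟩ := i.eq_nat_or_neg
  · rw [frz_natCast, norm_pow, zpow_natCast]
    have : ((p : ℝ) ^ k) = ((p ^ k : ℕ) : ℝ) := by push_cast; rfl
    rw [this, Real.rpow_natCast]
  · have h := congrArg norm (frz_neg_pow p k z)
    rw [norm_pow] at h
    have hp : (p : ℝ) ≠ 0 := by exact_mod_cast (Fact.out : p.Prime).ne_zero
    rw [← h, zpow_neg, zpow_natCast]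
    have h1 : ((p : ℝ) ^ k) = ((p ^ k : ℕ) : ℝ) := by push_cast; rfl
    rw [h1, Real.pow_rpow_inv_natCast (norm_nonneg _) (pow_ne_zero _ (Fact.out : p.Prime).ne_zero)]

theorem rs_frz (p : ℕ) [Fact p.Prime] [CharP C p] (i : ℤ) {z : C} (hz : ‖z‖ ≤ 1) :
    rs (frz p i z) = frz p i (rs z) := by
  obtain ⟨k, rfl | rfl⟩ := i.eq_nat_or_neg
  · rw [frz_natCast, frz_natCast, rs_pow hz]
  · have hw : ‖frz p (-(k : ℤ)) z‖ ≤ 1 := by
      rw [norm_frz]
      exact Real.rpow_le_one (norm_nonneg _) hz (by positivity)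
    have h1 : frz p (k : ℤ) (rs (frz p (-(k : ℤ)) z)) = rs z := by
      rw [frz_natCast, ← rs_pow hw, frz_neg_pow]
    rw [← h1, ← frz_add, neg_add_cancel, frz_zero]

end Crest.Agent.LU
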