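import Mathlib
import Crest.Agent.LU_D3
import Crest.Agent.LU_D4
import Crest.Agent.LU_K

/-!
S0351 (blueprint LU), task N1: leading forms of integral power series at a radius `s ∈ (0,1)`.
-/

set_option autoImplicit false

noncomputable section

namespace Crest.Agent.LU

open Crest.LubinTate

variable {C : Type} [NontriviallyNormedField C] [IsUltrametricDist C] [CompleteSpace C]
  [IsAlgClosed C]

/-- The indices where `‖f_i‖ s^i` is maximal. -/
def gset (f : PowerSeries C) (s : ℝ) : Set ℕ :=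
  {i | ∀ j, ‖PowerSeries.coeff j f‖ * s ^ j ≤ ‖PowerSeries.coeff i f‖ * s ^ i}

omit [IsUltrametricDist C] [CompleteSpace C] [IsAlgClosed C] in
private theorem N1_coeff_le {f : PowerSeries C} (hf : Int1 f) (j : ℕ) :
    ‖PowerSeries.coeff j f‖ ≤ 1 := hf _

omit [IsUltrametricDist C] [CompleteSpace C] [IsAlgClosed C] in
private theorem N1_tendsto {f : PowerSeries C} (hf : Int1 f) {s : ℝ} (h0 : 0 < s) (h1 : s < 1) :
    Filter.Tendsto (fun j => ‖PowerSeries.coeff j f‖ * s ^ j) Filter.atTop (nhds 0) := by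
  refine squeeze_zero (fun j => by positivity) (fun j => ?_)
    (tendsto_pow_atTop_nhds_zero_of_lt_one h0.le h1)
  calc ‖PowerSeries.coeff j f‖ * s ^ j ≤ 1 * s ^ j := by
        gcongr
        exact N1_coeff_le hf j
    _ = s ^ j := one_mul _

omit [IsUltrametricDist C] [CompleteSpace C] [IsAlgClosed C] in
private theorem N1_ev_lt {f : PowerSeries C} (hf : Int1 f) {s : ℝ} (h0 : 0 < s) (h1 : s < 1)
    {ε : ℝ} (hε : 0 < ε) : ∃ N : ℕ, ∀ j, N ≤ j → ‖PowerSeries.coeff j f‖ * s ^ j < ε := by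
  have := (N1_tendsto hf h0 h1).eventually (gt_mem_nhds hε)
  exact Filter.eventually_atTop.1 this

omit [IsUltrametricDist C] [CompleteSpace C] [IsAlgClosed C] in
private theorem N1_exists_ne {f : PowerSeries C} (hf0 : f ≠ 0) :
    ∃ j, 0 < ‖PowerSeries.coeff j f‖ := by
  by_contra h
  push Not at h
  apply hf0
  ext j
  have := h j
  rw [map_zero]
  exact norm_le_zero_iff.1 this

omit [IsUltrametricDist C] [CompleteSpace C] [IsAlgClosed C] in
private theorem N1_pos {f : PowerSeries C} (hf0 : f ≠ 0) {s : ℝ} (h0 : 0 < s) {i : ℕ}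
    (hi : i ∈ gset f s) : 0 < ‖PowerSeries.coeff i f‖ * s ^ i := by
  obtain ⟨j, hj⟩ := N1_exists_ne hf0
  have h2 := hi j
  have : 0 < ‖PowerSeries.coeff j f‖ * s ^ j := by positivity
  linarith

omit [IsUltrametricDist C] [CompleteSpace C] [IsAlgClosed C] in
private theorem N1_pos' {f : PowerSeries C} (hf0 : f ≠ 0) {s : ℝ} (h0 : 0 < s) {i : ℕ}
    (hi : i ∈ gset f s) : 0 < ‖PowerSeries.coeff i f‖ := by
  have h := N1_pos hf0 h0 hi
  have h2 : 0 < s ^ i := by positivity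
  exact (pos_iff_pos_of_mul_pos h).2 h2

/-- TASK N1a. Existence and finiteness. -/
theorem gset_nonempty {f : PowerSeries C} (hf : Int1 f) {s : ℝ} (h0 : 0 < s) (h1 : s < 1) :
    (gset f s).Nonempty := by
  by_cases hf0 : f = 0
  · refine ⟨0, fun j => ?_⟩
    rw [hf0]
    simp
  · obtain ⟨j0, hj0⟩ := N1_exists_ne hf0
    have hpos : 0 < ‖PowerSeries.coeff j0 f‖ * s ^ j0 := by positivity
    obtain ⟨N, hN⟩ := N1_ev_lt hf h0 h1 hpos
    obtain ⟨i, -, hi⟩ := Finset.exists_max_image (Finset.range (max N j0 + 1))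
      (fun j => ‖PowerSeries.coeff j f‖ * s ^ j) ⟨j0, by simp⟩
    refine ⟨i, fun j => ?_⟩
    by_cases hj : j < max N j0 + 1
    · exact hi j (Finset.mem_range.2 hj)
    · have h2 := hN j (by omega)
      have h3 := hi j0 (Finset.mem_range.2 (by omega))
      exact h2.le.trans h3

theorem gset_finite {f : PowerSeries C} (hf : Int1 f) (hf0 : f ≠ 0) {s : ℝ} (h0 : 0 < s)
    (h1 : s < 1) : (gset f s).Finite := by
  obtain ⟨j0, hj0⟩ := N1_exists_ne hf0
  have hpos : 0 < ‖PowerSeries.coeff j0 f‖ * s ^ j0 := by positivity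
  obtain ⟨N, hN⟩ := N1_ev_lt hf h0 h1 hpos
  refine (Set.finite_lt_nat N).subset fun i hi => ?_
  by_contra hc
  have h2 := hN i (not_lt.1 hc)
  have h3 := hi j0
  linarith

/-- TASK N1b. Monotonicity of the Newton polygon: from
`‖f_i‖ s^i ≥ ‖f_j‖ s^j` and `‖f_j‖ s'^j ≥ ‖f_i‖ s'^i`, `s < s'`, one gets `i ≤ j`. -/
theorem gset_mono {f : PowerSeries C} (hf0 : f ≠ 0) {s s' : ℝ} (h0 : 0 < s) (h : s < s')
    {i j : ℕ} (hi : i ∈ gset f s) (hj : j ∈ gset f s') : i ≤ j := by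
  by_contra hc
  push Not at hc
  obtain ⟨k, rfl⟩ := Nat.exists_eq_add_of_lt hc
  have hai := N1_pos' hf0 h0 hi
  have haj := N1_pos' hf0 (h0.trans h) hj
  have e1 := hi j
  have e2 := hj (j + k + 1)
  have hs' : 0 < s' := h0.trans h
  rw [add_assoc, pow_add] at e1 e2
  rw [add_assoc] at hai
  set A := ‖PowerSeries.coeff (j + (k + 1)) f‖
  set B := ‖PowerSeries.coeff j f‖
  have e1' : B ≤ A * s ^ (k + 1) := by
    have h3 : B * s ^ j ≤ (A * s ^ (k + 1)) * s ^ j := by nlinarith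
    exact le_of_mul_le_mul_right h3 (by positivity)
  have e2' : A * s' ^ (k + 1) ≤ B := by
    have h3 : (A * s' ^ (k + 1)) * s' ^ j ≤ B * s' ^ j := by nlinarith
    exact le_of_mul_le_mul_right h3 (by positivity)
  have h4 : s ^ (k + 1) < s' ^ (k + 1) := pow_lt_pow_left₀ h h0.le (Nat.succ_ne_zero k)
  have h5 : A * s ^ (k + 1) < A * s' ^ (k + 1) := by gcongr
  linarith

omit [IsAlgClosed C] in
private theorem N1_summable {f : PowerSeries C} (hf : Int1 f) {w : C} (hw : ‖w‖ < 1) :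
    Summable fun i : ℕ => PowerSeries.coeff i f * w ^ i := by
  refine NonarchimedeanAddGroup.summable_of_tendsto_cofinite_zero ?_
  rw [Nat.cofinite_eq_atTop]
  refine squeeze_zero_norm (fun j => ?_)
    (tendsto_pow_atTop_nhds_zero_of_lt_one (norm_nonneg w) hw)
  rw [norm_mul, norm_pow]
  calc ‖PowerSeries.coeff j f‖ * ‖w‖ ^ j ≤ 1 * ‖w‖ ^ j := by
        gcongr
        exact N1_coeff_le hf j
    _ = ‖w‖ ^ j := one_mul _

omit [IsUltrametricDist C] [CompleteSpace C] [IsAlgClosed C] in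
private theorem N1_gap {f : PowerSeries C} (hf : Int1 f) (hf0 : f ≠ 0) {s : ℝ} (h0 : 0 < s)
    (h1 : s < 1) {i₀ : ℕ} (hi₀ : i₀ ∈ gset f s) :
    ∃ r : ℝ, 0 ≤ r ∧ r < ‖PowerSeries.coeff i₀ f‖ * s ^ i₀ ∧
      ∀ j, j ∉ gset f s → ‖PowerSeries.coeff j f‖ * s ^ j ≤ r := by
  classical
  set R := ‖PowerSeries.coeff i₀ f‖ * s ^ i₀ with hR
  have hRp : 0 < R := N1_pos hf0 h0 hi₀
  obtain ⟨N, hN⟩ := N1_ev_lt hf h0 h1 (half_pos hRp)
  have hlt : ∀ j, j ∉ gset f s → ‖PowerSeries.coeff j f‖ * s ^ j < R := by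
    intro j hj
    by_contra hc
    push Not at hc
    apply hj
    intro k
    exact (hi₀ k).trans hc
  by_cases hS : ((Finset.range N).filter (fun j => j ∉ gset f s)).Nonempty
  · obtain ⟨j1, hj1, hmax⟩ := Finset.exists_max_image _
      (fun j => ‖PowerSeries.coeff j f‖ * s ^ j) hS
    rw [Finset.mem_filter] at hj1
    refine ⟨max (R / 2) (‖PowerSeries.coeff j1 f‖ * s ^ j1), ?_, ?_, ?_⟩
    · exact le_max_of_le_left (by linarith)
    · exact max_lt (by linarith) (hlt j1 hj1.2)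
    · intro j hj
      by_cases hjN : j < N
      · exact le_max_of_le_right (hmax j (Finset.mem_filter.2 ⟨Finset.mem_range.2 hjN, hj⟩))
      · exact le_max_of_le_left (hN j (not_lt.1 hjN)).le
  · refine ⟨R / 2, by linarith, by linarith, ?_⟩
    intro j hj
    by_cases hjN : j < N
    · exact absurd ⟨j, Finset.mem_filter.2 ⟨Finset.mem_range.2 hjN, hj⟩⟩ hS
    · exact (hN j (not_lt.1 hjN)).le

/-- TASK N1c. The remaining terms are uniformly smaller: `‖f(w) - Σ_{i ∈ gset} f_i w^i‖ < R` for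
`‖w‖ ≤ s`, `R` the maximal value. (The terms `‖f_j‖ s^j`, `j ∉ gset`, have a maximum `< R`, since
they tend to `0`.) -/
theorem gset_approx {f : PowerSeries C} (hf : Int1 f) (hf0 : f ≠ 0) {s : ℝ} (h0 : 0 < s)
    (h1 : s < 1) {i₀ : ℕ} (hi₀ : i₀ ∈ gset f s) {w : C} (hw : ‖w‖ ≤ s) :
    ‖ev1 f w - ∑ i ∈ (gset_finite hf hf0 h0 h1).toFinset, PowerSeries.coeff i f * w ^ i‖ <
      ‖PowerSeries.coeff i₀ f‖ * s ^ i₀ := by
  obtain ⟨r, hr0, hrR, hr⟩ := N1_gap hf hf0 h0 h1 hi₀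
  refine lt_of_le_of_lt ?_ hrR
  have hsum := N1_summable hf (hw.trans_lt h1)
  rw [ev1_eq, ← hsum.sum_add_tsum_compl (s := (gset_finite hf hf0 h0 h1).toFinset),
    add_sub_cancel_left]
  refine IsUltrametricDist.norm_tsum_le_of_forall_le_of_nonneg hr0 fun j => ?_
  have hj : (j : ℕ) ∉ gset f s := by
    have := j.2
    simpa using this
  refine le_trans ?_ (hr j hj)
  rw [norm_mul, norm_pow]
  gcongr

/-- Difference estimate: `‖f(a) - f(b)‖ < R` (or `= 0`) when `‖a‖, ‖b‖ ≤ s`, `‖a - b‖ < s`. -/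
theorem gset_sub_lt {f : PowerSeries C} (hf : Int1 f) (hf0 : f ≠ 0) {s : ℝ} (h0 : 0 < s)
    (h1 : s < 1) {i₀ : ℕ} (hi₀ : i₀ ∈ gset f s) {a b : C} (ha : ‖a‖ ≤ s) (hb : ‖b‖ ≤ s)
    (hab : ‖a - b‖ < s) : ‖ev1 f a - ev1 f b‖ < ‖PowerSeries.coeff i₀ f‖ * s ^ i₀ := by
  set R := ‖PowerSeries.coeff i₀ f‖ * s ^ i₀ with hR
  have hRp : 0 < R := N1_pos hf0 h0 hi₀
  have hlt : R * (‖a - b‖ / s) < R := by
    have : ‖a - b‖ / s < 1 := (div_lt_one h0).2 hab
    nlinarith
  refine lt_of_le_of_lt ?_ hlt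
  rw [ev1_eq, ev1_eq, ← (N1_summable hf (ha.trans_lt h1)).tsum_sub
    (N1_summable hf (hb.trans_lt h1))]
  refine IsUltrametricDist.norm_tsum_le_of_forall_le_of_nonneg (by positivity) fun j => ?_
  rw [← mul_sub, norm_mul]
  have hpow : ‖a ^ j - b ^ j‖ ≤ s ^ j * (‖a - b‖ / s) := by
    rcases j with _ | j
    · simp only [pow_zero, sub_self, norm_zero]
      positivity
    · rw [← Commute.mul_geom_sum₂ (Commute.all a b), norm_mul]
      have h2 : ‖∑ i ∈ Finset.range (j + 1), a ^ i * b ^ (j + 1 - 1 - i)‖ ≤ s ^ j := by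
        refine IsUltrametricDist.norm_sum_le_of_forall_le_of_nonneg (by positivity) fun i hi => ?_
        rw [norm_mul, norm_pow, norm_pow]
        rw [Finset.mem_range] at hi
        calc ‖a‖ ^ i * ‖b‖ ^ (j + 1 - 1 - i) ≤ s ^ i * s ^ (j + 1 - 1 - i) := by gcongr
          _ = s ^ j := by rw [← pow_add]; congr 1; omega
      calc ‖a - b‖ * ‖∑ i ∈ Finset.range (j + 1), a ^ i * b ^ (j + 1 - 1 - i)‖
          ≤ ‖a - b‖ * s ^ j := by gcongr
        _ = s ^ (j + 1) * (‖a - b‖ / s) := by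
          rw [pow_succ]
          field_simp
  calc ‖PowerSeries.coeff j f‖ * ‖a ^ j - b ^ j‖
      ≤ ‖PowerSeries.coeff j f‖ * (s ^ j * (‖a - b‖ / s)) := by gcongr
    _ = (‖PowerSeries.coeff j f‖ * s ^ j) * (‖a - b‖ / s) := by ring
    _ ≤ R * (‖a - b‖ / s) := by
      gcongr
      exact hi₀ j

/-- TASK N1d. Additive polynomials over an infinite field of characteristic `p` have exponents
powers of `p`: compare coefficients of `a^i b^{j-i}` in the two-variable polynomial identity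
`L(a+b) = L(a) + L(b)` (valid identically since the field is infinite): `l_j C(j,i) = 0` for
`0 < i < j`; if `j` is not a power of `p` some `C(j,i)`, `0<i<j`, is prime to `p`
(`j = p^a m`, `p ∤ m > 1`, `i = p^a`). Also `l_0 = 0`. -/
theorem additive_exponents {κ : Type} [Field κ] [Infinite κ] (p : ℕ) [Fact p.Prime] [CharP κ p]
    (L : Polynomial κ) (hL : ∀ a b : κ, L.eval (a + b) = L.eval a + L.eval b) {j : ℕ}
    (hj : L.coeff j ≠ 0) : ∃ k : ℕ, j = p ^ k := by
  have hp : p.Prime := Fact.out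
  have h0 : L.coeff 0 = 0 := by
    have h := hL 0 0
    rw [add_zero] at h
    rw [Polynomial.coeff_zero_eq_eval_zero]
    linear_combination -h
  have hj0 : j ≠ 0 := by
    rintro rfl
    exact hj h0
  have hT : ∀ b : κ, Polynomial.taylor b L = L + Polynomial.C (L.eval b) := by
    intro b
    apply Polynomial.funext
    intro a
    rw [Polynomial.taylor_eval, hL, Polynomial.eval_add, Polynomial.eval_C]
  have hD : ∀ i : ℕ, i ≠ 0 → Polynomial.hasseDeriv i L = Polynomial.C (L.coeff i) := by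
    intro i hi
    apply Polynomial.funext
    intro b
    rw [← Polynomial.taylor_coeff, hT, Polynomial.coeff_add, Polynomial.eval_C,
      Polynomial.coeff_C, if_neg hi, add_zero]
  have hc : ∀ i : ℕ, i ≠ 0 → i < j → ((j.choose i : ℕ) : κ) = 0 := by
    intro i hi hij
    have h2 := congrArg (fun q => Polynomial.coeff q (j - i)) (hD i hi)
    simp only [Polynomial.hasseDeriv_coeff, Polynomial.coeff_C] at h2
    rw [if_neg (by omega), Nat.sub_add_cancel hij.le] at h2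
    rcases mul_eq_zero.1 h2 with h3 | h3
    · exact h3
    · exact absurd h3 hj
  obtain ⟨a, m, hm, hjm⟩ := Nat.exists_eq_pow_mul_and_not_dvd hj0 p hp.ne_one
  refine ⟨a, ?_⟩
  by_contra hne
  have hpa : p ^ a ≠ 0 := pow_ne_zero _ hp.ne_zero
  have hm1 : m ≠ 1 := by
    rintro rfl
    exact hne (by rw [hjm, mul_one])
  have hm0 : m ≠ 0 := by
    rintro rfl
    exact hj0 (by rw [hjm, mul_zero])
  have hlt : p ^ a < j := by
    rw [hjm]
    have : 1 < m := by omega
    nlinarith [Nat.pos_of_ne_zero hpa]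
  have h3 := hc (p ^ a) hpa hlt
  have h4 : ((Polynomial.X + 1 : Polynomial κ) ^ j).coeff (p ^ a) = (m : κ) := by
    rw [hjm, pow_mul, add_pow_char_pow, one_pow]
    have h5 : (Polynomial.X ^ p ^ a + 1 : Polynomial κ) ^ m =
        Polynomial.expand κ (p ^ a) ((Polynomial.X + 1) ^ m) := by
      simp
    rw [h5]
    have h6 := Polynomial.coeff_expand_mul (Nat.pos_of_ne_zero hpa)
      ((Polynomial.X + 1 : Polynomial κ) ^ m) 1
    rw [one_mul] at h6
    rw [h6, Polynomial.coeff_X_add_one_pow]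
    simp
  rw [Polynomial.coeff_X_add_one_pow, h3] at h4
  exact hm ((CharP.cast_eq_zero_iff κ p m).1 h4.symm)

/-- TASK N1e.  The leading exponents of a homomorphism are powers of `p`.
Proof: for `‖a‖, ‖b‖ ≤ s = ‖η‖`, with `c = F(a,b)` (norm `≤ s`, `‖c - (a+b)‖ ≤ s² < s`) we have
`f(c) = G(f(a), f(b))`, `‖G(f a, f b) - (f a + f b)‖ ≤ R² < R` (`R < 1` because `f(0) = 0`), and
`‖f(c) - f(a+b)‖ < R` (`gset_sub_lt`).  So `L(x) = Σ_{i∈gset} f_i x^i` satisfies
`‖L(a+b) - L(a) - L(b)‖ < R`.  Put `a = η a'`, divide by an element of norm `R`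
(`f_{i₀} η^{i₀}`) and take residues; apply `additive_exponents` over `kap C`. -/
theorem gset_pow (p : ℕ) [Fact p.Prime] [CharP C p] {F G : IFG C} {f : PowerSeries C}
    (hf : Int1 f) (hf0 : f ≠ 0) (hh : IsFGHom F.law G.law f) {η : C} (h0 : η ≠ 0)
    (h1 : ‖η‖ < 1) {i : ℕ} (hi : i ∈ gset f ‖η‖) : ∃ k : ℕ, i = p ^ k := by
  classical
  have hs0 : 0 < ‖η‖ := norm_pos_iff.2 h0
  set s := ‖η‖ with hs
  set R := ‖PowerSeries.coeff i f‖ * s ^ i with hR
  have hRp : 0 < R := N1_pos hf0 hs0 hi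
  have hcoef : 0 < ‖PowerSeries.coeff i f‖ := N1_pos' hf0 hs0 hi
  have hi0 : i ≠ 0 := by
    rintro rfl
    rw [PowerSeries.coeff_zero_eq_constantCoeff_apply, hh.1, norm_zero] at hcoef
    exact lt_irrefl _ hcoef
  have hR1 : R < 1 := by
    have h2 : s ^ i < 1 := pow_lt_one₀ hs0.le h1 hi0
    have h3 := N1_coeff_le hf i
    nlinarith
  set I := (gset_finite hf hf0 hs0 h1).toFinset with hI
  have hmemI : ∀ k ∈ I, k ∈ gset f s := fun k hk => by
    simpa [hI] using hk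
  have hval : ∀ k ∈ I, ‖PowerSeries.coeff k f‖ * s ^ k = R := fun k hk =>
    le_antisymm (hi k) (hmemI k hk i)
  -- approximations
  let P : C → C := fun w => ∑ k ∈ I, PowerSeries.coeff k f * w ^ k
  have hP : ∀ w : C, ‖w‖ ≤ s → ‖ev1 f w - P w‖ < R := fun w hw =>
    gset_approx hf hf0 hs0 h1 hi hw
  have hPn : ∀ w : C, ‖w‖ ≤ s → ‖P w‖ ≤ R := by
    intro w hw
    refine IsUltrametricDist.norm_sum_le_of_forall_le_of_nonneg hRp.le fun k hk => ?_
    rw [norm_mul, norm_pow, ← hval k hk]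
    gcongr
  have hfn : ∀ w : C, ‖w‖ ≤ s → ‖ev1 f w‖ ≤ R := by
    intro w hw
    have e : ev1 f w = (ev1 f w - P w) + P w := by ring
    rw [e]
    exact (IsUltrametricDist.norm_add_le_max _ _).trans (max_le (hP w hw).le (hPn w hw))
  have hadd : ∀ a b : C, ‖a‖ ≤ s → ‖b‖ ≤ s → ‖P (a + b) - (P a + P b)‖ < R := by
    intro a b ha hb
    have hab : ‖a + b‖ ≤ s := (IsUltrametricDist.norm_add_le_max _ _).trans (max_le ha hb)
    have ha1 := ha.trans_lt h1
    have hb1 := hb.trans_lt h1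
    have hc : ‖cadd F a b‖ ≤ s := (norm_cadd_le F ha1 hb1).trans (max_le ha hb)
    have hcs : ‖cadd F a b - (a + b)‖ < s := by
      refine (norm_cadd_sub_le F ha1 hb1).trans_lt ?_
      have : ‖a‖ * ‖b‖ ≤ s * s := by gcongr
      nlinarith
    have e1 := gset_sub_lt hf hf0 hs0 h1 hi hc hab hcs
    rw [hom_cadd hf hh ha1 hb1] at e1
    have e2 : ‖cadd G (ev1 f a) (ev1 f b) - (ev1 f a + ev1 f b)‖ < R := by
      have hfa := hfn a ha
      have hfb := hfn b hb
      refine (norm_cadd_sub_le G (hfa.trans_lt hR1) (hfb.trans_lt hR1)).trans_lt ?_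
      have : ‖ev1 f a‖ * ‖ev1 f b‖ ≤ R * R := by gcongr
      nlinarith
    have e3 := hP (a + b) hab
    have e4 := hP a ha
    have e5 := hP b hb
    have e : P (a + b) - (P a + P b) =
        (-(ev1 f (a + b) - P (a + b))) +
        ((-(cadd G (ev1 f a) (ev1 f b) - ev1 f (a + b))) +
        ((cadd G (ev1 f a) (ev1 f b) - (ev1 f a + ev1 f b)) +
        ((ev1 f a - P a) + (ev1 f b - P b)))) := by ring
    rw [e]
    refine (IsUltrametricDist.norm_add_le_max _ _).trans_lt (max_lt (by rwa [norm_neg]) ?_)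
    refine (IsUltrametricDist.norm_add_le_max _ _).trans_lt (max_lt (by rwa [norm_neg]) ?_)
    refine (IsUltrametricDist.norm_add_le_max _ _).trans_lt (max_lt e2 ?_)
    exact (IsUltrametricDist.norm_add_le_max _ _).trans_lt (max_lt e4 e5)
  -- normalisation
  set ρ₀ : C := PowerSeries.coeff i f * η ^ i with hρ₀
  have hρn : ‖ρ₀‖ = R := by rw [hρ₀, norm_mul, norm_pow]
  have hρ0 : ρ₀ ≠ 0 := by
    rw [← norm_pos_iff, hρn]; exact hRp
  let u : ℕ → C := fun k => PowerSeries.coeff k f * η ^ k / ρ₀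
  have hu : ∀ k ∈ I, ‖u k‖ ≤ 1 := by
    intro k hk
    show ‖PowerSeries.coeff k f * η ^ k / ρ₀‖ ≤ 1
    rw [norm_div, norm_mul, norm_pow, hρn, ← hs, hval k hk, div_self hRp.ne']
  let L : Polynomial (kap C) := ∑ k ∈ I, Polynomial.C (rs (u k)) * Polynomial.X ^ k
  have hPu : ∀ x : C, P (η * x) = ρ₀ * ∑ k ∈ I, u k * x ^ k := by
    intro x
    show ∑ k ∈ I, PowerSeries.coeff k f * (η * x) ^ k = _
    rw [Finset.mul_sum]
    refine Finset.sum_congr rfl fun k _ => ?_
    show _ = ρ₀ * (PowerSeries.coeff k f * η ^ k / ρ₀ * x ^ k)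
    rw [mul_pow]
    field_simp
  have hterm : ∀ x : C, ‖x‖ ≤ 1 → ∀ k ∈ I, ‖u k * x ^ k‖ ≤ 1 := by
    intro x hx k hk
    rw [norm_mul, norm_pow]
    exact mul_le_one₀ (hu k hk) (by positivity) (pow_le_one₀ (norm_nonneg _) hx)
  have hLe : ∀ x : C, ‖x‖ ≤ 1 → rs (∑ k ∈ I, u k * x ^ k) = L.eval (rs x) := by
    intro x hx
    rw [rs_sum I _ (hterm x hx), Polynomial.eval_finsetSum]
    refine Finset.sum_congr rfl fun k hk => ?_
    have hxk : ‖x ^ k‖ ≤ 1 := by
      rw [norm_pow]; exact pow_le_one₀ (norm_nonneg _) hx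
    rw [rs_mul (hu k hk) hxk, rs_pow hx, Polynomial.eval_mul, Polynomial.eval_C,
      Polynomial.eval_pow, Polynomial.eval_X]
  have hLadd : ∀ a b : kap C, L.eval (a + b) = L.eval a + L.eval b := by
    intro a b
    obtain ⟨x, hx, rfl⟩ := rs_surj a
    obtain ⟨y, hy, rfl⟩ := rs_surj b
    have hxy : ‖x + y‖ ≤ 1 := (IsUltrametricDist.norm_add_le_max _ _).trans (max_le hx hy)
    have hSx : ‖∑ k ∈ I, u k * x ^ k‖ ≤ 1 :=
      IsUltrametricDist.norm_sum_le_of_forall_le_of_nonneg zero_le_one (hterm x hx)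
    have hSy : ‖∑ k ∈ I, u k * y ^ k‖ ≤ 1 :=
      IsUltrametricDist.norm_sum_le_of_forall_le_of_nonneg zero_le_one (hterm y hy)
    have hSxy : ‖∑ k ∈ I, u k * (x + y) ^ k‖ ≤ 1 :=
      IsUltrametricDist.norm_sum_le_of_forall_le_of_nonneg zero_le_one (hterm _ hxy)
    rw [← rs_add hx hy, ← hLe _ hxy, ← hLe x hx, ← hLe y hy, ← rs_add hSx hSy]
    apply rs_eq_of_lt hSxy
    have hm : ∀ z : C, ‖z‖ ≤ 1 → ‖η * z‖ ≤ s := by
      intro z hz
      rw [norm_mul]
      calc ‖η‖ * ‖z‖ ≤ ‖η‖ * 1 := by gcongr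
        _ = s := mul_one _
    have h2 := hadd (η * x) (η * y) (hm x hx) (hm y hy)
    rw [← mul_add, hPu, hPu, hPu, ← mul_add, ← mul_sub, norm_mul, hρn] at h2
    by_contra hc
    push Not at hc
    nlinarith
  have hLi : L.coeff i = 1 := by
    show (∑ k ∈ I, Polynomial.C (rs (u k)) * Polynomial.X ^ k : Polynomial (kap C)).coeff i = 1
    rw [Polynomial.finsetSum_coeff, Finset.sum_eq_single i]
    · rw [Polynomial.coeff_C_mul, Polynomial.coeff_X_pow, if_pos rfl, mul_one]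
      have : u i = 1 := div_self hρ0
      rw [this, rs_one]
    · intro k _ hki
      rw [Polynomial.coeff_C_mul, Polynomial.coeff_X_pow, if_neg (Ne.symm hki), mul_zero]
    · intro hiI
      exact absurd (by simpa [hI] using hi) hiI
  exact additive_exponents p L hLadd (j := i) (by rw [hLi]; exact one_ne_zero)

end Crest.Agent.LU
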