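import Mathlib
import Crest.Agent.LU_D9
import Crest.Agent.LU_N1

/-!
S0351 (blueprint LU), part N: leading forms of `E`.
-/

set_option autoImplicit false

noncomputable section

namespace Crest.Agent.LU

open Crest.LubinTate

variable {p n h : ℕ} [Fact p.Prime] {C : Type} [NontriviallyNormedField C] [IsUltrametricDist C]
  [CompleteSpace C] [IsAlgClosed C] [CharP C p] {Γ : IFG C}

/-- `LF D Y R I c`: on the ball of radius `Y` the map `E` has the leading form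
`Σ_{i ∈ I} c_i z^{p^i}` (`i ∈ ℤ`), of size `R`. -/
structure LF (D : Datum p n h Γ) (Y R : ℝ) (I : Finset ℤ) (c : ℤ → C) : Prop where
  Rpos : 0 < R
  ne : I.Nonempty
  norm_c : ∀ i ∈ I, ‖c i‖ * Y ^ ((p : ℝ) ^ i) = R
  approx : ∀ z : Pt Γ, ‖z.val‖ ≤ Y → ‖(D.E z).val - ∑ i ∈ I, c i * frz p i z.val‖ < R

variable (D : Datum p n h Γ)


section aux

omit [IsUltrametricDist C] [CompleteSpace C] [IsAlgClosed C] in
private theorem N2_frob_inj (k : ℕ) {a b : C} (hab : a ^ (p ^ k) = b ^ (p ^ k)) : a = b := by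
  apply iterateFrobenius_inj C p k
  rw [iterateFrobenius_def, iterateFrobenius_def, hab]

private theorem N2_frz_pow (i : ℤ) (k : ℕ) (z : C) :
    (frz p i z) ^ (p ^ k) = frz p (i + (k : ℤ)) z := by
  rw [← frz_natCast, add_comm, frz_add]

private theorem N2_frz_pow' {K : Type} [Field K] [IsAlgClosed K] [CharP K p] (i : ℤ) (k : ℕ)
    (z : K) : frz p i (z ^ (p ^ k)) = frz p (i + (k : ℤ)) z := by
  rw [← frz_natCast, frz_add]

private theorem N2_rt (N : ℕ) (z : Pt Γ) :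
    (rt p n N z).val = frz p (-((n * N : ℕ) : ℤ)) z.val := by
  apply N2_frob_inj (p := p) (n * N)
  rw [rt_pow, N2_frz_pow, neg_add_cancel, frz_zero]

private theorem N2_ppos : (0 : ℝ) < (p : ℝ) := by
  exact_mod_cast (Fact.out : p.Prime).pos

private theorem N2_pow_pos (i : ℤ) : (0 : ℝ) < (p : ℝ) ^ i := zpow_pos N2_ppos i

private theorem N2_sum_lt {ι : Type} (s : Finset ι) (f : ι → C) {R : ℝ} (hR : 0 < R)
    (h : ∀ i ∈ s, ‖f i‖ < R) : ‖∑ i ∈ s, f i‖ < R := by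
  classical
  induction s using Finset.induction_on with
  | empty => simpa using hR
  | insert i s hi ih =>
    rw [Finset.sum_insert hi]
    refine (IsUltrametricDist.norm_add_le_max _ _).trans_lt (max_lt (h i (Finset.mem_insert_self i s)) ?_)
    exact ih fun j hj => h j (Finset.mem_insert_of_mem hj)

/-- A nonzero residue `p`-polynomial does not vanish identically. -/
private theorem N2_resid (J : Finset ℤ) (d : ℤ → kap C) {i₀ : ℤ} (hi₀ : i₀ ∈ J)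
    (hd : d i₀ ≠ 0) : ∃ ξ : kap C, ∑ i ∈ J, d i * frz p i ξ ≠ 0 := by
  classical
  obtain ⟨M, hM⟩ : ∃ M : ℕ, ∀ i ∈ J, 0 ≤ i + (M : ℤ) := by
    refine ⟨∑ i ∈ J, i.natAbs, fun i hi => ?_⟩
    have h1 : i.natAbs ≤ ∑ i ∈ J, i.natAbs :=
      Finset.single_le_sum (f := fun i : ℤ => i.natAbs) (fun _ _ => Nat.zero_le _) hi
    omega
  set L : Polynomial (kap C) :=
    ∑ i ∈ J, Polynomial.monomial (p ^ (i + (M : ℤ)).toNat) (d i) with hL
  have hp2 : 1 < p := (Fact.out : p.Prime).one_lt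
  have hcoef : L.coeff (p ^ (i₀ + (M : ℤ)).toNat) = d i₀ := by
    rw [hL, Polynomial.finsetSum_coeff, Finset.sum_eq_single i₀]
    · rw [Polynomial.coeff_monomial, if_pos rfl]
    · intro j hj hne
      rw [Polynomial.coeff_monomial, if_neg]
      intro he
      have h1 := Nat.pow_right_injective hp2 he
      have h2 := hM j hj
      have h3 := hM i₀ hi₀
      apply hne
      omega
    · intro hn
      exact absurd hi₀ hn
  have hL0 : L ≠ 0 := by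
    intro h0
    rw [h0, Polynomial.coeff_zero] at hcoef
    exact hd hcoef.symm
  obtain ⟨b, hb⟩ : ∃ b : kap C, L.eval b ≠ 0 := by
    by_contra hc
    push Not at hc
    exact hL0 (Polynomial.funext fun b => by rw [hc b, Polynomial.eval_zero])
  refine ⟨frz p (M : ℤ) b, ?_⟩
  have h1 : L.eval b = ∑ i ∈ J, d i * frz p i (frz p (M : ℤ) b) := by
    rw [hL, Polynomial.eval_finset_sum]
    refine Finset.sum_congr rfl fun i hi => ?_
    rw [Polynomial.eval_monomial, ← frz_add, ← frz_natCast, Int.toNat_of_nonneg (hM i hi)]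
  rwa [← h1]

/-- Generic size. -/
private theorem N2_generic {η : C} (h0 : η ≠ 0) {R : ℝ} (hR : 0 < R) (J : Finset ℤ) (e : ℤ → C)
    (hle : ∀ i ∈ J, ‖e i‖ * ‖η‖ ^ ((p : ℝ) ^ i) ≤ R) {i₀ : ℤ} (hi₀ : i₀ ∈ J)
    (heq : ‖e i₀‖ * ‖η‖ ^ ((p : ℝ) ^ i₀) = R) :
    ∃ z : C, ‖z‖ ≤ ‖η‖ ∧ ‖∑ i ∈ J, e i * frz p i z‖ = R := by
  set r₀ : C := e i₀ * frz p i₀ η with hr₀
  have hr₀n : ‖r₀‖ = R := by
    rw [hr₀, norm_mul, norm_frz, heq]
  have hr₀0 : r₀ ≠ 0 := by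
    intro hc
    rw [hc, norm_zero] at hr₀n
    exact hR.ne hr₀n
  set a : ℤ → C := fun i => e i * frz p i η / r₀ with ha
  have ha1 : ∀ i ∈ J, ‖a i‖ ≤ 1 := by
    intro i hi
    rw [ha]
    simp only
    rw [norm_div, norm_mul, norm_frz, hr₀n, div_le_one hR]
    exact hle i hi
  have ha0 : rs (a i₀) ≠ 0 := by
    have h1 : a i₀ = 1 := by
      rw [ha]
      simp only
      rw [← hr₀, div_self hr₀0]
    rw [h1, rs_one]
    exact one_ne_zero
  obtain ⟨ξ', hξ'⟩ := N2_resid (p := p) J (fun i => rs (a i)) hi₀ ha0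
  obtain ⟨ξ, hξ1, hξ⟩ := rs_surj ξ'
  have hfr1 : ∀ i : ℤ, ‖frz p i ξ‖ ≤ 1 := by
    intro i
    rw [norm_frz]
    exact Real.rpow_le_one (norm_nonneg _) hξ1 (N2_pow_pos i).le
  refine ⟨η * ξ, ?_, ?_⟩
  · rw [norm_mul]
    calc ‖η‖ * ‖ξ‖ ≤ ‖η‖ * 1 := mul_le_mul_of_nonneg_left hξ1 (norm_nonneg _)
      _ = ‖η‖ := mul_one _
  · have h1 : ∑ i ∈ J, e i * frz p i (η * ξ) = r₀ * ∑ i ∈ J, a i * frz p i ξ := by
      rw [Finset.mul_sum]
      refine Finset.sum_congr rfl fun i _ => ?_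
      rw [ha, map_mul]
      simp only
      field_simp
    have h2 : ∀ i ∈ J, ‖a i * frz p i ξ‖ ≤ 1 := fun i hi => by
      rw [norm_mul]
      exact mul_le_one₀ (ha1 i hi) (norm_nonneg _) (hfr1 i)
    have h3 : ‖∑ i ∈ J, a i * frz p i ξ‖ ≤ 1 :=
      IsUltrametricDist.norm_sum_le_of_forall_le_of_nonneg zero_le_one h2
    have h4 : rs (∑ i ∈ J, a i * frz p i ξ) ≠ 0 := by
      rw [rs_sum J _ h2]
      have h5 : ∑ i ∈ J, rs (a i * frz p i ξ) = ∑ i ∈ J, rs (a i) * frz p i ξ' := by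
        refine Finset.sum_congr rfl fun i hi => ?_
        rw [rs_mul (ha1 i hi) (hfr1 i), rs_frz p i hξ1, hξ]
      rw [h5]
      exact hξ'
    have h6 : ‖∑ i ∈ J, a i * frz p i ξ‖ = 1 := by
      refine le_antisymm h3 (not_lt.mp fun hlt => h4 ((rs_eq_zero_iff h3).mpr hlt))
    rw [h1, norm_mul, h6, mul_one, hr₀n]

private theorem N2_Qpow_lt {r : ℝ} (hr0 : 0 ≤ r) (hr1 : r < 1) (hh : 1 ≤ h) {ε : ℝ} (hε : 0 < ε) :
    ∃ N : ℕ, r ^ ((p ^ h) ^ N) < ε := by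
  obtain ⟨N, hN⟩ := exists_pow_lt_of_lt_one hε hr1
  refine ⟨N, lt_of_le_of_lt (pow_le_pow_of_le_one hr0 hr1.le ?_) hN⟩
  have h2 : 1 < p ^ h := Nat.one_lt_pow (by omega) (Fact.out : p.Prime).one_lt
  exact (Nat.lt_pow_self h2).le

end aux

/-- TASK N2a. `‖E(z) - V^{[N]}(z^{p^{-(n-h)N}})‖ ≤ ρ^{Q^N}`.
(`E(z) = V^{[N]}(E(w)^{Q^N})`, `w = z^{q^{-N}}` (`VN_U`), `‖E(w) - w‖ ≤ ρ`,
`w^{Q^N} = z^{p^{-(n-h)N}}`.) -/
theorem Datum.E_approx (N : ℕ) (z : Pt Γ) :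
    ‖(D.E z).val - ev1 (VN p h D.V N) (frz p (-(((n - h) * N : ℕ) : ℤ)) z.val)‖ ≤
      D.ρ ^ ((p ^ h) ^ N) := by
  have hn : h ≤ n := D.h2.le
  rw [← D.VN_U N z]
  set w : C := frz p (-(((n - h) * N : ℕ) : ℤ)) z.val with hw
  have hp0 : p ^ (h * N) ≠ 0 := pow_ne_zero _ (Fact.out : p.Prime).ne_zero
  have hw1 : w = (rt p n N z).val ^ (p ^ (h * N)) := by
    rw [hw, N2_rt, N2_frz_pow]
    congr 1
    have e : n * N = (n - h) * N + h * N := by
      rw [← add_mul, Nat.sub_add_cancel hn]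
    rw [e]
    push_cast
    ring
  have hlt : ‖w‖ < 1 := by
    rw [hw1, norm_pow]
    exact pow_lt_one₀ (norm_nonneg _) (rt p n N z).lt hp0
  refine norm_ev_sub_le (σ := Unit) (D.VN_int N) (fun _ => D.norm_U_lt N z) (fun _ => hlt)
    (pow_nonneg D.ρ0.le _) fun _ => ?_
  rw [hw1]
  unfold Datum.U
  rw [← sub_pow_char_pow, norm_pow, ← pow_mul p h N]
  exact pow_le_pow_left₀ (norm_nonneg _) (D.norm_E_sub _) _

/-- TASK N2b.  The leading form of `E` at radius `Y = ‖η‖` obtained from `V^{[N]}`, for every `N`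
with `ρ^{Q^N} < Y`: exponents `I = {k - (n-h)N : p^k ∈ gset V^{[N]} s}`, `s = Y^{p^{-(n-h)N}}`.
The coefficient of `X^{p^{(n-h)N}}` in `V^{[N]}` has norm `1` (`VN_close`), so
`R ≥ s^{p^{(n-h)N}} = Y > ρ^{Q^N}`.  (`gset_pow`, `gset_approx`, `E_approx`; the radius `s` is the
norm of `frz p (-(n-h)N) η`.) -/
theorem Datum.LF_of_VN {η : C} (h0 : η ≠ 0) (h1 : ‖η‖ < 1) (N : ℕ)
    (hN : D.ρ ^ ((p ^ h) ^ N) < ‖η‖) :
    ∃ (R : ℝ) (I : Finset ℤ) (c : ℤ → C), LF D ‖η‖ R I c ∧ ‖η‖ ≤ R ∧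
      ∀ i ∈ I, ∃ k : ℕ, i = (k : ℤ) - (((n - h) * N : ℕ) : ℤ) ∧
        p ^ k ∈ gset (VN p h D.V N) (‖η‖ ^ ((p : ℝ) ^ (-(((n - h) * N : ℕ) : ℤ)))) := by
  classical
  have hn : h ≤ n := D.h2.le
  set M : ℕ := (n - h) * N with hM
  set f : PowerSeries C := VN p h D.V N with hf
  set η' : C := frz p (-(M : ℤ)) η with hη'
  have hη0 : 0 < ‖η‖ := norm_pos_iff.mpr h0
  have hη'n : ‖η'‖ = ‖η‖ ^ ((p : ℝ) ^ (-(M : ℤ))) := by rw [hη', norm_frz]
  have hη'0 : η' ≠ 0 := by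
    rw [hη']
    intro hc
    exact h0 ((map_eq_zero_iff (frz p (-(M : ℤ))) (RingEquiv.injective _)).mp hc)
  have hs0 : 0 < ‖η'‖ := norm_pos_iff.mpr hη'0
  have hs1 : ‖η'‖ < 1 := by
    rw [hη'n]
    exact Real.rpow_lt_one (norm_nonneg _) h1 (N2_pow_pos _)
  have hspow : ∀ k : ℕ, ‖η'‖ ^ (p ^ k) = ‖η‖ ^ ((p : ℝ) ^ ((k : ℤ) - (M : ℤ))) := by
    intro k
    rw [hη'n, ← Real.rpow_natCast, ← Real.rpow_mul (norm_nonneg _)]
    congr 1
    push_cast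
    rw [← zpow_natCast, ← zpow_add₀ (N2_ppos (p := p)).ne']
    congr 1
    ring
  have hint : Int1 f := D.VN_int N
  have hcM : ‖PowerSeries.coeff (p ^ M) f‖ = 1 := by
    have h2 := D.VN_close N (p ^ M)
    rw [← hf, ← hM, map_sub, PowerSeries.coeff_X_pow_self] at h2
    have h3 : PowerSeries.coeff (p ^ M) f = (PowerSeries.coeff (p ^ M) f - 1) + 1 := by ring
    have h4 : ‖PowerSeries.coeff (p ^ M) f - 1‖ < ‖(1 : C)‖ := by
      rw [norm_one]; exact h2.trans_lt D.ρ1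
    rw [h3, IsUltrametricDist.norm_add_eq_max_of_norm_ne_norm (ne_of_lt h4), max_eq_right h4.le,
      norm_one]
  have hf0 : f ≠ 0 := by
    intro hc
    rw [hc, map_zero, norm_zero] at hcM
    exact zero_ne_one hcM
  obtain ⟨i₀, hi₀⟩ := gset_nonempty hint hs0 hs1
  have hGpow : ∀ i ∈ gset f ‖η'‖, ∃ k : ℕ, i = p ^ k := by
    intro i hi
    let F' : IFG C :=
      { law := D.H.law.map (iterateFrobenius C p (h * N))
        int := Int1.map_frob p (h * N) D.H.int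
        comm := by
          haveI := D.H.comm
          exact isComm_map D.H.law (iterateFrobenius C p (h * N)) }
    exact gset_pow p (F := F') (G := D.H) hint hf0 (D.VN_hom N) hη'0 hs1 hi
  have hfin := gset_finite hint hf0 hs0 hs1
  set R : ℝ := ‖PowerSeries.coeff i₀ f‖ * ‖η'‖ ^ i₀ with hR
  have hRall : ∀ i ∈ gset f ‖η'‖, ‖PowerSeries.coeff i f‖ * ‖η'‖ ^ i = R := fun i hi =>
    le_antisymm (hi₀ i) (hi i₀)
  have hηR : ‖η‖ ≤ R := by
    have h2 := hi₀ (p ^ M)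
    rw [hcM, one_mul, hspow, sub_self, zpow_zero, Real.rpow_one] at h2
    exact h2
  choose! lg hlg using hGpow
  have hinj : Set.InjOn lg (gset f ‖η'‖) := by
    intro i hi j hj hij
    rw [hlg i hi, hlg j hj, hij]
  refine ⟨R, hfin.toFinset.image (fun i => (lg i : ℤ) - (M : ℤ)),
    fun i => PowerSeries.coeff (p ^ (i + (M : ℤ)).toNat) f, ?_, hηR, ?_⟩
  · refine ⟨hη0.trans_le hηR, ?_, ?_, ?_⟩
    · exact ⟨(lg i₀ : ℤ) - (M : ℤ), Finset.mem_image.mpr ⟨i₀, hfin.mem_toFinset.mpr hi₀, rfl⟩⟩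
    · intro i hi
      obtain ⟨j, hj, rfl⟩ := Finset.mem_image.mp hi
      rw [hfin.mem_toFinset] at hj
      have h2 : ((lg j : ℤ) - (M : ℤ) + (M : ℤ)).toNat = lg j := by omega
      rw [h2, ← hspow, ← hlg j hj]
      exact hRall j hj
    · intro z hz
      have h2 : ∑ i ∈ hfin.toFinset.image (fun i => (lg i : ℤ) - (M : ℤ)),
          PowerSeries.coeff (p ^ (i + (M : ℤ)).toNat) f * frz p i z.val =
          ∑ i ∈ hfin.toFinset, PowerSeries.coeff i f * (frz p (-(M : ℤ)) z.val) ^ i := by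
        rw [Finset.sum_image]
        · refine Finset.sum_congr rfl fun j hj => ?_
          rw [hfin.mem_toFinset] at hj
          have h2 : ((lg j : ℤ) - (M : ℤ) + (M : ℤ)).toNat = lg j := by omega
          rw [h2]
          conv_rhs => rw [hlg j hj]
          rw [N2_frz_pow, neg_add_eq_sub]
        · intro i hi j hj hij
          rw [Finset.mem_coe, hfin.mem_toFinset] at hi hj
          exact hinj hi hj (by simpa using hij)
      rw [h2]
      have hz' : ‖frz p (-(M : ℤ)) z.val‖ ≤ ‖η'‖ := by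
        rw [norm_frz, hη'n]
        exact Real.rpow_le_rpow (norm_nonneg _) hz (N2_pow_pos _).le
      have h3 := gset_approx hint hf0 hs0 hs1 hi₀ hz'
      have h4 := D.E_approx N z
      rw [← hf, ← hM] at h4
      have h5 : (D.E z).val - ∑ i ∈ hfin.toFinset,
          PowerSeries.coeff i f * (frz p (-(M : ℤ)) z.val) ^ i =
          ((D.E z).val - ev1 f (frz p (-(M : ℤ)) z.val)) +
          (ev1 f (frz p (-(M : ℤ)) z.val) - ∑ i ∈ hfin.toFinset,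
          PowerSeries.coeff i f * (frz p (-(M : ℤ)) z.val) ^ i) := by ring
      rw [h5]
      exact (IsUltrametricDist.norm_add_le_max _ _).trans_lt
        (max_lt (h4.trans_lt (hN.trans_le hηR)) h3)
  · intro i hi
    obtain ⟨j, hj, rfl⟩ := Finset.mem_image.mp hi
    rw [hfin.mem_toFinset] at hj
    refine ⟨lg j, rfl, ?_⟩
    rw [← hη'n, ← hlg j hj]
    exact hj

/-- TASK N2c.  Generic size is attained: some `z` of norm `≤ Y` has `‖E(z)‖ = R`.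
(The residue polynomial, after applying `frz p M` to make the exponents natural numbers, is
nonzero, so it is nonzero at some residue, `kap C` being infinite.) -/
theorem LF.exists_eq {D : Datum p n h Γ} {η : C} (h0 : η ≠ 0) (h1 : ‖η‖ < 1) {R : ℝ}
    {I : Finset ℤ} {c : ℤ → C} (hL : LF D ‖η‖ R I c) :
    ∃ z : Pt Γ, ‖z.val‖ ≤ ‖η‖ ∧ ‖(D.E z).val‖ = R := by
  obtain ⟨i₀, hi₀⟩ := hL.ne
  obtain ⟨z, hz, hzR⟩ := N2_generic (p := p) h0 hL.Rpos I c (fun i hi => (hL.norm_c i hi).le) hi₀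
    (hL.norm_c i₀ hi₀)
  refine ⟨⟨z, hz.trans_lt h1⟩, hz, ?_⟩
  have h2 := hL.approx ⟨z, hz.trans_lt h1⟩ hz
  set S : C := ∑ i ∈ I, c i * frz p i z with hS
  have h3 : (D.E ⟨z, hz.trans_lt h1⟩).val = ((D.E ⟨z, hz.trans_lt h1⟩).val - S) + S := by ring
  have h4 : ‖(D.E ⟨z, hz.trans_lt h1⟩).val - S‖ < ‖S‖ := by
    rw [hzR]; exact h2
  rw [h3, IsUltrametricDist.norm_add_eq_max_of_norm_ne_norm (ne_of_lt h4), max_eq_right h4.le, hzR]

theorem LF.norm_le {D : Datum p n h Γ} {Y R : ℝ} {I : Finset ℤ} {c : ℤ → C}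
    (hL : LF D Y R I c) {z : Pt Γ} (hz : ‖z.val‖ ≤ Y) : ‖(D.E z).val‖ ≤ R := by
  have h1 := hL.approx z hz
  set S : C := ∑ i ∈ I, c i * frz p i z.val with hS
  have h2 : (D.E z).val = ((D.E z).val - S) + S := by ring
  rw [h2]
  refine (IsUltrametricDist.norm_add_le_max _ _).trans (max_le h1.le ?_)
  refine IsUltrametricDist.norm_sum_le_of_forall_le_of_nonneg hL.Rpos.le fun i hi => ?_
  rw [norm_mul, norm_frz, ← hL.norm_c i hi]
  exact mul_le_mul_of_nonneg_left (Real.rpow_le_rpow (norm_nonneg _) hz (N2_pow_pos _).le)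
    (norm_nonneg _)

/-- Strictly smaller arguments give strictly smaller values. -/
theorem LF.norm_lt {D : Datum p n h Γ} {Y R : ℝ} {I : Finset ℤ} {c : ℤ → C}
    (hY : 0 < Y) (hL : LF D Y R I c) {z : Pt Γ} (hz : ‖z.val‖ < Y) : ‖(D.E z).val‖ < R := by
  have h1 := hL.approx z hz.le
  set S : C := ∑ i ∈ I, c i * frz p i z.val with hS
  have h2 : (D.E z).val = ((D.E z).val - S) + S := by ring
  rw [h2]
  refine (IsUltrametricDist.norm_add_le_max _ _).trans_lt (max_lt h1 ?_)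
  refine N2_sum_lt I _ hL.Rpos fun i hi => ?_
  have h3 := hL.norm_c i hi
  have hc : 0 < ‖c i‖ := by
    rcases (norm_nonneg (c i)).lt_or_eq with h4 | h4
    · exact h4
    · rw [← h4, zero_mul] at h3
      exact absurd h3 hL.Rpos.ne
  rw [norm_mul, norm_frz, ← h3]
  exact mul_lt_mul_of_pos_left (Real.rpow_lt_rpow (norm_nonneg _) hz (N2_pow_pos _)) hc

private theorem N2_subset {D : Datum p n h Γ} {η : C} (h0 : η ≠ 0) (h1 : ‖η‖ < 1) {R : ℝ}
    {I I' : Finset ℤ} {c c' : ℤ → C} (hL : LF D ‖η‖ R I c) (hL' : LF D ‖η‖ R I' c') : I ⊆ I' := by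
  classical
  intro i₀ hi₀
  by_contra hn
  set e : ℤ → C := fun i => (if i ∈ I then c i else 0) - (if i ∈ I' then c' i else 0) with he
  have hnn : ∀ i : ℤ, 0 ≤ ‖η‖ ^ ((p : ℝ) ^ i) := fun i => Real.rpow_nonneg (norm_nonneg _) _
  have hle : ∀ i ∈ I ∪ I', ‖e i‖ * ‖η‖ ^ ((p : ℝ) ^ i) ≤ R := by
    intro i _
    have h2 : ‖e i‖ ≤ max ‖(if i ∈ I then c i else 0)‖ ‖(if i ∈ I' then c' i else 0)‖ := by
      rw [he]
      simp only
      rw [sub_eq_add_neg]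
      refine (IsUltrametricDist.norm_add_le_max _ _).trans ?_
      rw [norm_neg]
    refine (mul_le_mul_of_nonneg_right h2 (hnn i)).trans ?_
    rw [max_mul_of_nonneg _ _ (hnn i)]
    refine max_le ?_ ?_
    · split_ifs with hi
      · exact (hL.norm_c i hi).le
      · rw [norm_zero, zero_mul]; exact hL.Rpos.le
    · split_ifs with hi
      · exact (hL'.norm_c i hi).le
      · rw [norm_zero, zero_mul]; exact hL.Rpos.le
  have heq : ‖e i₀‖ * ‖η‖ ^ ((p : ℝ) ^ i₀) = R := by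
    rw [he]
    simp only
    rw [if_pos hi₀, if_neg hn, sub_zero]
    exact hL.norm_c i₀ hi₀
  obtain ⟨z, hz, hzR⟩ := N2_generic (p := p) h0 hL.Rpos (I ∪ I') e hle
    (Finset.mem_union_left _ hi₀) heq
  have h2 := hL.approx ⟨z, hz.trans_lt h1⟩ hz
  have h3 := hL'.approx ⟨z, hz.trans_lt h1⟩ hz
  have h4 : ∑ i ∈ I ∪ I', e i * frz p i z =
      ∑ i ∈ I, c i * frz p i z - ∑ i ∈ I', c' i * frz p i z := by
    rw [he]
    simp only [sub_mul]
    rw [Finset.sum_sub_distrib]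
    congr 1
    · simp only [ite_mul, zero_mul]
      rw [Finset.sum_ite_mem, Finset.union_inter_cancel_left]
    · simp only [ite_mul, zero_mul]
      rw [Finset.sum_ite_mem, Finset.union_inter_cancel_right]
  rw [h4] at hzR
  have h5 : ∑ i ∈ I, c i * frz p i z - ∑ i ∈ I', c' i * frz p i z =
      ((D.E ⟨z, hz.trans_lt h1⟩).val - ∑ i ∈ I', c' i * frz p i z) -
      ((D.E ⟨z, hz.trans_lt h1⟩).val - ∑ i ∈ I, c i * frz p i z) := by ring
  rw [h5, sub_eq_add_neg] at hzR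
  have h6 := IsUltrametricDist.norm_add_le_max
    ((D.E ⟨z, hz.trans_lt h1⟩).val - ∑ i ∈ I', c' i * frz p i z)
    (-((D.E ⟨z, hz.trans_lt h1⟩).val - ∑ i ∈ I, c i * frz p i z))
  rw [hzR, norm_neg] at h6
  exact absurd h6 (not_le.mpr (max_lt h3 h2))

/-- TASK N2d.  Uniqueness of leading forms at `Y = ‖η‖`. (`R` by `exists_eq` and `norm_le`; `I`: the
difference of the two residue polynomials vanishes identically.) -/
theorem LF.unique {D : Datum p n h Γ} {η : C} (h0 : η ≠ 0) (h1 : ‖η‖ < 1) {R R' : ℝ}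
    {I I' : Finset ℤ} {c c' : ℤ → C} (hL : LF D ‖η‖ R I c) (hL' : LF D ‖η‖ R' I' c') :
    R = R' ∧ I = I' := by
  obtain ⟨z, hz, hzR⟩ := hL.exists_eq h0 h1
  obtain ⟨z', hz', hzR'⟩ := hL'.exists_eq h0 h1
  have hR : R = R' := le_antisymm (hzR ▸ hL'.norm_le hz) (hzR' ▸ hL.norm_le hz')
  subst hR
  exact ⟨rfl, Finset.Subset.antisymm (N2_subset h0 h1 hL hL') (N2_subset h0 h1 hL' hL)⟩

/-- TASK N2e.  Monotonicity. (Take `N` large for both radii, `LF_of_VN`, `unique`, `gset_mono`.) -/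
theorem LF.mono {D : Datum p n h Γ} {η η' : C} (h0 : η ≠ 0) (hlt : ‖η‖ < ‖η'‖)
    (h1 : ‖η'‖ < 1) {R R' : ℝ} {I I' : Finset ℤ} {c c' : ℤ → C} (hL : LF D ‖η‖ R I c)
    (hL' : LF D ‖η'‖ R' I' c') : R < R' ∧ ∀ i ∈ I, ∀ i' ∈ I', i ≤ i' := by
  have hη0 : 0 < ‖η‖ := norm_pos_iff.mpr h0
  have h1' : ‖η‖ < 1 := hlt.trans h1
  have h0' : η' ≠ 0 := norm_pos_iff.mp (hη0.trans hlt)
  refine ⟨?_, ?_⟩
  · obtain ⟨z, hz, hzR⟩ := hL.exists_eq h0 h1'
    rw [← hzR]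
    exact hL'.norm_lt (hη0.trans hlt) (hz.trans_lt hlt)
  · obtain ⟨N, hN⟩ := N2_Qpow_lt (p := p) D.ρ0.le D.ρ1 D.h1 hη0
    obtain ⟨R₁, I₁, c₁, hL₁, -, hI₁⟩ := D.LF_of_VN h0 h1' N hN
    obtain ⟨R₂, I₂, c₂, hL₂, -, hI₂⟩ := D.LF_of_VN h0' h1 N (hN.trans hlt)
    obtain ⟨-, rfl⟩ := hL.unique h0 h1' hL₁
    obtain ⟨-, rfl⟩ := hL'.unique h0' h1 hL₂
    intro i hi i' hi'
    obtain ⟨k, rfl, hk⟩ := hI₁ i hi
    obtain ⟨k', rfl, hk'⟩ := hI₂ i' hi'
    have hcM : PowerSeries.coeff (p ^ ((n - h) * N)) (VN p h D.V N) ≠ 0 := by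
      intro hc
      have h2 := D.VN_close N (p ^ ((n - h) * N))
      rw [map_sub, PowerSeries.coeff_X_pow_self, hc, zero_sub, norm_neg, norm_one] at h2
      exact absurd h2 (not_le.mpr D.ρ1)
    have hf0 : VN p h D.V N ≠ 0 := by
      intro hc
      rw [hc, map_zero] at hcM
      exact hcM rfl
    have hs0 : 0 < ‖η‖ ^ ((p : ℝ) ^ (-(((n - h) * N : ℕ) : ℤ))) := Real.rpow_pos_of_pos hη0 _
    have hs : ‖η‖ ^ ((p : ℝ) ^ (-(((n - h) * N : ℕ) : ℤ))) <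
        ‖η'‖ ^ ((p : ℝ) ^ (-(((n - h) * N : ℕ) : ℤ))) :=
      Real.rpow_lt_rpow hη0.le hlt (N2_pow_pos _)
    have h3 : p ^ k ≤ p ^ k' := gset_mono hf0 hs0 hs hk hk'
    have h4 : k ≤ k' := (Nat.pow_le_pow_iff_right (Fact.out : p.Prime).one_lt).mp h3
    omega

/-- TASK N2f.  Scaling: in the linear regime `R^Q < ‖v‖`, from `E(p z) = [p]_H(E z) =
v E(z)^Q + O(‖E z‖^{2Q})`, `p z = z^q`. -/
theorem LF.scale {D : Datum p n h Γ} {η : C} (h0 : η ≠ 0) (h1 : ‖η‖ < 1) {R : ℝ}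
    {I : Finset ℤ} {c : ℤ → C} (hL : LF D ‖η‖ R I c)
    (hR : R ^ (p ^ h) < ‖PowerSeries.coeff 1 D.V‖) :
    LF D ‖η ^ (p ^ n)‖ (‖PowerSeries.coeff 1 D.V‖ * R ^ (p ^ h))
      (I.image fun i => i - ((n - h : ℕ) : ℤ))
      (fun i => PowerSeries.coeff 1 D.V * (c (i + ((n - h : ℕ) : ℤ))) ^ (p ^ h)) := by
  classical
  have hn : h ≤ n := D.h2.le
  have hp : p ≠ 0 := (Fact.out : p.Prime).ne_zero
  have hp0 : (p : ℝ) ≠ 0 := (N2_ppos (p := p)).ne'
  set v : C := PowerSeries.coeff 1 D.V with hv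
  have hv0 : 0 < ‖v‖ := norm_pos_iff.mpr D.V_ne
  have hRQ : 0 < R ^ (p ^ h) := pow_pos hL.Rpos _
  have hcast : ((n - h : ℕ) : ℤ) = (n : ℤ) - (h : ℤ) := by omega
  refine ⟨mul_pos hv0 hRQ, hL.ne.image _, ?_, ?_⟩
  · intro i hi
    obtain ⟨j, hj, rfl⟩ := Finset.mem_image.mp hi
    have h2 : j - ((n - h : ℕ) : ℤ) + ((n - h : ℕ) : ℤ) = j := by ring
    simp only [h2]
    have h3 := hL.norm_c j hj
    rw [norm_mul, norm_pow, mul_assoc]
    congr 1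
    rw [← h3, mul_pow]
    congr 1
    rw [norm_pow, ← Real.rpow_natCast, ← Real.rpow_natCast, ← Real.rpow_mul (norm_nonneg _),
      ← Real.rpow_mul (norm_nonneg _)]
    congr 1
    push_cast
    rw [← zpow_natCast, ← zpow_natCast, ← zpow_add₀ hp0, ← zpow_add₀ hp0, hcast]
    congr 1
    ring
  · intro z hz
    set w : Pt Γ := rt p n 1 z with hw
    have hwq : w.val ^ (p ^ n) = z.val := by
      have h2 := rt_pow (p := p) (n := n) 1 z
      rwa [mul_one] at h2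
    have hwη : ‖w.val‖ ≤ ‖η‖ := by
      rw [← hwq, norm_pow, norm_pow] at hz
      exact (pow_le_pow_iff_left₀ (norm_nonneg _) (norm_nonneg _) (pow_ne_zero _ hp)).1 hz
    have hEz : D.E z = p • D.E w := by
      rw [← map_nsmul]
      congr 1
      apply Pt.ext
      rw [D.nsmul_p_val, hwq]
    have h3 := D.norm_nsmul_p_sub_le (D.E w)
    rw [← hEz, ← hv] at h3
    have hEw : ‖(D.E w).val‖ ≤ R := hL.norm_le hwη
    have h4 : (‖(D.E w).val‖ ^ (p ^ h)) ^ 2 < ‖v‖ * R ^ (p ^ h) := by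
      have h5 : ‖(D.E w).val‖ ^ (p ^ h) ≤ R ^ (p ^ h) := pow_le_pow_left₀ (norm_nonneg _) hEw _
      calc (‖(D.E w).val‖ ^ (p ^ h)) ^ 2 ≤ (R ^ (p ^ h)) ^ 2 :=
            pow_le_pow_left₀ (pow_nonneg (norm_nonneg _) _) h5 _
        _ = R ^ (p ^ h) * R ^ (p ^ h) := sq _
        _ < ‖v‖ * R ^ (p ^ h) := mul_lt_mul_of_pos_right hR hRQ
    set S : C := ∑ i ∈ I, c i * frz p i w.val with hS
    have h6 := hL.approx w hwη
    have h7 : ∑ i ∈ I.image (fun i => i - ((n - h : ℕ) : ℤ)),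
        v * (c (i + ((n - h : ℕ) : ℤ))) ^ (p ^ h) * frz p i z.val = v * S ^ (p ^ h) := by
      rw [Finset.sum_image (fun i _ j _ hij => by simpa using hij), hS, sum_pow_char_pow,
        Finset.mul_sum]
      refine Finset.sum_congr rfl fun i _ => ?_
      have h2 : i - ((n - h : ℕ) : ℤ) + ((n - h : ℕ) : ℤ) = i := by ring
      rw [h2, mul_pow, N2_frz_pow, ← hwq, N2_frz_pow', mul_assoc]
      congr 4
      rw [hcast]
      ring
    rw [h7]
    have h8 : (D.E z).val - v * S ^ (p ^ h) =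
        ((D.E z).val - v * (D.E w).val ^ (p ^ h)) + v * ((D.E w).val - S) ^ (p ^ h) := by
      rw [sub_pow_char_pow]
      ring
    rw [h8]
    refine (IsUltrametricDist.norm_add_le_max _ _).trans_lt (max_lt (h3.trans_lt h4) ?_)
    rw [norm_mul, norm_pow]
    exact mul_lt_mul_of_pos_left (pow_lt_pow_left₀ h6 (norm_nonneg _) (pow_ne_zero _ hp)) hv0

/-- TASK N2g.  `E` is small on small balls: for `r < 1` and `ε > 0` there is `k₀` such that
`‖z‖ ≤ r^{p^k}`, `k ≥ k₀` implies `‖E z‖ ≤ ε`.  (`z = p^m z'`, `‖z'‖ ≤ r^{p^{k - nm}}`,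
`‖[p] w‖ ≤ ‖w‖^Q`, `‖E z'‖ ≤ max ‖z'‖ ρ`; take `m = k / n`.) -/
theorem Datum.E_small {r : ℝ} (hr0 : 0 < r) (hr : r < 1) {ε : ℝ} (hε : 0 < ε) :
    ∃ k₀ : ℕ, ∀ k, k₀ ≤ k → ∀ z : Pt Γ, ‖z.val‖ ≤ r ^ (p ^ k) → ‖(D.E z).val‖ ≤ ε := by
  have hn0 : 0 < n := lt_of_le_of_lt (Nat.zero_le _) D.h2
  have hp : p ≠ 0 := (Fact.out : p.Prime).ne_zero
  set t : ℝ := max r D.ρ with ht
  have ht0 : 0 ≤ t := hr0.le.trans (le_max_left _ _)
  have ht1 : t < 1 := max_lt hr D.ρ1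
  obtain ⟨m₀, hm₀⟩ := exists_pow_lt_of_lt_one hε ht1
  refine ⟨n * m₀, fun k hk z hz => ?_⟩
  set m : ℕ := k / n with hm
  have hmm : m₀ ≤ m := by
    rw [hm, Nat.le_div_iff_mul_le hn0, mul_comm]
    exact hk
  have hnm : n * m ≤ k := Nat.mul_div_le k n
  set w : Pt Γ := rt p n m z with hw
  have hwr : ‖w.val‖ ≤ r := by
    have h2 : ‖w.val‖ ^ (p ^ (n * m)) ≤ (r ^ (p ^ (k - n * m))) ^ (p ^ (n * m)) := by
      rw [← norm_pow, hw, rt_pow, ← pow_mul, ← pow_add, Nat.sub_add_cancel hnm]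
      exact hz
    have h3 := (pow_le_pow_iff_left₀ (norm_nonneg _) (pow_nonneg hr0.le _)
      (pow_ne_zero _ hp)).1 h2
    refine h3.trans ?_
    calc r ^ (p ^ (k - n * m)) ≤ r ^ 1 :=
          pow_le_pow_of_le_one hr0.le hr.le (Nat.one_le_iff_ne_zero.mpr (pow_ne_zero _ hp))
      _ = r := pow_one r
  have hEw : ‖(D.E w).val‖ ≤ t := (D.norm_E_le w).trans (max_le_max hwr le_rfl)
  have hEz : D.E z = (p ^ m) • D.E w := by
    rw [← map_nsmul, hw, D.nsmul_rt]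
  have h4 : ‖(D.E z).val‖ ≤ ‖(D.E w).val ^ (p ^ (h * m))‖ := by
    rw [hEz, D.nsmul_pow_eq]
    have hlt : ‖(D.E w).val ^ (p ^ (h * m))‖ < 1 := by
      rw [norm_pow]
      exact pow_lt_one₀ (norm_nonneg _) (D.E w).lt (pow_ne_zero _ hp)
    have h5 := norm_ev_le_mul (σ := Unit) (f := VN p h D.V m)
      (z := fun _ => (D.E w).val ^ (p ^ (h * m))) (r := ‖(D.E w).val ^ (p ^ (h * m))‖) (ε := 1)
      (D.VN_hom m).1 hlt (norm_nonneg _) (fun _ => le_rfl) zero_le_one (D.VN_int m)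
    rw [one_mul] at h5
    exact h5
  refine h4.trans ?_
  rw [norm_pow]
  calc ‖(D.E w).val‖ ^ (p ^ (h * m)) ≤ t ^ (p ^ (h * m)) := pow_le_pow_left₀ (norm_nonneg _) hEw _
    _ ≤ t ^ m₀ := by
        refine pow_le_pow_of_le_one ht0 ht1.le ?_
        have hh : 1 ≤ h := D.h1
        calc m₀ ≤ m := hmm
          _ ≤ h * m := Nat.le_mul_of_pos_left m hh
          _ ≤ p ^ (h * m) := (Nat.lt_pow_self (Fact.out : p.Prime).one_lt).le
    _ ≤ ε := hm₀.le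

end Crest.Agent.LU
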