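import Mathlib
import Crest.Agent.LU_K

/-!
S0351 (blueprint LU), task X1: algebra in a field of characteristic `p`.
-/

set_option autoImplicit false

noncomputable section

namespace Crest.Agent.LU

/-- elements with `x^p = x` are images of natural numbers -/
private theorem x1_natCast {κ : Type} [Field κ] (p : ℕ) [Fact p.Prime] [CharP κ p] {x : κ}
    (hx : x ^ p = x) : ∃ ν : ℕ, (ν : κ) = x := by
  have h1 : x ∈ (⊥ : Subfield κ) := (Subfield.mem_bot_iff_pow_eq_self κ p).2 hx
  obtain ⟨z, hz⟩ := (mem_bot_iff_intCast p κ).1 h1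
  have hp : (0 : ℤ) < p := by exact_mod_cast (Fact.out : p.Prime).pos
  refine ⟨(z % p).toNat, ?_⟩
  have h2 : (((z % p).toNat : ℤ) : κ) = ((z % (p : ℤ) : ℤ) : κ) := by
    rw [Int.toNat_of_nonneg (Int.emod_nonneg _ hp.ne')]
  rw [Int.cast_natCast] at h2
  rw [h2, ← hz]
  have h3 : z = z % p + p * (z / p) := (Int.emod_add_mul_ediv z p).symm
  conv_rhs => rw [h3]
  rw [Int.cast_add, Int.cast_mul, Int.cast_natCast, CharP.cast_eq_zero κ p, zero_mul, add_zero]

private theorem x1_moore_aux {κ : Type} [Field κ] (p : ℕ) [Fact p.Prime] [CharP κ p] {r : ℕ}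
    (b : Fin r → κ)
    (hb : ∀ ν : Fin r → ℕ, (∑ u, (ν u : κ) * b u = 0) → ∀ u, p ∣ ν u) :
    ∀ (N : ℕ) (c : Fin r → κ) (E₀ : ℕ), (Function.support c).ncard ≤ N →
      (∀ E, E₀ ≤ E → ∑ u, c u * b u ^ (p ^ E) = 0) → c = 0 := by
  classical
  intro N
  induction N with
  | zero =>
    intro c E₀ hN _
    have : (Function.support c).ncard = 0 := Nat.le_zero.1 hN
    rw [Set.ncard_eq_zero (Set.toFinite _)] at this
    exact Function.support_eq_empty_iff.1 this
  | succ N ih =>
    intro c E₀ hN h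
    by_contra hc
    obtain ⟨u0, hu0⟩ := Function.ne_iff.1 hc
    rw [Pi.zero_apply] at hu0
    set c' : Fin r → κ := fun u => c u / c u0 with hc'
    have h' : ∀ E, E₀ ≤ E → ∑ u, c' u * b u ^ (p ^ E) = 0 := by
      intro E hE
      have e : ∑ u, c' u * b u ^ (p ^ E) = (∑ u, c u * b u ^ (p ^ E)) / c u0 := by
        rw [Finset.sum_div]
        refine Finset.sum_congr rfl fun u _ => ?_
        rw [hc']
        ring
      rw [e, h E hE, zero_div]
    have hc'u0 : c' u0 = 1 := div_self hu0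
    have key : (fun u => c' u ^ p - c' u) = 0 := by
      refine ih _ (E₀ + 1) ?_ ?_
      · have hsub : Function.support (fun u => c' u ^ p - c' u) ⊆
            Function.support c \ {u0} := by
          intro u hu
          rw [Function.mem_support] at hu
          refine ⟨?_, ?_⟩
          · rw [Function.mem_support]
            intro hcu
            apply hu
            have : c' u = 0 := by rw [hc']; simp [hcu]
            rw [this, zero_pow (Fact.out : p.Prime).ne_zero, sub_zero]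
          · rw [Set.mem_singleton_iff]
            rintro rfl
            apply hu
            rw [hc'u0, one_pow, sub_self]
        have h1 := Set.ncard_le_ncard hsub (Set.toFinite _)
        have h2 := Set.ncard_sdiff_singleton_add_one (s := Function.support c) (a := u0)
          (Function.mem_support.2 hu0) (Set.toFinite _)
        omega
      · intro E hE
        obtain ⟨E', rfl⟩ : ∃ E', E = E' + 1 := ⟨E - 1, by omega⟩
        have e1 : ∑ u, (c' u ^ p) * b u ^ (p ^ (E' + 1)) = (∑ u, c' u * b u ^ (p ^ E')) ^ p := by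
          rw [sum_pow_char]
          refine Finset.sum_congr rfl fun u _ => ?_
          rw [mul_pow, pow_succ, pow_mul]
        have e2 := h' (E' + 1) (by omega)
        have e3 := h' E' (by omega)
        calc ∑ u, (c' u ^ p - c' u) * b u ^ (p ^ (E' + 1))
            = ∑ u, (c' u ^ p) * b u ^ (p ^ (E' + 1)) - ∑ u, c' u * b u ^ (p ^ (E' + 1)) := by
              rw [← Finset.sum_sub_distrib]
              exact Finset.sum_congr rfl fun u _ => by rw [sub_mul]
          _ = 0 := by rw [e1, e2, e3, zero_pow (Fact.out : p.Prime).ne_zero, sub_zero]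
    have hpow : ∀ u, c' u ^ p = c' u := by
      intro u
      have := congrFun key u
      simpa [sub_eq_zero] using this
    choose ν hν using fun u => x1_natCast p (hpow u)
    have hpowE : ∀ u, ∀ E : ℕ, c' u ^ (p ^ E) = c' u := by
      intro u E
      induction E with
      | zero => simp
      | succ E ihE => rw [pow_succ, pow_mul, ihE, hpow u]
    have hz : (∑ u, (ν u : κ) * b u) ^ (p ^ E₀) = 0 := by
      rw [sum_pow_char_pow]
      rw [← h' E₀ le_rfl]
      refine Finset.sum_congr rfl fun u _ => ?_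
      rw [mul_pow, hν u, hpowE u]
    have hz' : ∑ u, (ν u : κ) * b u = 0 := (pow_eq_zero_iff (pow_pos
      (Fact.out : p.Prime).pos E₀).ne').1 hz
    have hdvd := hb ν hz' u0
    have h0 : ((ν u0 : ℕ) : κ) = 0 := (CharP.cast_eq_zero_iff κ p _).2 hdvd
    rw [hν u0, hc'u0] at h0
    exact one_ne_zero h0

/-- TASK X1a (Moore).  If `b_1..b_r` are `F_p`-linearly independent in a field of characteristic
`p` and `Σ c_u b_u^{p^E} = 0` for all `E ≥ E₀` then `c = 0`.
Proof: suppose not; take a nonzero `c` with the fewest nonzero entries (for some `E₀`), normalised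
`c_{u₀} = 1`.  Then `Σ c_u^p b_u^{p^{E+1}} = 0` and `Σ c_u b_u^{p^{E+1}} = 0`, so
`c^p - c` is a shorter relation (for `E₀ + 1`), hence `c_u^p = c_u`, i.e. `c_u ∈ F_p` (roots of
`X^p - X`: images of `0..p-1`), and `(Σ c_u b_u)^{p^E} = 0` contradicts independence. -/
theorem moore {κ : Type} [Field κ] (p : ℕ) [Fact p.Prime] [CharP κ p] {r : ℕ} (b c : Fin r → κ)
    (hb : ∀ ν : Fin r → ℕ, (∑ u, (ν u : κ) * b u = 0) → ∀ u, p ∣ ν u) (E₀ : ℕ)
    (h : ∀ E, E₀ ≤ E → ∑ u, c u * b u ^ (p ^ E) = 0) : c = 0 :=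
  x1_moore_aux p b hb _ c E₀ le_rfl h

variable {κ : Type} [Field κ] [IsAlgClosed κ] (p : ℕ) [Fact p.Prime] [CharP κ p] {n : ℕ}

private theorem x1_pow_card (hn : 1 ≤ n) (ζ : GaloisField p n) : ζ ^ (p ^ n) = ζ := by
  have : Fintype (GaloisField p n) := Fintype.ofFinite _
  have h := FiniteField.pow_card ζ
  rwa [← Nat.card_eq_fintype_card, GaloisField.card p n (by omega)] at h

/-- TASK X1b. On the image of `F_q` the operator `frz` is periodic of period `n`. -/
theorem frz_iota_periodic (hn : 1 ≤ n) (ι : GaloisField p n →+* κ) (ζ : GaloisField p n) (i : ℤ) :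
    frz p (i + n) (ι ζ) = frz p i (ι ζ) := by
  rw [frz_add, frz_natCast, ← map_pow, x1_pow_card p hn]

/-- reduction modulo `n` -/
private theorem x1_mod (hn : 1 ≤ n) (ι : GaloisField p n →+* κ) (ζ : GaloisField p n) (i : ℤ) :
    frz p i (ι ζ) = ι ζ ^ (p ^ (i % n).toNat) := by
  have hn' : (0 : ℤ) < n := by exact_mod_cast hn
  have hper : ∀ (k : ℕ) (i : ℤ), frz p (i + n * k) (ι ζ) = frz p i (ι ζ) := by
    intro k
    induction k with
    | zero => intro i; simp
    | succ k ih =>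
      intro i
      have e : i + (n : ℤ) * ((k + 1 : ℕ) : ℤ) = (i + n * k) + n := by push_cast; ring
      rw [e, frz_iota_periodic p hn, ih]
  have hperz : ∀ (k : ℤ) (i : ℤ), frz p (i + n * k) (ι ζ) = frz p i (ι ζ) := by
    intro k i
    rcases Int.le_total 0 k with hk | hk
    · obtain ⟨m, rfl⟩ := Int.eq_ofNat_of_zero_le hk
      exact hper m i
    · obtain ⟨m, hm⟩ := Int.eq_ofNat_of_zero_le (neg_nonneg.2 hk)
      have e : i = (i + n * k) + n * (m : ℤ) := by
        rw [← hm]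
        ring
      conv_rhs => rw [e]
      rw [hper m]
  have e : i = i % n + n * (i / n) := (Int.emod_add_mul_ediv i n).symm
  conv_lhs => rw [e]
  rw [hperz, ← frz_natCast, Int.toNat_of_nonneg (Int.emod_nonneg _ hn'.ne')]

/-- the characters `ζ ↦ (ι ζ)^{p^a}` -/
private def x1_chi (ι : GaloisField p n →+* κ) (a : Fin n) : (GaloisField p n)ˣ →* κ where
  toFun ζ := ι ζ ^ (p ^ (a : ℕ))
  map_one' := by simp
  map_mul' x y := by rw [Units.val_mul, map_mul, mul_pow]

omit [IsAlgClosed κ] [CharP κ p] in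
private theorem x1_chi_inj (ι : GaloisField p n →+* κ) :
    Function.Injective (x1_chi p ι : Fin n → (GaloisField p n)ˣ →* κ) := by
  intro a a' haa
  have hn : 1 ≤ n := by have := a.2; omega
  rcases Nat.lt_or_ge n 2 with h1 | h2
  · apply Fin.ext
    have := a.2
    have := a'.2
    omega
  have : Fintype (GaloisField p n) := Fintype.ofFinite _
  have : IsCyclic (GaloisField p n)ˣ := inferInstance
  obtain ⟨g, hg⟩ := IsCyclic.exists_generator (α := (GaloisField p n)ˣ)
  have hord : orderOf g = p ^ n - 1 := by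
    rw [orderOf_eq_card_of_forall_mem_zpowers hg, Nat.card_units, GaloisField.card p n (by omega)]
  have hp2 : 2 ≤ p := (Fact.out : p.Prime).two_le
  have hlt : ∀ a : Fin n, p ^ (a : ℕ) < p ^ n - 1 := by
    intro a
    have h3 : p ^ (a : ℕ) ≤ p ^ (n - 1) := Nat.pow_le_pow_right (by omega) (by have := a.2; omega)
    have h4 : p ^ n = p ^ (n - 1) * p := by
      rw [← pow_succ]
      congr 1
      omega
    have h5 : 2 ≤ p ^ (n - 1) := by
      calc 2 ≤ p := hp2
        _ = p ^ 1 := (pow_one p).symm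
        _ ≤ p ^ (n - 1) := Nat.pow_le_pow_right (by omega) (by omega)
    have h6 : p ^ (n - 1) * 2 ≤ p ^ (n - 1) * p := Nat.mul_le_mul_left _ hp2
    omega
  have h7 : g ^ (p ^ (a : ℕ)) = g ^ (p ^ (a' : ℕ)) := by
    have := DFunLike.congr_fun haa g
    simp only [x1_chi, MonoidHom.coe_mk, OneHom.coe_mk] at this
    rw [← map_pow, ← map_pow] at this
    have := ι.injective this
    apply Units.ext
    rw [Units.val_pow_eq_pow_val, Units.val_pow_eq_pow_val]
    exact this
  have h8 := pow_injOn_Iio_orderOf (x := g) (show p ^ (a : ℕ) ∈ Set.Iio (orderOf g) by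
    rw [hord]; exact hlt a) (show p ^ (a' : ℕ) ∈ Set.Iio (orderOf g) by
    rw [hord]; exact hlt a') h7
  exact Fin.ext (Nat.pow_right_injective hp2 h8)

/-- TASK X1c (independence of characters).  If `Σ_{i ∈ I} A_i frz_i(ι ζ) = Σ_{j ∈ J} B_j frz_j(ι ζ)`
for all `ζ ∈ F_q^*`, the elements of `I` are pairwise incongruent modulo `n`, and so are those of
`J`, and `B_{j₀} ≠ 0` for some `j₀ ∈ J`, then some `i ∈ I` is congruent to `j₀` modulo `n` and
`A_i = B_{j₀}`.
Proof: the characters `χ_a(ζ) = (ι ζ)^{p^a}`, `0 ≤ a < n`, of `F_q^*` are pairwise distinct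
(`F_q^*` is cyclic of order `p^n - 1 > p^a - p^b`) hence linearly independent (Dedekind,
`linearIndependent_monoidHom`). -/
theorem characters (hn : 1 ≤ n) (ι : GaloisField p n →+* κ) (I J : Finset ℤ) (A B : ℤ → κ)
    (hI : ∀ i ∈ I, ∀ j ∈ I, (n : ℤ) ∣ i - j → i = j)
    (hJ : ∀ i ∈ J, ∀ j ∈ J, (n : ℤ) ∣ i - j → i = j)
    (h : ∀ ζ : GaloisField p n, ζ ≠ 0 →
      ∑ i ∈ I, A i * frz p i (ι ζ) = ∑ j ∈ J, B j * frz p j (ι ζ))
    {j₀ : ℤ} (hj₀ : j₀ ∈ J) (hB : B j₀ ≠ 0) :
    ∃ i ∈ I, (n : ℤ) ∣ i - j₀ ∧ A i = B j₀ := by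
  classical
  have hn' : (0 : ℤ) < n := by exact_mod_cast hn
  -- the class modulo `n`
  set cl : ℤ → Fin n := fun i => ⟨(i % n).toNat, by
    have h1 := Int.emod_lt_of_pos i hn'
    have h2 := Int.emod_nonneg i hn'.ne'
    omega⟩ with hcl
  have hclval : ∀ i, ((cl i : ℕ) : ℤ) = i % n := fun i =>
    Int.toNat_of_nonneg (Int.emod_nonneg _ hn'.ne')
  have hcl_iff : ∀ i j, cl i = cl j ↔ (n : ℤ) ∣ i - j := by
    intro i j
    rw [← Int.emod_eq_emod_iff_emod_sub_eq_zero.trans (Int.dvd_iff_emod_eq_zero (a := (n:ℤ))).symm]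
    rw [← hclval i, ← hclval j]
    constructor
    · intro h; rw [h]
    · intro h; exact Fin.ext (by exact_mod_cast h)
  have hfrz : ∀ (i : ℤ) (ζ : (GaloisField p n)ˣ), frz p i (ι ζ) = x1_chi p ι (cl i) ζ := by
    intro i ζ
    rw [x1_mod p hn]
    rfl
  have hli : LinearIndependent κ (fun a : Fin n => ((x1_chi p ι a : (GaloisField p n)ˣ →* κ) :
      (GaloisField p n)ˣ → κ)) :=
    (linearIndependent_monoidHom (GaloisField p n)ˣ κ).comp _ (x1_chi_inj p ι)
  set D : Fin n → κ := fun a => (∑ i ∈ I.filter (fun i => cl i = a), A i) -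
    ∑ j ∈ J.filter (fun j => cl j = a), B j with hD
  have hsum : ∑ a, D a • ((x1_chi p ι a : (GaloisField p n)ˣ →* κ) :
      (GaloisField p n)ˣ → κ) = 0 := by
    funext ζ
    rw [Finset.sum_apply, Pi.zero_apply]
    have hI' : ∑ a, (∑ i ∈ I.filter (fun i => cl i = a), A i) * x1_chi p ι a ζ =
        ∑ i ∈ I, A i * frz p i (ι ζ) := by
      rw [← Finset.sum_fiberwise I cl (fun i => A i * frz p i (ι ζ))]
      refine Finset.sum_congr rfl fun a _ => ?_
      rw [Finset.sum_mul]
      refine Finset.sum_congr rfl fun i hi => ?_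
      rw [Finset.mem_filter] at hi
      rw [hfrz, hi.2]
    have hJ' : ∑ a, (∑ i ∈ J.filter (fun i => cl i = a), B i) * x1_chi p ι a ζ =
        ∑ i ∈ J, B i * frz p i (ι ζ) := by
      rw [← Finset.sum_fiberwise J cl (fun i => B i * frz p i (ι ζ))]
      refine Finset.sum_congr rfl fun a _ => ?_
      rw [Finset.sum_mul]
      refine Finset.sum_congr rfl fun i hi => ?_
      rw [Finset.mem_filter] at hi
      rw [hfrz, hi.2]
    calc ∑ a, (D a • ((x1_chi p ι a : (GaloisField p n)ˣ →* κ) : (GaloisField p n)ˣ → κ)) ζ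
        = ∑ a, ((∑ i ∈ I.filter (fun i => cl i = a), A i) * x1_chi p ι a ζ -
          (∑ i ∈ J.filter (fun i => cl i = a), B i) * x1_chi p ι a ζ) := by
            refine Finset.sum_congr rfl fun a _ => ?_
            rw [Pi.smul_apply, smul_eq_mul, hD, sub_mul]
      _ = 0 := by
        rw [Finset.sum_sub_distrib, hI', hJ', h ζ ζ.ne_zero, sub_self]
  have hD0 : D (cl j₀) = 0 := by
    rw [Fintype.linearIndependent_iff] at hli
    exact hli D hsum (cl j₀)
  have hJs : J.filter (fun j => cl j = cl j₀) = {j₀} := by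
    ext j
    rw [Finset.mem_filter, Finset.mem_singleton]
    constructor
    · rintro ⟨h1, h2⟩
      exact hJ j h1 j₀ hj₀ ((hcl_iff _ _).1 h2)
    · rintro rfl
      exact ⟨hj₀, rfl⟩
  rw [hD] at hD0
  simp only at hD0
  rw [hJs, Finset.sum_singleton, sub_eq_zero] at hD0
  rcases (I.filter (fun i => cl i = cl j₀)).eq_empty_or_nonempty with he | ⟨i, hi⟩
  · rw [he, Finset.sum_empty] at hD0
    exact absurd hD0.symm hB
  · rw [Finset.mem_filter] at hi
    refine ⟨i, hi.1, (hcl_iff _ _).1 hi.2, ?_⟩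
    have hIs : I.filter (fun i => cl i = cl j₀) = {i} := by
      ext k
      rw [Finset.mem_filter, Finset.mem_singleton]
      constructor
      · rintro ⟨h1, h2⟩
        exact hI k h1 i hi.1 ((hcl_iff _ _).1 (h2.trans hi.2.symm))
      · rintro rfl
        exact hi
    rw [hIs, Finset.sum_singleton] at hD0
    exact hD0

omit [IsAlgClosed κ] [CharP κ p] in
/-- TASK X1d (covering).  `ip : ℕ → ℤ` (top exponents) with `ip (k+1) ≤ ip k` and
`ip (k+n) = ip k - d` for `k ≥ k₀`, `n = d + h`, `h ≥ 1`.  For all `m₀`, every large integer `E` is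
of the form `k + ip k + h m` with `k₀ ≤ k < k₀ + n`, `m ≥ m₀`.
Proof: `ε_k = k + ip k` satisfies `ε_{k+1} ≤ ε_k + 1`, `ε_{k+n} = ε_k + h`, so it is unbounded and
(discrete intermediate values: the least `k ≥ k₀` with `ε_k ≥ E` has `ε_k = E`) takes all values
`E ≥ ε_{k₀}`; write `k = k' + n m`. -/
theorem covering {n d h : ℕ} (hh : 1 ≤ h) (hn : n = d + h) (k₀ : ℕ) (ip : ℕ → ℤ)
    (h1 : ∀ k, k₀ ≤ k → ip (k + 1) ≤ ip k) (h2 : ∀ k, k₀ ≤ k → ip (k + n) = ip k - d) (m₀ : ℕ) :
    ∃ E₀ : ℕ, ∀ E : ℕ, E₀ ≤ E → ∃ k m : ℕ, k₀ ≤ k ∧ k < k₀ + n ∧ m₀ ≤ m ∧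
      (E : ℤ) = k + ip k + (h * m : ℕ) := by
  classical
  have hnpos : 0 < n := by omega
  have hmul : ∀ (m k : ℕ), k₀ ≤ k → ip (k + n * m) = ip k - d * m := by
    intro m
    induction m with
    | zero => intro k _; simp
    | succ m ih =>
      intro k hk
      have e : k + n * (m + 1) = (k + n * m) + n := by ring
      rw [e, h2 _ (by omega), ih k hk]
      push_cast
      ring
  have hanti : ∀ j : ℕ, ip (k₀ + j) ≤ ip k₀ := by
    intro j
    induction j with
    | zero => simp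
    | succ j ih => exact (h1 (k₀ + j) (by omega)).trans ih
  refine ⟨((k₀ : ℤ) + n * m₀ + ip k₀ + 1).toNat, fun E hE => ?_⟩
  have hE' : (k₀ : ℤ) + n * m₀ + ip k₀ + 1 ≤ E := by
    have := Int.self_le_toNat ((k₀ : ℤ) + n * m₀ + ip k₀ + 1)
    have h3 : ((((k₀ : ℤ) + n * m₀ + ip k₀ + 1).toNat : ℕ) : ℤ) ≤ E := by exact_mod_cast hE
    linarith
  -- existence of `j` with `ε (k₀ + j) ≥ E`
  have hex : ∃ j : ℕ, (E : ℤ) ≤ ((k₀ + j : ℕ) : ℤ) + ip (k₀ + j) := by
    obtain ⟨M, hM⟩ : ∃ M : ℕ, (E : ℤ) - k₀ - ip k₀ ≤ M := ⟨((E : ℤ) - k₀ - ip k₀).toNat,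
      Int.self_le_toNat _⟩
    refine ⟨n * M, ?_⟩
    rw [hmul M k₀ le_rfl, hn]
    push_cast
    have h3 : (1 : ℤ) ≤ h := by exact_mod_cast hh
    have h4 : (M : ℤ) ≤ h * M := by nlinarith
    nlinarith
  set j := Nat.find hex with hj
  have hj1 : (E : ℤ) ≤ ((k₀ + j : ℕ) : ℤ) + ip (k₀ + j) := Nat.find_spec hex
  have hj2 : ∀ i, i < j → ((k₀ + i : ℕ) : ℤ) + ip (k₀ + i) < E := fun i hi => by
    have := Nat.find_min hex hi
    push Not at this
    exact this
  -- `j ≥ n m₀`, `j ≥ 1`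
  have hjm : n * m₀ < j := by
    by_contra hcon
    push Not at hcon
    have h3 := hanti j
    have h4 : (j : ℤ) ≤ n * m₀ := by exact_mod_cast hcon
    push_cast at hj1
    linarith
  have heq : (E : ℤ) = ((k₀ + j : ℕ) : ℤ) + ip (k₀ + j) := by
    apply le_antisymm hj1
    obtain ⟨i, hi⟩ : ∃ i, j = i + 1 := ⟨j - 1, by omega⟩
    have h3 := hj2 i (by omega)
    have h4 := h1 (k₀ + i) (by omega)
    rw [hi]
    push_cast at h3 ⊢
    have h5 : k₀ + i + 1 = k₀ + (i + 1) := by ring
    rw [h5] at h4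
    linarith
  refine ⟨k₀ + j % n, j / n, by omega, ?_, ?_, ?_⟩
  · have := Nat.mod_lt j hnpos
    omega
  · rw [Nat.le_div_iff_mul_le hnpos, mul_comm]
    exact hjm.le
  · have h3 := hmul (j / n) (k₀ + j % n) (by omega)
    have h4 : k₀ + j % n + n * (j / n) = k₀ + j := by
      have := Nat.mod_add_div j n
      omega
    rw [h4] at h3
    rw [heq, h3]
    have h5 : ((k₀ + j : ℕ) : ℤ) = ((k₀ + j % n : ℕ) : ℤ) + (n : ℤ) * ((j / n : ℕ) : ℤ) := by
      rw [← h4]
      push_cast
      ring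
    rw [h5, hn]
    push_cast
    ring

end Crest.Agent.LU
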