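import Mathlib
import Crest.Agent.LU_D10
import Crest.Agent.LU_N2
import Crest.Agent.LU_X1

/-!
S0351 (blueprint LU), task X2: residues of `E(a z)` for endomorphisms `a` with leading term
`ζ X^{p^k}`.
-/

set_option autoImplicit false

noncomputable section

namespace Crest.Agent.LU

open Crest.LubinTate Filter Asymptotics

variable {p : ℕ} [Fact p.Prime] {n h : ℕ} {Γ : FormalGroup (GaloisField p n)} [Γ.IsComm]
  {C : Type} [NontriviallyNormedField C] [IsUltrametricDist C] [CompleteSpace C]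
  [IsAlgClosed C] [CharP C p]

/-- `a` is an endomorphism of `Γ` with leading term `ζ X^{p^k}`. -/
structure IsLead (Γ : FormalGroup (GaloisField p n)) (k : ℕ) (ζ : GaloisField p n)
    (a : PowerSeries (GaloisField p n)) : Prop where
  hom : IsFGHom Γ Γ a
  low : ∀ i < p ^ k, PowerSeries.coeff i a = 0
  lead : PowerSeries.coeff (p ^ k) a = ζ

section aux

omit [CompleteSpace C] [IsAlgClosed C] [CharP C p] in
private theorem X2_int {f : PowerSeries C} (h : ∀ i, ‖PowerSeries.coeff i f‖ ≤ 1) : Int1 f := by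
  intro d
  have hd : d = Finsupp.single () (d ()) := by
    ext
    simp
  rw [hd]
  exact h (d ())

omit [CompleteSpace C] [IsAlgClosed C] [CharP C p] in
private theorem X2_int' {f : PowerSeries C} (h : Int1 f) (i : ℕ) : ‖PowerSeries.coeff i f‖ ≤ 1 :=
  h (Finsupp.single () i)

omit [IsAlgClosed C] [CharP C p] in
private theorem X2_lead {f : PowerSeries C} (hf : Int1 f) {N : ℕ}
    (h0 : ∀ i < N, PowerSeries.coeff i f = 0) {z : C} (hz : ‖z‖ < 1) :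
    ‖ev1 f z - PowerSeries.coeff N f * z ^ N‖ ≤ ‖z‖ ^ (N + 1) := by
  have hzz : ∀ s : Unit, ‖(fun _ : Unit => z) s‖ < 1 := fun _ => hz
  obtain ⟨f1, hf1⟩ := PowerSeries.X_pow_dvd_iff.2 h0
  have c1 : ∀ i, PowerSeries.coeff i f1 = PowerSeries.coeff (i + N) f := by
    intro i
    rw [hf1, PowerSeries.coeff_X_pow_mul]
  have i1 : Int1 f1 := X2_int fun i => by rw [c1 i]; exact X2_int' hf _
  obtain ⟨f2, hf2⟩ := PowerSeries.X_dvd_iff.2
    (show PowerSeries.constantCoeff (f1 - PowerSeries.C (PowerSeries.coeff 0 f1)) = 0 by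
      simp)
  have c2 : ∀ i, PowerSeries.coeff i f2 = PowerSeries.coeff (i + 1) f1 := by
    intro i
    have h3 := congrArg (PowerSeries.coeff (i + 1)) hf2
    rw [PowerSeries.coeff_succ_X_mul, map_sub, PowerSeries.coeff_C, if_neg (by omega),
      sub_zero] at h3
    exact h3.symm
  have i2 : Int1 f2 := X2_int fun i => by rw [c2 i]; exact X2_int' i1 _
  have hX : Int1 (PowerSeries.X : PowerSeries C) := Int1.var (σ := Unit) ()
  have hXN : Int1 ((PowerSeries.X : PowerSeries C) ^ N) := Int1.pow hX N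
  have hCc : Int1 (PowerSeries.C (PowerSeries.coeff 0 f1) : PowerSeries C) :=
    Int1.const (σ := Unit) (X2_int' i1 0)
  have e1 : f1 = PowerSeries.C (PowerSeries.coeff 0 f1) + PowerSeries.X * f2 := by
    rw [← hf2]; ring
  have v1 : ev1 f1 z = PowerSeries.coeff 0 f1 + z * ev1 f2 z := by
    have a1 : ev1 f1 z = ev1 (PowerSeries.C (PowerSeries.coeff 0 f1) + PowerSeries.X * f2) z := by
      rw [← e1]
    rw [a1]
    have a2 : ev1 (PowerSeries.C (PowerSeries.coeff 0 f1) + PowerSeries.X * f2) z =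
        ev1 (PowerSeries.C (PowerSeries.coeff 0 f1)) z + ev1 (PowerSeries.X * f2) z :=
      ev_add (σ := Unit) hCc (Int1.mul hX i2) hzz
    have a3 : ev1 (PowerSeries.C (PowerSeries.coeff 0 f1)) z = PowerSeries.coeff 0 f1 :=
      ev_C (σ := Unit) _ _
    have a4 : ev1 (PowerSeries.X * f2) z = ev1 PowerSeries.X z * ev1 f2 z :=
      ev_mul (σ := Unit) hX i2 hzz
    rw [a2, a3, a4, ev1_X]
  have v0 : ev1 f z = z ^ N * ev1 f1 z := by
    have a4 : ev1 ((PowerSeries.X : PowerSeries C) ^ N * f1) z =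
        ev1 ((PowerSeries.X : PowerSeries C) ^ N) z * ev1 f1 z :=
      ev_mul (σ := Unit) hXN i1 hzz
    rw [ev1_X_pow N hz, ← hf1] at a4
    exact a4
  have c0 : PowerSeries.coeff 0 f1 = PowerSeries.coeff N f := by rw [c1 0, zero_add]
  have e2 : ev1 f z - PowerSeries.coeff N f * z ^ N = z ^ (N + 1) * ev1 f2 z := by
    rw [v0, v1, c0]; ring
  rw [e2, norm_mul, norm_pow]
  have h5 : ‖ev1 f2 z‖ ≤ 1 := norm_ev_le (σ := Unit) hzz zero_le_one i2
  exact mul_le_of_le_one_right (pow_nonneg (norm_nonneg _) _) h5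

end aux

/-- TASK X2a. `‖a(z) - ζ z^{p^k}‖ ≤ ‖z‖^{p^k+1}`. -/
theorem norm_act_sub_le (hn : 1 ≤ n) (ι : GaloisField p n →+* C) {k : ℕ} {ζ : GaloisField p n}
    {a : PowerSeries (GaloisField p n)} (ha : IsLead Γ k ζ a) (z : Pt (ΓC hn Γ ι)) :
    ‖(act hn ι ha.hom z).val - ι ζ * z.val ^ (p ^ k)‖ ≤ ‖z.val‖ ^ (p ^ k + 1) := by
  have e1 : (act hn ι ha.hom z).val = ev1 (PowerSeries.map ι a) z.val := rfl
  have h1 := X2_lead (f := PowerSeries.map ι a) (map_iota_int hn ι a) (N := p ^ k)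
    (fun i hi => by rw [PowerSeries.coeff_map, ha.low i hi, map_zero]) z.lt
  rw [PowerSeries.coeff_map, ha.lead] at h1
  rw [e1]
  exact h1

theorem norm_act_le (hn : 1 ≤ n) (ι : GaloisField p n →+* C) {k : ℕ} {ζ : GaloisField p n}
    {a : PowerSeries (GaloisField p n)} (ha : IsLead Γ k ζ a) (z : Pt (ΓC hn Γ ι)) :
    ‖(act hn ι ha.hom z).val‖ ≤ ‖z.val‖ ^ (p ^ k) := by
  have h1 := norm_act_sub_le hn ι ha z
  have h2 : (act hn ι ha.hom z).val =
      ((act hn ι ha.hom z).val - ι ζ * z.val ^ (p ^ k)) + ι ζ * z.val ^ (p ^ k) := by ring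
  rw [h2]
  refine (IsUltrametricDist.norm_add_le_max _ _).trans (max_le (h1.trans ?_) ?_)
  · rw [pow_succ]
    exact mul_le_of_le_one_right (pow_nonneg (norm_nonneg _) _) z.lt.le
  · rw [norm_mul, norm_pow]
    exact mul_le_of_le_one_left (pow_nonneg (norm_nonneg _) _) (norm_iota_le hn ι ζ)

/-- TASK X2b.  Residue of `E(a z)/ϖ_k`, `‖ϖ_k‖ = R` = generic size of `E` at radius `‖η‖^{p^k}`,
`‖z‖ ≤ ‖η‖`. (`LF.approx` for `a z`, then `X2a`, additivity/multiplicativity of `frz`, and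
`rs` API. Each term `c_i frz_i(w)/ϖ_k` has norm `≤ 1` for `‖w‖ ≤ ‖η‖^{p^k}`, and replacing `w` by
`w'` with `‖w - w'‖ < ‖η‖^{p^k}` does not change its residue.) -/
theorem residue_E (hn : 1 ≤ n) (ι : GaloisField p n →+* C) (D : Datum p n h (ΓC hn Γ ι))
    {η : C} (h0 : η ≠ 0) (h1 : ‖η‖ < 1) {k : ℕ} {R : ℝ} {I : Finset ℤ} {c : ℤ → C}
    (hL : LF D ‖η ^ (p ^ k)‖ R I c) {ϖk : C} (hϖk : ‖ϖk‖ = R) {ζ : GaloisField p n}
    {a : PowerSeries (GaloisField p n)} (ha : IsLead Γ k ζ a) (z : Pt (ΓC hn Γ ι))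
    (hz : ‖z.val‖ ≤ ‖η‖) :
    rs ((D.E (act hn ι ha.hom z)).val / ϖk) =
      ∑ i ∈ I, rs (c i * frz p i (η ^ (p ^ k)) / ϖk) *
        frz p i (iotaK ι (norm_iota_le hn ι) ζ) * frz p (i + k) (rs (z.val / η)) := by
  have hη : 0 < ‖η‖ := norm_pos_iff.2 h0
  have hϖ0 : 0 < ‖ϖk‖ := by rw [hϖk]; exact hL.Rpos
  have hηk : η ^ (p ^ k) ≠ 0 := pow_ne_zero _ h0
  have hηk0 : 0 < ‖η ^ (p ^ k)‖ := norm_pos_iff.2 hηk
  set w : Pt (ΓC hn Γ ι) := act hn ι ha.hom z with hw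
  have hwY : ‖w.val‖ ≤ ‖η ^ (p ^ k)‖ := by
    rw [norm_pow]
    exact (norm_act_le hn ι ha z).trans (pow_le_pow_left₀ (norm_nonneg _) hz _)
  have happ := hL.approx w hwY
  have hwη : ‖w.val / η ^ (p ^ k)‖ ≤ 1 := by
    rw [norm_div]
    exact (div_le_one hηk0).2 hwY
  have hzη : ‖z.val / η‖ ≤ 1 := by
    rw [norm_div]
    exact (div_le_one hη).2 hz
  -- the terms
  have hfr : ∀ i : ℤ, frz p i w.val = frz p i (η ^ (p ^ k)) * frz p i (w.val / η ^ (p ^ k)) := by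
    intro i
    rw [← map_mul, mul_div_cancel₀ _ hηk]
  have hci : ∀ i ∈ I, ‖c i * frz p i (η ^ (p ^ k)) / ϖk‖ ≤ 1 := by
    intro i hi
    rw [norm_div, norm_mul, norm_frz, hL.norm_c i hi, hϖk, div_self hL.Rpos.ne']
  have hfi : ∀ i : ℤ, ‖frz p i (w.val / η ^ (p ^ k))‖ ≤ 1 := by
    intro i
    rw [norm_frz]
    refine Real.rpow_le_one (norm_nonneg _) hwη ?_
    exact zpow_nonneg (Nat.cast_nonneg _) _
  have hterm : ∀ i ∈ I, c i * frz p i w.val / ϖk =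
      (c i * frz p i (η ^ (p ^ k)) / ϖk) * frz p i (w.val / η ^ (p ^ k)) := by
    intro i _
    rw [hfr i]
    ring
  have hterm1 : ∀ i ∈ I, ‖c i * frz p i w.val / ϖk‖ ≤ 1 := by
    intro i hi
    rw [hterm i hi, norm_mul]
    exact mul_le_one₀ (hci i hi) (norm_nonneg _) (hfi i)
  have hsum : (∑ i ∈ I, c i * frz p i w.val) / ϖk = ∑ i ∈ I, c i * frz p i w.val / ϖk := by
    rw [Finset.sum_div]
  have hsum1 : ‖(∑ i ∈ I, c i * frz p i w.val) / ϖk‖ ≤ 1 := by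
    rw [hsum]
    exact IsUltrametricDist.norm_sum_le_of_forall_le_of_nonneg zero_le_one hterm1
  have hE : rs ((D.E w).val / ϖk) = rs ((∑ i ∈ I, c i * frz p i w.val) / ϖk) := by
    symm
    apply rs_eq_of_lt hsum1
    rw [← sub_div, norm_div, div_lt_one hϖ0, hϖk, norm_sub_rev]
    exact happ
  rw [hE, hsum, rs_sum _ _ hterm1]
  -- the residue of `w/η^{p^k}`
  have hrw : rs (w.val / η ^ (p ^ k)) =
      iotaK ι (norm_iota_le hn ι) ζ * frz p (k : ℤ) (rs (z.val / η)) := by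
    have e1 : ‖ι ζ * (z.val / η) ^ (p ^ k)‖ ≤ 1 := by
      rw [norm_mul, norm_pow]
      exact mul_le_one₀ (norm_iota_le hn ι ζ) (pow_nonneg (norm_nonneg _) _)
        (pow_le_one₀ (norm_nonneg _) hzη)
    have e2 : rs (w.val / η ^ (p ^ k)) = rs (ι ζ * (z.val / η) ^ (p ^ k)) := by
      apply rs_eq_of_lt hwη
      have e3 : w.val / η ^ (p ^ k) - ι ζ * (z.val / η) ^ (p ^ k) =
          (w.val - ι ζ * z.val ^ (p ^ k)) / η ^ (p ^ k) := by
        rw [div_pow]; ring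
      rw [e3, norm_div, div_lt_one hηk0]
      refine (norm_act_sub_le hn ι ha z).trans_lt ?_
      rw [norm_pow]
      refine (pow_le_pow_left₀ (norm_nonneg _) hz _).trans_lt ?_
      rw [pow_succ]
      exact mul_lt_of_lt_one_right (pow_pos hη _) h1
    rw [e2, rs_mul (norm_iota_le hn ι ζ) (by rw [norm_pow]; exact pow_le_one₀ (norm_nonneg _) hzη),
      rs_pow hzη, frz_natCast]
    rfl
  apply Finset.sum_congr rfl
  intro i hi
  rw [hterm i hi, rs_mul (hci i hi) (hfi i), rs_frz p i hwη, hrw, map_mul, frz_add]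
  ring

/-- The coefficients are nonzero. -/
theorem residue_coeff_ne {hn : 1 ≤ n} {ι : GaloisField p n →+* C} {D : Datum p n h (ΓC hn Γ ι)}
    {η : C} {k : ℕ} {R : ℝ} {I : Finset ℤ} {c : ℤ → C}
    (hL : LF D ‖η ^ (p ^ k)‖ R I c) {ϖk : C} (hϖk : ‖ϖk‖ = R) {i : ℤ} (hi : i ∈ I) :
    rs (c i * frz p i (η ^ (p ^ k)) / ϖk) ≠ 0 := by
  have h1 : ‖c i * frz p i (η ^ (p ^ k)) / ϖk‖ = 1 := by
    rw [norm_div, norm_mul, norm_frz, hL.norm_c i hi, hϖk, div_self hL.Rpos.ne']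
  intro h2
  rw [rs_eq_zero_iff h1.le, h1] at h2
  exact lt_irrefl _ h2

/-- TASK X2c.  Linear combination of `Q^m`-th powers of residues, as a function of `ζ`. -/
theorem residue_comb (hn : 1 ≤ n) (ι : GaloisField p n →+* C) (D : Datum p n h (ΓC hn Γ ι))
    {η : C} (h0 : η ≠ 0) (h1 : ‖η‖ < 1) {k : ℕ} {R : ℝ} {I : Finset ℤ} {c : ℤ → C}
    (hL : LF D ‖η ^ (p ^ k)‖ R I c) {ϖk : C} (hϖk : ‖ϖk‖ = R) {ζ : GaloisField p n}
    {a : PowerSeries (GaloisField p n)} (ha : IsLead Γ k ζ a) {r : ℕ}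
    (z : Fin r → Pt (ΓC hn Γ ι)) (hz : ∀ u, ‖(z u).val‖ ≤ ‖η‖) (γ : Fin r → kap C) (m : ℕ) :
    ∑ u, γ u * rs ((D.E (act hn ι ha.hom (z u))).val / ϖk) ^ ((p ^ h) ^ m) =
      ∑ i ∈ I.image (fun i => i + ((h * m : ℕ) : ℤ)),
        (rs (c (i - ((h * m : ℕ) : ℤ)) * frz p (i - ((h * m : ℕ) : ℤ)) (η ^ (p ^ k)) / ϖk) ^
          ((p ^ h) ^ m) * ∑ u, γ u * frz p (i + k) (rs ((z u).val / η))) *
            frz p i (iotaK ι (norm_iota_le hn ι) ζ) := by
  have hpow : ∀ x : kap C, x ^ ((p ^ h) ^ m) = frz p ((h * m : ℕ) : ℤ) x := by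
    intro x
    rw [frz_natCast, ← pow_mul]
  rw [Finset.sum_image (fun a _ b _ hab => by simpa using hab)]
  simp only [add_sub_cancel_right]
  have h2 : ∀ u, γ u * rs ((D.E (act hn ι ha.hom (z u))).val / ϖk) ^ ((p ^ h) ^ m) =
      ∑ i ∈ I, (rs (c i * frz p i (η ^ (p ^ k)) / ϖk) ^ ((p ^ h) ^ m) *
        (γ u * frz p (i + ((h * m : ℕ) : ℤ) + k) (rs ((z u).val / η)))) *
          frz p (i + ((h * m : ℕ) : ℤ)) (iotaK ι (norm_iota_le hn ι) ζ) := by
    intro u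
    rw [residue_E hn ι D h0 h1 hL hϖk ha (z u) (hz u), hpow, map_sum, Finset.mul_sum]
    apply Finset.sum_congr rfl
    intro i _
    rw [map_mul, map_mul, ← hpow (rs (c i * frz p i (η ^ (p ^ k)) / ϖk)), ← frz_add, ← frz_add,
      add_comm ((h * m : ℕ) : ℤ) i, add_comm ((h * m : ℕ) : ℤ) (i + (k : ℤ)),
      add_right_comm i (k : ℤ) ((h * m : ℕ) : ℤ)]
    ring
  rw [Finset.sum_congr rfl fun u _ => h2 u, Finset.sum_comm]
  apply Finset.sum_congr rfl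
  intro i _
  rw [Finset.mul_sum, Finset.sum_mul]

/-- Length of the exponent sets in the linear regime: `max I - min I ≤ n - h < n`
(`LF.scale`, `LF.mono`, `LF.unique`). -/
theorem LF.length {hn : 1 ≤ n} {ι : GaloisField p n →+* C} {D : Datum p n h (ΓC hn Γ ι)}
    {η : C} (h0 : η ≠ 0) (h1 : ‖η‖ < 1) {R : ℝ} {I : Finset ℤ} {c : ℤ → C}
    (hL : LF D ‖η‖ R I c) (hR : R ^ (p ^ h) < ‖PowerSeries.coeff 1 D.V‖) {i j : ℤ}
    (hi : i ∈ I) (hj : j ∈ I) : i - j ≤ ((n - h : ℕ) : ℤ) := by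
  have hs := hL.scale h0 h1 hR
  have hη : 0 < ‖η‖ := norm_pos_iff.2 h0
  have hp : 1 < p ^ n := by
    have h1 := D.h1
    have h2 := D.h2
    exact Nat.one_lt_pow (by omega) (Fact.out : p.Prime).one_lt
  have hlt : ‖η ^ (p ^ n)‖ < ‖η‖ := by
    rw [norm_pow]
    calc ‖η‖ ^ (p ^ n) < ‖η‖ ^ 1 := pow_lt_pow_right_of_lt_one₀ hη h1 hp
      _ = ‖η‖ := pow_one _
  have hm := (LF.mono (pow_ne_zero _ h0) hlt h1 hs hL).2 (i - ((n - h : ℕ) : ℤ))
    (Finset.mem_image.2 ⟨i, hi, rfl⟩) j hj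
  omega

end Crest.Agent.LU
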