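import Mathlib
import Crest.Agent.LU_X2

/-!
S0351 (blueprint LU), task X3: the family at one radius; extraction of all coefficients.
-/

set_option autoImplicit false

noncomputable section

namespace Crest.Agent.LU

open Crest.LubinTate Filter Asymptotics

variable {p : ℕ} [Fact p.Prime] {n h : ℕ} {Γ : FormalGroup (GaloisField p n)} [Γ.IsComm]
  {C : Type} [NontriviallyNormedField C] [IsUltrametricDist C] [CompleteSpace C]
  [IsAlgClosed C] [CharP C p]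

/-- The data of all leading forms at the radii `‖η‖^{p^k}`, `k ≥ k₀`, in the linear regime. -/
structure LFs {hn : 1 ≤ n} {ι : GaloisField p n →+* C} (D : Datum p n h (ΓC hn Γ ι)) (η : C)
    (k₀ : ℕ) (R : ℕ → ℝ) (I : ℕ → Finset ℤ) (c : ℕ → ℤ → C) : Prop where
  ne : η ≠ 0
  lt : ‖η‖ < 1
  lf : ∀ k, k₀ ≤ k → LF D ‖η ^ (p ^ k)‖ (R k) (I k) (c k)
  lin : ∀ k, k₀ ≤ k → (R k) ^ (p ^ h) < ‖PowerSeries.coeff 1 D.V‖

/-- A family of points of size `‖η‖` with `F_p`-independent leading terms. -/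
structure Indep {F : IFG C} (η : C) {r : ℕ} (z : Fin r → Pt F) : Prop where
  le : ∀ u, ‖(z u).val‖ ≤ ‖η‖
  ind : ∀ ν : Fin r → ℕ, (∃ u, ¬ p ∣ ν u) → ‖(∑ u, ν u • z u).val‖ = ‖η‖

private theorem X3_norm_lt {η : C} (h1 : ‖η‖ < 1) (k : ℕ) : ‖η ^ (p ^ k)‖ < 1 := by
  rw [norm_pow]
  exact pow_lt_one₀ (norm_nonneg _) h1 (pow_ne_zero _ (Fact.out : p.Prime).ne_zero)

/-- TASK X3a. Existence of `LFs` for large `k₀` (`LF_of_VN`, `E_small`, `LF.exists_eq` to bound `R`). -/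
theorem exists_LFs {hn : 1 ≤ n} {ι : GaloisField p n →+* C} (D : Datum p n h (ΓC hn Γ ι))
    {η : C} (h0 : η ≠ 0) (h1 : ‖η‖ < 1) :
    ∃ (k₀ : ℕ) (R : ℕ → ℝ) (I : ℕ → Finset ℤ) (c : ℕ → ℤ → C), LFs D η k₀ R I c := by
  have hv : 0 < ‖PowerSeries.coeff 1 D.V‖ := norm_pos_iff.mpr D.V_ne
  have hv1 : ‖PowerSeries.coeff 1 D.V‖ ≤ 1 := D.V_int _
  have hpow : ∀ k : ℕ, η ^ (p ^ k) ≠ 0 ∧ ‖η ^ (p ^ k)‖ < 1 := fun k =>
    ⟨pow_ne_zero _ h0, X3_norm_lt (p := p) h1 k⟩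
  obtain ⟨k₀, hk₀⟩ := D.E_small (r := ‖η‖) (norm_pos_iff.mpr h0) h1
    (ε := ‖PowerSeries.coeff 1 D.V‖ / 2) (by positivity)
  have hQ : 1 < p ^ h := Nat.one_lt_pow (by have := D.h1; omega) (Fact.out : p.Prime).one_lt
  have hex : ∀ k : ℕ, ∃ (R : ℝ) (I : Finset ℤ) (c : ℤ → C), LF D ‖η ^ (p ^ k)‖ R I c := by
    intro k
    have hlim : Tendsto (fun N : ℕ => D.ρ ^ ((p ^ h) ^ N)) atTop (nhds 0) :=
      (tendsto_pow_atTop_nhds_zero_of_lt_one D.ρ0.le D.ρ1).comp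
        (tendsto_pow_atTop_atTop_of_one_lt hQ)
    have hev := hlim.eventually_lt_const (norm_pos_iff.mpr (hpow k).1)
    obtain ⟨N, hN⟩ := hev.exists
    obtain ⟨R, I, c, hL, -, -⟩ := D.LF_of_VN (hpow k).1 (hpow k).2 N hN
    exact ⟨R, I, c, hL⟩
  choose R I c hL using hex
  refine ⟨k₀, R, I, c, h0, h1, fun k _ => hL k, fun k hk => ?_⟩
  obtain ⟨z, hz, hzR⟩ := (hL k).exists_eq (hpow k).1 (hpow k).2
  rw [norm_pow] at hz
  have h2 := hk₀ k hk z hz
  rw [hzR] at h2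
  have hR0 : 0 < R k := (hL k).Rpos
  calc R k ^ (p ^ h) ≤ R k := by
        refine pow_le_of_le_one hR0.le ?_ (by omega)
        linarith
    _ ≤ ‖PowerSeries.coeff 1 D.V‖ / 2 := h2
    _ < ‖PowerSeries.coeff 1 D.V‖ := by linarith

/-- TASK X3b. Relations between consecutive radii: the maximum `i⁺_k` of `I k` satisfies
`i⁺_{k+1} ≤ i⁺_k`, `i⁺_{k+n} = i⁺_k - (n-h)`, and `R_{k+n} = ‖v‖ R_k^Q`.
(`‖η^{p^{k+n}}‖ = ‖(η^{p^k})^{p^n}‖`; `LF.scale`, `LF.unique`, `LF.mono`.) -/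
theorem LFs.step {hn : 1 ≤ n} {ι : GaloisField p n →+* C} {D : Datum p n h (ΓC hn Γ ι)}
    {η : C} {k₀ : ℕ} {R : ℕ → ℝ} {I : ℕ → Finset ℤ} {c : ℕ → ℤ → C} (hL : LFs D η k₀ R I c)
    {k : ℕ} (hk : k₀ ≤ k) :
    (I (k + 1)).sup' (hL.lf (k + 1) (by omega)).ne id ≤ (I k).sup' (hL.lf k hk).ne id ∧
    (I (k + n)).sup' (hL.lf (k + n) (by omega)).ne id =
      (I k).sup' (hL.lf k hk).ne id - ((n - h : ℕ) : ℤ) ∧
    R (k + n) = ‖PowerSeries.coeff 1 D.V‖ * (R k) ^ (p ^ h) := by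
  have hp : p.Prime := Fact.out
  have hne : ∀ k, η ^ (p ^ k) ≠ 0 := fun k => pow_ne_zero _ hL.ne
  have hlt : ∀ k, ‖η ^ (p ^ k)‖ < 1 := fun k => X3_norm_lt hL.lt k
  have hstep : ‖η ^ (p ^ (k + 1))‖ < ‖η ^ (p ^ k)‖ := by
    rw [pow_succ, pow_mul, norm_pow (η ^ (p ^ k))]
    exact pow_lt_self_of_lt_one₀ (norm_pos_iff.mpr (hne k)) (hlt k) hp.one_lt
  have hmono := LF.mono (hne (k + 1)) hstep (hlt k) (hL.lf (k + 1) (by omega)) (hL.lf k hk)
  have hsc := LF.scale (hne k) (hlt k) (hL.lf k hk) (hL.lin k hk)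
  rw [← pow_mul, ← pow_add] at hsc
  have huniq := LF.unique (hne (k + n)) (hlt (k + n)) (hL.lf (k + n) (by omega)) hsc
  refine ⟨?_, ?_, huniq.1⟩
  · refine Finset.sup'_le _ _ fun i hi => ?_
    obtain ⟨i', hi'⟩ := (hL.lf k hk).ne
    exact (hmono.2 i hi i' hi').trans (Finset.le_sup' id hi')
  · apply le_antisymm
    · refine Finset.sup'_le _ _ fun i hi => ?_
      rw [huniq.2, Finset.mem_image] at hi
      obtain ⟨j, hj, rfl⟩ := hi
      exact sub_le_sub_right (Finset.le_sup' id hj) _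
    · obtain ⟨j, hj, hje⟩ := Finset.exists_mem_eq_sup' (hL.lf k hk).ne id
      rw [hje]
      have hj' : j - ((n - h : ℕ) : ℤ) ∈ I (k + n) := by
        rw [huniq.2]
        exact Finset.mem_image_of_mem _ hj
      exact Finset.le_sup' id hj'

private theorem X3_nsmul_sub_le {F : IFG C} (m : ℕ) (z : Pt F) :
    ‖(m • z).val - (m : C) * z.val‖ ≤ ‖z.val‖ * ‖z.val‖ := by
  induction m with
  | zero =>
    rw [zero_smul]
    simp only [Pt.val_zero, Nat.cast_zero, zero_mul, sub_self, norm_zero]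
    positivity
  | succ m ih =>
    rw [succ_nsmul]
    have e : (m • z + z).val - ((m + 1 : ℕ) : C) * z.val =
        ((m • z + z).val - ((m • z).val + z.val)) + ((m • z).val - (m : C) * z.val) := by
      push_cast
      ring
    rw [e]
    refine (IsUltrametricDist.norm_add_le_max _ _).trans (max_le ?_ ih)
    refine (Pt.norm_add_sub_le _ _).trans ?_
    exact mul_le_mul_of_nonneg_right (Pt.norm_nsmul_le m z) (norm_nonneg _)

private theorem X3_sum_sub_le_aux {F : IFG C} {r : ℕ} (z : Fin r → Pt F) (ν : Fin r → ℕ) {s : ℝ}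
    (hs : 0 ≤ s) (hz : ∀ u, ‖(z u).val‖ ≤ s) (A : Finset (Fin r)) :
    ‖(∑ u ∈ A, ν u • z u).val - ∑ u ∈ A, (ν u : C) * (z u).val‖ ≤ s * s := by
  classical
  induction A using Finset.induction_on with
  | empty => simpa using mul_nonneg hs hs
  | insert u A hu ih =>
    rw [Finset.sum_insert hu, Finset.sum_insert hu]
    have e : (ν u • z u + ∑ x ∈ A, ν x • z x).val - ((ν u : C) * (z u).val +
        ∑ x ∈ A, (ν x : C) * (z x).val) =
        ((ν u • z u + ∑ x ∈ A, ν x • z x).val - ((ν u • z u).val + (∑ x ∈ A, ν x • z x).val)) +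
        (((ν u • z u).val - (ν u : C) * (z u).val) +
          ((∑ x ∈ A, ν x • z x).val - ∑ x ∈ A, (ν x : C) * (z x).val)) := by
      ring
    rw [e]
    refine (IsUltrametricDist.norm_add_le_max _ _).trans (max_le ?_
      ((IsUltrametricDist.norm_add_le_max _ _).trans (max_le ?_ ih)))
    · refine (Pt.norm_add_sub_le _ _).trans ?_
      exact mul_le_mul ((Pt.norm_nsmul_le _ _).trans (hz u))
        (Pt.norm_sum_le _ _ hs fun x _ => (Pt.norm_nsmul_le _ _).trans (hz x))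
        (norm_nonneg _) hs
    · exact (X3_nsmul_sub_le _ _).trans (mul_le_mul (hz u) (hz u) (norm_nonneg _) hs)

private theorem X3_sum_sub_le {F : IFG C} {r : ℕ} (z : Fin r → Pt F) (ν : Fin r → ℕ) {η : C}
    (_h1 : ‖η‖ < 1) (hz : ∀ u, ‖(z u).val‖ ≤ ‖η‖) :
    ‖(∑ u, ν u • z u).val - ∑ u, (ν u : C) * (z u).val‖ ≤ ‖η‖ * ‖η‖ :=
  X3_sum_sub_le_aux z ν (norm_nonneg _) hz _

omit [CharP C p] in
private theorem X3_rs_natCast (m : ℕ) : rs (m : C) = (m : kap C) := by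
  induction m with
  | zero => rw [Nat.cast_zero, Nat.cast_zero, rs_zero]
  | succ m ih =>
    rw [Nat.cast_succ, Nat.cast_succ, rs_add (IsUltrametricDist.norm_natCast_le_one C m)
      (by rw [norm_one]), ih, rs_one]

/-- The residues `b_u = rs(z_u/η)` of an independent family are `F_p`-linearly independent.
(`Σ ν_u z_u` (group) is congruent to `Σ ν_u z_u` (in `C`) modulo elements of norm `< ‖η‖`.) -/
theorem Indep.residues {F : IFG C} {η : C} (h0 : η ≠ 0) (h1 : ‖η‖ < 1) {r : ℕ}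
    {z : Fin r → Pt F} (hz : Indep (p := p) η z) (ν : Fin r → ℕ)
    (hν : ∑ u, (ν u : kap C) * rs ((z u).val / η) = 0) (u : Fin r) : p ∣ ν u := by
  by_contra hu
  have hη : 0 < ‖η‖ := norm_pos_iff.mpr h0
  have h2 := hz.ind ν ⟨u, hu⟩
  have h3 := X3_sum_sub_le z ν h1 hz.le
  have h4 : ‖(∑ u, (ν u : C) * (z u).val) / η‖ < 1 := by
    have hle : ∀ u, ‖(z u).val / η‖ ≤ 1 := fun u => by
      rw [norm_div]
      exact div_le_one_of_le₀ (hz.le u) hη.le
    have hnat : ∀ m : ℕ, ‖(m : C)‖ ≤ 1 := fun m => IsUltrametricDist.norm_natCast_le_one C m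
    have hle2 : ∀ u, ‖(ν u : C) * ((z u).val / η)‖ ≤ 1 := fun u => by
      rw [norm_mul]
      exact mul_le_one₀ (hnat _) (norm_nonneg _) (hle u)
    have e : (∑ u, (ν u : C) * (z u).val) / η = ∑ u, (ν u : C) * ((z u).val / η) := by
      rw [Finset.sum_div]
      exact Finset.sum_congr rfl fun u _ => by rw [mul_div_assoc]
    rw [e]
    have hs : ‖∑ u, (ν u : C) * ((z u).val / η)‖ ≤ 1 :=
      IsUltrametricDist.norm_sum_le_of_forall_le_of_nonneg zero_le_one fun u _ => hle2 u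
    rw [← rs_eq_zero_iff hs, rs_sum _ _ fun u _ => hle2 u, ← hν]
    refine Finset.sum_congr rfl fun u _ => ?_
    rw [rs_mul (hnat _) (hle u), X3_rs_natCast]
  rw [norm_div, div_lt_one hη] at h4
  have h5 : ‖(∑ u, ν u • z u).val‖ < ‖η‖ := by
    have e : (∑ u, ν u • z u).val =
        ((∑ u, ν u • z u).val - ∑ u, (ν u : C) * (z u).val) + ∑ u, (ν u : C) * (z u).val := by
      ring
    rw [e]
    refine (IsUltrametricDist.norm_add_le_max _ _).trans_lt (max_lt (h3.trans_lt ?_) h4)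
    nlinarith
  exact absurd h2 h5.ne

/-- TASK X3c. For a nonzero vector `γ` over the residue field, the top coefficients
`Σ_u γ_u frz_{i⁺_k + k + h m}(b_u)` do not all vanish: there is `k ∈ [k₀, k₀ + n)` such that
infinitely many `m` give a nonzero value.  (`covering`, `moore`, pigeonhole.) -/
theorem exists_top_ne {hn : 1 ≤ n} {ι : GaloisField p n →+* C} {D : Datum p n h (ΓC hn Γ ι)}
    {η : C} {k₀ : ℕ} {R : ℕ → ℝ} {I : ℕ → Finset ℤ} {c : ℕ → ℤ → C} (hL : LFs D η k₀ R I c)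
    {r : ℕ} {z : Fin r → Pt (ΓC hn Γ ι)} (hz : Indep (p := p) η z) {γ : Fin r → kap C}
    (hγ : γ ≠ 0) :
    ∃ (k : ℕ) (hk : k₀ ≤ k), ∃ᶠ m in atTop,
      ∑ u, γ u * frz p ((I k).sup' (hL.lf k hk).ne id + ((h * m : ℕ) : ℤ) + k)
        (rs ((z u).val / η)) ≠ 0 := by
  classical
  by_contra hcon
  push Not at hcon
  apply hγ
  set ip : ℕ → ℤ := fun k => if hk : k₀ ≤ k then (I k).sup' (hL.lf k hk).ne id else 0 with hip
  have hipk : ∀ k (hk : k₀ ≤ k), ip k = (I k).sup' (hL.lf k hk).ne id := fun k hk => by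
    simp only [hip, dif_pos hk]
  have hev : ∀ k, k₀ ≤ k → ∀ᶠ m in atTop,
      ∑ u, γ u * frz p (ip k + ((h * m : ℕ) : ℤ) + k) (rs ((z u).val / η)) = 0 := by
    intro k hk
    have := hcon k hk
    rw [hipk k hk]
    exact this
  have hall : ∀ᶠ m in atTop, ∀ k ∈ Finset.Ico k₀ (k₀ + n),
      ∑ u, γ u * frz p (ip k + ((h * m : ℕ) : ℤ) + k) (rs ((z u).val / η)) = 0 := by
    rw [Finset.eventually_all]
    intro k hk
    exact hev k (Finset.mem_Ico.mp hk).1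
  obtain ⟨m₀, hm₀⟩ := eventually_atTop.mp hall
  obtain ⟨E₀, hE₀⟩ := covering (n := n) (d := n - h) (h := h) D.h1 (by have := D.h2; omega) k₀ ip
    (fun k hk => by
      rw [hipk k hk, hipk (k + 1) (by omega)]
      exact (hL.step hk).1)
    (fun k hk => by
      rw [hipk k hk, hipk (k + n) (by omega)]
      exact (hL.step hk).2.1) m₀
  refine moore p (fun u => rs ((z u).val / η)) γ (fun ν hν u => hz.residues hL.ne hL.lt ν hν u) E₀
    fun E hE => ?_
  obtain ⟨k, m, hk, hkn, hm, hEq⟩ := hE₀ E hE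
  have h1 := hm₀ m hm k (Finset.mem_Ico.mpr ⟨hk, hkn⟩)
  rw [← h1]
  refine Finset.sum_congr rfl fun u _ => ?_
  have e : ip k + ((h * m : ℕ) : ℤ) + k = (E : ℤ) := by rw [hEq]; ring
  rw [e, frz_natCast]

/-- TASK X3d (EXTRACTION).  A relation `Σ c_u E(a z_u)^{Q^m} = o(R_k^{Q^m})` for all endomorphisms
`a` with leading term `ζ X^{p^k}`, `k ≥ k₀`, `ζ ≠ 0`, forces `c = 0`.
Proof: suppose `c ≠ 0`; divide by `c_{u₀}` of maximal norm, let `γ_u = rs(c_u/c_{u₀})`, `γ ≠ 0`.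
Let `k` be as in `exists_top_ne`, `ϖ_k` with `‖ϖ_k‖ = R_k`.  For each of the finitely many `ζ ≠ 0`
(choose an `a`, hypothesis `hend`), for large `m` the left side divided by `c_{u₀} ϖ_k^{Q^m}` has
norm `< 1`, so `Σ γ_u rs(E(a z_u)/ϖ_k)^{Q^m} = 0`; by `residue_comb` and `characters` (exponents
in `I k + h m` are pairwise incongruent mod `n` by `LF.length`) all coefficients vanish, in
particular the top one: contradiction with `exists_top_ne` (and `residue_coeff_ne`). -/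
theorem extraction {hn : 1 ≤ n} {ι : GaloisField p n →+* C} {D : Datum p n h (ΓC hn Γ ι)}
    (hend : ∀ (k : ℕ) (ζ : GaloisField p n), ∃ a, IsLead Γ k ζ a)
    {η : C} {k₀ : ℕ} {R : ℕ → ℝ} {I : ℕ → Finset ℤ} {cc : ℕ → ℤ → C}
    (hL : LFs D η k₀ R I cc) {r : ℕ} {z : Fin r → Pt (ΓC hn Γ ι)} (hz : Indep (p := p) η z)
    (c : Fin r → C)
    (hyp : ∀ k, k₀ ≤ k → ∀ (ζ : GaloisField p n), ζ ≠ 0 → ∀ (a) (ha : IsLead Γ k ζ a),
      (fun m : ℕ => ∑ u, c u * ((D.E (act hn ι ha.hom (z u))).val) ^ ((p ^ h) ^ m)) =o[atTop]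
        (fun m : ℕ => (R k) ^ ((p ^ h) ^ m))) : c = 0 := by
  classical
  by_contra hc
  obtain ⟨u₁, hu₁⟩ := Function.ne_iff.mp hc
  obtain ⟨u₀, -, hu₀⟩ := Finset.exists_max_image Finset.univ (fun u => ‖c u‖)
    ⟨u₁, Finset.mem_univ _⟩
  have hu₀' : ∀ u, ‖c u‖ ≤ ‖c u₀‖ := fun u => hu₀ u (Finset.mem_univ _)
  have hcp : 0 < ‖c u₀‖ := (norm_pos_iff.mpr hu₁).trans_le (hu₀' u₁)
  have hc0 : c u₀ ≠ 0 := norm_pos_iff.mp hcp
  have hcle : ∀ u, ‖c u / c u₀‖ ≤ 1 := fun u => by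
    rw [norm_div]
    exact div_le_one_of_le₀ (hu₀' u) hcp.le
  set γ : Fin r → kap C := fun u => rs (c u / c u₀) with hγdef
  have hγ : γ ≠ 0 := by
    intro h0
    have h1 := congrFun h0 u₀
    simp only [hγdef, div_self hc0, rs_one, Pi.zero_apply] at h1
    exact one_ne_zero h1
  obtain ⟨k, hk, hfreq⟩ := exists_top_ne hL hz hγ
  have hLk := hL.lf k hk
  have hne : η ^ (p ^ k) ≠ 0 := pow_ne_zero _ hL.ne
  have hlt : ‖η ^ (p ^ k)‖ < 1 := X3_norm_lt hL.lt k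
  obtain ⟨i₁, hi₁⟩ := hLk.ne
  set ϖk : C := cc k i₁ * frz p i₁ (η ^ (p ^ k)) with hϖdef
  have hϖk : ‖ϖk‖ = R k := by
    rw [hϖdef, norm_mul, norm_frz]
    exact hLk.norm_c i₁ hi₁
  have hϖ0 : ϖk ≠ 0 := by
    rw [← norm_pos_iff, hϖk]
    exact hLk.Rpos
  -- the residue relation
  have hrel : ∀ ζ : GaloisField p n, ζ ≠ 0 → ∀ a, IsLead Γ k ζ a → ∀ᶠ m : ℕ in atTop,
      ∑ i ∈ (I k).image (fun i => i + ((h * m : ℕ) : ℤ)),
        (rs (cc k (i - ((h * m : ℕ) : ℤ)) *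
            frz p (i - ((h * m : ℕ) : ℤ)) (η ^ (p ^ k)) / ϖk) ^
          ((p ^ h) ^ m) * ∑ u, γ u * frz p (i + k) (rs ((z u).val / η))) *
            frz p i (iotaK ι (norm_iota_le hn ι) ζ) = 0 := by
    intro ζ hζ a ha
    have ho := (hyp k hk ζ hζ a ha).def (c := ‖c u₀‖ / 2) (by positivity)
    filter_upwards [ho] with m hm
    rw [← residue_comb hn ι D hL.ne hL.lt hLk hϖk ha z hz.le γ m]
    have hE1 : ∀ u, ‖(D.E (act hn ι ha.hom (z u))).val / ϖk‖ ≤ 1 := by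
      intro u
      rw [norm_div, hϖk]
      refine div_le_one_of_le₀ (hLk.norm_le ?_) hLk.Rpos.le
      rw [norm_pow]
      exact (norm_act_le hn ι ha (z u)).trans (pow_le_pow_left₀ (norm_nonneg _) (hz.le u) _)
    have hterm : ∀ u, ‖c u / c u₀ *
        ((D.E (act hn ι ha.hom (z u))).val / ϖk) ^ ((p ^ h) ^ m)‖ ≤ 1 := by
      intro u
      rw [norm_mul, norm_pow]
      exact mul_le_one₀ (hcle u) (pow_nonneg (norm_nonneg _) _)
        (pow_le_one₀ (norm_nonneg _) (hE1 u))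
    have e1 : ∑ u, γ u * rs ((D.E (act hn ι ha.hom (z u))).val / ϖk) ^ ((p ^ h) ^ m) =
        rs (∑ u, c u / c u₀ *
          ((D.E (act hn ι ha.hom (z u))).val / ϖk) ^ ((p ^ h) ^ m)) := by
      rw [rs_sum _ _ fun u _ => hterm u]
      refine Finset.sum_congr rfl fun u _ => ?_
      rw [rs_mul (hcle u) (by
        rw [norm_pow]; exact pow_le_one₀ (norm_nonneg _) (hE1 u)), rs_pow (hE1 u)]
    have hs : ‖∑ u, c u / c u₀ *
        ((D.E (act hn ι ha.hom (z u))).val / ϖk) ^ ((p ^ h) ^ m)‖ ≤ 1 :=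
      IsUltrametricDist.norm_sum_le_of_forall_le_of_nonneg zero_le_one fun u _ => hterm u
    rw [e1, rs_eq_zero_iff hs]
    have e2 : ∑ u, c u / c u₀ *
        ((D.E (act hn ι ha.hom (z u))).val / ϖk) ^ ((p ^ h) ^ m) =
        (∑ u, c u * ((D.E (act hn ι ha.hom (z u))).val) ^ ((p ^ h) ^ m)) /
          (c u₀ * ϖk ^ ((p ^ h) ^ m)) := by
      rw [Finset.sum_div]
      refine Finset.sum_congr rfl fun u _ => ?_
      rw [div_pow, div_mul_div_comm]
    have hRm : 0 < R k ^ ((p ^ h) ^ m) := pow_pos hLk.Rpos _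
    rw [e2, norm_div, norm_mul, norm_pow, hϖk, div_lt_one (mul_pos hcp hRm)]
    refine hm.trans_lt ?_
    rw [Real.norm_of_nonneg hRm.le]
    exact mul_lt_mul_of_pos_right (by linarith) hRm
  have hfin : Finite (GaloisField p n) := inferInstance
  choose a ha using fun ζ : GaloisField p n => hend k ζ
  have hrel2 : ∀ᶠ m : ℕ in atTop, ∀ ζ : GaloisField p n, ζ ≠ 0 →
      ∑ i ∈ (I k).image (fun i => i + ((h * m : ℕ) : ℤ)),
        (rs (cc k (i - ((h * m : ℕ) : ℤ)) *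
            frz p (i - ((h * m : ℕ) : ℤ)) (η ^ (p ^ k)) / ϖk) ^
          ((p ^ h) ^ m) * ∑ u, γ u * frz p (i + k) (rs ((z u).val / η))) *
            frz p i (iotaK ι (norm_iota_le hn ι) ζ) = 0 := by
    rw [eventually_all]
    intro ζ
    by_cases hζ : ζ = 0
    · exact Eventually.of_forall fun m h0 => absurd hζ h0
    · exact (hrel ζ hζ (a ζ) (ha ζ)).mono fun m hm _ => hm
  obtain ⟨m, hm1, hm2⟩ := (hfreq.and_eventually hrel2).exists
  apply hm1
  obtain ⟨j, hj, hje⟩ := Finset.exists_mem_eq_sup' hLk.ne id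
  rw [hje]
  simp only [id]
  set B : ℤ → kap C := fun i => rs (cc k (i - ((h * m : ℕ) : ℤ)) *
            frz p (i - ((h * m : ℕ) : ℤ)) (η ^ (p ^ k)) / ϖk) ^
          ((p ^ h) ^ m) * ∑ u, γ u * frz p (i + k) (rs ((z u).val / η)) with hB
  have hlen : ∀ i ∈ I k, ∀ j ∈ I k, (n : ℤ) ∣ i - j → i = j := by
    intro i hi j hj hd
    have h1 := LF.length hne hlt hLk (hL.lin k hk) hi hj
    have h2 := LF.length hne hlt hLk (hL.lin k hk) hj hi
    have h3 := D.h1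
    have h4 := D.h2
    have h5 : |i - j| < n := by
      rw [abs_lt]
      constructor <;> omega
    have h6 := Int.eq_zero_of_abs_lt_dvd hd h5
    omega
  have hB0 : B (j + ((h * m : ℕ) : ℤ)) = 0 := by
    by_contra hBne
    obtain ⟨i, hi, -⟩ := characters p hn (iotaK ι (norm_iota_le hn ι)) ∅
      ((I k).image (fun i => i + ((h * m : ℕ) : ℤ))) (fun _ => 0) B
      (fun i hi => absurd hi (Finset.notMem_empty _))
      (by
        intro i hi i' hi' hd
        rw [Finset.mem_image] at hi hi'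
        obtain ⟨x, hx, rfl⟩ := hi
        obtain ⟨y, hy, rfl⟩ := hi'
        have := hlen x hx y hy (by
          have e : x + ((h * m : ℕ) : ℤ) - (y + ((h * m : ℕ) : ℤ)) = x - y := by ring
          rwa [e] at hd)
        rw [this])
      (fun ζ hζ => by
        rw [Finset.sum_empty]
        exact (hm2 ζ hζ).symm)
      (Finset.mem_image_of_mem _ hj) hBne
    exact absurd hi (Finset.notMem_empty _)
  rw [hB] at hB0
  simp only [add_sub_cancel_right] at hB0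
  rcases mul_eq_zero.mp hB0 with h1 | h1
  · exact absurd ((pow_eq_zero_iff
      (pow_ne_zero _ (pow_ne_zero _ (Fact.out : p.Prime).ne_zero))).mp h1)
      (residue_coeff_ne hLk hϖk hj)
  · exact h1

end Crest.Agent.LU
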