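import Mathlib
import Crest.Agent.LU_T1
import Crest.Agent.LU_X3

/-!
S0351 (blueprint LU), task F1: probes and the size of the displacement; the first step.
-/

set_option autoImplicit false

noncomputable section

namespace Crest.Agent.LU

open Crest.LubinTate Filter Asymptotics

variable {p : ℕ} [Fact p.Prime] {n : ℕ} {Γ : FormalGroup (GaloisField p n)} [Γ.IsComm]
  {H : FormalGroup (LTRing p n)} [H.IsComm]
  {C : Type} [NontriviallyNormedField C] [IsUltrametricDist C] [CompleteSpace C]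
  [IsAlgClosed C] [CharP C p]

/-- A probe attached to the endomorphism `a` (output of `probe_asym`). -/
structure IsPrb {h h' : ℕ} {P : Ideal (LTRing p n)} (S : Situ Γ H h h' P)
    {x : LTRing p n →+* C} (hx : IsPoint P x) {ι : GaloisField p n →+* C} (hι : IsOver ι x)
    (ϖ : C) (κ : ℕ → Pt (ΓC S.hn Γ ι) → C) {a : PowerSeries (GaloisField p n)}
    (ha : IsFGHom Γ Γ a) (χ : ℕ → LTRing p n →+* C) : Prop where
  probe : IsProbe H h P x χ
  asym : ∀ (N : ℕ) (y : Pt (ΓC S.hn Γ ι)), y ∈ (mkD S hx hι).T →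
    ∃ (t ε : ℕ → C), (∀ᶠ m in atTop, t m ∈ rts (VN p h (VS H h (χ m)) N)) ∧
      Tendsto t atTop (nhds ((mkD S hx hι).U N y)) ∧ Tendsto ε atTop (nhds 0) ∧
      (fun m => t m - (mkD S hx hι).U N y -
        κ N y * (ϖ * ((mkD S hx hι).E (act S.hn ι ha y)).val) ^ ((p ^ h) ^ m) *
          (1 + ε m)) =O[atTop] (fun m => (del H h x (χ m)) ^ (p ^ (h * N)))

/-- All endomorphisms in the linear regime have probes (conclusion of `probe_asym`). -/
def HasPrb {h h' : ℕ} {P : Ideal (LTRing p n)} (S : Situ Γ H h h' P)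
    {x : LTRing p n →+* C} (hx : IsPoint P x) {ι : GaloisField p n →+* C} (hι : IsOver ι x)
    (ϖ : C) (κ : ℕ → Pt (ΓC S.hn Γ ι) → C) : Prop :=
  ∀ (a : PowerSeries (GaloisField p n)) (ha : IsFGHom Γ Γ a),
    (∀ y ∈ (mkD S hx hι).T,
      ‖((mkD S hx hι).E (act S.hn ι ha y)).val‖ ^ (p ^ h) < ‖x (vv H h)‖) →
    ∃ χ : ℕ → LTRing p n →+* C, IsPrb S hx hι ϖ κ ha χ

variable {h h' : ℕ} {P : Ideal (LTRing p n)} {S : Situ Γ H h h' P}
  {x : LTRing p n →+* C} {hx : IsPoint P x} {ι : GaloisField p n →+* C} {hι : IsOver ι x}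
  {ϖ : C} {κ : ℕ → Pt (ΓC S.hn Γ ι) → C}

/-- TASK F1a.  Endomorphisms with leading term `ζ X^{p^k}`, `k ≥ k₀`, have probes: by `norm_act_le`
`‖a y‖ ≤ ‖η‖^{p^k}` so `‖E(a y)‖ ≤ R_k` (`LF.norm_le`) and `R_k^Q < ‖v‖` (`LFs.lin`;
`coeff 1 (VS H h x) = x (vv H h)`). -/
theorem exists_prb (hP : HasPrb S hx hι ϖ κ) {η : C}
    (hmax : ∀ y ∈ (mkD S hx hι).T, ‖y.val‖ ≤ ‖η‖) {k₀ : ℕ} {R : ℕ → ℝ} {I : ℕ → Finset ℤ}
    {c : ℕ → ℤ → C} (hL : LFs (mkD S hx hι) η k₀ R I c) {k : ℕ} (hk : k₀ ≤ k)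
    {ζ : GaloisField p n} {a : PowerSeries (GaloisField p n)} (ha : IsLead Γ k ζ a) :
    ∃ χ : ℕ → LTRing p n →+* C, IsPrb S hx hι ϖ κ ha.hom χ := by
  refine hP a ha.hom fun y hy => ?_
  have h0 := coeff_VS (H := H) (h := h) (x := x) 0
  rw [pow_zero, add_zero] at h0
  have h1 : ‖(act S.hn ι ha.hom y).val‖ ≤ ‖η ^ (p ^ k)‖ := by
    refine (norm_act_le S.hn ι ha y).trans ?_
    rw [norm_pow]
    exact pow_le_pow_left₀ (norm_nonneg _) (hmax y hy) _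
  have h2 : ‖((mkD S hx hι).E (act S.hn ι ha.hom y)).val‖ ≤ R k := (hL.lf k hk).norm_le h1
  have h3 := hL.lin k hk
  have h4 : (mkD S hx hι).V = VS H h x := rfl
  rw [h4, h0] at h3
  exact (pow_le_pow_left₀ (norm_nonneg _) h2 _).trans_lt h3

end Crest.Agent.LU
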