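import Mathlib
import Crest.Agent.LU_F1

/-!
S0351 (blueprint LU), task F1b: size of the displacement.
-/

set_option autoImplicit false

noncomputable section

namespace Crest.Agent.LU

open Crest.LubinTate Filter Asymptotics

variable {p : ℕ} [Fact p.Prime] {n : ℕ} {Γ : FormalGroup (GaloisField p n)} [Γ.IsComm]
  {H : FormalGroup (LTRing p n)} [H.IsComm]
  {C : Type} [NontriviallyNormedField C] [IsUltrametricDist C] [CompleteSpace C]
  [IsAlgClosed C] [CharP C p]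
  {h h' : ℕ} {P : Ideal (LTRing p n)} {S : Situ Γ H h h' P}
  {x : LTRing p n →+* C} {hx : IsPoint P x} {ι : GaloisField p n →+* C} {hι : IsOver ι x}
  {ϖ : C} {κ : ℕ → Pt (ΓC S.hn Γ ι) → C}

/-- TASK F1b.  The displacement of the point is `O((‖ϖ‖R_k)^{Q^m})`.
Proof: by `exists_U_eq` (N = 1, `VN_one`) every root `τ` of `V_x` is `U_1(y_τ)`, `y_τ ∈ T`; take
`t_τ` from `asym`.  `‖t_τ - τ‖ = O((‖ϖ‖R_k)^{Q^m}) + O(δ_m^Q)` (`‖E(a y)‖ ≤ R_k`).  By `bb3` (the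
family `t` is a `RootSeq`) `δ_m ≤ K max_τ ‖t_τ - τ‖` eventually; finitely many `τ` (`bb4`), `Q ≥ 2`
and `δ_m → 0`, so the term `K K' δ_m^Q ≤ δ_m / 2` is absorbed. -/
theorem del_bound {η : C} (hmax : ∀ y ∈ (mkD S hx hι).T, ‖y.val‖ ≤ ‖η‖) {k₀ : ℕ}
    {R : ℕ → ℝ} {I : ℕ → Finset ℤ} {c : ℕ → ℤ → C} (hL : LFs (mkD S hx hι) η k₀ R I c)
    {k : ℕ} (hk : k₀ ≤ k) {ζ : GaloisField p n} {a : PowerSeries (GaloisField p n)}
    (ha : IsLead Γ k ζ a) {χ : ℕ → LTRing p n →+* C} (hχ : IsPrb S hx hι ϖ κ ha.hom χ) :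
    (fun m => del H h x (χ m)) =O[atTop] (fun m : ℕ => (‖ϖ‖ * R k) ^ ((p ^ h) ^ m)) := by
  have hp := (Fact.out : p.Prime)
  have hQ2 : 2 ≤ p ^ h := by
    calc 2 ≤ p := hp.two_le
      _ = p ^ 1 := (pow_one p).symm
      _ ≤ p ^ h := Nat.pow_le_pow_right hp.pos S.h1
  have hLk := hL.lf k hk
  have hRpos : 0 < R k := hLk.Rpos
  have hB0 : ∀ m : ℕ, 0 ≤ (‖ϖ‖ * R k) ^ ((p ^ h) ^ m) := fun m =>
    pow_nonneg (mul_nonneg (norm_nonneg _) hRpos.le) _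
  have hδ0 : ∀ m, 0 ≤ del H h x (χ m) := fun m => Real.iSup_nonneg fun j => norm_nonneg _
  -- the values `E (a y)` are bounded by `R k`
  have hEa : ∀ y ∈ (mkD S hx hι).T, ‖((mkD S hx hι).E (act S.hn ι ha.hom y)).val‖ ≤ R k := by
    intro y hy
    refine hLk.norm_le ?_
    rw [norm_pow]
    exact (norm_act_le S.hn ι ha y).trans (pow_le_pow_left₀ (norm_nonneg _) (hmax y hy) _)
  -- the points `y_τ`
  have hex : ∀ τ : rts (VS H h x), ∃ y ∈ (mkD S hx hι).T, (mkD S hx hι).U 1 y = (τ : C) := by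
    intro τ
    refine exists_U_eq S hx hι 1 ?_
    rw [VN_one]
    exact τ.2
  choose y hyT hyU using hex
  choose t ε h1 h2 h3 h4 using fun τ : rts (VS H h x) => hχ.asym 1 (y τ) (hyT τ)
  have hroot : RootSeq H h χ (fun τ : rts (VS H h x) => (τ : C)) (fun m τ => t τ m) := by
    refine ⟨fun τ => (h1 τ).mono fun m hm => by rwa [VN_one] at hm, fun τ => ?_⟩
    have := h2 τ
    rwa [hyU τ] at this
  obtain ⟨K, hK⟩ := bb3 S hx hχ.probe (fun m τ => t τ m) hroot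
  have hfin : (rts (VS H h x)).Finite := by
    have := (bb4 S hx 1).1
    rwa [VN_one] at this
  haveI : Finite (rts (VS H h x)) := hfin
  -- estimate for one root
  have hone : ∀ τ : rts (VS H h x), ∃ c : ℝ, ∀ᶠ m in atTop, ‖t τ m - (τ : C)‖ ≤
      c * ((‖ϖ‖ * R k) ^ ((p ^ h) ^ m) + (del H h x (χ m)) ^ (p ^ h)) := by
    intro τ
    obtain ⟨c, hc0, hc⟩ := (h4 τ).exists_pos
    refine ⟨c + ‖κ 1 (y τ)‖, ?_⟩
    have hε := (tendsto_zero_iff_norm_tendsto_zero.1 (h3 τ)).eventually_le_const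
      (zero_lt_one : (0 : ℝ) < 1)
    filter_upwards [hc.bound, hε] with m hm hm2
    rw [mul_one] at hm
    have e1 : t τ m - (τ : C) = (t τ m - (mkD S hx hι).U 1 (y τ) -
        κ 1 (y τ) * (ϖ * ((mkD S hx hι).E (act S.hn ι ha.hom (y τ))).val) ^ ((p ^ h) ^ m) *
          (1 + ε τ m)) +
        κ 1 (y τ) * (ϖ * ((mkD S hx hι).E (act S.hn ι ha.hom (y τ))).val) ^ ((p ^ h) ^ m) *
          (1 + ε τ m) := by
      rw [hyU τ]; ring
    have hd : ‖(del H h x (χ m)) ^ (p ^ h)‖ = (del H h x (χ m)) ^ (p ^ h) := by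
      rw [Real.norm_eq_abs, abs_of_nonneg (pow_nonneg (hδ0 m) _)]
    have e2 : ‖κ 1 (y τ) * (ϖ * ((mkD S hx hι).E (act S.hn ι ha.hom (y τ))).val) ^
        ((p ^ h) ^ m) * (1 + ε τ m)‖ ≤ ‖κ 1 (y τ)‖ * (‖ϖ‖ * R k) ^ ((p ^ h) ^ m) := by
      rw [norm_mul, norm_mul, norm_pow, norm_mul]
      have a1 : ‖1 + ε τ m‖ ≤ 1 :=
        (IsUltrametricDist.norm_add_le_max _ _).trans (max_le norm_one.le hm2)
      have a2 : (‖ϖ‖ * ‖((mkD S hx hι).E (act S.hn ι ha.hom (y τ))).val‖) ^ ((p ^ h) ^ m) ≤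
          (‖ϖ‖ * R k) ^ ((p ^ h) ^ m) :=
        pow_le_pow_left₀ (by positivity)
          (mul_le_mul_of_nonneg_left (hEa (y τ) (hyT τ)) (norm_nonneg _)) _
      calc _ ≤ ‖κ 1 (y τ)‖ * (‖ϖ‖ * R k) ^ ((p ^ h) ^ m) * 1 :=
            mul_le_mul (mul_le_mul_of_nonneg_left a2 (norm_nonneg _)) a1 (norm_nonneg _)
              (mul_nonneg (norm_nonneg _) (hB0 m))
        _ = _ := mul_one _
    rw [hd] at hm
    have e3 := (norm_add_le (t τ m - (mkD S hx hι).U 1 (y τ) -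
        κ 1 (y τ) * (ϖ * ((mkD S hx hι).E (act S.hn ι ha.hom (y τ))).val) ^ ((p ^ h) ^ m) *
          (1 + ε τ m))
        (κ 1 (y τ) * (ϖ * ((mkD S hx hι).E (act S.hn ι ha.hom (y τ))).val) ^ ((p ^ h) ^ m) *
          (1 + ε τ m))).trans (add_le_add hm e2)
    rw [← e1] at e3
    refine e3.trans ?_
    have hB := hB0 m
    have hD := pow_nonneg (hδ0 m) (p ^ h)
    have hk0 := norm_nonneg (κ 1 (y τ))
    nlinarith [mul_nonneg hc0.le hB, mul_nonneg hk0 hD]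
  choose c hc using hone
  obtain ⟨M, hM⟩ := (Set.finite_range c).bddAbove
  have hM' : ∀ τ, c τ ≤ M := fun τ => hM ⟨τ, rfl⟩
  set A : ℝ := |K| * |M| with hA
  have hA0 : 0 ≤ A := mul_nonneg (abs_nonneg _) (abs_nonneg _)
  have hlim : Tendsto (fun m => A * (del H h x (χ m)) ^ (p ^ h - 1)) atTop (nhds 0) := by
    have h5 := (hχ.probe.tendsto.pow (p ^ h - 1)).const_mul A
    rwa [zero_pow (by omega), mul_zero] at h5
  refine IsBigO.of_bound (2 * A) ?_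
  filter_upwards [hK, eventually_all.2 hc,
    hlim.eventually_le_const (show (0 : ℝ) < 1 / 2 by norm_num)] with m hm1 hm2 hm3
  obtain ⟨τ, hτ⟩ := hm1
  set B : ℝ := (‖ϖ‖ * R k) ^ ((p ^ h) ^ m) with hBdef
  set δ : ℝ := del H h x (χ m) with hδdef
  have hδ : 0 ≤ δ := hδ0 m
  have hB : 0 ≤ B := hB0 m
  rw [Real.norm_eq_abs, Real.norm_eq_abs, abs_of_nonneg hδ, abs_of_nonneg hB]
  have h6 : ‖t τ m - (τ : C)‖ ≤ |M| * (B + δ ^ (p ^ h)) := by
    refine (hm2 τ).trans (mul_le_mul_of_nonneg_right ((hM' τ).trans (le_abs_self M)) ?_)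
    exact add_nonneg hB (pow_nonneg hδ _)
  have h7 : δ ≤ A * (B + δ ^ (p ^ h)) := by
    refine hτ.trans ?_
    calc K * ‖t τ m - (τ : C)‖ ≤ |K| * ‖t τ m - (τ : C)‖ :=
          mul_le_mul_of_nonneg_right (le_abs_self K) (norm_nonneg _)
      _ ≤ |K| * (|M| * (B + δ ^ (p ^ h))) := mul_le_mul_of_nonneg_left h6 (abs_nonneg _)
      _ = A * (B + δ ^ (p ^ h)) := by rw [hA]; ring
  have h8 : δ ^ (p ^ h) = δ ^ (p ^ h - 1) * δ := by
    rw [← pow_succ]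
    congr 1
    omega
  have h9 : A * δ ^ (p ^ h) ≤ 1 / 2 * δ := by
    rw [h8, ← mul_assoc]
    exact mul_le_mul_of_nonneg_right hm3 hδ
  nlinarith [h7, h9]

end Crest.Agent.LU
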