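import Mathlib
import Crest.Agent.LU_F1b

/-!
S0351 (blueprint LU), task F1c: expansion of the displacement.
-/

set_option autoImplicit false

noncomputable section

namespace Crest.Agent.LU

open Crest.LubinTate Filter Asymptotics

variable {p : ℕ} [Fact p.Prime] {n : ℕ} {Γ : FormalGroup (GaloisField p n)} [Γ.IsComm]
  {H : FormalGroup (LTRing p n)} [H.IsComm]
  {C : Type} [NontriviallyNormedField C] [IsUltrametricDist C] [CompleteSpace C]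
  [IsAlgClosed C] [CharP C p]
  {h h' : ℕ} {P : Ideal (LTRing p n)} {S : Situ Γ H h h' P}
  {x : LTRing p n →+* C} {hx : IsPoint P x} {ι : GaloisField p n →+* C} {hι : IsOver ι x}
  {ϖ : C} {κ : ℕ → Pt (ΓC S.hn Γ ι) → C}

private theorem F1c_pow_tendsto {Q : ℕ} (hQ : 1 < Q) {b : ℝ} (hb0 : 0 ≤ b) (hb1 : b < 1) :
    Tendsto (fun m : ℕ => b ^ (Q ^ m)) atTop (nhds 0) :=
  (tendsto_pow_atTop_nhds_zero_of_lt_one hb0 hb1).comp (tendsto_pow_atTop_atTop_of_one_lt hQ)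

private theorem F1c_little {ρ : ℕ → ℝ} (hρ : Tendsto ρ atTop (nhds 0)) {K : ℕ} (hK : 2 ≤ K) :
    (fun m => (ρ m) ^ K) =o[atTop] ρ := by
  have h1 : (fun m => (ρ m) ^ (K - 1)) =o[atTop] (fun _ : ℕ => (1 : ℝ)) := by
    rw [isLittleO_one_iff]
    have h2 := hρ.pow (K - 1)
    rwa [zero_pow (by omega)] at h2
  have h3 := h1.mul_isBigO (isBigO_refl ρ atTop)
  refine (h3.congr (fun m => ?_) (fun m => ?_))
  · rw [← pow_succ]
    congr 1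
    omega
  · rw [one_mul]

/-- TASK F1c.  Expansion with errors measured by `(‖ϖ‖R_k)^{Q^m}`:  for `y ∈ T`, `N ≥ 1` there is a
root sequence `t` of `V^{[N]}` with `t → U_N(y)` and
`t - U_N(y) - κ (ϖ E(a y))^{Q^m} = o((‖ϖ‖R_k)^{Q^m})`; and more precisely with `ε → 0`,
`t - U_N(y) - κ (ϖ E(a y))^{Q^m} (1 + ε) = O(((‖ϖ‖R_k)^{Q^m})^{Q^N})`.
(`0 < ‖ϖ‖ R_k < 1`, as `ϖ ≠ 0`, `‖ϖ‖ < 1`, `R_k ≤ 1`.) -/
theorem expansion (hϖ0 : ϖ ≠ 0) (hϖ1 : ‖ϖ‖ < 1) {η : C}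
    (hmax : ∀ y ∈ (mkD S hx hι).T, ‖y.val‖ ≤ ‖η‖) {k₀ : ℕ}
    {R : ℕ → ℝ} {I : ℕ → Finset ℤ} {c : ℕ → ℤ → C} (hL : LFs (mkD S hx hι) η k₀ R I c)
    {k : ℕ} (hk : k₀ ≤ k) {ζ : GaloisField p n} {a : PowerSeries (GaloisField p n)}
    (ha : IsLead Γ k ζ a) {χ : ℕ → LTRing p n →+* C} (hχ : IsPrb S hx hι ϖ κ ha.hom χ)
    {N : ℕ} (hN : 1 ≤ N) {y : Pt (ΓC S.hn Γ ι)} (hy : y ∈ (mkD S hx hι).T) :
    ∃ (t ε : ℕ → C), (∀ᶠ m in atTop, t m ∈ rts (VN p h (VS H h (χ m)) N)) ∧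
      Tendsto t atTop (nhds ((mkD S hx hι).U N y)) ∧ Tendsto ε atTop (nhds 0) ∧
      (fun m => t m - (mkD S hx hι).U N y -
        κ N y * (ϖ * ((mkD S hx hι).E (act S.hn ι ha.hom y)).val) ^ ((p ^ h) ^ m))
          =o[atTop] (fun m : ℕ => (‖ϖ‖ * R k) ^ ((p ^ h) ^ m)) ∧
      (fun m => t m - (mkD S hx hι).U N y -
        κ N y * (ϖ * ((mkD S hx hι).E (act S.hn ι ha.hom y)).val) ^ ((p ^ h) ^ m) * (1 + ε m))
          =O[atTop] (fun m : ℕ => ((‖ϖ‖ * R k) ^ ((p ^ h) ^ m)) ^ (p ^ (h * N))) := by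
  have hp : p.Prime := Fact.out
  have hQ : 1 < p ^ h := Nat.one_lt_pow (by have := S.h1; omega) hp.one_lt
  have hK : 2 ≤ p ^ (h * N) := by
    have h5 : 1 < p ^ (h * N) := Nat.one_lt_pow (by
      have := S.h1
      have h6 : 0 < h * N := Nat.mul_pos (by omega) (by omega)
      omega) hp.one_lt
    omega
  have hR0 : 0 < R k := (hL.lf k hk).Rpos
  have hR1 : R k < 1 := by
    by_contra hcon
    have h5 : (1 : ℝ) ≤ R k ^ (p ^ h) := one_le_pow₀ (not_lt.1 hcon)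
    have h6 := hL.lin k hk
    have h7 : ‖PowerSeries.coeff 1 (mkD S hx hι).V‖ ≤ 1 := (mkD S hx hι).V_int _
    linarith
  have hϖpos : 0 < ‖ϖ‖ := norm_pos_iff.2 hϖ0
  have hb0 : 0 < ‖ϖ‖ * R k := mul_pos hϖpos hR0
  have hb1 : ‖ϖ‖ * R k < 1 := by nlinarith
  have hρ := F1c_pow_tendsto hQ hb0.le hb1
  have hE : ‖((mkD S hx hι).E (act S.hn ι ha.hom y)).val‖ ≤ R k := by
    refine (hL.lf k hk).norm_le ?_
    rw [norm_pow]
    exact (norm_act_le S.hn ι ha y).trans (pow_le_pow_left₀ (norm_nonneg _) (hmax y hy) _)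
  obtain ⟨t, ε, h1, h2, h3, h4⟩ := hχ.asym N y hy
  have hdel := (del_bound hmax hL hk ha hχ).pow (p ^ (h * N))
  have h5 : (fun m => t m - (mkD S hx hι).U N y -
        κ N y * (ϖ * ((mkD S hx hι).E (act S.hn ι ha.hom y)).val) ^ ((p ^ h) ^ m) * (1 + ε m))
          =O[atTop] (fun m : ℕ => ((‖ϖ‖ * R k) ^ ((p ^ h) ^ m)) ^ (p ^ (h * N))) :=
    h4.trans hdel
  refine ⟨t, ε, h1, h2, h3, ?_, h5⟩
  have h6 := h5.trans_isLittleO (F1c_little hρ hK)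
  have h7 : (fun m => κ N y * (ϖ * ((mkD S hx hι).E (act S.hn ι ha.hom y)).val) ^ ((p ^ h) ^ m))
      =O[atTop] (fun m : ℕ => (‖ϖ‖ * R k) ^ ((p ^ h) ^ m)) := by
    refine IsBigO.of_bound ‖κ N y‖ (Eventually.of_forall fun m => ?_)
    rw [norm_mul, norm_pow, norm_mul, norm_pow, Real.norm_of_nonneg hb0.le]
    refine mul_le_mul_of_nonneg_left ?_ (norm_nonneg _)
    refine pow_le_pow_left₀ (by positivity) ?_ _
    exact mul_le_mul_of_nonneg_left hE hϖpos.le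
  have h8 : (fun m => κ N y * (ϖ * ((mkD S hx hι).E (act S.hn ι ha.hom y)).val) ^ ((p ^ h) ^ m)
      * ε m) =o[atTop] (fun m : ℕ => (‖ϖ‖ * R k) ^ ((p ^ h) ^ m)) := by
    have h9 : ε =o[atTop] (fun _ : ℕ => (1 : ℝ)) := by
      rw [isLittleO_one_iff]
      exact h3
    refine (h7.mul_isLittleO h9).congr (fun m => rfl) (fun m => ?_)
    rw [mul_one]
  refine (h6.add h8).congr (fun m => ?_) (fun m => rfl)
  ring

end Crest.Agent.LU
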