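import Mathlib
import Crest.Agent.LU_T1
import Crest.Agent.LU_X3

/-!
S0351 (blueprint LU), task T2: a basis of the last slope group of the Tate module.
-/

set_option autoImplicit false

noncomputable section

namespace Crest.Agent.LU

open Crest.LubinTate

variable {p : ℕ} [Fact p.Prime] {n : ℕ} {Γ : FormalGroup (GaloisField p n)} [Γ.IsComm]
  {H : FormalGroup (LTRing p n)} [H.IsComm]
  {C : Type} [NontriviallyNormedField C] [IsUltrametricDist C] [CompleteSpace C]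
  [IsAlgClosed C] [CharP C p]

/-- A basis of the last slope group: `η` is the maximal size in `T`, `z` a family in `T` with
independent leading terms spanning `T` modulo smaller elements. -/
structure SlopeBasis {F : IFG C} (T : AddSubgroup (Pt F)) (p : ℕ) (η : C) {r : ℕ}
    (z : Fin r → Pt F) : Prop where
  ne : η ≠ 0
  lt : ‖η‖ < 1
  max : ∀ y ∈ T, ‖y.val‖ ≤ ‖η‖
  mem : ∀ u, z u ∈ T
  indep : Indep (p := p) η z
  span : ∀ y ∈ T, ∃ ν : Fin r → ℕ, ‖(y - ∑ u, ν u • z u).val‖ < ‖η‖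

omit [IsUltrametricDist C] [CompleteSpace C] in
private theorem T2_frob_inj (k : ℕ) {a b : C} (hab : a ^ (p ^ k) = b ^ (p ^ k)) : a = b := by
  have h1 : (iterateFrobeniusEquiv C p k) a = (iterateFrobeniusEquiv C p k) b := by
    rw [iterateFrobeniusEquiv_def, iterateFrobeniusEquiv_def]
    exact hab
  exact (iterateFrobeniusEquiv C p k).injective h1

/-- the subgroup of elements of size `< c` -/
private def T2sub {F : IFG C} (T : AddSubgroup (Pt F)) {c : ℝ} (hc : 0 < c) : AddSubgroup T where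
  carrier := {y | ‖y.1.val‖ < c}
  add_mem' := by
    intro a b ha hb
    exact (Pt.norm_add_le a.1 b.1).trans_lt (max_lt ha hb)
  zero_mem' := by
    show ‖(0 : Pt F).val‖ < c
    simpa using hc
  neg_mem' := by
    intro a ha
    show ‖(-a.1).val‖ < c
    rw [Pt.norm_neg]
    exact ha

private theorem T2_mem {F : IFG C} {T : AddSubgroup (Pt F)} {c : ℝ} {hc : 0 < c} {y : T} :
    y ∈ T2sub T hc ↔ ‖y.1.val‖ < c := Iff.rfl

private theorem T2_elem0 {p : ℕ} [Fact p.Prime] {V : Type} [AddCommGroup V] [Finite V]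
    [Module (ZMod p) V] :
    ∃ (r : ℕ) (b : Fin r → V), Nat.card V = p ^ r ∧
      (∀ ν : Fin r → ℕ, ∑ u, ν u • b u = 0 → ∀ u, p ∣ ν u) ∧
      (∀ v, ∃ ν : Fin r → ℕ, v = ∑ u, ν u • b u) := by
  classical
  have hcard := (FiniteField.pow_finrank_eq_natCard p V).symm
  refine ⟨_, fun u => Module.finBasis (ZMod p) V u, hcard, ?_, ?_⟩
  · intro ν hν u
    have h2 : ∑ u, (ν u : ZMod p) • Module.finBasis (ZMod p) V u = 0 := by
      rw [← hν]
      exact Finset.sum_congr rfl fun u _ => Nat.cast_smul_eq_nsmul _ _ _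
    have h3 := (Fintype.linearIndependent_iff.1 (Module.finBasis (ZMod p) V).linearIndependent)
      _ h2 u
    exact (ZMod.natCast_eq_zero_iff _ _).1 h3
  · intro v
    refine ⟨fun u => ((Module.finBasis (ZMod p) V).repr v u).val, ?_⟩
    conv_lhs => rw [← (Module.finBasis (ZMod p) V).sum_repr v]
    refine Finset.sum_congr rfl fun u _ => ?_
    rw [← Nat.cast_smul_eq_nsmul (ZMod p), ZMod.natCast_zmod_val]

/-- elementary abelian groups have bases. -/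
private theorem T2_elem {p : ℕ} [Fact p.Prime] {V : Type} [AddCommGroup V] [Finite V]
    (hp : ∀ v : V, p • v = 0) :
    ∃ (r : ℕ) (b : Fin r → V), Nat.card V = p ^ r ∧
      (∀ ν : Fin r → ℕ, ∑ u, ν u • b u = 0 → ∀ u, p ∣ ν u) ∧
      (∀ v, ∃ ν : Fin r → ℕ, v = ∑ u, ν u • b u) := by
  letI : Module (ZMod p) V := AddCommGroup.zmodModule hp
  exact T2_elem0

/-- linear algebra: a basis of the quotient. -/
private theorem T2_basis {F : IFG C} (T : AddSubgroup (Pt F)) {η : C} (hη : η ≠ 0)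
    (hη1 : ‖η‖ < 1) (hmax : ∀ y ∈ T, ‖y.val‖ ≤ ‖η‖)
    (hp : ∀ y : T, ‖(p • y.1).val‖ < ‖η‖)
    (hfin : Finite (T ⧸ T2sub T (norm_pos_iff.2 hη))) :
    ∃ (r : ℕ) (z : Fin r → Pt F), Nat.card (T ⧸ T2sub T (norm_pos_iff.2 hη)) = p ^ r ∧
      SlopeBasis T p η z := by
  classical
  set S := T2sub T (norm_pos_iff.2 hη) with hS
  have hpz : ∀ x : T ⧸ S, p • x = 0 := by
    intro x
    obtain ⟨y, rfl⟩ := QuotientAddGroup.mk_surjective x
    rw [← QuotientAddGroup.mk_nsmul, QuotientAddGroup.eq_zero_iff]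
    exact hp y
  obtain ⟨r, b, hcard, hli, hspan⟩ := T2_elem hpz
  have hex : ∀ u, ∃ y : T, (QuotientAddGroup.mk y : T ⧸ S) = b u := fun u =>
    QuotientAddGroup.mk_surjective (b u)
  choose yy hyy using hex
  have hmk : ∀ ν : Fin r → ℕ,
      (QuotientAddGroup.mk (∑ u, ν u • yy u) : T ⧸ S) = ∑ u, ν u • b u := by
    intro ν
    have h1 : (QuotientAddGroup.mk (∑ u, ν u • yy u) : T ⧸ S) =
        QuotientAddGroup.mk' S (∑ u, ν u • yy u) := rfl
    rw [h1, map_sum]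
    refine Finset.sum_congr rfl fun u _ => ?_
    rw [map_nsmul]
    congr 1
    exact hyy u
  have hcoe : ∀ ν : Fin r → ℕ, ((∑ u, ν u • yy u : T) : Pt F) = ∑ u, ν u • (yy u).1 := by
    intro ν
    rw [AddSubgroup.val_finsetSum]
    rfl
  refine ⟨r, fun u => (yy u).1, hcard, hη, hη1, hmax,
    fun u => (yy u).2, ⟨fun u => hmax _ (yy u).2, ?_⟩, ?_⟩
  · rintro ν ⟨u₀, hu₀⟩
    by_contra hne
    have hle : ‖(∑ u, ν u • (yy u).1).val‖ ≤ ‖η‖ := by
      rw [← hcoe]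
      exact hmax _ (∑ u, ν u • yy u : T).2
    have hlt : ‖(∑ u, ν u • (yy u).1).val‖ < ‖η‖ := lt_of_le_of_ne hle hne
    have h1 : (∑ u, ν u • yy u) ∈ S := by
      rw [hS, T2_mem, hcoe]
      exact hlt
    have h2 : (QuotientAddGroup.mk (∑ u, ν u • yy u) : T ⧸ S) = 0 :=
      (QuotientAddGroup.eq_zero_iff _).2 h1
    rw [hmk] at h2
    exact hu₀ (hli ν h2 u₀)
  · intro y hy
    obtain ⟨ν, hν⟩ := hspan (QuotientAddGroup.mk (⟨y, hy⟩ : T))
    refine ⟨ν, ?_⟩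
    have h3 : (⟨y, hy⟩ : T) - ∑ u, ν u • yy u ∈ S := by
      rw [← QuotientAddGroup.eq_zero_iff]
      have h4 : (QuotientAddGroup.mk ((⟨y, hy⟩ : T) - ∑ u, ν u • yy u) : T ⧸ S) =
        QuotientAddGroup.mk (⟨y, hy⟩ : T) - QuotientAddGroup.mk (∑ u, ν u • yy u) := rfl
      rw [h4, hmk, ← hν, sub_self]
    rw [hS, T2_mem] at h3
    rw [AddSubgroup.coe_sub, hcoe] at h3
    exact h3

/-- TASK T2.  Existence, with `r ≥ e = 1 + n - h'`.
Proof: `μ` from `bb5`, `η = τ^{p^{n-h}}` with `‖τ‖ = μ`; by `norm_T` all `y ∈ T` have `‖y‖ ≤ ‖η‖`.  Let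
`T' = {y ∈ T | ‖y‖ < ‖η‖}` (a subgroup containing `pT` since `‖p y‖ = ‖y‖^q`).  By `exists_U_eq`,
`U_eq_zero_iff`: `U_1` induces a bijection `T/pT → rts V` (`U_1(y) = U_1(y')` iff
`E(y^{1/q}) = E(y'^{1/q})` iff `y - y' ∈ pT`), so `|T/pT| = p^{n-h}` (`bb4`, `VN_one`), and `T'/pT`
corresponds to `{‖τ‖ < μ}` (`norm_T`), so `|T'/pT| ≤ p^{h'-h-1}`.  Hence `T/T'`, an `F_p`-vector
space, has at least `p^{n-h-(h'-h-1)} = p^e` elements; take `z` = lifts of a basis. -/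
theorem exists_slopeBasis {h h' : ℕ} {P : Ideal (LTRing p n)} (S : Situ Γ H h h' P)
    {x : LTRing p n →+* C} (hx : IsPoint P x) {ι : GaloisField p n →+* C} (hι : IsOver ι x)
    (hval : ∀ j, h' ≤ j → j < n → ‖x (vv H j)‖ ≤ ‖x (vv H h)‖) :
    ∃ (η : C) (r : ℕ) (z : Fin r → Pt (ΓC S.hn Γ ι)), 1 + n - h' ≤ r ∧
      SlopeBasis (mkD S hx hι).T p η z := by
  classical
  have hp := (Fact.out : p.Prime)
  obtain ⟨μ, h0, h1, ⟨τ₀, hτ₀, hτn⟩, hmaxr, hcount, hv⟩ := bb5 S hx hval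
  set D := mkD S hx hι with hD
  have hh1 : 1 ≤ h := D.h1
  have hh2 : h < n := D.h2
  have hS2 := S.h2
  have hS3 := S.h3
  have hd0 : p ^ (n - h) ≠ 0 := pow_ne_zero _ hp.ne_zero
  set η : C := τ₀ ^ (p ^ (n - h)) with hηdef
  have hηn : ‖η‖ = μ ^ (p ^ (n - h)) := by rw [hηdef, norm_pow, hτn]
  have hηpos : 0 < ‖η‖ := by rw [hηn]; exact pow_pos h0 _
  have hη : η ≠ 0 := norm_pos_iff.1 hηpos
  have hη1 : ‖η‖ < 1 := by rw [hηn]; exact pow_lt_one₀ h0.le h1 hd0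
  have hmax : ∀ y ∈ D.T, ‖y.val‖ ≤ ‖η‖ := fun y hy => by
    rw [hηn]; exact (norm_T S hx hι h0 h1 hmaxr hv hy).1
  have hpy : ∀ y : D.T, ‖(p • y.1).val‖ < ‖η‖ := by
    intro y
    rw [D.nsmul_p_val, norm_pow]
    refine lt_of_le_of_lt (pow_le_pow_left₀ (norm_nonneg _) (hmax _ y.2) _) ?_
    have h4 : ‖η‖ ^ (p ^ n) < ‖η‖ ^ 1 :=
      pow_lt_pow_right_of_lt_one₀ hηpos hη1 (one_lt_pow₀ hp.one_lt (by omega))
    rwa [pow_one] at h4
  -- the map `ψ`
  set ψ : D.T →+ Pt D.H := AddMonoidHom.mk' (fun y => D.E (rt p n 1 y.1)) (by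
    intro a b
    show D.E (rt p n 1 (a.1 + b.1)) = _
    rw [D.rt_add, map_add]) with hψ
  have hψv : ∀ y : D.T, (ψ y).val ^ (p ^ h) = D.U 1 y.1 := by
    intro y
    unfold Datum.U
    rw [mul_one]
    rfl
  set S' := T2sub D.T (norm_pos_iff.2 hη) with hS'
  have hker : ψ.ker ≤ S' := by
    intro y hy
    have hy0 : ψ y = 0 := hy
    have hU : D.U 1 y.1 = 0 := by
      rw [← hψv, hy0, Pt.val_zero, zero_pow (pow_ne_zero _ hp.ne_zero)]
    obtain ⟨y', hy', hyy⟩ := (D.U_eq_zero_iff 1 y.2).1 hU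
    show ‖y.1.val‖ < ‖η‖
    rw [hyy, pow_one]
    exact hpy ⟨y', hy'⟩
  have hidx := AddSubgroup.relIndex_mul_index hker
  rw [AddSubgroup.index_ker, AddSubgroup.relIndex_ker] at hidx
  have hcard1 : Nat.card ψ.range = p ^ (n - h) := by
    have hbij : Set.BijOn (fun w : Pt D.H => w.val ^ (p ^ h)) (ψ.range : Set (Pt D.H))
        (rts (VS H h x)) := by
      refine ⟨?_, ?_, ?_⟩
      · rintro _ ⟨y, rfl⟩
        show (ψ y).val ^ (p ^ h) ∈ rts (VS H h x)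
        rw [hψv]
        have h2 := D.U_mem 1 y.2
        rw [VN_one] at h2
        exact h2
      · intro a _ b _ hab
        exact Pt.ext (T2_frob_inj (p := p) _ hab)
      · intro τ hτ
        obtain ⟨y, hy, hyU⟩ := exists_U_eq S hx hι 1 (τ := τ) (by rw [VN_one]; exact hτ)
        exact ⟨ψ ⟨y, hy⟩, ⟨⟨y, hy⟩, rfl⟩, by
          show (ψ ⟨y, hy⟩).val ^ (p ^ h) = τ
          rw [hψv]; exact hyU⟩
    have h2 := hbij.ncard_eq
    have h3 := (bb4 S hx 1).2
    rw [VN_one, mul_one] at h3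
    rw [h3] at h2
    rw [← h2]
    rfl
  have hfinr : (rts (VS H h x)).Finite := by
    have h3 := (bb4 S hx 1).1
    rwa [VN_one] at h3
  have hcard2 : Nat.card (S'.map ψ) ≤ p ^ (h' - h - 1) := by
    refine le_trans ?_ hcount
    have h2 : Nat.card (S'.map ψ) = ((S'.map ψ : AddSubgroup (Pt D.H)) : Set (Pt D.H)).ncard := rfl
    rw [h2]
    refine Set.ncard_le_ncard_of_injOn (fun w : Pt D.H => w.val ^ (p ^ h)) ?_ ?_
      (hfinr.subset fun τ hτ => hτ.1)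
    · rintro _ ⟨y, hy, rfl⟩
      have hy' : ‖y.1.val‖ < ‖η‖ := hy
      have h3 := D.U_mem 1 y.2
      rw [VN_one] at h3
      show (ψ y).val ^ (p ^ h) ∈ {τ ∈ rts (VS H h x) | ‖τ‖ < μ}
      rw [hψv]
      refine ⟨h3, lt_of_le_of_ne (hmaxr _ h3) ?_⟩
      intro heq
      have h4 := ((norm_T S hx hι h0 h1 hmaxr hv y.2).2).2 heq
      rw [hηn, ← h4] at hy'
      exact lt_irrefl _ hy'
    · intro a _ b _ hab
      exact Pt.ext (T2_frob_inj (p := p) _ hab)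
  rw [hcard1] at hidx
  have hidx0 : S'.index ≠ 0 := by
    intro h2
    rw [h2, mul_zero] at hidx
    exact hd0 hidx.symm
  have hfin : Finite (D.T ⧸ S') := Nat.finite_of_card_ne_zero (by
    rw [← AddSubgroup.index_eq_card]; exact hidx0)
  obtain ⟨r, z, hr, hz⟩ := T2_basis D.T hη hη1 hmax hpy hfin
  refine ⟨η, r, z, ?_, hz⟩
  have h5 : S'.index = p ^ r := by
    rw [AddSubgroup.index_eq_card]; exact hr
  rw [h5] at hidx
  have h6 : p ^ (n - h) ≤ p ^ (h' - h - 1 + r) := by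
    rw [← hidx, pow_add]
    exact Nat.mul_le_mul_right _ hcard2
  have h7 := (Nat.pow_le_pow_iff_right hp.one_lt).1 h6
  omega

end Crest.Agent.LU
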