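import Mathlib
import Crest.Agent.LU_F1c
import Crest.Agent.LU_T2

/-!
S0351 (blueprint LU), task F2: the first step (independence to first order).
-/

set_option autoImplicit false

noncomputable section

namespace Crest.Agent.LU

open Crest.LubinTate Filter Asymptotics

variable {p : ℕ} [Fact p.Prime] {n : ℕ} {Γ : FormalGroup (GaloisField p n)} [Γ.IsComm]
  {H : FormalGroup (LTRing p n)} [H.IsComm]
  {C : Type} [NontriviallyNormedField C] [IsUltrametricDist C] [CompleteSpace C]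
  [IsAlgClosed C] [CharP C p]
  {h h' : ℕ} {P : Ideal (LTRing p n)} {S : Situ Γ H h h' P}
  {x : LTRing p n →+* C} {hx : IsPoint P x} {ι : GaloisField p n →+* C} {hι : IsOver ι x}
  {ϖ : C} {κ : ℕ → Pt (ΓC S.hn Γ ι) → C}

/-- TASK F2a (FIRST STEP).  The roots `U_1(z_u)` of a slope basis satisfy no linear relation to
first order.
Proof: `extraction` applied to `c_u κ(1, z_u)`: for `k ≥ k₀`, `ζ ≠ 0`, `a` take a probe
(`exists_prb`), root sequences `t_u` from `expansion` with `N = 1` (`VN_one`); the hypothesis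
gives `Σ c_u (t_u - U_1(z_u)) = O(δ²) = o((‖ϖ‖R_k)^{Q^m})` (`del_bound`), and by `expansion`
`Σ c_u κ_u (ϖ E(a z_u))^{Q^m} = o((‖ϖ‖R_k)^{Q^m})`; divide by `ϖ^{Q^m}`. -/
theorem first_step (hend : ∀ (k : ℕ) (ζ : GaloisField p n), ∃ a, IsLead Γ k ζ a)
    (hϖ0 : ϖ ≠ 0) (hϖ1 : ‖ϖ‖ < 1) (hκ : ∀ N y, κ N y ≠ 0) (hP : HasPrb S hx hι ϖ κ)
    {η : C} {r : ℕ} {z : Fin r → Pt (ΓC S.hn Γ ι)}
    (hz : SlopeBasis (mkD S hx hι).T p η z) (c : Fin r → C)
    (hc : ∀ χ, IsProbe H h P x χ → ∀ t : ℕ → Fin r → C,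
      RootSeq H h χ (fun u => (mkD S hx hι).U 1 (z u)) t →
      (fun m => ∑ i, c i * (t m i - (mkD S hx hι).U 1 (z i))) =O[atTop]
        (fun m => (del H h x (χ m)) ^ 2)) : c = 0 := by
  have hp : p.Prime := Fact.out
  have hQ : 1 < p ^ h := Nat.one_lt_pow (by have := S.h1; omega) hp.one_lt
  obtain ⟨k₀, R, I, cc, hL⟩ := exists_LFs (mkD S hx hι) hz.ne hz.lt
  have hϖpos : 0 < ‖ϖ‖ := norm_pos_iff.2 hϖ0
  have hfin := extraction hend hL hz.indep (fun u => c u * κ 1 (z u)) (fun k hk ζ hζ a ha => by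
    have hR0 : 0 < R k := (hL.lf k hk).Rpos
    have hR1 : R k < 1 := by
      by_contra hcon
      have h5 : (1 : ℝ) ≤ R k ^ (p ^ h) := one_le_pow₀ (not_lt.1 hcon)
      have h6 := hL.lin k hk
      have h7 : ‖PowerSeries.coeff 1 (mkD S hx hι).V‖ ≤ 1 := (mkD S hx hι).V_int _
      linarith
    have hb0 : 0 < ‖ϖ‖ * R k := mul_pos hϖpos hR0
    have hb1 : ‖ϖ‖ * R k < 1 := by nlinarith
    obtain ⟨χ, hχ⟩ := exists_prb hP hz.max hL hk ha
    choose t ε h1 h2 h3 h4 h5 using fun u =>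
      expansion hϖ0 hϖ1 hz.max hL hk ha hχ (le_refl 1) (hz.mem u)
    have h6 := hc χ hχ.probe (fun m u => t u m)
      ⟨fun u => (h1 u).mono fun m hm => by rwa [VN_one] at hm, fun u => h2 u⟩
    have hdel := (del_bound hz.max hL hk ha hχ).pow 2
    have hρ : Tendsto (fun m : ℕ => (‖ϖ‖ * R k) ^ ((p ^ h) ^ m)) atTop (nhds 0) :=
      (tendsto_pow_atTop_nhds_zero_of_lt_one hb0.le hb1).comp
        (tendsto_pow_atTop_atTop_of_one_lt hQ)
    have hsq : (fun m : ℕ => ((‖ϖ‖ * R k) ^ ((p ^ h) ^ m)) ^ 2) =o[atTop]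
        (fun m : ℕ => (‖ϖ‖ * R k) ^ ((p ^ h) ^ m)) := by
      have e1 : (fun m : ℕ => (‖ϖ‖ * R k) ^ ((p ^ h) ^ m)) =o[atTop] (fun _ : ℕ => (1 : ℝ)) := by
        rw [isLittleO_one_iff]
        exact hρ
      refine (e1.mul_isBigO (isBigO_refl (fun m : ℕ => (‖ϖ‖ * R k) ^ ((p ^ h) ^ m)) atTop)).congr
        (fun m => by ring) (fun m => one_mul _)
    have h7 := (h6.trans hdel).trans_isLittleO hsq
    have h8 : (fun m => ∑ u, c u * (t u m - (mkD S hx hι).U 1 (z u) -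
        κ 1 (z u) * (ϖ * ((mkD S hx hι).E (act S.hn ι ha.hom (z u))).val) ^ ((p ^ h) ^ m)))
          =o[atTop] (fun m : ℕ => (‖ϖ‖ * R k) ^ ((p ^ h) ^ m)) := by
      have e2 := IsLittleO.sum (s := Finset.univ) fun u _ => (h4 u).const_mul_left (c u)
      refine e2.congr_left fun m => ?_
      rw [Finset.sum_apply]
    have h9 := h7.sub h8
    have h9' : (fun m : ℕ => ((ϖ ^ ((p ^ h) ^ m))⁻¹ : C)) =O[atTop]
        (fun m : ℕ => (‖ϖ‖ ^ ((p ^ h) ^ m))⁻¹) := by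
      refine IsBigO.of_bound 1 (Eventually.of_forall fun m => ?_)
      rw [one_mul, norm_inv, norm_pow, norm_inv, norm_pow, norm_norm]
    have h10 := h9'.mul_isLittleO h9
    refine h10.congr (fun m => ?_) (fun m => ?_)
    · rw [← Finset.sum_sub_distrib, Finset.mul_sum]
      refine Finset.sum_congr rfl fun u _ => ?_
      have hne : ϖ ^ ((p ^ h) ^ m) ≠ 0 := pow_ne_zero _ hϖ0
      rw [mul_pow]
      field_simp
      ring
    · have hpos : ‖ϖ‖ ^ ((p ^ h) ^ m) ≠ 0 := (pow_pos hϖpos _).ne'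
      rw [mul_pow, ← mul_assoc, inv_mul_cancel₀ hpos, one_mul])
  ext u
  have h0 := congrFun hfin u
  simp only [Pi.zero_apply] at h0 ⊢
  exact (mul_eq_zero.1 h0).resolve_right (hκ _ _)

/-- TASK F2b.  Hence the slope basis has at most `e = 1 + n - h'` elements (`bb1`). -/
theorem rank_le (hend : ∀ (k : ℕ) (ζ : GaloisField p n), ∃ a, IsLead Γ k ζ a)
    (hϖ0 : ϖ ≠ 0) (hϖ1 : ‖ϖ‖ < 1) (hκ : ∀ N y, κ N y ≠ 0) (hP : HasPrb S hx hι ϖ κ)
    {η : C} {r : ℕ} {z : Fin r → Pt (ΓC S.hn Γ ι)}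
    (hz : SlopeBasis (mkD S hx hι).T p η z) : r ≤ 1 + n - h' := by
  by_contra hcon
  have hU1 : ∀ i, (mkD S hx hι).U 1 (z i) ∈ rts (VS H h x) := fun i => by
    have h1 := (mkD S hx hι).U_mem 1 (hz.mem i)
    rw [VN_one] at h1
    exact h1
  obtain ⟨c, hc0, hc⟩ := bb1 S hx (not_le.1 hcon) (fun i => (mkD S hx hι).U 1 (z i)) hU1
  exact hc0 (first_step hend hϖ0 hϖ1 hκ hP hz c hc)

end Crest.Agent.LU
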