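import Mathlib
import Crest.Agent.LU_X3

/-!
S0351 (blueprint LU), task X4: comparison of two radii.
-/

set_option autoImplicit false

noncomputable section

namespace Crest.Agent.LU

open Crest.LubinTate Filter Asymptotics

variable {p : ℕ} [Fact p.Prime] {n h : ℕ} {Γ : FormalGroup (GaloisField p n)} [Γ.IsComm]
  {C : Type} [NontriviallyNormedField C] [IsUltrametricDist C] [CompleteSpace C]
  [IsAlgClosed C] [CharP C p]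

private theorem x4_exists_pi {hn : 1 ≤ n} {ι : GaloisField p n →+* C}
    {D : Datum p n h (ΓC hn Γ ι)} {Y : C} {R : ℝ}
    {I : Finset ℤ} {c : ℤ → C} (hL : LF D ‖Y‖ R I c) : ∃ ϖk : C, ‖ϖk‖ = R ∧ ϖk ≠ 0 := by
  obtain ⟨i, hi⟩ := hL.ne
  have hn1 : ‖c i * frz p i Y‖ = R := by
    rw [norm_mul, norm_frz]
    exact hL.norm_c i hi
  exact ⟨_, hn1, fun h0 => by rw [h0, norm_zero] at hn1; exact (hL.Rpos.ne hn1).elim⟩

private theorem x4_incong {hn : 1 ≤ n} {ι : GaloisField p n →+* C}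
    {D : Datum p n h (ΓC hn Γ ι)} {Y : C} (h0 : Y ≠ 0) (h1 : ‖Y‖ < 1) {R : ℝ}
    {I : Finset ℤ} {c : ℤ → C} (hL : LF D ‖Y‖ R I c)
    (hR : R ^ (p ^ h) < ‖PowerSeries.coeff 1 D.V‖) :
    ∀ i ∈ I, ∀ j ∈ I, (n : ℤ) ∣ i - j → i = j := by
  intro i hi j hj hd
  have e1 := hL.length h0 h1 hR hi hj
  have e2 := hL.length h0 h1 hR hj hi
  have h3 := D.h1
  have h4 := D.h2
  obtain ⟨q, hq⟩ := hd
  have hn' : (1 : ℤ) ≤ n := by exact_mod_cast hn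
  have e3 : ((n - h : ℕ) : ℤ) < n := by
    have : n - h < n := by omega
    exact_mod_cast this
  have hq0 : q = 0 := by
    by_contra hne
    rcases lt_or_gt_of_ne hne with hlt | hgt
    · have : (n : ℤ) * q ≤ -n := by nlinarith
      omega
    · have : (n : ℤ) ≤ n * q := by nlinarith
      omega
  rw [hq0, mul_zero] at hq
  omega

private theorem x4_image_incong {I : Finset ℤ} (hI : ∀ i ∈ I, ∀ j ∈ I, (n : ℤ) ∣ i - j → i = j)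
    (s : ℤ) : ∀ i ∈ I.image (fun i => i + s), ∀ j ∈ I.image (fun i => i + s),
      (n : ℤ) ∣ i - j → i = j := by
  intro i hi j hj hd
  obtain ⟨i', hi', rfl⟩ := Finset.mem_image.1 hi
  obtain ⟨j', hj', rfl⟩ := Finset.mem_image.1 hj
  rw [hI i' hi' j' hj' (by simpa using hd)]

/-- TASK X4a.  For `‖y‖ = ‖η‖` some `ζ ≠ 0` gives the generic size `R_k` for every `a` with leading
term `ζ X^{p^k}`: the residue of `E(a y)/ϖ_k` is a polynomial in `ζ` with nonzero coefficients and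
exponents pairwise incongruent modulo `n` (`residue_E`, `LF.length`, `characters`). -/
theorem exists_zeta_eq {hn : 1 ≤ n} {ι : GaloisField p n →+* C} {D : Datum p n h (ΓC hn Γ ι)}
    {η : C} {k₀ : ℕ} {R : ℕ → ℝ} {I : ℕ → Finset ℤ} {c : ℕ → ℤ → C} (hL : LFs D η k₀ R I c)
    {k : ℕ} (hk : k₀ ≤ k) {y : Pt (ΓC hn Γ ι)} (hy : ‖y.val‖ = ‖η‖) :
    ∃ ζ : GaloisField p n, ζ ≠ 0 ∧ ∀ (a) (ha : IsLead Γ k ζ a),
      ‖(D.E (act hn ι ha.hom y)).val‖ = R k := by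
  by_contra hcon
  push Not at hcon
  have hLk := hL.lf k hk
  have hY0 : η ^ (p ^ k) ≠ 0 := pow_ne_zero _ hL.ne
  have hp0 : p ^ k ≠ 0 := pow_ne_zero _ (Fact.out : p.Prime).ne_zero
  have hY1 : ‖η ^ (p ^ k)‖ < 1 := by
    rw [norm_pow]; exact pow_lt_one₀ (norm_nonneg _) hL.lt hp0
  obtain ⟨ϖk, hϖk, hϖk0⟩ := x4_exists_pi hLk
  have hinc := x4_incong hY0 hY1 hLk (hL.lin k hk)
  obtain ⟨j₀, hj₀⟩ := hLk.ne
  have hyη : ‖y.val / η‖ = 1 := by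
    rw [norm_div, hy, div_self (norm_ne_zero_iff.2 hL.ne)]
  have hrsy : rs (y.val / η) ≠ 0 := by
    intro h0
    rw [rs_eq_zero_iff hyη.le] at h0
    exact absurd h0 (by rw [hyη]; exact lt_irrefl _)
  obtain ⟨i, hi, -⟩ := characters (p := p) hn (iotaK ι (norm_iota_le hn ι)) ∅ (I k) (fun _ => 0)
    (fun i => rs (c k i * frz p i (η ^ (p ^ k)) / ϖk) * frz p (i + k) (rs (y.val / η)))
    (by simp) hinc (by
      intro ζ hζ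
      rw [Finset.sum_empty]
      obtain ⟨a, ha, hne⟩ := hcon ζ hζ
      have hz : ‖(act hn ι ha.hom y).val‖ ≤ ‖η ^ (p ^ k)‖ := by
        rw [norm_pow, ← hy]; exact norm_act_le hn ι ha y
      have hle := hLk.norm_le hz
      have hlt := lt_of_le_of_ne hle hne
      have h0 : rs ((D.E (act hn ι ha.hom y)).val / ϖk) = 0 := by
        have : ‖(D.E (act hn ι ha.hom y)).val / ϖk‖ < 1 := by
          rw [norm_div, hϖk, div_lt_one hLk.Rpos]; exact hlt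
        rw [rs_eq_zero_iff this.le]; exact this
      rw [residue_E hn ι D hL.ne hL.lt hLk hϖk ha y hy.le] at h0
      rw [← h0]
      refine Finset.sum_congr rfl fun i _ => ?_
      ring) hj₀
    (mul_ne_zero (residue_coeff_ne hLk hϖk hj₀)
      ((map_ne_zero_iff _ (frz p (j₀ + k)).injective).2 hrsy))
  simp at hi

private theorem x4_top_mem {I : Finset ℤ} (hne : I.Nonempty) : I.sup' hne id ∈ I := by
  obtain ⟨i, hi, h⟩ := Finset.exists_mem_eq_sup' hne id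
  rw [h]; exact hi

private theorem x4_sum_norm_le {r : ℕ} (f : Fin r → C) {B : ℝ} (hB : 0 ≤ B)
    (hf : ∀ u, ‖f u‖ ≤ B) : ‖∑ u, f u‖ ≤ B :=
  IsUltrametricDist.norm_sum_le_of_forall_le_of_nonneg hB fun u _ => hf u

/-- TASK X4b.  If the top coefficient is nonzero then for some `ζ ≠ 0` the combination has the
generic size.  (`γ_u` with `‖γ_u‖ ≤ ‖g‖`, `g ≠ 0`; `residue_comb` for `rs (γ_u/g)`, `characters`.) -/
theorem exists_zeta_comb {hn : 1 ≤ n} {ι : GaloisField p n →+* C} {D : Datum p n h (ΓC hn Γ ι)}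
    {η : C} {k₀ : ℕ} {R : ℕ → ℝ} {I : ℕ → Finset ℤ} {c : ℕ → ℤ → C} (hL : LFs D η k₀ R I c)
    {k : ℕ} (hk : k₀ ≤ k) {r : ℕ} {z : Fin r → Pt (ΓC hn Γ ι)} (hz : ∀ u, ‖(z u).val‖ ≤ ‖η‖)
    {γ : Fin r → C} {g : C} (hg : g ≠ 0) (hγ : ∀ u, ‖γ u‖ ≤ ‖g‖) {m : ℕ}
    (htop : ∑ u, rs (γ u / g) * frz p ((I k).sup' (hL.lf k hk).ne id + ((h * m : ℕ) : ℤ) + k)
        (rs ((z u).val / η)) ≠ 0) :
    ∃ ζ : GaloisField p n, ζ ≠ 0 ∧ ∀ (a) (ha : IsLead Γ k ζ a),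
      ‖∑ u, γ u * ((D.E (act hn ι ha.hom (z u))).val) ^ ((p ^ h) ^ m)‖ =
        ‖g‖ * (R k) ^ ((p ^ h) ^ m) := by
  by_contra hcon
  push Not at hcon
  have hLk := hL.lf k hk
  have hY0 : η ^ (p ^ k) ≠ 0 := pow_ne_zero _ hL.ne
  have hp0 : p ^ k ≠ 0 := pow_ne_zero _ (Fact.out : p.Prime).ne_zero
  have hY1 : ‖η ^ (p ^ k)‖ < 1 := by
    rw [norm_pow]; exact pow_lt_one₀ (norm_nonneg _) hL.lt hp0
  obtain ⟨ϖk, hϖk, hϖk0⟩ := x4_exists_pi hLk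
  have hinc := x4_incong hY0 hY1 hLk (hL.lin k hk)
  have hg' : 0 < ‖g‖ := norm_pos_iff.2 hg
  have hRp : 0 < R k := hLk.Rpos
  have hγg : ∀ u, ‖γ u / g‖ ≤ 1 := fun u => by
    rw [norm_div, div_le_one hg']; exact hγ u
  have hEle : ∀ {ζ : GaloisField p n} {a} (ha : IsLead Γ k ζ a) (u : Fin r),
      ‖(D.E (act hn ι ha.hom (z u))).val‖ ≤ R k := by
    intro ζ a ha u
    apply hLk.norm_le
    rw [norm_pow]
    exact (norm_act_le hn ι ha (z u)).trans (pow_le_pow_left₀ (norm_nonneg _) (hz u) _)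
  have hmem : (I k).sup' (hL.lf k hk).ne id + ((h * m : ℕ) : ℤ) ∈
      (I k).image (fun i => i + ((h * m : ℕ) : ℤ)) :=
    Finset.mem_image_of_mem (fun i => i + ((h * m : ℕ) : ℤ)) (x4_top_mem _)
  obtain ⟨i, hi, -⟩ := characters (p := p) hn (iotaK ι (norm_iota_le hn ι)) ∅
    ((I k).image (fun i => i + ((h * m : ℕ) : ℤ))) (fun _ => 0)
    (fun i => rs (c k (i - ((h * m : ℕ) : ℤ)) * frz p (i - ((h * m : ℕ) : ℤ)) (η ^ (p ^ k)) / ϖk) ^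
          ((p ^ h) ^ m) * ∑ u, rs (γ u / g) * frz p (i + k) (rs ((z u).val / η)))
    (by simp) (x4_image_incong hinc _) (by
      intro ζ hζ
      rw [Finset.sum_empty]
      obtain ⟨a, ha, hne⟩ := hcon ζ hζ
      have hle : ‖∑ u, γ u * ((D.E (act hn ι ha.hom (z u))).val) ^ ((p ^ h) ^ m)‖ ≤
          ‖g‖ * (R k) ^ ((p ^ h) ^ m) := by
        apply x4_sum_norm_le _ (by positivity)
        intro u
        rw [norm_mul, norm_pow]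
        exact mul_le_mul (hγ u) (pow_le_pow_left₀ (norm_nonneg _) (hEle ha u) _) (by positivity)
          (norm_nonneg _)
      have hlt := lt_of_le_of_ne hle hne
      have hEk : ∀ u, ‖(D.E (act hn ι ha.hom (z u))).val / ϖk‖ ≤ 1 := fun u => by
        rw [norm_div, hϖk, div_le_one hRp]; exact hEle ha u
      have h0 : rs (∑ u, (γ u / g) * ((D.E (act hn ι ha.hom (z u))).val / ϖk) ^ ((p ^ h) ^ m)) =
          0 := by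
        have e : ∑ u, (γ u / g) * ((D.E (act hn ι ha.hom (z u))).val / ϖk) ^ ((p ^ h) ^ m) =
            (∑ u, γ u * ((D.E (act hn ι ha.hom (z u))).val) ^ ((p ^ h) ^ m)) /
              (g * ϖk ^ ((p ^ h) ^ m)) := by
          rw [Finset.sum_div]
          refine Finset.sum_congr rfl fun u _ => ?_
          rw [div_pow]
          field_simp
        have : ‖∑ u, (γ u / g) * ((D.E (act hn ι ha.hom (z u))).val / ϖk) ^ ((p ^ h) ^ m)‖ < 1 := by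
          rw [e, norm_div, norm_mul, norm_pow, hϖk, div_lt_one (by positivity)]
          exact hlt
        rw [rs_eq_zero_iff this.le]; exact this
      rw [rs_sum _ _ (fun u _ => by
        rw [norm_mul, norm_pow]
        exact mul_le_one₀ (hγg u) (by positivity) (pow_le_one₀ (norm_nonneg _) (hEk u)))] at h0
      have h1 : ∑ u, rs (γ u / g) * rs ((D.E (act hn ι ha.hom (z u))).val / ϖk) ^ ((p ^ h) ^ m) =
          0 := by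
        rw [← h0]
        refine Finset.sum_congr rfl fun u _ => ?_
        rw [rs_mul (hγg u) (by rw [norm_pow]; exact pow_le_one₀ (norm_nonneg _) (hEk u)),
          rs_pow (hEk u)]
      rw [residue_comb hn ι D hL.ne hL.lt hLk hϖk ha z hz] at h1
      exact h1.symm) hmem
    (mul_ne_zero (pow_ne_zero _ (by
      rw [add_sub_cancel_right]
      exact residue_coeff_ne hLk hϖk (x4_top_mem _))) htop)
  simp at hi

/-- The relation compared in X4. -/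
def CmpRel {hn : 1 ≤ n} {ι : GaloisField p n →+* C} (D : Datum p n h (ΓC hn Γ ι)) (ϖ : C)
    (κ₀ : C) (y₀ : Pt (ΓC hn Γ ι)) (R₀ : ℕ → ℝ) {r : ℕ} (γ : Fin r → C)
    (z : Fin r → Pt (ΓC hn Γ ι)) (R : ℕ → ℝ) (j k : ℕ) {ζ : GaloisField p n}
    {a : PowerSeries (GaloisField p n)} (ha : IsLead Γ k ζ a) : Prop :=
  (fun m : ℕ => κ₀ * (ϖ * (D.E (act hn ι ha.hom y₀)).val) ^ ((p ^ h) ^ m) -
      (∑ u, γ u * (ϖ * (D.E (act hn ι ha.hom (z u))).val) ^ ((p ^ h) ^ m)) ^ (p ^ j)) =o[atTop]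
    (fun m : ℕ => max ((‖ϖ‖ * R₀ k) ^ ((p ^ h) ^ m)) (((‖ϖ‖ * R k) ^ (p ^ j)) ^ ((p ^ h) ^ m)))

private theorem x4_pow_lt {Q : ℕ} (hQ : 1 < Q) {A B K ε : ℝ} (hA : 0 < A) (hB : 0 ≤ B)
    (hBA : B < A) (hε : 0 < ε) : ∀ᶠ m : ℕ in atTop, K * B ^ (Q ^ m) < ε * A ^ (Q ^ m) := by
  have h1 : Tendsto (fun m : ℕ => K * (B / A) ^ (Q ^ m)) atTop (nhds (K * 0)) := by
    apply Tendsto.const_mul
    exact (tendsto_pow_atTop_nhds_zero_of_lt_one (by positivity) ((div_lt_one hA).2 hBA)).comp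
      (tendsto_pow_atTop_atTop_of_one_lt hQ)
  rw [mul_zero] at h1
  filter_upwards [h1.eventually (gt_mem_nhds hε)] with m hm
  rw [div_pow, mul_div_assoc', div_lt_iff₀ (by positivity)] at hm
  exact hm

private theorem x4_Q {hn : 1 ≤ n} {ι : GaloisField p n →+* C} (D : Datum p n h (ΓC hn Γ ι)) :
    1 < p ^ h := Nat.one_lt_pow (by have := D.h1; omega) (Fact.out : p.Prime).one_lt

private theorem x4_second {r : ℕ} {γ E : Fin r → C} {ϖ : C} {G R : ℝ} (hG : 0 ≤ G)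
    (hR : 0 ≤ R) (hγ : ∀ u, ‖γ u‖ ≤ G) (hE : ∀ u, ‖E u‖ ≤ R) (N P : ℕ) :
    ‖(∑ u, γ u * (ϖ * E u) ^ N) ^ P‖ ≤ G ^ P * ((‖ϖ‖ * R) ^ P) ^ N := by
  have h1 : ‖∑ u, γ u * (ϖ * E u) ^ N‖ ≤ G * (‖ϖ‖ * R) ^ N := by
    apply x4_sum_norm_le _ (by positivity)
    intro u
    rw [norm_mul, norm_pow, norm_mul]
    exact mul_le_mul (hγ u) (pow_le_pow_left₀ (by positivity)
      (mul_le_mul_of_nonneg_left (hE u) (norm_nonneg _)) _) (by positivity) hG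
  rw [norm_pow]
  refine (pow_le_pow_left₀ (norm_nonneg _) h1 P).trans (le_of_eq ?_)
  rw [mul_pow, ← pow_mul, ← pow_mul, mul_comm N P]

private theorem x4_first {κ₀ ϖ E : C} {R : ℝ} (hE : ‖E‖ ≤ R) (N : ℕ) :
    ‖κ₀ * (ϖ * E) ^ N‖ ≤ ‖κ₀‖ * (‖ϖ‖ * R) ^ N := by
  rw [norm_mul, norm_pow, norm_mul]
  exact mul_le_mul_of_nonneg_left (pow_le_pow_left₀ (by positivity)
      (mul_le_mul_of_nonneg_left hE (norm_nonneg _)) _) (norm_nonneg _)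

private theorem x4_E_le {hn : 1 ≤ n} {ι : GaloisField p n →+* C} {D : Datum p n h (ΓC hn Γ ι)}
    {η : C} {k₀ : ℕ} {R : ℕ → ℝ} {I : ℕ → Finset ℤ} {c : ℕ → ℤ → C} (hL : LFs D η k₀ R I c)
    {k : ℕ} (hk : k₀ ≤ k) {y : Pt (ΓC hn Γ ι)} (hy : ‖y.val‖ ≤ ‖η‖) {ζ : GaloisField p n} {a}
    (ha : IsLead Γ k ζ a) : ‖(D.E (act hn ι ha.hom y)).val‖ ≤ R k := by
  apply (hL.lf k hk).norm_le
  rw [norm_pow]
  exact (norm_act_le hn ι ha y).trans (pow_le_pow_left₀ (norm_nonneg _) hy _)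

/-- TASK X4c. First size inequality: `‖ϖ‖R₀_k ≤ (‖ϖ‖R_k)^{p^j}` for every `k ≥ k₀`.
(Otherwise the maximum is `(‖ϖ‖R₀_k)^{Q^m}`, attained by `‖ϖ E(a y₀)‖^{Q^m}` for the `ζ` of X4a,
while the second term is `O(((‖ϖ‖R_k)^{p^j})^{Q^m})`, of smaller order.) -/
theorem cmp_le {hn : 1 ≤ n} {ι : GaloisField p n →+* C} {D : Datum p n h (ΓC hn Γ ι)}
    (hend : ∀ (k : ℕ) (ζ : GaloisField p n), ∃ a, IsLead Γ k ζ a)
    {ϖ : C} (hϖ0 : ϖ ≠ 0)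
    {η₀ : C} {k₀ : ℕ} {R₀ : ℕ → ℝ} {I₀ : ℕ → Finset ℤ} {c₀ : ℕ → ℤ → C}
    (hL₀ : LFs D η₀ k₀ R₀ I₀ c₀) {y₀ : Pt (ΓC hn Γ ι)} (hy₀ : ‖y₀.val‖ = ‖η₀‖)
    {η : C} {R : ℕ → ℝ} {I : ℕ → Finset ℤ} {c : ℕ → ℤ → C} (hL : LFs D η k₀ R I c)
    {r : ℕ} {z : Fin r → Pt (ΓC hn Γ ι)} (hz : ∀ u, ‖(z u).val‖ ≤ ‖η‖)
    {κ₀ : C} (hκ₀ : κ₀ ≠ 0) {γ : Fin r → C} {j k : ℕ} (hk : k₀ ≤ k)
    (hrel : ∀ (ζ : GaloisField p n), ζ ≠ 0 → ∀ (a) (ha : IsLead Γ k ζ a),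
      CmpRel D ϖ κ₀ y₀ R₀ γ z R j k ha) :
    ‖ϖ‖ * R₀ k ≤ (‖ϖ‖ * R k) ^ (p ^ j) := by
  by_contra hcon
  push Not at hcon
  obtain ⟨ζ, hζ, heq⟩ := exists_zeta_eq hL₀ hk hy₀
  obtain ⟨a, ha⟩ := hend k ζ
  have hr := hrel ζ hζ a ha
  have hκ : 0 < ‖κ₀‖ := norm_pos_iff.2 hκ₀
  have hϖ : 0 < ‖ϖ‖ := norm_pos_iff.2 hϖ0
  have hR₀ : 0 < R₀ k := (hL₀.lf k hk).Rpos
  have hR : 0 < R k := (hL.lf k hk).Rpos
  have hb := hr.def (c := ‖κ₀‖ / 2) (by positivity)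
  have hG : ∀ u, ‖γ u‖ ≤ ∑ v, ‖γ v‖ := fun u =>
    Finset.single_le_sum (f := fun v => ‖γ v‖) (fun v _ => norm_nonneg _) (Finset.mem_univ u)
  have hG0 : 0 ≤ ∑ v, ‖γ v‖ := Finset.sum_nonneg fun v _ => norm_nonneg _
  obtain ⟨m, hm1, hm2⟩ := (hb.and (x4_pow_lt (x4_Q D) (A := ‖ϖ‖ * R₀ k)
    (B := (‖ϖ‖ * R k) ^ (p ^ j)) (K := (∑ v, ‖γ v‖) ^ (p ^ j)) (ε := ‖κ₀‖ / 2) (by positivity)
    (by positivity) hcon (by positivity))).exists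
  have hmax : max ((‖ϖ‖ * R₀ k) ^ ((p ^ h) ^ m)) (((‖ϖ‖ * R k) ^ (p ^ j)) ^ ((p ^ h) ^ m)) =
      (‖ϖ‖ * R₀ k) ^ ((p ^ h) ^ m) :=
    max_eq_left (pow_le_pow_left₀ (by positivity) hcon.le _)
  rw [hmax, Real.norm_of_nonneg (by positivity)] at hm1
  have h2 := x4_second (γ := γ) (E := fun u => (D.E (act hn ι ha.hom (z u))).val) (ϖ := ϖ) hG0
    hR.le hG (fun u => x4_E_le hL hk (hz u) ha) ((p ^ h) ^ m) (p ^ j)
  have h1 : ‖κ₀ * (ϖ * (D.E (act hn ι ha.hom y₀)).val) ^ ((p ^ h) ^ m)‖ =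
      ‖κ₀‖ * (‖ϖ‖ * R₀ k) ^ ((p ^ h) ^ m) := by
    rw [norm_mul, norm_pow, norm_mul, heq a ha]
  have h3 : ‖κ₀ * (ϖ * (D.E (act hn ι ha.hom y₀)).val) ^ ((p ^ h) ^ m)‖ ≤
      ‖κ₀ * (ϖ * (D.E (act hn ι ha.hom y₀)).val) ^ ((p ^ h) ^ m) -
      (∑ u, γ u * (ϖ * (D.E (act hn ι ha.hom (z u))).val) ^ ((p ^ h) ^ m)) ^ (p ^ j)‖ +
      ‖(∑ u, γ u * (ϖ * (D.E (act hn ι ha.hom (z u))).val) ^ ((p ^ h) ^ m)) ^ (p ^ j)‖ := by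
    have := norm_add_le (κ₀ * (ϖ * (D.E (act hn ι ha.hom y₀)).val) ^ ((p ^ h) ^ m) -
      (∑ u, γ u * (ϖ * (D.E (act hn ι ha.hom (z u))).val) ^ ((p ^ h) ^ m)) ^ (p ^ j))
      ((∑ u, γ u * (ϖ * (D.E (act hn ι ha.hom (z u))).val) ^ ((p ^ h) ^ m)) ^ (p ^ j))
    rwa [sub_add_cancel] at this
  rw [h1] at h3
  linarith

private theorem x4_pigeon {P : GaloisField p n → ℕ → Prop}
    (hP : ∃ᶠ m : ℕ in atTop, ∃ ζ, P ζ m) : ∃ ζ, ∃ᶠ m : ℕ in atTop, P ζ m := by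
  by_contra hcon
  rw [not_exists] at hcon
  apply hP
  have : ∀ᶠ m : ℕ in atTop, ∀ ζ, ¬ P ζ m := by
    rw [eventually_all]
    exact fun ζ => not_frequently.1 (hcon ζ)
  filter_upwards [this] with m hm
  rintro ⟨ζ, hζ⟩
  exact hm ζ hζ

private theorem x4_size_eq {hn : 1 ≤ n} {ι : GaloisField p n →+* C}
    {D : Datum p n h (ΓC hn Γ ι)}
    (hend : ∀ (k : ℕ) (ζ : GaloisField p n), ∃ a, IsLead Γ k ζ a)
    {ϖ : C} (hϖ0 : ϖ ≠ 0)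
    {η₀ : C} {k₀ : ℕ} {R₀ : ℕ → ℝ} {I₀ : ℕ → Finset ℤ} {c₀ : ℕ → ℤ → C}
    (hL₀ : LFs D η₀ k₀ R₀ I₀ c₀) {y₀ : Pt (ΓC hn Γ ι)} (hy₀ : ‖y₀.val‖ = ‖η₀‖)
    {η : C} {R : ℕ → ℝ} {I : ℕ → Finset ℤ} {c : ℕ → ℤ → C} (hL : LFs D η k₀ R I c)
    {r : ℕ} {z : Fin r → Pt (ΓC hn Γ ι)} (hz : ∀ u, ‖(z u).val‖ ≤ ‖η‖)
    {κ₀ : C} (hκ₀ : κ₀ ≠ 0) {γ : Fin r → C} {j : ℕ} {g : C} (hg : g ≠ 0)
    (hγ : ∀ u, ‖γ u‖ ≤ ‖g‖) {k : ℕ} (hk : k₀ ≤ k)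
    (htop : ∃ᶠ m in atTop,
      ∑ u, rs (γ u / g) * frz p ((I k).sup' (hL.lf k hk).ne id + ((h * m : ℕ) : ℤ) + k)
        (rs ((z u).val / η)) ≠ 0)
    (hrel : ∀ (ζ : GaloisField p n), ζ ≠ 0 → ∀ (a) (ha : IsLead Γ k ζ a),
      CmpRel D ϖ κ₀ y₀ R₀ γ z R j k ha) :
    ‖ϖ‖ * R₀ k = (‖ϖ‖ * R k) ^ (p ^ j) := by
  refine le_antisymm (cmp_le hend hϖ0 hL₀ hy₀ hL hz hκ₀ hk hrel) ?_
  by_contra hcon
  push Not at hcon
  have hg' : 0 < ‖g‖ := norm_pos_iff.2 hg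
  have hϖ : 0 < ‖ϖ‖ := norm_pos_iff.2 hϖ0
  have hR₀ : 0 < R₀ k := (hL₀.lf k hk).Rpos
  have hR : 0 < R k := (hL.lf k hk).Rpos
  have h1 : ∃ᶠ m : ℕ in atTop, ∃ ζ : GaloisField p n, ζ ≠ 0 ∧ ∀ (a) (ha : IsLead Γ k ζ a),
      ‖∑ u, γ u * ((D.E (act hn ι ha.hom (z u))).val) ^ ((p ^ h) ^ m)‖ =
        ‖g‖ * (R k) ^ ((p ^ h) ^ m) :=
    htop.mono fun m hm => exists_zeta_comb hL hk hz hg hγ hm
  obtain ⟨ζ, hζf⟩ := x4_pigeon h1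
  obtain ⟨-, hζ, -⟩ := hζf.exists
  obtain ⟨a, ha⟩ := hend k ζ
  have hb := (hrel ζ hζ a ha).def (c := ‖g‖ ^ (p ^ j) / 2) (by positivity)
  obtain ⟨m, ⟨-, hm0⟩, hm1, hm2⟩ := (hζf.and_eventually (hb.and (x4_pow_lt (x4_Q D)
    (A := (‖ϖ‖ * R k) ^ (p ^ j)) (B := ‖ϖ‖ * R₀ k) (K := ‖κ₀‖) (ε := ‖g‖ ^ (p ^ j) / 2)
    (by positivity) (by positivity) hcon (by positivity)))).exists
  have hmax : max ((‖ϖ‖ * R₀ k) ^ ((p ^ h) ^ m)) (((‖ϖ‖ * R k) ^ (p ^ j)) ^ ((p ^ h) ^ m)) =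
      ((‖ϖ‖ * R k) ^ (p ^ j)) ^ ((p ^ h) ^ m) :=
    max_eq_right (pow_le_pow_left₀ (by positivity) hcon.le _)
  rw [hmax, Real.norm_of_nonneg (by positivity)] at hm1
  have h2 : ‖(∑ u, γ u * (ϖ * (D.E (act hn ι ha.hom (z u))).val) ^ ((p ^ h) ^ m)) ^ (p ^ j)‖ =
      ‖g‖ ^ (p ^ j) * ((‖ϖ‖ * R k) ^ (p ^ j)) ^ ((p ^ h) ^ m) := by
    have e : ∑ u, γ u * (ϖ * (D.E (act hn ι ha.hom (z u))).val) ^ ((p ^ h) ^ m) =
        ϖ ^ ((p ^ h) ^ m) *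
          ∑ u, γ u * ((D.E (act hn ι ha.hom (z u))).val) ^ ((p ^ h) ^ m) := by
      rw [Finset.mul_sum]
      refine Finset.sum_congr rfl fun u _ => ?_
      rw [mul_pow]; ring
    rw [e, norm_pow, norm_mul, norm_pow, hm0 a ha]
    rw [← pow_mul (‖ϖ‖ * R k), mul_comm (p ^ j) ((p ^ h) ^ m), pow_mul (‖ϖ‖ * R k), ← mul_pow,
      mul_pow (‖ϖ‖)]
    congr 1
    ring
  have h1' := x4_first (κ₀ := κ₀) (ϖ := ϖ) (x4_E_le hL₀ hk hy₀.le ha) ((p ^ h) ^ m)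
  have h3 : ‖(∑ u, γ u * (ϖ * (D.E (act hn ι ha.hom (z u))).val) ^ ((p ^ h) ^ m)) ^ (p ^ j)‖ ≤
      ‖κ₀ * (ϖ * (D.E (act hn ι ha.hom y₀)).val) ^ ((p ^ h) ^ m)‖ +
      ‖κ₀ * (ϖ * (D.E (act hn ι ha.hom y₀)).val) ^ ((p ^ h) ^ m) -
      (∑ u, γ u * (ϖ * (D.E (act hn ι ha.hom (z u))).val) ^ ((p ^ h) ^ m)) ^ (p ^ j)‖ := by
    have := norm_sub_le (κ₀ * (ϖ * (D.E (act hn ι ha.hom y₀)).val) ^ ((p ^ h) ^ m))
      (κ₀ * (ϖ * (D.E (act hn ι ha.hom y₀)).val) ^ ((p ^ h) ^ m) -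
      (∑ u, γ u * (ϖ * (D.E (act hn ι ha.hom (z u))).val) ^ ((p ^ h) ^ m)) ^ (p ^ j))
    rwa [sub_sub_cancel] at this
  rw [h2] at h3
  linarith

private theorem x4_frz_sum (j : ℕ) {ι' : Type} (s : Finset ι') (f : ι' → kap C) :
    (∑ i ∈ s, f i) ^ (p ^ j) = ∑ i ∈ s, (f i) ^ (p ^ j) := by
  rw [← frz_natCast (p := p) j, map_sum]
  exact Finset.sum_congr rfl fun i _ => frz_natCast _ _ _

/-- TASK X4d.  For the `k` of `exists_top_ne`: equality of sizes, and an exponent match: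
some `i ∈ I₀ k` is congruent to `i⁺_k + j` modulo `n`.
Proof: let `g` be a `γ_u` of maximal norm, `k` from `exists_top_ne` for `rs(γ_u/g)`.
For infinitely many `m` X4b gives a `ζ(m)` (finitely many `ζ`: some `ζ` occurs infinitely often)
with `‖Σ..‖^{p^j} = ‖g‖^{p^j} (..)`, so if `‖ϖ‖R₀_k < (‖ϖ‖R_k)^{p^j}` the relation would fail; with
`cmp_le` we get equality.  Then (X4a) `‖κ₀‖ ≤ ‖g‖^{p^j}`.  Divide the relation by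
`g^{p^j} (ϖ ϖ_k)^{p^j Q^m}`, `‖ϖ_k‖ = R_k` and take residues for large `m` (all `ζ ≠ 0`): with
`ξ = ϖ ϖ₀_k/(ϖ ϖ_k)^{p^j}` (norm one), `‖ϖ₀_k‖ = R₀_k`:
`rs(κ₀/g^{p^j}) rs(ξ)^{Q^m} Σ_{i ∈ I₀} (..)frz_{i+hm}(ζ) = (Σ_{i∈I} ..frz_{i+hm}(ζ))^{p^j}`
`= Σ_{i ∈ I} (..)^{p^j} frz_{i+hm+j}(ζ)`; for infinitely many `m` the coefficient for
`i = i⁺_k` on the right is nonzero, so by `characters` its exponent occurs on the left. -/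
theorem cmp_match {hn : 1 ≤ n} {ι : GaloisField p n →+* C} {D : Datum p n h (ΓC hn Γ ι)}
    (hend : ∀ (k : ℕ) (ζ : GaloisField p n), ∃ a, IsLead Γ k ζ a)
    {ϖ : C} (hϖ0 : ϖ ≠ 0)
    {η₀ : C} {k₀ : ℕ} {R₀ : ℕ → ℝ} {I₀ : ℕ → Finset ℤ} {c₀ : ℕ → ℤ → C}
    (hL₀ : LFs D η₀ k₀ R₀ I₀ c₀) {y₀ : Pt (ΓC hn Γ ι)} (hy₀ : ‖y₀.val‖ = ‖η₀‖)
    {η : C} {R : ℕ → ℝ} {I : ℕ → Finset ℤ} {c : ℕ → ℤ → C} (hL : LFs D η k₀ R I c)
    {r : ℕ} {z : Fin r → Pt (ΓC hn Γ ι)} (hz : Indep (p := p) η z)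
    {κ₀ : C} (hκ₀ : κ₀ ≠ 0) {γ : Fin r → C} (hγ : γ ≠ 0) {j : ℕ}
    (hrel : ∀ k, k₀ ≤ k → ∀ (ζ : GaloisField p n), ζ ≠ 0 → ∀ (a) (ha : IsLead Γ k ζ a),
      CmpRel D ϖ κ₀ y₀ R₀ γ z R j k ha) :
    ∃ (k : ℕ) (hk : k₀ ≤ k), ‖ϖ‖ * R₀ k = (‖ϖ‖ * R k) ^ (p ^ j) ∧
      ∃ i ∈ I₀ k, (n : ℤ) ∣ i - ((I k).sup' (hL.lf k hk).ne id + j) := by
  -- maximal coefficient
  obtain ⟨u₁, hu₁⟩ : ∃ u, γ u ≠ 0 := by
    by_contra hcon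
    push Not at hcon
    exact hγ (funext hcon)
  obtain ⟨u₀, -, hu₀⟩ := Finset.exists_max_image Finset.univ (fun u => ‖γ u‖) ⟨u₁, Finset.mem_univ _⟩
  have hg' : 0 < ‖γ u₀‖ := lt_of_lt_of_le (norm_pos_iff.2 hu₁) (hu₀ u₁ (Finset.mem_univ _))
  have hg : γ u₀ ≠ 0 := norm_pos_iff.1 hg'
  have hγg : ∀ u, ‖γ u‖ ≤ ‖γ u₀‖ := fun u => hu₀ u (Finset.mem_univ _)
  have hγ1 : ∀ u, ‖γ u / γ u₀‖ ≤ 1 := fun u => by
    rw [norm_div, div_le_one hg']; exact hγg u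
  have hne : (fun u => rs (γ u / γ u₀)) ≠ 0 := by
    intro h0
    have := congrFun h0 u₀
    simp only [div_self hg, rs_one, Pi.zero_apply] at this
    exact one_ne_zero this
  obtain ⟨k, hk, htop⟩ := exists_top_ne hL hz hne
  have hAB := x4_size_eq hend hϖ0 hL₀ hy₀ hL hz.le hκ₀ hg hγg hk htop (hrel k hk)
  refine ⟨k, hk, hAB, ?_⟩
  have hϖ : 0 < ‖ϖ‖ := norm_pos_iff.2 hϖ0
  have hR₀ : 0 < R₀ k := (hL₀.lf k hk).Rpos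
  have hR : 0 < R k := (hL.lf k hk).Rpos
  have hκ : 0 < ‖κ₀‖ := norm_pos_iff.2 hκ₀
  have hgp : 0 < ‖γ u₀‖ ^ (p ^ j) := by positivity
  -- ‖κ₀‖ ≤ ‖g‖ ^ (p ^ j)
  have hκg : ‖κ₀‖ ≤ ‖γ u₀‖ ^ (p ^ j) := by
    obtain ⟨ζ, hζ, heq⟩ := exists_zeta_eq hL₀ hk hy₀
    obtain ⟨a, ha⟩ := hend k ζ
    refine le_of_forall_pos_le_add fun ε hε => ?_
    obtain ⟨m, hm1⟩ := ((hrel k hk ζ hζ a ha).def (c := ε) hε).exists
    rw [← hAB, max_self, Real.norm_of_nonneg (by positivity)] at hm1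
    have h2 := x4_second (γ := γ) (E := fun u => (D.E (act hn ι ha.hom (z u))).val) (ϖ := ϖ)
      hg'.le hR.le hγg (fun u => x4_E_le hL hk (hz.le u) ha) ((p ^ h) ^ m) (p ^ j)
    rw [← hAB] at h2
    have h1 : ‖κ₀ * (ϖ * (D.E (act hn ι ha.hom y₀)).val) ^ ((p ^ h) ^ m)‖ =
        ‖κ₀‖ * (‖ϖ‖ * R₀ k) ^ ((p ^ h) ^ m) := by
      rw [norm_mul, norm_pow, norm_mul, heq a ha]
    have h3 : ‖κ₀ * (ϖ * (D.E (act hn ι ha.hom y₀)).val) ^ ((p ^ h) ^ m)‖ ≤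
        ‖κ₀ * (ϖ * (D.E (act hn ι ha.hom y₀)).val) ^ ((p ^ h) ^ m) -
        (∑ u, γ u * (ϖ * (D.E (act hn ι ha.hom (z u))).val) ^ ((p ^ h) ^ m)) ^ (p ^ j)‖ +
        ‖(∑ u, γ u * (ϖ * (D.E (act hn ι ha.hom (z u))).val) ^ ((p ^ h) ^ m)) ^ (p ^ j)‖ := by
      have := norm_add_le (κ₀ * (ϖ * (D.E (act hn ι ha.hom y₀)).val) ^ ((p ^ h) ^ m) -
        (∑ u, γ u * (ϖ * (D.E (act hn ι ha.hom (z u))).val) ^ ((p ^ h) ^ m)) ^ (p ^ j))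
        ((∑ u, γ u * (ϖ * (D.E (act hn ι ha.hom (z u))).val) ^ ((p ^ h) ^ m)) ^ (p ^ j))
      rwa [sub_add_cancel] at this
    rw [h1] at h3
    have h4 : ‖κ₀‖ * (‖ϖ‖ * R₀ k) ^ ((p ^ h) ^ m) ≤
        (‖γ u₀‖ ^ (p ^ j) + ε) * (‖ϖ‖ * R₀ k) ^ ((p ^ h) ^ m) := by linarith
    exact le_of_mul_le_mul_right h4 (by positivity)
  -- uniformizers of the two sizes
  have hY0 : η ^ (p ^ k) ≠ 0 := pow_ne_zero _ hL.ne
  have hY00 : η₀ ^ (p ^ k) ≠ 0 := pow_ne_zero _ hL₀.ne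
  have hp0 : p ^ k ≠ 0 := pow_ne_zero _ (Fact.out : p.Prime).ne_zero
  have hY1 : ‖η ^ (p ^ k)‖ < 1 := by
    rw [norm_pow]; exact pow_lt_one₀ (norm_nonneg _) hL.lt hp0
  have hY01 : ‖η₀ ^ (p ^ k)‖ < 1 := by
    rw [norm_pow]; exact pow_lt_one₀ (norm_nonneg _) hL₀.lt hp0
  obtain ⟨ϖk, hϖk, hϖk0⟩ := x4_exists_pi (hL.lf k hk)
  obtain ⟨ϖ0k, hϖ0k, hϖ0k0⟩ := x4_exists_pi (hL₀.lf k hk)
  have hinc := x4_incong hY0 hY1 (hL.lf k hk) (hL.lin k hk)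
  have hinc0 := x4_incong hY00 hY01 (hL₀.lf k hk) (hL₀.lin k hk)
  -- a good m
  have hev : ∀ᶠ m : ℕ in atTop, ∀ ζ : GaloisField p n, ζ ≠ 0 → ∃ a, ∃ ha : IsLead Γ k ζ a,
      ‖κ₀ * (ϖ * (D.E (act hn ι ha.hom y₀)).val) ^ ((p ^ h) ^ m) -
      (∑ u, γ u * (ϖ * (D.E (act hn ι ha.hom (z u))).val) ^ ((p ^ h) ^ m)) ^ (p ^ j)‖ <
        ‖γ u₀‖ ^ (p ^ j) * (‖ϖ‖ * R₀ k) ^ ((p ^ h) ^ m) := by
    rw [eventually_all]
    intro ζ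
    by_cases hζ : ζ = 0
    · exact Eventually.of_forall fun m h0 => absurd hζ h0
    · obtain ⟨a, ha⟩ := hend k ζ
      filter_upwards [(hrel k hk ζ hζ a ha).def (c := ‖γ u₀‖ ^ (p ^ j) / 2) (by positivity)]
        with m hm _
      rw [← hAB, max_self, Real.norm_of_nonneg (by positivity)] at hm
      refine ⟨a, ha, lt_of_le_of_lt hm ?_⟩
      have : 0 < (‖ϖ‖ * R₀ k) ^ ((p ^ h) ^ m) := by positivity
      nlinarith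
  obtain ⟨m, hmtop, hmev⟩ := (htop.and_eventually hev).exists
  set ξ : C := ϖ * ϖ0k / (ϖ * ϖk) ^ (p ^ j) with hξ
  have hξ1 : ‖ξ‖ = 1 := by
    rw [hξ, norm_div, norm_pow, norm_mul, norm_mul, hϖk, hϖ0k, ← hAB, div_self (by positivity)]
  have hκ1 : ‖κ₀ / (γ u₀) ^ (p ^ j)‖ ≤ 1 := by
    rw [norm_div, norm_pow, div_le_one hgp]; exact hκg
  -- the identity of residues
  have hid : ∀ ζ : GaloisField p n, ζ ≠ 0 →
      ∑ i ∈ (I₀ k).image (fun i => i + ((h * m : ℕ) : ℤ)),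
        (rs (c₀ k (i - ((h * m : ℕ) : ℤ)) * frz p (i - ((h * m : ℕ) : ℤ)) (η₀ ^ (p ^ k)) / ϖ0k) ^
          ((p ^ h) ^ m) * ∑ _u : Fin 1, (rs (κ₀ / (γ u₀) ^ (p ^ j)) * rs ξ ^ ((p ^ h) ^ m)) *
            frz p (i + k) (rs (y₀.val / η₀))) * frz p i (iotaK ι (norm_iota_le hn ι) ζ) =
      ∑ i ∈ ((I k).image (fun i => i + ((h * m : ℕ) : ℤ))).image (fun i => i + (j : ℤ)),
        (rs (c k (i - j - ((h * m : ℕ) : ℤ)) * frz p (i - j - ((h * m : ℕ) : ℤ)) (η ^ (p ^ k)) /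
          ϖk) ^ ((p ^ h) ^ m) * ∑ u, rs (γ u / γ u₀) * frz p (i - j + k)
            (rs ((z u).val / η))) ^ (p ^ j) * frz p i (iotaK ι (norm_iota_le hn ι) ζ) := by
    intro ζ hζ
    obtain ⟨a, ha, hlt⟩ := hmev ζ hζ
    rw [← residue_comb hn ι D hL₀.ne hL₀.lt (hL₀.lf k hk) hϖ0k ha (fun _ : Fin 1 => y₀)
      (fun _ => hy₀.le) (fun _ => rs (κ₀ / (γ u₀) ^ (p ^ j)) * rs ξ ^ ((p ^ h) ^ m)) m]
    have hrhs : ∑ i ∈ ((I k).image (fun i => i + ((h * m : ℕ) : ℤ))).image (fun i => i + (j : ℤ)),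
        (rs (c k (i - j - ((h * m : ℕ) : ℤ)) * frz p (i - j - ((h * m : ℕ) : ℤ)) (η ^ (p ^ k)) /
          ϖk) ^ ((p ^ h) ^ m) * ∑ u, rs (γ u / γ u₀) * frz p (i - j + k)
            (rs ((z u).val / η))) ^ (p ^ j) * frz p i (iotaK ι (norm_iota_le hn ι) ζ) =
        (∑ u, rs (γ u / γ u₀) * rs ((D.E (act hn ι ha.hom (z u))).val / ϖk) ^ ((p ^ h) ^ m)) ^
          (p ^ j) := by
      rw [residue_comb hn ι D hL.ne hL.lt (hL.lf k hk) hϖk ha z hz.le, x4_frz_sum,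
        Finset.sum_image (by
          intro x _ y _ hxy
          simpa using hxy)]
      refine Finset.sum_congr rfl fun i _ => ?_
      rw [add_sub_cancel_right, mul_pow _ (frz p i _), ← frz_natCast (p := p) j (frz p i _),
        ← frz_add, add_comm (j : ℤ) i]
    rw [hrhs, Fin.sum_univ_one]
    have hE0 : ‖(D.E (act hn ι ha.hom y₀)).val / ϖ0k‖ ≤ 1 := by
      rw [norm_div, hϖ0k, div_le_one hR₀]; exact x4_E_le hL₀ hk hy₀.le ha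
    have hEu : ∀ u, ‖(D.E (act hn ι ha.hom (z u))).val / ϖk‖ ≤ 1 := fun u => by
      rw [norm_div, hϖk, div_le_one hR]; exact x4_E_le hL hk (hz.le u) ha
    have hterm : ∀ u, ‖(γ u / γ u₀) * ((D.E (act hn ι ha.hom (z u))).val / ϖk) ^
        ((p ^ h) ^ m)‖ ≤ 1 := fun u => by
      rw [norm_mul, norm_pow]
      exact mul_le_one₀ (hγ1 u) (by positivity) (pow_le_one₀ (norm_nonneg _) (hEu u))
    have hsum : ‖∑ u, (γ u / γ u₀) * ((D.E (act hn ι ha.hom (z u))).val / ϖk) ^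
        ((p ^ h) ^ m)‖ ≤ 1 := x4_sum_norm_le _ zero_le_one hterm
    have hfst : ‖κ₀ / (γ u₀) ^ (p ^ j) * ξ ^ ((p ^ h) ^ m) *
        ((D.E (act hn ι ha.hom y₀)).val / ϖ0k) ^ ((p ^ h) ^ m)‖ ≤ 1 := by
      rw [norm_mul, norm_mul, norm_pow, norm_pow, hξ1, one_pow, mul_one]
      exact mul_le_one₀ hκ1 (by positivity) (pow_le_one₀ (norm_nonneg _) hE0)
    have e1 : rs (κ₀ / (γ u₀) ^ (p ^ j)) * rs ξ ^ ((p ^ h) ^ m) *
        rs ((D.E (act hn ι ha.hom y₀)).val / ϖ0k) ^ ((p ^ h) ^ m) =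
        rs (κ₀ / (γ u₀) ^ (p ^ j) * ξ ^ ((p ^ h) ^ m) *
        ((D.E (act hn ι ha.hom y₀)).val / ϖ0k) ^ ((p ^ h) ^ m)) := by
      rw [rs_mul _ (by rw [norm_pow]; exact pow_le_one₀ (norm_nonneg _) hE0),
        rs_mul hκ1 (by rw [norm_pow, hξ1, one_pow]), rs_pow hξ1.le, rs_pow hE0]
      rw [norm_mul, norm_pow, hξ1, one_pow, mul_one]; exact hκ1
    have e2 : (∑ u, rs (γ u / γ u₀) * rs ((D.E (act hn ι ha.hom (z u))).val / ϖk) ^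
        ((p ^ h) ^ m)) ^ (p ^ j) = rs ((∑ u, (γ u / γ u₀) *
          ((D.E (act hn ι ha.hom (z u))).val / ϖk) ^ ((p ^ h) ^ m)) ^ (p ^ j)) := by
      rw [rs_pow hsum, rs_sum _ _ (fun u _ => hterm u)]
      congr 1
      refine Finset.sum_congr rfl fun u _ => ?_
      rw [rs_mul (hγ1 u) (by rw [norm_pow]; exact pow_le_one₀ (norm_nonneg _) (hEu u)),
        rs_pow (hEu u)]
    rw [e1, e2]
    apply rs_eq_of_lt hfst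
    have e3 : κ₀ / (γ u₀) ^ (p ^ j) * ξ ^ ((p ^ h) ^ m) *
        ((D.E (act hn ι ha.hom y₀)).val / ϖ0k) ^ ((p ^ h) ^ m) -
        (∑ u, (γ u / γ u₀) * ((D.E (act hn ι ha.hom (z u))).val / ϖk) ^ ((p ^ h) ^ m)) ^ (p ^ j) =
        (κ₀ * (ϖ * (D.E (act hn ι ha.hom y₀)).val) ^ ((p ^ h) ^ m) -
      (∑ u, γ u * (ϖ * (D.E (act hn ι ha.hom (z u))).val) ^ ((p ^ h) ^ m)) ^ (p ^ j)) /
        ((γ u₀) ^ (p ^ j) * ((ϖ * ϖk) ^ (p ^ j)) ^ ((p ^ h) ^ m)) := by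
      have e4 : ∑ u, (γ u / γ u₀) * ((D.E (act hn ι ha.hom (z u))).val / ϖk) ^ ((p ^ h) ^ m) =
          (∑ u, γ u * (ϖ * (D.E (act hn ι ha.hom (z u))).val) ^ ((p ^ h) ^ m)) /
            (γ u₀ * (ϖ * ϖk) ^ ((p ^ h) ^ m)) := by
        rw [Finset.sum_div]
        refine Finset.sum_congr rfl fun u _ => ?_
        rw [div_pow, mul_pow, mul_pow]
        field_simp
      have e5 : κ₀ / (γ u₀) ^ (p ^ j) * ξ ^ ((p ^ h) ^ m) *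
        ((D.E (act hn ι ha.hom y₀)).val / ϖ0k) ^ ((p ^ h) ^ m) =
        (κ₀ * (ϖ * (D.E (act hn ι ha.hom y₀)).val) ^ ((p ^ h) ^ m)) /
          ((γ u₀) ^ (p ^ j) * ((ϖ * ϖk) ^ (p ^ j)) ^ ((p ^ h) ^ m)) := by
        rw [hξ, div_pow, div_pow, mul_pow, mul_pow ϖ (D.E _).val]
        field_simp
      rw [e4, e5, div_pow (∑ u, γ u * _), mul_pow (γ u₀), sub_div,
        ← pow_mul (ϖ * ϖk) ((p ^ h) ^ m), mul_comm ((p ^ h) ^ m) (p ^ j), pow_mul (ϖ * ϖk)]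
    rw [e3, norm_div, div_lt_one (by
      rw [norm_mul, norm_pow, norm_pow, norm_pow, norm_mul, hϖk]; positivity)]
    rw [norm_mul, norm_pow, norm_pow, norm_pow, norm_mul, hϖk, ← hAB]
    exact hlt
  have hmem : (I k).sup' (hL.lf k hk).ne id + ((h * m : ℕ) : ℤ) + (j : ℤ) ∈
      ((I k).image (fun i => i + ((h * m : ℕ) : ℤ))).image (fun i => i + (j : ℤ)) :=
    Finset.mem_image_of_mem (fun i => i + (j : ℤ))
      (Finset.mem_image_of_mem (fun i => i + ((h * m : ℕ) : ℤ)) (x4_top_mem _))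
  obtain ⟨i, hi, hd, -⟩ := characters (p := p) hn (iotaK ι (norm_iota_le hn ι))
    ((I₀ k).image (fun i => i + ((h * m : ℕ) : ℤ)))
    (((I k).image (fun i => i + ((h * m : ℕ) : ℤ))).image (fun i => i + (j : ℤ))) _ _
    (x4_image_incong hinc0 _) (x4_image_incong (x4_image_incong hinc _) _) hid hmem
    (by
      rw [add_sub_cancel_right, add_sub_cancel_right]
      exact pow_ne_zero _ (mul_ne_zero (pow_ne_zero _ (residue_coeff_ne (hL.lf k hk) hϖk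
        (x4_top_mem _))) hmtop))
  obtain ⟨i', hi', rfl⟩ := Finset.mem_image.1 hi
  refine ⟨i', hi', ?_⟩
  have e : i' + ((h * m : ℕ) : ℤ) - ((I k).sup' (hL.lf k hk).ne id + ((h * m : ℕ) : ℤ) +
      (j : ℤ)) = i' - ((I k).sup' (hL.lf k hk).ne id + j) := by ring
  rwa [e] at hd

/-- TASK X4e (COMPARISON).  If moreover `j < h` and `ϖ^{Q-1} = v`, then `‖η₀‖ = ‖η‖` and `j = 0`.
Proof: let `k, i` be as in `cmp_match`, `R̂ = ‖ϖ‖ R`.  `R̂_{k+n} = R̂_k^Q` (`LFs.step`,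
`‖v‖ = ‖ϖ‖^{Q-1}`), `R̂₀_k = R̂_k^{p^j}`, `1 ≤ p^j < Q`, `0 < R̂_k < 1`, so
`R_{k+n} < R₀_k ≤ R_k`, hence by `LF.mono` (contrapositive) `‖η‖^{q} < ‖η₀‖ ≤ ‖η‖`; by
`LF.mono`/`LF.unique` `i⁺_k - (n-h) = i⁺_{k+n} ≤ i ≤ i⁺_k`.  So `t = i⁺_k - i ∈ [0, n-h]` and
`n ∣ t + j`, `0 ≤ t + j ≤ n - h + h - 1 < n`, so `t = j = 0`, `R₀_k = R_k`, and `‖η₀‖ = ‖η‖` by
`LF.mono`. -/
theorem comparison {hn : 1 ≤ n} {ι : GaloisField p n →+* C} {D : Datum p n h (ΓC hn Γ ι)}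
    (hend : ∀ (k : ℕ) (ζ : GaloisField p n), ∃ a, IsLead Γ k ζ a)
    {ϖ : C} (hϖ0 : ϖ ≠ 0) (hϖ1 : ‖ϖ‖ < 1)
    (hϖ : ϖ ^ (p ^ h - 1) = PowerSeries.coeff 1 D.V)
    {η₀ : C} {k₀ : ℕ} {R₀ : ℕ → ℝ} {I₀ : ℕ → Finset ℤ} {c₀ : ℕ → ℤ → C}
    (hL₀ : LFs D η₀ k₀ R₀ I₀ c₀) {y₀ : Pt (ΓC hn Γ ι)} (hy₀ : ‖y₀.val‖ = ‖η₀‖)
    {η : C} {R : ℕ → ℝ} {I : ℕ → Finset ℤ} {c : ℕ → ℤ → C} (hL : LFs D η k₀ R I c)
    {r : ℕ} {z : Fin r → Pt (ΓC hn Γ ι)} (hz : Indep (p := p) η z)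
    {κ₀ : C} (hκ₀ : κ₀ ≠ 0) {γ : Fin r → C} (hγ : γ ≠ 0) {j : ℕ} (hj : j < h)
    (hrel : ∀ k, k₀ ≤ k → ∀ (ζ : GaloisField p n), ζ ≠ 0 → ∀ (a) (ha : IsLead Γ k ζ a),
      CmpRel D ϖ κ₀ y₀ R₀ γ z R j k ha) :
    ‖η₀‖ = ‖η‖ ∧ j = 0 := by
  obtain ⟨k, hk, hAB, i, hi, hd⟩ := cmp_match hend hϖ0 hL₀ hy₀ hL hz hκ₀ hγ hrel
  have hh1 := D.h1
  have hh2 := D.h2
  have hp1 : 1 < p := (Fact.out : p.Prime).one_lt
  have hϖ : 0 < ‖ϖ‖ ∧ ‖ϖ‖ ^ (p ^ h - 1) = ‖PowerSeries.coeff 1 D.V‖ := by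
    refine ⟨norm_pos_iff.2 hϖ0, ?_⟩
    rw [← norm_pow, hϖ]
  obtain ⟨hϖp, hϖn⟩ := hϖ
  have hR₀ : 0 < R₀ k := (hL₀.lf k hk).Rpos
  have hR : 0 < R k := (hL.lf k hk).Rpos
  have hQ1 : 1 < p ^ h := x4_Q D
  obtain ⟨-, htop, hRn⟩ := hL.step hk
  have hkn : k₀ ≤ k + n := by omega
  -- `R̂ = ‖ϖ‖ R < 1`
  have hRh : ‖ϖ‖ * R k < 1 := by
    have h1 : (‖ϖ‖ * R k) ^ (p ^ h) < 1 := by
      rw [mul_pow]
      have h2 := hL.lin k hk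
      have h3 : ‖PowerSeries.coeff 1 D.V‖ ≤ 1 := by
        rw [← hϖn]; exact pow_le_one₀ (norm_nonneg _) hϖ1.le
      have h4 : ‖ϖ‖ ^ (p ^ h) ≤ 1 := pow_le_one₀ (norm_nonneg _) hϖ1.le
      have h5 : 0 < R k ^ (p ^ h) := by positivity
      nlinarith
    by_contra hcon
    push Not at hcon
    exact absurd h1 (not_lt.2 (one_le_pow₀ hcon))
  have hRhn : ‖ϖ‖ * R (k + n) = (‖ϖ‖ * R k) ^ (p ^ h) := by
    rw [hRn, ← hϖn, mul_pow, ← mul_assoc, ← pow_succ']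
    congr 2
    omega
  have hpj1 : 1 ≤ p ^ j := Nat.one_le_pow _ _ (by omega)
  have hle : R₀ k ≤ R k := by
    have : ‖ϖ‖ * R₀ k ≤ ‖ϖ‖ * R k := by
      rw [hAB]
      calc (‖ϖ‖ * R k) ^ (p ^ j) ≤ (‖ϖ‖ * R k) ^ 1 :=
            pow_le_pow_of_le_one (by positivity) hRh.le hpj1
        _ = _ := pow_one _
    exact le_of_mul_le_mul_left this hϖp
  have hlt : R (k + n) < R₀ k := by
    have : ‖ϖ‖ * R (k + n) < ‖ϖ‖ * R₀ k := by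
      rw [hAB, hRhn]
      exact pow_lt_pow_right_of_lt_one₀ (by positivity) hRh (Nat.pow_lt_pow_right hp1 hj)
    exact lt_of_mul_lt_mul_left this hϖp.le
  have hpos : ∀ (x : C) (_ : x ≠ 0) (_ : ‖x‖ < 1) (e : ℕ), x ^ (p ^ e) ≠ 0 ∧ ‖x ^ (p ^ e)‖ < 1 :=
    fun x h0 h1 e => ⟨pow_ne_zero _ h0, by
      rw [norm_pow]
      exact pow_lt_one₀ (norm_nonneg _) h1 (pow_ne_zero _ (by omega))⟩
  obtain ⟨a1, a2⟩ := hpos η hL.ne hL.lt k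
  obtain ⟨b1, b2⟩ := hpos η₀ hL₀.ne hL₀.lt k
  obtain ⟨d1, d2⟩ := hpos η hL.ne hL.lt (k + n)
  have hLk := hL.lf k hk
  have hLkn := hL.lf (k + n) hkn
  have hL0k := hL₀.lf k hk
  have hN1 : ‖η ^ (p ^ (k + n))‖ < ‖η₀ ^ (p ^ k)‖ := by
    rcases lt_trichotomy (‖η ^ (p ^ (k + n))‖) (‖η₀ ^ (p ^ k)‖) with hc | hc | hc
    · exact hc
    · exfalso
      rw [hc] at hLkn
      have := (LF.unique b1 b2 hLkn hL0k).1
      exact absurd this hlt.ne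
    · exfalso
      have := (LF.mono b1 hc d2 hL0k hLkn).1
      exact absurd this (not_lt.2 hlt.le)
  have hN2 : ‖η₀ ^ (p ^ k)‖ ≤ ‖η ^ (p ^ k)‖ := by
    by_contra hc
    push Not at hc
    have := (LF.mono a1 hc b2 hLk hL0k).1
    exact absurd this (not_lt.2 hle)
  have hi1 : (I (k + n)).sup' hLkn.ne id ≤ i :=
    (LF.mono d1 hN1 b2 hLkn hL0k).2 _ (x4_top_mem _) i hi
  have hi2 : i ≤ (I k).sup' hLk.ne id := by
    rcases hN2.lt_or_eq with hc | hc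
    · exact (LF.mono b1 hc a2 hL0k hLk).2 i hi _ (x4_top_mem _)
    · rw [hc] at hL0k
      have := (LF.unique a1 a2 hL0k hLk).2
      rw [this] at hi
      exact Finset.le_sup' id hi
  have htop' : (I (k + n)).sup' hLkn.ne id = (I k).sup' hLk.ne id - ((n - h : ℕ) : ℤ) := htop
  rw [htop'] at hi1
  have hnh : ((n - h : ℕ) : ℤ) = (n : ℤ) - h := by
    rw [Nat.cast_sub hh2.le]
  rw [hnh] at hi1
  have hjh : (j : ℤ) < h := by exact_mod_cast hj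
  set T := (I k).sup' hLk.ne id with hT
  obtain ⟨q, hq⟩ := hd
  have hq' : i - (T + j) = n * q := hq
  have hn0 : (1 : ℤ) ≤ n := by exact_mod_cast hn
  have hq0 : q = 0 := by
    by_contra hne
    rcases lt_or_gt_of_ne hne with hlt' | hgt
    · have : (n : ℤ) * q ≤ -n := by nlinarith
      omega
    · have : (n : ℤ) ≤ n * q := by nlinarith
      omega
  rw [hq0, mul_zero] at hq'
  have hj0 : j = 0 := by omega
  refine ⟨?_, hj0⟩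
  have hRR : R₀ k = R k := by
    rw [hj0, pow_zero, pow_one] at hAB
    exact mul_left_cancel₀ hϖp.ne' hAB
  have hN3 : ‖η₀ ^ (p ^ k)‖ = ‖η ^ (p ^ k)‖ := by
    rcases hN2.lt_or_eq with hc | hc
    · exact absurd hRR (LF.mono b1 hc a2 hL0k hLk).1.ne
    · exact hc
  rw [norm_pow, norm_pow] at hN3
  exact (pow_left_inj₀ (norm_nonneg _) (norm_nonneg _) (pow_ne_zero _ (by omega))).1 hN3

end Crest.Agent.LU
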