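import Mathlib
import Crest.Agent.LU_F1c
import Crest.Agent.LU_X4
import Crest.Agent.LU_T2

/-!
S0351 (blueprint LU), task F3: the second step, derivation of the relation.
-/

set_option autoImplicit false

noncomputable section

namespace Crest.Agent.LU

open Crest.LubinTate Filter Asymptotics

variable {p : ℕ} [Fact p.Prime] {n : ℕ} {Γ : FormalGroup (GaloisField p n)} [Γ.IsComm]
  {H : FormalGroup (LTRing p n)} [H.IsComm]
  {C : Type} [NontriviallyNormedField C] [IsUltrametricDist C] [CompleteSpace C]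
  [IsAlgClosed C] [CharP C p]
  {h h' : ℕ} {P : Ideal (LTRing p n)} {S : Situ Γ H h h' P}
  {x : LTRing p n →+* C} {hx : IsPoint P x} {ι : GaloisField p n →+* C} {hι : IsOver ι x}
  {ϖ : C} {κ : ℕ → Pt (ΓC S.hn Γ ι) → C}

/-- The first order relation of `bb2`: the displacement of `τ₀ = U_{N'}(y₀)` is the `p^j`-th power
of a linear combination of the displacements of `τ_u = U_1(z_u)`. -/
def PowRel {h h' : ℕ} {P : Ideal (LTRing p n)} (S : Situ Γ H h h' P)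
    {x : LTRing p n →+* C} (hx : IsPoint P x) {ι : GaloisField p n →+* C} (hι : IsOver ι x)
    (N' : ℕ) (y₀ : Pt (ΓC S.hn Γ ι)) (j : ℕ) {r : ℕ} (γ : Fin r → C)
    (z : Fin r → Pt (ΓC S.hn Γ ι)) : Prop :=
  ∀ χ, IsProbe H h P x χ → ∀ (t : ℕ → Fin r → C) (t₀ : ℕ → C),
    RootSeq H h χ (fun u => (mkD S hx hι).U 1 (z u)) t →
    (∀ᶠ m in atTop, t₀ m ∈ rts (VN p h (VS H h (χ m)) N')) →
    Tendsto t₀ atTop (nhds ((mkD S hx hι).U N' y₀)) →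
    ∃ ε : ℕ → C, (∀ m, ε m ^ (p ^ j) = t₀ m - (mkD S hx hι).U N' y₀) ∧
      (fun m => ε m - ∑ i, γ i * (t m i - (mkD S hx hι).U 1 (z i))) =O[atTop]
        (fun m => (del H h x (χ m)) ^ 2)

private theorem F3_pow_lt {Q : ℕ} (hQ : 1 < Q) {A B K ε : ℝ} (hA : 0 < A) (hB : 0 ≤ B)
    (hBA : B < A) (hε : 0 < ε) : ∀ᶠ m : ℕ in atTop, K * B ^ (Q ^ m) < ε * A ^ (Q ^ m) := by
  have h1 : Tendsto (fun m : ℕ => K * (B / A) ^ (Q ^ m)) atTop (nhds (K * 0)) := by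
    apply Tendsto.const_mul
    exact (tendsto_pow_atTop_nhds_zero_of_lt_one (by positivity) ((div_lt_one hA).2 hBA)).comp
      (tendsto_pow_atTop_atTop_of_one_lt hQ)
  rw [mul_zero] at h1
  filter_upwards [h1.eventually (gt_mem_nhds hε)] with m hm
  rw [div_pow, mul_div_assoc', div_lt_iff₀ (by positivity)] at hm
  exact hm

/-- TASK F3a.  Size comparison: if `‖η‖^{q^{N'}} < ‖y₀‖` then `j < h N'`, i.e. `PowRel` with
`j = h N'` is impossible.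
Proof: let `LFs` for `y₀.val` with data `R₀` (`exists_LFs`; enlarge `k₀`), `k ≥ k₀`, `ζ` from
`exists_zeta_eq` (so `‖E(a y₀)‖ = R₀_k`), `χ` a probe.  `ε_m = O((‖ϖ‖R_k)^{Q^m})` by `expansion` and
`del_bound`, so `t₀ - τ₀ = ε_m^{Q^{N'}} = O(((‖ϖ‖R_k)^{Q^{N'}})^{Q^m})`, while by `expansion`
`t₀ - τ₀ = κ (ϖ E(a y₀))^{Q^m}(1 + ε) + O(((‖ϖ‖R_k)^{Q^{N'}})^{Q^m})` has exact order
`(‖ϖ‖R₀_k)^{Q^m}`; and `(‖ϖ‖R_k)^{Q^{N'}} = ‖ϖ‖R_{k+nN'} < ‖ϖ‖R₀_k` (`LFs.step`, `LF.mono`,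
`‖ϖ‖^{Q-1} = ‖v‖`). -/
theorem powRel_lt (hend : ∀ (k : ℕ) (ζ : GaloisField p n), ∃ a, IsLead Γ k ζ a)
    (hϖ0 : ϖ ≠ 0) (hϖ1 : ‖ϖ‖ < 1) (hϖ : ϖ ^ (p ^ h - 1) = x (vv H h))
    (hκ : ∀ N y, κ N y ≠ 0) (hP : HasPrb S hx hι ϖ κ)
    {η : C} {r : ℕ} {z : Fin r → Pt (ΓC S.hn Γ ι)}
    (hz : SlopeBasis (mkD S hx hι).T p η z) {y₀ : Pt (ΓC S.hn Γ ι)}
    (hy₀ : y₀ ∈ (mkD S hx hι).T) (hy0 : y₀.val ≠ 0) {N' : ℕ} (hN1 : 1 ≤ N')
    (hN : ‖η‖ ^ (p ^ (n * N')) < ‖y₀.val‖) (γ : Fin r → C)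
    (hrel : PowRel S hx hι N' y₀ (h * N') γ z) : False := by
  have hp : p.Prime := Fact.out
  have hQ : 1 < p ^ h := Nat.one_lt_pow (by have := S.h1; omega) hp.one_lt
  obtain ⟨k₁, R, I, c, hL1⟩ := exists_LFs (mkD S hx hι) hz.ne hz.lt
  have hy1 : ‖y₀.val‖ < 1 := (hz.max y₀ hy₀).trans_lt hz.lt
  obtain ⟨k₂, R₀, I₀, c₀, hL2⟩ := exists_LFs (mkD S hx hι) hy0 hy1
  set k : ℕ := max k₁ k₂ with hkdef
  have hL : LFs (mkD S hx hι) η k R I c :=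
    ⟨hL1.ne, hL1.lt, fun j hj => hL1.lf j (le_trans (le_max_left _ _) hj),
      fun j hj => hL1.lin j (le_trans (le_max_left _ _) hj)⟩
  have hL₀ : LFs (mkD S hx hι) y₀.val k R₀ I₀ c₀ :=
    ⟨hL2.ne, hL2.lt, fun j hj => hL2.lf j (le_trans (le_max_right _ _) hj),
      fun j hj => hL2.lin j (le_trans (le_max_right _ _) hj)⟩
  have hk : k ≤ k := le_rfl
  obtain ⟨ζ, hζ, hζE⟩ := exists_zeta_eq hL₀ hk (y := y₀) rfl
  obtain ⟨a, ha⟩ := hend k ζ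
  have hE₀ := hζE a ha
  obtain ⟨χ, hχ⟩ := exists_prb hP hz.max hL hk ha
  choose t ε h1 h2 h3 h4 h5 using fun u : Fin r =>
    expansion hϖ0 hϖ1 hz.max hL hk ha hχ (N := 1) le_rfl (hz.mem u)
  obtain ⟨t₀, ε₀, g1, g2, g3, g4, g5⟩ := expansion hϖ0 hϖ1 hz.max hL hk ha hχ hN1 hy₀
  -- the size of `v`
  have hϖp : 0 < ‖ϖ‖ := norm_pos_iff.2 hϖ0
  have h0 := coeff_VS (H := H) (h := h) (x := x) 0
  rw [pow_zero, add_zero] at h0
  have hVv : PowerSeries.coeff 1 (mkD S hx hι).V = x (vv H h) := h0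
  have hϖn : ‖ϖ‖ ^ (p ^ h - 1) = ‖PowerSeries.coeff 1 (mkD S hx hι).V‖ := by
    rw [hVv, ← hϖ, norm_pow]
  have hR : 0 < R k := (hL.lf k hk).Rpos
  have hR₀ : 0 < R₀ k := (hL₀.lf k hk).Rpos
  have hR1 : R k < 1 := by
    by_contra hcon
    have h5 : (1 : ℝ) ≤ R k ^ (p ^ h) := one_le_pow₀ (not_lt.1 hcon)
    have h6 := hL.lin k hk
    have h7 : ‖PowerSeries.coeff 1 (mkD S hx hι).V‖ ≤ 1 := (mkD S hx hι).V_int _
    linarith
  set b : ℝ := ‖ϖ‖ * R k with hb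
  have hb0 : 0 < b := mul_pos hϖp hR
  have hb1 : b < 1 := by rw [hb]; nlinarith
  -- iterating the step
  have hiter : ∀ N : ℕ, ‖ϖ‖ * R (k + n * N) = b ^ (p ^ (h * N)) := by
    intro N
    induction N with
    | zero => simp [hb]
    | succ N ih =>
      have hs := (hL.step (k := k + n * N) (by omega)).2.2
      have e1 : k + n * (N + 1) = k + n * N + n := by ring
      rw [e1, hs, ← hϖn]
      have e2 : ‖ϖ‖ * (‖ϖ‖ ^ (p ^ h - 1) * R (k + n * N) ^ (p ^ h)) =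
          (‖ϖ‖ * R (k + n * N)) ^ (p ^ h) := by
        rw [mul_pow, ← mul_assoc, ← pow_succ']
        congr 2
        omega
      rw [e2, ih, ← pow_mul]
      congr 1
      rw [← pow_add]
      congr 1
  have hkN := hL.lf (k + n * N') (by omega)
  have hmono : R (k + n * N') < R₀ k := by
    refine (LF.mono (pow_ne_zero _ hz.ne) ?_ ?_ hkN (hL₀.lf k hk)).1
    · rw [norm_pow, norm_pow, pow_add, mul_comm, pow_mul]
      exact pow_lt_pow_left₀ hN (by positivity) (pow_ne_zero _ hp.ne_zero)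
    · rw [norm_pow]
      exact pow_lt_one₀ (norm_nonneg _) hy1 (pow_ne_zero _ hp.ne_zero)
  have hBA : b ^ (p ^ (h * N')) < ‖ϖ‖ * R₀ k := by
    rw [← hiter]
    exact mul_lt_mul_of_pos_left hmono hϖp
  -- the relation
  have hroot : RootSeq H h χ (fun u => (mkD S hx hι).U 1 (z u)) (fun m u => t u m) := by
    refine ⟨fun u => (h1 u).mono fun m hm => by rwa [VN_one] at hm, fun u => h2 u⟩
  obtain ⟨e, he1, he2⟩ := hrel χ hχ.probe (fun m u => t u m) t₀ hroot g1 g2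
  have hρ0 : ∀ m : ℕ, 0 < b ^ ((p ^ h) ^ m) := fun m => pow_pos hb0 _
  have hρ1 : ∀ m : ℕ, b ^ ((p ^ h) ^ m) ≤ 1 := fun m => pow_le_one₀ hb0.le hb1.le
  have hdel := del_bound hz.max hL hk ha hχ
  have hdel2 : (fun m => (del H h x (χ m)) ^ 2) =O[atTop] (fun m : ℕ => b ^ ((p ^ h) ^ m)) := by
    refine (hdel.pow 2).trans (IsBigO.of_bound 1 (Eventually.of_forall fun m => ?_))
    rw [one_mul, norm_pow, Real.norm_of_nonneg (hρ0 m).le, sq]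
    exact mul_le_of_le_one_left (hρ0 m).le (hρ1 m)
  have hEa : ∀ y ∈ (mkD S hx hι).T, ‖((mkD S hx hι).E (act S.hn ι ha.hom y)).val‖ ≤ R k := by
    intro y hy
    refine (hL.lf k hk).norm_le ?_
    rw [norm_pow]
    exact (norm_act_le S.hn ι ha y).trans (pow_le_pow_left₀ (norm_nonneg _) (hz.max y hy) _)
  have hone : ∀ u, (fun m => γ u * (t u m - (mkD S hx hι).U 1 (z u))) =O[atTop]
      (fun m : ℕ => b ^ ((p ^ h) ^ m)) := by
    intro u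
    apply IsBigO.const_mul_left
    have h7 : (fun m => κ 1 (z u) * (ϖ * ((mkD S hx hι).E (act S.hn ι ha.hom (z u))).val) ^
        ((p ^ h) ^ m)) =O[atTop] (fun m : ℕ => b ^ ((p ^ h) ^ m)) := by
      refine IsBigO.of_bound ‖κ 1 (z u)‖ (Eventually.of_forall fun m => ?_)
      rw [norm_mul, norm_pow, norm_mul, norm_pow, Real.norm_of_nonneg hb0.le]
      refine mul_le_mul_of_nonneg_left ?_ (norm_nonneg _)
      refine pow_le_pow_left₀ (by positivity) ?_ _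
      exact mul_le_mul_of_nonneg_left (hEa _ (hz.mem u)) hϖp.le
    refine ((h4 u).isBigO.add h7).congr (fun m => ?_) (fun m => rfl)
    ring
  have hsum : (fun m => ∑ i, γ i * (t i m - (mkD S hx hι).U 1 (z i))) =O[atTop]
      (fun m : ℕ => b ^ ((p ^ h) ^ m)) := by
    refine (IsBigO.sum (s := Finset.univ) fun i _ => hone i).congr (fun m => ?_) (fun m => rfl)
    rw [Finset.sum_apply]
  have heO : e =O[atTop] (fun m : ℕ => b ^ ((p ^ h) ^ m)) := by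
    refine ((he2.trans hdel2).add hsum).congr (fun m => ?_) (fun m => rfl)
    ring
  have ht₀ : (fun m => t₀ m - (mkD S hx hι).U N' y₀) =O[atTop]
      (fun m : ℕ => (b ^ ((p ^ h) ^ m)) ^ (p ^ (h * N'))) := by
    refine (heO.pow (p ^ (h * N'))).congr (fun m => he1 m) (fun m => rfl)
  have hmain : (fun m => κ N' y₀ * (ϖ * ((mkD S hx hι).E (act S.hn ι ha.hom y₀)).val) ^
      ((p ^ h) ^ m) * (1 + ε₀ m)) =O[atTop]
      (fun m : ℕ => (b ^ ((p ^ h) ^ m)) ^ (p ^ (h * N'))) := by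
    refine (ht₀.sub g5).congr (fun m => ?_) (fun m => rfl)
    ring
  obtain ⟨K, hK0, hK⟩ := hmain.exists_pos
  have hε := (tendsto_zero_iff_norm_tendsto_zero.1 g3).eventually_le_const
      (show (0 : ℝ) < 1 / 2 by norm_num)
  have hκp : 0 < ‖κ N' y₀‖ := norm_pos_iff.2 (hκ N' y₀)
  have hev := F3_pow_lt hQ (K := K) (ε := ‖κ N' y₀‖ / 2) (mul_pos hϖp hR₀)
    (pow_pos hb0 (p ^ (h * N'))).le hBA (by positivity)
  obtain ⟨m, hm1, hm2, hm3⟩ := (hK.bound.and (hε.and hev)).exists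
  rw [norm_mul, norm_mul, norm_pow, norm_mul, hE₀, norm_pow, norm_pow,
    Real.norm_of_nonneg hb0.le] at hm1
  have hone' : (1 : ℝ) / 2 ≤ ‖1 + ε₀ m‖ := by
    have h8 : ‖(1 : C)‖ ≤ ‖1 + ε₀ m‖ + ‖ε₀ m‖ := by
      have := norm_sub_le (1 + ε₀ m) (ε₀ m)
      rwa [add_sub_cancel_right] at this
    rw [norm_one] at h8
    linarith
  have h9 : ‖κ N' y₀‖ / 2 * (‖ϖ‖ * R₀ k) ^ ((p ^ h) ^ m) ≤
      ‖κ N' y₀‖ * (‖ϖ‖ * R₀ k) ^ ((p ^ h) ^ m) * ‖1 + ε₀ m‖ := by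
    have h10 : 0 ≤ ‖κ N' y₀‖ * (‖ϖ‖ * R₀ k) ^ ((p ^ h) ^ m) := by positivity
    nlinarith
  have h11 : (b ^ ((p ^ h) ^ m)) ^ (p ^ (h * N')) = (b ^ (p ^ (h * N'))) ^ ((p ^ h) ^ m) := by
    exact pow_right_comm b _ _
  rw [h11] at hm1
  linarith

end Crest.Agent.LU
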