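import Mathlib
import Crest.Agent.LU_F1
import Crest.Agent.LU_T2
import Crest.Agent.LU_X4

/-!
S0351 (blueprint LU), task F3b: the terms of `p^l z`.
-/

set_option autoImplicit false

noncomputable section

namespace Crest.Agent.LU

open Crest.LubinTate Filter Asymptotics

variable {p : ℕ} [Fact p.Prime] {n : ℕ} {Γ : FormalGroup (GaloisField p n)} [Γ.IsComm]
  {H : FormalGroup (LTRing p n)} [H.IsComm]
  {C : Type} [NontriviallyNormedField C] [IsUltrametricDist C] [CompleteSpace C]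
  [IsAlgClosed C] [CharP C p]
  {h h' : ℕ} {P : Ideal (LTRing p n)} {S : Situ Γ H h h' P}
  {x : LTRing p n →+* C} {hx : IsPoint P x} {ι : GaloisField p n →+* C} {hι : IsOver ι x}
  {ϖ : C} {κ : ℕ → Pt (ΓC S.hn Γ ι) → C}

/-- TASK F3b.  `(ϖ E(a(p^l z)))^{Q^m} = ((ϖ E(a z))^{Q^l})^{Q^m} (1 + o(1))`, uniformly: the
difference is `o(((‖ϖ‖R_k)^{Q^l})^{Q^m})`.
(`E(a (p^l z)) = p^l • w`, `w = E(a z)`; in the linear regime `ϖ (p^l • w) = (ϖ w)^{Q^l} (1 + η)` with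
`‖η‖ < 1`, by induction from `norm_nsmul_p_sub_le`; then `(1+η)^{Q^m} = 1 + η^{Q^m}`.) -/
theorem scaled_term (hϖ0 : ϖ ≠ 0) (hϖ1 : ‖ϖ‖ < 1) (hϖ : ϖ ^ (p ^ h - 1) = x (vv H h))
    {η : C} {k₀ : ℕ} {R : ℕ → ℝ} {I : ℕ → Finset ℤ} {c : ℕ → ℤ → C}
    (hL : LFs (mkD S hx hι) η k₀ R I c) {k : ℕ} (hk : k₀ ≤ k)
    {ζ : GaloisField p n} {a : PowerSeries (GaloisField p n)} (ha : IsLead Γ k ζ a)
    {z : Pt (ΓC S.hn Γ ι)} (hz : ‖z.val‖ ≤ ‖η‖) (l : ℕ) :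
    (fun m : ℕ => (ϖ * ((mkD S hx hι).E (act S.hn ι ha.hom ((p ^ l) • z))).val) ^ ((p ^ h) ^ m) -
      ((ϖ * ((mkD S hx hι).E (act S.hn ι ha.hom z)).val) ^ ((p ^ h) ^ m)) ^ ((p ^ h) ^ l))
        =o[atTop] (fun m : ℕ => ((‖ϖ‖ * R k) ^ ((p ^ h) ^ m)) ^ ((p ^ h) ^ l)) := by
  have _ := hϖ1
  have hp : p.Prime := Fact.out
  have hQ : 1 < p ^ h := Nat.one_lt_pow (by have := S.h1; omega) hp.one_lt
  set D := mkD S hx hι with hD
  set w : Pt D.H := D.E (act S.hn ι ha.hom z) with hwdef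
  have hE : D.E (act S.hn ι ha.hom ((p ^ l) • z)) = (p ^ l) • w := by
    rw [map_nsmul, map_nsmul]
  rw [hE]
  have hR0 : 0 < R k := (hL.lf k hk).Rpos
  have hϖpos : 0 < ‖ϖ‖ := norm_pos_iff.2 hϖ0
  have hB0 : 0 < ‖ϖ‖ * R k := mul_pos hϖpos hR0
  have hw : ‖w.val‖ ≤ R k := by
    refine (hL.lf k hk).norm_le ?_
    rw [norm_pow]
    exact (norm_act_le S.hn ι ha z).trans (pow_le_pow_left₀ (norm_nonneg _) hz _)
  have h0 := coeff_VS (H := H) (h := h) (x := x) 0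
  rw [pow_zero, add_zero] at h0
  have hV : PowerSeries.coeff 1 D.V = ϖ ^ (p ^ h - 1) := by
    rw [hϖ, ← h0]
    rfl
  have hlin : R k ^ (p ^ h) < ‖ϖ‖ ^ (p ^ h - 1) := by
    have h1 := hL.lin k hk
    rwa [hV, norm_pow] at h1
  have hϖQ : ϖ * ϖ ^ (p ^ h - 1) = ϖ ^ (p ^ h) := by
    rw [← pow_succ', Nat.sub_add_cancel hQ.le]
  have hϖQn : ‖ϖ‖ * ‖ϖ‖ ^ (p ^ h - 1) = ‖ϖ‖ ^ (p ^ h) := by
    rw [← pow_succ', Nat.sub_add_cancel hQ.le]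
  have key : ∀ l : ℕ, ‖ϖ * ((p ^ l) • w).val - (ϖ * w.val) ^ ((p ^ h) ^ l)‖ <
      (‖ϖ‖ * R k) ^ ((p ^ h) ^ l) := by
    intro l
    induction l with
    | zero => simpa using hB0
    | succ l ih =>
      set w' : Pt D.H := (p ^ l) • w with hw'
      have hs : (p ^ (l + 1)) • w = p • w' := by
        rw [hw', ← mul_smul, ← pow_succ']
      have h1 := D.norm_nsmul_p_sub_le w'
      rw [← hs, hV] at h1
      have hw'R : ‖w'.val‖ ≤ R k := (Pt.norm_nsmul_le _ _).trans hw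
      have hB' : ‖ϖ * w'.val‖ ≤ (‖ϖ‖ * R k) ^ ((p ^ h) ^ l) := by
        have e : ϖ * w'.val = (ϖ * w'.val - (ϖ * w.val) ^ ((p ^ h) ^ l)) +
            (ϖ * w.val) ^ ((p ^ h) ^ l) := by ring
        rw [e]
        refine (IsUltrametricDist.norm_add_le_max _ _).trans (max_le ih.le ?_)
        rw [norm_pow, norm_mul]
        exact pow_le_pow_left₀ (by positivity) (mul_le_mul_of_nonneg_left hw hϖpos.le) _
      have hBs : ((‖ϖ‖ * R k) ^ ((p ^ h) ^ l)) ^ (p ^ h) = (‖ϖ‖ * R k) ^ ((p ^ h) ^ (l + 1)) := by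
        rw [← pow_mul, ← pow_succ]
      have h2 : ‖ϖ * (((p ^ (l + 1)) • w).val - ϖ ^ (p ^ h - 1) * w'.val ^ (p ^ h))‖ <
          (‖ϖ‖ * R k) ^ ((p ^ h) ^ (l + 1)) := by
        rw [norm_mul]
        refine (mul_le_mul_of_nonneg_left h1 hϖpos.le).trans_lt ?_
        rcases (norm_nonneg w'.val).eq_or_lt with h3 | h3
        · rw [← h3, zero_pow (by omega), zero_pow (by norm_num), mul_zero]
          positivity
        · have h4 : ‖w'.val‖ ^ (p ^ h) < ‖ϖ‖ ^ (p ^ h - 1) :=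
            (pow_le_pow_left₀ (norm_nonneg _) hw'R _).trans_lt hlin
          have h5 : 0 < ‖w'.val‖ ^ (p ^ h) := pow_pos h3 _
          calc ‖ϖ‖ * (‖w'.val‖ ^ (p ^ h)) ^ 2 =
                ‖ϖ‖ * (‖w'.val‖ ^ (p ^ h) * ‖w'.val‖ ^ (p ^ h)) := by rw [sq]
            _ < ‖ϖ‖ * (‖ϖ‖ ^ (p ^ h - 1) * ‖w'.val‖ ^ (p ^ h)) :=
                mul_lt_mul_of_pos_left (mul_lt_mul_of_pos_right h4 h5) hϖpos
            _ = ‖ϖ * w'.val‖ ^ (p ^ h) := by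
                rw [← mul_assoc, hϖQn, norm_mul, mul_pow]
            _ ≤ ((‖ϖ‖ * R k) ^ ((p ^ h) ^ l)) ^ (p ^ h) :=
                pow_le_pow_left₀ (norm_nonneg _) hB' _
            _ = _ := hBs
      have h6 : ‖(ϖ * w'.val - (ϖ * w.val) ^ ((p ^ h) ^ l)) ^ (p ^ h)‖ <
          (‖ϖ‖ * R k) ^ ((p ^ h) ^ (l + 1)) := by
        rw [norm_pow, ← hBs]
        exact pow_lt_pow_left₀ ih (norm_nonneg _) (by omega)
      have h7 : ϖ * ((p ^ (l + 1)) • w).val - (ϖ * w.val) ^ ((p ^ h) ^ (l + 1)) =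
          ϖ * (((p ^ (l + 1)) • w).val - ϖ ^ (p ^ h - 1) * w'.val ^ (p ^ h)) +
          (ϖ * w'.val - (ϖ * w.val) ^ ((p ^ h) ^ l)) ^ (p ^ h) := by
        have e1 : ((ϖ * w.val) ^ ((p ^ h) ^ l)) ^ (p ^ h) = (ϖ * w.val) ^ ((p ^ h) ^ (l + 1)) := by
          rw [← pow_mul, ← pow_succ]
        rw [sub_pow_char_pow, mul_sub, ← mul_assoc, hϖQ, mul_pow ϖ w'.val, e1]
        ring
      rw [h7]
      exact (IsUltrametricDist.norm_add_le_max _ _).trans_lt (max_lt h2 h6)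
  have hkl := key l
  set A : ℝ := ‖ϖ * ((p ^ l) • w).val - (ϖ * w.val) ^ ((p ^ h) ^ l)‖ with hA
  set B : ℝ := (‖ϖ‖ * R k) ^ ((p ^ h) ^ l) with hBdef
  have hBpos : 0 < B := pow_pos hB0 _
  have hA0 : 0 ≤ A := norm_nonneg _
  have hdiff : ∀ m : ℕ, ‖(ϖ * ((p ^ l) • w).val) ^ ((p ^ h) ^ m) -
      ((ϖ * w.val) ^ ((p ^ h) ^ m)) ^ ((p ^ h) ^ l)‖ = A ^ ((p ^ h) ^ m) := by
    intro m
    have e : ((ϖ * w.val) ^ ((p ^ h) ^ m)) ^ ((p ^ h) ^ l) =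
        ((ϖ * w.val) ^ ((p ^ h) ^ l)) ^ ((p ^ h) ^ m) := pow_right_comm _ _ _
    rw [e, hA, ← norm_pow]
    congr 1
    rw [← pow_mul p h m, sub_pow_char_pow]
  have hrhs : ∀ m : ℕ, ((‖ϖ‖ * R k) ^ ((p ^ h) ^ m)) ^ ((p ^ h) ^ l) = B ^ ((p ^ h) ^ m) := by
    intro m
    rw [hBdef]
    exact pow_right_comm _ _ _
  have hlim : Tendsto (fun m : ℕ => (A / B) ^ ((p ^ h) ^ m)) atTop (nhds 0) :=
    (tendsto_pow_atTop_nhds_zero_of_lt_one (by positivity) ((div_lt_one hBpos).2 hkl)).comp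
      (tendsto_pow_atTop_atTop_of_one_lt hQ)
  rw [isLittleO_iff]
  intro ε hε
  filter_upwards [hlim.eventually_le_const hε] with m hm
  rw [hdiff m, hrhs m, Real.norm_of_nonneg (pow_nonneg hBpos.le _)]
  rwa [div_pow, div_le_iff₀ (pow_pos hBpos _)] at hm

end Crest.Agent.LU
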