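import Mathlib
import Crest.Agent.LU_F3
import Crest.Agent.LU_F3b

/-!
S0351 (blueprint LU), task F3c: the second step, relation between sizes.
-/

set_option autoImplicit false

noncomputable section

namespace Crest.Agent.LU

open Crest.LubinTate Filter Asymptotics

variable {p : ℕ} [Fact p.Prime] {n : ℕ} {Γ : FormalGroup (GaloisField p n)} [Γ.IsComm]
  {H : FormalGroup (LTRing p n)} [H.IsComm]
  {C : Type} [NontriviallyNormedField C] [IsUltrametricDist C] [CompleteSpace C]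
  [IsAlgClosed C] [CharP C p]
  {h h' : ℕ} {P : Ideal (LTRing p n)} {S : Situ Γ H h h' P}
  {x : LTRing p n →+* C} {hx : IsPoint P x} {ι : GaloisField p n →+* C} {hι : IsOver ι x}
  {ϖ : C} {κ : ℕ → Pt (ΓC S.hn Γ ι) → C}

omit [Γ.IsComm] [H.IsComm] in
private theorem F3c_tendsto {Q : ℕ} (hQ : 1 < Q) {B : ℝ} (h0 : 0 ≤ B) (h1 : B < 1) :
    Tendsto (fun m : ℕ => B ^ (Q ^ m)) atTop (nhds 0) :=
  (tendsto_pow_atTop_nhds_zero_of_lt_one h0 h1).comp (tendsto_pow_atTop_atTop_of_one_lt hQ)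

private theorem F3c_small {Q : ℕ} (hQ : 1 < Q) {A B : ℝ} (hA : 0 < A) (h0 : 0 ≤ B)
    (h1 : B < A) : (fun m : ℕ => B ^ (Q ^ m)) =o[atTop] (fun m : ℕ => A ^ (Q ^ m)) := by
  rw [isLittleO_iff_tendsto' (Eventually.of_forall fun m h2 => absurd h2 (by positivity))]
  have h3 := F3c_tendsto hQ (B := B / A) (by positivity) ((div_lt_one hA).2 h1)
  refine h3.congr fun m => ?_
  rw [div_pow]

private theorem F3c_frob {K : Type} [Field K] [CharP K p] (N : ℕ) {r : ℕ} (a : K)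
    (c : Fin r → K) : (a - ∑ u, c u) ^ (p ^ N) = a ^ (p ^ N) - ∑ u, (c u) ^ (p ^ N) := by
  rw [← iterateFrobenius_def (R := K) (p := p), map_sub, map_sum]
  simp only [iterateFrobenius_def]

private theorem F3c_R (hϖ : ϖ ^ (p ^ h - 1) = x (vv H h)) {η : C} {k₀ : ℕ}
    {R : ℕ → ℝ} {I : ℕ → Finset ℤ} {c : ℕ → ℤ → C} (hL : LFs (mkD S hx hι) η k₀ R I c) {k : ℕ}
    (hk : k₀ ≤ k) (l : ℕ) : (‖ϖ‖ * R k) ^ ((p ^ h) ^ l) = ‖ϖ‖ * R (k + n * l) := by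
  have hv : PowerSeries.coeff 1 (mkD S hx hι).V = x (vv H h) := by
    have h0 := coeff_VS (H := H) (h := h) (x := x) 0
    rw [pow_zero, add_zero] at h0
    exact h0
  have hQ1 : 1 ≤ p ^ h := Nat.one_le_pow _ _ (Fact.out : p.Prime).pos
  induction l with
  | zero => simp
  | succ l ih =>
    have h3 := (hL.step (k := k + n * l) (by omega)).2.2
    have e1 : k + n * (l + 1) = k + n * l + n := by ring
    rw [pow_succ, pow_mul, ih, e1, h3, hv, ← hϖ, norm_pow, mul_pow]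
    have e2 : ‖ϖ‖ ^ (p ^ h) = ‖ϖ‖ * ‖ϖ‖ ^ (p ^ h - 1) := by
      rw [← pow_succ']
      congr 1
      omega
    rw [e2]
    ring

/-- TASK F3c.  From `PowRel` with `j = h l + j'`, `j < h N'`, to `CmpRel` for the family
`p^l z_u` and coefficients `(γ_u κ(1,z_u))^{Q^l}`.
Proof: `κ₀ (ϖ E(a y₀))^{Q^m} = (t₀ - τ₀) + o((‖ϖ‖R₀_k)^{Q^m})` by `expansion` (the error
`((‖ϖ‖R_k)^{Q^{N'}})^{Q^m}` is `o((‖ϖ‖R₀_k)^{Q^m})` as in F3a, and `‖E(a y₀)‖ ≤ R₀_k`);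
`t₀ - τ₀ = (ε_m^{Q^l})^{p^{j'}}` and
`ε_m^{Q^l} = Σ (γ_u κ_u)^{Q^l} ((ϖ E(a z_u))^{Q^m})^{Q^l} + o(((‖ϖ‖R_k)^{Q^m})^{Q^l})` (`expansion`,
`del_bound`), then `scaled_term`; `(‖ϖ‖R_k)^{Q^l} = ‖ϖ‖R_{k+nl}` (`LFs.step` iterated); finally
`(X + o)^{p^{j'}} = X^{p^{j'}} + o(..)`, in characteristic `p`. -/
theorem cmpRel_of_powRel
    (hϖ0 : ϖ ≠ 0) (hϖ1 : ‖ϖ‖ < 1) (hϖ : ϖ ^ (p ^ h - 1) = x (vv H h))
    (hP : HasPrb S hx hι ϖ κ)
    {η : C} {r : ℕ} {z : Fin r → Pt (ΓC S.hn Γ ι)}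
    (hz : SlopeBasis (mkD S hx hι).T p η z) {y₀ : Pt (ΓC S.hn Γ ι)}
    (hy₀ : y₀ ∈ (mkD S hx hι).T) {N' : ℕ} (hN1 : 1 ≤ N')
    (hN : ‖η‖ ^ (p ^ (n * N')) < ‖y₀.val‖) {k₀ : ℕ}
    {R₀ : ℕ → ℝ} {I₀ : ℕ → Finset ℤ} {c₀ : ℕ → ℤ → C}
    (hL₀ : LFs (mkD S hx hι) y₀.val k₀ R₀ I₀ c₀)
    {R : ℕ → ℝ} {I : ℕ → Finset ℤ} {c : ℕ → ℤ → C} (hL : LFs (mkD S hx hι) η k₀ R I c)
    (l j' : ℕ) (γ : Fin r → C) (hrel : PowRel S hx hι N' y₀ (h * l + j') γ z)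
    {k : ℕ} (hk : k₀ ≤ k) {ζ : GaloisField p n} {a : PowerSeries (GaloisField p n)}
    (ha : IsLead Γ k ζ a) :
    CmpRel (mkD S hx hι) ϖ (κ N' y₀) y₀ R₀ (fun u => (γ u * κ 1 (z u)) ^ ((p ^ h) ^ l))
      (fun u => (p ^ l) • z u) (fun k => R (k + n * l)) j' k ha := by
  have hp := (Fact.out : p.Prime)
  have hQ : 1 < p ^ h := Nat.one_lt_pow (by have := S.h1; omega) hp.one_lt
  have hRp : 0 < R k := (hL.lf k hk).Rpos
  have hR₀p : 0 < R₀ k := (hL₀.lf k hk).Rpos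
  have hϖp : 0 < ‖ϖ‖ := norm_pos_iff.2 hϖ0
  have hR1 : R k < 1 := by
    by_contra hc
    push Not at hc
    have h1 := (hL.lin k hk).trans_le ((mkD S hx hι).V_int _)
    exact absurd h1 (not_lt.2 (one_le_pow₀ hc))
  have hBp : 0 < ‖ϖ‖ * R k := by positivity
  have hB₀p : 0 < ‖ϖ‖ * R₀ k := by positivity
  have hB1 : ‖ϖ‖ * R k < 1 := by nlinarith
  obtain ⟨χ, hχ⟩ := exists_prb hP hz.max hL hk ha
  have hδ := del_bound hz.max hL hk ha hχ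
  obtain ⟨t₀, ε₀, h01, h02, h03, -, h05⟩ := expansion hϖ0 hϖ1 hz.max hL hk ha hχ hN1 hy₀
  choose t ε' h1 h2 h3 h4 h5 using
    fun u => expansion hϖ0 hϖ1 hz.max hL hk ha hχ (le_refl 1) (hz.mem u)
  obtain ⟨ε, hε1, hε2⟩ := hrel χ hχ.probe (fun m u => t u m) t₀
    ⟨fun u => (h1 u).mono fun m hm => by rwa [VN_one] at hm, h2⟩ h01 h02
  have hb0 := F3c_tendsto hQ hBp.le hB1
  -- (i)
  have hi : (fun m => ε m - ∑ u, (γ u * κ 1 (z u)) *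
      (ϖ * ((mkD S hx hι).E (act S.hn ι ha.hom (z u))).val) ^ ((p ^ h) ^ m)) =o[atTop]
      (fun m : ℕ => (‖ϖ‖ * R k) ^ ((p ^ h) ^ m)) := by
    have a1 : (fun m => (del H h x (χ m)) ^ 2) =o[atTop]
        (fun m : ℕ => (‖ϖ‖ * R k) ^ ((p ^ h) ^ m)) := by
      refine (hδ.pow 2).trans_isLittleO ?_
      have a2 := ((isLittleO_one_iff ℝ).2 hb0).mul_isBigO
        (isBigO_refl (fun m : ℕ => (‖ϖ‖ * R k) ^ ((p ^ h) ^ m)) atTop)
      refine (a2.congr_left fun m => ?_).congr_right fun m => ?_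
      · ring
      · ring
    have a3 := hε2.trans_isLittleO a1
    have a4 : (fun m => ∑ u, γ u * (t u m - (mkD S hx hι).U 1 (z u) -
        κ 1 (z u) * (ϖ * ((mkD S hx hι).E (act S.hn ι ha.hom (z u))).val) ^ ((p ^ h) ^ m)))
        =o[atTop] (fun m : ℕ => (‖ϖ‖ * R k) ^ ((p ^ h) ^ m)) :=
      IsLittleO.fun_sum fun u _ => (h4 u).const_mul_left (γ u)
    refine (a3.add a4).congr_left fun m => ?_
    simp only [mul_sub, Finset.sum_sub_distrib, mul_assoc]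
    ring
  -- (ii)
  have hii := hi.pow (n := (p ^ h) ^ l) (pow_pos (pow_pos hp.pos _) _)
  have hii' : (fun m => (ε m) ^ ((p ^ h) ^ l) - ∑ u, (γ u * κ 1 (z u)) ^ ((p ^ h) ^ l) *
      ((ϖ * ((mkD S hx hι).E (act S.hn ι ha.hom (z u))).val) ^ ((p ^ h) ^ m)) ^ ((p ^ h) ^ l))
      =o[atTop] (fun m : ℕ => ((‖ϖ‖ * R k) ^ ((p ^ h) ^ m)) ^ ((p ^ h) ^ l)) := by
    refine hii.congr_left fun m => ?_
    rw [← pow_mul p h l, F3c_frob]
    congr 1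
    exact Finset.sum_congr rfl fun u _ => mul_pow _ _ _
  -- (iii)
  have hiii : (fun m => (ε m) ^ ((p ^ h) ^ l) - ∑ u, (γ u * κ 1 (z u)) ^ ((p ^ h) ^ l) *
      (ϖ * ((mkD S hx hι).E (act S.hn ι ha.hom ((p ^ l) • z u))).val) ^ ((p ^ h) ^ m))
      =o[atTop] (fun m : ℕ => ((‖ϖ‖ * R k) ^ ((p ^ h) ^ m)) ^ ((p ^ h) ^ l)) := by
    have a4 : (fun m => ∑ u, (γ u * κ 1 (z u)) ^ ((p ^ h) ^ l) *
        ((ϖ * ((mkD S hx hι).E (act S.hn ι ha.hom ((p ^ l) • z u))).val) ^ ((p ^ h) ^ m) -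
        ((ϖ * ((mkD S hx hι).E (act S.hn ι ha.hom (z u))).val) ^ ((p ^ h) ^ m)) ^ ((p ^ h) ^ l)))
        =o[atTop] (fun m : ℕ => ((‖ϖ‖ * R k) ^ ((p ^ h) ^ m)) ^ ((p ^ h) ^ l)) :=
      IsLittleO.fun_sum fun u _ =>
        (scaled_term hϖ0 hϖ1 hϖ hL hk ha (hz.max _ (hz.mem u)) l).const_mul_left _
    refine (hii'.sub a4).congr_left fun m => ?_
    simp only [mul_sub, Finset.sum_sub_distrib]
    ring
  -- (iv)
  have hiv := hiii.pow (n := p ^ j') (pow_pos hp.pos _)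
  have hiv' : (fun m => (t₀ m - (mkD S hx hι).U N' y₀) -
      (∑ u, (γ u * κ 1 (z u)) ^ ((p ^ h) ^ l) *
      (ϖ * ((mkD S hx hι).E (act S.hn ι ha.hom ((p ^ l) • z u))).val) ^ ((p ^ h) ^ m)) ^ (p ^ j'))
      =o[atTop] (fun m : ℕ => ((‖ϖ‖ * R (k + n * l)) ^ (p ^ j')) ^ ((p ^ h) ^ m)) := by
    refine (hiv.congr_left fun m => ?_).congr_right fun m => ?_
    · have a5 := F3c_frob (p := p) (K := C) j' (r := 1) ((ε m) ^ ((p ^ h) ^ l))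
        (fun _ => ∑ u, (γ u * κ 1 (z u)) ^ ((p ^ h) ^ l) *
      (ϖ * ((mkD S hx hι).E (act S.hn ι ha.hom ((p ^ l) • z u))).val) ^ ((p ^ h) ^ m))
      simp only [Finset.univ_unique, Finset.sum_const, Finset.card_singleton, one_smul] at a5
      rw [a5, ← hε1 m, ← pow_mul (ε m)]
      congr 2
      rw [pow_add, pow_mul]
    · rw [← F3c_R hϖ hL hk l]
      simp only [← pow_mul]
      congr 1
      ring
  -- (v)
  have hEy : ‖((mkD S hx hι).E (act S.hn ι ha.hom y₀)).val‖ ≤ R₀ k := by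
    refine (hL₀.lf k hk).norm_le ?_
    rw [norm_pow]
    exact norm_act_le S.hn ι ha y₀
  have hv1 : (fun m => t₀ m - (mkD S hx hι).U N' y₀ -
        κ N' y₀ * (ϖ * ((mkD S hx hι).E (act S.hn ι ha.hom y₀)).val) ^ ((p ^ h) ^ m) * (1 + ε₀ m))
          =o[atTop] (fun m : ℕ => (‖ϖ‖ * R₀ k) ^ ((p ^ h) ^ m)) := by
    refine h05.trans_isLittleO ?_
    have hmono : R (k + n * N') < R₀ k := by
      refine (LF.mono (D := mkD S hx hι) (pow_ne_zero _ hL.ne) ?_ ?_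
        (hL.lf (k + n * N') (by omega)) (hL₀.lf k hk)).1
      · rw [norm_pow, norm_pow, pow_add, mul_comm (p ^ k), pow_mul]
        exact pow_lt_pow_left₀ hN (by positivity) (pow_ne_zero _ hp.ne_zero)
      · rw [norm_pow]
        exact pow_lt_one₀ (norm_nonneg _) y₀.lt (pow_ne_zero _ hp.ne_zero)
    have hR2 : 0 < R (k + n * N') := (hL.lf (k + n * N') (by omega)).Rpos
    have a6 := F3c_small hQ (A := ‖ϖ‖ * R₀ k) (B := ‖ϖ‖ * R (k + n * N')) hB₀p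
      (by positivity) (mul_lt_mul_of_pos_left hmono hϖp)
    refine a6.congr_left fun m => ?_
    rw [← F3c_R hϖ hL hk N', pow_mul p h N']
    simp only [← pow_mul]
    congr 1
    ring
  have hv2 : (fun m => κ N' y₀ *
      (ϖ * ((mkD S hx hι).E (act S.hn ι ha.hom y₀)).val) ^ ((p ^ h) ^ m) * ε₀ m)
      =o[atTop] (fun m : ℕ => (‖ϖ‖ * R₀ k) ^ ((p ^ h) ^ m)) := by
    have a7 : (fun m => κ N' y₀ *
      (ϖ * ((mkD S hx hι).E (act S.hn ι ha.hom y₀)).val) ^ ((p ^ h) ^ m)) =O[atTop]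
        (fun m : ℕ => (‖ϖ‖ * R₀ k) ^ ((p ^ h) ^ m)) := by
      refine IsBigO.of_bound ‖κ N' y₀‖ (Eventually.of_forall fun m => ?_)
      rw [norm_mul, norm_pow, norm_mul, Real.norm_of_nonneg (by positivity)]
      exact mul_le_mul_of_nonneg_left (pow_le_pow_left₀ (by positivity)
        (mul_le_mul_of_nonneg_left hEy (norm_nonneg _)) _) (norm_nonneg _)
    have a8 := a7.mul_isLittleO ((isLittleO_one_iff ℝ).2 h03)
    refine a8.congr_right fun m => ?_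
    ring
  -- (vi)
  have hmax1 : (fun m : ℕ => (‖ϖ‖ * R₀ k) ^ ((p ^ h) ^ m)) =O[atTop] (fun m : ℕ =>
      max ((‖ϖ‖ * R₀ k) ^ ((p ^ h) ^ m)) (((‖ϖ‖ * R (k + n * l)) ^ (p ^ j')) ^ ((p ^ h) ^ m))) := by
    refine IsBigO.of_bound 1 (Eventually.of_forall fun m => ?_)
    rw [one_mul, Real.norm_of_nonneg (by positivity)]
    exact (le_max_left _ _).trans (Real.le_norm_self _)
  have hR3 : 0 < R (k + n * l) := (hL.lf (k + n * l) (by omega)).Rpos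
  have hmax2 : (fun m : ℕ => ((‖ϖ‖ * R (k + n * l)) ^ (p ^ j')) ^ ((p ^ h) ^ m)) =O[atTop]
      (fun m : ℕ =>
      max ((‖ϖ‖ * R₀ k) ^ ((p ^ h) ^ m)) (((‖ϖ‖ * R (k + n * l)) ^ (p ^ j')) ^ ((p ^ h) ^ m))) := by
    refine IsBigO.of_bound 1 (Eventually.of_forall fun m => ?_)
    rw [one_mul, Real.norm_of_nonneg (by positivity)]
    exact (le_max_right _ _).trans (Real.le_norm_self _)
  have hfin := ((hiv'.trans_isBigO hmax2).sub (hv1.trans_isBigO hmax1)).sub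
    (hv2.trans_isBigO hmax1)
  unfold CmpRel
  refine hfin.congr_left fun m => ?_
  ring

end Crest.Agent.LU
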