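import Mathlib
import Crest.Agent.LU_T2

/-!
S0351 (blueprint LU), task T3: a minimal element outside the span of the slope basis.
-/

set_option autoImplicit false

noncomputable section

namespace Crest.Agent.LU

open Crest.LubinTate

variable {p : ℕ} [Fact p.Prime] {n : ℕ} {Γ : FormalGroup (GaloisField p n)} [Γ.IsComm]
  {H : FormalGroup (LTRing p n)} [H.IsComm]
  {C : Type} [NontriviallyNormedField C] [IsUltrametricDist C] [CompleteSpace C]
  [IsAlgClosed C] [CharP C p]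

section aux

private theorem T3_rt_iter {h : ℕ} {G : IFG C} (D : Datum p n h G) (y : Pt G) (k : ℕ) :
    (p ^ k) • D.E (rt p n (k + 1) y) = D.E (rt p n 1 y) := by
  induction k with
  | zero => simp
  | succ k ih =>
    have e : (p ^ (k + 1)) • D.E (rt p n (k + 1 + 1) y) =
        (p ^ k) • D.E (p • rt p n (k + 1 + 1) y) := by
      rw [map_nsmul, ← mul_nsmul', ← pow_succ]
    rw [e, D.nsmul_rt_succ (k + 1) y]
    exact ih

private theorem T3_norm_iter {h : ℕ} {G : IFG C} (D : Datum p n h G) (w : Pt D.H) (k : ℕ) :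
    ‖((p ^ k) • w).val‖ ≤ ‖w.val‖ ^ ((p ^ h) ^ k) := by
  induction k with
  | zero => simp
  | succ k ih =>
    have e : (p ^ (k + 1)) • w = p • ((p ^ k) • w) := by
      rw [← mul_nsmul', ← pow_succ']
    rw [e]
    calc ‖(p • ((p ^ k) • w)).val‖ ≤ ‖((p ^ k) • w).val‖ ^ (p ^ h) := D.norm_nsmul_p_le _
      _ ≤ (‖w.val‖ ^ ((p ^ h) ^ k)) ^ (p ^ h) := pow_le_pow_left₀ (norm_nonneg _) ih _
      _ = ‖w.val‖ ^ ((p ^ h) ^ (k + 1)) := by rw [← pow_mul, ← pow_succ]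

private theorem T3_small {G : IFG C} {h : ℕ} (D : Datum p n h G) (y : Pt G) (a : ℕ)
    (hy : y.val ≠ 0) : ‖((p * a) • y).val‖ < ‖y.val‖ := by
  have e : (p * a) • y = a • (p • y) := by rw [mul_comm, mul_nsmul']
  rw [e]
  refine (Pt.norm_nsmul_le _ _).trans_lt ?_
  rw [D.nsmul_p_val, norm_pow]
  have hp : 1 < p ^ n := by
    have h1 := D.h1
    have h2 := D.h2
    exact Nat.one_lt_pow (by omega) (Fact.out : p.Prime).one_lt
  calc ‖y.val‖ ^ (p ^ n) < ‖y.val‖ ^ 1 :=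
        pow_lt_pow_right_of_lt_one₀ (norm_pos_iff.2 hy) y.lt hp
    _ = ‖y.val‖ := pow_one _

private theorem T3_U_eq {h : ℕ} {G : IFG C} (D : Datum p n h G) {y y' : Pt G} (hy : y ∈ D.T)
    (hy' : y' ∈ D.T) (hU : D.U 1 y = D.U 1 y') : ∃ w ∈ D.T, y = p • w + y' := by
  have h1 : D.E (rt p n 1 y) = D.E (rt p n 1 y') := by
    apply Pt.ext
    apply iterateFrobenius_inj C p (h * 1)
    rw [iterateFrobenius_def, iterateFrobenius_def]
    exact hU
  have h2 : rt p n 1 (y - y') + rt p n 1 y' = rt p n 1 y := by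
    rw [← D.rt_add, sub_add_cancel]
  have h3 : D.E (rt p n 1 (y - y')) = 0 := by
    have h4 := congrArg D.E h2
    rw [map_add, h1] at h4
    exact add_eq_right.1 h4
  have h5 : D.U 1 (y - y') = 0 := by
    unfold Datum.U
    rw [h3]
    show (0 : C) ^ (p ^ (h * 1)) = 0
    exact zero_pow (pow_ne_zero _ (Fact.out : p.Prime).ne_zero)
  obtain ⟨w, hw, hw2⟩ := (D.U_eq_zero_iff 1 (D.T.sub_mem hy hy')).1 h5
  rw [pow_one] at hw2
  exact ⟨w, hw, by rw [← hw2, sub_add_cancel]⟩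

private theorem T3_U_eq' {h : ℕ} {G : IFG C} (D : Datum p n h G) {y y' w : Pt G} (hw : w ∈ D.T)
    (e : y = p • w + y') : D.U 1 y = D.U 1 y' := by
  unfold Datum.U
  congr 2
  have h1 : rt p n 1 (p • w) = w := by
    have := D.rt_nsmul 1 w
    rwa [pow_one] at this
  rw [e, D.rt_add, h1, map_add]
  have h2 : D.E w = 0 := hw
  rw [h2, zero_add]

end aux

/-- TASK T3a.  Norms of elements of `T ∖ pT` take finitely many values: for some `N`, all such `y`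
satisfy `‖y‖ = ‖U_N(y)‖^{p^{(n-h)N}}`, and `U_N(y)` is one of finitely many roots.
Proof: let `m₀ > 0` be the minimal norm of a nonzero root of `V` (`bb4`: finitely many), `N` with
`ρ^{Q^N} < m₀`.  If `t_N = E(y^{q^{-N}})` had `‖t_N‖ ≤ ρ` then `t_1 = p^{N-1} • t_N` would have
`‖U_1(y)‖ = ‖t_1‖^Q ≤ ρ^{Q^N} < m₀`, so `U_1(y) = 0`, `y ∈ pT` (`norm_nsmul_p_le`,
`U_eq_zero_iff`).  So `‖t_N‖ > ρ`, whence `‖y^{q^{-N}}‖ = ‖t_N‖`. -/
theorem finite_norms {h h' : ℕ} {P : Ideal (LTRing p n)} (S : Situ Γ H h h' P)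
    {x : LTRing p n →+* C} (hx : IsPoint P x) {ι : GaloisField p n →+* C} (hι : IsOver ι x) :
    {s : ℝ | ∃ y ∈ (mkD S hx hι).T, (¬ ∃ y' ∈ (mkD S hx hι).T, y = p • y') ∧
      s = ‖y.val‖}.Finite := by
  set D := mkD S hx hι with hD
  have hfin1 : (rts (VN p h D.V 1)).Finite := (bb4 S hx 1).1
  -- the minimal norm
  obtain ⟨m₀, hm0, hm⟩ : ∃ m₀ : ℝ, 0 < m₀ ∧ ∀ τ ∈ rts (VN p h D.V 1), τ ≠ 0 → m₀ ≤ ‖τ‖ := by
    have hf : ((rts (VN p h D.V 1)) \ {0}).Finite := hfin1.subset Set.sdiff_subset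
    rcases ((rts (VN p h D.V 1)) \ {0}).eq_empty_or_nonempty with he | hne
    · refine ⟨1, one_pos, fun τ hτ h0 => ?_⟩
      have : τ ∈ (rts (VN p h D.V 1)) \ {0} := ⟨hτ, h0⟩
      rw [he] at this
      exact absurd this (Set.notMem_empty _)
    · obtain ⟨τ₀, hτ₀, hmin⟩ := Set.exists_min_image _ (fun τ : C => ‖τ‖) hf hne
      refine ⟨‖τ₀‖, norm_pos_iff.2 hτ₀.2, fun τ hτ h0 => hmin τ ⟨hτ, h0⟩⟩
  obtain ⟨N, hN⟩ : ∃ N : ℕ, D.ρ ^ ((p ^ h) ^ (N + 1)) < m₀ := by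
    have hQ : 1 < p ^ h := Nat.one_lt_pow (by have := D.h1; omega) (Fact.out : p.Prime).one_lt
    have h1 : Filter.Tendsto (fun k : ℕ => D.ρ ^ ((p ^ h) ^ (k + 1))) Filter.atTop (nhds 0) :=
      (tendsto_pow_atTop_nhds_zero_of_lt_one D.ρ0.le D.ρ1).comp
        ((tendsto_pow_atTop_atTop_of_one_lt hQ).comp (Filter.tendsto_add_atTop_nat 1))
    exact ((h1.eventually (gt_mem_nhds hm0))).exists
  have hfinN : (rts (VN p h D.V (N + 1))).Finite := (bb4 S hx (N + 1)).1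
  refine (hfinN.image (fun τ : C => ‖τ‖ ^ (p ^ ((n - h) * (N + 1))))).subset ?_
  rintro s ⟨y, hy, hyp, rfl⟩
  refine ⟨D.U (N + 1) y, D.U_mem (N + 1) hy, ?_⟩
  have hbig : D.ρ < ‖(D.E (rt p n (N + 1) y)).val‖ := by
    by_contra hc
    push Not at hc
    have h1 : ‖D.U 1 y‖ ≤ D.ρ ^ ((p ^ h) ^ (N + 1)) := by
      have e1 : D.U 1 y = (D.E (rt p n 1 y)).val ^ (p ^ h) := by
        unfold Datum.U
        rw [mul_one]
      rw [e1, norm_pow, ← T3_rt_iter D y N]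
      calc ‖((p ^ N) • D.E (rt p n (N + 1) y)).val‖ ^ (p ^ h)
          ≤ (‖(D.E (rt p n (N + 1) y)).val‖ ^ ((p ^ h) ^ N)) ^ (p ^ h) :=
            pow_le_pow_left₀ (norm_nonneg _) (T3_norm_iter D _ N) _
        _ = ‖(D.E (rt p n (N + 1) y)).val‖ ^ ((p ^ h) ^ (N + 1)) := by
            rw [← pow_mul, ← pow_succ]
        _ ≤ D.ρ ^ ((p ^ h) ^ (N + 1)) := pow_le_pow_left₀ (norm_nonneg _) hc _
    have h2 : D.U 1 y = 0 := by
      by_contra h0
      exact absurd (hm _ (D.U_mem 1 hy) h0) (not_le.2 (h1.trans_lt hN))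
    obtain ⟨w, hw, hw2⟩ := (D.U_eq_zero_iff 1 hy).1 h2
    rw [pow_one] at hw2
    exact hyp ⟨w, hw, hw2⟩
  have hrt : D.ρ < ‖(rt p n (N + 1) y).val‖ := by
    by_contra hc
    push Not at hc
    have := D.norm_E_le (rt p n (N + 1) y)
    rw [max_eq_right hc] at this
    exact absurd hbig (not_lt.2 this)
  have heq := D.norm_E_eq hrt
  show ‖D.U (N + 1) y‖ ^ (p ^ ((n - h) * (N + 1))) = ‖y.val‖
  unfold Datum.U
  rw [norm_pow, heq, ← pow_mul, ← pow_add]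
  have e2 : h * (N + 1) + (n - h) * (N + 1) = n * (N + 1) := by
    rw [← add_mul]
    congr 1
    have := D.h2
    omega
  rw [e2, ← norm_pow, rt_pow]

/-- TASK T3b.  If `z` is a slope basis with `r < n - h` elements there is `y₀ ∈ T`, nonzero,
`‖y₀‖ < ‖η‖`, of minimal norm among the `y₀ + Σ ν_u z_u`, `ν_u ∈ ℕ`.
Proof: `|T/pT| = p^{n-h} > p^r`, so there is `y ∈ T` with `y ∉ Σ ν_u z_u + pT` for all `ν`.  No
`y + Σ ν_u z_u` lies in `pT` (else `y ≡ Σ (p-1)ν_u z_u`).  By `finite_norms` the set of norms of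
`y + Σ ν_u z_u` is finite; let `y₀` have minimal norm.  It is nonzero.  By `span` there is `ν` with
`‖y₀ - Σ ν_u z_u‖ < ‖η‖`; then `y₀ + Σ (p-1)ν_u z_u = (y₀ - Σ ν_u z_u) + p Σ ν_u z_u` has norm
`< ‖η‖` (`‖p w‖ = ‖w‖^q`), so `‖y₀‖ < ‖η‖`. -/
theorem exists_min {h h' : ℕ} {P : Ideal (LTRing p n)} (S : Situ Γ H h h' P)
    {x : LTRing p n →+* C} (hx : IsPoint P x) {ι : GaloisField p n →+* C} (hι : IsOver ι x)
    {η : C} {r : ℕ} (hr : r < n - h) {z : Fin r → Pt (ΓC S.hn Γ ι)}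
    (hz : SlopeBasis (mkD S hx hι).T p η z) :
    ∃ y₀ ∈ (mkD S hx hι).T, y₀.val ≠ 0 ∧ ‖y₀.val‖ < ‖η‖ ∧
      ∀ ν : Fin r → ℕ, ‖y₀.val‖ ≤ ‖(y₀ + ∑ u, ν u • z u).val‖ := by
  classical
  have hfn := finite_norms S hx hι
  have hroots : ∀ τ ∈ rts (VN p h (VS H h x) 1), ∃ y ∈ (mkD S hx hι).T,
      (mkD S hx hι).U 1 y = τ := fun τ hτ => exists_U_eq S hx hι 1 hτ
  have hcard : (rts (VN p h (VS H h x) 1)).ncard = p ^ ((n - h) * 1) := (bb4 S hx 1).2
  set D := mkD S hx hι with hD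
  have hp := (Fact.out : p.Prime)
  have hzT : ∀ ν : Fin r → ℕ, ∑ u, ν u • z u ∈ D.T := fun ν =>
    D.T.sum_mem fun u _ => D.T.nsmul_mem (hz.mem u) _
  -- an element outside the span
  obtain ⟨y, hyT, hy⟩ : ∃ y ∈ D.T, ∀ ν : Fin r → ℕ, ¬ ∃ w ∈ D.T, y = p • w + ∑ u, ν u • z u := by
    by_contra hcon
    push Not at hcon
    have hsub : rts (VN p h (VS H h x) 1) ⊆
        Set.range (fun ν : Fin r → Fin p => D.U 1 (∑ u, (ν u : ℕ) • z u)) := by
      intro τ hτ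
      obtain ⟨y, hy, rfl⟩ := hroots τ hτ
      obtain ⟨ν, w, hw, e⟩ := hcon y hy
      refine ⟨fun u => ⟨ν u % p, Nat.mod_lt _ hp.pos⟩, ?_⟩
      have e1 : ∑ u, ν u • z u = p • (∑ u, (ν u / p) • z u) + ∑ u, (ν u % p) • z u := by
        rw [Finset.smul_sum, ← Finset.sum_add_distrib]
        refine Finset.sum_congr rfl fun u _ => ?_
        rw [← mul_nsmul', ← add_nsmul, Nat.div_add_mod]
      have e2 : y = p • (w + ∑ u, (ν u / p) • z u) + ∑ u, (ν u % p) • z u := by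
        rw [smul_add, add_assoc, ← e1]
        exact e
      exact (T3_U_eq' D (D.T.add_mem hw (hzT _)) e2).symm
    have h1 := Set.ncard_le_ncard hsub (Set.finite_range _)
    have h2 : (Set.range (fun ν : Fin r → Fin p => D.U 1 (∑ u, (ν u : ℕ) • z u))).ncard ≤ p ^ r := by
      rw [← Set.image_univ]
      refine (Set.ncard_image_le Set.finite_univ).trans ?_
      rw [Set.ncard_univ, Nat.card_eq_fintype_card, Fintype.card_fun, Fintype.card_fin,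
        Fintype.card_fin]
    rw [hcard, mul_one] at h1
    have h3 : p ^ r < p ^ (n - h) := Nat.pow_lt_pow_right hp.one_lt hr
    omega
  have hnot : ∀ ν : Fin r → ℕ, ¬ ∃ w ∈ D.T, y + ∑ u, ν u • z u = p • w := by
    rintro ν ⟨w, hw, e⟩
    refine hy (fun u => (p - 1) * ν u) ⟨w - ∑ u, ν u • z u, D.T.sub_mem hw (hzT ν), ?_⟩
    have e1 : ∑ u, ((p - 1) * ν u) • z u + ∑ u, ν u • z u = p • ∑ u, ν u • z u := by
      rw [Finset.smul_sum, ← Finset.sum_add_distrib]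
      refine Finset.sum_congr rfl fun u _ => ?_
      rw [← mul_nsmul', ← add_nsmul]
      congr 1
      have : (p - 1) * ν u + ν u = (p - 1 + 1) * ν u := by ring
      rw [this, Nat.sub_add_cancel hp.one_le]
    have e2 : p • (w - ∑ u, ν u • z u) + ∑ u, ((p - 1) * ν u) • z u =
        p • w - ∑ u, ν u • z u := by
      rw [smul_sub, ← e1]
      abel
    rw [e2, ← e]
    abel
  -- minimal norm
  set S' : Set ℝ := Set.range (fun ν : Fin r → ℕ => ‖(y + ∑ u, ν u • z u).val‖) with hS'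
  have hS'fin : S'.Finite := by
    refine hfn.subset ?_
    rintro s ⟨ν, rfl⟩
    exact ⟨y + ∑ u, ν u • z u, D.T.add_mem hyT (hzT ν), hnot ν, rfl⟩
  have hS'ne : S'.Nonempty := ⟨_, ⟨0, rfl⟩⟩
  obtain ⟨s₀, hs₀, hmin⟩ := Set.exists_min_image S' id hS'fin hS'ne
  obtain ⟨ν₀, hν₀⟩ := hs₀
  have hν₀' : ‖(y + ∑ u, ν₀ u • z u).val‖ = s₀ := hν₀
  set y₀ := y + ∑ u, ν₀ u • z u with hy₀
  have hy₀T : y₀ ∈ D.T := D.T.add_mem hyT (hzT ν₀)
  have hminy : ∀ ν : Fin r → ℕ, ‖y₀.val‖ ≤ ‖(y₀ + ∑ u, ν u • z u).val‖ := by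
    intro ν
    have e1 : y₀ + ∑ u, ν u • z u = y + ∑ u, (ν₀ u + ν u) • z u := by
      rw [hy₀, add_assoc, ← Finset.sum_add_distrib]
      congr 1
      refine Finset.sum_congr rfl fun u _ => ?_
      rw [add_nsmul]
    rw [e1, hν₀']
    exact hmin _ ⟨fun u => ν₀ u + ν u, rfl⟩
  refine ⟨y₀, hy₀T, ?_, ?_, hminy⟩
  · intro h0
    apply hnot ν₀
    refine ⟨0, D.T.zero_mem, ?_⟩
    rw [smul_zero]
    exact Pt.ext h0
  · obtain ⟨ν, hν⟩ := hz.span y₀ hy₀T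
    set w := ∑ u, ν u • z u with hw
    have e1 : y₀ + ∑ u, ((p - 1) * ν u) • z u = (y₀ - w) + p • w := by
      have e2 : ∑ u, ((p - 1) * ν u) • z u + w = p • w := by
        rw [hw, Finset.smul_sum, ← Finset.sum_add_distrib]
        refine Finset.sum_congr rfl fun u _ => ?_
        rw [← mul_nsmul', ← add_nsmul]
        congr 1
        have : (p - 1) * ν u + ν u = (p - 1 + 1) * ν u := by ring
        rw [this, Nat.sub_add_cancel hp.one_le]
      rw [← e2]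
      abel
    have hη : 0 < ‖η‖ := norm_pos_iff.2 hz.ne
    refine (hminy fun u => (p - 1) * ν u).trans_lt ?_
    rw [e1]
    refine (Pt.norm_add_le _ _).trans_lt (max_lt hν ?_)
    have hw' : ‖w.val‖ ≤ ‖η‖ := hz.max w (hzT ν)
    rw [D.nsmul_p_val, norm_pow]
    have hpn : 1 < p ^ n := by
      have h1 := D.h1
      have h2 := D.h2
      exact Nat.one_lt_pow (by omega) hp.one_lt
    calc ‖w.val‖ ^ (p ^ n) ≤ ‖η‖ ^ (p ^ n) := pow_le_pow_left₀ (norm_nonneg _) hw' _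
      _ < ‖η‖ ^ 1 := pow_lt_pow_right_of_lt_one₀ hη hz.lt hpn
      _ = ‖η‖ := pow_one _

/-- TASK T3c.  Independence of `(y₀, p^l z_1, ..., p^l z_r)` when `‖y₀‖ = ‖η‖^{q^l}`.
Let `w = ν_0 y₀ + Σ ν_u p^l z_u`, not all `ν` divisible by `p`.  `‖w‖ ≤ ‖y₀‖`.  If `p ∣ ν_0`:
`‖ν_0 y₀‖ ≤ ‖y₀‖^q < ‖y₀‖` and `‖Σ ν_u p^l z_u‖ = ‖Σ ν_u z_u‖^{q^l} = ‖y₀‖`.  Otherwise choose
`ν'` with `ν' ν_0 = 1 + p a`; `ν' w = (y₀ + Σ ν'ν_u p^l z_u) + p a y₀`, the first term has norm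
`≥ ‖y₀‖` by minimality and the last `≤ ‖y₀‖^q`; so `‖w‖ ≥ ‖ν' w‖ ≥ ‖y₀‖`. -/
theorem indep_cons {h : ℕ} {G : IFG C} (D : Datum p n h G) {η : C} (h0 : η ≠ 0)
    (h1 : ‖η‖ < 1) {r : ℕ} {z : Fin r → Pt G} (hz : Indep (p := p) η z) {y₀ : Pt G} {l : ℕ}
    (hy₀ : ‖y₀.val‖ = ‖η ^ (p ^ (n * l))‖)
    (hmin : ∀ ν : Fin r → ℕ, ‖y₀.val‖ ≤ ‖(y₀ + ∑ u, ν u • z u).val‖) :
    Indep (p := p) (η ^ (p ^ (n * l)))
      (Fin.cons y₀ (fun u => (p ^ l) • z u) : Fin (r + 1) → Pt G) := by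
  have hp := (Fact.out : p.Prime)
  have hy0 : y₀.val ≠ 0 := by
    rw [← norm_ne_zero_iff, hy₀]
    exact norm_ne_zero_iff.2 (pow_ne_zero _ h0)
  have hpl : ∀ w : Pt G, ‖w.val‖ ≤ ‖η‖ → ‖((p ^ l) • w).val‖ ≤ ‖y₀.val‖ := by
    intro w hw
    rw [D.nsmul_pow_val, hy₀, norm_pow, norm_pow]
    exact pow_le_pow_left₀ (norm_nonneg _) hw _
  refine ⟨fun u => ?_, fun ν hν => ?_⟩
  · refine Fin.cases ?_ (fun u => ?_) u
    · rw [Fin.cons_zero, hy₀]
    · rw [Fin.cons_succ, ← hy₀]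
      exact hpl _ (hz.le u)
  · rw [← hy₀, Fin.sum_univ_succ]
    simp only [Fin.cons_zero, Fin.cons_succ]
    set z' : Pt G := ∑ u : Fin r, ν u.succ • z u with hz'
    have e1 : ∑ u : Fin r, ν u.succ • (p ^ l) • z u = (p ^ l) • z' := by
      rw [hz', Finset.smul_sum]
      refine Finset.sum_congr rfl fun u _ => ?_
      rw [← mul_nsmul', ← mul_nsmul', mul_comm]
    rw [e1]
    have hz'le : ‖z'.val‖ ≤ ‖η‖ :=
      Pt.norm_sum_le _ _ (norm_nonneg _) fun u _ => (Pt.norm_nsmul_le _ _).trans (hz.le u)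
    have hup : ‖(ν 0 • y₀ + (p ^ l) • z').val‖ ≤ ‖y₀.val‖ :=
      (Pt.norm_add_le _ _).trans (max_le (Pt.norm_nsmul_le _ _) (hpl z' hz'le))
    refine le_antisymm hup ?_
    by_cases hd : p ∣ ν 0
    · obtain ⟨a, ha⟩ := hd
      have hz'eq : ‖z'.val‖ = ‖η‖ := by
        refine hz.ind (fun u => ν u.succ) ?_
        obtain ⟨u, hu⟩ := hν
        revert hu
        refine Fin.cases ?_ (fun u => ?_) u
        · intro hu
          exact absurd ⟨a, ha⟩ hu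
        · intro hu
          exact ⟨u, hu⟩
      have h2 : ‖((p ^ l) • z').val‖ = ‖y₀.val‖ := by
        rw [D.nsmul_pow_val, hy₀, norm_pow, norm_pow, hz'eq]
      have h3 : ‖(ν 0 • y₀).val‖ < ‖y₀.val‖ := by
        rw [ha]
        exact T3_small D y₀ a hy0
      have h4 : (p ^ l) • z' = (ν 0 • y₀ + (p ^ l) • z') + -(ν 0 • y₀) := by abel
      have h5 := Pt.norm_add_le (ν 0 • y₀ + (p ^ l) • z') (-(ν 0 • y₀))
      rw [← h4, Pt.norm_neg, h2] at h5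
      rcases le_max_iff.1 h5 with h6 | h6
      · exact h6
      · exact absurd h6 (not_le.2 h3)
    · -- `ν 0` is prime to `p`
      obtain ⟨ν', a, hνa⟩ : ∃ ν' a : ℕ, ν' * ν 0 = 1 + p * a := by
        have hco : Nat.Coprime (ν 0) p := ((Nat.Prime.coprime_iff_not_dvd hp).2 hd).symm
        obtain ⟨m, hm⟩ := Nat.exists_mul_mod_eq_one_of_coprime hco hp.one_lt
        refine ⟨m, ν 0 * m / p, ?_⟩
        have h7 := Nat.mod_add_div (ν 0 * m) p
        rw [hm.2] at h7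
        rw [mul_comm m, h7]
      have h1 : ν' • (ν 0 • y₀ + (p ^ l) • z') =
          (y₀ + ∑ u : Fin r, (ν' * (p ^ l * ν u.succ)) • z u) + (p * a) • y₀ := by
        have h2 : ν' • (p ^ l) • z' = ∑ u : Fin r, (ν' * (p ^ l * ν u.succ)) • z u := by
          rw [hz', Finset.smul_sum, Finset.smul_sum]
          refine Finset.sum_congr rfl fun u _ => ?_
          rw [← mul_nsmul', ← mul_nsmul', mul_assoc]
        rw [smul_add, h2, ← mul_nsmul', hνa, add_nsmul, one_nsmul]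
        abel
      set Y := y₀ + ∑ u : Fin r, (ν' * (p ^ l * ν u.succ)) • z u with hY
      have h2 : ‖y₀.val‖ ≤ ‖Y.val‖ := hmin _
      have h3 : ‖((p * a) • y₀).val‖ < ‖y₀.val‖ := T3_small D y₀ a hy0
      have h4 : Y = ν' • (ν 0 • y₀ + (p ^ l) • z') + -((p * a) • y₀) := by
        rw [h1]
        abel
      have h5 := Pt.norm_add_le (ν' • (ν 0 • y₀ + (p ^ l) • z')) (-((p * a) • y₀))
      rw [← h4, Pt.norm_neg] at h5
      rcases le_max_iff.1 (h2.trans h5) with h6 | h6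
      · exact h6.trans (Pt.norm_nsmul_le _ _)
      · exact absurd h6 (not_le.2 h3)

end Crest.Agent.LU
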