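import Mathlib
import Crest.Agent.LU_F2
import Crest.Agent.LU_F3c
import Crest.Agent.LU_T3
import Crest.Agent.LU_D10
import Crest.Agent.LU_B9

/-!
S0351 (blueprint LU), task F4: the contradiction (assembly of parts (6) and (7)).
-/

set_option autoImplicit false

noncomputable section

namespace Crest.Agent.LU

open Crest.LubinTate Filter Asymptotics

variable {p : ℕ} [Fact p.Prime] {n : ℕ} {Γ : FormalGroup (GaloisField p n)} [Γ.IsComm]
  {H : FormalGroup (LTRing p n)} [H.IsComm]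
  {C : Type} [NontriviallyNormedField C] [IsUltrametricDist C] [CompleteSpace C]
  [IsAlgClosed C] [CharP C p]

section gen

variable {h : ℕ} {hn : 1 ≤ n} {ι : GaloisField p n →+* C} {D : Datum p n h (ΓC hn Γ ι)}

private theorem F4_LFs_mono {η : C} {k₀ k₁ : ℕ} (hk : k₀ ≤ k₁) {R : ℕ → ℝ} {I : ℕ → Finset ℤ}
    {c : ℕ → ℤ → C} (hL : LFs D η k₀ R I c) : LFs D η k₁ R I c :=
  ⟨hL.ne, hL.lt, fun k h1 => hL.lf k (hk.trans h1), fun k h1 => hL.lin k (hk.trans h1)⟩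

private theorem F4_LFs_shift {η : C} {k₀ : ℕ} {R : ℕ → ℝ} {I : ℕ → Finset ℤ}
    {c : ℕ → ℤ → C} (hL : LFs D η k₀ R I c) (s : ℕ) :
    LFs D (η ^ (p ^ s)) k₀ (fun k => R (k + s)) (fun k => I (k + s)) (fun k => c (k + s)) := by
  refine ⟨pow_ne_zero _ hL.ne, ?_, fun k hk => ?_, fun k hk => hL.lin _ (by omega)⟩
  · rw [norm_pow]
    exact pow_lt_one₀ (norm_nonneg _) hL.lt (pow_ne_zero _ (Fact.out : p.Prime).ne_zero)
  · have e : (η ^ (p ^ s)) ^ (p ^ k) = η ^ (p ^ (k + s)) := by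
      rw [← pow_mul, ← pow_add, add_comm]
    rw [e]
    exact hL.lf _ (by omega)

private theorem F4_indep_smul {η : C} {r : ℕ} {z : Fin r → Pt (ΓC hn Γ ι)}
    (D : Datum p n h (ΓC hn Γ ι)) (hz : Indep (p := p) η z) (l : ℕ) :
    Indep (p := p) (η ^ (p ^ (n * l))) (fun u => (p ^ l) • z u) := by
  refine ⟨fun u => ?_, fun ν hν => ?_⟩
  · show ‖((p ^ l) • z u).val‖ ≤ _
    rw [D.nsmul_pow_val, norm_pow, norm_pow]
    exact pow_le_pow_left₀ (norm_nonneg _) (hz.le u) _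
  · have e : ∑ u, ν u • (p ^ l) • z u = (p ^ l) • ∑ u, ν u • z u := by
      rw [Finset.smul_sum]
      refine Finset.sum_congr rfl fun u _ => ?_
      rw [← mul_nsmul', ← mul_nsmul', mul_comm]
    show ‖(∑ u, ν u • (p ^ l) • z u).val‖ = _
    rw [e, D.nsmul_pow_val, norm_pow, norm_pow, hz.ind ν hν]

end gen

/-- From `CmpRel` with `j = 0` and equal radii to the relation needed for `extraction`. -/
private theorem F4_rel {h : ℕ} {hn : 1 ≤ n} {ι : GaloisField p n →+* C}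
    {D : Datum p n h (ΓC hn Γ ι)} {ϖ κ₀ : C} (hϖ0 : ϖ ≠ 0) {y₀ : Pt (ΓC hn Γ ι)} {R₀ : ℕ → ℝ}
    {r : ℕ} {γ : Fin r → C} {z : Fin r → Pt (ΓC hn Γ ι)} {R : ℕ → ℝ} {k : ℕ}
    (hR : R₀ k = R k) {ζ : GaloisField p n}
    {a : PowerSeries (GaloisField p n)} (ha : IsLead Γ k ζ a)
    (hrel : CmpRel D ϖ κ₀ y₀ R₀ γ z R 0 k ha) :
    (fun m : ℕ => ∑ u, (Fin.cons κ₀ (fun u => -γ u) : Fin (r + 1) → C) u *
      ((D.E (act hn ι ha.hom ((Fin.cons y₀ z : Fin (r + 1) → Pt (ΓC hn Γ ι)) u))).val) ^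
        ((p ^ h) ^ m)) =o[atTop] (fun m : ℕ => (R k) ^ ((p ^ h) ^ m)) := by
  unfold CmpRel at hrel
  rw [hR] at hrel
  simp only [pow_zero, pow_one, max_self] at hrel
  rw [isLittleO_iff] at hrel ⊢
  intro ε hε
  filter_upwards [hrel hε] with m hm
  have hϖm : 0 < ‖ϖ ^ ((p ^ h) ^ m)‖ := norm_pos_iff.2 (pow_ne_zero _ hϖ0)
  have e : ϖ ^ ((p ^ h) ^ m) * (∑ u, (Fin.cons κ₀ (fun u => -γ u) : Fin (r + 1) → C) u *
      ((D.E (act hn ι ha.hom ((Fin.cons y₀ z : Fin (r + 1) → Pt (ΓC hn Γ ι)) u))).val) ^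
        ((p ^ h) ^ m)) =
      κ₀ * (ϖ * (D.E (act hn ι ha.hom y₀)).val) ^ ((p ^ h) ^ m) -
        ∑ u, γ u * (ϖ * (D.E (act hn ι ha.hom (z u))).val) ^ ((p ^ h) ^ m) := by
    rw [Fin.sum_univ_succ]
    simp only [Fin.cons_zero, Fin.cons_succ]
    rw [mul_add, Finset.mul_sum, sub_eq_add_neg, ← Finset.sum_neg_distrib]
    congr 1
    · rw [mul_pow]; ring
    · refine Finset.sum_congr rfl fun u _ => ?_
      rw [mul_pow]; ring
  rw [← e, norm_mul, mul_pow, norm_mul, norm_pow ‖ϖ‖, norm_norm, ← norm_pow] at hm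
  have h2 : ‖ϖ ^ ((p ^ h) ^ m)‖ * ‖∑ u, (Fin.cons κ₀ (fun u => -γ u) : Fin (r + 1) → C) u *
      ((D.E (act hn ι ha.hom ((Fin.cons y₀ z : Fin (r + 1) → Pt (ΓC hn Γ ι)) u))).val) ^
        ((p ^ h) ^ m)‖ ≤ ‖ϖ ^ ((p ^ h) ^ m)‖ * (ε * ‖(R k) ^ ((p ^ h) ^ m)‖) := by
    calc _ ≤ _ := hm
      _ = _ := by ring
  exact le_of_mul_le_mul_left h2 hϖm

/-- THE CONTRADICTION: no stable prime is in the situation `Situ`. -/
theorem situ_false {h h' M : ℕ} {P : Ideal (LTRing p n)} (S : Situ Γ H h h' P)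
    (hst : IsStableIdeal p n Γ H M P)
    (hend : ∀ (k : ℕ) (ζ : GaloisField p n), ∃ a, IsLead Γ k ζ a)
    {x : LTRing p n →+* C} (hx : IsPoint P x) {ι : GaloisField p n →+* C} (hι : IsOver ι x)
    (hval : ∀ j, h' ≤ j → j < n → ‖x (vv H j)‖ ≤ ‖x (vv H h)‖) : False := by
  have hp := (Fact.out : p.Prime)
  have hh1 := S.h1
  have hh2 := S.h2
  have hh3 := S.h3
  have hV1 : PowerSeries.coeff 1 (mkD S hx hι).V = x (vv H h) := by
    have h0 := coeff_VS (H := H) (h := h) (x := x) 0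
    rw [pow_zero, add_zero] at h0
    exact h0
  obtain ⟨ϖ, hϖ0, hϖ1, hϖ⟩ := (mkD S hx hι).exists_varpi
  have hϖ' : ϖ ^ (p ^ h - 1) = x (vv H h) := hϖ.trans hV1
  obtain ⟨κ, hκn, hpr⟩ := probe_asym S hst hx hι hϖ' hϖ0
  have hκ : ∀ N y, κ N y ≠ 0 := fun N y => by
    rw [← norm_pos_iff, hκn]
    exact pow_pos (inv_pos.2 (norm_pos_iff.2 hϖ0)) _
  have hP : HasPrb S hx hι ϖ κ := fun a ha hreg => by
    obtain ⟨χ, h1, h2⟩ := hpr a ha hreg
    exact ⟨χ, h1, h2⟩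
  obtain ⟨η, r, z, hr, hz⟩ := exists_slopeBasis S hx hι hval
  have hr' := rank_le hend hϖ0 hϖ1 hκ hP hz
  obtain rfl : r = 1 + n - h' := le_antisymm hr' hr
  obtain ⟨y₀, hy₀T, hy0, hy0lt, hmin⟩ := exists_min S hx hι (by omega) hz
  -- the choice of `N'`
  obtain ⟨K, hK⟩ := exists_pow_lt_of_lt_one (norm_pos_iff.2 hy0) hz.lt
  have hN : ‖η‖ ^ (p ^ (n * (K + 1))) < ‖y₀.val‖ := by
    refine (pow_le_pow_of_le_one (norm_nonneg _) hz.lt.le ?_).trans_lt hK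
    have h1 : K < 2 ^ K := Nat.lt_two_pow_self
    have h2 : 2 ^ K ≤ p ^ K := Nat.pow_le_pow_left hp.two_le _
    have h3 : p ^ K ≤ p ^ (n * (K + 1)) := Nat.pow_le_pow_right hp.pos (by nlinarith)
    omega
  set N' := K + 1 with hN'
  -- the relation
  have hU1 : ∀ i, (mkD S hx hι).U 1 (z i) ∈ rts (VS H h x) := fun i => by
    have h1 := (mkD S hx hι).U_mem 1 (hz.mem i)
    rw [VN_one] at h1
    exact h1
  have hU0 : (mkD S hx hι).U N' y₀ ∈ rts (VN p h (VS H h x) N') := (mkD S hx hι).U_mem N' hy₀T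
  obtain ⟨j, hjle, γ, hγ, hrel⟩ := bb2 S hx (fun i => (mkD S hx hι).U 1 (z i)) hU1
    (fun c hc => first_step hend hϖ0 hϖ1 hκ hP hz c hc) N' hU0 (h * N')
  have hrel' : PowRel S hx hι N' y₀ j γ z := hrel
  have hjlt : j < h * N' := by
    refine lt_of_le_of_ne hjle fun hje => ?_
    subst hje
    exact powRel_lt hend hϖ0 hϖ1 hϖ' hκ hP hz hy₀T hy0 (by omega) hN γ hrel'
  have hγ0 := hγ hjlt
  -- division
  set l := j / h with hl
  set j' := j % h with hj'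
  have hj'lt : j' < h := Nat.mod_lt _ (by omega)
  have hjeq : j = h * l + j' := (Nat.div_add_mod j h).symm
  rw [hjeq] at hrel'
  -- leading forms
  obtain ⟨k₁, R₀, I₀, c₀, hL₀⟩ := exists_LFs (mkD S hx hι) hy0 y₀.lt
  obtain ⟨k₂, R, I, c, hL⟩ := exists_LFs (mkD S hx hι) hz.ne hz.lt
  have hL₀' := F4_LFs_mono (le_max_left k₁ k₂) hL₀
  have hL' := F4_LFs_mono (le_max_right k₁ k₂) hL
  set k₀ := max k₁ k₂ with hk₀
  have hLs := F4_LFs_shift hL' (n * l)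
  have hzs := F4_indep_smul (mkD S hx hι) hz.indep l
  have hcmp : ∀ k, k₀ ≤ k → ∀ (ζ : GaloisField p n), ζ ≠ 0 → ∀ (a) (ha : IsLead Γ k ζ a),
      CmpRel (mkD S hx hι) ϖ (κ N' y₀) y₀ R₀ (fun u => (γ u * κ 1 (z u)) ^ ((p ^ h) ^ l))
      (fun u => (p ^ l) • z u) (fun k => R (k + n * l)) j' k ha := fun k hk ζ _ a ha =>
    cmpRel_of_powRel hϖ0 hϖ1 hϖ' hP hz hy₀T (by omega) hN hL₀' hL' l j' γ hrel' hk ha
  have hγ' : (fun u => (γ u * κ 1 (z u)) ^ ((p ^ h) ^ l)) ≠ 0 := by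
    intro h0
    apply hγ0
    ext u
    have h1 := congrFun h0 u
    simp only [Pi.zero_apply] at h1 ⊢
    have h2 := (pow_eq_zero_iff (pow_ne_zero _ (pow_ne_zero _ hp.ne_zero))).1 h1
    exact (mul_eq_zero.1 h2).resolve_right (hκ _ _)
  obtain ⟨hnorm, hj0⟩ := comparison hend hϖ0 hϖ1 hϖ hL₀' (rfl : ‖y₀.val‖ = ‖y₀.val‖) hLs hzs
    (hκ N' y₀) hγ' hj'lt hcmp
  -- equality of radii
  have hR : ∀ k, k₀ ≤ k → R₀ k = R (k + n * l) := fun k hk => by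
    have h1 := hL₀'.lf k hk
    have h2 := hLs.lf k hk
    have e : ‖(η ^ (p ^ (n * l))) ^ (p ^ k)‖ = ‖y₀.val ^ (p ^ k)‖ := by
      rw [norm_pow, ← hnorm, norm_pow]
    rw [e] at h2
    have hne : y₀.val ^ (p ^ k) ≠ 0 := pow_ne_zero _ hy0
    have hlt : ‖y₀.val ^ (p ^ k)‖ < 1 := by
      rw [norm_pow]
      exact pow_lt_one₀ (norm_nonneg _) y₀.lt (pow_ne_zero _ hp.ne_zero)
    exact (LF.unique hne hlt h1 h2).1
  have hcons := indep_cons (mkD S hx hι) hz.ne hz.lt hz.indep hnorm hmin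
  have hfin := extraction hend hLs hcons
    (Fin.cons (κ N' y₀) (fun u => -(γ u * κ 1 (z u)) ^ ((p ^ h) ^ l)))
    (fun k hk ζ hζ a ha => by
      have h1 := hcmp k hk ζ hζ a ha
      rw [hj0] at h1
      exact F4_rel hϖ0 (hR k hk) ha h1)
  have h0 := congrFun hfin 0
  simp only [Fin.cons_zero, Pi.zero_apply] at h0
  exact hκ _ _ h0

end Crest.Agent.LU
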