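import Mathlib
import Crest.Agent.LU_F4
import Crest.Agent.LU_B5
import Crest.Agent.LUC_5

/-!
S0351 (blueprint LU): the characteristic `p` step, and the assembly.
-/

set_option autoImplicit false

noncomputable section

namespace Crest.Agent.LU

open Crest.LubinTate Filter Asymptotics

variable {p : ℕ} [Fact p.Prime] {n : ℕ} {Γ : FormalGroup (GaloisField p n)} [Γ.IsComm]
  {H : FormalGroup (LTRing p n)} [H.IsComm]

theorem hend_of (hn : 1 ≤ n) (hΓ : mulSeries Γ p = PowerSeries.X ^ (p ^ n)) (k : ℕ)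
    (ζ : GaloisField p n) : ∃ a, IsLead Γ k ζ a := by
  obtain ⟨a, h1, h2, h3⟩ := exists_end hn hΓ ζ k
  exact ⟨a, h1, h2, h3⟩

/-- A proper ideal of `E₀` is contained in the maximal ideal. -/
theorem le_ker_residue (hn : 1 ≤ n) {J : Ideal (LTRing p n)} (hJ : J ≠ ⊤) :
    J ≤ RingHom.ker (LTRing.residue p n) := by
  have hT : IsTest p n (LTRing p n) (LTRing.residue p n) := isTest_E0 p n
  have := hT.isLocalRing
  rw [hT.ker_eq]
  exact IsLocalRing.le_maximalIdeal hJ

/-- The step in characteristic `p`. -/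
theorem charp_step (hn : 1 ≤ n) (hΓ : mulSeries Γ p = PowerSeries.X ^ (p ^ n))
    (hH : IsUniversalDeformation p n Γ H) {h : ℕ} (h1 : 1 ≤ h) (h2 : h < n) {M : ℕ}
    {P : Ideal (LTRing p n)} (hP : P.IsPrime) (hst : IsStableIdeal p n Γ H M P)
    (hle : heightIdeal p n H h ≤ P) (hv : vv H h ∉ P)
    (IH : ∀ (M' : ℕ) (P' : Ideal (LTRing p n)), P'.IsPrime → IsStableIdeal p n Γ H M' P' →
      heightIdeal p n H (h + 1) ≤ P' → ∃ j, j ≤ n ∧ P' = heightIdeal p n H j) :
    P = heightIdeal p n H h := by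
  set J := P ⊔ Ideal.span {vv H h} with hJdef
  have hJst : IsStableIdeal p n Γ H M J := stable_sup_vv hn hΓ hH h2 hst hle
  have hJtop : J ≠ ⊤ := by
    intro htop
    have h3 : J ≤ RingHom.ker (LTRing.residue p n) := by
      refine sup_le (le_ker_residue hn hP.ne_top) ?_
      rw [Ideal.span_le, Set.singleton_subset_iff]
      exact residue_vv_lt hΓ hH.1 h2
    rw [htop, top_le_iff] at h3
    exact (RingHom.ker_ne_top (LTRing.residue p n)) h3
  have hIJ : heightIdeal p n H (h + 1) ≤ J := by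
    rw [heightIdeal_succ]
    exact sup_le_sup hle le_rfl
  have hvJ : vv H h ∈ J := Ideal.mem_sup_right (Ideal.mem_span_singleton_self _)
  obtain ⟨j, hj1, hj2⟩ := radical_eq_height (H := H) hJtop fun P' hP' => by
    obtain ⟨M', -, hM'⟩ := minimalPrime_stable hn hΓ hH hJst hP'
    exact IH M' P' hP'.1.1 hM' (hIJ.trans hP'.1.2)
  have hj : h < j := by
    by_contra hcon
    push Not at hcon
    apply hv
    apply hle
    apply heightIdeal_mono hcon
    rw [← hj2]
    exact Ideal.le_radical hvJ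
  by_cases hjh : j = h + 1
  · subst hjh
    exact bb0_eq hn hΓ hH h1 h2 hP hle hv hj2
  · exfalso
    have S : Situ Γ H h j P := ⟨hn, hΓ, hH, h1, by omega, hj1, hP, hle, hv, hj2⟩
    obtain ⟨C, i1, i2, i3, i4, i5, x, hx, hval⟩ := bb0_exists S
    obtain ⟨ι, hι⟩ := exists_iota hx
    exact situ_false S hst (fun k ζ => hend_of hn hΓ k ζ) hx hι hval

/-- Classification of stable primes containing `I_h`, `h ≥ 1`. -/
theorem charp (hn : 1 ≤ n) (hΓ : mulSeries Γ p = PowerSeries.X ^ (p ^ n))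
    (hH : IsUniversalDeformation p n Γ H) :
    ∀ (d h : ℕ), d + h = n → 1 ≤ h → ∀ (M : ℕ) (P : Ideal (LTRing p n)), P.IsPrime →
      IsStableIdeal p n Γ H M P → heightIdeal p n H h ≤ P →
      ∃ j, j ≤ n ∧ P = heightIdeal p n H j := by
  intro d
  induction d with
  | zero =>
    intro h hd h1 M P hP hst hle
    obtain rfl : h = n := by omega
    refine ⟨h, le_rfl, le_antisymm ?_ hle⟩
    rw [heightIdeal_n hn hΓ hH]
    exact le_ker_residue hn hP.ne_top
  | succ d ih =>
    intro h hd h1 M P hP hst hle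
    have IH := fun M' P' hP' hst' hle' => ih (h + 1) (by omega) (by omega) M' P' hP' hst' hle'
    by_cases hv : vv H h ∈ P
    · refine IH M P hP hst ?_
      rw [heightIdeal_succ]
      refine sup_le hle ?_
      rw [Ideal.span_le, Set.singleton_subset_iff]
      exact hv
    · exact ⟨h, by omega, charp_step hn hΓ hH h1 (by omega) hP hst hle hv IH⟩

/-- Classification of stable primes, given the characteristic `0` part. -/
theorem primes (hn : 1 ≤ n) (hΓ : mulSeries Γ p = PowerSeries.X ^ (p ^ n))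
    (hH : IsUniversalDeformation p n Γ H)
    (h0 : ∀ (M : ℕ) (P : Ideal (LTRing p n)), P.IsPrime → IsStableIdeal p n Γ H M P →
      (p : LTRing p n) ∉ P → P = ⊥)
    (M : ℕ) (P : Ideal (LTRing p n)) (hP : P.IsPrime) (hst : IsStableIdeal p n Γ H M P) :
    ∃ j, j ≤ n ∧ P = heightIdeal p n H j := by
  by_cases hp : (p : LTRing p n) ∈ P
  · refine charp hn hΓ hH (n - 1) 1 (by omega) le_rfl M P hP hst ?_
    rw [heightIdeal_one, Ideal.span_le, Set.singleton_subset_iff]
    exact hp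
  · exact ⟨0, Nat.zero_le _, by rw [h0 M P hP hst hp, heightIdeal_zero]⟩

/-- The theorem, given the characteristic `0` part. -/
theorem main_of (hn : 1 ≤ n) (hΓ : mulSeries Γ p = PowerSeries.X ^ (p ^ n))
    (hH : IsUniversalDeformation p n Γ H)
    (h0 : ∀ (M : ℕ) (P : Ideal (LTRing p n)), P.IsPrime → IsStableIdeal p n Γ H M P →
      (p : LTRing p n) ∉ P → P = ⊥) (M : ℕ) :
    (∀ P : Ideal (LTRing p n),
        (P.IsPrime ∧ IsStableIdeal p n Γ H M P) ↔ ∃ h : ℕ, h ≤ n ∧ P = heightIdeal p n H h) ∧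
    (∀ J : Ideal (LTRing p n),
        (J.IsRadical ∧ IsStableIdeal p n Γ H M J) ↔
          (∃ h : ℕ, h ≤ n ∧ J = heightIdeal p n H h) ∨ J = ⊤) := by
  refine ⟨fun P => ⟨fun hP => primes hn hΓ hH h0 M P hP.1 hP.2, ?_⟩,
    fun J => ⟨fun hJ => ?_, ?_⟩⟩
  · rintro ⟨h, h1, rfl⟩
    exact ⟨heightIdeal_isPrime hn hΓ hH h1, heightIdeal_stable hn hΓ hH M h1⟩
  · by_cases htop : J = ⊤
    · exact Or.inr htop
    · left
      obtain ⟨j, hj1, hj2⟩ := radical_eq_height (H := H) htop fun P' hP' => by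
        obtain ⟨M', -, hM'⟩ := minimalPrime_stable hn hΓ hH hJ.2 hP'
        exact primes hn hΓ hH h0 M' P' hP'.1.1 hM'
      exact ⟨j, hj1, by rw [← hj2, hJ.1.radical]⟩
  · rintro (⟨h, h1, rfl⟩ | rfl)
    · exact ⟨(heightIdeal_isPrime hn hΓ hH h1).isRadical, heightIdeal_stable hn hΓ hH M h1⟩
    · refine ⟨Ideal.radical_eq_iff.1 (Ideal.radical_top _), fun g φ _ _ _ => Ideal.comap_top⟩

end Crest.Agent.LU
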