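import Mathlib
import Crest.Prelude.Def_AsymptoticConvexity

set_option autoImplicit false
open Filter Topology

namespace Crest.Agent.LibAUC

section basic

variable {V : Type} [NormedAddCommGroup V] [NormedSpace ℝ V]

/-- `d` comes arbitrarily close to every closed finite-codimensional subspace. -/
def AsympNull (d : ℕ → V) : Prop :=
  ∀ S : Submodule ℝ V, IsClosed (S : Set V) → FiniteDimensional ℝ (V ⧸ S) → ∀ ε : ℝ, 0 < ε →
    ∃ n, ∃ s ∈ S, ‖d n - s‖ < ε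

theorem exists_mem_of_functionals (S : Submodule ℝ V) (hS : IsClosed (S : Set V))
    (hf : FiniteDimensional ℝ (V ⧸ S)) (ε : ℝ) (hε : 0 < ε) :
    ∃ (m : ℕ) (φ : Fin m → (V →L[ℝ] ℝ)) (δ : ℝ), 0 < δ ∧
      ∀ d : V, (∀ i, |φ i d| < δ) → ∃ s ∈ S, ‖d - s‖ < ε := by
  have : IsClosed (S : Set V) := hS
  let b := Module.finBasis ℝ (V ⧸ S)
  let C : ℝ := ∑ i, ‖b i‖ + 1
  have hC : 0 < C := by positivity
  let mk : V →L[ℝ] (V ⧸ S) := S.mkQL
  refine ⟨Module.finrank ℝ (V ⧸ S),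
    fun i => (LinearMap.toContinuousLinearMap (b.coord i)).comp mk, ε / (2 * C), by positivity, ?_⟩
  intro d hd
  have h1 : mk d = ∑ i, (b.coord i (mk d)) • b i := by
    have := b.sum_repr (mk d)
    simp
  have h2 : ‖mk d‖ ≤ ε / 2 := by
    rw [h1]
    calc ‖∑ i, (b.coord i (mk d)) • b i‖ ≤ ∑ i, ‖(b.coord i (mk d)) • b i‖ := norm_sum_le _ _
      _ ≤ ∑ i, (ε / (2 * C)) * ‖b i‖ := by
          apply Finset.sum_le_sum
          intro i _
          rw [norm_smul]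
          apply mul_le_mul_of_nonneg_right _ (norm_nonneg _)
          exact le_of_lt (hd i)
      _ = (ε / (2 * C)) * ∑ i, ‖b i‖ := by rw [Finset.mul_sum]
      _ ≤ (ε / (2 * C)) * C := by
          apply mul_le_mul_of_nonneg_left _ (by positivity)
          simp [C]
      _ = ε / 2 := by field_simp
  obtain ⟨m, hm1, hm2⟩ := Submodule.Quotient.norm_mk_lt (S := S) (mk d) (half_pos hε)
  refine ⟨d - m, ?_, ?_⟩
  · rw [← Submodule.Quotient.mk_eq_zero, Submodule.Quotient.mk_sub, hm1]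
    exact sub_self _
  · simp only [sub_sub_cancel]
    linarith

theorem AsympNull.of_tendsto {d : ℕ → V}
    (h : ∀ φ : V →L[ℝ] ℝ, Tendsto (fun n => φ (d n)) atTop (𝓝 0)) : AsympNull d := by
  intro S hS hf ε hε
  obtain ⟨m, φ, δ, hδ, H⟩ := exists_mem_of_functionals S hS hf ε hε
  have : ∀ᶠ n in atTop, ∀ i, |φ i (d n)| < δ := by
    rw [eventually_all]
    intro i
    have := (h (φ i)).eventually (Metric.ball_mem_nhds 0 hδ)
    filter_upwards [this] with n hn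
    simpa [Real.dist_eq] using hn
  obtain ⟨n, hn⟩ := this.exists
  exact ⟨n, H _ hn⟩

/-- upper `ℓ²` estimates imply weak nullity -/
theorem tendsto_of_upper_two {d : ℕ → V} {K : ℝ}
    (h : ∀ (A : Finset ℕ) (a : ℕ → ℝ), ‖∑ n ∈ A, a n • d n‖ ≤ K * √(∑ n ∈ A, a n ^ 2))
    (φ : V →L[ℝ] ℝ) : Tendsto (fun n => φ (d n)) atTop (𝓝 0) := by
  have hb : ∀ A : Finset ℕ, ∑ n ∈ A, (φ (d n)) ^ 2 ≤ (‖φ‖ * K) ^ 2 := by
    intro A
    set q := ∑ n ∈ A, (φ (d n)) ^ 2 with hq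
    have hq0 : 0 ≤ q := Finset.sum_nonneg fun _ _ => sq_nonneg _
    have h1 : q = φ (∑ n ∈ A, (φ (d n)) • d n) := by
      rw [map_sum, hq]
      apply Finset.sum_congr rfl
      intro n _
      simp [sq]
    have h2 : q ≤ ‖φ‖ * (K * √q) := by
      calc q = φ (∑ n ∈ A, (φ (d n)) • d n) := h1
        _ ≤ ‖φ (∑ n ∈ A, (φ (d n)) • d n)‖ := Real.le_norm_self _
        _ ≤ ‖φ‖ * ‖∑ n ∈ A, (φ (d n)) • d n‖ := φ.le_opNorm _
        _ ≤ ‖φ‖ * (K * √q) := mul_le_mul_of_nonneg_left (h A _) (norm_nonneg _)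
    rcases hq0.eq_or_lt with h0 | h0
    · rw [← h0]; positivity
    · have h3 : √q * √q = q := Real.mul_self_sqrt hq0
      have h4 : √q ≤ ‖φ‖ * K := by
        have : 0 < √q := Real.sqrt_pos.mpr h0
        nlinarith
      calc q = √q ^ 2 := (Real.sq_sqrt hq0).symm
        _ ≤ _ := pow_le_pow_left₀ (Real.sqrt_nonneg _) h4 2
  have hs : Summable fun n => (φ (d n)) ^ 2 :=
    summable_of_sum_le (fun _ => sq_nonneg _) hb
  have ht := hs.tendsto_atTop_zero
  have : Tendsto (fun n => √((φ (d n)) ^ 2)) atTop (𝓝 (√0)) := (Real.continuous_sqrt.tendsto 0).comp ht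
  simp only [Real.sqrt_zero, Real.sqrt_sq_eq_abs] at this
  exact (tendsto_zero_iff_abs_tendsto_zero _).mpr this

theorem AsympNull.of_upper_two {d : ℕ → V} {K : ℝ}
    (h : ∀ (A : Finset ℕ) (a : ℕ → ℝ), ‖∑ n ∈ A, a n • d n‖ ≤ K * √(∑ n ∈ A, a n ^ 2)) :
    AsympNull d :=
  AsympNull.of_tendsto (tendsto_of_upper_two h)

/-- unbundled equivalent norm -/
def EqNorm (N : V → ℝ) : Prop :=
  (∀ x y : V, N (x + y) ≤ N x + N y) ∧ (∀ (a : ℝ) (x : V), N (a • x) = |a| * N x) ∧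
    ∃ a b : ℝ, 0 < a ∧ ∀ x : V, a * ‖x‖ ≤ N x ∧ N x ≤ b * ‖x‖

/-- unbundled AUC -/
def AUC (N : V → ℝ) : Prop :=
  ∀ t : ℝ, 0 < t → ∃ c : ℝ, 0 < c ∧ ∀ x : V, N x = 1 → ∃ S : Submodule ℝ V,
    IsClosed (S : Set V) ∧ FiniteDimensional ℝ (V ⧸ S) ∧
    ∀ y ∈ S, N y = 1 → c ≤ N (x + t • y) - 1

theorem EqNorm.nonneg {N : V → ℝ} (h : EqNorm N) (x : V) : 0 ≤ N x := by
  obtain ⟨h1, h2, a, b, ha, hab⟩ := h
  exact le_trans (by positivity) (hab x).1

theorem EqNorm.neg {N : V → ℝ} (h : EqNorm N) (x : V) : N (-x) = N x := by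
  have := h.2.1 (-1) x
  simpa using this

theorem EqNorm.sub_le {N : V → ℝ} (h : EqNorm N) (x y : V) : N x - N y ≤ N (x - y) := by
  have := h.1 (x - y) y
  simp only [sub_add_cancel] at this
  linarith

theorem EqNorm.exists_pos {N : V → ℝ} (h : EqNorm N) :
    ∃ a b : ℝ, 0 < a ∧ 0 < b ∧ ∀ x : V, a * ‖x‖ ≤ N x ∧ N x ≤ b * ‖x‖ := by
  obtain ⟨h1, h2, a, b, ha, hab⟩ := h
  refine ⟨a, max b 1, ha, lt_max_of_lt_right one_pos, fun x => ⟨(hab x).1, (hab x).2.trans ?_⟩⟩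
  exact mul_le_mul_of_nonneg_right (le_max_left _ _) (norm_nonneg _)

theorem convex_growth {N : V → ℝ} (hN : EqNorm N) {x y : V} {t t' c : ℝ} (ht : 0 < t) (htt' : t ≤ t')
    (hx : N x = 1) (hc : 0 < c) (h : c ≤ N (x + t • y) - 1) : 1 + c ≤ N (x + t' • y) := by
  have ht'0 : 0 < t' := lt_of_lt_of_le ht htt'
  have h7 : 0 ≤ 1 - t / t' := by
    rw [sub_nonneg, div_le_one ht'0]; exact htt'
  have h6 : N (x + t • y) ≤ (1 - t / t') * 1 + (t / t') * N (x + t' • y) := by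
    have e : x + t • y = (1 - t / t') • x + (t / t') • (x + t' • y) := by
      have e1 : (t / t') • t' • y = t • y := by
        rw [smul_smul, div_mul_cancel₀ _ ht'0.ne']
      rw [smul_add, e1, ← add_assoc, ← add_smul]
      simp
    calc N (x + t • y) = N ((1 - t / t') • x + (t / t') • (x + t' • y)) := by rw [← e]
      _ ≤ N ((1 - t / t') • x) + N ((t / t') • (x + t' • y)) := hN.1 _ _
      _ = _ := by
        rw [hN.2.1, hN.2.1, abs_of_nonneg h7, abs_of_nonneg (by positivity), hx]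
  have h9 : 1 + c ≤ (1 - t / t') * 1 + (t / t') * N (x + t' • y) := by linarith
  have h10 : 0 < t / t' := by positivity
  have h11 : t / t' ≤ 1 := by rw [div_le_one ht'0]; exact htt'
  by_contra hcon
  push Not at hcon
  nlinarith

/-- One step: an AUC norm grows by a fixed factor along directions near `S` of size at least
`τ * N x`. -/
theorem auc_step {N : V → ℝ} (hN : EqNorm N) (hA : AUC N) (τ : ℝ) (hτ : 0 < τ) :
    ∃ c : ℝ, 0 < c ∧ ∀ x : V, 0 < N x → ∃ S : Submodule ℝ V,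
      IsClosed (S : Set V) ∧ FiniteDimensional ℝ (V ⧸ S) ∧ ∃ ε : ℝ, 0 < ε ∧
      ∀ d : V, (∃ s ∈ S, ‖d - s‖ < ε) → τ * N x ≤ N d → (1 + c) * N x ≤ N (x + d) := by
  obtain ⟨a, b, ha, hb, hab⟩ := hN.exists_pos
  obtain ⟨c₀, hc₀, H⟩ := hA (τ / 2) (half_pos hτ)
  refine ⟨c₀ / 2, half_pos hc₀, fun x hx => ?_⟩
  have hx' : N ((N x)⁻¹ • x) = 1 := by
    rw [hN.2.1, abs_of_pos (inv_pos.mpr hx), inv_mul_cancel₀ hx.ne']
  obtain ⟨S, hS1, hS2, hS3⟩ := H _ hx'
  refine ⟨S, hS1, hS2, (min τ c₀) * N x / (2 * b), by positivity, ?_⟩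
  rintro d ⟨s, hs, hds⟩ hd
  have hbe : N (d - s) ≤ (min τ c₀) * N x / 2 := by
    refine (hab (d - s)).2.trans ?_
    calc b * ‖d - s‖ ≤ b * ((min τ c₀) * N x / (2 * b)) :=
          mul_le_mul_of_nonneg_left hds.le hb.le
      _ = (min τ c₀) * N x / 2 := by field_simp
  have hm1 : (min τ c₀) * N x / 2 ≤ τ / 2 * N x := by
    have : min τ c₀ ≤ τ := min_le_left _ _
    nlinarith
  have hm2 : (min τ c₀) * N x / 2 ≤ c₀ / 2 * N x := by
    have : min τ c₀ ≤ c₀ := min_le_right _ _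
    nlinarith
  have hNs : τ / 2 * N x ≤ N s := by
    have h1 : N d - N s ≤ N (d - s) := hN.sub_le _ _
    nlinarith
  have hNs0 : 0 < N s := lt_of_lt_of_le (by positivity) hNs
  set t := τ / 2 with ht
  set t' := N s / N x with ht'
  have htt' : t ≤ t' := by
    rw [ht', le_div_iff₀ hx]; exact hNs
  have ht0 : 0 < t := half_pos hτ
  have ht'0 : 0 < t' := lt_of_lt_of_le ht0 htt'
  set y := (N s)⁻¹ • s with hy
  have hy1 : N y = 1 := by
    rw [hy, hN.2.1, abs_of_pos (inv_pos.mpr hNs0), inv_mul_cancel₀ hNs0.ne']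
  have hyS : y ∈ S := S.smul_mem _ hs
  have h5 := hS3 y hyS hy1
  set x' := (N x)⁻¹ • x with hx'def
  have h8 : 1 + c₀ ≤ N (x' + t' • y) := convex_growth hN ht0 htt' hx' hc₀ h5
  have h12 : N (x + s) = N x * N (x' + t' • y) := by
    have e : x + s = (N x) • (x' + t' • y) := by
      have e1 : N x • x' = x := by
        rw [hx'def, smul_smul, mul_inv_cancel₀ hx.ne', one_smul]
      have e2 : N x • t' • y = s := by
        rw [hy, ht', smul_smul, smul_smul]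
        have : N x * (N s / N x) * (N s)⁻¹ = 1 := by
          field_simp
        rw [this, one_smul]
      rw [smul_add, e1, e2]
    rw [e, hN.2.1, abs_of_pos hx]
  have h13 : N (x + s) - N (x + d) ≤ N (d - s) := by
    have := hN.sub_le (x + s) (x + d)
    have e : x + s - (x + d) = -(d - s) := by abel
    rw [e, hN.neg] at this
    exact this
  nlinarith

/-- Abstract obstruction to AUC renorming: bounded sets `B k` from whose points one can keep
making steps of norm at least `δ` that are arbitrarily close to any prescribed closed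
finite-codimensional subspace. -/
theorem not_auc_of_steps {N : V → ℝ} (hN : EqNorm N) (C δ : ℝ) (hδ : 0 < δ) (B : ℕ → Set V)
    (hne : ∀ k, (B k).Nonempty) (hB : ∀ k, ∀ x ∈ B k, ‖x‖ ≤ C)
    (hstep : ∀ k, ∀ x ∈ B (k + 1), ∀ S : Submodule ℝ V, IsClosed (S : Set V) →
      FiniteDimensional ℝ (V ⧸ S) → ∀ ε : ℝ, 0 < ε →
      ∃ d, (∃ s ∈ S, ‖d - s‖ < ε) ∧ δ ≤ ‖d‖ ∧ x + d ∈ B k) :
    ¬ AUC N := by
  intro hA
  obtain ⟨a, b, ha, hb, hab⟩ := hN.exists_pos
  have hC : 0 ≤ C := by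
    obtain ⟨x, hx⟩ := hne 0
    exact (norm_nonneg _).trans (hB 0 x hx)
  obtain ⟨c, hc, H⟩ := auc_step hN hA (a * δ / (b * (C + 1))) (by positivity)
  have hbd : ∀ k, ∀ x ∈ B k, N x ≤ b * (C + 1) := by
    intro k x hx
    refine (hab x).2.trans (mul_le_mul_of_nonneg_left ?_ hb.le)
    linarith [hB k x hx]
  -- growth
  have key : ∀ k j : ℕ, ∀ x ∈ B (j + k), 0 < N x → ∃ y ∈ B j, (1 + c) ^ k * N x ≤ N y := by
    intro k
    induction k with
    | zero => intro j x hx _; exact ⟨x, hx, by simp⟩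
    | succ k ih =>
      intro j x hx hx0
      obtain ⟨S, hS1, hS2, ε, hε, hH⟩ := H x hx0
      obtain ⟨d, hd1, hd2, hd3⟩ := hstep (j + k) x hx S hS1 hS2 ε hε
      have hd4 : a * δ / (b * (C + 1)) * N x ≤ N d := by
        have h1 : N x ≤ b * (C + 1) := hbd _ x hx
        calc a * δ / (b * (C + 1)) * N x ≤ a * δ / (b * (C + 1)) * (b * (C + 1)) :=
              mul_le_mul_of_nonneg_left h1 (by positivity)
          _ = a * δ := by field_simp
          _ ≤ a * ‖d‖ := mul_le_mul_of_nonneg_left hd2 ha.le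
          _ ≤ N d := (hab d).1
      have h5 := hH d hd1 hd4
      have h6 : 0 < N (x + d) := lt_of_lt_of_le (by positivity) h5
      obtain ⟨y, hy1, hy2⟩ := ih j (x + d) hd3 h6
      refine ⟨y, hy1, le_trans ?_ hy2⟩
      rw [pow_succ, mul_assoc]
      exact mul_le_mul_of_nonneg_left h5 (by positivity)
  -- start
  have start : ∀ k, ∃ x ∈ B k, a * δ / 2 ≤ N x := by
    intro k
    obtain ⟨x, hx⟩ := hne (k + 2)
    obtain ⟨d, -, hd2, hd3⟩ := hstep (k + 1) x hx ⊤ isClosed_univ inferInstance 1 one_pos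
    have h1 : a * δ ≤ N d := (mul_le_mul_of_nonneg_left hd2 ha.le).trans (hab d).1
    have h2 : N d ≤ N (x + d) + N x := by
      have := hN.sub_le (x + d) x
      have h3 := hN.1 (x + d) (-x)
      rw [hN.neg] at h3
      simpa using h3
    by_cases h : a * δ / 2 ≤ N (x + d)
    · have h6 : 0 < N (x + d) := lt_of_lt_of_le (by positivity) h
      obtain ⟨y, hy1, hy2⟩ := key 1 k (x + d) hd3 h6
      refine ⟨y, hy1, h.trans (le_trans ?_ hy2)⟩
      rw [pow_one]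
      nlinarith
    · push Not at h
      have h' : a * δ / 2 ≤ N x := by linarith
      have h6 : 0 < N x := lt_of_lt_of_le (by positivity) h'
      obtain ⟨y, hy1, hy2⟩ := key 2 k x hx h6
      refine ⟨y, hy1, h'.trans (le_trans ?_ hy2)⟩
      have : 1 ≤ (1 + c) ^ 2 := one_le_pow₀ (by linarith)
      nlinarith
  obtain ⟨k, hk⟩ := pow_unbounded_of_one_lt (b * (C + 1) / (a * δ / 2)) (by linarith : 1 < 1 + c)
  obtain ⟨x, hx, hx2⟩ := start (0 + k)
  obtain ⟨y, hy, hy2⟩ := key k 0 x hx (lt_of_lt_of_le (by positivity) hx2)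
  have h1 := hbd _ y hy
  have h2 : b * (C + 1) < (1 + c) ^ k * (a * δ / 2) := by
    rwa [div_lt_iff₀ (by positivity)] at hk
  have h3 : (1 + c) ^ k * (a * δ / 2) ≤ (1 + c) ^ k * N x :=
    mul_le_mul_of_nonneg_left hx2 (by positivity)
  linarith

/-- Tree version, with trees of arbitrarily large finite depth. -/
theorem not_auc_of_trees {N : V → ℝ} (hN : EqNorm N) (C δ : ℝ) (hδ : 0 < δ)
    (P : ℕ → List ℕ → V) (hP : ∀ m v, v.length ≤ m → ‖P m v‖ ≤ C)
    (hd : ∀ m v, v.length < m → AsympNull (fun n => P m (n :: v) - P m v))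
    (hd2 : ∀ m v n, v.length < m → δ ≤ ‖P m (n :: v) - P m v‖) : ¬ AUC N := by
  apply not_auc_of_steps hN C δ hδ (fun k => {x | ∃ m v, x = P m v ∧ v.length + k ≤ m})
  · intro k
    exact ⟨P k [], k, [], rfl, by simp⟩
  · rintro k x ⟨m, v, rfl, h⟩
    exact hP m v (by omega)
  · rintro k x ⟨m, v, rfl, h⟩ S hS1 hS2 ε hε
    obtain ⟨n, hn⟩ := hd m v (by omega) S hS1 hS2 ε hε
    refine ⟨_, hn, hd2 m v n (by omega), m, n :: v, by simp, ?_⟩
    simp only [List.length_cons]; omega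

/-- In a finite-dimensional space every equivalent norm is AUC. -/
theorem auc_of_finiteDimensional [FiniteDimensional ℝ V] {N : V → ℝ} (hN : EqNorm N) : AUC N := by
  intro t _
  refine ⟨1, one_pos, fun x _ => ⟨⊥, ?_, ?_, ?_⟩⟩
  · exact (⊥ : Submodule ℝ V).closed_of_finiteDimensional
  · infer_instance
  · intro y hy hy1
    rw [Submodule.mem_bot] at hy
    subst hy
    have := hN.2.1 0 (0 : V)
    simp at this
    rw [this] at hy1
    norm_num at hy1

theorem eqNorm_norm : EqNorm (fun x : V => ‖x‖) :=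
  ⟨norm_add_le, fun a x => by simp [norm_smul], 1, 1, one_pos, fun x => by simp⟩

end basic

end Crest.Agent.LibAUC

namespace Crest.Agent.LibAUC

open Crest.AnalysisR

theorem not_isAUC_of (E : RealBanach) (N : E.X → ℝ)
    (h : ¬ @AUC E.X E.normed E.space N) : ¬ E.IsAUC N := by
  intro hA
  apply h
  intro t ht
  obtain ⟨c, hc, H⟩ := hA t ht
  refine ⟨c, hc, fun x hx => ?_⟩
  obtain ⟨F, ⟨S, rfl, hS1, hS2⟩, hF⟩ := H x hx
  exact ⟨S, hS1, hS2, hF⟩

theorem eqNorm_of (E : RealBanach) (N : E.X → ℝ) (h : E.IsEquivNorm N) :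
    @EqNorm E.X E.normed E.space N := h

end Crest.Agent.LibAUC

namespace Crest.Agent.LibAUC

open Crest.AnalysisR

/-- Unbundled forms of the moduli bounds. -/
def MidGE (V : Type) [NormedAddCommGroup V] [NormedSpace ℝ V] (t c : ℝ) : Prop :=
  ∀ x : V, ‖x‖ = 1 → ∀ η : ℝ, 0 < η → ∃ S : Submodule ℝ V, IsClosed (S : Set V) ∧
    FiniteDimensional ℝ (V ⧸ S) ∧ ∀ y ∈ S, ‖y‖ = 1 → c - η ≤ (‖x + t • y‖ + ‖x - t • y‖) / 2 - 1

def MidLE (V : Type) [NormedAddCommGroup V] [NormedSpace ℝ V] (t c : ℝ) : Prop :=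
  ∀ x : V, ‖x‖ = 1 → ∀ S : Submodule ℝ V, IsClosed (S : Set V) →
    FiniteDimensional ℝ (V ⧸ S) → ∀ η : ℝ, 0 < η →
    ∃ y ∈ S, ‖y‖ = 1 ∧ (‖x + t • y‖ + ‖x - t • y‖) / 2 - 1 ≤ c + η

def OneGE (V : Type) [NormedAddCommGroup V] [NormedSpace ℝ V] (t c : ℝ) : Prop :=
  ∀ x : V, ‖x‖ = 1 → ∀ η : ℝ, 0 < η → ∃ S : Submodule ℝ V, IsClosed (S : Set V) ∧
    FiniteDimensional ℝ (V ⧸ S) ∧ ∀ y ∈ S, ‖y‖ = 1 → c - η ≤ ‖x + t • y‖ - 1

def OneLE (V : Type) [NormedAddCommGroup V] [NormedSpace ℝ V] (t c : ℝ) : Prop :=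
  ∀ x : V, ‖x‖ = 1 → ∀ S : Submodule ℝ V, IsClosed (S : Set V) →
    FiniteDimensional ℝ (V ⧸ S) → ∀ η : ℝ, 0 < η →
    ∃ y ∈ S, ‖y‖ = 1 ∧ ‖x + t • y‖ - 1 ≤ c + η

theorem midGE_of (E : RealBanach) (t c : ℝ) (h : @MidGE E.X E.normed E.space t c) :
    E.MidpointModulusGE E.norm t c := by
  intro x hx η hη
  obtain ⟨S, hS1, hS2, hS3⟩ := h x hx η hη
  exact ⟨S, ⟨S, rfl, hS1, hS2⟩, hS3⟩

theorem midLE_of (E : RealBanach) (t c : ℝ) (h : @MidLE E.X E.normed E.space t c) :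
    E.MidpointModulusLE E.norm t c := by
  rintro x hx F ⟨S, rfl, hS1, hS2⟩ η hη
  exact h x hx S hS1 hS2 η hη

theorem oneGE_of (E : RealBanach) (t c : ℝ) (h : @OneGE E.X E.normed E.space t c) :
    E.OneSidedModulusGE E.norm t c := by
  intro x hx η hη
  obtain ⟨S, hS1, hS2, hS3⟩ := h x hx η hη
  exact ⟨S, ⟨S, rfl, hS1, hS2⟩, hS3⟩

theorem oneLE_of (E : RealBanach) (t c : ℝ) (h : @OneLE E.X E.normed E.space t c) :
    E.OneSidedModulusLE E.norm t c := by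
  rintro x hx F ⟨S, rfl, hS1, hS2⟩ η hη
  exact h x hx S hS1 hS2 η hη

end Crest.Agent.LibAUC
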