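import Mathlib

/-!
Area library: two-dimensional (Euclidean-normalised) Hausdorff measure of linear images of planar
sets, triangles and parallelograms in a real inner product space.
-/

set_option autoImplicit false
open MeasureTheory Measure
open scoped ENNReal

namespace Crest.Agent.LibArea2

abbrev E2 := EuclideanSpace ℝ (Fin 2)

section Planar

/-- coordinates as a measurable equivalence with the plane `ℝ × ℝ` -/
noncomputable def coordProd : E2 ≃ᵐ ℝ × ℝ :=
  (MeasurableEquiv.toLp 2 (Fin 2 → ℝ)).symm.trans MeasurableEquiv.finTwoArrow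

theorem coordProd_apply (x : E2) : coordProd x = (x 0, x 1) := rfl

theorem measurePreserving_coordProd : MeasurePreserving (coordProd : E2 → ℝ × ℝ) :=
  (volume_preserving_finTwoArrow ℝ).comp (EuclideanSpace.volume_preserving_symm_measurableEquiv_toLp _)

theorem volume_coord (s : Set (ℝ × ℝ)) : volume {x : E2 | (x 0, x 1) ∈ s} = volume s := by
  have := measurePreserving_coordProd.measure_preimage_equiv s
  rw [← this]
  rfl

theorem volume_stdTriangle_prod :
    volume {z : ℝ × ℝ | 0 ≤ z.1 ∧ 0 ≤ z.2 ∧ z.1 + z.2 ≤ 1} = ENNReal.ofReal (1/2) := by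
  have hm : MeasurableSet {z : ℝ × ℝ | 0 ≤ z.1 ∧ 0 ≤ z.2 ∧ z.1 + z.2 ≤ 1} := by
    apply IsClosed.measurableSet
    exact (isClosed_le continuous_const continuous_fst).inter
      ((isClosed_le continuous_const continuous_snd).inter
        (isClosed_le (continuous_fst.add continuous_snd) continuous_const))
  rw [volume_eq_prod, prod_apply hm]
  have h1 : ∀ x : ℝ, volume (Prod.mk x ⁻¹' {z : ℝ × ℝ | 0 ≤ z.1 ∧ 0 ≤ z.2 ∧ z.1 + z.2 ≤ 1}) =
      Set.indicator (Set.Icc (0:ℝ) 1) (fun x => ENNReal.ofReal (1 - x)) x := by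
    intro x
    by_cases hx : x ∈ Set.Icc (0:ℝ) 1
    · rw [Set.indicator_of_mem hx]
      have : Prod.mk x ⁻¹' {z : ℝ × ℝ | 0 ≤ z.1 ∧ 0 ≤ z.2 ∧ z.1 + z.2 ≤ 1} = Set.Icc 0 (1 - x) := by
        ext y
        simp only [Set.mem_preimage, Set.mem_ofPred_eq, Set.mem_Icc]
        constructor
        · rintro ⟨_, h2, h3⟩; exact ⟨h2, by linarith⟩
        · rintro ⟨h2, h3⟩; exact ⟨hx.1, h2, by linarith⟩
      rw [this, Real.volume_Icc]; simp
    · rw [Set.indicator_of_notMem hx]
      have : Prod.mk x ⁻¹' {z : ℝ × ℝ | 0 ≤ z.1 ∧ 0 ≤ z.2 ∧ z.1 + z.2 ≤ 1} = ∅ := by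
        ext y
        simp only [Set.mem_preimage, Set.mem_ofPred_eq, Set.mem_empty_iff_false, iff_false]
        rintro ⟨h1, h2, h3⟩
        exact hx ⟨h1, by linarith⟩
      rw [this]; simp
  simp_rw [h1]
  rw [lintegral_indicator measurableSet_Icc]
  rw [← ofReal_integral_eq_lintegral_ofReal]
  · congr 1
    rw [integral_Icc_eq_integral_Ioc, ← intervalIntegral.integral_of_le (by norm_num)]
    rw [intervalIntegral.integral_sub (by simp) (by simp)]
    simp
    norm_num
  · exact (Continuous.integrableOn_Icc (by fun_prop))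
  · refine (ae_restrict_iff' measurableSet_Icc).2 (Filter.Eventually.of_forall fun x hx => ?_)
    simp only [Pi.zero_apply, sub_nonneg]
    exact hx.2

/-- the standard triangle in the Euclidean plane -/
def stdTri : Set E2 := {x | 0 ≤ x 0 ∧ 0 ≤ x 1 ∧ x 0 + x 1 ≤ 1}

/-- the unit square in the Euclidean plane -/
def unitSq : Set E2 := {x | x 0 ∈ Set.Icc (0 : ℝ) 1 ∧ x 1 ∈ Set.Icc (0 : ℝ) 1}

theorem volume_stdTri : volume stdTri = ENNReal.ofReal (1/2) := by
  rw [← volume_stdTriangle_prod, ← volume_coord]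
  rfl

theorem volume_rect (a b c d : ℝ) :
    volume {x : E2 | x 0 ∈ Set.Icc a b ∧ x 1 ∈ Set.Icc c d} =
      ENNReal.ofReal (b - a) * ENNReal.ofReal (d - c) := by
  have h : volume (Set.Icc a b ×ˢ Set.Icc c d) = ENNReal.ofReal (b - a) * ENNReal.ofReal (d - c) := by
    rw [volume_eq_prod, prod_prod, Real.volume_Icc, Real.volume_Icc]
  rw [← h, ← volume_coord]
  rfl

theorem volume_unitSq : volume unitSq = 1 := by
  unfold unitSq
  rw [volume_rect]
  simp

end Planar

section General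

variable {E : Type*} [NormedAddCommGroup E] [InnerProductSpace ℝ E]

/-- area of the parallelogram spanned by `u`, `v` -/
noncomputable def gramArea (u v : E) : ℝ := Real.sqrt (‖u‖ ^ 2 * ‖v‖ ^ 2 - inner ℝ u v ^ 2)

theorem gramArea_nonneg (u v : E) : 0 ≤ gramArea u v := Real.sqrt_nonneg _

theorem gram_nonneg (u v : E) : 0 ≤ ‖u‖ ^ 2 * ‖v‖ ^ 2 - inner ℝ u v ^ 2 := by
  have h := abs_real_inner_le_norm u v
  have h1 : inner ℝ u v ^ 2 ≤ (‖u‖ * ‖v‖) ^ 2 := by
    rw [← sq_abs (inner ℝ u v)]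
    exact pow_le_pow_left₀ (abs_nonneg _) h 2
  nlinarith

theorem gramArea_sq (u v : E) : gramArea u v ^ 2 = ‖u‖ ^ 2 * ‖v‖ ^ 2 - inner ℝ u v ^ 2 :=
  Real.sq_sqrt (gram_nonneg u v)

/-- `gramArea` of linear combinations scales by the determinant. -/
theorem gramArea_comb (u v : E) (α β γ δ : ℝ) :
    gramArea (α • u + β • v) (γ • u + δ • v) = |α * δ - β * γ| * gramArea u v := by
  have h : ‖α • u + β • v‖ ^ 2 * ‖γ • u + δ • v‖ ^ 2 - inner ℝ (α • u + β • v) (γ • u + δ • v) ^ 2
      = (α * δ - β * γ) ^ 2 * (‖u‖ ^ 2 * ‖v‖ ^ 2 - inner ℝ u v ^ 2) := by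
    simp only [← real_inner_self_eq_norm_sq, inner_add_left, inner_add_right, inner_smul_left,
      inner_smul_right, real_inner_comm u v, RCLike.conj_to_real]
    ring
  rw [gramArea, h, Real.sqrt_mul (sq_nonneg _), Real.sqrt_sq_eq_abs, gramArea]

theorem gramArea_smul_smul (u v : E) (α δ : ℝ) :
    gramArea (α • u) (δ • v) = |α * δ| * gramArea u v := by
  have := gramArea_comb u v α 0 0 δ
  simpa using this

/-- the linear map `x ↦ x₀ u + x₁ v` -/
noncomputable def lin2 (u v : E) : E2 →ₗ[ℝ] E where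
  toFun x := x 0 • u + x 1 • v
  map_add' x y := by simp [add_smul]; abel
  map_smul' c x := by simp [mul_smul]

@[simp] theorem lin2_apply (u v : E) (x : E2) : lin2 u v x = x 0 • u + x 1 • v := rfl

theorem normDet_lin2 (u v : E) : (lin2 u v).normDet = gramArea u v := by
  have h := (lin2 u v).normDet_sq_eq_det_gram (EuclideanSpace.basisFun (Fin 2) ℝ)
  rw [Matrix.det_fin_two] at h
  simp [Matrix.gram] at h
  rw [gramArea, ← Real.sqrt_sq (LinearMap.normDet_nonneg _), h]
  congr 1
  rw [real_inner_comm]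
  ring

/-- membership in a triangle in barycentric-free form -/
theorem mem_convexHull_triple {p q r x : E} :
    x ∈ convexHull ℝ ({p, q, r} : Set E) ↔
      ∃ s t : ℝ, 0 ≤ s ∧ 0 ≤ t ∧ s + t ≤ 1 ∧ x = p + s • (q - p) + t • (r - p) := by
  rw [convexHull_insert (by simp), convexHull_pair]
  simp only [mem_convexJoin, Set.mem_singleton_iff, exists_eq_left]
  constructor
  · rintro ⟨y, hy, hx⟩
    obtain ⟨a, b, ha, hb, hab, rfl⟩ := hy
    obtain ⟨c, d, hc, hd, hcd, rfl⟩ := hx
    refine ⟨d * a, d * b, by positivity, by positivity, ?_, ?_⟩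
    · rw [← mul_add, hab]; linarith
    · have h1 : c = 1 - d := by linarith
      have h2 : b = 1 - a := by linarith
      subst h1; subst h2
      simp only [smul_add, smul_sub, smul_smul, sub_smul, one_smul, mul_sub, mul_one]
      abel
  · rintro ⟨s, t, hs, ht, hst, rfl⟩
    by_cases h0 : s + t = 0
    · have hs0 : s = 0 := by linarith
      have ht0 : t = 0 := by linarith
      subst hs0; subst ht0
      exact ⟨q, left_mem_segment ℝ _ _, by simpa using left_mem_segment ℝ p q⟩
    · have hpos : 0 < s + t := lt_of_le_of_ne (by linarith) (Ne.symm h0)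
      refine ⟨(s / (s + t)) • q + (t / (s + t)) • r,
        ⟨s / (s + t), t / (s + t), by positivity, by positivity, by field_simp, rfl⟩,
        ⟨1 - (s + t), s + t, by linarith, hpos.le, by ring, ?_⟩⟩
      rw [smul_add, smul_smul, smul_smul, mul_div_cancel₀ _ h0, mul_div_cancel₀ _ h0]
      simp only [smul_sub, sub_smul, add_smul, one_smul]
      abel

theorem convexHull_triple_eq_image (p q r : E) :
    convexHull ℝ ({p, q, r} : Set E) =
      (fun x : E2 => p + x 0 • (q - p) + x 1 • (r - p)) '' stdTri := by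
  ext x
  rw [mem_convexHull_triple]
  constructor
  · rintro ⟨s, t, hs, ht, hst, rfl⟩
    exact ⟨!₂[s, t], ⟨by simpa using hs, by simpa using ht, by simpa using hst⟩, by simp⟩
  · rintro ⟨y, ⟨h0, h1, h2⟩, rfl⟩
    exact ⟨y 0, y 1, h0, h1, h2, rfl⟩

theorem parallelogram_eq_image (c a b : E) :
    {x : E | ∃ s ∈ Set.Icc (0 : ℝ) 1, ∃ t ∈ Set.Icc (0 : ℝ) 1, x = c + s • a + t • b} =
      (fun x : E2 => c + x 0 • a + x 1 • b) '' unitSq := by
  ext x
  constructor
  · rintro ⟨s, hs, t, ht, rfl⟩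
    exact ⟨!₂[s, t], ⟨by simpa using hs, by simpa using ht⟩, by simp⟩
  · rintro ⟨y, ⟨h0, h1⟩, rfl⟩
    exact ⟨y 0, h0, y 1, h1, rfl⟩

variable [MeasurableSpace E] [BorelSpace E]

/-- Area of an affine image of a planar set. -/
theorem area_image (c u v : E) (s : Set E2) :
    μHE[2] ((fun x : E2 => c + x 0 • u + x 1 • v) '' s) =
      ENNReal.ofReal (gramArea u v) * volume s := by
  have h := (lin2 u v).euclideanHausdorffMeasure_image_eq_normDet_mul_volume s
  rw [normDet_lin2] at h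
  have hf : Module.finrank ℝ E2 = 2 := by simp
  rw [hf] at h
  rw [← h]
  have : (fun x : E2 => c + x 0 • u + x 1 • v) '' s = (fun y => c + y) '' ((lin2 u v) '' s) := by
    rw [Set.image_image]
    refine Set.image_congr fun x _ => ?_
    simp [add_assoc]
  rw [this]
  exact (isometry_add_left c).euclideanHausdorffMeasure_image _

/-- Area of a (possibly degenerate) triangle. -/
theorem area_triangle (p q r : E) :
    μHE[2] (convexHull ℝ ({p, q, r} : Set E)) = ENNReal.ofReal (gramArea (q - p) (r - p) / 2) := by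
  rw [convexHull_triple_eq_image, area_image, volume_stdTri,
    ← ENNReal.ofReal_mul (gramArea_nonneg _ _)]
  congr 1
  ring

theorem area_triangle_toReal (p q r : E) :
    (μHE[2] (convexHull ℝ ({p, q, r} : Set E))).toReal = gramArea (q - p) (r - p) / 2 := by
  rw [area_triangle, ENNReal.toReal_ofReal (div_nonneg (gramArea_nonneg _ _) (by norm_num))]

/-- Area of a (possibly degenerate) parallelogram. -/
theorem area_parallelogram (c a b : E) :
    μHE[2] {x : E | ∃ s ∈ Set.Icc (0 : ℝ) 1, ∃ t ∈ Set.Icc (0 : ℝ) 1, x = c + s • a + t • b} =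
      ENNReal.ofReal (gramArea a b) := by
  rw [parallelogram_eq_image, area_image, volume_unitSq, mul_one]

theorem area_parallelogram_toReal (c a b : E) :
    (μHE[2] {x : E | ∃ s ∈ Set.Icc (0 : ℝ) 1, ∃ t ∈ Set.Icc (0 : ℝ) 1,
      x = c + s • a + t • b}).toReal = gramArea a b := by
  rw [area_parallelogram, ENNReal.toReal_ofReal (gramArea_nonneg _ _)]

/-- Un-normalised Hausdorff measure is a fixed positive finite multiple of the normalised one. -/
theorem exists_hausdorff_const : ∃ κ : ℝ, 0 < κ ∧ ∀ {F : Type} [NormedAddCommGroup F]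
    [InnerProductSpace ℝ F] [MeasurableSpace F] [BorelSpace F] (s : Set F),
    μH[(2 : ℝ)] s = ENNReal.ofReal κ * μHE[2] s := by
  set f := addHaarScalarFactor (volume : Measure (EuclideanSpace ℝ (Fin 2))) μH[(2 : ℕ)] with hf
  have h0 : f ≠ 0 := addHaarScalarFactor_volume_hausdorffMeasure_ne_zero 2
  refine ⟨(f : ℝ)⁻¹, by positivity, ?_⟩
  intro F _ _ _ _ s
  rw [euclideanHausdorffMeasure_def]
  rw [Measure.smul_apply, ENNReal.smul_def, smul_eq_mul, ← mul_assoc]
  have : ENNReal.ofReal ((f : ℝ)⁻¹) * (f : ℝ≥0∞) = 1 := by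
    rw [ENNReal.ofReal_inv_of_pos (by positivity), ENNReal.ofReal_coe_nnreal]
    exact ENNReal.inv_mul_cancel (by simpa using h0) (by simp)
  rw [← hf, this, one_mul]
  norm_num

end General

section Oblique

variable {E : Type*} [NormedAddCommGroup E] [InnerProductSpace ℝ E]

/-- orthogonal projection onto `D^⊥` -/
noncomputable def pr (D x : E) : E := x - (inner ℝ x D / ‖D‖ ^ 2) • D

theorem pr_add (D x y : E) : pr D (x + y) = pr D x + pr D y := by
  unfold pr; rw [inner_add_left, add_div, add_smul]; abel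

theorem pr_smul (D : E) (c : ℝ) (x : E) : pr D (c • x) = c • pr D x := by
  unfold pr
  rw [real_inner_smul_left, smul_sub, smul_smul, mul_div_assoc]

theorem pr_sub (D x y : E) : pr D (x - y) = pr D x - pr D y := by
  unfold pr; rw [inner_sub_left, sub_div, sub_smul]; abel

theorem pr_self (D : E) (hD : D ≠ 0) : pr D D = 0 := by
  unfold pr
  rw [real_inner_self_eq_norm_sq, div_self (by positivity), one_smul, sub_self]

theorem inner_pr (D x : E) (hD : D ≠ 0) : inner ℝ (pr D x) D = 0 := by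
  unfold pr
  rw [inner_sub_left, real_inner_smul_left, real_inner_self_eq_norm_sq,
    div_mul_cancel₀ _ (by positivity), sub_self]

theorem inner_pr_pr (D x y : E) (hD : D ≠ 0) :
    inner ℝ (pr D x) (pr D y) = inner ℝ x y - inner ℝ x D * inner ℝ y D / ‖D‖ ^ 2 := by
  have h : inner ℝ (pr D x) (pr D y) = inner ℝ (pr D x) y := by
    conv_lhs => rw [pr.eq_1 D y]
    rw [inner_sub_right, real_inner_smul_right, inner_pr D x hD, mul_zero, sub_zero]
  rw [h]
  unfold pr
  rw [inner_sub_left, real_inner_smul_left, real_inner_comm D y]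
  ring

theorem decomp_pr (D x : E) : x = pr D x + (inner ℝ x D / ‖D‖ ^ 2) • D := by
  unfold pr; abel

/-- image of a triangle under the projection -/
theorem pr_image_triangle (D p q r : E) :
    (pr D) '' convexHull ℝ ({p, q, r} : Set E) = convexHull ℝ ({pr D p, pr D q, pr D r} : Set E) := by
  ext x
  simp only [Set.mem_image, mem_convexHull_triple]
  constructor
  · rintro ⟨y, ⟨s, t, hs, ht, hst, rfl⟩, rfl⟩
    exact ⟨s, t, hs, ht, hst, by simp only [pr_add, pr_smul, pr_sub]⟩
  · rintro ⟨s, t, hs, ht, hst, rfl⟩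
    exact ⟨_, ⟨s, t, hs, ht, hst, rfl⟩, by simp only [pr_add, pr_smul, pr_sub]⟩

/-- Projected area element, when `D = e + α a + β b` with `e ⟂ a, b` a unit vector. -/
theorem gramArea_pr (e a b : E) (α β : ℝ) (he : ‖e‖ = 1) (hae : inner ℝ a e = 0)
    (hbe : inner ℝ b e = 0) :
    gramArea (pr (e + (α • a + β • b)) a) (pr (e + (α • a + β • b)) b) =
      gramArea a b / ‖e + (α • a + β • b)‖ := by
  set D := e + (α • a + β • b) with hD
  have hea : inner ℝ e a = 0 := by rw [real_inner_comm]; exact hae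
  have heb : inner ℝ e b = 0 := by rw [real_inner_comm]; exact hbe
  have hee : inner ℝ e e = (1 : ℝ) := by rw [real_inner_self_eq_norm_sq, he]; norm_num
  have hn : ‖D‖ ^ 2 = 1 + (α ^ 2 * ‖a‖ ^ 2 + 2 * α * β * inner ℝ a b + β ^ 2 * ‖b‖ ^ 2) := by
    rw [hD]
    simp only [← real_inner_self_eq_norm_sq, inner_add_left, inner_add_right,
      real_inner_smul_left, real_inner_smul_right, hae, hbe, hea, heb, hee, real_inner_comm a b]
    ring
  have hge : 1 ≤ ‖D‖ ^ 2 := by
    rw [hn]
    have : 0 ≤ ‖α • a + β • b‖ ^ 2 := sq_nonneg _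
    have h2 : ‖α • a + β • b‖ ^ 2 = α ^ 2 * ‖a‖ ^ 2 + 2 * α * β * inner ℝ a b + β ^ 2 * ‖b‖ ^ 2 := by
      simp only [← real_inner_self_eq_norm_sq, inner_add_left, inner_add_right,
        real_inner_smul_left, real_inner_smul_right, real_inner_comm a b]
      ring
    linarith
  have hD0 : D ≠ 0 := by
    intro h
    rw [h] at hge
    simp at hge
    linarith
  have hDpos : 0 < ‖D‖ := norm_pos_iff.2 hD0
  have haD : inner ℝ a D = α * ‖a‖ ^ 2 + β * inner ℝ a b := by
    rw [hD]
    simp only [← real_inner_self_eq_norm_sq, inner_add_right, real_inner_smul_right, hae]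
    ring
  have hbD : inner ℝ b D = α * inner ℝ a b + β * ‖b‖ ^ 2 := by
    rw [hD]
    simp only [← real_inner_self_eq_norm_sq, inner_add_right, real_inner_smul_right, hbe,
      real_inner_comm a b]
    ring
  have key : ‖pr D a‖ ^ 2 * ‖pr D b‖ ^ 2 - inner ℝ (pr D a) (pr D b) ^ 2 =
      (‖a‖ ^ 2 * ‖b‖ ^ 2 - inner ℝ a b ^ 2) / ‖D‖ ^ 2 := by
    rw [← real_inner_self_eq_norm_sq (pr D a), ← real_inner_self_eq_norm_sq (pr D b),
      inner_pr_pr D a a hD0, inner_pr_pr D b b hD0, inner_pr_pr D a b hD0,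
      real_inner_self_eq_norm_sq, real_inner_self_eq_norm_sq, haD, hbD]
    have hn0 : ‖D‖ ^ 2 ≠ 0 := by positivity
    generalize ‖D‖ ^ 2 = n at hn hn0 ⊢
    generalize ‖a‖ ^ 2 = A at hn ⊢
    generalize ‖b‖ ^ 2 = B at hn ⊢
    generalize inner ℝ a b = C at hn ⊢
    have h1 : (A - (α * A + β * C) * (α * A + β * C) / n) * (B - (α * C + β * B) * (α * C + β * B) / n) -
        (C - (α * A + β * C) * (α * C + β * B) / n) ^ 2 = (A * B - C ^ 2) -
        (A * (α * C + β * B) ^ 2 + B * (α * A + β * C) ^ 2 -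
          2 * C * (α * A + β * C) * (α * C + β * B)) / n := by ring
    have h2 : A * (α * C + β * B) ^ 2 + B * (α * A + β * C) ^ 2 -
          2 * C * (α * A + β * C) * (α * C + β * B) = (A * B - C ^ 2) * (n - 1) := by
      rw [hn]; ring
    rw [h1, h2]
    field_simp
    ring
  rw [gramArea, key, Real.sqrt_div' _ (sq_nonneg _), Real.sqrt_sq hDpos.le]
  rfl


/-- points of an oblique triangular cylinder, in terms of the orthogonal base -/
theorem mem_cyl_pr {D P0 P1 P2 x : E} (τ : ℝ)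
    (h : x - τ • D ∈ convexHull ℝ ({P0, P1, P2} : Set E)) :
    ∃ b ∈ convexHull ℝ ({pr D P0, pr D P1, pr D P2} : Set E), ∃ t : ℝ, x = b + t • D := by
  rw [← pr_image_triangle]
  refine ⟨_, Set.mem_image_of_mem _ h, inner ℝ (x - τ • D) D / ‖D‖ ^ 2 + τ, ?_⟩
  have := decomp_pr D (x - τ • D)
  rw [add_smul, ← add_assoc, ← this]
  abel

/-- the same, with a unit axis vector -/
theorem mem_cyl_unit {D P0 P1 P2 x : E} (hD : D ≠ 0) (τ : ℝ)
    (h : x - τ • D ∈ convexHull ℝ ({P0, P1, P2} : Set E)) :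
    ∃ b ∈ convexHull ℝ ({pr D P0, pr D P1, pr D P2} : Set E), ∃ t : ℝ, x = b + t • (‖D‖⁻¹ • D) := by
  obtain ⟨b, hb, t, rfl⟩ := mem_cyl_pr τ h
  refine ⟨b, hb, t * ‖D‖, ?_⟩
  have : ‖D‖ ≠ 0 := norm_ne_zero_iff.2 hD
  rw [smul_smul, mul_assoc, mul_inv_cancel₀ this, mul_one]

theorem norm_unit {D : E} (hD : D ≠ 0) : ‖‖D‖⁻¹ • D‖ = 1 := by
  rw [norm_smul, norm_inv, norm_norm, inv_mul_cancel₀ (norm_ne_zero_iff.2 hD)]

theorem inner_pr_unit (D x : E) (hD : D ≠ 0) : inner ℝ (pr D x) (‖D‖⁻¹ • D) = 0 := by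
  rw [real_inner_smul_right, inner_pr D x hD, mul_zero]

end Oblique

end Crest.Agent.LibArea2
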