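import Mathlib
import Crest.Prelude.Def_DaugavetL1
import Crest.Agent.LibAUC

set_option autoImplicit false
open Filter Topology

namespace Crest.Agent.LibDaugavet

open Crest.Agent.LibAUC Crest.AnalysisR Crest.AnalysisR.L1Subspace

section farthest

variable {m : ℕ}

/-- strongly exposed (farthest) points of a set -/
def FarPt (K : Set (EuclideanSpace ℝ (Fin m))) : Set (EuclideanSpace ℝ (Fin m)) :=
  {k | k ∈ K ∧ ∃ z : EuclideanSpace ℝ (Fin m), ∀ p ∈ K, ‖p - z‖ ≤ ‖k - z‖}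

/-- Every point of a compact set lies in the closed convex hull of its farthest points. -/
theorem subset_closure_convexHull_farPt (K : Set (EuclideanSpace ℝ (Fin m))) (hK : IsCompact K) :
    K ⊆ closure (convexHull ℝ (FarPt K)) := by
  intro p hp
  by_contra hcon
  have hconv : Convex ℝ (closure (convexHull ℝ (FarPt K))) := (convex_convexHull ℝ _).closure
  obtain ⟨f, a, hf1, hf2⟩ := geometric_hahn_banach_closed_point hconv isClosed_closure hcon
  obtain ⟨v, hv⟩ := (InnerProductSpace.toDual ℝ (EuclideanSpace ℝ (Fin m))).surjective f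
  have hfv : ∀ x, f x = inner ℝ v x := by
    intro x; rw [← hv]; rfl
  obtain ⟨M, hM0, hM⟩ := hK.isBounded.exists_pos_norm_le
  -- choose R large
  obtain ⟨R, hR1, hR2⟩ : ∃ R : ℝ, 0 < R ∧ M ^ 2 / (2 * R) < f p - a := by
    refine ⟨M ^ 2 / (f p - a), by have := sub_pos.mpr hf2; positivity, ?_⟩
    have h1 := sub_pos.mpr hf2
    have : M ^ 2 / (2 * (M ^ 2 / (f p - a))) = (f p - a) / 2 := by
      field_simp
    rw [this]; linarith
  obtain ⟨k, hk, hkmax⟩ := hK.exists_isMaxOn ⟨p, hp⟩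
    (f := fun k => ‖k - (-(R • v))‖) (by fun_prop)
  have hkmax' : ∀ q ∈ K, ‖q - (-(R • v))‖ ≤ ‖k - (-(R • v))‖ := fun q hq => hkmax hq
  have hexp : ∀ q : EuclideanSpace ℝ (Fin m), ‖q - (-(R • v))‖ ^ 2 =
      ‖q‖ ^ 2 + 2 * R * f q + ‖R • v‖ ^ 2 := by
    intro q
    rw [sub_neg_eq_add, norm_add_sq_real, inner_smul_right, real_inner_comm, hfv]
    ring
  have h1 : ‖p‖ ^ 2 + 2 * R * f p ≤ ‖k‖ ^ 2 + 2 * R * f k := by
    have h2 := pow_le_pow_left₀ (norm_nonneg _) (hkmax' p hp) 2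
    rw [hexp, hexp] at h2
    linarith
  have h3 : a < f k := by
    have h4 : ‖k‖ ^ 2 ≤ M ^ 2 := pow_le_pow_left₀ (norm_nonneg _) (hM k hk) 2
    have h5 : 2 * R * (f p - f k) ≤ M ^ 2 := by nlinarith [sq_nonneg ‖p‖]
    have h6 : f p - f k ≤ M ^ 2 / (2 * R) := by
      rw [le_div_iff₀ (by positivity)]; linarith
    linarith
  have hfar : k ∈ FarPt K := ⟨hk, _, hkmax'⟩
  have := hf1 k (subset_closure (subset_convexHull ℝ _ hfar))
  linarith

end farthest

section daugavet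

variable {V : Type} [NormedAddCommGroup V] [NormedSpace ℝ V]

/-- near-norming vectors of a functional -/
theorem exists_near_norm (φ : V →L[ℝ] ℝ) (ε : ℝ) (hε : 0 < ε) : ∃ w : V, ‖w‖ ≤ 1 ∧ ‖φ‖ - ε < φ w := by
  rcases eq_or_ne φ 0 with rfl | hφ
  · exact ⟨0, by simp, by simpa using hε⟩
  by_cases h : 0 ≤ ‖φ‖ - ε
  · obtain ⟨x, hx1, hx2⟩ := ContinuousLinearMap.exists_lt_apply_of_lt_opNorm φ
      (show ‖φ‖ - ε < ‖φ‖ by linarith)
    rw [Real.norm_eq_abs] at hx2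
    rcases abs_choice (φ x) with h1 | h1
    · exact ⟨x, hx1.le, by rwa [h1] at hx2⟩
    · exact ⟨-x, by rw [norm_neg]; exact hx1.le, by rw [map_neg]; rwa [h1] at hx2⟩
  · push Not at h
    exact ⟨0, by simp, by simpa using h⟩

/-- Daugavet slice lemma. -/
theorem daugavet_slice [Nontrivial V] (hD : HasDaugavetProperty V) (φ : V →L[ℝ] ℝ) (x : V) (ε : ℝ)
    (hε : 0 < ε) : ∃ w : V, ‖w‖ ≤ 1 ∧ ‖φ‖ - ε < φ w ∧ ‖x‖ + 1 - ε < ‖x + w‖ := by
  rcases eq_or_ne φ 0 with rfl | hφ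
  · -- trivial functional
    rcases eq_or_ne x 0 with rfl | hx
    · obtain ⟨w, hw⟩ := exists_norm_eq V (zero_le_one (α := ℝ))
      refine ⟨w, hw.le, by simpa using hε, ?_⟩
      rw [norm_zero, zero_add, zero_add, hw]; linarith
    · have hx' : 0 < ‖x‖ := norm_pos_iff.mpr hx
      refine ⟨‖x‖⁻¹ • x, ?_, by simpa using hε, ?_⟩
      · rw [norm_smul, norm_inv, norm_norm, inv_mul_cancel₀ hx'.ne']
      · have : x + ‖x‖⁻¹ • x = (1 + ‖x‖⁻¹) • x := by rw [add_smul, one_smul]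
        rw [this, norm_smul, Real.norm_eq_abs, abs_of_pos (by positivity), add_mul, one_mul,
          inv_mul_cancel₀ hx'.ne']
        linarith
  have hφ' : 0 < ‖φ‖ := norm_pos_iff.mpr hφ
  rcases eq_or_ne x 0 with rfl | hx
  · obtain ⟨w, hw1, hw2⟩ := exists_near_norm φ (min ε (ε * ‖φ‖)) (by positivity)
    refine ⟨w, hw1, ?_, ?_⟩
    · have := min_le_left ε (ε * ‖φ‖); linarith
    · rw [norm_zero, zero_add, zero_add]
      have h1 : φ w ≤ ‖φ‖ * ‖w‖ := (Real.le_norm_self _).trans (φ.le_opNorm w)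
      have h2 := min_le_right ε (ε * ‖φ‖)
      have h3 : ‖φ‖ * (1 - ε) < ‖φ‖ * ‖w‖ := by linarith
      exact lt_of_mul_lt_mul_left h3 hφ'.le
  have hx' : 0 < ‖x‖ := norm_pos_iff.mpr hx
  -- choose small ε'
  set e := min (ε / 2) (min (ε * ‖x‖ / (2 * ‖φ‖)) (‖x‖ / 2)) with he
  have he0 : 0 < e := by positivity
  have he1 : e ≤ ε / 2 := min_le_left _ _
  have he2 : e ≤ ε * ‖x‖ / (2 * ‖φ‖) := (min_le_right _ _).trans (min_le_left _ _)
  have hnorm : ‖ContinuousLinearMap.id ℝ V + φ.smulRight (‖φ‖⁻¹ • x)‖ = 1 + ‖x‖ := by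
    rw [hD φ (‖φ‖⁻¹ • x), ContinuousLinearMap.norm_smulRight_apply, norm_smul, norm_inv, norm_norm,
      ← mul_assoc, mul_inv_cancel₀ hφ'.ne', one_mul]
  obtain ⟨w, hw1, hw2⟩ := ContinuousLinearMap.exists_lt_apply_of_lt_opNorm
    (ContinuousLinearMap.id ℝ V + φ.smulRight (‖φ‖⁻¹ • x)) (r := 1 + ‖x‖ - e) (by rw [hnorm]; linarith)
  -- wlog φ w ≥ 0
  have key : ∀ w : V, ‖w‖ ≤ 1 → 0 ≤ φ w → 1 + ‖x‖ - e < ‖w + φ w • ‖φ‖⁻¹ • x‖ →
      ‖φ‖ - ε < φ w ∧ ‖x‖ + 1 - ε < ‖x + w‖ := by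
    intro w hw1 hw0 hw2
    set r := φ w * ‖φ‖⁻¹ with hr
    have hr0 : 0 ≤ r := by positivity
    have hr1 : r ≤ 1 := by
      rw [hr, ← div_eq_mul_inv, div_le_one hφ']
      calc φ w ≤ ‖φ‖ * ‖w‖ := (Real.le_norm_self _).trans (φ.le_opNorm w)
        _ ≤ ‖φ‖ * 1 := mul_le_mul_of_nonneg_left hw1 hφ'.le
        _ = ‖φ‖ := mul_one _
    rw [smul_smul, ← hr] at hw2
    have h1 : ‖w + r • x‖ ≤ 1 + r * ‖x‖ := by
      refine (norm_add_le _ _).trans ?_
      rw [norm_smul, Real.norm_eq_abs, abs_of_nonneg hr0]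
      linarith
    have h2 : (1 - r) * ‖x‖ < e := by nlinarith
    constructor
    · have h3 : φ w = r * ‖φ‖ := by rw [hr]; field_simp
      rw [h3]
      have h4 : (1 - r) * ‖φ‖ < ε := by
        have h5 : (1 - r) * ‖x‖ < ε * ‖x‖ / (2 * ‖φ‖) := lt_of_lt_of_le h2 he2
        rw [lt_div_iff₀ (by positivity)] at h5
        have h6 : ((1 - r) * ‖φ‖ * 2) * ‖x‖ < ε * ‖x‖ := by linarith
        have h7 := lt_of_mul_lt_mul_right h6 hx'.le
        have h8 : 0 ≤ (1 - r) * ‖φ‖ := mul_nonneg (by linarith) hφ'.le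
        linarith
      linarith
    · have h3 : ‖w + r • x‖ ≤ ‖x + w‖ + (1 - r) * ‖x‖ := by
        have e1 : w + r • x = (x + w) - (1 - r) • x := by
          rw [sub_smul, one_smul]; abel
        rw [e1]
        refine (norm_sub_le _ _).trans ?_
        rw [norm_smul, Real.norm_eq_abs, abs_of_nonneg (by linarith : 0 ≤ 1 - r)]
      linarith
  have happ : ∀ w : V, (ContinuousLinearMap.id ℝ V + φ.smulRight (‖φ‖⁻¹ • x)) w =
      w + φ w • ‖φ‖⁻¹ • x := fun w => rfl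
  rw [happ] at hw2
  rcases le_total 0 (φ w) with h | h
  · exact ⟨w, hw1.le, key w hw1.le h hw2⟩
  · refine ⟨-w, by rw [norm_neg]; exact hw1.le, key (-w) (by rw [norm_neg]; exact hw1.le)
      (by rw [map_neg]; linarith) ?_⟩
    have : -w + φ (-w) • ‖φ‖⁻¹ • x = -(w + φ w • ‖φ‖⁻¹ • x) := by
      rw [map_neg, neg_smul]; abel
    rw [this, norm_neg]
    exact hw2

/-- successive selection from finitely many slices. -/
theorem daugavet_slices [Nontrivial V] (hD : HasDaugavetProperty V) {ι : Type*} [DecidableEq ι]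
    (J : Finset ι) (ψ : ι → V →L[ℝ] ℝ) (δ : ℝ) (hδ : 0 < δ) (w : ι → ℝ) (hw : ∀ i ∈ J, 0 ≤ w i)
    (x : V) (ε : ℝ) (hε : 0 < ε) :
    ∃ u : ι → V, (∀ i ∈ J, ‖u i‖ ≤ 1 ∧ ‖ψ i‖ - δ < ψ i (u i)) ∧
      ‖x‖ + ∑ i ∈ J, w i - ε ≤ ‖x + ∑ i ∈ J, w i • u i‖ := by
  induction J using Finset.induction_on generalizing ε with
  | empty => exact ⟨fun _ => 0, by simp, by simp [hε.le]⟩
  | insert j J hj ih =>
    obtain ⟨u, hu1, hu2⟩ := ih (fun i hi => hw i (Finset.mem_insert_of_mem hi)) (ε / 2) (half_pos hε)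
    have hwj : 0 ≤ w j := hw j (Finset.mem_insert_self _ _)
    set y := x + ∑ i ∈ J, w i • u i with hy
    obtain ⟨v, hv1, hv2, hv3⟩ : ∃ v : V, ‖v‖ ≤ 1 ∧ ‖ψ j‖ - δ < ψ j v ∧
        ‖y‖ + w j - ε / 2 ≤ ‖y + w j • v‖ := by
      rcases hwj.eq_or_lt with h0 | h0
      · obtain ⟨v, hv1, hv2⟩ := exists_near_norm (ψ j) δ hδ
        refine ⟨v, hv1, hv2, ?_⟩
        rw [← h0, zero_smul, add_zero, add_zero]; linarith
      · obtain ⟨v, hv1, hv2, hv3⟩ := daugavet_slice hD (ψ j) ((w j)⁻¹ • y) (min δ (ε / (2 * w j)))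
          (by positivity)
        refine ⟨v, hv1, ?_, ?_⟩
        · have := min_le_left δ (ε / (2 * w j)); linarith
        · have h1 : y + w j • v = w j • ((w j)⁻¹ • y + v) := by
            rw [smul_add, smul_smul, mul_inv_cancel₀ h0.ne', one_smul]
          rw [h1, norm_smul, Real.norm_eq_abs, abs_of_pos h0]
          rw [norm_smul, norm_inv, Real.norm_eq_abs, abs_of_pos h0] at hv3
          have h2 := min_le_right δ (ε / (2 * w j))
          have h3 : w j * ((w j)⁻¹ * ‖y‖ + 1 - ε / (2 * w j)) ≤ w j * ‖(w j)⁻¹ • y + v‖ :=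
            mul_le_mul_of_nonneg_left (by linarith) h0.le
          have h4 : w j * ((w j)⁻¹ * ‖y‖ + 1 - ε / (2 * w j)) = ‖y‖ + w j - ε / 2 := by
            field_simp
          linarith
    refine ⟨Function.update u j v, ?_, ?_⟩
    · intro i hi
      rcases Finset.mem_insert.mp hi with rfl | hi'
      · rw [Function.update_self]; exact ⟨hv1, hv2⟩
      · have : i ≠ j := fun h => hj (h ▸ hi')
        rw [Function.update_of_ne this]; exact hu1 i hi'
    · rw [Finset.sum_insert hj, Finset.sum_insert hj, Function.update_self]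
      have h1 : ∑ i ∈ J, w i • Function.update u j v i = ∑ i ∈ J, w i • u i := by
        apply Finset.sum_congr rfl
        intro i hi
        have : i ≠ j := fun h => hj (h ▸ hi)
        rw [Function.update_of_ne this]
      rw [h1]
      have h2 : x + (w j • v + ∑ i ∈ J, w i • u i) = y + w j • v := by rw [hy]; abel
      rw [h2]
      linarith

/-- Shvydkoy's lemma: weak neighbourhoods of a unit vector in the ball contain almost antipodal
points. -/
theorem exists_far_in_weak_nhd [Nontrivial V] (hD : HasDaugavetProperty V) (x : V) (hx : ‖x‖ ≤ 1)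
    {m : ℕ} (φ : Fin m → (V →L[ℝ] ℝ)) (ε : ℝ) (hε : 0 < ε) :
    ∃ u : V, ‖u‖ ≤ 1 ∧ (∀ i, |φ i (u - x)| < ε) ∧ ‖x‖ + 1 - ε ≤ ‖u - x‖ := by
  classical
  let Φ : V →L[ℝ] EuclideanSpace ℝ (Fin m) :=
    (EuclideanSpace.equiv (Fin m) ℝ).symm.toContinuousLinearMap.comp (ContinuousLinearMap.pi φ)
  have hΦ : ∀ v i, Φ v i = φ i v := fun v i => rfl
  set K := closure (Φ '' Metric.closedBall (0 : V) 1) with hK
  have hbd : Bornology.IsBounded (Φ '' Metric.closedBall (0 : V) 1) :=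
    Φ.lipschitz.isBounded_image Metric.isBounded_closedBall
  have hKc : IsCompact K := hbd.isCompact_closure
  have hxK : Φ x ∈ K := subset_closure ⟨x, by simpa using hx, rfl⟩
  have h1 := subset_closure_convexHull_farPt K hKc hxK
  obtain ⟨q, hq, hqd⟩ := Metric.mem_closure_iff.mp h1 (ε / 2) (half_pos hε)
  obtain ⟨ι, hι, w, z, hw0, hw1, hz, hq2⟩ := mem_convexHull_iff_exists_fintype.mp hq
  choose hzK c hc using hz
  let ψ : ι → V →L[ℝ] ℝ := fun i => (innerSL ℝ (z i - c i)).comp Φ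
  have hψ : ∀ i v, ψ i v = inner ℝ (z i - c i) (Φ v) := fun i v => rfl
  have hψn : ∀ i, inner ℝ (z i - c i) (z i) ≤ ‖ψ i‖ := by
    intro i
    have hcl : IsClosed {p : EuclideanSpace ℝ (Fin m) | inner ℝ (z i - c i) p ≤ ‖ψ i‖} :=
      isClosed_le (by fun_prop) continuous_const
    have hsub : K ⊆ {p : EuclideanSpace ℝ (Fin m) | inner ℝ (z i - c i) p ≤ ‖ψ i‖} := by
      apply closure_minimal _ hcl
      rintro _ ⟨v, hv, rfl⟩
      have hv' : ‖v‖ ≤ 1 := by simpa using hv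
      change inner ℝ (z i - c i) (Φ v) ≤ ‖ψ i‖
      rw [← hψ]
      calc ψ i v ≤ ‖ψ i v‖ := Real.le_norm_self _
        _ ≤ ‖ψ i‖ * ‖v‖ := (ψ i).le_opNorm v
        _ ≤ ‖ψ i‖ * 1 := mul_le_mul_of_nonneg_left hv' (norm_nonneg _)
        _ = ‖ψ i‖ := mul_one _
    exact hsub (hzK i)
  obtain ⟨u, hu1, hu2⟩ := daugavet_slices hD Finset.univ ψ (ε ^ 2 / 8) (by positivity) w
    (fun i _ => hw0 i) (-x) ε hε
  have hnear : ∀ i, ‖Φ (u i) - z i‖ ≤ ε / 2 := by
    intro i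
    obtain ⟨h2, h3⟩ := hu1 i (Finset.mem_univ _)
    rw [hψ] at h3
    have h4 : ‖Φ (u i) - c i‖ ≤ ‖z i - c i‖ :=
      hc i _ (subset_closure ⟨u i, by simpa using h2, rfl⟩)
    have h5 : ‖Φ (u i) - z i‖ ^ 2 = ‖Φ (u i) - c i‖ ^ 2 - 2 * inner ℝ (Φ (u i) - c i) (z i - c i) +
        ‖z i - c i‖ ^ 2 := by
      rw [← norm_sub_sq_real]; congr 2; abel
    have h6 : inner ℝ (Φ (u i) - c i) (z i - c i) =
        inner ℝ (z i - c i) (Φ (u i)) - inner ℝ (z i - c i) (z i) + ‖z i - c i‖ ^ 2 := by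
      rw [real_inner_comm, ← real_inner_self_eq_norm_sq, ← inner_sub_right, ← inner_add_right]
      congr 1; abel
    have h7 : ‖Φ (u i) - z i‖ ^ 2 ≤ (ε / 2) ^ 2 := by
      have h8 := pow_le_pow_left₀ (norm_nonneg _) h4 2
      have h9 := hψn i
      rw [h5, h6]
      nlinarith
    exact le_of_sq_le_sq h7 (by positivity)
  refine ⟨∑ i, w i • u i, ?_, ?_, ?_⟩
  · calc ‖∑ i, w i • u i‖ ≤ ∑ i, ‖w i • u i‖ := norm_sum_le _ _
      _ ≤ ∑ i, w i := by
          apply Finset.sum_le_sum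
          intro i _
          rw [norm_smul, Real.norm_eq_abs, abs_of_nonneg (hw0 i)]
          calc w i * ‖u i‖ ≤ w i * 1 :=
                mul_le_mul_of_nonneg_left (hu1 i (Finset.mem_univ _)).1 (hw0 i)
            _ = w i := mul_one _
      _ = 1 := hw1
  · have h2 : ‖Φ (∑ i, w i • u i - x)‖ < ε := by
      have h3 : Φ (∑ i, w i • u i - x) = (∑ i, w i • (Φ (u i) - z i)) + (q - Φ x) := by
        rw [map_sub, map_sum, ← hq2]
        simp only [map_smul, smul_sub, Finset.sum_sub_distrib]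
        abel
      rw [h3]
      have h4 : ‖∑ i, w i • (Φ (u i) - z i)‖ ≤ ε / 2 := by
        calc ‖∑ i, w i • (Φ (u i) - z i)‖ ≤ ∑ i, ‖w i • (Φ (u i) - z i)‖ := norm_sum_le _ _
          _ ≤ ∑ i, w i * (ε / 2) := by
              apply Finset.sum_le_sum
              intro i _
              rw [norm_smul, Real.norm_eq_abs, abs_of_nonneg (hw0 i)]
              exact mul_le_mul_of_nonneg_left (hnear i) (hw0 i)
          _ = ε / 2 := by rw [← Finset.sum_mul, hw1, one_mul]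
      have h5 : ‖q - Φ x‖ < ε / 2 := by rwa [← dist_eq_norm, dist_comm]
      calc _ ≤ ‖∑ i, w i • (Φ (u i) - z i)‖ + ‖q - Φ x‖ := norm_add_le _ _
        _ < ε := by linarith
    intro i
    rw [← hΦ, ← Real.norm_eq_abs]
    exact lt_of_le_of_lt (PiLp.norm_apply_le _ i) h2
  · rw [hw1, norm_neg] at hu2
    have : -x + ∑ i, w i • u i = ∑ i, w i • u i - x := by abel
    rw [this] at hu2
    exact hu2

/-- Key statement (K). -/
theorem key_K [Nontrivial V] (hD : HasDaugavetProperty V) (x : V) (hx : ‖x‖ ≤ 1) (S : Submodule ℝ V)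
    (hS : IsClosed (S : Set V)) (hf : FiniteDimensional ℝ (V ⧸ S)) (ε : ℝ) (hε : 0 < ε) :
    ∃ u : V, ‖u‖ ≤ 1 ∧ (∃ s ∈ S, ‖(u - x) - s‖ < ε) ∧ ‖x‖ + 1 - ε ≤ ‖u - x‖ := by
  obtain ⟨m, φ, δ, hδ, H⟩ := exists_mem_of_functionals S hS hf ε hε
  obtain ⟨u, hu1, hu2, hu3⟩ := exists_far_in_weak_nhd hD x hx φ (min δ ε) (by positivity)
  refine ⟨u, hu1, H _ (fun i => lt_of_lt_of_le (hu2 i) (min_le_left _ _)), ?_⟩
  have := min_le_right δ ε
  linarith

theorem not_auc_daugavet [Nontrivial V] (hD : HasDaugavetProperty V) {N : V → ℝ} (hN : EqNorm N) :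
    ¬ AUC N := by
  apply not_auc_of_steps hN 1 (1 / 2) (by norm_num) (fun _ => {x : V | 1 / 2 < ‖x‖ ∧ ‖x‖ ≤ 1})
  · intro _
    obtain ⟨w, hw⟩ := exists_norm_eq V (zero_le_one (α := ℝ))
    exact ⟨w, by change 1 / 2 < ‖w‖ ∧ ‖w‖ ≤ 1; rw [hw]; norm_num⟩
  · rintro _ x ⟨_, hx⟩
    exact hx
  · rintro _ x ⟨hx1, hx2⟩ S hS hf ε hε
    set r := ‖x‖ with hr
    have hr0 : 0 < r := by linarith
    set e := min ε (min ((r - 1 / 2) / 2) (1 / 4)) with he
    have he0 : 0 < e := by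
      have : 0 < (r - 1 / 2) / 2 := by linarith
      positivity
    have he1 : e ≤ ε := min_le_left _ _
    have he2 : e ≤ (r - 1 / 2) / 2 := (min_le_right _ _).trans (min_le_left _ _)
    have he3 : e ≤ 1 / 4 := (min_le_right _ _).trans (min_le_right _ _)
    have hx' : ‖r⁻¹ • x‖ = 1 := by
      rw [norm_smul, norm_inv, Real.norm_eq_abs, abs_of_pos hr0, ← hr, inv_mul_cancel₀ hr0.ne']
    obtain ⟨u, hu1, ⟨s, hs, hs2⟩, hu3⟩ := key_K hD (r⁻¹ • x) hx'.le S hS hf e he0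
    rw [hx'] at hu3
    refine ⟨r • (u - r⁻¹ • x), ⟨r • s, S.smul_mem _ hs, ?_⟩, ?_, ?_⟩
    · rw [← smul_sub, norm_smul, Real.norm_eq_abs, abs_of_pos hr0]
      nlinarith [norm_nonneg (u - r⁻¹ • x - s)]
    · rw [norm_smul, Real.norm_eq_abs, abs_of_pos hr0]
      nlinarith
    · have h1 : x + r • (u - r⁻¹ • x) = r • u := by
        rw [smul_sub, smul_smul, mul_inv_cancel₀ hr0.ne', one_smul]; abel
      have h2 : 1 - e ≤ ‖u‖ := by
        have := norm_sub_le u (r⁻¹ • x)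
        rw [hx'] at this
        linarith
      change 1 / 2 < ‖x + r • (u - r⁻¹ • x)‖ ∧ ‖x + r • (u - r⁻¹ • x)‖ ≤ 1
      rw [h1, norm_smul, Real.norm_eq_abs, abs_of_pos hr0]
      constructor <;> nlinarith

/-- direction for the upper bounds -/
theorem upper_direction [Nontrivial V] (hD : HasDaugavetProperty V) (x : V) (hx : ‖x‖ = 1)
    (t : ℝ) (ht : 0 < t) (S : Submodule ℝ V)
    (hS : IsClosed (S : Set V)) (hf : FiniteDimensional ℝ (V ⧸ S)) (η : ℝ) (hη : 0 < η) :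
    ∃ y ∈ S, ‖y‖ = 1 ∧ ‖x + t • y‖ ≤ max 1 (t - 1) + η ∧ ‖x - t • y‖ ≤ 1 + t := by
  set e := min (1 / 2) (η / (2 * t)) with he
  have he0 : 0 < e := by positivity
  have he1 : e ≤ 1 / 2 := min_le_left _ _
  have he2 : e ≤ η / (2 * t) := min_le_right _ _
  obtain ⟨u, hu1, ⟨s, hs, hs2⟩, hu3⟩ := key_K hD x hx.le S hS hf e he0
  rw [hx] at hu3
  have hux : ‖u - x‖ ≤ 2 := (norm_sub_le _ _).trans (by linarith)
  have h1 : ‖u - x‖ - ‖s‖ ≤ ‖(u - x) - s‖ := norm_sub_norm_le _ _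
  have h2 : ‖s‖ - ‖u - x‖ ≤ ‖(u - x) - s‖ := by
    have := norm_sub_norm_le s (u - x)
    rwa [norm_sub_rev s (u - x)] at this
  have hs0 : 0 < ‖s‖ := by linarith
  refine ⟨‖s‖⁻¹ • s, S.smul_mem _ hs, ?_, ?_, ?_⟩
  · rw [norm_smul, norm_inv, norm_norm, inv_mul_cancel₀ hs0.ne']
  · -- compare with (u - x)/2
    have h3 : ‖‖s‖⁻¹ • s - (1 / 2 : ℝ) • (u - x)‖ ≤ 2 * e := by
      have e1 : ‖s‖⁻¹ • s - (1 / 2 : ℝ) • (u - x) =
          (‖s‖⁻¹ - 1 / 2) • s - (1 / 2 : ℝ) • ((u - x) - s) := by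
        simp only [sub_smul, smul_sub]; abel
      rw [e1]
      refine (norm_sub_le _ _).trans ?_
      rw [norm_smul, norm_smul, Real.norm_eq_abs, Real.norm_eq_abs]
      have e2 : |‖s‖⁻¹ - 1 / 2| * ‖s‖ = |1 - ‖s‖ / 2| := by
        rw [← abs_of_pos hs0, ← abs_mul, abs_of_pos hs0, sub_mul, inv_mul_cancel₀ hs0.ne']
        congr 1; ring
      rw [e2, abs_of_pos (by norm_num : (0:ℝ) < 1 / 2)]
      have h4 : |1 - ‖s‖ / 2| ≤ e := by
        rw [abs_le]; constructor <;> linarith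
      linarith
    have h5 : x + t • ‖s‖⁻¹ • s = ((1 - t / 2) • x + (t / 2) • u) +
        t • (‖s‖⁻¹ • s - (1 / 2 : ℝ) • (u - x)) := by
      simp only [smul_sub, sub_smul, smul_smul, one_smul]
      have : t * (1 / 2) = t / 2 := by ring
      rw [this]; abel
    rw [h5]
    refine (norm_add_le _ _).trans ?_
    have h6 : ‖(1 - t / 2) • x + (t / 2) • u‖ ≤ max 1 (t - 1) := by
      refine (norm_add_le _ _).trans ?_
      rw [norm_smul, norm_smul, hx, Real.norm_eq_abs, Real.norm_eq_abs, abs_of_pos (half_pos ht)]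
      rcases le_total t 2 with h | h
      · rw [abs_of_nonneg (by linarith)]
        refine le_trans ?_ (le_max_left _ _)
        nlinarith
      · rw [abs_of_nonpos (by linarith)]
        refine le_trans ?_ (le_max_right _ _)
        nlinarith
    have h7 : ‖t • (‖s‖⁻¹ • s - (1 / 2 : ℝ) • (u - x))‖ ≤ η := by
      rw [norm_smul, Real.norm_eq_abs, abs_of_pos ht]
      calc t * ‖‖s‖⁻¹ • s - (1 / 2 : ℝ) • (u - x)‖ ≤ t * (2 * (η / (2 * t))) :=
            mul_le_mul_of_nonneg_left (h3.trans (by linarith)) ht.le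
        _ = η := by field_simp
    linarith
  · refine (norm_sub_le _ _).trans ?_
    rw [norm_smul, norm_smul, norm_inv, norm_norm, inv_mul_cancel₀ hs0.ne', hx, Real.norm_eq_abs,
      abs_of_pos ht, mul_one]

end daugavet

end Crest.Agent.LibDaugavet
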