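import Mathlib
open MeasureTheory Set Filter
open scoped ENNReal NNReal Topology

namespace Crest.Agent.LibGradInterp

/-- Difference quotients of a convex function are monotone. -/
lemma diffq_mono {g : ℝ → ℝ} (hg : ConvexOn ℝ univ g) {h : ℝ} (hh : 0 < h) :
    Monotone (fun x => (g (x + h) - g x) / h) := by
  intro x y hxy
  rcases hxy.eq_or_lt with rfl | hlt
  · exact le_rfl
  simp only
  refine div_le_div_of_nonneg_right ?_ hh.le
  have hpos : 0 < y - x + h := by linarith
  have hy0 : 0 ≤ y - x := by linarith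
  have hc : ∀ a b : ℝ, 0 ≤ a → 0 ≤ b → a + b = 1 →
      g (a * x + b * (y + h)) ≤ a * g x + b * g (y + h) := by
    intro a b ha hb hab
    have := hg.2 (mem_univ x) (mem_univ (y + h)) ha hb hab
    simpa only [smul_eq_mul] using this
  have h1 := hc ((y - x) / (y - x + h)) (h / (y - x + h)) (by positivity) (by positivity)
    (by field_simp)
  have h2 := hc (h / (y - x + h)) ((y - x) / (y - x + h)) (by positivity) (by positivity)
    (by field_simp; ring)
  have e1 : (y - x) / (y - x + h) * x + h / (y - x + h) * (y + h) = x + h := by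
    field_simp; ring
  have e2 : h / (y - x + h) * x + (y - x) / (y - x + h) * (y + h) = y := by
    field_simp; ring
  rw [e1] at h1
  rw [e2] at h2
  have e3 : (y - x) / (y - x + h) * g x + h / (y - x + h) * g (y + h) +
    (h / (y - x + h) * g x + (y - x) / (y - x + h) * g (y + h)) = g x + g (y + h) := by
    field_simp; ring
  linarith

lemma diffq_abs_le {g : ℝ → ℝ} {M : ℝ≥0} (hg : LipschitzWith M g) {h : ℝ} (hh : 0 < h) (x : ℝ) :
    |(g (x + h) - g x) / h| ≤ M := by
  rw [abs_div, abs_of_pos hh, div_le_iff₀ hh]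
  have := hg.dist_le_mul (x + h) x
  rw [Real.dist_eq, Real.dist_eq] at this
  simpa [abs_of_pos hh] using this

lemma diffq_lip {g : ℝ → ℝ} {M : ℝ≥0} (hg : LipschitzWith M g) {h : ℝ} (hh : 0 < h) :
    ∃ L : ℝ≥0, LipschitzWith L (fun x => (g (x + h) - g x) / h) := by
  refine ⟨(Real.toNNReal (1 / h)) * (M + M), ?_⟩
  apply LipschitzWith.of_dist_le_mul
  intro x y
  have h1 := hg.dist_le_mul (x + h) (y + h)
  have h2 := hg.dist_le_mul x y
  rw [Real.dist_eq, Real.dist_eq] at *
  have e1 : x + h - (y + h) = x - y := by ring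
  rw [e1] at h1
  have e2 : (g (x + h) - g x) / h - (g (y + h) - g y) / h
      = (1 / h) * ((g (x + h) - g (y + h)) - (g x - g y)) := by field_simp; ring
  rw [e2, abs_mul, abs_of_pos (by positivity : 0 < 1 / h)]
  rw [NNReal.coe_mul, Real.coe_toNNReal _ (by positivity), NNReal.coe_add]
  rw [mul_assoc]
  apply mul_le_mul_of_nonneg_left _ (by positivity)
  have h3 := abs_sub (g (x + h) - g (y + h)) (g x - g y)
  nlinarith

/-- Integration by parts against a monotone difference quotient. -/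
lemma ibp_bound {g F : ℝ → ℝ} {M L : ℝ≥0} (hg : ConvexOn ℝ univ g) (hgM : LipschitzWith M g)
    (hF : LipschitzWith L F) {a b S : ℝ} (hab : a ≤ b) (hS : ∀ x ∈ Icc a b, |F x| ≤ S)
    {h : ℝ} (hh : 0 < h) :
    |∫ x in a..b, ((g (x + h) - g x) / h) * deriv F x| ≤ 4 * M * S := by
  set p : ℝ → ℝ := fun x => (g (x + h) - g x) / h with hp
  obtain ⟨L', hL'⟩ := diffq_lip hgM hh
  have hpac : AbsolutelyContinuousOnInterval p a b :=
    (hL'.lipschitzOnWith (s := uIcc a b)).absolutelyContinuousOnInterval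
  have hFac : AbsolutelyContinuousOnInterval F a b :=
    (hF.lipschitzOnWith (s := uIcc a b)).absolutelyContinuousOnInterval
  have hibp := hpac.integral_mul_deriv_eq_deriv_mul hFac
  have hS0 : 0 ≤ S := le_trans (abs_nonneg _) (hS a ⟨le_rfl, hab⟩)
  have hpm : Monotone p := diffq_mono hg hh
  have hpb : ∀ x, |p x| ≤ M := fun x => diffq_abs_le hgM hh x
  have hint : IntervalIntegrable (deriv p) volume a b := hpac.intervalIntegrable_deriv
  have h1 : |∫ x in a..b, deriv p x * F x| ≤ S * (p b - p a) := by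
    rw [← Real.norm_eq_abs]
    have h2 : ‖∫ x in a..b, deriv p x * F x‖ ≤ ∫ x in a..b, S * deriv p x := by
      apply intervalIntegral.norm_integral_le_of_norm_le hab _ (hint.const_mul S)
      refine Filter.Eventually.of_forall (fun x hx => ?_)
      have hx' : x ∈ Icc a b := ⟨hx.1.le, hx.2⟩
      rw [norm_mul, Real.norm_eq_abs, Real.norm_eq_abs, abs_of_nonneg (hpm.deriv_nonneg), mul_comm]
      exact mul_le_mul_of_nonneg_right (hS x hx') hpm.deriv_nonneg
    rw [intervalIntegral.integral_const_mul, hpac.integral_deriv_eq_sub] at h2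
    exact h2
  rw [hibp]
  have hb := hS b ⟨hab, le_rfl⟩
  have ha := hS a ⟨le_rfl, hab⟩
  have hpa := hpb a
  have hpb' := hpb b
  have hM0 : (0:ℝ) ≤ M := M.2
  have k1 : |p b * F b| ≤ M * S := by
    rw [abs_mul]; exact mul_le_mul hpb' hb (abs_nonneg _) hM0
  have k2 : |p a * F a| ≤ M * S := by
    rw [abs_mul]; exact mul_le_mul hpa ha (abs_nonneg _) hM0
  have k3 : S * (p b - p a) ≤ S * (2 * M) := by
    apply mul_le_mul_of_nonneg_left _ hS0
    have := abs_le.1 hpa
    have := abs_le.1 hpb'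
    linarith [abs_le.1 hpa, abs_le.1 hpb']
  have := abs_le.1 k1
  have := abs_le.1 k2
  have := abs_le.1 (h1.trans k3)
  rw [abs_le]
  constructor <;> nlinarith [abs_le.1 k1, abs_le.1 k2, abs_le.1 (h1.trans k3)]


/-- Key one-dimensional bound: `∫ (f')² ≤ 8 M sup |f|` for a difference `f` of two convex
`M`-Lipschitz functions. -/
lemma sq_deriv_le_sup {g k : ℝ → ℝ} {M : ℝ≥0} (hg : ConvexOn ℝ univ g) (hk : ConvexOn ℝ univ k)
    (hgM : LipschitzWith M g) (hkM : LipschitzWith M k) {a b S : ℝ} (hab : a ≤ b)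
    (hS : ∀ x ∈ Icc a b, |g x - k x| ≤ S) :
    ∫ x in a..b, (deriv (fun y => g y - k y) x) ^ 2 ≤ 8 * M * S := by
  set F : ℝ → ℝ := fun y => g y - k y with hFdef
  have hFl : LipschitzWith (M + M) F := hgM.sub hkM
  have hFac : AbsolutelyContinuousOnInterval F a b :=
    (hFl.lipschitzOnWith (s := uIcc a b)).absolutelyContinuousOnInterval
  let hn : ℕ → ℝ := fun n => 1 / ((n : ℝ) + 1)
  have hnpos : ∀ n, 0 < hn n := fun n => by positivity
  have hnt : Tendsto hn atTop (𝓝 0) := tendsto_one_div_add_atTop_nhds_zero_nat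
  let q : ℕ → ℝ → ℝ := fun n x => (F (x + hn n) - F x) / hn n
  have hq : ∀ n x, q n x = (g (x + hn n) - g x) / hn n - (k (x + hn n) - k x) / hn n := by
    intro n x
    simp only [q, hFdef]
    ring
  have hqb : ∀ n x, |q n x| ≤ ((M + M : ℝ≥0) : ℝ) := fun n x => diffq_abs_le hFl (hnpos n) x
  have hderivb : ∀ x, |deriv F x| ≤ ((M + M : ℝ≥0) : ℝ) := fun x => by
    have := norm_deriv_le_of_lipschitz (x₀ := x) hFl
    rwa [Real.norm_eq_abs] at this
  have hmeas : Measurable (deriv F) := measurable_deriv F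
  have hqc : ∀ n, Continuous (q n) := by
    intro n
    have : Continuous F := hFl.continuous
    fun_prop
  have hint : ∀ (p : ℝ → ℝ), Continuous p → IntervalIntegrable (fun x => p x * deriv F x) volume a b :=
    fun p hp => hFac.intervalIntegrable_deriv.continuousOn_mul hp.continuousOn
  have hbound : ∀ n, ∫ x in a..b, q n x * deriv F x ≤ 8 * M * S := by
    intro n
    have hgc : Continuous g := hgM.continuous
    have hkc : Continuous k := hkM.continuous
    have e : ∫ x in a..b, q n x * deriv F x = (∫ x in a..b, ((g (x + hn n) - g x) / hn n) * deriv F x)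
        - ∫ x in a..b, ((k (x + hn n) - k x) / hn n) * deriv F x := by
      rw [← intervalIntegral.integral_sub]
      · congr 1
        ext x
        rw [hq]
        ring
      · exact hint _ (by fun_prop)
      · exact hint _ (by fun_prop)
    rw [e]
    have h1 := ibp_bound hg hgM hFl hab hS (hnpos n)
    have h2 := ibp_bound hk hkM hFl hab hS (hnpos n)
    linarith [abs_le.1 h1, abs_le.1 h2, (abs_le.1 h1).2, (abs_le.1 h2).1]
  have hlim : Tendsto (fun n => ∫ x in a..b, q n x * deriv F x) atTop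
      (𝓝 (∫ x in a..b, (deriv F x) ^ 2)) := by
    apply intervalIntegral.tendsto_integral_filter_of_dominated_convergence
      (fun _ => ((M + M : ℝ≥0) : ℝ) * ((M + M : ℝ≥0) : ℝ))
    · exact Filter.Eventually.of_forall fun n =>
        ((hqc n).measurable.mul hmeas).aestronglyMeasurable
    · refine Filter.Eventually.of_forall fun n => Filter.Eventually.of_forall fun x _ => ?_
      rw [norm_mul, Real.norm_eq_abs, Real.norm_eq_abs]
      exact mul_le_mul (hqb n x) (hderivb x) (abs_nonneg _) (NNReal.coe_nonneg _)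
    · exact intervalIntegrable_const
    · have hdiff : ∀ᵐ x : ℝ, DifferentiableAt ℝ F x := hFl.ae_differentiableAt
      filter_upwards [hdiff] with x hx _
      have h1 : Tendsto (fun n => q n x) atTop (𝓝 (deriv F x)) := by
        have h2 := hx.hasDerivAt.tendsto_slope
        have h3 : Tendsto (fun n => x + hn n) atTop (𝓝[≠] x) := by
          rw [tendsto_nhdsWithin_iff]
          constructor
          · simpa using (tendsto_const_nhds (x := x)).add hnt
          · exact Filter.Eventually.of_forall fun n => by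
              simp only [mem_compl_iff, mem_singleton_iff]
              have := hnpos n
              linarith [hnpos n]
        have h4 := h2.comp h3
        refine h4.congr (fun n => ?_)
        simp only [Function.comp, slope_def_field, q]
        congr 1
        ring
      have := h1.mul_const (deriv F x)
      simpa [sq] using this
  exact le_of_tendsto' hlim hbound

/-- One-dimensional interpolation, real version. -/
lemma oneD {g k : ℝ → ℝ} {M : ℝ≥0} (hg : ConvexOn ℝ univ g) (hk : ConvexOn ℝ univ k)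
    (hgM : LipschitzWith M g) (hkM : LipschitzWith M k) {a b : ℝ} (hab : a ≤ b) :
    (∫ x in a..b, (deriv (fun y => g y - k y) x) ^ 2) ^ 3 ≤
      16384 * (M : ℝ) ^ 4 * ∫ x in a..b, (g x - k x) ^ 2 := by
  set F : ℝ → ℝ := fun y => g y - k y with hFdef
  have hFl : LipschitzWith (M + M) F := hgM.sub hkM
  have hFc : Continuous F := hFl.continuous
  have hM0 : (0:ℝ) ≤ M := M.2
  have hMM : ((M + M : ℝ≥0) : ℝ) = 2 * M := by push_cast; ring
  set I := ∫ x in a..b, (deriv F x) ^ 2 with hI
  have hI0 : 0 ≤ I := by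
    apply intervalIntegral.integral_nonneg hab
    intro x _
    positivity
  have hJ0 : 0 ≤ ∫ x in a..b, (g x - k x) ^ 2 := by
    apply intervalIntegral.integral_nonneg hab
    intro x _
    positivity
  have hI2 : I ≤ 4 * (M:ℝ) ^ 2 * (b - a) := by
    have h1 : ‖I‖ ≤ (4 * (M:ℝ)^2) * |b - a| := by
      apply intervalIntegral.norm_integral_le_of_norm_le_const
      intro x _
      have h2 := norm_deriv_le_of_lipschitz (x₀ := x) hFl
      rw [hMM] at h2
      rw [norm_pow]
      have := norm_nonneg (deriv F x)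
      nlinarith
    rw [Real.norm_eq_abs, abs_of_nonneg hI0, abs_of_nonneg (by linarith : 0 ≤ b - a)] at h1
    exact h1
  obtain ⟨x0, hx0, hmax⟩ := isCompact_Icc.exists_isMaxOn (s := Icc a b) ⟨a, le_rfl, hab⟩
    (f := fun x => |F x|) (by fun_prop)
  set S := |F x0| with hSdef
  have hS0 : 0 ≤ S := abs_nonneg _
  have hS : ∀ x ∈ Icc a b, |g x - k x| ≤ S := fun x hx => hmax hx
  have hI1 : I ≤ 8 * M * S := sq_deriv_le_sup hg hk hgM hkM hab hS
  rcases hM0.eq_or_lt with hMz | hMpos
  · have : I = 0 := by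
      rw [← hMz] at hI1
      nlinarith
    rw [this]
    have := mul_nonneg (by positivity : (0:ℝ) ≤ 16384 * (M:ℝ)^4) hJ0
    simpa using this
  rcases hI0.eq_or_lt with hIz | hIpos
  · rw [← hIz]
    have := mul_nonneg (by positivity : (0:ℝ) ≤ 16384 * (M:ℝ)^4) hJ0
    simpa using this
  -- main case
  set δ := I / (64 * (M:ℝ) ^ 2) with hδ
  have hδpos : 0 < δ := by positivity
  have hδ1 : 2 * δ ≤ b - a := by
    rw [hδ]
    have : I / (64 * (M:ℝ)^2) ≤ (b - a) / 16 := by
      rw [div_le_div_iff₀ (by positivity) (by positivity)]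
      nlinarith
    linarith
  have hδ2 : 8 * M * δ ≤ S := by
    have : 8 * (M:ℝ) * (I / (64 * (M:ℝ) ^ 2)) = I / (8 * M) := by field_simp; ring
    rw [hδ, this, div_le_iff₀ (by positivity)]
    linarith
  obtain ⟨c, hca, hcb, hcx⟩ : ∃ c, a ≤ c ∧ c + δ ≤ b ∧ ∀ x ∈ Icc c (c + δ), |x - x0| ≤ δ := by
    by_cases h : x0 + δ ≤ b
    · refine ⟨x0, hx0.1, h, fun x hx => ?_⟩
      rw [abs_le]
      constructor <;> linarith [hx.1, hx.2]
    · refine ⟨x0 - δ, by linarith, by linarith [hx0.2], fun x hx => ?_⟩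
      rw [abs_le]
      constructor <;> linarith [hx.1, hx.2]
  have hlow : ∀ x ∈ Icc c (c + δ), (S / 2) ^ 2 ≤ (g x - k x) ^ 2 := by
    intro x hx
    have h1 := hcx x hx
    have h2 := hFl.dist_le_mul x x0
    rw [Real.dist_eq, Real.dist_eq, hMM] at h2
    have h3 : |F x0| - |F x| ≤ |F x - F x0| := by
      have h5 := abs_sub_abs_le_abs_sub (F x0) (F x)
      rw [abs_sub_comm (F x) (F x0)]
      exact h5
    have h4 : S / 2 ≤ |F x| := by
      have : 2 * (M:ℝ) * |x - x0| ≤ 2 * M * δ := by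
        apply mul_le_mul_of_nonneg_left h1 (by positivity)
      have hSx : S - |F x| ≤ 2 * M * δ := by
        calc S - |F x| ≤ |F x - F x0| := h3
          _ ≤ 2 * M * |x - x0| := h2
          _ ≤ _ := this
      nlinarith
    have h5 : (S/2)^2 ≤ |F x| ^ 2 := by
      apply pow_le_pow_left₀ (by positivity) h4
    rwa [sq_abs] at h5
  have hJ : δ * (S / 2) ^ 2 ≤ ∫ x in a..b, (g x - k x) ^ 2 := by
    have hc2 : Continuous (fun x => (g x - k x) ^ 2) := by
      have : (fun x => (g x - k x) ^ 2) = fun x => (F x) ^ 2 := rfl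
      rw [this]
      fun_prop
    have h1 : ∫ x in c..(c+δ), (S / 2) ^ 2 ≤ ∫ x in c..(c+δ), (g x - k x) ^ 2 := by
      apply intervalIntegral.integral_mono_on (by linarith) intervalIntegrable_const
        (hc2.intervalIntegrable _ _)
      intro x hx
      exact hlow x hx
    have h2 : ∫ x in c..(c+δ), (g x - k x) ^ 2 ≤ ∫ x in a..b, (g x - k x) ^ 2 := by
      apply intervalIntegral.integral_mono_interval hca (by linarith) hcb
      · exact Filter.Eventually.of_forall fun x => by positivity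
      · exact hc2.intervalIntegrable _ _
    rw [intervalIntegral.integral_const, smul_eq_mul] at h1
    have : c + δ - c = δ := by ring
    rw [this] at h1
    exact h1.trans h2
  have hSI : I / (8 * M) ≤ S := by
    rw [div_le_iff₀ (by positivity)]
    linarith
  have hfin : I ^ 3 ≤ 16384 * (M:ℝ)^4 * (δ * (S/2)^2) := by
    have h1 : (I / (8 * M)) ^ 2 ≤ S ^ 2 := by
      apply pow_le_pow_left₀ (by positivity) hSI
    have h2 : 16384 * (M:ℝ)^4 * (δ * (S/2)^2) = 64 * (M:ℝ)^2 * I * S^2 := by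
      rw [hδ]
      field_simp
      ring
    rw [h2]
    have h3 : 64 * (M:ℝ)^2 * I * (I / (8 * M)) ^ 2 = I ^ 3 := by
      field_simp
      ring
    rw [← h3]
    apply mul_le_mul_of_nonneg_left h1 (by positivity)
  calc I ^ 3 ≤ 16384 * (M:ℝ)^4 * (δ * (S/2)^2) := hfin
    _ ≤ _ := by
      apply mul_le_mul_of_nonneg_left hJ (by positivity)


/-- One-dimensional interpolation, `lintegral` version on a compact convex set. -/
lemma oneD_lintegral {g k : ℝ → ℝ} {M : ℝ≥0} (hg : ConvexOn ℝ univ g) (hk : ConvexOn ℝ univ k)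
    (hgM : LipschitzWith M g) (hkM : LipschitzWith M k) {A : Set ℝ} (hA : IsCompact A)
    (hAc : Convex ℝ A) :
    ∫⁻ x in A, ‖deriv (fun y => g y - k y) x‖ₑ ^ 2 ≤
      ((16384 * M ^ 4 : ℝ≥0) : ℝ≥0∞) ^ (1 / 3 : ℝ) *
        (∫⁻ x in A, ‖g x - k x‖ₑ ^ 2) ^ (1 / 3 : ℝ) := by
  rcases A.eq_empty_or_nonempty with rfl | hne
  · simp
  obtain ⟨a, b, hab, rfl⟩ : ∃ a b, a ≤ b ∧ A = Icc a b := by
    have h := eq_Icc_of_connected_compact ⟨hne, hAc.isPreconnected⟩ hA
    refine ⟨sInf A, sSup A, ?_, h⟩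
    exact csInf_le_csSup hne hA.bddBelow hA.bddAbove
  set F : ℝ → ℝ := fun y => g y - k y with hFdef
  have hFl : LipschitzWith (M + M) F := hgM.sub hkM
  have hFac : AbsolutelyContinuousOnInterval F a b :=
    (hFl.lipschitzOnWith (s := uIcc a b)).absolutelyContinuousOnInterval
  have key : ∀ h : ℝ → ℝ, Measurable h → (∃ C, ∀ x ∈ Icc a b, ‖h x‖ ≤ C) →
      ∫⁻ x in Icc a b, ‖h x‖ₑ ^ 2 = ENNReal.ofReal (∫ x in a..b, (h x) ^ 2) := by
    intro h hm ⟨C, hC⟩
    rw [intervalIntegral.integral_of_le hab, ← integral_Icc_eq_integral_Ioc,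
      ofReal_integral_eq_lintegral_ofReal]
    · congr 1
      ext x
      rw [← Real.enorm_of_nonneg (by positivity : 0 ≤ h x ^ 2), enorm_pow]
    · have : IntegrableOn (fun x => (h x)^2) (Icc a b) volume := by
        refine Measure.integrableOn_of_bounded (M := C ^ 2) (by simp)
          (hm.pow_const 2).aestronglyMeasurable ?_
        filter_upwards [ae_restrict_mem measurableSet_Icc] with x hx
        rw [norm_pow]
        exact pow_le_pow_left₀ (norm_nonneg _) (hC x hx) 2
      exact this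
    · exact Filter.Eventually.of_forall fun x => by positivity
  have h1 := key (deriv F) (measurable_deriv F)
    ⟨_, fun x _ => norm_deriv_le_of_lipschitz (x₀ := x) hFl⟩
  have h2 := key F hFl.continuous.measurable (by
    obtain ⟨C, hC⟩ := isCompact_Icc.exists_bound_of_continuousOn
      (s := Icc a b) hFl.continuous.continuousOn
    exact ⟨C, hC⟩)
  have h3 := oneD hg hk hgM hkM hab
  rw [h1]
  have h2' : ∫⁻ x in Icc a b, ‖g x - k x‖ₑ ^ 2 = ENNReal.ofReal (∫ x in a..b, (F x) ^ 2) := h2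
  rw [h2', ← ENNReal.mul_rpow_of_nonneg _ _ (by norm_num)]
  set I := ∫ x in a..b, (deriv F x) ^ 2 with hI
  have hI0 : 0 ≤ I := by
    apply intervalIntegral.integral_nonneg hab
    intro x _
    positivity
  have h4 : (ENNReal.ofReal I) ^ (3:ℕ) ≤ ((16384 * M ^ 4 : ℝ≥0) : ℝ≥0∞) *
      ENNReal.ofReal (∫ x in a..b, (F x) ^ 2) := by
    rw [← ENNReal.ofReal_pow hI0, ← ENNReal.ofReal_coe_nnreal, ← ENNReal.ofReal_mul (by positivity)]
    apply ENNReal.ofReal_le_ofReal
    push_cast
    exact h3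
  calc ENNReal.ofReal I = ((ENNReal.ofReal I) ^ (3:ℕ)) ^ (1/3:ℝ) := by
        rw [← ENNReal.rpow_natCast, ← ENNReal.rpow_mul]
        norm_num
    _ ≤ _ := ENNReal.rpow_le_rpow h4 (by norm_num)


/-- The point with `i`-th coordinate `t` and other coordinates `z`. -/
noncomputable def slicePt {n : ℕ} (i : Fin (n + 1)) (t : ℝ) (z : Fin n → ℝ) :
    EuclideanSpace ℝ (Fin (n + 1)) :=
  WithLp.toLp 2 (i.insertNth t z)

/-- The measurable equivalence splitting off the `i`-th coordinate. -/
noncomputable def splitEquiv {n : ℕ} (i : Fin (n + 1)) :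
    EuclideanSpace ℝ (Fin (n + 1)) ≃ᵐ ℝ × (Fin n → ℝ) :=
  (MeasurableEquiv.toLp 2 (Fin (n + 1) → ℝ)).symm.trans
    (MeasurableEquiv.piFinSuccAbove (fun _ => ℝ) i)

lemma splitEquiv_symm {n : ℕ} (i : Fin (n + 1)) (p : ℝ × (Fin n → ℝ)) :
    (splitEquiv i).symm p = slicePt i p.1 p.2 := rfl

lemma splitEquiv_mp {n : ℕ} (i : Fin (n + 1)) :
    MeasurePreserving (splitEquiv i) volume (volume.prod volume) :=
  (volume_preserving_piFinSuccAbove (fun _ => ℝ) i).comp
    (EuclideanSpace.volume_preserving_symm_measurableEquiv_toLp (Fin (n + 1)))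

lemma slice_lintegral {n : ℕ} (i : Fin (n + 1)) {G : EuclideanSpace ℝ (Fin (n + 1)) → ℝ≥0∞}
    (hG : Measurable G) : ∫⁻ x, G x = ∫⁻ z, ∫⁻ t, G (slicePt i t z) := by
  have h1 := (splitEquiv_mp i).symm.lintegral_comp_emb (splitEquiv i).symm.measurableEmbedding G
  rw [← h1, lintegral_prod_symm']
  · rfl
  · exact hG.comp (splitEquiv i).symm.measurable

lemma slice_ae {n : ℕ} (i : Fin (n + 1)) {p : EuclideanSpace ℝ (Fin (n + 1)) → Prop}
    (h : ∀ᵐ x, p x) : ∀ᵐ z : Fin n → ℝ, ∀ᵐ t : ℝ, p (slicePt i t z) := by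
  have h1 : ∀ᵐ q : ℝ × (Fin n → ℝ) ∂(volume.prod volume), p ((splitEquiv i).symm q) :=
    (splitEquiv_mp i).symm.quasiMeasurePreserving.ae h
  have h2 : ∀ᵐ q : (Fin n → ℝ) × ℝ ∂(volume.prod volume), p ((splitEquiv i).symm q.swap) :=
    (Measure.measurePreserving_swap).quasiMeasurePreserving.ae h1
  exact Measure.ae_ae_of_ae_prod h2

lemma slicePt_eq {n : ℕ} (i : Fin (n + 1)) (t : ℝ) (z : Fin n → ℝ) :
    slicePt i t z = slicePt i 0 z + t • EuclideanSpace.single i (1:ℝ) := by
  ext j
  refine Fin.succAboveCases i ?_ ?_ j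
  · simp [slicePt]
  · intro k
    simp [slicePt]

lemma slicePt_isometry {n : ℕ} (i : Fin (n + 1)) (z : Fin n → ℝ) :
    Isometry (fun t => slicePt i t z) := by
  apply Isometry.of_dist_eq
  intro s t
  rw [slicePt_eq i s z, slicePt_eq i t z, dist_eq_norm, dist_eq_norm]
  have : slicePt i 0 z + s • EuclideanSpace.single i (1:ℝ) -
      (slicePt i 0 z + t • EuclideanSpace.single i (1:ℝ)) =
      (s - t) • EuclideanSpace.single i (1:ℝ) := by
    rw [sub_smul]; abel
  rw [this, norm_smul]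
  simp

lemma slicePt_comb {n : ℕ} (i : Fin (n + 1)) (z : Fin n → ℝ) {a b : ℝ} (hab : a + b = 1) (s t : ℝ) :
    slicePt i (a * s + b * t) z = a • slicePt i s z + b • slicePt i t z := by
  rw [slicePt_eq i s z, slicePt_eq i t z, slicePt_eq i (a * s + b * t) z]
  have : slicePt i 0 z = a • slicePt i 0 z + b • slicePt i 0 z := by
    rw [← add_smul, hab, one_smul]
  conv_lhs => rw [this]
  rw [smul_add, smul_add, smul_smul, smul_smul, add_smul]
  abel

lemma slicePt_hasDerivAt {n : ℕ} (i : Fin (n + 1)) (z : Fin n → ℝ) (t : ℝ) :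
    HasDerivAt (fun t => slicePt i t z) (EuclideanSpace.single i (1:ℝ)) t := by
  have : (fun t => slicePt i t z) = fun t => slicePt i 0 z + t • EuclideanSpace.single i (1:ℝ) := by
    ext1 t
    exact slicePt_eq i t z
  rw [this]
  have h := ((hasDerivAt_id t).smul_const (EuclideanSpace.single i (1:ℝ))).const_add (slicePt i 0 z)
  simpa using h

lemma slice_convexOn {n : ℕ} (i : Fin (n + 1)) (z : Fin n → ℝ)
    {u : EuclideanSpace ℝ (Fin (n + 1)) → ℝ} (hu : ConvexOn ℝ univ u) :
    ConvexOn ℝ univ (fun t => u (slicePt i t z)) := by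
  refine ⟨convex_univ, ?_⟩
  intro s _ t _ a b ha hb hab
  simp only [smul_eq_mul]
  rw [slicePt_comb i z hab]
  have := hu.2 (mem_univ (slicePt i s z)) (mem_univ (slicePt i t z)) ha hb hab
  simpa only [smul_eq_mul] using this

lemma slice_lipschitz {n : ℕ} (i : Fin (n + 1)) (z : Fin n → ℝ)
    {u : EuclideanSpace ℝ (Fin (n + 1)) → ℝ} {M : ℝ≥0} (hu : LipschitzWith M u) :
    LipschitzWith M (fun t => u (slicePt i t z)) := by
  have h := hu.comp (slicePt_isometry i z).lipschitz
  rw [mul_one] at h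
  exact h

lemma slice_compact {n : ℕ} (i : Fin (n + 1)) (z : Fin n → ℝ)
    {K : Set (EuclideanSpace ℝ (Fin (n + 1)))} (hK : IsCompact K) :
    IsCompact {t | slicePt i t z ∈ K} :=
  (slicePt_isometry i z).isClosedEmbedding.isCompact_preimage hK

lemma slice_convex {n : ℕ} (i : Fin (n + 1)) (z : Fin n → ℝ)
    {K : Set (EuclideanSpace ℝ (Fin (n + 1)))} (hK : Convex ℝ K) :
    Convex ℝ {t | slicePt i t z ∈ K} := by
  intro s hs t ht a b ha hb hab
  simp only [mem_ofPred_eq, smul_eq_mul] at *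
  rw [slicePt_comb i z hab]
  exact hK hs ht ha hb hab

lemma gradient_coord {n : ℕ} (i : Fin (n + 1)) {u : EuclideanSpace ℝ (Fin (n + 1)) → ℝ}
    (x : EuclideanSpace ℝ (Fin (n + 1))) :
    (gradient u x) i = fderiv ℝ u x (EuclideanSpace.single i (1:ℝ)) := by
  have h : inner ℝ (gradient u x) (EuclideanSpace.single i (1:ℝ)) =
      fderiv ℝ u x (EuclideanSpace.single i (1:ℝ)) := by
    simp [gradient]
  rw [← h, EuclideanSpace.inner_single_right]
  simp

lemma slice_deriv {n : ℕ} (i : Fin (n + 1)) {u v : EuclideanSpace ℝ (Fin (n + 1)) → ℝ}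
    (z : Fin n → ℝ) (t : ℝ) (hu : DifferentiableAt ℝ u (slicePt i t z))
    (hv : DifferentiableAt ℝ v (slicePt i t z)) :
    deriv (fun s => u (slicePt i s z) - v (slicePt i s z)) t =
      (gradient u (slicePt i t z) - gradient v (slicePt i t z)) i := by
  have h1 := hu.hasFDerivAt.comp_hasDerivAt t (slicePt_hasDerivAt i z t)
  have h2 := hv.hasFDerivAt.comp_hasDerivAt t (slicePt_hasDerivAt i z t)
  have h3 := (h1.sub h2).deriv
  rw [PiLp.sub_apply, gradient_coord, gradient_coord]
  exact h3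

lemma measurable_gradient {n : ℕ} (u : EuclideanSpace ℝ (Fin (n + 1)) → ℝ) :
    Measurable (gradient u) := by
  unfold gradient
  exact ((InnerProductSpace.toDual ℝ _).symm.continuous.measurable).comp (measurable_fderiv ℝ u)


lemma coord_interp {n : ℕ} (i : Fin (n + 1)) {K : Set (EuclideanSpace ℝ (Fin (n + 1)))}
    (hK : IsCompact K) (hKc : Convex ℝ K) (M : ℝ≥0) :
    ∃ C : ℝ≥0, ∀ u v : EuclideanSpace ℝ (Fin (n + 1)) → ℝ, ConvexOn ℝ univ u →
      ConvexOn ℝ univ v → LipschitzWith M u → LipschitzWith M v →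
      ∫⁻ x in K, ‖(gradient u x - gradient v x) i‖ₑ ^ 2 ≤
        C * (∫⁻ x in K, ‖u x - v x‖ₑ ^ 2) ^ (1 / 3 : ℝ) := by
  obtain ⟨R, hR0, hR⟩ : ∃ R : ℝ, 0 ≤ R ∧ ∀ x ∈ K, ‖x‖ ≤ R := by
    obtain ⟨R, hR⟩ := hK.isBounded.exists_norm_le
    exact ⟨max R 0, le_max_right _ _, fun x hx => (hR x hx).trans (le_max_left _ _)⟩
  set P : Set (Fin n → ℝ) := Set.pi univ (fun _ => Icc (-R) R) with hP
  have hPm : MeasurableSet P := MeasurableSet.univ_pi (fun _ => measurableSet_Icc)
  have hPfin : volume P ≠ ∞ := by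
    rw [hP]
    exact (isCompact_univ_pi (fun _ => isCompact_Icc)).measure_lt_top.ne
  have hPempty : ∀ z ∉ P, {t : ℝ | slicePt i t z ∈ K} = ∅ := by
    intro z hz
    rw [Set.eq_empty_iff_forall_notMem]
    intro t ht
    apply hz
    intro j _
    have h1 := hR _ ht
    have h2 : ‖(slicePt i t z) (i.succAbove j)‖ ≤ ‖slicePt i t z‖ := PiLp.norm_apply_le _ _
    have h3 : (slicePt i t z) (i.succAbove j) = z j := by simp [slicePt]
    rw [h3, Real.norm_eq_abs] at h2
    exact abs_le.1 (h2.trans h1)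
  set c : ℝ≥0∞ := ((16384 * M ^ 4 : ℝ≥0) : ℝ≥0∞) ^ (1 / 3 : ℝ) with hc
  have hcfin : c ≠ ∞ := ENNReal.rpow_ne_top_of_nonneg (by norm_num) ENNReal.coe_ne_top
  have hvfin : (volume P) ^ (1 / (3/2) : ℝ) ≠ ∞ := ENNReal.rpow_ne_top_of_nonneg (by norm_num) hPfin
  refine ⟨(c * (volume P) ^ (1 / (3/2) : ℝ)).toNNReal, ?_⟩
  rw [ENNReal.coe_toNNReal (ENNReal.mul_ne_top hcfin hvfin)]
  intro u v hu hv huM hvM
  have hKm : MeasurableSet K := hK.measurableSet
  have huc : Continuous u := huM.continuous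
  have hvc : Continuous v := hvM.continuous
  have hgm : Measurable (fun x => ‖(gradient u x - gradient v x) i‖ₑ ^ 2) := by
    have h1 : Measurable (fun x => gradient u x - gradient v x) :=
      (measurable_gradient u).sub (measurable_gradient v)
    have h2 : Measurable (fun w : EuclideanSpace ℝ (Fin (n + 1)) => w i) := by
      have : Continuous (fun w : EuclideanSpace ℝ (Fin (n + 1)) => w i) := by fun_prop
      exact this.measurable
    exact (h2.comp h1).enorm.pow_const 2
  have hfm : Measurable (fun x => ‖u x - v x‖ₑ ^ 2) :=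
    ((huc.sub hvc).measurable.enorm).pow_const 2
  -- general slicing of an integral over `K`
  have hslice : ∀ G : EuclideanSpace ℝ (Fin (n + 1)) → ℝ≥0∞, Measurable G →
      ∫⁻ x in K, G x = ∫⁻ z, ∫⁻ t in {t | slicePt i t z ∈ K}, G (slicePt i t z) := by
    intro G hG
    rw [← lintegral_indicator hKm, slice_lintegral i (hG.indicator hKm)]
    congr 1
    ext z
    have hm : MeasurableSet {t | slicePt i t z ∈ K} := (slice_compact i z hK).measurableSet
    rw [← lintegral_indicator hm]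
    congr 1
  rw [hslice _ hgm, hslice _ hfm]
  have hdu : ∀ᵐ x : EuclideanSpace ℝ (Fin (n + 1)), DifferentiableAt ℝ u x := huM.ae_differentiableAt
  have hdv : ∀ᵐ x : EuclideanSpace ℝ (Fin (n + 1)), DifferentiableAt ℝ v x := hvM.ae_differentiableAt
  have hae := slice_ae i (hdu.and hdv)
  set Fz : (Fin n → ℝ) → ℝ≥0∞ := fun z =>
    ∫⁻ t in {t | slicePt i t z ∈ K}, ‖u (slicePt i t z) - v (slicePt i t z)‖ₑ ^ 2 with hFz
  have hFzm : Measurable Fz := by
    have h1 : Measurable (fun q : (Fin n → ℝ) × ℝ =>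
        K.indicator (fun x => ‖u x - v x‖ₑ ^ 2) ((splitEquiv i).symm q.swap)) :=
      (hfm.indicator hKm).comp ((splitEquiv i).symm.measurable.comp measurable_swap)
    have h2 := h1.lintegral_prod_right' (ν := (volume : Measure ℝ))
    convert h2 using 1
    ext z
    have hm : MeasurableSet {t | slicePt i t z ∈ K} := (slice_compact i z hK).measurableSet
    rw [hFz]
    simp only
    rw [← lintegral_indicator hm]
    rfl
  have hstep : ∫⁻ z, ∫⁻ t in {t | slicePt i t z ∈ K},
      ‖(gradient u (slicePt i t z) - gradient v (slicePt i t z)) i‖ₑ ^ 2 ≤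
      ∫⁻ z, ((fun z => c * Fz z ^ (1/3:ℝ)) * (P.indicator (1 : (Fin n → ℝ) → ℝ≥0∞))) z := by
    apply lintegral_mono_ae
    filter_upwards [hae] with z hz
    by_cases hzP : z ∈ P
    · have h1 : ∫⁻ t in {t | slicePt i t z ∈ K},
          ‖(gradient u (slicePt i t z) - gradient v (slicePt i t z)) i‖ₑ ^ 2 =
          ∫⁻ t in {t | slicePt i t z ∈ K},
            ‖deriv (fun s => u (slicePt i s z) - v (slicePt i s z)) t‖ₑ ^ 2 := by
        apply lintegral_congr_ae
        filter_upwards [ae_restrict_of_ae hz] with t ht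
        rw [slice_deriv i z t ht.1 ht.2]
      rw [h1]
      have h2 := oneD_lintegral (slice_convexOn i z hu) (slice_convexOn i z hv)
        (slice_lipschitz i z huM) (slice_lipschitz i z hvM) (slice_compact i z hK)
        (slice_convex i z hKc)
      have h3 : ((fun z => c * Fz z ^ (1/3:ℝ)) * (P.indicator (1 : (Fin n → ℝ) → ℝ≥0∞))) z
          = c * Fz z ^ (1/3:ℝ) := by
        rw [Pi.mul_apply, Set.indicator_of_mem hzP]
        simp
      rw [h3]
      exact h2
    · rw [hPempty z hzP]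
      simp
  refine hstep.trans ?_
  have hconj : (3:ℝ).HolderConjugate (3/2) := by
    rw [Real.holderConjugate_iff]
    norm_num
  have hH := ENNReal.lintegral_mul_le_Lp_mul_Lq (volume : Measure (Fin n → ℝ)) hconj
    (f := fun z => c * Fz z ^ (1/3:ℝ)) (g := P.indicator (1 : (Fin n → ℝ) → ℝ≥0∞))
    ((measurable_const.mul (hFzm.pow_const _)).aemeasurable)
    ((measurable_one.indicator hPm).aemeasurable)
  refine hH.trans ?_
  have e1 : ∫⁻ z, (c * Fz z ^ (1/3:ℝ)) ^ (3:ℝ) = c ^ (3:ℝ) * ∫⁻ z, Fz z := by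
    rw [← lintegral_const_mul _ hFzm]
    congr 1
    ext z
    rw [ENNReal.mul_rpow_of_nonneg _ _ (by norm_num), ← ENNReal.rpow_mul (Fz z)]
    norm_num
  have e2 : ∫⁻ z, (P.indicator 1 z : ℝ≥0∞) ^ (3/2:ℝ) = volume P := by
    have : (fun z => (P.indicator 1 z : ℝ≥0∞) ^ (3/2:ℝ)) = P.indicator 1 := by
      ext z
      by_cases hz : z ∈ P <;> simp [hz]
    rw [this, lintegral_indicator_one hPm]
  rw [e1, e2, ENNReal.mul_rpow_of_nonneg _ _ (by norm_num), ← ENNReal.rpow_mul c]
  have e3 : c ^ ((3:ℝ) * (1/3)) = c := by norm_num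
  rw [e3, mul_right_comm]

/-- **Gradient interpolation** for convex Lipschitz functions. -/
theorem grad_interp {d : ℕ} (K : Set (EuclideanSpace ℝ (Fin d))) (hK : IsCompact K)
    (hKc : Convex ℝ K) (M : ℝ≥0) :
    ∃ C : ℝ≥0, ∀ u v : EuclideanSpace ℝ (Fin d) → ℝ, ConvexOn ℝ Set.univ u →
      ConvexOn ℝ Set.univ v → LipschitzWith M u → LipschitzWith M v →
      ∫⁻ x in K, ‖gradient u x - gradient v x‖ₑ ^ 2 ≤
        C * (∫⁻ x in K, ‖u x - v x‖ₑ ^ 2) ^ (1 / 3 : ℝ) := by
  rcases d with _ | n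
  · refine ⟨0, fun u v _ _ _ _ => ?_⟩
    have : ∀ x : EuclideanSpace ℝ (Fin 0), gradient u x - gradient v x = 0 := fun x =>
      Subsingleton.elim _ _
    simp [this]
  · choose C hC using fun i : Fin (n + 1) => coord_interp i hK hKc M
    refine ⟨∑ i, C i, fun u v hu hv huM hvM => ?_⟩
    have h1 : ∀ x, ‖gradient u x - gradient v x‖ₑ ^ 2 =
        ∑ i, ‖(gradient u x - gradient v x) i‖ₑ ^ 2 := by
      intro x
      have h2 := EuclideanSpace.norm_sq_eq (gradient u x - gradient v x)
      have h3 : ∀ w : EuclideanSpace ℝ (Fin (n+1)), ‖w‖ₑ ^ 2 = ENNReal.ofReal (‖w‖ ^ 2) := by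
        intro w
        rw [ENNReal.ofReal_pow (norm_nonneg _), ofReal_norm]
      have h4 : ∀ w : ℝ, ‖w‖ₑ ^ 2 = ENNReal.ofReal (‖w‖ ^ 2) := by
        intro w
        rw [ENNReal.ofReal_pow (norm_nonneg _), ofReal_norm]
      rw [h3, h2, ENNReal.ofReal_sum_of_nonneg (fun i _ => by positivity)]
      simp only [h4]
    simp only [h1]
    have hgm : ∀ i, Measurable (fun x => ‖(gradient u x - gradient v x) i‖ₑ ^ 2) := by
      intro i
      have h1 : Measurable (fun x => gradient u x - gradient v x) :=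
        (measurable_gradient u).sub (measurable_gradient v)
      have h2 : Measurable (fun w : EuclideanSpace ℝ (Fin (n + 1)) => w i) := by
        have : Continuous (fun w : EuclideanSpace ℝ (Fin (n + 1)) => w i) := by fun_prop
        exact this.measurable
      exact (h2.comp h1).enorm.pow_const 2
    rw [lintegral_finsetSum _ (fun i _ => hgm i)]
    push_cast
    rw [Finset.sum_mul]
    exact Finset.sum_le_sum fun i _ => hC i u v hu hv huM hvM

end Crest.Agent.LibGradInterp
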