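import Mathlib
import Crest.Prelude.Def_TreePotentials
import Crest.Agent.LibAUC

set_option autoImplicit false
open Filter Topology

namespace Crest.Agent.LibTree

open Crest.Agent.LibAUC Crest.AnalysisR Crest.AnalysisR.TreePotential

/-! ### Clipping construction -/

/-- clip to `[-c, c]` -/
noncomputable def clip (c x : ℝ) : ℝ := max (-c) (min c x)

theorem clip_abs_le {c : ℝ} (hc : 0 ≤ c) (x : ℝ) : |clip c x| ≤ c := by
  rw [abs_le, clip]
  exact ⟨le_max_left _ _, max_le (by linarith) (min_le_left _ _)⟩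

theorem clip_eq {c x : ℝ} (h : |x| ≤ c) : clip c x = x := by
  rw [abs_le] at h
  rw [clip, min_eq_right h.2, max_eq_right h.1]

theorem clip_mono (c : ℝ) {x y : ℝ} (h : x ≤ y) : clip c x ≤ clip c y :=
  max_le_max le_rfl (min_le_min le_rfl h)

theorem clip_sub_le (c : ℝ) {x y : ℝ} (h : x ≤ y) : clip c y - clip c x ≤ y - x := by
  unfold clip
  rcases le_total c x with h1 | h1 <;> rcases le_total c y with h2 | h2 <;>
  rcases le_total (-c) x with h3 | h3 <;> rcases le_total (-c) y with h4 | h4 <;>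
  rcases le_total (-c) c with h5 | h5 <;>
  simp only [min_eq_left, min_eq_right, max_eq_left, max_eq_right, *] <;> linarith

/-- `clip (u + w) - clip u` and `w - (clip (u + w) - clip u)` are both at most `|w|` in size. -/
theorem clip_incr (c u w : ℝ) : |clip c (u + w) - clip c u| ≤ |w| ∧
    |clip c (u + w) - clip c u - w| ≤ |w| := by
  rcases le_total 0 w with h | h
  · have h1 := clip_mono c (show u ≤ u + w by linarith)
    have h2 := clip_sub_le c (show u ≤ u + w by linarith)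
    rw [abs_of_nonneg h]
    constructor <;> rw [abs_le] <;> constructor <;> linarith
  · have h1 := clip_mono c (show u + w ≤ u by linarith)
    have h2 := clip_sub_le c (show u + w ≤ u by linarith)
    rw [abs_of_nonpos h]
    constructor <;> rw [abs_le] <;> constructor <;> linarith

/-- `clip (p + k) - k ∈ [-c, c]` when `|p| ≤ c` and `|k| ≤ 2 c`. -/
theorem clip_sub_abs_le {c p k : ℝ} (hp : |p| ≤ c) (hk : |k| ≤ 2 * c) :
    |clip c (p + k) - k| ≤ c := by
  rw [abs_le] at *
  unfold clip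
  rcases le_total c (p + k) with h1 | h1
  · rw [min_eq_left h1, max_eq_right (by linarith)]
    constructor <;> linarith
  · rw [min_eq_right h1]
    rcases le_total (-c) (p + k) with h2 | h2
    · rw [max_eq_right h2]
      constructor <;> linarith
    · rw [max_eq_left h2]
      constructor <;> linarith

section construction

variable (F : Finset (List ℕ)) (α γ : ℝ) (f g : List ℕ → ℝ) (c : List ℕ → ℝ)

open Classical in
/-- base potential: `α` times the potential of `f` at the last ancestor in `F`. -/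
noncomputable def basep : List ℕ → ℝ
  | [] => α * pathPotential f []
  | a :: v => if a :: v ∈ F then α * pathPotential f (a :: v) else basep v

open Classical in
/-- last reference potential of `g`. -/
noncomputable def refp : List ℕ → ℝ
  | [] => γ * pathPotential g []
  | a :: v => if a :: v ∈ F then γ * pathPotential g (a :: v) else refp v

/-- increments outside `F` -/
noncomputable def kinc (s : List ℕ) : ℝ := γ * pathPotential g s - refp F γ g s

/-- potential of the plus test. -/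
noncomputable def qplus (s : List ℕ) : ℝ := clip (c s) (basep F α f s + kinc F γ g s)

/-- the plus test. -/
noncomputable def hplus : List ℕ → ℝ
  | [] => qplus F α γ f g c []
  | a :: v => qplus F α γ f g c (a :: v) - qplus F α γ f g c v

/-- the minus test. -/
noncomputable def hminus : List ℕ → ℝ
  | [] => qplus F α γ f g c [] - kinc F γ g []
  | a :: v => (qplus F α γ f g c (a :: v) - kinc F γ g (a :: v)) -
      (qplus F α γ f g c v - kinc F γ g v)

theorem pathPotential_hplus : ∀ s, pathPotential (hplus F α γ f g c) s = qplus F α γ f g c s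
  | [] => rfl
  | a :: v => by
    rw [pathPotential, pathPotential_hplus v, hplus]; ring

theorem pathPotential_hminus : ∀ s, pathPotential (hminus F α γ f g c) s =
    qplus F α γ f g c s - kinc F γ g s
  | [] => rfl
  | a :: v => by
    rw [pathPotential, pathPotential_hminus v, hminus]; ring

/-- Main construction lemma. -/
theorem construction (hF0 : [] ∈ F) (hF : ∀ a v, a :: v ∈ F → v ∈ F)
    (hc0 : ∀ s, 0 ≤ c s)
    (hf : ∀ s, |α * pathPotential f s| ≤ c s) (hg : ∀ s, |γ * pathPotential g s| ≤ c s)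
    (hc : ∀ a v, c (a :: v) = c v ∨ (v = [] ∧ f [] = 0 ∧ g [] = 0)) :
    (∀ s ∈ F, hplus F α γ f g c s = α * f s ∧ hminus F α γ f g c s = α * f s) ∧
    (∀ s, s ∉ F → hplus F α γ f g c s - hminus F α γ f g c s = γ * g s ∧
      |hplus F α γ f g c s| ≤ |γ * g s| ∧ |hminus F α γ f g c s| ≤ |γ * g s|) ∧
    (∀ s, |pathPotential (hplus F α γ f g c) s| ≤ c s ∧
      |pathPotential (hminus F α γ f g c) s| ≤ c s) := by
  have hbF : ∀ s ∈ F, basep F α f s = α * pathPotential f s := by
    intro s hs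
    cases s with
    | nil => rfl
    | cons a v => rw [basep, if_pos hs]
  have hrF : ∀ s ∈ F, refp F γ g s = γ * pathPotential g s := by
    intro s hs
    cases s with
    | nil => rfl
    | cons a v => rw [refp, if_pos hs]
  have hkF : ∀ s ∈ F, kinc F γ g s = 0 := by
    intro s hs
    rw [kinc, hrF s hs, sub_self]
  have hqF : ∀ s ∈ F, qplus F α γ f g c s = α * pathPotential f s := by
    intro s hs
    rw [qplus, hbF s hs, hkF s hs, add_zero, clip_eq (hf s)]
  have hb : ∀ s, |basep F α f s| ≤ c s := by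
    intro s
    induction s with
    | nil => exact hf []
    | cons a v ih =>
      rw [basep]
      split_ifs with h
      · exact hf _
      · rcases hc a v with h1 | ⟨h1, h2, h3⟩
        · rw [h1]; exact ih
        · subst h1
          simp only [basep, pathPotential, h2, mul_zero, abs_zero]
          exact hc0 _
  have hr : ∀ s, |refp F γ g s| ≤ c s := by
    intro s
    induction s with
    | nil => exact hg []
    | cons a v ih =>
      rw [refp]
      split_ifs with h
      · exact hg _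
      · rcases hc a v with h1 | ⟨h1, h2, h3⟩
        · rw [h1]; exact ih
        · subst h1
          simp only [refp, pathPotential, h3, mul_zero, abs_zero]
          exact hc0 _
  have hk : ∀ s, |kinc F γ g s| ≤ 2 * c s := by
    intro s
    rw [kinc]
    have h1 := hg s
    have h2 := hr s
    rw [abs_le] at *
    constructor <;> linarith
  refine ⟨?_, ?_, ?_⟩
  · intro s hs
    cases s with
    | nil =>
      rw [hplus, hminus, hqF _ hs, hkF _ hs]
      simp [pathPotential]
    | cons a v =>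
      have hv := hF a v hs
      rw [hplus, hminus, hqF _ hs, hkF _ hs, hqF _ hv, hkF _ hv, pathPotential]
      constructor <;> ring
  · intro s hs
    cases s with
    | nil => exact absurd hF0 hs
    | cons a v =>
      have e1 : basep F α f (a :: v) = basep F α f v := by rw [basep, if_neg hs]
      have e2 : kinc F γ g (a :: v) = kinc F γ g v + γ * g (a :: v) := by
        rw [kinc, kinc, refp, if_neg hs, pathPotential]; ring
      have e3 : qplus F α γ f g c v = clip (c (a :: v)) (basep F α f v + kinc F γ g v) := by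
        rcases hc a v with h1 | ⟨h1, h2, h3⟩
        · rw [h1]; rfl
        · subst h1
          rw [hqF [] hF0, hkF [] hF0, hbF [] hF0]
          simp only [pathPotential, h2, mul_zero, add_zero]
          rw [clip_eq]
          rw [abs_zero]; exact hc0 _
      have e4 : qplus F α γ f g c (a :: v) =
          clip (c (a :: v)) ((basep F α f v + kinc F γ g v) + γ * g (a :: v)) := by
        rw [qplus, e1, e2, add_assoc]
      have h1 := clip_incr (c (a :: v)) (basep F α f v + kinc F γ g v) (γ * g (a :: v))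
      rw [← e3, ← e4] at h1
      refine ⟨?_, ?_, ?_⟩
      · rw [hplus, hminus, e2]; ring
      · rw [hplus]; exact h1.1
      · rw [hminus, e2]
        have : qplus F α γ f g c (a :: v) - (kinc F γ g v + γ * g (a :: v)) -
            (qplus F α γ f g c v - kinc F γ g v) =
            qplus F α γ f g c (a :: v) - qplus F α γ f g c v - γ * g (a :: v) := by ring
        rw [this]; exact h1.2
  · intro s
    rw [pathPotential_hplus, pathPotential_hminus]
    exact ⟨clip_abs_le (hc0 s) _, clip_sub_abs_le (hb s) (hk s)⟩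

/-- square-sum control for the tests built by `construction`. -/
theorem sum_sq_le {h : List ℕ → ℝ} (A : Finset (List ℕ))
    (h1 : ∀ s ∈ F, h s = α * f s) (h2 : ∀ s, s ∉ F → |h s| ≤ |γ * g s|)
    {R₁ R₂ : ℝ}
    (hA1 : ∑ u ∈ A.filter (· ∈ F), f u ^ 2 ≤ R₁) (hA2 : ∑ u ∈ A.filter (· ∉ F), g u ^ 2 ≤ R₂) :
    ∑ u ∈ A, h u ^ 2 ≤ α ^ 2 * R₁ + γ ^ 2 * R₂ := by
  rw [← Finset.sum_filter_add_sum_filter_not A (· ∈ F)]
  apply add_le_add
  · calc ∑ u ∈ A.filter (· ∈ F), h u ^ 2 = ∑ u ∈ A.filter (· ∈ F), α ^ 2 * f u ^ 2 := by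
          apply Finset.sum_congr rfl
          intro u hu
          rw [h1 u (Finset.mem_filter.mp hu).2, mul_pow]
      _ = α ^ 2 * ∑ u ∈ A.filter (· ∈ F), f u ^ 2 := by rw [Finset.mul_sum]
      _ ≤ _ := mul_le_mul_of_nonneg_left hA1 (sq_nonneg _)
  · calc ∑ u ∈ A.filter (· ∉ F), h u ^ 2 ≤ ∑ u ∈ A.filter (· ∉ F), γ ^ 2 * g u ^ 2 := by
          apply Finset.sum_le_sum
          intro u hu
          rw [← mul_pow, ← sq_abs (h u), ← sq_abs (γ * g u)]
          exact pow_le_pow_left₀ (abs_nonneg _) (h2 u (Finset.mem_filter.mp hu).2) 2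
      _ = γ ^ 2 * ∑ u ∈ A.filter (· ∉ F), g u ^ 2 := by rw [Finset.mul_sum]
      _ ≤ _ := mul_le_mul_of_nonneg_left hA2 (sq_nonneg _)

end construction

/-! ### The abstract test space -/

/-- `ℓ^∞` of the test set -/
abbrev LInf (T : Type) := lp (fun _ : T => ℝ) ⊤

/-- Abstract test system. -/
structure TestSystem (T : Type) (cf : T → List ℕ → ℝ) (I : Set (List ℕ)) : Prop where
  ne : Nonempty T
  pot : ∀ t s, |pathPotential (cf t) s| ≤ 1
  sib : ∀ t r (A : Finset ℕ), ∑ n ∈ A, cf t (n :: r) ^ 2 ≤ 1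
  ind : ∀ s ∈ I, ∃ t, ∀ u, cf t u = if u = s then 1 else 0
  van : ∀ s, s ∉ I → ∀ t, cf t s = 0
  comb : ∀ (F : Finset (List ℕ)), [] ∈ F → (∀ a v, a :: v ∈ F → v ∈ F) → ∀ (t₁ t₂ : T) (α γ : ℝ),
    α ^ 2 + γ ^ 2 ≤ 1 → ∃ tp tm : T, (∀ s ∈ F, cf tp s = α * cf t₁ s ∧ cf tm s = α * cf t₁ s) ∧
      ∀ s, s ∉ F → cf tp s - cf tm s = γ * cf t₂ s

/-- the closed span of the coordinate vectors -/
noncomputable def space {T : Type} (e : List ℕ → LInf T) : Submodule ℝ (LInf T) :=
  (Submodule.span ℝ (Set.range e)).topologicalClosure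

section abstract

variable {T : Type} {cf : T → List ℕ → ℝ} {I : Set (List ℕ)} {e : List ℕ → LInf T}

/-- finite linear combinations of evaluations -/
noncomputable def evalComb {ι : Type} (J : Finset ι) (w : ι → ℝ) (t : ι → T) : LInf T →L[ℝ] ℝ :=
  ∑ i ∈ J, w i • lp.evalCLM ℝ (fun _ : T => ℝ) ⊤ (t i)

theorem evalComb_apply {ι : Type} (J : Finset ι) (w : ι → ℝ) (t : ι → T) (y : LInf T) :
    evalComb J w t y = ∑ i ∈ J, w i * y (t i) := by
  simp only [evalComb, sum_apply, smul_apply, smul_eq_mul]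
  rfl

theorem space_induction (L : LInf T →L[ℝ] ℝ) (h : ∀ s, L (e s) = 0)
    {y : LInf T} (hy : y ∈ space e) : L y = 0 := by
  have h1 : space e ≤ LinearMap.ker (L : LInf T →ₗ[ℝ] ℝ) := by
    apply Submodule.topologicalClosure_minimal
    · rw [Submodule.span_le]
      rintro _ ⟨s, rfl⟩
      exact h s
    · exact L.isClosed_ker
  exact h1 hy

theorem eval_linear {ι : Type} (he : ∀ s t, e s t = cf t s) (J : Finset ι) (w : ι → ℝ) (t : ι → T)
    (h : ∀ s, ∑ i ∈ J, w i * cf (t i) s = 0) {y : LInf T} (hy : y ∈ space e) :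
    ∑ i ∈ J, w i * y (t i) = 0 := by
  rw [← evalComb_apply]
  apply space_induction _ _ hy
  intro s
  rw [evalComb_apply]
  simpa only [he] using h s

theorem apply_le_norm (x : LInf T) (t : T) : |x t| ≤ ‖x‖ :=
  lp.norm_apply_le_norm ENNReal.top_ne_zero x t

/-- suffix closure of a finite set of vertices -/
theorem exists_suffixClosed (A : Finset (List ℕ)) :
    ∃ F : Finset (List ℕ), A ⊆ F ∧ [] ∈ F ∧ ∀ a v, a :: v ∈ F → v ∈ F := by
  refine ⟨insert [] (A.biUnion fun s => s.tails.toFinset), ?_, ?_, ?_⟩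
  · intro s hs
    rw [Finset.mem_insert, Finset.mem_biUnion]
    right
    exact ⟨s, hs, by simp⟩
  · exact Finset.mem_insert_self _ _
  · intro a v h
    rw [Finset.mem_insert, Finset.mem_biUnion] at *
    rcases h with h | ⟨s, hs, h⟩
    · simp at h
    · right
      refine ⟨s, hs, ?_⟩
      rw [List.mem_toFinset, List.mem_tails] at *
      exact (List.suffix_cons a v).trans h

/-- Core inequality. -/
theorem core_ineq (hT : TestSystem T cf I) (he : ∀ s t, e s t = cf t s)
    (F : Finset (List ℕ)) (hF0 : [] ∈ F) (hF : ∀ a v, a :: v ∈ F → v ∈ F)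
    (ind : List ℕ → T) (hind : ∀ s ∈ I, ∀ u, cf (ind s) u = if u = s then 1 else 0)
    (w : List ℕ → ℝ) (y : LInf T) (hy : y ∈ space e) (hy0 : ∀ s ∈ F, s ∈ I → y (ind s) = 0) :
    2 * √(‖∑ s ∈ F, w s • e s‖ ^ 2 + ‖y‖ ^ 2 / 4) ≤
      ‖∑ s ∈ F, w s • e s + y‖ + ‖∑ s ∈ F, w s • e s - y‖ := by
  classical
  have : Nonempty T := hT.ne
  set x := ∑ s ∈ F, w s • e s with hx
  have hxt : ∀ t, x t = ∑ s ∈ F, w s * cf t s := by
    intro t
    rw [hx]
    simp only [lp.coeFn_sum, Finset.sum_apply, lp.coeFn_smul, Pi.smul_apply, smul_eq_mul, he]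
  -- pointwise estimate
  have h1 : ∀ (α γ : ℝ), α ^ 2 + γ ^ 2 ≤ 1 → ∀ t₁ t₂ : T,
      2 * α * x t₁ + γ * y t₂ ≤ ‖x + y‖ + ‖x - y‖ := by
    intro α γ hαγ t₁ t₂
    obtain ⟨tp, tm, h2, h3⟩ := hT.comb F hF0 hF t₁ t₂ α γ hαγ
    have e1 : x tp = α * x t₁ := by
      rw [hxt, hxt, Finset.mul_sum]
      apply Finset.sum_congr rfl
      intro s hs
      rw [(h2 s hs).1]; ring
    have e2 : x tm = α * x t₁ := by
      rw [hxt, hxt, Finset.mul_sum]
      apply Finset.sum_congr rfl
      intro s hs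
      rw [(h2 s hs).2]; ring
    have e3 : y tp - y tm = γ * y t₂ := by
      -- use an index type Option (Fin 2) ⊕ List; encode as L
      let L : LInf T →L[ℝ] ℝ := lp.evalCLM ℝ (fun _ : T => ℝ) ⊤ tp - lp.evalCLM ℝ (fun _ : T => ℝ) ⊤ tm
        - γ • lp.evalCLM ℝ (fun _ : T => ℝ) ⊤ t₂ +
        ∑ s ∈ F.filter (· ∈ I), (γ * cf t₂ s) • lp.evalCLM ℝ (fun _ : T => ℝ) ⊤ (ind s)
      have hL : ∀ z : LInf T, L z = z tp - z tm - γ * z t₂ +
          ∑ s ∈ F.filter (· ∈ I), (γ * cf t₂ s) * z (ind s) := by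
        intro z
        simp only [L, add_apply, sub_apply, sum_apply, smul_apply, smul_eq_mul]
        rfl
      have h4 : L y = 0 := by
        apply space_induction L _ hy
        intro u
        rw [hL]
        simp only [he]
        have h5 : ∑ s ∈ F.filter (· ∈ I), (γ * cf t₂ s) * cf (ind s) u =
            if u ∈ F then γ * cf t₂ u else 0 := by
          have : ∀ s ∈ F.filter (· ∈ I), (γ * cf t₂ s) * cf (ind s) u =
              if u = s then γ * cf t₂ u else 0 := by
            intro s hs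
            rw [hind s (Finset.mem_filter.mp hs).2 u]
            split_ifs with h
            · rw [h]; ring
            · ring
          rw [Finset.sum_congr rfl this, Finset.sum_ite_eq]
          by_cases hu : u ∈ F
          · by_cases hu2 : u ∈ I
            · rw [if_pos (Finset.mem_filter.mpr ⟨hu, hu2⟩), if_pos hu]
            · rw [if_neg (fun h => hu2 (Finset.mem_filter.mp h).2), if_pos hu, hT.van u hu2, mul_zero]
          · rw [if_neg (fun h => hu (Finset.mem_filter.mp h).1), if_neg hu]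
        rw [h5]
        by_cases hu : u ∈ F
        · rw [if_pos hu, (h2 u hu).1, (h2 u hu).2]; ring
        · rw [if_neg hu, h3 u hu]; ring
      rw [hL] at h4
      have h6 : ∑ s ∈ F.filter (· ∈ I), (γ * cf t₂ s) * y (ind s) = 0 := by
        apply Finset.sum_eq_zero
        intro s hs
        rw [hy0 s (Finset.mem_filter.mp hs).1 (Finset.mem_filter.mp hs).2, mul_zero]
      rw [h6] at h4
      linarith
    have h7 : (x + y) tp ≤ ‖x + y‖ := (le_abs_self _).trans (apply_le_norm _ _)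
    have h8 : (x - y) tm ≤ ‖x - y‖ := (le_abs_self _).trans (apply_le_norm _ _)
    have h9 : (x + y) tp = x tp + y tp := rfl
    have h10 : (x - y) tm = x tm - y tm := rfl
    rw [h9, e1] at h7
    rw [h10, e2] at h8
    linarith
  -- pass to absolute values
  have h2 : ∀ (α γ : ℝ), 0 ≤ α → 0 ≤ γ → α ^ 2 + γ ^ 2 ≤ 1 → ∀ t₁ t₂ : T,
      2 * α * |x t₁| + γ * |y t₂| ≤ ‖x + y‖ + ‖x - y‖ := by
    intro α γ hα hγ hαγ t₁ t₂
    rcases abs_choice (x t₁) with h | h <;> rcases abs_choice (y t₂) with h' | h' <;> rw [h, h']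
    · exact h1 α γ hαγ t₁ t₂
    · have := h1 α (-γ) (by simpa using hαγ) t₁ t₂
      linarith
    · have := h1 (-α) γ (by simpa using hαγ) t₁ t₂
      linarith
    · have := h1 (-α) (-γ) (by simpa using hαγ) t₁ t₂
      linarith
  have h3 : ∀ (α γ : ℝ), 0 ≤ α → 0 ≤ γ → α ^ 2 + γ ^ 2 ≤ 1 →
      2 * α * ‖x‖ + γ * ‖y‖ ≤ ‖x + y‖ + ‖x - y‖ := by
    intro α γ hα hγ hαγ
    have h4 : ∀ t₁, 2 * α * |x t₁| + γ * ‖y‖ ≤ ‖x + y‖ + ‖x - y‖ := by
      intro t₁
      have h5 : ‖γ • y‖ ≤ ‖x + y‖ + ‖x - y‖ - 2 * α * |x t₁| := by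
        apply lp.norm_le_of_forall_le'
        intro t₂
        have := h2 α γ hα hγ hαγ t₁ t₂
        rw [lp.coeFn_smul, Pi.smul_apply, norm_smul, Real.norm_eq_abs, Real.norm_eq_abs,
          abs_of_nonneg hγ]
        linarith
      rw [norm_smul, Real.norm_eq_abs, abs_of_nonneg hγ] at h5
      linarith
    have h5 : ‖(2 * α) • x‖ ≤ ‖x + y‖ + ‖x - y‖ - γ * ‖y‖ := by
      apply lp.norm_le_of_forall_le'
      intro t₁
      have := h4 t₁
      rw [lp.coeFn_smul, Pi.smul_apply, norm_smul, Real.norm_eq_abs, Real.norm_eq_abs,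
        abs_of_nonneg (by positivity : (0:ℝ) ≤ 2 * α)]
      linarith
    rw [norm_smul, Real.norm_eq_abs, abs_of_nonneg (by positivity : (0:ℝ) ≤ 2 * α)] at h5
    linarith
  set R := √(‖x‖ ^ 2 + ‖y‖ ^ 2 / 4) with hR
  have hR0 : 0 ≤ R := Real.sqrt_nonneg _
  have hRsq : R ^ 2 = ‖x‖ ^ 2 + ‖y‖ ^ 2 / 4 := Real.sq_sqrt (by positivity)
  rcases hR0.eq_or_lt with h | h
  · rw [← h, mul_zero]; positivity
  · have h4 := h3 (‖x‖ / R) (‖y‖ / (2 * R)) (by positivity) (by positivity) (by
      rw [div_pow, div_pow, mul_pow, hRsq]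
      have h5 : 0 < ‖x‖ ^ 2 + ‖y‖ ^ 2 / 4 := by rw [← hRsq]; positivity
      rw [div_add_div _ _ h5.ne' (by positivity), div_le_one (by positivity)]
      nlinarith)
    have h5 : 2 * (‖x‖ / R) * ‖x‖ + ‖y‖ / (2 * R) * ‖y‖ = 2 * R := by
      field_simp
      nlinarith
    rw [h5] at h4
    exact h4

/-- quadratic midpoint property -/
def Q2 (V : Type) [NormedAddCommGroup V] [NormedSpace ℝ V] : Prop :=
  ∀ x : V, ∀ ε : ℝ, 0 < ε → ∃ S : Submodule ℝ V, IsClosed (S : Set V) ∧
    FiniteDimensional ℝ (V ⧸ S) ∧ ∀ y ∈ S, √(‖x‖ ^ 2 + ‖y‖ ^ 2 / 4) - ε ≤ (‖x + y‖ + ‖x - y‖) / 2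

theorem ker_props {V : Type} [NormedAddCommGroup V] [NormedSpace ℝ V] {ι : Type} [Finite ι]
    (L : V →L[ℝ] (ι → ℝ)) : IsClosed (LinearMap.ker (L : V →ₗ[ℝ] (ι → ℝ)) : Set V) ∧
    FiniteDimensional ℝ (V ⧸ LinearMap.ker (L : V →ₗ[ℝ] (ι → ℝ))) := by
  have := Fintype.ofFinite ι
  exact ⟨L.isClosed_ker, (LinearMap.quotKerEquivRange (L : V →ₗ[ℝ] (ι → ℝ))).symm.finiteDimensional⟩

theorem sqrt_lip {a b y : ℝ} (hb : 0 ≤ b) (hab : b ≤ a) (hy : 0 ≤ y) :
    √(a ^ 2 + y) - √(b ^ 2 + y) ≤ a - b := by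
  have h1 : b ≤ √(b ^ 2 + y) := Real.le_sqrt_of_sq_le (by linarith)
  have h2 : √(b ^ 2 + y) ^ 2 = b ^ 2 + y := Real.sq_sqrt (by positivity)
  have h3 : √(a ^ 2 + y) ≤ √(b ^ 2 + y) + (a - b) := by
    rw [Real.sqrt_le_left (by linarith)]
    nlinarith
  linarith

theorem q2_space (hT : TestSystem T cf I) (he : ∀ s t, e s t = cf t s) : Q2 (space e) := by
  classical
  intro x ε hε
  -- approximate
  have hx : (x : LInf T) ∈ closure (Submodule.span ℝ (Set.range e) : Set (LInf T)) := x.2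
  obtain ⟨x₀, hx₀, hd⟩ := Metric.mem_closure_iff.mp hx (ε / 2) (half_pos hε)
  obtain ⟨l, hl⟩ := (Finsupp.mem_span_range_iff_exists_finsupp).mp hx₀
  obtain ⟨F, hAF, hF0, hF⟩ := exists_suffixClosed l.support
  have hx₀' : x₀ = ∑ s ∈ F, l s • e s := by
    rw [← hl, Finsupp.sum]
    apply Finset.sum_subset hAF
    intro s _ hs
    rw [Finsupp.notMem_support_iff.mp hs, zero_smul]
  have hchoose : ∀ s : List ℕ, ∃ t : T, s ∈ I → ∀ u, cf t u = if u = s then 1 else 0 := by
    intro s
    by_cases hs : s ∈ I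
    · obtain ⟨t, ht⟩ := hT.ind s hs
      exact ⟨t, fun _ => ht⟩
    · obtain ⟨t⟩ := hT.ne
      exact ⟨t, fun h => absurd h hs⟩
  choose ind hind using hchoose
  let L : space e →L[ℝ] (F → ℝ) := ContinuousLinearMap.pi fun s =>
    (lp.evalCLM ℝ (fun _ : T => ℝ) ⊤ (ind s)).comp (space e).subtypeL
  refine ⟨LinearMap.ker (L : space e →ₗ[ℝ] (F → ℝ)), (ker_props L).1, (ker_props L).2, ?_⟩
  intro y hy
  have hy0 : ∀ s ∈ F, s ∈ I → (y : LInf T) (ind s) = 0 := by
    intro s hs _
    have : L y = 0 := hy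
    exact congrFun this ⟨s, hs⟩
  have h1 := core_ineq hT he F hF0 hF ind hind (fun s => l s) y y.2 hy0
  rw [← hx₀'] at h1
  have h2 : ‖(x : LInf T) - x₀‖ < ε / 2 := by rwa [← dist_eq_norm]
  have h3 : ‖x₀ + (y : LInf T)‖ ≤ ‖(x : LInf T) + y‖ + ‖(x : LInf T) - x₀‖ := by
    have : x₀ + (y : LInf T) = ((x : LInf T) + y) - ((x : LInf T) - x₀) := by abel
    rw [this]; exact norm_sub_le _ _
  have h4 : ‖x₀ - (y : LInf T)‖ ≤ ‖(x : LInf T) - y‖ + ‖(x : LInf T) - x₀‖ := by
    have : x₀ - (y : LInf T) = ((x : LInf T) - y) - ((x : LInf T) - x₀) := by abel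
    rw [this]; exact norm_sub_le _ _
  have h5 : √(‖(x : LInf T)‖ ^ 2 + ‖(y : LInf T)‖ ^ 2 / 4) - √(‖x₀‖ ^ 2 + ‖(y : LInf T)‖ ^ 2 / 4) ≤ ε / 2 := by
    rcases le_total ‖x₀‖ ‖(x : LInf T)‖ with h | h
    · have h6 := sqrt_lip (y := ‖(y : LInf T)‖ ^ 2 / 4) (norm_nonneg x₀) h (by positivity)
      have h7 : ‖(x : LInf T)‖ - ‖x₀‖ ≤ ‖(x : LInf T) - x₀‖ := norm_sub_norm_le _ _
      linarith
    · have h6 : √(‖(x : LInf T)‖ ^ 2 + ‖(y : LInf T)‖ ^ 2 / 4) ≤ √(‖x₀‖ ^ 2 + ‖(y : LInf T)‖ ^ 2 / 4) :=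
        Real.sqrt_le_sqrt (by gcongr)
      linarith
  change √(‖(x : LInf T)‖ ^ 2 + ‖(y : LInf T)‖ ^ 2 / 4) - ε ≤
    (‖(x : LInf T) + (y : LInf T)‖ + ‖(x : LInf T) - (y : LInf T)‖) / 2
  linarith

/-- sums of coordinate vectors along root paths -/
noncomputable def psum (e : List ℕ → LInf T) : List ℕ → LInf T
  | [] => e []
  | a :: v => psum e v + e (a :: v)

theorem e_mem (e : List ℕ → LInf T) (s : List ℕ) : e s ∈ space e :=
  Submodule.le_topologicalClosure _ (Submodule.subset_span ⟨s, rfl⟩)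

theorem psum_mem (e : List ℕ → LInf T) : ∀ v, psum e v ∈ space e
  | [] => e_mem e []
  | a :: v => (space e).add_mem (psum_mem e v) (e_mem e _)

theorem psum_apply (he : ∀ s t, e s t = cf t s) (t : T) :
    ∀ v, psum e v t = pathPotential (cf t) v
  | [] => he _ _
  | a :: v => by
    have h : psum e (a :: v) t = psum e v t + e (a :: v) t := rfl
    rw [h, psum_apply he t v, he]; rfl

theorem norm_psum_le (hT : TestSystem T cf I) (he : ∀ s t, e s t = cf t s) (v : List ℕ) :
    ‖psum e v‖ ≤ 1 := by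
  apply lp.norm_le_of_forall_le zero_le_one
  intro t
  rw [psum_apply he]
  exact hT.pot t v

theorem sum_mul_le_sqrt {ι : Type*} (A : Finset ι) (a b : ι → ℝ) (hb : ∑ n ∈ A, b n ^ 2 ≤ 1) :
    |∑ n ∈ A, a n * b n| ≤ √(∑ n ∈ A, a n ^ 2) := by
  apply Real.abs_le_sqrt
  calc (∑ n ∈ A, a n * b n) ^ 2 ≤ (∑ n ∈ A, a n ^ 2) * ∑ n ∈ A, b n ^ 2 :=
        Finset.sum_mul_sq_le_sq_mul_sq _ _ _
    _ ≤ (∑ n ∈ A, a n ^ 2) * 1 :=
        mul_le_mul_of_nonneg_left hb (Finset.sum_nonneg fun _ _ => sq_nonneg _)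
    _ = _ := mul_one _

theorem children_upper (hT : TestSystem T cf I) (he : ∀ s t, e s t = cf t s) (v : List ℕ)
    (A : Finset ℕ) (a : ℕ → ℝ) : ‖∑ n ∈ A, a n • e (n :: v)‖ ≤ √(∑ n ∈ A, a n ^ 2) := by
  apply lp.norm_le_of_forall_le (Real.sqrt_nonneg _)
  intro t
  have h1 : (∑ n ∈ A, a n • e (n :: v)) t = ∑ n ∈ A, a n * cf t (n :: v) := by
    simp only [lp.coeFn_sum, Finset.sum_apply, lp.coeFn_smul, Pi.smul_apply, smul_eq_mul, he]
  rw [h1]
  exact sum_mul_le_sqrt A _ _ (hT.sib t _ A)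

theorem one_le_norm_e (hT : TestSystem T cf I) (he : ∀ s t, e s t = cf t s) {s : List ℕ}
    (hs : s ∈ I) : 1 ≤ ‖e s‖ := by
  obtain ⟨t, ht⟩ := hT.ind _ hs
  refine le_trans ?_ (apply_le_norm _ t)
  rw [he, ht]
  simp

theorem psum_cons_sub (e : List ℕ → LInf T) (a : ℕ) (v : List ℕ) :
    psum e (a :: v) - psum e v = e (a :: v) := by
  rw [psum, add_sub_cancel_left]

theorem not_auc_space (hT : TestSystem T cf I) (he : ∀ s t, e s t = cf t s)
    (hdeep : ∀ m : ℕ, ∃ r : List ℕ, ∀ v : List ℕ, v.length ≤ m → v ++ r ∈ I) {N : space e → ℝ}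
    (hN : EqNorm N) : ¬ AUC N := by
  choose r hr using hdeep
  apply not_auc_of_trees hN 1 1 one_pos (fun m v => ⟨psum e (v ++ r m), psum_mem e _⟩)
  · intro m v _
    exact norm_psum_le hT he _
  · intro m v _
    apply AsympNull.of_upper_two (K := 1)
    intro A a
    rw [one_mul]
    change ‖((∑ n ∈ A, a n • ((⟨psum e (n :: v ++ r m), psum_mem e _⟩ : space e) -
      ⟨psum e (v ++ r m), psum_mem e _⟩) : space e) : LInf T)‖ ≤ _
    rw [Submodule.coe_sum]
    refine le_trans (le_of_eq ?_) (children_upper hT he (v ++ r m) A a)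
    congr 1
    apply Finset.sum_congr rfl
    intro n _
    rw [← psum_cons_sub e n (v ++ r m)]
    rfl
  · intro m v n hv
    have hI : n :: (v ++ r m) ∈ I := hr m (n :: v) (by simpa using hv)
    change 1 ≤ ‖psum e (n :: (v ++ r m)) - psum e (v ++ r m)‖
    rw [psum_cons_sub]
    exact one_le_norm_e hT he hI

theorem not_finiteDimensional_space (hT : TestSystem T cf I) (he : ∀ s t, e s t = cf t s)
    (hdeep : ∀ m : ℕ, ∃ r : List ℕ, ∀ v : List ℕ, v.length ≤ m → v ++ r ∈ I) :
    ¬ FiniteDimensional ℝ (space e) := fun _ =>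
  not_auc_space hT he hdeep eqNorm_norm (auc_of_finiteDimensional eqNorm_norm)

theorem separable_space (e : List ℕ → LInf T) : TopologicalSpace.SeparableSpace (space e) := by
  have h : TopologicalSpace.IsSeparable (space e : Set (LInf T)) := by
    have h1 : TopologicalSpace.IsSeparable (Set.range e) := (Set.countable_range e).isSeparable
    exact (h1.span (R := ℝ)).closure
  exact h.separableSpace

end abstract

section bundled

theorem isSeparableInfiniteDim_of (E : RealBanach)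
    (h1 : @TopologicalSpace.SeparableSpace E.X E.normed.toPseudoMetricSpace.toUniformSpace.toTopologicalSpace)
    (h2 : letI := E.normed; letI := E.space; ¬ FiniteDimensional ℝ E.X) :
    E.IsSeparableInfiniteDim := ⟨h1, h2⟩

/-- the midpoint modulus from `Q2` -/
theorem midpointModulusGE_of_Q2 (E : RealBanach) (h : @Q2 E.X E.normed E.space) (t c : ℝ)
    (hc : c ≤ √(1 + t ^ 2 / 4) - 1) : E.MidpointModulusGE E.norm t c := by
  letI := E.normed
  letI := E.space
  intro x hx η hη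
  obtain ⟨S, hS1, hS2, hS3⟩ := h x η hη
  refine ⟨S, ⟨S, rfl, hS1, hS2⟩, ?_⟩
  intro y hy hy1
  have hx' : ‖x‖ = 1 := hx
  have hy' : ‖y‖ = 1 := hy1
  have h1 := hS3 (t • y) (S.smul_mem t hy)
  rw [norm_smul, hx', hy', mul_one, Real.norm_eq_abs, sq_abs, one_pow] at h1
  change c - η ≤ (‖x + t • y‖ + ‖x - t • y‖) / 2 - 1
  linarith

theorem maxMidpointModulusGE_of_Q2 (E : RealBanach) (h : @Q2 E.X E.normed E.space) (t c : ℝ)
    (hc : c ≤ √(1 + t ^ 2 / 4) - 1) : E.MaxMidpointModulusGE E.norm t c := by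
  letI := E.normed
  letI := E.space
  intro x hx η hη
  obtain ⟨F, hF, H⟩ := midpointModulusGE_of_Q2 E h t c hc x hx η hη
  refine ⟨F, hF, ?_⟩
  intro y hy hy1
  have h1 := H y hy hy1
  have h2 := le_max_left (E.norm (x + t • y)) (E.norm (x - t • y))
  have h3 := le_max_right (E.norm (x + t • y)) (E.norm (x - t • y))
  linarith

end bundled

end Crest.Agent.LibTree
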