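import Mathlib
import Crest.Agent.LibTree

set_option autoImplicit false
open Filter Topology

namespace Crest.Agent.LibLp2

open Crest.Agent.LibAUC Crest.Agent.LibTree

/-- reflexivity -/
def Refl (V : Type) [NormedAddCommGroup V] [NormedSpace ℝ V] : Prop :=
  Function.Surjective (NormedSpace.inclusionInDoubleDual ℝ V)

theorem refl_hilbert (H : Type) [NormedAddCommGroup H] [InnerProductSpace ℝ H] [CompleteSpace H] :
    Refl H := by
  intro Φ
  let D := InnerProductSpace.toDual ℝ H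
  let ℓ : H →L[ℝ] ℝ := LinearMap.mkContinuous
    { toFun := fun w => Φ (D w)
      map_add' := fun w w' => by rw [map_add, map_add]
      map_smul' := fun c w => by
        rw [map_smulₛₗ, map_smul]; simp } ‖Φ‖ (fun w => by
      have := Φ.le_opNorm (D w)
      rwa [D.norm_map] at this)
  obtain ⟨x, hx⟩ := D.surjective ℓ
  refine ⟨x, ?_⟩
  ext φ
  obtain ⟨w, rfl⟩ := D.surjective φ
  have h1 : ℓ w = Φ (D w) := rfl
  have h2 : ℓ w = inner ℝ x w := by rw [← hx]; rfl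
  rw [NormedSpace.dual_def, ← h1, h2, real_inner_comm]
  rfl

theorem refl_retract {V W : Type} [NormedAddCommGroup V] [NormedSpace ℝ V] [NormedAddCommGroup W]
    [NormedSpace ℝ W] (hW : Refl W) (U : W →L[ℝ] V) (J : V →L[ℝ] W) (h : ∀ x, U (J x) = x) :
    Refl V := by
  intro Φ
  let A : StrongDual ℝ W →L[ℝ] StrongDual ℝ V := ContinuousLinearMap.precomp ℝ J
  have hA : ∀ ψ, A ψ = ψ.comp J := fun ψ => rfl
  obtain ⟨w, hw⟩ := hW (Φ.comp A)
  refine ⟨U w, ?_⟩
  ext φ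
  have h1 : (NormedSpace.inclusionInDoubleDual ℝ W w) (φ.comp U) = Φ (A (φ.comp U)) := by
    rw [hw]; rfl
  rw [NormedSpace.dual_def] at h1 ⊢
  have h2 : A (φ.comp U) = φ := by
    rw [hA]; ext x
    change φ (U (J x)) = φ x
    rw [h]
  rw [h2] at h1
  exact h1

section lp2

variable {V : ℕ → Type} [∀ n, NormedAddCommGroup (V n)] [∀ n, NormedSpace ℝ (V n)]

theorem two_toReal : (2 : ENNReal).toReal = 2 := by simp

theorem sum_sq_le_norm_sq (f : lp V 2) (s : Finset ℕ) : ∑ i ∈ s, ‖f i‖ ^ 2 ≤ ‖f‖ ^ 2 := by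
  have h := lp.sum_rpow_le_norm_rpow (p := 2) (by simp) f s
  rw [two_toReal] at h
  simpa only [Real.rpow_two] using h

theorem norm_le_of_sum_sq (f : lp V 2) {C : ℝ} (hC : 0 ≤ C)
    (h : ∀ s : Finset ℕ, ∑ i ∈ s, ‖f i‖ ^ 2 ≤ C ^ 2) : ‖f‖ ≤ C := by
  apply lp.norm_le_of_forall_sum_le (p := 2) (by simp) hC
  intro s
  rw [two_toReal]
  simpa only [Real.rpow_two] using h s

theorem hasSum_sq (f : lp V 2) : HasSum (fun i => ‖f i‖ ^ 2) (‖f‖ ^ 2) := by
  have h := lp.hasSum_norm (p := 2) (by simp) f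
  rw [two_toReal] at h
  simpa only [Real.rpow_two] using h

theorem memLp2_of (f : ∀ n, V n) {C : ℝ} (h : ∀ s : Finset ℕ, ∑ i ∈ s, ‖f i‖ ^ 2 ≤ C) :
    Memℓp f 2 := by
  apply memℓp_gen' (C := C)
  intro s
  rw [two_toReal]
  simpa only [Real.rpow_two] using h s

/-- Cauchy criterion with square-summable control. -/
theorem summable_of_sq_control {F : Type*} [NormedAddCommGroup F] [CompleteSpace F] (f : ℕ → F)
    (b : ℕ → ℝ) (hb : Summable fun n => b n ^ 2)
    (h : ∀ t : Finset ℕ, ‖∑ n ∈ t, f n‖ ≤ √(∑ n ∈ t, b n ^ 2)) : Summable f := by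
  rw [summable_iff_vanishing_norm]
  intro ε hε
  obtain ⟨s, hs⟩ := (summable_iff_vanishing_norm.mp hb) (ε ^ 2) (by positivity)
  refine ⟨s, fun t ht => lt_of_le_of_lt (h t) ?_⟩
  rw [Real.sqrt_lt' hε]
  exact (le_abs_self _).trans_lt (hs t ht)

theorem sum_mul_le (t : Finset ℕ) (a b : ℕ → ℝ) :
    ∑ n ∈ t, a n * b n ≤ √(∑ n ∈ t, a n ^ 2) * √(∑ n ∈ t, b n ^ 2) :=
  Real.sum_mul_le_sqrt_mul_sqrt t a b

/-- squares of the norms of coordinate restrictions of a functional. -/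
theorem sum_sq_dual_le (φ : lp V 2 →L[ℝ] ℝ) (t : Finset ℕ) :
    ∑ n ∈ t, ‖φ.comp (lp.singleContinuousLinearMap ℝ V 2 n)‖ ^ 2 ≤ ‖φ‖ ^ 2 := by
  set a : ℕ → ℝ := fun n => ‖φ.comp (lp.singleContinuousLinearMap ℝ V 2 n)‖ with ha
  set q := ∑ n ∈ t, a n ^ 2 with hq
  have hq0 : 0 ≤ q := Finset.sum_nonneg fun _ _ => sq_nonneg _
  have ha0 : ∀ n, 0 ≤ a n := fun n => norm_nonneg _
  have key : ∀ ε : ℝ, 0 < ε → q ≤ ‖φ‖ * √q + ε * ∑ n ∈ t, a n := by
    intro ε hε
    have hch : ∀ n, ∃ w : V n, ‖w‖ ≤ 1 ∧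
        a n - ε < (φ.comp (lp.singleContinuousLinearMap ℝ V 2 n)) w := by
      intro n
      rcases eq_or_ne (a n) 0 with h0 | h0
      · exact ⟨0, by simp, by rw [h0]; simpa using hε⟩
      by_cases h : 0 ≤ a n - ε
      · obtain ⟨x, hx1, hx2⟩ := ContinuousLinearMap.exists_lt_apply_of_lt_opNorm
          (φ.comp (lp.singleContinuousLinearMap ℝ V 2 n)) (show a n - ε < a n by linarith)
        rw [Real.norm_eq_abs] at hx2
        rcases abs_choice ((φ.comp (lp.singleContinuousLinearMap ℝ V 2 n)) x) with h1 | h1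
        · exact ⟨x, hx1.le, by rwa [h1] at hx2⟩
        · exact ⟨-x, by rw [norm_neg]; exact hx1.le, by rw [map_neg]; rwa [h1] at hx2⟩
      · push Not at h
        exact ⟨0, by simp, by simpa using h⟩
    choose w hw1 hw2 using hch
    set x : lp V 2 := ∑ n ∈ t, lp.single 2 n (a n • w n) with hx
    have hxn : ‖x‖ ≤ √q := by
      apply Real.le_sqrt_of_sq_le
      have h1 := lp.norm_sum_single (p := 2) (by simp) (fun n => a n • w n) t
      rw [two_toReal] at h1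
      simp only [Real.rpow_two] at h1
      rw [hx, h1, hq]
      apply Finset.sum_le_sum
      intro n _
      rw [norm_smul, Real.norm_eq_abs, abs_of_nonneg (ha0 n), mul_pow]
      calc a n ^ 2 * ‖w n‖ ^ 2 ≤ a n ^ 2 * 1 :=
            mul_le_mul_of_nonneg_left (pow_le_one₀ (norm_nonneg _) (hw1 n)) (sq_nonneg _)
        _ = a n ^ 2 := mul_one _
    have h2 : φ x = ∑ n ∈ t, a n * (φ.comp (lp.singleContinuousLinearMap ℝ V 2 n)) (w n) := by
      rw [hx, map_sum]
      apply Finset.sum_congr rfl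
      intro n _
      rw [lp.single_smul, map_smul]
      rfl
    have h3 : q - ε * ∑ n ∈ t, a n ≤ φ x := by
      rw [h2, Finset.mul_sum, hq, ← Finset.sum_sub_distrib]
      apply Finset.sum_le_sum
      intro n _
      have := mul_le_mul_of_nonneg_left (hw2 n).le (ha0 n)
      nlinarith
    have h4 : φ x ≤ ‖φ‖ * √q :=
      ((Real.le_norm_self _).trans (φ.le_opNorm x)).trans
        (mul_le_mul_of_nonneg_left hxn (norm_nonneg _))
    linarith
  have h5 : q ≤ ‖φ‖ * √q := by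
    set A := ∑ n ∈ t, a n
    have hA : 0 ≤ A := Finset.sum_nonneg fun n _ => ha0 n
    apply le_of_forall_pos_le_add
    intro ε hε
    have := key (ε / (A + 1)) (by positivity)
    have h6 : ε / (A + 1) * A ≤ ε := by
      rw [div_mul_eq_mul_div, div_le_iff₀ (by positivity)]
      nlinarith
    linarith
  rcases hq0.eq_or_lt with h0 | h0
  · rw [← h0]; positivity
  · have h6 : √q * √q = q := Real.mul_self_sqrt hq0
    have h7 : 0 < √q := Real.sqrt_pos.mpr h0
    have h8 : √q ≤ ‖φ‖ := by nlinarith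
    calc q = √q ^ 2 := (Real.sq_sqrt hq0).symm
      _ ≤ _ := pow_le_pow_left₀ h7.le h8 2

theorem hasSum_apply_of_hasSum {W : Type*} [NormedAddCommGroup W] [NormedSpace ℝ W]
    {f : ℕ → W →L[ℝ] ℝ} {g : W →L[ℝ] ℝ} (h : HasSum f g) (y : W) :
    HasSum (fun n => f n y) (g y) := h.mapL (ContinuousLinearMap.apply ℝ ℝ y)

/-- Reflexivity of `ℓ²`-sums. -/
theorem refl_lp2 (h : ∀ n, Refl (V n)) : Refl (lp V 2) := by
  intro Φ
  let π : ∀ n, lp V 2 →L[ℝ] V n := fun n => lp.evalCLM ℝ V 2 n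
  have hπ : ∀ n (y : lp V 2), π n y = y n := fun n y => rfl
  have hex : ∀ n, ∃ x : V n, ∀ φ : V n →L[ℝ] ℝ, Φ (φ.comp (π n)) = φ x := by
    intro n
    let A : StrongDual ℝ (V n) →L[ℝ] StrongDual ℝ (lp V 2) := ContinuousLinearMap.precomp ℝ (π n)
    obtain ⟨x, hx⟩ := h n (Φ.comp A)
    refine ⟨x, fun φ => ?_⟩
    have h1 : (NormedSpace.inclusionInDoubleDual ℝ (V n) x) φ = Φ (A φ) := by rw [hx]; rfl
    rw [NormedSpace.dual_def] at h1
    exact h1.symm
  choose x hx using hex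
  -- membership
  have hsq : ∀ t : Finset ℕ, ∑ n ∈ t, ‖x n‖ ^ 2 ≤ ‖Φ‖ ^ 2 := by
    intro t
    set q := ∑ n ∈ t, ‖x n‖ ^ 2 with hq
    have hq0 : 0 ≤ q := Finset.sum_nonneg fun _ _ => sq_nonneg _
    choose φ hφ1 hφ2 using fun n => exists_dual_vector'' ℝ (x n)
    set ψ : lp V 2 →L[ℝ] ℝ := ∑ n ∈ t, ‖x n‖ • (φ n).comp (π n) with hψ
    have h1 : ‖ψ‖ ≤ √q := by
      apply ContinuousLinearMap.opNorm_le_bound _ (Real.sqrt_nonneg _)
      intro y
      have h2 : ψ y = ∑ n ∈ t, ‖x n‖ * φ n (y n) := by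
        rw [hψ]; simp [sum_apply, smul_apply, hπ]
      rw [h2]
      calc ‖∑ n ∈ t, ‖x n‖ * φ n (y n)‖ ≤ ∑ n ∈ t, ‖‖x n‖ * φ n (y n)‖ := norm_sum_le _ _
        _ ≤ ∑ n ∈ t, ‖x n‖ * ‖y n‖ := by
            apply Finset.sum_le_sum
            intro n _
            rw [norm_mul, norm_norm]
            apply mul_le_mul_of_nonneg_left _ (norm_nonneg _)
            calc ‖φ n (y n)‖ ≤ ‖φ n‖ * ‖y n‖ := (φ n).le_opNorm _
              _ ≤ 1 * ‖y n‖ := mul_le_mul_of_nonneg_right (hφ1 n) (norm_nonneg _)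
              _ = ‖y n‖ := one_mul _
        _ ≤ √(∑ n ∈ t, ‖x n‖ ^ 2) * √(∑ n ∈ t, ‖y n‖ ^ 2) := sum_mul_le t _ _
        _ ≤ √q * ‖y‖ := by
            apply mul_le_mul_of_nonneg_left _ (Real.sqrt_nonneg _)
            rw [Real.sqrt_le_left (norm_nonneg _)]
            exact sum_sq_le_norm_sq y t
    have h3 : Φ ψ = q := by
      rw [hψ, map_sum, hq]
      apply Finset.sum_congr rfl
      intro n _
      rw [map_smul, hx, hφ2, smul_eq_mul, sq]; rfl
    have h4 : q ≤ ‖Φ‖ * √q := by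
      calc q = Φ ψ := h3.symm
        _ ≤ ‖Φ ψ‖ := Real.le_norm_self _
        _ ≤ ‖Φ‖ * ‖ψ‖ := Φ.le_opNorm _
        _ ≤ ‖Φ‖ * √q := mul_le_mul_of_nonneg_left h1 (ContinuousLinearMap.opNorm_nonneg _)
    rcases hq0.eq_or_lt with h0 | h0
    · rw [← h0]; positivity
    · have h6 : √q * √q = q := Real.mul_self_sqrt hq0
      have h7 : 0 < √q := Real.sqrt_pos.mpr h0
      have h8 : √q ≤ ‖Φ‖ := by nlinarith
      calc q = √q ^ 2 := (Real.sq_sqrt hq0).symm
        _ ≤ _ := pow_le_pow_left₀ h7.le h8 2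
  refine ⟨⟨x, memLp2_of x hsq⟩, ?_⟩
  ext φ
  rw [NormedSpace.dual_def]
  set X : lp V 2 := ⟨x, memLp2_of x hsq⟩ with hX
  have hXn : ∀ n, X n = x n := fun n => rfl
  set f : ℕ → StrongDual ℝ (lp V 2) := fun n =>
    (φ.comp (lp.singleContinuousLinearMap ℝ V 2 n)).comp (π n) with hf
  have hfy : ∀ n y, f n y = φ (lp.single 2 n (y n)) := fun n y => rfl
  have hsum : Summable f := by
    apply summable_of_sq_control f (fun n => ‖φ.comp (lp.singleContinuousLinearMap ℝ V 2 n)‖)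
    · exact summable_of_sum_le (fun _ => sq_nonneg _) (sum_sq_dual_le φ)
    · intro t
      apply ContinuousLinearMap.opNorm_le_bound _ (Real.sqrt_nonneg _)
      intro y
      rw [sum_apply]
      calc ‖∑ n ∈ t, f n y‖ ≤ ∑ n ∈ t, ‖f n y‖ := norm_sum_le _ _
        _ ≤ ∑ n ∈ t, ‖φ.comp (lp.singleContinuousLinearMap ℝ V 2 n)‖ * ‖y n‖ := by
            apply Finset.sum_le_sum
            intro n _
            exact (φ.comp (lp.singleContinuousLinearMap ℝ V 2 n)).le_opNorm (y n)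
        _ ≤ √(∑ n ∈ t, ‖φ.comp (lp.singleContinuousLinearMap ℝ V 2 n)‖ ^ 2) *
              √(∑ n ∈ t, ‖y n‖ ^ 2) := sum_mul_le t _ _
        _ ≤ _ := by
            apply mul_le_mul_of_nonneg_left _ (Real.sqrt_nonneg _)
            rw [Real.sqrt_le_left (norm_nonneg _)]
            exact sum_sq_le_norm_sq y t
  have htsum : HasSum f φ := by
    have h1 : ∑' n, f n = φ := by
      ext y
      have h2 : HasSum (fun n => f n y) ((∑' n, f n) y) :=
        hasSum_apply_of_hasSum hsum.hasSum y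
      have h3 : HasSum (fun n => φ (lp.single 2 n (y n))) (φ y) :=
        (lp.hasSum_single (p := 2) (by simp) y).mapL φ
      exact h2.unique h3
    rw [← h1]; exact hsum.hasSum
  have h4 : HasSum (fun n => Φ (f n)) (Φ φ) := htsum.mapL Φ
  have h5 : HasSum (fun n => φ (lp.single 2 n (X n))) (φ X) :=
    (lp.hasSum_single (p := 2) (by simp) X).mapL φ
  have h6 : (fun n => Φ (f n)) = fun n => φ (lp.single 2 n (X n)) := by
    funext n
    rw [hf]
    change Φ ((φ.comp (lp.singleContinuousLinearMap ℝ V 2 n)).comp (π n)) = _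
    rw [hx, hXn]
    rfl
  rw [h6] at h4
  exact h5.unique h4

end lp2

end Crest.Agent.LibLp2

namespace Crest.Agent.LibLp2

open Crest.Agent.LibAUC Crest.Agent.LibTree

section q2

variable {V : ℕ → Type} [∀ n, NormedAddCommGroup (V n)] [∀ n, NormedSpace ℝ (V n)]

/-- norms of the coordinates as an element of real `ℓ²`. -/
noncomputable def nrm (x : lp V 2) : lp (fun _ : ℕ => ℝ) 2 :=
  ⟨fun n => ‖x n‖, memLp2_of (V := fun _ => ℝ) _ (C := ‖x‖ ^ 2) (fun s => by
    simpa using sum_sq_le_norm_sq x s)⟩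

theorem nrm_apply (x : lp V 2) (n : ℕ) : nrm x n = ‖x n‖ := rfl

theorem norm_nrm (x : lp V 2) : ‖nrm x‖ = ‖x‖ := by
  have h1 := hasSum_sq (V := fun _ => ℝ) (nrm x)
  have h2 := hasSum_sq x
  have h3 : (fun i => ‖nrm x i‖ ^ 2) = fun i => ‖x i‖ ^ 2 := by
    funext i; rw [nrm_apply, norm_norm]
  rw [h3] at h1
  have h4 := h1.unique h2
  exact (pow_left_inj₀ (norm_nonneg _) (norm_nonneg _) two_ne_zero).mp h4

theorem q2_lp2 (h : ∀ n, Q2 (V n)) : Q2 (lp V 2) := by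
  classical
  intro x ε hε
  -- finite approximation
  have h1 := lp.hasSum_single (p := 2) (by simp) x
  rw [HasSum, Metric.tendsto_nhds] at h1
  obtain ⟨M, hM⟩ := (h1 (ε / 3) (by positivity)).exists
  set x' : lp V 2 := ∑ n ∈ M, lp.single 2 n (x n) with hx'
  have hx'1 : ∀ n ∈ M, x' n = x n := by
    intro n hn
    rw [hx', lp.coeFn_sum, Finset.sum_apply]
    simp only [lp.coeFn_single, Finset.sum_pi_single]
    rw [if_pos hn]
  have hx'2 : ∀ n, n ∉ M → x' n = 0 := by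
    intro n hn
    rw [hx', lp.coeFn_sum, Finset.sum_apply]
    simp only [lp.coeFn_single, Finset.sum_pi_single]
    rw [if_neg hn]
  have hd : ‖x - x'‖ < ε / 3 := by rw [← dist_eq_norm, dist_comm]; exact hM
  set e : ℝ := ε / (3 * (M.card + 1)) with he
  have he0 : 0 < e := by positivity
  choose S hS1 hS2 hS3 using fun n => h n (x n) e he0
  let L : lp V 2 →ₗ[ℝ] (∀ n : M, V n ⧸ S n) :=
    LinearMap.pi fun n => (S n).mkQ ∘ₗ (lp.evalₗ V 2 (n : ℕ) : lp V 2 →ₗ[ℝ] V n)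
  have hker : ∀ y, y ∈ LinearMap.ker L ↔ ∀ n ∈ M, y n ∈ S n := by
    intro y
    rw [LinearMap.mem_ker]
    constructor
    · intro hy n hn
      have : (S n).mkQ (y n) = 0 := congrFun hy ⟨n, hn⟩
      rwa [Submodule.mkQ_apply, Submodule.Quotient.mk_eq_zero] at this
    · intro hy
      funext n
      change (S n).mkQ (y n) = 0
      rw [Submodule.mkQ_apply, Submodule.Quotient.mk_eq_zero]
      exact hy n n.2
  refine ⟨LinearMap.ker L, ?_, ?_, ?_⟩
  · have : (LinearMap.ker L : Set (lp V 2)) = ⋂ n ∈ M, (lp.evalCLM ℝ V 2 n) ⁻¹' (S n : Set (V n)) := by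
      ext y
      simp only [SetLike.mem_coe, hker, Set.mem_iInter, Set.mem_preimage]
      rfl
    rw [this]
    exact isClosed_biInter fun n _ => (hS1 n).preimage (lp.evalCLM ℝ V 2 n).continuous
  · have : ∀ n : M, FiniteDimensional ℝ (V n ⧸ S n) := fun n => hS2 n
    exact (LinearMap.quotKerEquivRange L).symm.finiteDimensional
  · intro y hy
    rw [hker] at hy
    -- the vector z
    let zf : ℕ → ℝ := fun n => √(‖x' n‖ ^ 2 + ‖y n‖ ^ 2 / 4)
    have hzsq : ∀ n, ‖zf n‖ ^ 2 = ‖x' n‖ ^ 2 + ‖y n‖ ^ 2 / 4 := by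
      intro n
      rw [Real.norm_eq_abs, sq_abs, Real.sq_sqrt (by positivity)]
    have hHS : HasSum (fun n => ‖zf n‖ ^ 2) (‖x'‖ ^ 2 + ‖y‖ ^ 2 / 4) := by
      have : (fun n => ‖zf n‖ ^ 2) = fun n => ‖x' n‖ ^ 2 + ‖y n‖ ^ 2 / 4 := funext hzsq
      rw [this]
      exact (hasSum_sq x').add ((hasSum_sq y).div_const 4)
    let Z : lp (fun _ : ℕ => ℝ) 2 := ⟨zf, memLp2_of (V := fun _ => ℝ) _
      (C := ‖x'‖ ^ 2 + ‖y‖ ^ 2 / 4) (fun s => sum_le_hasSum s (fun _ _ => sq_nonneg _) hHS)⟩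
    have hZn : ‖Z‖ = √(‖x'‖ ^ 2 + ‖y‖ ^ 2 / 4) := by
      have h2 := (hasSum_sq (V := fun _ => ℝ) Z).unique hHS
      rw [← h2, Real.sqrt_sq (norm_nonneg _)]
    let R : lp (fun _ : ℕ => ℝ) 2 := (1 / 2 : ℝ) • (nrm (x' + y) + nrm (x' - y)) +
      ∑ n ∈ M, lp.single 2 n e
    have hRn : ∀ n, R n = (1 / 2) * (‖x' n + y n‖ + ‖x' n - y n‖) + if n ∈ M then e else 0 := by
      intro n
      have h2 : (∑ n ∈ M, lp.single 2 n e : lp (fun _ : ℕ => ℝ) 2) n = if n ∈ M then e else 0 := by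
        rw [lp.coeFn_sum, Finset.sum_apply]
        simp only [lp.coeFn_single]
        exact Finset.sum_pi_single n (fun _ => e) M
      have h3 : R n = (1 / 2) * (‖x' n + y n‖ + ‖x' n - y n‖) +
        (∑ n ∈ M, lp.single 2 n e : lp (fun _ : ℕ => ℝ) 2) n := rfl
      rw [h3, h2]
    have hZR : ∀ n, ‖Z n‖ ≤ ‖R n‖ := by
      intro n
      have hZ : Z n = √(‖x' n‖ ^ 2 + ‖y n‖ ^ 2 / 4) := rfl
      rw [hZ, hRn, Real.norm_eq_abs, abs_of_nonneg (Real.sqrt_nonneg _)]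
      refine le_trans ?_ (Real.le_norm_self _)
      by_cases hn : n ∈ M
      · rw [if_pos hn, hx'1 n hn]
        have := hS3 n (y n) (hy n hn)
        linarith
      · rw [if_neg hn, hx'2 n hn]
        rw [norm_zero, zero_add, zero_sub, norm_neg]
        have h4 : √(0 ^ 2 + ‖y n‖ ^ 2 / 4) = ‖y n‖ / 2 := by
          rw [zero_pow two_ne_zero, zero_add, show ‖y n‖ ^ 2 / 4 = (‖y n‖ / 2) ^ 2 by ring,
            Real.sqrt_sq (by positivity)]
        rw [h4]
        linarith [norm_nonneg (y n)]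
    have hZRn : ‖Z‖ ≤ ‖R‖ := lp.norm_mono (p := 2) (by norm_num) hZR
    have hRle : ‖R‖ ≤ (‖x' + y‖ + ‖x' - y‖) / 2 + ε / 3 := by
      calc ‖R‖ ≤ ‖(1 / 2 : ℝ) • (nrm (x' + y) + nrm (x' - y))‖ +
            ‖(∑ n ∈ M, lp.single 2 n e : lp (fun _ : ℕ => ℝ) 2)‖ := norm_add_le _ _
        _ ≤ (1 / 2) * (‖x' + y‖ + ‖x' - y‖) + ∑ n ∈ M, e := by
            apply add_le_add
            · rw [norm_smul, Real.norm_eq_abs, abs_of_pos (by norm_num : (0:ℝ) < 1 / 2)]
              apply mul_le_mul_of_nonneg_left _ (by norm_num)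
              refine (norm_add_le _ _).trans ?_
              rw [norm_nrm, norm_nrm]
            · refine (norm_sum_le _ _).trans (Finset.sum_le_sum fun n _ => ?_)
              rw [lp.norm_single (by norm_num), Real.norm_eq_abs, abs_of_pos he0]
        _ ≤ _ := by
            rw [Finset.sum_const, nsmul_eq_mul]
            have h5 : (M.card : ℝ) * e ≤ ε / 3 := by
              rw [he]
              calc (M.card : ℝ) * (ε / (3 * (M.card + 1))) = (ε / 3) * (M.card / (M.card + 1)) := by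
                    field_simp
                _ ≤ (ε / 3) * 1 := by
                    apply mul_le_mul_of_nonneg_left _ (by positivity)
                    rw [div_le_one (by positivity)]; linarith
                _ = ε / 3 := mul_one _
            linarith
    have h6 : √(‖x‖ ^ 2 + ‖y‖ ^ 2 / 4) - √(‖x'‖ ^ 2 + ‖y‖ ^ 2 / 4) ≤ ε / 3 := by
      rcases le_total ‖x'‖ ‖x‖ with h | h
      · have h6 := sqrt_lip (y := ‖y‖ ^ 2 / 4) (norm_nonneg x') h (by positivity)
        have h7 : ‖x‖ - ‖x'‖ ≤ ‖x - x'‖ := norm_sub_norm_le _ _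
        linarith
      · have h6 : √(‖x‖ ^ 2 + ‖y‖ ^ 2 / 4) ≤ √(‖x'‖ ^ 2 + ‖y‖ ^ 2 / 4) :=
          Real.sqrt_le_sqrt (by gcongr)
        linarith
    have h7 : ‖x' + y‖ ≤ ‖x + y‖ + ‖x - x'‖ := by
      have : x' + y = (x + y) - (x - x') := by abel
      rw [this]; exact norm_sub_le _ _
    have h8 : ‖x' - y‖ ≤ ‖x - y‖ + ‖x - x'‖ := by
      have : x' - y = (x - y) - (x - x') := by abel
      rw [this]; exact norm_sub_le _ _
    rw [hZn] at hZRn
    linarith

end q2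

end Crest.Agent.LibLp2
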