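import Crest.Agent.LibArea2

/-!
Plane coordinates in Euclidean three-space: bounded planar sets have finite area, compact planar
sets have relatively open bounded neighbourhoods of nearly the same area.
-/

set_option autoImplicit false
open MeasureTheory Measure
open scoped ENNReal

namespace Crest.Agent.LibPlane3

open Crest.Agent.LibArea2

abbrev E3 := EuclideanSpace ℝ (Fin 3)

/-- orthonormal coordinates in the plane `v^⊥` -/
theorem exists_plane_basis (v : E3) (hv : ‖v‖ = 1) :
    ∃ f g : E3, ‖f‖ = 1 ∧ ‖g‖ = 1 ∧ inner ℝ f g = 0 ∧ inner ℝ f v = 0 ∧ inner ℝ g v = 0 ∧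
      ∀ x : E3, inner ℝ x v = 0 → x = inner ℝ x f • f + inner ℝ x g • g := by
  have hv0 : v ≠ 0 := by intro h; rw [h] at hv; simp at hv
  have hfr : Module.finrank ℝ (ℝ ∙ v)ᗮ = 2 := by
    have : Fact (Module.finrank ℝ E3 = 2 + 1) := ⟨by simp⟩
    exact Submodule.finrank_orthogonal_span_singleton hv0
  let b := (stdOrthonormalBasis ℝ (ℝ ∙ v)ᗮ).reindex (finCongr hfr)
  have hmem : ∀ y : (ℝ ∙ v)ᗮ, inner ℝ (y : E3) v = 0 := by
    intro y
    have := y.2
    rw [Submodule.mem_orthogonal_singleton_iff_inner_left] at this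
    exact this
  refine ⟨b 0, b 1, ?_, ?_, ?_, hmem _, hmem _, ?_⟩
  · exact b.orthonormal.1 0
  · exact b.orthonormal.1 1
  · exact b.orthonormal.2 (show (0 : Fin 2) ≠ 1 by simp)
  · intro x hx
    have hx' : x ∈ (ℝ ∙ v)ᗮ := by
      rw [Submodule.mem_orthogonal_singleton_iff_inner_left]; exact hx
    have h := b.sum_repr' ⟨x, hx'⟩
    rw [Fin.sum_univ_two] at h
    have h2 := congrArg Subtype.val h
    simp only [Submodule.coe_add, Submodule.coe_smul, Submodule.coe_inner] at h2
    rw [real_inner_comm, real_inner_comm x] at h2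
    exact h2.symm

/-- the isometric parametrisation of the plane -/
theorem isometry_lin2 {f g : E3} (hf : ‖f‖ = 1) (hg : ‖g‖ = 1) (hfg : inner ℝ f g = 0) :
    Isometry (lin2 f g) := by
  rw [AddMonoidHomClass.isometry_iff_norm]
  intro x
  have h : ‖lin2 f g x‖ ^ 2 = ‖x‖ ^ 2 := by
    rw [EuclideanSpace.norm_sq_eq x, Fin.sum_univ_two, ← real_inner_self_eq_norm_sq, lin2_apply]
    have hgf : inner ℝ g f = 0 := by rw [real_inner_comm]; exact hfg
    have hff : inner ℝ f f = (1 : ℝ) := by rw [real_inner_self_eq_norm_sq, hf]; norm_num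
    have hgg : inner ℝ g g = (1 : ℝ) := by rw [real_inner_self_eq_norm_sq, hg]; norm_num
    simp only [inner_add_left, inner_add_right, real_inner_smul_left, real_inner_smul_right,
      hfg, hgf, hff, hgg, Real.norm_eq_abs, sq_abs]
    ring
  exact (pow_left_inj₀ (norm_nonneg _) (norm_nonneg _) (by norm_num)).1 h

theorem inner_lin2_left {f g : E3} (hf : ‖f‖ = 1) (hfg : inner ℝ f g = 0)
    (x : E2) : inner ℝ (lin2 f g x) f = x 0 := by
  have hgf : inner ℝ g f = 0 := by rw [real_inner_comm]; exact hfg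
  rw [lin2_apply, inner_add_left, real_inner_smul_left, real_inner_smul_left, hgf,
    real_inner_self_eq_norm_sq, hf]
  ring

theorem inner_lin2_right {f g : E3} (hg : ‖g‖ = 1) (hfg : inner ℝ f g = 0)
    (x : E2) : inner ℝ (lin2 f g x) g = x 1 := by
  rw [lin2_apply, inner_add_left, real_inner_smul_left, real_inner_smul_left, hfg,
    real_inner_self_eq_norm_sq, hg]
  ring

theorem inner_lin2_normal {f g v : E3} (hf : inner ℝ f v = 0) (hg : inner ℝ g v = 0)
    (x : E2) : inner ℝ (lin2 f g x) v = 0 := by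
  rw [lin2_apply, inner_add_left, real_inner_smul_left, real_inner_smul_left, hf, hg]
  ring

/-- bounded subsets of a plane have finite area -/
theorem area_lt_top (v : E3) (hv : ‖v‖ = 1) (B : Set E3) (hB : Bornology.IsBounded B)
    (hBv : ∀ x ∈ B, inner ℝ x v = 0) : μHE[2] B < ∞ := by
  obtain ⟨f, g, hf, hg, hfg, hfv, hgv, hrep⟩ := exists_plane_basis v hv
  have hiso := isometry_lin2 hf hg hfg
  have hBim : B = lin2 f g '' (lin2 f g ⁻¹' B) := by
    rw [Set.image_preimage_eq_inter_range, Set.inter_eq_left.2]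
    intro x hx
    refine ⟨!₂[inner ℝ x f, inner ℝ x g], ?_⟩
    rw [lin2_apply]
    simp only [Matrix.cons_val_zero, Matrix.cons_val_one]
    exact (hrep x (hBv x hx)).symm
  rw [hBim, hiso.euclideanHausdorffMeasure_image, EuclideanSpace.euclideanHausdorffMeasure_eq_volume]
  have hb : Bornology.IsBounded (lin2 f g ⁻¹' B) := by
    have := hiso.antilipschitz.isBounded_preimage hB
    exact this
  exact hb.measure_lt_top

/-- A compact subset of the plane `v^⊥` has a bounded relatively open neighbourhood in the plane of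
nearly the same area. -/
theorem exists_open_base (v : E3) (hv : ‖v‖ = 1) (B : Set E3) (hB : IsCompact B)
    (hBv : ∀ x ∈ B, inner ℝ x v = 0) (η : ℝ) (hη : 0 < η) :
    ∃ B' : Set E3, Bornology.IsBounded B' ∧
      (∃ O : Set E3, IsOpen O ∧ B' = O ∩ {x | inner ℝ x v = 0}) ∧ B ⊆ B' ∧
      (μHE[2] B').toReal ≤ (μHE[2] B).toReal + η := by
  obtain ⟨f, g, hf, hg, hfg, hfv, hgv, hrep⟩ := exists_plane_basis v hv
  have hiso := isometry_lin2 hf hg hfg
  have hBim : B = lin2 f g '' (lin2 f g ⁻¹' B) := by
    rw [Set.image_preimage_eq_inter_range, Set.inter_eq_left.2]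
    intro x hx
    refine ⟨!₂[inner ℝ x f, inner ℝ x g], ?_⟩
    rw [lin2_apply]
    simp only [Matrix.cons_val_zero, Matrix.cons_val_one]
    exact (hrep x (hBv x hx)).symm
  set C := lin2 f g ⁻¹' B with hC
  have hCb : Bornology.IsBounded C := hiso.antilipschitz.isBounded_preimage hB.isBounded
  have hCfin : volume C ≠ ∞ := hCb.measure_lt_top.ne
  have hη' : ENNReal.ofReal η ≠ 0 := by
    rw [Ne, ENNReal.ofReal_eq_zero, not_le]; exact hη
  obtain ⟨U, hCU, hU, hUm⟩ := C.exists_isOpen_lt_add hCfin hη'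
  obtain ⟨ρ, hρ⟩ := hCb.subset_ball 0
  set V := U ∩ Metric.ball 0 ρ with hV
  have hVo : IsOpen V := hU.inter Metric.isOpen_ball
  have hCV : C ⊆ V := Set.subset_inter hCU hρ
  have hVm : volume V ≤ volume C + ENNReal.ofReal η :=
    (measure_mono Set.inter_subset_left).trans hUm.le
  refine ⟨lin2 f g '' V, ?_, ⟨{x | (!₂[inner ℝ x f, inner ℝ x g] : E2) ∈ V}, ?_, ?_⟩, ?_, ?_⟩
  · have : Bornology.IsBounded V := Metric.isBounded_ball.subset Set.inter_subset_right
    exact hiso.lipschitz.isBounded_image this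
  · have hcont : Continuous (fun x : E3 => (!₂[inner ℝ x f, inner ℝ x g] : E2)) := by
      apply (PiLp.continuous_toLp 2 _).comp
      apply continuous_pi
      intro i
      fin_cases i
      · simpa using continuous_id.inner continuous_const
      · simpa using continuous_id.inner continuous_const
    exact hVo.preimage hcont
  · ext x
    constructor
    · rintro ⟨y, hy, rfl⟩
      refine ⟨?_, inner_lin2_normal hfv hgv y⟩
      change (!₂[inner ℝ (lin2 f g y) f, inner ℝ (lin2 f g y) g] : E2) ∈ V
      rw [inner_lin2_left hf hfg, inner_lin2_right hg hfg]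
      have : (!₂[y 0, y 1] : E2) = y := by ext i; fin_cases i <;> rfl
      rw [this]; exact hy
    · rintro ⟨hx1, hx2⟩
      refine ⟨_, hx1, ?_⟩
      rw [lin2_apply]
      simp only [Matrix.cons_val_zero, Matrix.cons_val_one]
      exact (hrep x hx2).symm
  · rw [hBim]; exact Set.image_mono hCV
  · rw [hBim, hiso.euclideanHausdorffMeasure_image, hiso.euclideanHausdorffMeasure_image,
      EuclideanSpace.euclideanHausdorffMeasure_eq_volume]
    calc (volume V).toReal ≤ (volume C + ENNReal.ofReal η).toReal :=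
          ENNReal.toReal_mono (by simp [hCfin]) hVm
      _ = (volume C).toReal + η := by
          rw [ENNReal.toReal_add hCfin (by simp), ENNReal.toReal_ofReal hη.le]

end Crest.Agent.LibPlane3
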