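import Mathlib

set_option autoImplicit false

namespace Crest.Agent.LibSmoothFlow

open scoped Topology ContDiff NNReal
open Set Filter

section Nemytskii

universe u

variable {K : Type*} [TopologicalSpace K] [CompactSpace K]

/-- Pointwise application of a continuous family of continuous linear maps. -/
noncomputable def applyL (K : Type*) [TopologicalSpace K] [CompactSpace K]
    (E F : Type*) [NormedAddCommGroup E] [NormedSpace ℝ E]
    [NormedAddCommGroup F] [NormedSpace ℝ F] :
    C(K, E →L[ℝ] F) →L[ℝ] (C(K, E) →L[ℝ] C(K, F)) :=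
  LinearMap.mkContinuous₂
    (LinearMap.mk₂' ℝ ℝ
      (fun (A : C(K, E →L[ℝ] F)) (β : C(K, E)) =>
        (⟨fun t => A t (β t), A.continuous.clm_apply β.continuous⟩ : C(K, F)))
      (by intros; ext; simp) (by intros; ext; simp) (by intros; ext; simp)
      (by intros; ext; simp)) 1
    (by
      intro A β
      rw [ContinuousMap.norm_le _ (by positivity)]
      intro t
      simp only [LinearMap.mk₂'_apply, ContinuousMap.coe_mk, one_mul]
      calc ‖A t (β t)‖ ≤ ‖A t‖ * ‖β t‖ := (A t).le_opNorm _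
        _ ≤ ‖A‖ * ‖β‖ := by
          gcongr
          · exact ContinuousMap.norm_coe_le_norm A t
          · exact ContinuousMap.norm_coe_le_norm β t)

@[simp]
theorem applyL_apply {E F : Type*} [NormedAddCommGroup E] [NormedSpace ℝ E]
    [NormedAddCommGroup F] [NormedSpace ℝ F] (A : C(K, E →L[ℝ] F)) (β : C(K, E)) (t : K) :
    applyL K E F A β t = A t (β t) := rfl

theorem norm_applyL_apply_le {E F : Type*} [NormedAddCommGroup E] [NormedSpace ℝ E]
    [NormedAddCommGroup F] [NormedSpace ℝ F] (A : C(K, E →L[ℝ] F)) (β : C(K, E)) :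
    ‖applyL K E F A β‖ ≤ ‖A‖ * ‖β‖ := by
  rw [ContinuousMap.norm_le _ (by positivity)]
  intro t
  calc ‖A t (β t)‖ ≤ ‖A t‖ * ‖β t‖ := (A t).le_opNorm _
    _ ≤ ‖A‖ * ‖β‖ := by
      gcongr
      · exact ContinuousMap.norm_coe_le_norm A t
      · exact ContinuousMap.norm_coe_le_norm β t

/-- The Nemytskii (superposition) operator has the expected derivative. -/
theorem hasFDerivAt_comp {E F : Type*} [NormedAddCommGroup E] [NormedSpace ℝ E]
    [NormedAddCommGroup F] [NormedSpace ℝ F] (g : C(E, F)) (g' : C(E, E →L[ℝ] F))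
    (hg : ∀ x, HasFDerivAt g (g' x) x) (α : C(K, E)) :
    HasFDerivAt (fun β : C(K, E) => g.comp β) (applyL K E F (g'.comp α)) α := by
  rw [hasFDerivAt_iff_isLittleO]
  rw [Asymptotics.isLittleO_iff]
  intro c hc
  have hcont : Continuous (fun β : C(K, E) => g'.comp β) := ContinuousMap.continuous_postcomp g'
  have h1 : ∀ᶠ β in 𝓝 α, dist (g'.comp β) (g'.comp α) < c :=
    (Metric.tendsto_nhds.1 (hcont.tendsto α)) c hc
  obtain ⟨δ, hδ, hball⟩ := Metric.eventually_nhds_iff_ball.1 h1
  filter_upwards [Metric.ball_mem_nhds α hδ] with β hβ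
  rw [ContinuousMap.norm_le _ (by positivity)]
  intro t
  have hseg : ∀ y ∈ Metric.ball (α t) δ, ‖g' y - g' (α t)‖ ≤ c := by
    intro y hy
    have hmem : α + ContinuousMap.const K (y - α t) ∈ Metric.ball α δ := by
      rw [Metric.mem_ball, dist_eq_norm]
      have : α + ContinuousMap.const K (y - α t) - α = ContinuousMap.const K (y - α t) := by
        abel
      rw [this]
      rw [ContinuousMap.norm_lt_iff _ hδ]
      intro s
      simpa [dist_eq_norm] using hy
    have h2 := hball _ hmem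
    have h3 := (ContinuousMap.dist_apply_le_dist (f := g'.comp (α + ContinuousMap.const K (y - α t)))
      (g := g'.comp α) t).trans h2.le
    simpa [dist_eq_norm] using h3
  have hβt : β t ∈ Metric.ball (α t) δ := by
    rw [Metric.mem_ball]
    exact (ContinuousMap.dist_apply_le_dist t).trans_lt hβ
  have h4 := Convex.norm_image_sub_le_of_norm_hasFDerivWithin_le' (f := g) (f' := g')
    (φ := g' (α t)) (s := Metric.ball (α t) δ) (C := c)
    (fun x _ => (hg x).hasFDerivWithinAt) hseg (convex_ball _ _) (Metric.mem_ball_self hδ) hβt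
  simp only [ContinuousMap.sub_apply, ContinuousMap.comp_apply, applyL_apply]
  refine h4.trans ?_
  gcongr
  have := ContinuousMap.norm_coe_le_norm (β - α) t
  simpa using this

theorem contDiff_comp_nat {E : Type u} [NormedAddCommGroup E] [NormedSpace ℝ E] (n : ℕ) :
    ∀ {F : Type u} [NormedAddCommGroup F] [NormedSpace ℝ F] (g : C(E, F)),
      ContDiff ℝ n g → ContDiff ℝ n (fun β : C(K, E) => g.comp β) := by
  induction n with
  | zero =>
    intro F _ _ g _
    have : ContDiff ℝ 0 (fun β : C(K, E) => g.comp β) := by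
      rw [contDiff_zero]
      exact ContinuousMap.continuous_postcomp g
    exact_mod_cast this
  | succ n ih =>
    intro F _ _ g hg
    have hg' : ContDiff ℝ ((n : WithTop ℕ∞) + 1) g := by exact_mod_cast hg
    obtain ⟨g', hg'c, hg'd⟩ := contDiff_succ_iff_hasFDerivAt.1 hg'
    have : ContDiff ℝ ((n : WithTop ℕ∞) + 1) (fun β : C(K, E) => g.comp β) := by
      rw [contDiff_succ_iff_hasFDerivAt]
      refine ⟨fun α => applyL K E F ((⟨g', hg'c.continuous⟩ : C(E, E →L[ℝ] F)).comp α), ?_, ?_⟩
      · exact (applyL K E F).contDiff.comp (ih ⟨g', hg'c.continuous⟩ hg'c)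
      · intro α
        exact hasFDerivAt_comp g ⟨g', hg'c.continuous⟩ hg'd α
    exact_mod_cast this

theorem contDiff_comp {E : Type u} [NormedAddCommGroup E] [NormedSpace ℝ E]
    {F : Type u} [NormedAddCommGroup F] [NormedSpace ℝ F] (g : C(E, F))
    (hg : ContDiff ℝ ∞ g) : ContDiff ℝ ∞ (fun β : C(K, E) => g.comp β) := by
  rw [contDiff_infty] at hg ⊢
  exact fun n => contDiff_comp_nat n g (hg n)

end Nemytskii

section Flow

universe u

/-- The time interval `[-1, 1]`. -/
abbrev J : Set ℝ := Set.Icc (-1 : ℝ) 1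

theorem neg_one_le_one : (-1 : ℝ) ≤ 1 := by norm_num

/-- The point `0` of `J`. -/
def J0 : J := ⟨0, by norm_num, by norm_num⟩
/-- The point `1` of `J`. -/
def J1 : J := ⟨1, by norm_num, by norm_num⟩

variable {E : Type u} [NormedAddCommGroup E] [NormedSpace ℝ E]

omit [NormedSpace ℝ E] in
theorem continuous_ext (α : C(J, E)) :
    Continuous (fun σ : ℝ => α (projIcc (-1) 1 neg_one_le_one σ)) :=
  α.continuous.comp continuous_projIcc

/-- The primitive vanishing at `0`, as a continuous linear operator on `C([-1,1], E)`. -/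
noncomputable def primL (E : Type*) [NormedAddCommGroup E] [NormedSpace ℝ E] :
    C(J, E) →L[ℝ] C(J, E) :=
  LinearMap.mkContinuous
    { toFun := fun α =>
        ⟨fun τ => ∫ σ in (0:ℝ)..τ, α (projIcc (-1) 1 neg_one_le_one σ),
          (intervalIntegral.continuous_primitive
            (fun a b => (continuous_ext α).intervalIntegrable a b) 0).comp
            continuous_subtype_val⟩
      map_add' := by
        intro α β
        ext τ
        simp only [ContinuousMap.add_apply, ContinuousMap.coe_mk]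
        exact intervalIntegral.integral_add ((continuous_ext α).intervalIntegrable _ _)
          ((continuous_ext β).intervalIntegrable _ _)
      map_smul' := by
        intro c α
        ext τ
        simp only [ContinuousMap.smul_apply, ContinuousMap.coe_mk, RingHom.id_apply]
        exact intervalIntegral.integral_smul c _ } 1
    (by
      intro α
      rw [ContinuousMap.norm_le _ (by positivity)]
      rintro ⟨τ, hτ⟩
      simp only [LinearMap.coe_mk, AddHom.coe_mk, ContinuousMap.coe_mk, one_mul]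
      have h1 := intervalIntegral.norm_integral_le_of_norm_le_const (a := (0:ℝ)) (b := τ)
        (f := fun σ => α (projIcc (-1) 1 neg_one_le_one σ)) (C := ‖α‖)
        (fun x _ => ContinuousMap.norm_coe_le_norm α _)
      have h2 : |τ - 0| ≤ 1 := by
        rw [sub_zero, abs_le]; exact ⟨hτ.1, hτ.2⟩
      calc _ ≤ ‖α‖ * |τ - 0| := h1
        _ ≤ ‖α‖ * 1 := by gcongr
        _ = ‖α‖ := mul_one _)

theorem primL_apply (α : C(J, E)) (τ : J) :
    primL E α τ = ∫ σ in (0:ℝ)..τ, α (projIcc (-1) 1 neg_one_le_one σ) := rfl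

theorem norm_primL_le (α : C(J, E)) : ‖primL E α‖ ≤ ‖α‖ := by
  have h := (primL E).le_opNorm α
  have h2 : ‖primL E‖ ≤ 1 := LinearMap.mkContinuous_norm_le _ zero_le_one _
  calc ‖primL E α‖ ≤ ‖primL E‖ * ‖α‖ := h
    _ ≤ 1 * ‖α‖ := by gcongr
    _ = ‖α‖ := one_mul _


/-- Constant maps, as a continuous linear operator. -/
noncomputable def constL (E : Type*) [NormedAddCommGroup E] [NormedSpace ℝ E] :
    E →L[ℝ] C(J, E) :=
  LinearMap.mkContinuous
    { toFun := fun x => ContinuousMap.const J x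
      map_add' := by intros; ext; simp
      map_smul' := by intros; ext; simp } 1
    (by
      intro x
      rw [ContinuousMap.norm_le _ (by positivity)]
      intro t
      simp)

@[simp] theorem constL_apply (x : E) (t : J) : constL E x t = x := rfl

/-- The defining equation of rescaled integral curves: `Θ ((s, x), α) = 0` iff
`α τ = x + s ∫₀^τ X (α σ) dσ`. -/
noncomputable def Theta (X : C(E, E)) (p : (ℝ × E) × C(J, E)) : C(J, E) :=
  p.2 - constL E p.1.2 - p.1.1 • primL E (X.comp p.2)

theorem contDiff_Theta (X : C(E, E)) (hX : ContDiff ℝ ∞ X) : ContDiff ℝ ∞ (Theta X) := by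
  unfold Theta
  have h1 : ContDiff ℝ ∞ (fun p : (ℝ × E) × C(J, E) => X.comp p.2) :=
    (contDiff_comp X hX).comp contDiff_snd
  have h2 : ContDiff ℝ ∞ (fun p : (ℝ × E) × C(J, E) => primL E (X.comp p.2)) :=
    (primL E).contDiff.comp h1
  have h3 : ContDiff ℝ ∞ (fun p : (ℝ × E) × C(J, E) => constL E p.1.2) :=
    (constL E).contDiff.comp (contDiff_snd.comp contDiff_fst)
  have h4 : ContDiff ℝ ∞ (fun p : (ℝ × E) × C(J, E) => p.1.1) :=
    contDiff_fst.comp contDiff_fst
  exact (contDiff_snd.sub h3).sub (h4.smul h2)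

omit [NormedSpace ℝ E] in
theorem norm_comp_sub_le (X : C(E, E)) (L : ℝ≥0) (hL : LipschitzWith L X) (α β : C(J, E)) :
    ‖X.comp α - X.comp β‖ ≤ L * ‖α - β‖ := by
  rw [ContinuousMap.norm_le _ (by positivity)]
  intro t
  have h1 := hL.dist_le_mul (α t) (β t)
  rw [dist_eq_norm, dist_eq_norm] at h1
  refine h1.trans ?_
  gcongr
  exact ContinuousMap.norm_coe_le_norm (α - β) t

theorem Theta_eq_zero_iff (X : C(E, E)) (s : ℝ) (x : E) (α : C(J, E)) :
    Theta X ((s, x), α) = 0 ↔ α = constL E x + s • primL E (X.comp α) := by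
  unfold Theta
  constructor
  · intro h
    have : α = (α - constL E x - s • primL E (X.comp α)) +
      (constL E x + s • primL E (X.comp α)) := by abel
    rw [this]
    simp only at h
    rw [h, zero_add]
    congr 1
    rw [← sub_eq_zero]
    have h' : α = constL E x + s • primL E (X.comp α) := by
      rw [sub_sub, sub_eq_zero] at h; exact h
    rw [← h']
    simp
  · intro h
    simp only
    rw [sub_sub, sub_eq_zero]; exact h

theorem Theta_unique (X : C(E, E)) (L : ℝ≥0) (hL : LipschitzWith L X) (s : ℝ) (hs : |s| * L < 1)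
    (x : E) (α β : C(J, E)) (hα : Theta X ((s, x), α) = 0) (hβ : Theta X ((s, x), β) = 0) :
    α = β := by
  rw [Theta_eq_zero_iff] at hα hβ
  have h1 : α - β = s • primL E (X.comp α - X.comp β) := by
    rw [map_sub, smul_sub]
    nth_rewrite 1 [hα]
    nth_rewrite 1 [hβ]
    abel
  have h2 : ‖α - β‖ ≤ |s| * L * ‖α - β‖ := by
    calc ‖α - β‖ = ‖s • primL E (X.comp α - X.comp β)‖ := by rw [← h1]
      _ = |s| * ‖primL E (X.comp α - X.comp β)‖ := by rw [norm_smul, Real.norm_eq_abs]
      _ ≤ |s| * ‖X.comp α - X.comp β‖ := by gcongr; exact norm_primL_le _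
      _ ≤ |s| * (L * ‖α - β‖) := by gcongr; exact norm_comp_sub_le X L hL α β
      _ = |s| * L * ‖α - β‖ := by ring
  have h3 : ‖α - β‖ = 0 := by
    by_contra hne
    have hpos : 0 < ‖α - β‖ := lt_of_le_of_ne (norm_nonneg _) (Ne.symm hne)
    nlinarith
  exact sub_eq_zero.1 (norm_eq_zero.1 h3)

theorem exists_Theta_eq_zero [CompleteSpace E] (X : C(E, E)) (L : ℝ≥0) (hL : LipschitzWith L X)
    (s : ℝ) (hs : |s| * L < 1) (x : E) : ∃ α : C(J, E), Theta X ((s, x), α) = 0 := by
  have hK : LipschitzWith (⟨|s| * L, by positivity⟩ : ℝ≥0)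
      (fun α : C(J, E) => constL E x + s • primL E (X.comp α)) := by
    apply LipschitzWith.of_dist_le_mul
    intro α β
    rw [dist_eq_norm, dist_eq_norm]
    have h1 : (constL E x + s • primL E (X.comp α)) - (constL E x + s • primL E (X.comp β)) =
      s • primL E (X.comp α - X.comp β) := by
      rw [map_sub, smul_sub]; abel
    rw [h1]
    calc ‖s • primL E (X.comp α - X.comp β)‖
        = |s| * ‖primL E (X.comp α - X.comp β)‖ := by rw [norm_smul, Real.norm_eq_abs]
      _ ≤ |s| * ‖X.comp α - X.comp β‖ := by gcongr; exact norm_primL_le _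
      _ ≤ |s| * (L * ‖α - β‖) := by gcongr; exact norm_comp_sub_le X L hL α β
      _ = |s| * L * ‖α - β‖ := by ring
  have hc : ContractingWith (⟨|s| * L, by positivity⟩ : ℝ≥0)
      (fun α : C(J, E) => constL E x + s • primL E (X.comp α)) := by
    refine ⟨?_, hK⟩
    rw [← NNReal.coe_lt_coe]
    exact hs
  refine ⟨hc.fixedPoint _, ?_⟩
  rw [Theta_eq_zero_iff]
  exact hc.fixedPoint_isFixedPt.symm

/-- The rescaled integral curve `τ ↦ φ (s τ) x`, `τ ∈ [-1, 1]`. -/
noncomputable def curve [CompleteSpace E] (X : C(E, E)) (s : ℝ) (x : E) : C(J, E) := by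
  classical
  exact if h : ∃ α : C(J, E), Theta X ((s, x), α) = 0 then h.choose else 0

theorem Theta_curve [CompleteSpace E] (X : C(E, E)) (L : ℝ≥0) (hL : LipschitzWith L X)
    (s : ℝ) (hs : |s| * L < 1) (x : E) : Theta X ((s, x), curve X s x) = 0 := by
  have h := exists_Theta_eq_zero X L hL s hs x
  unfold curve
  rw [dif_pos h]
  exact h.choose_spec

theorem curve_unique [CompleteSpace E] (X : C(E, E)) (L : ℝ≥0) (hL : LipschitzWith L X)
    (s : ℝ) (hs : |s| * L < 1) (x : E) (α : C(J, E)) (hα : Theta X ((s, x), α) = 0) :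
    curve X s x = α :=
  Theta_unique X L hL s hs x _ _ (Theta_curve X L hL s hs x) hα

theorem isInvertible_partial [CompleteSpace E] (X : C(E, E)) (hX : ContDiff ℝ ∞ X) (L : ℝ≥0)
    (hL : LipschitzWith L X) (u : (ℝ × E) × C(J, E)) (hs : |u.1.1| * L < 1) :
    (fderiv ℝ (Theta X) u ∘L ContinuousLinearMap.inr ℝ (ℝ × E) C(J, E)).IsInvertible := by
  have hcont : Continuous (fun x => fderiv ℝ X x) := hX.continuous_fderiv (by simp)
  set X' : C(E, E →L[ℝ] E) := ⟨fun x => fderiv ℝ X x, hcont⟩ with hX'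
  have hd : ∀ x, HasFDerivAt X (X' x) x := fun x =>
    (hX.differentiable (by simp) x).hasFDerivAt
  set T : C(J, E) →L[ℝ] C(J, E) := u.1.1 • (primL E ∘L applyL J E E (X'.comp u.2)) with hT
  have hTn : ‖T‖ < 1 := by
    refine lt_of_le_of_lt (ContinuousLinearMap.opNorm_le_bound _ (M := |u.1.1| * L) (by positivity) ?_) hs
    intro β
    have h1 : ‖X'.comp u.2‖ ≤ L := by
      rw [ContinuousMap.norm_le _ (by positivity)]
      intro t
      exact norm_fderiv_le_of_lipschitz ℝ hL
    calc ‖T β‖ = |u.1.1| * ‖primL E (applyL J E E (X'.comp u.2) β)‖ := by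
          rw [hT]
          simp only [smul_apply, ContinuousLinearMap.comp_apply, norm_smul,
            Real.norm_eq_abs]
      _ ≤ |u.1.1| * ‖applyL J E E (X'.comp u.2) β‖ := by gcongr; exact norm_primL_le _
      _ ≤ |u.1.1| * (‖X'.comp u.2‖ * ‖β‖) := by gcongr; exact norm_applyL_apply_le _ _
      _ ≤ |u.1.1| * (L * ‖β‖) := by gcongr
      _ = |u.1.1| * L * ‖β‖ := by ring
  have h1 : HasFDerivAt (fun α => Theta X (u.1, α))
      (fderiv ℝ (Theta X) u ∘L ContinuousLinearMap.inr ℝ (ℝ × E) C(J, E)) u.2 := by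
    have := ((contDiff_Theta X hX).differentiable (by simp) u).hasFDerivAt
    exact HasFDerivAt.comp (f := fun α : C(J, E) => (u.1, α)) u.2 this
      (hasFDerivAt_prodMk_right u.1 u.2)
  have h2 : HasFDerivAt (fun α => Theta X (u.1, α))
      (ContinuousLinearMap.id ℝ _ - 0 - T) u.2 := by
    unfold Theta
    simp only
    refine ((hasFDerivAt_id u.2).sub (hasFDerivAt_const _ _)).sub ?_
    exact (((primL E).hasFDerivAt).comp u.2 (hasFDerivAt_comp X X' hd u.2)).const_smul u.1.1
  rw [h1.unique h2]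
  have h3 : IsUnit (1 - T) := (Units.oneSub T hTn).isUnit
  obtain ⟨v, hv⟩ := h3
  have h4 : (ContinuousLinearMap.id ℝ C(J, E) - 0 - T) = (v : C(J, E) →L[ℝ] C(J, E)) := by
    rw [hv, sub_zero]; rfl
  rw [h4]
  refine ContinuousLinearMap.IsInvertible.of_inverse (g := ((v⁻¹ : _ˣ) : C(J, E) →L[ℝ] C(J, E))) ?_ ?_
  · exact v.mul_inv
  · exact v.inv_mul


theorem contDiffAt_curve [CompleteSpace E] (X : C(E, E)) (hX : ContDiff ℝ ∞ X) (L : ℝ≥0)
    (hL : LipschitzWith L X) (s : ℝ) (hs : |s| * L < 1) (x : E) :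
    ContDiffAt ℝ ∞ (fun p : ℝ × E => curve X p.1 p.2) (s, x) := by
  set u : (ℝ × E) × C(J, E) := ((s, x), curve X s x) with hu
  have hΘ : ContDiffAt ℝ ∞ (Theta X) u := (contDiff_Theta X hX).contDiffAt
  have hinv := isInvertible_partial X hX L hL u hs
  have h1 := hΘ.contDiffAt_implicitFunction (by simp) hinv
  have h2 := hΘ.eventually_apply_implicitFunction (by simp) hinv
  refine h1.congr_of_eventuallyEq ?_
  have h3 : ∀ᶠ p : ℝ × E in 𝓝 u.1, |p.1| * L < 1 := by
    have : Continuous (fun p : ℝ × E => |p.1| * (L : ℝ)) := by fun_prop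
    exact this.continuousAt.eventually (gt_mem_nhds hs)
  filter_upwards [h2, h3] with p hp1 hp2
  refine curve_unique X L hL p.1 hp2 p.2 _ ?_
  rw [hp1]
  exact Theta_curve X L hL s hs x

/-- The flow of `X` (meaningful for `|s| * L < 1`). -/
noncomputable def flow [CompleteSpace E] (X : C(E, E)) (s : ℝ) (x : E) : E := curve X s x J1

theorem contDiffAt_flow [CompleteSpace E] (X : C(E, E)) (hX : ContDiff ℝ ∞ X) (L : ℝ≥0)
    (hL : LipschitzWith L X) (s : ℝ) (hs : |s| * L < 1) (x : E) :
    ContDiffAt ℝ ∞ (fun p : ℝ × E => flow X p.1 p.2) (s, x) := by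
  have h1 := contDiffAt_curve X hX L hL s hs x
  have h2 : ContDiff ℝ ∞ (fun α : C(J, E) => α J1) :=
    (ContinuousMap.evalCLM ℝ J1 : C(J, E) →L[ℝ] E).contDiff
  exact h2.contDiffAt.comp (s, x) h1

theorem curve_apply [CompleteSpace E] (X : C(E, E)) (L : ℝ≥0) (hL : LipschitzWith L X)
    (s : ℝ) (hs : |s| * L < 1) (x : E) (τ : J) :
    curve X s x τ = x + s • ∫ σ in (0:ℝ)..τ, X (curve X s x (projIcc (-1) 1 neg_one_le_one σ)) := by
  have h := Theta_curve X L hL s hs x
  rw [Theta_eq_zero_iff] at h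
  nth_rewrite 1 [h]
  rfl

theorem curve_zero_time [CompleteSpace E] (X : C(E, E)) (L : ℝ≥0) (hL : LipschitzWith L X)
    (s : ℝ) (hs : |s| * L < 1) (x : E) : curve X s x J0 = x := by
  rw [curve_apply X L hL s hs x]
  simp [J0]

/-- `curve X s x τ = flow X (s * τ) x`. -/
theorem curve_eq_flow [CompleteSpace E] (X : C(E, E)) (L : ℝ≥0) (hL : LipschitzWith L X)
    (s : ℝ) (hs : |s| * L < 1) (x : E) (τ : J) :
    curve X s x τ = flow X (s * τ) x := by
  have hτ : |(τ : ℝ)| ≤ 1 := abs_le.2 τ.2
  have hmem : ∀ σ : J, (τ : ℝ) * σ ∈ J := by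
    intro σ
    have hσ : |(σ : ℝ)| ≤ 1 := abs_le.2 σ.2
    have : |(τ : ℝ) * σ| ≤ 1 := by
      rw [abs_mul]; nlinarith [abs_nonneg (τ : ℝ), abs_nonneg (σ : ℝ)]
    exact abs_le.1 this
  have hs' : |s * τ| * L < 1 := by
    rw [abs_mul]
    have : |s| * |(τ : ℝ)| * L ≤ |s| * 1 * L := by gcongr
    rw [mul_one] at this
    exact this.trans_lt hs
  set β : C(J, E) := ⟨fun σ => curve X s x ⟨τ * σ, hmem σ⟩, by fun_prop⟩ with hβ
  have h1 : curve X (s * τ) x = β := by
    refine curve_unique X L hL _ hs' x _ ?_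
    rw [Theta_eq_zero_iff]
    ext σ
    simp only [ContinuousMap.add_apply, constL_apply, ContinuousMap.smul_apply, primL_apply,
      ContinuousMap.comp_apply]
    have h2 : β σ = curve X s x ⟨τ * σ, hmem σ⟩ := rfl
    rw [h2, curve_apply X L hL s hs x]
    congr 1
    simp only
    rw [mul_smul]
    congr 1
    have h3 := intervalIntegral.smul_integral_comp_mul_left (a := (0:ℝ)) (b := (σ : ℝ))
      (fun r => X (curve X s x (projIcc (-1) 1 neg_one_le_one r))) (τ : ℝ)
    rw [mul_zero] at h3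
    rw [← h3]
    congr 1
    apply intervalIntegral.integral_congr
    intro r hr
    have hr' : r ∈ J := by
      have : r ∈ uIcc (0:ℝ) σ := hr
      have h0 : (0 : ℝ) ∈ J := ⟨by norm_num, by norm_num⟩
      exact (Set.ordConnected_Icc.uIcc_subset h0 σ.2) this
    have h4 : projIcc (-1) 1 neg_one_le_one r = ⟨r, hr'⟩ := projIcc_of_mem neg_one_le_one hr'
    have h5 : projIcc (-1) 1 neg_one_le_one ((τ : ℝ) * r) = ⟨τ * r, hmem ⟨r, hr'⟩⟩ :=
      projIcc_of_mem neg_one_le_one (hmem ⟨r, hr'⟩)
    simp only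
    rw [h4, h5]
    rfl
  unfold flow
  rw [h1]
  simp [hβ, J1]

theorem flow_zero [CompleteSpace E] (X : C(E, E)) (L : ℝ≥0) (hL : LipschitzWith L X) (x : E) :
    flow X 0 x = x := by
  unfold flow
  rw [curve_apply X L hL 0 (by simp) x]
  simp

theorem hasDerivAt_flow [CompleteSpace E] (X : C(E, E)) (L : ℝ≥0) (hL : LipschitzWith L X)
    (s : ℝ) (hs : |s| * L < 1) (x : E) :
    HasDerivAt (fun s => flow X s x) (X (flow X s x)) s := by
  obtain ⟨s1, hs1, hs1L⟩ : ∃ s1 : ℝ, |s| < s1 ∧ s1 * L < 1 := by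
    rcases eq_or_lt_of_le (NNReal.coe_nonneg L) with h0 | hpos
    · exact ⟨|s| + 1, by linarith, by rw [← h0]; simp⟩
    · obtain ⟨s1, h1, h2⟩ := exists_between ((lt_div_iff₀ hpos).2 hs)
      exact ⟨s1, h1, (lt_div_iff₀ hpos).1 h2⟩
  have hs1pos : 0 < s1 := (abs_nonneg s).trans_lt hs1
  have hs1abs : |s1| * L < 1 := by rwa [abs_of_pos hs1pos]
  set G : ℝ → E := fun τ => x + s1 • ∫ σ in (0:ℝ)..τ,
    X (curve X s1 x (projIcc (-1) 1 neg_one_le_one σ)) with hG
  have hmem : ∀ t : ℝ, |t| < s1 → t / s1 ∈ J := by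
    intro t ht
    have : |t / s1| ≤ 1 := by
      rw [abs_div, abs_of_pos hs1pos, div_le_one hs1pos]; exact ht.le
    exact abs_le.1 this
  have h1 : ∀ t : ℝ, (ht : |t| < s1) → flow X t x = G (t / s1) := by
    intro t ht
    have h2 := curve_eq_flow X L hL s1 hs1abs x ⟨t / s1, hmem t ht⟩
    have h3 : s1 * (t / s1) = t := by field_simp
    simp only [h3] at h2
    rw [← h2, curve_apply X L hL s1 hs1abs x]
  have hev : (fun t => flow X t x) =ᶠ[𝓝 s] (fun t => G (t / s1)) := by
    have : ∀ᶠ t : ℝ in 𝓝 s, |t| < s1 :=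
      continuous_abs.continuousAt.eventually (gt_mem_nhds hs1)
    filter_upwards [this] with t ht using h1 t ht
  have hcont : Continuous (fun σ : ℝ => X (curve X s1 x (projIcc (-1) 1 neg_one_le_one σ))) :=
    X.continuous.comp (continuous_ext _)
  have hGd : HasDerivAt G (s1 • X (curve X s1 x (projIcc (-1) 1 neg_one_le_one (s / s1))))
      (s / s1) := by
    have h5 := intervalIntegral.integral_hasDerivAt_right
      (hcont.intervalIntegrable 0 (s / s1))
      (hcont.stronglyMeasurableAtFilter _ _) hcont.continuousAt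
    exact (h5.const_smul s1).const_add x
  have hdiv : HasDerivAt (fun t : ℝ => t / s1) (1 / s1) s := (hasDerivAt_id s).div_const s1
  have h6 := (HasDerivAt.scomp (h := fun t : ℝ => t / s1) s hGd hdiv)
  have h7 : (1 / s1) • s1 • X (curve X s1 x (projIcc (-1) 1 neg_one_le_one (s / s1))) =
      X (flow X s x) := by
    rw [smul_smul]
    have : 1 / s1 * s1 = 1 := by field_simp
    rw [this, one_smul]
    congr 1
    rw [projIcc_of_mem neg_one_le_one (hmem s hs1)]
    rw [curve_eq_flow X L hL s1 hs1abs x]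
    congr 1
    simp only
    field_simp
  rw [h7] at h6
  exact h6.congr_of_eventuallyEq hev

theorem norm_curve_sub_le [CompleteSpace E] (X : C(E, E)) (L : ℝ≥0) (hL : LipschitzWith L X)
    (s : ℝ) (hs : |s| * L ≤ 1 / 2) (x : E) :
    ‖curve X s x - constL E x‖ ≤ 2 * |s| * ‖X x‖ := by
  have hs' : |s| * L < 1 := by linarith
  have h := Theta_curve X L hL s hs' x
  rw [Theta_eq_zero_iff] at h
  have h1 : curve X s x - constL E x = s • primL E (X.comp (curve X s x)) := by
    nth_rewrite 1 [h]; abel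
  have h2 : ‖X.comp (curve X s x)‖ ≤ ‖X x‖ + L * ‖curve X s x - constL E x‖ := by
    have h3 := norm_comp_sub_le X L hL (curve X s x) (constL E x)
    have h4 : ‖X.comp (constL E x)‖ ≤ ‖X x‖ := by
      rw [ContinuousMap.norm_le _ (by positivity)]
      intro t
      simp
    calc ‖X.comp (curve X s x)‖ = ‖X.comp (constL E x) +
          (X.comp (curve X s x) - X.comp (constL E x))‖ := by congr 1; abel
      _ ≤ ‖X.comp (constL E x)‖ + ‖X.comp (curve X s x) - X.comp (constL E x)‖ :=
        norm_add_le _ _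
      _ ≤ _ := by gcongr
  have h5 : ‖curve X s x - constL E x‖ ≤
      |s| * (‖X x‖ + L * ‖curve X s x - constL E x‖) := by
    calc ‖curve X s x - constL E x‖ = |s| * ‖primL E (X.comp (curve X s x))‖ := by
          rw [h1, norm_smul, Real.norm_eq_abs]
      _ ≤ |s| * ‖X.comp (curve X s x)‖ := by gcongr; exact norm_primL_le _
      _ ≤ _ := by gcongr
  have h6 := norm_nonneg (curve X s x - constL E x)
  nlinarith [abs_nonneg s, norm_nonneg (X x)]

theorem norm_flow_sub_le [CompleteSpace E] (X : C(E, E)) (L : ℝ≥0) (hL : LipschitzWith L X)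
    (s : ℝ) (hs : |s| * L ≤ 1 / 2) (x : E) :
    ‖flow X s x - x‖ ≤ 2 * |s| * ‖X x‖ := by
  refine le_trans ?_ (norm_curve_sub_le X L hL s hs x)
  exact ContinuousMap.norm_coe_le_norm (curve X s x - constL E x) J1

theorem norm_flow_sub_sub_le [CompleteSpace E] (X : C(E, E)) (L : ℝ≥0) (hL : LipschitzWith L X)
    (s : ℝ) (hs : |s| * L ≤ 1 / 2) (x : E) :
    ‖flow X s x - x - s • X x‖ ≤ 2 * L * s ^ 2 * ‖X x‖ := by
  have hs' : |s| * L < 1 := by linarith
  have h := Theta_curve X L hL s hs' x
  rw [Theta_eq_zero_iff] at h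
  have h1 : curve X s x - constL E x - s • primL E (X.comp (constL E x)) =
      s • primL E (X.comp (curve X s x) - X.comp (constL E x)) := by
    nth_rewrite 1 [h]
    rw [map_sub, smul_sub]; abel
  have h2 : (curve X s x - constL E x - s • primL E (X.comp (constL E x))) J1 =
      flow X s x - x - s • X x := by
    simp only [ContinuousMap.sub_apply, constL_apply, ContinuousMap.smul_apply, primL_apply,
      ContinuousMap.comp_apply]
    unfold flow
    congr 2
    simp [J1]
  rw [← h2]
  calc ‖(curve X s x - constL E x - s • primL E (X.comp (constL E x))) J1‖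
      ≤ ‖curve X s x - constL E x - s • primL E (X.comp (constL E x))‖ :=
        ContinuousMap.norm_coe_le_norm _ _
    _ = |s| * ‖primL E (X.comp (curve X s x) - X.comp (constL E x))‖ := by
        rw [h1, norm_smul, Real.norm_eq_abs]
    _ ≤ |s| * (L * (2 * |s| * ‖X x‖)) := by
        gcongr
        refine (norm_primL_le _).trans ((norm_comp_sub_le X L hL _ _).trans ?_)
        gcongr
        exact norm_curve_sub_le X L hL s hs x
    _ = 2 * L * s ^ 2 * ‖X x‖ := by rw [← sq_abs s]; ring

theorem flow_equivariant [CompleteSpace E] (X : C(E, E)) (L : ℝ≥0) (hL : LipschitzWith L X)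
    (T : E →L[ℝ] E) (hT : ∀ x, X (T x) = T (X x)) (s : ℝ) (hs : |s| * L < 1) (x : E) :
    flow X s (T x) = T (flow X s x) := by
  set β : C(J, E) := ⟨fun σ => T (curve X s x σ), by fun_prop⟩ with hβ
  have h1 : curve X s (T x) = β := by
    refine curve_unique X L hL _ hs _ _ ?_
    rw [Theta_eq_zero_iff]
    ext σ
    simp only [ContinuousMap.add_apply, constL_apply, ContinuousMap.smul_apply, primL_apply,
      ContinuousMap.comp_apply]
    have h2 : ∀ σ, β σ = T (curve X s x σ) := fun _ => rfl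
    simp only [h2, hT]
    rw [curve_apply X L hL s hs x, map_add, map_smul]
    congr 2
    have hcont : Continuous (fun σ : ℝ => X (curve X s x (projIcc (-1) 1 neg_one_le_one σ))) :=
      X.continuous.comp (continuous_ext _)
    exact (T.intervalIntegral_comp_comm (hcont.intervalIntegrable _ _)).symm
  unfold flow
  rw [h1]
  rfl

end Flow

end Crest.Agent.LibSmoothFlow
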