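import Crest.Agent.PIS_A2c

/-!
# S0145 blueprint, task PIS-AU (approximate units)

See `PIS_Defs.lean` for the definitions.
-/

set_option autoImplicit false

universe u

namespace PIS

section

variable {A : Type u} [NonUnitalCStarAlgebra A] [PartialOrder A] [StarOrderedRing A]

/-- `(1-u) x (1-u)` written without a unit. -/
def auPhi (u x : A) : A := x - u * x - x * u + u * x * u

omit [PartialOrder A] [StarOrderedRing A] in
lemma auPhi_add (u x y : A) : auPhi u (x + y) = auPhi u x + auPhi u y := by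
  simp only [auPhi, mul_add, add_mul]; abel

omit [PartialOrder A] [StarOrderedRing A] in
lemma auPhi_sub (u x y : A) : auPhi u (x - y) = auPhi u x - auPhi u y := by
  simp only [auPhi, mul_sub, sub_mul]; abel

omit [PartialOrder A] [StarOrderedRing A] in
lemma auPhi_sum {ι : Type*} (s : Finset ι) (u : A) (x : ι → A) :
    auPhi u (∑ i ∈ s, x i) = ∑ i ∈ s, auPhi u (x i) := by
  classical
  induction s using Finset.induction_on with
  | empty => simp [auPhi]
  | insert a t ha ih => rw [Finset.sum_insert ha, Finset.sum_insert ha, auPhi_add, ih]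

omit [PartialOrder A] [StarOrderedRing A] in
lemma auPhi_mul_star {u : A} (hu : star u = u) (w : A) :
    (w - u * w) * star (w - u * w) = auPhi u (w * star w) := by
  simp only [auPhi, star_sub, star_mul, hu, mul_sub, sub_mul, mul_assoc]; abel

omit [PartialOrder A] [StarOrderedRing A] in
lemma norm_auPhi_mul_star {u : A} (hu : star u = u) (w : A) :
    ‖auPhi u (w * star w)‖ = ‖w - u * w‖ ^ 2 := by
  rw [← auPhi_mul_star hu, CStarRing.norm_self_mul_star, sq]

lemma auPhi_nonneg {u : A} (hu : star u = u) {x : A} (hx : 0 ≤ x) : 0 ≤ auPhi u x := by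
  have h : x = rt x * star (rt x) := by rw [star_rt, rt_mul_rt hx]
  rw [h, ← auPhi_mul_star hu]
  exact mul_star_self_nonneg _

lemma auPhi_mono {u : A} (hu : star u = u) {x y : A} (hxy : x ≤ y) : auPhi u x ≤ auPhi u y := by
  have h := auPhi_nonneg hu (sub_nonneg.2 hxy)
  rw [auPhi_sub] at h
  exact sub_nonneg.1 h

/-- `‖w - u w‖ ≤ ‖w‖` for positive contractions `u`. -/
lemma norm_sub_mul_le_of_contraction {u : A} (hu : 0 ≤ u) (hu1 : ‖u‖ ≤ 1) (w : A) :
    ‖w - u * w‖ ≤ ‖w‖ := by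
  have hus : star u = u := hu.isSelfAdjoint.star_eq
  have huu : u * u ≤ u := mul_self_le hu hu1
  have h1 : star (w - u * w) * (w - u * w) = star w * w - star w * u * w -
      (star w * u * w - star w * (u * u) * w) := by
    simp only [star_sub, star_mul, hus, mul_sub, sub_mul, mul_assoc]
  have h2 : star w * (u * u) * w ≤ star w * u * w := conj_mono huu w
  have h3 : 0 ≤ star w * u * w := conj_nonneg' hu w
  have h4 : star (w - u * w) * (w - u * w) ≤ star w * w := by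
    rw [h1]
    calc star w * w - star w * u * w - (star w * u * w - star w * (u * u) * w)
        ≤ star w * w - star w * u * w := sub_le_self _ (sub_nonneg.2 h2)
      _ ≤ star w * w := sub_le_self _ h3
  have h5 := norm_le_of_le (star_mul_self_nonneg _) h4
  rw [CStarRing.norm_star_mul_self, CStarRing.norm_star_mul_self] at h5
  nlinarith [norm_nonneg w, norm_nonneg (w - u * w)]

/-- `‖(1-u) y (1-u)‖ ≤ ‖y‖` for positive contractions `u`, `y ≥ 0`. -/
lemma norm_auPhi_le {u : A} (hu : 0 ≤ u) (hu1 : ‖u‖ ≤ 1) {y : A} (hy : 0 ≤ y) :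
    ‖auPhi u y‖ ≤ ‖y‖ := by
  have hus : star u = u := hu.isSelfAdjoint.star_eq
  have h : y = rt y * star (rt y) := by rw [star_rt, rt_mul_rt hy]
  have h1 : ‖auPhi u y‖ = ‖rt y - u * rt y‖ ^ 2 := by
    conv_lhs => rw [h]
    exact norm_auPhi_mul_star hus _
  rw [h1, ← norm_rt_sq hy]
  exact pow_le_pow_left₀ (norm_nonneg _) (norm_sub_mul_le_of_contraction hu hu1 _) 2

/-- `(1-u) K (1-u) ≤ σ` for `u = K (K+σ)⁻¹`. -/
lemma norm_auPhi_sg_le {σ : ℝ} (hσ : 0 < σ) {K : A} (hK : 0 ≤ K) :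
    ‖auPhi (sg σ K) K‖ ≤ σ := by
  have hKs : IsSelfAdjoint K := hK.isSelfAdjoint
  have hc : Continuous (sgf σ) := continuous_sgf hσ
  have h0 : sgf σ 0 = 0 := sgf_zero σ
  have hid : cfcₙ (fun t : ℝ => t) K = K := cfcₙ_id' ℝ K
  have e1 : sg σ K * K = cfcₙ (fun t => sgf σ t * t) K := by
    rw [cfcₙ_mul (sgf σ) (fun t => t) K (by fun_prop) h0 (by fun_prop) rfl, hid, sg]
  have e2 : K * sg σ K = cfcₙ (fun t => t * sgf σ t) K := by
    rw [cfcₙ_mul (fun t => t) (sgf σ) K (by fun_prop) rfl (by fun_prop) h0, hid, sg]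
  have e3 : sg σ K * K * sg σ K = cfcₙ (fun t => sgf σ t * t * sgf σ t) K := by
    rw [cfcₙ_mul (fun t => sgf σ t * t) (sgf σ) K (by fun_prop) (by simp) (by fun_prop) h0, ← e1,
      sg]
  have e4 : auPhi (sg σ K) K = cfcₙ (fun t => t - sgf σ t * t - t * sgf σ t +
      sgf σ t * t * sgf σ t) K := by
    rw [cfcₙ_add (fun t => t - sgf σ t * t - t * sgf σ t) (fun t => sgf σ t * t * sgf σ t) K
      (by fun_prop) (by simp) (by fun_prop) (by simp),
      cfcₙ_sub (fun t => t - sgf σ t * t) (fun t => t * sgf σ t) K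
      (by fun_prop) (by simp) (by fun_prop) (by simp),
      cfcₙ_sub (fun t => t) (fun t => sgf σ t * t) K
      (by fun_prop) (by simp) (by fun_prop) (by simp), ← e1, ← e2, ← e3, hid, auPhi]
  rw [e4]
  refine norm_cfcn_le hK (by fun_prop) (by simp) ?_
  intro t ht _
  have hts : 0 < t + σ := by linarith
  have h1 : sgf σ t = t / (t + σ) := by simp [sgf, max_eq_right ht]
  have h2 : t - sgf σ t * t - t * sgf σ t + sgf σ t * t * sgf σ t = t * σ ^ 2 / (t + σ) ^ 2 := by
    rw [h1]; field_simp; ring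
  rw [h2, abs_of_nonneg (by positivity), div_le_iff₀ (by positivity)]
  nlinarith [mul_nonneg ht ht, mul_nonneg ht hσ.le, mul_pos hσ hσ, mul_nonneg (mul_nonneg ht ht) hσ.le,
    mul_nonneg (mul_nonneg ht hσ.le) hσ.le, mul_pos (mul_pos hσ hσ) hσ]

/-- Positive contraction `u` that is almost a left unit for finitely many elements `z i`, with
`u` in any given set of the form "closed ideal", here formulated by: `u = sg σ (∑ z_i z_i⋆)`.
`‖z_i - u z_i‖² = ‖(1-u) z_i z_i⋆ (1-u)‖ ≤ ‖(1-u) K (1-u)‖ ≤ σ`, `K = ∑ z_i z_i⋆`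
(function `t σ² / (t+σ)² ≤ σ`). -/
theorem norm_sub_sg_mul_sq_le {ι : Type*} (s : Finset ι) (z : ι → A) {σ : ℝ} (hσ : 0 < σ)
    {i : ι} (hi : i ∈ s) :
    ‖z i - sg σ (∑ j ∈ s, z j * star (z j)) * z i‖ ^ 2 ≤ σ := by
  set K := ∑ j ∈ s, z j * star (z j) with hKdef
  have hK : 0 ≤ K := Finset.sum_nonneg fun j _ => mul_star_self_nonneg _
  have hle : z i * star (z i) ≤ K :=
    Finset.single_le_sum (f := fun j => z j * star (z j)) (fun j _ => mul_star_self_nonneg _) hi
  rw [← norm_auPhi_mul_star (star_sg σ K)]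
  exact (norm_le_of_le (auPhi_nonneg (star_sg σ K) (mul_star_self_nonneg _))
    (auPhi_mono (star_sg σ K) hle)).trans (norm_auPhi_sg_le hσ hK)

/-- **AU.** Approximate unit of a kernel, sharp form.  Proof: `κ_i = ‖π z_i‖²`,
`c_i = cut κ_i (z_i z_i⋆)`, so `π c_i = 0` and `z_i z_i⋆ ≤ c_i + κ_i` (unitization);
`K = ∑ c_i`, `u = sg σ K`:
`‖(1-u) z_i‖² = ‖(1-u) z_i z_i⋆ (1-u)‖ ≤ ‖(1-u) K (1-u)‖ + κ_i ≤ σ + κ_i`, and
`√(σ + κ_i) ≤ √κ_i + ε` if `σ ≤ ε²`. -/
theorem exists_au {B : Type u} [NonUnitalCStarAlgebra B] (π : A →⋆ₙₐ[ℂ] B) {ι : Type*}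
    (s : Finset ι) (z : ι → A) {ε : ℝ} (hε : 0 < ε) :
    ∃ u : A, 0 ≤ u ∧ ‖u‖ ≤ 1 ∧ π u = 0 ∧ ∀ i ∈ s, ‖z i - u * z i‖ ≤ ‖π (z i)‖ + ε := by
  let := CStarAlgebra.spectralOrder B
  let := CStarAlgebra.spectralOrderedRing B
  have hσ : 0 < ε ^ 2 := by positivity
  set c : ι → A := fun i => cut (‖π (z i)‖ ^ 2) (z i * star (z i)) with hc
  set K := ∑ j ∈ s, c j with hKdef
  have hc0 : ∀ i, 0 ≤ c i := fun i => cut_nonneg _ _
  have hK : 0 ≤ K := Finset.sum_nonneg fun j _ => hc0 j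
  have hπc : ∀ i, π (c i) = 0 := by
    intro i
    have hx : (0 : A) ≤ z i * star (z i) := mul_star_self_nonneg _
    simp only [hc]
    rw [map_cut π (by positivity) hx.isSelfAdjoint, map_mul, map_star,
      cut_eq_zero_iff (by positivity) (mul_star_self_nonneg _), CStarRing.norm_self_mul_star, sq]
  have hπK : π K = 0 := by
    rw [hKdef, map_sum]
    exact Finset.sum_eq_zero fun i _ => hπc i
  refine ⟨sg (ε ^ 2) K, sg_nonneg hσ K, norm_sg_le_one hσ K, ?_, ?_⟩
  · rw [map_sg π hσ hK.isSelfAdjoint, hπK]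
    exact cfcₙ_apply_zero
  · intro i hi
    set u := sg (ε ^ 2) K with hu
    have hu0 : 0 ≤ u := sg_nonneg hσ K
    have hu1 : ‖u‖ ≤ 1 := norm_sg_le_one hσ K
    have hus : star u = u := star_sg _ K
    have hx : (0 : A) ≤ z i * star (z i) := mul_star_self_nonneg _
    have hle : c i ≤ K := Finset.single_le_sum (f := c) (fun j _ => hc0 j) hi
    have h1 : ‖auPhi u (c i)‖ ≤ ε ^ 2 :=
      (norm_le_of_le (auPhi_nonneg hus (hc0 i)) (auPhi_mono hus hle)).trans
        (norm_auPhi_sg_le hσ hK)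
    have h2 : ‖auPhi u (z i * star (z i) - c i)‖ ≤ ‖π (z i)‖ ^ 2 :=
      (norm_auPhi_le hu0 hu1 (sub_nonneg.2 (cut_le (by positivity) hx))).trans
        (norm_sub_cut_le (by positivity) hx)
    have h3 : ‖z i - u * z i‖ ^ 2 ≤ ‖π (z i)‖ ^ 2 + ε ^ 2 := by
      rw [← norm_auPhi_mul_star hus]
      have h4 : auPhi u (z i * star (z i)) =
          auPhi u (z i * star (z i) - c i) + auPhi u (c i) := by
        rw [← auPhi_add, sub_add_cancel]
      rw [h4]
      exact (norm_add_le _ _).trans (add_le_add h2 h1)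
    have h5 : ‖z i - u * z i‖ ^ 2 ≤ (‖π (z i)‖ + ε) ^ 2 := by
      nlinarith [norm_nonneg (π (z i))]
    exact (pow_le_pow_iff_left₀ (norm_nonneg _) (by positivity) two_ne_zero).1 h5

end

end PIS
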