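import Crest.Agent.PIS_L1

/-!
# S0145 blueprint, task PIS-BL (band lemma)

Replace the `sorry`s IN THIS FILE (do not change statements or names; helper lemmas are welcome, if they
are of general use put them in a new file `PIS_x*.lean`).  See `PIS_Defs.lean` for the definitions.
-/

set_option autoImplicit false

universe u

namespace PIS

section BLaux

variable {A : Type u} [NonUnitalCStarAlgebra A]

/-- `‖a‖ ^ 3 ≤ ‖a a a‖` for self-adjoint `a`. -/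
lemma BL_norm_cube {a : A} (ha : IsSelfAdjoint a) : ‖a‖ ^ 3 ≤ ‖a * a * a‖ := by
  by_cases h0 : ‖a‖ = 0
  · rw [h0]; simp
  have hpos : 0 < ‖a‖ := lt_of_le_of_ne (norm_nonneg _) (Ne.symm h0)
  have h1 : ‖a * a‖ = ‖a‖ * ‖a‖ := by
    have := CStarRing.norm_star_mul_self (x := a)
    rwa [ha.star_eq] at this
  have h2 : ‖a * a * (a * a)‖ = ‖a * a‖ * ‖a * a‖ := by
    have hsa : IsSelfAdjoint (a * a) := by
      rw [IsSelfAdjoint, star_mul, ha.star_eq]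
    have := CStarRing.norm_star_mul_self (x := a * a)
    rwa [hsa.star_eq] at this
  have h3 : ‖a * a * (a * a)‖ ≤ ‖a * a * a‖ * ‖a‖ := by
    rw [← mul_assoc]; exact norm_mul_le _ _
  rw [h2, h1] at h3
  have h4 : ‖a‖ ^ 3 * ‖a‖ ≤ ‖a * a * a‖ * ‖a‖ := by
    calc ‖a‖ ^ 3 * ‖a‖ = ‖a‖ * ‖a‖ * (‖a‖ * ‖a‖) := by ring
      _ ≤ _ := h3
  exact le_of_mul_le_mul_right h4 hpos

variable [PartialOrder A] [StarOrderedRing A]

/-- `κ f(x)² ≤ f(x) x f(x)` with `f = √(cut κ)`. -/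
lemma BL_rt_cut_conj {κ : ℝ} (hκ : 0 ≤ κ) {x : A} (hx : 0 ≤ x) :
    κ • cut κ x ≤ rt (cut κ x) * x * rt (cut κ x) := by
  have hxsa : IsSelfAdjoint x := IsSelfAdjoint.of_nonneg hx
  have hcc : Continuous (cutf κ) := continuous_cutf κ
  have hc0 : cutf κ 0 = 0 := cutf_zero hκ
  have hrt : rt (cut κ x) = cfcₙ (fun t => Real.sqrt (cutf κ t)) x := by
    unfold rt cut
    rw [← cfcₙ_comp' Real.sqrt (cutf κ) x (by fun_prop) (by simp) (by fun_prop) hc0]
  have hsc : Continuous (fun t => Real.sqrt (cutf κ t)) := Real.continuous_sqrt.comp hcc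
  have hs0 : (fun t => Real.sqrt (cutf κ t)) 0 = 0 := by simp [hc0]
  have h1 : rt (cut κ x) * x * rt (cut κ x)
      = cfcₙ (fun t => Real.sqrt (cutf κ t) * t * Real.sqrt (cutf κ t)) x := by
    rw [hrt]
    conv_lhs => 
      rw [show cfcₙ (fun t => Real.sqrt (cutf κ t)) x * x =
        cfcₙ (fun t => Real.sqrt (cutf κ t)) x * cfcₙ (fun t : ℝ => t) x by rw [cfcₙ_id' ℝ x]]
    rw [← cfcₙ_mul (fun t => Real.sqrt (cutf κ t)) (fun t => t) x (by fun_prop) (by simpa using hs0) (by fun_prop) (by simp),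
      ← cfcₙ_mul (fun t => Real.sqrt (cutf κ t) * t) (fun t => Real.sqrt (cutf κ t)) x (by fun_prop) (by simp) (by fun_prop)
        (by simpa using hs0)]
  have h2 : κ • cut κ x = cfcₙ (fun t => κ * cutf κ t) x := by
    unfold cut
    rw [← cfcₙ_smul κ (cutf κ) x (by fun_prop) hc0]
    rfl
  rw [h1, h2]
  apply cfcn_le_cfcn hx
  · exact continuous_const.mul hcc
  · simp [hc0]
  · exact (hsc.mul continuous_id).mul hsc
  · simp
  · intro t ht0 _
    have hnn : 0 ≤ cutf κ t := cutf_nonneg κ t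
    have h3 : Real.sqrt (cutf κ t) * t * Real.sqrt (cutf κ t) = t * cutf κ t := by
      have := Real.mul_self_sqrt hnn
      calc Real.sqrt (cutf κ t) * t * Real.sqrt (cutf κ t)
          = t * (Real.sqrt (cutf κ t) * Real.sqrt (cutf κ t)) := by ring
        _ = t * cutf κ t := by rw [this]
    rw [h3]
    by_cases hlt : t ≤ κ
    · have : cutf κ t = 0 := by
        unfold cutf; exact max_eq_left (by linarith)
      rw [this]; simp
    · push Not at hlt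
      exact mul_le_mul_of_nonneg_right hlt.le hnn

end BLaux

section BLmain

variable {A : Type u} [NonUnitalCStarAlgebra A] [PartialOrder A] [StarOrderedRing A]

/-- the estimate in one quotient. -/
lemma BL_quot {b h T X w : A} (hb : 0 ≤ b) (hh : 0 ≤ h) {τ δ ν : ℝ}
    (hτ : 0 < τ) (hδ : 0 < δ) (_hν : 0 < ν) (hν2 : (7 * ν / τ) ^ 2 ≤ δ ^ 3 / 4)
    (hw : IsSelfAdjoint w)
    (hk : ‖star T * (rt (cut (τ ^ 2 / 4) (T * star T)) * X * cut τ b)
      - w * (star T * (rt (cut (τ ^ 2 / 4) (T * star T)) * X * cut τ b))‖ ≤ ν)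
    (hX : ‖cut τ b * (star X * (cut (τ ^ 2 / 4) (T * star T) + cut (1/2) h) * X) * cut τ b
      - cut τ b * cut τ b * cut τ b‖ ≤ δ ^ 3 / 4)
    (hh2 : ‖h‖ ≤ 1 / 2) (hTw : ‖T * w‖ ^ 2 ≤ τ ^ 2 / 8) : ‖b‖ ≤ τ + δ := by
  set D := cut (τ ^ 2 / 4) (T * star T) with hD
  set b₁ := cut τ b with hb₁
  have hTT : 0 ≤ T * star T := mul_star_self_nonneg T
  have hD0 : 0 ≤ D := cut_nonneg _ _
  have hb10 : 0 ≤ b₁ := cut_nonneg _ _
  have hb1sa : star b₁ = b₁ := star_cut _ _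
  have hhc : cut (1/2) h = 0 := (cut_eq_zero_iff (by norm_num) hh).2 hh2
  set y := X * b₁ with hy
  set z := rt D * X * b₁ with hz
  have hzy : z = rt D * y := by rw [hz, hy, mul_assoc]
  have hrtsa : star (rt D) = rt D := star_rt _
  have hrr : rt D * rt D = D := rt_mul_rt hD0
  -- `z⋆ z = y⋆ D y`
  have hzz : star z * z = star y * D * y := by
    rw [hzy, star_mul, hrtsa]
    calc star y * rt D * (rt D * y) = star y * (rt D * rt D) * y := by simp only [mul_assoc]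
      _ = _ := by rw [hrr]
  have hznorm : ‖star y * D * y‖ = ‖z‖ ^ 2 := by
    rw [← hzz, CStarRing.norm_star_mul_self, sq]
  -- `‖z‖ small`
  have hk1 : (τ / 2) * ‖z‖ ≤ ‖star T * z‖ := by
    have h1 : star (star T * z) * (star T * z) = star y * (rt D * (T * star T) * rt D) * y := by
      rw [hzy, star_mul, star_mul, star_star, hrtsa]
      simp only [mul_assoc]
    have h2 : (τ ^ 2 / 4) • (star y * D * y) ≤ star y * (rt D * (T * star T) * rt D) * y := by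
      have := conj_mono (BL_rt_cut_conj (κ := τ ^ 2 / 4) (by positivity) hTT) y
      rw [← hD] at this
      calc (τ ^ 2 / 4) • (star y * D * y) = star y * ((τ ^ 2 / 4) • D) * y := by
            rw [mul_smul_comm, smul_mul_assoc]
        _ ≤ _ := this
    have h3 : ‖(τ ^ 2 / 4) • (star y * D * y)‖ ≤ ‖star y * (rt D * (T * star T) * rt D) * y‖ :=
      norm_le_of_le (smul_nonneg' (conj_nonneg' hD0 y) (by positivity)) h2
    rw [norm_smul, hznorm, ← h1, CStarRing.norm_star_mul_self, Real.norm_of_nonneg (by positivity)] at h3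
    have h4 : (τ / 2 * ‖z‖) ^ 2 ≤ ‖star T * z‖ ^ 2 := by nlinarith
    exact le_of_sq_le_sq h4 (norm_nonneg _)
  have hk2 : ‖star T * z‖ ≤ ν + ‖T * w‖ * ‖z‖ := by
    have h1 : ‖w * (star T * z)‖ ≤ ‖T * w‖ * ‖z‖ := by
      calc ‖w * (star T * z)‖ = ‖(w * star T) * z‖ := by rw [mul_assoc]
        _ ≤ ‖w * star T‖ * ‖z‖ := norm_mul_le _ _
        _ = ‖T * w‖ * ‖z‖ := by
            rw [← norm_star (T * w), star_mul, hw.star_eq]
    calc ‖star T * z‖ = ‖(star T * z - w * (star T * z)) + w * (star T * z)‖ := by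
          rw [sub_add_cancel]
      _ ≤ ‖star T * z - w * (star T * z)‖ + ‖w * (star T * z)‖ := norm_add_le _ _
      _ ≤ ν + ‖T * w‖ * ‖z‖ := add_le_add hk h1
  have hTw' : ‖T * w‖ ≤ τ * (5 / 14) := by
    apply le_of_sq_le_sq _ (by positivity)
    nlinarith
  have hzle : ‖z‖ ≤ 7 * ν / τ := by
    rw [le_div_iff₀ hτ]
    have hz0 : 0 ≤ ‖z‖ := norm_nonneg _
    have h5 := mul_le_mul_of_nonneg_right hTw' hz0
    nlinarith
  have hz2 : ‖z‖ ^ 2 ≤ δ ^ 3 / 4 := (pow_le_pow_left₀ (norm_nonneg _) hzle 2).trans hν2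
  have hcube : ‖b₁‖ ^ 3 ≤ δ ^ 3 := by
    have h1 : b₁ * (star X * (D + cut (1/2) h) * X) * b₁ = star y * D * y := by
      rw [hhc, add_zero, hy, star_mul, hb1sa]
      simp only [mul_assoc]
    rw [h1] at hX
    have h2 : ‖b₁ * b₁ * b₁‖ ≤ ‖star y * D * y‖ + δ ^ 3 / 4 := by
      have := norm_sub_norm_le (b₁ * b₁ * b₁) (star y * D * y)
      rw [norm_sub_rev] at this
      linarith
    have h3 := BL_norm_cube (a := b₁) hb1sa
    rw [hznorm] at h2
    have : 0 < δ ^ 3 := by positivity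
    linarith
  have hb1le : ‖b₁‖ ≤ δ := le_of_pow_le_pow_left₀ (by norm_num) hδ.le hcube
  rw [hb₁, norm_cut hτ.le hb] at hb1le
  have := (le_max_right 0 (‖b‖ - τ)).trans hb1le
  linarith

/-- **B (band lemma).**  Proof.  `D = cut (τ²/4) (T T⋆)`, `b₁ = cut τ b`.  By `H`, `Dom (D + cut (1/2) h) b₁`, so
(`cz_of_dom`) there is `X` with `‖X⋆ (D + cut (1/2) h) X - b₁‖ ≤ ν₂`, `ν₂ = δ³/4` (WLOG `δ ≤ 1`).  Put `z = rt D * X * b₁` and
`k = T⋆ z` (in `{x | Dom b₁ x}`).  In every quotient `‖k‖ ≥ (τ/2) ‖z‖`: `z⋆ T T⋆ z ≥ (τ²/4) z⋆ z` because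
`rt D (T T⋆) rt D ≥ (τ²/4) D` (functions of `T T⋆`).  If `‖k - w k‖ ≤ ν` and `‖π (T w)‖² ≤ τ²/8`, then
`‖π k‖ ≤ ν + ‖π (w T⋆ z)‖ ≤ ν + (τ/√8) ‖π z‖`, so `(τ/2 - τ/√8) ‖π z‖ ≤ ν`, `‖π z‖ ≤ 7 ν / τ`.  If moreover
`‖π h‖ ≤ 1/2` then `π (cut (1/2) h) = 0`, `‖π (b₁)‖³ = ‖π (b₁ b₁ b₁)‖ ≤ ‖π z‖² + ν₂ ≤ (7ν/τ)² + ν₂ ≤ δ³`
for `ν` small, so `‖π (cut τ b)‖ ≤ δ` and `‖π b‖ ≤ τ + δ` (`norm_cut`). -/
theorem exists_band (hA : PI A) {b h T : A} (hb : 0 ≤ b) (hb1 : ‖b‖ ≤ 1) (hh : 0 ≤ h) {τ : ℝ}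
    (hτ : 0 < τ)
    (H : ∀ (B : Type u) [NonUnitalCStarAlgebra B] (π : A →⋆ₙₐ[ℂ] B),
      ‖π T‖ ≤ τ / 2 → ‖π h‖ ≤ 1/2 → ‖π b‖ ≤ τ) {δ : ℝ} (hδ : 0 < δ) :
    ∃ k : A, Dom (cut τ b) k ∧ ∃ ν : ℝ, 0 < ν ∧ ∀ w : A, 0 ≤ w → ‖w‖ ≤ 1 → ‖k - w * k‖ ≤ ν →
      ∀ (B : Type u) [NonUnitalCStarAlgebra B] (π : A →⋆ₙₐ[ℂ] B),
        ‖π h‖ ≤ 1/2 → ‖π (T * w)‖ ^ 2 ≤ τ ^ 2 / 8 → ‖π b‖ ≤ τ + δ := by
  set D := cut (τ ^ 2 / 4) (T * star T) with hD
  set b₁ := cut τ b with hb₁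
  have hTT : 0 ≤ T * star T := mul_star_self_nonneg T
  have hD0 : 0 ≤ D := cut_nonneg _ _
  have hh0 : 0 ≤ cut (1/2) h := cut_nonneg _ _
  have hb10 : 0 ≤ b₁ := cut_nonneg _ _
  have hbsa : IsSelfAdjoint b := IsSelfAdjoint.of_nonneg hb
  have hhsa : IsSelfAdjoint h := IsSelfAdjoint.of_nonneg hh
  have hTTsa : IsSelfAdjoint (T * star T) := IsSelfAdjoint.of_nonneg hTT
  have hdom : Dom (D + cut (1/2) h) b₁ := by
    intro B _ π h0
    let _ : PartialOrder B := CStarAlgebra.spectralOrder B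
    have _ : StarOrderedRing B := CStarAlgebra.spectralOrderedRing B
    rw [map_add] at h0
    obtain ⟨h1, h2⟩ := eq_zero_of_add_eq_zero (map_nonneg' π hD0) (map_nonneg' π hh0) h0
    rw [hD, map_cut π (by positivity) hTTsa, cut_eq_zero_iff (by positivity) (map_nonneg' π hTT),
      map_mul, map_star, CStarRing.norm_self_mul_star] at h1
    rw [map_cut π (by norm_num) hhsa, cut_eq_zero_iff (by norm_num) (map_nonneg' π hh)] at h2
    have h3 : ‖π T‖ ≤ τ / 2 := by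
      apply le_of_sq_le_sq _ (by positivity)
      nlinarith
    have h4 := H B π h3 h2
    rw [hb₁, map_cut π hτ.le hbsa, cut_eq_zero_iff hτ.le (map_nonneg' π hb)]
    exact h4
  have hcz := cz_of_dom hA (add_nonneg hD0 hh0) hb10 hdom
  obtain ⟨X, hX⟩ := hcz (δ ^ 3 / 4) (by positivity)
  refine ⟨star T * (rt D * X * b₁), ?_, τ * Real.sqrt (δ ^ 3) / 14, by positivity, ?_⟩
  · exact ((Dom.refl b₁).mul_left _).mul_left _
  intro w hw hw1 hk B _ π hπh hπT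
  let _ : PartialOrder B := CStarAlgebra.spectralOrder B
  have _ : StarOrderedRing B := CStarAlgebra.spectralOrderedRing B
  have hwsa : IsSelfAdjoint w := IsSelfAdjoint.of_nonneg hw
  have hb1n : ‖b₁‖ ≤ 1 := by
    rw [hb₁, norm_cut hτ.le hb]
    apply max_le (by norm_num)
    linarith
  have hX' : ‖b₁ * (star X * (D + cut (1/2) h) * X) * b₁ - b₁ * b₁ * b₁‖ ≤ δ ^ 3 / 4 := by
    have e : b₁ * (star X * (D + cut (1/2) h) * X) * b₁ - b₁ * b₁ * b₁
        = b₁ * (star X * (D + cut (1/2) h) * X - b₁) * b₁ := by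
      rw [mul_sub, sub_mul]
    rw [e]
    calc ‖b₁ * (star X * (D + cut (1/2) h) * X - b₁) * b₁‖
        ≤ ‖b₁‖ * ‖star X * (D + cut (1/2) h) * X - b₁‖ * ‖b₁‖ := norm_mul₃_le
      _ ≤ 1 * (δ ^ 3 / 4) * 1 := by gcongr
      _ = δ ^ 3 / 4 := by ring
  have mD : π D = cut (τ ^ 2 / 4) (π T * star (π T)) := by
    rw [hD, map_cut π (by positivity) hTTsa, map_mul, map_star]
  have mb : π b₁ = cut τ (π b) := by rw [hb₁, map_cut π hτ.le hbsa]
  have mh : π (cut (1/2) h) = cut (1/2) (π h) := map_cut π (by norm_num) hhsa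
  have mr : π (rt D) = rt (π D) := map_rt π (IsSelfAdjoint.of_nonneg hD0)
  refine BL_quot (T := π T) (X := π X) (w := π w) (map_nonneg' π hb) (map_nonneg' π hh) hτ hδ
    (ν := τ * Real.sqrt (δ ^ 3) / 14) (by positivity) ?_ (hwsa.map π) ?_ ?_ hπh ?_
  · have h1 : 7 * (τ * Real.sqrt (δ ^ 3) / 14) / τ = Real.sqrt (δ ^ 3) / 2 := by
      field_simp; ring
    rw [h1, div_pow, Real.sq_sqrt (by positivity)]
    norm_num
  · have := (norm_map_le π (star T * (rt D * X * b₁) - w * (star T * (rt D * X * b₁)))).trans hk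
    simpa only [map_sub, map_mul, map_star, mr, mD, mb] using this
  · have := (norm_map_le π (b₁ * (star X * (D + cut (1/2) h) * X) * b₁ - b₁ * b₁ * b₁)).trans hX'
    simpa only [map_sub, map_mul, map_star, map_add, mr, mD, mb, mh] using this
  · rw [← map_mul]; exact hπT

end BLmain

end PIS
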