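import Crest.Agent.PIS_P0

/-!
# S0145 blueprint, task PIS-C1 (bands are almost orthogonal)

Replace the `sorry`s IN THIS FILE (do not change statements or names; helper lemmas are welcome, if they
are of general use put them in a new file `PIS_x*.lean`).  See `PIS_Defs.lean` for the definitions.
-/

set_option autoImplicit false

universe u

namespace PIS

section

variable {A : Type u} [NonUnitalCStarAlgebra A] [PartialOrder A] [StarOrderedRing A]

/-- band element `Q i = (b - b w_i) w_{i+1}` -/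
def bandQ (b : A) (w : ℕ → A) (i : ℕ) : A := (b - b * w i) * w (i + 1)

private lemma C1_mul_le {x y : A} {s t : ℝ} (hx : ‖x‖ ≤ s) (hy : ‖y‖ ≤ t) : ‖x * y‖ ≤ s * t :=
  (norm_mul_le x y).trans
    (mul_le_mul hx hy (norm_nonneg _) ((norm_nonneg _).trans hx))

private lemma C1_star_bandQ {b : A} {w : ℕ → A} {i : ℕ} (hb : 0 ≤ b) (hi : 0 ≤ w i)
    (hi' : 0 ≤ w (i + 1)) : star (bandQ b w i) = w (i + 1) * (b - w i * b) := by
  have h1 : star b = b := (IsSelfAdjoint.of_nonneg hb).star_eq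
  have h2 : star (w i) = w i := (IsSelfAdjoint.of_nonneg hi).star_eq
  have h3 : star (w (i + 1)) = w (i + 1) := (IsSelfAdjoint.of_nonneg hi').star_eq
  unfold bandQ
  rw [star_mul, star_sub, star_mul, h1, h2, h3]

/-- **C1a.** Far bands are almost orthogonal.  Proof (`W = w`, everything contractive, errors `ε` each):
`Q i⋆ Q l = W_{i+1} (b - W_i b)(b - b W_l) W_{l+1}`; move `(1 - W_l)` to the left through the two `b`'s (2 errors) to get
`W_{i+1} (1-W_i)(1-W_l) b b W_{l+1}` and `W_{i+1}(1-W_l)`, `W_i (1-W_l)` have norm `≤ ε` (2 more errors). -/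
theorem bandQ_orth {b c g0 : A} (hb : 0 ≤ b) (hb1 : ‖b‖ ≤ 1) {τ δ ε C : ℝ} {n : ℕ}
    {w g h : ℕ → A} (H : IsBands b c g0 τ δ ε C n w g h) {i l : ℕ} (hil : i + 2 ≤ l)
    (hl : l + 1 ≤ n) : ‖star (bandQ b w i) * bandQ b w l‖ ≤ 7 * ε := by
  have hε : 0 ≤ ε := (norm_nonneg _).trans (H.w_b 0 (Nat.zero_le _))
  rw [C1_star_bandQ hb (H.w_nonneg i (by omega)) (H.w_nonneg (i + 1) (by omega))]
  unfold bandQ
  have eV : star (w i) = w i := (IsSelfAdjoint.of_nonneg (H.w_nonneg i (by omega))).star_eq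
  have eW : star (w (i + 1)) = w (i + 1) :=
    (IsSelfAdjoint.of_nonneg (H.w_nonneg (i + 1) (by omega))).star_eq
  have eU : star (w l) = w l := (IsSelfAdjoint.of_nonneg (H.w_nonneg l (by omega))).star_eq
  have nV := H.w_norm i (by omega)
  have nW := H.w_norm (i + 1) (by omega)
  have nU := H.w_norm l (by omega)
  have nT := H.w_norm (l + 1) (by omega)
  have cU := H.w_b l (by omega)
  have h1 := H.w_mul (i + 1) l (by omega) (by omega)
  have h2 := H.w_mul i l (by omega) (by omega)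
  generalize w i = V at *
  generalize w (i + 1) = W at *
  generalize w l = U at *
  generalize w (l + 1) = T at *
  have h1' : ‖W - W * U‖ ≤ ε := by
    rw [← norm_star, star_sub, star_mul, eW, eU]; exact h1
  have h2' : ‖V - V * U‖ ≤ ε := by
    rw [← norm_star, star_sub, star_mul, eV, eU]; exact h2
  have key : W * (b - V * b) * ((b - b * U) * T) =
      (W - W * V) * b * ((U * b - b * U) * T) + (W - W * V) * ((U * b - b * U) * (b * T))
        + (W - W * U) * (b * (b * T)) - W * (V - V * U) * (b * (b * T)) := by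
    simp only [mul_sub, sub_mul, mul_assoc]
    abel
  have nWV : ‖W - W * V‖ ≤ 2 := by
    have := C1_mul_le nW nV
    calc ‖W - W * V‖ ≤ ‖W‖ + ‖W * V‖ := norm_sub_le _ _
      _ ≤ 2 := by linarith
  have nbT := C1_mul_le hb1 nT
  have nbbT := C1_mul_le hb1 nbT
  have t1 := C1_mul_le (C1_mul_le nWV hb1) (C1_mul_le cU nT)
  have t2 := C1_mul_le nWV (C1_mul_le cU nbT)
  have t3 := C1_mul_le h1' nbbT
  have t4 := C1_mul_le (C1_mul_le nW h2') nbbT
  rw [key]
  calc _ ≤ ‖(W - W * V) * b * ((U * b - b * U) * T) + (W - W * V) * ((U * b - b * U) * (b * T))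
        + (W - W * U) * (b * (b * T))‖ + ‖W * (V - V * U) * (b * (b * T))‖ := norm_sub_le _ _
    _ ≤ ‖(W - W * V) * b * ((U * b - b * U) * T)‖ + ‖(W - W * V) * ((U * b - b * U) * (b * T))‖
        + ‖(W - W * U) * (b * (b * T))‖ + ‖W * (V - V * U) * (b * (b * T))‖ := by
          gcongr
          exact norm_add₃_le
    _ ≤ 7 * ε := by linarith

/-- **C1b.** `Q i⋆ c rt (g x)` is small unless `x ∈ {i - 1, i, i + 1}`.  Proof: `W_{i+1}(1-W_i) ≈ W_{i+1} - W_i`
(one error; `‖w i - w (i+1) * w i‖ ≤ ε`), then move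
`W_{i+1} - W_i` to the right through `b` and `c` (four errors), then
`‖(W_{i+1} - W_i) rt (g x)‖ ≤ 2 ε` by `g_low` (`i + 1 < x`) or `g_high` (`x + 2 ≤ i`). -/
theorem bandQ_far {b c g0 : A} (hb : 0 ≤ b) (hb1 : ‖b‖ ≤ 1) (hc : ‖c‖ ≤ 1) {τ δ ε C : ℝ} {n : ℕ}
    {w g h : ℕ → A} (H : IsBands b c g0 τ δ ε C n w g h) {i x : ℕ} (hi : i + 1 ≤ n) (hx : x ≤ n)
    (hfar : i + 1 < x ∨ x + 2 ≤ i) : ‖star (bandQ b w i) * c * rt (g x)‖ ≤ 7 * ε := by
  have hε : 0 ≤ ε := (norm_nonneg _).trans (H.w_b 0 (Nat.zero_le _))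
  rw [C1_star_bandQ hb (H.w_nonneg i (by omega)) (H.w_nonneg (i + 1) (by omega))]
  have nG : ‖rt (g x)‖ ≤ 1 := by
    have h1 := norm_rt_sq (H.g_nonneg x hx)
    have h2 := H.g_norm x hx
    nlinarith [norm_nonneg (rt (g x))]
  have hWG : ‖(w (i + 1) - w i) * rt (g x)‖ ≤ 2 * ε := by
    rcases hfar with hf | hf
    · have a1 := H.g_low (i + 1) x hf hx
      have a2 := H.g_low i x (by omega) hx
      rw [sub_mul]
      exact (norm_sub_le _ _).trans (by linarith)
    · have a1 := H.g_high (i + 1) x (by omega) hi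
      have a2 := H.g_high i x hf (by omega)
      have : (w (i + 1) - w i) * rt (g x) =
          (rt (g x) - w i * rt (g x)) - (rt (g x) - w (i + 1) * rt (g x)) := by
        rw [sub_mul]; abel
      rw [this]
      exact (norm_sub_le _ _).trans (by linarith)
  have nV := H.w_norm i (by omega)
  have nW := H.w_norm (i + 1) (by omega)
  have bV := H.w_b i (by omega)
  have bW := H.w_b (i + 1) (by omega)
  have cV := H.w_c i (by omega)
  have cW := H.w_c (i + 1) (by omega)
  have h1 := H.w_mul i (i + 1) (by omega) hi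
  generalize w i = V at *
  generalize w (i + 1) = W at *
  generalize rt (g x) = G at *
  have key : W * (b - V * b) * c * G =
      (V - W * V) * (b * (c * G)) + ((W * b - b * W) - (V * b - b * V)) * (c * G)
        + b * (((W * c - c * W) - (V * c - c * V)) * G) + b * (c * ((W - V) * G)) := by
    simp only [mul_sub, sub_mul, mul_assoc]
    abel
  have ncG := C1_mul_le hc nG
  have nbcG := C1_mul_le hb1 ncG
  have d1 : ‖(W * b - b * W) - (V * b - b * V)‖ ≤ 2 * ε :=
    (norm_sub_le _ _).trans (by linarith)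
  have d2 : ‖(W * c - c * W) - (V * c - c * V)‖ ≤ 2 * ε :=
    (norm_sub_le _ _).trans (by linarith)
  have t1 := C1_mul_le h1 nbcG
  have t2 := C1_mul_le d1 ncG
  have t3 := C1_mul_le hb1 (C1_mul_le d2 nG)
  have t4 := C1_mul_le hb1 (C1_mul_le hc hWG)
  rw [key]
  calc _ ≤ ‖(V - W * V) * (b * (c * G)) + ((W * b - b * W) - (V * b - b * V)) * (c * G)
        + b * (((W * c - c * W) - (V * c - c * V)) * G)‖ + ‖b * (c * ((W - V) * G))‖ :=
          norm_add_le _ _
    _ ≤ ‖(V - W * V) * (b * (c * G))‖ + ‖((W * b - b * W) - (V * b - b * V)) * (c * G)‖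
        + ‖b * (((W * c - c * W) - (V * c - c * V)) * G)‖ + ‖b * (c * ((W - V) * G))‖ := by
          gcongr
          exact norm_add₃_le
    _ ≤ 7 * ε := by linarith

end

end PIS
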