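import Crest.Agent.PIS_L1

/-!
# S0145 blueprint, task PIS-C2 (band vectors)

Replace the `sorry`s IN THIS FILE (do not change statements or names; helper lemmas are welcome, if they
are of general use put them in a new file `PIS_x*.lean`).  See `PIS_Defs.lean` for the definitions.
-/

set_option autoImplicit false

universe u

namespace PIS

section

variable {A : Type u} [NonUnitalCStarAlgebra A] [PartialOrder A] [StarOrderedRing A]

/-- the domination used in `exists_band_vector`. -/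
theorem C2_dom {b h Q : A} (hb : 0 ≤ b) (hh : 0 ≤ h)
    {κ θ : ℝ} (hκ : 0 ≤ κ) (hθ : 0 ≤ θ)
    (H : ∀ (B : Type u) [NonUnitalCStarAlgebra B] (π : A →⋆ₙₐ[ℂ] B),
      ‖π h‖ ≤ 1/2 → ‖π Q‖ ^ 2 ≤ κ → ‖π b‖ ≤ θ) :
    Dom (cut (1/2) h + cut κ (Q * star Q)) (cut θ b) := by
  intro B _ π hπ
  let _ : PartialOrder B := CStarAlgebra.spectralOrder B
  have _ : StarOrderedRing B := CStarAlgebra.spectralOrderedRing B
  have hT : (0 : A) ≤ Q * star Q := mul_star_self_nonneg Q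
  rw [map_add, map_cut π (by norm_num) (IsSelfAdjoint.of_nonneg hh),
    map_cut π hκ (IsSelfAdjoint.of_nonneg hT)] at hπ
  obtain ⟨h1, h2⟩ := eq_zero_of_add_eq_zero (cut_nonneg _ _) (cut_nonneg _ _) hπ
  rw [cut_eq_zero_iff (by norm_num) (map_nonneg' π hh)] at h1
  rw [cut_eq_zero_iff hκ (map_nonneg' π hT), map_mul, map_star, CStarRing.norm_self_mul_star,
    ← sq] at h2
  rw [map_cut π hθ (IsSelfAdjoint.of_nonneg hb), cut_eq_zero_iff hθ (map_nonneg' π hb)]
  exact H B π h1 h2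

/-- **C2.** From the `band` property to vectors.  Proof: `D = cut (τ²/8) (Q Q⋆)`; `Dom (cut (1/2) h + D) (cut θ b)` by `H`;
`cz_of_dom` gives `X` with `‖X⋆ (cut (1/2) h + D) X - cut θ b‖ ≤ ν`.  With `T = Q Q⋆`, `F t = √(cutf (τ²/8) t)`,
`G t = F t / t` (continuous, zero for `t ≤ τ²/8`; e.g. `G t = F t / max t (τ²/8)`), `V = Q⋆ G(T) X`:
`Q V = T G(T) X = F(T) X`, so `(QV)⋆(QV) = X⋆ D X`, and `V⋆V = X⋆ G(T) T G(T) X ≤ (8/τ²) X⋆ D X`,
`‖X⋆ D X‖ ≤ ‖cut θ b‖ + ν ≤ 1 + ν ≤ 2`. -/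
theorem exists_band_vector (hA : PI A) {b h Q : A} (hb : 0 ≤ b) (hb1 : ‖b‖ ≤ 1) (hh : 0 ≤ h)
    {τ θ : ℝ} (hτ : 0 < τ) (hθ : 0 ≤ θ)
    (H : ∀ (B : Type u) [NonUnitalCStarAlgebra B] (π : A →⋆ₙₐ[ℂ] B),
      ‖π h‖ ≤ 1/2 → ‖π Q‖ ^ 2 ≤ τ ^ 2 / 8 → ‖π b‖ ≤ θ) {ν : ℝ} (hν : 0 < ν) (hν1 : ν ≤ 1) :
    ∃ X V : A, ‖V‖ ^ 2 ≤ 16 / τ ^ 2 ∧ ‖Q * V‖ ^ 2 ≤ 1 + ν ∧
      ‖star X * cut (1/2) h * X + star (Q * V) * (Q * V) - cut θ b‖ ≤ ν := by
  obtain ⟨κ, hκdef⟩ : ∃ κ : ℝ, κ = τ ^ 2 / 8 := ⟨_, rfl⟩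
  have hκ : 0 < κ := by rw [hκdef]; positivity
  rw [← hκdef] at H
  set T : A := Q * star Q with hTdef
  have hT : (0 : A) ≤ T := mul_star_self_nonneg Q
  have hTsa : IsSelfAdjoint T := IsSelfAdjoint.of_nonneg hT
  have hdom := C2_dom hb hh hκ.le hθ H
  rw [← hTdef] at hdom
  have hy : 0 ≤ cut (1/2) h + cut κ T := add_nonneg (cut_nonneg _ _) (cut_nonneg _ _)
  obtain ⟨X, hX⟩ := cz_of_dom hA hy (cut_nonneg θ b) hdom ν hν
  -- the functions
  obtain ⟨F, hF⟩ : ∃ F : ℝ → ℝ, F = fun t => √(cutf κ t) := ⟨_, rfl⟩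
  obtain ⟨G, hG⟩ : ∃ G : ℝ → ℝ, G = fun t => √(cutf κ t) / max t κ := ⟨_, rfl⟩
  have hFc : Continuous F := by
    rw [hF]; exact Real.continuous_sqrt.comp (continuous_cutf κ)
  have hF0 : F 0 = 0 := by rw [hF]; simp [cutf_zero hκ.le]
  have hGc : Continuous G := by
    rw [hG]
    refine (Real.continuous_sqrt.comp (continuous_cutf κ)).div
      (continuous_id.max continuous_const) fun t => ?_
    exact (lt_max_of_lt_right hκ).ne'
  have hG0 : G 0 = 0 := by rw [hG]; simp [cutf_zero hκ.le]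
  have hcut : cutf κ = fun t => max 0 (t - κ) := by funext t; rfl
  have hTG : T * cfcₙ G T = cfcₙ F T := by
    conv_lhs => rw [← cfcₙ_id' ℝ T hTsa]
    conv_lhs => arg 2; rw [cfcₙ_id' ℝ T hTsa]
    rw [← cfcₙ_mul (fun t : ℝ => t) G T continuous_id.continuousOn rfl hGc.continuousOn hG0]
    refine cfcₙ_congr fun t ht => ?_
    have ht0 := A1d_qs_nonneg hT ht
    rw [hF, hG]
    simp only []
    rcases le_total t κ with h' | h'
    · have : cutf κ t = 0 := by unfold cutf; exact max_eq_left (by linarith)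
      rw [this]; simp
    · have : t ≠ 0 := by linarith
      rw [max_eq_left h']
      field_simp
  have hFF : cfcₙ F T * cfcₙ F T = cut κ T := by
    rw [← cfcₙ_mul F F T hFc.continuousOn hF0 hFc.continuousOn hF0]
    unfold cut
    refine cfcₙ_congr fun t ht => ?_
    rw [hF]
    exact Real.mul_self_sqrt (cutf_nonneg κ t)
  have hGG : cfcₙ G T * T * cfcₙ G T ≤ (1 / κ) • cut κ T := by
    rw [mul_assoc, hTG, ← cfcₙ_mul G F T hGc.continuousOn hG0 hFc.continuousOn hF0]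
    unfold cut
    rw [← cfcₙ_smul (1 / κ) (cutf κ) T (continuous_cutf κ).continuousOn (cutf_zero hκ.le)]
    refine cfcn_le_cfcn hT (hGc.mul hFc) (by simp [hG0]) ?_ ?_ ?_
    · exact continuous_const.mul (continuous_cutf κ)
    · simp [cutf_zero hκ.le]
    · intro t ht0 _
      rw [hF, hG]
      simp only [smul_eq_mul]
      have h1 : √(cutf κ t) / max t κ * √(cutf κ t) = cutf κ t / max t κ := by
        rw [div_mul_eq_mul_div, Real.mul_self_sqrt (cutf_nonneg κ t)]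
      rw [h1, one_div, ← div_eq_inv_mul]
      exact div_le_div_of_nonneg_left (cutf_nonneg κ t) hκ (le_max_right _ _)
  have hGsa : star (cfcₙ G T) = cfcₙ G T := (cfcₙ_predicate G T : IsSelfAdjoint _)
  have hFsa : star (cfcₙ F T) = cfcₙ F T := (cfcₙ_predicate F T : IsSelfAdjoint _)
  have hQV : Q * (star Q * cfcₙ G T * X) = cfcₙ F T * X := by
    rw [← hTG, hTdef]; simp only [mul_assoc]
  have hQV2 : star (Q * (star Q * cfcₙ G T * X)) * (Q * (star Q * cfcₙ G T * X))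
      = star X * cut κ T * X := by
    rw [hQV, star_mul, hFsa, ← hFF]; simp only [mul_assoc]
  have hVV : star (star Q * cfcₙ G T * X) * (star Q * cfcₙ G T * X)
      = star X * (cfcₙ G T * T * cfcₙ G T) * X := by
    rw [star_mul, star_mul, hGsa, star_star, hTdef]; simp only [mul_assoc]
  have hXy : star X * (cut (1/2) h + cut κ T) * X
      = star X * cut (1/2) h * X + star X * cut κ T * X := by
    rw [mul_add, add_mul]
  have hb2 : ‖cut θ b‖ ≤ 1 := by
    rw [norm_cut hθ hb]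
    exact max_le zero_le_one (by linarith)
  have hnorm : ‖star X * cut κ T * X‖ ≤ 1 + ν := by
    have h1 : ‖star X * cut κ T * X‖ ≤ ‖star X * (cut (1/2) h + cut κ T) * X‖ := by
      refine norm_le_of_le (conj_nonneg' (cut_nonneg _ _) X) ?_
      rw [hXy]
      exact le_add_of_nonneg_left (conj_nonneg' (cut_nonneg _ _) X)
    have h2 : ‖star X * (cut (1/2) h + cut κ T) * X‖ ≤ ‖cut θ b‖ + ν := by
      calc ‖star X * (cut (1/2) h + cut κ T) * X‖
          = ‖cut θ b + (star X * (cut (1/2) h + cut κ T) * X - cut θ b)‖ := by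
            congr 1; abel
        _ ≤ _ := (norm_add_le _ _).trans (by linarith)
    linarith
  refine ⟨X, star Q * cfcₙ G T * X, ?_, ?_, ?_⟩
  · have h1 : ‖star Q * cfcₙ G T * X‖ ^ 2
        = ‖star (star Q * cfcₙ G T * X) * (star Q * cfcₙ G T * X)‖ := by
      rw [CStarRing.norm_star_mul_self, sq]
    rw [h1, hVV]
    have h2 : star X * (cfcₙ G T * T * cfcₙ G T) * X ≤ (1 / κ) • (star X * cut κ T * X) := by
      have := conj_mono hGG X
      rwa [mul_smul_comm, smul_mul_assoc] at this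
    have h3 : 0 ≤ star X * (cfcₙ G T * T * cfcₙ G T) * X := by
      rw [← hVV]; exact star_mul_self_nonneg _
    have h4 := norm_le_of_le h3 h2
    refine h4.trans ?_
    rw [norm_smul, Real.norm_eq_abs, abs_of_nonneg (by positivity)]
    calc 1 / κ * ‖star X * cut κ T * X‖ ≤ 1 / κ * (1 + ν) := by gcongr
      _ ≤ 1 / κ * 2 := by gcongr; linarith
      _ = 16 / τ ^ 2 := by rw [hκdef]; field_simp; norm_num
  · have h1 : ‖Q * (star Q * cfcₙ G T * X)‖ ^ 2
        = ‖star (Q * (star Q * cfcₙ G T * X)) * (Q * (star Q * cfcₙ G T * X))‖ := by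
      rw [CStarRing.norm_star_mul_self, sq]
    rw [h1, hQV2]
    exact hnorm
  · rw [hQV2, ← hXy]
    exact hX.le

end

end PIS
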