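import Crest.Agent.PIS_C1

/-!
# S0145 blueprint, task PIS-C3 (spread vector)

Proved by helper9. (helper lemmas: if they
are of general use put them in a new file `PIS_x*.lean`).  See `PIS_Defs.lean` for the definitions.
-/

set_option autoImplicit false

universe u

namespace PIS

section

variable {A : Type u} [NonUnitalCStarAlgebra A] [PartialOrder A] [StarOrderedRing A]

/-- abstract version of `spread_cross`. -/
lemma C3_cross_aux {N : ℕ} (hN : 0 < N) (q : ℕ → A) {K : ℝ} (hK : 0 ≤ K)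
    (hq : ∀ j < N, ∀ l < N, j ≠ l → ‖star (q j) * q l‖ ≤ K) :
    ‖star ((1 / √N : ℝ) • ∑ j ∈ Finset.range N, q j) *
        ((1 / √N : ℝ) • ∑ j ∈ Finset.range N, q j) -
      (1 / N : ℝ) • ∑ j ∈ Finset.range N, star (q j) * q j‖ ≤ N * K := by
  have hNr : (0 : ℝ) < N := by exact_mod_cast hN
  have hs : (1 / √(N : ℝ)) * (1 / √(N : ℝ)) = 1 / N := by
    rw [div_mul_div_comm, one_mul, Real.mul_self_sqrt hNr.le]
  have e1 : star ((1 / √N : ℝ) • ∑ j ∈ Finset.range N, q j) *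
        ((1 / √N : ℝ) • ∑ j ∈ Finset.range N, q j) -
      (1 / N : ℝ) • ∑ j ∈ Finset.range N, star (q j) * q j =
      (1 / N : ℝ) • ∑ j ∈ Finset.range N, ∑ l ∈ Finset.range N,
        (if j = l then 0 else star (q j) * q l) := by
    rw [star_smul, smul_mul_smul_comm, star_trivial, hs, ← smul_sub]
    congr 1
    rw [star_sum, Finset.sum_mul_sum, ← Finset.sum_sub_distrib]
    refine Finset.sum_congr rfl fun j hj => ?_
    rw [sub_eq_iff_eq_add]
    rw [← Finset.sum_erase_add _ _ hj]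
    rw [← Finset.sum_erase_add (s := Finset.range N) (a := j)
      (f := fun l => if j = l then 0 else star (q j) * q l) hj]
    simp only [if_true, add_zero]
    congr 1
    refine Finset.sum_congr rfl fun l hl => ?_
    rw [if_neg (Finset.ne_of_mem_erase hl).symm]
  rw [e1, norm_smul, Real.norm_eq_abs, abs_of_pos (by positivity)]
  have h2 : ‖∑ j ∈ Finset.range N, ∑ l ∈ Finset.range N,
        (if j = l then 0 else star (q j) * q l)‖ ≤ ∑ _j ∈ Finset.range N, ∑ _l ∈ Finset.range N, K := by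
    refine norm_sum_le_of_le _ fun j hj => norm_sum_le_of_le _ fun l hl => ?_
    by_cases h : j = l
    · rw [if_pos h, norm_zero]; exact hK
    · rw [if_neg h]
      exact hq j (Finset.mem_range.1 hj) l (Finset.mem_range.1 hl) h
  simp only [Finset.sum_const, Finset.card_range, nsmul_eq_mul] at h2
  calc 1 / (N : ℝ) * _ ≤ 1 / (N : ℝ) * (N * (N * K)) := by gcongr
    _ = N * K := by field_simp

lemma C3_norm_V {V : A} {τ : ℝ} (hτ : 0 < τ) (hV : ‖V‖ ^ 2 ≤ 16 / τ ^ 2) : ‖V‖ ≤ 4 / τ := by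
  have h : ‖V‖ ^ 2 ≤ (4 / τ) ^ 2 := by
    rw [div_pow]; norm_num; exact hV
  exact (pow_le_pow_iff_left₀ (norm_nonneg _) (by positivity) (by norm_num)).1 h

/-- **C3a.** the spread vector: cross terms.  `Q₂ = N^{-1/2} ∑_{j<N} Q_{2j+2} V_j`. -/
theorem spread_cross {b c g0 : A} (hb : 0 ≤ b) (hb1 : ‖b‖ ≤ 1) {τ δ ε C : ℝ} (hτ : 0 < τ)
    {N : ℕ} (hN : 0 < N) {w g h : ℕ → A} (H : IsBands b c g0 τ δ ε C (2 * N + 2) w g h)
    (hε : 0 ≤ ε) {V : ℕ → A} (hV : ∀ j < N, ‖V j‖ ^ 2 ≤ 16 / τ ^ 2) :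
    ‖star ((1 / √N : ℝ) • ∑ j ∈ Finset.range N, bandQ b w (2 * j + 2) * V j) *
        ((1 / √N : ℝ) • ∑ j ∈ Finset.range N, bandQ b w (2 * j + 2) * V j) -
      (1 / N : ℝ) • ∑ j ∈ Finset.range N,
        star (bandQ b w (2 * j + 2) * V j) * (bandQ b w (2 * j + 2) * V j)‖
      ≤ N * (16 / τ ^ 2) * (7 * ε) := by
  have hkey : ∀ j < N, ∀ l < N, j < l →
      ‖star (bandQ b w (2 * j + 2) * V j) * (bandQ b w (2 * l + 2) * V l)‖ ≤
        (16 / τ ^ 2) * (7 * ε) := by
    intro j hj l hl hjl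
    have h1 := bandQ_orth hb hb1 H (i := 2 * j + 2) (l := 2 * l + 2) (by omega) (by omega)
    have e : star (bandQ b w (2 * j + 2) * V j) * (bandQ b w (2 * l + 2) * V l) =
        star (V j) * (star (bandQ b w (2 * j + 2)) * bandQ b w (2 * l + 2)) * V l := by
      rw [star_mul]; simp only [mul_assoc]
    rw [e]
    have hVj := C3_norm_V hτ (hV j hj)
    have hVl := C3_norm_V hτ (hV l hl)
    calc ‖star (V j) * (star (bandQ b w (2 * j + 2)) * bandQ b w (2 * l + 2)) * V l‖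
        ≤ ‖star (V j)‖ * ‖star (bandQ b w (2 * j + 2)) * bandQ b w (2 * l + 2)‖ * ‖V l‖ :=
          (norm_mul_le _ _).trans (mul_le_mul_of_nonneg_right (norm_mul_le _ _) (norm_nonneg _))
      _ ≤ (4 / τ) * (7 * ε) * (4 / τ) := by
          rw [norm_star]
          gcongr
      _ = (16 / τ ^ 2) * (7 * ε) := by ring
  rw [mul_assoc (N : ℝ)]
  refine C3_cross_aux hN (fun j => bandQ b w (2 * j + 2) * V j) (by positivity) ?_
  intro j hj l hl hjl
  rcases lt_or_gt_of_ne hjl with h | h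
  · exact hkey j hj l hl h
  · have := hkey l hl j hj h
    rw [← norm_star, star_mul, star_star] at this
    exact this

/-- **C3b.** the spread vector has small links with every block: for each `x` at most two indices
`j` have `|2j + 2 - x| ≤ 1`; the others contribute `≤ ‖V j‖ · 7 ε ≤ (4/τ) 7 ε` (`bandQ_far`), the two near ones
`≤ ‖Q V‖ ≤ √2`:  `(2 √2 + N (4/τ) 7 ε) / √N ≤ 3 / √N` (`2 √2 ≤ 2.83`). -/
theorem spread_link {b c g0 : A} (hb : 0 ≤ b) (hb1 : ‖b‖ ≤ 1) (hc : ‖c‖ ≤ 1) {τ δ ε C : ℝ}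
    (hτ : 0 < τ) {N : ℕ} (hN : 0 < N) {w g h : ℕ → A}
    (H : IsBands b c g0 τ δ ε C (2 * N + 2) w g h) (hε : 0 ≤ ε)
    (hεs : N * (4 / τ) * (7 * ε) ≤ 1 / 10) {V : ℕ → A}
    (hV : ∀ j < N, ‖V j‖ ^ 2 ≤ 16 / τ ^ 2)
    (hQV : ∀ j < N, ‖bandQ b w (2 * j + 2) * V j‖ ^ 2 ≤ 2) {x : ℕ} (hx : x ≤ 2 * N + 2) :
    ‖star ((1 / √N : ℝ) • ∑ j ∈ Finset.range N, bandQ b w (2 * j + 2) * V j) * c * rt (g x)‖
      ≤ 3 / √N := by
  have hNr : (0 : ℝ) < N := by exact_mod_cast hN
  have hrt : ‖rt (g x)‖ ≤ 1 := by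
    have h1 := norm_rt_sq (H.g_nonneg x hx)
    have h2 := H.g_norm x hx
    rw [← h1] at h2
    exact (sq_le_one_iff₀ (norm_nonneg _)).1 h2
  have h2pos : (0 : ℝ) ≤ 283 / 200 := by norm_num
  have hterm : ∀ j ∈ Finset.range N,
      ‖star (bandQ b w (2 * j + 2) * V j) * c * rt (g x)‖ ≤
        (if (x ≤ 2 * j + 3 ∧ 2 * j < x) then (283 / 200 : ℝ) else 0) + (4 / τ) * (7 * ε) := by
    intro j hj
    have hj' := Finset.mem_range.1 hj
    split_ifs with hnear
    · have h1 : ‖bandQ b w (2 * j + 2) * V j‖ ≤ 283 / 200 := by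
        have := hQV j hj'
        refine (pow_le_pow_iff_left₀ (norm_nonneg _) h2pos (by norm_num : (2 : ℕ) ≠ 0)).1 ?_
        refine this.trans (by norm_num)
      have h3 : 0 ≤ (4 / τ) * (7 * ε) := by positivity
      calc ‖star (bandQ b w (2 * j + 2) * V j) * c * rt (g x)‖
          ≤ ‖star (bandQ b w (2 * j + 2) * V j)‖ * ‖c‖ * ‖rt (g x)‖ :=
            (norm_mul_le _ _).trans (mul_le_mul_of_nonneg_right (norm_mul_le _ _) (norm_nonneg _))
        _ ≤ (283 / 200) * 1 * 1 := by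
            rw [norm_star]
            gcongr
        _ ≤ _ := by linarith
    · have hfar : (2 * j + 2) + 1 < x ∨ x + 2 ≤ 2 * j + 2 := by omega
      have h1 := bandQ_far hb hb1 hc H (i := 2 * j + 2) (x := x) (by omega) hx hfar
      have e : star (bandQ b w (2 * j + 2) * V j) * c * rt (g x) =
          star (V j) * (star (bandQ b w (2 * j + 2)) * c * rt (g x)) := by
        rw [star_mul]; simp only [mul_assoc]
      rw [e, zero_add]
      refine (norm_mul_le _ _).trans ?_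
      rw [norm_star]
      have := C3_norm_V hτ (hV j hj')
      gcongr
  have e : star ((1 / √N : ℝ) • ∑ j ∈ Finset.range N, bandQ b w (2 * j + 2) * V j) * c * rt (g x) =
      (1 / √N : ℝ) • ∑ j ∈ Finset.range N, star (bandQ b w (2 * j + 2) * V j) * c * rt (g x) := by
    rw [star_smul, star_trivial, smul_mul_assoc, smul_mul_assoc, star_sum, Finset.sum_mul,
      Finset.sum_mul]
  have hcard : ((Finset.range N).filter (fun j => x ≤ 2 * j + 3 ∧ 2 * j < x)).card ≤ 2 := by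
    have hsub : (Finset.range N).filter (fun j => x ≤ 2 * j + 3 ∧ 2 * j < x) ⊆
        {(x - 1) / 2, (x - 1) / 2 - 1} := by
      intro j hj
      rw [Finset.mem_filter] at hj
      rw [Finset.mem_insert, Finset.mem_singleton]
      omega
    exact (Finset.card_le_card hsub).trans Finset.card_le_two
  have hsum : ‖∑ j ∈ Finset.range N, star (bandQ b w (2 * j + 2) * V j) * c * rt (g x)‖ ≤ 3 := by
    refine (norm_sum_le_of_le _ hterm).trans ?_
    rw [Finset.sum_add_distrib, Finset.sum_const, Finset.card_range, nsmul_eq_mul,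
      ← Finset.sum_filter, Finset.sum_const, nsmul_eq_mul]
    have h1 : (((Finset.range N).filter (fun j => x ≤ 2 * j + 3 ∧ 2 * j < x)).card : ℝ) ≤ 2 := by
      exact_mod_cast hcard
    have h2 : (N : ℝ) * ((4 / τ) * (7 * ε)) ≤ 1 / 10 := by
      rw [← mul_assoc]; exact hεs
    nlinarith
  rw [e, norm_smul, Real.norm_eq_abs, abs_of_nonneg (by positivity)]
  calc 1 / √(N : ℝ) * _ ≤ 1 / √(N : ℝ) * 3 := by gcongr
    _ = 3 / √(N : ℝ) := by ring

end

end PIS
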