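import Crest.Agent.PIS_D

/-!
# S0145 blueprint, task PIS-SE (selection lemma)

Replace the `sorry`s IN THIS FILE (do not change statements or names; helper lemmas are welcome, if they
are of general use put them in a new file `PIS_x*.lean`).  See `PIS_Defs.lean` for the definitions.
-/

set_option autoImplicit false

universe u

namespace PIS

section

variable {A : Type u} [NonUnitalCStarAlgebra A] [PartialOrder A] [StarOrderedRing A]

lemma sg_one_eq {s : A} (hs : 0 ≤ s) : sg 1 s = cfcₙ (fun x : ℝ => 1 - (1 + x)⁻¹) s := by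
  unfold sg
  apply cfcₙ_congr
  intro x hx
  have hx' : 0 ≤ x := quasispectrum_nonneg_of_nonneg s hs x hx
  simp only [sgf, max_eq_right hx']
  field_simp
  ring

/-- Operator monotonicity, only needed in this form: `0 ≤ x ≤ s`, `‖x‖ ≤ 1` imply `x ≤ 2 s (1+s)⁻¹`.
(In the unitization: `(1+s)⁻¹ ≤ (1+x)⁻¹` (`CStarAlgebra.inv_le_inv` or similar), so
`s(1+s)⁻¹ = 1 - (1+s)⁻¹ ≥ 1 - (1+x)⁻¹ = x (1+x)⁻¹ ≥ x/2`.) -/
theorem le_two_smul_sg {x s : A} (hx : 0 ≤ x) (hx1 : ‖x‖ ≤ 1) (hle : x ≤ s) :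
    x ≤ (2 : ℝ) • sg 1 s := by
  have hs : 0 ≤ s := hx.trans hle
  have h1 : sg 1 x ≤ sg 1 s := by
    rw [sg_one_eq hx, sg_one_eq hs]
    exact CFC.monotoneOn_one_sub_one_add_inv_real hx hs hle
  have h2 : cfcₙ (fun t : ℝ => t / 2) x ≤ cfcₙ (sgf 1) x := by
    apply cfcn_le_cfcn hx (by fun_prop) (by simp) (continuous_sgf one_pos) (sgf_zero 1)
    intro t ht ht1
    simp only [sgf, max_eq_right ht]
    have : t ≤ 1 := ht1.trans hx1
    rw [div_le_div_iff₀ (by norm_num) (by linarith)]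
    nlinarith
  have h3 : cfcₙ (fun t : ℝ => t / 2) x = (1 / 2 : ℝ) • x := by
    have : (fun t : ℝ => t / 2) = fun t : ℝ => (1 / 2 : ℝ) • t := by
      ext t; simp; ring
    rw [this, cfcₙ_smul_id (1 / 2 : ℝ) x]
  rw [h3] at h2
  have h4 : (1 / 2 : ℝ) • x ≤ sg 1 s := h2.trans h1
  have h5 : (2 : ℝ) • ((1 / 2 : ℝ) • x) ≤ (2 : ℝ) • sg 1 s := smul_le_smul_of_nonneg_left h4 (by norm_num)
  rw [smul_smul] at h5
  norm_num at h5
  exact h5


lemma smul_rmp_le_rt_mul {a b : ℝ} (ha : 0 ≤ a) (hab : a < b) {H : A} (hH : IsSelfAdjoint H) :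
    a • rmp a b H ≤ rt (rmp a b H) * H * rt (rmp a b H) := by
  have hc := continuous_rampf a b
  have h0 : rampf a b 0 = 0 := rampf_zero ha hab
  have h1 : rt (rmp a b H) = cfcₙ (fun t => √(rampf a b t)) H := by
    unfold rt rmp
    rw [← cfcₙ_comp' (R := ℝ) Real.sqrt (rampf a b) H (by fun_prop) (by simp)
      (hc.continuousOn) (rampf_zero ha hab) hH]
  have h2 : rt (rmp a b H) * H * rt (rmp a b H) =
      cfcₙ (fun t => √(rampf a b t) * t * √(rampf a b t)) H := by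
    rw [h1]
    nth_rewrite 2 [← cfcₙ_id' ℝ H hH]
    rw [← cfcₙ_mul _ _ H (by fun_prop) (by simp [h0]) (by fun_prop) (by simp),
      ← cfcₙ_mul _ _ H (by fun_prop) (by simp) (by fun_prop) (by simp [h0])]
  have h3 : a • rmp a b H = cfcₙ (fun t => a • rampf a b t) H := by
    unfold rmp
    rw [cfcₙ_smul a (rampf a b) H (by fun_prop) h0]
  rw [h2, h3]
  refine cfcₙ_mono (fun t _ => ?_) (by fun_prop) (by fun_prop) (by simp [h0]) (by simp)
  have h4 : √(rampf a b t) * t * √(rampf a b t) = rampf a b t * t := by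
    have := Real.mul_self_sqrt (rampf_nonneg a b t)
    calc _ = (√(rampf a b t) * √(rampf a b t)) * t := by ring
      _ = _ := by rw [this]
  rw [h4, smul_eq_mul]
  rcases le_or_gt t a with h | h
  · rw [rampf_eq_zero hab h]; simp
  · have := rampf_nonneg a b t
    nlinarith

/-- if the cut vanishes, `H` is bounded above by a positive element of norm `≤ κ`. -/
lemma exists_le_of_cut_eq_zero {κ : ℝ} (hκ : 0 ≤ κ) {H : A} (hH : IsSelfAdjoint H)
    (h : cut κ H = 0) : ∃ P : A, 0 ≤ P ∧ ‖P‖ ≤ κ ∧ H ≤ P := by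
  have hcut : ∀ t ∈ quasispectrum ℝ H, cutf κ t = 0 := by
    have h1 : cfcₙ (cutf κ) H = cfcₙ (fun _ => (0:ℝ)) H := by
      rw [cfcₙ_const_zero]; exact h
    have hc := continuous_cutf κ
    intro t ht
    exact (cfcₙ_eq_cfcₙ_iff_eqOn hH hc.continuousOn (cutf_zero hκ) (by fun_prop) rfl).1 h1 ht
  refine ⟨cfcₙ (fun t : ℝ => max 0 t) H, ?_, ?_, ?_⟩
  · apply cfcₙ_nonneg
    intro t _
    exact le_max_left _ _
  · apply norm_cfcₙ_le
    intro t ht
    have := hcut t ht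
    unfold cutf at this
    have h2 : t - κ ≤ 0 := by
      have := le_max_right 0 (t - κ)
      linarith
    rw [Real.norm_eq_abs, abs_of_nonneg (le_max_left _ _)]
    exact max_le hκ (by linarith)
  · conv_lhs => rw [← cfcₙ_id' ℝ H hH]
    exact cfcₙ_mono (fun t _ => le_max_right _ _) (by fun_prop) (by fun_prop) (by simp) (by simp)

omit [PartialOrder A] [StarOrderedRing A] in
/-- the algebra of the error terms. -/
lemma norm_conj_sub_le {r e m : A} {ν : ℝ} (hr : ‖r‖ ≤ 1) (he : ‖e‖ ≤ ν) (hν : ν ≤ 1) :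
    ‖star (r + e) * m * (r + e) - star r * m * r‖ ≤ 3 * ν * ‖m‖ := by
  have h : star (r + e) * m * (r + e) - star r * m * r =
      star r * m * e + star e * m * r + star e * m * e := by
    rw [star_add]; noncomm_ring
  rw [h]
  have hν0 : 0 ≤ ν := (norm_nonneg _).trans he
  have hm := norm_nonneg m
  have h1 : ‖star r * m * e‖ ≤ 1 * ‖m‖ * ν := by
    refine (norm_mul_le _ _).trans (mul_le_mul ((norm_mul_le _ _).trans ?_) he (norm_nonneg _) (by positivity))
    rw [norm_star]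
    exact mul_le_mul_of_nonneg_right hr hm
  have h2 : ‖star e * m * r‖ ≤ ν * ‖m‖ * 1 := by
    refine (norm_mul_le _ _).trans (mul_le_mul ((norm_mul_le _ _).trans ?_) hr (norm_nonneg _) (by positivity))
    rw [norm_star]
    exact mul_le_mul_of_nonneg_right he hm
  have h3 : ‖star e * m * e‖ ≤ ν * ‖m‖ * 1 := by
    refine (norm_mul_le _ _).trans (mul_le_mul ((norm_mul_le _ _).trans ?_) (he.trans hν) (norm_nonneg _) (by positivity))
    rw [norm_star]
    exact mul_le_mul_of_nonneg_right he hm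
  calc _ ≤ ‖star r * m * e‖ + ‖star e * m * r‖ + ‖star e * m * e‖ :=
        (norm_add_le _ _).trans (by gcongr; exact norm_add_le _ _)
    _ ≤ 3 * ν * ‖m‖ := by linarith

/-- **SelL.**  Proof.  `s = ∑ g i`, `s'' = sg 1 s` (`0 ≤ s'' ≤ 1`, `s'' ≤ s`), `H = κ s'' - rt s'' m rt s''`,
`φ = rmp (κ/16) (κ/8) H`, `g' = rmp 0 (1/16) (rt s'' φ rt s'')`.
* `g' ≤ 16 rt s'' φ rt s'' ≤ 16 s'' ≤ 16 s`.
* `‖rt g' m rt g'‖ = ‖rt m g' rt m‖ ≤ 16 ‖rt m rt s'' φ rt s'' rt m‖ = 16 ‖rt φ (rt s'' m rt s'') rt φ‖`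
  `= 16 ‖rt φ (κ s'' - H) rt φ‖ ≤ 16 κ` (`rt φ H rt φ ≥ 0`).
* `Full`: `‖π g'‖ ≤ 1/2` ⟹ `‖π (rt s'' φ rt s'')‖ ≤ 1/32`.  `rt φ s'' rt φ ≥ (1/κ) rt φ H rt φ ≥ (1/κ)(κ/16) φ = φ/16`, so
  `‖π φ‖ ≤ 16 ‖π (rt φ s'' rt φ)‖ = 16 ‖π (rt s'' φ rt s'')‖ ≤ 1/2 < 1`, so `π (cut (κ/8) H) = 0`, i.e. `π H ≤ κ/8`
  (unitization).  Fix `i`; `g i ≤ 2 s''` (`le_two_smul_sg`), so by `exists_rt_mul_near_rt` (for
  `(1/2) • g i ≤ s''`) for each `ν > 0` there is `k`, `‖k‖ ≤ 1`, `‖rt s'' k - rt ((1/2) • g i)‖ ≤ ν`.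
  Conjugate `π H ≤ κ/8` with `k`: up to `O(ν)`,
  `κ (1/2) g i - (1/2) rt (g i) m rt (g i) ≤ κ/8`, so `κ/2 ‖π (g i)‖ ≤ κ/8 + κ/16 + O(ν)`, `‖π (g i)‖ ≤ 3/8 + O(ν) ≤ 1/2`. -/
theorem exists_select {ι : Type*} (s : Finset ι) (g : ι → A) {m : A} (hm : 0 ≤ m)
    (hg : ∀ i ∈ s, 0 ≤ g i) (hg1 : ∀ i ∈ s, ‖g i‖ ≤ 1) {κ : ℝ} (hκ : 0 < κ)
    (hsmall : ∀ i ∈ s, ‖rt (g i) * m * rt (g i)‖ ≤ κ / 8) :
    ∃ g' : A, 0 ≤ g' ∧ ‖g'‖ ≤ 1 ∧ g' ≤ (16 : ℝ) • ∑ i ∈ s, g i ∧
      ‖rt g' * m * rt g'‖ ≤ 16 * κ ∧ ∀ i ∈ s, Full (1/2) g' (1/2) (g i) := by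
  obtain ⟨S, hS⟩ : ∃ S, S = ∑ i ∈ s, g i := ⟨_, rfl⟩
  have hS0 : 0 ≤ S := by rw [hS]; exact Finset.sum_nonneg hg
  obtain ⟨t, ht⟩ : ∃ t, t = sg 1 S := ⟨_, rfl⟩
  have ht0 : 0 ≤ t := by rw [ht]; exact sg_nonneg one_pos S
  have ht1 : ‖t‖ ≤ 1 := by rw [ht]; exact norm_sg_le_one one_pos S
  have htS : t ≤ S := by
    rw [ht]
    have := sg_le_smul one_pos hS0
    simpa using this
  obtain ⟨q, hq⟩ : ∃ q, q = rt t := ⟨_, rfl⟩
  have hqs : star q = q := by rw [hq]; exact star_rt t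
  have hqq : q * q = t := by rw [hq]; exact rt_mul_rt ht0
  have hqmq : 0 ≤ q * m * q := by
    have := conj_nonneg' hm q
    rwa [hqs] at this
  obtain ⟨H, hH⟩ : ∃ H, H = κ • t - q * m * q := ⟨_, rfl⟩
  have hHs : IsSelfAdjoint H := by
    rw [hH]
    exact ((IsSelfAdjoint.all κ).smul (IsSelfAdjoint.of_nonneg ht0)).sub (IsSelfAdjoint.of_nonneg hqmq)
  obtain ⟨φ, hφ⟩ : ∃ φ, φ = rmp (κ/16) (κ/8) H := ⟨_, rfl⟩
  have hφ0 : 0 ≤ φ := by rw [hφ]; exact rmp_nonneg _ _ _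
  have hφ1 : ‖φ‖ ≤ 1 := by rw [hφ]; exact norm_rmp_le_one _ _ _
  obtain ⟨w, hw⟩ : ∃ w, w = q * φ * q := ⟨_, rfl⟩
  have hw0 : 0 ≤ w := by
    have := conj_nonneg' hφ0 q
    rw [hw]; rwa [hqs] at this
  have hwt : w ≤ t := by
    have h1 := conj_le_norm_smul hφ0 q
    rw [hqs, hqq] at h1
    rw [hw]
    refine h1.trans ?_
    have h2 : ‖φ‖ • t ≤ (1 : ℝ) • t := smul_le_smul_of_nonneg_right hφ1 ht0
    simpa using h2
  have hb : (0:ℝ) < 1/16 := by norm_num
  have hg'w : rmp 0 (1/16) w ≤ (16 : ℝ) • w := by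
    have := rmp_le_smul (le_refl (0:ℝ)) hb hw0
    norm_num at this ⊢
    exact this
  have hκ16 : κ/16 < κ/8 := by linarith
  have hκ0 : 0 ≤ κ/16 := by linarith
  -- `rt φ` facts
  obtain ⟨p, hp⟩ : ∃ p, p = rt φ := ⟨_, rfl⟩
  have hps : star p = p := by rw [hp]; exact star_rt φ
  have hpp : p * p = φ := by rw [hp]; exact rt_mul_rt hφ0
  have hpHp : (κ/16) • φ ≤ p * H * p := by
    rw [hp, hφ]; exact smul_rmp_le_rt_mul hκ0 hκ16 hHs
  have hp1 : ‖p‖ ≤ 1 := by
    have h1 := norm_rt_sq hφ0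
    rw [← hp] at h1
    have h2 := norm_nonneg p
    nlinarith
  have hpt : p * (q * m * q) * p = κ • (p * t * p) - p * H * p := by
    rw [hH]
    simp only [mul_sub, sub_mul, smul_mul_assoc, mul_smul_comm]
    abel
  have hpqmqp : 0 ≤ p * (q * m * q) * p := by
    have := conj_nonneg' hqmq p
    rwa [hps] at this
  refine ⟨rmp 0 (1/16) w, rmp_nonneg _ _ _, norm_rmp_le_one _ _ _, ?_, ?_, ?_⟩
  · rw [← hS]
    exact hg'w.trans (smul_le_smul_of_nonneg_left (hwt.trans htS) (by norm_num))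
  · -- the link
    have hg'0 : 0 ≤ rmp 0 (1/16) w := rmp_nonneg _ _ _
    have h1 : ‖rt (rmp 0 (1/16) w) * m * rt (rmp 0 (1/16) w)‖ = ‖rt m * rt (rmp 0 (1/16) w)‖ ^ 2 := by
      rw [norm_rt_mul_sq hm, star_rt]
    have h2 : ‖rt m * rt (rmp 0 (1/16) w)‖ ≤ √16 * ‖rt m * rt w‖ :=
      norm_mul_rt_le (by norm_num) hw0 hg'0 hg'w (rt m)
    have h3 : ‖rt m * rt w‖ ^ 2 = ‖rt m * w * rt m‖ := by
      rw [norm_mul_rt_sq hw0, star_rt]
    have h4 : ‖rt m * w * rt m‖ = ‖p * (q * m * q) * p‖ := by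
      have h5 : rt m * w * rt m = star (p * q * rt m) * (p * q * rt m) := by
        rw [hw, ← hpp]
        simp only [star_mul, hps, hqs, star_rt, mul_assoc]
      have h6 : p * (q * m * q) * p = (p * q * rt m) * star (p * q * rt m) := by
        nth_rewrite 1 [← rt_mul_rt hm]
        simp only [star_mul, hps, hqs, star_rt, mul_assoc]
      rw [h5, h6, CStarRing.norm_star_mul_self, CStarRing.norm_self_mul_star]
    have h7 : ‖p * (q * m * q) * p‖ ≤ κ := by
      have h8 : p * (q * m * q) * p ≤ κ • (p * t * p) := by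
        rw [hpt]
        have : 0 ≤ p * H * p := (smul_nonneg' hφ0 hκ0).trans hpHp
        exact sub_le_self _ this
      refine (norm_le_of_le hpqmqp h8).trans ?_
      rw [norm_smul, Real.norm_eq_abs, abs_of_pos hκ]
      have : ‖p * t * p‖ ≤ 1 := by
        calc ‖p * t * p‖ ≤ ‖p * t‖ * ‖p‖ := norm_mul_le _ _
          _ ≤ (‖p‖ * ‖t‖) * ‖p‖ := by gcongr; exact norm_mul_le _ _
          _ ≤ (1 * 1) * 1 := by gcongr
          _ = 1 := by norm_num
      nlinarith
    rw [h1]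
    have h9 : ‖rt m * rt (rmp 0 (1/16) w)‖ ^ 2 ≤ (√16 * ‖rt m * rt w‖) ^ 2 := by
      gcongr
    refine h9.trans ?_
    rw [mul_pow, Real.sq_sqrt (by norm_num), h3, h4]
    linarith
  · -- fullness
    intro i hi B _ π hπ
    let : PartialOrder B := CStarAlgebra.spectralOrder B
    let : StarOrderedRing B := CStarAlgebra.spectralOrderedRing B
    have hwsa : IsSelfAdjoint w := IsSelfAdjoint.of_nonneg hw0
    have hπw : ‖π w‖ ≤ 1/32 := by
      rw [map_rmp π (le_refl 0) hb hwsa] at hπ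
      have := norm_le_of_norm_rmp_zero_le hb (by norm_num) (map_nonneg' π hw0) hπ
      linarith
    have hφle : φ ≤ (16:ℝ) • (p * t * p) := by
      have h1 : p * H * p ≤ κ • (p * t * p) := by
        have h2 : p * H * p = κ • (p * t * p) - p * (q * m * q) * p := by rw [hpt]; abel
        rw [h2]
        exact sub_le_self _ hpqmqp
      have h3 := hpHp.trans h1
      have h4 : (16/κ) • ((κ/16) • φ) ≤ (16/κ) • (κ • (p * t * p)) :=
        smul_le_smul_of_nonneg_left h3 (by positivity)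
      rw [smul_smul, smul_smul] at h4
      have h5 : 16/κ * (κ/16) = 1 := by field_simp
      have h6 : 16/κ * κ = 16 := by field_simp
      rw [h5, h6, one_smul] at h4
      exact h4
    have hπφ : ‖π φ‖ ≤ 1/2 := by
      have h1 : π φ ≤ π ((16:ℝ) • (p * t * p)) := map_mono' π hφle
      have h2 := norm_le_of_le (map_nonneg' π hφ0) h1
      refine h2.trans ?_
      have h3 : (16:ℝ) • (p * t * p) = (16:ℂ) • (p * t * p) := by
        norm_num [← Complex.coe_smul]
      rw [h3, map_smul, norm_smul]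
      have h4 : π (p * t * p) = π (p * q) * star (π (p * q)) := by
        rw [← map_star, ← map_mul, star_mul, hps, hqs, ← hqq]
        simp only [mul_assoc]
      have h5 : π w = star (π (p * q)) * π (p * q) := by
        rw [← map_star, ← map_mul, star_mul, hps, hqs, hw, ← hpp]
        simp only [mul_assoc]
      rw [h4, CStarRing.norm_self_mul_star, ← CStarRing.norm_star_mul_self, ← h5]
      norm_num
      linarith
    have hcut : cut (κ/8) (π H) = 0 := by
      apply cut_eq_zero_of_norm_rmp_lt_one hκ0 hκ16 (hHs.map π)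
      rw [← map_rmp π hκ0 hκ16 hHs, ← hφ]
      linarith
    obtain ⟨P, hP0, hP1, hPH⟩ := exists_le_of_cut_eq_zero (by linarith) (hHs.map π) hcut
    -- the element `k`
    obtain ⟨ν, hν⟩ : ∃ ν, ν = min 1 (κ / (48 * (κ + ‖m‖))) := ⟨_, rfl⟩
    have hm0 := norm_nonneg m
    have hν0 : 0 < ν := by rw [hν]; positivity
    have hν1 : ν ≤ 1 := by rw [hν]; exact min_le_left _ _
    have hν2 : 3 * ν * (κ + ‖m‖) ≤ κ / 16 := by
      have : ν ≤ κ / (48 * (κ + ‖m‖)) := by rw [hν]; exact min_le_right _ _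
      rw [le_div_iff₀ (by positivity)] at this
      linarith
    have hgS : g i ≤ S := by
      rw [hS]; exact Finset.single_le_sum hg hi
    have hgt : g i ≤ (2:ℝ) • t := by
      rw [ht]; exact le_two_smul_sg (hg i hi) (hg1 i hi) hgS
    have hgt' : (1/2:ℝ) • g i ≤ t := by
      have h1 : (1/2:ℝ) • g i ≤ (1/2:ℝ) • ((2:ℝ) • t) := smul_le_smul_of_nonneg_left hgt (by norm_num)
      rw [smul_smul] at h1
      norm_num at h1 ⊢
      exact h1
    have hg0' : 0 ≤ (1/2:ℝ) • g i := smul_nonneg' (hg i hi) (by norm_num)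
    obtain ⟨k, hk1, hk⟩ := exists_rt_mul_near_rt hg0' hgt' hν0
    obtain ⟨r, hr⟩ : ∃ r, r = rt ((1/2:ℝ) • g i) := ⟨_, rfl⟩
    have hrs : star r = r := by rw [hr]; exact star_rt _
    have hrr : r * r = (1/2:ℝ) • g i := by rw [hr]; exact rt_mul_rt hg0'
    have hr1 : ‖r‖ ≤ 1 := by
      have h1 := norm_rt_sq hg0'
      rw [← hr, norm_smul] at h1
      have h2 := hg1 i hi
      have h3 := norm_nonneg r
      norm_num at h1
      nlinarith
    obtain ⟨e, he⟩ : ∃ e, e = q * k - r := ⟨_, rfl⟩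
    have hqk : q * k = r + e := by rw [he]; abel
    have he1 : ‖e‖ ≤ ν := by rw [he, hq, hr]; exact hk
    have hrmr : ‖r * m * r‖ ≤ κ / 16 := by
      have h1 : ‖r * m * r‖ = ‖rt m * r‖ ^ 2 := by
        rw [norm_rt_mul_sq hm, hrs]
      have h2 : ‖rt m * r‖ ≤ √(1/2) * ‖rt m * rt (g i)‖ := by
        rw [hr]; exact norm_mul_rt_le (by norm_num) (hg i hi) hg0' le_rfl (rt m)
      have h3 : ‖rt m * rt (g i)‖ ^ 2 = ‖rt (g i) * m * rt (g i)‖ := by
        rw [norm_rt_mul_sq hm, star_rt]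
      rw [h1]
      have h4 : ‖rt m * r‖ ^ 2 ≤ (√(1/2) * ‖rt m * rt (g i)‖) ^ 2 := by gcongr
      refine h4.trans ?_
      rw [mul_pow, Real.sq_sqrt (by norm_num), h3]
      have := hsmall i hi
      linarith
    -- the key inequality
    have hkey : κ • (r * r) = star k * H * k + r * m * r +
        ((star (r + e) * m * (r + e) - star r * m * r) -
        κ • (star (r + e) * (r + e) - r * r)) := by
      have h1 : star k * H * k = κ • (star (q * k) * (q * k)) - star (q * k) * m * (q * k) := by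
        rw [hH, ← hqq, star_mul, hqs]
        simp only [mul_sub, sub_mul, smul_mul_assoc, mul_smul_comm, mul_assoc]
      rw [h1, hqk, hrs, smul_sub]
      abel
    obtain ⟨E, hE⟩ : ∃ E, E = (star (r + e) * m * (r + e) - star r * m * r) -
        κ • (star (r + e) * (r + e) - r * r) := ⟨_, rfl⟩
    have hEn : ‖E‖ ≤ κ / 16 := by
      have h1 := norm_conj_sub_le (m := m) hr1 he1 hν1
      have h2 : ‖star (r + e) * (r + e) - r * r‖ ≤ 3 * ν := by
        have h3 : star (r + e) * (r + e) - r * r = r * e + star e * r + star e * e := by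
          rw [star_add, hrs]; noncomm_ring
        rw [h3]
        have h4 : ‖r * e‖ ≤ 1 * ν := (norm_mul_le _ _).trans (mul_le_mul hr1 he1 (norm_nonneg _) (by norm_num))
        have h5 : ‖star e * r‖ ≤ ν * 1 := (norm_mul_le _ _).trans
          (mul_le_mul (by rwa [norm_star]) hr1 (norm_nonneg _) hν0.le)
        have h6 : ‖star e * e‖ ≤ ν * 1 := (norm_mul_le _ _).trans
          (mul_le_mul (by rwa [norm_star]) (he1.trans hν1) (norm_nonneg _) hν0.le)
        calc _ ≤ ‖r * e‖ + ‖star e * r‖ + ‖star e * e‖ :=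
              (norm_add_le _ _).trans (by gcongr; exact norm_add_le _ _)
          _ ≤ 3 * ν := by linarith
      have h3 : ‖κ • (star (r + e) * (r + e) - r * r)‖ ≤ κ * (3 * ν) := by
        rw [norm_smul, Real.norm_eq_abs, abs_of_pos hκ]
        gcongr
      rw [hE]
      refine (norm_sub_le _ _).trans ?_
      linarith
    rw [← hE] at hkey
    have hreal : ∀ (c : ℝ) (x : A), π (c • x) = c • π x := by
      intro c x
      rw [← Complex.coe_smul, map_smul, Complex.coe_smul]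
    have hπkey : κ • π (r * r) ≤ star (π k) * P * π k + π (r * m * r) + π E := by
      have h1 : κ • π (r * r) = star (π k) * π H * π k + π (r * m * r) + π E := by
        rw [← hreal, hkey, map_add, map_add, map_mul, map_mul, map_star]
      rw [h1]
      have := conj_mono hPH (π k)
      gcongr
    have hrr0 : 0 ≤ r * r := by rw [hrr]; exact hg0'
    have h10 : 0 ≤ κ • π (r * r) := smul_nonneg' (map_nonneg' π hrr0) hκ.le
    have h11 := norm_le_of_le h10 hπkey
    have h12 : ‖κ • π (r * r)‖ = κ / 2 * ‖π (g i)‖ := by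
      rw [hrr, hreal, smul_smul, norm_smul, Real.norm_eq_abs, abs_of_pos (by positivity)]
      ring
    rw [h12] at h11
    have h13 : ‖star (π k) * P * π k + π (r * m * r) + π E‖ ≤ κ/8 + κ/16 + κ/16 := by
      refine (norm_add_le _ _).trans (add_le_add ((norm_add_le _ _).trans (add_le_add ?_ ?_)) ?_)
      · have h14 : ‖π k‖ ≤ 1 := (norm_map_le π k).trans hk1
        calc ‖star (π k) * P * π k‖ ≤ ‖star (π k) * P‖ * ‖π k‖ := norm_mul_le _ _
          _ ≤ (‖star (π k)‖ * ‖P‖) * ‖π k‖ := by gcongr; exact norm_mul_le _ _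
          _ ≤ (1 * (κ/8)) * 1 := by
              gcongr
              rwa [norm_star]
          _ = κ/8 := by ring
      · exact (norm_map_le π _).trans hrmr
      · exact (norm_map_le π _).trans hEn
    have h15 := h11.trans h13
    have h16 : κ * ‖π (g i)‖ ≤ κ * (1/2) := by linarith
    exact le_of_mul_le_mul_left h16 hκ

end

end PIS
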