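import Crest.Agent.PIS_A1e

/-!
# S0145 helper: order-free versions for images under ⋆-homomorphisms

For `π : A →⋆ₙₐ[ℂ] B` with `A` ordered and `B` WITHOUT a given order (as in `Dom`, `Full`).
-/

set_option autoImplicit false
set_option linter.style.haveILetI false

universe u

namespace PIS

section

variable {A : Type u} [NonUnitalCStarAlgebra A]
variable {B : Type u} [NonUnitalCStarAlgebra B]

/-- if `‖π (rmp a b x)‖ < 1` then `π (cut b x) = 0`, `x` self-adjoint -/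
lemma map_cut_eq_zero_of_norm_map_rmp_lt_one (π : A →⋆ₙₐ[ℂ] B) {a b : ℝ} (ha : 0 ≤ a)
    (hab : a < b) {x : A} (hx : IsSelfAdjoint x) (h : ‖π (rmp a b x)‖ < 1) :
    π (cut b x) = 0 := by
  rw [map_rmp π ha hab hx] at h
  rw [map_cut π (ha.trans hab.le) hx]
  exact cut_eq_zero_of_norm_rmp_lt_one ha hab (hx.map π) h

lemma map_real_smul (π : A →⋆ₙₐ[ℂ] B) (C : ℝ) (y : A) : π (C • y) = C • π y := by
  have : C • y = ((C : ℂ)) • y := by simp
  rw [this, map_smul]; simp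

lemma norm_map_star_mul_self (π : A →⋆ₙₐ[ℂ] B) (x : A) : ‖π (star x * x)‖ = ‖π x‖ ^ 2 := by
  rw [map_mul, map_star, CStarRing.norm_star_mul_self, sq]

lemma norm_map_mul_star_self (π : A →⋆ₙₐ[ℂ] B) (x : A) : ‖π (x * star x)‖ = ‖π x‖ ^ 2 := by
  rw [map_mul, map_star, CStarRing.norm_self_mul_star, sq]

lemma Full.trans {κ κ' t : ℝ} {x y z : A} (h₁ : Full κ x κ' y) (h₂ : Full κ' y t z) :
    Full κ x t z := fun B _ π h => h₂ B π (h₁ B π h)

end

section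

variable {A : Type u} [NonUnitalCStarAlgebra A] [PartialOrder A] [StarOrderedRing A]
variable {B : Type u} [NonUnitalCStarAlgebra B]

lemma map_cut_eq_zero_iff (π : A →⋆ₙₐ[ℂ] B) {κ : ℝ} (hκ : 0 ≤ κ) {x : A} (hx : 0 ≤ x) :
    π (cut κ x) = 0 ↔ ‖π x‖ ≤ κ := by
  letI := CStarAlgebra.spectralOrder B
  haveI := CStarAlgebra.spectralOrderedRing B
  rw [map_cut π hκ (IsSelfAdjoint.of_nonneg hx)]
  exact cut_eq_zero_iff hκ (map_nonneg' π hx)

lemma norm_map_le_of_norm_map_rmp_lt_one (π : A →⋆ₙₐ[ℂ] B) {a b : ℝ} (ha : 0 ≤ a) (hab : a < b)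
    {x : A} (hx : 0 ≤ x) (h : ‖π (rmp a b x)‖ < 1) : ‖π x‖ ≤ b := by
  letI := CStarAlgebra.spectralOrder B
  haveI := CStarAlgebra.spectralOrderedRing B
  rw [map_rmp π ha hab (IsSelfAdjoint.of_nonneg hx)] at h
  exact norm_le_of_norm_rmp_lt_one ha hab (map_nonneg' π hx) h

lemma norm_map_le_of_norm_map_rmp_zero_le (π : A →⋆ₙₐ[ℂ] B) {b s : ℝ} (hb : 0 < b) (hs : s < 1)
    {x : A} (hx : 0 ≤ x) (h : ‖π (rmp 0 b x)‖ ≤ s) : ‖π x‖ ≤ s * b := by
  letI := CStarAlgebra.spectralOrder B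
  haveI := CStarAlgebra.spectralOrderedRing B
  rw [map_rmp π le_rfl hb (IsSelfAdjoint.of_nonneg hx)] at h
  exact norm_le_of_norm_rmp_zero_le hb hs (map_nonneg' π hx) h

lemma map_rmp_eq_zero_of_norm_le (π : A →⋆ₙₐ[ℂ] B) {a b : ℝ} (ha : 0 ≤ a) (hab : a < b)
    {x : A} (hx : 0 ≤ x) (h : ‖π x‖ ≤ a) : π (rmp a b x) = 0 := by
  letI := CStarAlgebra.spectralOrder B
  haveI := CStarAlgebra.spectralOrderedRing B
  rw [map_rmp π ha hab (IsSelfAdjoint.of_nonneg hx)]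
  exact rmp_eq_zero_of_norm_le ha hab (map_nonneg' π hx) h

lemma norm_map_mono (π : A →⋆ₙₐ[ℂ] B) {x y : A} (hx : 0 ≤ x) (hxy : x ≤ y) :
    ‖π x‖ ≤ ‖π y‖ := by
  letI := CStarAlgebra.spectralOrder B
  haveI := CStarAlgebra.spectralOrderedRing B
  exact norm_le_of_le (map_nonneg' π hx) (map_mono' π hxy)

lemma norm_map_le_smul (π : A →⋆ₙₐ[ℂ] B) {x y : A} {C : ℝ} (hC : 0 ≤ C) (hx : 0 ≤ x)
    (hxy : x ≤ C • y) : ‖π x‖ ≤ C * ‖π y‖ := by
  have h := norm_map_mono π hx hxy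
  have h2 : π (C • y) = C • π y := by
    have : C • y = ((C : ℂ)) • y := by simp
    rw [this, map_smul]; simp
  rwa [h2, norm_smul, Real.norm_of_nonneg hC] at h

lemma map_eq_zero_of_le (π : A →⋆ₙₐ[ℂ] B) {x y : A} {C : ℝ} (hC : 0 ≤ C) (hx : 0 ≤ x)
    (hxy : x ≤ C • y) (hy : π y = 0) : π x = 0 := by
  have h := norm_map_le_smul π hC hx hxy
  rw [hy, norm_zero, mul_zero] at h
  exact norm_le_zero_iff.mp h

/-- if `π` kills a sum of two positive elements, it kills both -/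
lemma map_eq_zero_of_add (π : A →⋆ₙₐ[ℂ] B) {x y : A} (hx : 0 ≤ x) (hy : 0 ≤ y)
    (h : π (x + y) = 0) : π x = 0 ∧ π y = 0 := by
  letI := CStarAlgebra.spectralOrder B
  haveI := CStarAlgebra.spectralOrderedRing B
  rw [map_add] at h
  exact eq_zero_of_add_eq_zero (map_nonneg' π hx) (map_nonneg' π hy) h

lemma Full.dom {κ t : ℝ} (ht : 0 ≤ t) (hκ : 0 ≤ κ) {x y : A} (hx : 0 ≤ x) (hy : 0 ≤ y)
    (h : Full κ x t y) : Dom (cut κ x) (cut t y) := by
  intro B _ π h0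
  rw [map_cut_eq_zero_iff π hκ hx] at h0
  rw [map_cut_eq_zero_iff π ht hy]
  exact h B π h0

end

end PIS
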