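import Crest.Agent.PIS_P2
import Crest.Agent.PIS_SE
import Crest.Agent.PIS_C2
import Crest.Agent.PIS_C3
import Crest.Agent.PIS_X1

set_option autoImplicit false
set_option linter.style.haveILetI false

universe u

namespace PIS

section

variable {A : Type u} [NonUnitalCStarAlgebra A] [PartialOrder A] [StarOrderedRing A]

/-- numerical parameters for `core` -/
lemma core_params {t δ : ℝ} (ht : 0 < t) (hδ : 0 < δ) :
    ∃ N : ℕ, 0 < N ∧ (4 / t) * (1152 / N) ≤ δ ^ 2 / 2 ∧ ∃ ε : ℝ, 0 < ε ∧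
      N * (4 / (t/2)) * (7 * ε) ≤ 1 / 10 ∧ N * (16 / (t/2) ^ 2) * (7 * ε) ≤ t / 16 ∧
      (4 / t) * ((2 * N + 2) * (16 * ((2 * N + 3) * ε ^ 2))) ≤ δ ^ 2 / 2 := by
  obtain ⟨N, hN⟩ := exists_nat_gt (9216 / (t * δ ^ 2))
  have hN0 : (0 : ℝ) < N := lt_trans (by positivity) hN
  have hNpos : 0 < N := by exact_mod_cast hN0
  refine ⟨N, hNpos, ?_, ?_⟩
  · rw [div_lt_iff₀ (by positivity)] at hN
    rw [div_mul_div_comm, div_le_div_iff₀ (by positivity) (by norm_num)]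
    nlinarith
  · set a : ℝ := N * (4 / (t/2)) * 7 with ha
    set b : ℝ := N * (16 / (t/2) ^ 2) * 7 with hb
    set d : ℝ := (4 / t) * ((2 * N + 2) * (16 * (2 * N + 3))) with hd
    have ha0 : 0 < a := by positivity
    have hb0 : 0 < b := by positivity
    have hd0 : 0 < d := by positivity
    refine ⟨min (min (1 / 10 / a) (t / 16 / b)) (min 1 (δ ^ 2 / 2 / d)), by positivity, ?_, ?_, ?_⟩
    · have h : min (min (1 / 10 / a) (t / 16 / b)) (min 1 (δ ^ 2 / 2 / d)) ≤ 1 / 10 / a :=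
        (min_le_left _ _).trans (min_le_left _ _)
      have := mul_le_mul_of_nonneg_left h ha0.le
      rw [mul_div_cancel₀ _ ha0.ne'] at this
      calc _ = a * min (min (1 / 10 / a) (t / 16 / b)) (min 1 (δ ^ 2 / 2 / d)) := by
            rw [ha]; ring
        _ ≤ _ := this
    · have h : min (min (1 / 10 / a) (t / 16 / b)) (min 1 (δ ^ 2 / 2 / d)) ≤ t / 16 / b :=
        (min_le_left _ _).trans (min_le_right _ _)
      have := mul_le_mul_of_nonneg_left h hb0.le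
      rw [mul_div_cancel₀ _ hb0.ne'] at this
      calc _ = b * min (min (1 / 10 / a) (t / 16 / b)) (min 1 (δ ^ 2 / 2 / d)) := by
            rw [hb]; ring
        _ ≤ _ := this
    · set e := min (min (1 / 10 / a) (t / 16 / b)) (min 1 (δ ^ 2 / 2 / d)) with he
      have he0 : 0 < e := by positivity
      have h : e ≤ δ ^ 2 / 2 / d := (min_le_right _ _).trans (min_le_right _ _)
      have h1 : e ≤ 1 := (min_le_right _ _).trans (min_le_left _ _)
      have h2 : e ^ 2 ≤ e := by nlinarith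
      have := mul_le_mul_of_nonneg_left (h2.trans h) hd0.le
      rw [mul_div_cancel₀ _ hd0.ne'] at this
      calc _ = d * e ^ 2 := by rw [hd]; ring
        _ ≤ _ := this

lemma smul_le_smul_of_le_of_nonneg {x : A} (hx : 0 ≤ x) {r s : ℝ} (h : r ≤ s) : r • x ≤ s • x := by
  have h0 : 0 ≤ (s - r) • x := smul_nonneg' hx (by linarith)
  rw [sub_smul] at h0
  exact sub_nonneg.mp h0

lemma smul_le_smul_of_nonneg' {x y : A} (hxy : x ≤ y) {r : ℝ} (hr : 0 ≤ r) : r • x ≤ r • y := by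
  have h0 : 0 ≤ r • (y - x) := smul_nonneg' (sub_nonneg.mpr hxy) hr
  rw [smul_sub] at h0
  exact sub_nonneg.mp h0

lemma mul_mul_star_le_smul {b Z : A} (hb : 0 ≤ b) (hb1 : ‖b‖ ≤ 1) :
    (b * Z) * star (b * Z) ≤ (‖Z‖ ^ 2) • b := by
  have hbs : star b = b := (IsSelfAdjoint.of_nonneg hb).star_eq
  have h1 : star b * (Z * star Z) * b ≤ ‖Z * star Z‖ • (star b * b) :=
    conj_le_norm_smul (mul_star_self_nonneg Z) b
  rw [hbs, CStarRing.norm_self_mul_star, ← sq] at h1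
  have h2 : (b * Z) * star (b * Z) = b * (Z * star Z) * b := by
    rw [star_mul, hbs]; noncomm_ring
  rw [h2]
  exact h1.trans (smul_le_smul_of_nonneg' (mul_self_le hb hb1) (by positivity))

lemma lk_sq_le_add {ι : Type*} (s : Finset ι) {h' h₂ : A} {H : ι → A} {K : ℝ} (hK : 0 ≤ K)
    (hh' : 0 ≤ h') (hH : ∀ i ∈ s, 0 ≤ H i) (hle : h' ≤ K • (∑ i ∈ s, H i + h₂)) (c g : A) :
    lk h' c g ^ 2 ≤ K * (∑ i ∈ s, lk (H i) c g ^ 2 + ‖rt g * (star c * h₂ * c) * rt g‖) := by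
  rw [lk_sq_left hh']
  have h0 : 0 ≤ rt g * (star c * h' * c) * rt g := by
    have := conj_nonneg' (conj_nonneg' hh' c) (rt g)
    rwa [star_rt] at this
  have h1 : rt g * (star c * h' * c) * rt g ≤
      rt g * (star c * (K • (∑ i ∈ s, H i + h₂)) * c) * rt g := by
    have := conj_mono (conj_mono hle c) (rt g)
    rwa [star_rt] at this
  refine (norm_le_of_le h0 h1).trans ?_
  have h2 : rt g * (star c * (K • (∑ i ∈ s, H i + h₂)) * c) * rt g =
      K • (∑ i ∈ s, rt g * (star c * H i * c) * rt g + rt g * (star c * h₂ * c) * rt g) := by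
    simp only [mul_smul_comm, smul_mul_assoc, mul_add, add_mul, Finset.mul_sum, Finset.sum_mul,
      smul_add]
  rw [h2, norm_smul, Real.norm_of_nonneg hK]
  refine mul_le_mul_of_nonneg_left ?_ hK
  refine (norm_add_le _ _).trans (add_le_add_left ?_ _)
  refine (norm_sum_le _ _).trans (Finset.sum_le_sum fun i hi => ?_)
  rw [lk_sq_left (hH i hi)]

/-- **CT.**  Proof.  `τ = t/2`, `δ' = t/8`, `θ = τ + δ'`, `κ₃ = t/8`; `N` large with `1152 / (2 κ₃ N) ≤ δ²/2`;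
then `ε` tiny: `N (4/τ) (7ε) ≤ 1/10`, `N (16/τ²)(7ε) ≤ t/16`, `(1/(2κ₃)) (2N+2) 16 (2N+3) ε² ≤ δ²/2`.
`exists_bands` with `n = 2N+2`.  For `j < N`, `i = 2j+2`, `exists_band_vector` (from `band i`, `Q = bandQ b w i`, `ν = t/32`): `X j, V j`.
`Q₂ = (1/√N) • ∑ Q_i V_j`, `h₂ = Q₂ Q₂⋆`, `m = c⋆ h₂ c`.  `‖rt (g x) m rt (g x)‖ = ‖Q₂⋆ c rt (g x)‖² ≤ 9/N` (`spread_link`),
so `exists_select` on `range (2N+3)` with `κ = 72/N`: `g'`, `g' ≤ 16 ∑ g x ≤ 16 (2N+3) C g0`, `‖rt g' m rt g'‖ ≤ 1152/N`,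
`Full (1/2) g' (1/2) (g x)`, hence `Full (1/2) g' (1/2) g0` by `g_full`.
`S = ∑_{1 ≤ i ≤ 2N+2} h i + h₂`, `h' = rmp 0 (2κ₃) S ≤ (1/(2κ₃)) S`.
* `h' ≤ C' b`: `h i ≤ (2/τ) b`; `Q₂ = b Z` hence `h₂ = b Z Z⋆ b ≤ ‖Z‖² b² ≤ ‖Z‖² b`.
* `lk h' c g'² ≤ (1/(2κ₃)) (∑ lk (h i) c g'² + ‖rt g' m rt g'‖)`, `lk (h i) c g'² ≤ 16 ∑_x lk (h i) c (g x)² ≤ 16 (2N+3) ε²`.
* `Full (1/2) h' t b`: `‖π h'‖ ≤ 1/2` ⟹ `‖π S‖ ≤ κ₃` (`norm_le_of_norm_rmp_zero_le`) ⟹ `‖π (h i)‖ ≤ κ₃ ≤ 1/2`,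
  `‖π Q₂‖² ≤ κ₃`, and `cut (1/2) (π h_i) = 0`.  Average the relations of `exists_band_vector` over `j < N`, use `spread_cross`:
  `‖π (cut θ b)‖ ≤ ν + t/16 + κ₃ ≤ t/32 + t/16 + t/8 < t/4`… so `‖π b‖ ≤ θ + t/4 ≤ t` (`5t/8 + t/4 < t`). -/
theorem core (hA : PI A) {b c g0 : A} (hb : 0 ≤ b) (hb1 : ‖b‖ ≤ 1) (hc : ‖c‖ ≤ 1)
    (hg0 : 0 ≤ g0) (hg01 : ‖g0‖ ≤ 1) {t δ : ℝ} (ht : 0 < t) (ht1 : t < 1) (hδ : 0 < δ) :
    ∃ (C : ℝ) (g h : A), 0 ≤ C ∧ 0 ≤ g ∧ ‖g‖ ≤ 1 ∧ 0 ≤ h ∧ ‖h‖ ≤ 1 ∧ g ≤ C • g0 ∧ h ≤ C • b ∧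
      lk h c g ≤ δ ∧ Full (1/2) g (1/2) g0 ∧ Full (1/2) h t b := by
  classical
  obtain ⟨N, hN, hNb, ε, hε, he1, he2, he3⟩ := core_params ht hδ
  have hN0 : (0 : ℝ) < N := by exact_mod_cast hN
  have hτ : 0 < t / 2 := by positivity
  have hδ' : 0 < t / 8 := by positivity
  obtain ⟨C, hC, w, g, h, H⟩ := exists_bands hA hb hb1 hc hg0 hg01 hτ hδ' (2 * N + 2) ε hε
  have hvec : ∀ j, ∃ X V : A, j < N → (‖V‖ ^ 2 ≤ 16 / (t/2) ^ 2 ∧
      ‖bandQ b w (2 * j + 2) * V‖ ^ 2 ≤ 1 + t / 32 ∧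
      ‖star X * cut (1/2) (h (2 * j + 2)) * X +
        star (bandQ b w (2 * j + 2) * V) * (bandQ b w (2 * j + 2) * V) -
          cut (t/2 + t/8) b‖ ≤ t / 32) := by
    intro j
    by_cases hj : j < N
    · obtain ⟨X, V, h1, h2, h3⟩ := exists_band_vector hA hb hb1
        (H.h_nonneg (2 * j + 2) (by omega) (by omega)) (Q := bandQ b w (2 * j + 2)) hτ
        (θ := t/2 + t/8) (by positivity)
        (fun B _ π h1 h2 => H.band (2 * j + 2) (by omega) (by omega) B π h1 h2)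
        (ν := t / 32) (by positivity) (by linarith)
      exact ⟨X, V, fun _ => ⟨h1, h2, h3⟩⟩
    · exact ⟨0, 0, fun h => absurd h hj⟩
  choose X V hXV using hvec
  have hV : ∀ j < N, ‖V j‖ ^ 2 ≤ 16 / (t/2) ^ 2 := fun j hj => (hXV j hj).1
  have hQV : ∀ j < N, ‖bandQ b w (2 * j + 2) * V j‖ ^ 2 ≤ 2 := fun j hj =>
    (hXV j hj).2.1.trans (by linarith)
  set Q₂ : A := (1 / √N : ℝ) • ∑ j ∈ Finset.range N, bandQ b w (2 * j + 2) * V j with hQ₂
  set R : A := (1 / N : ℝ) • ∑ j ∈ Finset.range N,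
    star (bandQ b w (2 * j + 2) * V j) * (bandQ b w (2 * j + 2) * V j) with hR
  have hcross : ‖star Q₂ * Q₂ - R‖ ≤ t / 16 :=
    (spread_cross hb hb1 hτ hN H hε.le hV).trans he2
  have hlink : ∀ x ≤ 2 * N + 2, ‖star Q₂ * c * rt (g x)‖ ≤ 3 / √N := fun x hx =>
    spread_link hb hb1 hc hτ hN H hε.le he1 hV hQV hx
  set h₂ : A := Q₂ * star Q₂ with hh₂
  have hh₂0 : 0 ≤ h₂ := mul_star_self_nonneg Q₂
  set m : A := star c * h₂ * c with hm
  have hm0 : 0 ≤ m := conj_nonneg' hh₂0 c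
  have hsmall : ∀ x ∈ Finset.range (2 * N + 3), ‖rt (g x) * m * rt (g x)‖ ≤ (72 / N) / 8 := by
    intro x hx
    have hx' : x ≤ 2 * N + 2 := by
      have := Finset.mem_range.mp hx; omega
    have h1 : rt (g x) * m * rt (g x) =
        star (star Q₂ * c * rt (g x)) * (star Q₂ * c * rt (g x)) := by
      simp only [hm, hh₂, star_mul, star_star, star_rt]
      noncomm_ring
    rw [h1, CStarRing.norm_star_mul_self, ← sq]
    have h2 := hlink x hx'
    have h3 := norm_nonneg (star Q₂ * c * rt (g x))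
    have h4 : (3 / √(N:ℝ)) ^ 2 = 9 / N := by
      rw [div_pow, Real.sq_sqrt hN0.le]; norm_num
    calc _ ≤ (3 / √(N:ℝ)) ^ 2 := by gcongr
      _ = 9 / N := h4
      _ = (72 / N) / 8 := by ring
  obtain ⟨g', hg'0, hg'1, hg'le, hg'm, hg'full⟩ := exists_select (Finset.range (2 * N + 3)) g hm0
    (fun x hx => H.g_nonneg x (by have := Finset.mem_range.mp hx; omega))
    (fun x hx => H.g_norm x (by have := Finset.mem_range.mp hx; omega))
    (κ := 72 / N) (by positivity) hsmall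
  set S : A := ∑ i ∈ Finset.Icc 1 (2 * N + 2), h i + h₂ with hS
  have hhi : ∀ i ∈ Finset.Icc 1 (2 * N + 2), 0 ≤ h i := fun i hi =>
    H.h_nonneg i (Finset.mem_Icc.mp hi).1 (Finset.mem_Icc.mp hi).2
  have hS0 : 0 ≤ S := add_nonneg (Finset.sum_nonneg hhi) hh₂0
  set h' : A := rmp 0 (t / 4) S with hh'
  have hh'0 : 0 ≤ h' := rmp_nonneg _ _ _
  have hh'1 : ‖h'‖ ≤ 1 := norm_rmp_le_one _ _ _
  have hh'le : h' ≤ (4 / t) • S := by
    have := rmp_le_smul (a := 0) (b := t / 4) le_rfl (by positivity) hS0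
    rwa [one_div_div] at this
  -- domination of h₂
  obtain ⟨Z, hZ⟩ : ∃ Z : A, Q₂ = b * Z := by
    refine ⟨(1 / √N : ℝ) • ∑ j ∈ Finset.range N,
      (w (2 * j + 2 + 1) - w (2 * j + 2) * w (2 * j + 2 + 1)) * V j, ?_⟩
    rw [hQ₂, mul_smul_comm, Finset.mul_sum]
    congr 1
    refine Finset.sum_congr rfl fun j _ => ?_
    unfold bandQ
    noncomm_ring
  have hh₂le : h₂ ≤ (‖Z‖ ^ 2) • b := by
    rw [hh₂, hZ]; exact mul_mul_star_le_smul hb hb1
  set C₁ : ℝ := 16 * ((2 * N + 3) * C) with hC₁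
  set C₂ : ℝ := (4 / t) * ((2 * N + 2) * (2 / (t/2)) + ‖Z‖ ^ 2) with hC₂
  have hC₁0 : 0 ≤ C₁ := by positivity
  have hC₂0 : 0 ≤ C₂ := by positivity
  refine ⟨C₁ + C₂, g', h', by positivity, hg'0, hg'1, hh'0, hh'1, ?_, ?_, ?_, ?_, ?_⟩
  · -- g' ≤ C g0
    have h1 : ∑ i ∈ Finset.range (2 * N + 3), g i ≤ ((2 * N + 3) * C) • g0 := by
      calc ∑ i ∈ Finset.range (2 * N + 3), g i ≤ ∑ i ∈ Finset.range (2 * N + 3), C • g0 :=
            Finset.sum_le_sum fun i hi =>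
              H.g_le i (by have := Finset.mem_range.mp hi; omega)
        _ = ((2 * N + 3) * C) • g0 := by
            rw [Finset.sum_const, Finset.card_range, ← Nat.cast_smul_eq_nsmul ℝ, smul_smul]
            push_cast; ring_nf
    calc g' ≤ (16 : ℝ) • ∑ i ∈ Finset.range (2 * N + 3), g i := hg'le
      _ ≤ (16 : ℝ) • (((2 * N + 3) * C) • g0) := smul_le_smul_of_nonneg' h1 (by norm_num)
      _ = C₁ • g0 := by rw [smul_smul]
      _ ≤ (C₁ + C₂) • g0 := smul_le_smul_of_le_of_nonneg hg0 (by linarith)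
  · -- h' ≤ C b
    have h1 : ∑ i ∈ Finset.Icc 1 (2 * N + 2), h i ≤ ((2 * N + 2) * (2 / (t/2))) • b := by
      calc ∑ i ∈ Finset.Icc 1 (2 * N + 2), h i ≤
            ∑ i ∈ Finset.Icc 1 (2 * N + 2), (2 / (t/2)) • b :=
            Finset.sum_le_sum fun i hi =>
              H.h_le i (Finset.mem_Icc.mp hi).1 (Finset.mem_Icc.mp hi).2
        _ = ((2 * N + 2) * (2 / (t/2))) • b := by
            rw [Finset.sum_const, Nat.card_Icc, ← Nat.cast_smul_eq_nsmul ℝ, smul_smul]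
            push_cast; ring_nf
    calc h' ≤ (4 / t) • S := hh'le
      _ ≤ (4 / t) • (((2 * N + 2) * (2 / (t/2))) • b + (‖Z‖ ^ 2) • b) :=
          smul_le_smul_of_nonneg' (add_le_add h1 hh₂le) (by positivity)
      _ = C₂ • b := by rw [← add_smul, smul_smul]
      _ ≤ (C₁ + C₂) • b := smul_le_smul_of_le_of_nonneg hb (by linarith)
  · -- the link
    have h1 := lk_sq_le_add (Finset.Icc 1 (2 * N + 2)) (h₂ := h₂) (H := h) (K := 4 / t)
      (by positivity) hh'0 hhi hh'le c g'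
    have h2 : ∀ i ∈ Finset.Icc 1 (2 * N + 2), lk (h i) c g' ^ 2 ≤ 16 * ((2 * N + 3) * ε ^ 2) := by
      intro i hi
      refine (lk_sq_le_sum_right (Finset.range (2 * N + 3)) (C := 16) (by norm_num) hg'0
        (fun x hx => H.g_nonneg x (by have := Finset.mem_range.mp hx; omega)) hg'le (h i) c).trans
        ?_
      refine mul_le_mul_of_nonneg_left ?_ (by norm_num)
      calc ∑ x ∈ Finset.range (2 * N + 3), lk (h i) c (g x) ^ 2 ≤
            ∑ x ∈ Finset.range (2 * N + 3), ε ^ 2 := by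
            refine Finset.sum_le_sum fun x hx => ?_
            have := H.h_lk i x (Finset.mem_Icc.mp hi).1 (Finset.mem_Icc.mp hi).2
              (by have := Finset.mem_range.mp hx; omega)
            have h0 := lk_nonneg (h i) c (g x)
            gcongr
        _ = (2 * N + 3) * ε ^ 2 := by
            rw [Finset.sum_const, Finset.card_range, nsmul_eq_mul]; push_cast; ring
    have h3 : ∑ i ∈ Finset.Icc 1 (2 * N + 2), lk (h i) c g' ^ 2 ≤
        (2 * N + 2) * (16 * ((2 * N + 3) * ε ^ 2)) := by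
      refine (Finset.sum_le_sum h2).trans ?_
      rw [Finset.sum_const, Nat.card_Icc, nsmul_eq_mul]; push_cast
      have : (0:ℝ) ≤ 16 * ((2 * N + 3) * ε ^ 2) := by positivity
      nlinarith
    have h4 : ‖rt g' * (star c * h₂ * c) * rt g'‖ ≤ 1152 / N := by
      refine hg'm.trans (le_of_eq ?_)
      ring
    have h5 : lk h' c g' ^ 2 ≤ δ ^ 2 := by
      refine h1.trans ?_
      have h6 : (4 / t) * (∑ i ∈ Finset.Icc 1 (2 * N + 2), lk (h i) c g' ^ 2 +
          ‖rt g' * (star c * h₂ * c) * rt g'‖) ≤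
          (4 / t) * ((2 * N + 2) * (16 * ((2 * N + 3) * ε ^ 2)) + 1152 / N) :=
        mul_le_mul_of_nonneg_left (add_le_add h3 h4) (by positivity)
      rw [mul_add] at h6
      linarith
    exact le_of_abs_le (abs_le_of_sq_le_sq h5 hδ.le)
  · -- fullness of g'
    intro B _ π hπ
    exact H.g_full B π fun x hx => hg'full x (Finset.mem_range.mpr (by omega)) B π hπ
  · -- fullness of h'
    intro B _ π hπ
    have h1 : ‖π S‖ ≤ t / 8 := by
      have := norm_map_le_of_norm_map_rmp_zero_le π (b := t / 4) (s := 1/2) (by positivity)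
        (by norm_num) hS0 hπ
      linarith
    have h2 : ∀ i ∈ Finset.Icc 1 (2 * N + 2), ‖π (h i)‖ ≤ 1 / 2 := by
      intro i hi
      have : h i ≤ S := by
        calc h i ≤ ∑ i ∈ Finset.Icc 1 (2 * N + 2), h i := Finset.single_le_sum hhi hi
          _ ≤ S := le_add_of_nonneg_right hh₂0
      have := norm_map_mono π (hhi i hi) this
      linarith
    have h3 : ‖π (star Q₂ * Q₂)‖ ≤ t / 8 := by
      have h4 : ‖π h₂‖ ≤ t / 8 :=
        (norm_map_mono π hh₂0 (le_add_of_nonneg_left (Finset.sum_nonneg hhi))).trans h1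
      rw [hh₂, norm_map_mul_star_self] at h4
      rwa [norm_map_star_mul_self]
    have h4 : ∀ j < N, ‖π (star (bandQ b w (2 * j + 2) * V j) * (bandQ b w (2 * j + 2) * V j)) -
        π (cut (t/2 + t/8) b)‖ ≤ t / 32 := by
      intro j hj
      have h5 := (hXV j hj).2.2
      have h6 : π (cut (1/2) (h (2 * j + 2))) = 0 :=
        (map_cut_eq_zero_iff π (by norm_num) (H.h_nonneg _ (by omega) (by omega))).2
          (h2 _ (Finset.mem_Icc.mpr ⟨by omega, by omega⟩))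
      have h7 := (norm_map_le π _).trans h5
      rw [map_sub, map_add, map_mul, map_mul, h6, mul_zero, zero_mul, zero_add] at h7
      exact h7
    have h5 : ‖π R - π (cut (t/2 + t/8) b)‖ ≤ t / 32 := by
      have h6 : π R - π (cut (t/2 + t/8) b) = (1 / N : ℝ) • ∑ j ∈ Finset.range N,
          (π (star (bandQ b w (2 * j + 2) * V j) * (bandQ b w (2 * j + 2) * V j)) -
            π (cut (t/2 + t/8) b)) := by
        rw [hR, map_real_smul, map_sum, Finset.sum_sub_distrib, smul_sub, Finset.sum_const,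
          Finset.card_range, ← Nat.cast_smul_eq_nsmul ℝ, smul_smul,
          one_div_mul_cancel hN0.ne', one_smul]
      rw [h6, norm_smul, Real.norm_of_nonneg (by positivity)]
      have h7 : ‖∑ j ∈ Finset.range N,
          (π (star (bandQ b w (2 * j + 2) * V j) * (bandQ b w (2 * j + 2) * V j)) -
            π (cut (t/2 + t/8) b))‖ ≤ N * (t / 32) := by
        refine (norm_sum_le _ _).trans ?_
        refine (Finset.sum_le_sum fun j hj => h4 j (Finset.mem_range.mp hj)).trans ?_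
        rw [Finset.sum_const, Finset.card_range, nsmul_eq_mul]
      calc 1 / (N:ℝ) * _ ≤ 1 / (N:ℝ) * (N * (t / 32)) :=
            mul_le_mul_of_nonneg_left h7 (by positivity)
        _ = t / 32 := by field_simp
    have h6 : ‖π (star Q₂ * Q₂) - π R‖ ≤ t / 16 := by
      rw [← map_sub]; exact (norm_map_le π _).trans hcross
    have h7 : ‖π (cut (t/2 + t/8) b)‖ ≤ 7 * t / 32 := by
      have : π (cut (t/2 + t/8) b) = π (star Q₂ * Q₂) - (π (star Q₂ * Q₂) - π R) -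
          (π R - π (cut (t/2 + t/8) b)) := by abel
      rw [this]
      refine (norm_sub_le _ _).trans ?_
      have := norm_sub_le (π (star Q₂ * Q₂)) (π (star Q₂ * Q₂) - π R)
      linarith
    letI := CStarAlgebra.spectralOrder B
    haveI := CStarAlgebra.spectralOrderedRing B
    rw [map_cut π (by positivity) (IsSelfAdjoint.of_nonneg hb),
      norm_cut (by positivity) (map_nonneg' π hb)] at h7
    have h8 := le_max_right 0 (‖π b‖ - (t/2 + t/8))
    linarith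

end

end PIS
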