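import Crest.Agent.PIS_A2c

/-!
# S0145 blueprint, task PIS-D (D1, D2, basic Cuntz comparison)

See `PIS_Defs.lean` for the definitions.
-/

set_option autoImplicit false

universe u

namespace PIS

section

variable {A : Type u} [NonUnitalCStarAlgebra A] [PartialOrder A] [StarOrderedRing A]

set_option linter.unusedSectionVars false

/-- the function `t / (t² + τ⁴)`. -/
lemma D_cont1 {τ : ℝ} (hτ : 0 < τ) : Continuous (fun t : ℝ => t / (t ^ 2 + τ ^ 4)) := by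
  refine continuous_id.div (by fun_prop) fun t => ?_
  positivity

lemma D_cont2 {τ : ℝ} (hτ : 0 < τ) : Continuous (fun t : ℝ => Real.sqrt t / (max 0 t + τ)) := by
  refine Real.continuous_sqrt.div (by fun_prop) fun t => ?_
  have : 0 ≤ max 0 t := le_max_left _ _
  positivity

lemma D_mul_cfcn {x : A} (hx : 0 ≤ x) {f : ℝ → ℝ} (hf : Continuous f) (hf0 : f 0 = 0) :
    x * cfcₙ f x = cfcₙ (fun t => t * f t) x := by
  have hsa : IsSelfAdjoint x := IsSelfAdjoint.of_nonneg hx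
  rw [cfcₙ_mul (fun t => t) f x continuous_id.continuousOn rfl hf.continuousOn hf0,
    cfcₙ_id' ℝ x hsa]

lemma D_cfcn_mul {x : A} {f g : ℝ → ℝ} (hf : Continuous f) (hf0 : f 0 = 0)
    (hg : Continuous g) (hg0 : g 0 = 0) :
    cfcₙ f x * cfcₙ g x = cfcₙ (fun t => f t * g t) x := by
  rw [cfcₙ_mul f g x hf.continuousOn hf0 hg.continuousOn hg0]

lemma D_norm_cfcn_le {x : A} (hx : 0 ≤ x) {f : ℝ → ℝ} {C : ℝ}
    (h : ∀ t, 0 ≤ t → |f t| ≤ C) : ‖cfcₙ f x‖ ≤ C := by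
  refine norm_cfcₙ_le fun t ht => ?_
  rw [Real.norm_eq_abs]
  exact h t (A1d_qs_nonneg hx ht)

/-- D1.  Proof: `k = f(M) e^{1/2}` with `f(t) = t / (t² + σ)`, `σ` small: in the unitization
`M f(M) = 1 - v`, `v = σ / (M² + σ)`, `‖v e^{1/2}‖² = ‖v e v‖ ≤ C ‖v M v‖ ≤ C √σ / 2`
because `t σ² / (t² + σ)² ≤ √σ / 2` for `t ≥ 0`. -/
theorem exists_mul_near_rt {e M : A} {C : ℝ} (he : 0 ≤ e) (hM : 0 ≤ M) (hC : 0 ≤ C)
    (hle : e ≤ C • M) {ν : ℝ} (hν : 0 < ν) : ∃ k : A, ‖M * k - rt e‖ < ν := by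
  obtain ⟨τ, hτ, hτν⟩ : ∃ τ : ℝ, 0 < τ ∧ √C * τ < ν := by
    refine ⟨ν / (√C + 1), by positivity, ?_⟩
    rw [← mul_div_assoc, div_lt_iff₀ (by positivity)]
    nlinarith [Real.sqrt_nonneg C]
  set f : ℝ → ℝ := fun t => t / (t ^ 2 + τ ^ 4) with hfdef
  have hf : Continuous f := D_cont1 hτ
  have hf0 : f 0 = 0 := by simp [hfdef]
  set w : A := M * cfcₙ f M with hw
  refine ⟨cfcₙ f M * rt e, ?_⟩
  have h1 : M * (cfcₙ f M * rt e) - rt e = -(rt e - w * rt e) := by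
    rw [hw, mul_assoc]; abel
  rw [h1, norm_neg]
  have h2 := norm_sub_mul_rt_le hC hM he hle w
  refine lt_of_le_of_lt (h2.trans ?_) hτν
  refine mul_le_mul_of_nonneg_left ?_ (Real.sqrt_nonneg C)
  have h3 : rt M - w * rt M = cfcₙ (fun t => Real.sqrt t - t * f t * Real.sqrt t) M := by
    rw [cfcₙ_sub Real.sqrt (fun t => t * f t * Real.sqrt t) M
      Real.continuous_sqrt.continuousOn Real.sqrt_zero
      (((continuous_id.mul hf).mul Real.continuous_sqrt).continuousOn) (by simp),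
      hw, D_mul_cfcn hM hf hf0]
    unfold rt
    rw [D_cfcn_mul (f := fun t => t * f t) (continuous_id.mul hf) (by simp)
      Real.continuous_sqrt Real.sqrt_zero]
  rw [h3]
  refine D_norm_cfcn_le hM fun t ht => ?_
  obtain ⟨v, hv, rfl⟩ : ∃ v : ℝ, 0 ≤ v ∧ t = v ^ 2 := ⟨√t, Real.sqrt_nonneg t, (Real.sq_sqrt ht).symm⟩
  rw [Real.sqrt_sq hv]
  have hpos : 0 < (v ^ 2) ^ 2 + τ ^ 4 := by positivity
  have h4 : v - v ^ 2 * f (v ^ 2) * v = v * τ ^ 4 / ((v ^ 2) ^ 2 + τ ^ 4) := by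
    rw [hfdef]; field_simp; ring
  rw [h4, abs_of_nonneg (by positivity), div_le_iff₀ hpos]
  have h5 : v * τ ^ 3 ≤ v ^ 4 + τ ^ 4 := by
    rcases le_total v τ with h | h
    · have : v * τ ^ 3 ≤ τ * τ ^ 3 := mul_le_mul_of_nonneg_right h (by positivity)
      nlinarith [pow_nonneg hv 4]
    · have h6 : τ ^ 3 ≤ v ^ 3 := pow_le_pow_left₀ hτ.le h 3
      have : v * τ ^ 3 ≤ v * v ^ 3 := mul_le_mul_of_nonneg_left h6 hv
      nlinarith [pow_pos hτ 4]
  nlinarith [mul_le_mul_of_nonneg_left h5 hτ.le]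

/-- D2.  Proof: `k = f(s) g^{1/2}` with `f(t) = √t / (t + σ')`: `k⋆k`-norm: `‖f(s) g f(s)‖ ≤ ‖f(s)² s‖ ≤ 1`;
`s^{1/2} k = (1 - v) g^{1/2}`, `v = σ' / (s + σ')`, `‖v g v‖ ≤ ‖v² s‖ ≤ σ'`. -/
theorem exists_rt_mul_near_rt {g s : A} (hg : 0 ≤ g) (hle : g ≤ s) {σ : ℝ} (hσ : 0 < σ) :
    ∃ k : A, ‖k‖ ≤ 1 ∧ ‖rt s * k - rt g‖ ≤ σ := by
  have hs : 0 ≤ s := hg.trans hle
  have hle' : g ≤ (1 : ℝ) • s := by rwa [one_smul]
  set f : ℝ → ℝ := fun t => Real.sqrt t / (max 0 t + σ ^ 2) with hfdef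
  have hσ2 : 0 < σ ^ 2 := by positivity
  have hf : Continuous f := D_cont2 hσ2
  have hf0 : f 0 = 0 := by simp [hfdef]
  refine ⟨cfcₙ f s * rt g, ?_, ?_⟩
  · have h1 := norm_mul_rt_le zero_le_one hs hg hle' (cfcₙ f s)
    rw [Real.sqrt_one, one_mul] at h1
    refine h1.trans ?_
    unfold rt
    rw [D_cfcn_mul hf hf0 Real.continuous_sqrt Real.sqrt_zero]
    refine D_norm_cfcn_le hs fun t ht => ?_
    have h2 : f t * Real.sqrt t = t / (t + σ ^ 2) := by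
      simp only [hfdef]
      rw [max_eq_right ht, div_mul_eq_mul_div, Real.mul_self_sqrt ht]
    rw [h2, abs_of_nonneg (by positivity), div_le_one (by positivity)]
    linarith
  · set w : A := rt s * cfcₙ f s with hw
    have h1 : rt s * (cfcₙ f s * rt g) - rt g = -(rt g - w * rt g) := by
      rw [hw, mul_assoc]; abel
    rw [h1, norm_neg]
    have h2 := norm_sub_mul_rt_le zero_le_one hs hg hle' w
    rw [Real.sqrt_one, one_mul] at h2
    refine h2.trans ?_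
    have h3 : rt s - w * rt s =
        cfcₙ (fun t => Real.sqrt t - Real.sqrt t * f t * Real.sqrt t) s := by
      rw [cfcₙ_sub Real.sqrt (fun t => Real.sqrt t * f t * Real.sqrt t) s
        Real.continuous_sqrt.continuousOn Real.sqrt_zero
        (((Real.continuous_sqrt.mul hf).mul Real.continuous_sqrt).continuousOn) (by simp),
        hw]
      unfold rt
      rw [D_cfcn_mul Real.continuous_sqrt Real.sqrt_zero hf hf0,
        D_cfcn_mul (f := fun t => Real.sqrt t * f t) (Real.continuous_sqrt.mul hf) (by simp)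
          Real.continuous_sqrt Real.sqrt_zero]
    rw [h3]
    refine D_norm_cfcn_le hs fun t ht => ?_
    obtain ⟨v, hv, rfl⟩ : ∃ v : ℝ, 0 ≤ v ∧ t = v ^ 2 :=
      ⟨√t, Real.sqrt_nonneg t, (Real.sq_sqrt ht).symm⟩
    have hv2 : 0 ≤ v ^ 2 := sq_nonneg v
    have hpos : 0 < v ^ 2 + σ ^ 2 := by positivity
    have h4 : Real.sqrt (v ^ 2) - Real.sqrt (v ^ 2) * f (v ^ 2) * Real.sqrt (v ^ 2)
        = v * σ ^ 2 / (v ^ 2 + σ ^ 2) := by
      simp only [hfdef]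
      rw [max_eq_right hv2, Real.sqrt_sq hv]
      field_simp; ring
    rw [h4, abs_of_nonneg (by positivity), div_le_iff₀ hpos]
    nlinarith [mul_nonneg hσ.le (sq_nonneg (v - σ)), mul_nonneg hσ.le hv2,
      mul_nonneg hσ.le (sq_nonneg σ), mul_nonneg hσ.le (mul_nonneg hv hσ.le)]

lemma D_norm_star_mul_self_sub (a b : A) :
    ‖star a * a - star b * b‖ ≤ (‖a‖ + ‖b‖) * ‖a - b‖ := by
  have h : star a * a - star b * b = star a * (a - b) + star (a - b) * b := by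
    rw [mul_sub, star_sub, sub_mul]; abel
  rw [h]
  calc ‖star a * (a - b) + star (a - b) * b‖ ≤ ‖star a * (a - b)‖ + ‖star (a - b) * b‖ :=
        norm_add_le _ _
    _ ≤ ‖star a‖ * ‖a - b‖ + ‖star (a - b)‖ * ‖b‖ := add_le_add (norm_mul_le _ _) (norm_mul_le _ _)
    _ = (‖a‖ + ‖b‖) * ‖a - b‖ := by rw [norm_star, norm_star]; ring

/-- `x ≤ C y ⟹ x ≾ y`.  Proof: `exists_mul_near_rt` gives `k` with `y k ≈ x^{1/2}`; hmm: apply it in the form
`‖rt y * (rt y * k) - rt x‖` small and take `r = rt y * k`: `r⋆ y r = (rt y r)⋆ (rt y r) ≈ x`. -/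
theorem Cz.of_le {x y : A} (hx : 0 ≤ x) (hy : 0 ≤ y) {C : ℝ} (hC : 0 ≤ C) (hle : x ≤ C • y) :
    Cz x y := by
  intro ε hε
  obtain ⟨ν, hν, hν1, hνε⟩ : ∃ ν : ℝ, 0 < ν ∧ ν ≤ 1 ∧ (2 * ‖rt x‖ + 1) * ν ≤ ε := by
    refine ⟨min 1 (ε / (2 * ‖rt x‖ + 1)), by positivity, min_le_left _ _, ?_⟩
    calc (2 * ‖rt x‖ + 1) * min 1 (ε / (2 * ‖rt x‖ + 1))
        ≤ (2 * ‖rt x‖ + 1) * (ε / (2 * ‖rt x‖ + 1)) :=
          mul_le_mul_of_nonneg_left (min_le_right _ _) (by positivity)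
      _ = ε := by field_simp
  obtain ⟨k, hk⟩ := exists_mul_near_rt hx hy hC hle hν
  refine ⟨rt y * k, ?_⟩
  have h1 : star (rt y * k) * y * (rt y * k) = star (y * k) * (y * k) := by
    rw [star_mul, star_mul, star_rt, (IsSelfAdjoint.of_nonneg hy).star_eq]
    calc star k * rt y * y * (rt y * k) = star k * (rt y * y * rt y) * k := by
          simp only [mul_assoc]
      _ = star k * (y * y) * k := by
          congr 2
          have h0 : ∀ u : A, u * u = y → u * y * u = y * y := by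
            intro u hu
            rw [← hu]; simp only [mul_assoc]
          exact h0 _ (rt_mul_rt hy)
      _ = star k * y * (y * k) := by simp only [mul_assoc]
  have h2 : x = star (rt x) * rt x := by rw [star_rt, rt_mul_rt hx]
  rw [h1]
  conv_lhs => rw [h2]
  have h3 := D_norm_star_mul_self_sub (y * k) (rt x)
  have h4 : ‖y * k‖ ≤ ‖rt x‖ + ν := by
    calc ‖y * k‖ = ‖rt x + (y * k - rt x)‖ := by congr 1; abel
      _ ≤ ‖rt x‖ + ‖y * k - rt x‖ := norm_add_le _ _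
      _ ≤ ‖rt x‖ + ν := by linarith
  calc ‖star (y * k) * (y * k) - star (rt x) * rt x‖ ≤ (‖y * k‖ + ‖rt x‖) * ‖y * k - rt x‖ := h3
    _ ≤ (2 * ‖rt x‖ + 1) * ‖y * k - rt x‖ :=
        mul_le_mul_of_nonneg_right (by linarith) (norm_nonneg _)
    _ < (2 * ‖rt x‖ + 1) * ν := mul_lt_mul_of_pos_left hk (by positivity)
    _ ≤ ε := hνε

theorem Cz.trans {x y z : A} (h₁ : Cz x y) (h₂ : Cz y z) : Cz x z := by
  intro ε hε
  obtain ⟨r₁, hr₁⟩ := h₁ (ε / 2) (by positivity)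
  obtain ⟨r₂, hr₂⟩ := h₂ (ε / (2 * (‖r₁‖ ^ 2 + 1))) (by positivity)
  refine ⟨r₂ * r₁, ?_⟩
  have h1 : star (r₂ * r₁) * z * (r₂ * r₁) - x =
      star r₁ * (star r₂ * z * r₂ - y) * r₁ + (star r₁ * y * r₁ - x) := by
    rw [star_mul, mul_sub, sub_mul]
    simp only [mul_assoc]
    abel
  rw [h1]
  have h2 : ‖star r₁ * (star r₂ * z * r₂ - y) * r₁‖ ≤ ε / 2 := by
    calc ‖star r₁ * (star r₂ * z * r₂ - y) * r₁‖
        ≤ ‖star r₁ * (star r₂ * z * r₂ - y)‖ * ‖r₁‖ := norm_mul_le _ _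
      _ ≤ ‖star r₁‖ * ‖star r₂ * z * r₂ - y‖ * ‖r₁‖ :=
          mul_le_mul_of_nonneg_right (norm_mul_le _ _) (norm_nonneg _)
      _ = ‖r₁‖ ^ 2 * ‖star r₂ * z * r₂ - y‖ := by rw [norm_star]; ring
      _ ≤ ‖r₁‖ ^ 2 * (ε / (2 * (‖r₁‖ ^ 2 + 1))) :=
          mul_le_mul_of_nonneg_left hr₂.le (by positivity)
      _ ≤ ε / 2 := by
          rw [← mul_div_assoc, div_le_div_iff₀ (by positivity) (by norm_num)]
          nlinarith [sq_nonneg ‖r₁‖]
  calc ‖star r₁ * (star r₂ * z * r₂ - y) * r₁ + (star r₁ * y * r₁ - x)‖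
      ≤ ‖star r₁ * (star r₂ * z * r₂ - y) * r₁‖ + ‖star r₁ * y * r₁ - x‖ := norm_add_le _ _
    _ < ε / 2 + ε / 2 := add_lt_add_of_le_of_lt h2 hr₁
    _ = ε := by ring

/-- `z z⋆ ≾ z⋆ z`: take `r = z⋆ g(z z⋆)` with `g(t) = √t / (t + σ)`:
`r⋆ (z⋆ z) r = g(zz⋆) (zz⋆)² g(zz⋆)`, and `0 ≤ t - t³ / (t + σ)² ≤ 2 σ`. -/
theorem Cz.mul_star_self (z : A) : Cz (z * star z) (star z * z) := by
  intro ε hε
  set σ : ℝ := ε / 4 with hσdef
  have hσ : 0 < σ := by positivity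
  set a : A := z * star z with ha
  have ha0 : 0 ≤ a := mul_star_self_nonneg z
  set g : ℝ → ℝ := fun t => Real.sqrt t / (max 0 t + σ) with hgdef
  have hg : Continuous g := D_cont2 hσ
  have hg0 : g 0 = 0 := by simp [hgdef]
  have hgsa : star (cfcₙ g a) = cfcₙ g a := by
    have : IsSelfAdjoint (cfcₙ g a) := cfcₙ_predicate g a
    exact this.star_eq
  refine ⟨star z * cfcₙ g a, ?_⟩
  have h1 : star (star z * cfcₙ g a) * (star z * z) * (star z * cfcₙ g a) =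
      cfcₙ g a * (a * (a * cfcₙ g a)) := by
    rw [star_mul, star_star, hgsa, ha]
    simp only [mul_assoc]
  have hsa : IsSelfAdjoint a := IsSelfAdjoint.of_nonneg ha0
  have h2 : cfcₙ g a * (a * (a * cfcₙ g a)) - a =
      cfcₙ (fun t => g t * (t * (t * g t)) - t) a := by
    rw [cfcₙ_sub (fun t => g t * (t * (t * g t))) (fun t => t) a
      ((hg.mul (continuous_id.mul (continuous_id.mul hg))).continuousOn) (by simp)
      continuous_id.continuousOn rfl, cfcₙ_id' ℝ a hsa,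
      D_mul_cfcn ha0 hg hg0,
      D_mul_cfcn (f := fun t => t * g t) ha0 (continuous_id.mul hg) (by simp),
      D_cfcn_mul (g := fun t => t * (t * g t)) hg hg0
        (continuous_id.mul (continuous_id.mul hg)) (by simp)]
  rw [h1, h2]
  refine lt_of_le_of_lt (D_norm_cfcn_le ha0 (C := 2 * σ) fun t ht => ?_) (by rw [hσdef]; linarith)
  have h3 : g t * (t * (t * g t)) = t ^ 3 / (t + σ) ^ 2 := by
    simp only [hgdef]
    rw [max_eq_right ht]
    have : Real.sqrt t * Real.sqrt t = t := Real.mul_self_sqrt ht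
    field_simp
    nlinarith
  have hpos : 0 < t + σ := by positivity
  have h4 : g t * (t * (t * g t)) - t = -(σ * (t * (2 * t + σ)) / (t + σ) ^ 2) := by
    rw [h3]; field_simp; ring
  rw [h4, abs_neg, abs_of_nonneg (by positivity), div_le_iff₀ (by positivity)]
  nlinarith [mul_nonneg hσ.le (mul_nonneg ht hσ.le), pow_pos hσ 3, mul_nonneg hσ.le (sq_nonneg t)]

end

end PIS
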