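import Crest.Agent.PIS_L1

/-!
# S0145 blueprint, task PIS-L2 (bounded witnesses)

Replace the `sorry`s IN THIS FILE (do not change statements or names; helper lemmas are welcome, if they
are of general use put them in a new file `PIS_x*.lean`).  See `PIS_Defs.lean` for the definitions.
-/

set_option autoImplicit false

universe u

namespace PIS

section

variable {A : Type u} [NonUnitalCStarAlgebra A] [PartialOrder A] [StarOrderedRing A]

/-- **L2.** Proof: `cz_of_dom` gives `r` with `‖r⋆ (cut κ y) r - x‖ < ν`.  Put `V = f(y) r`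
with `f(t) = √((t-κ)₊ / t)` (for `t > κ`, zero for `t ≤ κ`; continuous; e.g.
`f t = √(cutf κ t / max t κ)`): `V⋆ y V = r⋆ (cut κ y) r` and
`V⋆ V = r⋆ f(y)² r ≤ (1/κ) r⋆ (cut κ y) r`. -/
theorem exists_conj_near_of_dom (hA : PI A) {x y : A} (hx : 0 ≤ x) (hy : 0 ≤ y) {κ M : ℝ}
    (hκ : 0 < κ) (hxM : ‖x‖ ≤ M) (h : Dom (cut κ y) x) {ν : ℝ} (hν : 0 < ν) :
    ∃ V : A, ‖star V * y * V - x‖ < ν ∧ ‖V‖ ^ 2 ≤ (M + ν) / κ := by
  obtain ⟨r, hr⟩ := cz_of_dom hA (cut_nonneg κ y) hx h ν hν
  set g : ℝ → ℝ := fun t => cutf κ t / max t κ with hg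
  set f : ℝ → ℝ := fun t => Real.sqrt (g t) with hf
  have hmax : ∀ t : ℝ, 0 < max t κ := fun t => lt_max_of_lt_right hκ
  have hgc : Continuous g :=
    (continuous_cutf κ).div (by fun_prop) (fun t => (hmax t).ne')
  have hfc : Continuous f := hgc.sqrt
  have hg0 : g 0 = 0 := by simp [hg, cutf_zero hκ.le]
  have hf0 : f 0 = 0 := by simp [hf, hg0]
  have hgnn : ∀ t, 0 ≤ g t := fun t => div_nonneg (cutf_nonneg κ t) (hmax t).le
  have hysa : IsSelfAdjoint y := IsSelfAdjoint.of_nonneg hy
  have hFF : cfcₙ f y * cfcₙ f y = cfcₙ g y := by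
    rw [← cfcₙ_mul f f y hfc.continuousOn hf0 hfc.continuousOn hf0]
    exact cfcₙ_congr fun t _ => Real.mul_self_sqrt (hgnn t)
  have hid : cfcₙ (fun t : ℝ => t) y = y := cfcₙ_id' ℝ y
  have hFy : cfcₙ f y * y = cfcₙ (fun t => f t * t) y := by
    have := cfcₙ_mul f (fun t : ℝ => t) y hfc.continuousOn hf0 continuousOn_id rfl
    rw [this, hid]
  have hFyF : cfcₙ f y * y * cfcₙ f y = cut κ y := by
    rw [hFy, ← cfcₙ_mul (fun t => f t * t) f y (by fun_prop) (by simp) hfc.continuousOn hf0]
    refine cfcₙ_congr fun t _ => ?_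
    show f t * t * f t = cutf κ t
    have h1 : f t * t * f t = (f t * f t) * t := by ring
    rw [h1, hf]
    simp only
    rw [Real.mul_self_sqrt (hgnn t), hg]
    simp only
    rcases le_or_gt t κ with h2 | h2
    · have : cutf κ t = 0 := by
        unfold cutf
        exact max_eq_left (by linarith)
      simp [this]
    · rw [max_eq_left h2.le]
      have : t ≠ 0 := by linarith
      field_simp
  have hFs : star (cfcₙ f y) = cfcₙ f y := (cfcₙ_predicate f y : IsSelfAdjoint _)
  refine ⟨cfcₙ f y * r, ?_, ?_⟩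
  · have : star (cfcₙ f y * r) * y * (cfcₙ f y * r) = star r * cut κ y * r := by
      rw [← hFyF, star_mul, hFs]
      simp only [mul_assoc]
    rw [this]
    exact hr
  · have h1 : star (cfcₙ f y * r) * (cfcₙ f y * r) = star r * cfcₙ g y * r := by
      rw [← hFF, star_mul, hFs]
      simp only [mul_assoc]
    have h2 : ‖cfcₙ f y * r‖ ^ 2 = ‖star r * cfcₙ g y * r‖ := by
      rw [← h1, CStarRing.norm_star_mul_self, sq]
    have hgn : 0 ≤ cfcₙ g y := cfcₙ_nonneg fun t _ => hgnn t
    have h3 : cfcₙ g y ≤ (1 / κ) • cut κ y := by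
      have : (1 / κ) • cut κ y = cfcₙ (fun t => (1 / κ) • cutf κ t) y := by
        rw [cut, cfcₙ_smul (1 / κ) (cutf κ) y (continuous_cutf κ).continuousOn
          (cutf_zero hκ.le)]
      rw [this]
      have hcs : Continuous fun t => (1 / κ) • cutf κ t :=
        (continuous_const (y := 1 / κ)).smul (continuous_cutf κ)
      refine cfcn_le_cfcn hy hgc hg0 hcs (by simp [cutf_zero hκ.le]) ?_
      intro t ht _
      show cutf κ t / max t κ ≤ (1 / κ) • cutf κ t
      rw [smul_eq_mul, one_div, inv_mul_eq_div]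
      exact div_le_div_of_nonneg_left (cutf_nonneg κ t) hκ (le_max_right _ _)
    have h4 : star r * cfcₙ g y * r ≤ star r * ((1 / κ) • cut κ y) * r := conj_mono h3 r
    have h5 : ‖star r * cfcₙ g y * r‖ ≤ ‖star r * ((1 / κ) • cut κ y) * r‖ :=
      norm_le_of_le (conj_nonneg' hgn r) h4
    have h6 : star r * ((1 / κ) • cut κ y) * r = (1 / κ) • (star r * cut κ y * r) := by
      rw [mul_smul_comm, smul_mul_assoc]
    have h7 : ‖star r * cut κ y * r‖ ≤ M + ν := by
      have : star r * cut κ y * r = (star r * cut κ y * r - x) + x := by abel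
      rw [this]
      exact (norm_add_le _ _).trans (by linarith)
    rw [h2]
    refine h5.trans ?_
    rw [h6, norm_smul, Real.norm_of_nonneg (by positivity), one_div, inv_mul_eq_div]
    gcongr

end

end PIS
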