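import Crest.Agent.PIS_CT
import Crest.Agent.PIS_L2

/-!
# S0145 blueprint, task PIS-F (final theorem)

Proved by helper9.  See `PIS_Defs.lean` for the definitions.
-/

set_option autoImplicit false

universe u

namespace PIS

section

variable {A : Type u} [NonUnitalCStarAlgebra A] [PartialOrder A] [StarOrderedRing A]

/-- **F1.** `g ≤ C rmp (ε/2) ε a` implies `rt g a rt g ≥ (ε/2) g`.  (`e = rmp 0 (ε/2) a`: `e g0 = g0`, so `e g = g`, `e rt g = rt g`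
(`mul_eq_of_le`), and `a ≥ (ε/2) e²`.) -/
theorem smul_le_conj {a g : A} (ha : 0 ≤ a) (hg : 0 ≤ g) {ε C : ℝ} (hε : 0 < ε) (hC : 0 ≤ C)
    (hle : g ≤ C • rmp (ε/2) ε a) : (ε/2) • g ≤ rt g * a * rt g := by
  have hsa : IsSelfAdjoint a := IsSelfAdjoint.of_nonneg ha
  have hgsa : IsSelfAdjoint g := IsSelfAdjoint.of_nonneg hg
  have h1 : rmp 0 (ε/2) a * rmp (ε/2) ε a = rmp (ε/2) ε a :=
    rmp_mul_rmp le_rfl (by positivity) le_rfl (by linarith) hsa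
  have h2 : rmp 0 (ε/2) a * g = g := mul_eq_of_le hC (rmp_nonneg _ _ _) hg hle h1
  have h3 : rmp 0 (ε/2) a * rt g = rt g := mul_rt_of_mul_eq hgsa h2
  have h4 : (ε/2) • rmp 0 (ε/2) a ≤ a := by
    have h5 : rmp 0 (ε/2) a ≤ (1 / (ε/2)) • a := rmp_le_smul le_rfl (by positivity) ha
    have h6 : 0 ≤ (ε/2) • ((1 / (ε/2)) • a - rmp 0 (ε/2) a) :=
      smul_nonneg' (sub_nonneg.2 h5) (by positivity)
    rw [smul_sub, smul_smul, mul_one_div_cancel (by positivity), one_smul] at h6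
    exact sub_nonneg.1 h6
  have h5 := conj_mono' h4 (rt g)
  rw [star_rt, mul_smul_comm, smul_mul_assoc, mul_assoc, h3, rt_mul_rt hg] at h5
  exact h5

/-- **F2.** one side of the final theorem: `V` bounded independently of the rest.  `y = rt g a rt g ≥ (ε/2) g`;
`Dom (cut (ε/4) y) (cut ε a)`: if `π` kills the first then `(ε/2) ‖π g‖ ≤ ‖π y‖ ≤ ε/4`, `‖π g‖ ≤ 1/2`, so `‖π (rmp (ε/2) ε a)‖ ≤ 1/2 < 1`,
`‖π a‖ ≤ ε`.  `exists_conj_near_of_dom` with `κ = ε/4`, `M = 1`, `ν = ε`, then `‖a - cut ε a‖ ≤ ε`. -/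
theorem exists_side (hA : PI A) {a g : A} (ha : 0 ≤ a) (ha1 : ‖a‖ ≤ 1) (hg : 0 ≤ g) {ε C : ℝ}
    (hε : 0 < ε) (hε1 : ε ≤ 1) (hC : 0 ≤ C) (hle : g ≤ C • rmp (ε/2) ε a)
    (hfull : Full (1/2) g (1/2) (rmp (ε/2) ε a)) :
    ∃ V : A, ‖star (rt g * V) * a * (rt g * V) - a‖ ≤ 2 * ε ∧ ‖V‖ ^ 2 ≤ 8 / ε := by
  have hsa : IsSelfAdjoint a := IsSelfAdjoint.of_nonneg ha
  have hy : 0 ≤ rt g * a * rt g := by
    have := conj_nonneg' ha (rt g)
    rwa [star_rt] at this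
  have hysa : IsSelfAdjoint (rt g * a * rt g) := IsSelfAdjoint.of_nonneg hy
  have hge : (ε/2) • g ≤ rt g * a * rt g := smul_le_conj ha hg hε hC hle
  have hD : Dom (cut (ε/4) (rt g * a * rt g)) (cut ε a) := by
    intro B _ π hπ
    letI := CStarAlgebra.spectralOrder B
    haveI := CStarAlgebra.spectralOrderedRing B
    rw [map_cut π (by positivity) hysa,
      cut_eq_zero_iff (by positivity) (map_nonneg' π hy)] at hπ
    have h1 : ‖π ((ε/2) • g)‖ ≤ ‖π (rt g * a * rt g)‖ :=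
      norm_le_of_le (map_nonneg' π (smul_nonneg' hg (by positivity))) (map_mono' π hge)
    have h1' : π ((ε/2) • g) = (ε/2) • π g := by
      have e : ((ε/2 : ℝ) • g : A) = ((ε/2 : ℝ) : ℂ) • g := (Complex.coe_smul _ _).symm
      rw [e, map_smul]
      exact Complex.coe_smul _ _
    rw [h1', norm_smul, Real.norm_eq_abs, abs_of_pos (by positivity)] at h1
    have h2 : ‖π g‖ ≤ 1/2 := by
      have : (ε/2) * ‖π g‖ ≤ ε/4 := h1.trans hπ
      nlinarith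
    have h3 := hfull B π h2
    rw [map_rmp π (by positivity) (by linarith) hsa] at h3
    have h4 : ‖π a‖ ≤ ε :=
      norm_le_of_norm_rmp_lt_one (by positivity) (by linarith) (map_nonneg' π ha)
        (lt_of_le_of_lt h3 (by norm_num))
    rw [map_cut π hε.le hsa, cut_eq_zero_iff hε.le (map_nonneg' π ha)]
    exact h4
  have hcut1 : ‖cut ε a‖ ≤ 1 := by
    rw [norm_cut hε.le ha]
    exact max_le (by norm_num) (by linarith)
  obtain ⟨V, hV1, hV2⟩ := exists_conj_near_of_dom hA (cut_nonneg ε a) hy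
    (κ := ε/4) (M := 1) (by positivity) hcut1 hD hε
  refine ⟨V, ?_, ?_⟩
  · have e : star (rt g * V) * a * (rt g * V) - a =
        (star V * (rt g * a * rt g) * V - cut ε a) - (a - cut ε a) := by
      rw [star_mul, star_rt]
      simp only [mul_assoc]
      abel
    rw [e]
    refine (norm_sub_le _ _).trans ?_
    have := norm_sub_cut_le hε.le ha
    linarith
  · refine hV2.trans ?_
    rw [div_le_div_iff₀ (by positivity) hε]
    nlinarith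

/-- **F3.** The final theorem in normalized form.  `g0 = rmp (ε₁/2) ε₁ a`, `b₀ = rmp (ε₁/2) ε₁ b`,
`core` (with `t = 1/2`, `c⋆`, `δ = ε ε₁ / 16`) for `b₀`, `g0` : `g, h`; `exists_side` twice: `V, V'`;
`s = rt g V`, `t = rt h V'`: `‖s⋆ c t‖ ≤ ‖V‖ ‖V'‖ lk h c⋆ g ≤ (8/ε₁) δ ≤ ε/2`. -/
theorem final_norm (hA : PI A) {a b c : A} (ha : 0 ≤ a) (ha1 : ‖a‖ ≤ 1) (hb : 0 ≤ b)
    (hb1 : ‖b‖ ≤ 1) (hc : ‖c‖ ≤ 1) {ε : ℝ} (hε : 0 < ε) :
    ∃ s t : A, ‖star s * a * s - a‖ < ε ∧ ‖star t * b * t - b‖ < ε ∧ ‖star s * c * t‖ < ε := by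
  obtain ⟨ε₁, hε₁, hε₁1, hε₁ε⟩ : ∃ ε₁ : ℝ, 0 < ε₁ ∧ ε₁ ≤ 1 ∧ 2 * ε₁ < ε := by
    refine ⟨min 1 (ε/4), lt_min one_pos (by positivity), min_le_left _ _, ?_⟩
    have := min_le_right 1 (ε/4)
    linarith
  obtain ⟨C, g, h, hC, hg, hg1, hh, hh1, hgle, hhle, hlk, hgf, hhf⟩ :=
    core hA (b := rmp (ε₁/2) ε₁ b) (c := star c) (g0 := rmp (ε₁/2) ε₁ a)
      (rmp_nonneg _ _ _) (norm_rmp_le_one _ _ _) (by rwa [norm_star])
      (rmp_nonneg _ _ _) (norm_rmp_le_one _ _ _) (t := 1/2) (δ := ε * ε₁ / 16)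
      (by norm_num) (by norm_num) (by positivity)
  obtain ⟨V, hV1, hV2⟩ := exists_side hA ha ha1 hg hε₁ hε₁1 hC hgle hgf
  obtain ⟨V', hV1', hV2'⟩ := exists_side hA hb hb1 hh hε₁ hε₁1 hC hhle hhf
  refine ⟨rt g * V, rt h * V', lt_of_le_of_lt hV1 hε₁ε, lt_of_le_of_lt hV1' hε₁ε, ?_⟩
  have e : star (rt g * V) * c * (rt h * V') = star V * (rt g * c * rt h) * V' := by
    rw [star_mul, star_rt]
    simp only [mul_assoc]
  have hlk' : ‖rt g * c * rt h‖ ≤ ε * ε₁ / 16 := by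
    rw [lk_comm, star_star] at hlk
    exact hlk
  rw [e]
  have h1 : ‖star V * (rt g * c * rt h) * V'‖ ≤ ‖V‖ * (ε * ε₁ / 16) * ‖V'‖ := by
    refine (norm_mul_le _ _).trans (mul_le_mul_of_nonneg_right ?_ (norm_nonneg _))
    refine (norm_mul_le _ _).trans ?_
    rw [norm_star]
    exact mul_le_mul_of_nonneg_left hlk' (norm_nonneg _)
  have h2 : ‖V‖ * ‖V'‖ ≤ 8 / ε₁ := by
    nlinarith [sq_nonneg (‖V‖ - ‖V'‖)]
  have h3 : ‖V‖ * (ε * ε₁ / 16) * ‖V'‖ ≤ ε / 2 := by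
    have h4 : ‖V‖ * (ε * ε₁ / 16) * ‖V'‖ = (‖V‖ * ‖V'‖) * (ε * ε₁ / 16) := by ring
    rw [h4]
    calc (‖V‖ * ‖V'‖) * (ε * ε₁ / 16) ≤ (8 / ε₁) * (ε * ε₁ / 16) := by gcongr
      _ = ε / 2 := by field_simp; norm_num
  linarith

/-- **F4.** general form: scale `a, b, c` by `1/M`, `M = 1 + ‖a‖ + ‖b‖ + ‖c‖`. -/
theorem final (hA : PI A) {a b c : A} (ha : 0 ≤ a) (hb : 0 ≤ b) {ε : ℝ} (hε : 0 < ε) :
    ∃ s t : A, ‖star s * a * s - a‖ < ε ∧ ‖star t * b * t - b‖ < ε ∧ ‖star s * c * t‖ < ε := by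
  obtain ⟨M, hM, hMa, hMb, hMc⟩ : ∃ M : ℝ, 0 < M ∧ ‖a‖ ≤ M ∧ ‖b‖ ≤ M ∧ ‖c‖ ≤ M := by
    have h1 := norm_nonneg a
    have h2 := norm_nonneg b
    have h3 := norm_nonneg c
    exact ⟨1 + ‖a‖ + ‖b‖ + ‖c‖, by linarith, by linarith, by linarith, by linarith⟩
  have hMi : 0 < M⁻¹ := inv_pos.2 hM
  have hn : ∀ x : A, ‖x‖ ≤ M → ‖M⁻¹ • x‖ ≤ 1 := by
    intro x hx
    rw [norm_smul, Real.norm_eq_abs, abs_of_pos hMi, ← div_eq_inv_mul, div_le_one hM]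
    exact hx
  obtain ⟨s, t, h1, h2, h3⟩ := final_norm hA (a := M⁻¹ • a) (b := M⁻¹ • b) (c := M⁻¹ • c)
    (smul_nonneg' ha hMi.le) (hn a hMa) (smul_nonneg' hb hMi.le) (hn b hMb) (hn c hMc)
    (ε := M⁻¹ * ε) (by positivity)
  refine ⟨s, t, ?_, ?_, ?_⟩
  · rw [mul_smul_comm, smul_mul_assoc, ← smul_sub, norm_smul, Real.norm_eq_abs, abs_of_pos hMi]
      at h1
    exact lt_of_mul_lt_mul_left h1 hMi.le
  · rw [mul_smul_comm, smul_mul_assoc, ← smul_sub, norm_smul, Real.norm_eq_abs, abs_of_pos hMi]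
      at h2
    exact lt_of_mul_lt_mul_left h2 hMi.le
  · rw [mul_smul_comm, smul_mul_assoc, norm_smul, Real.norm_eq_abs, abs_of_pos hMi] at h3
    exact lt_of_mul_lt_mul_left h3 hMi.le

end

end PIS
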