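import Crest.Agent.PIS_D

/-!
# S0145 blueprint, task PIS-G0 (definition of gapH)

Notation of the gap lemma: `p` a projection, `g ≥ 0`, `‖c‖ ≤ 1`; ramps
`e₀ = rmp (1/64) (1/32) g`, `e₁ = rmp (1/32) (1/16) g`, `e₂ = rmp (1/16) (1/8) g`,
`e₃ = rmp (1/8) (3/16) g`, `e₄ = rmp (3/16) (1/4) g`; `σ = ε² / 64`;
`H = σ e₁ - e₁^{1/2} c⋆pc e₁^{1/2}` (`gapH`), `φ = rmp (σ/8) (σ/4) H`.


Replace the `sorry`s IN THIS FILE (do not change statements or names; helper lemmas are welcome, if they
are of general use put them in a new file `PIS_x*.lean`).  See `PIS_Defs.lean` for the definitions.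
-/

set_option autoImplicit false

universe u

namespace PIS

section

variable {A : Type u} [NonUnitalCStarAlgebra A] [PartialOrder A] [StarOrderedRing A]

/-- `H = σ e₁ - e₁^{1/2} c⋆ p c e₁^{1/2}`. -/
noncomputable def gapH (σ : ℝ) (e₁ p c : A) : A := σ • e₁ - rt e₁ * (star c * p * c) * rt e₁

omit [PartialOrder A] [StarOrderedRing A] in
lemma isSelfAdjoint_gapH (σ : ℝ) {e₁ p c : A} (he : IsSelfAdjoint e₁) (hp : IsSelfAdjoint p) :
    IsSelfAdjoint (gapH σ e₁ p c) := by
  unfold gapH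
  have h1 : IsSelfAdjoint (rt e₁) := isSelfAdjoint_rt e₁
  rw [isSelfAdjoint_iff] at *
  simp only [star_sub, star_smul, star_mul, star_star, he, hp, h1, star_trivial, mul_assoc]

end

end PIS
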