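import Crest.Agent.PIS_G0

/-!
# S0145 blueprint, task PIS-G1 (gap lemma: two copies)

Notation of the gap lemma: `p` a projection, `g ≥ 0`, `‖c‖ ≤ 1`; ramps
`e₀ = rmp (1/64) (1/32) g`, `e₁ = rmp (1/32) (1/16) g`, `e₂ = rmp (1/16) (1/8) g`,
`e₃ = rmp (1/8) (3/16) g`, `e₄ = rmp (3/16) (1/4) g`; `σ = ε² / 64`;
`H = σ e₁ - e₁^{1/2} c⋆pc e₁^{1/2}` (`gapH`), `φ = rmp (σ/8) (σ/4) H`.


Replace the `sorry`s IN THIS FILE (do not change statements or names; helper lemmas are welcome, if they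
are of general use put them in a new file `PIS_x*.lean`).  See `PIS_Defs.lean` for the definitions.
-/

set_option autoImplicit false

universe u

namespace PIS

section

variable {A : Type u} [NonUnitalCStarAlgebra A] [PartialOrder A] [StarOrderedRing A]

/-- **G1.** the two almost orthogonal copies (from proper infiniteness of `e₃ = rmp (1/8) (3/16) g`):
`z₁ = e₃^{1/2} r₁ e₄^{1/2}`, `z₂ = e₃^{1/2} r₂`. -/
theorem exists_gap_z (hA : PI A) {g : A} (hg : 0 ≤ g) {ν : ℝ} (hν : 0 < ν) :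
    ∃ z₁ z₂ : A, rmp (1/16) (1/8) g * z₁ = z₁ ∧ rmp (1/16) (1/8) g * z₂ = z₂ ∧
      ‖star z₁ * z₁ - rmp (3/16) (1/4) g‖ ≤ ν ∧ ‖star z₂ * z₂ - rmp (1/8) (3/16) g‖ ≤ ν ∧
      ‖star z₁ * z₂‖ ≤ ν := by
  have hgsa : IsSelfAdjoint g := IsSelfAdjoint.of_nonneg hg
  obtain ⟨e₂, he₂⟩ : ∃ e, e = rmp (1/16) (1/8) g := ⟨_, rfl⟩
  obtain ⟨e₃, he₃⟩ : ∃ e, e = rmp (1/8) (3/16) g := ⟨_, rfl⟩
  obtain ⟨e₄, he₄⟩ : ∃ e, e = rmp (3/16) (1/4) g := ⟨_, rfl⟩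
  have he₃0 : 0 ≤ e₃ := he₃ ▸ rmp_nonneg _ _ _
  have he₄0 : 0 ≤ e₄ := he₄ ▸ rmp_nonneg _ _ _
  have he₄1 : ‖rt e₄‖ ≤ 1 := by
    have h1 := norm_rt_sq he₄0
    have h2 : ‖e₄‖ ≤ 1 := he₄ ▸ norm_rmp_le_one _ _ _
    nlinarith [norm_nonneg (rt e₄)]
  have h23 : e₂ * rt e₃ = rt e₃ := by
    refine mul_rt_of_mul_eq (IsSelfAdjoint.of_nonneg he₃0) ?_
    rw [he₂, he₃]
    exact rmp_mul_rmp (by norm_num) (by norm_num) (by norm_num) (by norm_num) hgsa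
  have h34 : e₃ * rt e₄ = rt e₄ := by
    refine mul_rt_of_mul_eq (IsSelfAdjoint.of_nonneg he₄0) ?_
    rw [he₃, he₄]
    exact rmp_mul_rmp (by norm_num) (by norm_num) (by norm_num) (by norm_num) hgsa
  have h33 : rt e₃ * rt e₃ = e₃ := rt_mul_rt he₃0
  have h44 : rt e₄ * rt e₄ = e₄ := rt_mul_rt he₄0
  have hPI := hA (rt e₃)
  rw [star_rt, h33] at hPI
  obtain ⟨r, s, hr, hs, hrs⟩ := hPI ν hν
  rw [← he₂, ← he₃, ← he₄]
  refine ⟨rt e₃ * r * rt e₄, rt e₃ * s, ?_, ?_, ?_, ?_, ?_⟩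
  · rw [← mul_assoc, ← mul_assoc, h23]
  · rw [← mul_assoc, h23]
  · have h1 : star (rt e₃ * r * rt e₄) * (rt e₃ * r * rt e₄) - e₄
        = rt e₄ * (star r * e₃ * r - e₃) * rt e₄ := by
      rw [star_mul, star_mul, star_rt, star_rt]
      have h5 : rt e₄ * (star r * rt e₃) * (rt e₃ * r * rt e₄)
          = rt e₄ * (star r * (rt e₃ * rt e₃) * r) * rt e₄ := by simp only [mul_assoc]
      rw [h5, h33, mul_sub, sub_mul, mul_assoc (rt e₄) e₃ (rt e₄), h34, h44]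
    rw [h1]
    calc ‖rt e₄ * (star r * e₃ * r - e₃) * rt e₄‖
        ≤ ‖rt e₄‖ * ‖star r * e₃ * r - e₃‖ * ‖rt e₄‖ := by
          refine (norm_mul_le _ _).trans ?_
          gcongr
          exact norm_mul_le _ _
      _ ≤ 1 * ν * 1 := by gcongr
      _ = ν := by ring
  · rw [star_mul, star_rt]
    have h5 : star s * rt e₃ * (rt e₃ * s) = star s * (rt e₃ * rt e₃) * s := by
      simp only [mul_assoc]
    rw [h5, h33]
    exact hs.le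
  · rw [star_mul, star_mul, star_rt, star_rt]
    have h5 : rt e₄ * (star r * rt e₃) * (rt e₃ * s) = rt e₄ * (star r * (rt e₃ * rt e₃) * s) := by
      simp only [mul_assoc]
    rw [h5, h33]
    calc ‖rt e₄ * (star r * e₃ * s)‖ ≤ ‖rt e₄‖ * ‖star r * e₃ * s‖ := norm_mul_le _ _
      _ ≤ 1 * ν := by gcongr
      _ = ν := by ring

end

end PIS
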