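import Crest.Agent.PIS_G0

/-!
# S0145 blueprint, task PIS-G2 (gap lemma: F-claim)

Notation of the gap lemma: `p` a projection, `g ≥ 0`, `‖c‖ ≤ 1`; ramps
`e₀ = rmp (1/64) (1/32) g`, `e₁ = rmp (1/32) (1/16) g`, `e₂ = rmp (1/16) (1/8) g`,
`e₃ = rmp (1/8) (3/16) g`, `e₄ = rmp (3/16) (1/4) g`; `σ = ε² / 64`;
`H = σ e₁ - e₁^{1/2} c⋆pc e₁^{1/2}` (`gapH`), `φ = rmp (σ/8) (σ/4) H`.


Replace the `sorry`s IN THIS FILE (do not change statements or names; helper lemmas are welcome, if they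
are of general use put them in a new file `PIS_x*.lean`).  See `PIS_Defs.lean` for the definitions.
-/

set_option autoImplicit false

universe u

namespace PIS

section

variable {A : Type u} [NonUnitalCStarAlgebra A] [PartialOrder A] [StarOrderedRing A]

/-- `a z = z ⟹ a^{1/2} z = z` for `a ≥ 0`. -/
lemma G2_rt_mul_eq {a z : A} (ha : 0 ≤ a) (h : a * z = z) : rt a * z = z := by
  obtain ⟨u, hu⟩ : ∃ u, u = rt a * z - z := ⟨_, rfl⟩
  have h1 : rt a * u = -u := by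
    rw [hu, mul_sub, ← mul_assoc, rt_mul_rt ha, h]
    abel
  have h2 : 0 ≤ star u * rt a * u := conj_nonneg' (rt_nonneg a) u
  rw [mul_assoc, h1, mul_neg] at h2
  have h3 : star u * u = 0 :=
    le_antisymm (by simpa using h2) (star_mul_self_nonneg u)
  have h4 : u = 0 := by
    rwa [CStarRing.star_mul_self_eq_zero_iff] at h3
  rw [hu] at h4
  exact sub_eq_zero.1 h4

/-- `(x - κ)₊ = 0` (`x` self-adjoint) implies `y⋆ x y ≤ κ y⋆ y`. -/
lemma G2_conj_le {x : A} (hx : IsSelfAdjoint x) {κ : ℝ} (hκ : 0 ≤ κ) (h : cut κ x = 0) (y : A) :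
    star y * x * y ≤ κ • (star y * y) := by
  have hqs : ∀ t ∈ quasispectrum ℝ x, t ≤ κ := by
    intro t ht
    have h1 : ‖cutf κ t‖ ≤ ‖cut κ x‖ :=
      norm_apply_le_norm_cfcₙ (cutf κ) x ht (continuous_cutf κ).continuousOn (cutf_zero hκ) hx
    rw [h, norm_zero] at h1
    have h2 : cutf κ t = 0 := norm_le_zero_iff.1 h1
    unfold cutf at h2
    have := le_max_right 0 (t - κ)
    linarith
  have h3 : (x : Unitization ℂ A) ≤ algebraMap ℝ (Unitization ℂ A) κ := by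
    rw [le_algebraMap_iff_spectrum_le (hx.inr ℂ)]
    intro t ht
    rw [← Unitization.quasispectrum_eq_spectrum_inr' ℝ ℂ x] at ht
    exact hqs t ht
  have h4 := star_left_conjugate_le_conjugate h3 (y : Unitization ℂ A)
  have h5 : 0 ≤ ((κ • (star y * y) - star y * x * y : A) : Unitization ℂ A) := by
    have e : ((κ • (star y * y) - star y * x * y : A) : Unitization ℂ A) =
        star (y : Unitization ℂ A) * algebraMap ℝ (Unitization ℂ A) κ * (y : Unitization ℂ A) -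
        star (y : Unitization ℂ A) * (x : Unitization ℂ A) * (y : Unitization ℂ A) := by
      rw [Algebra.algebraMap_eq_smul_one, mul_smul_comm, mul_one, smul_mul_assoc]
      simp
    rw [e]
    exact sub_nonneg.2 h4
  rw [Unitization.inr_nonneg_iff] at h5
  exact sub_nonneg.1 h5

/-- **G2 (F-claim).** In one algebra (it will be applied in quotients): `e₁, e₂` with `e₁ e₂ = e₂`,
`H = gapH η e₁ p c ≤ η/4` and `y y⋆ ≥ σ p` in the corner (`y = p c z₁`) force `z₂` to be small.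

Proof.  `cut (η/4) H = 0` means `H ≤ η/4` (unitization); conjugating with `e₂^{1/2}` (`e₁^{1/2} e₂^{1/2} = e₂^{1/2}`):
`M := e₂^{1/2} c⋆pc e₂^{1/2} ≥ (3η/4) e₂`.  By D1 (`exists_mul_near_rt`) there is, for each `ν' > 0`, a
`k` with `‖M k - rt e₂‖ ≤ ν'`.  Put `q' = p c (rt e₂) k z₂`.
`rt e₂ c⋆ q' = M k z₂ ≈ rt e₂ z₂ = z₂` (as `rt e₂ z₂ = z₂`, `mul_rt…`), so `‖z₂‖ ≤ ‖q'‖ + ν' ‖z₂‖`.
`y⋆ q' = z₁⋆ c⋆ p c rt e₂ k z₂ = z₁⋆ M k z₂ ≈ z₁⋆ z₂` (as `z₁⋆ = z₁⋆ rt e₂`), so `‖y⋆q'‖ ≤ ν + ν' ‖z₁‖ ‖z₂‖`.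
`σ p ≤ y y⋆` (`smul_proj_le_of_norm_proj_sub_sg`) gives `σ ‖q'‖² ≤ ‖y⋆ q'‖²`.  Let `ν' → 0`.

NOTE `e₂ z₁ = z₁` implies `rt e₂ z₁ = z₁`: `e₂ ≥ 0`, `‖e₂‖ ≤ 1`: `‖z₁ - rt e₂ z₁‖² = ‖z₁⋆ (1 - rt e₂)² z₁‖ ≤
‖z₁⋆ (1 - e₂) z₁‖ = 0`. -/
theorem gap_fclaim {p c e₁ e₂ z₁ z₂ : A} (hp : IsStarProjection p) (hc : ‖c‖ ≤ 1)
    (he₁ : 0 ≤ e₁) (he₂ : 0 ≤ e₂) (he₂1 : ‖e₂‖ ≤ 1) (he : e₁ * e₂ = e₂) {η σ ν : ℝ} (hη : 0 < η)
    (hσ : 0 < σ) (hH : cut (η/4) (gapH η e₁ p c) = 0)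
    (hz₁ : e₂ * z₁ = z₁) (hz₂ : e₂ * z₂ = z₂) (hz : ‖star z₁ * z₂‖ ≤ ν)
    (hQ : ‖p - sg σ (p * c * z₁ * star (p * c * z₁))‖ ≤ 1/2) :
    ‖z₂‖ ≤ ν / √σ := by
  have hcp : IsSelfAdjoint p := hp.isSelfAdjoint
  have hHs : IsSelfAdjoint (gapH η e₁ p c) := isSelfAdjoint_gapH η (IsSelfAdjoint.of_nonneg he₁) hcp
  have hr2 : star (rt e₂) = rt e₂ := star_rt e₂
  have he₂s : IsSelfAdjoint e₂ := IsSelfAdjoint.of_nonneg he₂
  -- absorption
  have a1 : e₁ * rt e₂ = rt e₂ := mul_rt_of_mul_eq he₂s he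
  have a2 : rt e₁ * rt e₂ = rt e₂ := G2_rt_mul_eq he₁ a1
  have a3 : rt e₂ * rt e₁ = rt e₂ := by
    have := congrArg star a2
    rwa [star_mul, star_rt, star_rt] at this
  have a4 : rt e₂ * z₁ = z₁ := G2_rt_mul_eq he₂ hz₁
  have a5 : rt e₂ * z₂ = z₂ := G2_rt_mul_eq he₂ hz₂
  have a6 : star z₁ * rt e₂ = star z₁ := by
    have := congrArg star a4
    rwa [star_mul, star_rt] at this
  have hrr : rt e₂ * rt e₂ = e₂ := rt_mul_rt he₂
  -- the lower bound for M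
  obtain ⟨M, hMdef⟩ : ∃ M, M = rt e₂ * (star c * p * c) * rt e₂ := ⟨_, rfl⟩
  have hMnn : 0 ≤ M := by
    have h0 : 0 ≤ star c * p * c := conj_nonneg' (proj_nonneg hp) c
    have := conj_nonneg' h0 (rt e₂)
    rwa [hr2, ← hMdef] at this
  have hle0 := G2_conj_le hHs (by positivity : (0:ℝ) ≤ η/4) hH (rt e₂)
  have hconj : star (rt e₂) * gapH η e₁ p c * rt e₂ = η • e₂ - M := by
    rw [hr2, hMdef]
    unfold gapH
    rw [mul_sub, sub_mul]
    congr 1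
    · rw [mul_smul_comm, smul_mul_assoc, mul_assoc, a1, hrr]
    · calc rt e₂ * (rt e₁ * (star c * p * c) * rt e₁) * rt e₂
          = (rt e₂ * rt e₁) * (star c * p * c) * (rt e₁ * rt e₂) := by simp only [mul_assoc]
        _ = rt e₂ * (star c * p * c) * rt e₂ := by rw [a2, a3]
  rw [hconj, hr2, hrr] at hle0
  have hle : e₂ ≤ (4 / (3 * η)) • M := by
    have h1 : (3 * η / 4) • e₂ ≤ M := by
      have h2 : η • e₂ ≤ M + (η/4) • e₂ := by
        rw [← sub_le_iff_le_add']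
        exact hle0
      have h3 : (3 * η / 4) • e₂ = η • e₂ - (η/4) • e₂ := by
        rw [← sub_smul]; congr 1; ring
      rw [h3, sub_le_iff_le_add]
      exact h2
    have h4 := smul_le_smul_of_nonneg_left h1 (by positivity : (0:ℝ) ≤ 4 / (3 * η))
    rw [smul_smul] at h4
    have h5 : 4 / (3 * η) * (3 * η / 4) = 1 := by field_simp
    rwa [h5, one_smul] at h4
  -- σ p ≤ y y⋆
  obtain ⟨y, hy⟩ : ∃ y, y = p * c * z₁ := ⟨_, rfl⟩
  rw [← hy] at hQ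
  have hpp : p * p = p := hp.isIdempotentElem
  have hpy : p * y = y := by rw [hy, ← mul_assoc, ← mul_assoc, hpp]
  have hσp : σ • p ≤ y * star y :=
    smul_proj_le_of_norm_proj_sub_sg hp (mul_star_self_nonneg y)
      (by rw [← mul_assoc, hpy]) hσ hQ
  have hsσ : 0 < √σ := Real.sqrt_pos.2 hσ
  have hrt2 : ‖rt e₂‖ ≤ 1 := by
    have := norm_rt_sq he₂
    have h0 := norm_nonneg (rt e₂)
    nlinarith
  -- the main estimate
  have key : ∀ ν' : ℝ, 0 < ν' → ‖z₂‖ ≤ (ν + ν' * ‖z₁‖ * ‖z₂‖) / √σ + ν' * ‖z₂‖ := by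
    intro ν' hν'
    obtain ⟨k, hk⟩ := exists_mul_near_rt he₂ hMnn (by positivity) hle hν'
    obtain ⟨q, hq⟩ : ∃ q, q = p * c * rt e₂ * k * z₂ := ⟨_, rfl⟩
    have b1 : rt e₂ * star c * q = M * k * z₂ := by
      rw [hq, hMdef]; simp only [mul_assoc]
    have b2 : ‖M * k * z₂ - z₂‖ ≤ ν' * ‖z₂‖ := by
      have : M * k * z₂ - z₂ = (M * k - rt e₂) * z₂ := by rw [sub_mul, a5]
      rw [this]
      exact (norm_mul_le _ _).trans (mul_le_mul_of_nonneg_right hk.le (norm_nonneg _))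
    have b3 : ‖rt e₂ * star c * q‖ ≤ ‖q‖ := by
      calc ‖rt e₂ * star c * q‖ ≤ ‖rt e₂‖ * ‖star c‖ * ‖q‖ := norm_mul₃_le
        _ ≤ 1 * 1 * ‖q‖ := by
            gcongr
            rwa [norm_star]
        _ = ‖q‖ := by ring
    have b4 : ‖z₂‖ ≤ ‖q‖ + ν' * ‖z₂‖ := by
      have h1 : z₂ = rt e₂ * star c * q - (M * k * z₂ - z₂) := by rw [b1]; abel
      calc ‖z₂‖ = ‖rt e₂ * star c * q - (M * k * z₂ - z₂)‖ := by rw [← h1]
        _ ≤ ‖rt e₂ * star c * q‖ + ‖M * k * z₂ - z₂‖ := norm_sub_le _ _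
        _ ≤ ‖q‖ + ν' * ‖z₂‖ := add_le_add b3 b2
    have hpq : p * q = q := by
      rw [hq]; simp only [← mul_assoc, hpp]
    have b5 : star y * q = star z₁ * (M * k * z₂) := by
      calc star y * q = star z₁ * star c * (p * q) := by
            rw [hy]; simp only [star_mul, hcp.star_eq, mul_assoc]
        _ = star z₁ * star c * q := by rw [hpq]
        _ = (star z₁ * rt e₂) * star c * q := by rw [a6]
        _ = star z₁ * (rt e₂ * star c * q) := by simp only [mul_assoc]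
        _ = star z₁ * (M * k * z₂) := by rw [b1]
    have b6 : ‖star y * q‖ ≤ ν + ν' * ‖z₁‖ * ‖z₂‖ := by
      rw [b5]
      have h1 : star z₁ * (M * k * z₂) = star z₁ * z₂ + star z₁ * (M * k * z₂ - z₂) := by
        rw [mul_sub]; abel
      rw [h1]
      calc ‖star z₁ * z₂ + star z₁ * (M * k * z₂ - z₂)‖
          ≤ ‖star z₁ * z₂‖ + ‖star z₁ * (M * k * z₂ - z₂)‖ := norm_add_le _ _
        _ ≤ ν + ‖star z₁‖ * ‖M * k * z₂ - z₂‖ := add_le_add hz (norm_mul_le _ _)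
        _ ≤ ν + ‖z₁‖ * (ν' * ‖z₂‖) := by
            rw [norm_star]
            gcongr
        _ = ν + ν' * ‖z₁‖ * ‖z₂‖ := by ring
    have b7 : σ * ‖q‖ ^ 2 ≤ ‖star y * q‖ ^ 2 := by
      have h1 := conj_mono hσp q
      have h2 : star q * (σ • p) * q = σ • (star q * q) := by
        rw [mul_smul_comm, smul_mul_assoc, mul_assoc, hpq]
      have h3 : star q * (y * star y) * q = star (star y * q) * (star y * q) := by
        rw [star_mul, star_star]; simp only [mul_assoc]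
      rw [h2, h3] at h1
      have h4 := norm_le_of_le (smul_nonneg' (star_mul_self_nonneg q) hσ.le) h1
      rw [norm_smul, CStarRing.norm_star_mul_self, CStarRing.norm_star_mul_self,
        Real.norm_of_nonneg hσ.le] at h4
      nlinarith [h4]
    have b8 : √σ * ‖q‖ ≤ ‖star y * q‖ := by
      have h1 : (√σ * ‖q‖) ^ 2 ≤ ‖star y * q‖ ^ 2 := by
        rw [mul_pow, Real.sq_sqrt hσ.le]; exact b7
      exact (sq_le_sq₀ (by positivity) (norm_nonneg _)).1 h1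
    have b9 : ‖q‖ ≤ (ν + ν' * ‖z₁‖ * ‖z₂‖) / √σ := by
      rw [le_div_iff₀ hsσ, mul_comm]
      exact b8.trans b6
    linarith
  apply le_of_forall_pos_le_add
  intro ε hε
  obtain ⟨D, hD⟩ : ∃ D, D = ‖z₁‖ * ‖z₂‖ / √σ + ‖z₂‖ := ⟨_, rfl⟩
  have hD0 : 0 ≤ D := by rw [hD]; positivity
  have h1 := key (ε / (D + 1)) (by positivity)
  have h2 : (ν + ε / (D + 1) * ‖z₁‖ * ‖z₂‖) / √σ + ε / (D + 1) * ‖z₂‖ =
      ν / √σ + ε / (D + 1) * D := by
    rw [hD]; ring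
  rw [h2] at h1
  have h3 : ε / (D + 1) * D ≤ ε := by
    rw [div_mul_eq_mul_div, div_le_iff₀ (by positivity)]
    nlinarith
  linarith

end

end PIS
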