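import Crest.Agent.PIS_G0

/-!
# S0145 blueprint, task PIS-G3 (gap lemma: link bound)

Notation of the gap lemma: `p` a projection, `g ≥ 0`, `‖c‖ ≤ 1`; ramps
`e₀ = rmp (1/64) (1/32) g`, `e₁ = rmp (1/32) (1/16) g`, `e₂ = rmp (1/16) (1/8) g`,
`e₃ = rmp (1/8) (3/16) g`, `e₄ = rmp (3/16) (1/4) g`; `σ = ε² / 64`;
`H = σ e₁ - e₁^{1/2} c⋆pc e₁^{1/2}` (`gapH`), `φ = rmp (σ/8) (σ/4) H`.


Replace the `sorry`s IN THIS FILE (do not change statements or names; helper lemmas are welcome, if they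
are of general use put them in a new file `PIS_x*.lean`).  See `PIS_Defs.lean` for the definitions.
-/

set_option autoImplicit false

universe u

namespace PIS

section

variable {A : Type u} [NonUnitalCStarAlgebra A] [PartialOrder A] [StarOrderedRing A]

lemma g3_rt_mul_rt {x : A} (hx : 0 ≤ x) : rt x * rt x = x := by
  unfold rt
  rw [← cfcₙ_mul Real.sqrt Real.sqrt x (Real.continuous_sqrt.continuousOn) (by simp)
    (Real.continuous_sqrt.continuousOn) (by simp)]
  have hsa : IsSelfAdjoint x := IsSelfAdjoint.of_nonneg hx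
  conv_rhs => rw [← cfcₙ_id' ℝ x]
  apply cfcₙ_congr
  intro t ht
  exact Real.mul_self_sqrt (quasispectrum_nonneg_of_nonneg x hx t ht)

lemma g3_rmp_nonneg (a b : ℝ) (x : A) : 0 ≤ rmp a b x := by
  unfold rmp
  exact cfcₙ_nonneg (fun t _ => rampf_nonneg a b t)

lemma g3_key {H : A} (hH : IsSelfAdjoint H) {a b : ℝ} (ha : 0 ≤ a) (hab : a < b) :
    a • rmp a b H ≤ rt (rmp a b H) * H * rt (rmp a b H) := by
  have hc := continuous_rampf a b
  have h0 := rampf_zero ha hab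
  have hr : rt (rmp a b H) = cfcₙ (fun t => Real.sqrt (rampf a b t)) H := by
    unfold rt rmp
    rw [← cfcₙ_comp' Real.sqrt (rampf a b) H (Real.continuous_sqrt.continuousOn) (by simp)
      (hc.continuousOn) h0]
  have hid : H = cfcₙ (fun t : ℝ => t) H := (cfcₙ_id' ℝ H).symm
  have hsc : Continuous fun t => Real.sqrt (rampf a b t) := Real.continuous_sqrt.comp hc
  have hs0 : Real.sqrt (rampf a b 0) = 0 := by rw [h0]; simp
  have h1 : rt (rmp a b H) * H * rt (rmp a b H)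
      = cfcₙ (fun t => Real.sqrt (rampf a b t) * t * Real.sqrt (rampf a b t)) H := by
    rw [hr]
    conv_lhs => rw [hid]
    rw [cfcₙ_id' ℝ H]
    conv_lhs =>
      arg 1
      arg 2
      rw [hid]
    rw [← cfcₙ_mul (fun t => Real.sqrt (rampf a b t)) (fun t : ℝ => t) H hsc.continuousOn hs0
      continuous_id'.continuousOn rfl]
    rw [← cfcₙ_mul (fun t => Real.sqrt (rampf a b t) * t) (fun t => Real.sqrt (rampf a b t)) H
      (hsc.mul continuous_id').continuousOn (by simp) hsc.continuousOn hs0]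
  rw [h1]
  unfold rmp
  rw [← cfcₙ_smul a _ H hc.continuousOn h0]
  apply cfcₙ_mono
  · intro t _
    have hn := rampf_nonneg a b t
    have h2 : Real.sqrt (rampf a b t) * t * Real.sqrt (rampf a b t) = rampf a b t * t := by
      have h3 := Real.mul_self_sqrt hn
      calc Real.sqrt (rampf a b t) * t * Real.sqrt (rampf a b t)
          = (Real.sqrt (rampf a b t) * Real.sqrt (rampf a b t)) * t := by ring
        _ = _ := by rw [h3]
    simp only [smul_eq_mul]
    rw [h2]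
    by_cases hta : t ≤ a
    · rw [rampf_eq_zero hab hta]; simp
    · push Not at hta
      nlinarith
  · exact (hc.const_smul a).continuousOn
  · exact ((hsc.mul continuous_id').mul hsc).continuousOn
  · simp [h0]
  · simp

/-- **G3a.** `R = e₁^{1/2} φ^{1/2}`, `φ = rmp (η/8) (η/4) H`: `‖p c R‖² ≤ η` because
`φ^{1/2} e₁^{1/2} c⋆pc e₁^{1/2} φ^{1/2} = φ^{1/2} (η e₁ - H) φ^{1/2} ≤ η φ^{1/2} e₁ φ^{1/2}`
(`φ^{1/2} H φ^{1/2} ≥ 0`). -/
theorem gap_norm_pcR {p c e₁ : A} (hp : IsStarProjection p) (he₁ : 0 ≤ e₁) (he₁1 : ‖e₁‖ ≤ 1)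
    {η : ℝ} (hη : 0 < η) :
    ‖p * c * (rt e₁ * rt (rmp (η/8) (η/4) (gapH η e₁ p c)))‖ ^ 2 ≤ η := by
  set H := gapH η e₁ p c with hHdef
  have hHsa : IsSelfAdjoint H :=
    isSelfAdjoint_gapH η (IsSelfAdjoint.of_nonneg he₁) hp.isSelfAdjoint
  set φ := rmp (η/8) (η/4) H with hφdef
  have hkey := g3_key hHsa (a := η/8) (b := η/4) (by positivity) (by linarith)
  rw [← hφdef] at hkey
  have hφ0 : 0 ≤ φ := g3_rmp_nonneg _ _ H
  have hφ1 : ‖φ‖ ≤ 1 := norm_rmp_le_one _ _ _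
  have hpp : p * p = p := hp.isIdempotentElem
  have hps : star p = p := hp.isSelfAdjoint
  have hre : star (rt e₁) = rt e₁ := star_rt e₁
  have hrf : star (rt φ) = rt φ := star_rt φ
  -- `‖pcR‖² = ‖R⋆ c⋆ p c R‖`
  have h1 : ‖p * c * (rt e₁ * rt φ)‖ ^ 2
      = ‖rt φ * (rt e₁ * (star c * p * c) * rt e₁) * rt φ‖ := by
    rw [sq, ← CStarRing.norm_star_mul_self]
    congr 1
    rw [star_mul, star_mul, star_mul, hre, hrf, hps]
    calc rt φ * rt e₁ * (star c * p) * (p * c * (rt e₁ * rt φ))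
        = rt φ * rt e₁ * (star c * (p * p)) * (c * (rt e₁ * rt φ)) := by
          simp only [mul_assoc]
      _ = _ := by rw [hpp]; simp only [mul_assoc]
  have h2 : rt φ * (rt e₁ * (star c * p * c) * rt e₁) * rt φ
      = rt φ * (η • e₁) * rt φ - rt φ * H * rt φ := by
    rw [hHdef]
    unfold gapH
    noncomm_ring
  have hpos : 0 ≤ rt φ * H * rt φ := by
    refine le_trans ?_ hkey
    exact smul_nonneg' hφ0 (by positivity)
  have hle : rt φ * (rt e₁ * (star c * p * c) * rt e₁) * rt φ ≤ rt φ * (η • e₁) * rt φ := by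
    rw [h2]
    exact sub_le_self _ hpos
  have hnn : 0 ≤ rt φ * (rt e₁ * (star c * p * c) * rt e₁) * rt φ := by
    have h3 : rt φ * (rt e₁ * (star c * p * c) * rt e₁) * rt φ
        = star (p * c * (rt e₁ * rt φ)) * (p * c * (rt e₁ * rt φ)) := by
      rw [star_mul, star_mul, star_mul, hre, hrf, hps]
      calc rt φ * (rt e₁ * (star c * p * c) * rt e₁) * rt φ
          = rt φ * rt e₁ * (star c * (p * p)) * (c * (rt e₁ * rt φ)) := by
            rw [hpp]; simp only [mul_assoc]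
        _ = _ := by simp only [mul_assoc]
    rw [h3]
    exact star_mul_self_nonneg _
  rw [h1]
  refine (norm_le_of_le hnn hle).trans ?_
  have h4 : ‖rt φ * (η • e₁) * rt φ‖ ≤ ‖rt φ‖ * ‖η • e₁‖ * ‖rt φ‖ :=
    (norm_mul_le _ _).trans (mul_le_mul_of_nonneg_right (norm_mul_le _ _) (norm_nonneg _))
  have h5 : ‖rt φ‖ ^ 2 = ‖φ‖ := by
    rw [sq, ← CStarRing.norm_star_mul_self, hrf, g3_rt_mul_rt hφ0]
  have h6 : ‖η • e₁‖ ≤ η := by
    rw [norm_smul, Real.norm_of_nonneg hη.le]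
    nlinarith
  calc ‖rt φ * (η • e₁) * rt φ‖ ≤ ‖rt φ‖ * ‖η • e₁‖ * ‖rt φ‖ := h4
    _ = ‖rt φ‖ ^ 2 * ‖η • e₁‖ := by ring
    _ ≤ 1 * η := by
      rw [h5]
      exact mul_le_mul hφ1 h6 (norm_nonneg _) zero_le_one
    _ = η := one_mul η

/-- **G3b.** `R⋆R = φ^{1/2} e₁ φ^{1/2} ≥ (1/η) φ^{1/2} H φ^{1/2} ≥ (1/η)(η/8) φ = φ / 8`. -/
theorem gap_phi_le {p c e₁ : A} (hp : IsStarProjection p) (he₁ : 0 ≤ e₁) {η : ℝ} (hη : 0 < η) :
    rmp (η/8) (η/4) (gapH η e₁ p c) ≤
      (8 : ℝ) • (star (rt e₁ * rt (rmp (η/8) (η/4) (gapH η e₁ p c))) *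
        (rt e₁ * rt (rmp (η/8) (η/4) (gapH η e₁ p c)))) := by
  set H := gapH η e₁ p c with hHdef
  have hHsa : IsSelfAdjoint H :=
    isSelfAdjoint_gapH η (IsSelfAdjoint.of_nonneg he₁) hp.isSelfAdjoint
  set φ := rmp (η/8) (η/4) H with hφdef
  have hkey := g3_key hHsa (a := η/8) (b := η/4) (by positivity) (by linarith)
  rw [← hφdef] at hkey
  have hpp : p * p = p := hp.isIdempotentElem
  have hps : star p = p := hp.isSelfAdjoint
  have hre : star (rt e₁) = rt e₁ := star_rt e₁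
  have hrf : star (rt φ) = rt φ := star_rt φ
  have h1 : star (rt e₁ * rt φ) * (rt e₁ * rt φ) = rt φ * e₁ * rt φ := by
    rw [star_mul, hre, hrf]
    calc rt φ * rt e₁ * (rt e₁ * rt φ) = rt φ * (rt e₁ * rt e₁) * rt φ := by
          simp only [mul_assoc]
      _ = _ := by rw [g3_rt_mul_rt he₁]
  rw [h1]
  have h2 : H ≤ η • e₁ := by
    rw [hHdef]
    unfold gapH
    apply sub_le_self
    have h3 : rt e₁ * (star c * p * c) * rt e₁ = star (p * c * rt e₁) * (p * c * rt e₁) := by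
      rw [star_mul, star_mul, hre, hps]
      calc rt e₁ * (star c * p * c) * rt e₁ = rt e₁ * (star c * (p * p) * c) * rt e₁ := by
            rw [hpp]
        _ = _ := by simp only [mul_assoc]
    rw [h3]
    exact star_mul_self_nonneg _
  have h4 : rt φ * H * rt φ ≤ rt φ * (η • e₁) * rt φ := by
    have := conj_mono h2 (rt φ)
    rwa [hrf] at this
  have h5 : (η / 8) • φ ≤ η • (rt φ * e₁ * rt φ) := by
    refine (hkey.trans h4).trans (le_of_eq ?_)
    rw [mul_smul_comm, smul_mul_assoc]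
  have h6 : (8 / η) • ((η / 8) • φ) ≤ (8 / η) • (η • (rt φ * e₁ * rt φ)) :=
    smul_le_smul_of_nonneg_left h5 (by positivity)
  rw [smul_smul, smul_smul] at h6
  have h7 : 8 / η * (η / 8) = 1 := by field_simp
  have h8 : 8 / η * η = 8 := by field_simp
  rwa [h7, h8, one_smul] at h6

/-- **G3c.** link bound: `g' = rmp 0 (1/8) (R₁R₁⋆ + R R⋆) ≤ 8 (R₁R₁⋆ + R R⋆)`,
`‖Q^{1/2} c R‖ ≤ ‖p c R‖` (`Q ≤ p`), `‖Q^{1/2} c R₁‖² = ‖Q^{1/2} y y⋆ Q^{1/2}‖ ≤ σ`
(`y = p c R₁`, `norm_rt_proj_sub_sg_mul_sq_le`). -/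
theorem gap_link {p c R R₁ : A} (hp : IsStarProjection p) {σ : ℝ} (hσ : 0 < σ)
    (hR : ‖p * c * R‖ ^ 2 ≤ σ) :
    lk (p - sg σ (p * c * R₁ * star (p * c * R₁))) c
      (rmp 0 (1/8) (R₁ * star R₁ + R * star R)) ^ 2 ≤ 16 * σ := by
  set y := p * c * R₁ with hy
  set Q := p - sg σ (y * star y) with hQ
  have hpp : p * p = p := hp.isIdempotentElem
  have hps : star p = p := hp.isSelfAdjoint
  have hpy : p * y = y := by
    rw [hy]
    calc p * (p * c * R₁) = (p * p) * c * R₁ := by simp only [mul_assoc]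
      _ = _ := by rw [hpp]
  have hyy : 0 ≤ y * star y := mul_star_self_nonneg y
  have hpyy : p * (y * star y) = y * star y := by rw [← mul_assoc, hpy]
  have hsgp : sg σ (y * star y) ≤ p := sg_le_proj hp hyy hpyy hσ
  have hQ0 : 0 ≤ Q := sub_nonneg.mpr hsgp
  have hsg0 : 0 ≤ sg σ (y * star y) := by
    unfold sg
    exact cfcₙ_nonneg (fun t _ => sgf_nonneg hσ t)
  have hQp : Q ≤ (1 : ℝ) • p := by
    rw [one_smul, hQ]
    exact sub_le_self _ hsg0
  have hpQ : p * Q = Q := proj_mul_of_le hp hQ0 zero_le_one hQp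
  have hprQ : p * rt Q = rt Q := mul_rt_of_mul_eq (IsSelfAdjoint.of_nonneg hQ0) hpQ
  have hrQp : rt Q * p = rt Q := by
    have := congrArg star hprQ
    rwa [star_mul, star_rt, hps] at this
  -- `rt p = p`
  have hrp : rt p = p := by
    have h0 : 0 ≤ p := proj_nonneg hp
    have h1 : p * rt p = rt p := mul_rt_of_mul_eq hp.isSelfAdjoint hpp
    unfold rt
    conv_rhs => rw [← cfcₙ_id' ℝ p hp.isSelfAdjoint]
    apply cfcₙ_congr
    intro t ht
    have h2 : t * t = t := by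
      have h3 : cfcₙ (fun t : ℝ => t * t - t) p = 0 := by
        rw [cfcₙ_sub _ _ p (by fun_prop) (by simp) (by fun_prop) (by simp),
          cfcₙ_mul _ _ p (by fun_prop) (by simp) (by fun_prop) (by simp),
          cfcₙ_id' ℝ p hp.isSelfAdjoint, hpp, sub_self]
      have h4 := (cfcₙ_eq_cfcₙ_iff_eqOn (R := ℝ) (p := IsSelfAdjoint) (f := fun t : ℝ => t * t - t)
        (g := fun _ => 0) (a := p) (ha := hp.isSelfAdjoint) (hf := by fun_prop)
        (hf0 := by simp) (hg := by fun_prop) (hg0 := rfl)).mp (by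
          rw [h3]; symm; simp)
      have h5 := h4 ht
      simp only at h5
      linarith
    have h6 : 0 ≤ t := quasispectrum_nonneg_of_nonneg p h0 t ht
    rcases eq_or_lt_of_le h6 with h7 | h7
    · rw [← h7]; simp
    · have h8 : t = 1 := by
        have : t * (t - 1) = 0 := by linarith
        rcases mul_eq_zero.mp this with h | h
        · linarith
        · linarith
      rw [h8]; simp
  set S := R₁ * star R₁ + R * star R with hS
  have hS0 : 0 ≤ S := add_nonneg (mul_star_self_nonneg R₁) (mul_star_self_nonneg R)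
  have hg0 : 0 ≤ rmp 0 (1/8) S := g3_rmp_nonneg _ _ S
  have hgS : rmp 0 (1/8) S ≤ (8 : ℝ) • S := by
    have := rmp_le_smul (a := 0) (b := 1/8) le_rfl (by norm_num) hS0
    simpa using this
  have h1 : lk Q c (rmp 0 (1/8) S) ≤ √8 * lk Q c S :=
    lk_mono_right (by norm_num) hS0 hg0 hgS Q c
  have h2 : lk Q c S ^ 2 ≤ 2 * σ := by
    rw [lk_sq_right hS0]
    have h3 : rt Q * (c * S * star c) * rt Q
        = (rt Q * (c * R₁)) * star (rt Q * (c * R₁)) + (rt Q * (c * R)) * star (rt Q * (c * R)) := by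
      rw [star_mul, star_mul, star_mul, star_mul, star_rt, hS]
      noncomm_ring
    rw [h3]
    refine (norm_add_le _ _).trans ?_
    rw [CStarRing.norm_self_mul_star, CStarRing.norm_self_mul_star, ← sq, ← sq]
    have h4 : rt Q * (c * R₁) = rt Q * y := by
      rw [hy]
      calc rt Q * (c * R₁) = (rt Q * p) * (c * R₁) := by rw [hrQp]
        _ = _ := by simp only [mul_assoc]
    have h5 : ‖rt Q * (c * R₁)‖ ^ 2 ≤ σ := by
      rw [h4]
      exact norm_rt_proj_sub_sg_mul_sq_le hp hpy hσ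
    have h6 : ‖rt Q * (c * R)‖ ≤ ‖p * c * R‖ := by
      have := norm_rt_mul_le (C := 1) zero_le_one (proj_nonneg hp) hQ0 hQp (c * R)
      rw [hrp] at this
      simpa [mul_assoc] using this
    have h7 : ‖rt Q * (c * R)‖ ^ 2 ≤ σ := by
      refine le_trans ?_ hR
      gcongr
    linarith
  calc lk Q c (rmp 0 (1/8) S) ^ 2 ≤ (√8 * lk Q c S) ^ 2 := by
        have := lk_nonneg Q c (rmp 0 (1/8) S)
        gcongr
    _ = 8 * lk Q c S ^ 2 := by
        rw [mul_pow, Real.sq_sqrt (by norm_num)]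
    _ ≤ 8 * (2 * σ) := by gcongr
    _ = 16 * σ := by ring

end

end PIS
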