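import Crest.Agent.PIS_G0

/-!
# S0145 blueprint, task PIS-G4 (gap lemma: the gap step)

Notation of the gap lemma: `p` a projection, `g ≥ 0`, `‖c‖ ≤ 1`; ramps
`e₀ = rmp (1/64) (1/32) g`, `e₁ = rmp (1/32) (1/16) g`, `e₂ = rmp (1/16) (1/8) g`,
`e₃ = rmp (1/8) (3/16) g`, `e₄ = rmp (3/16) (1/4) g`; `σ = ε² / 64`;
`H = σ e₁ - e₁^{1/2} c⋆pc e₁^{1/2}` (`gapH`), `φ = rmp (σ/8) (σ/4) H`.


Replace the `sorry`s IN THIS FILE (do not change statements or names; helper lemmas are welcome, if they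
are of general use put them in a new file `PIS_x*.lean`).  See `PIS_Defs.lean` for the definitions.
-/

set_option autoImplicit false

universe u

namespace PIS

section

variable {A : Type u} [NonUnitalCStarAlgebra A] [PartialOrder A] [StarOrderedRing A]

/-- function bound: `t (1 - min(1,t/δ))² ≤ δ`, in the form used for `gap_step`. -/
lemma norm_compress_le {K : A} (hK : 0 ≤ K) {δ : ℝ} (hδ : 0 < δ) :
    ‖K - K * rmp 0 δ K - rmp 0 δ K * K + rmp 0 δ K * K * rmp 0 δ K‖ ≤ δ := by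
  have hKs : IsSelfAdjoint K := IsSelfAdjoint.of_nonneg hK
  have hr : Continuous (rampf 0 δ) := continuous_rampf 0 δ
  have hr0 : rampf 0 δ 0 = 0 := rampf_zero le_rfl hδ
  have hid : cfcₙ (fun t : ℝ => t) K = K := cfcₙ_id' ℝ K
  have c1 : cfcₙ (fun t => t * rampf 0 δ t) K = K * rmp 0 δ K := by
    rw [cfcₙ_mul (fun t : ℝ => t) (rampf 0 δ) K continuous_id.continuousOn rfl hr.continuousOn hr0,
      hid, rmp]
  have c2 : cfcₙ (fun t => rampf 0 δ t * t) K = rmp 0 δ K * K := by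
    rw [cfcₙ_mul (rampf 0 δ) (fun t : ℝ => t) K hr.continuousOn hr0 continuous_id.continuousOn rfl,
      hid, rmp]
  have c3 : cfcₙ (fun t => rampf 0 δ t * t * rampf 0 δ t) K = rmp 0 δ K * K * rmp 0 δ K := by
    rw [cfcₙ_mul (fun t : ℝ => rampf 0 δ t * t) (rampf 0 δ) K
      (hr.mul continuous_id).continuousOn (by simp) hr.continuousOn hr0, c2, rmp]
  have e : cfcₙ (fun t => t - t * rampf 0 δ t - rampf 0 δ t * t +
      rampf 0 δ t * t * rampf 0 δ t) K =
      K - K * rmp 0 δ K - rmp 0 δ K * K + rmp 0 δ K * K * rmp 0 δ K := by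
    rw [cfcₙ_add (fun t => t - t * rampf 0 δ t - rampf 0 δ t * t)
      (fun t => rampf 0 δ t * t * rampf 0 δ t) K (by fun_prop) (by simp) (by fun_prop) (by simp),
      cfcₙ_sub (fun t => t - t * rampf 0 δ t) (fun t => rampf 0 δ t * t) K (by fun_prop) (by simp)
      (by fun_prop) (by simp),
      cfcₙ_sub (fun t => t) (fun t => t * rampf 0 δ t) K (by fun_prop) (by simp)
      (by fun_prop) (by simp), hid, c1, c2, c3]
  rw [← e]
  refine norm_cfcn_le hK (by fun_prop) (by simp) fun t ht _ => ?_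
  have h1 : t - t * rampf 0 δ t - rampf 0 δ t * t + rampf 0 δ t * t * rampf 0 δ t =
      t * (1 - rampf 0 δ t) ^ 2 := by ring
  rw [h1, abs_of_nonneg (mul_nonneg ht (sq_nonneg _))]
  rcases le_total δ t with h | h
  · rw [rampf_eq_one hδ h]
    simp [hδ.le]
  · have h2 := rampf_nonneg 0 δ t
    have h3 := rampf_le_one 0 δ t
    calc t * (1 - rampf 0 δ t) ^ 2 ≤ t * 1 :=
          mul_le_mul_of_nonneg_left (by nlinarith) ht
      _ ≤ δ := by linarith

/-- **G3d.** the gap step in one algebra (applied in quotients).  `y = p c z₁`, `a ≥ 0` with `p a = a`,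
`Y = rmp 0 (1/16) a`, `k' = y⋆ Y`, `u = rmp 0 δ (k' k'⋆)`, `y_u = y - y u`.
If `‖p - sg σ (y y⋆)‖ ≤ 1/2` implies `‖a - p‖ ≤ 1/8`, then `‖p - sg σ (y_u y_u⋆)‖ ≤ 1/2` implies `p = 0`.

Proof.  `y_u y_u⋆ ≥ σ p` (`smul_proj_le_of_norm_proj_sub_sg`).  `y_u⋆ Y = (1-u) y⋆ Y = (1-u) k'` and
`‖(1-u) k'‖² = ‖(1-u) k'k'⋆ (1-u)‖ ≤ δ` (function `t (1 - min(1,t/δ))² ≤ δ`), so
`σ ‖Y‖² ≤ ‖Y⋆ y_u y_u⋆ Y‖ ≤ δ ≤ σ/200`, `‖Y‖ ≤ 1/10`, `‖a‖ ≤ 1/160` (`norm_le_of_norm_rmp_zero_le`).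
`y y⋆ ≥ y (1-u)² y⋆ = y_u y_u⋆ ≥ σ p`, so `‖p - sg σ (y y⋆)‖ ≤ 1/2` (`norm_proj_sub_sg_le_half`), so
`‖p‖ ≤ 1/8 + 1/160 < 1` and `p = 0`. -/
theorem gap_step {p y a : A} (hp : IsStarProjection p) (hpy : p * y = y) (ha : 0 ≤ a)
    (hpa : p * a = a) {σ δ : ℝ} (hσ : 0 < σ) (hδ : 0 < δ) (hδσ : δ ≤ σ / 200)
    (hcov : ‖p - sg σ (y * star y)‖ ≤ 1/2 → ‖a - p‖ ≤ 1/8)
    (hQ : ‖p - sg σ
        ((y - y * rmp 0 δ (star y * rmp 0 (1/16) a * star (star y * rmp 0 (1/16) a))) *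
          star (y - y * rmp 0 δ (star y * rmp 0 (1/16) a * star (star y * rmp 0 (1/16) a))))‖
      ≤ 1/2) : p = 0 := by
  set Y := rmp 0 (1/16) a with hY
  set k' := star y * Y with hk'
  set K := k' * star k' with hKdef
  set u := rmp 0 δ K with hu
  set yu := y - y * u with hyu
  have hps : star p = p := hp.isSelfAdjoint
  have hpp : p * p = p := hp.isIdempotentElem
  have hasa : IsSelfAdjoint a := IsSelfAdjoint.of_nonneg ha
  have hYs : star Y = Y := star_rmp _ _ _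
  have hus : star u = u := star_rmp _ _ _
  have hu0 : 0 ≤ u := rmp_nonneg _ _ _
  have hK0 : 0 ≤ K := mul_star_self_nonneg k'
  have hpY : p * Y = Y := mul_rmp_of_mul_eq hasa hpa le_rfl (by norm_num)
  have hYp : Y * p = Y := by
    have := congrArg star hpY
    rwa [star_mul, hYs, hps] at this
  have hpyu : p * (yu * star yu) = yu * star yu := by
    rw [← mul_assoc, hyu, mul_sub, ← mul_assoc, hpy]
  -- (2)
  have h2 : σ • p ≤ yu * star yu :=
    smul_proj_le_of_norm_proj_sub_sg hp (mul_star_self_nonneg _) hpyu hσ hQ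
  -- (4)
  have h4 : ‖star yu * Y‖ ^ 2 ≤ δ := by
    have e1 : star yu * Y = k' - u * k' := by
      rw [hyu, star_sub, star_mul, hus, sub_mul, mul_assoc]
    have e2 : (k' - u * k') * star (k' - u * k') = K - K * u - u * K + u * K * u := by
      rw [star_sub, star_mul u k', hus, hKdef]
      noncomm_ring
    rw [e1, sq, ← CStarRing.norm_self_mul_star, e2]
    exact norm_compress_le hK0 hδ
  -- (5)
  have h5 : σ * ‖Y‖ ^ 2 ≤ δ := by
    have e1 : star Y * (σ • p) * Y ≤ star Y * (yu * star yu) * Y := conj_mono h2 Y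
    have e2 : star Y * (σ • p) * Y = σ • (star Y * Y) := by
      rw [mul_smul_comm, smul_mul_assoc, hYs, hYp]
    have e3 : star Y * (yu * star yu) * Y = star (star yu * Y) * (star yu * Y) := by
      rw [star_mul, star_star]
      noncomm_ring
    rw [e2, e3] at e1
    have e4 := norm_le_of_le (smul_nonneg' (star_mul_self_nonneg Y) hσ.le) e1
    rw [norm_smul, Real.norm_of_nonneg hσ.le, CStarRing.norm_star_mul_self,
      CStarRing.norm_star_mul_self, ← sq, ← sq] at e4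
    exact e4.trans h4
  have hY10 : ‖Y‖ ≤ 1 / 10 := by
    have h6 : ‖Y‖ ^ 2 ≤ 1 / 200 := by
      have : σ * ‖Y‖ ^ 2 ≤ σ * (1 / 200) := by linarith
      exact le_of_mul_le_mul_left this hσ
    nlinarith [norm_nonneg Y]
  have ha160 : ‖a‖ ≤ 1 / 10 * (1 / 16) :=
    norm_le_of_norm_rmp_zero_le (by norm_num) (by norm_num) ha hY10
  -- (7)
  have h7 : yu * star yu ≤ y * star y := by
    have e1 : y * star y - yu * star yu = y * (u + (u - u * u)) * star y := by
      rw [hyu, star_sub, star_mul, hus]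
      noncomm_ring
    have e2 : 0 ≤ u + (u - u * u) :=
      add_nonneg hu0 (sub_nonneg.mpr (mul_self_le hu0 (norm_rmp_le_one _ _ _)))
    have e3 : 0 ≤ y * (u + (u - u * u)) * star y := by
      have := conj_nonneg' e2 (star y)
      rwa [star_star] at this
    rw [← e1] at e3
    exact sub_nonneg.mp e3
  have h8 : ‖p - sg σ (y * star y)‖ ≤ 1 / 2 :=
    norm_proj_sub_sg_le_half hp (mul_star_self_nonneg y) (by rw [← mul_assoc, hpy]) hσ
      (h2.trans h7)
  have h9 := hcov h8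
  refine proj_eq_zero_of_norm_lt_one hp ?_
  have h10 : ‖p‖ ≤ ‖a‖ + ‖a - p‖ := by
    have : p = a - (a - p) := by abel
    calc ‖p‖ = ‖a - (a - p)‖ := by rw [← this]
      _ ≤ ‖a‖ + ‖a - p‖ := norm_sub_le _ _
  linarith

end

end PIS
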