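import Crest.Agent.PIS_G2

/-!
# S0145 blueprint, task PIS-G5 (gap lemma: domination)

Notation of the gap lemma: `p` a projection, `g ≥ 0`, `‖c‖ ≤ 1`; ramps
`e₀ = rmp (1/64) (1/32) g`, `e₁ = rmp (1/32) (1/16) g`, `e₂ = rmp (1/16) (1/8) g`,
`e₃ = rmp (1/8) (3/16) g`, `e₄ = rmp (3/16) (1/4) g`; `σ = ε² / 64`;
`H = σ e₁ - e₁^{1/2} c⋆pc e₁^{1/2}` (`gapH`), `φ = rmp (σ/8) (σ/4) H`.


Replace the `sorry`s IN THIS FILE (do not change statements or names; helper lemmas are welcome, if they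
are of general use put them in a new file `PIS_x*.lean`).  See `PIS_Defs.lean` for the definitions.
-/

set_option autoImplicit false

universe u

namespace PIS

section

variable {A : Type u} [NonUnitalCStarAlgebra A] [PartialOrder A] [StarOrderedRing A]

/-- **G4a.** With the notation of `PIS_Gap1` (`σ ≤ 1`, `ν = σ/100`): `p` is dominated by
`cut (σ/4) H + cut (1/2) Q₀`, `Q₀ = p - sg σ (y y⋆)`, `y = p c z₁`.

Proof.  Let `π` kill this positive sum: `π (cut (σ/4) H) = 0` and `‖π Q₀‖ ≤ 1/2`.  All the structure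
passes to the image, so `gap_fclaim` (with `η = σ`, `ν = σ/100`) gives `‖π z₂‖ ≤ √σ / 100`, so
`‖π e₃‖ ≤ ‖π z₂‖² + σ/100 < 1`, so `‖π g‖ ≤ 3/16`, `π e₄ = 0`, `‖π z₁‖² ≤ σ/100`;
`σ π p ≤ π (y y⋆)` (`smul_proj_le_of_norm_proj_sub_sg`), whose norm is `≤ σ/100`, so `‖π p‖ < 1`, `π p = 0`. -/
theorem gap_dom {p g c z₁ z₂ : A} (hp : IsStarProjection p) (hg : 0 ≤ g) (hc : ‖c‖ ≤ 1) {σ : ℝ}
    (hσ : 0 < σ) (hσ1 : σ ≤ 1)
    (hz₁e : rmp (1/16) (1/8) g * z₁ = z₁) (hz₂e : rmp (1/16) (1/8) g * z₂ = z₂)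
    (hz₁ : ‖star z₁ * z₁ - rmp (3/16) (1/4) g‖ ≤ σ/100)
    (hz₂ : ‖star z₂ * z₂ - rmp (1/8) (3/16) g‖ ≤ σ/100)
    (hz : ‖star z₁ * z₂‖ ≤ σ/100) :
    Dom (cut (σ/4) (gapH σ (rmp (1/32) (1/16) g) p c) +
      cut (1/2) (p - sg σ (p * c * z₁ * star (p * c * z₁)))) p := by
  intro B _ π hπ
  let _ : PartialOrder B := CStarAlgebra.spectralOrder B
  have _ : StarOrderedRing B := CStarAlgebra.spectralOrderedRing B
  have hppp : p * p = p := hp.isIdempotentElem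
  have hgsa : IsSelfAdjoint g := IsSelfAdjoint.of_nonneg hg
  have hgB : 0 ≤ π g := map_nonneg' π hg
  have hgBsa : IsSelfAdjoint (π g) := IsSelfAdjoint.of_nonneg hgB
  have hpB : IsStarProjection (π p) :=
    ⟨by rw [IsIdempotentElem, ← map_mul, hppp], hp.isSelfAdjoint.map π⟩
  have hHsa : IsSelfAdjoint (gapH σ (rmp (1/32) (1/16) g) p c) :=
    isSelfAdjoint_gapH σ (isSelfAdjoint_rmp _ _ _) hp.isSelfAdjoint
  have hpy : p * (p * c * z₁ * star (p * c * z₁)) = p * c * z₁ * star (p * c * z₁) := by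
    simp only [← mul_assoc, hppp]
  have hyy : 0 ≤ p * c * z₁ * star (p * c * z₁) := mul_star_self_nonneg _
  have hQ₀0 : 0 ≤ p - sg σ (p * c * z₁ * star (p * c * z₁)) := by
    rw [sub_nonneg]; exact sg_le_proj hp hyy hpy hσ
  rw [map_add] at hπ
  obtain ⟨h1, h2⟩ := eq_zero_of_add_eq_zero (map_nonneg' π (cut_nonneg _ _))
    (map_nonneg' π (cut_nonneg _ _)) hπ
  rw [map_cut π (by positivity) hHsa] at h1
  rw [map_cut π (by norm_num) (IsSelfAdjoint.of_nonneg hQ₀0),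
    cut_eq_zero_iff (by norm_num) (map_nonneg' π hQ₀0)] at h2
  have hHB : π (gapH σ (rmp (1/32) (1/16) g) p c)
      = gapH σ (rmp (1/32) (1/16) (π g)) (π p) (π c) := by
    unfold gapH
    have h3 : ∀ x : A, π (σ • x) = σ • π x := by
      intro x
      have : σ • x = (σ : ℂ) • x := by rw [← Complex.coe_smul]
      rw [this, map_smul, ← Complex.coe_smul]
    rw [map_sub, h3, map_mul, map_mul, map_mul, map_mul, map_star,
      map_rt π (isSelfAdjoint_rmp _ _ _), map_rmp π (by norm_num) (by norm_num) hgsa]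
  have hQB : π (p - sg σ (p * c * z₁ * star (p * c * z₁)))
      = π p - sg σ (π p * π c * π z₁ * star (π p * π c * π z₁)) := by
    rw [map_sub, map_sg π hσ (IsSelfAdjoint.of_nonneg hyy)]
    simp only [map_mul, map_star]
  rw [hHB] at h1
  rw [hQB] at h2
  have hz₁eB : rmp (1/16) (1/8) (π g) * π z₁ = π z₁ := by
    rw [← map_rmp π (by norm_num) (by norm_num) hgsa, ← map_mul, hz₁e]
  have hz₂eB : rmp (1/16) (1/8) (π g) * π z₂ = π z₂ := by
    rw [← map_rmp π (by norm_num) (by norm_num) hgsa, ← map_mul, hz₂e]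
  have hcB : ‖π c‖ ≤ 1 := (norm_map_le π c).trans hc
  have hzB : ‖star (π z₁) * π z₂‖ ≤ σ / 100 := by
    rw [← map_star, ← map_mul]; exact (norm_map_le π _).trans hz
  have h3 : ‖π z₂‖ ≤ σ / 100 / √σ :=
    gap_fclaim (e₁ := rmp (1/32) (1/16) (π g)) (e₂ := rmp (1/16) (1/8) (π g)) hpB hcB
      (rmp_nonneg _ _ _) (rmp_nonneg _ _ _) (norm_rmp_le_one _ _ _)
      (rmp_mul_rmp (by norm_num) (by norm_num) (by norm_num) (by norm_num) hgBsa)
      hσ hσ h1 hz₁eB hz₂eB hzB h2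
  have h4 : ‖π z₂‖ ^ 2 ≤ σ / 10000 := by
    have h5 : 0 < √σ := Real.sqrt_pos.2 hσ
    have h6 : σ / 100 / √σ = √σ / 100 := by
      rw [div_div, div_eq_div_iff (by positivity) (by norm_num)]
      nlinarith [Real.mul_self_sqrt hσ.le]
    rw [h6] at h3
    calc ‖π z₂‖ ^ 2 ≤ (√σ / 100) ^ 2 := by gcongr
      _ = σ / 10000 := by rw [div_pow, Real.sq_sqrt hσ.le]; norm_num
  have h5 : ‖rmp (1/8) (3/16) (π g)‖ < 1 := by
    rw [← map_rmp π (by norm_num) (by norm_num) hgsa]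
    have h12 : π (rmp (1/8) (3/16) g)
        = star (π z₂) * π z₂ - π (star z₂ * z₂ - rmp (1/8) (3/16) g) := by
      rw [map_sub, map_mul, map_star]; abel
    have h13 : ‖π (star z₂ * z₂ - rmp (1/8) (3/16) g)‖ ≤ σ / 100 := (norm_map_le π _).trans hz₂
    rw [h12]
    refine (norm_sub_le _ _).trans_lt ?_
    rw [CStarRing.norm_star_mul_self, ← pow_two]
    linarith
  have h6 : ‖π g‖ ≤ 3/16 := norm_le_of_norm_rmp_lt_one (by norm_num) (by norm_num) hgB h5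
  have h7 : π (rmp (3/16) (1/4) g) = 0 := by
    rw [map_rmp π (by norm_num) (by norm_num) hgsa]
    exact rmp_eq_zero_of_norm_le (by norm_num) (by norm_num) hgB h6
  have h8 : ‖π z₁‖ ^ 2 ≤ σ / 100 := by
    have h12 : star (π z₁) * π z₁ = π (star z₁ * z₁ - rmp (3/16) (1/4) g) := by
      rw [map_sub, map_mul, map_star, h7, sub_zero]
    have h13 : ‖π (star z₁ * z₁ - rmp (3/16) (1/4) g)‖ ≤ σ / 100 := (norm_map_le π _).trans hz₁
    rw [← h12, CStarRing.norm_star_mul_self, ← pow_two] at h13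
    exact h13
  have hpyB : π p * (π p * π c * π z₁ * star (π p * π c * π z₁))
      = π p * π c * π z₁ * star (π p * π c * π z₁) := by
    simp only [← mul_assoc, hpB.isIdempotentElem.eq]
  have h9 := smul_proj_le_of_norm_proj_sub_sg hpB (mul_star_self_nonneg _) hpyB hσ h2
  have hp1 := norm_proj_le_one hpB
  have h10 : ‖π p * π c * π z₁‖ ≤ ‖π z₁‖ := by
    calc ‖π p * π c * π z₁‖ ≤ ‖π p‖ * ‖π c‖ * ‖π z₁‖ := by
          refine (norm_mul_le _ _).trans ?_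
          gcongr
          exact norm_mul_le _ _
      _ ≤ 1 * 1 * ‖π z₁‖ := by gcongr
      _ = ‖π z₁‖ := by ring
  have h11 := norm_le_of_le (smul_nonneg' (proj_nonneg hpB) hσ.le) h9
  rw [norm_smul, CStarRing.norm_self_mul_star, ← pow_two, Real.norm_eq_abs, abs_of_pos hσ] at h11
  have h12 : ‖π p * π c * π z₁‖ ^ 2 ≤ σ / 100 :=
    (by gcongr : ‖π p * π c * π z₁‖ ^ 2 ≤ ‖π z₁‖ ^ 2).trans h8
  apply proj_eq_zero_of_norm_lt_one hpB
  have h13 : σ * ‖π p‖ ≤ σ * (1 / 100) := by linarith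
  have := le_of_mul_le_mul_left h13 hσ
  linarith

end

end PIS
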