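import Crest.Agent.PIS_Q1

/-!
# S0145 blueprint, task PIS-Q2 (consequences of the quotient theorem)

Replace the `sorry`s IN THIS FILE (do not change statements or names; helper lemmas are welcome, if they
are of general use put them in a new file `PIS_x*.lean`).  See `PIS_Defs.lean` for the definitions.
-/

set_option autoImplicit false

universe u

namespace PIS

section

variable {A : Type u} [NonUnitalCStarAlgebra A] [PartialOrder A] [StarOrderedRing A]

/-- The quotient by the closed ideal `{x | Dom D x}`.  (This set is an intersection of kernels of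
⋆-homomorphisms, hence a closed two-sided star-closed submodule; apply `exists_quotient`.) -/
theorem exists_quot_dom (D : A) :
    ∃ (B : Type u) (_ : NonUnitalCStarAlgebra B) (_ : PartialOrder B) (_ : StarOrderedRing B)
      (π : A →⋆ₙₐ[ℂ] B), Function.Surjective π ∧ ∀ x, π x = 0 ↔ Dom D x := by
  let I : Submodule ℂ A :=
    { carrier := {x | Dom D x}
      zero_mem' := by
        intro B _ π _
        exact map_zero π
      add_mem' := by
        intro a b ha hb B _ π h
        rw [map_add, ha B π h, hb B π h, add_zero]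
      smul_mem' := by
        intro c a ha B _ π h
        rw [map_smul, ha B π h, smul_zero] }
  have hI : IsClosed (I : Set A) := by
    apply isClosed_of_closure_subset
    intro x hx B _ π h
    have hc : Continuous π := by
      have h1 : LipschitzWith 1 π := by
        refine LipschitzWith.of_dist_le_mul fun a b => ?_
        rw [dist_eq_norm, dist_eq_norm, ← map_sub]
        simpa using norm_map_le π (a - b)
      exact h1.continuous
    have hcl : IsClosed {z : A | π z = 0} := isClosed_eq hc continuous_const
    have hsub : (I : Set A) ⊆ {z : A | π z = 0} := fun z hz => hz B π h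
    exact (closure_minimal hsub hcl) hx
  refine exists_quotient I hI ?_ ?_ ?_
  · intro a x hx B _ π h
    rw [map_mul, hx B π h, mul_zero]
  · intro a x hx B _ π h
    rw [map_mul, hx B π h, zero_mul]
  · intro x hx B _ π h
    rw [map_star, hx B π h, star_zero]

/-- Factorization of homomorphisms through a surjection. -/
theorem exists_factor {B E : Type u} [NonUnitalCStarAlgebra B] [NonUnitalCStarAlgebra E]
    (π : A →⋆ₙₐ[ℂ] B) (hπ : Function.Surjective π) (ρ : A →⋆ₙₐ[ℂ] E)
    (h : ∀ x, π x = 0 → ρ x = 0) : ∃ ρ' : B →⋆ₙₐ[ℂ] E, ∀ x, ρ' (π x) = ρ x := by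
  have key : ∀ a b : A, π a = π b → ρ a = ρ b := by
    intro a b hab
    have := h (a - b) (by rw [map_sub, hab, sub_self])
    rwa [map_sub, sub_eq_zero] at this
  have hs : ∀ y, π (Function.surjInv hπ y) = y := Function.surjInv_eq hπ
  refine ⟨
    { toFun := fun y => ρ (Function.surjInv hπ y)
      map_smul' := ?_
      map_zero' := ?_
      map_add' := ?_
      map_mul' := ?_
      map_star' := ?_ }, ?_⟩
  · intro c y
    change ρ _ = c • ρ _
    rw [← map_smul]
    apply key
    rw [hs, map_smul, hs]
  · change ρ _ = 0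
    rw [← map_zero ρ]
    apply key
    rw [hs, map_zero]
  · intro x y
    change ρ _ = ρ _ + ρ _
    rw [← map_add]
    apply key
    rw [hs, map_add, hs, hs]
  · intro x y
    change ρ _ = ρ _ * ρ _
    rw [← map_mul]
    apply key
    rw [hs, map_mul, hs, hs]
  · intro y
    change ρ _ = star (ρ _)
    rw [← map_star]
    apply key
    rw [hs, map_star, hs]
  · intro x
    change ρ _ = ρ x
    exact key _ _ (hs _)

/-- `PI` passes to quotients. -/
theorem PI.quot {B : Type u} [NonUnitalCStarAlgebra B] (hA : PI A)
    (π : A →⋆ₙₐ[ℂ] B) (hπ : Function.Surjective π) : PI B := by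
  intro y ε hε
  obtain ⟨x, rfl⟩ := hπ y
  obtain ⟨r, s, h1, h2, h3⟩ := hA x ε hε
  refine ⟨π r, π s, ?_, ?_, ?_⟩
  · refine lt_of_le_of_lt ?_ h1
    simpa only [map_sub, map_mul, map_star] using norm_map_le π (star r * (star x * x) * r - star x * x)
  · refine lt_of_le_of_lt ?_ h2
    simpa only [map_sub, map_mul, map_star] using norm_map_le π (star s * (star x * x) * s - star x * x)
  · refine lt_of_le_of_lt ?_ h3
    simpa only [map_sub, map_mul, map_star] using norm_map_le π (star r * (star x * x) * s)

/-- Positive elements lift to positive elements with the same norm bound (`M ≥ 0`):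
lift `rt y` to `z`, take `star z * z` and clamp with `t ↦ max 0 (min t M)`. -/
theorem exists_lift_nonneg {B : Type u} [NonUnitalCStarAlgebra B] [PartialOrder B]
    [StarOrderedRing B] (π : A →⋆ₙₐ[ℂ] B) (hπ : Function.Surjective π) {y : B} (hy : 0 ≤ y)
    {M : ℝ} (hM : 0 ≤ M) (hyM : ‖y‖ ≤ M) : ∃ x : A, 0 ≤ x ∧ ‖x‖ ≤ M ∧ π x = y := by
  obtain ⟨z, hz⟩ := hπ (rt y)
  set f : ℝ → ℝ := fun t => max 0 (min t M) with hf
  have hfc : Continuous f := by fun_prop
  have hf0 : f 0 = 0 := by simp [hf, hM]
  have hx0 : 0 ≤ star z * z := star_mul_self_nonneg z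
  have hπx0 : π (star z * z) = y := by
    rw [map_mul, map_star, hz, star_rt, rt_mul_rt hy]
  refine ⟨cfcₙ f (star z * z), ?_, ?_, ?_⟩
  · exact cfcₙ_nonneg fun t _ => le_max_left _ _
  · refine norm_cfcn_le hx0 hfc hf0 fun t _ _ => ?_
    rw [abs_of_nonneg (le_max_left _ _)]
    exact max_le hM (min_le_right _ _)
  · rw [map_cfcn π hfc hf0 (IsSelfAdjoint.star_mul_self z), hπx0]
    have hysa : IsSelfAdjoint y := IsSelfAdjoint.of_nonneg hy
    conv_rhs => rw [← cfcₙ_id' ℝ y hysa]
    refine cfcₙ_congr fun t ht => ?_
    have ht0 : 0 ≤ t := quasispectrum_nonneg_of_nonneg y hy t ht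
    have ht1 : t ≤ M := by
      have h1 : ‖t‖ ≤ ‖y‖ := by
        have := NonUnitalIsometricContinuousFunctionalCalculus.norm_quasispectrum_le y ht hysa
        exact this
      rw [Real.norm_eq_abs, abs_of_nonneg ht0] at h1
      linarith
    simp only [hf]
    rw [min_eq_left ht1, max_eq_right ht0]

end

end PIS
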