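import Crest.Agent.PIS_D
import Crest.Agent.PIS_Q2

/-!
# S0145 blueprint, task PIS-L1 (domination implies Cuntz comparison)

Replace the `sorry`s IN THIS FILE (do not change statements or names; helper lemmas are welcome, if they
are of general use put them in a new file `PIS_x*.lean`).  See `PIS_Defs.lean` for the definitions.
-/

set_option autoImplicit false

universe u

namespace PIS

section

variable {A : Type u} [NonUnitalCStarAlgebra A] [PartialOrder A] [StarOrderedRing A]

/-- in a `PI` algebra: `z⋆z ≾ y`, `w⋆w ≾ y` imply `(z+w)⋆(z+w) ≾ y`.  Proof: `p⋆ y p ≈ z⋆z`,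
`q⋆ y q ≈ w⋆w`, then (with errors small relative to `‖p‖, ‖q‖`) `r⋆ y r ≈ y`, `s⋆ y s ≈ y`,
`r⋆ y s ≈ 0`; `t = r p + s q` gives `t⋆ y t ≈ z⋆z + w⋆w`; finally
`(z+w)⋆(z+w) ≤ 2 (z⋆z + w⋆w)`. -/
theorem Cz.add (hA : PI A) {y z w : A} (hy : 0 ≤ y) (hz : Cz (star z * z) y)
    (hw : Cz (star w * w) y) : Cz (star (z + w) * (z + w)) y := by
  have h1 : Cz (star z * z + star w * w) y := by
    intro ε hε
    obtain ⟨p, hp⟩ := hz (ε / 4) (by positivity)
    obtain ⟨q, hq⟩ := hw (ε / 4) (by positivity)
    set K : ℝ := (‖p‖ + ‖q‖) ^ 2 + 1 with hK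
    have hK0 : 0 < K := by positivity
    have hpi := hA (rt y)
    rw [star_rt, rt_mul_rt hy] at hpi
    obtain ⟨r, s, hr, hs, hrs⟩ := hpi (ε / (2 * K)) (by positivity)
    set δ : ℝ := ε / (2 * K) with hδ
    have hδ0 : 0 < δ := by positivity
    have hsr : ‖star s * y * r‖ < δ := by
      have : star s * y * r = star (star r * y * s) := by
        simp only [star_mul, star_star, (IsSelfAdjoint.of_nonneg hy).star_eq, mul_assoc]
      rw [this, norm_star]
      exact hrs
    refine ⟨r * p + s * q, ?_⟩
    have key : star (r * p + s * q) * y * (r * p + s * q) - (star z * z + star w * w)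
        = star p * (star r * y * r - y) * p + star p * (star r * y * s) * q
          + star q * (star s * y * r) * p + star q * (star s * y * s - y) * q
          + (star p * y * p - star z * z) + (star q * y * q - star w * w) := by
      simp only [star_add, star_mul]
      noncomm_ring
    rw [key]
    have e1 : ‖star p * (star r * y * r - y) * p‖ ≤ ‖p‖ * δ * ‖p‖ := by
      calc _ ≤ ‖star p * (star r * y * r - y)‖ * ‖p‖ := norm_mul_le _ _
        _ ≤ (‖star p‖ * ‖star r * y * r - y‖) * ‖p‖ := by
            gcongr; exact norm_mul_le _ _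
        _ ≤ _ := by rw [norm_star]; gcongr
    have e2 : ‖star p * (star r * y * s) * q‖ ≤ ‖p‖ * δ * ‖q‖ := by
      calc _ ≤ ‖star p * (star r * y * s)‖ * ‖q‖ := norm_mul_le _ _
        _ ≤ (‖star p‖ * ‖star r * y * s‖) * ‖q‖ := by
            gcongr; exact norm_mul_le _ _
        _ ≤ _ := by rw [norm_star]; gcongr
    have e3 : ‖star q * (star s * y * r) * p‖ ≤ ‖q‖ * δ * ‖p‖ := by
      calc _ ≤ ‖star q * (star s * y * r)‖ * ‖p‖ := norm_mul_le _ _
        _ ≤ (‖star q‖ * ‖star s * y * r‖) * ‖p‖ := by
            gcongr; exact norm_mul_le _ _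
        _ ≤ _ := by rw [norm_star]; gcongr
    have e4 : ‖star q * (star s * y * s - y) * q‖ ≤ ‖q‖ * δ * ‖q‖ := by
      calc _ ≤ ‖star q * (star s * y * s - y)‖ * ‖q‖ := norm_mul_le _ _
        _ ≤ (‖star q‖ * ‖star s * y * s - y‖) * ‖q‖ := by
            gcongr; exact norm_mul_le _ _
        _ ≤ _ := by rw [norm_star]; gcongr
    have hsum : ‖p‖ * δ * ‖p‖ + ‖p‖ * δ * ‖q‖ + ‖q‖ * δ * ‖p‖ + ‖q‖ * δ * ‖q‖ ≤ ε / 2 := by
      have : ‖p‖ * δ * ‖p‖ + ‖p‖ * δ * ‖q‖ + ‖q‖ * δ * ‖p‖ + ‖q‖ * δ * ‖q‖
          = (‖p‖ + ‖q‖) ^ 2 * δ := by ring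
      rw [this]
      have h2 : (‖p‖ + ‖q‖) ^ 2 ≤ K := by rw [hK]; linarith
      calc (‖p‖ + ‖q‖) ^ 2 * δ ≤ K * δ := by gcongr
        _ = ε / 2 := by rw [hδ]; field_simp
    calc _ ≤ ‖star p * (star r * y * r - y) * p‖ + ‖star p * (star r * y * s) * q‖
          + ‖star q * (star s * y * r) * p‖ + ‖star q * (star s * y * s - y) * q‖
          + ‖star p * y * p - star z * z‖ + ‖star q * y * q - star w * w‖ := by
          refine (norm_add_le _ _).trans ?_
          gcongr
          refine (norm_add_le _ _).trans ?_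
          gcongr
          refine (norm_add_le _ _).trans ?_
          gcongr
          refine (norm_add_le _ _).trans ?_
          gcongr
          exact norm_add_le _ _
      _ < ε := by linarith
  have h2 : Cz (star (z + w) * (z + w)) (star z * z + star w * w) := by
    refine Cz.of_le (star_mul_self_nonneg _)
      (add_nonneg (star_mul_self_nonneg _) (star_mul_self_nonneg _)) (C := 2) (by norm_num) ?_
    rw [← sub_nonneg]
    have : (2 : ℝ) • (star z * z + star w * w) - star (z + w) * (z + w)
        = star (z - w) * (z - w) := by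
      rw [two_smul]
      simp only [star_add, star_sub]
      noncomm_ring
    rw [this]
    exact star_mul_self_nonneg _
  exact h2.trans h1

omit [PartialOrder A] [StarOrderedRing A] in
/-- Cuntz comparison passes to conjugates -/
theorem Cz.conj_L1 {x y : A} (h : Cz x y) (a : A) : Cz (star a * x * a) y := by
  intro ε hε
  obtain ⟨r, hr⟩ := h (ε / (‖a‖ ^ 2 + 1)) (by positivity)
  refine ⟨r * a, ?_⟩
  have : star (r * a) * y * (r * a) - star a * x * a = star a * (star r * y * r - x) * a := by
    simp only [star_mul]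
    noncomm_ring
  rw [this]
  calc ‖star a * (star r * y * r - x) * a‖ ≤ ‖star a * (star r * y * r - x)‖ * ‖a‖ :=
        norm_mul_le _ _
    _ ≤ (‖star a‖ * ‖star r * y * r - x‖) * ‖a‖ := by gcongr; exact norm_mul_le _ _
    _ = ‖a‖ ^ 2 * ‖star r * y * r - x‖ := by rw [norm_star]; ring
    _ ≤ ‖a‖ ^ 2 * (ε / (‖a‖ ^ 2 + 1)) := by gcongr
    _ < ε := by
        rw [mul_div_assoc', div_lt_iff₀ (by positivity)]
        nlinarith [sq_nonneg ‖a‖]

/-- **L1.** In a `PI` algebra domination implies Cuntz comparison.  Proof: for `m ≥ 0` the set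
`{z | Cz (star z * z) m}` is a closed two-sided star-closed submodule containing `rt m`
(`Cz m m` by `Cz.of_le`), hence containing `m = rt m * rt m`; apply `exists_quotient` to it
and evaluate `Dom m x` at this quotient: `x`, hence `rt x` (functional calculus commutes with `π`),
is in it, i.e. `Cz (star (rt x) * rt x) m`, and `star (rt x) * rt x = x`. -/
theorem cz_of_dom (hA : PI A) {m x : A} (hm : 0 ≤ m) (hx : 0 ≤ x) (h : Dom m x) : Cz x m := by
  have hr : ∀ a z : A, Cz (star z * z) m → Cz (star (z * a) * (z * a)) m := by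
    intro a z hz
    have := hz.conj_L1 a
    rw [star_mul]
    simpa only [mul_assoc] using this
  have hl : ∀ a z : A, Cz (star z * z) m → Cz (star (a * z) * (a * z)) m := by
    intro a z hz
    refine Cz.trans ?_ hz
    refine Cz.of_le (star_mul_self_nonneg _) (star_mul_self_nonneg _)
      (C := ‖star a * a‖) (norm_nonneg _) ?_
    have := conj_le_norm_smul (star_mul_self_nonneg a) z
    rw [star_mul]
    simpa only [mul_assoc] using this
  have hs : ∀ z : A, Cz (star z * z) m → Cz (star (star z) * star z) m := by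
    intro z hz
    rw [star_star]
    exact (Cz.mul_star_self z).trans hz
  have h0 : Cz (star (0 : A) * 0) m := by
    intro ε hε
    exact ⟨0, by simpa using hε⟩
  have hc : ∀ (c : ℂ) (z : A), Cz (star z * z) m → Cz (star (c • z) * (c • z)) m := by
    intro c z hz
    refine Cz.trans ?_ hz
    refine Cz.of_le (star_mul_self_nonneg _) (star_mul_self_nonneg _)
      (C := ‖c‖ ^ 2) (by positivity) ?_
    have : star (c • z) * (c • z) = (‖c‖ ^ 2 : ℝ) • (star z * z) := by
      rw [star_smul, smul_mul_smul_comm, Complex.star_def, mul_comm, Complex.mul_conj,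
        Complex.normSq_eq_norm_sq]
      exact (Complex.coe_smul _ _)
    rw [this]
  set S : Submodule ℂ A :=
    { carrier := {z | Cz (star z * z) m}
      add_mem' := fun {a b} ha hb => Cz.add hA hm ha hb
      zero_mem' := h0
      smul_mem' := fun c {z} hz => hc c z hz } with hS
  have hmem : ∀ z, z ∈ S ↔ Cz (star z * z) m := fun z => Iff.rfl
  have hclosed : IsClosed (S : Set A) := by
    rw [← closure_subset_iff_isClosed]
    intro z hz
    show Cz (star z * z) m
    intro ε hε
    have hcont : Continuous (fun z : A => star z * z) := by fun_prop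
    have hopen : IsOpen {z' : A | ‖star z' * z' - star z * z‖ < ε / 2} :=
      isOpen_lt (by fun_prop) continuous_const
    obtain ⟨z', hz', hz'S⟩ := mem_closure_iff.1 hz _ hopen (by simpa using hε)
    obtain ⟨r, hr⟩ := hz'S (ε / 2) (by positivity)
    refine ⟨r, ?_⟩
    have : star r * m * r - star z * z
        = (star r * m * r - star z' * z') + (star z' * z' - star z * z) := by abel
    rw [this]
    refine (norm_add_le _ _).trans_lt ?_
    have hz'' : ‖star z' * z' - star z * z‖ < ε / 2 := hz'
    linarith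
  obtain ⟨B, i1, i2, i3, π, hπ, hker⟩ := exists_quotient S hclosed
    (fun a x hx => hl a x hx) (fun a x hx => hr a x hx) (fun x hx => hs x hx)
  have hrtm : rt m ∈ S := by
    rw [hmem, star_rt, rt_mul_rt hm]
    exact Cz.of_le hm hm (C := 1) (by norm_num) (by rw [one_smul])
  have hmS : m ∈ S := by
    have := hr (rt m) (rt m) hrtm
    rw [rt_mul_rt hm] at this
    exact this
  have hxS : x ∈ S := (hker x).1 (h B π ((hker m).2 hmS))
  have hrtx : rt x ∈ S :=
    cfcn_mem S hclosed (fun z hz w => hr w z hz) (IsSelfAdjoint.of_nonneg hx) hxS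
      Real.continuous_sqrt Real.sqrt_zero
  have := (hmem _).1 hrtx
  rw [star_rt, rt_mul_rt hx] at this
  exact this

end

end PIS
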