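import Crest.Agent.PIS_G1
import Crest.Agent.PIS_G3
import Crest.Agent.PIS_G4
import Crest.Agent.PIS_G5
import Crest.Agent.PIS_L1

/-!
# S0145 blueprint, task PIS-G6 (gap lemma: assembly)

Notation of the gap lemma: `p` a projection, `g ≥ 0`, `‖c‖ ≤ 1`; ramps
`e₀ = rmp (1/64) (1/32) g`, `e₁ = rmp (1/32) (1/16) g`, `e₂ = rmp (1/16) (1/8) g`,
`e₃ = rmp (1/8) (3/16) g`, `e₄ = rmp (3/16) (1/4) g`; `σ = ε² / 64`;
`H = σ e₁ - e₁^{1/2} c⋆pc e₁^{1/2}` (`gapH`), `φ = rmp (σ/8) (σ/4) H`.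


Replace the `sorry`s IN THIS FILE (do not change statements or names; helper lemmas are welcome, if they
are of general use put them in a new file `PIS_x*.lean`).  See `PIS_Defs.lean` for the definitions.
-/

set_option autoImplicit false

universe u

namespace PIS

section

variable {A : Type u} [NonUnitalCStarAlgebra A] [PartialOrder A] [StarOrderedRing A]

/-- **G4 (gap lemma).**  Proof (WLOG `ε ≤ 1`; `σ = ε²/64`, notation of `PIS_Gap1`).
`z₁, z₂` from `exists_gap_z` with `ν = σ/100`; `y = p c z₁`.  `gap_dom` and `cz_of_dom` give `X` with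
`‖X⋆ (cut (σ/4) H + cut (1/2) Q₀) X - p‖ ≤ 1/8`, WLOG `X p = X` (multiply by `p` on both sides).
`a = X⋆ (cut (σ/4) H) X ≥ 0`, `p a = a`; `Y = rmp 0 (1/16) a`, `k' = y⋆ Y`, `δ = σ/200`,
`u = rmp 0 δ (k' k'⋆)`, `R₁ = z₁ - z₁ u` (so `p c R₁ = y - y u`), `φ = rmp (σ/8) (σ/4) H`, `R = e₁^{1/2} φ^{1/2}`,
`h' = p - sg σ (p c R₁ (p c R₁)⋆)`, `g' = rmp 0 (1/8) (R₁R₁⋆ + RR⋆)`.
* `0 ≤ h' ≤ p`: `sg_le_proj`, `sg_nonneg`.  `e₀ g' = g'`: `e₀ R₁ = R₁`, `e₀ R = R` (`mul_rmp_of_mul_eq`).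
* link: `gap_norm_pcR`, `gap_link`: `lk² ≤ 16 σ = ε²/4`.
* `Full (1/2) h' 0 p`: apply `gap_step` to the images under `π` (in the image, `‖π Q₀‖ ≤ 1/2` implies
  `π (cut (1/2) Q₀) = 0`, so `‖π a - π p‖ ≤ 1/8`).
* `Full (1/2) g' (1/4) g`: `‖π g'‖ ≤ 1/2` implies `‖π R₁‖² ≤ 1/16`, `‖π R‖² ≤ 1/16`
  (`norm_le_of_norm_rmp_zero_le`), so `‖π φ‖ ≤ 8/16 < 1` (`gap_phi_le`), so `π (cut (σ/4) H) = 0`, so `π a = 0`,
  `π Y = 0`, `π u = 0`, `π R₁ = π z₁`, `‖π e₄‖ ≤ 1/16 + σ/100 < 1`, so `‖π g‖ ≤ 1/4`. -/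
theorem exists_gap (hA : PI A) {p g c : A} (hp : IsStarProjection p) (hg : 0 ≤ g) (hc : ‖c‖ ≤ 1)
    {ε : ℝ} (hε : 0 < ε) :
    ∃ g' h' : A, 0 ≤ g' ∧ ‖g'‖ ≤ 1 ∧ rmp (1/64) (1/32) g * g' = g' ∧ Full (1/2) g' (1/4) g ∧
      0 ≤ h' ∧ h' ≤ p ∧ lk h' c g' ≤ ε ∧ Full (1/2) h' 0 p := by
  obtain ⟨ε', hε'0, hε'ε, hε'1⟩ : ∃ ε' : ℝ, 0 < ε' ∧ ε' ≤ ε ∧ ε' ≤ 1 :=
    ⟨min ε 1, lt_min hε one_pos, min_le_left _ _, min_le_right _ _⟩
  obtain ⟨σ, hσdef⟩ : ∃ σ : ℝ, σ = ε' ^ 2 / 64 := ⟨_, rfl⟩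
  have hσ : 0 < σ := by rw [hσdef]; positivity
  have hσ64 : σ ≤ 1 / 64 := by
    rw [hσdef]
    have : ε' ^ 2 ≤ 1 := by nlinarith
    linarith
  have hσ1 : σ ≤ 1 := by linarith
  have hppp : p * p = p := hp.isIdempotentElem
  have hpsa : star p = p := hp.isSelfAdjoint
  have hp0 : 0 ≤ p := proj_nonneg hp
  have hgsa : IsSelfAdjoint g := IsSelfAdjoint.of_nonneg hg
  obtain ⟨z₁, z₂, hz₁e, hz₂e, hz₁, hz₂, hz⟩ := exists_gap_z hA hg (ν := σ / 100) (by positivity)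
  obtain ⟨y, hy⟩ : ∃ y, y = p * c * z₁ := ⟨_, rfl⟩
  have hpy : p * y = y := by rw [hy, ← mul_assoc, ← mul_assoc, hppp]
  have hpyy : p * (y * star y) = y * star y := by rw [← mul_assoc, hpy]
  have hyy : 0 ≤ y * star y := mul_star_self_nonneg y
  have hdom := gap_dom hp hg hc hσ hσ1 hz₁e hz₂e hz₁ hz₂ hz
  rw [← hy] at hdom
  obtain ⟨e₁, he₁⟩ : ∃ e₁, e₁ = rmp (1/32) (1/16) g := ⟨_, rfl⟩
  rw [← he₁] at hdom
  have he₁0 : 0 ≤ e₁ := he₁ ▸ rmp_nonneg _ _ _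
  have he₁1 : ‖e₁‖ ≤ 1 := he₁ ▸ norm_rmp_le_one _ _ _
  obtain ⟨H, hH⟩ : ∃ H, H = gapH σ e₁ p c := ⟨_, rfl⟩
  rw [← hH] at hdom
  have hHsa : IsSelfAdjoint H := hH ▸ isSelfAdjoint_gapH σ (IsSelfAdjoint.of_nonneg he₁0) hp.isSelfAdjoint
  obtain ⟨Q₀, hQ₀⟩ : ∃ Q₀, Q₀ = p - sg σ (y * star y) := ⟨_, rfl⟩
  rw [← hQ₀] at hdom
  have hQ₀0 : 0 ≤ Q₀ := by rw [hQ₀, sub_nonneg]; exact sg_le_proj hp hyy hpyy hσ
  have hD0 : 0 ≤ cut (σ/4) H + cut (1/2) Q₀ := add_nonneg (cut_nonneg _ _) (cut_nonneg _ _)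
  obtain ⟨X₀, hX₀⟩ := cz_of_dom hA hD0 hp0 hdom (1/8) (by norm_num)
  obtain ⟨X, hX⟩ : ∃ X, X = X₀ * p := ⟨_, rfl⟩
  have hXp : X * p = X := by rw [hX, mul_assoc, hppp]
  have hXnear : ‖star X * (cut (σ/4) H + cut (1/2) Q₀) * X - p‖ ≤ 1/8 := by
    have h1 : star X * (cut (σ/4) H + cut (1/2) Q₀) * X - p
        = p * (star X₀ * (cut (σ/4) H + cut (1/2) Q₀) * X₀ - p) * p := by
      rw [hX, star_mul, hpsa, mul_sub, sub_mul, hppp, hppp]
      simp only [mul_assoc]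
    rw [h1]
    have hp1 := norm_proj_le_one hp
    calc ‖p * (star X₀ * (cut (σ/4) H + cut (1/2) Q₀) * X₀ - p) * p‖
        ≤ ‖p‖ * ‖star X₀ * (cut (σ/4) H + cut (1/2) Q₀) * X₀ - p‖ * ‖p‖ := by
          refine (norm_mul_le _ _).trans ?_
          gcongr
          exact norm_mul_le _ _
      _ ≤ 1 * (1/8) * 1 := by gcongr
      _ = 1/8 := by norm_num
  obtain ⟨a, ha⟩ : ∃ a, a = star X * cut (σ/4) H * X := ⟨_, rfl⟩
  have ha0 : 0 ≤ a := ha ▸ conj_nonneg' (cut_nonneg _ _) _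
  have hasa : IsSelfAdjoint a := IsSelfAdjoint.of_nonneg ha0
  have hpX : p * star X = star X := by
    have := congrArg star hXp
    rwa [star_mul, hpsa] at this
  have hpa : p * a = a := by rw [ha, ← mul_assoc, ← mul_assoc, hpX]
  obtain ⟨k', hk'⟩ : ∃ k', k' = star y * rmp 0 (1/16) a := ⟨_, rfl⟩
  obtain ⟨δ, hδ⟩ : ∃ δ : ℝ, δ = σ / 200 := ⟨_, rfl⟩
  have hδ0 : 0 < δ := by rw [hδ]; positivity
  obtain ⟨u, hu⟩ : ∃ u, u = rmp 0 δ (k' * star k') := ⟨_, rfl⟩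
  have hkk : IsSelfAdjoint (k' * star k') := IsSelfAdjoint.mul_star_self k'
  obtain ⟨R₁, hR₁⟩ : ∃ R₁, R₁ = z₁ - z₁ * u := ⟨_, rfl⟩
  have hpcR₁ : p * c * R₁ = y - y * u := by
    rw [hR₁, hy, mul_sub, ← mul_assoc]
  obtain ⟨φ, hφ⟩ : ∃ φ, φ = rmp (σ/8) (σ/4) H := ⟨_, rfl⟩
  obtain ⟨R, hR⟩ : ∃ R, R = rt e₁ * rt φ := ⟨_, rfl⟩
  have hRn : ‖p * c * R‖ ^ 2 ≤ σ := by
    rw [hR, hφ, hH]; exact gap_norm_pcR hp he₁0 he₁1 hσ
  have hφR : φ ≤ (8 : ℝ) • (star R * R) := by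
    rw [hR, hφ, hH]; exact gap_phi_le hp he₁0 hσ
  have hlk := gap_link (p := p) (c := c) (R := R) (R₁ := R₁) hp hσ hRn
  have hpR₁ : p * (p * c * R₁) = p * c * R₁ := by rw [← mul_assoc, ← mul_assoc, hppp]
  have hpR₁R₁ : p * (p * c * R₁ * star (p * c * R₁)) = p * c * R₁ * star (p * c * R₁) := by
    rw [← mul_assoc, hpR₁]
  have hRR0 : 0 ≤ R₁ * star R₁ + R * star R :=
    add_nonneg (mul_star_self_nonneg _) (mul_star_self_nonneg _)
  have hRRsa : IsSelfAdjoint (R₁ * star R₁ + R * star R) := IsSelfAdjoint.of_nonneg hRR0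
  refine ⟨rmp 0 (1/8) (R₁ * star R₁ + R * star R), p - sg σ (p * c * R₁ * star (p * c * R₁)),
    rmp_nonneg _ _ _, norm_rmp_le_one _ _ _, ?_, ?_, ?_, ?_, ?_, ?_⟩
  · -- e₀ g' = g'
    have h1 : rmp (1/64) (1/32) g * z₁ = z₁ := by
      conv_lhs => rw [← hz₁e]
      rw [← mul_assoc, rmp_mul_rmp (by norm_num) (by norm_num) (by norm_num) (by norm_num) hgsa,
        hz₁e]
    have h2 : rmp (1/64) (1/32) g * R₁ = R₁ := by
      rw [hR₁, mul_sub, ← mul_assoc, h1]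
    have h3 : rmp (1/64) (1/32) g * e₁ = e₁ := by
      rw [he₁]
      exact rmp_mul_rmp (by norm_num) (by norm_num) (by norm_num) (by norm_num) hgsa
    have h4 : rmp (1/64) (1/32) g * R = R := by
      rw [hR, ← mul_assoc, mul_rt_of_mul_eq (IsSelfAdjoint.of_nonneg he₁0) h3]
    refine mul_rmp_of_mul_eq hRRsa ?_ (by norm_num) (by norm_num)
    rw [mul_add, ← mul_assoc, ← mul_assoc, h2, h4]
  · -- Full g'
    intro B _ π hπ
    let _ : PartialOrder B := CStarAlgebra.spectralOrder B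
    have _ : StarOrderedRing B := CStarAlgebra.spectralOrderedRing B
    rw [map_rmp π (by norm_num) (by norm_num) hRRsa] at hπ
    have h1 : ‖π (R₁ * star R₁ + R * star R)‖ ≤ 1/2 * (1/8) :=
      norm_le_of_norm_rmp_zero_le (by norm_num) (by norm_num) (map_nonneg' π hRR0) hπ
    have h2 : ‖π R₁‖ ^ 2 ≤ 1/16 := by
      have h3 : π (R₁ * star R₁) ≤ π (R₁ * star R₁ + R * star R) :=
        map_mono' π (le_add_of_nonneg_right (mul_star_self_nonneg _))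
      have h4 := norm_le_of_le (map_nonneg' π (mul_star_self_nonneg R₁)) h3
      rw [map_mul, map_star, CStarRing.norm_self_mul_star, ← pow_two] at h4
      linarith
    have h3 : ‖π R‖ ^ 2 ≤ 1/16 := by
      have h3 : π (R * star R) ≤ π (R₁ * star R₁ + R * star R) :=
        map_mono' π (le_add_of_nonneg_left (mul_star_self_nonneg _))
      have h4 := norm_le_of_le (map_nonneg' π (mul_star_self_nonneg R)) h3
      rw [map_mul, map_star, CStarRing.norm_self_mul_star, ← pow_two] at h4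
      linarith
    have h4 : ‖π φ‖ ≤ 1/2 := by
      have h5 := norm_le_of_le (map_nonneg' π (hφ ▸ rmp_nonneg _ _ _)) (map_mono' π hφR)
      have h6 : ‖π ((8 : ℝ) • (star R * R))‖ ≤ 8 * ‖π R‖ ^ 2 := by
        have h7 : π ((8 : ℝ) • (star R * R)) = (8 : ℝ) • (star (π R) * π R) := by
          have : (8 : ℝ) • (star R * R) = (8 : ℂ) • (star R * R) := by
            rw [← Complex.coe_smul]; norm_num
          rw [this, map_smul, map_mul, map_star, ← Complex.coe_smul]; norm_num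
        rw [h7, norm_smul, CStarRing.norm_star_mul_self, Real.norm_eq_abs, ← pow_two]
        norm_num
      linarith
    have h5 : π (cut (σ/4) H) = 0 := by
      rw [map_cut π (by positivity) hHsa]
      refine cut_eq_zero_of_norm_rmp_lt_one (a := σ/8) (by positivity) (by linarith)
        (hHsa.map π) ?_
      rw [← map_rmp π (by positivity) (by linarith) hHsa, ← hφ]
      linarith
    have h6 : π a = 0 := by rw [ha, map_mul, map_mul, h5]; simp
    have h7 : π (rmp 0 (1/16) a) = 0 := by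
      rw [map_rmp π le_rfl (by norm_num) hasa, h6]
      simp [rmp]
    have h8 : π k' = 0 := by rw [hk', map_mul, h7, mul_zero]
    have h9 : π u = 0 := by
      rw [hu, map_rmp π le_rfl hδ0 hkk, map_mul, h8]
      simp [rmp]
    have h10 : π R₁ = π z₁ := by rw [hR₁, map_sub, map_mul, h9]; simp
    rw [h10] at h2
    have h11 : ‖π (rmp (3/16) (1/4) g)‖ < 1 := by
      have h12 : π (rmp (3/16) (1/4) g) = star (π z₁) * π z₁ - π (star z₁ * z₁ - rmp (3/16) (1/4) g) := by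
        rw [map_sub, map_mul, map_star]; abel
      have h13 : ‖π (star z₁ * z₁ - rmp (3/16) (1/4) g)‖ ≤ σ / 100 := (norm_map_le π _).trans hz₁
      rw [h12]
      refine (norm_sub_le _ _).trans_lt ?_
      rw [CStarRing.norm_star_mul_self, ← pow_two]
      linarith
    rw [map_rmp π (by norm_num) (by norm_num) hgsa] at h11
    exact norm_le_of_norm_rmp_lt_one (by norm_num) (by norm_num) (map_nonneg' π hg) h11
  · -- 0 ≤ h'
    rw [sub_nonneg]
    exact sg_le_proj hp (mul_star_self_nonneg _) hpR₁R₁ hσ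
  · -- h' ≤ p
    rw [sub_le_self_iff]
    exact sg_nonneg hσ _
  · -- link
    refine le_trans ?_ hε'ε
    refine abs_le_of_sq_le_sq' ?_ hε'0.le |>.2
    refine hlk.trans ?_
    rw [hσdef]
    nlinarith [sq_nonneg ε']
  · -- Full h'
    intro B _ π hπ
    let _ : PartialOrder B := CStarAlgebra.spectralOrder B
    have _ : StarOrderedRing B := CStarAlgebra.spectralOrderedRing B
    have hpB : IsStarProjection (π p) :=
      ⟨by rw [IsIdempotentElem, ← map_mul, hppp], hp.isSelfAdjoint.map π⟩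
    have hpyB : π p * π y = π y := by rw [← map_mul, hpy]
    have hpaB : π p * π a = π a := by rw [← map_mul, hpa]
    have hcov : ‖π p - sg σ (π y * star (π y))‖ ≤ 1/2 → ‖π a - π p‖ ≤ 1/8 := by
      intro h
      have h1 : π Q₀ = π p - sg σ (π y * star (π y)) := by
        rw [hQ₀, map_sub, map_sg π hσ (IsSelfAdjoint.of_nonneg hyy), map_mul, map_star]
      have h2 : π (cut (1/2) Q₀) = 0 := by
        rw [map_cut π (by norm_num) (IsSelfAdjoint.of_nonneg hQ₀0)]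
        rw [cut_eq_zero_iff (by norm_num) (map_nonneg' π hQ₀0), h1]
        exact h
      have h3 : π (star X * (cut (σ/4) H + cut (1/2) Q₀) * X - p) = π a - π p := by
        rw [ha]
        simp only [map_sub, map_mul, map_add, h2, add_zero]
      rw [← h3]
      exact (norm_map_le π _).trans hXnear
    have hfin := gap_step (p := π p) (y := π y) (a := π a) hpB hpyB (map_nonneg' π ha0) hpaB hσ hδ0
      (by rw [hδ]) hcov
    have hk'B : π k' = star (π y) * rmp 0 (1/16) (π a) := by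
      rw [hk', map_mul, map_star, map_rmp π le_rfl (by norm_num) hasa]
    have huB : π u = rmp 0 δ (star (π y) * rmp 0 (1/16) (π a) *
        star (star (π y) * rmp 0 (1/16) (π a))) := by
      rw [hu, map_rmp π le_rfl hδ0 hkk, map_mul, map_star, hk'B]
    rw [hpcR₁] at hπ
    have hπ' : π (p - sg σ ((y - y * u) * star (y - y * u)))
        = π p - sg σ ((π y - π y * π u) * star (π y - π y * π u)) := by
      rw [map_sub, map_sg π hσ (IsSelfAdjoint.mul_star_self _)]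
      simp only [map_sub, map_mul, map_star]
    rw [hπ', huB] at hπ
    rw [hfin hπ, norm_zero]

end

end PIS
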