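import Crest.Agent.PIS_L1

/-!
# S0145 blueprint, task PIS-PL (existence of projections)

Replace the `sorry`s IN THIS FILE (do not change statements or names; helper lemmas are welcome, if they
are of general use put them in a new file `PIS_x*.lean`).  See `PIS_Defs.lean` for the definitions.
-/

set_option autoImplicit false

universe u

namespace PIS

section PLalg

/-- the purely algebraic part of **PL** in a unital C⋆-algebra. -/
theorem PL_alg {U : Type*} [CStarAlgebra U] [Nontrivial U] {x y m k k' : U} {δ : ℝ}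
    (hδ : δ ≤ 1 / 16)
    (hm : star m = m) (hx : m * x = x) (hy : m * y = y) (hmm : (1 - m) * (1 - m) = 1 - k)
    (hk : star k = k)
    (hxx : ‖star x * x - k‖ ≤ δ) (hxy : ‖star x * y‖ ≤ δ)
    (hk'x : k' * x = x) (hk'x' : k' * star x = star x) (hk'm : k' * m = m) :
    ∃ D : U, D * (star (x + (1 - m)) * (x + (1 - m))) = 1 ∧
      IsStarProjection (1 - (x + (1 - m)) * D * star (x + (1 - m))) ∧
      k' * (1 - (x + (1 - m)) * D * star (x + (1 - m))) =
        1 - (x + (1 - m)) * D * star (x + (1 - m)) ∧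
      ‖y - (1 - (x + (1 - m)) * D * star (x + (1 - m))) * y‖ ≤ 1 / 4 := by
  have hδ0 : 0 ≤ δ := (norm_nonneg _).trans hxx
  obtain ⟨v, hv⟩ : ∃ v : U, v = x + (1 - m) := ⟨_, rfl⟩
  obtain ⟨E, hE⟩ : ∃ E : U, E = star x * x - k := ⟨_, rfl⟩
  have hEn : ‖E‖ ≤ δ := by rw [hE]; exact hxx
  have hcx : (1 - m) * x = 0 := by rw [sub_mul, one_mul, hx, sub_self]
  have hxc : star x * (1 - m) = 0 := by
    have := congrArg star hcx
    simpa [star_mul, star_sub, hm] using this
  have hvs : star v = star x + (1 - m) := by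
    rw [hv, star_add, star_sub, star_one, hm]
  have hvv : star v * v = 1 + E := by
    rw [hvs, hv, add_mul, mul_add, mul_add, hxc, hcx, hmm, hE]
    abel
  have hEs : star E = E := by
    rw [hE, star_sub, star_mul, star_star, hk]
  have ht : ‖(-E : U)‖ < 1 := by
    rw [norm_neg]
    linarith
  obtain ⟨D, hD1, hD2⟩ : ∃ D : U, D * (1 + E) = 1 ∧ (1 + E) * D = 1 := by
    refine ⟨((Units.oneSub (-E) ht)⁻¹ : Uˣ), ?_, ?_⟩
    · have h1 := Units.inv_mul (Units.oneSub (-E) ht)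
      have h2 : ((Units.oneSub (-E) ht : Uˣ) : U) = 1 + E := by simp
      rwa [h2] at h1
    · have h1 := Units.mul_inv (Units.oneSub (-E) ht)
      have h2 : ((Units.oneSub (-E) ht : Uˣ) : U) = 1 + E := by simp
      rwa [h2] at h1
  have hDs : star D = D := by
    have h1 : star D * (1 + E) = 1 := by
      have := congrArg star hD2
      rw [star_mul, star_add, star_one, hEs] at this
      exact this
    calc star D = star D * ((1 + E) * D) := by rw [hD2, mul_one]
      _ = (star D * (1 + E)) * D := by rw [mul_assoc]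
      _ = D := by rw [h1, one_mul]
  have hDn : ‖D‖ ≤ 2 := by
    have h1 : D = 1 - D * E := by
      have : D + D * E = 1 := by rw [← hD1, mul_add, mul_one]
      rw [← this]; abel
    have h2 : ‖D‖ ≤ 1 + ‖D‖ * δ := by
      calc ‖D‖ = ‖1 - D * E‖ := by rw [← h1]
        _ ≤ ‖(1 : U)‖ + ‖D * E‖ := norm_sub_le _ _
        _ ≤ 1 + ‖D‖ * ‖E‖ := by
            rw [CStarRing.norm_one]
            have := norm_mul_le D E
            linarith
        _ ≤ 1 + ‖D‖ * δ := by
            have := mul_le_mul_of_nonneg_left hEn (norm_nonneg D)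
            linarith
    have h3 : ‖D‖ * δ ≤ ‖D‖ * (1 / 16) := mul_le_mul_of_nonneg_left hδ (norm_nonneg D)
    linarith
  have hvn : ‖v‖ ≤ 2 := by
    have h1 : ‖v‖ * ‖v‖ ≤ 1 + δ := by
      rw [← CStarRing.norm_star_mul_self, hvv]
      calc ‖1 + E‖ ≤ ‖(1 : U)‖ + ‖E‖ := norm_add_le _ _
        _ ≤ 1 + δ := by rw [CStarRing.norm_one]; linarith
    nlinarith [norm_nonneg v]
  have hvvD : star v * v * D = 1 := by rw [hvv, hD2]
  have hDvv : D * (star v * v) = 1 := by rw [hvv, hD1]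
  refine ⟨D, ?_⟩
  rw [← hv]
  have hpp : (v * D * star v) * (v * D * star v) = v * D * star v := by
    calc (v * D * star v) * (v * D * star v) = v * D * (star v * v * D) * star v := by
          simp only [mul_assoc]
      _ = v * D * star v := by rw [hvvD, mul_one]
  have hk'v : k' * v = k' - 1 + v := by
    rw [hv, mul_add, mul_sub, mul_one, hk'x, hk'm]
    abel
  have hk'vs : k' * star v = k' - 1 + star v := by
    rw [hvs, mul_add, mul_sub, mul_one, hk'x', hk'm]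
    abel
  -- (1 - k') D = 1 - k'
  have h1k : (1 - k') * v = 1 - k' := by
    rw [sub_mul, one_mul, hk'v]; abel
  have h1ks : (1 - k') * star v = 1 - k' := by
    rw [sub_mul, one_mul, hk'vs]; abel
  have h1kD : (1 - k') * D = 1 - k' := by
    have : (1 - k') * (star v * v) = 1 - k' := by rw [← mul_assoc, h1ks, h1k]
    calc (1 - k') * D = (1 - k') * (star v * v) * D := by rw [this]
      _ = (1 - k') * (star v * v * D) := by rw [mul_assoc]
      _ = 1 - k' := by rw [hvvD, mul_one]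
  refine ⟨hDvv, ⟨?_, ?_⟩, ?_, ?_⟩
  · -- idempotent
    show (1 - v * D * star v) * (1 - v * D * star v) = 1 - v * D * star v
    rw [mul_sub, mul_one, sub_mul, one_mul, hpp]
    abel
  · -- self-adjoint
    show star (1 - v * D * star v) = 1 - v * D * star v
    rw [star_sub, star_one, star_mul, star_mul, star_star, hDs, mul_assoc]
  · have h2 : (1 - k') * (1 - v * D * star v) = 0 := by
      rw [mul_sub, mul_one, ← mul_assoc, ← mul_assoc, h1k, h1kD, h1ks, sub_self]
    rw [sub_mul, one_mul] at h2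
    exact (sub_eq_zero.mp h2).symm
  · have h3 : y - (1 - v * D * star v) * y = v * D * (star x * y) := by
      have h4 : star v * y = star x * y := by
        rw [hvs, add_mul, sub_mul, one_mul, hy, sub_self, add_zero]
      rw [sub_mul, one_mul, mul_assoc (v * D), h4]
      abel
    rw [h3]
    calc ‖v * D * (star x * y)‖ ≤ ‖v * D‖ * ‖star x * y‖ := norm_mul_le _ _
      _ ≤ (‖v‖ * ‖D‖) * ‖star x * y‖ :=
          mul_le_mul_of_nonneg_right (norm_mul_le _ _) (norm_nonneg _)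
      _ ≤ (2 * 2) * (1 / 16) := by
          apply mul_le_mul
          · exact mul_le_mul hvn hDn (norm_nonneg _) (by norm_num)
          · exact hxy.trans hδ
          · exact norm_nonneg _
          · norm_num
      _ = 1 / 4 := by norm_num

end PLalg

section

variable {A : Type u} [NonUnitalCStarAlgebra A] [PartialOrder A] [StarOrderedRing A]

/-- the approximate part of **PL**. -/
theorem PL_pre (hA : PI A) {k k₁ : A} (hk : 0 ≤ k) (hk₁ : 0 ≤ k₁) (hd : Dom k₁ k) {δ : ℝ}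
    (hδ : 0 < δ) :
    ∃ X Y : A, ‖star X * k₁ * X - k‖ < δ ∧ ‖star Y * k₁ * Y - k‖ < δ ∧
      ‖star X * k₁ * Y‖ < δ := by
  obtain ⟨X, hX⟩ := cz_of_dom hA hk₁ hk hd (δ / 2) (by positivity)
  obtain ⟨ε', hε', hε'0⟩ : ∃ ε' : ℝ, ε' = δ / (2 * (‖X‖ ^ 2 + 1)) ∧ 0 < ε' :=
    ⟨_, rfl, by positivity⟩
  have hXε : ‖X‖ * ε' * ‖X‖ < δ / 2 := by
    have h1 : ε' * (‖X‖ ^ 2 + 1) = δ / 2 := by
      rw [hε']
      field_simp
    nlinarith [norm_nonneg X]
  obtain ⟨r, s, hr, hs, hrs⟩ := hA (rt k₁) ε' hε'0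
  rw [star_rt, rt_mul_rt hk₁] at hr hs hrs
  have key : ∀ a b c : A, ‖star a * k₁ * b - c‖ < ε' →
      ‖star X * (star a * k₁ * b - c) * X‖ < δ / 2 := by
    intro a b c h
    calc ‖star X * (star a * k₁ * b - c) * X‖
        ≤ ‖star X * (star a * k₁ * b - c)‖ * ‖X‖ := norm_mul_le _ _
      _ ≤ (‖star X‖ * ‖star a * k₁ * b - c‖) * ‖X‖ :=
          mul_le_mul_of_nonneg_right (norm_mul_le _ _) (norm_nonneg _)
      _ ≤ (‖X‖ * ε') * ‖X‖ := by
          rw [norm_star]
          apply mul_le_mul_of_nonneg_right _ (norm_nonneg _)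
          exact mul_le_mul_of_nonneg_left h.le (norm_nonneg _)
      _ < δ / 2 := hXε
  refine ⟨r * X, s * X, ?_, ?_, ?_⟩
  · have e : star (r * X) * k₁ * (r * X) - k =
        star X * (star r * k₁ * r - k₁) * X + (star X * k₁ * X - k) := by
      simp only [star_mul, mul_sub, sub_mul, mul_assoc]
      abel
    rw [e]
    calc _ ≤ ‖star X * (star r * k₁ * r - k₁) * X‖ + ‖star X * k₁ * X - k‖ := norm_add_le _ _
      _ < δ / 2 + δ / 2 := add_lt_add (key r r k₁ hr) hX
      _ = δ := by ring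
  · have e : star (s * X) * k₁ * (s * X) - k =
        star X * (star s * k₁ * s - k₁) * X + (star X * k₁ * X - k) := by
      simp only [star_mul, mul_sub, sub_mul, mul_assoc]
      abel
    rw [e]
    calc _ ≤ ‖star X * (star s * k₁ * s - k₁) * X‖ + ‖star X * k₁ * X - k‖ := norm_add_le _ _
      _ < δ / 2 + δ / 2 := add_lt_add (key s s k₁ hs) hX
      _ = δ := by ring
  · have e : star (r * X) * k₁ * (s * X) = star X * (star r * k₁ * s - 0) * X := by
      simp only [star_mul, mul_assoc, sub_zero]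
    rw [e]
    have := key r s 0 (by rwa [sub_zero])
    linarith

/-- **PL.**  Proof.  Let `κ = (κ₁ + κ₂) / 2`, `k = rmp κ κ₁ h`, `k₁ = cut κ₁ h` (`k k₁ = k₁`),
`k₂ = rmp κ₂ κ h` (`k₂ k = k`), `k' = rmp (κ₂/2) κ₂ h` (`k' k₂ = k₂`, `k' k₁ = k₁`).
`Dom k₁ k`: if `π k₁ = 0` then `π (cut κ₂ h) = 0`, so `‖π h‖ ≤ κ₂` and `π k = 0`.
So `k ≾ k₁` by `cz_of_dom` (`X⋆ k₁ X ≈ k`), and as `k₁` is properly infinite (`k₁ = star (rt k₁) * rt k₁`)
there are `X₀ = r X, Y₀ = s X` with `X₀⋆ k₁ X₀ ≈ k`, `Y₀⋆ k₁ Y₀ ≈ k`, `X₀⋆ k₁ Y₀ ≈ 0` (errors `≤ δ`, `δ` small).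
Put `x₀ = rt k₁ * X₀ * k₂`, `y₀ = rt k₁ * Y₀`: `x₀⋆ x₀ ≈ k₂ k k₂ = k`, `y₀⋆ y₀ ≈ k`, `x₀⋆ y₀ ≈ 0`.
In the unitization let `v = x₀ + (1 - k)^{1/2}`.  As `k k₁ = k₁` we have `(1-k)^{1/2} rt k₁ = 0`, hence
`v⋆ v = x₀⋆ x₀ + (1 - k) ≈ 1` is invertible; `p = 1 - v (v⋆v)⁻¹ v⋆` is a projection of the unitization
whose scalar part is `1 - 1 = 0`, i.e. `p ∈ A`.
`v (1-k') = 1-k' = v⋆ (1-k')` (as `k₂ (1-k') = 0`, `rt k₁ (1-k') = 0`, `(1-k)^{1/2} (1-k') = 1-k'`), so
`p (1-k') = (1-k') - v (v⋆v)⁻¹ v⋆ (1-k') = (1-k') - v (1-k') = 0`, i.e. `k' p = p`.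
`(1-p) y₀ = v (v⋆v)⁻¹ v⋆ y₀` and `v⋆ y₀ = x₀⋆ y₀ + (1-k)^{1/2} rt k₁ Y₀ = x₀⋆ y₀ ≈ 0`.
So if `π p = 0` then `‖π y₀‖ = ‖π (y₀ - p y₀)‖ ≤ small`, `‖π k‖ ≤ ‖π (y₀⋆ y₀)‖ + δ < 1`, so `π (cut κ₁ h) = 0`
(`cut_eq_zero_of_norm_rmp_lt_one`). -/
theorem exists_proj (hA : PI A) {h : A} (hh : 0 ≤ h) {κ₁ κ₂ : ℝ} (h2 : 0 < κ₂) (h12 : κ₂ < κ₁)
    (hd : Dom (cut κ₁ h) (cut κ₂ h)) :
    ∃ p : A, IsStarProjection p ∧ rmp (κ₂ / 2) κ₂ h * p = p ∧ Dom p (cut κ₁ h) := by
  have hhs : IsSelfAdjoint h := hh.isSelfAdjoint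
  obtain ⟨κ, hκ⟩ : ∃ κ : ℝ, κ = (κ₁ + κ₂) / 2 := ⟨_, rfl⟩
  have hκ2 : κ₂ < κ := by rw [hκ]; linarith
  have hκ1 : κ < κ₁ := by rw [hκ]; linarith
  have hκ0 : 0 < κ := h2.trans hκ2
  have hκ10 : 0 < κ₁ := hκ0.trans hκ1
  obtain ⟨k, hk⟩ : ∃ k : A, k = rmp κ κ₁ h := ⟨_, rfl⟩
  obtain ⟨k₁, hk₁⟩ : ∃ k₁ : A, k₁ = cut κ₁ h := ⟨_, rfl⟩
  obtain ⟨k₂, hk₂⟩ : ∃ k₂ : A, k₂ = rmp κ₂ κ h := ⟨_, rfl⟩
  obtain ⟨k', hk'⟩ : ∃ k' : A, k' = rmp (κ₂ / 2) κ₂ h := ⟨_, rfl⟩
  have hk0 : 0 ≤ k := by rw [hk]; exact rmp_nonneg _ _ _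
  have hk₁0 : 0 ≤ k₁ := by rw [hk₁]; exact cut_nonneg _ _
  have hk₁s : IsSelfAdjoint k₁ := hk₁0.isSelfAdjoint
  have hks : star k = k := by rw [hk, star_rmp]
  have hk₂s : star k₂ = k₂ := by rw [hk₂, star_rmp]
  have hk₂n : ‖k₂‖ ≤ 1 := by rw [hk₂]; exact norm_rmp_le_one _ _ _
  -- domination
  have hdom : Dom k₁ k := by
    intro B _ π hπ
    let _ : PartialOrder B := CStarAlgebra.spectralOrder B
    have _ : StarOrderedRing B := CStarAlgebra.spectralOrderedRing B
    rw [hk₁] at hπ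
    have h1 := hd B π hπ
    have hπh : 0 ≤ π h := map_nonneg' π hh
    rw [map_cut π h2.le hhs, cut_eq_zero_iff h2.le hπh] at h1
    rw [hk, map_rmp π hκ0.le hκ1 hhs]
    exact rmp_eq_zero_of_norm_le hκ0.le hκ1 hπh (h1.trans hκ2.le)
  obtain ⟨X, Y, hX, hY, hXY⟩ := PL_pre hA hk0 hk₁0 hdom (δ := 1 / 16) (by norm_num)
  -- the square root
  obtain ⟨g, hg⟩ : ∃ g : ℝ → ℝ, g = fun t => 1 - √(1 - rampf κ κ₁ t) := ⟨_, rfl⟩
  have hgc : Continuous g := by
    rw [hg]
    exact continuous_const.sub (Real.continuous_sqrt.comp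
      (continuous_const.sub (continuous_rampf κ κ₁)))
  have hr0 : rampf κ κ₁ 0 = 0 := rampf_zero hκ0.le hκ1
  have hg0 : g 0 = 0 := by
    rw [hg]
    simp [hr0]
  obtain ⟨m, hm⟩ : ∃ m : A, m = cfcₙ g h := ⟨_, rfl⟩
  have hms : star m = m := by
    rw [hm]
    exact (cfcₙ_predicate g h : IsSelfAdjoint (cfcₙ g h)).star_eq
  have hrc := continuous_rampf κ κ₁
  have hmm : m * m = m + m - k := by
    rw [hm, hk]
    unfold rmp
    rw [← cfcₙ_mul g g h hgc.continuousOn hg0 hgc.continuousOn hg0,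
      ← cfcₙ_add g g h hgc.continuousOn hg0 hgc.continuousOn hg0,
      ← cfcₙ_sub (fun t => g t + g t) (rampf κ κ₁) h (hgc.add hgc).continuousOn
        (by simp [hg0]) hrc.continuousOn hr0]
    congr 1
    funext t
    have h1 : √(1 - rampf κ κ₁ t) * √(1 - rampf κ κ₁ t) = 1 - rampf κ κ₁ t :=
      Real.mul_self_sqrt (by linarith [rampf_le_one κ κ₁ t])
    rw [hg]
    simp only
    linarith
  have hmk₁ : m * k₁ = k₁ := by
    rw [hm, hk₁]
    unfold cut
    rw [← cfcₙ_mul g (cutf κ₁) h hgc.continuousOn hg0 (continuous_cutf κ₁).continuousOn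
      (cutf_zero hκ10.le)]
    congr 1
    funext t
    rcases le_total κ₁ t with ht | ht
    · have h1 : rampf κ κ₁ t = 1 := rampf_eq_one hκ1 ht
      rw [hg]
      simp [h1]
    · have h1 : cutf κ₁ t = 0 := by
        unfold cutf
        exact max_eq_left (by linarith)
      rw [h1, mul_zero]
  have hk'm : k' * m = m := by
    rw [hm, hk']
    unfold rmp
    rw [← cfcₙ_mul (rampf (κ₂ / 2) κ₂) g h (continuous_rampf _ _).continuousOn
      (rampf_zero (by linarith) (by linarith)) hgc.continuousOn hg0]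
    congr 1
    funext t
    rcases le_total κ₂ t with ht | ht
    · rw [rampf_eq_one (by linarith) ht, one_mul]
    · have h1 : rampf κ κ₁ t = 0 := rampf_eq_zero hκ1 (by linarith)
      rw [hg]
      simp [h1]
  have hmr : m * rt k₁ = rt k₁ := mul_rt_of_mul_eq hk₁s hmk₁
  have hk'k₁ : k' * k₁ = k₁ := by
    rw [hk', hk₁]
    exact rmp_mul_cut (by linarith) (by linarith) (by linarith) hhs
  have hk'r : k' * rt k₁ = rt k₁ := mul_rt_of_mul_eq hk₁s hk'k₁
  have hk'k₂ : k' * k₂ = k₂ := by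
    rw [hk', hk₂]
    exact rmp_mul_rmp (by linarith) (by linarith) le_rfl (by linarith) hhs
  have hk₂k : k₂ * k = k := by
    rw [hk₂, hk]
    exact rmp_mul_rmp h2.le hκ2 le_rfl hκ1 hhs
  have hkk₂ : k * k₂ = k := by
    rw [hk₂, hk]
    exact rmp_mul_rmp' h2.le hκ2 le_rfl hκ1 hhs
  have hrr : rt k₁ * rt k₁ = k₁ := rt_mul_rt hk₁0
  -- the elements
  obtain ⟨x, hx⟩ : ∃ x : A, x = rt k₁ * X * k₂ := ⟨_, rfl⟩
  obtain ⟨y, hy⟩ : ∃ y : A, y = rt k₁ * Y := ⟨_, rfl⟩
  have hxs : star x = k₂ * (star X * rt k₁) := by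
    rw [hx, star_mul, star_mul, star_rt, hk₂s]
  have hys : star y = star Y * rt k₁ := by
    rw [hy, star_mul, star_rt]
  have hxx : ‖star x * x - k‖ ≤ 1 / 16 := by
    have e : star x * x - k = k₂ * (star X * k₁ * X - k) * k₂ := by
      have e1 : k₂ * (star X * k₁ * X - k) * k₂ =
          k₂ * (star X * k₁ * X) * k₂ - k₂ * k * k₂ := by
        rw [mul_sub, sub_mul]
      rw [e1, hk₂k, hkk₂, hxs, hx]
      congr 1
      simp only [mul_assoc]
      rw [← mul_assoc (rt k₁) (rt k₁), hrr]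
    rw [e]
    calc ‖k₂ * (star X * k₁ * X - k) * k₂‖
        ≤ ‖k₂ * (star X * k₁ * X - k)‖ * ‖k₂‖ := norm_mul_le _ _
      _ ≤ (‖k₂‖ * ‖star X * k₁ * X - k‖) * ‖k₂‖ :=
          mul_le_mul_of_nonneg_right (norm_mul_le _ _) (norm_nonneg _)
      _ ≤ (1 * (1 / 16)) * 1 := by
          apply mul_le_mul _ hk₂n (norm_nonneg _) (by norm_num)
          exact mul_le_mul hk₂n hX.le (norm_nonneg _) (by norm_num)
      _ = 1 / 16 := by norm_num
  have hyy : ‖star y * y - k‖ ≤ 1 / 16 := by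
    have e : star y * y - k = star Y * k₁ * Y - k := by
      rw [hys, hy]
      congr 1
      simp only [mul_assoc]
      rw [← mul_assoc (rt k₁) (rt k₁), hrr]
    rw [e]
    exact hY.le
  have hxy : ‖star x * y‖ ≤ 1 / 16 := by
    have e : star x * y = k₂ * (star X * k₁ * Y) := by
      rw [hxs, hy]
      simp only [mul_assoc]
      rw [← mul_assoc (rt k₁) (rt k₁), hrr]
    rw [e]
    calc ‖k₂ * (star X * k₁ * Y)‖ ≤ ‖k₂‖ * ‖star X * k₁ * Y‖ := norm_mul_le _ _
      _ ≤ 1 * (1 / 16) := mul_le_mul hk₂n hXY.le (norm_nonneg _) (by norm_num)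
      _ = 1 / 16 := by norm_num
  have hmx : m * x = x := by
    rw [hx, ← mul_assoc, ← mul_assoc, hmr]
  have hmy : m * y = y := by
    rw [hy, ← mul_assoc, hmr]
  have hk'x : k' * x = x := by
    rw [hx, ← mul_assoc, ← mul_assoc, hk'r]
  have hk'xs : k' * star x = star x := by
    rw [hxs, ← mul_assoc, hk'k₂]
  -- pass to the unitization
  have inr_inj : Function.Injective (fun a : A => (a : Unitization ℂ A)) :=
    Unitization.inr_injective
  obtain ⟨D, hD, hp, hkp, hny⟩ := PL_alg (U := Unitization ℂ A) (x := (x : Unitization ℂ A))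
    (y := (y : Unitization ℂ A)) (m := (m : Unitization ℂ A)) (k := (k : Unitization ℂ A))
    (k' := (k' : Unitization ℂ A)) (δ := 1 / 16) le_rfl
    (by rw [← Unitization.inr_star, hms])
    (by rw [← Unitization.inr_mul, hmx])
    (by rw [← Unitization.inr_mul, hmy])
    (by
      have h1 : ((m : Unitization ℂ A)) * (m : Unitization ℂ A) = m + m - k := by
        rw [← Unitization.inr_mul, hmm, Unitization.inr_sub, Unitization.inr_add]
      rw [mul_sub, mul_one, sub_mul, one_mul, h1]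
      abel)
    (by rw [← Unitization.inr_star, hks])
    (by
      rw [← Unitization.inr_star, ← Unitization.inr_mul, ← Unitization.inr_sub,
        Unitization.norm_inr]
      exact hxx)
    (by
      rw [← Unitization.inr_star, ← Unitization.inr_mul, Unitization.norm_inr]
      exact hxy)
    (by rw [← Unitization.inr_mul, hk'x])
    (by rw [← Unitization.inr_star, ← Unitization.inr_mul, hk'xs])
    (by rw [← Unitization.inr_mul, hk'm])
  obtain ⟨P, hP⟩ : ∃ P : Unitization ℂ A, P = 1 - ((x : Unitization ℂ A) + (1 - m)) * D *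
    star ((x : Unitization ℂ A) + (1 - m)) := ⟨_, rfl⟩
  rw [← hP] at hp hkp hny
  have hFs : ∀ z : Unitization ℂ A, Unitization.fstHom ℂ A (star z) =
      star (Unitization.fstHom ℂ A z) := fun z => Unitization.fst_star z
  have hF0 : ∀ a : A, Unitization.fstHom ℂ A (a : Unitization ℂ A) = 0 :=
    fun a => Unitization.fst_inr ℂ a
  have hFv : Unitization.fstHom ℂ A ((x : Unitization ℂ A) + (1 - m)) = 1 := by
    rw [map_add, map_sub, map_one, hF0, hF0, sub_zero, zero_add]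
  have hfD : Unitization.fstHom ℂ A D = 1 := by
    have := congrArg (Unitization.fstHom ℂ A) hD
    rw [map_mul, map_mul, hFs, hFv, map_one, star_one, mul_one, mul_one] at this
    exact this
  have hPf : P.fst = 0 := by
    have : Unitization.fstHom ℂ A P = 0 := by
      rw [hP, map_sub, map_mul, map_mul, hFs, hFv, hfD, map_one, star_one, mul_one, mul_one,
        sub_self]
    exact this
  have hPe : ((P.snd : A) : Unitization ℂ A) = P := by
    apply Unitization.ext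
    · rw [Unitization.fst_inr, hPf]
    · rw [Unitization.snd_inr]
  refine ⟨P.snd, ⟨?_, ?_⟩, ?_, ?_⟩
  · show P.snd * P.snd = P.snd
    apply inr_inj
    simp only [Unitization.inr_mul]
    rw [hPe]
    exact hp.isIdempotentElem
  · show star P.snd = P.snd
    apply inr_inj
    simp only [Unitization.inr_star]
    rw [hPe]
    exact hp.isSelfAdjoint
  · rw [← hk']
    apply inr_inj
    simp only [Unitization.inr_mul]
    rw [hPe]
    exact hkp
  · intro B _ π hπ
    have hny' : ‖y - P.snd * y‖ ≤ 1 / 4 := by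
      rw [← Unitization.norm_inr (𝕜 := ℂ), Unitization.inr_sub, Unitization.inr_mul, hPe]
      exact hny
    have h1 : ‖π y‖ ≤ 1 / 4 := by
      have e : π y = π (y - P.snd * y) := by
        rw [map_sub, map_mul, hπ, zero_mul, sub_zero]
      rw [e]
      exact (norm_map_le π _).trans hny'
    have h3 : ‖π k‖ < 1 := by
      have e : π k = star (π y) * π y - π (star y * y - k) := by
        rw [map_sub, map_mul, map_star]
        abel
      rw [e]
      calc ‖star (π y) * π y - π (star y * y - k)‖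
          ≤ ‖star (π y) * π y‖ + ‖π (star y * y - k)‖ := norm_sub_le _ _
        _ ≤ ‖π y‖ * ‖π y‖ + 1 / 16 := by
            rw [CStarRing.norm_star_mul_self]
            have := (norm_map_le π (star y * y - k)).trans hyy
            linarith
        _ < 1 := by nlinarith [norm_nonneg (π y)]
    rw [hk, map_rmp π hκ0.le hκ1 hhs] at h3
    rw [map_cut π hκ10.le hhs]
    exact cut_eq_zero_of_norm_rmp_lt_one hκ0.le hκ1 (hhs.map π) h3

end

end PIS
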