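import Crest.Agent.PIS_G6
import Crest.Agent.PIS_PL

/-!
# S0145 blueprint, task PIS-G7 (gap lemma for finite families)

Notation of the gap lemma: `p` a projection, `g ≥ 0`, `‖c‖ ≤ 1`; ramps
`e₀ = rmp (1/64) (1/32) g`, `e₁ = rmp (1/32) (1/16) g`, `e₂ = rmp (1/16) (1/8) g`,
`e₃ = rmp (1/8) (3/16) g`, `e₄ = rmp (3/16) (1/4) g`; `σ = ε² / 64`;
`H = σ e₁ - e₁^{1/2} c⋆pc e₁^{1/2}` (`gapH`), `φ = rmp (σ/8) (σ/4) H`.


Replace the `sorry`s IN THIS FILE (do not change statements or names; helper lemmas are welcome, if they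
are of general use put them in a new file `PIS_x*.lean`).  See `PIS_Defs.lean` for the definitions.
-/

set_option autoImplicit false

universe u

namespace PIS

section

variable {A : Type u} [NonUnitalCStarAlgebra A] [PartialOrder A] [StarOrderedRing A]

/-- the cut of the image vanishes iff the norm of the image is small -/
theorem map_cut_eq_zero_iff_G7 {B : Type u} [NonUnitalCStarAlgebra B] (π : A →⋆ₙₐ[ℂ] B) {κ : ℝ}
    (hκ : 0 ≤ κ) {x : A} (hx : 0 ≤ x) : π (cut κ x) = 0 ↔ ‖π x‖ ≤ κ := by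
  let _ : PartialOrder B := CStarAlgebra.spectralOrder B
  let _ : StarOrderedRing B := CStarAlgebra.spectralOrderedRing B
  rw [map_cut π hκ (IsSelfAdjoint.of_nonneg hx)]
  exact cut_eq_zero_iff hκ (map_nonneg' π hx)

/-- **G5 (finite families).** Induction on `n`.  `n = 0`: `h' = p`.  Step: apply the induction hypothesis with
`ε/2` to get `g'_x` (`x < n`), `h₁`.  `Dom (cut (1/2) h₁) (cut (1/4) h₁)` (if the first vanishes, `‖π h₁‖ ≤ 1/2`, so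
`π p = 0` and `π h₁ = π (p h₁) = 0`), so `exists_proj` (`κ₁ = 1/2, κ₂ = 1/4`) gives a projection `p₂` with
`rmp (1/8) (1/4) h₁ * p₂ = p₂` and `Dom p₂ (cut (1/2) h₁)`; apply `exists_gap` to `p₂, g n, c, ε`:
`g'_n`, `h' ≤ p₂`.  `p₂ ≤ rmp (1/8) (1/4) h₁ ≤ 4 h₁` (`proj_le_of_mul_eq`, `rmp_le_smul`), so
`lk h' c g'_x ≤ lk p₂ c g'_x ≤ √4 lk h₁ c g'_x ≤ ε` for `x < n`.
`Full (1/2) h' 0 p`: `‖π h'‖ ≤ 1/2` ⟹ `π p₂ = 0` ⟹ `‖π h₁‖ ≤ 1/2` ⟹ `π p = 0`.  `p h' = h'`: `p h₁ = h₁`, `h' ≤ p₂ ≤ 4 h₁`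
(`mul_eq_of_le`). -/
theorem exists_gap_family (hA : PI A) {c : A} (hc : ‖c‖ ≤ 1) (n : ℕ) :
    ∀ (p : A), IsStarProjection p → ∀ (g : ℕ → A), (∀ x, 0 ≤ g x) → ∀ ε : ℝ, 0 < ε →
    ∃ (g' : ℕ → A) (h' : A),
      (∀ x < n, 0 ≤ g' x ∧ ‖g' x‖ ≤ 1 ∧ rmp (1/64) (1/32) (g x) * g' x = g' x ∧
        Full (1/2) (g' x) (1/4) (g x) ∧ lk h' c (g' x) ≤ ε) ∧
      0 ≤ h' ∧ ‖h'‖ ≤ 1 ∧ p * h' = h' ∧ Full (1/2) h' 0 p := by
  induction n with
  | zero =>
    intro p hp g hg ε hε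
    refine ⟨fun _ => 0, p, fun x hx => absurd hx (Nat.not_lt_zero x), proj_nonneg hp,
      norm_proj_le_one hp, hp.isIdempotentElem, ?_⟩
    intro B _ π hπ
    have h1 : ‖π p‖ * ‖π p‖ = ‖π p‖ := by
      rw [← CStarRing.norm_star_mul_self, ← map_star, ← map_mul, hp.isSelfAdjoint.star_eq,
        hp.isIdempotentElem.eq]
    have h2 : 0 ≤ ‖π p‖ := norm_nonneg _
    nlinarith
  | succ n ih =>
    intro p hp g hg ε hε
    obtain ⟨g1, h₁, hg1, hh₁, hh₁n, hph₁, hfull₁⟩ := ih p hp g hg (ε / 2) (by positivity)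
    have hdom : Dom (cut (1/2) h₁) (cut (1/4) h₁) := by
      intro B _ π hπ
      have h1 : ‖π h₁‖ ≤ 1 / 2 := (map_cut_eq_zero_iff_G7 π (by norm_num) hh₁).1 hπ
      have h2 : ‖π p‖ ≤ 0 := hfull₁ B π h1
      have h3 : π p = 0 := norm_le_zero_iff.1 h2
      have h4 : π h₁ = 0 := by rw [← hph₁, map_mul, h3, zero_mul]
      rw [map_cut_eq_zero_iff_G7 π (by norm_num) hh₁, h4, norm_zero]
      norm_num
    obtain ⟨p₂, hp₂, hrp₂, hdp₂⟩ := exists_proj hA hh₁ (κ₁ := 1/2) (κ₂ := 1/4) (by norm_num)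
      (by norm_num) hdom
    rw [show (1/4 : ℝ) / 2 = 1 / 8 by norm_num] at hrp₂
    obtain ⟨gn, h', hgn, hgn1, hgne, hgnf, hh', hh'p, hlk, hfull'⟩ :=
      exists_gap hA hp₂ (hg n) hc hε
    have hp₂le : p₂ ≤ (4 : ℝ) • h₁ := by
      have h1 := proj_le_of_mul_eq hp₂ (rmp_nonneg (1/8) (1/4) h₁) (norm_rmp_le_one _ _ _) hrp₂
      have h2 := rmp_le_smul (a := 1/8) (b := 1/4) (by norm_num) (by norm_num) hh₁
      rw [show (1 : ℝ) / (1 / 4) = 4 by norm_num] at h2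
      exact h1.trans h2
    have hh'le : h' ≤ (4 : ℝ) • h₁ := hh'p.trans hp₂le
    refine ⟨fun x => if x < n then g1 x else gn, h', ?_, hh',
      (norm_le_of_le hh' hh'p).trans (norm_proj_le_one hp₂),
      mul_eq_of_le (by norm_num) hh₁ hh' hh'le hph₁, ?_⟩
    · intro x hx
      by_cases hxn : x < n
      · obtain ⟨a1, a2, a3, a4, a5⟩ := hg1 x hxn
        simp only [if_pos hxn]
        refine ⟨a1, a2, a3, a4, ?_⟩
        have h1 := lk_mono_left (C := 4) (by norm_num) hh₁ hh' hh'le c (g1 x)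
        have h2 : √(4 : ℝ) = 2 := by
          rw [show (4 : ℝ) = 2 ^ 2 by norm_num, Real.sqrt_sq (by norm_num)]
        rw [h2] at h1
        linarith
      · have hxe : x = n := by omega
        simp only [if_neg hxn]
        subst hxe
        exact ⟨hgn, hgn1, hgne, hgnf, hlk⟩
    · intro B _ π hπ
      have h1 : ‖π p₂‖ ≤ 0 := hfull' B π hπ
      have h2 : π p₂ = 0 := norm_le_zero_iff.1 h1
      have h3 : π (cut (1/2) h₁) = 0 := hdp₂ B π h2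
      exact hfull₁ B π ((map_cut_eq_zero_iff_G7 π (by norm_num) hh₁).1 h3)

end

end PIS
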