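import Crest.Agent.PIS_A2c

/-!
# S0145 blueprint, task PIS-OR (almost orthogonal sums)

Replace the `sorry`s IN THIS FILE (do not change statements or names; helper lemmas are welcome, if they
are of general use put them in a new file `PIS_x*.lean`).  See `PIS_Defs.lean` for the definitions.
-/

set_option autoImplicit false
set_option linter.unusedSectionVars false

universe u

namespace PIS

section

variable {A : Type u} [NonUnitalCStarAlgebra A] [PartialOrder A] [StarOrderedRing A]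

lemma OR_mul_self_le {x : A} {M : ℝ} (hx : 0 ≤ x) (hM : ‖x‖ ≤ M) : x * x ≤ M • x := by
  have h1 := conj_le_norm_smul hx (rt x)
  rw [star_rt, rt_mul_rt hx] at h1
  have e : rt x * x * rt x = x * x := by
    calc rt x * x * rt x = rt x * (rt x * rt x) * rt x := by rw [rt_mul_rt hx]
      _ = (rt x * rt x) * (rt x * rt x) := by simp only [mul_assoc]
      _ = x * x := by rw [rt_mul_rt hx]
  rw [e] at h1
  refine h1.trans ?_
  have h2 : 0 ≤ (M - ‖x‖) • x := smul_nonneg' hx (by linarith)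
  rw [sub_smul] at h2
  exact sub_nonneg.1 h2

/-- double sum: diagonal part plus error -/
lemma OR_norm_double {ι : Type*} (s : Finset ι) (C D : ι → A) {η : ℝ} (hη : 0 ≤ η)
    (ho : ∀ i ∈ s, ∀ j ∈ s, i ≠ j → ‖C i * D j‖ ≤ η) :
    ‖(∑ i ∈ s, C i) * (∑ j ∈ s, D j)‖ ≤ ‖∑ i ∈ s, C i * D i‖ + (s.card : ℝ) ^ 2 * η := by
  classical
  have e : (∑ i ∈ s, C i) * (∑ j ∈ s, D j) = (∑ i ∈ s, C i * D i) +
      ∑ i ∈ s, ∑ j ∈ s, (if i = j then 0 else C i * D j) := by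
    rw [Finset.sum_mul_sum, ← Finset.sum_add_distrib]
    refine Finset.sum_congr rfl fun i hi => ?_
    have h1 : C i * D i = ∑ j ∈ s, if i = j then C i * D j else 0 := by
      rw [Finset.sum_ite_eq s i, if_pos hi]
    rw [h1, ← Finset.sum_add_distrib]
    refine Finset.sum_congr rfl fun j _ => ?_
    split_ifs <;> simp
  rw [e]
  refine (norm_add_le _ _).trans (add_le_add le_rfl ?_)
  refine (norm_sum_le _ _).trans ?_
  calc ∑ i ∈ s, ‖∑ j ∈ s, (if i = j then 0 else C i * D j)‖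
      ≤ ∑ i ∈ s, ∑ j ∈ s, η := by
        refine Finset.sum_le_sum fun i hi => (norm_sum_le _ _).trans ?_
        refine Finset.sum_le_sum fun j hj => ?_
        split_ifs with h
        · rw [norm_zero]; exact hη
        · exact ho i hi j hj h
    _ = (s.card : ℝ) ^ 2 * η := by
        rw [Finset.sum_const, Finset.sum_const, nsmul_eq_mul, nsmul_eq_mul]; ring

/-- **ORTH (positive case).**  `S = ∑ E_k`, `E_k ≥ 0`, `‖E_k‖ ≤ M`, `‖E_k E_l‖ ≤ η` (`k ≠ l`):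
`‖S‖² = ‖S²‖ ≤ ‖∑ E_k²‖ + N² η ≤ M ‖S‖ + N² η` (as `E_k² ≤ M E_k`), so `‖S‖ ≤ M + N √η`. -/
theorem norm_sum_le_of_almost_orth_nonneg {ι : Type*} (s : Finset ι) (E : ι → A) {M η : ℝ}
    (hM : 0 ≤ M) (hη : 0 ≤ η) (hE : ∀ i ∈ s, 0 ≤ E i) (hEM : ∀ i ∈ s, ‖E i‖ ≤ M)
    (ho : ∀ i ∈ s, ∀ j ∈ s, i ≠ j → ‖E i * E j‖ ≤ η) :
    ‖∑ i ∈ s, E i‖ ≤ M + s.card * √η := by
  have hS0 : 0 ≤ ∑ i ∈ s, E i := Finset.sum_nonneg hE
  have hsa : star (∑ i ∈ s, E i) = ∑ i ∈ s, E i := (IsSelfAdjoint.of_nonneg hS0).star_eq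
  have h1 : ‖∑ i ∈ s, E i‖ * ‖∑ i ∈ s, E i‖ = ‖(∑ i ∈ s, E i) * (∑ i ∈ s, E i)‖ := by
    have h := CStarRing.norm_star_mul_self (x := ∑ i ∈ s, E i)
    rw [hsa] at h
    exact h.symm
  have h2 := OR_norm_double s E E hη ho
  have h3 : ‖∑ i ∈ s, E i * E i‖ ≤ M * ‖∑ i ∈ s, E i‖ := by
    have h4 : ∑ i ∈ s, E i * E i ≤ M • ∑ i ∈ s, E i := by
      rw [Finset.smul_sum]
      exact Finset.sum_le_sum fun i hi => OR_mul_self_le (hE i hi) (hEM i hi)
    have h5 : 0 ≤ ∑ i ∈ s, E i * E i := by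
      refine Finset.sum_nonneg fun i hi => ?_
      have := star_mul_self_nonneg (E i)
      rwa [(IsSelfAdjoint.of_nonneg (hE i hi)).star_eq] at this
    refine (norm_le_of_le h5 h4).trans ?_
    rw [norm_smul, Real.norm_of_nonneg hM]
  have h6 : ‖∑ i ∈ s, E i‖ * ‖∑ i ∈ s, E i‖ ≤ M * ‖∑ i ∈ s, E i‖ + ((s.card : ℝ) * √η) ^ 2 := by
    rw [h1, mul_pow, Real.sq_sqrt hη]
    exact h2.trans (add_le_add h3 le_rfl)
  by_contra hcon
  push Not at hcon
  have h7 : 0 ≤ (s.card : ℝ) * √η := by positivity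
  set t := ‖∑ i ∈ s, E i‖ with ht
  nlinarith

/-- **ORTH.** `T = ∑ D_k` with `‖D_k‖ ≤ M`, `‖D_k⋆ D_l‖ ≤ η`, `‖D_k D_l⋆‖ ≤ η` for `k ≠ l`:
`T⋆T = ∑ D_k⋆D_k + (error of norm ≤ N² η)`, apply the positive case to `E_k = D_k⋆ D_k`
(`‖E_k E_l‖ ≤ M² η`). -/
theorem norm_sum_sq_le_of_almost_orth {ι : Type*} (s : Finset ι) (D : ι → A) {M η : ℝ}
    (hM : 0 ≤ M) (hη : 0 ≤ η) (hDM : ∀ i ∈ s, ‖D i‖ ≤ M)
    (h₁ : ∀ i ∈ s, ∀ j ∈ s, i ≠ j → ‖star (D i) * D j‖ ≤ η)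
    (h₂ : ∀ i ∈ s, ∀ j ∈ s, i ≠ j → ‖D i * star (D j)‖ ≤ η) :
    ‖∑ i ∈ s, D i‖ ^ 2 ≤ M ^ 2 + s.card * (M * √η) + s.card ^ 2 * η := by
  have h1 : ‖∑ i ∈ s, D i‖ ^ 2 = ‖(∑ i ∈ s, star (D i)) * (∑ i ∈ s, D i)‖ := by
    rw [← star_sum, CStarRing.norm_star_mul_self, sq]
  have h2 := OR_norm_double s (fun i => star (D i)) D hη h₁
  have h3 := norm_sum_le_of_almost_orth_nonneg s (fun i => star (D i) * D i) (M := M ^ 2)
    (η := M ^ 2 * η) (by positivity) (by positivity) (fun i _ => star_mul_self_nonneg _)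
    (by
      intro i hi
      rw [CStarRing.norm_star_mul_self, sq]
      exact mul_le_mul (hDM i hi) (hDM i hi) (norm_nonneg _) hM)
    (by
      intro i hi j hj hij
      have e : star (D i) * D i * (star (D j) * D j) = star (D i) * (D i * star (D j)) * D j := by
        simp only [mul_assoc]
      rw [e]
      calc ‖star (D i) * (D i * star (D j)) * D j‖
          ≤ ‖star (D i)‖ * ‖D i * star (D j)‖ * ‖D j‖ :=
            (norm_mul_le _ _).trans (mul_le_mul_of_nonneg_right (norm_mul_le _ _) (norm_nonneg _))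
        _ ≤ M * η * M := by
            refine mul_le_mul (mul_le_mul ?_ (h₂ i hi j hj hij) (norm_nonneg _) hM) (hDM j hj)
              (norm_nonneg _) (by positivity)
            rw [norm_star]; exact hDM i hi
        _ = M ^ 2 * η := by ring)
  have h4 : √(M ^ 2 * η) = M * √η := by
    rw [Real.sqrt_mul (by positivity), Real.sqrt_sq hM]
  rw [h4] at h3
  rw [h1]
  linarith

end

end PIS
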