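import Crest.Agent.PIS_A2c
import Crest.Agent.PIS_X1

/-!
# S0145 blueprint, task PIS-P0 (splitting a block; definition of IsBands)

Replace the `sorry`s IN THIS FILE (do not change statements or names; helper lemmas are welcome, if they
are of general use put them in a new file `PIS_x*.lean`).  See `PIS_Defs.lean` for the definitions.
-/

set_option autoImplicit false

universe u

namespace PIS

section

variable {A : Type u} [NonUnitalCStarAlgebra A]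

/-- The data `P(n)`: cut-offs `w 0 = 0, w 1, …, w n`, blocks `g 0, …, g n`, bridges `h 1, …, h n`. -/
structure IsBands [PartialOrder A] [StarOrderedRing A] (b c g0 : A) (τ δ ε C : ℝ) (n : ℕ)
    (w g h : ℕ → A) : Prop where
  w_zero : w 0 = 0
  w_nonneg : ∀ i ≤ n, 0 ≤ w i
  w_norm : ∀ i ≤ n, ‖w i‖ ≤ 1
  w_dom : ∀ i ≤ n, Dom (cut τ b) (w i)
  w_mul : ∀ i j, i < j → j ≤ n → ‖w i - w j * w i‖ ≤ ε
  w_b : ∀ i ≤ n, ‖w i * b - b * w i‖ ≤ ε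
  w_c : ∀ i ≤ n, ‖w i * c - c * w i‖ ≤ ε
  g_nonneg : ∀ x ≤ n, 0 ≤ g x
  g_norm : ∀ x ≤ n, ‖g x‖ ≤ 1
  g_le : ∀ x ≤ n, g x ≤ C • g0
  g_full : ∀ (B : Type u) [NonUnitalCStarAlgebra B] (π : A →⋆ₙₐ[ℂ] B),
    (∀ x ≤ n, ‖π (g x)‖ ≤ 1/2) → ‖π g0‖ ≤ 1/2
  g_low : ∀ i x, i < x → x ≤ n → ‖w i * rt (g x)‖ ≤ ε
  g_high : ∀ i x, x + 2 ≤ i → i ≤ n → ‖rt (g x) - w i * rt (g x)‖ ≤ ε
  g_dom : ∀ x < n, Dom (cut τ b) (g x)
  h_nonneg : ∀ i, 1 ≤ i → i ≤ n → 0 ≤ h i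
  h_norm : ∀ i, 1 ≤ i → i ≤ n → ‖h i‖ ≤ 1
  h_le : ∀ i, 1 ≤ i → i ≤ n → h i ≤ (2 / τ) • b
  h_lk : ∀ i x, 1 ≤ i → i ≤ n → x ≤ n → lk (h i) c (g x) ≤ ε
  last : 1 ≤ n → ∀ (B : Type u) [NonUnitalCStarAlgebra B] (π : A →⋆ₙₐ[ℂ] B),
    ‖π (b - b * w n)‖ ≤ τ / 2 → ‖π (h n)‖ ≤ 1/2 → ‖π b‖ ≤ τ
  band : ∀ i, 1 ≤ i → i < n → ∀ (B : Type u) [NonUnitalCStarAlgebra B] (π : A →⋆ₙₐ[ℂ] B),
    ‖π (h i)‖ ≤ 1/2 → ‖π ((b - b * w i) * w (i + 1))‖ ^ 2 ≤ τ ^ 2 / 8 → ‖π b‖ ≤ τ + δ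

variable [PartialOrder A] [StarOrderedRing A]

/-- **P0.** Splitting a block.  `G = rt g`, `mid = rmp 0 (1/8) ((G w)(G w)⋆)`,
`out = rmp 0 (1/8) ((G - G w)(G - G w)⋆)`.
(`(Gw)(Gw)⋆ = G w² G ≤ g`, `(G-Gw)(G-Gw)⋆ = G (1-w)² G ≤ g`; `rmp 0 (1/8) t ≤ 8 t`; fullness: `‖π mid‖ ≤ 1/2` gives
`‖π (G w)‖² ≤ 1/16`, similarly `‖π (G - G w)‖ ≤ 1/4`, so `‖π G‖ ≤ 1/2`, `‖π g‖ ≤ 1/4`.) -/
theorem exists_split {g w b₁ : A} (hg : 0 ≤ g) (hw : 0 ≤ w) (hw1 : ‖w‖ ≤ 1) (hd : Dom b₁ w) :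
    ∃ mid out : A, 0 ≤ mid ∧ 0 ≤ out ∧ ‖mid‖ ≤ 1 ∧ ‖out‖ ≤ 1 ∧ mid ≤ (8 : ℝ) • g ∧
      out ≤ (8 : ℝ) • g ∧ Dom b₁ mid ∧
      (∀ (B : Type u) [NonUnitalCStarAlgebra B] (π : A →⋆ₙₐ[ℂ] B),
        ‖π mid‖ ≤ 1/2 → ‖π out‖ ≤ 1/2 → ‖π g‖ ≤ 1/2) ∧
      (∀ v : A, ‖v * rt mid‖ ≤ 3 * ‖v * rt g‖) ∧
      (∀ v : A, ‖v * rt out‖ ≤ 3 * ‖v * (rt g - rt g * w)‖) := by
  have hG := rt_mul_rt hg
  have hGs := star_rt g
  have hws : star w = w := (IsSelfAdjoint.of_nonneg hw).star_eq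
  have hG0 : 0 ≤ rt g := rt_nonneg g
  have hww : w * w ≤ w := mul_self_le hw hw1
  have hww0 : 0 ≤ w * w := by
    have := star_mul_self_nonneg w
    rwa [hws] at this
  have h8 : (1 : ℝ) / (1 / 8) = 8 := by norm_num
  have hsqrt : √(8 : ℝ) ≤ 3 := by
    rw [show (3 : ℝ) = √(3 ^ 2) by rw [Real.sqrt_sq (by norm_num)]]
    exact Real.sqrt_le_sqrt (by norm_num)
  -- the two products
  have hy1 : 0 ≤ (rt g * w) * star (rt g * w) := mul_star_self_nonneg _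
  have hy2 : 0 ≤ (rt g - rt g * w) * star (rt g - rt g * w) := mul_star_self_nonneg _
  have hy1le : (rt g * w) * star (rt g * w) ≤ g := by
    have h1 := conj_le_norm_smul hww0 (rt g)
    rw [hGs, hG] at h1
    have h2 : ‖w * w‖ ≤ 1 := (norm_mul_le _ _).trans (by nlinarith [norm_nonneg w])
    have h3 : ‖w * w‖ • g ≤ g := by
      have : 0 ≤ (1 - ‖w * w‖) • g := smul_nonneg' hg (by linarith)
      rw [sub_smul, one_smul] at this
      exact sub_nonneg.1 this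
    refine le_trans (le_of_eq ?_) (h1.trans h3)
    rw [star_mul, hws, hGs]
    simp only [mul_assoc]
  have hy2le : (rt g - rt g * w) * star (rt g - rt g * w) ≤ g := by
    have h1 : 0 ≤ w + (w - w * w) := add_nonneg hw (sub_nonneg.2 hww)
    have h2 := conj_nonneg' h1 (rt g)
    have h3 : (rt g - rt g * w) * star (rt g - rt g * w)
        = g - star (rt g) * (w + (w - w * w)) * rt g := by
      rw [star_sub, star_mul, hws, hGs]
      conv_rhs => rw [← hG]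
      rw [hG]
      conv_rhs => rw [← hG]
      simp only [mul_sub, sub_mul, mul_add, add_mul, mul_assoc, hG]
      abel
    rw [h3]
    exact sub_le_self _ h2
  have hmid8 : rmp 0 (1/8) ((rt g * w) * star (rt g * w)) ≤ (8 : ℝ) • ((rt g * w) * star (rt g * w)) := by
    have := rmp_le_smul (a := 0) (b := 1/8) le_rfl (by norm_num) hy1
    rwa [h8] at this
  have hout8 : rmp 0 (1/8) ((rt g - rt g * w) * star (rt g - rt g * w)) ≤
      (8 : ℝ) • ((rt g - rt g * w) * star (rt g - rt g * w)) := by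
    have := rmp_le_smul (a := 0) (b := 1/8) le_rfl (by norm_num) hy2
    rwa [h8] at this
  have hsm : ∀ x : A, x ≤ g → (8 : ℝ) • x ≤ (8 : ℝ) • g := by
    intro x hx
    have : 0 ≤ (8 : ℝ) • (g - x) := smul_nonneg' (sub_nonneg.2 hx) (by norm_num)
    rw [smul_sub] at this
    exact sub_nonneg.1 this
  refine ⟨rmp 0 (1/8) ((rt g * w) * star (rt g * w)),
    rmp 0 (1/8) ((rt g - rt g * w) * star (rt g - rt g * w)), rmp_nonneg _ _ _, rmp_nonneg _ _ _,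
    norm_rmp_le_one _ _ _, norm_rmp_le_one _ _ _, hmid8.trans (hsm _ hy1le),
    hout8.trans (hsm _ hy2le), ?_, ?_, ?_, ?_⟩
  · exact ((hd.mul_left (rt g)).mul_right _).cfcn (IsSelfAdjoint.of_nonneg hy1)
      (continuous_rampf _ _) (rampf_zero le_rfl (by norm_num))
  · intro B _ π hm ho
    have h1 := norm_map_le_of_norm_map_rmp_zero_le π (b := 1/8) (s := 1/2) (by norm_num)
      (by norm_num) hy1 hm
    have h2 := norm_map_le_of_norm_map_rmp_zero_le π (b := 1/8) (s := 1/2) (by norm_num)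
      (by norm_num) hy2 ho
    rw [norm_map_mul_star_self] at h1 h2
    have h3 : ‖π (rt g * w)‖ ≤ 1/4 := by nlinarith [norm_nonneg (π (rt g * w))]
    have h4 : ‖π (rt g - rt g * w)‖ ≤ 1/4 := by nlinarith [norm_nonneg (π (rt g - rt g * w))]
    have h5 : ‖π (rt g)‖ ≤ 1/2 := by
      have : π (rt g) = π (rt g * w) + π (rt g - rt g * w) := by
        rw [← map_add]; congr 1; abel
      rw [this]
      exact (norm_add_le _ _).trans (by linarith)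
    calc ‖π g‖ = ‖π (rt g) * π (rt g)‖ := by rw [← map_mul, hG]
      _ ≤ ‖π (rt g)‖ * ‖π (rt g)‖ := norm_mul_le _ _
      _ ≤ 1/2 := by nlinarith [norm_nonneg (π (rt g))]
  · intro v
    refine (norm_mul_rt_le (C := 8) (by norm_num) hg (rmp_nonneg _ _ _)
      (hmid8.trans (hsm _ hy1le)) v).trans ?_
    exact mul_le_mul_of_nonneg_right hsqrt (norm_nonneg _)
  · intro v
    refine (norm_mul_rt_le (C := 8) (by norm_num) hy2 (rmp_nonneg _ _ _) hout8 v).trans ?_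
    rw [norm_mul_rt_mul_star]
    exact mul_le_mul_of_nonneg_right hsqrt (norm_nonneg _)

end

end PIS
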