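import Crest.Agent.PIS_AU
import Crest.Agent.PIS_OR

/-!
# S0145 blueprint, task PIS-QC (quasi-central elements)

Replace the `sorry`s IN THIS FILE (do not change statements or names; helper lemmas are welcome, if they
are of general use put them in a new file `PIS_x*.lean`).  See `PIS_Defs.lean` for the definitions.
-/

set_option autoImplicit false
set_option linter.unusedSectionVars false

universe u

namespace PIS

section

variable {A : Type u} [NonUnitalCStarAlgebra A] [PartialOrder A] [StarOrderedRing A]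

lemma QC_dom_sum {ι : Type*} {b₁ : A} (s : Finset ι) (x : ι → A) (h : ∀ i ∈ s, Dom b₁ (x i)) :
    Dom b₁ (∑ i ∈ s, x i) := by
  intro B _ π hπ
  rw [map_sum]
  exact Finset.sum_eq_zero fun i hi => h i hi B π hπ

lemma QC_dom_smul {b₁ x : A} (r : ℝ) (h : Dom b₁ x) : Dom b₁ (r • x) := by
  intro B _ π hπ
  have h1 : r • x = (r : ℂ) • x := (Complex.coe_smul r x).symm
  rw [h1, map_smul, h B π hπ, smul_zero]

/-- approximate units inside the ideal -/
lemma QC_au {b₁ : A} (T : Finset A) (hT : ∀ z ∈ T, Dom b₁ z) {η : ℝ} (hη : 0 < η) :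
    ∃ w : A, 0 ≤ w ∧ ‖w‖ ≤ 1 ∧ Dom b₁ w ∧ ∀ z ∈ T, ‖z - w * z‖ ≤ η := by
  have hσ : 0 < η ^ 2 := by positivity
  refine ⟨sg (η ^ 2) (∑ z ∈ T, z * star z), sg_nonneg hσ _, norm_sg_le_one hσ _, ?_, ?_⟩
  · refine Dom.cfcn (QC_dom_sum T _ fun z hz => (hT z hz).mul_right _) ?_ (continuous_sgf hσ)
      (sgf_zero _)
    rw [isSelfAdjoint_iff, star_sum]
    exact Finset.sum_congr rfl fun z _ => by rw [star_mul, star_star]
  · intro z hz
    have h := norm_sub_sg_mul_sq_le T (fun z : A => z) hσ hz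
    exact (sq_le_sq₀ (norm_nonneg _) hη.le).1 h

lemma QC_comm_mul {x y g : A} {η F : ℝ} (hF : ‖g‖ ≤ F)
    (h1 : ‖x - y * x‖ ≤ η) (h2 : ‖g * x - y * (g * x)‖ ≤ η) :
    ‖(y * g - g * y) * x‖ ≤ (1 + F) * η := by
  have e : (y * g - g * y) * x = g * (x - y * x) - (g * x - y * (g * x)) := by
    simp only [sub_mul, mul_sub, mul_assoc]; abel
  rw [e]
  refine (norm_sub_le _ _).trans ?_
  have h3 : ‖g * (x - y * x)‖ ≤ F * η :=
    (norm_mul_le _ _).trans (mul_le_mul hF h1 (norm_nonneg _) ((norm_nonneg _).trans hF))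
  linarith

lemma QC_mul_comm {x y g : A} {η F : ℝ} (hF : ‖g‖ ≤ F) (hη : 0 ≤ η)
    (h1 : ‖x - y * x‖ ≤ η) (h2 : ‖g * x - y * (g * x)‖ ≤ η) :
    ‖(x * g - g * x) - y * (x * g - g * x)‖ ≤ (1 + F) * η := by
  have e : (x * g - g * x) - y * (x * g - g * x) = (x - y * x) * g - (g * x - y * (g * x)) := by
    simp only [sub_mul, mul_sub, mul_assoc]; abel
  rw [e]
  refine (norm_sub_le _ _).trans ?_
  have h3 : ‖(x - y * x) * g‖ ≤ η * F :=
    (norm_mul_le _ _).trans (mul_le_mul h1 hF (norm_nonneg _) hη)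
  linarith

lemma QC_norm_comm_le {w g : A} {F : ℝ} (hw : ‖w‖ ≤ 1) (hF : ‖g‖ ≤ F) :
    ‖w * g - g * w‖ ≤ 2 * F := by
  have hF0 : 0 ≤ F := (norm_nonneg _).trans hF
  have h1 : ‖w * g‖ ≤ 1 * F :=
    (norm_mul_le _ _).trans (mul_le_mul hw hF (norm_nonneg _) zero_le_one)
  have h2 : ‖g * w‖ ≤ F * 1 :=
    (norm_mul_le _ _).trans (mul_le_mul hF hw (norm_nonneg _) hF0)
  refine (norm_sub_le _ _).trans ?_
  linarith

/-- product of commutators with a middle element -/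
lemma QC_prod {x y z g g' : A} {η F : ℝ} (hη : 0 ≤ η) (hF : ‖g‖ ≤ F) (hF' : ‖g'‖ ≤ F)
    (hx : ‖x‖ ≤ 1) (hz : ‖z‖ ≤ 1)
    (h1 : ‖x - y * x‖ ≤ η) (h2 : ‖g * x - y * (g * x)‖ ≤ η)
    (h3 : ‖y - z * y‖ ≤ η) (h4 : ‖g' * y - z * (g' * y)‖ ≤ η) :
    ‖(z * g' - g' * z) * (x * g - g * x)‖ ≤ 4 * F * (1 + F) * η := by
  have hF0 : 0 ≤ F := (norm_nonneg _).trans hF
  have a1 := QC_mul_comm hF hη h1 h2
  have a2 := QC_comm_mul hF' h3 h4
  have a3 := QC_norm_comm_le hx hF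
  have a4 := QC_norm_comm_le hz hF'
  have e : (z * g' - g' * z) * (x * g - g * x) =
      (z * g' - g' * z) * ((x * g - g * x) - y * (x * g - g * x)) +
        ((z * g' - g' * z) * y) * (x * g - g * x) := by
    have e0 : ∀ a b c : A, a * b = a * (b - c * b) + (a * c) * b := by
      intro a b c
      rw [mul_sub, mul_assoc, sub_add_cancel]
    exact e0 _ _ _
  rw [e]
  refine (norm_add_le _ _).trans ?_
  have b1 : ‖(z * g' - g' * z) * ((x * g - g * x) - y * (x * g - g * x))‖ ≤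
      (2 * F) * ((1 + F) * η) :=
    (norm_mul_le _ _).trans (mul_le_mul a4 a1 (norm_nonneg _) (by positivity))
  have b2 : ‖((z * g' - g' * z) * y) * (x * g - g * x)‖ ≤ ((1 + F) * η) * (2 * F) :=
    (norm_mul_le _ _).trans (mul_le_mul a2 a3 (norm_nonneg _) (by positivity))
  calc _ ≤ (2 * F) * ((1 + F) * η) + ((1 + F) * η) * (2 * F) := add_le_add b1 b2
    _ = 4 * F * (1 + F) * η := by ring

lemma QC_sum_even_odd (D : ℕ → A) (n : ℕ) :
    ∑ m ∈ Finset.range (2 * n), D m =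
      ∑ k ∈ Finset.range n, D (2 * k) + ∑ k ∈ Finset.range n, D (2 * k + 1) := by
  induction n with
  | zero => simp
  | succ n ih =>
    rw [show 2 * (n + 1) = 2 * n + 1 + 1 by ring, Finset.sum_range_succ, Finset.sum_range_succ, ih,
      Finset.sum_range_succ, Finset.sum_range_succ]
    abel

/-- the commutator estimate -/
lemma QC_comm_bound {w : ℕ → A} {f : A} {η F δ : ℝ} {n : ℕ} (hη : 0 ≤ η) (hF : ‖f‖ ≤ F)
    (hw0 : ∀ m, 0 ≤ w m) (hw1 : ∀ m, ‖w m‖ ≤ 1)
    (h1 : ∀ l m, l < m → ‖w l - w m * w l‖ ≤ η)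
    (h2 : ∀ l m, l < m → ‖f * w l - w m * (f * w l)‖ ≤ η)
    (h3 : ∀ l m, l < m → ‖star f * w l - w m * (star f * w l)‖ ≤ η)
    (hδ0 : 0 ≤ δ) (hδ : 4 * F * (1 + F) * η ≤ δ ^ 2)
    (hδ1 : n * ((2 * F) * δ) + n ^ 2 * δ ^ 2 ≤ 1) (c : ℕ) :
    ‖∑ k ∈ Finset.range n, (w (2 * k + c) * f - f * w (2 * k + c))‖ ≤ 2 * F + 1 := by
  have hF0 : 0 ≤ F := (norm_nonneg _).trans hF
  have hFs : ‖star f‖ ≤ F := by rw [norm_star]; exact hF
  have hsa : ∀ m, star (w m) = w m := fun m => (IsSelfAdjoint.of_nonneg (hw0 m)).star_eq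
  have hst : ∀ m, star (w m * f - f * w m) = -(w m * star f - star f * w m) := by
    intro m
    rw [star_sub, star_mul, star_mul, hsa]; abel
  -- main product estimates for l < m in the family
  have key1 : ∀ i j : ℕ, i < j → ‖star (w (2 * j + c) * f - f * w (2 * j + c)) *
      (w (2 * i + c) * f - f * w (2 * i + c))‖ ≤ δ ^ 2 := by
    intro i j hij
    rw [hst, neg_mul, norm_neg]
    refine le_trans ?_ hδ
    exact QC_prod (y := w (2 * i + c + 1)) hη hF hFs (hw1 _) (hw1 _) (h1 _ _ (by omega))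
      (h2 _ _ (by omega)) (h1 _ _ (by omega)) (h3 _ _ (by omega))
  have key2 : ∀ i j : ℕ, i < j → ‖(w (2 * j + c) * f - f * w (2 * j + c)) *
      star (w (2 * i + c) * f - f * w (2 * i + c))‖ ≤ δ ^ 2 := by
    intro i j hij
    rw [hst, mul_neg, norm_neg]
    refine le_trans ?_ hδ
    exact QC_prod (y := w (2 * i + c + 1)) hη hFs hF (hw1 _) (hw1 _) (h1 _ _ (by omega))
      (h3 _ _ (by omega)) (h1 _ _ (by omega)) (h2 _ _ (by omega))
  have hmain := norm_sum_sq_le_of_almost_orth (Finset.range n)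
    (fun k => w (2 * k + c) * f - f * w (2 * k + c)) (M := 2 * F) (η := δ ^ 2)
    (by positivity) (by positivity) (fun k _ => QC_norm_comm_le (hw1 _) hF)
    (by
      intro i _ j _ hij
      rcases lt_or_gt_of_ne hij with h | h
      · have := key1 i j h
        rw [← norm_star, star_mul, star_star] at this
        exact this
      · exact key1 j i h)
    (by
      intro i _ j _ hij
      rcases lt_or_gt_of_ne hij with h | h
      · have := key2 i j h
        rw [← norm_star, star_mul, star_star] at this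
        exact this
      · exact key2 j i h)
  rw [Finset.card_range, Real.sqrt_sq hδ0] at hmain
  refine (sq_le_sq₀ (norm_nonneg _) (by positivity)).1 (hmain.trans ?_)
  nlinarith

/-- **QCL.** Quasi-central approximate units for the closed ideal `J = {x | Dom b₁ x}`.

Proof.  WLOG `{f j}` is closed under `star` (replace it by `f j` and `star (f j)`), `F ≥ ‖f j‖`.
Choose `N` with `(4 F + 2) / N ≤ ν` hmm (see below), then a tiny `η`.  Recursively choose
`w_1, …, w_N ∈ J`, `0 ≤ w_m ≤ 1`, each of the form `sg σ (∑ z z⋆)` (`norm_sub_sg_mul_sq_le`) with `z` ranging over the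
finite list `k i`, `w_l`, `f j * w_l`, `star (f j) * w_l` (`l < m`), all in `J`: so
`‖w_m w_l - w_l‖ ≤ η`, `‖w_m f w_l - f w_l‖ ≤ η` for `f ∈ {f j, star (f j)}`, `l < m`, and `‖k i - w_m k i‖ ≤ η`.
(`sg σ x ∈ J` because `⋆`-homs commute with `sg`, `Dom.cfcn`.)
Put `w = (1/N) ∑ w_m`.  Then `0 ≤ w ≤ 1`, `Dom b₁ w`, `‖k i - w k i‖ ≤ η`.
Commutators `D_m = w_m f - f w_m` (`f = f j`): for `l < m`,
`D_m w_l ≈ 0` (`w_m f w_l ≈ f w_l ≈ f w_m w_l`), `w_m D_l ≈ D_l` and `D_l w_m ≈ D_l` (use also the adjoint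
relations), within `4 η (F + 1)` or so, so for `m ≥ l + 2`:
`D_m D_l ≈ D_m w_{l+1} D_l ≈ 0`, similarly for `D_m⋆ D_l`, `D_m D_l⋆`, … (the family of the `D_m` for `f` and
for `star f` are related by `D_m(f)⋆ = - D_m(f⋆)`).
By `norm_sum_sq_le_of_almost_orth` applied to the even and to the odd indices,
`‖∑ D_m‖ ≤ 2 (2 F + 1)` for `η` tiny, so `‖[w, f]‖ ≤ (4 F + 2) / N ≤ ν`. -/
theorem exists_quasicentral {b₁ : A} {ι κ : Type*} (s : Finset ι) (k : ι → A)
    (hk : ∀ i ∈ s, Dom b₁ (k i)) (t : Finset κ) (f : κ → A) {ν : ℝ} (hν : 0 < ν) :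
    ∃ w : A, 0 ≤ w ∧ ‖w‖ ≤ 1 ∧ Dom b₁ w ∧ (∀ i ∈ s, ‖k i - w * k i‖ ≤ ν) ∧
      ∀ j ∈ t, ‖w * f j - f j * w‖ ≤ ν := by
  classical
  -- bound F
  obtain ⟨F, hF0, hF⟩ : ∃ F : ℝ, 0 ≤ F ∧ ∀ j ∈ t, ‖f j‖ ≤ F :=
    ⟨∑ j ∈ t, ‖f j‖, Finset.sum_nonneg fun _ _ => norm_nonneg _, fun j hj =>
      Finset.single_le_sum (f := fun j => ‖f j‖) (fun _ _ => norm_nonneg _) hj⟩
  -- number of elements `2 n`
  obtain ⟨n, hn⟩ := exists_nat_ge ((2 * F + 1) / ν)
  have hn0 : 0 < (n : ℝ) := lt_of_lt_of_le (by positivity) hn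
  have hnν : (2 * F + 1) ≤ ν * n := by
    rw [div_le_iff₀ hν] at hn; linarith
  set δ : ℝ := 1 / (n * (2 * F + n) + 1) with hδdef
  have hden : 0 < (n : ℝ) * (2 * F + n) + 1 := by positivity
  have hδ0 : 0 < δ := by positivity
  have hδ1 : δ ≤ 1 := by
    rw [hδdef, div_le_one hden]
    have : 0 ≤ (n : ℝ) * (2 * F + n) := by positivity
    linarith
  have hδ2 : n * ((2 * F) * δ) + n ^ 2 * δ ^ 2 ≤ 1 := by
    have h1 : (n : ℝ) ^ 2 * δ ^ 2 ≤ (n : ℝ) ^ 2 * δ := by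
      refine mul_le_mul_of_nonneg_left ?_ (by positivity)
      nlinarith
    have h2 : (n * (2 * F + n) + 1) * δ = 1 := by
      rw [hδdef]; field_simp
    nlinarith
  set η : ℝ := min ν (δ ^ 2 / (4 * F * (1 + F) + 1)) with hηdef
  have hη : 0 < η := lt_min hν (by positivity)
  have hην : η ≤ ν := min_le_left _ _
  have hηδ : 4 * F * (1 + F) * η ≤ δ ^ 2 := by
    have h1 : η ≤ δ ^ 2 / (4 * F * (1 + F) + 1) := min_le_right _ _
    have h2 : 0 < 4 * F * (1 + F) + 1 := by positivity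
    rw [le_div_iff₀ h2] at h1
    nlinarith
  -- the sequence
  obtain ⟨w, hw, hwr⟩ := exists_seq_of_forall_finset_exists
    (fun w : A => (0 ≤ w ∧ ‖w‖ ≤ 1 ∧ Dom b₁ w) ∧ ∀ i ∈ s, ‖k i - w * k i‖ ≤ η)
    (fun x y : A => ‖x - y * x‖ ≤ η ∧ ∀ j ∈ t, ‖f j * x - y * (f j * x)‖ ≤ η ∧
      ‖star (f j) * x - y * (star (f j) * x)‖ ≤ η)
    (by
      intro S hS
      obtain ⟨w, h0, h1, h2, h3⟩ := QC_au (b₁ := b₁)
        (s.image k ∪ S ∪ (t ×ˢ S).image (fun q => f q.1 * q.2) ∪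
          (t ×ˢ S).image (fun q => star (f q.1) * q.2))
        (by
          intro z hz
          simp only [Finset.mem_union, Finset.mem_image, Finset.mem_product] at hz
          rcases hz with ((⟨i, hi, rfl⟩ | hz) | ⟨q, hq, rfl⟩) | ⟨q, hq, rfl⟩
          · exact hk i hi
          · exact (hS z hz).1.2.2
          · exact (hS q.2 hq.2).1.2.2.mul_left _
          · exact (hS q.2 hq.2).1.2.2.mul_left _) hη
      refine ⟨w, ⟨⟨h0, h1, h2⟩, fun i hi => h3 _ ?_⟩, fun x hx => ⟨h3 _ ?_, fun j hj =>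
        ⟨h3 _ ?_, h3 _ ?_⟩⟩⟩
      · simp only [Finset.mem_union, Finset.mem_image, Finset.mem_product]
        exact Or.inl (Or.inl (Or.inl ⟨i, hi, rfl⟩))
      · simp only [Finset.mem_union, Finset.mem_image, Finset.mem_product]
        exact Or.inl (Or.inl (Or.inr hx))
      · simp only [Finset.mem_union, Finset.mem_image, Finset.mem_product]
        exact Or.inl (Or.inr ⟨(j, x), ⟨hj, hx⟩, rfl⟩)
      · simp only [Finset.mem_union, Finset.mem_image, Finset.mem_product]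
        exact Or.inr ⟨(j, x), ⟨hj, hx⟩, rfl⟩)
  have hN0 : 0 < (2 * (n : ℝ)) := by positivity
  refine ⟨(1 / (2 * (n : ℝ))) • ∑ m ∈ Finset.range (2 * n), w m, ?_, ?_, ?_, ?_, ?_⟩
  · exact smul_nonneg' (Finset.sum_nonneg fun m _ => (hw m).1.1) (by positivity)
  · rw [norm_smul, Real.norm_of_nonneg (by positivity)]
    have h1 : ‖∑ m ∈ Finset.range (2 * n), w m‖ ≤ 2 * n := by
      refine (norm_sum_le _ _).trans ?_
      refine (Finset.sum_le_sum fun m _ => (hw m).1.2.1).trans ?_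
      simp
    rw [one_div, inv_mul_le_iff₀ hN0, mul_one]
    exact h1
  · exact QC_dom_smul _ (QC_dom_sum _ _ fun m _ => (hw m).1.2.2)
  · intro i hi
    have e : k i - (1 / (2 * (n : ℝ))) • (∑ m ∈ Finset.range (2 * n), w m) * k i =
        (1 / (2 * (n : ℝ))) • ∑ m ∈ Finset.range (2 * n), (k i - w m * k i) := by
      rw [Finset.sum_sub_distrib, Finset.sum_const, Finset.card_range, smul_sub, smul_mul_assoc,
        Finset.sum_mul]
      congr 1
      rw [← Nat.cast_smul_eq_nsmul ℝ, smul_smul]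
      push_cast
      rw [one_div, inv_mul_cancel₀ hN0.ne', one_smul]
    rw [e, norm_smul, Real.norm_of_nonneg (by positivity), one_div, inv_mul_le_iff₀ hN0]
    refine (norm_sum_le _ _).trans ?_
    refine (Finset.sum_le_sum fun m _ => ((hw m).2 i hi).trans hην).trans ?_
    simp
  · intro j hj
    have hb := fun c => QC_comm_bound (w := w) (f := f j) (n := n) hη.le (hF j hj)
      (fun m => (hw m).1.1) (fun m => (hw m).1.2.1) (fun l m h => (hwr l m h).1)
      (fun l m h => ((hwr l m h).2 j hj).1) (fun l m h => ((hwr l m h).2 j hj).2)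
      hδ0.le hηδ hδ2 c
    have e : (1 / (2 * (n : ℝ))) • (∑ m ∈ Finset.range (2 * n), w m) * f j -
        f j * (1 / (2 * (n : ℝ))) • (∑ m ∈ Finset.range (2 * n), w m) =
        (1 / (2 * (n : ℝ))) • ∑ m ∈ Finset.range (2 * n), (w m * f j - f j * w m) := by
      rw [Finset.sum_sub_distrib, smul_sub, smul_mul_assoc, mul_smul_comm, Finset.sum_mul,
        Finset.mul_sum]
    rw [e, norm_smul, Real.norm_of_nonneg (by positivity), one_div, inv_mul_le_iff₀ hN0,
      QC_sum_even_odd]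
    refine (norm_add_le _ _).trans ?_
    have h0 := hb 0
    have h1 := hb 1
    simp only [add_zero] at h0
    linarith

end

end PIS
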