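import Crest.Agent.PIS_L1

/-!
# S0145 blueprint, task PIS-S1 (repairing fullness)

Replace the `sorry`s IN THIS FILE (do not change statements or names; helper lemmas are welcome, if they
are of general use put them in a new file `PIS_x*.lean`).  See `PIS_Defs.lean` for the definitions.
-/

set_option autoImplicit false

universe u

namespace PIS

section

variable {A : Type u} [NonUnitalCStarAlgebra A] [PartialOrder A] [StarOrderedRing A]

/-- **S1.** Repairing fullness.  Proof.  `cz_of_dom` gives `X` with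
`‖X⋆ (D + cut (1/2) g₁) X - cut (1/4) g‖ ≤ 1/128`; `Y = rmp 0 (1/32) (X⋆ D X)`.
`Dom D Y` is clear.  Let `‖π (g₁ + e Y² e)‖ ≤ 1/2` (`e = rmp (1/64) (1/32) g`).  Then `‖π g₁‖ ≤ 1/2`, so
`π (cut (1/2) g₁) = 0`, `‖t - a‖ ≤ 1/128` for `t = π (X⋆DX)`, `a = π (cut (1/4) g)`, and `‖π (Y e)‖² ≤ 1/2`.
`‖t - Y t‖ ≤ 1/128` (`norm_sub_rmp_mul_le`), so `‖a - Y a‖ ≤ 2/128 + 1/128`; but `Y a = Y e a`
(`e a = a`), `‖Y e a‖ ≤ √(1/2) ‖a‖ ≤ 0.71 ‖a‖`.  So `‖a‖ ≤ (3/128) / 0.29 < 1/4`, and so `‖π g‖ ≤ 1/2`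
(`norm_cut`). -/
theorem exists_full_fix (hA : PI A) {g g₁ D : A} (hg : 0 ≤ g) (hg₁ : 0 ≤ g₁) (hD : 0 ≤ D)
    (hdom : Dom (D + cut (1/2) g₁) (cut (1/4) g)) :
    ∃ Y : A, 0 ≤ Y ∧ ‖Y‖ ≤ 1 ∧ Dom D Y ∧
      Full (1/2) (g₁ + rmp (1/64) (1/32) g * (Y * Y) * rmp (1/64) (1/32) g) (1/2) g := by
  obtain ⟨X, hX⟩ := cz_of_dom hA (add_nonneg hD (cut_nonneg (1/2) g₁)) (cut_nonneg (1/4) g) hdom
    (1/128) (by norm_num)
  have hXDX : 0 ≤ star X * D * X := conj_nonneg' hD X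
  refine ⟨rmp 0 (1/32) (star X * D * X), rmp_nonneg _ _ _, norm_rmp_le_one _ _ _,
    Dom.cfcn (((Dom.refl D).mul_left (star X)).mul_right X) (IsSelfAdjoint.of_nonneg hXDX)
      (continuous_rampf _ _) (rampf_zero le_rfl (by norm_num)), ?_⟩
  intro B _ π hπ
  let _ : PartialOrder B := CStarAlgebra.spectralOrder B
  have _ : StarOrderedRing B := CStarAlgebra.spectralOrderedRing B
  set Y : A := rmp 0 (1/32) (star X * D * X) with hYdef
  set e : A := rmp (1/64) (1/32) g with hedef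
  have hYsa : star Y = Y := star_rmp _ _ _
  have hesa : star e = e := star_rmp _ _ _
  have hYY : e * (Y * Y) * e = star (Y * e) * (Y * e) := by
    rw [star_mul, hYsa, hesa]; simp only [mul_assoc]
  have hπg₁ : 0 ≤ π g₁ := map_nonneg' π hg₁
  have hπe : π (e * (Y * Y) * e) = star (π (Y * e)) * π (Y * e) := by
    rw [hYY, map_mul, map_star]
  have hπe0 : 0 ≤ π (e * (Y * Y) * e) := by rw [hπe]; exact star_mul_self_nonneg _
  rw [map_add] at hπ
  have h1 : ‖π g₁‖ ≤ 1/2 :=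
    (norm_le_of_le hπg₁ (le_add_of_nonneg_right hπe0)).trans hπ
  have h2 : ‖π (e * (Y * Y) * e)‖ ≤ 1/2 :=
    (norm_le_of_le hπe0 (le_add_of_nonneg_left hπg₁)).trans hπ
  have h3 : ‖π (Y * e)‖ ≤ 0.71 := by
    rw [hπe, CStarRing.norm_star_mul_self] at h2
    nlinarith [norm_nonneg (π (Y * e))]
  have hcut : π (cut (1/2) g₁) = 0 := by
    rw [map_cut π (by norm_num) (IsSelfAdjoint.of_nonneg hg₁)]
    exact (cut_eq_zero_iff (by norm_num) hπg₁).2 h1
  set t : B := π (star X * D * X) with htdef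
  set a : B := π (cut (1/4) g) with hadef
  have hta : ‖t - a‖ ≤ 1/128 := by
    have e1 : t - a = π (star X * (D + cut (1/2) g₁) * X - cut (1/4) g) := by
      have : star X * (D + cut (1/2) g₁) * X = star X * D * X + star X * cut (1/2) g₁ * X := by
        noncomm_ring
      rw [this, map_sub, map_add, map_mul π (star X * cut (1/2) g₁) X,
        map_mul π (star X) (cut (1/2) g₁), hcut, mul_zero, zero_mul, add_zero]
    rw [e1]
    exact (norm_map_le π _).trans hX.le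
  have ht0 : 0 ≤ t := map_nonneg' π hXDX
  have hπY : π Y = rmp 0 (1/32) t :=
    map_rmp π le_rfl (by norm_num) (IsSelfAdjoint.of_nonneg hXDX)
  have hYt : ‖t - π Y * t‖ ≤ 1/128 := by
    rw [hπY]
    exact (norm_sub_rmp_mul_le (by norm_num) ht0).trans (by norm_num)
  have hY1 : ‖π Y‖ ≤ 1 := (norm_map_le π _).trans (norm_rmp_le_one _ _ _)
  have haY : ‖a - π Y * a‖ ≤ 3/128 := by
    have e2 : a - π Y * a = -(t - a) + (t - π Y * t) + π Y * (t - a) := by
      noncomm_ring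
    rw [e2]
    have h4 : ‖π Y * (t - a)‖ ≤ 1 * (1/128) :=
      (norm_mul_le _ _).trans (mul_le_mul hY1 hta (norm_nonneg _) zero_le_one)
    calc _ ≤ ‖-(t - a) + (t - π Y * t)‖ + ‖π Y * (t - a)‖ := norm_add_le _ _
      _ ≤ (‖-(t - a)‖ + ‖t - π Y * t‖) + ‖π Y * (t - a)‖ := by gcongr; exact norm_add_le _ _
      _ ≤ (1/128 + 1/128) + 1 * (1/128) := by rw [norm_neg]; gcongr
      _ = 3/128 := by norm_num
  have hYa : π Y * a = π (Y * e) * a := by
    have h5 : e * cut (1/4) g = cut (1/4) g :=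
      rmp_mul_cut (by norm_num) (by norm_num) (by norm_num) (IsSelfAdjoint.of_nonneg hg)
    rw [hadef, ← map_mul, ← map_mul, mul_assoc, h5]
  have hYa' : ‖π Y * a‖ ≤ 0.71 * ‖a‖ := by
    rw [hYa]
    exact (norm_mul_le _ _).trans (by gcongr)
  have ha : ‖a‖ ≤ 3/128 + 0.71 * ‖a‖ := by
    calc ‖a‖ = ‖(a - π Y * a) + π Y * a‖ := by rw [sub_add_cancel]
      _ ≤ ‖a - π Y * a‖ + ‖π Y * a‖ := norm_add_le _ _
      _ ≤ _ := add_le_add haY hYa'
  have ha' : a = cut (1/4) (π g) := map_cut π (by norm_num) (IsSelfAdjoint.of_nonneg hg)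
  have hn : ‖a‖ = max 0 (‖π g‖ - 1/4) := by
    rw [ha', norm_cut (by norm_num) (map_nonneg' π hg)]
  have hle : ‖π g‖ - 1/4 ≤ ‖a‖ := by rw [hn]; exact le_max_right _ _
  norm_num at ha
  linarith

end

end PIS
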