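import Crest.Agent.PIS_G7
import Crest.Agent.PIS_S1
import Crest.Agent.PIS_AU
import Crest.Agent.PIS_X1

set_option autoImplicit false
set_option linter.style.haveILetI false

universe u

namespace PIS

section

variable {A : Type u} [NonUnitalCStarAlgebra A] [PartialOrder A] [StarOrderedRing A]

lemma conj_contraction_le {e s : A} (he0 : 0 ≤ e) (he1 : ‖e‖ ≤ 1) (hs0 : 0 ≤ s) (hs1 : ‖s‖ ≤ 1) :
    e * s * e ≤ e := by
  have he : star e = e := (IsSelfAdjoint.of_nonneg he0).star_eq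
  have h1 : star e * s * e ≤ ‖s‖ • (star e * e) := conj_le_norm_smul hs0 e
  rw [he] at h1
  have h2 : ‖s‖ • (e * e) ≤ (1 : ℝ) • (e * e) := by
    have h0 : 0 ≤ (1 - ‖s‖) • (e * e) := by
      apply smul_nonneg' _ (by linarith)
      have := mul_star_self_nonneg e
      rwa [he] at this
    rw [sub_smul] at h0
    exact sub_nonneg.mp h0
  rw [one_smul] at h2
  exact (h1.trans h2).trans (mul_self_le he0 he1)

lemma le_of_conj_one_sub {h₁ u : A} (h0 : 0 ≤ h₁) (hu0 : 0 ≤ u) (hu1 : ‖u‖ ≤ 1) :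
    (rt h₁ - rt h₁ * u) * star (rt h₁ - rt h₁ * u) ≤ h₁ := by
  have hu : star u = u := (IsSelfAdjoint.of_nonneg hu0).star_eq
  have hkey : h₁ - (rt h₁ - rt h₁ * u) * star (rt h₁ - rt h₁ * u) =
      rt h₁ * (u + (u - u * u)) * star (rt h₁) := by
    conv_lhs => rw [← rt_mul_rt h0]
    have e1 : rt (rt h₁ * rt h₁) = rt h₁ := by rw [rt_mul_rt h0]
    rw [e1, star_sub, star_mul, hu, star_rt]
    noncomm_ring
  have : 0 ≤ rt h₁ * (u + (u - u * u)) * star (rt h₁) := by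
    have h2 : 0 ≤ u + (u - u * u) :=
      add_nonneg hu0 (sub_nonneg.mpr (mul_self_le hu0 hu1))
    have h3 := conj_nonneg' h2 (star (rt h₁))
    rwa [star_star] at h3
  rw [← hkey] at this
  exact sub_nonneg.mp this

/-- **S2 (stage lemma).**  Proof.  `T = b - b w`, `D = cut (τ²/4) (T T⋆)` (`π D = 0 ↔ ‖π T‖ ≤ τ/2`).
`exists_quot_dom D`: surjective `π₀ : A → B` with kernel `{x | Dom D x}`; `PI B` (`PI.quot`).
In `B`: `Dom (cut τ (π₀ b)) (cut (τ/2) (π₀ b))`: if `ρ : B → E` kills the first then `ρπ₀` kills `cut τ b`, hence `w`,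
hence `‖ρπ₀ b‖ = ‖ρπ₀ T‖ ≤ ‖π₀ T‖ ≤ τ/2`.
`exists_proj` (`κ₁ = τ`, `κ₂ = τ/2`): projection `p ∈ B`, `rmp (τ/4) (τ/2) (π₀ b) * p = p`, `Dom p (cut τ (π₀ b))`.
`exists_gap_family` in `B` for `π₀ c`, `π₀ (g x)`, `p`, `ε/4`: `ĝ x`, `ĥ` (in `B`).
Lifts (`exists_lift_nonneg`): `s x ↦ ĝ x`, `s' ↦ ĥ`, contractions `≥ 0`; `e x = rmp (1/64) (1/32) (g x)`,
`g₁ x = e x * s x * e x` (so `π₀ (g₁ x) = ĝ x`, `g₁ x ≤ (e x)² ≤ e x ≤ 32 g x`); `ϑ = rmp (τ/4) (τ/2) b`, `h₁ = ϑ s' ϑ`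
(so `π₀ h₁ = ĥ`, because `ϑ p = p`, `p ĥ = ĥ`; `h₁ ≤ ϑ ≤ (2/τ) b`).
`Dom (D + cut (1/2) (g₁ x)) (cut (1/4) (g x))`: a `ρ : A → E` killing both summands factors through `π₀`
(`exists_factor`), `ρ = ρ'π₀`, `‖ρ' (ĝ x)‖ ≤ 1/2`, so by `Full (1/2) (ĝ x) (1/4) (π₀ (g x))`, `‖ρ (g x)‖ ≤ 1/4`.
`exists_full_fix`: `Y x` with `π₀ (Y x) = 0`.  `g' x = rmp 0 1 (g₁ x + e x (Y x)² e x)`
(`≤ g₁ x + e (Y x)² e ≤ 2 e x ≤ 64 g x`; `Full (1/2) (g' x) (1/2) (g x)` since `‖rmp 0 1 t‖ ≤ 1/2` implies `‖t‖ ≤ 1/2`).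
`exists_au` for `π₀` and the elements `rt h₁ * c * rt (g₁ x)`, `rt h₁ * c * (e x * Y x)` (`x < n`) with `ε/4`: `u`.
`h = Z Z⋆`, `Z = rt h₁ - rt h₁ * u`, so `h ≤ h₁`, `‖rt h * y‖ = ‖Z⋆ y‖ = ‖(1-u) rt h₁ y‖` and
`lk h c (g' x)² ≤ ‖(1-u) rt h₁ c rt (g₁ x)‖² + ‖(1-u) rt h₁ c e x Y x‖² ≤ (lk ĥ (π₀ c) (ĝ x) + ε/4)² + (ε/4)² ≤ ε²`.
Last property: `‖π T‖ ≤ τ/2` gives `π D = 0`, so `π = π' π₀` and `π u = 0`, `π h = π' ĥ`, `‖π' ĥ‖ ≤ 1/2`, `π' p = 0`,
`π' (cut τ (π₀ b)) = 0`, `‖π b‖ ≤ τ`. -/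
theorem exists_stage (hA : PI A) {b w c : A} (hb : 0 ≤ b) (hb1 : ‖b‖ ≤ 1) (hc : ‖c‖ ≤ 1) {τ : ℝ}
    (hτ : 0 < τ) (hdom : Dom (cut τ b) w) (n : ℕ) (g : ℕ → A) (hg : ∀ x, 0 ≤ g x) {ε : ℝ}
    (hε : 0 < ε) :
    ∃ (g' : ℕ → A) (h : A),
      (∀ x < n, 0 ≤ g' x ∧ ‖g' x‖ ≤ 1 ∧ g' x ≤ (64 : ℝ) • g x ∧ Full (1/2) (g' x) (1/2) (g x) ∧
        lk h c (g' x) ≤ ε) ∧
      0 ≤ h ∧ ‖h‖ ≤ 1 ∧ h ≤ (2 / τ) • b ∧
      ∀ (B : Type u) [NonUnitalCStarAlgebra B] (π : A →⋆ₙₐ[ℂ] B),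
        ‖π (b - b * w)‖ ≤ τ / 2 → ‖π h‖ ≤ 1/2 → ‖π b‖ ≤ τ := by
  classical
  set T : A := b - b * w with hT
  have hTT : (0 : A) ≤ T * star T := mul_star_self_nonneg T
  set D : A := cut (τ ^ 2 / 4) (T * star T) with hDdef
  have hD0 : 0 ≤ D := cut_nonneg _ _
  have hD : ∀ (E : Type u) [NonUnitalCStarAlgebra E] (π : A →⋆ₙₐ[ℂ] E),
      π D = 0 ↔ ‖π T‖ ≤ τ / 2 := by
    intro E _ π
    rw [hDdef, map_cut_eq_zero_iff π (by positivity) hTT, norm_map_mul_star_self]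
    constructor
    · intro h
      nlinarith [norm_nonneg (π T)]
    · intro h
      nlinarith [norm_nonneg (π T)]
  obtain ⟨B, _, _, _, π₀, hsurj, hker⟩ := exists_quot_dom D
  have hB : PI B := hA.quot π₀ hsurj
  have hπ₀D : π₀ D = 0 := (hker D).2 (Dom.refl D)
  have hπ₀T : ‖π₀ T‖ ≤ τ / 2 := (hD B π₀).1 hπ₀D
  have hfac : ∀ (E : Type u) [NonUnitalCStarAlgebra E] (ρ : A →⋆ₙₐ[ℂ] E), ρ D = 0 →
      ∃ ρ' : B →⋆ₙₐ[ℂ] E, ∀ x, ρ' (π₀ x) = ρ x := by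
    intro E _ ρ hρ
    exact exists_factor π₀ hsurj ρ (fun x hx => (hker x).1 hx E ρ hρ)
  have hb' : 0 ≤ π₀ b := map_nonneg' π₀ hb
  have hdomB : Dom (cut τ (π₀ b)) (cut (τ / 2) (π₀ b)) := by
    intro E _ ρ hρ
    have h1 : (ρ.comp π₀) (cut τ b) = 0 := by
      rw [NonUnitalStarAlgHom.comp_apply, map_cut π₀ hτ.le (IsSelfAdjoint.of_nonneg hb)]
      exact hρ
    have h2 : ρ (π₀ w) = 0 := hdom E (ρ.comp π₀) h1
    have h3 : ρ (π₀ T) = ρ (π₀ b) := by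
      rw [hT, map_sub, map_sub, map_mul, map_mul, h2, mul_zero, sub_zero]
    rw [map_cut_eq_zero_iff ρ (by positivity) hb', ← h3]
    exact (norm_map_le ρ _).trans hπ₀T
  obtain ⟨p, hp, hpe, hpdom⟩ := exists_proj hB hb' (κ₁ := τ) (κ₂ := τ / 2) (by positivity)
    (by linarith) hdomB
  have hc' : ‖π₀ c‖ ≤ 1 := (norm_map_le π₀ c).trans hc
  obtain ⟨gB, hB', hgB, hhB0, hhB1, hphB, hhBfull⟩ := exists_gap_family hB hc' n p hp
    (fun x => π₀ (g x)) (fun x => map_nonneg' π₀ (hg x)) (ε / 4) (by positivity)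
  -- lifts
  have hs : ∀ x, ∃ s : A, 0 ≤ s ∧ ‖s‖ ≤ 1 ∧ (x < n → π₀ s = gB x) := by
    intro x
    by_cases hx : x < n
    · obtain ⟨s, h1, h2, h3⟩ := exists_lift_nonneg π₀ hsurj (hgB x hx).1 zero_le_one
        (hgB x hx).2.1
      exact ⟨s, h1, h2, fun _ => h3⟩
    · exact ⟨0, le_rfl, by simp, fun h => absurd h hx⟩
  choose s hs0 hs1 hsπ using hs
  obtain ⟨s', hs'0, hs'1, hs'π⟩ := exists_lift_nonneg π₀ hsurj hhB0 zero_le_one hhB1
  set e : ℕ → A := fun x => rmp (1/64) (1/32) (g x) with he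
  have he0 : ∀ x, 0 ≤ e x := fun x => rmp_nonneg _ _ _
  have he1 : ∀ x, ‖e x‖ ≤ 1 := fun x => norm_rmp_le_one _ _ _
  have hele : ∀ x, e x ≤ (32 : ℝ) • g x := by
    intro x
    have := rmp_le_smul (a := 1/64) (b := 1/32) (by norm_num) (by norm_num) (hg x)
    norm_num at this
    simpa [he] using this
  have hesa : ∀ x, star (e x) = e x := fun x => star_rmp _ _ _
  set g₁ : ℕ → A := fun x => e x * s x * e x with hg₁
  have hg₁0 : ∀ x, 0 ≤ g₁ x := by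
    intro x
    have := conj_nonneg' (hs0 x) (e x)
    rwa [hesa] at this
  have hg₁le : ∀ x, g₁ x ≤ e x := fun x => conj_contraction_le (he0 x) (he1 x) (hs0 x) (hs1 x)
  have hg₁π : ∀ x < n, π₀ (g₁ x) = gB x := by
    intro x hx
    have h1 : π₀ (e x) = rmp (1/64) (1/32) (π₀ (g x)) :=
      map_rmp π₀ (by norm_num) (by norm_num) (IsSelfAdjoint.of_nonneg (hg x))
    have h2 := (hgB x hx).2.2.1
    have h3 : gB x * rmp (1/64) (1/32) (π₀ (g x)) = gB x := by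
      have := congrArg star h2
      rwa [star_mul, star_rmp, (IsSelfAdjoint.of_nonneg (hgB x hx).1).star_eq] at this
    change π₀ (e x * s x * e x) = gB x
    rw [map_mul, map_mul, h1, hsπ x hx, h2, h3]
  set ϑ : A := rmp (τ / 4) (τ / 2) b with hϑ
  have hϑ0 : 0 ≤ ϑ := rmp_nonneg _ _ _
  have hϑ1 : ‖ϑ‖ ≤ 1 := norm_rmp_le_one _ _ _
  have hϑsa : star ϑ = ϑ := star_rmp _ _ _
  have hϑle : ϑ ≤ (2 / τ) • b := by
    have := rmp_le_smul (a := τ/4) (b := τ/2) (by positivity) (by linarith) hb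
    rwa [one_div_div] at this
  set h₁ : A := ϑ * s' * ϑ with hh₁
  have hh₁0 : 0 ≤ h₁ := by
    have := conj_nonneg' hs'0 ϑ
    rwa [hϑsa] at this
  have hh₁le : h₁ ≤ ϑ := conj_contraction_le hϑ0 hϑ1 hs'0 hs'1
  have hh₁π : π₀ h₁ = hB' := by
    have h1 : π₀ ϑ = rmp (τ/4) (τ/2) (π₀ b) :=
      map_rmp π₀ (by positivity) (by linarith) (IsSelfAdjoint.of_nonneg hb)
    have h2 : rmp (τ/4) (τ/2) (π₀ b) * p = p := by
      have : τ / 2 / 2 = τ / 4 := by ring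
      rwa [this] at hpe
    have h3 : rmp (τ/4) (τ/2) (π₀ b) * hB' = hB' := by
      rw [← hphB, ← mul_assoc, h2]
    have h4 : hB' * rmp (τ/4) (τ/2) (π₀ b) = hB' := by
      have := congrArg star h3
      rwa [star_mul, star_rmp, (IsSelfAdjoint.of_nonneg hhB0).star_eq] at this
    rw [hh₁, map_mul, map_mul, h1, hs'π, h3, h4]
  -- fullness repair
  have hdomx : ∀ x < n, Dom (D + cut (1/2) (g₁ x)) (cut (1/4) (g x)) := by
    intro x hx E _ ρ hρ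
    obtain ⟨h1, h2⟩ := map_eq_zero_of_add ρ hD0 (cut_nonneg _ _) hρ
    obtain ⟨ρ', hρ'⟩ := hfac E ρ h1
    rw [map_cut_eq_zero_iff ρ (by norm_num) (hg₁0 x)] at h2
    rw [← hρ', hg₁π x hx] at h2
    rw [map_cut_eq_zero_iff ρ (by norm_num) (hg x), ← hρ']
    exact (hgB x hx).2.2.2.1 E ρ' h2
  have hY : ∀ x, ∃ Y : A, 0 ≤ Y ∧ ‖Y‖ ≤ 1 ∧ Dom D Y ∧
      (x < n → Full (1/2) (g₁ x + e x * (Y * Y) * e x) (1/2) (g x)) := by
    intro x
    by_cases hx : x < n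
    · obtain ⟨Y, h1, h2, h3, h4⟩ := exists_full_fix hA (hg x) (hg₁0 x) hD0 (hdomx x hx)
      exact ⟨Y, h1, h2, h3, fun _ => h4⟩
    · exact ⟨0, le_rfl, by simp, Dom.zero D, fun h => absurd h hx⟩
  choose Y hY0 hY1 hYd hYf using hY
  have hYsa : ∀ x, star (Y x) = Y x := fun x => (IsSelfAdjoint.of_nonneg (hY0 x)).star_eq
  have hYπ : ∀ x, π₀ (Y x) = 0 := fun x => (hker _).2 (hYd x)
  have hYY0 : ∀ x, 0 ≤ Y x * Y x := by
    intro x
    have := star_mul_self_nonneg (Y x)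
    rwa [hYsa] at this
  have hYY1 : ∀ x, ‖Y x * Y x‖ ≤ 1 := fun x =>
    (norm_mul_le _ _).trans (by nlinarith [norm_nonneg (Y x), hY1 x])
  set G₂ : ℕ → A := fun x => e x * (Y x * Y x) * e x with hG₂
  have hG₂0 : ∀ x, 0 ≤ G₂ x := by
    intro x
    have := conj_nonneg' (hYY0 x) (e x)
    rwa [hesa] at this
  have hG₂le : ∀ x, G₂ x ≤ e x := fun x =>
    conj_contraction_le (he0 x) (he1 x) (hYY0 x) (hYY1 x)
  set G : ℕ → A := fun x => g₁ x + G₂ x with hG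
  have hG0 : ∀ x, 0 ≤ G x := fun x => add_nonneg (hg₁0 x) (hG₂0 x)
  set g' : ℕ → A := fun x => rmp 0 1 (G x) with hg'
  have hg'le : ∀ x, g' x ≤ G x := by
    intro x
    have := rmp_le_smul (a := 0) (b := 1) le_rfl (by norm_num) (hG0 x)
    rwa [div_one, one_smul] at this
  have hg'0 : ∀ x, 0 ≤ g' x := fun x => rmp_nonneg _ _ _
  -- approximate unit
  obtain ⟨u, hu0, hu1, huπ, hu⟩ := exists_au π₀ (Finset.range n ×ˢ (Finset.univ : Finset Bool))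
    (fun q : ℕ × Bool => if q.2 then rt h₁ * c * rt (g₁ q.1) else rt h₁ * c * (e q.1 * Y q.1))
    (ε := ε / 4) (by positivity)
  have husa : star u = u := (IsSelfAdjoint.of_nonneg hu0).star_eq
  set Z : A := rt h₁ - rt h₁ * u with hZ
  have hZs : star Z = rt h₁ - u * rt h₁ := by
    rw [hZ, star_sub, star_mul, husa, star_rt]
  set h : A := Z * star Z with hh
  have hh0 : 0 ≤ h := mul_star_self_nonneg Z
  have hhle : h ≤ h₁ := le_of_conj_one_sub hh₁0 hu0 hu1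
  have hh₁1 : ‖h₁‖ ≤ 1 := (norm_le_of_le hh₁0 hh₁le).trans hϑ1
  refine ⟨g', h, ?_, hh0, (norm_le_of_le hh0 hhle).trans hh₁1, (hhle.trans hh₁le).trans hϑle, ?_⟩
  · intro x hx
    refine ⟨hg'0 x, norm_rmp_le_one _ _ _, ?_, ?_, ?_⟩
    · calc g' x ≤ G x := hg'le x
        _ ≤ e x + e x := add_le_add (hg₁le x) (hG₂le x)
        _ ≤ (32 : ℝ) • g x + (32 : ℝ) • g x := add_le_add (hele x) (hele x)
        _ = (64 : ℝ) • g x := by rw [← add_smul]; norm_num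
    · intro E _ π hπ
      apply hYf x hx E π
      have := norm_map_le_of_norm_map_rmp_zero_le π (b := 1) (s := 1/2) (by norm_num)
        (by norm_num) (hG0 x) hπ
      rw [mul_one] at this
      exact this
    · -- the link
      have hmem1 : ((x, true) : ℕ × Bool) ∈ Finset.range n ×ˢ (Finset.univ : Finset Bool) := by
        simp [hx]
      have hmem2 : ((x, false) : ℕ × Bool) ∈ Finset.range n ×ˢ (Finset.univ : Finset Bool) := by
        simp [hx]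
      have hu₁ := hu _ hmem1
      have hu₂ := hu _ hmem2
      simp only [if_true] at hu₁
      simp only [Bool.false_eq_true, if_false] at hu₂
      have hπz₁ : ‖π₀ (rt h₁ * c * rt (g₁ x))‖ ≤ ε / 4 := by
        rw [map_mul, map_mul, map_rt π₀ (IsSelfAdjoint.of_nonneg hh₁0),
          map_rt π₀ (IsSelfAdjoint.of_nonneg (hg₁0 x)), hh₁π, hg₁π x hx]
        exact (hgB x hx).2.2.2.2
      have hπz₂ : ‖π₀ (rt h₁ * c * (e x * Y x))‖ = 0 := by
        rw [map_mul, map_mul, map_mul, hYπ]; simp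
      have hy₁ : ‖star Z * c * rt (g₁ x)‖ ≤ ε / 2 := by
        have : star Z * c * rt (g₁ x) =
            rt h₁ * c * rt (g₁ x) - u * (rt h₁ * c * rt (g₁ x)) := by
          rw [hZs]; noncomm_ring
        rw [this]; linarith
      have hy₂ : ‖star Z * c * (e x * Y x)‖ ≤ ε / 4 := by
        have : star Z * c * (e x * Y x) =
            rt h₁ * c * (e x * Y x) - u * (rt h₁ * c * (e x * Y x)) := by
          rw [hZs]; noncomm_ring
        rw [this]; linarith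
      have hlk : lk h c (g' x) = ‖(star Z * c) * rt (g' x)‖ := by
        unfold lk
        rw [hh, mul_assoc, norm_rt_mul_star_mul, mul_assoc]
      have hsq : lk h c (g' x) ^ 2 ≤ ‖star Z * c * rt (g₁ x)‖ ^ 2 +
          ‖star Z * c * (e x * Y x)‖ ^ 2 := by
        rw [hlk, norm_mul_rt_sq (hg'0 x), norm_mul_rt_sq (hg₁0 x)]
        have h1 : (star Z * c) * g' x * star (star Z * c) ≤
            (star Z * c) * g₁ x * star (star Z * c) +
              (star Z * c) * G₂ x * star (star Z * c) := by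
          have := conj_mono' (hg'le x) (star Z * c)
          simp only [hG, mul_add, add_mul] at this
          exact this
        have h0 : 0 ≤ (star Z * c) * g' x * star (star Z * c) := by
          have := conj_nonneg' (hg'0 x) (star (star Z * c))
          rwa [star_star] at this
        refine (norm_le_of_le h0 h1).trans ((norm_add_le _ _).trans ?_)
        have h2 : (star Z * c) * G₂ x * star (star Z * c) =
            (star Z * c * (e x * Y x)) * star (star Z * c * (e x * Y x)) := by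
          simp only [hG₂, star_mul, star_star, hesa, hYsa]
          noncomm_ring
        rw [h2, CStarRing.norm_self_mul_star, ← sq]
      have hn1 := norm_nonneg (star Z * c * rt (g₁ x))
      have hn2 := norm_nonneg (star Z * c * (e x * Y x))
      have hfin : lk h c (g' x) ^ 2 ≤ ε ^ 2 := by nlinarith
      exact le_of_abs_le (abs_le_of_sq_le_sq hfin hε.le)
  · intro E _ π hπT hπh
    obtain ⟨π', hπ'⟩ := hfac E π ((hD E π).2 hπT)
    have hπu : π u = 0 := by rw [← hπ', huπ, map_zero]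
    have hπh' : π h = π h₁ := by
      have : π Z = π (rt h₁) := by rw [hZ, map_sub, map_mul, hπu, mul_zero, sub_zero]
      rw [hh, map_mul, map_star, this, ← map_star, ← map_mul, star_rt, rt_mul_rt hh₁0]
    have h1 : ‖π' hB'‖ ≤ 1/2 := by rw [← hh₁π, hπ', ← hπh']; exact hπh
    have h2 : ‖π' p‖ ≤ 0 := hhBfull E π' h1
    have h3 : π' p = 0 := norm_le_zero_iff.mp h2
    have h4 := hpdom E π' h3
    rw [map_cut_eq_zero_iff π' hτ.le hb', hπ'] at h4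
    exact h4

end

end PIS
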