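import Crest.Agent.PIS_P0
import Crest.Agent.PIS_S2
import Crest.Agent.PIS_BL
import Crest.Agent.PIS_QC

/-!
# S0145 blueprint, task PIS-P1 (induction step)

Replace the `sorry`s IN THIS FILE (do not change statements or names; helper lemmas are welcome, if they
are of general use put them in a new file `PIS_x*.lean`).  See `PIS_Defs.lean` for the definitions.
-/

set_option autoImplicit false

universe u

namespace PIS

section

variable {A : Type u} [NonUnitalCStarAlgebra A] [PartialOrder A] [StarOrderedRing A]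

/-- domination passes to smaller positive elements. -/
lemma p1_dom_of_le {b₁ y y' : A} {C : ℝ} (hy' : 0 ≤ y') (hle : y' ≤ C • y)
    (hd : Dom b₁ y) : Dom b₁ y' := by
  intro B _ π hπ
  let _ : PartialOrder B := CStarAlgebra.spectralOrder B
  have _ : StarOrderedRing B := CStarAlgebra.spectralOrderedRing B
  have h1 : 0 ≤ π y' := map_nonneg' π hy'
  have h2 : π y' ≤ π (C • y) := map_mono' π hle
  have h3 : π (C • y) = 0 := by
    have : (C • y : A) = (C : ℂ) • y := (Complex.coe_smul C y).symm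
    rw [this, map_smul, hd B π hπ, smul_zero]
  rw [h3] at h2
  exact le_antisymm h2 h1

/-- the auxiliary element `k` from the band lemma (or `0`, for `n = 0`). -/
lemma p1_exists_k (hA : PI A) {b c g0 : A} (hb : 0 ≤ b) (hb1 : ‖b‖ ≤ 1) {τ δ : ℝ} (hτ : 0 < τ)
    (hδ : 0 < δ) {n : ℕ} {ε C : ℝ} {w g h : ℕ → A} (H : IsBands b c g0 τ δ ε C n w g h) :
    ∃ k : A, Dom (cut τ b) k ∧ ∃ ν : ℝ, 0 < ν ∧ (1 ≤ n → ∀ w' : A, 0 ≤ w' → ‖w'‖ ≤ 1 →
      ‖k - w' * k‖ ≤ ν → ∀ (B : Type u) [NonUnitalCStarAlgebra B] (π : A →⋆ₙₐ[ℂ] B),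
        ‖π (h n)‖ ≤ 1/2 → ‖π ((b - b * w n) * w')‖ ^ 2 ≤ τ ^ 2 / 8 → ‖π b‖ ≤ τ + δ) := by
  by_cases hn : 1 ≤ n
  · obtain ⟨k, hk, ν, hν, h1⟩ := exists_band hA hb hb1 (H.h_nonneg n hn le_rfl) hτ
      (T := b - b * w n) (H.last hn) hδ
    exact ⟨k, hk, ν, hν, fun _ => h1⟩
  · exact ⟨0, Dom.zero _, 1, one_pos, fun h => absurd h hn⟩

lemma p1_sqrt64 : √(64 : ℝ) = 8 := by
  rw [show (64 : ℝ) = 8 ^ 2 by norm_num]
  exact Real.sqrt_sq (by norm_num)

lemma p1_sqrt8 : √(8 : ℝ) ≤ 3 := by
  rw [Real.sqrt_le_left (by norm_num)]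
  norm_num

/-- **P1 (induction step).**  Proof.  Put `ε₁ = ε / 64` and take `P(n)` for `ε₁`: `C, w, g, h`.
If `n ≥ 1`, `exists_band` (with `T = b - b * w n`, `h = h n`, property `last`) gives `k`, `ν > 0`.
`exists_quasicentral` (`b₁ = cut τ b`): `w'` with `0 ≤ w' ≤ 1`, `Dom b₁ w'`, `‖z - w' z‖ ≤ min ν (ε/64)` for `z` in the list
`k`, `w i` (`i ≤ n`), `rt (g x)` (`x < n`) and commutators `≤ ε/64` with `b`, `c`, `rt (g n)`.  Put `w (n+1) = w'`.
`exists_split` for `g n`, `w'`: `mid`, `out`.  New list of blocks `G x = g x` (`x < n`), `G n = mid`, `G (n+1) = out`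
(for `x > n + 1` put `G x = 0`).
`exists_stage` (with `w = w'`, `n + 2` blocks `G`, `ε/64`): `g' x ≤ 64 G x`, `h (n+1)`.
Verification (new blocks `g'`, `√64 = 8`):
* `g_low i x` (`i < x ≤ n+1`), `‖w i rt (g' x)‖ ≤ 8 ‖w i rt (G x)‖` (`norm_mul_rt_le`): for `x < n` and
  `x = n` (`‖w i rt mid‖ ≤ 3 ‖w i rt (g n)‖`) it is `≤ 24 ε₁`.  For `x = n+1`: `≤ 24 ‖w i (rt (g n) - rt (g n) w')‖`; for `i < n`
  this is `≤ 24 · 2 ‖w i rt (g n)‖ ≤ 48 ε₁`; hmm, `i < n`: `‖w i rt(g n) (1 - w')‖ ≤ ‖w i rt (g n)‖`, either bound is fine; for `i = n`: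
  `w n (1 - w') rt (g n)` up to the commutator `ε/64`, and `‖w n - w n w'‖ = ‖w n - w' w n‖ ≤ ε/64`, total `24 · 2 ε/64 ≤ ε`.
* `g_high i x` (`x + 2 ≤ i ≤ n+1`), so `x < n`, `G x = g x`: `‖rt (g' x) - w i rt (g' x)‖ ≤ 8 ‖rt (g x) - w i rt (g x)‖`
  (`norm_sub_mul_rt_le`), `≤ 8 ε₁` for `i ≤ n`, `≤ 8 ε/64` for `i = n+1`.
* `h_lk i x`: `i ≤ n`: `lk (h i) c (g' x) ≤ 8 lk (h i) c (G x) ≤ 8 · 3 ε₁` (`G n, G (n+1) ≤ 8 g n`); `i = n+1`: `exists_stage`.
* `g_le`: `C' = 64 · 8 · C`.  `g_full`: `Full (1/2) (g' x) (1/2) (G x)` and the splitting property.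
* `g_dom x` (`x < n+1`): `g' x ≤ 64 G x` and `Dom b₁ (G x)` (in a quotient, `0 ≤ π (g' x) ≤ 64 π (G x) = 0`).
* `last` is `exists_stage`; `band i` for `i < n` old, for `i = n` (`n ≥ 1`) from `exists_band`. -/
theorem exists_bands_succ (hA : PI A) {b c g0 : A} (hb : 0 ≤ b) (hb1 : ‖b‖ ≤ 1) (hc : ‖c‖ ≤ 1)
    (hg0 : 0 ≤ g0) {τ δ : ℝ} (hτ : 0 < τ) (hδ : 0 < δ) (n : ℕ)
    (IH : ∀ ε : ℝ, 0 < ε → ∃ C : ℝ, 0 ≤ C ∧ ∃ w g h : ℕ → A, IsBands b c g0 τ δ ε C n w g h) :
    ∀ ε : ℝ, 0 < ε → ∃ C : ℝ, 0 ≤ C ∧ ∃ w g h : ℕ → A, IsBands b c g0 τ δ ε C (n + 1) w g h := by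
  intro ε hε
  classical
  obtain ⟨C, hC, w, g, h, H⟩ := IH (ε / 64) (by positivity)
  obtain ⟨k, hk, ν, hν, hband⟩ := p1_exists_k hA hb hb1 hτ hδ H
  set ν' : ℝ := min ν (ε / 64) with hν'
  have hν'0 : 0 < ν' := lt_min hν (by positivity)
  have hν'1 : ν' ≤ ν := min_le_left _ _
  have hν'2 : ν' ≤ ε / 64 := min_le_right _ _
  -- the quasi-central element
  obtain ⟨w', hw', hw'1, hw'd, hw's, hw't⟩ := exists_quasicentral (b₁ := cut τ b)
    (({k} : Finset A) ∪ (Finset.range (n + 1)).image w ∪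
      (Finset.range n).image (fun x => rt (g x))) id
    (by
      intro i hi
      simp only [Finset.mem_union, Finset.mem_singleton, Finset.mem_image, Finset.mem_range] at hi
      rcases hi with (rfl | ⟨j, hj, rfl⟩) | ⟨x, hx, rfl⟩
      · exact hk
      · exact H.w_dom j (by omega)
      · exact (H.g_dom x hx).cfcn (H.g_nonneg x (by omega)).isSelfAdjoint
          Real.continuous_sqrt Real.sqrt_zero)
    ({b, c, rt (g n)} : Finset A) id hν'0
  have hwk : ‖k - w' * k‖ ≤ ν' := hw's k (by simp)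
  have hww : ∀ i ≤ n, ‖w i - w' * w i‖ ≤ ν' := fun i hi => hw's (w i) (by
    simp only [Finset.mem_union, Finset.mem_singleton, Finset.mem_image, Finset.mem_range]
    exact Or.inl (Or.inr ⟨i, by omega, rfl⟩))
  have hwg : ∀ x < n, ‖rt (g x) - w' * rt (g x)‖ ≤ ν' := fun x hx => hw's (rt (g x)) (by
    simp only [Finset.mem_union, Finset.mem_singleton, Finset.mem_image, Finset.mem_range]
    exact Or.inr ⟨x, by omega, rfl⟩)
  have hwb : ‖w' * b - b * w'‖ ≤ ν' := hw't b (by simp)
  have hwc : ‖w' * c - c * w'‖ ≤ ν' := hw't c (by simp)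
  have hwgn : ‖w' * rt (g n) - rt (g n) * w'‖ ≤ ν' := hw't (rt (g n)) (by simp)
  -- splitting
  obtain ⟨mid, out, hmid, hout, hmid1, hout1, hmidle, houtle, hmidd, hsplit, hmidv, houtv⟩ :=
    exists_split (b₁ := cut τ b) (H.g_nonneg n le_rfl) hw' hw'1 hw'd
  set G : ℕ → A := fun x => if x < n then g x else if x = n then mid else
    if x = n + 1 then out else 0 with hG
  have hGlt : ∀ x < n, G x = g x := fun x hx => by simp [hG, hx]
  have hGn : G n = mid := by simp [hG]
  have hGn1 : G (n + 1) = out := by simp [hG]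
  have hG0 : ∀ x, 0 ≤ G x := by
    intro x
    by_cases h1 : x < n
    · rw [hGlt x h1]; exact H.g_nonneg x h1.le
    · by_cases h2 : x = n
      · rw [h2, hGn]; exact hmid
      · by_cases h3 : x = n + 1
        · rw [h3, hGn1]; exact hout
        · simp [hG, h1, h2, h3]
  obtain ⟨g', hn1, hg', hn0, hnn, hnb, hlast⟩ := exists_stage hA hb hb1 hc hτ hw'd (n + 2) G hG0
    (ε := ε / 64) (by positivity)
  have h8 : (0 : ℝ) ≤ 64 := by norm_num
  have hε0 : ε / 64 ≤ ε := by linarith
  -- `x ≤ n + 1` is one of three cases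
  have hcases : ∀ x ≤ n + 1, x < n ∨ x = n ∨ x = n + 1 := fun x hx => by omega
  refine ⟨64 * 8 * C, by positivity, fun i => if i ≤ n then w i else w', g',
    fun i => if i ≤ n then h i else hn1, ?_⟩
  constructor
  · -- w_zero
    simp [H.w_zero]
  · -- w_nonneg
    intro i hi
    by_cases h1 : i ≤ n
    · simp only [h1, if_true]; exact H.w_nonneg i h1
    · simp only [h1, if_false]; exact hw'
  · intro i hi
    by_cases h1 : i ≤ n
    · simp only [h1, if_true]; exact H.w_norm i h1
    · simp only [h1, if_false]; exact hw'1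
  · intro i hi
    by_cases h1 : i ≤ n
    · simp only [h1, if_true]; exact H.w_dom i h1
    · simp only [h1, if_false]; exact hw'd
  · -- w_mul
    intro i j hij hj
    have h1 : i ≤ n := by omega
    by_cases h2 : j ≤ n
    · simp only [h1, h2, if_true]
      exact (H.w_mul i j hij h2).trans hε0
    · simp only [h1, h2, if_true, if_false]
      exact (hww i h1).trans (hν'2.trans hε0)
  · intro i hi
    by_cases h1 : i ≤ n
    · simp only [h1, if_true]; exact (H.w_b i h1).trans hε0
    · simp only [h1, if_false]; exact hwb.trans (hν'2.trans hε0)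
  · intro i hi
    by_cases h1 : i ≤ n
    · simp only [h1, if_true]; exact (H.w_c i h1).trans hε0
    · simp only [h1, if_false]; exact hwc.trans (hν'2.trans hε0)
  · intro x hx
    exact (hg' x (by omega)).1
  · intro x hx
    exact (hg' x (by omega)).2.1
  · -- g_le
    intro x hx
    have h1 := (hg' x (by omega)).2.2.1
    have h64 : (64 * 8 * C) • g0 = (64 : ℝ) • ((8 : ℝ) • (C • g0)) := by
      rw [smul_smul, smul_smul]
    have hCg0 : 0 ≤ C • g0 := smul_nonneg hC hg0
    have h3 : G x ≤ (8 : ℝ) • (C • g0) := by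
      rcases hcases x hx with h2 | h2 | h2
      · rw [hGlt x h2]
        refine (H.g_le x h2.le).trans ?_
        have : C • g0 = (1 : ℝ) • (C • g0) := (one_smul _ _).symm
        conv_lhs => rw [this]
        exact smul_le_smul_of_nonneg_right (by norm_num) hCg0
      · rw [h2, hGn]
        exact hmidle.trans (smul_le_smul_of_nonneg_left (H.g_le n le_rfl) (by norm_num))
      · rw [h2, hGn1]
        exact houtle.trans (smul_le_smul_of_nonneg_left (H.g_le n le_rfl) (by norm_num))
    rw [h64]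
    exact h1.trans (smul_le_smul_of_nonneg_left h3 h8)
  · -- g_full
    intro B _ π hπ
    have h1 : ∀ x ≤ n + 1, ‖π (G x)‖ ≤ 1/2 := fun x hx =>
      (hg' x (by omega)).2.2.2.1 B π (hπ x hx)
    apply H.g_full B π
    intro x hx
    rcases hx.lt_or_eq with h2 | h2
    · rw [← hGlt x h2]; exact h1 x (by omega)
    · rw [h2]
      apply hsplit B π
      · rw [← hGn]; exact h1 n (by omega)
      · rw [← hGn1]; exact h1 (n + 1) le_rfl
  · -- g_low
    intro i x hix hx
    have hi : i ≤ n := by omega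
    simp only [hi, if_true]
    have h1 := norm_mul_rt_le h8 (hG0 x) (hg' x (by omega)).1 (hg' x (by omega)).2.2.1 (w i)
    rw [p1_sqrt64] at h1
    refine h1.trans ?_
    rcases hcases x hx with h2 | h2 | h2
    · rw [hGlt x h2]
      have := H.g_low i x hix h2.le
      linarith
    · subst h2
      rw [hGn]
      have h3 := hmidv (w i)
      have h4 := H.g_low i x hix le_rfl
      linarith
    · subst h2
      rw [hGn1]
      have h3 := houtv (w i)
      have h5 : ‖w i * (rt (g n) - rt (g n) * w')‖ ≤ 2 * (ε / 64) := by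
        rcases hi.lt_or_eq with h4 | h4
        · have h6 := H.g_low i n h4 le_rfl
          have h7 : w i * (rt (g n) - rt (g n) * w') = w i * rt (g n) - w i * rt (g n) * w' := by
            rw [mul_sub, mul_assoc]
          rw [h7]
          have h8' : ‖w i * rt (g n) * w'‖ ≤ ‖w i * rt (g n)‖ * 1 :=
            (norm_mul_le _ _).trans (mul_le_mul_of_nonneg_left hw'1 (norm_nonneg _))
          have h9 := norm_sub_le (w i * rt (g n)) (w i * rt (g n) * w')
          linarith
        · subst h4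
          have h6 := hww i le_rfl
          have h7 : w i * (rt (g i) - rt (g i) * w') = (w i - w i * w') * rt (g i) +
              w i * (w' * rt (g i) - rt (g i) * w') := by
            noncomm_ring
          have h9 : ‖w i - w i * w'‖ ≤ ν' := by
            have h10 : star (w i - w' * w i) = w i - w i * w' := by
              rw [star_sub, star_mul, (H.w_nonneg i le_rfl).isSelfAdjoint.star_eq,
                hw'.isSelfAdjoint.star_eq]
            rw [← h10, norm_star]
            exact h6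
          have h11 : ‖rt (g i)‖ ≤ 1 := by
            have h12 := norm_rt_sq (H.g_nonneg i le_rfl)
            have h13 := H.g_norm i le_rfl
            nlinarith [norm_nonneg (rt (g i))]
          have h14 : ‖(w i - w i * w') * rt (g i)‖ ≤ ν' * 1 :=
            (norm_mul_le _ _).trans (mul_le_mul h9 h11 (norm_nonneg _) hν'0.le)
          have h15 : ‖w i * (w' * rt (g i) - rt (g i) * w')‖ ≤ 1 * ν' :=
            (norm_mul_le _ _).trans (mul_le_mul (H.w_norm i le_rfl) hwgn (norm_nonneg _)
              zero_le_one)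
          rw [h7]
          have h16 := norm_add_le ((w i - w i * w') * rt (g i))
            (w i * (w' * rt (g i) - rt (g i) * w'))
          linarith
      linarith
  · -- g_high
    intro i x hxi hi
    have hx : x < n := by omega
    have h1 := norm_sub_mul_rt_le h8 (hG0 x) (hg' x (by omega)).1 (hg' x (by omega)).2.2.1
      (if i ≤ n then w i else w')
    rw [p1_sqrt64, hGlt x hx] at h1
    refine h1.trans ?_
    by_cases h2 : i ≤ n
    · simp only [h2, if_true]
      have := H.g_high i x hxi h2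
      linarith
    · simp only [h2, if_false]
      have := hwg x hx
      linarith
  · -- g_dom
    intro x hx
    refine p1_dom_of_le (hg' x (by omega)).1 (hg' x (by omega)).2.2.1 ?_
    rcases hcases x (by omega) with h2 | h2 | h2
    · rw [hGlt x h2]; exact H.g_dom x h2
    · rw [h2, hGn]; exact hmidd
    · omega
  · -- h_nonneg
    intro i hi1 hi
    by_cases h1 : i ≤ n
    · simp only [h1, if_true]; exact H.h_nonneg i hi1 h1
    · simp only [h1, if_false]; exact hn0
  · intro i hi1 hi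
    by_cases h1 : i ≤ n
    · simp only [h1, if_true]; exact H.h_norm i hi1 h1
    · simp only [h1, if_false]; exact hnn
  · intro i hi1 hi
    by_cases h1 : i ≤ n
    · simp only [h1, if_true]; exact H.h_le i hi1 h1
    · simp only [h1, if_false]; exact hnb
  · -- h_lk
    intro i x hi1 hi hx
    by_cases h1 : i ≤ n
    · simp only [h1, if_true]
      have h2 := lk_mono_right h8 (hG0 x) (hg' x (by omega)).1 (hg' x (by omega)).2.2.1 (h i) c
      rw [p1_sqrt64] at h2
      refine h2.trans ?_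
      rcases hcases x hx with h3 | h3 | h3
      · rw [hGlt x h3]
        have := H.h_lk i x hi1 h1 h3.le
        linarith
      · rw [h3, hGn]
        have h4 := lk_mono_right (by norm_num : (0 : ℝ) ≤ 8) (H.g_nonneg n le_rfl) hmid hmidle
          (h i) c
        have h5 := H.h_lk i n hi1 h1 le_rfl
        have h6 := lk_nonneg (h i) c (g n)
        have h7 : √(8 : ℝ) * lk (h i) c (g n) ≤ 3 * (ε / 64) :=
          mul_le_mul p1_sqrt8 h5 h6 (by norm_num)
        linarith
      · rw [h3, hGn1]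
        have h4 := lk_mono_right (by norm_num : (0 : ℝ) ≤ 8) (H.g_nonneg n le_rfl) hout houtle
          (h i) c
        have h5 := H.h_lk i n hi1 h1 le_rfl
        have h6 := lk_nonneg (h i) c (g n)
        have h7 : √(8 : ℝ) * lk (h i) c (g n) ≤ 3 * (ε / 64) :=
          mul_le_mul p1_sqrt8 h5 h6 (by norm_num)
        linarith
    · simp only [h1, if_false]
      exact (hg' x (by omega)).2.2.2.2.trans hε0
  · -- last
    intro _ B _ π h1 h2
    have hnot : ¬ (n + 1 ≤ n) := by omega
    simp only [hnot, if_false] at h1 h2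
    exact hlast B π h1 h2
  · -- band
    intro i hi1 hi B _ π h1 h2
    have hin : i ≤ n := by omega
    rcases hin.lt_or_eq with h3 | h3
    · have h4 : i + 1 ≤ n := h3
      simp only [hin, h4, if_true] at h1 h2
      exact H.band i hi1 h3 B π h1 h2
    · subst h3
      have hnot : ¬ (i + 1 ≤ i) := by omega
      simp only [le_rfl, hnot, if_true, if_false] at h1 h2
      exact hband hi1 w' hw' hw'1 (hwk.trans hν'1) B π h1 h2

end

end PIS
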