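import Crest.Agent.PIS_P1

/-!
# S0145 blueprint, task PIS-P2 (induction)

Replace the `sorry`s IN THIS FILE (do not change statements or names; helper lemmas are welcome, if they
are of general use put them in a new file `PIS_x*.lean`).  See `PIS_Defs.lean` for the definitions.
-/

set_option autoImplicit false

universe u

namespace PIS

section

variable {A : Type u} [NonUnitalCStarAlgebra A] [PartialOrder A] [StarOrderedRing A]

/-- **P2.** Induction; base case `n = 0`: `w = 0`, `g = g0`, `h = 0`, `C = 1`. -/
theorem exists_bands (hA : PI A) {b c g0 : A} (hb : 0 ≤ b) (hb1 : ‖b‖ ≤ 1) (hc : ‖c‖ ≤ 1)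
    (hg0 : 0 ≤ g0) (hg01 : ‖g0‖ ≤ 1) {τ δ : ℝ} (hτ : 0 < τ) (hδ : 0 < δ) (n : ℕ) :
    ∀ ε : ℝ, 0 < ε → ∃ C : ℝ, 0 ≤ C ∧ ∃ w g h : ℕ → A, IsBands b c g0 τ δ ε C n w g h := by
  induction n with
  | zero =>
    intro ε hε
    refine ⟨1, zero_le_one, fun _ => 0, fun _ => g0, fun _ => 0, ?_⟩
    constructor
    · rfl
    · intro i _; exact le_rfl
    · intro i _; simp
    · intro i _; exact Dom.zero _
    · intro i j hij hj; omega
    · intro i _; simpa using hε.le
    · intro i _; simpa using hε.le
    · intro x _; exact hg0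
    · intro x _; exact hg01
    · intro x _; rw [one_smul]
    · intro B _ π hπ; exact hπ 0 le_rfl
    · intro i x hix hx; omega
    · intro i x hix hi; omega
    · intro x hx; omega
    · intro i h1 h2; omega
    · intro i h1 h2; omega
    · intro i h1 h2; omega
    · intro i x h1 h2; omega
    · intro h1; omega
    · intro i h1 h2; omega
  | succ n ih => exact exists_bands_succ hA hb hb1 hc hg0 hτ hδ n ih

end

end PIS
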