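import Mathlib
import Crest.Prelude.Def_RandomSAT

/-!
# RS_Defs: random k-SAT hitting time variance (S0217). Definitions and basic API.

`Cl k V`: clauses with `k` literals on distinct variables of `V`.
States are sets of assignments `Set (V → Bool)`.
-/

set_option autoImplicit false

namespace Crest.Agent.RS

open Classical

noncomputable section

/-- Clauses: an embedding choosing the `k` distinct variables and the `k` required values. -/
abbrev Cl (k : ℕ) (V : Type) : Type := (Fin k ↪ V) × (Fin k → Bool)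

/-- `σ` satisfies the clause `c`. -/
def SatC {k : ℕ} {V : Type} (σ : V → Bool) (c : Cl k V) : Prop := ∃ i, σ (c.1 i) = c.2 i

/-- The set of assignments satisfying `c`. -/
def sset {k : ℕ} {V : Type} (c : Cl k V) : Set (V → Bool) := {σ | SatC σ c}

/-- The set of assignments satisfying all the clauses of a list. -/
def lset {k : ℕ} {V : Type} (c : List (Cl k V)) : Set (V → Bool) := {σ | ∀ x ∈ c, SatC σ x}

/-- The set of assignments satisfying the literal `(v, b)`. -/
def litset {V : Type} (v : V) (b : Bool) : Set (V → Bool) := {σ | σ v = b}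

/-- Indicator of a proposition. -/
def ind (p : Prop) : ℝ := if p then 1 else 0

/-- Uniform average over a finite type. -/
def avg {α : Type} [Fintype α] (φ : α → ℝ) : ℝ := (∑ x, φ x) / (Fintype.card α : ℝ)

/-- Average over all lists of length `t`. -/
def avgL {α : Type} [Fintype α] : ℕ → (List α → ℝ) → ℝ
  | 0, Φ => Φ []
  | (t + 1), Φ => avgL t (fun F => avg (fun x => Φ (x :: F)))

/-- `run φ S F = ∑_{m ≤ |F|} φ (S ∩ sat (first m clauses of F))`. -/
def run {k : ℕ} {V : Type} (φ : Set (V → Bool) → ℝ) : Set (V → Bool) → List (Cl k V) → ℝ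
  | S, [] => φ S
  | S, (C :: F) => φ S + run φ (S ∩ sset C) F

/-- Time spent satisfiable but killed by the extra constraint `T`. -/
def DD {k : ℕ} {V : Type} (T S : Set (V → Bool)) (F : List (Cl k V)) : ℝ :=
  run (fun S => ind (S.Nonempty ∧ S ∩ T = ∅)) S F

/-- The two-view quantity `L(a,b)`. -/
def LL (k : ℕ) (V : Type) [Fintype V] (t a b : ℕ) : ℝ :=
  avgL a (fun c : List (Cl 2 V) => avgL b (fun c' : List (Cl 2 V) =>
    avgL t (fun F : List (Cl k V) => DD (lset c) Set.univ F * DD (lset c') Set.univ F)))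

/-- The literal `(v, b)` kills `S`: no assignment of `S` satisfies it. -/
def Kills {V : Type} (S : Set (V → Bool)) (l : V × Bool) : Prop := S ∩ litset l.1 l.2 = ∅

/-- Number of killing literals. -/
def KK {V : Type} [Fintype V] (S : Set (V → Bool)) : ℝ :=
  ((Finset.univ.filter (fun l : V × Bool => Kills S l)).card : ℝ)

/-- The clause `C` contains the variable `v`. -/
def Has {k : ℕ} {V : Type} (C : Cl k V) (v : V) : Prop := ∃ i, C.1 i = v

/-- Trees of lists: cavity expansion with weight `r` for every special clause. -/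
def XX {k : ℕ} {V : Type} [Fintype V] (r : ℝ) :
    ℕ → (List (Cl k V) → List (Cl 2 V) → List (Cl 2 V) → ℝ) → ℝ
  | 0, Φ => Φ [] [] []
  | (t + 1), Φ => XX r t (fun F A B => avg (fun C => Φ (C :: F) A B)
      + r * avg (fun x => Φ F (x :: A) B) + r * avg (fun x => Φ F A (x :: B)))

/-- Extend an assignment of `V'` to `V` (`e : Option V' ≃ V`) by the value `b` at `e none`. -/
def ext {V V' : Type} (e : Option V' ≃ V) (b : Bool) (σ : V' → Bool) : V → Bool :=
  fun w => (e.symm w).elim b σ

/-- Restriction of a constraint to `V'` after fixing the value `b` at `e none`. -/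
def restr {V V' : Type} (e : Option V' ≃ V) (b : Bool) (T : Set (V → Bool)) :
    Set (V' → Bool) := {σ | ext e b σ ∈ T}

/-- Lift a clause over `V'` to `V`. -/
def liftC {k : ℕ} {V V' : Type} (e : Option V' ≃ V) (C : Cl k V') : Cl k V :=
  (C.1.trans ((Function.Embedding.some).trans e.toEmbedding), C.2)

theorem avgL_eqs_forced : True := by
  have := @avgL.eq_def; trivial

theorem run_eqs_forced : True := by
  have := @run.eq_def; trivial

theorem XX_eqs_forced : True := by
  have := @XX.eq_def; trivial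

/-! ### basic API -/

theorem ind_nonneg (p : Prop) : 0 ≤ ind p := by unfold ind; split_ifs <;> norm_num
theorem ind_le_one (p : Prop) : ind p ≤ 1 := by unfold ind; split_ifs <;> norm_num
theorem ind_true {p : Prop} (h : p) : ind p = 1 := by unfold ind; simp [h]
theorem ind_false {p : Prop} (h : ¬ p) : ind p = 0 := by unfold ind; simp [h]
theorem ind_mono {p q : Prop} (h : p → q) : ind p ≤ ind q := by
  unfold ind; split_ifs with h1 h2 h2
  · exact le_refl _
  · exact absurd (h h1) h2
  · norm_num
  · exact le_refl _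
theorem ind_and (p q : Prop) : ind (p ∧ q) = ind p * ind q := by
  unfold ind; split_ifs <;> simp_all

section avg
variable {α β : Type} [Fintype α] [Fintype β]

theorem avg_nonneg {φ : α → ℝ} (h : ∀ x, 0 ≤ φ x) : 0 ≤ avg φ :=
  div_nonneg (Finset.sum_nonneg fun x _ => h x) (Nat.cast_nonneg _)

theorem avg_mono {φ ψ : α → ℝ} (h : ∀ x, φ x ≤ ψ x) : avg φ ≤ avg ψ :=
  div_le_div_of_nonneg_right (Finset.sum_le_sum fun x _ => h x) (Nat.cast_nonneg _)

theorem avg_add (φ ψ : α → ℝ) : avg (fun x => φ x + ψ x) = avg φ + avg ψ := by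
  unfold avg; rw [Finset.sum_add_distrib, add_div]

theorem avg_sub (φ ψ : α → ℝ) : avg (fun x => φ x - ψ x) = avg φ - avg ψ := by
  unfold avg; rw [Finset.sum_sub_distrib, sub_div]

theorem avg_mul_left (c : ℝ) (φ : α → ℝ) : avg (fun x => c * φ x) = c * avg φ := by
  unfold avg; rw [← Finset.mul_sum, mul_div_assoc]

theorem avg_mul_right (c : ℝ) (φ : α → ℝ) : avg (fun x => φ x * c) = avg φ * c := by
  unfold avg; rw [← Finset.sum_mul]; ring

theorem avg_const [Nonempty α] (c : ℝ) : avg (fun _ : α => c) = c := by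
  unfold avg
  have : (Fintype.card α : ℝ) ≠ 0 := by exact_mod_cast Fintype.card_ne_zero
  rw [Finset.sum_const, Finset.card_univ, nsmul_eq_mul]; field_simp

theorem avg_comm (f : α → β → ℝ) :
    avg (fun x => avg (fun y => f x y)) = avg (fun y => avg (fun x => f x y)) := by
  unfold avg
  rw [← Finset.sum_div, ← Finset.sum_div, Finset.sum_comm]
  ring

theorem avg_finset_sum {ι : Type} (s : Finset ι) (f : ι → α → ℝ) :
    avg (fun x => ∑ i ∈ s, f i x) = ∑ i ∈ s, avg (f i) := by
  unfold avg; rw [Finset.sum_comm, Finset.sum_div]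

theorem avg_le_const {φ : α → ℝ} {c : ℝ} (hc : 0 ≤ c) (h : ∀ x, φ x ≤ c) : avg φ ≤ c := by
  rcases isEmpty_or_nonempty α with he | hne
  · unfold avg; simp [hc]
  · calc avg φ ≤ avg (fun _ : α => c) := avg_mono h
      _ = c := avg_const c

/-- Jensen / Cauchy-Schwarz. -/
theorem avg_sq_le (φ : α → ℝ) : (avg φ) ^ 2 ≤ avg (fun x => φ x ^ 2) := by
  rcases isEmpty_or_nonempty α with he | hne
  · unfold avg; simp
  · have hc : (0:ℝ) < (Fintype.card α : ℝ) := by exact_mod_cast Fintype.card_pos
    unfold avg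
    rw [div_pow, div_le_div_iff₀ (by positivity) hc]
    have := sq_sum_le_card_mul_sum_sq (s := (Finset.univ : Finset α)) (f := φ)
    rw [Finset.card_univ] at this
    nlinarith [mul_le_mul_of_nonneg_right this hc.le]

end avg

section avgL
variable {α β : Type} [Fintype α] [Fintype β]

@[simp] theorem avgL_zero (Φ : List α → ℝ) : avgL 0 Φ = Φ [] := rfl

theorem avgL_succ (t : ℕ) (Φ : List α → ℝ) :
    avgL (t + 1) Φ = avgL t (fun F => avg (fun x => Φ (x :: F))) := rfl

theorem avgL_mono' {t : ℕ} {Φ Ψ : List α → ℝ} (h : ∀ F, F.length = t → Φ F ≤ Ψ F) :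
    avgL t Φ ≤ avgL t Ψ := by
  induction t generalizing Φ Ψ with
  | zero => exact h [] rfl
  | succ t ih =>
    rw [avgL_succ, avgL_succ]
    exact ih fun F hF => avg_mono fun x => h _ (by simp [hF])

theorem avgL_mono {t : ℕ} {Φ Ψ : List α → ℝ} (h : ∀ F, Φ F ≤ Ψ F) : avgL t Φ ≤ avgL t Ψ :=
  avgL_mono' fun F _ => h F

theorem avgL_congr {t : ℕ} {Φ Ψ : List α → ℝ} (h : ∀ F, F.length = t → Φ F = Ψ F) :
    avgL t Φ = avgL t Ψ :=
  le_antisymm (avgL_mono' fun F hF => (h F hF).le) (avgL_mono' fun F hF => (h F hF).ge)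

theorem avgL_nonneg {t : ℕ} {Φ : List α → ℝ} (h : ∀ F, 0 ≤ Φ F) : 0 ≤ avgL t Φ := by
  induction t generalizing Φ with
  | zero => exact h []
  | succ t ih => rw [avgL_succ]; exact ih fun F => avg_nonneg fun x => h _

theorem avgL_add (t : ℕ) (Φ Ψ : List α → ℝ) :
    avgL t (fun F => Φ F + Ψ F) = avgL t Φ + avgL t Ψ := by
  induction t generalizing Φ Ψ with
  | zero => rfl
  | succ t ih => simp only [avgL_succ, avg_add]; exact ih _ _

theorem avgL_sub (t : ℕ) (Φ Ψ : List α → ℝ) :
    avgL t (fun F => Φ F - Ψ F) = avgL t Φ - avgL t Ψ := by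
  induction t generalizing Φ Ψ with
  | zero => rfl
  | succ t ih => simp only [avgL_succ, avg_sub]; exact ih _ _

theorem avgL_mul_left (t : ℕ) (c : ℝ) (Φ : List α → ℝ) :
    avgL t (fun F => c * Φ F) = c * avgL t Φ := by
  induction t generalizing Φ with
  | zero => rfl
  | succ t ih => simp only [avgL_succ, avg_mul_left]; exact ih _

theorem avgL_mul_right (t : ℕ) (c : ℝ) (Φ : List α → ℝ) :
    avgL t (fun F => Φ F * c) = avgL t Φ * c := by
  induction t generalizing Φ with
  | zero => rfl
  | succ t ih => simp only [avgL_succ, avg_mul_right]; exact ih _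

theorem avgL_const [Nonempty α] (t : ℕ) (c : ℝ) : avgL t (fun _ : List α => c) = c := by
  induction t with
  | zero => rfl
  | succ t ih => simp only [avgL_succ, avg_const]; exact ih

theorem avgL_le_const {t : ℕ} {Φ : List α → ℝ} {c : ℝ} (hc : 0 ≤ c)
    (h : ∀ F, F.length = t → Φ F ≤ c) : avgL t Φ ≤ c := by
  induction t generalizing Φ with
  | zero => exact h [] rfl
  | succ t ih =>
    rw [avgL_succ]
    exact ih fun F hF => avg_le_const hc fun x => h _ (by simp [hF])

theorem avgL_avg_comm (t : ℕ) (f : List α → β → ℝ) :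
    avgL t (fun F => avg (fun y => f F y)) = avg (fun y => avgL t (fun F => f F y)) := by
  induction t generalizing f with
  | zero => rfl
  | succ t ih =>
    simp only [avgL_succ]
    rw [← ih]
    congr 1; funext F
    exact avg_comm _

theorem avgL_succ' (t : ℕ) (Φ : List α → ℝ) :
    avgL (t + 1) Φ = avg (fun x => avgL t (fun F => Φ (x :: F))) := by
  rw [avgL_succ, avgL_avg_comm]

theorem avgL_comm (s t : ℕ) (f : List α → List β → ℝ) :
    avgL s (fun F => avgL t (fun G => f F G)) = avgL t (fun G => avgL s (fun F => f F G)) := by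
  induction s generalizing f with
  | zero => rfl
  | succ s ih =>
    simp only [avgL_succ]
    rw [← ih]
    congr 1; funext F
    rw [avgL_avg_comm]

/-- Average over lists of length `s + t` = independent averages over the two pieces. -/
theorem avgL_append (s t : ℕ) (Φ : List α → ℝ) :
    avgL (s + t) Φ = avgL s (fun F => avgL t (fun G => Φ (F ++ G))) := by
  induction s generalizing Φ with
  | zero => simp
  | succ s ih =>
    have h1 : s + 1 + t = (s + t) + 1 := by ring
    rw [h1, avgL_succ', avgL_succ']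
    congr 1; funext x
    rw [ih]; rfl

theorem avgL_finset_sum {ι : Type} (t : ℕ) (s : Finset ι) (f : ι → List α → ℝ) :
    avgL t (fun F => ∑ i ∈ s, f i F) = ∑ i ∈ s, avgL t (f i) := by
  induction t generalizing f with
  | zero => rfl
  | succ t ih => simp only [avgL_succ, avg_finset_sum]; exact ih _

theorem avgL_sq_le (t : ℕ) (Φ : List α → ℝ) : (avgL t Φ) ^ 2 ≤ avgL t (fun F => Φ F ^ 2) := by
  induction t generalizing Φ with
  | zero => exact le_refl _
  | succ t ih =>
    rw [avgL_succ, avgL_succ]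
    exact (ih _).trans (avgL_mono fun F => avg_sq_le _)

end avgL

section run
variable {k : ℕ} {V : Type}

theorem run_nil (φ : Set (V → Bool) → ℝ) (S : Set (V → Bool)) :
    run φ S ([] : List (Cl k V)) = φ S := rfl

theorem run_cons (φ : Set (V → Bool) → ℝ) (S : Set (V → Bool)) (C : Cl k V)
    (F : List (Cl k V)) : run φ S (C :: F) = φ S + run φ (S ∩ sset C) F := rfl

theorem run_nonneg {φ : Set (V → Bool) → ℝ} (h : ∀ S, 0 ≤ φ S) (S : Set (V → Bool))
    (F : List (Cl k V)) : 0 ≤ run φ S F := by
  induction F generalizing S with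
  | nil => exact h S
  | cons C F ih => rw [run_cons]; exact add_nonneg (h S) (ih _)

theorem run_mono {φ ψ : Set (V → Bool) → ℝ} (h : ∀ S, φ S ≤ ψ S) (S : Set (V → Bool))
    (F : List (Cl k V)) : run φ S F ≤ run ψ S F := by
  induction F generalizing S with
  | nil => exact h S
  | cons C F ih => rw [run_cons, run_cons]; exact add_le_add (h S) (ih _)

theorem run_add (φ ψ : Set (V → Bool) → ℝ) (S : Set (V → Bool)) (F : List (Cl k V)) :
    run (fun S => φ S + ψ S) S F = run φ S F + run ψ S F := by
  induction F generalizing S with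
  | nil => rfl
  | cons C F ih => simp only [run_cons, ih]; ring

theorem run_mul_left (c : ℝ) (φ : Set (V → Bool) → ℝ) (S : Set (V → Bool))
    (F : List (Cl k V)) : run (fun S => c * φ S) S F = c * run φ S F := by
  induction F generalizing S with
  | nil => rfl
  | cons C F ih => simp only [run_cons, ih]; ring

theorem run_avg {α : Type} [Fintype α] (φ : α → Set (V → Bool) → ℝ) (S : Set (V → Bool))
    (F : List (Cl k V)) :
    run (fun S => avg (fun x => φ x S)) S F = avg (fun x => run (φ x) S F) := by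
  induction F generalizing S with
  | nil => rfl
  | cons C F ih => simp only [run_cons, ih, avg_add]

theorem run_le_length {φ : Set (V → Bool) → ℝ} {c : ℝ} (h : ∀ S, φ S ≤ c)
    (S : Set (V → Bool)) (F : List (Cl k V)) : run φ S F ≤ c * (F.length + 1) := by
  induction F generalizing S with
  | nil => simpa [run_nil] using h S
  | cons C F ih =>
    rw [run_cons, List.length_cons]; push_cast
    nlinarith [h S, ih (S ∩ sset C)]

theorem DD_nonneg (T S : Set (V → Bool)) (F : List (Cl k V)) : 0 ≤ DD T S F :=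
  run_nonneg (fun _ => ind_nonneg _) S F

theorem DD_le (T S : Set (V → Bool)) (F : List (Cl k V)) : DD T S F ≤ F.length + 1 := by
  have := run_le_length (φ := fun S : Set (V → Bool) => ind (S.Nonempty ∧ S ∩ T = ∅))
    (c := 1) (fun _ => ind_le_one _) S F
  rw [one_mul] at this
  exact this

theorem DD_nil (T S : Set (V → Bool)) :
    DD T S ([] : List (Cl k V)) = ind (S.Nonempty ∧ S ∩ T = ∅) := rfl

theorem DD_cons (T S : Set (V → Bool)) (C : Cl k V) (F : List (Cl k V)) :
    DD T S (C :: F) = ind (S.Nonempty ∧ S ∩ T = ∅) + DD T (S ∩ sset C) F := rfl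

/-- `DD` is antitone in the constraint set. -/
theorem DD_anti {T T' : Set (V → Bool)} (h : T ⊆ T') (S : Set (V → Bool))
    (F : List (Cl k V)) : DD T' S F ≤ DD T S F :=
  run_mono (fun S => ind_mono fun ⟨h1, h2⟩ =>
    ⟨h1, Set.eq_empty_of_subset_empty (by rw [← h2]; exact Set.inter_subset_inter_right _ h)⟩) S F

theorem lset_cons (x : Cl k V) (c : List (Cl k V)) : lset (x :: c) = sset x ∩ lset c := by
  ext σ; simp [lset, sset]

theorem lset_nil : lset ([] : List (Cl k V)) = Set.univ := by
  ext σ; simp [lset]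

theorem lset_append (c d : List (Cl k V)) : lset (c ++ d) = lset c ∩ lset d := by
  ext σ
  simp only [lset, Set.mem_ofPred_eq, Set.mem_inter_iff, List.mem_append]
  constructor
  · intro h; exact ⟨fun x hx => h x (Or.inl hx), fun x hx => h x (Or.inr hx)⟩
  · rintro ⟨h1, h2⟩ x (hx | hx)
    exacts [h1 x hx, h2 x hx]

end run

section XX
variable {k : ℕ} {V : Type} [Fintype V]

theorem XX_zero (r : ℝ) (Φ : List (Cl k V) → List (Cl 2 V) → List (Cl 2 V) → ℝ) :
    XX r 0 Φ = Φ [] [] [] := rfl

theorem XX_succ (r : ℝ) (t : ℕ) (Φ : List (Cl k V) → List (Cl 2 V) → List (Cl 2 V) → ℝ) :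
    XX r (t + 1) Φ = XX r t (fun F A B => avg (fun C => Φ (C :: F) A B)
      + r * avg (fun x => Φ F (x :: A) B) + r * avg (fun x => Φ F A (x :: B))) := rfl

theorem XX_mono {r : ℝ} (hr : 0 ≤ r) {t : ℕ}
    {Φ Ψ : List (Cl k V) → List (Cl 2 V) → List (Cl 2 V) → ℝ}
    (h : ∀ F A B, Φ F A B ≤ Ψ F A B) : XX r t Φ ≤ XX r t Ψ := by
  induction t generalizing Φ Ψ with
  | zero => exact h _ _ _
  | succ t ih =>
    rw [XX_succ, XX_succ]
    refine ih fun F A B => ?_
    exact add_le_add (add_le_add (avg_mono fun _ => h _ _ _)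
      (mul_le_mul_of_nonneg_left (avg_mono fun _ => h _ _ _) hr))
      (mul_le_mul_of_nonneg_left (avg_mono fun _ => h _ _ _) hr)

theorem XX_add (r : ℝ) (t : ℕ)
    (Φ Ψ : List (Cl k V) → List (Cl 2 V) → List (Cl 2 V) → ℝ) :
    XX r t (fun F A B => Φ F A B + Ψ F A B) = XX r t Φ + XX r t Ψ := by
  induction t generalizing Φ Ψ with
  | zero => rfl
  | succ t ih =>
    rw [XX_succ, XX_succ, XX_succ, ← ih]
    congr 1; funext F A B
    simp only [avg_add]; ring

theorem XX_mul_left (r : ℝ) (t : ℕ) (c : ℝ)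
    (Φ : List (Cl k V) → List (Cl 2 V) → List (Cl 2 V) → ℝ) :
    XX r t (fun F A B => c * Φ F A B) = c * XX r t Φ := by
  induction t generalizing Φ with
  | zero => rfl
  | succ t ih =>
    rw [XX_succ, XX_succ, ← ih]
    congr 1; funext F A B
    simp only [avg_mul_left]; ring

/-- The key summation bound for the cavity expansion. -/
theorem XX_le {r : ℝ} (hr : 0 ≤ r) {z : ℝ} (t : ℕ) {Y : ℝ}
    {Φ : List (Cl k V) → List (Cl 2 V) → List (Cl 2 V) → ℝ}
    (h : ∀ s α β : ℕ, s + α + β = t →
      avgL s (fun F => avgL α (fun A => avgL β (fun B => Φ F A B))) ≤ Y * z ^ (α + β)) :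
    XX r t Φ ≤ Y * (1 + 2 * r * z) ^ t := by
  induction t generalizing Φ Y with
  | zero => simpa [XX_zero] using h 0 0 0 rfl
  | succ t ih =>
    have e1 : XX r (t + 1) Φ = XX r t (fun F A B => avg (fun C => Φ (C :: F) A B))
        + r * XX r t (fun F A B => avg (fun x => Φ F (x :: A) B))
        + r * XX r t (fun F A B => avg (fun x => Φ F A (x :: B))) := by
      rw [XX_succ, XX_add, XX_add, XX_mul_left, XX_mul_left]
    have h1 : XX r t (fun F A B => avg (fun C => Φ (C :: F) A B))
        ≤ Y * (1 + 2 * r * z) ^ t := by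
      refine ih fun s α β hs => ?_
      have := h (s + 1) α β (by omega)
      rw [avgL_succ] at this
      refine le_trans (le_of_eq ?_) this
      congr 1; funext F
      rw [← avgL_avg_comm]
      congr 1; funext A
      rw [← avgL_avg_comm]
    have h2 : XX r t (fun F A B => avg (fun x => Φ F (x :: A) B))
        ≤ (Y * z) * (1 + 2 * r * z) ^ t := by
      refine ih fun s α β hs => ?_
      have := h s (α + 1) β (by omega)
      refine le_trans (le_of_eq ?_) (this.trans (le_of_eq (by ring)))
      congr 1; funext F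
      rw [avgL_succ]
      congr 1; funext A
      rw [← avgL_avg_comm]
    have h3 : XX r t (fun F A B => avg (fun x => Φ F A (x :: B)))
        ≤ (Y * z) * (1 + 2 * r * z) ^ t := by
      refine ih fun s α β hs => ?_
      have := h s α (β + 1) (by omega)
      exact le_trans (le_of_eq rfl) (this.trans (le_of_eq (by ring)))
    rw [e1]
    calc _ ≤ Y * (1 + 2 * r * z) ^ t + r * ((Y * z) * (1 + 2 * r * z) ^ t)
          + r * ((Y * z) * (1 + 2 * r * z) ^ t) := by
          exact add_le_add (add_le_add h1 (mul_le_mul_of_nonneg_left h2 hr))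
            (mul_le_mul_of_nonneg_left h3 hr)
      _ = Y * (1 + 2 * r * z) ^ (t + 1) := by ring

theorem XX_nonneg {r : ℝ} (hr : 0 ≤ r) {t : ℕ}
    {Φ : List (Cl k V) → List (Cl 2 V) → List (Cl 2 V) → ℝ}
    (h : ∀ F A B, 0 ≤ Φ F A B) : 0 ≤ XX r t Φ := by
  induction t generalizing Φ with
  | zero => exact h _ _ _
  | succ t ih =>
    rw [XX_succ]
    refine ih fun F A B => ?_
    exact add_nonneg (add_nonneg (avg_nonneg fun _ => h _ _ _)
      (mul_nonneg hr (avg_nonneg fun _ => h _ _ _)))
      (mul_nonneg hr (avg_nonneg fun _ => h _ _ _))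

theorem XX_avg {α : Type} [Fintype α] (r : ℝ) (t : ℕ)
    (Φ : α → List (Cl k V) → List (Cl 2 V) → List (Cl 2 V) → ℝ) :
    XX r t (fun F A B => avg (fun y => Φ y F A B)) = avg (fun y => XX r t (Φ y)) := by
  induction t generalizing Φ with
  | zero => rfl
  | succ t ih =>
    simp only [XX_succ]
    rw [← ih]
    congr 1; funext F A B
    rw [avg_add, avg_add, avg_mul_left, avg_mul_left]
    congr 1
    · congr 1
      · exact avg_comm _
      · rw [avg_comm]
    · rw [avg_comm]

/-- Averages over a list of parameters commute with the cavity expansion. -/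
theorem XX_avgL {α : Type} [Fintype α] (r : ℝ) (t i : ℕ)
    (Φ : List α → List (Cl k V) → List (Cl 2 V) → List (Cl 2 V) → ℝ) :
    XX r t (fun F A B => avgL i (fun c => Φ c F A B)) = avgL i (fun c => XX r t (Φ c)) := by
  induction i generalizing Φ with
  | zero => rfl
  | succ i ih =>
    simp only [avgL_succ]
    rw [ih]
    congr 1; funext c
    exact XX_avg r t _

end XX

/-! ### further definitions -/

/-- Good pair of variables: outside the extra clauses, and in no common clause of `F`. -/
def Good {k : ℕ} {V : Type} (v v' : V) (c c' : List (Cl 2 V)) (F : List (Cl k V)) : Prop :=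
  (∀ x ∈ c, ¬ Has x v ∧ ¬ Has x v') ∧ (∀ x ∈ c', ¬ Has x v ∧ ¬ Has x v') ∧
    (∀ C ∈ F, ¬ (Has C v ∧ Has C v'))

/-- Classification of the clauses over `V` when the variable `e none` is removed: clauses without
it (over `V'`), clauses containing the literal `(e none, !b)` (shortened to a 2-clause), clauses
containing the literal `(e none, b)` (shortened to a 2-clause). -/
structure Cav {V V' : Type} [Fintype V] [Fintype V'] (k : ℕ) (e : Option V' ≃ V) (b : Bool)
    (r : ℝ) where
  cl : Cl k V → Cl k V' ⊕ (Cl 2 V' ⊕ Cl 2 V')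
  inl_eq : ∀ C C', cl C = Sum.inl C' → C = liftC e C'
  inA : ∀ C c, cl C = Sum.inr (Sum.inl c) → ∃ i, C.1 i = e none ∧ C.2 i = (!b) ∧
    ∃ g : Fin 2 → Fin k, ∀ j, g j ≠ i ∧ C.1 (g j) = e (some (c.1 j)) ∧ C.2 (g j) = c.2 j
  inB : ∀ C c, cl C = Sum.inr (Sum.inr c) → ∃ i, C.1 i = e none ∧ C.2 i = b ∧
    ∃ g : Fin 2 → Fin k, ∀ j, g j ≠ i ∧ C.1 (g j) = e (some (c.1 j)) ∧ C.2 (g j) = c.2 j
  avg_le : ∀ Φ : Cl k V' ⊕ (Cl 2 V' ⊕ Cl 2 V') → ℝ, (∀ x, 0 ≤ Φ x) →
    avg (fun C : Cl k V => Φ (cl C)) ≤ avg (fun C' : Cl k V' => Φ (Sum.inl C'))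
      + r * avg (fun x : Cl 2 V' => Φ (Sum.inr (Sum.inl x)))
      + r * avg (fun x : Cl 2 V' => Φ (Sum.inr (Sum.inr x)))

namespace Cav
variable {V V' : Type} [Fintype V] [Fintype V'] {k : ℕ} {e : Option V' ≃ V} {b : Bool} {r : ℝ}

/-- The clauses not containing the removed variable. -/
def spN (K : Cav k e b r) (F : List (Cl k V)) : List (Cl k V') :=
  F.filterMap (fun C => match K.cl C with
    | Sum.inl C' => some C'
    | Sum.inr _ => none)

/-- The shortened clauses falsified when the removed variable gets the value `b`. -/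
def spA (K : Cav k e b r) (F : List (Cl k V)) : List (Cl 2 V') :=
  F.filterMap (fun C => match K.cl C with
    | Sum.inr (Sum.inl c) => some c
    | _ => none)

/-- The shortened clauses falsified when the removed variable gets the value `!b`. -/
def spB (K : Cav k e b r) (F : List (Cl k V)) : List (Cl 2 V') :=
  F.filterMap (fun C => match K.cl C with
    | Sum.inr (Sum.inr c) => some c
    | _ => none)

end Cav

/-- The inductive statement: `L(a,b) ≤ Λ 2^(a+b)` for all formulas with at most `M` clauses on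
`n` variables. -/
def PP (k M n : ℕ) (Λ : ℝ) : Prop :=
  ∀ (V : Type) [Fintype V], Fintype.card V = n → ∀ t ≤ M, ∀ a b : ℕ,
    LL k V t a b ≤ Λ * 2 ^ (a + b)

end

end Crest.Agent.RS
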