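import Mathlib
import Crest.Agent.RS_Defs

set_option autoImplicit false

namespace Crest.Agent.RS

open Classical

noncomputable section

/-- Averages along a map with equal (nonempty) fibres. -/
theorem avg_fiber {α β : Type} [Fintype α] [Fintype β] (π : α → β) (N : ℕ) (hN : 0 < N)
    (h : ∀ y, (Finset.univ.filter (fun x => π x = y)).card = N) (φ : β → ℝ) :
    avg (fun x => φ (π x)) = avg φ := by
  have key : ∀ ψ : β → ℝ, ∑ x, ψ (π x) = N * ∑ y, ψ y := by
    intro ψ
    rw [← Finset.sum_fiberwise Finset.univ π (fun x => ψ (π x)), Finset.mul_sum]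
    refine Finset.sum_congr rfl fun y _ => ?_
    have h3 : ∑ x ∈ Finset.univ.filter (fun x => π x = y), ψ (π x)
        = ∑ x ∈ Finset.univ.filter (fun x => π x = y), ψ y := by
      refine Finset.sum_congr rfl fun x hx => ?_
      rw [(Finset.mem_filter.1 hx).2]
    rw [h3, Finset.sum_const, h, nsmul_eq_mul]
  have h2 : (Fintype.card α : ℝ) = N * Fintype.card β := by
    have := key (fun _ => 1)
    simpa using this
  unfold avg
  have hN' : (N : ℝ) ≠ 0 := by exact_mod_cast hN.ne'
  rw [key φ, h2, mul_div_mul_left _ _ hN']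

/-- Xor with a mask. -/
def flipM {k : ℕ} (m : Fin k → Bool) : (Fin k → Bool) ≃ (Fin k → Bool) where
  toFun s := fun i => xor (s i) (m i)
  invFun s := fun i => xor (s i) (m i)
  left_inv s := by funext i; simp
  right_inv s := by funext i; simp

/-- Action of a permutation and a mask on clauses. -/
def actC {k : ℕ} {V : Type} (σ : Equiv.Perm V) (m : Fin k → Bool) : Cl k V ≃ Cl k V :=
  Equiv.prodCongr (Equiv.embeddingCongr (Equiv.refl _) σ) (flipM m)

/-- RS-T1. Restricting a uniform clause along an injective index map gives a uniform clause.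
Proof: all the fibres of the restriction map `Cl k V → Cl j V` have the same cardinality (a
permutation of `V` and a flip of signs maps any fibre onto any other; or count the extensions of an
embedding), and `Cl k V` is nonempty because `k ≤ card V`. -/
theorem avg_restrict {j k : ℕ} {V : Type} [Fintype V] (hk : k ≤ Fintype.card V)
    (g : Fin j ↪ Fin k) (φ : Cl j V → ℝ) :
    avg (fun C : Cl k V => φ (g.trans C.1, fun i => C.2 (g i))) = avg φ := by
  obtain ⟨f0⟩ : Nonempty (Fin k ↪ V) := Function.Embedding.nonempty_of_card_le (by simpa using hk)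
  set π : Cl k V → Cl j V := fun C => (g.trans C.1, fun i => C.2 (g i)) with hπ
  have hfib : ∀ y y' : Cl j V, (Finset.univ.filter (fun C => π C = y)).card
      = (Finset.univ.filter (fun C => π C = y')).card := by
    intro y y'
    obtain ⟨σ, hσ⟩ : ∃ σ : Equiv.Perm V, ∀ i, σ (y.1 i) = y'.1 i := by
      have := Equiv.Perm.isMultiplyPretransitive V j
      obtain ⟨σ, hσ⟩ := this.exists_smul_eq y.1 y'.1
      exact ⟨σ, fun i => by rw [← hσ]; rfl⟩
    obtain ⟨m, hm⟩ : ∃ m : Fin k → Bool, ∀ i, m (g i) = xor (y.2 i) (y'.2 i) :=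
      ⟨Function.extend g (fun i => xor (y.2 i) (y'.2 i)) (fun _ => false),
        fun i => g.injective.extend_apply _ _ i⟩
    refine Finset.card_bij (fun C _ => actC σ m C) ?_ ?_ ?_
    · intro C hC
      rw [Finset.mem_filter] at hC ⊢
      refine ⟨Finset.mem_univ _, ?_⟩
      have hC := hC.2
      have h1 : ∀ i, C.1 (g i) = y.1 i := fun i => by rw [← hC]; rfl
      have h2 : ∀ i, C.2 (g i) = y.2 i := fun i => by rw [← hC]
      refine Prod.ext ?_ ?_
      · ext i
        change σ (C.1 (g i)) = y'.1 i
        rw [h1, hσ]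
      · funext i
        change xor (C.2 (g i)) (m (g i)) = y'.2 i
        rw [h2, hm]
        cases y.2 i <;> cases y'.2 i <;> rfl
    · intro C _ C' _ h
      exact (actC σ m).injective h
    · intro C hC
      rw [Finset.mem_filter] at hC
      have hC := hC.2
      have h1 : ∀ i, C.1 (g i) = y'.1 i := fun i => by rw [← hC]; rfl
      have h2 : ∀ i, C.2 (g i) = y'.2 i := fun i => by rw [← hC]
      refine ⟨(actC σ m).symm C, ?_, (actC σ m).apply_symm_apply C⟩
      rw [Finset.mem_filter]
      refine ⟨Finset.mem_univ _, ?_⟩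
      refine Prod.ext ?_ ?_
      · ext i
        change σ.symm (C.1 (g i)) = y.1 i
        rw [h1, ← hσ, Equiv.symm_apply_apply]
      · funext i
        change xor (C.2 (g i)) (m (g i)) = y.2 i
        rw [h2, hm]
        cases y.2 i <;> cases y'.2 i <;> rfl
  refine avg_fiber π (Finset.univ.filter (fun C => π C = π (f0, fun _ => true))).card ?_ ?_ φ
  · exact Finset.card_pos.2 ⟨(f0, fun _ => true), by simp⟩
  · intro y; convert hfib y (π (f0, fun _ => true))

end

end Crest.Agent.RS
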