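import Mathlib
import Crest.Agent.RS_T1

set_option autoImplicit false

namespace Crest.Agent.RS

open Classical

noncomputable section

/-- Insert the variable `e none` with sign `s` at position `i` in a clause over `V'`. -/
def insC {m : ℕ} {V V' : Type} (e : Option V' ≃ V) (i : Fin (m + 1)) (s : Bool) (D : Cl m V') :
    Cl (m + 1) V :=
  (⟨fun j => Fin.insertNth (α := fun _ => V) i (e none) (fun j => e (some (D.1 j))) j, by
    intro x y hxy
    dsimp only at hxy
    rcases Fin.eq_self_or_eq_succAbove i x with rfl | ⟨x', rfl⟩
    · rcases Fin.eq_self_or_eq_succAbove x y with rfl | ⟨y', rfl⟩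
      · rfl
      · rw [Fin.insertNth_apply_same, Fin.insertNth_apply_succAbove] at hxy
        exact absurd (e.injective hxy) (by simp)
    · rcases Fin.eq_self_or_eq_succAbove i y with rfl | ⟨y', rfl⟩
      · rw [Fin.insertNth_apply_same, Fin.insertNth_apply_succAbove] at hxy
        exact absurd (e.injective hxy) (by simp)
      · rw [Fin.insertNth_apply_succAbove, Fin.insertNth_apply_succAbove] at hxy
        have h1 := e.injective hxy
        have h2 := D.1.injective (Option.some.inj h1)
        rw [h2]⟩,
    fun j => Fin.insertNth (α := fun _ => Bool) i s D.2 j)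

theorem insC_fst_same {m : ℕ} {V V' : Type} (e : Option V' ≃ V) (i : Fin (m + 1)) (s : Bool)
    (D : Cl m V') : (insC e i s D).1 i = e none := by
  show Fin.insertNth (α := fun _ => V) i (e none) (fun j => e (some (D.1 j))) i = e none
  rw [Fin.insertNth_apply_same]

theorem insC_fst_sa {m : ℕ} {V V' : Type} (e : Option V' ≃ V) (i : Fin (m + 1)) (s : Bool)
    (D : Cl m V') (j : Fin m) : (insC e i s D).1 (i.succAbove j) = e (some (D.1 j)) := by
  show Fin.insertNth (α := fun _ => V) i (e none) (fun j => e (some (D.1 j))) (i.succAbove j) = _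
  rw [Fin.insertNth_apply_succAbove]

theorem insC_snd_same {m : ℕ} {V V' : Type} (e : Option V' ≃ V) (i : Fin (m + 1)) (s : Bool)
    (D : Cl m V') : (insC e i s D).2 i = s := by
  show Fin.insertNth (α := fun _ => Bool) i s D.2 i = s
  rw [Fin.insertNth_apply_same]

theorem insC_snd_sa {m : ℕ} {V V' : Type} (e : Option V' ≃ V) (i : Fin (m + 1)) (s : Bool)
    (D : Cl m V') (j : Fin m) : (insC e i s D).2 (i.succAbove j) = D.2 j := by
  show Fin.insertNth (α := fun _ => Bool) i s D.2 (i.succAbove j) = _
  rw [Fin.insertNth_apply_succAbove]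

theorem liftC_fst {k : ℕ} {V V' : Type} (e : Option V' ≃ V) (C : Cl k V') (i : Fin k) :
    (liftC e C).1 i = e (some (C.1 i)) := rfl

theorem liftC_snd {k : ℕ} {V V' : Type} (e : Option V' ≃ V) (C : Cl k V') (i : Fin k) :
    (liftC e C).2 i = C.2 i := rfl

/-- The bijection behind the classification. -/
def cavF {m : ℕ} {V V' : Type} (e : Option V' ≃ V) :
    Cl (m + 1) V' ⊕ (Fin (m + 1) × Bool × Cl m V') → Cl (m + 1) V
  | Sum.inl C => liftC e C
  | Sum.inr (i, s, D) => insC e i s D

theorem cl_ext {k : ℕ} {V : Type} {C D : Cl k V} (h1 : ∀ i, C.1 i = D.1 i)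
    (h2 : ∀ i, C.2 i = D.2 i) : C = D := by
  refine Prod.ext ?_ ?_
  · ext i; exact h1 i
  · funext i; exact h2 i

theorem cavF_bij {m : ℕ} {V V' : Type} (e : Option V' ≃ V) :
    Function.Bijective (cavF (m := m) e) := by
  constructor
  · rintro (C | ⟨i, s, D⟩) (C' | ⟨i', s', D'⟩) h
    · have h1 : liftC e C = liftC e C' := h
      congr 1
      refine cl_ext (fun i => ?_) (fun i => ?_)
      · have := congrArg (fun x => x.1 i) h1
        simp only [liftC_fst] at this
        exact Option.some.inj (e.injective this)
      · have := congrArg (fun x => x.2 i) h1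
        simpa only [liftC_snd] using this
    · exfalso
      have h1 : liftC e C = insC e i' s' D' := h
      have := congrArg (fun x => x.1 i') h1
      simp only [liftC_fst, insC_fst_same] at this
      exact absurd (e.injective this) (by simp)
    · exfalso
      have h1 : insC e i s D = liftC e C' := h
      have := congrArg (fun x => x.1 i) h1
      simp only [liftC_fst, insC_fst_same] at this
      exact absurd (e.injective this) (by simp)
    · have h1 : insC e i s D = insC e i' s' D' := h
      have hi : i = i' := by
        have h2 := congrArg (fun x => x.1 i) h1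
        simp only [insC_fst_same] at h2
        rcases Fin.eq_self_or_eq_succAbove i' i with h3 | ⟨y', h3⟩
        · exact h3
        · rw [h3, insC_fst_sa] at h2
          exact absurd (e.injective h2) (by simp)
      subst hi
      have hs : s = s' := by
        have h2 := congrArg (fun x => x.2 i) h1
        simpa only [insC_snd_same] using h2
      subst hs
      have hD : D = D' := by
        refine cl_ext (fun j => ?_) (fun j => ?_)
        · have h2 := congrArg (fun x => x.1 (i.succAbove j)) h1
          simp only [insC_fst_sa] at h2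
          exact Option.some.inj (e.injective h2)
        · have h2 := congrArg (fun x => x.2 (i.succAbove j)) h1
          simpa only [insC_snd_sa] using h2
      rw [hD]
  · intro C
    by_cases hC : ∃ i, C.1 i = e none
    · obtain ⟨i, hi⟩ := hC
      have hne : ∀ j, ∃ v', e (some v') = C.1 (i.succAbove j) := by
        intro j
        rcases ho : e.symm (C.1 (i.succAbove j)) with _ | v'
        · exfalso
          have h1 : C.1 (i.succAbove j) = e none := by rw [← ho, Equiv.apply_symm_apply]
          have h2 := C.1.injective (h1.trans hi.symm)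
          exact absurd h2 (Fin.succAbove_ne i j)
        · exact ⟨v', by rw [← ho, Equiv.apply_symm_apply]⟩
      choose f hf using hne
      have hfi : Function.Injective f := by
        intro x y hxy
        have h1 : C.1 (i.succAbove x) = C.1 (i.succAbove y) := by rw [← hf, ← hf, hxy]
        exact Fin.succAbove_right_injective (C.1.injective h1)
      refine ⟨Sum.inr (i, C.2 i, (⟨f, hfi⟩, fun j => C.2 (i.succAbove j))), ?_⟩
      show insC e i (C.2 i) (⟨f, hfi⟩, fun j => C.2 (i.succAbove j)) = C
      refine cl_ext (fun x => ?_) (fun x => ?_)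
      · rcases Fin.eq_self_or_eq_succAbove i x with rfl | ⟨x', rfl⟩
        · rw [insC_fst_same, hi]
        · rw [insC_fst_sa]; exact hf x'
      · rcases Fin.eq_self_or_eq_succAbove i x with rfl | ⟨x', rfl⟩
        · rw [insC_snd_same]
        · rw [insC_snd_sa]
    · push Not at hC
      have hne : ∀ j, ∃ v', e (some v') = C.1 j := by
        intro j
        rcases ho : e.symm (C.1 j) with _ | v'
        · exfalso
          have h1 : C.1 j = e none := by rw [← ho, Equiv.apply_symm_apply]
          exact hC j h1
        · exact ⟨v', by rw [← ho, Equiv.apply_symm_apply]⟩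
      choose f hf using hne
      have hfi : Function.Injective f := by
        intro x y hxy
        have h1 : C.1 x = C.1 y := by rw [← hf, ← hf, hxy]
        exact C.1.injective h1
      refine ⟨Sum.inl (⟨f, hfi⟩, C.2), ?_⟩
      show liftC e (⟨f, hfi⟩, C.2) = C
      refine cl_ext (fun x => ?_) (fun x => ?_)
      · rw [liftC_fst]; exact hf x
      · rw [liftC_snd]

/-- Restriction of a clause along an injective index map. -/
def resC {j k : ℕ} {V : Type} (g : Fin j ↪ Fin k) (C : Cl k V) : Cl j V :=
  (g.trans C.1, fun i => C.2 (g i))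

/-- The classification on the sum side. -/
def cavG {m : ℕ} {V' : Type} (hm : 2 ≤ m) (b : Bool) :
    Cl (m + 1) V' ⊕ (Fin (m + 1) × Bool × Cl m V') → Cl (m + 1) V' ⊕ (Cl 2 V' ⊕ Cl 2 V')
  | Sum.inl C => Sum.inl C
  | Sum.inr (_, s, D) => if s = !b then Sum.inr (Sum.inl (resC (Fin.castLEEmb hm) D))
      else Sum.inr (Sum.inr (resC (Fin.castLEEmb hm) D))

/-- RS-T2. Existence of the classification. Proof sketch: a uniform clause contains `e none` at
position `i` with probability `1/n` (`n = card V`), with sign `b` or `!b` with probability `1/2`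
each, and given this the remaining variables and signs are uniform over `V'`; shorten them to two
literals along a fixed `Fin 2 ↪ Fin k` avoiding `i` (`k ≥ 3`). `avg_le` only needs `≤` (the
probability of avoiding `e none` is at most one). -/
theorem exists_cav {k : ℕ} (hk : 3 ≤ k) {V V' : Type} [Fintype V] [Fintype V']
    (e : Option V' ≃ V) (b : Bool) (hn : k ≤ Fintype.card V') :
    Nonempty (Cav k e b ((k : ℝ) / (2 * Fintype.card V))) := by
  obtain ⟨m, rfl⟩ : ∃ m, k = m + 1 := ⟨k - 1, by omega⟩
  have hm : 2 ≤ m := by omega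
  let E := Equiv.ofBijective (cavF (m := m) e) (cavF_bij e)
  have hE : ∀ x, E x = cavF e x := fun x => rfl
  refine ⟨{ cl := fun C => cavG hm b (E.symm C), inl_eq := ?_, inA := ?_, inB := ?_, avg_le := ?_ }⟩
  · intro C C' h
    rcases hx : E.symm C with C'' | ⟨i, s, D⟩
    · rw [hx] at h
      have h1 : C'' = C' := Sum.inl.inj h
      have h2 : C = E (Sum.inl C'') := by rw [← hx, Equiv.apply_symm_apply]
      rw [h2, h1]; rfl
    · rw [hx] at h
      exfalso
      simp only [cavG] at h
      split_ifs at h
  · intro C c h
    rcases hx : E.symm C with C'' | ⟨i, s, D⟩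
    · rw [hx] at h
      simp only [cavG] at h
      exact absurd h (by simp)
    · rw [hx] at h
      have h2 : C = insC e i s D := by
        have : C = E (Sum.inr (i, s, D)) := by rw [← hx, Equiv.apply_symm_apply]
        rw [this]; rfl
      simp only [cavG] at h
      by_cases hs : s = !b
      · rw [if_pos hs] at h
        have h3 : resC (Fin.castLEEmb hm) D = c := Sum.inl.inj (Sum.inr.inj h)
        refine ⟨i, ?_, ?_, fun j => i.succAbove (Fin.castLE hm j), fun j => ⟨?_, ?_, ?_⟩⟩
        · rw [h2, insC_fst_same]
        · rw [h2, insC_snd_same, hs]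
        · exact Fin.succAbove_ne i _
        · rw [h2, insC_fst_sa, ← h3]; rfl
        · rw [h2, insC_snd_sa, ← h3]; rfl
      · rw [if_neg hs] at h
        exact absurd h (by simp)
  · intro C c h
    rcases hx : E.symm C with C'' | ⟨i, s, D⟩
    · rw [hx] at h
      simp only [cavG] at h
      exact absurd h (by simp)
    · rw [hx] at h
      have h2 : C = insC e i s D := by
        have : C = E (Sum.inr (i, s, D)) := by rw [← hx, Equiv.apply_symm_apply]
        rw [this]; rfl
      simp only [cavG] at h
      by_cases hs : s = !b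
      · rw [if_pos hs] at h
        exact absurd h (by simp)
      · rw [if_neg hs] at h
        have h3 : resC (Fin.castLEEmb hm) D = c := Sum.inr.inj (Sum.inr.inj h)
        refine ⟨i, ?_, ?_, fun j => i.succAbove (Fin.castLE hm j), fun j => ⟨?_, ?_, ?_⟩⟩
        · rw [h2, insC_fst_same]
        · rw [h2, insC_snd_same]
          cases s <;> cases b <;> simp_all
        · exact Fin.succAbove_ne i _
        · rw [h2, insC_fst_sa, ← h3]; rfl
        · rw [h2, insC_snd_sa, ← h3]; rfl
  · intro Φ hΦ
    -- cardinalities
    have hcV : Fintype.card V = Fintype.card V' + 1 := by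
      rw [← Fintype.card_congr e, Fintype.card_option]
    have hcard : (Fintype.card (Cl (m + 1) V) : ℝ)
        = Fintype.card (Cl (m + 1) V') + 2 * (m + 1) * Fintype.card (Cl m V') := by
      have h1 := Fintype.card_congr E
      rw [← h1, Fintype.card_sum, Fintype.card_prod (Fin (m + 1)) (Bool × Cl m V'),
        Fintype.card_prod Bool (Cl m V'), Fintype.card_fin, Fintype.card_bool]
      push_cast; ring
    have hcard2 : (Fintype.card (Cl (m + 1) V) : ℝ)
        = 2 * Fintype.card V * Fintype.card (Cl m V') := by
      have h1 : ∀ (j : ℕ) (W : Type) [Fintype W],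
          Fintype.card (Cl j W) = (Fintype.card W).descFactorial j * 2 ^ j := by
        intro j W _
        rw [Fintype.card_prod, Fintype.card_embedding_eq, Fintype.card_fin, Fintype.card_fun,
          Fintype.card_bool, Fintype.card_fin]
      rw [h1, h1, hcV, Nat.succ_descFactorial_succ]
      push_cast; ring
    have hpos : (0:ℝ) < Fintype.card (Cl m V') := by
      have h1 : Nonempty (Fin m ↪ V') := by
        rw [Function.Embedding.nonempty_iff_card_le, Fintype.card_fin]; omega
      have h2 : Nonempty (Cl m V') := ⟨(h1.some, fun _ => true)⟩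
      exact_mod_cast Fintype.card_pos
    have hpos1 : (0:ℝ) < Fintype.card (Cl (m + 1) V') := by
      have h1 : Nonempty (Fin (m + 1) ↪ V') := by
        rw [Function.Embedding.nonempty_iff_card_le, Fintype.card_fin]; omega
      have h2 : Nonempty (Cl (m + 1) V') := ⟨(h1.some, fun _ => true)⟩
      exact_mod_cast Fintype.card_pos
    have hVpos : (0:ℝ) < Fintype.card V := by rw [hcV]; push_cast; positivity
    -- the sum
    have hsum : (∑ C : Cl (m + 1) V, Φ (cavG hm b (E.symm C)))
        = (∑ C' : Cl (m + 1) V', Φ (Sum.inl C'))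
          + (m + 1) * (∑ D : Cl m V', Φ (Sum.inr (Sum.inl (resC (Fin.castLEEmb hm) D))))
          + (m + 1) * (∑ D : Cl m V', Φ (Sum.inr (Sum.inr (resC (Fin.castLEEmb hm) D)))) := by
      rw [← Equiv.sum_comp E]
      simp only [Equiv.symm_apply_apply]
      rw [Fintype.sum_sum_type, Fintype.sum_prod_type]
      simp only [Fintype.sum_prod_type, Fintype.sum_bool]
      rw [add_assoc]
      congr 1
      have h1 : ∀ D : Cl m V', ∀ i : Fin (m + 1),
          Φ (cavG hm b (Sum.inr (i, true, D))) + Φ (cavG hm b (Sum.inr (i, false, D)))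
          = Φ (Sum.inr (Sum.inl (resC (Fin.castLEEmb hm) D)))
            + Φ (Sum.inr (Sum.inr (resC (Fin.castLEEmb hm) D))) := by
        intro D i
        cases b
        · simp [cavG]
        · simp [cavG]; ring
      have h2 : ∀ i : Fin (m + 1),
          ((∑ D : Fin m ↪ V', ∑ y : Fin m → Bool, Φ (cavG hm b (Sum.inr (i, true, (D, y)))))
          + ∑ D : Fin m ↪ V', ∑ y : Fin m → Bool, Φ (cavG hm b (Sum.inr (i, false, (D, y)))))
          = (∑ D : Fin m ↪ V', ∑ y : Fin m → Bool,
              Φ (Sum.inr (Sum.inl (resC (Fin.castLEEmb hm) (D, y)))))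
            + (∑ D : Fin m ↪ V', ∑ y : Fin m → Bool,
              Φ (Sum.inr (Sum.inr (resC (Fin.castLEEmb hm) (D, y))))) := by
        intro i
        rw [← Finset.sum_add_distrib, ← Finset.sum_add_distrib]
        refine Finset.sum_congr rfl fun D _ => ?_
        rw [← Finset.sum_add_distrib, ← Finset.sum_add_distrib]
        exact Finset.sum_congr rfl fun y _ => h1 (D, y) i
      rw [Finset.sum_congr rfl fun i _ => h2 i]
      rw [Finset.sum_const, Finset.card_univ, Fintype.card_fin, nsmul_eq_mul]
      push_cast; ring
    have hA := avg_restrict (V := V') (j := 2) (k := m) (by omega) (Fin.castLEEmb hm)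
      (fun x => Φ (Sum.inr (Sum.inl x)))
    have hB := avg_restrict (V := V') (j := 2) (k := m) (by omega) (Fin.castLEEmb hm)
      (fun x => Φ (Sum.inr (Sum.inr x)))
    have hA' : (∑ D : Cl m V', Φ (Sum.inr (Sum.inl (resC (Fin.castLEEmb hm) D))))
        = Fintype.card (Cl m V') * avg (fun x : Cl 2 V' => Φ (Sum.inr (Sum.inl x))) := by
      rw [← hA]; unfold avg; unfold resC; field_simp
    have hB' : (∑ D : Cl m V', Φ (Sum.inr (Sum.inr (resC (Fin.castLEEmb hm) D))))
        = Fintype.card (Cl m V') * avg (fun x : Cl 2 V' => Φ (Sum.inr (Sum.inr x))) := by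
      rw [← hB]; unfold avg; unfold resC; field_simp
    have h0 : avg (fun C : Cl (m + 1) V => Φ (cavG hm b (E.symm C)))
        = (∑ C' : Cl (m + 1) V', Φ (Sum.inl C')) / Fintype.card (Cl (m + 1) V)
          + (((m + 1 : ℕ) : ℝ) / (2 * Fintype.card V))
              * avg (fun x : Cl 2 V' => Φ (Sum.inr (Sum.inl x)))
          + (((m + 1 : ℕ) : ℝ) / (2 * Fintype.card V))
              * avg (fun x : Cl 2 V' => Φ (Sum.inr (Sum.inr x))) := by
      conv_lhs => unfold avg
      rw [hsum, hA', hB', hcard2]
      push_cast
      field_simp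
    show avg (fun C : Cl (m + 1) V => Φ (cavG hm b (E.symm C))) ≤ _
    rw [h0]
    have h1 : (∑ C' : Cl (m + 1) V', Φ (Sum.inl C')) / Fintype.card (Cl (m + 1) V)
        ≤ avg (fun C' : Cl (m + 1) V' => Φ (Sum.inl C')) := by
      unfold avg
      refine div_le_div_of_nonneg_left (Finset.sum_nonneg fun _ _ => hΦ _) hpos1 ?_
      rw [hcard]
      nlinarith [hpos]
    linarith

end

end Crest.Agent.RS
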