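import Mathlib
import Crest.Agent.RS_Defs

set_option autoImplicit false

namespace Crest.Agent.RS

open Classical

noncomputable section

/-- RS-T3. Domination of a list average by the cavity expansion. Induction on `t` (generalizing
`Ψ`, `Φ`), using `K.avg_le` for the head clause and the definitions `avgL_succ`, `XX_succ`. -/
theorem avgL_le_XX {V V' : Type} [Fintype V] [Fintype V'] {k : ℕ} {e : Option V' ≃ V}
    {b : Bool} {r : ℝ} (K : Cav k e b r) (hr : 0 ≤ r) (t : ℕ) (Ψ : List (Cl k V) → ℝ)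
    (Φ : List (Cl k V') → List (Cl 2 V') → List (Cl 2 V') → ℝ)
    (hΦ : ∀ F A B, 0 ≤ Φ F A B)
    (h : ∀ F, F.length = t → Ψ F ≤ Φ (K.spN F) (K.spA F) (K.spB F)) :
    avgL t Ψ ≤ XX r t Φ := by
  induction t generalizing Ψ Φ with
  | zero =>
    have := h [] rfl
    simpa [Cav.spN, Cav.spA, Cav.spB, XX_zero] using this
  | succ t ih =>
    rw [avgL_succ, XX_succ]
    refine ih _ _ (fun F A B => ?_) (fun F hF => ?_)
    · exact add_nonneg (add_nonneg (avg_nonneg fun _ => hΦ _ _ _)
        (mul_nonneg hr (avg_nonneg fun _ => hΦ _ _ _)))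
        (mul_nonneg hr (avg_nonneg fun _ => hΦ _ _ _))
    · let Θ : Cl k V' ⊕ (Cl 2 V' ⊕ Cl 2 V') → ℝ := fun y => match y with
        | Sum.inl C' => Φ (C' :: K.spN F) (K.spA F) (K.spB F)
        | Sum.inr (Sum.inl c) => Φ (K.spN F) (c :: K.spA F) (K.spB F)
        | Sum.inr (Sum.inr c) => Φ (K.spN F) (K.spA F) (c :: K.spB F)
      have hΘ : ∀ y, 0 ≤ Θ y := by
        rintro (C' | c | c) <;> exact hΦ _ _ _
      have h1 : avg (fun x : Cl k V => Ψ (x :: F)) ≤ avg (fun x : Cl k V => Θ (K.cl x)) := by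
        refine avg_mono fun x => ?_
        refine (h (x :: F) (by simp [hF])).trans (le_of_eq ?_)
        rcases hx : K.cl x with C' | c | c
        · simp [Cav.spN, Cav.spA, Cav.spB, hx, Θ]
        · simp [Cav.spN, Cav.spA, Cav.spB, hx, Θ]
        · simp [Cav.spN, Cav.spA, Cav.spB, hx, Θ]
      exact h1.trans (K.avg_le Θ hΘ)

end

end Crest.Agent.RS
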