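import Mathlib
import Crest.Agent.RS_Defs

set_option autoImplicit false

namespace Crest.Agent.RS

open Classical

noncomputable section

section cavT4
variable {V V' : Type} {k : ℕ} {e : Option V' ≃ V} {b : Bool}

private theorem T4_ext_none (σ : V' → Bool) : ext e b σ (e none) = b := by
  simp [ext]

private theorem T4_ext_some (σ : V' → Bool) (w : V') : ext e b σ (e (some w)) = σ w := by
  simp [ext]

private theorem T4_ind_le_DD (T S : Set (V → Bool)) (F : List (Cl k V)) :
    ind (S.Nonempty ∧ S ∩ T = ∅) ≤ DD T S F := by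
  cases F with
  | nil => rw [DD_nil]
  | cons C F => rw [DD_cons]; linarith [DD_nonneg T (S ∩ sset C) F]

private theorem T4_ind_le {T S : Set (V → Bool)} {T' S' : Set (V' → Bool)}
    (h1 : ∀ σ ∈ S, (fun w' => σ (e (some w'))) ∈ S')
    (h2 : ∀ σ' ∈ S' ∩ T', ext e b σ' ∈ S) :
    ind (S.Nonempty ∧ S ∩ T = ∅) ≤ ind (S'.Nonempty ∧ S' ∩ (restr e b T ∩ T') = ∅) := by
  refine ind_mono ?_
  rintro ⟨⟨σ, hσ⟩, hE⟩
  refine ⟨⟨_, h1 σ hσ⟩, ?_⟩
  rw [Set.eq_empty_iff_forall_notMem]
  rintro σ' ⟨ha, hb, hc⟩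
  have : ext e b σ' ∈ S ∩ T := ⟨h2 σ' ⟨ha, hc⟩, hb⟩
  rw [hE] at this
  exact this

private theorem T4_sat_lift (C' : Cl k V') (σ : V → Bool) :
    SatC σ (liftC e C') ↔ SatC (fun w' => σ (e (some w'))) C' := by
  simp [SatC, liftC]

private theorem T4_sat_ext_lift (C' : Cl k V') (σ' : V' → Bool) :
    SatC (ext e b σ') (liftC e C') ↔ SatC σ' C' := by
  rw [T4_sat_lift]
  have : (fun w' => ext e b σ' (e (some w'))) = σ' := by
    funext w; exact T4_ext_some σ' w
  rw [this]

end cavT4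

section cavT4gen
variable {V V' : Type} [Fintype V] [Fintype V'] {k : ℕ} {e : Option V' ≃ V} {b : Bool} {r : ℝ}

private theorem T4_spN_inl (K : Cav k e b r) {C : Cl k V} {C' : Cl k V'} (F : List (Cl k V))
    (h : K.cl C = Sum.inl C') : K.spN (C :: F) = C' :: K.spN F := by
  simp [Cav.spN, h]

private theorem T4_spA_inl (K : Cav k e b r) {C : Cl k V} {C' : Cl k V'} (F : List (Cl k V))
    (h : K.cl C = Sum.inl C') : K.spA (C :: F) = K.spA F := by
  simp [Cav.spA, h]

private theorem T4_spB_inl (K : Cav k e b r) {C : Cl k V} {C' : Cl k V'} (F : List (Cl k V))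
    (h : K.cl C = Sum.inl C') : K.spB (C :: F) = K.spB F := by
  simp [Cav.spB, h]

private theorem T4_spN_A (K : Cav k e b r) {C : Cl k V} {c : Cl 2 V'} (F : List (Cl k V))
    (h : K.cl C = Sum.inr (Sum.inl c)) : K.spN (C :: F) = K.spN F := by
  simp [Cav.spN, h]

private theorem T4_spA_A (K : Cav k e b r) {C : Cl k V} {c : Cl 2 V'} (F : List (Cl k V))
    (h : K.cl C = Sum.inr (Sum.inl c)) : K.spA (C :: F) = c :: K.spA F := by
  simp [Cav.spA, h]

private theorem T4_spB_A (K : Cav k e b r) {C : Cl k V} {c : Cl 2 V'} (F : List (Cl k V))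
    (h : K.cl C = Sum.inr (Sum.inl c)) : K.spB (C :: F) = K.spB F := by
  simp [Cav.spB, h]

private theorem T4_spN_B (K : Cav k e b r) {C : Cl k V} {c : Cl 2 V'} (F : List (Cl k V))
    (h : K.cl C = Sum.inr (Sum.inr c)) : K.spN (C :: F) = K.spN F := by
  simp [Cav.spN, h]

private theorem T4_spA_B (K : Cav k e b r) {C : Cl k V} {c : Cl 2 V'} (F : List (Cl k V))
    (h : K.cl C = Sum.inr (Sum.inr c)) : K.spA (C :: F) = K.spA F := by
  simp [Cav.spA, h]

private theorem T4_spB_B (K : Cav k e b r) {C : Cl k V} {c : Cl 2 V'} (F : List (Cl k V))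
    (h : K.cl C = Sum.inr (Sum.inr c)) : K.spB (C :: F) = c :: K.spB F := by
  simp [Cav.spB, h]

/-- the generalised inequality, view with value `b`. -/
private theorem T4_gen1 (K : Cav k e b r) (T : Set (V → Bool)) (F : List (Cl k V)) :
    ∀ (S : Set (V → Bool)) (S' T₀ : Set (V' → Bool)),
    T₀ ⊆ lset (K.spA F) →
    (∀ σ ∈ S, (fun w' => σ (e (some w'))) ∈ S') →
    (∀ σ' ∈ S' ∩ T₀, ext e b σ' ∈ S) →
    DD T S F ≤ (1 + (K.spA F).length + (K.spB F).length) *
      DD (restr e b T ∩ T₀) S' (K.spN F) := by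
  induction F with
  | nil =>
    intro S S' T₀ _ h1 h2
    have : DD (restr e b T ∩ T₀) S' (K.spN ([] : List (Cl k V)))
        = ind (S'.Nonempty ∧ S' ∩ (restr e b T ∩ T₀) = ∅) := rfl
    rw [this, DD_nil]
    have h3 : ind (S.Nonempty ∧ S ∩ T = ∅) ≤
        ind (S'.Nonempty ∧ S' ∩ (restr e b T ∩ T₀) = ∅) := T4_ind_le h1 h2
    have h4 : (1 + ((K.spA ([] : List (Cl k V))).length : ℝ) +
        ((K.spB ([] : List (Cl k V))).length : ℝ)) = 1 := by
      simp [Cav.spA, Cav.spB]
    rw [h4, one_mul]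
    exact h3
  | cons C F ih =>
    intro S S' T₀ hT h1 h2
    have h3 : ind (S.Nonempty ∧ S ∩ T = ∅) ≤
        ind (S'.Nonempty ∧ S' ∩ (restr e b T ∩ T₀) = ∅) := T4_ind_le h1 h2
    rw [DD_cons]
    rcases hC : K.cl C with C' | c | c
    · -- ordinary clause
      rw [T4_spA_inl K F hC, T4_spB_inl K F hC, T4_spN_inl K F hC, DD_cons]
      rw [T4_spA_inl K F hC] at hT
      have hl := K.inl_eq C C' hC
      have hI := ih (S ∩ sset C) (S' ∩ sset C') T₀ hT
        (by
          rintro σ ⟨hs, hs2⟩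
          refine ⟨h1 σ hs, ?_⟩
          rw [hl] at hs2
          exact (T4_sat_lift C' σ).1 hs2)
        (by
          rintro σ' ⟨⟨hs, hs2⟩, hs3⟩
          refine ⟨h2 σ' ⟨hs, hs3⟩, ?_⟩
          rw [hl]
          exact (T4_sat_ext_lift C' σ').2 hs2)
      have hn : (0:ℝ) ≤ ind (S'.Nonempty ∧ S' ∩ (restr e b T ∩ T₀) = ∅) := ind_nonneg _
      have ha : (0:ℝ) ≤ ((K.spA F).length : ℝ) := Nat.cast_nonneg _
      have hb : (0:ℝ) ≤ ((K.spB F).length : ℝ) := Nat.cast_nonneg _
      nlinarith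
    · -- clause of type A
      rw [T4_spA_A K F hC, T4_spB_A K F hC, T4_spN_A K F hC]
      rw [T4_spA_A K F hC, lset_cons] at hT
      obtain ⟨i, hi1, hi2, g, hg⟩ := K.inA C c hC
      have hI := ih (S ∩ sset C) S' T₀ (fun σ hσ => (hT hσ).2)
        (by
          rintro σ ⟨hs, _⟩
          exact h1 σ hs)
        (by
          rintro σ' ⟨hs, hs3⟩
          refine ⟨h2 σ' ⟨hs, hs3⟩, ?_⟩
          obtain ⟨j, hj⟩ := (hT hs3).1
          refine ⟨g j, ?_⟩
          rw [(hg j).2.1, (hg j).2.2, T4_ext_some]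
          exact hj)
      have hD := T4_ind_le_DD (restr e b T ∩ T₀) S' (K.spN F)
      have hl : ((c :: K.spA F).length : ℝ) = (K.spA F).length + 1 := by
        push_cast [List.length_cons]; ring
      rw [hl]
      nlinarith
    · -- clause of type B
      rw [T4_spA_B K F hC, T4_spB_B K F hC, T4_spN_B K F hC]
      rw [T4_spA_B K F hC] at hT
      obtain ⟨i, hi1, hi2, g, hg⟩ := K.inB C c hC
      have hI := ih (S ∩ sset C) S' T₀ hT
        (by
          rintro σ ⟨hs, _⟩
          exact h1 σ hs)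
        (by
          rintro σ' ⟨hs, hs3⟩
          refine ⟨h2 σ' ⟨hs, hs3⟩, ?_⟩
          refine ⟨i, ?_⟩
          rw [hi1, hi2, T4_ext_none])
      have hD := T4_ind_le_DD (restr e b T ∩ T₀) S' (K.spN F)
      have hl : ((c :: K.spB F).length : ℝ) = (K.spB F).length + 1 := by
        push_cast [List.length_cons]; ring
      rw [hl]
      nlinarith

/-- the generalised inequality, view with value `!b`. -/
private theorem T4_gen2 (K : Cav k e b r) (T : Set (V → Bool)) (F : List (Cl k V)) :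
    ∀ (S : Set (V → Bool)) (S' T₀ : Set (V' → Bool)),
    T₀ ⊆ lset (K.spB F) →
    (∀ σ ∈ S, (fun w' => σ (e (some w'))) ∈ S') →
    (∀ σ' ∈ S' ∩ T₀, ext e (!b) σ' ∈ S) →
    DD T S F ≤ (1 + (K.spA F).length + (K.spB F).length) *
      DD (restr e (!b) T ∩ T₀) S' (K.spN F) := by
  induction F with
  | nil =>
    intro S S' T₀ _ h1 h2
    have : DD (restr e (!b) T ∩ T₀) S' (K.spN ([] : List (Cl k V)))
        = ind (S'.Nonempty ∧ S' ∩ (restr e (!b) T ∩ T₀) = ∅) := rfl
    rw [this, DD_nil]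
    have h3 : ind (S.Nonempty ∧ S ∩ T = ∅) ≤
        ind (S'.Nonempty ∧ S' ∩ (restr e (!b) T ∩ T₀) = ∅) := T4_ind_le h1 h2
    have h4 : (1 + ((K.spA ([] : List (Cl k V))).length : ℝ) +
        ((K.spB ([] : List (Cl k V))).length : ℝ)) = 1 := by
      simp [Cav.spA, Cav.spB]
    rw [h4, one_mul]
    exact h3
  | cons C F ih =>
    intro S S' T₀ hT h1 h2
    have h3 : ind (S.Nonempty ∧ S ∩ T = ∅) ≤
        ind (S'.Nonempty ∧ S' ∩ (restr e (!b) T ∩ T₀) = ∅) := T4_ind_le h1 h2
    rw [DD_cons]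
    rcases hC : K.cl C with C' | c | c
    · -- ordinary clause
      rw [T4_spA_inl K F hC, T4_spB_inl K F hC, T4_spN_inl K F hC, DD_cons]
      rw [T4_spB_inl K F hC] at hT
      have hl := K.inl_eq C C' hC
      have hI := ih (S ∩ sset C) (S' ∩ sset C') T₀ hT
        (by
          rintro σ ⟨hs, hs2⟩
          refine ⟨h1 σ hs, ?_⟩
          rw [hl] at hs2
          exact (T4_sat_lift C' σ).1 hs2)
        (by
          rintro σ' ⟨⟨hs, hs2⟩, hs3⟩
          refine ⟨h2 σ' ⟨hs, hs3⟩, ?_⟩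
          rw [hl]
          exact (T4_sat_ext_lift C' σ').2 hs2)
      have hn : (0:ℝ) ≤ ind (S'.Nonempty ∧ S' ∩ (restr e (!b) T ∩ T₀) = ∅) := ind_nonneg _
      have ha : (0:ℝ) ≤ ((K.spA F).length : ℝ) := Nat.cast_nonneg _
      have hb : (0:ℝ) ≤ ((K.spB F).length : ℝ) := Nat.cast_nonneg _
      nlinarith
    · -- clause of type A
      rw [T4_spA_A K F hC, T4_spB_A K F hC, T4_spN_A K F hC]
      rw [T4_spB_A K F hC] at hT
      obtain ⟨i, hi1, hi2, g, hg⟩ := K.inA C c hC
      have hI := ih (S ∩ sset C) S' T₀ hT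
        (by
          rintro σ ⟨hs, _⟩
          exact h1 σ hs)
        (by
          rintro σ' ⟨hs, hs3⟩
          refine ⟨h2 σ' ⟨hs, hs3⟩, ?_⟩
          refine ⟨i, ?_⟩
          rw [hi1, hi2, T4_ext_none])
      have hD := T4_ind_le_DD (restr e (!b) T ∩ T₀) S' (K.spN F)
      have hl : ((c :: K.spA F).length : ℝ) = (K.spA F).length + 1 := by
        push_cast [List.length_cons]; ring
      rw [hl]
      nlinarith
    · -- clause of type B
      rw [T4_spA_B K F hC, T4_spB_B K F hC, T4_spN_B K F hC]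
      rw [T4_spB_B K F hC, lset_cons] at hT
      obtain ⟨i, hi1, hi2, g, hg⟩ := K.inB C c hC
      have hI := ih (S ∩ sset C) S' T₀ (fun σ hσ => (hT hσ).2)
        (by
          rintro σ ⟨hs, _⟩
          exact h1 σ hs)
        (by
          rintro σ' ⟨hs, hs3⟩
          refine ⟨h2 σ' ⟨hs, hs3⟩, ?_⟩
          obtain ⟨j, hj⟩ := (hT hs3).1
          refine ⟨g j, ?_⟩
          rw [(hg j).2.1, (hg j).2.2, T4_ext_some]
          exact hj)
      have hD := T4_ind_le_DD (restr e (!b) T ∩ T₀) S' (K.spN F)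
      have hl : ((c :: K.spB F).length : ℝ) = (K.spB F).length + 1 := by
        push_cast [List.length_cons]; ring
      rw [hl]
      nlinarith

end cavT4gen

/-- RS-T4a. Pointwise cavity inequality, view with value `b` at the removed variable.
Proof: generalize to `S ⊆ (V → Bool)`, `S' ⊆ (V' → Bool)`, a set `T₀ ⊆ lset (K.spA F)` with
(I1) `∀ σ ∈ S, (fun w' => σ (e (some w'))) ∈ S'` and (I2) `∀ σ' ∈ S' ∩ T₀, ext e b σ' ∈ S`, and show
`DD T S F ≤ (1 + |spA F| + |spB F|) * DD (restr e b T ∩ T₀) S' (K.spN F)` by induction on `F`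
(a special clause contributes nothing to the right-hand list but increases the factor, and the right
`DD` already counts the time `0` where `S'` is the current set). -/
theorem DD_cav1 {V V' : Type} [Fintype V] [Fintype V'] {k : ℕ} {e : Option V' ≃ V}
    {b : Bool} {r : ℝ} (K : Cav k e b r) (T : Set (V → Bool)) (F : List (Cl k V)) :
    DD T Set.univ F ≤ (1 + (K.spA F).length + (K.spB F).length) *
      DD (restr e b T ∩ lset (K.spA F)) Set.univ (K.spN F) :=
  T4_gen1 K T F Set.univ Set.univ (lset (K.spA F)) subset_rfl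
    (fun _ _ => Set.mem_univ _) (fun _ _ => Set.mem_univ _)

/-- RS-T4b. The same for the view with value `!b`. -/
theorem DD_cav2 {V V' : Type} [Fintype V] [Fintype V'] {k : ℕ} {e : Option V' ≃ V}
    {b : Bool} {r : ℝ} (K : Cav k e b r) (T : Set (V → Bool)) (F : List (Cl k V)) :
    DD T Set.univ F ≤ (1 + (K.spA F).length + (K.spB F).length) *
      DD (restr e (!b) T ∩ lset (K.spB F)) Set.univ (K.spN F) :=
  T4_gen2 K T F Set.univ Set.univ (lset (K.spB F)) subset_rfl
    (fun _ _ => Set.mem_univ _) (fun _ _ => Set.mem_univ _)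

end

end Crest.Agent.RS
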