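import Mathlib
import Crest.Agent.RS_Defs

set_option autoImplicit false

namespace Crest.Agent.RS

open Classical

noncomputable section

theorem rst5_ext_some {V V' : Type} (e : Option V' ≃ V) (b : Bool) (σ : V' → Bool) (w : V') :
    ext e b σ (e (some w)) = σ w := by
  simp [ext]

theorem rst5_ext_none {V V' : Type} (e : Option V' ≃ V) (b : Bool) (σ : V' → Bool) :
    ext e b σ (e none) = b := by
  simp [ext]

theorem rst5_lift_apply {j : ℕ} {V V' : Type} (e : Option V' ≃ V) (C' : Cl j V') (i : Fin j) :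
    (liftC e C').1 i = e (some (C'.1 i)) := rfl

theorem rst5_lift_inj {j : ℕ} {V V' : Type} (e : Option V' ≃ V) :
    Function.Injective (liftC e : Cl j V' → Cl j V) := by
  intro C D h
  have h2 : C.2 = D.2 := (congrArg (fun x : Cl j V => x.2) h : _)
  have h1 : C.1 = D.1 := by
    apply DFunLike.ext
    intro i
    have h3 : (liftC e C).1 i = (liftC e D).1 i := by rw [h]
    rw [rst5_lift_apply, rst5_lift_apply] at h3
    exact Option.some_injective _ (e.injective h3)
  exact Prod.ext h1 h2

theorem rst5_lift_surj {j : ℕ} {V V' : Type} (e : Option V' ≃ V) (C : Cl j V)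
    (hC : ¬ Has C (e none)) : ∃ C' : Cl j V', liftC e C' = C := by
  have h : ∀ i, ∃ w : V', e (some w) = C.1 i := by
    intro i
    rcases hw : e.symm (C.1 i) with _ | w
    · exact absurd ⟨i, by rw [← hw, Equiv.apply_symm_apply]⟩ hC
    · exact ⟨w, by rw [← hw, Equiv.apply_symm_apply]⟩
  choose g hg using h
  have ginj : Function.Injective g := by
    intro i i' hii
    apply C.1.injective
    rw [← hg i, ← hg i', hii]
  refine ⟨(⟨g, ginj⟩, C.2), ?_⟩
  refine Prod.ext ?_ rfl
  apply DFunLike.ext
  intro i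
  exact hg i

theorem rst5_not_has {j : ℕ} {V V' : Type} (e : Option V' ≃ V) (C' : Cl j V') :
    ¬ Has (liftC e C') (e none) := by
  rintro ⟨i, hi⟩
  rw [rst5_lift_apply] at hi
  have := e.injective hi
  simp at this

theorem rst5_sum {j : ℕ} {V V' : Type} [Fintype V] [Fintype V'] (e : Option V' ≃ V)
    (φ : Cl j V → ℝ) :
    ∑ C : Cl j V, ind (¬ Has C (e none)) * φ C = ∑ C' : Cl j V', φ (liftC e C') := by
  have h1 : ∀ C : Cl j V, ind (¬ Has C (e none)) * φ C =
      if ¬ Has C (e none) then φ C else 0 := by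
    intro C
    by_cases h : Has C (e none)
    · simp [ind, h]
    · simp [ind, h]
  simp only [h1]
  rw [← Finset.sum_filter]
  have himg : (Finset.univ.filter (fun C : Cl j V => ¬ Has C (e none))) =
      Finset.univ.image (liftC e : Cl j V' → Cl j V) := by
    ext C
    simp only [Finset.mem_filter, Finset.mem_univ, true_and, Finset.mem_image]
    constructor
    · intro h; exact rst5_lift_surj e C h
    · rintro ⟨C', rfl⟩; exact rst5_not_has e C'
  rw [himg, Finset.sum_image]
  exact fun a _ b _ h => rst5_lift_inj e h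

/-- RS-T5a. Clauses avoiding the removed variable. -/
theorem avg_avoid_le {j : ℕ} {V V' : Type} [Fintype V] [Fintype V'] (e : Option V' ≃ V)
    (φ : Cl j V → ℝ) (hφ : ∀ x, 0 ≤ φ x) :
    avg (fun C : Cl j V => ind (¬ Has C (e none)) * φ C) ≤
      avg (fun C' : Cl j V' => φ (liftC e C')) := by
  unfold avg
  rw [rst5_sum]
  have hs : 0 ≤ ∑ C' : Cl j V', φ (liftC e C') := Finset.sum_nonneg fun C' _ => hφ _
  have hc : Fintype.card (Cl j V') ≤ Fintype.card (Cl j V) :=
    Fintype.card_le_of_injective _ (rst5_lift_inj e)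
  rcases Nat.eq_zero_or_pos (Fintype.card (Cl j V')) with h0 | hpos
  · have : IsEmpty (Cl j V') := Fintype.card_eq_zero_iff.1 h0
    simp
  · have h1 : (0 : ℝ) < (Fintype.card (Cl j V') : ℝ) := by exact_mod_cast hpos
    have h2 : (Fintype.card (Cl j V') : ℝ) ≤ (Fintype.card (Cl j V) : ℝ) := by exact_mod_cast hc
    exact div_le_div_of_nonneg_left hs h1 h2

/-- RS-T5b. List version. -/
theorem avgL_avoid_le {j : ℕ} {V V' : Type} [Fintype V] [Fintype V'] (e : Option V' ≃ V)
    (t : ℕ) (Φ : List (Cl j V) → ℝ) (hΦ : ∀ x, 0 ≤ Φ x) :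
    avgL t (fun c : List (Cl j V) => ind (∀ x ∈ c, ¬ Has x (e none)) * Φ c) ≤
      avgL t (fun c' : List (Cl j V') => Φ (c'.map (liftC e))) := by
  induction t generalizing Φ with
  | zero => simp [ind]
  | succ t ih =>
    rw [avgL_succ, avgL_succ]
    have h1 : ∀ F : List (Cl j V),
        avg (fun x => ind (∀ y ∈ x :: F, ¬ Has y (e none)) * Φ (x :: F)) ≤
          ind (∀ y ∈ F, ¬ Has y (e none)) * avg (fun x' : Cl j V' => Φ (liftC e x' :: F)) := by
      intro F
      have h2 : ∀ x : Cl j V, ind (∀ y ∈ x :: F, ¬ Has y (e none)) * Φ (x :: F) =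
          ind (∀ y ∈ F, ¬ Has y (e none)) * (ind (¬ Has x (e none)) * Φ (x :: F)) := by
        intro x
        have h3 : ind (∀ y ∈ x :: F, ¬ Has y (e none)) =
            ind (∀ y ∈ F, ¬ Has y (e none)) * ind (¬ Has x (e none)) := by
          rw [← ind_and]
          congr 1
          simp only [List.mem_cons, forall_eq_or_imp, eq_iff_iff]
          tauto
        rw [h3, mul_assoc]
      simp only [h2]
      rw [avg_mul_left]
      exact mul_le_mul_of_nonneg_left (avg_avoid_le e (fun x => Φ (x :: F)) fun x => hΦ _)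
        (ind_nonneg _)
    refine (avgL_mono h1).trans ?_
    exact ih (fun F => avg (fun x' : Cl j V' => Φ (liftC e x' :: F)))
      (fun F => avg_nonneg fun x' => hΦ _)

/-- RS-T5c. -/
theorem restr_inter {V V' : Type} (e : Option V' ≃ V) (b : Bool) (S T : Set (V → Bool)) :
    restr e b (S ∩ T) = restr e b S ∩ restr e b T := rfl

theorem restr_lset_map {j : ℕ} {V V' : Type} (e : Option V' ≃ V) (b : Bool)
    (c' : List (Cl j V')) : restr e b (lset (c'.map (liftC e))) = lset c' := by
  ext σ
  simp only [restr, lset, Set.mem_ofPred_eq, List.mem_map]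
  constructor
  · intro h x hx
    obtain ⟨i, hi⟩ := h (liftC e x) ⟨x, hx, rfl⟩
    rw [rst5_lift_apply, rst5_ext_some] at hi
    exact ⟨i, hi⟩
  · rintro h _ ⟨x, hx, rfl⟩
    obtain ⟨i, hi⟩ := h x hx
    refine ⟨i, ?_⟩
    rw [rst5_lift_apply, rst5_ext_some]
    exact hi

theorem restr_litset_none {V V' : Type} (e : Option V' ≃ V) (b : Bool) :
    restr e b (litset (e none) b) = Set.univ := by
  ext σ
  simp only [restr, litset, Set.mem_ofPred_eq, rst5_ext_none, Set.mem_univ]

theorem restr_litset_some {V V' : Type} (e : Option V' ≃ V) (b b' : Bool) (w' : V') :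
    restr e b (litset (e (some w')) b') = litset w' b' := by
  ext σ
  simp only [restr, litset, Set.mem_ofPred_eq, rst5_ext_some]

theorem has_liftC {j : ℕ} {V V' : Type} (e : Option V' ≃ V) (C' : Cl j V') (w' : V') :
    Has (liftC e C') (e (some w')) ↔ Has C' w' := by
  unfold Has
  refine exists_congr fun i => ?_
  rw [rst5_lift_apply]
  constructor
  · intro h; exact Option.some_injective _ (e.injective h)
  · intro h; rw [h]

end

end Crest.Agent.RS
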