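import Mathlib
import Crest.Agent.RS_T2
import Crest.Agent.RS_T3
import Crest.Agent.RS_T4
import Crest.Agent.RS_T5

set_option autoImplicit false

namespace Crest.Agent.RS

open Classical

noncomputable section

/-- Removing the variable `e none` from the two lists of extra clauses. -/
private theorem t6_avoid2 {j : ℕ} {V V' : Type} [Fintype V] [Fintype V'] (e : Option V' ≃ V)
    (a b : ℕ) (Ξ : List (Cl j V) → List (Cl j V) → ℝ) (hΞ : ∀ x y, 0 ≤ Ξ x y) :
    avgL a (fun c => avgL b (fun c' => ind (∀ x ∈ c, ¬ Has x (e none)) *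
      (ind (∀ x ∈ c', ¬ Has x (e none)) * Ξ c c'))) ≤
      avgL a (fun c => avgL b (fun c' => Ξ (c.map (liftC e)) (c'.map (liftC e)))) := by
  have h1 : avgL a (fun c => avgL b (fun c' => ind (∀ x ∈ c, ¬ Has x (e none)) *
      (ind (∀ x ∈ c', ¬ Has x (e none)) * Ξ c c'))) =
      avgL a (fun c => ind (∀ x ∈ c, ¬ Has x (e none)) *
        avgL b (fun c' => (ind (∀ x ∈ c', ¬ Has x (e none)) * Ξ c c'))) := by
    congr 1; funext c
    rw [avgL_mul_left]
  rw [h1]
  refine (avgL_avoid_le e a _ (fun c => avgL_nonneg fun c' =>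
    mul_nonneg (ind_nonneg _) (hΞ _ _))).trans ?_
  refine avgL_mono fun c => ?_
  exact avgL_avoid_le e b _ (fun c' => hΞ _ _)

/-- Reordering of averages and concatenation of the extra clauses. -/
private theorem t6_reorder {k : ℕ} {V : Type} [Fintype V] (i j s α β : ℕ)
    (G : List (Cl 2 V) → List (Cl 2 V) → List (Cl k V) → ℝ) :
    avgL s (fun F => avgL α (fun A => avgL β (fun B => avgL i (fun c => avgL j (fun c' =>
      G (c ++ A) (c' ++ B) F))))) =
    avgL (i + α) (fun c => avgL (j + β) (fun c' => avgL s (fun F => G c c' F))) := by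
  have hR : avgL (i + α) (fun c => avgL (j + β) (fun c' => avgL s (fun F => G c c' F))) =
      avgL i (fun c => avgL α (fun A => avgL j (fun c' => avgL β (fun B =>
        avgL s (fun F => G (c ++ A) (c' ++ B) F))))) := by
    rw [avgL_append]
    congr 1; funext c; congr 1; funext A
    rw [avgL_append]
  rw [hR]
  -- move F inside
  have e1 : avgL s (fun F => avgL α (fun A => avgL β (fun B => avgL i (fun c => avgL j (fun c' =>
      G (c ++ A) (c' ++ B) F))))) =
      avgL α (fun A => avgL β (fun B => avgL i (fun c => avgL j (fun c' =>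
        avgL s (fun F => G (c ++ A) (c' ++ B) F))))) := by
    rw [avgL_comm]; congr 1; funext A
    rw [avgL_comm]; congr 1; funext B
    rw [avgL_comm]; congr 1; funext c
    rw [avgL_comm]
  rw [e1]
  have e2 : avgL α (fun A => avgL β (fun B => avgL i (fun c => avgL j (fun c' =>
        avgL s (fun F => G (c ++ A) (c' ++ B) F))))) =
      avgL α (fun A => avgL i (fun c => avgL j (fun c' => avgL β (fun B =>
        avgL s (fun F => G (c ++ A) (c' ++ B) F))))) := by
    congr 1; funext A
    rw [avgL_comm]; congr 1; funext c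
    rw [avgL_comm]
  rw [e2, avgL_comm]

private theorem t6_pow (m : ℕ) : ((1 : ℝ) + m) ^ 2 * 2 ^ m ≤ 8 ^ m := by
  have h : (1 : ℝ) + m ≤ 2 ^ m := by
    have := one_add_mul_le_pow (a := (1:ℝ)) (by norm_num) m
    norm_num at this; linarith
  calc ((1 : ℝ) + m) ^ 2 * 2 ^ m ≤ (2 ^ m) ^ 2 * 2 ^ m := by gcongr
    _ = (2 ^ 2 * 2) ^ m := by rw [mul_pow]; congr 1; rw [← pow_mul, ← pow_mul, mul_comm]
    _ = 8 ^ m := by norm_num

/-- Second removal. -/
private theorem t6_step2 {k : ℕ} (hk : 3 ≤ k) {V : Type} [Fintype V]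
    (hkn : k + 1 ≤ Fintype.card V)
    {M : ℕ} {Λ : ℝ} (hΛ : 0 ≤ Λ) (hyp : PP k M (Fintype.card V - 1) Λ)
    (v : V) (b : Bool) (i j t : ℕ) (ht : t ≤ M) :
    avgL i (fun c : List (Cl 2 V) => avgL j (fun c' : List (Cl 2 V) =>
      avgL t (fun F : List (Cl k V) => ind (∀ x ∈ c, ¬ Has x v) *
        (ind (∀ x ∈ c', ¬ Has x v) *
        (DD (lset c) Set.univ F * DD (lset c' ∩ litset v b) Set.univ F)))))
      ≤ Λ * 2 ^ (i + j) * (1 + 2 * ((k : ℝ) / (2 * Fintype.card V)) * 8) ^ t := by
  let V' := {x : V // x ≠ v}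
  let e : Option V' ≃ V := Equiv.optionSubtypeNe v
  have he : e none = v := Equiv.optionSubtypeNe_none v
  have hcard : Fintype.card V' = Fintype.card V - 1 := by
    have h1 : Fintype.card (Option V') = Fintype.card V := Fintype.card_congr e
    rw [Fintype.card_option] at h1
    omega
  obtain ⟨K⟩ := exists_cav hk e (!b) (by rw [hcard]; omega)
  set r : ℝ := (k : ℝ) / (2 * Fintype.card V) with hr
  have hr0 : 0 ≤ r := by positivity
  -- fixed c, c'
  have h1 : ∀ c c' : List (Cl 2 V), avgL t (fun F : List (Cl k V) =>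
        (DD (lset c) Set.univ F * DD (lset c' ∩ litset v b) Set.univ F)) ≤
      XX r t (fun (F : List (Cl k V')) A B => (1 + (A.length : ℝ) + B.length) ^ 2 *
        (DD (restr e (!b) (lset c) ∩ lset A) Set.univ F *
          DD (restr e b (lset c') ∩ lset B) Set.univ F)) := by
    intro c c'
    refine avgL_le_XX K hr0 t _ _ (fun F A B => ?_) (fun F _ => ?_)
    · exact mul_nonneg (by positivity) (mul_nonneg (DD_nonneg _ _ _) (DD_nonneg _ _ _))
    · have a1 := DD_cav1 K (lset c) F
      have a2 := DD_cav2 K (lset c' ∩ litset v b) F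
      have e3 : restr e (!(!b)) (lset c' ∩ litset v b) = restr e b (lset c') := by
        rw [Bool.not_not, restr_inter, ← he, restr_litset_none, Set.inter_univ]
      rw [e3] at a2
      refine (mul_le_mul a1 a2 (DD_nonneg _ _ _) (mul_nonneg (by positivity)
        (DD_nonneg _ _ _))).trans (le_of_eq (by ring))
  calc avgL i (fun c : List (Cl 2 V) => avgL j (fun c' : List (Cl 2 V) =>
      avgL t (fun F : List (Cl k V) => ind (∀ x ∈ c, ¬ Has x v) *
        (ind (∀ x ∈ c', ¬ Has x v) *
        (DD (lset c) Set.univ F * DD (lset c' ∩ litset v b) Set.univ F)))))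
      ≤ avgL i (fun c : List (Cl 2 V) => avgL j (fun c' : List (Cl 2 V) =>
        ind (∀ x ∈ c, ¬ Has x (e none)) * (ind (∀ x ∈ c', ¬ Has x (e none)) *
        XX r t (fun (F : List (Cl k V')) A B => (1 + (A.length : ℝ) + B.length) ^ 2 *
        (DD (restr e (!b) (lset c) ∩ lset A) Set.univ F *
          DD (restr e b (lset c') ∩ lset B) Set.univ F))))) := by
        refine avgL_mono fun c => avgL_mono fun c' => ?_
        rw [avgL_mul_left, avgL_mul_left, he]
        exact mul_le_mul_of_nonneg_left (mul_le_mul_of_nonneg_left (h1 c c') (ind_nonneg _))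
          (ind_nonneg _)
    _ ≤ avgL i (fun c : List (Cl 2 V') => avgL j (fun c' : List (Cl 2 V') =>
        XX r t (fun (F : List (Cl k V')) A B => (1 + (A.length : ℝ) + B.length) ^ 2 *
        (DD (restr e (!b) (lset (c.map (liftC e))) ∩ lset A) Set.univ F *
          DD (restr e b (lset (c'.map (liftC e))) ∩ lset B) Set.univ F)))) := by
        refine t6_avoid2 e i j (fun c c' => XX r t (fun (F : List (Cl k V')) A B =>
          (1 + (A.length : ℝ) + B.length) ^ 2 *
          (DD (restr e (!b) (lset c) ∩ lset A) Set.univ F *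
          DD (restr e b (lset c') ∩ lset B) Set.univ F))) (fun c c' => ?_)
        exact XX_nonneg hr0 fun F A B => mul_nonneg (by positivity)
          (mul_nonneg (DD_nonneg _ _ _) (DD_nonneg _ _ _))
    _ = XX r t (fun (F : List (Cl k V')) A B => avgL i (fun c : List (Cl 2 V') =>
          avgL j (fun c' : List (Cl 2 V') => (1 + (A.length : ℝ) + B.length) ^ 2 *
          (DD (lset (c ++ A)) Set.univ F * DD (lset (c' ++ B)) Set.univ F)))) := by
        rw [XX_avgL]
        congr 1; funext c
        rw [XX_avgL]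
        congr 1; funext c'
        congr 1; funext F A B
        rw [restr_lset_map, restr_lset_map, lset_append, lset_append]
    _ ≤ Λ * 2 ^ (i + j) * (1 + 2 * r * 8) ^ t := by
        refine XX_le hr0 t (fun s α β hs => ?_)
        have e4 : avgL s (fun F : List (Cl k V') => avgL α (fun A => avgL β (fun B =>
            avgL i (fun c : List (Cl 2 V') =>
            avgL j (fun c' : List (Cl 2 V') => (1 + (A.length : ℝ) + B.length) ^ 2 *
            (DD (lset (c ++ A)) Set.univ F * DD (lset (c' ++ B)) Set.univ F)))))) =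
            (1 + ((α + β : ℕ) : ℝ)) ^ 2 * LL k V' s (i + α) (j + β) := by
          unfold LL
          rw [← t6_reorder i j s α β (fun c c' F => DD (lset c) Set.univ F *
            DD (lset c') Set.univ F)]
          rw [← avgL_mul_left]
          congr 1; funext F
          rw [← avgL_mul_left]
          refine avgL_congr fun A hA => ?_
          rw [← avgL_mul_left]
          refine avgL_congr fun B hB => ?_
          rw [← avgL_mul_left]
          congr 1; funext c
          rw [← avgL_mul_left]
          congr 1; funext c'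
          rw [hA, hB]; push_cast; ring
        rw [e4]
        have h5 := hyp V' hcard s (by omega) (i + α) (j + β)
        have h6 := t6_pow (α + β)
        calc (1 + ((α + β : ℕ) : ℝ)) ^ 2 * LL k V' s (i + α) (j + β)
            ≤ (1 + ((α + β : ℕ) : ℝ)) ^ 2 * (Λ * 2 ^ (i + α + (j + β))) := by
              exact mul_le_mul_of_nonneg_left h5 (by positivity)
          _ = Λ * 2 ^ (i + j) * ((1 + ((α + β : ℕ) : ℝ)) ^ 2 * 2 ^ (α + β)) := by ring
          _ ≤ Λ * 2 ^ (i + j) * 8 ^ (α + β) := by
              exact mul_le_mul_of_nonneg_left h6 (by positivity)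

/-- RS-T6. Removal of two variables. -/
theorem cav_two {k : ℕ} (hk : 3 ≤ k) {V : Type} [Fintype V] (hkn : k + 2 ≤ Fintype.card V)
    {M : ℕ} {Λ : ℝ} (hΛ : 0 ≤ Λ) (hyp : PP k M (Fintype.card V - 2) Λ)
    {v v' : V} (hv : v ≠ v') (b b' : Bool) (i j t : ℕ) (ht : t ≤ M) :
    avgL i (fun c : List (Cl 2 V) => avgL j (fun c' : List (Cl 2 V) =>
      avgL t (fun F : List (Cl k V) => ind (Good v v' c c' F) *
        (DD (lset c ∩ litset v b) Set.univ F * DD (lset c' ∩ litset v' b') Set.univ F))))
      ≤ Λ * 2 ^ (i + j) * Real.exp (16 * k * t / ((Fintype.card V : ℝ) - 1)) := by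
  let V' := {x : V // x ≠ v}
  let e : Option V' ≃ V := Equiv.optionSubtypeNe v
  have he : e none = v := Equiv.optionSubtypeNe_none v
  let w' : V' := ⟨v', Ne.symm hv⟩
  have hw : e (some w') = v' := Equiv.optionSubtypeNe_some v w'
  have hcard : Fintype.card V' = Fintype.card V - 1 := by
    have h1 : Fintype.card (Option V') = Fintype.card V := Fintype.card_congr e
    rw [Fintype.card_option] at h1
    omega
  obtain ⟨K⟩ := exists_cav hk e b (by rw [hcard]; omega)
  set r : ℝ := (k : ℝ) / (2 * Fintype.card V) with hr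
  have hr0 : 0 ≤ r := by positivity
  have hn1 : (k : ℝ) + 2 ≤ Fintype.card V := by exact_mod_cast hkn
  have hk3 : (3 : ℝ) ≤ k := by exact_mod_cast hk
  have hcardR : (Fintype.card V' : ℝ) = (Fintype.card V : ℝ) - 1 := by
    rw [hcard, Nat.cast_sub (by omega)]; simp
  set r' : ℝ := (k : ℝ) / (2 * Fintype.card V') with hr'
  have hr'0 : 0 ≤ r' := by positivity
  -- indicators
  have hgood : ∀ (c c' : List (Cl 2 V)) (F : List (Cl k V)), Good v v' c c' F →
      (∀ x ∈ c, ¬ Has x (e none)) ∧ (∀ x ∈ c', ¬ Has x (e none)) ∧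
      (∀ x ∈ c, ¬ Has x (e (some w'))) ∧ (∀ x ∈ c', ¬ Has x (e (some w'))) ∧
      (∀ x ∈ K.spA F, ¬ Has x w') ∧ (∀ x ∈ K.spB F, ¬ Has x w') := by
    rintro c c' F ⟨h1, h2, h3⟩
    rw [he, hw]
    refine ⟨fun x hx => (h1 x hx).1, fun x hx => (h2 x hx).1, fun x hx => (h1 x hx).2,
      fun x hx => (h2 x hx).2, fun x hx => ?_, fun x hx => ?_⟩
    · unfold Cav.spA at hx
      rw [List.mem_filterMap] at hx
      obtain ⟨C, hC, hx⟩ := hx
      have hx' : K.cl C = Sum.inr (Sum.inl x) := by
        rcases hcl : K.cl C with C' | (c1 | c1) <;> rw [hcl] at hx <;> simp at hx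
        rw [hx]
      obtain ⟨i0, hi0, -, g, hg⟩ := K.inA C x hx'
      rintro ⟨j0, hj0⟩
      refine h3 C hC ⟨⟨i0, hi0.trans he⟩, ⟨g j0, ?_⟩⟩
      rw [(hg j0).2.1, hj0, hw]
    · unfold Cav.spB at hx
      rw [List.mem_filterMap] at hx
      obtain ⟨C, hC, hx⟩ := hx
      have hx' : K.cl C = Sum.inr (Sum.inr x) := by
        rcases hcl : K.cl C with C' | (c1 | c1) <;> rw [hcl] at hx <;> simp at hx
        rw [hx]
      obtain ⟨i0, hi0, -, g, hg⟩ := K.inB C x hx'
      rintro ⟨j0, hj0⟩
      refine h3 C hC ⟨⟨i0, hi0.trans he⟩, ⟨g j0, ?_⟩⟩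
      rw [(hg j0).2.1, hj0, hw]
  -- the integrand after the first removal
  let Φ : List (Cl 2 V) → List (Cl 2 V) → List (Cl k V') → List (Cl 2 V') → List (Cl 2 V') → ℝ :=
    fun c c' F A B => (1 + (A.length : ℝ) + B.length) ^ 2 *
      (ind (∀ x ∈ c, ¬ Has x (e (some w'))) * ind (∀ x ∈ A, ¬ Has x w') *
        (ind (∀ x ∈ c', ¬ Has x (e (some w'))) * ind (∀ x ∈ B, ¬ Has x w') *
        (DD (restr e b (lset c) ∩ lset A) Set.univ F *
          DD (restr e (!b) (lset c') ∩ litset w' b' ∩ lset B) Set.univ F)))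
  have hΦ0 : ∀ c c' F A B, 0 ≤ Φ c c' F A B := fun c c' F A B =>
    mul_nonneg (by positivity) (mul_nonneg (mul_nonneg (ind_nonneg _) (ind_nonneg _))
      (mul_nonneg (mul_nonneg (ind_nonneg _) (ind_nonneg _))
        (mul_nonneg (DD_nonneg _ _ _) (DD_nonneg _ _ _))))
  have h1 : ∀ c c' : List (Cl 2 V), avgL t (fun F : List (Cl k V) =>
        ind (Good v v' c c' F) * (DD (lset c ∩ litset v b) Set.univ F *
          DD (lset c' ∩ litset v' b') Set.univ F)) ≤
      ind (∀ x ∈ c, ¬ Has x (e none)) * (ind (∀ x ∈ c', ¬ Has x (e none)) *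
        XX r t (Φ c c')) := by
    intro c c'
    rw [← XX_mul_left, ← XX_mul_left]
    refine avgL_le_XX K hr0 t _ _ (fun F A B => ?_) (fun F _ => ?_)
    · exact mul_nonneg (ind_nonneg _) (mul_nonneg (ind_nonneg _) (hΦ0 _ _ _ _ _))
    · by_cases hG : Good v v' c c' F
      · obtain ⟨g1, g2, g3, g4, g5, g6⟩ := hgood c c' F hG
        rw [ind_true hG, ind_true g1, ind_true g2, one_mul, one_mul, one_mul]
        simp only [Φ]
        rw [ind_true g3, ind_true g4, ind_true g5, ind_true g6]
        simp only [one_mul]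
        have a1 := DD_cav1 K (lset c ∩ litset v b) F
        have a2 := DD_cav2 K (lset c' ∩ litset v' b') F
        have e3 : restr e b (lset c ∩ litset v b) = restr e b (lset c) := by
          rw [restr_inter, ← he, restr_litset_none, Set.inter_univ]
        have e4 : restr e (!b) (lset c' ∩ litset v' b') =
            restr e (!b) (lset c') ∩ litset w' b' := by
          rw [restr_inter, ← hw, restr_litset_some]
        rw [e3] at a1
        rw [e4] at a2
        refine (mul_le_mul a1 a2 (DD_nonneg _ _ _) (mul_nonneg (by positivity)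
          (DD_nonneg _ _ _))).trans (le_of_eq (by ring))
      · rw [ind_false hG, zero_mul]
        exact mul_nonneg (ind_nonneg _) (mul_nonneg (ind_nonneg _) (hΦ0 _ _ _ _ _))
  calc avgL i (fun c : List (Cl 2 V) => avgL j (fun c' : List (Cl 2 V) =>
      avgL t (fun F : List (Cl k V) => ind (Good v v' c c' F) *
        (DD (lset c ∩ litset v b) Set.univ F * DD (lset c' ∩ litset v' b') Set.univ F))))
      ≤ avgL i (fun c : List (Cl 2 V) => avgL j (fun c' : List (Cl 2 V) =>
        ind (∀ x ∈ c, ¬ Has x (e none)) * (ind (∀ x ∈ c', ¬ Has x (e none)) *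
        XX r t (Φ c c')))) := avgL_mono fun c => avgL_mono fun c' => h1 c c'
    _ ≤ avgL i (fun c : List (Cl 2 V') => avgL j (fun c' : List (Cl 2 V') =>
        XX r t (Φ (c.map (liftC e)) (c'.map (liftC e))))) :=
        t6_avoid2 e i j (fun c c' => XX r t (Φ c c'))
          (fun c c' => XX_nonneg hr0 fun F A B => hΦ0 _ _ _ _ _)
    _ = XX r t (fun (F : List (Cl k V')) A B => avgL i (fun c : List (Cl 2 V') =>
          avgL j (fun c' : List (Cl 2 V') => (1 + (A.length : ℝ) + B.length) ^ 2 *
          (ind (∀ x ∈ c ++ A, ¬ Has x w') * (ind (∀ x ∈ c' ++ B, ¬ Has x w') *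
          (DD (lset (c ++ A)) Set.univ F *
            DD (lset (c' ++ B) ∩ litset w' b') Set.univ F)))))) := by
        rw [XX_avgL]
        congr 1; funext c
        rw [XX_avgL]
        congr 1; funext c'
        congr 1; funext F A B
        have ea : ∀ (c : List (Cl 2 V')) (A : List (Cl 2 V')),
            ind (∀ x ∈ c.map (liftC e), ¬ Has x (e (some w'))) * ind (∀ x ∈ A, ¬ Has x w') =
            ind (∀ x ∈ c ++ A, ¬ Has x w') := by
          intro c A
          rw [← ind_and]
          congr 1
          apply propext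
          constructor
          · rintro ⟨h1, h2⟩ x hx
            rcases List.mem_append.1 hx with hx | hx
            · have := h1 _ (List.mem_map_of_mem hx)
              rwa [has_liftC] at this
            · exact h2 x hx
          · intro h
            refine ⟨fun x hx => ?_, fun x hx => h x (List.mem_append_right _ hx)⟩
            obtain ⟨y, hy, rfl⟩ := List.mem_map.1 hx
            rw [has_liftC]
            exact h y (List.mem_append_left _ hy)
        have eb : lset c' ∩ litset w' b' ∩ lset B = lset (c' ++ B) ∩ litset w' b' := by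
          rw [lset_append]
          ext σ; simp only [Set.mem_inter_iff]; tauto
        simp only [Φ]
        rw [restr_lset_map, restr_lset_map, ea, ea, eb, lset_append c A]
    _ ≤ (Λ * 2 ^ (i + j) * (1 + 2 * r' * 8) ^ t) * (1 + 2 * r * 8) ^ t := by
        refine XX_le hr0 t (fun s α β hs => ?_)
        have e4 : avgL s (fun F : List (Cl k V') => avgL α (fun A => avgL β (fun B =>
            avgL i (fun c : List (Cl 2 V') =>
            avgL j (fun c' : List (Cl 2 V') => (1 + (A.length : ℝ) + B.length) ^ 2 *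
            (ind (∀ x ∈ c ++ A, ¬ Has x w') * (ind (∀ x ∈ c' ++ B, ¬ Has x w') *
            (DD (lset (c ++ A)) Set.univ F *
              DD (lset (c' ++ B) ∩ litset w' b') Set.univ F)))))))) =
            (1 + ((α + β : ℕ) : ℝ)) ^ 2 * avgL (i + α) (fun c : List (Cl 2 V') =>
              avgL (j + β) (fun c' : List (Cl 2 V') => avgL s (fun F : List (Cl k V') =>
                ind (∀ x ∈ c, ¬ Has x w') * (ind (∀ x ∈ c', ¬ Has x w') *
                (DD (lset c) Set.univ F * DD (lset c' ∩ litset w' b') Set.univ F))))) := by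
          rw [← t6_reorder i j s α β (fun c c' F => ind (∀ x ∈ c, ¬ Has x w') *
            (ind (∀ x ∈ c', ¬ Has x w') * (DD (lset c) Set.univ F *
            DD (lset c' ∩ litset w' b') Set.univ F)))]
          rw [← avgL_mul_left]
          congr 1; funext F
          rw [← avgL_mul_left]
          refine avgL_congr fun A hA => ?_
          rw [← avgL_mul_left]
          refine avgL_congr fun B hB => ?_
          rw [← avgL_mul_left]
          congr 1; funext c
          rw [← avgL_mul_left]
          congr 1; funext c'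
          rw [hA, hB]; push_cast; ring
        rw [e4]
        have hyp' : PP k M (Fintype.card V' - 1) Λ := by
          rw [hcard]
          have : Fintype.card V - 1 - 1 = Fintype.card V - 2 := by omega
          rw [this]; exact hyp
        have h5 := t6_step2 hk (V := V') (by rw [hcard]; omega) hΛ hyp' w' b' (i + α) (j + β) s
          (by omega)
        have h6 := t6_pow (α + β)
        have h7 : (1 + 2 * r' * 8) ^ s ≤ (1 + 2 * r' * 8) ^ t :=
          pow_le_pow_right₀ (by linarith) (by omega)
        calc _ ≤ (1 + ((α + β : ℕ) : ℝ)) ^ 2 *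
              (Λ * 2 ^ (i + α + (j + β)) * (1 + 2 * r' * 8) ^ s) := by
              exact mul_le_mul_of_nonneg_left h5 (by positivity)
          _ ≤ (1 + ((α + β : ℕ) : ℝ)) ^ 2 *
              (Λ * 2 ^ (i + α + (j + β)) * (1 + 2 * r' * 8) ^ t) := by
              refine mul_le_mul_of_nonneg_left (mul_le_mul_of_nonneg_left h7 (by positivity))
                (by positivity)
          _ = Λ * 2 ^ (i + j) * (1 + 2 * r' * 8) ^ t *
              ((1 + ((α + β : ℕ) : ℝ)) ^ 2 * 2 ^ (α + β)) := by ring
          _ ≤ Λ * 2 ^ (i + j) * (1 + 2 * r' * 8) ^ t * 8 ^ (α + β) := by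
              exact mul_le_mul_of_nonneg_left h6 (by positivity)
    _ ≤ Λ * 2 ^ (i + j) * Real.exp (16 * k * t / ((Fintype.card V : ℝ) - 1)) := by
        have hpos : (0:ℝ) < (Fintype.card V : ℝ) - 1 := by linarith
        have hb : ∀ x : ℝ, 0 ≤ x → x ≤ 8 * k / ((Fintype.card V : ℝ) - 1) →
            (1 + x) ^ t ≤ Real.exp (8 * k * t / ((Fintype.card V : ℝ) - 1)) := by
          intro x hx0 hx
          calc (1 + x) ^ t ≤ (Real.exp (8 * k / ((Fintype.card V : ℝ) - 1))) ^ t := by
                refine pow_le_pow_left₀ (by linarith) ?_ t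
                have := Real.add_one_le_exp (8 * (k:ℝ) / ((Fintype.card V : ℝ) - 1))
                linarith
            _ = _ := by rw [← Real.exp_nat_mul]; congr 1; ring
        have hx1 : 2 * r' * 8 ≤ 8 * k / ((Fintype.card V : ℝ) - 1) := by
          rw [hr', hcardR]
          apply le_of_eq; field_simp
        have hx2 : 2 * r * 8 ≤ 8 * k / ((Fintype.card V : ℝ) - 1) := by
          rw [hr]
          have : 2 * ((k:ℝ) / (2 * Fintype.card V)) * 8 = 8 * k / (Fintype.card V : ℝ) := by
            field_simp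
          rw [this]
          apply div_le_div_of_nonneg_left (by positivity) hpos (by linarith)
        have g1 := hb _ (by positivity) hx1
        have g2 := hb _ (by positivity) hx2
        have e5 : Real.exp (16 * k * t / ((Fintype.card V : ℝ) - 1)) =
            Real.exp (8 * k * t / ((Fintype.card V : ℝ) - 1)) *
              Real.exp (8 * k * t / ((Fintype.card V : ℝ) - 1)) := by
          rw [← Real.exp_add]; congr 1; ring
        rw [e5]
        calc _ = Λ * 2 ^ (i + j) * ((1 + 2 * r' * 8) ^ t * (1 + 2 * r * 8) ^ t) := by ring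
          _ ≤ _ := mul_le_mul_of_nonneg_left (mul_le_mul g1 g2 (by positivity)
              (by positivity)) (by positivity)

end

end Crest.Agent.RS
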