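import Mathlib
import Crest.Agent.RS_Defs

set_option autoImplicit false

namespace Crest.Agent.RS

open Classical

noncomputable section

/-- variables of the killing literals, with respect to a reference assignment -/
abbrev T7W {V : Type} (S : Set (V → Bool)) (σ : V → Bool) : Type := {v : V // Kills S (v, !σ v)}

theorem T7_kills {V : Type} {S : Set (V → Bool)} {σ : V → Bool} (hσ : σ ∈ S) (l : V × Bool)
    (h : Kills S l) : l.2 = !σ l.1 := by
  by_contra hne
  have h1 : σ l.1 = l.2 := by
    cases h2 : σ l.1 <;> cases h3 : l.2 <;> simp_all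
  have h2 : σ ∈ S ∩ litset l.1 l.2 := ⟨hσ, h1⟩
  rw [show S ∩ litset l.1 l.2 = ∅ from h] at h2
  exact h2

theorem T7_KK {V : Type} [Fintype V] {S : Set (V → Bool)} {σ : V → Bool} (hσ : σ ∈ S) :
    KK S = (Fintype.card (T7W S σ) : ℝ) := by
  unfold KK
  norm_cast
  rw [← Fintype.card_subtype]
  refine Fintype.card_congr ⟨fun l => ⟨l.1.1, ?_⟩, fun v => ⟨(v.1, !σ v.1), v.2⟩, fun l => ?_,
    fun v => rfl⟩
  · have h1 := T7_kills hσ l.1 l.2
    rw [← h1]
    exact l.2
  · have h1 := T7_kills hσ l.1 l.2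
    apply Subtype.ext
    exact Prod.ext rfl h1.symm

/-- RS-T7a. The killing literals of a nonempty set are on distinct variables. -/
theorem KK_le {V : Type} [Fintype V] {S : Set (V → Bool)} (hS : S.Nonempty) :
    KK S ≤ Fintype.card V := by
  obtain ⟨σ, hσ⟩ := hS
  rw [T7_KK hσ]
  exact_mod_cast Fintype.card_subtype_le _

theorem T7_inter {k : ℕ} {V : Type} {S : Set (V → Bool)} (C : Cl k V) :
    S ∩ sset C = ∅ ↔ ∀ i, Kills S (C.1 i, C.2 i) := by
  constructor
  · intro h i
    apply Set.eq_empty_of_subset_empty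
    rw [← h]
    rintro τ ⟨h1, h2⟩
    exact ⟨h1, ⟨i, h2⟩⟩
  · intro h
    apply Set.eq_empty_of_subset_empty
    rintro τ ⟨h1, ⟨i, h2⟩⟩
    have : τ ∈ S ∩ litset (C.1 i) (C.2 i) := ⟨h1, h2⟩
    rw [show S ∩ litset (C.1 i) (C.2 i) = ∅ from h i] at this
    exact this

theorem T7_count {k : ℕ} {V : Type} [Fintype V] {S : Set (V → Bool)} {σ : V → Bool} (hσ : σ ∈ S) :
    ∑ C : Cl k V, ind (S ∩ sset C = ∅) = ((Fintype.card (T7W S σ)).descFactorial k : ℝ) := by
  have h0 : ∑ C : Cl k V, ind (S ∩ sset C = ∅) =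
      ((Finset.univ.filter (fun C : Cl k V => S ∩ sset C = ∅)).card : ℝ) := by
    rw [Finset.card_filter]
    push_cast
    rfl
  rw [h0]
  norm_cast
  rw [← Fintype.card_subtype]
  have h1 : Fintype.card (Fin k ↪ T7W S σ) = (Fintype.card (T7W S σ)).descFactorial k := by
    rw [Fintype.card_embedding_eq, Fintype.card_fin]
  rw [← h1]
  refine Fintype.card_congr ⟨fun C => ⟨fun i => ⟨C.1.1 i, ?_⟩, ?_⟩,
    fun f => ⟨(f.trans (Function.Embedding.subtype _), fun i => !σ (f i).1), ?_⟩, fun C => ?_,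
    fun f => ?_⟩
  · have h2 := (T7_inter C.1).1 C.2 i
    have h3 := T7_kills hσ _ h2
    simp only at h3
    rw [← h3]
    exact h2
  · intro i j hij
    exact C.1.1.injective (Subtype.ext_iff.1 hij)
  · rw [T7_inter]
    intro i
    exact (f i).2
  · apply Subtype.ext
    refine Prod.ext ?_ ?_
    · rfl
    · funext i
      have h2 := (T7_inter C.1).1 C.2 i
      exact (T7_kills hσ _ h2).symm
  · rfl

theorem T7_card (k : ℕ) (V : Type) [Fintype V] :
    (Fintype.card (Cl k V) : ℝ) = ((Fintype.card V).descFactorial k : ℝ) * 2 ^ k := by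
  rw [Fintype.card_prod, Fintype.card_embedding_eq, Fintype.card_fun]
  simp

theorem T7_avg {k : ℕ} {V : Type} [Fintype V] {S : Set (V → Bool)} {σ : V → Bool} (hσ : σ ∈ S) :
    avg (fun C : Cl k V => ind (S ∩ sset C = ∅)) =
      ((Fintype.card (T7W S σ)).descFactorial k : ℝ) /
        (((Fintype.card V).descFactorial k : ℝ) * 2 ^ k) := by
  unfold avg
  rw [T7_count hσ, T7_card]

/-- RS-T7b. A random 2-clause kills with probability `K(K-1)/(4n(n-1)) ≤ (K/2n)^2`. -/
theorem avg_kill_le {V : Type} [Fintype V] {S : Set (V → Bool)} (hS : S.Nonempty) :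
    avg (fun x : Cl 2 V => ind (S ∩ sset x = ∅)) ≤ (KK S / (2 * Fintype.card V)) ^ 2 := by
  have hle := KK_le hS
  obtain ⟨σ, hσ⟩ := hS
  rw [T7_avg hσ, T7_KK hσ] at *
  set K := Fintype.card (T7W S σ) with hK
  set n := Fintype.card V with hn
  have hKn : K ≤ n := by exact_mod_cast hle
  rcases Nat.lt_or_ge n 2 with h2 | h2
  · have : n.descFactorial 2 = 0 := Nat.descFactorial_eq_zero_iff_lt.2 h2
    rw [this]
    simp only [Nat.cast_zero, zero_mul, div_zero]
    positivity
  · have e1 : ∀ m : ℕ, ((m.descFactorial 2 : ℕ) : ℝ) = (m : ℝ) * ((m : ℝ) - 1) := by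
      intro m
      rw [Nat.descFactorial_succ, Nat.descFactorial_succ, Nat.descFactorial_zero]
      rcases Nat.eq_zero_or_pos m with h | h
      · subst h; simp
      · rw [Nat.sub_zero]
        push_cast [Nat.cast_sub (show 1 ≤ m from h)]
        ring
    rw [e1, e1]
    have hn2 : (2 : ℝ) ≤ n := by exact_mod_cast h2
    have hKn' : (K : ℝ) ≤ n := by exact_mod_cast hKn
    have hK0 : (0 : ℝ) ≤ K := by positivity
    rw [div_pow, div_le_div_iff₀ (by nlinarith) (by positivity)]
    have : (K : ℝ) * ((n : ℝ) * ((K : ℝ) - 1)) ≤ K * (K * ((n : ℝ) - 1)) := by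
      apply mul_le_mul_of_nonneg_left _ hK0
      nlinarith
    nlinarith [this, mul_le_mul_of_nonneg_left this (show (0:ℝ) ≤ n by linarith)]

/-- RS-T7c. A random `k`-clause kills with probability `∏_{i<k} (K-i)/(2(n-i)) ≥ (K/4n)^k` when
`K ≥ 2k` (a clause all of whose literals are killing kills; `i ≤ K/2`). -/
theorem avg_kill_ge {k : ℕ} {V : Type} [Fintype V] {S : Set (V → Bool)} (hS : S.Nonempty)
    (hK : (2 * k : ℝ) ≤ KK S) :
    (KK S / (4 * Fintype.card V)) ^ k ≤ avg (fun C : Cl k V => ind (S ∩ sset C = ∅)) := by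
  have hle := KK_le hS
  obtain ⟨σ, hσ⟩ := hS
  rw [T7_avg hσ]
  rw [T7_KK hσ] at *
  set K := Fintype.card (T7W S σ) with hK'
  set n := Fintype.card V with hn
  have hKn : K ≤ n := by exact_mod_cast hle
  have hKk : 2 * k ≤ K := by exact_mod_cast hK
  -- by induction over the factors
  have key : ∀ j ≤ k, ((K : ℝ) / (4 * n)) ^ j ≤
      (K.descFactorial j : ℝ) / ((n.descFactorial j : ℝ) * 2 ^ j) := by
    intro j
    induction j with
    | zero => intro _; simp
    | succ j ih =>
      intro hj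
      have ih' := ih (by omega)
      rw [pow_succ, Nat.descFactorial_succ, Nat.descFactorial_succ]
      have hjK : j ≤ K := by omega
      have hjn : j < n := by omega
      have hn0 : (0 : ℝ) < n := by exact_mod_cast (by omega : 0 < n)
      have hnj : (0 : ℝ) < (n : ℝ) - j := by
        have : (j : ℝ) < n := by exact_mod_cast hjn
        linarith
      push_cast [Nat.cast_sub hjK, Nat.cast_sub hjn.le]
      have hd : (0 : ℝ) < (n.descFactorial j : ℝ) := by
        exact_mod_cast Nat.pos_of_ne_zero (fun h => by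
          rw [Nat.descFactorial_eq_zero_iff_lt] at h; omega)
      have h1 : (((K : ℝ) - j) * (K.descFactorial j : ℝ)) /
          (((n : ℝ) - j) * (n.descFactorial j : ℝ) * 2 ^ (j + 1)) =
          ((K.descFactorial j : ℝ) / ((n.descFactorial j : ℝ) * 2 ^ j)) *
            (((K : ℝ) - j) / (2 * ((n : ℝ) - j))) := by
        rw [pow_succ]
        field_simp
      rw [h1]
      refine mul_le_mul ih' ?_ (by positivity) (by positivity)
      rw [div_le_div_iff₀ (by positivity) (by positivity)]
      have h2 : (2 * (j : ℝ)) ≤ K := by exact_mod_cast (by omega : 2 * j ≤ K)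
      have h3 : (0 : ℝ) ≤ K := by positivity
      have h4 : (0 : ℝ) ≤ j := by positivity
      nlinarith [mul_nonneg h3 h4, mul_nonneg (sub_nonneg.2 h2) hn0.le]
  exact key k le_rfl

end

end Crest.Agent.RS
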