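import Mathlib
import Crest.Agent.RS_Defs

set_option autoImplicit false

namespace Crest.Agent.RS

open Classical

noncomputable section

theorem T8_run_empty {k : ℕ} {V : Type} (Q : Set (V → Bool) → Prop) (hQ : ¬ Q ∅)
    (F : List (Cl k V)) : run (fun S => ind (Q S)) ∅ F = 0 := by
  induction F with
  | nil => rw [run_nil]; exact ind_false hQ
  | cons C F ih => rw [run_cons, Set.empty_inter, ih, ind_false hQ, add_zero]

/-- averages of a quantity bounded by `B` and vanishing when the clause kills. -/
theorem T8_avg_kill {k : ℕ} {V : Type} [Fintype V] [Nonempty (Cl k V)] {κ B : ℝ} (hB : 0 ≤ B)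
    (S : Set (V → Bool)) (hκ : κ ≤ avg (fun C : Cl k V => ind (S ∩ sset C = ∅)))
    (f : Set (V → Bool) → ℝ) (h0 : f ∅ = 0) (hf : ∀ S, f S ≤ B) :
    avg (fun C : Cl k V => f (S ∩ sset C)) ≤ B * (1 - κ) := by
  have h1 : avg (fun C : Cl k V => f (S ∩ sset C)) ≤
      avg (fun C : Cl k V => B * (1 - ind (S ∩ sset C = ∅))) := by
    refine avg_mono fun C => ?_
    by_cases h : S ∩ sset C = ∅
    · rw [h, h0, ind_true rfl]; simp
    · rw [ind_false h]; simpa using hf _
  rw [avg_mul_left, avg_sub, avg_const] at h1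
  exact h1.trans (mul_le_mul_of_nonneg_left (by linarith) hB)

theorem T8_first {k : ℕ} {V : Type} [Fintype V] {κ : ℝ} (hκ : 0 < κ) (hκ1 : κ ≤ 1)
    (Q : Set (V → Bool) → Prop)
    (hQ : ∀ S, Q S → S.Nonempty ∧ κ ≤ avg (fun C : Cl k V => ind (S ∩ sset C = ∅)))
    (t : ℕ) (S : Set (V → Bool)) :
    avgL t (fun F : List (Cl k V) => run (fun S => ind (Q S)) S F) ≤ 1 / κ := by
  have hQ0 : ¬ Q ∅ := fun h => by simpa using (hQ _ h).1
  have h1κ : 1 ≤ 1 / κ := by rw [le_div_iff₀ hκ]; linarith
  induction t generalizing S with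
  | zero => exact (ind_le_one _).trans h1κ
  | succ t ih =>
    rw [avgL_succ']
    rcases isEmpty_or_nonempty (Cl k V) with he | hne
    · unfold avg
      simp only [Finset.univ_eq_empty, Finset.sum_empty, zero_div]
      positivity
    have e1 : ∀ C : Cl k V, avgL t (fun F : List (Cl k V) => run (fun S => ind (Q S)) S (C :: F)) =
        ind (Q S) + avgL t (fun F : List (Cl k V) => run (fun S => ind (Q S)) (S ∩ sset C) F) := by
      intro C
      simp only [run_cons]
      rw [avgL_add, avgL_const]
    simp only [e1]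
    rw [avg_add, avg_const]
    by_cases hS : Q S
    · have h2 := T8_avg_kill (k := k) (B := 1 / κ) (by positivity) S (hQ S hS).2
        (fun S => avgL t (fun F : List (Cl k V) => run (fun S => ind (Q S)) S F))
        (by simp only [T8_run_empty Q hQ0]; exact avgL_const t 0) ih
      rw [ind_true hS]
      have : 1 / κ * (1 - κ) = 1 / κ - 1 := by field_simp
      linarith
    · rw [ind_false hS, zero_add]
      exact avg_le_const (by positivity) fun C => ih _

/-- RS-T8. Geometric domination: the number `N` of times at which the state satisfies `Q`, where in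
every such state the next clause kills with probability at least `κ`. Induction on `t` (with
`avgL_succ'`): `E N ≤ 1/κ`, then `E N² ≤ 2/κ²`; from the empty set `N = 0`. -/
theorem geom_dom {k : ℕ} {V : Type} [Fintype V] {κ : ℝ} (hκ : 0 < κ) (hκ1 : κ ≤ 1)
    (Q : Set (V → Bool) → Prop)
    (hQ : ∀ S, Q S → S.Nonempty ∧ κ ≤ avg (fun C : Cl k V => ind (S ∩ sset C = ∅)))
    (t : ℕ) (S : Set (V → Bool)) :
    avgL t (fun F : List (Cl k V) => (run (fun S => ind (Q S)) S F) ^ 2) ≤ 2 / κ ^ 2 := by
  have hQ0 : ¬ Q ∅ := fun h => by simpa using (hQ _ h).1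
  have h1κ : 1 ≤ 1 / κ := by rw [le_div_iff₀ hκ]; linarith
  have h2κ : 2 / κ ^ 2 = 2 * (1 / κ) ^ 2 := by field_simp
  have h3κ : 1 ≤ 2 / κ ^ 2 := by rw [h2κ]; nlinarith
  induction t generalizing S with
  | zero =>
    have h0 := ind_nonneg (Q S)
    have h1 := ind_le_one (Q S)
    show (ind (Q S)) ^ 2 ≤ 2 / κ ^ 2
    nlinarith
  | succ t ih =>
    rw [avgL_succ']
    rcases isEmpty_or_nonempty (Cl k V) with he | hne
    · unfold avg
      simp only [Finset.univ_eq_empty, Finset.sum_empty, zero_div]
      positivity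
    have e1 : ∀ C : Cl k V, avgL t (fun F : List (Cl k V) =>
        (run (fun S => ind (Q S)) S (C :: F)) ^ 2) =
        (ind (Q S)) ^ 2 + 2 * ind (Q S) * avgL t (fun F : List (Cl k V) =>
          run (fun S => ind (Q S)) (S ∩ sset C) F) +
        avgL t (fun F : List (Cl k V) => (run (fun S => ind (Q S)) (S ∩ sset C) F) ^ 2) := by
      intro C
      have e2 : (fun F : List (Cl k V) => (run (fun S => ind (Q S)) S (C :: F)) ^ 2) =
          fun F => (((ind (Q S)) ^ 2 + 2 * ind (Q S) * run (fun S => ind (Q S)) (S ∩ sset C) F) +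
            (run (fun S => ind (Q S)) (S ∩ sset C) F) ^ 2) := by
        funext F
        rw [run_cons]
        ring
      rw [e2, avgL_add, avgL_add, avgL_const, avgL_mul_left]
    simp only [e1]
    rw [avg_add, avg_add, avg_const, avg_mul_left]
    by_cases hS : Q S
    · have h2 := T8_avg_kill (k := k) (B := 1 / κ) (by positivity) S (hQ S hS).2
        (fun S => avgL t (fun F : List (Cl k V) => run (fun S => ind (Q S)) S F))
        (by simp only [T8_run_empty Q hQ0]; exact avgL_const t 0)
        (T8_first hκ hκ1 Q hQ t)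
      have h3 := T8_avg_kill (k := k) (B := 2 / κ ^ 2) (by positivity) S (hQ S hS).2
        (fun S => avgL t (fun F : List (Cl k V) => (run (fun S => ind (Q S)) S F) ^ 2))
        (by simp only [T8_run_empty Q hQ0]; norm_num; exact avgL_const t 0) ih
      rw [ind_true hS]
      have e3 : 1 / κ * (1 - κ) = 1 / κ - 1 := by field_simp
      have e4 : 2 / κ ^ 2 * (1 - κ) = 2 / κ ^ 2 - 2 * (1 / κ) := by field_simp
      rw [e3] at h2
      rw [e4] at h3
      linarith
    · rw [ind_false hS]
      have h4 := avg_le_const (α := Cl k V) (φ := fun C => avgL t (fun F : List (Cl k V) =>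
        (run (fun S => ind (Q S)) (S ∩ sset C) F) ^ 2)) (c := 2 / κ ^ 2) (by positivity)
        fun C => ih _
      linarith

/-- RS-T8b. Intersecting the state with a fixed set. -/
theorem run_inter {k : ℕ} {V : Type} (φ : Set (V → Bool) → ℝ) (S T : Set (V → Bool))
    (F : List (Cl k V)) : run (fun S => φ (S ∩ T)) S F = run φ (S ∩ T) F := by
  induction F generalizing S with
  | nil => rfl
  | cons C F ih =>
    rw [run_cons, run_cons, ih]
    rw [Set.inter_right_comm]

end

end Crest.Agent.RS
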