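import Mathlib
import Crest.Agent.RS_T7

set_option autoImplicit false

namespace Crest.Agent.RS

open Classical

noncomputable section

/-- the killing literals of a nonempty set are determined by their variable -/
theorem t9_kills_inj {V : Type} {S : Set (V → Bool)} (hS : S.Nonempty) {l l' : V × Bool}
    (h : Kills S l) (h' : Kills S l') (hv : l.1 = l'.1) : l = l' := by
  obtain ⟨σ, hσ⟩ := hS
  obtain ⟨v, b⟩ := l
  obtain ⟨v', b'⟩ := l'
  simp only at hv
  subst hv
  have h1 : σ v ≠ b := by
    intro hb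
    have : σ ∈ S ∩ litset v b := ⟨hσ, hb⟩
    rw [show S ∩ litset v b = ∅ from h] at this
    exact this
  have h2 : σ v ≠ b' := by
    intro hb
    have : σ ∈ S ∩ litset v b' := ⟨hσ, hb⟩
    rw [show S ∩ litset v b' = ∅ from h'] at this
    exact this
  have : b = b' := by
    revert h1 h2
    cases σ v <;> cases b <;> cases b' <;> simp
  rw [this]

/-- RS-T9a. Counting: with `n = card V`, `K = KK S`, `K' = KK S'`,
`K K' ≤ #(good killing pairs of literals) + n (1 + 4(|c|+|c'|) + k²|F|/n)`.
Pairs on the same variable: at most `K ≤ n`. Pairs with `v` or `v'` in the variables `W` of `c, c'`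
(`|W| ≤ 2(|c|+|c'|)`): at most `|W| (K + K') ≤ 2 n |W|` (for every variable at most one literal
kills). Pairs `v, v'` in a common clause of `F`: at most `k² |F|`. -/
theorem pair_count {k : ℕ} {V : Type} [Fintype V] {S S' : Set (V → Bool)}
    (hS : S.Nonempty) (hS' : S'.Nonempty) (c c' : List (Cl 2 V)) (F : List (Cl k V)) :
    KK S * KK S' ≤
      ((Finset.univ.filter (fun q : (V × Bool) × (V × Bool) => q.1.1 ≠ q.2.1 ∧
        Good q.1.1 q.2.1 c c' F ∧ Kills S q.1 ∧ Kills S' q.2)).card : ℝ)
      + (Fintype.card V + 4 * (c.length + c'.length) * Fintype.card V + (k : ℝ) ^ 2 * F.length) := by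
  set A : Finset (V × Bool) := Finset.univ.filter (fun l : V × Bool => Kills S l) with hA
  set A' : Finset (V × Bool) := Finset.univ.filter (fun l : V × Bool => Kills S' l) with hA'
  set G : Finset ((V × Bool) × (V × Bool)) :=
    Finset.univ.filter (fun q : (V × Bool) × (V × Bool) => q.1.1 ≠ q.2.1 ∧
        Good q.1.1 q.2.1 c c' F ∧ Kills S q.1 ∧ Kills S' q.2) with hG
  set B : Finset ((V × Bool) × (V × Bool)) :=
    (A ×ˢ A').filter (fun q => ¬ (q.1.1 ≠ q.2.1 ∧ Good q.1.1 q.2.1 c c' F)) with hB
  have hsub : A ×ˢ A' ⊆ G ∪ B := by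
    intro q hq
    rw [Finset.mem_product, hA, hA', Finset.mem_filter, Finset.mem_filter] at hq
    by_cases hg : q.1.1 ≠ q.2.1 ∧ Good q.1.1 q.2.1 c c' F
    · exact Finset.mem_union_left _ (Finset.mem_filter.2 ⟨Finset.mem_univ _,
        hg.1, hg.2, hq.1.2, hq.2.2⟩)
    · refine Finset.mem_union_right _ (Finset.mem_filter.2 ⟨?_, hg⟩)
      rw [Finset.mem_product, hA, hA', Finset.mem_filter, Finset.mem_filter]
      exact hq
  -- variables of the extra clauses
  set W : Finset V := (c ++ c').toFinset.biUnion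
    (fun x : Cl 2 V => (Finset.univ : Finset (Fin 2)).image x.1) with hW
  have hWc : W.card ≤ 2 * (c.length + c'.length) := by
    calc W.card ≤ ∑ x ∈ (c ++ c').toFinset, ((Finset.univ : Finset (Fin 2)).image x.1).card :=
          Finset.card_biUnion_le
      _ ≤ ∑ x ∈ (c ++ c').toFinset, 2 := Finset.sum_le_sum fun x _ => by
          refine (Finset.card_image_le).trans ?_
          simp
      _ = (c ++ c').toFinset.card * 2 := by rw [Finset.sum_const, smul_eq_mul]
      _ ≤ (c ++ c').length * 2 := Nat.mul_le_mul_right 2 (List.toFinset_card_le _)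
      _ = 2 * (c.length + c'.length) := by rw [List.length_append]; ring
  set Q : Finset (V × V) := F.toFinset.biUnion
    (fun C : Cl k V => (Finset.univ : Finset (Fin k × Fin k)).image
      (fun ij => (C.1 ij.1, C.1 ij.2))) with hQ
  have hQc : Q.card ≤ k ^ 2 * F.length := by
    calc Q.card ≤ ∑ C ∈ F.toFinset, ((Finset.univ : Finset (Fin k × Fin k)).image
          (fun ij => (C.1 ij.1, C.1 ij.2))).card := Finset.card_biUnion_le
      _ ≤ ∑ x ∈ F.toFinset, k ^ 2 := Finset.sum_le_sum fun x _ => by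
          refine (Finset.card_image_le).trans ?_
          simp [sq]
      _ = F.toFinset.card * k ^ 2 := by rw [Finset.sum_const, smul_eq_mul]
      _ ≤ F.length * k ^ 2 := Nat.mul_le_mul_right _ (List.toFinset_card_le _)
      _ = k ^ 2 * F.length := by ring
  set D : Finset (V × V) := (Finset.univ : Finset V).image (fun v => (v, v)) with hD
  have hDc : D.card ≤ Fintype.card V := (Finset.card_image_le).trans (by simp)
  have hBc : B.card ≤ (D ∪ (W ×ˢ Finset.univ) ∪ (Finset.univ ×ˢ W) ∪ Q).card := by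
    refine Finset.card_le_card_of_injOn (fun q => (q.1.1, q.2.1)) ?_ ?_
    · intro q hq
      simp only [hB, Finset.coe_filter, Set.mem_ofPred_eq, Finset.mem_product] at hq
      obtain ⟨-, hq⟩ := hq
      simp only [Finset.coe_union, Set.mem_union, Finset.mem_coe, Finset.mem_product,
        Finset.mem_univ, and_true, true_and]
      by_cases h1 : q.1.1 = q.2.1
      · left; left; left
        rw [hD, Finset.mem_image]
        exact ⟨q.1.1, Finset.mem_univ _, by rw [← h1]⟩
      · have h2 : ¬ Good q.1.1 q.2.1 c c' F := fun h => hq ⟨h1, h⟩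
        have hmemW : ∀ (v : V) (x : Cl 2 V), x ∈ c ++ c' → Has x v → v ∈ W := by
          rintro v x hx ⟨i, hi⟩
          rw [hW, Finset.mem_biUnion]
          exact ⟨x, List.mem_toFinset.2 hx, Finset.mem_image.2 ⟨i, Finset.mem_univ _, hi⟩⟩
        by_cases h3 : q.1.1 ∈ W
        · left; left; right; exact h3
        · by_cases h4 : q.2.1 ∈ W
          · left; right; exact h4
          · right
            have h5 : ¬ ∀ C ∈ F, ¬ (Has C q.1.1 ∧ Has C q.2.1) := by
              intro h6
              apply h2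
              refine ⟨fun x hx => ⟨fun h => h3 (hmemW _ x (List.mem_append_left _ hx) h),
                fun h => h4 (hmemW _ x (List.mem_append_left _ hx) h)⟩,
                fun x hx => ⟨fun h => h3 (hmemW _ x (List.mem_append_right _ hx) h),
                fun h => h4 (hmemW _ x (List.mem_append_right _ hx) h)⟩, h6⟩
            push Not at h5
            obtain ⟨C, hC, ⟨i, hi⟩, ⟨j, hj⟩⟩ := h5
            rw [hQ, Finset.mem_biUnion]
            exact ⟨C, List.mem_toFinset.2 hC, Finset.mem_image.2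
              ⟨(i, j), Finset.mem_univ _, by rw [← hi, ← hj]⟩⟩
    · intro q hq q' hq' heq
      simp only [hB, hA, hA', Finset.coe_filter, Set.mem_ofPred_eq, Finset.mem_product,
        Finset.mem_filter, Finset.mem_univ, true_and] at hq hq'
      simp only [Prod.mk.injEq] at heq
      exact Prod.ext (t9_kills_inj hS hq.1.1 hq'.1.1 heq.1)
        (t9_kills_inj hS' hq.1.2 hq'.1.2 heq.2)
  have hcard : (A ×ˢ A').card ≤ G.card + (Fintype.card V + 2 * (c.length + c'.length) *
      Fintype.card V + Fintype.card V * (2 * (c.length + c'.length)) + k ^ 2 * F.length) := by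
    calc (A ×ˢ A').card ≤ (G ∪ B).card := Finset.card_le_card hsub
      _ ≤ G.card + B.card := Finset.card_union_le _ _
      _ ≤ G.card + (D ∪ (W ×ˢ Finset.univ) ∪ (Finset.univ ×ˢ W) ∪ Q).card :=
          Nat.add_le_add_left hBc _
      _ ≤ G.card + (D.card + (W ×ˢ (Finset.univ : Finset V)).card +
          ((Finset.univ : Finset V) ×ˢ W).card + Q.card) := by
          refine Nat.add_le_add_left ?_ _
          refine (Finset.card_union_le _ _).trans (Nat.add_le_add_right ?_ _)
          refine (Finset.card_union_le _ _).trans (Nat.add_le_add_right ?_ _)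
          exact Finset.card_union_le _ _
      _ ≤ _ := by
          rw [Finset.card_product, Finset.card_product, Finset.card_univ]
          gcongr
  have hKK : KK S * KK S' = ((A ×ˢ A').card : ℝ) := by
    rw [Finset.card_product, Nat.cast_mul]; rfl
  rw [hKK]
  have := (Nat.cast_le (α := ℝ)).2 hcard
  push_cast at this
  linarith

theorem t9_card_cl {V : Type} [Fintype V] :
    (Fintype.card (Cl 2 V) : ℝ) = 4 * ((Fintype.card V : ℝ) * (Fintype.card V - 1)) := by
  rw [Fintype.card_prod, Fintype.card_embedding_eq]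
  simp only [Fintype.card_fin, Fintype.card_pi, Fintype.card_bool, Finset.prod_const,
    Finset.card_univ]
  rw [Nat.descFactorial_succ, Nat.descFactorial_succ, Nat.descFactorial_zero]
  rcases Nat.eq_zero_or_pos (Fintype.card V) with h | h
  · simp [h]
  · rw [Nat.sub_zero]
    push_cast [Nat.cast_sub h]
    ring

/-- the number of pairs of literals on distinct variables with a property is at most the number
of 2-clauses with the property -/
theorem t9_card_filter {V : Type} [Fintype V] (p : (V × Bool) → (V × Bool) → Prop) :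
    (Finset.univ.filter (fun q : (V × Bool) × (V × Bool) => q.1.1 ≠ q.2.1 ∧ p q.1 q.2)).card ≤
    (Finset.univ.filter (fun x : Cl 2 V => p (x.1 0, x.2 0) (x.1 1, x.2 1))).card := by
  refine (Finset.card_le_card ?_).trans (Finset.card_image_le (s := Finset.univ.filter
    (fun x : Cl 2 V => p (x.1 0, x.2 0) (x.1 1, x.2 1)))
    (f := fun x : Cl 2 V => ((x.1 0, x.2 0), (x.1 1, x.2 1))))
  intro q hq
  rw [Finset.mem_filter] at hq
  rw [Finset.mem_image]
  refine ⟨(⟨![q.1.1, q.2.1], ?_⟩, ![q.1.2, q.2.2]), ?_, ?_⟩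
  · intro i j hij
    fin_cases i <;> fin_cases j
    · rfl
    · exact absurd hij hq.2.1
    · exact absurd hij.symm hq.2.1
    · rfl
  · rw [Finset.mem_filter]
    exact ⟨Finset.mem_univ _, hq.2.2⟩
  · rfl

/-- RS-T9b. The pointwise inequality (`p = K/2n ≤ 1/2`): with `g` = probability that a random pair of
literals (a random element of `Cl 2 V`) is good and killing and
`C = 1 + 4(|c|+|c'|) + k²|F|/n`, we have `p p' ≤ g + C/(4n)`; if `g ≤ C/(4n)` then
`(pp')² ≤ C²/(4n²)`, otherwise `pp' ≤ 2g` and `p²p'² ≤ 1[p ≥ ε]1[p' ≥ ε] + ε·2g`. -/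
theorem pair_ineq {k : ℕ} {V : Type} [Fintype V] (hn : 2 ≤ Fintype.card V)
    {S S' : Set (V → Bool)} (hS : S.Nonempty) (hS' : S'.Nonempty)
    (c c' : List (Cl 2 V)) (F : List (Cl k V)) {ε : ℝ} (hε : 0 < ε) :
    (KK S / (2 * Fintype.card V)) ^ 2 * (KK S' / (2 * Fintype.card V)) ^ 2 ≤
      ind (ε ≤ KK S / (2 * Fintype.card V)) * ind (ε ≤ KK S' / (2 * Fintype.card V))
      + 2 * ε * avg (fun x : Cl 2 V => ind (Good (x.1 0) (x.1 1) c c' F ∧
          Kills S (x.1 0, x.2 0) ∧ Kills S' (x.1 1, x.2 1)))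
      + (1 + 4 * (c.length + c'.length) + (k : ℝ) ^ 2 * F.length / Fintype.card V) ^ 2
          / (4 * (Fintype.card V : ℝ) ^ 2) := by
  set n : ℝ := (Fintype.card V : ℝ) with hnn
  have hn2 : (2 : ℝ) ≤ n := by rw [hnn]; exact_mod_cast hn
  have hn0 : 0 < n := by linarith
  set G : ℝ := ((Finset.univ.filter (fun q : (V × Bool) × (V × Bool) => q.1.1 ≠ q.2.1 ∧
        Good q.1.1 q.2.1 c c' F ∧ Kills S q.1 ∧ Kills S' q.2)).card : ℝ) with hG
  set g : ℝ := avg (fun x : Cl 2 V => ind (Good (x.1 0) (x.1 1) c c' F ∧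
          Kills S (x.1 0, x.2 0) ∧ Kills S' (x.1 1, x.2 1))) with hg
  set C : ℝ := 1 + 4 * (c.length + c'.length) + (k : ℝ) ^ 2 * F.length / n with hC
  have hC0 : 0 ≤ C := by positivity
  have hg0 : 0 ≤ g := avg_nonneg fun _ => ind_nonneg _
  have hgG : G / (4 * n ^ 2) ≤ g := by
    have h1 : g = ((Finset.univ.filter (fun x : Cl 2 V => Good (x.1 0) (x.1 1) c c' F ∧
          Kills S (x.1 0, x.2 0) ∧ Kills S' (x.1 1, x.2 1))).card : ℝ) /
        (4 * (n * (n - 1))) := by
      rw [hg, avg, t9_card_cl, ← hnn]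
      congr 1
      rw [Finset.card_filter]
      push_cast
      refine Finset.sum_congr rfl fun x _ => ?_
      unfold ind
      split_ifs <;> rfl
    have h2 : G ≤ ((Finset.univ.filter (fun x : Cl 2 V => Good (x.1 0) (x.1 1) c c' F ∧
          Kills S (x.1 0, x.2 0) ∧ Kills S' (x.1 1, x.2 1))).card : ℝ) := by
      rw [hG]
      refine Nat.cast_le.2 (le_trans (le_of_eq ?_) ((t9_card_filter
        (fun l l' => Good l.1 l'.1 c c' F ∧ Kills S l ∧ Kills S' l')).trans (le_of_eq ?_)))
      · refine congrArg Finset.card ?_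
        ext q; simp only [Finset.mem_filter]
      · refine congrArg Finset.card ?_
        ext q; simp only [Finset.mem_filter]
    have hG0 : 0 ≤ G := Nat.cast_nonneg _
    rw [h1]
    have h3 : 0 < 4 * (n * (n - 1)) := by
      have : 0 < n - 1 := by linarith
      positivity
    refine div_le_div₀ (hG0.trans h2) h2 h3 ?_
    nlinarith
  have hpc := pair_count hS hS' c c' F
  rw [← hG, ← hnn] at hpc
  set K := KK S with hK
  set K' := KK S' with hK'
  have hK0 : 0 ≤ K := Nat.cast_nonneg _
  have hK'0 : 0 ≤ K' := Nat.cast_nonneg _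
  have hKn : K ≤ n := KK_le hS
  have hK'n : K' ≤ n := KK_le hS'
  set p := K / (2 * n) with hp
  set p' := K' / (2 * n) with hp'
  have hp0 : 0 ≤ p := by positivity
  have hp'0 : 0 ≤ p' := by positivity
  have hp1 : p ≤ 1 / 2 := by
    rw [hp, div_le_div_iff₀ (by positivity) (by norm_num)]; linarith
  have hp'1 : p' ≤ 1 / 2 := by
    rw [hp', div_le_div_iff₀ (by positivity) (by norm_num)]; linarith
  have hpp : p * p' ≤ g + C / (4 * n) := by
    have h1 : p * p' = K * K' / (4 * n ^ 2) := by rw [hp, hp']; field_simp; ring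
    have h2 : K * K' ≤ G + n * C := by
      have : n * C = n + 4 * (c.length + c'.length) * n + (k : ℝ) ^ 2 * F.length := by
        rw [hC]; field_simp
      rw [this]; exact hpc
    rw [h1]
    calc K * K' / (4 * n ^ 2) ≤ (G + n * C) / (4 * n ^ 2) :=
          div_le_div_of_nonneg_right h2 (by positivity)
      _ = G / (4 * n ^ 2) + C / (4 * n) := by field_simp
      _ ≤ g + C / (4 * n) := by linarith
  have hind : 0 ≤ ind (ε ≤ p) * ind (ε ≤ p') := mul_nonneg (ind_nonneg _) (ind_nonneg _)
  have hC4 : 0 ≤ C / (4 * n) := by positivity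
  have hpp0 : 0 ≤ p * p' := mul_nonneg hp0 hp'0
  have hCsq : C ^ 2 / (4 * n ^ 2) = (2 * (C / (4 * n))) ^ 2 := by field_simp; ring
  have hL : p ^ 2 * p' ^ 2 = (p * p') ^ 2 := by ring
  rw [hL, hCsq]
  rcases le_or_gt g (C / (4 * n)) with h | h
  · have h1 : (p * p') ^ 2 ≤ (2 * (C / (4 * n))) ^ 2 :=
      pow_le_pow_left₀ hpp0 (by linarith) 2
    have h2 : 0 ≤ 2 * ε * g := by positivity
    linarith
  · have h1 : p * p' ≤ 2 * g := by linarith
    have h3 : 0 ≤ (2 * (C / (4 * n))) ^ 2 := by positivity
    by_cases h2 : ε ≤ p ∧ ε ≤ p'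
    · rw [ind_true h2.1, ind_true h2.2]
      have h4 : (p * p') ^ 2 ≤ 1 := by
        have : p * p' ≤ 1 := by nlinarith
        exact pow_le_one₀ hpp0 this
      have h5 : 0 ≤ 2 * ε * g := by positivity
      linarith
    · have h4 : p * p' ≤ ε := by
        rw [not_and_or, not_le, not_le] at h2
        rcases h2 with h2 | h2
        · nlinarith
        · nlinarith
      have h5 : (p * p') ^ 2 ≤ ε * (2 * g) := by
        rw [sq]; exact mul_le_mul h4 h1 hpp0 hε.le
      linarith

end

end Crest.Agent.RS
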