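import Mathlib
import Crest.Agent.RS_T6
import Crest.Agent.RS_T7
import Crest.Agent.RS_T8
import Crest.Agent.RS_T9

set_option autoImplicit false

namespace Crest.Agent.RS

open Classical

noncomputable section

theorem t10_run_eq_sum {k : ℕ} {V : Type} (φ : Set (V → Bool) → ℝ) (S : Set (V → Bool))
    (F : List (Cl k V)) :
    run φ S F = ∑ m ∈ Finset.range (F.length + 1), φ (S ∩ lset (F.take m)) := by
  induction F generalizing S with
  | nil => simp [run_nil, lset_nil]
  | cons C F ih =>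
    rw [run_cons, List.length_cons, Finset.sum_range_succ', ih]
    simp only [List.take_zero, lset_nil, Set.inter_univ, List.take_succ_cons, lset_cons]
    rw [add_comm]
    congr 1
    refine Finset.sum_congr rfl fun m _ => ?_
    rw [Set.inter_assoc]

/-- RS-T10a. Sequential decomposition of kills along the extra clauses. For a fixed formula `F`:
`avg_{c of length a} D(T_c;F) = ∑_{i<a} avg_{c of length i} avg_x run(1[S∩T_c ≠ ∅, S∩T_c∩x = ∅])`. -/
theorem avgL_DD_eq_sum {k : ℕ} {V : Type} [Fintype V] [Nonempty (Cl 2 V)] (a : ℕ)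
    (F : List (Cl k V)) :
    avgL a (fun c : List (Cl 2 V) => DD (lset c) Set.univ F) =
      ∑ i ∈ Finset.range a, avgL i (fun c : List (Cl 2 V) =>
        run (fun S => ind (S ∩ lset c).Nonempty *
          avg (fun x : Cl 2 V => ind ((S ∩ lset c) ∩ sset x = ∅))) Set.univ F) := by
  induction a with
  | zero =>
    rw [avgL_zero, Finset.sum_range_zero, DD, t10_run_eq_sum]
    refine Finset.sum_eq_zero fun m _ => ?_
    apply ind_false
    rintro ⟨h1, h2⟩
    rw [lset_nil, Set.inter_univ] at h2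
    exact h1.ne_empty h2
  | succ a ih =>
    rw [Finset.sum_range_succ, ← ih, avgL_succ, ← avgL_add]
    refine avgL_congr fun c _ => ?_
    have h1 : ∀ x : Cl 2 V, DD (lset (x :: c)) Set.univ F = DD (lset c) Set.univ F +
        run (fun S => ind (S ∩ lset c).Nonempty * ind ((S ∩ lset c) ∩ sset x = ∅))
          Set.univ F := by
      intro x
      unfold DD
      rw [← run_add]
      congr 1
      funext S
      rw [← ind_and]
      have e : S ∩ lset (x :: c) = S ∩ lset c ∩ sset x := by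
        rw [lset_cons, Set.inter_assoc, Set.inter_comm (sset x)]
      rw [e]
      by_cases hc : S ∩ lset c = ∅
      · have h2 : S ∩ lset c ∩ sset x = ∅ := by rw [hc, Set.empty_inter]
        have h3 : ¬ (S ∩ lset c).Nonempty := by rw [hc]; exact Set.not_nonempty_empty
        rw [ind_false (p := (S ∩ lset c).Nonempty ∧ _) (fun h => h3 h.1), add_zero]
        simp only [hc, Set.empty_inter]
      · have h3 : (S ∩ lset c).Nonempty := Set.nonempty_iff_ne_empty.2 hc
        have h4 : S.Nonempty := h3.mono Set.inter_subset_left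
        rw [ind_false (p := S.Nonempty ∧ S ∩ lset c = ∅) (fun h => hc h.2), zero_add]
        simp only [h3, h4, true_and]
    simp only [h1]
    rw [avg_add, avg_const, ← run_avg]
    congr 2
    funext S
    rw [avg_mul_left]

/-- RS-T10b. The product of two runs is bounded by the three terms of `pair_ineq`. -/
theorem run_mul_run_le {k : ℕ} {V : Type} [Fintype V] (hn : 2 ≤ Fintype.card V)
    (c c' : List (Cl 2 V)) (F : List (Cl k V)) {ε : ℝ} (hε : 0 < ε) :
    run (fun S => ind (S ∩ lset c).Nonempty *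
          avg (fun x : Cl 2 V => ind ((S ∩ lset c) ∩ sset x = ∅))) Set.univ F *
      run (fun S => ind (S ∩ lset c').Nonempty *
          avg (fun x : Cl 2 V => ind ((S ∩ lset c') ∩ sset x = ∅))) Set.univ F ≤
      run (fun S => ind (S.Nonempty ∧ ε ≤ KK S / (2 * Fintype.card V))) (lset c) F *
        run (fun S => ind (S.Nonempty ∧ ε ≤ KK S / (2 * Fintype.card V))) (lset c') F
      + 2 * ε * avg (fun x : Cl 2 V => ind (Good (x.1 0) (x.1 1) c c' F) *
          (DD (lset c ∩ litset (x.1 0) (x.2 0)) Set.univ F *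
            DD (lset c' ∩ litset (x.1 1) (x.2 1)) Set.univ F))
      + ((F.length : ℝ) + 1) ^ 2 *
        ((1 + 4 * (c.length + c'.length) + (k : ℝ) ^ 2 * F.length / Fintype.card V) ^ 2
          / (4 * (Fintype.card V : ℝ) ^ 2)) := by
  set Cst : ℝ := (1 + 4 * (c.length + c'.length) + (k : ℝ) ^ 2 * F.length / Fintype.card V) ^ 2
          / (4 * (Fintype.card V : ℝ) ^ 2) with hCst
  have hCst0 : 0 ≤ Cst := by positivity
  -- the pointwise inequality
  have key : ∀ S1 S2 : Set (V → Bool),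
      (ind (S1 ∩ lset c).Nonempty *
          avg (fun x : Cl 2 V => ind ((S1 ∩ lset c) ∩ sset x = ∅))) *
      (ind (S2 ∩ lset c').Nonempty *
          avg (fun x : Cl 2 V => ind ((S2 ∩ lset c') ∩ sset x = ∅))) ≤
      ind ((lset c ∩ S1).Nonempty ∧ ε ≤ KK (lset c ∩ S1) / (2 * Fintype.card V)) *
        ind ((lset c' ∩ S2).Nonempty ∧ ε ≤ KK (lset c' ∩ S2) / (2 * Fintype.card V))
      + 2 * ε * avg (fun x : Cl 2 V => ind (Good (x.1 0) (x.1 1) c c' F) *
          (ind (S1.Nonempty ∧ S1 ∩ (lset c ∩ litset (x.1 0) (x.2 0)) = ∅) *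
            ind (S2.Nonempty ∧ S2 ∩ (lset c' ∩ litset (x.1 1) (x.2 1)) = ∅)))
      + Cst := by
    intro S1 S2
    rw [Set.inter_comm (lset c) S1, Set.inter_comm (lset c') S2]
    have hR2 : 0 ≤ 2 * ε * avg (fun x : Cl 2 V => ind (Good (x.1 0) (x.1 1) c c' F) *
          (ind (S1.Nonempty ∧ S1 ∩ (lset c ∩ litset (x.1 0) (x.2 0)) = ∅) *
            ind (S2.Nonempty ∧ S2 ∩ (lset c' ∩ litset (x.1 1) (x.2 1)) = ∅))) := by
      refine mul_nonneg (by positivity) (avg_nonneg fun x => ?_)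
      exact mul_nonneg (ind_nonneg _) (mul_nonneg (ind_nonneg _) (ind_nonneg _))
    by_cases h1 : (S1 ∩ lset c).Nonempty
    · by_cases h2 : (S2 ∩ lset c').Nonempty
      · have h3 := avg_kill_le h1
        have h4 := avg_kill_le h2
        have h5 := pair_ineq hn h1 h2 c c' F hε
        rw [← hCst] at h5
        rw [ind_true h1, ind_true h2, one_mul, one_mul]
        have h6 : avg (fun x : Cl 2 V => ind ((S1 ∩ lset c) ∩ sset x = ∅)) *
            avg (fun x : Cl 2 V => ind ((S2 ∩ lset c') ∩ sset x = ∅)) ≤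
            (KK (S1 ∩ lset c) / (2 * Fintype.card V)) ^ 2 *
              (KK (S2 ∩ lset c') / (2 * Fintype.card V)) ^ 2 :=
          mul_le_mul h3 h4 (avg_nonneg fun _ => ind_nonneg _) (by positivity)
        refine (h6.trans h5).trans ?_
        have h7 : ind (ε ≤ KK (S1 ∩ lset c) / (2 * Fintype.card V)) =
            ind ((S1 ∩ lset c).Nonempty ∧ ε ≤ KK (S1 ∩ lset c) / (2 * Fintype.card V)) := by
          simp only [h1, true_and]
        have h8 : ind (ε ≤ KK (S2 ∩ lset c') / (2 * Fintype.card V)) =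
            ind ((S2 ∩ lset c').Nonempty ∧ ε ≤ KK (S2 ∩ lset c') / (2 * Fintype.card V)) := by
          simp only [h2, true_and]
        rw [h7, h8]
        have h9 : avg (fun x : Cl 2 V => ind (Good (x.1 0) (x.1 1) c c' F ∧
            Kills (S1 ∩ lset c) (x.1 0, x.2 0) ∧ Kills (S2 ∩ lset c') (x.1 1, x.2 1))) ≤
            avg (fun x : Cl 2 V => ind (Good (x.1 0) (x.1 1) c c' F) *
          (ind (S1.Nonempty ∧ S1 ∩ (lset c ∩ litset (x.1 0) (x.2 0)) = ∅) *
            ind (S2.Nonempty ∧ S2 ∩ (lset c' ∩ litset (x.1 1) (x.2 1)) = ∅))) := by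
          refine avg_mono fun x => ?_
          rw [← ind_and, ← ind_and]
          refine ind_mono ?_
          rintro ⟨hg, hk1, hk2⟩
          refine ⟨hg, ⟨h1.mono Set.inter_subset_left, ?_⟩,
            ⟨h2.mono Set.inter_subset_left, ?_⟩⟩
          · rw [← Set.inter_assoc]; exact hk1
          · rw [← Set.inter_assoc]; exact hk2
        have h10 := mul_le_mul_of_nonneg_left h9 (show 0 ≤ 2 * ε by positivity)
        linarith
      · rw [ind_false h2, zero_mul, mul_zero]
        have : 0 ≤ ind ((S1 ∩ lset c).Nonempty ∧ ε ≤ KK (S1 ∩ lset c) / (2 * Fintype.card V)) *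
          ind ((S2 ∩ lset c').Nonempty ∧ ε ≤ KK (S2 ∩ lset c') / (2 * Fintype.card V)) :=
          mul_nonneg (ind_nonneg _) (ind_nonneg _)
        linarith
    · rw [ind_false h1, zero_mul, zero_mul]
      have : 0 ≤ ind ((S1 ∩ lset c).Nonempty ∧ ε ≤ KK (S1 ∩ lset c) / (2 * Fintype.card V)) *
          ind ((S2 ∩ lset c').Nonempty ∧ ε ≤ KK (S2 ∩ lset c') / (2 * Fintype.card V)) :=
          mul_nonneg (ind_nonneg _) (ind_nonneg _)
      linarith
  unfold DD
  simp only [t10_run_eq_sum, Set.univ_inter]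
  set R := Finset.range (F.length + 1) with hR
  have hsum : ∀ (f g : ℕ → ℝ), (∑ m ∈ R, f m) * (∑ m ∈ R, g m) =
      ∑ m ∈ R, ∑ m' ∈ R, f m * g m' := fun f g => Finset.sum_mul_sum _ _ _ _
  have hconst : ((F.length : ℝ) + 1) ^ 2 * Cst = ∑ m ∈ R, ∑ m' ∈ R, Cst := by
    rw [Finset.sum_const, Finset.sum_const, hR, Finset.card_range, nsmul_eq_mul, nsmul_eq_mul]
    push_cast; ring
  rw [hconst, hsum, hsum]
  have havg : 2 * ε * avg (fun x : Cl 2 V => ind (Good (x.1 0) (x.1 1) c c' F) *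
          ((∑ m ∈ R, ind ((lset (F.take m)).Nonempty ∧
              lset (F.take m) ∩ (lset c ∩ litset (x.1 0) (x.2 0)) = ∅)) *
            (∑ m ∈ R, ind ((lset (F.take m)).Nonempty ∧
              lset (F.take m) ∩ (lset c' ∩ litset (x.1 1) (x.2 1)) = ∅)))) =
      ∑ m ∈ R, ∑ m' ∈ R, 2 * ε * avg (fun x : Cl 2 V => ind (Good (x.1 0) (x.1 1) c c' F) *
          (ind ((lset (F.take m)).Nonempty ∧
              lset (F.take m) ∩ (lset c ∩ litset (x.1 0) (x.2 0)) = ∅) *
            ind ((lset (F.take m')).Nonempty ∧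
              lset (F.take m') ∩ (lset c' ∩ litset (x.1 1) (x.2 1)) = ∅))) := by
    simp only [← Finset.mul_sum]
    congr 1
    simp only [hsum, Finset.mul_sum, avg_finset_sum]
  rw [havg, ← Finset.sum_add_distrib, ← Finset.sum_add_distrib]
  refine Finset.sum_le_sum fun m _ => ?_
  rw [← Finset.sum_add_distrib, ← Finset.sum_add_distrib]
  exact Finset.sum_le_sum fun m' _ => key _ _

theorem t10_sum_pow (a b : ℕ) :
    ∑ i ∈ Finset.range a, ∑ j ∈ Finset.range b, (2 : ℝ) ^ (i + j) ≤ 2 ^ (a + b) := by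
  have h1 : ∀ a : ℕ, ∑ i ∈ Finset.range a, (2 : ℝ) ^ i = 2 ^ a - 1 := by
    intro a
    rw [geom_sum_eq (by norm_num)]; norm_num
  have h2 : ∑ i ∈ Finset.range a, ∑ j ∈ Finset.range b, (2 : ℝ) ^ (i + j) =
      (2 ^ a - 1) * (2 ^ b - 1) := by
    simp only [pow_add]
    rw [← Finset.sum_mul_sum, h1, h1]
  rw [h2, pow_add]
  have h3 : (1 : ℝ) ≤ 2 ^ a := one_le_pow₀ (by norm_num)
  have h4 : (1 : ℝ) ≤ 2 ^ b := one_le_pow₀ (by norm_num)
  nlinarith

theorem t10_sq_le (m : ℕ) : ((1 : ℝ) + m) ^ 2 ≤ 3 * 2 ^ m := by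
  induction m with
  | zero => norm_num
  | succ m ih =>
    rcases Nat.lt_or_ge m 3 with h | h
    · interval_cases m <;> norm_num
    · have h3 : (3 : ℝ) ≤ m := by exact_mod_cast h
      push_cast
      have h4 : (2 : ℝ) ^ (m + 1) = 2 * 2 ^ m := by ring
      rw [h4]
      nlinarith

/-- RS-T10c. The step lemma. Proof: `LL k V t a b = avgL t (F ↦ A_a(F) A_b(F))` (c, c' are
independent given F) with `A_a(F) = ∑_{i<a} …` (RS-T10a); for every `i < a, j < b` the product is
bounded by RS-T10b; the first term by `geom_dom` (`κ = (ε/2)^k`, `avg_kill_ge`, `xy ≤ (x²+y²)/2`),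
the second by `cav_two` (`16kt/(n-1) ≤ 32 k t/n ≤ 32 k lam`), the third is `≤ lam²(1+4(a+b)+k²lam)²/4`;
finally `∑_{i<a,j<b} 2^(i+j) ≤ 2^(a+b)` and `a b (1+4(a+b)+k²lam)² ≤ K 2^(a+b)`. -/
theorem step_lemma {k : ℕ} (hk : 3 ≤ k) {ε lam : ℝ} (hε : 0 < ε) (hε1 : ε ≤ 1)
    (hlam : 0 < lam) :
    ∃ K1 : ℝ, 0 ≤ K1 ∧ ∀ (n M : ℕ) (Λ : ℝ), 0 ≤ Λ → k + 2 ≤ n → (k : ℝ) ≤ ε * n →
      (M + 1 : ℝ) ≤ lam * n → PP k M (n - 2) Λ →
      PP k M n (K1 + 2 * ε * Real.exp (32 * k * lam) * Λ) := by
  refine ⟨2 / ((ε / 2) ^ k) ^ 2 + lam ^ 2 * (5 + (k : ℝ) ^ 2 * lam) ^ 2 * 3 / 4, by positivity, ?_⟩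
  intro n M Λ hΛ hkn hkε hM hPP V _ hV t ht a b
  subst hV
  set n : ℝ := (Fintype.card V : ℝ) with hn
  have hn5 : (5 : ℝ) ≤ n := by
    rw [hn]
    have : 5 ≤ Fintype.card V := by omega
    exact_mod_cast this
  have hn0 : 0 < n := by linarith
  have htM : (t : ℝ) ≤ M := by exact_mod_cast ht
  have htl : (t : ℝ) + 1 ≤ lam * n := by linarith
  have hne : Nonempty (Cl 2 V) := by
    have h1 : Nonempty (Fin 2 ↪ V) := by
      rw [Function.Embedding.nonempty_iff_card_le, Fintype.card_fin]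
      omega
    obtain ⟨f⟩ := h1
    exact ⟨(f, fun _ => true)⟩
  set κ : ℝ := (ε / 2) ^ k with hκ
  have hκ0 : 0 < κ := by positivity
  have hκ1 : κ ≤ 1 := pow_le_one₀ (by positivity) (by linarith)
  set K1 : ℝ := 2 / κ ^ 2 + lam ^ 2 * (5 + (k : ℝ) ^ 2 * lam) ^ 2 * 3 / 4 with hK1
  -- the runs
  set R : List (Cl 2 V) → List (Cl k V) → ℝ := fun c F =>
    run (fun S => ind (S ∩ lset c).Nonempty *
      avg (fun x : Cl 2 V => ind ((S ∩ lset c) ∩ sset x = ∅))) Set.univ F with hR
  have hLL : LL k V t a b = ∑ i ∈ Finset.range a, ∑ j ∈ Finset.range b,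
      avgL i (fun c => avgL j (fun c' => avgL t (fun F => R c F * R c' F))) := by
    unfold LL
    have e1 : avgL a (fun c : List (Cl 2 V) => avgL b (fun c' : List (Cl 2 V) =>
        avgL t (fun F : List (Cl k V) => DD (lset c) Set.univ F * DD (lset c') Set.univ F))) =
        avgL t (fun F : List (Cl k V) =>
          avgL a (fun c : List (Cl 2 V) => DD (lset c) Set.univ F) *
          avgL b (fun c : List (Cl 2 V) => DD (lset c) Set.univ F)) := by
      have e2 : ∀ c : List (Cl 2 V), avgL b (fun c' : List (Cl 2 V) =>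
          avgL t (fun F : List (Cl k V) => DD (lset c) Set.univ F * DD (lset c') Set.univ F)) =
          avgL t (fun F : List (Cl k V) => DD (lset c) Set.univ F *
            avgL b (fun c' : List (Cl 2 V) => DD (lset c') Set.univ F)) := by
        intro c
        rw [avgL_comm]
        congr 1; funext F
        rw [avgL_mul_left]
      simp only [e2]
      rw [avgL_comm]
      congr 1; funext F
      rw [avgL_mul_right]
    rw [e1]
    simp only [avgL_DD_eq_sum]
    have e3 : ∀ F : List (Cl k V), (∑ i ∈ Finset.range a, avgL i (fun c : List (Cl 2 V) => R c F)) *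
        (∑ j ∈ Finset.range b, avgL j (fun c : List (Cl 2 V) => R c F)) =
        ∑ i ∈ Finset.range a, ∑ j ∈ Finset.range b,
          avgL i (fun c => avgL j (fun c' => R c F * R c' F)) := by
      intro F
      rw [Finset.sum_mul_sum]
      refine Finset.sum_congr rfl fun i _ => Finset.sum_congr rfl fun j _ => ?_
      rw [← avgL_mul_right]
      congr 1; funext c
      rw [← avgL_mul_left]
    rw [show (fun F : List (Cl k V) => (∑ i ∈ Finset.range a, avgL i (fun c : List (Cl 2 V) =>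
        run (fun S => ind (S ∩ lset c).Nonempty *
          avg (fun x : Cl 2 V => ind ((S ∩ lset c) ∩ sset x = ∅))) Set.univ F)) *
        (∑ i ∈ Finset.range b, avgL i (fun c : List (Cl 2 V) =>
        run (fun S => ind (S ∩ lset c).Nonempty *
          avg (fun x : Cl 2 V => ind ((S ∩ lset c) ∩ sset x = ∅))) Set.univ F))) =
        fun F => ∑ i ∈ Finset.range a, ∑ j ∈ Finset.range b,
          avgL i (fun c => avgL j (fun c' => R c F * R c' F)) from funext e3]
    rw [avgL_finset_sum]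
    refine Finset.sum_congr rfl fun i _ => ?_
    rw [avgL_finset_sum]
    refine Finset.sum_congr rfl fun j _ => ?_
    rw [avgL_comm]
    congr 1; funext c
    rw [avgL_comm]
  rw [hLL]
  have hterm : ∀ i j : ℕ, avgL i (fun c => avgL j (fun c' => avgL t (fun F => R c F * R c' F))) ≤
      (K1 + 2 * ε * Real.exp (32 * k * lam) * Λ) * 2 ^ (i + j) := by
    intro i j
    set N : List (Cl 2 V) → List (Cl k V) → ℝ := fun c F =>
      run (fun S => ind (S.Nonempty ∧ ε ≤ KK S / (2 * Fintype.card V))) (lset c) F with hN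
    set T2 : List (Cl 2 V) → List (Cl 2 V) → List (Cl k V) → ℝ := fun c c' F =>
      avg (fun x : Cl 2 V => ind (Good (x.1 0) (x.1 1) c c' F) *
          (DD (lset c ∩ litset (x.1 0) (x.2 0)) Set.univ F *
            DD (lset c' ∩ litset (x.1 1) (x.2 1)) Set.univ F)) with hT2
    set T3 : ℝ := lam ^ 2 * ((5 + (k : ℝ) ^ 2 * lam) ^ 2 * (1 + ((i + j : ℕ) : ℝ)) ^ 2) / 4
      with hT3
    -- step 1: pointwise
    have h1 : avgL i (fun c => avgL j (fun c' => avgL t (fun F => R c F * R c' F))) ≤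
        avgL i (fun c => avgL j (fun c' => avgL t (fun F =>
          ((1 / 2 : ℝ) * (N c F) ^ 2 + (1 / 2 : ℝ) * (N c' F) ^ 2) +
          2 * ε * T2 c c' F + T3))) := by
      refine avgL_mono' fun c hc => avgL_mono' fun c' hc' => avgL_mono' fun F hF => ?_
      have h2 := run_mul_run_le (by omega : 2 ≤ Fintype.card V) c c' F hε
      refine h2.trans ?_
      have h3 : N c F * N c' F ≤ (1 / 2 : ℝ) * (N c F) ^ 2 + (1 / 2 : ℝ) * (N c' F) ^ 2 := by
        nlinarith [sq_nonneg (N c F - N c' F)]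
      have h4 : ((F.length : ℝ) + 1) ^ 2 *
          ((1 + 4 * (c.length + c'.length) + (k : ℝ) ^ 2 * F.length / Fintype.card V) ^ 2
          / (4 * (Fintype.card V : ℝ) ^ 2)) ≤ T3 := by
        rw [hF, hc, hc', ← hn, hT3]
        have h5 : ((t : ℝ) + 1) ^ 2 ≤ (lam * n) ^ 2 :=
          pow_le_pow_left₀ (by positivity) htl 2
        have h6 : (k : ℝ) ^ 2 * t / n ≤ (k : ℝ) ^ 2 * lam := by
          rw [div_le_iff₀ hn0, mul_assoc]
          exact mul_le_mul_of_nonneg_left (by linarith) (by positivity)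
        have h7 : 1 + 4 * ((i : ℝ) + j) + (k : ℝ) ^ 2 * t / n ≤
            (5 + (k : ℝ) ^ 2 * lam) * (1 + ((i + j : ℕ) : ℝ)) := by
          push_cast
          have h8 : 0 ≤ (k : ℝ) ^ 2 * lam * ((i : ℝ) + j) := by positivity
          have h9 : (0 : ℝ) ≤ (i : ℝ) + j := by positivity
          nlinarith
        have h8 : (1 + 4 * ((i : ℝ) + j) + (k : ℝ) ^ 2 * t / n) ^ 2 ≤
            ((5 + (k : ℝ) ^ 2 * lam) * (1 + ((i + j : ℕ) : ℝ))) ^ 2 :=
          pow_le_pow_left₀ (by positivity) h7 2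
        calc ((t : ℝ) + 1) ^ 2 * ((1 + 4 * ((i : ℝ) + j) + (k : ℝ) ^ 2 * t / n) ^ 2 /
              (4 * n ^ 2)) ≤ (lam * n) ^ 2 *
              (((5 + (k : ℝ) ^ 2 * lam) * (1 + ((i + j : ℕ) : ℝ))) ^ 2 / (4 * n ^ 2)) :=
              mul_le_mul h5 (div_le_div_of_nonneg_right h8 (by positivity))
                (by positivity) (by positivity)
          _ = lam ^ 2 * ((5 + (k : ℝ) ^ 2 * lam) ^ 2 * (1 + ((i + j : ℕ) : ℝ)) ^ 2) / 4 := by
              field_simp
      have h5 : N c F * N c' F + 2 * ε * T2 c c' F + ((F.length : ℝ) + 1) ^ 2 *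
          ((1 + 4 * (c.length + c'.length) + (k : ℝ) ^ 2 * F.length / Fintype.card V) ^ 2
          / (4 * (Fintype.card V : ℝ) ^ 2)) ≤
          ((1 / 2 : ℝ) * (N c F) ^ 2 + (1 / 2 : ℝ) * (N c' F) ^ 2) + 2 * ε * T2 c c' F + T3 := by
        linarith
      exact h5
    -- step 2: bounds of the three averages
    have hQ : ∀ S : Set (V → Bool), (S.Nonempty ∧ ε ≤ KK S / (2 * Fintype.card V)) →
        S.Nonempty ∧ κ ≤ avg (fun C : Cl k V => ind (S ∩ sset C = ∅)) := by
      rintro S ⟨hS1, hS2⟩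
      refine ⟨hS1, ?_⟩
      rw [← hn, le_div_iff₀ (by positivity)] at hS2
      have h3 := avg_kill_ge (k := k) hS1 (by linarith)
      refine le_trans ?_ h3
      rw [hκ]
      refine pow_le_pow_left₀ (by positivity) ?_ k
      rw [← hn, le_div_iff₀ (by positivity)]
      linarith
    have hN2 : ∀ c : List (Cl 2 V), avgL t (fun F => (N c F) ^ 2) ≤ 2 / κ ^ 2 :=
      fun c => geom_dom hκ0 hκ1 (fun S => S.Nonempty ∧ ε ≤ KK S / (2 * Fintype.card V)) hQ t
        (lset c)
    have hκ2 : 0 ≤ 2 / κ ^ 2 := by positivity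
    have b1 : avgL i (fun c => avgL j (fun c' : List (Cl 2 V) =>
        avgL t (fun F => (N c F) ^ 2))) ≤ 2 / κ ^ 2 :=
      avgL_le_const hκ2 fun c _ => avgL_le_const hκ2 fun c' _ => hN2 c
    have b2 : avgL i (fun c : List (Cl 2 V) => avgL j (fun c' : List (Cl 2 V) =>
        avgL t (fun F => (N c' F) ^ 2))) ≤ 2 / κ ^ 2 :=
      avgL_le_const hκ2 fun c _ => avgL_le_const hκ2 fun c' _ => hN2 c'
    have b3 : avgL i (fun c => avgL j (fun c' => avgL t (fun F => T2 c c' F))) ≤
        Λ * 2 ^ (i + j) * Real.exp (32 * k * lam) := by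
      have e1 : avgL i (fun c => avgL j (fun c' => avgL t (fun F => T2 c c' F))) =
          avg (fun x : Cl 2 V => avgL i (fun c => avgL j (fun c' => avgL t
            (fun F : List (Cl k V) => ind (Good (x.1 0) (x.1 1) c c' F) *
              (DD (lset c ∩ litset (x.1 0) (x.2 0)) Set.univ F *
                DD (lset c' ∩ litset (x.1 1) (x.2 1)) Set.univ F))))) := by
        rw [← avgL_avg_comm]
        congr 1; funext c
        rw [← avgL_avg_comm]
        congr 1; funext c'
        rw [← avgL_avg_comm]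
      rw [e1]
      refine avg_le_const (by positivity) fun x => ?_
      refine (cav_two hk hkn hΛ hPP (v := x.1 0) (v' := x.1 1)
        (fun h => by have := x.1.injective h; simp at this) (x.2 0) (x.2 1) i j t ht).trans ?_
      refine mul_le_mul_of_nonneg_left (Real.exp_le_exp.2 ?_) (by positivity)
      rw [← hn, div_le_iff₀ (by linarith)]
      have h3 : (t : ℝ) ≤ lam * n := by linarith
      have h4 : lam * n ≤ 2 * lam * (n - 1) := by nlinarith
      have h5 : (t : ℝ) ≤ 2 * lam * (n - 1) := h3.trans h4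
      have h6 : 0 ≤ (16 : ℝ) * k := by positivity
      nlinarith [mul_le_mul_of_nonneg_left h5 h6]
    have e2 : avgL i (fun c => avgL j (fun c' => avgL t (fun F =>
          ((1 / 2 : ℝ) * (N c F) ^ 2 + (1 / 2 : ℝ) * (N c' F) ^ 2) +
          2 * ε * T2 c c' F + T3))) ≤
        (1 / 2 : ℝ) * avgL i (fun c => avgL j (fun c' : List (Cl 2 V) =>
          avgL t (fun F => (N c F) ^ 2))) +
        (1 / 2 : ℝ) * avgL i (fun c : List (Cl 2 V) => avgL j (fun c' : List (Cl 2 V) =>
          avgL t (fun F => (N c' F) ^ 2))) +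
        2 * ε * avgL i (fun c => avgL j (fun c' => avgL t (fun F => T2 c c' F))) + T3 := by
      simp only [avgL_add, avgL_mul_left]
      have hT30 : 0 ≤ T3 := by positivity
      have h3 : avgL i (fun _ : List (Cl 2 V) => avgL j (fun _ : List (Cl 2 V) =>
          avgL t (fun _ : List (Cl k V) => T3))) ≤ T3 :=
        avgL_le_const hT30 fun _ _ => avgL_le_const hT30 fun _ _ =>
          avgL_le_const hT30 fun _ _ => le_rfl
      linarith
    have h2i : (1 : ℝ) ≤ 2 ^ (i + j) := one_le_pow₀ (by norm_num)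
    have h3 : T3 ≤ lam ^ 2 * (5 + (k : ℝ) ^ 2 * lam) ^ 2 * 3 / 4 * 2 ^ (i + j) := by
      have h4 := t10_sq_le (i + j)
      have h5 : T3 = (lam ^ 2 * (5 + (k : ℝ) ^ 2 * lam) ^ 2 / 4) *
          (1 + ((i + j : ℕ) : ℝ)) ^ 2 := by rw [hT3]; ring
      rw [h5]
      calc _ ≤ (lam ^ 2 * (5 + (k : ℝ) ^ 2 * lam) ^ 2 / 4) * (3 * 2 ^ (i + j)) :=
            mul_le_mul_of_nonneg_left h4 (by positivity)
        _ = _ := by ring
    calc _ ≤ _ := h1
      _ ≤ _ := e2
      _ ≤ (1 / 2 : ℝ) * (2 / κ ^ 2) + (1 / 2 : ℝ) * (2 / κ ^ 2) +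
          2 * ε * (Λ * 2 ^ (i + j) * Real.exp (32 * k * lam)) +
          lam ^ 2 * (5 + (k : ℝ) ^ 2 * lam) ^ 2 * 3 / 4 * 2 ^ (i + j) := by
          have h4 := mul_le_mul_of_nonneg_left b3 (show 0 ≤ 2 * ε by positivity)
          linarith
      _ ≤ (K1 + 2 * ε * Real.exp (32 * k * lam) * Λ) * 2 ^ (i + j) := by
          rw [hK1]
          have h4 := mul_le_mul_of_nonneg_left h2i hκ2
          nlinarith
  calc _ ≤ ∑ i ∈ Finset.range a, ∑ j ∈ Finset.range b,
        (K1 + 2 * ε * Real.exp (32 * k * lam) * Λ) * 2 ^ (i + j) :=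
        Finset.sum_le_sum fun i _ => Finset.sum_le_sum fun j _ => hterm i j
    _ = (K1 + 2 * ε * Real.exp (32 * k * lam) * Λ) *
        ∑ i ∈ Finset.range a, ∑ j ∈ Finset.range b, (2 : ℝ) ^ (i + j) := by
        rw [Finset.mul_sum]
        refine Finset.sum_congr rfl fun i _ => ?_
        rw [Finset.mul_sum]
    _ ≤ _ := mul_le_mul_of_nonneg_left (t10_sum_pow a b) (by positivity)

end

end Crest.Agent.RS
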