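import Mathlib
import Crest.Agent.RS_T10

set_option autoImplicit false

namespace Crest.Agent.RS

open Classical

noncomputable section

/-- RS-T11a. Trivial bound. -/
theorem PP_trivial (k M n : ℕ) : PP k M n (((M : ℝ) + 1) ^ 2) := by
  intro V _ _ t ht a b
  have htM : (t : ℝ) ≤ M := by exact_mod_cast ht
  have h1 : LL k V t a b ≤ ((M : ℝ) + 1) ^ 2 := by
    unfold LL
    refine avgL_le_const (by positivity) fun c _ => ?_
    refine avgL_le_const (by positivity) fun c' _ => ?_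
    refine avgL_le_const (by positivity) fun F hF => ?_
    have a1 := DD_le (lset c) Set.univ F
    have a2 := DD_le (lset c') Set.univ F
    have b2 := DD_nonneg (lset c') Set.univ F
    rw [hF] at a1 a2
    calc DD (lset c) Set.univ F * DD (lset c') Set.univ F
        ≤ ((M : ℝ) + 1) * ((M : ℝ) + 1) := by
          apply mul_le_mul (by linarith) (by linarith) b2 (by positivity)
      _ = ((M : ℝ) + 1) ^ 2 := by ring
  have h2 : (1 : ℝ) ≤ 2 ^ (a + b) := one_le_pow₀ (by norm_num)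
  calc LL k V t a b ≤ ((M : ℝ) + 1) ^ 2 := h1
    _ ≤ ((M : ℝ) + 1) ^ 2 * 2 ^ (a + b) := le_mul_of_one_le_right (by positivity) h2

private theorem t11_mono {k M n : ℕ} {Λ Λ' : ℝ} (h : PP k M n Λ) (hl : Λ ≤ Λ') :
    PP k M n Λ' := by
  intro V _ hV t ht a b
  exact (h V hV t ht a b).trans (mul_le_mul_of_nonneg_right hl (by positivity))

private theorem t11_growth (C : ℝ) (hC : 0 < C) :
    ∃ Q : ℕ, ∀ q ≥ Q, C ^ 2 * ((q : ℝ) + 1) ^ 2 ≤ 2 ^ (q + 1) / 4 := by
  have h := tendsto_pow_const_div_const_pow_of_one_lt 2 (r := (2 : ℝ)) (by norm_num)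
  have h2 := (h.comp (Filter.tendsto_add_atTop_nat 1))
  have h3 := h2.eventually (gt_mem_nhds (show (0 : ℝ) < 1 / (4 * C ^ 2) by positivity))
  obtain ⟨Q, hQ⟩ := Filter.eventually_atTop.1 h3
  refine ⟨Q, fun q hq => ?_⟩
  have h4 := hQ q hq
  simp only [Function.comp] at h4
  rw [div_lt_div_iff₀ (by positivity) (by positivity)] at h4
  push_cast at h4
  nlinarith [h4]

/-- RS-T11b. Iteration. -/
theorem PP_iterate {k : ℕ} (hk : 3 ≤ k) (lam0 : ℕ) :
    ∃ Λ : ℝ, 0 ≤ Λ ∧ ∃ N0 : ℕ, ∀ n ≥ N0, PP k (lam0 * n) (n - 2) Λ := by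
  set lam : ℝ := 2 * ((lam0 : ℝ) + 1) with hlam
  set ε : ℝ := Real.exp (-(32 * k * lam)) / 4 with hε
  have hlam0 : 0 < lam := by positivity
  have hε0 : 0 < ε := by positivity
  have hε1 : ε ≤ 1 := by
    have : Real.exp (-(32 * k * lam)) ≤ 1 := by
      apply Real.exp_le_one_iff.2
      have : (0 : ℝ) ≤ 32 * k * lam := by positivity
      linarith
    rw [hε]; linarith
  obtain ⟨K1, hK1, hstep⟩ := step_lemma hk hε0 hε1 hlam0
  obtain ⟨Q, hQ⟩ := t11_growth (4 * (lam0 : ℝ) + 1) (by positivity)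
  obtain ⟨N1, hN1⟩ := exists_nat_ge (2 * (k : ℝ) / ε)
  have hee : 2 * ε * Real.exp (32 * k * lam) = 1 / 2 := by
    rw [hε]
    have : Real.exp (-(32 * k * lam)) * Real.exp (32 * k * lam) = 1 := by
      rw [← Real.exp_add]; simp
    linear_combination (1 / 2) * this
  refine ⟨2 * K1 + 1, by linarith, max (max (2 * (k + 2)) N1) (4 * (Q + 1) + 8), ?_⟩
  intro n hn
  have hn1 : 2 * (k + 2) ≤ n := le_trans (le_trans (le_max_left _ _) (le_max_left _ _)) hn
  have hn2 : N1 ≤ n := le_trans (le_trans (le_max_right _ _) (le_max_left _ _)) hn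
  have hn3 : 4 * (Q + 1) + 8 ≤ n := le_trans (le_max_right _ _) hn
  have hn2R : 2 * (k : ℝ) / ε ≤ n := hN1.trans (by exact_mod_cast hn2)
  -- the iteration
  have main : ∀ s m : ℕ, n + 4 * s ≤ 2 * m →
      PP k (lam0 * n) m (2 * K1 + (((lam0 * n : ℕ) : ℝ) + 1) ^ 2 / 2 ^ s) := by
    intro s
    induction s with
    | zero =>
      intro m _
      refine t11_mono (PP_trivial k (lam0 * n) m) ?_
      simp; linarith
    | succ s ih =>
      intro m hm
      have h1 := ih (m - 2) (by omega)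
      have hm2 : (n : ℝ) ≤ 2 * m := by exact_mod_cast (by omega : n ≤ 2 * m)
      have h2 := hstep m (lam0 * n) (2 * K1 + (((lam0 * n : ℕ) : ℝ) + 1) ^ 2 / 2 ^ s)
        (by positivity) (by omega) ?_ ?_ h1
      · refine t11_mono h2 (le_of_eq ?_)
        rw [hee, pow_succ]; field_simp; ring
      · have : 2 * (k : ℝ) ≤ n * ε := (div_le_iff₀ hε0).1 hn2R
        nlinarith
      · push_cast
        have hn1R : (1 : ℝ) ≤ n := by exact_mod_cast (by omega : 1 ≤ n)
        rw [hlam]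
        nlinarith [(Nat.cast_nonneg lam0 : (0:ℝ) ≤ lam0)]
  have hfin := main (n / 4 - 1) (n - 2) (by omega)
  refine t11_mono hfin ?_
  set q := n / 4 with hq
  have hq1 : Q ≤ q := by omega
  have hq2 : 1 ≤ q := by omega
  have hgr := hQ q hq1
  have hpow : (2 : ℝ) ^ (q + 1) / 4 = 2 ^ (q - 1) := by
    obtain ⟨p, hp⟩ : ∃ p, q = p + 1 := ⟨q - 1, by omega⟩
    rw [hp]
    simp only [Nat.add_sub_cancel]
    rw [pow_add, pow_add]; norm_num
    ring
  rw [hpow] at hgr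
  have hnq : (n : ℝ) ≤ 4 * q + 3 := by exact_mod_cast (by omega : n ≤ 4 * q + 3)
  have hM : (((lam0 * n : ℕ) : ℝ) + 1) ≤ (4 * (lam0 : ℝ) + 1) * ((q : ℝ) + 1) := by
    push_cast
    have h0 : (0 : ℝ) ≤ lam0 := Nat.cast_nonneg _
    have h00 : (0 : ℝ) ≤ q := Nat.cast_nonneg _
    nlinarith [mul_le_mul_of_nonneg_left hnq h0]
  have hM2 : (((lam0 * n : ℕ) : ℝ) + 1) ^ 2 ≤ 2 ^ (q - 1) := by
    calc (((lam0 * n : ℕ) : ℝ) + 1) ^ 2 ≤ ((4 * (lam0 : ℝ) + 1) * ((q : ℝ) + 1)) ^ 2 := by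
          apply pow_le_pow_left₀ (by positivity) hM
      _ = (4 * (lam0 : ℝ) + 1) ^ 2 * ((q : ℝ) + 1) ^ 2 := by ring
      _ ≤ _ := hgr
  have : (((lam0 * n : ℕ) : ℝ) + 1) ^ 2 / 2 ^ (q - 1) ≤ 1 := by
    rw [div_le_one (by positivity)]; exact hM2
  linarith

end

end Crest.Agent.RS
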