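import Mathlib
import Crest.Agent.RS_T1

set_option autoImplicit false

namespace Crest.Agent.RS

open Classical

noncomputable section

section T12
variable {k : ℕ} {V : Type} [Fintype V]

/-- number of clauses of `F` containing `v` -/
def T12_d (v : V) (F : List (Cl k V)) : ℝ := (F.map fun G => ind (Has G v)).sum

/-- number of clauses of `F` containing `v` and `w` -/
def T12_A (v w : V) (F : List (Cl k V)) : ℝ := (F.map fun G => ind (Has G v) * ind (Has G w)).sum

omit [Fintype V] in
theorem T12_d_cons (v : V) (G : Cl k V) (F : List (Cl k V)) :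
    T12_d v (G :: F) = ind (Has G v) + T12_d v F := by
  simp [T12_d]

omit [Fintype V] in
theorem T12_A_cons (v w : V) (G : Cl k V) (F : List (Cl k V)) :
    T12_A v w (G :: F) = ind (Has G v) * ind (Has G w) + T12_A v w F := by
  simp [T12_A]

omit [Fintype V] in
theorem T12_A_nonneg (v w : V) (F : List (Cl k V)) : 0 ≤ T12_A v w F := by
  induction F with
  | nil => simp [T12_A]
  | cons G F ih =>
    rw [T12_A_cons]
    exact add_nonneg (mul_nonneg (ind_nonneg _) (ind_nonneg _)) ih

omit [Fintype V] in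
theorem T12_ind_le (v w : V) (F : List (Cl k V)) :
    ind (∃ G ∈ F, Has G v ∧ Has G w) ≤ T12_A v w F := by
  induction F with
  | nil => simp [ind, T12_A]
  | cons G F ih =>
    rw [T12_A_cons, ← ind_and]
    by_cases h : Has G v ∧ Has G w
    · rw [ind_true h]
      have := T12_A_nonneg v w F
      linarith [ind_le_one (∃ G' ∈ G :: F, Has G' v ∧ Has G' w)]
    · rw [ind_false h, zero_add]
      refine le_trans (ind_mono ?_) ih
      rintro ⟨G', hG', h'⟩
      rcases List.mem_cons.1 hG' with rfl | h1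
      · exact absurd h' h
      · exact ⟨G', h1, h'⟩

theorem T12_sum_has (G : Cl k V) : ∑ w, ind (Has G w) = k := by
  have h1 : (Finset.univ.filter (fun w => Has G w)) = Finset.univ.map G.1 := by
    ext w
    rw [Finset.mem_filter, Finset.mem_map]
    simp only [Finset.mem_univ, true_and]
    rfl
  have h2 : ∑ w, ind (Has G w) = ((Finset.univ.filter (fun w => Has G w)).card : ℝ) := by
    unfold ind
    rw [Finset.sum_boole]
  rw [h2, h1, Finset.card_map, Finset.card_univ, Fintype.card_fin]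

theorem T12_sum_A (v : V) (F : List (Cl k V)) : ∑ w, T12_A v w F = k * T12_d v F := by
  induction F with
  | nil => simp [T12_A, T12_d]
  | cons G F ih =>
    simp only [T12_A_cons, T12_d_cons]
    rw [Finset.sum_add_distrib, ih, ← Finset.mul_sum, T12_sum_has]
    ring

/-- averages of nonnegative functions of the first three variables -/
theorem T12_avg3 (hk : 3 ≤ k) (hn : k ≤ Fintype.card V) (φ : V → V → V → ℝ)
    (hφ : ∀ a b c, 0 ≤ φ a b c) :
    avg (fun C : Cl k V => φ (C.1 ⟨0, by omega⟩) (C.1 ⟨1, by omega⟩) (C.1 ⟨2, by omega⟩)) ≤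
      (∑ a, ∑ b, ∑ c, φ a b c) /
        ((Fintype.card V : ℝ) * ((Fintype.card V : ℝ) - 1) * ((Fintype.card V : ℝ) - 2)) := by
  have h0 := avg_restrict hn (Fin.castLEEmb hk) (fun c : Cl 3 V => φ (c.1 0) (c.1 1) (c.1 2))
  have h1 : avg (fun C : Cl k V => φ (C.1 ⟨0, by omega⟩) (C.1 ⟨1, by omega⟩) (C.1 ⟨2, by omega⟩)) =
      avg (fun c : Cl 3 V => φ (c.1 0) (c.1 1) (c.1 2)) := by
    rw [← h0]
    rfl
  rw [h1]
  have hcard : (Fintype.card (Fin 3 ↪ V) : ℝ) =
      (Fintype.card V : ℝ) * ((Fintype.card V : ℝ) - 1) * ((Fintype.card V : ℝ) - 2) := by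
    rw [Fintype.card_embedding_eq, Fintype.card_fin]
    have h3 : 3 ≤ Fintype.card V := hk.trans hn
    obtain ⟨n, hn'⟩ := Nat.exists_eq_add_of_le h3
    rw [hn']
    have : (3 + n).descFactorial 3 = (3 + n) * (3 + n - 1) * (3 + n - 2) := by
      simp [Nat.descFactorial]
      ring
    rw [this, show 3 + n - 1 = n + 2 by omega, show 3 + n - 2 = n + 1 by omega]
    push_cast
    ring
  have h2 : avg (fun c : Cl 3 V => φ (c.1 0) (c.1 1) (c.1 2)) =
      (∑ e : Fin 3 ↪ V, φ (e 0) (e 1) (e 2)) / (Fintype.card (Fin 3 ↪ V) : ℝ) := by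
    unfold avg
    rw [Fintype.sum_prod_type, Fintype.card_prod]
    simp only [Finset.sum_const, Finset.card_univ, nsmul_eq_mul]
    rw [← Finset.mul_sum]
    push_cast
    rw [mul_comm (Fintype.card (Fin 3 ↪ V) : ℝ), mul_div_mul_left]
    exact_mod_cast Fintype.card_ne_zero
  rw [h2, hcard]
  have hden : 0 ≤ (Fintype.card V : ℝ) * ((Fintype.card V : ℝ) - 1) * ((Fintype.card V : ℝ) - 2) := by
    rw [← hcard]
    exact Nat.cast_nonneg _
  refine div_le_div_of_nonneg_right ?_ hden
  set ι : (Fin 3 ↪ V) → V × V × V := fun e => (e 0, e 1, e 2) with hι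
  have hinj : Function.Injective ι := by
    intro e e' h
    simp only [hι, Prod.mk.injEq] at h
    ext i
    fin_cases i
    · exact h.1
    · exact h.2.1
    · exact h.2.2
  have h4 : ∑ e : Fin 3 ↪ V, φ (e 0) (e 1) (e 2) =
      ∑ x ∈ Finset.univ.image ι, φ x.1 x.2.1 x.2.2 := by
    rw [Finset.sum_image fun a _ b _ h => hinj h]
  have h5 : ∑ a, ∑ b, ∑ c, φ a b c = ∑ x : V × V × V, φ x.1 x.2.1 x.2.2 := by
    rw [Fintype.sum_prod_type]
    refine Finset.sum_congr rfl fun a _ => ?_
    rw [Fintype.sum_prod_type]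
  rw [h4, h5]
  exact Finset.sum_le_sum_of_subset_of_nonneg (Finset.subset_univ _) fun x _ _ => hφ _ _ _

theorem T12_avg1 (φ : V → ℝ) : avg (fun c : Cl 1 V => φ (c.1 0)) = avg φ := by
  unfold avg
  rw [Fintype.sum_prod_type, Fintype.card_prod]
  simp only [Finset.sum_const, Finset.card_univ, nsmul_eq_mul]
  rw [← Finset.mul_sum]
  have h1 : ∑ e : Fin 1 ↪ V, φ (e 0) = ∑ v, φ v :=
    Fintype.sum_equiv (Equiv.uniqueEmbeddingEquivResult) _ _ fun e => rfl
  have h2 : Fintype.card (Fin 1 ↪ V) = Fintype.card V :=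
    Fintype.card_congr Equiv.uniqueEmbeddingEquivResult
  rw [h1, h2]
  push_cast
  rw [mul_comm (Fintype.card V : ℝ), mul_div_mul_left]
  exact_mod_cast Fintype.card_ne_zero

theorem T12_p (hn : k ≤ Fintype.card V) (v : V) :
    avg (fun G : Cl k V => ind (Has G v)) = k / Fintype.card V := by
  have h1 : ∀ G : Cl k V, ind (Has G v) = ∑ i : Fin k, ind (G.1 i = v) := by
    intro G
    by_cases h : Has G v
    · obtain ⟨i, hi⟩ := h
      rw [ind_true ⟨i, hi⟩, Finset.sum_eq_single i]
      · rw [ind_true hi]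
      · intro j _ hj
        refine ind_false fun h' => hj ?_
        exact G.1.injective (h'.trans hi.symm)
      · simp
    · rw [ind_false h]
      symm
      refine Finset.sum_eq_zero fun i _ => ind_false fun h' => h ⟨i, h'⟩
  have h2 : avg (fun G : Cl k V => ind (Has G v)) =
      ∑ i : Fin k, avg (fun G : Cl k V => ind (G.1 i = v)) := by
    rw [← avg_finset_sum]
    congr 1
    funext G
    exact h1 G
  have h3 : ∀ i : Fin k, avg (fun G : Cl k V => ind (G.1 i = v)) = 1 / Fintype.card V := by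
    intro i
    have h4 := avg_restrict hn (⟨fun _ => i, fun a b _ => Subsingleton.elim a b⟩ : Fin 1 ↪ Fin k)
      (fun c : Cl 1 V => ind (c.1 0 = v))
    have h5 : avg (fun G : Cl k V => ind (G.1 i = v)) =
        avg (fun c : Cl 1 V => ind (c.1 0 = v)) := by
      rw [← h4]
      rfl
    rw [h5, T12_avg1 (fun w => ind (w = v))]
    unfold avg
    congr 1
    rw [Finset.sum_eq_single v]
    · exact ind_true rfl
    · intro b _ hb
      exact ind_false hb
    · simp
  rw [h2, Finset.sum_congr rfl fun i _ => h3 i]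
  simp [div_eq_mul_inv]

theorem T12_moments (hn : k ≤ Fintype.card V) (v : V) (M : ℕ) :
    avgL M (fun F : List (Cl k V) => T12_d v F) = M * (k / Fintype.card V) ∧
      avgL M (fun F : List (Cl k V) => T12_d v F ^ 2) ≤
        M * (k / Fintype.card V) + (M : ℝ) ^ 2 * (k / Fintype.card V) ^ 2 := by
  have hne : Nonempty (Cl k V) := by
    obtain ⟨f0⟩ : Nonempty (Fin k ↪ V) := Function.Embedding.nonempty_of_card_le (by simpa using hn)
    exact ⟨(f0, fun _ => true)⟩
  set p : ℝ := k / Fintype.card V with hp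
  have hpa : avg (fun G : Cl k V => ind (Has G v)) = p := T12_p hn v
  have hp0 : 0 ≤ p := by positivity
  induction M with
  | zero => simp [T12_d]
  | succ t ih =>
    obtain ⟨ih1, ih2⟩ := ih
    constructor
    · rw [avgL_succ]
      have h1 : ∀ F : List (Cl k V), avg (fun x => T12_d v (x :: F)) = p + T12_d v F := by
        intro F
        simp only [T12_d_cons]
        rw [avg_add, hpa, avg_const]
      simp only [h1]
      rw [avgL_add, ih1, avgL_const]
      push_cast
      ring
    · rw [avgL_succ]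
      have h1 : ∀ F : List (Cl k V), avg (fun x => T12_d v (x :: F) ^ 2) =
          p + ((2 * p) * T12_d v F + T12_d v F ^ 2) := by
        intro F
        have h2 : ∀ x : Cl k V, T12_d v (x :: F) ^ 2 =
            ind (Has x v) + (ind (Has x v) * (2 * T12_d v F) + T12_d v F ^ 2) := by
          intro x
          rw [T12_d_cons]
          have h3 : ind (Has x v) ^ 2 = ind (Has x v) := by
            unfold ind
            split_ifs <;> norm_num
          linear_combination h3
        simp only [h2]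
        rw [avg_add, avg_add, avg_mul_right, hpa, avg_const]
        ring
      simp only [h1]
      rw [avgL_add, avgL_add, avgL_mul_left, ih1, avgL_const]
      push_cast
      nlinarith

end T12

/-- RS-T12. For a random clause `C` the probability that `C_0, C_1` lie in a common clause of the
random formula `F` and `C_0, C_2` lie in a common clause of `F`: union bound over the two positions
`s, t` of the clauses in `F` (equal positions: `M k³/(n(n-1)(n-2))`; distinct positions:
`M² k² · k²/(n · n(n-1)(n-2))`, because `P(v ∈ G) = k/n`). -/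
theorem bad_triple {k : ℕ} (hk : 3 ≤ k) {V : Type} [Fintype V] (hn : k ≤ Fintype.card V)
    (M : ℕ) :
    avg (fun C : Cl k V => avgL M (fun F : List (Cl k V) =>
      ind ((∃ G ∈ F, Has G (C.1 ⟨0, by omega⟩) ∧ Has G (C.1 ⟨1, by omega⟩)) ∧
        (∃ G ∈ F, Has G (C.1 ⟨0, by omega⟩) ∧ Has G (C.1 ⟨2, by omega⟩))))) ≤
      ((M : ℝ) * k ^ 3 + (M : ℝ) ^ 2 * k ^ 4 / Fintype.card V) /
        ((Fintype.card V : ℝ) * ((Fintype.card V : ℝ) - 1) * ((Fintype.card V : ℝ) - 2)) := by
  set n : ℝ := (Fintype.card V : ℝ) with hn'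
  have hn3 : (3 : ℝ) ≤ n := by
    rw [hn']
    exact_mod_cast hk.trans hn
  set D : ℝ := n * (n - 1) * (n - 2) with hD
  have hD0 : 0 < D := by
    have h1 : 0 < n - 1 := by linarith
    have h2 : 0 < n - 2 := by linarith
    positivity
  rw [← avgL_avg_comm]
  have h1 : ∀ F : List (Cl k V), avg (fun C : Cl k V =>
      ind ((∃ G ∈ F, Has G (C.1 ⟨0, by omega⟩) ∧ Has G (C.1 ⟨1, by omega⟩)) ∧
        (∃ G ∈ F, Has G (C.1 ⟨0, by omega⟩) ∧ Has G (C.1 ⟨2, by omega⟩)))) ≤
      ∑ v : V, ((k : ℝ) ^ 2 / D) * T12_d v F ^ 2 := by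
    intro F
    have h2 := T12_avg3 hk hn (fun a b c => ind ((∃ G ∈ F, Has G a ∧ Has G b) ∧
      (∃ G ∈ F, Has G a ∧ Has G c))) (fun _ _ _ => ind_nonneg _)
    refine h2.trans ?_
    rw [← hn', ← hD, ← Finset.mul_sum, div_mul_eq_mul_div]
    refine div_le_div_of_nonneg_right ?_ hD0.le
    rw [Finset.mul_sum]
    refine Finset.sum_le_sum fun a _ => ?_
    have h3 : ∑ b, ∑ c, ind ((∃ G ∈ F, Has G a ∧ Has G b) ∧ (∃ G ∈ F, Has G a ∧ Has G c)) ≤
        ∑ b, ∑ c, T12_A a b F * T12_A a c F := by
      refine Finset.sum_le_sum fun b _ => Finset.sum_le_sum fun c _ => ?_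
      rw [ind_and]
      exact mul_le_mul (T12_ind_le a b F) (T12_ind_le a c F) (ind_nonneg _) (T12_A_nonneg a b F)
    refine h3.trans (le_of_eq ?_)
    have h4 : ∀ b, ∑ c, T12_A a b F * T12_A a c F = T12_A a b F * (k * T12_d a F) := by
      intro b
      rw [← Finset.mul_sum, T12_sum_A]
    simp only [h4]
    rw [← Finset.sum_mul, T12_sum_A]
    ring
  refine (avgL_mono h1).trans ?_
  rw [avgL_finset_sum]
  have h5 : ∀ v : V, avgL M (fun F : List (Cl k V) => ((k : ℝ) ^ 2 / D) * T12_d v F ^ 2) ≤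
      ((k : ℝ) ^ 2 / D) * (M * (k / n) + (M : ℝ) ^ 2 * (k / n) ^ 2) := by
    intro v
    rw [avgL_mul_left]
    exact mul_le_mul_of_nonneg_left (T12_moments hn v M).2 (by positivity)
  refine (Finset.sum_le_sum fun v _ => h5 v).trans (le_of_eq ?_)
  rw [Finset.sum_const, Finset.card_univ, nsmul_eq_mul, ← hn']
  have hn0 : n ≠ 0 := by linarith
  have hD1 : D ≠ 0 := hD0.ne'
  field_simp

end

end Crest.Agent.RS
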