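import Mathlib
import Crest.Agent.RS_T11
import Crest.Agent.RS_T12

set_option autoImplicit false

namespace Crest.Agent.RS

open Classical

noncomputable section

private theorem t13_lit {k : ℕ} {V : Type} (C : Cl k V) (i : Fin k) (F : List (Cl k V)) :
    DD (sset C) Set.univ F ≤ DD (lset ([] : List (Cl 2 V)) ∩ litset (C.1 i) (C.2 i)) Set.univ F := by
  refine DD_anti ?_ _ _
  rintro σ ⟨-, h⟩
  exact ⟨i, h⟩

private theorem t13_pt {k : ℕ} (hk : 3 ≤ k) {V : Type} (C : Cl k V) (M : ℕ)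
    (F : List (Cl k V)) (hF : F.length = M) :
    (DD (sset C) Set.univ F) ^ 2 ≤
      ind (Good (C.1 ⟨0, by omega⟩) (C.1 ⟨1, by omega⟩) [] [] F) *
        (DD (lset ([] : List (Cl 2 V)) ∩ litset (C.1 ⟨0, by omega⟩) (C.2 ⟨0, by omega⟩)) Set.univ F *
        DD (lset ([] : List (Cl 2 V)) ∩ litset (C.1 ⟨1, by omega⟩) (C.2 ⟨1, by omega⟩)) Set.univ F) +
      ind (Good (C.1 ⟨0, by omega⟩) (C.1 ⟨2, by omega⟩) [] [] F) *
        (DD (lset ([] : List (Cl 2 V)) ∩ litset (C.1 ⟨0, by omega⟩) (C.2 ⟨0, by omega⟩)) Set.univ F *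
        DD (lset ([] : List (Cl 2 V)) ∩ litset (C.1 ⟨2, by omega⟩) (C.2 ⟨2, by omega⟩)) Set.univ F) +
      ((M : ℝ) + 1) ^ 2 *
        ind ((∃ G ∈ F, Has G (C.1 ⟨0, by omega⟩) ∧ Has G (C.1 ⟨1, by omega⟩)) ∧
        (∃ G ∈ F, Has G (C.1 ⟨0, by omega⟩) ∧ Has G (C.1 ⟨2, by omega⟩))) := by
  set D := DD (sset C) Set.univ F with hD
  have h0 := t13_lit C ⟨0, by omega⟩ F
  have h1 := t13_lit C ⟨1, by omega⟩ F
  have h2 := t13_lit C ⟨2, by omega⟩ F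
  set D0 := DD (lset ([] : List (Cl 2 V)) ∩ litset (C.1 ⟨0, by omega⟩) (C.2 ⟨0, by omega⟩)) Set.univ F
  set D1 := DD (lset ([] : List (Cl 2 V)) ∩ litset (C.1 ⟨1, by omega⟩) (C.2 ⟨1, by omega⟩)) Set.univ F
  set D2 := DD (lset ([] : List (Cl 2 V)) ∩ litset (C.1 ⟨2, by omega⟩) (C.2 ⟨2, by omega⟩)) Set.univ F
  have hDn : 0 ≤ D := DD_nonneg _ _ _
  have hDM : D ≤ (M : ℝ) + 1 := by
    have := DD_le (sset C) Set.univ F
    rw [hF] at this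
    exact this
  have p01 : D ^ 2 ≤ D0 * D1 := by
    rw [sq]; exact mul_le_mul h0 h1 hDn (hDn.trans h0)
  have p02 : D ^ 2 ≤ D0 * D2 := by
    rw [sq]; exact mul_le_mul h0 h2 hDn (hDn.trans h0)
  have n01 : 0 ≤ D0 * D1 := (sq_nonneg D).trans p01
  have n02 : 0 ≤ D0 * D2 := (sq_nonneg D).trans p02
  have i1 := ind_nonneg (Good (C.1 ⟨0, by omega⟩) (C.1 ⟨1, by omega⟩) [] [] F)
  have i2 := ind_nonneg (Good (C.1 ⟨0, by omega⟩) (C.1 ⟨2, by omega⟩) [] [] F)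
  have i3 := ind_nonneg ((∃ G ∈ F, Has G (C.1 ⟨0, by omega⟩) ∧ Has G (C.1 ⟨1, by omega⟩)) ∧
        (∃ G ∈ F, Has G (C.1 ⟨0, by omega⟩) ∧ Has G (C.1 ⟨2, by omega⟩)))
  have q1 := mul_nonneg i1 n01
  have q2 := mul_nonneg i2 n02
  have q3 : 0 ≤ ((M : ℝ) + 1) ^ 2 * ind ((∃ G ∈ F, Has G (C.1 ⟨0, by omega⟩) ∧
      Has G (C.1 ⟨1, by omega⟩)) ∧
        (∃ G ∈ F, Has G (C.1 ⟨0, by omega⟩) ∧ Has G (C.1 ⟨2, by omega⟩))) :=
    mul_nonneg (by positivity) i3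
  have hgood : ∀ v v' : V, (¬ ∃ G ∈ F, Has G v ∧ Has G v') → Good v v' [] [] F := by
    intro v v' h
    refine ⟨by simp, by simp, fun G hG hh => h ⟨G, hG, hh⟩⟩
  by_cases c1 : ∃ G ∈ F, Has G (C.1 ⟨0, by omega⟩) ∧ Has G (C.1 ⟨1, by omega⟩)
  · by_cases c2 : ∃ G ∈ F, Has G (C.1 ⟨0, by omega⟩) ∧ Has G (C.1 ⟨2, by omega⟩)
    · have e : ind ((∃ G ∈ F, Has G (C.1 ⟨0, by omega⟩) ∧ Has G (C.1 ⟨1, by omega⟩)) ∧
        (∃ G ∈ F, Has G (C.1 ⟨0, by omega⟩) ∧ Has G (C.1 ⟨2, by omega⟩))) = 1 :=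
        ind_true ⟨c1, c2⟩
      rw [e, mul_one]
      have : D ^ 2 ≤ ((M : ℝ) + 1) ^ 2 := pow_le_pow_left₀ hDn hDM 2
      linarith
    · have e := ind_true (hgood _ _ c2)
      rw [e, one_mul] at q2 ⊢
      linarith
  · have e := ind_true (hgood _ _ c1)
    rw [e, one_mul] at q1 ⊢
    linarith

/-- RS-T13. First step: `E D(C;F)² = O(1)` for a random clause `C` of length `k`. `D(C;F) ≤ D(l_i;F)`
for each literal of `C` (`DD_anti`), so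
`D(C)² ≤ 1[v0 ≁ v1] D(l0)D(l1) + 1[v0 ≁ v2] D(l0)D(l2) + (M+1)² 1[v0 ~ v1, v0 ~ v2]`
(`v ~ v'`: common clause of `F`); the pairs `(l0,l1)`, `(l0,l2)` are uniform in `Cl 2 V`
(`avg_restrict`), `cav_two` with `i = j = 0` (`Good v v' [] [] F`), `PP_iterate`, `bad_triple`. -/
theorem first_step {k : ℕ} (hk : 3 ≤ k) (lam0 : ℕ) :
    ∃ K0 : ℝ, 0 ≤ K0 ∧ ∃ N0 : ℕ, ∀ n ≥ N0, ∀ (V : Type) [Fintype V], Fintype.card V = n →
      avg (fun C : Cl k V => avgL (lam0 * n) (fun F : List (Cl k V) =>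
        (DD (sset C) Set.univ F) ^ 2)) ≤ K0 := by
  obtain ⟨Λ, hΛ, N0, hN0⟩ := PP_iterate hk lam0
  refine ⟨2 * (Λ * Real.exp (32 * k * lam0)) +
    4 * ((lam0 : ℝ) + 1) ^ 2 * (lam0 * k ^ 3 + lam0 ^ 2 * k ^ 4), by positivity,
    max N0 (k + 4), ?_⟩
  intro n hn V _ hV
  have hn0 : N0 ≤ n := le_trans (le_max_left _ _) hn
  have hnk : k + 4 ≤ n := le_trans (le_max_right _ _) hn
  have hnR : (4 : ℝ) ≤ n := by exact_mod_cast (by omega : 4 ≤ n)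
  set M := lam0 * n with hM
  have hcav : ∀ (v v' : V), v ≠ v' → ∀ b b' : Bool,
      avgL M (fun F : List (Cl k V) => ind (Good v v' [] [] F) *
        (DD (lset ([] : List (Cl 2 V)) ∩ litset v b) Set.univ F *
          DD (lset ([] : List (Cl 2 V)) ∩ litset v' b') Set.univ F)) ≤
        Λ * Real.exp (32 * k * lam0) := by
    intro v v' hv b b'
    have h := cav_two hk (V := V) (by rw [hV]; omega) hΛ (M := M) (by rw [hV]; exact hN0 n hn0)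
      hv b b' 0 0 M le_rfl
    simp only [avgL_zero, add_zero, pow_zero, mul_one] at h
    refine h.trans (mul_le_mul_of_nonneg_left (Real.exp_le_exp.mpr ?_) hΛ)
    rw [hV, div_le_iff₀ (by linarith)]
    rw [hM]
    push_cast
    have h0 : (0 : ℝ) ≤ k * lam0 := by positivity
    nlinarith
  have hbad := bad_triple hk (V := V) (by rw [hV]; omega) M
  rw [hV] at hbad
  have hpt : avg (fun C : Cl k V => avgL M (fun F : List (Cl k V) =>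
        (DD (sset C) Set.univ F) ^ 2)) ≤
      avg (fun C : Cl k V => avgL M (fun F : List (Cl k V) =>
        ind (Good (C.1 ⟨0, by omega⟩) (C.1 ⟨1, by omega⟩) [] [] F) *
        (DD (lset ([] : List (Cl 2 V)) ∩ litset (C.1 ⟨0, by omega⟩) (C.2 ⟨0, by omega⟩)) Set.univ F *
        DD (lset ([] : List (Cl 2 V)) ∩ litset (C.1 ⟨1, by omega⟩) (C.2 ⟨1, by omega⟩)) Set.univ F) +
      ind (Good (C.1 ⟨0, by omega⟩) (C.1 ⟨2, by omega⟩) [] [] F) *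
        (DD (lset ([] : List (Cl 2 V)) ∩ litset (C.1 ⟨0, by omega⟩) (C.2 ⟨0, by omega⟩)) Set.univ F *
        DD (lset ([] : List (Cl 2 V)) ∩ litset (C.1 ⟨2, by omega⟩) (C.2 ⟨2, by omega⟩)) Set.univ F) +
      ((M : ℝ) + 1) ^ 2 *
        ind ((∃ G ∈ F, Has G (C.1 ⟨0, by omega⟩) ∧ Has G (C.1 ⟨1, by omega⟩)) ∧
        (∃ G ∈ F, Has G (C.1 ⟨0, by omega⟩) ∧ Has G (C.1 ⟨2, by omega⟩))))) :=
    avg_mono fun C => avgL_mono' fun F hF => t13_pt hk C M F hF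
  refine hpt.trans ?_
  simp only [avgL_add, avg_add, avgL_mul_left, avg_mul_left]
  have hA : 0 ≤ Λ * Real.exp (32 * k * lam0) := by positivity
  have t1 : avg (fun C : Cl k V => avgL M (fun F : List (Cl k V) =>
        ind (Good (C.1 ⟨0, by omega⟩) (C.1 ⟨1, by omega⟩) [] [] F) *
        (DD (lset ([] : List (Cl 2 V)) ∩ litset (C.1 ⟨0, by omega⟩) (C.2 ⟨0, by omega⟩)) Set.univ F *
        DD (lset ([] : List (Cl 2 V)) ∩ litset (C.1 ⟨1, by omega⟩) (C.2 ⟨1, by omega⟩)) Set.univ F)))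
      ≤ Λ * Real.exp (32 * k * lam0) := by
    refine avg_le_const hA fun C => hcav _ _ ?_ _ _
    intro h
    have := C.1.injective h
    simp [Fin.ext_iff] at this
  have t2 : avg (fun C : Cl k V => avgL M (fun F : List (Cl k V) =>
        ind (Good (C.1 ⟨0, by omega⟩) (C.1 ⟨2, by omega⟩) [] [] F) *
        (DD (lset ([] : List (Cl 2 V)) ∩ litset (C.1 ⟨0, by omega⟩) (C.2 ⟨0, by omega⟩)) Set.univ F *
        DD (lset ([] : List (Cl 2 V)) ∩ litset (C.1 ⟨2, by omega⟩) (C.2 ⟨2, by omega⟩)) Set.univ F)))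
      ≤ Λ * Real.exp (32 * k * lam0) := by
    refine avg_le_const hA fun C => hcav _ _ ?_ _ _
    intro h
    have := C.1.injective h
    simp [Fin.ext_iff] at this
  have t3 : ((M : ℝ) + 1) ^ 2 * (((M : ℝ) * k ^ 3 + (M : ℝ) ^ 2 * k ^ 4 / n) /
        ((n : ℝ) * ((n : ℝ) - 1) * ((n : ℝ) - 2))) ≤
      4 * ((lam0 : ℝ) + 1) ^ 2 * (lam0 * k ^ 3 + lam0 ^ 2 * k ^ 4) := by
    have hMR : (M : ℝ) = lam0 * n := by rw [hM]; push_cast; ring
    have hM1 : (M : ℝ) + 1 ≤ ((lam0 : ℝ) + 1) * n := by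
      rw [hMR]; nlinarith
    have e1 : (M : ℝ) * k ^ 3 + (M : ℝ) ^ 2 * k ^ 4 / n =
        n * (lam0 * k ^ 3 + lam0 ^ 2 * k ^ 4) := by
      rw [hMR]; field_simp
    rw [e1]
    have e2 : (n : ℝ) * (lam0 * k ^ 3 + lam0 ^ 2 * k ^ 4) /
        ((n : ℝ) * ((n : ℝ) - 1) * ((n : ℝ) - 2)) =
        (lam0 * k ^ 3 + lam0 ^ 2 * k ^ 4) / (((n : ℝ) - 1) * ((n : ℝ) - 2)) := by
      rw [mul_assoc, mul_div_mul_left _ _ (by positivity)]
    rw [e2]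
    set Q : ℝ := lam0 * k ^ 3 + lam0 ^ 2 * k ^ 4 with hQ
    have hQ0 : 0 ≤ Q := by positivity
    have hden : (n : ℝ) ^ 2 / 4 ≤ ((n : ℝ) - 1) * ((n : ℝ) - 2) := by nlinarith
    have hpos : 0 < (n : ℝ) ^ 2 / 4 := by positivity
    calc ((M : ℝ) + 1) ^ 2 * (Q / (((n : ℝ) - 1) * ((n : ℝ) - 2)))
        ≤ (((lam0 : ℝ) + 1) * n) ^ 2 * (Q / ((n : ℝ) ^ 2 / 4)) := by
          refine mul_le_mul (pow_le_pow_left₀ (by positivity) hM1 2)
            (div_le_div_of_nonneg_left hQ0 hpos hden) ?_ (by positivity)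
          exact div_nonneg hQ0 (hpos.le.trans hden)
      _ = _ := by field_simp
  have t3' := mul_le_mul_of_nonneg_left hbad (show (0 : ℝ) ≤ ((M : ℝ) + 1) ^ 2 by positivity)
  have t3'' := t3'.trans t3
  linarith [t1, t2, t3'']

end

end Crest.Agent.RS
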