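import Mathlib
import Crest.Agent.RS_Defs

set_option autoImplicit false

namespace Crest.Agent.RS

open Classical

noncomputable section

/-- the difference of two runs -/
theorem T14_run_sub {k : ℕ} {V : Type} (T S : Set (V → Bool)) (F : List (Cl k V)) :
    run (fun S => ind S.Nonempty) S F - run (fun S => ind S.Nonempty) (S ∩ T) F = DD T S F := by
  have hne : ∀ S : Set (V → Bool), ind S.Nonempty - ind (S ∩ T).Nonempty =
      ind (S.Nonempty ∧ S ∩ T = ∅) := by
    intro S
    by_cases h1 : (S ∩ T).Nonempty
    · have h2 : S.Nonempty := h1.mono Set.inter_subset_left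
      have h3 : ¬ (S.Nonempty ∧ S ∩ T = ∅) := fun h => h1.ne_empty h.2
      rw [ind_true h1, ind_true h2, ind_false h3]
      ring
    · have h4 : S ∩ T = ∅ := Set.not_nonempty_iff_eq_empty.1 h1
      rw [ind_false h1]
      by_cases h2 : S.Nonempty
      · rw [ind_true h2, ind_true ⟨h2, h4⟩]
        ring
      · rw [ind_false h2, ind_false (fun h => h2 h.1)]
        ring
  induction F generalizing S with
  | nil => exact hne S
  | cons C F ih =>
    rw [run_cons, run_cons, DD_cons, ← ih, ← hne S]
    have e : S ∩ T ∩ sset C = S ∩ sset C ∩ T := by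
      rw [Set.inter_assoc, Set.inter_comm T, ← Set.inter_assoc]
    rw [e]
    ring

theorem T14_DD_append {k : ℕ} {V : Type} (T S : Set (V → Bool)) (F G : List (Cl k V)) :
    DD T S F ≤ DD T S (F ++ G) := by
  induction F generalizing S with
  | nil =>
    cases G with
    | nil => exact le_rfl
    | cons C G =>
      rw [List.nil_append, DD_nil, DD_cons]
      linarith [DD_nonneg T (S ∩ sset C) G]
  | cons C F ih =>
    rw [List.cons_append, DD_cons, DD_cons]
    linarith [ih (S ∩ sset C)]

theorem T14_var_le {α : Type} [Fintype α] [Nonempty α] (φ : α → ℝ) (a : ℝ) :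
    avg (fun x => φ x ^ 2) - (avg φ) ^ 2 ≤ avg (fun x => (a - φ x) ^ 2) := by
  have e : avg (fun x => (a - φ x) ^ 2) = a ^ 2 - 2 * a * avg φ + avg (fun x => φ x ^ 2) := by
    have h1 : (fun x => (a - φ x) ^ 2) = fun x => (a ^ 2 - 2 * a * φ x) + φ x ^ 2 := by
      funext x
      ring
    rw [h1, avg_add, avg_sub, avg_const, avg_mul_left]
  rw [e]
  nlinarith [sq_nonneg (a - avg φ)]

/-- RS-T14. Variance of the number of satisfiable prefixes (martingale bound). With
`h_M(S) = avgL M (run ne S)`, `Var_{M+1}(S) = avg_C Var_M(S∩C) + Var_C h_M(S∩C)`,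
`Var_C h_M(S∩C) ≤ avg_C (h_M(S) - h_M(S∩C))²` and `h_M(S) - h_M(S∩C) = avgL M (DD (sset C) S)`.
So `Var_{M+1}(S) ≤ avg_C Var_M(S∩C) + W_M(S)`, `W_M(S) = avg_C avgL M (DD (sset C) S F)²`, and
`avg_C W_M(S∩C) ≤ W_{M+1}(S)`, `W_M(S) ≤ W_{M+1}(S)`; by induction `Var_M(S) ≤ M W_M(S)`. -/
theorem var_bound {k : ℕ} {V : Type} [Fintype V] [Nonempty (Cl k V)] (M : ℕ)
    (S : Set (V → Bool)) :
    avgL M (fun F : List (Cl k V) => (run (fun S => ind S.Nonempty) S F) ^ 2)
      - (avgL M (fun F : List (Cl k V) => run (fun S => ind S.Nonempty) S F)) ^ 2 ≤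
      M * avg (fun C : Cl k V => avgL M (fun F : List (Cl k V) =>
        (DD (sset C) S F) ^ 2)) := by
  induction M generalizing S with
  | zero => simp
  | succ M ih =>
    set R : Set (V → Bool) → List (Cl k V) → ℝ := fun S F => run (fun S => ind S.Nonempty) S F
      with hR
    set h : Set (V → Bool) → ℝ := fun S => avgL M (fun F : List (Cl k V) => R S F) with hh
    set E2 : Set (V → Bool) → ℝ := fun S => avgL M (fun F : List (Cl k V) => (R S F) ^ 2) with hE2
    set W : ℕ → Set (V → Bool) → ℝ := fun M S => avg (fun C : Cl k V =>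
      avgL M (fun F : List (Cl k V) => (DD (sset C) S F) ^ 2)) with hW
    have ih' : ∀ S, E2 S - (h S) ^ 2 ≤ M * W M S := ih
    change avgL (M + 1) (fun F : List (Cl k V) => (R S F) ^ 2) -
      (avgL (M + 1) (fun F : List (Cl k V) => R S F)) ^ 2 ≤ ((M + 1 : ℕ) : ℝ) * W (M + 1) S
    set n : ℝ := ind S.Nonempty with hn
    have e1 : avgL (M + 1) (fun F : List (Cl k V) => R S F) =
        n + avg (fun C : Cl k V => h (S ∩ sset C)) := by
      rw [avgL_succ']
      have : (fun C : Cl k V => avgL M (fun F => R S (C :: F))) =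
          fun C => n + h (S ∩ sset C) := by
        funext C
        have h2 : (fun F => R S (C :: F)) = fun F => n + R (S ∩ sset C) F := by
          funext F
          exact run_cons _ _ _ _
        rw [h2, avgL_add, avgL_const]
      rw [this, avg_add, avg_const]
    have e2 : avgL (M + 1) (fun F : List (Cl k V) => (R S F) ^ 2) =
        n ^ 2 + 2 * n * avg (fun C : Cl k V => h (S ∩ sset C)) +
          avg (fun C : Cl k V => E2 (S ∩ sset C)) := by
      rw [avgL_succ']
      have : (fun C : Cl k V => avgL M (fun F => (R S (C :: F)) ^ 2)) =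
          fun C => (n ^ 2 + 2 * n * h (S ∩ sset C)) + E2 (S ∩ sset C) := by
        funext C
        have h2 : (fun F => (R S (C :: F)) ^ 2) = fun F => (n ^ 2 + 2 * n * R (S ∩ sset C) F) +
            (R (S ∩ sset C) F) ^ 2 := by
          funext F
          have : R S (C :: F) = n + R (S ∩ sset C) F := run_cons _ _ _ _
          rw [this]
          ring
        rw [h2, avgL_add, avgL_add, avgL_const, avgL_mul_left]
      rw [this, avg_add, avg_add, avg_const, avg_mul_left]
    have e3 : avgL (M + 1) (fun F : List (Cl k V) => (R S F) ^ 2) -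
        (avgL (M + 1) (fun F : List (Cl k V) => R S F)) ^ 2 =
        avg (fun C : Cl k V => E2 (S ∩ sset C) - (h (S ∩ sset C)) ^ 2) +
          (avg (fun C : Cl k V => (h (S ∩ sset C)) ^ 2) -
            (avg (fun C : Cl k V => h (S ∩ sset C))) ^ 2) := by
      rw [e1, e2, avg_sub]
      ring
    have h1 : avg (fun C : Cl k V => E2 (S ∩ sset C) - (h (S ∩ sset C)) ^ 2) ≤
        M * W (M + 1) S := by
      calc avg (fun C : Cl k V => E2 (S ∩ sset C) - (h (S ∩ sset C)) ^ 2)
          ≤ avg (fun C : Cl k V => M * W M (S ∩ sset C)) := avg_mono fun C => ih' _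
        _ = M * avg (fun C : Cl k V => W M (S ∩ sset C)) := avg_mul_left _ _
        _ ≤ M * W (M + 1) S := by
          refine mul_le_mul_of_nonneg_left ?_ (Nat.cast_nonneg _)
          simp only [hW]
          rw [avg_comm]
          refine avg_mono fun C' => ?_
          rw [avgL_succ']
          refine avg_mono fun C => ?_
          refine avgL_mono fun F => ?_
          rw [DD_cons]
          have a1 := DD_nonneg (sset C') (S ∩ sset C) F
          have a2 := ind_nonneg (S.Nonempty ∧ S ∩ sset C' = ∅)
          nlinarith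
    have h2 : avg (fun C : Cl k V => (h (S ∩ sset C)) ^ 2) -
            (avg (fun C : Cl k V => h (S ∩ sset C))) ^ 2 ≤ W (M + 1) S := by
      refine (T14_var_le _ (h S)).trans ?_
      simp only [hW]
      refine avg_mono fun C => ?_
      have e4 : h S - h (S ∩ sset C) = avgL M (fun F : List (Cl k V) => DD (sset C) S F) := by
        simp only [hh]
        rw [← avgL_sub]
        refine avgL_congr fun F _ => ?_
        exact T14_run_sub _ _ _
      rw [e4]
      refine (avgL_sq_le _ _).trans ?_
      rw [avgL_append M 1]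
      refine avgL_mono fun F => ?_
      rw [← avgL_const (α := Cl k V) 1 ((DD (sset C) S F) ^ 2)]
      refine avgL_mono fun G => ?_
      have a1 := DD_nonneg (sset C) S F
      have a2 := T14_DD_append (sset C) S F G
      nlinarith
    rw [e3]
    push_cast
    linarith

end

end Crest.Agent.RS
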