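import Mathlib
import Crest.Agent.RS_Defs

set_option autoImplicit false

namespace Crest.Agent.RS

open Classical

noncomputable section

theorem avgL_eq_sum_T15 {α : Type} [Fintype α] (m : ℕ) (Φ : List α → ℝ) :
    avgL m Φ = (∑ F : Fin m → α, Φ (List.ofFn F)) / (Fintype.card α : ℝ) ^ m := by
  induction m generalizing Φ with
  | zero => simp
  | succ m ih =>
    rw [avgL_succ']
    simp only [ih, avg]
    rw [← (Fin.consEquiv (fun _ => α)).sum_comp, Fintype.sum_prod_type, ← Finset.sum_div,
      div_div, pow_succ]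
    congr 1
    refine Finset.sum_congr rfl fun x _ => Finset.sum_congr rfl fun F _ => ?_
    rw [List.ofFn_succ]
    simp [Fin.consEquiv]

/-- RS-T15a. -/
theorem satProb_eq (k n m : ℕ) :
    Crest.ProbabilityR.RandomSAT.satProb k n m =
      avgL m (fun F : List (Cl k (Fin n)) => ind (lset F).Nonempty) := by
  rw [avgL_eq_sum_T15]
  unfold Crest.ProbabilityR.RandomSAT.satProb Crest.FinProb.uniformProb
  let e : Crest.ProbabilityR.RandomSAT.Clause k n ≃ Cl k (Fin n) :=
    Equiv.prodCongr (Equiv.subtypeInjectiveEquivEmbedding _ _) (Equiv.refl _)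
  let E : (Fin m → Crest.ProbabilityR.RandomSAT.Clause k n) ≃ (Fin m → Cl k (Fin n)) :=
    Equiv.arrowCongr (Equiv.refl _) e
  rw [Fintype.card_fun, Fintype.card_fin, Fintype.card_congr e, ← E.sum_comp]
  push_cast
  congr 1
  rw [Finset.card_filter]
  push_cast
  refine Finset.sum_congr rfl fun F _ => ?_
  have h : (F ∈ {F : Fin m → Crest.ProbabilityR.RandomSAT.Clause k n |
      Crest.ProbabilityR.RandomSAT.Satisfiable F}) ↔ (lset (List.ofFn (E F))).Nonempty := by
    constructor
    · rintro ⟨σ, hσ⟩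
      refine ⟨σ, ?_⟩
      intro x hx
      rw [List.mem_ofFn] at hx
      obtain ⟨j, rfl⟩ := hx
      obtain ⟨i, hi⟩ := hσ j
      exact ⟨i, hi⟩
    · rintro ⟨σ, hσ⟩
      refine ⟨σ, fun j => ?_⟩
      obtain ⟨i, hi⟩ := hσ (E F j) (by rw [List.mem_ofFn]; exact ⟨j, rfl⟩)
      exact ⟨i, hi⟩
  unfold ind
  by_cases hF : (lset (List.ofFn (E F))).Nonempty
  · rw [if_pos (h.mpr hF), if_pos hF]
  · rw [if_neg (fun h' => hF (h.mp h')), if_neg hF]

/-- `run` as a sum over prefixes. -/
theorem run_eq_sum_T15 {k : ℕ} {V : Type} (φ : Set (V → Bool) → ℝ) (S : Set (V → Bool))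
    (F : List (Cl k V)) :
    run φ S F = ∑ m ∈ Finset.range (F.length + 1), φ (S ∩ lset (F.take m)) := by
  induction F generalizing S with
  | nil => simp [run_nil, lset_nil]
  | cons C F ih =>
    rw [run_cons, ih, List.length_cons, Finset.sum_range_succ' _ (F.length + 1)]
    rw [List.take_zero, lset_nil, Set.inter_univ, add_comm]
    congr 1
    refine Finset.sum_congr rfl fun m _ => ?_
    rw [List.take_succ_cons, lset_cons, Set.inter_assoc]

theorem avgL_take_T15 {α : Type} [Fintype α] [Nonempty α] (m M : ℕ) (hm : m ≤ M)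
    (Φ : List α → ℝ) : avgL M (fun F => Φ (F.take m)) = avgL m Φ := by
  obtain ⟨s, rfl⟩ := Nat.exists_eq_add_of_le hm
  rw [avgL_append]
  refine avgL_congr fun F hF => ?_
  have : (fun G : List α => Φ ((F ++ G).take m)) = fun _ => Φ F := by
    funext G
    rw [List.take_append_of_le_length (by omega), List.take_of_length_le (by omega)]
  rw [this, avgL_const]

theorem nonempty_Cl_T15 (k n : ℕ) (hkn : k ≤ n) : Nonempty (Cl k (Fin n)) :=
  ⟨⟨Fin.castLEEmb hkn, fun _ => true⟩⟩

/-- RS-T15b. -/
theorem avgL_J (k n M : ℕ) (hkn : k ≤ n) :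
    avgL M (fun F : List (Cl k (Fin n)) => run (fun S => ind S.Nonempty) Set.univ F) =
      ∑ m ∈ Finset.range (M + 1), Crest.ProbabilityR.RandomSAT.satProb k n m := by
  haveI := nonempty_Cl_T15 k n hkn
  have h1 : avgL M (fun F : List (Cl k (Fin n)) => run (fun S => ind S.Nonempty) Set.univ F) =
      avgL M (fun F : List (Cl k (Fin n)) => ∑ m ∈ Finset.range (M + 1),
        ind (lset (F.take m)).Nonempty) := by
    refine avgL_congr fun F hF => ?_
    rw [run_eq_sum_T15, hF]
    simp only [Set.univ_inter]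
  rw [h1, avgL_finset_sum]
  refine Finset.sum_congr rfl fun m hm => ?_
  rw [satProb_eq]
  exact avgL_take_T15 m M (by have := Finset.mem_range.mp hm; omega)
    (fun F : List (Cl k (Fin n)) => ind (lset F).Nonempty)

/-- Square of a sum of a decreasing sequence of indicators. -/
theorem sq_sum_ind_T15 (p : ℕ → Prop) (hp : ∀ m, p (m + 1) → p m) (M : ℕ) :
    (∑ m ∈ Finset.range M, ind (p m)) ^ 2 =
      ∑ m ∈ Finset.range M, (2 * (m : ℝ) + 1) * ind (p m) := by
  induction M with
  | zero => simp
  | succ M ih =>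
    rw [Finset.sum_range_succ, Finset.sum_range_succ, ← ih]
    by_cases h : p M
    · have h2 : ∀ m ≤ M, p m := by
        intro m hm
        exact Nat.decreasingInduction' (P := p) (fun k _ _ hk => hp k hk) hm h
      have h3 : ∑ m ∈ Finset.range M, ind (p m) = (M : ℝ) := by
        rw [Finset.sum_congr rfl (g := fun _ => (1 : ℝ)) (fun m hm => ind_true (h2 m
          (Finset.mem_range.mp hm).le))]
        simp
      rw [h3, ind_true h]
      ring
    · rw [ind_false h]
      ring

/-- RS-T15c. `J = number of nonempty prefixes`, `J² = ∑_{m<J} (2m+1)`. -/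
theorem avgL_J_sq (k n M : ℕ) (hkn : k ≤ n) :
    avgL M (fun F : List (Cl k (Fin n)) => (run (fun S => ind S.Nonempty) Set.univ F) ^ 2) =
      ∑ m ∈ Finset.range (M + 1),
        (2 * (m : ℝ) + 1) * Crest.ProbabilityR.RandomSAT.satProb k n m := by
  haveI := nonempty_Cl_T15 k n hkn
  have h1 : avgL M (fun F : List (Cl k (Fin n)) =>
        (run (fun S => ind S.Nonempty) Set.univ F) ^ 2) =
      avgL M (fun F : List (Cl k (Fin n)) => ∑ m ∈ Finset.range (M + 1),
        (2 * (m : ℝ) + 1) * ind (lset (F.take m)).Nonempty) := by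
    refine avgL_congr fun F hF => ?_
    rw [run_eq_sum_T15, hF]
    simp only [Set.univ_inter]
    refine sq_sum_ind_T15 (fun m => (lset (F.take m)).Nonempty) ?_ (M + 1)
    rintro m ⟨σ, hσ⟩
    exact ⟨σ, fun x hx => hσ x (List.take_subset_take_left F (Nat.le_succ m) hx)⟩
  rw [h1, avgL_finset_sum]
  refine Finset.sum_congr rfl fun m hm => ?_
  rw [satProb_eq, avgL_mul_left]
  congr 1
  exact avgL_take_T15 m M (by have := Finset.mem_range.mp hm; omega)
    (fun F : List (Cl k (Fin n)) => ind (lset F).Nonempty)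

end

end Crest.Agent.RS
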