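import Mathlib
import Crest.Agent.RS_T15

set_option autoImplicit false

namespace Crest.Agent.RS

open Classical

noncomputable section

theorem rst16_not_sat {k n : ℕ} (σ : Fin n → Bool) (v : Fin k ↪ Fin n) (b : Fin k → Bool) :
    ¬ SatC σ ((v, b) : Cl k (Fin n)) ↔ b = fun i => !(σ (v i)) := by
  unfold SatC
  push Not
  constructor
  · intro h
    funext i
    have hi : σ (v i) ≠ b i := h i
    cases hb : b i <;> cases hs : σ (v i) <;> simp_all
  · intro h i
    rw [h]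
    show σ (v i) ≠ !(σ (v i))
    cases σ (v i) <;> simp

theorem rst16_sum_not {k n : ℕ} (σ : Fin n → Bool) :
    ∑ C : Cl k (Fin n), ind (¬ SatC σ C) = (Fintype.card (Fin k ↪ Fin n) : ℝ) := by
  have h1 : ∑ C : Cl k (Fin n), ind (¬ SatC σ C) =
      ∑ v : Fin k ↪ Fin n, ∑ b : Fin k → Bool, ind (¬ SatC σ ((v, b) : Cl k (Fin n))) :=
    Fintype.sum_prod_type _
  rw [h1]
  have h2 : ∀ v : Fin k ↪ Fin n,
      ∑ b : Fin k → Bool, ind (¬ SatC σ ((v, b) : Cl k (Fin n))) = 1 := by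
    intro v
    rw [Finset.sum_eq_single (fun i => !(σ (v i)))]
    · exact ind_true ((rst16_not_sat σ v _).2 rfl)
    · intro b _ hb
      exact ind_false fun h => hb ((rst16_not_sat σ v b).1 h)
    · intro h
      exact absurd (Finset.mem_univ _) h
  simp [h2]

theorem rst16_nonempty {k n : ℕ} (hkn : k ≤ n) : Nonempty (Cl k (Fin n)) :=
  ⟨((Fin.castLEEmb hkn), fun _ => true)⟩

theorem rst16_avg_sat {k n : ℕ} (hkn : k ≤ n) (σ : Fin n → Bool) :
    avg (fun C : Cl k (Fin n) => ind (SatC σ C)) = 1 - 1 / 2 ^ k := by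
  haveI := rst16_nonempty (k := k) (n := n) hkn
  have h1 : ∀ C : Cl k (Fin n), ind (SatC σ C) = 1 - ind (¬ SatC σ C) := by
    intro C
    by_cases h : SatC σ C
    · rw [ind_true h, ind_false (not_not.2 h)]; ring
    · rw [ind_false h, ind_true h]; ring
  simp only [h1]
  rw [avg_sub, avg_const]
  congr 1
  unfold avg
  rw [rst16_sum_not]
  have hc : Fintype.card (Cl k (Fin n)) = Fintype.card (Fin k ↪ Fin n) * 2 ^ k := by
    rw [Fintype.card_prod]
    simp
  have hpos : 0 < Fintype.card (Fin k ↪ Fin n) := by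
    haveI : Nonempty (Fin k ↪ Fin n) := ⟨Fin.castLEEmb hkn⟩
    exact Fintype.card_pos
  have hpos' : (0 : ℝ) < (Fintype.card (Fin k ↪ Fin n) : ℝ) := by exact_mod_cast hpos
  rw [hc]
  push_cast
  field_simp

theorem rst16_avgL_sat {k n : ℕ} (hkn : k ≤ n) (σ : Fin n → Bool) (m : ℕ) :
    avgL m (fun F : List (Cl k (Fin n)) => ind (σ ∈ lset F)) = (1 - 1 / 2 ^ k) ^ m := by
  induction m with
  | zero =>
    rw [avgL_zero, pow_zero, lset_nil]
    exact ind_true (Set.mem_univ _)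
  | succ m ih =>
    rw [avgL_succ]
    have h1 : ∀ F : List (Cl k (Fin n)),
        avg (fun x : Cl k (Fin n) => ind (σ ∈ lset (x :: F))) =
          (1 - 1 / 2 ^ k) * ind (σ ∈ lset F) := by
      intro F
      have h2 : ∀ x : Cl k (Fin n), ind (σ ∈ lset (x :: F)) =
          ind (SatC σ x) * ind (σ ∈ lset F) := by
        intro x
        rw [← ind_and, lset_cons]
        rfl
      simp only [h2]
      rw [avg_mul_right, rst16_avg_sat hkn]
    simp only [h1]
    rw [avgL_mul_left, ih, pow_succ']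

/-- RS-T16a. First moment bound over the `2^n` assignments. -/
theorem satProb_le (k n m : ℕ) (hkn : k ≤ n) :
    Crest.ProbabilityR.RandomSAT.satProb k n m ≤ 2 ^ n * (1 - 1 / 2 ^ k) ^ m := by
  rw [satProb_eq]
  have h1 : ∀ F : List (Cl k (Fin n)), ind (lset F).Nonempty ≤
      ∑ σ ∈ (Finset.univ : Finset (Fin n → Bool)), ind (σ ∈ lset F) := by
    intro F
    by_cases h : (lset F).Nonempty
    · obtain ⟨σ, hσ⟩ := h
      rw [ind_true ⟨σ, hσ⟩, ← ind_true hσ]
      exact Finset.single_le_sum (f := fun σ => ind (σ ∈ lset F))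
        (fun τ _ => ind_nonneg _) (Finset.mem_univ σ)
    · rw [ind_false h]
      exact Finset.sum_nonneg fun τ _ => ind_nonneg _
  refine (avgL_mono h1).trans ?_
  rw [avgL_finset_sum]
  simp only [rst16_avgL_sat hkn]
  simp

theorem satProb_nonneg (k n m : ℕ) : 0 ≤ Crest.ProbabilityR.RandomSAT.satProb k n m := by
  unfold Crest.ProbabilityR.RandomSAT.satProb Crest.FinProb.uniformProb
  exact div_nonneg (Nat.cast_nonneg _) (Nat.cast_nonneg _)

theorem rst16_q (k : ℕ) : (0 : ℝ) ≤ 1 - 1 / 2 ^ k ∧ (1 - 1 / 2 ^ k : ℝ) < 1 := by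
  have h : (1 : ℝ) ≤ 2 ^ k := one_le_pow₀ (by norm_num)
  constructor
  · have : (1 : ℝ) / 2 ^ k ≤ 1 := by
      rw [div_le_one (by positivity)]; exact h
    linarith
  · have : (0 : ℝ) < 1 / 2 ^ k := by positivity
    linarith

theorem rst16_summable (q : ℝ) (h0 : 0 ≤ q) (h1 : q < 1) (c : ℝ) :
    Summable (fun m : ℕ => (2 * (m : ℝ) + c) * q ^ m) := by
  have hn : ‖q‖ < 1 := by rw [Real.norm_eq_abs, abs_of_nonneg h0]; exact h1
  have e1 := summable_pow_mul_geometric_of_norm_lt_one (R := ℝ) 1 hn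
  have e2 := summable_geometric_of_lt_one h0 h1
  have e3 := (e1.mul_left 2).add (e2.mul_left c)
  refine e3.congr fun m => ?_
  ring

/-- RS-T16b. Summability of the two series. -/
theorem summable_satProb (k n : ℕ) (hk : 1 ≤ k) (hkn : k ≤ n) :
    Summable (fun m : ℕ => Crest.ProbabilityR.RandomSAT.satProb k n m) ∧
      Summable (fun m : ℕ => (2 * (m : ℝ) + 1) *
        Crest.ProbabilityR.RandomSAT.satProb k n m) := by
  obtain ⟨q0, q1⟩ := rst16_q k
  constructor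
  · refine Summable.of_nonneg_of_le (fun m => satProb_nonneg k n m)
      (fun m => satProb_le k n m hkn) ?_
    exact (summable_geometric_of_lt_one q0 q1).mul_left _
  · refine Summable.of_nonneg_of_le
      (fun m => mul_nonneg (by positivity) (satProb_nonneg k n m))
      (fun m => ?_) ((rst16_summable _ q0 q1 1).mul_left (2 ^ n : ℝ))
    calc (2 * (m : ℝ) + 1) * Crest.ProbabilityR.RandomSAT.satProb k n m
        ≤ (2 * (m : ℝ) + 1) * (2 ^ n * (1 - 1 / 2 ^ k) ^ m) :=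
          mul_le_mul_of_nonneg_left (satProb_le k n m hkn) (by positivity)
      _ = 2 ^ n * ((2 * (m : ℝ) + 1) * (1 - 1 / 2 ^ k) ^ m) := by ring

/-- RS-T16c. The tail beyond `lam0 * n` is bounded: take `lam0` with `(1-2^{-k})^{lam0} ≤ 1/4`. -/
theorem tail_bound (k : ℕ) (hk : 1 ≤ k) :
    ∃ (lam0 : ℕ) (C : ℝ), 0 ≤ C ∧ ∀ n : ℕ, k ≤ n →
      (∑' m : ℕ, (2 * ((m + (lam0 * n + 1) : ℕ) : ℝ) + 1) *
        Crest.ProbabilityR.RandomSAT.satProb k n (m + (lam0 * n + 1))) ≤ C := by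
  obtain ⟨q0, q1⟩ := rst16_q k
  obtain ⟨q, hq⟩ : ∃ q : ℝ, q = 1 - 1 / 2 ^ k := ⟨_, rfl⟩
  rw [← hq] at q0 q1
  obtain ⟨lam0, hlam⟩ := exists_pow_lt_of_lt_one (show (0 : ℝ) < 1 / 4 by norm_num) q1
  have hS := rst16_summable q q0 q1 (3 + 2 * lam0)
  refine ⟨lam0, ∑' m : ℕ, (2 * (m : ℝ) + (3 + 2 * lam0)) * q ^ m,
    tsum_nonneg fun m => by positivity, fun n hn => ?_⟩
  have hle : ∀ m : ℕ, (2 * ((m + (lam0 * n + 1) : ℕ) : ℝ) + 1) *
        Crest.ProbabilityR.RandomSAT.satProb k n (m + (lam0 * n + 1)) ≤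
      (2 * (m : ℝ) + (3 + 2 * lam0)) * q ^ m := by
    intro m
    have h1 := satProb_le k n (m + (lam0 * n + 1)) hn
    rw [← hq] at h1
    have hqm : 0 ≤ q ^ m := pow_nonneg q0 m
    have h2 : (2 : ℝ) ^ n * q ^ (m + (lam0 * n + 1)) ≤ (1 / 2) ^ n * q ^ m := by
      have e1 : q ^ (m + (lam0 * n + 1)) = q ^ m * ((q ^ lam0) ^ n * q) := by
        rw [pow_add, pow_add, pow_mul, pow_one]
      have e2 : (q ^ lam0) ^ n ≤ (1 / 4) ^ n := pow_le_pow_left₀ (by positivity) hlam.le n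
      have e3 : (q ^ lam0) ^ n * q ≤ (1 / 4) ^ n * 1 :=
        mul_le_mul e2 q1.le q0 (by positivity)
      rw [e1]
      calc (2 : ℝ) ^ n * (q ^ m * ((q ^ lam0) ^ n * q))
          = q ^ m * (2 ^ n * ((q ^ lam0) ^ n * q)) := by ring
        _ ≤ q ^ m * (2 ^ n * ((1 / 4) ^ n * 1)) := by gcongr
        _ = (1 / 2) ^ n * q ^ m := by
          rw [mul_one, ← mul_pow]
          norm_num
          ring
    have h3 : (2 * ((m + (lam0 * n + 1) : ℕ) : ℝ) + 1) * (1 / 2) ^ n ≤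
        2 * (m : ℝ) + (3 + 2 * lam0) := by
      have hn2 : (n : ℝ) * (1 / 2) ^ n ≤ 1 := by
        have h4 : (n : ℝ) < 2 ^ n := by exact_mod_cast Nat.lt_two_pow_self
        rw [one_div, inv_pow]
        have h5 : (0 : ℝ) < 2 ^ n := by positivity
        rw [← div_eq_mul_inv, div_le_one h5]
        exact h4.le
      have h1n : (1 / 2 : ℝ) ^ n ≤ 1 := pow_le_one₀ (by norm_num) (by norm_num)
      have h0n : (0 : ℝ) ≤ (1 / 2 : ℝ) ^ n := by positivity
      push_cast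
      have hm : (0 : ℝ) ≤ m := Nat.cast_nonneg m
      have hl : (0 : ℝ) ≤ lam0 := Nat.cast_nonneg lam0
      calc (2 * ((m : ℝ) + (lam0 * n + 1)) + 1) * (1 / 2) ^ n
          = (2 * (m : ℝ) + 3) * (1 / 2) ^ n + 2 * lam0 * (n * (1 / 2) ^ n) := by ring
        _ ≤ (2 * (m : ℝ) + 3) * 1 + 2 * lam0 * 1 := by gcongr
        _ = 2 * (m : ℝ) + (3 + 2 * lam0) := by ring
    calc (2 * ((m + (lam0 * n + 1) : ℕ) : ℝ) + 1) *
        Crest.ProbabilityR.RandomSAT.satProb k n (m + (lam0 * n + 1))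
        ≤ (2 * ((m + (lam0 * n + 1) : ℕ) : ℝ) + 1) * ((1 / 2) ^ n * q ^ m) := by
          gcongr
          exact h1.trans h2
      _ = ((2 * ((m + (lam0 * n + 1) : ℕ) : ℝ) + 1) * (1 / 2) ^ n) * q ^ m := by ring
      _ ≤ (2 * (m : ℝ) + (3 + 2 * lam0)) * q ^ m := by gcongr
  refine Summable.tsum_le_tsum hle ?_ hS
  exact Summable.of_nonneg_of_le
    (fun m => mul_nonneg (by positivity) (satProb_nonneg _ _ _)) hle hS

end

end Crest.Agent.RS
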