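/-
  RY_Defs : common definitions for S0045 / S0046 (Ryser: intersecting (q+1)-partite hypergraphs with cover number q+1,
  for EVERY sufficiently large finite field).

  Model.  `F` finite field, `q = card F`.
  * parts are `Option F`;  plane points are `Pt F = Option F × F` (part, height); the centre O is not a `Pt`.
  * the `q^2` lines not through O are `Ln F = F × F`: the line `(m,c)` contains in part `some x` the point of height
    `m*x+c` and in part `none` the point of height `m`.
  * The lines through O are the parts themselves.
  * `R : Finset (Pt F)` is the set of sparse points, `F0 R` the lines missing `R`.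
-/
import Mathlib

set_option autoImplicit false

namespace Crest.Agent.RY

/-- the conclusion we want for a given `q` (the body of S0045; it implies the body of S0046). -/
def Concl (q : ℕ) : Prop :=
  ∃ (N : ℕ) (part : Fin N → Fin (q + 1)) (E : Finset (Finset (Fin N))),
        E.Nonempty ∧
        (∀ e ∈ E, ∀ i : Fin (q + 1), (e.filter (fun v => part v = i)).card = 1) ∧
        (∀ e ∈ E, ∀ f ∈ E, (e ∩ f).Nonempty) ∧
        (∀ i : Fin (q + 1), (Finset.univ.filter (fun v => part v = i)).card = q + 1) ∧
        (∀ v : Fin N, ∃ e ∈ E, v ∈ e) ∧
        (∀ S : Finset (Fin N), (∀ e ∈ E, (e ∩ S).Nonempty) → q + 1 ≤ S.card)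

section defs
variable {F : Type} [Field F] [Fintype F] [DecidableEq F]

/-- plane points different from the centre `O`: part and height -/
abbrev Pt (F : Type) := Option F × F
/-- lines not through `O`: slope and intercept -/
abbrev Ln (F : Type) := F × F

/-- height of the point of the line `l` in the part `i` -/
def val (l : Ln F) (i : Option F) : F :=
  match i with
  | some x => l.1 * x + l.2
  | none => l.1

/-- incidence -/
def on (p : Pt F) (l : Ln F) : Prop := p.2 = val l p.1

instance (p : Pt F) (l : Ln F) : Decidable (on p l) := by unfold on; infer_instance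

/-- the points of a set on a line -/
def onL (R : Finset (Pt F)) (l : Ln F) : Finset (Pt F) := R.filter (fun p => on p l)

/-- the points of a set in a part -/
def onP (R : Finset (Pt F)) (i : Option F) : Finset (Pt F) := R.filter (fun p => p.1 = i)

/-- the lines missing a set of points -/
def F0 (R : Finset (Pt F)) : Finset (Ln F) := Finset.univ.filter (fun l => ∀ p ∈ R, ¬ on p l)

/-- the plain lines at `t`: lines whose only point of `R` is `t` -/
def plain (R : Finset (Pt F)) (t : Pt F) : Finset (Ln F) :=
  Finset.univ.filter (fun l => onL R l = {t})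

/-- STABILITY: every set of at most `q` plane points meeting all lines of `F0 R` contains all points outside `R`
of some line or of some part. -/
def Stable (R : Finset (Pt F)) : Prop :=
  ∀ S : Finset (Pt F), S.card ≤ Fintype.card F → (∀ l ∈ F0 R, ∃ p ∈ S, on p l) →
    (∃ l : Ln F, ∀ p : Pt F, on p l → p ∉ R → p ∈ S) ∨
    (∃ i : Option F, ∀ p : Pt F, p.1 = i → p ∉ R → p ∈ S)

/-- Gadget system.  `main i` is the main sparse point of part `i`, `M i c` (`c : Fin 2`) its two M-lines; the sparse
points of `M i c` other than `main i` are its slots (exactly `m+1` of them); `z i c s` is the new label used in the part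
of the slot `s` of `M i c`; `sp t` is a set of exactly `m` plain lines at the sparse point `t`.  The edges of the
hypergraph are: the lines of `F0 R`, all lines of `sp t` (`t ∈ R`), and for each `(i,c)` the modified line
`e i c = (points of M i c outside R) ∪ {x_i} ∪ {z i c s | s slot}` where `x_i` is a new vertex in part `i`. -/
structure Gadgets (R : Finset (Pt F)) (m : ℕ) where
  main : Option F → Pt F
  M : Option F → Fin 2 → Ln F
  z : Option F → Fin 2 → Pt F → Pt F
  sp : Pt F → Finset (Ln F)
  main_mem : ∀ i, main i ∈ R
  main_part : ∀ i, (main i).1 = i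
  main_on : ∀ i c, on (main i) (M i c)
  /-- exactly `m+1` slots (and the main point) -/
  card_M : ∀ i c, (onL R (M i c)).card = m + 2
  /-- a sparse point is on at most one M-line, except that `main i` is on exactly `M i 0` and `M i 1` -/
  excl : ∀ t ∈ R, ∀ i c i' c', on t (M i c) → on t (M i' c') → (i, c) ≠ (i', c') → i = i' ∧ t = main i
  M_ne : ∀ i, M i 0 ≠ M i 1
  /-- labels: same part as the slot, not sparse -/
  z_part : ∀ i c s, s ∈ onL R (M i c) → s ≠ main i → (z i c s).1 = s.1
  z_notin : ∀ i c s, s ∈ onL R (M i c) → s ≠ main i → z i c s ∉ R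
  /-- labels of one M-line are not on the M-lines of its gadget and differ from the labels of the other one -/
  z_off : ∀ i c c' s, s ∈ onL R (M i c) → s ≠ main i → ¬ on (z i c s) (M i c')
  z_ne : ∀ i s s', s ∈ onL R (M i 0) → s ≠ main i → s' ∈ onL R (M i 1) → s' ≠ main i → z i 0 s ≠ z i 1 s'
  /-- special lines are plain, exactly `m` of them -/
  sp_plain : ∀ t ∈ R, sp t ⊆ plain R t
  sp_card : ∀ t ∈ R, (sp t).card = m
  /-- every special line at the main point contains a label of each of the two M-lines -/
  sp_main : ∀ i c, ∀ l ∈ sp (main i), ∃ s ∈ onL R (M i c), s ≠ main i ∧ on (z i c s) l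
  /-- every special line at a slot of `M i c` contains a label of `M i c` -/
  sp_slot : ∀ i c, ∀ s ∈ onL R (M i c), s ≠ main i → ∀ l ∈ sp s, ∃ s' ∈ onL R (M i c), s' ≠ main i ∧ on (z i c s') l
  /-- genericity 1: lines that are not M-lines -/
  gen_line : ∀ l : Ln F, (∀ i c, l ≠ M i c) → ∀ v : Pt F, v ∉ R → ¬ on v l →
    ((onL R l).sum (fun t => ((sp t).filter (fun l' => on v l')).card)) ≤ m
  /-- genericity 1 for parts -/
  gen_part : ∀ i : Option F, ∀ v : Pt F, v ∉ R → v.1 ≠ i →
    ((onP R i).sum (fun t => ((sp t).filter (fun l' => on v l')).card)) ≤ m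
  /-- genericity 2: vertices of the modified edges -/
  gen_part' : ∀ i c, ∀ v : Pt F, v ∉ R → v.1 ≠ i →
    (on v (M i c) ∨ ∃ s ∈ onL R (M i c), s ≠ main i ∧ v = z i c s) →
    2 * ((onP R i).sum (fun t => ((sp t).filter (fun l' => on v l')).card)) ≤ m
  /-- genericity 3: M-lines (only the slots, not the main point) -/
  gen_M : ∀ i c, ∀ v : Pt F, v ∉ R → ¬ on v (M i c) →
    (((onL R (M i c)).erase (main i)).sum (fun t => ((sp t).filter (fun l' => on v l')).card)) ≤ m
  gen_M' : ∀ i c c', c ≠ c' → ∀ v : Pt F, v ∉ R → ¬ on v (M i c) →
    (on v (M i c') ∨ ∃ s ∈ onL R (M i c'), s ≠ main i ∧ v = z i c' s) →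
    2 * (((onL R (M i c)).erase (main i)).sum (fun t => ((sp t).filter (fun l' => on v l')).card)) ≤ m

end defs

section random
variable {F : Type} [Field F] [Fintype F] [DecidableEq F]

/-- the index set of the random points: part and index; index `0` is the main point of the part, the other
indices are the slot points. -/
abbrev Idx (F : Type) (H : ℕ) := Option F × Fin H
/-- outcomes: heights of all the random points (uniform counting measure). -/
abbrev Om (F : Type) (H : ℕ) := Idx F H → F

/-- the random point with index `k` -/
def rp {H : ℕ} (ω : Om F H) (k : Idx F H) : Pt F := (k.1, ω k)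

/-- the random sparse set -/
def RR {H : ℕ} (ω : Om F H) : Finset (Pt F) := Finset.univ.image (rp ω)

/-- the random points with indices in `K` -/
def RK {H : ℕ} (ω : Om F H) (K : Finset (Idx F H)) : Finset (Pt F) := K.image (rp ω)

end random

end Crest.Agent.RY
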