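/-
  RY_Iface : the definitions used in the interfaces between the parts.
-/
import Crest.Agent.RY_Defs

set_option autoImplicit false

namespace Crest.Agent.RY
open Finset Classical

section
variable {F : Type} [Field F] [Fintype F] [DecidableEq F]

/-- `S` is a set of at most `q` plane points meeting every line of `F0 R`.
NOTE: `F0 S` is the set of the lines (not through O) missed by `S`. -/
def Cover (R S : Finset (Pt F)) : Prop :=
  S.card ≤ Fintype.card F ∧ ∀ l ∈ F0 R, ∃ p ∈ S, on p l

/-- the conclusion of stability for `S` -/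
def NearLine (R S : Finset (Pt F)) : Prop :=
  (∃ l : Ln F, ∀ p : Pt F, on p l → p ∉ R → p ∈ S) ∨
    (∃ i : Option F, ∀ p : Pt F, p.1 = i → p ∉ R → p ∈ S)

/-- every non-sparse point is on at least `φ q` lines of `F0` -/
def LowDeg {H : ℕ} (φ : ℝ) (ω : Om F H) : Prop :=
  ∀ p : Pt F, p ∉ RR ω → φ * (Fintype.card F : ℝ) ≤ (((F0 (RR ω)).filter (fun l => on p l)).card : ℝ)

end

/-- probability of an event for the uniform counting measure on outcomes -/
noncomputable def Pr {α : Type} [Fintype α] (p : α → Prop) : ℝ :=
  ((Finset.univ.filter p).card : ℝ) / (Fintype.card α : ℝ)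

theorem Pr_mono {α : Type} [Fintype α] {p r : α → Prop} (h : ∀ a, p a → r a) : Pr p ≤ Pr r := by
  unfold Pr
  apply div_le_div_of_nonneg_right _ (by positivity)
  exact_mod_cast Finset.card_le_card (fun a ha => by
    simp only [Finset.mem_filter, Finset.mem_univ, true_and] at ha ⊢; exact h a ha)

theorem Pr_or {α : Type} [Fintype α] (p r : α → Prop) : Pr (fun a => p a ∨ r a) ≤ Pr p + Pr r := by
  unfold Pr
  rw [← add_div]
  apply div_le_div_of_nonneg_right _ (by positivity)
  refine le_trans (Nat.cast_le.mpr (le_trans (Finset.card_le_card ?_)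
    (Finset.card_union_le (univ.filter p) (univ.filter r)))) (by push_cast; exact le_refl _)
  intro a ha
  simp only [Finset.mem_filter, Finset.mem_univ, true_and, Finset.mem_union] at ha ⊢; exact ha

theorem Pr_all {α : Type} [Fintype α] [Nonempty α] {p : α → Prop} (h : ∀ a, p a) : Pr p = 1 := by
  unfold Pr
  rw [Finset.filter_true_of_mem (fun a _ => h a), Finset.card_univ]
  have : (0:ℝ) < (Fintype.card α : ℝ) := by exact_mod_cast Fintype.card_pos
  field_simp

theorem Pr_nonneg {α : Type} [Fintype α] (p : α → Prop) : 0 ≤ Pr p := by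
  unfold Pr; positivity

end Crest.Agent.RY
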