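/-
  RY_A_Defs : definitions for part2 (S0045/S0046), prefix `A_`.
  `q = Fintype.card F`.  For a set `S` of plane points, `F0 S` is the set of lines (not through O) missed by `S`.
-/
import Crest.Agent.RY_Iface

set_option autoImplicit false

namespace Crest.Agent.RY
open Finset Classical

section
variable {F : Type} [Field F] [Fintype F] [DecidableEq F]

/-- the lines through a point -/
def A_thru (p : Pt F) : Finset (Ln F) := univ.filter (fun l => on p l)

/-- number of lines through `p` missed by `S` -/
def A_miss (S : Finset (Pt F)) (p : Pt F) : ℕ := ((F0 S).filter (fun l => on p l)).card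

/-- number of tangents at `p` : lines meeting `S` exactly in `p` (used for `p ∈ S`) -/
def A_tang (S : Finset (Pt F)) (p : Pt F) : ℕ := (plain S p).card

/-- the points outside `S` that are on at least `q/2` missed lines -/
noncomputable def A_X (S : Finset (Pt F)) : Finset (Pt F) :=
  univ.filter (fun p => p ∉ S ∧ Fintype.card F ≤ 2 * A_miss S p)

/-- the "useless" points of `S` : fewer than `q/2` tangents -/
noncomputable def A_bad (S : Finset (Pt F)) : Finset (Pt F) :=
  S.filter (fun p => 2 * A_tang S p < Fintype.card F)

/-- `S` has `q` points, misses at most `ν q^2` lines, and no line or part contains `q/2` points of `S` -/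
def A_Good (ν : ℝ) (S : Finset (Pt F)) : Prop :=
  S.card = Fintype.card F ∧ ((F0 S).card : ℝ) ≤ ν * (Fintype.card F : ℝ) ^ 2 ∧
    (∀ l : Ln F, 2 * (onL S l).card < Fintype.card F) ∧
    (∀ i : Option F, 2 * (onP S i).card < Fintype.card F)

/-- heavy mass at `z` : number of points of `S` (other than `z`) on lines through `z` that contain at least `M` points
of `S` other than `z` -/
def A_heavy (S : Finset (Pt F)) (M : ℕ) (z : Pt F) : ℕ :=
  ∑ l ∈ (A_thru z).filter (fun l => M ≤ (onL (S.erase z) l).card), (onL (S.erase z) l).card

/-- number of points of `T` on `T`-rich lines (at least two points of `T`) through `z` (with multiplicity for `z ∈ T`) -/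
def A_G (T : Finset (Pt F)) (z : Pt F) : ℕ :=
  ∑ l ∈ (A_thru z).filter (fun l => 2 ≤ (onL T l).card), (onL T l).card

/-- the `T`-rich points -/
def A_W (T : Finset (Pt F)) : Finset (Pt F) :=
  univ.filter (fun z => 0 < A_G T z ∧ T.card ≤ 32768 * A_G T z)

/-- missed lines that avoid all points of `A_X S` -/
noncomputable def A_U0 (S : Finset (Pt F)) : Finset (Ln F) :=
  (F0 S).filter (fun l => ∀ p ∈ A_X S, ¬ on p l)

end

end Crest.Agent.RY
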