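/-
  RY_A_CoverDef : remaining lines and atypical points.
-/
import Crest.Agent.RY_A_Defs

set_option autoImplicit false

namespace Crest.Agent.RY
open Finset Classical

variable {F : Type} [Field F] [Fintype F] [DecidableEq F]

/-- lines of `U` not hit by the points of the blocks `< b` -/
noncomputable def A_rem {H : ℕ} (U : Finset (Ln F)) (blk : Idx F H → ℕ) (b : ℕ) (ω : Om F H) : Finset (Ln F) :=
  U.filter (fun l => ∀ k, blk k < b → ¬ on (rp ω k) l)

/-- atypical points for block `b` -/
noncomputable def A_D {H : ℕ} (U : Finset (Ln F)) (blk : Idx F H → ℕ) (umin : ℝ) (b : ℕ) (ω : Om F H) : Finset (Pt F) :=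
  if umin ≤ ((A_rem U blk b ω).card : ℝ) then
    univ.filter (fun z => 3 * (A_rem U blk b ω).card ≤
      Fintype.card F * ((A_rem U blk b ω).filter (fun l => on z l)).card)
  else ∅

end Crest.Agent.RY
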