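/-
TASK RY_A_Blocks (easy).  Enumerate the `H(q+1)` indices (`Fintype.equivFin`) and cut into blocks of length `⌊q/12⌋ ≥ 2`:
`blk k = (index of k) / ⌊q/12⌋ < 30 H`.
-/
import Crest.Agent.RY_A_CoverDef

set_option autoImplicit false

namespace Crest.Agent.RY
open Finset Classical

variable {F : Type} [Field F] [Fintype F] [DecidableEq F]

/-- equal blocks: enumerate the `H(q+1)` indices and cut into blocks of `⌊q/12⌋ ≥ q/24`.. -/
theorem A_blocks (H : ℕ) (hH : 1 ≤ H) (hq : 24 ≤ Fintype.card F) :
    ∃ blk : Idx F H → ℕ, (∀ k, blk k < 30 * H) ∧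
      ∀ b, 12 * (univ.filter (fun k => blk k = b)).card ≤ Fintype.card F := by
  set q := Fintype.card F with hqd
  set m := q / 12 with hm
  have hm2 : 2 ≤ m := by omega
  have hm12 : 12 * m ≤ q := by omega
  have hmq : q + 1 ≤ 30 * m := by omega
  have hcard : Fintype.card (Idx F H) = (q + 1) * H := by
    simp [Idx, hqd]
  let e := Fintype.equivFin (Idx F H)
  refine ⟨fun k => (e k : ℕ) / m, fun k => ?_, fun b => ?_⟩
  · have h1 : (e k : ℕ) < (q + 1) * H := by
      exact lt_of_lt_of_eq (e k).2 hcard
    rw [Nat.div_lt_iff_lt_mul (by omega)]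
    calc (e k : ℕ) < (q + 1) * H := h1
      _ ≤ (30 * m) * H := Nat.mul_le_mul_right _ hmq
      _ = 30 * H * m := by ring
  · have h2 : (univ.filter (fun k : Idx F H => (e k : ℕ) / m = b)).card ≤ m := by
      have h3 : (univ.filter (fun k : Idx F H => (e k : ℕ) / m = b)).card ≤
          (Finset.range m).card := by
        apply Finset.card_le_card_of_injOn (fun k => (e k : ℕ) % m)
        · intro k _
          simp only [Finset.coe_range, Set.mem_Iio]
          exact Nat.mod_lt _ (by omega)
        · intro k hk k' hk' h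
          simp only [Finset.coe_filter, Finset.mem_univ, true_and, Set.mem_ofPred_eq] at hk hk' h
          have h4 : (e k : ℕ) = (e k' : ℕ) := by
            rw [← Nat.div_add_mod (e k : ℕ) m, ← Nat.div_add_mod (e k' : ℕ) m, hk, hk', h]
          exact e.injective (Fin.ext h4)
      simpa using h3
    calc 12 * _ ≤ 12 * m := Nat.mul_le_mul_left _ h2
      _ ≤ q := hm12

end Crest.Agent.RY
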