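/-
TASK RY_A_Ex2 (medium).  Means and variances for one set `A` (induction on `A` with `A_Ex_insert` for the first three).
`A_Ex_card`: mean of `|T|` is `τ |A|`;  `A_Ex_sq`: mean of `|T|^2` is `τ|A| + τ^2 |A|(|A|-1)`;
`A_Ex_single`: `P(|T| = 1) = |A| τ (1-τ)^(|A|-1)`.
`A_phi x = x - 1_{x = 1}`: so mean of `A_phi |T|` is `|A| τ (1 - (1-τ)^(|A|-1))`, and
`(A_phi x - E A_phi)^2 ≤ 2 (x - E x)^2 + 2 (1_{x=1} - P(x=1))^2`, mean `≤ 2 τ|A| + 2 P(x = 1) ≤ 4 τ |A|`.
-/
import Crest.Agent.RY_A_Ex1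

set_option autoImplicit false

namespace Crest.Agent.RY
open Finset Classical

private theorem A_Ex2_congr {α : Type} (τ : ℝ) (S : Finset α) (f g : Finset α → ℝ)
    (h : ∀ T, T ⊆ S → f T = g T) : A_Ex τ S f = A_Ex τ S g := by
  unfold A_Ex
  refine Finset.sum_congr rfl (fun T hT => ?_)
  rw [h T (Finset.mem_powerset.mp hT)]

private theorem A_Ex2_empty {α : Type} (τ : ℝ) (f : Finset α → ℝ) : A_Ex τ ∅ f = f ∅ := by
  unfold A_Ex
  simp

private theorem A_Ex2_step {α : Type} (τ : ℝ) (S : Finset α) (a : α) (ha : a ∉ S) (f : ℕ → ℝ) :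
    A_Ex τ (insert a S) (fun T => f T.card) =
      (1 - τ) * A_Ex τ S (fun T => f T.card) + τ * A_Ex τ S (fun T => f (T.card + 1)) := by
  rw [A_Ex_insert τ S a ha]
  congr 2
  refine A_Ex2_congr τ S _ _ (fun T hT => ?_)
  rw [Finset.card_insert_of_notMem (fun h => ha (hT h))]

theorem A_Ex_card {α : Type} (τ : ℝ) (A : Finset α) : A_Ex τ A (fun T => (T.card : ℝ)) = τ * A.card := by
  induction A using Finset.induction_on with
  | empty => rw [A_Ex2_empty]; simp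
  | insert a S ha ih =>
    rw [A_Ex2_step τ S a ha (fun n => (n : ℝ)), ih]
    have : A_Ex τ S (fun T => ((T.card + 1 : ℕ) : ℝ)) = τ * S.card + 1 := by
      rw [← ih, ← A_Ex_one τ S, ← A_Ex_add]
      refine A_Ex2_congr τ S _ _ (fun T _ => ?_)
      push_cast; ring
    rw [this, Finset.card_insert_of_notMem ha]
    push_cast; ring

theorem A_Ex_sq {α : Type} (τ : ℝ) (A : Finset α) :
    A_Ex τ A (fun T => (T.card : ℝ) ^ 2) = τ * A.card + τ ^ 2 * (A.card * (A.card - 1)) := by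
  induction A using Finset.induction_on with
  | empty => rw [A_Ex2_empty]; simp
  | insert a S ha ih =>
    rw [A_Ex2_step τ S a ha (fun n => (n : ℝ) ^ 2), ih]
    have : A_Ex τ S (fun T => ((T.card + 1 : ℕ) : ℝ) ^ 2) =
        (τ * S.card + τ ^ 2 * (S.card * (S.card - 1))) + (2 * (τ * S.card) + 1) := by
      rw [← ih, ← A_Ex_card τ S, ← A_Ex_one τ S, ← A_Ex_mul, ← A_Ex_add, ← A_Ex_add]
      refine A_Ex2_congr τ S _ _ (fun T _ => ?_)
      push_cast; ring
    rw [this, Finset.card_insert_of_notMem ha]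
    push_cast; ring

private theorem A_Ex2_zero {α : Type} (τ : ℝ) (A : Finset α) :
    A_Ex τ A (fun T => if T.card = 0 then 1 else 0) = (1 - τ) ^ A.card := by
  induction A using Finset.induction_on with
  | empty => rw [A_Ex2_empty]; simp
  | insert a S ha ih =>
    rw [A_Ex2_step τ S a ha (fun n => if n = 0 then (1 : ℝ) else 0), ih]
    have : A_Ex τ S (fun T => if T.card + 1 = 0 then (1 : ℝ) else 0) = 0 := by
      have h : A_Ex τ S (fun T => if T.card + 1 = 0 then (1 : ℝ) else 0) =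
          A_Ex τ S (fun T => (0 : ℝ) * (fun _ => (1 : ℝ)) T) := by
        refine A_Ex2_congr τ S _ _ (fun T _ => ?_)
        simp
      rw [h, A_Ex_mul, zero_mul]
    rw [this, Finset.card_insert_of_notMem ha]
    ring

theorem A_Ex_single {α : Type} (τ : ℝ) (A : Finset α) :
    A_Ex τ A (fun T => if T.card = 1 then 1 else 0) = A.card * τ * (1 - τ) ^ (A.card - 1) := by
  induction A using Finset.induction_on with
  | empty => rw [A_Ex2_empty]; simp
  | insert a S ha ih =>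
    rw [A_Ex2_step τ S a ha (fun n => if n = 1 then (1 : ℝ) else 0), ih]
    have : A_Ex τ S (fun T => if T.card + 1 = 1 then (1 : ℝ) else 0) = (1 - τ) ^ S.card := by
      rw [← A_Ex2_zero]
      refine A_Ex2_congr τ S _ _ (fun T _ => ?_)
      simp
    rw [this, Finset.card_insert_of_notMem ha, Nat.add_sub_cancel]
    rcases Nat.eq_zero_or_pos S.card with h0 | h0
    · rw [h0]; simp
    · obtain ⟨m, hm⟩ : ∃ m, S.card = m + 1 := ⟨S.card - 1, by omega⟩
      rw [hm, Nat.add_sub_cancel]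
      push_cast; ring

private theorem A_Ex2_phi_eq (x : ℕ) : ((A_phi x : ℕ) : ℝ) = (x : ℝ) + (-1) * (if x = 1 then (1 : ℝ) else 0) := by
  unfold A_phi
  rcases Nat.lt_or_ge x 2 with h | h
  · interval_cases x <;> simp
  · rw [if_pos h, if_neg (by omega)]; simp

theorem A_Ex_phi {α : Type} (τ : ℝ) (A : Finset α) :
    A_Ex τ A (fun T => (A_phi T.card : ℝ)) = A.card * τ * (1 - (1 - τ) ^ (A.card - 1)) := by
  have h : A_Ex τ A (fun T => (A_phi T.card : ℝ)) =
      A_Ex τ A (fun T => (T.card : ℝ)) + (-1) * A_Ex τ A (fun T => if T.card = 1 then 1 else 0) := by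
    rw [← A_Ex_mul, ← A_Ex_add]
    refine A_Ex2_congr τ A _ _ (fun T _ => ?_)
    exact A_Ex2_phi_eq _
  rw [h, A_Ex_card, A_Ex_single]
  ring

theorem A_Ex_card_var {α : Type} (τ : ℝ) (h0 : 0 ≤ τ) (h1 : τ ≤ 1) (A : Finset α) :
    A_Ex τ A (fun T => ((T.card : ℝ) - τ * A.card) ^ 2) ≤ τ * A.card := by
  have h : A_Ex τ A (fun T => ((T.card : ℝ) - τ * A.card) ^ 2) =
      A_Ex τ A (fun T => (T.card : ℝ) ^ 2) + ((-2 * (τ * A.card)) * A_Ex τ A (fun T => (T.card : ℝ)) +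
        (τ * A.card) ^ 2 * A_Ex τ A (fun _ => 1)) := by
    rw [← A_Ex_mul, ← A_Ex_mul, ← A_Ex_add, ← A_Ex_add]
    refine A_Ex2_congr τ A _ _ (fun T _ => ?_)
    ring
  rw [h, A_Ex_sq, A_Ex_card, A_Ex_one]
  have h2 : 0 ≤ τ ^ 2 * (A.card : ℝ) := by positivity
  nlinarith [h2]

theorem A_Ex_phi_var {α : Type} (τ : ℝ) (h0 : 0 ≤ τ) (h1 : τ ≤ 1) (A : Finset α) :
    A_Ex τ A (fun T => ((A_phi T.card : ℝ) - A_Ex τ A (fun T => (A_phi T.card : ℝ))) ^ 2) ≤ 4 * τ * A.card := by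
  set P : ℝ := A_Ex τ A (fun T => if T.card = 1 then (1 : ℝ) else 0) with hP
  have hm : A_Ex τ A (fun T => (A_phi T.card : ℝ)) = τ * A.card + (-1) * P := by
    rw [hP, ← A_Ex_card τ A, ← A_Ex_mul, ← A_Ex_add]
    refine A_Ex2_congr τ A _ _ (fun T _ => ?_)
    exact A_Ex2_phi_eq _
  have hPle : P ≤ τ * A.card := by
    rw [hP, A_Ex_single]
    have h3 : (1 - τ) ^ (A.card - 1) ≤ 1 := pow_le_one₀ (by linarith) (by linarith)
    have h4 : 0 ≤ (A.card : ℝ) * τ := by positivity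
    nlinarith
  rw [hm]
  have hle : A_Ex τ A (fun T => ((A_phi T.card : ℝ) - (τ * A.card + (-1) * P)) ^ 2) ≤
      A_Ex τ A (fun T => 2 * ((T.card : ℝ) - τ * A.card) ^ 2 +
        ((2 - 4 * P) * (if T.card = 1 then (1 : ℝ) else 0) + 2 * P ^ 2 * (fun _ => (1 : ℝ)) T)) := by
    refine A_Ex_mono τ h0 h1 A _ _ (fun T _ => ?_)
    rw [A_Ex2_phi_eq]
    by_cases hc : T.card = 1
    · simp only [hc, if_true]
      push_cast
      nlinarith [sq_nonneg ((1 : ℝ) - τ * A.card + (1 - P))]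
    · simp only [hc, if_false]
      nlinarith [sq_nonneg ((T.card : ℝ) - τ * A.card - P)]
  refine hle.trans ?_
  rw [A_Ex_add, A_Ex_mul, A_Ex_add, A_Ex_mul, A_Ex_mul, A_Ex_one, ← hP]
  have h5 := A_Ex_card_var τ h0 h1 A
  nlinarith [sq_nonneg P]

end Crest.Agent.RY
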