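/-
TASK RY_A_Ex3 (medium).  Lower tail of `Y(T) = ∑_{j ∈ L} A_phi |T ∩ A_j|`, `A_j ⊆ S` pairwise disjoint, `|A_j| ≥ M ≥ 2`,
`τ = 1/(1024 M)`.  Mean: `E Y = ∑ |A_j| τ (1 - (1-τ)^(|A_j|-1)) ≥ h τ (1 - (1-τ)^(M-1)) ≥ h τ /4096`,
`h = ∑ |A_j|`  (`1 - (1-τ)^k ≥ kτ/2` if `kτ ≤ 1`, `(M-1) τ ≥ Mτ/2 = 1/2048`).
Variance: by independence (`A_Ex_indep`, centered variables) `= ∑ Var ≤ 4 τ h`.
Chebyshev: `P(Y < hτ/8192) ≤ 4τh/(hτ/8192)^2 = 2^28/(hτ) = 2^38 M/h`.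
(As an inequality of expectations: the indicator of `Y < hτ/8192` is `≤ (Y - E Y)^2/(hτ/8192)^2`.)
-/
import Crest.Agent.RY_A_Ex2

set_option autoImplicit false

namespace Crest.Agent.RY
open Finset Classical

theorem A_Ex_fam_var {α β : Type} (τ : ℝ) (h0 : 0 ≤ τ) (h1 : τ ≤ 1) (S : Finset α) (L : Finset β)
    (A : β → Finset α) (hA : ∀ j ∈ L, A j ⊆ S) (hd : ∀ j ∈ L, ∀ j' ∈ L, j ≠ j' → Disjoint (A j) (A j')) :
    A_Ex τ S (fun T => ((∑ j ∈ L, (A_phi (T ∩ A j).card : ℝ)) -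
        A_Ex τ S (fun T => ∑ j ∈ L, (A_phi (T ∩ A j).card : ℝ))) ^ 2) ≤ 4 * τ * ∑ j ∈ L, ((A j).card : ℝ) := by
  obtain ⟨m, hm⟩ : ∃ m : β → ℝ, m = fun j => A_Ex τ (A j) (fun T => (A_phi T.card : ℝ)) := ⟨_, rfl⟩
  have hmean : A_Ex τ S (fun T => ∑ j ∈ L, (A_phi (T ∩ A j).card : ℝ)) = ∑ j ∈ L, m j := by
    rw [A_Ex_sum τ S L (fun j T => (A_phi (T ∩ A j).card : ℝ))]
    apply Finset.sum_congr rfl
    intro j hj
    rw [hm]
    exact A_Ex_inter τ (A j) S (hA j hj) (fun U => (A_phi U.card : ℝ))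
  rw [hmean]
  have h1' : (fun T : Finset α => ((∑ j ∈ L, (A_phi (T ∩ A j).card : ℝ)) - ∑ j ∈ L, m j) ^ 2) =
      fun T : Finset α => ∑ j ∈ L, ∑ j' ∈ L, ((A_phi (T ∩ A j).card : ℝ) - m j) * ((A_phi (T ∩ A j').card : ℝ) - m j') := by
    funext T
    rw [← Finset.sum_sub_distrib, sq, Finset.sum_mul_sum]
  rw [h1', A_Ex_sum τ S L (fun j T => ∑ j' ∈ L, ((A_phi (T ∩ A j).card : ℝ) - m j) * ((A_phi (T ∩ A j').card : ℝ) - m j')),
    Finset.mul_sum]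
  apply Finset.sum_le_sum
  intro j hj
  rw [A_Ex_sum τ S L (fun j' T => ((A_phi (T ∩ A j).card : ℝ) - m j) * ((A_phi (T ∩ A j').card : ℝ) - m j')),
    Finset.sum_eq_single_of_mem j hj]
  · have h2 : A_Ex τ S (fun T => ((A_phi (T ∩ A j).card : ℝ) - m j) * ((A_phi (T ∩ A j).card : ℝ) - m j)) =
        A_Ex τ (A j) (fun T => ((A_phi T.card : ℝ) - m j) ^ 2) := by
      rw [← A_Ex_inter τ (A j) S (hA j hj) (fun U => ((A_phi U.card : ℝ) - m j) ^ 2)]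
      congr 1
      funext T
      rw [sq]
    rw [h2, hm]
    exact A_Ex_phi_var τ h0 h1 (A j)
  · intro j' hj' hne
    rw [A_Ex_indep τ (A j) (A j') S (hA j hj) (hA j' hj') (hd j hj j' hj' hne.symm)
      (fun U => (A_phi U.card : ℝ) - m j) (fun U => (A_phi U.card : ℝ) - m j')]
    have h3 : A_Ex τ (A j) (fun U => (A_phi U.card : ℝ) - m j) = 0 := by
      have h4 := A_Ex_add τ (A j) (fun U => (A_phi U.card : ℝ)) (fun _ => (- m j) * 1)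
      rw [A_Ex_mul, A_Ex_one] at h4
      have h5 : (fun U : Finset α => (A_phi U.card : ℝ) - m j) = (fun U => (A_phi U.card : ℝ) + (- m j) * 1) := by
        funext U; ring
      rw [h5, h4, hm]
      ring
    rw [h3, zero_mul]

private theorem Ex3_bern (τ : ℝ) (h0 : 0 ≤ τ) (h1 : τ ≤ 1) (k : ℕ) (hk : (k : ℝ) * τ ≤ 1) :
    (k : ℝ) * τ / 2 ≤ 1 - (1 - τ) ^ k := by
  have e1 : 1 + (k : ℝ) * τ ≤ (1 + τ) ^ k := one_add_mul_le_pow (by linarith) k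
  have e2 : (1 - τ) ^ k * (1 + τ) ^ k ≤ 1 := by
    rw [← mul_pow]
    apply pow_le_one₀
    · nlinarith
    · nlinarith
  have e3 : 0 ≤ (1 - τ) ^ k := pow_nonneg (by linarith) k
  have e4 : (1 - τ) ^ k * (1 + (k : ℝ) * τ) ≤ 1 := le_trans (mul_le_mul_of_nonneg_left e1 e3) e2
  have e5 : 0 ≤ (k : ℝ) * τ := by positivity
  have e6 : (1 - τ) ^ k ≤ 1 / (1 + (k : ℝ) * τ) := by
    rw [le_div_iff₀ (by positivity)]
    exact e4
  have e7 : 1 / (1 + (k : ℝ) * τ) ≤ 1 - (k : ℝ) * τ / 2 := by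
    rw [div_le_iff₀ (by positivity)]
    nlinarith
  linarith

theorem A_Ex_fam_mean {α β : Type} (M : ℕ) (hM : 2 ≤ M) (τ : ℝ) (hτ : τ = 1 / (1024 * M)) (S : Finset α)
    (L : Finset β) (A : β → Finset α) (hA : ∀ j ∈ L, A j ⊆ S) (hsize : ∀ j ∈ L, M ≤ (A j).card) :
    (∑ j ∈ L, ((A j).card : ℝ)) * τ / 4096 ≤ A_Ex τ S (fun T => ∑ j ∈ L, (A_phi (T ∩ A j).card : ℝ)) := by
  have hM0 : (2:ℝ) ≤ (M:ℝ) := by exact_mod_cast hM
  have hM1 : (0:ℝ) < (M:ℝ) := by linarith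
  have hτ0 : 0 < τ := by rw [hτ]; positivity
  have hMτ : (M:ℝ) * τ = 1 / 1024 := by
    rw [hτ]; field_simp
  have hτ1 : τ ≤ 1 := by nlinarith
  rw [A_Ex_sum τ S L (fun j T => (A_phi (T ∩ A j).card : ℝ)), Finset.sum_mul, Finset.sum_div]
  apply Finset.sum_le_sum
  intro j hj
  rw [A_Ex_inter τ (A j) S (hA j hj) (fun U => (A_phi U.card : ℝ)), A_Ex_phi]
  have h1 : (1 - τ) ^ ((A j).card - 1) ≤ (1 - τ) ^ (M - 1) := by
    apply pow_le_pow_of_le_one (by linarith) (by linarith)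
    have := hsize j hj
    omega
  have hcast : ((M - 1 : ℕ) : ℝ) = (M : ℝ) - 1 := by
    rw [Nat.cast_sub (by omega)]; simp
  have h2 := Ex3_bern τ hτ0.le hτ1 (M - 1) (by rw [hcast]; nlinarith)
  rw [hcast] at h2
  have h3 : (1:ℝ) / 4096 ≤ 1 - (1 - τ) ^ ((A j).card - 1) := by
    have : ((M:ℝ) - 1) * τ / 2 = ((M:ℝ) * τ - τ) / 2 := by ring
    have h4 : τ ≤ 1 / 2048 := by nlinarith
    rw [this, hMτ] at h2
    linarith
  have h5 : 0 ≤ ((A j).card : ℝ) * τ := by positivity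
  calc ((A j).card : ℝ) * τ / 4096 = ((A j).card : ℝ) * τ * (1 / 4096) := by ring
    _ ≤ _ := mul_le_mul_of_nonneg_left h3 h5

theorem A_Ex_fam_tail {α β : Type} (M : ℕ) (hM : 2 ≤ M) (τ : ℝ) (hτ : τ = 1 / (1024 * M)) (S : Finset α)
    (L : Finset β) (A : β → Finset α) (hA : ∀ j ∈ L, A j ⊆ S)
    (hd : ∀ j ∈ L, ∀ j' ∈ L, j ≠ j' → Disjoint (A j) (A j')) (hsize : ∀ j ∈ L, M ≤ (A j).card)
    (h : ℝ) (hh : 0 < h) (hmass : h ≤ ∑ j ∈ L, ((A j).card : ℝ)) :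
    A_Ex τ S (fun T => if (∑ j ∈ L, (A_phi (T ∩ A j).card : ℝ)) < h * τ / 8192 then 1 else 0) ≤
      2 ^ 38 * M / h := by
  have hM0 : (2:ℝ) ≤ (M:ℝ) := by exact_mod_cast hM
  have hM1 : (0:ℝ) < (M:ℝ) := by linarith
  have hτ0 : 0 < τ := by rw [hτ]; positivity
  have hMτ : (M:ℝ) * τ = 1 / 1024 := by
    rw [hτ]; field_simp
  have hτ1 : τ ≤ 1 := by nlinarith
  have hmean := A_Ex_fam_mean M hM τ hτ S L A hA hsize
  have hvar := A_Ex_fam_var τ hτ0.le hτ1 S L A hA hd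
  generalize hEY : A_Ex τ S (fun T => ∑ j ∈ L, (A_phi (T ∩ A j).card : ℝ)) = EY at hmean hvar
  generalize hh' : ∑ j ∈ L, ((A j).card : ℝ) = h' at hmean hvar hmass
  have hh'0 : 0 < h' := lt_of_lt_of_le hh hmass
  have hc : 0 < h' * τ / 8192 := by positivity
  have key : A_Ex τ S (fun T => if (∑ j ∈ L, (A_phi (T ∩ A j).card : ℝ)) < h * τ / 8192 then 1 else 0) ≤
      A_Ex τ S (fun T => (1 / (h' * τ / 8192) ^ 2) * ((∑ j ∈ L, (A_phi (T ∩ A j).card : ℝ)) - EY) ^ 2) := by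
    apply A_Ex_mono τ hτ0.le hτ1
    intro T _
    split_ifs with hlt
    · have h1 : h * τ ≤ h' * τ := mul_le_mul_of_nonneg_right hmass hτ0.le
      have h2 : h' * τ / 8192 ≤ EY - (∑ j ∈ L, (A_phi (T ∩ A j).card : ℝ)) := by linarith
      have h3 : (h' * τ / 8192) ^ 2 ≤ (EY - (∑ j ∈ L, (A_phi (T ∩ A j).card : ℝ))) ^ 2 :=
        pow_le_pow_left₀ hc.le h2 2
      have h4 : ((∑ j ∈ L, (A_phi (T ∩ A j).card : ℝ)) - EY) ^ 2 = (EY - (∑ j ∈ L, (A_phi (T ∩ A j).card : ℝ))) ^ 2 := by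
        ring
      rw [h4, one_div, inv_mul_eq_div, one_le_div (by positivity)]
      exact h3
    · positivity
  refine le_trans key ?_
  rw [A_Ex_mul]
  refine le_trans (mul_le_mul_of_nonneg_left hvar (by positivity)) ?_
  have e1 : 1 / (h' * τ / 8192) ^ 2 * (4 * τ * h') = 2 ^ 28 / (h' * τ) := by
    field_simp
    norm_num
  have e2 : (2:ℝ) ^ 28 / (h' * τ) = 2 ^ 38 * M / h' := by
    have : (2:ℝ) ^ 38 * M / h' = 2 ^ 38 * (M * τ) / (h' * τ) := by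
      field_simp
    rw [this, hMτ]
    norm_num
  rw [e1, e2]
  apply div_le_div_of_nonneg_left (by positivity) hh hmass

end Crest.Agent.RY
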