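/-
TASK RY_A_Ex4a (medium).  Existence of a good sample.  `n = |S|`, `τ = 1/(1024 M)`.
`P(|T| > 2τn) ≤ 1/(τ n) = 1024 M/n` (Chebyshev, `A_Ex_card_var`).  For every `z ∈ Z`: `P(Y_z < (n/2) τ/8192) ≤ 2^39 M/n`
(`A_Ex_fam_tail` with `h = n/2`).  So the mean of
`1_{|T| > 2τn} + #{z ∈ Z : Y_z < nτ/16384}/(γ |Z|)` is at most `1024 M/n + 2^39 M/(γ n) < 1` (if `Z` is nonempty); take `T` with value `< 1`
(`A_Ex_exists`): `|T| ≤ 2τn = n/(512 M)` and fewer than `γ|Z|` bad `z`.  For a good `z`: `|T| ≤ 2τn ≤ 32768 Y_z` and `Y_z > 0`.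
-/
import Crest.Agent.RY_A_Ex3

set_option autoImplicit false

namespace Crest.Agent.RY
open Finset Classical

theorem A_Ex_sample {α β ζ : Type} (S : Finset α) (Z : Finset ζ) (M : ℕ) (hM : 2 ≤ M) (L : ζ → Finset β)
    (A : ζ → β → Finset α) (hA : ∀ z ∈ Z, ∀ j ∈ L z, A z j ⊆ S)
    (hd : ∀ z ∈ Z, ∀ j ∈ L z, ∀ j' ∈ L z, j ≠ j' → Disjoint (A z j) (A z j'))
    (hsize : ∀ z ∈ Z, ∀ j ∈ L z, M ≤ (A z j).card)
    (hmass : ∀ z ∈ Z, S.card ≤ 2 * ∑ j ∈ L z, (A z j).card)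
    (γ : ℝ) (hγ : 0 < γ) (hγ1 : γ ≤ 1) (hn : 2 ^ 41 * (M : ℝ) ≤ γ * S.card) :
    ∃ T, T ⊆ S ∧ T.card * (512 * M) ≤ S.card ∧
      ((Z.filter (fun z => ¬ (0 < ∑ j ∈ L z, A_phi (T ∩ A z j).card ∧
        T.card ≤ 32768 * ∑ j ∈ L z, A_phi (T ∩ A z j).card))).card : ℝ) ≤ γ * Z.card := by
  have hM0 : (0 : ℝ) < M := by
    have : 0 < M := by omega
    exact_mod_cast this
  set n : ℝ := (S.card : ℝ) with hn_def
  have hnγ : n * γ ≤ n := by
    have : 0 ≤ n := by positivity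
    nlinarith
  have hn0 : 0 < n := by
    have h1 : 0 < γ * n := lt_of_lt_of_le (by positivity) hn
    exact (pos_iff_pos_of_mul_pos h1).mp hγ
  set τ : ℝ := 1 / (1024 * M) with hτ
  have hτ0 : 0 < τ := by positivity
  have hτ1 : τ ≤ 1 := by
    rw [hτ, div_le_one (by positivity)]
    have : (2 : ℝ) ≤ M := by exact_mod_cast hM
    linarith
  rcases Z.eq_empty_or_nonempty with rfl | hZ
  · exact ⟨∅, Finset.empty_subset _, by simp, by simp⟩
  have hZ0 : (0 : ℝ) < Z.card := by exact_mod_cast Finset.card_pos.mpr hZ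
  -- the two indicator functions
  set f1 : Finset α → ℝ := fun T => if 2 * τ * n < (T.card : ℝ) then 1 else 0 with hf1
  set g : ζ → Finset α → ℝ := fun z T =>
    if (∑ j ∈ L z, (A_phi (T ∩ A z j).card : ℝ)) < (n / 2) * τ / 8192 then 1 else 0 with hg
  have hE1 : A_Ex τ S f1 ≤ 1 / (τ * n) := by
    have h1 : A_Ex τ S f1 ≤ A_Ex τ S (fun T => (1 / (τ * n) ^ 2) * ((T.card : ℝ) - τ * S.card) ^ 2) := by
      refine A_Ex_mono τ hτ0.le hτ1 S _ _ fun T _ => ?_
      simp only [hf1]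
      split_ifs with hT
      · rw [one_div, inv_mul_eq_div, le_div_iff₀ (by positivity), one_mul]
        rw [← hn_def]
        have : τ * n ≤ (T.card : ℝ) - τ * n := by linarith
        exact pow_le_pow_left₀ (by positivity) this 2
      · positivity
    rw [A_Ex_mul] at h1
    refine h1.trans ?_
    have h2 := A_Ex_card_var τ hτ0.le hτ1 S
    rw [← hn_def] at h2 ⊢
    calc 1 / (τ * n) ^ 2 * A_Ex τ S (fun T => ((T.card : ℝ) - τ * n) ^ 2)
        ≤ 1 / (τ * n) ^ 2 * (τ * n) := by gcongr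
      _ = 1 / (τ * n) := by field_simp
  have hE2 : ∀ z ∈ Z, A_Ex τ S (g z) ≤ 2 ^ 38 * M / (n / 2) := by
    intro z hz
    refine A_Ex_fam_tail M hM τ hτ S (L z) (A z) (hA z hz) (hd z hz) (hsize z hz) (n / 2)
      (by positivity) ?_
    have h3 := hmass z hz
    have h4 : n ≤ 2 * ∑ j ∈ L z, ((A z j).card : ℝ) := by
      rw [hn_def]
      exact_mod_cast h3
    linarith
  have hsum : A_Ex τ S (fun T => f1 T + (1 / (γ * Z.card)) * ∑ z ∈ Z, g z T) < 1 := by
    rw [A_Ex_add, A_Ex_mul, A_Ex_sum]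
    have h5 : ∑ z ∈ Z, A_Ex τ S (g z) ≤ Z.card * (2 ^ 38 * M / (n / 2)) := by
      calc _ ≤ ∑ z ∈ Z, (2 ^ 38 * M / (n / 2)) := Finset.sum_le_sum hE2
        _ = _ := by rw [Finset.sum_const, nsmul_eq_mul]
    have h6 : (1 / (γ * Z.card)) * ∑ z ∈ Z, A_Ex τ S (g z) ≤ 1 / 4 := by
      calc _ ≤ (1 / (γ * Z.card)) * (Z.card * (2 ^ 38 * M / (n / 2))) := by gcongr
        _ = 2 ^ 39 * M / (γ * n) := by field_simp
        _ ≤ 1 / 4 := by
            rw [div_le_div_iff₀ (by positivity) (by norm_num)]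
            linarith
    have h7 : 1 / (τ * n) ≤ 1 / 4 := by
      have h8 : 1 / (τ * n) = 1024 * M / n := by rw [hτ]; field_simp
      rw [h8, div_le_div_iff₀ hn0 (by norm_num)]
      linarith
    linarith
  obtain ⟨T, hTS, hT⟩ := A_Ex_exists τ hτ0.le hτ1 S _ hsum
  have hg0 : ∀ z, 0 ≤ g z T := by
    intro z
    simp only [hg]
    split_ifs <;> norm_num
  have hsum0 : 0 ≤ (1 / (γ * Z.card)) * ∑ z ∈ Z, g z T :=
    mul_nonneg (by positivity) (Finset.sum_nonneg fun z _ => hg0 z)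
  have hT1 : (T.card : ℝ) ≤ 2 * τ * n := by
    by_contra hcon
    push Not at hcon
    have : f1 T = 1 := by simp only [hf1]; rw [if_pos hcon]
    have hT' : f1 T + (1 / (γ * Z.card)) * ∑ z ∈ Z, g z T < 1 := hT
    linarith
  have hf10 : 0 ≤ f1 T := by
    simp only [hf1]
    split_ifs <;> norm_num
  have hbad : ((Z.filter (fun z => (∑ j ∈ L z, (A_phi (T ∩ A z j).card : ℝ)) <
      (n / 2) * τ / 8192)).card : ℝ) ≤ γ * Z.card := by
    have h9 : ∑ z ∈ Z, g z T = ((Z.filter (fun z => (∑ j ∈ L z, (A_phi (T ∩ A z j).card : ℝ)) <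
      (n / 2) * τ / 8192)).card : ℝ) := by
      simp only [hg]
      rw [Finset.sum_boole]
    have h10 : (1 / (γ * Z.card)) * ∑ z ∈ Z, g z T < 1 := by
      have hT' : f1 T + (1 / (γ * Z.card)) * ∑ z ∈ Z, g z T < 1 := hT
      linarith
    rw [h9, one_div, inv_mul_eq_div, div_lt_one (by positivity)] at h10
    exact h10.le
  refine ⟨T, hTS, ?_, ?_⟩
  · have h11 : (T.card : ℝ) * (512 * M) ≤ n := by
      calc (T.card : ℝ) * (512 * M) ≤ 2 * τ * n * (512 * M) := by gcongr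
        _ = n := by rw [hτ]; field_simp; norm_num
    rw [hn_def] at h11
    exact_mod_cast h11
  · refine le_trans ?_ hbad
    have h12 : (Z.filter (fun z => ¬ (0 < ∑ j ∈ L z, A_phi (T ∩ A z j).card ∧
        T.card ≤ 32768 * ∑ j ∈ L z, A_phi (T ∩ A z j).card))).card ≤
        (Z.filter (fun z => (∑ j ∈ L z, (A_phi (T ∩ A z j).card : ℝ)) <
          (n / 2) * τ / 8192)).card := by
      refine Finset.card_le_card ?_
      intro z hz
      rw [Finset.mem_filter] at hz ⊢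
      refine ⟨hz.1, ?_⟩
      by_contra hcon
      push Not at hcon
      apply hz.2
      set Y : ℕ := ∑ j ∈ L z, A_phi (T ∩ A z j).card with hY
      have hYr : (∑ j ∈ L z, (A_phi (T ∩ A z j).card : ℝ)) = (Y : ℝ) := by
        rw [hY]; push_cast; rfl
      rw [hYr] at hcon
      have hpos : (0 : ℝ) < n / 2 * τ / 8192 := by positivity
      refine ⟨?_, ?_⟩
      · have : (0 : ℝ) < Y := lt_of_lt_of_le hpos hcon
        exact_mod_cast this
      · have h13 : (T.card : ℝ) ≤ 32768 * Y := by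
          calc (T.card : ℝ) ≤ 2 * τ * n := hT1
            _ = 32768 * (n / 2 * τ / 8192) := by ring
            _ ≤ 32768 * Y := by gcongr
        exact_mod_cast h13
    exact_mod_cast h12

end Crest.Agent.RY
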