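/-
TASK RY_A_Plane1 (easy).  Counting facts of the plane: `F × F` has `q^2` elements; the lines through `(none, m)` are
`(m, c)`, the lines through `(some x, h)` are `(m, h - m x)`; two points in different parts are on exactly one line; two
different lines agree in exactly one part (slopes equal: part `none`; otherwise `x = (c'-c)/(m-m')`).
-/
import Crest.Agent.RY_A_Defs

set_option autoImplicit false

namespace Crest.Agent.RY
open Finset Classical

variable {F : Type} [Field F] [Fintype F] [DecidableEq F]

theorem A_card_Ln : Fintype.card (Ln F) = Fintype.card F ^ 2 := by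
  rw [Fintype.card_prod, sq]

theorem A_card_Pt : Fintype.card (Pt F) = Fintype.card F * (Fintype.card F + 1) := by
  rw [Fintype.card_prod, Fintype.card_option, mul_comm]

theorem A_card_thru (p : Pt F) : (A_thru p).card = Fintype.card F := by
  obtain ⟨i, h⟩ := p
  cases i with
  | none =>
    have e : A_thru ((none, h) : Pt F) = univ.image (fun c : F => ((h, c) : Ln F)) := by
      ext l
      simp only [A_thru, mem_filter, mem_univ, true_and, mem_image, on, val]
      constructor
      · intro hl
        exact ⟨l.2, by rw [hl]⟩
      · rintro ⟨c, rfl⟩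
        rfl
    rw [e, card_image_of_injective _ (by
      intro a b hab
      exact congrArg Prod.snd hab), card_univ]
  | some x =>
    have e : A_thru ((some x, h) : Pt F) = univ.image (fun m : F => ((m, h - m * x) : Ln F)) := by
      ext l
      simp only [A_thru, mem_filter, mem_univ, true_and, mem_image, on, val]
      constructor
      · intro hl
        refine ⟨l.1, ?_⟩
        rw [hl]
        ext <;> simp
      · rintro ⟨m, rfl⟩
        simp
    rw [e, card_image_of_injective _ (by
      intro a b hab
      exact congrArg Prod.fst hab), card_univ]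

private theorem A_join_none {h : F} {x h' : F} :
    ∃! l : Ln F, on ((none, h) : Pt F) l ∧ on ((some x, h') : Pt F) l := by
  refine ⟨(h, h' - h * x), ⟨rfl, ?_⟩, ?_⟩
  · simp [on, val]
  · rintro ⟨m, c⟩ ⟨h1, h2⟩
    simp only [on, val] at h1 h2
    subst h1
    ext
    · rfl
    · simp [h2]

theorem A_join {p p' : Pt F} (h : p.1 ≠ p'.1) : ∃! l : Ln F, on p l ∧ on p' l := by
  obtain ⟨i, a⟩ := p
  obtain ⟨j, b⟩ := p'
  cases i with
  | none =>
    cases j with
    | none => exact absurd rfl h
    | some x => exact A_join_none
  | some x =>
    cases j with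
    | none =>
      obtain ⟨l, hl, hu⟩ := A_join_none (h := b) (x := x) (h' := a)
      exact ⟨l, ⟨hl.2, hl.1⟩, fun l' hl' => hu l' ⟨hl'.2, hl'.1⟩⟩
    | some y =>
      have hxy : x - y ≠ 0 := sub_ne_zero.2 fun e => h (by simp [e])
      refine ⟨((a - b) / (x - y), a - (a - b) / (x - y) * x), ⟨?_, ?_⟩, ?_⟩
      · simp [on, val]
      · simp only [on, val]
        field_simp
        ring
      · rintro ⟨m, c⟩ ⟨h1, h2⟩
        simp only [on, val] at h1 h2
        have hm : m = (a - b) / (x - y) := by
          rw [eq_div_iff hxy, h1, h2]
          ring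
        ext
        · exact hm
        · show c = a - (a - b) / (x - y) * x
          rw [← hm, h1]
          ring

/-- no line contains two different points of a part -/
theorem A_same_part {p p' : Pt F} {l : Ln F} (h : p.1 = p'.1) (hp : on p l) (hp' : on p' l) : p = p' := by
  have e : p.2 = p'.2 := by
    rw [show p.2 = val l p.1 from hp, show p'.2 = val l p'.1 from hp', h]
  exact Prod.ext h e

theorem A_meet {l l' : Ln F} (h : l ≠ l') : ∃! p : Pt F, on p l ∧ on p l' := by
  obtain ⟨m, c⟩ := l
  obtain ⟨m', c'⟩ := l'
  by_cases hm : m = m'
  · subst hm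
    have hc : c ≠ c' := fun e => h (by rw [e])
    refine ⟨(none, m), ⟨rfl, rfl⟩, ?_⟩
    rintro ⟨i, a⟩ ⟨h1, h2⟩
    cases i with
    | none =>
      simp only [on, val] at h1
      rw [h1]
    | some x =>
      simp only [on, val] at h1 h2
      exact absurd (by rw [h1] at h2; exact add_left_cancel h2) hc
  · have hmm : m - m' ≠ 0 := sub_ne_zero.2 hm
    refine ⟨(some ((c' - c) / (m - m')), m * ((c' - c) / (m - m')) + c), ⟨rfl, ?_⟩, ?_⟩
    · simp only [on, val]
      field_simp
      ring
    · rintro ⟨i, a⟩ ⟨h1, h2⟩
      cases i with
      | none =>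
        simp only [on, val] at h1 h2
        exact absurd (h1.symm.trans h2) hm
      | some x =>
        simp only [on, val] at h1 h2
        have hx : x = (c' - c) / (m - m') := by
          rw [eq_div_iff hmm]
          linear_combination h2 - h1
        rw [← hx, h1]

/-- a line has `q+1` points -/
theorem A_card_line (l : Ln F) : (univ.filter (fun p : Pt F => on p l)).card = Fintype.card F + 1 := by
  have e : univ.filter (fun p : Pt F => on p l) =
      univ.image (fun i : Option F => ((i, val l i) : Pt F)) := by
    ext p
    simp only [mem_filter, mem_univ, true_and, mem_image, on]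
    constructor
    · intro hp
      exact ⟨p.1, by rw [← hp]⟩
    · rintro ⟨i, rfl⟩
      rfl
  rw [e, card_image_of_injective _ (by
    intro a b hab
    exact congrArg Prod.fst hab), card_univ, Fintype.card_option]

theorem A_sum_onL (S : Finset (Pt F)) : ∑ l : Ln F, (onL S l).card = Fintype.card F * S.card := by
  have e : ∀ l : Ln F, (onL S l).card = ∑ p ∈ S, if on p l then 1 else 0 := by
    intro l
    rw [onL, card_filter]
  rw [sum_congr rfl fun l _ => e l, sum_comm]
  have e2 : ∀ p ∈ S, (∑ l : Ln F, if on p l then 1 else 0) = Fintype.card F := by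
    intro p _
    rw [← card_filter]
    exact A_card_thru p
  rw [sum_congr rfl e2, sum_const, smul_eq_mul, mul_comm]

end Crest.Agent.RY
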