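/-
TASK RY_A_Ex4 (easy).  `A_sample`: apply `A_Ex_sample` to the sets `onL (S.erase z) l`, `l` a heavy line through `z` (disjoint: two
lines through `z` have no other common point, `A_meet`), `T ∩ onL (S.erase z) l ⊆ onL T l`, so `Y_z ≤ A_G T z`.
-/
import Crest.Agent.RY_A_Ex4a
import Crest.Agent.RY_A_Plane1

set_option autoImplicit false

namespace Crest.Agent.RY
open Finset Classical

variable {F : Type} [Field F] [Fintype F] [DecidableEq F]

private theorem Ex4_phi_le {a b : ℕ} (h : a ≤ b) : A_phi a ≤ if 2 ≤ b then b else 0 := by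
  unfold A_phi
  split_ifs <;> omega

private theorem Ex4_Y_le (S T : Finset (Pt F)) (M : ℕ) (z : Pt F) :
    ∑ l ∈ (A_thru z).filter (fun l => M ≤ (onL (S.erase z) l).card),
      A_phi (T ∩ onL (S.erase z) l).card ≤ A_G T z := by
  unfold A_G
  rw [sum_filter (fun l => 2 ≤ (onL T l).card)]
  calc ∑ l ∈ (A_thru z).filter (fun l => M ≤ (onL (S.erase z) l).card),
        A_phi (T ∩ onL (S.erase z) l).card
      ≤ ∑ l ∈ (A_thru z).filter (fun l => M ≤ (onL (S.erase z) l).card),
        (if 2 ≤ (onL T l).card then (onL T l).card else 0) := by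
        refine sum_le_sum fun l _ => Ex4_phi_le (card_le_card ?_)
        intro p hp
        rw [mem_inter] at hp
        obtain ⟨h1, h2⟩ := hp
        unfold onL at h2 ⊢
        rw [mem_filter] at h2 ⊢
        exact ⟨h1, h2.2⟩
    _ ≤ _ := sum_le_sum_of_subset (filter_subset _ _)

theorem A_sample (S : Finset (Pt F)) (hS : S.card = Fintype.card F) (M : ℕ) (hM : 2 ≤ M) (Z : Finset (Pt F))
    (hZ : ∀ z ∈ Z, Fintype.card F ≤ 2 * A_heavy S M z) (γ : ℝ) (hγ : 0 < γ) (hγ1 : γ ≤ 1)
    (hq : 2 ^ 41 * (M : ℝ) ≤ γ * Fintype.card F) :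
    ∃ T, T ⊆ S ∧ T.card * (512 * M) ≤ Fintype.card F ∧
      ((Z.filter (fun z => z ∉ A_W T)).card : ℝ) ≤ γ * Z.card := by
  obtain ⟨T, hTS, hT, hbad⟩ := A_Ex_sample (β := Ln F) S Z M hM
    (fun z => (A_thru z).filter (fun l => M ≤ (onL (S.erase z) l).card))
    (fun z l => onL (S.erase z) l)
    (fun z _ l _ p hp => mem_of_mem_erase (mem_filter.1 hp).1)
    (by
      intro z _ l hl l' hl' hne
      rw [Finset.disjoint_left]
      intro p hp hp'
      have hzl : on z l := (mem_filter.1 (mem_filter.1 hl).1).2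
      have hzl' : on z l' := (mem_filter.1 (mem_filter.1 hl').1).2
      have hpl : on p l := (mem_filter.1 hp).2
      have hpl' : on p l' := (mem_filter.1 hp').2
      have hpz : p ≠ z := ne_of_mem_erase (mem_filter.1 hp).1
      exact hpz ((A_meet hne).unique ⟨hpl, hpl'⟩ ⟨hzl, hzl'⟩))
    (fun z _ l hl => (mem_filter.1 hl).2)
    (by
      intro z hz
      rw [hS]
      exact hZ z hz)
    γ hγ hγ1 (by rw [hS]; exact hq)
  refine ⟨T, hTS, by rw [hS] at hT; exact hT, ?_⟩
  refine le_trans ?_ hbad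
  rw [Nat.cast_le]
  refine card_le_card ?_
  intro z hz
  rw [mem_filter] at hz ⊢
  refine ⟨hz.1, ?_⟩
  rintro ⟨h1, h2⟩
  apply hz.2
  have hY := Ex4_Y_le S T M z
  have key : ∀ x : ℕ, x ≤ A_G T z → 0 < x → T.card ≤ 32768 * x → z ∈ A_W T := by
    intro x hx h0 h3
    unfold A_W
    rw [mem_filter]
    exact ⟨mem_univ _, lt_of_lt_of_le h0 hx, h3.trans (Nat.mul_le_mul_left _ hx)⟩
  refine key _ ?_ h1 h2
  convert hY

end Crest.Agent.RY
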