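/-
TASK RY_A_Case1 (easy/medium).  `δ = #(F0 S)`, `X = A_X S`.  Put `M = ⌊q^2/(8δ)⌋`: `M ≥ 256` (`2048 δ ≤ q^2`), `8Mδ ≤ q^2`,
`16 δ M ≥ q^2` and `M ≤ q^2/(8δ) < √q/2`, so `2^41 M ≤ q/2` for `q ≥ 2^100`.  `A_sample` with `Z = X` (`A_heavy_ge`), `γ = 1/2` gives `T` with
`512 M |T| ≤ q`, `|X \ W T| ≤ |X|/2`.  `m = |X ∩ W T| ≥ |X|/2 ≥ δ/(4q)`.  Then `8|T| ≤ q/(64M) ≤ δ/(4q) ≤ m`;
`65536|T| ≤ 128 q/M ≤ q`;  `256 m^2 ≥ 16 δ^2/q^2 > q`.
-/
import Crest.Agent.RY_A_Struct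
import Crest.Agent.RY_A_Ex4

set_option autoImplicit false

namespace Crest.Agent.RY
open Finset Classical

variable {F : Type} [Field F] [Fintype F] [DecidableEq F]

theorem A_case1 (S : Finset (Pt F)) (hS : S.card = Fintype.card F)
    (hpart : ∀ i : Option F, 2 * (onP S i).card < Fintype.card F)
    (h1 : Fintype.card F ^ 3 < 16 * (F0 S).card ^ 2) (h2 : 2048 * (F0 S).card ≤ Fintype.card F ^ 2)
    (hX : (F0 S).card ≤ 2 * (Fintype.card F * (A_X S).card)) (hq : 2 ^ 100 ≤ Fintype.card F) :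
    ∃ (T : Finset (Pt F)) (m : ℕ), Fintype.card F ≤ 256 * m ^ 2 ∧ 8 * T.card ≤ m ∧ 65536 * T.card ≤ Fintype.card F ∧
      m ≤ (A_X S ∩ A_W T).card := by
  set q : ℕ := Fintype.card F with hqdef
  set δ : ℕ := (F0 S).card with hδ
  have hqpos : 0 < q := by
    have : 0 < 2 ^ 100 := by norm_num
    omega
  have hδpos : 0 < δ := by
    rcases Nat.eq_zero_or_pos δ with h0 | h0
    · rw [h0] at h1; simp at h1
    · exact h0
  obtain ⟨M, hM⟩ : ∃ M, M = q ^ 2 / (8 * δ) := ⟨_, rfl⟩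
  have hM256 : 256 ≤ M := by
    rw [hM, Nat.le_div_iff_mul_le (by positivity)]
    linarith
  have hMδ : 8 * M * δ ≤ q ^ 2 := by
    have := Nat.div_mul_le_self (q ^ 2) (8 * δ)
    rw [← hM] at this
    linarith
  have hM16 : q ^ 2 ≤ 16 * δ * M := by
    have h3 : q ^ 2 < (M + 1) * (8 * δ) := by
      rw [hM]
      have := Nat.lt_div_mul_add (a := q ^ 2) (b := 8 * δ) (by positivity)
      linarith
    nlinarith
  have hM4 : 4 * M ^ 2 < q := by
    have h3 : (8 * M * δ) ^ 2 ≤ (q ^ 2) ^ 2 := Nat.pow_le_pow_left hMδ 2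
    have h4 : 4 * M ^ 2 * q ^ 3 < 4 * M ^ 2 * (16 * δ ^ 2) := by
      apply Nat.mul_lt_mul_of_pos_left h1 (by positivity)
    have h5 : 4 * M ^ 2 * q ^ 3 < q * q ^ 3 := by
      calc 4 * M ^ 2 * q ^ 3 < 4 * M ^ 2 * (16 * δ ^ 2) := h4
        _ = (8 * M * δ) ^ 2 := by ring
        _ ≤ (q ^ 2) ^ 2 := h3
        _ = q * q ^ 3 := by ring
    exact Nat.lt_of_mul_lt_mul_right h5
  have hMq : 2 ^ 42 * M ≤ q := by
    have h3 : (2 ^ 42 * M) ^ 2 ≤ q ^ 2 := by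
      calc (2 ^ 42 * M) ^ 2 = 2 ^ 82 * (4 * M ^ 2) := by ring
        _ ≤ 2 ^ 100 * q := by
          apply Nat.mul_le_mul _ hM4.le
          norm_num
        _ ≤ q * q := Nat.mul_le_mul_right q hq
        _ = q ^ 2 := by ring
    exact (Nat.pow_le_pow_iff_left (by norm_num)).mp h3
  have hheavy : ∀ z ∈ A_X S, Fintype.card F ≤ 2 * A_heavy S M z := fun z hz =>
    A_heavy_ge S hS hpart M (by omega) hMδ z (Or.inl hz)
  have hMq' : 2 ^ 41 * (M : ℝ) ≤ (1 / 2 : ℝ) * (Fintype.card F : ℝ) := by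
    have : (2 ^ 42 * (M : ℝ)) ≤ (q : ℝ) := by exact_mod_cast hMq
    rw [← hqdef]
    linarith
  obtain ⟨T, -, hT1, hT2⟩ := A_sample S hS M (by omega) (A_X S) hheavy (1 / 2) (by norm_num) (by norm_num) hMq'
  refine ⟨T, (A_X S ∩ A_W T).card, ?_, ?_, ?_, le_refl _⟩
  all_goals
    set m : ℕ := (A_X S ∩ A_W T).card with hm
    have hsplit : (A_X S).card = m + ((A_X S).filter (fun z => z ∉ A_W T)).card := by
      rw [hm, ← Finset.filter_mem_eq_inter]
      exact (Finset.card_filter_add_card_filter_not (s := A_X S) (fun z => z ∈ A_W T)).symm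
    have h2m : (A_X S).card ≤ 2 * m := by
      have h3 : ((A_X S).card : ℝ) = (m : ℝ) + (((A_X S).filter (fun z => z ∉ A_W T)).card : ℝ) := by
        exact_mod_cast hsplit
      have h4 : ((A_X S).card : ℝ) ≤ 2 * (m : ℝ) := by linarith
      exact_mod_cast h4
    have hδm : δ ≤ 4 * q * m := by
      calc δ ≤ 2 * (q * (A_X S).card) := hX
        _ ≤ 2 * (q * (2 * m)) := by gcongr
        _ = 4 * q * m := by ring
  · have h5 : δ ^ 2 ≤ (4 * q * m) ^ 2 := Nat.pow_le_pow_left hδm 2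
    have h6 : q * q ^ 2 ≤ 256 * m ^ 2 * q ^ 2 := by nlinarith
    exact Nat.le_of_mul_le_mul_right h6 (by positivity)
  · have h5 : 8 * T.card * (4 * q ^ 2) ≤ q * δ := by
      calc 8 * T.card * (4 * q ^ 2) ≤ 8 * T.card * (4 * (16 * δ * M)) := by gcongr
        _ = T.card * (512 * M) * δ := by ring
        _ ≤ q * δ := by gcongr
    have h6 : 8 * T.card * (4 * q ^ 2) ≤ m * (4 * q ^ 2) := by
      calc 8 * T.card * (4 * q ^ 2) ≤ q * δ := h5
        _ ≤ q * (4 * q * m) := by gcongr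
        _ = m * (4 * q ^ 2) := by ring
    exact Nat.le_of_mul_le_mul_right h6 (by positivity)
  · calc 65536 * T.card ≤ T.card * (512 * 256) := by omega
      _ ≤ T.card * (512 * M) := by gcongr
      _ ≤ q := hT1

end Crest.Agent.RY
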