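/-
TASK RY_A_Prob1b (easy).  Union bound for `Pr`; number of subsets with at most `k` elements (e.g. surjection from
`Fin k → Option α`, or induction).
-/
import Crest.Agent.RY_A_Defs

set_option autoImplicit false

namespace Crest.Agent.RY
open Finset Classical

theorem A_Pr_biUnion {α β : Type} [Fintype α] (s : Finset β) (p : β → α → Prop) :
    Pr (fun a => ∃ i ∈ s, p i a) ≤ ∑ i ∈ s, Pr (p i) := by
  induction s using Finset.induction_on with
  | empty =>
    simp only [Finset.notMem_empty, false_and, exists_false, Finset.sum_empty]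
    unfold Pr
    simp
  | insert b s hb ih =>
    rw [Finset.sum_insert hb]
    refine le_trans (le_trans (Pr_mono (r := fun a => p b a ∨ ∃ i ∈ s, p i a) ?_) (Pr_or _ _)) ?_
    · rintro a ⟨i, hi, hp⟩
      rcases Finset.mem_insert.1 hi with rfl | h
      · exact Or.inl hp
      · exact Or.inr ⟨i, h, hp⟩
    · linarith

theorem A_count_small {α : Type} [Fintype α] (k : ℕ) :
    (univ.filter (fun T : Finset α => T.card ≤ k)).card ≤ (Fintype.card α + 1) ^ k := by
  have hsub : (univ.filter (fun T : Finset α => T.card ≤ k)) ⊆
      (univ : Finset (Fin k → Option α)).image (fun f => univ.filter (fun a => ∃ i, f i = some a)) := by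
    intro T hT
    simp only [Finset.mem_filter, Finset.mem_univ, true_and] at hT
    rw [Finset.mem_image]
    refine ⟨fun i => if h : i.1 < T.card then some (T.equivFin.symm ⟨i.1, h⟩).1 else none, Finset.mem_univ _, ?_⟩
    ext a
    simp only [Finset.mem_filter, Finset.mem_univ, true_and]
    constructor
    · rintro ⟨i, hi⟩
      by_cases h : i.1 < T.card
      · rw [dif_pos h] at hi
        have h2 := Option.some.inj hi
        rw [← h2]
        exact (T.equivFin.symm ⟨i.1, h⟩).2
      · rw [dif_neg h] at hi
        exact absurd hi (by simp)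
    · intro ha
      have h1 : (T.equivFin ⟨a, ha⟩).1 < T.card := (T.equivFin ⟨a, ha⟩).2
      refine ⟨⟨(T.equivFin ⟨a, ha⟩).1, lt_of_lt_of_le h1 hT⟩, ?_⟩
      rw [dif_pos h1]
      simp
  refine le_trans (Finset.card_le_card hsub) (le_trans Finset.card_image_le ?_)
  rw [Finset.card_univ, Fintype.card_fun, Fintype.card_option, Fintype.card_fin]

end Crest.Agent.RY
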