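/-
TASK RY_A_Count1a (easy/medium).  `S ↦ (T, S ∩ W T, S \ W T)` is injective; `T`, `S \ W T` are sets of at most `a`, `b` elements
(`A_count_small`), `S ∩ W T` is a subset of `W T` (`2^w` possibilities for given `T`).
-/
import Crest.Agent.RY_A_Prob1b

set_option autoImplicit false

namespace Crest.Agent.RY
open Finset Classical

theorem A_count_codes {α : Type} [Fintype α] (G : Finset (Finset α)) (W : Finset α → Finset α) (a b w : ℕ)
    (h : ∀ S ∈ G, ∃ T : Finset α, T.card ≤ a ∧ (W T).card ≤ w ∧ (S \ W T).card ≤ b) :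
    G.card ≤ (Fintype.card α + 1) ^ a * 2 ^ w * (Fintype.card α + 1) ^ b := by
  choose! f hf using h
  let A : Finset (Finset α) := univ.filter (fun T : Finset α => T.card ≤ a ∧ (W T).card ≤ w)
  let B : Finset (Finset α) := univ.filter (fun T : Finset α => T.card ≤ b)
  have h1 : G.card ≤ (A.sigma (fun T => (W T).powerset ×ˢ B)).card := by
    apply card_le_card_of_injOn (fun S => (⟨f S, (S ∩ W (f S), S \ W (f S))⟩ :
      Σ _ : Finset α, Finset α × Finset α))
    · intro S hS
      have hS' := hf S (Finset.mem_coe.mp hS)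
      apply Finset.mem_coe.mpr
      rw [mem_sigma, mem_product]
      refine ⟨?_, ?_, ?_⟩
      · exact mem_filter.mpr ⟨mem_univ _, hS'.1, hS'.2.1⟩
      · exact mem_powerset.mpr inter_subset_right
      · exact mem_filter.mpr ⟨mem_univ _, hS'.2.2⟩
    · intro S hS S' hS' hSS
      simp only [Sigma.mk.injEq] at hSS
      obtain ⟨h2, h3⟩ := hSS
      have h4 := eq_of_heq h3
      rw [Prod.mk.injEq] at h4
      have e1 : S = (S ∩ W (f S)) ∪ (S \ W (f S)) := by
        ext z; simp only [mem_union, mem_inter, mem_sdiff]; tauto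
      have e2 : S' = (S' ∩ W (f S')) ∪ (S' \ W (f S')) := by
        ext z; simp only [mem_union, mem_inter, mem_sdiff]; tauto
      rw [e1, e2, h4.1, h4.2]
  refine le_trans h1 ?_
  rw [card_sigma]
  have hA : A.card ≤ (Fintype.card α + 1) ^ a := by
    refine le_trans (card_le_card ?_) (A_count_small a)
    intro T hT
    have := (mem_filter.mp hT).2.1
    exact mem_filter.mpr ⟨mem_univ _, this⟩
  have hB : B.card ≤ (Fintype.card α + 1) ^ b := A_count_small b
  have h2 : ∀ T ∈ A, ((W T).powerset ×ˢ B).card ≤ 2 ^ w * (Fintype.card α + 1) ^ b := by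
    intro T hT
    rw [card_product, card_powerset]
    exact Nat.mul_le_mul (Nat.pow_le_pow_right (by norm_num) (mem_filter.mp hT).2.2) hB
  refine le_trans (sum_le_card_nsmul _ _ _ h2) ?_
  rw [smul_eq_mul, mul_assoc]
  exact Nat.mul_le_mul_right _ hA

end Crest.Agent.RY
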