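/-
TASK RY_A_Count1b (easy/medium).  `A_good_code`: `Z = S \ A_bad S`; `A_heavy_ge`, `A_sample`; `#(A_bad S) q ≤ 4 #(F0 S) ≤ 4 ν q^2`
(`A_bad_card`); `S \ W T ⊆ A_bad S ∪ (Z \ W T)`.
-/
import Crest.Agent.RY_A_Struct
import Crest.Agent.RY_A_Ex4

set_option autoImplicit false

namespace Crest.Agent.RY
open Finset Classical

variable {F : Type} [Field F] [Fintype F] [DecidableEq F]

theorem A_good_code (ν γ : ℝ) (M : ℕ) (hM : 2 ≤ M) (hν : 0 < ν) (hMν : 8 * M * ν ≤ 1) (hγ : 0 < γ) (hγ1 : γ ≤ 1)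
    (hq : 2 ^ 41 * (M : ℝ) ≤ γ * Fintype.card F) (S : Finset (Pt F)) (hS : A_Good ν S) :
    ∃ T, T.card * (512 * M) ≤ Fintype.card F ∧
      ((S \ A_W T).card : ℝ) ≤ (4 * ν + γ) * Fintype.card F := by
  obtain ⟨hS1, hS2, _, hS4⟩ := hS
  set q := Fintype.card F with hqdef
  have hq2 : 2 ≤ q := Fintype.one_lt_card
  have hq0 : (0:ℝ) < (q:ℝ) := by
    have : (2:ℝ) ≤ (q:ℝ) := by exact_mod_cast hq2
    linarith
  have hMδ : 8 * M * (F0 S).card ≤ q ^ 2 := by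
    have h1 : (8 * M * (F0 S).card : ℝ) ≤ (q:ℝ) ^ 2 := by
      calc (8 * M * (F0 S).card : ℝ) ≤ 8 * M * (ν * (q:ℝ) ^ 2) := by gcongr
        _ = (8 * M * ν) * (q:ℝ) ^ 2 := by ring
        _ ≤ 1 * (q:ℝ) ^ 2 := by gcongr
        _ = (q:ℝ) ^ 2 := one_mul _
    exact_mod_cast h1
  have hZ : ∀ z ∈ S \ A_bad S, q ≤ 2 * A_heavy S M z := by
    intro z hz
    rw [Finset.mem_sdiff] at hz
    exact A_heavy_ge S hS1 hS4 M (by omega) hMδ z (Or.inr hz)
  obtain ⟨T, _, hT2, hT3⟩ := A_sample S hS1 M hM (S \ A_bad S) hZ γ hγ hγ1 hq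
  refine ⟨T, hT2, ?_⟩
  have hsub : S \ A_W T ⊆ A_bad S ∪ (S \ A_bad S).filter (fun z => z ∉ A_W T) := by
    intro z hz
    rw [Finset.mem_sdiff] at hz
    by_cases hb : z ∈ A_bad S
    · exact Finset.mem_union_left _ hb
    · refine Finset.mem_union_right _ ?_
      rw [Finset.mem_filter, Finset.mem_sdiff]
      exact ⟨⟨hz.1, hb⟩, hz.2⟩
  have h2 : ((S \ A_W T).card : ℝ) ≤ ((A_bad S).card : ℝ) +
      (((S \ A_bad S).filter (fun z => z ∉ A_W T)).card : ℝ) := by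
    exact_mod_cast (Finset.card_le_card hsub).trans (Finset.card_union_le _ _)
  have h3 : ((A_bad S).card : ℝ) ≤ 4 * ν * q := by
    have h4 : (((A_bad S).card * q : ℕ) : ℝ) ≤ ((4 * (F0 S).card : ℕ) : ℝ) := by
      exact_mod_cast A_bad_card S hS1
    push_cast at h4
    have h5 : ((A_bad S).card : ℝ) * q ≤ (4 * ν * q) * q := by
      calc ((A_bad S).card : ℝ) * q ≤ 4 * ((F0 S).card : ℝ) := h4
        _ ≤ 4 * (ν * (q:ℝ) ^ 2) := by gcongr
        _ = _ := by ring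
    exact le_of_mul_le_mul_right h5 hq0
  have h6 : ((S \ A_bad S).card : ℝ) ≤ q := by
    rw [← hS1]
    exact_mod_cast Finset.card_le_card Finset.sdiff_subset
  have h7 : γ * ((S \ A_bad S).card : ℝ) ≤ γ * q := by gcongr
  linarith

end Crest.Agent.RY
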