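/-
TASK RY_A_Count2 (medium, asymptotics).  For every `c > 0` there is `ν > 0` such that for large `q` at most `q^{cq}` sets are
`A_Good ν`.  Choose `M ≥ 128` with `4/(512 M) ≤ c/4`, `γ = min 1 (c/16)`, `ν = min (1/(8M)) (c/64)...` such that
`8Mν ≤ 1`, `(4ν+γ) * 4 ≤ c/2`.
By `A_good_code`, `A_W_card` (`65536 |T| ≤ 128 q/M ≤ q`), `A_count_codes`:
`#Good ≤ (q^2+q+1)^{q/(512M)} 2^{2^33 q} (q^2+q+1)^{(4ν+γ)q}`, and `q^2+q+1 ≤ q^4`..., `2^{2^33 q} ≤ q^{c q/4}` for `q ≥ 2^{2^35/c}`.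
The claim also holds for every smaller `ν` (monotone).
-/
import Crest.Agent.RY_A_Count

set_option autoImplicit false

namespace Crest.Agent.RY
open Finset Classical

theorem A_Good_mono {F : Type} [Field F] [Fintype F] [DecidableEq F] {ν ν' : ℝ} (h : ν ≤ ν') (S : Finset (Pt F))
    (hS : A_Good ν S) : A_Good ν' S := by
  obtain ⟨h1, h2, h3, h4⟩ := hS
  refine ⟨h1, h2.trans ?_, h3, h4⟩
  gcongr

theorem A_count_good (c : ℝ) (hc : 0 < c) : ∃ ν : ℝ, 0 < ν ∧ ∃ q₀ : ℕ,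
    ∀ (F : Type) [Field F] [Fintype F] [DecidableEq F], q₀ ≤ Fintype.card F →
      ((univ.filter (fun S : Finset (Pt F) => A_Good ν S)).card : ℝ) ≤
        (Fintype.card F : ℝ) ^ (c * Fintype.card F) := by
  obtain ⟨M0, hM0⟩ := exists_nat_ge (1 / (32 * c))
  set M : ℕ := max 128 M0 with hM
  have hM128 : 128 ≤ M := le_max_left _ _
  have hMR : (0 : ℝ) < M := by
    have : 0 < M := by omega
    exact_mod_cast this
  have hMc : 1 / (32 * c) ≤ (M : ℝ) := hM0.trans (by exact_mod_cast le_max_right _ _)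
  set γ : ℝ := min 1 (c / 16) with hγ
  have hγ0 : 0 < γ := lt_min one_pos (by positivity)
  have hγ1 : γ ≤ 1 := min_le_left _ _
  have hγc : γ ≤ c / 16 := min_le_right _ _
  set ν : ℝ := min (1 / (8 * M)) (c / 64) with hν
  have hν0 : 0 < ν := lt_min (by positivity) (by positivity)
  have hνM : 8 * M * ν ≤ 1 := by
    have : ν ≤ 1 / (8 * M) := min_le_left _ _
    calc 8 * M * ν ≤ 8 * M * (1 / (8 * M)) := by gcongr
      _ = 1 := by field_simp
  have hνc : ν ≤ c / 64 := min_le_right _ _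
  refine ⟨ν, hν0, ⌈Real.exp (2 ^ 35 * Real.log 2 / c)⌉₊ + ⌈2 ^ 41 * (M : ℝ) / γ⌉₊ + 2, ?_⟩
  intro F _ _ _ hq
  set q : ℕ := Fintype.card F with hqd
  have hq2 : 2 ≤ q := by omega
  have hQ1 : (1 : ℝ) ≤ q := by exact_mod_cast (by omega : 1 ≤ q)
  have hQ0 : (0 : ℝ) < q := by linarith
  have hexp : Real.exp (2 ^ 35 * Real.log 2 / c) ≤ q := by
    refine (Nat.le_ceil _).trans ?_
    exact_mod_cast (by omega : ⌈Real.exp (2 ^ 35 * Real.log 2 / c)⌉₊ ≤ q)
  have hlog : 2 ^ 35 * Real.log 2 / c ≤ Real.log q := by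
    rw [Real.le_log_iff_exp_le hQ0]; exact hexp
  have hγq : 2 ^ 41 * (M : ℝ) ≤ γ * q := by
    have h1 : 2 ^ 41 * (M : ℝ) / γ ≤ q := by
      refine (Nat.le_ceil _).trans ?_
      exact_mod_cast (by omega : ⌈2 ^ 41 * (M : ℝ) / γ⌉₊ ≤ q)
    rw [div_le_iff₀ hγ0] at h1
    linarith
  set a : ℕ := q / (512 * M) with ha
  set b : ℕ := ⌊(4 * ν + γ) * q⌋₊ with hb
  have hcount := A_count_codes (α := Pt F) (univ.filter (fun S : Finset (Pt F) => A_Good ν S))
    A_W a b (2 ^ 33 * q) (by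
      intro S hS
      have hS' : A_Good ν S := (Finset.mem_filter.mp hS).2
      obtain ⟨T, hT1, hT2⟩ := A_good_code ν γ M (by omega) hν0 hνM hγ0 hγ1 hγq S hS'
      refine ⟨T, ?_, ?_, ?_⟩
      · rw [ha, Nat.le_div_iff_mul_le (by positivity)]
        exact hT1
      · apply A_W_card
        calc 65536 * T.card = T.card * (512 * 128) := by ring
          _ ≤ T.card * (512 * M) := by gcongr
          _ ≤ Fintype.card F := hT1
      · rw [hb]
        refine Nat.le_floor (le_trans (le_of_eq ?_) hT2)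
        congr!)
  have hcard : Fintype.card (Pt F) + 1 ≤ q ^ 4 := by
    have : Fintype.card (Pt F) = (q + 1) * q := by
      rw [Fintype.card_prod, Fintype.card_option]
    rw [this]
    have h4 : 4 ≤ q ^ 2 := by nlinarith
    nlinarith [h4, sq_nonneg (q : ℤ)]
  have hc1 : ((univ.filter (fun S : Finset (Pt F) => A_Good ν S)).card : ℝ) ≤
      ((q : ℝ) ^ 4) ^ a * 2 ^ (2 ^ 33 * q) * ((q : ℝ) ^ 4) ^ b := by
    have h1 : (univ.filter (fun S : Finset (Pt F) => A_Good ν S)).card ≤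
        (q ^ 4) ^ a * 2 ^ (2 ^ 33 * q) * (q ^ 4) ^ b := by
      refine hcount.trans ?_
      gcongr
    exact_mod_cast h1
  refine hc1.trans ?_
  have e1 : ((q : ℝ) ^ 4) ^ a ≤ (q : ℝ) ^ (c / 4 * q) := by
    rw [← pow_mul, ← Real.rpow_natCast]
    apply Real.rpow_le_rpow_of_exponent_le hQ1
    have h1 : ((a : ℕ) : ℝ) ≤ q / (512 * M) := by
      rw [ha]
      have := @Nat.cast_div_le ℝ _ _ _ q (512 * M)
      push_cast at this
      exact this
    push_cast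
    have h2 : (q : ℝ) / (512 * M) ≤ c / 16 * q := by
      rw [div_le_iff₀ (by positivity)]
      have h3 : 1 ≤ c / 16 * (512 * M) := by
        have := (div_le_iff₀ (by positivity : (0:ℝ) < 32 * c)).mp hMc
        linarith
      nlinarith
    linarith
  have e3 : ((q : ℝ) ^ 4) ^ b ≤ (q : ℝ) ^ (c / 2 * q) := by
    rw [← pow_mul, ← Real.rpow_natCast]
    apply Real.rpow_le_rpow_of_exponent_le hQ1
    have h1 : ((b : ℕ) : ℝ) ≤ (4 * ν + γ) * q := by
      rw [hb]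
      exact Nat.floor_le (by positivity)
    push_cast
    nlinarith
  have e2 : (2 : ℝ) ^ (2 ^ 33 * q) ≤ (q : ℝ) ^ (c / 4 * q) := by
    have h0 : (2 : ℝ) ^ (2 ^ 33 * q) = Real.exp (Real.log 2 * ((2 ^ 33 * q : ℕ) : ℝ)) := by
      rw [← Real.rpow_def_of_pos (by norm_num : (0 : ℝ) < 2), Real.rpow_natCast]
    rw [h0, Real.rpow_def_of_pos hQ0]
    apply Real.exp_le_exp.mpr
    push_cast
    rw [div_le_iff₀ hc] at hlog
    have h5 : 2 ^ 33 * Real.log 2 ≤ Real.log q * (c / 4) := by linarith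
    nlinarith
  calc ((q : ℝ) ^ 4) ^ a * 2 ^ (2 ^ 33 * q) * ((q : ℝ) ^ 4) ^ b
      ≤ (q : ℝ) ^ (c / 4 * q) * (q : ℝ) ^ (c / 4 * q) * (q : ℝ) ^ (c / 2 * q) := by gcongr
    _ = (q : ℝ) ^ (c * q) := by
        rw [← Real.rpow_add hQ0, ← Real.rpow_add hQ0]
        congr 1
        ring

end Crest.Agent.RY
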