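/-
TASK RY_A_CovDet (medium).
-/
import Crest.Agent.RY_A_CoverDef

set_option autoImplicit false

namespace Crest.Agent.RY
open Finset Classical

variable {F : Type} [Field F] [Fintype F] [DecidableEq F]

/-- If all lines of `U` are hit then there are many atypical hits.  Suppose `cnt < (3/4)^B/8 * q`.  By induction on `b ≤ B`:
`|rem_b| ≥ (3/4)^b |U| - (number of atypical hits in blocks < b) * 4|U|/q ≥ (3/4)^B |U|/2 = umin`.
(In block `b`: a typical point hits fewer than `3 |rem_b|/q` lines of `rem_b`, there are at most `q/12` points; an atypical one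
hits at most `4|U|/q`.)  So `rem_B` is not empty, contradiction. -/
theorem A_cover_det {H : ℕ} (B : ℕ) (U : Finset (Ln F)) (hU : U.Nonempty)
    (hdeg : ∀ z : Pt F, (U.filter (fun l => on z l)).card * Fintype.card F ≤ 4 * U.card)
    (blk : Idx F H → ℕ) (hblk : ∀ k, blk k < B)
    (hsize : ∀ b, 12 * (univ.filter (fun k => blk k = b)).card ≤ Fintype.card F) (ω : Om F H)
    (hcov : ∀ l ∈ U, ∃ p ∈ RR ω, on p l) :
    (3 / 4 : ℝ) ^ B / 8 * Fintype.card F ≤
      ((univ.filter (fun k : Idx F H => rp ω k ∈
        A_D U blk ((3 / 4 : ℝ) ^ B / 2 * U.card) (blk k) ω)).card : ℝ) := by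
  obtain ⟨q, hqdef⟩ : ∃ q : ℝ, q = (Fintype.card F : ℝ) := ⟨_, rfl⟩
  have hq : 0 < q := by
    rw [hqdef]; exact_mod_cast Fintype.card_pos
  obtain ⟨u, hudef⟩ : ∃ u : ℝ, u = (U.card : ℝ) := ⟨_, rfl⟩
  have hu : 0 < u := by
    rw [hudef]; exact_mod_cast hU.card_pos
  obtain ⟨al, haldef⟩ : ∃ al : ℝ, al = (3 / 4 : ℝ) ^ B := ⟨_, rfl⟩
  have hal : 0 < al := by rw [haldef]; positivity
  rw [← haldef, ← hudef, ← hqdef]
  by_contra hcon
  push Not at hcon
  obtain ⟨A, hA⟩ : ∃ A : Finset (Idx F H), A = univ.filter (fun k : Idx F H => rp ω k ∈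
        A_D U blk (al / 2 * u) (blk k) ω) := ⟨_, rfl⟩
  rw [← hA] at hcon
  have hc4 : ∀ n : ℕ, n ≤ A.card → (n : ℝ) * (4 * u / q) ≤ al / 2 * u := by
    intro n hn
    have h1 : (n : ℝ) ≤ al / 8 * q := le_trans (by exact_mod_cast hn) hcon.le
    calc (n : ℝ) * (4 * u / q) ≤ (al / 8 * q) * (4 * u / q) := by
          apply mul_le_mul_of_nonneg_right h1 (by positivity)
      _ = al / 2 * u := by field_simp; ring
  have hpow : ∀ b ≤ B, al ≤ (3 / 4 : ℝ) ^ b := by
    intro b hb
    rw [haldef]
    exact pow_le_pow_of_le_one (by norm_num) (by norm_num) hb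
  have key : ∀ b, b ≤ B → (3 / 4 : ℝ) ^ b * u - ((A.filter (fun k => blk k < b)).card : ℝ) * (4 * u / q)
      ≤ ((A_rem U blk b ω).card : ℝ) := by
    intro b
    induction b with
    | zero =>
      intro _
      have h1 : A_rem U blk 0 ω = U := by
        unfold A_rem
        apply Finset.filter_true_of_mem
        intro l _ k hk
        exact absurd hk (Nat.not_lt_zero _)
      have h2 : (0 : ℝ) ≤ ((A.filter (fun k => blk k < 0)).card : ℝ) * (4 * u / q) := by positivity
      rw [h1, ← hudef, pow_zero, one_mul]
      linarith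
    | succ b ih =>
      intro hb
      have ihb := ih (by omega)
      obtain ⟨R, hR⟩ : ∃ R : Finset (Ln F), R = A_rem U blk b ω := ⟨_, rfl⟩
      rw [← hR] at ihb
      -- the remaining set is large
      have hbig : al / 2 * u ≤ (R.card : ℝ) := by
        have h1 := hc4 _ (Finset.card_filter_le A (fun k => blk k < b))
        have h2 : al * u ≤ (3 / 4 : ℝ) ^ b * u := mul_le_mul_of_nonneg_right (hpow b (by omega)) hu.le
        linarith
      obtain ⟨Kb, hKb⟩ : ∃ Kb : Finset (Idx F H), Kb = univ.filter (fun k => blk k = b) := ⟨_, rfl⟩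
      have hcover : R ⊆ A_rem U blk (b + 1) ω ∪ Kb.biUnion (fun k => R.filter (fun l => on (rp ω k) l)) := by
        intro l hl
        rw [Finset.mem_union, Finset.mem_biUnion]
        by_cases hex : ∃ k, blk k = b ∧ on (rp ω k) l
        · obtain ⟨k, hk1, hk2⟩ := hex
          right
          refine ⟨k, ?_, ?_⟩
          · rw [hKb, Finset.mem_filter]
            exact ⟨Finset.mem_univ _, hk1⟩
          · rw [Finset.mem_filter]
            exact ⟨hl, hk2⟩
        · left
          push Not at hex
          rw [hR] at hl
          unfold A_rem at hl ⊢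
          rw [Finset.mem_filter] at hl ⊢
          refine ⟨hl.1, ?_⟩
          intro k hk
          rcases Nat.lt_succ_iff_lt_or_eq.mp hk with h1 | h1
          · exact hl.2 k h1
          · exact hex k h1
      have hterm : ∀ k ∈ Kb, ((R.filter (fun l => on (rp ω k) l)).card : ℝ)
          ≤ (if k ∈ A then 4 * u / q else 0) + 3 * (R.card : ℝ) / q := by
        intro k hk
        have hkb : blk k = b := by
          rw [hKb, Finset.mem_filter] at hk
          exact hk.2
        by_cases hkA : k ∈ A
        · rw [if_pos hkA]
          have h1 : (R.filter (fun l => on (rp ω k) l)).card ≤ (U.filter (fun l => on (rp ω k) l)).card := by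
            apply Finset.card_le_card
            apply Finset.filter_subset_filter
            rw [hR]
            unfold A_rem
            exact Finset.filter_subset _ _
          have h2 : ((U.filter (fun l => on (rp ω k) l)).card : ℝ) * q ≤ 4 * u := by
            rw [hqdef, hudef]
            exact_mod_cast hdeg (rp ω k)
          have h3 : ((U.filter (fun l => on (rp ω k) l)).card : ℝ) ≤ 4 * u / q := by
            rw [le_div_iff₀ hq]
            exact h2
          have h4 : ((R.filter (fun l => on (rp ω k) l)).card : ℝ) ≤ 4 * u / q :=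
            le_trans (by exact_mod_cast h1) h3
          have h5 : 0 ≤ 3 * (R.card : ℝ) / q := by positivity
          linarith
        · rw [if_neg hkA, zero_add]
          have h1 : rp ω k ∉ A_D U blk (al / 2 * u) (blk k) ω := by
            intro hcontra
            apply hkA
            rw [hA, Finset.mem_filter]
            exact ⟨Finset.mem_univ _, hcontra⟩
          rw [hkb] at h1
          unfold A_D at h1
          rw [← hR, if_pos hbig, Finset.mem_filter] at h1
          have h2 : ¬ (3 * R.card ≤ Fintype.card F * (R.filter (fun l => on (rp ω k) l)).card) := by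
            intro h3
            exact h1 ⟨Finset.mem_univ _, h3⟩
          push Not at h2
          have h3 : q * ((R.filter (fun l => on (rp ω k) l)).card : ℝ) ≤ 3 * (R.card : ℝ) := by
            rw [hqdef]
            exact_mod_cast h2.le
          rw [le_div_iff₀ hq, mul_comm]
          exact h3
      have hsum : (R.card : ℝ) ≤ ((A_rem U blk (b + 1) ω).card : ℝ)
          + ((A.filter (fun k => blk k = b)).card : ℝ) * (4 * u / q) + (R.card : ℝ) / 4 := by
        have h1 : (R.card : ℝ) ≤ ((A_rem U blk (b + 1) ω).card : ℝ)
            + ∑ k ∈ Kb, ((R.filter (fun l => on (rp ω k) l)).card : ℝ) := by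
          have h2 := Finset.card_le_card hcover
          have h3 := Finset.card_union_le (A_rem U blk (b + 1) ω)
            (Kb.biUnion (fun k => R.filter (fun l => on (rp ω k) l)))
          have h4 := Finset.card_biUnion_le (s := Kb) (t := fun k => R.filter (fun l => on (rp ω k) l))
          have h5 : R.card ≤ (A_rem U blk (b + 1) ω).card
              + ∑ k ∈ Kb, (R.filter (fun l => on (rp ω k) l)).card := by omega
          exact_mod_cast h5
        have h2 := Finset.sum_le_sum hterm
        rw [Finset.sum_add_distrib, ← Finset.sum_filter, Finset.sum_const, Finset.sum_const,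
          nsmul_eq_mul, nsmul_eq_mul] at h2
        have h3 : Kb.filter (fun k => k ∈ A) = A.filter (fun k => blk k = b) := by
          ext k
          rw [Finset.mem_filter, Finset.mem_filter, hKb, Finset.mem_filter]
          constructor
          · rintro ⟨⟨_, h4⟩, h5⟩
            exact ⟨h5, h4⟩
          · rintro ⟨h4, h5⟩
            exact ⟨⟨Finset.mem_univ _, h5⟩, h4⟩
        rw [h3] at h2
        have h4 : (Kb.card : ℝ) * (3 * (R.card : ℝ) / q) ≤ (R.card : ℝ) / 4 := by
          have h5 : 12 * (Kb.card : ℝ) ≤ q := by
            rw [hqdef, hKb]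
            exact_mod_cast hsize b
          rw [← mul_div_assoc, div_le_iff₀ hq]
          have h6 : (0 : ℝ) ≤ (R.card : ℝ) := Nat.cast_nonneg _
          nlinarith
        linarith
      have hcard : (A.filter (fun k => blk k < b + 1)).card
          = (A.filter (fun k => blk k < b)).card + (A.filter (fun k => blk k = b)).card := by
        rw [← Finset.card_union_of_disjoint]
        · congr 1
          ext k
          rw [Finset.mem_union, Finset.mem_filter, Finset.mem_filter, Finset.mem_filter]
          constructor
          · rintro ⟨h1, h2⟩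
            rcases Nat.lt_succ_iff_lt_or_eq.mp h2 with h3 | h3
            · exact Or.inl ⟨h1, h3⟩
            · exact Or.inr ⟨h1, h3⟩
          · rintro (⟨h1, h2⟩ | ⟨h1, h2⟩)
            · exact ⟨h1, by omega⟩
            · exact ⟨h1, by omega⟩
        · rw [Finset.disjoint_left]
          intro k h1 h2
          rw [Finset.mem_filter] at h1 h2
          omega
      rw [hcard, pow_succ]
      push_cast
      have h6 : (0 : ℝ) ≤ ((A.filter (fun k => blk k < b)).card : ℝ) * (4 * u / q) := by positivity
      linarith
  have hB := key B le_rfl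
  have h1 := hc4 _ (Finset.card_filter_le A (fun k => blk k < B))
  have h2 : al * u ≤ (3 / 4 : ℝ) ^ B * u := mul_le_mul_of_nonneg_right (hpow B le_rfl) hu.le
  have h3 : 0 < al * u := by positivity
  have h4 : 0 < ((A_rem U blk B ω).card : ℝ) := by linarith
  have h5 : 0 < (A_rem U blk B ω).card := by exact_mod_cast h4
  obtain ⟨l, hl⟩ := Finset.card_pos.mp h5
  unfold A_rem at hl
  rw [Finset.mem_filter] at hl
  obtain ⟨p, hp, hon⟩ := hcov l hl.1
  unfold RR at hp
  rw [Finset.mem_image] at hp
  obtain ⟨k, _, rfl⟩ := hp
  exact hl.2 k (hblk k) hon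

end Crest.Agent.RY
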