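/-
TASK RY_A_Plane2 (medium).  The plane's second moment.
For `g : Ln F → ℝ`, `G(p) = ∑_{l ∋ p} g l`:  `∑_p G(p)^2 = ∑_{l,l'} g l g l' #(l ∩ l') = (q+1) ∑ g^2 + ∑_{l≠l'} g l g l'
= q ∑ g^2 + (∑ g)^2`, `∑_p G(p) = (q+1) ∑ g`, `#Pt = q(q+1)`; so
`∑_p (G(p) - (∑g)/q)^2 = q ∑ g^2 - (∑ g)^2/q ≤ q ∑ g^2`.   `A_rich`: Chebyshev.
-/
import Crest.Agent.RY_A_Plane1

set_option autoImplicit false

namespace Crest.Agent.RY
open Finset Classical

variable {F : Type} [Field F] [Fintype F] [DecidableEq F]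

private theorem P2_inter (l l' : Ln F) :
    ((univ.filter (fun p : Pt F => on p l ∧ on p l')).card : ℝ) =
      1 + if l = l' then (Fintype.card F : ℝ) else 0 := by
  by_cases h : l = l'
  · subst h
    rw [if_pos rfl]
    have : (univ.filter (fun p : Pt F => on p l ∧ on p l)) = univ.filter (fun p : Pt F => on p l) := by
      ext p; simp
    rw [this, A_card_line]
    push_cast; ring
  · rw [if_neg h]
    obtain ⟨p, hp, huniq⟩ := A_meet h
    have : (univ.filter (fun p : Pt F => on p l ∧ on p l')) = {p} := by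
      ext p'
      simp only [mem_filter, mem_univ, true_and, mem_singleton]
      exact ⟨fun h' => huniq p' h', fun h' => h' ▸ hp⟩
    rw [this]; simp

private theorem P2_G (g : Ln F → ℝ) (p : Pt F) :
    ∑ l ∈ A_thru p, g l = ∑ l, if on p l then g l else 0 := by
  unfold A_thru
  rw [Finset.sum_filter]

private theorem P2_sum1 (g : Ln F → ℝ) :
    ∑ p : Pt F, ∑ l ∈ A_thru p, g l = ((Fintype.card F : ℝ) + 1) * ∑ l, g l := by
  simp only [P2_G]
  rw [Finset.sum_comm, Finset.mul_sum]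
  apply Finset.sum_congr rfl
  intro l _
  rw [← Finset.sum_filter, Finset.sum_const, A_card_line, nsmul_eq_mul]
  push_cast; ring

private theorem P2_sum2 (g : Ln F → ℝ) :
    ∑ p : Pt F, (∑ l ∈ A_thru p, g l) ^ 2 =
      (∑ l, g l) ^ 2 + (Fintype.card F : ℝ) * ∑ l, g l ^ 2 := by
  have h1 : ∀ p : Pt F, (∑ l ∈ A_thru p, g l) ^ 2 =
      ∑ l, ∑ l', if on p l ∧ on p l' then g l * g l' else 0 := by
    intro p
    rw [P2_G, sq, Finset.sum_mul_sum]
    apply Finset.sum_congr rfl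
    intro l _
    apply Finset.sum_congr rfl
    intro l' _
    by_cases h : on p l <;> by_cases h' : on p l' <;> simp [h, h']
  simp only [h1]
  rw [Finset.sum_comm]
  have h2 : ∀ l : Ln F, ∑ p : Pt F, ∑ l' : Ln F, (if on p l ∧ on p l' then g l * g l' else 0) =
      g l * (∑ l', g l') + (Fintype.card F : ℝ) * g l ^ 2 := by
    intro l
    rw [Finset.sum_comm]
    have h3 : ∀ l' : Ln F, ∑ p : Pt F, (if on p l ∧ on p l' then g l * g l' else 0) =
        g l * g l' + if l = l' then (Fintype.card F : ℝ) * g l ^ 2 else 0 := by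
      intro l'
      rw [← Finset.sum_filter, Finset.sum_const, nsmul_eq_mul, P2_inter]
      by_cases h : l = l'
      · subst h; rw [if_pos rfl, if_pos rfl]; ring
      · rw [if_neg h, if_neg h]; ring
    simp only [h3]
    rw [Finset.sum_add_distrib, Finset.mul_sum, Finset.sum_ite_eq]
    simp
  simp only [h2]
  rw [Finset.sum_add_distrib, ← Finset.sum_mul, ← Finset.mul_sum, sq]

theorem A_second_moment (g : Ln F → ℝ) :
    ∑ p : Pt F, ((∑ l ∈ A_thru p, g l) - (∑ l, g l) / (Fintype.card F : ℝ)) ^ 2 ≤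
      (Fintype.card F : ℝ) * ∑ l, g l ^ 2 := by
  have hq : (0 : ℝ) < Fintype.card F := by exact_mod_cast Fintype.card_pos
  set q : ℝ := (Fintype.card F : ℝ) with hqdef
  set s : ℝ := ∑ l, g l with hs
  have h1 : ∀ p : Pt F, ((∑ l ∈ A_thru p, g l) - s / q) ^ 2 =
      (∑ l ∈ A_thru p, g l) ^ 2 - 2 * (s / q) * (∑ l ∈ A_thru p, g l) + (s / q) ^ 2 := by
    intro p; ring
  simp only [h1]
  rw [Finset.sum_add_distrib, Finset.sum_sub_distrib, ← Finset.mul_sum, P2_sum1, P2_sum2,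
    Finset.sum_const, Finset.card_univ, A_card_Pt, nsmul_eq_mul]
  rw [← hs, ← hqdef]
  push_cast
  rw [← hqdef]
  have h2 : s ^ 2 + q * ∑ l, g l ^ 2 - 2 * (s / q) * ((q + 1) * s) + q * (q + 1) * (s / q) ^ 2 =
      q * ∑ l, g l ^ 2 - s ^ 2 / q := by
    field_simp
    ring
  rw [h2]
  have : 0 ≤ s ^ 2 / q := by positivity
  linarith

theorem A_rich (g : Ln F → ℝ) (a : ℝ) (ha : 0 < a) :
    ((univ.filter (fun p : Pt F => (∑ l, g l) / (Fintype.card F : ℝ) + a ≤ ∑ l ∈ A_thru p, g l)).card : ℝ) * a ^ 2 ≤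
      (Fintype.card F : ℝ) * ∑ l, g l ^ 2 := by
  refine le_trans ?_ (A_second_moment g)
  rw [← nsmul_eq_mul, ← Finset.sum_const]
  refine le_trans (Finset.sum_le_sum (g := fun p : Pt F =>
    ((∑ l ∈ A_thru p, g l) - (∑ l, g l) / (Fintype.card F : ℝ)) ^ 2) ?_)
    (Finset.sum_le_sum_of_subset_of_nonneg (Finset.filter_subset _ _)
      (fun p _ _ => sq_nonneg _))
  intro p hp
  rw [Finset.mem_filter] at hp
  have := hp.2
  apply pow_le_pow_left₀ ha.le
  linarith

end Crest.Agent.RY
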