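/-
TASK RY_A_Dcard (easy/medium).  `A_D` depends only on the lower blocks; second moment bound (`A_rich` with `g` = indicator of
`A_rem`, `a = 2 |A_rem|/q`: `|D| 4|rem|^2/q^2 ≤ q |rem|`, `|rem| ≥ umin`).
-/
import Crest.Agent.RY_A_CoverDef
import Crest.Agent.RY_A_Plane2

set_option autoImplicit false

namespace Crest.Agent.RY
open Finset Classical

variable {F : Type} [Field F] [Fintype F] [DecidableEq F]

theorem A_D_dep {H : ℕ} (U : Finset (Ln F)) (blk : Idx F H → ℕ) (umin : ℝ) (b : ℕ) (ω ω' : Om F H)
    (h : ∀ k, blk k < b → ω k = ω' k) : A_D U blk umin b ω = A_D U blk umin b ω' := by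
  have hrem : A_rem U blk b ω = A_rem U blk b ω' := by
    unfold A_rem
    refine Finset.filter_congr fun l _ => ?_
    refine forall_congr' fun k => forall_congr' fun hk => ?_
    have : rp ω k = rp ω' k := by
      unfold rp
      rw [h k hk]
    rw [this]
  unfold A_D
  rw [hrem]

/-- second moment (`A_rich` with `g` = indicator of `A_rem`, `a = 2 |A_rem|/q`) -/
theorem A_D_card {H : ℕ} (U : Finset (Ln F)) (blk : Idx F H → ℕ) (umin : ℝ) (hu : 0 < umin) (b : ℕ) (ω : Om F H) :
    ((A_D U blk umin b ω).card : ℝ) ≤ (Fintype.card F : ℝ) ^ 3 / (4 * umin) := by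
  have hq : (0 : ℝ) < (Fintype.card F : ℝ) := by exact_mod_cast Fintype.card_pos
  unfold A_D
  split_ifs with hc
  · set rem := A_rem U blk b ω with hrem
    have hm : (0 : ℝ) < (rem.card : ℝ) := lt_of_lt_of_le hu hc
    set g : Ln F → ℝ := fun l => if l ∈ rem then 1 else 0 with hg
    have hsum : ∑ l, g l = (rem.card : ℝ) := by
      simp [hg]
    have hsum2 : ∑ l, g l ^ 2 = (rem.card : ℝ) := by
      rw [← hsum]
      refine Finset.sum_congr rfl fun l _ => ?_
      simp only [hg]
      split_ifs <;> norm_num
    have hthru : ∀ z : Pt F, ∑ l ∈ A_thru z, g l = ((rem.filter (fun l => on z l)).card : ℝ) := by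
      intro z
      unfold A_thru
      rw [Finset.sum_filter]
      rw [Finset.card_filter, ← Finset.sum_filter_add_sum_filter_not univ (fun l => l ∈ rem)]
      have h0 : ∑ x ∈ univ.filter (fun l => ¬ l ∈ rem), (if on z x then g x else 0) = 0 := by
        refine Finset.sum_eq_zero fun l hl => ?_
        rw [Finset.mem_filter] at hl
        simp [hg, hl.2]
      rw [h0, add_zero]
      push_cast
      have h1 : univ.filter (fun l => l ∈ rem) = rem := by ext l; simp
      rw [h1]
      refine Finset.sum_congr rfl fun l hl => ?_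
      simp [hg, hl]
    have ha : (0 : ℝ) < 2 * (rem.card : ℝ) / (Fintype.card F : ℝ) := by positivity
    have hR := A_rich g (2 * (rem.card : ℝ) / (Fintype.card F : ℝ)) ha
    rw [hsum, hsum2] at hR
    have hsub : (univ.filter (fun z : Pt F => 3 * rem.card ≤
        Fintype.card F * (rem.filter (fun l => on z l)).card)) ⊆
        (univ.filter (fun p : Pt F => (rem.card : ℝ) / (Fintype.card F : ℝ) +
          2 * (rem.card : ℝ) / (Fintype.card F : ℝ) ≤ ∑ l ∈ A_thru p, g l)) := by
      intro z hz
      rw [Finset.mem_filter] at hz ⊢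
      refine ⟨Finset.mem_univ z, ?_⟩
      rw [hthru z, ← add_div, div_le_iff₀ hq]
      have h2 : ((3 * rem.card : ℕ) : ℝ) ≤
          ((Fintype.card F * (rem.filter (fun l => on z l)).card : ℕ) : ℝ) := by
        exact_mod_cast hz.2
      push_cast at h2
      linarith
    have hcard : ((univ.filter (fun z : Pt F => 3 * rem.card ≤
        Fintype.card F * (rem.filter (fun l => on z l)).card)).card : ℝ) ≤
        ((univ.filter (fun p : Pt F => (rem.card : ℝ) / (Fintype.card F : ℝ) +
          2 * (rem.card : ℝ) / (Fintype.card F : ℝ) ≤ ∑ l ∈ A_thru p, g l)).card : ℝ) := by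
      exact_mod_cast Finset.card_le_card hsub
    set X : ℝ := ((univ.filter (fun z : Pt F => 3 * rem.card ≤
        Fintype.card F * (rem.filter (fun l => on z l)).card)).card : ℝ) with hX
    have hX0 : 0 ≤ X := by rw [hX]; positivity
    have h3 : X * (2 * (rem.card : ℝ) / (Fintype.card F : ℝ)) ^ 2 ≤
        (Fintype.card F : ℝ) * (rem.card : ℝ) :=
      (mul_le_mul_of_nonneg_right hcard (by positivity)).trans hR
    have h4 : X * (4 * (rem.card : ℝ)) ≤ (Fintype.card F : ℝ) ^ 3 := by
      have h5 : X * (2 * (rem.card : ℝ) / (Fintype.card F : ℝ)) ^ 2 =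
          X * (4 * (rem.card : ℝ)) * ((rem.card : ℝ) / (Fintype.card F : ℝ) ^ 2) := by
        field_simp
        ring
      rw [h5] at h3
      have h6 : (Fintype.card F : ℝ) * (rem.card : ℝ) =
          (Fintype.card F : ℝ) ^ 3 * ((rem.card : ℝ) / (Fintype.card F : ℝ) ^ 2) := by
        field_simp
      rw [h6] at h3
      exact le_of_mul_le_mul_right h3 (by positivity)
    rw [le_div_iff₀ (by positivity)]
    refine le_trans ?_ h4
    exact mul_le_mul_of_nonneg_left (by linarith) hX0
  · simp only [Finset.card_empty, Nat.cast_zero]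
    positivity

end Crest.Agent.RY
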