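/-
TASK RY_A_Prob2 (medium).  Number of hits of sequentially determined sets.
`B` blocks of indices (`blk k < B`), `D b ω` is determined by the coordinates with `blk < b` and has at most `d` elements.
Let `cnt ω = #{k : rp ω k ∈ D (blk k) ω}`.
Claim: `E (1+λ)^cnt ≤ exp (λ B H d / q)` for `λ ≥ 0`.  Induction over `b` for `cnt_b` = number of such `k` with `blk k < b`
(`cnt_B = cnt`): `(1+λ)^{cnt_{b+1}} = (1+λ)^{cnt_b} ∏_{blk k = b} (1 + λ 1_{ω k ∈ A_k})`, `A_k = {v : (k.1, v) ∈ D b ω}`; by
`A_prod_avg` (with `g = (1+λ)^{cnt_b}`; both `g` and `A_k` depend only on the coordinates with `blk < b`) we may replace the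
factors by `1 + λ |A_k|/q ≤ exp(λ|A_k|/q)`, and `∑_{blk k = b} |A_k| ≤ H |D b ω| ≤ H d`.
Markov: `P(cnt ≥ m) ≤ (1+λ)^{-m} exp(λμ)`, `μ = BHd/q`.  If `m ≤ μ` the claim is trivial (`≥ 1`); if `0 < μ < m` take
`1 + λ = m/μ`; if `μ = 0` then (`B = 0` or `H = 0` or `d = 0`; so `cnt = 0`) the probability is `0`.
-/
import Crest.Agent.RY_A_Prob1

set_option autoImplicit false

namespace Crest.Agent.RY
open Finset Classical

variable {F : Type} [Field F] [Fintype F] [DecidableEq F]

theorem A_Prob2_sum_card (H : ℕ) (S : Finset (Pt F)) (K : Finset (Idx F H)) :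
    ∑ k ∈ K, (univ.filter (fun v : F => (k.1, v) ∈ S)).card ≤ H * S.card := by
  calc ∑ k ∈ K, (univ.filter (fun v : F => (k.1, v) ∈ S)).card
      ≤ ∑ k : Idx F H, (univ.filter (fun v : F => (k.1, v) ∈ S)).card :=
        Finset.sum_le_sum_of_subset_of_nonneg (Finset.subset_univ _) (fun _ _ _ => Nat.zero_le _)
    _ = ∑ i : Option F, ∑ _h : Fin H, (univ.filter (fun v : F => (i, v) ∈ S)).card := by
        rw [Fintype.sum_prod_type]
    _ = ∑ i : Option F, H * (univ.filter (fun v : F => (i, v) ∈ S)).card := by
        simp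
    _ = H * ∑ i : Option F, (univ.filter (fun v : F => (i, v) ∈ S)).card := by
        rw [Finset.mul_sum]
    _ = H * S.card := by
        congr 1
        have h1 : S.card = ∑ i : Option F, (S.filter (fun p => p.1 = i)).card :=
          Finset.card_eq_sum_card_fiberwise (f := fun p : Pt F => p.1) (t := Finset.univ)
            (fun p _ => Finset.mem_coe.mpr (Finset.mem_univ _))
        rw [h1]
        apply Finset.sum_congr rfl
        intro i _
        apply Finset.card_bij (fun v _ => (i, v))
        · intro v hv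
          simp only [Finset.mem_filter, Finset.mem_univ, true_and] at hv
          simp [hv]
        · intro v _ w _ h
          exact (Prod.mk.inj h).2
        · rintro ⟨j, v⟩ hp
          simp only [Finset.mem_filter] at hp
          obtain ⟨hp1, hp2⟩ := hp
          subst hp2
          exact ⟨v, by simpa using hp1, rfl⟩

theorem A_Prob2_moment (H : ℕ) (blk : Idx F H → ℕ)
    (D : ℕ → Om F H → Finset (Pt F))
    (hD : ∀ b ω ω', (∀ k, blk k < b → ω k = ω' k) → D b ω = D b ω')
    (d : ℝ) (hd : ∀ b ω, ((D b ω).card : ℝ) ≤ d) (lam : ℝ) (hlam : 0 ≤ lam) (b : ℕ) :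
    ∑ ω : Om F H, (1 + lam) ^ (univ.filter (fun k : Idx F H => blk k < b ∧ rp ω k ∈ D (blk k) ω)).card ≤
      Real.exp (lam * (b * H * d / Fintype.card F)) * Fintype.card (Om F H) := by
  have hq : (0:ℝ) < (Fintype.card F : ℝ) := by exact_mod_cast Fintype.card_pos
  induction b with
  | zero => simp
  | succ b ih =>
    set K : Finset (Idx F H) := univ.filter (fun k => blk k = b) with hK
    set g : Om F H → ℝ := fun ω =>
      (1 + lam) ^ (univ.filter (fun k : Idx F H => blk k < b ∧ rp ω k ∈ D (blk k) ω)).card with hg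
    set A : Idx F H → Om F H → Finset F := fun k ω => univ.filter (fun v : F => (k.1, v) ∈ D b ω) with hA
    have hgK : ∀ ω ω' : Om F H, (∀ k, k ∉ K → ω k = ω' k) → g ω = g ω' := by
      intro ω ω' h
      have hlt : ∀ k, blk k < b → ω k = ω' k := by
        intro k hk
        apply h
        rw [hK, Finset.mem_filter]
        push Not
        intro _
        exact Nat.ne_of_lt hk
      have : (univ.filter (fun k : Idx F H => blk k < b ∧ rp ω k ∈ D (blk k) ω)) =
          (univ.filter (fun k : Idx F H => blk k < b ∧ rp ω' k ∈ D (blk k) ω')) := by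
        apply Finset.filter_congr
        intro k _
        apply and_congr_right
        intro hk
        have h1 : rp ω k = rp ω' k := by unfold rp; rw [hlt k hk]
        have h2 : D (blk k) ω = D (blk k) ω' := hD _ _ _ (fun j hj => hlt j (lt_trans hj hk))
        rw [h1, h2]
      simp only [hg]
      rw [this]
    have hAK : ∀ k ∈ K, ∀ ω ω' : Om F H, (∀ j, j ∉ K → ω j = ω' j) → A k ω = A k ω' := by
      intro k _ ω ω' h
      have hlt : ∀ k, blk k < b → ω k = ω' k := by
        intro k hk
        apply h
        rw [hK, Finset.mem_filter]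
        push Not
        intro _
        exact Nat.ne_of_lt hk
      simp only [hA]
      rw [hD b ω ω' hlt]
    have hsplit : ∀ ω : Om F H,
        (1 + lam) ^ (univ.filter (fun k : Idx F H => blk k < b + 1 ∧ rp ω k ∈ D (blk k) ω)).card =
          g ω * ∏ k ∈ K, (1 + lam * (if ω k ∈ A k ω then 1 else 0)) := by
      intro ω
      have h1 : (univ.filter (fun k : Idx F H => blk k < b + 1 ∧ rp ω k ∈ D (blk k) ω)) =
          (univ.filter (fun k : Idx F H => blk k < b ∧ rp ω k ∈ D (blk k) ω)) ∪
          (K.filter (fun k => ω k ∈ A k ω)) := by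
        ext k
        rw [Finset.mem_union, Finset.mem_filter, Finset.mem_filter, Finset.mem_filter, hK, Finset.mem_filter, hA,
          Finset.mem_filter]
        simp only [Finset.mem_univ, true_and]
        constructor
        · rintro ⟨h1, h2⟩
          rcases Nat.lt_succ_iff_lt_or_eq.mp h1 with h | h
          · left; exact ⟨h, h2⟩
          · right; refine ⟨h, ?_⟩; rw [h] at h2; exact h2
        · rintro (⟨h1, h2⟩ | ⟨h1, h2⟩)
          · exact ⟨Nat.lt_succ_of_lt h1, h2⟩
          · refine ⟨by omega, ?_⟩; rw [h1]; exact h2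
      have h2 : Disjoint (univ.filter (fun k : Idx F H => blk k < b ∧ rp ω k ∈ D (blk k) ω))
          (K.filter (fun k => ω k ∈ A k ω)) := by
        rw [Finset.disjoint_left]
        intro k hk hk'
        simp only [Finset.mem_filter, Finset.mem_univ, true_and, hK] at hk hk'
        omega
      rw [h1, Finset.card_union_of_disjoint h2, pow_add]
      congr 1
      rw [← Finset.prod_const, Finset.prod_filter]
      apply Finset.prod_congr rfl
      intro k _
      split_ifs <;> simp
    calc ∑ ω : Om F H, (1 + lam) ^ (univ.filter (fun k : Idx F H => blk k < b + 1 ∧ rp ω k ∈ D (blk k) ω)).card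
        = ∑ ω : Om F H, g ω * ∏ k ∈ K, (1 + lam * (if ω k ∈ A k ω then 1 else 0)) :=
          Finset.sum_congr rfl (fun ω _ => hsplit ω)
      _ = ∑ ω : Om F H, g ω * ∏ k ∈ K, (1 + lam * ((A k ω).card : ℝ) / (Fintype.card F : ℝ)) :=
          by convert A_prod_avg K g hgK A hAK lam
      _ ≤ ∑ ω : Om F H, g ω * Real.exp (lam * (H * d / Fintype.card F)) := by
          apply Finset.sum_le_sum
          intro ω _
          apply mul_le_mul_of_nonneg_left
          · calc ∏ k ∈ K, (1 + lam * ((A k ω).card : ℝ) / (Fintype.card F : ℝ))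
                ≤ ∏ k ∈ K, Real.exp (lam * ((A k ω).card : ℝ) / (Fintype.card F : ℝ)) := by
                  apply Finset.prod_le_prod
                  · intro k _; positivity
                  · intro k _
                    have := Real.add_one_le_exp (lam * ((A k ω).card : ℝ) / (Fintype.card F : ℝ))
                    linarith
              _ = Real.exp (∑ k ∈ K, lam * ((A k ω).card : ℝ) / (Fintype.card F : ℝ)) := by
                  rw [Real.exp_sum]
              _ ≤ Real.exp (lam * (H * d / Fintype.card F)) := by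
                  apply Real.exp_le_exp.mpr
                  have h3 : ∑ k ∈ K, lam * ((A k ω).card : ℝ) / (Fintype.card F : ℝ) =
                      lam * ((∑ k ∈ K, ((A k ω).card : ℝ)) / (Fintype.card F : ℝ)) := by
                    rw [← Finset.sum_div, ← Finset.mul_sum, mul_div_assoc]
                  rw [h3]
                  apply mul_le_mul_of_nonneg_left _ hlam
                  apply div_le_div_of_nonneg_right _ hq.le
                  have h4 := A_Prob2_sum_card H (D b ω) K
                  have h5 : (∑ k ∈ K, ((A k ω).card : ℝ)) ≤ (H:ℝ) * ((D b ω).card : ℝ) := by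
                    exact_mod_cast h4
                  exact le_trans h5 (mul_le_mul_of_nonneg_left (hd b ω) (Nat.cast_nonneg _))
          · simp only [hg]; positivity
      _ = (∑ ω : Om F H, g ω) * Real.exp (lam * (H * d / Fintype.card F)) := by
          rw [Finset.sum_mul]
      _ ≤ (Real.exp (lam * (b * H * d / Fintype.card F)) * Fintype.card (Om F H)) *
            Real.exp (lam * (H * d / Fintype.card F)) := by
          apply mul_le_mul_of_nonneg_right ih (Real.exp_pos _).le
      _ = Real.exp (lam * (((b + 1 : ℕ) : ℝ) * H * d / Fintype.card F)) * Fintype.card (Om F H) := by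
          rw [mul_right_comm, ← Real.exp_add]
          congr 2
          push_cast
          ring

theorem A_block_prob (H B : ℕ) (blk : Idx F H → ℕ) (hblk : ∀ k, blk k < B)
    (D : ℕ → Om F H → Finset (Pt F))
    (hD : ∀ b ω ω', (∀ k, blk k < b → ω k = ω' k) → D b ω = D b ω')
    (d : ℝ) (hd : ∀ b ω, ((D b ω).card : ℝ) ≤ d) (m : ℕ) (hm : 1 ≤ m) :
    Pr (fun ω : Om F H => m ≤ (univ.filter (fun k : Idx F H => rp ω k ∈ D (blk k) ω)).card) ≤
      (Real.exp 1 * B * H * d / (Fintype.card F * m)) ^ m := by
  have hq : (0:ℝ) < (Fintype.card F : ℝ) := by exact_mod_cast Fintype.card_pos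
  have hm0 : (0:ℝ) < (m:ℝ) := by exact_mod_cast hm
  have hd0 : 0 ≤ d := le_trans (Nat.cast_nonneg _) (hd 0 (fun _ => 0))
  have hOm : (0:ℝ) < (Fintype.card (Om F H) : ℝ) := by exact_mod_cast Fintype.card_pos
  set P := Pr (fun ω : Om F H => m ≤ (univ.filter (fun k : Idx F H => rp ω k ∈ D (blk k) ω)).card) with hP
  set μ : ℝ := B * H * d / Fintype.card F with hμ
  have hμ0 : 0 ≤ μ := by rw [hμ]; positivity
  -- Markov
  have markov : ∀ lam : ℝ, 0 ≤ lam → P * (1 + lam) ^ m ≤ Real.exp (lam * μ) := by
    intro lam hlam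
    have h1 := A_Prob2_moment H blk D hD d hd lam hlam B
    have h2 : ∀ ω : Om F H, (univ.filter (fun k : Idx F H => blk k < B ∧ rp ω k ∈ D (blk k) ω)) =
        (univ.filter (fun k : Idx F H => rp ω k ∈ D (blk k) ω)) := by
      intro ω
      apply Finset.filter_congr
      intro k _
      simp [hblk k]
    simp only [h2] at h1
    have h3 : (((univ.filter (fun ω : Om F H =>
        m ≤ (univ.filter (fun k : Idx F H => rp ω k ∈ D (blk k) ω)).card)).card : ℝ)) * (1 + lam) ^ m ≤
        ∑ ω : Om F H, (1 + lam) ^ (univ.filter (fun k : Idx F H => rp ω k ∈ D (blk k) ω)).card := by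
      rw [← nsmul_eq_mul, ← Finset.sum_const]
      refine le_trans ?_ (Finset.sum_le_sum_of_subset_of_nonneg (Finset.filter_subset
        (fun ω : Om F H => m ≤ (univ.filter (fun k : Idx F H => rp ω k ∈ D (blk k) ω)).card) univ)
        (fun _ _ _ => by positivity))
      apply Finset.sum_le_sum
      intro ω hω
      simp only [Finset.mem_filter, Finset.mem_univ, true_and] at hω
      exact pow_le_pow_right₀ (by linarith) hω
    have h4 := le_trans h3 h1
    rw [hP]
    unfold Pr
    rw [div_mul_eq_mul_div, div_le_iff₀ hOm]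
    convert h4 using 2
    congr!
  have hP0 : 0 ≤ P := Pr_nonneg _
  have hP1 : P ≤ 1 := by
    have := markov 0 le_rfl
    simpa using this
  have hgoal : Real.exp 1 * B * H * d / (Fintype.card F * m) = Real.exp 1 * (μ / m) := by
    rw [hμ]; field_simp
  rw [hgoal]
  rcases le_or_gt (m:ℝ) μ with h | h
  · have h1 : (1:ℝ) ≤ μ / m := by rwa [le_div_iff₀ hm0, one_mul]
    have h2 : (1:ℝ) ≤ Real.exp 1 := Real.one_le_exp (by norm_num)
    exact le_trans hP1 (one_le_pow₀ (one_le_mul_of_one_le_of_one_le h2 h1))
  · rcases hμ0.lt_or_eq with h0 | h0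
    · have hlam : 0 ≤ m / μ - 1 := by
        have : 1 ≤ m / μ := by rw [le_div_iff₀ h0, one_mul]; exact h.le
        linarith
      have h1 := markov (m / μ - 1) hlam
      have h2 : (1 + (m / μ - 1)) = m / μ := by ring
      rw [h2] at h1
      have h3 : (m / μ - 1) * μ = m - μ := by field_simp
      rw [h3] at h1
      have h4 : Real.exp (m - μ) ≤ Real.exp m := Real.exp_le_exp.mpr (by linarith)
      have h5 : P * (m / μ) ^ m ≤ Real.exp m := le_trans h1 h4
      have h6 : (0:ℝ) < (m / μ) ^ m := by positivity
      have h7 : P ≤ Real.exp m / (m / μ) ^ m := by rwa [le_div_iff₀ h6]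
      refine le_trans h7 (le_of_eq ?_)
      rw [mul_pow, ← Real.exp_nat_mul, mul_one, div_eq_mul_inv, ← inv_pow, inv_div]
    · -- μ = 0
      have hP00 : P = 0 := by
        by_contra hne
        have hpos : 0 < P := lt_of_le_of_ne hP0 (Ne.symm hne)
        have h1 := markov (1 / P) (by positivity)
        rw [← h0, mul_zero, Real.exp_zero] at h1
        have h2 : 1 + 1 / P ≤ (1 + 1 / P) ^ m := by
          have h3 : (1:ℝ) ≤ 1 + 1 / P := by
            have : 0 < 1 / P := by positivity
            linarith
          calc 1 + 1 / P = (1 + 1 / P) ^ 1 := by ring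
            _ ≤ (1 + 1 / P) ^ m := pow_le_pow_right₀ h3 hm
        have h3 : P * (1 + 1 / P) ≤ 1 := le_trans (mul_le_mul_of_nonneg_left h2 hP0) h1
        have h4 : P * (1 + 1 / P) = P + 1 := by field_simp
        linarith
      rw [hP00]
      positivity

theorem A_hits_prob (H : ℕ) (A : Finset (Pt F)) (m : ℕ) (hm : 1 ≤ m) :
    Pr (fun ω : Om F H => m ≤ (univ.filter (fun k : Idx F H => rp ω k ∈ A)).card) ≤
      (Real.exp 1 * H * A.card / (Fintype.card F * m)) ^ m := by
  have h := A_block_prob H 1 (fun _ => 0) (fun _ => Nat.zero_lt_one) (fun _ _ => A)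
    (fun _ _ _ _ => rfl) (A.card : ℝ) (fun _ _ => le_rfl) m hm
  simpa using h

end Crest.Agent.RY
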