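/-
TASK RY_A_Cover (medium).  The random set covers a given set `U` of lines of small maximal degree only with very small probability.
-/
import Crest.Agent.RY_A_Prob2
import Crest.Agent.RY_A_Blocks
import Crest.Agent.RY_A_Dcard
import Crest.Agent.RY_A_CovDet

set_option autoImplicit false

namespace Crest.Agent.RY
open Finset Classical

/-- `A_block_prob` with `B = 30H`, `d = q^3/(4 umin)`, `umin = (3/4)^B |U|/2`, `m = ⌈c2 q⌉`, `c2 = (3/4)^B/8`. -/
theorem A_cover_prob (H : ℕ) (hH : 1 ≤ H) : ∃ c2 : ℝ, 0 < c2 ∧ ∃ C : ℝ, 0 < C ∧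
    ∀ (F : Type) [Field F] [Fintype F] [DecidableEq F], 24 ≤ Fintype.card F →
      ∀ U : Finset (Ln F), U.Nonempty →
        (∀ z : Pt F, (U.filter (fun l => on z l)).card * Fintype.card F ≤ 4 * U.card) →
        Pr (fun ω : Om F H => ∀ l ∈ U, ∃ p ∈ RR ω, on p l) ≤
          (C * Fintype.card F / U.card) ^ (⌈c2 * Fintype.card F⌉₊) := by
  set B : ℕ := 30 * H with hB
  set s : ℝ := (3 / 4 : ℝ) ^ B with hs
  have hs0 : 0 < s := by positivity
  have hH0 : (0 : ℝ) < H := by exact_mod_cast hH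
  have hB0 : (0 : ℝ) < B := by
    have : 0 < B := by omega
    exact_mod_cast this
  refine ⟨s / 8, by positivity, Real.exp 1 * B * H / (2 * s * (s / 8)), by positivity, ?_⟩
  intro F _ _ _ hq U hU hdeg
  set q : ℕ := Fintype.card F with hqd
  have hq0 : (0 : ℝ) < q := by
    have : 0 < q := by omega
    exact_mod_cast this
  have hU0 : (0 : ℝ) < U.card := by exact_mod_cast hU.card_pos
  obtain ⟨blk, hblk, hsize⟩ := A_blocks (F := F) H hH hq
  set umin : ℝ := (3 / 4 : ℝ) ^ B / 2 * U.card with humin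
  have humin0 : 0 < umin := by positivity
  set m : ℕ := ⌈s / 8 * (q : ℝ)⌉₊ with hm
  have hmge : s / 8 * (q : ℝ) ≤ m := Nat.le_ceil _
  have hm0 : (0 : ℝ) < m := lt_of_lt_of_le (by positivity) hmge
  have hm1 : 1 ≤ m := by
    have : (0 : ℕ) < m := by exact_mod_cast hm0
    omega
  have h1 : Pr (fun ω : Om F H => ∀ l ∈ U, ∃ p ∈ RR ω, on p l) ≤
      Pr (fun ω : Om F H => m ≤ (univ.filter (fun k : Idx F H => rp ω k ∈
        A_D U blk umin (blk k) ω)).card) := by
    apply Pr_mono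
    intro ω hω
    have := A_cover_det B U hU hdeg blk hblk hsize ω hω
    exact Nat.ceil_le.mpr this
  have h2 := A_block_prob H B blk hblk (A_D U blk umin) (A_D_dep U blk umin)
    ((q : ℝ) ^ 3 / (4 * umin)) (A_D_card U blk umin humin0) m hm1
  refine (h1.trans h2).trans ?_
  apply pow_le_pow_left₀ (by positivity)
  rw [div_le_div_iff₀ (by positivity) hU0]
  have e1 : Real.exp 1 * B * H * ((q : ℝ) ^ 3 / (4 * umin)) * U.card =
      Real.exp 1 * B * H * (q : ℝ) ^ 3 / (2 * s) := by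
    rw [humin]
    field_simp
    ring
  rw [e1]
  have e2 : Real.exp 1 * B * H / (2 * s * (s / 8)) * q * (q * m) =
      Real.exp 1 * B * H * (q : ℝ) ^ 2 / (2 * s) * (m / (s / 8)) := by
    field_simp
  rw [e2]
  have e3 : Real.exp 1 * B * H * (q : ℝ) ^ 3 / (2 * s) =
      Real.exp 1 * B * H * (q : ℝ) ^ 2 / (2 * s) * q := by ring
  rw [e3]
  apply mul_le_mul_of_nonneg_left _ (by positivity)
  rw [le_div_iff₀ (by positivity)]
  linarith [hmge]

end Crest.Agent.RY
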