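/-
  RY_A_Ev : the two exceptional events of part2.
-/
import Crest.Agent.RY_A_Defs

set_option autoImplicit false

namespace Crest.Agent.RY
open Finset Classical

section
variable {F : Type} [Field F] [Fintype F] [DecidableEq F]

/-- `R` hits the rich set of a small set `T` too often -/
def A_E1 {H : ℕ} (ω : Om F H) : Prop :=
  ∃ (T : Finset (Pt F)) (m : ℕ), Fintype.card F ≤ 256 * m ^ 2 ∧ 8 * T.card ≤ m ∧ 65536 * T.card ≤ Fintype.card F ∧
    m ≤ (univ.filter (fun k : Idx F H => rp ω k ∈ A_W T)).card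

/-- `R` hits all the lines of `A_U0 S` for some good `S` -/
def A_E2 {H : ℕ} (ν : ℝ) (ω : Om F H) : Prop :=
  ∃ S : Finset (Pt F), A_Good ν S ∧ Fintype.card F ^ 3 < 16 * (F0 S).card ^ 2 ∧
    (F0 S).card ≤ 2 * (A_U0 S).card ∧ ∀ l ∈ A_U0 S, ∃ p ∈ RR ω, on p l

end

end Crest.Agent.RY
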