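/-
TASK RY_A_Near (medium).  `S ⊆ S'`, `|S'| = q`, `S` covers `F0 R`, every point off `R` has at least `φ q` lines of `F0 R`, `S'` misses at most
`ν q^2` lines, `8ν ≤ φ`, `φ q ≥ 16`.
* `A_near`: if a line `l` has `k ≥ q/2` points of `S'`: `(q+1-k)(k-1) ≤ ν q^2` (`A_line_count`), `k - 1 ≥ q/4`, so
  `q+1-k ≤ 4νq ≤ φq/2`.  If `p ∈ l`, `p ∉ R`, `p ∉ S`: at least `φq - 1` lines `≠ l` of `F0 R` pass through `p`, each contains
  a point of `S`, these points are different and not on `l`; so `φ q - 1 ≤ |S \ l| ≤ |S' \ l| = q - k ≤ φq/2 - 1`, contradiction.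
  If a part has `k ≥ q/2` points: `(q-k) k ≤ νq^2`, so `q - k ≤ 2νq`, the same (all lines through `p` leave the part).
* `A_X_sub`: let `z ∈ A_X S'`, `z ∉ R`.  The `≥ φq` lines of `F0 R` through `z` are met by `S ⊆ S'`, so `miss ≤ q - φq`; but `miss ≥ q/2` and
  `miss (q - miss) ≤ ν q^2` give `q - miss ≤ 2νq < φ q`.
-/
import Crest.Agent.RY_A_Struct

set_option autoImplicit false

namespace Crest.Agent.RY
open Finset Classical

variable {F : Type} [Field F] [Fintype F] [DecidableEq F]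

private lemma A_near_inj (S : Finset (Pt F)) (p : Pt F) (hp : p ∉ S) (T : Finset (Ln F))
    (hT : ∀ l' ∈ T, on p l' ∧ ∃ s ∈ S, on s l') (U : Finset (Pt F))
    (hU : ∀ l' ∈ T, ∀ s ∈ S, on s l' → s ∈ U) : T.card ≤ U.card := by
  have hch : ∀ l' : Ln F, ∃ s : Pt F, l' ∈ T → s ∈ S ∧ on s l' := by
    intro l'
    by_cases h : l' ∈ T
    · obtain ⟨s, hs, hs'⟩ := (hT l' h).2
      exact ⟨s, fun _ => ⟨hs, hs'⟩⟩
    · exact ⟨p, fun h' => absurd h' h⟩
  choose f hf using hch
  refine Finset.card_le_card_of_injOn f ?_ ?_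
  · intro l' hl'
    obtain ⟨h1, h2⟩ := hf l' hl'
    exact hU l' hl' _ h1 h2
  · intro l1 h1 l2 h2 he
    obtain ⟨a1, b1⟩ := hf l1 h1
    obtain ⟨a2, b2⟩ := hf l2 h2
    rw [← he] at b2
    have hne : f l1 ≠ p := fun h => hp (h ▸ a1)
    have hpart : (f l1).1 ≠ p.1 := fun h => hne (A_same_part h b1 (hT l1 h1).1)
    exact (A_join hpart).unique ⟨b1, (hT l1 h1).1⟩ ⟨b2, (hT l2 h2).1⟩

theorem A_near (φ ν : ℝ) (hφ : 0 < φ) (hν : 8 * ν ≤ φ) (R S S' : Finset (Pt F))
    (hq : 16 ≤ φ * (Fintype.card F : ℝ)) (hq4 : 4 ≤ Fintype.card F)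
    (hlow : ∀ p : Pt F, p ∉ R → φ * (Fintype.card F : ℝ) ≤ (((F0 R).filter (fun l => on p l)).card : ℝ))
    (hc : Cover R S) (hSS' : S ⊆ S') (hS' : S'.card = Fintype.card F)
    (hδ : ((F0 S').card : ℝ) ≤ ν * (Fintype.card F : ℝ) ^ 2)
    (hbig : (∃ l : Ln F, Fintype.card F ≤ 2 * (onL S' l).card) ∨
      (∃ i : Option F, Fintype.card F ≤ 2 * (onP S' i).card)) : NearLine R S := by
  set q := Fintype.card F with hqdef
  have hqR : (4 : ℝ) ≤ (q : ℝ) := by exact_mod_cast hq4
  rcases hbig with ⟨l, hl⟩ | ⟨i, hi⟩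
  · left
    refine ⟨l, ?_⟩
    intro p hpl hpR
    by_contra hpS
    set k := (onL S' l).card with hk
    have hkq : k ≤ q := by
      rw [← hS']; exact Finset.card_le_card (Finset.filter_subset _ _)
    have hcount := A_line_count S' hS' l
    rw [← hk, ← hqdef] at hcount
    have hcR : ((q : ℝ) + 1 - k) * ((k : ℝ) - 1) ≤ ν * (q : ℝ) ^ 2 := by
      refine le_trans ?_ hδ
      have h1 : (((q + 1 - k) * (k - 1) : ℕ) : ℝ) ≤ ((F0 S').card : ℝ) := by exact_mod_cast hcount
      rw [Nat.cast_mul, Nat.cast_sub (by omega), Nat.cast_sub (by omega)] at h1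
      push_cast at h1
      exact h1
    have hk2 : (q : ℝ) ≤ 2 * k := by exact_mod_cast hl
    have hkqR : (k : ℝ) ≤ q := by exact_mod_cast hkq
    -- lines through p
    set T := ((F0 R).filter (fun l => on p l)).erase l with hT
    set U := S'.filter (fun s => ¬ on s l) with hU
    have hTU : T.card ≤ U.card := by
      refine A_near_inj S p hpS T ?_ U ?_
      · intro l' hl'
        rw [hT, Finset.mem_erase, Finset.mem_filter] at hl'
        exact ⟨hl'.2.2, hc.2 l' hl'.2.1⟩
      · intro l' hl' s hs hsl'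
        rw [hT, Finset.mem_erase, Finset.mem_filter] at hl'
        rw [hU, Finset.mem_filter]
        refine ⟨hSS' hs, ?_⟩
        intro hsl
        have hne : s ≠ p := fun h => hpS (h ▸ hs)
        have hpart : s.1 ≠ p.1 := fun h => hne (A_same_part h hsl hpl)
        exact hl'.1 ((A_join hpart).unique ⟨hsl', hl'.2.2⟩ ⟨hsl, hpl⟩)
    have hUc : U.card + k = q := by
      rw [← hS', hU, hk]
      have := Finset.card_filter_add_card_filter_not (s := S') (p := fun s => on s l)
      unfold onL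
      rw [← this]
      rw [add_comm]
    have hTc : φ * (q : ℝ) - 1 ≤ (T.card : ℝ) := by
      have h1 := hlow p hpR
      have h2 : ((F0 R).filter (fun l => on p l)).card ≤ T.card + 1 := by
        rw [hT]
        have := Finset.pred_card_le_card_erase (s := (F0 R).filter (fun l => on p l)) (a := l)
        omega
      have h3 : (((F0 R).filter (fun l => on p l)).card : ℝ) ≤ (T.card : ℝ) + 1 := by
        exact_mod_cast h2
      linarith
    have hTUR : (T.card : ℝ) ≤ U.card := by exact_mod_cast hTU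
    have hUcR : (U.card : ℝ) + k = q := by exact_mod_cast hUc
    -- q + 1 - k ≥ φ q
    have h4 : φ * (q : ℝ) ≤ (q : ℝ) + 1 - k := by linarith
    have h5 : (q : ℝ) / 4 ≤ (k : ℝ) - 1 := by linarith
    have h6 : φ * (q : ℝ) * ((q : ℝ) / 4) ≤ ν * (q : ℝ) ^ 2 := by
      refine le_trans ?_ hcR
      apply mul_le_mul h4 h5 (by linarith) (by linarith)
    have h7 : φ * (q : ℝ) * ((q : ℝ) / 4) = (φ / 4) * (q : ℝ) ^ 2 := by ring
    rw [h7] at h6
    have h8 : φ / 4 ≤ ν := le_of_mul_le_mul_right h6 (by positivity)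
    linarith
  · right
    refine ⟨i, ?_⟩
    intro p hpi hpR
    by_contra hpS
    set k := (onP S' i).card with hk
    have hkq : k ≤ q := by
      rw [← hS']; exact Finset.card_le_card (Finset.filter_subset _ _)
    have hcount := A_part_count S' hS' i
    rw [← hk, ← hqdef] at hcount
    have hcR : ((q : ℝ) - k) * (k : ℝ) ≤ ν * (q : ℝ) ^ 2 := by
      refine le_trans ?_ hδ
      have h1 : (((q - k) * k : ℕ) : ℝ) ≤ ((F0 S').card : ℝ) := by exact_mod_cast hcount
      rw [Nat.cast_mul, Nat.cast_sub (by omega)] at h1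
      exact h1
    have hk2 : (q : ℝ) ≤ 2 * k := by exact_mod_cast hi
    have hkqR : (k : ℝ) ≤ q := by exact_mod_cast hkq
    set T := ((F0 R).filter (fun l => on p l)) with hT
    set U := S'.filter (fun s => ¬ s.1 = i) with hU
    have hTU : T.card ≤ U.card := by
      refine A_near_inj S p hpS T ?_ U ?_
      · intro l' hl'
        rw [hT, Finset.mem_filter] at hl'
        exact ⟨hl'.2, hc.2 l' hl'.1⟩
      · intro l' hl' s hs hsl'
        rw [hT, Finset.mem_filter] at hl'
        rw [hU, Finset.mem_filter]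
        refine ⟨hSS' hs, ?_⟩
        intro hsi
        have hne : s ≠ p := fun h => hpS (h ▸ hs)
        exact hne (A_same_part (hsi.trans hpi.symm) hsl' hl'.2)
    have hUc : U.card + k = q := by
      rw [← hS', hU, hk]
      have := Finset.card_filter_add_card_filter_not (s := S') (p := fun s => s.1 = i)
      unfold onP
      rw [← this]
      rw [add_comm]
    have hTc : φ * (q : ℝ) ≤ (T.card : ℝ) := hlow p hpR
    have hTUR : (T.card : ℝ) ≤ U.card := by exact_mod_cast hTU
    have hUcR : (U.card : ℝ) + k = q := by exact_mod_cast hUc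
    have h4 : φ * (q : ℝ) ≤ (q : ℝ) - k := by linarith
    have h5 : (q : ℝ) / 2 ≤ (k : ℝ) := by linarith
    have h6 : φ * (q : ℝ) * ((q : ℝ) / 2) ≤ ν * (q : ℝ) ^ 2 := by
      refine le_trans ?_ hcR
      apply mul_le_mul h4 h5 (by linarith) (by linarith)
    have h7 : φ * (q : ℝ) * ((q : ℝ) / 2) = (φ / 2) * (q : ℝ) ^ 2 := by ring
    rw [h7] at h6
    have h8 : φ / 2 ≤ ν := le_of_mul_le_mul_right h6 (by positivity)
    linarith

theorem A_X_sub (φ ν : ℝ) (hφ : 0 < φ) (hν : 8 * ν ≤ φ) (R S S' : Finset (Pt F))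
    (hq : 16 ≤ φ * (Fintype.card F : ℝ))
    (hlow : ∀ p : Pt F, p ∉ R → φ * (Fintype.card F : ℝ) ≤ (((F0 R).filter (fun l => on p l)).card : ℝ))
    (hc : Cover R S) (hSS' : S ⊆ S') (hS' : S'.card = Fintype.card F)
    (hδ : ((F0 S').card : ℝ) ≤ ν * (Fintype.card F : ℝ) ^ 2) : A_X S' ⊆ R := by
  intro z hz
  by_contra hzR
  unfold A_X at hz
  rw [Finset.mem_filter] at hz
  obtain ⟨-, hzS', hzm⟩ := hz
  set q := Fintype.card F with hqdef
  have hq0 : 0 < q := Fintype.card_pos
  have hq0R : (0 : ℝ) < (q : ℝ) := by exact_mod_cast hq0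
  have hsw := A_sw_out S' hS' z hzS'
  set m := A_miss S' z with hm
  rw [← hqdef] at hsw
  -- disjointness of the missed lines and the lines of F0 R through z
  have hdis : Disjoint ((F0 S').filter (fun l => on z l)) ((F0 R).filter (fun l => on z l)) := by
    rw [Finset.disjoint_left]
    intro l h1 h2
    rw [Finset.mem_filter] at h1 h2
    obtain ⟨s, hs, hsl⟩ := hc.2 l h2.1
    have h3 := h1.1
    unfold F0 at h3
    rw [Finset.mem_filter] at h3
    exact h3.2 s (hSS' hs) hsl
  have hsum : m + ((F0 R).filter (fun l => on z l)).card ≤ q := by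
    rw [hm]
    unfold A_miss
    have hth := A_card_thru z
    rw [← hqdef] at hth
    rw [← Finset.card_union_of_disjoint hdis, ← hth]
    apply Finset.card_le_card
    intro l hl
    unfold A_thru
    rw [Finset.mem_union, Finset.mem_filter, Finset.mem_filter] at hl
    rw [Finset.mem_filter]
    refine ⟨Finset.mem_univ _, ?_⟩
    rcases hl with h | h
    · exact h.2
    · exact h.2
  have hsumR : (m : ℝ) + (((F0 R).filter (fun l => on z l)).card : ℝ) ≤ q := by exact_mod_cast hsum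
  have h1 := hlow z hzR
  have hmq : m ≤ q := by omega
  have h2 : φ * (q : ℝ) ≤ (q : ℝ) - m := by linarith
  have h3 : (q : ℝ) / 2 ≤ m := by
    have : (q : ℝ) ≤ 2 * m := by exact_mod_cast hzm
    linarith
  have h4 : (m : ℝ) * ((q : ℝ) - m) ≤ ν * (q : ℝ) ^ 2 := by
    refine le_trans ?_ hδ
    have h5 : ((m * (q - m) : ℕ) : ℝ) ≤ ((F0 S').card : ℝ) := by exact_mod_cast hsw
    rw [Nat.cast_mul, Nat.cast_sub hmq] at h5
    exact h5
  have h6 : ((q : ℝ) / 2) * (φ * (q : ℝ)) ≤ ν * (q : ℝ) ^ 2 := by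
    refine le_trans ?_ h4
    apply mul_le_mul h3 h2 (by positivity) (by positivity)
  have h7 : ((q : ℝ) / 2) * (φ * (q : ℝ)) = (φ / 2) * (q : ℝ) ^ 2 := by ring
  rw [h7] at h6
  have h8 : φ / 2 ≤ ν := le_of_mul_le_mul_right h6 (by positivity)
  linarith

end Crest.Agent.RY
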