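/-
TASK RY_A_Det (medium, assembly).  Let `R = RR ω`, `S` a cover, not `NearLine`.  Choose `S' ⊇ S` with `|S'| = q`
(`Finset.exists_superset_card_eq`); `F0 S' ⊆ F0 S`.  By `A_near` no line or part has `≥ q/2` points of `S'`; so `A_Good ν S'`, and
`q^3 < 16 #(F0 S')^2` by `A_big`.  `A_X S' ⊆ R` by `A_X_sub`.
If `#(F0 S') ≤ 2 q #(A_X S')`: `A_case1`, and every point of `A_X S' ∩ A_W T ⊆ R` has an index `k` (`R = image of rp`), so `A_E1`.
Otherwise `#(F0 S') ≤ 2 #(A_U0 S')` (`A_U0_card`), and every line of `A_U0 S' ⊆ F0 S' ⊆ F0 S` is hit by `R` (a line of `F0 R` is met by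
`S`), so `A_E2`.
-/
import Crest.Agent.RY_A_Ev
import Crest.Agent.RY_A_Near
import Crest.Agent.RY_A_Case1

set_option autoImplicit false

namespace Crest.Agent.RY
open Finset Classical

variable {F : Type} [Field F] [Fintype F] [DecidableEq F]

theorem A_det {H : ℕ} (φ ν : ℝ) (hφ : 0 < φ) (hν : 8 * ν ≤ φ) (hν1 : 2048 * ν ≤ 1)
    (hq : 16 ≤ φ * (Fintype.card F : ℝ)) (hq1 : 2 ^ 100 ≤ Fintype.card F) (ω : Om F H) (hL : LowDeg φ ω)
    (S : Finset (Pt F)) (hc : Cover (RR ω) S)
    (hδ : ((F0 S).card : ℝ) ≤ ν * (Fintype.card F : ℝ) ^ 2) (hn : ¬ NearLine (RR ω) S) :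
    A_E1 ω ∨ A_E2 ν ω := by
  have hcardPt : Fintype.card F ≤ (univ : Finset (Pt F)).card := by
    rw [Finset.card_univ, Fintype.card_prod, Fintype.card_option]
    exact Nat.le_mul_of_pos_left _ (Nat.succ_pos _)
  obtain ⟨S', hSS', -, hS'⟩ := Finset.exists_subsuperset_card_eq (Finset.subset_univ S) hc.1 hcardPt
  have hF0sub : F0 S' ⊆ F0 S := by
    intro l hl
    simp only [F0, mem_filter, mem_univ, true_and] at hl ⊢
    exact fun p hp => hl p (hSS' hp)
  have hδ' : ((F0 S').card : ℝ) ≤ ν * (Fintype.card F : ℝ) ^ 2 :=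
    le_trans (by exact_mod_cast Finset.card_le_card hF0sub) hδ
  have hbig100 : (100 : ℕ) ≤ Fintype.card F := le_trans (by norm_num) hq1
  have h4 : (4 : ℕ) ≤ Fintype.card F := le_trans (by norm_num) hbig100
  have hnb : ¬ ((∃ l : Ln F, Fintype.card F ≤ 2 * (onL S' l).card) ∨
      (∃ i : Option F, Fintype.card F ≤ 2 * (onP S' i).card)) := fun hb =>
    hn (A_near φ ν hφ hν (RR ω) S S' hq h4 hL hc hSS' hS' hδ' hb)
  have hgl : ∀ l : Ln F, 2 * (onL S' l).card < Fintype.card F := by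
    intro l
    by_contra hcon
    exact hnb (Or.inl ⟨l, not_lt.mp hcon⟩)
  have hgp : ∀ i : Option F, 2 * (onP S' i).card < Fintype.card F := by
    intro i
    by_contra hcon
    exact hnb (Or.inr ⟨i, not_lt.mp hcon⟩)
  have hgood : A_Good ν S' := ⟨hS', hδ', hgl, hgp⟩
  have h1 : Fintype.card F ^ 3 < 16 * (F0 S').card ^ 2 := by
    by_contra hcon
    exact hnb (A_big S' hS' hbig100 (not_lt.mp hcon))
  have hXR : A_X S' ⊆ RR ω := A_X_sub φ ν hφ hν (RR ω) S S' hq hL hc hSS' hS' hδ'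
  by_cases hX : (F0 S').card ≤ 2 * (Fintype.card F * (A_X S').card)
  · left
    have h2 : 2048 * (F0 S').card ≤ Fintype.card F ^ 2 := by
      have h3 : (2048 : ℝ) * ((F0 S').card : ℝ) ≤ (Fintype.card F : ℝ) ^ 2 := by
        calc (2048 : ℝ) * ((F0 S').card : ℝ) ≤ 2048 * (ν * (Fintype.card F : ℝ) ^ 2) := by linarith
          _ = (2048 * ν) * (Fintype.card F : ℝ) ^ 2 := by ring
          _ ≤ 1 * (Fintype.card F : ℝ) ^ 2 := mul_le_mul_of_nonneg_right hν1 (by positivity)
          _ = (Fintype.card F : ℝ) ^ 2 := one_mul _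
      exact_mod_cast h3
    obtain ⟨T, m, hm1, hm2, hm3, hm4⟩ := A_case1 S' hS' hgp h1 h2 hX hq1
    refine ⟨T, m, hm1, hm2, hm3, le_trans hm4 ?_⟩
    have hsub : A_X S' ∩ A_W T ⊆
        (univ.filter (fun k : Idx F H => rp ω k ∈ A_W T)).image (rp ω) := by
      intro p hp
      rw [mem_inter] at hp
      have hpR := hXR hp.1
      simp only [RR, mem_image, mem_univ, true_and] at hpR
      obtain ⟨k, hk⟩ := hpR
      refine mem_image.mpr ⟨k, ?_, hk⟩
      simp only [mem_filter, mem_univ, true_and]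
      rw [hk]
      exact hp.2
    exact le_trans (Finset.card_le_card hsub) Finset.card_image_le
  · right
    push Not at hX
    have hU := A_U0_card S'
    refine ⟨S', hgood, h1, ?_, ?_⟩
    · omega
    · intro l hl
      simp only [A_U0, mem_filter] at hl
      have hlS : l ∈ F0 S := hF0sub hl.1
      by_contra hcon
      push Not at hcon
      have hlR : l ∈ F0 (RR ω) := by
        simp only [F0, mem_filter, mem_univ, true_and]
        exact hcon
      obtain ⟨p, hp, hpl⟩ := hc.2 l hlR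
      simp only [F0, mem_filter, mem_univ, true_and] at hlS
      exact hlS p hp hpl

end Crest.Agent.RY
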