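/-
TASK RY_A_Det1 (easy).  Weighted degree bound of a determinant.  `Matrix.det_apply`: every nonzero product
`∏ M (σ i) i` has natDegree `≤ ∑ (r (σ i) - c i)`, i.e. natDegree `+ ∑ c ≤ ∑ r`.
-/
import Crest.Agent.RY_A_Defs

set_option autoImplicit false

namespace Crest.Agent.RY
open Finset Classical Polynomial

theorem A_det_natDegree {K : Type} [Field K] {n : Type} [Fintype n] [DecidableEq n]
    (M : Matrix n n K[X]) (r c : n → ℕ)
    (h : ∀ i j, M i j = 0 ∨ (M i j).natDegree + c j ≤ r i) :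
    M.det = 0 ∨ M.det.natDegree + ∑ j, c j ≤ ∑ i, r i := by
  by_cases hdet : M.det = 0
  · exact Or.inl hdet
  right
  -- every nonzero product has bounded degree
  have hprod : ∀ σ : Equiv.Perm n, (∏ i, M (σ i) i) ≠ 0 →
      (∏ i, M (σ i) i).natDegree + ∑ j, c j ≤ ∑ i, r i := by
    intro σ hσ
    have hne : ∀ i, M (σ i) i ≠ 0 := fun i => (Finset.prod_ne_zero_iff.1 hσ) i (Finset.mem_univ i)
    have h1 : ∀ i, (M (σ i) i).natDegree + c i ≤ r (σ i) := fun i => (h (σ i) i).resolve_left (hne i)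
    have h2 : ∑ i, ((M (σ i) i).natDegree + c i) ≤ ∑ i, r (σ i) := Finset.sum_le_sum fun i _ => h1 i
    rw [Finset.sum_add_distrib, Equiv.sum_comp σ r] at h2
    have h3 : (∏ i, M (σ i) i).natDegree ≤ ∑ i, (M (σ i) i).natDegree :=
      Polynomial.natDegree_prod_le _ _
    omega
  have hex : ∃ σ : Equiv.Perm n, (∏ i, M (σ i) i) ≠ 0 := by
    by_contra hcon
    push Not at hcon
    apply hdet
    rw [Matrix.det_apply]
    refine Finset.sum_eq_zero fun σ _ => ?_
    rw [hcon σ, smul_zero]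
  obtain ⟨σ0, hσ0⟩ := hex
  have hle0 := hprod σ0 hσ0
  have hdeg : M.det.natDegree ≤ ∑ i, r i - ∑ j, c j := by
    rw [Matrix.det_apply]
    refine Polynomial.natDegree_sum_le_of_forall_le _ _ fun σ _ => ?_
    refine (Polynomial.natDegree_smul_le _ _).trans ?_
    by_cases hσ : (∏ i, M (σ i) i) = 0
    · rw [hσ]; simp
    · have := hprod σ hσ
      omega
  omega

end Crest.Agent.RY
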