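/-
TASK RY_A_Det2 (medium).  If the matrix `M(y)` has left corank `≥ m`, then `(X - y)^m` divides `det M`.
-/
import Crest.Agent.RY_A_Defs

set_option autoImplicit false

namespace Crest.Agent.RY
open Finset Classical Polynomial

theorem A_det_dvd {K : Type} [Field K] {n : Type} [Fintype n] [DecidableEq n]
    (M : Matrix n n K[X]) (y : K) (W : Submodule K (n → K))
    (hW : ∀ w ∈ W, Matrix.vecMul w (M.map (Polynomial.eval y)) = 0) :
    (X - C y) ^ (Module.finrank K W) ∣ M.det := by
  obtain ⟨W', hWW'⟩ := Submodule.exists_isCompl W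
  let bW := Module.finBasis K W
  let bW' := Module.finBasis K W'
  let B := (bW.prod bW').map (Submodule.prodEquivOfIsCompl W W' hWW')
  have hcard2 : Fintype.card n = Fintype.card (Fin (Module.finrank K W) ⊕ Fin (Module.finrank K W')) := by
    rw [← Module.finrank_eq_card_basis B]; simp
  let e : n ≃ (Fin (Module.finrank K W) ⊕ Fin (Module.finrank K W')) := Fintype.equivOfCardEq hcard2
  let B' : Module.Basis n K (n → K) := B.reindex e.symm
  have hB' : ∀ i, B' i = B (e i) := by
    intro i
    simp [B']
  have hBinl : ∀ t, B (Sum.inl t) = ((bW t : W) : n → K) := by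
    intro t
    simp [B]
  -- the matrix P
  let P : Matrix n n K := Matrix.of fun i => B' i
  have hPdet : IsUnit P.det := by
    have h1 : IsUnit (LinearMap.toMatrix (Pi.basisFun K n) (Pi.basisFun K n)
        ((Pi.basisFun K n).equiv B' (Equiv.refl n) : (n → K) →ₗ[K] (n → K))).det := by
      rw [LinearMap.det_toMatrix]
      exact LinearEquiv.isUnit_det' _
    have h2 : (LinearMap.toMatrix (Pi.basisFun K n) (Pi.basisFun K n)
        ((Pi.basisFun K n).equiv B' (Equiv.refl n) : (n → K) →ₗ[K] (n → K))) = P.transpose := by
      ext i j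
      rw [LinearMap.toMatrix_apply]
      have h5 : ((Pi.basisFun K n).equiv B' (Equiv.refl n)) ((Pi.basisFun K n) j) = B' j := by
        rw [Module.Basis.equiv_apply]; rfl
      simp only [LinearEquiv.coe_coe, h5]
      simp [P]
    rw [h2, Matrix.det_transpose] at h1
    exact h1
  let v : n → K[X] := fun i => if (e i).isLeft then X - C y else 1
  have hrow : ∀ i j, v i ∣ ((P.map C) * M) i j := by
    intro i j
    by_cases hi : (e i).isLeft
    · have hv : v i = X - C y := by simp [v, hi]
      rw [hv, Polynomial.dvd_iff_isRoot, Polynomial.IsRoot.def]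
      obtain ⟨t, ht⟩ := Sum.isLeft_iff.mp hi
      have hmem : B' i ∈ W := by
        rw [hB', ht, hBinl]
        exact (bW t).2
      have h3 := congrFun (hW _ hmem) j
      rw [Matrix.vecMul, dotProduct] at h3
      rw [Matrix.mul_apply, Polynomial.eval_finsetSum]
      simpa [P] using h3
    · have hv : v i = 1 := by simp [v, hi]
      rw [hv]
      exact one_dvd _
  choose N hN using hrow
  have hfac : ((P.map C) * M) = Matrix.of fun i j => v i * N i j := by
    ext1 i j
    rw [hN i j]
    rfl
  have hdet := congrArg Matrix.det hfac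
  have h4 : (Matrix.of fun i j => v i * N i j).det = (∏ i, v i) * (Matrix.of N).det :=
    Matrix.det_mul_column v (Matrix.of N)
  rw [h4, Matrix.det_mul] at hdet
  have hprod : ∏ i, v i = (X - C y) ^ (Module.finrank K W) := by
    rw [← e.symm.prod_comp]
    simp only [v, Equiv.apply_symm_apply]
    rw [Fintype.prod_sum_type]
    simp
  rw [hprod] at hdet
  have hPC : (P.map C).det = C P.det := by
    have := RingHom.map_det (C : K →+* K[X]) P
    rw [this]
    rfl
  rw [hPC] at hdet
  have hunit : IsUnit (C P.det) := Polynomial.isUnit_C.mpr hPdet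
  refine (hunit.dvd_mul_left).mp ?_
  rw [hdet]
  exact Dvd.intro _ rfl

end Crest.Agent.RY
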