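/-
TASK RY_A_Elem1 (easy/medium).  Elementary counting for a set `S` of `q` plane points, `δ = #(F0 S)`.
* `A_excess_eq`: `∑_l x_l = q^2` (`A_sum_onL`), `#lines = q^2`, `F0 S` = the lines with `x_l = 0`, so `∑ (x_l - 1)^+ = δ`
  (truncated subtraction).  `A_excess`: `x ≤ 2 (x-1)` for `x ≥ 2`.
* `A_line_count`: `k = |onL S l|`.  Each of the `q+1-k` points `z ∈ l`, `z ∉ S`, is on `q-1` other lines; the points of
  `S` off `l` (there are `q-k`) meet at most one line through `z` each; so `z` is on at least `q-1-(q-k) = k-1` missed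
  lines other than `l`; these are different for different `z` (two points of `l` are on no other common line).
* `A_part_count`: `k = |onP S i|`.  Each of the `q-k` points `z ∉ S` of the part `i` is on `q` lines, at most `q-k` of
  them are met by `S` (only by points of other parts, each on at most one line through `z`); no line contains two points of a part.
-/
import Crest.Agent.RY_A_Plane1

set_option autoImplicit false

namespace Crest.Agent.RY
open Finset Classical

variable {F : Type} [Field F] [Fintype F] [DecidableEq F]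

private theorem A1_memF0 (S : Finset (Pt F)) (l : Ln F) : l ∈ F0 S ↔ (onL S l).card = 0 := by
  unfold F0 onL
  rw [Finset.mem_filter, Finset.card_eq_zero, Finset.filter_eq_empty_iff]
  simp

theorem A_excess_eq (S : Finset (Pt F)) (hS : S.card = Fintype.card F) :
    ∑ l : Ln F, ((onL S l).card - 1) = (F0 S).card := by
  have h1 : ∀ l : Ln F, ((onL S l).card - 1) + 1 = (onL S l).card + (if (onL S l).card = 0 then 1 else 0) := by
    intro l
    split_ifs with h
    · omega
    · omega
  have h2 : ∑ l : Ln F, (((onL S l).card - 1) + 1)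
      = ∑ l : Ln F, ((onL S l).card + (if (onL S l).card = 0 then 1 else 0)) :=
    Finset.sum_congr rfl (fun l _ => h1 l)
  rw [Finset.sum_add_distrib, Finset.sum_add_distrib, A_sum_onL, hS] at h2
  have h3 : ∑ _l : Ln F, 1 = Fintype.card F ^ 2 := by
    rw [Finset.sum_const, smul_eq_mul, mul_one, Finset.card_univ, A_card_Ln]
  have h4 : ∑ l : Ln F, (if (onL S l).card = 0 then 1 else 0) = (F0 S).card := by
    rw [← Finset.card_filter]
    congr 1
    ext l
    rw [A1_memF0]
    simp
  rw [h3, h4] at h2
  have : Fintype.card F ^ 2 = Fintype.card F * Fintype.card F := by ring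
  omega

theorem A_excess (S : Finset (Pt F)) (hS : S.card = Fintype.card F) :
    ∑ l ∈ univ.filter (fun l : Ln F => 2 ≤ (onL S l).card), (onL S l).card ≤ 2 * (F0 S).card := by
  rw [← A_excess_eq S hS, Finset.mul_sum]
  calc ∑ l ∈ univ.filter (fun l : Ln F => 2 ≤ (onL S l).card), (onL S l).card
      ≤ ∑ l ∈ univ.filter (fun l : Ln F => 2 ≤ (onL S l).card), 2 * ((onL S l).card - 1) := by
        apply Finset.sum_le_sum
        intro l hl
        rw [Finset.mem_filter] at hl
        omega
    _ ≤ ∑ l : Ln F, 2 * ((onL S l).card - 1) := by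
        apply Finset.sum_le_sum_of_subset_of_nonneg (Finset.filter_subset _ _)
        intro _ _ _
        exact Nat.zero_le _

private theorem A1_two (z p : Pt F) (h : p ≠ z) :
    (univ.filter (fun l : Ln F => on p l ∧ on z l)).card ≤ 1 := by
  rw [Finset.card_le_one]
  intro a ha b hb
  rw [Finset.mem_filter] at ha hb
  have hne : p.1 ≠ z.1 := fun h' => h (A_same_part h' ha.2.1 ha.2.2)
  exact (A_join hne).unique ha.2 hb.2

private theorem A1_met (S T : Finset (Pt F)) (z : Pt F) (hz : z ∉ T) (E : Finset (Ln F))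
    (h : ∀ l' : Ln F, on z l' → l' ∉ E → l' ∉ F0 S → ∃ p ∈ T, on p l') :
    Fintype.card F ≤ E.card + ((F0 S).filter (fun l => on z l)).card + T.card := by
  have hsub : A_thru z ⊆ (E ∪ (F0 S).filter (fun l => on z l)) ∪
      T.biUnion (fun p => univ.filter (fun l : Ln F => on p l ∧ on z l)) := by
    intro l' hl'
    unfold A_thru at hl'
    rw [Finset.mem_filter] at hl'
    by_cases h1 : l' ∈ E
    · exact Finset.mem_union_left _ (Finset.mem_union_left _ h1)
    by_cases h2 : l' ∈ F0 S
    · exact Finset.mem_union_left _ (Finset.mem_union_right _ (Finset.mem_filter.mpr ⟨h2, hl'.2⟩))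
    obtain ⟨p, hp, hpl⟩ := h l' hl'.2 h1 h2
    apply Finset.mem_union_right
    rw [Finset.mem_biUnion]
    exact ⟨p, hp, Finset.mem_filter.mpr ⟨Finset.mem_univ _, hpl, hl'.2⟩⟩
  have h1 := Finset.card_le_card hsub
  rw [A_card_thru] at h1
  have h2 := Finset.card_union_le (E ∪ (F0 S).filter (fun l => on z l))
    (T.biUnion (fun p => univ.filter (fun l : Ln F => on p l ∧ on z l)))
  have h3 := Finset.card_union_le E ((F0 S).filter (fun l => on z l))
  have h4 : (T.biUnion (fun p => univ.filter (fun l : Ln F => on p l ∧ on z l))).card ≤ T.card * 1 := by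
    apply Finset.card_biUnion_le_card_mul
    intro p hp
    exact A1_two z p (fun h' => hz (h' ▸ hp))
  omega

private theorem A1_sum (S Z : Finset (Pt F)) (c : ℕ)
    (hc : ∀ z ∈ Z, c ≤ ((F0 S).filter (fun l => on z l)).card)
    (hd : ∀ z ∈ Z, ∀ z' ∈ Z, z ≠ z' → ∀ l ∈ F0 S, on z l → on z' l → False) :
    Z.card * c ≤ (F0 S).card := by
  have h1 : Z.card * c ≤ ∑ z ∈ Z, ((F0 S).filter (fun l => on z l)).card := by
    rw [← smul_eq_mul]
    exact Finset.card_nsmul_le_sum _ _ _ hc
  have h2 : ∑ z ∈ Z, ((F0 S).filter (fun l => on z l)).card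
      = (Z.biUnion (fun z => (F0 S).filter (fun l => on z l))).card := by
    rw [Finset.card_biUnion]
    intro z hz z' hz' hne
    simp only [Function.onFun]
    rw [Finset.disjoint_left]
    intro l hl hl'
    rw [Finset.mem_filter] at hl hl'
    exact hd z hz z' hz' hne l hl.1 hl.2 hl'.2
  rw [h2] at h1
  refine le_trans h1 (Finset.card_le_card ?_)
  intro l hl
  rw [Finset.mem_biUnion] at hl
  obtain ⟨z, _, hl⟩ := hl
  exact (Finset.mem_filter.mp hl).1

theorem A_line_count (S : Finset (Pt F)) (hS : S.card = Fintype.card F) (l : Ln F) :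
    (Fintype.card F + 1 - (onL S l).card) * ((onL S l).card - 1) ≤ (F0 S).card := by
  rcases Nat.eq_zero_or_pos (onL S l).card with h0 | hpos
  · rw [h0]; simp
  have hl : l ∉ F0 S := by rw [A1_memF0]; omega
  set Z : Finset (Pt F) := univ.filter (fun p : Pt F => on p l ∧ p ∉ S) with hZ
  have hZc : Z.card = Fintype.card F + 1 - (onL S l).card := by
    have h1 : Z = (univ.filter (fun p : Pt F => on p l)) \ onL S l := by
      ext p
      rw [hZ, Finset.mem_filter, Finset.mem_sdiff, Finset.mem_filter]
      unfold onL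
      rw [Finset.mem_filter]
      constructor
      · rintro ⟨_, h1, h2⟩
        exact ⟨⟨Finset.mem_univ _, h1⟩, fun h => h2 h.1⟩
      · rintro ⟨⟨_, h1⟩, h2⟩
        exact ⟨Finset.mem_univ _, h1, fun h => h2 ⟨h, h1⟩⟩
    rw [h1, Finset.card_sdiff_of_subset, A_card_line]
    intro p hp
    unfold onL at hp
    rw [Finset.mem_filter] at hp
    exact Finset.mem_filter.mpr ⟨Finset.mem_univ _, hp.2⟩
  rw [← hZc]
  have hsplit : (onL S l).card + (S.filter (fun p => ¬ on p l)).card = Fintype.card F := by
    rw [← hS]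
    unfold onL
    exact Finset.card_filter_add_card_filter_not _
  apply A1_sum
  · intro z hz
    rw [hZ, Finset.mem_filter] at hz
    have := A1_met S (S.filter (fun p => ¬ on p l)) z (fun h => hz.2.2 (Finset.mem_filter.mp h).1) {l} (by
      intro l' hzl' hE hF
      rw [Finset.mem_singleton] at hE
      rw [A1_memF0] at hF
      have hne : (onL S l').Nonempty := Finset.card_pos.mp (Nat.pos_of_ne_zero hF)
      obtain ⟨p, hp⟩ := hne
      unfold onL at hp
      rw [Finset.mem_filter] at hp
      refine ⟨p, Finset.mem_filter.mpr ⟨hp.1, ?_⟩, hp.2⟩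
      intro hpl
      have := (A_meet hE).unique ⟨hp.2, hpl⟩ ⟨hzl', hz.2.1⟩
      exact hz.2.2 (this ▸ hp.1))
    rw [Finset.card_singleton] at this
    omega
  · intro z hz z' hz' hne l' hl' h1 h2
    rw [hZ, Finset.mem_filter] at hz hz'
    have hll : l' ≠ l := fun h => hl (h ▸ hl')
    exact hne ((A_meet hll).unique ⟨h1, hz.2.1⟩ ⟨h2, hz'.2.1⟩)

theorem A_part_count (S : Finset (Pt F)) (hS : S.card = Fintype.card F) (i : Option F) :
    (Fintype.card F - (onP S i).card) * (onP S i).card ≤ (F0 S).card := by
  set Z : Finset (Pt F) := univ.filter (fun p : Pt F => p.1 = i ∧ p ∉ S) with hZ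
  have hpart : (univ.filter (fun p : Pt F => p.1 = i)).card = Fintype.card F := by
    have : (univ.filter (fun p : Pt F => p.1 = i)) = univ.image (fun h : F => ((i, h) : Pt F)) := by
      ext p
      rw [Finset.mem_filter, Finset.mem_image]
      constructor
      · rintro ⟨_, h⟩
        exact ⟨p.2, Finset.mem_univ _, by rw [← h]⟩
      · rintro ⟨h, _, rfl⟩
        exact ⟨Finset.mem_univ _, rfl⟩
    rw [this, Finset.card_image_of_injective, Finset.card_univ]
    intro a b hab
    exact (Prod.ext_iff.mp hab).2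
  have hZc : Z.card = Fintype.card F - (onP S i).card := by
    have h1 : Z = (univ.filter (fun p : Pt F => p.1 = i)) \ onP S i := by
      ext p
      rw [hZ, Finset.mem_filter, Finset.mem_sdiff, Finset.mem_filter]
      unfold onP
      rw [Finset.mem_filter]
      constructor
      · rintro ⟨_, h1, h2⟩
        exact ⟨⟨Finset.mem_univ _, h1⟩, fun h => h2 h.1⟩
      · rintro ⟨⟨_, h1⟩, h2⟩
        exact ⟨Finset.mem_univ _, h1, fun h => h2 ⟨h, h1⟩⟩
    rw [h1, Finset.card_sdiff_of_subset, hpart]
    intro p hp
    unfold onP at hp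
    rw [Finset.mem_filter] at hp
    exact Finset.mem_filter.mpr ⟨Finset.mem_univ _, hp.2⟩
  rw [← hZc]
  have hsplit : (onP S i).card + (S.filter (fun p => ¬ p.1 = i)).card = Fintype.card F := by
    rw [← hS]
    unfold onP
    exact Finset.card_filter_add_card_filter_not _
  apply A1_sum
  · intro z hz
    rw [hZ, Finset.mem_filter] at hz
    have := A1_met S (S.filter (fun p => ¬ p.1 = i)) z (fun h => hz.2.2 (Finset.mem_filter.mp h).1) ∅ (by
      intro l' hzl' _ hF
      rw [A1_memF0] at hF
      have hne : (onL S l').Nonempty := Finset.card_pos.mp (Nat.pos_of_ne_zero hF)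
      obtain ⟨p, hp⟩ := hne
      unfold onL at hp
      rw [Finset.mem_filter] at hp
      refine ⟨p, Finset.mem_filter.mpr ⟨hp.1, ?_⟩, hp.2⟩
      intro hpi
      have := A_same_part (hpi.trans hz.2.1.symm) hp.2 hzl'
      exact hz.2.2 (this ▸ hp.1))
    rw [Finset.card_empty] at this
    omega
  · intro z hz z' hz' hne l' _ h1 h2
    rw [hZ, Finset.mem_filter] at hz hz'
    exact hne (A_same_part (hz.2.1.trans hz'.2.1.symm) h1 h2)

end Crest.Agent.RY
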