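/-
TASK RY_A_Elem2 (medium).
* `A_pairs_all`: the ordered pairs of different points of `S`; pairs in different parts are on exactly one line, pairs in the
  same part on none.
* `A_big`: suppose all `2|onL S l| < q`, `2|onP S i| < q`.  By `A_line_count`: `(q/2) (k_l - 1) ≤ δ`; by `A_part_count`
  `(q/2) k_i ≤ δ`.  So all `k_l - 1, k_i - 1 ≤ 2δ/q`; `q(q-1) = ∑_l k_l(k_l-1) + ∑_i k_i (k_i-1) ≤ (1+2δ/q) (δ + q)`
  (`∑ (k_l-1)^+ = δ` (`A_excess_eq`), `∑ k_i = q`), i.e. `q^2 - 2q ≤ 3δ + 2δ^2/q`, contradiction to `16 δ^2 ≤ q^3`, `q ≥ 100`.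
-/
import Crest.Agent.RY_A_Elem1

set_option autoImplicit false

namespace Crest.Agent.RY
open Finset Classical

variable {F : Type} [Field F] [Fintype F] [DecidableEq F]

theorem A_pairs_all (S : Finset (Pt F)) :
    S.card * (S.card - 1) = ∑ l : Ln F, (onL S l).card * ((onL S l).card - 1) +
      ∑ i : Option F, (onP S i).card * ((onP S i).card - 1) := by
  have hod : ∀ T : Finset (Pt F), T.card * (T.card - 1) = T.offDiag.card := by
    intro T
    rw [Finset.offDiag_card, Nat.mul_sub_one]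
  rw [hod S]
  have h1 : ∀ l : Ln F, (onL S l).card * ((onL S l).card - 1) =
      ∑ x ∈ S.offDiag, if on x.1 l ∧ on x.2 l then 1 else 0 := by
    intro l
    rw [hod, ← Finset.card_filter]
    congr 1
    ext x
    simp only [Finset.mem_offDiag, onL, Finset.mem_filter]
    tauto
  have h2 : ∀ i : Option F, (onP S i).card * ((onP S i).card - 1) =
      ∑ x ∈ S.offDiag, if x.1.1 = i ∧ x.2.1 = i then 1 else 0 := by
    intro i
    rw [hod, ← Finset.card_filter]
    congr 1
    ext x
    simp only [Finset.mem_offDiag, onP, Finset.mem_filter]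
    tauto
  simp only [h1, h2]
  rw [Finset.sum_comm, Finset.sum_comm (s := univ) (t := S.offDiag), ← Finset.sum_add_distrib,
    Finset.card_eq_sum_ones]
  refine Finset.sum_congr rfl fun x hx => ?_
  rw [Finset.mem_offDiag] at hx
  by_cases hp : x.1.1 = x.2.1
  · have e1 : ∑ l : Ln F, (if on x.1 l ∧ on x.2 l then 1 else 0) = 0 := by
      refine Finset.sum_eq_zero fun l _ => ?_
      rw [if_neg]
      rintro ⟨ha, hb⟩
      exact hx.2.2 (A_same_part hp ha hb)
    have e2 : ∑ i : Option F, (if x.1.1 = i ∧ x.2.1 = i then 1 else 0) = 1 := by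
      rw [Finset.sum_eq_single x.1.1]
      · rw [if_pos ⟨rfl, hp.symm⟩]
      · intro i _ hi
        rw [if_neg]
        rintro ⟨ha, -⟩
        exact hi ha.symm
      · intro h; exact absurd (Finset.mem_univ _) h
    rw [e1, e2]
  · have e2 : ∑ i : Option F, (if x.1.1 = i ∧ x.2.1 = i then 1 else 0) = 0 := by
      refine Finset.sum_eq_zero fun i _ => ?_
      rw [if_neg]
      rintro ⟨ha, hb⟩
      exact hp (ha.trans hb.symm)
    obtain ⟨l, hl, hu⟩ := A_join hp
    have e1 : ∑ l : Ln F, (if on x.1 l ∧ on x.2 l then 1 else 0) = 1 := by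
      rw [Finset.sum_eq_single l]
      · rw [if_pos hl]
      · intro l' _ hl'
        rw [if_neg]
        intro h
        exact hl' (hu l' h)
      · intro h; exact absurd (Finset.mem_univ _) h
    rw [e1, e2]

theorem A_big (S : Finset (Pt F)) (hS : S.card = Fintype.card F) (hq : 100 ≤ Fintype.card F)
    (hδ : 16 * (F0 S).card ^ 2 ≤ Fintype.card F ^ 3) :
    (∃ l : Ln F, Fintype.card F ≤ 2 * (onL S l).card) ∨
      (∃ i : Option F, Fintype.card F ≤ 2 * (onP S i).card) := by
  by_contra hcon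
  push Not at hcon
  obtain ⟨hL, hP⟩ := hcon
  set q := Fintype.card F with hqdef
  set δ := (F0 S).card with hδdef
  -- lines
  have l1 : ∀ l : Ln F, q * ((onL S l).card - 1) ≤ 2 * δ := by
    intro l
    have h := A_line_count S hS l
    have h' := hL l
    have e : q ≤ 2 * (q + 1 - (onL S l).card) := by omega
    calc q * ((onL S l).card - 1) ≤ 2 * (q + 1 - (onL S l).card) * ((onL S l).card - 1) :=
          Nat.mul_le_mul_right _ e
      _ = 2 * ((q + 1 - (onL S l).card) * ((onL S l).card - 1)) := by ring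
      _ ≤ 2 * δ := Nat.mul_le_mul_left 2 h
  have p1 : ∀ i : Option F, q * (onP S i).card ≤ 2 * δ := by
    intro i
    have h := A_part_count S hS i
    have h' := hP i
    have e : q ≤ 2 * (q - (onP S i).card) := by omega
    calc q * (onP S i).card ≤ 2 * (q - (onP S i).card) * (onP S i).card :=
          Nat.mul_le_mul_right _ e
      _ = 2 * ((q - (onP S i).card) * (onP S i).card) := by ring
      _ ≤ 2 * δ := Nat.mul_le_mul_left 2 h
  have l2 : ∀ l : Ln F, q * ((onL S l).card * ((onL S l).card - 1)) ≤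
      (q + 2 * δ) * ((onL S l).card - 1) := by
    intro l
    rcases Nat.eq_zero_or_pos (onL S l).card with h0 | h0
    · simp [h0]
    · rw [← mul_assoc]
      apply Nat.mul_le_mul_right
      have := l1 l
      have e : q * (onL S l).card = q * ((onL S l).card - 1) + q := by
        conv_lhs => rw [← Nat.sub_add_cancel h0]
        ring
      omega
  have p2 : ∀ i : Option F, q * ((onP S i).card * ((onP S i).card - 1)) ≤
      2 * δ * (onP S i).card := by
    intro i
    rw [← mul_assoc]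
    exact Nat.mul_le_mul (p1 i) (Nat.sub_le _ _)
  have hsumP : ∑ i : Option F, (onP S i).card = q := by
    rw [← hS]
    unfold onP
    exact (Finset.card_eq_sum_card_fiberwise fun p _ => Finset.mem_univ p.1).symm
  have hmain : q * (q * (q - 1)) ≤ (q + 2 * δ) * δ + 2 * δ * q := by
    have h := A_pairs_all S
    rw [hS] at h
    rw [h, Nat.mul_add, Finset.mul_sum, Finset.mul_sum]
    apply Nat.add_le_add
    · calc ∑ l : Ln F, q * ((onL S l).card * ((onL S l).card - 1))
          ≤ ∑ l : Ln F, (q + 2 * δ) * ((onL S l).card - 1) := Finset.sum_le_sum fun l _ => l2 l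
        _ = (q + 2 * δ) * δ := by rw [← Finset.mul_sum, A_excess_eq S hS]
    · calc ∑ i : Option F, q * ((onP S i).card * ((onP S i).card - 1))
          ≤ ∑ i : Option F, 2 * δ * (onP S i).card := Finset.sum_le_sum fun i _ => p2 i
        _ = 2 * δ * q := by rw [← Finset.mul_sum, hsumP]
  -- real inequality
  have hq1 : 1 ≤ q := by omega
  have hQ : (100 : ℝ) ≤ (q : ℝ) := by exact_mod_cast hq
  have hD : 16 * (δ : ℝ) ^ 2 ≤ (q : ℝ) ^ 3 := by exact_mod_cast hδ
  have hM : (q : ℝ) * (q * ((q : ℝ) - 1)) ≤ (q + 2 * δ) * δ + 2 * δ * q := by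
    have : ((q * (q * (q - 1)) : ℕ) : ℝ) ≤ (((q + 2 * δ) * δ + 2 * δ * q : ℕ) : ℝ) := by
      exact_mod_cast hmain
    push_cast [Nat.cast_sub hq1] at this
    linarith
  have hd0 : (0 : ℝ) ≤ δ := Nat.cast_nonneg _
  have h40 : 40 * (δ : ℝ) ≤ (q : ℝ) ^ 2 := by
    apply le_of_sq_le_sq _ (by positivity)
    have : (q : ℝ) ^ 3 * 100 ≤ (q : ℝ) ^ 3 * q := by gcongr
    nlinarith
  have h3 : (q : ℝ) * (40 * (δ : ℝ)) ≤ (q : ℝ) * (q : ℝ) ^ 2 := by gcongr
  have h4 : 100 * (q : ℝ) ^ 2 ≤ (q : ℝ) * (q : ℝ) ^ 2 := by gcongr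
  have h5 : (0 : ℝ) < (q : ℝ) ^ 3 := by positivity
  nlinarith

end Crest.Agent.RY
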