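/-
  RY_A_Exdef : expectation over a random subset `T ⊆ S` that contains every element independently with probability `τ`.
-/
import Crest.Agent.RY_A_Defs

set_option autoImplicit false

namespace Crest.Agent.RY
open Finset Classical

/-- expectation of `f T`, `T` a random subset of `S` of density `τ` -/
noncomputable def A_Ex {α : Type} (τ : ℝ) (S : Finset α) (f : Finset α → ℝ) : ℝ :=
  ∑ T ∈ S.powerset, τ ^ T.card * (1 - τ) ^ (S.card - T.card) * f T

/-- `x` if `x ≥ 2`, otherwise `0` -/
def A_phi (x : ℕ) : ℕ := if 2 ≤ x then x else 0

end Crest.Agent.RY
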