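/-
TASK RY_A_Ex1 (easy/medium).  Basic properties of `A_Ex`.
* `A_Ex_insert`: split the powerset of `insert a S` (`Finset.powerset_insert`, `Finset.sum_powerset_insert`).
* `A_Ex_one`: induction with `A_Ex_insert` (or `Finset.sum_pow_mul_eq_add_pow`).
* `A_Ex_prod`: independence, induction on `A` with `A_Ex_insert` (`A`, `B` disjoint).
* `A_Ex_inter`: special case `g = 1` of `A_Ex_prod` for `S = A ∪ (S \ A)`.
-/
import Crest.Agent.RY_A_Exdef

set_option autoImplicit false

namespace Crest.Agent.RY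
open Finset Classical

theorem A_Ex_insert {α : Type} (τ : ℝ) (S : Finset α) (a : α) (ha : a ∉ S) (f : Finset α → ℝ) :
    A_Ex τ (insert a S) f = (1 - τ) * A_Ex τ S f + τ * A_Ex τ S (fun T => f (insert a T)) := by
  unfold A_Ex
  rw [Finset.sum_powerset_insert ha, Finset.mul_sum, Finset.mul_sum]
  congr 1
  · apply Finset.sum_congr rfl
    intro T hT
    rw [Finset.mem_powerset] at hT
    have h1 := Finset.card_le_card hT
    rw [Finset.card_insert_of_notMem ha]
    have : S.card + 1 - T.card = (S.card - T.card) + 1 := by omega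
    rw [this, pow_succ]; ring
  · apply Finset.sum_congr rfl
    intro T hT
    rw [Finset.mem_powerset] at hT
    have haT : a ∉ T := fun h => ha (hT h)
    rw [Finset.card_insert_of_notMem ha, Finset.card_insert_of_notMem haT]
    have : S.card + 1 - (T.card + 1) = S.card - T.card := by omega
    rw [this, pow_succ]; ring

theorem A_Ex_one {α : Type} (τ : ℝ) (S : Finset α) : A_Ex τ S (fun _ => 1) = 1 := by
  induction S using Finset.induction_on with
  | empty => simp [A_Ex]
  | insert a S ha ih =>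
    rw [A_Ex_insert τ S a ha, ih]
    ring

theorem A_Ex_add {α : Type} (τ : ℝ) (S : Finset α) (f g : Finset α → ℝ) :
    A_Ex τ S (fun T => f T + g T) = A_Ex τ S f + A_Ex τ S g := by
  unfold A_Ex
  rw [← Finset.sum_add_distrib]
  exact Finset.sum_congr rfl fun T _ => by ring

theorem A_Ex_mul {α : Type} (τ : ℝ) (S : Finset α) (c : ℝ) (f : Finset α → ℝ) :
    A_Ex τ S (fun T => c * f T) = c * A_Ex τ S f := by
  unfold A_Ex
  rw [Finset.mul_sum]
  exact Finset.sum_congr rfl fun T _ => by ring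

theorem A_Ex_sum {α β : Type} (τ : ℝ) (S : Finset α) (L : Finset β) (f : β → Finset α → ℝ) :
    A_Ex τ S (fun T => ∑ j ∈ L, f j T) = ∑ j ∈ L, A_Ex τ S (f j) := by
  unfold A_Ex
  rw [Finset.sum_comm]
  exact Finset.sum_congr rfl fun T _ => by rw [Finset.mul_sum]

theorem A_Ex_mono {α : Type} (τ : ℝ) (h0 : 0 ≤ τ) (h1 : τ ≤ 1) (S : Finset α) (f g : Finset α → ℝ)
    (h : ∀ T, T ⊆ S → f T ≤ g T) : A_Ex τ S f ≤ A_Ex τ S g := by
  unfold A_Ex
  apply Finset.sum_le_sum
  intro T hT
  rw [Finset.mem_powerset] at hT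
  have h2 : 0 ≤ 1 - τ := by linarith
  exact mul_le_mul_of_nonneg_left (h T hT) (by positivity)

private theorem Ex1_congr {α : Type} (τ : ℝ) (S : Finset α) (f g : Finset α → ℝ)
    (h : ∀ T, T ⊆ S → f T = g T) : A_Ex τ S f = A_Ex τ S g := by
  unfold A_Ex
  apply Finset.sum_congr rfl
  intro T hT
  rw [Finset.mem_powerset] at hT
  rw [h T hT]

theorem A_Ex_prod {α : Type} (τ : ℝ) (A B : Finset α) (hAB : Disjoint A B) (f g : Finset α → ℝ) :
    A_Ex τ (A ∪ B) (fun T => f (T ∩ A) * g (T ∩ B)) = A_Ex τ A f * A_Ex τ B g := by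
  induction A using Finset.induction_on generalizing f with
  | empty =>
    have h1 : A_Ex τ (∅ ∪ B) (fun T => f (T ∩ ∅) * g (T ∩ B)) = A_Ex τ B (fun T => f ∅ * g T) := by
      rw [Finset.empty_union]
      apply Ex1_congr
      intro T hT
      rw [Finset.inter_empty, Finset.inter_eq_left.mpr hT]
    rw [h1, A_Ex_mul]
    congr 1
    simp [A_Ex]
  | insert a A ha ih =>
    rw [Finset.disjoint_insert_left] at hAB
    have haAB : a ∉ A ∪ B := by
      rw [Finset.mem_union]
      push Not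
      exact ⟨ha, hAB.1⟩
    rw [Finset.insert_union, A_Ex_insert τ (A ∪ B) a haAB, A_Ex_insert τ A a ha]
    have h1 : A_Ex τ (A ∪ B) (fun T => f (T ∩ insert a A) * g (T ∩ B)) =
        A_Ex τ (A ∪ B) (fun T => f (T ∩ A) * g (T ∩ B)) := by
      apply Ex1_congr
      intro T hT
      have haT : a ∉ T := fun h => haAB (hT h)
      rw [Finset.inter_insert_of_notMem haT]
    have h2 : A_Ex τ (A ∪ B) (fun T => f (insert a T ∩ insert a A) * g (insert a T ∩ B)) =
        A_Ex τ (A ∪ B) (fun T => (fun U => f (insert a U)) (T ∩ A) * g (T ∩ B)) := by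
      apply Ex1_congr
      intro T hT
      rw [← Finset.insert_inter_distrib, Finset.insert_inter_of_notMem hAB.1]
    rw [h1, h2, ih hAB.2 f, ih hAB.2 (fun U => f (insert a U))]
    ring

theorem A_Ex_inter {α : Type} (τ : ℝ) (A S : Finset α) (hA : A ⊆ S) (f : Finset α → ℝ) :
    A_Ex τ S (fun T => f (T ∩ A)) = A_Ex τ A f := by
  have h1 : A ∪ (S \ A) = S := Finset.union_sdiff_of_subset hA
  have h2 := A_Ex_prod τ A (S \ A) Finset.disjoint_sdiff f (fun _ => 1)
  rw [h1, A_Ex_one, mul_one] at h2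
  rw [← h2]
  apply Ex1_congr
  intro T _
  rw [mul_one]

/-- independence for two disjoint subsets of `S` -/
theorem A_Ex_indep {α : Type} (τ : ℝ) (A B S : Finset α) (hA : A ⊆ S) (hB : B ⊆ S) (hAB : Disjoint A B)
    (f g : Finset α → ℝ) :
    A_Ex τ S (fun T => f (T ∩ A) * g (T ∩ B)) = A_Ex τ A f * A_Ex τ B g := by
  have h1 := A_Ex_inter τ (A ∪ B) S (Finset.union_subset hA hB) (fun U => f (U ∩ A) * g (U ∩ B))
  rw [A_Ex_prod τ A B hAB f g] at h1
  rw [← h1]
  apply Ex1_congr
  intro T _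
  have h2 : T ∩ (A ∪ B) ∩ A = T ∩ A := by
    ext x; simp only [Finset.mem_inter, Finset.mem_union]; tauto
  have h3 : T ∩ (A ∪ B) ∩ B = T ∩ B := by
    ext x; simp only [Finset.mem_inter, Finset.mem_union]; tauto
  show _ = f (T ∩ (A ∪ B) ∩ A) * g (T ∩ (A ∪ B) ∩ B)
  rw [h2, h3]

/-- Markov -/
theorem A_Ex_exists {α : Type} (τ : ℝ) (h0 : 0 ≤ τ) (h1 : τ ≤ 1) (S : Finset α) (f : Finset α → ℝ)
    (h : A_Ex τ S f < 1) : ∃ T, T ⊆ S ∧ f T < 1 := by
  by_contra hcon
  push Not at hcon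
  have h2 := A_Ex_mono τ h0 h1 S (fun _ => 1) f hcon
  rw [A_Ex_one] at h2
  linarith

end Crest.Agent.RY
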