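/-
TASK RY_A_W (easy/medium).  `#(A_W T) ≤ 2^33 q` if `65536 |T| ≤ q`.
`g l = |onL T l|` if this is `≥ 2`, else `0`.  `A_G T z = ∑_{l ∋ z} g l`.
`∑_l x(x-1) ≤ |T|^2` (x = |onL T l|; ordered pairs of distinct points of `T` are on at most one line: `A_join`,
`A_same_part`).  For `x ≥ 2`: `x ≤ x(x-1)` and `x^2 ≤ 2x(x-1)`.  So `∑ g ≤ |T|^2`, `∑ g^2 ≤ 2|T|^2`,
`(∑ g)/q ≤ |T|^2/q ≤ |T|/65536`; every `z ∈ A_W T` has `A_G T z ≥ |T|/32768`; apply `A_rich` with `a = |T|/65536`
(`T = ∅`: `A_W ∅ = ∅`).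
-/
import Crest.Agent.RY_A_Plane2

set_option autoImplicit false

namespace Crest.Agent.RY
open Finset Classical

variable {F : Type} [Field F] [Fintype F] [DecidableEq F]

theorem A_pairs (T : Finset (Pt F)) :
    ∑ l : Ln F, (onL T l).card * ((onL T l).card - 1) ≤ T.card ^ 2 := by
  have h1 : ∀ l : Ln F, (onL T l).card * ((onL T l).card - 1) = ((onL T l).offDiag).card := by
    intro l
    rw [Finset.offDiag_card, Nat.mul_sub, mul_one]
  simp_rw [h1]
  rw [← Finset.card_biUnion]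
  · rw [pow_two, ← Finset.card_product]
    apply Finset.card_le_card
    intro x hx
    rw [Finset.mem_biUnion] at hx
    obtain ⟨l, _, hl⟩ := hx
    rw [Finset.mem_offDiag] at hl
    rw [Finset.mem_product]
    unfold onL at hl
    exact ⟨(Finset.mem_filter.mp hl.1).1, (Finset.mem_filter.mp hl.2.1).1⟩
  · intro l _ l' _ hne
    rw [Function.onFun, Finset.disjoint_left]
    intro x hx hx'
    rw [Finset.mem_offDiag] at hx hx'
    unfold onL at hx hx'
    rw [Finset.mem_filter, Finset.mem_filter] at hx hx'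
    obtain ⟨p, _, hp⟩ := A_meet hne
    have e1 := hp x.1 ⟨hx.1.2, hx'.1.2⟩
    have e2 := hp x.2 ⟨hx.2.1.2, hx'.2.1.2⟩
    exact hx.2.2 (e1.trans e2.symm)

theorem A_W_card (T : Finset (Pt F)) (hT : 65536 * T.card ≤ Fintype.card F) :
    (A_W T).card ≤ 2 ^ 33 * Fintype.card F := by
  rcases Finset.eq_empty_or_nonempty T with rfl | hne
  · have : A_W (∅ : Finset (Pt F)) = ∅ := by
      unfold A_W
      rw [Finset.filter_eq_empty_iff]
      intro z _ hz
      have : A_G (∅ : Finset (Pt F)) z = 0 := by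
        unfold A_G onL
        simp
      omega
    rw [this]
    simp
  have hT0 : 0 < T.card := Finset.card_pos.mpr hne
  have hTr : (0:ℝ) < (T.card : ℝ) := by exact_mod_cast hT0
  have hq0 : (0:ℝ) < (Fintype.card F : ℝ) := by exact_mod_cast Fintype.card_pos
  set q : ℝ := (Fintype.card F : ℝ) with hq
  have hTq : 65536 * (T.card : ℝ) ≤ q := by rw [hq]; exact_mod_cast hT
  set g : Ln F → ℝ := fun l => if 2 ≤ (onL T l).card then ((onL T l).card : ℝ) else 0 with hg
  have hpairs : ∑ l : Ln F, ((onL T l).card : ℝ) * (((onL T l).card : ℝ) - 1) ≤ (T.card : ℝ) ^ 2 := by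
    have h := A_pairs T
    have h' : ((∑ l : Ln F, (onL T l).card * ((onL T l).card - 1) : ℕ) : ℝ) ≤ ((T.card ^ 2 : ℕ) : ℝ) := by
      exact_mod_cast h
    push_cast at h'
    refine le_trans (le_of_eq ?_) h'
    refine Finset.sum_congr rfl (fun l _ => ?_)
    rcases Nat.eq_zero_or_pos (onL T l).card with h0 | hpos
    · rw [h0]; simp
    · rw [Nat.cast_sub (by omega)]
      simp
  have hnn : ∀ l : Ln F, 0 ≤ ((onL T l).card : ℝ) * (((onL T l).card : ℝ) - 1) := by
    intro l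
    rcases Nat.eq_zero_or_pos (onL T l).card with h0 | hpos
    · rw [h0]; simp
    · have : (1:ℝ) ≤ ((onL T l).card : ℝ) := by exact_mod_cast hpos
      apply mul_nonneg
      · linarith
      · linarith
  have hg1 : ∑ l, g l ≤ (T.card : ℝ) ^ 2 := by
    refine le_trans (Finset.sum_le_sum (fun l _ => ?_)) hpairs
    simp only [hg]
    split_ifs with h
    · have : (2:ℝ) ≤ ((onL T l).card : ℝ) := by exact_mod_cast h
      nlinarith
    · exact hnn l
  have hg2 : ∑ l, g l ^ 2 ≤ 2 * (T.card : ℝ) ^ 2 := by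
    have : ∑ l, g l ^ 2 ≤ ∑ l : Ln F, 2 * (((onL T l).card : ℝ) * (((onL T l).card : ℝ) - 1)) := by
      refine Finset.sum_le_sum (fun l _ => ?_)
      simp only [hg]
      split_ifs with h
      · have : (2:ℝ) ≤ ((onL T l).card : ℝ) := by exact_mod_cast h
        nlinarith
      · have := hnn l
        simp only [ne_eq, OfNat.ofNat_ne_zero, not_false_eq_true, zero_pow]
        linarith
    rw [← Finset.mul_sum] at this
    linarith
  have hG : ∀ z : Pt F, (A_G T z : ℝ) = ∑ l ∈ A_thru z, g l := by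
    intro z
    unfold A_G
    rw [Finset.sum_filter]
    push_cast
    rfl
  have hsum0 : 0 ≤ ∑ l, g l := Finset.sum_nonneg (fun l _ => by simp only [hg]; split_ifs <;> positivity)
  set a : ℝ := (T.card : ℝ) / 65536 with ha
  have ha0 : 0 < a := by positivity
  have hdiv : (∑ l, g l) / q ≤ a := by
    rw [div_le_iff₀ hq0, ha]
    calc (∑ l, g l) ≤ (T.card : ℝ) ^ 2 := hg1
      _ = (T.card : ℝ) / 65536 * (65536 * (T.card : ℝ)) := by ring
      _ ≤ (T.card : ℝ) / 65536 * q := by gcongr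
  have hrich := A_rich g a ha0
  have hsub : (A_W T) ⊆ univ.filter (fun p : Pt F => (∑ l, g l) / (Fintype.card F : ℝ) + a ≤ ∑ l ∈ A_thru p, g l) := by
    intro z hz
    unfold A_W at hz
    rw [Finset.mem_filter] at hz ⊢
    refine ⟨Finset.mem_univ _, ?_⟩
    rw [← hG z]
    have h2 : (T.card : ℝ) ≤ 32768 * (A_G T z : ℝ) := by exact_mod_cast hz.2.2
    have h3 : 2 * a ≤ (A_G T z : ℝ) := by
      rw [ha]; linarith
    rw [← hq]
    linarith
  have hcard : ((A_W T).card : ℝ) ≤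
      ((univ.filter (fun p : Pt F => (∑ l, g l) / (Fintype.card F : ℝ) + a ≤ ∑ l ∈ A_thru p, g l)).card : ℝ) := by
    exact_mod_cast Finset.card_le_card hsub
  have h4 : ((A_W T).card : ℝ) * a ^ 2 ≤ q * (2 * (T.card : ℝ) ^ 2) := by
    calc ((A_W T).card : ℝ) * a ^ 2 ≤ _ := mul_le_mul_of_nonneg_right hcard (by positivity)
      _ ≤ q * ∑ l, g l ^ 2 := hrich
      _ ≤ q * (2 * (T.card : ℝ) ^ 2) := by gcongr
  have h5 : ((A_W T).card : ℝ) * (T.card : ℝ) ^ 2 ≤ (2 ^ 33 * q) * (T.card : ℝ) ^ 2 := by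
    rw [ha] at h4
    have h6 : ((A_W T).card : ℝ) * ((T.card : ℝ) / 65536) ^ 2 * 65536 ^ 2 ≤ q * (2 * (T.card : ℝ) ^ 2) * 65536 ^ 2 := by
      gcongr
    calc ((A_W T).card : ℝ) * (T.card : ℝ) ^ 2 = ((A_W T).card : ℝ) * ((T.card : ℝ) / 65536) ^ 2 * 65536 ^ 2 := by ring
      _ ≤ q * (2 * (T.card : ℝ) ^ 2) * 65536 ^ 2 := h6
      _ = (2 ^ 33 * q) * (T.card : ℝ) ^ 2 := by ring
  have h7 : ((A_W T).card : ℝ) ≤ 2 ^ 33 * q := le_of_mul_le_mul_right h5 (by positivity)
  rw [hq] at h7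
  exact_mod_cast h7

end Crest.Agent.RY
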