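/-
TASK RY_A_P1a (medium, union bound).  Union over `m ≤ H(q+1)` with `q ≤ 256 m^2` (for larger `m` the event is empty; `m ≥ 1`) and over
`T` with `8|T| ≤ m`: at most `(q^2+q+1)^{⌊m/8⌋} ≤ (q^3)^{m/8}` sets (`A_count_small`, `A_card_Pt`); for each: `A_hits_prob`,
`#(A_W T) ≤ 2^33 q` (`A_W_card`).
-/
import Crest.Agent.RY_A_Ev
import Crest.Agent.RY_A_Prob2
import Crest.Agent.RY_A_W

set_option autoImplicit false

namespace Crest.Agent.RY
open Finset Classical

private theorem P1a_hit (H : ℕ) {F : Type} [Field F] [Fintype F] [DecidableEq F]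
    (T : Finset (Pt F)) (hT : 65536 * T.card ≤ Fintype.card F) (m : ℕ) (hm : 1 ≤ m) :
    Pr (fun ω : Om F H => m ≤ (univ.filter (fun k : Idx F H => rp ω k ∈ A_W T)).card) ≤
      (Real.exp 1 * H * 2 ^ 33 / m) ^ m := by
  have h1 := A_hits_prob (F := F) H (A_W T) m hm
  refine le_trans h1 ?_
  have hq : (0:ℝ) < (Fintype.card F : ℝ) := by exact_mod_cast Fintype.card_pos
  have hm' : (0:ℝ) < (m : ℝ) := by exact_mod_cast hm
  have hW : ((A_W T).card : ℝ) ≤ 2 ^ 33 * (Fintype.card F : ℝ) := by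
    exact_mod_cast A_W_card T hT
  apply pow_le_pow_left₀ (by positivity)
  rw [div_le_div_iff₀ (by positivity) hm']
  have h2 : Real.exp 1 * H * ((A_W T).card : ℝ) ≤ Real.exp 1 * H * (2 ^ 33 * (Fintype.card F : ℝ)) := by
    apply mul_le_mul_of_nonneg_left hW (by positivity)
  calc Real.exp 1 * H * ((A_W T).card : ℝ) * m ≤ Real.exp 1 * H * (2 ^ 33 * (Fintype.card F : ℝ)) * m := by
        apply mul_le_mul_of_nonneg_right h2 hm'.le
    _ = Real.exp 1 * H * 2 ^ 33 * ((Fintype.card F : ℝ) * m) := by ring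

/-- union bound, finite form -/
theorem A_prob1_union (H : ℕ) {F : Type} [Field F] [Fintype F] [DecidableEq F] (hq : 3 ≤ Fintype.card F) :
    Pr (fun ω : Om F H => A_E1 ω) ≤
      ∑ m ∈ (Finset.range (H * (Fintype.card F + 1) + 1)).filter (fun m => Fintype.card F ≤ 256 * m ^ 2),
        ((Fintype.card F : ℝ) ^ 3) ^ ((m : ℝ) / 8) * (Real.exp 1 * H * 2 ^ 33 / m) ^ m := by
  have hstep1 : Pr (fun ω : Om F H => A_E1 ω) ≤
      Pr (fun ω : Om F H => ∃ m ∈ (Finset.range (H * (Fintype.card F + 1) + 1)).filter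
        (fun m => Fintype.card F ≤ 256 * m ^ 2),
        ∃ T ∈ (univ : Finset (Finset (Pt F))).filter (fun T => T.card ≤ m / 8 ∧ 65536 * T.card ≤ Fintype.card F),
          m ≤ (univ.filter (fun k : Idx F H => rp ω k ∈ A_W T)).card) := by
    apply Pr_mono
    rintro ω ⟨T, m, h1, h2, h3, h4⟩
    refine ⟨m, ?_, T, ?_, h4⟩
    · rw [Finset.mem_filter, Finset.mem_range]
      refine ⟨?_, h1⟩
      have h5 : (univ.filter (fun k : Idx F H => rp ω k ∈ A_W T)).card ≤ Fintype.card (Idx F H) := by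
        rw [← Finset.card_univ]
        exact Finset.card_filter_le _ _
      have h6 : Fintype.card (Idx F H) = (Fintype.card F + 1) * H := by
        rw [Fintype.card_prod, Fintype.card_option, Fintype.card_fin]
      rw [h6, mul_comm] at h5
      omega
    · rw [Finset.mem_filter]
      exact ⟨Finset.mem_univ _, by omega, h3⟩
  refine le_trans hstep1 ?_
  refine le_trans (A_Pr_biUnion _ _) ?_
  apply Finset.sum_le_sum
  intro m hm
  rw [Finset.mem_filter] at hm
  have hm1 : 1 ≤ m := by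
    rcases Nat.eq_zero_or_pos m with h0 | h0
    · subst h0
      have := hm.2
      simp at this
    · exact h0
  refine le_trans (A_Pr_biUnion _ _) ?_
  have hb : ∀ T ∈ (univ : Finset (Finset (Pt F))).filter
      (fun T => T.card ≤ m / 8 ∧ 65536 * T.card ≤ Fintype.card F),
      Pr (fun ω : Om F H => m ≤ (univ.filter (fun k : Idx F H => rp ω k ∈ A_W T)).card) ≤
        (Real.exp 1 * H * 2 ^ 33 / m) ^ m := by
    intro T hT
    rw [Finset.mem_filter] at hT
    exact P1a_hit H T hT.2.2 m hm1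
  refine le_trans (Finset.sum_le_card_nsmul _ _ _ hb) ?_
  rw [nsmul_eq_mul]
  apply mul_le_mul_of_nonneg_right _ (by positivity)
  have hc1 : ((univ : Finset (Finset (Pt F))).filter
      (fun T => T.card ≤ m / 8 ∧ 65536 * T.card ≤ Fintype.card F)).card ≤
      (Fintype.card (Pt F) + 1) ^ (m / 8) := by
    refine le_trans (Finset.card_le_card ?_) (A_count_small (α := Pt F) (m / 8))
    intro T hT
    rw [Finset.mem_filter] at hT ⊢
    exact ⟨hT.1, hT.2.1⟩
  have hc2 : Fintype.card (Pt F) + 1 ≤ Fintype.card F ^ 3 := by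
    rw [A_card_Pt]
    nlinarith [mul_le_mul hq hq (by norm_num) (by omega : 0 ≤ Fintype.card F)]
  have hc3 : (((univ : Finset (Finset (Pt F))).filter
      (fun T => T.card ≤ m / 8 ∧ 65536 * T.card ≤ Fintype.card F)).card : ℝ) ≤
      ((Fintype.card F : ℝ) ^ 3) ^ (m / 8 : ℕ) := by
    have : ((univ : Finset (Finset (Pt F))).filter
      (fun T => T.card ≤ m / 8 ∧ 65536 * T.card ≤ Fintype.card F)).card ≤
      (Fintype.card F ^ 3) ^ (m / 8) := le_trans hc1 (Nat.pow_le_pow_left hc2 _)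
    exact_mod_cast this
  refine le_trans hc3 ?_
  rw [← Real.rpow_natCast ((Fintype.card F : ℝ) ^ 3) (m / 8)]
  apply Real.rpow_le_rpow_of_exponent_le
  · have : (1:ℝ) ≤ (Fintype.card F : ℝ) := by
      have : 1 ≤ Fintype.card F := by omega
      exact_mod_cast this
    exact one_le_pow₀ this
  · have := Nat.cast_div_le (α := ℝ) (m := m) (n := 8)
    simpa using this

end Crest.Agent.RY
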