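/-
TASK RY_A_P1 (easy/medium, asymptotics).  `P(A_E1) → 0`: by `A_prob1_union` and `m ≥ √q/16` every term is
`≤ (16 e H 2^33 q^{3/8-1/2})^m ≤ 64^{-m}` for large `q`, and `∑_{m ≥ 1} 64^{-m} = 1/63`.
-/
import Crest.Agent.RY_A_P1a

set_option autoImplicit false

namespace Crest.Agent.RY
open Finset Classical

theorem A_prob1 (H : ℕ) : ∃ q₀ : ℕ,
    ∀ (F : Type) [Field F] [Fintype F] [DecidableEq F], q₀ ≤ Fintype.card F →
      Pr (fun ω : Om F H => A_E1 ω) ≤ 1 / 32 := by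
  set C : ℝ := Real.exp 1 * H * 2 ^ 33 with hC
  have hC0 : 0 ≤ C := by positivity
  refine ⟨max 3 ⌈(64 * (16 * C)) ^ 8⌉₊, fun F _ _ _ hF => ?_⟩
  have hq3 : 3 ≤ Fintype.card F := le_trans (le_max_left _ _) hF
  have hqC : (64 * (16 * C)) ^ 8 ≤ (Fintype.card F : ℝ) :=
    le_trans (Nat.le_ceil _) (by exact_mod_cast le_trans (le_max_right _ _) hF)
  set q : ℝ := (Fintype.card F : ℝ) with hq
  have hqpos : 0 < q := by rw [hq]; exact_mod_cast lt_of_lt_of_le (by norm_num) hq3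
  have hroot : 64 * (16 * C) ≤ q ^ ((1 : ℝ) / 8) := by
    have h1 : ((64 * (16 * C)) ^ 8 : ℝ) ^ ((1 : ℝ) / 8) ≤ q ^ ((1 : ℝ) / 8) :=
      Real.rpow_le_rpow (by positivity) hqC (by norm_num)
    have h2 : ((64 * (16 * C)) ^ 8 : ℝ) ^ ((1 : ℝ) / 8) = 64 * (16 * C) := by
      rw [← Real.rpow_natCast, ← Real.rpow_mul (by positivity)]
      norm_num
    rw [h2] at h1
    exact h1
  refine le_trans (A_prob1_union H hq3) ?_
  have hterm : ∀ m ∈ (Finset.range (H * (Fintype.card F + 1) + 1)).filter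
      (fun m => Fintype.card F ≤ 256 * m ^ 2),
      ((Fintype.card F : ℝ) ^ 3) ^ ((m : ℝ) / 8) * (Real.exp 1 * H * 2 ^ 33 / m) ^ m ≤ (1 / 64 : ℝ) ^ m := by
    intro m hm
    rw [Finset.mem_filter] at hm
    have hm2 : q ≤ 256 * (m : ℝ) ^ 2 := by rw [hq]; exact_mod_cast hm.2
    have hm1 : 1 ≤ m := by
      by_contra h
      have : m = 0 := by omega
      subst this
      simp at hm2
      linarith
    have hmpos : (0 : ℝ) < m := by exact_mod_cast hm1
    have h1 : ((Fintype.card F : ℝ) ^ 3) ^ ((m : ℝ) / 8) = (q ^ ((3 : ℝ) / 8)) ^ m := by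
      rw [← hq, ← Real.rpow_natCast q 3, ← Real.rpow_mul hqpos.le, ← Real.rpow_natCast (q ^ ((3:ℝ)/8)) m,
        ← Real.rpow_mul hqpos.le]
      congr 1
      push_cast
      ring
    rw [h1, ← mul_pow]
    apply pow_le_pow_left₀ (by positivity)
    -- base
    have h2 : q ^ ((1 : ℝ) / 2) ≤ 16 * m := by
      rw [← Real.sqrt_eq_rpow]
      have h3 : Real.sqrt q ≤ Real.sqrt (256 * (m : ℝ) ^ 2) := Real.sqrt_le_sqrt hm2
      have h4 : Real.sqrt (256 * (m : ℝ) ^ 2) = 16 * m := by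
        rw [show (256 * (m : ℝ) ^ 2) = (16 * m) ^ 2 by ring]
        exact Real.sqrt_sq (by positivity)
      linarith
    have h5 : q ^ ((3 : ℝ) / 8) * q ^ ((1 : ℝ) / 8) = q ^ ((1 : ℝ) / 2) := by
      rw [← Real.rpow_add hqpos]; norm_num
    have h6 : q ^ ((3 : ℝ) / 8) * (64 * (16 * C)) ≤ 16 * m := by
      calc q ^ ((3 : ℝ) / 8) * (64 * (16 * C)) ≤ q ^ ((3 : ℝ) / 8) * q ^ ((1 : ℝ) / 8) :=
            mul_le_mul_of_nonneg_left hroot (by positivity)
        _ ≤ 16 * m := by rw [h5]; exact h2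
    rw [← hC, ← mul_div_assoc, div_le_iff₀ hmpos]
    linarith
  refine le_trans (Finset.sum_le_sum hterm) ?_
  have hsub : (Finset.range (H * (Fintype.card F + 1) + 1)).filter (fun m => Fintype.card F ≤ 256 * m ^ 2) ⊆
      Finset.Ico 1 (H * (Fintype.card F + 1) + 1) := by
    intro m hm
    rw [Finset.mem_filter, Finset.mem_range] at hm
    rw [Finset.mem_Ico]
    refine ⟨?_, hm.1⟩
    by_contra h
    have : m = 0 := by omega
    subst this
    simp at hm
  refine le_trans (Finset.sum_le_sum_of_subset_of_nonneg hsub (fun _ _ _ => by positivity)) ?_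
  have hgeo : ∀ n : ℕ, ∑ m ∈ Finset.Ico 1 (n + 1), (1 / 64 : ℝ) ^ m ≤ 1 / 32 - (1 / 64) ^ n / 63 := by
    intro n
    induction n with
    | zero => norm_num
    | succ n ih =>
      rw [Finset.sum_Ico_succ_top (by omega)]
      have : (1 / 64 : ℝ) ^ (n + 1) = (1 / 64) ^ n / 64 := by rw [pow_succ]; ring
      rw [this]
      have hp : (0 : ℝ) ≤ (1 / 64) ^ n := by positivity
      linarith
  refine le_trans (hgeo _) ?_
  have hp : (0 : ℝ) ≤ (1 / 64) ^ (H * (Fintype.card F + 1)) / 63 := by positivity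
  linarith

end Crest.Agent.RY
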