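/-
TASK RY_A_P2 (medium, union bound + asymptotics).  `c2, C` from `A_cover_prob H`; `ν` from `A_count_good (c2/8)`.
Union over the at most `q^{c2 q/8}` good sets `S`; for each, `U = A_U0 S` satisfies `U.card ≥ #(F0 S)/2 ≥ q^{3/2}/8` (nonempty) and
`deg_U(z) q ≤ 2 #(F0 S) ≤ 4 |U|` (`A_U0_deg`), so the probability is at most `(C q/|U|)^m ≤ (8C/√q)^m ≤ q^{-m/4}`,
`m = ⌈c2 q⌉ ≥ c2 q` (for `q` large).  Total `≤ q^{c2 q/8 - c2 q/4} → 0`.
-/
import Crest.Agent.RY_A_Ev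
import Crest.Agent.RY_A_Cover
import Crest.Agent.RY_A_Count2

set_option autoImplicit false

namespace Crest.Agent.RY
open Finset Classical

/-- the numeric estimate for one set -/
private theorem A_P2_num {q u δ : ℕ} {C c2 : ℝ} (hC : 0 < C) (hq1 : 2 ≤ q)
    (hqC : (8 * C) ^ 4 ≤ (q : ℝ)) (h1 : q ^ 3 < 16 * δ ^ 2) (h2 : δ ≤ 2 * u) :
    (C * q / u) ^ (⌈c2 * q⌉₊) ≤ (q : ℝ) ^ (-(c2 * q / 4)) := by
  have hq0 : (0 : ℝ) < q := by exact_mod_cast (by omega : 0 < q)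
  have hq1' : (1 : ℝ) ≤ q := by exact_mod_cast (by omega : 1 ≤ q)
  have hu : 0 < u := by
    rcases Nat.eq_zero_or_pos u with h | h
    · subst h
      have : δ = 0 := by omega
      subst this
      simp at h1
    · exact h
  have hu0 : (0 : ℝ) < u := by exact_mod_cast hu
  -- `C q / u ≤ q^{-1/4}`
  have hbase : C * q / u ≤ (q : ℝ) ^ (-(1 / 4 : ℝ)) := by
    have h3 : (q : ℝ) ^ 3 < 16 * (δ : ℝ) ^ 2 := by exact_mod_cast h1
    have h4 : (δ : ℝ) ≤ 2 * u := by exact_mod_cast h2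
    have h5 : (q : ℝ) ^ 3 < 64 * (u : ℝ) ^ 2 := by
      have : (δ : ℝ) ^ 2 ≤ (2 * u) ^ 2 := pow_le_pow_left₀ (by positivity) h4 2
      nlinarith
    -- set t = q^{1/4}
    set t : ℝ := (q : ℝ) ^ (1 / 4 : ℝ) with ht
    have ht0 : 0 < t := Real.rpow_pos_of_pos hq0 _
    have ht4 : t ^ 4 = q := by
      rw [ht, ← Real.rpow_natCast, ← Real.rpow_mul hq0.le]
      norm_num
    have hCt : 8 * C ≤ t := by
      have : (8 * C) ^ 4 ≤ t ^ 4 := by rw [ht4]; exact hqC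
      exact le_of_pow_le_pow_left₀ (by norm_num) ht0.le this
    have h6 : t ^ 6 ≤ 8 * u := by
      have : (t ^ 6) ^ 2 ≤ (8 * u) ^ 2 := by
        have e : (t ^ 6) ^ 2 = (t ^ 4) ^ 3 := by ring
        rw [e, ht4]
        nlinarith
      exact le_of_pow_le_pow_left₀ (by norm_num) (by positivity) this
    rw [Real.rpow_neg hq0.le, ← ht, div_le_iff₀ hu0]
    rw [inv_mul_eq_div, le_div_iff₀ ht0]
    -- C * q * t ≤ u
    rw [← ht4]
    have h7 : 8 * C * t ^ 5 ≤ t * t ^ 5 := mul_le_mul_of_nonneg_right hCt (by positivity)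
    nlinarith [h7, h6]
  have hm : c2 * q ≤ (⌈c2 * q⌉₊ : ℝ) := Nat.le_ceil _
  calc (C * q / u) ^ (⌈c2 * q⌉₊) ≤ ((q : ℝ) ^ (-(1 / 4 : ℝ))) ^ (⌈c2 * q⌉₊) :=
        pow_le_pow_left₀ (by positivity) hbase _
    _ = (q : ℝ) ^ (-(1 / 4 : ℝ) * (⌈c2 * q⌉₊ : ℝ)) := by
        rw [← Real.rpow_natCast, ← Real.rpow_mul hq0.le]
    _ ≤ (q : ℝ) ^ (-(c2 * q / 4)) := by
        apply Real.rpow_le_rpow_of_exponent_le hq1'
        linarith

theorem A_prob2 (H : ℕ) (hH : 1 ≤ H) : ∃ ν : ℝ, 0 < ν ∧ ∃ q₀ : ℕ,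
    ∀ (F : Type) [Field F] [Fintype F] [DecidableEq F], q₀ ≤ Fintype.card F →
      Pr (fun ω : Om F H => A_E2 ν ω) ≤ 1 / 32 := by
  obtain ⟨c2, hc2, C, hC, hcov⟩ := A_cover_prob H hH
  obtain ⟨ν, hν, q₁, hcount⟩ := A_count_good (c2 / 8) (by positivity)
  refine ⟨ν, hν, max (max q₁ 24) (max ⌈(8 * C) ^ 4⌉₊ ⌈40 / c2⌉₊), ?_⟩
  intro F _ _ _ hF
  set q := Fintype.card F with hq
  have hq₁ : q₁ ≤ q := le_trans (le_trans (le_max_left _ _) (le_max_left _ _)) hF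
  have hq24 : 24 ≤ q := le_trans (le_trans (le_max_right _ _) (le_max_left _ _)) hF
  have hqC : (8 * C) ^ 4 ≤ (q : ℝ) :=
    le_trans (Nat.le_ceil _) (by exact_mod_cast le_trans (le_trans (le_max_left _ _) (le_max_right _ _)) hF)
  have hqc2 : 40 / c2 ≤ (q : ℝ) :=
    le_trans (Nat.le_ceil _) (by exact_mod_cast le_trans (le_trans (le_max_right _ _) (le_max_right _ _)) hF)
  have hq0 : (0 : ℝ) < q := by exact_mod_cast (by omega : 0 < q)
  have hq1' : (1 : ℝ) ≤ q := by exact_mod_cast (by omega : 1 ≤ q)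
  set 𝒮 : Finset (Finset (Pt F)) := univ.filter (fun S : Finset (Pt F) => A_Good ν S ∧
    q ^ 3 < 16 * (F0 S).card ^ 2 ∧ (F0 S).card ≤ 2 * (A_U0 S).card) with h𝒮
  have h1 : Pr (fun ω : Om F H => A_E2 ν ω) ≤
      Pr (fun ω : Om F H => ∃ S ∈ 𝒮, ∀ l ∈ A_U0 S, ∃ p ∈ RR ω, on p l) := by
    apply Pr_mono
    rintro ω ⟨S, hS1, hS2, hS3, hS4⟩
    refine ⟨S, ?_, hS4⟩
    rw [h𝒮, mem_filter]
    exact ⟨mem_univ _, hS1, hS2, hS3⟩
  have h2 := A_Pr_biUnion 𝒮 (fun (S : Finset (Pt F)) (ω : Om F H) => ∀ l ∈ A_U0 S, ∃ p ∈ RR ω, on p l)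
  have h3 : ∑ S ∈ 𝒮, Pr (fun ω : Om F H => ∀ l ∈ A_U0 S, ∃ p ∈ RR ω, on p l) ≤
      ∑ S ∈ 𝒮, (q : ℝ) ^ (-(c2 * q / 4)) := by
    apply Finset.sum_le_sum
    intro S hS
    rw [h𝒮, mem_filter] at hS
    obtain ⟨-, hG, hS2, hS3⟩ := hS
    have hne : (A_U0 S).Nonempty := by
      rw [← Finset.card_pos]
      rcases Nat.eq_zero_or_pos (A_U0 S).card with h | h
      · exfalso
        rw [h] at hS3
        have : (F0 S).card = 0 := by omega
        rw [this] at hS2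
        simp at hS2
      · exact h
    refine le_trans (hcov F hq24 (A_U0 S) hne ?_) (A_P2_num hC (by omega) hqC hS2 hS3)
    intro z
    have := A_U0_deg S hG.1 z
    omega
  have h4 : ((𝒮.card : ℕ) : ℝ) ≤ (q : ℝ) ^ (c2 / 8 * q) := by
    refine le_trans ?_ (hcount F hq₁)
    exact_mod_cast Finset.card_le_card (fun S hS => by
      rw [h𝒮, mem_filter] at hS
      rw [mem_filter]
      exact ⟨mem_univ _, hS.2.1⟩)
  have h5 : ∑ S ∈ 𝒮, (q : ℝ) ^ (-(c2 * q / 4)) ≤ (q : ℝ) ^ (-(c2 * q / 8)) := by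
    rw [Finset.sum_const, nsmul_eq_mul]
    calc (𝒮.card : ℝ) * (q : ℝ) ^ (-(c2 * q / 4)) ≤ (q : ℝ) ^ (c2 / 8 * q) * (q : ℝ) ^ (-(c2 * q / 4)) :=
          mul_le_mul_of_nonneg_right h4 (by positivity)
      _ = (q : ℝ) ^ (-(c2 * q / 8)) := by
          rw [← Real.rpow_add hq0]
          congr 1
          ring
  have h6 : (q : ℝ) ^ (-(c2 * q / 8)) ≤ 1 / 32 := by
    have h40 : 40 ≤ c2 * q := by
      rw [div_le_iff₀ hc2] at hqc2
      linarith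
    calc (q : ℝ) ^ (-(c2 * q / 8)) ≤ (q : ℝ) ^ (-(5 : ℝ)) := by
          apply Real.rpow_le_rpow_of_exponent_le hq1'
          linarith
      _ ≤ (2 : ℝ) ^ (-(5 : ℝ)) := by
          rw [Real.rpow_neg hq0.le, Real.rpow_neg (by norm_num)]
          apply inv_anti₀ (by positivity)
          apply Real.rpow_le_rpow (by norm_num) _ (by norm_num)
          exact_mod_cast (by omega : 2 ≤ q)
      _ = 1 / 32 := by
          rw [Real.rpow_neg (by norm_num)]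
          norm_num
  linarith

end Crest.Agent.RY
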