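/-
  RY_A_Final : part2 assembled.
-/
import Crest.Agent.RY_A_P1
import Crest.Agent.RY_A_P2
import Crest.Agent.RY_A_Det

set_option autoImplicit false

namespace Crest.Agent.RY
open Finset Classical

/-- covers of F0(R) which miss few lines of the whole plane contain almost a line -/
theorem A_part2 (H : ℕ) (hH : 1 ≤ H) (φ : ℝ) (hφ : 0 < φ) : ∃ ν : ℝ, 0 < ν ∧ ∃ q₀ : ℕ,
    ∀ (F : Type) [Field F] [Fintype F] [DecidableEq F], q₀ ≤ Fintype.card F →
      Pr (fun ω : Om F H => LowDeg φ ω ∧ ∃ S : Finset (Pt F), Cover (RR ω) S ∧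
        ((F0 S).card : ℝ) ≤ ν * (Fintype.card F : ℝ) ^ 2 ∧ ¬ NearLine (RR ω) S) ≤ 1 / 16 := by
  obtain ⟨q1, h1⟩ := A_prob1 H
  obtain ⟨ν2, hν2, q2, h2⟩ := A_prob2 H hH
  set ν : ℝ := min ν2 (min (φ / 8) (1 / 2048)) with hνdef
  have hν : 0 < ν := by
    rw [hνdef]
    exact lt_min hν2 (lt_min (by positivity) (by norm_num))
  have hνa : ν ≤ ν2 := min_le_left _ _
  have hνb : ν ≤ φ / 8 := le_trans (min_le_right _ _) (min_le_left _ _)
  have hνc : ν ≤ 1 / 2048 := le_trans (min_le_right _ _) (min_le_right _ _)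
  refine ⟨ν, hν, max (max q1 q2) (max (2 ^ 100) ⌈16 / φ⌉₊), fun F _ _ _ hF => ?_⟩
  have e1 := h1 F (le_trans (by simp) hF)
  have e2 := h2 F (le_trans (by simp) hF)
  have hq1 : 2 ^ 100 ≤ Fintype.card F := le_trans (by simp) hF
  have hq2 : ⌈16 / φ⌉₊ ≤ Fintype.card F := le_trans (by simp) hF
  have hq : 16 ≤ φ * (Fintype.card F : ℝ) := by
    have h3 : 16 / φ ≤ (Fintype.card F : ℝ) := le_trans (Nat.le_ceil _) (by exact_mod_cast hq2)
    rw [div_le_iff₀ hφ] at h3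
    linarith [mul_comm φ (Fintype.card F : ℝ)]
  refine le_trans (Pr_mono (r := fun ω : Om F H => A_E1 ω ∨ A_E2 ν2 ω) ?_) ?_
  · rintro ω ⟨hL, S, hc, hδ, hn⟩
    rcases A_det φ ν hφ (by linarith) (by linarith) hq hq1 ω hL S hc hδ hn with h | h
    · exact Or.inl h
    · right
      obtain ⟨S', hS', h5, h6, h7⟩ := h
      exact ⟨S', A_Good_mono hνa S' hS', h5, h6, h7⟩
  · refine le_trans (Pr_or _ _) ?_
    linarith

end Crest.Agent.RY
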