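/-
TASK RY_A_Prob1a (medium).  Independence of coordinates for the uniform measure on `ι → E`.
* `A_avg_update`: the map `(ω, v) ↦ (update ω k v, ω k)` is an involution of `(ι → E) × E`; so
  `∑_ω ∑_v f (update ω k v) = |E| ∑_ω f ω`.
* `A_prod_avg`: induction on a subset `K' ⊆ K` of factors (with `hg`, `hA` for the big `K`):
  treat one coordinate `k ∈ K'` with `A_avg_update`: all other factors and `A k` do not depend on the coordinate `k`, and
  `∑_v (1 + λ 1_{v ∈ A}) = |E| + λ |A|`.
-/
import Crest.Agent.RY_A_Defs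

set_option autoImplicit false

namespace Crest.Agent.RY
open Finset Classical

theorem A_avg_update {ι E : Type} [Fintype ι] [Fintype E] (f : (ι → E) → ℝ) (k : ι) :
    (Fintype.card E : ℝ) * ∑ ω, f ω = ∑ ω : ι → E, ∑ v : E, f (Function.update ω k v) := by
  have h1 : ∑ x : (ι → E) × E, f (Function.update x.1 k x.2) = ∑ x : (ι → E) × E, f x.1 := by
    have he : Function.Involutive (fun x : (ι → E) × E => ((Function.update x.1 k x.2, x.1 k) : (ι → E) × E)) := by
      intro x
      simp
    exact Fintype.sum_equiv he.toPerm _ _ (fun x => rfl)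
  rw [Fintype.sum_prod_type, Fintype.sum_prod_type] at h1
  rw [h1]
  simp only [Finset.sum_const, Finset.card_univ, nsmul_eq_mul]
  rw [Finset.mul_sum]

private theorem P1a_aux {ι E : Type} [Fintype ι] [Fintype E] [Nonempty E] (K : Finset ι)
    (A : ι → (ι → E) → Finset E) (hA : ∀ k ∈ K, ∀ ω ω', (∀ j, j ∉ K → ω j = ω' j) → A k ω = A k ω') (lam : ℝ)
    (K' : Finset ι) : K' ⊆ K → ∀ (g : (ι → E) → ℝ)
    (_ : ∀ ω ω', (∀ k, k ∉ K' → ω k = ω' k) → g ω = g ω'),
    ∑ ω, g ω * ∏ k ∈ K', (1 + lam * (if ω k ∈ A k ω then 1 else 0)) =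
      ∑ ω, g ω * ∏ k ∈ K', (1 + lam * ((A k ω).card : ℝ) / (Fintype.card E : ℝ)) := by
  induction K' using Finset.induction_on with
  | empty => simp
  | insert a K' ha ih =>
    intro hK g hg
    have haK : a ∈ K := hK (Finset.mem_insert_self _ _)
    have hK' : K' ⊆ K := fun x hx => hK (Finset.mem_insert_of_mem hx)
    have hE : (Fintype.card E : ℝ) ≠ 0 := by
      have : 0 < Fintype.card E := Fintype.card_pos
      positivity
    have hupd : ∀ (ω : ι → E) (v : E) (k : ι), k ∈ K → A k (Function.update ω a v) = A k ω := by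
      intro ω v k hk
      apply hA k hk
      intro j hj
      have : j ≠ a := fun h => hj (h ▸ haK)
      rw [Function.update_of_ne this]
    have hgu : ∀ (ω : ι → E) (v : E), g (Function.update ω a v) = g ω := by
      intro ω v
      apply hg
      intro k hk
      have : k ≠ a := fun h => hk (h ▸ Finset.mem_insert_self _ _)
      rw [Function.update_of_ne this]
    have step : ∑ ω, g ω * ∏ k ∈ insert a K', (1 + lam * (if ω k ∈ A k ω then (1:ℝ) else 0)) =
      ∑ ω, (g ω * (1 + lam * ((A a ω).card : ℝ) / (Fintype.card E : ℝ))) *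
        ∏ k ∈ K', (1 + lam * (if ω k ∈ A k ω then (1:ℝ) else 0)) := by
      have h1 := A_avg_update (fun ω => g ω * ∏ k ∈ insert a K', (1 + lam * (if ω k ∈ A k ω then (1:ℝ) else 0))) a
      have h2 : ∀ ω : ι → E, ∑ v : E, (g (Function.update ω a v) *
          ∏ k ∈ insert a K', (1 + lam * (if (Function.update ω a v) k ∈ A k (Function.update ω a v) then (1:ℝ) else 0))) =
          (Fintype.card E : ℝ) * ((g ω * (1 + lam * ((A a ω).card : ℝ) / (Fintype.card E : ℝ))) *
            ∏ k ∈ K', (1 + lam * (if ω k ∈ A k ω then (1:ℝ) else 0))) := by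
        intro ω
        have h3 : ∀ v : E, (g (Function.update ω a v) *
            ∏ k ∈ insert a K', (1 + lam * (if (Function.update ω a v) k ∈ A k (Function.update ω a v) then (1:ℝ) else 0))) =
            (g ω * ∏ k ∈ K', (1 + lam * (if ω k ∈ A k ω then (1:ℝ) else 0))) *
              (1 + lam * (if v ∈ A a ω then (1:ℝ) else 0)) := by
          intro v
          rw [hgu, Finset.prod_insert ha, hupd ω v a haK, Function.update_self]
          have h5 : ∏ k ∈ K', (1 + lam * (if (Function.update ω a v) k ∈ A k (Function.update ω a v) then (1:ℝ) else 0)) =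
              ∏ k ∈ K', (1 + lam * (if ω k ∈ A k ω then (1:ℝ) else 0)) := by
            apply Finset.prod_congr rfl
            intro k hk
            have : k ≠ a := fun h => ha (h ▸ hk)
            rw [hupd ω v k (hK' hk), Function.update_of_ne this]
          rw [h5]; ring
        rw [Finset.sum_congr rfl (fun v _ => h3 v), ← Finset.mul_sum, Finset.sum_add_distrib, ← Finset.mul_sum]
        have h4 : ∑ v : E, (if v ∈ A a ω then (1:ℝ) else 0) = ((A a ω).card : ℝ) := by
          rw [Finset.sum_boole]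
          simp
        rw [h4]
        simp only [Finset.sum_const, Finset.card_univ, nsmul_eq_mul, mul_one]
        field_simp
      rw [Finset.sum_congr rfl (fun ω _ => h2 ω), ← Finset.mul_sum] at h1
      exact mul_left_cancel₀ hE h1
    rw [step, ih hK' (fun ω => g ω * (1 + lam * ((A a ω).card : ℝ) / (Fintype.card E : ℝ)))]
    · apply Finset.sum_congr rfl
      intro ω _
      rw [Finset.prod_insert ha]
      ring
    · intro ω ω' h
      have e1 : g ω = g ω' := hg ω ω' (fun k hk => h k (fun hk' => hk (Finset.mem_insert_of_mem hk')))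
      have e2 : A a ω = A a ω' := hA a haK ω ω' (fun j hj => h j (fun hj' => hj (hK' hj')))
      show g ω * _ = g ω' * _
      rw [e1, e2]

theorem A_prod_avg {ι E : Type} [Fintype ι] [Fintype E] [Nonempty E] (K : Finset ι) (g : (ι → E) → ℝ)
    (hg : ∀ ω ω', (∀ k, k ∉ K → ω k = ω' k) → g ω = g ω')
    (A : ι → (ι → E) → Finset E) (hA : ∀ k ∈ K, ∀ ω ω', (∀ j, j ∉ K → ω j = ω' j) → A k ω = A k ω') (lam : ℝ) :
    ∑ ω, g ω * ∏ k ∈ K, (1 + lam * (if ω k ∈ A k ω then 1 else 0)) =
      ∑ ω, g ω * ∏ k ∈ K, (1 + lam * ((A k ω).card : ℝ) / (Fintype.card E : ℝ)) := by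
  exact P1a_aux K A hA lam K (Finset.Subset.refl _) g hg

end Crest.Agent.RY
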