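/-
  RY_A_SWdef : definitions for the Szonyi-Weiner lemma.
  `A_V α β γ (X, Y) = ∏_j (Y - γ_j) * ∏_i (X + α_i Y + β_i)` as a polynomial in `X` (outer) over `F[Y]` (inner).
-/
import Crest.Agent.RY_A_Defs

set_option autoImplicit false

namespace Crest.Agent.RY
open Finset Classical Polynomial

variable {F : Type} [Field F] [Fintype F] [DecidableEq F]

noncomputable def A_V {ι κ : Type} [Fintype ι] [Fintype κ] (α β : ι → F) (γ : κ → F) : Polynomial (Polynomial F) :=
  (∏ j, C (X - C (γ j))) * ∏ i, (X + C (C (α i) * X + C (β i)))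

/-- degree belonging to a column -/
def A_cd (n q k : ℕ) : Fin (n - k) ⊕ Fin (q - k) → ℕ
  | Sum.inl s => k + s
  | Sum.inr s => n + s

/-- the subresultant matrix -/
noncomputable def A_M (n q k : ℕ) (u : Polynomial F) (V : Polynomial (Polynomial F)) :
    Matrix (Fin (n - k) ⊕ Fin (q - k)) (Fin (n - k) ⊕ Fin (q - k)) (Polynomial F) := fun i j =>
  match i with
  | Sum.inl s => C ((X ^ (s : ℕ) * u).coeff (A_cd n q k j))
  | Sum.inr s => (X ^ (s : ℕ) * V).coeff (A_cd n q k j)

/-- first polynomial of a vector -/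
noncomputable def A_pa {n q k : ℕ} (w : Fin (n - k) ⊕ Fin (q - k) → F) : Polynomial F :=
  ∑ s : Fin (n - k), C (w (Sum.inl s)) * X ^ (s : ℕ)

/-- second polynomial of a vector -/
noncomputable def A_pb {n q k : ℕ} (w : Fin (n - k) ⊕ Fin (q - k) → F) : Polynomial F :=
  ∑ s : Fin (q - k), C (w (Sum.inr s)) * X ^ (s : ℕ)

end Crest.Agent.RY
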