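/-
TASK RY_A_SW1a (easy/medium).  The polynomial `A_V`.
* `A_V_coeff`: total degree: the property `∀ t, P.coeff t = 0 ∨ natDegree (P.coeff t) + t ≤ n` is multiplicative
  (coefficients of a product are sums of products, `Polynomial.coeff_mul`), and holds for the factors with `n = 1`
  (induction over the products).
* `A_V_eval`: value at `(x,y)`.   * `A_V_natDegree`: `V.map (eval y)` has natDegree `≤ card ι`.
-/
import Crest.Agent.RY_A_SWdef

set_option autoImplicit false

namespace Crest.Agent.RY
open Finset Classical Polynomial

variable {F : Type} [Field F] [Fintype F] [DecidableEq F]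

/-- total degree at most `n` in the coefficient form. -/
private def SW1a_T (n : ℕ) (P : Polynomial (Polynomial F)) : Prop :=
  ∀ t, P.coeff t = 0 ∨ (P.coeff t).natDegree + t ≤ n

private theorem SW1a_T_one : SW1a_T (F := F) 0 1 := by
  intro t
  by_cases ht : t = 0
  · right
    subst ht
    simp
  · left
    rw [Polynomial.coeff_one, if_neg ht]

private theorem SW1a_T_mul {n m : ℕ} {P Q : Polynomial (Polynomial F)} (hP : SW1a_T n P)
    (hQ : SW1a_T m Q) : SW1a_T (n + m) (P * Q) := by
  intro t
  by_cases h0 : (P * Q).coeff t = 0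
  · exact Or.inl h0
  right
  by_cases htn : t ≤ n + m
  · have h1 : ((P * Q).coeff t).natDegree ≤ n + m - t := by
      rw [Polynomial.coeff_mul]
      refine Polynomial.natDegree_sum_le_of_forall_le _ _ ?_
      intro x hx
      rw [Finset.HasAntidiagonal.mem_antidiagonal] at hx
      rcases hP x.1 with h | h
      · rw [h, zero_mul]; simp
      · rcases hQ x.2 with h' | h'
        · rw [h', mul_zero]; simp
        · refine Polynomial.natDegree_mul_le.trans ?_
          omega
    omega
  · exfalso
    apply h0
    rw [Polynomial.coeff_mul]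
    refine Finset.sum_eq_zero fun x hx => ?_
    rw [Finset.HasAntidiagonal.mem_antidiagonal] at hx
    rcases hP x.1 with h | h
    · rw [h, zero_mul]
    · rcases hQ x.2 with h' | h'
      · rw [h', mul_zero]
      · omega

private theorem SW1a_T_prod {ι : Type} (s : Finset ι) (P : ι → Polynomial (Polynomial F))
    (h : ∀ i ∈ s, SW1a_T 1 (P i)) : SW1a_T s.card (∏ i ∈ s, P i) := by
  induction s using Finset.induction_on with
  | empty => simpa using SW1a_T_one
  | insert a s ha ih =>
    rw [Finset.prod_insert ha, Finset.card_insert_of_notMem ha, add_comm]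
    exact SW1a_T_mul (h a (Finset.mem_insert_self a s))
      (ih fun i hi => h i (Finset.mem_insert_of_mem hi))

private theorem SW1a_T_C (c : F) : SW1a_T 1 (C (X - C c) : Polynomial (Polynomial F)) := by
  intro t
  by_cases ht : t = 0
  · right
    subst ht
    rw [Polynomial.coeff_C_zero]
    simp
  · left
    exact Polynomial.coeff_C_ne_zero ht

private theorem SW1a_T_X (a b : F) :
    SW1a_T 1 (X + C (C a * X + C b) : Polynomial (Polynomial F)) := by
  intro t
  by_cases ht : t = 0
  · right
    subst ht
    simp only [Polynomial.coeff_add, Polynomial.coeff_X_zero, Polynomial.coeff_C_zero, zero_add,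
      add_zero]
    exact Polynomial.natDegree_linear_le
  · by_cases ht1 : t = 1
    · right
      subst ht1
      rw [Polynomial.coeff_add, Polynomial.coeff_X_one, Polynomial.coeff_C_ne_zero one_ne_zero,
        add_zero]
      simp
    · left
      rw [Polynomial.coeff_add, Polynomial.coeff_C_ne_zero ht, Polynomial.coeff_X,
        if_neg (fun h => ht1 h.symm), add_zero]

theorem A_V_coeff {ι κ : Type} [Fintype ι] [Fintype κ] (α β : ι → F) (γ : κ → F) (t : ℕ) :
    (A_V α β γ).coeff t = 0 ∨
      ((A_V α β γ).coeff t).natDegree + t ≤ Fintype.card ι + Fintype.card κ := by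
  have h1 := SW1a_T_prod Finset.univ (fun j => (C (X - C (γ j)) : Polynomial (Polynomial F)))
    fun j _ => SW1a_T_C (γ j)
  have h2 := SW1a_T_prod Finset.univ (fun i => (X + C (C (α i) * X + C (β i)) :
    Polynomial (Polynomial F))) fun i _ => SW1a_T_X (α i) (β i)
  have h3 := SW1a_T_mul h1 h2 t
  rw [Finset.card_univ, Finset.card_univ, add_comm (Fintype.card κ)] at h3
  exact h3

theorem A_V_eval {ι κ : Type} [Fintype ι] [Fintype κ] (α β : ι → F) (γ : κ → F) (x y : F) :
    ((A_V α β γ).map (evalRingHom y)).eval x = (∏ j, (y - γ j)) * ∏ i, (x + α i * y + β i) := by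
  unfold A_V
  simp only [Polynomial.map_mul, Polynomial.map_prod, Polynomial.eval_mul, Polynomial.eval_prod,
    Polynomial.map_C, Polynomial.map_add, Polynomial.map_X, Polynomial.eval_C, Polynomial.eval_add,
    Polynomial.eval_X, Polynomial.coe_evalRingHom, Polynomial.eval_sub]
  congr 1
  refine Finset.prod_congr rfl fun i _ => ?_
  ring

theorem A_V_natDegree {ι κ : Type} [Fintype ι] [Fintype κ] (α β : ι → F) (γ : κ → F) (y : F) :
    ((A_V α β γ).map (evalRingHom y)).natDegree ≤ Fintype.card ι := by
  unfold A_V
  simp only [Polynomial.map_mul, Polynomial.map_prod, Polynomial.map_C, Polynomial.map_add,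
    Polynomial.map_X]
  refine Polynomial.natDegree_mul_le.trans ?_
  have h1 : (∏ j, C ((evalRingHom y) (X - C (γ j))) : Polynomial F).natDegree = 0 := by
    rw [← map_prod]
    exact Polynomial.natDegree_C _
  have h2 : (∏ i, (X + C ((evalRingHom y) (C (α i) * X + C (β i)))) : Polynomial F).natDegree ≤
      Fintype.card ι := by
    refine (Polynomial.natDegree_prod_le _ _).trans ?_
    calc ∑ i, (X + C ((evalRingHom y) (C (α i) * X + C (β i))) : Polynomial F).natDegree
        ≤ ∑ _i : ι, 1 := Finset.sum_le_sum fun i _ => by rw [Polynomial.natDegree_X_add_C]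
      _ = Fintype.card ι := by simp
  rw [h1, zero_add]
  exact h2

end Crest.Agent.RY
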