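/-
TASK RY_A_SW1b (easy/medium).  The matrix `A_M`.
* `A_vecMul`: the entries of `w * M(y)` are coefficients of `pa w * u + pb w * V(·,y)`.
* `A_M_degree`: from `A_det_natDegree` with `r (inl s) = q+s`, `r (inr s) = n+s`, `c = A_cd`: the entry in row `inl s` is a constant,
  nonzero only if `A_cd j ≤ q + s`; the entry in row `inr s` is `V.coeff (A_cd j - s)` (or `0` if `A_cd j < s`), natDegree
  `≤ n - (A_cd j - s)`.   `∑ r - ∑ c = ∑_{s<n-k} (q+s) + ∑_{s<q-k} (n+s) - ∑_{s<n-k} (k+s) - ∑_{s<q-k} (n+s) = (n-k)(q-k)`.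
-/
import Crest.Agent.RY_A_SWdef
import Crest.Agent.RY_A_Det1

set_option autoImplicit false

namespace Crest.Agent.RY
open Finset Classical Polynomial

variable {F : Type} [Field F] [Fintype F] [DecidableEq F]

theorem A_vecMul (n q k : ℕ) (u : Polynomial F) (V : Polynomial (Polynomial F)) (y : F)
    (w : Fin (n - k) ⊕ Fin (q - k) → F) (j : Fin (n - k) ⊕ Fin (q - k)) :
    Matrix.vecMul w ((A_M n q k u V).map (Polynomial.eval y)) j =
      (A_pa w * u + A_pb w * V.map (evalRingHom y)).coeff (A_cd n q k j) := by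
  have h1 : Matrix.vecMul w ((A_M n q k u V).map (Polynomial.eval y)) j =
      ∑ i, w i * Polynomial.eval y (A_M n q k u V i j) := by
    rw [Matrix.vecMul]
    rfl
  rw [h1, Fintype.sum_sum_type, coeff_add, A_pa, A_pb, Finset.sum_mul, Finset.sum_mul,
    finset_sum_coeff, finset_sum_coeff]
  congr 1
  · apply Finset.sum_congr rfl
    intro s _
    rw [mul_assoc, coeff_C_mul]
    show w (Sum.inl s) * Polynomial.eval y (C ((X ^ (s : ℕ) * u).coeff (A_cd n q k j))) = _
    rw [eval_C]
  · apply Finset.sum_congr rfl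
    intro s _
    rw [mul_assoc, coeff_C_mul]
    show w (Sum.inr s) * Polynomial.eval y ((X ^ (s : ℕ) * V).coeff (A_cd n q k j)) = _
    have h2 : (X ^ (s : ℕ) * V.map (evalRingHom y)) = (X ^ (s : ℕ) * V).map (evalRingHom y) := by
      rw [Polynomial.map_mul, Polynomial.map_pow, Polynomial.map_X]
    rw [h2, coeff_map]
    rfl

theorem A_M_degree (n q k : ℕ) (hk : k ≤ n) (hkq : k ≤ q) (u : Polynomial F) (hu : u.natDegree ≤ q)
    (V : Polynomial (Polynomial F)) (hV : ∀ t, V.coeff t = 0 ∨ (V.coeff t).natDegree + t ≤ n)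
    (h0 : (A_M n q k u V).det ≠ 0) :
    (A_M n q k u V).det.natDegree ≤ (n - k) * (q - k) := by
  have key := A_det_natDegree (A_M n q k u V)
    (fun i => match i with
      | Sum.inl s => q + (s : ℕ)
      | Sum.inr s => n + (s : ℕ)) (A_cd n q k) (by
      intro i j
      rcases i with s | s
      · show (C ((X ^ (s : ℕ) * u).coeff (A_cd n q k j)) : F[X]) = 0 ∨
          (C ((X ^ (s : ℕ) * u).coeff (A_cd n q k j)) : F[X]).natDegree + A_cd n q k j ≤ q + s
        by_cases hc : (X ^ (s : ℕ) * u).coeff (A_cd n q k j) = 0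
        · left
          rw [hc, C_0]
        · right
          rw [natDegree_C]
          have h1 : A_cd n q k j ≤ (X ^ (s : ℕ) * u).natDegree := le_natDegree_of_ne_zero hc
          have h2 : (X ^ (s : ℕ) * u).natDegree ≤ s + q :=
            le_trans natDegree_mul_le (by rw [natDegree_X_pow]; omega)
          omega
      · show (X ^ (s : ℕ) * V).coeff (A_cd n q k j) = 0 ∨
          ((X ^ (s : ℕ) * V).coeff (A_cd n q k j)).natDegree + A_cd n q k j ≤ n + s
        rw [coeff_X_pow_mul']
        split_ifs with hle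
        · rcases hV (A_cd n q k j - s) with h | h
          · left
            exact h
          · right
            omega
        · left
          rfl)
  rcases key with h | h
  · exact absurd h h0
  · rw [Fintype.sum_sum_type, Fintype.sum_sum_type] at h
    simp only [A_cd, Finset.sum_add_distrib, Finset.sum_const, Finset.card_univ,
      Fintype.card_fin, smul_eq_mul] at h
    have e1 : (n - k) * q = (n - k) * k + (n - k) * (q - k) := by
      rw [← Nat.mul_add, Nat.add_sub_cancel' hkq]
    rw [e1] at h
    omega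

end Crest.Agent.RY
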