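/-
TASK RY_A_SW2a (medium).  Kernel of the matrix.  `Z` = a set of common roots of `u` and `v` (`u` has natDegree `q`, `u ≠ 0`).  Put
`g = ∏_{x ∈ Z} (X - x)`, `u = g u'`, `v = g v'` (`Finset.prod_dvd_of_coprime` / `Multiset.prod_X_sub_C_dvd`..).  For every polynomial `h` of
degree `< |Z| - k` the pair `(a, b) = (-v' h, u' h)` satisfies `a u + b v = 0`, `deg a < n - k` (or `a = 0`; if `n < |Z|` then
`v = 0`), `deg b = q - |Z| + deg h < q - k`; the map `h ↦ (a,b)` is injective and linear.  `W` = its range
(domain `Polynomial.degreeLT F (|Z|-k)` or `Fin (|Z|-k) → F`), finrank `|Z| - k`.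
-/
import Crest.Agent.RY_A_SWdef

set_option autoImplicit false

namespace Crest.Agent.RY
open Finset Classical Polynomial

variable {F : Type} [Field F] [Fintype F] [DecidableEq F]

omit [Fintype F] [DecidableEq F] in
private theorem SW2a_sum (m : ℕ) (p : Polynomial F) (hp : p.degree < m) :
    ∑ s : Fin m, C (p.coeff s) * X ^ (s : ℕ) = p := by
  ext t
  rw [Polynomial.finsetSum_coeff]
  simp only [Polynomial.coeff_C_mul, Polynomial.coeff_X_pow]
  by_cases ht : t < m
  · rw [Finset.sum_eq_single (⟨t, ht⟩ : Fin m)]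
    · simp
    · intro s _ hs
      rw [if_neg, mul_zero]
      intro h
      apply hs
      ext
      simp [h]
    · simp
  · rw [Finset.sum_eq_zero]
    · symm
      apply Polynomial.coeff_eq_zero_of_degree_lt
      refine lt_of_lt_of_le hp ?_
      exact_mod_cast (not_lt.mp ht)
    · intro s _
      rw [if_neg, mul_zero]
      intro h
      have := s.2
      omega

omit [Fintype F] [DecidableEq F] in
private theorem SW2a_dvd (Z : Finset F) (p : Polynomial F) (h : ∀ x ∈ Z, p.eval x = 0) :
    (∏ x ∈ Z, (X - C x)) ∣ p := by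
  apply Finset.prod_dvd_of_coprime
  · intro a _ b _ hab
    exact Polynomial.isCoprime_X_sub_C_of_isUnit_sub ((sub_ne_zero.mpr hab).isUnit)
  · intro x hx
    exact Polynomial.dvd_iff_isRoot.mpr (h x hx)

omit [Fintype F] [DecidableEq F] in
private theorem SW2a_natDegree (Z : Finset F) :
    (∏ x ∈ Z, (X - C x)).natDegree = Z.card := by
  rw [Polynomial.natDegree_prod]
  · simp
  · intro x _
    exact Polynomial.X_sub_C_ne_zero x

theorem A_kernel (n q k : ℕ) (u v : Polynomial F) (hu : u.natDegree = q) (hu0 : u ≠ 0) (hv : v.natDegree ≤ n)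
    (Z : Finset F) (hZu : ∀ x ∈ Z, u.eval x = 0) (hZv : ∀ x ∈ Z, v.eval x = 0) (hk : k ≤ Z.card) :
    ∃ W : Submodule F (Fin (n - k) ⊕ Fin (q - k) → F), Module.finrank F W = Z.card - k ∧
      ∀ w ∈ W, A_pa w * u + A_pb w * v = 0 := by
  obtain ⟨u', hu'⟩ := SW2a_dvd Z u hZu
  obtain ⟨v', hv'⟩ := SW2a_dvd Z v hZv
  have hg0 : (∏ x ∈ Z, (X - C x)) ≠ 0 := by
    rw [Finset.prod_ne_zero_iff]
    intro x _
    exact Polynomial.X_sub_C_ne_zero x
  have hgd := SW2a_natDegree Z
  have hu'0 : u' ≠ 0 := by
    rintro rfl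
    rw [mul_zero] at hu'
    exact hu0 hu'
  have hdu : Z.card + u'.natDegree = q := by
    rw [← hgd, ← Polynomial.natDegree_mul hg0 hu'0, ← hu', hu]
  -- degrees
  have hb : ∀ h : Polynomial F, h.degree < ((Z.card - k : ℕ) : WithBot ℕ) →
      (u' * h).degree < ((q - k : ℕ) : WithBot ℕ) := by
    intro h hh
    by_cases h0 : h = 0
    · rw [h0, mul_zero, Polynomial.degree_zero]
      exact WithBot.bot_lt_coe _
    · rw [← Polynomial.natDegree_lt_iff_degree_lt (mul_ne_zero hu'0 h0)]
      rw [Polynomial.natDegree_mul hu'0 h0]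
      rw [← Polynomial.natDegree_lt_iff_degree_lt h0] at hh
      omega
  have ha : ∀ h : Polynomial F, h.degree < ((Z.card - k : ℕ) : WithBot ℕ) →
      (-v' * h).degree < ((n - k : ℕ) : WithBot ℕ) := by
    intro h hh
    by_cases h0 : h = 0
    · rw [h0, mul_zero, Polynomial.degree_zero]
      exact WithBot.bot_lt_coe _
    by_cases hv0 : v' = 0
    · rw [hv0, neg_zero, zero_mul, Polynomial.degree_zero]
      exact WithBot.bot_lt_coe _
    · have hdv : Z.card + v'.natDegree ≤ n := by
        rw [← hgd, ← Polynomial.natDegree_mul hg0 hv0, ← hv']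
        exact hv
      rw [← Polynomial.natDegree_lt_iff_degree_lt (mul_ne_zero (neg_ne_zero.mpr hv0) h0)]
      rw [Polynomial.natDegree_mul (neg_ne_zero.mpr hv0) h0, Polynomial.natDegree_neg]
      rw [← Polynomial.natDegree_lt_iff_degree_lt h0] at hh
      omega
  let L : Polynomial.degreeLT F (Z.card - k) →ₗ[F] (Fin (n - k) ⊕ Fin (q - k) → F) :=
    { toFun := fun h => Sum.elim (fun s => (-v' * (h : Polynomial F)).coeff s) (fun s => (u' * (h : Polynomial F)).coeff s)
      map_add' := by
        intro x y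
        funext j
        cases j with
        | inl s => simp [mul_add]
        | inr s => simp [mul_add]
      map_smul' := by
        intro c x
        funext j
        cases j with
        | inl s => simp
        | inr s => simp }
  have hLa : ∀ h, A_pa (L h) = -v' * (h : Polynomial F) := by
    intro h
    exact SW2a_sum (n - k) _ (ha _ (Polynomial.mem_degreeLT.mp h.2))
  have hLb : ∀ h, A_pb (L h) = u' * (h : Polynomial F) := by
    intro h
    exact SW2a_sum (q - k) _ (hb _ (Polynomial.mem_degreeLT.mp h.2))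
  have hinj : Function.Injective L := by
    rw [← LinearMap.ker_eq_bot, LinearMap.ker_eq_bot']
    intro h hh
    have h1 := hLb h
    rw [hh] at h1
    have h2 : A_pb (0 : Fin (n - k) ⊕ Fin (q - k) → F) = 0 := by
      unfold A_pb
      simp
    rw [h2] at h1
    have h3 : (h : Polynomial F) = 0 := by
      rcases mul_eq_zero.mp h1.symm with h4 | h4
      · exact absurd h4 hu'0
      · exact h4
    exact Subtype.ext h3
  refine ⟨LinearMap.range L, ?_, ?_⟩
  · rw [LinearMap.finrank_range_of_inj hinj, (Polynomial.degreeLTEquiv F (Z.card - k)).finrank_eq]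
    simp
  · rintro w ⟨h, rfl⟩
    rw [hLa, hLb]
    conv_lhs => rw [hu', hv']
    ring

end Crest.Agent.RY
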