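/-
TASK RY_A_SW2b (medium).  `Z` = all roots of `v` in `F`, `|Z| = k`, `u = X^q - X` (`u(x)=0` for all `x : F`,
`FiniteField.pow_card`).  If `a u + b v` has zero coefficients in all degrees `A_cd j` (these are exactly the degrees
`k, ..., q + n - k - 1`; the coefficients in degrees `≥ q+n-k` are zero anyway by degrees) then its degree is `< k` but it vanishes on `Z`, so it is `0`;
so `b v` vanishes at all `x : F`, `b` vanishes at the `q - k` elements outside `Z`, `deg b < q - k`, so `b = 0`, then `a = 0`
(`u ≠ 0`), `w = 0` (coefficients).
-/
import Crest.Agent.RY_A_SWdef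

set_option autoImplicit false

namespace Crest.Agent.RY
open Finset Classical Polynomial

variable {F : Type} [Field F] [Fintype F] [DecidableEq F]

omit [Fintype F] [DecidableEq F] in
private theorem sw2b_coeff (m : ℕ) (f : Fin m → F) (s : Fin m) :
    (∑ t : Fin m, C (f t) * X ^ (t : ℕ) : Polynomial F).coeff (s : ℕ) = f s := by
  rw [Polynomial.finsetSum_coeff]
  simp only [Polynomial.coeff_C_mul, Polynomial.coeff_X_pow]
  rw [Finset.sum_eq_single s]
  · simp
  · intro t _ hts
    have : (s : ℕ) ≠ (t : ℕ) := fun hh => hts (Fin.ext hh.symm)
    simp [this]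
  · intro hs
    exact absurd (Finset.mem_univ s) hs

theorem A_ker_trivial (n k : ℕ) (hk : k ≤ n) (hkq : k ≤ Fintype.card F) (v : Polynomial F) (hv : v.natDegree ≤ n)
    (hZ : (univ.filter (fun x : F => v.eval x = 0)).card = k)
    (w : Fin (n - k) ⊕ Fin (Fintype.card F - k) → F)
    (h : ∀ j, (A_pa w * (X ^ (Fintype.card F) - X) + A_pb w * v).coeff (A_cd n (Fintype.card F) k j) = 0) :
    w = 0 := by
  have hq : 1 < Fintype.card F := Fintype.one_lt_card
  have hu0 : (X ^ (Fintype.card F) - X : Polynomial F) ≠ 0 := FiniteField.X_pow_card_sub_X_ne_zero F hq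
  have hudeg : (X ^ (Fintype.card F) - X : Polynomial F).natDegree = Fintype.card F :=
    FiniteField.X_pow_card_sub_X_natDegree_eq F hq
  have hueval : ∀ x : F, (X ^ (Fintype.card F) - X : Polynomial F).eval x = 0 := by
    intro x
    simp [FiniteField.pow_card]
  have hdega : (A_pa (n := n) (q := Fintype.card F) (k := k) w).degree < ((n - k : ℕ) : WithBot ℕ) :=
    Polynomial.degree_sum_fin_lt _
  have hdegb : (A_pb (n := n) (q := Fintype.card F) (k := k) w).degree
      < ((Fintype.card F - k : ℕ) : WithBot ℕ) :=
    Polynomial.degree_sum_fin_lt _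
  -- all coefficients of index at least `k` vanish
  have hcoef : ∀ i, k ≤ i →
      (A_pa w * (X ^ (Fintype.card F) - X) + A_pb w * v).coeff i = 0 := by
    intro i hi
    by_cases h1 : i < n
    · have h2 : i - k < n - k := by omega
      have h3 := h (Sum.inl ⟨i - k, h2⟩)
      have h4 : A_cd n (Fintype.card F) k (Sum.inl ⟨i - k, h2⟩) = i := by
        change k + (i - k) = i
        omega
      rw [h4] at h3
      exact h3
    · by_cases h5 : i < n + (Fintype.card F - k)
      · have h2 : i - n < Fintype.card F - k := by omega
        have h3 := h (Sum.inr ⟨i - n, h2⟩)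
        have h4 : A_cd n (Fintype.card F) k (Sum.inr ⟨i - n, h2⟩) = i := by
          change n + (i - n) = i
          omega
        rw [h4] at h3
        exact h3
      · rw [Polynomial.coeff_add]
        have ha : (A_pa w * (X ^ (Fintype.card F) - X)).coeff i = 0 := by
          by_cases hz : A_pa (n := n) (q := Fintype.card F) (k := k) w = 0
          · rw [hz, zero_mul, Polynomial.coeff_zero]
          · apply Polynomial.coeff_eq_zero_of_natDegree_lt
            have hna : (A_pa (n := n) (q := Fintype.card F) (k := k) w).natDegree < n - k := by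
              rw [Polynomial.natDegree_lt_iff_degree_lt hz]
              exact hdega
            refine lt_of_le_of_lt Polynomial.natDegree_mul_le ?_
            rw [hudeg]
            omega
        have hb : (A_pb w * v).coeff i = 0 := by
          by_cases hz : A_pb (n := n) (q := Fintype.card F) (k := k) w = 0
          · rw [hz, zero_mul, Polynomial.coeff_zero]
          · apply Polynomial.coeff_eq_zero_of_natDegree_lt
            have hnb : (A_pb (n := n) (q := Fintype.card F) (k := k) w).natDegree
                < Fintype.card F - k := by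
              rw [Polynomial.natDegree_lt_iff_degree_lt hz]
              exact hdegb
            refine lt_of_le_of_lt Polynomial.natDegree_mul_le ?_
            omega
        rw [ha, hb, add_zero]
  have hP0 : A_pa w * (X ^ (Fintype.card F) - X) + A_pb w * v = 0 := by
    apply Polynomial.eq_zero_of_degree_lt_of_eval_finset_eq_zero
      (univ.filter (fun x : F => v.eval x = 0))
    · rw [hZ]
      rw [Polynomial.degree_lt_iff_coeff_zero]
      intro m hm
      exact hcoef m (by exact_mod_cast hm)
    · intro x hx
      rw [Finset.mem_filter] at hx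
      rw [Polynomial.eval_add, Polynomial.eval_mul, Polynomial.eval_mul, hueval, hx.2]
      ring
  have hb0 : A_pb (n := n) (q := Fintype.card F) (k := k) w = 0 := by
    apply Polynomial.eq_zero_of_degree_lt_of_eval_finset_eq_zero
      (univ.filter (fun x : F => ¬ v.eval x = 0))
    · have hc : (univ.filter (fun x : F => ¬ v.eval x = 0)).card = Fintype.card F - k := by
        have := Finset.card_filter_add_card_filter_not (s := (univ : Finset F))
          (fun x : F => v.eval x = 0)
        rw [hZ, Finset.card_univ] at this
        omega
      rw [hc]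
      exact hdegb
    · intro x hx
      rw [Finset.mem_filter] at hx
      have h1 := congrArg (Polynomial.eval x) hP0
      rw [Polynomial.eval_add, Polynomial.eval_mul, Polynomial.eval_mul, hueval, mul_zero, zero_add,
        Polynomial.eval_zero] at h1
      exact (mul_eq_zero.mp h1).resolve_right hx.2
  have ha0 : A_pa (n := n) (q := Fintype.card F) (k := k) w = 0 := by
    rw [hb0, zero_mul, add_zero] at hP0
    exact (mul_eq_zero.mp hP0).resolve_right hu0
  funext i
  rcases i with s | s
  · have h1 := sw2b_coeff (n - k) (fun t => w (Sum.inl t)) s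
    have h2 : (∑ t : Fin (n - k), C (w (Sum.inl t)) * X ^ (t : ℕ) : Polynomial F) = 0 := ha0
    rw [h2, Polynomial.coeff_zero] at h1
    exact h1.symm
  · have h1 := sw2b_coeff (Fintype.card F - k) (fun t => w (Sum.inr t)) s
    have h2 : (∑ t : Fin (Fintype.card F - k), C (w (Sum.inr t)) * X ^ (t : ℕ) : Polynomial F) = 0 := hb0
    rw [h2, Polynomial.coeff_zero] at h1
    exact h1.symm

end Crest.Agent.RY
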