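/-
TASK RY_A_SW3 (medium).  The Szonyi-Weiner lemma.  `q = card F`, `n = card ι + card κ`, `k = q - s y0`
(= number of roots `x` of `V(·,y0)`, since `y0 ≠ γ_j`; `k ≤ card ι` because `V(·,y0) ≠ 0` has natDegree `≤ card ι`), `u = X^q - X`.
`R = det (A_M n q k u V)`.
* `R ≠ 0`: `R(y0) = det (M(y0)) ≠ 0` (`A_vecMul`, `A_ker_trivial`, `Matrix.exists_vecMul_eq_zero_iff`, `RingHom.map_det`).
* for every `y` with `q - s y ≥ k`: the set `Z = {x : V(x,y) = 0}` has `q - s y` elements (if `y = γ_j` it is everything, `s y = 0`),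
  so `(X - y)^{s y0 - s y} ∣ R` by `A_kernel`, `A_vecMul`, `A_det_dvd`.
* `∑_y (s y0 - s y) ≤ ∑_y rootMultiplicity y R ≤ natDegree R ≤ (n-k)(q-k) = (s y0 + n - q) * s y0`  (`A_M_degree`).
-/
import Crest.Agent.RY_A_SW1
import Crest.Agent.RY_A_SW2
import Crest.Agent.RY_A_Det2

set_option autoImplicit false

namespace Crest.Agent.RY
open Finset Classical Polynomial

variable {F : Type} [Field F] [Fintype F] [DecidableEq F]

theorem A_sw {ι κ : Type} [Fintype ι] [Fintype κ] (α β : ι → F) (γ : κ → F) (y0 : F) (h0 : ∀ j, γ j ≠ y0)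
    (s : F → ℕ)
    (hs : ∀ y, s y = if ∃ j, γ j = y then 0 else (univ.filter (fun x : F => ∀ i, x + α i * y + β i ≠ 0)).card) :
    ∑ y, (s y0 - s y) ≤ s y0 * (s y0 + (Fintype.card ι + Fintype.card κ) - Fintype.card F) := by
  rcases Nat.eq_zero_or_pos (s y0) with hs0 | hs0
  · simp [hs0]
  set q := Fintype.card F with hq
  set nn := Fintype.card ι + Fintype.card κ with hnn
  set V := A_V α β γ with hV
  set k := q - s y0 with hkdef
  have h0' : ¬ ∃ j, γ j = y0 := by
    rintro ⟨j, hj⟩
    exact h0 j hj
  -- the number of zeros of `V(·, y)`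
  have hZcard : ∀ y, (univ.filter (fun x : F => (V.map (evalRingHom y)).eval x = 0)).card = q - s y := by
    intro y
    by_cases hy : ∃ j, γ j = y
    · have h1 : s y = 0 := by rw [hs, if_pos hy]
      obtain ⟨j, hj⟩ := hy
      have h2 : univ.filter (fun x : F => (V.map (evalRingHom y)).eval x = 0) = univ := by
        apply Finset.filter_true_of_mem
        intro x _
        rw [hV, A_V_eval, Finset.prod_eq_zero (Finset.mem_univ j) (by rw [hj, sub_self]), zero_mul]
      rw [h2, h1, Finset.card_univ, Nat.sub_zero]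
    · have h1 : s y = (univ.filter (fun x : F => ∀ i, x + α i * y + β i ≠ 0)).card := by
        rw [hs, if_neg hy]
      have h2 : univ.filter (fun x : F => (V.map (evalRingHom y)).eval x = 0)
          = (univ.filter (fun x : F => ∀ i, x + α i * y + β i ≠ 0))ᶜ := by
        ext x
        simp only [Finset.mem_filter, Finset.mem_univ, true_and, Finset.mem_compl]
        rw [hV, A_V_eval, mul_eq_zero, Finset.prod_eq_zero_iff, Finset.prod_eq_zero_iff]
        constructor
        · rintro (⟨j, _, hj⟩ | ⟨i, _, hi⟩) h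
          · exact hy ⟨j, (sub_eq_zero.mp hj).symm⟩
          · exact h i hi
        · intro h
          push Not at h
          obtain ⟨i, hi⟩ := h
          exact Or.inr ⟨i, Finset.mem_univ _, hi⟩
      rw [h2, Finset.card_compl, ← h1]
  have hsq : ∀ y, s y ≤ q := by
    intro y
    rw [hs]
    split_ifs
    · exact Nat.zero_le _
    · exact (Finset.card_filter_le _ _).trans (le_of_eq Finset.card_univ)
  have hvy : ∀ y, (V.map (evalRingHom y)).natDegree ≤ Fintype.card ι := fun y => A_V_natDegree α β γ y
  have hvn : ∀ y, (V.map (evalRingHom y)).natDegree ≤ nn := fun y => (hvy y).trans (Nat.le_add_right _ _)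
  have hkι : k ≤ Fintype.card ι := by
    have hne : V.map (evalRingHom y0) ≠ 0 := by
      intro h
      have h1 := hZcard y0
      rw [h] at h1
      simp only [eval_zero, Finset.filter_true, Finset.card_univ] at h1
      have := hsq y0
      omega
    rw [hkdef, ← hZcard y0]
    refine le_trans ?_ (hvy y0)
    refine le_trans ?_ (Polynomial.card_roots' _)
    refine le_trans (Finset.card_le_card ?_) (Multiset.toFinset_card_le _)
    intro x hx
    rw [Multiset.mem_toFinset, Polynomial.mem_roots hne]
    exact (Finset.mem_filter.mp hx).2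
  have hkn : k ≤ nn := hkι.trans (Nat.le_add_right _ _)
  have hkq : k ≤ q := Nat.sub_le _ _
  have hq1 : 1 < q := Fintype.one_lt_card
  have hu : (X ^ q - X : Polynomial F).natDegree = q := FiniteField.X_pow_card_sub_X_natDegree_eq F hq1
  have hu0 : (X ^ q - X : Polynomial F) ≠ 0 := FiniteField.X_pow_card_sub_X_ne_zero F hq1
  set R := (A_M nn q k (X ^ q - X) V).det with hR
  have hR0 : R ≠ 0 := by
    intro hR0
    have h1 : ((A_M nn q k (X ^ q - X) V).map (Polynomial.eval y0)).det = 0 := by
      have h2 := RingHom.map_det (evalRingHom y0) (A_M nn q k (X ^ q - X) V)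
      rw [← hR, hR0, map_zero] at h2
      exact h2.symm
    obtain ⟨w, hw0, hw⟩ := Matrix.exists_vecMul_eq_zero_iff.mpr h1
    apply hw0
    apply A_ker_trivial nn k hkn hkq (V.map (evalRingHom y0)) (hvn y0) (hZcard y0) w
    intro j
    rw [← A_vecMul, hw]
    rfl
  have hdvd : ∀ y, (X - C y) ^ (s y0 - s y) ∣ R := by
    intro y
    rcases Nat.lt_or_ge (s y0) (s y) with hlt | hge
    · rw [Nat.sub_eq_zero_of_le hlt.le, pow_zero]
      exact one_dvd _
    · have hZk : k ≤ (univ.filter (fun x : F => (V.map (evalRingHom y)).eval x = 0)).card := by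
        rw [hZcard y]
        omega
      obtain ⟨W, hW1, hW2⟩ := A_kernel nn q k (X ^ q - X) (V.map (evalRingHom y)) hu hu0 (hvn y)
        (univ.filter (fun x : F => (V.map (evalRingHom y)).eval x = 0))
        (fun x _ => by simp [hq, FiniteField.pow_card])
        (fun x hx => (Finset.mem_filter.mp hx).2) hZk
      have h3 := A_det_dvd (A_M nn q k (X ^ q - X) V) y W (by
        intro w hw
        funext j
        rw [A_vecMul, hW2 w hw]
        simp)
      rw [hW1, hZcard y] at h3
      have h4 : q - s y - k = s y0 - s y := by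
        have := hsq y0
        omega
      rw [h4] at h3
      exact h3
  have hprod : (∏ y : F, (X - C y) ^ (s y0 - s y)) ∣ R := by
    apply Finset.prod_dvd_of_coprime
    · intro a _ b _ hab
      exact (Polynomial.pairwise_coprime_X_sub_C (fun _ _ h => h) hab).pow
    · intro y _
      exact hdvd y
  have hdeg : (∏ y : F, (X - C y) ^ (s y0 - s y)).natDegree = ∑ y, (s y0 - s y) := by
    rw [Polynomial.natDegree_prod_of_monic _ _ (fun y _ => (monic_X_sub_C y).pow _)]
    apply Finset.sum_congr rfl
    intro y _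
    rw [(monic_X_sub_C y).natDegree_pow, natDegree_X_sub_C, mul_one]
  have h5 := Polynomial.natDegree_le_of_dvd hprod hR0
  rw [hdeg] at h5
  have h6 := A_M_degree nn q k hkn hkq (X ^ q - X) hu.le V (fun t => A_V_coeff α β γ t) hR0
  refine (h5.trans h6).trans (le_of_eq ?_)
  have h7 : q - k = s y0 := by
    have := hsq y0
    omega
  have h8 : nn - k = s y0 + nn - q := by
    have := hsq y0
    omega
  rw [h7, h8, mul_comm]

end Crest.Agent.RY
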