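/-
TASK RY_A_SW4 (medium).  Application of `A_sw` to a point `p ∉ S` of the plane: parametrize the lines by
`A_ln i0 x y` (`i0 = p.1`, `y` = height in the part `i0`, `x` = the other coordinate).
`i0 = none`: the line `(y, x)`;  a point `(some a, h)` is on it iff `h = y a + x` iff `x + a y + (-h) = 0`.
`i0 = some x0`: the line `(x, y - x x0)`; the point `(none, h)` is on it iff `x + 0 y + (-h) = 0`; the point `(some a, h)`,
`a ≠ x0`, is on it iff `h = x a + y - x x0` iff `x + (a-x0)⁻¹ y + (-h (a-x0)⁻¹) = 0`.
The points of `S` in the part `i0` give the `γ_j` (κ), the others the pairs `(α_i, β_i)` (ι = the subtype of points of `S` off the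
part `i0`).  `A_miss S (i0, y) = s y`.
-/
import Crest.Agent.RY_A_SW3

set_option autoImplicit false

namespace Crest.Agent.RY
open Finset Classical Polynomial

variable {F : Type} [Field F] [Fintype F] [DecidableEq F]

/-- the line with height `y` in the part `i0` and other coordinate `x` -/
def A_ln (i0 : Option F) (x y : F) : Ln F :=
  match i0 with
  | none => (y, x)
  | some x0 => (x, y - x * x0)

theorem A_ln_bij (i0 : Option F) : Function.Bijective (fun xy : F × F => A_ln i0 xy.1 xy.2) := by
  cases i0 with
  | none =>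
    refine ⟨?_, ?_⟩
    · rintro ⟨a, b⟩ ⟨c, d⟩ h
      simp only [A_ln, Prod.mk.injEq] at h
      exact Prod.ext h.2 h.1
    · rintro ⟨a, b⟩
      exact ⟨(b, a), rfl⟩
  | some x0 =>
    refine ⟨?_, ?_⟩
    · rintro ⟨a, b⟩ ⟨c, d⟩ h
      simp only [A_ln, Prod.mk.injEq] at h
      obtain ⟨h1, h2⟩ := h
      subst h1
      simp only [sub_left_inj] at h2
      exact Prod.ext rfl h2
    · rintro ⟨a, b⟩
      refine ⟨(a, b + a * x0), ?_⟩
      simp [A_ln]

theorem A_ln_on_same (i0 : Option F) (x y h : F) : on (i0, h) (A_ln i0 x y) ↔ h = y := by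
  cases i0 with
  | none => simp [A_ln, on, val]
  | some x0 => simp [A_ln, on, val]

theorem A_ln_on (i0 : Option F) (p : Pt F) (hp : p.1 ≠ i0) :
    ∃ α β : F, ∀ x y : F, on p (A_ln i0 x y) ↔ x + α * y + β = 0 := by
  obtain ⟨i, h⟩ := p
  cases i0 with
  | none =>
    cases i with
    | none => exact absurd rfl hp
    | some a =>
      refine ⟨a, -h, fun x y => ?_⟩
      simp only [A_ln, on, val]
      constructor
      · intro e; rw [e]; ring
      · intro e; linear_combination -e
  | some x0 =>
    cases i with
    | none =>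
      refine ⟨0, -h, fun x y => ?_⟩
      simp only [A_ln, on, val]
      constructor
      · intro e; rw [e]; ring
      · intro e; linear_combination -e
    | some a =>
      have ha : a - x0 ≠ 0 := by
        intro e
        apply hp
        rw [sub_eq_zero.mp e]
      refine ⟨(a - x0)⁻¹, -(h * (a - x0)⁻¹), fun x y => ?_⟩
      simp only [A_ln, on, val]
      constructor
      · intro e
        rw [e]
        field_simp
        ring
      · intro e
        have e2 : (x + (a - x0)⁻¹ * y + -(h * (a - x0)⁻¹)) * (a - x0) = 0 := by rw [e]; ring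
        have e3 : (x + (a - x0)⁻¹ * y + -(h * (a - x0)⁻¹)) * (a - x0) = x * (a - x0) + y - h := by
          field_simp
          ring
        rw [e3] at e2
        linear_combination -e2

theorem A_sw_plane (S : Finset (Pt F)) (p : Pt F) (hp : p ∉ S) :
    ∑ h : F, (A_miss S p - A_miss S (p.1, h)) ≤ A_miss S p * (A_miss S p + S.card - Fintype.card F) := by
  obtain ⟨i0, y0⟩ := p
  -- index types
  let ι := {t : Pt F // t ∈ S ∧ t.1 ≠ i0}
  let κ := {t : Pt F // t ∈ S ∧ t.1 = i0}
  choose! α β hαβ using fun (t : ι) => A_ln_on i0 t.1 t.2.2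
  let γ : κ → F := fun t => t.1.2
  have h0 : ∀ j : κ, γ j ≠ y0 := by
    rintro ⟨t, ht, ht1⟩ e
    apply hp
    have : t = (i0, y0) := Prod.ext ht1 e
    rw [← this]; exact ht
  have hs : ∀ y : F, A_miss S (i0, y) = if ∃ j, γ j = y then 0 else
      (univ.filter (fun x : F => ∀ i, x + α i * y + β i ≠ 0)).card := by
    intro y
    unfold A_miss
    split_ifs with hj
    · rw [Finset.card_eq_zero, Finset.filter_eq_empty_iff]
      intro l hl hon
      obtain ⟨⟨t, ht, ht1⟩, e⟩ := hj
      have e' : t = (i0, y) := Prod.ext ht1 e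
      rw [F0, Finset.mem_filter] at hl
      apply hl.2 t ht
      rw [e']; exact hon
    · have himg : (F0 S).filter (fun l => on (i0, y) l) =
          (univ.filter (fun x : F => ∀ i, x + α i * y + β i ≠ 0)).image (fun x => A_ln i0 x y) := by
        ext l
        simp only [F0, Finset.mem_filter, Finset.mem_univ, true_and, Finset.mem_image]
        constructor
        · rintro ⟨hl, hon⟩
          obtain ⟨⟨x, y'⟩, hxy⟩ := (A_ln_bij i0).2 l
          simp only at hxy
          subst hxy
          rw [A_ln_on_same] at hon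
          subst hon
          refine ⟨x, fun i hi => ?_, rfl⟩
          exact hl i.1 i.2.1 ((hαβ i x y).mpr hi)
        · rintro ⟨x, hx, rfl⟩
          refine ⟨fun t ht hon => ?_, (A_ln_on_same i0 x y y).mpr rfl⟩
          by_cases ht1 : t.1 = i0
          · have e' : t = (i0, t.2) := Prod.ext ht1 rfl
            rw [e', A_ln_on_same] at hon
            exact hj ⟨⟨t, ht, ht1⟩, hon⟩
          · exact hx ⟨t, ht, ht1⟩ ((hαβ ⟨t, ht, ht1⟩ x y).mp hon)
      rw [himg, Finset.card_image_of_injective]
      intro x x' hxx
      have := (A_ln_bij i0).1 (a₁ := (x, y)) (a₂ := (x', y)) hxx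
      exact (Prod.mk.inj this).1
  have key := A_sw α β γ y0 h0 (fun y => A_miss S (i0, y)) hs
  have hcard : Fintype.card ι + Fintype.card κ = S.card := by
    have h1 : Fintype.card ι = (S.filter (fun t => t.1 ≠ i0)).card := by
      rw [Fintype.card_subtype]
      congr 1
      ext t; simp
    have h2 : Fintype.card κ = (S.filter (fun t => t.1 = i0)).card := by
      rw [Fintype.card_subtype]
      congr 1
      ext t; simp
    rw [h1, h2, add_comm]
    exact Finset.card_filter_add_card_filter_not (s := S) (fun t => t.1 = i0)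
  rw [hcard] at key
  exact key

end Crest.Agent.RY
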