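/-
TASK RY_A_SW5 (easy/medium).  The dichotomy inequalities.
* every line of `F0 S` passes through exactly one point of the part `i`: `∑_h A_miss S (i,h) = #(F0 S)`.
* out: `s = A_miss S p`: `q s - ∑_h A_miss S (p.1,h) ≤ ∑_h (s - ..) ≤ s * s`, so `s (q - s) ≤ #(F0 S)`.
* in: apply `A_sw_plane` to `S.erase p` (`q-1` points), `A_miss (S.erase p) p = A_tang S p = t`,
  `#(F0 (S.erase p)) = #(F0 S) + t`;   `q t - (δ + t) ≤ t (t-1)`, so `t (q - t) ≤ δ`.
-/
import Crest.Agent.RY_A_SW4
import Crest.Agent.RY_A_Plane1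

set_option autoImplicit false

namespace Crest.Agent.RY
open Finset Classical Polynomial

variable {F : Type} [Field F] [Fintype F] [DecidableEq F]

theorem A_sw5_sum (S : Finset (Pt F)) (i : Option F) :
    ∑ h : F, A_miss S (i, h) = (F0 S).card := by
  unfold A_miss
  have e : (F0 S).card = ∑ h : F, ((F0 S).filter (fun l => val l i = h)).card :=
    card_eq_sum_card_fiberwise (f := fun l => val l i) (fun _ _ => mem_univ _)
  rw [e]
  refine sum_congr rfl fun h _ => ?_
  congr 1
  refine filter_congr fun l _ => ?_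
  exact eq_comm

theorem A_sw5_aux (s δ q N : ℕ) (f : F → ℕ) (hq : Fintype.card F = q) (hf : ∑ h : F, f h = δ)
    (h : ∑ h : F, (s - f h) ≤ N) : q * s ≤ N + δ := by
  have h1 : ∑ _h : F, s ≤ ∑ h : F, ((s - f h) + f h) :=
    sum_le_sum fun x _ => by omega
  rw [sum_add_distrib, hf, sum_const, card_univ, hq, smul_eq_mul] at h1
  omega

theorem A_sw_out (S : Finset (Pt F)) (hS : S.card = Fintype.card F) (p : Pt F) (hp : p ∉ S) :
    A_miss S p * (Fintype.card F - A_miss S p) ≤ (F0 S).card := by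
  have h1 := A_sw_plane S p hp
  rw [hS, Nat.add_sub_cancel] at h1
  have h2 := A_sw5_aux (A_miss S p) (F0 S).card (Fintype.card F) _ (fun h => A_miss S (p.1, h)) rfl
    (A_sw5_sum S p.1) h1
  rw [Nat.mul_sub]
  rw [Nat.sub_le_iff_le_add]
  linarith [Nat.mul_comm (A_miss S p) (Fintype.card F)]

theorem A_sw5_tang (S : Finset (Pt F)) (p : Pt F) (hp : p ∈ S) :
    A_miss (S.erase p) p = A_tang S p := by
  unfold A_miss A_tang
  congr 1
  ext l
  simp only [F0, plain, mem_filter, mem_univ, true_and, mem_erase]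
  constructor
  · rintro ⟨h1, h2⟩
    ext x
    simp only [onL, mem_filter, mem_singleton]
    constructor
    · rintro ⟨hx, hxl⟩
      by_contra hne
      exact h1 x ⟨hne, hx⟩ hxl
    · rintro rfl
      exact ⟨hp, h2⟩
  · intro h
    have hmem : ∀ x, (x ∈ S ∧ on x l) ↔ x = p := by
      intro x
      have := Finset.ext_iff.1 h x
      simpa only [onL, mem_filter, mem_singleton] using this
    refine ⟨fun x hx hxl => hx.1 ((hmem x).1 ⟨hx.2, hxl⟩), ((hmem p).2 rfl).2⟩

theorem A_sw5_card (S : Finset (Pt F)) (p : Pt F) (hp : p ∈ S) :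
    (F0 (S.erase p)).card = (F0 S).card + A_miss (S.erase p) p := by
  unfold A_miss
  rw [← card_filter_add_card_filter_not (s := F0 (S.erase p)) (fun l => on p l), add_comm]
  congr 2
  ext l
  simp only [F0, mem_filter, mem_univ, true_and, mem_erase]
  constructor
  · rintro ⟨h1, h2⟩ x hx
    by_cases hxp : x = p
    · rw [hxp]; exact h2
    · exact h1 x ⟨hxp, hx⟩
  · intro h
    exact ⟨fun x hx => h x hx.2, h p hp⟩

theorem A_sw_in (S : Finset (Pt F)) (hS : S.card = Fintype.card F) (p : Pt F) (hp : p ∈ S) :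
    A_tang S p * (Fintype.card F - A_tang S p) ≤ (F0 S).card := by
  have h1 := A_sw_plane (S.erase p) p (notMem_erase p S)
  have h2 := A_sw5_aux (A_miss (S.erase p) p) (F0 (S.erase p)).card (Fintype.card F) _
    (fun h => A_miss (S.erase p) (p.1, h)) rfl (A_sw5_sum (S.erase p) p.1) h1
  rw [A_sw5_card S p hp, A_sw5_tang S p hp, card_erase_of_mem hp, hS] at h2
  have hq : 0 < Fintype.card F := Fintype.card_pos
  set t := A_tang S p with ht
  set q := Fintype.card F with hqd
  set δ := (F0 S).card with hδ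
  rcases Nat.eq_zero_or_pos t with h0 | h0
  · rw [h0]; simp
  · have h3 : t + (q - 1) - q = t - 1 := by omega
    rw [h3] at h2
    have h4 : t * (t - 1) + t = t * t := by
      obtain ⟨k, hk⟩ : ∃ k, t = k + 1 := ⟨t - 1, by omega⟩
      rw [hk, Nat.add_sub_cancel]; ring
    rw [Nat.mul_sub, Nat.sub_le_iff_le_add]
    have h5 : t * q = q * t := Nat.mul_comm _ _
    omega

end Crest.Agent.RY
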