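/-
TASK RY_A_Struct1 (easy/medium).  `δ = #(F0 S)`, `|S| = q`.
* `A_bad_card`: a point `z ∈ A_bad S` is on `q - tang ≥ q/2` lines with at least two points of `S`; sum over `z` and use `A_excess`.
* `A_dirs`: the number of lines through `z` with a point of `S` other than `z` is `q - miss` (for `z ∈ A_X S`, here
  `z ∉ S`) resp. `q - tang` (for `z ∈ S`); with `s = miss` (resp. tang) `≥ q/2` and `s (q-s) ≤ δ` (`A_sw_out`, `A_sw_in`) we get
  `q (q - s) ≤ 2 δ`.
* `A_U0_deg`: for `z ∈ S` or `z ∈ A_X S` no line of `A_U0 S` passes through `z`; otherwise `s = miss < q/2` and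
  `s (q-s) ≤ δ` gives `s q ≤ 2δ`.
* `A_U0_card`: at most `q #(A_X S)` lines pass through points of `A_X S`.
-/
import Crest.Agent.RY_A_SW5
import Crest.Agent.RY_A_Elem1

set_option autoImplicit false

namespace Crest.Agent.RY
open Finset Classical

variable {F : Type} [Field F] [Fintype F] [DecidableEq F]

private theorem st1_mem_onL (S : Finset (Pt F)) (l : Ln F) (p : Pt F) :
    p ∈ onL S l ↔ p ∈ S ∧ on p l := by
  unfold onL; simp only [mem_filter]

private theorem st1_mem_thru (z : Pt F) (l : Ln F) : l ∈ A_thru z ↔ on z l := by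
  unfold A_thru; simp only [mem_filter, mem_univ, true_and]

private theorem st1_mem_plain (S : Finset (Pt F)) (z : Pt F) (l : Ln F) :
    l ∈ plain S z ↔ onL S l = {z} := by
  unfold plain; simp only [mem_filter, mem_univ, true_and]

/-- lines through `z ∈ S` with another point of `S`: `q - tang` -/
private theorem st1_in (S : Finset (Pt F)) (z : Pt F) (hz : z ∈ S) :
    ((A_thru z).filter (fun l => (onL (S.erase z) l).Nonempty)).card + A_tang S z = Fintype.card F := by
  have h1 := Finset.card_filter_add_card_filter_not (s := A_thru z) (fun l => (onL (S.erase z) l).Nonempty)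
  rw [A_card_thru] at h1
  have h2 : (A_thru z).filter (fun l => ¬ (onL (S.erase z) l).Nonempty) = plain S z := by
    ext l
    rw [mem_filter, st1_mem_thru, st1_mem_plain]
    constructor
    · rintro ⟨h, h'⟩
      ext p
      rw [st1_mem_onL, mem_singleton]
      constructor
      · rintro ⟨hp, hpl⟩
        by_contra hne
        exact h' ⟨p, (st1_mem_onL _ _ _).2 ⟨mem_erase.2 ⟨hne, hp⟩, hpl⟩⟩
      · rintro rfl
        exact ⟨hz, h⟩
    · intro h
      have hzl : z ∈ onL S l := by rw [h]; exact mem_singleton_self z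
      refine ⟨((st1_mem_onL _ _ _).1 hzl).2, ?_⟩
      rintro ⟨p, hp⟩
      rw [st1_mem_onL, mem_erase] at hp
      have : p ∈ onL S l := (st1_mem_onL _ _ _).2 ⟨hp.1.2, hp.2⟩
      rw [h, mem_singleton] at this
      exact hp.1.1 this
  rw [h2] at h1
  exact h1

private theorem st1_out (S : Finset (Pt F)) (z : Pt F) (hz : z ∉ S) :
    ((A_thru z).filter (fun l => (onL (S.erase z) l).Nonempty)).card + A_miss S z = Fintype.card F := by
  have h1 := Finset.card_filter_add_card_filter_not (s := A_thru z) (fun l => (onL (S.erase z) l).Nonempty)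
  rw [A_card_thru] at h1
  have h2 : (A_thru z).filter (fun l => ¬ (onL (S.erase z) l).Nonempty) =
      (F0 S).filter (fun l => on z l) := by
    ext l
    rw [mem_filter, st1_mem_thru, mem_filter, erase_eq_of_notMem hz]
    unfold F0
    rw [mem_filter]
    constructor
    · rintro ⟨h, h'⟩
      refine ⟨⟨mem_univ _, fun p hp hpl => h' ⟨p, (st1_mem_onL _ _ _).2 ⟨hp, hpl⟩⟩⟩, h⟩
    · rintro ⟨⟨_, h⟩, h'⟩
      refine ⟨h', ?_⟩
      rintro ⟨p, hp⟩
      rw [st1_mem_onL] at hp
      exact h p hp.1 hp.2
  rw [h2] at h1
  exact h1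

theorem A_bad_card (S : Finset (Pt F)) (hS : S.card = Fintype.card F) :
    (A_bad S).card * Fintype.card F ≤ 4 * (F0 S).card := by
  -- incidences (z, l), z bad, l rich
  have key : ∑ z ∈ A_bad S, ((A_thru z).filter (fun l => 2 ≤ (onL S l).card)).card ≤
      ∑ l ∈ univ.filter (fun l : Ln F => 2 ≤ (onL S l).card), (onL S l).card := by
    calc ∑ z ∈ A_bad S, ((A_thru z).filter (fun l => 2 ≤ (onL S l).card)).card
        = ∑ z ∈ A_bad S, ∑ l ∈ univ.filter (fun l : Ln F => 2 ≤ (onL S l).card),
            (if on z l then 1 else 0) := by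
          apply sum_congr rfl
          intro z _
          rw [card_eq_sum_ones, ← sum_filter]
          apply sum_congr _ (fun _ _ => rfl)
          ext l
          simp only [mem_filter, st1_mem_thru, mem_univ, true_and]
          tauto
      _ = ∑ l ∈ univ.filter (fun l : Ln F => 2 ≤ (onL S l).card), ∑ z ∈ A_bad S,
            (if on z l then 1 else 0) := sum_comm
      _ ≤ _ := by
          apply sum_le_sum
          intro l _
          rw [← sum_filter, ← card_eq_sum_ones]
          apply card_le_card
          intro z hz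
          rw [mem_filter] at hz
          unfold A_bad at hz
          rw [mem_filter] at hz
          exact (st1_mem_onL _ _ _).2 ⟨hz.1.1, hz.2⟩
  have key2 : (A_bad S).card * Fintype.card F ≤
      2 * ∑ z ∈ A_bad S, ((A_thru z).filter (fun l => 2 ≤ (onL S l).card)).card := by
    rw [mul_sum, ← smul_eq_mul, ← sum_const]
    apply sum_le_sum
    intro z hz
    unfold A_bad at hz
    rw [mem_filter] at hz
    have h1 := st1_in S z hz.1
    have h2 : (A_thru z).filter (fun l => (onL (S.erase z) l).Nonempty) ⊆
        (A_thru z).filter (fun l => 2 ≤ (onL S l).card) := by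
      intro l hl
      rw [mem_filter] at hl ⊢
      refine ⟨hl.1, ?_⟩
      obtain ⟨p, hp⟩ := hl.2
      rw [st1_mem_onL, mem_erase] at hp
      have : ({p, z} : Finset (Pt F)) ⊆ onL S l := by
        intro r hr
        rw [mem_insert, mem_singleton] at hr
        rcases hr with rfl | rfl
        · exact (st1_mem_onL _ _ _).2 ⟨hp.1.2, hp.2⟩
        · exact (st1_mem_onL _ _ _).2 ⟨hz.1, (st1_mem_thru _ _).1 hl.1⟩
      calc 2 = ({p, z} : Finset (Pt F)).card := (card_pair hp.1.1).symm
        _ ≤ _ := card_le_card this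
    have h3 := card_le_card h2
    have h4 := hz.2
    omega
  have := A_excess S hS
  omega

theorem A_dirs (S : Finset (Pt F)) (hS : S.card = Fintype.card F) (z : Pt F)
    (hz : z ∈ A_X S ∨ (z ∈ S ∧ z ∉ A_bad S)) :
    ((A_thru z).filter (fun l => (onL (S.erase z) l).Nonempty)).card * Fintype.card F ≤ 2 * (F0 S).card := by
  rcases hz with hz | ⟨hz, hz'⟩
  · unfold A_X at hz
    rw [mem_filter] at hz
    have h1 := st1_out S z hz.2.1
    have h2 := A_sw_out S hS z hz.2.1
    have h3 := hz.2.2
    have h4 : Fintype.card F - A_miss S z =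
        ((A_thru z).filter (fun l => (onL (S.erase z) l).Nonempty)).card := by omega
    rw [h4] at h2
    calc _ ≤ ((A_thru z).filter (fun l => (onL (S.erase z) l).Nonempty)).card * (2 * A_miss S z) :=
          Nat.mul_le_mul_left _ h3
      _ = 2 * (A_miss S z * ((A_thru z).filter (fun l => (onL (S.erase z) l).Nonempty)).card) := by ring
      _ ≤ _ := Nat.mul_le_mul_left _ h2
  · have h1 := st1_in S z hz
    have h2 := A_sw_in S hS z hz
    have h3 : Fintype.card F ≤ 2 * A_tang S z := by
      by_contra hcon
      apply hz'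
      unfold A_bad
      rw [mem_filter]
      exact ⟨hz, by omega⟩
    have h4 : Fintype.card F - A_tang S z =
        ((A_thru z).filter (fun l => (onL (S.erase z) l).Nonempty)).card := by omega
    rw [h4] at h2
    calc _ ≤ ((A_thru z).filter (fun l => (onL (S.erase z) l).Nonempty)).card * (2 * A_tang S z) :=
          Nat.mul_le_mul_left _ h3
      _ = 2 * (A_tang S z * ((A_thru z).filter (fun l => (onL (S.erase z) l).Nonempty)).card) := by ring
      _ ≤ _ := Nat.mul_le_mul_left _ h2

theorem A_U0_deg (S : Finset (Pt F)) (hS : S.card = Fintype.card F) (z : Pt F) :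
    ((A_U0 S).filter (fun l => on z l)).card * Fintype.card F ≤ 2 * (F0 S).card := by
  by_cases hz : z ∈ S
  · have : (A_U0 S).filter (fun l => on z l) = ∅ := by
      apply filter_false_of_mem
      intro l hl hzl
      unfold A_U0 F0 at hl
      rw [mem_filter, mem_filter] at hl
      exact hl.1.2 z hz hzl
    rw [this]; simp
  by_cases hz2 : z ∈ A_X S
  · have : (A_U0 S).filter (fun l => on z l) = ∅ := by
      apply filter_false_of_mem
      intro l hl hzl
      unfold A_U0 at hl
      rw [mem_filter] at hl
      exact hl.2 z hz2 hzl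
    rw [this]; simp
  have h3 : 2 * A_miss S z < Fintype.card F := by
    by_contra hcon
    apply hz2
    unfold A_X
    rw [mem_filter]
    exact ⟨mem_univ _, hz, by omega⟩
  have h2 := A_sw_out S hS z hz
  have h5 : ((A_U0 S).filter (fun l => on z l)).card ≤ A_miss S z := by
    unfold A_miss
    apply card_le_card
    intro l hl
    rw [mem_filter] at hl ⊢
    refine ⟨?_, hl.2⟩
    have := hl.1
    unfold A_U0 at this
    rw [mem_filter] at this
    exact this.1
  calc _ ≤ A_miss S z * (2 * (Fintype.card F - A_miss S z)) :=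
        Nat.mul_le_mul h5 (by omega)
    _ = 2 * (A_miss S z * (Fintype.card F - A_miss S z)) := by ring
    _ ≤ _ := Nat.mul_le_mul_left _ h2

theorem A_U0_card (S : Finset (Pt F)) :
    (F0 S).card ≤ (A_U0 S).card + Fintype.card F * (A_X S).card := by
  have h : F0 S ⊆ A_U0 S ∪ (A_X S).biUnion (fun z => A_thru z) := by
    intro l hl
    rw [mem_union, mem_biUnion]
    by_cases hx : ∃ p ∈ A_X S, on p l
    · obtain ⟨p, hp, hpl⟩ := hx
      exact Or.inr ⟨p, hp, (st1_mem_thru _ _).2 hpl⟩
    · left
      unfold A_U0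
      rw [mem_filter]
      refine ⟨hl, ?_⟩
      push Not at hx
      exact hx
  calc (F0 S).card ≤ _ := card_le_card h
    _ ≤ (A_U0 S).card + ((A_X S).biUnion (fun z => A_thru z)).card := card_union_le _ _
    _ ≤ (A_U0 S).card + ∑ z ∈ A_X S, (A_thru z).card := Nat.add_le_add_left card_biUnion_le _
    _ = _ := by
        rw [sum_congr rfl (fun z _ => A_card_thru z), sum_const, smul_eq_mul, mul_comm]

end Crest.Agent.RY
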