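/-
TASK RY_A_Struct2 (medium).  `A_heavy_ge`: the points of `S` that are not in the part of `z` (at least `q - 2δ/q` of them, by
`A_part_count` and `2|onP| < q`) are on lines through `z` (each on exactly one); at most `2δ/q` lines through `z` have a point of
`S.erase z` (`A_dirs`), those with fewer than `M` points carry at most `2 M δ/q ≤ q/4` points.  So the heavy mass is at least `q - q/4 - q/4`
(`8δ ≤ 8Mδ ≤ q^2`).
-/
import Crest.Agent.RY_A_Struct1

set_option autoImplicit false

namespace Crest.Agent.RY
open Finset Classical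

variable {F : Type} [Field F] [Fintype F] [DecidableEq F]

theorem A_heavy_ge (S : Finset (Pt F)) (hS : S.card = Fintype.card F)
    (hpart : ∀ i : Option F, 2 * (onP S i).card < Fintype.card F) (M : ℕ) (hM : 1 ≤ M)
    (hMδ : 8 * M * (F0 S).card ≤ Fintype.card F ^ 2) (z : Pt F)
    (hz : z ∈ A_X S ∨ (z ∈ S ∧ z ∉ A_bad S)) :
    Fintype.card F ≤ 2 * A_heavy S M z := by
  have hq : 0 < Fintype.card F := Fintype.card_pos
  have hk := A_part_count S hS z.1
  have hk2 := hpart z.1
  have hD := A_dirs S hS z hz
  set q := Fintype.card F with hqdef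
  set k := (onP S z.1).card with hkdef
  set δ := (F0 S).card with hδdef
  set D := ((A_thru z).filter (fun l => (onL (S.erase z) l).Nonempty)).card with hDdef
  -- cardinality of the points off the part of z
  have hT : (S.filter (fun p => ¬ p.1 = z.1)).card + k = q := by
    have := Finset.card_filter_add_card_filter_not (s := S) (fun p => p.1 = z.1)
    rw [hS] at this
    have h2 : (S.filter (fun p => p.1 = z.1)).card = k := by
      rw [hkdef]; unfold onP; rfl
    omega
  have hcov : (S.filter (fun p => ¬ p.1 = z.1)).card ≤ ∑ l ∈ A_thru z, (onL (S.erase z) l).card := by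
    refine le_trans (card_le_card ?_) card_biUnion_le
    intro p hp
    rw [mem_filter] at hp
    obtain ⟨l, ⟨hl1, hl2⟩, -⟩ := A_join hp.2
    rw [mem_biUnion]
    refine ⟨l, ?_, ?_⟩
    · unfold A_thru
      rw [mem_filter]
      exact ⟨mem_univ _, hl2⟩
    · unfold onL
      rw [mem_filter, mem_erase]
      refine ⟨⟨?_, hp.1⟩, hl1⟩
      rintro rfl
      exact hp.2 rfl
  have hsplit := Finset.sum_filter_add_sum_filter_not (A_thru z)
    (fun l => M ≤ (onL (S.erase z) l).card) (fun l => (onL (S.erase z) l).card)
  have hheavy : ∑ l ∈ (A_thru z).filter (fun l => M ≤ (onL (S.erase z) l).card),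
      (onL (S.erase z) l).card = A_heavy S M z := by
    unfold A_heavy
    apply sum_congr _ (fun _ _ => rfl)
    ext l
    simp only [mem_filter]
  have hlight : ∑ l ∈ (A_thru z).filter (fun l => ¬ M ≤ (onL (S.erase z) l).card),
      (onL (S.erase z) l).card ≤ D * M := by
    calc ∑ l ∈ (A_thru z).filter (fun l => ¬ M ≤ (onL (S.erase z) l).card), (onL (S.erase z) l).card
        ≤ ∑ l ∈ (A_thru z).filter (fun l => ¬ M ≤ (onL (S.erase z) l).card),
            (if (onL (S.erase z) l).Nonempty then M else 0) := by
          apply sum_le_sum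
          intro l hl
          rw [mem_filter] at hl
          split_ifs with hne
          · omega
          · rw [not_nonempty_iff_eq_empty] at hne
            rw [hne]; simp
      _ ≤ ∑ l ∈ A_thru z, (if (onL (S.erase z) l).Nonempty then M else 0) :=
          Finset.sum_le_sum_of_subset_of_nonneg (Finset.filter_subset _ _)
            (fun _ _ _ => Nat.zero_le _)
      _ = D * M := by
          rw [← sum_filter, sum_const, smul_eq_mul]
  rw [hheavy] at hsplit
  have e1 : q ≤ A_heavy S M z + D * M + k := by omega
  have e2 : 4 * k ≤ q := by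
    have h1 : q ≤ 2 * (q - k) := by omega
    have h2 : q * k ≤ 2 * δ := by
      calc q * k ≤ 2 * (q - k) * k := Nat.mul_le_mul_right _ h1
        _ = 2 * ((q - k) * k) := by ring
        _ ≤ 2 * δ := Nat.mul_le_mul_left _ hk
    have h3 : 8 * δ ≤ 8 * M * δ := by
      calc 8 * δ = 8 * 1 * δ := by ring
        _ ≤ 8 * M * δ := by gcongr
    have h4 : q * (4 * k) ≤ q * q := by nlinarith
    exact Nat.le_of_mul_le_mul_left h4 hq
  have e3 : 4 * (D * M) ≤ q := by
    have h4 : q * (4 * (D * M)) ≤ q * q := by
      calc q * (4 * (D * M)) = 4 * M * (D * q) := by ring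
        _ ≤ 4 * M * (2 * δ) := Nat.mul_le_mul_left _ hD
        _ = 8 * M * δ := by ring
        _ ≤ q ^ 2 := hMδ
        _ = q * q := by ring
    exact Nat.le_of_mul_le_mul_left h4 hq
  omega

end Crest.Agent.RY
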