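/-
  RY_H1 : from a family of words `Option F → Option F` to the conclusion `Concl (card F)`.
-/
import Crest.Agent.RY_Iface

set_option autoImplicit false

namespace Crest.Agent.RY
open Finset Classical

theorem concl_of_words {F : Type} [Field F] [Fintype F] [DecidableEq F]
    (W : Finset (Option F → Option F)) (hne : W.Nonempty)
    (hint : ∀ w ∈ W, ∀ w' ∈ W, ∃ i, w i = w' i)
    (hcov : ∀ i y, ∃ w ∈ W, w i = y)
    (htau : ∀ T : Finset (Option F × Option F), (∀ w ∈ W, ∃ p ∈ T, w p.1 = p.2) →
      Fintype.card F + 1 ≤ T.card) :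
    Concl (Fintype.card F) := by
  have hcO : Fintype.card (Option F) = Fintype.card F + 1 := Fintype.card_option
  let κ : Option F ≃ Fin (Fintype.card F + 1) := Fintype.equivFinOfCardEq hcO
  let e : Option F × Option F ≃ Fin (Fintype.card (Option F × Option F)) :=
    Fintype.equivFin _
  let ed : (Option F → Option F) → Finset (Fin (Fintype.card (Option F × Option F))) :=
    fun w => univ.image (fun i => e (i, w i))
  have hmem : ∀ (w : Option F → Option F) (v : Fin (Fintype.card (Option F × Option F))),
      v ∈ ed w ↔ w (e.symm v).1 = (e.symm v).2 := by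
    intro w v
    simp only [ed, mem_image, mem_univ, true_and]
    constructor
    · rintro ⟨i, rfl⟩
      simp
    · intro h
      refine ⟨(e.symm v).1, ?_⟩
      rw [h]
      simp
  refine ⟨Fintype.card (Option F × Option F), fun v => κ (e.symm v).1, W.image ed, ?_, ?_, ?_, ?_, ?_, ?_⟩
  · exact hne.image _
  · intro f hf i
    obtain ⟨w, hw, rfl⟩ := mem_image.mp hf
    rw [card_eq_one]
    refine ⟨e (κ.symm i, w (κ.symm i)), ?_⟩
    ext v
    rw [mem_filter, hmem, mem_singleton]
    constructor
    · rintro ⟨h1, h2⟩
      have h3 : (e.symm v).1 = κ.symm i := by rw [← h2]; simp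
      rw [← h3, h1]
      simp
    · rintro rfl
      simp
  · intro f hf g hg
    obtain ⟨w, hw, rfl⟩ := mem_image.mp hf
    obtain ⟨w', hw', rfl⟩ := mem_image.mp hg
    obtain ⟨i, hi⟩ := hint w hw w' hw'
    refine ⟨e (i, w i), ?_⟩
    rw [mem_inter, hmem, hmem]
    simp [hi]
  · intro i
    have : (univ.filter (fun v : Fin (Fintype.card (Option F × Option F)) => κ (e.symm v).1 = i))
        = (univ : Finset (Option F)).image (fun y => e (κ.symm i, y)) := by
      ext v
      simp only [mem_filter, mem_univ, true_and, mem_image]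
      constructor
      · intro h
        refine ⟨(e.symm v).2, ?_⟩
        rw [← h]
        simp
      · rintro ⟨y, rfl⟩
        simp
    rw [this, card_image_of_injective, card_univ, hcO]
    intro y y' h
    have := e.injective h
    exact (Prod.mk.inj this).2
  · intro v
    obtain ⟨w, hw, h⟩ := hcov (e.symm v).1 (e.symm v).2
    exact ⟨ed w, mem_image_of_mem _ hw, (hmem w v).mpr h⟩
  · intro S hS
    have := htau (S.image e.symm) (by
      intro w hw
      obtain ⟨v, hv⟩ := hS (ed w) (mem_image_of_mem _ hw)
      rw [mem_inter] at hv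
      exact ⟨e.symm v, mem_image_of_mem _ hv.2, (hmem w v).mp hv.1⟩)
    exact this.trans card_image_le

end Crest.Agent.RY
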