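/-
  RY_H : the deterministic part (partH): a gadget system on a stable sparse set gives the hypergraph.
-/
import Crest.Agent.RY_H1

set_option autoImplicit false
set_option linter.unusedSectionVars false

namespace Crest.Agent.RY
open Finset Classical

section
variable {F : Type} [Field F] [Fintype F] [DecidableEq F]

/-- full word of a line -/
def lw (l : Ln F) : Option F → Option F := fun i => some (val l i)

/-- the modified words -/
noncomputable def ew {R : Finset (Pt F)} (G : Gadgets R 10) (i : Option F) (c : Fin 2) :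
    Option F → Option F := fun j =>
  if j = i then none
  else if (j, val (G.M i c) j) ∈ R then some (G.z i c (j, val (G.M i c) j)).2
  else some (val (G.M i c) j)

theorem H_meet (l l' : Ln F) : ∃ j, val l j = val l' j := by
  by_cases h : l.1 = l'.1
  · exact ⟨none, h⟩
  · refine ⟨some ((l'.2 - l.2) / (l.1 - l'.1)), ?_⟩
    have h1 : l.1 - l'.1 ≠ 0 := sub_ne_zero.mpr h
    simp only [val]
    field_simp
    ring

theorem H_unique {l l' : Ln F} (hne : l ≠ l') {p p' : Pt F} (h1 : on p l) (h2 : on p l')
    (h3 : on p' l) (h4 : on p' l') : p = p' := by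
  obtain ⟨j, y⟩ := p
  obtain ⟨j', y'⟩ := p'
  unfold on at *
  simp only at *
  obtain ⟨m, c⟩ := l
  obtain ⟨m', c'⟩ := l'
  have key : j = j' := by
    by_contra hj
    apply hne
    cases j with
    | none =>
      cases j' with
      | none => exact absurd rfl hj
      | some x' =>
        simp only [val] at *
        have hm : m = m' := by rw [← h1, ← h2]
        subst hm
        have : c = c' := by
          have := h3.symm.trans h4
          exact add_left_cancel this
        rw [this]
    | some x =>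
      cases j' with
      | none =>
        simp only [val] at *
        have hm : m = m' := by rw [← h3, ← h4]
        subst hm
        have : c = c' := by
          have := h1.symm.trans h2
          exact add_left_cancel this
        rw [this]
      | some x' =>
        simp only [val] at *
        have hx : x ≠ x' := fun h => hj (by rw [h])
        have e1 : m * x + c = m' * x + c' := h1.symm.trans h2
        have e2 : m * x' + c = m' * x' + c' := h3.symm.trans h4
        have e3 : (m - m') * (x - x') = 0 := by linear_combination e1 - e2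
        have hm : m = m' := by
          rcases mul_eq_zero.mp e3 with h | h
          · exact sub_eq_zero.mp h
          · exact absurd (sub_eq_zero.mp h) hx
        subst hm
        have : c = c' := add_left_cancel e1
        rw [this]
  subst key
  rw [h1, h3]

theorem H_plain {R : Finset (Pt F)} {t v : Pt F} {l : Ln F} (h : l ∈ plain R t) (hv : v ∈ R)
    (hon : on v l) : v = t := by
  unfold plain at h
  rw [mem_filter] at h
  have : v ∈ onL R l := by unfold onL; rw [mem_filter]; exact ⟨hv, hon⟩
  rw [h.2, mem_singleton] at this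
  exact this

theorem H_plain_on {R : Finset (Pt F)} {t : Pt F} {l : Ln F} (h : l ∈ plain R t) :
    t ∈ R ∧ on t l := by
  unfold plain at h
  rw [mem_filter] at h
  have : t ∈ onL R l := by rw [h.2, mem_singleton]
  unfold onL at this
  rw [mem_filter] at this
  exact this

variable {R : Finset (Pt F)} (G : Gadgets R 10)

theorem H_main_eq (i : Option F) (c : Fin 2) : G.main i = (i, val (G.M i c) i) := by
  have h1 := G.main_part i
  have h2 := G.main_on i c
  unfold on at h2
  rw [h1] at h2
  exact Prod.ext h1 h2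

theorem H_ew_self (i : Option F) (c : Fin 2) : ew G i c i = none := by
  unfold ew; rw [if_pos rfl]

theorem H_ew_ne_none {i j : Option F} {c : Fin 2} (h : j ≠ i) : ew G i c j ≠ none := by
  unfold ew
  rw [if_neg h]
  split_ifs <;> simp

/-- the plane points of the modified word -/
theorem H_ew_mem {i : Option F} {c : Fin 2} {v : Pt F} (h : ew G i c v.1 = some v.2) :
    v.1 ≠ i ∧ v ∉ R ∧ (on v (G.M i c) ∨ ∃ s ∈ onL R (G.M i c), s ≠ G.main i ∧ v = G.z i c s) := by
  have hi : v.1 ≠ i := by
    intro hi
    rw [hi, H_ew_self] at h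
    exact absurd h (by simp)
  refine ⟨hi, ?_⟩
  unfold ew at h
  rw [if_neg hi] at h
  split_ifs at h with hR
  · have hs : (v.1, val (G.M i c) v.1) ∈ onL R (G.M i c) := by
      unfold onL; rw [mem_filter]; exact ⟨hR, rfl⟩
    have hsm : (v.1, val (G.M i c) v.1) ≠ G.main i := by
      intro h'
      apply hi
      rw [← G.main_part i, ← h']
    have hz : v = G.z i c (v.1, val (G.M i c) v.1) := by
      apply Prod.ext
      · exact (G.z_part i c _ hs hsm).symm
      · exact (Option.some.inj h).symm
    refine ⟨?_, Or.inr ⟨_, hs, hsm, hz⟩⟩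
    rw [hz]
    exact G.z_notin i c _ hs hsm
  · have hv : on v (G.M i c) := (Option.some.inj h).symm
    refine ⟨?_, Or.inl hv⟩
    intro hvR
    apply hR
    have : (v.1, val (G.M i c) v.1) = v := Prod.ext rfl hv.symm
    rw [this]
    exact hvR

theorem H_ew_of_on {i : Option F} {c : Fin 2} {v : Pt F} (hv : v ∉ R) (hon : on v (G.M i c)) :
    ew G i c v.1 = some v.2 := by
  have e : (v.1, val (G.M i c) v.1) = v := Prod.ext rfl hon.symm
  have hi : v.1 ≠ i := by
    intro hi
    apply hv
    have : v = G.main i := by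
      rw [H_main_eq G i c]
      exact Prod.ext hi (hon.trans (by rw [hi]))
    rw [this]
    exact G.main_mem i
  unfold ew
  rw [if_neg hi, e, if_neg hv, ← hon]

theorem H_ew_of_z {i : Option F} {c : Fin 2} {s : Pt F} (hs : s ∈ onL R (G.M i c))
    (hsm : s ≠ G.main i) : ew G i c (G.z i c s).1 = some (G.z i c s).2 := by
  have hs' := hs
  unfold onL at hs
  rw [mem_filter] at hs
  have hi : s.1 ≠ i := by
    intro hi
    apply hsm
    rw [H_main_eq G i c]
    exact Prod.ext hi ((show s.2 = val (G.M i c) s.1 from hs.2).trans (by rw [hi]))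
  have e : (s.1, val (G.M i c) s.1) = s := Prod.ext rfl hs.2.symm
  rw [G.z_part i c s hs' hsm]
  unfold ew
  rw [if_neg hi, e, if_pos hs.1]

/-- a special line and a modified word share a vertex -/
theorem H_int_line_ew (l : Ln F) (hl : l ∈ F0 R ∨ ∃ t ∈ R, l ∈ G.sp t) (i : Option F) (c : Fin 2) :
    ∃ j, lw l j = ew G i c j := by
  obtain ⟨j, hj⟩ := H_meet l (G.M i c)
  set p : Pt F := (j, val l j) with hp
  have hpl : on p l := rfl
  have hpM : on p (G.M i c) := hj
  by_cases hpR : p ∈ R
  · rcases hl with hl | ⟨t, ht, hl⟩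
    · unfold F0 at hl
      rw [mem_filter] at hl
      exact absurd hpl (hl.2 p hpR)
    · have hpt := H_plain (G.sp_plain t ht hl) hpR hpl
      rw [hpt] at hpM
      by_cases htm : t = G.main i
      · rw [htm] at hl
        obtain ⟨s, hs, hsm, hon⟩ := G.sp_main i c l hl
        refine ⟨(G.z i c s).1, ?_⟩
        rw [H_ew_of_z G hs hsm]
        unfold lw
        rw [hon]
      · have hts : t ∈ onL R (G.M i c) := by unfold onL; rw [mem_filter]; exact ⟨ht, hpM⟩
        obtain ⟨s, hs, hsm, hon⟩ := G.sp_slot i c t hts htm l hl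
        refine ⟨(G.z i c s).1, ?_⟩
        rw [H_ew_of_z G hs hsm]
        unfold lw
        rw [hon]
  · refine ⟨p.1, ?_⟩
    rw [H_ew_of_on G hpR hpM]
    rfl

theorem H_int_ew_ew (i : Option F) (c : Fin 2) (i' : Option F) (c' : Fin 2) :
    ∃ j, ew G i c j = ew G i' c' j := by
  by_cases hi : i = i'
  · subst hi
    exact ⟨i, by rw [H_ew_self, H_ew_self]⟩
  · obtain ⟨j, hj⟩ := H_meet (G.M i c) (G.M i' c')
    set p : Pt F := (j, val (G.M i c) j) with hp
    have h1 : on p (G.M i c) := rfl
    have h2 : on p (G.M i' c') := hj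
    have hpR : p ∉ R := by
      intro hpR
      have := G.excl p hpR i c i' c' h1 h2 (fun h => hi (Prod.mk.inj h).1)
      exact hi this.1
    exact ⟨p.1, by rw [H_ew_of_on G hpR h1, H_ew_of_on G hpR h2]⟩

/-- the whole family of words -/
noncomputable def HW : Finset (Option F → Option F) :=
  ((F0 R).image lw ∪ (R.biUnion G.sp).image lw) ∪
    (univ : Finset (Option F × Fin 2)).image (fun x => ew G x.1 x.2)

theorem H_mem (w : Option F → Option F) : w ∈ HW G ↔
    (∃ l, (l ∈ F0 R ∨ ∃ t ∈ R, l ∈ G.sp t) ∧ lw l = w) ∨ ∃ i c, ew G i c = w := by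
  unfold HW
  simp only [mem_union, mem_image, mem_biUnion, mem_univ, true_and]
  constructor
  · rintro ((⟨l, hl, rfl⟩ | ⟨l, ⟨t, ht, hl⟩, rfl⟩) | ⟨x, rfl⟩)
    · exact Or.inl ⟨l, Or.inl hl, rfl⟩
    · exact Or.inl ⟨l, Or.inr ⟨t, ht, hl⟩, rfl⟩
    · exact Or.inr ⟨x.1, x.2, rfl⟩
  · rintro (⟨l, hl | ⟨t, ht, hl⟩, rfl⟩ | ⟨i, c, rfl⟩)
    · exact Or.inl (Or.inl ⟨l, hl, rfl⟩)
    · exact Or.inl (Or.inr ⟨l, ⟨t, ht, hl⟩, rfl⟩)
    · exact Or.inr ⟨(i, c), rfl⟩

theorem H_int (w w' : Option F → Option F) (hw : w ∈ HW G) (hw' : w' ∈ HW G) :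
    ∃ i, w i = w' i := by
  rw [H_mem] at hw hw'
  rcases hw with ⟨l, hl, rfl⟩ | ⟨i, c, rfl⟩
  · rcases hw' with ⟨l', hl', rfl⟩ | ⟨i', c', rfl⟩
    · obtain ⟨j, hj⟩ := H_meet l l'
      exact ⟨j, by unfold lw; rw [hj]⟩
    · exact H_int_line_ew G l hl i' c'
  · rcases hw' with ⟨l', hl', rfl⟩ | ⟨i', c', rfl⟩
    · obtain ⟨j, hj⟩ := H_int_line_ew G l' hl' i c
      exact ⟨j, hj.symm⟩
    · exact H_int_ew_ew G i c i' c'

/-- number of lines of a set through a vertex -/
noncomputable def HN (A : Finset (Ln F)) (v : Option F × Option F) : ℕ :=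
  (A.filter (fun l => lw l v.1 = v.2)).card

theorem HN_none (A : Finset (Ln F)) (j : Option F) : HN A (j, none) = 0 := by
  unfold HN
  rw [card_eq_zero, filter_eq_empty_iff]
  intro l _ h
  unfold lw at h
  exact absurd h (by simp)

theorem HN_some (A : Finset (Ln F)) (v : Pt F) :
    HN A (v.1, some v.2) = (A.filter (fun l => on v l)).card := by
  unfold HN
  congr 1
  refine filter_congr fun l _ => ?_
  unfold lw on
  simp only [Option.some.injEq]
  exact eq_comm

/-- the special lines at the points of a set -/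
noncomputable def HA (K : Finset (Pt F)) : Finset (Ln F) := K.biUnion G.sp

theorem HA_card {K : Finset (Pt F)} (hK : K ⊆ R) : (HA G K).card = 10 * K.card := by
  unfold HA
  rw [card_biUnion]
  · rw [sum_congr rfl (fun t ht => G.sp_card t (hK ht)), sum_const, smul_eq_mul, mul_comm]
  · intro t ht t' ht' hne
    show Disjoint (G.sp t) (G.sp t')
    rw [Finset.disjoint_left]
    intro l hl hl'
    apply hne
    have h1 := H_plain_on (G.sp_plain t (hK ht) hl)
    exact H_plain (G.sp_plain t' (hK ht') hl') h1.1 h1.2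

theorem HA_R {K : Finset (Pt F)} (hK : K ⊆ R) {v : Pt F} (hv : v ∈ R) :
    ((HA G K).filter (fun l => on v l)).card ≤ 10 := by
  rw [← G.sp_card v hv]
  apply card_le_card
  intro l hl
  rw [mem_filter] at hl
  unfold HA at hl
  rw [mem_biUnion] at hl
  obtain ⟨⟨t, ht, hl⟩, hon⟩ := hl
  have := H_plain (G.sp_plain t (hK ht) hl) hv hon
  rw [this]
  exact hl

theorem HA_sum (K : Finset (Pt F)) (v : Pt F) :
    ((HA G K).filter (fun l => on v l)).card ≤
      K.sum (fun t => ((G.sp t).filter (fun l' => on v l')).card) := by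
  unfold HA
  rw [filter_biUnion]
  exact card_biUnion_le

/-- number of modified words (indices in `C`) through a vertex -/
noncomputable def HE (i : Option F) (C : Finset (Fin 2)) (v : Option F × Option F) : ℕ :=
  (C.filter (fun c => ew G i c v.1 = v.2)).card

/-- double counting -/
theorem H_count (A : Finset (Ln F)) (i : Option F) (C : Finset (Fin 2))
    (T : Finset (Option F × Option F))
    (hA : ∀ l ∈ A, ∃ v ∈ T, lw l v.1 = v.2) (hC : ∀ c ∈ C, ∃ v ∈ T, ew G i c v.1 = v.2)
    (hv : ∀ v ∈ T, 2 * HN A v + 10 * HE G i C v ≤ 20) :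
    2 * A.card + 10 * C.card ≤ 20 * T.card := by
  have h1 : A.card ≤ ∑ v ∈ T, HN A v := by
    have : ∑ v ∈ T, HN A v = ∑ l ∈ A, (T.filter (fun v => lw l v.1 = v.2)).card := by
      unfold HN
      simp only [card_filter]
      rw [sum_comm]
    rw [this, card_eq_sum_ones]
    refine sum_le_sum fun l hl => ?_
    obtain ⟨v, hv, h⟩ := hA l hl
    exact card_pos.mpr ⟨v, by rw [mem_filter]; exact ⟨hv, h⟩⟩
  have h2 : C.card ≤ ∑ v ∈ T, HE G i C v := by
    have : ∑ v ∈ T, HE G i C v = ∑ c ∈ C, (T.filter (fun v => ew G i c v.1 = v.2)).card := by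
      unfold HE
      simp only [card_filter]
      rw [sum_comm]
    rw [this, card_eq_sum_ones]
    refine sum_le_sum fun c hc => ?_
    obtain ⟨v, hv, h⟩ := hC c hc
    exact card_pos.mpr ⟨v, by rw [mem_filter]; exact ⟨hv, h⟩⟩
  calc 2 * A.card + 10 * C.card ≤ 2 * ∑ v ∈ T, HN A v + 10 * ∑ v ∈ T, HE G i C v := by omega
    _ = ∑ v ∈ T, (2 * HN A v + 10 * HE G i C v) := by
        rw [sum_add_distrib, mul_sum, mul_sum]
    _ ≤ ∑ _v ∈ T, 20 := sum_le_sum hv
    _ = 20 * T.card := by rw [sum_const, smul_eq_mul, mul_comm]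

end

end Crest.Agent.RY
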