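/-
  RY_H2 : the covering part of partH.
-/
import Crest.Agent.RY_H

set_option autoImplicit false
set_option linter.unusedSectionVars false

namespace Crest.Agent.RY
open Finset Classical

section
variable {F : Type} [Field F] [Fintype F] [DecidableEq F]

def pv (p : Pt F) : Option F × Option F := (p.1, some p.2)

theorem pv_inj : Function.Injective (pv (F := F)) := by
  intro p p' h
  unfold pv at h
  have := Prod.mk.inj h
  exact Prod.ext this.1 (Option.some.inj this.2)

theorem card_line (l : Ln F) : (univ.filter (fun p : Pt F => on p l)).card = Fintype.card F + 1 := by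
  have : univ.filter (fun p : Pt F => on p l) = (univ : Finset (Option F)).image (fun i => (i, val l i)) := by
    ext p
    simp only [mem_filter, mem_univ, true_and, mem_image]
    constructor
    · intro h
      exact ⟨p.1, Prod.ext rfl h.symm⟩
    · rintro ⟨i, rfl⟩
      rfl
  rw [this, card_image_of_injective, card_univ, Fintype.card_option]
  intro i i' h
  exact (Prod.mk.inj h).1

theorem card_part (i : Option F) : (univ.filter (fun p : Pt F => p.1 = i)).card = Fintype.card F := by
  have : univ.filter (fun p : Pt F => p.1 = i) = (univ : Finset F).image (fun y => (i, y)) := by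
    ext p
    simp only [mem_filter, mem_univ, true_and, mem_image]
    constructor
    · intro h
      exact ⟨p.2, Prod.ext h.symm rfl⟩
    · rintro ⟨y, rfl⟩
      rfl
  rw [this, card_image_of_injective, card_univ]
  intro y y' h
  exact (Prod.mk.inj h).2

/-- removing the base vertices -/
theorem H_base (R : Finset (Pt F)) (T : Finset (Option F × Option F)) (P : Pt F → Prop) [DecidablePred P] (n : ℕ)
    (hP : (univ.filter P).card = n) (hB : ∀ p : Pt F, P p → p ∉ R → pv p ∈ T) :
    (T.filter (fun v => ¬ ∃ p : Pt F, P p ∧ p ∉ R ∧ pv p = v)).card + n ≤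
      T.card + (R.filter P).card := by
  have h1 : (univ.filter (fun p : Pt F => P p ∧ p ∉ R)).card + (R.filter P).card = n := by
    rw [← hP, ← card_union_of_disjoint]
    · congr 1
      ext p
      simp only [mem_union, mem_filter, mem_univ, true_and]
      tauto
    · rw [Finset.disjoint_left]
      intro p h1 h2
      rw [mem_filter] at h1 h2
      exact h1.2.2 h2.1
  have h2 : (univ.filter (fun p : Pt F => P p ∧ p ∉ R)).card =
      (T.filter (fun v => ∃ p : Pt F, P p ∧ p ∉ R ∧ pv p = v)).card := by
    rw [← card_image_of_injective _ (pv_inj (F := F))]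
    congr 1
    ext v
    simp only [mem_image, mem_filter, mem_univ, true_and]
    constructor
    · rintro ⟨p, ⟨h1, h2⟩, rfl⟩
      exact ⟨hB p h1 h2, p, h1, h2, rfl⟩
    · rintro ⟨_, p, h1, h2, rfl⟩
      exact ⟨p, ⟨h1, h2⟩, rfl⟩
  have h3 := Finset.card_filter_add_card_filter_not (s := T)
    (p := fun v => ∃ p : Pt F, P p ∧ p ∉ R ∧ pv p = v)
  omega

variable {R : Finset (Pt F)} (G : Gadgets R 10)

theorem H_both (i : Option F) (p : Pt F) (h0 : ew G i 0 p.1 = some p.2)
    (h1 : ew G i 1 p.1 = some p.2) : False := by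
  obtain ⟨_, hR, h0⟩ := H_ew_mem G h0
  obtain ⟨_, _, h1⟩ := H_ew_mem G h1
  rcases h0 with h0 | ⟨s, hs, hsm, rfl⟩
  · rcases h1 with h1 | ⟨s', hs', hsm', rfl⟩
    · have := H_unique (G.M_ne i) h0 h1 (G.main_on i 0) (G.main_on i 1)
      rw [this] at hR
      exact hR (G.main_mem i)
    · exact G.z_off i 1 0 s' hs' hsm' h0
  · rcases h1 with h1 | ⟨s', hs', hsm', h⟩
    · exact G.z_off i 0 1 s hs hsm h1
    · exact G.z_ne i s s' hs hsm hs' hsm' h

theorem HE_R (i : Option F) (C : Finset (Fin 2)) (p : Pt F) (hp : p ∈ R) : HE G i C (pv p) = 0 := by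
  unfold HE
  rw [card_eq_zero, filter_eq_empty_iff]
  intro c _ h
  exact (H_ew_mem G (v := p) h).2.1 hp

theorem HE_le_one (i : Option F) (C : Finset (Fin 2)) (p : Pt F) : HE G i C (pv p) ≤ 1 := by
  unfold HE
  rw [card_le_one]
  intro a ha b hb
  rw [mem_filter] at ha hb
  by_contra hne
  have h0 : ew G i 0 p.1 = some p.2 ∧ ew G i 1 p.1 = some p.2 := by
    fin_cases a <;> fin_cases b
    · exact absurd rfl hne
    · exact ⟨ha.2, hb.2⟩
    · exact ⟨hb.2, ha.2⟩
    · exact absurd rfl hne
  exact H_both G i p h0.1 h0.2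

theorem HE_pos {i : Option F} {C : Finset (Fin 2)} {p : Pt F} (h : HE G i C (pv p) ≠ 0) :
    ∃ c ∈ C, ew G i c p.1 = some p.2 := by
  unfold HE at h
  obtain ⟨c, hc⟩ := card_pos.mp (Nat.pos_of_ne_zero h)
  rw [mem_filter] at hc
  exact ⟨c, hc.1, hc.2⟩

theorem H_part (i : Option F) (T : Finset (Option F × Option F)) (hTc : T.card ≤ Fintype.card F)
    (hT : ∀ w ∈ HW G, ∃ p ∈ T, w p.1 = p.2)
    (hB : ∀ p : Pt F, p.1 = i → p ∉ R → pv p ∈ T) : False := by
  have hb := H_base R T (fun p => p.1 = i) (Fintype.card F) (card_part i) hB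
  set T' := T.filter (fun v => ¬ ∃ p : Pt F, p.1 = i ∧ p ∉ R ∧ pv p = v) with hT'
  have hsub : onP R i ⊆ R := by unfold onP; exact filter_subset _ _
  have hc := H_count G (HA G (onP R i)) i univ T' ?_ ?_ ?_
  · rw [HA_card G hsub] at hc
    have hk : (R.filter (fun p => p.1 = i)).card = (onP R i).card := rfl
    rw [hk] at hb
    simp only [card_univ, Fintype.card_fin] at hc
    omega
  · intro l hl
    unfold HA at hl
    rw [mem_biUnion] at hl
    obtain ⟨t, ht, hl⟩ := hl
    have htR := hsub ht
    have hti : t.1 = i := by unfold onP at ht; exact (mem_filter.mp ht).2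
    obtain ⟨v, hv, hlv⟩ := hT (lw l) ((H_mem G _).mpr (Or.inl ⟨l, Or.inr ⟨t, htR, hl⟩, rfl⟩))
    refine ⟨v, ?_, hlv⟩
    rw [hT', mem_filter]
    refine ⟨hv, ?_⟩
    rintro ⟨p, hp, hpR, rfl⟩
    apply hpR
    have h1 : on p l := (Option.some.inj hlv).symm
    have h2 := (H_plain_on (G.sp_plain t htR hl)).2
    have : p = t := by
      apply Prod.ext
      · rw [hp, hti]
      · unfold on at h1 h2
        rw [h1, h2, hp, hti]
    rw [this]
    exact htR
  · intro c _
    obtain ⟨v, hv, hev⟩ := hT (ew G i c) ((H_mem G _).mpr (Or.inr ⟨i, c, rfl⟩))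
    refine ⟨v, ?_, hev⟩
    rw [hT', mem_filter]
    refine ⟨hv, ?_⟩
    rintro ⟨p, hp, hpR, rfl⟩
    have := (H_ew_mem G (v := p) hev).1
    exact this hp
  · intro v hv
    obtain ⟨j, y⟩ := v
    cases y with
    | none =>
      rw [HN_none]
      have : HE G i univ (j, none) ≤ 2 := by
        unfold HE
        exact (card_le_univ _).trans (by simp)
      omega
    | some y =>
      rw [hT', mem_filter] at hv
      have hN := HN_some (HA G (onP R i)) ((j, y) : Pt F)
      simp only at hN
      by_cases hpR : ((j, y) : Pt F) ∈ R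
      · have h1 := HA_R G hsub hpR
        have h2 := HE_R G i univ (j, y) hpR
        unfold pv at h2
        simp only at h2
        omega
      · by_cases hji : j = i
        · exact absurd ⟨(j, y), hji, hpR, rfl⟩ hv.2
        · have h1 := HA_sum G (onP R i) (j, y)
          have h2 := G.gen_part i (j, y) hpR hji
          have h3 := HE_le_one G i univ (j, y)
          by_cases h0 : HE G i univ (pv (j, y)) = 0
          · unfold pv at h0
            simp only at h0
            omega
          · obtain ⟨c, _, hc⟩ := HE_pos G h0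
            have h4 := G.gen_part' i c (j, y) hpR hji (H_ew_mem G (v := (j, y)) hc).2.2
            unfold pv at h3
            simp only at h3
            omega

theorem H_line (l : Ln F) (hl : ∀ i c, l ≠ G.M i c) (T : Finset (Option F × Option F))
    (hTc : T.card ≤ Fintype.card F) (hT : ∀ w ∈ HW G, ∃ p ∈ T, w p.1 = p.2)
    (hB : ∀ p : Pt F, on p l → p ∉ R → pv p ∈ T) : False := by
  have hb := H_base R T (fun p => on p l) (Fintype.card F + 1) (card_line l) hB
  set T' := T.filter (fun v => ¬ ∃ p : Pt F, on p l ∧ p ∉ R ∧ pv p = v) with hT'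
  have hsub : onL R l ⊆ R := by unfold onL; exact filter_subset _ _
  have hc := H_count G ((HA G (onL R l)).erase l) none ∅ T' ?_ ?_ ?_
  · have h1 := HA_card G hsub
    have h2 := pred_card_le_card_erase (s := HA G (onL R l)) (a := l)
    have hk : (R.filter (fun p => on p l)).card = (onL R l).card := rfl
    rw [hk] at hb
    rw [card_empty] at hc
    omega
  · intro l' hl'
    rw [mem_erase] at hl'
    obtain ⟨hne, hl'⟩ := hl'
    unfold HA at hl'
    rw [mem_biUnion] at hl'
    obtain ⟨t, ht, hl'⟩ := hl'
    have htR := hsub ht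
    have htl : on t l := by unfold onL at ht; exact (mem_filter.mp ht).2
    obtain ⟨v, hv, hlv⟩ := hT (lw l') ((H_mem G _).mpr (Or.inl ⟨l', Or.inr ⟨t, htR, hl'⟩, rfl⟩))
    refine ⟨v, ?_, hlv⟩
    rw [hT', mem_filter]
    refine ⟨hv, ?_⟩
    rintro ⟨p, hp, hpR, rfl⟩
    apply hpR
    have h1 : on p l' := (Option.some.inj hlv).symm
    have h2 := (H_plain_on (G.sp_plain t htR hl')).2
    have : p = t := H_unique hne h1 hp h2 htl
    rw [this]
    exact htR
  · intro c hc
    exact absurd hc (notMem_empty c)
  · intro v hv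
    have hE0 : HE G none ∅ v = 0 := by unfold HE; simp
    rw [hE0]
    obtain ⟨j, y⟩ := v
    cases y with
    | none =>
      rw [HN_none]
      omega
    | some y =>
      rw [hT', mem_filter] at hv
      have hN := HN_some ((HA G (onL R l)).erase l) ((j, y) : Pt F)
      simp only at hN
      have hle : (((HA G (onL R l)).erase l).filter (fun l => on ((j, y) : Pt F) l)).card ≤
          ((HA G (onL R l)).filter (fun l => on ((j, y) : Pt F) l)).card :=
        card_le_card (filter_subset_filter _ (erase_subset _ _))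
      by_cases hpR : ((j, y) : Pt F) ∈ R
      · have h1 := HA_R G hsub hpR
        omega
      · by_cases hon : on ((j, y) : Pt F) l
        · exact absurd ⟨(j, y), hon, hpR, rfl⟩ hv.2
        · have h1 := HA_sum G (onL R l) (j, y)
          have h2 := G.gen_line l hl (j, y) hpR hon
          omega

theorem H_lineM (i : Option F) (c : Fin 2) (T : Finset (Option F × Option F))
    (hTc : T.card ≤ Fintype.card F) (hT : ∀ w ∈ HW G, ∃ p ∈ T, w p.1 = p.2)
    (hB : ∀ p : Pt F, on p (G.M i c) → p ∉ R → pv p ∈ T) : False := by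
  have hb := H_base R T (fun p => on p (G.M i c)) (Fintype.card F + 1) (card_line _) hB
  set T' := T.filter (fun v => ¬ ∃ p : Pt F, on p (G.M i c) ∧ p ∉ R ∧ pv p = v) with hT'
  have hsub : (onL R (G.M i c)).erase (G.main i) ⊆ R :=
    (erase_subset _ _).trans (by unfold onL; exact filter_subset _ _)
  have hmain : G.main i ∈ onL R (G.M i c) := by
    unfold onL; rw [mem_filter]; exact ⟨G.main_mem i, G.main_on i c⟩
  have hc := H_count G (HA G ((onL R (G.M i c)).erase (G.main i))) i (univ.erase c) T' ?_ ?_ ?_
  · have h1 := HA_card G hsub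
    have h2 := card_erase_of_mem hmain
    have h3 := G.card_M i c
    have hk : (R.filter (fun p => on p (G.M i c))).card = (onL R (G.M i c)).card := rfl
    have h4 : ((univ : Finset (Fin 2)).erase c).card = 1 := by
      rw [card_erase_of_mem (mem_univ c)]; simp
    rw [hk] at hb
    rw [h1, h4] at hc
    omega
  · intro l' hl'
    unfold HA at hl'
    rw [mem_biUnion] at hl'
    obtain ⟨t, ht, hl'⟩ := hl'
    have htR := hsub ht
    rw [mem_erase] at ht
    have htl : on t (G.M i c) := by have := ht.2; unfold onL at this; exact (mem_filter.mp this).2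
    have hne : l' ≠ G.M i c := by
      intro h
      have := H_plain (G.sp_plain t htR hl') (G.main_mem i) (by rw [h]; exact G.main_on i c)
      exact ht.1 this.symm
    obtain ⟨v, hv, hlv⟩ := hT (lw l') ((H_mem G _).mpr (Or.inl ⟨l', Or.inr ⟨t, htR, hl'⟩, rfl⟩))
    refine ⟨v, ?_, hlv⟩
    rw [hT', mem_filter]
    refine ⟨hv, ?_⟩
    rintro ⟨p, hp, hpR, rfl⟩
    apply hpR
    have h1 : on p l' := (Option.some.inj hlv).symm
    have h2 := (H_plain_on (G.sp_plain t htR hl')).2
    have : p = t := H_unique hne h1 hp h2 htl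
    rw [this]
    exact htR
  · intro c' hc'
    have hcc : c' ≠ c := (mem_erase.mp hc').1
    obtain ⟨v, hv, hev⟩ := hT (ew G i c') ((H_mem G _).mpr (Or.inr ⟨i, c', rfl⟩))
    refine ⟨v, ?_, hev⟩
    rw [hT', mem_filter]
    refine ⟨hv, ?_⟩
    rintro ⟨p, hp, hpR, rfl⟩
    obtain ⟨_, _, h⟩ := H_ew_mem G (v := p) hev
    rcases h with h | ⟨s, hs, hsm, h⟩
    · have hMne : G.M i c' ≠ G.M i c := by
        have h0 := G.M_ne i
        fin_cases c <;> fin_cases c'
        · exact absurd rfl hcc
        · exact h0.symm
        · exact h0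
        · exact absurd rfl hcc
      have := H_unique hMne h hp (G.main_on i c') (G.main_on i c)
      rw [this] at hpR
      exact hpR (G.main_mem i)
    · rw [h] at hp
      exact G.z_off i c' c s hs hsm hp
  · intro v hv
    obtain ⟨j, y⟩ := v
    cases y with
    | none =>
      rw [HN_none]
      have : HE G i (univ.erase c) (j, none) ≤ 2 := by
        unfold HE
        exact (card_le_univ _).trans (by simp)
      omega
    | some y =>
      rw [hT', mem_filter] at hv
      have hN := HN_some (HA G ((onL R (G.M i c)).erase (G.main i))) ((j, y) : Pt F)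
      simp only at hN
      by_cases hpR : ((j, y) : Pt F) ∈ R
      · have h1 := HA_R G hsub hpR
        have h2 := HE_R G i (univ.erase c) (j, y) hpR
        unfold pv at h2
        simp only at h2
        omega
      · by_cases hon : on ((j, y) : Pt F) (G.M i c)
        · exact absurd ⟨(j, y), hon, hpR, rfl⟩ hv.2
        · have h1 := HA_sum G ((onL R (G.M i c)).erase (G.main i)) (j, y)
          have h2 := G.gen_M i c (j, y) hpR hon
          have h3 := HE_le_one G i (univ.erase c) (j, y)
          by_cases h0 : HE G i (univ.erase c) (pv (j, y)) = 0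
          · unfold pv at h0
            simp only at h0
            omega
          · obtain ⟨c', hc', hc⟩ := HE_pos G h0
            have hcc : c' ≠ c := (mem_erase.mp hc').1
            have h4 := G.gen_M' i c c' hcc.symm (j, y) hpR hon (H_ew_mem G (v := (j, y)) hc).2.2
            unfold pv at h3
            simp only at h3
            omega

end

/-- deterministic part -/
theorem partH_main {F : Type} [Field F] [Fintype F] [DecidableEq F] (R : Finset (Pt F))
    (G : Gadgets R 10) (hS : Stable R) (hc : ∀ p : Pt F, p ∉ R → ∃ l ∈ F0 R, on p l) :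
    Concl (Fintype.card F) := by
  refine concl_of_words (HW G) ?_ (fun w hw w' hw' => H_int G w w' hw hw') ?_ ?_
  · exact ⟨ew G none 0, (H_mem G _).mpr (Or.inr ⟨none, 0, rfl⟩)⟩
  · intro i y
    cases y with
    | none => exact ⟨ew G i 0, (H_mem G _).mpr (Or.inr ⟨i, 0, rfl⟩), H_ew_self G i 0⟩
    | some y =>
      by_cases hR : ((i, y) : Pt F) ∈ R
      · have h1 := G.sp_card (i, y) hR
        obtain ⟨l, hl⟩ := card_pos.mp (by rw [h1]; norm_num : 0 < (G.sp (i, y)).card)
        have h2 := (H_plain_on (G.sp_plain _ hR hl)).2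
        refine ⟨lw l, (H_mem G _).mpr (Or.inl ⟨l, Or.inr ⟨_, hR, hl⟩, rfl⟩), ?_⟩
        unfold lw
        rw [← (show y = val l i from h2)]
      · obtain ⟨l, hl, hon⟩ := hc (i, y) hR
        refine ⟨lw l, (H_mem G _).mpr (Or.inl ⟨l, Or.inl hl, rfl⟩), ?_⟩
        unfold lw
        rw [← (show y = val l i from hon)]
  · intro T hT
    by_contra hlt
    have hTc : T.card ≤ Fintype.card F := by omega
    set S : Finset (Pt F) := univ.filter (fun p => pv p ∈ T) with hSdef
    have hScard : S.card ≤ Fintype.card F := by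
      refine le_trans ?_ hTc
      rw [← card_image_of_injective S (pv_inj (F := F))]
      apply card_le_card
      intro v hv
      obtain ⟨p, hp, rfl⟩ := mem_image.mp hv
      exact (mem_filter.mp hp).2
    have hSc : ∀ l ∈ F0 R, ∃ p ∈ S, on p l := by
      intro l hl
      obtain ⟨v, hv, hlv⟩ := hT (lw l) ((H_mem G _).mpr (Or.inl ⟨l, Or.inl hl, rfl⟩))
      obtain ⟨j, y⟩ := v
      have : y = some (val l j) := hlv.symm
      subst this
      exact ⟨(j, val l j), by rw [hSdef, mem_filter]; exact ⟨mem_univ _, hv⟩, rfl⟩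
    rcases hS S hScard hSc with ⟨l, hl⟩ | ⟨i, hi⟩
    · have hB : ∀ p : Pt F, on p l → p ∉ R → pv p ∈ T := by
        intro p h1 h2
        have := hl p h1 h2
        rw [hSdef, mem_filter] at this
        exact this.2
      by_cases hM : ∃ i c, l = G.M i c
      · obtain ⟨i, c, rfl⟩ := hM
        exact H_lineM G i c T hTc hT hB
      · push Not at hM
        exact H_line G l hM T hTc hT hB
    · have hB : ∀ p : Pt F, p.1 = i → p ∉ R → pv p ∈ T := by
        intro p h1 h2
        have := hi p h1 h2
        rw [hSdef, mem_filter] at this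
        exact this.2
      exact H_part G i T hTc hT hB

end Crest.Agent.RY
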