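/-
  RY_NIface : interface between N1 (probability: the random set is pseudo-random) and N2 (deterministic selection of the
  gadgets) of part N of S0045 / S0046.   (helper9)
-/
import Crest.Agent.RY_Iface

set_option autoImplicit false

namespace Crest.Agent.RY
open Finset Classical

section
variable {F : Type} [Field F] [Fintype F] [DecidableEq F]

/-- the point of the line `l` in the part `i` -/
def ptl (l : Ln F) (i : Option F) : Pt F := (i, val l i)

/-- the line through the point `p` with parameter `a` (all lines through `p`, each exactly once): slope `a` if the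
part of `p` is `some x`, intercept `a` if the part of `p` is `none` -/
def thr (p : Pt F) (a : F) : Ln F :=
  match p.1 with
  | some x => (a, p.2 - a * x)
  | none => (p.2, a)

/-- the line through two points `p`, `p'` of different parts -/
def lin (p p' : Pt F) : Ln F :=
  match p.1, p'.1 with
  | some x, some x' => ((p.2 - p'.2) / (x - x'), p.2 - (p.2 - p'.2) / (x - x') * x)
  | some x, none => (p'.2, p.2 - p'.2 * x)
  | none, some x' => (p.2, p'.2 - p.2 * x')
  | none, none => (0, 0)

/-- the good lines `b` at `mn i` for the two candidate lines `l0`, `l1` and their slots `s`, `s'`: `b` is plain at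
`mn i`, and with `z = b ∩ part(s)` the line `(t z)` is plain at `t` for all slots `t ≠ s` of `l0`, and the same for
`l1`, `s'`. -/
noncomputable def goodB (R : Finset (Pt F)) (mn : Option F → Pt F) (i : Option F) (l0 l1 : Ln F) (s s' : Pt F) :
    Finset (Ln F) :=
  (plain R (mn i)).filter (fun b =>
    (∀ t ∈ onL R l0, t ≠ mn i → t ≠ s → lin t (ptl b s.1) ∈ plain R t) ∧
    (∀ t ∈ onL R l1, t ≠ mn i → t ≠ s' → lin t (ptl b s'.1) ∈ plain R t))

/-- pseudo-randomness of a sparse set `R` with main points `mn` and candidate lines `cd i` at `mn i` -/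
structure PsR (c : ℝ) (D : ℕ) (R : Finset (Pt F)) (mn : Option F → Pt F) (cd : Option F → Finset (Ln F)) :
    Prop where
  mn_mem : ∀ i, mn i ∈ R
  mn_part : ∀ i, (mn i).1 = i
  /-- candidate lines contain the main point, exactly 11 other sparse points, none of which is a main point -/
  cd_on : ∀ i, ∀ l ∈ cd i, on (mn i) l
  cd_card : ∀ i, ∀ l ∈ cd i, (onL R l).card = 12
  cd_main : ∀ i, ∀ l ∈ cd i, ∀ t ∈ onL R l, t ≠ mn i → t ≠ mn t.1
  /-- few candidate lines through a slot point -/
  cand_le : ∀ s ∈ R, s ≠ mn s.1 → (univ.filter (fun l : Ln F => on s l ∧ ∃ i, l ∈ cd i)).card ≤ D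
  /-- many candidate lines at every main point -/
  cand_ge : ∀ i, 88 * D + 100000 ≤ (cd i).card
  /-- many good lines (the slots of `l0` and of `l1` are in different parts) -/
  good : ∀ i, ∀ l0 ∈ cd i, ∀ l1 ∈ cd i,
    (∀ t ∈ onL R l0, ∀ t' ∈ onL R l1, t ≠ mn i → t' ≠ mn i → t.1 ≠ t'.1) →
    ∀ s ∈ onL R l0, s ≠ mn i → ∀ s' ∈ onL R l1, s' ≠ mn i →
      c * (Fintype.card F : ℝ) ≤ ((goodB R mn i l0 l1 s s').card : ℝ)
  /-- many plain lines at every sparse point -/
  plain_ge : ∀ t ∈ R, c * (Fintype.card F : ℝ) ≤ ((plain R t).card : ℝ)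
  /-- few sparse points on a line -/
  line_le : ∀ l, (onL R l).card ^ 4 ≤ Fintype.card F
  /-- few sparse points in a part -/
  part_le : ∀ i, (onP R i).card ≤ 2001

end

-- N1 (probability) is `partN1'` in RY_P9; N2 (deterministic selection) is `partN2'` in RY_NA; both are combined in RY_Main.

end Crest.Agent.RY
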