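/-
  RY_NG : elementary geometry of points, parts and lines (part N of S0045 / S0046, helper9)
-/
import Crest.Agent.RY_NIface

set_option autoImplicit false

namespace Crest.Agent.RY
open Finset Classical

section
variable {F : Type} [Field F] [Fintype F] [DecidableEq F]

@[simp] theorem ptl_fst (l : Ln F) (i : Option F) : (ptl l i).1 = i := rfl

theorem on_ptl (l : Ln F) (i : Option F) : on (ptl l i) l := rfl

theorem eq_ptl {p : Pt F} {l : Ln F} (h : on p l) : p = ptl l p.1 := by
  unfold on at h; unfold ptl; rw [← h]

theorem on_thr (p : Pt F) (a : F) : on p (thr p a) := by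
  obtain ⟨i, y⟩ := p
  cases i <;> simp [on, thr, val]

theorem thr_inj {p : Pt F} {a b : F} (h : thr p a = thr p b) : a = b := by
  obtain ⟨i, y⟩ := p
  cases i <;> simp_all [thr]

theorem exists_thr {p : Pt F} {l : Ln F} (h : on p l) : ∃ a, thr p a = l := by
  obtain ⟨i, y⟩ := p
  obtain ⟨m, c⟩ := l
  cases i with
  | none => exact ⟨c, by simp_all [on, val, thr]⟩
  | some x => exact ⟨m, by simp_all [on, val, thr]⟩

theorem on_lin_left {p p' : Pt F} (h : p.1 ≠ p'.1) : on p (lin p p') := by
  obtain ⟨i, y⟩ := p
  obtain ⟨i', y'⟩ := p'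
  cases i <;> cases i' <;> simp_all [on, val, lin]

theorem on_lin_right {p p' : Pt F} (h : p.1 ≠ p'.1) : on p' (lin p p') := by
  obtain ⟨i, y⟩ := p
  obtain ⟨i', y'⟩ := p'
  cases i with
  | none => cases i' <;> simp_all [on, val, lin]
  | some x =>
    cases i' with
    | none => simp_all [on, val, lin]
    | some x' =>
      have hx : x - x' ≠ 0 := by
        intro h0; apply h; simp only [Option.some.injEq]; exact sub_eq_zero.mp h0
      simp only [on, val, lin]
      field_simp
      ring

/-- two points of a line are in different parts -/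
theorem fst_ne_of_on {p p' : Pt F} {l : Ln F} (h : on p l) (h' : on p' l) (hne : p ≠ p') : p.1 ≠ p'.1 := by
  intro h0
  apply hne
  rw [eq_ptl h, eq_ptl h', h0]

/-- two points are on at most one line -/
theorem line_unique {p p' : Pt F} {l l' : Ln F} (h1 : on p l) (h2 : on p' l) (h3 : on p l') (h4 : on p' l')
    (hne : p ≠ p') : l = l' := by
  have hp := fst_ne_of_on h1 h2 hne
  obtain ⟨i, y⟩ := p
  obtain ⟨i', y'⟩ := p'
  obtain ⟨m, c⟩ := l
  obtain ⟨m', c'⟩ := l'
  cases i with
  | none =>
    cases i' with
    | none => exact absurd rfl hp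
    | some x =>
      simp only [on, val] at h1 h2 h3 h4
      have : m = m' := h1.symm.trans h3
      subst this
      have : c = c' := by
        have := h2.symm.trans h4
        exact add_left_cancel this
      rw [this]
  | some x =>
    cases i' with
    | none =>
      simp only [on, val] at h1 h2 h3 h4
      have : m = m' := h2.symm.trans h4
      subst this
      have : c = c' := by
        have := h1.symm.trans h3
        exact add_left_cancel this
      rw [this]
    | some x' =>
      simp only [on, val] at h1 h2 h3 h4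
      have hx : x - x' ≠ 0 := by
        intro h0; apply hp; simp only [Option.some.injEq]; exact sub_eq_zero.mp h0
      have e1 : m * x + c = m' * x + c' := h1.symm.trans h3
      have e2 : m * x' + c = m' * x' + c' := h2.symm.trans h4
      have e3 : (m - m') * (x - x') = 0 := by linear_combination e1 - e2
      have e4 : m = m' := by
        rcases mul_eq_zero.mp e3 with h | h
        · exact sub_eq_zero.mp h
        · exact absurd h hx
      subst e4
      have : c = c' := add_left_cancel e1
      rw [this]

theorem point_unique {p p' : Pt F} {l l' : Ln F} (h1 : on p l) (h2 : on p' l) (h3 : on p l') (h4 : on p' l')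
    (hne : l ≠ l') : p = p' := by
  by_contra h
  exact hne (line_unique h1 h2 h3 h4 h)

theorem lin_eq {p p' : Pt F} {l : Ln F} (h : p.1 ≠ p'.1) (h1 : on p l) (h2 : on p' l) : lin p p' = l :=
  line_unique (on_lin_left h) (on_lin_right h) h1 h2 (fun h0 => h (by rw [h0]))

theorem mem_plain {R : Finset (Pt F)} {t : Pt F} {l : Ln F} : l ∈ plain R t ↔ onL R l = {t} := by
  simp [plain]

theorem mem_onL {R : Finset (Pt F)} {t : Pt F} {l : Ln F} : t ∈ onL R l ↔ t ∈ R ∧ on t l := by
  simp [onL]

theorem mem_onP {R : Finset (Pt F)} {t : Pt F} {i : Option F} : t ∈ onP R i ↔ t ∈ R ∧ t.1 = i := by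
  simp [onP]

theorem plain_on {R : Finset (Pt F)} {t : Pt F} {l : Ln F} (h : l ∈ plain R t) : t ∈ R ∧ on t l := by
  rw [mem_plain] at h
  have : t ∈ onL R l := by rw [h]; exact mem_singleton_self t
  exact mem_onL.mp this

theorem plain_only {R : Finset (Pt F)} {t p : Pt F} {l : Ln F} (h : l ∈ plain R t) (hp : p ∈ R)
    (hon : on p l) : p = t := by
  rw [mem_plain] at h
  have : p ∈ onL R l := mem_onL.mpr ⟨hp, hon⟩
  rw [h] at this
  exact mem_singleton.mp this

end

end Crest.Agent.RY
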