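/-
  RY_NDef : definitions for the deterministic selection (part N2 of S0045 / S0046, helper9)

  * `Sel` : the chosen M-lines `M i c` and an enumeration `sl i c k` (`k : Fin 11`) of their slots.
  * a CHOICE for one gadget (or for one idle sparse point) is a tuple `x : Fin 12 → F` of parameters of lines through
    the main point (or through the idle point).
-/
import Crest.Agent.RY_NG

set_option autoImplicit false

namespace Crest.Agent.RY
open Finset Classical

section
variable {F : Type} [Field F] [Fintype F] [DecidableEq F]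

/-- the selected M-lines with enumerated slots -/
structure Sel (R : Finset (Pt F)) (mn : Option F → Pt F) (cd : Option F → Finset (Ln F)) where
  M : Option F → Fin 2 → Ln F
  sl : Option F → Fin 2 → Fin 11 → Pt F
  M_cd : ∀ i c, M i c ∈ cd i
  M_ne : ∀ i, M i 0 ≠ M i 1
  sl_mem : ∀ i c k, sl i c k ∈ R
  sl_on : ∀ i c k, on (sl i c k) (M i c)
  sl_ne : ∀ i c k, sl i c k ≠ mn i
  sl_main : ∀ i c k, sl i c k ≠ mn (sl i c k).1
  sl_inj : ∀ i c, Function.Injective (sl i c)
  sl_surj : ∀ i c, ∀ t ∈ onL R (M i c), t ≠ mn i → ∃ k, sl i c k = t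
  sl_parts : ∀ i k k', (sl i 0 k).1 ≠ (sl i 1 k').1
  disj : ∀ i i' c c' k k', i ≠ i' → sl i c k ≠ sl i' c' k'

/-- index of the slots used by the coordinate `a` -/
def kk (a : Fin 12) : Fin 11 := ⟨min a.1 10, by omega⟩

/-- coordinate which determines the label at the slot `k` of the M-line `c` -/
def kp (c : Fin 2) (k : Fin 11) : Fin 12 := if k.1 < 10 then ⟨k.1, by omega⟩ else ⟨10 + c.1, by omega⟩

/-- the first ten coordinates -/
def jj (j : Fin 10) : Fin 12 := ⟨j.1, by omega⟩

theorem kk_kp (c : Fin 2) (k : Fin 11) : kk (kp c k) = k := by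
  revert c k; decide

theorem kp_inj (c : Fin 2) : Function.Injective (kp c) := by
  intro k k' h
  rw [← kk_kp c k, ← kk_kp c k', h]

theorem jj_inj : Function.Injective jj := by
  intro j j' h
  revert h; revert j j'; decide

/-- the coordinate `jj j` is the coordinate of the slot number `j` for both M-lines -/
theorem kp_castSucc (c : Fin 2) (j : Fin 10) : kp c j.castSucc = jj j := by
  revert c j; decide

variable {R : Finset (Pt F)} {mn : Option F → Pt F} {cd : Option F → Finset (Ln F)}

/-- the label used at the slot number `k` of the M-line `(i,c)` -/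
def Sel.z (G : Sel R mn cd) (i : Option F) (c : Fin 2) (x : Fin 12 → F) (k : Fin 11) : Pt F :=
  ptl (thr (mn i) (x (kp c k))) (G.sl i c k).1

/-- special lines at the point `t` given by the first ten coordinates (main points and idle points) -/
noncomputable def spM (t : Pt F) (x : Fin 12 → F) : Finset (Ln F) :=
  (univ : Finset (Fin 10)).image (fun j => thr t (x (jj j)))

/-- special lines at the slot number `k` of `(i,c)` -/
noncomputable def Sel.spS (G : Sel R mn cd) (i : Option F) (c : Fin 2) (k : Fin 11) (x : Fin 12 → F) :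
    Finset (Ln F) :=
  ((univ : Finset (Fin 11)).erase k).image (fun j => lin (G.sl i c k) (G.z i c x j))

/-- the coordinates are good -/
def Sel.Ok1 (G : Sel R mn cd) (i : Option F) (x : Fin 12 → F) : Prop :=
  ∀ a : Fin 12, thr (mn i) (x a) ∈ goodB R mn i (G.M i 0) (G.M i 1) (G.sl i 0 (kk a)) (G.sl i 1 (kk a))

/-- the special lines at each slot are different -/
def Sel.Ok3 (G : Sel R mn cd) (i : Option F) (x : Fin 12 → F) : Prop :=
  ∀ (c : Fin 2) (k j j' : Fin 11), j ≠ k → j' ≠ k → j ≠ j' →
    lin (G.sl i c k) (G.z i c x j) ≠ lin (G.sl i c k) (G.z i c x j')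

/-- local genericity: a point off `M i c` which is not a label of `(i,c)` is on special lines of at most 5 slots -/
def Sel.Ok4 (G : Sel R mn cd) (i : Option F) (x : Fin 12 → F) : Prop :=
  ∀ (c : Fin 2) (v : Pt F), ¬ on v (G.M i c) → (∀ j, v ≠ G.z i c x j) →
    ((univ : Finset (Fin 11)).filter (fun k => ∃ l' ∈ G.spS i c k x, on v l')).card ≤ 5

/-- the admissible choices of the gadget `i` -/
noncomputable def Sel.OmG (G : Sel R mn cd) (i : Option F) : Finset (Fin 12 → F) :=
  univ.filter (fun x => G.Ok1 i x ∧ Function.Injective x ∧ G.Ok3 i x ∧ G.Ok4 i x)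

/-- the admissible choices of an idle sparse point `t` -/
noncomputable def OmI (R : Finset (Pt F)) (t : Pt F) : Finset (Fin 12 → F) :=
  univ.filter (fun x => (∀ a, thr t (x a) ∈ plain R t) ∧ Function.Injective x)

/-- owners: gadgets (`inl i`) and idle points (`inr t`) -/
abbrev Ow (F : Type) := Option F ⊕ Pt F

/-- the admissible choices of an owner -/
noncomputable def Sel.Om (G : Sel R mn cd) : Ow F → Finset (Fin 12 → F) :=
  fun o => match o with
    | Sum.inl i => G.OmG i
    | Sum.inr t => if t ∈ R then OmI R t else univ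

/-- `t` is a slot -/
def Sel.IsSlot (G : Sel R mn cd) (t : Pt F) : Prop := ∃ p : Option F × Fin 2 × Fin 11, G.sl p.1 p.2.1 p.2.2 = t

/-- the owner of a sparse point -/
noncomputable def Sel.own (G : Sel R mn cd) (t : Pt F) : Ow F :=
  if t = mn t.1 then Sum.inl t.1 else if h : G.IsSlot t then Sum.inl h.choose.1 else Sum.inr t

/-- the special lines at `t` when the choice of its owner is `x` -/
noncomputable def Sel.spx (G : Sel R mn cd) (t : Pt F) (x : Fin 12 → F) : Finset (Ln F) :=
  if t = mn t.1 then spM t x
  else if h : G.IsSlot t then G.spS h.choose.1 h.choose.2.1 h.choose.2.2 x else spM t x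

/-- with the choice `x` of its owner the sparse point `t` sees `v` -/
def Sel.sees (G : Sel R mn cd) (t v : Pt F) (x : Fin 12 → F) : Prop := ∃ l' ∈ G.spx t x, on v l'

/-- `v` is a label of the gadget `i` with the choice `x` -/
def Sel.lab (G : Sel R mn cd) (i : Option F) (v : Pt F) (x : Fin 12 → F) : Prop :=
  ∃ (c : Fin 2) (k : Fin 11), v = G.z i c x k

end

end Crest.Agent.RY
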