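/-
  RY_NS : basic facts about a selection `G : Sel R mn cd`
-/
import Crest.Agent.RY_NDef

set_option autoImplicit false

namespace Crest.Agent.RY
open Finset Classical

section
variable {F : Type} [Field F] [Fintype F] [DecidableEq F]
variable {R : Finset (Pt F)} {mn : Option F → Pt F} {cd : Option F → Finset (Ln F)} {c : ℝ} {D : ℕ}

theorem Sel.mn_on (G : Sel R mn cd) (P : PsR c D R mn cd) (i : Option F) (e : Fin 2) : on (mn i) (G.M i e) :=
  P.cd_on i _ (G.M_cd i e)

/-- a slot is not in the part of its gadget -/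
theorem Sel.sl_fst_ne (G : Sel R mn cd) (P : PsR c D R mn cd) (i : Option F) (e : Fin 2) (k : Fin 11) :
    (G.sl i e k).1 ≠ i := by
  have := fst_ne_of_on (G.sl_on i e k) (G.mn_on P i e) (G.sl_ne i e k)
  rwa [P.mn_part i] at this

/-- different slots of one M-line are in different parts -/
theorem Sel.sl_fst_inj (G : Sel R mn cd) (i : Option F) (e : Fin 2) {k k' : Fin 11} (h : k ≠ k') :
    (G.sl i e k).1 ≠ (G.sl i e k').1 :=
  fst_ne_of_on (G.sl_on i e k) (G.sl_on i e k') (fun h0 => h (G.sl_inj i e h0))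

/-- all the slots of one gadget are in different parts -/
theorem Sel.sl_fst_inj2 (G : Sel R mn cd) (i : Option F) {e e' : Fin 2} {k k' : Fin 11}
    (h : (G.sl i e k).1 = (G.sl i e' k').1) : e = e' ∧ k = k' := by
  by_cases he : e = e'
  · subst he
    refine ⟨rfl, ?_⟩
    by_contra hk
    exact G.sl_fst_inj i e hk h
  · exfalso
    fin_cases e <;> fin_cases e'
    · exact he rfl
    · exact G.sl_parts i k k' h
    · exact G.sl_parts i k' k h.symm
    · exact he rfl

/-- a slot determines its gadget, M-line and number -/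
theorem Sel.sl_inj3 (G : Sel R mn cd) {i i' : Option F} {e e' : Fin 2} {k k' : Fin 11}
    (h : G.sl i e k = G.sl i' e' k') : i = i' ∧ e = e' ∧ k = k' := by
  have hi : i = i' := by
    by_contra hne
    exact G.disj i i' e e' k k' hne h
  subst hi
  exact ⟨rfl, G.sl_fst_inj2 i (by rw [h])⟩

@[simp] theorem Sel.z_fst (G : Sel R mn cd) (i : Option F) (e : Fin 2) (x : Fin 12 → F) (k : Fin 11) :
    (G.z i e x k).1 = (G.sl i e k).1 := rfl

theorem Sel.z_on (G : Sel R mn cd) (i : Option F) (e : Fin 2) (x : Fin 12 → F) (k : Fin 11) :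
    on (G.z i e x k) (thr (mn i) (x (kp e k))) := on_ptl _ _

/-- the label determines the coordinate -/
theorem Sel.z_inj (G : Sel R mn cd) (P : PsR c D R mn cd) {i : Option F} {e : Fin 2} {x y : Fin 12 → F}
    {k : Fin 11} (h : G.z i e x k = G.z i e y k) : x (kp e k) = y (kp e k) := by
  apply thr_inj (p := mn i)
  refine line_unique (on_thr (mn i) _) (G.z_on i e x k) (on_thr (mn i) _) (h ▸ G.z_on i e y k) ?_
  intro h0
  apply G.sl_fst_ne P i e k
  rw [← G.z_fst i e x k, ← h0, P.mn_part i]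

/-! ### consequences of `Ok1` -/

theorem Sel.Ok1_plain {G : Sel R mn cd} {i : Option F} {x : Fin 12 → F} (h : G.Ok1 i x) (a : Fin 12) :
    thr (mn i) (x a) ∈ plain R (mn i) := by
  have := h a
  unfold goodB at this
  exact (mem_filter.mp this).1

/-- the special lines at slots are plain -/
theorem Sel.Ok1_lin {G : Sel R mn cd} {i : Option F} {x : Fin 12 → F} (h : G.Ok1 i x) (e : Fin 2)
    (k j : Fin 11) (hj : j ≠ k) : lin (G.sl i e k) (G.z i e x j) ∈ plain R (G.sl i e k) := by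
  have h0 := h (kp e j)
  rw [kk_kp] at h0
  unfold goodB at h0
  obtain ⟨h1, h2, h3⟩ := mem_filter.mp h0
  fin_cases e
  · exact h2 _ (mem_onL.mpr ⟨G.sl_mem i 0 k, G.sl_on i 0 k⟩) (G.sl_ne i 0 k)
      (fun h4 => hj (G.sl_inj i 0 h4).symm)
  · exact h3 _ (mem_onL.mpr ⟨G.sl_mem i 1 k, G.sl_on i 1 k⟩) (G.sl_ne i 1 k)
      (fun h4 => hj (G.sl_inj i 1 h4).symm)

/-- labels are not sparse -/
theorem Sel.z_notin {G : Sel R mn cd} (P : PsR c D R mn cd) {i : Option F} {x : Fin 12 → F} (h : G.Ok1 i x)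
    (e : Fin 2) (k : Fin 11) : G.z i e x k ∉ R := by
  intro h0
  have := plain_only (G.Ok1_plain h (kp e k)) h0 (G.z_on i e x k)
  apply G.sl_fst_ne P i e k
  rw [← G.z_fst i e x k, this, P.mn_part i]

/-- a line through the main point which is plain is not an M-line, so the labels are off the M-lines -/
theorem Sel.z_off {G : Sel R mn cd} (P : PsR c D R mn cd) {i : Option F} {x : Fin 12 → F} (h : G.Ok1 i x)
    (e e' : Fin 2) (k : Fin 11) : ¬ on (G.z i e x k) (G.M i e') := by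
  intro h0
  have h1 : thr (mn i) (x (kp e k)) = G.M i e' := by
    refine line_unique (on_thr (mn i) _) (G.z_on i e x k) (G.mn_on P i e') h0 ?_
    intro h2
    apply G.sl_fst_ne P i e k
    rw [← G.z_fst i e x k, ← h2, P.mn_part i]
  have h2 := G.Ok1_plain h (kp e k)
  rw [h1, mem_plain] at h2
  have h3 := P.cd_card i _ (G.M_cd i e')
  rw [h2] at h3
  simp at h3

/-! ### owners -/

theorem Sel.own_mn (G : Sel R mn cd) (P : PsR c D R mn cd) (i : Option F) : G.own (mn i) = Sum.inl i := by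
  unfold Sel.own
  rw [if_pos (by rw [P.mn_part i]), P.mn_part i]

theorem Sel.spx_mn (G : Sel R mn cd) (P : PsR c D R mn cd) (i : Option F) (x : Fin 12 → F) :
    G.spx (mn i) x = spM (mn i) x := by
  unfold Sel.spx
  rw [if_pos (by rw [P.mn_part i])]

theorem Sel.isSlot (G : Sel R mn cd) (i : Option F) (e : Fin 2) (k : Fin 11) : G.IsSlot (G.sl i e k) :=
  ⟨(i, e, k), rfl⟩

theorem Sel.own_sl (G : Sel R mn cd) (i : Option F) (e : Fin 2) (k : Fin 11) :
    G.own (G.sl i e k) = Sum.inl i := by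
  unfold Sel.own
  rw [if_neg (G.sl_main i e k), dif_pos (G.isSlot i e k)]
  have h := (G.isSlot i e k).choose_spec
  rw [(G.sl_inj3 h).1]

theorem Sel.spx_sl (G : Sel R mn cd) (i : Option F) (e : Fin 2) (k : Fin 11) (x : Fin 12 → F) :
    G.spx (G.sl i e k) x = G.spS i e k x := by
  unfold Sel.spx
  rw [if_neg (G.sl_main i e k), dif_pos (G.isSlot i e k)]
  have h := (G.isSlot i e k).choose_spec
  obtain ⟨h1, h2, h3⟩ := G.sl_inj3 h
  rw [h1, h2, h3]

theorem Sel.own_idle (G : Sel R mn cd) {t : Pt F} (h1 : t ≠ mn t.1) (h2 : ¬ G.IsSlot t) :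
    G.own t = Sum.inr t := by
  unfold Sel.own
  rw [if_neg h1, dif_neg h2]

theorem Sel.spx_idle (G : Sel R mn cd) {t : Pt F} (h1 : t ≠ mn t.1) (h2 : ¬ G.IsSlot t) (x : Fin 12 → F) :
    G.spx t x = spM t x := by
  unfold Sel.spx
  rw [if_neg h1, dif_neg h2]

/-- case distinction for sparse points -/
theorem Sel.cases (G : Sel R mn cd) (t : Pt F) :
    (∃ i, t = mn i) ∨ (∃ i e k, t = G.sl i e k) ∨ (t ≠ mn t.1 ∧ ¬ G.IsSlot t) := by
  by_cases h1 : t = mn t.1
  · exact Or.inl ⟨_, h1⟩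
  · by_cases h2 : G.IsSlot t
    · obtain ⟨p, hp⟩ := h2
      exact Or.inr (Or.inl ⟨p.1, p.2.1, p.2.2, hp.symm⟩)
    · exact Or.inr (Or.inr ⟨h1, h2⟩)

theorem mem_spM {t : Pt F} {x : Fin 12 → F} {l : Ln F} : l ∈ spM t x ↔ ∃ j : Fin 10, thr t (x (jj j)) = l := by
  simp [spM]

theorem Sel.mem_spS {G : Sel R mn cd} {i : Option F} {e : Fin 2} {k : Fin 11} {x : Fin 12 → F} {l : Ln F} :
    l ∈ G.spS i e k x ↔ ∃ j : Fin 11, j ≠ k ∧ lin (G.sl i e k) (G.z i e x j) = l := by
  simp [Sel.spS]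

/-- the slot of number `k` is on the line to the label number `j ≠ k` -/
theorem Sel.sl_on_lin (G : Sel R mn cd) (i : Option F) (e : Fin 2) (x : Fin 12 → F) {k j : Fin 11} (h : j ≠ k) :
    on (G.sl i e k) (lin (G.sl i e k) (G.z i e x j)) :=
  on_lin_left (by rw [G.z_fst]; exact G.sl_fst_inj i e h.symm)

theorem Sel.z_on_lin (G : Sel R mn cd) (i : Option F) (e : Fin 2) (x : Fin 12 → F) {k j : Fin 11} (h : j ≠ k) :
    on (G.z i e x j) (lin (G.sl i e k) (G.z i e x j)) :=
  on_lin_right (by rw [G.z_fst]; exact G.sl_fst_inj i e h.symm)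

/-- all lines of `spx t x` pass through `t` -/
theorem Sel.spx_on (G : Sel R mn cd) (t : Pt F) (x : Fin 12 → F) {l : Ln F}
    (h : l ∈ G.spx t x) : on t l := by
  by_cases h1 : t = mn t.1
  · unfold Sel.spx at h
    rw [if_pos h1] at h
    obtain ⟨j, rfl⟩ := mem_spM.mp h
    exact on_thr _ _
  · by_cases h2 : G.IsSlot t
    · obtain ⟨p, hp⟩ := h2
      rw [← hp, G.spx_sl] at h
      rw [← hp]
      obtain ⟨j, hj, rfl⟩ := G.mem_spS.mp h
      exact G.sl_on_lin _ _ _ hj
    · rw [G.spx_idle h1 h2] at h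
      obtain ⟨j, rfl⟩ := mem_spM.mp h
      exact on_thr _ _

end

end Crest.Agent.RY
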