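/-
  RY_NO : owners of the sparse points on a line or in a part (task RY-N10)
-/
import Crest.Agent.RY_NS

set_option autoImplicit false

namespace Crest.Agent.RY
open Finset Classical

section
variable {F : Type} [Field F] [Fintype F] [DecidableEq F]
variable {R : Finset (Pt F)} {mn : Option F → Pt F} {cd : Option F → Finset (Ln F)} {c : ℝ} {D : ℕ}

/-- In a part different sparse points have different owners.
PROOF: `G.cases` for both points.  `mn i'` is in part `i'` (`mn_part`).  Main-main: both are `mn i`.  Main-slot: `t = mn i`,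
`own = inl i`, `t' = sl i' e k` with `own = inl i'`, so `i' = i`, but `(sl i e k).1 ≠ i`.  Slot-slot: same gadget, same part: `sl_fst_inj2`.
Idle: `own = inr t`. -/
theorem Sel.own_inj_part (P : PsR c D R mn cd) (G : Sel R mn cd) (i : Option F) :
    Set.InjOn G.own {t : Pt F | t.1 = i} := by
  intro t ht t' ht' h
  simp only [Set.mem_setOf_eq] at ht ht'
  rcases G.cases t with ⟨a, rfl⟩ | ⟨a, e, k, rfl⟩ | ⟨h1, h2⟩
  · rw [G.own_mn P] at h
    rw [P.mn_part] at ht
    rcases G.cases t' with ⟨a', rfl⟩ | ⟨a', e', k', rfl⟩ | ⟨h1', h2'⟩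
    · rw [G.own_mn P] at h
      rw [Sum.inl.inj h]
    · rw [G.own_sl] at h
      have h3 := Sum.inl.inj h
      exact absurd (ht'.trans (ht.symm.trans h3)) (G.sl_fst_ne P a' e' k')
    · rw [G.own_idle h1' h2'] at h
      exact absurd h (by simp)
  · rw [G.own_sl] at h
    rcases G.cases t' with ⟨a', rfl⟩ | ⟨a', e', k', rfl⟩ | ⟨h1', h2'⟩
    · rw [G.own_mn P] at h
      have h3 := Sum.inl.inj h
      rw [P.mn_part] at ht'
      exact absurd (ht.trans (ht'.symm.trans h3.symm)) (G.sl_fst_ne P a e k)
    · rw [G.own_sl] at h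
      have h3 := Sum.inl.inj h
      subst h3
      obtain ⟨h4, h5⟩ := G.sl_fst_inj2 a (ht.trans ht'.symm)
      rw [h4, h5]
    · rw [G.own_idle h1' h2'] at h
      exact absurd h (by simp)
  · rw [G.own_idle h1 h2] at h
    rcases G.cases t' with ⟨a', rfl⟩ | ⟨a', e', k', rfl⟩ | ⟨h1', h2'⟩
    · rw [G.own_mn P] at h
      exact absurd h (by simp)
    · rw [G.own_sl] at h
      exact absurd h (by simp)
    · rw [G.own_idle h1' h2'] at h
      exact Sum.inr.inj h

/-- PROOF: `t.1 = i` and `G.own t = inl i` imply `t = mn i`, by `own_inj_part` and `own_mn`. -/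
theorem Sel.own_ne (P : PsR c D R mn cd) (G : Sel R mn cd) {i : Option F} {t : Pt F} (ht : t.1 = i)
    (hne : t ≠ mn i) : G.own t ≠ Sum.inl i := by
  intro h
  exact hne (G.own_inj_part P i ht (P.mn_part i) (h.trans (G.own_mn P i).symm))

/-- On a line which is not an M-line at most two sparse points have the same owner.
PROOF: let the owner be `inl i` (an idle owner `inr t` only owns `t`).  The points owned by `inl i` are `mn i` and the slots
`sl i e k`.  If `mn i` is on `l` then no slot `sl i e k` is on `l` (otherwise `l = M i e` by `line_unique`), so only one point.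
Otherwise at most one slot for each `e` (two slots of `M i e` on `l` give `l = M i e`).  So the fiber has at most 2 elements:
e.g. map a point of the fiber to `e : Fin 2` (and `mn i` to `0`), injective on the fiber. -/
theorem Sel.own_fiber (P : PsR c D R mn cd) (G : Sel R mn cd) (l : Ln F) (hl : ∀ i e, l ≠ G.M i e) (o : Ow F) :
    ((onL R l).filter (fun t => G.own t = o)).card ≤ 2 := by
  cases o with
  | inr s =>
    have hsub : (onL R l).filter (fun t => G.own t = Sum.inr s) ⊆ {s} := by
      intro t ht
      have h := (mem_filter.mp ht).2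
      rw [mem_singleton]
      rcases G.cases t with ⟨a, rfl⟩ | ⟨a, e, k, rfl⟩ | ⟨h1, h2⟩
      · rw [G.own_mn P] at h
        exact absurd h (by simp)
      · rw [G.own_sl] at h
        exact absurd h (by simp)
      · rw [G.own_idle h1 h2] at h
        exact Sum.inr.inj h
    exact (card_le_card hsub).trans (by simp)
  | inl i =>
    have hcase : ∀ t, G.own t = Sum.inl i → t = mn i ∨ ∃ e k, t = G.sl i e k := by
      intro t h
      rcases G.cases t with ⟨a, rfl⟩ | ⟨a, e, k, rfl⟩ | ⟨h1, h2⟩
      · rw [G.own_mn P] at h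
        rw [Sum.inl.inj h]
        exact Or.inl rfl
      · rw [G.own_sl] at h
        rw [Sum.inl.inj h]
        exact Or.inr ⟨e, k, rfl⟩
      · rw [G.own_idle h1 h2] at h
        exact absurd h (by simp)
    by_cases hm : on (mn i) l
    · have hsub : (onL R l).filter (fun t => G.own t = Sum.inl i) ⊆ {mn i} := by
        intro t ht
        obtain ⟨h0, h⟩ := mem_filter.mp ht
        rw [mem_singleton]
        rcases hcase t h with h1 | ⟨e, k, rfl⟩
        · exact h1
        · exact absurd (line_unique hm (mem_onL.mp h0).2 (G.mn_on P i e) (G.sl_on i e k)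
            (G.sl_ne i e k).symm) (hl i e)
      exact (card_le_card hsub).trans (by simp)
    · let f : Pt F → Fin 2 := fun t => if h : ∃ e k, t = G.sl i e k then h.choose else 0
      have hf : ∀ t ∈ (onL R l).filter (fun t => G.own t = Sum.inl i),
          ∃ k, t = G.sl i (f t) k ∧ on t l := by
        intro t ht
        obtain ⟨h0, h⟩ := mem_filter.mp ht
        have h2 := (mem_onL.mp h0).2
        rcases hcase t h with h1 | h1
        · rw [h1] at h2
          exact absurd h2 hm
        · have h3 : f t = h1.choose := dif_pos h1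
          rw [h3]
          obtain ⟨k, hk⟩ := h1.choose_spec
          exact ⟨k, hk, h2⟩
      have hinj : Set.InjOn f ((onL R l).filter (fun t => G.own t = Sum.inl i) : Set (Pt F)) := by
        intro t ht t' ht' h
        obtain ⟨k, hk, h1⟩ := hf t (by exact_mod_cast ht)
        obtain ⟨k', hk', h1'⟩ := hf t' (by exact_mod_cast ht')
        by_contra hne
        have h2 : on t (G.M i (f t)) := by
          have := G.sl_on i (f t) k
          rwa [← hk] at this
        have h2' : on t' (G.M i (f t)) := by
          have := G.sl_on i (f t') k'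
          rwa [← hk', ← h] at this
        exact hl i (f t) (line_unique h1 h1' h2 h2' hne)
      calc ((onL R l).filter (fun t => G.own t = Sum.inl i)).card
          ≤ (univ : Finset (Fin 2)).card :=
            card_le_card_of_injOn f (fun _ _ => mem_coe.mpr (mem_univ _)) (by exact_mod_cast hinj)
        _ = 2 := by simp

/-- PROOF: `T.image G.own` has at least `11/2`, so at least 6 elements (`Finset.card_le_mul_card_image`, fibers of size
at most 2 by `own_fiber`); choose 6 of them and a preimage in `T` for each (`Finset.exists_subset_card_eq`, choice). -/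
theorem Sel.exists_six (P : PsR c D R mn cd) (G : Sel R mn cd) (l : Ln F) (hl : ∀ i e, l ≠ G.M i e)
    (T : Finset (Pt F)) (hT : T ⊆ onL R l) (h11 : 11 ≤ T.card) :
    ∃ T' ⊆ T, T'.card = 6 ∧ Set.InjOn G.own (T' : Set (Pt F)) := by
  have h1 : T.card ≤ 2 * (T.image G.own).card := by
    apply card_le_mul_card_image
    intro o _
    refine le_trans (card_le_card ?_) (G.own_fiber P l hl o)
    intro t ht
    obtain ⟨h2, h3⟩ := mem_filter.mp ht
    exact mem_filter.mpr ⟨hT h2, h3⟩
  obtain ⟨I, hI, hI6⟩ := exists_subset_card_eq (show 6 ≤ (T.image G.own).card by omega)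
  have hch : ∀ o : Ow F, ∃ t : Pt F, o ∈ I → t ∈ T ∧ G.own t = o := by
    intro o
    by_cases ho : o ∈ I
    · obtain ⟨t, ht, ht'⟩ := mem_image.mp (hI ho)
      exact ⟨t, fun _ => ⟨ht, ht'⟩⟩
    · exact ⟨(none, 0), fun h => absurd h ho⟩
  choose g hg using hch
  have hginj : Set.InjOn g (I : Set (Ow F)) := by
    intro o ho o' ho' h
    rw [← (hg o (mem_coe.mp ho)).2, ← (hg o' (mem_coe.mp ho')).2, h]
  refine ⟨I.image g, ?_, ?_, ?_⟩
  · intro t ht
    obtain ⟨o, ho, rfl⟩ := mem_image.mp ht
    exact (hg o ho).1
  · rw [card_image_of_injOn hginj, hI6]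
  · intro t ht t' ht' h
    obtain ⟨o, ho, rfl⟩ := mem_image.mp (mem_coe.mp ht)
    obtain ⟨o', ho', rfl⟩ := mem_image.mp (mem_coe.mp ht')
    rw [(hg o ho).2, (hg o' ho').2] at h
    rw [h]

end

end Crest.Agent.RY
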