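/-
  RY_NC0 : counting lemmas in the choice space `Fin 12 → F` (task RY-N4)
-/
import Mathlib

set_option autoImplicit false

namespace Crest.Agent.RY
open Finset Classical

/-- If on `S` the coordinate `a` is determined by the other coordinates then `|S| ≤ q^11`.
PROOF: `x ↦ (fun b : {b // b ≠ a} => x b)` is injective on `S`; `Fintype.card {b // b ≠ a} = 11`. -/
theorem card_le_of_det {F : Type} [Fintype F] [DecidableEq F] (a : Fin 12) (S : Finset (Fin 12 → F))
    (h : ∀ x ∈ S, ∀ y ∈ S, (∀ b, b ≠ a → x b = y b) → x a = y a) :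
    S.card ≤ Fintype.card F ^ 11 := by
  have key : S.card ≤ (Finset.univ : Finset ({b : Fin 12 // b ≠ a} → F)).card := by
    apply Finset.card_le_card_of_injOn (fun x => fun b : {b : Fin 12 // b ≠ a} => x b.1)
    · intro x _; exact Finset.mem_coe.2 (Finset.mem_univ _)
    · intro x hx y hy hxy
      have hb : ∀ b, b ≠ a → x b = y b := fun b hb => congrFun hxy ⟨b, hb⟩
      funext b
      by_cases hba : b = a
      · subst hba; exact h x hx y hy hb
      · exact hb b hba
  have hc : (Finset.univ : Finset ({b : Fin 12 // b ≠ a} → F)).card = Fintype.card F ^ 11 := by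
    rw [Finset.card_univ, Fintype.card_fun]
    congr 1
    rw [Fintype.card_subtype_compl, Fintype.card_subtype_eq, Fintype.card_fin]
  rw [← hc]; exact key

/-- Three prescribed coordinates. PROOF: `S` injects into functions on the other 9 coordinates. -/
theorem card_le_of_three {F : Type} [Fintype F] [DecidableEq F] (a b c : Fin 12) (hab : a ≠ b) (hac : a ≠ c)
    (hbc : b ≠ c) (S : Finset (Fin 12 → F))
    (h : ∀ x ∈ S, ∀ y ∈ S, x a = y a ∧ x b = y b ∧ x c = y c) :
    S.card ≤ Fintype.card F ^ 9 := by
  have key : S.card ≤ (Finset.univ : Finset ({d : Fin 12 // d ∉ ({a, b, c} : Finset (Fin 12))} → F)).card := by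
    apply Finset.card_le_card_of_injOn
      (fun x => fun d : {d : Fin 12 // d ∉ ({a, b, c} : Finset (Fin 12))} => x d.1)
    · intro x _; exact Finset.mem_coe.2 (Finset.mem_univ _)
    · intro x hx y hy hxy
      obtain ⟨h1, h2, h3⟩ := h x hx y hy
      funext d
      by_cases hd : d ∈ ({a, b, c} : Finset (Fin 12))
      · simp only [Finset.mem_insert, Finset.mem_singleton] at hd
        rcases hd with rfl | rfl | rfl
        · exact h1
        · exact h2
        · exact h3
      · exact congrFun hxy ⟨d, hd⟩
  have hc : (Finset.univ : Finset ({d : Fin 12 // d ∉ ({a, b, c} : Finset (Fin 12))} → F)).card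
      = Fintype.card F ^ 9 := by
    rw [Finset.card_univ, Fintype.card_fun]
    congr 1
    rw [Fintype.card_subtype_compl, Fintype.card_fin]
    have : Fintype.card {x // x ∈ ({a, b, c} : Finset (Fin 12))} = 3 := by
      rw [Fintype.card_coe]
      exact Finset.card_eq_three.2 ⟨a, b, c, hab, hac, hbc, rfl⟩
    omega
  rw [← hc]; exact key

/-- Product sets. PROOF: the filter is `Fintype.piFinset B`. -/
theorem card_pi_ge {F : Type} [Fintype F] [DecidableEq F] (B : Fin 12 → Finset F) (t : ℝ) (ht : 0 ≤ t)
    (hB : ∀ a, t ≤ ((B a).card : ℝ)) :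
    t ^ 12 ≤ ((univ.filter (fun x : Fin 12 → F => ∀ a, x a ∈ B a)).card : ℝ) := by
  have h1 : (univ.filter (fun x : Fin 12 → F => ∀ a, x a ∈ B a)) = Fintype.piFinset B := by
    ext x; simp [Fintype.mem_piFinset]
  rw [h1, Fintype.card_piFinset, Nat.cast_prod]
  calc t ^ 12 = ∏ _a : Fin 12, t := by rw [Finset.prod_const, Finset.card_univ, Fintype.card_fin]
    _ ≤ ∏ a : Fin 12, ((B a).card : ℝ) := Finset.prod_le_prod (fun _ _ => ht) (fun a _ => hB a)

/-- Non-injective tuples. PROOF: union over the (at most 144) pairs `a ≠ b` of `{x | x a = x b}` and `card_le_of_det`. -/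
theorem card_not_inj {F : Type} [Fintype F] [DecidableEq F] :
    (univ.filter (fun x : Fin 12 → F => ¬ Function.Injective x)).card ≤ 144 * Fintype.card F ^ 11 := by
  set P : Finset (Fin 12 × Fin 12) := univ.filter (fun p => p.1 ≠ p.2) with hP
  have hsub : (univ.filter (fun x : Fin 12 → F => ¬ Function.Injective x)) ⊆
      P.biUnion (fun p => univ.filter (fun x : Fin 12 → F => x p.1 = x p.2)) := by
    intro x hx
    rw [Finset.mem_filter] at hx
    have h2 := hx.2
    rw [Function.Injective] at h2
    push Not at h2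
    obtain ⟨a, b, hab, hne⟩ := h2
    rw [Finset.mem_biUnion]
    exact ⟨(a, b), by rw [hP, Finset.mem_filter]; exact ⟨Finset.mem_univ _, hne⟩,
      by rw [Finset.mem_filter]; exact ⟨Finset.mem_univ _, hab⟩⟩
  calc (univ.filter (fun x : Fin 12 → F => ¬ Function.Injective x)).card
      ≤ (P.biUnion (fun p => univ.filter (fun x : Fin 12 → F => x p.1 = x p.2))).card :=
        Finset.card_le_card hsub
    _ ≤ ∑ p ∈ P, (univ.filter (fun x : Fin 12 → F => x p.1 = x p.2)).card := Finset.card_biUnion_le
    _ ≤ ∑ p ∈ P, Fintype.card F ^ 11 := by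
        apply Finset.sum_le_sum
        intro p hp
        rw [hP, Finset.mem_filter] at hp
        apply card_le_of_det p.1
        intro x hx y hy hxy
        rw [Finset.mem_filter] at hx hy
        rw [hx.2, hy.2]
        exact hxy p.2 (Ne.symm hp.2)
    _ = P.card * Fintype.card F ^ 11 := by rw [Finset.sum_const, smul_eq_mul]
    _ ≤ 144 * Fintype.card F ^ 11 := by
        apply Nat.mul_le_mul_right
        calc P.card ≤ (Finset.univ : Finset (Fin 12 × Fin 12)).card := Finset.card_filter_le _ _
          _ = 144 := by rw [Finset.card_univ, Fintype.card_prod, Fintype.card_fin]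

end Crest.Agent.RY
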