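/-
  RY_NC3 : few choices violate Ok3 (task RY-N5)
-/
import Crest.Agent.RY_NS
import Crest.Agent.RY_NC0

set_option autoImplicit false

namespace Crest.Agent.RY
open Finset Classical

section
variable {F : Type} [Field F] [Fintype F] [DecidableEq F]
variable {R : Finset (Pt F)} {mn : Option F → Pt F} {cd : Option F → Finset (Ln F)} {c : ℝ} {D : ℕ}

private theorem NC3_one (P : PsR c D R mn cd) (G : Sel R mn cd) (i : Option F) (e : Fin 2) (k j j' : Fin 11)
    (hj : j ≠ k) (hj' : j' ≠ k) (hjj : j ≠ j') :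
    (univ.filter (fun x : Fin 12 → F =>
      lin (G.sl i e k) (G.z i e x j) = lin (G.sl i e k) (G.z i e x j'))).card ≤ Fintype.card F ^ 11 := by
  apply card_le_of_det (kp e j')
  intro x hx y hy hxy
  rw [mem_filter] at hx hy
  have hx := hx.2
  have hy := hy.2
  have h1 : x (kp e j) = y (kp e j) := hxy _ (fun h => hjj (kp_inj e h))
  have h2 : G.z i e x j = G.z i e y j := by
    unfold Sel.z
    rw [h1]
  apply G.z_inj P
  have h3 : lin (G.sl i e k) (G.z i e x j') = lin (G.sl i e k) (G.z i e y j') := by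
    rw [← hx, ← hy, h2]
  have h4 := eq_ptl (G.z_on_lin i e x hj')
  have h5 := eq_ptl (G.z_on_lin i e y hj')
  rw [h4, h5, h3]
  rfl

/-- PROOF: the set is contained in the union over `(e,k,j,j')` (`2 * 11^3 = 2662` tuples) with `j ≠ k`, `j' ≠ k`, `j ≠ j'` of
`{x | lin s_k z_j = lin s_k z_j'}`, which has at most `q^11` elements by `card_le_of_det` with `a = kp e j'`: if `x`, `y`
agree off `a` then `z_j` is the same for both (`kp_inj`), so the line `l = lin s_k z_j` is the same, `z_j'` is on it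
(`Sel.z_on_lin`), hence `z_j' = ptl l (sl i e j').1` (`eq_ptl`) is the same for both and `Sel.z_inj` gives `x a = y a`. -/
theorem card_not_Ok3 (P : PsR c D R mn cd) (G : Sel R mn cd) (i : Option F) :
    (univ.filter (fun x : Fin 12 → F => ¬ G.Ok3 i x)).card ≤ 2662 * Fintype.card F ^ 11 := by
  let S : Fin 2 × Fin 11 × Fin 11 × Fin 11 → Finset (Fin 12 → F) := fun τ =>
    if τ.2.2.1 ≠ τ.2.1 ∧ τ.2.2.2 ≠ τ.2.1 ∧ τ.2.2.1 ≠ τ.2.2.2 then
      univ.filter (fun x : Fin 12 → F =>
        lin (G.sl i τ.1 τ.2.1) (G.z i τ.1 x τ.2.2.1) = lin (G.sl i τ.1 τ.2.1) (G.z i τ.1 x τ.2.2.2)) else ∅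
  have hS : ∀ τ, (S τ).card ≤ Fintype.card F ^ 11 := by
    intro τ
    simp only [S]
    split_ifs with h
    · exact NC3_one P G i _ _ _ _ h.1 h.2.1 h.2.2
    · simp
  have hsub : (univ.filter (fun x : Fin 12 → F => ¬ G.Ok3 i x)) ⊆ (univ : Finset (Fin 2 × Fin 11 × Fin 11 × Fin 11)).biUnion S := by
    intro x hx
    rw [mem_filter] at hx
    have hx := hx.2
    unfold Sel.Ok3 at hx
    push Not at hx
    obtain ⟨e, k, j, j', h1, h2, h3, h4⟩ := hx
    rw [mem_biUnion]
    refine ⟨(e, k, j, j'), mem_univ _, ?_⟩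
    simp only [S]
    rw [if_pos ⟨h1, h2, h3⟩, mem_filter]
    exact ⟨mem_univ _, h4⟩
  refine (card_le_card hsub).trans (card_biUnion_le.trans ?_)
  refine (Finset.sum_le_sum (fun τ _ => hS τ)).trans ?_
  rw [Finset.sum_const, Finset.card_univ, smul_eq_mul]
  simp [Fintype.card_prod, Fintype.card_fin]

end

end Crest.Agent.RY
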