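/-
  RY_NC4 : few choices violate Ok4 (task RY-N6)
-/
import Crest.Agent.RY_NS
import Crest.Agent.RY_NC0

set_option autoImplicit false

namespace Crest.Agent.RY
open Finset Classical

section
variable {F : Type} [Field F] [Fintype F] [DecidableEq F]
variable {R : Finset (Pt F)} {mn : Option F → Pt F} {cd : Option F → Finset (Ln F)} {c : ℝ} {D : ℕ}

/-- Three different slots which see the same point `v` (off `M i e`, not a label) see it through three different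
labels.  PROOF: suppose `v ∈ lin s_k z_j` and `v ∈ lin s_k' z_j` with `k ≠ k'`.  These two lines are different (otherwise
the line contains `s_k`, `s_k'`, so it is `M i e` and `v` is on it), and both contain `v` and `z_j`, so
`v = z_j` by `point_unique`: contradiction. -/
theorem Sel.see_inj (P : PsR c D R mn cd) (G : Sel R mn cd) (i : Option F) (e : Fin 2) (x : Fin 12 → F)
    (v : Pt F) (hv : ¬ on v (G.M i e)) (hz : ∀ j, v ≠ G.z i e x j) {k k' j : Fin 11} (hk : k ≠ k') (hj : j ≠ k)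
    (hj' : j ≠ k') (h : on v (lin (G.sl i e k) (G.z i e x j))) :
    ¬ on v (lin (G.sl i e k') (G.z i e x j)) := by
  intro h'
  have hll : lin (G.sl i e k) (G.z i e x j) = lin (G.sl i e k') (G.z i e x j) :=
    line_unique h (G.z_on_lin i e x hj) h' (G.z_on_lin i e x hj') (hz j)
  have h1 : on (G.sl i e k) (lin (G.sl i e k) (G.z i e x j)) := G.sl_on_lin i e x hj
  have h2 : on (G.sl i e k') (lin (G.sl i e k) (G.z i e x j)) := by
    rw [hll]; exact G.sl_on_lin i e x hj'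
  have h3 : lin (G.sl i e k) (G.z i e x j) = G.M i e :=
    line_unique h1 h2 (G.sl_on i e k) (G.sl_on i e k') (fun h0 => hk (G.sl_inj i e h0))
  rw [h3] at h
  exact hv h

/-- For given `v` (off `M i e`), `k`, `j ≠ k` the coordinate `kp e j` is determined by `v ∈ lin s_k z_j`.
PROOF: `v ≠ s_k` (as `s_k` is on `M i e`); the line `lin s_k z_j` contains `s_k` (`Sel.sl_on_lin`) and `v`, so it is the same
line `l` for `x` and `y` (`line_unique`); `z_j` is on `l`, so `z_j = ptl l (sl i e j).1` for both; `Sel.z_inj`. -/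
theorem Sel.see_det (P : PsR c D R mn cd) (G : Sel R mn cd) (i : Option F) (e : Fin 2) (x y : Fin 12 → F)
    (v : Pt F) (hv : ¬ on v (G.M i e)) {k j : Fin 11} (hj : j ≠ k)
    (h : on v (lin (G.sl i e k) (G.z i e x j))) (h' : on v (lin (G.sl i e k) (G.z i e y j))) :
    x (kp e j) = y (kp e j) := by
  have hne : v ≠ G.sl i e k := by
    intro h0
    apply hv
    rw [h0]
    exact G.sl_on i e k
  have hll : lin (G.sl i e k) (G.z i e x j) = lin (G.sl i e k) (G.z i e y j) :=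
    line_unique h (G.sl_on_lin i e x hj) h' (G.sl_on_lin i e y hj) hne
  have h1 := eq_ptl (G.z_on_lin i e x hj)
  have h2 := eq_ptl (G.z_on_lin i e y hj)
  rw [G.z_fst] at h1 h2
  apply G.z_inj P
  rw [h1, h2, hll]

/-- the choices with the given witness -/
private noncomputable def nc4S (G : Sel R mn cd) (i : Option F)
    (t : Fin 2 × Pt F × (Fin 11 × Fin 11 × Fin 11) × (Fin 11 × Fin 11 × Fin 11)) : Finset (Fin 12 → F) :=
  univ.filter (fun x => ¬ on t.2.1 (G.M i t.1) ∧ (∀ j, t.2.1 ≠ G.z i t.1 x j) ∧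
    (t.2.2.1.1 ≠ t.2.2.1.2.1 ∧ t.2.2.1.1 ≠ t.2.2.1.2.2 ∧ t.2.2.1.2.1 ≠ t.2.2.1.2.2) ∧
    (t.2.2.2.1 ≠ t.2.2.1.1 ∧ on t.2.1 (lin (G.sl i t.1 t.2.2.1.1) (G.z i t.1 x t.2.2.2.1))) ∧
    (t.2.2.2.2.1 ≠ t.2.2.1.2.1 ∧ on t.2.1 (lin (G.sl i t.1 t.2.2.1.2.1) (G.z i t.1 x t.2.2.2.2.1))) ∧
    (t.2.2.2.2.2 ≠ t.2.2.1.2.2 ∧ on t.2.1 (lin (G.sl i t.1 t.2.2.1.2.2) (G.z i t.1 x t.2.2.2.2.2))))

private theorem nc4S_card (P : PsR c D R mn cd) (G : Sel R mn cd) (i : Option F)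
    (t : Fin 2 × Pt F × (Fin 11 × Fin 11 × Fin 11) × (Fin 11 × Fin 11 × Fin 11)) :
    (nc4S G i t).card ≤ Fintype.card F ^ 9 := by
  obtain ⟨e, v, ⟨k1, k2, k3⟩, ⟨j1, j2, j3⟩⟩ := t
  rcases (nc4S G i (e, v, (k1, k2, k3), (j1, j2, j3))).eq_empty_or_nonempty with h0 | ⟨x0, hx0⟩
  · rw [h0]; simp
  · simp only [nc4S, mem_filter, mem_univ, true_and] at hx0
    obtain ⟨hv, hz, ⟨hk12, hk13, hk23⟩, ⟨hj1, ho1⟩, ⟨hj2, ho2⟩, ⟨hj3, ho3⟩⟩ := hx0
    have hj12 : j1 ≠ j2 := by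
      rintro rfl
      exact G.see_inj P i e x0 v hv hz hk12 hj1 hj2 ho1 ho2
    have hj13 : j1 ≠ j3 := by
      rintro rfl
      exact G.see_inj P i e x0 v hv hz hk13 hj1 hj3 ho1 ho3
    have hj23 : j2 ≠ j3 := by
      rintro rfl
      exact G.see_inj P i e x0 v hv hz hk23 hj2 hj3 ho2 ho3
    refine card_le_of_three (kp e j1) (kp e j2) (kp e j3) (fun h => hj12 (kp_inj e h))
      (fun h => hj13 (kp_inj e h)) (fun h => hj23 (kp_inj e h)) _ ?_
    intro x hx y hy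
    simp only [nc4S, mem_filter, mem_univ, true_and] at hx hy
    obtain ⟨_, _, _, ⟨_, hx1⟩, ⟨_, hx2⟩, ⟨_, hx3⟩⟩ := hx
    obtain ⟨_, _, _, ⟨_, hy1⟩, ⟨_, hy2⟩, ⟨_, hy3⟩⟩ := hy
    exact ⟨G.see_det P i e x y v hv hj1 hx1 hy1, G.see_det P i e x y v hv hj2 hx2 hy2,
      G.see_det P i e x y v hv hj3 hx3 hy3⟩

/-- PROOF: if `Ok4` fails then there are `e`, `v` (off `M i e`, not a label) and at least 6, so at least 3, different
`k1,k2,k3` and `j1 ≠ k1`, `j2 ≠ k2`, `j3 ≠ k3` with `v ∈ lin s_km z_jm`; by `see_inj` the `j`s are pairwise different, and by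
`see_det` the three coordinates `kp e j1`, `kp e j2`, `kp e j3` (different by `kp_inj`) are determined by
`(e,v,k1,k2,k3,j1,j2,j3)`.  So the set is contained in a union of `2 * (q+1) q * 11^6 ≤ 4 * 11^6 * q^2` sets of at most
`q^9` elements (`card_le_of_three`); `4 * 11^6 ≤ 8000000`. -/
theorem card_not_Ok4 (P : PsR c D R mn cd) (G : Sel R mn cd) (i : Option F) :
    (univ.filter (fun x : Fin 12 → F => ¬ G.Ok4 i x)).card ≤ 8000000 * Fintype.card F ^ 11 := by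
  have hsub : univ.filter (fun x : Fin 12 → F => ¬ G.Ok4 i x) ⊆
      (univ : Finset (Fin 2 × Pt F × (Fin 11 × Fin 11 × Fin 11) × (Fin 11 × Fin 11 × Fin 11))).biUnion
        (nc4S G i) := by
    intro x hx
    simp only [mem_filter, mem_univ, true_and, Sel.Ok4] at hx
    push Not at hx
    obtain ⟨e, v, hv, hz, hcard⟩ := hx
    obtain ⟨k1, k2, k3, hk1, hk2, hk3, h12, h13, h23⟩ := Finset.two_lt_card_iff.1 (lt_trans (by norm_num) hcard)
    simp only [mem_filter, mem_univ, true_and] at hk1 hk2 hk3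
    obtain ⟨l1, hl1, ho1⟩ := hk1
    obtain ⟨l2, hl2, ho2⟩ := hk2
    obtain ⟨l3, hl3, ho3⟩ := hk3
    obtain ⟨j1, hj1, rfl⟩ := G.mem_spS.mp hl1
    obtain ⟨j2, hj2, rfl⟩ := G.mem_spS.mp hl2
    obtain ⟨j3, hj3, rfl⟩ := G.mem_spS.mp hl3
    rw [mem_biUnion]
    refine ⟨(e, v, (k1, k2, k3), (j1, j2, j3)), mem_univ _, ?_⟩
    simp only [nc4S, mem_filter, mem_univ, true_and]
    exact ⟨hv, hz, ⟨h12, h13, h23⟩, ⟨hj1, ho1⟩, ⟨hj2, ho2⟩, ⟨hj3, ho3⟩⟩
  have hq : 1 ≤ Fintype.card F := Fintype.card_pos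
  calc (univ.filter (fun x : Fin 12 → F => ¬ G.Ok4 i x)).card
      ≤ _ := card_le_card hsub
    _ ≤ ∑ t : Fin 2 × Pt F × (Fin 11 × Fin 11 × Fin 11) × (Fin 11 × Fin 11 × Fin 11),
        (nc4S G i t).card := card_biUnion_le
    _ ≤ ∑ t : Fin 2 × Pt F × (Fin 11 × Fin 11 × Fin 11) × (Fin 11 × Fin 11 × Fin 11),
        Fintype.card F ^ 9 := sum_le_sum (fun t _ => nc4S_card P G i t)
    _ = (2 * (((Fintype.card F + 1) * Fintype.card F) * 1771561)) * Fintype.card F ^ 9 := by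
        rw [sum_const, smul_eq_mul, card_univ]
        simp only [Fintype.card_prod, Fintype.card_option, Fintype.card_fin]
    _ ≤ (2 * (((Fintype.card F + Fintype.card F) * Fintype.card F) * 1771561)) * Fintype.card F ^ 9 := by
        gcongr
    _ = 7086244 * Fintype.card F ^ 11 := by ring
    _ ≤ 8000000 * Fintype.card F ^ 11 := by gcongr; norm_num

end

end Crest.Agent.RY
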