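/-
  RY_NC : many admissible choices (task RY-N7)
-/
import Crest.Agent.RY_NC3
import Crest.Agent.RY_NC4

set_option autoImplicit false

namespace Crest.Agent.RY
open Finset Classical

section
variable {F : Type} [Field F] [Fintype F] [DecidableEq F]
variable {R : Finset (Pt F)} {mn : Option F → Pt F} {cd : Option F → Finset (Ln F)} {c : ℝ} {D : ℕ}

theorem card_thr_ge (p : Pt F) (LS : Finset (Ln F)) (h : ∀ l ∈ LS, on p l) :
    LS.card ≤ (univ.filter (fun a : F => thr p a ∈ LS)).card := by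
  have h1 : LS ⊆ (univ.filter (fun a : F => thr p a ∈ LS)).image (thr p) := by
    intro l hl
    obtain ⟨a, ha⟩ := exists_thr (h l hl)
    rw [Finset.mem_image]
    exact ⟨a, by rw [Finset.mem_filter]; exact ⟨Finset.mem_univ _, by rw [ha]; exact hl⟩, ha⟩
  exact le_trans (Finset.card_le_card h1) Finset.card_image_le

/-- PROOF: `Ok1` says `x a ∈ B a` with `B a = {b | thr (mn i) b ∈ goodB ..}`; `thr (mn i)` is injective (`thr_inj`) and every
line of `goodB` is plain at `mn i`, so of this form (`exists_thr`): `|B a| = |goodB ..| ≥ c q` by `P.good` (the hypothesis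
about the parts is `Sel.sl_parts` with `Sel.sl_surj`).  `card_pi_ge`. -/
theorem card_Ok1 (hc : 0 < c) (P : PsR c D R mn cd) (G : Sel R mn cd) (i : Option F) :
    (c * (Fintype.card F : ℝ)) ^ 12 ≤ ((univ.filter (fun x : Fin 12 → F => G.Ok1 i x)).card : ℝ) := by
  have h0 : (0:ℝ) ≤ c * (Fintype.card F : ℝ) := by positivity
  have h1 := card_pi_ge (fun a : Fin 12 => univ.filter (fun b : F => thr (mn i) b ∈
    goodB R mn i (G.M i 0) (G.M i 1) (G.sl i 0 (kk a)) (G.sl i 1 (kk a)))) (c * (Fintype.card F : ℝ)) h0 ?_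
  · refine le_trans h1 ?_
    have : (univ.filter (fun x : Fin 12 → F => ∀ a, x a ∈ univ.filter (fun b : F => thr (mn i) b ∈
        goodB R mn i (G.M i 0) (G.M i 1) (G.sl i 0 (kk a)) (G.sl i 1 (kk a))))) ⊆
        (univ.filter (fun x : Fin 12 → F => G.Ok1 i x)) := by
      intro x hx
      rw [Finset.mem_filter] at hx ⊢
      refine ⟨Finset.mem_univ _, fun a => ?_⟩
      have := hx.2 a
      rw [Finset.mem_filter] at this
      exact this.2
    exact_mod_cast Finset.card_le_card this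
  · intro a
    have h2 := P.good i (G.M i 0) (G.M_cd i 0) (G.M i 1) (G.M_cd i 1) ?_ (G.sl i 0 (kk a))
      (mem_onL.mpr ⟨G.sl_mem i 0 _, G.sl_on i 0 _⟩) (G.sl_ne i 0 _) (G.sl i 1 (kk a))
      (mem_onL.mpr ⟨G.sl_mem i 1 _, G.sl_on i 1 _⟩) (G.sl_ne i 1 _)
    · refine le_trans h2 ?_
      have h3 := card_thr_ge (mn i) (goodB R mn i (G.M i 0) (G.M i 1) (G.sl i 0 (kk a)) (G.sl i 1 (kk a))) ?_
      · exact_mod_cast h3
      · intro l hl
        unfold goodB at hl
        rw [Finset.mem_filter] at hl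
        exact (plain_on hl.1).2
    · intro t ht t' ht' hne hne'
      obtain ⟨k, hk⟩ := G.sl_surj i 0 t ht hne
      obtain ⟨k', hk'⟩ := G.sl_surj i 1 t' ht' hne'
      rw [← hk, ← hk']
      exact G.sl_parts i k k'

theorem aux_final (hc : 0 < c) (hq : 10 ^ 10 / c ^ 12 ≤ (Fintype.card F : ℝ)) (A : ℕ) (B : ℕ)
    (h1 : (c * (Fintype.card F : ℝ)) ^ 12 ≤ ((A : ℕ) : ℝ)) (h2 : A ≤ B + 8002806 * Fintype.card F ^ 11) :
    c ^ 12 / 2 * (Fintype.card F : ℝ) ^ 12 ≤ (B : ℝ) := by
  have hc12 : 0 < c ^ 12 := by positivity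
  have hq1 : 10 ^ 10 ≤ c ^ 12 * (Fintype.card F : ℝ) := by
    rw [div_le_iff₀ hc12] at hq; linarith
  have h2' : ((A:ℕ) : ℝ) ≤ (B:ℝ) + 8002806 * (Fintype.card F : ℝ) ^ 11 := by exact_mod_cast h2
  have h11 : (0:ℝ) ≤ (Fintype.card F : ℝ) ^ 11 := by positivity
  have h3 : 10 ^ 10 * (Fintype.card F : ℝ) ^ 11 ≤ c ^ 12 * (Fintype.card F : ℝ) * (Fintype.card F : ℝ) ^ 11 :=
    mul_le_mul_of_nonneg_right hq1 h11
  have h4 : (c * (Fintype.card F : ℝ)) ^ 12 = c ^ 12 * (Fintype.card F : ℝ) * (Fintype.card F : ℝ) ^ 11 := by ring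
  have h5 : c ^ 12 / 2 * (Fintype.card F : ℝ) ^ 12 = (c ^ 12 * (Fintype.card F : ℝ) * (Fintype.card F : ℝ) ^ 11) / 2 := by ring
  rw [h5]
  rw [h4] at h1
  nlinarith

/-- PROOF: `{Ok1} ⊆ OmG ∪ {not injective} ∪ {not Ok3} ∪ {not Ok4}`; the bounds `card_not_inj`, `card_not_Ok3`,
`card_not_Ok4` sum to at most `8002806 q^11 ≤ (c^12/2) q^12` by `hq`. -/
theorem card_OmG (hc : 0 < c) (hq : 10 ^ 10 / c ^ 12 ≤ (Fintype.card F : ℝ)) (P : PsR c D R mn cd)
    (G : Sel R mn cd) (i : Option F) :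
    c ^ 12 / 2 * (Fintype.card F : ℝ) ^ 12 ≤ ((G.OmG i).card : ℝ) := by
  refine aux_final hc hq _ _ (card_Ok1 hc P G i) ?_
  have hsub : (univ.filter (fun x : Fin 12 → F => G.Ok1 i x)) ⊆
      G.OmG i ∪ ((univ.filter (fun x : Fin 12 → F => ¬ Function.Injective x)) ∪
        ((univ.filter (fun x : Fin 12 → F => ¬ G.Ok3 i x)) ∪ (univ.filter (fun x : Fin 12 → F => ¬ G.Ok4 i x)))) := by
    intro x hx
    rw [Finset.mem_filter] at hx
    simp only [Finset.mem_union, Finset.mem_filter, Finset.mem_univ, true_and, Sel.OmG]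
    by_cases h1 : Function.Injective x
    · by_cases h3 : G.Ok3 i x
      · by_cases h4 : G.Ok4 i x
        · exact Or.inl ⟨hx.2, h1, h3, h4⟩
        · exact Or.inr (Or.inr (Or.inr h4))
      · exact Or.inr (Or.inr (Or.inl h3))
    · exact Or.inr (Or.inl h1)
  have h1 := Finset.card_le_card hsub
  have h2 := Finset.card_union_le (G.OmG i) ((univ.filter (fun x : Fin 12 → F => ¬ Function.Injective x)) ∪
        ((univ.filter (fun x : Fin 12 → F => ¬ G.Ok3 i x)) ∪ (univ.filter (fun x : Fin 12 → F => ¬ G.Ok4 i x))))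
  have h3 := Finset.card_union_le (univ.filter (fun x : Fin 12 → F => ¬ Function.Injective x))
        ((univ.filter (fun x : Fin 12 → F => ¬ G.Ok3 i x)) ∪ (univ.filter (fun x : Fin 12 → F => ¬ G.Ok4 i x)))
  have h4 := Finset.card_union_le (univ.filter (fun x : Fin 12 → F => ¬ G.Ok3 i x))
        (univ.filter (fun x : Fin 12 → F => ¬ G.Ok4 i x))
  have h5 := card_not_inj (F := F)
  have h6 := card_not_Ok3 P G i
  have h7 := card_not_Ok4 P G i
  omega

/-- PROOF: as for `card_OmG`, with `B a = {b | thr t b ∈ plain R t}` and `P.plain_ge`, `card_not_inj`. -/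
theorem card_OmI (hc : 0 < c) (hq : 10 ^ 10 / c ^ 12 ≤ (Fintype.card F : ℝ)) (P : PsR c D R mn cd)
    {t : Pt F} (ht : t ∈ R) :
    c ^ 12 / 2 * (Fintype.card F : ℝ) ^ 12 ≤ ((OmI R t).card : ℝ) := by
  have h0 : (0:ℝ) ≤ c * (Fintype.card F : ℝ) := by positivity
  have h1 := card_pi_ge (fun _ : Fin 12 => univ.filter (fun b : F => thr t b ∈ plain R t))
    (c * (Fintype.card F : ℝ)) h0 ?_
  · refine aux_final hc hq _ _ h1 ?_
    have hsub : (univ.filter (fun x : Fin 12 → F => ∀ a, x a ∈ univ.filter (fun b : F => thr t b ∈ plain R t))) ⊆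
        OmI R t ∪ (univ.filter (fun x : Fin 12 → F => ¬ Function.Injective x)) := by
      intro x hx
      rw [Finset.mem_filter] at hx
      simp only [Finset.mem_union, Finset.mem_filter, Finset.mem_univ, true_and, OmI]
      by_cases h1 : Function.Injective x
      · refine Or.inl ⟨fun a => ?_, h1⟩
        have := hx.2 a
        rw [Finset.mem_filter] at this
        exact this.2
      · exact Or.inr h1
    have h1 := Finset.card_le_card hsub
    have h2 := Finset.card_union_le (OmI R t) (univ.filter (fun x : Fin 12 → F => ¬ Function.Injective x))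
    have h5 := card_not_inj (F := F)
    omega
  · intro a
    refine le_trans (P.plain_ge t ht) ?_
    have h3 := card_thr_ge t (plain R t) (fun l hl => (plain_on hl).2)
    exact_mod_cast h3

theorem card_Om (hc : 0 < c) (hc1 : c ≤ 1) (hq : 10 ^ 10 / c ^ 12 ≤ (Fintype.card F : ℝ))
    (P : PsR c D R mn cd) (G : Sel R mn cd) (o : Ow F) :
    c ^ 12 / 2 * (Fintype.card F : ℝ) ^ 12 ≤ ((G.Om o).card : ℝ) := by
  cases o with
  | inl i => exact card_OmG hc hq P G i
  | inr t =>
    by_cases ht : t ∈ R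
    · simp only [Sel.Om, ht, if_true]
      exact card_OmI hc hq P ht
    · simp only [Sel.Om, ht, if_false]
      have h1 : ((univ : Finset (Fin 12 → F)).card : ℝ) = (Fintype.card F : ℝ) ^ 12 := by
        rw [Finset.card_univ, Fintype.card_fun, Fintype.card_fin]; push_cast; rfl
      rw [h1]
      have h2 : c ^ 12 ≤ 1 := pow_le_one₀ hc.le hc1
      have h3 : (0 : ℝ) ≤ (Fintype.card F : ℝ) ^ 12 := by positivity
      nlinarith

end

end Crest.Agent.RY
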