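/-
  RY_ND : few choices make a sparse point see a given point, or make a given point a label (task RY-N8)
-/
import Crest.Agent.RY_NS
import Crest.Agent.RY_NC0

set_option autoImplicit false

namespace Crest.Agent.RY
open Finset Classical

section
variable {F : Type} [Field F] [Fintype F] [DecidableEq F]
variable {R : Finset (Pt F)} {mn : Option F → Pt F} {cd : Option F → Finset (Ln F)} {c : ℝ} {D : ℕ}

private theorem ND_cover {ι : Type} [Fintype ι] [DecidableEq ι] (p : (Fin 12 → F) → Prop) (f : ι → Fin 12)
    (S : ι → (Fin 12 → F) → Prop) (hp : ∀ x, p x → ∃ j, S j x)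
    (hS : ∀ j x y, S j x → S j y → x (f j) = y (f j)) :
    (univ.filter (fun x : Fin 12 → F => p x)).card ≤ Fintype.card ι * Fintype.card F ^ 11 := by
  have hsub : (univ.filter (fun x : Fin 12 → F => p x)) ⊆
      (univ : Finset ι).biUnion (fun j => univ.filter (fun x : Fin 12 → F => S j x)) := by
    intro x hx
    rw [mem_filter] at hx
    obtain ⟨j, hj⟩ := hp x hx.2
    rw [mem_biUnion]
    exact ⟨j, mem_univ _, mem_filter.mpr ⟨mem_univ _, hj⟩⟩
  refine (card_le_card hsub).trans ?_
  refine (card_biUnion_le_card_mul _ _ (Fintype.card F ^ 11) ?_).trans_eq ?_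
  · intro j _
    apply card_le_of_det (f j)
    intro x hx y hy _
    exact hS j x y (mem_filter.mp hx).2 (mem_filter.mp hy).2
  · rw [card_univ]

/-- PROOF: `G.cases t`.  If `t` is a main point or idle: `G.spx t x = spM t x`; `v ∈ thr t (x (jj j))` for some `j : Fin 10`; for
given `j` the coordinate `jj j` is determined (`line_unique` with `t ≠ v`, `thr_inj`): at most `10 q^11` by `card_le_of_det`.
If `t = sl i e k`: `v ∈ lin (sl i e k) (z i e x j)` for some `j ≠ k`, for given `j` the coordinate `kp e j` is determined: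
`v ≠ s_k`, so the line is the same for `x` and `y` (`line_unique`), `z_j` is on it, so `z_j = ptl l _` is the same;
`Sel.z_inj`. At most `11 q^11`. -/
theorem card_sees (P : PsR c D R mn cd) (G : Sel R mn cd) {t v : Pt F} (ht : t ∈ R) (hv : v ∉ R) :
    (univ.filter (fun x : Fin 12 → F => G.sees t v x)).card ≤ 11 * Fintype.card F ^ 11 := by
  have htv : t ≠ v := fun h => hv (h ▸ ht)
  have hA : (∀ x, G.spx t x = spM t x) →
      (univ.filter (fun x : Fin 12 → F => G.sees t v x)).card ≤ 11 * Fintype.card F ^ 11 := by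
    intro hsp
    have h1 := ND_cover (F := F) (ι := Fin 10) (fun x => G.sees t v x) jj
      (fun j x => on v (thr t (x (jj j)))) (by
        intro x hx
        obtain ⟨l', hl', hvl⟩ := hx
        rw [hsp x] at hl'
        obtain ⟨j, rfl⟩ := mem_spM.mp hl'
        exact ⟨j, hvl⟩) (by
        intro j x y hx hy
        apply thr_inj (p := t)
        exact line_unique (on_thr t _) hx (on_thr t _) hy htv)
    rw [Fintype.card_fin] at h1
    exact h1.trans (Nat.mul_le_mul_right _ (by norm_num))
  rcases G.cases t with ⟨i, hi⟩ | ⟨i, e, k, hi⟩ | ⟨h1, h2⟩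
  · apply hA
    intro x
    rw [hi]
    exact G.spx_mn P i x
  · subst hi
    have h1 := ND_cover (F := F) (ι := Fin 11) (fun x => G.sees (G.sl i e k) v x) (kp e)
      (fun j x => j ≠ k ∧ on v (lin (G.sl i e k) (G.z i e x j))) (by
        intro x hx
        obtain ⟨l', hl', hvl⟩ := hx
        rw [G.spx_sl] at hl'
        obtain ⟨j, hj, rfl⟩ := G.mem_spS.mp hl'
        exact ⟨j, hj, hvl⟩) (by
        rintro j x y ⟨hj, hx⟩ ⟨_, hy⟩
        apply G.z_inj P (i := i) (e := e)
        have hl : lin (G.sl i e k) (G.z i e x j) = lin (G.sl i e k) (G.z i e y j) :=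
          line_unique (G.sl_on_lin i e x hj) hx (G.sl_on_lin i e y hj) hy htv
        have hzx := G.z_on_lin i e x hj
        have hzy := G.z_on_lin i e y hj
        rw [hl] at hzx
        unfold on at hzx hzy
        apply Prod.ext
        · rw [G.z_fst, G.z_fst]
        · rw [hzx, hzy, G.z_fst, G.z_fst])
    rw [Fintype.card_fin] at h1
    exact h1
  · exact hA (G.spx_idle h1 h2)

/-- PROOF: for given `e`, `k` the coordinate `kp e k` is determined by `v = z i e x k` (`Sel.z_inj`); 22 pairs. -/
theorem card_lab (P : PsR c D R mn cd) (G : Sel R mn cd) (i : Option F) (v : Pt F) :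
    (univ.filter (fun x : Fin 12 → F => G.lab i v x)).card ≤ 22 * Fintype.card F ^ 11 := by
  have h1 := ND_cover (F := F) (ι := Fin 2 × Fin 11) (fun x => G.lab i v x) (fun p => kp p.1 p.2)
    (fun p x => v = G.z i p.1 x p.2) (by
      intro x hx
      obtain ⟨c', k, hk⟩ := hx
      exact ⟨(c', k), hk⟩) (by
      rintro ⟨c', k⟩ x y hx hy
      exact G.z_inj P (hx.symm.trans hy))
  rw [Fintype.card_prod, Fintype.card_fin, Fintype.card_fin] at h1
  exact h1

end

end Crest.Agent.RY
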