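/-
  RY_NP : probability of independent events on a product of finite sets (task RY-N9)
-/
import Mathlib

set_option autoImplicit false

namespace Crest.Agent.RY
open Finset Classical

/-- PROOF: `{f ∈ piFinset Ω | ∀ o ∈ S, E o (f o)} = piFinset (fun o => if o ∈ S then (Ω o).filter (E o) else Ω o)`;
`Fintype.card_piFinset`; compare the products factor by factor (`Finset.prod_le_prod`) and use
`∏ o, (if o ∈ S then δ else 1) = δ ^ S.card`. -/
theorem card_pi_le {O X : Type} [Fintype O] [DecidableEq O] [DecidableEq X] (Ω : O → Finset X) (S : Finset O)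
    (E : O → X → Prop) (δ : ℝ) (hδ : 0 ≤ δ)
    (h : ∀ o ∈ S, (((Ω o).filter (E o)).card : ℝ) ≤ δ * ((Ω o).card : ℝ)) :
    (((Fintype.piFinset Ω).filter (fun f => ∀ o ∈ S, E o (f o))).card : ℝ) ≤
      δ ^ S.card * ((Fintype.piFinset Ω).card : ℝ) := by
  have h1 : (Fintype.piFinset Ω).filter (fun f => ∀ o ∈ S, E o (f o)) =
      Fintype.piFinset (fun o => if o ∈ S then (Ω o).filter (E o) else Ω o) := by
    ext f
    rw [Finset.mem_filter, Fintype.mem_piFinset, Fintype.mem_piFinset]
    constructor
    · rintro ⟨hf, hE⟩ o
      by_cases ho : o ∈ S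
      · rw [if_pos ho, Finset.mem_filter]
        exact ⟨hf o, hE o ho⟩
      · rw [if_neg ho]
        exact hf o
    · intro hf
      constructor
      · intro o
        have := hf o
        by_cases ho : o ∈ S
        · rw [if_pos ho, Finset.mem_filter] at this
          exact this.1
        · rw [if_neg ho] at this
          exact this
      · intro o ho
        have := hf o
        rw [if_pos ho, Finset.mem_filter] at this
        exact this.2
  rw [h1, Fintype.card_piFinset, Fintype.card_piFinset]
  push_cast
  have h2 : δ ^ S.card = ∏ o : O, (if o ∈ S then δ else 1) := by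
    rw [Finset.prod_ite_mem, Finset.univ_inter, Finset.prod_const]
  rw [h2, ← Finset.prod_mul_distrib]
  apply Finset.prod_le_prod
  · intro o _
    exact Nat.cast_nonneg _
  · intro o _
    by_cases ho : o ∈ S
    · rw [if_pos ho, if_pos ho]
      exact h o ho
    · rw [if_neg ho, if_neg ho, one_mul]

end Crest.Agent.RY
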