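/-
  RY_NU : probability that many sparse points see a given point (task RY-N11)
-/
import Crest.Agent.RY_NC
import Crest.Agent.RY_ND
import Crest.Agent.RY_NP

set_option autoImplicit false

namespace Crest.Agent.RY
open Finset Classical

section
variable {F : Type} [Field F] [Fintype F] [DecidableEq F]
variable {R : Finset (Pt F)} {mn : Option F → Pt F} {cd : Option F → Finset (Ln F)} {c : ℝ} {D : ℕ}

/-- all the admissible choice functions -/
noncomputable def Sel.Pi (G : Sel R mn cd) : Finset (Ow F → (Fin 12 → F)) := Fintype.piFinset G.Om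

theorem Sel.mem_Pi {G : Sel R mn cd} {f : Ow F → (Fin 12 → F)} : f ∈ G.Pi ↔ ∀ o, f o ∈ G.Om o := by
  unfold Sel.Pi; rw [Fintype.mem_piFinset]

/-- PROOF: every `Om o` is nonempty by `card_Om` (`q > 0`). -/
theorem Sel.Pi_pos (hc : 0 < c) (hc1 : c ≤ 1) (hq : 10 ^ 10 / c ^ 12 ≤ (Fintype.card F : ℝ))
    (P : PsR c D R mn cd) (G : Sel R mn cd) : 0 < (G.Pi.card : ℝ) := by
  have hq0 : (0 : ℝ) < (Fintype.card F : ℝ) := by exact_mod_cast Fintype.card_pos
  have h1 : ∀ o, (G.Om o).Nonempty := by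
    intro o
    have h2 := card_Om hc hc1 hq P G o
    have h3 : (0 : ℝ) < c ^ 12 / 2 * (Fintype.card F : ℝ) ^ 12 := by positivity
    have h4 : (0 : ℝ) < ((G.Om o).card : ℝ) := lt_of_lt_of_le h3 h2
    exact Finset.card_pos.mp (by exact_mod_cast h4)
  have h5 : G.Pi.Nonempty := by
    unfold Sel.Pi
    rw [Fintype.piFinset_nonempty]
    exact h1
  exact_mod_cast Finset.card_pos.mpr h5

private theorem NU_factor (hc : 0 < c) (hc1 : c ≤ 1) (hq : 10 ^ 10 / c ^ 12 ≤ (Fintype.card F : ℝ))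
    (P : PsR c D R mn cd) (G : Sel R mn cd) (o : Ow F) (E : (Fin 12 → F) → Prop) {_ : DecidablePred E}
    (h : (univ.filter (fun x : Fin 12 → F => E x)).card ≤ 22 * Fintype.card F ^ 11) :
    (((G.Om o).filter E).card : ℝ) ≤ (44 / c ^ 12 / (Fintype.card F : ℝ)) * ((G.Om o).card : ℝ) := by
  have hq0 : (0 : ℝ) < (Fintype.card F : ℝ) := by exact_mod_cast Fintype.card_pos
  have h2 := card_Om hc hc1 hq P G o
  have h3 : ((G.Om o).filter E).card ≤ 22 * Fintype.card F ^ 11 := by
    refine le_trans (Finset.card_le_card ?_) h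
    intro x hx
    rw [Finset.mem_filter] at hx ⊢
    exact ⟨Finset.mem_univ _, hx.2⟩
  have h4 : (((G.Om o).filter E).card : ℝ) ≤ 22 * (Fintype.card F : ℝ) ^ 11 := by exact_mod_cast h3
  refine h4.trans ?_
  have h5 : (0 : ℝ) ≤ 44 / c ^ 12 / (Fintype.card F : ℝ) := by positivity
  refine le_trans (le_of_eq ?_) (mul_le_mul_of_nonneg_left h2 h5)
  field_simp
  norm_num

/-- PROOF: `card_pi_le` with `S = T.image G.own`, `E o x = ∃ t ∈ T, G.own t = o ∧ G.sees t v x` (the `t` is unique) and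
`δ = (44/c^12)/q`; `|{x ∈ Om o | E o x}| ≤ |{x | sees t v x}| ≤ 11 q^11 ≤ 22 q^11 = δ (c^12/2) q^12 ≤ δ |Om o|`
(`card_sees`, `card_Om`); `S.card = T.card`. -/
theorem prob_sees (hc : 0 < c) (hc1 : c ≤ 1) (hq : 10 ^ 10 / c ^ 12 ≤ (Fintype.card F : ℝ))
    (P : PsR c D R mn cd) (G : Sel R mn cd) (T : Finset (Pt F)) (hT : T ⊆ R)
    (hinj : Set.InjOn G.own (T : Set (Pt F))) (v : Pt F) (hv : v ∉ R) :
    ((G.Pi.filter (fun f => ∀ t ∈ T, G.sees t v (f (G.own t)))).card : ℝ) ≤
      (44 / c ^ 12 / (Fintype.card F : ℝ)) ^ T.card * (G.Pi.card : ℝ) := by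
  have h1 := card_pi_le G.Om (T.image G.own) (fun o x => ∃ t ∈ T, G.own t = o ∧ G.sees t v x)
    (44 / c ^ 12 / (Fintype.card F : ℝ)) (by positivity) ?_
  · rw [Finset.card_image_of_injOn hinj] at h1
    refine le_trans ?_ h1
    refine Nat.cast_le.mpr (Finset.card_le_card ?_)
    intro f hf
    simp only [Finset.mem_filter] at hf ⊢
    refine ⟨hf.1, fun o ho => ?_⟩
    rw [Finset.mem_image] at ho
    obtain ⟨t, ht, rfl⟩ := ho
    exact ⟨t, ht, rfl, hf.2 t ht⟩
  · intro o ho
    rw [Finset.mem_image] at ho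
    obtain ⟨t, ht, rfl⟩ := ho
    refine NU_factor hc hc1 hq P G _ _ ?_
    refine le_trans (Finset.card_le_card ?_) ((card_sees P G (hT ht) hv).trans (Nat.mul_le_mul_right _ (by norm_num)))
    intro x hx
    simp only [Finset.mem_filter] at hx ⊢
    obtain ⟨t', ht', h2, h3⟩ := hx.2
    have h4 := hinj ht' ht h2
    subst h4
    exact ⟨Finset.mem_univ _, h3⟩

/-- PROOF: the same with `S = insert (inl i) (T.image G.own)`, `E (inl i) = lab i v` (`card_lab`: `22 q^11`). -/
theorem prob_sees_lab (hc : 0 < c) (hc1 : c ≤ 1) (hq : 10 ^ 10 / c ^ 12 ≤ (Fintype.card F : ℝ))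
    (P : PsR c D R mn cd) (G : Sel R mn cd) (T : Finset (Pt F)) (hT : T ⊆ R)
    (hinj : Set.InjOn G.own (T : Set (Pt F))) (i : Option F) (hi : ∀ t ∈ T, G.own t ≠ Sum.inl i) (v : Pt F)
    (hv : v ∉ R) :
    ((G.Pi.filter (fun f => G.lab i v (f (Sum.inl i)) ∧ ∀ t ∈ T, G.sees t v (f (G.own t)))).card : ℝ) ≤
      (44 / c ^ 12 / (Fintype.card F : ℝ)) ^ (T.card + 1) * (G.Pi.card : ℝ) := by
  have hni : Sum.inl i ∉ T.image G.own := by
    intro h
    rw [Finset.mem_image] at h
    obtain ⟨t, ht, h2⟩ := h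
    exact hi t ht h2
  have h1 := card_pi_le G.Om (insert (Sum.inl i) (T.image G.own))
    (fun o x => (o = Sum.inl i → G.lab i v x) ∧ (o ≠ Sum.inl i → ∃ t ∈ T, G.own t = o ∧ G.sees t v x))
    (44 / c ^ 12 / (Fintype.card F : ℝ)) (by positivity) ?_
  · rw [Finset.card_insert_of_notMem hni, Finset.card_image_of_injOn hinj] at h1
    refine le_trans ?_ h1
    refine Nat.cast_le.mpr (Finset.card_le_card ?_)
    intro f hf
    simp only [Finset.mem_filter] at hf ⊢
    refine ⟨hf.1, fun o ho => ?_⟩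
    rw [Finset.mem_insert] at ho
    constructor
    · rintro rfl
      exact hf.2.1
    · intro hne
      rcases ho with ho | ho
      · exact absurd ho hne
      · rw [Finset.mem_image] at ho
        obtain ⟨t, ht, rfl⟩ := ho
        exact ⟨t, ht, rfl, hf.2.2 t ht⟩
  · intro o ho
    refine NU_factor hc hc1 hq P G _ _ ?_
    by_cases h : o = Sum.inl i
    · subst h
      refine le_trans (Finset.card_le_card ?_) (card_lab P G i v)
      intro x hx
      simp only [Finset.mem_filter] at hx ⊢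
      exact ⟨Finset.mem_univ _, hx.2.1 trivial⟩
    · rw [Finset.mem_insert] at ho
      rcases ho with ho | ho
      · exact absurd ho h
      · rw [Finset.mem_image] at ho
        obtain ⟨t, ht, rfl⟩ := ho
        refine le_trans (Finset.card_le_card ?_) ((card_sees P G (hT ht) hv).trans (Nat.mul_le_mul_right _ (by norm_num)))
        intro x hx
        simp only [Finset.mem_filter] at hx ⊢
        obtain ⟨t', ht', h2, h3⟩ := hx.2.2 h
        have h4 := hinj ht' ht h2
        subst h4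
        exact ⟨Finset.mem_univ _, h3⟩

end

end Crest.Agent.RY
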