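/-
  RY_NB : the bad events (definitions)
-/
import Crest.Agent.RY_NU
import Crest.Agent.RY_NO

set_option autoImplicit false

namespace Crest.Agent.RY
open Finset Classical

section
variable {F : Type} [Field F] [Fintype F] [DecidableEq F]
variable {R : Finset (Pt F)} {mn : Option F → Pt F} {cd : Option F → Finset (Ln F)} {c : ℝ} {D : ℕ}

def Sel.Bad1 (G : Sel R mn cd) (f : Ow F → (Fin 12 → F)) : Prop :=
  ∃ (l : Ln F) (v : Pt F) (T : Finset (Pt F)), v ∉ R ∧ T ⊆ onL R l ∧ T.card = 6 ∧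
    Set.InjOn G.own (T : Set (Pt F)) ∧ ∀ t ∈ T, G.sees t v (f (G.own t))

def Sel.Bad2 (G : Sel R mn cd) (f : Ow F → (Fin 12 → F)) : Prop :=
  ∃ (i : Option F) (v : Pt F) (T : Finset (Pt F)), v ∉ R ∧ T ⊆ onP R i ∧ T.card = 6 ∧
    ∀ t ∈ T, G.sees t v (f (G.own t))

def Sel.Bad3 (G : Sel R mn cd) (f : Ow F → (Fin 12 → F)) : Prop :=
  ∃ (i : Option F) (e : Fin 2) (v : Pt F) (T : Finset (Pt F)), v ∉ R ∧ on v (G.M i e) ∧ T ⊆ onP R i ∧
    T.card = 5 ∧ ∀ t ∈ T, G.sees t v (f (G.own t))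

def Sel.Bad4 (G : Sel R mn cd) (f : Ow F → (Fin 12 → F)) : Prop :=
  ∃ (i : Option F) (v : Pt F) (T : Finset (Pt F)), v ∉ R ∧ G.lab i v (f (Sum.inl i)) ∧
    T ⊆ (onP R i).erase (mn i) ∧ T.card = 5 ∧ ∀ t ∈ T, G.sees t v (f (G.own t))

end

end Crest.Agent.RY
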