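/-
  RY_NB1 : the bad event 1 (task RY-N12)
-/
import Crest.Agent.RY_NB

set_option autoImplicit false

namespace Crest.Agent.RY
open Finset Classical

section
variable {F : Type} [Field F] [Fintype F] [DecidableEq F]
variable {R : Finset (Pt F)} {mn : Option F → Pt F} {cd : Option F → Finset (Ln F)} {c : ℝ} {D : ℕ}

private theorem NB1_count {q A : ℝ} (hq : 0 < q) (hA : 0 < A) (hqA : 256 * A ^ 12 ≤ q) (K : ℕ)
    (hK : (K : ℝ) ^ 4 ≤ q) : 16 * ((K.choose 6 : ℕ) : ℝ) * A ^ 6 ≤ q ^ 2 := by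
  have h1 : ((K.choose 6 : ℕ) : ℝ) ≤ (K : ℝ) ^ 6 := by
    exact_mod_cast Nat.choose_le_pow K 6
  have h0 : (0 : ℝ) ≤ K := Nat.cast_nonneg _
  have h2 : 16 * ((K.choose 6 : ℕ) : ℝ) * A ^ 6 ≤ 16 * (K : ℝ) ^ 6 * A ^ 6 := by gcongr
  refine h2.trans ?_
  have h3 : (16 * (K : ℝ) ^ 6 * A ^ 6) ^ 2 ≤ (q ^ 2) ^ 2 := by
    have e1 : (16 * (K : ℝ) ^ 6 * A ^ 6) ^ 2 = (256 * A ^ 12) * ((K : ℝ) ^ 4) ^ 3 := by ring
    have e2 : (q ^ 2) ^ 2 = q * q ^ 3 := by ring
    rw [e1, e2]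
    have h4 : ((K : ℝ) ^ 4) ^ 3 ≤ q ^ 3 := pow_le_pow_left₀ (by positivity) hK 3
    exact mul_le_mul hqA h4 (by positivity) hq.le
  exact le_of_sq_le_sq h3 (by positivity)

/-- PROOF: union over `l : Ln F` (`q^2` lines), `v : Pt F` with `v ∉ R` (at most `(q+1) q ≤ 2 q^2` points) and
`T ∈ powersetCard 6 (onL R l)` with `InjOn` (at most `K^6` sets, `K = |onL R l|`, `K^4 ≤ q` by `P.line_le`, so
`(K^6)^2 ≤ q^3`, `K^6 ≤ (√q)^3`); each has probability at most `(A/q)^6`, `A = 44/c^12` (`prob_sees`).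
Total `2 q^4 (√q)^3 A^6 / q^6 = 2 A^6 / √q ≤ 1/8` since `q ≥ 256 A^12`. -/
theorem card_bad1 (hc : 0 < c) (hc1 : c ≤ 1) (hq : 10 ^ 10 * (44 / c ^ 12) ^ 12 ≤ (Fintype.card F : ℝ))
    (hq' : 10 ^ 10 / c ^ 12 ≤ (Fintype.card F : ℝ)) (P : PsR c D R mn cd) (G : Sel R mn cd) :
    ((G.Pi.filter (fun f => G.Bad1 f)).card : ℝ) ≤ (G.Pi.card : ℝ) / 8 := by
  set q : ℝ := (Fintype.card F : ℝ) with hqdef
  set A : ℝ := 44 / c ^ 12 with hAdef
  have hA : 0 < A := by positivity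
  have hq1 : (1 : ℝ) ≤ q := by
    rw [hqdef]; exact_mod_cast Fintype.card_pos
  have hq0 : 0 < q := by linarith
  have hqA : 256 * A ^ 12 ≤ q := by
    have : (0 : ℝ) ≤ A ^ 12 := by positivity
    linarith
  have hPi : (0 : ℝ) ≤ (G.Pi.card : ℝ) := Nat.cast_nonneg _
  have hsub : G.Pi.filter (fun f => G.Bad1 f) ⊆
      (univ : Finset (Ln F)).biUnion (fun l => (univ : Finset (Pt F)).biUnion (fun v =>
        ((powersetCard 6 (onL R l)).filter (fun T : Finset (Pt F) => v ∉ R ∧ Set.InjOn G.own (T : Set (Pt F)))).biUnion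
          (fun T : Finset (Pt F) => G.Pi.filter (fun f => ∀ t ∈ T, G.sees t v (f (G.own t)))))) := by
    intro f hf
    obtain ⟨hf1, l, v, T, hv, hT, hTc, hinj, hs⟩ := mem_filter.1 hf
    rw [mem_biUnion]
    refine ⟨l, mem_univ _, ?_⟩
    rw [mem_biUnion]
    refine ⟨v, mem_univ _, ?_⟩
    rw [mem_biUnion]
    exact ⟨T, mem_filter.2 ⟨mem_powersetCard.2 ⟨hT, hTc⟩, hv, hinj⟩, mem_filter.2 ⟨hf1, hs⟩⟩
  have h1 : ((G.Pi.filter (fun f => G.Bad1 f)).card : ℝ) ≤ ∑ l : Ln F, ∑ v : Pt F,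
      ∑ T ∈ (powersetCard 6 (onL R l)).filter (fun T : Finset (Pt F) => v ∉ R ∧ Set.InjOn G.own (T : Set (Pt F))),
        ((G.Pi.filter (fun f => ∀ t ∈ T, G.sees t v (f (G.own t)))).card : ℝ) := by
    have h2 := (card_le_card hsub).trans card_biUnion_le
    have h3 : ((G.Pi.filter (fun f => G.Bad1 f)).card : ℝ) ≤ ((∑ l : Ln F,
      ((univ : Finset (Pt F)).biUnion (fun v =>
        ((powersetCard 6 (onL R l)).filter (fun T : Finset (Pt F) => v ∉ R ∧ Set.InjOn G.own (T : Set (Pt F)))).biUnion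
          (fun T : Finset (Pt F) => G.Pi.filter (fun f => ∀ t ∈ T, G.sees t v (f (G.own t)))))).card : ℕ) : ℝ) := by
      exact_mod_cast h2
    refine h3.trans ?_
    rw [Nat.cast_sum]
    refine sum_le_sum fun l _ => ?_
    have h4 : (((univ : Finset (Pt F)).biUnion (fun v =>
        ((powersetCard 6 (onL R l)).filter (fun T : Finset (Pt F) => v ∉ R ∧ Set.InjOn G.own (T : Set (Pt F)))).biUnion
          (fun T : Finset (Pt F) => G.Pi.filter (fun f => ∀ t ∈ T, G.sees t v (f (G.own t)))))).card : ℝ) ≤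
        ((∑ v : Pt F, (((powersetCard 6 (onL R l)).filter
          (fun T : Finset (Pt F) => v ∉ R ∧ Set.InjOn G.own (T : Set (Pt F)))).biUnion
          (fun T : Finset (Pt F) => G.Pi.filter (fun f => ∀ t ∈ T, G.sees t v (f (G.own t))))).card : ℕ) : ℝ) := by
      exact_mod_cast card_biUnion_le
    refine h4.trans ?_
    rw [Nat.cast_sum]
    refine sum_le_sum fun v _ => ?_
    exact_mod_cast card_biUnion_le
  refine h1.trans ?_
  have h5 : ∀ l : Ln F, ∀ v : Pt F,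
      ∑ T ∈ (powersetCard 6 (onL R l)).filter (fun T : Finset (Pt F) => v ∉ R ∧ Set.InjOn G.own (T : Set (Pt F))),
        ((G.Pi.filter (fun f => ∀ t ∈ T, G.sees t v (f (G.own t)))).card : ℝ) ≤
      (G.Pi.card : ℝ) / (16 * q ^ 4) := by
    intro l v
    have h6 : ∑ T ∈ (powersetCard 6 (onL R l)).filter (fun T : Finset (Pt F) => v ∉ R ∧ Set.InjOn G.own (T : Set (Pt F))),
        ((G.Pi.filter (fun f => ∀ t ∈ T, G.sees t v (f (G.own t)))).card : ℝ) ≤
        ∑ _T ∈ (powersetCard 6 (onL R l)).filter (fun T : Finset (Pt F) => v ∉ R ∧ Set.InjOn G.own (T : Set (Pt F))),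
          (A / q) ^ 6 * (G.Pi.card : ℝ) := by
      refine sum_le_sum fun T hT => ?_
      obtain ⟨hT1, hv, hinj⟩ := mem_filter.1 hT
      obtain ⟨hT2, hTc⟩ := mem_powersetCard.1 hT1
      have h7 := prob_sees hc hc1 hq' P G T (hT2.trans (filter_subset _ _)) hinj v hv
      rw [hTc] at h7
      exact h7
    refine h6.trans ?_
    rw [sum_const, nsmul_eq_mul]
    have h8 : ((((powersetCard 6 (onL R l)).filter
        (fun T : Finset (Pt F) => v ∉ R ∧ Set.InjOn G.own (T : Set (Pt F)))).card : ℕ) : ℝ) ≤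
        (((onL R l).card.choose 6 : ℕ) : ℝ) := by
      have := card_filter_le (powersetCard 6 (onL R l))
        (fun T : Finset (Pt F) => v ∉ R ∧ Set.InjOn G.own (T : Set (Pt F)))
      rw [card_powersetCard] at this
      exact_mod_cast this
    have hK : (((onL R l).card : ℕ) : ℝ) ^ 4 ≤ q := by
      rw [hqdef]; exact_mod_cast P.line_le l
    have h9 := NB1_count hq0 hA hqA _ hK
    calc ((((powersetCard 6 (onL R l)).filter
        (fun T : Finset (Pt F) => v ∉ R ∧ Set.InjOn G.own (T : Set (Pt F)))).card : ℕ) : ℝ) *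
          ((A / q) ^ 6 * (G.Pi.card : ℝ)) ≤
        (((onL R l).card.choose 6 : ℕ) : ℝ) * ((A / q) ^ 6 * (G.Pi.card : ℝ)) := by gcongr
      _ = (16 * (((onL R l).card.choose 6 : ℕ) : ℝ) * A ^ 6) * ((G.Pi.card : ℝ) / (16 * q ^ 6)) := by
        rw [div_pow]; field_simp
      _ ≤ q ^ 2 * ((G.Pi.card : ℝ) / (16 * q ^ 6)) := by gcongr
      _ = (G.Pi.card : ℝ) / (16 * q ^ 4) := by field_simp
  refine (sum_le_sum fun l _ => sum_le_sum fun v _ => h5 l v).trans ?_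
  rw [sum_const, sum_const, nsmul_eq_mul, nsmul_eq_mul]
  have hL : ((univ : Finset (Ln F)).card : ℝ) = q ^ 2 := by
    rw [card_univ, Fintype.card_prod, Nat.cast_mul, hqdef]; ring
  have hP : ((univ : Finset (Pt F)).card : ℝ) = (q + 1) * q := by
    rw [card_univ, Fintype.card_prod, Fintype.card_option, Nat.cast_mul, hqdef]; push_cast; ring
  rw [hL, hP]
  have h10 : q ^ 2 * ((q + 1) * q * ((G.Pi.card : ℝ) / (16 * q ^ 4))) =
      ((q + 1) / q) * ((G.Pi.card : ℝ) / 16) := by field_simp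
  rw [h10]
  have h11 : (q + 1) / q ≤ 2 := by rw [div_le_iff₀ hq0]; linarith
  calc ((q + 1) / q) * ((G.Pi.card : ℝ) / 16) ≤ 2 * ((G.Pi.card : ℝ) / 16) := by gcongr
    _ = (G.Pi.card : ℝ) / 8 := by ring

end

end Crest.Agent.RY
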