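/-
  RY_NB2 : the bad events 2 and 3 (task RY-N13)
-/
import Crest.Agent.RY_NB

set_option autoImplicit false

namespace Crest.Agent.RY
open Finset Classical

section
variable {F : Type} [Field F] [Fintype F] [DecidableEq F]
variable {R : Finset (Pt F)} {mn : Option F → Pt F} {cd : Option F → Finset (Ln F)} {c : ℝ} {D : ℕ}

private noncomputable def NB2c {α : Type} (s : Finset α) (p : α → Prop) : ℝ :=
  ((@Finset.filter α p (Classical.decPred p) s).card : ℝ)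

private theorem NB2c_eq {α : Type} (s : Finset α) (p : α → Prop) [inst : DecidablePred p] :
    NB2c s p = ((s.filter p).card : ℝ) := by
  unfold NB2c; congr!

private theorem NB2c_mono {α : Type} (s : Finset α) (p p' : α → Prop) (h : ∀ f, p f → p' f) :
    NB2c s p ≤ NB2c s p' := by
  unfold NB2c
  apply Nat.cast_le.mpr
  apply card_le_card
  intro f hf
  rw [mem_filter] at hf ⊢
  exact ⟨hf.1, h f hf.2⟩

private theorem NB2_union {α β : Type} (s : Finset α) (J : Finset β) (E : β → α → Prop) (X : ℝ)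
    (h : ∀ j ∈ J, NB2c s (E j) ≤ X) (m : ℝ) (hm : (J.card : ℝ) ≤ m) (hX : 0 ≤ X) :
    NB2c s (fun f => ∃ j ∈ J, E j f) ≤ m * X := by
  have h1 : @Finset.filter α (fun f => ∃ j ∈ J, E j f) (Classical.decPred _) s ⊆
      J.biUnion (fun j => @Finset.filter α (E j) (Classical.decPred _) s) := by
    intro f hf
    obtain ⟨hf1, j, hj, hf2⟩ := (@mem_filter α _ (Classical.decPred _) s f).mp hf
    exact mem_biUnion.mpr ⟨j, hj, (@mem_filter α _ (Classical.decPred _) s f).mpr ⟨hf1, hf2⟩⟩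
  calc NB2c s (fun f => ∃ j ∈ J, E j f)
      ≤ ((J.biUnion (fun j => @Finset.filter α (E j) (Classical.decPred _) s)).card : ℝ) :=
        Nat.cast_le.mpr (card_le_card h1)
    _ ≤ ((∑ j ∈ J, (@Finset.filter α (E j) (Classical.decPred _) s).card : ℕ) : ℝ) :=
        Nat.cast_le.mpr card_biUnion_le
    _ = ∑ j ∈ J, NB2c s (E j) := by push_cast; rfl
    _ ≤ ∑ _j ∈ J, X := sum_le_sum h
    _ = (J.card : ℝ) * X := by rw [sum_const, nsmul_eq_mul]
    _ ≤ m * X := mul_le_mul_of_nonneg_right hm hX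

private theorem NB2_pow (P : PsR c D R mn cd) (i : Option F) (k : ℕ) :
    (((powersetCard k (onP R i)).card : ℕ) : ℝ) ≤ 2001 ^ k := by
  have h1 : (powersetCard k (onP R i)).card ≤ 2001 ^ k := by
    rw [card_powersetCard]
    exact (Nat.choose_le_pow _ k).trans (Nat.pow_le_pow_left (P.part_le i) k)
  exact_mod_cast h1

private theorem NB2_num (q A : ℝ) (hA : 44 ≤ A) (hq : 10 ^ 10 * A ^ 12 ≤ q) :
    0 < q ∧ 1 ≤ q ∧ 10 ^ 30 * A ^ 6 ≤ q ^ 3 := by
  have hA1 : (1 : ℝ) ≤ A := by linarith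
  have hA12 : (1 : ℝ) ≤ A ^ 12 := one_le_pow₀ hA1
  have h1 : (1 : ℝ) ≤ q := by nlinarith
  refine ⟨by linarith, h1, ?_⟩
  have h2 : (10 ^ 10 * A ^ 12) ^ 3 ≤ q ^ 3 := pow_le_pow_left₀ (by positivity) hq 3
  have h3 : A ^ 6 ≤ A ^ 36 := pow_le_pow_right₀ hA1 (by norm_num)
  calc 10 ^ 30 * A ^ 6 ≤ 10 ^ 30 * A ^ 36 := by nlinarith
    _ = (10 ^ 10 * A ^ 12) ^ 3 := by ring
    _ ≤ q ^ 3 := h2

private theorem NB2_A (hc : 0 < c) (hc1 : c ≤ 1) : (44 : ℝ) ≤ 44 / c ^ 12 := by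
  rw [le_div_iff₀ (by positivity)]
  have : c ^ 12 ≤ 1 := pow_le_one₀ hc.le hc1
  linarith

omit [Field F] [DecidableEq F] in
private theorem NB2_cardO : ((univ : Finset (Option F)).card : ℝ) = (Fintype.card F : ℝ) + 1 := by
  rw [card_univ, Fintype.card_option]; push_cast; ring

/-- PROOF: union over `i` (`q+1`), `v ∉ R` (at most `(q+1) q`), `T ∈ powersetCard 6 (onP R i)` (at most `2001^6`, `P.part_le`);
`G.own` is injective on `T` by `own_inj_part`; each probability is at most `(A/q)^6`, `A = 44/c^12` (`prob_sees`).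
Total at most `4 q^3 2001^6 A^6 / q^6 ≤ 1/8` since `q ≥ 10^10 A^12 ≥ 10^8 A^2` (`A ≥ 44`). -/
theorem card_bad2 (hc : 0 < c) (hc1 : c ≤ 1) (hq : 10 ^ 10 * (44 / c ^ 12) ^ 12 ≤ (Fintype.card F : ℝ))
    (hq' : 10 ^ 10 / c ^ 12 ≤ (Fintype.card F : ℝ)) (P : PsR c D R mn cd) (G : Sel R mn cd) :
    ((G.Pi.filter (fun f => G.Bad2 f)).card : ℝ) ≤ (G.Pi.card : ℝ) / 8 := by
  set q : ℝ := (Fintype.card F : ℝ) with hqdef
  set A : ℝ := 44 / c ^ 12 with hAdef
  obtain ⟨hq0, hq1, hq3⟩ := NB2_num q A (NB2_A hc hc1) hq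
  have hA := NB2_A (c := c) hc hc1
  rw [← hAdef] at hA
  have hPi : 0 ≤ (G.Pi.card : ℝ) := Nat.cast_nonneg _
  have hX : 0 ≤ (A / q) ^ 6 * (G.Pi.card : ℝ) := by positivity
  have key : ((G.Pi.filter (fun f => G.Bad2 f)).card : ℝ) ≤
      (q + 1) * ((q + 1) * q * (2001 ^ 6 * ((A / q) ^ 6 * (G.Pi.card : ℝ)))) := by
    rw [← NB2c_eq]
    have hsub : ∀ f, G.Bad2 f → (∃ i ∈ (univ : Finset (Option F)), ∃ v ∈ Rᶜ,
          ∃ T ∈ powersetCard 6 (onP R i), ∀ t ∈ T, G.sees t v (f (G.own t))) := by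
      rintro f ⟨i, v, T, hv, hT, hTc, hs⟩
      exact ⟨i, mem_univ _, v, mem_compl.mpr hv, T, mem_powersetCard.mpr ⟨hT, hTc⟩, hs⟩
    refine le_trans (NB2c_mono G.Pi _ _ hsub) ?_
    refine NB2_union G.Pi univ (fun i f => ∃ v ∈ Rᶜ,
          ∃ T ∈ powersetCard 6 (onP R i), ∀ t ∈ T, G.sees t v (f (G.own t))) _ ?_ _ (le_of_eq NB2_cardO) (by positivity)
    intro i _
    refine NB2_union G.Pi Rᶜ (fun v f =>
          ∃ T ∈ powersetCard 6 (onP R i), ∀ t ∈ T, G.sees t v (f (G.own t))) _ ?_ _ ?_ (by positivity)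
    · intro v hv
      refine NB2_union G.Pi (powersetCard 6 (onP R i)) (fun T f => ∀ t ∈ T, G.sees t v (f (G.own t))) _ ?_ _
        (NB2_pow P i 6) hX
      intro T hT
      obtain ⟨hT1, hT2⟩ := mem_powersetCard.mp hT
      have hinj : Set.InjOn G.own (T : Set (Pt F)) := by
        apply (G.own_inj_part P i).mono
        intro t ht
        exact (mem_filter.mp (hT1 (mem_coe.mp ht))).2
      have h := prob_sees hc hc1 hq' P G T (fun t ht => (mem_filter.mp (hT1 ht)).1) hinj v (mem_compl.mp hv)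
      rw [hT2, ← NB2c_eq] at h
      exact h
    · have h1 : (Rᶜ).card ≤ (Fintype.card F + 1) * Fintype.card F := by
        refine (card_le_univ _).trans ?_
        have : Fintype.card (Pt F) = (Fintype.card F + 1) * Fintype.card F := by
          unfold Pt
          rw [Fintype.card_prod, Fintype.card_option]
        rw [this]
      have h2 : (((Rᶜ).card : ℕ) : ℝ) ≤ (((Fintype.card F + 1) * Fintype.card F : ℕ) : ℝ) := by exact_mod_cast h1
      push_cast at h2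
      exact h2
  refine key.trans ?_
  have e1 : (q + 1) * ((q + 1) * q * (2001 ^ 6 * ((A / q) ^ 6 * (G.Pi.card : ℝ)))) =
      ((q + 1) ^ 2 * 2001 ^ 6 * A ^ 6 / q ^ 5) * (G.Pi.card : ℝ) := by
    field_simp
  rw [e1]
  have e2 : (q + 1) ^ 2 * 2001 ^ 6 * A ^ 6 / q ^ 5 ≤ 1 / 8 := by
    rw [div_le_iff₀ (by positivity)]
    have h1 : (q + 1) ^ 2 ≤ 4 * q ^ 2 := by nlinarith
    calc (q + 1) ^ 2 * 2001 ^ 6 * A ^ 6 ≤ 4 * q ^ 2 * 2001 ^ 6 * A ^ 6 := by
          have : 0 ≤ (2001 : ℝ) ^ 6 * A ^ 6 := by positivity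
          nlinarith
      _ ≤ 1 / 8 * (q ^ 2 * (10 ^ 30 * A ^ 6)) := by
          have : 0 ≤ q ^ 2 * A ^ 6 := by positivity
          nlinarith
      _ ≤ 1 / 8 * (q ^ 2 * q ^ 3) := by
          have : 0 ≤ q ^ 2 := by positivity
          nlinarith
      _ = 1 / 8 * q ^ 5 := by ring
  calc _ ≤ 1 / 8 * (G.Pi.card : ℝ) := mul_le_mul_of_nonneg_right e2 hPi
    _ = (G.Pi.card : ℝ) / 8 := by ring

/-- PROOF: union over `i` (`q+1`), `e` (2), `v` on `M i e` (`q+1` points `ptl (M i e) i'`), `T` (at most `2001^5`):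
`8 q^2 2001^5 A^5 / q^5 ≤ 1/8`. -/
theorem card_bad3 (hc : 0 < c) (hc1 : c ≤ 1) (hq : 10 ^ 10 * (44 / c ^ 12) ^ 12 ≤ (Fintype.card F : ℝ))
    (hq' : 10 ^ 10 / c ^ 12 ≤ (Fintype.card F : ℝ)) (P : PsR c D R mn cd) (G : Sel R mn cd) :
    ((G.Pi.filter (fun f => G.Bad3 f)).card : ℝ) ≤ (G.Pi.card : ℝ) / 8 := by
  set q : ℝ := (Fintype.card F : ℝ) with hqdef
  set A : ℝ := 44 / c ^ 12 with hAdef
  obtain ⟨hq0, hq1, hq3⟩ := NB2_num q A (NB2_A hc hc1) hq
  have hA := NB2_A (c := c) hc hc1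
  rw [← hAdef] at hA
  have hPi : 0 ≤ (G.Pi.card : ℝ) := Nat.cast_nonneg _
  have hX : 0 ≤ (A / q) ^ 5 * (G.Pi.card : ℝ) := by positivity
  have key : ((G.Pi.filter (fun f => G.Bad3 f)).card : ℝ) ≤
      (q + 1) * (2 * ((q + 1) * (2001 ^ 5 * ((A / q) ^ 5 * (G.Pi.card : ℝ))))) := by
    rw [← NB2c_eq]
    have hsub : ∀ f, G.Bad3 f → (∃ i ∈ (univ : Finset (Option F)), ∃ e ∈ (univ : Finset (Fin 2)),
          ∃ v ∈ ((univ : Finset (Option F)).image (fun i' => ptl (G.M i e) i')).filter (fun v => v ∉ R),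
          ∃ T ∈ powersetCard 5 (onP R i), ∀ t ∈ T, G.sees t v (f (G.own t))) := by
      rintro f ⟨i, e, v, T, hv, hve, hT, hTc, hs⟩
      exact ⟨i, mem_univ _, e, mem_univ _, v,
        mem_filter.mpr ⟨mem_image.mpr ⟨v.1, mem_univ _, (eq_ptl hve).symm⟩, hv⟩, T,
        mem_powersetCard.mpr ⟨hT, hTc⟩, hs⟩
    refine le_trans (NB2c_mono G.Pi _ _ hsub) ?_
    refine NB2_union G.Pi univ (fun i f => ∃ e ∈ (univ : Finset (Fin 2)),
          ∃ v ∈ ((univ : Finset (Option F)).image (fun i' => ptl (G.M i e) i')).filter (fun v => v ∉ R),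
          ∃ T ∈ powersetCard 5 (onP R i), ∀ t ∈ T, G.sees t v (f (G.own t))) _ ?_ _ (le_of_eq NB2_cardO) (by positivity)
    intro i _
    refine NB2_union G.Pi univ (fun e f =>
          ∃ v ∈ ((univ : Finset (Option F)).image (fun i' => ptl (G.M i e) i')).filter (fun v => v ∉ R),
          ∃ T ∈ powersetCard 5 (onP R i), ∀ t ∈ T, G.sees t v (f (G.own t))) _ ?_ _ (by simp) (by positivity)
    intro e _
    refine NB2_union G.Pi (((univ : Finset (Option F)).image (fun i' => ptl (G.M i e) i')).filter (fun v => v ∉ R))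
      (fun v f => ∃ T ∈ powersetCard 5 (onP R i), ∀ t ∈ T, G.sees t v (f (G.own t))) _ ?_ _ ?_ (by positivity)
    · intro v hv
      refine NB2_union G.Pi (powersetCard 5 (onP R i)) (fun T f => ∀ t ∈ T, G.sees t v (f (G.own t))) _ ?_ _
        (NB2_pow P i 5) hX
      intro T hT
      obtain ⟨hT1, hT2⟩ := mem_powersetCard.mp hT
      have hinj : Set.InjOn G.own (T : Set (Pt F)) := by
        apply (G.own_inj_part P i).mono
        intro t ht
        exact (mem_filter.mp (hT1 (mem_coe.mp ht))).2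
      have h := prob_sees hc hc1 hq' P G T (fun t ht => (mem_filter.mp (hT1 ht)).1) hinj v (mem_filter.mp hv).2
      rw [hT2, ← NB2c_eq] at h
      exact h
    · have h1 : ((((univ : Finset (Option F)).image (fun i' => ptl (G.M i e) i')).filter (fun v => v ∉ R)).card : ℝ)
          ≤ ((univ : Finset (Option F)).card : ℝ) := by
        exact_mod_cast (card_le_card (filter_subset _ _)).trans card_image_le
      rw [NB2_cardO] at h1
      exact h1
  refine key.trans ?_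
  have e1 : (q + 1) * (2 * ((q + 1) * (2001 ^ 5 * ((A / q) ^ 5 * (G.Pi.card : ℝ))))) =
      ((q + 1) ^ 2 * 2 * 2001 ^ 5 * A ^ 5 / q ^ 5) * (G.Pi.card : ℝ) := by
    field_simp
  rw [e1]
  have e2 : (q + 1) ^ 2 * 2 * 2001 ^ 5 * A ^ 5 / q ^ 5 ≤ 1 / 8 := by
    rw [div_le_iff₀ (by positivity)]
    have h1 : (q + 1) ^ 2 ≤ 4 * q ^ 2 := by nlinarith
    have h5 : A ^ 5 ≤ A ^ 6 := pow_le_pow_right₀ (by linarith) (by norm_num)
    calc (q + 1) ^ 2 * 2 * 2001 ^ 5 * A ^ 5 ≤ 4 * q ^ 2 * 2 * 2001 ^ 5 * A ^ 5 := by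
          have : 0 ≤ (2001 : ℝ) ^ 5 * A ^ 5 := by positivity
          nlinarith
      _ ≤ 4 * q ^ 2 * 2 * 2001 ^ 5 * A ^ 6 := by
          have : 0 ≤ 4 * q ^ 2 * 2 * (2001 : ℝ) ^ 5 := by positivity
          exact mul_le_mul_of_nonneg_left h5 this
      _ ≤ 1 / 8 * (q ^ 2 * (10 ^ 30 * A ^ 6)) := by
          have : 0 ≤ q ^ 2 * A ^ 6 := by positivity
          nlinarith
      _ ≤ 1 / 8 * (q ^ 2 * q ^ 3) := by
          have : 0 ≤ q ^ 2 := by positivity
          nlinarith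
      _ = 1 / 8 * q ^ 5 := by ring
  calc _ ≤ 1 / 8 * (G.Pi.card : ℝ) := mul_le_mul_of_nonneg_right e2 hPi
    _ = (G.Pi.card : ℝ) / 8 := by ring

end

end Crest.Agent.RY
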