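/-
  RY_NB4 : the bad event 4 (task RY-N14)
-/
import Crest.Agent.RY_NB

set_option autoImplicit false

namespace Crest.Agent.RY
open Finset Classical

section
variable {F : Type} [Field F] [Fintype F] [DecidableEq F]
variable {R : Finset (Pt F)} {mn : Option F → Pt F} {cd : Option F → Finset (Ln F)} {c : ℝ} {D : ℕ}

/-- PROOF: union over `i` (`q+1`), `v ∉ R` (at most `(q+1) q`), `T ∈ powersetCard 5 ((onP R i).erase (mn i))` (at most
`2001^5`); `G.own` is injective on `T` and different from `inl i` (`own_inj_part`, `own_ne`); `prob_sees_lab`: probability at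
most `(A/q)^6`.  Total at most `4 q^3 2001^5 A^6 / q^6 ≤ 1/8`. -/
theorem card_bad4 (hc : 0 < c) (hc1 : c ≤ 1) (hq : 10 ^ 10 * (44 / c ^ 12) ^ 12 ≤ (Fintype.card F : ℝ))
    (hq' : 10 ^ 10 / c ^ 12 ≤ (Fintype.card F : ℝ)) (P : PsR c D R mn cd) (G : Sel R mn cd) :
    ((G.Pi.filter (fun f => G.Bad4 f)).card : ℝ) ≤ (G.Pi.card : ℝ) / 8 := by
  set q : ℝ := (Fintype.card F : ℝ) with hqdef
  have hA1 : (1 : ℝ) ≤ 44 / c ^ 12 := by
    rw [le_div_iff₀ (by positivity)]
    have : c ^ 12 ≤ 1 := pow_le_one₀ hc.le hc1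
    linarith
  obtain ⟨A, hA⟩ : ∃ A : ℝ, A = 44 / c ^ 12 := ⟨_, rfl⟩
  rw [← hA] at hA1 hq
  have hA12 : (1 : ℝ) ≤ A ^ 12 := one_le_pow₀ hA1
  have hq10 : (10 : ℝ) ^ 10 ≤ q := by nlinarith
  have hq0 : 0 < q := by linarith [show (0 : ℝ) < 10 ^ 10 by norm_num]
  have hPi : (0 : ℝ) ≤ (G.Pi.card : ℝ) := Nat.cast_nonneg _
  have hcov : G.Pi.filter (fun f => G.Bad4 f) ⊆
      (univ : Finset (Option F)).biUnion fun i =>
        (univ.filter (fun v : Pt F => v ∉ R)).biUnion fun v =>
          (powersetCard 5 ((onP R i).erase (mn i))).biUnion fun T =>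
            G.Pi.filter (fun f => G.lab i v (f (Sum.inl i)) ∧ ∀ t ∈ T, G.sees t v (f (G.own t))) := by
    intro f hf
    obtain ⟨hf1, i, v, T, hv, hl, hT, h5, hs⟩ := mem_filter.mp hf
    simp only [mem_biUnion, mem_univ, true_and, mem_filter, mem_powersetCard]
    exact ⟨i, v, hv, T, ⟨hT, h5⟩, hf1, hl, hs⟩
  have hterm : ∀ (i : Option F) (v : Pt F), v ∉ R → ∀ T ∈ powersetCard 5 ((onP R i).erase (mn i)),
      ((G.Pi.filter (fun f => G.lab i v (f (Sum.inl i)) ∧
        ∀ t ∈ T, G.sees t v (f (G.own t)))).card : ℝ) ≤ (A / q) ^ 6 * (G.Pi.card : ℝ) := by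
    intro i v hv T hT
    obtain ⟨hT1, hT5⟩ := mem_powersetCard.mp hT
    have hTR : T ⊆ R := fun t ht => (mem_onP.mp (mem_of_mem_erase (hT1 ht))).1
    have hTi : ∀ t ∈ T, t.1 = i := fun t ht => (mem_onP.mp (mem_of_mem_erase (hT1 ht))).2
    have hinj : Set.InjOn G.own (T : Set (Pt F)) :=
      (G.own_inj_part P i).mono (fun t ht => hTi t ht)
    have hne : ∀ t ∈ T, G.own t ≠ Sum.inl i := fun t ht =>
      G.own_ne P (hTi t ht) (ne_of_mem_erase (hT1 ht))
    have := prob_sees_lab hc hc1 hq' P G T hTR hinj i hne v hv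
    rw [hT5, ← hA] at this
    exact this
  have hcount : ((G.Pi.filter (fun f => G.Bad4 f)).card : ℝ) ≤
      ((q + 1) * ((q + 1) * q)) * 2001 ^ 5 * ((A / q) ^ 6 * (G.Pi.card : ℝ)) := by
    have hX : 0 ≤ (A / q) ^ 6 * (G.Pi.card : ℝ) := by positivity
    have s1 : ∀ (i : Option F) (v : Pt F), v ∉ R →
        (((powersetCard 5 ((onP R i).erase (mn i))).biUnion fun T =>
            G.Pi.filter (fun f => G.lab i v (f (Sum.inl i)) ∧
              ∀ t ∈ T, G.sees t v (f (G.own t)))).card : ℝ) ≤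
          2001 ^ 5 * ((A / q) ^ 6 * (G.Pi.card : ℝ)) := by
      intro i v hv
      calc (((powersetCard 5 ((onP R i).erase (mn i))).biUnion fun T =>
            G.Pi.filter (fun f => G.lab i v (f (Sum.inl i)) ∧
              ∀ t ∈ T, G.sees t v (f (G.own t)))).card : ℝ)
          ≤ ∑ T ∈ powersetCard 5 ((onP R i).erase (mn i)),
            ((G.Pi.filter (fun f => G.lab i v (f (Sum.inl i)) ∧
              ∀ t ∈ T, G.sees t v (f (G.own t)))).card : ℝ) := by
            exact_mod_cast card_biUnion_le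
        _ ≤ ∑ T ∈ powersetCard 5 ((onP R i).erase (mn i)), (A / q) ^ 6 * (G.Pi.card : ℝ) :=
            sum_le_sum fun T hT => hterm i v hv T hT
        _ = ((powersetCard 5 ((onP R i).erase (mn i))).card : ℝ) *
            ((A / q) ^ 6 * (G.Pi.card : ℝ)) := by rw [sum_const, nsmul_eq_mul]
        _ ≤ 2001 ^ 5 * ((A / q) ^ 6 * (G.Pi.card : ℝ)) := by
            apply mul_le_mul_of_nonneg_right _ hX
            have h1 : (powersetCard 5 ((onP R i).erase (mn i))).card ≤ 2001 ^ 5 := by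
              rw [card_powersetCard]
              refine (Nat.choose_le_pow _ _).trans (Nat.pow_le_pow_left ?_ 5)
              exact (card_erase_le).trans (P.part_le i)
            exact_mod_cast h1
    have s2 : ∀ i : Option F,
        (((univ.filter (fun v : Pt F => v ∉ R)).biUnion fun v =>
          (powersetCard 5 ((onP R i).erase (mn i))).biUnion fun T =>
            G.Pi.filter (fun f => G.lab i v (f (Sum.inl i)) ∧
              ∀ t ∈ T, G.sees t v (f (G.own t)))).card : ℝ) ≤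
          ((q + 1) * q) * (2001 ^ 5 * ((A / q) ^ 6 * (G.Pi.card : ℝ))) := by
      intro i
      calc _ ≤ ∑ v ∈ univ.filter (fun v : Pt F => v ∉ R),
            (((powersetCard 5 ((onP R i).erase (mn i))).biUnion fun T =>
            G.Pi.filter (fun f => G.lab i v (f (Sum.inl i)) ∧
              ∀ t ∈ T, G.sees t v (f (G.own t)))).card : ℝ) := by
            exact_mod_cast card_biUnion_le
        _ ≤ ∑ v ∈ univ.filter (fun v : Pt F => v ∉ R),
            2001 ^ 5 * ((A / q) ^ 6 * (G.Pi.card : ℝ)) :=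
            sum_le_sum fun v hv => s1 i v (mem_filter.mp hv).2
        _ = ((univ.filter (fun v : Pt F => v ∉ R)).card : ℝ) *
            (2001 ^ 5 * ((A / q) ^ 6 * (G.Pi.card : ℝ))) := by rw [sum_const, nsmul_eq_mul]
        _ ≤ _ := by
            apply mul_le_mul_of_nonneg_right _ (by positivity)
            have h1 : (univ.filter (fun v : Pt F => v ∉ R)).card ≤
                (Fintype.card F + 1) * Fintype.card F := by
              refine (card_filter_le _ _).trans ?_
              rw [card_univ, Fintype.card_prod, Fintype.card_option]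
            have h2 : ((univ.filter (fun v : Pt F => v ∉ R)).card : ℝ) ≤
                (((Fintype.card F + 1) * Fintype.card F : ℕ) : ℝ) := by exact_mod_cast h1
            push_cast at h2
            exact h2
    calc ((G.Pi.filter (fun f => G.Bad4 f)).card : ℝ)
        ≤ (((univ : Finset (Option F)).biUnion fun i =>
        (univ.filter (fun v : Pt F => v ∉ R)).biUnion fun v =>
          (powersetCard 5 ((onP R i).erase (mn i))).biUnion fun T =>
            G.Pi.filter (fun f => G.lab i v (f (Sum.inl i)) ∧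
              ∀ t ∈ T, G.sees t v (f (G.own t)))).card : ℝ) := by
          exact_mod_cast card_le_card hcov
      _ ≤ ∑ i : Option F, (((univ.filter (fun v : Pt F => v ∉ R)).biUnion fun v =>
          (powersetCard 5 ((onP R i).erase (mn i))).biUnion fun T =>
            G.Pi.filter (fun f => G.lab i v (f (Sum.inl i)) ∧
              ∀ t ∈ T, G.sees t v (f (G.own t)))).card : ℝ) := by
          exact_mod_cast card_biUnion_le
      _ ≤ ∑ i : Option F, ((q + 1) * q) * (2001 ^ 5 * ((A / q) ^ 6 * (G.Pi.card : ℝ))) :=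
          sum_le_sum fun i _ => s2 i
      _ = ((q + 1) * ((q + 1) * q)) * 2001 ^ 5 * ((A / q) ^ 6 * (G.Pi.card : ℝ)) := by
          rw [sum_const, nsmul_eq_mul, card_univ, Fintype.card_option]
          push_cast
          rw [← hqdef]
          ring
  refine hcount.trans ?_
  have hq1 : q + 1 ≤ 2 * q := by linarith [show (1 : ℝ) ≤ 10 ^ 10 by norm_num]
  have hcoef : ((q + 1) * ((q + 1) * q)) * 2001 ^ 5 * (A / q) ^ 6 ≤ 1 / 8 := by
    have e1 : ((q + 1) * ((q + 1) * q)) ≤ 4 * q ^ 3 := by nlinarith [mul_pos hq0 hq0]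
    have e2 : (A / q) ^ 6 = A ^ 6 / q ^ 6 := by rw [div_pow]
    have e3 : 32 * 2001 ^ 5 * A ^ 6 ≤ q ^ 3 := by
      have a1 : A ^ 6 ≤ A ^ 12 := pow_le_pow_right₀ hA1 (by norm_num)
      have a2 : 10 ^ 10 * A ^ 6 ≤ q := le_trans (by gcongr) hq
      have a3 : (10 ^ 10 : ℝ) * 10 ^ 10 * (10 ^ 10 * A ^ 6) ≤ q * q * q := by gcongr
      have a4 : (0 : ℝ) ≤ A ^ 6 := by positivity
      nlinarith
    rw [e2]
    calc ((q + 1) * ((q + 1) * q)) * 2001 ^ 5 * (A ^ 6 / q ^ 6)
        ≤ (4 * q ^ 3) * 2001 ^ 5 * (A ^ 6 / q ^ 6) := by gcongr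
      _ = 4 * 2001 ^ 5 * A ^ 6 / q ^ 3 := by field_simp
      _ ≤ 1 / 8 := by
          rw [div_le_iff₀ (by positivity)]
          linarith
  calc ((q + 1) * ((q + 1) * q)) * 2001 ^ 5 * ((A / q) ^ 6 * (G.Pi.card : ℝ))
      = (((q + 1) * ((q + 1) * q)) * 2001 ^ 5 * (A / q) ^ 6) * (G.Pi.card : ℝ) := by ring
    _ ≤ 1 / 8 * (G.Pi.card : ℝ) := mul_le_mul_of_nonneg_right hcoef hPi
    _ = (G.Pi.card : ℝ) / 8 := by ring

end

end Crest.Agent.RY
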