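/-
  RY_NE : existence of a good choice (from the bounds for the bad events)
-/
import Crest.Agent.RY_NB1
import Crest.Agent.RY_NB2
import Crest.Agent.RY_NB4

set_option autoImplicit false

namespace Crest.Agent.RY
open Finset Classical

section
variable {F : Type} [Field F] [Fintype F] [DecidableEq F]
variable {R : Finset (Pt F)} {mn : Option F → Pt F} {cd : Option F → Finset (Ln F)} {c : ℝ} {D : ℕ}

theorem exists_choice (hc : 0 < c) (hc1 : c ≤ 1) (hq : 10 ^ 10 * (44 / c ^ 12) ^ 12 ≤ (Fintype.card F : ℝ))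
    (hq' : 10 ^ 10 / c ^ 12 ≤ (Fintype.card F : ℝ)) (P : PsR c D R mn cd) (G : Sel R mn cd) :
    ∃ f : Ow F → (Fin 12 → F), (∀ o, f o ∈ G.Om o) ∧ ¬ G.Bad1 f ∧ ¬ G.Bad2 f ∧ ¬ G.Bad3 f ∧ ¬ G.Bad4 f := by
  by_contra hcon
  have hcov : G.Pi ⊆ (G.Pi.filter (fun f => G.Bad1 f)) ∪ (G.Pi.filter (fun f => G.Bad2 f)) ∪
      (G.Pi.filter (fun f => G.Bad3 f)) ∪ (G.Pi.filter (fun f => G.Bad4 f)) := by
    intro f hf
    by_contra hno
    apply hcon
    simp only [mem_union, mem_filter, hf, true_and, not_or] at hno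
    exact ⟨f, Sel.mem_Pi.mp hf, hno.1.1.1, hno.1.1.2, hno.1.2, hno.2⟩
  have h1 := card_le_card hcov
  have h2 := card_union_le ((G.Pi.filter (fun f => G.Bad1 f)) ∪ (G.Pi.filter (fun f => G.Bad2 f)) ∪
      (G.Pi.filter (fun f => G.Bad3 f))) (G.Pi.filter (fun f => G.Bad4 f))
  have h3 := card_union_le ((G.Pi.filter (fun f => G.Bad1 f)) ∪ (G.Pi.filter (fun f => G.Bad2 f)))
      (G.Pi.filter (fun f => G.Bad3 f))
  have h4 := card_union_le (G.Pi.filter (fun f => G.Bad1 f)) (G.Pi.filter (fun f => G.Bad2 f))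
  have h5 : (G.Pi.card : ℝ) ≤ (G.Pi.filter (fun f => G.Bad1 f)).card + (G.Pi.filter (fun f => G.Bad2 f)).card +
      (G.Pi.filter (fun f => G.Bad3 f)).card + (G.Pi.filter (fun f => G.Bad4 f)).card := by
    exact_mod_cast (by omega : G.Pi.card ≤ (G.Pi.filter (fun f => G.Bad1 f)).card +
      (G.Pi.filter (fun f => G.Bad2 f)).card +
      (G.Pi.filter (fun f => G.Bad3 f)).card + (G.Pi.filter (fun f => G.Bad4 f)).card)
  have b1 := card_bad1 hc hc1 hq hq' P G
  have b2 := card_bad2 hc hc1 hq hq' P G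
  have b3 := card_bad3 hc hc1 hq hq' P G
  have b4 := card_bad4 hc hc1 hq hq' P G
  have hpos := G.Pi_pos hc hc1 hq' P
  linarith

end

end Crest.Agent.RY
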