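/-
  RY_NIT : existence of independent transversals (class size >= 4 * max degree), counting proof.
-/
import Mathlib

set_option autoImplicit false

namespace Crest.Agent.RY
open Finset Classical

/-- transversals which are independent on `B` -/
noncomputable def NITI {ι α : Type} [Fintype ι] (V : ι → Finset α) (adj : ι → α → ι → α → Prop)
    (B : Finset ι) : Finset (ι → α) :=
  (Fintype.piFinset V).filter (fun f => ∀ j ∈ B, ∀ k ∈ B, j ≠ k → ¬ adj j (f j) k (f k))

theorem NITI_mem {ι α : Type} [Fintype ι] (V : ι → Finset α) (adj : ι → α → ι → α → Prop)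
    (B : Finset ι) (f : ι → α) : f ∈ NITI V adj B ↔
      (∀ i, f i ∈ V i) ∧ ∀ j ∈ B, ∀ k ∈ B, j ≠ k → ¬ adj j (f j) k (f k) := by
  unfold NITI
  rw [mem_filter, Fintype.mem_piFinset]

theorem NIT_swap {ι α : Type} [Fintype ι] [DecidableEq ι] (V : ι → Finset α)
    (adj : ι → α → ι → α → Prop) (B : Finset ι) (i j : ι) (hij : i ≠ j) (hi : i ∉ B) (hj : j ∉ B) :
    ((NITI V adj B).filter (fun f => adj i (f i) j (f j))).card * ((V i).card * (V j).card) =
      (NITI V adj B).card * ((V i ×ˢ V j).filter (fun x => adj i x.1 j x.2)).card := by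
  rw [← card_product (V i) (V j), ← card_product, ← card_product]
  have hup : ∀ (f : ι → α) (a b : α), (∀ k, f k ∈ V k) → a ∈ V i → b ∈ V j →
      (∀ k, Function.update (Function.update f i a) j b k ∈ V k) := by
    intro f a b hf ha hb k
    by_cases hkj : k = j
    · subst hkj; rw [Function.update_self]; exact hb
    · rw [Function.update_of_ne hkj]
      by_cases hki : k = i
      · subst hki; rw [Function.update_self]; exact ha
      · rw [Function.update_of_ne hki]; exact hf k
  have hB : ∀ (f : ι → α) (a b : α) (k : ι), k ∈ B →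
      Function.update (Function.update f i a) j b k = f k := by
    intro f a b k hk
    have h1 : k ≠ j := fun h => hj (h ▸ hk)
    have h2 : k ≠ i := fun h => hi (h ▸ hk)
    rw [Function.update_of_ne h1, Function.update_of_ne h2]
  have hvi : ∀ (f : ι → α) (a b : α), Function.update (Function.update f i a) j b i = a := by
    intro f a b
    rw [Function.update_of_ne hij, Function.update_self]
  have hvj : ∀ (f : ι → α) (a b : α), Function.update (Function.update f i a) j b j = b := by
    intro f a b
    rw [Function.update_self]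
  have hinv : ∀ (f : ι → α) (a b : α),
      Function.update (Function.update (Function.update (Function.update f i a) j b) i (f i)) j (f j) = f := by
    intro f a b
    funext k
    by_cases hkj : k = j
    · subst hkj; rw [Function.update_self]
    · rw [Function.update_of_ne hkj]
      by_cases hki : k = i
      · subst hki; rw [Function.update_self]
      · rw [Function.update_of_ne hki, Function.update_of_ne hkj, Function.update_of_ne hki]
  refine card_nbij' (fun x => (Function.update (Function.update x.1 i x.2.1) j x.2.2, (x.1 i, x.1 j)))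
    (fun x => (Function.update (Function.update x.1 i x.2.1) j x.2.2, (x.1 i, x.1 j))) ?_ ?_ ?_ ?_
  · rintro ⟨f, a, b⟩ h
    simp only [coe_product, Set.mem_prod, mem_coe, mem_filter, NITI_mem, mem_product] at h ⊢
    obtain ⟨⟨⟨hf, hind⟩, hadj⟩, ha, hb⟩ := h
    refine ⟨⟨hup f a b hf ha hb, ?_⟩, ⟨hf i, hf j⟩, hadj⟩
    intro k hk k' hk' hne
    rw [hB f a b k hk, hB f a b k' hk']
    exact hind k hk k' hk' hne
  · rintro ⟨f, a, b⟩ h
    simp only [coe_product, Set.mem_prod, mem_coe, mem_filter, NITI_mem, mem_product] at h ⊢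
    obtain ⟨⟨hf, hind⟩, ⟨ha, hb⟩, hadj⟩ := h
    refine ⟨⟨⟨hup f a b hf ha hb, ?_⟩, ?_⟩, hf i, hf j⟩
    · intro k hk k' hk' hne
      rw [hB f a b k hk, hB f a b k' hk']
      exact hind k hk k' hk' hne
    · rw [hvi, hvj]; exact hadj
  · rintro ⟨f, a, b⟩ _
    simp only [hinv, hvi, hvj]
  · rintro ⟨f, a, b⟩ _
    simp only [hinv, hvi, hvj]

theorem NIT_key {ι α : Type} [Fintype ι] [DecidableEq ι] (V : ι → Finset α)
    (adj : ι → α → ι → α → Prop) (hsymm : ∀ i a j b, adj i a j b → adj j b i a) (Δ : ℕ) (hΔ : 1 ≤ Δ)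
    (hV : ∀ i, 4 * Δ ≤ (V i).card)
    (hdeg : ∀ i, ∀ a ∈ V i, ∑ j ∈ univ.erase i, ((V j).filter (fun b => adj i a j b)).card ≤ Δ)
    (n : ℕ) : ∀ (A : Finset ι), A.card = n → ∀ i, i ∉ A →
      (NITI V adj A).card ≤ 2 * (NITI V adj (insert i A)).card := by
  induction n using Nat.strong_induction_on with
  | _ n ih =>
    intro A hA i hi
    set bad : ι → Finset (ι → α) := fun j =>
      (NITI V adj (A.erase j)).filter (fun f => adj i (f i) j (f j)) with hbad
    have hsub : NITI V adj A ⊆ NITI V adj (insert i A) ∪ A.biUnion bad := by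
      intro f hf
      rw [NITI_mem] at hf
      obtain ⟨hfV, hind⟩ := hf
      by_cases h : ∃ j ∈ A, adj i (f i) j (f j)
      · obtain ⟨j, hj, hadj⟩ := h
        rw [mem_union]
        right
        rw [mem_biUnion]
        refine ⟨j, hj, ?_⟩
        rw [hbad]
        simp only [mem_filter, NITI_mem]
        exact ⟨⟨hfV, fun k hk k' hk' hne => hind k (mem_of_mem_erase hk) k' (mem_of_mem_erase hk') hne⟩, hadj⟩
      · push Not at h
        rw [mem_union]
        left
        rw [NITI_mem]
        refine ⟨hfV, ?_⟩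
        intro k hk k' hk' hne hadj
        rw [mem_insert] at hk hk'
        rcases hk with rfl | hk
        · rcases hk' with rfl | hk'
          · exact hne rfl
          · exact h k' hk' hadj
        · rcases hk' with rfl | hk'
          · exact h k hk (hsymm _ _ _ _ hadj)
          · exact hind k hk k' hk' hne hadj
    have h1 : (NITI V adj A).card ≤ (NITI V adj (insert i A)).card + ∑ j ∈ A, (bad j).card :=
      (card_le_card hsub).trans ((card_union_le _ _).trans (Nat.add_le_add_left card_biUnion_le _))
    -- bound of each bad set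
    have h2 : ∀ j ∈ A, 4 * Δ * (V i).card * (bad j).card ≤
        2 * (NITI V adj A).card * ((V i ×ˢ V j).filter (fun x => adj i x.1 j x.2)).card := by
      intro j hj
      have hij : i ≠ j := fun h => hi (h ▸ hj)
      have hsw := NIT_swap V adj (A.erase j) i j hij (fun h => hi (mem_of_mem_erase h)) (notMem_erase j A)
      have hih := ih (A.erase j).card (by rw [← hA]; exact card_erase_lt_of_mem hj) (A.erase j) rfl j
        (notMem_erase j A)
      rw [insert_erase hj] at hih
      calc 4 * Δ * (V i).card * (bad j).card ≤ (V j).card * (V i).card * (bad j).card := by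
            gcongr
            exact hV j
        _ = (bad j).card * ((V i).card * (V j).card) := by ring
        _ = (NITI V adj (A.erase j)).card * ((V i ×ˢ V j).filter (fun x => adj i x.1 j x.2)).card := hsw
        _ ≤ _ := by gcongr
    have h3 : ∑ j ∈ A, ((V i ×ˢ V j).filter (fun x => adj i x.1 j x.2)).card ≤ (V i).card * Δ := by
      have h4 : ∀ j, ((V i ×ˢ V j).filter (fun x => adj i x.1 j x.2)).card =
          ∑ a ∈ V i, ((V j).filter (fun b => adj i a j b)).card := by
        intro j
        rw [card_filter, sum_product]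
        refine sum_congr rfl fun a _ => ?_
        rw [card_filter]
      rw [sum_congr rfl (fun j _ => h4 j), sum_comm]
      calc ∑ a ∈ V i, ∑ j ∈ A, ((V j).filter (fun b => adj i a j b)).card
          ≤ ∑ a ∈ V i, ∑ j ∈ univ.erase i, ((V j).filter (fun b => adj i a j b)).card := by
            refine sum_le_sum fun a _ => ?_
            refine sum_le_sum_of_subset ?_
            intro j hj
            rw [mem_erase]
            exact ⟨fun h => hi (h ▸ hj), mem_univ _⟩
        _ ≤ ∑ _a ∈ V i, Δ := sum_le_sum fun a ha => hdeg i a ha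
        _ = (V i).card * Δ := by rw [sum_const, smul_eq_mul]
    have h5 : 4 * Δ * (V i).card * ∑ j ∈ A, (bad j).card ≤ 2 * (NITI V adj A).card * ((V i).card * Δ) := by
      rw [mul_sum]
      calc ∑ j ∈ A, 4 * Δ * (V i).card * (bad j).card
          ≤ ∑ j ∈ A, 2 * (NITI V adj A).card * ((V i ×ˢ V j).filter (fun x => adj i x.1 j x.2)).card :=
            sum_le_sum h2
        _ = 2 * (NITI V adj A).card * ∑ j ∈ A, ((V i ×ˢ V j).filter (fun x => adj i x.1 j x.2)).card := by
            rw [mul_sum]
        _ ≤ _ := by gcongr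
    have h6 : 0 < Δ * (V i).card := Nat.mul_pos hΔ (lt_of_lt_of_le (by omega) (hV i))
    have h7 : 4 * ∑ j ∈ A, (bad j).card ≤ 2 * (NITI V adj A).card := by
      refine Nat.le_of_mul_le_mul_left ?_ h6
      calc Δ * (V i).card * (4 * ∑ j ∈ A, (bad j).card) = 4 * Δ * (V i).card * ∑ j ∈ A, (bad j).card := by ring
        _ ≤ 2 * (NITI V adj A).card * ((V i).card * Δ) := h5
        _ = Δ * (V i).card * (2 * (NITI V adj A).card) := by ring
    omega

theorem exists_IT {ι α : Type} [Fintype ι] [DecidableEq ι] [DecidableEq α] (V : ι → Finset α)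
    (adj : ι → α → ι → α → Prop) (hsymm : ∀ i a j b, adj i a j b → adj j b i a) (Δ : ℕ) (hΔ : 1 ≤ Δ)
    (hV : ∀ i, 4 * Δ ≤ (V i).card)
    (hdeg : ∀ i, ∀ a ∈ V i, ∑ j ∈ Finset.univ.erase i, ((V j).filter (fun b => adj i a j b)).card ≤ Δ) :
    ∃ f : ι → α, (∀ i, f i ∈ V i) ∧ ∀ i j, i ≠ j → ¬ adj i (f i) j (f j) := by
  have hdeg' : ∀ i, ∀ a ∈ V i, ∑ j ∈ univ.erase i, ((V j).filter (fun b => adj i a j b)).card ≤ Δ := by
    intro i a ha
    convert hdeg i a ha
  have h : ∀ A : Finset ι, (NITI V adj A).Nonempty := by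
    intro A
    induction A using Finset.induction_on with
    | empty =>
      have : ∀ i, ∃ a, a ∈ V i := fun i =>
        card_pos.mp (lt_of_lt_of_le (by omega) (hV i))
      choose f hf using this
      exact ⟨f, (NITI_mem V adj ∅ f).mpr ⟨hf, fun j hj => absurd hj (notMem_empty j)⟩⟩
    | insert i A hi ih =>
      have h1 := NIT_key V adj hsymm Δ hΔ hV hdeg' A.card A rfl i hi
      rw [← card_pos] at ih ⊢
      omega
  obtain ⟨f, hf⟩ := h univ
  rw [NITI_mem] at hf
  exact ⟨f, hf.1, fun i j hij => hf.2 i (mem_univ i) j (mem_univ j) hij⟩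

end Crest.Agent.RY
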