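/-
  RY_NSelM : existence of the selected M-lines (task RY-N2)
-/
import Crest.Agent.RY_NDef
import Crest.Agent.RY_NIT

set_option autoImplicit false

namespace Crest.Agent.RY
open Finset Classical

section
variable {F : Type} [Field F] [Fintype F] [DecidableEq F]
variable {R : Finset (Pt F)} {mn : Option F → Pt F} {cd : Option F → Finset (Ln F)} {c : ℝ} {D : ℕ}

/-- (task RY-N2) selection of the M-lines.
PROOF: `exists_IT` with `ι = Option F × Fin 2`, `α = Ln F`, `V p = cd p.1`, `Δ = 22 * D + 25000` and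
`adj (i,c) l (i',c') l' := (i ≠ i' ∧ ∃ t ∈ R, t ≠ mn t.1 ∧ on t l ∧ on t l' ∧ l ∈ cd i ∧ l' ∈ cd i') ∨
 (i = i' ∧ ∃ t ∈ onL R l, ∃ t' ∈ onL R l', t ≠ mn i ∧ t' ≠ mn i ∧ t.1 = t'.1)`.
Degree of `(i,c,l)`: for the first alternative sum over the (at most 12) points `t ∈ onL R l`, `t ≠ mn t.1`,
there are at most `D` pairs `(i',l')` (a line `l'` is in `cd i'` for at most one `i'`, because the only main point on it is
`mn i'`), times 2 for `c'`: use only the 11 points `≠ mn i` (all of them are non-main by `cd_main`): `22 D`.  For the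
second: 11 points `t`, at most 2001 points `t'` in the part `t.1`, at most one line through `mn i` and `t'`: `11 * 2001 ≤ 25000`.
`4 Δ = 88 D + 100000 ≤ |cd i|` by `cand_ge`.
CONCLUSION: `M (i,c)`; `M i 0 ≠ M i 1` because otherwise a slot `t` of `M i 0` gives a conflict with itself
(there is a slot since the card is 12). -/
theorem exists_M (P : PsR c D R mn cd) : ∃ M : Option F → Fin 2 → Ln F,
    (∀ i e, M i e ∈ cd i) ∧ (∀ i, M i 0 ≠ M i 1) ∧
    (∀ i i' e e', i ≠ i' → ∀ t ∈ R, t ≠ mn t.1 → on t (M i e) → ¬ on t (M i' e')) ∧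
    (∀ i, ∀ t ∈ onL R (M i 0), ∀ t' ∈ onL R (M i 1), t ≠ mn i → t' ≠ mn i → t.1 ≠ t'.1) := by
  have huniq : ∀ i i' l, l ∈ cd i → l ∈ cd i' → i = i' := by
    intro i i' l h h'
    by_contra hne
    have h1 : mn i' ∈ onL R l := mem_onL.mpr ⟨P.mn_mem i', P.cd_on i' l h'⟩
    have h2 : mn i' ≠ mn i := by
      intro h0; apply hne; rw [← P.mn_part i, ← P.mn_part i', h0]
    have h3 := P.cd_main i l h (mn i') h1 h2
    rw [P.mn_part i'] at h3
    exact h3 rfl
  let adj : Option F × Fin 2 → Ln F → Option F × Fin 2 → Ln F → Prop := fun p l p' l' =>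
    (p.1 ≠ p'.1 ∧ ∃ t ∈ R, t ≠ mn t.1 ∧ on t l ∧ on t l') ∨
    (p.1 = p'.1 ∧ ∃ t ∈ onL R l, ∃ t' ∈ onL R l', t ≠ mn p.1 ∧ t' ≠ mn p.1 ∧ t.1 = t'.1)
  have hsymm : ∀ i a j b, adj i a j b → adj j b i a := by
    intro i a j b h
    rcases h with ⟨h1, t, ht, h2, h3, h4⟩ | ⟨h1, t, ht, t', ht', h2, h3, h4⟩
    · exact Or.inl ⟨fun h => h1 h.symm, t, ht, h2, h4, h3⟩
    · refine Or.inr ⟨h1.symm, t', ht', t, ht, ?_, ?_, h4.symm⟩
      · rw [← h1]; exact h3
      · rw [← h1]; exact h2
  have hdeg : ∀ p, ∀ a ∈ cd (p : Option F × Fin 2).1,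
      ∑ p' ∈ Finset.univ.erase p, ((cd p'.1).filter (fun b => adj p a p' b)).card ≤ 22 * D + 25000 := by
    intro p a ha
    have hmnp : mn p.1 ∈ onL R a := mem_onL.mpr ⟨P.mn_mem p.1, P.cd_on p.1 a ha⟩
    have hTcard : ((onL R a).erase (mn p.1)).card = 11 := by
      rw [card_erase_of_mem hmnp, P.cd_card p.1 a ha]
    -- the first kind of conflicts
    have hA : ∑ p' ∈ Finset.univ.erase p, ((cd p'.1).filter (fun b => ∃ t ∈ (onL R a).erase (mn p.1), on t b)).card
        ≤ 22 * D := by
      rw [← card_sigma]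
      have hsub : ((Finset.univ.erase p).sigma
          (fun p' : Option F × Fin 2 => (cd p'.1).filter (fun b => ∃ t ∈ (onL R a).erase (mn p.1), on t b))) ⊆
          ((onL R a).erase (mn p.1)).biUnion (fun t => (Finset.univ : Finset (Option F × Fin 2)).sigma
            (fun p' => (cd p'.1).filter (fun b => on t b))) := by
        intro x hx
        rw [mem_sigma, mem_filter] at hx
        obtain ⟨-, hx1, t, ht, hx2⟩ := hx
        rw [mem_biUnion]
        refine ⟨t, ht, ?_⟩
        rw [mem_sigma, mem_filter]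
        exact ⟨mem_univ _, hx1, hx2⟩
      refine le_trans (card_le_card hsub) ?_
      have hb : ∀ t ∈ (onL R a).erase (mn p.1), ((Finset.univ : Finset (Option F × Fin 2)).sigma
            (fun p' => (cd p'.1).filter (fun b => on t b))).card ≤ 2 * D := by
        intro t ht
        rw [mem_erase] at ht
        have ht1 := P.cd_main p.1 a ha t ht.2 ht.1
        have htR : t ∈ R := (mem_onL.mp ht.2).1
        have h1 := P.cand_le t htR ht1
        have h2 : ((Finset.univ : Finset (Option F × Fin 2)).sigma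
            (fun p' => (cd p'.1).filter (fun b => on t b))).card ≤
            ((univ : Finset (Fin 2)) ×ˢ (univ.filter (fun l : Ln F => on t l ∧ ∃ i, l ∈ cd i))).card := by
          apply card_le_card_of_injOn (fun x => (x.1.2, x.2))
          · intro x hx
            have hx' := Finset.mem_coe.mp hx
            rw [mem_sigma, mem_filter] at hx'
            apply Finset.mem_coe.mpr
            rw [mem_product, mem_filter]
            exact ⟨mem_univ _, mem_univ _, hx'.2.2, x.1.1, hx'.2.1⟩
          · intro x hx y hy hxy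
            have hx' := Finset.mem_coe.mp hx
            have hy' := Finset.mem_coe.mp hy
            rw [mem_sigma, mem_filter] at hx' hy'
            obtain ⟨⟨i, e⟩, l⟩ := x
            obtain ⟨⟨i', e'⟩, l'⟩ := y
            simp only [Prod.mk.injEq] at hxy
            obtain ⟨h3, h4⟩ := hxy
            subst h3 h4
            have : i = i' := huniq i i' l hx'.2.1 hy'.2.1
            subst this
            rfl
        rw [card_product] at h2
        simp only [card_univ, Fintype.card_fin] at h2
        exact le_trans h2 (Nat.mul_le_mul_left 2 h1)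
      refine le_trans (card_biUnion_le_card_mul _ _ _ hb) ?_
      rw [hTcard]; omega
    -- the second kind
    have hB : ∑ p' ∈ Finset.univ.erase p, ((cd p'.1).filter (fun b => p.1 = p'.1 ∧
        ∃ t ∈ (onL R a).erase (mn p.1), ∃ t' ∈ onL R b, t' ≠ mn p.1 ∧ t.1 = t'.1)).card ≤ 22011 := by
      rw [← card_sigma]
      have h2 : ((Finset.univ.erase p).sigma (fun p' : Option F × Fin 2 =>
          (cd p'.1).filter (fun b => p.1 = p'.1 ∧
            ∃ t ∈ (onL R a).erase (mn p.1), ∃ t' ∈ onL R b, t' ≠ mn p.1 ∧ t.1 = t'.1))).card ≤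
          ((cd p.1).filter (fun b => ∃ t ∈ (onL R a).erase (mn p.1), ∃ t' ∈ onL R b,
            t' ≠ mn p.1 ∧ t.1 = t'.1)).card := by
        apply card_le_card_of_injOn (fun x => x.2)
        · intro x hx
          have hx' := Finset.mem_coe.mp hx
          rw [mem_sigma, mem_filter] at hx'
          apply Finset.mem_coe.mpr
          rw [mem_filter]
          refine ⟨?_, hx'.2.2.2⟩
          rw [hx'.2.2.1]; exact hx'.2.1
        · intro x hx y hy hxy
          have hx' := Finset.mem_coe.mp hx
          have hy' := Finset.mem_coe.mp hy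
          rw [mem_sigma, mem_filter, mem_erase] at hx' hy'
          obtain ⟨⟨i, e⟩, l⟩ := x
          obtain ⟨⟨i', e'⟩, l'⟩ := y
          obtain ⟨j, d⟩ := p
          simp only at hxy hx' hy'
          subst hxy
          have h3 : j = i := hx'.2.2.1
          have h4 : j = i' := hy'.2.2.1
          subst h3
          subst h4
          have h5 : e ≠ d := fun h => hx'.1.1 (by rw [h])
          have h6 : e' ≠ d := fun h => hy'.1.1 (by rw [h])
          have h7 : e = e' := by omega
          rw [h7]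
      refine le_trans h2 ?_
      have hsub : (cd p.1).filter (fun b => ∃ t ∈ (onL R a).erase (mn p.1), ∃ t' ∈ onL R b,
            t' ≠ mn p.1 ∧ t.1 = t'.1) ⊆ ((onL R a).erase (mn p.1)).biUnion
            (fun t => (onP R t.1).image (fun t' => lin (mn p.1) t')) := by
        intro b hb
        rw [mem_filter] at hb
        obtain ⟨hb1, t, ht, t', ht', h3, h4⟩ := hb
        rw [mem_biUnion]
        refine ⟨t, ht, ?_⟩
        rw [mem_image]
        have h5 := mem_onL.mp ht'
        refine ⟨t', mem_onP.mpr ⟨h5.1, h4.symm⟩, ?_⟩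
        exact lin_eq (fst_ne_of_on (P.cd_on p.1 b hb1) h5.2 h3.symm) (P.cd_on p.1 b hb1) h5.2
      refine le_trans (card_le_card hsub) ?_
      have hb : ∀ t ∈ (onL R a).erase (mn p.1),
          ((onP R t.1).image (fun t' => lin (mn p.1) t')).card ≤ 2001 := by
        intro t _
        exact le_trans card_image_le (P.part_le t.1)
      refine le_trans (card_biUnion_le_card_mul _ _ _ hb) ?_
      rw [hTcard]
    have hle : ∑ p' ∈ Finset.univ.erase p, ((cd p'.1).filter (fun b => adj p a p' b)).card ≤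
        ∑ p' ∈ Finset.univ.erase p, (((cd p'.1).filter (fun b => ∃ t ∈ (onL R a).erase (mn p.1), on t b)).card +
          ((cd p'.1).filter (fun b => p.1 = p'.1 ∧
            ∃ t ∈ (onL R a).erase (mn p.1), ∃ t' ∈ onL R b, t' ≠ mn p.1 ∧ t.1 = t'.1)).card) := by
      apply sum_le_sum
      intro p' _
      refine le_trans (card_le_card ?_) (card_union_le _ _)
      intro b hb
      rw [mem_filter] at hb
      obtain ⟨hb1, hb2⟩ := hb
      rw [mem_union]
      rcases hb2 with ⟨h1, t, ht, h2, h3, h4⟩ | ⟨h1, t, ht, t', ht', h2, h3, h4⟩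
      · left
        rw [mem_filter]
        refine ⟨hb1, t, ?_, h4⟩
        rw [mem_erase]
        refine ⟨?_, mem_onL.mpr ⟨ht, h3⟩⟩
        intro h0
        apply h2
        rw [h0, P.mn_part]
      · right
        rw [mem_filter]
        exact ⟨hb1, h1, t, mem_erase.mpr ⟨h2, ht⟩, t', ht', h3, h4⟩
    rw [sum_add_distrib] at hle
    omega
  have hV : ∀ p : Option F × Fin 2, 4 * (22 * D + 25000) ≤ (cd p.1).card := by
    intro p
    have h1 := P.cand_ge p.1
    have h2 : 4 * (22 * D + 25000) = 88 * D + 100000 := by ring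
    rw [h2]; exact h1
  have hΔ : 1 ≤ 22 * D + 25000 := by omega
  obtain ⟨f, hf, hadj⟩ := exists_IT (fun p : Option F × Fin 2 => cd p.1) adj hsymm (22 * D + 25000)
    hΔ hV (fun p a ha => by convert hdeg p a ha)
  refine ⟨fun i e => f (i, e), fun i e => hf (i, e), ?_, ?_, ?_⟩
  · intro i h0
    have h1 : (1 : ℕ) < (onL R (f (i, 0))).card := by
      rw [P.cd_card i _ (hf (i, 0))]; norm_num
    obtain ⟨t, ht, htne⟩ := exists_mem_ne h1 (mn i)
    refine hadj (i, 0) (i, 1) (by simp) (Or.inr ⟨rfl, t, ht, t, ?_, htne, htne, rfl⟩)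
    have h0' : f (i, 0) = f (i, 1) := h0
    rw [← h0']; exact ht
  · intro i i' e e' hii t ht htm h1 h2
    exact hadj (i, e) (i', e') (fun h => hii (Prod.ext_iff.mp h).1) (Or.inl ⟨hii, t, ht, htm, h1, h2⟩)
  · intro i t ht t' ht' h1 h2 h3
    exact hadj (i, 0) (i, 1) (by simp) (Or.inr ⟨rfl, t, ht, t', ht', h1, h2, h3⟩)

end

end Crest.Agent.RY
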