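/-
  RY_NSel : enumeration of the slots of the selected M-lines (task RY-N3)
-/
import Crest.Agent.RY_NSelM

set_option autoImplicit false

namespace Crest.Agent.RY
open Finset Classical

section
variable {F : Type} [Field F] [Fintype F] [DecidableEq F]
variable {R : Finset (Pt F)} {mn : Option F → Pt F} {cd : Option F → Finset (Ln F)} {c : ℝ} {D : ℕ}

/-- (task RY-N3) enumeration of the slots: `(onL R (M i e)).erase (mn i)` has 11 elements
(`Finset.equivFinOfCardEq`, or `Finset.equivFin`). -/
theorem exists_Sel (P : PsR c D R mn cd) : Nonempty (Sel R mn cd) := by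
  obtain ⟨M, h1, h2, h3, h4⟩ := exists_M P
  have hcard : ∀ i e, ((onL R (M i e)).erase (mn i)).card = 11 := by
    intro i e
    have hm : mn i ∈ onL R (M i e) := by
      unfold onL
      rw [Finset.mem_filter]
      exact ⟨P.mn_mem i, P.cd_on i _ (h1 i e)⟩
    rw [Finset.card_erase_of_mem hm, P.cd_card i _ (h1 i e)]
  have hex : ∀ i e, ∃ s : Fin 11 → Pt F, Function.Injective s ∧
      (∀ k, s k ∈ (onL R (M i e)).erase (mn i)) ∧
      (∀ t ∈ (onL R (M i e)).erase (mn i), ∃ k, s k = t) := by
    intro i e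
    let E := Finset.equivFinOfCardEq (hcard i e)
    refine ⟨fun k => (E.symm k : Pt F), ?_, fun k => (E.symm k).2, ?_⟩
    · intro a b hab
      exact E.symm.injective (Subtype.ext hab)
    · intro t ht
      exact ⟨E ⟨t, ht⟩, by simp⟩
  choose sl hinj hmem hsurj using hex
  have hR : ∀ i e k, sl i e k ∈ R ∧ on (sl i e k) (M i e) := by
    intro i e k
    have := hmem i e k
    rw [Finset.mem_erase] at this
    have h := this.2
    unfold onL at h
    rw [Finset.mem_filter] at h
    exact h
  have hL : ∀ i e k, sl i e k ∈ onL R (M i e) := fun i e k => (Finset.mem_erase.1 (hmem i e k)).2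
  have hne : ∀ i e k, sl i e k ≠ mn i := fun i e k => (Finset.mem_erase.1 (hmem i e k)).1
  have hmain : ∀ i e k, sl i e k ≠ mn (sl i e k).1 := fun i e k =>
    P.cd_main i _ (h1 i e) _ (hL i e k) (hne i e k)
  refine ⟨{
    M := M
    sl := sl
    M_cd := h1
    M_ne := h2
    sl_mem := fun i e k => (hR i e k).1
    sl_on := fun i e k => (hR i e k).2
    sl_ne := hne
    sl_main := hmain
    sl_inj := hinj
    sl_surj := fun i e t ht htn => hsurj i e t (Finset.mem_erase.2 ⟨htn, ht⟩)
    sl_parts := fun i k k' => h4 i _ (hL i 0 k) _ (hL i 1 k') (hne i 0 k) (hne i 1 k')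
    disj := ?_ }⟩
  intro i i' e e' k k' hii heq
  refine h3 i i' e e' hii (sl i e k) (hR i e k).1 (hmain i e k) (hR i e k).2 ?_
  rw [heq]
  exact (hR i' e' k').2

end

end Crest.Agent.RY
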