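/-
  RY_NA : assembly of the gadget system (part N2 of S0045 / S0046, helper9)
-/
import Crest.Agent.RY_NE
import Crest.Agent.RY_NSel

set_option autoImplicit false

namespace Crest.Agent.RY
open Finset Classical

section
variable {F : Type} [Field F] [Fintype F] [DecidableEq F]
variable {R : Finset (Pt F)} {mn : Option F → Pt F} {cd : Option F → Finset (Ln F)} {c : ℝ} {D : ℕ}

theorem Sel.Om_inl {G : Sel R mn cd} {f : Ow F → (Fin 12 → F)} (hf : ∀ o, f o ∈ G.Om o) (i : Option F) :
    G.Ok1 i (f (Sum.inl i)) ∧ Function.Injective (f (Sum.inl i)) ∧ G.Ok3 i (f (Sum.inl i)) ∧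
      G.Ok4 i (f (Sum.inl i)) := by
  have h := hf (Sum.inl i)
  simp only [Sel.Om, Sel.OmG, mem_filter, mem_univ, true_and] at h
  exact h

theorem Sel.Om_inr {G : Sel R mn cd} {f : Ow F → (Fin 12 → F)} (hf : ∀ o, f o ∈ G.Om o) {t : Pt F}
    (ht : t ∈ R) : (∀ a, thr t (f (Sum.inr t) a) ∈ plain R t) ∧ Function.Injective (f (Sum.inr t)) := by
  have h := hf (Sum.inr t)
  simp only [Sel.Om, ht, if_true, OmI, mem_filter, mem_univ, true_and] at h
  exact h

theorem card_spM {t : Pt F} {x : Fin 12 → F} (hx : Function.Injective x) : (spM t x).card = 10 := by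
  unfold spM
  rw [card_image_of_injective]
  · simp
  · intro j j' h
    exact jj_inj (hx (thr_inj h))

/-- the special lines are plain -/
theorem Sel.spx_plain (P : PsR c D R mn cd) (G : Sel R mn cd) {f : Ow F → (Fin 12 → F)}
    (hf : ∀ o, f o ∈ G.Om o) {t : Pt F} (ht : t ∈ R) : G.spx t (f (G.own t)) ⊆ plain R t := by
  rcases G.cases t with ⟨i, rfl⟩ | ⟨i, e, k, rfl⟩ | ⟨h1, h2⟩
  · rw [G.spx_mn P, G.own_mn P]
    intro l hl
    obtain ⟨j, rfl⟩ := mem_spM.mp hl
    exact G.Ok1_plain (G.Om_inl hf i).1 _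
  · rw [G.spx_sl, G.own_sl]
    intro l hl
    obtain ⟨j, hj, rfl⟩ := G.mem_spS.mp hl
    exact G.Ok1_lin (G.Om_inl hf i).1 e k j hj
  · rw [G.spx_idle h1 h2, G.own_idle h1 h2]
    intro l hl
    obtain ⟨j, rfl⟩ := mem_spM.mp hl
    exact (G.Om_inr hf ht).1 _

theorem Sel.spx_card (P : PsR c D R mn cd) (G : Sel R mn cd) {f : Ow F → (Fin 12 → F)}
    (hf : ∀ o, f o ∈ G.Om o) {t : Pt F} (ht : t ∈ R) : (G.spx t (f (G.own t))).card = 10 := by
  rcases G.cases t with ⟨i, rfl⟩ | ⟨i, e, k, rfl⟩ | ⟨h1, h2⟩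
  · rw [G.spx_mn P, G.own_mn P]
    exact card_spM (G.Om_inl hf i).2.1
  · rw [G.spx_sl, G.own_sl]
    unfold Sel.spS
    rw [card_image_of_injOn, card_erase_of_mem (mem_univ _)]
    · simp
    · intro j hj j' hj' h
      by_contra hne
      exact (G.Om_inl hf i).2.2.1 e k j j' (by simpa using hj) (by simpa using hj') hne h
  · rw [G.spx_idle h1 h2, G.own_idle h1 h2]
    exact card_spM (G.Om_inr hf ht).2

/-- at most one special line of `t` contains `v` -/
theorem Sel.sp_filter_le (G : Sel R mn cd) {t v : Pt F} (x : Fin 12 → F) (htv : t ≠ v) :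
    ((G.spx t x).filter (fun l' => on v l')).card ≤ if G.sees t v x then 1 else 0 := by
  by_cases h : G.sees t v x
  · rw [if_pos h, card_le_one]
    intro l hl l' hl'
    rw [mem_filter] at hl hl'
    exact line_unique (G.spx_on t x hl.1) hl.2 (G.spx_on t x hl'.1) hl'.2 htv
  · rw [if_neg h, Nat.le_zero, card_eq_zero, filter_eq_empty_iff]
    intro l hl hv
    exact h ⟨l, hl, hv⟩

/-- the number of special lines through `v` at the points of `T` -/
theorem Sel.sum_le_seen (G : Sel R mn cd) (f : Ow F → (Fin 12 → F)) (T : Finset (Pt F)) (hT : T ⊆ R)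
    {v : Pt F} (hv : v ∉ R) :
    T.sum (fun t => ((G.spx t (f (G.own t))).filter (fun l' => on v l')).card) ≤
      (T.filter (fun t => G.sees t v (f (G.own t)))).card := by
  rw [card_filter]
  apply sum_le_sum
  intro t ht
  exact G.sp_filter_le _ (fun h => hv (h ▸ hT ht))

theorem onL_subset (l : Ln F) : onL R l ⊆ R := filter_subset _ _
theorem onP_subset (i : Option F) : onP R i ⊆ R := filter_subset _ _

/-- lines -/
theorem Sel.gen1 (P : PsR c D R mn cd) (G : Sel R mn cd) {f : Ow F → (Fin 12 → F)} (hB : ¬ G.Bad1 f)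
    (l : Ln F) (hl : ∀ i e, l ≠ G.M i e) {v : Pt F} (hv : v ∉ R) :
    ((onL R l).filter (fun t => G.sees t v (f (G.own t)))).card ≤ 10 := by
  by_contra hcon
  push Not at hcon
  obtain ⟨T', hT', h6, hinj⟩ := G.exists_six P l hl
    ((onL R l).filter (fun t => G.sees t v (f (G.own t)))) (filter_subset _ _) (by omega)
  apply hB
  refine ⟨l, v, T', hv, hT'.trans (filter_subset _ _), h6, hinj, ?_⟩
  intro t ht
  exact (mem_filter.mp (hT' ht)).2

/-- parts -/
theorem Sel.gen2 (G : Sel R mn cd) {f : Ow F → (Fin 12 → F)} (hB : ¬ G.Bad2 f)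
    (i : Option F) {v : Pt F} (hv : v ∉ R) :
    ((onP R i).filter (fun t => G.sees t v (f (G.own t)))).card ≤ 10 := by
  by_contra hcon
  push Not at hcon
  obtain ⟨T', hT', h6⟩ := exists_subset_card_eq (n := 6)
    (s := (onP R i).filter (fun t => G.sees t v (f (G.own t)))) (by omega)
  apply hB
  refine ⟨i, v, T', hv, hT'.trans (filter_subset _ _), h6, ?_⟩
  intro t ht
  exact (mem_filter.mp (hT' ht)).2

theorem Sel.gen3 (G : Sel R mn cd) {f : Ow F → (Fin 12 → F)} (hB : ¬ G.Bad3 f)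
    (i : Option F) (e : Fin 2) {v : Pt F} (hv : v ∉ R) (hon : on v (G.M i e)) :
    ((onP R i).filter (fun t => G.sees t v (f (G.own t)))).card ≤ 5 := by
  by_contra hcon
  push Not at hcon
  obtain ⟨T', hT', h6⟩ := exists_subset_card_eq (n := 5)
    (s := (onP R i).filter (fun t => G.sees t v (f (G.own t)))) (by omega)
  apply hB
  refine ⟨i, e, v, T', hv, hon, hT'.trans (filter_subset _ _), h6, ?_⟩
  intro t ht
  exact (mem_filter.mp (hT' ht)).2

theorem Sel.gen4 (G : Sel R mn cd) {f : Ow F → (Fin 12 → F)} (hB : ¬ G.Bad4 f)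
    (i : Option F) {v : Pt F} (hv : v ∉ R) (hlab : G.lab i v (f (Sum.inl i))) :
    ((onP R i).filter (fun t => G.sees t v (f (G.own t)))).card ≤ 5 := by
  by_contra hcon
  push Not at hcon
  have h0 : 5 ≤ (((onP R i).filter (fun t => G.sees t v (f (G.own t)))).erase (mn i)).card := by
    have := pred_card_le_card_erase (s := (onP R i).filter (fun t => G.sees t v (f (G.own t)))) (a := mn i)
    omega
  obtain ⟨T', hT', h6⟩ := exists_subset_card_eq h0
  apply hB
  refine ⟨i, v, T', hv, hlab, ?_, h6, ?_⟩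
  · intro t ht
    have := hT' ht
    rw [mem_erase, mem_filter] at this
    rw [mem_erase]
    exact ⟨this.1, this.2.1⟩
  · intro t ht
    have := hT' ht
    rw [mem_erase, mem_filter] at this
    exact this.2.2

/-- the slots of `M i e` which see `v` -/
theorem Sel.slots_card (P : PsR c D R mn cd) (G : Sel R mn cd) (f : Ow F → (Fin 12 → F)) (i : Option F)
    (e : Fin 2) (v : Pt F) :
    (((onL R (G.M i e)).erase (mn i)).filter (fun t => G.sees t v (f (G.own t)))).card ≤
      ((univ : Finset (Fin 11)).filter (fun k => ∃ l' ∈ G.spS i e k (f (Sum.inl i)), on v l')).card := by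
  have h : ((onL R (G.M i e)).erase (mn i)).filter (fun t => G.sees t v (f (G.own t))) ⊆
      ((univ : Finset (Fin 11)).filter (fun k => ∃ l' ∈ G.spS i e k (f (Sum.inl i)), on v l')).image
        (G.sl i e) := by
    intro t ht
    rw [mem_filter, mem_erase] at ht
    obtain ⟨⟨h1, h2⟩, h3⟩ := ht
    obtain ⟨k, rfl⟩ := G.sl_surj i e t h2 h1
    rw [mem_image]
    refine ⟨k, ?_, rfl⟩
    rw [mem_filter]
    refine ⟨mem_univ _, ?_⟩
    unfold Sel.sees at h3
    rw [G.spx_sl, G.own_sl] at h3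
    exact h3
  exact (card_le_card h).trans card_image_le

theorem Sel.gen5 (P : PsR c D R mn cd) (G : Sel R mn cd) {f : Ow F → (Fin 12 → F)}
    (hf : ∀ o, f o ∈ G.Om o) (i : Option F) (e : Fin 2) {v : Pt F} (hon : ¬ on v (G.M i e))
    (hz : ∀ k, v ≠ G.z i e (f (Sum.inl i)) k) :
    (((onL R (G.M i e)).erase (mn i)).filter (fun t => G.sees t v (f (G.own t)))).card ≤ 5 :=
  (G.slots_card P f i e v).trans ((G.Om_inl hf i).2.2.2 e v hon hz)

theorem Sel.gen6 (P : PsR c D R mn cd) (G : Sel R mn cd) {f : Ow F → (Fin 12 → F)}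
    (hf : ∀ o, f o ∈ G.Om o) (i : Option F) (e : Fin 2) {v : Pt F} (hon : ¬ on v (G.M i e)) :
    (((onL R (G.M i e)).erase (mn i)).filter (fun t => G.sees t v (f (G.own t)))).card ≤ 10 := by
  by_cases hz : ∀ k, v ≠ G.z i e (f (Sum.inl i)) k
  · exact (G.gen5 P hf i e hon hz).trans (by norm_num)
  · push Not at hz
    obtain ⟨k0, hk0⟩ := hz
    refine (G.slots_card P f i e v).trans ?_
    have h : ((univ : Finset (Fin 11)).filter (fun k => ∃ l' ∈ G.spS i e k (f (Sum.inl i)), on v l')) ⊆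
        (univ : Finset (Fin 11)).erase k0 := by
      intro k hk
      rw [mem_filter] at hk
      rw [mem_erase]
      refine ⟨?_, mem_univ _⟩
      rintro rfl
      obtain ⟨l', hl', hv⟩ := hk.2
      obtain ⟨j, hj, rfl⟩ := G.mem_spS.mp hl'
      apply hon
      have h1 : v = G.sl i e k := by
        by_contra hne
        have := fst_ne_of_on hv (G.sl_on_lin i e _ hj) hne
        rw [hk0, G.z_fst] at this
        exact this rfl
      rw [h1]
      exact G.sl_on i e k
    refine (card_le_card h).trans ?_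
    rw [card_erase_of_mem (mem_univ _)]
    simp

/-- the label function of the gadget system -/
noncomputable def Sel.zz (G : Sel R mn cd) (f : Ow F → (Fin 12 → F)) (i : Option F) (e : Fin 2) (s : Pt F) :
    Pt F :=
  if h : ∃ k, G.sl i e k = s then G.z i e (f (Sum.inl i)) h.choose else s

theorem Sel.zz_sl (G : Sel R mn cd) (f : Ow F → (Fin 12 → F)) (i : Option F) (e : Fin 2) (k : Fin 11) :
    G.zz f i e (G.sl i e k) = G.z i e (f (Sum.inl i)) k := by
  unfold Sel.zz
  have h : ∃ k', G.sl i e k' = G.sl i e k := ⟨k, rfl⟩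
  rw [dif_pos h, G.sl_inj i e h.choose_spec]

theorem exists_gadgets (hc : 0 < c) (hc1 : c ≤ 1) (hq : 10 ^ 10 * (44 / c ^ 12) ^ 12 ≤ (Fintype.card F : ℝ))
    (hq' : 10 ^ 10 / c ^ 12 ≤ (Fintype.card F : ℝ)) (P : PsR c D R mn cd) : Nonempty (Gadgets R 10) := by
  obtain ⟨G⟩ := exists_Sel P
  obtain ⟨f, hf, B1, B2, B3, B4⟩ := exists_choice hc hc1 hq hq' P G
  -- slots
  have hsl : ∀ i e, ∀ s ∈ onL R (G.M i e), s ≠ mn i → ∃ k, s = G.sl i e k := by
    intro i e s hs hne
    obtain ⟨k, hk⟩ := G.sl_surj i e s hs hne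
    exact ⟨k, hk.symm⟩
  have hz01 : ∀ i k k', G.z i 0 (f (Sum.inl i)) k ≠ G.z i 1 (f (Sum.inl i)) k' := by
    intro i k k' h
    apply G.sl_parts i k k'
    rw [← G.z_fst i 0 (f (Sum.inl i)) k, h, G.z_fst]
  refine ⟨{
    main := mn
    M := G.M
    z := G.zz f
    sp := fun t => G.spx t (f (G.own t))
    main_mem := P.mn_mem
    main_part := P.mn_part
    main_on := G.mn_on P
    card_M := fun i e => P.cd_card i _ (G.M_cd i e)
    excl := ?_
    M_ne := G.M_ne
    z_part := ?_
    z_notin := ?_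
    z_off := ?_
    z_ne := ?_
    sp_plain := fun t ht => G.spx_plain P hf ht
    sp_card := fun t ht => G.spx_card P hf ht
    sp_main := ?_
    sp_slot := ?_
    gen_line := ?_
    gen_part := ?_
    gen_part' := ?_
    gen_M := ?_
    gen_M' := ?_ }⟩
  · -- excl
    intro t ht i e i' e' h1 h2 hne
    by_cases hi : i = i'
    · subst hi
      refine ⟨rfl, ?_⟩
      have hee : G.M i e ≠ G.M i e' := by
        have he : e ≠ e' := fun h => hne (by rw [h])
        fin_cases e <;> fin_cases e'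
        · exact absurd rfl he
        · exact G.M_ne i
        · exact (G.M_ne i).symm
        · exact absurd rfl he
      exact point_unique h1 (G.mn_on P i e) h2 (G.mn_on P i e') hee
    · exfalso
      by_cases hm : t = mn i
      · by_cases hm' : t = mn i'
        · apply hi
          rw [← P.mn_part i, ← hm, hm', P.mn_part]
        · have := P.cd_main i' _ (G.M_cd i' e') t (mem_onL.mpr ⟨ht, h2⟩) hm'
          apply this
          rw [hm, P.mn_part]
      · by_cases hm' : t = mn i'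
        · have := P.cd_main i _ (G.M_cd i e) t (mem_onL.mpr ⟨ht, h1⟩) hm
          apply this
          rw [hm', P.mn_part]
        · obtain ⟨k, hk⟩ := hsl i e t (mem_onL.mpr ⟨ht, h1⟩) hm
          obtain ⟨k', hk'⟩ := hsl i' e' t (mem_onL.mpr ⟨ht, h2⟩) hm'
          exact G.disj i i' e e' k k' hi (hk ▸ hk')
  · -- z_part
    intro i e s hs hne
    obtain ⟨k, rfl⟩ := hsl i e s hs hne
    rw [G.zz_sl, G.z_fst]
  · intro i e s hs hne
    obtain ⟨k, rfl⟩ := hsl i e s hs hne
    rw [G.zz_sl]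
    exact G.z_notin P (G.Om_inl hf i).1 e k
  · intro i e e' s hs hne
    obtain ⟨k, rfl⟩ := hsl i e s hs hne
    rw [G.zz_sl]
    exact G.z_off P (G.Om_inl hf i).1 e e' k
  · intro i s s' hs hne hs' hne'
    obtain ⟨k, rfl⟩ := hsl i 0 s hs hne
    obtain ⟨k', rfl⟩ := hsl i 1 s' hs' hne'
    rw [G.zz_sl, G.zz_sl]
    exact hz01 i k k'
  · -- sp_main
    intro i e l hl
    rw [G.spx_mn P, G.own_mn P] at hl
    obtain ⟨j, rfl⟩ := mem_spM.mp hl
    refine ⟨G.sl i e j.castSucc, mem_onL.mpr ⟨G.sl_mem _ _ _, G.sl_on _ _ _⟩, G.sl_ne _ _ _, ?_⟩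
    rw [G.zz_sl]
    have := G.z_on i e (f (Sum.inl i)) j.castSucc
    rwa [kp_castSucc] at this
  · -- sp_slot
    intro i e s hs hne l hl
    obtain ⟨k, rfl⟩ := hsl i e s hs hne
    rw [G.spx_sl, G.own_sl] at hl
    obtain ⟨j, hj, rfl⟩ := G.mem_spS.mp hl
    refine ⟨G.sl i e j, mem_onL.mpr ⟨G.sl_mem _ _ _, G.sl_on _ _ _⟩, G.sl_ne _ _ _, ?_⟩
    rw [G.zz_sl]
    exact G.z_on_lin i e _ hj
  · -- gen_line
    intro l hl v hv _
    exact (G.sum_le_seen f _ (onL_subset l) hv).trans (G.gen1 P B1 l hl hv)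
  · -- gen_part
    intro i v hv _
    exact (G.sum_le_seen f _ (onP_subset i) hv).trans (G.gen2 B2 i hv)
  · -- gen_part'
    intro i e v hv _ h
    have h5 : ((onP R i).filter (fun t => G.sees t v (f (G.own t)))).card ≤ 5 := by
      rcases h with h | ⟨s, hs, hne, rfl⟩
      · exact G.gen3 B3 i e hv h
      · obtain ⟨k, rfl⟩ := hsl i e s hs hne
        rw [G.zz_sl] at hv ⊢
        exact G.gen4 B4 i hv ⟨e, k, rfl⟩
    have := (G.sum_le_seen f _ (onP_subset i) hv).trans h5
    omega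
  · -- gen_M
    intro i e v hv hon
    exact (G.sum_le_seen f _ ((erase_subset _ _).trans (onL_subset _)) hv).trans (G.gen6 P hf i e hon)
  · -- gen_M'
    intro i e e' hee v hv hon h
    have hz : ∀ k, v ≠ G.z i e (f (Sum.inl i)) k := by
      intro k hk
      rcases h with h | ⟨s, hs, hne, h⟩
      · rw [hk] at h
        exact G.z_off P (G.Om_inl hf i).1 e e' k h
      · obtain ⟨k', rfl⟩ := hsl i e' s hs hne
        rw [G.zz_sl] at h
        rw [hk] at h
        have h2 := congrArg Prod.fst h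
        rw [G.z_fst, G.z_fst] at h2
        exact hee (G.sl_fst_inj2 i h2).1
    have h5 := G.gen5 P hf i e hon hz
    have := (G.sum_le_seen f _ ((erase_subset _ _).trans (onL_subset _)) hv).trans h5
    omega

end

/-- N2 (deterministic selection) -/
theorem partN2' (c : ℝ) (hc : 0 < c) : ∃ q₀ : ℕ,
    ∀ (F : Type) [Field F] [Fintype F] [DecidableEq F], q₀ ≤ Fintype.card F →
      ∀ (D : ℕ) (R : Finset (Pt F)) (mn : Option F → Pt F) (cd : Option F → Finset (Ln F)),
        PsR c D R mn cd → Nonempty (Gadgets R 10) := by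
  set c' : ℝ := min c 1 with hc'
  have hc'0 : 0 < c' := lt_min hc one_pos
  have hc'1 : c' ≤ 1 := min_le_right _ _
  have hcc : c' ≤ c := min_le_left _ _
  obtain ⟨q1, h1⟩ := exists_nat_ge (10 ^ 10 * (44 / c' ^ 12) ^ 12)
  obtain ⟨q2, h2⟩ := exists_nat_ge (10 ^ 10 / c' ^ 12)
  refine ⟨max q1 q2, fun F _ _ _ hF D R mn cd P => ?_⟩
  have e1 : 10 ^ 10 * (44 / c' ^ 12) ^ 12 ≤ (Fintype.card F : ℝ) :=
    h1.trans (by exact_mod_cast (le_max_left _ _).trans hF)
  have e2 : 10 ^ 10 / c' ^ 12 ≤ (Fintype.card F : ℝ) :=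
    h2.trans (by exact_mod_cast (le_max_right _ _).trans hF)
  have hmono : c' * (Fintype.card F : ℝ) ≤ c * (Fintype.card F : ℝ) :=
    mul_le_mul_of_nonneg_right hcc (by positivity)
  have P' : PsR c' D R mn cd :=
    { P with
      good := fun i l0 h0 l1 h1 hp s hs hne s' hs' hne' =>
        hmono.trans (P.good i l0 h0 l1 h1 hp s hs hne s' hs' hne')
      plain_ge := fun t ht => hmono.trans (P.plain_ge t ht) }
  exact exists_gadgets hc'0 hc'1 e1 e2 P'

end Crest.Agent.RY
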