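/-
  RY_SDefs : definitions for part1 (stability, containers).
  Abstract finite projective planes `IsPlane inc q`, and the concrete plane `PP F`, `LL F`, `inc`.
-/
import Crest.Agent.RY_Iface

set_option autoImplicit false

namespace Crest.Agent.RY
open Finset Classical

/-- finite projective plane of order `q` -/
structure IsPlane {P L : Type} [Fintype P] [Fintype L] (inc : P → L → Prop) (q : ℕ) : Prop where
  two_le : 2 ≤ q
  card_line : ∀ l, (univ.filter (fun p => inc p l)).card = q + 1
  card_pt : ∀ p, (univ.filter (fun l => inc p l)).card = q + 1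
  line : ∀ p p', p ≠ p' → ∃! l, inc p l ∧ inc p' l
  pt : ∀ l l', l ≠ l' → ∃! p, inc p l ∧ inc p l'

section abstract_
variable {P L : Type} [Fintype P] [Fintype L] [DecidableEq P] [DecidableEq L] (inc : P → L → Prop)

/-- number of lines of `LS` through `p` -/
noncomputable def deg (LS : Finset L) (p : P) : ℕ := (LS.filter (fun l => inc p l)).card
/-- number of points of `S` on `l` -/
noncomputable def nn (S : Finset P) (l : L) : ℕ := (S.filter (fun p => inc p l)).card
/-- lines missing `S` -/
noncomputable def miss (S : Finset P) : Finset L := univ.filter (fun l => ∀ p ∈ S, ¬ inc p l)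
/-- lines meeting `T` -/
noncomputable def meet (T : Finset P) : Finset L := univ.filter (fun l => ∃ p ∈ T, inc p l)
/-- points that are on at least three times as many lines of `U` as the average point -/
noncomputable def atyp (q : ℕ) (U : Finset L) : Finset P :=
  univ.filter (fun p => 3 * U.card ≤ q * deg inc U p)
/-- points seeing `T` in few directions -/
noncomputable def X1 (q : ℕ) (T : Finset P) : Finset P :=
  univ.filter (fun z => z ∉ T ∧ (deg inc (meet inc T) z : ℝ) ≤ (T.card : ℝ) - 3 / 2 * (T.card : ℝ) ^ 2 / q)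
/-- points seeing `T` along few lines of `Fp` -/
noncomputable def X2 (q : ℕ) (Fp : Finset L) (T : Finset P) : Finset P :=
  univ.filter (fun z => z ∉ T ∧
    (deg inc (Fp ∩ meet inc T) z : ℝ) ≤ (T.card : ℝ) * (Fp.card : ℝ) / (8 * (q : ℝ) ^ 2))

/-- regular line sets of density at least `ρ` -/
def Reg (q : ℕ) (κ ρ : ℝ) (Fp : Finset L) : Prop :=
  ρ * (q : ℝ) ^ 2 ≤ (Fp.card : ℝ) ∧ (Fp.card : ℝ) ≤ (q : ℝ) ^ 2 ∧
  ∀ z : P, (deg inc Fp z : ℝ) * q ≤ (1 + κ) * (Fp.card : ℝ)

/-- the family of the possible essential parts of near-perfect covers -/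
noncomputable def Fam (q : ℕ) (ε : ℝ) (Fp : Finset L) : Finset (Finset P) :=
  univ.filter (fun Se => ∃ T : Finset P, ε * q / 2 ≤ (T.card : ℝ) ∧ (T.card : ℝ) ≤ 2 * ε * q ∧
    (∀ t ∈ T, Fp.card ≤ 2 * q * deg inc Fp t) ∧ Se ⊆ T ∪ (X1 inc q T ∪ X2 inc q Fp T))

end abstract_

/-- points of the projective plane over `F`; `none` is the centre `O` -/
abbrev PP (F : Type) := Option (Pt F)
/-- lines of the projective plane over `F`; `inr i` is the part `i` -/
abbrev LL (F : Type) := Ln F ⊕ Option F

section concrete
variable {F : Type} [Field F] [Fintype F] [DecidableEq F]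

/-- incidence of the projective plane over `F` -/
def inc : PP F → LL F → Prop
  | some p, Sum.inl l => on p l
  | some p, Sum.inr i => p.1 = i
  | none, Sum.inl _ => False
  | none, Sum.inr _ => True

/-- lines not through `O` missing the random points with indices in `K` -/
noncomputable def FK {H : ℕ} (ω : Om F H) (K : Finset (Idx F H)) : Finset (LL F) :=
  (F0 (RK ω K)).image Sum.inl

end concrete

end Crest.Agent.RY
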