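/-
  RY_S11 : first moment bound for the number of random points in a fixed set, and its union version.
  PROOFS.
  * tail : P(≥ g of the points with index in K are in A) ≤ Σ_{G ⊆ K, |G| = g} P(∀ k∈G, rp ω k ∈ A)
        = Σ_{G ⊆ K, |G|=g} Π_{k∈G} a_k,   a_k = |A ∩ part k.1| / q   (independence = counting functions).
     Σ_{G} Π a_k ≤ (Σ_{k∈K} a_k)^g / g!    (`Finset.prod_pow_eq`? simplest: induction, or
        g! * esymm ≤ (Σ a)^g because (Σ a)^g = Σ over functions Fin g → K of products ≥ Σ over injective ones = g! * esymm).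
     Σ_{k∈K} a_k ≤ H |A| / q and g! ≥ (g/e)^g.
  * dep_bound (conditioning): if for every assignment outside K the conditional probability is ≤ p then Pr ≤ p.
  * tail_union : for every ω fix the coordinates outside K; 𝒜 is then constant; union bound over its members.
  NOTE (helper77): `tail_union` needs the extra (last) argument `0 ≤ a` (false for `a < 0` and empty `AA`).
-/
import Crest.Agent.RY_SDefs

set_option autoImplicit false

namespace Crest.Agent.RY
open Finset Classical

section abs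
variable {ι : Type} [DecidableEq ι]

private theorem S11_bern (S a : ℝ) (hS : 0 ≤ S) (ha : 0 ≤ a) (n : ℕ) :
    S ^ (n + 1) + (n + 1) * a * S ^ n ≤ (S + a) ^ (n + 1) := by
  induction n with
  | zero => simp
  | succ n ih =>
    have h1 : (S + a) * (S ^ (n + 1) + (n + 1) * a * S ^ n) ≤ (S + a) * (S + a) ^ (n + 1) :=
      mul_le_mul_of_nonneg_left ih (by linarith)
    have h2 : 0 ≤ ((n : ℝ) + 1) * a ^ 2 * S ^ n := by positivity
    push_cast
    have e1 : (S + a) * (S ^ (n + 1) + (n + 1) * a * S ^ n) =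
      S ^ (n + 1 + 1) + (n + 1 + 1) * a * S ^ (n + 1) + ((n : ℝ) + 1) * a ^ 2 * S ^ n := by ring
    have e2 : (S + a) * (S + a) ^ (n + 1) = (S + a) ^ (n + 1 + 1) := by ring
    linarith

private theorem S11_esymm (a : ι → ℝ) (ha : ∀ i, 0 ≤ a i) (K : Finset ι) (g : ℕ) :
    (g.factorial : ℝ) * ∑ G ∈ K.powersetCard g, ∏ k ∈ G, a k ≤ (∑ k ∈ K, a k) ^ g := by
  induction K using Finset.induction_on generalizing g with
  | empty =>
    cases g with
    | zero => simp
    | succ g => rw [Finset.powersetCard_eq_empty.mpr (by simp)]; simp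
  | insert x K hx ih =>
    cases g with
    | zero => simp
    | succ g =>
      rw [Finset.powersetCard_succ_insert hx, Finset.sum_union, Finset.sum_insert hx]
      · have h1 : ∑ G ∈ (K.powersetCard g).image (insert x), ∏ k ∈ G, a k =
            a x * ∑ G ∈ K.powersetCard g, ∏ k ∈ G, a k := by
          rw [Finset.sum_image, Finset.mul_sum]
          · refine Finset.sum_congr rfl fun G hG => ?_
            rw [Finset.prod_insert]
            intro h
            exact hx ((Finset.mem_powersetCard.mp hG).1 h)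
          · intro G hG G' hG' h
            have hG1 : x ∉ G := fun h => hx ((Finset.mem_powersetCard.mp hG).1 h)
            have hG2 : x ∉ G' := fun h => hx ((Finset.mem_powersetCard.mp hG').1 h)
            have := congrArg (fun s => Finset.erase s x) h
            simpa [Finset.erase_insert hG1, Finset.erase_insert hG2] using this
        rw [h1]
        have i1 := ih (g + 1)
        have i2 := ih g
        have hS : 0 ≤ ∑ k ∈ K, a k := Finset.sum_nonneg fun i _ => ha i
        have hb := S11_bern (∑ k ∈ K, a k) (a x) hS (ha x) g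
        have hf : ((g + 1).factorial : ℝ) = (g + 1) * (g.factorial : ℝ) := by
          rw [Nat.factorial_succ]; push_cast; ring
        have i3 : ((g : ℝ) + 1) * a x * ((g.factorial : ℝ) * ∑ G ∈ K.powersetCard g, ∏ k ∈ G, a k) ≤
            ((g : ℝ) + 1) * a x * (∑ k ∈ K, a k) ^ g :=
          mul_le_mul_of_nonneg_left i2 (mul_nonneg (by positivity) (ha x))
        calc ((g + 1).factorial : ℝ) * (∑ G ∈ K.powersetCard (g + 1), ∏ k ∈ G, a k +
              a x * ∑ G ∈ K.powersetCard g, ∏ k ∈ G, a k)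
            = ((g + 1).factorial : ℝ) * ∑ G ∈ K.powersetCard (g + 1), ∏ k ∈ G, a k +
              ((g : ℝ) + 1) * a x * ((g.factorial : ℝ) * ∑ G ∈ K.powersetCard g, ∏ k ∈ G, a k) := by
              rw [hf]; ring
          _ ≤ (∑ k ∈ K, a k) ^ (g + 1) + ((g : ℝ) + 1) * a x * (∑ k ∈ K, a k) ^ g := by linarith
          _ ≤ (∑ k ∈ K, a k + a x) ^ (g + 1) := hb
          _ = _ := by rw [add_comm]
      · rw [Finset.disjoint_left]
        intro G hG hG'
        obtain ⟨G', _, rfl⟩ := Finset.mem_image.mp hG'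
        exact hx ((Finset.mem_powersetCard.mp hG).1 (Finset.mem_insert_self x G'))

end abs

variable {F : Type} [Field F] [Fintype F] [DecidableEq F] {H : ℕ}

private theorem S11_Pr_sum {α ι : Type} [Fintype α] (s : Finset ι) (p : ι → α → Prop) (r : α → Prop)
    (h : ∀ a, r a → ∃ i ∈ s, p i a) : Pr r ≤ ∑ i ∈ s, Pr (p i) := by
  unfold Pr
  rw [← Finset.sum_div]
  apply div_le_div_of_nonneg_right _ (by positivity)
  have h1 : univ.filter r ⊆ s.biUnion fun i => univ.filter (p i) := by
    intro a ha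
    simp only [Finset.mem_filter, Finset.mem_univ, true_and, Finset.mem_biUnion] at ha ⊢
    exact h a ha
  calc ((univ.filter r).card : ℝ) ≤ ((s.biUnion fun i => univ.filter (p i)).card : ℝ) := by
        exact_mod_cast Finset.card_le_card h1
    _ ≤ ∑ i ∈ s, ((univ.filter (p i)).card : ℝ) := by exact_mod_cast Finset.card_biUnion_le

/-- independence. -/
private theorem S11_indep (G : Finset (Idx F H)) (A : Finset (Pt F)) :
    Pr (fun ω : Om F H => ∀ k ∈ G, rp ω k ∈ A) =
      ∏ k ∈ G, (((univ.filter fun x : F => (k.1, x) ∈ A).card : ℝ) / (Fintype.card F : ℝ)) := by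
  have hq : (0 : ℝ) < Fintype.card F := by exact_mod_cast Fintype.card_pos
  unfold Pr
  have h1 : ∀ inst : DecidablePred (fun ω : Om F H => ∀ k ∈ G, rp ω k ∈ A),
      @Finset.filter _ (fun ω : Om F H => ∀ k ∈ G, rp ω k ∈ A) inst univ =
      Fintype.piFinset (fun k : Idx F H => if k ∈ G then univ.filter (fun x : F => (k.1, x) ∈ A)
        else univ) := by
    intro inst
    ext ω
    simp only [Finset.mem_filter, Finset.mem_univ, true_and, Fintype.mem_piFinset]
    constructor
    · intro h k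
      by_cases hk : k ∈ G
      · simp only [hk, if_true, Finset.mem_filter, Finset.mem_univ, true_and]
        exact h k hk
      · simp [hk]
    · intro h k hk
      have := h k
      simp only [hk, if_true, Finset.mem_filter, Finset.mem_univ, true_and] at this
      exact this
  rw [h1, Fintype.card_piFinset, Fintype.card_pi]
  push_cast
  rw [← Finset.prod_div_distrib]
  rw [← Finset.prod_subset (Finset.subset_univ G)]
  · refine Finset.prod_congr rfl fun k hk => ?_
    simp [hk]
  · intro k _ hk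
    simp only [hk, if_false, Finset.card_univ]
    exact div_self hq.ne'

private theorem S11_sum (K : Finset (Idx F H)) (A : Finset (Pt F)) :
    ∑ k ∈ K, (((univ.filter fun x : F => (k.1, x) ∈ A).card : ℝ) / (Fintype.card F : ℝ)) ≤
      H * (A.card : ℝ) / (Fintype.card F : ℝ) := by
  have hq : (0 : ℝ) < Fintype.card F := by exact_mod_cast Fintype.card_pos
  rw [← Finset.sum_div]
  apply div_le_div_of_nonneg_right _ hq.le
  have h1 : ∑ k ∈ K, ((univ.filter fun x : F => (k.1, x) ∈ A).card : ℝ) ≤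
      ∑ k : Idx F H, ((univ.filter fun x : F => (k.1, x) ∈ A).card : ℝ) :=
    Finset.sum_le_sum_of_subset_of_nonneg (Finset.subset_univ _) fun _ _ _ => by positivity
  refine h1.trans (le_of_eq ?_)
  rw [Fintype.sum_prod_type]
  simp only [Finset.sum_const, Finset.card_univ, Fintype.card_fin, nsmul_eq_mul, ← Finset.mul_sum]
  congr 1
  have h2 : A.card = ∑ i : Option F, (univ.filter fun x : F => (i, x) ∈ A).card := by
    rw [Finset.card_eq_sum_card_fiberwise (f := Prod.fst) (t := univ) (fun _ _ => Finset.mem_coe.mpr (Finset.mem_univ _))]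
    refine Finset.sum_congr rfl fun i _ => ?_
    symm
    refine Finset.card_bij (fun x _ => (i, x)) ?_ ?_ ?_
    · intro x hx
      simp only [Finset.mem_filter, Finset.mem_univ, true_and] at hx ⊢
      exact ⟨hx, trivial⟩
    · intro x _ y _ h
      exact (Prod.mk.inj h).2
    · rintro ⟨i', x⟩ h
      simp only [Finset.mem_filter] at h
      obtain ⟨h3, h4⟩ := h
      subst h4
      exact ⟨x, by simpa using h3, rfl⟩
  rw [h2]
  push_cast
  rfl

theorem tail (K : Finset (Idx F H)) (A : Finset (Pt F)) (g : ℕ) (hg : 1 ≤ g) :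
    Pr (fun ω : Om F H => g ≤ (K.filter (fun k => rp ω k ∈ A)).card) ≤
      (Real.exp 1 * H * (A.card : ℝ) / ((g : ℝ) * (Fintype.card F : ℝ))) ^ g := by
  have hq : (0 : ℝ) < Fintype.card F := by exact_mod_cast Fintype.card_pos
  have hg0 : (0 : ℝ) < g := by exact_mod_cast hg
  set a : Idx F H → ℝ := fun k =>
    ((univ.filter fun x : F => (k.1, x) ∈ A).card : ℝ) / (Fintype.card F : ℝ) with ha
  have ha0 : ∀ k, 0 ≤ a k := fun k => by rw [ha]; positivity
  have h1 : Pr (fun ω : Om F H => g ≤ (K.filter (fun k => rp ω k ∈ A)).card) ≤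
      ∑ G ∈ K.powersetCard g, Pr (fun ω : Om F H => ∀ k ∈ G, rp ω k ∈ A) := by
    refine S11_Pr_sum _ (fun G ω => ∀ k ∈ G, rp ω k ∈ A) _ ?_
    intro ω h
    obtain ⟨G, hG, hGc⟩ := Finset.exists_subset_card_eq h
    refine ⟨G, Finset.mem_powersetCard.mpr ⟨hG.trans (Finset.filter_subset _ _), hGc⟩, ?_⟩
    intro k hk
    exact (Finset.mem_filter.mp (hG hk)).2
  have h2 := S11_esymm a ha0 K g
  have h3 := S11_sum K A
  have hS0 : 0 ≤ ∑ k ∈ K, a k := Finset.sum_nonneg fun i _ => ha0 i
  have h4 : (g : ℝ) ^ g / (g.factorial : ℝ) ≤ Real.exp g :=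
    Real.pow_div_factorial_le_exp g hg0.le g
  have hfac : (0 : ℝ) < g.factorial := by exact_mod_cast Nat.factorial_pos g
  have h5 : ∑ G ∈ K.powersetCard g, Pr (fun ω : Om F H => ∀ k ∈ G, rp ω k ∈ A) =
      ∑ G ∈ K.powersetCard g, ∏ k ∈ G, a k :=
    Finset.sum_congr rfl fun G _ => S11_indep G A
  have h6 : ∑ G ∈ K.powersetCard g, ∏ k ∈ G, a k ≤ (∑ k ∈ K, a k) ^ g / g.factorial := by
    rw [le_div_iff₀ hfac, mul_comm]
    exact h2
  have h7 : (1 : ℝ) / g.factorial ≤ (Real.exp 1 / g) ^ g := by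
    rw [div_pow, ← Real.exp_nat_mul, mul_one, div_le_div_iff₀ hfac (by positivity)]
    rw [div_le_iff₀ hfac] at h4
    linarith
  calc Pr (fun ω : Om F H => g ≤ (K.filter (fun k => rp ω k ∈ A)).card)
      ≤ (∑ k ∈ K, a k) ^ g / g.factorial := by rw [h5] at h1; exact h1.trans h6
    _ = (∑ k ∈ K, a k) ^ g * (1 / g.factorial) := by ring
    _ ≤ (H * (A.card : ℝ) / (Fintype.card F : ℝ)) ^ g * (Real.exp 1 / g) ^ g :=
        mul_le_mul (pow_le_pow_left₀ hS0 h3 g) h7 (by positivity) (by positivity)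
    _ = _ := by
        rw [← mul_pow]
        congr 1
        field_simp

/-- conditioning on the coordinates outside `K`: `E ω' ω` is an event where the parameter `ω'` only matters through
its coordinates outside `K`. -/
theorem dep_bound (K : Finset (Idx F H)) (E : Om F H → Om F H → Prop)
    (hE : ∀ ω₁ ω₂ ω : Om F H, (∀ k, k ∉ K → ω₁ k = ω₂ k) → (E ω₁ ω → E ω₂ ω))
    (hE2 : ∀ ω₁ ω ω' : Om F H, (∀ k, k ∈ K → ω k = ω' k) → (E ω₁ ω → E ω₁ ω'))
    (p : ℝ) (hp : ∀ ω₁ : Om F H, Pr (fun ω => E ω₁ ω) ≤ p) :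
    Pr (fun ω => E ω ω) ≤ p := by
  have hN : (0 : ℝ) < Fintype.card (Om F H) := by exact_mod_cast Fintype.card_pos
  -- combine
  let cmb : Om F H → Om F H → Om F H := fun ω₁ ω k => if k ∈ K then ω k else ω₁ k
  have hc : ∀ ω₁ ω, E ω₁ ω ↔ E (cmb ω₁ ω) (cmb ω₁ ω) := by
    intro ω₁ ω
    have e1 : ∀ k, k ∉ K → ω₁ k = cmb ω₁ ω k := fun k hk => by simp [cmb, hk]
    have e2 : ∀ k, k ∈ K → ω k = cmb ω₁ ω k := fun k hk => by simp [cmb, hk]
    constructor
    · intro h
      exact hE _ _ _ e1 (hE2 _ _ _ e2 h)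
    · intro h
      exact hE _ _ _ (fun k hk => (e1 k hk).symm) (hE2 _ _ _ (fun k hk => (e2 k hk).symm) h)
  have hcard : ∑ ω₁ : Om F H, (univ.filter fun ω => E ω₁ ω).card =
      Fintype.card (Om F H) * (univ.filter fun ω : Om F H => E ω ω).card := by
    have e1 : ∑ ω₁ : Om F H, (univ.filter fun ω => E ω₁ ω).card =
        (univ.filter fun x : Om F H × Om F H => E x.1 x.2).card := by
      rw [Finset.card_filter, Fintype.sum_prod_type]
      exact Finset.sum_congr rfl fun ω₁ _ => Finset.card_filter _ _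
    have e2 : Fintype.card (Om F H) * (univ.filter fun ω : Om F H => E ω ω).card =
        (univ.filter fun x : Om F H × Om F H => E x.2 x.2).card := by
      rw [Finset.card_filter, Finset.card_filter, Fintype.sum_prod_type]
      simp
    rw [e1, e2]
    refine Finset.card_bij' (fun x _ => (cmb x.2 x.1, cmb x.1 x.2))
      (fun x _ => (cmb x.2 x.1, cmb x.1 x.2)) ?_ ?_ ?_ ?_
    · intro x hx
      simp only [Finset.mem_filter, Finset.mem_univ, true_and] at hx ⊢
      exact (hc _ _).mp hx
    · intro x hx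
      simp only [Finset.mem_filter, Finset.mem_univ, true_and] at hx ⊢
      rw [hc]
      have : cmb (cmb x.2 x.1) (cmb x.1 x.2) = x.2 := by
        funext k
        by_cases hk : k ∈ K <;> simp [cmb, hk]
      rw [this]
      exact hx
    · intro x _
      refine Prod.ext ?_ ?_
      · funext k
        by_cases hk : k ∈ K <;> simp [cmb, hk]
      · funext k
        by_cases hk : k ∈ K <;> simp [cmb, hk]
    · intro x _
      refine Prod.ext ?_ ?_
      · funext k
        by_cases hk : k ∈ K <;> simp [cmb, hk]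
      · funext k
        by_cases hk : k ∈ K <;> simp [cmb, hk]
  have hp' : ∀ ω₁ : Om F H, ((univ.filter fun ω => E ω₁ ω).card : ℝ) ≤ p * Fintype.card (Om F H) := by
    intro ω₁
    have := hp ω₁
    unfold Pr at this
    rwa [div_le_iff₀ hN] at this
  unfold Pr
  rw [div_le_iff₀ hN]
  have h1 : (Fintype.card (Om F H) : ℝ) * ((univ.filter fun ω : Om F H => E ω ω).card : ℝ) ≤
      (Fintype.card (Om F H) : ℝ) * (p * Fintype.card (Om F H)) := by
    have h2 : ((∑ ω₁ : Om F H, (univ.filter fun ω => E ω₁ ω).card : ℕ) : ℝ) ≤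
        ∑ ω₁ : Om F H, p * Fintype.card (Om F H) := by
      push_cast
      exact Finset.sum_le_sum fun ω₁ _ => hp' ω₁
    rw [hcard] at h2
    push_cast at h2
    simpa using h2
  exact le_of_mul_le_mul_left h1 hN

theorem tail_union (K : Finset (Idx F H)) (AA : Om F H → Finset (Finset (Pt F)))
    (hdep : ∀ ω₁ ω₂ : Om F H, (∀ k, k ∉ K → ω₁ k = ω₂ k) → AA ω₁ = AA ω₂) (Nf a : ℝ)
    (hN : ∀ ω, ((AA ω).card : ℝ) ≤ Nf) (ha : ∀ ω, ∀ A ∈ AA ω, (A.card : ℝ) ≤ a) (g : ℕ) (hg : 1 ≤ g)
    (ha0 : 0 ≤ a) :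
    Pr (fun ω : Om F H => ∃ A ∈ AA ω, g ≤ (K.filter (fun k => rp ω k ∈ A)).card) ≤
      Nf * (Real.exp 1 * H * a / ((g : ℝ) * (Fintype.card F : ℝ))) ^ g := by
  have hq : (0 : ℝ) < Fintype.card F := by exact_mod_cast Fintype.card_pos
  have hg0 : (0 : ℝ) < g := by exact_mod_cast hg
  refine dep_bound K (fun ω₁ ω => ∃ A ∈ AA ω₁, g ≤ (K.filter (fun k => rp ω k ∈ A)).card) ?_ ?_ _ ?_
  · intro ω₁ ω₂ ω h
    rw [hdep ω₁ ω₂ h]
    exact id
  · intro ω₁ ω ω' h
    rintro ⟨A, hA, hc⟩
    refine ⟨A, hA, ?_⟩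
    have : (K.filter (fun k => rp ω' k ∈ A)) = (K.filter (fun k => rp ω k ∈ A)) := by
      refine Finset.filter_congr fun k hk => ?_
      unfold rp
      rw [h k hk]
    rw [this]
    exact hc
  · intro ω₁
    have h1 := S11_Pr_sum (AA ω₁) (fun A (ω : Om F H) => g ≤ (K.filter (fun k => rp ω k ∈ A)).card)
      (fun ω => ∃ A ∈ AA ω₁, g ≤ (K.filter (fun k => rp ω k ∈ A)).card) (fun ω h => h)
    refine h1.trans ?_
    have hX : 0 ≤ (Real.exp 1 * H * a / ((g : ℝ) * (Fintype.card F : ℝ))) ^ g := by positivity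
    calc ∑ A ∈ AA ω₁, Pr (fun ω : Om F H => g ≤ (K.filter (fun k => rp ω k ∈ A)).card)
        ≤ ∑ A ∈ AA ω₁, (Real.exp 1 * H * a / ((g : ℝ) * (Fintype.card F : ℝ))) ^ g := by
          refine Finset.sum_le_sum fun A hA => ?_
          refine (tail K A g hg).trans (pow_le_pow_left₀ (by positivity) ?_ g)
          refine div_le_div_of_nonneg_right ?_ (by positivity)
          exact mul_le_mul_of_nonneg_left (ha ω₁ A hA) (by positivity)
      _ = ((AA ω₁).card : ℝ) * (Real.exp 1 * H * a / ((g : ℝ) * (Fintype.card F : ℝ))) ^ g := by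
          rw [Finset.sum_const, nsmul_eq_mul]
      _ ≤ _ := mul_le_mul_of_nonneg_right (hN ω₁) hX

end Crest.Agent.RY
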