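/-
  RY_S4 : the concrete projective plane over a finite field, and translations between Pt/Ln and PP/LL.
  PROOFS.  All by cases.  Two distinct points (some (i,y)), (some (i',y')): if i = i' the line is the part `inr i`; if i ≠ i' solve for
  (m,c):  i = some x, i' = some x' : m = (y'-y)/(x'-x), c = y - m x;  i = none: m = y.   Two distinct lines (m,c),(m',c'):
  if m ≠ m' they meet in part `some x`, x = (c'-c)/(m-m'); if m = m' they meet in part `none`.
-/
import Crest.Agent.RY_SDefs

set_option autoImplicit false

namespace Crest.Agent.RY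
open Finset Classical

variable {F : Type} [Field F] [Fintype F] [DecidableEq F]

/-- two distinct lines not through `O` meet in exactly one point -/
theorem on_unique_pt (l l' : Ln F) (h : l ≠ l') : ∃! p : Pt F, on p l ∧ on p l' := by
  obtain ⟨m, c⟩ := l
  obtain ⟨m', c'⟩ := l'
  by_cases hm : m = m'
  · subst hm
    have hc : c ≠ c' := fun hc => h (by rw [hc])
    refine ⟨(none, m), ⟨rfl, rfl⟩, ?_⟩
    rintro ⟨i, y⟩ ⟨h1, h2⟩
    cases i with
    | none =>
      have h1' : y = m := h1
      rw [h1']
    | some x =>
      have h1' : y = m * x + c := h1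
      have h2' : y = m * x + c' := h2
      exact absurd (add_left_cancel (h1'.symm.trans h2')) hc
  · have hm' : m - m' ≠ 0 := sub_ne_zero.2 hm
    refine ⟨(some ((c' - c) / (m - m')), m * ((c' - c) / (m - m')) + c), ⟨rfl, ?_⟩, ?_⟩
    · change m * ((c' - c) / (m - m')) + c = m' * ((c' - c) / (m - m')) + c'
      field_simp
      ring
    · rintro ⟨i, y⟩ ⟨h1, h2⟩
      cases i with
      | none =>
        have h1' : y = m := h1
        have h2' : y = m' := h2
        exact absurd (h1'.symm.trans h2') hm
      | some x =>
        have h1' : y = m * x + c := h1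
        have h2' : y = m' * x + c' := h2
        have hx : x = (c' - c) / (m - m') := by
          rw [eq_div_iff hm']
          linear_combination h2' - h1'
        rw [h1', ← hx]

/-- two points in different parts are on exactly one line not through `O` -/
theorem on_unique_line (p p' : Pt F) (h : p.1 ≠ p'.1) : ∃! l : Ln F, on p l ∧ on p' l := by
  obtain ⟨i, y⟩ := p
  obtain ⟨i', y'⟩ := p'
  cases i with
  | none =>
    cases i' with
    | none => exact absurd rfl h
    | some x' =>
      refine ⟨(y, y' - y * x'), ⟨rfl, ?_⟩, ?_⟩
      · change y' = y * x' + (y' - y * x')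
        ring
      · rintro ⟨m, c⟩ ⟨h1, h2⟩
        have h1' : y = m := h1
        have h2' : y' = m * x' + c := h2
        rw [Prod.mk.injEq]
        exact ⟨h1'.symm, by rw [h2', h1']; ring⟩
  | some x =>
    cases i' with
    | none =>
      refine ⟨(y', y - y' * x), ⟨?_, rfl⟩, ?_⟩
      · change y = y' * x + (y - y' * x)
        ring
      · rintro ⟨m, c⟩ ⟨h1, h2⟩
        have h1' : y = m * x + c := h1
        have h2' : y' = m := h2
        rw [Prod.mk.injEq]
        exact ⟨h2'.symm, by rw [h1', h2']; ring⟩
    | some x' =>
      have hx : x ≠ x' := fun hx => h (by simp [hx])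
      have hx' : x' - x ≠ 0 := sub_ne_zero.2 (Ne.symm hx)
      refine ⟨((y' - y) / (x' - x), y - (y' - y) / (x' - x) * x), ⟨?_, ?_⟩, ?_⟩
      · change y = (y' - y) / (x' - x) * x + (y - (y' - y) / (x' - x) * x)
        ring
      · change y' = (y' - y) / (x' - x) * x' + (y - (y' - y) / (x' - x) * x)
        field_simp
        ring
      · rintro ⟨m, c⟩ ⟨h1, h2⟩
        have h1' : y = m * x + c := h1
        have h2' : y' = m * x' + c := h2
        have hm : m = (y' - y) / (x' - x) := by
          rw [eq_div_iff hx']
          linear_combination h1' - h2'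
        rw [Prod.mk.injEq]
        refine ⟨hm, ?_⟩
        rw [← hm, h1']
        ring

theorem card_on_pt (p : Pt F) : (univ.filter (fun l : Ln F => on p l)).card = Fintype.card F := by
  obtain ⟨i, y⟩ := p
  rw [← Finset.card_univ (α := F)]
  symm
  cases i with
  | none =>
    refine Finset.card_bij (fun c _ => ((y, c) : Ln F)) ?_ ?_ ?_
    · intro c _
      rw [Finset.mem_filter]
      exact ⟨mem_univ _, rfl⟩
    · intro a _ b _ hab
      exact (Prod.mk.injEq _ _ _ _ ▸ hab).2
    · rintro ⟨m, c⟩ hl
      rw [Finset.mem_filter] at hl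
      have h1 : y = m := hl.2
      exact ⟨c, mem_univ _, by rw [h1]⟩
  | some x =>
    refine Finset.card_bij (fun m _ => ((m, y - m * x) : Ln F)) ?_ ?_ ?_
    · intro m _
      rw [Finset.mem_filter]
      refine ⟨mem_univ _, ?_⟩
      change y = m * x + (y - m * x)
      ring
    · intro a _ b _ hab
      exact (Prod.mk.injEq _ _ _ _ ▸ hab).1
    · rintro ⟨m, c⟩ hl
      rw [Finset.mem_filter] at hl
      have h1 : y = m * x + c := hl.2
      exact ⟨m, mem_univ _, by rw [h1]; ring_nf⟩

theorem card_on_ln (l : Ln F) : (univ.filter (fun p : Pt F => on p l)).card = Fintype.card F + 1 := by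
  rw [← Fintype.card_option, ← Finset.card_univ (α := Option F)]
  symm
  refine Finset.card_bij (fun i _ => ((i, val l i) : Pt F)) ?_ ?_ ?_
  · intro i _
    rw [Finset.mem_filter]
    exact ⟨mem_univ _, rfl⟩
  · intro a _ b _ hab
    exact (Prod.mk.injEq _ _ _ _ ▸ hab).1
  · rintro ⟨i, y⟩ hl
    rw [Finset.mem_filter] at hl
    have h1 : y = val l i := hl.2
    exact ⟨i, mem_univ _, by rw [h1]⟩

private theorem ry4_card_line (l : LL F) :
    (univ.filter (fun p : PP F => inc p l)).card = Fintype.card F + 1 := by
  cases l with
  | inl l =>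
    rw [← card_on_ln l]
    symm
    refine Finset.card_bij (fun p _ => (some p : PP F)) ?_ ?_ ?_
    · intro p hp
      rw [Finset.mem_filter] at hp ⊢
      exact ⟨mem_univ _, hp.2⟩
    · intro a _ b _ hab
      exact Option.some.inj hab
    · intro p hp
      rw [Finset.mem_filter] at hp
      cases p with
      | none => exact absurd hp.2 id
      | some p => exact ⟨p, by rw [Finset.mem_filter]; exact ⟨mem_univ _, hp.2⟩, rfl⟩
  | inr i =>
    rw [← Fintype.card_option, ← Finset.card_univ (α := Option F)]
    symm
    refine Finset.card_bij (fun y _ => (y.map fun y => (i, y) : PP F)) ?_ ?_ ?_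
    · intro y _
      rw [Finset.mem_filter]
      refine ⟨mem_univ _, ?_⟩
      cases y with
      | none => exact trivial
      | some y => exact rfl
    · intro a _ b _ hab
      cases a with
      | none => cases b with
        | none => rfl
        | some b => simp at hab
      | some a => cases b with
        | none => simp at hab
        | some b => simp at hab; rw [hab]
    · intro p hp
      rw [Finset.mem_filter] at hp
      cases p with
      | none => exact ⟨none, mem_univ _, rfl⟩
      | some p =>
        have h1 : p.1 = i := hp.2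
        exact ⟨some p.2, mem_univ _, by rw [← h1]; rfl⟩

private theorem ry4_card_pt (p : PP F) :
    (univ.filter (fun l : LL F => inc p l)).card = Fintype.card F + 1 := by
  cases p with
  | none =>
    rw [← Fintype.card_option, ← Finset.card_univ (α := Option F)]
    symm
    refine Finset.card_bij (fun i _ => (Sum.inr i : LL F)) ?_ ?_ ?_
    · intro i _
      rw [Finset.mem_filter]
      exact ⟨mem_univ _, trivial⟩
    · intro a _ b _ hab
      exact Sum.inr.inj hab
    · intro l hl
      rw [Finset.mem_filter] at hl
      cases l with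
      | inl l => exact absurd hl.2 id
      | inr i => exact ⟨i, mem_univ _, rfl⟩
  | some p =>
    have e : (univ.filter (fun l : LL F => inc (some p) l))
        = insert (Sum.inr p.1) ((univ.filter (fun l : Ln F => on p l)).image Sum.inl) := by
      ext l
      rw [Finset.mem_filter, Finset.mem_insert, Finset.mem_image]
      constructor
      · rintro ⟨-, hl⟩
        cases l with
        | inl l => exact Or.inr ⟨l, by rw [Finset.mem_filter]; exact ⟨mem_univ _, hl⟩, rfl⟩
        | inr i =>
          have h1 : p.1 = i := hl
          exact Or.inl (by rw [h1])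
      · rintro (h | ⟨l', hl', rfl⟩)
        · rw [h]
          exact ⟨mem_univ _, rfl⟩
        · rw [Finset.mem_filter] at hl'
          exact ⟨mem_univ _, hl'.2⟩
    rw [e, Finset.card_insert_of_notMem (by simp), Finset.card_image_of_injective _ Sum.inl_injective,
      card_on_pt]

theorem isPlane_PP : IsPlane (inc : PP F → LL F → Prop) (Fintype.card F) where
  two_le := Fintype.one_lt_card
  card_line := ry4_card_line
  card_pt := ry4_card_pt
  line := by
    intro p p' h
    cases p with
    | none =>
      cases p' with
      | none => exact absurd rfl h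
      | some p' =>
        refine ⟨Sum.inr p'.1, ⟨trivial, rfl⟩, ?_⟩
        rintro l ⟨h1, h2⟩
        cases l with
        | inl l => exact absurd h1 id
        | inr i =>
          have h2' : p'.1 = i := h2
          rw [h2']
    | some p =>
      cases p' with
      | none =>
        refine ⟨Sum.inr p.1, ⟨rfl, trivial⟩, ?_⟩
        rintro l ⟨h1, h2⟩
        cases l with
        | inl l => exact absurd h2 id
        | inr i =>
          have h1' : p.1 = i := h1
          rw [h1']
      | some p' =>
        by_cases hp : p.1 = p'.1
        · refine ⟨Sum.inr p.1, ⟨rfl, hp.symm⟩, ?_⟩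
          rintro l ⟨h1, h2⟩
          cases l with
          | inl l =>
            have h1' : p.2 = val l p.1 := h1
            have h2' : p'.2 = val l p'.1 := h2
            rw [← hp] at h2'
            exact absurd (congrArg some (Prod.ext hp (h1'.trans h2'.symm))) h
          | inr i =>
            have h1' : p.1 = i := h1
            rw [h1']
        · obtain ⟨l, ⟨h1, h2⟩, hu⟩ := on_unique_line p p' hp
          refine ⟨Sum.inl l, ⟨h1, h2⟩, ?_⟩
          rintro l' ⟨h1', h2'⟩
          cases l' with
          | inl l' => rw [hu l' ⟨h1', h2'⟩]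
          | inr i =>
            have h3 : p.1 = i := h1'
            have h4 : p'.1 = i := h2'
            exact absurd (h3.trans h4.symm) hp
  pt := by
    intro l l' h
    cases l with
    | inr i =>
      cases l' with
      | inr i' =>
        have hi : i ≠ i' := fun hi => h (by rw [hi])
        refine ⟨none, ⟨trivial, trivial⟩, ?_⟩
        rintro p ⟨h1, h2⟩
        cases p with
        | none => rfl
        | some p =>
          have h1' : p.1 = i := h1
          have h2' : p.1 = i' := h2
          exact absurd (h1'.symm.trans h2') hi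
      | inl l' =>
        refine ⟨some (i, val l' i), ⟨rfl, rfl⟩, ?_⟩
        rintro p ⟨h1, h2⟩
        cases p with
        | none => exact absurd h2 id
        | some p =>
          obtain ⟨j, y⟩ := p
          have h1' : j = i := h1
          have h2' : y = val l' j := h2
          rw [h2', h1']
    | inl l =>
      cases l' with
      | inr i =>
        refine ⟨some (i, val l i), ⟨rfl, rfl⟩, ?_⟩
        rintro p ⟨h1, h2⟩
        cases p with
        | none => exact absurd h1 id
        | some p =>
          obtain ⟨j, y⟩ := p
          have h2' : j = i := h2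
          have h1' : y = val l j := h1
          rw [h1', h2']
      | inl l' =>
        have hl : l ≠ l' := fun hl => h (by rw [hl])
        obtain ⟨p, ⟨h1, h2⟩, hu⟩ := on_unique_pt l l' hl
        refine ⟨some p, ⟨h1, h2⟩, ?_⟩
        rintro p' ⟨h1', h2'⟩
        cases p' with
        | none => exact absurd h1' id
        | some p' => rw [hu p' ⟨h1', h2'⟩]

/-- the set of missed lines of `S`, not through `O` -/
theorem FK_empty_inter_miss {H : ℕ} (ω : Om F H) (S : Finset (Pt F)) :
    (FK ω ∅ ∩ miss (inc : PP F → LL F → Prop) (S.image some)).card = (F0 S).card := by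
  have e : FK ω ∅ ∩ miss (inc : PP F → LL F → Prop) (S.image some) = (F0 S).image Sum.inl := by
    ext l
    simp only [FK, RK, miss, F0, Finset.image_empty, Finset.mem_inter, Finset.mem_image,
      Finset.mem_filter, Finset.mem_univ, true_and, Finset.notMem_empty, IsEmpty.forall_iff,
      implies_true]
    constructor
    · rintro ⟨⟨l', rfl⟩, h2⟩
      exact ⟨l', fun p hp => h2 (some p) ⟨p, hp, rfl⟩, rfl⟩
    · rintro ⟨l', h1, rfl⟩
      refine ⟨⟨l', rfl⟩, ?_⟩
      rintro _ ⟨p, hp, rfl⟩
      exact h1 p hp
  rw [e, Finset.card_image_of_injective _ Sum.inl_injective]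

private theorem ry4_RK_univ {H : ℕ} (ω : Om F H) : RK ω univ = RR ω := rfl

/-- a set of plane points is a cover of `F0 R` iff no line of `FK ω univ` is missed -/
theorem FK_univ_inter_miss {H : ℕ} (ω : Om F H) (S : Finset (Pt F)) (h : ∀ l ∈ F0 (RR ω), ∃ p ∈ S, on p l) :
    FK ω univ ∩ miss (inc : PP F → LL F → Prop) (S.image some) = ∅ := by
  rw [Finset.eq_empty_iff_forall_notMem]
  intro l hl
  rw [Finset.mem_inter, FK, Finset.mem_image] at hl
  obtain ⟨⟨l', hl', rfl⟩, h2⟩ := hl
  rw [ry4_RK_univ] at hl'
  obtain ⟨p, hp, hon⟩ := h l' hl'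
  rw [miss, Finset.mem_filter] at h2
  exact h2.2 (some p) (Finset.mem_image_of_mem _ hp) hon

theorem FK_card_le {H : ℕ} (ω : Om F H) (K : Finset (Idx F H)) :
    (FK ω K).card ≤ Fintype.card F ^ 2 := by
  rw [FK, Finset.card_image_of_injective _ Sum.inl_injective]
  refine le_trans (Finset.card_le_univ _) ?_
  rw [Fintype.card_prod, sq]

/-- lines of `FK ω K` that are not in `FK ω (K ∪ D)` contain a random point with index in `D` -/
theorem FK_sdiff {H : ℕ} (ω : Om F H) (K D : Finset (Idx F H)) (l : LL F) (h : l ∈ FK ω K)
    (h' : l ∉ FK ω (K ∪ D)) : ∃ k ∈ D, inc (some (rp ω k)) l := by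
  rw [FK, Finset.mem_image] at h
  obtain ⟨l', hl', rfl⟩ := h
  by_contra hcon
  push Not at hcon
  apply h'
  rw [FK, Finset.mem_image]
  refine ⟨l', ?_, rfl⟩
  rw [F0, Finset.mem_filter] at hl' ⊢
  refine ⟨mem_univ _, ?_⟩
  intro p hp
  rw [RK, Finset.mem_image] at hp
  obtain ⟨k, hk, rfl⟩ := hp
  rcases Finset.mem_union.1 hk with hk | hk
  · exact hl'.2 _ (Finset.mem_image_of_mem _ hk)
  · exact hcon k hk

/-- `FK ω K` only depends on the coordinates in `K` -/
theorem FK_congr {H : ℕ} (ω ω' : Om F H) (K : Finset (Idx F H)) (h : ∀ k ∈ K, ω k = ω' k) :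
    FK ω K = FK ω' K := by
  have e : RK ω K = RK ω' K := by
    unfold RK
    apply Finset.image_congr
    intro k hk
    change (k.1, ω k) = (k.1, ω' k)
    rw [h k hk]
  rw [FK, FK, e]

end Crest.Agent.RY
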