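/-
  RY_P3b : loads of lines.
  PROOF.  for a line l: |onL (RR ω) l| ≤ #{k : rp ω k on l}; `tail` with K = univ, A = the q+1 points of l, g = least natural number with g^4 > q:
    (e H (q+1)/(g q))^g ≤ (2 e H/g)^g; union over the q² lines: q² (2eH/q^{1/4})^{q^{1/4}} → 0.
-/
import Crest.Agent.RY_S4
import Crest.Agent.RY_S11

set_option autoImplicit false

namespace Crest.Agent.RY
open Finset Classical

private theorem P3b_Pr_exists {α β : Type} [Fintype α] [Fintype β] (A : β → α → Prop) (C : ℝ)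
    (h : ∀ b, Pr (A b) ≤ C) : Pr (fun a => ∃ b, A b a) ≤ (Fintype.card β : ℝ) * C := by
  have h1 : Pr (fun a => ∃ b, A b a) ≤ ∑ b, Pr (A b) := by
    unfold Pr
    rw [← Finset.sum_div]
    apply div_le_div_of_nonneg_right _ (by positivity)
    rw [← Nat.cast_sum]
    apply Nat.cast_le.mpr
    refine (Finset.card_le_card ?_).trans Finset.card_biUnion_le
    intro a ha
    simp only [Finset.mem_filter, Finset.mem_univ, true_and, Finset.mem_biUnion] at ha ⊢
    exact ha
  refine h1.trans ?_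
  calc ∑ b, Pr (A b) ≤ ∑ _b : β, C := Finset.sum_le_sum fun b _ => h b
    _ = _ := by rw [Finset.sum_const, Finset.card_univ, nsmul_eq_mul]

/-- the event for the analysis -/
private theorem P3b_event (H : ℕ) : ∃ g₀ : ℕ, 1 ≤ g₀ ∧ ∀ g : ℕ, g₀ ≤ g →
    (g : ℝ) ^ 8 * (2 * Real.exp 1 * H / g) ^ g ≤ 1 / 16 := by
  have h1 := Real.tendsto_pow_mul_exp_neg_atTop_nhds_zero 8
  have h3 := h1.comp tendsto_natCast_atTop_atTop
  have h4 : ∀ᶠ g : ℕ in Filter.atTop, ((fun x : ℝ => x ^ 8 * Real.exp (-x)) ∘ fun q : ℕ => (q : ℝ)) g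
      < 1 / 16 := h3.eventually_lt_const (by positivity)
  obtain ⟨g₁, hg₁⟩ := Filter.eventually_atTop.mp h4
  refine ⟨max (max g₁ 1) ⌈2 * Real.exp 1 * H * Real.exp 1⌉₊, ?_, ?_⟩
  · exact le_trans (le_max_right _ _) (le_max_left _ _)
  intro g hg
  have hg1 : g₁ ≤ g := le_trans (le_trans (le_max_left _ _) (le_max_left _ _)) hg
  have hg2 : 1 ≤ g := le_trans (le_trans (le_max_right _ _) (le_max_left _ _)) hg
  have hg3 : 2 * Real.exp 1 * H * Real.exp 1 ≤ (g : ℝ) := by
    refine (Nat.le_ceil _).trans ?_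
    exact_mod_cast le_trans (le_max_right _ _) hg
  have hg0 : (0:ℝ) < g := by exact_mod_cast hg2
  have h5 := hg₁ g hg1
  simp only [Function.comp] at h5
  refine le_trans ?_ h5.le
  have h6 : (2 * Real.exp 1 * H / g) ≤ Real.exp (-1) := by
    rw [div_le_iff₀ hg0, Real.exp_neg, inv_mul_eq_div, le_div_iff₀ (Real.exp_pos _)]
    exact hg3
  have h7 : (2 * Real.exp 1 * H / g) ^ g ≤ Real.exp (-(g:ℝ)) := by
    calc (2 * Real.exp 1 * H / g) ^ g ≤ (Real.exp (-1)) ^ g :=
          pow_le_pow_left₀ (by positivity) h6 g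
      _ = Real.exp (-(g:ℝ)) := by
          rw [← Real.exp_nat_mul]
          congr 1
          ring
  gcongr

theorem load_prob (H : ℕ) (hH : 1 ≤ H) : ∃ q₀ : ℕ,
    ∀ (F : Type) [Field F] [Fintype F] [DecidableEq F], q₀ ≤ Fintype.card F →
      Pr (fun ω : Om F H => ¬ ∀ l : Ln F, (onL (RR ω) l).card ^ 4 ≤ Fintype.card F) ≤ 1 / 16 := by
  obtain ⟨g₀, hg₀1, hg₀⟩ := P3b_event H
  refine ⟨g₀ ^ 4, ?_⟩
  intro F _ _ _ hq
  set q := Fintype.card F with hqdef
  have hq2 : 2 ≤ q := Fintype.one_lt_card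
  have hqr : (2:ℝ) ≤ (q:ℝ) := by exact_mod_cast hq2
  have hq0 : (0:ℝ) < q := by linarith
  -- g
  have hex : ∃ g : ℕ, q < g ^ 4 := ⟨q + 1, by
    calc q < q + 1 := Nat.lt_succ_self q
      _ ≤ (q + 1) ^ 4 := Nat.le_self_pow (by norm_num) _⟩
  set g := Nat.find hex with hgdef
  have hg : q < g ^ 4 := Nat.find_spec hex
  have hgmin : ∀ m : ℕ, q < m ^ 4 → g ≤ m := fun m hm => Nat.find_min' hex hm
  have hgg : g₀ ≤ g := by
    by_contra hlt
    push Not at hlt
    have := Nat.pow_le_pow_left hlt.le 4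
    omega
  have hg1 : 1 ≤ g := hg₀1.trans hgg
  have hgr : (0:ℝ) < g := by exact_mod_cast hg1
  have key : ∀ l : Ln F, Pr (fun ω : Om F H => q < (onL (RR ω) l).card ^ 4)
      ≤ (2 * Real.exp 1 * H / g) ^ g := by
    intro l
    have h1 := tail (H := H) (univ : Finset (Idx F H)) (univ.filter (fun p : Pt F => on p l)) g hg1
    have h2 : Pr (fun ω : Om F H => q < (onL (RR ω) l).card ^ 4) ≤
        Pr (fun ω : Om F H => g ≤ ((univ : Finset (Idx F H)).filter
          (fun k => rp ω k ∈ (univ.filter (fun p : Pt F => on p l)))).card) := by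
      apply Pr_mono
      intro ω hω
      refine (hgmin _ hω).trans ?_
      have h3 : onL (RR ω) l ⊆ ((univ : Finset (Idx F H)).filter
          (fun k => rp ω k ∈ (univ.filter (fun p : Pt F => on p l)))).image (rp ω) := by
        intro p hp
        unfold onL RR at hp
        rw [Finset.mem_filter, Finset.mem_image] at hp
        obtain ⟨⟨k, _, rfl⟩, hk⟩ := hp
        refine Finset.mem_image_of_mem _ ?_
        simp only [Finset.mem_filter, Finset.mem_univ, true_and]
        exact hk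
      exact (Finset.card_le_card h3).trans Finset.card_image_le
    refine (h2.trans h1).trans ?_
    apply pow_le_pow_left₀ (by positivity)
    rw [card_on_ln, ← hqdef, div_le_div_iff₀ (by positivity) hgr]
    push_cast
    have h4 : (q:ℝ) + 1 ≤ 2 * q := by linarith
    have h5 : Real.exp 1 * H * ((q:ℝ) + 1) * g ≤ Real.exp 1 * H * (2 * q) * g := by
      gcongr
    linarith [show Real.exp 1 * H * (2 * q) * g = 2 * Real.exp 1 * H * (g * (q:ℝ)) by ring]
  have hsub : ∀ ω : Om F H, (¬ ∀ l : Ln F, (onL (RR ω) l).card ^ 4 ≤ q) →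
      ∃ l : Ln F, q < (onL (RR ω) l).card ^ 4 := by
    intro ω hω
    push Not at hω
    exact hω
  have hPr := (Pr_mono hsub).trans (P3b_Pr_exists _ _ key)
  refine hPr.trans ?_
  have hcard : (Fintype.card (Ln F) : ℝ) ≤ (g:ℝ) ^ 8 := by
    have h6 : Fintype.card (Ln F) = q * q := by
      rw [Fintype.card_prod]
    rw [h6]
    have h7 : q * q ≤ g ^ 4 * g ^ 4 := Nat.mul_le_mul hg.le hg.le
    have h8 : g ^ 4 * g ^ 4 = g ^ 8 := by ring
    rw [h8] at h7
    exact_mod_cast h7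
  calc (Fintype.card (Ln F) : ℝ) * (2 * Real.exp 1 * H / g) ^ g
      ≤ (g:ℝ) ^ 8 * (2 * Real.exp 1 * H / g) ^ g := by gcongr
    _ ≤ 1 / 16 := hg₀ g hgg

end Crest.Agent.RY
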