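/-
  RY_PDefs : pseudo-randomness properties of the random set used for the selection of the gadgets (partN1).
  H = 2001: index (i,0) is the main point of the part i, the indices (i,a), a ≠ 0, are the slot points.
-/
import Crest.Agent.RY_Iface

set_option autoImplicit false

namespace Crest.Agent.RY
open Finset Classical

variable {F : Type} [Field F] [Fintype F] [DecidableEq F]

/-- indices of the random points on `l` -/
noncomputable def onI {H : ℕ} (ω : Om F H) (l : Ln F) : Finset (Idx F H) :=
  univ.filter (fun k => on (rp ω k) l)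

/-- slot pattern: only slot indices, in pairwise distinct parts -/
def SlotPat (A : Finset (Idx F 2001)) : Prop :=
  (∀ k ∈ A, k.2 ≠ 0) ∧ (∀ k ∈ A, ∀ k' ∈ A, k.1 = k'.1 → k = k')

/-- lines through `z` such that the random points of the other parts on them form a slot pattern of size 11 -/
noncomputable def fset (ω : Om F 2001) (z : Pt F) : Finset (Ln F) :=
  univ.filter (fun l => on z l ∧ ((onI ω l).filter (fun k => k.1 ≠ z.1)).card = 11 ∧
    SlotPat ((onI ω l).filter (fun k => k.1 ≠ z.1)))

/-- lines through `z` containing a main point of another part `i`, such that the random points of the parts different from `i` and from the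
part of `z` on them form a slot pattern of size 10 -/
noncomputable def gset (ω : Om F 2001) (z : Pt F) : Finset (Ln F) :=
  univ.filter (fun l => on z l ∧ ∃ i : Option F, i ≠ z.1 ∧ on (rp ω (i, 0)) l ∧
    ((onI ω l).filter (fun k => k.1 ≠ z.1 ∧ k.1 ≠ i)).card = 10 ∧
    SlotPat ((onI ω l).filter (fun k => k.1 ≠ z.1 ∧ k.1 ≠ i)))

/-- candidate M-lines of the part `i` -/
noncomputable def cand (ω : Om F 2001) (i : Option F) : Finset (Ln F) := fset ω (rp ω (i, 0))

/-- all random points on a line `l` through `s` are equal to `s` -/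
def Clean {H : ℕ} (ω : Om F H) (s : Pt F) (l : Ln F) : Prop :=
  ∀ k : Idx F H, on (rp ω k) l → rp ω k = s

/-- the line through `s` and `z` is clean (only `s`) -/
def CleanJoin {H : ℕ} (ω : Om F H) (s z : Pt F) : Prop :=
  ∀ l : Ln F, on s l → on z l → Clean ω s l

/-- lines `b` through `r` which are clean and whose points in the parts `j`, `j'` are joined by clean lines to all points
of `A`, resp. `A'`. -/
noncomputable def good2 {H : ℕ} (ω : Om F H) (r : Pt F) (j j' : Option F) (A A' : Finset (Pt F)) : Finset (Ln F) :=
  univ.filter (fun b => on r b ∧ Clean ω r b ∧ (∀ s ∈ A, CleanJoin ω s (j, val b j)) ∧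
    (∀ s ∈ A', CleanJoin ω s (j', val b j')))

/-- the pseudo-randomness properties with density constant `c` -/
structure PRand (c : ℝ) (ω : Om F 2001) : Prop where
  /-- few sparse points on every line -/
  load : ∀ l : Ln F, (onL (RR ω) l).card ^ 4 ≤ Fintype.card F
  /-- many plain lines through every sparse point -/
  plain : ∀ t ∈ RR ω, c * (Fintype.card F : ℝ) ≤ ((plain (RR ω) t).card : ℝ)
  /-- candidate lines -/
  cands : ∃ B : ℕ, c * (Fintype.card F : ℝ) ≤ (B : ℝ) ∧ (∀ z : Pt F, (gset ω z).card ≤ B) ∧
    ∀ z : Pt F, 100 * B ≤ (fset ω z).card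
  /-- good parameter sets -/
  good2 : ∀ (r : Pt F) (j j' : Option F) (A A' : Finset (Pt F)), r.1 ≠ j → r.1 ≠ j' →
    A.card ≤ 10 → A'.card ≤ 10 → (∀ s ∈ A, s.1 ≠ j) → (∀ s ∈ A', s.1 ≠ j') →
    c * (Fintype.card F : ℝ) ≤ ((good2 ω r j j' A A').card : ℝ)

end Crest.Agent.RY
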