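/-
  RY_P5 : fset and gset: bounded differences, relation to candidate lines.
  PROOFS.
  * Let k be an index, ω and ω' equal except at k.  If k.1 = z.1 nothing changes.  Otherwise the set onI ω l changes only for the lines through
    rp ω k and through rp ω' k; through z there is exactly one of each (on_unique_line, k.1 ≠ z.1).  So membership of l in fset / gset changes for at
    most two lines l.
-/
import Crest.Agent.RY_S4
import Crest.Agent.RY_PDefs

set_option autoImplicit false

namespace Crest.Agent.RY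
open Finset Classical

variable {F : Type} [Field F] [Fintype F] [DecidableEq F]

omit [Field F] [Fintype F] in
private theorem ry5_card (A B T : Finset (Ln F)) (hT : T.card ≤ 2)
    (h : ∀ l, l ∉ T → (l ∈ A ↔ l ∈ B)) : |((A.card : ℝ)) - (B.card : ℝ)| ≤ 2 := by
  have h1 : A.card ≤ B.card + 2 := by
    have hs : A ⊆ B ∪ T := by
      intro l hl
      rw [Finset.mem_union]
      by_cases hlT : l ∈ T
      · exact Or.inr hlT
      · exact Or.inl ((h l hlT).mp hl)
    exact le_trans (Finset.card_le_card hs) (le_trans (Finset.card_union_le _ _) (by omega))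
  have h2 : B.card ≤ A.card + 2 := by
    have hs : B ⊆ A ∪ T := by
      intro l hl
      rw [Finset.mem_union]
      by_cases hlT : l ∈ T
      · exact Or.inr hlT
      · exact Or.inl ((h l hlT).mpr hl)
    exact le_trans (Finset.card_le_card hs) (le_trans (Finset.card_union_le _ _) (by omega))
  have h1' : (A.card : ℝ) ≤ (B.card : ℝ) + 2 := by exact_mod_cast h1
  have h2' : (B.card : ℝ) ≤ (A.card : ℝ) + 2 := by exact_mod_cast h2
  rw [abs_le]
  constructor <;> linarith

private theorem ry5_exists (z : Pt F) (ω ω' : Om F 2001) (k : Idx F 2001)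
    (h : ∀ j, j ≠ k → ω j = ω' j) :
    ∃ T : Finset (Ln F), T.card ≤ 2 ∧ ∀ l, l ∉ T → on z l → ∀ j : Idx F 2001, j.1 ≠ z.1 →
      (on (rp ω j) l ↔ on (rp ω' j) l) := by
  have hrp : ∀ j, j ≠ k → rp ω j = rp ω' j := by
    intro j hj
    change (j.1, ω j) = (j.1, ω' j)
    rw [h j hj]
  by_cases hk : k.1 = z.1
  · refine ⟨∅, by simp, ?_⟩
    intro l _ _ j hj
    have hjk : j ≠ k := by
      rintro rfl
      exact hj hk
    rw [hrp j hjk]
  · obtain ⟨l1, _, hl1⟩ := on_unique_line z (rp ω k) (Ne.symm hk)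
    obtain ⟨l2, _, hl2⟩ := on_unique_line z (rp ω' k) (Ne.symm hk)
    refine ⟨{l1, l2}, Finset.card_le_two, ?_⟩
    intro l hl hz j hj
    by_cases hjk : j = k
    · rw [hjk]
      rw [Finset.mem_insert, Finset.mem_singleton, not_or] at hl
      constructor
      · intro h1
        exact absurd (hl1 l ⟨hz, h1⟩) hl.1
      · intro h1
        exact absurd (hl2 l ⟨hz, h1⟩) hl.2
    · rw [hrp j hjk]

private theorem ry5_filter (ω ω' : Om F 2001) (l : Ln F) (P : Idx F 2001 → Prop)
    [DecidablePred P] (h : ∀ j, P j → (on (rp ω j) l ↔ on (rp ω' j) l)) :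
    (onI ω l).filter P = (onI ω' l).filter P := by
  ext j
  unfold onI
  simp only [Finset.mem_filter, Finset.mem_univ, true_and]
  constructor
  · rintro ⟨h1, h2⟩
    exact ⟨(h j h2).mp h1, h2⟩
  · rintro ⟨h1, h2⟩
    exact ⟨(h j h2).mpr h1, h2⟩

theorem fset_lip (z : Pt F) (ω ω' : Om F 2001) (k : Idx F 2001) (h : ∀ j, j ≠ k → ω j = ω' j) :
    |((fset ω z).card : ℝ) - ((fset ω' z).card : ℝ)| ≤ 2 := by
  obtain ⟨T, hT, hTl⟩ := ry5_exists z ω ω' k h
  apply ry5_card _ _ T hT
  intro l hl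
  unfold fset
  simp only [Finset.mem_filter, Finset.mem_univ, true_and]
  by_cases hz : on z l
  · rw [ry5_filter ω ω' l (fun k => k.1 ≠ z.1) (fun j hj => hTl l hl hz j hj)]
  · simp only [hz, false_and]

theorem gset_lip (z : Pt F) (ω ω' : Om F 2001) (k : Idx F 2001) (h : ∀ j, j ≠ k → ω j = ω' j) :
    |((gset ω z).card : ℝ) - ((gset ω' z).card : ℝ)| ≤ 2 := by
  obtain ⟨T, hT, hTl⟩ := ry5_exists z ω ω' k h
  apply ry5_card _ _ T hT
  intro l hl
  unfold gset
  simp only [Finset.mem_filter, Finset.mem_univ, true_and]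
  by_cases hz : on z l
  · have key : ∀ i : Option F, (onI ω l).filter (fun k => k.1 ≠ z.1 ∧ k.1 ≠ i)
        = (onI ω' l).filter (fun k => k.1 ≠ z.1 ∧ k.1 ≠ i) := fun i =>
      ry5_filter ω ω' l (fun k => k.1 ≠ z.1 ∧ k.1 ≠ i) (fun j hj => hTl l hl hz j hj.1)
    constructor
    · rintro ⟨h0, i, hi, h1, h2, h3⟩
      rw [key i] at h2 h3
      exact ⟨h0, i, hi, (hTl l hl hz (i, 0) hi).mp h1, h2, h3⟩
    · rintro ⟨h0, i, hi, h1, h2, h3⟩
      rw [← key i] at h2 h3
      exact ⟨h0, i, hi, (hTl l hl hz (i, 0) hi).mpr h1, h2, h3⟩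
  · simp only [hz, false_and]

end Crest.Agent.RY
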