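/-
  RY_McD : McDiarmid's inequality (with a weak constant) for finite product spaces.
  PROOF.  Replace `f` by `f - mean`.  Moment generating function bound: for every finite `ι`, every `f` with
  differences at most `c` (changing one coordinate) and every `s`,
       mean (exp (s*(f - mean f))) ≤ exp (card ι * s^2 * c^2 / 2).
  Induct on `card ι` (e.g. first prove it for `ι = Fin n` by induction on `n` using `Fin.consEquiv`/`Fin.insertNthEquiv`,
  or by `Finset.induction` on the set of coordinates on which f depends): average over the last coordinate: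
  g(ω) = mean over x of f(ω,x) again has differences ≤ c, and for fixed ω the function x ↦ f(ω,x) - g(ω) has mean 0 and
  absolute value ≤ c, so by convexity of exp  (exp(s y) ≤ cosh(s c) + (y/c) sinh(s c) for |y| ≤ c) its
  exponential mean is ≤ cosh (s c) ≤ exp (s^2 c^2/2)  (`Real.cosh_le_exp_half_sq`).
  Then Markov with s = t/(card ι * c^2).  (If card ι = 0 then f is constant; the exponent is -t^2/0 = 0, trivial.)
-/
import Crest.Agent.RY_Iface

set_option autoImplicit false

namespace Crest.Agent.RY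
open Finset Classical

/-- the mean of a function on a finite type -/
noncomputable def mean {α : Type} [Fintype α] (f : α → ℝ) : ℝ := (∑ a, f a) / (Fintype.card α : ℝ)

/-- one coordinate -/
private lemma mgf_one {A : Type} [Fintype A] [Nonempty A] (h : A → ℝ) (c : ℝ) (hc : 0 < c)
    (hh : ∀ x y, |h x - h y| ≤ c) (s : ℝ) :
    ∑ x, Real.exp (s * h x) ≤ (Fintype.card A : ℝ) * Real.exp (s * mean h + s ^ 2 * c ^ 2 / 2) := by
  have hA : (0:ℝ) < (Fintype.card A : ℝ) := by exact_mod_cast Fintype.card_pos
  have hm : (Fintype.card A : ℝ) * mean h = ∑ a, h a := by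
    unfold mean; field_simp
  have habs : ∀ x, |h x - mean h| ≤ c := by
    intro x
    have h1 : (Fintype.card A : ℝ) * (h x - mean h) = ∑ a, (h x - h a) := by
      rw [Finset.sum_sub_distrib, Finset.sum_const, Finset.card_univ, nsmul_eq_mul, mul_sub, hm]
    have h2 : |(Fintype.card A : ℝ) * (h x - mean h)| ≤ (Fintype.card A : ℝ) * c := by
      rw [h1]
      refine (Finset.abs_sum_le_sum_abs _ _).trans ?_
      refine (Finset.sum_le_sum (fun a _ => hh x a)).trans ?_
      rw [Finset.sum_const, Finset.card_univ, nsmul_eq_mul]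
    rw [abs_mul, abs_of_pos hA] at h2
    exact le_of_mul_le_mul_left h2 hA
  have key : ∀ x, Real.exp (s * h x) ≤
      Real.exp (s * mean h) * (Real.cosh (s * c) + (h x - mean h) / c * Real.sinh (s * c)) := by
    intro x
    have h1 : |(h x - mean h) / c| ≤ 1 := by
      rw [abs_div, abs_of_pos hc, div_le_one hc]; exact habs x
    have h2 := Real.exp_mul_le_cosh_add_mul_sinh h1 (s * c)
    have h3 : s * h x = s * mean h + (h x - mean h) / c * (s * c) := by
      field_simp; ring
    rw [h3, Real.exp_add]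
    exact mul_le_mul_of_nonneg_left h2 (Real.exp_pos _).le
  refine (Finset.sum_le_sum (fun x _ => key x)).trans ?_
  rw [← Finset.mul_sum, Finset.sum_add_distrib, ← Finset.sum_mul, ← Finset.sum_div,
    Finset.sum_sub_distrib, Finset.sum_const, Finset.sum_const, Finset.card_univ, nsmul_eq_mul,
    nsmul_eq_mul, hm, sub_self, zero_div, zero_mul, add_zero, Real.exp_add]
  have h4 : Real.cosh (s * c) ≤ Real.exp (s ^ 2 * c ^ 2 / 2) := by
    have := Real.cosh_le_exp_half_sq (s * c)
    rwa [mul_pow] at this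
  calc Real.exp (s * mean h) * ((Fintype.card A : ℝ) * Real.cosh (s * c))
      = (Fintype.card A : ℝ) * (Real.exp (s * mean h) * Real.cosh (s * c)) := by ring
    _ ≤ (Fintype.card A : ℝ) * (Real.exp (s * mean h) * Real.exp (s ^ 2 * c ^ 2 / 2)) := by
        gcongr

private lemma mgf {A : Type} [Fintype A] [Nonempty A] (c : ℝ) (hc : 0 < c) (s : ℝ) (ι : Type)
    [Fintype ι] : ∀ (_ : Fintype (ι → A)), ∀ f : (ι → A) → ℝ,
    (∀ ω ω' : ι → A, ∀ k, (∀ j, j ≠ k → ω j = ω' j) → |f ω - f ω'| ≤ c) →
    ∑ ω, Real.exp (s * f ω) ≤ (Fintype.card (ι → A) : ℝ) *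
      Real.exp (s * mean f + (Fintype.card ι : ℝ) * (s ^ 2 * c ^ 2 / 2)) := by
  refine Fintype.induction_empty_option (P := fun ι _ => ∀ (_ : Fintype (ι → A)), ∀ f : (ι → A) → ℝ,
    (∀ ω ω' : ι → A, ∀ k, (∀ j, j ≠ k → ω j = ω' j) → |f ω - f ω'| ≤ c) →
    ∑ ω, Real.exp (s * f ω) ≤ (Fintype.card (ι → A) : ℝ) *
      Real.exp (s * mean f + (Fintype.card ι : ℝ) * (s ^ 2 * c ^ 2 / 2))) ?_ ?_ ?_ ι
  · intro α β hβ e ih hd f hf
    let E : (α → A) ≃ (β → A) := Equiv.arrowCongr e (Equiv.refl A)
    letI : Fintype (α → A) := Fintype.ofEquiv _ E.symm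
    have h := ih this (fun ω => f (E ω)) (by
      intro ω ω' k hk
      refine hf _ _ (e k) ?_
      intro j hj
      show ω (e.symm j) = ω' (e.symm j)
      refine hk _ ?_
      rintro rfl
      simp at hj)
    have e1 : ∑ ω : α → A, Real.exp (s * f (E ω)) = ∑ ω : β → A, Real.exp (s * f ω) :=
      Fintype.sum_equiv E _ _ (fun _ => rfl)
    have e2 : (Fintype.card (α → A) : ℝ) = (Fintype.card (β → A) : ℝ) := by
      exact_mod_cast Fintype.card_congr E
    have e3 : mean (fun ω => f (E ω)) = mean f := by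
      unfold mean
      rw [e2, Fintype.sum_equiv E (fun ω => f (E ω)) f (fun _ => rfl)]
    have e4 : @Fintype.card α (Fintype.ofEquiv β e.symm) = Fintype.card β := Fintype.ofEquiv_card _
    rw [e1, e2, e3, e4] at h
    exact h
  · intro hd f hf
    have : ∀ ω : PEmpty.{1} → A, ω = default := fun ω => Subsingleton.elim _ _
    have h1 : (Finset.univ : Finset (PEmpty.{1} → A)) = {default} := by
      ext ω; simp [this ω]
    have h2 : Fintype.card (PEmpty.{1} → A) = 1 := by
      rw [← Finset.card_univ, h1, Finset.card_singleton]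
    have h3 : mean f = f default := by
      unfold mean
      rw [h2, h1, Finset.sum_singleton]; simp
    rw [h2, h3, h1, Finset.sum_singleton]
    simp
  · intro α _ ih hd f hf
    letI : Fintype (α → A) := Fintype.ofFinite _
    let E : (Option α → A) ≃ A × (α → A) := Equiv.piOptionEquivProd
    have hA : (0:ℝ) < (Fintype.card A : ℝ) := by exact_mod_cast Fintype.card_pos
    have hcard : (Fintype.card (Option α → A) : ℝ) = (Fintype.card A : ℝ) * Fintype.card (α → A) := by
      rw [Fintype.card_congr E, Fintype.card_prod]; push_cast; rfl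
    set g : (α → A) → ℝ := fun ω => mean (fun x => f (E.symm (x, ω))) with hg
    have hsum : ∀ F : (Option α → A) → ℝ, ∑ ω, F ω = ∑ ω : α → A, ∑ x : A, F (E.symm (x, ω)) := by
      intro F
      rw [← Fintype.sum_prod_type_right (f := fun p : A × (α → A) => F (E.symm p))]
      exact Fintype.sum_equiv E _ _ (fun ω => by simp)
    have hmean : mean g = mean f := by
      unfold mean
      rw [hcard, hsum f, hg]
      simp only [mean]
      rw [← Finset.sum_div, div_div]
    have hgd : ∀ ω ω' : α → A, ∀ k, (∀ j, j ≠ k → ω j = ω' j) → |g ω - g ω'| ≤ c := by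
      intro ω ω' k hk
      rw [hg]
      simp only [mean]
      rw [← sub_div, ← Finset.sum_sub_distrib, abs_div, abs_of_pos hA, div_le_iff₀ hA]
      refine (Finset.abs_sum_le_sum_abs _ _).trans ?_
      refine (Finset.sum_le_sum (fun a _ => hf _ _ (some k) ?_)).trans ?_
      · intro j hj
        cases j with
        | none => rfl
        | some j => exact hk j (fun h => hj (by rw [h]))
      · rw [Finset.sum_const, Finset.card_univ, nsmul_eq_mul, mul_comm]
    have h := ih this g hgd
    rw [hmean] at h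
    rw [hsum, hcard, Fintype.card_option]
    calc ∑ ω : α → A, ∑ x : A, Real.exp (s * f (E.symm (x, ω)))
        ≤ ∑ ω : α → A, (Fintype.card A : ℝ) * Real.exp (s * g ω + s ^ 2 * c ^ 2 / 2) := by
          refine Finset.sum_le_sum (fun ω _ => mgf_one _ c hc ?_ s)
          intro x y
          refine hf _ _ none ?_
          intro j hj
          cases j with
          | none => exact absurd rfl hj
          | some j => rfl
      _ = (Fintype.card A : ℝ) * Real.exp (s ^ 2 * c ^ 2 / 2) * ∑ ω : α → A, Real.exp (s * g ω) := by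
          rw [Finset.mul_sum]
          refine Finset.sum_congr rfl (fun ω _ => ?_)
          rw [Real.exp_add]; ring
      _ ≤ (Fintype.card A : ℝ) * Real.exp (s ^ 2 * c ^ 2 / 2) * ((Fintype.card (α → A) : ℝ) *
          Real.exp (s * mean f + (Fintype.card α : ℝ) * (s ^ 2 * c ^ 2 / 2))) := by
          gcongr
      _ = _ := by
          push_cast
          rw [show s * mean f + ((Fintype.card α : ℝ) + 1) * (s ^ 2 * c ^ 2 / 2)
            = (s * mean f + (Fintype.card α : ℝ) * (s ^ 2 * c ^ 2 / 2)) + s ^ 2 * c ^ 2 / 2 by ring,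
            Real.exp_add _ (s ^ 2 * c ^ 2 / 2)]
          ring

theorem mcdiarmid {ι A : Type} [Fintype ι] [DecidableEq ι] [Fintype A] [Nonempty A] (f : (ι → A) → ℝ) (c : ℝ)
    (hc : 0 < c)
    (hf : ∀ ω ω' : ι → A, ∀ k, (∀ j, j ≠ k → ω j = ω' j) → |f ω - f ω'| ≤ c) (t : ℝ) (ht : 0 ≤ t) :
    Pr (fun ω : ι → A => mean f + t ≤ f ω) ≤ Real.exp (-(t ^ 2) / (2 * (Fintype.card ι : ℝ) * c ^ 2)) := by
  have hN : (0:ℝ) < (Fintype.card (ι → A) : ℝ) := by exact_mod_cast Fintype.card_pos
  unfold Pr
  rw [div_le_iff₀ hN]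
  rcases Nat.eq_zero_or_pos (Fintype.card ι) with h0 | hpos
  · rw [h0]
    simp only [Nat.cast_zero, mul_zero, zero_mul, div_zero, Real.exp_zero, one_mul]
    exact_mod_cast Finset.card_le_univ _
  · have hn : (0:ℝ) < (Fintype.card ι : ℝ) := by exact_mod_cast hpos
    set s : ℝ := t / ((Fintype.card ι : ℝ) * c ^ 2) with hs
    have hs0 : 0 ≤ s := by positivity
    have h := mgf c hc s ι inferInstance f hf
    have h1 : ((Finset.univ.filter (fun ω : ι → A => mean f + t ≤ f ω)).card : ℝ) *
        Real.exp (s * (mean f + t)) ≤ ∑ ω, Real.exp (s * f ω) := by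
      rw [← nsmul_eq_mul, ← Finset.sum_const]
      refine le_trans (Finset.sum_le_sum (g := fun ω => Real.exp (s * f ω)) ?_) ?_
      · intro ω hω
        rw [Finset.mem_filter] at hω
        exact Real.exp_le_exp.mpr (mul_le_mul_of_nonneg_left hω.2 hs0)
      · exact Finset.sum_le_univ_sum_of_nonneg (fun ω => (Real.exp_pos _).le)
    have h2 := h1.trans h
    rw [← le_div_iff₀ (Real.exp_pos _), mul_div_assoc, ← Real.exp_sub] at h2
    refine h2.trans (le_of_eq ?_)
    rw [mul_comm]
    congr 2
    rw [hs]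
    field_simp
    ring

theorem mcdiarmid' {ι A : Type} [Fintype ι] [DecidableEq ι] [Fintype A] [Nonempty A] (f : (ι → A) → ℝ) (c : ℝ)
    (hc : 0 < c)
    (hf : ∀ ω ω' : ι → A, ∀ k, (∀ j, j ≠ k → ω j = ω' j) → |f ω - f ω'| ≤ c) (t : ℝ) (ht : 0 ≤ t) :
    Pr (fun ω : ι → A => f ω ≤ mean f - t) ≤ Real.exp (-(t ^ 2) / (2 * (Fintype.card ι : ℝ) * c ^ 2)) := by
  have h := mcdiarmid (fun ω => - f ω) c hc (by
    intro ω ω' k hk
    have := hf ω ω' k hk
    rw [← abs_neg]
    convert this using 2
    ring) t ht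
  have hm : mean (fun ω => - f ω) = - mean f := by
    unfold mean
    rw [Finset.sum_neg_distrib, neg_div]
  refine (Pr_mono ?_).trans h
  intro ω hω
  rw [hm]
  linarith

end Crest.Agent.RY
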