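/-
  RY_P4 : probability of a pattern on a line, and the number of slot patterns.
  PROOFS.
  * pattern_prob : for a line l each index k is on l iff ω k = val l k.1 (one of q values), independently.  So the probability that
      {k ∈ K : rp ω k on l} = A (A ⊆ K) is (1/q)^|A| (1-1/q)^(|K|-|A|)  (count functions with a product: Fintype.piFinset).
  * patF_card : the slot patterns of size 11 avoiding the part i0: choose 11 of the q other parts and a slot index (2000 possibilities) in each:
      C(q,11) 2000^11.      (#{A : A.card = n, slot pattern, parts in a set Q} = C(|Q|,n) 2000^n : induction on Q, or the bijection with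
      Σ over n-subsets of Q of functions.)
  * patG_card : size 10, avoiding two different parts: C(q-1,10) 2000^10.
-/
import Crest.Agent.RY_PDefs

set_option autoImplicit false

namespace Crest.Agent.RY
open Finset Classical

variable {F : Type} [Field F] [Fintype F] [DecidableEq F]

theorem pattern_prob {H : ℕ} (l : Ln F) (K A : Finset (Idx F H)) (hA : A ⊆ K) :
    Pr (fun ω : Om F H => (onI ω l) ∩ K = A) =
      (1 / (Fintype.card F : ℝ)) ^ A.card * (1 - 1 / (Fintype.card F : ℝ)) ^ (K.card - A.card) := by
  have hq : (Fintype.card F : ℝ) ≠ 0 := by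
    have : 0 < Fintype.card F := Fintype.card_pos
    exact_mod_cast this.ne'
  let c : Idx F H → Finset F := fun k =>
    if k ∈ A then {val l k.1} else if k ∈ K then univ.erase (val l k.1) else univ
  have hset : ∀ inst : DecidablePred (fun ω : Om F H => (onI ω l) ∩ K = A),
      (@Finset.filter _ (fun ω : Om F H => (onI ω l) ∩ K = A) inst univ) = Fintype.piFinset c := by
    intro inst
    ext ω
    simp only [Finset.mem_filter, Finset.mem_univ, true_and, Fintype.mem_piFinset]
    have hon : ∀ k, k ∈ onI ω l ↔ ω k = val l k.1 := by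
      intro k
      unfold onI
      rw [Finset.mem_filter]
      exact ⟨fun h => h.2, fun h => ⟨Finset.mem_univ _, h⟩⟩
    constructor
    · intro h k
      simp only [c]
      split_ifs with h1 h2
      · rw [← h] at h1
        rw [Finset.mem_singleton]
        exact (hon k).1 (Finset.mem_inter.1 h1).1
      · rw [Finset.mem_erase]
        refine ⟨fun h3 => h1 ?_, Finset.mem_univ _⟩
        rw [← h]
        exact Finset.mem_inter.2 ⟨(hon k).2 h3, h2⟩
      · exact Finset.mem_univ _
    · intro h
      ext k
      rw [Finset.mem_inter, hon]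
      have hk := h k
      simp only [c] at hk
      constructor
      · rintro ⟨h1, h2⟩
        by_contra h3
        rw [if_neg h3, if_pos h2, Finset.mem_erase] at hk
        exact hk.1 h1
      · intro h1
        rw [if_pos h1, Finset.mem_singleton] at hk
        exact ⟨hk, hA h1⟩
  have hcard : ((Fintype.piFinset c).card : ℝ) = ∏ k, ((c k).card : ℝ) := by
    rw [Fintype.card_piFinset]
    push_cast
    rfl
  have htot : ((Fintype.card (Om F H) : ℕ) : ℝ) = ∏ _k : Idx F H, (Fintype.card F : ℝ) := by
    rw [Fintype.card_fun]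
    simp
  unfold Pr
  rw [hset, hcard, htot, ← Finset.prod_div_distrib]
  have hterm : ∀ k : Idx F H, ((c k).card : ℝ) / (Fintype.card F : ℝ) =
      (if k ∈ A then 1 / (Fintype.card F : ℝ) else 1) *
        (if k ∈ K \ A then (1 - 1 / (Fintype.card F : ℝ)) else 1) := by
    intro k
    simp only [c]
    by_cases h1 : k ∈ A
    · have h2 : k ∉ K \ A := fun h => (Finset.mem_sdiff.1 h).2 h1
      rw [if_pos h1, if_pos h1, if_neg h2]
      simp
    · by_cases h2 : k ∈ K
      · have h3 : k ∈ K \ A := Finset.mem_sdiff.2 ⟨h2, h1⟩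
        rw [if_neg h1, if_pos h2, if_neg h1, if_pos h3, Finset.card_erase_of_mem (Finset.mem_univ _),
          Finset.card_univ, Nat.cast_sub (Nat.one_le_iff_ne_zero.2 (by
            have : 0 < Fintype.card F := Fintype.card_pos
            omega))]
        field_simp
        simp
      · have h3 : k ∉ K \ A := fun h => h2 (Finset.mem_sdiff.1 h).1
        rw [if_neg h1, if_neg h2, if_neg h1, if_neg h3, Finset.card_univ]
        field_simp
  rw [Finset.prod_congr rfl (fun k _ => hterm k), Finset.prod_mul_distrib,
    Finset.prod_ite_mem, Finset.prod_ite_mem, Finset.univ_inter, Finset.univ_inter,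
    Finset.prod_const, Finset.prod_const, Finset.card_sdiff_of_subset hA]

/-- slot patterns of size `n` with parts in `Q` -/
noncomputable def pats (F : Type) [Fintype F] (Q : Finset (Option F)) (n : ℕ) :
    Finset (Finset (Idx F 2001)) :=
  univ.filter (fun A => A.card = n ∧ (∀ k ∈ A, k.1 ∈ Q) ∧ (∀ k ∈ A, k.2 ≠ 0) ∧
    (∀ k ∈ A, ∀ k' ∈ A, k.1 = k'.1 → k = k'))

theorem pats_card_gen {α β : Type} [Fintype α] [Fintype β] [DecidableEq α] [DecidableEq β] (z : β)
    (Q : Finset α) (n : ℕ)
    (inst : DecidablePred (fun A : Finset (α × β) => A.card = n ∧ (∀ k ∈ A, k.1 ∈ Q) ∧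
      (∀ k ∈ A, k.2 ≠ z) ∧ (∀ k ∈ A, ∀ k' ∈ A, k.1 = k'.1 → k = k'))) :
    (@Finset.filter _ (fun A : Finset (α × β) => A.card = n ∧ (∀ k ∈ A, k.1 ∈ Q) ∧
      (∀ k ∈ A, k.2 ≠ z) ∧ (∀ k ∈ A, ∀ k' ∈ A, k.1 = k'.1 → k = k')) inst univ).card =
      Q.card.choose n * (Fintype.card β - 1) ^ n := by
  let S : Finset (Σ B : Finset α, (∀ x ∈ B, β)) :=
    (Finset.powersetCard n Q).sigma (fun B => B.pi (fun _ => (univ : Finset β).erase z))
  have hS : S.card = Q.card.choose n * (Fintype.card β - 1) ^ n := by
    simp only [S]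
    rw [Finset.card_sigma]
    have : ∀ B ∈ Finset.powersetCard n Q,
        (B.pi (fun _ => (univ : Finset β).erase z)).card = (Fintype.card β - 1) ^ n := by
      intro B hB
      rw [Finset.card_pi, Finset.prod_const, (Finset.mem_powersetCard.1 hB).2,
        Finset.card_erase_of_mem (Finset.mem_univ _), Finset.card_univ]
    rw [Finset.sum_congr rfl this, Finset.sum_const, Finset.card_powersetCard, smul_eq_mul]
  rw [← hS]
  symm
  refine Finset.card_bij
    (fun (p : Σ B : Finset α, (∀ x ∈ B, β)) _ =>
      (p.1.attach.image (fun x => (x.1, p.2 x.1 x.2)) : Finset (α × β))) ?_ ?_ ?_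
  · rintro ⟨B, f⟩ hp
    simp only [S, Finset.mem_sigma, Finset.mem_powersetCard, Finset.mem_pi] at hp
    obtain ⟨⟨hBQ, hBn⟩, hf⟩ := hp
    rw [Finset.mem_filter]
    refine ⟨Finset.mem_univ _, ?_, ?_, ?_, ?_⟩
    · rw [Finset.card_image_of_injective, Finset.card_attach, hBn]
      intro x y hxy
      have := congrArg Prod.fst hxy
      exact Subtype.ext this
    · intro k hk
      obtain ⟨x, _, hx⟩ := Finset.mem_image.1 hk
      rw [← hx]
      exact hBQ x.2
    · intro k hk
      obtain ⟨x, _, hx⟩ := Finset.mem_image.1 hk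
      rw [← hx]
      exact (Finset.mem_erase.1 (hf x.1 x.2)).1
    · intro k hk k' hk' hkk
      obtain ⟨x, _, hx⟩ := Finset.mem_image.1 hk
      obtain ⟨y, _, hy⟩ := Finset.mem_image.1 hk'
      rw [← hx, ← hy] at hkk ⊢
      have : x = y := Subtype.ext hkk
      rw [this]
  · rintro ⟨B, f⟩ hp ⟨B', f'⟩ hp' h
    simp only at h
    have hB : B = B' := by
      have h1 := congrArg (fun A : Finset (α × β) => A.image Prod.fst) h
      simp only [Finset.image_image] at h1
      have e1 : B.attach.image (Prod.fst ∘ fun x : {x // x ∈ B} => (x.1, f x.1 x.2)) = B := by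
        have : (Prod.fst ∘ fun x : {x // x ∈ B} => (x.1, f x.1 x.2)) = Subtype.val := rfl
        rw [this]; exact Finset.attach_image_val
      have e2 : B'.attach.image (Prod.fst ∘ fun x : {x // x ∈ B'} => (x.1, f' x.1 x.2)) = B' := by
        have : (Prod.fst ∘ fun x : {x // x ∈ B'} => (x.1, f' x.1 x.2)) = Subtype.val := rfl
        rw [this]; exact Finset.attach_image_val
      rw [e1, e2] at h1
      exact h1
    subst hB
    have hff : f = f' := by
      funext x hx
      have hmem : (x, f x hx) ∈ (B.attach.image (fun x => (x.1, f x.1 x.2)) : Finset (α × β)) :=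
        Finset.mem_image.2 ⟨⟨x, hx⟩, Finset.mem_attach _ _, rfl⟩
      rw [h] at hmem
      obtain ⟨y, _, hy⟩ := Finset.mem_image.1 hmem
      have h1 : y.1 = x := congrArg Prod.fst hy
      have h2 : f' y.1 y.2 = f x hx := congrArg Prod.snd hy
      rw [← h2]
      obtain ⟨y1, y2⟩ := y
      simp only at h1
      subst h1
      rfl
    rw [hff]
  · intro A hA
    rw [Finset.mem_filter] at hA
    obtain ⟨_, hn, hQ, h0, hinj⟩ := hA
    have hex : ∀ x ∈ A.image Prod.fst, ∃ a : β, (x, a) ∈ A := by
      intro x hx
      obtain ⟨k, hk, hkx⟩ := Finset.mem_image.1 hx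
      exact ⟨k.2, by rw [← hkx]; exact hk⟩
    refine ⟨⟨A.image Prod.fst, fun x hx => Classical.choose (hex x hx)⟩, ?_, ?_⟩
    · simp only [S, Finset.mem_sigma, Finset.mem_powersetCard, Finset.mem_pi]
      refine ⟨⟨?_, ?_⟩, ?_⟩
      · intro x hx
        obtain ⟨k, hk, hkx⟩ := Finset.mem_image.1 hx
        rw [← hkx]
        exact hQ k hk
      · rw [Finset.card_image_of_injOn, hn]
        intro k hk k' hk' h
        exact hinj k hk k' hk' h
      · intro x hx
        rw [Finset.mem_erase]
        exact ⟨h0 _ (Classical.choose_spec (hex x hx)), Finset.mem_univ _⟩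
    · ext k
      simp only [Finset.mem_image, Finset.mem_attach, true_and]
      constructor
      · rintro ⟨x, hx⟩
        rw [← hx]
        exact Classical.choose_spec (hex x.1 x.2)
      · intro hk
        have hk1 : k.1 ∈ A.image Prod.fst := Finset.mem_image_of_mem _ hk
        refine ⟨⟨k.1, hk1⟩, ?_⟩
        exact hinj _ (Classical.choose_spec (hex k.1 hk1)) k hk rfl

theorem pats_card (Q : Finset (Option F)) (n : ℕ) : (pats F Q n).card = Q.card.choose n * 2000 ^ n := by
  unfold pats
  refine (pats_card_gen (0 : Fin 2001) Q n _).trans ?_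
  rw [Fintype.card_fin]

end Crest.Agent.RY
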