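/-
  RY_P6 : the means of |fset| and |gset|.
  PROOFS (q = card F).
  * mean |fset ω z| = Σ_{l∋z} P(onI ω l ∩ K ∈ pats Q 11), K = {k : k.1 ≠ z.1}, |K| = 2001 q, Q = parts ≠ z.1, |Q| = q;
    = q * C(q,11) 2000^11 (1/q)^11 (1-1/q)^(2001q-11)   (pattern_prob, pats_card; note (onI ω l).filter (k.1 ≠ z.1) = onI ω l ∩ K,
    and A ∈ pats Q 11 iff A.card = 11, parts ≠ z.1 and SlotPat A).
  * mean |gset ω z| ≤ Σ_{l∋z} Σ_{i≠z.1} P(index (i,0) on l and onI ω l ∩ K_i ∈ pats Q_i 10), K_i = {k : k.1 ≠ z.1, k.1 ≠ i}, |K_i| = 2001(q-1),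
    Q_i = parts ≠ z.1, i, |Q_i| = q-1;   P(...) = Σ_A P(onI ∩ (K_i ∪ {(i,0)}) = A ∪ {(i,0)}) = |pats| (1/q)^11 (1-1/q)^(2001(q-1)+1-11).
-/
import Crest.Agent.RY_McD
import Crest.Agent.RY_S4
import Crest.Agent.RY_P4

set_option autoImplicit false

namespace Crest.Agent.RY
open Finset Classical

/-- the mean of `|fset|` -/
noncomputable def mf (q : ℕ) : ℝ :=
  (q : ℝ) * (q.choose 11 : ℝ) * 2000 ^ 11 * (1 / (q : ℝ)) ^ 11 * (1 - 1 / (q : ℝ)) ^ (2001 * q - 11)

/-- upper bound for the mean of `|gset|` -/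
noncomputable def mg (q : ℕ) : ℝ :=
  (q : ℝ) ^ 2 * ((q - 1).choose 10 : ℝ) * 2000 ^ 10 * (1 / (q : ℝ)) ^ 11 * (1 - 1 / (q : ℝ)) ^ (2001 * (q - 1) - 10)

variable {F : Type} [Field F] [Fintype F] [DecidableEq F]

/-- the mean of a counting function is the sum of the probabilities -/
private theorem ry6_mean_count {α β : Type} [Fintype α] (T : Finset β) (p : α → β → Prop)
    [∀ ω b, Decidable (p ω b)] :
    mean (fun ω : α => (((T.filter (fun b => p ω b)).card : ℕ) : ℝ)) = ∑ b ∈ T, Pr (fun ω => p ω b) := by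
  unfold mean Pr
  rw [← Finset.sum_div]
  congr 1
  have h1 : ∀ ω : α, (((T.filter (fun b => p ω b)).card : ℕ) : ℝ) = ∑ b ∈ T, (if p ω b then (1:ℝ) else 0) := by
    intro ω
    rw [Finset.card_filter]
    push_cast
    rfl
  have h2 : ∀ b ∈ T, (((@Finset.filter α (fun ω => p ω b) (fun a => propDecidable _) univ).card : ℕ) : ℝ) =
      ∑ ω : α, (if p ω b then (1:ℝ) else 0) := by
    intro b _
    rw [Finset.card_filter]
    push_cast
    refine Finset.sum_congr rfl (fun ω _ => ?_)
    by_cases h : p ω b <;> simp [h]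
  rw [Finset.sum_congr rfl (fun ω _ => h1 ω), Finset.sum_congr rfl h2, Finset.sum_comm]

/-- splitting a probability according to the value of a function -/
private theorem ry6_Pr_mem {α β : Type} [Fintype α] (S : Finset β) (g : α → β) (p : α → Prop) :
    Pr (fun ω => p ω ∧ g ω ∈ S) = ∑ A ∈ S, Pr (fun ω => p ω ∧ g ω = A) := by
  unfold Pr
  rw [← Finset.sum_div]
  congr 1
  have h : univ.filter (fun ω => p ω ∧ g ω ∈ S) = S.biUnion (fun A => univ.filter (fun ω => p ω ∧ g ω = A)) := by
    ext ω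
    simp only [Finset.mem_filter, Finset.mem_univ, true_and, Finset.mem_biUnion]
    constructor
    · rintro ⟨h1, h2⟩
      exact ⟨g ω, h2, h1, rfl⟩
    · rintro ⟨A, hA, h1, h2⟩
      exact ⟨h1, by rw [h2]; exact hA⟩
  have key : ((univ.filter (fun ω => p ω ∧ g ω ∈ S)).card : ℝ) =
      ∑ A ∈ S, ((univ.filter (fun ω => p ω ∧ g ω = A)).card : ℝ) := by
    rw [h, Finset.card_biUnion]
    · push_cast; rfl
    · intro A _ B _ hAB
      rw [Function.onFun, Finset.disjoint_left]
      intro ω h1 h2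
      rw [Finset.mem_filter] at h1 h2
      exact hAB (h1.2.2.symm.trans h2.2.2)
  convert key

omit [Field F] [DecidableEq F] in
private theorem ry6_mem_pats (Q : Finset (Option F)) (n : ℕ) (A : Finset (Idx F 2001)) :
    A ∈ pats F Q n ↔ (A.card = n ∧ (∀ k ∈ A, k.1 ∈ Q) ∧ (∀ k ∈ A, k.2 ≠ 0) ∧
      (∀ k ∈ A, ∀ k' ∈ A, k.1 = k'.1 → k = k')) := by
  unfold pats
  rw [Finset.mem_filter]
  exact ⟨fun h => h.2, fun h => ⟨Finset.mem_univ _, h⟩⟩

private theorem ry6_Pr_congr {α : Type} [Fintype α] {p r : α → Prop} (h : ∀ a, p a ↔ r a) : Pr p = Pr r := by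
  have : p = r := funext fun a => propext (h a)
  rw [this]

omit [Field F] in
private theorem ry6_cardK (Q : Finset (Option F)) :
    (univ.filter (fun k : Idx F 2001 => k.1 ∈ Q)).card = 2001 * Q.card := by
  have h : univ.filter (fun k : Idx F 2001 => k.1 ∈ Q) = Q ×ˢ (univ : Finset (Fin 2001)) := by
    ext k
    simp [Finset.mem_product]
  rw [h, Finset.card_product, Finset.card_univ, Fintype.card_fin, mul_comm]

theorem fset_mean (z : Pt F) (hq : 11 ≤ Fintype.card F) :
    mean (fun ω : Om F 2001 => ((fset ω z).card : ℝ)) = mf (Fintype.card F) := by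
  set Q : Finset (Option F) := univ.erase z.1 with hQ
  set K : Finset (Idx F 2001) := univ.filter (fun k => k.1 ∈ Q) with hK
  have hQc : Q.card = Fintype.card F := by
    rw [hQ, Finset.card_erase_of_mem (Finset.mem_univ _), Finset.card_univ, Fintype.card_option]
    rfl
  have hKc : K.card = 2001 * Fintype.card F := by rw [hK, ry6_cardK, hQc]
  have hfilter : ∀ (ω : Om F 2001) (l : Ln F),
      (onI ω l).filter (fun k => k.1 ≠ z.1) = onI ω l ∩ K := by
    intro ω l
    ext k
    simp [hK, hQ, Finset.mem_filter, Finset.mem_inter]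
  have h1 : ∀ ω : Om F 2001, fset ω z =
      (univ.filter (fun l : Ln F => on z l)).filter (fun l => onI ω l ∩ K ∈ pats F Q 11) := by
    intro ω
    ext l
    unfold fset SlotPat
    rw [Finset.mem_filter, Finset.mem_filter, Finset.mem_filter, ry6_mem_pats, hfilter ω l]
    constructor
    · rintro ⟨h0, h1, h2, h3, h4⟩
      refine ⟨⟨h0, h1⟩, h2, ?_, h3, h4⟩
      intro k hk
      have := (Finset.mem_inter.1 hk).2
      rw [hK, Finset.mem_filter] at this
      exact this.2
    · rintro ⟨⟨h0, h1⟩, h2, -, h3, h4⟩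
      exact ⟨h0, h1, h2, h3, h4⟩
  have h2 : (fun ω : Om F 2001 => ((fset ω z).card : ℝ)) = fun ω : Om F 2001 =>
      ((((univ.filter (fun l : Ln F => on z l)).filter (fun l => onI ω l ∩ K ∈ pats F Q 11)).card : ℕ) : ℝ) := by
    funext ω
    rw [h1 ω]
  rw [h2, ry6_mean_count]
  have h3 : ∀ l ∈ univ.filter (fun l : Ln F => on z l),
      Pr (fun ω : Om F 2001 => onI ω l ∩ K ∈ pats F Q 11) =
      ((Fintype.card F).choose 11 : ℝ) * 2000 ^ 11 * ((1 / (Fintype.card F : ℝ)) ^ 11 *
        (1 - 1 / (Fintype.card F : ℝ)) ^ (2001 * Fintype.card F - 11)) := by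
    intro l _
    have e1 : Pr (fun ω : Om F 2001 => onI ω l ∩ K ∈ pats F Q 11) =
        Pr (fun ω : Om F 2001 => True ∧ onI ω l ∩ K ∈ pats F Q 11) :=
      ry6_Pr_congr (fun ω => by simp)
    rw [e1, ry6_Pr_mem]
    have e2 : ∀ A ∈ pats F Q 11, Pr (fun ω : Om F 2001 => True ∧ onI ω l ∩ K = A) =
        (1 / (Fintype.card F : ℝ)) ^ 11 * (1 - 1 / (Fintype.card F : ℝ)) ^ (2001 * Fintype.card F - 11) := by
      intro A hA
      rw [ry6_mem_pats] at hA
      have hAK : A ⊆ K := by
        intro k hk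
        rw [hK, Finset.mem_filter]
        exact ⟨Finset.mem_univ _, hA.2.1 k hk⟩
      rw [ry6_Pr_congr (r := fun ω : Om F 2001 => onI ω l ∩ K = A) (fun ω => by simp),
        pattern_prob l K A hAK, hA.1, hKc]
    rw [Finset.sum_congr rfl e2, Finset.sum_const, pats_card, hQc, nsmul_eq_mul]
    push_cast
    ring
  rw [Finset.sum_congr rfl h3, Finset.sum_const, card_on_pt, nsmul_eq_mul]
  unfold mf
  ring

theorem gset_mean (z : Pt F) (hq : 11 ≤ Fintype.card F) :
    mean (fun ω : Om F 2001 => ((gset ω z).card : ℝ)) ≤ mg (Fintype.card F) := by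
  set I : Finset (Option F) := univ.erase z.1 with hI
  have hIc : I.card = Fintype.card F := by
    rw [hI, Finset.card_erase_of_mem (Finset.mem_univ _), Finset.card_univ, Fintype.card_option]
    rfl
  -- the condition for a line and a part
  let cnd : Om F 2001 → (Ln F × Option F) → Prop := fun ω p =>
    on (rp ω (p.2, 0)) p.1 ∧ onI ω p.1 ∩ (univ.filter (fun k : Idx F 2001 => k.1 ∈ I.erase p.2)) ∈
      pats F (I.erase p.2) 10
  have hle : ∀ ω : Om F 2001, ((gset ω z).card : ℝ) ≤
      (((((univ.filter (fun l : Ln F => on z l)) ×ˢ I).filter (fun p => cnd ω p)).card : ℕ) : ℝ) := by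
    intro ω
    have hsub : gset ω z ⊆ (((univ.filter (fun l : Ln F => on z l)) ×ˢ I).filter (fun p => cnd ω p)).image
        Prod.fst := by
      intro l hl
      unfold gset at hl
      rw [Finset.mem_filter] at hl
      obtain ⟨-, hz, i, hi, h0, h1, h2⟩ := hl
      rw [Finset.mem_image]
      refine ⟨(l, i), ?_, rfl⟩
      have hfilter : (onI ω l).filter (fun k => k.1 ≠ z.1 ∧ k.1 ≠ i) =
          onI ω l ∩ (univ.filter (fun k : Idx F 2001 => k.1 ∈ I.erase i)) := by
        ext k
        simp only [hI, Finset.mem_filter, Finset.mem_inter, Finset.mem_univ, true_and,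
          Finset.mem_erase, and_true]
        tauto
      rw [hfilter] at h1 h2
      rw [Finset.mem_filter, Finset.mem_product]
      refine ⟨⟨by rw [Finset.mem_filter]; exact ⟨Finset.mem_univ _, hz⟩, ?_⟩, h0, ?_⟩
      · rw [hI]; exact Finset.mem_erase.2 ⟨hi, Finset.mem_univ _⟩
      · rw [ry6_mem_pats]
        refine ⟨h1, ?_, h2.1, h2.2⟩
        intro k hk
        have := (Finset.mem_inter.1 hk).2
        rw [Finset.mem_filter] at this
        exact this.2
    exact_mod_cast (Finset.card_le_card hsub).trans Finset.card_image_le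
  have hmono : mean (fun ω : Om F 2001 => ((gset ω z).card : ℝ)) ≤
      mean (fun ω : Om F 2001 =>
        (((((univ.filter (fun l : Ln F => on z l)) ×ˢ I).filter (fun p => cnd ω p)).card : ℕ) : ℝ)) := by
    unfold mean
    apply div_le_div_of_nonneg_right _ (by positivity)
    exact Finset.sum_le_sum (fun ω _ => hle ω)
  refine hmono.trans (le_of_eq ?_)
  rw [ry6_mean_count]
  have h3 : ∀ p ∈ (univ.filter (fun l : Ln F => on z l)) ×ˢ I,
      Pr (fun ω : Om F 2001 => cnd ω p) =
      ((Fintype.card F - 1).choose 10 : ℝ) * 2000 ^ 10 * ((1 / (Fintype.card F : ℝ)) ^ 11 *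
        (1 - 1 / (Fintype.card F : ℝ)) ^ (2001 * (Fintype.card F - 1) - 10)) := by
    rintro ⟨l, i⟩ hp
    rw [Finset.mem_product] at hp
    have hi : i ∈ I := hp.2
    set K : Finset (Idx F 2001) := univ.filter (fun k : Idx F 2001 => k.1 ∈ I.erase i) with hK
    have hQc : (I.erase i).card = Fintype.card F - 1 := by
      rw [Finset.card_erase_of_mem hi, hIc]
    have hKc : K.card = 2001 * (Fintype.card F - 1) := by rw [hK, ry6_cardK, hQc]
    have h0K : ((i, 0) : Idx F 2001) ∉ K := by
      rw [hK, Finset.mem_filter]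
      simp
    have e1 : Pr (fun ω : Om F 2001 => cnd ω (l, i)) =
        Pr (fun ω : Om F 2001 => on (rp ω (i, 0)) l ∧ onI ω l ∩ K ∈ pats F (I.erase i) 10) := rfl
    rw [e1, ry6_Pr_mem]
    have e2 : ∀ A ∈ pats F (I.erase i) 10,
        Pr (fun ω : Om F 2001 => on (rp ω (i, 0)) l ∧ onI ω l ∩ K = A) =
        (1 / (Fintype.card F : ℝ)) ^ 11 *
          (1 - 1 / (Fintype.card F : ℝ)) ^ (2001 * (Fintype.card F - 1) - 10) := by
      intro A hA
      rw [ry6_mem_pats] at hA
      have hAK : A ⊆ K := by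
        intro k hk
        rw [hK, Finset.mem_filter]
        exact ⟨Finset.mem_univ _, hA.2.1 k hk⟩
      have h0A : ((i, 0) : Idx F 2001) ∉ A := fun h => h0K (hAK h)
      have e3 : ∀ ω : Om F 2001, (on (rp ω (i, 0)) l ∧ onI ω l ∩ K = A) ↔
          onI ω l ∩ (insert ((i, 0) : Idx F 2001) K) = insert ((i, 0) : Idx F 2001) A := by
        intro ω
        have hmem : ((i, 0) : Idx F 2001) ∈ onI ω l ↔ on (rp ω (i, 0)) l := by
          unfold onI
          rw [Finset.mem_filter]
          simp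
        constructor
        · rintro ⟨h1, h2⟩
          rw [Finset.inter_insert_of_mem (hmem.2 h1), h2]
        · intro h
          have h4 : ((i, 0) : Idx F 2001) ∈ onI ω l := by
            have : ((i, 0) : Idx F 2001) ∈ onI ω l ∩ (insert ((i, 0) : Idx F 2001) K) := by
              rw [h]; exact Finset.mem_insert_self _ _
            exact (Finset.mem_inter.1 this).1
          refine ⟨hmem.1 h4, ?_⟩
          rw [Finset.inter_insert_of_mem h4] at h
          have h5 : ((i, 0) : Idx F 2001) ∉ onI ω l ∩ K := fun h => h0K (Finset.mem_inter.1 h).2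
          calc onI ω l ∩ K = (insert ((i, 0) : Idx F 2001) (onI ω l ∩ K)).erase (i, 0) :=
                (Finset.erase_insert h5).symm
            _ = (insert ((i, 0) : Idx F 2001) A).erase (i, 0) := by rw [h]
            _ = A := Finset.erase_insert h0A
      rw [ry6_Pr_congr e3, pattern_prob l _ _ (Finset.insert_subset_insert _ hAK),
        Finset.card_insert_of_notMem h0A, Finset.card_insert_of_notMem h0K, hA.1, hKc]
      have e4 : 2001 * (Fintype.card F - 1) + 1 - (10 + 1) = 2001 * (Fintype.card F - 1) - 10 := by omega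
      rw [e4]
    rw [Finset.sum_congr rfl e2, Finset.sum_const, pats_card, hQc, nsmul_eq_mul]
    push_cast
    ring
  rw [Finset.sum_congr rfl h3, Finset.sum_const, Finset.card_product, card_on_pt, hIc, nsmul_eq_mul]
  unfold mg
  push_cast
  ring

end Crest.Agent.RY
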