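/-
  RY_P7 : analysis of mf and mg:  mf q = (2000/11) (1-1/q)^2000 mg q  (C(q,11) = (q/11) C(q-1,10)), and mg q ≥ c q.
-/
import Crest.Agent.RY_P6

set_option autoImplicit false

namespace Crest.Agent.RY
open Finset Classical

private theorem p7_exp (q : ℕ) (hq : 2 ≤ q) :
    Real.exp (-1) ≤ (1 - 1 / (q : ℝ)) ^ (q - 1) := by
  obtain ⟨n, rfl⟩ : ∃ n, q = n + 2 := ⟨q - 2, by omega⟩
  have hn1 : n + 2 - 1 = n + 1 := by omega
  rw [hn1]
  have hpos : (0 : ℝ) < (n : ℝ) + 1 := by positivity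
  have h1 : (1 - 1 / ((n + 2 : ℕ) : ℝ)) = (1 + 1 / ((n : ℝ) + 1))⁻¹ := by
    push_cast
    field_simp
    ring
  rw [h1, inv_pow, Real.exp_neg]
  apply inv_anti₀ (by positivity)
  have h2 : 1 + 1 / ((n : ℝ) + 1) ≤ Real.exp (1 / ((n : ℝ) + 1)) := by
    have := Real.add_one_le_exp (1 / ((n : ℝ) + 1))
    linarith
  calc (1 + 1 / ((n : ℝ) + 1)) ^ (n + 1) ≤ (Real.exp (1 / ((n : ℝ) + 1))) ^ (n + 1) :=
        pow_le_pow_left₀ (by positivity) h2 _
    _ = Real.exp 1 := by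
        rw [← Real.exp_nat_mul]
        congr 1
        push_cast
        field_simp

private theorem p7_eq (q : ℕ) (hq : 12 ≤ q) :
    mf q = (2000 / 11) * (1 - 1 / (q : ℝ)) ^ 2000 * mg q := by
  obtain ⟨n, rfl⟩ : ∃ n, q = n + 1 := ⟨q - 1, by omega⟩
  have hch : ((n + 1 : ℕ) : ℝ) * (n.choose 10 : ℝ) = ((n + 1).choose 11 : ℝ) * 11 := by
    have := Nat.add_one_mul_choose_eq n 10
    exact_mod_cast this
  unfold mf mg
  have he : 2001 * (n + 1) - 11 = 2000 + (2001 * (n + 1 - 1) - 10) := by omega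
  have hn : n + 1 - 1 = n := by omega
  rw [he, pow_add, hn]
  have h11 : ((n + 1).choose 11 : ℝ) = ((n + 1 : ℕ) : ℝ) * (n.choose 10 : ℝ) / 11 := by
    rw [hch]; ring
  rw [h11]
  generalize (1 - 1 / ((n + 1 : ℕ) : ℝ)) = x
  generalize x ^ 2000 = y
  generalize x ^ (2001 * n - 10) = w
  generalize (n.choose 10 : ℝ) = u
  generalize ((n + 1 : ℕ) : ℝ) = v
  have h2000 : (2000 : ℝ) ^ 11 = 2000 ^ 10 * 2000 := by rw [pow_succ]
  rw [h2000]
  generalize (2000 : ℝ) ^ 10 = k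
  ring

theorem mf_mg : ∃ c : ℝ, 0 < c ∧ ∃ q₀ : ℕ, ∀ q : ℕ, q₀ ≤ q →
    c * (q : ℝ) ≤ mg q ∧ 150 * mg q ≤ mf q := by
  refine ⟨Real.exp (-2001), Real.exp_pos _, 20000, ?_⟩
  intro q hq
  have hqR : (20000 : ℝ) ≤ (q : ℝ) := by exact_mod_cast hq
  have hq0 : (0 : ℝ) < (q : ℝ) := by linarith
  have hx0 : (0 : ℝ) ≤ 1 - 1 / (q : ℝ) := by
    have : 1 / (q : ℝ) ≤ 1 := by rw [div_le_one hq0]; linarith
    linarith
  have hx1 : 1 - 1 / (q : ℝ) ≤ 1 := by
    have : 0 ≤ 1 / (q : ℝ) := by positivity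
    linarith
  -- lower bound for mg
  have hmg : Real.exp (-2001) * (q : ℝ) ≤ mg q := by
    have h1 : Real.exp (-2001) ≤ (1 - 1 / (q : ℝ)) ^ (2001 * (q - 1) - 10) := by
      calc Real.exp (-2001) = (Real.exp (-1)) ^ 2001 := by
            rw [← Real.exp_nat_mul]; congr 1; norm_num
        _ ≤ ((1 - 1 / (q : ℝ)) ^ (q - 1)) ^ 2001 :=
            pow_le_pow_left₀ (Real.exp_pos _).le (p7_exp q (by omega)) _
        _ = (1 - 1 / (q : ℝ)) ^ (2001 * (q - 1)) := by rw [← pow_mul, mul_comm]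
        _ ≤ (1 - 1 / (q : ℝ)) ^ (2001 * (q - 1) - 10) :=
            pow_le_pow_of_le_one hx0 hx1 (Nat.sub_le _ _)
    have h2 : ((q : ℝ) / 2) ^ 10 / (Nat.factorial 10 : ℝ) ≤ ((q - 1).choose 10 : ℝ) := by
      have h3 := Nat.pow_le_choose (α := ℝ) 10 (q - 1)
      refine le_trans ?_ h3
      apply div_le_div_of_nonneg_right _ (by positivity)
      apply pow_le_pow_left₀ (by positivity)
      have : q - 1 + 1 - 10 = q - 10 := by omega
      rw [this, Nat.cast_sub (by omega)]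
      push_cast
      linarith
    have h4 : (q : ℝ) ≤ (q : ℝ) ^ 2 * ((q - 1).choose 10 : ℝ) * 2000 ^ 10 * (1 / (q : ℝ)) ^ 11 := by
      calc (q : ℝ) ≤ (q : ℝ) ^ 2 * (((q : ℝ) / 2) ^ 10 / (Nat.factorial 10 : ℝ)) * 2000 ^ 10 *
            (1 / (q : ℝ)) ^ 11 := by
              have : (q : ℝ) ^ 2 * (((q : ℝ) / 2) ^ 10 / (Nat.factorial 10 : ℝ)) * 2000 ^ 10 *
                  (1 / (q : ℝ)) ^ 11 = (q : ℝ) * (1000 ^ 10 / (Nat.factorial 10 : ℝ)) := by
                field_simp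
                norm_num
              rw [this]
              have h5 : (1 : ℝ) ≤ 1000 ^ 10 / (Nat.factorial 10 : ℝ) := by
                rw [le_div_iff₀ (by positivity)]
                norm_num [Nat.factorial]
              nlinarith
        _ ≤ _ := by gcongr
    unfold mg
    calc Real.exp (-2001) * (q : ℝ) = (q : ℝ) * Real.exp (-2001) := mul_comm _ _
      _ ≤ _ := mul_le_mul h4 h1 (Real.exp_pos _).le (le_trans hq0.le h4)
  refine ⟨hmg, ?_⟩
  rw [p7_eq q (by omega)]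
  have hmg0 : 0 ≤ mg q := le_trans (by positivity) hmg
  have hB : 1 + ((2000 : ℕ) : ℝ) * (-(1 / (q : ℝ))) ≤ (1 + -(1 / (q : ℝ))) ^ 2000 :=
    one_add_mul_le_pow (by
      have : 1 / (q : ℝ) ≤ 1 := by rw [div_le_one hq0]; linarith
      linarith) 2000
  have h6 : 1 / (q : ℝ) ≤ 1 / 20000 := one_div_le_one_div_of_le (by norm_num) hqR
  have h7 : (1 + -(1 / (q : ℝ))) = 1 - 1 / (q : ℝ) := by ring
  rw [h7] at hB
  generalize (1 - 1 / (q : ℝ)) ^ 2000 = y at hB ⊢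
  have hB2 : (9 : ℝ) / 10 ≤ y := by
    refine le_trans ?_ hB
    push_cast
    linarith
  have h8 : (150 : ℝ) ≤ 2000 / 11 * y := by linarith
  exact mul_le_mul_of_nonneg_right h8 hmg0

end Crest.Agent.RY
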