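/-
  RY_P8 : candidate counts with high probability, and partN1.
  PROOF of cands_prob.  B = ⌊1.2 mg q⌋₊ + 1 ≥ mg q ≥ c q.  For each of the q(q+1) points z, by McDiarmid (constant 2, (q+1)2001 coordinates,
   t = 0.1 mg q ≥ 0.1 c q):  P(|fset| < mf - 0.1 mg) and P(|gset| > mg + 0.1 mg) are ≤ exp(-c' q).  Outside: |gset| ≤ 1.1 mg ≤ B and
   |fset| ≥ 149.9 mg ≥ 100 (1.2 mg + 1) ≥ 100 B for large q.
  PROOF of partN1'.  good_all, load_prob, cands_prob give PRand c ω with probability ≥ 1 - 3/16 (c = min of the constants).  Given PRand c ω take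
   mn i = rp ω (i,0), cd i = cand ω i, D = B.
   - cd_card, cd_main: for l ∈ cand ω i the sparse points on l are rp ω (i,0) and the 11 points rp ω k, k in the pattern (distinct parts,
     slot indices; if such a point t were equal to mn t.1 then the index (t.1,0) would be in the pattern, but its second component is 0).
   - cand_le: s = rp ω k ∈ R, s ≠ mn s.1, so k.2 ≠ 0; a line l ∋ s in cand ω i has i ≠ s.1 (else the line would contain two points of the part i),
     and k is in its pattern; removing k: the indices of parts ≠ i, ≠ s.1 form a slot pattern of size 10 (parts in the pattern are distinct), so l ∈ gset ω s.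
   - cand_ge: 88 B + 100000 ≤ 100 B for large q as B ≥ c q.
   - good: good2 with r = mn i, j = s.1, j' = s'.1, A = (onL R l0) \ {mn i, s}, A' = (onL R l1) \ {mn i, s'} (10 points each): a line b ∈ good2 is plain at mn i
     and lin t (ptl b s.1) ∈ plain R t for t∈A (the line lin t z is the line through t and z since t.1 ≠ s.1; all sparse points on it are t).
   - part_le: the points of R in the part i are rp ω (i,a), a < 2001.
-/
import Crest.Agent.RY_NIface
import Crest.Agent.RY_P3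
import Crest.Agent.RY_P3b
import Crest.Agent.RY_P5
import Crest.Agent.RY_P7

set_option autoImplicit false

namespace Crest.Agent.RY
open Finset Classical

private theorem P8_union {α β : Type} [Fintype α] [Fintype β] (P : β → α → Prop) (e : ℝ)
    (h : ∀ b, Pr (P b) ≤ e) : Pr (fun a => ∃ b, P b a) ≤ (Fintype.card β : ℝ) * e := by
  have h1 : Pr (fun a => ∃ b, P b a) ≤ ∑ b : β, Pr (P b) := by
    unfold Pr
    rw [← sum_div]
    apply div_le_div_of_nonneg_right _ (by positivity)
    have : (univ.filter (fun a => ∃ b, P b a)) ⊆ univ.biUnion (fun b => univ.filter (P b)) := by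
      intro a ha
      rw [mem_filter] at ha
      obtain ⟨_, b, hb⟩ := ha
      rw [mem_biUnion]
      exact ⟨b, mem_univ _, mem_filter.mpr ⟨mem_univ _, hb⟩⟩
    have h2 := (card_le_card this).trans card_biUnion_le
    have h3 : ((univ.filter (fun a => ∃ b, P b a)).card : ℝ) ≤
        ((∑ b : β, (univ.filter (P b)).card : ℕ) : ℝ) := Nat.cast_le.mpr h2
    rw [Nat.cast_sum] at h3
    refine le_trans (le_of_eq ?_) (h3.trans (le_of_eq ?_))
    · congr!
    · congr!
  refine h1.trans ?_
  calc ∑ b : β, Pr (P b) ≤ ∑ _b : β, e := sum_le_sum fun b _ => h b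
    _ = (Fintype.card β : ℝ) * e := by rw [sum_const, card_univ, nsmul_eq_mul]

private theorem P8_exp (c' q : ℝ) (hc' : 0 < c') (hq : 1 ≤ q) (h : 384 / c' ^ 3 ≤ q) :
    (q + 1) * q * (Real.exp (-(c' * q)) + Real.exp (-(c' * q))) ≤ 1 / 16 := by
  have hx : 0 < c' * q := by positivity
  have h1 := Real.pow_div_factorial_le_exp (c' * q) hx.le 3
  have h2 : ((3 : ℕ).factorial : ℝ) = 6 := by norm_num [Nat.factorial]
  rw [h2] at h1
  have h3 : Real.exp (-(c' * q)) ≤ 6 / (c' * q) ^ 3 := by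
    rw [Real.exp_neg, ← one_div, div_le_div_iff₀ (Real.exp_pos _) (by positivity)]
    rw [div_le_iff₀ (by norm_num)] at h1
    linarith
  have h4 : 384 ≤ c' ^ 3 * q := by
    rw [div_le_iff₀ (by positivity)] at h
    linarith
  calc (q + 1) * q * (Real.exp (-(c' * q)) + Real.exp (-(c' * q)))
      ≤ (2 * q) * q * (6 / (c' * q) ^ 3 + 6 / (c' * q) ^ 3) := by
        gcongr
        linarith
    _ = 24 / (c' ^ 3 * q) := by field_simp; ring
    _ ≤ 1 / 16 := by
        rw [div_le_div_iff₀ (by positivity) (by norm_num)]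
        linarith

theorem cands_prob : ∃ c : ℝ, 0 < c ∧ ∃ q₀ : ℕ,
    ∀ (F : Type) [Field F] [Fintype F] [DecidableEq F], q₀ ≤ Fintype.card F →
      Pr (fun ω : Om F 2001 => ¬ ∃ B : ℕ, c * (Fintype.card F : ℝ) ≤ (B : ℝ) ∧ (∀ z : Pt F, (gset ω z).card ≤ B) ∧
        ∀ z : Pt F, 100 * B ≤ (fset ω z).card) ≤ 1 / 16 := by
  obtain ⟨c, hc, q1, h⟩ := mf_mg
  set c' : ℝ := c ^ 2 / 3201600 with hc'
  have hc'0 : 0 < c' := by positivity
  refine ⟨c, hc, max (max q1 11) (max ⌈4 / c⌉₊ ⌈384 / c' ^ 3⌉₊), fun F _ _ _ hF => ?_⟩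
  have hq1 : q1 ≤ Fintype.card F := le_trans (le_trans (le_max_left _ _) (le_max_left _ _)) hF
  have hq11 : 11 ≤ Fintype.card F := le_trans (le_trans (le_max_right _ _) (le_max_left _ _)) hF
  have hq2 : 4 / c ≤ (Fintype.card F : ℝ) := by
    refine (Nat.le_ceil _).trans ?_
    exact_mod_cast le_trans (le_trans (le_max_left _ _) (le_max_right _ _)) hF
  have hq3 : 384 / c' ^ 3 ≤ (Fintype.card F : ℝ) := by
    refine (Nat.le_ceil _).trans ?_
    exact_mod_cast le_trans (le_trans (le_max_right _ _) (le_max_right _ _)) hF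
  set q : ℝ := (Fintype.card F : ℝ) with hq
  have hqpos : (1 : ℝ) ≤ q := by
    rw [hq]; exact_mod_cast le_trans (by norm_num) hq11
  obtain ⟨h1, h2⟩ := h (Fintype.card F) hq1
  rw [← hq] at h1
  set m : ℝ := mg (Fintype.card F) with hm
  have hm4 : 4 ≤ m := by
    rw [div_le_iff₀ hc] at hq2
    linarith
  have hcardI : (Fintype.card (Idx F 2001) : ℝ) = (q + 1) * 2001 := by
    rw [Fintype.card_prod, Fintype.card_option, Fintype.card_fin]
    push_cast
    rfl
  -- the exponent
  have hexp : -(m / 10) ^ 2 / (2 * (Fintype.card (Idx F 2001) : ℝ) * 2 ^ 2) ≤ -(c' * q) := by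
    rw [hcardI, neg_div, neg_le_neg_iff, le_div_iff₀ (by positivity)]
    have e1 : (c * q) ^ 2 ≤ m ^ 2 := by
      apply pow_le_pow_left₀ (by positivity) h1
    have e2 : q + 1 ≤ 2 * q := by linarith
    calc c' * q * (2 * ((q + 1) * 2001) * 2 ^ 2) ≤ c' * q * (2 * ((2 * q) * 2001) * 2 ^ 2) := by gcongr
      _ = (c * q) ^ 2 / 100 := by rw [hc']; ring
      _ ≤ m ^ 2 / 100 := by gcongr
      _ = (m / 10) ^ 2 := by ring
  have hPf : ∀ z : Pt F, Pr (fun ω : Om F 2001 => ((fset ω z).card : ℝ) ≤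
      mean (fun ω : Om F 2001 => ((fset ω z).card : ℝ)) - m / 10) ≤ Real.exp (-(c' * q)) := by
    intro z
    refine (mcdiarmid' (fun ω : Om F 2001 => ((fset ω z).card : ℝ)) 2 (by norm_num)
      (fun ω ω' k hk => fset_lip z ω ω' k hk) (m / 10) (by positivity)).trans ?_
    exact Real.exp_le_exp.mpr hexp
  have hPg : ∀ z : Pt F, Pr (fun ω : Om F 2001 =>
      mean (fun ω : Om F 2001 => ((gset ω z).card : ℝ)) + m / 10 ≤ ((gset ω z).card : ℝ)) ≤
      Real.exp (-(c' * q)) := by
    intro z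
    refine (mcdiarmid (fun ω : Om F 2001 => ((gset ω z).card : ℝ)) 2 (by norm_num)
      (fun ω ω' k hk => gset_lip z ω ω' k hk) (m / 10) (by positivity)).trans ?_
    exact Real.exp_le_exp.mpr hexp
  have hP : ∀ z : Pt F, Pr (fun ω : Om F 2001 => (((fset ω z).card : ℝ) ≤
      mean (fun ω : Om F 2001 => ((fset ω z).card : ℝ)) - m / 10) ∨
      (mean (fun ω : Om F 2001 => ((gset ω z).card : ℝ)) + m / 10 ≤ ((gset ω z).card : ℝ))) ≤
      Real.exp (-(c' * q)) + Real.exp (-(c' * q)) := fun z =>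
    (Pr_or _ _).trans (add_le_add (hPf z) (hPg z))
  have hU := P8_union _ _ hP
  have hcardP : (Fintype.card (Pt F) : ℝ) = (q + 1) * q := by
    rw [Fintype.card_prod, Fintype.card_option]
    push_cast
    rfl
  rw [hcardP] at hU
  refine le_trans (Pr_mono ?_) (hU.trans (P8_exp c' q hc'0 hqpos hq3))
  intro ω hω
  by_contra hcon
  push Not at hcon
  apply hω
  have hfl : ((⌊12 / 10 * m⌋₊ : ℕ) : ℝ) ≤ 12 / 10 * m := Nat.floor_le (by positivity)
  have hfl2 : 12 / 10 * m < ((⌊12 / 10 * m⌋₊ : ℕ) : ℝ) + 1 := Nat.lt_floor_add_one _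
  refine ⟨⌊12 / 10 * m⌋₊ + 1, ?_, ?_, ?_⟩
  · push_cast
    linarith
  · intro z
    have e1 := (hcon z).2
    have e2 := gset_mean z hq11
    rw [← hm] at e2
    have : ((gset ω z).card : ℝ) ≤ ((⌊12 / 10 * m⌋₊ + 1 : ℕ) : ℝ) := by
      push_cast
      linarith
    exact_mod_cast this
  · intro z
    have e1 := (hcon z).1
    have e2 := fset_mean z hq11
    rw [e2] at e1
    have : ((100 * (⌊12 / 10 * m⌋₊ + 1) : ℕ) : ℝ) ≤ ((fset ω z).card : ℝ) := by
      push_cast
      linarith
    exact_mod_cast this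

end Crest.Agent.RY
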