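/-
  RY_P9 : from PRand to helper9's PsR (deterministic), and partN1'.
   Given PRand c ω take mn i = rp ω (i,0), cd i = cand ω i, D = B.
   - cd_card, cd_main: for l ∈ cand ω i the sparse points on l are rp ω (i,0) and the 11 points rp ω k, k in the pattern (distinct parts,
     slot indices; if such a point t were equal to mn t.1 then the index (t.1,0) would be in the pattern, but its second component is 0).
   - cand_le: s = rp ω k ∈ R, s ≠ mn s.1, so k.2 ≠ 0; a line l ∋ s in cand ω i has i ≠ s.1 (else the line would contain two points of the part i),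
     and k is in its pattern; removing k: the indices of parts ≠ i, ≠ s.1 form a slot pattern of size 10 (parts in the pattern are distinct), so l ∈ gset ω s.
   - cand_ge: 88 B + 100000 ≤ 100 B for large q as B ≥ c q.
   - good: good2 with r = mn i, j = s.1, j' = s'.1, A = (onL R l0) \ {mn i, s}, A' = (onL R l1) \ {mn i, s'} (10 points each): a line b ∈ good2 is plain at mn i
     and lin t (ptl b s.1) ∈ plain R t for t∈A (the line lin t z is the line through t and z since t.1 ≠ s.1; all sparse points on it are t).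
   - part_le: the points of R in the part i are rp ω (i,a), a < 2001.
  partN1': good_all, load_prob, cands_prob give PRand c ω with probability ≥ 1 - 3/16 (c = min of the constants; all properties are monotone in c).
-/
import Crest.Agent.RY_P8

set_option autoImplicit false

namespace Crest.Agent.RY
open Finset Classical

section
variable {F : Type} [Field F] [Fintype F] [DecidableEq F]

private theorem p9_on_unique {p p' : Pt F} {l : Ln F} (h : on p l) (h' : on p' l) (e : p.1 = p'.1) :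
    p = p' := by
  apply Prod.ext e
  unfold on at h h'
  rw [h, h', e]

private theorem p9_mem_onL {R : Finset (Pt F)} {l : Ln F} {t : Pt F} : t ∈ onL R l ↔ t ∈ R ∧ on t l := by
  unfold onL
  rw [Finset.mem_filter]

private theorem p9_mem_RR {H : ℕ} {ω : Om F H} {t : Pt F} : t ∈ RR ω ↔ ∃ k, rp ω k = t := by
  unfold RR
  simp

private theorem p9_plain_of_clean {H : ℕ} {ω : Om F H} {s : Pt F} (hs : s ∈ RR ω) {l : Ln F}
    (h : on s l) (hc : Clean ω s l) : l ∈ plain (RR ω) s := by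
  unfold plain
  rw [Finset.mem_filter]
  refine ⟨Finset.mem_univ _, ?_⟩
  ext t
  rw [p9_mem_onL, Finset.mem_singleton]
  constructor
  · rintro ⟨ht, hon⟩
    obtain ⟨k, rfl⟩ := p9_mem_RR.1 ht
    exact hc k hon
  · rintro rfl
    exact ⟨hs, h⟩

private theorem p9_on_lin {p p' : Pt F} (h : p.1 ≠ p'.1) : on p (lin p p') ∧ on p' (lin p p') := by
  obtain ⟨a, y⟩ := p
  obtain ⟨a', y'⟩ := p'
  unfold on lin val
  cases a with
  | none =>
    cases a' with
    | none => exact absurd rfl h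
    | some x' => simp
  | some x =>
    cases a' with
    | none => simp
    | some x' =>
      have hx : x - x' ≠ 0 := by
        intro h0
        apply h
        simp only [sub_eq_zero.mp h0]
      simp only
      constructor
      · ring
      · field_simp
        ring

private theorem p9_onI_mem {H : ℕ} {ω : Om F H} {l : Ln F} {k : Idx F H} : k ∈ onI ω l ↔ on (rp ω k) l := by
  unfold onI
  rw [Finset.mem_filter]
  simp

private theorem p9_cand {ω : Om F 2001} {i : Option F} {l : Ln F} (h : l ∈ cand ω i) :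
    on (rp ω (i, 0)) l ∧ ((onI ω l).filter (fun k => k.1 ≠ i)).card = 11 ∧
    SlotPat ((onI ω l).filter (fun k => k.1 ≠ i)) := by
  unfold cand fset at h
  rw [Finset.mem_filter] at h
  exact h.2

/-- the sparse points on a candidate line -/
private theorem p9_onL_eq {ω : Om F 2001} {i : Option F} {l : Ln F} (h : l ∈ cand ω i) :
    onL (RR ω) l = insert (rp ω (i, 0)) (((onI ω l).filter (fun k => k.1 ≠ i)).image (rp ω)) := by
  obtain ⟨h1, h2, h3⟩ := p9_cand h
  ext t
  rw [p9_mem_onL, Finset.mem_insert, Finset.mem_image]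
  constructor
  · rintro ⟨ht, hon⟩
    obtain ⟨k, rfl⟩ := p9_mem_RR.1 ht
    by_cases hk : k.1 = i
    · left
      exact p9_on_unique hon h1 hk
    · right
      exact ⟨k, Finset.mem_filter.2 ⟨p9_onI_mem.2 hon, hk⟩, rfl⟩
  · rintro (rfl | ⟨k, hk, rfl⟩)
    · exact ⟨p9_mem_RR.2 ⟨_, rfl⟩, h1⟩
    · exact ⟨p9_mem_RR.2 ⟨_, rfl⟩, p9_onI_mem.1 (Finset.mem_filter.1 hk).1⟩

private theorem p9_card {ω : Om F 2001} {i : Option F} {l : Ln F} (h : l ∈ cand ω i) :
    (onL (RR ω) l).card = 12 := by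
  obtain ⟨h1, h2, h3⟩ := p9_cand h
  rw [p9_onL_eq h, Finset.card_insert_of_notMem, Finset.card_image_of_injOn, h2]
  · intro k hk k' hk' e
    have e1 : k.1 = k'.1 := congrArg (fun p : Pt F => p.1) e
    exact h3.2 k (Finset.mem_coe.1 hk) k' (Finset.mem_coe.1 hk') e1
  · rw [Finset.mem_image]
    rintro ⟨k, hk, e⟩
    exact (Finset.mem_filter.1 hk).2 (congrArg (fun p : Pt F => p.1) e)

private theorem p9_good {c : ℝ} {ω : Om F 2001} (hP : PRand c ω) (i : Option F) (l0 l1 : Ln F)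
    (h0 : l0 ∈ cand ω i) (h1 : l1 ∈ cand ω i) (s : Pt F) (hs : s ∈ onL (RR ω) l0)
    (hsi : s ≠ rp ω (i, 0)) (s' : Pt F) (hs' : s' ∈ onL (RR ω) l1) (hsi' : s' ≠ rp ω (i, 0)) :
    c * (Fintype.card F : ℝ) ≤ ((goodB (RR ω) (fun i => rp ω (i, 0)) i l0 l1 s s').card : ℝ) := by
  have hm0 := (p9_cand h0).1
  have hm1 := (p9_cand h1).1
  have hson := (p9_mem_onL.1 hs).2
  have hson' := (p9_mem_onL.1 hs').2
  have hp1 : (rp ω (i, 0)).1 ≠ s.1 := fun e => hsi (p9_on_unique hson hm0 e.symm)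
  have hp2 : (rp ω (i, 0)).1 ≠ s'.1 := fun e => hsi' (p9_on_unique hson' hm1 e.symm)
  have hA : ∀ (l : Ln F) (u : Pt F), l ∈ cand ω i → u ∈ onL (RR ω) l → u ≠ rp ω (i, 0) →
      ((((onL (RR ω) l).erase (rp ω (i, 0))).erase u).card ≤ 10) := by
    intro l u hl hu hui
    have hin : rp ω (i, 0) ∈ onL (RR ω) l := p9_mem_onL.2 ⟨p9_mem_RR.2 ⟨_, rfl⟩, (p9_cand hl).1⟩
    rw [Finset.card_erase_of_mem (Finset.mem_erase.2 ⟨hui, hu⟩), Finset.card_erase_of_mem hin,
      p9_card hl]
  have hg := hP.good2 (rp ω (i, 0)) s.1 s'.1 (((onL (RR ω) l0).erase (rp ω (i, 0))).erase s)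
    (((onL (RR ω) l1).erase (rp ω (i, 0))).erase s') hp1 hp2 (hA l0 s h0 hs hsi) (hA l1 s' h1 hs' hsi')
    (by
      intro t ht e
      rw [Finset.mem_erase, Finset.mem_erase] at ht
      exact ht.1 (p9_on_unique (p9_mem_onL.1 ht.2.2).2 hson e))
    (by
      intro t ht e
      rw [Finset.mem_erase, Finset.mem_erase] at ht
      exact ht.1 (p9_on_unique (p9_mem_onL.1 ht.2.2).2 hson' e))
  refine le_trans hg ?_
  have hsub : good2 ω (rp ω (i, 0)) s.1 s'.1 (((onL (RR ω) l0).erase (rp ω (i, 0))).erase s)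
    (((onL (RR ω) l1).erase (rp ω (i, 0))).erase s') ⊆
      goodB (RR ω) (fun i => rp ω (i, 0)) i l0 l1 s s' := by
    intro b hb
    unfold good2 at hb
    rw [Finset.mem_filter] at hb
    obtain ⟨-, hb1, hb2, hb3, hb4⟩ := hb
    unfold goodB
    rw [Finset.mem_filter]
    refine ⟨p9_plain_of_clean (p9_mem_RR.2 ⟨_, rfl⟩) hb1 hb2, ?_, ?_⟩
    · intro t ht hti hts
      have htA : t ∈ ((onL (RR ω) l0).erase (rp ω (i, 0))).erase s := by
        rw [Finset.mem_erase, Finset.mem_erase]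
        exact ⟨hts, hti, ht⟩
      have hpt : t.1 ≠ s.1 := fun e => hts (p9_on_unique (p9_mem_onL.1 ht).2 hson e)
      have hl := p9_on_lin (p := t) (p' := ptl b s.1) hpt
      exact p9_plain_of_clean (p9_mem_onL.1 ht).1 hl.1 (hb3 t htA _ hl.1 hl.2)
    · intro t ht hti hts
      have htA : t ∈ ((onL (RR ω) l1).erase (rp ω (i, 0))).erase s' := by
        rw [Finset.mem_erase, Finset.mem_erase]
        exact ⟨hts, hti, ht⟩
      have hpt : t.1 ≠ s'.1 := fun e => hts (p9_on_unique (p9_mem_onL.1 ht).2 hson' e)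
      have hl := p9_on_lin (p := t) (p' := ptl b s'.1) hpt
      exact p9_plain_of_clean (p9_mem_onL.1 ht).1 hl.1 (hb4 t htA _ hl.1 hl.2)
  exact_mod_cast Finset.card_le_card hsub

end

theorem psr_of_prand (c : ℝ) (hc : 0 < c) : ∃ q₀ : ℕ,
    ∀ (F : Type) [Field F] [Fintype F] [DecidableEq F], q₀ ≤ Fintype.card F → ∀ ω : Om F 2001, PRand c ω →
      ∃ (D : ℕ) (mn : Option F → Pt F) (cd : Option F → Finset (Ln F)), PsR c D (RR ω) mn cd := by
  refine ⟨Nat.ceil (10000 / c), ?_⟩
  intro F _ _ _ hq ω hP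
  obtain ⟨B, hB1, hB2, hB3⟩ := hP.cands
  have hB : 10000 ≤ B := by
    have h1 : (10000 / c : ℝ) ≤ (Fintype.card F : ℝ) :=
      le_trans (Nat.le_ceil _) (by exact_mod_cast hq)
    rw [div_le_iff₀ hc] at h1
    have h2 : (10000 : ℝ) ≤ (B : ℝ) := by nlinarith
    exact_mod_cast h2
  refine ⟨B, fun i => rp ω (i, 0), fun i => cand ω i, ?_⟩
  refine
    { mn_mem := fun i => p9_mem_RR.2 ⟨_, rfl⟩
      mn_part := fun i => rfl
      cd_on := fun i l hl => (p9_cand hl).1
      cd_card := fun i l hl => p9_card hl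
      cd_main := ?_
      cand_le := ?_
      cand_ge := ?_
      good := ?_
      plain_ge := hP.plain
      line_le := hP.load
      part_le := ?_ }
  · intro i l hl t ht hti e
    obtain ⟨h1, h2, h3⟩ := p9_cand hl
    obtain ⟨htR, hton⟩ := p9_mem_onL.1 ht
    obtain ⟨k, rfl⟩ := p9_mem_RR.1 htR
    have hki : k.1 ≠ i := fun e' => hti (p9_on_unique hton h1 e')
    have hmem : ((k.1, 0) : Idx F 2001) ∈ (onI ω l).filter (fun k => k.1 ≠ i) := by
      rw [Finset.mem_filter, p9_onI_mem]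
      refine ⟨?_, hki⟩
      have e' : rp ω k = rp ω (k.1, 0) := e
      rw [← e']
      exact hton
    exact h3.1 _ hmem rfl
  · intro s hs hsm
    refine le_trans (Finset.card_le_card ?_) (hB2 s)
    intro l hl
    rw [Finset.mem_filter] at hl
    obtain ⟨-, hson, i, hi⟩ := hl
    obtain ⟨h1, h2, h3⟩ := p9_cand hi
    have his : i ≠ s.1 := by
      intro e
      apply hsm
      have : s = rp ω (i, 0) := p9_on_unique hson h1 e.symm
      simp only [← e]
      exact this
    obtain ⟨k, rfl⟩ := p9_mem_RR.1 hs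
    have hkP : k ∈ (onI ω l).filter (fun k => k.1 ≠ i) := by
      rw [Finset.mem_filter, p9_onI_mem]
      exact ⟨hson, fun e => his e.symm⟩
    have hset : (onI ω l).filter (fun k' => k'.1 ≠ (rp ω k).1 ∧ k'.1 ≠ i) =
        ((onI ω l).filter (fun k => k.1 ≠ i)).erase k := by
      ext k'
      rw [Finset.mem_filter, Finset.mem_erase, Finset.mem_filter]
      constructor
      · rintro ⟨ha, hb, hc'⟩
        refine ⟨?_, ha, hc'⟩
        rintro rfl
        exact hb rfl
      · rintro ⟨ha, hb, hc'⟩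
        refine ⟨hb, ?_, hc'⟩
        intro e
        exact ha (h3.2 k' (Finset.mem_filter.2 ⟨hb, hc'⟩) k hkP e)
    unfold gset
    rw [Finset.mem_filter]
    refine ⟨Finset.mem_univ _, hson, i, his, h1, ?_, ?_⟩
    · rw [hset, Finset.card_erase_of_mem hkP, h2]
    · rw [hset]
      exact ⟨fun k' hk' => h3.1 k' (Finset.mem_of_mem_erase hk'),
        fun k' hk' k'' hk'' e => h3.2 k' (Finset.mem_of_mem_erase hk') k'' (Finset.mem_of_mem_erase hk'') e⟩
  · intro i
    have := hB3 (rp ω (i, 0))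
    unfold cand
    omega
  · intro i l0 hl0 l1 hl1 _ s hs hsi s' hs' hsi'
    exact p9_good hP i l0 l1 hl0 hl1 s hs hsi s' hs' hsi'
  · intro i
    have hsub : onP (RR ω) i ⊆ (univ : Finset (Fin 2001)).image (fun a => rp ω (i, a)) := by
      intro t ht
      unfold onP at ht
      rw [Finset.mem_filter] at ht
      obtain ⟨k, rfl⟩ := p9_mem_RR.1 ht.1
      rw [Finset.mem_image]
      refine ⟨k.2, Finset.mem_univ _, ?_⟩
      have e : k.1 = i := ht.2
      subst e
      rfl
    refine le_trans (Finset.card_le_card hsub) (le_trans Finset.card_image_le ?_)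
    simp

theorem partN1' : ∃ c : ℝ, 0 < c ∧ ∃ q₀ : ℕ,
    ∀ (F : Type) [Field F] [Fintype F] [DecidableEq F], q₀ ≤ Fintype.card F →
      Pr (fun ω : Om F 2001 => ¬ ∃ (D : ℕ) (mn : Option F → Pt F) (cd : Option F → Finset (Ln F)), PsR c D (RR ω) mn cd) ≤ 1 / 4 := by
  obtain ⟨c1, hc1, q1, h1⟩ := good_all
  obtain ⟨q2, h2⟩ := load_prob 2001 (by norm_num)
  obtain ⟨c3, hc3, q3, h3⟩ := cands_prob
  have hc : 0 < min c1 c3 := lt_min hc1 hc3
  obtain ⟨q4, h4⟩ := psr_of_prand (min c1 c3) hc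
  refine ⟨min c1 c3, hc, max (max q1 q2) (max q3 q4), ?_⟩
  intro F _ _ _ hq
  have hq1 : q1 ≤ Fintype.card F := le_trans (le_trans (le_max_left _ _) (le_max_left _ _)) hq
  have hq2 : q2 ≤ Fintype.card F := le_trans (le_trans (le_max_right _ _) (le_max_left _ _)) hq
  have hq3 : q3 ≤ Fintype.card F := le_trans (le_trans (le_max_left _ _) (le_max_right _ _)) hq
  have hq4 : q4 ≤ Fintype.card F := le_trans (le_trans (le_max_right _ _) (le_max_right _ _)) hq
  have hqn : (0 : ℝ) ≤ (Fintype.card F : ℝ) := Nat.cast_nonneg _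
  have hm1 : min c1 c3 * (Fintype.card F : ℝ) ≤ c1 * (Fintype.card F : ℝ) :=
    mul_le_mul_of_nonneg_right (min_le_left _ _) hqn
  have hm3 : min c1 c3 * (Fintype.card F : ℝ) ≤ c3 * (Fintype.card F : ℝ) :=
    mul_le_mul_of_nonneg_right (min_le_right _ _) hqn
  refine le_trans (Pr_mono (r := fun ω : Om F 2001 =>
    ((¬ ((∀ t ∈ RR ω, c1 * (Fintype.card F : ℝ) ≤ ((plain (RR ω) t).card : ℝ)) ∧
        (∀ (r : Pt F) (j j' : Option F) (A A' : Finset (Pt F)), r.1 ≠ j → r.1 ≠ j' →
          A.card ≤ 10 → A'.card ≤ 10 → (∀ s ∈ A, s.1 ≠ j) → (∀ s ∈ A', s.1 ≠ j') →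
          c1 * (Fintype.card F : ℝ) ≤ ((good2 ω r j j' A A').card : ℝ)))) ∨
     (¬ ∀ l : Ln F, (onL (RR ω) l).card ^ 4 ≤ Fintype.card F)) ∨
     (¬ ∃ B : ℕ, c3 * (Fintype.card F : ℝ) ≤ (B : ℝ) ∧ (∀ z : Pt F, (gset ω z).card ≤ B) ∧
        ∀ z : Pt F, 100 * B ≤ (fset ω z).card)) ?_) ?_
  · intro ω hω
    by_contra hcon
    rw [not_or, not_or, not_not, not_not, not_not] at hcon
    obtain ⟨⟨⟨ha, hb⟩, hl⟩, B, hB1, hB2, hB3⟩ := hcon
    apply hω
    apply h4 F hq4 ω
    exact
      { load := hl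
        plain := fun t ht => le_trans hm1 (ha t ht)
        cands := ⟨B, le_trans hm3 hB1, hB2, hB3⟩
        good2 := fun r j j' A A' e1 e2 e3 e4 e5 e6 => le_trans hm1 (hb r j j' A A' e1 e2 e3 e4 e5 e6) }
  · refine le_trans (Pr_or _ _) ?_
    refine le_trans (add_le_add (Pr_or _ _) le_rfl) ?_
    have a1 := h1 F hq1
    have a2 := h2 F hq2
    have a3 := h3 F hq3
    linarith

end Crest.Agent.RY
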