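/-
  RY_S12 : degrees of random line sets (uses McDiarmid).  q = card F.
  For p : Pt F let  surv ω K p = #{l ∋ p : no random point with index k ∈ K, k.1 ≠ p.1, on l}.
  FACTS.
  * exactly q lines (not through O) contain p; a point in another part is on exactly one of them (on_unique_line).
  * mean of surv = q (1-1/q)^m with m = #{k∈K : k.1 ≠ p.1}, |K| - H ≤ m ≤ |K|: for each line l ∋ p and each such k,
    #{ω k : (k.1, ω k) on l} = 1 of q values; independence.
  * changing one coordinate changes surv by at most 1.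
  * the mean of (F0 (RK ω K)).card is q^2 (1-1/q)^|K|; changing one coordinate changes it by at most q.
-/
import Crest.Agent.RY_McD
import Crest.Agent.RY_S4

set_option autoImplicit false

namespace Crest.Agent.RY
open Finset Classical

variable {F : Type} [Field F] [Fintype F] [DecidableEq F] {H : ℕ}

/-- lines through `p` not containing any random point with index in `K` in another part -/
noncomputable def surv (K : Finset (Idx F H)) (p : Pt F) (ω : Om F H) : ℝ :=
  (((univ : Finset (Ln F)).filter (fun l => on p l ∧ ∀ k ∈ K, k.1 ≠ p.1 → ¬ on (rp ω k) l)).card : ℝ)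

/-- number of lines missing the random points with indices in `K` -/
noncomputable def nK (K : Finset (Idx F H)) (ω : Om F H) : ℝ := ((F0 (RK ω K)).card : ℝ)

/-- number of outcomes for which no random point with index in `K'` is on `l` -/
theorem S12_count (l : Ln F) (K' : Finset (Idx F H)) :
    (((univ : Finset (Om F H)).filter (fun ω => ∀ k ∈ K', ¬ on (rp ω k) l)).card : ℝ) =
      (Fintype.card (Om F H) : ℝ) * (1 - 1 / (Fintype.card F : ℝ)) ^ K'.card := by
  have hq : (0 : ℝ) < Fintype.card F := by exact_mod_cast Fintype.card_pos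
  have h1 : (univ : Finset (Om F H)).filter (fun ω => ∀ k ∈ K', ¬ on (rp ω k) l) =
      Fintype.piFinset (fun k => if k ∈ K' then (univ : Finset F).erase (val l k.1) else univ) := by
    ext ω
    simp only [mem_filter, mem_univ, true_and, Fintype.mem_piFinset]
    constructor
    · intro h k
      by_cases hk : k ∈ K'
      · rw [if_pos hk, mem_erase]
        exact ⟨fun he => h k hk he, mem_univ _⟩
      · rw [if_neg hk]; exact mem_univ _
    · intro h k hk ho
      have := h k
      rw [if_pos hk, mem_erase] at this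
      exact this.1 ho
  rw [h1, Fintype.card_piFinset]
  have h2 : ∀ k : Idx F H, (((if k ∈ K' then (univ : Finset F).erase (val l k.1) else univ).card : ℕ) : ℝ) =
      (Fintype.card F : ℝ) * (if k ∈ K' then (1 - 1 / (Fintype.card F : ℝ)) else 1) := by
    intro k
    by_cases hk : k ∈ K'
    · rw [if_pos hk, if_pos hk, card_erase_of_mem (mem_univ _), card_univ,
        Nat.cast_sub (Fintype.card_pos)]
      field_simp
      simp
    · rw [if_neg hk, if_neg hk, card_univ]; ring
  push_cast
  rw [prod_congr rfl (fun k _ => h2 k), prod_mul_distrib]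
  congr 1
  · rw [prod_const, card_univ, Fintype.card_fun]
    push_cast
    rfl
  · rw [prod_ite_mem, univ_inter, prod_const]

theorem S12_mean (LS : Finset (Ln F)) (K' : Finset (Idx F H)) (f : Om F H → ℝ)
    (hf : ∀ ω, f ω = ((LS.filter (fun l => ∀ k ∈ K', ¬ on (rp ω k) l)).card : ℝ)) :
    mean f = (LS.card : ℝ) * (1 - 1 / (Fintype.card F : ℝ)) ^ K'.card := by
  unfold mean
  have hc : (0 : ℝ) < (Fintype.card (Om F H) : ℝ) := by
    have : Nonempty (Om F H) := ⟨fun _ => 0⟩
    exact_mod_cast Fintype.card_pos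
  rw [div_eq_iff hc.ne']
  have h1 : ∀ ω, f ω = ∑ l ∈ LS, (if (∀ k ∈ K', ¬ on (rp ω k) l) then (1 : ℝ) else 0) := by
    intro ω
    rw [hf, card_filter]
    push_cast
    rfl
  rw [sum_congr rfl (fun ω _ => h1 ω), sum_comm]
  have h2 : ∀ l ∈ LS, ∑ ω : Om F H, (if (∀ k ∈ K', ¬ on (rp ω k) l) then (1 : ℝ) else 0) =
      (Fintype.card (Om F H) : ℝ) * (1 - 1 / (Fintype.card F : ℝ)) ^ K'.card := by
    intro l _
    rw [← S12_count l K', card_filter]
    push_cast
    rfl
  rw [sum_congr rfl h2, sum_const, nsmul_eq_mul]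
  ring

theorem S12_lip {α : Type} [DecidableEq α] (A B C D : Finset α) (n : ℕ) (h1 : A \ B ⊆ C) (h2 : B \ A ⊆ D)
    (hC : C.card ≤ n) (hD : D.card ≤ n) : |(A.card : ℝ) - (B.card : ℝ)| ≤ (n : ℝ) := by
  have e1 : A.card ≤ B.card + n := by
    have := card_le_card h1
    have h3 := card_le_card_sdiff_add_card (s := A) (t := B)
    omega
  have e2 : B.card ≤ A.card + n := by
    have := card_le_card h2
    have h3 := card_le_card_sdiff_add_card (s := B) (t := A)
    omega
  rw [abs_le]
  constructor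
  · have : (B.card : ℝ) ≤ A.card + n := by exact_mod_cast e2
    linarith
  · have : (A.card : ℝ) ≤ B.card + n := by exact_mod_cast e1
    linarith

theorem surv_mean (K : Finset (Idx F H)) (p : Pt F) :
    mean (surv K p) = (Fintype.card F : ℝ) *
      (1 - 1 / (Fintype.card F : ℝ)) ^ ((K.filter (fun k => k.1 ≠ p.1)).card) := by
  rw [S12_mean ((univ : Finset (Ln F)).filter (fun l => on p l)) (K.filter (fun k => k.1 ≠ p.1)) (surv K p)]
  · congr 1
    have := card_on_pt p
    rw [← this]
  · intro ω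
    unfold surv
    congr 1
    apply congrArg
    ext l
    simp only [mem_filter, mem_univ, true_and, and_imp]

theorem surv_lip (K : Finset (Idx F H)) (p : Pt F) (ω ω' : Om F H) (k : Idx F H)
    (h : ∀ j, j ≠ k → ω j = ω' j) : |surv K p ω - surv K p ω'| ≤ 1 := by
  have key : ∀ (w w' : Om F H), (∀ j, j ≠ k → w j = w' j) →
      ((univ : Finset (Ln F)).filter (fun l => on p l ∧ ∀ k ∈ K, k.1 ≠ p.1 → ¬ on (rp w k) l)) \
      ((univ : Finset (Ln F)).filter (fun l => on p l ∧ ∀ k ∈ K, k.1 ≠ p.1 → ¬ on (rp w' k) l)) ⊆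
      (univ : Finset (Ln F)).filter (fun l => k.1 ≠ p.1 ∧ on p l ∧ on (rp w' k) l) := by
    intro w w' hw l hl
    rw [mem_sdiff, mem_filter, mem_filter] at hl
    obtain ⟨⟨_, hp, h1⟩, h2⟩ := hl
    have h3 : ¬ ∀ k ∈ K, k.1 ≠ p.1 → ¬ on (rp w' k) l := fun h4 => h2 ⟨mem_univ _, hp, h4⟩
    push Not at h3
    obtain ⟨j, hj, hjp, hjo⟩ := h3
    have hjk : j = k := by
      by_contra hne
      apply h1 j hj hjp
      unfold rp
      rw [hw j hne]
      exact hjo
    subst hjk
    rw [mem_filter]
    exact ⟨mem_univ _, hjp, hp, hjo⟩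
  have key2 : ∀ w' : Om F H, ((univ : Finset (Ln F)).filter (fun l => k.1 ≠ p.1 ∧ on p l ∧ on (rp w' k) l)).card ≤ 1 := by
    intro w'
    rw [card_le_one]
    intro a ha b hb
    rw [mem_filter] at ha hb
    obtain ⟨_, hkp, ha1, ha2⟩ := ha
    obtain ⟨_, _, hb1, hb2⟩ := hb
    obtain ⟨l, _, hl⟩ := on_unique_line p (rp w' k) (fun he => hkp he.symm)
    rw [hl a ⟨ha1, ha2⟩, hl b ⟨hb1, hb2⟩]
  have := S12_lip _ _ _ _ 1 (key ω ω' h) (key ω' ω (fun j hj => (h j hj).symm)) (key2 ω') (key2 ω)
  unfold surv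
  simpa using this

theorem nK_mean (K : Finset (Idx F H)) :
    mean (nK K) = (Fintype.card F : ℝ) ^ 2 * (1 - 1 / (Fintype.card F : ℝ)) ^ K.card := by
  rw [S12_mean (univ : Finset (Ln F)) K (nK K)]
  · congr 1
    rw [card_univ, Fintype.card_prod]
    push_cast
    ring
  · intro ω
    unfold nK F0 RK
    congr 1
    apply congrArg
    ext l
    simp only [mem_filter, mem_univ, true_and, mem_image, forall_exists_index, and_imp,
      forall_apply_eq_imp_iff₂]

theorem nK_lip (K : Finset (Idx F H)) (ω ω' : Om F H) (k : Idx F H)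
    (h : ∀ j, j ≠ k → ω j = ω' j) : |nK K ω - nK K ω'| ≤ (Fintype.card F : ℝ) := by
  have key : ∀ (w w' : Om F H), (∀ j, j ≠ k → w j = w' j) →
      (F0 (RK w K)) \ (F0 (RK w' K)) ⊆ (univ : Finset (Ln F)).filter (fun l => on (rp w' k) l) := by
    intro w w' hw l hl
    unfold F0 RK at hl
    rw [mem_sdiff, mem_filter, mem_filter] at hl
    obtain ⟨⟨_, h1⟩, h2⟩ := hl
    have h3 : ¬ ∀ p ∈ K.image (rp w'), ¬ on p l := fun h4 => h2 ⟨mem_univ _, h4⟩
    push Not at h3
    obtain ⟨q, hq, hqo⟩ := h3
    obtain ⟨j, hj, rfl⟩ := mem_image.1 hq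
    have hjk : j = k := by
      by_contra hne
      apply h1 (rp w j) (mem_image_of_mem _ hj)
      unfold rp
      rw [hw j hne]
      exact hqo
    subst hjk
    rw [mem_filter]
    exact ⟨mem_univ _, hqo⟩
  have key2 : ∀ w' : Om F H, ((univ : Finset (Ln F)).filter (fun l => on (rp w' k) l)).card ≤ Fintype.card F := by
    intro w'
    exact (card_on_pt (rp w' k)).le
  exact S12_lip _ _ _ _ _ (key ω ω' h) (key ω' ω (fun j hj => (h j hj).symm)) (key2 ω') (key2 ω)

/-- the degree of a point is at most `surv` -/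
theorem deg_FK_le (K : Finset (Idx F H)) (ω : Om F H) (p : Pt F) :
    (deg (inc : PP F → LL F → Prop) (FK ω K) (some p) : ℝ) ≤ surv K p ω := by
  unfold deg surv FK
  rw [Nat.cast_le]
  have h1 : ((F0 (RK ω K)).image (Sum.inl : Ln F → LL F)).filter (fun l => inc (some p) l) ⊆
      (((univ : Finset (Ln F)).filter
        (fun l => on p l ∧ ∀ k ∈ K, k.1 ≠ p.1 → ¬ on (rp ω k) l))).image (Sum.inl : Ln F → LL F) := by
    intro l hl
    rw [mem_filter] at hl
    obtain ⟨h2, h3⟩ := hl
    obtain ⟨l0, hl0, rfl⟩ := mem_image.1 h2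
    apply mem_image_of_mem
    rw [mem_filter]
    refine ⟨mem_univ _, h3, ?_⟩
    intro k hk _
    unfold F0 RK at hl0
    exact (mem_filter.1 hl0).2 _ (mem_image_of_mem _ hk)
  exact (card_le_card h1).trans card_image_le

theorem deg_FK_none (K : Finset (Idx F H)) (ω : Om F H) :
    deg (inc : PP F → LL F → Prop) (FK ω K) none = 0 := by
  unfold deg FK
  rw [card_eq_zero, filter_eq_empty_iff]
  intro l hl
  obtain ⟨l0, _, rfl⟩ := mem_image.1 hl
  exact fun h => h

/-- a point that is not sparse has degree exactly `surv` -/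
theorem surv_eq (ω : Om F H) (p : Pt F) (hp : p ∉ RR ω) :
    surv univ p ω = (((F0 (RR ω)).filter (fun l => on p l)).card : ℝ) := by
  unfold surv
  congr 1
  apply congrArg
  ext l
  unfold F0 RR
  simp only [mem_filter, mem_univ, true_and, mem_image]
  constructor
  · rintro ⟨h1, h2⟩
    refine ⟨?_, h1⟩
    rintro r ⟨k, rfl⟩ hon
    by_cases hk : k.1 = p.1
    · apply hp
      unfold RR
      rw [mem_image]
      refine ⟨k, mem_univ _, ?_⟩
      have h3 : ω k = val l k.1 := hon
      have h4 : p.2 = val l p.1 := h1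
      unfold rp
      rw [h3, hk, ← h4]
    · exact h2 k trivial hk hon
  · rintro ⟨h1, h2⟩
    exact ⟨h2, fun k _ _ => h1 _ ⟨k, rfl⟩⟩

end Crest.Agent.RY
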