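/-
  RY_S13 : part0 (lower bound for the degrees).
  Let q = card F, a = 1 - 1/q, rhoH = (1/16)^H/2.
  * pow_lower : for q ≥ 2, m ≤ H(q+1): a^m ≥ (1/16)^H.    (a^q ≥ 1/4 and a ≥ 1/2, so a^(q+1) ≥ 1/8 ≥ 1/16.)
  * reg_prob : let μ = a^|K| ≥ (1/16)^H.  κ' = κ μ₀/8, μ₀ = (1/16)^H.  By McDiarmid (number of coordinates H(q+1), see card_Idx)
      P(surv K p ω ≥ mean + κ' q) ≤ exp(-κ'^2 q^2/(2H(q+1))), union over the q(q+1) points p; mean ≤ q a^(|K|-H) ≤ q μ (1+κ/4) for large q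
      (a^(-H) → 1);   P(nK ≤ q^2 μ - κ' q^2) ≤ exp(-κ'^2 q^4/(2H(q+1) q^2)).
      Outside these events: ρ q² ≤ nK, and  q·deg ≤ q·surv ≤ q²(μ(1+κ/4) + κ') ≤ (1+κ)(μ-κ')q² ≤ (1+κ) nK  (use κ ≤ 1: κ' ≤ κμ/8).
  * part0 : φ = (1/16)^H/2; for p ∉ R the degree is surv univ p ω (surv_eq), with mean q a^{Hq} ≥ (1/16)^H q; McDiarmid + union bound.
-/
import Crest.Agent.RY_S12

set_option autoImplicit false

namespace Crest.Agent.RY
open Finset Classical

/-- lower bound for the density of all the line sets -/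
noncomputable def rhoH (H : ℕ) : ℝ := (1 / 16) ^ H / 2

theorem card_Idx (F : Type) [Fintype F] (H : ℕ) : Fintype.card (Idx F H) = (Fintype.card F + 1) * H := by
  rw [Fintype.card_prod, Fintype.card_option, Fintype.card_fin]

theorem pow_lower (q m H : ℕ) (hq : 2 ≤ q) (hm : m ≤ (q + 1) * H) :
    ((1:ℝ) / 16) ^ H ≤ (1 - 1 / (q : ℝ)) ^ m := by
  obtain ⟨r, rfl⟩ : ∃ r, q = r + 2 := ⟨q - 2, by omega⟩
  have hr1 : (0:ℝ) < (r : ℝ) + 1 := by positivity
  have hr2 : (0:ℝ) < (r : ℝ) + 2 := by positivity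
  set b : ℝ := 1 + 1 / ((r : ℝ) + 1) with hb
  have hb0 : 0 < b := by positivity
  have hb2 : b ≤ 2 := by
    have : 1 / ((r : ℝ) + 1) ≤ 1 := by
      rw [div_le_one hr1]
      have : (0:ℝ) ≤ (r:ℝ) := Nat.cast_nonneg r
      linarith
    linarith
  have ha : (1 - 1 / (((r + 2 : ℕ) : ℝ))) = b⁻¹ := by
    rw [hb]
    push_cast
    field_simp
    ring
  have ha0 : 0 < b⁻¹ := inv_pos.mpr hb0
  have ha1 : b⁻¹ ≤ 1 := by
    apply inv_le_one_of_one_le₀
    have : 0 ≤ 1 / ((r : ℝ) + 1) := by positivity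
    linarith
  rw [ha]
  have h1 : b ^ (r + 1) ≤ Real.exp 1 := by
    have h2 : b ≤ Real.exp (1 / ((r : ℝ) + 1)) := by
      have := Real.add_one_le_exp (1 / ((r : ℝ) + 1))
      linarith
    calc b ^ (r + 1) ≤ (Real.exp (1 / ((r : ℝ) + 1))) ^ (r + 1) :=
          pow_le_pow_left₀ hb0.le h2 _
      _ = Real.exp 1 := by
          rw [← Real.exp_nat_mul]
          congr 1
          push_cast
          field_simp
  have h3 : b ^ (r + 3) ≤ 16 := by
    have h4 : b ^ (r + 3) = b ^ (r + 1) * b ^ 2 := by rw [← pow_add]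
    rw [h4]
    have h5 : Real.exp 1 < 2.7182818286 := Real.exp_one_lt_d9
    have h6 : b ^ 2 ≤ 4 := by nlinarith
    calc b ^ (r + 1) * b ^ 2 ≤ 2.7182818286 * 4 := by
          apply mul_le_mul (h1.trans h5.le) h6 (by positivity) (by norm_num)
      _ ≤ 16 := by norm_num
  have h7 : (1:ℝ) / 16 ≤ (b⁻¹) ^ (r + 3) := by
    rw [inv_pow, ← one_div]
    apply one_div_le_one_div_of_le (by positivity) h3
  calc ((1:ℝ) / 16) ^ H ≤ ((b⁻¹) ^ (r + 3)) ^ H := pow_le_pow_left₀ (by norm_num) h7 _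
    _ = (b⁻¹) ^ ((r + 3) * H) := by rw [← pow_mul]
    _ ≤ (b⁻¹) ^ m := pow_le_pow_of_le_one ha0.le ha1 (by
        have : r + 3 = r + 2 + 1 := rfl
        rw [this]; exact hm)

private theorem S13_Pr_exists {α β : Type} [Fintype α] [Fintype β] (A : β → α → Prop) (C : ℝ)
    (h : ∀ b, Pr (A b) ≤ C) : Pr (fun a => ∃ b, A b a) ≤ (Fintype.card β : ℝ) * C := by
  have h1 : Pr (fun a => ∃ b, A b a) ≤ ∑ b, Pr (A b) := by
    unfold Pr
    rw [← Finset.sum_div]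
    apply div_le_div_of_nonneg_right _ (by positivity)
    rw [← Nat.cast_sum]
    apply Nat.cast_le.mpr
    refine (Finset.card_le_card ?_).trans Finset.card_biUnion_le
    intro a ha
    simp only [Finset.mem_filter, Finset.mem_univ, true_and, Finset.mem_biUnion] at ha ⊢
    exact ha
  refine h1.trans ?_
  calc ∑ b, Pr (A b) ≤ ∑ _b : β, C := Finset.sum_le_sum fun b _ => h b
    _ = _ := by rw [Finset.sum_const, Finset.card_univ, nsmul_eq_mul]

private theorem S13_event (c : ℝ) (hc : 0 < c) : ∃ q₀ : ℕ, ∀ q : ℕ, q₀ ≤ q →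
    2 * (q : ℝ) ^ 2 * Real.exp (-(c * q)) ≤ 1 / 16 := by
  have h1 := Real.tendsto_pow_mul_exp_neg_atTop_nhds_zero 2
  have h2 : Filter.Tendsto (fun q : ℕ => c * (q : ℝ)) Filter.atTop Filter.atTop :=
    Filter.Tendsto.const_mul_atTop hc tendsto_natCast_atTop_atTop
  have h3 := h1.comp h2
  have h4 : ∀ᶠ q : ℕ in Filter.atTop, ((fun x => x ^ 2 * Real.exp (-x)) ∘ fun q : ℕ => c * (q : ℝ)) q
      < c ^ 2 / 32 := h3.eventually_lt_const (by positivity)
  obtain ⟨q₀, hq₀⟩ := Filter.eventually_atTop.mp h4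
  refine ⟨q₀, fun q hq => ?_⟩
  have h5 := hq₀ q hq
  simp only [Function.comp] at h5
  have h6 : c ^ 2 * (2 * (q : ℝ) ^ 2 * Real.exp (-(c * q))) ≤ c ^ 2 * (1 / 16) := by
    nlinarith
  exact le_of_mul_le_mul_left h6 (by positivity)

theorem part0' (H : ℕ) (hH : 1 ≤ H) : ∃ φ : ℝ, 0 < φ ∧ ∃ q₀ : ℕ,
    ∀ (F : Type) [Field F] [Fintype F] [DecidableEq F], q₀ ≤ Fintype.card F →
      Pr (fun ω : Om F H => ¬ LowDeg φ ω) ≤ 1 / 16 := by
  set μ : ℝ := (1 / 16) ^ H with hμ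
  have hμ0 : 0 < μ := by positivity
  have hHr : (1:ℝ) ≤ (H:ℝ) := by exact_mod_cast hH
  obtain ⟨q₀, hq₀⟩ := S13_event (μ ^ 2 / (16 * H)) (by positivity)
  refine ⟨μ / 2, by positivity, q₀, ?_⟩
  intro F _ _ _ hq
  set q := Fintype.card F with hqdef
  have hq2 : 2 ≤ q := Fintype.one_lt_card
  have hqr : (2:ℝ) ≤ (q:ℝ) := by exact_mod_cast hq2
  have hq0 : (0:ℝ) < q := by linarith
  -- McDiarmid for each point
  have key : ∀ p : Pt F, Pr (fun ω : Om F H => surv univ p ω ≤ mean (surv (H := H) univ p) - μ / 2 * q)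
      ≤ Real.exp (-(μ ^ 2 / (16 * H) * q)) := by
    intro p
    have h1 := mcdiarmid' (ι := Idx F H) (A := F) (surv univ p) 1 one_pos
      (fun ω ω' k h => surv_lip univ p ω ω' k h) (μ / 2 * q) (by positivity)
    refine h1.trans ?_
    rw [Real.exp_le_exp, card_Idx]
    push_cast
    rw [neg_div, neg_le_neg_iff, ← hqdef, le_div_iff₀ (by positivity)]
    have h2 : (q:ℝ) + 1 ≤ 2 * q := by linarith
    have h3 : μ ^ 2 / (16 * H) * q * (2 * (((q:ℝ) + 1) * H) * 1 ^ 2)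
        = (μ ^ 2 / 8) * q * ((q:ℝ) + 1) := by
      field_simp
      ring
    rw [h3]
    have h4 : (μ ^ 2 / 8) * q * ((q:ℝ) + 1) ≤ (μ ^ 2 / 8) * q * (2 * q) := by
      gcongr
    linarith [show (μ / 2 * (q:ℝ)) ^ 2 = (μ ^ 2 / 8) * q * (2 * q) by ring]
  have hmean : ∀ p : Pt F, μ * q ≤ mean (surv (H := H) univ p) := by
    intro p
    rw [surv_mean, ← hqdef, mul_comm]
    gcongr
    rw [hμ]
    apply pow_lower q _ H hq2
    rw [hqdef, ← card_Idx]
    exact Finset.card_le_univ _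
  have hsub : ∀ ω : Om F H, ¬ LowDeg (μ / 2) ω →
      ∃ p : Pt F, surv univ p ω ≤ mean (surv (H := H) univ p) - μ / 2 * q := by
    intro ω hω
    unfold LowDeg at hω
    push Not at hω
    obtain ⟨p, hp, hlt⟩ := hω
    refine ⟨p, ?_⟩
    rw [surv_eq ω p hp]
    have := hmean p
    rw [← hqdef] at hlt
    linarith
  have hPr := (Pr_mono hsub).trans (S13_Pr_exists _ _ key)
  refine hPr.trans ?_
  have hcard : (Fintype.card (Pt F) : ℝ) ≤ 2 * (q:ℝ) ^ 2 := by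
    have : Fintype.card (Pt F) = (q + 1) * q := by
      rw [Fintype.card_prod, Fintype.card_option]
    rw [this]
    push_cast
    nlinarith
  calc (Fintype.card (Pt F) : ℝ) * Real.exp (-(μ ^ 2 / (16 * H) * q))
      ≤ 2 * (q:ℝ) ^ 2 * Real.exp (-(μ ^ 2 / (16 * H) * q)) := by gcongr
    _ ≤ 1 / 16 := hq₀ q hq

end Crest.Agent.RY
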