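/-
  RY_S13b : regularity of FK ω K with high probability.
  Let q = card F, a = 1 - 1/q, μ₀ = (1/16)^H, rhoH = μ₀/2.
  PROOF.  μ = a^|K| ≥ μ₀ (pow_lower), κ' = κ μ₀/8.  By McDiarmid (c = 1, number of coordinates (q+1)H, see card_Idx)
      P(surv K p ω ≥ mean + κ' q) ≤ exp(-κ'^2 q^2/(2(q+1)H)), union over the q(q+1) points p;
      mean ≤ q a^(|K|-H) ≤ q μ (1+κ/4) for large q  (m + H ≥ |K| where m = #{k∈K : k.1 ≠ p.1}; a^(-H) → 1);
      P(nK ≤ q^2 μ - κ' q^2) ≤ exp(-κ'^2 q^4/(2(q+1)H q^2)).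
      Outside these events: rhoH q² ≤ (μ-κ')q² ≤ nK = |FK|, |FK| ≤ q² (FK_card_le), and
      q·deg ≤ q·surv ≤ q²(μ(1+κ/4) + κ') ≤ (1+κ)(μ-κ')q² ≤ (1+κ) nK  (κ' ≤ κμ/8, κ ≤ 1: 1+κ/4+κ/8 ≤ (1+κ)(1-κ/8));
      the point `none` has degree 0 (deg_FK_none).
      Use tendsto facts to choose q₀ (depending on H, κ, η only) so that the total is ≤ η.
-/
import Crest.Agent.RY_S13

set_option autoImplicit false

namespace Crest.Agent.RY
open Finset Classical

private theorem s13b_union {α β : Type} [Fintype α] [Fintype β] (P : β → α → Prop) (e : ℝ)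
    (h : ∀ b, Pr (P b) ≤ e) : Pr (fun a => ∃ b, P b a) ≤ (Fintype.card β : ℝ) * e := by
  have h1 : Pr (fun a => ∃ b, P b a) ≤ ∑ b : β, Pr (P b) := by
    unfold Pr
    rw [← Finset.sum_div]
    apply div_le_div_of_nonneg_right _ (by positivity)
    have h2 : (univ.filter (fun a : α => ∃ b, P b a)).card ≤ ∑ b : β, (univ.filter (P b)).card := by
      have h3 : (univ.filter (fun a : α => ∃ b, P b a)) ⊆ (univ : Finset β).biUnion (fun b => univ.filter (P b)) := by
        intro a ha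
        simp only [Finset.mem_filter, Finset.mem_univ, true_and, Finset.mem_biUnion] at ha ⊢
        exact ha
      exact le_trans (Finset.card_le_card h3) Finset.card_biUnion_le
    have h4 : ((univ.filter (fun a : α => ∃ b, P b a)).card : ℝ) ≤
        ((∑ b : β, (univ.filter (P b)).card : ℕ) : ℝ) := Nat.cast_le.2 h2
    rw [Nat.cast_sum] at h4
    refine le_trans (le_of_eq ?_) h4
    congr 2
    ext a
    simp only [Finset.mem_filter]
  refine le_trans h1 ?_
  calc ∑ b : β, Pr (P b) ≤ ∑ _b : β, e := Finset.sum_le_sum (fun b _ => h b)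
    _ = (Fintype.card β : ℝ) * e := by rw [Finset.sum_const, nsmul_eq_mul, Finset.card_univ]

private theorem s13b_tail (H : ℕ) (hH : 1 ≤ H) (κ' η : ℝ) (hκ' : 0 < κ') (hη : 0 < η) :
    ∃ q₁ : ℕ, ∀ q : ℕ, q₁ ≤ q →
      ((q : ℝ) * (q + 1) + 1) * Real.exp (-(κ' ^ 2 * (q : ℝ) ^ 2) / (2 * (((q : ℝ) + 1) * H))) ≤ η := by
  have hH' : (1:ℝ) ≤ H := by exact_mod_cast hH
  have hb : 0 < κ' ^ 2 / (4 * H) := by positivity
  have ht := Real.tendsto_pow_mul_exp_neg_atTop_nhds_zero 2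
  have ht2 : Filter.Tendsto (fun q : ℕ => κ' ^ 2 / (4 * H) * (q : ℝ)) Filter.atTop Filter.atTop :=
    Filter.Tendsto.const_mul_atTop hb tendsto_natCast_atTop_atTop
  have ht3 := ht.comp ht2
  have ht4 : ∀ᶠ q : ℕ in Filter.atTop, (κ' ^ 2 / (4 * H) * (q : ℝ)) ^ 2 * Real.exp (-(κ' ^ 2 / (4 * H) * (q : ℝ)))
      < η * (κ' ^ 2 / (4 * H)) ^ 2 / 3 := by
    have := ht3.eventually (gt_mem_nhds (show (0:ℝ) < η * (κ' ^ 2 / (4 * H)) ^ 2 / 3 by positivity))
    simpa [Function.comp] using this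
  obtain ⟨q₁, hq₁⟩ := Filter.eventually_atTop.1 (ht4.and (Filter.eventually_ge_atTop 1))
  refine ⟨q₁, fun q hq => ?_⟩
  obtain ⟨h1, h2⟩ := hq₁ q hq
  have hq1 : (1:ℝ) ≤ q := by exact_mod_cast h2
  set b := κ' ^ 2 / (4 * H) with hbdef
  have h3 : (q : ℝ) ^ 2 * Real.exp (-(b * q)) < η / 3 := by
    have h4 : (b * q) ^ 2 * Real.exp (-(b * q)) = b ^ 2 * ((q : ℝ) ^ 2 * Real.exp (-(b * q))) := by ring
    rw [h4] at h1
    have h5 : η * b ^ 2 / 3 = b ^ 2 * (η / 3) := by ring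
    rw [h5] at h1
    exact lt_of_mul_lt_mul_left h1 (by positivity)
  have h6 : Real.exp (-(κ' ^ 2 * (q : ℝ) ^ 2) / (2 * (((q : ℝ) + 1) * H))) ≤ Real.exp (-(b * q)) := by
    apply Real.exp_le_exp.2
    rw [neg_div]
    apply neg_le_neg
    rw [hbdef, div_mul_eq_mul_div, div_le_div_iff₀ (by positivity) (by positivity)]
    have h7 : (q : ℝ) + 1 ≤ 2 * q := by linarith
    have h8 : 0 ≤ κ' ^ 2 * q * (2 * H) := by positivity
    nlinarith [mul_le_mul_of_nonneg_left h7 h8]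
  have h9 : (q : ℝ) * (q + 1) + 1 ≤ 3 * (q : ℝ) ^ 2 := by nlinarith
  calc ((q : ℝ) * (q + 1) + 1) * Real.exp (-(κ' ^ 2 * (q : ℝ) ^ 2) / (2 * (((q : ℝ) + 1) * H)))
      ≤ (3 * (q : ℝ) ^ 2) * Real.exp (-(b * q)) := by
        apply mul_le_mul h9 h6 (Real.exp_pos _).le (by positivity)
    _ = 3 * ((q : ℝ) ^ 2 * Real.exp (-(b * q))) := by ring
    _ ≤ η := by linarith

private theorem s13b_pow (H : ℕ) (κ : ℝ) (hκ : 0 < κ) :
    ∃ q₂ : ℕ, ∀ q : ℕ, q₂ ≤ q → 1 ≤ (1 + κ / 4) * (1 - 1 / (q : ℝ)) ^ H := by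
  have h1 : Filter.Tendsto (fun q : ℕ => (1 + κ / 4) * (1 - 1 / (q : ℝ)) ^ H) Filter.atTop
      (nhds ((1 + κ / 4) * (1 - 0) ^ H)) := by
    apply Filter.Tendsto.const_mul
    apply Filter.Tendsto.pow
    exact Filter.Tendsto.sub tendsto_const_nhds tendsto_one_div_atTop_nhds_zero_nat
  have h2 : ∀ᶠ q : ℕ in Filter.atTop, 1 < (1 + κ / 4) * (1 - 1 / (q : ℝ)) ^ H := by
    apply h1.eventually (lt_mem_nhds _)
    simp; exact hκ
  obtain ⟨q₂, hq₂⟩ := Filter.eventually_atTop.1 h2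
  exact ⟨q₂, fun q hq => (hq₂ q hq).le⟩

private theorem s13b_count {F : Type} [Fintype F] [DecidableEq F] {H : ℕ} (K : Finset (Idx F H)) (i : Option F) :
    K.card ≤ (K.filter (fun k => k.1 ≠ i)).card + H := by
  have h1 := Finset.card_filter_add_card_filter_not (s := K) (fun k : Idx F H => k.1 = i)
  have h2 : (K.filter (fun k : Idx F H => k.1 = i)).card ≤ H := by
    have h3 : (K.filter (fun k : Idx F H => k.1 = i)).card ≤ (univ : Finset (Fin H)).card := by
      apply Finset.card_le_card_of_injOn (fun k => k.2) (fun k _ => Finset.mem_coe.2 (Finset.mem_univ _))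
      intro k hk k' hk' h
      rw [Finset.mem_coe, Finset.mem_filter] at hk hk'
      exact Prod.ext (hk.2.trans hk'.2.symm) h
    simpa using h3
  have h4 : (K.filter (fun k : Idx F H => ¬ k.1 = i)).card = (K.filter (fun k => k.1 ≠ i)).card := rfl
  omega

theorem reg_prob (H : ℕ) (hH : 1 ≤ H) (κ η : ℝ) (hκ : 0 < κ) (hκ1 : κ ≤ 1) (hη : 0 < η) : ∃ q₀ : ℕ,
    ∀ (F : Type) [Field F] [Fintype F] [DecidableEq F], q₀ ≤ Fintype.card F → ∀ K : Finset (Idx F H),
      Pr (fun ω : Om F H => ¬ Reg (inc : PP F → LL F → Prop) (Fintype.card F) κ (rhoH H) (FK ω K)) ≤ η := by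
  have hμ₀ : (0:ℝ) < (1 / 16) ^ H := by positivity
  set μ₀ : ℝ := (1 / 16) ^ H with hμ₀def
  have hκ' : 0 < κ * μ₀ / 8 := by positivity
  set κ' : ℝ := κ * μ₀ / 8 with hκ'def
  obtain ⟨q₁, hq₁⟩ := s13b_tail H hH κ' η hκ' hη
  obtain ⟨q₂, hq₂⟩ := s13b_pow H κ hκ
  refine ⟨max 2 (max q₁ q₂), ?_⟩
  intro F _ _ _ hF K
  have hFq₁ : q₁ ≤ Fintype.card F := le_trans (le_trans (le_max_left _ _) (le_max_right _ _)) hF
  have hFq₂ : q₂ ≤ Fintype.card F := le_trans (le_trans (le_max_right _ _) (le_max_right _ _)) hF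
  have hF2 : 2 ≤ Fintype.card F := le_trans (le_max_left _ _) hF
  have hT := hq₁ _ hFq₁
  have hP := hq₂ _ hFq₂
  have hcIdx : Fintype.card (Idx F H) = (Fintype.card F + 1) * H := card_Idx F H
  have hcPt : Fintype.card (Pt F) = (Fintype.card F + 1) * Fintype.card F := by
    rw [Fintype.card_prod, Fintype.card_option]
  have hKc : K.card ≤ (Fintype.card F + 1) * H := by
    rw [← hcIdx]; exact Finset.card_le_univ K
  have hμl : μ₀ ≤ (1 - 1 / (Fintype.card F : ℝ)) ^ K.card := pow_lower _ _ _ hF2 hKc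
  have hIdxR : ((Fintype.card (Idx F H) : ℕ) : ℝ) = ((Fintype.card F : ℝ) + 1) * H := by
    rw [hcIdx]; push_cast; ring
  set q : ℝ := (Fintype.card F : ℝ) with hq
  have hq2 : (2:ℝ) ≤ q := by rw [hq]; exact_mod_cast hF2
  have hq0 : 0 < q := by linarith
  have ha0 : 0 < 1 - 1 / q := by
    have : 1 / q ≤ 1 / 2 := one_div_le_one_div_of_le (by norm_num) hq2
    linarith
  have ha1 : 1 - 1 / q ≤ 1 := by
    have : 0 < 1 / q := by positivity
    linarith
  set μ : ℝ := (1 - 1 / q) ^ K.card with hμ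
  have hμ1 : μ ≤ 1 := pow_le_one₀ ha0.le ha1
  have hμpos : 0 < μ := lt_of_lt_of_le hμ₀ hμl
  -- means
  have hmean : ∀ p : Pt F, mean (surv K p) ≤ q * (μ * (1 + κ / 4)) := by
    intro p
    rw [surv_mean]
    apply mul_le_mul_of_nonneg_left _ hq0.le
    set m := (K.filter (fun k => k.1 ≠ p.1)).card with hm
    have hcount : K.card ≤ m + H := s13b_count K p.1
    have h1 : (1 - 1 / q) ^ (m + H) ≤ μ := pow_le_pow_of_le_one ha0.le ha1 hcount
    rw [pow_add] at h1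
    have h2 : 0 < (1 - 1 / q) ^ m := pow_pos ha0 _
    calc (1 - 1 / q) ^ m = (1 - 1 / q) ^ m * 1 := by ring
      _ ≤ (1 - 1 / q) ^ m * ((1 + κ / 4) * (1 - 1 / q) ^ H) := mul_le_mul_of_nonneg_left hP h2.le
      _ = ((1 - 1 / q) ^ m * (1 - 1 / q) ^ H) * (1 + κ / 4) := by ring
      _ ≤ μ * (1 + κ / 4) := mul_le_mul_of_nonneg_right h1 (by linarith)
  -- the exceptional events
  have hE1 : ∀ p : Pt F, Pr (fun ω : Om F H => mean (surv K p) + κ' * q ≤ surv K p ω) ≤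
      Real.exp (-(κ' ^ 2 * q ^ 2) / (2 * ((q + 1) * H))) := by
    intro p
    have h := mcdiarmid (surv K p) 1 one_pos (surv_lip K p) (κ' * q) (by positivity)
    rw [hIdxR] at h
    have he : -((κ' * q) ^ 2) / (2 * ((q + 1) * (H:ℝ)) * 1 ^ 2) = -(κ' ^ 2 * q ^ 2) / (2 * ((q + 1) * H)) := by
      rw [mul_pow]; ring
    rw [he] at h
    exact h
  have hE2 : Pr (fun ω : Om F H => nK K ω ≤ mean (nK K) - κ' * q ^ 2) ≤
      Real.exp (-(κ' ^ 2 * q ^ 2) / (2 * ((q + 1) * H))) := by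
    have h := mcdiarmid' (nK K) q hq0 (nK_lip K) (κ' * q ^ 2) (by positivity)
    rw [hIdxR] at h
    have hH0 : (0:ℝ) < H := by exact_mod_cast hH
    have he : -((κ' * q ^ 2) ^ 2) / (2 * ((q + 1) * (H:ℝ)) * q ^ 2) = -(κ' ^ 2 * q ^ 2) / (2 * ((q + 1) * H)) := by
      have h1 : (2 * ((q + 1) * (H:ℝ))) ≠ 0 := by positivity
      field_simp
    rw [he] at h
    exact h
  have hU := s13b_union (fun (p : Pt F) (ω : Om F H) => mean (surv K p) + κ' * q ≤ surv K p ω) _ hE1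
  have hOr := Pr_or (fun ω : Om F H => ∃ p : Pt F, mean (surv K p) + κ' * q ≤ surv K p ω)
    (fun ω : Om F H => nK K ω ≤ mean (nK K) - κ' * q ^ 2)
  refine le_trans (Pr_mono (r := fun ω : Om F H => (∃ p : Pt F, mean (surv K p) + κ' * q ≤ surv K p ω) ∨
    nK K ω ≤ mean (nK K) - κ' * q ^ 2) ?_) ?_
  · intro ω hω
    by_contra hcon
    push Not at hcon
    obtain ⟨hA, hB⟩ := hcon
    apply hω
    rw [nK_mean] at hB
    have hFKc : ((FK ω K).card : ℝ) = nK K ω := by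
      unfold FK nK
      rw [Finset.card_image_of_injective _ Sum.inl_injective]
    have hB' : (μ - κ') * q ^ 2 < ((FK ω K).card : ℝ) := by
      rw [hFKc]
      have : q ^ 2 * μ - κ' * q ^ 2 = (μ - κ') * q ^ 2 := by ring
      rw [← this]; exact hB
    have hκ'μ : κ' ≤ κ * μ / 8 := by
      rw [hκ'def]
      have := mul_le_mul_of_nonneg_left hμl hκ.le
      linarith
    have hκμ : κ * μ ≤ μ := by nlinarith
    refine ⟨?_, ?_, ?_⟩
    · have h1 : rhoH H ≤ μ - κ' := by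
        unfold rhoH
        rw [← hμ₀def]
        linarith
      have h2 : rhoH H * q ^ 2 ≤ (μ - κ') * q ^ 2 := mul_le_mul_of_nonneg_right h1 (by positivity)
      linarith
    · have := FK_card_le ω K
      exact_mod_cast this
    · intro z
      cases z with
      | none =>
        rw [deg_FK_none]
        have : (0:ℝ) ≤ (1 + κ) * ((FK ω K).card : ℝ) := by positivity
        simpa using this
      | some p =>
        have h1 := deg_FK_le K ω p
        have h2 := hA p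
        have h3 := hmean p
        have h4 : (deg (inc : PP F → LL F → Prop) (FK ω K) (some p) : ℝ) ≤ q * (μ * (1 + κ / 4)) + κ' * q := by
          linarith
        have h5 : (deg (inc : PP F → LL F → Prop) (FK ω K) (some p) : ℝ) * q ≤
            (q * (μ * (1 + κ / 4)) + κ' * q) * q := mul_le_mul_of_nonneg_right h4 hq0.le
        have h6 : (q * (μ * (1 + κ / 4)) + κ' * q) * q ≤ (1 + κ) * ((μ - κ') * q ^ 2) := by
          have h7 : μ * (1 + κ / 4) + κ' ≤ (1 + κ) * (μ - κ') := by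
            have h8 : κ * κ' ≤ κ' := by
              calc κ * κ' ≤ 1 * κ' := mul_le_mul_of_nonneg_right hκ1 hκ'.le
                _ = κ' := one_mul _
            have h9 : (1 + κ) * (μ - κ') = μ + κ * μ - κ' - κ * κ' := by ring
            have h10 : μ * (1 + κ / 4) = μ + κ * μ / 4 := by ring
            rw [h9, h10]
            have h11 : 0 < κ * μ := mul_pos hκ hμpos
            linarith
          have h9 : 0 ≤ q ^ 2 := by positivity
          have h10 := mul_le_mul_of_nonneg_right h7 h9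
          calc (q * (μ * (1 + κ / 4)) + κ' * q) * q = (μ * (1 + κ / 4) + κ') * q ^ 2 := by ring
            _ ≤ (1 + κ) * (μ - κ') * q ^ 2 := h10
            _ = (1 + κ) * ((μ - κ') * q ^ 2) := by ring
        have h10 : (1 + κ) * ((μ - κ') * q ^ 2) ≤ (1 + κ) * ((FK ω K).card : ℝ) :=
          mul_le_mul_of_nonneg_left hB'.le (by linarith)
        linarith
  · refine le_trans hOr ?_
    have hcPtR : ((Fintype.card (Pt F) : ℕ) : ℝ) = (q + 1) * q := by
      rw [hcPt]; push_cast; ring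
    rw [hcPtR] at hU
    calc _ ≤ (q + 1) * q * Real.exp (-(κ' ^ 2 * q ^ 2) / (2 * ((q + 1) * H))) +
          Real.exp (-(κ' ^ 2 * q ^ 2) / (2 * ((q + 1) * H))) := add_le_add hU hE2
      _ = (q * (q + 1) + 1) * Real.exp (-(κ' ^ 2 * q ^ 2) / (2 * ((q + 1) * H))) := by ring
      _ ≤ η := hT

end Crest.Agent.RY
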