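/-
  RY_S15 : pure analysis: the union bound over the family beats its size.
  PROOF.  For q ≥ q₀ the base e H /(4 us g) (this is e H a/(g q) with a = q/(4 us)) is ≤ e H/(us² q) < 1 since g ≥ us q/4, so the g-th power is
  ≤ (e H/(us² q))^(us q/4) (rpow, base < 1).  Taking logarithms: 6 ε q log q + C q log 2 - (us q/4)(log q - log(e H/us²)) and 6ε ≤ 6 us/400 < us/8,
  so this is ≤ -(us/8) q log q + C' q → -∞.
-/
import Mathlib

set_option autoImplicit false

namespace Crest.Agent.RY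

theorem analysis1 (H : ℕ) (ρ ε us η : ℝ) (hρ : 0 < ρ) (hε : 0 < ε) (hus : 0 < us) (hεu : ε ≤ us / 400) (hη : 0 < η) :
    ∃ q₀ : ℕ, ∀ q : ℕ, q₀ ≤ q → ∀ g : ℕ, us * (q:ℝ) / 4 ≤ (g:ℝ) →
      (((q : ℝ) ^ 3) ^ (2 * ε * (q : ℝ)) * (2 : ℝ) ^ ((2 * ε + 16 / ε ^ 3 + 100 / (ρ ^ 2 * ε)) * (q : ℝ))) *
        (Real.exp 1 * H * ((q : ℝ) / (4 * us)) / ((g : ℝ) * (q : ℝ))) ^ g ≤ η := by
  set C : ℝ := 2 * ε + 16 / ε ^ 3 + 100 / (ρ ^ 2 * ε) with hC
  set A : ℝ := Real.exp 1 * (H + 1) / us ^ 2 with hA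
  have hApos : 0 < A := by positivity
  set K : ℝ := C * Real.log 2 + (us / 4) * Real.log A with hK
  have hlog : Filter.Tendsto (fun q : ℕ => Real.log (q : ℝ)) Filter.atTop Filter.atTop :=
    Real.tendsto_log_atTop.comp tendsto_natCast_atTop_atTop
  have h1 := (tendsto_natCast_atTop_atTop (R := ℝ)).eventually_ge_atTop 1
  have h2 := (tendsto_natCast_atTop_atTop (R := ℝ)).eventually_ge_atTop A
  have h3 := hlog.eventually_ge_atTop ((K + 1) / (us / 8))
  have h4 := (tendsto_natCast_atTop_atTop (R := ℝ)).eventually_ge_atTop (-Real.log η)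
  obtain ⟨q₀, hq₀⟩ := Filter.eventually_atTop.mp (h1.and (h2.and (h3.and h4)))
  refine ⟨q₀, fun q hq g hg => ?_⟩
  obtain ⟨hq1, hqA, hqK, hqη⟩ := hq₀ q hq
  have hqpos : (0 : ℝ) < q := by linarith
  have hgpos : (0 : ℝ) < g := lt_of_lt_of_le (by positivity) hg
  have hlogq : 0 ≤ Real.log q := Real.log_nonneg hq1
  have e1 : ((q : ℝ) ^ 3) ^ (2 * ε * (q : ℝ)) = Real.exp (6 * ε * q * Real.log q) := by
    rw [Real.rpow_def_of_pos (by positivity), Real.log_pow]
    congr 1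
    push_cast
    ring
  have e2 : (2 : ℝ) ^ (C * (q : ℝ)) = Real.exp (C * q * Real.log 2) := by
    rw [Real.rpow_def_of_pos (by norm_num)]
    congr 1
    ring
  have hb0 : 0 ≤ Real.exp 1 * H * ((q : ℝ) / (4 * us)) / ((g : ℝ) * (q : ℝ)) := by positivity
  have hb1 : Real.exp 1 * H * ((q : ℝ) / (4 * us)) / ((g : ℝ) * (q : ℝ)) ≤ A / q := by
    have e3 : Real.exp 1 * H * ((q : ℝ) / (4 * us)) / ((g : ℝ) * (q : ℝ)) =
        Real.exp 1 * H / (4 * us * g) := by
      field_simp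
    rw [e3, hA, div_div, div_le_div_iff₀ (by positivity) (by positivity)]
    have h5 : us ^ 2 * q ≤ 4 * us * g := by nlinarith
    have h6 : Real.exp 1 * (H : ℝ) ≤ Real.exp 1 * (H + 1) := by
      have := Real.exp_pos 1
      nlinarith
    calc Real.exp 1 * (H : ℝ) * (us ^ 2 * q) ≤ Real.exp 1 * (H + 1) * (us ^ 2 * q) := by gcongr
      _ ≤ Real.exp 1 * (H + 1) * (4 * us * g) := by gcongr
  have hAq1 : A / q ≤ 1 := by rw [div_le_one hqpos]; exact hqA
  have hAq0 : 0 < A / q := by positivity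
  have e4 : (Real.exp 1 * H * ((q : ℝ) / (4 * us)) / ((g : ℝ) * (q : ℝ))) ^ g ≤
      Real.exp ((Real.log A - Real.log q) * (us * q / 4)) := by
    calc (Real.exp 1 * H * ((q : ℝ) / (4 * us)) / ((g : ℝ) * (q : ℝ))) ^ g ≤ (A / q) ^ g := by
          gcongr
      _ = (A / q) ^ (g : ℝ) := (Real.rpow_natCast _ _).symm
      _ ≤ (A / q) ^ (us * (q : ℝ) / 4) := Real.rpow_le_rpow_of_exponent_ge hAq0 hAq1 hg
      _ = _ := by
          rw [Real.rpow_def_of_pos hAq0, Real.log_div hApos.ne' hqpos.ne']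
  have e5 : 6 * ε * q * Real.log q + C * q * Real.log 2 +
      (Real.log A - Real.log q) * (us * q / 4) ≤ -q := by
    have h7 : K + 1 ≤ us / 8 * Real.log q := by
      rw [div_le_iff₀ (by positivity)] at hqK
      linarith
    have h8 : 6 * ε * Real.log q ≤ us / 8 * Real.log q := by
      apply mul_le_mul_of_nonneg_right _ hlogq
      linarith
    have h9 : 6 * ε * Real.log q + K - us / 4 * Real.log q ≤ -1 := by linarith
    calc _ = q * (6 * ε * Real.log q + K - us / 4 * Real.log q) := by rw [hK]; ring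
      _ ≤ q * (-1) := by gcongr
      _ = -q := by ring
  calc _ ≤ Real.exp (6 * ε * q * Real.log q) * Real.exp (C * q * Real.log 2) *
        Real.exp ((Real.log A - Real.log q) * (us * q / 4)) := by
          rw [e1, e2]
          gcongr
    _ = Real.exp (6 * ε * q * Real.log q + C * q * Real.log 2 +
          (Real.log A - Real.log q) * (us * q / 4)) := by
        rw [Real.exp_add, Real.exp_add]
    _ ≤ Real.exp (-q) := Real.exp_le_exp.mpr e5
    _ ≤ Real.exp (Real.log η) := Real.exp_le_exp.mpr (by linarith)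
    _ = η := Real.exp_log hη

end Crest.Agent.RY
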