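/-
  RY_S1 : counting in a finite projective plane of order q.
  PROOFS.
  * card_P : fix a line l0 (exists since P nonempty: from two_le, lines have q+1 points; P is nonempty because a line exists...
    if P were empty then L would be... NOTE: P could only be empty together with L; `card_pt`, `card_line` then hold vacuously,
    so we assume `[Nonempty P]`.)  Count the points p ≠ p0 along the q+1 lines through p0: each has q further points and they
    are disjoint by `line`.   card_L dually (using `pt`).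
  * sum_deg : double counting of incidences (Finset.sum_comm / sum_card_bipartiteAbove_eq_sum_card_bipartiteBelow).
  * sum_deg_sq : Σ_p deg^2 = #{(p,l,l') : l,l' ∈ LS, p ∈ l ∩ l'} = Σ_l (q+1) + Σ_{l≠l'} 1 = |LS|^2 + q |LS|.
  * variance : expand, N = q^2+q+1 :  Σ (deg - (q+1)|LS|/N)^2 = |LS|^2 + q|LS| - (q+1)^2|LS|^2/N = q|LS| - q|LS|^2/N.
  * deviation : Markov.
-/
import Crest.Agent.RY_SDefs

set_option autoImplicit false

namespace Crest.Agent.RY
open Finset Classical

variable {P L : Type} [Fintype P] [Fintype L] [DecidableEq P] [DecidableEq L] {inc : P → L → Prop} {q : ℕ}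

private theorem s1_card_pts (hP : IsPlane inc q) (l l' : L) :
    (univ.filter (fun p => inc p l ∧ inc p l')).card = if l = l' then q + 1 else 1 := by
  by_cases h : l = l'
  · subst h
    rw [if_pos rfl]
    simp only [and_self]
    exact hP.card_line l
  · rw [if_neg h]
    exact (Fintype.existsUnique_iff_card_one _).1 (hP.pt l l' h)

private theorem s1_card_lns (hP : IsPlane inc q) (p p' : P) :
    (univ.filter (fun l => inc p l ∧ inc p' l)).card = if p = p' then q + 1 else 1 := by
  by_cases h : p = p'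
  · subst h
    rw [if_pos rfl]
    simp only [and_self]
    exact hP.card_pt p
  · rw [if_neg h]
    exact (Fintype.existsUnique_iff_card_one _).1 (hP.line p p' h)

theorem card_P [Nonempty P] (hP : IsPlane inc q) : Fintype.card P = q ^ 2 + q + 1 := by
  obtain ⟨p0⟩ := (inferInstance : Nonempty P)
  have h1 : ∑ p : P, (univ.filter (fun l => inc p0 l ∧ inc p l)).card = (q + 1) * (q + 1) := by
    have e1 : ∀ p : P, (univ.filter (fun l => inc p0 l ∧ inc p l)).card =
        ∑ l ∈ univ.filter (fun l => inc p0 l), if inc p l then 1 else 0 := by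
      intro p
      rw [← Finset.card_filter, Finset.filter_filter]
    rw [Finset.sum_congr rfl fun p _ => e1 p, Finset.sum_comm]
    have e2 : ∀ l : L, ∑ p : P, (if inc p l then 1 else 0) = q + 1 := by
      intro l
      rw [← Finset.card_filter]
      exact hP.card_line l
    rw [Finset.sum_congr rfl fun l _ => e2 l, Finset.sum_const, hP.card_pt p0, smul_eq_mul]
  have h2 : ∑ p : P, (univ.filter (fun l => inc p0 l ∧ inc p l)).card = q + Fintype.card P := by
    rw [Finset.sum_congr rfl fun p _ => s1_card_lns hP p0 p]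
    have e3 : ∀ p : P, (if p0 = p then q + 1 else 1) = (if p0 = p then q else 0) + 1 := by
      intro p
      split_ifs <;> omega
    rw [Finset.sum_congr rfl fun p _ => e3 p, Finset.sum_add_distrib, Finset.sum_ite_eq,
      if_pos (Finset.mem_univ _)]
    simp
  rw [h1] at h2
  nlinarith

theorem card_L [Nonempty P] (hP : IsPlane inc q) : Fintype.card L = q ^ 2 + q + 1 := by
  obtain ⟨p0⟩ := (inferInstance : Nonempty P)
  obtain ⟨l0, _⟩ : (univ.filter (fun l => inc p0 l)).Nonempty := by
    rw [← Finset.card_pos, hP.card_pt p0]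
    omega
  have h1 : ∑ l : L, (univ.filter (fun p => inc p l0 ∧ inc p l)).card = (q + 1) * (q + 1) := by
    have e1 : ∀ l : L, (univ.filter (fun p => inc p l0 ∧ inc p l)).card =
        ∑ p ∈ univ.filter (fun p => inc p l0), if inc p l then 1 else 0 := by
      intro l
      rw [← Finset.card_filter, Finset.filter_filter]
    rw [Finset.sum_congr rfl fun l _ => e1 l, Finset.sum_comm]
    have e2 : ∀ p : P, ∑ l : L, (if inc p l then 1 else 0) = q + 1 := by
      intro p
      rw [← Finset.card_filter]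
      exact hP.card_pt p
    rw [Finset.sum_congr rfl fun p _ => e2 p, Finset.sum_const, hP.card_line l0, smul_eq_mul]
  have h2 : ∑ l : L, (univ.filter (fun p => inc p l0 ∧ inc p l)).card = q + Fintype.card L := by
    rw [Finset.sum_congr rfl fun l _ => s1_card_pts hP l0 l]
    have e3 : ∀ l : L, (if l0 = l then q + 1 else 1) = (if l0 = l then q else 0) + 1 := by
      intro l
      split_ifs <;> omega
    rw [Finset.sum_congr rfl fun l _ => e3 l, Finset.sum_add_distrib, Finset.sum_ite_eq,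
      if_pos (Finset.mem_univ _)]
    simp
  rw [h1] at h2
  nlinarith

theorem sum_deg (hP : IsPlane inc q) (LS : Finset L) : ∑ p, deg inc LS p = (q + 1) * LS.card := by
  have e1 : ∀ p : P, deg inc LS p = ∑ l ∈ LS, if inc p l then 1 else 0 := by
    intro p
    unfold deg
    rw [Finset.card_filter]
  rw [Finset.sum_congr rfl fun p _ => e1 p, Finset.sum_comm]
  have e2 : ∀ l : L, ∑ p : P, (if inc p l then 1 else 0) = q + 1 := by
    intro l
    rw [← Finset.card_filter]
    exact hP.card_line l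
  rw [Finset.sum_congr rfl fun l _ => e2 l, Finset.sum_const, smul_eq_mul, mul_comm]

theorem sum_deg_sq (hP : IsPlane inc q) (LS : Finset L) :
    ∑ p, (deg inc LS p) ^ 2 = LS.card ^ 2 + q * LS.card := by
  have e1 : ∀ p : P, (deg inc LS p) ^ 2 =
      ∑ l ∈ LS, ∑ l' ∈ LS, if inc p l ∧ inc p l' then 1 else 0 := by
    intro p
    unfold deg
    rw [sq, Finset.card_filter, Finset.sum_mul_sum]
    refine Finset.sum_congr rfl fun l _ => Finset.sum_congr rfl fun l' _ => ?_
    by_cases h1 : inc p l <;> by_cases h2 : inc p l' <;> simp [h1, h2]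
  rw [Finset.sum_congr rfl fun p _ => e1 p, Finset.sum_comm]
  have e2 : ∀ l ∈ LS, ∑ p : P, ∑ l' ∈ LS, (if inc p l ∧ inc p l' then 1 else 0) = q + LS.card := by
    intro l hl
    rw [Finset.sum_comm]
    have e3 : ∀ l' : L, ∑ p : P, (if inc p l ∧ inc p l' then 1 else 0) =
        (if l = l' then q else 0) + 1 := by
      intro l'
      rw [← Finset.card_filter, s1_card_pts hP l l']
      split_ifs <;> omega
    rw [Finset.sum_congr rfl fun l' _ => e3 l', Finset.sum_add_distrib, Finset.sum_ite_eq,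
      if_pos hl]
    simp
  rw [Finset.sum_congr rfl e2, Finset.sum_const, smul_eq_mul]
  ring

private theorem s1_sum_sq [Nonempty P] (hP : IsPlane inc q) (LS : Finset L) :
    ∑ p, ((deg inc LS p : ℝ) - ((q : ℝ) + 1) * (LS.card : ℝ) / ((q : ℝ) ^ 2 + q + 1)) ^ 2 =
      (LS.card : ℝ) ^ 2 + q * LS.card -
        ((q : ℝ) + 1) ^ 2 * (LS.card : ℝ) ^ 2 / ((q : ℝ) ^ 2 + q + 1) := by
  have hN : (0 : ℝ) < (q : ℝ) ^ 2 + q + 1 := by positivity
  obtain ⟨c, hc⟩ : ∃ c : ℝ, c = ((q : ℝ) + 1) * (LS.card : ℝ) / ((q : ℝ) ^ 2 + q + 1) := ⟨_, rfl⟩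
  have h1 : ∑ p, (deg inc LS p : ℝ) = ((q : ℝ) + 1) * LS.card := by
    have := sum_deg hP LS
    exact_mod_cast this
  have h2 : ∑ p, (deg inc LS p : ℝ) ^ 2 = (LS.card : ℝ) ^ 2 + q * LS.card := by
    have := sum_deg_sq hP LS
    exact_mod_cast this
  have h3 : (Fintype.card P : ℝ) = (q : ℝ) ^ 2 + q + 1 := by
    have := card_P hP
    exact_mod_cast this
  rw [← hc]
  have e : ∀ p : P, ((deg inc LS p : ℝ) - c) ^ 2 =
      (deg inc LS p : ℝ) ^ 2 - 2 * c * (deg inc LS p : ℝ) + c ^ 2 := fun p => by ring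
  rw [Finset.sum_congr rfl fun p _ => e p, Finset.sum_add_distrib, Finset.sum_sub_distrib,
    ← Finset.mul_sum, h1, h2, Finset.sum_const, Finset.card_univ, nsmul_eq_mul, h3, hc]
  field_simp
  ring

theorem variance [Nonempty P] (hP : IsPlane inc q) (LS : Finset L) :
    ∑ p, ((deg inc LS p : ℝ) - ((q : ℝ) + 1) * (LS.card : ℝ) / ((q : ℝ) ^ 2 + q + 1)) ^ 2 ≤ (q : ℝ) * (LS.card : ℝ) := by
  rw [s1_sum_sq hP LS]
  have hN : (0 : ℝ) < (q : ℝ) ^ 2 + q + 1 := by positivity
  have hq : (0 : ℝ) ≤ q := Nat.cast_nonneg q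
  have h : (LS.card : ℝ) ^ 2 ≤ ((q : ℝ) + 1) ^ 2 * (LS.card : ℝ) ^ 2 / ((q : ℝ) ^ 2 + q + 1) := by
    rw [le_div_iff₀ hN]
    nlinarith [sq_nonneg (LS.card : ℝ), mul_nonneg hq (sq_nonneg (LS.card : ℝ))]
  linarith

/-- all points of `A` have degree far from the mean -/
theorem deviation [Nonempty P] (hP : IsPlane inc q) (LS : Finset L) (A : Finset P) (s : ℝ) (hs : 0 ≤ s)
    (hA : ∀ p ∈ A, s ≤ |(deg inc LS p : ℝ) - ((q : ℝ) + 1) * (LS.card : ℝ) / ((q : ℝ) ^ 2 + q + 1)|) :
    (A.card : ℝ) * s ^ 2 ≤ (q : ℝ) * (LS.card : ℝ) := by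
  refine le_trans ?_ (variance hP LS)
  calc (A.card : ℝ) * s ^ 2 = ∑ _p ∈ A, s ^ 2 := by rw [Finset.sum_const, nsmul_eq_mul]
    _ ≤ ∑ p ∈ A, ((deg inc LS p : ℝ) -
          ((q : ℝ) + 1) * (LS.card : ℝ) / ((q : ℝ) ^ 2 + q + 1)) ^ 2 := by
        refine Finset.sum_le_sum fun p hp => ?_
        rw [← sq_abs ((deg inc LS p : ℝ) - _)]
        exact pow_le_pow_left₀ hs (hA p hp) 2
    _ ≤ _ := Finset.sum_le_sum_of_subset_of_nonneg (Finset.subset_univ A)
        fun p _ _ => sq_nonneg _

end Crest.Agent.RY
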