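/-
  RY_S2 : sizes of the sets atyp, X1, X2.
  PROOFS (N = q^2+q+1, mean(LS) = (q+1)|LS|/N).
  * meet_card_le : union bound over the points of T (each on q+1 lines).
  * meet_card_ge : Bonferroni: Σ_{l ∈ Fp∩meet T} (nn T l) = Σ_{t∈T} deg Fp t and nn - 1 ≤ nn(nn-1)/2,
     Σ_l nn(nn-1)/2 = |T|(|T|-1)/2 (two points lie on exactly one line).
  * atyp_card : mean ≤ |U|/q, so a point p of atyp has deg - mean ≥ 2|U|/q; `deviation` with s = 2|U|/q gives
     |atyp| 4|U|^2/q^2 ≤ q|U|.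
  * X1_card : |meet T| ≥ (q+1)|T| - |T|^2/2, N ≤ (q+1)^2, so mean(meet T) ≥ |T| - |T|^2/(2(q+1)) ≥ |T| - |T|^2/(2q); for z ∉ T in X1
     mean - deg ≥ |T|^2/q.  `deviation`: |X1| |T|^4/q^2 ≤ q |meet T| ≤ q(q+1)|T| ≤ 2q^2|T|.
  * X2_card : L' = |Fp ∩ meet T| ≥ |T||Fp|/(2q) - |T|^2/2 ≥ 3|T||Fp|/(8q);  mean ≥ L'/(q+1) ≥ (9/10) 3|T||Fp|/(8 q^2) (q ≥ 9);
     so mean - deg ≥ |T||Fp|/(5q^2);  |X2| (|T||Fp|/(5q^2))^2 ≤ q L' ≤ q(q+1)|T| ≤ 2q^2|T|.
-/
import Crest.Agent.RY_S1

set_option autoImplicit false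

namespace Crest.Agent.RY
open Finset Classical

variable {P L : Type} [Fintype P] [Fintype L] [DecidableEq P] [DecidableEq L] {inc : P → L → Prop} {q : ℕ}

private theorem S2_dc (LS : Finset L) (T : Finset P) :
    ∑ l ∈ LS, nn inc T l = ∑ t ∈ T, deg inc LS t := by
  unfold nn deg
  simp only [card_filter]
  rw [Finset.sum_comm]

private theorem S2_q_pos (hP : IsPlane inc q) : (0 : ℝ) < q := by
  have := hP.two_le
  have h : 0 < q := by omega
  exact_mod_cast h

theorem meet_card_le (hP : IsPlane inc q) (T : Finset P) : (meet inc T).card ≤ (q + 1) * T.card := by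
  have h1 : meet inc T ⊆ T.biUnion (fun t => univ.filter (fun l => inc t l)) := by
    intro l hl
    simp only [meet, mem_filter, mem_univ, true_and] at hl
    obtain ⟨p, hp, hpl⟩ := hl
    simp only [mem_biUnion, mem_filter, mem_univ, true_and]
    exact ⟨p, hp, hpl⟩
  calc (meet inc T).card ≤ (T.biUnion (fun t => univ.filter (fun l => inc t l))).card := card_le_card h1
    _ ≤ ∑ t ∈ T, (univ.filter (fun l => inc t l)).card := card_biUnion_le
    _ = ∑ t ∈ T, (q + 1) := sum_congr rfl (fun t _ => hP.card_pt t)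
    _ = (q + 1) * T.card := by rw [sum_const, smul_eq_mul, mul_comm]

private theorem S2_pairs (hP : IsPlane inc q) (T : Finset P) :
    ∑ l : L, (nn inc T l * nn inc T l - nn inc T l) = T.card * T.card - T.card := by
  have h1 : ∀ l : L, nn inc T l * nn inc T l - nn inc T l
      = (T.offDiag.filter (fun x => inc x.1 l ∧ inc x.2 l)).card := by
    intro l
    unfold nn
    rw [← offDiag_card]
    congr 1
    ext x
    simp only [mem_offDiag, mem_filter]
    tauto
  simp only [h1, card_filter]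
  rw [Finset.sum_comm]
  have h2 : ∀ x ∈ T.offDiag, (∑ l : L, if inc x.1 l ∧ inc x.2 l then 1 else 0) = 1 := by
    intro x hx
    rw [mem_offDiag] at hx
    obtain ⟨l0, hl0, hu⟩ := hP.line x.1 x.2 hx.2.2
    rw [Finset.sum_eq_single l0]
    · rw [if_pos hl0]
    · intro l _ hne
      rw [if_neg]
      intro h
      exact hne (hu l h)
    · intro h
      exact absurd (mem_univ l0) h
  rw [sum_congr rfl h2, sum_const, smul_eq_mul, mul_one, offDiag_card]

theorem meet_card_ge (hP : IsPlane inc q) (Fp : Finset L) (T : Finset P) :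
    (∑ t ∈ T, (deg inc Fp t : ℝ)) - (T.card : ℝ) ^ 2 / 2 ≤ ((Fp ∩ meet inc T).card : ℝ) := by
  -- sum over the lines
  have h1 : (∑ t ∈ T, (deg inc Fp t : ℝ)) = ∑ l ∈ Fp ∩ meet inc T, (nn inc T l : ℝ) := by
    have e1 : ∑ l ∈ Fp ∩ meet inc T, nn inc T l = ∑ l ∈ Fp, nn inc T l := by
      apply sum_subset inter_subset_left
      intro l hl hnl
      unfold nn
      rw [card_eq_zero, filter_eq_empty_iff]
      intro p hp hpl
      apply hnl
      rw [mem_inter]
      refine ⟨hl, ?_⟩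
      simp only [meet, mem_filter, mem_univ, true_and]
      exact ⟨p, hp, hpl⟩
    have e2 := S2_dc (inc := inc) Fp T
    have e3 : (∑ l ∈ Fp ∩ meet inc T, nn inc T l) = ∑ t ∈ T, deg inc Fp t := e1.trans e2
    exact_mod_cast e3.symm
  have h2 : ∑ l ∈ Fp ∩ meet inc T, ((nn inc T l : ℝ) * nn inc T l - nn inc T l) ≤ (T.card : ℝ) ^ 2 := by
    have e0 : ∀ l : L, ((nn inc T l : ℝ) * nn inc T l - nn inc T l)
        = ((nn inc T l * nn inc T l - nn inc T l : ℕ) : ℝ) := by
      intro l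
      rw [Nat.cast_sub (Nat.le_mul_self _), Nat.cast_mul]
    calc ∑ l ∈ Fp ∩ meet inc T, ((nn inc T l : ℝ) * nn inc T l - nn inc T l)
        = ∑ l ∈ Fp ∩ meet inc T, ((nn inc T l * nn inc T l - nn inc T l : ℕ) : ℝ) :=
          sum_congr rfl (fun l _ => e0 l)
      _ ≤ ∑ l : L, ((nn inc T l * nn inc T l - nn inc T l : ℕ) : ℝ) := by
          apply sum_le_sum_of_subset_of_nonneg (subset_univ _)
          intro l _ _
          positivity
      _ = ((T.card * T.card - T.card : ℕ) : ℝ) := by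
          have := S2_pairs hP T
          exact_mod_cast this
      _ ≤ ((T.card * T.card : ℕ) : ℝ) := by exact_mod_cast Nat.sub_le _ _
      _ = (T.card : ℝ) ^ 2 := by push_cast; ring
  have h3 : ∀ l ∈ Fp ∩ meet inc T, (nn inc T l : ℝ) - ((nn inc T l : ℝ) * nn inc T l - nn inc T l) / 2 ≤ 1 := by
    intro l _
    rcases Nat.lt_or_ge (nn inc T l) 2 with h | h
    · interval_cases hn : nn inc T l <;> norm_num
    · have h' : (2 : ℝ) ≤ nn inc T l := by exact_mod_cast h
      nlinarith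
  have h4 : ∑ l ∈ Fp ∩ meet inc T, ((nn inc T l : ℝ) - ((nn inc T l : ℝ) * nn inc T l - nn inc T l) / 2)
      ≤ ((Fp ∩ meet inc T).card : ℝ) := by
    calc _ ≤ ∑ l ∈ Fp ∩ meet inc T, (1 : ℝ) := sum_le_sum h3
      _ = _ := by simp
  rw [sum_sub_distrib, ← sum_div] at h4
  rw [h1]
  linarith

theorem atyp_card [Nonempty P] (hP : IsPlane inc q) (U : Finset L) (hU : U.Nonempty) :
    ((atyp inc q U).card : ℝ) * (4 * (U.card : ℝ)) ≤ (q : ℝ) ^ 3 := by
  have hq := S2_q_pos hP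
  have hUc : (0 : ℝ) < U.card := by exact_mod_cast hU.card_pos
  have hN : (0 : ℝ) < (q : ℝ) ^ 2 + q + 1 := by positivity
  have h := deviation hP U (atyp inc q U) (2 * U.card / q) (by positivity) (by
    intro p hp
    simp only [atyp, mem_filter, mem_univ, true_and] at hp
    have hp' : 3 * (U.card : ℝ) ≤ q * (deg inc U p : ℝ) := by exact_mod_cast hp
    have hm : ((q : ℝ) + 1) * (U.card : ℝ) / ((q : ℝ) ^ 2 + q + 1) ≤ U.card / q := by
      rw [div_le_div_iff₀ hN hq]
      nlinarith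
    have hd : 3 * (U.card : ℝ) / q ≤ deg inc U p := by
      rw [div_le_iff₀ hq]; linarith
    refine le_trans ?_ (le_abs_self _)
    have e : 2 * (U.card : ℝ) / q = 3 * (U.card : ℝ) / q - U.card / q := by ring
    rw [e]
    linarith)
  have h2 : ((atyp inc q U).card : ℝ) * (4 * (U.card : ℝ)) * (U.card) ≤ (q : ℝ) ^ 3 * U.card := by
    have e : ((atyp inc q U).card : ℝ) * (2 * U.card / q) ^ 2 * q ^ 2
        = ((atyp inc q U).card : ℝ) * (4 * (U.card : ℝ)) * (U.card) := by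
      field_simp
      ring
    rw [← e]
    calc ((atyp inc q U).card : ℝ) * (2 * U.card / q) ^ 2 * q ^ 2 ≤ (q * U.card) * q ^ 2 :=
          mul_le_mul_of_nonneg_right h (by positivity)
      _ = (q : ℝ) ^ 3 * U.card := by ring
  exact le_of_mul_le_mul_right h2 hUc

private theorem S2_mean_ge (hP : IsPlane inc q) (x : ℝ) (hx : 0 ≤ x) :
    x / ((q : ℝ) + 1) ≤ ((q : ℝ) + 1) * x / ((q : ℝ) ^ 2 + q + 1) := by
  have hq := S2_q_pos hP
  have hN : (0 : ℝ) < (q : ℝ) ^ 2 + q + 1 := by positivity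
  rw [div_le_div_iff₀ (by positivity) hN]
  nlinarith [mul_nonneg hx hq.le]

theorem X1_card [Nonempty P] (hP : IsPlane inc q) (T : Finset P) (hT : T.Nonempty) :
    ((X1 inc q T).card : ℝ) * (T.card : ℝ) ^ 3 ≤ 2 * (q : ℝ) ^ 4 := by
  have hq := S2_q_pos hP
  have hTc : (0 : ℝ) < T.card := by exact_mod_cast hT.card_pos
  have hq2 : (2 : ℝ) ≤ q := by exact_mod_cast hP.two_le
  have hle : ((meet inc T).card : ℝ) ≤ ((q : ℝ) + 1) * T.card := by
    exact_mod_cast meet_card_le hP T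
  have hge : ((q : ℝ) + 1) * T.card - (T.card : ℝ) ^ 2 / 2 ≤ ((meet inc T).card : ℝ) := by
    have := meet_card_ge hP univ T
    have hd : ∀ t ∈ T, (deg inc univ t : ℝ) = (q : ℝ) + 1 := by
      intro t _
      have := hP.card_pt t
      unfold deg
      rw [this]; push_cast; ring
    rw [sum_congr rfl hd, sum_const, univ_inter, nsmul_eq_mul] at this
    linarith
  have h := deviation hP (meet inc T) (X1 inc q T) ((T.card : ℝ) ^ 2 / q) (by positivity) (by
    intro z hz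
    simp only [X1, mem_filter, mem_univ, true_and] at hz
    obtain ⟨_, hz⟩ := hz
    have hm := S2_mean_ge hP ((meet inc T).card : ℝ) (by positivity)
    have hm2 : (T.card : ℝ) - (T.card : ℝ) ^ 2 / (2 * q) ≤ ((meet inc T).card : ℝ) / ((q : ℝ) + 1) := by
      rw [le_div_iff₀ (by positivity)]
      refine le_trans ?_ hge
      have e : ((T.card : ℝ) - (T.card : ℝ) ^ 2 / (2 * q)) * ((q : ℝ) + 1)
          = ((q : ℝ) + 1) * T.card - (T.card : ℝ) ^ 2 / 2 - (T.card : ℝ) ^ 2 / (2 * q) := by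
        field_simp
        ring
      rw [e]
      have : 0 ≤ (T.card : ℝ) ^ 2 / (2 * q) := by positivity
      linarith
    refine le_trans ?_ (neg_le_abs _)
    have e : (T.card : ℝ) ^ 2 / q = 3 / 2 * (T.card : ℝ) ^ 2 / q - (T.card : ℝ) ^ 2 / (2 * q) := by
      field_simp
      ring
    rw [e]
    linarith)
  have h2 : ((X1 inc q T).card : ℝ) * (T.card : ℝ) ^ 3 * T.card ≤ 2 * (q : ℝ) ^ 4 * T.card := by
    have e : ((X1 inc q T).card : ℝ) * ((T.card : ℝ) ^ 2 / q) ^ 2 * q ^ 2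
        = ((X1 inc q T).card : ℝ) * (T.card : ℝ) ^ 3 * T.card := by
      field_simp
    rw [← e]
    calc ((X1 inc q T).card : ℝ) * ((T.card : ℝ) ^ 2 / q) ^ 2 * q ^ 2
        ≤ (q * (meet inc T).card) * q ^ 2 := mul_le_mul_of_nonneg_right h (by positivity)
      _ ≤ (q * (((q : ℝ) + 1) * T.card)) * q ^ 2 := by gcongr
      _ ≤ (q * ((2 * q) * T.card)) * q ^ 2 := by gcongr; linarith
      _ = 2 * (q : ℝ) ^ 4 * T.card := by ring
  exact le_of_mul_le_mul_right h2 hTc

theorem X2_card [Nonempty P] (hP : IsPlane inc q) (Fp : Finset L) (T : Finset P) (hT : T.Nonempty) (hq : 9 ≤ q)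
    (h1 : 4 * q * T.card ≤ Fp.card) (h2 : ∀ t ∈ T, Fp.card ≤ 2 * q * deg inc Fp t) :
    ((X2 inc q Fp T).card : ℝ) * ((T.card : ℝ) * (Fp.card : ℝ) ^ 2) ≤ 50 * (q : ℝ) ^ 6 := by
  have hq0 := S2_q_pos hP
  have hTc : (0 : ℝ) < T.card := by exact_mod_cast hT.card_pos
  have hq9 : (9 : ℝ) ≤ q := by exact_mod_cast hq
  have h1' : 4 * (q : ℝ) * T.card ≤ Fp.card := by exact_mod_cast h1
  have hF0 : (0 : ℝ) ≤ Fp.card := by positivity
  have hle : ((Fp ∩ meet inc T).card : ℝ) ≤ ((q : ℝ) + 1) * T.card := by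
    have a := card_le_card (inter_subset_right : Fp ∩ meet inc T ⊆ meet inc T)
    have b := meet_card_le hP T
    exact_mod_cast a.trans b
  have hge : 3 * (T.card : ℝ) * Fp.card / (8 * q) ≤ ((Fp ∩ meet inc T).card : ℝ) := by
    have := meet_card_ge hP Fp T
    have hd : ∑ t ∈ T, ((Fp.card : ℝ) / (2 * q)) ≤ ∑ t ∈ T, (deg inc Fp t : ℝ) := by
      apply sum_le_sum
      intro t ht
      rw [div_le_iff₀ (by positivity)]
      have := h2 t ht
      have h' : (Fp.card : ℝ) ≤ 2 * q * deg inc Fp t := by exact_mod_cast this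
      linarith
    rw [sum_const, nsmul_eq_mul] at hd
    have hsq : (T.card : ℝ) ^ 2 / 2 ≤ (T.card : ℝ) * Fp.card / (8 * q) := by
      rw [div_le_div_iff₀ (by norm_num) (by positivity)]
      nlinarith [mul_le_mul_of_nonneg_left h1' hTc.le]
    have e : 3 * (T.card : ℝ) * Fp.card / (8 * q)
        = (T.card : ℝ) * (Fp.card / (2 * q)) - (T.card : ℝ) * Fp.card / (8 * q) := by
      field_simp
      ring
    rw [e]
    linarith
  have h := deviation hP (Fp ∩ meet inc T) (X2 inc q Fp T) ((T.card : ℝ) * Fp.card / (5 * (q : ℝ) ^ 2))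
    (by positivity) (by
    intro z hz
    simp only [X2, mem_filter, mem_univ, true_and] at hz
    obtain ⟨_, hz⟩ := hz
    have hm := S2_mean_ge hP ((Fp ∩ meet inc T).card : ℝ) (by positivity)
    have hm2 : (T.card : ℝ) * Fp.card / (5 * (q : ℝ) ^ 2) + (T.card : ℝ) * (Fp.card : ℝ) / (8 * (q : ℝ) ^ 2)
        ≤ ((Fp ∩ meet inc T).card : ℝ) / ((q : ℝ) + 1) := by
      rw [le_div_iff₀ (by positivity)]
      refine le_trans ?_ hge
      have e : ((T.card : ℝ) * Fp.card / (5 * (q : ℝ) ^ 2) + (T.card : ℝ) * (Fp.card : ℝ) / (8 * (q : ℝ) ^ 2))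
          * ((q : ℝ) + 1) = (T.card : ℝ) * Fp.card * (13 * (q + 1)) / (40 * (q : ℝ) ^ 2) := by
        field_simp
        ring
      rw [e, div_le_div_iff₀ (by positivity) (by positivity)]
      have hTF : 0 ≤ (T.card : ℝ) * Fp.card := by positivity
      have : 0 ≤ (T.card : ℝ) * Fp.card * ((q : ℝ) * (16 * q - 104)) := by
        apply mul_nonneg hTF
        apply mul_nonneg hq0.le
        linarith
      nlinarith
    refine le_trans ?_ (neg_le_abs _)
    linarith)
  have h3 : ((X2 inc q Fp T).card : ℝ) * ((T.card : ℝ) * (Fp.card : ℝ) ^ 2) * T.card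
      ≤ 50 * (q : ℝ) ^ 6 * T.card := by
    have e : ((X2 inc q Fp T).card : ℝ) * ((T.card : ℝ) * Fp.card / (5 * (q : ℝ) ^ 2)) ^ 2 * (25 * q ^ 4)
        = ((X2 inc q Fp T).card : ℝ) * ((T.card : ℝ) * (Fp.card : ℝ) ^ 2) * T.card := by
      field_simp
      ring
    rw [← e]
    calc ((X2 inc q Fp T).card : ℝ) * ((T.card : ℝ) * Fp.card / (5 * (q : ℝ) ^ 2)) ^ 2 * (25 * q ^ 4)
        ≤ (q * (Fp ∩ meet inc T).card) * (25 * q ^ 4) := mul_le_mul_of_nonneg_right h (by positivity)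
      _ ≤ (q * (((q : ℝ) + 1) * T.card)) * (25 * q ^ 4) := by gcongr
      _ ≤ (q * ((2 * q) * T.card)) * (25 * q ^ 4) := by gcongr; linarith
      _ = 50 * (q : ℝ) ^ 6 * T.card := by ring
  exact le_of_mul_le_mul_right h3 hTc

end Crest.Agent.RY
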