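/-
  RY_S3 : the size of the family Fam.
  PROOF.  Map T to its subsets: Fam ⊆ ⋃_{T admissible} powerset (T ∪ (X1 T ∪ X2 T)).
  Number of T with |T| ≤ 2εq : T is determined by a function; #{T : |T| ≤ k} ≤ (card P + 1)^k  (k = ⌊2εq⌋₊; e.g. every such T is
  the range of a function Fin k → Option P, `Finset.card_le_card_of_surjOn`), and card P + 1 = q^2+q+2 ≤ q^3 (q ≥ 2),
  so ≤ (q^3)^k ≤ (q^3)^(2εq) (rpow).
  For admissible T: |T| ≥ εq/2 > 0, so by X1_card |X1| ≤ 2q^4/|T|^3 ≤ 16 q/ε^3; by X2_card (4q|T| ≤ 8εq^2 ≤ ρ q^2 ≤ |Fp|)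
  |X2| ≤ 50q^6/(|T||Fp|^2) ≤ 100 q/(ρ^2 ε).  So the powerset has at most 2^(2εq + 16q/ε^3 + 100q/(ρ^2 ε)) elements.
-/
import Crest.Agent.RY_S2

set_option autoImplicit false

namespace Crest.Agent.RY
open Finset Classical

variable {P L : Type} [Fintype P] [Fintype L] [DecidableEq P] [DecidableEq L] {inc : P → L → Prop} {q : ℕ}

private theorem S3_card_small (k : ℕ) :
    ((univ : Finset (Finset P)).filter (fun T => T.card ≤ k)).card ≤ (Fintype.card P + 1) ^ k := by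
  have h1 : (Finset.univ : Finset (Fin k → Option P)).card = (Fintype.card P + 1) ^ k := by
    rw [Finset.card_univ, Fintype.card_fun, Fintype.card_option, Fintype.card_fin]
  rw [← h1]
  apply Finset.card_le_card_of_surjOn
    (fun f : Fin k → Option P => (univ : Finset P).filter (fun p => ∃ i, f i = some p))
  intro T hT
  have hT' : T.card ≤ k := by
    have := hT
    simp only [Finset.coe_filter, Finset.mem_univ, true_and] at this
    exact this
  let e := T.equivFin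
  refine ⟨fun i => if h : i.1 < T.card then some ((e.symm ⟨i.1, h⟩ : T) : P) else none, by simp, ?_⟩
  ext p
  simp only [Finset.mem_filter, Finset.mem_univ, true_and]
  constructor
  · rintro ⟨i, hi⟩
    by_cases h : i.1 < T.card
    · rw [dif_pos h] at hi
      have := Option.some_injective _ hi
      rw [← this]
      exact (e.symm ⟨i.1, h⟩).2
    · rw [dif_neg h] at hi
      exact absurd hi (by simp)
  · intro hp
    refine ⟨⟨(e ⟨p, hp⟩).1, lt_of_lt_of_le (e ⟨p, hp⟩).2 hT'⟩, ?_⟩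
    have h : (e ⟨p, hp⟩).1 < T.card := (e ⟨p, hp⟩).2
    rw [dif_pos h]
    simp

theorem Fam_card [Nonempty P] (hP : IsPlane inc q) (ε ρ : ℝ) (hε : 0 < ε) (hρ : 0 < ρ) (hερ : ε ≤ ρ / 8)
    (hq : 9 ≤ q) (Fp : Finset L) (hFp : ρ * (q : ℝ) ^ 2 ≤ (Fp.card : ℝ)) :
    ((Fam inc q ε Fp).card : ℝ) ≤ ((q : ℝ) ^ 3) ^ (2 * ε * (q : ℝ)) *
      (2 : ℝ) ^ ((2 * ε + 16 / ε ^ 3 + 100 / (ρ ^ 2 * ε)) * (q : ℝ)) := by
  have hq0 : (0 : ℝ) < q := by
    have : 0 < q := by omega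
    exact_mod_cast this
  have hq1 : (1 : ℝ) ≤ q := by
    have : 1 ≤ q := by omega
    exact_mod_cast this
  set k : ℕ := ⌊2 * ε * (q : ℝ)⌋₊ with hk
  set B : ℝ := (2 * ε + 16 / ε ^ 3 + 100 / (ρ ^ 2 * ε)) * (q : ℝ) with hB
  set TT : Finset (Finset P) := univ.filter (fun T => ε * q / 2 ≤ (T.card : ℝ) ∧ (T.card : ℝ) ≤ 2 * ε * q ∧
    (∀ t ∈ T, Fp.card ≤ 2 * q * deg inc Fp t)) with hTT
  -- covering
  have hsub : Fam inc q ε Fp ⊆ TT.biUnion (fun T => (T ∪ (X1 inc q T ∪ X2 inc q Fp T)).powerset) := by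
    intro Se hSe
    unfold Fam at hSe
    rw [Finset.mem_filter] at hSe
    obtain ⟨-, T, h1, h2, h3, h4⟩ := hSe
    rw [Finset.mem_biUnion]
    exact ⟨T, by rw [hTT, Finset.mem_filter]; exact ⟨Finset.mem_univ _, h1, h2, h3⟩,
      Finset.mem_powerset.2 h4⟩
  -- the size of each powerset
  have hpow : ∀ T ∈ TT, (((T ∪ (X1 inc q T ∪ X2 inc q Fp T)).powerset.card : ℕ) : ℝ) ≤ (2 : ℝ) ^ B := by
    intro T hT
    rw [hTT, Finset.mem_filter] at hT
    obtain ⟨-, h1, h2, h3⟩ := hT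
    have hTpos : (0 : ℝ) < T.card := lt_of_lt_of_le (by positivity) h1
    have hTne : T.Nonempty := by
      rw [← Finset.card_pos]
      exact_mod_cast hTpos
    have hX1 := X1_card hP T hTne
    have h4 : 4 * q * T.card ≤ Fp.card := by
      have : (4 : ℝ) * q * T.card ≤ Fp.card := by
        calc (4 : ℝ) * q * T.card ≤ 4 * q * (2 * ε * q) := by
              apply mul_le_mul_of_nonneg_left h2 (by positivity)
          _ = 8 * ε * (q : ℝ) ^ 2 := by ring
          _ ≤ ρ * (q : ℝ) ^ 2 := by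
              apply mul_le_mul_of_nonneg_right _ (by positivity)
              linarith
          _ ≤ Fp.card := hFp
      exact_mod_cast this
    have hX2 := X2_card hP Fp T hTne hq h4 h3
    -- bounds
    have b1 : ((X1 inc q T).card : ℝ) ≤ 16 / ε ^ 3 * q := by
      have h5 : (ε * q / 2) ^ 3 ≤ (T.card : ℝ) ^ 3 := by
        apply pow_le_pow_left₀ (by positivity) h1
      have h6 : ((X1 inc q T).card : ℝ) * (ε * q / 2) ^ 3 ≤ 2 * (q : ℝ) ^ 4 :=
        le_trans (mul_le_mul_of_nonneg_left h5 (by positivity)) hX1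
      have h7 : (0 : ℝ) < (ε * q / 2) ^ 3 := by positivity
      have h8 : 16 / ε ^ 3 * (q : ℝ) = 2 * (q : ℝ) ^ 4 / (ε * q / 2) ^ 3 := by
        field_simp
        ring
      rw [h8, le_div_iff₀ h7]
      exact h6
    have b2 : ((X2 inc q Fp T).card : ℝ) ≤ 100 / (ρ ^ 2 * ε) * q := by
      have h5 : (ρ * (q : ℝ) ^ 2) ^ 2 ≤ (Fp.card : ℝ) ^ 2 := by
        apply pow_le_pow_left₀ (by positivity) hFp
      have h5' : (ε * q / 2) * (ρ * (q : ℝ) ^ 2) ^ 2 ≤ (T.card : ℝ) * (Fp.card : ℝ) ^ 2 :=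
        mul_le_mul h1 h5 (by positivity) (by positivity)
      have h6 : ((X2 inc q Fp T).card : ℝ) * ((ε * q / 2) * (ρ * (q : ℝ) ^ 2) ^ 2) ≤ 50 * (q : ℝ) ^ 6 :=
        le_trans (mul_le_mul_of_nonneg_left h5' (by positivity)) hX2
      have h7 : (0 : ℝ) < (ε * q / 2) * (ρ * (q : ℝ) ^ 2) ^ 2 := by positivity
      have h8 : 100 / (ρ ^ 2 * ε) * (q : ℝ) = 50 * (q : ℝ) ^ 6 / ((ε * q / 2) * (ρ * (q : ℝ) ^ 2) ^ 2) := by
        field_simp
        ring
      rw [h8, le_div_iff₀ h7]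
      exact h6
    rw [Finset.card_powerset]
    have hc : (((T ∪ (X1 inc q T ∪ X2 inc q Fp T)).card : ℕ) : ℝ) ≤ B := by
      have hcn : (T ∪ (X1 inc q T ∪ X2 inc q Fp T)).card ≤
          T.card + ((X1 inc q T).card + (X2 inc q Fp T).card) :=
        le_trans (Finset.card_union_le _ _) (Nat.add_le_add_left (Finset.card_union_le _ _) _)
      have hcr : (((T ∪ (X1 inc q T ∪ X2 inc q Fp T)).card : ℕ) : ℝ) ≤
          T.card + ((X1 inc q T).card + (X2 inc q Fp T).card) := by exact_mod_cast hcn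
      rw [hB]
      have : (2 * ε + 16 / ε ^ 3 + 100 / (ρ ^ 2 * ε)) * (q : ℝ) =
        2 * ε * q + (16 / ε ^ 3 * q + 100 / (ρ ^ 2 * ε) * q) := by ring
      rw [this]
      linarith
    push_cast
    rw [← Real.rpow_natCast]
    exact Real.rpow_le_rpow_of_exponent_le (by norm_num) hc
  -- the number of T
  have hTTc : (TT.card : ℝ) ≤ ((q : ℝ) ^ 3) ^ (2 * ε * (q : ℝ)) := by
    have s1 : TT ⊆ (univ : Finset (Finset P)).filter (fun T => T.card ≤ k) := by
      intro T hT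
      rw [hTT, Finset.mem_filter] at hT
      rw [Finset.mem_filter]
      exact ⟨Finset.mem_univ _, Nat.le_floor hT.2.2.1⟩
    have s2 : TT.card ≤ (Fintype.card P + 1) ^ k := le_trans (Finset.card_le_card s1) (S3_card_small k)
    have s3 : Fintype.card P + 1 ≤ q ^ 3 := by
      rw [card_P hP]
      nlinarith [Nat.mul_le_mul hq (Nat.le_refl (q * q)), Nat.mul_le_mul hq (Nat.le_refl q)]
    have s4 : TT.card ≤ (q ^ 3) ^ k := le_trans s2 (Nat.pow_le_pow_left s3 k)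
    have s5 : (TT.card : ℝ) ≤ ((q : ℝ) ^ 3) ^ k := by exact_mod_cast s4
    refine le_trans s5 ?_
    rw [← Real.rpow_natCast]
    apply Real.rpow_le_rpow_of_exponent_le (one_le_pow₀ hq1)
    exact Nat.floor_le (by positivity)
  -- assembly
  have hcard : ((Fam inc q ε Fp).card : ℝ) ≤ ∑ T ∈ TT, (2 : ℝ) ^ B := by
    have c1 : (Fam inc q ε Fp).card ≤ ∑ T ∈ TT, (T ∪ (X1 inc q T ∪ X2 inc q Fp T)).powerset.card :=
      le_trans (Finset.card_le_card hsub) Finset.card_biUnion_le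
    have c2 : ((Fam inc q ε Fp).card : ℝ) ≤
        ∑ T ∈ TT, (((T ∪ (X1 inc q T ∪ X2 inc q Fp T)).powerset.card : ℕ) : ℝ) := by exact_mod_cast c1
    exact le_trans c2 (Finset.sum_le_sum hpow)
  rw [Finset.sum_const, nsmul_eq_mul] at hcard
  exact le_trans hcard (mul_le_mul_of_nonneg_right hTTc (by positivity))

end Crest.Agent.RY
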