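/-
  RY_S16 : the probability of the large deviation event of one block.
  PROOF.  Let q = card F, g = ⌊us q/4⌋₊ + 1 ≥ us q/4.  AA ω = image of {Se ∈ Fam ε (FK ω K) | us q² ≤ |FK ω K ∩ miss Se|} under
  Se ↦ {p : Pt F | some p ∈ atyp (FK ω K ∩ miss Se)}.  It depends only on the coordinates in K (FK_congr), which are outside D (disjoint).
  |AA ω| ≤ |Fam| ≤ (q^3)^(2εq) 2^(...) by Fam_card when ρ q² ≤ |FK ω K|; when this fails put AA ω = ∅.
  By atyp_card every member has size ≤ q³/(4 us q²) = q/(4us).  `tail_union` with K := D, and `analysis1`.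
  A count > us q/4 is ≥ g.
-/
import Crest.Agent.RY_S3
import Crest.Agent.RY_S4
import Crest.Agent.RY_S11
import Crest.Agent.RY_S15

set_option autoImplicit false

namespace Crest.Agent.RY
open Finset Classical

theorem ld_prob (H : ℕ) (hH : 1 ≤ H) (ρ ε us η : ℝ) (hρ : 0 < ρ) (hρ1 : ρ ≤ 1) (hε : 0 < ε) (hερ : ε ≤ ρ / 2400)
    (hus : 0 < us) (hεu : ε ≤ us / 400) (hη : 0 < η) : ∃ q₀ : ℕ,
    ∀ (F : Type) [Field F] [Fintype F] [DecidableEq F], q₀ ≤ Fintype.card F → ∀ K D : Finset (Idx F H), Disjoint K D →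
      Pr (fun ω : Om F H => ρ * (Fintype.card F : ℝ) ^ 2 ≤ ((FK ω K).card : ℝ) ∧
        ∃ Se ∈ Fam (inc : PP F → LL F → Prop) (Fintype.card F) ε (FK ω K),
          us * (Fintype.card F : ℝ) ^ 2 ≤ ((FK ω K ∩ miss inc Se).card : ℝ) ∧
          us * (Fintype.card F : ℝ) / 4 <
            ((D.filter (fun k => some (rp ω k) ∈ atyp inc (Fintype.card F) (FK ω K ∩ miss inc Se))).card : ℝ)) ≤ η := by
  obtain ⟨q₁, hq₁⟩ := analysis1 H ρ ε us η hρ hε hus hεu hη
  refine ⟨max q₁ 9, ?_⟩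
  intro F _ _ _ hqF K D hKD
  have hP : IsPlane (inc : PP F → LL F → Prop) (Fintype.card F) := isPlane_PP
  have hq1 : q₁ ≤ Fintype.card F := le_trans (le_max_left _ _) hqF
  have hq9 : 9 ≤ Fintype.card F := le_trans (le_max_right _ _) hqF
  have hq9' : (9:ℝ) ≤ (Fintype.card F : ℝ) := by exact_mod_cast hq9
  have hqpos : (0:ℝ) < (Fintype.card F : ℝ) := by linarith
  obtain ⟨A0, hA0⟩ : ∃ A0 : Finset (LL F) → Finset (Pt F), A0 = fun U =>
      univ.filter (fun p : Pt F => (some p : PP F) ∈ atyp inc (Fintype.card F) U) := ⟨_, rfl⟩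
  obtain ⟨BB, hBB⟩ : ∃ BB : Finset (LL F) → Finset (Finset (Pt F)), BB = fun Fp =>
      if ρ * (Fintype.card F : ℝ) ^ 2 ≤ (Fp.card : ℝ) then
        ((Fam (inc : PP F → LL F → Prop) (Fintype.card F) ε Fp).filter (fun Se =>
          us * (Fintype.card F : ℝ) ^ 2 ≤ ((Fp ∩ miss inc Se).card : ℝ))).image (fun Se => A0 (Fp ∩ miss inc Se))
      else ∅ := ⟨_, rfl⟩
  have hBBcard : ∀ Fp : Finset (LL F), ((BB Fp).card : ℝ) ≤
      (((Fintype.card F : ℝ)) ^ 3) ^ (2 * ε * (Fintype.card F : ℝ)) *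
        (2 : ℝ) ^ ((2 * ε + 16 / ε ^ 3 + 100 / (ρ ^ 2 * ε)) * (Fintype.card F : ℝ)) := by
    intro Fp
    rw [hBB]
    by_cases h : ρ * (Fintype.card F : ℝ) ^ 2 ≤ (Fp.card : ℝ)
    · simp only [h, if_true]
      refine le_trans ?_ (Fam_card hP ε ρ hε hρ (by linarith) hq9 Fp h)
      exact Nat.cast_le.mpr (le_trans Finset.card_image_le (Finset.card_le_card (Finset.filter_subset _ _)))
    · simp only [h, if_false, Finset.card_empty, Nat.cast_zero]
      positivity
  have hBBsize : ∀ Fp : Finset (LL F), ∀ A ∈ BB Fp, (A.card : ℝ) ≤ (Fintype.card F : ℝ) / (4 * us) := by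
    intro Fp A hA
    rw [hBB] at hA
    by_cases h : ρ * (Fintype.card F : ℝ) ^ 2 ≤ (Fp.card : ℝ)
    · simp only [h, if_true, Finset.mem_image, Finset.mem_filter] at hA
      obtain ⟨Se, ⟨_, hSe⟩, rfl⟩ := hA
      generalize hU : Fp ∩ miss inc Se = U at hSe ⊢
      have hUpos : (0:ℝ) < (U.card : ℝ) := lt_of_lt_of_le (by positivity) hSe
      have hUne : U.Nonempty := by
        rw [← Finset.card_pos]
        exact_mod_cast hUpos
      have h1 := atyp_card hP U hUne
      have h2 : ((A0 U).card : ℝ) ≤ ((atyp (inc : PP F → LL F → Prop) (Fintype.card F) U).card : ℝ) := by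
        apply Nat.cast_le.mpr
        refine Finset.card_le_card_of_injOn (fun p => (some p : PP F)) ?_ ?_
        · intro p hp
          rw [hA0] at hp
          simp only [Finset.coe_filter, Finset.mem_univ, true_and, Set.mem_ofPred_eq] at hp
          exact hp
        · intro a _ b _ hab
          exact Option.some_injective _ hab
      rw [le_div_iff₀ (by positivity)]
      have h3 : ((A0 U).card : ℝ) * (4 * (us * (Fintype.card F : ℝ) ^ 2)) ≤ (Fintype.card F : ℝ) ^ 3 := by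
        refine le_trans ?_ h1
        apply mul_le_mul h2 _ (by positivity) (by positivity)
        linarith
      have h4 : (((A0 U).card : ℝ) * (4 * us)) * (Fintype.card F : ℝ) ^ 2 ≤ (Fintype.card F : ℝ) * (Fintype.card F : ℝ) ^ 2 := by
        calc _ = ((A0 U).card : ℝ) * (4 * (us * (Fintype.card F : ℝ) ^ 2)) := by ring
          _ ≤ (Fintype.card F : ℝ) ^ 3 := h3
          _ = _ := by ring
      exact le_of_mul_le_mul_right h4 (by positivity)
    · simp only [h, if_false, Finset.notMem_empty] at hA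
  obtain ⟨g, hg⟩ : ∃ g : ℕ, g = ⌊us * (Fintype.card F : ℝ) / 4⌋₊ + 1 := ⟨_, rfl⟩
  have hg1 : 1 ≤ g := by omega
  have hgge : us * (Fintype.card F : ℝ) / 4 ≤ (g : ℝ) := by
    rw [hg]
    push_cast
    exact (Nat.lt_floor_add_one _).le
  have key := tail_union (F := F) (H := H) D (fun ω => BB (FK ω K)) (by
    intro ω₁ ω₂ h
    have : FK ω₁ K = FK ω₂ K := by
      apply FK_congr
      intro k hk
      apply h
      exact Finset.disjoint_left.mp hKD hk
    show BB (FK ω₁ K) = BB (FK ω₂ K)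
    rw [this]) _ _ (fun ω => hBBcard (FK ω K)) (fun ω => hBBsize (FK ω K)) g hg1 (by positivity)
  refine le_trans ?_ (le_trans key (hq₁ (Fintype.card F) hq1 g hgge))
  apply Pr_mono
  rintro ω ⟨h1, Se, hSe, h2, h3⟩
  refine ⟨A0 (FK ω K ∩ miss inc Se), ?_, ?_⟩
  · rw [hBB]
    simp only [h1, if_true, Finset.mem_image, Finset.mem_filter]
    exact ⟨Se, ⟨hSe, h2⟩, rfl⟩
  · have h4 : us * (Fintype.card F : ℝ) / 4 < ((D.filter (fun k => rp ω k ∈ A0 (FK ω K ∩ miss inc Se))).card : ℝ) := by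
      refine lt_of_lt_of_le h3 (Nat.cast_le.mpr (Finset.card_le_card ?_))
      intro k hk
      rw [Finset.mem_filter] at hk ⊢
      refine ⟨hk.1, ?_⟩
      rw [hA0]
      simp only [Finset.mem_filter, Finset.mem_univ, true_and]
      exact hk.2
    have h5 : ⌊us * (Fintype.card F : ℝ) / 4⌋₊ < (D.filter (fun k => rp ω k ∈ A0 (FK ω K ∩ miss inc Se))).card := by
      rw [Nat.floor_lt (by positivity)]
      exact h4
    rw [hg]
    omega

end Crest.Agent.RY
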