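/-
  RY_S17 : chains of index sets.
  PROOF.  Enumerate α (Fintype.equivFin) and let Kc j = {a | j*n ≤ index of a}.
-/
import Mathlib

set_option autoImplicit false

namespace Crest.Agent.RY
open Finset Classical

theorem chain (A : Type) [Fintype A] [DecidableEq A] (n b : ℕ) (hb : Fintype.card A ≤ b * n) :
    ∃ Kc : ℕ → Finset A, Kc 0 = univ ∧ Kc b = ∅ ∧ ∀ j, Kc (j + 1) ⊆ Kc j ∧ (Kc j \ Kc (j + 1)).card ≤ n := by
  let e := Fintype.equivFin A
  refine ⟨fun j => univ.filter (fun a => j * n ≤ (e a : ℕ)), ?_, ?_, ?_⟩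
  · ext a
    simp
  · ext a
    simp only [mem_filter, mem_univ, true_and, notMem_empty, iff_false, not_le]
    exact lt_of_lt_of_le (e a).isLt hb
  · intro j
    refine ⟨?_, ?_⟩
    · intro a ha
      simp only [mem_filter, mem_univ, true_and] at ha ⊢
      exact le_trans (Nat.mul_le_mul_right n (Nat.le_succ j)) ha
    · have hinj : Set.InjOn (fun a => (e a : ℕ))
          ((univ.filter (fun a => j * n ≤ (e a : ℕ)) \
            univ.filter (fun a => (j + 1) * n ≤ (e a : ℕ)) : Finset A) : Set A) := by
        intro a _ c _ hac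
        exact e.injective (Fin.ext hac)
      have himg : ((univ.filter (fun a => j * n ≤ (e a : ℕ)) \
            univ.filter (fun a => (j + 1) * n ≤ (e a : ℕ)) : Finset A).image (fun a => (e a : ℕ)))
          ⊆ Finset.Ico (j * n) ((j + 1) * n) := by
        intro x hx
        simp only [mem_image, mem_sdiff, mem_filter, mem_univ, true_and, not_le] at hx
        obtain ⟨a, ⟨h1, h2⟩, rfl⟩ := hx
        exact Finset.mem_Ico.mpr ⟨h1, h2⟩
      have h1 := Finset.card_le_card himg
      rw [Finset.card_image_of_injOn hinj, Nat.card_Ico] at h1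
      have h2 : (j + 1) * n - j * n = n := by
        rw [Nat.succ_mul]; omega
      rw [h2] at h1
      exact h1

end Crest.Agent.RY
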