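/-
  RY_S18 : PART 1.
  PROOF.  q = card F, ρ = rhoH H ≤ 1.  Let b : ℕ with b ≥ H * 2^26/ρ² (constant), us > 0 with 4^b us ≤ min (ν/2) (ρ/64), κ = min us 1,
  ε = min (ρ/2400) (us/400).   For large q put n = ⌊ρ² q/2^23⌋₊ ≥ ρ² q/2^24; card (Idx) = (q+1) H ≤ 2qH ≤ b n.  `chain` gives Kc.
  Bad events, for j < b:  ¬Reg κ ρ (FK ω (Kc (j+1))), and the event of `ld_prob` with K = Kc (j+1), D = Kc j \ Kc (j+1);
  choose η = 1/(32 b): total probability ≤ 1/16 (finite union bound: Pr_or and induction on b).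
  Outside: let S0 be a cover of RR ω, S = S0.image some.  By induction on j ≤ b:  |FK ω (Kc j) ∩ miss S| ≤ 4^j us q²
  (j = 0: the set is empty by FK_univ_inter_miss; step: `step` with K = Kc (j+1), D = Kc j \ Kc (j+1), K ∪ D = Kc j, v = 4^j us ≤ ρ/64 for j<b,
  max us (4v) = 4^(j+1) us.)  For j = b: Kc b = ∅ and |FK ω ∅ ∩ miss S| = |F0 S0| (FK_empty_inter_miss), ≤ 4^b us q² ≤ ν/2 q² < ... .
-/
import Crest.Agent.RY_S13b
import Crest.Agent.RY_S18a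
import Crest.Agent.RY_S16
import Crest.Agent.RY_S17

set_option autoImplicit false

namespace Crest.Agent.RY
open Finset Classical

theorem part1' (H : ℕ) (hH : 1 ≤ H) (ν : ℝ) (hν : 0 < ν) : ∃ q₀ : ℕ,
    ∀ (F : Type) [Field F] [Fintype F] [DecidableEq F], q₀ ≤ Fintype.card F →
      Pr (fun ω : Om F H => ∃ S : Finset (Pt F), Cover (RR ω) S ∧
        ν * (Fintype.card F : ℝ) ^ 2 < ((F0 S).card : ℝ)) ≤ 1 / 16 := by
  obtain ⟨ρ, hρdef⟩ : ∃ ρ : ℝ, ρ = rhoH H := ⟨_, rfl⟩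
  have hρ : 0 < ρ := by
    rw [hρdef]; unfold rhoH; positivity
  have hρ1 : ρ ≤ 1 := by
    rw [hρdef]; unfold rhoH
    have : ((1:ℝ) / 16) ^ H ≤ 1 := pow_le_one₀ (by norm_num) (by norm_num)
    linarith
  have hρ2 : 0 < ρ ^ 2 := by positivity
  obtain ⟨b, hbdef⟩ : ∃ b : ℕ, b = ⌈(H : ℝ) * 2 ^ 25 / ρ ^ 2⌉₊ + 1 := ⟨_, rfl⟩
  have hb : (H : ℝ) * 2 ^ 25 / ρ ^ 2 ≤ (b : ℝ) := by
    rw [hbdef]; push_cast
    have := Nat.le_ceil ((H : ℝ) * 2 ^ 25 / ρ ^ 2)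
    linarith
  have hb1 : (1 : ℝ) ≤ (b : ℝ) := by
    rw [hbdef]; push_cast
    have : (0 : ℝ) ≤ ((⌈(H : ℝ) * 2 ^ 25 / ρ ^ 2⌉₊ : ℕ) : ℝ) := Nat.cast_nonneg _
    linarith
  obtain ⟨us, husdef⟩ : ∃ us : ℝ, us = min (ν / 2) (ρ / 64) / 4 ^ b := ⟨_, rfl⟩
  have h4 : (0 : ℝ) < 4 ^ b := by positivity
  have hmin : 0 < min (ν / 2) (ρ / 64) := lt_min (by positivity) (by positivity)
  have hus : 0 < us := by rw [husdef]; positivity
  have h4us : 4 ^ b * us = min (ν / 2) (ρ / 64) := by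
    rw [husdef]; field_simp
  obtain ⟨κ, hκdef⟩ : ∃ κ : ℝ, κ = min us 1 := ⟨_, rfl⟩
  have hκ : 0 < κ := by rw [hκdef]; exact lt_min hus one_pos
  have hκ1 : κ ≤ 1 := by rw [hκdef]; exact min_le_right _ _
  have hκu : κ ≤ us := by rw [hκdef]; exact min_le_left _ _
  obtain ⟨ε, hεdef⟩ : ∃ ε : ℝ, ε = min (ρ / 2400) (us / 400) := ⟨_, rfl⟩
  have hε : 0 < ε := by rw [hεdef]; exact lt_min (by positivity) (by positivity)
  have hερ : ε ≤ ρ / 2400 := by rw [hεdef]; exact min_le_left _ _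
  have hεu : ε ≤ us / 400 := by rw [hεdef]; exact min_le_right _ _
  obtain ⟨η, hηdef⟩ : ∃ η : ℝ, η = 1 / (32 * (b : ℝ)) := ⟨_, rfl⟩
  have hη : 0 < η := by rw [hηdef]; positivity
  obtain ⟨q1, hq1⟩ := reg_prob H hH κ η hκ hκ1 hη
  obtain ⟨q2, hq2⟩ := ld_prob H hH ρ ε us η hρ hρ1 hε hερ hus hεu hη
  refine ⟨max (max q1 q2) (max 8 (max ⌈8 / (ρ * ε ^ 3 * us)⌉₊ ⌈2 ^ 24 / ρ ^ 2⌉₊)), ?_⟩
  intro F _ _ _ hqF
  have hF1 : q1 ≤ Fintype.card F := le_trans (le_trans (le_max_left _ _) (le_max_left _ _)) hqF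
  have hF2 : q2 ≤ Fintype.card F := le_trans (le_trans (le_max_right _ _) (le_max_left _ _)) hqF
  have hF3 : 8 ≤ Fintype.card F := le_trans (le_trans (le_max_left _ _) (le_max_right _ _)) hqF
  have hF4 : ⌈8 / (ρ * ε ^ 3 * us)⌉₊ ≤ Fintype.card F :=
    le_trans (le_trans (le_trans (le_max_left _ _) (le_max_right _ _)) (le_max_right _ _)) hqF
  have hF5 : ⌈2 ^ 24 / ρ ^ 2⌉₊ ≤ Fintype.card F :=
    le_trans (le_trans (le_trans (le_max_right _ _) (le_max_right _ _)) (le_max_right _ _)) hqF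
  have hF4' : 8 / (ρ * ε ^ 3 * us) ≤ (Fintype.card F : ℝ) :=
    le_trans (Nat.le_ceil _) (by exact_mod_cast hF4)
  have hF5' : 2 ^ 24 / ρ ^ 2 ≤ (Fintype.card F : ℝ) :=
    le_trans (Nat.le_ceil _) (by exact_mod_cast hF5)
  have hq8 : (8 : ℝ) ≤ (Fintype.card F : ℝ) := by exact_mod_cast hF3
  obtain ⟨n, hndef⟩ : ∃ n : ℕ, n = ⌊ρ ^ 2 * (Fintype.card F : ℝ) / 2 ^ 23⌋₊ := ⟨_, rfl⟩
  have hn_le : (n : ℝ) ≤ ρ ^ 2 * (Fintype.card F : ℝ) / 2 ^ 23 := by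
    rw [hndef]; exact Nat.floor_le (by positivity)
  have hn_ge : ρ ^ 2 * (Fintype.card F : ℝ) / 2 ^ 24 ≤ (n : ℝ) := by
    have h1 : ρ ^ 2 * (Fintype.card F : ℝ) / 2 ^ 23 < (n : ℝ) + 1 := by
      rw [hndef]; exact Nat.lt_floor_add_one _
    have h2 : 1 ≤ ρ ^ 2 * (Fintype.card F : ℝ) / 2 ^ 24 := by
      rw [div_le_iff₀ hρ2] at hF5'
      rw [le_div_iff₀ (by positivity)]
      linarith
    have h3 : ρ ^ 2 * (Fintype.card F : ℝ) / 2 ^ 23 = 2 * (ρ ^ 2 * (Fintype.card F : ℝ) / 2 ^ 24) := by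
      ring
    linarith
  have hcard : Fintype.card (Idx F H) ≤ b * n := by
    rw [card_Idx]
    have h1 : (((Fintype.card F + 1) * H : ℕ) : ℝ) ≤ ((b * n : ℕ) : ℝ) := by
      push_cast
      have h2 : (H : ℝ) * 2 ^ 25 / ρ ^ 2 * (ρ ^ 2 * (Fintype.card F : ℝ) / 2 ^ 24) ≤ (b : ℝ) * (n : ℝ) :=
        mul_le_mul hb hn_ge (by positivity) (by positivity)
      have h3 : (H : ℝ) * 2 ^ 25 / ρ ^ 2 * (ρ ^ 2 * (Fintype.card F : ℝ) / 2 ^ 24)
          = 2 * (Fintype.card F : ℝ) * H := by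
        field_simp
      rw [h3] at h2
      refine le_trans ?_ h2
      have hH0 : (0 : ℝ) ≤ (H : ℝ) := Nat.cast_nonneg _
      nlinarith
    exact_mod_cast h1
  obtain ⟨Kc, hK0, hKb, hKs⟩ := chain (Idx F H) n b hcard
  have hunion := Pr_biUnion (A := Om F H) b
    (fun j ω => (¬ Reg (inc : PP F → LL F → Prop) (Fintype.card F) κ (rhoH H) (FK ω (Kc (j + 1)))) ∨
      (ρ * (Fintype.card F : ℝ) ^ 2 ≤ ((FK ω (Kc (j + 1))).card : ℝ) ∧
        ∃ Se ∈ Fam (inc : PP F → LL F → Prop) (Fintype.card F) ε (FK ω (Kc (j + 1))),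
          us * (Fintype.card F : ℝ) ^ 2 ≤ ((FK ω (Kc (j + 1)) ∩ miss inc Se).card : ℝ) ∧
          us * (Fintype.card F : ℝ) / 4 <
            (((Kc j \ Kc (j + 1)).filter (fun k => some (rp ω k) ∈
              atyp inc (Fintype.card F) (FK ω (Kc (j + 1)) ∩ miss inc Se))).card : ℝ)))
    (2 * η) (by
      intro j _
      refine le_trans (Pr_or _ _) ?_
      have h1 := hq1 F hF1 (Kc (j + 1))
      have h2 := hq2 F hF2 (Kc (j + 1)) (Kc j \ Kc (j + 1)) Finset.disjoint_sdiff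
      linarith)
  have hfin : (b : ℝ) * (2 * η) = 1 / 16 := by
    rw [hηdef]
    have : (b : ℝ) ≠ 0 := by positivity
    field_simp
    norm_num
  rw [hfin] at hunion
  refine le_trans (Pr_mono ?_) hunion
  rintro ω ⟨S, hS, hSν⟩
  by_contra hcon
  push Not at hcon
  have hreg : ∀ j < b, Reg (inc : PP F → LL F → Prop) (Fintype.card F) κ ρ (FK ω (Kc (j + 1))) := by
    intro j hj
    rw [hρdef]
    exact (hcon j hj).1
  have htel := telescope ω ρ ε κ us b Kc hK0 hKb (fun j => (hKs j).1)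
    (fun j => le_trans (by exact_mod_cast (hKs j).2) hn_le) hρ hρ1 hκ.le hκu hus
    (by rw [h4us]; exact min_le_right _ _) hε hερ hF4' hF3 hreg
    (fun j hj Se hSe hle => (hcon j hj).2 (hreg j hj).1 Se hSe hle) S hS
  have h5 : 4 ^ b * us * (Fintype.card F : ℝ) ^ 2 ≤ ν * (Fintype.card F : ℝ) ^ 2 := by
    apply mul_le_mul_of_nonneg_right _ (by positivity)
    rw [h4us]
    exact le_trans (min_le_left _ _) (by linarith)
  linarith

end Crest.Agent.RY
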