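/-
  RY_Main : assembly of S0045 / S0046 from the four parts
  * part0  (degrees, concentration)
  * part1  (every cover of F0(R) misses at most nu q^2 lines of the whole plane)      files RY_S*
  * part2  (algebraic part: Szonyi-Weiner etc.)                                       files RY_A*
  * partN  (selection of the gadgets)                                                 files RY_N*
  * partH  (deterministic verification)                                               files RY_H*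
-/
import Crest.Agent.RY_Iface
import Crest.Agent.RY_H2
import Crest.Agent.RY_S13
import Crest.Agent.RY_S18
import Crest.Agent.RY_A_Final
import Crest.Agent.RY_P9
import Crest.Agent.RY_NA

set_option autoImplicit false

namespace Crest.Agent.RY
open Finset Classical

/-- lower bound for the degrees -/
theorem part0 (H : ℕ) (hH : 1 ≤ H) : ∃ φ : ℝ, 0 < φ ∧ ∃ q₀ : ℕ,
    ∀ (F : Type) [Field F] [Fintype F] [DecidableEq F], q₀ ≤ Fintype.card F →
      Pr (fun ω : Om F H => ¬ LowDeg φ ω) ≤ 1 / 16 := by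
  exact part0' H hH

/-- covers of F0(R) miss few lines of the whole plane -/
theorem part1 (H : ℕ) (hH : 1 ≤ H) (ν : ℝ) (hν : 0 < ν) : ∃ q₀ : ℕ,
    ∀ (F : Type) [Field F] [Fintype F] [DecidableEq F], q₀ ≤ Fintype.card F →
      Pr (fun ω : Om F H => ∃ S : Finset (Pt F), Cover (RR ω) S ∧
        ν * (Fintype.card F : ℝ) ^ 2 < ((F0 S).card : ℝ)) ≤ 1 / 16 := by
  exact part1' H hH ν hν

/-- covers of F0(R) which miss few lines of the whole plane contain almost a line -/
theorem part2 (H : ℕ) (hH : 1 ≤ H) (φ : ℝ) (hφ : 0 < φ) : ∃ ν : ℝ, 0 < ν ∧ ∃ q₀ : ℕ,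
    ∀ (F : Type) [Field F] [Fintype F] [DecidableEq F], q₀ ≤ Fintype.card F →
      Pr (fun ω : Om F H => LowDeg φ ω ∧ ∃ S : Finset (Pt F), Cover (RR ω) S ∧
        ((F0 S).card : ℝ) ≤ ν * (Fintype.card F : ℝ) ^ 2 ∧ ¬ NearLine (RR ω) S) ≤ 1 / 16 := by
  exact A_part2 H hH φ hφ

/-- the random set carries a gadget system -/
theorem partN : ∃ q₀ : ℕ,
    ∀ (F : Type) [Field F] [Fintype F] [DecidableEq F], q₀ ≤ Fintype.card F →
      Pr (fun ω : Om F 2001 => IsEmpty (Gadgets (RR ω) 10)) ≤ 1 / 4 := by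
  obtain ⟨c, hc, q1, h1⟩ := partN1'
  obtain ⟨q2, h2⟩ := partN2' c hc
  refine ⟨max q1 q2, fun F _ _ _ hF => ?_⟩
  refine le_trans (Pr_mono ?_) (h1 F (le_trans (le_max_left _ _) hF))
  intro ω hω ⟨D, mn, cd, hD⟩
  exact (not_isEmpty_iff.mpr (h2 F (le_trans (le_max_right _ _) hF) D _ mn cd hD)) hω

/-- deterministic part -/
theorem partH {F : Type} [Field F] [Fintype F] [DecidableEq F] (R : Finset (Pt F))
    (G : Gadgets R 10) (hS : Stable R) (hc : ∀ p : Pt F, p ∉ R → ∃ l ∈ F0 R, on p l) :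
    Concl (Fintype.card F) :=
  partH_main R G hS hc

/-- MAIN: for every sufficiently large finite field -/
theorem main : ∃ q₀ : ℕ, ∀ (F : Type) [Field F] [Fintype F] [DecidableEq F],
    q₀ ≤ Fintype.card F → Concl (Fintype.card F) := by
  obtain ⟨φ, hφ, q0, h0⟩ := part0 2001 (by norm_num)
  obtain ⟨ν, hν, q2, h2⟩ := part2 2001 (by norm_num) φ hφ
  obtain ⟨q1, h1⟩ := part1 2001 (by norm_num) ν hν
  obtain ⟨qN, hN⟩ := partN
  refine ⟨max (max q0 q1) (max (max q2 qN) 1), fun F _ _ _ hF => ?_⟩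
  have e0 := h0 F (le_trans (by simp) hF)
  have e1 := h1 F (le_trans (by simp) hF)
  have e2 := h2 F (le_trans (by simp) hF)
  have eN := hN F (le_trans (by simp) hF)
  have hFpos : 1 ≤ Fintype.card F := le_trans (by simp) hF
  by_contra hcon
  -- union of the four events is everything
  have hcov : ∀ ω : Om F 2001, (¬ LowDeg φ ω) ∨ (∃ S : Finset (Pt F), Cover (RR ω) S ∧
        ν * (Fintype.card F : ℝ) ^ 2 < ((F0 S).card : ℝ)) ∨
        (LowDeg φ ω ∧ ∃ S : Finset (Pt F), Cover (RR ω) S ∧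
        ((F0 S).card : ℝ) ≤ ν * (Fintype.card F : ℝ) ^ 2 ∧ ¬ NearLine (RR ω) S) ∨
        IsEmpty (Gadgets (RR ω) 10) := by
    intro ω
    by_contra hno
    simp only [not_or, not_not] at hno
    obtain ⟨hL, hn1, hn2, hn3⟩ := hno
    rw [not_isEmpty_iff] at hn3
    obtain ⟨G⟩ := hn3
    apply hcon
    refine partH (RR ω) G ?_ ?_
    · intro S hS hc
      by_contra hne
      rcases le_or_gt ((F0 S).card : ℝ) (ν * (Fintype.card F : ℝ) ^ 2) with h | h
      · exact hn2 ⟨hL, S, ⟨hS, hc⟩, h, hne⟩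
      · exact hn1 ⟨S, ⟨hS, hc⟩, h⟩
    · intro p hp
      have := hL p hp
      have hpos : (0:ℝ) < φ * (Fintype.card F : ℝ) := mul_pos hφ (by exact_mod_cast hFpos)
      have h3 : 0 < ((F0 (RR ω)).filter (fun l => on p l)).card := by
        have : (0:ℝ) < (((F0 (RR ω)).filter (fun l => on p l)).card : ℝ) := lt_of_lt_of_le hpos this
        exact_mod_cast this
      obtain ⟨l, hl⟩ := Finset.card_pos.mp h3
      rw [Finset.mem_filter] at hl
      exact ⟨l, hl.1, hl.2⟩
  have : Nonempty (Om F 2001) := ⟨fun _ => 0⟩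
  have hsum := Pr_all hcov
  have h5 := Pr_or (fun ω : Om F 2001 => ¬ LowDeg φ ω) (fun ω => (∃ S : Finset (Pt F), Cover (RR ω) S ∧
        ν * (Fintype.card F : ℝ) ^ 2 < ((F0 S).card : ℝ)) ∨
        (LowDeg φ ω ∧ ∃ S : Finset (Pt F), Cover (RR ω) S ∧
        ((F0 S).card : ℝ) ≤ ν * (Fintype.card F : ℝ) ^ 2 ∧ ¬ NearLine (RR ω) S) ∨
        IsEmpty (Gadgets (RR ω) 10))
  have h6 := Pr_or (fun ω : Om F 2001 => (∃ S : Finset (Pt F), Cover (RR ω) S ∧
        ν * (Fintype.card F : ℝ) ^ 2 < ((F0 S).card : ℝ))) (fun ω => (LowDeg φ ω ∧ ∃ S : Finset (Pt F), Cover (RR ω) S ∧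
        ((F0 S).card : ℝ) ≤ ν * (Fintype.card F : ℝ) ^ 2 ∧ ¬ NearLine (RR ω) S) ∨
        IsEmpty (Gadgets (RR ω) 10))
  have h7 := Pr_or (fun ω : Om F 2001 => (LowDeg φ ω ∧ ∃ S : Finset (Pt F), Cover (RR ω) S ∧
        ((F0 S).card : ℝ) ≤ ν * (Fintype.card F : ℝ) ^ 2 ∧ ¬ NearLine (RR ω) S)) (fun ω =>
        IsEmpty (Gadgets (RR ω) 10))
  linarith

end Crest.Agent.RY
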