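/-
  RY_P1 : the survivor lemma.
  `kill k y` = labels killed when the random coordinate `ω k` equals `y`.
  PROOF.  f(ω) = #{b ∈ B : ∀ k, b ∉ kill k (ω k)}.
   mean f = Σ_b Π_k (1 - #{y : b ∈ kill k y}/q) ≥ |B| (1 - d/q)^{(q+1)H}   (independence; Fintype.piFinset / card_pi);
   changing one coordinate changes f by at most d (labels killed by the old resp. new value only: at most d of each, the difference of
   the two counts is at most d in absolute value);  McDiarmid (mcdiarmid'), number of coordinates card_Idx = (q+1)H.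
-/
import Crest.Agent.RY_McD
import Crest.Agent.RY_S13

set_option autoImplicit false

namespace Crest.Agent.RY
open Finset Classical

variable {F : Type} [Field F] [Fintype F] [DecidableEq F]

private theorem P1_lip {H : ℕ} {β : Type} (B : Finset β) (kill : Idx F H → F → Finset β) (d : ℕ)
    (h1 : ∀ k y, (kill k y).card ≤ d) (w w' : Om F H) (k : Idx F H) (hw : ∀ j, j ≠ k → w j = w' j) :
    ((B.filter (fun b => ∀ k, b ∉ kill k (w k))).card : ℝ) ≤
      ((B.filter (fun b => ∀ k, b ∉ kill k (w' k))).card : ℝ) + d := by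
  have h3 : (B.filter (fun b => ∀ k, b ∉ kill k (w k))) ⊆
      (B.filter (fun b => ∀ k, b ∉ kill k (w' k))) ∪ kill k (w' k) := by
    intro b hb
    rw [mem_filter] at hb
    rw [mem_union, mem_filter]
    by_cases hk : b ∈ kill k (w' k)
    · exact Or.inr hk
    · left
      refine ⟨hb.1, fun j => ?_⟩
      by_cases hj : j = k
      · subst hj; exact hk
      · rw [← hw j hj]; exact hb.2 j
  have h4 := (card_le_card h3).trans (card_union_le _ _)
  have h5 := h4.trans (Nat.add_le_add_left (h1 k (w' k)) _)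
  exact_mod_cast h5

private theorem P1_count {H : ℕ} {β : Type} (kill : Idx F H → F → Finset β) (d : ℕ)
    (hdq : d ≤ Fintype.card F) (b : β)
    (h2 : ∀ k, (univ.filter (fun y => b ∈ kill k y)).card ≤ d) :
    (Fintype.card (Om F H) : ℝ) * (1 - (d : ℝ) / (Fintype.card F : ℝ)) ^ ((Fintype.card F + 1) * H) ≤
      (((univ : Finset (Om F H)).filter (fun ω => ∀ k, b ∉ kill k (ω k))).card : ℝ) := by
  have hq0 : (0:ℝ) < (Fintype.card F : ℝ) := by exact_mod_cast Fintype.card_pos
  have h3 : ((univ : Finset (Om F H)).filter (fun ω => ∀ k, b ∉ kill k (ω k))) =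
      Fintype.piFinset (fun k : Idx F H => (univ : Finset F).filter (fun y => b ∉ kill k y)) := by
    ext ω
    simp [Fintype.mem_piFinset]
  rw [h3, Fintype.card_piFinset]
  have h4 : (Fintype.card (Om F H) : ℝ) = (Fintype.card F : ℝ) ^ ((Fintype.card F + 1) * H) := by
    rw [show Fintype.card (Om F H) = Fintype.card F ^ Fintype.card (Idx F H) from Fintype.card_fun, card_Idx]
    push_cast
    rfl
  rw [h4, ← mul_pow]
  have h5 : (Fintype.card F : ℝ) * (1 - (d : ℝ) / (Fintype.card F : ℝ)) = (Fintype.card F : ℝ) - d := by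
    field_simp
  rw [h5]
  push_cast
  have h6 : ((Fintype.card F : ℝ) - d) ^ ((Fintype.card F + 1) * H) = ∏ _k : Idx F H, ((Fintype.card F : ℝ) - d) := by
    rw [Finset.prod_const, Finset.card_univ, card_Idx]
  rw [h6]
  apply Finset.prod_le_prod
  · intro k _
    have : (d : ℝ) ≤ (Fintype.card F : ℝ) := by exact_mod_cast hdq
    linarith
  · intro k _
    have h7 := Finset.card_filter_add_card_filter_not (s := (univ : Finset F)) (fun y => b ∈ kill k y)
    rw [Finset.card_univ] at h7
    have h8 := h2 k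
    have h9 : (Fintype.card F : ℝ) ≤ (d : ℝ) + (((univ : Finset F).filter (fun y => b ∉ kill k y)).card : ℝ) := by
      have : Fintype.card F ≤ d + ((univ : Finset F).filter (fun y => b ∉ kill k y)).card := by omega
      exact_mod_cast this
    linarith

theorem survivors {H : ℕ} {β : Type} (B : Finset β) (kill : Idx F H → F → Finset β) (d : ℕ) (hd : 1 ≤ d)
    (hdq : d ≤ Fintype.card F) (h1 : ∀ k y, (kill k y).card ≤ d)
    (h2 : ∀ k, ∀ b ∈ B, (univ.filter (fun y => b ∈ kill k y)).card ≤ d) (t : ℝ) (ht : 0 ≤ t) :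
    Pr (fun ω : Om F H => ((B.filter (fun b => ∀ k, b ∉ kill k (ω k))).card : ℝ) ≤
        (B.card : ℝ) * (1 - (d : ℝ) / (Fintype.card F : ℝ)) ^ ((Fintype.card F + 1) * H) - t) ≤
      Real.exp (-(t ^ 2) / (2 * (((Fintype.card F + 1) * H : ℕ) : ℝ) * (d : ℝ) ^ 2)) := by
  set f : Om F H → ℝ := fun ω => ((B.filter (fun b => ∀ k, b ∉ kill k (ω k))).card : ℝ) with hf
  have hd0 : (0:ℝ) < (d:ℝ) := by exact_mod_cast hd
  have hlip : ∀ ω ω' : Om F H, ∀ k, (∀ j, j ≠ k → ω j = ω' j) → |f ω - f ω'| ≤ (d:ℝ) := by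
    intro ω ω' k hk
    have e1 := P1_lip B kill d h1 ω ω' k hk
    have e2 := P1_lip B kill d h1 ω' ω k (fun j hj => (hk j hj).symm)
    rw [abs_le]
    constructor
    · simp only [hf]; linarith
    · simp only [hf]; linarith
  have hM := mcdiarmid' (ι := Idx F H) (A := F) f (d:ℝ) hd0 hlip t ht
  rw [card_Idx] at hM
  refine (Pr_mono ?_).trans hM
  intro ω hω
  refine le_trans hω ?_
  have hN : (0:ℝ) < (Fintype.card (Om F H) : ℝ) := by exact_mod_cast Fintype.card_pos
  have hmean : (B.card : ℝ) * (1 - (d : ℝ) / (Fintype.card F : ℝ)) ^ ((Fintype.card F + 1) * H) ≤ mean f := by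
    unfold mean
    rw [le_div_iff₀ hN]
    have hs : ∑ ω, f ω = ∑ b ∈ B, (((univ : Finset (Om F H)).filter (fun ω => ∀ k, b ∉ kill k (ω k))).card : ℝ) := by
      simp only [hf, Finset.card_filter]
      push_cast
      rw [Finset.sum_comm]
    rw [hs]
    calc (B.card : ℝ) * (1 - (d : ℝ) / (Fintype.card F : ℝ)) ^ ((Fintype.card F + 1) * H) * (Fintype.card (Om F H) : ℝ)
        = ∑ _b ∈ B, (Fintype.card (Om F H) : ℝ) * (1 - (d : ℝ) / (Fintype.card F : ℝ)) ^ ((Fintype.card F + 1) * H) := by
          rw [Finset.sum_const, nsmul_eq_mul]; ring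
      _ ≤ _ := Finset.sum_le_sum (fun b hb => P1_count kill d hdq b (fun k => h2 k b hb))
  linarith

end Crest.Agent.RY
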