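/-
  RY_P2 : the good sets are large for one fixed choice of the points (survivor lemma).
  PROOF good2.  B = lines through r (q of them, card_on_pt).  For k, y let w = (k.1,y);
    kill k y = {b : (on w b ∧ w ≠ r) ∨ (∃ s∈A, ∃ l, on s l ∧ on (j, val b j) l ∧ on w l ∧ w ≠ s) ∨ (same for A', j')} ∩ B.
    |kill k y| ≤ 21: (1) w ≠ r, r and w on b: then w.1 ≠ r.1 and b is the line through r and w: at most one b;
      (2) for s∈A: s, w on l, w ≠ s: w.1 ≠ s.1 (a line has one point per part), so l is determined; (j, val b j) on l determines val b j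
      (val b j = val l j), and b is the line through r and (j, val b j) since r.1 ≠ j: at most one b for each s.
    For b∈B and k: the number of y with b ∈ kill k y is ≤ 21: y = val b k.1, or y = val l k.1 where l is the unique line through s and
      (j,val b j) (unique since s.1 ≠ j).
    b survives (b ∉ kill k (ω k) for all k) iff b ∈ good2.
  Constants: (1-21/q)^{(q+1)H} ≥ 2 c for q ≥ q₀ (tends to exp(-21 H)), t = c q; exponent -(c q)²/(2 (q+1) H 441)  (then make c smaller).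
-/
import Crest.Agent.RY_P1
import Crest.Agent.RY_PDefs

set_option autoImplicit false

namespace Crest.Agent.RY
open Finset Classical

section P2aux
variable {F : Type} [Field F] [Fintype F] [DecidableEq F]

private theorem P2_uniq {p p' : Pt F} (h : p.1 ≠ p'.1) {l l' : Ln F} (h1 : on p l) (h2 : on p' l)
    (h3 : on p l') (h4 : on p' l') : l = l' := by
  obtain ⟨m, _, hm⟩ := on_unique_line p p' h
  rw [hm l ⟨h1, h2⟩, hm l' ⟨h3, h4⟩]

private theorem P2_ne {p p' : Pt F} (h : p ≠ p') {l : Ln F} (h1 : on p l) (h2 : on p' l) : p.1 ≠ p'.1 := by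
  intro h3
  apply h
  have e1 : p.2 = val l p.1 := h1
  have e2 : p'.2 = val l p'.1 := h2
  apply Prod.ext h3
  rw [e1, e2, h3]

private def P2_bad (j : Option F) (s w : Pt F) (b : Ln F) : Prop :=
  ∃ l, on s l ∧ on (j, val b j) l ∧ on w l ∧ w ≠ s

private theorem P2_card1 (r w : Pt F) :
    ((univ.filter (fun b : Ln F => on r b)).filter (fun b => on w b ∧ w ≠ r)).card ≤ 1 := by
  rw [Finset.card_le_one]
  intro a ha b hb
  simp only [Finset.mem_filter, Finset.mem_univ, true_and] at ha hb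
  exact P2_uniq (P2_ne ha.2.2 ha.2.1 ha.1) ha.2.1 ha.1 hb.2.1 hb.1

private theorem P2_card2 (r s w : Pt F) (j : Option F) (hj : r.1 ≠ j) :
    ((univ.filter (fun b : Ln F => on r b)).filter (fun b => P2_bad j s w b)).card ≤ 1 := by
  rw [Finset.card_le_one]
  intro a ha b hb
  simp only [Finset.mem_filter, Finset.mem_univ, true_and] at ha hb
  obtain ⟨ha1, l, hl1, hl2, hl3, hl4⟩ := ha
  obtain ⟨hb1, l', hl1', hl2', hl3', _⟩ := hb
  have hll : l = l' := P2_uniq (P2_ne hl4 hl3 hl1) hl3 hl1 hl3' hl1'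
  subst hll
  have e1 : val a j = val l j := hl2
  have e2 : val b j = val l j := hl2'
  have h3 : on ((j, val a j) : Pt F) a := rfl
  have h4 : on ((j, val a j) : Pt F) b := by
    change val a j = val b j
    rw [e1, e2]
  exact P2_uniq (p := r) (p' := (j, val a j)) hj ha1 h3 hb1 h4

private theorem P2_card3 (i : Option F) (b : Ln F) :
    (univ.filter (fun y : F => on ((i, y) : Pt F) b)).card ≤ 1 := by
  rw [Finset.card_le_one]
  intro y hy z hz
  simp only [Finset.mem_filter, Finset.mem_univ, true_and] at hy hz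
  have e1 : y = val b i := hy
  have e2 : z = val b i := hz
  rw [e1, e2]

private theorem P2_card4 (i : Option F) (b : Ln F) (s : Pt F) (j : Option F) (hs : s.1 ≠ j) :
    (univ.filter (fun y : F => P2_bad j s (i, y) b)).card ≤ 1 := by
  rw [Finset.card_le_one]
  intro y hy z hz
  simp only [Finset.mem_filter, Finset.mem_univ, true_and] at hy hz
  obtain ⟨l, hl1, hl2, hl3, _⟩ := hy
  obtain ⟨l', hl1', hl2', hl3', _⟩ := hz
  have hll : l = l' := P2_uniq (p := s) (p' := (j, val b j)) hs hl1 hl2 hl1' hl2'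
  subst hll
  have e1 : y = val l i := hl3
  have e2 : z = val l i := hl3'
  rw [e1, e2]

private theorem P2_exp (x : ℝ) (h0 : 0 ≤ x) (h1 : x ≤ 1 / 2) : Real.exp (-(2 * x)) ≤ 1 - x := by
  have h2 : 1 + 2 * x ≤ Real.exp (2 * x) := by
    have := Real.add_one_le_exp (2 * x)
    linarith
  have h3 : 0 < 1 + 2 * x := by linarith
  rw [Real.exp_neg]
  calc (Real.exp (2 * x))⁻¹ ≤ (1 + 2 * x)⁻¹ := inv_anti₀ h3 h2
    _ ≤ 1 - x := by
      rw [inv_le_iff_one_le_mul₀ h3]
      nlinarith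

private theorem P2_pow (q H : ℕ) (hq : 42 ≤ q) :
    Real.exp (-(84 * (H : ℝ))) ≤ (1 - ((21 : ℕ) : ℝ) / (q : ℝ)) ^ ((q + 1) * H) := by
  have hq' : (42 : ℝ) ≤ (q : ℝ) := by exact_mod_cast hq
  have hq0 : (0 : ℝ) < (q : ℝ) := by linarith
  have h21 : (((21 : ℕ) : ℝ)) / (q : ℝ) ≤ 1 / 2 := by
    rw [div_le_div_iff₀ hq0 (by norm_num)]
    push_cast
    linarith
  have h0 : 0 ≤ ((21 : ℕ) : ℝ) / (q : ℝ) := by positivity
  have h1 := P2_exp _ h0 h21
  refine le_trans ?_ (pow_le_pow_left₀ (Real.exp_pos _).le h1 _)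
  rw [← Real.exp_nat_mul]
  apply Real.exp_le_exp.2
  push_cast
  have hH : (0 : ℝ) ≤ (H : ℝ) := Nat.cast_nonneg H
  have h3 : ((q : ℝ) + 1) * (H : ℝ) * (2 * (21 / (q : ℝ))) ≤ 84 * (H : ℝ) := by
    have h4 : ((q : ℝ) + 1) / (q : ℝ) ≤ 2 := by
      rw [div_le_iff₀ hq0]
      linarith
    have h5 : ((q : ℝ) + 1) * (H : ℝ) * (2 * (21 / (q : ℝ))) = 42 * (H : ℝ) * (((q : ℝ) + 1) / (q : ℝ)) := by
      field_simp
      ring
    rw [h5]
    nlinarith
  linarith

end P2aux

/-- the failure probability is exponentially small: `exp (-c q)` -/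
theorem good2_prob (H : ℕ) (hH : 1 ≤ H) : ∃ c : ℝ, 0 < c ∧ ∃ q₀ : ℕ,
    ∀ (F : Type) [Field F] [Fintype F] [DecidableEq F], q₀ ≤ Fintype.card F →
    ∀ (r : Pt F) (j j' : Option F) (A A' : Finset (Pt F)), r.1 ≠ j → r.1 ≠ j' →
      A.card ≤ 10 → A'.card ≤ 10 → (∀ s ∈ A, s.1 ≠ j) → (∀ s ∈ A', s.1 ≠ j') →
      Pr (fun ω : Om F H => ((good2 ω r j j' A A').card : ℝ) < c * (Fintype.card F : ℝ)) ≤
        Real.exp (-(c * (Fintype.card F : ℝ))) := by
  have hH' : (1 : ℝ) ≤ (H : ℝ) := by exact_mod_cast hH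
  obtain ⟨c0, hc0, hc0'⟩ : ∃ c0 : ℝ, 0 < c0 ∧ c0 = Real.exp (-(84 * (H : ℝ))) := ⟨_, Real.exp_pos _, rfl⟩
  refine ⟨min (c0 / 2) (c0 ^ 2 / (16 * 441 * H)), ?_, 42, ?_⟩
  · apply lt_min
    · linarith
    · positivity
  intro F _ _ _ hq r j j' A A' hj hj' hA hA' hAj hAj'
  obtain ⟨q, hqdef⟩ : ∃ q : ℕ, q = Fintype.card F := ⟨_, rfl⟩
  rw [← hqdef] at hq ⊢
  have hq' : (42 : ℝ) ≤ (q : ℝ) := by exact_mod_cast hq
  have hq0 : (0 : ℝ) < (q : ℝ) := by linarith
  have hkill1 : ∀ (k : Idx F H) (y : F),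
      ((univ.filter (fun b : Ln F => on r b)).filter (fun b => (on ((k.1, y) : Pt F) b ∧ ((k.1, y) : Pt F) ≠ r) ∨
        (∃ s ∈ A, P2_bad j s (k.1, y) b) ∨ (∃ s ∈ A', P2_bad j' s (k.1, y) b))).card ≤ 21 := by
    intro k y
    have hsub : ((univ.filter (fun b : Ln F => on r b)).filter (fun b => (on ((k.1, y) : Pt F) b ∧ ((k.1, y) : Pt F) ≠ r) ∨
        (∃ s ∈ A, P2_bad j s (k.1, y) b) ∨ (∃ s ∈ A', P2_bad j' s (k.1, y) b))) ⊆
        ((univ.filter (fun b : Ln F => on r b)).filter (fun b => on ((k.1, y) : Pt F) b ∧ ((k.1, y) : Pt F) ≠ r)) ∪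
        ((A.biUnion (fun s => (univ.filter (fun b : Ln F => on r b)).filter (fun b => P2_bad j s (k.1, y) b))) ∪
        (A'.biUnion (fun s => (univ.filter (fun b : Ln F => on r b)).filter (fun b => P2_bad j' s (k.1, y) b)))) := by
      intro b hb
      simp only [Finset.mem_filter, Finset.mem_univ, true_and, Finset.mem_union, Finset.mem_biUnion] at hb ⊢
      obtain ⟨hb1, hb2⟩ := hb
      rcases hb2 with h | ⟨s, hs, h⟩ | ⟨s, hs, h⟩
      · exact Or.inl ⟨hb1, h⟩
      · exact Or.inr (Or.inl ⟨s, hs, hb1, h⟩)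
      · exact Or.inr (Or.inr ⟨s, hs, hb1, h⟩)
    have hA1 : (A.biUnion (fun s => (univ.filter (fun b : Ln F => on r b)).filter (fun b => P2_bad j s (k.1, y) b))).card ≤ A.card * 1 :=
      Finset.card_biUnion_le_card_mul _ _ _ (fun s _ => P2_card2 r s (k.1, y) j hj)
    have hA2 : (A'.biUnion (fun s => (univ.filter (fun b : Ln F => on r b)).filter (fun b => P2_bad j' s (k.1, y) b))).card ≤ A'.card * 1 :=
      Finset.card_biUnion_le_card_mul _ _ _ (fun s _ => P2_card2 r s (k.1, y) j' hj')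
    have h1 := Finset.card_le_card hsub
    have h2 := Finset.card_union_le ((univ.filter (fun b : Ln F => on r b)).filter (fun b => on ((k.1, y) : Pt F) b ∧ ((k.1, y) : Pt F) ≠ r))
        ((A.biUnion (fun s => (univ.filter (fun b : Ln F => on r b)).filter (fun b => P2_bad j s (k.1, y) b))) ∪
        (A'.biUnion (fun s => (univ.filter (fun b : Ln F => on r b)).filter (fun b => P2_bad j' s (k.1, y) b))))
    have h3 := Finset.card_union_le
        (A.biUnion (fun s => (univ.filter (fun b : Ln F => on r b)).filter (fun b => P2_bad j s (k.1, y) b)))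
        (A'.biUnion (fun s => (univ.filter (fun b : Ln F => on r b)).filter (fun b => P2_bad j' s (k.1, y) b)))
    have h4 := P2_card1 r (k.1, y)
    omega
  have hkill2 : ∀ (k : Idx F H), ∀ b ∈ (univ.filter (fun b : Ln F => on r b)),
      (univ.filter (fun y => b ∈ (univ.filter (fun b : Ln F => on r b)).filter (fun b => (on ((k.1, y) : Pt F) b ∧ ((k.1, y) : Pt F) ≠ r) ∨
        (∃ s ∈ A, P2_bad j s (k.1, y) b) ∨ (∃ s ∈ A', P2_bad j' s (k.1, y) b)))).card ≤ 21 := by
    intro k b _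
    have hsub : (univ.filter (fun y => b ∈ (univ.filter (fun b : Ln F => on r b)).filter (fun b => (on ((k.1, y) : Pt F) b ∧ ((k.1, y) : Pt F) ≠ r) ∨
        (∃ s ∈ A, P2_bad j s (k.1, y) b) ∨ (∃ s ∈ A', P2_bad j' s (k.1, y) b)))) ⊆
        (univ.filter (fun y : F => on ((k.1, y) : Pt F) b)) ∪
        ((A.biUnion (fun s => univ.filter (fun y : F => P2_bad j s (k.1, y) b))) ∪
        (A'.biUnion (fun s => univ.filter (fun y : F => P2_bad j' s (k.1, y) b)))) := by
      intro y hy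
      simp only [Finset.mem_filter, Finset.mem_univ, true_and, Finset.mem_union, Finset.mem_biUnion] at hy ⊢
      obtain ⟨_, hy2⟩ := hy
      rcases hy2 with h | h | h
      · exact Or.inl h.1
      · exact Or.inr (Or.inl h)
      · exact Or.inr (Or.inr h)
    have hA1 : (A.biUnion (fun s => univ.filter (fun y : F => P2_bad j s (k.1, y) b))).card ≤ A.card * 1 :=
      Finset.card_biUnion_le_card_mul _ _ _ (fun s hs => P2_card4 k.1 b s j (hAj s hs))
    have hA2 : (A'.biUnion (fun s => univ.filter (fun y : F => P2_bad j' s (k.1, y) b))).card ≤ A'.card * 1 :=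
      Finset.card_biUnion_le_card_mul _ _ _ (fun s hs => P2_card4 k.1 b s j' (hAj' s hs))
    have h1 := Finset.card_le_card hsub
    have h2 := Finset.card_union_le (univ.filter (fun y : F => on ((k.1, y) : Pt F) b))
        ((A.biUnion (fun s => univ.filter (fun y : F => P2_bad j s (k.1, y) b))) ∪
        (A'.biUnion (fun s => univ.filter (fun y : F => P2_bad j' s (k.1, y) b))))
    have h3 := Finset.card_union_le
        (A.biUnion (fun s => univ.filter (fun y : F => P2_bad j s (k.1, y) b)))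
        (A'.biUnion (fun s => univ.filter (fun y : F => P2_bad j' s (k.1, y) b)))
    have h4 := P2_card3 k.1 b
    omega
  have hsurv := survivors (H := H) (univ.filter (fun b : Ln F => on r b))
    (fun k y => (univ.filter (fun b : Ln F => on r b)).filter (fun b => (on ((k.1, y) : Pt F) b ∧ ((k.1, y) : Pt F) ≠ r) ∨
        (∃ s ∈ A, P2_bad j s (k.1, y) b) ∨ (∃ s ∈ A', P2_bad j' s (k.1, y) b))) 21 (by norm_num)
    (by rw [← hqdef]; omega) hkill1 (fun k b hb => by convert hkill2 k b hb) (c0 / 2 * q) (by positivity)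
  rw [card_on_pt, ← hqdef] at hsurv
  have hpow := P2_pow q H hq
  rw [← hc0'] at hpow
  have hmul : (q : ℝ) * c0 ≤ (q : ℝ) * (1 - ((21 : ℕ) : ℝ) / (q : ℝ)) ^ ((q + 1) * H) :=
    mul_le_mul_of_nonneg_left hpow hq0.le
  refine le_trans (le_trans (Pr_mono ?_) hsurv) ?_
  · intro ω hω
    have hc1 : min (c0 / 2) (c0 ^ 2 / (16 * 441 * H)) * (q : ℝ) ≤ c0 / 2 * q :=
      mul_le_mul_of_nonneg_right (min_le_left _ _) hq0.le
    refine le_trans (Nat.cast_le.mpr (Finset.card_le_card (t := good2 ω r j j' A A') ?_)) ?_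
    · intro b hb
      simp only [Finset.mem_filter, Finset.mem_univ, true_and] at hb
      obtain ⟨hb1, hb2⟩ := hb
      have hb3 : ∀ k : Idx F H, ¬ ((on ((k.1, ω k) : Pt F) b ∧ ((k.1, ω k) : Pt F) ≠ r) ∨
        (∃ s ∈ A, P2_bad j s (k.1, ω k) b) ∨ (∃ s ∈ A', P2_bad j' s (k.1, ω k) b)) := fun k h => hb2 k ⟨hb1, h⟩
      unfold good2
      simp only [Finset.mem_filter, Finset.mem_univ, true_and]
      refine ⟨hb1, ?_, ?_, ?_⟩
      · intro k hk
        by_contra hne
        exact hb3 k (Or.inl ⟨hk, hne⟩)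
      · intro s hs l hl1 hl2 k hk
        by_contra hne
        exact hb3 k (Or.inr (Or.inl ⟨s, hs, l, hl1, hl2, hk, hne⟩))
      · intro s hs l hl1 hl2 k hk
        by_contra hne
        exact hb3 k (Or.inr (Or.inr ⟨s, hs, l, hl1, hl2, hk, hne⟩))
    · have hω' : ((good2 ω r j j' A A').card : ℝ) < min (c0 / 2) (c0 ^ 2 / (16 * 441 * H)) * (q : ℝ) := hω
      linarith
  · apply Real.exp_le_exp.2
    have hc2 : min (c0 / 2) (c0 ^ 2 / (16 * 441 * H)) * (q : ℝ) ≤ c0 ^ 2 / (16 * 441 * H) * q :=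
      mul_le_mul_of_nonneg_right (min_le_right _ _) hq0.le
    have hden : (0 : ℝ) < 2 * (((q + 1) * H : ℕ) : ℝ) * (((21 : ℕ) : ℝ)) ^ 2 := by
      push_cast
      positivity
    have h6 : c0 ^ 2 / (16 * 441 * H) * q ≤ (c0 / 2 * q) ^ 2 / (2 * (((q + 1) * H : ℕ) : ℝ) * (((21 : ℕ) : ℝ)) ^ 2) := by
      rw [le_div_iff₀ hden]
      push_cast
      have h7 : c0 ^ 2 / (16 * 441 * (H : ℝ)) * (q : ℝ) * (2 * (((q : ℝ) + 1) * (H : ℝ)) * (21 : ℝ) ^ 2) =
          c0 ^ 2 * q * (q + 1) / 8 := by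
        field_simp
        ring
      rw [h7]
      have h8 : (0:ℝ) ≤ c0 ^ 2 * q := by positivity
      nlinarith
    rw [neg_div]
    linarith

end Crest.Agent.RY
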