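/-
  RY_P3 : good sets and plain lines, for all points simultaneously (union bound); loads of lines.
  PROOF.  The number of tuples (r,j,j',A,A') is ≤ (q(q+1)) (q+1)^2 (q(q+1)+1)^20, a polynomial in q
  (number of A with |A| ≤ 10 is ≤ (card Pt + 1)^10), and q^60 exp(-c q) → 0.
  plain: for t ∈ RR ω:  good2 ω t j j ∅ ∅ ⊆ plain (RR ω) t for any part j ≠ t.1 (a line through t all of whose random points are equal to t
  has onL (RR ω) l = {t}).
  load: for a line l: |onL (RR ω) l| ≤ #{k : rp ω k on l}; `tail` with K = univ, A = the q+1 points of l, g = least natural number with g^4 > q: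
    (e H (q+1)/(g q))^g ≤ (2 e H/g)^g; union over the q² lines: q² (2eH/q^{1/4})^{q^{1/4}} → 0.
-/
import Crest.Agent.RY_P2
import Crest.Agent.RY_S11

set_option autoImplicit false

namespace Crest.Agent.RY
open Finset Classical

private theorem P3_Pr_exists {α β : Type} [Fintype α] [Fintype β] (A : β → α → Prop) (C : ℝ)
    (h : ∀ b, Pr (A b) ≤ C) : Pr (fun a => ∃ b, A b a) ≤ (Fintype.card β : ℝ) * C := by
  have h1 : Pr (fun a => ∃ b, A b a) ≤ ∑ b, Pr (A b) := by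
    unfold Pr
    rw [← Finset.sum_div]
    apply div_le_div_of_nonneg_right _ (by positivity)
    rw [← Nat.cast_sum]
    apply Nat.cast_le.mpr
    refine (Finset.card_le_card ?_).trans Finset.card_biUnion_le
    intro a ha
    simp only [Finset.mem_filter, Finset.mem_univ, true_and, Finset.mem_biUnion] at ha ⊢
    exact ha
  refine h1.trans ?_
  calc ∑ b, Pr (A b) ≤ ∑ _b : β, C := Finset.sum_le_sum fun b _ => h b
    _ = _ := by rw [Finset.sum_const, Finset.card_univ, nsmul_eq_mul]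

/-- the set coded by a function -/
private noncomputable def P3_set {P : Type} [Fintype P] (f : Fin 10 → Option P) : Finset P :=
  univ.filter (fun p => ∃ i, f i = some p)

private theorem P3_set_surj {P : Type} [Fintype P] (A : Finset P) (hA : A.card ≤ 10) :
    ∃ f : Fin 10 → Option P, P3_set f = A := by
  refine ⟨fun i => if h : (i : ℕ) < A.card then some ((A.equivFin.symm ⟨i, h⟩ : A) : P) else none, ?_⟩
  ext p
  unfold P3_set
  simp only [Finset.mem_filter, Finset.mem_univ, true_and]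
  constructor
  · rintro ⟨i, hi⟩
    split_ifs at hi with h
    have h2 := Option.some.inj hi
    rw [← h2]
    exact (A.equivFin.symm ⟨i, h⟩).2
  · intro hp
    have h3 := (A.equivFin ⟨p, hp⟩).2
    refine ⟨⟨(A.equivFin ⟨p, hp⟩ : Fin A.card), lt_of_lt_of_le h3 hA⟩, ?_⟩
    rw [dif_pos h3]
    simp

private theorem P3_event (c : ℝ) (hc : 0 < c) : ∃ q₀ : ℕ, ∀ q : ℕ, q₀ ≤ q →
    (8 * 4 ^ 20 * (q : ℝ) ^ 44) * Real.exp (-(c * q)) ≤ 1 / 16 := by
  have h1 := Real.tendsto_pow_mul_exp_neg_atTop_nhds_zero 44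
  have h2 : Filter.Tendsto (fun q : ℕ => c * (q : ℝ)) Filter.atTop Filter.atTop :=
    Filter.Tendsto.const_mul_atTop hc tendsto_natCast_atTop_atTop
  have h3 := h1.comp h2
  have hε : (0 : ℝ) < c ^ 44 / (16 * (8 * 4 ^ 20)) := by positivity
  obtain ⟨q₀, hq₀⟩ := Filter.eventually_atTop.mp (h3.eventually_lt_const hε)
  refine ⟨q₀, fun q hq => ?_⟩
  have h4 := hq₀ q hq
  simp only [Function.comp] at h4
  rw [lt_div_iff₀ (by positivity), mul_pow] at h4
  have h5 : c ^ 44 * ((8 * 4 ^ 20 * (q : ℝ) ^ 44) * Real.exp (-(c * q))) ≤ c ^ 44 * (1 / 16) := by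
    linarith
  exact le_of_mul_le_mul_left h5 (by positivity)

private theorem P3_arith (q : ℕ) (hq2 : 1 ≤ q) :
    ((((q + 1) * q * ((q + 1) * (q + 1))) * (((q + 1) * q + 1) ^ 10 * ((q + 1) * q + 1) ^ 10) : ℕ) : ℝ) ≤
      8 * 4 ^ 20 * (q : ℝ) ^ 44 := by
  have e1 : (q + 1) * q ≤ 2 * q ^ 2 := by nlinarith
  have e2 : (q + 1) * (q + 1) ≤ 4 * q ^ 2 := by nlinarith
  have e3 : (q + 1) * q + 1 ≤ 4 * q ^ 2 := by nlinarith
  have e5 : (((q + 1) * q * ((q + 1) * (q + 1))) * (((q + 1) * q + 1) ^ 10 * ((q + 1) * q + 1) ^ 10) : ℕ)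
      ≤ (2 * q ^ 2) * (4 * q ^ 2) * ((4 * q ^ 2) ^ 10 * (4 * q ^ 2) ^ 10) :=
    Nat.mul_le_mul (Nat.mul_le_mul e1 e2)
      (Nat.mul_le_mul (Nat.pow_le_pow_left e3 10) (Nat.pow_le_pow_left e3 10))
  have e6 : (2 * q ^ 2) * (4 * q ^ 2) * ((4 * q ^ 2) ^ 10 * (4 * q ^ 2) ^ 10) = 8 * 4 ^ 20 * q ^ 44 := by ring
  rw [e6] at e5
  exact_mod_cast e5

theorem good_all : ∃ c : ℝ, 0 < c ∧ ∃ q₀ : ℕ,
    ∀ (F : Type) [Field F] [Fintype F] [DecidableEq F], q₀ ≤ Fintype.card F →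
      Pr (fun ω : Om F 2001 => ¬ ((∀ t ∈ RR ω, c * (Fintype.card F : ℝ) ≤ ((plain (RR ω) t).card : ℝ)) ∧
        (∀ (r : Pt F) (j j' : Option F) (A A' : Finset (Pt F)), r.1 ≠ j → r.1 ≠ j' →
          A.card ≤ 10 → A'.card ≤ 10 → (∀ s ∈ A, s.1 ≠ j) → (∀ s ∈ A', s.1 ≠ j') →
          c * (Fintype.card F : ℝ) ≤ ((good2 ω r j j' A A').card : ℝ)))) ≤ 1 / 16 := by
  obtain ⟨c, hc, q₀, hq₀⟩ := good2_prob 2001 (by norm_num)
  obtain ⟨q₁, hq₁⟩ := P3_event c hc
  refine ⟨c, hc, max q₀ q₁, ?_⟩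
  intro F _ _ _ hq
  have hq0 : q₀ ≤ Fintype.card F := (le_max_left _ _).trans hq
  have hq1 : q₁ ≤ Fintype.card F := (le_max_right _ _).trans hq
  -- the union bound
  let B : Type := (Pt F × Option F × Option F) × (Fin 10 → Option (Pt F)) × (Fin 10 → Option (Pt F))
  let ev : B → Om F 2001 → Prop := fun b ω =>
    (b.1.1.1 ≠ b.1.2.1 ∧ b.1.1.1 ≠ b.1.2.2 ∧ (P3_set b.2.1).card ≤ 10 ∧ (P3_set b.2.2).card ≤ 10 ∧
      (∀ s ∈ P3_set b.2.1, s.1 ≠ b.1.2.1) ∧ (∀ s ∈ P3_set b.2.2, s.1 ≠ b.1.2.2)) ∧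
    ((good2 ω b.1.1 b.1.2.1 b.1.2.2 (P3_set b.2.1) (P3_set b.2.2)).card : ℝ) < c * (Fintype.card F : ℝ)
  have hev : ∀ b : B, Pr (ev b) ≤ Real.exp (-(c * (Fintype.card F : ℝ))) := by
    intro b
    by_cases hb : (b.1.1.1 ≠ b.1.2.1 ∧ b.1.1.1 ≠ b.1.2.2 ∧ (P3_set b.2.1).card ≤ 10 ∧
      (P3_set b.2.2).card ≤ 10 ∧
      (∀ s ∈ P3_set b.2.1, s.1 ≠ b.1.2.1) ∧ (∀ s ∈ P3_set b.2.2, s.1 ≠ b.1.2.2))
    · obtain ⟨h1, h2, h3, h4, h5, h6⟩ := hb
      refine le_trans (Pr_mono ?_) (hq₀ F hq0 b.1.1 b.1.2.1 b.1.2.2 (P3_set b.2.1) (P3_set b.2.2)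
        h1 h2 h3 h4 h5 h6)
      intro ω hω
      exact hω.2
    · refine le_trans (Pr_mono (r := fun _ => False) (fun ω hω => hb hω.1)) ?_
      unfold Pr
      simp only [Finset.filter_false, Finset.card_empty, Nat.cast_zero, zero_div]
      exact (Real.exp_pos _).le
  have hmain := P3_Pr_exists ev _ hev
  have hsub : Pr (fun ω : Om F 2001 => ¬ ((∀ t ∈ RR ω, c * (Fintype.card F : ℝ) ≤ ((plain (RR ω) t).card : ℝ)) ∧
        (∀ (r : Pt F) (j j' : Option F) (A A' : Finset (Pt F)), r.1 ≠ j → r.1 ≠ j' →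
          A.card ≤ 10 → A'.card ≤ 10 → (∀ s ∈ A, s.1 ≠ j) → (∀ s ∈ A', s.1 ≠ j') →
          c * (Fintype.card F : ℝ) ≤ ((good2 ω r j j' A A').card : ℝ)))) ≤ Pr (fun ω => ∃ b, ev b ω) := by
    apply Pr_mono
    intro ω hω
    by_contra hno
    push Not at hno
    apply hω
    have hgood : ∀ (r : Pt F) (j j' : Option F) (A A' : Finset (Pt F)), r.1 ≠ j → r.1 ≠ j' →
          A.card ≤ 10 → A'.card ≤ 10 → (∀ s ∈ A, s.1 ≠ j) → (∀ s ∈ A', s.1 ≠ j') →
          c * (Fintype.card F : ℝ) ≤ ((good2 ω r j j' A A').card : ℝ) := by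
      intro r j j' A A' h1 h2 h3 h4 h5 h6
      by_contra hlt
      push Not at hlt
      obtain ⟨f, hf⟩ := P3_set_surj A h3
      obtain ⟨f', hf'⟩ := P3_set_surj A' h4
      refine hno ⟨(r, j, j'), f, f'⟩ ⟨⟨h1, h2, ?_, ?_, ?_, ?_⟩, ?_⟩
      · show (P3_set f).card ≤ 10
        rw [hf]; exact h3
      · show (P3_set f').card ≤ 10
        rw [hf']; exact h4
      · show ∀ s ∈ P3_set f, s.1 ≠ j
        rw [hf]; exact h5
      · show ∀ s ∈ P3_set f', s.1 ≠ j'
        rw [hf']; exact h6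
      · show ((good2 ω r j j' (P3_set f) (P3_set f')).card : ℝ) < c * (Fintype.card F : ℝ)
        rw [hf, hf']; exact hlt
    refine ⟨?_, hgood⟩
    intro t ht
    obtain ⟨j, hj⟩ : ∃ j : Option F, t.1 ≠ j := by
      rcases t with ⟨t1, t2⟩
      cases t1 with
      | none => exact ⟨some 0, by simp⟩
      | some x => exact ⟨none, by simp⟩
    refine le_trans (hgood t j j ∅ ∅ hj hj (by simp) (by simp) (by simp) (by simp)) ?_
    apply Nat.cast_le.mpr
    apply Finset.card_le_card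
    intro b hb
    unfold good2 at hb
    simp only [Finset.mem_filter, Finset.mem_univ, true_and] at hb
    obtain ⟨hb1, hb2, _, _⟩ := hb
    unfold plain
    simp only [Finset.mem_filter, Finset.mem_univ, true_and]
    ext p
    unfold onL
    simp only [Finset.mem_filter, Finset.mem_singleton]
    constructor
    · rintro ⟨hp, hpb⟩
      unfold RR at hp
      simp only [Finset.mem_image, Finset.mem_univ, true_and] at hp
      obtain ⟨k, rfl⟩ := hp
      exact hb2 k hpb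
    · rintro rfl
      exact ⟨ht, hb1⟩
  refine hsub.trans (hmain.trans ?_)
  refine le_trans ?_ (hq₁ _ hq1)
  refine mul_le_mul_of_nonneg_right ?_ (Real.exp_pos _).le
  have hcard : Fintype.card B = ((Fintype.card F + 1) * Fintype.card F * ((Fintype.card F + 1) * (Fintype.card F + 1))) *
      (((Fintype.card F + 1) * Fintype.card F + 1) ^ 10 * ((Fintype.card F + 1) * Fintype.card F + 1) ^ 10) := by
    simp only [B, Fintype.card_prod, Fintype.card_option, Fintype.card_fun, Fintype.card_fin]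
  rw [hcard]
  have hq2 : 1 ≤ Fintype.card F := Fintype.card_pos
  exact P3_arith _ hq2

end Crest.Agent.RY
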