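/-
  RY_S9 : existence of the fingerprint T (sampling from S = the good points).
  PROOF.  Let T be the random subset of S of density ε.  Call T typical if  ε|S| - ε²q < |T| < ε|S| + ε²q; by Ex_card_upper/lower
  the weight of the non typical T is ≤ 2 * ε q/(ε²q)² = 2/(ε³ q) ≤ 1/4.
  For z ∈ S with pr A S z ≥ δq ("rich"): by rich_mean and Ex_upper (blocks blk S z l, l∋z, G = indicator of nonempty, μ = ε|S| - 8ε²q,
  s = ε²q; note that the mean is ≤ μ, and Ex_upper gives ≤ μ/s² ≤ εq/(ε²q)² = 1/(ε³q)) we get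
     weight{T : dirs univ ≥ ε|S| - 7ε²q} ≤ 1/(ε³q).   If T is typical, z ∉ T, and dirs < ε|S| - 7ε²q, then
     deg (meet T) z = dirs ≤ |T| - 6ε²q ≤ |T| - (3/2)|T|²/q   (|T| ≤ εq(1+ε) ≤ 1.1 εq), i.e. z ∈ X1 T.
  For z ∈ S, not rich, with pp A Fp S z < δq: by poor_mean and Ex_upper with μ = 2εδq, s = εδq:
     weight{T : dirs Fp ≥ 3εδq} ≤ 2/(εδq).  Otherwise, if T typical and z ∉ T: deg (Fp ∩ meet T) z < 3εδq = ερq/16 ≤ |T||Fp|/(8q²)
     (|T| ≥ (3/4)εq - ε²q ≥ εq/2, |Fp| ≥ ρq², δ = ρ/48), i.e. z ∈ X2 T.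
  Let Bad T = set of the z∈S with pp < δq which are not in T ∪ X1 T ∪ X2 T.  For typical T, |Bad T| ≤ Σ_z (the indicators above), so
     Ex (1[not typical] * 2 + |Bad'| / (2*(1/ε³ + 2/(εδ)))) ≤ 1/2 + 1/2 ... choose T with
     [not typical] + Bad'(T)/(4(1/ε³+2/(εδ))) < 1 by Ex_exists (expectation ≤ 1/4 + 1/4).  Hence T typical and |Bad T| < 4(1/ε³+2/(εδ)).
  with δ = ρ/48:  2/(εδ) = 96/(ερ) ≤ 1/(ρ ε³)·(96 ε²) ≤ 1/(ρε³), so the bound is ≤ 8/(ρ ε³).
-/
import Crest.Agent.RY_S8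

set_option autoImplicit false

namespace Crest.Agent.RY
open Finset Classical

variable {P L : Type} [Fintype P] [Fintype L] [DecidableEq P] [DecidableEq L] {inc : P → L → Prop} {q : ℕ}

private theorem s9_blk_sub (S : Finset P) (z : P) (l : L) : blk inc S z l ⊆ S :=
  Finset.filter_subset _ _

private theorem s9_dirs_upper (hP : IsPlane inc q) (LS : Finset L) (S : Finset P) (z : P) (ε : ℝ)
    (h0 : 0 ≤ ε) (h1 : ε ≤ 1) (μ s : ℝ)
    (hμ : Ex ε S (fun T => dirs inc LS S z T) ≤ μ) (hs : 0 < s) :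
    Ex ε S (fun T => if μ + s ≤ dirs inc LS S z T then (1:ℝ) else 0) ≤ μ / s ^ 2 := by
  have h := Ex_upper ε h0 h1 S (LS.filter (fun l => inc z l)) (fun l => blk inc S z l)
    (fun l _ => s9_blk_sub S z l)
    (fun l hl l' hl' hne => blk_disjoint hP S z l l' (Finset.mem_filter.1 hl).2 (Finset.mem_filter.1 hl').2 hne)
    (fun _ T => if T.Nonempty then (1:ℝ) else 0)
    (fun _ T => by beta_reduce; split_ifs <;> norm_num) (fun _ T => by beta_reduce; split_ifs <;> norm_num) μ s hμ hs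
  exact h

theorem fingerprint (hP : IsPlane inc q) (Fp : Finset L) (S : Finset P) (ρ ε : ℝ) (A : ℕ)
    (hS : S.card ≤ q) (hS' : 3 / 4 * (q : ℝ) ≤ (S.card : ℝ)) (hρ : 0 < ρ) (hρ1 : ρ ≤ 1)
    (hFp : ρ * (q:ℝ) ^ 2 ≤ (Fp.card : ℝ))
    (hA2 : 2 ≤ A) (hA : 24 ≤ ((A:ℝ) - 1) * (ρ / 48)) (hε : 0 < ε) (hε1 : ε ≤ 1 / 100) (hεA : ε ≤ 1 / (2 * A))
    (hq : 8 / ε ^ 3 ≤ (q : ℝ)) :
    ∃ T ⊆ S, ε * q / 2 ≤ (T.card : ℝ) ∧ (T.card : ℝ) ≤ 2 * ε * q ∧
      (((S.filter (fun z => (pp inc A Fp S z : ℝ) < ρ / 48 * q)) \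
        (T ∪ (X1 inc q T ∪ X2 inc q Fp T))).card : ℝ) ≤ 8 / (ρ * ε ^ 3) := by
  have hε0 : 0 ≤ ε := hε.le
  have hεle1 : ε ≤ 1 := by linarith
  have hε3 : 0 < ε ^ 3 := by positivity
  have hqpos : (0:ℝ) < q := lt_of_lt_of_le (by positivity) hq
  have hScard : (S.card : ℝ) ≤ q := by exact_mod_cast hS
  obtain ⟨δ, hδ⟩ : ∃ δ : ℝ, δ = ρ / 48 := ⟨_, rfl⟩
  have hδpos : 0 < δ := by rw [hδ]; positivity
  rw [← hδ] at hA
  rw [← hδ]
  -- the indicator functions
  set f1 : Finset P → ℝ := fun T => if ε * S.card + ε ^ 2 * q ≤ (T.card : ℝ) then (1:ℝ) else 0 with hf1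
  set f2 : Finset P → ℝ := fun T => if (T.card : ℝ) ≤ ε * S.card - ε ^ 2 * q then (1:ℝ) else 0 with hf2
  set g : P → Finset P → ℝ := fun z T =>
    if (ε * S.card - 8 * ε ^ 2 * q) + ε ^ 2 * q ≤ dirs inc univ S z T then (1:ℝ) else 0 with hg
  set h : P → Finset P → ℝ := fun z T =>
    if (2 * ε * δ * q) + ε * δ * q ≤ dirs inc Fp S z T then (1:ℝ) else 0 with hh
  set Rich := S.filter (fun z => δ * (q:ℝ) ≤ (pr inc A S z : ℝ)) with hRich
  set Poor := S.filter (fun z => (pr inc A S z : ℝ) < δ * q ∧ (pp inc A Fp S z : ℝ) < δ * q) with hPoor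
  have hg0 : ∀ z T, 0 ≤ g z T := fun z T => by simp only [hg]; split_ifs <;> norm_num
  have hh0 : ∀ z T, 0 ≤ h z T := fun z T => by simp only [hh]; split_ifs <;> norm_num
  have hf10 : ∀ T, 0 ≤ f1 T := fun T => by simp only [hf1]; split_ifs <;> norm_num
  have hf20 : ∀ T, 0 ≤ f2 T := fun T => by simp only [hf2]; split_ifs <;> norm_num
  have hbase : ε * q / (ε ^ 2 * q) ^ 2 = 1 / (ε ^ 3 * q) := by
    field_simp
  have hbase2 : ε * (S.card : ℝ) / (ε ^ 2 * q) ^ 2 ≤ 1 / (ε ^ 3 * q) := by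
    rw [← hbase]
    apply div_le_div_of_nonneg_right _ (by positivity)
    exact mul_le_mul_of_nonneg_left hScard hε0
  have hE1 : Ex ε S f1 ≤ 1 / (ε ^ 3 * q) :=
    (Ex_card_upper ε hε0 hεle1 S (ε ^ 2 * q) (by positivity)).trans hbase2
  have hE2 : Ex ε S f2 ≤ 1 / (ε ^ 3 * q) :=
    (Ex_card_lower ε hε0 hεle1 S (ε ^ 2 * q) (by positivity)).trans hbase2
  have hEg : ∀ z ∈ Rich, Ex ε S (g z) ≤ 1 / (ε ^ 3 * q) := by
    intro z hz
    rw [hRich, Finset.mem_filter] at hz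
    have hm := rich_mean hP S z hz.1 ε δ A hε0 hA2 hεA hA hz.2
    have hu := s9_dirs_upper hP univ S z ε hε0 hεle1 _ (ε ^ 2 * q) hm (by positivity)
    refine hu.trans (le_trans ?_ hbase2)
    apply div_le_div_of_nonneg_right _ (by positivity)
    have : 0 ≤ 8 * ε ^ 2 * q := by positivity
    linarith
  have hEh : ∀ z ∈ Poor, Ex ε S (h z) ≤ 2 / (ε * δ * q) := by
    intro z hz
    rw [hPoor, Finset.mem_filter] at hz
    have hm := poor_mean hP Fp S z hz.1 ε δ A hε0 hεle1 hz.2.1 hz.2.2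
    have hu := s9_dirs_upper hP Fp S z ε hε0 hεle1 _ (ε * δ * q) hm (by positivity)
    refine hu.trans (le_of_eq ?_)
    field_simp
  obtain ⟨K, hK⟩ : ∃ K : ℝ, K = 4 * (1 / ε ^ 3 + 2 / (ε * δ)) := ⟨_, rfl⟩
  have hKpos : 0 < K := by rw [hK]; positivity
  have hRc : (Rich.card : ℝ) ≤ q := le_trans (by exact_mod_cast Finset.card_le_card (Finset.filter_subset _ _)) hScard
  have hPc : (Poor.card : ℝ) ≤ q := le_trans (by exact_mod_cast Finset.card_le_card (Finset.filter_subset _ _)) hScard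
  have hER : Ex ε S (fun T => ∑ z ∈ Rich, g z T) ≤ 1 / ε ^ 3 := by
    rw [Ex_sum ε S Rich g]
    calc ∑ z ∈ Rich, Ex ε S (g z) ≤ ∑ z ∈ Rich, 1 / (ε ^ 3 * q) := Finset.sum_le_sum hEg
      _ = Rich.card * (1 / (ε ^ 3 * q)) := by rw [Finset.sum_const, nsmul_eq_mul]
      _ ≤ q * (1 / (ε ^ 3 * q)) := mul_le_mul_of_nonneg_right hRc (by positivity)
      _ = 1 / ε ^ 3 := by field_simp
  have hEP : Ex ε S (fun T => ∑ z ∈ Poor, h z T) ≤ 2 / (ε * δ) := by
    rw [Ex_sum ε S Poor h]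
    calc ∑ z ∈ Poor, Ex ε S (h z) ≤ ∑ z ∈ Poor, 2 / (ε * δ * q) := Finset.sum_le_sum hEh
      _ = Poor.card * (2 / (ε * δ * q)) := by rw [Finset.sum_const, nsmul_eq_mul]
      _ ≤ q * (2 / (ε * δ * q)) := mul_le_mul_of_nonneg_right hPc (by positivity)
      _ = 2 / (ε * δ) := by field_simp
  have hEΦ : Ex ε S (fun T => (f1 T + f2 T) + (1 / K) * ((∑ z ∈ Rich, g z T) + ∑ z ∈ Poor, h z T)) < 1 := by
    rw [Ex_add ε S (fun T => f1 T + f2 T), Ex_add ε S f1 f2,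
      Ex_mul ε S (1 / K) (fun T => (∑ z ∈ Rich, g z T) + ∑ z ∈ Poor, h z T),
      Ex_add ε S (fun T => ∑ z ∈ Rich, g z T) (fun T => ∑ z ∈ Poor, h z T)]
    have h1 : 1 / (ε ^ 3 * q) ≤ 1 / 8 := by
      rw [div_le_div_iff₀ (by positivity) (by norm_num)]
      rw [div_le_iff₀ hε3] at hq
      linarith
    have h2 : (1 / K) * (Ex ε S (fun T => ∑ z ∈ Rich, g z T) + Ex ε S (fun T => ∑ z ∈ Poor, h z T)) ≤
        (1 / K) * (1 / ε ^ 3 + 2 / (ε * δ)) :=
      mul_le_mul_of_nonneg_left (add_le_add hER hEP) (by positivity)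
    have h3 : (1 / K) * (1 / ε ^ 3 + 2 / (ε * δ)) = 1 / 4 := by
      have hne : (1 / ε ^ 3 + 2 / (ε * δ)) ≠ 0 := by positivity
      rw [hK]
      field_simp
    rw [h3] at h2
    linarith
  obtain ⟨T, hTS, hT⟩ := Ex_exists ε hε0 hεle1 S _ 1 hEΦ
  beta_reduce at hT
  have hsum0 : 0 ≤ (∑ z ∈ Rich, g z T) + ∑ z ∈ Poor, h z T :=
    add_nonneg (Finset.sum_nonneg fun z _ => hg0 z T) (Finset.sum_nonneg fun z _ => hh0 z T)
  have hprod0 : 0 ≤ (1 / K) * ((∑ z ∈ Rich, g z T) + ∑ z ∈ Poor, h z T) := mul_nonneg (by positivity) hsum0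
  have hT1 : (T.card : ℝ) < ε * S.card + ε ^ 2 * q := by
    by_contra hcon
    have : f1 T = 1 := by simp only [hf1]; exact if_pos (not_lt.1 hcon)
    have := hf20 T
    linarith
  have hT2 : ε * S.card - ε ^ 2 * q < (T.card : ℝ) := by
    by_contra hcon
    have : f2 T = 1 := by simp only [hf2]; exact if_pos (not_lt.1 hcon)
    have := hf10 T
    linarith
  have hsumK : (∑ z ∈ Rich, g z T) + ∑ z ∈ Poor, h z T ≤ K := by
    have h1 : (1 / K) * ((∑ z ∈ Rich, g z T) + ∑ z ∈ Poor, h z T) ≤ 1 := by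
      have := hf10 T
      have := hf20 T
      linarith
    rw [one_div, inv_mul_le_iff₀ hKpos, mul_one] at h1
    exact h1
  have hTlow : ε * q / 2 ≤ (T.card : ℝ) := by
    have h1 : ε * (3 / 4 * q) ≤ ε * S.card := mul_le_mul_of_nonneg_left hS' hε0
    have h2 : ε ^ 2 * q ≤ (1 / 100) * (ε * q) := by
      have : 0 ≤ ε * q := by positivity
      nlinarith
    nlinarith [mul_pos hε hqpos]
  have hThigh : (T.card : ℝ) ≤ 2 * ε * q := by
    have h1 : ε * S.card ≤ ε * q := mul_le_mul_of_nonneg_left hScard hε0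
    have h2 : ε ^ 2 * q ≤ (1 / 100) * (ε * q) := by
      have : 0 ≤ ε * q := by positivity
      nlinarith
    nlinarith [mul_pos hε hqpos]
  refine ⟨T, hTS, hTlow, hThigh, ?_⟩
  -- the bad points
  set Bad := (S.filter (fun z => (pp inc A Fp S z : ℝ) < δ * q)) \ (T ∪ (X1 inc q T ∪ X2 inc q Fp T)) with hBad
  have hBadsub : Bad ⊆ Rich.filter (fun z => g z T = 1) ∪ Poor.filter (fun z => h z T = 1) := by
    intro z hz
    rw [hBad, Finset.mem_sdiff, Finset.mem_filter, Finset.mem_union, Finset.mem_union] at hz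
    obtain ⟨⟨hzS, hzpp⟩, hznot⟩ := hz
    have hzT : z ∉ T := fun hh => hznot (Or.inl hh)
    have hz1 : z ∉ X1 inc q T := fun hh => hznot (Or.inr (Or.inl hh))
    have hz2 : z ∉ X2 inc q Fp T := fun hh => hznot (Or.inr (Or.inr hh))
    by_cases hr : δ * (q:ℝ) ≤ (pr inc A S z : ℝ)
    · refine Finset.mem_union_left _ (Finset.mem_filter.2 ⟨Finset.mem_filter.2 ⟨hzS, hr⟩, ?_⟩)
      by_contra hgz
      have hlt : dirs inc univ S z T < (ε * S.card - 8 * ε ^ 2 * q) + ε ^ 2 * q := by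
        by_contra hcon
        exact hgz (by simp only [hg]; exact if_pos (not_lt.1 hcon))
      apply hz1
      rw [dirs_eq univ S T z hTS hzT, Finset.univ_inter] at hlt
      unfold X1
      refine Finset.mem_filter.2 ⟨Finset.mem_univ _, hzT, ?_⟩
      have hsq : (3:ℝ) / 2 * (T.card : ℝ) ^ 2 / q ≤ 6 * ε ^ 2 * q := by
        rw [div_le_iff₀ hqpos]
        have h0 : (0:ℝ) ≤ T.card := by positivity
        have : (T.card : ℝ) ^ 2 ≤ (2 * ε * q) ^ 2 := pow_le_pow_left₀ h0 hThigh 2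
        nlinarith
      linarith
    · refine Finset.mem_union_right _ (Finset.mem_filter.2 ⟨Finset.mem_filter.2 ⟨hzS, not_le.1 hr, hzpp⟩, ?_⟩)
      by_contra hgz
      have hlt : dirs inc Fp S z T < (2 * ε * δ * q) + ε * δ * q := by
        by_contra hcon
        exact hgz (by simp only [hh]; exact if_pos (not_lt.1 hcon))
      apply hz2
      rw [dirs_eq Fp S T z hTS hzT] at hlt
      unfold X2
      refine Finset.mem_filter.2 ⟨Finset.mem_univ _, hzT, ?_⟩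
      refine hlt.le.trans ?_
      rw [le_div_iff₀ (by positivity)]
      have h1 : (ε * q / 2) * (ρ * (q:ℝ) ^ 2) ≤ (T.card : ℝ) * (Fp.card : ℝ) :=
        mul_le_mul hTlow hFp (by positivity) (by positivity)
      refine le_trans (le_of_eq ?_) h1
      rw [hδ]
      ring
  have hcount : (Bad.card : ℝ) ≤ (∑ z ∈ Rich, g z T) + ∑ z ∈ Poor, h z T := by
    have h1 : (Bad.card : ℝ) ≤ ((Rich.filter (fun z => g z T = 1)).card : ℝ) +
        ((Poor.filter (fun z => h z T = 1)).card : ℝ) := by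
      exact_mod_cast (Finset.card_le_card hBadsub).trans (Finset.card_union_le _ _)
    have h2 : ((Rich.filter (fun z => g z T = 1)).card : ℝ) ≤ ∑ z ∈ Rich, g z T := by
      rw [Finset.card_eq_sum_ones, Nat.cast_sum]
      refine le_trans (le_of_eq ?_) (Finset.sum_le_sum_of_subset_of_nonneg (Finset.filter_subset (fun z => g z T = 1) Rich)
        (fun z _ _ => hg0 z T))
      refine Finset.sum_congr rfl fun z hz => ?_
      rw [(Finset.mem_filter.1 hz).2]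
      norm_num
    have h3 : ((Poor.filter (fun z => h z T = 1)).card : ℝ) ≤ ∑ z ∈ Poor, h z T := by
      rw [Finset.card_eq_sum_ones, Nat.cast_sum]
      refine le_trans (le_of_eq ?_) (Finset.sum_le_sum_of_subset_of_nonneg (Finset.filter_subset (fun z => h z T = 1) Poor)
        (fun z _ _ => hh0 z T))
      refine Finset.sum_congr rfl fun z hz => ?_
      rw [(Finset.mem_filter.1 hz).2]
      norm_num
    linarith
  refine (hcount.trans hsumK).trans ?_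
  rw [hK, hδ]
  have h1 : 1 / ε ^ 3 ≤ 1 / (ρ * ε ^ 3) := by
    apply div_le_div_of_nonneg_left (by norm_num) (by positivity)
    nlinarith
  have h2 : 2 / (ε * (ρ / 48)) ≤ 1 / (ρ * ε ^ 3) := by
    rw [div_le_div_iff₀ (by positivity) (by positivity)]
    have h3 : ε ^ 2 ≤ (1 / 100) ^ 2 := pow_le_pow_left₀ hε0 hε1 2
    have h4 : 0 ≤ ρ * ε := by positivity
    nlinarith [mul_le_mul_of_nonneg_left h3 h4]
  have h3 : 8 / (ρ * ε ^ 3) = 8 * (1 / (ρ * ε ^ 3)) := by ring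
  rw [h3]
  linarith

end Crest.Agent.RY
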