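/-
  RY_S10 : THE CONTAINER LEMMA.
  PROOF.  Let S° = goodS Fp S.  |S∖S°| ≤ 4uq/ρ (goodpts), |S°| ≥ 3q/4 (goodpts').  Let A be a natural number with
  1 + 1152/ρ ≤ A ≤ 1154/ρ  (e.g. A = ⌈1 + 1152/ρ⌉₊), δ = ρ/48: then (A-1)δ ≥ 24, and ε ≤ ρ/2400 ≤ 1/(2A).
  Apply `fingerprint` to S° : T ⊆ S° with |Bad| ≤ 8/(ρε³) ≤ u q.  The points of S not in T ∪ X1 T ∪ X2 T are in S∖S°, or in
  {z∈S° : pp ≥ δq} (size ≤ 2Auq/δ = 96 A u q/ρ ≤ 96*1154 u q/ρ² by `poor`), or in Bad.  Total ≤ (4/ρ + 110784/ρ² + 1) u q ≤ 2^17 u q/ρ².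
-/
import Crest.Agent.RY_S9

set_option autoImplicit false

namespace Crest.Agent.RY
open Finset Classical

variable {P L : Type} [Fintype P] [Fintype L] [DecidableEq P] [DecidableEq L] {inc : P → L → Prop} {q : ℕ}

theorem container (hP : IsPlane inc q) (Fp : Finset L) (S : Finset P) (ρ ε u κ : ℝ)
    (hS : S.card ≤ q) (hρ : 0 < ρ) (hρ1 : ρ ≤ 1) (hreg : Reg inc q κ ρ Fp) (hκ : 0 ≤ κ) (hκu : κ ≤ u)
    (hu0 : 0 < u) (hu : u ≤ ρ / 32) (hmiss : ((Fp ∩ miss inc S).card : ℝ) ≤ u * (q:ℝ) ^ 2)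
    (hε : 0 < ε) (hε1 : ε ≤ ρ / 2400) (hq : 8 / (ρ * ε ^ 3 * u) ≤ (q : ℝ)) :
    ∃ T : Finset P, T ⊆ S ∧ ε * q / 2 ≤ (T.card : ℝ) ∧ (T.card : ℝ) ≤ 2 * ε * q ∧
      (∀ t ∈ T, Fp.card ≤ 2 * q * deg inc Fp t) ∧
      ((S \ (T ∪ (X1 inc q T ∪ X2 inc q Fp T))).card : ℝ) ≤ 2 ^ 17 / ρ ^ 2 * u * q := by
  have hε3 : 0 < ε ^ 3 := by positivity
  set So := goodS inc q Fp S with hSo
  have hSoS : So ⊆ S := Finset.filter_subset _ _
  have hgood := goodpts hP Fp S u κ ρ hS hreg hρ hκ hκu hmiss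
  have hgood' := goodpts' hP Fp S u κ ρ hS hreg hρ hρ1 hκ hκu hu hmiss
  have hSocard : So.card ≤ q := (Finset.card_le_card hSoS).trans hS
  obtain ⟨A, hAdef⟩ : ∃ A : ℕ, A = ⌈1 + 1152 / ρ⌉₊ := ⟨_, rfl⟩
  have hA1 : 1 + 1152 / ρ ≤ (A:ℝ) := by rw [hAdef]; exact Nat.le_ceil _
  have h1152 : 1152 ≤ 1152 / ρ := by
    rw [le_div_iff₀ hρ]; nlinarith
  have hApos : (0:ℝ) ≤ 1 + 1152 / ρ := by positivity
  have hA2 : (A:ℝ) ≤ 1154 / ρ := by
    have h := (Nat.ceil_lt_add_one hApos).le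
    rw [← hAdef] at h
    have h2 : 2 ≤ 2 / ρ := by rw [le_div_iff₀ hρ]; nlinarith
    have h3 : 1154 / ρ = 1152 / ρ + 2 / ρ := by ring
    rw [h3]; linarith
  have hA2' : 2 ≤ A := by
    have : (2:ℝ) ≤ (A:ℝ) := by linarith
    exact_mod_cast this
  have hA24 : 24 ≤ ((A:ℝ) - 1) * (ρ / 48) := by
    have h : 1152 / ρ ≤ (A:ℝ) - 1 := by linarith
    have h2 := mul_le_mul_of_nonneg_right h (by positivity : 0 ≤ ρ / 48)
    have h3 : 1152 / ρ * (ρ / 48) = 24 := by field_simp; norm_num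
    linarith
  have hApos' : (0:ℝ) < A := by linarith
  have hεA : ε ≤ 1 / (2 * A) := by
    rw [le_div_iff₀ (by positivity)]
    have h1 : ε * (2 * A) ≤ (ρ / 2400) * (2 * (1154 / ρ)) := by
      apply mul_le_mul hε1 _ (by positivity) (by positivity)
      linarith
    have h2 : (ρ / 2400) * (2 * (1154 / ρ)) = 2308 / 2400 := by field_simp; norm_num
    rw [h2] at h1
    linarith
  have hε100 : ε ≤ 1 / 100 := by linarith
  have hq8 : 8 / ε ^ 3 ≤ (q:ℝ) := by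
    refine le_trans ?_ hq
    have hu1 : u ≤ 1 := by linarith
    apply div_le_div_of_nonneg_left (by norm_num) (by positivity)
    calc ρ * ε ^ 3 * u ≤ 1 * ε ^ 3 * 1 := by
          apply mul_le_mul _ hu1 hu0.le (by positivity)
          exact mul_le_mul_of_nonneg_right hρ1 hε3.le
      _ = ε ^ 3 := by ring
  obtain ⟨T, hTS, hT1, hT2, hBad⟩ := fingerprint hP Fp So ρ ε A hSocard hgood' hρ hρ1 hreg.1 hA2' hA24 hε hε100 hεA hq8
  refine ⟨T, hTS.trans hSoS, hT1, hT2, ?_, ?_⟩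
  · intro t ht
    have := hTS ht
    rw [hSo] at this
    unfold goodS at this
    exact (Finset.mem_filter.1 this).2
  · have hpoor := poor hP Fp S u κ ρ (ρ / 48) hS A hreg hκ hκu (by positivity) hmiss
    rw [← hSo] at hpoor
    have hBad' : (((So.filter (fun z => (pp inc A Fp So z : ℝ) < ρ / 48 * q)) \
        (T ∪ (X1 inc q T ∪ X2 inc q Fp T))).card : ℝ) ≤ u * q := by
      refine hBad.trans ?_
      rw [div_le_iff₀ (by positivity)] at hq ⊢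
      calc (8:ℝ) ≤ q * (ρ * ε ^ 3 * u) := hq
        _ = u * q * (ρ * ε ^ 3) := by ring
    have hsub : S \ (T ∪ (X1 inc q T ∪ X2 inc q Fp T)) ⊆
        (S \ So) ∪ (So.filter (fun z => ρ / 48 * (q:ℝ) ≤ (pp inc A Fp So z : ℝ)) ∪
          ((So.filter (fun z => (pp inc A Fp So z : ℝ) < ρ / 48 * q)) \
        (T ∪ (X1 inc q T ∪ X2 inc q Fp T)))) := by
      intro z hz
      rw [Finset.mem_sdiff] at hz
      by_cases hzo : z ∈ So
      · by_cases hpp : ρ / 48 * (q:ℝ) ≤ (pp inc A Fp So z : ℝ)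
        · exact Finset.mem_union_right _ (Finset.mem_union_left _ (Finset.mem_filter.2 ⟨hzo, hpp⟩))
        · exact Finset.mem_union_right _ (Finset.mem_union_right _
            (Finset.mem_sdiff.2 ⟨Finset.mem_filter.2 ⟨hzo, not_le.1 hpp⟩, hz.2⟩))
      · exact Finset.mem_union_left _ (Finset.mem_sdiff.2 ⟨hz.1, hzo⟩)
    have hcard : ((S \ (T ∪ (X1 inc q T ∪ X2 inc q Fp T))).card : ℝ) ≤
        ((S \ So).card : ℝ) + (((So.filter (fun z => ρ / 48 * (q:ℝ) ≤ (pp inc A Fp So z : ℝ))).card : ℝ) +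
          (((So.filter (fun z => (pp inc A Fp So z : ℝ) < ρ / 48 * q)) \
        (T ∪ (X1 inc q T ∪ X2 inc q Fp T))).card : ℝ)) := by
      have h1 := Finset.card_le_card hsub
      have h2 := h1.trans (Finset.card_union_le _ _)
      have h3 := Finset.card_union_le (So.filter (fun z => ρ / 48 * (q:ℝ) ≤ (pp inc A Fp So z : ℝ)))
          ((So.filter (fun z => (pp inc A Fp So z : ℝ) < ρ / 48 * q)) \
        (T ∪ (X1 inc q T ∪ X2 inc q Fp T)))
      exact_mod_cast h2.trans (Nat.add_le_add_left h3 _)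
    have hq0 : (0:ℝ) ≤ q := by positivity
    have huq : 0 ≤ u * q := by positivity
    have hρ2 : 0 < ρ ^ 2 := by positivity
    have hρinv : 1 ≤ 1 / ρ ^ 2 := by
      rw [le_div_iff₀ hρ2]; nlinarith
    have hρinv2 : 1 / ρ ≤ 1 / ρ ^ 2 := by
      apply div_le_div_of_nonneg_left (by norm_num) hρ2
      nlinarith
    have e1 : 4 * u * q / ρ ≤ 4 * (u * q) * (1 / ρ ^ 2) := by
      calc 4 * u * q / ρ = 4 * (u * q) * (1 / ρ) := by ring
        _ ≤ _ := mul_le_mul_of_nonneg_left hρinv2 (by positivity)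
    have e2 : 2 * A * u * q / (ρ / 48) ≤ 110784 * (u * q) * (1 / ρ ^ 2) := by
      calc 2 * A * u * q / (ρ / 48) = 96 * (u * q) * (1 / ρ) * A := by field_simp; ring
        _ ≤ 96 * (u * q) * (1 / ρ) * (1154 / ρ) := mul_le_mul_of_nonneg_left hA2 (by positivity)
        _ = 110784 * (u * q) * (1 / ρ ^ 2) := by field_simp; ring
    have e3 : u * q ≤ (u * q) * (1 / ρ ^ 2) := le_mul_of_one_le_right huq hρinv
    have e4 : 2 ^ 17 / ρ ^ 2 * u * q = 131072 * ((u * q) * (1 / ρ ^ 2)) := by ring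
    have e5 : 0 ≤ (u * q) * (1 / ρ ^ 2) := by positivity
    rw [e4]
    linarith [hcard, hgood, hpoor, hBad', e1, e2, e3]

end Crest.Agent.RY
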