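/-
  RY_S14 : the deterministic step.  Write q = card F, Fp = FK ω K, U' = Fp ∩ miss S.
  PROOF.  Suppose |U'| > max(us, 4v) q²; put u = |U'|/q² (so u > us ≥ κ, 4v < u).
   (i) u ≤ ρ/32 : a line of U' not in FK ω (K∪D) contains some rp ω k, k∈D (FK_sdiff), each point is on ≤ q+1 lines, so
       |U'| ≤ v q² + |D|(q+1) ≤ (ρ/64) q² + (ρ²/2^23) q (q+1) ≤ (ρ/32) q².
   (ii) container (RY_S10) gives T; put Se = S ∩ (T ∪ (X1 T ∪ X2 T)) ∈ Fam; |S∖Se| ≤ 2^17/ρ² u q.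
       Ue = Fp ∩ miss Se ⊇ U', |Ue| ≤ |U'| + |S∖Se|(q+1) ≤ u q² (1 + 2^18/ρ²) ≤ 2^19/ρ² u q², and |Ue| ≥ |U'| ≥ us q².
   (iii) the lines of U' hit by D: ≥ |U'| - v q² ≥ (3/4) u q².  They are lines of Ue through some rp ω k, k ∈ D:
       number ≤ Σ_{k∈D} deg Ue (rp ω k).  Points in atyp: at most us q/4 of them (hLD), each ≤ q+1 lines: ≤ (us q/4)(q+1) ≤ 0.3 u q².
       Points not in atyp: q deg < 3|Ue|, so total ≤ |D| 3 |Ue|/q ≤ (ρ² q/2^23) * 3 * 2^19 u q/ρ² = (3/16) u q².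
       Total < (3/4) u q², contradiction.
-/
import Crest.Agent.RY_S4
import Crest.Agent.RY_S10

set_option autoImplicit false

namespace Crest.Agent.RY
open Finset Classical

variable {F : Type} [Field F] [Fintype F] [DecidableEq F] {H : ℕ}

private theorem s14_card_biUnion {A B : Type} [DecidableEq A] [DecidableEq B] (W : Finset B) (D : Finset A)
    (N : A → Finset B) (h : ∀ l ∈ W, ∃ k ∈ D, l ∈ N k) : W.card ≤ ∑ k ∈ D, (N k).card := by
  refine le_trans (Finset.card_le_card (t := D.biUnion N) ?_) Finset.card_biUnion_le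
  intro l hl
  obtain ⟨k, hk, hk'⟩ := h l hl
  exact Finset.mem_biUnion.mpr ⟨k, hk, hk'⟩

set_option maxHeartbeats 1000000 in
theorem step (ω : Om F H) (K D : Finset (Idx F H)) (S : Finset (PP F)) (ρ ε κ us v : ℝ)
    (hS : S.card ≤ Fintype.card F) (hρ : 0 < ρ) (hρ1 : ρ ≤ 1) (hκ : 0 ≤ κ) (hκu : κ ≤ us) (hus : 0 < us)
    (hv0 : 0 ≤ v) (hv : v ≤ ρ / 64) (hε : 0 < ε) (hε1 : ε ≤ ρ / 2400)
    (hq : 8 / (ρ * ε ^ 3 * us) ≤ (Fintype.card F : ℝ)) (hq8 : 8 ≤ Fintype.card F)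
    (hreg : Reg (inc : PP F → LL F → Prop) (Fintype.card F) κ ρ (FK ω K))
    (hD : (D.card : ℝ) ≤ ρ ^ 2 * (Fintype.card F : ℝ) / 2 ^ 23)
    (hprev : ((FK ω (K ∪ D) ∩ miss inc S).card : ℝ) ≤ v * (Fintype.card F : ℝ) ^ 2)
    (hLD : ∀ Se ∈ Fam inc (Fintype.card F) ε (FK ω K),
      us * (Fintype.card F : ℝ) ^ 2 ≤ ((FK ω K ∩ miss inc Se).card : ℝ) →
      ((D.filter (fun k => some (rp ω k) ∈ atyp inc (Fintype.card F) (FK ω K ∩ miss inc Se))).card : ℝ) ≤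
        us * (Fintype.card F : ℝ) / 4) :
    ((FK ω K ∩ miss inc S).card : ℝ) ≤ max us (4 * v) * (Fintype.card F : ℝ) ^ 2 := by
  by_contra hcon
  push Not at hcon
  have hP : IsPlane (inc : PP F → LL F → Prop) (Fintype.card F) := isPlane_PP
  generalize Fintype.card F = q at *
  have hq8' : (8:ℝ) ≤ (q:ℝ) := by exact_mod_cast hq8
  have hqpos : (0:ℝ) < (q:ℝ) := by linarith
  obtain ⟨U', hU'⟩ : ∃ U' : Finset (LL F), U' = FK ω K ∩ miss inc S := ⟨_, rfl⟩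
  rw [← hU'] at hcon
  obtain ⟨u, hU'u⟩ : ∃ u : ℝ, (U'.card : ℝ) = u * (q:ℝ) ^ 2 :=
    ⟨(U'.card : ℝ) / (q:ℝ) ^ 2, by field_simp⟩
  have hmaxu : max us (4 * v) < u := by
    rw [hU'u] at hcon
    exact lt_of_mul_lt_mul_right hcon (by positivity)
  have husu : us < u := lt_of_le_of_lt (le_max_left _ _) hmaxu
  have hvu : 4 * v < u := lt_of_le_of_lt (le_max_right _ _) hmaxu
  have hu0 : 0 < u := lt_trans hus husu
  -- lines through a point
  have hpt : ∀ p : PP F, (univ.filter (fun l => inc p l)).card = q + 1 := hP.card_pt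
  have hq1 : ((q:ℝ) + 1) ≤ 9 / 8 * (q:ℝ) := by linarith
  -- hit lines
  obtain ⟨W, hW⟩ : ∃ W : Finset (LL F), W = U' \ (FK ω (K ∪ D) ∩ miss inc S) := ⟨_, rfl⟩
  have hWhit : ∀ l ∈ W, ∃ k ∈ D, inc (some (rp ω k)) l := by
    intro l hl
    rw [hW, Finset.mem_sdiff, hU', Finset.mem_inter, Finset.mem_inter] at hl
    apply FK_sdiff ω K D l hl.1.1
    intro h'
    exact hl.2 ⟨h', hl.1.2⟩
  have hWcard : (U'.card : ℝ) ≤ v * (q:ℝ) ^ 2 + (W.card : ℝ) := by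
    have h1 : U'.card ≤ (FK ω (K ∪ D) ∩ miss inc S).card + W.card := by
      have : U' ⊆ (FK ω (K ∪ D) ∩ miss inc S) ∪ W := by
        intro l hl
        by_cases h : l ∈ FK ω (K ∪ D) ∩ miss inc S
        · exact Finset.mem_union_left _ h
        · exact Finset.mem_union_right _ (by rw [hW]; exact Finset.mem_sdiff.mpr ⟨hl, h⟩)
      exact le_trans (Finset.card_le_card this) (Finset.card_union_le _ _)
    have h2 : (U'.card : ℝ) ≤ ((FK ω (K ∪ D) ∩ miss inc S).card : ℝ) + (W.card : ℝ) := by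
      exact_mod_cast h1
    linarith
  -- (i)
  have hDnn : (0:ℝ) ≤ (D.card : ℝ) := Nat.cast_nonneg _
  have hWD : (W.card : ℝ) ≤ (D.card : ℝ) * ((q:ℝ) + 1) := by
    have h1 : W.card ≤ ∑ k ∈ D, (univ.filter (fun l => inc (some (rp ω k)) l)).card := by
      apply s14_card_biUnion
      intro l hl
      obtain ⟨k, hk, hk'⟩ := hWhit l hl
      exact ⟨k, hk, by simp [hk']⟩
    have h2 : ∑ k ∈ D, (univ.filter (fun l => inc (some (rp ω k)) l)).card = D.card * (q + 1) := by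
      rw [Finset.sum_congr rfl (fun k _ => hpt (some (rp ω k)))]
      simp
    rw [h2] at h1
    exact_mod_cast h1
  have hρ2 : ρ ^ 2 ≤ ρ := by nlinarith
  have hu32 : u ≤ ρ / 32 := by
    have h1 : (D.card : ℝ) * ((q:ℝ) + 1) ≤ (ρ ^ 2 * (q:ℝ) / 2 ^ 23) * (9 / 8 * (q:ℝ)) :=
      mul_le_mul hD hq1 (by positivity) (by positivity)
    have h2 : (ρ ^ 2 * (q:ℝ) / 2 ^ 23) * (9 / 8 * (q:ℝ)) ≤ ρ / 64 * (q:ℝ) ^ 2 := by
      have : (ρ ^ 2 * (q:ℝ) / 2 ^ 23) * (9 / 8 * (q:ℝ)) = (9 / 8 / 2 ^ 23) * ρ ^ 2 * (q:ℝ) ^ 2 := by ring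
      rw [this]
      apply mul_le_mul_of_nonneg_right _ (by positivity)
      nlinarith
    have h3 : v * (q:ℝ) ^ 2 ≤ ρ / 64 * (q:ℝ) ^ 2 := mul_le_mul_of_nonneg_right hv (by positivity)
    have h4 : u * (q:ℝ) ^ 2 ≤ ρ / 32 * (q:ℝ) ^ 2 := by
      rw [← hU'u]
      have : ρ / 32 * (q:ℝ) ^ 2 = ρ / 64 * (q:ℝ) ^ 2 + ρ / 64 * (q:ℝ) ^ 2 := by ring
      rw [this]
      linarith
    exact le_of_mul_le_mul_right h4 (by positivity)
  -- (ii)
  have hq' : 8 / (ρ * ε ^ 3 * u) ≤ (q:ℝ) := by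
    refine le_trans ?_ hq
    apply div_le_div_of_nonneg_left (by norm_num) (by positivity)
    exact mul_le_mul_of_nonneg_left husu.le (by positivity)
  obtain ⟨T, hTS, hT1, hT2, hT3, hT4⟩ := container hP (FK ω K) S ρ ε u κ hS hρ hρ1 hreg hκ
    (le_trans hκu husu.le) hu0 hu32 (by rw [← hU']; exact le_of_eq hU'u) hε hε1 hq'
  obtain ⟨X, hX⟩ : ∃ X, X = T ∪ (X1 (inc : PP F → LL F → Prop) q T ∪ X2 inc q (FK ω K) T) := ⟨_, rfl⟩
  rw [← hX] at hT4
  obtain ⟨Se, hSe⟩ : ∃ Se, Se = S ∩ X := ⟨_, rfl⟩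
  have hSeFam : Se ∈ Fam inc q ε (FK ω K) := by
    unfold Fam
    simp only [Finset.mem_filter, Finset.mem_univ, true_and]
    refine ⟨T, hT1, hT2, hT3, ?_⟩
    rw [hSe, hX]
    exact Finset.inter_subset_right
  obtain ⟨Ue, hUe⟩ : ∃ Ue : Finset (LL F), Ue = FK ω K ∩ miss inc Se := ⟨_, rfl⟩
  have hU'Ue : U' ⊆ Ue := by
    intro l hl
    rw [hU', Finset.mem_inter] at hl
    rw [hUe, Finset.mem_inter]
    refine ⟨hl.1, ?_⟩
    have h2 := hl.2
    unfold miss at h2 ⊢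
    rw [Finset.mem_filter] at h2 ⊢
    refine ⟨Finset.mem_univ _, fun p hp => h2.2 p ?_⟩
    rw [hSe] at hp
    exact Finset.inter_subset_left hp
  have hT4' : ((S \ X).card : ℝ) ≤ 131072 / ρ ^ 2 * u * (q:ℝ) := by
    refine le_trans hT4 (le_of_eq ?_)
    norm_num
  have hUecard : (Ue.card : ℝ) ≤ 524288 / ρ ^ 2 * u * (q:ℝ) ^ 2 := by
    have h1 : (Ue \ U').card ≤ ∑ p ∈ S \ Se, (univ.filter (fun l => inc p l)).card := by
      apply s14_card_biUnion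
      intro l hl
      rw [Finset.mem_sdiff, hUe, Finset.mem_inter, hU', Finset.mem_inter] at hl
      have h2 : l ∉ miss inc S := fun h => hl.2 ⟨hl.1.1, h⟩
      have h3 := hl.1.2
      unfold miss at h2 h3
      rw [Finset.mem_filter] at h2 h3
      push Not at h2
      obtain ⟨p, hp, hp'⟩ := h2 (Finset.mem_univ _)
      refine ⟨p, ?_, by simp [hp']⟩
      rw [Finset.mem_sdiff]
      exact ⟨hp, fun hpSe => h3.2 p hpSe hp'⟩
    have h2 : ∑ p ∈ S \ Se, (univ.filter (fun l : LL F => inc p l)).card = (S \ Se).card * (q + 1) := by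
      rw [Finset.sum_congr rfl (fun p _ => hpt p)]
      simp
    rw [h2] at h1
    have h3 : Ue.card = U'.card + (Ue \ U').card := by
      rw [Finset.card_sdiff_of_subset hU'Ue]
      have := Finset.card_le_card hU'Ue
      omega
    have h4 : S \ Se = S \ X := by
      rw [hSe, Finset.sdiff_inter_self_left]
    have h5 : (Ue.card : ℝ) ≤ (U'.card : ℝ) + ((S \ X).card : ℝ) * ((q:ℝ) + 1) := by
      rw [h4] at h1
      rw [h3]
      push_cast
      have : ((Ue \ U').card : ℝ) ≤ ((S \ X).card : ℝ) * ((q:ℝ) + 1) := by exact_mod_cast h1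
      linarith
    have h6 : ((S \ X).card : ℝ) * ((q:ℝ) + 1) ≤ (131072 / ρ ^ 2 * u * (q:ℝ)) * (9 / 8 * (q:ℝ)) :=
      mul_le_mul hT4' hq1 (by positivity) (by positivity)
    have h7 : (1:ℝ) ≤ 1 / ρ ^ 2 := by
      rw [le_div_iff₀ (by positivity)]
      nlinarith
    have h8 : (U'.card : ℝ) + (131072 / ρ ^ 2 * u * (q:ℝ)) * (9 / 8 * (q:ℝ)) =
        (1 + 131072 * (9 / 8) * (1 / ρ ^ 2)) * (u * (q:ℝ) ^ 2) := by
      rw [hU'u]; ring
    have h9 : 524288 / ρ ^ 2 * u * (q:ℝ) ^ 2 = (524288 * (1 / ρ ^ 2)) * (u * (q:ℝ) ^ 2) := by ring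
    rw [h9]
    have h10 : (1 + 131072 * (9 / 8) * (1 / ρ ^ 2)) * (u * (q:ℝ) ^ 2) ≤ (524288 * (1 / ρ ^ 2)) * (u * (q:ℝ) ^ 2) := by
      apply mul_le_mul_of_nonneg_right _ (by positivity)
      nlinarith
    linarith
  have hUege : us * (q:ℝ) ^ 2 ≤ (Ue.card : ℝ) := by
    have h1 : (U'.card : ℝ) ≤ (Ue.card : ℝ) := by exact_mod_cast Finset.card_le_card hU'Ue
    have h2 : us * (q:ℝ) ^ 2 ≤ u * (q:ℝ) ^ 2 := mul_le_mul_of_nonneg_right husu.le (by positivity)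
    linarith
  have hLD' := hLD Se hSeFam (by rw [← hUe]; exact hUege)
  rw [← hUe] at hLD'
  -- (iii)
  have hW2 : (W.card : ℝ) ≤ ∑ k ∈ D, (deg inc Ue (some (rp ω k)) : ℝ) := by
    have h1 : W.card ≤ ∑ k ∈ D, (Ue.filter (fun l => inc (some (rp ω k)) l)).card := by
      apply s14_card_biUnion
      intro l hl
      obtain ⟨k, hk, hk'⟩ := hWhit l hl
      refine ⟨k, hk, Finset.mem_filter.mpr ⟨?_, hk'⟩⟩
      rw [hW, Finset.mem_sdiff] at hl
      exact hU'Ue hl.1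
    have h2 : (W.card : ℝ) ≤ ((∑ k ∈ D, (Ue.filter (fun l => inc (some (rp ω k)) l)).card : ℕ) : ℝ) := by
      exact_mod_cast h1
    rw [Nat.cast_sum] at h2
    exact h2
  obtain ⟨A, hA⟩ : ∃ A : Idx F H → Prop, A = fun k => some (rp ω k) ∈ atyp inc q Ue := ⟨_, rfl⟩
  have hLD2 : ((D.filter A).card : ℝ) ≤ us * (q:ℝ) / 4 := by
    rw [hA]
    convert hLD'
  have hsplit : ∑ k ∈ D, (deg inc Ue (some (rp ω k)) : ℝ) =
      ∑ k ∈ D.filter A, (deg inc Ue (some (rp ω k)) : ℝ) + ∑ k ∈ D.filter (fun k => ¬ A k), (deg inc Ue (some (rp ω k)) : ℝ) :=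
    (Finset.sum_filter_add_sum_filter_not D A _).symm
  have hpart1 : ∑ k ∈ D.filter A, (deg inc Ue (some (rp ω k)) : ℝ) ≤ (us * (q:ℝ) / 4) * (9 / 8 * (q:ℝ)) := by
    have h1 : ∑ k ∈ D.filter A, (deg inc Ue (some (rp ω k)) : ℝ) ≤ ∑ k ∈ D.filter A, ((q:ℝ) + 1) := by
      apply Finset.sum_le_sum
      intro k _
      have : deg inc Ue (some (rp ω k)) ≤ q + 1 := by
        rw [← hpt (some (rp ω k))]
        unfold deg
        exact Finset.card_le_card (Finset.filter_subset_filter _ (Finset.subset_univ _))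
      exact_mod_cast this
    rw [Finset.sum_const, nsmul_eq_mul] at h1
    refine le_trans h1 ?_
    exact mul_le_mul hLD2 hq1 (by positivity) (by positivity)
  have hpart2 : ∑ k ∈ D.filter (fun k => ¬ A k), (deg inc Ue (some (rp ω k)) : ℝ) ≤
      (D.card : ℝ) * (3 * (Ue.card : ℝ) / (q:ℝ)) := by
    have h1 : ∑ k ∈ D.filter (fun k => ¬ A k), (deg inc Ue (some (rp ω k)) : ℝ) ≤
        ∑ k ∈ D.filter (fun k => ¬ A k), (3 * (Ue.card : ℝ) / (q:ℝ)) := by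
      apply Finset.sum_le_sum
      intro k hk
      rw [Finset.mem_filter] at hk
      have h2 : ¬ (3 * Ue.card ≤ q * deg inc Ue (some (rp ω k))) := by
        intro h
        apply hk.2
        rw [hA]
        show some (rp ω k) ∈ atyp inc q Ue
        unfold atyp
        simp only [Finset.mem_filter, Finset.mem_univ, true_and]
        exact h
      push Not at h2
      rw [le_div_iff₀ hqpos]
      have h3 : ((q * deg inc Ue (some (rp ω k)) : ℕ) : ℝ) < ((3 * Ue.card : ℕ) : ℝ) := Nat.cast_lt.mpr h2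
      rw [Nat.cast_mul, Nat.cast_mul, Nat.cast_ofNat] at h3
      linarith
    rw [Finset.sum_const, nsmul_eq_mul] at h1
    refine le_trans h1 ?_
    apply mul_le_mul_of_nonneg_right _ (by positivity)
    exact Nat.cast_le.mpr (Finset.card_le_card (Finset.filter_subset _ _))
  have hpart2' : (D.card : ℝ) * (3 * (Ue.card : ℝ) / (q:ℝ)) ≤ 3 / 16 * (u * (q:ℝ) ^ 2) := by
    have h1 : (D.card : ℝ) * (3 * (Ue.card : ℝ) / (q:ℝ)) ≤
        (ρ ^ 2 * (q:ℝ) / 2 ^ 23) * (3 * (524288 / ρ ^ 2 * u * (q:ℝ) ^ 2) / (q:ℝ)) := by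
      apply mul_le_mul hD _ (by positivity) (by positivity)
      apply div_le_div_of_nonneg_right _ hqpos.le
      linarith
    refine le_trans h1 (le_of_eq ?_)
    field_simp
    norm_num
  have hu' : us * (q:ℝ) ^ 2 ≤ u * (q:ℝ) ^ 2 := mul_le_mul_of_nonneg_right husu.le (by positivity)
  have huq : 0 < u * (q:ℝ) ^ 2 := by positivity
  have hvq : v * (q:ℝ) ^ 2 ≤ 1 / 4 * (u * (q:ℝ) ^ 2) := by
    have : v ≤ 1 / 4 * u := by linarith
    calc v * (q:ℝ) ^ 2 ≤ (1 / 4 * u) * (q:ℝ) ^ 2 := mul_le_mul_of_nonneg_right this (by positivity)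
      _ = _ := by ring
  have hfin1 : (us * (q:ℝ) / 4) * (9 / 8 * (q:ℝ)) = 9 / 32 * (us * (q:ℝ) ^ 2) := by ring
  rw [hfin1] at hpart1
  rw [hU'u] at hWcard
  linarith

end Crest.Agent.RY
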