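/-
  RY_S18a : union bound and the telescoping induction.
  PROOF of telescope.  S' = S.image some (card ≤ q).  By induction on j ≤ b:  |FK ω (Kc j) ∩ miss S'| ≤ 4^j us q².
  j = 0: the set is empty by FK_univ_inter_miss (Kc 0 = univ).  Step (j < b): `step` with K = Kc (j+1), D = Kc j \ Kc (j+1), K ∪ D = Kc j,
  v = 4^j us (≤ ρ/64 since 4^j ≤ 4^b), max us (4v) = 4^(j+1) us.  j = b: Kc b = ∅ and FK_empty_inter_miss.
-/
import Crest.Agent.RY_S14

set_option autoImplicit false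

namespace Crest.Agent.RY
open Finset Classical

/-- finite union bound -/
theorem Pr_biUnion {A : Type} [Fintype A] (b : ℕ) (E : ℕ → A → Prop) (η : ℝ) (h : ∀ j < b, Pr (E j) ≤ η) :
    Pr (fun a => ∃ j < b, E j a) ≤ b * η := by
  induction b with
  | zero =>
    have h0 : Pr (fun a : A => ∃ j < 0, E j a) ≤ Pr (fun _ : A => False) := by
      apply Pr_mono
      rintro a ⟨j, hj, _⟩
      exact Nat.not_lt_zero j hj
    have h1 : Pr (fun _ : A => False) = 0 := by
      simp [Pr]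
    rw [h1] at h0
    simpa using h0
  | succ b ih =>
    have h1 := ih (fun j hj => h j (Nat.lt_succ_of_lt hj))
    have h2 := h b (Nat.lt_succ_self b)
    have h3 : Pr (fun a => ∃ j < b + 1, E j a) ≤ Pr (fun a => (∃ j < b, E j a) ∨ E b a) := by
      apply Pr_mono
      rintro a ⟨j, hj, hE⟩
      rcases Nat.lt_succ_iff_lt_or_eq.mp hj with hj | rfl
      · exact Or.inl ⟨j, hj, hE⟩
      · exact Or.inr hE
    have h4 := Pr_or (fun a => ∃ j < b, E j a) (E b)
    push_cast
    linarith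

/-- telescoping, deterministic: from the good events -/
theorem telescope {F : Type} [Field F] [Fintype F] [DecidableEq F] {H : ℕ} (ω : Om F H) (ρ ε κ us : ℝ) (b : ℕ)
    (Kc : ℕ → Finset (Idx F H)) (h0 : Kc 0 = univ) (hb : Kc b = ∅)
    (hsub : ∀ j, Kc (j + 1) ⊆ Kc j)
    (hcard : ∀ j, ((Kc j \ Kc (j + 1)).card : ℝ) ≤ ρ ^ 2 * (Fintype.card F : ℝ) / 2 ^ 23)
    (hρ : 0 < ρ) (hρ1 : ρ ≤ 1) (hκ : 0 ≤ κ) (hκu : κ ≤ us) (hus : 0 < us) (hub : 4 ^ b * us ≤ ρ / 64)
    (hε : 0 < ε) (hε1 : ε ≤ ρ / 2400) (hq : 8 / (ρ * ε ^ 3 * us) ≤ (Fintype.card F : ℝ)) (hq8 : 8 ≤ Fintype.card F)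
    (hreg : ∀ j < b, Reg (inc : PP F → LL F → Prop) (Fintype.card F) κ ρ (FK ω (Kc (j + 1))))
    (hLD : ∀ j < b, ∀ Se ∈ Fam inc (Fintype.card F) ε (FK ω (Kc (j + 1))),
      us * (Fintype.card F : ℝ) ^ 2 ≤ ((FK ω (Kc (j + 1)) ∩ miss inc Se).card : ℝ) →
      (((Kc j \ Kc (j + 1)).filter (fun k => some (rp ω k) ∈
        atyp inc (Fintype.card F) (FK ω (Kc (j + 1)) ∩ miss inc Se))).card : ℝ) ≤ us * (Fintype.card F : ℝ) / 4)
    (S : Finset (Pt F)) (hS : Cover (RR ω) S) :
    ((F0 S).card : ℝ) ≤ 4 ^ b * us * (Fintype.card F : ℝ) ^ 2 := by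
  have hS' : (S.image some : Finset (PP F)).card ≤ Fintype.card F :=
    le_trans Finset.card_image_le hS.1
  have key : ∀ j, j ≤ b → ((FK ω (Kc j) ∩ miss (inc : PP F → LL F → Prop) (S.image some)).card : ℝ) ≤
      4 ^ j * us * (Fintype.card F : ℝ) ^ 2 := by
    intro j
    induction j with
    | zero =>
      intro _
      rw [h0, FK_univ_inter_miss ω S hS.2]
      simp only [Finset.card_empty, Nat.cast_zero]
      positivity
    | succ j ih =>
      intro hj
      have hjb : j < b := hj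
      have hprev := ih hjb.le
      have h4j : (4 : ℝ) ^ j * us ≤ 4 ^ b * us := by
        apply mul_le_mul_of_nonneg_right _ hus.le
        exact pow_le_pow_right₀ (by norm_num) hjb.le
      have hKD : Kc (j + 1) ∪ (Kc j \ Kc (j + 1)) = Kc j :=
        Finset.union_sdiff_of_subset (hsub j)
      have hst := step ω (Kc (j + 1)) (Kc j \ Kc (j + 1)) (S.image some) ρ ε κ us (4 ^ j * us)
        hS' hρ hρ1 hκ hκu hus (by positivity) (h4j.trans hub) hε hε1 hq hq8 (hreg j hjb) (hcard j)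
        (by rw [hKD]; exact hprev) (hLD j hjb)
      refine hst.trans (le_of_eq ?_)
      have hmax : max us (4 * (4 ^ j * us)) = 4 ^ (j + 1) * us := by
        rw [max_eq_right]
        · ring
        · have : (1 : ℝ) ≤ 4 ^ j := one_le_pow₀ (by norm_num)
          nlinarith
      rw [hmax]
  have hfin := key b le_rfl
  rw [hb, FK_empty_inter_miss] at hfin
  exact hfin


end Crest.Agent.RY
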