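/-
  RY_S5 : the random subset of density ε of a finite set (weights), basic facts.
  `Ex ε S f = Σ_{T ⊆ S} ε^|T| (1-ε)^(|S|-|T|) f(T)`.
  PROOFS. Ex_one: `Finset.sum_pow_mul_eq_add_pow` .  Ex_insert (one step recursion): powerset_insert.  Everything else by Finset.induction on S
  with Ex_insert:  Ex ε (insert x S) f = (1-ε) * Ex ε S f + ε * Ex ε S (fun T => f (insert x T)).
  Ex_prod (independence): for disjoint A, B ⊆ S: Ex (g(T∩A) h(T∩B)) = Ex (g(T∩A)) * Ex (h(T∩B)) .
-/
import Crest.Agent.RY_SDefs

set_option autoImplicit false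

namespace Crest.Agent.RY
open Finset Classical

/-- expectation over the random subset of `S` of density `ε` -/
noncomputable def Ex {A : Type} [DecidableEq A] (ε : ℝ) (S : Finset A) (f : Finset A → ℝ) : ℝ :=
  ∑ T ∈ S.powerset, ε ^ T.card * (1 - ε) ^ (S.card - T.card) * f T

variable {A : Type} [DecidableEq A]

theorem Ex_empty (ε : ℝ) (f : Finset A → ℝ) : Ex ε ∅ f = f ∅ := by
  simp [Ex]

theorem Ex_insert (ε : ℝ) (S : Finset A) (x : A) (hx : x ∉ S) (f : Finset A → ℝ) :
    Ex ε (insert x S) f = (1 - ε) * Ex ε S f + ε * Ex ε S (fun T => f (insert x T)) := by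
  unfold Ex
  rw [Finset.sum_powerset_insert hx, Finset.mul_sum, Finset.mul_sum]
  congr 1
  · apply Finset.sum_congr rfl
    intro T hT
    have hTS : T ⊆ S := Finset.mem_powerset.1 hT
    have hc : T.card ≤ S.card := Finset.card_le_card hTS
    rw [Finset.card_insert_of_notMem hx]
    have : S.card + 1 - T.card = (S.card - T.card) + 1 := by omega
    rw [this, pow_succ]
    ring
  · apply Finset.sum_congr rfl
    intro T hT
    have hTS : T ⊆ S := Finset.mem_powerset.1 hT
    have hxT : x ∉ T := fun h => hx (hTS h)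
    rw [Finset.card_insert_of_notMem hx, Finset.card_insert_of_notMem hxT]
    have : S.card + 1 - (T.card + 1) = S.card - T.card := by omega
    rw [this, pow_succ]
    ring

theorem Ex_one (ε : ℝ) (S : Finset A) : Ex ε S (fun _ => 1) = 1 := by
  induction S using Finset.induction_on with
  | empty => rw [Ex_empty]
  | insert x S hx ih => rw [Ex_insert ε S x hx, ih]; ring

theorem Ex_add (ε : ℝ) (S : Finset A) (f g : Finset A → ℝ) :
    Ex ε S (fun T => f T + g T) = Ex ε S f + Ex ε S g := by
  unfold Ex
  rw [← Finset.sum_add_distrib]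
  apply Finset.sum_congr rfl
  intro T _
  ring

theorem Ex_mul (ε : ℝ) (S : Finset A) (c : ℝ) (f : Finset A → ℝ) :
    Ex ε S (fun T => c * f T) = c * Ex ε S f := by
  unfold Ex
  rw [Finset.mul_sum]
  apply Finset.sum_congr rfl
  intro T _
  ring

theorem Ex_sum {ι : Type} (ε : ℝ) (S : Finset A) (J : Finset ι) (f : ι → Finset A → ℝ) :
    Ex ε S (fun T => ∑ j ∈ J, f j T) = ∑ j ∈ J, Ex ε S (f j) := by
  unfold Ex
  rw [Finset.sum_comm]
  apply Finset.sum_congr rfl
  intro T _
  rw [Finset.mul_sum]

theorem Ex_mono (ε : ℝ) (h0 : 0 ≤ ε) (h1 : ε ≤ 1) (S : Finset A) (f g : Finset A → ℝ)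
    (h : ∀ T, T ⊆ S → f T ≤ g T) : Ex ε S f ≤ Ex ε S g := by
  unfold Ex
  apply Finset.sum_le_sum
  intro T hT
  apply mul_le_mul_of_nonneg_left (h T (Finset.mem_powerset.1 hT))
  have : 0 ≤ 1 - ε := by linarith
  positivity

/-- a function with expectation `< c` has a value `< c` -/
theorem Ex_exists (ε : ℝ) (h0 : 0 ≤ ε) (h1 : ε ≤ 1) (S : Finset A) (f : Finset A → ℝ) (c : ℝ)
    (h : Ex ε S f < c) : ∃ T, T ⊆ S ∧ f T < c := by
  by_contra hcon
  push Not at hcon
  have h2 : Ex ε S (fun _ => c) ≤ Ex ε S f := Ex_mono ε h0 h1 S _ _ hcon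
  have h3 : Ex ε S (fun _ => c) = c := by
    have := Ex_mul ε S c (fun _ => 1)
    rw [Ex_one] at this
    simpa using this
  linarith

private theorem Ex_congr' (ε : ℝ) (S : Finset A) (f g : Finset A → ℝ)
    (h : ∀ T, T ⊆ S → f T = g T) : Ex ε S f = Ex ε S g := by
  unfold Ex
  apply Finset.sum_congr rfl
  intro T hT
  rw [h T (Finset.mem_powerset.1 hT)]

theorem Ex_card (ε : ℝ) (S : Finset A) : Ex ε S (fun T => (T.card : ℝ)) = ε * S.card := by
  induction S using Finset.induction_on with
  | empty => rw [Ex_empty]; simp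
  | insert x S hx ih =>
    rw [Ex_insert ε S x hx, ih]
    have h : Ex ε S (fun T => ((insert x T).card : ℝ)) = Ex ε S (fun T => (T.card : ℝ) + 1) := by
      apply Ex_congr'
      intro T hT
      have hxT : x ∉ T := fun h => hx (hT h)
      simp only [Finset.card_insert_of_notMem hxT]
      push_cast
      ring
    rw [h, Ex_add, Ex_one, ih, Finset.card_insert_of_notMem hx]
    push_cast
    ring

theorem Ex_inter (ε : ℝ) (S B : Finset A) (hB : B ⊆ S) (g : Finset A → ℝ) :
    Ex ε S (fun T => g (T ∩ B)) = Ex ε B g := by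
  induction S using Finset.induction_on generalizing B g with
  | empty =>
    have hB' : B = ∅ := Finset.subset_empty.1 hB
    subst hB'
    rw [Ex_empty, Ex_empty]
    simp
  | insert x S hx ih =>
    rw [Ex_insert ε S x hx]
    by_cases hxB : x ∈ B
    · have hB' : B.erase x ⊆ S := by
        intro y hy
        rw [Finset.mem_erase] at hy
        have := hB hy.2
        rw [Finset.mem_insert] at this
        tauto
      have e1 : Ex ε S (fun T => g (T ∩ B)) = Ex ε S (fun T => g (T ∩ B.erase x)) := by
        apply Ex_congr'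
        intro T hT
        have : T ∩ B = T ∩ B.erase x := by
          ext y
          simp only [Finset.mem_inter, Finset.mem_erase]
          constructor
          · rintro ⟨h1, h2⟩
            exact ⟨h1, fun h => hx (h ▸ hT h1), h2⟩
          · rintro ⟨h1, _, h2⟩
            exact ⟨h1, h2⟩
        rw [this]
      have e2 : Ex ε S (fun T => g (insert x T ∩ B)) = Ex ε S (fun T => g (insert x (T ∩ B.erase x))) := by
        apply Ex_congr'
        intro T hT
        have : insert x T ∩ B = insert x (T ∩ B.erase x) := by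
          ext y
          simp only [Finset.mem_inter, Finset.mem_erase, Finset.mem_insert]
          constructor
          · rintro ⟨h1, h2⟩
            by_cases hy : y = x
            · exact Or.inl hy
            · exact Or.inr ⟨h1.resolve_left hy, hy, h2⟩
          · rintro (h1 | ⟨h1, _, h2⟩)
            · subst h1
              exact ⟨Or.inl rfl, hxB⟩
            · exact ⟨Or.inr h1, h2⟩
        rw [this]
      rw [e1, e2, ih (B.erase x) hB' g, ih (B.erase x) hB' (fun T => g (insert x T))]
      conv_rhs => rw [← Finset.insert_erase hxB]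
      rw [Ex_insert ε (B.erase x) x (Finset.notMem_erase x B)]
    · have hB' : B ⊆ S := by
        intro y hy
        have := hB hy
        rw [Finset.mem_insert] at this
        rcases this with h | h
        · exact absurd (h ▸ hy) hxB
        · exact h
      have e2 : Ex ε S (fun T => g (insert x T ∩ B)) = Ex ε S (fun T => g (T ∩ B)) := by
        apply Ex_congr'
        intro T hT
        rw [Finset.insert_inter_of_notMem hxB]
      rw [e2, ih B hB' g]
      ring

theorem Ex_hit (ε : ℝ) (S B : Finset A) (hB : B ⊆ S) :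
    Ex ε S (fun T => if (T ∩ B).Nonempty then (1:ℝ) else 0) = 1 - (1 - ε) ^ B.card := by
  rw [Ex_inter ε S B hB (fun U => if U.Nonempty then (1:ℝ) else 0)]
  clear hB
  induction B using Finset.induction_on with
  | empty => rw [Ex_empty]; simp
  | insert x B hx ih =>
    rw [Ex_insert ε B x hx, ih]
    have h : Ex ε B (fun T => if (insert x T).Nonempty then (1:ℝ) else 0) = Ex ε B (fun _ => 1) := by
      apply Ex_congr'
      intro T _
      simp
    rw [h, Ex_one, Finset.card_insert_of_notMem hx, pow_succ]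
    ring

private theorem Ex_prod_aux (ε : ℝ) (C : Finset A) (h : Finset A → ℝ) (B : Finset A) (hBC : Disjoint B C)
    (g : Finset A → ℝ) :
    Ex ε (B ∪ C) (fun T => g (T ∩ B) * h (T ∩ C)) = Ex ε B g * Ex ε C h := by
  induction B using Finset.induction_on generalizing g with
  | empty =>
    rw [Ex_empty, Finset.empty_union, ← Ex_mul]
    apply Ex_congr'
    intro T hT
    rw [Finset.inter_empty, Finset.inter_eq_left.2 hT]
  | insert x B hx ih =>
    have hBC' : Disjoint B C := Finset.disjoint_of_subset_left (Finset.subset_insert x B) hBC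
    have hxC : x ∉ C := Finset.disjoint_left.1 hBC (Finset.mem_insert_self x B)
    have hxU : x ∉ B ∪ C := by
      rw [Finset.mem_union]
      tauto
    rw [Finset.insert_union, Ex_insert ε (B ∪ C) x hxU, Ex_insert ε B x hx]
    have e1 : Ex ε (B ∪ C) (fun T => g (T ∩ insert x B) * h (T ∩ C)) =
        Ex ε (B ∪ C) (fun T => g (T ∩ B) * h (T ∩ C)) := by
      apply Ex_congr'
      intro T hT
      have hxT : x ∉ T := fun h => hxU (hT h)
      rw [Finset.inter_insert_of_notMem hxT]
    have e2 : Ex ε (B ∪ C) (fun T => g (insert x T ∩ insert x B) * h (insert x T ∩ C)) =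
        Ex ε (B ∪ C) (fun T => g (insert x (T ∩ B)) * h (T ∩ C)) := by
      apply Ex_congr'
      intro T hT
      have hxT : x ∉ T := fun h => hxU (hT h)
      rw [Finset.insert_inter_of_notMem hxC, ← Finset.insert_inter_distrib]
    rw [e1, e2, ih hBC' g, ih hBC' (fun U => g (insert x U))]
    ring

theorem Ex_prod (ε : ℝ) (S B C : Finset A) (hB : B ⊆ S) (hC : C ⊆ S) (hBC : Disjoint B C) (g h : Finset A → ℝ) :
    Ex ε S (fun T => g (T ∩ B) * h (T ∩ C)) = Ex ε S (fun T => g (T ∩ B)) * Ex ε S (fun T => h (T ∩ C)) := by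
  have e0 : Ex ε S (fun T => g (T ∩ B) * h (T ∩ C)) = Ex ε (B ∪ C) (fun T => g (T ∩ B) * h (T ∩ C)) := by
    rw [← Ex_inter ε S (B ∪ C) (Finset.union_subset hB hC) (fun T => g (T ∩ B) * h (T ∩ C))]
    apply Ex_congr'
    intro T _
    have h1 : T ∩ (B ∪ C) ∩ B = T ∩ B := by
      ext y; simp only [Finset.mem_inter, Finset.mem_union]; tauto
    have h2 : T ∩ (B ∪ C) ∩ C = T ∩ C := by
      ext y; simp only [Finset.mem_inter, Finset.mem_union]; tauto
    simp only [h1, h2]
  rw [e0, Ex_prod_aux ε C h B hBC g, Ex_inter ε S B hB g, Ex_inter ε S C hC h]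

end Crest.Agent.RY
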