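/-
  RY_S6 : Chebyshev for sums of [0,1]-valued functions depending on disjoint blocks.
  PROOF.  var: expand the square, off-diagonal terms vanish by Ex_prod, diagonal terms: Ex (G - m)^2 ≤ Ex G^2 ≤ Ex G since 0 ≤ G ≤ 1.
  upper / lower: Markov for the square (the indicator of {f ≥ m+s} is ≤ (f-m)^2/s^2).
  card_upper / card_lower : |T| = Σ_{x∈S} 1[x ∈ T ∩ {x}] (blocks = singletons), mean = ε|S|.
-/
import Crest.Agent.RY_S5

set_option autoImplicit false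

namespace Crest.Agent.RY
open Finset Classical

variable {A ι : Type} [DecidableEq A]

private theorem S6_Ex_const (ε : ℝ) (S : Finset A) (c : ℝ) : Ex ε S (fun _ => c) = c := by
  have h := Ex_mul ε S c (fun _ => (1:ℝ))
  rw [Ex_one, mul_one] at h
  simpa using h

private theorem S6_Ex_congr (ε : ℝ) (S : Finset A) (f g : Finset A → ℝ)
    (h : ∀ T, T ⊆ S → f T = g T) : Ex ε S f = Ex ε S g := by
  unfold Ex
  refine Finset.sum_congr rfl fun T hT => ?_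
  rw [h T (Finset.mem_powerset.mp hT)]

private theorem S6_center (ε : ℝ) (S : Finset A) (f : Finset A → ℝ) :
    Ex ε S (fun T => f T - Ex ε S f) = 0 := by
  have h := Ex_add ε S f (fun _ => - Ex ε S f)
  rw [S6_Ex_const] at h
  have h2 : Ex ε S (fun T => f T - Ex ε S f) = Ex ε S (fun T => f T + - Ex ε S f) := by
    simp only [sub_eq_add_neg]
  rw [h2, h]
  ring

theorem Ex_var (ε : ℝ) (h0 : 0 ≤ ε) (h1 : ε ≤ 1) (S : Finset A) (J : Finset ι) (B : ι → Finset A)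
    (hB : ∀ j ∈ J, B j ⊆ S) (hd : ∀ j ∈ J, ∀ j' ∈ J, j ≠ j' → Disjoint (B j) (B j'))
    (G : ι → Finset A → ℝ) (hG0 : ∀ j T, 0 ≤ G j T) (hG1 : ∀ j T, G j T ≤ 1) :
    Ex ε S (fun T => ((∑ j ∈ J, G j (T ∩ B j)) - Ex ε S (fun T => ∑ j ∈ J, G j (T ∩ B j))) ^ 2) ≤
      Ex ε S (fun T => ∑ j ∈ J, G j (T ∩ B j)) := by
  set m : ι → ℝ := fun j => Ex ε S (fun T => G j (T ∩ B j)) with hm
  have hM : Ex ε S (fun T => ∑ j ∈ J, G j (T ∩ B j)) = ∑ j ∈ J, m j :=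
    Ex_sum ε S J (fun j T => G j (T ∩ B j))
  rw [hM]
  have hexp : ∀ T : Finset A, ((∑ j ∈ J, G j (T ∩ B j)) - ∑ j ∈ J, m j) ^ 2 =
      ∑ j ∈ J, ∑ j' ∈ J, (G j (T ∩ B j) - m j) * (G j' (T ∩ B j') - m j') := by
    intro T
    rw [← Finset.sum_sub_distrib, sq, Finset.sum_mul_sum]
  simp only [hexp]
  rw [Ex_sum]
  refine Finset.sum_le_sum fun j hj => ?_
  rw [Ex_sum]
  have hoff : ∀ j' ∈ J, j' ≠ j →
      Ex ε S (fun T => (G j (T ∩ B j) - m j) * (G j' (T ∩ B j') - m j')) = 0 := by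
    intro j' hj' hne
    have h := Ex_prod ε S (B j) (B j') (hB j hj) (hB j' hj') (hd j hj j' hj' (Ne.symm hne))
      (fun U => G j U - m j) (fun U => G j' U - m j')
    rw [h]
    have h2 : Ex ε S (fun T => G j (T ∩ B j) - m j) = 0 := S6_center ε S (fun T => G j (T ∩ B j))
    rw [h2, zero_mul]
  rw [Finset.sum_eq_single_of_mem j hj hoff]
  have hsq : Ex ε S (fun T => (G j (T ∩ B j) - m j) * (G j (T ∩ B j) - m j)) =
      Ex ε S (fun T => G j (T ∩ B j) ^ 2) - m j ^ 2 := by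
    have e1 : (fun T : Finset A => (G j (T ∩ B j) - m j) * (G j (T ∩ B j) - m j)) =
        fun T => (G j (T ∩ B j) ^ 2 + (-2 * m j) * G j (T ∩ B j)) + m j ^ 2 := by
      funext T; ring
    rw [e1, Ex_add ε S (fun T => G j (T ∩ B j) ^ 2 + (-2 * m j) * G j (T ∩ B j)) (fun _ => m j ^ 2),
      S6_Ex_const, Ex_add ε S (fun T => G j (T ∩ B j) ^ 2) (fun T => (-2 * m j) * G j (T ∩ B j)),
      Ex_mul ε S (-2 * m j) (fun T => G j (T ∩ B j))]
    change _ + -2 * m j * m j + m j ^ 2 = _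
    ring
  rw [hsq]
  have hle : Ex ε S (fun T => G j (T ∩ B j) ^ 2) ≤ m j := by
    refine Ex_mono ε h0 h1 S _ _ fun T _ => ?_
    have a := hG0 j (T ∩ B j)
    have b := hG1 j (T ∩ B j)
    nlinarith
  nlinarith [sq_nonneg (m j)]

theorem Ex_upper (ε : ℝ) (h0 : 0 ≤ ε) (h1 : ε ≤ 1) (S : Finset A) (J : Finset ι) (B : ι → Finset A)
    (hB : ∀ j ∈ J, B j ⊆ S) (hd : ∀ j ∈ J, ∀ j' ∈ J, j ≠ j' → Disjoint (B j) (B j'))
    (G : ι → Finset A → ℝ) (hG0 : ∀ j T, 0 ≤ G j T) (hG1 : ∀ j T, G j T ≤ 1)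
    (μ s : ℝ) (hμ : Ex ε S (fun T => ∑ j ∈ J, G j (T ∩ B j)) ≤ μ) (hs : 0 < s) :
    Ex ε S (fun T => if μ + s ≤ ∑ j ∈ J, G j (T ∩ B j) then (1:ℝ) else 0) ≤ μ / s ^ 2 := by
  have hv := Ex_var ε h0 h1 S J B hB hd G hG0 hG1
  set M := Ex ε S (fun T => ∑ j ∈ J, G j (T ∩ B j)) with hM
  have hmono : Ex ε S (fun T => if μ + s ≤ ∑ j ∈ J, G j (T ∩ B j) then (1:ℝ) else 0) ≤
      Ex ε S (fun T => (1 / s ^ 2) * ((∑ j ∈ J, G j (T ∩ B j)) - M) ^ 2) := by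
    refine Ex_mono ε h0 h1 S _ _ fun T _ => ?_
    split_ifs with h
    · have h3 : s ≤ (∑ j ∈ J, G j (T ∩ B j)) - M := by linarith
      have h4 : s ^ 2 ≤ ((∑ j ∈ J, G j (T ∩ B j)) - M) ^ 2 := by
        apply pow_le_pow_left₀ hs.le h3
      rw [one_div, inv_mul_eq_div, le_div_iff₀ (by positivity)]
      linarith
    · positivity
  rw [Ex_mul] at hmono
  calc _ ≤ _ := hmono
    _ ≤ 1 / s ^ 2 * μ := by
      apply mul_le_mul_of_nonneg_left _ (by positivity)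
      linarith
    _ = μ / s ^ 2 := by ring

theorem Ex_lower (ε : ℝ) (h0 : 0 ≤ ε) (h1 : ε ≤ 1) (S : Finset A) (J : Finset ι) (B : ι → Finset A)
    (hB : ∀ j ∈ J, B j ⊆ S) (hd : ∀ j ∈ J, ∀ j' ∈ J, j ≠ j' → Disjoint (B j) (B j'))
    (G : ι → Finset A → ℝ) (hG0 : ∀ j T, 0 ≤ G j T) (hG1 : ∀ j T, G j T ≤ 1)
    (s : ℝ) (hs : 0 < s) :
    Ex ε S (fun T => if ∑ j ∈ J, G j (T ∩ B j) ≤ Ex ε S (fun T => ∑ j ∈ J, G j (T ∩ B j)) - s then (1:ℝ) else 0)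
      ≤ Ex ε S (fun T => ∑ j ∈ J, G j (T ∩ B j)) / s ^ 2 := by
  have hv := Ex_var ε h0 h1 S J B hB hd G hG0 hG1
  set M := Ex ε S (fun T => ∑ j ∈ J, G j (T ∩ B j)) with hM
  have hmono : Ex ε S (fun T => if ∑ j ∈ J, G j (T ∩ B j) ≤ M - s then (1:ℝ) else 0) ≤
      Ex ε S (fun T => (1 / s ^ 2) * ((∑ j ∈ J, G j (T ∩ B j)) - M) ^ 2) := by
    refine Ex_mono ε h0 h1 S _ _ fun T _ => ?_
    split_ifs with h
    · have h3 : s ≤ M - (∑ j ∈ J, G j (T ∩ B j)) := by linarith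
      have h4 : s ^ 2 ≤ (M - (∑ j ∈ J, G j (T ∩ B j))) ^ 2 := by
        apply pow_le_pow_left₀ hs.le h3
      rw [one_div, inv_mul_eq_div, le_div_iff₀ (by positivity)]
      nlinarith
    · positivity
  rw [Ex_mul] at hmono
  calc _ ≤ _ := hmono
    _ ≤ 1 / s ^ 2 * M := by
      apply mul_le_mul_of_nonneg_left _ (by positivity)
      linarith
    _ = M / s ^ 2 := by ring

private theorem S6_card_sum (S T : Finset A) (hT : T ⊆ S) :
    ∑ x ∈ S, (if x ∈ T ∩ {x} then (1:ℝ) else 0) = T.card := by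
  have : ∀ x ∈ S, (if x ∈ T ∩ {x} then (1:ℝ) else 0) = if x ∈ T then 1 else 0 := by
    intro x _
    simp
  rw [Finset.sum_congr rfl this, Finset.sum_ite_mem, Finset.inter_eq_right.mpr hT]
  simp

theorem Ex_card_upper (ε : ℝ) (h0 : 0 ≤ ε) (h1 : ε ≤ 1) (S : Finset A) (s : ℝ) (hs : 0 < s) :
    Ex ε S (fun T => if ε * S.card + s ≤ (T.card : ℝ) then (1:ℝ) else 0) ≤ ε * S.card / s ^ 2 := by
  have hcong : Ex ε S (fun T => ∑ x ∈ S, (if x ∈ T ∩ {x} then (1:ℝ) else 0)) = ε * S.card := by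
    rw [← Ex_card ε S]
    exact S6_Ex_congr ε S _ _ fun T hT => S6_card_sum S T hT
  have h := Ex_upper ε h0 h1 S S (fun x => {x}) (fun x hx => by simpa using hx)
    (fun x _ y _ hxy => by simpa using hxy)
    (fun x T => if x ∈ T then (1:ℝ) else 0) (fun x T => by split_ifs <;> norm_num)
    (fun x T => by split_ifs <;> norm_num) (ε * S.card) s (le_of_eq hcong) hs
  refine le_trans (le_of_eq ?_) h
  refine S6_Ex_congr ε S _ _ fun T hT => ?_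
  rw [S6_card_sum S T hT]

theorem Ex_card_lower (ε : ℝ) (h0 : 0 ≤ ε) (h1 : ε ≤ 1) (S : Finset A) (s : ℝ) (hs : 0 < s) :
    Ex ε S (fun T => if (T.card : ℝ) ≤ ε * S.card - s then (1:ℝ) else 0) ≤ ε * S.card / s ^ 2 := by
  have hcong : Ex ε S (fun T => ∑ x ∈ S, (if x ∈ T ∩ {x} then (1:ℝ) else 0)) = ε * S.card := by
    rw [← Ex_card ε S]
    exact S6_Ex_congr ε S _ _ fun T hT => S6_card_sum S T hT
  have h := Ex_lower ε h0 h1 S S (fun x => {x}) (fun x hx => by simpa using hx)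
    (fun x _ y _ hxy => by simpa using hxy)
    (fun x T => if x ∈ T then (1:ℝ) else 0) (fun x T => by split_ifs <;> norm_num)
    (fun x T => by split_ifs <;> norm_num) s hs
  rw [hcong] at h
  refine le_trans (le_of_eq ?_) h
  refine S6_Ex_congr ε S _ _ fun T hT => ?_
  rw [S6_card_sum S T hT]

end Crest.Agent.RY
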