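/-
  RY_S7 : near-perfect covers of a regular line set Fp have small overlaps and mostly good points.
  Notation: nn S l = number of points of S on l; deg Fp z = number of lines of Fp through z.
  PROOFS.
  * overlap: Σ_{l∈Fp} nn S l = Σ_{z∈S} deg Fp z ≤ |S| (1+κ)|Fp|/q ≤ (1+κ)|Fp| and  Σ_{l∈Fp} (nn S l - 1 : ℕ) = Σ nn - #{l∈Fp : nn ≥ 1}
     = Σ nn - (|Fp| - |Fp ∩ miss S|) ≤ κ|Fp| + u q^2 ≤ 2u q^2.
  * goodpts: let D = |Fp|.  S° = {z∈S : D ≤ 2 q deg z}.  q Σ_{z∈S} deg z ≥ q(D - u q^2); each z∈S° contributes ≤ (1+κ)D to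
     q·deg, each z ∈ S∖S° contributes ≤ D/2.  So (D/2)|S∖S°| ≤ (1+κ)D q - q D + u q^3 ≤ 2u q^3, i.e. |S∖S°| ≤ 4u q/ρ.
  * goodpts': D q - u q^3 ≤ (1+κ)D|S°| + (D/2)(q - |S°|)  ⟹ |S°|(1/2+κ) ≥ q/2 - u q^3/D ≥ q(1/2 - u/ρ) ≥ q(15/32), and 1/2+κ ≤ 17/32.
  * poor: Σ_{z∈S°} pp(z) = Σ_{l∈Fp, nn S° l ≤ A} nn S° l (nn S° l - 1) ≤ A Σ_{l∈Fp} (nn S l - 1) ≤ 2Au q^2; Markov.
-/
import Crest.Agent.RY_S1

set_option autoImplicit false

namespace Crest.Agent.RY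
open Finset Classical

variable {P L : Type} [Fintype P] [Fintype L] [DecidableEq P] [DecidableEq L] {inc : P → L → Prop} {q : ℕ}

/-- the points of `S` on many lines of `Fp` -/
noncomputable def goodS (inc : P → L → Prop) (q : ℕ) (Fp : Finset L) (S : Finset P) : Finset P :=
  S.filter (fun z => Fp.card ≤ 2 * q * deg inc Fp z)

/-- number of partners of `z` on the lines of `Fp` through `z` with at most `A` points of `S` -/
noncomputable def pp (inc : P → L → Prop) (A : ℕ) (Fp : Finset L) (S : Finset P) (z : P) : ℕ :=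
  ∑ l ∈ Fp.filter (fun l => inc z l ∧ nn inc S l ≤ A), (nn inc S l - 1)

/-- number of partners of `z` on the lines through `z` with more than `A` points of `S` -/
noncomputable def pr (inc : P → L → Prop) (A : ℕ) (S : Finset P) (z : P) : ℕ :=
  ∑ l ∈ (univ : Finset L).filter (fun l => inc z l ∧ A < nn inc S l), (nn inc S l - 1)

private theorem s7_dc (Fp : Finset L) (S : Finset P) :
    ∑ l ∈ Fp, nn inc S l = ∑ z ∈ S, deg inc Fp z := by
  unfold nn deg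
  simp only [Finset.card_filter]
  exact Finset.sum_comm

private theorem s7_part (Fp : Finset L) (S : Finset P) :
    (∑ l ∈ Fp, (nn inc S l - 1)) + Fp.card = (∑ l ∈ Fp, nn inc S l) + (Fp ∩ miss inc S).card := by
  have h1 : (Fp ∩ miss inc S).card = ∑ l ∈ Fp, if nn inc S l = 0 then 1 else 0 := by
    rw [← Finset.card_filter]
    congr 1
    ext l
    simp only [Finset.mem_inter, miss, Finset.mem_filter, Finset.mem_univ, true_and, nn,
      Finset.card_eq_zero, Finset.filter_eq_empty_iff]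
  have h2 : Fp.card = ∑ l ∈ Fp, 1 := by simp
  rw [h1, h2, ← Finset.sum_add_distrib, ← Finset.sum_add_distrib]
  refine Finset.sum_congr rfl fun l _ => ?_
  split_ifs <;> omega

private theorem s7_upper (hP : IsPlane inc q) (Fp : Finset L) (S : Finset P) (κ ρ : ℝ)
    (hS : S.card ≤ q) (hreg : Reg inc q κ ρ Fp) (hκ : 0 ≤ κ) :
    ((∑ l ∈ Fp, nn inc S l : ℕ) : ℝ) ≤ (1 + κ) * (Fp.card : ℝ) := by
  have hq : (0 : ℝ) < q := by
    have := hP.two_le
    exact_mod_cast (by omega : 0 < q)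
  rw [s7_dc]
  have h : ((∑ z ∈ S, deg inc Fp z : ℕ) : ℝ) * q ≤ (q : ℝ) * ((1 + κ) * (Fp.card : ℝ)) := by
    rw [Nat.cast_sum, Finset.sum_mul]
    calc ∑ z ∈ S, (deg inc Fp z : ℝ) * q ≤ ∑ z ∈ S, (1 + κ) * (Fp.card : ℝ) :=
          Finset.sum_le_sum fun z _ => hreg.2.2 z
      _ = (S.card : ℝ) * ((1 + κ) * (Fp.card : ℝ)) := by rw [Finset.sum_const, nsmul_eq_mul]
      _ ≤ (q : ℝ) * ((1 + κ) * (Fp.card : ℝ)) := by
          apply mul_le_mul_of_nonneg_right (by exact_mod_cast hS)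
          positivity
  nlinarith [h, hq]

/-- main inequality: `q D - u q^3 ≤ (1+κ) D g + (D/2) b`. -/
private theorem s7_main (hP : IsPlane inc q) (Fp : Finset L) (S : Finset P) (u κ ρ : ℝ)
    (hreg : Reg inc q κ ρ Fp)
    (hmiss : ((Fp ∩ miss inc S).card : ℝ) ≤ u * (q:ℝ) ^ 2) :
    (q : ℝ) * (Fp.card : ℝ) - u * (q : ℝ) ^ 3 ≤
      (1 + κ) * (Fp.card : ℝ) * ((goodS inc q Fp S).card : ℝ) +
        (Fp.card : ℝ) / 2 * ((S \ goodS inc q Fp S).card : ℝ) := by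
  have hq : (0 : ℝ) < q := by
    have := hP.two_le
    exact_mod_cast (by omega : 0 < q)
  have hsub : goodS inc q Fp S ⊆ S := Finset.filter_subset _ _
  have h1 : (Fp.card : ℝ) - u * (q : ℝ) ^ 2 ≤ ((∑ l ∈ Fp, nn inc S l : ℕ) : ℝ) := by
    have h := s7_part (inc := inc) Fp S
    have h' : ((∑ l ∈ Fp, (nn inc S l - 1) : ℕ) : ℝ) + (Fp.card : ℝ) =
        ((∑ l ∈ Fp, nn inc S l : ℕ) : ℝ) + ((Fp ∩ miss inc S).card : ℝ) := by
      exact_mod_cast h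
    have h0 : (0 : ℝ) ≤ ((∑ l ∈ Fp, (nn inc S l - 1) : ℕ) : ℝ) := Nat.cast_nonneg _
    linarith
  rw [s7_dc] at h1
  have h2 : ((∑ z ∈ S, deg inc Fp z : ℕ) : ℝ) * q ≤
      (1 + κ) * (Fp.card : ℝ) * ((goodS inc q Fp S).card : ℝ) +
        (Fp.card : ℝ) / 2 * ((S \ goodS inc q Fp S).card : ℝ) := by
    rw [← Finset.sum_sdiff hsub, Nat.cast_add, add_mul, add_comm]
    apply add_le_add
    · rw [Nat.cast_sum, Finset.sum_mul]
      calc ∑ z ∈ goodS inc q Fp S, (deg inc Fp z : ℝ) * q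
          ≤ ∑ z ∈ goodS inc q Fp S, (1 + κ) * (Fp.card : ℝ) :=
            Finset.sum_le_sum fun z _ => hreg.2.2 z
        _ = _ := by rw [Finset.sum_const, nsmul_eq_mul, mul_comm]
    · rw [Nat.cast_sum, Finset.sum_mul]
      calc ∑ z ∈ S \ goodS inc q Fp S, (deg inc Fp z : ℝ) * q
          ≤ ∑ z ∈ S \ goodS inc q Fp S, (Fp.card : ℝ) / 2 := by
            refine Finset.sum_le_sum fun z hz => ?_
            rw [Finset.mem_sdiff] at hz
            have hz2 : ¬ (Fp.card ≤ 2 * q * deg inc Fp z) := fun h =>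
              hz.2 (Finset.mem_filter.2 ⟨hz.1, h⟩)
            have hz3 : ((2 * q * deg inc Fp z : ℕ) : ℝ) < (Fp.card : ℝ) := by
              exact_mod_cast not_le.1 hz2
            push_cast at hz3
            linarith
        _ = _ := by rw [Finset.sum_const, nsmul_eq_mul, mul_comm]
  have h3 : ((Fp.card : ℝ) - u * (q : ℝ) ^ 2) * q ≤ ((∑ z ∈ S, deg inc Fp z : ℕ) : ℝ) * q :=
    mul_le_mul_of_nonneg_right h1 hq.le
  have h4 : ((Fp.card : ℝ) - u * (q : ℝ) ^ 2) * q = (q : ℝ) * (Fp.card : ℝ) - u * (q : ℝ) ^ 3 := by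
    ring
  linarith

theorem overlap (hP : IsPlane inc q) (Fp : Finset L) (S : Finset P) (u κ ρ : ℝ) (hS : S.card ≤ q)
    (hreg : Reg inc q κ ρ Fp) (hκ : 0 ≤ κ) (hκu : κ ≤ u) (hmiss : ((Fp ∩ miss inc S).card : ℝ) ≤ u * (q:ℝ) ^ 2) :
    ((∑ l ∈ Fp, (nn inc S l - 1) : ℕ) : ℝ) ≤ 2 * u * (q:ℝ) ^ 2 := by
  have h := s7_part (inc := inc) Fp S
  have h' : ((∑ l ∈ Fp, (nn inc S l - 1) : ℕ) : ℝ) + (Fp.card : ℝ) =
      ((∑ l ∈ Fp, nn inc S l : ℕ) : ℝ) + ((Fp ∩ miss inc S).card : ℝ) := by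
    exact_mod_cast h
  have h1 := s7_upper hP Fp S κ ρ hS hreg hκ
  have h2 : κ * (Fp.card : ℝ) ≤ u * (q : ℝ) ^ 2 := by
    calc κ * (Fp.card : ℝ) ≤ κ * (q : ℝ) ^ 2 := mul_le_mul_of_nonneg_left hreg.2.1 hκ
      _ ≤ u * (q : ℝ) ^ 2 := mul_le_mul_of_nonneg_right hκu (by positivity)
  linarith

theorem goodpts (hP : IsPlane inc q) (Fp : Finset L) (S : Finset P) (u κ ρ : ℝ) (hS : S.card ≤ q)
    (hreg : Reg inc q κ ρ Fp) (hρ : 0 < ρ) (hκ : 0 ≤ κ) (hκu : κ ≤ u)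
    (hmiss : ((Fp ∩ miss inc S).card : ℝ) ≤ u * (q:ℝ) ^ 2) :
    ((S \ goodS inc q Fp S).card : ℝ) ≤ 4 * u * q / ρ := by
  have hq : (0 : ℝ) < q := by
    have := hP.two_le
    exact_mod_cast (by omega : 0 < q)
  have hsub : goodS inc q Fp S ⊆ S := Finset.filter_subset _ _
  have hm := s7_main hP Fp S u κ ρ hreg hmiss
  have hc : ((S \ goodS inc q Fp S).card : ℝ) + ((goodS inc q Fp S).card : ℝ) ≤ q := by
    have : (S \ goodS inc q Fp S).card + (goodS inc q Fp S).card ≤ q := by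
      rw [Finset.card_sdiff_add_card_eq_card hsub]; exact hS
    exact_mod_cast this
  set D : ℝ := (Fp.card : ℝ) with hD
  set g : ℝ := ((goodS inc q Fp S).card : ℝ) with hg
  set b : ℝ := ((S \ goodS inc q Fp S).card : ℝ) with hb
  have hb0 : 0 ≤ b := Nat.cast_nonneg _
  have hg0 : 0 ≤ g := Nat.cast_nonneg _
  have hD1 : ρ * (q : ℝ) ^ 2 ≤ D := hreg.1
  have hD2 : D ≤ (q : ℝ) ^ 2 := hreg.2.1
  have hD0 : 0 < D := lt_of_lt_of_le (by positivity) hD1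
  have hu : 0 ≤ u := hκ.trans hκu
  -- (1+κ) D g ≤ (1+κ) D (q - b)
  have e1 : (1 + κ) * D * g ≤ (1 + κ) * D * (q - b) := by
    apply mul_le_mul_of_nonneg_left (by linarith) (by positivity)
  have e2 : b * D / 2 ≤ κ * D * q + u * (q : ℝ) ^ 3 := by
    have : 0 ≤ κ * D * b := by positivity
    nlinarith
  have e3 : κ * D * q ≤ u * (q : ℝ) ^ 3 := by
    calc κ * D * q ≤ κ * (q : ℝ) ^ 2 * q := by gcongr
      _ ≤ u * (q : ℝ) ^ 2 * q := by gcongr
      _ = u * (q : ℝ) ^ 3 := by ring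
  have e4 : b * D ≤ 4 * u * (q : ℝ) ^ 3 := by linarith
  have e5 : b * (ρ * (q : ℝ) ^ 2) ≤ 4 * u * (q : ℝ) ^ 3 :=
    (mul_le_mul_of_nonneg_left hD1 hb0).trans e4
  rw [le_div_iff₀ hρ]
  have hq2 : (0 : ℝ) < (q : ℝ) ^ 2 := by positivity
  have e6 : (b * ρ) * (q : ℝ) ^ 2 ≤ (4 * u * q) * (q : ℝ) ^ 2 := by
    calc (b * ρ) * (q : ℝ) ^ 2 = b * (ρ * (q : ℝ) ^ 2) := by ring
      _ ≤ 4 * u * (q : ℝ) ^ 3 := e5
      _ = (4 * u * q) * (q : ℝ) ^ 2 := by ring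
  exact le_of_mul_le_mul_right e6 hq2

theorem goodpts' (hP : IsPlane inc q) (Fp : Finset L) (S : Finset P) (u κ ρ : ℝ) (hS : S.card ≤ q)
    (hreg : Reg inc q κ ρ Fp) (hρ : 0 < ρ) (hρ1 : ρ ≤ 1) (hκ : 0 ≤ κ) (hκu : κ ≤ u) (hu : u ≤ ρ / 32)
    (hmiss : ((Fp ∩ miss inc S).card : ℝ) ≤ u * (q:ℝ) ^ 2) :
    3 / 4 * (q : ℝ) ≤ ((goodS inc q Fp S).card : ℝ) := by
  have hq : (0 : ℝ) < q := by
    have := hP.two_le
    exact_mod_cast (by omega : 0 < q)
  have hsub : goodS inc q Fp S ⊆ S := Finset.filter_subset _ _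
  have hm := s7_main hP Fp S u κ ρ hreg hmiss
  have hc : ((S \ goodS inc q Fp S).card : ℝ) + ((goodS inc q Fp S).card : ℝ) ≤ q := by
    have : (S \ goodS inc q Fp S).card + (goodS inc q Fp S).card ≤ q := by
      rw [Finset.card_sdiff_add_card_eq_card hsub]; exact hS
    exact_mod_cast this
  set D : ℝ := (Fp.card : ℝ) with hD
  set g : ℝ := ((goodS inc q Fp S).card : ℝ) with hg
  set b : ℝ := ((S \ goodS inc q Fp S).card : ℝ) with hb
  have hb0 : 0 ≤ b := Nat.cast_nonneg _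
  have hg0 : 0 ≤ g := Nat.cast_nonneg _
  have hD1 : ρ * (q : ℝ) ^ 2 ≤ D := hreg.1
  have hD2 : D ≤ (q : ℝ) ^ 2 := hreg.2.1
  have hD0 : 0 < D := lt_of_lt_of_le (by positivity) hD1
  have hu0 : 0 ≤ u := hκ.trans hκu
  have e1 : D / 2 * b ≤ D / 2 * (q - g) :=
    mul_le_mul_of_nonneg_left (by linarith) (by positivity)
  have e2 : D * q / 2 - u * (q : ℝ) ^ 3 ≤ D * (g * (1 / 2 + κ)) := by nlinarith
  have e3 : u * (q : ℝ) ^ 3 ≤ D * q / 32 := by
    calc u * (q : ℝ) ^ 3 ≤ ρ / 32 * (q : ℝ) ^ 3 := by gcongr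
      _ = (ρ * (q : ℝ) ^ 2) * q / 32 := by ring
      _ ≤ D * q / 32 := by gcongr
  have e4 : D * (15 / 32 * q) ≤ D * (g * (1 / 2 + κ)) := by
    have : D * (15 / 32 * q) = D * q / 2 - D * q / 32 := by ring
    linarith
  have e5 : 15 / 32 * (q : ℝ) ≤ g * (1 / 2 + κ) := le_of_mul_le_mul_left e4 hD0
  have e6 : g * (1 / 2 + κ) ≤ g * (17 / 32) := by
    apply mul_le_mul_of_nonneg_left _ hg0
    linarith
  linarith

theorem poor (hP : IsPlane inc q) (Fp : Finset L) (S : Finset P) (u κ ρ δ : ℝ) (hS : S.card ≤ q) (A : ℕ)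
    (hreg : Reg inc q κ ρ Fp) (hκ : 0 ≤ κ) (hκu : κ ≤ u) (hδ : 0 < δ)
    (hmiss : ((Fp ∩ miss inc S).card : ℝ) ≤ u * (q:ℝ) ^ 2) :
    (((goodS inc q Fp S).filter (fun z => δ * (q:ℝ) ≤ (pp inc A Fp (goodS inc q Fp S) z : ℝ))).card : ℝ) ≤
      2 * A * u * q / δ := by
  have hq : (0 : ℝ) < q := by
    have := hP.two_le
    exact_mod_cast (by omega : 0 < q)
  set G := goodS inc q Fp S with hG
  have hsub : G ⊆ S := Finset.filter_subset _ _
  have hov := overlap hP Fp S u κ ρ hS hreg hκ hκu hmiss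
  -- sum of poor partners
  have h1 : ∑ z ∈ G, pp inc A Fp G z =
      ∑ l ∈ Fp.filter (fun l => nn inc G l ≤ A), nn inc G l * (nn inc G l - 1) := by
    unfold pp
    have e : ∀ z : P, ∑ l ∈ Fp.filter (fun l => inc z l ∧ nn inc G l ≤ A), (nn inc G l - 1) =
        ∑ l ∈ Fp.filter (fun l => nn inc G l ≤ A), if inc z l then (nn inc G l - 1) else 0 := by
      intro z
      rw [← Finset.sum_filter, Finset.filter_filter]
      refine Finset.sum_congr ?_ fun _ _ => rfl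
      ext l
      simp only [Finset.mem_filter]
      tauto
    simp only [e]
    rw [Finset.sum_comm]
    refine Finset.sum_congr rfl fun l _ => ?_
    rw [← Finset.sum_filter, Finset.sum_const, smul_eq_mul]
    rfl
  have h2 : ∑ z ∈ G, pp inc A Fp G z ≤ A * ∑ l ∈ Fp, (nn inc S l - 1) := by
    rw [h1, Finset.mul_sum]
    calc ∑ l ∈ Fp.filter (fun l => nn inc G l ≤ A), nn inc G l * (nn inc G l - 1)
        ≤ ∑ l ∈ Fp.filter (fun l => nn inc G l ≤ A), A * (nn inc S l - 1) := by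
          refine Finset.sum_le_sum fun l hl => ?_
          rw [Finset.mem_filter] at hl
          have hmono : nn inc G l ≤ nn inc S l := by
            unfold nn
            exact Finset.card_le_card (Finset.filter_subset_filter _ hsub)
          exact Nat.mul_le_mul hl.2 (by omega)
      _ ≤ ∑ l ∈ Fp, A * (nn inc S l - 1) :=
          Finset.sum_le_sum_of_subset (Finset.filter_subset _ _)
  have h3 : ((∑ z ∈ G, pp inc A Fp G z : ℕ) : ℝ) ≤ A * (2 * u * (q : ℝ) ^ 2) := by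
    calc ((∑ z ∈ G, pp inc A Fp G z : ℕ) : ℝ) ≤ ((A * ∑ l ∈ Fp, (nn inc S l - 1) : ℕ) : ℝ) := by
          exact_mod_cast h2
      _ = A * ((∑ l ∈ Fp, (nn inc S l - 1) : ℕ) : ℝ) := by push_cast; ring
      _ ≤ A * (2 * u * (q : ℝ) ^ 2) := mul_le_mul_of_nonneg_left hov (Nat.cast_nonneg _)
  set B := G.filter (fun z => δ * (q:ℝ) ≤ (pp inc A Fp G z : ℝ)) with hB
  have h4 : (B.card : ℝ) * (δ * q) ≤ ((∑ z ∈ G, pp inc A Fp G z : ℕ) : ℝ) := by
    rw [Nat.cast_sum]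
    calc (B.card : ℝ) * (δ * q) = ∑ z ∈ B, δ * (q : ℝ) := by rw [Finset.sum_const, nsmul_eq_mul]
      _ ≤ ∑ z ∈ B, (pp inc A Fp G z : ℝ) :=
          Finset.sum_le_sum fun z hz => (Finset.mem_filter.1 hz).2
      _ ≤ ∑ z ∈ G, (pp inc A Fp G z : ℝ) :=
          Finset.sum_le_sum_of_subset_of_nonneg (Finset.filter_subset _ _)
            fun _ _ _ => Nat.cast_nonneg _
  have h5 : (B.card : ℝ) * δ * q ≤ 2 * A * u * q * q := by
    calc (B.card : ℝ) * δ * q = (B.card : ℝ) * (δ * q) := by ring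
      _ ≤ A * (2 * u * (q : ℝ) ^ 2) := h4.trans h3
      _ = 2 * A * u * q * q := by ring
  rw [le_div_iff₀ hδ]
  exact le_of_mul_le_mul_right h5 hq

end Crest.Agent.RY
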