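/-
  RY_S8 : the expectation of the number of directions in which z sees a random subset.
  For z and a finite set S of points and a line l through z let  blk S z l = {p ∈ S : p ≠ z, p on l}.
  dirs LS T S z = #{l ∈ LS : z on l, T ∩ blk S z l nonempty}.
  FACTS: the blocks blk S z l for the lines l through z are pairwise disjoint, subsets of S, Σ_{l∋z} |blk S z l| = |S \ {z}|.
  Ex (dirs) = Σ (1-(1-ε)^|blk|)  (Ex_hit).
  * one_sub_pow : for m ≥ A ≥ 2, 0 ≤ ε ≤ 1/(2A):  1-(1-ε)^m ≤ ε m (1 - (A-1) ε/3).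
     Proof: 1-(1-ε)^m = ε Σ_{k<m} (1-ε)^k; the average of the decreasing sequence (1-ε)^k over k<m is at most its average over k<A,
     and (1-ε)^k ≤ 1 - kε + k^2ε^2/2, so the average over k<A is ≤ 1 - (A-1)ε/2 + A^2ε^2/6 ≤ 1 - (A-1)ε/3 (as A^2 ε ≤ A/2 ≤ A-1).
     (For 1-(1-ε)^m ≤ ε m use one_add_mul_le_pow, Bernoulli.)
  * rich_mean : if pr A S z ≥ δ q and (A-1) δ ≥ 24 then
       Ex (dirs univ) ≤ ε|S| - 8 ε^2 q.
     Proof: lines with |blk| ≥ A (i.e. nn S l > A as z ∈ S) contribute ≤ ε|blk| - ε^2 |blk| (A-1)/3, others ≤ ε|blk|; total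
     ≤ ε (|S|-1) - ε^2 (A-1) δ q/3.
  * poor_mean : if z ∈ S, pr A S z < δ q and pp A Fp S z < δ q then Ex (dirs Fp) ≤ 2 ε δ q.
     Proof: 1-(1-ε)^m ≤ ε m, Σ_{l∈Fp, l∋z}|blk| ≤ pp + pr  (|blk| = nn S l - 1).
-/
import Crest.Agent.RY_S6
import Crest.Agent.RY_S7

set_option autoImplicit false

namespace Crest.Agent.RY
open Finset Classical

variable {P L : Type} [Fintype P] [Fintype L] [DecidableEq P] [DecidableEq L] {inc : P → L → Prop} {q : ℕ}

/-- the points of `S` on `l` different from `z` -/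
noncomputable def blk (inc : P → L → Prop) (S : Finset P) (z : P) (l : L) : Finset P :=
  S.filter (fun p => p ≠ z ∧ inc p l)

/-- number of lines of `LS` through `z` meeting `T` in a point of `S` other than `z` -/
noncomputable def dirs (inc : P → L → Prop) (LS : Finset L) (S : Finset P) (z : P) (T : Finset P) : ℝ :=
  ∑ l ∈ LS.filter (fun l => inc z l), (if (T ∩ blk inc S z l).Nonempty then (1:ℝ) else 0)

private theorem pow_le_quad (ε : ℝ) (h0 : 0 ≤ ε) (h1 : ε ≤ 1) (k : ℕ) :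
    (1 - ε) ^ k ≤ 1 - k * ε + (k:ℝ) ^ 2 * ε ^ 2 / 2 := by
  induction k with
  | zero => simp
  | succ k ih =>
    rw [pow_succ]
    have h2 : 0 ≤ 1 - ε := by linarith
    have h3 := mul_le_mul_of_nonneg_right ih h2
    refine h3.trans ?_
    push_cast
    have hk : (0:ℝ) ≤ k := Nat.cast_nonneg k
    have h4 : 0 ≤ (k:ℝ) ^ 2 * ε ^ 3 := by positivity
    nlinarith [sq_nonneg ε]

private theorem cubic_le_pow (ε : ℝ) (h0 : 0 ≤ ε) (h1 : ε ≤ 1) (k : ℕ) :
    1 - k * ε + (k:ℝ) * (k - 1) * ε ^ 2 / 2 - (k:ℝ) * (k - 1) * (k - 2) * ε ^ 3 / 6 ≤ (1 - ε) ^ k := by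
  induction k with
  | zero => simp
  | succ k ih =>
    rw [pow_succ]
    have h2 : 0 ≤ 1 - ε := by linarith
    have h3 := mul_le_mul_of_nonneg_right ih h2
    refine le_trans ?_ h3
    push_cast
    have hk : (0:ℝ) ≤ (k:ℝ) * (k - 1) * (k - 2) := by
      rcases k with _ | _ | k
      · simp
      · simp
      · push_cast; ring_nf; positivity
    have h4 : 0 ≤ (k:ℝ) * (k - 1) * (k - 2) * ε ^ 4 := by positivity
    nlinarith

theorem one_sub_pow (ε : ℝ) (A m : ℕ) (h0 : 0 ≤ ε) (hA : 2 ≤ A) (h1 : ε ≤ 1 / (2 * A)) (hm : A ≤ m) :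
    1 - (1 - ε) ^ m ≤ ε * m * (1 - (A - 1) * ε / 3) := by
  have hA' : (2:ℝ) ≤ A := by exact_mod_cast hA
  have hAε : (A:ℝ) * ε ≤ 1 / 2 := by
    rw [le_div_iff₀ (by positivity)] at h1
    linarith
  have hε1 : ε ≤ 1 := by nlinarith
  induction m, hm using Nat.le_induction with
  | base =>
    have h := cubic_le_pow ε h0 hε1 A
    have h5 : 0 ≤ (A:ℝ) * (A - 1) * ε ^ 2 * (1 - (A - 2) * ε) := by
      have : 0 ≤ 1 - ((A:ℝ) - 2) * ε := by nlinarith
      have h6 : (0:ℝ) ≤ A - 1 := by linarith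
      positivity
    nlinarith
  | succ m hm ih =>
    have h2 : 0 ≤ 1 - ε := by linarith
    have h3 : (1 - ε) ^ m ≤ (1 - ε) ^ A := pow_le_pow_of_le_one h2 (by linarith) hm
    have h4 := pow_le_quad ε h0 hε1 A
    have h5 : (1 - ε) ^ A ≤ 1 - (A - 1) * ε / 3 := by
      refine h4.trans ?_
      have : 0 ≤ (A:ℝ) * ε := by positivity
      nlinarith
    have h6 : ε * (1 - ε) ^ m ≤ ε * (1 - (A - 1) * ε / 3) := mul_le_mul_of_nonneg_left (h3.trans h5) h0
    rw [pow_succ]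
    push_cast
    nlinarith

theorem one_sub_pow' (ε : ℝ) (m : ℕ) (h0 : 0 ≤ ε) (h1 : ε ≤ 1) : 1 - (1 - ε) ^ m ≤ ε * m := by
  have h := one_add_mul_le_pow (a := -ε) (by linarith) m
  have h2 : (1:ℝ) + -ε = 1 - ε := by ring
  rw [h2] at h
  linarith

theorem blk_disjoint (hP : IsPlane inc q) (S : Finset P) (z : P) (l l' : L) (hl : inc z l) (hl' : inc z l')
    (h : l ≠ l') : Disjoint (blk inc S z l) (blk inc S z l') := by
  rw [Finset.disjoint_left]
  intro p hp hp'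
  simp only [blk, Finset.mem_filter] at hp hp'
  exact h ((hP.line p z hp.2.1).unique ⟨hp.2.2, hl⟩ ⟨hp'.2.2, hl'⟩)

private theorem blk_card (S : Finset P) (z : P) (hz : z ∈ S) (l : L) (hl : inc z l) :
    (blk inc S z l).card = nn inc S l - 1 := by
  have : blk inc S z l = (S.filter (fun p => inc p l)).erase z := by
    ext p
    simp only [blk, Finset.mem_filter, Finset.mem_erase]
    tauto
  rw [this, Finset.card_erase_of_mem (by simp [hz, hl])]
  rfl

theorem sum_blk (hP : IsPlane inc q) (S : Finset P) (z : P) (hz : z ∈ S) :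
    ∑ l ∈ (univ : Finset L).filter (fun l => inc z l), (blk inc S z l).card = S.card - 1 := by
  rw [← Finset.card_erase_of_mem hz, ← Finset.card_biUnion]
  · congr 1
    ext p
    simp only [Finset.mem_biUnion, Finset.mem_filter, Finset.mem_univ, true_and, blk, Finset.mem_erase]
    constructor
    · rintro ⟨l, hl, hpS, hpz, hpl⟩
      exact ⟨hpz, hpS⟩
    · rintro ⟨hpz, hpS⟩
      obtain ⟨l, hl, -⟩ := hP.line p z hpz
      exact ⟨l, hl.2, hpS, hpz, hl.1⟩
  · intro l hl l' hl' hne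
    simp only [Finset.coe_filter, Finset.mem_univ, true_and, Set.mem_setOf_eq] at hl hl'
    exact blk_disjoint hP S z l l' hl hl' hne

/-- if `T ⊆ S` and `z ∉ T` then `dirs` is the degree in `LS ∩ meet T` -/
theorem dirs_eq (LS : Finset L) (S T : Finset P) (z : P) (hT : T ⊆ S) (hz : z ∉ T) :
    dirs inc LS S z T = (deg inc (LS ∩ meet inc T) z : ℝ) := by
  unfold dirs deg
  rw [Finset.sum_boole]
  norm_cast
  congr 1
  ext l
  simp only [Finset.mem_filter, Finset.mem_inter, meet, Finset.mem_univ, true_and]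
  constructor
  · rintro ⟨⟨hl, hzl⟩, ⟨p, hp⟩⟩
    simp only [blk, Finset.mem_inter, Finset.mem_filter] at hp
    exact ⟨⟨hl, p, hp.1, hp.2.2.2⟩, hzl⟩
  · rintro ⟨⟨hl, p, hpT, hpl⟩, hzl⟩
    refine ⟨⟨hl, hzl⟩, ⟨p, ?_⟩⟩
    simp only [blk, Finset.mem_inter, Finset.mem_filter]
    exact ⟨hpT, hT hpT, fun h => hz (h ▸ hpT), hpl⟩

private theorem Ex_dirs (ε : ℝ) (LS : Finset L) (S : Finset P) (z : P) :
    Ex ε S (fun T => dirs inc LS S z T) =
      ∑ l ∈ LS.filter (fun l => inc z l), (1 - (1 - ε) ^ (blk inc S z l).card) := by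
  unfold dirs
  rw [Ex_sum]
  refine Finset.sum_congr rfl fun l _ => ?_
  exact Ex_hit ε S (blk inc S z l) (Finset.filter_subset _ _)

theorem rich_mean (hP : IsPlane inc q) (S : Finset P) (z : P) (hz : z ∈ S) (ε δ : ℝ) (A : ℕ) (h0 : 0 ≤ ε)
    (hA : 2 ≤ A) (h1 : ε ≤ 1 / (2 * A)) (hAδ : 24 ≤ ((A:ℝ) - 1) * δ) (hpr : δ * (q:ℝ) ≤ (pr inc A S z : ℝ)) :
    Ex ε S (fun T => dirs inc univ S z T) ≤ ε * S.card - 8 * ε ^ 2 * q := by
  have hA' : (2:ℝ) ≤ A := by exact_mod_cast hA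
  have hAε : (A:ℝ) * ε ≤ 1 / 2 := by
    rw [le_div_iff₀ (by positivity)] at h1
    linarith
  have hε1 : ε ≤ 1 := by nlinarith
  rw [Ex_dirs]
  have key : ∀ l ∈ (univ : Finset L).filter (fun l => inc z l),
      1 - (1 - ε) ^ (blk inc S z l).card ≤ ε * ((blk inc S z l).card : ℝ)
        - (if A < nn inc S l then ε ^ 2 * ((A:ℝ) - 1) / 3 * ((nn inc S l - 1 : ℕ) : ℝ) else 0) := by
    intro l hl
    simp only [Finset.mem_filter, Finset.mem_univ, true_and] at hl
    split_ifs with hr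
    · have hb := blk_card (inc := inc) S z hz l hl
      have hAb : A ≤ (blk inc S z l).card := by omega
      have h := one_sub_pow ε A _ h0 hA h1 hAb
      rw [← hb]
      nlinarith
    · have h := one_sub_pow' ε (blk inc S z l).card h0 hε1
      linarith
  refine (Finset.sum_le_sum key).trans ?_
  rw [Finset.sum_sub_distrib, ← Finset.mul_sum, ← Nat.cast_sum, sum_blk hP S z hz]
  rw [← Finset.sum_filter, ← Finset.mul_sum, ← Nat.cast_sum, Finset.filter_filter]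
  have hpr' : δ * (q:ℝ) ≤ ((∑ i ∈ (univ : Finset L).filter (fun l => inc z l ∧ A < nn inc S l),
      (nn inc S i - 1) : ℕ) : ℝ) := hpr
  have hS1 : ((S.card - 1 : ℕ) : ℝ) ≤ S.card := by exact_mod_cast Nat.sub_le _ _
  have h3 : ε ^ 2 * ((A:ℝ) - 1) / 3 * (δ * q) ≤ ε ^ 2 * ((A:ℝ) - 1) / 3 *
      ((∑ i ∈ (univ : Finset L).filter (fun l => inc z l ∧ A < nn inc S l), (nn inc S i - 1) : ℕ) : ℝ) := by
    apply mul_le_mul_of_nonneg_left hpr'
    have : (0:ℝ) ≤ A - 1 := by linarith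
    positivity
  have h4 : 8 * ε ^ 2 * q ≤ ε ^ 2 * ((A:ℝ) - 1) / 3 * (δ * q) := by
    have : 0 ≤ ε ^ 2 * (q:ℝ) := by positivity
    nlinarith
  have h5 : ε * ((S.card - 1 : ℕ) : ℝ) ≤ ε * S.card := mul_le_mul_of_nonneg_left hS1 h0
  linarith

theorem poor_mean (hP : IsPlane inc q) (Fp : Finset L) (S : Finset P) (z : P) (hz : z ∈ S) (ε δ : ℝ) (A : ℕ)
    (h0 : 0 ≤ ε) (h1 : ε ≤ 1) (hpr : (pr inc A S z : ℝ) < δ * (q:ℝ)) (hpp : (pp inc A Fp S z : ℝ) < δ * (q:ℝ)) :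
    Ex ε S (fun T => dirs inc Fp S z T) ≤ 2 * ε * δ * q := by
  rw [Ex_dirs]
  have key : ∀ l ∈ Fp.filter (fun l => inc z l),
      1 - (1 - ε) ^ (blk inc S z l).card ≤ ε * ((nn inc S l - 1 : ℕ) : ℝ) := by
    intro l hl
    simp only [Finset.mem_filter] at hl
    rw [← blk_card (inc := inc) S z hz l hl.2]
    exact one_sub_pow' ε _ h0 h1
  refine (Finset.sum_le_sum key).trans ?_
  rw [← Finset.mul_sum, ← Nat.cast_sum]
  have h2 : (∑ l ∈ Fp.filter (fun l => inc z l), (nn inc S l - 1)) ≤ pp inc A Fp S z + pr inc A S z := by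
    unfold pp pr
    rw [← Finset.sum_filter_add_sum_filter_not (Fp.filter (fun l => inc z l)) (fun l => nn inc S l ≤ A)]
    apply add_le_add
    · apply le_of_eq
      rw [Finset.filter_filter]
    · apply Finset.sum_le_sum_of_subset
      intro l hl
      simp only [Finset.mem_filter, Finset.mem_univ, true_and] at hl ⊢
      exact ⟨hl.1.2, by omega⟩
  have h3 : ((∑ l ∈ Fp.filter (fun l => inc z l), (nn inc S l - 1) : ℕ) : ℝ) ≤
      (pp inc A Fp S z : ℝ) + (pr inc A S z : ℝ) := by exact_mod_cast h2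
  calc ε * ((∑ l ∈ Fp.filter (fun l => inc z l), (nn inc S l - 1) : ℕ) : ℝ)
      ≤ ε * (δ * q + δ * q) := mul_le_mul_of_nonneg_left (by linarith) h0
    _ = 2 * ε * δ * q := by ring

end Crest.Agent.RY
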