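import Mathlib

set_option autoImplicit false

namespace Crest.Agent.S0010

/-- A "logarithm" on a field `K` with values in an `L`-vector space `V`, whose kernel is a
subfield `K0`, which satisfies the Steinberg parallelism, and whose image is not on a line. -/
structure LogSys {K L V : Type*} [Field K] [Field L] [AddCommGroup V] [Module L V]
    (K0 : Subfield K) (om : K → V) : Prop where
  mul : ∀ u v : K, u ≠ 0 → v ≠ 0 → om (u * v) = om u + om v
  ker : ∀ u : K, u ≠ 0 → (om u = 0 ↔ u ∈ K0)
  st : ∀ u : K, u ∉ K0 → ∃ F : L, om (1 - u) = F • om u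
  ind : ∃ w1 w2 : K, w1 ≠ 0 ∧ w2 ≠ 0 ∧ ∀ a b : L, a • om w1 + b • om w2 = 0 → a = 0 ∧ b = 0
  two : (2 : K) = 0 → (2 : L) = 0

namespace LogSys

variable {K L V : Type*} [Field K] [Field L] [AddCommGroup V] [Module L V]
variable {K0 : Subfield K} {om : K → V}

/-- Independence of the logarithms of `u` and `v`. -/
def Ind (L : Type*) {K V : Type*} [Field K] [Field L] [AddCommGroup V] [Module L V]
    (om : K → V) (u v : K) : Prop :=
  ∀ a b : L, a • om u + b • om v = 0 → a = 0 ∧ b = 0

/-- The relation defining the value `z` of the reconstructed homomorphism at `u`. -/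
def R {K L V : Type*} [Field K] [Field L] [AddCommGroup V] [Module L V]
    (om : K → V) (u : K) (z : L) : Prop :=
  (z - 1) • om (1 - u) = z • om u

theorem ne_zero_of_not_mem {u : K} (hu : u ∉ K0) : u ≠ 0 := by
  rintro rfl; exact hu K0.zero_mem

theorem ne_one_of_not_mem {u : K} (hu : u ∉ K0) : u ≠ 1 := by
  rintro rfl; exact hu K0.one_mem

theorem one_sub_not_mem {u : K} (hu : u ∉ K0) : 1 - u ∉ K0 := by
  intro h
  apply hu
  have := K0.sub_mem K0.one_mem h
  simpa using this

theorem inv_not_mem {u : K} (hu : u ∉ K0) : u⁻¹ ∉ K0 := by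
  intro h
  apply hu
  have := K0.inv_mem h
  simpa using this

theorem neg_not_mem {u : K} (hu : u ∉ K0) : -u ∉ K0 := by
  intro h
  apply hu
  have := K0.neg_mem h
  simpa using this

theorem mul_not_mem {a u : K} (ha : a ∈ K0) (ha0 : a ≠ 0) (hu : u ∉ K0) : a * u ∉ K0 := by
  intro h
  apply hu
  have := K0.mul_mem (K0.inv_mem ha) h
  rwa [inv_mul_cancel_left₀ ha0] at this

theorem one_add_not_mem {u : K} (hu : u ∉ K0) : 1 + u ∉ K0 := by
  intro h
  apply hu
  have := K0.sub_mem h K0.one_mem
  simpa using this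

variable (h : LogSys (L := L) K0 om)

include h

theorem om_ne {u : K} (hu : u ∉ K0) : om u ≠ 0 := fun h0 =>
  hu ((h.ker u (ne_zero_of_not_mem hu)).1 h0)

theorem om_one : om 1 = 0 := (h.ker 1 one_ne_zero).2 K0.one_mem

theorem om_neg_one : om (-1) = 0 :=
  (h.ker (-1) (neg_ne_zero.2 one_ne_zero)).2 (K0.neg_mem K0.one_mem)

theorem om_inv {u : K} (hu : u ≠ 0) : om u⁻¹ = - om u := by
  have := h.mul u u⁻¹ hu (inv_ne_zero hu)
  rw [mul_inv_cancel₀ hu, h.om_one] at this
  rw [eq_neg_iff_add_eq_zero, add_comm, ← this]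

theorem om_neg {u : K} (hu : u ≠ 0) : om (-u) = om u := by
  have := h.mul (-1) u (neg_ne_zero.2 one_ne_zero) hu
  rw [h.om_neg_one, zero_add] at this
  rw [← this]; congr 1; ring

theorem om_div {u v : K} (hu : u ≠ 0) (hv : v ≠ 0) : om (u / v) = om u - om v := by
  rw [div_eq_mul_inv, h.mul u v⁻¹ hu (inv_ne_zero hv), h.om_inv hv, sub_eq_add_neg]

theorem om_sub_comm {u v : K} (huv : u ≠ v) : om (u - v) = om (v - u) := by
  rw [← h.om_neg (sub_ne_zero.2 huv.symm)]; congr 1; ring

theorem om_const_mul {a u : K} (ha : a ∈ K0) (ha0 : a ≠ 0) (hu : u ≠ 0) :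
    om (a * u) = om u := by
  rw [h.mul a u ha0 hu, (h.ker a ha0).2 ha, zero_add]

theorem R_unique {u : K} (hu : u ∉ K0) {z z' : L} (hz : R om u z) (hz' : R om u z') : z = z' := by
  unfold R at hz hz'
  have hu0 := ne_zero_of_not_mem hu
  have hu1 : (1 - u) ≠ 0 := sub_ne_zero.2 (ne_one_of_not_mem hu).symm
  have key : (z - z') • (om (1 - u) - om u) = 0 := by
    have e : (z - z') • (om (1 - u) - om u)
        = ((z - 1) • om (1 - u) - z • om u) - ((z' - 1) • om (1 - u) - z' • om u) := by
      module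
    rw [e, hz, hz']; simp
  rcases smul_eq_zero.1 key with h1 | h1
  · exact sub_eq_zero.1 h1
  · exfalso
    rw [← h.om_div hu1 hu0] at h1
    have h2 := (h.ker _ (div_ne_zero hu1 hu0)).1 h1
    have h3 : (1 - u) / u = u⁻¹ - 1 := by field_simp
    rw [h3] at h2
    have h4 := K0.add_mem h2 K0.one_mem
    rw [sub_add_cancel] at h4
    exact inv_not_mem hu h4

theorem R_ne_zero {u : K} (hu : u ∉ K0) {z : L} (hz : R om u z) : z ≠ 0 := by
  rintro rfl
  unfold R at hz
  simp only [zero_sub, neg_smul, one_smul, zero_smul, neg_eq_zero] at hz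
  exact h.om_ne (one_sub_not_mem hu) hz

theorem R_ne_one {u : K} (hu : u ∉ K0) {z : L} (hz : R om u z) : z ≠ 1 := by
  rintro rfl
  unfold R at hz
  simp only [sub_self, zero_smul, one_smul] at hz
  exact h.om_ne hu hz.symm

theorem R_exists {u : K} (hu : u ∉ K0) : ∃ z : L, R om u z := by
  obtain ⟨F, hF⟩ := h.st u hu
  have hu0 := ne_zero_of_not_mem hu
  have hu1 : (1 - u) ≠ 0 := sub_ne_zero.2 (ne_one_of_not_mem hu).symm
  have hF1 : F - 1 ≠ 0 := by
    intro hF1
    have hF2 : F = 1 := sub_eq_zero.1 hF1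
    rw [hF2, one_smul] at hF
    have h1 : om ((1 - u) / u) = 0 := by rw [h.om_div hu1 hu0, hF, sub_self]
    have h2 := (h.ker _ (div_ne_zero hu1 hu0)).1 h1
    have h3 : (1 - u) / u = u⁻¹ - 1 := by field_simp
    rw [h3] at h2
    have h4 := K0.add_mem h2 K0.one_mem
    rw [sub_add_cancel] at h4
    exact inv_not_mem hu h4
  refine ⟨F / (F - 1), ?_⟩
  unfold R
  rw [hF, smul_smul]
  congr 1
  field_simp
  ring

omit h in
theorem R_one_sub {u : K} {z : L} (hz : R om u z) : R om (1 - u) (1 - z) := by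
  unfold R at *
  have : (1 : K) - (1 - u) = u := by ring
  rw [this]
  have e : (1 - z - 1) • om u = - (z • om u) := by module
  rw [e, ← hz]; module

theorem R_inv {u : K} (hu : u ∉ K0) {z : L} (hz : R om u z) : R om u⁻¹ z⁻¹ := by
  have hz0 := h.R_ne_zero hu hz
  have hu0 := ne_zero_of_not_mem hu
  have hu1 : (1 - u) ≠ 0 := sub_ne_zero.2 (ne_one_of_not_mem hu).symm
  unfold R at *
  have e1 : (1 : K) - u⁻¹ = -(1 - u) / u := by field_simp; ring
  rw [e1, h.om_div (neg_ne_zero.2 hu1) hu0, h.om_neg hu1, h.om_inv hu0]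
  have e2 : (z⁻¹ - 1) • (om (1 - u) - om u) = - (z⁻¹ • ((z - 1) • om (1 - u))) + (z⁻¹ * (z - 1)) • om u := by
    rw [smul_smul]
    have : z⁻¹ - 1 = - (z⁻¹ * (z - 1)) := by field_simp; ring
    rw [this]; module
  rw [e2, hz, smul_smul]
  have e3 : z⁻¹ * z = 1 := inv_mul_cancel₀ hz0
  rw [e3]
  have e4 : z⁻¹ * (z - 1) = 1 - z⁻¹ := by field_simp
  rw [e4]; module

theorem Ind.left {u v : K} (hu : u ≠ 0) (hi : Ind L om u v) : u ∉ K0 := by
  intro hu'
  have h0 := (h.ker u hu).2 hu'
  have := (hi 1 0 (by rw [h0]; simp)).1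
  exact one_ne_zero this

theorem Ind.right {u v : K} (hv : v ≠ 0) (hi : Ind L om u v) : v ∉ K0 := by
  intro hv'
  have h0 := (h.ker v hv).2 hv'
  have := (hi 0 1 (by rw [h0]; simp)).2
  exact one_ne_zero this

theorem R_div {u v : K} (hu0 : u ≠ 0) (hv0 : v ≠ 0) (hi : Ind L om u v)
    {z w : L} (hz : R om u z) (hw : R om v w) : R om (u / v) (z / w) := by
  have hu : u ∉ K0 := Ind.left h hu0 hi
  have hv : v ∉ K0 := Ind.right h hv0 hi
  have hz0 := h.R_ne_zero hu hz
  have hw0 := h.R_ne_zero hv hw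
  have hz1 := h.R_ne_one hu hz
  have hw1 := h.R_ne_one hv hw
  have hu1 : (1 - u) ≠ 0 := sub_ne_zero.2 (ne_one_of_not_mem hu).symm
  have hv1 : (1 - v) ≠ 0 := sub_ne_zero.2 (ne_one_of_not_mem hv).symm
  have huv : u ≠ v := by
    rintro rfl
    have := (hi 1 (-1) (by module)).1
    exact one_ne_zero this
  have huv0 : v - u ≠ 0 := sub_ne_zero.2 huv.symm
  -- u / v ∉ K0
  have hdiv : u / v ∉ K0 := by
    intro hc
    have h1 := (h.ker _ (div_ne_zero hu0 hv0)).2 hc
    rw [h.om_div hu0 hv0] at h1
    have := (hi 1 (-1) (by rw [← h1]; module)).1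
    exact one_ne_zero this
  unfold R at hz hw
  have hdiv1 : (1 - u) / (1 - v) ∉ K0 := by
    intro hc
    have h1 := (h.ker _ (div_ne_zero hu1 hv1)).2 hc
    rw [h.om_div hu1 hv1] at h1
    -- multiply by (z-1)(w-1)
    have h2 : ((w - 1) * z) • om u + (-((z - 1) * w)) • om v = 0 := by
      have e : ((w - 1) * z) • om u + (-((z - 1) * w)) • om v
          = (w - 1) • (z • om u) - (z - 1) • (w • om v) := by module
      rw [e, ← hz, ← hw]
      have e' : (w - 1) • (z - 1) • om (1 - u) - (z - 1) • (w - 1) • om (1 - v)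
          = ((w - 1) * (z - 1)) • (om (1 - u) - om (1 - v)) := by module
      rw [e', h1, smul_zero]
    have h3 := (hi _ _ h2).1
    rcases mul_eq_zero.1 h3 with h4 | h4
    · exact hw1 (sub_eq_zero.1 h4)
    · exact hz0 h4
  obtain ⟨a, ha⟩ := h.st _ hdiv
  obtain ⟨b, hb⟩ := h.st _ hdiv1
  have e1 : (1 : K) - u / v = (v - u) / v := by field_simp
  have e2 : (1 : K) - (1 - u) / (1 - v) = (u - v) / (1 - v) := by field_simp; ring
  rw [e1, h.om_div huv0 hv0, h.om_div hu0 hv0] at ha
  rw [e2, h.om_div (sub_ne_zero.2 huv) hv1, h.om_div hu1 hv1, h.om_sub_comm huv] at hb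
  -- T = om (v - u)
  set T := om (v - u) with hT
  set X := om u
  set Y := om v
  set X1 := om (1 - u)
  set Y1 := om (1 - v)
  have hTa : T = a • X + (1 - a) • Y := by
    have : T = a • (X - Y) + Y := by rw [← ha]; module
    rw [this]; module
  have hTb : T = b • X1 + (1 - b) • Y1 := by
    have : T = b • (X1 - Y1) + Y1 := by rw [← hb]; module
    rw [this]; module
  have h5 : ((z - 1) * (w - 1) * a - b * (w - 1) * z) • X
      + ((z - 1) * (w - 1) * (1 - a) - (1 - b) * (z - 1) * w) • Y = 0 := by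
    have e3 : ((z - 1) * (w - 1) * a - b * (w - 1) * z) • X
      + ((z - 1) * (w - 1) * (1 - a) - (1 - b) * (z - 1) * w) • Y
      = ((z - 1) * (w - 1)) • (a • X + (1 - a) • Y) - (b * (w - 1)) • (z • X)
        - ((1 - b) * (z - 1)) • (w • Y) := by module
    rw [e3, ← hTa, ← hz, ← hw, hTb]; module
  obtain ⟨h6, h7⟩ := hi _ _ h5
  have hw1' : w - 1 ≠ 0 := sub_ne_zero.2 hw1
  have hz1' : z - 1 ≠ 0 := sub_ne_zero.2 hz1
  have h8 : (z - 1) * a = b * z := by
    have : (w - 1) * ((z - 1) * a - b * z) = 0 := by linear_combination h6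
    rcases mul_eq_zero.1 this with h9 | h9
    · exact absurd h9 hw1'
    · exact sub_eq_zero.1 h9
  have h9 : (w - 1) * (1 - a) = (1 - b) * w := by
    have : (z - 1) * ((w - 1) * (1 - a) - (1 - b) * w) = 0 := by linear_combination h7
    rcases mul_eq_zero.1 this with h9 | h9
    · exact absurd h9 hz1'
    · exact sub_eq_zero.1 h9
  have h10 : (z - w) * a = z := by linear_combination z * h9 + w * h8
  unfold R
  rw [e1, h.om_div huv0 hv0, h.om_div hu0 hv0]
  change (z / w - 1) • (T - Y) = (z / w) • (X - Y)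
  rw [ha, smul_smul]
  congr 1
  field_simp
  linear_combination h10

/-- The value of the reconstructed map at `u` (only meaningful for `u ∉ K0`). -/
noncomputable def zf (L : Type*) {K V : Type*} [Field K] [Field L] [AddCommGroup V] [Module L V]
    (om : K → V) (u : K) : L :=
  open Classical in if h : ∃ z : L, R om u z then h.choose else 0

theorem zf_R {u : K} (hu : u ∉ K0) : R om u (zf L om u) := by
  have he := h.R_exists hu
  unfold zf
  rw [dif_pos he]
  exact he.choose_spec

theorem zf_eq {u : K} (hu : u ∉ K0) {z : L} (hz : R om u z) : zf L om u = z :=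
  h.R_unique hu (h.zf_R hu) hz

theorem zf_ne_zero {u : K} (hu : u ∉ K0) : zf L om u ≠ 0 := h.R_ne_zero hu (h.zf_R hu)

theorem zf_one_sub {u : K} (hu : u ∉ K0) : zf L om (1 - u) = 1 - zf L om u :=
  h.zf_eq (one_sub_not_mem hu) (R_one_sub (h.zf_R hu))

theorem zf_inv {u : K} (hu : u ∉ K0) : zf L om u⁻¹ = (zf L om u)⁻¹ :=
  h.zf_eq (inv_not_mem hu) (h.R_inv hu (h.zf_R hu))

theorem zf_div_ind {u v : K} (hu0 : u ≠ 0) (hv0 : v ≠ 0) (hi : Ind L om u v) :
    zf L om (u / v) = zf L om u / zf L om v := by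
  have hu : u ∉ K0 := Ind.left h hu0 hi
  have hv : v ∉ K0 := Ind.right h hv0 hi
  have hdiv : u / v ∉ K0 := by
    intro hc
    have h1 := (h.ker _ (div_ne_zero hu0 hv0)).2 hc
    rw [h.om_div hu0 hv0] at h1
    have := (hi 1 (-1) (by rw [← h1]; module)).1
    exact one_ne_zero this
  exact h.zf_eq hdiv (h.R_div hu0 hv0 hi (h.zf_R hu) (h.zf_R hv))

theorem zf_mul_ind {u v : K} (hu0 : u ≠ 0) (hv0 : v ≠ 0) (hi : Ind L om u v) :
    zf L om (u * v) = zf L om u * zf L om v := by
  have hv : v ∉ K0 := Ind.right h hv0 hi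
  have hi' : Ind L om u v⁻¹ := by
    intro a b hab
    rw [h.om_inv hv0] at hab
    have := hi a (-b) (by rw [← hab]; module)
    exact ⟨this.1, neg_eq_zero.1 this.2⟩
  have := h.zf_div_ind hu0 (inv_ne_zero hv0) hi'
  rw [div_inv_eq_mul, h.zf_inv hv, div_inv_eq_mul] at this
  exact this

theorem exists_ind {u : K} (hu : u ∉ K0) : ∃ w : K, w ≠ 0 ∧ Ind L om u w := by
  obtain ⟨w1, w2, hw1, hw2, hi⟩ := h.ind
  have hou := h.om_ne hu
  by_contra hcon
  push Not at hcon
  have key : ∀ w : K, w ≠ 0 → ∃ a : L, om w = a • om u := by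
    intro w hw
    have h1 := hcon w hw
    unfold Ind at h1
    push Not at h1
    obtain ⟨a, b, hab, hne⟩ := h1
    have hb : b ≠ 0 := by
      intro hb
      rw [hb, zero_smul, add_zero] at hab
      rcases smul_eq_zero.1 hab with h2 | h2
      · exact hne h2 hb
      · exact hou h2
    refine ⟨-(b⁻¹ * a), ?_⟩
    have h2 : b⁻¹ • (a • om u + b • om w) = 0 := by rw [hab, smul_zero]
    rw [smul_add, smul_smul, smul_smul, inv_mul_cancel₀ hb, one_smul] at h2
    rw [neg_smul, eq_neg_iff_add_eq_zero, add_comm]; exact h2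
  obtain ⟨a, ha⟩ := key w1 hw1
  obtain ⟨b, hb⟩ := key w2 hw2
  have h3 := hi b (-a) (by rw [ha, hb, smul_smul, smul_smul]; module)
  have ha0 : a = 0 := neg_eq_zero.1 h3.2
  have h4 := hi 1 0 (by rw [ha, ha0]; simp)
  exact one_ne_zero h4.1

theorem zf_mul {u v : K} (hu : u ∉ K0) (hv : v ∉ K0) (huv : u * v ∉ K0) :
    zf L om (u * v) = zf L om u * zf L om v := by
  have hu0 := ne_zero_of_not_mem hu
  have hv0 := ne_zero_of_not_mem hv
  by_cases hi : Ind L om u v
  · exact h.zf_mul_ind hu0 hv0 hi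
  · -- dependent
    obtain ⟨w, hw0, hw⟩ := h.exists_ind hu
    have hou := h.om_ne hu
    have hdep : ∃ b : L, om v = b • om u := by
      unfold Ind at hi
      push Not at hi
      obtain ⟨a, b, hab, hne⟩ := hi
      have hb : b ≠ 0 := by
        intro hb
        rw [hb, zero_smul, add_zero] at hab
        rcases smul_eq_zero.1 hab with h2 | h2
        · exact hne h2 hb
        · exact hou h2
      refine ⟨-(b⁻¹ * a), ?_⟩
      have h2 : b⁻¹ • (a • om u + b • om v) = 0 := by rw [hab, smul_zero]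
      rw [smul_add, smul_smul, smul_smul, inv_mul_cancel₀ hb, one_smul] at h2
      rw [neg_smul, eq_neg_iff_add_eq_zero, add_comm]; exact h2
    obtain ⟨b, hb⟩ := hdep
    have hbne : b ≠ 0 := by
      rintro rfl
      rw [zero_smul] at hb
      exact h.om_ne hv hb
    have hb1 : 1 + b ≠ 0 := by
      intro hb1
      apply h.om_ne huv
      rw [h.mul u v hu0 hv0, hb]
      have : om u + b • om u = (1 + b) • om u := by module
      rw [this, hb1, zero_smul]
    have hvw : Ind L om v w := by
      intro a c hac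
      rw [hb, smul_smul] at hac
      have := hw _ _ hac
      refine ⟨?_, this.2⟩
      rcases mul_eq_zero.1 this.1 with h1 | h1
      · exact h1
      · exact absurd h1 hbne
    have hind : Ind L om (u * w) (v / w) := by
      intro a c hac
      rw [h.mul u w hu0 hw0, h.om_div hv0 hw0, hb] at hac
      have h1 := hw (a + c * b) (a - c) (by rw [← hac]; module)
      have h2 : a = c := sub_eq_zero.1 h1.2
      have h3 : c * (1 + b) = 0 := by rw [← h1.1, h2]; ring
      rcases mul_eq_zero.1 h3 with h4 | h4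
      · exact ⟨h2.trans h4, h4⟩
      · exact absurd h4 hb1
    have h1 := h.zf_mul_ind (mul_ne_zero hu0 hw0) (div_ne_zero hv0 hw0) hind
    rw [h.zf_mul_ind hu0 hw0 hw, h.zf_div_ind hv0 hw0 hvw] at h1
    have hwK : w ∉ K0 := Ind.right h hw0 hw
    have hzw := h.zf_ne_zero hwK
    have e : u * w * (v / w) = u * v := by field_simp
    rw [e] at h1
    rw [h1]
    field_simp

/-- A chosen element outside `K0`. -/
theorem exists_not_mem : ∃ t : K, t ∉ K0 := by
  obtain ⟨w1, w2, hw1, hw2, hi⟩ := h.ind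
  exact ⟨w1, Ind.left h hw1 hi⟩

/-- The map on all of `K`. -/
noncomputable def al (K0 : Subfield K) (om : K → V) (t : K) (u : K) : L :=
  open Classical in if u ∈ K0 then (if u = 0 then 0 else zf L om (u * t) / zf L om t)
    else zf L om u

omit h in
theorem al_of_not_mem {t u : K} (hu : u ∉ K0) : al (L := L) K0 om t u = zf L om u := by
  unfold al; rw [if_neg hu]

omit h in
theorem al_zero {t : K} : al (L := L) K0 om t 0 = 0 := by
  unfold al; simp [K0.zero_mem]

omit h in
theorem al_of_mem {t u : K} (hu : u ∈ K0) (hu0 : u ≠ 0) :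
    al (L := L) K0 om t u = zf L om (u * t) / zf L om t := by
  unfold al; rw [if_pos hu, if_neg hu0]

theorem al_one {t : K} (ht : t ∉ K0) : al (L := L) K0 om t 1 = 1 := by
  rw [al_of_mem K0.one_mem one_ne_zero, one_mul, div_self (h.zf_ne_zero ht)]

theorem al_ne_zero {t : K} (ht : t ∉ K0) {u : K} (hu : u ≠ 0) : al (L := L) K0 om t u ≠ 0 := by
  by_cases hu' : u ∈ K0
  · rw [al_of_mem hu' hu]
    exact div_ne_zero (h.zf_ne_zero (mul_not_mem hu' hu ht)) (h.zf_ne_zero ht)
  · rw [al_of_not_mem hu']; exact h.zf_ne_zero hu'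

/-- Key scaling property. -/
theorem zf_const_mul {t : K} (ht : t ∉ K0) {a u : K} (ha : a ∈ K0) (ha0 : a ≠ 0) (hu : u ∉ K0) :
    zf L om (a * u) = al (L := L) K0 om t a * zf L om u := by
  have ht0 := ne_zero_of_not_mem ht
  -- first case
  have key : ∀ v : K, v ∉ K0 → v / t ∉ K0 →
      zf L om (a * v) = al (L := L) K0 om t a * zf L om v := by
    intro v hv hvt
    have hv0 := ne_zero_of_not_mem hv
    have hat : a * t ∉ K0 := mul_not_mem ha ha0 ht
    have h1 := h.zf_mul (u := a * t) (v := v / t) hat hvt (by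
      have : a * t * (v / t) = a * v := by field_simp
      rw [this]; exact mul_not_mem ha ha0 hv)
    have h2 := h.zf_mul (u := t) (v := v / t) ht hvt (by
      have : t * (v / t) = v := by field_simp
      rw [this]; exact hv)
    have e1 : a * t * (v / t) = a * v := by field_simp
    have e2 : t * (v / t) = v := by field_simp
    rw [e1] at h1
    rw [e2] at h2
    rw [h1, h2, al_of_mem ha ha0]
    have := h.zf_ne_zero ht
    field_simp
  by_cases hut : u / t ∈ K0
  · -- pick w = 1 + t
    have hu0 := ne_zero_of_not_mem hu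
    set w : K := 1 + t with hw
    have hwK : w ∉ K0 := one_add_not_mem ht
    have hw0 := ne_zero_of_not_mem hwK
    have hwt : w / t ∉ K0 := by
      have : w / t = 1 + t⁻¹ := by rw [hw, add_div, div_self ht0, one_div, add_comm]
      rw [this]
      exact one_add_not_mem (inv_not_mem ht)
    have huw : u / w ∉ K0 := by
      intro hc
      apply hwt
      have h1 := K0.mul_mem (K0.inv_mem hc) hut
      have : (u / w)⁻¹ * (u / t) = w / t := by field_simp
      rwa [this] at h1
    have h1 := h.zf_mul (u := a * w) (v := u / w) (mul_not_mem ha ha0 hwK) huw (by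
      have : a * w * (u / w) = a * u := by field_simp
      rw [this]; exact mul_not_mem ha ha0 hu)
    have h2 := h.zf_mul (u := w) (v := u / w) hwK huw (by
      have : w * (u / w) = u := by field_simp
      rw [this]; exact hu)
    have e1 : a * w * (u / w) = a * u := by field_simp
    have e2 : w * (u / w) = u := by field_simp
    rw [e1, key w hwK hwt] at h1
    rw [e2] at h2
    rw [h1, h2, mul_assoc]
  · exact key u hu hut

theorem al_mul {t : K} (ht : t ∉ K0) (u v : K) :
    al (L := L) K0 om t (u * v) = al (L := L) K0 om t u * al (L := L) K0 om t v := by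
  rcases eq_or_ne u 0 with rfl | hu0
  · rw [zero_mul, al_zero, zero_mul]
  rcases eq_or_ne v 0 with rfl | hv0
  · rw [mul_zero, al_zero, mul_zero]
  by_cases hu : u ∈ K0
  · by_cases hv : v ∈ K0
    · have huv := K0.mul_mem hu hv
      rw [al_of_mem huv (mul_ne_zero hu0 hv0), mul_assoc,
        h.zf_const_mul ht hu hu0 (mul_not_mem hv hv0 ht), h.zf_const_mul ht hv hv0 ht]
      have := h.zf_ne_zero ht
      field_simp
    · rw [al_of_not_mem (mul_not_mem hu hu0 hv), h.zf_const_mul ht hu hu0 hv, al_of_not_mem hv]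
  · by_cases hv : v ∈ K0
    · rw [mul_comm u v, al_of_not_mem (mul_not_mem hv hv0 hu), h.zf_const_mul ht hv hv0 hu,
        al_of_not_mem hu, mul_comm]
    · by_cases huv : u * v ∈ K0
      · -- v = (u v) u⁻¹
        have e : v = (u * v) * u⁻¹ := by field_simp
        have h1 : zf L om v = al (L := L) K0 om t (u * v) * zf L om u⁻¹ := by
          conv_lhs => rw [e]
          exact h.zf_const_mul ht huv (mul_ne_zero hu0 hv0) (inv_not_mem hu)
        rw [al_of_not_mem hu, al_of_not_mem hv, h1, h.zf_inv hu]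
        have := h.zf_ne_zero hu
        field_simp
      · rw [al_of_not_mem huv, al_of_not_mem hu, al_of_not_mem hv, h.zf_mul hu hv huv]

theorem al_neg_one {t : K} (ht : t ∉ K0) : al (L := L) K0 om t (-1) = -1 := by
  have h1 : al (L := L) K0 om t (-1) * al (L := L) K0 om t (-1) = 1 := by
    rw [← h.al_mul ht, neg_one_mul, neg_neg, h.al_one ht]
  rcases mul_self_eq_one_iff.1 h1 with h2 | h2
  swap
  · exact h2
  by_cases h2K : (2 : K) = 0
  · have h2L := h.two h2K
    rw [h2]
    have : (1 : L) + 1 = 0 := by rw [← h2L]; norm_num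
    exact eq_neg_of_add_eq_zero_left this
  · exfalso
    have ht0 := ne_zero_of_not_mem ht
    have ht1 := ne_one_of_not_mem ht
    have h3 : al (L := L) K0 om t (-t) = al (L := L) K0 om t t := by
      rw [← neg_one_mul, h.al_mul ht, h2, one_mul]
    rw [al_of_not_mem (neg_not_mem ht), al_of_not_mem ht] at h3
    have h4 := h.zf_R (neg_not_mem ht)
    have h5 := h.zf_R ht
    rw [h3] at h4
    unfold R at h4 h5
    rw [h.om_neg ht0, ← h5] at h4
    have hz1 : zf L om t - 1 ≠ 0 := sub_ne_zero.2 (h.R_ne_one ht (h.zf_R ht))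
    have h6 : om (1 - -t) = om (1 - t) := by
      have h7 : (zf L om t - 1) • (om (1 - -t) - om (1 - t)) = 0 := by
        rw [smul_sub, h4, sub_self]
      rcases smul_eq_zero.1 h7 with h8 | h8
      · exact absurd h8 hz1
      · exact sub_eq_zero.1 h8
    have hp : 1 - -t ≠ 0 := by
      intro h8
      apply ht
      have : t = -1 := by linear_combination h8
      rw [this]; exact K0.neg_mem K0.one_mem
    have hm : 1 - t ≠ 0 := sub_ne_zero.2 ht1.symm
    have h7 : om ((1 - -t) / (1 - t)) = 0 := by rw [h.om_div hp hm, h6, sub_self]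
    have h8 := (h.ker _ (div_ne_zero hp hm)).1 h7
    set a := (1 - -t) / (1 - t) with ha
    have h9 : a * (1 - t) = 1 + t := by rw [ha]; field_simp; ring
    have h10 : t * (1 + a) = a - 1 := by linear_combination (-1) * h9
    rcases eq_or_ne (1 + a) 0 with h11 | h11
    · apply h2K
      rw [h11, mul_zero] at h10
      linear_combination h11 + h10
    · apply ht
      have : t = (a - 1) / (1 + a) := by field_simp; linear_combination h10
      rw [this]
      exact K0.div_mem (K0.sub_mem h8 K0.one_mem) (K0.add_mem K0.one_mem h8)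

theorem al_neg {t : K} (ht : t ∉ K0) (u : K) :
    al (L := L) K0 om t (-u) = - al (L := L) K0 om t u := by
  rw [← neg_one_mul, h.al_mul ht, h.al_neg_one ht, neg_one_mul]

theorem al_one_add {t : K} (ht : t ∉ K0) {u : K} (hu : u ∉ K0) :
    al (L := L) K0 om t (1 + u) = 1 + al (L := L) K0 om t u := by
  have hnu := neg_not_mem hu
  have e : (1 : K) + u = 1 - (-u) := by ring
  rw [e, al_of_not_mem (one_sub_not_mem hnu), h.zf_one_sub hnu, ← al_of_not_mem (t := t) hnu,
    h.al_neg ht]
  ring

theorem al_add_of {t : K} (ht : t ∉ K0) {u v : K} (hv : v ≠ 0) (huv : u / v ∉ K0) :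
    al (L := L) K0 om t (u + v) = al (L := L) K0 om t u + al (L := L) K0 om t v := by
  have e : u + v = v * (1 + u / v) := by field_simp; ring
  have e2 : u = v * (u / v) := by field_simp
  rw [e, h.al_mul ht, h.al_one_add ht huv]
  conv_rhs => rw [e2, h.al_mul ht]
  ring

theorem al_one_add_const {t : K} (ht : t ∉ K0) {a : K} (ha : a ∈ K0) :
    al (L := L) K0 om t (1 + a) = 1 + al (L := L) K0 om t a := by
  rcases eq_or_ne a 0 with rfl | ha0
  · rw [add_zero, al_zero, add_zero, h.al_one ht]
  rcases eq_or_ne (1 + a) 0 with h1 | h1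
  · have : a = -1 := by linear_combination h1
    rw [h1, al_zero, this, h.al_neg_one ht]; ring
  · have ht0 := ne_zero_of_not_mem ht
    have h2 : al (L := L) K0 om t ((1 + a) + t) = al (L := L) K0 om t (1 + a) + al (L := L) K0 om t t := by
      apply h.al_add_of ht ht0
      intro hc
      apply ht
      have h1a := K0.add_mem K0.one_mem ha
      have := K0.mul_mem (K0.inv_mem hc) h1a
      have e : ((1 + a) / t)⁻¹ * (1 + a) = t := by field_simp
      rwa [e] at this
    have h3 : al (L := L) K0 om t ((1 + t) + a) = al (L := L) K0 om t (1 + t) + al (L := L) K0 om t a := by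
      apply h.al_add_of ht ha0
      intro hc
      apply one_add_not_mem ht
      have := K0.mul_mem hc ha
      have e : (1 + t) / a * a = 1 + t := by field_simp
      rwa [e] at this
    rw [h.al_one_add ht ht] at h3
    have e : (1 + a) + t = (1 + t) + a := by ring
    rw [e, h3] at h2
    linear_combination -h2

theorem al_add {t : K} (ht : t ∉ K0) (u v : K) :
    al (L := L) K0 om t (u + v) = al (L := L) K0 om t u + al (L := L) K0 om t v := by
  rcases eq_or_ne v 0 with rfl | hv
  · rw [add_zero, al_zero, add_zero]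
  by_cases huv : u / v ∈ K0
  · have e : u + v = v * (1 + u / v) := by field_simp; ring
    have e2 : u = v * (u / v) := by field_simp
    rw [e, h.al_mul ht, h.al_one_add_const ht huv]
    conv_rhs => rw [e2, h.al_mul ht]
    ring
  · exact h.al_add_of ht hv huv

/-- The reconstructed ring homomorphism. -/
theorem exists_ringHom : ∃ α : K →+* L, ∀ u : K, u ∉ K0 → R om u (α u) := by
  obtain ⟨t, ht⟩ := h.exists_not_mem
  refine ⟨{ toFun := al (L := L) K0 om t, map_one' := h.al_one ht, map_mul' := h.al_mul ht,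
            map_zero' := al_zero, map_add' := h.al_add ht }, ?_⟩
  intro u hu
  change R om u (al (L := L) K0 om t u)
  rw [al_of_not_mem hu]
  exact h.zf_R hu

end LogSys

end Crest.Agent.S0010
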