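import Mathlib

set_option autoImplicit false

namespace Crest.Agent.S0010

open Polynomial

/-- The subfield of `p`-th powers. -/
def Kp (K : Type*) [Field K] (p : ℕ) [Fact p.Prime] [CharP K p] : Subfield K :=
  (frobenius K p).fieldRange

theorem mem_Kp {K : Type*} [Field K] {p : ℕ} [Fact p.Prime] [CharP K p] {x : K} :
    x ∈ Kp K p ↔ ∃ y : K, y ^ p = x := by
  unfold Kp
  rw [RingHom.mem_fieldRange]
  rfl

theorem pow_mem_Kp {K : Type*} [Field K] {p : ℕ} [Fact p.Prime] [CharP K p] (x : K) :
    x ^ p ∈ Kp K p := mem_Kp.2 ⟨x, rfl⟩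

/-- Maximal subfield above `E1` avoiding `y`. -/
theorem exists_maximal_subfield {K : Type*} [Field K] (E1 : Subfield K) (y : K) (hy : y ∉ E1) :
    ∃ E : Subfield K, E1 ≤ E ∧ y ∉ E ∧ ∀ E' : Subfield K, E ≤ E' → y ∉ E' → E' ≤ E := by
  obtain ⟨m, hm1, hm2⟩ := zorn_le_nonempty₀ {E : Subfield K | y ∉ E} (by
    intro c hc hchain e he
    refine ⟨sSup c, ?_, fun z hz => le_sSup hz⟩
    intro hy'
    rw [Subfield.mem_sSup_of_directedOn ⟨e, he⟩ hchain.directedOn] at hy'
    obtain ⟨s, hs, hys⟩ := hy'
    exact hc hs hys) E1 hy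
  exact ⟨m, hm1, hm2.1, fun E' h1 h2 => hm2.2 h2 h1⟩

/-- If `y` is not in the subfield `E1 ⊇ K^p`, there is a derivation killing `E1` but not `y`. -/
theorem exists_derivation {K : Type*} [Field K] {p : ℕ} [Fact p.Prime] [CharP K p]
    (E1 : Subfield K) (hE1 : ∀ a : K, a ^ p ∈ E1) (y : K) (hy : y ∉ E1) :
    ∃ D : Derivation ℤ K K, (∀ e ∈ E1, D e = 0) ∧ D y = 1 := by
  have hp : p.Prime := Fact.out
  obtain ⟨E, hE1E, hyE, hmax⟩ := exists_maximal_subfield E1 y hy
  have hpow : ∀ a : K, a ^ p ∈ E := fun a => hE1E (hE1 a)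
  have : CharP E p := by
    refine ⟨fun n => ?_⟩
    rw [← CharP.cast_eq_zero_iff K p n]
    constructor
    · intro h; have := congrArg (fun x : E => (x : K)) h; simpa using this
    · intro h; apply Subtype.ext; simpa using h
  -- minimal polynomial of every element outside E
  have hminpoly : ∀ t : K, t ∉ E → minpoly E t = X ^ p - C (⟨t ^ p, hpow t⟩ : E) := by
    intro t ht
    have hirr : Irreducible (X ^ p - C (⟨t ^ p, hpow t⟩ : E)) := by
      apply X_pow_sub_C_irreducible_of_prime hp
      intro b hb
      have h1 : (b : K) ^ p = t ^ p := by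
        have := congrArg (fun x : E => (x : K)) hb
        simpa using this
      have h2 : (b : K) = t := frobenius_inj K p (by simpa [frobenius_def] using h1)
      exact ht (h2 ▸ b.2)
    symm
    apply minpoly.eq_of_irreducible_of_monic hirr
    · simp only [map_sub, map_pow, aeval_X, aeval_C]
      exact sub_self _
    · exact monic_X_pow_sub_C _ hp.ne_zero
  have hint : ∀ t : K, IsIntegral E t := by
    intro t
    refine ⟨X ^ p - C (⟨t ^ p, hpow t⟩ : E), monic_X_pow_sub_C _ hp.ne_zero, ?_⟩
    rw [← aeval_def]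
    simp only [map_sub, map_pow, aeval_X, aeval_C]
    exact sub_self _
  have hfin : ∀ t : K, t ∉ E → Module.finrank E (IntermediateField.adjoin E {t}) = p := by
    intro t ht
    rw [IntermediateField.adjoin.finrank (hint t), hminpoly t ht, natDegree_X_pow_sub_C]
  -- E(y) = K
  have htop : ∀ t : K, t ∈ IntermediateField.adjoin E {y} := by
    intro t
    by_cases ht : t ∈ E
    · exact (IntermediateField.adjoin E {y}).algebraMap_mem ⟨t, ht⟩
    · have hyt : y ∈ IntermediateField.adjoin E {t} := by
        by_contra hc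
        have hle : E ≤ (IntermediateField.adjoin E {t}).toSubfield := by
          intro e he
          exact (IntermediateField.adjoin E {t}).algebraMap_mem ⟨e, he⟩
        have := hmax _ hle hc
        exact ht (this (IntermediateField.mem_adjoin_simple_self E t))
      have hle : IntermediateField.adjoin E {y} ≤ IntermediateField.adjoin E {t} := by
        rw [IntermediateField.adjoin_le_iff]
        rintro _ rfl
        exact hyt
      have : FiniteDimensional E (IntermediateField.adjoin E {t}) :=
        IntermediateField.adjoin.finiteDimensional (hint t)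
      have heq : IntermediateField.adjoin E {y} = IntermediateField.adjoin E {t} := by
        apply IntermediateField.eq_of_le_of_finrank_eq hle
        rw [hfin y hyE, hfin t ht]
      rw [heq]
      exact IntermediateField.mem_adjoin_simple_self E t
  have hsurj : Function.Surjective (aeval (R := E) y) := by
    intro t
    have h1 := htop t
    rw [← IntermediateField.mem_toSubalgebra,
      IntermediateField.adjoin_simple_toSubalgebra_of_isAlgebraic (hint y).isAlgebraic,
      Algebra.adjoin_singleton_eq_range_aeval] at h1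
    exact h1
  have hker : ∀ P : E[X], aeval y P = 0 → aeval y (Polynomial.derivative' P) = 0 := by
    intro P hP
    have hdvd := minpoly.dvd E y hP
    rw [hminpoly y hyE] at hdvd
    obtain ⟨Q, rfl⟩ := hdvd
    have h0 : derivative (X ^ p - C (⟨y ^ p, hpow y⟩ : E)) = 0 := by
      rw [derivative_sub, derivative_C, derivative_X_pow]
      simp [CharP.cast_eq_zero]
    have h1 : aeval y (X ^ p - C (⟨y ^ p, hpow y⟩ : E)) = 0 := by
      simp only [map_sub, map_pow, aeval_X, aeval_C]
      exact sub_self _
    change aeval y (derivative ((X ^ p - C (⟨y ^ p, hpow y⟩ : E)) * Q)) = 0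
    rw [derivative_mul, h0, zero_mul, zero_add, map_mul, h1, zero_mul]
  let D0 : Derivation E K K := Derivation.liftOfSurjective (f := aeval (R := E) y) hsurj hker
  refine ⟨D0.restrictScalars ℤ, ?_, ?_⟩
  · intro e he
    have : e = algebraMap E K ⟨e, hE1E he⟩ := rfl
    rw [Derivation.restrictScalars_apply, this]
    exact D0.map_algebraMap _
  · rw [Derivation.restrictScalars_apply]
    have h1 : y = aeval (R := E) y X := by simp
    have h2 := Derivation.liftOfSurjective_apply (f := aeval (R := E) y) hsurj hker X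
    rw [← h1] at h2
    change D0 y = 1
    rw [show D0 y = aeval y (Polynomial.derivative' (X : E[X])) from h2]
    simp

/-- The closure of `K^p ∪ {x}`. -/
def Kpx {K : Type*} [Field K] (p : ℕ) [Fact p.Prime] [CharP K p] (x : K) : Subfield K :=
  Subfield.closure ((Kp K p : Set K) ∪ {x})

theorem Kp_le_Kpx {K : Type*} [Field K] {p : ℕ} [Fact p.Prime] [CharP K p] (x : K) :
    Kp K p ≤ Kpx p x := fun _ ha => Subfield.subset_closure (Or.inl ha)

theorem self_mem_Kpx {K : Type*} [Field K] {p : ℕ} [Fact p.Prime] [CharP K p] (x : K) :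
    x ∈ Kpx p x := Subfield.subset_closure (Or.inr rfl)

theorem Kpx_le {K : Type*} [Field K] {p : ℕ} [Fact p.Prime] [CharP K p] {x : K} {E : Subfield K}
    (h1 : Kp K p ≤ E) (h2 : x ∈ E) : Kpx p x ≤ E := by
  unfold Kpx
  rw [Subfield.closure_le]
  rintro a (ha | ha)
  · exact h1 ha
  · rw [Set.mem_singleton_iff] at ha
    subst ha; exact h2

theorem mem_Kpx_of_forall {K : Type*} [Field K] {p : ℕ} [Fact p.Prime] [CharP K p] {x y : K}
    (h : ∀ D : Derivation ℤ K K, D x = 0 → D y = 0) : y ∈ Kpx p x := by
  by_contra hy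
  obtain ⟨D, h1, h2⟩ := exists_derivation (p := p) (Kpx p x)
    (fun a => Kp_le_Kpx x (pow_mem_Kp a)) y hy
  have := h D (h1 x (self_mem_Kpx x))
  rw [h2] at this
  exact one_ne_zero this

theorem mem_Kp_of_forall {K : Type*} [Field K] {p : ℕ} [Fact p.Prime] [CharP K p] {y : K}
    (h : ∀ D : Derivation ℤ K K, D y = 0) : y ∈ Kp K p := by
  by_contra hy
  obtain ⟨D, h1, h2⟩ := exists_derivation (p := p) (Kp K p) pow_mem_Kp y hy
  have := h D
  rw [h2] at this
  exact one_ne_zero this

theorem derivation_pow_p {K : Type*} [Field K] {p : ℕ} [Fact p.Prime] [CharP K p]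
    (D : Derivation ℤ K K) (a : K) : D (a ^ p) = 0 := by
  rw [Derivation.leibniz_pow]
  simp [CharP.cast_eq_zero]

theorem derivation_of_mem_Kp {K : Type*} [Field K] {p : ℕ} [Fact p.Prime] [CharP K p]
    (D : Derivation ℤ K K) {a : K} (ha : a ∈ Kp K p) : D a = 0 := by
  obtain ⟨b, rfl⟩ := mem_Kp.1 ha
  exact derivation_pow_p D b

theorem derivation_inv {K : Type*} [Field K] (D : Derivation ℤ K K) (a : K) :
    D a⁻¹ = - (a⁻¹ * a⁻¹ * D a) := by
  rw [Derivation.leibniz_inv]
  simp [pow_two]

/-- The subfield of elements where a derivation vanishes. -/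
def kerD {K : Type*} [Field K] (D : Derivation ℤ K K) : Subfield K where
  carrier := {a | D a = 0}
  mul_mem' := by
    intro a b ha hb
    simp only [Set.mem_ofPred_eq] at *
    rw [D.leibniz, ha, hb]; simp
  one_mem' := by simp
  add_mem' := by
    intro a b ha hb
    simp only [Set.mem_ofPred_eq] at *
    rw [map_add, ha, hb, add_zero]
  zero_mem' := by simp
  neg_mem' := by
    intro a ha
    simp only [Set.mem_ofPred_eq] at *
    rw [map_neg, ha, neg_zero]
  inv_mem' := by
    intro a ha
    simp only [Set.mem_ofPred_eq] at *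
    rw [derivation_inv, ha]; simp

theorem derivation_of_mem_Kpx {K : Type*} [Field K] {p : ℕ} [Fact p.Prime] [CharP K p]
    (D : Derivation ℤ K K) {x : K} (hx : D x = 0) {a : K} (ha : a ∈ Kpx p x) : D a = 0 := by
  have : Kpx p x ≤ kerD D := Kpx_le (fun a ha => derivation_of_mem_Kp D ha) hx
  exact this ha

/-- If `D f = f` then `D^p = D` on `K^p(f)`. -/
theorem iterate_p_eq {K : Type*} [Field K] {p : ℕ} [Fact p.Prime] [CharP K p]
    (D : Derivation ℤ K K) {f : K} (hf : D f = f) {g : K} (hg : g ∈ Kpx p f) :
    (⇑D)^[p] g = D g := by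
  have hp : p.Prime := Fact.out
  -- g is a polynomial in f over Kp
  have hint : IsIntegral (Kp K p) f := by
    refine ⟨X ^ p - C (⟨f ^ p, pow_mem_Kp f⟩ : Kp K p), monic_X_pow_sub_C _ hp.ne_zero, ?_⟩
    rw [← aeval_def]
    simp only [map_sub, map_pow, aeval_X, aeval_C]
    exact sub_self _
  have hg1 : g ∈ IntermediateField.adjoin (Kp K p) {f} := by
    have hle : Kpx p f ≤ (IntermediateField.adjoin (Kp K p) {f}).toSubfield := by
      apply Kpx_le
      · intro e he
        exact (IntermediateField.adjoin (Kp K p) {f}).algebraMap_mem ⟨e, he⟩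
      · exact IntermediateField.mem_adjoin_simple_self (Kp K p) f
    exact hle hg
  rw [← IntermediateField.mem_toSubalgebra,
      IntermediateField.adjoin_simple_toSubalgebra_of_isAlgebraic hint.isAlgebraic,
      Algebra.adjoin_singleton_eq_range_aeval] at hg1
  obtain ⟨P, rfl⟩ := hg1
  have hmono : ∀ (i n : ℕ) (a : Kp K p), (⇑D)^[n] ((a : K) * f ^ i) = (i : K) ^ n * ((a : K) * f ^ i) := by
    intro i n a
    induction n with
    | zero => simp
    | succ n ih =>
      rw [Function.iterate_succ_apply', ih]
      have h1 : D ((i : K) ^ n) = 0 := by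
        rw [Derivation.leibniz_pow]; simp
      have h2 : D (a : K) = 0 := derivation_of_mem_Kp D a.2
      have h3 : D (f ^ i) = (i : K) * f ^ i := by
        rw [Derivation.leibniz_pow, hf]
        rcases Nat.eq_zero_or_pos i with rfl | hi
        · simp
        · simp only [smul_eq_mul, nsmul_eq_mul]
          rw [← pow_succ, Nat.sub_add_cancel hi]
      rw [D.leibniz, h1, D.leibniz, h2, h3]
      simp only [smul_eq_mul]
      ring
  have hadd : ∀ (n : ℕ) (a b : K), (⇑D)^[n] (a + b) = (⇑D)^[n] a + (⇑D)^[n] b := by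
    intro n a b
    induction n with
    | zero => simp
    | succ n ih => rw [Function.iterate_succ_apply', ih, map_add, Function.iterate_succ_apply',
        Function.iterate_succ_apply']
  clear hg
  induction P using Polynomial.induction_on' with
  | add P Q hP hQ =>
    simp only [AlgHom.toRingHom_eq_coe, RingHom.coe_coe] at *
    rw [map_add, hadd, hP, hQ, map_add]
  | monomial i a =>
    simp only [AlgHom.toRingHom_eq_coe, RingHom.coe_coe] at *
    rw [aeval_monomial]
    have e : (algebraMap (Kp K p) K) a * f ^ i = (a : K) * f ^ i := rfl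
    rw [e, hmono i p a]
    have h1 := hmono i 1 a
    rw [Function.iterate_one, pow_one] at h1
    rw [h1]
    congr 1
    have h2 : frobenius K p (i : K) = (i : K) := map_natCast (frobenius K p) i
    rw [frobenius_def] at h2
    exact h2

/-- Key arithmetic fact: constant ratio of two logarithmic forms lies in the prime field. -/
theorem const_ratio {K : Type*} [Field K] {p : ℕ} [Fact p.Prime] [CharP K p]
    {f g c : K} (hf0 : f ≠ 0) (hf : f ∉ Kp K p) (hg : g ≠ 0)
    (hc : ∀ D : Derivation ℤ K K, D c = 0)
    (h : ∀ D : Derivation ℤ K K, D g / g = c * (D f / f)) :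
    c ^ p = c := by
  obtain ⟨D0, -, hD0⟩ := exists_derivation (p := p) (Kp K p) pow_mem_Kp f hf
  let D : Derivation ℤ K K := f • D0
  have hDf : D f = f := by
    change f • D0 f = f
    rw [hD0]; simp
  have hg' : g ∈ Kpx p f := by
    apply mem_Kpx_of_forall
    intro D1 h1
    have := h D1
    rw [h1, zero_div, mul_zero] at this
    rcases div_eq_zero_iff.1 this with h2 | h2
    · exact h2
    · exact absurd h2 hg
  have h1 := iterate_p_eq D hDf hg'
  have hDg : D g = c * g := by
    have := h D
    rw [hDf, div_self hf0, mul_one, div_eq_iff hg] at this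
    exact this
  have hit : ∀ n : ℕ, (⇑D)^[n] g = c ^ n * g := by
    intro n
    induction n with
    | zero => simp
    | succ n ih =>
      rw [Function.iterate_succ_apply', ih, D.leibniz, hDg, Derivation.leibniz_pow, hc D]
      simp only [smul_eq_mul]
      simp; ring
  rw [hit, hDg] at h1
  exact mul_right_cancel₀ hg h1

end Crest.Agent.S0010
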