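import Mathlib
import Crest.Prelude.Def_MilnorK
import Crest.Agent.S0010_A
import Crest.Agent.S0010_B

set_option autoImplicit false

namespace Crest.Agent.S0010

open Crest.NumberTheoryR.MilnorK

/-! ### The logarithmic derivative on `KOne` -/

section dlog

/-- The logarithmic derivative on units, as a functional on derivations. -/
def dlU (F : Type*) [Field F] : Additive Fˣ →+ (Derivation ℤ F F → F) where
  toFun u := fun D => D ((Additive.toMul u : Fˣ) : F) / ((Additive.toMul u : Fˣ) : F)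
  map_zero' := by ext D; simp
  map_add' u v := by
    ext D
    have hu : ((Additive.toMul u : Fˣ) : F) ≠ 0 := Units.ne_zero _
    have hv : ((Additive.toMul v : Fˣ) : F) ≠ 0 := Units.ne_zero _
    simp only [toMul_add, Units.val_mul, Derivation.leibniz, smul_eq_mul, Pi.add_apply]
    field_simp
    ring

variable {F : Type*} [Field F] {p : ℕ} [Fact p.Prime] [CharP F p]

/-- The logarithmic derivative on `KOne F p`. -/
def dlK (F : Type*) [Field F] (p : ℕ) [Fact p.Prime] [CharP F p] :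
    KOne F p →+ (Derivation ℤ F F → F) :=
  QuotientAddGroup.lift (pMultiples F p) (dlU F) (by
    rintro x ⟨y, rfl⟩
    change dlU F (p • y) = 0
    rw [map_nsmul]
    ext D
    rw [Pi.smul_apply, nsmul_eq_mul, CharP.cast_eq_zero]
    simp)

theorem dlK_cls (u : Fˣ) (D : Derivation ℤ F F) : dlK F p (cls F p u) D = D (u : F) / (u : F) := rfl

theorem cls_mul (u v : Fˣ) : cls F p (u * v) = cls F p u + cls F p v := rfl

theorem cls_surj (a : KOne F p) : ∃ u : Fˣ, cls F p u = a := by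
  obtain ⟨u, rfl⟩ := QuotientAddGroup.mk_surjective a
  exact ⟨Additive.toMul u, rfl⟩

theorem cls_eq_zero_iff (u : Fˣ) : cls F p u = 0 ↔ (u : F) ∈ Kp F p := by
  unfold cls
  rw [QuotientAddGroup.eq_zero_iff, mem_Kp]
  constructor
  · rintro ⟨y, hy⟩
    refine ⟨((Additive.toMul y : Fˣ) : F), ?_⟩
    have h1 : p • y = Additive.ofMul u := hy
    have h2 := congrArg (fun a => ((Additive.toMul a : Fˣ) : F)) h1
    simpa using h2
  · rintro ⟨y, hy⟩
    have hy0 : y ≠ 0 := by
      rintro rfl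
      rw [zero_pow (Fact.out : p.Prime).ne_zero] at hy
      exact Units.ne_zero u hy.symm
    refine ⟨Additive.ofMul (Units.mk0 y hy0), ?_⟩
    change p • Additive.ofMul (Units.mk0 y hy0) = Additive.ofMul u
    rw [← ofMul_pow]
    congr 1
    ext
    simpa using hy

theorem dlK_eq_zero {a : KOne F p} (h : dlK F p a = 0) : a = 0 := by
  obtain ⟨u, rfl⟩ := cls_surj a
  rw [cls_eq_zero_iff]
  apply mem_Kp_of_forall
  intro D
  have h1 := congrFun h D
  rw [dlK_cls] at h1
  rcases div_eq_zero_iff.1 h1 with h2 | h2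
  · exact h2
  · exact absurd h2 (Units.ne_zero u)

theorem dlK_inj {a b : KOne F p} (h : dlK F p a = dlK F p b) : a = b := by
  rw [← sub_eq_zero]
  apply dlK_eq_zero
  rw [map_sub, h, sub_self]

/-- Closedness of logarithmic forms. -/
theorem dlK_closed (a : KOne F p) (D1 D2 : Derivation ℤ F F) :
    D1 (dlK F p a D2) - D2 (dlK F p a D1) = dlK F p a ⁅D1, D2⁆ := by
  obtain ⟨u, rfl⟩ := cls_surj a
  have hu : (u : F) ≠ 0 := Units.ne_zero u
  rw [dlK_cls, dlK_cls, dlK_cls, Derivation.commutator_apply, div_eq_mul_inv, div_eq_mul_inv,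
    Derivation.leibniz, Derivation.leibniz, derivation_inv, derivation_inv]
  simp only [smul_eq_mul]
  field_simp
  ring

/-- Evaluation at a derivation, as a `ZMod p`-linear functional. -/
def evD (F : Type*) [Field F] (p : ℕ) [Fact p.Prime] [CharP F p] [Algebra (ZMod p) F]
    (D : Derivation ℤ F F) : KOne F p →ₗ[ZMod p] F :=
  ((Pi.evalAddMonoidHom (fun _ : Derivation ℤ F F => F) D).comp (dlK F p)).toZModLinearMap p

theorem evD_apply [Algebra (ZMod p) F] (D : Derivation ℤ F F) (a : KOne F p) :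
    evD F p D a = dlK F p a D := rfl

/-- The wedge pairing. -/
def wedge (F : Type*) [Field F] (p : ℕ) [Fact p.Prime] [CharP F p] [Algebra (ZMod p) F]
    (D1 D2 : Derivation ℤ F F) : TensorProduct (ZMod p) (KOne F p) (KOne F p) →ₗ[ZMod p] F :=
  TensorProduct.lift ((LinearMap.mul (ZMod p) F).compl₁₂ (evD F p D1) (evD F p D2)
    - (LinearMap.mul (ZMod p) F).compl₁₂ (evD F p D2) (evD F p D1))

theorem wedge_tmul [Algebra (ZMod p) F] (D1 D2 : Derivation ℤ F F) (a b : KOne F p) :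
    wedge F p D1 D2 (TensorProduct.tmul (ZMod p) a b) =
      dlK F p a D1 * dlK F p b D2 - dlK F p a D2 * dlK F p b D1 := by
  unfold wedge
  rw [TensorProduct.lift.tmul]
  rfl

theorem wedge_steinberg [Algebra (ZMod p) F] (D1 D2 : Derivation ℤ F F) :
    steinberg F p ≤ LinearMap.ker (wedge F p D1 D2) := by
  unfold steinberg
  rw [Submodule.span_le]
  rintro _ ⟨f, hf, hf1, rfl⟩
  rw [SetLike.mem_coe, LinearMap.mem_ker, wedge_tmul]
  rw [dlK_cls, dlK_cls, dlK_cls, dlK_cls]
  simp only [Units.val_mk0, map_sub, Derivation.map_one_eq_zero]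
  field_simp
  ring

end dlog

section transport

variable {K L : Type*} [Field K] [Field L] {p : ℕ} [Fact p.Prime] [CharP K p] [CharP L p]

open Classical in
/-- The function `u ↦ dlog Θ[u]`. -/
noncomputable def om (Θ : KOne K p ≃ₗ[ZMod p] KOne L p) (u : K) : Derivation ℤ L L → L :=
  if h : u = 0 then 0 else dlK L p (Θ (cls K p (Units.mk0 u h)))

theorem om_zero (Θ : KOne K p ≃ₗ[ZMod p] KOne L p) : om Θ 0 = 0 := by
  unfold om; rw [dif_pos rfl]

theorem om_of_ne (Θ : KOne K p ≃ₗ[ZMod p] KOne L p) {u : K} (h : u ≠ 0) :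
    om Θ u = dlK L p (Θ (cls K p (Units.mk0 u h))) := by
  unfold om; rw [dif_neg h]

theorem om_mul (Θ : KOne K p ≃ₗ[ZMod p] KOne L p) (u v : K) (hu : u ≠ 0) (hv : v ≠ 0) :
    om Θ (u * v) = om Θ u + om Θ v := by
  rw [om_of_ne Θ hu, om_of_ne Θ hv, om_of_ne Θ (mul_ne_zero hu hv), ← map_add, ← map_add,
    ← cls_mul]
  congr 3
  ext; simp

theorem om_eq_zero_iff (Θ : KOne K p ≃ₗ[ZMod p] KOne L p) (u : K) (hu : u ≠ 0) :
    om Θ u = 0 ↔ u ∈ Kp K p := by
  rw [om_of_ne Θ hu]
  constructor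
  · intro h
    have h1 := dlK_eq_zero h
    rw [map_eq_zero_iff Θ Θ.injective, cls_eq_zero_iff] at h1
    simpa using h1
  · intro h
    have h1 : cls K p (Units.mk0 u hu) = 0 := by
      rw [cls_eq_zero_iff]; simpa using h
    rw [h1, map_zero, map_zero]

theorem st_transport (Θ : KOne K p ≃ₗ[ZMod p] KOne L p)
    (hΘ : (steinberg K p).map (TensorProduct.map Θ.toLinearMap Θ.toLinearMap) ≤ steinberg L p)
    (f : K) (hf : f ≠ 0) (hf1 : f ≠ 1) (D1 D2 : Derivation ℤ L L) :
    om Θ f D1 * om Θ (1 - f) D2 = om Θ f D2 * om Θ (1 - f) D1 := by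
  have hf1' : 1 - f ≠ 0 := sub_ne_zero.2 hf1.symm
  letI : Algebra (ZMod p) L := ZMod.algebra L p
  have hmem : TensorProduct.tmul (ZMod p) (cls K p (Units.mk0 f hf))
      (cls K p (Units.mk0 (1 - f) hf1')) ∈ steinberg K p :=
    Submodule.subset_span ⟨f, hf, hf1', rfl⟩
  have h1 := hΘ (Submodule.mem_map_of_mem hmem)
  have h2 := wedge_steinberg D1 D2 h1
  rw [LinearMap.mem_ker, TensorProduct.map_tmul, wedge_tmul] at h2
  rw [om_of_ne Θ hf, om_of_ne Θ hf1']
  exact sub_eq_zero.1 h2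

theorem st_parallel (Θ : KOne K p ≃ₗ[ZMod p] KOne L p)
    (hΘ : (steinberg K p).map (TensorProduct.map Θ.toLinearMap Θ.toLinearMap) ≤ steinberg L p)
    (u : K) (hu : u ∉ Kp K p) : ∃ F : L, om Θ (1 - u) = F • om Θ u := by
  have hu0 : u ≠ 0 := by rintro rfl; exact hu (Kp K p).zero_mem
  have hu1 : u ≠ 1 := by rintro rfl; exact hu (Kp K p).one_mem
  have hne : om Θ u ≠ 0 := fun h => hu ((om_eq_zero_iff Θ u hu0).1 h)
  obtain ⟨D0, hD0⟩ := Function.ne_iff.1 hne
  rw [Pi.zero_apply] at hD0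
  refine ⟨om Θ (1 - u) D0 / om Θ u D0, ?_⟩
  ext D
  rw [Pi.smul_apply, smul_eq_mul]
  have := st_transport Θ hΘ u hu0 hu1 D0 D
  field_simp
  linear_combination this

/-- The subfield of elements whose `om` is parallel to a given vector. -/
theorem exists_parallel_subfield (Θ : KOne K p ≃ₗ[ZMod p] KOne L p)
    (hΘ : (steinberg K p).map (TensorProduct.map Θ.toLinearMap Θ.toLinearMap) ≤ steinberg L p)
    (X0 : Derivation ℤ L L → L) :
    ∃ S : Subfield K, ∀ f : K, f ∈ S ↔ ∃ a : L, om Θ f = a • X0 := by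
  have h1 : om Θ 1 = 0 := (om_eq_zero_iff Θ 1 one_ne_zero).2 (Kp K p).one_mem
  have hm1 : om Θ (-1) = 0 :=
    (om_eq_zero_iff Θ (-1) (neg_ne_zero.2 one_ne_zero)).2 ((Kp K p).neg_mem (Kp K p).one_mem)
  have hneg : ∀ u : K, om Θ (-u) = om Θ u := by
    intro u
    rcases eq_or_ne u 0 with rfl | hu
    · rw [neg_zero]
    · rw [← neg_one_mul, om_mul Θ (-1) u (neg_ne_zero.2 one_ne_zero) hu, hm1, zero_add]
  have hmulc : ∀ f g : K, (∃ a : L, om Θ f = a • X0) → (∃ a : L, om Θ g = a • X0) →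
      ∃ a : L, om Θ (f * g) = a • X0 := by
    rintro f g ⟨a, ha⟩ ⟨b, hb⟩
    rcases eq_or_ne f 0 with rfl | hf
    · exact ⟨0, by rw [zero_mul, om_zero, zero_smul]⟩
    rcases eq_or_ne g 0 with rfl | hg
    · exact ⟨0, by rw [mul_zero, om_zero, zero_smul]⟩
    exact ⟨a + b, by rw [om_mul Θ f g hf hg, ha, hb, add_smul]⟩
  have hinv : ∀ f : K, (∃ a : L, om Θ f = a • X0) → ∃ a : L, om Θ f⁻¹ = a • X0 := by
    rintro f ⟨a, ha⟩
    rcases eq_or_ne f 0 with rfl | hf
    · exact ⟨0, by rw [inv_zero, om_zero, zero_smul]⟩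
    refine ⟨-a, ?_⟩
    have := om_mul Θ f f⁻¹ hf (inv_ne_zero hf)
    rw [mul_inv_cancel₀ hf, h1] at this
    rw [neg_smul, ← ha, eq_neg_iff_add_eq_zero, add_comm, ← this]
  have hone : ∀ f : K, (∃ a : L, om Θ f = a • X0) → ∃ a : L, om Θ (1 + f) = a • X0 := by
    rintro f ⟨a, ha⟩
    rcases eq_or_ne (1 + f) 0 with h0 | h0
    · exact ⟨0, by rw [h0, om_zero, zero_smul]⟩
    by_cases hf : f ∈ Kp K p
    · refine ⟨0, ?_⟩
      rw [zero_smul, om_eq_zero_iff Θ _ h0]
      exact (Kp K p).add_mem (Kp K p).one_mem hf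
    · have hf' : -f ∉ Kp K p := by
        intro h; apply hf
        have := (Kp K p).neg_mem h
        rwa [neg_neg] at this
      obtain ⟨F, hF⟩ := st_parallel Θ hΘ (-f) hf'
      rw [sub_neg_eq_add, hneg, ha] at hF
      exact ⟨F * a, by rw [hF, smul_smul]⟩
  refine ⟨{ carrier := {f | ∃ a : L, om Θ f = a • X0}
            mul_mem' := fun {f g} hf hg => hmulc f g hf hg
            one_mem' := ⟨0, by rw [h1, zero_smul]⟩
            zero_mem' := ⟨0, by rw [om_zero, zero_smul]⟩
            neg_mem' := by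
              rintro f ⟨a, ha⟩
              exact ⟨a, by rw [hneg, ha]⟩
            inv_mem' := fun f hf => hinv f hf
            add_mem' := by
              intro f g hf hg
              rcases eq_or_ne f 0 with rfl | hf0
              · rw [zero_add]; exact hg
              have h2 := hmulc f (1 + f⁻¹ * g) hf (hone _ (hmulc _ _ (hinv f hf) hg))
              have e : f * (1 + f⁻¹ * g) = f + g := by field_simp
              rw [e] at h2
              exact h2 }, ?_⟩
  intro f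
  rfl

theorem compat_symm (Θ : KOne K p ≃ₗ[ZMod p] KOne L p) (hΘ : IsCompatible Θ) :
    (steinberg L p).map (TensorProduct.map Θ.symm.toLinearMap Θ.symm.toLinearMap) ≤
      steinberg K p := by
  unfold IsCompatible at hΘ
  rw [← hΘ, ← Submodule.map_comp, ← TensorProduct.map_comp]
  have : (Θ.symm.toLinearMap.comp Θ.toLinearMap) = LinearMap.id := by
    ext x; simp
  rw [this, TensorProduct.map_id, Submodule.map_id]

/-- `p`-independence is preserved. -/
theorem ind_of_not_mem (Θ : KOne K p ≃ₗ[ZMod p] KOne L p) (hΘ : IsCompatible Θ)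
    {u v : K} (hu : u ∉ Kp K p) (hv : v ∉ Kpx p u) : LogSys.Ind L (om Θ) u v := by
  have hu0 : u ≠ 0 := by rintro rfl; exact hu (Kp K p).zero_mem
  have hv0 : v ≠ 0 := by rintro rfl; exact hv (Kpx p u).zero_mem
  have hne : om Θ u ≠ 0 := fun h => hu ((om_eq_zero_iff Θ u hu0).1 h)
  have key : ∀ e : L, om Θ v ≠ e • om Θ u := by
    intro e he
    obtain ⟨x, hx⟩ := cls_surj (Θ (cls K p (Units.mk0 u hu0)))
    obtain ⟨y, hy⟩ := cls_surj (Θ (cls K p (Units.mk0 v hv0)))
    have hyx : (y : L) ∈ Kpx p (x : L) := by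
      apply mem_Kpx_of_forall
      intro D hD
      have h1 := congrFun he D
      rw [om_of_ne Θ hu0, om_of_ne Θ hv0, ← hx, ← hy, Pi.smul_apply, dlK_cls, dlK_cls, hD,
        zero_div, smul_zero] at h1
      rcases div_eq_zero_iff.1 h1 with h2 | h2
      · exact h2
      · exact absurd h2 (Units.ne_zero y)
    obtain ⟨S, hS⟩ := exists_parallel_subfield Θ.symm (compat_symm Θ hΘ) (dlK K p (cls K p (Units.mk0 u hu0)))
    have hle : Kpx p (x : L) ≤ S := by
      apply Kpx_le
      · intro z hz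
        rw [hS]
        refine ⟨0, ?_⟩
        rw [zero_smul]
        rcases eq_or_ne z 0 with rfl | hz0
        · exact om_zero _
        · exact (om_eq_zero_iff Θ.symm z hz0).2 hz
      · rw [hS]
        refine ⟨1, ?_⟩
        rw [one_smul, om_of_ne Θ.symm (Units.ne_zero x), Units.mk0_val, hx,
          LinearEquiv.symm_apply_apply]
    obtain ⟨a, ha⟩ := (hS _).1 (hle hyx)
    rw [om_of_ne Θ.symm (Units.ne_zero y), Units.mk0_val, hy, LinearEquiv.symm_apply_apply] at ha
    apply hv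
    apply mem_Kpx_of_forall
    intro D hD
    have h1 := congrFun ha D
    rw [Pi.smul_apply, dlK_cls, dlK_cls, Units.val_mk0, Units.val_mk0, hD, zero_div,
      smul_zero] at h1
    rcases div_eq_zero_iff.1 h1 with h2 | h2
    · exact h2
    · exact absurd h2 hv0
  intro a b hab
  have hb : b = 0 := by
    by_contra hb
    apply key (-(b⁻¹ * a))
    have h2 : b⁻¹ • (a • om Θ u + b • om Θ v) = 0 := by rw [hab, smul_zero]
    rw [smul_add, smul_smul, smul_smul, inv_mul_cancel₀ hb, one_smul] at h2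
    rw [neg_smul, eq_neg_iff_add_eq_zero, add_comm]; exact h2
  rw [hb, zero_smul, add_zero] at hab
  rcases smul_eq_zero.1 hab with h | h
  · exact ⟨h, hb⟩
  · exact absurd h hne

theorem logSys (Θ : KOne K p ≃ₗ[ZMod p] KOne L p) (hΘ : IsCompatible Θ)
    (hK : ∀ u : K, ∃ v : K, v ∉ Kpx p u) : LogSys (L := L) (Kp K p) (om Θ) where
  mul := om_mul Θ
  ker := om_eq_zero_iff Θ
  st := st_parallel Θ (le_of_eq hΘ)
  ind := by
    obtain ⟨u, hu⟩ := hK 1
    have hu' : u ∉ Kp K p := fun h => hu (Kp_le_Kpx 1 h)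
    obtain ⟨v, hv⟩ := hK u
    have hu0 : u ≠ 0 := by rintro rfl; exact hu' (Kp K p).zero_mem
    have hv0 : v ≠ 0 := by rintro rfl; exact hv (Kpx p u).zero_mem
    exact ⟨u, v, hu0, hv0, ind_of_not_mem Θ hΘ hu' hv⟩
  two := by
    intro h
    have h1 : ((2 : ℕ) : K) = 0 := by exact_mod_cast h
    rw [CharP.cast_eq_zero_iff K p] at h1
    have h2 : ((2 : ℕ) : L) = 0 := (CharP.cast_eq_zero_iff L p 2).2 h1
    exact_mod_cast h2

end transport

end Crest.Agent.S0010
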