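import Mathlib
import Crest.Prelude.Def_MilnorK
import Crest.Agent.S0010_A
import Crest.Agent.S0010_B
import Crest.Agent.S0010_C

set_option autoImplicit false

namespace Crest.Agent.S0010

open Crest.NumberTheoryR.MilnorK

section

variable {K L : Type*} [Field K] [Field L] {p : ℕ} [Fact p.Prime] [CharP K p] [CharP L p]

theorem intCast_smul_KOne (n : ℤ) (a : KOne L p) : ((n : ℤ) : ZMod p) • a = n • a :=
  Int.cast_smul_eq_zsmul (ZMod p) n a

theorem smul_zero_KOne (c : ZMod p) : c • (0 : KOne L p) = 0 := by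
  obtain ⟨n, rfl⟩ := ZMod.intCast_surjective c
  rw [intCast_smul_KOne, zsmul_zero]

theorem om_closed (Θ : KOne K p ≃ₗ[ZMod p] KOne L p) (u : K) (D1 D2 : Derivation ℤ L L) :
    D1 (om Θ u D2) - D2 (om Θ u D1) = om Θ u ⁅D1, D2⁆ := by
  rcases eq_or_ne u 0 with rfl | hu
  · rw [om_zero]; simp
  · rw [om_of_ne Θ hu]; exact dlK_closed _ D1 D2

variable {Θ : KOne K p ≃ₗ[ZMod p] KOne L p} (h : LogSys (L := L) (Kp K p) (om Θ))
  {α : K →+* L} (hα : ∀ u : K, u ∉ Kp K p → LogSys.R (om Θ) u (α u))

include h hα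

theorem exists_c {u : K} (hu : u ∉ Kp K p) :
    ∃ c : L, ∀ D : Derivation ℤ L L, D (α u) = c * (α u * om Θ u D) := by
  have hz0 : α u ≠ 0 := h.R_ne_zero hu (hα u hu)
  have hz1 : α u - 1 ≠ 0 := sub_ne_zero.2 (h.R_ne_one hu (hα u hu))
  have hR : ∀ D, (α u - 1) * om Θ (1 - u) D = α u * om Θ u D := by
    intro D
    have := congrFun (hα u hu) D
    simpa using this
  have hpar : ∀ D1 D2 : Derivation ℤ L L, D1 (α u) * om Θ u D2 = D2 (α u) * om Θ u D1 := by
    intro D1 D2
    have e1 := congrArg D1 (hR D2)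
    have e2 := congrArg D2 (hR D1)
    have e3 := hR ⁅D1, D2⁆
    have c1 := om_closed Θ u D1 D2
    have c2 := om_closed Θ (1 - u) D1 D2
    rw [D1.leibniz, D1.leibniz] at e1
    rw [D2.leibniz, D2.leibniz] at e2
    simp only [smul_eq_mul, map_sub, Derivation.map_one_eq_zero, sub_zero] at e1 e2
    have r1 := hR D1
    have r2 := hR D2
    have key : (α u - 1) * (D1 (α u) * (om Θ (1 - u) D2 - om Θ u D2)
        - D2 (α u) * (om Θ (1 - u) D1 - om Θ u D1)) = 0 := by
      linear_combination (α u - 1) * e1 - (α u - 1) * e2 - (α u - 1) * e3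
        - (α u - 1) ^ 2 * c2 + (α u - 1) * α u * c1
    linear_combination key - D1 (α u) * r2 + D2 (α u) * r1
  obtain ⟨D0, hD0⟩ := Function.ne_iff.1 (h.om_ne hu)
  rw [Pi.zero_apply] at hD0
  refine ⟨D0 (α u) / (om Θ u D0 * α u), fun D => ?_⟩
  have := hpar D D0
  field_simp
  linear_combination this

theorem exists_c_global : ∃ c : L, (∀ u : K, u ∉ Kp K p →
    ∀ D : Derivation ℤ L L, D (α u) = c * (α u * om Θ u D)) ∧
    (∀ D : Derivation ℤ L L, D c = 0) := by
  -- a chosen function
  have hex : ∀ u : K, ∃ c : L, u ∉ Kp K p →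
      ∀ D : Derivation ℤ L L, D (α u) = c * (α u * om Θ u D) := by
    intro u
    by_cases hu : u ∈ Kp K p
    · exact ⟨0, fun h => absurd hu h⟩
    · obtain ⟨c, hc⟩ := exists_c h hα hu
      exact ⟨c, fun _ => hc⟩
  choose c hc using hex
  have hind : ∀ u v : K, u ≠ 0 → v ≠ 0 → LogSys.Ind L (om Θ) u v → c u = c v := by
    intro u v hu0 hv0 hi
    have hu : u ∉ Kp K p := LogSys.Ind.left h hu0 hi
    have hv : v ∉ Kp K p := LogSys.Ind.right h hv0 hi
    have huv : u * v ∉ Kp K p := by
      intro hc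
      have h1 := (h.ker _ (mul_ne_zero hu0 hv0)).2 hc
      rw [h.mul u v hu0 hv0] at h1
      exact one_ne_zero (hi 1 1 (by rw [one_smul, one_smul]; exact h1)).1
    have hzu : α u ≠ 0 := h.R_ne_zero hu (hα u hu)
    have hzv : α v ≠ 0 := h.R_ne_zero hv (hα v hv)
    have key : (c (u * v) - c u) • om Θ u + (c (u * v) - c v) • om Θ v = 0 := by
      ext D
      have e1 := hc u hu D
      have e2 := hc v hv D
      have e3 := hc (u * v) huv D
      rw [h.mul u v hu0 hv0, map_mul, D.leibniz] at e3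
      simp only [smul_eq_mul, Pi.add_apply, Pi.smul_apply, Pi.zero_apply] at *
      have h1 : (α u * α v) * ((c (u * v) - c u) * om Θ u D + (c (u * v) - c v) * om Θ v D) = 0 := by
        linear_combination (-1) * e3 + α v * e1 + α u * e2
      rcases mul_eq_zero.1 h1 with h2 | h2
      · exact absurd h2 (mul_ne_zero hzu hzv)
      · exact h2
    have h2 := hi _ _ key
    rw [← sub_eq_zero.1 h2.1, ← sub_eq_zero.1 h2.2]
  obtain ⟨u1, u2, hu1, hu2, hi⟩ := h.ind
  have hu1K : u1 ∉ Kp K p := LogSys.Ind.left h hu1 hi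
  have hsymm : ∀ u v : K, LogSys.Ind L (om Θ) u v → LogSys.Ind L (om Θ) v u := by
    intro u v hi a b hab
    have := hi b a (by rw [add_comm]; exact hab)
    exact ⟨this.2, this.1⟩
  have hglob : ∀ u : K, u ∉ Kp K p → c u = c u1 := by
    intro u hu
    have hu0 := LogSys.ne_zero_of_not_mem hu
    by_cases hi1 : LogSys.Ind L (om Θ) u u1
    · exact hind u u1 hu0 hu1 hi1
    · -- u dependent on u1, so independent of u2
      have hi2 : LogSys.Ind L (om Θ) u u2 := by
        by_contra hi2
        unfold LogSys.Ind at hi1 hi2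
        push Not at hi1 hi2
        obtain ⟨a, b, hab, hne⟩ := hi1
        obtain ⟨a', b', hab', hne'⟩ := hi2
        have hou := h.om_ne hu
        have hb : b ≠ 0 := by
          intro hb
          rw [hb, zero_smul, add_zero] at hab
          rcases smul_eq_zero.1 hab with h2 | h2
          · exact hne h2 hb
          · exact hou h2
        have hb' : b' ≠ 0 := by
          intro hb'
          rw [hb', zero_smul, add_zero] at hab'
          rcases smul_eq_zero.1 hab' with h2 | h2
          · exact hne' h2 hb'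
          · exact hou h2
        have ha : a ≠ 0 := by
          intro ha
          rw [ha, zero_smul, zero_add] at hab
          rcases smul_eq_zero.1 hab with h2 | h2
          · exact hb h2
          · exact h.om_ne hu1K h2
        -- eliminate om u
        have := hi (a' * b) (-(a * b')) (by
          have e : (a' * b) • om Θ u1 + (-(a * b')) • om Θ u2
            = a' • (a • om Θ u + b • om Θ u1) - a • (a' • om Θ u + b' • om Θ u2) := by module
          rw [e, hab, hab']; simp)
        have h3 := neg_eq_zero.1 this.2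
        rcases mul_eq_zero.1 h3 with h4 | h4
        · exact ha h4
        · exact hb' h4
      rw [hind u u2 hu0 hu2 hi2, hind u2 u1 hu2 hu1 (hsymm _ _ hi)]
  refine ⟨c u1, fun u hu D => by rw [← hglob u hu]; exact hc u hu D, ?_⟩
  -- constancy
  set C := c u1 with hC
  have hu2K : u2 ∉ Kp K p := LogSys.Ind.right h hu2 hi
  have hpar : ∀ u : K, u ∉ Kp K p → ∀ D1 D2 : Derivation ℤ L L,
      D1 C * om Θ u D2 = D2 C * om Θ u D1 := by
    intro u hu D1 D2
    have hzu : α u ≠ 0 := h.R_ne_zero hu (hα u hu)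
    have hcu : ∀ D : Derivation ℤ L L, D (α u) = C * (α u * om Θ u D) := by
      intro D; rw [← hglob u hu]; exact hc u hu D
    have e1 := congrArg D1 (hcu D2)
    have e2 := congrArg D2 (hcu D1)
    have e3 := hcu ⁅D1, D2⁆
    rw [Derivation.commutator_apply] at e3
    rw [D1.leibniz, D1.leibniz] at e1
    rw [D2.leibniz, D2.leibniz] at e2
    have c1 := om_closed Θ u D1 D2
    have d1 := hcu D1
    have d2 := hcu D2
    simp only [smul_eq_mul] at *
    have key : α u * (D1 C * om Θ u D2 - D2 C * om Θ u D1) = 0 := by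
      rw [d1] at e1
      rw [d2] at e2
      linear_combination e3 - e1 + e2 + (- α u * C) * c1
    rcases mul_eq_zero.1 key with h1 | h1
    · exact absurd h1 hzu
    · exact sub_eq_zero.1 h1
  intro D0
  by_contra hD0
  have e : (om Θ u2 D0) • om Θ u1 + (-(om Θ u1 D0)) • om Θ u2 = 0 := by
    ext D
    have h1 := hpar u1 hu1K D0 D
    have h2 := hpar u2 hu2K D0 D
    simp only [Pi.add_apply, Pi.smul_apply, smul_eq_mul, Pi.zero_apply]
    have : D0 C * (om Θ u2 D0 * om Θ u1 D + -om Θ u1 D0 * om Θ u2 D) = 0 := by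
      linear_combination om Θ u2 D0 * h1 - om Θ u1 D0 * h2
    rcases mul_eq_zero.1 this with h3 | h3
    · exact absurd h3 hD0
    · exact h3
  have h4 := hi _ _ e
  have h5 : om Θ u1 D0 = 0 := neg_eq_zero.1 h4.2
  have h6 : om Θ u1 = 0 := by
    ext D
    have h1 := hpar u1 hu1K D0 D
    rw [h5, mul_zero] at h1
    rcases mul_eq_zero.1 h1 with h3 | h3
    · exact absurd h3 hD0
    · exact h3
  exact h.om_ne hu1K h6

/-- The global constant is a nonzero element of the prime field. -/
theorem exists_n : ∃ n : ℤ, (n : L) ≠ 0 ∧ ∀ u : K, u ∉ Kp K p →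
    ∀ D : Derivation ℤ L L, D (α u) = n * (α u * om Θ u D) := by
  have hp : p.Prime := Fact.out
  obtain ⟨c, hc, hcD⟩ := exists_c_global h hα
  obtain ⟨t, ht⟩ := h.exists_not_mem
  have hrep : ∀ u : K, u ∉ Kp K p → ∃ x : L, x ≠ 0 ∧ x ∉ Kp L p ∧
      ∀ D : Derivation ℤ L L, om Θ u D = D x / x := by
    intro u hu
    have hu0 := LogSys.ne_zero_of_not_mem hu
    obtain ⟨x, hx⟩ := cls_surj (Θ (cls K p (Units.mk0 u hu0)))
    have h1 : ∀ D : Derivation ℤ L L, om Θ u D = D (x : L) / x := by
      intro D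
      rw [om_of_ne Θ hu0, ← hx, dlK_cls]
    refine ⟨x, Units.ne_zero x, ?_, h1⟩
    intro hxK
    apply h.om_ne hu
    ext D
    rw [h1, derivation_of_mem_Kp D hxK, zero_div]; rfl
  have hcp : c ^ p = c := by
    obtain ⟨x, hx0, hxK, hx⟩ := hrep t ht
    have hzt : α t ≠ 0 := h.R_ne_zero ht (hα t ht)
    apply const_ratio hx0 hxK hzt hcD
    intro D
    rw [hc t ht D, hx D]
    field_simp
  have hc0 : c ≠ 0 := by
    rintro rfl
    -- then all α u are p-th powers
    have hpow : ∀ u : K, u ∉ Kp K p → (α u) ^ p = α u := by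
      intro u hu
      have hu' := LogSys.one_sub_not_mem hu
      obtain ⟨x, hx0, hxK, hx⟩ := hrep u hu
      obtain ⟨y, hy0, hyK, hy⟩ := hrep (1 - u) hu'
      have hz0 : α u ≠ 0 := h.R_ne_zero hu (hα u hu)
      have hz1 : α u - 1 ≠ 0 := sub_ne_zero.2 (h.R_ne_one hu (hα u hu))
      have hDz : ∀ D : Derivation ℤ L L, D (α u) = 0 := by
        intro D; rw [hc u hu D, zero_mul]
      have hF : ∀ D : Derivation ℤ L L, D y / y = (α u / (α u - 1)) * (D x / x) := by
        intro D
        rw [← hx, ← hy]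
        have := congrFun (hα u hu) D
        simp only [Pi.smul_apply, smul_eq_mul] at this
        field_simp
        linear_combination this
      have hDF : ∀ D : Derivation ℤ L L, D (α u / (α u - 1)) = 0 := by
        intro D
        rw [div_eq_mul_inv, D.leibniz, derivation_inv, map_sub, Derivation.map_one_eq_zero, hDz D]
        simp
      have h1 := const_ratio hx0 hxK hy0 hDF hF
      rw [div_pow] at h1
      have h2 : (α u - 1) ^ p = (α u) ^ p - 1 := by
        rw [sub_pow_char, one_pow]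
      rw [h2] at h1
      have h3 : (α u) ^ p - 1 ≠ 0 := by
        rw [← h2]; exact pow_ne_zero _ hz1
      rw [div_eq_div_iff h3 hz1] at h1
      linear_combination (-1) * h1
    have h1 := hpow t ht
    rw [← map_pow] at h1
    have h2 := α.injective h1
    exact ht (h2 ▸ pow_mem_Kp t)
  have h1 := (Subfield.mem_bot_iff_pow_eq_self L p).2 hcp
  obtain ⟨n, hn⟩ := (mem_bot_iff_intCast p L).1 h1
  refine ⟨n, by rw [hn]; exact hc0, ?_⟩
  rw [hn]
  exact hc

/-- The formula for `Θ`. -/
theorem exists_formula : ∃ c : ZMod p, c ≠ 0 ∧ ∀ u : Kˣ,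
    Θ (cls K p u) = c • cls L p (Units.map α.toMonoidHom u) := by
  obtain ⟨n, hn0, hn⟩ := exists_n h hα
  have hnp : (n : ZMod p) ≠ 0 := by
    intro h0
    apply hn0
    rw [ZMod.intCast_zmod_eq_zero_iff_dvd] at h0
    exact (CharP.intCast_eq_zero_iff L p n).2 h0
  refine ⟨(n : ZMod p)⁻¹, inv_ne_zero hnp, ?_⟩
  intro u
  have key : (n : ZMod p) • Θ (cls K p u) = cls L p (Units.map α.toMonoidHom u) := by
    have hu0 : (u : K) ≠ 0 := Units.ne_zero u
    by_cases hu : (u : K) ∈ Kp K p
    · have h1 : cls K p u = 0 := (cls_eq_zero_iff u).2 hu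
      rw [h1, map_zero, smul_zero_KOne]
      symm
      rw [cls_eq_zero_iff]
      obtain ⟨y, hy⟩ := mem_Kp.1 hu
      rw [mem_Kp]
      refine ⟨α y, ?_⟩
      rw [← map_pow, hy]; rfl
    · apply dlK_inj
      ext D
      have h1 := hn u hu D
      rw [om_of_ne Θ hu0, Units.mk0_val] at h1
      have h2 : dlK L p ((n : ZMod p) • Θ (cls K p u)) D = (n : L) * dlK L p (Θ (cls K p u)) D := by
        have : (n : ZMod p) • Θ (cls K p u) = n • Θ (cls K p u) :=
          intCast_smul_KOne n _
        rw [this, map_zsmul, Pi.smul_apply, zsmul_eq_mul]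
      rw [h2, dlK_cls]
      have hzu : α u ≠ 0 := h.R_ne_zero hu (hα u hu)
      have h3 : ((Units.map α.toMonoidHom u : Lˣ) : L) = α u := rfl
      rw [h3, h1]
      field_simp
  rw [← key, smul_smul, inv_mul_cancel₀ hnp, one_smul]

end

section surj

variable {K L : Type*} [Field K] [Field L] {p : ℕ} [Fact p.Prime] [CharP K p] [CharP L p]

theorem surj_of_formula {Θ : KOne K p ≃ₗ[ZMod p] KOne L p} (hΘ : IsCompatible Θ)
    (h : LogSys (L := L) (Kp K p) (om Θ))
    {α : K →+* L} (hα : ∀ u : K, u ∉ Kp K p → LogSys.R (om Θ) u (α u)) :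
    Function.Surjective α := by
  obtain ⟨n, hn0, hn⟩ := exists_n h hα
  obtain ⟨c, hc0, hc⟩ := exists_formula h hα
  have hdec : ∀ w : L, w ∉ Kp L p → ∃ (u : K) (a : L), u ∉ Kp K p ∧ a ≠ 0 ∧ a ∈ Kp L p ∧
      w = α u * a := by
    intro w hw
    have hw0 := LogSys.ne_zero_of_not_mem hw
    obtain ⟨u, hu⟩ := cls_surj (c⁻¹ • Θ.symm (cls L p (Units.mk0 w hw0)))
    have h1 := hc u
    rw [hu, map_smul, LinearEquiv.apply_symm_apply] at h1
    -- c⁻¹ • [w] = c • [α u] ; hmm we need exponent bookkeeping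
    -- choose instead u with Θ[u] = c • [w]
    obtain ⟨v, hv⟩ := cls_surj (c • Θ.symm (cls L p (Units.mk0 w hw0)))
    have h2 := hc v
    rw [hv, map_smul, LinearEquiv.apply_symm_apply] at h2
    have h3 : cls L p (Units.mk0 w hw0) = cls L p (Units.map α.toMonoidHom v) := by
      have := congrArg (fun a => c⁻¹ • a) h2
      simpa [smul_smul, inv_mul_cancel₀ hc0] using this
    have h4 : cls L p (Units.mk0 w hw0 * (Units.map α.toMonoidHom v)⁻¹) = 0 := by
      rw [cls_mul, h3, ← cls_mul, mul_inv_cancel]; rfl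
    rw [cls_eq_zero_iff] at h4
    have hαv : α (v : K) ≠ 0 := by
      rw [Ne, map_eq_zero]; exact Units.ne_zero v
    have e : ((Units.mk0 w hw0 * (Units.map α.toMonoidHom v)⁻¹ : Lˣ) : L) = w / α v := by
      rw [div_eq_mul_inv]; simp
    rw [e] at h4
    refine ⟨v, w / α v, ?_, div_ne_zero hw0 hαv, h4, by field_simp⟩
    intro hvK
    apply hw
    obtain ⟨y, hy⟩ := mem_Kp.1 hvK
    have h5 : α (v : K) ∈ Kp L p := by
      rw [mem_Kp]; exact ⟨α y, by rw [← map_pow, hy]⟩
    have h6 := (Kp L p).mul_mem h4 h5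
    rwa [div_mul_cancel₀ _ hαv] at h6
  -- K-linear relation between differentials
  have hrel : ∀ u : K, ∃ S : Subfield K, ∀ v : K, v ∈ S ↔
      ∃ e : K, ∀ D : Derivation ℤ L L, D (α v) = α e * D (α u) := by
    intro u
    refine ⟨{ carrier := {v | ∃ e : K, ∀ D : Derivation ℤ L L, D (α v) = α e * D (α u)}
              mul_mem' := ?_
              one_mem' := ⟨0, fun D => by simp⟩
              zero_mem' := ⟨0, fun D => by simp⟩
              neg_mem' := ?_
              inv_mem' := ?_
              add_mem' := ?_ }, fun v => Iff.rfl⟩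
    · rintro a b ⟨e, he⟩ ⟨f, hf⟩
      refine ⟨a * f + b * e, fun D => ?_⟩
      rw [map_mul, D.leibniz, he, hf]
      simp only [smul_eq_mul, map_add, map_mul]; ring
    · rintro a b ⟨e, he⟩ ⟨f, hf⟩
      refine ⟨e + f, fun D => ?_⟩
      rw [map_add, map_add, he, hf, map_add]; ring
    · rintro a ⟨e, he⟩
      refine ⟨-e, fun D => ?_⟩
      rw [map_neg, map_neg, he, map_neg]; ring
    · rintro a ⟨e, he⟩
      refine ⟨-(a⁻¹ * a⁻¹ * e), fun D => ?_⟩
      rw [map_inv₀, derivation_inv, he]
      simp only [map_neg, map_mul, map_inv₀]; ring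
  have hrange : ∀ w : L, w ∉ Kp L p → ∃ u : K, α u = w := by
    intro w hw
    obtain ⟨u, a, hu, ha0, haK, hwa⟩ := hdec w hw
    obtain ⟨v, b, hv, hb0, hbK, hwb⟩ := hdec (1 - w) (LogSys.one_sub_not_mem hw)
    -- v ∈ Kpx u
    have hd : ∀ D : Derivation ℤ L L, a * D (α u) = - (b * D (α v)) := by
      intro D
      have e1 := congrArg D hwa
      have e2 := congrArg D hwb
      rw [D.leibniz, derivation_of_mem_Kp D haK] at e1
      rw [D.leibniz, derivation_of_mem_Kp D hbK, map_sub, Derivation.map_one_eq_zero] at e2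
      simp only [smul_eq_mul] at e1 e2
      linear_combination (-1) * e1 - e2
    have hzu : α u ≠ 0 := h.R_ne_zero hu (hα u hu)
    have hzv : α v ≠ 0 := h.R_ne_zero hv (hα v hv)
    have hvu : v ∈ Kpx p u := by
      by_contra hvu
      have hi := ind_of_not_mem Θ hΘ hu hvu
      have h1 := hi (a * α u) (b * α v) (by
        ext D
        simp only [Pi.add_apply, Pi.smul_apply, smul_eq_mul, Pi.zero_apply]
        have e1 := hd D
        rw [hn u hu D, hn v hv D] at e1
        have : (n : L) * (a * α u * om Θ u D + b * α v * om Θ v D) = 0 := by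
          linear_combination e1
        rcases mul_eq_zero.1 this with h2 | h2
        · exact absurd h2 hn0
        · exact h2)
      exact mul_ne_zero ha0 hzu h1.1
    obtain ⟨S, hS⟩ := hrel u
    have hle : Kpx p u ≤ S := by
      apply Kpx_le
      · intro x hx
        obtain ⟨y, rfl⟩ := mem_Kp.1 hx
        rw [hS]
        refine ⟨0, fun D => ?_⟩
        rw [map_pow, derivation_pow_p, map_zero, zero_mul]
      · rw [hS]
        exact ⟨1, fun D => by rw [map_one, one_mul]⟩
    obtain ⟨e, he⟩ := (hS v).1 (hle hvu)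
    -- D0 with D0 (α u) ≠ 0
    obtain ⟨D0, hD0⟩ := Function.ne_iff.1 (h.om_ne hu)
    rw [Pi.zero_apply] at hD0
    have hDu : D0 (α u) ≠ 0 := by
      rw [hn u hu D0]
      exact mul_ne_zero hn0 (mul_ne_zero hzu hD0)
    have hab : a = - (b * α e) := by
      have h1 := hd D0
      rw [he D0] at h1
      have h2 : D0 (α u) * (a + b * α e) = 0 := by linear_combination h1
      rcases mul_eq_zero.1 h2 with h3 | h3
      · exact absurd h3 hDu
      · linear_combination h3
    have h1 : b * α (v - u * e) = 1 := by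
      rw [map_sub, map_mul]
      linear_combination (-1) * hwa - hwb + (- α u) * hab
    have hbv : b = α ((v - u * e)⁻¹) := by
      rw [map_inv₀]
      exact eq_inv_of_mul_eq_one_left h1
    refine ⟨u * (-((v - u * e)⁻¹ * e)), ?_⟩
    rw [hwa, hab, hbv]
    simp only [map_mul, map_neg]
  intro w
  by_cases hw : w ∈ Kp L p
  · -- pick t ∉ Kp L p
    obtain ⟨t, ht⟩ : ∃ t : L, t ∉ Kp L p := by
      obtain ⟨t, ht⟩ := h.exists_not_mem
      refine ⟨α t, fun hc => ?_⟩
      obtain ⟨D0, hD0⟩ := Function.ne_iff.1 (h.om_ne ht)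
      rw [Pi.zero_apply] at hD0
      have h1 := hn t ht D0
      rw [derivation_of_mem_Kp D0 hc] at h1
      exact mul_ne_zero hn0 (mul_ne_zero (h.R_ne_zero ht (hα t ht)) hD0) h1.symm
    obtain ⟨u, hu⟩ := hrange t ht
    have hwt : w + t ∉ Kp L p := by
      intro hc
      apply ht
      have := (Kp L p).sub_mem hc hw
      rwa [add_sub_cancel_left] at this
    obtain ⟨v, hv⟩ := hrange (w + t) hwt
    exact ⟨v - u, by rw [map_sub, hu, hv]; ring⟩
  · exact hrange w hw

/-- Uniqueness. -/
theorem unique_of_formula {Θ : KOne K p ≃ₗ[ZMod p] KOne L p}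
    (α β : K ≃+* L) (hK : ∃ t : K, t ∉ Kp K p)
    (c c' : ZMod p) (hc0 : c ≠ 0) (hc0' : c' ≠ 0)
    (hc : ∀ u : Kˣ, Θ (cls K p u) = c • cls L p (Units.map α.toRingHom.toMonoidHom u))
    (hc' : ∀ u : Kˣ, Θ (cls K p u) = c' • cls L p (Units.map β.toRingHom.toMonoidHom u)) :
    α = β := by
  -- β-form = e * α-form
  obtain ⟨m, hm⟩ := ZMod.intCast_surjective (c'⁻¹ * c)
  have hcls : ∀ u : Kˣ, cls L p (Units.map β.toRingHom.toMonoidHom u)
      = m • cls L p (Units.map α.toRingHom.toMonoidHom u) := by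
    intro u
    have h1 := (hc' u).symm.trans (hc u)
    have h2 := congrArg (fun a => c'⁻¹ • a) h1
    simp only [smul_smul, inv_mul_cancel₀ hc0', one_smul] at h2
    rw [h2, ← hm, intCast_smul_KOne]
  have hform : ∀ u : K, u ≠ 0 → ∀ D : Derivation ℤ L L,
      D (β u) * α u = m * (D (α u) * β u) := by
    intro u hu D
    have h1 := congrFun (congrArg (dlK L p) (hcls (Units.mk0 u hu))) D
    rw [map_zsmul, Pi.smul_apply, dlK_cls, dlK_cls, zsmul_eq_mul] at h1
    have e1 : ((Units.map β.toRingHom.toMonoidHom (Units.mk0 u hu) : Lˣ) : L) = β u := rfl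
    have e2 : ((Units.map α.toRingHom.toMonoidHom (Units.mk0 u hu) : Lˣ) : L) = α u := rfl
    rw [e1, e2] at h1
    have hα0 : α u ≠ 0 := by simpa using hu
    have hβ0 : β u ≠ 0 := by simpa using hu
    field_simp at h1
    linear_combination h1
  have hm0 : (m : L) ≠ 0 := by
    intro h0
    have h1 : (m : ZMod p) = 0 := by
      rw [ZMod.intCast_zmod_eq_zero_iff_dvd]
      exact (CharP.intCast_eq_zero_iff L p m).1 h0
    rw [h1] at hm
    exact mul_ne_zero (inv_ne_zero hc0') hc0 hm.symm
  have key : ∀ u : K, u ∉ Kp K p → α u = β u := by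
    intro u hu
    have hu0 := LogSys.ne_zero_of_not_mem hu
    have hu1 := LogSys.ne_one_of_not_mem hu
    have hu1' : 1 - u ≠ 0 := sub_ne_zero.2 hu1.symm
    have hαK : α u ∉ Kp L p := by
      intro hc
      obtain ⟨y, hy⟩ := mem_Kp.1 hc
      apply hu
      rw [mem_Kp]
      refine ⟨α.symm y, α.injective ?_⟩
      rw [map_pow, RingEquiv.apply_symm_apply, hy]
    obtain ⟨D, -, hD⟩ := exists_derivation (p := p) (Kp L p) pow_mem_Kp (α u) hαK
    have h1 := hform u hu0 D
    have h2 := hform (1 - u) hu1' D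
    rw [map_sub β, map_sub α, map_one β, map_one α, map_sub D, map_sub D,
      Derivation.map_one_eq_zero] at h2
    rw [hD] at h1 h2
    -- h1 : D(βu) αu = m βu ; h2 : -D(βu)(1-αu) = -m (1 - βu)
    have h3 : (m : L) * (β u - α u) = 0 := by
      linear_combination (-1) * (1 - α u) * h1 - (α u) * h2
    rcases mul_eq_zero.1 h3 with h4 | h4
    · exact absurd h4 hm0
    · exact (sub_eq_zero.1 h4).symm
  obtain ⟨t, ht⟩ := hK
  ext u
  by_cases hu : u ∈ Kp K p
  · have hut : u + t ∉ Kp K p := by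
      intro hc
      apply ht
      have := (Kp K p).sub_mem hc hu
      rwa [add_sub_cancel_left] at this
    have h1 := key _ hut
    rw [map_add, map_add, key t ht] at h1
    exact add_right_cancel h1
  · exact key u hu

end surj

end Crest.Agent.S0010
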