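import Mathlib
import Crest.Agent.S0010_B

set_option autoImplicit false

namespace Crest.Agent.S0010

open Polynomial IntermediateField
open scoped IntermediateField.algebraAdjoinAdjoin

theorem essFinite_of_closure {L : Type*} [Field L] (l : Subfield L)
    (hL : ∃ s : Finset L, Subfield.closure ((l : Set L) ∪ (s : Set L)) = ⊤) :
    Algebra.EssFiniteType l L := by
  obtain ⟨s, hs⟩ := hL
  rw [← IntermediateField.fg_top_iff]
  refine ⟨s, ?_⟩
  rw [eq_top_iff]
  intro x _
  have : (⊤ : Subfield L) ≤ (IntermediateField.adjoin l (s : Set L)).toSubfield := by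
    rw [← hs, Subfield.closure_le]
    rintro a (ha | ha)
    · exact (IntermediateField.adjoin l (s : Set L)).algebraMap_mem ⟨a, ha⟩
    · exact IntermediateField.subset_adjoin l _ ha
  exact this (Subfield.mem_top x)

/-- The subfield of elements killed by a derivation with values in a module. -/
def kerDer {R K N : Type*} [CommRing R] [Field K] [Algebra R K] [AddCommGroup N] [Module K N]
    [Module R N] (D : Derivation R K N) : Subfield K where
  carrier := {a | D a = 0}
  mul_mem' := by
    intro a b ha hb
    simp only [Set.mem_ofPred_eq] at *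
    rw [D.leibniz, ha, hb]; simp
  one_mem' := by simp
  add_mem' := by
    intro a b ha hb
    simp only [Set.mem_ofPred_eq] at *
    rw [map_add, ha, hb, add_zero]
  zero_mem' := by simp
  neg_mem' := by
    intro a ha
    simp only [Set.mem_ofPred_eq] at *
    rw [map_neg, ha, neg_zero]
  inv_mem' := by
    intro a ha
    simp only [Set.mem_ofPred_eq] at *
    rw [Derivation.leibniz_inv, ha]; simp

theorem exists_not_mem_Kpx {K : Type*} [Field K] {p : ℕ} [Fact p.Prime] [CharP K p]
    (k : Subfield K) [Algebra.EssFiniteType k K] (h2 : 2 ≤ Algebra.trdeg k K) (u : K) :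
    ∃ v : K, v ∉ Kpx p u := by
  by_contra hcon
  push Not at hcon
  let M := IntermediateField.adjoin k {u}
  have hle : Kpx p u ≤ kerDer (KaehlerDifferential.D M K) := by
    apply Kpx_le
    · intro a ha
      obtain ⟨b, rfl⟩ := mem_Kp.1 ha
      change KaehlerDifferential.D M K (b ^ p) = 0
      rw [Derivation.leibniz_pow, ← Nat.cast_smul_eq_nsmul K, CharP.cast_eq_zero, zero_smul]
    · change KaehlerDifferential.D M K u = 0
      exact Derivation.map_algebraMap _ (⟨u, IntermediateField.mem_adjoin_simple_self k u⟩ : M)
  have hD : ∀ v, KaehlerDifferential.D M K v = 0 := fun v => hle (hcon v)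
  have hU : Algebra.FormallyUnramified M K := by
    rw [Algebra.formallyUnramified_iff]
    have htop := KaehlerDifferential.span_range_derivation M K
    have hr : Set.range (KaehlerDifferential.D M K) ⊆ {0} := by
      rintro _ ⟨v, rfl⟩
      exact hD v
    have hbot : (⊤ : Submodule K (Ω[K⁄M])) ≤ ⊥ := by
      rw [← htop, Submodule.span_le]
      intro x hx
      simpa using hr hx
    refine ⟨fun a b => ?_⟩
    have ha : a = 0 := by simpa using hbot (Submodule.mem_top (x := a))
    have hb : b = 0 := by simpa using hbot (Submodule.mem_top (x := b))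
    rw [ha, hb]
  have hE : Algebra.EssFiniteType M K := Algebra.EssFiniteType.of_comp k M K
  have hsep : Algebra.IsSeparable M K := Algebra.FormallyUnramified.isSeparable M K
  have halg : Algebra.IsAlgebraic M K := inferInstance
  have halg2 : Algebra.IsAlgebraic (Algebra.adjoin k {u}) K :=
    (IsFractionRing.comap_isAlgebraic_iff (A := Algebra.adjoin k {u})
      (K := IntermediateField.adjoin k {u}) (C := K)).2 halg
  have h1 := Algebra.IsAlgebraic.trdeg_le_cardinalMk k ({u} : Set K)
  have h3 := h2.trans h1
  simp at h3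

theorem mem_of_isAlgebraic {L : Type*} [Field L] (l : Subfield L) [IsAlgClosed l] {t : L}
    (h : IsAlgebraic l t) : t ∈ l := by
  have hint : IsIntegral l t := h.isIntegral
  have hirr := minpoly.irreducible hint
  have hdeg := IsAlgClosed.degree_eq_one_of_irreducible l hirr
  obtain ⟨x, hx⟩ := minpoly.mem_range_of_degree_eq_one l t hdeg
  rw [← hx]
  exact x.2

theorem algClosed_le {L : Type*} [Field L] (l F : Subfield L) [IsAlgClosed l] [IsAlgClosed F]
    [Algebra.EssFiniteType l L] : F ≤ l := by
  intro t ht
  by_contra htl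
  have htr : Transcendental l t := fun halg => htl (mem_of_isAlgebraic l halg)
  have hind : AlgebraicIndepOn l _root_.id ({t} : Set L) := by
    unfold AlgebraicIndepOn
    rw [algebraicIndependent_singleton_iff (⟨t, rfl⟩ : ({t} : Set L))]
    exact htr
  obtain ⟨B, htB, hB⟩ := exists_isTranscendenceBasis_superset hind
  have htB' : t ∈ B := htB rfl
  let S : Set L := B \ {t}
  let M := IntermediateField.adjoin l S
  have himg : (Subtype.val : B → L) '' ({(⟨t, htB'⟩ : B)}ᶜ) = S := by
    ext x
    constructor
    · rintro ⟨⟨y, hy⟩, hy1, rfl⟩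
      refine ⟨hy, ?_⟩
      rintro (hyt : y = t)
      exact hy1 (Subtype.ext hyt)
    · rintro ⟨hx1, hx2⟩
      exact ⟨⟨x, hx1⟩, fun h => hx2 (congrArg Subtype.val h), rfl⟩
  have htrM' : Transcendental (Algebra.adjoin l S) t := by
    have h1 := hB.1.transcendental_adjoin (s := {(⟨t, htB'⟩ : B)}ᶜ) (i := ⟨t, htB'⟩) (by simp)
    rw [himg] at h1
    exact h1
  have htrM : Transcendental M t := by
    intro halg
    apply htrM'
    exact (IsFractionRing.isAlgebraic_iff (Algebra.adjoin l S) (IntermediateField.adjoin l S) L).2 halg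
  let N := IntermediateField.adjoin M {t}
  have halgL := hB.isAlgebraic_field
  have hle : IntermediateField.adjoin l (Set.range (Subtype.val : B → L)) ≤ N.restrictScalars l := by
    rw [IntermediateField.adjoin_le_iff]
    rintro _ ⟨⟨x, hx⟩, rfl⟩
    by_cases hxt : x = t
    · change x ∈ N
      rw [hxt]
      exact IntermediateField.mem_adjoin_simple_self M t
    · have hxM : x ∈ M := IntermediateField.subset_adjoin l S ⟨hx, hxt⟩
      exact N.algebraMap_mem ⟨x, hxM⟩
  have halgN : Algebra.IsAlgebraic N L := by
    refine ⟨fun x => ?_⟩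
    obtain ⟨P, hP0, hP⟩ := halgL.isAlgebraic x
    let φ : IntermediateField.adjoin l (Set.range (Subtype.val : B → L)) →+* N :=
      (IntermediateField.inclusion hle).toRingHom
    refine ⟨P.map φ, ?_, ?_⟩
    · rwa [Ne, Polynomial.map_eq_zero]
    · rw [aeval_def, eval₂_map]
      exact hP
  have hST : IsScalarTower l N L := IsScalarTower.of_algebraMap_eq (fun _ => rfl)
  have hEss : Algebra.EssFiniteType N L := Algebra.EssFiniteType.of_comp l N L
  have hfin : Module.Finite N L := Algebra.finite_of_essFiniteType_of_isAlgebraic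
  obtain ⟨q, hq1, hq⟩ := Nat.exists_infinite_primes (Module.finrank N L + 1)
  obtain ⟨z, hz⟩ := IsAlgClosed.exists_pow_nat_eq (⟨t, ht⟩ : F) hq.pos
  have hz' : (z : L) ^ q = t := by
    have := congrArg (fun x : F => (x : L)) hz
    simpa using this
  have htN : t ∈ N := IntermediateField.mem_adjoin_simple_self M t
  have hirr : Irreducible (X ^ q - C (⟨t, htN⟩ : N)) := by
    apply X_pow_sub_C_irreducible_of_prime hq
    intro b hb
    have hb' : (b : L) ^ q = t := by
      have := congrArg (fun x : N => (x : L)) hb
      simpa using this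
    obtain ⟨r, s, hrs⟩ := (IntermediateField.mem_adjoin_simple_iff M (b : L)).1 b.2
    have ht0 : t ≠ 0 := by
      rintro rfl; exact htl l.zero_mem
    have hs0 : aeval t s ≠ 0 := by
      intro hs0
      rw [hs0, div_zero] at hrs
      rw [hrs, zero_pow hq.ne_zero] at hb'
      exact ht0 hb'.symm
    rw [hrs, div_pow, div_eq_iff (pow_ne_zero _ hs0)] at hb'
    have h1 : aeval t (X * s ^ q - r ^ q) = 0 := by
      simp only [map_sub, map_mul, aeval_X, map_pow, hb', sub_self]
    have h2 := (transcendental_iff.1 htrM) _ h1
    have h3 : X * s ^ q = r ^ q := sub_eq_zero.1 h2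
    have hs : s ≠ 0 := by rintro rfl; simp at hs0
    have h4 := congrArg Polynomial.natDegree h3
    rw [natDegree_X_mul (pow_ne_zero _ hs), natDegree_pow, natDegree_pow] at h4
    have h5 : q ∣ 1 := by
      have : q ∣ q * s.natDegree + 1 := by rw [h4]; exact dvd_mul_right _ _
      exact (Nat.dvd_add_right (dvd_mul_right _ _)).1 this
    exact hq.one_lt.ne' (Nat.dvd_one.1 h5)
  have hmin : minpoly N (z : L) = X ^ q - C (⟨t, htN⟩ : N) := by
    symm
    apply minpoly.eq_of_irreducible_of_monic hirr
    · simp only [map_sub, map_pow, aeval_X, aeval_C, hz']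
      exact sub_self _
    · exact monic_X_pow_sub_C _ hq.ne_zero
  have hle2 := minpoly.natDegree_le (A := N) (z : L)
  rw [hmin, natDegree_X_pow_sub_C] at hle2
  omega

end Crest.Agent.S0010
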