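import Crest.Statements.S0010
import Crest.Agent.S0010_A
import Crest.Agent.S0010_B
import Crest.Agent.S0010_C
import Crest.Agent.S0010_D
import Crest.Agent.S0010_E

set_option autoImplicit false
open Crest.NumberTheoryR.MilnorK
open Crest Crest.NumberTheoryR

namespace Crest.Agent.S0010

open Polynomial in
theorem isAlgClosed_of_equiv {k k' : Type*} [Field k] [Field k'] (e : k ≃+* k')
    [IsAlgClosed k] : IsAlgClosed k' := by
  apply IsAlgClosed.of_exists_root
  intro p hmp hp
  have hpe : degree (p.map e.symm.toRingHom) ≠ 0 := by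
    rw [degree_map]
    exact ne_of_gt (degree_pos_of_irreducible hp)
  rcases IsAlgClosed.exists_root (k := k) (p.map e.symm.toRingHom) hpe with ⟨x, hx⟩
  use e x
  rw [IsRoot] at hx
  apply e.symm.injective
  rw [map_zero, ← hx]
  clear hx hpe hp hmp
  induction p using Polynomial.induction_on <;> simp_all

theorem isAlgClosed_map {M N : Type*} [Field M] [Field N] (m : Subfield M) (e : M ≃+* N)
    [IsAlgClosed m] : IsAlgClosed (m.map e.toRingHom) := by
  let f : m →+* (m.map e.toRingHom) :=
    { toFun := fun x => ⟨e x, ⟨x, x.2, rfl⟩⟩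
      map_one' := Subtype.ext (map_one e)
      map_mul' := fun a b => Subtype.ext (map_mul e (a : M) (b : M))
      map_zero' := Subtype.ext (map_zero e)
      map_add' := fun a b => Subtype.ext (map_add e (a : M) (b : M)) }
  have hf : Function.Bijective f := by
    refine ⟨f.injective, ?_⟩
    rintro ⟨y, x, hx, hxy⟩
    exact ⟨⟨x, hx⟩, Subtype.ext hxy⟩
  exact isAlgClosed_of_equiv (RingEquiv.ofBijective f hf)

/-- Let K and L be fields of characteristic p that are finitely generated and of transcendence degree at least 2 over algebraically closed subfields k and l. Let Θ be a linear isomorphism, over the integers mod p, from Kˣ/(Kˣ)^p to Lˣ/(Lˣ)^p that maps the span of the Steinberg elements [f] ⊗ [1 - f] (f ≠ 0, 1) of K exactly onto that of L. Then there is exactly one field isomorphism α from K to L with α(k) = l such that, for some non-zero scalar c, Θ[u] = c · [α(u)] for every unit u of K. -/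
theorem result {p : ℕ} [Fact p.Prime]
    {K L : Type*} [Field K] [Field L] [CharP K p] [CharP L p] (k : Subfield K) (l : Subfield L)
    [IsAlgClosed k] [IsAlgClosed l]
    (hK : ∃ s : Finset K, Subfield.closure ((k : Set K) ∪ (s : Set K)) = ⊤)
    (hL : ∃ s : Finset L, Subfield.closure ((l : Set L) ∪ (s : Set L)) = ⊤)
    (hK2 : 2 ≤ Algebra.trdeg k K) (hL2 : 2 ≤ Algebra.trdeg l L)
    (Θ : KOne K p ≃ₗ[ZMod p] KOne L p) (hΘ : IsCompatible Θ) :
    ∃! α : K ≃+* L, k.map α.toRingHom = l ∧
      ∃ c : ZMod p, c ≠ 0 ∧ ∀ u : Kˣ, Θ (cls K p u) = c • cls L p (Units.map α.toRingHom.toMonoidHom u) := by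
  have hEK : Algebra.EssFiniteType k K := essFinite_of_closure k hK
  have hEL : Algebra.EssFiniteType l L := essFinite_of_closure l hL
  have hKx : ∀ u : K, ∃ v : K, v ∉ Kpx p u := exists_not_mem_Kpx k hK2
  have h := logSys Θ hΘ hKx
  obtain ⟨α0, hα0⟩ := h.exists_ringHom
  have hsurj := surj_of_formula hΘ h hα0
  let α : K ≃+* L := RingEquiv.ofBijective α0 ⟨α0.injective, hsurj⟩
  have hαα0 : α.toRingHom = α0 := by ext x; rfl
  have hform := exists_formula h hα0
  obtain ⟨t, ht⟩ := h.exists_not_mem
  refine ⟨α, ⟨?_, ?_⟩, ?_⟩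
  · apply le_antisymm
    · have := isAlgClosed_map k α
      exact algClosed_le l (k.map α.toRingHom)
    · have := isAlgClosed_map l α.symm
      have h1 := algClosed_le k (l.map α.symm.toRingHom)
      intro y hy
      refine ⟨α.symm y, h1 ⟨y, hy, rfl⟩, ?_⟩
      exact α.apply_symm_apply y
  · rw [hαα0]
    exact hform
  · rintro β ⟨-, c', hc0', hc'⟩
    obtain ⟨c, hc0, hc⟩ := hform
    symm
    exact unique_of_formula α β ⟨t, ht⟩ c c' hc0 hc0' (by rw [hαα0]; exact hc) hc'

end Crest.Agent.S0010
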