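import Crest.Agent.S0047C0_Seg0
import Crest.Agent.S0047C0_Seg1
import Crest.Agent.S0047C0_Seg2
import Crest.Agent.S0047C0_Seg3
import Crest.Agent.S0047C0_Seg4
import Crest.Agent.S0047C0_Seg5
import Crest.Agent.S0047C0_Seg6
import Crest.Agent.S0047C0_Seg7
import Crest.Agent.S0047C0_Seg8

/-! generated: composition of the segments -/

set_option autoImplicit false

namespace Crest.Agent.S0047C0

open Crest.Agent.S0047.Chk

theorem mem0 : MemOK D0 := seg0 
theorem mem1 : MemOK D1 := seg1 mem0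
theorem mem2 : MemOK D2 := seg2 mem0 mem1
theorem mem3 : MemOK D3 := seg3 mem0 mem1 mem2
theorem mem4 : MemOK D4 := seg4 mem0 mem1 mem2 mem3
theorem mem5 : MemOK D5 := seg5 mem0 mem1 mem2 mem3 mem4
theorem mem6 : MemOK D6 := seg6 mem0 mem1 mem2 mem3 mem4 mem5
theorem mem7 : MemOK D7 := seg7 mem0 mem1 mem2 mem3 mem4 mem5 mem6
theorem mem8 : MemOK D8 := seg8 mem0 mem1 mem7

end Crest.Agent.S0047C0
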