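import Mathlib.Data.Nat.Notation

/-! generated: output memories of the certificate segments -/

set_option autoImplicit false

namespace Crest.Agent.S0047C1

noncomputable def D0 : ℕ := nat_lit 0xfffe000000000000000000000000000000000000000000038000003f800001ffc00001ffc00003ffc00003ffe00003efe00003ffe00807ffe00003ffe00007ffe00003ffe00001ffc00000ff8000005400000

end Crest.Agent.S0047C1
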