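import Mathlib.Data.Nat.Notation

/-! generated: output memories of the certificate segments -/

set_option autoImplicit false

namespace Crest.Agent.S0047C2

noncomputable def D0 : ℕ := nat_lit 0xfffe00000000000000000000000000000000000000000000000000150000001f800000bf800000ffe00000ffe00000ffe00001dfe00800ffe00001ffe00003ffe00001ffc00000ff800000bf8000000400000

end Crest.Agent.S0047C2
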