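import Mathlib.Data.Nat.Notation

/-! generated: output memories of the certificate segments -/

set_option autoImplicit false

namespace Crest.Agent.S0047C3

noncomputable def D0 : ℕ := nat_lit 0x7ffe00000000000000000000000000000000000000000000000000100000001f800000bf800000fff00000ffe00001dfe00001ffe00801ffe00001ffe00001fff00000ff800000ff000000540000000000000

end Crest.Agent.S0047C3
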