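import Crest.Agent.S0047C4_Seg0

/-! generated: composition of the segments -/

set_option autoImplicit false

namespace Crest.Agent.S0047C4

open Crest.Agent.S0047.Chk

theorem mem0 : MemOK D0 := seg0 

end Crest.Agent.S0047C4
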