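import Mathlib.Data.Nat.Notation

/-! generated: output memories of the certificate segments -/

set_option autoImplicit false

namespace Crest.Agent.S0047C4

noncomputable def D0 : ℕ := nat_lit 0x4ffe00000000000000000000000000000000000000000000000000000000002f0000003f800000ff8000005fc00000ffc00001ffc00803ffe00001ff800003ff8000007f0000007e000000000000000000000

end Crest.Agent.S0047C4
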