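import Mathlib.Data.Nat.Notation

/-! generated: output memories of the certificate segments -/

set_option autoImplicit false

namespace Crest.Agent.S0047C6

noncomputable def D0 : ℕ := nat_lit 0x3ffe0000000000000000000000000000000000000000000000000000000000040000001c0000007f800000ff800003bfe00001ffe00803ffe00001ffe00000ffc00000ffc00000ffe00000c50000000000000

end Crest.Agent.S0047C6
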