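import Mathlib.Data.Nat.Notation

/-! generated: output memories of the certificate segments -/

set_option autoImplicit false

namespace Crest.Agent.S0047C7

noncomputable def D0 : ℕ := nat_lit 0x8ffe0000000000000000000000000000000000000000000000000000000000540000007f0000007fc000003fe00003ffe00003ffe00807ffe00001ffc00003ffc00000ffc000007f0000001f0000000400000

end Crest.Agent.S0047C7
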