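import Mathlib.Data.Nat.Notation

/-! generated: output memories of the certificate segments -/

set_option autoImplicit false

namespace Crest.Agent.S0047C8

noncomputable def D0 : ℕ := nat_lit 0x8ffe00000000000000000000000000000000000000000000000000000000002e8000003fc000003fc00000ffc00001ffe00000ffc00801ffe00000ffe00000ffc000007f8000005f8000000f0000000000000

end Crest.Agent.S0047C8
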