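import Mathlib.Data.Nat.Notation

/-! generated: output memories of the certificate segments -/

set_option autoImplicit false

namespace Crest.Agent.S0047C9

noncomputable def D0 : ℕ := nat_lit 0xffe0000000000000000000000000000000000000000000000000000000000140000007e000000ff8000007fe000077fe00003ffe00807ffe00001ffe00003ffc00000ff0000007f0000001c0000000000000

end Crest.Agent.S0047C9
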