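import Crest.Agent.S0047_Sem

set_option autoImplicit false
set_option linter.unusedVariables false
set_option linter.unusedSimpArgs false
set_option exponentiation.threshold 2000

namespace Crest.Agent.S0047.Chk

open Crest.CombinatoricsR.PolyominoGame

/-- Maker cells of a packed frame: bit `a + 32 b` is the cell `(a, b)`. -/
def MS (F : ℕ) : Set Cell :=
  {p | 0 ≤ p.1 ∧ p.1 < 16 ∧ 0 ≤ p.2 ∧ p.2 < 20 ∧ F.testBit (p.1.toNat + 32 * p.2.toNat) = true}

/-- carrier cells of a packed frame: bit `a + 16 + 32 b` is the cell `(a, b)`. -/
def US (F : ℕ) : Set Cell :=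
  {p | 0 ≤ p.1 ∧ p.1 < 16 ∧ 0 ≤ p.2 ∧ p.2 < 20 ∧
    F.testBit (p.1.toNat + 16 + 32 * p.2.toNat) = true}

theorem MS_or (F G : ℕ) : MS (F ||| G) = MS F ∪ MS G := by
  ext p
  simp only [MS, Set.mem_ofPred_eq, Set.mem_union, Nat.testBit_or, Bool.or_eq_true]
  tauto

theorem US_or (F G : ℕ) : US (F ||| G) = US F ∪ US G := by
  ext p
  simp only [US, Set.mem_ofPred_eq, Set.mem_union, Nat.testBit_or, Bool.or_eq_true]
  tauto

theorem US_and (F G : ℕ) : US (F &&& G) = US F ∩ US G := by
  ext p
  simp only [US, Set.mem_ofPred_eq, Set.mem_inter_iff, Nat.testBit_and, Bool.and_eq_true]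
  tauto

/-- a proven pattern, packed with its depth -/
def Pat (F : ℕ) : Prop :=
  2 ^ 640 ≤ F ∧ ∀ k, k ≤ 30 → F < 2 ^ (640 + k) → W k (MS F) (US F)

/-- a frame: a nonempty family of proven patterns, `F` the union, `I` the intersection of carriers -/
def Fr (F I : ℕ) : Prop :=
  2 ^ 640 ≤ F ∧ I < 2 ^ 640 ∧
    ∀ k, k ≤ 30 → F < 2 ^ (640 + k) → ∀ y, y ∉ US I → W k (MS F) (US F \ {y})

/-- a leaf pattern (one move away from a copy) -/
def Leaf (G : ℕ) : Prop := G < 2 ^ 640 ∧ W 1 (MS G) (US G)

theorem or_lt_iff (F G n : ℕ) : F ||| G < 2 ^ n ↔ F < 2 ^ n ∧ G < 2 ^ n := by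
  constructor
  · intro h
    exact ⟨lt_of_le_of_lt Nat.left_le_or h, lt_of_le_of_lt Nat.right_le_or h⟩
  · rintro ⟨h1, h2⟩
    exact Nat.or_lt_two_pow h1 h2

theorem sdiff_of_notMem {A : Set Cell} {y : Cell} (h : y ∉ A) : A \ {y} = A :=
  Set.sdiff_singleton_eq_self h

theorem Fr.or {F I G J : ℕ} (h : Fr F I) (h' : Fr G J) (K : ℕ) (hK : K < 2 ^ 640)
    (hU : US K = US I ∩ US J) : Fr (F ||| G) K := by
  refine ⟨le_trans h.1 Nat.left_le_or, hK, fun k hk hlt y hy => ?_⟩
  rw [or_lt_iff] at hlt
  rw [hU] at hy
  by_cases h1 : y ∈ US I
  · have h2 : y ∉ US J := fun h2 => hy ⟨h1, h2⟩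
    refine (h'.2.2 k hk hlt.2 y h2).mono ?_ ?_
    · rw [MS_or]; exact Set.subset_union_right
    · rw [US_or]; exact Set.sdiff_subset_sdiff_left Set.subset_union_right
  · refine (h.2.2 k hk hlt.1 y h1).mono ?_ ?_
    · rw [MS_or]; exact Set.subset_union_left
    · rw [US_or]; exact Set.sdiff_subset_sdiff_left Set.subset_union_left

theorem Pat.fr {G : ℕ} (h : Pat G) (K : ℕ) (hK : K < 2 ^ 640) (hU : US K = US G) : Fr G K := by
  refine ⟨h.1, hK, fun k hk hlt y hy => ?_⟩
  rw [hU] at hy
  rw [sdiff_of_notMem hy]
  exact h.2 k hk hlt

theorem Fr.pat {F I : ℕ} (h : Fr F I) : Pat F := by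
  refine ⟨h.1, fun k hk hlt => ?_⟩
  have h0 : ((-1 : ℤ), (0 : ℤ)) ∉ US I := fun hh => by
    have := hh.1
    simp at this
  have := h.2.2 k hk hlt _ h0
  exact this.mono le_rfl Set.sdiff_subset

theorem Fr.leaf {F I G : ℕ} (h : Fr F I) (hG : Leaf G) : Fr (F ||| G) (I &&& G) := by
  refine ⟨le_trans h.1 Nat.left_le_or, Nat.and_lt_two_pow _ hG.1, fun k hk hlt y hy => ?_⟩
  rw [or_lt_iff] at hlt
  rw [US_and] at hy
  have hk1 : 1 ≤ k := by
    rcases Nat.eq_zero_or_pos k with rfl | h1
    · exact absurd hlt.1 (not_lt.mpr (by simpa using h.1))
    · exact h1
  by_cases h1 : y ∈ US I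
  · have h2 : y ∉ US G := fun h2 => hy ⟨h1, h2⟩
    have h3 := hG.2.le hk1
    rw [← sdiff_of_notMem h2] at h3
    refine h3.mono ?_ ?_
    · rw [MS_or]; exact Set.subset_union_right
    · rw [US_or]; exact Set.sdiff_subset_sdiff_left Set.subset_union_right
  · refine (h.2.2 k hk hlt.1 y h1).mono ?_ ?_
    · rw [MS_or]; exact Set.subset_union_left
    · rw [US_or]; exact Set.sdiff_subset_sdiff_left Set.subset_union_left

/-- mask of all carrier bits -/
def UM : ℕ := 4562371001365460516179682047563579234145637173673522187625890120894256639122753272228687642133378886062729487163206785136843232870287939708157016833991715047092218486944387502763801258267443200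

theorem UM_lt : UM < 2 ^ 640 := by decide +kernel

theorem UM_bits : ∀ a < 16, ∀ b < 20, UM.testBit (a + 16 + 32 * b) = true := by
  decide +kernel

theorem US_and_UM (t : ℕ) : US (t &&& UM) = US t := by
  ext p
  simp only [US, Set.mem_ofPred_eq, Nat.testBit_and, Bool.and_eq_true]
  constructor
  · rintro ⟨h1, h2, h3, h4, h5, _⟩
    exact ⟨h1, h2, h3, h4, h5⟩
  · rintro ⟨h1, h2, h3, h4, h5⟩
    exact ⟨h1, h2, h3, h4, h5, UM_bits _ (by omega) _ (by omega)⟩

theorem Leaf.fr {G : ℕ} (h : Leaf G) : Fr (G ||| 2 ^ 640) (G &&& UM) := by
  refine ⟨Nat.right_le_or, Nat.and_lt_two_pow _ UM_lt, fun k hk hlt y hy => ?_⟩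
  rw [or_lt_iff] at hlt
  rw [US_and_UM] at hy
  have hk1 : 1 ≤ k := by
    rcases Nat.eq_zero_or_pos k with rfl | h1
    · exact absurd hlt.2 (by simp)
    · exact h1
  have h3 := h.2.le hk1
  rw [← sdiff_of_notMem hy] at h3
  refine h3.mono ?_ ?_
  · rw [MS_or]; exact Set.subset_union_left
  · rw [US_or]; exact Set.sdiff_subset_sdiff_left Set.subset_union_left

theorem Fr.andLeaf_of_eq {F I : ℕ} (h : Fr F I) : I < 2 ^ 640 := h.2.1

/-- mask of the depth field -/
def NUM : ℕ := 19595533238066929130169206386965386812388635805594235337685102271886088947366925815248969848729616027417638959121853374994316890704219593618795447514918448423527290344891513008140752195298705792743505920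

theorem and_NUM (t : ℕ) : t &&& NUM = 2 ^ 640 * (t / 2 ^ 640 % 2 ^ 32) := by
  have h : NUM = (2 ^ 32 - 1) <<< 640 := by decide +kernel
  rw [h]
  apply Nat.eq_of_testBit_eq
  intro i
  rw [Nat.testBit_and, Nat.testBit_shiftLeft, Nat.testBit_two_pow_mul, Nat.testBit_mod_two_pow,
    Nat.testBit_div_two_pow, Nat.testBit_two_pow_sub_one]
  by_cases hi : 640 ≤ i
  · simp only [hi, ge_iff_le, decide_true, Bool.true_and]
    rw [Nat.sub_add_cancel hi, Bool.and_comm]
  · simp [hi]

theorem testBit_65537 (j : ℕ) : Nat.testBit 65537 j = (decide (j = 0) || decide (j = 16)) := by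
  by_cases hj : j < 17
  · revert j
    decide
  · have h1 : Nat.testBit 65537 j = false := by
      apply Nat.testBit_lt_two_pow
      calc 65537 < 2 ^ 17 := by norm_num
        _ ≤ 2 ^ j := Nat.pow_le_pow_right (by norm_num) (by omega)
    rw [h1]
    have h2 : j ≠ 0 := by omega
    have h3 : j ≠ 16 := by omega
    simp [h2, h3]

theorem Fr.close {F I : ℕ} (h : Fr F I) (a b : ℕ) (ha : a < 16) (hb : b < 16) (t : ℕ)
    (ht : t = F ||| (65537 <<< (a + 32 * b))) (hc : I &&& (t <<< 16) = I) :
    Fr ((t ^^^ (1 <<< (a + 32 * b))) + (t &&& NUM)) (t &&& UM) := by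
  set x := a + 32 * b with hx
  set F' := (t ^^^ (1 <<< x)) + (t &&& NUM) with hF'
  -- numeric facts
  have hFt : F ≤ t := by rw [ht]; exact Nat.left_le_or
  have hb1 : (1 <<< x) < 2 ^ 640 := by
    rw [Nat.one_shiftLeft]
    exact Nat.pow_lt_pow_right (by norm_num) (by omega)
  have hdiv : (t ^^^ (1 <<< x)) / 2 ^ 640 = t / 2 ^ 640 := by
    rw [← Nat.shiftRight_eq_div_pow, ← Nat.shiftRight_eq_div_pow, Nat.shiftRight_xor_distrib,
      Nat.shiftRight_eq_div_pow (1 <<< x), Nat.div_eq_of_lt hb1, Nat.xor_zero]
  set ν := t / 2 ^ 640 with hν
  have hν1 : 1 ≤ ν := by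
    rw [hν, Nat.one_le_div_iff (by positivity)]
    exact le_trans h.1 hFt
  have hF'eq : F' = (t ^^^ (1 <<< x)) + 2 ^ 640 * (ν % 2 ^ 32) := by rw [hF', and_NUM]
  have hF'div : F' / 2 ^ 640 = ν + ν % 2 ^ 32 := by
    rw [hF'eq, Nat.add_mul_div_left _ _ (by positivity), hdiv]
  have hbit : ∀ i, i < 640 → F'.testBit i = (t ^^^ (1 <<< x)).testBit i := by
    intro i hi
    have h1 : F' % 2 ^ 640 = (t ^^^ (1 <<< x)) % 2 ^ 640 := by
      rw [hF'eq, Nat.add_mul_mod_self_left]
    have h2 := Nat.testBit_mod_two_pow F' 640 i
    have h3 := Nat.testBit_mod_two_pow (t ^^^ (1 <<< x)) 640 i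
    rw [h1] at h2
    rw [h3] at h2
    simpa [hi] using h2.symm
  -- sets
  let X : Cell := ((a : ℤ), (b : ℤ))
  have htb : ∀ i, t.testBit i = (F.testBit i || (decide (i = x) || decide (i = x + 16))) := by
    intro i
    rw [ht, Nat.testBit_or, Nat.testBit_shiftLeft, testBit_65537]
    congr 1
    by_cases h1 : x ≤ i
    · have e1 : (i - x = 0) ↔ i = x := by omega
      have e2 : (i - x = 16) ↔ i = x + 16 := by omega
      simp [h1, e1, e2]
    · have e1 : i ≠ x := by omega
      have e2 : i ≠ x + 16 := by omega
      simp [h1, e1, e2]
  have hX : X ∈ US F' := by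
    refine ⟨Int.natCast_nonneg a, by show (a : ℤ) < 16; omega, Int.natCast_nonneg b, by show (b : ℤ) < 20; omega, ?_⟩
    simp only [X, Int.toNat_natCast]
    rw [hbit _ (by omega), Nat.testBit_xor, Nat.one_shiftLeft, Nat.testBit_two_pow, htb]
    have e1 : x ≠ a + 16 + 32 * b := by omega
    have e2 : a + 16 + 32 * b = x + 16 := by omega
    simp [e1, e2]
  have hUt : US t = US F' := by
    ext p
    simp only [US, Set.mem_ofPred_eq]
    refine and_congr_right fun h1 => and_congr_right fun h2 => and_congr_right fun h3 =>
      and_congr_right fun h4 => ?_
    rw [hbit _ (by omega), Nat.testBit_xor, Nat.one_shiftLeft, Nat.testBit_two_pow]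
    have e1 : x ≠ p.1.toNat + 16 + 32 * p.2.toNat := by omega
    simp [e1]
  have hFU : US F ⊆ US F' := by
    rw [← hUt, ht, US_or]
    exact Set.subset_union_left
  have hMt : MS t ⊆ insert X (MS F') := by
    rintro p ⟨h1, h2, h3, h4, h5⟩
    by_cases hp : p.1.toNat + 32 * p.2.toNat = x
    · left
      have e1 : p.1.toNat = a := by omega
      have e2 : p.2.toNat = b := by omega
      ext
      · simp only [X]; omega
      · simp only [X]; omega
    · right
      refine ⟨h1, h2, h3, h4, ?_⟩
      rw [hbit _ (by omega), Nat.testBit_xor, Nat.one_shiftLeft, Nat.testBit_two_pow, h5]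
      have e1 : x ≠ p.1.toNat + 32 * p.2.toNat := fun hh => hp hh.symm
      simp [e1]
  have hFM : MS F ⊆ MS t := by
    rw [ht, MS_or]
    exact Set.subset_union_left
  have hIM : US I ⊆ MS t := by
    rintro p ⟨h1, h2, h3, h4, h5⟩
    refine ⟨h1, h2, h3, h4, ?_⟩
    rw [← hc, Nat.testBit_and, Nat.testBit_shiftLeft, Bool.and_eq_true, Bool.and_eq_true] at h5
    have e1 : p.1.toNat + 16 + 32 * p.2.toNat - 16 = p.1.toNat + 32 * p.2.toNat := by omega
    rw [e1] at h5
    exact h5.2.2
  have hMX : MS F' ⊆ MS t := by
    rintro p ⟨h1, h2, h3, h4, h5⟩
    refine ⟨h1, h2, h3, h4, ?_⟩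
    rw [hbit _ (by omega), Nat.testBit_xor, Nat.one_shiftLeft, Nat.testBit_two_pow] at h5
    by_cases hp : x = p.1.toNat + 32 * p.2.toNat
    · rw [← hp, htb]
      simp
    · simpa [hp] using h5
  have hXt : X ∈ MS t := by
    refine ⟨Int.natCast_nonneg a, by show (a : ℤ) < 16; omega, Int.natCast_nonneg b, by show (b : ℤ) < 20; omega, ?_⟩
    simp only [X, Int.toNat_natCast]
    rw [htb]
    simp [hx]
  refine ⟨?_, Nat.and_lt_two_pow _ UM_lt, fun k hk hlt y hy => ?_⟩
  · have : 1 ≤ F' / 2 ^ 640 := by rw [hF'div]; omega
    rwa [Nat.one_le_div_iff (by positivity)] at this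
  rw [US_and_UM, hUt] at hy
  rw [sdiff_of_notMem hy]
  have h1 : ν + ν % 2 ^ 32 < 2 ^ k := by
    rw [← hF'div]
    rw [Nat.div_lt_iff_lt_mul (by positivity)]
    rwa [pow_add, mul_comm] at hlt
  have h2 : ν % 2 ^ 32 = ν := by
    apply Nat.mod_eq_of_lt
    calc ν < 2 ^ k := by omega
      _ ≤ 2 ^ 32 := Nat.pow_le_pow_right (by norm_num) (by omega)
  rw [h2] at h1
  obtain ⟨k', rfl⟩ : ∃ k', k = k' + 1 := by
    rcases k with _ | k'
    · simp at h1; omega
    · exact ⟨k', rfl⟩
  have h3 : ν < 2 ^ k' := by rw [pow_succ] at h1; omega
  have h4 : F < 2 ^ (640 + k') := by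
    refine lt_of_le_of_lt hFt ?_
    rw [hν, Nat.div_lt_iff_lt_mul (by positivity)] at h3
    rw [pow_add, mul_comm]
    exact h3
  right
  refine ⟨X, hX, fun z hz => ?_⟩
  have hz1 : z ∉ US I := by
    intro hh
    exact hz (hMt (hIM hh))
  exact (h.2.2 k' (by omega) h4 z hz1).mono (hFM.trans hMt) (Set.sdiff_subset_sdiff_left hFU)

/-! ### leaf patterns -/

/-- the eight oriented Snakies -/
def shp : ℕ → List (ℕ × ℕ)
  | 0 => [(0, 0), (1, 0), (2, 0), (3, 0), (3, 1), (4, 1)]
  | 1 => [(1, 0), (2, 0), (3, 0), (4, 0), (0, 1), (1, 1)]
  | 2 => [(3, 0), (4, 0), (0, 1), (1, 1), (2, 1), (3, 1)]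
  | 3 => [(0, 0), (1, 0), (1, 1), (2, 1), (3, 1), (4, 1)]
  | 4 => [(0, 0), (0, 1), (0, 2), (0, 3), (1, 3), (1, 4)]
  | 5 => [(1, 0), (1, 1), (1, 2), (1, 3), (0, 3), (0, 4)]
  | 6 => [(0, 0), (0, 1), (1, 1), (1, 2), (1, 3), (1, 4)]
  | _ => [(1, 0), (1, 1), (0, 1), (0, 2), (0, 3), (0, 4)]

theorem cc_shape (o : ℕ) (u v : ℤ) (A : Set Cell)
    (h : ∀ p ∈ shp o, ((p.1 : ℤ) + u, (p.2 : ℤ) + v) ∈ A) : ContainsCopy A := by
  have key : ∀ (t : ℤ × ℤ) (e₁ e₂ : ℤ) (sw : Bool),
      (∀ q ∈ snaky, ∃ p ∈ shp o,
        (if sw then (t.1 + e₁ * q.2, t.2 + e₂ * q.1) else (t.1 + e₁ * q.1, t.2 + e₂ * q.2)) =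
          ((p.1 : ℤ), (p.2 : ℤ))) →
      (e₁ = 1 ∨ e₁ = -1) → (e₂ = 1 ∨ e₂ = -1) → ContainsCopy A := by
    intro t e₁ e₂ sw hk h1 h2
    refine ⟨(t.1 + u, t.2 + v), e₁, e₂, h1, h2, ?_⟩
    cases sw
    · left
      intro q hq
      obtain ⟨p, hp, he⟩ := hk q hq
      have h3 := h p hp
      rw [Prod.ext_iff] at he
      simp only [Bool.false_eq_true, if_false] at he
      rw [← he.1, ← he.2] at h3
      convert h3 using 2 <;> ring
    · right
      intro q hq
      obtain ⟨p, hp, he⟩ := hk q hq
      have h3 := h p hp
      rw [Prod.ext_iff] at he
      simp only [if_true] at he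
      rw [← he.1, ← he.2] at h3
      convert h3 using 2 <;> ring
  match o with
  | 0 => exact key (0, 0) 1 1 false (by decide) (Or.inl rfl) (Or.inl rfl)
  | 1 => exact key (4, 0) (-1) 1 false (by decide) (Or.inr rfl) (Or.inl rfl)
  | 2 => exact key (0, 1) 1 (-1) false (by decide) (Or.inl rfl) (Or.inr rfl)
  | 3 => exact key (4, 1) (-1) (-1) false (by decide) (Or.inr rfl) (Or.inr rfl)
  | 4 => exact key (0, 0) 1 1 true (by decide) (Or.inl rfl) (Or.inl rfl)
  | 5 => exact key (1, 0) (-1) 1 true (by decide) (Or.inr rfl) (Or.inl rfl)
  | 6 => exact key (1, 4) (-1) (-1) true (by decide) (Or.inr rfl) (Or.inr rfl)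
  | (n + 7) =>
    exact key (0, 4) 1 (-1) true (by rw [show shp (n + 7) = shp 7 from rfl]; decide) (Or.inl rfl)
      (Or.inr rfl)

/-- `e` is the interleaved mask of the shape `o` shifted right by `off`, missing the `j`-th cell -/
def entOK (e o off j : ℕ) : Bool :=
  decide (e < 2 ^ 153) && decide (j < (shp o).length) &&
    (shp o).all fun p => decide (p.1 + off + 7 < 16) && decide (p.2 ≤ 4) &&
      e.testBit (p.1 + off + 16 + 32 * p.2) &&
      (decide (p = (shp o).getD j (0, 0)) || e.testBit (p.1 + off + 32 * p.2))

theorem entOK_leaf {e o off j : ℕ} (h : entOK e o off j = true) (a b : ℕ) (ha : a < 8)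
    (hb : b < 16) : Leaf (e <<< (a + 32 * b)) := by
  simp only [entOK, Bool.and_eq_true, decide_eq_true_eq, List.all_eq_true, Bool.or_eq_true] at h
  obtain ⟨⟨h1, h2⟩, h3⟩ := h
  have hG : e <<< (a + 32 * b) < 2 ^ 640 := by
    rw [Nat.shiftLeft_eq]
    calc e * 2 ^ (a + 32 * b) < 2 ^ 153 * 2 ^ (a + 32 * b) :=
          Nat.mul_lt_mul_of_pos_right h1 (by positivity)
      _ ≤ 2 ^ 153 * 2 ^ 487 := Nat.mul_le_mul_left _ (Nat.pow_le_pow_right (by norm_num) (by omega))
      _ = 2 ^ 640 := by rw [← pow_add]
  refine ⟨hG, ?_⟩
  set x0 := (shp o).getD j (0, 0) with hx0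
  have hx0m : x0 ∈ shp o := by
    rw [hx0, List.getD_eq_getElem _ _ h2]
    exact List.getElem_mem _
  let X : Cell := ((x0.1 : ℤ) + ((off + a : ℕ) : ℤ), (x0.2 : ℤ) + (b : ℤ))
  have hU : ∀ p ∈ shp o, ((p.1 : ℤ) + ((off + a : ℕ) : ℤ), (p.2 : ℤ) + (b : ℤ)) ∈
      US (e <<< (a + 32 * b)) := by
    intro p hp
    obtain ⟨⟨⟨h4, h5⟩, h6⟩, h7⟩ := h3 p hp
    have e1 : ((p.1 : ℤ) + ((off + a : ℕ) : ℤ)) = ((p.1 + off + a : ℕ) : ℤ) := by push_cast; ring
    have e2 : ((p.2 : ℤ) + (b : ℤ)) = ((p.2 + b : ℕ) : ℤ) := by push_cast; ring
    rw [e1, e2]
    refine ⟨Int.natCast_nonneg _, ?_, Int.natCast_nonneg _, ?_, ?_⟩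
    · show ((p.1 + off + a : ℕ) : ℤ) < 16
      omega
    · show ((p.2 + b : ℕ) : ℤ) < 20
      omega
    · simp only [Int.toNat_natCast]
      rw [Nat.testBit_shiftLeft]
      have e3 : p.1 + off + a + 16 + 32 * (p.2 + b) - (a + 32 * b) = p.1 + off + 16 + 32 * p.2 := by
        omega
      rw [e3, h6]
      have e4 : a + 32 * b ≤ p.1 + off + a + 16 + 32 * (p.2 + b) := by omega
      simp [e4]
  have hM : ∀ p ∈ shp o, ((p.1 : ℤ) + ((off + a : ℕ) : ℤ), (p.2 : ℤ) + (b : ℤ)) ∈
      insert X (MS (e <<< (a + 32 * b))) := by
    intro p hp
    obtain ⟨⟨⟨h4, h5⟩, h6⟩, h7⟩ := h3 p hp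
    rcases h7 with h7 | h7
    · left
      rw [h7]
    · right
      have e1 : ((p.1 : ℤ) + ((off + a : ℕ) : ℤ)) = ((p.1 + off + a : ℕ) : ℤ) := by push_cast; ring
      have e2 : ((p.2 : ℤ) + (b : ℤ)) = ((p.2 + b : ℕ) : ℤ) := by push_cast; ring
      rw [e1, e2]
      refine ⟨Int.natCast_nonneg _, ?_, Int.natCast_nonneg _, ?_, ?_⟩
      · show ((p.1 + off + a : ℕ) : ℤ) < 16
        omega
      · show ((p.2 + b : ℕ) : ℤ) < 20
        omega
      · simp only [Int.toNat_natCast]
        rw [Nat.testBit_shiftLeft]
        have e3 : p.1 + off + a + 32 * (p.2 + b) - (a + 32 * b) = p.1 + off + 32 * p.2 := by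
          omega
        rw [e3, h7]
        have e4 : a + 32 * b ≤ p.1 + off + a + 32 * (p.2 + b) := by omega
        simp [e4]
  right
  refine ⟨X, hU x0 hx0m, fun y _ => ?_⟩
  exact cc_shape o _ _ _ hM

/-- table of the 96 leaf masks (repeated up to 128), 512 bits each -/
def TBL : ℕ := 
  100947534228300573608260219470383780260348040644395725690632862699126195672249899475307821839165771817590675237695916419126454501961711094982377000129596096937854211629789723356102590454040611907655322634139213602069397082395780105162644055966814303200532025410385025148098839813429654079896109208997724364923655111592675983876851382402925148740274038775155704375428325066503216238105816357510183688221967396150749835641823153106977083836360407942440802140936781149509797740275270750213119312274688885422004456339728876207273980338832167635738534845304890401260118462734917206492243484316037455901665707529745992351667887750688088875143014725318605373070725504269797307638251803011516874470477154841249329640507398657465705816141764039188958232346411929990438100273832190020427242271731846629288062102369537166479165380406738065059971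763121899074053374580996227800491928970286394723849324527211148930664349044323213767739637632205721237920069831948380307493510422076681699891345478050271640988317086057805898200631236254384609664979742061623637384827100656515980246349212431819606757890737416351928994156564600570507075177415341518093777176578201494023518235882545868402227663699371413231420988871833047170486740457477504694513897525684928430168174227961150545912290212099840189730390409168820092298617636428413132084795900990590711646161515909156732018677785548224607358981380002072589994245625808761774447648234724498155645788932710605567670105846507064787388303218130866532911548908185665444179744605855282305954372952175246467076489456057249466143536603641281392864257262428030248995715359690409563889481844808474683603030891793241832243616518018452795551403844860466730179945561761305000147944754028333371288814818352564538683061455947604155452408978964673292190856892994886651888230620717385535133953247602862591824329391239720432609301557003794163606480573955572089557084972569710985486770827188655982489449362611157623458774888573196180971767884947341014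522388964392119242464240446209653849406560721551593229830573582835478534053981625996931867234418895653878890593596286470195565990059889569817292401648503604284601501560579145755500089248175880532031867637759972369934827613606140306041724516065762151165152858774886426304464129307089609347559631510710699135666534911000720217341589311102059119507237503677344299694888459065514228518209684942810746247721283481678078042506209115476273618661059782485213324360644683030121463147267499959016186919471572523219104473640347915606554859962338729681919961975847735239208892765582392725671568748727568901474231439174422094587974711434779246078624170508346801695378178974590671730017766813217781766218997980208720832377962842678776684001174204269203373947318828301836336581142551989154495638622608804838360719727789100546837362437613554103064986312373891107506174122810930421146027853587211656581872053128865113624232454954817579857496102394219058314408793116392069112118560475645015377864556864186177075618611767842086716038757736779351087277062828686165918445442230494545953340928600442094369208671013359998278604794613476740404461312678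576881337575896830495653877268373438380208835365359512220623345463039756020309187416672586029429164494624174545497033761247765835767837925228361251118816804945097831714804500923714658187993743058620554304068251701385803762798419145933474402588452874016935224362468988055530716708183297984802995524200224863001394801778561443341660795338204457072934068331373421028956960791038163877669851276699681248913454064535741250608221982258416890535472914971795993603127415571183861672665451652409040595501184717002768972651810868167430715888213128702107960996420871908563777325962935698462254649001632381895871982811911189984768458681742756888622207000868868611971409978702914528483914492986897591879119434831284714214876050648927206652943850090349332882604507237701980460114405334746354216845580914112340443150745556391492172500850604510507459817971494951768415857364163063928841923259003393830930119707150029156331284813490903823063810741712138256037534003224139584869484614036944747537297434978761781836352421657303092110118630364593736996613542907522080430599596264031210876908426641238855054461499349636702197697163981634805155187039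818421099132109294744747731193341196844810790365824308255064956085281258681745993407351300907530836602821047470980415695872346065455904898767871876628573534029142126456271177803153513106309919869428734508811308632843364854304137609036233857136009546647350126275552320142559117426933544529836333022699400359139092217301039222746438055233207951762505952656717463265329641278152732762912504071267575672029385356379937413273784441122984794811099559324774980943405003540772826720667097967768837715706233886424413734363198102592345979489145872993916526314144068870934496808103947048186436423682255228465956076982349697791504425949309820470465089200948427104283556260628712106716784882710462946225072772063047087538809996701673952950276451420629181426470173184233331185591255314290890961686064632715375338374848636654318019918047193238201445766129884533153044001805084027991590763271689524230189782500644160922720444760362080307730231005928722014179852394617490698467953788365112743696896029615605689024117745885750915169980422632475965310666999250521519960644513883085798013246560859834296227403691614096522563622491436987594419416723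795802068667550080077463191025027043724843625221261012051552963173153629851698213491007231699179561780162490880574171829161271656719640660636572780784609132837597379168537525436348414307403524428221537237332825102931252402026402130282352033290350358787560859461384488247792951011356410293195132599773164452360675363086719323395407806621491435243112709351356357528946929187166005572238152211919739104479909068950570501779981396725853707186047349585885085348037282967993569311498963331548048306291770109747845731046052291780904572756084972996262569970438273079286246993861358061055991934873524987736497729437039494952739155455431005508076059735008770484789256119255777531764921148932052085917871922862634087066748735915085817831842458214212262424837899826322983102377503092398595804614156120430858146564083944493550438004311909771773642451984545065886017595365904517439666941218775752388396007645664254436182933558054167790627257566005848013996388816612310590586765789087211997867926468709061584458726071819409165275983183754673858144103590511122751351793175259018113397402145549472554276394786681745681598751387598677408563701748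926135501738884829140717283351319142042071646637608356592604604460376582083089044661953113867204690970357244133032731891034444291878796752022320731651630289182606050480501900359688047658903665174208783566134452471729673568232219734634725406712143419652748988325344332684421007502785881606538984684574458820196354933307082281855544479502791054032518654710945920385776908489057213348007530777838355400796551719491030911747070148553910473257718324881177213803979040345447366733099167203425014207731404818301513656270615308937258126479024577529844423284243087788276816953758591334099697869177764391062675343390870279012769588733827740053875423878099886725243448632366635378453954426878667208465021907254526715937258746608785343141193119975206655955196053001876979326487837855302445383233618362468781502096163468430083904581706887297677615791510086736121195841755276211713977089631091928461965777112314919722866215642054558489957828959961979488797094474869315285803053580471466484254144675189369553515234274522467781744555535042825168488698640973836454345238458320737667835045914959554823744317565420461272266869450845382949592595370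057915623011147258533630805479677285668083466927867695204945487739338325003640410462407427116021106102630130215341001431457357428286652816398236534113141819027525973316849764887035374413643037173640409526828171845460890003845354574514820832357752573150316735095637869408970478274563026257354408195957702653524411447784078837281796102527529018913474684561119915429855329138244192579059655861644259969269705215123673541073050610346992611439106127672308239877161145812370987182818687072732327298680972558322104211809118138769869992823470988632727640942749672117367401710934855712283043344470954529113583273970760886062086501852012067198020831050500135734822643204684426418816937453277201435859598161473522379196710066526745463670322427231984721888096176889183715959653256280711247053567617463507179373037734992158960772633507607884249229317747335182821783374794111687448107754887686707744855547317575884333314298284761045073533988075603472167595982781978802449309854447051212279890881943745448756582667186685979592259141139020283912308693318860662288296466802758865800239995462023730009761059270184492465363395389436046946482261908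219739460705088638331454733136967166428212390651804944496234398480486567424082052323776928111913351198405409804831642947454062748977320437949003300081638724396482962516199616152318842105983660706990383639876589780193507384143597512522165413407183813839593641314056626576128715856415543854821661072345817499148129290850126074069523431838118776733488447825571817835786822710902194378273516809781555709739852946655005252540960713461855638793912129998676833054803745626727675529155605378195500888561025767656180474139106524197210407683553215161436255959245228625160737344754233293785820219187537155646402805254920058242905472646283481734114201791320997468754181359435346561624481408170652876269505201135459461527135790359138731981528190534190615152237752698580862509881785127999883306205558878907856774265645198748494480641719079093033957060248675290877998716351772442091237780246259227104975308838351654444312370887426303014444964079129186198051487995727549271663517097602970193081737945804892656623891039948248018844301560722013945225992476171083167667359029429411630474462376074718435940435318422579974340691484350207044861606495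865663358027382747976100912292049831960193059927672621774037702174221600636757429713662205701923674207665329695039988802926377881626227365194884555261275343548593758858959062536247666277298455125835489677215839680387173658199190953656553705229802504168223622636447901807005939226423372510098365325781764702375324301489452906386198936370705161650718007407565677538981337962278560243333561207096007135596710297798852801990818883464760545111298381700682302327342623885548703307178382264526320815693692017014505638240948948661158045664161196912287182956185022709400881324007304848221407736122402673895375861449852231371478965532829551549235028314548661267712708227280906619841251353327711944342519794779238863768692918866532158315660550630672900250123548525611525033182932727462165290284145984641250289460888192551497102486360583964131652580760367015474409987711219569446609658285229807185947552055751836105064401119234918705692982873632487011261918305269946419732441885968719384992420829188083099726719570578413625759294815560770799999113252020462990256786061486460505058679449588908319023801842767055718891940411969397401108124425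380805332300158984582016337768020615702780430914277526371573047588110969878755653076614671467878355426869508066153258673672421025206545162935806688719400302686932161956807280672722633605752947021646567310559645569235494736044386358738127922281255933031812827884211706586415079713730428253510969830829369406454661072100677054642781482396950581019861270400987584197200353089654416809452578966912807027105405153345812354628180764482961911494800338387392544183336599751785357045934337684637110735899749117364656955779196215647673793797122287188099137886841614079860293632415995737092222606496464871291653648861925580966765808596408592685285213570362250952512521237088765649140405293688701186761178437826362265355168117883129814605273538748431827894191656491195973904872638968623494944453406207361958176839783877886858162035545984955522558853166130706431111242878820679174151192440261697707299413896721408304189418738190423224063857819130430643063923693569422176415303206378594765683215571203333875121300946825638286383554108949479803932326046585870717538872556957394935065124537926009612194163145922057162455223580939175810850823829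974446141687462703037706772120121246905942364402535682370432992128600032649713492995645615277986517819572587114604508091514390544767836917444282448854255733075534387364187203879578106773580576574914102140992758011256558889875951133967079991945527520091175692005421267522954618689912433834261207599416406123732045223643764803318223957884205049655721761086030088085240371776284506424251768996424269018868441658102171142131884197619032075885573094709190368967836772543461375646678391588265463245198259667473748167622766379650221940179608620714903745153121808600282678064074553022109307924439450516069986777386058707590140635425003885660725440510849253075794601355282531726289174392139941365675126469745341265048789501964003972237373533124153196938003696883743304060606162318546451943126401409135502415648387217284890950876103687784766342330189480618479880341010017880682359072973265386139934475665137873492255399503893350867831426569466069519426675100517832278930714989372962578131468038080393779703005923958606871005356357091935094671537217971503003547860960199510635808355573985046796536162540973157866647493294444179143175693662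443338114024639425500490232827170169234770605001171302748309971788080897338297392000476263007593224181066193851200041883219720345104615226600671127853122758653800329355890822601319937844874005128504372424931361793759925567746066130438494563275525516194380520122025023483163210142450003663018234582102233215454493945035719087899103664871156157527078953355552335525468764344953643020422086255346265350135054002646192304754050840708987974751587831096272254885978553405334418772018200788102537101687107762916647342778206820472292653006085648854674409460555083300282688844594166561188328602678980437578231032617372256180164753196948562539730961439149978383011435883145389923772589061613760824637152029382690572631826503153913897472153442925152270516812012693133033173385595583673175916992397567687895891604672948597670269339833849509610480435205146774338927528515508168833067062031309454383293714736113265921123690900796577099974157828126621647780620501846172744302626251777434107779929800032118383481967184999502441299119905240435851799412684120464459987760034780011581318266576386696465344745168502556024309867143094178930587896322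323720828926563833361079340692740430248115638251288891131592859179363246388946282865191194572477100025097279947101338001894322347910325308430309028375326069646579561146440245905192597052593359577968922428179176626035254644866242707404321912202558136465175476098739798784660603663023329392745658574640578789014888863392012753914856641188995035900349155379223820923850434928678898627311557430924059098230462011123132874561586611160649645222457915505449172731139386011801073242510308553939839423728627708334529244166087241934193532961692648592416295387138959768641656478736643189943847841351538378674304965374497845558877870169477794206120791551184453565333805860744458280928292169972179251341904715213901461175726338686256962453173645733609266732515970052554273704484982690668839238857203153946917317535406789654722770404616554733614713160213572032268905651249260497924505187950830033675046683462588217511192287420662123294390801768628099970083490197065872460606815418853137918580828047360183294764081948264354016738989357196110148632085460928043463515020176307725181258097810623187195704356654778466017875417902782005524334058067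692508312509300339967545454114414707627090507408159241533721015711214576669724516742582698073244435272295635379743493807872263525516810556847178497319496436130733730144582112185964848102552334303267148333367024119217678448388516956313691713782448744492878992654798121300019362291134398896850446930271192829659215180228343153065143703070374659196600515205595859361818135240555537912781708291932522462754243707032466632035058545233272064334487130339904180209848259309334066300483908352240184226646151327705696446538541267417975354536733338130632744241344818200336440640723844595999424642932813836588781252049886180253242590228065556356872472945703360648641152338604390637736776190681614614009324934975950574976008323657426515223002279626443655677752927398592182657369740391230909975671063521090694070274268340274415583760812814297147133687698878991033624526644823441416126139082566867952724750336372755573000496972215353056555102666313243513873433170991777773717702896675784780258435749219036790867424173096524146487955078483901081407792036259519195409505098174806085073446872052646262555972753492597978297815191781413052786742846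440310326956106472459807714307752951590609720646172855938110154532840146214481632647515247298173851153157782687568653947111455230115145002551588977739108583816619971452634820672746533485801138527886883569630084362264815261520852831765950142882849584100966695761652890362173572720393664038308055392099190151407356561027605168735888186211884023867945170405139192431233615601934682965081969993156071533333561322584939535613658836405620299130076326811047312538015847956346609881013465683605504182984113245020293186350358149601528950369176684104315740501222160314935107339145369292682441728159341530360167355872495178285188945191678918437443044634487361818466867202280793558191591209518959610065498581143831742337311952045695394412566977982543693763002480749660533882948652631523230093945786996574447754345339557276715354039346328644991267795350106022024934675558870385595147914016399840072051924599454273910540147593382213851634716770011354005104765429769572230940888274763989683703975449500823546470407011296385395460880944271014054789123544893404772779138580980848479717332721051005643971996009879459084131992659987545464929205422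970428887533734232198331290269204505165642347705280457494272978622707664783278059479116267976496737592207253228016587761709439101427501872643284875749638785266007211856418253347528111867059152097404672074976883753935963993737873732968916027411900237748663990462703964576004467413517292881150263333267476520943352967650960760381329220923407424616859456759310666796066927784804007464395004386671014866421009544115369119522555168037402694025602903967526449695039795760408592406519019905208625592561153557832846821922904018420687125020458077506894922457972636928934406351190415454018641306661088466469254194664083059950220557718873654011897065124373953563395436446679810217839705922287926273959568010164494750933308758139981081312962412747829285600808971989008067316838795305428109985681949656693039947849914820324133965584192475977798795138869612693280566884014740410590607211134995604967449883758848212361463944569352830782875236232270390556564964120930938958518376544066075267017506536391283086200045499873909937557068952009751596711804877516914288564758527129511494450217454304549909493644341416512408457587827424689424793968465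75689241124967068374934452127345033931399348833424328089186239637228827468991192498160856904929727088929905928550068835958579201470323093045193452997816542807065117002066513734667464806071718497866836529175837499702524224060847718379508351995959503064070838343667314830697074195425188685348055617220285479707343714024428217137873789733108847627735444455304673704330478540958597925514583591020858300570463152797975893549137197497074030851854556273356726400274773003926888877569574462128510553695783582542884320562202774755658254678509390350284498355674091259642949503892992429381226264506657937592886057718255720566195072622235147409419226569075176878493519891408422175825324037847352278011383362630790738280462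

/-- orientation, offset, missing cell -/
def wit : List (ℕ × ℕ × ℕ) := [
  (0, 0, 0), (0, 0, 1), (0, 0, 2), (0, 0, 3), (0, 0, 4), (0, 0, 5), (0, 4, 0), (0, 4, 1), (0, 4, 2),
  (0, 4, 3), (0, 4, 4), (0, 4, 5), (1, 0, 0), (1, 0, 1), (1, 0, 2), (1, 0, 3), (1, 0, 4), (1, 0, 5),
  (1, 4, 0), (1, 4, 1), (1, 4, 2), (1, 4, 3), (1, 4, 4), (1, 4, 5), (2, 0, 0), (2, 0, 1), (2, 0, 2),
  (2, 0, 3), (2, 0, 4), (2, 0, 5), (2, 4, 0), (2, 4, 1), (2, 4, 2), (2, 4, 3), (2, 4, 4), (2, 4, 5),
  (3, 0, 0), (3, 0, 1), (3, 0, 2), (3, 0, 3), (3, 0, 4), (3, 0, 5), (3, 4, 0), (3, 4, 1), (3, 4, 2),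
  (3, 4, 3), (3, 4, 4), (3, 4, 5), (4, 0, 0), (4, 0, 1), (4, 0, 2), (4, 0, 3), (4, 0, 4), (4, 0, 5),
  (4, 7, 0), (4, 7, 1), (4, 7, 2), (4, 7, 3), (4, 7, 4), (4, 7, 5), (5, 0, 0), (5, 0, 1), (5, 0, 2),
  (5, 0, 3), (5, 0, 4), (5, 0, 5), (5, 7, 0), (5, 7, 1), (5, 7, 2), (5, 7, 3), (5, 7, 4), (5, 7, 5),
  (6, 0, 0), (6, 0, 1), (6, 0, 2), (6, 0, 3), (6, 0, 4), (6, 0, 5), (6, 7, 0), (6, 7, 1), (6, 7, 2),
  (6, 7, 3), (6, 7, 4), (6, 7, 5), (7, 0, 0), (7, 0, 1), (7, 0, 2), (7, 0, 3), (7, 0, 4), (7, 0, 5),
  (7, 7, 0), (7, 7, 1), (7, 7, 2), (7, 7, 3), (7, 7, 4), (7, 7, 5), (0, 0, 0), (0, 0, 1), (0, 0, 2),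
  (0, 0, 3), (0, 0, 4), (0, 0, 5), (0, 4, 0), (0, 4, 1), (0, 4, 2), (0, 4, 3), (0, 4, 4), (0, 4, 5),
  (1, 0, 0), (1, 0, 1), (1, 0, 2), (1, 0, 3), (1, 0, 4), (1, 0, 5), (1, 4, 0), (1, 4, 1), (1, 4, 2),
  (1, 4, 3), (1, 4, 4), (1, 4, 5), (2, 0, 0), (2, 0, 1), (2, 0, 2), (2, 0, 3), (2, 0, 4), (2, 0, 5),
  (2, 4, 0), (2, 4, 1)]

theorem wit_ok : (List.range 128).all (fun s =>
    entOK ((TBL >>> (512 * s)) &&& (2 ^ 512 - 1)) (wit.getD s (0, 0, 0)).1
      (wit.getD s (0, 0, 0)).2.1 (wit.getD s (0, 0, 0)).2.2) = true := by
  decide +kernel

theorem tbl_leaf (s a b : ℕ) (hs : s < 128) (ha : a < 8) (hb : b < 16) :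
    Leaf (((TBL >>> (512 * s)) &&& (2 ^ 512 - 1)) <<< (a + 32 * b)) := by
  have h := wit_ok
  rw [List.all_eq_true] at h
  exact entOK_leaf (h s (List.mem_range.mpr hs)) a b ha hb

/-! ### bit fields of an instruction -/

theorem and_0x1E7 (c : ℕ) : ∃ a b, a < 8 ∧ b < 16 ∧ c &&& 0x1E7 = a + 32 * b := by
  have h1 : ∀ v < 512, v &&& 0x1E7 = v % 8 + 32 * (v / 32 % 16) := by decide +kernel
  have h2 : c &&& 0x1E7 = (c % 512) &&& 0x1E7 := by
    apply Nat.eq_of_testBit_eq
    intro i
    rw [Nat.testBit_and, Nat.testBit_and, show (512 : ℕ) = 2 ^ 9 by norm_num, Nat.testBit_mod_two_pow]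
    by_cases hi : i < 9
    · simp [hi]
    · have : Nat.testBit 0x1E7 i = false := by
        apply Nat.testBit_lt_two_pow
        calc 0x1E7 < 2 ^ 9 := by norm_num
          _ ≤ 2 ^ i := Nat.pow_le_pow_right (by norm_num) (by omega)
      rw [this]
      simp
  refine ⟨c % 512 % 8, c % 512 / 32 % 16, by omega, by omega, ?_⟩
  rw [h2, h1 _ (Nat.mod_lt _ (by norm_num))]

theorem and_0x1EF (c : ℕ) : ∃ a b, a < 16 ∧ b < 16 ∧ c &&& 0x1EF = a + 32 * b := by
  have h1 : ∀ v < 512, v &&& 0x1EF = v % 16 + 32 * (v / 32 % 16) := by decide +kernel
  have h2 : c &&& 0x1EF = (c % 512) &&& 0x1EF := by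
    apply Nat.eq_of_testBit_eq
    intro i
    rw [Nat.testBit_and, Nat.testBit_and, show (512 : ℕ) = 2 ^ 9 by norm_num, Nat.testBit_mod_two_pow]
    by_cases hi : i < 9
    · simp [hi]
    · have : Nat.testBit 0x1EF i = false := by
        apply Nat.testBit_lt_two_pow
        calc 0x1EF < 2 ^ 9 := by norm_num
          _ ≤ 2 ^ i := Nat.pow_le_pow_right (by norm_num) (by omega)
      rw [this]
      simp
  refine ⟨c % 512 % 16, c % 512 / 32 % 16, by omega, by omega, ?_⟩
  rw [h2, h1 _ (Nat.mod_lt _ (by norm_num))]

theorem and_0xFE00 (c : ℕ) : ∃ s, s < 128 ∧ c &&& 0xFE00 = 512 * s := by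
  refine ⟨c / 2 ^ 9 % 2 ^ 7, Nat.mod_lt _ (by norm_num), ?_⟩
  have h : (0xFE00 : ℕ) = (2 ^ 7 - 1) <<< 9 := by norm_num [Nat.shiftLeft_eq]
  rw [h, show (512 : ℕ) = 2 ^ 9 by norm_num]
  apply Nat.eq_of_testBit_eq
  intro i
  rw [Nat.testBit_and, Nat.testBit_shiftLeft, Nat.testBit_two_pow_mul, Nat.testBit_mod_two_pow,
    Nat.testBit_div_two_pow, Nat.testBit_two_pow_sub_one]
  by_cases hi : 9 ≤ i
  · simp only [hi, ge_iff_le, decide_true, Bool.true_and]
    rw [Nat.sub_add_cancel hi, Bool.and_comm]
  · simp [hi]

/-! ### the machine -/

/-- states: `c` rest of the instruction word, `F I` current frame, `ST` stack, `D` memory -/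
abbrev T := ℕ → ℕ → ℕ → ℕ → ℕ → Bool

/-- low 704 bits -/
def M704 : ℕ := nat_lit 84162174424773976115855838126082058648805436845170781751972494449099714468753293153818664580441415219631727501698851483408310916002940861810045036330430093599283578738055113571066620126149163476340692027772502015
/-- low 1344 bits -/
def M1344 : ℕ := nat_lit 383984923062992702193107238768305990575971314802788874095145673202075995393018055488645297669674812185833211621938100469973519720714697045576788566898683254440275883795786334484525778054071087861396060398229434719927672395650215231472663143090071728679350725089418264731278276442800414037787428461842409521168393903855600900323733353159466811689332335765898192891862061280747855198528180896166938113212415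
/-- low 512 bits -/
def M512 : ℕ := nat_lit 13407807929942597099574024998205846127479365820592393377723561443721764030073546976801874298166903427690031858186486050853753882811946569946433649006084095
/-- `2^640` -/
def P640 : ℕ := nat_lit 4562440617622195218641171605700291324893228507248559930579192517899275167208677386505912811317371399778642309573594407310688704721375437998252661319722214188251994674360264950082874192246603776

/-- the leaf pattern of an instruction -/
def leafv (c : ℕ) : ℕ :=
  Nat.shiftLeft (Nat.land (Nat.shiftRight TBL (Nat.land c (nat_lit 0xFE00))) M512)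
    (Nat.land c (nat_lit 0x1E7))

/-- the move of an instruction -/
def xo (c : ℕ) : ℕ := Nat.land (Nat.shiftRight c (nat_lit 16)) (nat_lit 0x1EF)

/-- the memory index of an instruction -/
def io (c : ℕ) : ℕ := Nat.land (Nat.shiftRight c (nat_lit 9)) (nat_lit 0xFFFF)

/-- memory slot -/
def slot (D i : ℕ) : ℕ := Nat.land (Nat.shiftRight D (Nat.mul (nat_lit 704) i)) M704

/-- close a frame (`t` = frame with the move `x` added) -/
noncomputable def clo (k : T) (c x t I ST D : ℕ) : Bool :=
  Bool.rec (motive := fun _ => Bool) false
   (k c (Nat.add (Nat.xor t (Nat.shiftLeft (nat_lit 1) x)) (Nat.land t NUM)) (Nat.land t UM) ST D)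
   (Nat.beq (Nat.land I (Nat.shiftLeft t (nat_lit 16))) I)

/-- add a leaf and close -/
noncomputable def lac (k : T) (c F I ST D : ℕ) : Bool :=
  clo k (Nat.shiftRight c (nat_lit 28)) (xo c)
    (Nat.lor (Nat.lor F (leafv c)) (Nat.shiftLeft (nat_lit 65537) (xo c)))
    (Nat.land I (leafv c)) ST D

/-- close only -/
noncomputable def clx (k : T) (c F I ST D : ℕ) : Bool :=
  clo k (Nat.shiftRight c (nat_lit 28)) (xo c)
    (Nat.lor F (Nat.shiftLeft (nat_lit 65537) (xo c))) I ST D

noncomputable def pop2 (k : T) (c F I ST D P : ℕ) : Bool :=
  Bool.rec (motive := fun _ => Bool)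
    (k c (Nat.lor F (Nat.land P M704)) (Nat.land I (Nat.shiftRight P (nat_lit 704)))
      (Nat.shiftRight ST (nat_lit 1344)) D)
    false (Nat.beq P (nat_lit 0))

/-- pop a frame and combine it with the current one -/
noncomputable def pop (k : T) (c F I ST D : ℕ) : Bool := pop2 k c F I ST D (Nat.land ST M1344)

/-- push the current frame; the new one consists of a single pattern (`F'` with depth) -/
noncomputable def push (k : T) (c F I ST D F' : ℕ) : Bool :=
  Bool.rec (motive := fun _ => Bool) false
    (k c F' (Nat.land F' UM)
      (Nat.add (Nat.shiftLeft ST (nat_lit 1344)) (Nat.add F (Nat.shiftLeft I (nat_lit 704)))) D)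
    (Nat.ble F M704)

/-- add a leaf without closing -/
noncomputable def lea (k : T) (c F I ST D : ℕ) : Bool :=
  k (Nat.shiftRight c (nat_lit 28)) (Nat.lor F (leafv c)) (Nat.land I (leafv c)) ST D

noncomputable def ref2 (k : T) (c F I ST D G : ℕ) : Bool :=
  Bool.rec (motive := fun _ => Bool)
    (k (Nat.shiftRight c (nat_lit 28)) (Nat.lor F G) (Nat.land I G) ST D) false
    (Nat.beq G (nat_lit 0))

/-- add a proven pattern from the memory -/
noncomputable def refa (k : T) (c F I ST D : ℕ) : Bool := ref2 k c F I ST D (slot D (io c))

noncomputable def ref3 (k : T) (c F I ST D G : ℕ) : Bool :=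
  Bool.rec (motive := fun _ => Bool)
    (push k (Nat.shiftRight c (nat_lit 28)) F I ST D G) false
    (Nat.beq G (nat_lit 0))

/-- push a proven pattern from the memory -/
noncomputable def refp (k : T) (c F I ST D : ℕ) : Bool := ref3 k c F I ST D (slot D (io c))

/-- store the current frame as a pattern -/
noncomputable def sto (k : T) (c F I ST D : ℕ) : Bool :=
  Bool.rec (motive := fun _ => Bool) false
    (k (Nat.shiftRight c (nat_lit 28)) F I ST
      (Nat.lor D (Nat.shiftLeft F (Nat.mul (nat_lit 704) (io c)))))
    (Nat.ble F M704)

/-- selection by a bit test: `x` if the masked bits of `c` vanish, else `y` -/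
noncomputable def sel (v : ℕ) (x y : Bool) : Bool :=
  Bool.rec (motive := fun _ => Bool) y x (Nat.beq v (nat_lit 0))

noncomputable def ex00 (k : T) (c F I ST D : ℕ) : Bool :=
  sel (Nat.land c (nat_lit 33554432)) (lea k c F I ST D) (clx k c F I ST D)
noncomputable def ex01 (k : T) (c F I ST D : ℕ) : Bool :=
  sel (Nat.land c (nat_lit 33554432)) (pop k (Nat.shiftRight c (nat_lit 28)) F I ST D)
    (refa k c F I ST D)
noncomputable def ex10 (k : T) (c F I ST D : ℕ) : Bool :=
  sel (Nat.land c (nat_lit 33554432)) (refp k c F I ST D) (sto k c F I ST D)
noncomputable def ex11 (k : T) (c F I ST D : ℕ) : Bool :=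
  sel (Nat.land c (nat_lit 33554432)) (k (Nat.shiftRight c (nat_lit 28)) F I ST D) false
noncomputable def ex0 (k : T) (c F I ST D : ℕ) : Bool :=
  sel (Nat.land c (nat_lit 67108864)) (ex00 k c F I ST D) (ex01 k c F I ST D)
noncomputable def ex1 (k : T) (c F I ST D : ℕ) : Bool :=
  sel (Nat.land c (nat_lit 67108864)) (ex10 k c F I ST D) (ex11 k c F I ST D)
noncomputable def ex (k : T) (c F I ST D : ℕ) : Bool :=
  sel (Nat.land c (nat_lit 134217728)) (ex0 k c F I ST D) (ex1 k c F I ST D)
noncomputable def oth2 (k : T) (c F I ST D : ℕ) : Bool :=
  sel (Nat.land c (nat_lit 8)) (push k (Nat.shiftRight c (nat_lit 28)) F I ST D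
    (Nat.lor (leafv c) P640)) (ex k c F I ST D)
noncomputable def oth (k : T) (c F I ST D : ℕ) : Bool :=
  sel (Nat.land c (nat_lit 16)) (lac (pop k) c F I ST D) (oth2 k c F I ST D)

/-- one instruction -/
noncomputable def L0 (k : T) (c F I ST D : ℕ) : Bool :=
  sel (Nat.land c (nat_lit 24)) (lac k c F I ST D) (oth k c F I ST D)
/-- eight instructions -/
noncomputable def L3 (k : T) : T := L0 (L0 (L0 (L0 (L0 (L0 (L0 (L0 k)))))))
/-- 64 instructions -/
noncomputable def L6 (k : T) : T := L3 (L3 (L3 (L3 (L3 (L3 (L3 (L3 k)))))))

/-- run a list of instruction words (64 instructions of 28 bits each) -/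
noncomputable def run (fin : ℕ → ℕ → ℕ → ℕ → Bool) (cert : List ℕ) : ℕ → ℕ → ℕ → ℕ → Bool :=
  List.rec (motive := fun _ => ℕ → ℕ → ℕ → ℕ → Bool) fin
    (fun c _ ih => fun F I ST D => L6 (fun _ => ih) c F I ST D) cert

/-- initial frame: the leaf number 0 -/
def F0 : ℕ := nat_lit 4562440617622195218641171605700291324893228507248559930579192517899275167208677386505912811317371399778642309573594407310688704721375437998252661319722214188251994674360264950089629694767857678
/-- its carrier -/
def I0 : ℕ := nat_lit 6755399442038784

/-- run a segment: initial memory `D`, the final memory shifted by `n` slots must be `Dout` -/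
noncomputable def seg (D : ℕ) (cert : List ℕ) (n Dout : ℕ) : Bool :=
  run (fun _ _ _ D' => Nat.beq (Nat.shiftRight D' (Nat.mul (nat_lit 704) n)) Dout) cert F0 I0
    (nat_lit 0) D

/-! ### soundness -/

/-- a memory slot is empty or holds a proven pattern -/
def SlotOK (G : ℕ) : Prop := G = 0 ∨ Pat G

def MemOK (D : ℕ) : Prop := ∀ i, SlotOK (slot D i)

/-- a stack entry is empty or holds a frame -/
def EntOK (P : ℕ) : Prop := P = 0 ∨ Fr (P % 2 ^ 704) (P / 2 ^ 704)

def StOK (ST : ℕ) : Prop := ∀ i, EntOK (ST / 2 ^ (1344 * i) % 2 ^ 1344)

def Good (R : Prop) (k : T) : Prop :=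
  ∀ c F I ST D, k c F I ST D = true → Fr F I → StOK ST → MemOK D → R

theorem land_M704 (x : ℕ) : Nat.land x M704 = x % 2 ^ 704 := by
  have h : M704 = 2 ^ 704 - 1 := by decide +kernel
  rw [h]
  exact Nat.and_two_pow_sub_one_eq_mod x 704

theorem land_M1344 (x : ℕ) : Nat.land x M1344 = x % 2 ^ 1344 := by
  have h : M1344 = 2 ^ 1344 - 1 := by decide +kernel
  rw [h]
  exact Nat.and_two_pow_sub_one_eq_mod x 1344

theorem slot_eq (D i : ℕ) : slot D i = D / 2 ^ (704 * i) % 2 ^ 704 := by
  unfold slot
  rw [land_M704]
  congr 1
  exact Nat.shiftRight_eq_div_pow D (704 * i)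

theorem ble_M704 {F : ℕ} (h : Nat.ble F M704 = true) : F < 2 ^ 704 := by
  have h1 : F ≤ M704 := Nat.le_of_ble_eq_true h
  have h2 : M704 < 2 ^ 704 := by decide +kernel
  exact lt_of_le_of_lt h1 h2

theorem leafv_leaf (c : ℕ) : Leaf (leafv c) := by
  obtain ⟨a, b, ha, hb, h1⟩ := and_0x1E7 c
  obtain ⟨s, hs, h2⟩ := and_0xFE00 c
  have h3 : leafv c = ((TBL >>> (512 * s)) &&& (2 ^ 512 - 1)) <<< (a + 32 * b) := by
    have h4 : M512 = 2 ^ 512 - 1 := by decide +kernel
    show ((TBL >>> (c &&& 0xFE00)) &&& M512) <<< (c &&& 0x1E7) = _
    rw [h1, h2, h4]
  rw [h3]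
  exact tbl_leaf s a b hs ha hb

theorem xo_eq (c : ℕ) : ∃ a b, a < 16 ∧ b < 16 ∧ xo c = a + 32 * b := and_0x1EF (c >>> 16)

theorem brec_ft {b x : Bool} (h : (Bool.rec (motive := fun _ => Bool) false x b : Bool) = true) :
    b = true ∧ x = true := by
  cases b
  · exact absurd h (by simp)
  · exact ⟨rfl, h⟩

theorem brec_tf {b x : Bool} (h : (Bool.rec (motive := fun _ => Bool) x false b : Bool) = true) :
    b = false ∧ x = true := by
  cases b
  · exact ⟨rfl, h⟩
  · exact absurd h (by simp)

theorem sel_true {v : ℕ} {x y : Bool} (h : sel v x y = true) : x = true ∨ y = true := by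
  unfold sel at h
  cases hb : Nat.beq v (nat_lit 0)
  · rw [hb] at h; exact Or.inr h
  · rw [hb] at h; exact Or.inl h

section

variable {R : Prop} {k : T}

theorem clo_good (hk : Good R k) (c F I ST D c' t : ℕ) (ht : t = F ||| (65537 <<< xo c'))
    (h : clo k c (xo c') t I ST D = true) (hF : Fr F I) (hS : StOK ST) (hD : MemOK D) : R := by
  obtain ⟨h1, h2⟩ := brec_ft h
  obtain ⟨a, b, ha, hb, hx⟩ := xo_eq c'
  have h3 : I &&& (t <<< 16) = I := Nat.eq_of_beq_eq_true h1
  rw [hx] at h2 ht
  exact hk _ _ _ _ _ h2 (Fr.close hF a b ha hb t ht h3) hS hD

theorem lac_good (hk : Good R k) : Good R (lac k) := by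
  intro c F I ST D h hF hS hD
  exact clo_good hk _ (F ||| leafv c) _ ST D c _ rfl h (hF.leaf (leafv_leaf c)) hS hD

theorem clx_good (hk : Good R k) : Good R (clx k) := by
  intro c F I ST D h hF hS hD
  exact clo_good hk _ F _ ST D c _ rfl h hF hS hD

theorem pop_good (hk : Good R k) : Good R (pop k) := by
  intro c F I ST D h hF hS hD
  obtain ⟨h1, h2⟩ := brec_tf h
  have h0 := hS 0
  rw [Nat.mul_zero, pow_zero, Nat.div_one] at h0
  rw [land_M1344] at h1 h2
  have hP : Fr (ST % 2 ^ 1344 % 2 ^ 704) (ST % 2 ^ 1344 / 2 ^ 704) := by
    rcases h0 with h0 | h0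
    · rw [h0] at h1
      exact absurd h1 (by decide)
    · exact h0
  rw [land_M704] at h2
  refine hk _ _ _ _ _ h2 ?_ ?_ hD
  · refine Fr.or hF hP _ ?_ ?_
    · exact Nat.and_lt_two_pow _ (by
        have := hP.2.1
        rwa [← Nat.shiftRight_eq_div_pow] at this)
    · show US (I &&& ((ST % 2 ^ 1344) >>> 704)) = _
      rw [US_and, Nat.shiftRight_eq_div_pow]
  · intro i
    have h3 := hS (i + 1)
    have h4 : Nat.shiftRight ST (nat_lit 1344) / 2 ^ (1344 * i) = ST / 2 ^ (1344 * (i + 1)) := by
      show (ST >>> 1344) / 2 ^ (1344 * i) = _
      rw [Nat.shiftRight_eq_div_pow, Nat.div_div_eq_div_mul, ← pow_add]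
      congr 2
      ring
    rw [h4]
    exact h3

theorem push_good (hk : Good R k) (c F I ST D F' : ℕ) (h : push k c F I ST D F' = true)
    (hF' : Pat F') (hF : Fr F I) (hS : StOK ST) (hD : MemOK D) : R := by
  obtain ⟨h1, h2⟩ := brec_ft h
  have hlt := ble_M704 h1
  refine hk _ _ _ _ _ h2 (hF'.fr _ (Nat.and_lt_two_pow _ UM_lt) (US_and_UM F')) ?_ hD
  have hI := hF.2.1
  have e0 : Nat.add (Nat.shiftLeft ST (nat_lit 1344)) (Nat.add F (Nat.shiftLeft I (nat_lit 704))) =
      (F + 2 ^ 704 * I) + 2 ^ 1344 * ST := by
    show (ST <<< 1344) + (F + (I <<< 704)) = _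
    rw [Nat.shiftLeft_eq, Nat.shiftLeft_eq]
    ring
  have hP : F + 2 ^ 704 * I < 2 ^ 1344 := by
    calc F + 2 ^ 704 * I < 2 ^ 704 * 1 + 2 ^ 704 * I := by omega
      _ = 2 ^ 704 * (1 + I) := by ring
      _ ≤ 2 ^ 704 * 2 ^ 640 := Nat.mul_le_mul_left _ (by omega)
      _ = 2 ^ 1344 := by rw [← pow_add]
  rw [e0]
  intro i
  rcases i with _ | i
  · rw [Nat.mul_zero, pow_zero, Nat.div_one, Nat.add_mul_mod_self_left, Nat.mod_eq_of_lt hP]
    right
    rw [Nat.add_mul_mod_self_left, Nat.mod_eq_of_lt hlt, Nat.add_mul_div_left _ _ (by positivity),
      Nat.div_eq_of_lt hlt, Nat.zero_add]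
    exact hF
  · have h4 : ((F + 2 ^ 704 * I) + 2 ^ 1344 * ST) / 2 ^ (1344 * (i + 1)) = ST / 2 ^ (1344 * i) := by
      have e1 : 1344 * (i + 1) = 1344 + 1344 * i := by ring
      rw [e1, pow_add, ← Nat.div_div_eq_div_mul, Nat.add_mul_div_left _ _ (by positivity),
        Nat.div_eq_of_lt hP, Nat.zero_add]
    rw [h4]
    exact hS i

theorem lea_good (hk : Good R k) : Good R (lea k) := by
  intro c F I ST D h hF hS hD
  exact hk _ _ _ _ _ h (hF.leaf (leafv_leaf c)) hS hD

theorem slot_pat {D i : ℕ} (hD : MemOK D) (h : Nat.beq (slot D i) (nat_lit 0) = false) :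
    Pat (slot D i) := by
  rcases hD i with h1 | h1
  · rw [h1] at h
    exact absurd h (by decide)
  · exact h1

theorem refa_good (hk : Good R k) : Good R (refa k) := by
  intro c F I ST D h hF hS hD
  obtain ⟨h1, h2⟩ := brec_tf h
  have hG := slot_pat hD h1
  refine hk _ _ _ _ _ h2 ?_ hS hD
  refine Fr.or hF (hG.fr _ (Nat.and_lt_two_pow _ UM_lt) (US_and_UM _)) _ ?_ ?_
  · exact lt_of_le_of_lt Nat.and_le_left hF.2.1
  · show US (I &&& slot D (io c)) = _
    rw [US_and, US_and_UM]

theorem refp_good (hk : Good R k) : Good R (refp k) := by
  intro c F I ST D h hF hS hD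
  obtain ⟨h1, h2⟩ := brec_tf h
  exact push_good hk _ _ _ _ _ _ h2 (slot_pat hD h1) hF hS hD

theorem Pat.or {F G : ℕ} (hF : Pat F) (hG : Pat G) : Pat (F ||| G) := by
  refine ⟨le_trans hF.1 Nat.left_le_or, fun k hk hlt => ?_⟩
  rw [or_lt_iff] at hlt
  refine (hF.2 k hk hlt.1).mono ?_ ?_
  · rw [MS_or]; exact Set.subset_union_left
  · rw [US_or]; exact Set.subset_union_left

theorem slot_or (D E i : ℕ) : slot (D ||| E) i = slot D i ||| slot E i := by
  rw [slot_eq, slot_eq, slot_eq]
  apply Nat.eq_of_testBit_eq
  intro j
  simp only [Nat.testBit_or, Nat.testBit_mod_two_pow, Nat.testBit_div_two_pow]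
  by_cases hj : j < 704 <;> simp [hj]

theorem slot_shift (F j i : ℕ) (hF : F < 2 ^ 704) :
    slot (F <<< (704 * j)) i = if i = j then F else 0 := by
  rw [slot_eq]
  apply Nat.eq_of_testBit_eq
  intro b
  rw [Nat.testBit_mod_two_pow, Nat.testBit_div_two_pow, Nat.testBit_shiftLeft]
  have hbig : ∀ n, 704 ≤ n → F.testBit n = false := fun n hn =>
    Nat.testBit_lt_two_pow (lt_of_lt_of_le hF (Nat.pow_le_pow_right (by norm_num) hn))
  by_cases hij : i = j
  · subst hij
    rw [if_pos rfl]
    have e1 : b + 704 * i - 704 * i = b := by omega
    have e2 : 704 * i ≤ b + 704 * i := by omega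
    rw [e1]
    by_cases hb : b < 704
    · simp [hb, e2]
    · simp [hb, hbig b (by omega)]
  · rw [if_neg hij, Nat.zero_testBit]
    by_cases hb : b < 704
    · rcases lt_or_gt_of_ne hij with h | h
      · have e2 : ¬ (704 * j ≤ b + 704 * i) := by omega
        simp [e2]
      · rw [hbig (b + 704 * i - 704 * j) (by omega)]
        simp
    · simp [hb]

theorem MemOK.sto {D F : ℕ} (hD : MemOK D) (hF : Pat F) (hlt : F < 2 ^ 704) (j : ℕ) :
    MemOK (D ||| (F <<< (704 * j))) := by
  intro i
  rw [slot_or, slot_shift F j i hlt]
  by_cases hij : i = j
  · rw [if_pos hij]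
    rcases hD i with h | h
    · rw [h, Nat.zero_or]
      exact Or.inr hF
    · exact Or.inr (h.or hF)
  · rw [if_neg hij, Nat.or_zero]
    exact hD i

theorem sto_good (hk : Good R k) : Good R (sto k) := by
  intro c F I ST D h hF hS hD
  obtain ⟨h1, h2⟩ := brec_ft h
  exact hk _ _ _ _ _ h2 hF hS (hD.sto hF.pat (ble_M704 h1) (io c))

theorem sel_good {v : ℕ → ℕ} {f g : T} (hf : Good R f) (hg : Good R g) :
    Good R (fun c F I ST D => sel (v c) (f c F I ST D) (g c F I ST D)) := by
  intro c F I ST D h hF hS hD
  rcases sel_true h with h | h
  · exact hf _ _ _ _ _ h hF hS hD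
  · exact hg _ _ _ _ _ h hF hS hD

theorem ex_good (hk : Good R k) : Good R (ex k) := by
  refine sel_good (sel_good (sel_good ?_ ?_) (sel_good ?_ ?_))
    (sel_good (sel_good ?_ ?_) (sel_good ?_ ?_))
  · exact lea_good hk
  · exact clx_good hk
  · intro c F I ST D h hF hS hD
    exact pop_good hk _ _ _ _ _ h hF hS hD
  · exact refa_good hk
  · exact refp_good hk
  · exact sto_good hk
  · intro c F I ST D h hF hS hD
    exact hk _ _ _ _ _ h hF hS hD
  · intro c F I ST D h hF hS hD
    exact absurd h (by simp)

theorem L0_good (hk : Good R k) : Good R (L0 k) := by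
  refine sel_good (lac_good hk) (sel_good (lac_good (pop_good hk)) (sel_good ?_ (ex_good hk)))
  intro c F I ST D h hF hS hD
  refine push_good hk _ _ _ _ _ _ h ?_ hF hS hD
  have h1 : P640 = 2 ^ 640 := by decide +kernel
  show Pat (leafv c ||| P640)
  rw [h1]
  exact (leafv_leaf c).fr.pat

theorem L3_good (hk : Good R k) : Good R (L3 k) :=
  L0_good (L0_good (L0_good (L0_good (L0_good (L0_good (L0_good (L0_good hk)))))))

theorem L6_good (hk : Good R k) : Good R (L6 k) :=
  L3_good (L3_good (L3_good (L3_good (L3_good (L3_good (L3_good (L3_good hk)))))))

end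

theorem run_good {R : Prop} (fin : ℕ → ℕ → ℕ → ℕ → Bool) (hfin : Good R (fun _ => fin))
    (cert : List ℕ) : Good R (fun _ => run fin cert) := by
  induction cert with
  | nil => exact hfin
  | cons c l ih =>
    intro _ F I ST D h hF hS hD
    exact L6_good ih _ _ _ _ _ h hF hS hD

theorem MemOK.shift {D : ℕ} (h : MemOK D) (n : ℕ) : MemOK (D >>> (704 * n)) := by
  intro i
  have h1 := h (n + i)
  rw [slot_eq] at h1 ⊢
  rw [Nat.shiftRight_eq_div_pow, Nat.div_div_eq_div_mul, ← pow_add, ← Nat.mul_add]
  exact h1

/-- **soundness of a segment** -/
theorem seg_sound {D : ℕ} (hD : MemOK D) (cert : List ℕ) (n Dout : ℕ)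
    (h : seg D cert n Dout = true) : MemOK Dout := by
  have hF0 : Fr F0 I0 := by
    have h1 : F0 = leafv 0 ||| 2 ^ 640 := by decide +kernel
    have h2 : I0 = leafv 0 &&& UM := by decide +kernel
    rw [h1, h2]
    exact (leafv_leaf 0).fr
  have hS : StOK (nat_lit 0) := by
    intro i
    left
    show 0 / 2 ^ (1344 * i) % 2 ^ 1344 = 0
    rw [Nat.zero_div, Nat.zero_mod]
  refine run_good (R := MemOK Dout) _ ?_ cert 0 F0 I0 _ D h hF0 hS hD
  intro _ F I ST D' h' _ _ hD'
  have h3 : D' >>> (704 * n) = Dout := Nat.eq_of_beq_eq_true h'
  rw [← h3]
  exact hD'.shift n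

/-! ### assembling memories -/

theorem memOK_zero : MemOK (nat_lit 0) := by
  intro i
  left
  rw [slot_eq]
  show 0 / 2 ^ (704 * i) % 2 ^ 704 = 0
  rw [Nat.zero_div, Nat.zero_mod]

theorem MemOK.cons {G D : ℕ} (hG : SlotOK G) (hlt : G < 2 ^ 704) (hD : MemOK D) :
    MemOK (Nat.add (Nat.shiftLeft D (nat_lit 704)) G) := by
  have e0 : Nat.add (Nat.shiftLeft D (nat_lit 704)) G = G + 2 ^ 704 * D := by
    show (D <<< 704) + G = _
    rw [Nat.shiftLeft_eq]
    ring
  rw [e0]
  intro i
  rw [slot_eq]
  rcases i with _ | i
  · rw [Nat.mul_zero, pow_zero, Nat.div_one, Nat.add_mul_mod_self_left, Nat.mod_eq_of_lt hlt]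
    exact hG
  · have h4 : (G + 2 ^ 704 * D) / 2 ^ (704 * (i + 1)) = D / 2 ^ (704 * i) := by
      have e1 : 704 * (i + 1) = 704 + 704 * i := by ring
      rw [e1, pow_add, ← Nat.div_div_eq_div_mul, Nat.add_mul_div_left _ _ (by positivity),
        Nat.div_eq_of_lt hlt, Nat.zero_add]
    rw [h4, ← slot_eq]
    exact hD i

theorem slot_lt (D i : ℕ) : slot D i < 2 ^ 704 := by
  rw [slot_eq]
  exact Nat.mod_lt _ (by positivity)

/-- `gat D is E`: the slots `is` of `D` in front of `E` -/
noncomputable def gat (D : ℕ) (is : List ℕ) (E : ℕ) : ℕ :=
  List.rec (motive := fun _ => ℕ) E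
    (fun i _ ih => Nat.add (Nat.shiftLeft ih (nat_lit 704)) (slot D i)) is

theorem gat_ok {D E : ℕ} (hD : MemOK D) (is : List ℕ) (hE : MemOK E) : MemOK (gat D is E) := by
  induction is with
  | nil => exact hE
  | cons i l ih => exact MemOK.cons (hD i) (slot_lt D i) ih

theorem memOK_pat {D i G : ℕ} (hD : MemOK D) (h : Nat.beq (slot D i) G = true)
    (h0 : Nat.beq G (nat_lit 0) = false) : Pat G := by
  have h1 : slot D i = G := Nat.eq_of_beq_eq_true h
  rw [← h1] at h0 ⊢
  exact slot_pat hD h0

/-! ### symmetries -/

/-- check that the signed coordinate permutation `(swap, e₁, e₂, t)` maps the cells of `g` into those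
of `g'` (`off = 0` Maker cells, `off = 16` carrier cells) -/
def symChk (swap : Bool) (e₁ e₂ : ℤ) (t : ℤ × ℤ) (off g g' : ℕ) : Bool :=
  (List.range 20).all fun b => (List.range 16).all fun a =>
    !(g.testBit (a + off + 32 * b)) ||
      (let q := S0047.sym swap e₁ e₂ t ((a : ℤ), (b : ℤ))
       decide (0 ≤ q.1) && decide (q.1 < 16) && decide (0 ≤ q.2) && decide (q.2 < 20) &&
         g'.testBit (q.1.toNat + off + 32 * q.2.toNat))

theorem symChk_MS {swap : Bool} {e₁ e₂ : ℤ} {t : ℤ × ℤ} {g g' : ℕ}
    (h : symChk swap e₁ e₂ t 0 g g' = true) : S0047.sym swap e₁ e₂ t '' MS g ⊆ MS g' := by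
  rintro _ ⟨p, ⟨h1, h2, h3, h4, h5⟩, rfl⟩
  simp only [symChk, List.all_eq_true, List.mem_range, Bool.or_eq_true, Bool.not_eq_true',
    Bool.and_eq_true, decide_eq_true_eq] at h
  have h6 := h p.2.toNat (by omega) p.1.toNat (by omega)
  have e1 : ((p.1.toNat : ℤ), (p.2.toNat : ℤ)) = p := by
    ext
    · exact Int.toNat_of_nonneg h1
    · exact Int.toNat_of_nonneg h3
  rw [e1, Nat.add_zero] at h6
  rcases h6 with h6 | h6
  · rw [h5] at h6
    exact absurd h6 (by simp)
  · obtain ⟨⟨⟨⟨a1, a2⟩, a3⟩, a4⟩, a5⟩ := h6
    exact ⟨a1, a2, a3, a4, by simpa using a5⟩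

theorem symChk_US {swap : Bool} {e₁ e₂ : ℤ} {t : ℤ × ℤ} {g g' : ℕ}
    (h : symChk swap e₁ e₂ t 16 g g' = true) : S0047.sym swap e₁ e₂ t '' US g ⊆ US g' := by
  rintro _ ⟨p, ⟨h1, h2, h3, h4, h5⟩, rfl⟩
  simp only [symChk, List.all_eq_true, List.mem_range, Bool.or_eq_true, Bool.not_eq_true',
    Bool.and_eq_true, decide_eq_true_eq] at h
  have h6 := h p.2.toNat (by omega) p.1.toNat (by omega)
  have e1 : ((p.1.toNat : ℤ), (p.2.toNat : ℤ)) = p := by
    ext
    · exact Int.toNat_of_nonneg h1
    · exact Int.toNat_of_nonneg h3
  rw [e1] at h6
  rcases h6 with h6 | h6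
  · rw [h5] at h6
    exact absurd h6 (by simp)
  · obtain ⟨⟨⟨⟨a1, a2⟩, a3⟩, a4⟩, a5⟩ := h6
    exact ⟨a1, a2, a3, a4, a5⟩

/-- transport of a proven pattern by a symmetry of the board -/
theorem Pat.sym {g g' : ℕ} (h : Pat g) (swap : Bool) (e₁ e₂ : ℤ) (t : ℤ × ℤ)
    (hc : (symChk swap e₁ e₂ t 0 g g' && symChk swap e₁ e₂ t 16 g g' &&
      Nat.beq (g >>> 640) (g' >>> 640) && (decide (e₁ = 1) || decide (e₁ = -1)) &&
      (decide (e₂ = 1) || decide (e₂ = -1))) = true) : Pat g' := by
  simp only [Bool.and_eq_true, Bool.or_eq_true, decide_eq_true_eq] at hc
  obtain ⟨⟨⟨⟨h1, h2⟩, h3⟩, h4⟩, h5⟩ := hc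
  have h6 : g / 2 ^ 640 = g' / 2 ^ 640 := by
    rw [← Nat.shiftRight_eq_div_pow, ← Nat.shiftRight_eq_div_pow]
    exact Nat.eq_of_beq_eq_true h3
  have hg := h.1
  refine ⟨?_, fun k hk hlt => ?_⟩
  · rw [← Nat.one_le_div_iff (by positivity)] at hg ⊢
    omega
  · have h7 : g < 2 ^ (640 + k) := by
      rw [pow_add, mul_comm, ← Nat.div_lt_iff_lt_mul (by positivity)] at hlt ⊢
      omega
    exact ((h.2 k hk h7).sym swap e₁ e₂ t h4 h5).mono (symChk_MS h1) (symChk_US h2)

/-- extraction of the final statement -/
theorem Pat.final {g : ℕ} (h : Pat g) (n : ℕ) (hn : n ≤ 30)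
    (hc : (Nat.blt (g >>> (640 + n)) 1 &&
      (List.range 20).all fun b => (List.range 16).all fun a => !(g.testBit (a + 32 * b))) = true) :
    W n ∅ (US g) := by
  simp only [Bool.and_eq_true, List.all_eq_true, List.mem_range, Bool.not_eq_true'] at hc
  obtain ⟨h1, h2⟩ := hc
  have h3 : g < 2 ^ (640 + n) := by
    have h4 : g >>> (640 + n) < 1 := by
      have := Nat.le_of_ble_eq_true h1
      omega
    rw [Nat.shiftRight_eq_div_pow] at h4
    rw [Nat.div_lt_iff_lt_mul (by positivity)] at h4
    omega
  have h5 : MS g = ∅ := by
    ext p
    simp only [Set.mem_empty_iff_false, iff_false]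
    rintro ⟨a1, a2, a3, a4, a5⟩
    have := h2 p.2.toNat (by omega) p.1.toNat (by omega)
    rw [a5] at this
    exact absurd this (by simp)
  have h6 := h.2 n hn h3
  rwa [h5] at h6

end Crest.Agent.S0047.Chk
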