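import Mathlib
import Crest.Prelude.Def_PolyominoGame

/-!
S0047 (Snaky, 21 Maker moves): shared definitions. (helper10)

`W n M N` : Maker to move, Maker owns the cells `M`, `N` = the cells NOT taken by Breaker;
Maker can complete a copy of Snaky with at most `n` further moves.
-/

set_option autoImplicit false

namespace Crest.Agent.S0047

open Crest.CombinatoricsR.PolyominoGame

abbrev Cell := ℤ × ℤ

/-- Maker to move, wins with at most `n` further moves; `N` = cells not owned by Breaker.
(`x ∈ M` is allowed: then Maker wastes a move; Breaker may also waste a move, `y ∉ N`.) -/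
def W : ℕ → Set Cell → Set Cell → Prop
  | 0, M, _ => ContainsCopy M
  | n + 1, M, N => ContainsCopy M ∨
      ∃ x ∈ N, ∀ y, y ∉ insert x M → W n (insert x M) (N \ {y})

/-- cells of a bit mask: bit `a + 16 b` is the cell `(a, b)`, `0 ≤ a < 16`, `0 ≤ b`. -/
def S (m : ℕ) : Set Cell :=
  {p | 0 ≤ p.1 ∧ p.1 < 16 ∧ 0 ≤ p.2 ∧ m.testBit (p.1.toNat + 16 * p.2.toNat) = true}

/-- The eight oriented Snakies as bit masks in the lower left corner (rows of 16 bits).
0..3 horizontal (5 wide, 2 high), 4..7 vertical (2 wide, 5 high). -/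
def base : ℕ → ℕ
  | 0 => 0x18000F   -- (0,0),(1,0),(2,0),(3,0),(3,1),(4,1)
  | 1 => 0x03001E   -- (1,0),(2,0),(3,0),(4,0),(0,1),(1,1)
  | 2 => 0x0F0018   -- (3,0),(4,0),(0,1),(1,1),(2,1),(3,1)
  | 3 => 0x1E0003   -- (0,0),(1,0),(1,1),(2,1),(3,1),(4,1)
  | 4 => 0x20003000100010001   -- (0,0),(0,1),(0,2),(0,3),(1,3),(1,4)
  | 5 => 0x10003000200020002   -- (1,0),(1,1),(1,2),(1,3),(0,3),(0,4)
  | 6 => 0x20002000200030001   -- (0,0),(0,1),(1,1),(1,2),(1,3),(1,4)
  | _ => 0x10001000100030002   -- (1,0),(1,1),(0,1),(0,2),(0,3),(0,4)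

/-- validity of a shift `t` for orientation `o`: no wrap-around of the 16-wide rows -/
def okShift (o t : ℕ) : Bool :=
  if o < 4 then decide (t % 16 ≤ 11) else decide (t % 16 ≤ 14)

/-- the mask of the copy with orientation `o` and lower left corner `(t % 16, t / 16)` -/
def edgeMask (o t : ℕ) : ℕ := base o <<< t

end Crest.Agent.S0047
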