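import Crest.Agent.S0047_Defs

/-!
S0047, task B: the checker steps as statements about masks. (helper34)
-/

set_option autoImplicit false

namespace Crest.Agent.S0047

open Crest.CombinatoricsR.PolyominoGame

theorem containsCopy_mono {X Y : Set Cell} (h : ContainsCopy X) (hXY : X ⊆ Y) : ContainsCopy Y := by
  obtain ⟨t, e1, e2, h1, h2, h3⟩ := h
  refine ⟨t, e1, e2, h1, h2, ?_⟩
  rcases h3 with h3 | h3
  · exact Or.inl fun p hp => hXY (h3 p hp)
  · exact Or.inr fun p hp => hXY (h3 p hp)

private theorem monoM (n : ℕ) : ∀ {M M' N N' : Set Cell}, W n M N → M ⊆ M' → N ⊆ N' → W n M' N' := by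
  induction n with
  | zero => intro M M' N N' h hM hN; exact containsCopy_mono h hM
  | succ n ih =>
    intro M M' N N' h hM hN
    rcases h with h | ⟨x, hx, hy⟩
    · exact Or.inl (containsCopy_mono h hM)
    · refine Or.inr ⟨x, hN hx, fun y hy' => ?_⟩
      exact ih (hy y fun h => hy' (Set.insert_subset_insert hM h)) (Set.insert_subset_insert hM)
        (Set.sdiff_subset_sdiff_left hN)

private theorem succM (n : ℕ) : ∀ {M N : Set Cell}, W n M N → W (n + 1) M N := by
  induction n with
  | zero => intro M N h; exact Or.inl h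
  | succ n ih =>
    intro M N h
    rcases h with h | ⟨x, hx, hy⟩
    · exact Or.inl h
    · exact Or.inr ⟨x, hx, fun y hy' => ih (hy y hy')⟩

private theorem leM {n m : ℕ} (hnm : n ≤ m) {M N : Set Cell} (h : W n M N) : W m M N := by
  induction hnm with
  | refl => exact h
  | step _ ih => exact succM _ ih

theorem mem_S_shift (m t a b : ℕ) (ha : t % 16 + a < 16) (hb : m.testBit (a + 16 * b) = true) :
    (((t % 16 : ℕ) : ℤ) + a, ((t / 16 : ℕ) : ℤ) + b) ∈ S (m <<< t) := by
  have h1 : (((t % 16 : ℕ) : ℤ) + a) = ((t % 16 + a : ℕ) : ℤ) := by push_cast; rfl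
  have h2 : (((t / 16 : ℕ) : ℤ) + b) = ((t / 16 + b : ℕ) : ℤ) := by push_cast; rfl
  rw [h1, h2]
  refine ⟨by positivity, ?_, by positivity, ?_⟩
  · show ((t % 16 + a : ℕ) : ℤ) < 16
    exact_mod_cast ha
  simp only [Int.toNat_natCast]
  have h3 : t % 16 + a + 16 * (t / 16 + b) = t + (a + 16 * b) := by omega
  rw [h3, Nat.testBit_shiftLeft]
  simp [hb]

/-- the masks of the genuine copies -/
theorem W.edge (o t : ℕ) (h : okShift o t = true) :
    W 0 (S (edgeMask o t)) (S (edgeMask o t)) := by
  have key : ∀ m : ℕ, ∀ a b a' b' : ℕ, a' = a → b' = b → t % 16 + a < 16 →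
      m.testBit (a + 16 * b) = true →
      (((t % 16 : ℕ) : ℤ) + a', ((t / 16 : ℕ) : ℤ) + b') ∈ S (m <<< t) := by
    rintro m a b a' b' rfl rfl ha hb
    exact mem_S_shift m t _ _ ha hb
  have mk : ∀ (m : ℕ) (x y : ℤ) (a b : ℕ), x = ((t % 16 : ℕ) : ℤ) + a → y = ((t / 16 : ℕ) : ℤ) + b →
      t % 16 + a < 16 → m.testBit (a + 16 * b) = true → (x, y) ∈ S (m <<< t) := by
    rintro m x y a b rfl rfl ha hb
    exact mem_S_shift m t a b ha hb
  show ContainsCopy (S (edgeMask o t))
  unfold edgeMask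
  unfold okShift at h
  match o, h with
  | 0, h =>
    simp only [Nat.ofNat_pos, if_true, decide_eq_true_eq] at h
    refine ⟨(((t % 16 : ℕ) : ℤ), ((t / 16 : ℕ) : ℤ)), 1, 1, Or.inl rfl, Or.inl rfl, Or.inl ?_⟩
    intro p hp
    simp only [snaky, Finset.mem_insert, Finset.mem_singleton] at hp
    rcases hp with rfl | rfl | rfl | rfl | rfl | rfl
    · exact mk _ _ _ 0 0 (by simp) (by simp) (by omega) (by decide)
    · exact mk _ _ _ 1 0 (by simp) (by simp) (by omega) (by decide)
    · exact mk _ _ _ 2 0 (by simp) (by simp) (by omega) (by decide)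
    · exact mk _ _ _ 3 0 (by simp) (by simp) (by omega) (by decide)
    · exact mk _ _ _ 3 1 (by simp) (by simp) (by omega) (by decide)
    · exact mk _ _ _ 4 1 (by simp) (by simp) (by omega) (by decide)
  | 1, h =>
    simp only [show (1 : ℕ) < 4 by norm_num, if_true, decide_eq_true_eq] at h
    refine ⟨(((t % 16 : ℕ) : ℤ) + 4, ((t / 16 : ℕ) : ℤ)), -1, 1, Or.inr rfl, Or.inl rfl, Or.inl ?_⟩
    intro p hp
    simp only [snaky, Finset.mem_insert, Finset.mem_singleton] at hp
    rcases hp with rfl | rfl | rfl | rfl | rfl | rfl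
    · exact mk _ _ _ 4 0 (by push_cast; ring) (by push_cast; ring) (by omega) (by decide)
    · exact mk _ _ _ 3 0 (by push_cast; ring) (by push_cast; ring) (by omega) (by decide)
    · exact mk _ _ _ 2 0 (by push_cast; ring) (by push_cast; ring) (by omega) (by decide)
    · exact mk _ _ _ 1 0 (by push_cast; ring) (by push_cast; ring) (by omega) (by decide)
    · exact mk _ _ _ 1 1 (by push_cast; ring) (by push_cast; ring) (by omega) (by decide)
    · exact mk _ _ _ 0 1 (by push_cast; ring) (by push_cast; ring) (by omega) (by decide)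
  | 2, h =>
    simp only [show (2 : ℕ) < 4 by norm_num, if_true, decide_eq_true_eq] at h
    refine ⟨(((t % 16 : ℕ) : ℤ), ((t / 16 : ℕ) : ℤ) + 1), 1, -1, Or.inl rfl, Or.inr rfl, Or.inl ?_⟩
    intro p hp
    simp only [snaky, Finset.mem_insert, Finset.mem_singleton] at hp
    rcases hp with rfl | rfl | rfl | rfl | rfl | rfl
    · exact mk _ _ _ 0 1 (by push_cast; ring) (by push_cast; ring) (by omega) (by decide)
    · exact mk _ _ _ 1 1 (by push_cast; ring) (by push_cast; ring) (by omega) (by decide)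
    · exact mk _ _ _ 2 1 (by push_cast; ring) (by push_cast; ring) (by omega) (by decide)
    · exact mk _ _ _ 3 1 (by push_cast; ring) (by push_cast; ring) (by omega) (by decide)
    · exact mk _ _ _ 3 0 (by push_cast; ring) (by push_cast; ring) (by omega) (by decide)
    · exact mk _ _ _ 4 0 (by push_cast; ring) (by push_cast; ring) (by omega) (by decide)
  | 3, h =>
    simp only [show (3 : ℕ) < 4 by norm_num, if_true, decide_eq_true_eq] at h
    refine ⟨(((t % 16 : ℕ) : ℤ) + 4, ((t / 16 : ℕ) : ℤ) + 1), -1, -1, Or.inr rfl, Or.inr rfl,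
      Or.inl ?_⟩
    intro p hp
    simp only [snaky, Finset.mem_insert, Finset.mem_singleton] at hp
    rcases hp with rfl | rfl | rfl | rfl | rfl | rfl
    · exact mk _ _ _ 4 1 (by push_cast; ring) (by push_cast; ring) (by omega) (by decide)
    · exact mk _ _ _ 3 1 (by push_cast; ring) (by push_cast; ring) (by omega) (by decide)
    · exact mk _ _ _ 2 1 (by push_cast; ring) (by push_cast; ring) (by omega) (by decide)
    · exact mk _ _ _ 1 1 (by push_cast; ring) (by push_cast; ring) (by omega) (by decide)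
    · exact mk _ _ _ 1 0 (by push_cast; ring) (by push_cast; ring) (by omega) (by decide)
    · exact mk _ _ _ 0 0 (by push_cast; ring) (by push_cast; ring) (by omega) (by decide)
  | 4, h =>
    simp only [show ¬ (4 : ℕ) < 4 by norm_num, if_false, decide_eq_true_eq] at h
    refine ⟨(((t % 16 : ℕ) : ℤ), ((t / 16 : ℕ) : ℤ)), 1, 1, Or.inl rfl, Or.inl rfl, Or.inr ?_⟩
    intro p hp
    simp only [snaky, Finset.mem_insert, Finset.mem_singleton] at hp
    rcases hp with rfl | rfl | rfl | rfl | rfl | rfl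
    · exact mk _ _ _ 0 0 (by push_cast; ring) (by push_cast; ring) (by omega) (by decide)
    · exact mk _ _ _ 0 1 (by push_cast; ring) (by push_cast; ring) (by omega) (by decide)
    · exact mk _ _ _ 0 2 (by push_cast; ring) (by push_cast; ring) (by omega) (by decide)
    · exact mk _ _ _ 0 3 (by push_cast; ring) (by push_cast; ring) (by omega) (by decide)
    · exact mk _ _ _ 1 3 (by push_cast; ring) (by push_cast; ring) (by omega) (by decide)
    · exact mk _ _ _ 1 4 (by push_cast; ring) (by push_cast; ring) (by omega) (by decide)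
  | 5, h =>
    simp only [show ¬ (5 : ℕ) < 4 by norm_num, if_false, decide_eq_true_eq] at h
    refine ⟨(((t % 16 : ℕ) : ℤ) + 1, ((t / 16 : ℕ) : ℤ)), -1, 1, Or.inr rfl, Or.inl rfl, Or.inr ?_⟩
    intro p hp
    simp only [snaky, Finset.mem_insert, Finset.mem_singleton] at hp
    rcases hp with rfl | rfl | rfl | rfl | rfl | rfl
    · exact mk _ _ _ 1 0 (by push_cast; ring) (by push_cast; ring) (by omega) (by decide)
    · exact mk _ _ _ 1 1 (by push_cast; ring) (by push_cast; ring) (by omega) (by decide)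
    · exact mk _ _ _ 1 2 (by push_cast; ring) (by push_cast; ring) (by omega) (by decide)
    · exact mk _ _ _ 1 3 (by push_cast; ring) (by push_cast; ring) (by omega) (by decide)
    · exact mk _ _ _ 0 3 (by push_cast; ring) (by push_cast; ring) (by omega) (by decide)
    · exact mk _ _ _ 0 4 (by push_cast; ring) (by push_cast; ring) (by omega) (by decide)
  | 6, h =>
    simp only [show ¬ (6 : ℕ) < 4 by norm_num, if_false, decide_eq_true_eq] at h
    refine ⟨(((t % 16 : ℕ) : ℤ) + 1, ((t / 16 : ℕ) : ℤ) + 4), -1, -1, Or.inr rfl, Or.inr rfl,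
      Or.inr ?_⟩
    intro p hp
    simp only [snaky, Finset.mem_insert, Finset.mem_singleton] at hp
    rcases hp with rfl | rfl | rfl | rfl | rfl | rfl
    · exact mk _ _ _ 1 4 (by push_cast; ring) (by push_cast; ring) (by omega) (by decide)
    · exact mk _ _ _ 1 3 (by push_cast; ring) (by push_cast; ring) (by omega) (by decide)
    · exact mk _ _ _ 1 2 (by push_cast; ring) (by push_cast; ring) (by omega) (by decide)
    · exact mk _ _ _ 1 1 (by push_cast; ring) (by push_cast; ring) (by omega) (by decide)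
    · exact mk _ _ _ 0 1 (by push_cast; ring) (by push_cast; ring) (by omega) (by decide)
    · exact mk _ _ _ 0 0 (by push_cast; ring) (by push_cast; ring) (by omega) (by decide)
  | k + 7, h =>
    simp only [show ¬ (k + 7 : ℕ) < 4 by omega, if_false, decide_eq_true_eq] at h
    show ContainsCopy (S (0x10001000100030002 <<< t))
    refine ⟨(((t % 16 : ℕ) : ℤ), ((t / 16 : ℕ) : ℤ) + 4), 1, -1, Or.inl rfl, Or.inr rfl,
      Or.inr ?_⟩
    intro p hp
    simp only [snaky, Finset.mem_insert, Finset.mem_singleton] at hp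
    rcases hp with rfl | rfl | rfl | rfl | rfl | rfl
    · exact mk _ _ _ 0 4 (by push_cast; ring) (by push_cast; ring) (by omega) (by decide)
    · exact mk _ _ _ 0 3 (by push_cast; ring) (by push_cast; ring) (by omega) (by decide)
    · exact mk _ _ _ 0 2 (by push_cast; ring) (by push_cast; ring) (by omega) (by decide)
    · exact mk _ _ _ 0 1 (by push_cast; ring) (by push_cast; ring) (by omega) (by decide)
    · exact mk _ _ _ 1 1 (by push_cast; ring) (by push_cast; ring) (by omega) (by decide)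
    · exact mk _ _ _ 1 0 (by push_cast; ring) (by push_cast; ring) (by omega) (by decide)

theorem S_mono {a b : ℕ} (h : a ||| b = b) : S a ⊆ S b := by
  rintro p ⟨h1, h2, h3, h4⟩
  refine ⟨h1, h2, h3, ?_⟩
  rw [← h, Nat.testBit_or, h4, Bool.true_or]

theorem mem_S_foldr (ch : List (ℕ × ℕ × ℕ)) (U : ℕ) (y : Cell) :
    y ∈ S (ch.foldr (fun c a => c.2.2 &&& a) U) ↔ (∀ c ∈ ch, y ∈ S c.2.2) ∧ y ∈ S U := by
  induction ch with
  | nil => simp
  | cons c ch ih =>
    rw [List.foldr_cons]
    have hand : ∀ a b : ℕ, y ∈ S (a &&& b) ↔ y ∈ S a ∧ y ∈ S b := by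
      intro a b
      unfold S
      simp only [Set.mem_ofPred_eq, Nat.testBit_and, Bool.and_eq_true]
      tauto
    rw [hand, ih]
    simp only [List.mem_cons, forall_eq_or_imp]
    tauto

/-- cell of a bit -/
def cellOf (x : ℕ) : Cell := (((x % 16 : ℕ) : ℤ), ((x / 16 : ℕ) : ℤ))

theorem mem_S_one_shift (x : ℕ) (p : Cell) : p ∈ S (1 <<< x) ↔ p = cellOf x := by
  unfold S cellOf
  simp only [Set.mem_ofPred_eq]
  constructor
  · rintro ⟨h1, h2, h3, h4⟩
    rw [Nat.one_shiftLeft, Nat.testBit_two_pow, decide_eq_true_eq] at h4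
    refine Prod.ext ?_ ?_ <;> simp only <;> omega
  · rintro rfl
    simp only [Int.toNat_natCast]
    refine ⟨by positivity, by omega, by positivity, ?_⟩
    rw [Nat.one_shiftLeft, Nat.testBit_two_pow, decide_eq_true_eq]
    omega

theorem mem_S_or (a b : ℕ) (p : Cell) : p ∈ S (a ||| b) ↔ p ∈ S a ∨ p ∈ S b := by
  unfold S
  simp only [Set.mem_ofPred_eq, Nat.testBit_or, Bool.or_eq_true]
  tauto

theorem mem_S_xor_one (M x : ℕ) (p : Cell) :
    p ∈ S ((M ||| 1 <<< x) ^^^ (1 <<< x)) ↔ p ∈ S M ∧ p ≠ cellOf x := by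
  rw [Ne, ← mem_S_one_shift x p]
  unfold S
  simp only [Set.mem_ofPred_eq, Nat.testBit_or, Nat.testBit_xor]
  cases (M.testBit (p.1.toNat + 16 * p.2.toNat)) <;>
    cases ((1 <<< x).testBit (p.1.toNat + 16 * p.2.toNat)) <;> simp

/-- The node rule: after Maker plays `x`, for every reply some child pattern survives.
`ch` = list of child patterns `(n, m, u)`. -/
theorem W.node (x : ℕ) (ch : List (ℕ × ℕ × ℕ)) (n : ℕ) (M U I : ℕ)
    (hne : ch ≠ [])
    (hch : ∀ c ∈ ch, W c.1 (S c.2.1) (S c.2.2))
    (hn : ∀ c ∈ ch, c.1 ≤ n)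
    (hM : ∀ c ∈ ch, c.2.1 ||| M = M)            -- M = union of the child Maker sets
    (hU : ∀ c ∈ ch, c.2.2 ||| U = U)            -- U = union of the child carriers
    (hI : I = ch.foldr (fun c a => c.2.2 &&& a) U)   -- I = intersection of the child carriers
    (hcov : I ||| (M ||| 1 <<< x) = M ||| 1 <<< x) :
    W (n+1) (S ((M ||| 1 <<< x) ^^^ (1 <<< x))) (S (U ||| 1 <<< x)) := by
  refine Or.inr ⟨cellOf x, (mem_S_or _ _ _).2 (Or.inr ((mem_S_one_shift x _).2 rfl)), ?_⟩
  intro y hy
  have hMx : S (M ||| 1 <<< x) ⊆ insert (cellOf x) (S ((M ||| 1 <<< x) ^^^ (1 <<< x))) := by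
    intro p hp
    by_cases hpx : p = cellOf x
    · exact Or.inl hpx
    · right
      rw [mem_S_xor_one]
      rcases (mem_S_or _ _ _).1 hp with h | h
      · exact ⟨h, hpx⟩
      · exact absurd ((mem_S_one_shift x p).1 h) hpx
  have hyI : y ∉ S I := fun h => hy (hMx (S_mono hcov h))
  rw [hI, mem_S_foldr] at hyI
  have hex : ∃ c ∈ ch, y ∉ S c.2.2 := by
    by_contra hcon
    push Not at hcon
    apply hyI
    refine ⟨hcon, ?_⟩
    obtain ⟨c, hc⟩ := List.exists_mem_of_ne_nil ch hne
    exact S_mono (hU c hc) (hcon c hc)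
  obtain ⟨c, hc, hyc⟩ := hex
  refine monoM n (leM (hn c hc) (hch c hc)) ?_ ?_
  · refine (S_mono (hM c hc)).trans (fun p hp => hMx ((mem_S_or _ _ _).2 (Or.inl hp)))
  · intro p hp
    refine ⟨(mem_S_or _ _ _).2 (Or.inl (S_mono (hU c hc) hp)), ?_⟩
    rintro rfl
    exact hyc hp

end Crest.Agent.S0047
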