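import Crest.Agent.S0047_Chk

/-! S0047: the root of the game tree. Maker's first cell is `(7,7)`; by symmetry Breaker's first
reply may be assumed to lie in the octant `(7+a, 7+b)`, `b ≤ a`. -/

set_option autoImplicit false

namespace Crest.Agent.S0047.Oct

open Crest.Agent.S0047 Crest.Agent.S0047.Chk

/-- `F` codes a position won in at most 20 further moves whose only Maker cell is `(7,7)`. -/
def OK (F : ℕ) : Prop := W 20 (MS F) (US F) ∧ MS F ⊆ {((7 : ℤ), (7 : ℤ))}

theorem ok_of_pat {F : ℕ} (h : Pat F)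
    (hc : (Nat.blt (F >>> 660) 1 &&
      (List.range 20).all fun b => (List.range 16).all fun a =>
        (!(F.testBit (a + 32 * b)) || (a == 7 && b == 7))) = true) : OK F := by
  simp only [Bool.and_eq_true, List.all_eq_true, List.mem_range, Bool.or_eq_true,
    Bool.not_eq_true', beq_iff_eq] at hc
  obtain ⟨h1, h2⟩ := hc
  have h3 : F < 2 ^ (640 + 20) := by
    have h4 : F >>> 660 < 1 := by
      have := Nat.le_of_ble_eq_true h1
      omega
    rw [Nat.shiftRight_eq_div_pow] at h4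
    rw [Nat.div_lt_iff_lt_mul (by positivity)] at h4
    omega
  refine ⟨h.2 20 (by norm_num) h3, ?_⟩
  rintro p ⟨a1, a2, a3, a4, a5⟩
  rcases h2 p.2.toNat (by omega) p.1.toNat (by omega) with h6 | h6
  · rw [a5] at h6
    exact absurd h6 (by simp)
  · have e1 : p.1 = 7 := by omega
    have e2 : p.2 = 7 := by omega
    exact Prod.ext e1 e2

/-- every octant reply is avoided by the carrier of some pattern of the list -/
def cov (L : List ℕ) : Bool :=
  (List.range 9).all fun a => (List.range (a + 1)).all fun b =>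
    (a == 0) || L.any fun F => !(F.testBit (7 + a + 16 + 32 * (7 + b)))

theorem octant (y : Cell) (hy : y ≠ (7, 7)) :
    ∃ (sw : Bool) (e₁ e₂ : ℤ) (a b : ℕ), (e₁ = 1 ∨ e₁ = -1) ∧ (e₂ = 1 ∨ e₂ = -1) ∧ b ≤ a ∧ 1 ≤ a ∧
      y = S0047.sym sw e₁ e₂ (7 - 7 * e₁, 7 - 7 * e₂) ((7 : ℤ) + a, (7 : ℤ) + b) := by
  obtain ⟨y1, y2⟩ := y
  have key : ∀ d : ℤ, ∃ e : ℤ, (e = 1 ∨ e = -1) ∧ d = 7 + e * ((d - 7).natAbs : ℤ) := by
    intro d
    rcases le_total 7 d with h | h
    · exact ⟨1, Or.inl rfl, by omega⟩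
    · exact ⟨-1, Or.inr rfl, by omega⟩
  obtain ⟨e₁, he₁, h1⟩ := key y1
  obtain ⟨e₂, he₂, h2⟩ := key y2
  have hne : ¬(y1 = 7 ∧ y2 = 7) := fun h => hy (by rw [h.1, h.2])
  rcases le_total (y2 - 7).natAbs (y1 - 7).natAbs with h | h
  · refine ⟨false, e₁, e₂, (y1 - 7).natAbs, (y2 - 7).natAbs, he₁, he₂, h, by omega, ?_⟩
    simp only [S0047.sym, Bool.false_eq_true, if_false]
    ext
    · show y1 = _
      rw [mul_add]
      linarith
    · show y2 = _
      rw [mul_add]
      linarith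
  · refine ⟨true, e₁, e₂, (y2 - 7).natAbs, (y1 - 7).natAbs, he₁, he₂, h, by omega, ?_⟩
    simp only [S0047.sym, if_true]
    ext
    · show y1 = _
      rw [mul_add]
      linarith
    · show y2 = _
      rw [mul_add]
      linarith

theorem W_of_cov (L : List ℕ) (hne : L ≠ []) (hL : ∀ F ∈ L, OK F) (hc : cov L = true) :
    W 21 ∅ Set.univ := by
  right
  refine ⟨(7, 7), trivial, fun y hy => ?_⟩
  have hy' : y ≠ (7, 7) := by
    intro h
    exact hy (by rw [h]; exact Set.mem_insert _ _)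
  obtain ⟨sw, e₁, e₂, a, b, he₁, he₂, hba, ha, hyeq⟩ := octant y hy'
  have hF : ∃ F ∈ L, (((7 : ℤ) + a, (7 : ℤ) + b) : Cell) ∉ US F := by
    by_cases h8 : a < 9
    · simp only [cov, List.all_eq_true, List.mem_range, Bool.or_eq_true, beq_iff_eq,
        List.any_eq_true, Bool.not_eq_true'] at hc
      rcases hc a h8 b (by omega) with h0 | ⟨F, hFL, hF⟩
      · omega
      · refine ⟨F, hFL, ?_⟩
        rintro ⟨_, _, _, _, a5⟩
        have e1 : ((7 : ℤ) + a).toNat = 7 + a := by omega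
        have e2 : ((7 : ℤ) + b).toNat = 7 + b := by omega
        simp only [e1, e2] at a5
        rw [hF] at a5
        exact absurd a5 (by simp)
    · obtain ⟨F, hFL⟩ := List.exists_mem_of_ne_nil L hne
      refine ⟨F, hFL, ?_⟩
      rintro ⟨_, h2, _⟩
      have : (7 : ℤ) + a < 16 := h2
      omega
  obtain ⟨F, hFL, hF⟩ := hF
  obtain ⟨hW, hM⟩ := hL F hFL
  have hs := hW.sym sw e₁ e₂ (7 - 7 * e₁, 7 - 7 * e₂) he₁ he₂
  refine hs.mono ?_ ?_
  · rintro _ ⟨p, hp, rfl⟩
    have : p = (7, 7) := hM hp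
    rw [this]
    left
    simp only [S0047.sym]
    cases sw
    · simp only [Bool.false_eq_true, if_false]
      ext
      · show 7 - 7 * e₁ + e₁ * 7 = 7
        ring
      · show 7 - 7 * e₂ + e₂ * 7 = 7
        ring
    · simp only [if_true]
      ext
      · show 7 - 7 * e₁ + e₁ * 7 = 7
        ring
      · show 7 - 7 * e₂ + e₂ * 7 = 7
        ring
  · rintro _ ⟨p, hp, rfl⟩
    refine ⟨trivial, ?_⟩
    intro h
    rw [Set.mem_singleton_iff, hyeq] at h
    have hinj := (sym_bijective sw e₁ e₂ (7 - 7 * e₁, 7 - 7 * e₂) he₁ he₂).1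
    exact hF (hinj h ▸ hp)

end Crest.Agent.S0047.Oct
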