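import Crest.Agent.S0047_Defs

/-!
S0047, TASK A: game semantics of `W` (monotonicity, policy extraction, symmetry). (helper95)
-/

set_option autoImplicit false

namespace Crest.Agent.S0047

open Crest.CombinatoricsR.PolyominoGame

theorem containsCopy_mono {X Y : Set Cell} (h : X ⊆ Y) (hX : ContainsCopy X) :
    ContainsCopy Y := by
  obtain ⟨t, e₁, e₂, h₁, h₂, hh⟩ := hX
  refine ⟨t, e₁, e₂, h₁, h₂, ?_⟩
  rcases hh with hh | hh
  · exact Or.inl fun p hp => h (hh p hp)
  · exact Or.inr fun p hp => h (hh p hp)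

theorem W.of_contains {n : ℕ} {M N : Set Cell} (h : ContainsCopy M) : W n M N := by
  cases n with
  | zero => exact h
  | succ n => exact Or.inl h

theorem W.mono {n : ℕ} {M M' N N' : Set Cell} (h : W n M N) (hM : M ⊆ M') (hN : N ⊆ N') :
    W n M' N' := by
  induction n generalizing M M' N N' with
  | zero => exact containsCopy_mono hM h
  | succ n ih =>
    rcases h with h | ⟨x, hx, h⟩
    · exact Or.inl (containsCopy_mono hM h)
    · refine Or.inr ⟨x, hN hx, fun y hy => ?_⟩
      exact ih (h y fun hy' => hy (Set.insert_subset_insert hM hy'))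
        (Set.insert_subset_insert hM) (Set.sdiff_subset_sdiff_left hN)

theorem W.succ {n : ℕ} {M N : Set Cell} (h : W n M N) : W (n+1) M N := by
  induction n generalizing M N with
  | zero => exact Or.inl h
  | succ n ih =>
    rcases h with h | ⟨x, hx, h⟩
    · exact Or.inl h
    · exact Or.inr ⟨x, hx, fun y hy => ih (h y hy)⟩

theorem W.le {m n : ℕ} {M N : Set Cell} (h : W m M N) (hmn : m ≤ n) : W n M N := by
  induction n, hmn using Nat.le_induction with
  | base => exact h
  | succ n _ ih => exact ih.succ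

theorem exists_fresh {M B : Set Cell} (hM : M.Finite) (hB : B.Finite) :
    ∃ x : Cell, x ∉ M ∧ x ∉ B := by
  obtain ⟨x, hx⟩ := (Set.Finite.infinite_compl (hM.union hB)).nonempty
  exact ⟨x, fun h => hx (Or.inl h), fun h => hx (Or.inr h)⟩

theorem exists_next {n : ℕ} {M B : Set Cell} (hM : M.Finite) (hB : B.Finite)
    (h : W (n+1) M Bᶜ) :
    ∃ x : Cell, (x ∉ M ∧ x ∉ B) ∧ ∀ y, y ∉ insert x M → W n (insert x M) (insert y B)ᶜ := by
  have key : ∀ y : Cell, Bᶜ \ {y} = (insert y B)ᶜ := by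
    intro y
    ext z
    simp only [Set.mem_sdiff, Set.mem_compl_iff, Set.mem_singleton_iff, Set.mem_insert_iff]
    tauto
  rcases h with h | ⟨x, hx, h⟩
  · obtain ⟨x, hx⟩ := exists_fresh hM hB
    exact ⟨x, hx, fun y _ => W.of_contains (containsCopy_mono (Set.subset_insert _ _) h)⟩
  · by_cases hxM : x ∈ M
    · obtain ⟨x', hx'⟩ := exists_fresh hM hB
      refine ⟨x', hx', fun y hy => ?_⟩
      have h1 := h y (by
        rw [Set.insert_eq_of_mem hxM]
        exact fun h' => hy (Set.mem_insert_of_mem _ h'))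
      rw [Set.insert_eq_of_mem hxM, key] at h1
      exact h1.mono (Set.subset_insert _ _) le_rfl
    · refine ⟨x, ⟨hxM, hx⟩, fun y hy => ?_⟩
      have h1 := h y hy
      rw [key] at h1
      exact h1

/-- Maker's next move in the state `(M, B, n)` (`n + 1` moves left). -/
noncomputable def nextMove (s : Set Cell × Set Cell × ℕ) : Cell :=
  Classical.epsilon fun x : Cell =>
    (x ∉ s.1 ∧ x ∉ s.2.1) ∧ ∀ y, y ∉ insert x s.1 →
      W s.2.2 (insert x s.1) (insert y s.2.1)ᶜ

noncomputable def stepState (s : Set Cell × Set Cell × ℕ) (y : Cell) :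
    Set Cell × Set Cell × ℕ :=
  (insert (nextMove s) s.1, insert y s.2.1, s.2.2 - 1)

noncomputable def foldState (l : List Cell) : Set Cell × Set Cell × ℕ :=
  l.foldl stepState (∅, ∅, 20)

noncomputable def policy (l : List Cell) : Cell := nextMove (foldState l)

theorem nextMove_spec {n : ℕ} {M B : Set Cell} (hM : M.Finite) (hB : B.Finite)
    (h : W (n+1) M Bᶜ) :
    (nextMove (M, B, n) ∉ M ∧ nextMove (M, B, n) ∉ B) ∧
      ∀ y, y ∉ insert (nextMove (M, B, n)) M →
        W n (insert (nextMove (M, B, n)) M) (insert y B)ᶜ :=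
  Classical.epsilon_spec (exists_next hM hB h)

theorem foldState_succ (b : ℕ → Cell) (k : ℕ) :
    foldState ((List.range (k+1)).map b) =
      stepState (foldState ((List.range k).map b)) (b k) := by
  simp [foldState, List.range_succ]

theorem foldState_eq (b : ℕ → Cell) (k : ℕ) :
    foldState ((List.range k).map b) =
      ({c | ∃ j : ℕ, j < k ∧ c = makerClaim policy b j}, {c | ∃ j : ℕ, j < k ∧ c = b j},
        20 - k) := by
  induction k with
  | zero => simp [foldState]
  | succ k ih =>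
    have h0 : nextMove (foldState ((List.range k).map b)) = makerClaim policy b k := rfl
    rw [foldState_succ]
    unfold stepState
    rw [h0, ih]
    refine Prod.ext ?_ (Prod.ext ?_ ?_)
    · ext c
      simp only [Set.mem_insert_iff, Set.mem_ofPred_eq, Nat.lt_succ_iff]
      constructor
      · rintro (rfl | ⟨j, hj, rfl⟩)
        · exact ⟨k, le_rfl, rfl⟩
        · exact ⟨j, hj.le, rfl⟩
      · rintro ⟨j, hj, rfl⟩
        rcases hj.eq_or_lt with rfl | hj
        · exact Or.inl rfl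
        · exact Or.inr ⟨j, hj, rfl⟩
    · ext c
      simp only [Set.mem_insert_iff, Set.mem_ofPred_eq, Nat.lt_succ_iff]
      constructor
      · rintro (rfl | ⟨j, hj, rfl⟩)
        · exact ⟨k, le_rfl, rfl⟩
        · exact ⟨j, hj.le, rfl⟩
      · rintro ⟨j, hj, rfl⟩
        rcases hj.eq_or_lt with rfl | hj
        · exact Or.inl rfl
        · exact Or.inr ⟨j, hj, rfl⟩
    · simp only
      omega

/-- final reduction -/
theorem main_of_W (N : Set Cell) (h : W 21 ∅ N) :
    ∃ σ : List (ℤ × ℤ) → ℤ × ℤ, ∀ b : ℕ → ℤ × ℤ,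
      (∀ k : ℕ, k < 20 →
        (∀ j : ℕ, j ≤ k → b k ≠ Crest.CombinatoricsR.PolyominoGame.makerClaim σ b j) ∧
        (∀ j : ℕ, j < k → b k ≠ b j)) →
      (∀ k : ℕ, k ≤ 20 →
        (∀ j : ℕ, j < k → Crest.CombinatoricsR.PolyominoGame.makerClaim σ b k ≠
          Crest.CombinatoricsR.PolyominoGame.makerClaim σ b j) ∧
        (∀ j : ℕ, j < k → Crest.CombinatoricsR.PolyominoGame.makerClaim σ b k ≠ b j)) ∧
      Crest.CombinatoricsR.PolyominoGame.ContainsCopy
        {c | ∃ j : ℕ, j ≤ 20 ∧ c = Crest.CombinatoricsR.PolyominoGame.makerClaim σ b j} := by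
  refine ⟨policy, fun b hb => ?_⟩
  have h0 : W 21 ∅ (∅ : Set Cell)ᶜ := h.mono le_rfl (by simp)
  set A : ℕ → Set Cell := fun k => {c | ∃ j : ℕ, j < k ∧ c = makerClaim policy b j} with hA
  set B : ℕ → Set Cell := fun k => {c | ∃ j : ℕ, j < k ∧ c = b j} with hB
  have hAf : ∀ k, (A k).Finite := by
    intro k
    refine ((Set.finite_Iio k).image (fun j => makerClaim policy b j)).subset ?_
    rintro c ⟨j, hj, rfl⟩
    exact ⟨j, hj, rfl⟩
  have hBf : ∀ k, (B k).Finite := by
    intro k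
    refine ((Set.finite_Iio k).image (fun j => b j)).subset ?_
    rintro c ⟨j, hj, rfl⟩
    exact ⟨j, hj, rfl⟩
  have hAs : ∀ k, insert (makerClaim policy b k) (A k) = A (k+1) := by
    intro k
    ext c
    simp only [hA, Set.mem_insert_iff, Set.mem_ofPred_eq, Nat.lt_succ_iff]
    constructor
    · rintro (rfl | ⟨j, hj, rfl⟩)
      · exact ⟨k, le_rfl, rfl⟩
      · exact ⟨j, hj.le, rfl⟩
    · rintro ⟨j, hj, rfl⟩
      rcases hj.eq_or_lt with rfl | hj
      · exact Or.inl rfl
      · exact Or.inr ⟨j, hj, rfl⟩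
  have hBs : ∀ k, insert (b k) (B k) = B (k+1) := by
    intro k
    ext c
    simp only [hB, Set.mem_insert_iff, Set.mem_ofPred_eq, Nat.lt_succ_iff]
    constructor
    · rintro (rfl | ⟨j, hj, rfl⟩)
      · exact ⟨k, le_rfl, rfl⟩
      · exact ⟨j, hj.le, rfl⟩
    · rintro ⟨j, hj, rfl⟩
      rcases hj.eq_or_lt with rfl | hj
      · exact Or.inl rfl
      · exact Or.inr ⟨j, hj, rfl⟩
  have hmc : ∀ k, makerClaim policy b k = nextMove (A k, B k, 20 - k) := by
    intro k
    show nextMove (foldState ((List.range k).map b)) = _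
    rw [foldState_eq]
  have hinv : ∀ k, k ≤ 20 → W (20 - k + 1) (A k) (B k)ᶜ := by
    intro k
    induction k with
    | zero =>
      intro _
      have e1 : A 0 = ∅ := by simp [hA]
      have e2 : B 0 = ∅ := by simp [hB]
      rw [e1, e2]
      exact h0
    | succ k ih =>
      intro hk
      have h1 := nextMove_spec (hAf k) (hBf k) (ih (by omega))
      rw [← hmc] at h1
      have hlt : k < 20 := by omega
      have h2 := h1.2 (b k) (by
        rw [hAs]
        rintro ⟨j, hj, hjc⟩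
        exact (hb k hlt).1 j (by omega) hjc)
      rw [hAs, hBs] at h2
      have e : 20 - (k+1) + 1 = 20 - k := by omega
      rw [e]
      exact h2
  have hspec : ∀ k, k ≤ 20 → (makerClaim policy b k ∉ A k ∧ makerClaim policy b k ∉ B k) := by
    intro k hk
    have h1 := nextMove_spec (hAf k) (hBf k) (hinv k hk)
    rw [← hmc] at h1
    exact h1.1
  refine ⟨fun k hk => ⟨fun j hj he => ?_, fun j hj he => ?_⟩, ?_⟩
  · exact (hspec k hk).1 ⟨j, hj, he⟩
  · exact (hspec k hk).2 ⟨j, hj, he⟩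
  · have h1 := nextMove_spec (hAf 20) (hBf 20) (hinv 20 le_rfl)
    rw [← hmc] at h1
    rw [hAs] at h1
    obtain ⟨y, hy, -⟩ := exists_fresh (hAf 21) (hBf 21)
    have h2 := h1.2 y hy
    have h3 : ContainsCopy (A 21) := h2
    refine containsCopy_mono ?_ h3
    rintro c ⟨j, hj, rfl⟩
    exact ⟨j, by omega, rfl⟩

/-- symmetries: the eight signed coordinate permutations and translations preserve `W` -/
def sym (swap : Bool) (e₁ e₂ : ℤ) (t : Cell) (p : Cell) : Cell :=
  if swap then (t.1 + e₁ * p.2, t.2 + e₂ * p.1) else (t.1 + e₁ * p.1, t.2 + e₂ * p.2)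

theorem sym_bijective (swap : Bool) (e₁ e₂ : ℤ) (t : Cell)
    (h₁ : e₁ = 1 ∨ e₁ = -1) (h₂ : e₂ = 1 ∨ e₂ = -1) :
    Function.Bijective (sym swap e₁ e₂ t) := by
  constructor
  · rintro ⟨a, b⟩ ⟨c, d⟩ h
    cases swap <;> rcases h₁ with rfl | rfl <;> rcases h₂ with rfl | rfl <;>
      simp [sym] at h ⊢ <;> omega
  · rintro ⟨c, d⟩
    cases swap
    · refine ⟨(e₁ * (c - t.1), e₂ * (d - t.2)), ?_⟩
      rcases h₁ with rfl | rfl <;> rcases h₂ with rfl | rfl <;> simp [sym]
    · refine ⟨(e₂ * (d - t.2), e₁ * (c - t.1)), ?_⟩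
      rcases h₁ with rfl | rfl <;> rcases h₂ with rfl | rfl <;> simp [sym]

theorem containsCopy_sym {X : Set Cell} (swap : Bool) (e₁ e₂ : ℤ) (t : Cell)
    (h₁ : e₁ = 1 ∨ e₁ = -1) (h₂ : e₂ = 1 ∨ e₂ = -1) (h : ContainsCopy X) :
    ContainsCopy (sym swap e₁ e₂ t '' X) := by
  obtain ⟨s, d₁, d₂, hd₁, hd₂, hh⟩ := h
  have hs : ∀ {a b : ℤ}, (a = 1 ∨ a = -1) → (b = 1 ∨ b = -1) → (a * b = 1 ∨ a * b = -1) := by
    rintro a b (rfl | rfl) (rfl | rfl) <;> simp
  cases swap
  · refine ⟨(t.1 + e₁ * s.1, t.2 + e₂ * s.2), e₁ * d₁, e₂ * d₂, hs h₁ hd₁, hs h₂ hd₂, ?_⟩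
    rcases hh with hh | hh
    · left
      intro p hp
      refine ⟨_, hh p hp, ?_⟩
      simp only [sym]
      refine Prod.ext ?_ ?_ <;> simp <;> ring
    · right
      intro p hp
      refine ⟨_, hh p hp, ?_⟩
      simp only [sym]
      refine Prod.ext ?_ ?_ <;> simp <;> ring
  · refine ⟨(t.1 + e₁ * s.2, t.2 + e₂ * s.1), e₁ * d₂, e₂ * d₁, hs h₁ hd₂, hs h₂ hd₁, ?_⟩
    rcases hh with hh | hh
    · right
      intro p hp
      refine ⟨_, hh p hp, ?_⟩
      simp only [sym]
      refine Prod.ext ?_ ?_ <;> simp <;> ring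
    · left
      intro p hp
      refine ⟨_, hh p hp, ?_⟩
      simp only [sym]
      refine Prod.ext ?_ ?_ <;> simp <;> ring

theorem W.sym {n : ℕ} {M N : Set Cell} (swap : Bool) (e₁ e₂ : ℤ) (t : Cell)
    (h₁ : e₁ = 1 ∨ e₁ = -1) (h₂ : e₂ = 1 ∨ e₂ = -1) (h : W n M N) :
    W n (sym swap e₁ e₂ t '' M) (sym swap e₁ e₂ t '' N) := by
  have hbij := sym_bijective swap e₁ e₂ t h₁ h₂
  induction n generalizing M N with
  | zero => exact containsCopy_sym swap e₁ e₂ t h₁ h₂ h
  | succ n ih =>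
    rcases h with h | ⟨x, hx, h⟩
    · exact Or.inl (containsCopy_sym swap e₁ e₂ t h₁ h₂ h)
    · refine Or.inr ⟨S0047.sym swap e₁ e₂ t x, Set.mem_image_of_mem _ hx, fun y hy => ?_⟩
      obtain ⟨z, rfl⟩ := hbij.2 y
      have hz : z ∉ insert x M := by
        intro hz
        apply hy
        rw [← Set.image_insert_eq]
        exact Set.mem_image_of_mem _ hz
      have h1 := ih (h z hz)
      rw [Set.image_insert_eq, Set.image_sdiff hbij.1, Set.image_singleton] at h1
      exact h1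

end Crest.Agent.S0047
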