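import Crest.Agent.S0047_Defs

set_option autoImplicit false

namespace Crest.Agent.S0047

open Crest.CombinatoricsR.PolyominoGame

/- TASK A (semantics). -/

theorem W.mono {n : ℕ} {M M' N N' : Set Cell} (h : W n M N) (hM : M ⊆ M') (hN : N ⊆ N') :
    W n M' N' := sorry

theorem W.succ {n : ℕ} {M N : Set Cell} (h : W n M N) : W (n+1) M N := sorry

/-- final reduction -/
theorem main_of_W (N : Set Cell) (h : W 21 ∅ N) :
    ∃ σ : List (ℤ × ℤ) → ℤ × ℤ, ∀ b : ℕ → ℤ × ℤ,
      (∀ k : ℕ, k < 20 →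
        (∀ j : ℕ, j ≤ k → b k ≠ Crest.CombinatoricsR.PolyominoGame.makerClaim σ b j) ∧
        (∀ j : ℕ, j < k → b k ≠ b j)) →
      (∀ k : ℕ, k ≤ 20 →
        (∀ j : ℕ, j < k → Crest.CombinatoricsR.PolyominoGame.makerClaim σ b k ≠
          Crest.CombinatoricsR.PolyominoGame.makerClaim σ b j) ∧
        (∀ j : ℕ, j < k → Crest.CombinatoricsR.PolyominoGame.makerClaim σ b k ≠ b j)) ∧
      Crest.CombinatoricsR.PolyominoGame.ContainsCopy
        {c | ∃ j : ℕ, j ≤ 20 ∧ c = Crest.CombinatoricsR.PolyominoGame.makerClaim σ b j} := sorry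

/-- symmetries: the eight signed coordinate permutations and translations preserve `W` -/
def sym (swap : Bool) (e₁ e₂ : ℤ) (t : Cell) (p : Cell) : Cell :=
  if swap then (t.1 + e₁ * p.2, t.2 + e₂ * p.1) else (t.1 + e₁ * p.1, t.2 + e₂ * p.2)

theorem W.sym {n : ℕ} {M N : Set Cell} (swap : Bool) (e₁ e₂ : ℤ) (t : Cell)
    (h₁ : e₁ = 1 ∨ e₁ = -1) (h₂ : e₂ = 1 ∨ e₂ = -1) (h : W n M N) :
    W n (sym swap e₁ e₂ t '' M) (sym swap e₁ e₂ t '' N) := sorry

/- TASK B (checker steps as statements about masks). -/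

theorem W.edge (o t : ℕ) (h : okShift o t = true) :
    W 0 (S (edgeMask o t)) (S (edgeMask o t)) := sorry

/-- The node rule: after Maker plays `x`, for every reply some child pattern survives.
`ch` = list of child patterns `(n, m, u)`. -/
theorem W.node (x : ℕ) (ch : List (ℕ × ℕ × ℕ)) (n : ℕ) (M U I : ℕ)
    (hne : ch ≠ [])
    (hch : ∀ c ∈ ch, W c.1 (S c.2.1) (S c.2.2))
    (hn : ∀ c ∈ ch, c.1 ≤ n)
    (hM : ∀ c ∈ ch, c.2.1 ||| M = M)            -- M = union of the child Maker sets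
    (hU : ∀ c ∈ ch, c.2.2 ||| U = U)            -- U = union of the child carriers
    (hI : I = ch.foldr (fun c a => c.2.2 &&& a) U)   -- I = intersection of the child carriers
    (hcov : I ||| (M ||| 1 <<< x) = M ||| 1 <<< x) :
    W (n+1) (S ((M ||| 1 <<< x) ^^^ (1 <<< x))) (S (U ||| 1 <<< x)) := sorry

end Crest.Agent.S0047
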