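import Crest.Agent.S0066_Rigid2

set_option autoImplicit false

namespace Crest.Agent.S0066

variable {h : ℕ}

/-- the line with block `b` whose label is `x` for tree blocks and `w` for gadget blocks -/
def rl (x w : Fin (2^h)) (b : Blk h) : Line h :=
  ⟨b, match b with
    | .tree _ _ => x
    | .gen _ _ => w⟩

def NoCopy (B : Line h → Line h → Prop) : Prop :=
  ∀ u v : Fin 66 → Line h, StrictMono u → StrictMono v → ¬ ∀ k k', (B (u k) (v k') ↔ k ≠ k')

def BothTree (b b' : Blk h) : Prop := (∃ i t, b = .tree i t) ∧ (∃ j t', b' = .tree j t')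

def Agree (B : Line h → Line h → Prop) (x w z : Fin (2^h)) : Prop :=
  ∀ b b' : Blk h, ¬ BothTree b b' → (B (rl x w b) (rl x z b') ↔ Adj (rl x w b) (rl x z b'))

abbrev Tf (h : ℕ) := Fin 66 → Option (Fin (h+1) × Bool)

def mix (f : Fam h) (T : Tf h) (k : Fin 66) : Blk h :=
  match T k with
  | some p => .tree p.1 p.2
  | none => .gen f k

theorem mix_some {f : Fam h} {T : Tf h} {k : Fin 66} {p : Fin (h+1) × Bool} (hk : T k = some p) :
    mix f T k = .tree p.1 p.2 := by
  unfold mix; rw [hk]

theorem mix_none {f : Fam h} {T : Tf h} {k : Fin 66} (hk : T k = none) :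
    mix f T k = .gen f k := by
  unfold mix; rw [hk]

/-- conditions on the tree part of a gadget guaranteeing that the lines are increasing -/
structure Mono (x : Fin (2^h)) (T : Tf h) : Prop where
  h1 : ∀ k k', T k = none → T k' ≠ none → k < k' → (k : ℕ) < 33
  h2 : ∀ k k', T k = none → T k' ≠ none → k' < k → 33 ≤ (k : ℕ)
  h3 : ∀ k k' p p', k < k' → T k = some p → T k' = some p' →
    (⟨.tree p.1 p.2, x⟩ : Line h) < ⟨.tree p'.1 p'.2, x⟩

theorem Mono.strictMono {x w : Fin (2^h)} {f : Fam h} {T : Tf h} (M : Mono x T) :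
    StrictMono (fun k => rl x w (mix f T k)) := by
  intro k k' hkk
  simp only
  cases hk : T k with
  | none =>
    cases hk' : T k' with
    | none =>
      rw [mix_none hk, mix_none hk', line_lt]
      simp only [key, rl, mk5_lt]
      left; rw [pos_lt]; exact hkk
    | some p' =>
      rw [mix_none hk, mix_some hk', line_lt]
      simp only [key, rl, mk5_lt]
      left; rw [pos_lt33]; exact M.h1 k k' hk (by simp [hk']) hkk
  | some p =>
    cases hk' : T k' with
    | none =>
      rw [mix_some hk, mix_none hk', line_lt]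
      simp only [key, rl, mk5_lt]
      left; rw [lt_pos33]; exact M.h2 k' k hk' (by simp [hk]) hkk
    | some p' =>
      rw [mix_some hk, mix_some hk']
      exact M.h3 k k' p p' hkk hk hk'

structure RRole (x : Fin (2^h)) (f : Fam h) (T : Tf h) : Prop where
  h1 : ∀ k, T k = none → ¬ RT f k
  h2 : ∀ k p, T k = some p → ok h p.1 p.2 ∧ rowTree h p.1 p.2 x f = some k

structure CRole (x : Fin (2^h)) (f : Fam h) (T : Tf h) : Prop where
  h1 : ∀ k, T k = none → ¬ CT f k
  h2 : ∀ k p, T k = some p → ok h p.1 p.2 ∧ colTree h p.1 p.2 x f = some k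

theorem RRole.role {x w : Fin (2^h)} {f : Fam h} {T : Tf h} (R : RRole x f T) (k : Fin 66) :
    rowRole (rl x w (mix f T k)) f = some k := by
  cases hk : T k with
  | none =>
    rw [mix_none hk]
    exact rowRole_gen.2 ⟨rfl, R.h1 k hk, rfl⟩
  | some p =>
    rw [mix_some hk]
    exact rowRole_tree.2 (R.h2 k p hk)

theorem CRole.role {x w : Fin (2^h)} {f : Fam h} {T : Tf h} (R : CRole x f T) (k : Fin 66) :
    colRole (rl x w (mix f T k)) f = some k := by
  cases hk : T k with
  | none =>
    rw [mix_none hk]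
    exact colRole_gen.2 ⟨rfl, R.h1 k hk, rfl⟩
  | some p =>
    rw [mix_some hk]
    exact colRole_tree.2 (R.h2 k p hk)

theorem cmp_of_role {l l' : Line h} {f : Fam h} {k k' : Fin 66} (h1 : rowRole l f = some k)
    (h2 : colRole l' f = some k') : Cmp l l' f ↔ k ≠ k' := by
  unfold Cmp
  rw [h1, h2]
  constructor
  · rintro ⟨a, b, ha, hb, hab⟩
    rw [Option.some_inj] at ha hb
    rw [ha, hb]; exact hab
  · intro hab
    exact ⟨_, _, rfl, rfl, hab⟩

theorem gadget {B : Line h → Line h → Prop} {x w z : Fin (2^h)} (hK : Agree B x w z)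
    (hB : NoCopy B) (f : Fam h) (T T' : Tf h) (M : Mono x T) (M' : Mono x T')
    (R : RRole x f T) (R' : CRole x f T') :
    ∃ k k' p p', T k = some p ∧ T' k' = some p' ∧
      ¬ (B ⟨.tree p.1 p.2, x⟩ ⟨.tree p'.1 p'.2, x⟩ ↔ k ≠ k') := by
  by_contra hno
  push Not at hno
  apply hB _ _ (M.strictMono (w := w) (f := f)) (M'.strictMono (w := z) (f := f))
  intro k k'
  cases hk : T k with
  | none =>
    have e1 : Adj (rl x w (mix f T k)) (rl x z (mix f T' k')) ↔ k ≠ k' := by
      rw [← cmp_of_role (R.role (w := w) k) (R'.role (w := z) k'), mix_none hk]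
      exact adj_genl f k w _
    rw [← e1]
    apply hK
    rintro ⟨⟨i, t, e⟩, -⟩
    rw [mix_none hk] at e
    cases e
  | some p =>
    cases hk' : T' k' with
    | none =>
      have e1 : Adj (rl x w (mix f T k)) (rl x z (mix f T' k')) ↔ k ≠ k' := by
        rw [← cmp_of_role (R.role (w := w) k) (R'.role (w := z) k'), mix_none hk']
        exact adj_genr _ f k' z
      rw [← e1]
      apply hK
      rintro ⟨-, ⟨i, t, e⟩⟩
      rw [mix_none hk'] at e
      cases e
    | some p' =>
      rw [mix_some hk, mix_some hk']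
      exact hno k k' p p' hk hk'

theorem key_lt1 {i : ℕ} (hi : i < h) {i0 i1 : Fin (h+1)} {x : Fin (2^h)} {t : Bool}
    (h0 : (i0:ℕ) = i+1) (h1 : (i1:ℕ) = i) :
    (⟨.tree i1 false, x⟩ : Line h) < ⟨.tree i0 t, x⟩ := by
  rw [line_lt]
  simp only [key, mk5_lt, h0, h1]
  have hP : 2^(h-i) = 2 * 2^(h-(i+1)) := by
    rw [← pow_succ']
    congr 1; omega
  have hP0 : 0 < 2^(h-(i+1)) := by positivity
  rw [nd_step hi x, hP]
  generalize 2^(h-(i+1)) = P at *
  generalize nd h (i+1) x = N at *
  have e1 : N / 2 * (2 * P) = (2 * (N / 2)) * P := by ring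
  have hle : 2 * (N / 2) ≤ N := by omega
  rw [e1]
  cases t with
  | false =>
    simp only [Bool.false_eq_true, if_false, lt_self_iff_false, false_or, true_and]
    rcases hle.lt_or_eq with hlt | heq
    · left; exact Nat.mul_lt_mul_of_pos_right hlt hP0
    · right; rw [heq]; exact ⟨rfl, Or.inl (by omega)⟩
  | true =>
    simp only [Bool.false_eq_true, if_false, if_true, lt_self_iff_false, false_or, true_and]
    left; exact Nat.mul_lt_mul_of_pos_right (by omega) hP0

theorem key_lt2 {i : ℕ} (hi : i < h) {i0 i2 : Fin (h+1)} {x : Fin (2^h)} {t : Bool}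
    (h0 : (i0:ℕ) = i+1) (h2 : (i2:ℕ) = i) :
    (⟨.tree i0 t, x⟩ : Line h) < ⟨.tree i2 true, x⟩ := by
  rw [line_lt]
  simp only [key, mk5_lt, h0, h2]
  have hP : 2^(h-i) = 2 * 2^(h-(i+1)) := by
    rw [← pow_succ']
    congr 1; omega
  have hP0 : 0 < 2^(h-(i+1)) := by positivity
  rw [nd_step hi x, hP]
  generalize 2^(h-(i+1)) = P at *
  generalize nd h (i+1) x = N at *
  have e1 : (N / 2 + 1) * (2 * P) = (2 * (N / 2) + 2) * P := by ring
  have hle : N + 1 ≤ 2 * (N / 2) + 2 := by omega
  rw [e1]
  cases t with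
  | false =>
    simp only [Bool.false_eq_true, if_false, if_true, lt_self_iff_false, false_or, true_and]
    left; exact Nat.mul_lt_mul_of_pos_right (by omega) hP0
  | true =>
    simp only [if_true, lt_self_iff_false, false_or, true_and]
    rcases hle.lt_or_eq with hlt | heq
    · left; exact Nat.mul_lt_mul_of_pos_right hlt hP0
    · right; rw [heq]; exact ⟨rfl, Or.inl (by omega)⟩

def T1 (r : Fin 66) (p : Fin (h+1) × Bool) : Tf h := fun k => if k = r then some p else none

def T3 (p q r : Fin (h+1) × Bool) : Tf h := fun k =>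
  if k = 32 then some p else if k = 33 then some q else if k = 34 then some r else none

theorem mono_T1 {x : Fin (2^h)} {r : Fin 66} (hr : r = 32 ∨ r = 33) {p : Fin (h+1) × Bool} :
    Mono x (T1 r p) := by
  have hr' : (r : ℕ) = 32 ∨ (r : ℕ) = 33 := by
    rcases hr with rfl | rfl
    · left; rfl
    · right; rfl
  constructor
  · intro k k' hk hk' hlt
    unfold T1 at hk'
    split_ifs at hk' with h1
    · subst h1
      have : (k:ℕ) < k' := hlt
      omega
    · exact absurd rfl hk'
  · intro k k' hk hk' hlt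
    unfold T1 at hk'
    split_ifs at hk' with h1
    · subst h1
      have : (k':ℕ) < k := hlt
      omega
    · exact absurd rfl hk'
  · intro k k' p p' hlt hk hk'
    unfold T1 at hk hk'
    split_ifs at hk hk' with h1 h2
    subst h1 h2
    exact absurd hlt (lt_irrefl _)

theorem mono_T3 {x : Fin (2^h)} {p q r : Fin (h+1) × Bool}
    (h1 : (⟨.tree p.1 p.2, x⟩ : Line h) < ⟨.tree q.1 q.2, x⟩)
    (h2 : (⟨.tree q.1 q.2, x⟩ : Line h) < ⟨.tree r.1 r.2, x⟩) :
    Mono x (T3 p q r) := by
  have key0 : ∀ k : Fin 66, T3 p q r k ≠ none → (k:ℕ) = 32 ∨ (k:ℕ) = 33 ∨ (k:ℕ) = 34 := by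
    intro k hk
    unfold T3 at hk
    split_ifs at hk with a b c
    · left; rw [a]; rfl
    · right; left; rw [b]; rfl
    · right; right; rw [c]; rfl
    · exact absurd rfl hk
  have key1 : ∀ k : Fin 66, T3 p q r k = none → (k:ℕ) ≠ 32 ∧ (k:ℕ) ≠ 33 ∧ (k:ℕ) ≠ 34 := by
    intro k hk
    unfold T3 at hk
    split_ifs at hk with a b c
    refine ⟨fun hh => a (Fin.ext hh), fun hh => b (Fin.ext hh), fun hh => c (Fin.ext hh)⟩
  constructor
  · intro k k' hk hk' hlt
    have a := key0 k' hk'
    have b := key1 k hk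
    have : (k:ℕ) < k' := hlt
    omega
  · intro k k' hk hk' hlt
    have a := key0 k' hk'
    have b := key1 k hk
    have : (k':ℕ) < k := hlt
    omega
  · intro k k' p1 p2 hlt hk hk'
    unfold T3 at hk hk'
    split_ifs at hk hk' with a b c d e f g e1 e2 e3 <;>
      (rw [Option.some_inj] at hk hk'; subst hk hk') <;>
      first
      | exact h1
      | exact h2
      | exact h1.trans h2
      | (exfalso; subst_vars; revert hlt; decide)

theorem step_S (hh : 1 ≤ h) {B : Line h → Line h → Prop} {x w z : Fin (2^h)} (hK : Agree B x w z)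
    (hB : NoCopy B) (t t' : Bool) :
    B ⟨.tree 0 t, x⟩ ⟨.tree 0 t', x⟩ := by
  obtain ⟨k, k', p, p', h1, h2, h3⟩ := gadget hK hB .S (T1 33 (0, t)) (T1 33 (0, t'))
    (mono_T1 (Or.inr rfl)) (mono_T1 (Or.inr rfl))
    ⟨by
      intro k hk hr
      unfold T1 at hk
      split_ifs at hk with h1
      exact h1 hr, by
      intro k p hk
      unfold T1 at hk
      split_ifs at hk with h1
      rw [Option.some_inj] at hk
      subst hk h1
      refine ⟨fun hh0 => ?_, by simp [rowTree]⟩
      simp at hh0
      omega⟩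
    ⟨by
      intro k hk hr
      unfold T1 at hk
      split_ifs at hk with h1
      exact h1 hr, by
      intro k p hk
      unfold T1 at hk
      split_ifs at hk with h1
      rw [Option.some_inj] at hk
      subst hk h1
      refine ⟨fun hh0 => ?_, by simp [colTree]⟩
      simp at hh0
      omega⟩
  unfold T1 at h1 h2
  split_ifs at h1 h2 with a b
  rw [Option.some_inj] at h1 h2
  subst a b h1 h2
  by_contra hB'
  exact h3 ⟨fun hh => absurd hh hB', fun hh => absurd rfl hh⟩

theorem step_T {B : Line h → Line h → Prop} {x w z : Fin (2^h)} (hK : Agree B x w z)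
    (hB : NoCopy B) :
    ¬ B ⟨.tree (Fin.last h) false, x⟩ ⟨.tree (Fin.last h) false, x⟩ := by
  obtain ⟨k, k', p, p', h1, h2, h3⟩ := gadget hK hB .T (T1 32 (Fin.last h, false))
    (T1 33 (Fin.last h, false))
    (mono_T1 (Or.inl rfl)) (mono_T1 (Or.inr rfl))
    ⟨by
      intro k hk hr
      unfold T1 at hk
      split_ifs at hk with h1
      exact h1 hr, by
      intro k p hk
      unfold T1 at hk
      split_ifs at hk with h1
      rw [Option.some_inj] at hk
      subst hk h1
      exact ⟨fun hh0 => rfl, by simp [rowTree]⟩⟩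
    ⟨by
      intro k hk hr
      unfold T1 at hk
      split_ifs at hk with h1
      exact h1 hr, by
      intro k p hk
      unfold T1 at hk
      split_ifs at hk with h1
      rw [Option.some_inj] at hk
      subst hk h1
      exact ⟨fun hh0 => rfl, by simp [colTree]⟩⟩
  unfold T1 at h1 h2
  split_ifs at h1 h2 with a b
  rw [Option.some_inj] at h1 h2
  subst a b h1 h2
  intro hB'
  exact h3 ⟨fun hh => by decide, fun hh => hB'⟩

theorem step_I {B : Line h → Line h → Prop} {x w z : Fin (2^h)} (hK : Agree B x w z)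
    (hB : NoCopy B) (j : Fin h) (t t' : Bool) (ht' : ok h (j+1) t')
    (e1 : B ⟨.tree j.castSucc t, x⟩ ⟨.tree j.castSucc false, x⟩)
    (e2 : B ⟨.tree j.castSucc t, x⟩ ⟨.tree j.castSucc true, x⟩) :
    B ⟨.tree j.castSucc t, x⟩ ⟨.tree j.succ t', x⟩ := by
  have hj := j.2
  obtain ⟨k, k', p, p', h1, h2, h3⟩ := gadget hK hB (.I j) (T1 33 (j.castSucc, t))
    (T3 (j.castSucc, false) (j.succ, t') (j.castSucc, true))
    (mono_T1 (Or.inr rfl))
    (mono_T3 (key_lt1 hj (by simp) (by simp)) (key_lt2 hj (by simp) (by simp)))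
    ⟨by
      intro k hk hr
      unfold T1 at hk
      split_ifs at hk with h1
      exact h1 hr, by
      intro k p hk
      unfold T1 at hk
      split_ifs at hk with h1
      rw [Option.some_inj] at hk
      subst hk h1
      refine ⟨fun hh0 => ?_, by simp [rowTree]⟩
      simp at hh0
      omega⟩
    ⟨by
      intro k hk hr
      unfold T3 at hk
      split_ifs at hk with a b c
      rcases hr with hr | hr | hr
      · exact a hr
      · exact b hr
      · exact c hr, by
      intro k p hk
      unfold T3 at hk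
      split_ifs at hk with a b c <;> rw [Option.some_inj] at hk
      · subst hk a
        refine ⟨fun hh0 => ?_, by simp [colTree]⟩
        simp at hh0
        omega
      · subst hk b
        refine ⟨?_, by simp [colTree]⟩
        simpa using ht'
      · subst hk c
        refine ⟨fun hh0 => ?_, by simp [colTree]⟩
        simp at hh0
        omega⟩
  unfold T1 at h1
  unfold T3 at h2
  split_ifs at h1 h2 with a b c d <;> rw [Option.some_inj] at h1 h2
  · subst a b h1 h2
    exact absurd ⟨fun _ => by decide, fun _ => e1⟩ h3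
  · subst a c h1 h2
    by_contra hB'
    exact h3 ⟨fun hh => absurd hh hB', fun hh => absurd rfl hh⟩
  · subst a d h1 h2
    exact absurd ⟨fun _ => by decide, fun _ => e2⟩ h3

theorem step_II {B : Line h → Line h → Prop} {x w z : Fin (2^h)} (hK : Agree B x w z)
    (hB : NoCopy B) (j : Fin h) (t t' : Bool) (ht : ok h (j+1) t) (ht' : ok h (j+1) t')
    (e1 : B ⟨.tree j.castSucc false, x⟩ ⟨.tree j.succ t', x⟩)
    (e2 : B ⟨.tree j.castSucc true, x⟩ ⟨.tree j.succ t', x⟩) :
    B ⟨.tree j.succ t, x⟩ ⟨.tree j.succ t', x⟩ := by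
  have hj := j.2
  obtain ⟨k, k', p, p', h1, h2, h3⟩ := gadget hK hB (.II j (bitv h (j+1) x))
    (T3 (j.castSucc, false) (j.succ, t) (j.castSucc, true))
    (T1 33 (j.succ, t'))
    (mono_T3 (key_lt1 hj (by simp) (by simp)) (key_lt2 hj (by simp) (by simp)))
    (mono_T1 (Or.inr rfl))
    ⟨by
      intro k hk hr
      unfold T3 at hk
      split_ifs at hk with a b c
      rcases hr with hr | hr | hr
      · exact a hr
      · exact b hr
      · exact c hr, by
      intro k p hk
      unfold T3 at hk
      split_ifs at hk with a b c <;> rw [Option.some_inj] at hk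
      · subst hk a
        refine ⟨fun hh0 => ?_, by simp [rowTree]⟩
        simp at hh0
        omega
      · subst hk b
        refine ⟨?_, by simp [rowTree]⟩
        simpa using ht
      · subst hk c
        refine ⟨fun hh0 => ?_, by simp [rowTree]⟩
        simp at hh0
        omega⟩
    ⟨by
      intro k hk hr
      unfold T1 at hk
      split_ifs at hk with h1
      exact h1 hr, by
      intro k p hk
      unfold T1 at hk
      split_ifs at hk with h1
      rw [Option.some_inj] at hk
      subst hk h1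
      refine ⟨?_, by simp [colTree]⟩
      simpa using ht'⟩
  unfold T3 at h1
  unfold T1 at h2
  split_ifs at h1 h2 with a b c d e <;> rw [Option.some_inj] at h1 h2
  · subst a b h1 h2
    exact absurd ⟨fun _ => by decide, fun _ => e1⟩ h3
  · subst c d h1 h2
    by_contra hB'
    exact h3 ⟨fun hh => absurd hh hB', fun hh => absurd rfl hh⟩
  · subst_vars
    exact absurd ⟨fun _ => by decide, fun _ => e2⟩ h3

theorem chain (hh : 1 ≤ h) {B : Line h → Line h → Prop} {x w z : Fin (2^h)} (hK : Agree B x w z)
    (hB : NoCopy B) : False := by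
  have P : ∀ i : ℕ, ∀ hi : i ≤ h, ∀ t t' : Bool, ok h i t → ok h i t' →
      B ⟨.tree ⟨i, by omega⟩ t, x⟩ ⟨.tree ⟨i, by omega⟩ t', x⟩ := by
    intro i
    induction i with
    | zero =>
      intro hi t t' _ _
      exact step_S hh hK hB t t'
    | succ i ih =>
      intro hi t t' o o'
      have ih' := fun t t' => ih (by omega) t t' (fun hh0 => by omega) (fun hh0 => by omega)
      have s1 : ∀ s, B ⟨.tree (Fin.castSucc ⟨i, by omega⟩) s, x⟩ ⟨.tree (Fin.succ ⟨i, by omega⟩) t', x⟩ :=
        fun s => step_I hK hB ⟨i, by omega⟩ s t' o' (ih' s false) (ih' s true)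
      exact step_II hK hB ⟨i, by omega⟩ t t' o o' (s1 false) (s1 true)
  exact step_T hK hB (P h le_rfl false false (fun _ => rfl) (fun _ => rfl))

end Crest.Agent.S0066
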