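import Crest.Statements.S0066
import Crest.Agent.S0066_Far

set_option autoImplicit false
open Crest Crest.CombinatoricsR

namespace Crest.Agent.S0066

open Crest.CombinatoricsR.OrderedMatrix

/-- strictly increasing placement of the lines into `Fin n` -/
noncomputable def emb (h : ℕ) (hh : 1 ≤ h) : Line h ↪o Fin ((386 * h + 2) * 2 ^ h) :=
  ((Fintype.orderIsoFinOfCardEq (Line h) rfl).symm.toOrderEmbedding).trans
    (Fin.castLEOrderEmb (by
      rw [card_line]
      exact Nat.mul_le_mul_right _ (by omega)))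

open Classical in
noncomputable def matA (h : ℕ) (hh : 1 ≤ h) :
    Fin ((386 * h + 2) * 2 ^ h) → Fin ((386 * h + 2) * 2 ^ h) → Bool :=
  fun i j => decide (∃ l l', emb h hh l = i ∧ emb h hh l' = j ∧ Adj l l')

theorem matA_emb {h : ℕ} (hh : 1 ≤ h) (l l' : Line h) :
    matA h hh (emb h hh l) (emb h hh l') = true ↔ Adj l l' := by
  unfold matA
  simp only [decide_eq_true_eq]
  constructor
  · rintro ⟨a, b, ha, hb, hab⟩
    rw [(emb h hh).injective ha, (emb h hh).injective hb] at hab
    exact hab
  · intro hab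
    exact ⟨l, l', rfl, rfl, hab⟩

def pat : Fin 66 → Fin 66 → Bool := fun i j => decide (i ≠ j)

theorem far {h : ℕ} (hh : 1 ≤ h)
    (B : Fin ((386 * h + 2) * 2 ^ h) → Fin ((386 * h + 2) * 2 ^ h) → Bool)
    (hB : orderedCopyCount pat B = 0) :
    (2^h) * (2^h) ≤ (Finset.univ.filter (fun rc : Fin ((386 * h + 2) * 2 ^ h) ×
      Fin ((386 * h + 2) * 2 ^ h) => matA h hh rc.1 rc.2 ≠ B rc.1 rc.2)).card := by
  classical
  set e := emb h hh with he
  have hno : NoCopy (fun l l' : Line h => B (e l) (e l') = true) := by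
    intro u v hu hv hall
    unfold orderedCopyCount at hB
    rw [Fintype.card_eq_zero_iff] at hB
    refine hB.elim ⟨(fun k => e (u k), fun k => e (v k)), ?_, ?_, ?_⟩
    · exact e.strictMono.comp hu
    · exact e.strictMono.comp hv
    · intro i j
      have := hall i j
      simp only [pat]
      by_cases hij : i = j
      · subst hij
        simp only [ne_eq, not_true_eq_false, iff_false, Bool.not_eq_true] at this
        simpa using this
      · simp only [ne_eq, hij, not_false_eq_true, iff_true] at this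
        simpa [hij] using this
  -- for every pair (x, z) a changed cell
  have hex : ∀ p : Fin (2^h) × Fin (2^h), ∃ b b' : Blk h, ¬ BothTree b b' ∧
      ¬ (B (e (rl p.1 (p.1 + p.2) b)) (e (rl p.1 p.2 b')) = true ↔
        Adj (rl p.1 (p.1 + p.2) b) (rl p.1 p.2 b')) := by
    intro p
    by_contra hcon
    push Not at hcon
    exact chain hh (B := fun l l' : Line h => B (e l) (e l') = true) (x := p.1)
      (w := p.1 + p.2) (z := p.2) (fun b b' hb => hcon b b' hb) hno
  choose fb fb' h1 h2 using hex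
  have hcard : (Finset.univ : Finset (Fin (2^h) × Fin (2^h))).card = (2^h) * (2^h) := by
    simp
  rw [← hcard]
  apply Finset.card_le_card_of_injOn
    (fun p => (e (rl p.1 (p.1 + p.2) (fb p)), e (rl p.1 p.2 (fb' p))))
  · intro p _
    simp only [Finset.coe_filter, Finset.mem_univ, true_and, Set.mem_ofPred_eq]
    intro heq
    apply h2 p
    rw [← heq]
    exact matA_emb hh _ _
  · intro p _ q _ hpq
    simp only [Prod.mk.injEq] at hpq
    obtain ⟨e1, e2⟩ := hpq
    have e1 := e.injective e1
    have e2 := e.injective e2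
    have b1 : fb p = fb q := congrArg Line.b e1
    have b2 : fb' p = fb' q := congrArg Line.b e2
    rw [← b1] at e1
    rw [← b2] at e2
    have hnb := h1 p
    have x1 := congrArg Line.x e1
    have x2 := congrArg Line.x e2
    simp only [rl] at x1 x2
    cases hfb : fb p with
    | tree i t =>
      cases hfb' : fb' p with
      | tree j t' => exact absurd ⟨⟨i, t, hfb⟩, ⟨j, t', hfb'⟩⟩ hnb
      | gen f k =>
        rw [hfb] at x1
        rw [hfb'] at x2
        exact Prod.ext x1 x2
    | gen f k =>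
      cases hfb' : fb' p with
      | tree j t' =>
        rw [hfb] at x1
        rw [hfb'] at x2
        simp only at x1 x2
        rw [x2] at x1
        exact Prod.ext x2 (add_left_cancel x1)
      | gen f' k' =>
        rw [hfb] at x1
        rw [hfb'] at x2
        simp only at x1 x2
        rw [x2] at x1
        exact Prod.ext (add_right_cancel x1) x2

theorem count {h : ℕ} (hh : 1 ≤ h) :
    orderedCopyCount pat (matA h hh) ≤
      2^h * (((386 * h + 2) * 2 ^ h)^65 * ((386 * h + 2) * 2 ^ h)^65) := by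
  classical
  set N := (386 * h + 2) * 2 ^ h with hN
  set e := emb h hh with he
  unfold orderedCopyCount
  have key : ∀ rc : {rc : (Fin 66 → Fin N) × (Fin 66 → Fin N) //
      StrictMono rc.1 ∧ StrictMono rc.2 ∧ ∀ i j : Fin 66, matA h hh (rc.1 i) (rc.2 j) = pat i j},
      ∃ x : Fin (2^h), rc.1.1 33 = e ⟨.tree (Fin.last h) false, x⟩ ∧
        rc.1.2 33 = e ⟨.tree (Fin.last h) false, x⟩ := by
    rintro ⟨⟨U, V⟩, hU, hV, hUV⟩
    simp only at hU hV hUV ⊢
    have hrow : ∀ k, ∃ l, e l = U k := by
      intro k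
      obtain ⟨k', hk'⟩ : ∃ k' : Fin 66, k ≠ k' := by
        by_cases hk : k = 0
        · exact ⟨1, by rw [hk]; decide⟩
        · exact ⟨0, hk⟩
      have := hUV k k'
      simp only [pat, hk', ne_eq, not_false_eq_true, decide_true] at this
      unfold matA at this
      rw [decide_eq_true_iff] at this
      obtain ⟨l, l', h1, -, -⟩ := this
      exact ⟨l, h1⟩
    have hcol : ∀ k, ∃ l, e l = V k := by
      intro k
      obtain ⟨k', hk'⟩ : ∃ k' : Fin 66, k' ≠ k := by
        by_cases hk : k = 0
        · exact ⟨1, by rw [hk]; decide⟩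
        · exact ⟨0, Ne.symm hk⟩
      have := hUV k' k
      simp only [pat, hk', ne_eq, not_false_eq_true, decide_true] at this
      unfold matA at this
      rw [decide_eq_true_iff] at this
      obtain ⟨l, l', -, h1, -⟩ := this
      exact ⟨l', h1⟩
    choose u hu using hrow
    choose v hv using hcol
    have hum : StrictMono u := by
      intro a b hab
      have := hU hab
      rw [← hu a, ← hu b] at this
      exact e.lt_iff_lt.1 this
    have hvm : StrictMono v := by
      intro a b hab
      have := hV hab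
      rw [← hv a, ← hv b] at this
      exact e.lt_iff_lt.1 this
    have hadj : ∀ k k', Adj (u k) (v k') ↔ k ≠ k' := by
      intro k k'
      rw [← matA_emb hh, ← he, hu, hv, hUV]
      simp [pat]
    obtain ⟨x, hx1, hx2⟩ := rigid hh hum hvm hadj
    refine ⟨x, ?_, ?_⟩
    · rw [← hu, hx1]
    · rw [← hv, hx2]
  choose X hX1 hX2 using key
  let Φ : {rc : (Fin 66 → Fin N) × (Fin 66 → Fin N) //
      StrictMono rc.1 ∧ StrictMono rc.2 ∧ ∀ i j : Fin 66, matA h hh (rc.1 i) (rc.2 j) = pat i j} →
      Fin (2^h) × (({k : Fin 66 // k ≠ 33} → Fin N) × ({k : Fin 66 // k ≠ 33} → Fin N)) :=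
    fun rc => (X rc, (fun k => rc.1.1 k, fun k => rc.1.2 k))
  have hΦ : Function.Injective Φ := by
    intro a b hab
    simp only [Φ, Prod.mk.injEq] at hab
    obtain ⟨e1, e2, e3⟩ := hab
    apply Subtype.ext
    apply Prod.ext
    · funext k
      by_cases hk : k = 33
      · rw [hk, hX1, hX1, e1]
      · exact congrFun e2 ⟨k, hk⟩
    · funext k
      by_cases hk : k = 33
      · rw [hk, hX2, hX2, e1]
      · exact congrFun e3 ⟨k, hk⟩
  have := Fintype.card_le_of_injective Φ hΦ
  refine this.trans ?_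
  rw [Fintype.card_prod, Fintype.card_prod, Fintype.card_fun, Fintype.card_fin, Fintype.card_fin]
  have hc : Fintype.card {k : Fin 66 // k ≠ 33} = 65 := by
    rw [Fintype.card_subtype_compl, Fintype.card_fin]
    simp
  rw [hc]

/-- There is a fixed 66 × 66 binary pattern H such that for every h ≥ 1, with n = (386h + 2) · 2^h and ε = (386h + 2)⁻², some n × n binary matrix A is ε-far from free of ordered copies of H (every n × n binary matrix without an ordered copy of H differs from A in at least ε · n² cells) while the number of ordered copies of H in A is at most ε · 2^(-h) · n^132. An ordered copy picks 66 rows and 66 columns in increasing order on which A coincides with H, zeros included. -/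
theorem result :
    ∃ H : Fin 66 → Fin 66 → Bool, ∀ h : ℕ, 1 ≤ h →
      ∃ A : Fin ((386 * h + 2) * 2 ^ h) → Fin ((386 * h + 2) * 2 ^ h) → Bool,
        (∀ B : Fin ((386 * h + 2) * 2 ^ h) → Fin ((386 * h + 2) * 2 ^ h) → Bool,
          Crest.CombinatoricsR.OrderedMatrix.orderedCopyCount H B = 0 →
            ((386 * (h : ℝ) + 2) ^ 2)⁻¹ * (((386 * h + 2) * 2 ^ h : ℕ) : ℝ) ^ 2 ≤
              ((Finset.univ.filter (fun rc : Fin ((386 * h + 2) * 2 ^ h) × Fin ((386 * h + 2) * 2 ^ h) =>
                A rc.1 rc.2 ≠ B rc.1 rc.2)).card : ℝ)) ∧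
        (Crest.CombinatoricsR.OrderedMatrix.orderedCopyCount H A : ℝ) /
            (((386 * h + 2) * 2 ^ h : ℕ) : ℝ) ^ 132 ≤
          ((386 * (h : ℝ) + 2) ^ 2)⁻¹ * (2 : ℝ)⁻¹ ^ h := by
  refine ⟨pat, fun h hh => ⟨matA h hh, ?_, ?_⟩⟩
  · intro B hB
    have h1 := far hh B hB
    have h2 : ((2^h * 2^h : ℕ) : ℝ) ≤ ((Finset.univ.filter (fun rc : Fin ((386 * h + 2) * 2 ^ h) ×
      Fin ((386 * h + 2) * 2 ^ h) => matA h hh rc.1 rc.2 ≠ B rc.1 rc.2)).card : ℝ) := by
      exact_mod_cast h1
    refine le_trans (le_of_eq ?_) h2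
    have hpos : (0:ℝ) < 386 * (h : ℝ) + 2 := by positivity
    push_cast
    generalize (386 * (h : ℝ) + 2) = a at hpos ⊢
    generalize ((2 : ℝ) ^ h) = b
    field_simp
  · have h1 := count hh
    have h2 : (orderedCopyCount pat (matA h hh) : ℝ) ≤
      ((2^h * (((386 * h + 2) * 2 ^ h)^65 * ((386 * h + 2) * 2 ^ h)^65) : ℕ) : ℝ) := by
      exact_mod_cast h1
    have hpos : (0:ℝ) < 386 * (h : ℝ) + 2 := by positivity
    have hN : (0:ℝ) < (((386 * h + 2) * 2 ^ h : ℕ) : ℝ) := by positivity
    rw [div_le_iff₀ (by positivity)]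
    refine h2.trans (le_of_eq ?_)
    push_cast
    have h2h : (2:ℝ)⁻¹ ^ h * 2^h = 1 := by
      rw [← mul_pow]; norm_num
    have ha : ((386 * (h : ℝ) + 2) ^ 2)⁻¹ * (386 * (h : ℝ) + 2) ^ 2 = 1 :=
      inv_mul_cancel₀ (by positivity)
    generalize (386 * (h : ℝ) + 2) = a at ha ⊢
    generalize ((2 : ℝ) ^ h) = b at h2h ⊢
    generalize ((2 : ℝ)⁻¹ ^ h) = c at h2h ⊢
    generalize ((a ^ 2)⁻¹) = d at ha ⊢
    have e1 : d * c * (a * b) ^ 132 = (d * a ^ 2) * (c * b) * (b * ((a * b) ^ 65 * (a * b) ^ 65)) := by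
      ring
    rw [e1, ha, h2h, one_mul, one_mul]

end Crest.Agent.S0066
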