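import Mathlib
import Crest.Prelude.Def_OrderedMatrix

set_option autoImplicit false

namespace Crest.Agent.S0066

/-! ### Blocks, lines and their order -/

/-- Gadget families. -/
inductive Fam (h : ℕ)
  | S | T
  | I (i : Fin h)
  | II (i : Fin h) (b : Bool)
  deriving DecidableEq

/-- Blocks: tree blocks (level, side) and gadget blocks (family, index). -/
inductive Blk (h : ℕ)
  | tree (i : Fin (h+1)) (t : Bool)
  | gen (f : Fam h) (k : Fin 66)
  deriving DecidableEq

/-- A line (row or column). -/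
@[ext] structure Line (h : ℕ) where
  b : Blk h
  x : Fin (2^h)
  deriving DecidableEq

def famEquiv (h : ℕ) : Fam h ≃ Bool ⊕ (Fin h ⊕ (Fin h × Bool)) where
  toFun
    | .S => .inl false
    | .T => .inl true
    | .I i => .inr (.inl i)
    | .II i b => .inr (.inr (i, b))
  invFun
    | .inl false => .S
    | .inl true => .T
    | .inr (.inl i) => .I i
    | .inr (.inr (i, b)) => .II i b
  left_inv := by rintro (_|_|_|_) <;> rfl
  right_inv := by rintro ((_|_)|(_|⟨_,_⟩)) <;> rfl

instance (h : ℕ) : Fintype (Fam h) := Fintype.ofEquiv _ (famEquiv h).symm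

theorem card_fam (h : ℕ) : Fintype.card (Fam h) = 3 * h + 2 := by
  rw [Fintype.card_congr (famEquiv h)]
  simp
  ring

def blkEquiv (h : ℕ) : Blk h ≃ (Fin (h+1) × Bool) ⊕ (Fam h × Fin 66) where
  toFun
    | .tree i t => .inl (i, t)
    | .gen f k => .inr (f, k)
  invFun
    | .inl (i, t) => .tree i t
    | .inr (f, k) => .gen f k
  left_inv := by rintro (_|_) <;> rfl
  right_inv := by rintro (⟨_,_⟩|⟨_,_⟩) <;> rfl

instance (h : ℕ) : Fintype (Blk h) := Fintype.ofEquiv _ (blkEquiv h).symm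

theorem card_blk (h : ℕ) : Fintype.card (Blk h) = 200 * h + 134 := by
  rw [Fintype.card_congr (blkEquiv h)]
  simp [card_fam]
  ring

def lineEquiv (h : ℕ) : Line h ≃ Blk h × Fin (2^h) where
  toFun l := (l.b, l.x)
  invFun p := ⟨p.1, p.2⟩
  left_inv := by rintro ⟨_,_⟩; rfl
  right_inv := by rintro ⟨_,_⟩; rfl

instance (h : ℕ) : Fintype (Line h) := Fintype.ofEquiv _ (lineEquiv h).symm

theorem card_line (h : ℕ) : Fintype.card (Line h) = (200 * h + 134) * 2^h := by
  rw [Fintype.card_congr (lineEquiv h)]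
  simp [card_blk]

/-- node of `x` at level `i` -/
def nd (h i x : ℕ) : ℕ := x / 2^(h-i)

/-- the bit of `x` at level `j` -/
def bitv (h j x : ℕ) : Bool := decide (nd h j x % 2 = 1)

def pos (k : ℕ) : ℕ := if k < 33 then k else k + 1

def code {h : ℕ} : Fam h → ℕ
  | .S => 0
  | .T => 1
  | .I i => 3 * i + 2
  | .II i b => 3 * i + 3 + (if b then 1 else 0)

theorem code_inj {h : ℕ} : Function.Injective (code (h := h)) := by
  rintro (_|_|i|⟨i,b⟩) (_|_|j|⟨j,c⟩) hij <;> simp only [code] at hij <;>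
    try (first | rfl | omega)
  · congr 1; ext; omega
  · exfalso; split_ifs at hij <;> omega
  · exfalso; split_ifs at hij <;> omega
  · cases b <;> cases c <;> simp at hij ⊢ <;> first | (ext; omega) | omega

abbrev Key := ℕ ×ₗ (ℕ ×ₗ (ℕ ×ₗ (ℕ ×ₗ ℕ)))

def mk5 (a b c d e : ℕ) : Key := toLex (a, toLex (b, toLex (c, toLex (d, e))))

theorem mk5_lt {a b c d e a' b' c' d' e' : ℕ} : mk5 a b c d e < mk5 a' b' c' d' e' ↔
    a < a' ∨ a = a' ∧ (b < b' ∨ b = b' ∧ (c < c' ∨ c = c' ∧ (d < d' ∨ d = d' ∧ e < e'))) := by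
  simp only [mk5, Prod.Lex.toLex_lt_toLex]

theorem mk5_inj {a b c d e a' b' c' d' e' : ℕ} : mk5 a b c d e = mk5 a' b' c' d' e' ↔
    a = a' ∧ b = b' ∧ c = c' ∧ d = d' ∧ e = e' := by
  simp [mk5]

def key {h : ℕ} (l : Line h) : Key :=
  match l.b with
  | .tree i t => mk5 33 (if t then (nd h i l.x + 1) * 2^(h-i) else nd h i l.x * 2^(h-i))
      (if t then 0 else 1) (if t then h - i else i) l.x
  | .gen f k => mk5 (pos k) (code f) l.x 0 0

theorem pos_ne (k : ℕ) : pos k ≠ 33 := by unfold pos; split_ifs <;> omega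

theorem pos_inj {k k' : ℕ} (hk : pos k = pos k') : k = k' := by
  unfold pos at hk; split_ifs at hk <;> omega

theorem pos_lt {k k' : ℕ} : pos k < pos k' ↔ k < k' := by
  unfold pos; split_ifs <;> omega

theorem pos_lt33 {k : ℕ} : pos k < 33 ↔ k < 33 := by
  unfold pos; split_ifs <;> omega

theorem lt_pos33 {k : ℕ} : 33 < pos k ↔ 33 ≤ k := by
  unfold pos; split_ifs <;> omega

theorem key_inj {h : ℕ} : Function.Injective (key (h := h)) := by
  rintro ⟨b, x⟩ ⟨b', x'⟩ hk
  cases b with
  | tree i t =>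
    cases b' with
    | tree i' t' =>
      simp only [key, mk5_inj] at hk
      obtain ⟨-, -, h3, h4, h5⟩ := hk
      have hx : x = x' := Fin.ext h5
      have ht : t = t' := by cases t <;> cases t' <;> simp at h3 ⊢
      subst ht
      have hi : i = i' := by
        have := i.2; have := i'.2
        ext; cases t <;> simp at h4 <;> omega
      subst hi; subst hx; rfl
    | gen f' k' =>
      simp only [key, mk5_inj] at hk
      exact absurd hk.1.symm (pos_ne _)
  | gen f k =>
    cases b' with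
    | tree i' t' =>
      simp only [key, mk5_inj] at hk
      exact absurd hk.1 (pos_ne _)
    | gen f' k' =>
      simp only [key, mk5_inj] at hk
      obtain ⟨h1, h2, h3, -, -⟩ := hk
      have hk' : k = k' := Fin.ext (pos_inj h1)
      have hf : f = f' := code_inj h2
      have hx : x = x' := Fin.ext h3
      subst hk' hf hx; rfl

instance (h : ℕ) : LinearOrder (Line h) := LinearOrder.lift' key key_inj

theorem line_lt {h : ℕ} {l l' : Line h} : l < l' ↔ key l < key l' := Iff.rfl

/-! ### Roles and the matrix -/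

def rowTree (h i : ℕ) (t : Bool) (x : ℕ) : Fam h → Option (Fin 66)
  | .S => if i = 0 then some 33 else none
  | .T => if i = h then some 32 else none
  | .I j => if i = j then some 33 else none
  | .II j b => if i = j then some (if t then 34 else 32)
      else if i = j + 1 ∧ bitv h i x = b then some 33 else none

def colTree (h i : ℕ) (t : Bool) (x : ℕ) : Fam h → Option (Fin 66)
  | .S => if i = 0 then some 33 else none
  | .T => if i = h then some 33 else none
  | .I j => if i = j then some (if t then 34 else 32) else if i = j + 1 then some 33 else none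
  | .II j b => if i = j + 1 ∧ bitv h i x = b then some 33 else none

def RT {h : ℕ} : Fam h → Fin 66 → Prop
  | .S, k => k = 33
  | .T, k => k = 32
  | .I _, k => k = 33
  | .II _ _, k => k = 32 ∨ k = 33 ∨ k = 34

def CT {h : ℕ} : Fam h → Fin 66 → Prop
  | .S, k => k = 33
  | .T, k => k = 33
  | .I _, k => k = 32 ∨ k = 33 ∨ k = 34
  | .II _ _, k => k = 33

/-- a tree block is allowed unless it is `(h, true)` -/
def ok (h i : ℕ) (t : Bool) : Prop := i = h → t = false

open Classical in
noncomputable def rowRole {h : ℕ} (l : Line h) (f : Fam h) : Option (Fin 66) :=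
  match l.b with
  | .tree i t => if ok h i t then rowTree h i t l.x f else none
  | .gen f' k => if f' = f ∧ ¬ RT f k then some k else none

open Classical in
noncomputable def colRole {h : ℕ} (l : Line h) (f : Fam h) : Option (Fin 66) :=
  match l.b with
  | .tree i t => if ok h i t then colTree h i t l.x f else none
  | .gen f' k => if f' = f ∧ ¬ CT f k then some k else none

def Cmp {h : ℕ} (l l' : Line h) (f : Fam h) : Prop :=
  ∃ m n, rowRole l f = some m ∧ colRole l' f = some n ∧ m ≠ n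

/-- The (Prop valued) matrix. -/
def Adj {h : ℕ} (l l' : Line h) : Prop :=
  match l.b, l'.b with
  | .tree i t, .tree j t' => ok h i t ∧ ok h j t' ∧ ((j : ℕ) = i ∨ (j : ℕ) = i + 1) ∧
      ¬ ((i : ℕ) = h ∧ (j : ℕ) = h) ∧ nd h i l.x = nd h i l'.x
  | .gen f _, _ => Cmp l l' f
  | .tree _ _, .gen f _ => Cmp l l' f

theorem adj_tree {h : ℕ} (i : Fin (h+1)) (t : Bool) (x : Fin (2^h)) (j : Fin (h+1)) (t' : Bool)
    (y : Fin (2^h)) : Adj ⟨.tree i t, x⟩ ⟨.tree j t', y⟩ ↔
      ok h i t ∧ ok h j t' ∧ ((j : ℕ) = i ∨ (j : ℕ) = i + 1) ∧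
      ¬ ((i : ℕ) = h ∧ (j : ℕ) = h) ∧ nd h i x = nd h i y := Iff.rfl

theorem adj_genl {h : ℕ} (f : Fam h) (k : Fin 66) (z : Fin (2^h)) (l' : Line h) :
    Adj ⟨.gen f k, z⟩ l' ↔ Cmp ⟨.gen f k, z⟩ l' f := by
  unfold Adj; rfl

theorem rowRole_gen {h : ℕ} {f f' : Fam h} {k m : Fin 66} {z : Fin (2^h)} :
    rowRole ⟨.gen f k, z⟩ f' = some m ↔ f = f' ∧ ¬ RT f' k ∧ k = m := by
  unfold rowRole
  simp only
  split_ifs with hc
  · simp [hc.1, hc.2]
  · simp only [false_iff]
    rintro ⟨h1, h2, -⟩; exact hc ⟨h1, h2⟩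

theorem colRole_gen {h : ℕ} {f f' : Fam h} {k m : Fin 66} {z : Fin (2^h)} :
    colRole ⟨.gen f k, z⟩ f' = some m ↔ f = f' ∧ ¬ CT f' k ∧ k = m := by
  unfold colRole
  simp only
  split_ifs with hc
  · simp [hc.1, hc.2]
  · simp only [false_iff]
    rintro ⟨h1, h2, -⟩; exact hc ⟨h1, h2⟩

theorem adj_genr {h : ℕ} (l : Line h) (f : Fam h) (k : Fin 66) (z : Fin (2^h)) :
    Adj l ⟨.gen f k, z⟩ ↔ Cmp l ⟨.gen f k, z⟩ f := by
  obtain ⟨b, x⟩ := l
  cases b with
  | tree i t => rfl
  | gen f0 k0 =>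
    rw [adj_genl]
    constructor
    · rintro ⟨m, n, h1, h2, h3⟩
      obtain ⟨rfl, h4, rfl⟩ := colRole_gen.1 h2
      exact ⟨m, _, h1, h2, h3⟩
    · rintro ⟨m, n, h1, h2, h3⟩
      obtain ⟨rfl, h4, rfl⟩ := rowRole_gen.1 h1
      exact ⟨_, n, h1, h2, h3⟩

end Crest.Agent.S0066
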