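import Crest.Agent.S0066_Emb

set_option autoImplicit false

namespace Crest.Agent.S0066

open Crest.CombinatoricsR.OrderedMatrix

variable {K n : ℕ}

def mk (g : Grp K) (Y : Fin (2 ^ K)) (m : Fin 3 → Row K) (i : Fin 66) : Row K :=
  if h : i.val < 50 then ⟨.pad ⟨i.val, h⟩, Y⟩
  else if h2 : i.val < 63 then ⟨.b g ⟨i.val - 50, by omega⟩, Y⟩
  else m ⟨i.val - 63, by omega⟩

def isCore (t : Ty K) : Bool := !isPadt t && !isBt t

theorem pad_lt_core {i : Fin 50} {Y : Fin (2 ^ K)} {r : Row K} (h : isCore r.ty = true) :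
    (⟨.pad i, Y⟩ : Row K) < r := by
  rw [row_lt_iff, Row.key, Row.key]
  cases hr : r.ty <;> simp [hr, isCore, isPadt, isBt] at h <;>
    simp [key, Prod.Lex.toLex_lt_toLex]

theorem b_lt_core {g : Grp K} {e : Fin 13} {Y : Fin (2 ^ K)} {r : Row K}
    (h : isCore r.ty = true) : (⟨.b g e, Y⟩ : Row K) < r := by
  rw [row_lt_iff, Row.key, Row.key]
  cases hr : r.ty <;> simp [hr, isCore, isPadt, isBt] at h <;>
    simp [key, Prod.Lex.toLex_lt_toLex]

theorem pad_lt_pad {i j : Fin 50} {Y : Fin (2 ^ K)} (h : i < j) :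
    (⟨.pad i, Y⟩ : Row K) < ⟨.pad j, Y⟩ := by
  rw [row_lt_iff, Row.key, Row.key]
  have h' : i.val < j.val := h
  simp only [key, Prod.Lex.toLex_lt_toLex]
  right
  refine ⟨trivial, ?_⟩
  left
  first | (left; exact h') | (right; exact ⟨trivial, h'⟩)

theorem b_lt_b {g : Grp K} {i j : Fin 13} {Y : Fin (2 ^ K)} (h : i < j) :
    (⟨.b g i, Y⟩ : Row K) < ⟨.b g j, Y⟩ := by
  rw [row_lt_iff, Row.key, Row.key]
  have h' : i.val < j.val := h
  simp only [key, Prod.Lex.toLex_lt_toLex]
  right
  refine ⟨trivial, ?_⟩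
  left
  first | (left; exact h') | (right; exact ⟨trivial, h'⟩)

theorem pad_lt_b {g : Grp K} {i : Fin 50} {e : Fin 13} {Y Z : Fin (2 ^ K)} :
    (⟨.pad i, Y⟩ : Row K) < ⟨.b g e, Z⟩ := by
  rw [row_lt_iff, Row.key, Row.key]
  simp [key, Prod.Lex.toLex_lt_toLex]

theorem mk_mono (g : Grp K) (Y : Fin (2 ^ K)) (m : Fin 3 → Row K) (hm : StrictMono m)
    (hc : ∀ i, isCore (m i).ty = true) : StrictMono (mk g Y m) := by
  intro i j hij
  rw [Fin.lt_def] at hij
  unfold mk
  by_cases h1 : i.val < 50
  · rw [dif_pos h1]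
    by_cases h2 : j.val < 50
    · rw [dif_pos h2]
      exact pad_lt_pad hij
    · rw [dif_neg h2]
      by_cases h3 : j.val < 63
      · rw [dif_pos h3]
        exact pad_lt_b
      · rw [dif_neg h3]
        exact pad_lt_core (hc _)
  · rw [dif_neg h1, dif_neg (show ¬ j.val < 50 by omega)]
    by_cases h2 : i.val < 63
    · rw [dif_pos h2]
      by_cases h3 : j.val < 63
      · rw [dif_pos h3]
        apply b_lt_b
        rw [Fin.lt_def]
        simp only
        omega
      · rw [dif_neg h3]
        exact b_lt_core (hc _)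
    · rw [dif_neg h2, dif_neg (show ¬ j.val < 63 by omega)]
      apply hm
      rw [Fin.lt_def]
      simp only
      omega

theorem build (φ : Row K ↪o Fin n) (B : Fin n → Fin n → Bool)
    (hB : orderedCopyCount H B = 0) (Y Y' : Fin (2 ^ K)) (g : Grp K) (mr mc : Fin 3 → Row K)
    (hmr : StrictMono mr) (hmc : StrictMono mc)
    (hr1 : ∀ i, isCore (mr i).ty = true) (hc1 : ∀ i, isCore (mc i).ty = true)
    (cl1 : ∀ τ τ', B (φ ⟨τ, Y⟩) (φ ⟨τ', Y'⟩) = cell τ Y τ' Y')
    (cl2 : ∀ τ i, B (φ ⟨τ, Y⟩) (φ (mc i)) = cell τ Y (mc i).ty (mc i).lab)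
    (cl3 : ∀ τ i, B (φ (mr i)) (φ ⟨τ, Y'⟩) = cell (mr i).ty (mr i).lab τ Y')
    (hcodec : ∀ (e : Fin 13) (i : Fin 3), cell (.b g e) Y (mc i).ty (mc i).lab =
      if i = 1 then decide (e = 1) else decide (e = 0))
    (hcoder : ∀ (e : Fin 13) (i : Fin 3), cell (mr i).ty (mr i).lab (.b (partner g) e) Y' =
      if i = 1 then decide (e = 1) else decide (e = 0))
    (hcore : ∀ i j : Fin 3, B (φ (mr i)) (φ (mc j)) = !(decide (i = 1) && decide (j = 1))) :
    False := by
  rw [orderedCopyCount, Fintype.card_eq_zero_iff] at hB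
  apply hB.false
  refine ⟨(fun i => φ (mk g Y mr i), fun j => φ (mk (partner g) Y' mc j)),
    fun i j hij => φ.strictMono (mk_mono g Y mr hmr hr1 hij),
    fun i j hij => φ.strictMono (mk_mono (partner g) Y' mc hmc hc1 hij), ?_⟩
  intro i j
  simp only
  by_cases hi1 : i.val < 50
  · have e1 : mk g Y mr i = ⟨.pad ⟨i.val, hi1⟩, Y⟩ := by rw [mk, dif_pos hi1]
    have e3 : H i j = true := by rw [H, if_pos (Or.inl hi1)]
    rw [e1, e3]
    by_cases hj1 : j.val < 50
    · have e2 : mk (partner g) Y' mc j = ⟨.pad ⟨j.val, hj1⟩, Y'⟩ := by rw [mk, dif_pos hj1]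
      rw [e2, cl1]
      rfl
    · by_cases hj2 : j.val < 63
      · have e2 : mk (partner g) Y' mc j = ⟨.b (partner g) ⟨j.val - 50, by omega⟩, Y'⟩ := by
          rw [mk, dif_neg hj1, dif_pos hj2]
        rw [e2, cl1]
        rfl
      · have e2 : mk (partner g) Y' mc j = mc ⟨j.val - 63, by omega⟩ := by
          rw [mk, dif_neg hj1, dif_neg hj2]
        rw [e2, cl2]
        cases (mc ⟨j.val - 63, by omega⟩).ty <;> rfl
  · by_cases hj1 : j.val < 50
    · have e2 : mk (partner g) Y' mc j = ⟨.pad ⟨j.val, hj1⟩, Y'⟩ := by rw [mk, dif_pos hj1]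
      have e3 : H i j = true := by rw [H, if_pos (Or.inr hj1)]
      rw [e2, e3]
      by_cases hi2 : i.val < 63
      · have e1 : mk g Y mr i = ⟨.b g ⟨i.val - 50, by omega⟩, Y⟩ := by
          rw [mk, dif_neg hi1, dif_pos hi2]
        rw [e1, cl1]
        rfl
      · have e1 : mk g Y mr i = mr ⟨i.val - 63, by omega⟩ := by
          rw [mk, dif_neg hi1, dif_neg hi2]
        rw [e1, cl3]
        cases (mr ⟨i.val - 63, by omega⟩).ty <;> rfl
    · by_cases hi2 : i.val < 63
      · have e1 : mk g Y mr i = ⟨.b g ⟨i.val - 50, by omega⟩, Y⟩ := by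
          rw [mk, dif_neg hi1, dif_pos hi2]
        rw [e1]
        by_cases hj2 : j.val < 63
        · have e2 : mk (partner g) Y' mc j = ⟨.b (partner g) ⟨j.val - 50, by omega⟩, Y'⟩ := by
            rw [mk, dif_neg hj1, dif_pos hj2]
          rw [e2, cl1, H, if_neg (by omega), if_pos ⟨hi2, hj2⟩]
          simp only [cell, decide_true, Bool.true_and]
          congr 1
          simp only [ne_eq, Fin.ext_iff]
          apply propext
          apply not_congr
          constructor <;> intro hh <;> omega
        · have e2 : mk (partner g) Y' mc j = mc ⟨j.val - 63, by omega⟩ := by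
            rw [mk, dif_neg hj1, dif_neg hj2]
          have e3 : H i j = (if j.val = 64 then decide (i.val = 51) else decide (i.val = 50)) := by
            rw [H, if_neg (by omega), if_neg (by omega), if_pos hi2]
          rw [e2, cl2, hcodec, e3]
          by_cases h64 : j.val = 64
          · rw [if_pos h64, if_pos (by rw [Fin.ext_iff]; simp only; rw [h64]; rfl)]
            congr 1
            rw [Fin.ext_iff]
            apply propext
            show i.val - 50 = 1 ↔ _
            omega
          · rw [if_neg h64, if_neg (by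
              rw [Fin.ext_iff]; simp only; intro hh; apply h64
              have : ((1 : Fin 3) : ℕ) = 1 := rfl
              omega)]
            congr 1
            rw [Fin.ext_iff]
            apply propext
            show i.val - 50 = 0 ↔ _
            omega
      · have e1 : mk g Y mr i = mr ⟨i.val - 63, by omega⟩ := by
          rw [mk, dif_neg hi1, dif_neg hi2]
        rw [e1]
        by_cases hj2 : j.val < 63
        · have e2 : mk (partner g) Y' mc j = ⟨.b (partner g) ⟨j.val - 50, by omega⟩, Y'⟩ := by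
            rw [mk, dif_neg hj1, dif_pos hj2]
          have e3 : H i j = (if i.val = 64 then decide (j.val = 51) else decide (j.val = 50)) := by
            rw [H, if_neg (by omega), if_neg (by omega), if_neg hi2, if_pos hj2]
          rw [e2, cl3, hcoder, e3]
          by_cases h64 : i.val = 64
          · rw [if_pos h64, if_pos (by rw [Fin.ext_iff]; simp only; rw [h64]; rfl)]
            congr 1
            rw [Fin.ext_iff]
            apply propext
            show j.val - 50 = 1 ↔ _
            omega
          · rw [if_neg h64, if_neg (by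
              rw [Fin.ext_iff]; simp only; intro hh; apply h64
              have : ((1 : Fin 3) : ℕ) = 1 := rfl
              omega)]
            congr 1
            rw [Fin.ext_iff]
            apply propext
            show j.val - 50 = 0 ↔ _
            omega
        · have e2 : mk (partner g) Y' mc j = mc ⟨j.val - 63, by omega⟩ := by
            rw [mk, dif_neg hj1, dif_neg hj2]
          rw [e2, hcore, H, if_neg (by omega), if_neg (by omega), if_neg hi2, if_neg hj2]
          have k1 : ((⟨i.val - 63, by omega⟩ : Fin 3) = 1) ↔ i.val = 64 := by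
            rw [Fin.ext_iff]
            show i.val - 63 = 1 ↔ _
            omega
          have k2 : ((⟨j.val - 63, by omega⟩ : Fin 3) = 1) ↔ j.val = 64 := by
            rw [Fin.ext_iff]
            show j.val - 63 = 1 ↔ _
            omega
          simp only [k1, k2]

end Crest.Agent.S0066
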