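import Crest.Agent.S0066_Comp

set_option autoImplicit false

namespace Crest.Agent.S0066

open Crest.CombinatoricsR.OrderedMatrix

variable {K n : ℕ}

theorem p_lt_p {q q' : Grp K} {X X' : Fin (2 ^ K)} (h : pos K q X < pos K q' X') :
    (⟨.p q, X⟩ : Row K) < ⟨.p q', X'⟩ := by
  rw [row_lt_iff, Row.key, Row.key]
  simp only [key]
  rw [Prod.Lex.toLex_lt_toLex]
  right
  refine ⟨rfl, ?_⟩
  rw [Prod.Lex.toLex_lt_toLex]
  left
  exact h

theorem strictMono3 {α : Type*} [Preorder α] (m : Fin 3 → α) (h1 : m 0 < m 1) (h2 : m 1 < m 2) :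
    StrictMono m := by
  intro i j hij
  fin_cases i <;> fin_cases j <;> first | (exact absurd hij (by decide)) | exact h1 | exact h2 | exact h1.trans h2

theorem isM_lev {k : Fin K} {κ β : Bool} {q : Grp K} (h : lev q ≤ k.val) :
    isM (some (k, κ, β)) q = false := by
  cases q with
  | none => rfl
  | some y =>
    obtain ⟨k', β', s⟩ := y
    simp only [lev] at h
    have : k ≠ k' := by
      intro hh
      rw [hh] at h
      omega
    simp [isM, this]

theorem codeP_m (k : Fin K) (κ β s : Bool) (e : Fin 13) :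
    codeP (some (k, κ, β)) (some (k, β, s)) e = decide (e = 0) := by
  cases κ <;> simp [codeP, isM, isR, lev]

theorem codeP_r (g q : Grp K) (e : Fin 13) (h1 : isM g q = false) (h2 : isR g q = true) :
    codeP g q e = decide (e = 1) := by
  simp [codeP, h1, h2]

theorem div_eq_zero {k : Fin K} {m : ℕ} (hm : K ≤ m) (X : Fin (2 ^ K)) :
    (X : ℕ) / 2 ^ m = 0 := by
  apply Nat.div_eq_of_lt
  exact lt_of_lt_of_le X.isLt (Nat.pow_le_pow_right (by norm_num) hm)

theorem step (φ : Row K ↪o Fin n) (B : Fin n → Fin n → Bool)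
    (hB : orderedCopyCount H B = 0) (X Y Y' W W' : Fin (2 ^ K)) (k : Fin K) (q q' : Grp K)
    (hq : max (lev q) (lev q') = k.val)
    (hW : (X : ℕ) / 2 ^ (k.val + 1) = W / 2 ^ (k.val + 1))
    (hW' : (X : ℕ) / 2 ^ (k.val + 1) = W' / 2 ^ (k.val + 1))
    (clYY : ∀ τ τ', B (φ ⟨τ, Y⟩) (φ ⟨τ', Y'⟩) = cell τ Y τ' Y')
    (clYX : ∀ τ τ', B (φ ⟨τ, Y⟩) (φ ⟨τ', X⟩) = cell τ Y τ' X)
    (clXY : ∀ τ τ', B (φ ⟨τ, X⟩) (φ ⟨τ', Y'⟩) = cell τ X τ' Y')
    (clYW : ∀ τ τ', B (φ ⟨τ, Y⟩) (φ ⟨τ', W'⟩) = cell τ Y τ' W')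
    (clWY : ∀ τ τ', B (φ ⟨τ, W⟩) (φ ⟨τ', Y'⟩) = cell τ W τ' Y')
    (hmm : ∀ β s s', B (φ ⟨.p (some (k, β, s)), W⟩) (φ ⟨.p (some (k, β, s')), W'⟩) = true)
    (hmr : ∀ β s, B (φ ⟨.p (some (k, β, s)), W⟩) (φ ⟨.p q', X⟩) = true)
    (hrm : ∀ β s, B (φ ⟨.p q, X⟩) (φ ⟨.p (some (k, β, s)), W'⟩) = true) :
    B (φ ⟨.p q, X⟩) (φ ⟨.p q', X⟩) = true := by
  by_contra hne
  rw [Bool.not_eq_true] at hne
  have hq1 : lev q ≤ k.val := by omega
  have hq2 : lev q' ≤ k.val := by omega
  obtain ⟨β, hβ⟩ : ∃ β : Bool, ∀ (q : Grp K), lev q ≤ k.val → ∀ W : Fin (2 ^ K),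
      (X : ℕ) / 2 ^ (k.val + 1) = W / 2 ^ (k.val + 1) →
      pos K (some (k, β, false)) W < pos K q X ∧ pos K q X < pos K (some (k, β, true)) W := by
    rcases Nat.mod_two_eq_zero_or_one ((X : ℕ) / 2 ^ k.val) with hb | hb
    · exact ⟨false, fun q hq W hW => pos_even k q hq X W hW hb⟩
    · exact ⟨true, fun q hq W hW => pos_odd k q hq X W hW hb⟩
  obtain ⟨κ, hκ1, hκ2⟩ : ∃ κ : Bool, isR (some (k, κ, β)) q' = true ∧
      isR (some (k, !κ, β)) q = true := by
    by_cases h : lev q = k.val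
    · exact ⟨true, by simp [isR, hq2], by simp [isR, h]⟩
    · exact ⟨false, by simp only [isR]; simp; omega, by simp [isR, hq1]⟩
  set mr : Fin 3 → Row K := ![⟨.p (some (k, β, false)), W⟩, ⟨.p q, X⟩, ⟨.p (some (k, β, true)), W⟩]
    with hmr_def
  set mc : Fin 3 → Row K := ![⟨.p (some (k, β, false)), W'⟩, ⟨.p q', X⟩,
    ⟨.p (some (k, β, true)), W'⟩] with hmc_def
  refine build φ B hB Y Y' (some (k, κ, β)) mr mc ?_ ?_ ?_ ?_ clYY ?_ ?_ ?_ ?_ ?_
  · exact strictMono3 _ (p_lt_p (hβ q hq1 W hW).1) (p_lt_p (hβ q hq1 W hW).2)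
  · exact strictMono3 _ (p_lt_p (hβ q' hq2 W' hW').1) (p_lt_p (hβ q' hq2 W' hW').2)
  · intro i
    fin_cases i <;> rfl
  · intro i
    fin_cases i <;> rfl
  · intro τ i
    fin_cases i
    · exact clYW _ _
    · exact clYX _ _
    · exact clYW _ _
  · intro τ i
    fin_cases i
    · exact clWY _ _
    · exact clXY _ _
    · exact clWY _ _
  · intro e i
    fin_cases i
    · exact codeP_m k κ β _ e
    · exact codeP_r _ _ e (isM_lev hq2) hκ1
    · exact codeP_m k κ β _ e
  · intro e i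
    fin_cases i
    · exact codeP_m k (!κ) β _ e
    · exact codeP_r _ _ e (isM_lev hq1) hκ2
    · exact codeP_m k (!κ) β _ e
  · intro i j
    fin_cases i <;> fin_cases j
    · exact hmm _ _ _
    · exact hmr _ _
    · exact hmm _ _ _
    · exact hrm _ _
    · exact hne
    · exact hrm _ _
    · exact hmm _ _ _
    · exact hmr _ _
    · exact hmm _ _ _

theorem lev_le (q : Grp K) : lev q ≤ K := by
  cases q with
  | none => exact Nat.zero_le _
  | some x => obtain ⟨k, κ, β⟩ := x; exact k.isLt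

theorem lev_some (k : Fin K) (β s : Bool) : lev (some (k, β, s)) = k.val + 1 := rfl

theorem contra (φ : Row K ↪o Fin n) (B : Fin n → Fin n → Bool)
    (hB : orderedCopyCount H B = 0) (X Y Y' : Fin (2 ^ K)) (hK : 0 < K)
    (clYY : ∀ τ τ', B (φ ⟨τ, Y⟩) (φ ⟨τ', Y'⟩) = cell τ Y τ' Y')
    (clYX : ∀ τ τ', B (φ ⟨τ, Y⟩) (φ ⟨τ', X⟩) = cell τ Y τ' X)
    (clXY : ∀ τ τ', B (φ ⟨τ, X⟩) (φ ⟨τ', Y'⟩) = cell τ X τ' Y') : False := by
  have main : ∀ d k : ℕ, k + d + 1 = K → ∀ q q' : Grp K, max (lev q) (lev q') = k →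
      B (φ ⟨.p q, X⟩) (φ ⟨.p q', X⟩) = true := by
    intro d
    induction d with
    | zero =>
      intro k hk q q' hq
      have hk' : k < K := by omega
      have top : ∀ (P Q : Fin (2 ^ K)) (q q' : Grp K), max (lev q) (lev q') = K →
          cell (.p q) P (.p q') Q = true := by
        intro P Q q q' hh
        simp only [cell, hh, decide_eq_true_eq]
        rw [div_eq_zero (k := ⟨k, hk'⟩) le_rfl, div_eq_zero (k := ⟨k, hk'⟩) le_rfl]
      refine step φ B hB X Y Y' Y Y' ⟨k, hk'⟩ q q' hq ?_ ?_ clYY clYX clXY clYY clYY ?_ ?_ ?_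
      · rw [div_eq_zero (k := ⟨k, hk'⟩) (by simp only; omega),
          div_eq_zero (k := ⟨k, hk'⟩) (by simp only; omega)]
      · rw [div_eq_zero (k := ⟨k, hk'⟩) (by simp only; omega),
          div_eq_zero (k := ⟨k, hk'⟩) (by simp only; omega)]
      · intro β s s'
        rw [clYY]
        apply top
        simp only [lev_some]
        omega
      · intro β s
        rw [clYX]
        apply top
        have := lev_le q'
        simp only [lev_some]
        omega
      · intro β s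
        rw [clXY]
        apply top
        have := lev_le q
        simp only [lev_some]
        omega
    | succ d ih =>
      intro k hk q q' hq
      have hk' : k < K := by omega
      have ih' := ih (k + 1) (by omega)
      refine step φ B hB X Y Y' X X ⟨k, hk'⟩ q q' hq rfl rfl clYY clYX clXY clYX clXY ?_ ?_ ?_
      · intro β s s'
        apply ih'
        simp only [lev_some]
        omega
      · intro β s
        apply ih'
        simp only [lev_some]
        omega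
      · intro β s
        apply ih'
        simp only [lev_some]
        omega
  have hX : B (φ ⟨.p none, X⟩) (φ ⟨.p none, X⟩) = true :=
    main (K - 1) 0 (by omega) none none (by simp [lev])
  set mr : Fin 3 → Row K := ![⟨.p none, X⟩, ⟨.S, Y⟩, ⟨.U, Y⟩] with hmr_def
  set mc : Fin 3 → Row K := ![⟨.p none, X⟩, ⟨.S, Y'⟩, ⟨.U, Y'⟩] with hmc_def
  have l1 : ∀ P Q : Fin (2 ^ K), (⟨.p none, P⟩ : Row K) < ⟨.S, Q⟩ := by
    intro P Q
    rw [row_lt_iff, Row.key, Row.key]
    simp only [key]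
    rw [Prod.Lex.toLex_lt_toLex]
    left
    simp
  have l2 : ∀ P Q : Fin (2 ^ K), (⟨.S, P⟩ : Row K) < ⟨.U, Q⟩ := by
    intro P Q
    rw [row_lt_iff, Row.key, Row.key]
    simp only [key]
    rw [Prod.Lex.toLex_lt_toLex]
    left
    simp
  refine build φ B hB Y Y' none mr mc ?_ ?_ ?_ ?_ clYY ?_ ?_ ?_ ?_ ?_
  · exact strictMono3 _ (l1 _ _) (l2 _ _)
  · exact strictMono3 _ (l1 _ _) (l2 _ _)
  · intro i
    fin_cases i <;> rfl
  · intro i
    fin_cases i <;> rfl
  · intro τ i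
    fin_cases i
    · exact clYX _ _
    · exact clYY _ _
    · exact clYY _ _
  · intro τ i
    fin_cases i
    · exact clXY _ _
    · exact clYY _ _
    · exact clYY _ _
  · intro e i
    fin_cases i <;> simp [mc, cell, codeP, isM, isR]
  · intro e i
    fin_cases i <;> simp [mr, cell, codeP, isM, isR, partner]
  · intro i j
    fin_cases i <;> fin_cases j
    · exact hX
    · exact clXY _ _
    · exact clXY _ _
    · exact clYX _ _
    · exact clYY _ _
    · exact clYY _ _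
    · exact clYX _ _
    · exact clYY _ _
    · exact clYY _ _

end Crest.Agent.S0066
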