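import Mathlib

set_option autoImplicit false

namespace Crest.Agent.S0066

/-- group codes: `none` is the final group / leaf type, `some (k, κ, β)` the level `k+1` ones. -/
abbrev Grp (K : ℕ) := Option (Fin K × Bool × Bool)

/-- types of rows and columns -/
inductive Ty (K : ℕ)
  | pad (i : Fin 50)
  | b (g : Grp K) (e : Fin 13)
  | p (q : Grp K)
  | S
  | U
  deriving DecidableEq

variable {K : ℕ}

def lev : Grp K → ℕ
  | none => 0
  | some (k, _, _) => k.val + 1

def partner : Grp K → Grp K
  | none => none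
  | some (k, κ, β) => some (k, !κ, β)

/-- does the type `q` play the `m` role for group `g` -/
def isM : Grp K → Grp K → Bool
  | none, none => true
  | some (k, _, β), some (k', β', _) => decide (k = k') && decide (β = β')
  | _, _ => false

/-- does the type `q` play the `ρ` role for group `g` -/
def isR : Grp K → Grp K → Bool
  | none, _ => false
  | some (k, κ, _), q => if κ then decide (lev q ≤ k.val) else decide (lev q = k.val)

def codeP (g q : Grp K) (e : Fin 13) : Bool :=
  (isM g q && decide (e = 0)) || (isR g q && decide (e = 1))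

def cell : Ty K → ℕ → Ty K → ℕ → Bool
  | .pad _, _, _, _ => true
  | _, _, .pad _, _ => true
  | .b g e, _, .b g' e', _ => decide (g' = partner g) && decide (e ≠ e')
  | .b g e, _, .p q, _ => codeP g q e
  | .p q, _, .b g e, _ => codeP g q e
  | .b g e, _, .S, _ => decide (g = none) && decide (e = 1)
  | .S, _, .b g e, _ => decide (g = none) && decide (e = 1)
  | .b g e, _, .U, _ => decide (g = none) && decide (e = 0)
  | .U, _, .b g e, _ => decide (g = none) && decide (e = 0)
  | .p q, X, .p q', X' =>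
      decide (X / 2 ^ (max (lev q) (lev q')) = X' / 2 ^ (max (lev q) (lev q')))
  | .p q, _, .S, _ => decide (q = none)
  | .S, _, .p q, _ => decide (q = none)
  | .p q, _, .U, _ => decide (q = none)
  | .U, _, .p q, _ => decide (q = none)
  | .S, _, .S, _ => false
  | .S, _, .U, _ => true
  | .U, _, .S, _ => true
  | .U, _, .U, _ => true

theorem cell_symm (a : Ty K) (X : ℕ) (b : Ty K) (Y : ℕ) : cell a X b Y = cell b Y a X := by
  cases a with
  | pad i => cases b <;> rfl
  | b g e =>
    cases b with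
    | b g' e' =>
      simp only [cell]
      have h1 : (g' = partner g) ↔ (g = partner g') := by
        constructor
        · rintro rfl
          cases g with
          | none => rfl
          | some x => obtain ⟨k, κ, β⟩ := x; simp [partner]
        · rintro rfl
          cases g' with
          | none => rfl
          | some x => obtain ⟨k, κ, β⟩ := x; simp [partner]
      have h2 : (e ≠ e') ↔ (e' ≠ e) := ⟨Ne.symm, Ne.symm⟩
      simp only [h1, h2]
    | _ => rfl
  | p q =>
    cases b with
    | p q' =>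
      simp only [cell]
      rw [max_comm (lev q) (lev q')]
      congr 1
      exact propext ⟨Eq.symm, Eq.symm⟩
    | _ => rfl
  | S => cases b <;> rfl
  | U => cases b <;> rfl

/-- the pattern -/
def H (i j : Fin 66) : Bool :=
  if i.val < 50 ∨ j.val < 50 then true
  else if i.val < 63 ∧ j.val < 63 then decide (i ≠ j)
  else if i.val < 63 then (if j.val = 64 then decide (i.val = 51) else decide (i.val = 50))
  else if j.val < 63 then (if i.val = 64 then decide (j.val = 51) else decide (j.val = 50))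
  else !(decide (i.val = 64) && decide (j.val = 64))

/-- position (coarse) doubled -/
def pos (K : ℕ) : Grp K → ℕ → ℕ ×ₗ ℕ
  | none, X => toLex (2 * X + 1, 0)
  | some (k, false, false), X => toLex (2 * (X / 2 ^ (k.val + 1) * 2 ^ (k.val + 1)), 4 * K - k.val)
  | some (k, false, true), X =>
      toLex (2 * (X / 2 ^ (k.val + 1) * 2 ^ (k.val + 1) + 2 ^ k.val), 2 * K)
  | some (k, true, false), X =>
      toLex (2 * (X / 2 ^ (k.val + 1) * 2 ^ (k.val + 1) + 2 ^ k.val), 2 * K)
  | some (k, true, true), X =>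
      toLex (2 * (X / 2 ^ (k.val + 1) * 2 ^ (k.val + 1) + 2 ^ (k.val + 1)), k.val)

def gid : Grp K → ℕ
  | none => 0
  | some (k, κ, β) => 1 + 4 * k.val + 2 * κ.toNat + β.toNat

theorem gid_inj : Function.Injective (gid : Grp K → ℕ) := by
  intro a b h
  cases a with
  | none =>
    cases b with
    | none => rfl
    | some y => obtain ⟨k, κ, β⟩ := y; simp only [gid] at h; omega
  | some x =>
    obtain ⟨k, κ, β⟩ := x
    cases b with
    | none => simp only [gid] at h; omega
    | some y =>
      obtain ⟨k', κ', β'⟩ := y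
      simp only [gid] at h
      have hk : k = k' := by
        apply Fin.ext
        cases κ <;> cases β <;> cases κ' <;> cases β' <;> simp at h <;> omega
      subst hk
      cases κ <;> cases β <;> cases κ' <;> cases β' <;> simp at h <;> first | rfl | omega

/-- sort key -/
def key : Ty K → ℕ → ℕ ×ₗ ((ℕ ×ₗ ℕ) ×ₗ (ℕ ×ₗ ℕ))
  | .pad i, X => toLex (0, toLex (toLex (i.val, 0), toLex (0, X)))
  | .b g e, X => toLex (1, toLex (toLex (gid g, e.val), toLex (0, X)))
  | .p q, X => toLex (2, toLex (pos K q X, toLex (gid q, X)))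
  | .S, X => toLex (3, toLex (toLex (0, 0), toLex (0, X)))
  | .U, X => toLex (4, toLex (toLex (0, 0), toLex (0, X)))

structure Row (K : ℕ) where
  ty : Ty K
  lab : Fin (2 ^ K)

def Row.key (r : Row K) := S0066.key r.ty r.lab.val

theorem key_inj : Function.Injective (Row.key : Row K → _) := by
  rintro ⟨a, X⟩ ⟨b, Y⟩ h
  simp only [Row.key] at h
  cases a <;> cases b <;> simp [key] at h
  · obtain ⟨h1, h2⟩ := h
    congr 1
    · congr 1; exact Fin.ext h1
    · exact Fin.ext h2
  · obtain ⟨⟨h1, h3⟩, h2⟩ := h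
    rw [gid_inj h1, Fin.ext h3, Fin.ext h2]
  · obtain ⟨h1, h3, h2⟩ := h
    rw [gid_inj h3, Fin.ext h2]
  · rw [Fin.ext h]
  · rw [Fin.ext h]

noncomputable instance : LinearOrder (Row K) := LinearOrder.lift' Row.key key_inj

theorem row_lt_iff (r s : Row K) : r < s ↔ r.key < s.key := Iff.rfl

def rowEquiv : Row K ≃ (Fin 50 ⊕ (Grp K × Fin 13) ⊕ Grp K ⊕ Bool) × Fin (2 ^ K) where
  toFun r := (match r.ty with
    | .pad i => .inl i
    | .b g e => .inr (.inl (g, e))
    | .p q => .inr (.inr (.inl q))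
    | .S => .inr (.inr (.inr false))
    | .U => .inr (.inr (.inr true)), r.lab)
  invFun x := ⟨match x.1 with
    | .inl i => .pad i
    | .inr (.inl (g, e)) => .b g e
    | .inr (.inr (.inl q)) => .p q
    | .inr (.inr (.inr false)) => .S
    | .inr (.inr (.inr true)) => .U, x.2⟩
  left_inv := by rintro ⟨a, X⟩; cases a <;> rfl
  right_inv := by rintro ⟨(i | ⟨g, e⟩ | q | (_ | _)), X⟩ <;> rfl

instance : Fintype (Row K) := Fintype.ofEquiv _ rowEquiv.symm

theorem card_row : Fintype.card (Row K) = (56 * K + 66) * 2 ^ K := by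
  rw [Fintype.card_congr rowEquiv]
  simp only [Fintype.card_prod, Fintype.card_sum, Fintype.card_fin, Fintype.card_option,
    Fintype.card_bool]
  ring

theorem node_bounds (j k X : ℕ) (h : j + 1 ≤ k) :
    (X / 2 ^ k) * 2 ^ k ≤ (X / 2 ^ (j + 1)) * 2 ^ (j + 1) ∧
    (X / 2 ^ (j + 1)) * 2 ^ (j + 1) + 2 ^ (j + 1) ≤ (X / 2 ^ k) * 2 ^ k + 2 ^ k := by
  obtain ⟨d, rfl⟩ := Nat.exists_eq_add_of_le h
  have h1 : X / 2 ^ (j + 1 + d) = (X / 2 ^ (j + 1)) / 2 ^ d := by
    rw [pow_add, Nat.div_div_eq_div_mul]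
  rw [h1]
  set u := X / 2 ^ (j + 1) with hu
  have hp : 2 ^ (j + 1 + d) = 2 ^ d * 2 ^ (j + 1) := by rw [pow_add]; ring
  have hd : 0 < 2 ^ d := by positivity
  constructor
  · rw [hp, ← mul_assoc]
    exact Nat.mul_le_mul_right _ (Nat.div_mul_le_self u (2 ^ d))
  · have h2 : u + 1 ≤ (u / 2 ^ d) * 2 ^ d + 2 ^ d := by
      have := Nat.lt_div_mul_add (a := u) hd
      omega
    calc u * 2 ^ (j + 1) + 2 ^ (j + 1) = (u + 1) * 2 ^ (j + 1) := by ring
      _ ≤ ((u / 2 ^ d) * 2 ^ d + 2 ^ d) * 2 ^ (j + 1) := Nat.mul_le_mul_right _ h2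
      _ = _ := by rw [hp]; ring

theorem div_succ_split (k X : ℕ) :
    (X / 2 ^ k) * 2 ^ k = (X / 2 ^ (k + 1)) * 2 ^ (k + 1) + (X / 2 ^ k % 2) * 2 ^ k := by
  have h1 : X / 2 ^ (k + 1) = (X / 2 ^ k) / 2 := by
    rw [pow_succ, Nat.div_div_eq_div_mul]
  rw [h1]
  set c := X / 2 ^ k
  have : c = 2 * (c / 2) + c % 2 := by omega
  calc c * 2 ^ k = (2 * (c / 2) + c % 2) * 2 ^ k := by rw [← this]
    _ = _ := by rw [pow_succ]; ring

theorem leaf_bounds (k X : ℕ) : (X / 2 ^ k) * 2 ^ k ≤ X ∧ X < (X / 2 ^ k) * 2 ^ k + 2 ^ k :=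
  ⟨Nat.div_mul_le_self _ _, Nat.lt_div_mul_add (by positivity)⟩

theorem pos_even (k : Fin K) (q : Grp K) (hq : lev q ≤ k.val) (X W : ℕ)
    (hXW : X / 2 ^ (k.val + 1) = W / 2 ^ (k.val + 1)) (hb : X / 2 ^ k.val % 2 = 0) :
    pos K (some (k, false, false)) W < pos K q X ∧
      pos K q X < pos K (some (k, false, true)) W := by
  have hs := div_succ_split k.val X
  rw [hb, hXW] at hs
  have hk := k.isLt
  have h2 : 2 ^ (k.val + 1) = 2 * 2 ^ k.val := by rw [pow_succ]; ring
  have hP : 0 < 2 ^ k.val := by positivity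
  cases q with
  | none =>
    have hl := leaf_bounds k.val X
    simp only [pos, Prod.Lex.toLex_lt_toLex]
    omega
  | some x =>
    obtain ⟨j, β', s'⟩ := x
    simp only [lev] at hq
    have hn := node_bounds j.val k.val X hq
    have h3 : 2 ^ (j.val + 1) = 2 * 2 ^ j.val := by rw [pow_succ]; ring
    have hp : 0 < 2 ^ j.val := by positivity
    cases β' <;> cases s' <;> simp only [pos, Prod.Lex.toLex_lt_toLex] <;> omega

theorem pos_odd (k : Fin K) (q : Grp K) (hq : lev q ≤ k.val) (X W : ℕ)
    (hXW : X / 2 ^ (k.val + 1) = W / 2 ^ (k.val + 1)) (hb : X / 2 ^ k.val % 2 = 1) :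
    pos K (some (k, true, false)) W < pos K q X ∧
      pos K q X < pos K (some (k, true, true)) W := by
  have hs := div_succ_split k.val X
  rw [hb, hXW] at hs
  have hk := k.isLt
  have h2 : 2 ^ (k.val + 1) = 2 * 2 ^ k.val := by rw [pow_succ]; ring
  have hP : 0 < 2 ^ k.val := by positivity
  cases q with
  | none =>
    have hl := leaf_bounds k.val X
    simp only [pos, Prod.Lex.toLex_lt_toLex]
    omega
  | some x =>
    obtain ⟨j, β', s'⟩ := x
    simp only [lev] at hq
    have hn := node_bounds j.val k.val X hq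
    have h3 : 2 ^ (j.val + 1) = 2 * 2 ^ j.val := by rw [pow_succ]; ring
    have hp : 0 < 2 ^ j.val := by positivity
    cases β' <;> cases s' <;> simp only [pos, Prod.Lex.toLex_lt_toLex] <;> omega

end Crest.Agent.S0066
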