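import Crest.Agent.S0066_Sound2
import Crest.Prelude.Def_OrderedMatrix

set_option autoImplicit false

namespace Crest.Agent.S0066

variable {K n : ℕ}

noncomputable def emb (hn : Fintype.card (Row K) ≤ n) : Row K ↪o Fin n :=
  ((Fintype.orderIsoFinOfCardEq (Row K) rfl).symm.toOrderEmbedding).trans (Fin.castLEOrderEmb hn)

open Classical in
noncomputable def pin (hn : Fintype.card (Row K) ≤ n) (i : Fin n) : Option (Row K) :=
  if h : ∃ x, emb hn x = i then some h.choose else none

theorem pin_emb (hn : Fintype.card (Row K) ≤ n) (x : Row K) : pin hn (emb hn x) = some x := by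
  have h : ∃ y, emb hn y = emb hn x := ⟨x, rfl⟩
  rw [pin, dif_pos h]
  exact congrArg some ((emb hn).injective h.choose_spec)

theorem pin_some (hn : Fintype.card (Row K) ≤ n) {i : Fin n} {x : Row K}
    (h : pin hn i = some x) : emb hn x = i := by
  rw [pin] at h
  split_ifs at h with h1
  have := h1.choose_spec
  rw [← this]
  congr 1
  exact (Option.some.inj h).symm

def cellO : Option (Row K) → Option (Row K) → Bool
  | some x, some y => cell x.ty x.lab y.ty y.lab
  | _, _ => true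

noncomputable def A (hn : Fintype.card (Row K) ≤ n) (r c : Fin n) : Bool :=
  cellO (pin hn r) (pin hn c)

theorem A_emb (hn : Fintype.card (Row K) ≤ n) (x y : Row K) :
    A hn (emb hn x) (emb hn y) = cell x.ty x.lab y.ty y.lab := by
  simp only [A, pin_emb, cellO]

theorem A_false (hn : Fintype.card (Row K) ≤ n) {r c : Fin n} (h : A hn r c = false) :
    ∃ x y : Row K, pin hn r = some x ∧ pin hn c = some y ∧ isPadt x.ty = false ∧
      isPadt y.ty = false := by
  rw [A] at h
  cases hr : pin hn r with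
  | none => rw [hr] at h; simp [cellO] at h
  | some x =>
    cases hc : pin hn c with
    | none => rw [hr, hc] at h; simp [cellO] at h
    | some y =>
      rw [hr, hc] at h
      simp only [cellO] at h
      refine ⟨x, y, rfl, rfl, ?_, ?_⟩
      · cases hx : x.ty with
        | pad i => rw [hx] at h; cases y.ty <;> simp [cell] at h
        | _ => rfl
      · cases hy : y.ty with
        | pad i => rw [hy, cell_symm] at h; cases x.ty <;> simp [cell] at h
        | _ => rfl

def dn (i : Fin 16) : Fin 66 := ⟨50 + i.val, by omega⟩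

theorem dn_mono : StrictMono dn := by
  intro i j h
  rw [Fin.lt_def] at h ⊢
  simp only [dn]
  omega

theorem H_dn (i j : Fin 16) : H (dn i) (dn j) = H0 i j := by revert i j; decide

theorem H0_false (i : Fin 16) : ∃ j, H0 i j = false := by revert i; decide

theorem copy_sound (hn : Fintype.card (Row K) ≤ n) (r c : Fin 66 → Fin n) (hr : StrictMono r)
    (hc : StrictMono c) (h : ∀ i j, A hn (r i) (c j) = H i j) :
    ∃ X Z : Fin (2 ^ K), r 63 = emb hn ⟨.p none, X⟩ ∧ c 63 = emb hn ⟨.p none, X⟩ ∧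
      r 64 = emb hn ⟨.S, Z⟩ := by
  have h1 : ∀ i : Fin 16, ∃ x : Row K, pin hn (r (dn i)) = some x ∧ isPadt x.ty = false := by
    intro i
    obtain ⟨j, hj⟩ := H0_false i
    rw [← H_dn, ← h] at hj
    obtain ⟨x, y, h1, h2, h3, h4⟩ := A_false hn hj
    exact ⟨x, h1, h3⟩
  have h2 : ∀ i : Fin 16, ∃ x : Row K, pin hn (c (dn i)) = some x ∧ isPadt x.ty = false := by
    intro i
    obtain ⟨j, hj⟩ := H0_false i
    rw [H0_symm, ← H_dn, ← h] at hj
    obtain ⟨x, y, h1, h2, h3, h4⟩ := A_false hn hj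
    exact ⟨y, h2, h4⟩
  choose R hR hRp using h1
  choose C hC hCp using h2
  have hG : Good R C := by
    intro i j
    rw [← H_dn, ← h, A, hR, hC]
    rfl
  have hRm : StrictMono R := by
    intro i j hij
    rw [← (emb hn).lt_iff_lt, pin_some hn (hR i), pin_some hn (hR j)]
    exact hr (dn_mono hij)
  have hCm : StrictMono C := by
    intro i j hij
    rw [← (emb hn).lt_iff_lt, pin_some hn (hC i), pin_some hn (hC j)]
    exact hc (dn_mono hij)
  obtain ⟨s1, s2, s3, s4⟩ := hG.sound hRp hCp hRm hCm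
  refine ⟨(R 13).lab, (R 14).lab, ?_, ?_, ?_⟩
  · rw [← s1]
    exact (pin_some hn (hR 13)).symm
  · rw [← s2, s4]
    exact (pin_some hn (hC 13)).symm
  · rw [← s3]
    exact (pin_some hn (hR 14)).symm

open Crest.CombinatoricsR.OrderedMatrix

theorem count_le (hn : Fintype.card (Row K) ≤ n) :
    orderedCopyCount H (A hn) ≤ (2 ^ K) ^ 2 * n ^ 129 := by
  classical
  rw [orderedCopyCount]
  let T := Fin (2 ^ K) × Fin (2 ^ K) × ({i : Fin 66 // i ≠ 63 ∧ i ≠ 64} → Fin n) ×
    ({i : Fin 66 // i ≠ 63} → Fin n)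
  have hT : Fintype.card T = (2 ^ K) ^ 2 * n ^ 129 := by
    simp only [T, Fintype.card_prod, Fintype.card_fun, Fintype.card_fin]
    have e1 : Fintype.card {i : Fin 66 // i ≠ 63 ∧ i ≠ 64} = 64 := by decide
    have e2 : Fintype.card {i : Fin 66 // i ≠ 63} = 65 := by decide
    rw [e1, e2]
    ring
  rw [← hT]
  have hs : ∀ rc : {rc : (Fin 66 → Fin n) × (Fin 66 → Fin n) //
    StrictMono rc.1 ∧ StrictMono rc.2 ∧ ∀ i j : Fin 66, A hn (rc.1 i) (rc.2 j) = H i j},
    ∃ XZ : Fin (2 ^ K) × Fin (2 ^ K), rc.1.1 63 = emb hn ⟨.p none, XZ.1⟩ ∧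
      rc.1.2 63 = emb hn ⟨.p none, XZ.1⟩ ∧ rc.1.1 64 = emb hn ⟨.S, XZ.2⟩ := by
    intro rc
    obtain ⟨X, Z, h1, h2, h3⟩ := copy_sound hn rc.1.1 rc.1.2 rc.2.1 rc.2.2.1 rc.2.2.2
    exact ⟨(X, Z), h1, h2, h3⟩
  choose f hf1 hf2 hf3 using hs
  refine Fintype.card_le_of_injective (β := T)
    (fun rc => ((f rc).1, (f rc).2, fun i => rc.1.1 i.1, fun i => rc.1.2 i.1)) ?_
  intro rc rc' he
  simp only [T, Prod.mk.injEq] at he
  obtain ⟨e1, e2, e3, e4⟩ := he
  apply Subtype.ext
  apply Prod.ext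
  · funext i
    by_cases h63 : i = 63
    · rw [h63, hf1, hf1, e1]
    · by_cases h64 : i = 64
      · rw [h64, hf3, hf3, e2]
      · exact congrFun e3 ⟨i, h63, h64⟩
  · funext i
    by_cases h63 : i = 63
    · rw [h63, hf2, hf2, e1]
    · exact congrFun e4 ⟨i, h63⟩

end Crest.Agent.S0066
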