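import Crest.Agent.S0066_Comp2

set_option autoImplicit false

namespace Crest.Agent.S0066

open Crest.CombinatoricsR.OrderedMatrix

variable {K n : ℕ}

theorem far (hn : Fintype.card (Row K) ≤ n) (hK : 0 < K) (B : Fin n → Fin n → Bool)
    (hB : orderedCopyCount H B = 0) :
    (2 ^ K) ^ 2 ≤ 3 * (Finset.univ.filter (fun rc : Fin n × Fin n =>
      A hn rc.1 rc.2 ≠ B rc.1 rc.2)).card := by
  classical
  set M := Finset.univ.filter (fun rc : Fin n × Fin n => A hn rc.1 rc.2 ≠ B rc.1 rc.2) with hM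
  set U := Finset.univ.filter (fun PQ : Fin (2 ^ K) × Fin (2 ^ K) =>
    ∃ τ τ' : Ty K, A hn (emb hn ⟨τ, PQ.1⟩) (emb hn ⟨τ', PQ.2⟩) ≠
      B (emb hn ⟨τ, PQ.1⟩) (emb hn ⟨τ', PQ.2⟩)) with hU
  have hUM : U.card ≤ M.card := by
    have hex : ∀ PQ : Fin (2 ^ K) × Fin (2 ^ K), ∃ τ τ' : Ty K, PQ ∈ U →
      (emb hn ⟨τ, PQ.1⟩, emb hn ⟨τ', PQ.2⟩) ∈ M := by
      intro PQ
      by_cases h : PQ ∈ U
      · have h2 := h
        rw [hU, Finset.mem_filter] at h2
        obtain ⟨_, τ, τ', h3⟩ := h2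
        refine ⟨τ, τ', fun _ => ?_⟩
        rw [hM, Finset.mem_filter]
        exact ⟨Finset.mem_univ _, h3⟩
      · exact ⟨.S, .S, fun hh => absurd hh h⟩
    choose f f' hf using hex
    refine Finset.card_le_card_of_injOn
      (fun PQ => (emb hn ⟨f PQ, PQ.1⟩, emb hn ⟨f' PQ, PQ.2⟩)) (fun PQ h => hf PQ h) ?_
    intro PQ _ PQ' _ he
    simp only [Prod.mk.injEq, (emb hn).injective.eq_iff, Row.mk.injEq] at he
    exact Prod.ext he.1.2 he.2.2
  have hclean : ∀ P Q : Fin (2 ^ K), (P, Q) ∉ U → ∀ τ τ' : Ty K,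
      B (emb hn ⟨τ, P⟩) (emb hn ⟨τ', Q⟩) = cell τ P τ' Q := by
    intro P Q h τ τ'
    rw [hU, Finset.mem_filter] at h
    push Not at h
    have := h (Finset.mem_univ _) τ τ'
    rw [← this, A_emb]
  by_contra hcon
  push Not at hcon
  have hbad : ∀ X Y Y' : Fin (2 ^ K), (X, Y') ∈ U ∨ (Y, X) ∈ U ∨ (Y, Y') ∈ U := by
    intro X Y Y'
    by_contra hc
    push Not at hc
    obtain ⟨h1, h2, h3⟩ := hc
    exact contra (emb hn) B hB X Y Y' hK (hclean _ _ h3) (hclean _ _ h2) (hclean _ _ h1)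
  have hcov : (Finset.univ : Finset (Fin (2 ^ K) × Fin (2 ^ K) × Fin (2 ^ K))) ⊆
      ((U ×ˢ (Finset.univ : Finset (Fin (2 ^ K)))).image (fun x => (x.1.1, x.2, x.1.2))) ∪
      (((U ×ˢ (Finset.univ : Finset (Fin (2 ^ K)))).image (fun x => (x.1.2, x.1.1, x.2))) ∪
      ((U ×ˢ (Finset.univ : Finset (Fin (2 ^ K)))).image (fun x => (x.2, x.1.1, x.1.2)))) := by
    rintro ⟨X, Y, Y'⟩ _
    simp only [Finset.mem_union, Finset.mem_image, Finset.mem_product, Finset.mem_univ, and_true]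
    rcases hbad X Y Y' with h | h | h
    · left
      exact ⟨((X, Y'), Y), h, rfl⟩
    · right; left
      exact ⟨((Y, X), Y'), h, rfl⟩
    · right; right
      exact ⟨((Y, Y'), X), h, rfl⟩
  have hcard := Finset.card_le_card hcov
  have d1 := Finset.card_union_le
    ((U ×ˢ (Finset.univ : Finset (Fin (2 ^ K)))).image (fun x => (x.1.1, x.2, x.1.2)))
      (((U ×ˢ (Finset.univ : Finset (Fin (2 ^ K)))).image (fun x => (x.1.2, x.1.1, x.2))) ∪
      ((U ×ˢ (Finset.univ : Finset (Fin (2 ^ K)))).image (fun x => (x.2, x.1.1, x.1.2))))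
  have d2 := Finset.card_union_le
    ((U ×ˢ (Finset.univ : Finset (Fin (2 ^ K)))).image (fun x => (x.1.2, x.1.1, x.2)))
    ((U ×ˢ (Finset.univ : Finset (Fin (2 ^ K)))).image (fun x => (x.2, x.1.1, x.1.2)))
  have i1 : ((U ×ˢ (Finset.univ : Finset (Fin (2 ^ K)))).image
      (fun x => (x.1.1, x.2, x.1.2))).card ≤ U.card * 2 ^ K := by
    refine Finset.card_image_le.trans ?_
    rw [Finset.card_product, Finset.card_univ, Fintype.card_fin]
  have i2 : ((U ×ˢ (Finset.univ : Finset (Fin (2 ^ K)))).image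
      (fun x => (x.1.2, x.1.1, x.2))).card ≤ U.card * 2 ^ K := by
    refine Finset.card_image_le.trans ?_
    rw [Finset.card_product, Finset.card_univ, Fintype.card_fin]
  have i3 : ((U ×ˢ (Finset.univ : Finset (Fin (2 ^ K)))).image
      (fun x => (x.2, x.1.1, x.1.2))).card ≤ U.card * 2 ^ K := by
    refine Finset.card_image_le.trans ?_
    rw [Finset.card_product, Finset.card_univ, Fintype.card_fin]
  rw [Finset.card_univ, Fintype.card_prod, Fintype.card_prod, Fintype.card_fin] at hcard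
  have hfin : 2 ^ K * (2 ^ K * 2 ^ K) ≤ 3 * (M.card * 2 ^ K) := by
    have : U.card * 2 ^ K ≤ M.card * 2 ^ K := Nat.mul_le_mul_right _ hUM
    omega
  have hp : 0 < 2 ^ K := by positivity
  have h2 : 2 ^ K * 2 ^ K ≤ 3 * M.card := by
    apply Nat.le_of_mul_le_mul_left _ hp
    calc 2 ^ K * (2 ^ K * 2 ^ K) ≤ 3 * (M.card * 2 ^ K) := hfin
      _ = _ := by ring
  rw [sq] at hcon
  omega

theorem card_le_n (h : ℕ) (hh : 1 ≤ h) : Fintype.card (Row (h + 1)) ≤ (386 * h + 2) * 2 ^ h := by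
  rw [card_row]
  calc (56 * (h + 1) + 66) * 2 ^ (h + 1) = (112 * h + 244) * 2 ^ h := by rw [pow_succ]; ring
    _ ≤ _ := Nat.mul_le_mul_right _ (by omega)

end Crest.Agent.S0066
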