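import Crest.Agent.S0066_Aux

set_option autoImplicit false

namespace Crest.Agent.S0066

variable {h : ℕ}

def color (l : Line h) : Fin 5 :=
  match l.b with
  | .gen _ _ => 0
  | .tree i t => if (i:ℕ) % 2 = 0 then (if t then 1 else 2) else (if t then 3 else 4)

theorem color_tree {i : Fin (h+1)} {t : Bool} {x : Fin (2^h)} {l : Line h}
    (hc : color ⟨.tree i t, x⟩ = color l) :
    ∃ (j : Fin (h+1)) (y : Fin (2^h)), l = ⟨.tree j t, y⟩ ∧ (i:ℕ) % 2 = (j:ℕ) % 2 := by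
  obtain ⟨b, y⟩ := l
  cases b with
  | gen f k =>
    exfalso
    simp only [color] at hc
    split_ifs at hc <;> revert hc <;> decide
  | tree j t' =>
    have key : t = t' ∧ (i:ℕ) % 2 = (j:ℕ) % 2 := by
      simp only [color] at hc
      cases t <;> cases t' <;> simp only [Bool.false_eq_true, if_true, if_false] at hc <;>
        split_ifs at hc <;> first | (exfalso; revert hc; decide) | (refine ⟨rfl, ?_⟩; omega)
    obtain ⟨rfl, hp⟩ := key
    exact ⟨j, y, rfl, hp⟩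

theorem color_gen {f : Fam h} {k : Fin 66} {z : Fin (2^h)} {l : Line h}
    (hc : color ⟨.gen f k, z⟩ = color l) :
    ∃ (f' : Fam h) (k' : Fin 66) (z' : Fin (2^h)), l = ⟨.gen f' k', z'⟩ := by
  obtain ⟨b, y⟩ := l
  cases b with
  | gen f k => exact ⟨_, _, _, rfl⟩
  | tree j t' =>
    exfalso
    simp only [color] at hc
    split_ifs at hc <;> revert hc <;> decide

theorem rowTree_level {i j : ℕ} {t t' : Bool} {x y : ℕ} {f : Fam h} {m n : Fin 66}
    (h1 : rowTree h i t x f = some m) (h2 : rowTree h j t' y f = some n) :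
    i ≤ j + 1 ∧ j ≤ i + 1 := by
  cases f <;> simp only [rowTree] at h1 h2 <;> split_ifs at h1 h2 <;> omega

theorem colTree_level {i j : ℕ} {t t' : Bool} {x y : ℕ} {f : Fam h} {m n : Fin 66}
    (h1 : colTree h i t x f = some m) (h2 : colTree h j t' y f = some n) :
    i ≤ j + 1 ∧ j ≤ i + 1 := by
  cases f <;> simp only [colTree] at h1 h2 <;> split_ifs at h1 h2 <;> omega

theorem rowRole_tree {i : Fin (h+1)} {t : Bool} {x : Fin (2^h)} {f : Fam h} {m : Fin 66} :
    rowRole ⟨.tree i t, x⟩ f = some m ↔ ok h i t ∧ rowTree h i t x f = some m := by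
  unfold rowRole
  simp only
  split_ifs with hc <;> simp [hc]

theorem colRole_tree {i : Fin (h+1)} {t : Bool} {x : Fin (2^h)} {f : Fam h} {m : Fin 66} :
    colRole ⟨.tree i t, x⟩ f = some m ↔ ok h i t ∧ colTree h i t x f = some m := by
  unfold colRole
  simp only
  split_ifs with hc <;> simp [hc]

theorem rowTree_congr {i : ℕ} {t : Bool} {x y : ℕ} {f : Fam h}
    (hb : bitv h i x = bitv h i y) : rowTree h i t x f = rowTree h i t y f := by
  cases f <;> simp only [rowTree, hb]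

theorem colTree_congr {i : ℕ} {t : Bool} {x y : ℕ} {f : Fam h}
    (hb : bitv h i x = bitv h i y) : colTree h i t x f = colTree h i t y f := by
  cases f <;> simp only [colTree, hb]

/-- three tree/tree indices of the same colour are impossible -/
theorem no_TT {u v : Fin 66 → Line h} (hA : ∀ k k', Adj (u k) (v k') ↔ k ≠ k')
    {a b c : Fin 66} (hab : a ≠ b) (hac : a ≠ c) (hbc : b ≠ c)
    {i : Fin (h+1)} {t : Bool} {x : Fin (2^h)} (hua : u a = ⟨.tree i t, x⟩)
    {j : Fin (h+1)} {t' : Bool} {y : Fin (2^h)} (hva : v a = ⟨.tree j t', y⟩)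
    (hub : color (u a) = color (u b)) (hvc : color (v a) = color (v c)) : False := by
  rw [hua] at hub
  rw [hva] at hvc
  obtain ⟨ib, xb, hub', pb⟩ := color_tree hub
  obtain ⟨jc, yc, hvc', pc⟩ := color_tree hvc
  have e1 := (hA a c).2 hac
  have e2 := (hA b c).2 hbc
  have e3 := (hA b a).2 (Ne.symm hab)
  have e4 : ¬ Adj (u a) (v a) := fun hh => ((hA a a).1 hh) rfl
  rw [hua, hvc', adj_tree] at e1
  rw [hub', hvc', adj_tree] at e2
  rw [hub', hva, adj_tree] at e3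
  rw [hua, hva, adj_tree] at e4
  obtain ⟨o1, o2, l1, n1, d1⟩ := e1
  obtain ⟨o3, o4, l2, n2, d2⟩ := e2
  obtain ⟨o5, o6, l3, n3, d3⟩ := e3
  have hi : (i : ℕ) = ib := by omega
  have hj : (j : ℕ) = jc := by omega
  apply e4
  refine ⟨o1, o6, by omega, by omega, ?_⟩
  rw [d1, hi, ← d2, d3]

theorem GT_pair {u v : Fin 66 → Line h} (hA : ∀ k k', Adj (u k) (v k') ↔ k ≠ k')
    {p r : Fin 66} (hpr : p ≠ r)
    {f : Fam h} {k : Fin 66} {z : Fin (2^h)} (hup : u p = ⟨.gen f k, z⟩)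
    {j : Fin (h+1)} {t : Bool} {y : Fin (2^h)} (hvp : v p = ⟨.tree j t, y⟩)
    {j' : Fin (h+1)} {y' : Fin (2^h)} (hvr : v r = ⟨.tree j' t, y'⟩)
    (hj : (j:ℕ) = j') : bitv h j y ≠ bitv h j y' := by
  intro hb
  have e1 := (hA p r).2 hpr
  have e2 : ¬ Adj (u p) (v p) := fun hh => ((hA p p).1 hh) rfl
  rw [hup, adj_genl] at e1 e2
  obtain ⟨m, n, h1, h2, h3⟩ := e1
  apply e2
  refine ⟨m, n, h1, ?_, h3⟩
  rw [hvr, colRole_tree] at h2
  rw [hvp, colRole_tree]
  rw [← hj, ← colTree_congr hb] at h2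
  exact h2

theorem TG_pair {u v : Fin 66 → Line h} (hA : ∀ k k', Adj (u k) (v k') ↔ k ≠ k')
    {p r : Fin 66} (hpr : p ≠ r)
    {f : Fam h} {k : Fin 66} {z : Fin (2^h)} (hvp : v p = ⟨.gen f k, z⟩)
    {j : Fin (h+1)} {t : Bool} {y : Fin (2^h)} (hup : u p = ⟨.tree j t, y⟩)
    {j' : Fin (h+1)} {y' : Fin (2^h)} (hur : u r = ⟨.tree j' t, y'⟩)
    (hj : (j:ℕ) = j') : bitv h j y ≠ bitv h j y' := by
  intro hb
  have e1 := (hA r p).2 hpr.symm
  have e2 : ¬ Adj (u p) (v p) := fun hh => ((hA p p).1 hh) rfl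
  rw [hvp, adj_genr] at e1 e2
  obtain ⟨m, n, h1, h2, h3⟩ := e1
  apply e2
  refine ⟨m, n, ?_, h2, h3⟩
  rw [hur, rowRole_tree] at h1
  rw [hup, rowRole_tree]
  rw [← hj, ← rowTree_congr hb] at h1
  exact h1

theorem GT_level {u v : Fin 66 → Line h} (hA : ∀ k k', Adj (u k) (v k') ↔ k ≠ k')
    {p r s : Fin 66} (hpr : s ≠ p) (hrs : s ≠ r)
    {f : Fam h} {k : Fin 66} {z : Fin (2^h)} (hus : u s = ⟨.gen f k, z⟩)
    {j : Fin (h+1)} {t : Bool} {y : Fin (2^h)} (hvp : v p = ⟨.tree j t, y⟩)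
    {j' : Fin (h+1)} {y' : Fin (2^h)} (hvr : v r = ⟨.tree j' t, y'⟩)
    (hpar : (j:ℕ) % 2 = (j':ℕ) % 2) : (j:ℕ) = j' := by
  have e1 := (hA s p).2 hpr
  have e2 := (hA s r).2 hrs
  rw [hus, adj_genl, hvp] at e1
  rw [hus, adj_genl, hvr] at e2
  obtain ⟨m, n, h1, h2, h3⟩ := e1
  obtain ⟨m', n', h1', h2', h3'⟩ := e2
  have := colTree_level (colRole_tree.1 h2).2 (colRole_tree.1 h2').2
  omega

theorem TG_level {u v : Fin 66 → Line h} (hA : ∀ k k', Adj (u k) (v k') ↔ k ≠ k')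
    {p r s : Fin 66} (hpr : s ≠ p) (hrs : s ≠ r)
    {f : Fam h} {k : Fin 66} {z : Fin (2^h)} (hvs : v s = ⟨.gen f k, z⟩)
    {j : Fin (h+1)} {t : Bool} {y : Fin (2^h)} (hup : u p = ⟨.tree j t, y⟩)
    {j' : Fin (h+1)} {y' : Fin (2^h)} (hur : u r = ⟨.tree j' t, y'⟩)
    (hpar : (j:ℕ) % 2 = (j':ℕ) % 2) : (j:ℕ) = j' := by
  have e1 := (hA p s).2 hpr.symm
  have e2 := (hA r s).2 hrs.symm
  rw [hvs, adj_genr, hup] at e1
  rw [hvs, adj_genr, hur] at e2
  obtain ⟨m, n, h1, h2, h3⟩ := e1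
  obtain ⟨m', n', h1', h2', h3'⟩ := e2
  have := rowTree_level (rowRole_tree.1 h1).2 (rowRole_tree.1 h1').2
  omega

theorem tree_or_gen (l : Line h) : (∃ i t x, l = ⟨.tree i t, x⟩) ∨
    (∃ f k z, l = ⟨.gen f k, z⟩) := by
  obtain ⟨b, x⟩ := l
  cases b with
  | tree i t => exact Or.inl ⟨_, _, _, rfl⟩
  | gen f k => exact Or.inr ⟨_, _, _, rfl⟩

/-- there are three indices at which both the row and the column are generic -/
theorem exists_GG {u v : Fin 66 → Line h} (hA : ∀ k k', Adj (u k) (v k') ↔ k ≠ k') :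
    ∃ a b c : Fin 66, a ≠ b ∧ a ≠ c ∧ b ≠ c ∧
      (∃ f k z, u a = ⟨.gen f k, z⟩) ∧ (∃ f k z, u b = ⟨.gen f k, z⟩) ∧
      (∃ f k z, u c = ⟨.gen f k, z⟩) ∧ (∃ f k z, v a = ⟨.gen f k, z⟩) ∧
      (∃ f k z, v b = ⟨.gen f k, z⟩) ∧ (∃ f k z, v c = ⟨.gen f k, z⟩) := by
  obtain ⟨y, hy⟩ := Fintype.exists_lt_card_fiber_of_mul_lt_card
    (fun k : Fin 66 => (color (u k), color (v k))) (n := 2) (by simp)
  obtain ⟨a, ha, b, hb, c, hc, hab, hac, hbc⟩ := Finset.two_lt_card.1 hy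
  simp only [Finset.mem_filter, Finset.mem_univ, true_and] at ha hb hc
  have cu1 : color (u a) = color (u b) := by rw [← hb] at ha; exact congrArg Prod.fst ha
  have cu2 : color (u a) = color (u c) := by rw [← hc] at ha; exact congrArg Prod.fst ha
  have cv1 : color (v a) = color (v b) := by rw [← hb] at ha; exact congrArg Prod.snd ha
  have cv2 : color (v a) = color (v c) := by rw [← hc] at ha; exact congrArg Prod.snd ha
  refine ⟨a, b, c, hab, hac, hbc, ?_⟩
  rcases tree_or_gen (u a) with ⟨i, t, x, hua⟩ | ⟨f, k, z, hua⟩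
  · exfalso
    rcases tree_or_gen (v a) with ⟨j, t', y, hva⟩ | ⟨f', k', z', hva⟩
    · exact no_TT hA hab hac hbc hua hva cu1 cv2
    · have cu1' := cu1
      have cu2' := cu2
      rw [hua] at cu1' cu2'
      obtain ⟨ib, xb, hub, pb⟩ := color_tree cu1'
      obtain ⟨ic, xc, huc, pc⟩ := color_tree cu2'
      rw [hva] at cv1 cv2
      obtain ⟨fb, kb, zb, hvb⟩ := color_gen cv1
      obtain ⟨fc, kc, zc, hvc⟩ := color_gen cv2
      have l1 := TG_level hA (Ne.symm hac) (Ne.symm hbc) hvc hua hub pb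
      have l2 := TG_level hA (Ne.symm hab) hbc hvb hua huc pc
      have b1 := TG_pair hA hab hva hua hub l1
      have b2 := TG_pair hA hac hva hua huc l2
      have b3 := TG_pair hA hbc hvb hub huc (by omega)
      rw [← l1] at b3
      revert b1 b2 b3
      cases bitv h i x <;> cases bitv h i xb <;> cases bitv h i xc <;> simp
  · rcases tree_or_gen (v a) with ⟨j, t', y, hva⟩ | ⟨f', k', z', hva⟩
    · exfalso
      have cv1' := cv1
      have cv2' := cv2
      rw [hva] at cv1' cv2'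
      obtain ⟨ib, xb, hvb, pb⟩ := color_tree cv1'
      obtain ⟨ic, xc, hvc, pc⟩ := color_tree cv2'
      rw [hua] at cu1 cu2
      obtain ⟨fb, kb, zb, hub⟩ := color_gen cu1
      obtain ⟨fc, kc, zc, huc⟩ := color_gen cu2
      have l1 := GT_level hA (Ne.symm hac) (Ne.symm hbc) huc hva hvb pb
      have l2 := GT_level hA (Ne.symm hab) hbc hub hva hvc pc
      have b1 := GT_pair hA hab hua hva hvb l1
      have b2 := GT_pair hA hac hua hva hvc l2
      have b3 := GT_pair hA hbc hub hvb hvc (by omega)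
      rw [← l1] at b3
      revert b1 b2 b3
      cases bitv h j y <;> cases bitv h j xb <;> cases bitv h j xc <;> simp
    · rw [hua] at cu1 cu2
      rw [hva] at cv1 cv2
      exact ⟨⟨_, _, _, hua⟩, color_gen cu1, color_gen cu2, ⟨_, _, _, hva⟩, color_gen cv1,
        color_gen cv2⟩

theorem same_fam {u v : Fin 66 → Line h} (hA : ∀ k k', Adj (u k) (v k') ↔ k ≠ k')
    {a b : Fin 66} (hab : a ≠ b) {f g : Fam h} {k k' : Fin 66} {z z' : Fin (2^h)}
    (hu : u a = ⟨.gen f k, z⟩) (hv : v b = ⟨.gen g k', z'⟩) : f = g := by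
  have e1 := (hA a b).2 hab
  rw [hu, adj_genl] at e1
  obtain ⟨m, n, h1, h2, h3⟩ := e1
  rw [hv] at h2
  exact (colRole_gen.1 h2).1.symm

/-- There is one family in which all lines of the copy have a role. -/
theorem exists_fam {u v : Fin 66 → Line h} (hA : ∀ k k', Adj (u k) (v k') ↔ k ≠ k') :
    ∃ f : Fam h, ∃ m n : Fin 66 → Fin 66, (∀ k, rowRole (u k) f = some (m k)) ∧
      (∀ k, colRole (v k) f = some (n k)) := by
  obtain ⟨a, b, c, hab, hac, hbc, ⟨fa, ka, za, hua⟩, ⟨fb, kb, zb, hub⟩, ⟨fc, kc, zc, huc⟩,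
    ⟨ga, la, wa, hva⟩, ⟨gb, lb, wb, hvb⟩, ⟨gc, lc, wc, hvc⟩⟩ := exists_GG hA
  have e1 := same_fam hA hab hua hvb
  have e2 := same_fam hA hac hua hvc
  have e3 := same_fam hA hbc hub hvc
  have e4 := same_fam hA (Ne.symm hab) hub hva
  have e5 := same_fam hA (Ne.symm hac) huc hva
  have e6 := same_fam hA (Ne.symm hbc) huc hvb
  subst e1
  subst e2
  subst e3
  subst e4
  have e5' := e5.symm
  subst e5'
  have hr : ∀ k, ∃ m, rowRole (u k) fb = some m := by
    intro k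
    by_cases hk : k = a
    · subst hk
      have := (hA k b).2 hab
      rw [hvb, adj_genr] at this
      obtain ⟨m, n, h1, -⟩ := this
      exact ⟨m, h1⟩
    · have := (hA k a).2 hk
      rw [hva, adj_genr] at this
      obtain ⟨m, n, h1, -⟩ := this
      exact ⟨m, h1⟩
  have hc : ∀ k, ∃ m, colRole (v k) fb = some m := by
    intro k
    by_cases hk : k = a
    · subst hk
      have := (hA b k).2 (Ne.symm hab)
      rw [hub, adj_genl] at this
      obtain ⟨m, n, -, h1, -⟩ := this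
      exact ⟨n, h1⟩
    · have := (hA a k).2 (Ne.symm hk)
      rw [hua, adj_genl] at this
      obtain ⟨m, n, -, h1, -⟩ := this
      exact ⟨n, h1⟩
  choose m hm using hr
  choose n hn using hc
  exact ⟨fb, m, n, hm, hn⟩

end Crest.Agent.S0066
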