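import Crest.Agent.S0066_Rigid

set_option autoImplicit false

namespace Crest.Agent.S0066

variable {h : ℕ}

theorem nd_step {i : ℕ} (hi : i < h) (x : ℕ) : nd h i x = nd h (i+1) x / 2 := by
  unfold nd
  rw [Nat.div_div_eq_div_mul, ← pow_succ]
  congr 2
  omega

theorem nd_zero (x : Fin (2^h)) : nd h 0 x = 0 := by
  unfold nd
  simp

theorem nd_full {x y : Fin (2^h)} (hxy : nd h h x = nd h h y) : x = y := by
  unfold nd at hxy
  simp at hxy
  exact Fin.ext hxy

theorem nd_succ_eq {i : ℕ} (hi : i < h) {x y : ℕ} (h1 : nd h i x = nd h i y)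
    (h2 : bitv h (i+1) x = bitv h (i+1) y) : nd h (i+1) x = nd h (i+1) y := by
  rw [nd_step hi, nd_step hi] at h1
  simp only [bitv, decide_eq_decide] at h2
  omega

theorem nested {i : ℕ} (hi : i < h) {i0 i1 i2 : Fin (h+1)} {x0 x1 x2 : Fin (2^h)} {t : Bool}
    (h0 : (i0:ℕ) = i+1) (h1 : (i1:ℕ) = i) (h2 : (i2:ℕ) = i)
    (hn : nd h i x1 = nd h i x2)
    (lt1 : (⟨.tree i1 false, x1⟩ : Line h) < ⟨.tree i0 t, x0⟩)
    (lt2 : (⟨.tree i0 t, x0⟩ : Line h) < ⟨.tree i2 true, x2⟩) :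
    nd h i x0 = nd h i x1 := by
  rw [line_lt] at lt1 lt2
  simp only [key, mk5_lt, h0, h1, h2] at lt1 lt2
  have hP : 2^(h-i) = 2 * 2^(h-(i+1)) := by
    rw [← pow_succ']
    congr 1; omega
  have hP0 : 0 < 2^(h-(i+1)) := by positivity
  rw [nd_step hi x0]
  rw [← hn] at lt2
  rw [hP] at lt1 lt2
  generalize 2^(h-(i+1)) = P at *
  generalize nd h (i+1) x0 = N at *
  generalize nd h i x1 = M at *
  have e1 : M * (2 * P) = (2 * M) * P := by ring
  have e2 : (M + 1) * (2 * P) = (2 * M + 2) * P := by ring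
  rw [e1] at lt1
  rw [e2] at lt2
  cases t with
  | false =>
    simp only [Bool.false_eq_true, if_false, if_true, lt_self_iff_false, false_or, true_and] at lt1 lt2
    have a1 : (2 * M) * P ≤ N * P := by
      rcases lt1 with h | ⟨h, -⟩
      · exact h.le
      · exact h.le
    have a2 : N * P < (2 * M + 2) * P := by
      rcases lt2 with h | ⟨h, h'⟩
      · exact h
      · exfalso; omega
    have b1 := Nat.le_of_mul_le_mul_right a1 hP0
    have b2 := Nat.lt_of_mul_lt_mul_right a2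
    omega
  | true =>
    simp only [Bool.false_eq_true, if_false, if_true, lt_self_iff_false, false_or, true_and] at lt1 lt2
    have a1 : (2 * M) * P < (N + 1) * P := by
      rcases lt1 with h | ⟨h, h'⟩
      · exact h
      · exfalso; omega
    have a2 : (N + 1) * P ≤ (2 * M + 2) * P := by
      rcases lt2 with h | ⟨h, -⟩
      · exact h.le
      · exact h.le
    have b1 := Nat.lt_of_mul_lt_mul_right a1
    have b2 := Nat.le_of_mul_le_mul_right a2 hP0
    omega

theorem rowTree_RT {i : ℕ} {t : Bool} {x : ℕ} {f : Fam h} {m : Fin 66}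
    (h1 : rowTree h i t x f = some m) : RT f m := by
  cases f <;> simp only [rowTree] at h1 <;> split_ifs at h1 <;> cases t <;> simp_all [RT]

theorem colTree_CT {i : ℕ} {t : Bool} {x : ℕ} {f : Fam h} {m : Fin 66}
    (h1 : colTree h i t x f = some m) : CT f m := by
  cases f <;> simp only [colTree] at h1 <;> split_ifs at h1 <;> cases t <;> simp_all [CT]

structure Data (h : ℕ) (f : Fam h) (u v : Fin 66 → Line h) (m n : Fin 66 → Fin 66) : Prop where
  hu : StrictMono u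
  hv : StrictMono v
  hA : ∀ k k', Adj (u k) (v k') ↔ k ≠ k'
  hm : ∀ k, rowRole (u k) f = some (m k)
  hn : ∀ k, colRole (v k) f = some (n k)

namespace Data

variable {f : Fam h} {u v : Fin 66 → Line h} {m n : Fin 66 → Fin 66}

theorem row_tree (D : Data h f u v m n) {k : Fin 66} (hk : RT f (m k)) :
    ∃ i t x, u k = ⟨.tree i t, x⟩ ∧ ok h i t ∧ rowTree h i t x f = some (m k) := by
  have := D.hm k
  rcases tree_or_gen (u k) with ⟨i, t, x, e⟩ | ⟨g, l, z, e⟩
  · rw [e, rowRole_tree] at this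
    exact ⟨i, t, x, e, this⟩
  · rw [e, rowRole_gen] at this
    exact absurd (this.2.2 ▸ hk) this.2.1

theorem row_gen (D : Data h f u v m n) {k : Fin 66} (hk : ¬ RT f (m k)) :
    ∃ z, u k = ⟨.gen f (m k), z⟩ := by
  have := D.hm k
  rcases tree_or_gen (u k) with ⟨i, t, x, e⟩ | ⟨g, l, z, e⟩
  · rw [e, rowRole_tree] at this
    exact absurd (rowTree_RT this.2) hk
  · rw [e, rowRole_gen] at this
    refine ⟨z, ?_⟩
    rw [e, this.1, this.2.2]

theorem col_tree (D : Data h f u v m n) {k : Fin 66} (hk : CT f (n k)) :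
    ∃ i t x, v k = ⟨.tree i t, x⟩ ∧ ok h i t ∧ colTree h i t x f = some (n k) := by
  have := D.hn k
  rcases tree_or_gen (v k) with ⟨i, t, x, e⟩ | ⟨g, l, z, e⟩
  · rw [e, colRole_tree] at this
    exact ⟨i, t, x, e, this⟩
  · rw [e, colRole_gen] at this
    exact absurd (this.2.2 ▸ hk) this.2.1

theorem col_gen (D : Data h f u v m n) {k : Fin 66} (hk : ¬ CT f (n k)) :
    ∃ z, v k = ⟨.gen f (n k), z⟩ := by
  have := D.hn k
  rcases tree_or_gen (v k) with ⟨i, t, x, e⟩ | ⟨g, l, z, e⟩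
  · rw [e, colRole_tree] at this
    exact absurd (colTree_CT this.2) hk
  · rw [e, colRole_gen] at this
    refine ⟨z, ?_⟩
    rw [e, this.1, this.2.2]

theorem cmp (D : Data h f u v m n) (k k' : Fin 66) :
    Cmp (u k) (v k') f ↔ m k ≠ n k' := by
  unfold Cmp
  rw [D.hm, D.hn]
  constructor
  · rintro ⟨a, b, ha, hb, hab⟩
    rw [Option.some_inj] at ha hb
    rw [ha, hb]; exact hab
  · intro hab
    exact ⟨_, _, rfl, rfl, hab⟩

theorem F1 (D : Data h f u v m n) {k k' : Fin 66} (hk : ¬ RT f (m k) ∨ ¬ CT f (n k')) :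
    m k ≠ n k' ↔ k ≠ k' := by
  rw [← D.hA k k', ← D.cmp]
  rcases hk with hk | hk
  · obtain ⟨z, hz⟩ := D.row_gen hk
    rw [hz, adj_genl]
  · obtain ⟨z, hz⟩ := D.col_gen hk
    rw [hz, adj_genr]

theorem F1' (D : Data h f u v m n) {k : Fin 66} (hk : ¬ RT f (m k) ∨ ¬ CT f (n k)) :
    m k = n k := by
  by_contra hne
  exact ((D.F1 hk).1 hne) rfl

theorem m_ne (D : Data h f u v m n) {k k' : Fin 66} (hk : ¬ RT f (m k)) (hne : k' ≠ k) :
    m k' ≠ m k := by
  by_cases hk' : RT f (m k')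
  · intro he; rw [he] at hk'; exact hk hk'
  · rw [D.F1' (Or.inl hk)]
    exact (D.F1 (Or.inl hk')).2 hne

theorem n_ne (D : Data h f u v m n) {k k' : Fin 66} (hk : ¬ CT f (n k)) (hne : k' ≠ k) :
    n k' ≠ n k := by
  by_cases hk' : CT f (n k')
  · intro he; rw [he] at hk'; exact hk hk'
  · rw [← D.F1' (Or.inr hk)]
    exact ((D.F1 (Or.inr hk')).2 (Ne.symm hne)).symm

theorem m_surj (D : Data h f u v m n) (hP : ∀ k k', RT f (m k) → RT f (m k') → k = k') :
    Function.Surjective m := by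
  apply Finite.injective_iff_surjective.1
  intro k k' he
  by_contra hne
  by_cases hk : RT f (m k)
  · exact hne (hP k k' hk (he ▸ hk))
  · exact D.m_ne hk (Ne.symm hne) he.symm

theorem n_surj (D : Data h f u v m n) (hP : ∀ k k', CT f (n k) → CT f (n k') → k = k') :
    Function.Surjective n := by
  apply Finite.injective_iff_surjective.1
  intro k k' he
  by_contra hne
  by_cases hk : CT f (n k)
  · exact hne (hP k k' hk (he ▸ hk))
  · exact D.n_ne hk (Ne.symm hne) he.symm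

theorem exists_RT (D : Data h f u v m n) (hf : ∃ r, RT f r) : ∃ k, RT f (m k) := by
  by_contra hno
  push Not at hno
  obtain ⟨r, hr⟩ := hf
  obtain ⟨k, hk⟩ := D.m_surj (fun k k' hk => absurd hk (hno k)) r
  exact hno k (hk ▸ hr)

theorem exists_CT (D : Data h f u v m n) (hf : ∃ r, CT f r) : ∃ k, CT f (n k) := by
  by_contra hno
  push Not at hno
  obtain ⟨r, hr⟩ := hf
  obtain ⟨k, hk⟩ := D.n_surj (fun k k' hk => absurd hk (hno k)) r
  exact hno k (hk ▸ hr)

/-- if at least three values are tree roles of columns then a third tree column exists -/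
theorem third_CT (D : Data h f u v m n) (h32 : CT f 32) (h33 : CT f 33) (h34 : CT f 34)
    (a b : Fin 66) : ∃ k, CT f (n k) ∧ k ≠ a ∧ k ≠ b := by
  by_contra hno
  push Not at hno
  have hno' : ∀ k, k ≠ a → k ≠ b → ¬ CT f (n k) := fun k h1 h2 h3 => h2 (hno k h3 h1)
  have hinj : Function.Injective (fun k : Fin 66 => if k = a then (32 : Fin 66) else
      if k = b then 33 else n k) := by
    intro k k' he
    simp only at he
    by_contra hne
    split_ifs at he with c1 c2 c3 c4 c5 c6 c7 c8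
    · exact hne (c1.trans c2.symm)
    · revert he; decide
    · exact hno' k' c2 c3 (he ▸ h32)
    · revert he; decide
    · exact hne (c4.trans c6.symm)
    · exact hno' k' c5 c6 (he ▸ h33)
    · exact hno' k c1 c4 (he ▸ h32)
    · exact hno' k c1 c4 (he ▸ h33)
    · exact D.n_ne (hno' k c1 c4) (Ne.symm hne) he.symm
  obtain ⟨k, hk⟩ := (Finite.injective_iff_surjective.1 hinj) 34
  simp only at hk
  split_ifs at hk with c1 c2
  · revert hk; decide
  · revert hk; decide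
  · exact hno' k c1 c2 (hk ▸ h34)

theorem third_RT (D : Data h f u v m n) (h32 : RT f 32) (h33 : RT f 33) (h34 : RT f 34)
    (a b : Fin 66) : ∃ k, RT f (m k) ∧ k ≠ a ∧ k ≠ b := by
  by_contra hno
  push Not at hno
  have hno' : ∀ k, k ≠ a → k ≠ b → ¬ RT f (m k) := fun k h1 h2 h3 => h2 (hno k h3 h1)
  have hinj : Function.Injective (fun k : Fin 66 => if k = a then (32 : Fin 66) else
      if k = b then 33 else m k) := by
    intro k k' he
    simp only at he
    by_contra hne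
    split_ifs at he with c1 c2 c3 c4 c5 c6 c7 c8
    · exact hne (c1.trans c2.symm)
    · revert he; decide
    · exact hno' k' c2 c3 (he ▸ h32)
    · revert he; decide
    · exact hne (c4.trans c6.symm)
    · exact hno' k' c5 c6 (he ▸ h33)
    · exact hno' k c1 c4 (he ▸ h32)
    · exact hno' k c1 c4 (he ▸ h33)
    · exact D.m_ne (hno' k c1 c4) (Ne.symm hne) he.symm
  obtain ⟨k, hk⟩ := (Finite.injective_iff_surjective.1 hinj) 34
  simp only at hk
  split_ifs at hk with c1 c2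
  · revert hk; decide
  · revert hk; decide
  · exact hno' k c1 c2 (hk ▸ h34)

end Data

theorem case_S (hh : 1 ≤ h) {u v : Fin 66 → Line h} {m n : Fin 66 → Fin 66}
    (D : Data h .S u v m n) : False := by
  obtain ⟨k0, hk0⟩ := D.exists_RT ⟨33, rfl⟩
  have hC : CT (h := h) .S (n k0) := by
    by_contra hc
    have := D.F1' (k := k0) (Or.inr hc)
    apply hc
    rw [← this]; exact hk0
  obtain ⟨i, t, x, e, o, hr⟩ := D.row_tree hk0
  obtain ⟨j, t', y, e', o', hc⟩ := D.col_tree hC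
  have hi : (i:ℕ) = 0 := by
    simp only [rowTree] at hr; split_ifs at hr with h1; exact h1
  have hj : (j:ℕ) = 0 := by
    simp only [colTree] at hc; split_ifs at hc with h1; exact h1
  have : ¬ Adj (u k0) (v k0) := fun hh => ((D.hA k0 k0).1 hh) rfl
  apply this
  rw [e, e', adj_tree]
  refine ⟨o, o', by omega, by omega, ?_⟩
  rw [hi, nd_zero, nd_zero]

theorem case_T {u v : Fin 66 → Line h} {m n : Fin 66 → Fin 66}
    (D : Data h .T u v m n) : False := by
  obtain ⟨k0, hk0⟩ := D.exists_RT ⟨32, rfl⟩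
  obtain ⟨k1, hk1⟩ := D.exists_CT ⟨33, rfl⟩
  have key : ∀ k k', RT (h := h) .T (m k) → CT (h := h) .T (n k') → k = k' := by
    intro k k' hk hk'
    obtain ⟨i, t, x, e, o, hr⟩ := D.row_tree hk
    obtain ⟨j, t', y, e', o', hc⟩ := D.col_tree hk'
    have hi : (i:ℕ) = h := by
      simp only [rowTree] at hr; split_ifs at hr with h1; exact h1
    have hj : (j:ℕ) = h := by
      simp only [colTree] at hc; split_ifs at hc with h1; exact h1
    by_contra hne
    have := (D.hA k k').2 hne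
    rw [e, e', adj_tree] at this
    exact this.2.2.2.1 ⟨hi, hj⟩
  obtain ⟨k, hk⟩ := D.m_surj (fun k k' h1 h2 => (key k k1 h1 hk1).trans (key k' k1 h2 hk1).symm) 33
  have hk' : ¬ RT (h := h) .T (m k) := by rw [hk]; simp only [RT]; decide
  have h2 := D.F1' (Or.inl hk')
  have h3 : CT (h := h) .T (n k) := by rw [← h2, hk]; rfl
  have h4 := key k0 k hk0 h3
  subst h4
  exact hk' hk0

theorem case_I {i : Fin h} {u v : Fin 66 → Line h} {m n : Fin 66 → Fin 66}
    (D : Data h (.I i) u v m n) : False := by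
  have hi := i.2
  -- rows with a tree role
  have PQ : ∀ k, RT (.I i) (m k) → CT (.I i) (n k) := by
    intro k hk
    by_contra hc
    have := D.F1' (k := k) (Or.inr hc)
    apply hc
    rw [← this]; exact Or.inr (Or.inl hk)
  have rowf : ∀ k, RT (.I i) (m k) → ∃ (a : Fin (h+1)) (t : Bool) (x : Fin (2^h)),
      u k = ⟨.tree a t, x⟩ ∧ ok h a t ∧ (a:ℕ) = i := by
    intro k hk
    obtain ⟨a, t, x, e, o, hr⟩ := D.row_tree hk
    refine ⟨a, t, x, e, o, ?_⟩
    simp only [rowTree] at hr; split_ifs at hr with h1; exact h1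
  have colf : ∀ k, CT (.I i) (n k) → ∃ (a : Fin (h+1)) (t : Bool) (x : Fin (2^h)),
      v k = ⟨.tree a t, x⟩ ∧ ok h a t ∧ (((a:ℕ) = i ∧ n k = if t then 34 else 32) ∨
        ((a:ℕ) = i + 1 ∧ n k = 33)) := by
    intro k hk
    obtain ⟨a, t, x, e, o, hr⟩ := D.col_tree hk
    refine ⟨a, t, x, e, o, ?_⟩
    simp only [colTree] at hr; split_ifs at hr with h1 h2 h3
    · left; refine ⟨h1, ?_⟩; rw [Option.some_inj] at hr; rw [← hr, if_pos h2]
    · left; refine ⟨h1, ?_⟩; rw [Option.some_inj] at hr; rw [← hr, if_neg h2]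
    · right; rw [Option.some_inj] at hr; exact ⟨h3, hr.symm⟩
  obtain ⟨k0, hk0⟩ := D.exists_RT ⟨33, rfl⟩
  -- at most one tree row
  have Puniq : ∀ k, RT (.I i) (m k) → k = k0 := by
    intro k hk
    by_contra hne
    obtain ⟨k', hk', hk'1, hk'2⟩ := D.third_CT (Or.inl rfl) (Or.inr (Or.inl rfl))
      (Or.inr (Or.inr rfl)) k k0
    obtain ⟨a, t, x, e, o, ha⟩ := rowf k hk
    obtain ⟨a0, t0, x0, e0, o0, ha0⟩ := rowf k0 hk0
    obtain ⟨b, s, y, g, q, hb⟩ := colf k' hk'
    obtain ⟨b0, s0, y0, g0, q0, hb0⟩ := colf k0 (PQ k0 hk0)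
    have e1 := (D.hA k k').2 (Ne.symm hk'1)
    have e2 := (D.hA k0 k').2 (Ne.symm hk'2)
    have e3 := (D.hA k k0).2 hne
    rw [e, g, adj_tree] at e1
    rw [e0, g, adj_tree] at e2
    rw [e, g0, adj_tree] at e3
    have : ¬ Adj (u k0) (v k0) := fun hh => ((D.hA k0 k0).1 hh) rfl
    apply this
    rw [e0, g0, adj_tree]
    refine ⟨o0, q0, by omega, by omega, ?_⟩
    have d1 := e1.2.2.2.2
    have d2 := e2.2.2.2.2
    have d3 := e3.2.2.2.2
    rw [ha] at d1 d3
    rw [ha0] at d2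
    rw [ha0, d2, ← d1, d3]
  have msurj := D.m_surj (fun k k' h1 h2 => (Puniq k h1).trans (Puniq k' h2).symm)
  obtain ⟨k1, hk1⟩ := msurj 32
  obtain ⟨k2, hk2⟩ := msurj 34
  have nr1 : ¬ RT (.I i) (m k1) := by rw [hk1]; simp only [RT]; decide
  have nr2 : ¬ RT (.I i) (m k2) := by rw [hk2]; simp only [RT]; decide
  have n1 : n k1 = 32 := by rw [← D.F1' (Or.inl nr1)]; exact hk1
  have n2 : n k2 = 34 := by rw [← D.F1' (Or.inl nr2)]; exact hk2
  have k10 : k1 ≠ k0 := by rintro rfl; exact nr1 hk0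
  have k20 : k2 ≠ k0 := by rintro rfl; exact nr2 hk0
  have n01 : n k0 ≠ 32 := by rw [← hk1]; exact ((D.F1 (Or.inl nr1)).2 k10).symm
  have n02 : n k0 ≠ 34 := by rw [← hk2]; exact ((D.F1 (Or.inl nr2)).2 k20).symm
  obtain ⟨a0, t0, x0, e0, o0, ha0⟩ := rowf k0 hk0
  obtain ⟨b0, s0, y0, g0, q0, hb0⟩ := colf k0 (PQ k0 hk0)
  obtain ⟨b1, s1, y1, g1, q1, hb1⟩ := colf k1 (by rw [n1]; exact Or.inl rfl)
  obtain ⟨b2, s2, y2, g2, q2, hb2⟩ := colf k2 (by rw [n2]; exact Or.inr (Or.inr rfl))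
  have hb0' : (b0:ℕ) = i + 1 := by
    rcases hb0 with ⟨-, hb⟩ | ⟨hb, -⟩
    · exfalso; cases s0 <;> simp at hb <;> first | exact n01 hb | exact n02 hb
    · exact hb
  have hb1' : (b1:ℕ) = i ∧ s1 = false := by
    rw [n1] at hb1
    rcases hb1 with ⟨hb, hs⟩ | ⟨-, hb⟩
    · refine ⟨hb, ?_⟩
      cases s1
      · rfl
      · exfalso; revert hs; decide
    · exfalso; revert hb; decide
  have hb2' : (b2:ℕ) = i ∧ s2 = true := by
    rw [n2] at hb2
    rcases hb2 with ⟨hb, hs⟩ | ⟨-, hb⟩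
    · refine ⟨hb, ?_⟩
      cases s2
      · exfalso; revert hs; decide
      · rfl
    · exfalso; revert hb; decide
  obtain ⟨hb1', rfl⟩ := hb1'
  obtain ⟨hb2', rfl⟩ := hb2'
  -- order
  obtain ⟨z1, hz1⟩ := D.row_gen nr1
  obtain ⟨z2, hz2⟩ := D.row_gen nr2
  have l1 : k1 < k0 := by
    rw [← D.hu.lt_iff_lt, hz1, e0, line_lt]
    simp only [key, mk5_lt]
    left; rw [pos_lt33, hk1]; decide
  have l2 : k0 < k2 := by
    rw [← D.hu.lt_iff_lt, hz2, e0, line_lt]
    simp only [key, mk5_lt]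
    left; rw [lt_pos33, hk2]; decide
  have L1 := D.hv l1
  have L2 := D.hv l2
  rw [g1, g0] at L1
  rw [g0, g2] at L2
  have e1 := (D.hA k0 k1).2 (Ne.symm k10)
  have e2 := (D.hA k0 k2).2 (Ne.symm k20)
  rw [e0, g1, adj_tree] at e1
  rw [e0, g2, adj_tree] at e2
  have d1 := e1.2.2.2.2
  have d2 := e2.2.2.2.2
  rw [ha0] at d1 d2
  have hnest := nested hi hb0' hb1' hb2' (d1.symm.trans d2) L1 L2
  have : ¬ Adj (u k0) (v k0) := fun hh => ((D.hA k0 k0).1 hh) rfl
  apply this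
  rw [e0, g0, adj_tree]
  refine ⟨o0, q0, by omega, by omega, ?_⟩
  rw [ha0, d1, hnest]


theorem case_II {i : Fin h} {b : Bool} {u v : Fin 66 → Line h} {m n : Fin 66 → Fin 66}
    (D : Data h (.II i b) u v m n) :
    ∃ x, u 33 = ⟨.tree (Fin.last h) false, x⟩ ∧ v 33 = ⟨.tree (Fin.last h) false, x⟩ := by
  have hi := i.2
  have QP : ∀ k, CT (.II i b) (n k) → RT (.II i b) (m k) := by
    intro k hk
    by_contra hc
    have := D.F1' (k := k) (Or.inl hc)
    apply hc
    rw [this]; exact Or.inr (Or.inl hk)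
  have colf : ∀ k, CT (.II i b) (n k) → ∃ (a : Fin (h+1)) (t : Bool) (x : Fin (2^h)),
      v k = ⟨.tree a t, x⟩ ∧ ok h a t ∧ (a:ℕ) = i + 1 ∧ bitv h (i+1) x = b := by
    intro k hk
    obtain ⟨a, t, x, e, o, hr⟩ := D.col_tree hk
    refine ⟨a, t, x, e, o, ?_⟩
    simp only [colTree] at hr; split_ifs at hr with h1; exact ⟨h1.1, by rw [← h1.1]; exact h1.2⟩
  have rowf : ∀ k, RT (.II i b) (m k) → ∃ (a : Fin (h+1)) (t : Bool) (x : Fin (2^h)),
      u k = ⟨.tree a t, x⟩ ∧ ok h a t ∧ (((a:ℕ) = i ∧ m k = if t then 34 else 32) ∨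
        ((a:ℕ) = i + 1 ∧ bitv h (i+1) x = b ∧ m k = 33)) := by
    intro k hk
    obtain ⟨a, t, x, e, o, hr⟩ := D.row_tree hk
    refine ⟨a, t, x, e, o, ?_⟩
    simp only [rowTree] at hr; split_ifs at hr with h1 h2 h3
    · left; refine ⟨h1, ?_⟩; rw [Option.some_inj] at hr; rw [← hr, if_pos h2]
    · left; refine ⟨h1, ?_⟩; rw [Option.some_inj] at hr; rw [← hr, if_neg h2]
    · right; rw [Option.some_inj] at hr; exact ⟨h3.1, by rw [← h3.1]; exact h3.2, hr.symm⟩
  obtain ⟨k0, hk0⟩ := D.exists_CT ⟨33, rfl⟩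
  -- at most one tree column
  have Quniq : ∀ k, CT (.II i b) (n k) → k = k0 := by
    intro k hk
    by_contra hne
    obtain ⟨k', hk', hk'1, hk'2⟩ := D.third_RT (Or.inl rfl) (Or.inr (Or.inl rfl))
      (Or.inr (Or.inr rfl)) k k0
    obtain ⟨a, t, x, e, o, ha, hbx⟩ := colf k hk
    obtain ⟨a0, t0, x0, e0, o0, ha0, hbx0⟩ := colf k0 hk0
    obtain ⟨c, s, y, g, q, hc⟩ := rowf k' hk'
    obtain ⟨c0, s0, y0, g0, q0, hc0⟩ := rowf k0 (QP k0 hk0)
    have e1 := (D.hA k' k).2 hk'1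
    have e2 := (D.hA k' k0).2 hk'2
    have e3 := (D.hA k0 k).2 (Ne.symm hne)
    rw [g, e, adj_tree] at e1
    rw [g, e0, adj_tree] at e2
    rw [g0, e, adj_tree] at e3
    have hcc : (c:ℕ) = i ∨ (c:ℕ) = i + 1 := by
      rcases hc with ⟨h1, -⟩ | ⟨h1, -⟩
      · exact Or.inl h1
      · exact Or.inr h1
    have hcc0 : (c0:ℕ) = i ∨ (c0:ℕ) = i + 1 := by
      rcases hc0 with ⟨h1, -⟩ | ⟨h1, -⟩
      · exact Or.inl h1
      · exact Or.inr h1
    have d1 := e1.2.2.2.2
    have d2 := e2.2.2.2.2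
    have d3 := e3.2.2.2.2
    -- x and x0 have the same node at level i
    have hxi : nd h i x = nd h i x0 := by
      rcases hcc with hc1 | hc1
      · rw [hc1] at d1 d2; rw [← d1, d2]
      · rw [hc1] at d1 d2
        rw [nd_step hi, nd_step hi, ← d1, d2]
    have hxi1 : nd h (i+1) x = nd h (i+1) x0 := nd_succ_eq hi hxi (hbx.trans hbx0.symm)
    have : ¬ Adj (u k0) (v k0) := fun hh => ((D.hA k0 k0).1 hh) rfl
    apply this
    rw [g0, e0, adj_tree]
    refine ⟨q0, o0, by omega, by omega, ?_⟩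
    rw [d3]
    rcases hcc0 with hc1 | hc1
    · rw [hc1, hxi]
    · rw [hc1, hxi1]
  have nsurj := D.n_surj (fun k k' h1 h2 => (Quniq k h1).trans (Quniq k' h2).symm)
  obtain ⟨k1, hk1⟩ := nsurj 32
  obtain ⟨k2, hk2⟩ := nsurj 34
  have nr1 : ¬ CT (.II i b) (n k1) := by rw [hk1]; simp only [CT]; decide
  have nr2 : ¬ CT (.II i b) (n k2) := by rw [hk2]; simp only [CT]; decide
  have m1 : m k1 = 32 := by rw [D.F1' (Or.inr nr1)]; exact hk1
  have m2 : m k2 = 34 := by rw [D.F1' (Or.inr nr2)]; exact hk2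
  have k10 : k1 ≠ k0 := by rintro rfl; exact nr1 hk0
  have k20 : k2 ≠ k0 := by rintro rfl; exact nr2 hk0
  have m01 : m k0 ≠ 32 := by rw [← hk1]; exact (D.F1 (Or.inr nr1)).2 (Ne.symm k10)
  have m02 : m k0 ≠ 34 := by rw [← hk2]; exact (D.F1 (Or.inr nr2)).2 (Ne.symm k20)
  obtain ⟨a0, t0, x0, e0, o0, ha0, hbx0⟩ := colf k0 hk0
  obtain ⟨b0, s0, y0, g0, q0, hb0⟩ := rowf k0 (QP k0 hk0)
  obtain ⟨b1, s1, y1, g1, q1, hb1⟩ := rowf k1 (by rw [m1]; exact Or.inl rfl)
  obtain ⟨b2, s2, y2, g2, q2, hb2⟩ := rowf k2 (by rw [m2]; exact Or.inr (Or.inr rfl))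
  have hb0' : (b0:ℕ) = i + 1 ∧ bitv h (i+1) y0 = b := by
    rcases hb0 with ⟨-, hb⟩ | ⟨hb, hb', -⟩
    · exfalso; cases s0 <;> simp at hb <;> first | exact m01 hb | exact m02 hb
    · exact ⟨hb, hb'⟩
  have hb1' : (b1:ℕ) = i ∧ s1 = false := by
    rw [m1] at hb1
    rcases hb1 with ⟨hb, hs⟩ | ⟨-, -, hb⟩
    · refine ⟨hb, ?_⟩
      cases s1
      · rfl
      · exfalso; revert hs; decide
    · exfalso; revert hb; decide
  have hb2' : (b2:ℕ) = i ∧ s2 = true := by
    rw [m2] at hb2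
    rcases hb2 with ⟨hb, hs⟩ | ⟨-, -, hb⟩
    · refine ⟨hb, ?_⟩
      cases s2
      · exfalso; revert hs; decide
      · rfl
    · exfalso; revert hb; decide
  obtain ⟨hb1', rfl⟩ := hb1'
  obtain ⟨hb2', rfl⟩ := hb2'
  obtain ⟨hb0', hby0⟩ := hb0'
  -- order of columns determines the order of indices
  have before : ∀ k, k ≠ k0 → (k < k0 ↔ (n k : ℕ) < 33) := by
    intro k hk
    have hnr : ¬ CT (.II i b) (n k) := fun hc => hk (Quniq k hc)
    obtain ⟨z, hz⟩ := D.col_gen hnr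
    rw [← D.hv.lt_iff_lt, hz, e0, line_lt]
    simp only [key, mk5_lt]
    rw [pos_lt33]
    constructor
    · rintro (h1 | ⟨h1, -⟩)
      · exact h1
      · exact absurd h1 (pos_ne _)
    · intro h1; exact Or.inl h1
  have l1 : k1 < k0 := (before k1 k10).2 (by rw [hk1]; decide)
  have l2 : k0 < k2 := by
    have : ¬ k2 < k0 := by
      rw [before k2 k20, hk2]; decide
    exact lt_of_le_of_ne (not_lt.1 this) (Ne.symm k20)
  have L1 := D.hu l1
  have L2 := D.hu l2
  rw [g1, g0] at L1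
  rw [g0, g2] at L2
  have e1 := (D.hA k1 k0).2 k10
  have e2 := (D.hA k2 k0).2 k20
  rw [g1, e0, adj_tree] at e1
  rw [g2, e0, adj_tree] at e2
  have d1 := e1.2.2.2.2
  have d2 := e2.2.2.2.2
  rw [hb1'] at d1
  rw [hb2'] at d2
  have hnest := nested hi hb0' hb1' hb2' (d1.trans d2.symm) L1 L2
  have hn1 : nd h (i+1) y0 = nd h (i+1) x0 := nd_succ_eq hi (hnest.trans d1) (hby0.trans hbx0.symm)
  have hi1 : (i:ℕ) + 1 = h := by
    by_contra hne
    have : ¬ Adj (u k0) (v k0) := fun hh => ((D.hA k0 k0).1 hh) rfl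
    apply this
    rw [g0, e0, adj_tree]
    refine ⟨q0, o0, by omega, by omega, ?_⟩
    rw [hb0', hn1]
  have hk33 : k0 = 33 := by
    -- n restricted to {k < k0} injects into {r < 33}
    have ninj : Function.Injective n := Finite.injective_iff_surjective.2 nsurj
    have nk0 : n k0 = 33 := hk0
    have c1 : (Finset.Iio k0).card ≤ (Finset.Iio (33 : Fin 66)).card := by
      apply Finset.card_le_card_of_injOn n
      · intro k hk
        have hk' : k < k0 := by simpa using hk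
        have := (before k hk'.ne).1 hk'
        simp only [Finset.coe_Iio, Set.mem_Iio]
        exact this
      · exact ninj.injOn
    have c2 : (Finset.Ioi k0).card ≤ (Finset.Ioi (33 : Fin 66)).card := by
      apply Finset.card_le_card_of_injOn n
      · intro k hk
        have hk' : k0 < k := by simpa using hk
        have h1 : ¬ ((n k : ℕ) < 33) := by
          rw [← before k hk'.ne']; exact not_lt.2 hk'.le
        have h2 : n k ≠ 33 := by
          rw [← nk0]; exact fun hh => hk'.ne' (ninj hh)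
        simp only [Finset.coe_Ioi, Set.mem_Ioi]
        apply lt_of_le_of_ne
        · rw [Fin.le_def]; simpa using h1
        · exact h2.symm
      · exact ninj.injOn
    rw [Fin.card_Iio, Fin.card_Iio] at c1
    rw [Fin.card_Ioi, Fin.card_Ioi] at c2
    ext
    have e33 : ((33 : Fin 66) : ℕ) = 33 := rfl
    rw [e33] at c1 c2 ⊢
    have := k0.2
    omega
  subst hk33
  have hb0l : b0 = Fin.last h := by ext; simp; omega
  have ha0l : a0 = Fin.last h := by ext; simp; omega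
  subst hb0l
  subst ha0l
  have hs0 : s0 = false := q0 (by simp)
  have ht0 : t0 = false := o0 (by simp)
  subst hs0
  subst ht0
  rw [hi1] at hn1
  have hxy := nd_full hn1
  subst hxy
  exact ⟨y0, g0, e0⟩

theorem rigid (hh : 1 ≤ h) {u v : Fin 66 → Line h} (hu : StrictMono u) (hv : StrictMono v)
    (hA : ∀ k k', Adj (u k) (v k') ↔ k ≠ k') :
    ∃ x, u 33 = ⟨.tree (Fin.last h) false, x⟩ ∧ v 33 = ⟨.tree (Fin.last h) false, x⟩ := by
  obtain ⟨f, m, n, hm, hn⟩ := exists_fam hA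
  cases f with
  | S => exact (case_S hh ⟨hu, hv, hA, hm, hn⟩).elim
  | T => exact (case_T ⟨hu, hv, hA, hm, hn⟩).elim
  | I i => exact (case_I ⟨hu, hv, hA, hm, hn⟩).elim
  | II i b => exact case_II ⟨hu, hv, hA, hm, hn⟩

end Crest.Agent.S0066
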