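import Crest.Agent.S0066_Def

set_option autoImplicit false

namespace Crest.Agent.S0066

variable {K : ℕ}

/-- essential pattern -/
def H0 (i j : Fin 16) : Bool :=
  if i.val < 13 ∧ j.val < 13 then decide (i ≠ j)
  else if i.val < 13 then (if j.val = 14 then decide (i.val = 1) else decide (i.val = 0))
  else if j.val < 13 then (if i.val = 14 then decide (j.val = 1) else decide (j.val = 0))
  else !(decide (i.val = 14) && decide (j.val = 14))

theorem H0_symm (i j : Fin 16) : H0 i j = H0 j i := by
  revert i j; decide

def Good (R C : Fin 16 → Row K) : Prop :=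
  ∀ i j, cell (R i).ty (R i).lab (C j).ty (C j).lab = H0 i j

theorem Good.symm {R C : Fin 16 → Row K} (h : Good R C) : Good C R := by
  intro i j
  rw [cell_symm, h j i, H0_symm]

abbrev up (i : Fin 13) : Fin 16 := Fin.castLE (by norm_num) i

theorem H0_up (i j : Fin 13) : H0 (up i) (up j) = decide (i ≠ j) := by
  revert i j; decide

theorem partner_inj : Function.Injective (partner : Grp K → Grp K) := by
  intro a b h
  cases a with
  | none => cases b with
    | none => rfl
    | some y => obtain ⟨k, κ, β⟩ := y; simp [partner] at h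
  | some x =>
    obtain ⟨k, κ, β⟩ := x
    cases b with
    | none => simp [partner] at h
    | some y => obtain ⟨k', κ', β'⟩ := y; simpa [partner] using h

theorem isM_isR (g q : Grp K) (h1 : isM g q = true) (h2 : isR g q = true) : False := by
  cases g with
  | none => simp [isR] at h2
  | some x =>
    obtain ⟨k, κ, β⟩ := x
    cases q with
    | none => simp [isM] at h1
    | some y =>
      obtain ⟨k', β', s⟩ := y
      simp [isM] at h1
      obtain ⟨rfl, rfl⟩ := h1
      cases κ <;> simp [isR, lev] at h2

/-- if `q`, `q'` both play the `m` role for the same group, they look the same for all groups -/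
theorem isM_same (g q q' : Grp K) (h1 : isM g q = true) (h2 : isM g q' = true) (g' : Grp K)
    (e : Fin 13) : codeP g' q e = codeP g' q' e := by
  cases g with
  | none =>
    cases q with
    | none => cases q' with
      | none => rfl
      | some y => simp [isM] at h2
    | some y => simp [isM] at h1
  | some x =>
    obtain ⟨k, κ, β⟩ := x
    cases q with
    | none => simp [isM] at h1
    | some y =>
      cases q' with
      | none => simp [isM] at h2
      | some z =>
        obtain ⟨k1, β1, s1⟩ := y
        obtain ⟨k2, β2, s2⟩ := z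
        simp [isM] at h1 h2
        obtain ⟨rfl, rfl⟩ := h1
        obtain ⟨rfl, rfl⟩ := h2
        cases g' with
        | none => simp [codeP, isM, isR]
        | some w =>
          obtain ⟨k', κ', β'⟩ := w
          rfl

theorem noPP (u v : Fin 3 → Grp K) (X Y : Fin 3 → ℕ)
    (h : ∀ i j, cell (.p (u i)) (X i) (.p (v j)) (Y j) = decide (i ≠ j)) : False := by
  have key : ∀ i j k : Fin 3, i ≠ j → j ≠ k → i ≠ k →
      max (lev (u i)) (lev (v i)) < max (lev (u j)) (lev (v k)) := by
    intro i j k hij hjk hik
    by_contra hcon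
    push Not at hcon
    have h1 := h i k
    have h2 := h j k
    have h3 := h j i
    have h4 := h i i
    simp only [cell, ne_eq, hik, hjk, hij.symm, not_false_eq_true, decide_true,
      decide_eq_true_eq, not_true_eq_false, decide_false, decide_eq_false_iff_not] at h1 h2 h3 h4
    have lift : ∀ a b M N : ℕ, M ≤ N → a / 2 ^ M = b / 2 ^ M → a / 2 ^ N = b / 2 ^ N := by
      intro a b M N hMN hab
      obtain ⟨d, rfl⟩ := Nat.exists_eq_add_of_le hMN
      rw [pow_add, ← Nat.div_div_eq_div_mul, ← Nat.div_div_eq_div_mul, hab]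
    apply h4
    have e1 := lift _ _ _ (max (lev (u i)) (lev (v i))) (by omega) h1
    have e2 := lift _ _ _ (max (lev (u i)) (lev (v i))) (by omega) h2
    have e3 := lift _ _ _ (max (lev (u i)) (lev (v i))) (by omega) h3
    rw [e1, ← e2, e3]
  have a1 := key 0 1 2 (by decide) (by decide) (by decide)
  have a2 := key 1 2 0 (by decide) (by decide) (by decide)
  have a3 := key 2 0 1 (by decide) (by decide) (by decide)
  omega

theorem noBP (g : Fin 3 → Grp K) (e : Fin 3 → Fin 13) (v : Fin 3 → Grp K)
    (h : ∀ i j, codeP (g i) (v j) (e i) = decide (i ≠ j)) : False := by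
  have he : ∀ i j k : Fin 3, i ≠ j → j ≠ k → i ≠ k → e i ≠ 0 := by
    intro i j k hij hjk hik he0
    have h1 := h i j
    have h2 := h i k
    simp [codeP, he0, hij, hik] at h1 h2
    have h3 := h j j
    have h4 := h j k
    rw [isM_same (g i) (v j) (v k) h1 h2] at h3
    rw [h3] at h4
    simp [hjk] at h4
  have hR : ∀ i j : Fin 3, isR (g i) (v j) = decide (i ≠ j) := by
    have hne : ∀ i : Fin 3, e i ≠ 0 := by
      intro i
      fin_cases i
      · exact he 0 1 2 (by decide) (by decide) (by decide)
      · exact he 1 2 0 (by decide) (by decide) (by decide)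
      · exact he 2 0 1 (by decide) (by decide) (by decide)
    have he1 : ∀ i : Fin 3, e i = 1 := by
      intro i
      have : ∃ j, i ≠ j := by fin_cases i <;> [exact ⟨1, by decide⟩; exact ⟨0, by decide⟩; exact ⟨0, by decide⟩]
      obtain ⟨j, hj⟩ := this
      have h1 := h i j
      simp [codeP, hne i, hj] at h1
      exact h1.2
    intro i j
    have := h i j
    simpa [codeP, he1 i] using this
  have r01 := hR 0 1
  have r02 := hR 0 2
  have r00 := hR 0 0
  have r10 := hR 1 0
  have r12 := hR 1 2
  have r11 := hR 1 1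
  cases hg0 : g 0 with
  | none => rw [hg0] at r01; simp [isR] at r01
  | some x =>
    cases hg1 : g 1 with
    | none => rw [hg1] at r10; simp [isR] at r10
    | some y =>
      obtain ⟨k, κ, β⟩ := x
      obtain ⟨k', κ', β'⟩ := y
      rw [hg0] at r01 r02 r00
      rw [hg1] at r10 r12 r11
      cases κ <;> cases κ' <;> simp [isR] at r01 r02 r00 r10 r12 r11 <;> omega

theorem cell_S_indep (X X' : ℕ) (t : Ty K) (Y : ℕ) : cell .S X t Y = cell .S X' t Y := by
  cases t <;> rfl

theorem cell_U_indep (X X' : ℕ) (t : Ty K) (Y : ℕ) : cell .U X t Y = cell .U X' t Y := by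
  cases t <;> rfl

def isBt : Ty K → Bool
  | .b _ _ => true
  | _ => false

def isPt : Ty K → Bool
  | .p _ => true
  | _ => false

def isSt : Ty K → Bool
  | .S => true
  | _ => false

def isUt : Ty K → Bool
  | .U => true
  | _ => false

def isPadt : Ty K → Bool
  | .pad _ => true
  | _ => false

theorem isBt_iff (t : Ty K) : isBt t = true ↔ ∃ g e, t = .b g e := by
  cases t <;> simp [isBt]

theorem isPt_iff (t : Ty K) : isPt t = true ↔ ∃ q, t = .p q := by
  cases t <;> simp [isPt]

theorem isSt_iff (t : Ty K) : isSt t = true ↔ t = .S := by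
  cases t <;> simp [isSt]

theorem isUt_iff (t : Ty K) : isUt t = true ↔ t = .U := by
  cases t <;> simp [isUt]

theorem card_le_two (s : Finset (Fin 13))
    (hs : ∀ σ : Fin 3 → Fin 13, Function.Injective σ → (∀ i, σ i ∈ s) → False) :
    s.card ≤ 2 := by
  by_contra hcon
  push Not at hcon
  obtain ⟨a, ha, b, hb, c, hc, hab, hac, hbc⟩ := Finset.two_lt_card.mp hcon
  refine hs ![a, b, c] ?_ ?_
  · intro i j hij
    fin_cases i <;> fin_cases j <;> simp_all
  · intro i
    fin_cases i <;> simp_all

theorem card_le_one' (s : Finset (Fin 13))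
    (hs : ∀ i ∈ s, ∀ j ∈ s, i ≠ j → False) : s.card ≤ 1 := by
  rw [Finset.card_le_one]
  intro a ha b hb
  by_contra hab
  exact hs a ha b hb hab

theorem Good.S_one {R C : Fin 16 → Row K} (h : Good R C) (i j : Fin 13) (hij : i ≠ j)
    (hi : (R (up i)).ty = .S) (hj : (R (up j)).ty = .S) : False := by
  have h1 := h (up i) (up j)
  have h2 := h (up j) (up j)
  rw [hi, H0_up] at h1
  rw [hj, H0_up] at h2
  rw [cell_S_indep _ (R (up i)).lab] at h2
  rw [h1] at h2
  simp [hij] at h2

theorem Good.U_one {R C : Fin 16 → Row K} (h : Good R C) (i j : Fin 13) (hij : i ≠ j)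
    (hi : (R (up i)).ty = .U) (hj : (R (up j)).ty = .U) : False := by
  have h1 := h (up i) (up j)
  have h2 := h (up j) (up j)
  rw [hi, H0_up] at h1
  rw [hj, H0_up] at h2
  rw [cell_U_indep _ (R (up i)).lab] at h2
  rw [h1] at h2
  simp [hij] at h2

theorem Good.PP {R C : Fin 16 → Row K} (h : Good R C) (σ : Fin 3 → Fin 13)
    (hσ : Function.Injective σ) (hr : ∀ i, isPt (R (up (σ i))).ty = true)
    (hc : ∀ i, isPt (C (up (σ i))).ty = true) : False := by
  simp only [isPt_iff] at hr hc
  choose u hu using hr
  choose v hv using hc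
  refine noPP u v (fun i => (R (up (σ i))).lab) (fun i => (C (up (σ i))).lab) ?_
  intro i j
  have := h (up (σ i)) (up (σ j))
  rw [hu, hv, H0_up] at this
  rw [this]
  simp [hσ.eq_iff]

theorem Good.BP {R C : Fin 16 → Row K} (h : Good R C) (σ : Fin 3 → Fin 13)
    (hσ : Function.Injective σ) (hr : ∀ i, isBt (R (up (σ i))).ty = true)
    (hc : ∀ i, isPt (C (up (σ i))).ty = true) : False := by
  simp only [isPt_iff, isBt_iff] at hr hc
  choose g e hu using hr
  choose v hv using hc
  refine noBP g e v ?_
  intro i j
  have := h (up (σ i)) (up (σ j))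
  rw [hu, hv, H0_up] at this
  simp only [cell] at this
  rw [this]
  simp [hσ.eq_iff]

theorem Good.threeBB {R C : Fin 16 → Row K} (h : Good R C)
    (hR : ∀ i, isPadt (R i).ty = false) (hC : ∀ i, isPadt (C i).ty = false) :
    ∃ σ : Fin 3 → Fin 13, Function.Injective σ ∧ (∀ i, isBt (R (up (σ i))).ty = true) ∧
      (∀ i, isBt (C (up (σ i))).ty = true) := by
  classical
  set SR := Finset.univ.filter (fun i : Fin 13 => isSt (R (up i)).ty = true) with hSR
  set UR := Finset.univ.filter (fun i : Fin 13 => isUt (R (up i)).ty = true) with hUR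
  set SC := Finset.univ.filter (fun i : Fin 13 => isSt (C (up i)).ty = true) with hSC
  set UC := Finset.univ.filter (fun i : Fin 13 => isUt (C (up i)).ty = true) with hUC
  set PP := Finset.univ.filter (fun i : Fin 13 => isPt (R (up i)).ty = true ∧
    isPt (C (up i)).ty = true) with hPP
  set BP := Finset.univ.filter (fun i : Fin 13 => isBt (R (up i)).ty = true ∧
    isPt (C (up i)).ty = true) with hBP
  set PB := Finset.univ.filter (fun i : Fin 13 => isPt (R (up i)).ty = true ∧
    isBt (C (up i)).ty = true) with hPB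
  set BB := Finset.univ.filter (fun i : Fin 13 => isBt (R (up i)).ty = true ∧
    isBt (C (up i)).ty = true) with hBB
  have c1 : SR.card ≤ 1 := by
    apply card_le_one'
    intro i hi j hj hij
    simp only [hSR, Finset.mem_filter, Finset.mem_univ, true_and, isSt_iff] at hi hj
    exact h.S_one i j hij hi hj
  have c2 : UR.card ≤ 1 := by
    apply card_le_one'
    intro i hi j hj hij
    simp only [hUR, Finset.mem_filter, Finset.mem_univ, true_and, isUt_iff] at hi hj
    exact h.U_one i j hij hi hj
  have c3 : SC.card ≤ 1 := by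
    apply card_le_one'
    intro i hi j hj hij
    simp only [hSC, Finset.mem_filter, Finset.mem_univ, true_and, isSt_iff] at hi hj
    exact h.symm.S_one i j hij hi hj
  have c4 : UC.card ≤ 1 := by
    apply card_le_one'
    intro i hi j hj hij
    simp only [hUC, Finset.mem_filter, Finset.mem_univ, true_and, isUt_iff] at hi hj
    exact h.symm.U_one i j hij hi hj
  have c5 : PP.card ≤ 2 := by
    apply card_le_two
    intro σ hσ hm
    simp only [hPP, Finset.mem_filter, Finset.mem_univ, true_and] at hm
    exact h.PP σ hσ (fun i => (hm i).1) (fun i => (hm i).2)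
  have c6 : BP.card ≤ 2 := by
    apply card_le_two
    intro σ hσ hm
    simp only [hBP, Finset.mem_filter, Finset.mem_univ, true_and] at hm
    exact h.BP σ hσ (fun i => (hm i).1) (fun i => (hm i).2)
  have c7 : PB.card ≤ 2 := by
    apply card_le_two
    intro σ hσ hm
    simp only [hPB, Finset.mem_filter, Finset.mem_univ, true_and] at hm
    exact h.symm.BP σ hσ (fun i => (hm i).2) (fun i => (hm i).1)
  have hcov : (Finset.univ : Finset (Fin 13)) ⊆
      BB ∪ (SR ∪ (UR ∪ (SC ∪ (UC ∪ (PP ∪ (BP ∪ PB)))))) := by
    intro i _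
    simp only [Finset.mem_union, hSR, hUR, hSC, hUC, hPP, hBP, hPB, hBB, Finset.mem_filter,
      Finset.mem_univ, true_and]
    have h1 := hR (up i)
    have h2 := hC (up i)
    cases hr : (R (up i)).ty <;> cases hc : (C (up i)).ty <;> simp [hr, hc, isPadt, isBt, isPt,
      isSt, isUt] at h1 h2 ⊢
  have hcard := Finset.card_le_card hcov
  have d1 := Finset.card_union_le BB (SR ∪ (UR ∪ (SC ∪ (UC ∪ (PP ∪ (BP ∪ PB))))))
  have d2 := Finset.card_union_le SR (UR ∪ (SC ∪ (UC ∪ (PP ∪ (BP ∪ PB)))))
  have d3 := Finset.card_union_le UR (SC ∪ (UC ∪ (PP ∪ (BP ∪ PB))))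
  have d4 := Finset.card_union_le SC (UC ∪ (PP ∪ (BP ∪ PB)))
  have d5 := Finset.card_union_le UC (PP ∪ (BP ∪ PB))
  have d6 := Finset.card_union_le PP (BP ∪ PB)
  have d7 := Finset.card_union_le BP PB
  simp only [Finset.card_univ, Fintype.card_fin] at hcard
  have h3 : 2 < BB.card := by omega
  obtain ⟨a, ha, b, hb, c, hc, hab, hac, hbc⟩ := Finset.two_lt_card.mp h3
  simp only [hBB, Finset.mem_filter, Finset.mem_univ, true_and] at ha hb hc
  refine ⟨![a, b, c], ?_, ?_, ?_⟩
  · intro i j hij
    fin_cases i <;> fin_cases j <;> simp_all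
  · intro i
    fin_cases i
    · exact ha.1
    · exact hb.1
    · exact hc.1
  · intro i
    fin_cases i
    · exact ha.2
    · exact hb.2
    · exact hc.2

end Crest.Agent.S0066
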