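import Crest.Agent.S0066_Sound

set_option autoImplicit false

namespace Crest.Agent.S0066

variable {K : ℕ}

theorem two_ones (a : Ty K) (ha : isPadt a = false) (X : ℕ) (gs : Grp K) (e1 e2 : Fin 13)
    (Y1 Y2 : ℕ) (hne : e1 ≠ e2) (h1 : cell a X (.b gs e1) Y1 = true)
    (h2 : cell a X (.b gs e2) Y2 = true) : ∃ g2 e, a = .b g2 e ∧ gs = partner g2 := by
  cases a with
  | pad i => simp [isPadt] at ha
  | b g2 e =>
    simp [cell] at h1
    exact ⟨g2, e, rfl, h1.1⟩
  | p q =>
    exfalso
    simp [cell, codeP] at h1 h2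
    rcases h1 with ⟨m1, z1⟩ | ⟨m1, z1⟩ <;> rcases h2 with ⟨m2, z2⟩ | ⟨m2, z2⟩
    · exact hne (z1.trans z2.symm)
    · exact isM_isR gs q m1 m2
    · exact isM_isR gs q m2 m1
    · exact hne (z1.trans z2.symm)
  | S =>
    exfalso
    simp [cell] at h1 h2
    exact hne (h1.2.trans h2.2.symm)
  | U =>
    exfalso
    simp [cell] at h1 h2
    exact hne (h1.2.trans h2.2.symm)

theorem fin13_id (f : Fin 13 → Fin 13) (hf : StrictMono f) : ∀ i, f i = i := by
  have h1 : Function.Surjective f := Finite.injective_iff_surjective.mp hf.injective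
  have h2 : StrictMono.orderIsoOfSurjective f hf h1 = OrderIso.refl (Fin 13) :=
    Subsingleton.elim _ _
  intro i
  have h3 := congrArg (fun o : Fin 13 ≃o Fin 13 => o i) h2
  simpa using h3

theorem lt_b {r s : Row K} {g : Grp K} {e e' : Fin 13} (hr : r.ty = .b g e) (hs : s.ty = .b g e')
    (h : r < s) : e ≤ e' := by
  rw [row_lt_iff, Row.key, Row.key, hr, hs] at h
  simp only [key, Prod.Lex.toLex_lt_toLex] at h
  rw [Fin.le_def]
  rcases h with h | ⟨_, h⟩
  · omega
  · rcases h with h | ⟨h, _⟩
    · simp at h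
      omega
    · simp at h
      omega

theorem lt_p {r s : Row K} {q q' : Grp K} (hr : r.ty = .p q) (hs : s.ty = .p q')
    (h : r < s) : pos K q r.lab ≤ pos K q' s.lab := by
  rw [row_lt_iff, Row.key, Row.key, hr, hs] at h
  simp only [key, Prod.Lex.toLex_lt_toLex] at h
  rcases h with h | ⟨_, h⟩
  · omega
  · rcases h with h | ⟨h, _⟩
    · exact le_of_lt h
    · exact le_of_eq h

theorem not_U_lt_S {r s : Row K} (hr : r.ty = .U) (hs : s.ty = .S) (h : r < s) : False := by
  rw [row_lt_iff, Row.key, Row.key, hr, hs] at h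
  simp only [key, Prod.Lex.toLex_lt_toLex] at h
  omega

theorem up_lt {i j : Fin 13} (h : i < j) : up i < up j := h

theorem Good.groups {R C : Fin 16 → Row K} (h : Good R C)
    (hR : ∀ i, isPadt (R i).ty = false) (hC : ∀ i, isPadt (C i).ty = false)
    (hRm : StrictMono R) :
    ∃ g : Grp K, (∀ i : Fin 13, (R (up i)).ty = .b g i) ∧
      (∀ j : Fin 13, (C (up j)).ty = .b (partner g) j) := by
  obtain ⟨σ, hσ, hrB, hcB⟩ := h.threeBB hR hC
  simp only [isBt_iff] at hrB hcB
  choose g0 e0 hr0 using hrB
  choose g1 e1 hc0 using hcB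
  have hcell : ∀ i j : Fin 3, (decide (g1 j = partner (g0 i)) && decide (e0 i ≠ e1 j)) =
      decide (i ≠ j) := by
    intro i j
    have := h (up (σ i)) (up (σ j))
    rw [hr0, hc0, H0_up] at this
    simp only [cell] at this
    rw [this]
    simp [hσ.eq_iff]
  have hne : ∀ i j : Fin 3, i ≠ j → g1 j = partner (g0 i) ∧ e0 i ≠ e1 j := by
    intro i j hij
    have := hcell i j
    simpa [hij] using this
  have a01 := hne 0 1 (by decide)
  have a02 := hne 0 2 (by decide)
  have a10 := hne 1 0 (by decide)
  have a12 := hne 1 2 (by decide)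
  have a20 := hne 2 0 (by decide)
  have a21 := hne 2 1 (by decide)
  have g01 : g0 0 = g0 1 := partner_inj (a02.1.symm.trans a12.1)
  have g02 : g0 0 = g0 2 := partner_inj (a01.1.symm.trans a21.1)
  have hg0 : ∀ i, g0 i = g0 0 := by
    intro i
    fin_cases i
    · rfl
    · exact g01.symm
    · exact g02.symm
  have hg1 : ∀ j, g1 j = partner (g0 0) := by
    intro j
    fin_cases j
    · exact a10.1.trans (by rw [g01])
    · exact a01.1
    · exact a02.1
  have he : ∀ i, e0 i = e1 i := by
    intro i
    have := hcell i i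
    rw [hg1 i, hg0 i] at this
    simpa using this
  have hei : ∀ i j, i ≠ j → e1 i ≠ e1 j := by
    intro i j hij
    rw [← he i]
    exact (hne i j hij).2
  have hpick : ∀ i : Fin 13, ∃ j k : Fin 3, j ≠ k ∧ i ≠ σ j ∧ i ≠ σ k := by
    intro i
    by_cases h0 : i = σ 0
    · refine ⟨1, 2, by decide, ?_, ?_⟩
      · rw [h0]; exact fun hh => absurd (hσ hh) (by decide)
      · rw [h0]; exact fun hh => absurd (hσ hh) (by decide)
    · by_cases h1 : i = σ 1
      · refine ⟨0, 2, by decide, h0, ?_⟩
        rw [h1]; exact fun hh => absurd (hσ hh) (by decide)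
      · exact ⟨0, 1, by decide, h0, h1⟩
  have hRall : ∀ i : Fin 13, ∃ e, (R (up i)).ty = .b (g0 0) e := by
    intro i
    obtain ⟨j, k, hjk, hj, hk⟩ := hpick i
    have t1 := h (up i) (up (σ j))
    have t2 := h (up i) (up (σ k))
    rw [hc0, H0_up, hg1] at t1 t2
    obtain ⟨g2, e, hty, hg⟩ := two_ones _ (hR _) _ _ _ _ _ _ (hei j k hjk)
      (t1.trans (by simp [hj])) (t2.trans (by simp [hk]))
    exact ⟨e, by rw [hty, partner_inj hg]⟩
  have hCall : ∀ i : Fin 13, ∃ e, (C (up i)).ty = .b (partner (g0 0)) e := by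
    intro i
    obtain ⟨j, k, hjk, hj, hk⟩ := hpick i
    have t1 := h.symm (up i) (up (σ j))
    have t2 := h.symm (up i) (up (σ k))
    rw [hr0, H0_up, hg0] at t1 t2
    have hpp : ∀ g : Grp K, partner (partner g) = g := by
      intro g
      cases g with
      | none => rfl
      | some x => obtain ⟨k, κ, β⟩ := x; simp [partner]
    obtain ⟨g2, e, hty, hg⟩ := two_ones _ (hC _) _ _ _ _ _ _
      (show e0 j ≠ e0 k by rw [he, he]; exact hei j k hjk)
      (t1.trans (by simp [hj])) (t2.trans (by simp [hk]))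
    exact ⟨e, by rw [hty, hg, hpp]⟩
  choose e hre using hRall
  choose e' hce using hCall
  have hee : ∀ i j : Fin 13, decide (e i ≠ e' j) = decide (i ≠ j) := by
    intro i j
    have := h (up i) (up j)
    rw [hre, hce, H0_up] at this
    simpa [cell] using this
  have heq : ∀ i, e i = e' i := by
    intro i
    simpa using hee i i
  have hinj : ∀ i j, i ≠ j → e i ≠ e j := by
    intro i j hij
    have := hee i j
    simp [hij] at this
    rw [← heq j] at this
    exact this
  have hmono : StrictMono e := by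
    intro i j hij
    exact lt_of_le_of_ne (lt_b (hre i) (hre j) (hRm (up_lt hij))) (hinj i j hij.ne)
  have hid := fin13_id e hmono
  exact ⟨g0 0, fun i => by rw [hre, hid], fun j => by rw [hce, ← heq, hid]⟩

theorem row_m (a : Ty K) (ha : isPadt a = false) (X : ℕ) (gs : Grp K) (Y : Fin 13 → ℕ)
    (h : ∀ j : Fin 13, cell a X (.b gs j) (Y j) = decide (j = 0)) :
    (∃ q, a = .p q ∧ isM gs q = true) ∨ (a = .U ∧ gs = none) := by
  cases a with
  | pad i => simp [isPadt] at ha
  | b g2 e =>
    exfalso
    have h0 := h 0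
    have h1 := h 1
    have h2 := h 2
    simp [cell] at h0 h1 h2
    have e1 := h1 h0.1
    have e2 := h2 h0.1
    rw [e1] at e2
    exact absurd e2 (by decide)
  | p q =>
    left
    refine ⟨q, rfl, ?_⟩
    have h0 := h 0
    simpa [cell, codeP] using h0
  | S =>
    exfalso
    have h0 := h 0
    simp [cell] at h0
  | U =>
    right
    have h0 := h 0
    simpa [cell] using h0

theorem row_r (a : Ty K) (ha : isPadt a = false) (X : ℕ) (gs : Grp K) (Y : Fin 13 → ℕ)
    (h : ∀ j : Fin 13, cell a X (.b gs j) (Y j) = decide (j = 1)) :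
    (∃ q, a = .p q ∧ isR gs q = true) ∨ (a = .S ∧ gs = none) := by
  cases a with
  | pad i => simp [isPadt] at ha
  | b g2 e =>
    exfalso
    have h0 := h 1
    have h1 := h 0
    have h2 := h 2
    simp [cell] at h0 h1 h2
    have e1 := h1 h0.1
    have e2 := h2 h0.1
    rw [e1] at e2
    exact absurd e2 (by decide)
  | p q =>
    left
    refine ⟨q, rfl, ?_⟩
    have h0 := h 1
    simpa [cell, codeP] using h0
  | S =>
    right
    have h0 := h 1
    simpa [cell] using h0
  | U =>
    exfalso
    have h0 := h 1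
    simp [cell] at h0

theorem H0_13 (j : Fin 13) : H0 13 (up j) = decide (j = 0) := by revert j; decide
theorem H0_14 (j : Fin 13) : H0 14 (up j) = decide (j = 1) := by revert j; decide
theorem H0_15 (j : Fin 13) : H0 15 (up j) = decide (j = 0) := by revert j; decide

theorem partner_partner (g : Grp K) : partner (partner g) = g := by
  cases g with
  | none => rfl
  | some x => obtain ⟨k, κ, β⟩ := x; simp [partner]

/-- the bracket argument: the middle row is in child `β` -/
theorem bracket {k : Fin K} {β : Bool} {q : Grp K} {s1 s2 : Bool} {r1 r2 r3 : Row K}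
    (h1 : r1.ty = .p (some (k, β, s1))) (h3 : r3.ty = .p (some (k, β, s2)))
    (h2 : r2.ty = .p q) (hq : lev q ≤ k.val) (h12 : r1 < r2) (h23 : r2 < r3)
    (n1 : (r2.lab : ℕ) / 2 ^ (k.val + 1) = r1.lab / 2 ^ (k.val + 1))
    (n3 : (r2.lab : ℕ) / 2 ^ (k.val + 1) = r3.lab / 2 ^ (k.val + 1)) :
    (r2.lab : ℕ) / 2 ^ k.val % 2 = β.toNat := by
  have hlt1 := lt_p h1 h2 h12
  have hlt3 := lt_p h2 h3 h23
  rcases Nat.mod_two_eq_zero_or_one ((r2.lab : ℕ) / 2 ^ k.val) with hb | hb
  · rw [hb]
    cases β with
    | false => rfl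
    | true =>
      exfalso
      have hp := (pos_even k q hq _ _ n1 hb).2
      have hlt := lt_of_le_of_lt hlt1 hp
      cases s1
      · exact absurd hlt (lt_irrefl _)
      · simp only [pos, Prod.Lex.toLex_lt_toLex] at hlt
        have : 0 < 2 ^ k.val := by positivity
        have h2 : 2 ^ (k.val + 1) = 2 * 2 ^ k.val := by rw [pow_succ]; ring
        omega
  · rw [hb]
    cases β with
    | true => rfl
    | false =>
      exfalso
      have hp := (pos_odd k q hq _ _ n3 hb).1
      have hlt := lt_of_lt_of_le hp hlt3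
      cases s2
      · simp only [pos, Prod.Lex.toLex_lt_toLex] at hlt
        have : 0 < 2 ^ k.val := by positivity
        omega
      · exact absurd hlt (lt_irrefl _)

theorem isR_some {k : Fin K} {κ β : Bool} {q : Grp K} (h : isR (some (k, κ, β)) q = true) :
    lev q ≤ k.val ∧ (κ = false → lev q = k.val) := by
  cases κ <;> simp [isR] at h
  · exact ⟨h.le, fun _ => h⟩
  · exact ⟨h, fun hh => absurd hh (by decide)⟩

theorem isM_some {k : Fin K} {κ β : Bool} {q : Grp K} (h : isM (some (k, κ, β)) q = true) :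
    ∃ s, q = some (k, β, s) := by
  cases q with
  | none => simp [isM] at h
  | some y =>
    obtain ⟨k', β', s⟩ := y
    simp [isM] at h
    obtain ⟨rfl, rfl⟩ := h
    exact ⟨s, rfl⟩

theorem Good.sound {R C : Fin 16 → Row K} (h : Good R C)
    (hR : ∀ i, isPadt (R i).ty = false) (hC : ∀ i, isPadt (C i).ty = false)
    (hRm : StrictMono R) (hCm : StrictMono C) :
    (R 13).ty = .p none ∧ (C 13).ty = .p none ∧ (R 14).ty = .S ∧ (R 13).lab = (C 13).lab := by
  obtain ⟨g, hg, hg'⟩ := h.groups hR hC hRm
  have r13 := row_m (R 13).ty (hR _) (R 13).lab (partner g) (fun j => (C (up j)).lab)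
    (fun j => by rw [← hg' j, h 13 (up j), H0_13])
  have r14 := row_r (R 14).ty (hR _) (R 14).lab (partner g) (fun j => (C (up j)).lab)
    (fun j => by rw [← hg' j, h 14 (up j), H0_14])
  have r15 := row_m (R 15).ty (hR _) (R 15).lab (partner g) (fun j => (C (up j)).lab)
    (fun j => by rw [← hg' j, h 15 (up j), H0_15])
  have c13 := row_m (C 13).ty (hC _) (C 13).lab g (fun j => (R (up j)).lab)
    (fun j => by rw [← hg j, h.symm 13 (up j), H0_13])
  have c14 := row_r (C 14).ty (hC _) (C 14).lab g (fun j => (R (up j)).lab)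
    (fun j => by rw [← hg j, h.symm 14 (up j), H0_14])
  have c15 := row_m (C 15).ty (hC _) (C 15).lab g (fun j => (R (up j)).lab)
    (fun j => by rw [← hg j, h.symm 15 (up j), H0_15])
  have o1 : R 13 < R 14 := hRm (by decide)
  have o2 : R 14 < R 15 := hRm (by decide)
  have o3 : C 13 < C 14 := hCm (by decide)
  have o4 : C 14 < C 15 := hCm (by decide)
  cases g with
  | none =>
    simp only [partner] at r13 r14 r15
    have hS : (R 14).ty = .S := by
      rcases r14 with ⟨q, _, hq⟩ | ⟨hq, _⟩
      · simp [isR] at hq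
      · exact hq
    have hS' : (C 14).ty = .S := by
      rcases c14 with ⟨q, _, hq⟩ | ⟨hq, _⟩
      · simp [isR] at hq
      · exact hq
    have hT : (R 13).ty = .p none := by
      rcases r13 with ⟨q, hq, hm⟩ | ⟨hq, _⟩
      · cases q with
        | none => exact hq
        | some y => simp [isM] at hm
      · exact (not_U_lt_S hq hS o1).elim
    have hT' : (C 13).ty = .p none := by
      rcases c13 with ⟨q, hq, hm⟩ | ⟨hq, _⟩
      · cases q with
        | none => exact hq
        | some y => simp [isM] at hm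
      · exact (not_U_lt_S hq hS' o3).elim
    refine ⟨hT, hT', hS, ?_⟩
    have hc := h 13 13
    rw [hT, hT'] at hc
    have hH : H0 13 13 = true := by decide
    rw [hH] at hc
    simp [cell, lev] at hc
    exact Fin.ext hc
  | some x =>
    exfalso
    obtain ⟨k, κ, β⟩ := x
    simp only [partner] at r13 r14 r15
    obtain ⟨q13, h13, m13⟩ : ∃ q, (R 13).ty = .p q ∧ isM (some (k, !κ, β)) q = true := by
      rcases r13 with hh | hh
      · exact hh
      · exact absurd hh.2 (by simp)
    obtain ⟨q14, h14, m14⟩ : ∃ q, (R 14).ty = .p q ∧ isR (some (k, !κ, β)) q = true := by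
      rcases r14 with hh | hh
      · exact hh
      · exact absurd hh.2 (by simp)
    obtain ⟨q15, h15, m15⟩ : ∃ q, (R 15).ty = .p q ∧ isM (some (k, !κ, β)) q = true := by
      rcases r15 with hh | hh
      · exact hh
      · exact absurd hh.2 (by simp)
    obtain ⟨v13, k13, n13⟩ : ∃ q, (C 13).ty = .p q ∧ isM (some (k, κ, β)) q = true := by
      rcases c13 with hh | hh
      · exact hh
      · exact absurd hh.2 (by simp)
    obtain ⟨v14, k14, n14⟩ : ∃ q, (C 14).ty = .p q ∧ isR (some (k, κ, β)) q = true := by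
      rcases c14 with hh | hh
      · exact hh
      · exact absurd hh.2 (by simp)
    obtain ⟨v15, k15, n15⟩ : ∃ q, (C 15).ty = .p q ∧ isM (some (k, κ, β)) q = true := by
      rcases c15 with hh | hh
      · exact hh
      · exact absurd hh.2 (by simp)
    obtain ⟨s1, rfl⟩ := isM_some m13
    obtain ⟨s2, rfl⟩ := isM_some m15
    obtain ⟨s3, rfl⟩ := isM_some n13
    obtain ⟨s4, rfl⟩ := isM_some n15
    obtain ⟨l1, l1'⟩ := isR_some m14
    obtain ⟨l2, l2'⟩ := isR_some n14
    have e1 := h 13 13
    have e2 := h 13 14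
    have e3 := h 14 13
    have e4 := h 15 13
    have e5 := h 13 15
    have e6 := h 14 14
    rw [h13, k13, show H0 13 13 = true by decide] at e1
    rw [h13, k14, show H0 13 14 = true by decide] at e2
    rw [h14, k13, show H0 14 13 = true by decide] at e3
    rw [h15, k13, show H0 15 13 = true by decide] at e4
    rw [h13, k15, show H0 13 15 = true by decide] at e5
    rw [h14, k14, show H0 14 14 = false by decide] at e6
    have mx1 : max (k.val + 1) (lev v14) = k.val + 1 := by omega
    have mx2 : max (lev q14) (k.val + 1) = k.val + 1 := by omega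
    have mx3 : max (lev q14) (lev v14) = k.val := by
      cases κ
      · have := l2' rfl
        omega
      · have := l1' rfl
        omega
    have hl : ∀ (β s : Bool), lev (some (k, β, s)) = k.val + 1 := fun _ _ => rfl
    simp only [cell, hl, max_self, mx1, mx2, decide_eq_true_eq] at e1 e2 e3 e4 e5
    simp only [cell, mx3, decide_eq_false_iff_not] at e6
    have b1 := bracket h13 h15 h14 l1 o1 o2 (by rw [e3, ← e1]) (by rw [e3, ← e4])
    have b2 := bracket k13 k15 k14 l2 o3 o4 (by rw [← e2, e1]) (by rw [← e2, e5])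
    apply e6
    have s1 := div_succ_split k.val (R 14).lab
    have s2 := div_succ_split k.val (C 14).lab
    rw [b1] at s1
    rw [b2] at s2
    have hh : (R 14).lab.val / 2 ^ k.val * 2 ^ k.val = (C 14).lab.val / 2 ^ k.val * 2 ^ k.val := by
      rw [s1, s2, e3, ← e2, ← e1]
    exact Nat.eq_of_mul_eq_mul_right (by positivity) hh

end Crest.Agent.S0066
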