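import Crest.Agent.TG11_Fin
import Crest.Agent.KK_Pr

/-! S0071 from the capture theorem. -/

set_option autoImplicit false

namespace Crest.TG11
open Finset

/-- the capture property as a hypothesis -/
def CaptureStmt : Prop :=
  ∀ (α : Type) [Fintype α] [DecidableEq α] (F : Finset (Finset α))
    (_hup : ∀ A ∈ F, ∀ B : Finset α, A ⊆ B → B ∈ F) (_hempty : ∅ ∉ F) (p : ℝ) (_hp : 0 < p)
    (_hsmall : ¬ ∃ G : Finset (Finset α), (∀ H ∈ F, ∃ S ∈ G, S ⊆ H) ∧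
      ∑ S ∈ G, p ^ S.card ≤ 1 / 2)
    (ℓ : Finset α → α → ℕ) (I K : ℕ) (_hIK : I < K) (_hI : ∀ H ∈ F, ∀ x ∈ H, ℓ H x ≤ I)
    (_hcard : ∀ H ∈ F, ∀ i ≤ I, (H.filter (fun x => ℓ H x ≤ i)).card ≤ 16 ^ i)
    (w : Fin (K + 1) → ℝ) (_hw0 : ∀ s, 0 ≤ w s) (_hw1 : ∑ s, w s = 1)
    (_hw : ∀ s : Fin (K + 1), (s : ℕ) < K → 2 ^ 22 * p * 8 ^ (s : ℕ) ≤ w s * 8 ^ I),
    ∃ Gd : Finset (α → Fin (K + 1)), (∀ tau ∈ Gd, ∃ H ∈ F, ∀ i ≤ I, ∀ r < K,
      4 ^ r * (H.filter (fun x => ℓ H x ≤ i ∧ r < (tau x : ℕ))).card ≤ 16 ^ i * 4 ^ I) ∧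
      1 / 2 < ∑ tau ∈ Gd, ∏ x, w (tau x)

/-- lower bound of the test function on a captured labelling -/
theorem phi_lower {α : Type} [Fintype α] [DecidableEq α] (H : Finset α) (g : Finset α → ℝ)
    (hg : ∀ S, 0 ≤ g S) (hcov : 1 ≤ ∑ S ∈ H.powerset, g S)
    (t : α → ℕ)
    (h : ∑ x ∈ H, (∑ S ∈ H.powerset.filter (fun S => x ∈ S), g S) * (t x : ℝ) ≤
      4 * ∑ x ∈ H, (∑ S ∈ H.powerset.filter (fun S => x ∈ S), g S)) :
    1 - g ∅ ≤ ∑ S ∈ (univ : Finset (Finset α)).erase ∅,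
      g S * ∏ x ∈ S, ((16 : ℝ) ^ 4 * ((16 : ℝ) ^ (t x))⁻¹) := by
  classical
  have h1 := tangent H g hg t 4 16 (by norm_num) (by exact_mod_cast h)
  have h2 : ∑ S ∈ H.powerset.erase ∅, g S = ∑ S ∈ H.powerset, g S - g ∅ := by
    rw [← Finset.add_sum_erase _ _ (show ∅ ∈ H.powerset by simp)]
    ring
  have h3 : ∑ S ∈ H.powerset.erase ∅, g S * ∏ x ∈ S, ((16 : ℝ) ^ 4 * ((16 : ℝ) ^ (t x))⁻¹) ≤
      ∑ S ∈ (univ : Finset (Finset α)).erase ∅,
      g S * ∏ x ∈ S, ((16 : ℝ) ^ 4 * ((16 : ℝ) ^ (t x))⁻¹) := by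
    refine sum_le_sum_of_subset_of_nonneg ?_ ?_
    · exact erase_subset_erase _ (subset_univ _)
    · intro S _ _
      exact mul_nonneg (hg S) (prod_nonneg fun x _ => by positivity)
  linarith

theorem finish_pos (hcapt : CaptureStmt) (α : Type) [Fintype α] [DecidableEq α]
    (F : Finset (Finset α)) (hempty : ∅ ∉ F)
    (hup : ∀ A ∈ F, ∀ B : Finset α, A ⊆ B → B ∈ F) (r : ℝ) (hr0 : 0 < r) (hr1 : r ≤ 1)
    (g : Finset α → ℝ) (hg : ∀ S : Finset α, 0 ≤ g S ∧ g S ≤ 1)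
    (hcov : ∀ H ∈ F, 1 ≤ ∑ S ∈ H.powerset, g S)
    (hcost : ∑ S : Finset α, g S * r ^ S.card ≤ 1 / 2) :
    ∃ G : Finset (Finset α), (∀ H ∈ F, ∃ S ∈ G, S ⊆ H) ∧
      ∑ S ∈ G, (r / (25 * 512 ^ 4)) ^ S.card ≤ 1 / 2 := by
  classical
  by_contra hsmall
  obtain ⟨p, hpdef⟩ : ∃ p : ℝ, p = r / (25 * 512 ^ 4) := ⟨_, rfl⟩
  rw [← hpdef] at hsmall
  have hp : 0 < p := by rw [hpdef]; positivity
  have hpr : p * (25 * 512 ^ 4) = r := by
    rw [hpdef]
    field_simp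
  obtain ⟨a, hadef⟩ : ∃ a : ℝ, a = 2 ^ 22 * p := ⟨_, rfl⟩
  have ha0 : 0 < a := by rw [hadef]; positivity
  have ha1 : a ≤ 1 / 2 := by
    rw [hadef]
    norm_num at hpr ⊢
    linarith
  set I : ℕ := Nat.clog 16 (Fintype.card α) with hI
  obtain ⟨R, w, hw0, hw1, hw, hwE⟩ := exists_weights I a ha0 ha1
  -- weights with R ≥ 1: we may not know R ≥ 1, handled below
  have hex := fun H : Finset α => exists_lev H
    (fun x => ∑ S ∈ H.powerset.filter (fun S => x ∈ S), g S)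
    (fun x => sum_nonneg fun S _ => (hg S).1)
  choose ℓ hℓ1 hℓ2 hℓ3 using hex
  have hℓI : ∀ H x, ℓ H x ≤ I := fun H x =>
    (hℓ2 H x).trans (Nat.clog_mono_right 16 (card_le_univ H))
  have hR : 0 < R := by
    by_contra hR0
    have hR0' : R = 0 := by omega
    subst hR0'
    -- then all weights on labels ≤ I, expectation is 1
    have h1 : ∑ l : Fin (I + 0 + 1), w l * ((16 : ℝ) ^ ((l : ℕ) - I))⁻¹ = 1 := by
      rw [← hw1]
      refine sum_congr rfl fun l _ => ?_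
      have : (l : ℕ) - I = 0 := by have := l.2; omega
      rw [this]
      simp
    rw [h1] at hwE
    rw [hadef] at hwE
    norm_num at hpr hwE
    linarith
  obtain ⟨Gd, hGd1, hGd2⟩ := hcapt α F hup hempty p hp hsmall ℓ I (I + R) (by omega)
    (fun H _ x _ => hℓI H x) (fun H _ i _ => hℓ1 H i) w hw0 hw1 (by
      intro s hs
      rw [hw s hs, ← hadef]
      have e : (8 : ℝ) ^ (((s : ℕ) : ℤ) - (I : ℤ)) * 8 ^ I = 8 ^ (s : ℕ) := by
        rw [← zpow_natCast (8 : ℝ) I, ← zpow_add₀ (by norm_num), sub_add_cancel, zpow_natCast]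
      rw [mul_assoc, e])
  set Φ : (α → Fin (I + R + 1)) → ℝ := fun τ => ∑ S ∈ (univ : Finset (Finset α)).erase ∅,
      g S * ∏ x ∈ S, ((16 : ℝ) ^ 4 * ((16 : ℝ) ^ ((τ x : ℕ) - I))⁻¹) with hΦ
  have hΦ0 : ∀ τ, 0 ≤ Φ τ := fun τ => sum_nonneg fun S _ =>
    mul_nonneg (hg S).1 (prod_nonneg fun x _ => by positivity)
  have hlow : ∀ τ ∈ Gd, 1 - g ∅ ≤ Φ τ := by
    intro τ hτ
    obtain ⟨H, hHF, hH⟩ := hGd1 τ hτ
    refine phi_lower H g (fun S => (hg S).1) (hcov H hHF) (fun x => (τ x : ℕ) - I) ?_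
    refine hℓ3 H (fun x => (τ x : ℕ) - I) ?_
    intro i s
    by_cases hs : I + s < I + R
    · have h1 := hH (min i I) (min_le_right _ _) (I + s) hs
      have h2 : (H.filter (fun x => ℓ H x ≤ i ∧ s < (τ x : ℕ) - I)) =
          H.filter (fun x => ℓ H x ≤ min i I ∧ I + s < (τ x : ℕ)) := by
        refine filter_congr fun x _ => ?_
        have := hℓI H x
        constructor
        · rintro ⟨h3, h4⟩
          exact ⟨le_min h3 this, by omega⟩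
        · rintro ⟨h3, h4⟩
          exact ⟨h3.trans (min_le_left _ _), by omega⟩
      rw [h2]
      have h5 : (16 : ℕ) ^ (min i I) ≤ 16 ^ i := Nat.pow_le_pow_right (by norm_num) (min_le_left _ _)
      have h6 : 4 ^ I * (4 ^ s * (H.filter (fun x => ℓ H x ≤ min i I ∧ I + s < (τ x : ℕ))).card) ≤
          4 ^ I * 16 ^ (min i I) := by
        rw [← mul_assoc, ← pow_add, mul_comm (4 ^ I) (16 ^ (min i I))]
        exact h1
      exact (Nat.le_of_mul_le_mul_left h6 (by positivity)).trans h5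
    · have h2 : (H.filter (fun x => ℓ H x ≤ i ∧ s < (τ x : ℕ) - I)) = ∅ := by
        rw [filter_eq_empty_iff]
        rintro x _ ⟨_, h4⟩
        have := (τ x).2
        omega
      rw [h2]
      simp
  -- expectation
  set y : Fin (I + R + 1) → ℝ := fun l => (16 : ℝ) ^ 4 * ((16 : ℝ) ^ ((l : ℕ) - I))⁻¹ with hy
  have hEy0 : 0 ≤ ∑ l, w l * y l := sum_nonneg fun l _ => mul_nonneg (hw0 l) (by rw [hy]; positivity)
  have hEy : ∑ l, w l * y l ≤ r := by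
    have e : ∑ l, w l * y l = 16 ^ 4 * ∑ l, w l * ((16 : ℝ) ^ ((l : ℕ) - I))⁻¹ := by
      rw [mul_sum]
      refine sum_congr rfl fun l _ => ?_
      rw [hy]; ring
    rw [e]
    rw [hadef] at hwE
    norm_num at hpr hwE ⊢
    linarith
  have hE : ∑ τ : α → Fin (I + R + 1), (∏ x, w (τ x)) * Φ τ ≤ 1 / 2 - g ∅ := by
    have e1 : ∑ τ : α → Fin (I + R + 1), (∏ x, w (τ x)) * Φ τ =
        ∑ S ∈ (univ : Finset (Finset α)).erase ∅, g S * (∑ l, w l * y l) ^ S.card := by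
      simp only [hΦ, mul_sum]
      rw [sum_comm]
      refine sum_congr rfl fun S _ => ?_
      have e2 := KK.expect_prod w hw1 y S id (Set.injOn_id _)
      rw [← e2, mul_sum]
      refine sum_congr rfl fun τ _ => ?_
      unfold KK.wt
      simp only [id, hy]
      ring
    rw [e1]
    have h1 : ∑ S ∈ (univ : Finset (Finset α)).erase ∅, g S * (∑ l, w l * y l) ^ S.card ≤
        ∑ S ∈ (univ : Finset (Finset α)).erase ∅, g S * r ^ S.card := by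
      refine sum_le_sum fun S _ => mul_le_mul_of_nonneg_left ?_ (hg S).1
      exact pow_le_pow_left₀ hEy0 hEy _
    have h2 : ∑ S ∈ (univ : Finset (Finset α)).erase ∅, g S * r ^ S.card =
        ∑ S : Finset α, g S * r ^ S.card - g ∅ := by
      rw [← Finset.add_sum_erase (univ : Finset (Finset α)) _ (mem_univ ∅)]
      simp
    linarith
  have hM : (∑ τ ∈ Gd, ∏ x, w (τ x)) * (1 - g ∅) ≤
      ∑ τ : α → Fin (I + R + 1), (∏ x, w (τ x)) * Φ τ := by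
    rw [sum_mul]
    calc ∑ τ ∈ Gd, (∏ x, w (τ x)) * (1 - g ∅) ≤ ∑ τ ∈ Gd, (∏ x, w (τ x)) * Φ τ := by
          refine sum_le_sum fun τ hτ => ?_
          exact mul_le_mul_of_nonneg_left (hlow τ hτ) (prod_nonneg fun x _ => hw0 _)
      _ ≤ _ := sum_le_sum_of_subset_of_nonneg (subset_univ _) fun τ _ _ =>
          mul_nonneg (prod_nonneg fun x _ => hw0 _) (hΦ0 τ)
  have hg0 : g ∅ ≤ 1 / 2 := by
    refine le_trans ?_ hcost
    have h1 := single_le_sum (f := fun S : Finset α => g S * r ^ S.card)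
      (fun S _ => mul_nonneg (hg S).1 (pow_nonneg hr0.le _)) (mem_univ (∅ : Finset α))
    simpa using h1
  have hg1 := (hg ∅).1
  nlinarith

theorem finish (hcapt : CaptureStmt) (α : Type) [Fintype α] [DecidableEq α]
    (F : Finset (Finset α)) (hempty : ∅ ∉ F)
    (hup : ∀ A ∈ F, ∀ B : Finset α, A ⊆ B → B ∈ F) (r : ℝ) (hr0 : 0 ≤ r) (hr1 : r ≤ 1)
    (g : Finset α → ℝ) (hg : ∀ S : Finset α, 0 ≤ g S ∧ g S ≤ 1)
    (hcov : ∀ H ∈ F, 1 ≤ ∑ S ∈ H.powerset, g S)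
    (hcost : ∑ S : Finset α, g S * r ^ S.card ≤ 1 / 2) :
    ∃ G : Finset (Finset α), (∀ H ∈ F, ∃ S ∈ G, S ⊆ H) ∧
      ∑ S ∈ G, (r / (25 * 512 ^ 4)) ^ S.card ≤ 1 / 2 := by
  classical
  rcases hr0.lt_or_eq with h | h
  · exact finish_pos hcapt α F hempty hup r h hr1 g hg hcov hcost
  · refine ⟨F, fun H hH => ⟨H, hH, Subset.rfl⟩, ?_⟩
    have h0 : ∑ S ∈ F, (r / (25 * 512 ^ 4)) ^ S.card = 0 := by
      refine sum_eq_zero fun S hS => ?_
      have hne : S ≠ ∅ := fun h0 => hempty (h0 ▸ hS)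
      rw [← h, zero_div]
      exact zero_pow (card_ne_zero.2 (nonempty_iff_ne_empty.2 hne))
    rw [h0]
    norm_num

end Crest.TG11
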