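import Mathlib

/-!
S0071, capture theorem, part P3: planting inequality and counting (abstract form).
-/

set_option autoImplicit false

namespace Crest.TG71
open Finset

/-- The total weight of the labellings which agree with `τ'` off `T`. -/
theorem fiber_weight {X L : Type*} [Fintype X] [DecidableEq X] [Fintype L] [DecidableEq L]
    (w : L → ℝ) (hw1 : ∑ l, w l = 1) (T : Finset X) (τ' : X → L) :
    ∑ τ ∈ univ.filter (fun τ : X → L => ∀ x, x ∉ T → τ' x = τ x), (∏ x, w (τ x)) =
      ∏ x ∈ Tᶜ, w (τ' x) := by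
  classical
  have e : (univ.filter (fun τ : X → L => ∀ x, x ∉ T → τ' x = τ x)) =
      Fintype.piFinset (fun x => if x ∈ T then (univ : Finset L) else {τ' x}) := by
    ext τ
    simp only [mem_filter, mem_univ, true_and, Fintype.mem_piFinset]
    refine forall_congr' fun x => ?_
    by_cases hx : x ∈ T
    · simp [hx]
    · simp [hx, eq_comm]
  rw [e]
  rw [← Finset.prod_univ_sum (fun x => if x ∈ T then (univ : Finset L) else {τ' x})
    (fun _ l => w l)]
  rw [← Finset.prod_mul_prod_compl T]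
  have h1 : ∏ x ∈ T, ∑ l ∈ (if x ∈ T then (univ : Finset L) else {τ' x}), w l = 1 := by
    refine Finset.prod_eq_one fun x hx => ?_
    rw [if_pos hx, hw1]
  rw [h1, one_mul]
  refine Finset.prod_congr rfl fun x hx => ?_
  rw [if_neg (Finset.mem_compl.1 hx), Finset.sum_singleton]

/-- **Planting inequality.** -/
theorem plant_sum {X L : Type*} [Fintype X] [DecidableEq X] [Fintype L] [DecidableEq L]
    (w : L → ℝ) (hw : ∀ l, 0 ≤ w l) (hw1 : ∑ l, w l = 1) (p : ℝ) (hp : 0 ≤ p)
    (U V : (X → L) → Finset (Finset X))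
    (h : ∀ τ, ∀ T ∈ U τ, ∃ τ' : X → L, (∀ x, x ∉ T → τ' x = τ x) ∧ T ∈ V τ')
    (hpos : ∀ τ', ∀ T ∈ V τ', ∀ x ∈ T, 0 < w (τ' x)) :
    ∑ τ : X → L, (∏ x, w (τ x)) * ∑ T ∈ U τ, p ^ T.card ≤
      ∑ τ' : X → L, (∏ x, w (τ' x)) * ∑ T ∈ V τ', ∏ x ∈ T, (p / w (τ' x)) := by
  classical
  -- left side: sum over pairs
  have hL : ∑ τ : X → L, (∏ x, w (τ x)) * ∑ T ∈ U τ, p ^ T.card ≤
      ∑ τ : X → L, ∑ τ' : X → L, ∑ T ∈ V τ',
        (if ∀ x, x ∉ T → τ' x = τ x then (∏ x, w (τ x)) * p ^ T.card else 0) := by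
    refine Finset.sum_le_sum fun τ _ => ?_
    rw [Finset.mul_sum]
    -- map T ∈ U τ to (τ', T)
    have : Nonempty (X → L) := ⟨τ⟩
    choose! f hf using h τ
    calc ∑ T ∈ U τ, (∏ x, w (τ x)) * p ^ T.card
        ≤ ∑ q ∈ (U τ).image (fun T => (⟨f T, T⟩ : Σ _ : X → L, Finset X)),
            (if ∀ x, x ∉ q.2 → q.1 x = τ x then (∏ x, w (τ x)) * p ^ q.2.card else 0) := by
          rw [Finset.sum_image]
          · refine Finset.sum_le_sum fun T hT => ?_
            rw [if_pos (hf T hT).1]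
          · intro T1 _ T2 _ h12
            have := congrArg Sigma.snd h12
            exact this
      _ ≤ ∑ q ∈ (univ : Finset (X → L)).sigma V,
            (if ∀ x, x ∉ q.2 → q.1 x = τ x then (∏ x, w (τ x)) * p ^ q.2.card else 0) := by
          refine Finset.sum_le_sum_of_subset_of_nonneg ?_ ?_
          · intro q hq
            rw [Finset.mem_image] at hq
            obtain ⟨T, hT, rfl⟩ := hq
            rw [Finset.mem_sigma]
            exact ⟨Finset.mem_univ _, (hf T hT).2⟩
          · intro q _ _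
            split_ifs
            · exact mul_nonneg (Finset.prod_nonneg fun _ _ => hw _) (pow_nonneg hp _)
            · exact le_rfl
      _ = _ := by rw [Finset.sum_sigma]
  refine hL.trans ?_
  rw [Finset.sum_comm]
  refine Finset.sum_le_sum fun τ' _ => ?_
  rw [Finset.sum_comm, Finset.mul_sum]
  refine Finset.sum_le_sum fun T hT => ?_
  rw [← Finset.sum_filter]
  rw [← Finset.sum_mul, fiber_weight w hw1 T τ']
  have hpT : (∏ x ∈ T, w (τ' x)) ≠ 0 := (Finset.prod_pos (hpos τ' T hT)).ne'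
  rw [Finset.prod_div_distrib, Finset.prod_const, ← Finset.prod_mul_prod_compl T (fun x => w (τ' x))]
  apply le_of_eq
  field_simp

/-- **Counting.** -/
theorem count_sum {X ι : Type*} [DecidableEq X] [Fintype ι] [DecidableEq ι]
    (B : ι → Finset X) (hB : ∀ i j, i ≠ j → Disjoint (B i) (B j)) (n : ι → ℕ) (c : ι → ℝ)
    (hc : ∀ i, 0 ≤ c i) (a : X → ℝ) (ha : ∀ i, ∀ x ∈ B i, a x = c i)
    (𝒱 : Finset (Finset X))
    (h : ∀ T ∈ 𝒱, T ⊆ univ.biUnion B ∧ ∀ i, (T ∩ B i).card = n i) :
    ∑ T ∈ 𝒱, ∏ x ∈ T, a x ≤ ∏ i, (((B i).card.choose (n i) : ℕ) : ℝ) * c i ^ n i := by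
  classical
  -- each term equals ∏ c i ^ n i
  have hterm : ∀ T ∈ 𝒱, ∏ x ∈ T, a x = ∏ i, c i ^ n i := by
    intro T hT
    obtain ⟨h1, h2⟩ := h T hT
    have e : T = univ.biUnion (fun i => T ∩ B i) := by
      ext x
      simp only [mem_biUnion, mem_univ, true_and, mem_inter]
      constructor
      · intro hx
        have := h1 hx
        rw [mem_biUnion] at this
        obtain ⟨i, -, hi⟩ := this
        exact ⟨i, hx, hi⟩
      · rintro ⟨i, hx, -⟩
        exact hx
    calc ∏ x ∈ T, a x = ∏ x ∈ univ.biUnion (fun i => T ∩ B i), a x := by rw [← e]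
      _ = ∏ i, ∏ x ∈ T ∩ B i, a x := by
          rw [Finset.prod_biUnion]
          intro i _ j _ hij
          exact Disjoint.mono inter_subset_right inter_subset_right (hB i j hij)
      _ = ∏ i, c i ^ n i := by
          refine Finset.prod_congr rfl fun i _ => ?_
          rw [Finset.prod_congr rfl (fun x hx => ha i x (mem_inter.1 hx).2), Finset.prod_const, h2 i]
  rw [Finset.sum_congr rfl hterm, Finset.sum_const, nsmul_eq_mul, Finset.prod_mul_distrib]
  have hnn : 0 ≤ ∏ i, c i ^ n i := Finset.prod_nonneg fun i _ => pow_nonneg (hc i) _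
  refine mul_le_mul_of_nonneg_right ?_ hnn
  -- card bound
  have hcard : 𝒱.card ≤ (Fintype.piFinset fun i => (B i).powersetCard (n i)).card := by
    refine Finset.card_le_card_of_injOn (fun T => fun i => T ∩ B i) ?_ ?_
    · intro T hT
      have hT' := Finset.mem_coe.1 hT
      rw [Finset.mem_coe, Fintype.mem_piFinset]
      intro i
      rw [Finset.mem_powersetCard]
      exact ⟨inter_subset_right, (h T hT').2 i⟩
    · intro T1 hT1 T2 hT2 h12
      have h1 := (h T1 (Finset.mem_coe.1 hT1)).1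
      have h2 := (h T2 (Finset.mem_coe.1 hT2)).1
      ext x
      constructor
      · intro hx
        have := h1 hx
        rw [mem_biUnion] at this
        obtain ⟨i, -, hi⟩ := this
        have h3 := congrFun h12 i
        have : x ∈ T1 ∩ B i := mem_inter.2 ⟨hx, hi⟩
        have h4 : x ∈ T2 ∩ B i := by
          have h5 : T1 ∩ B i = T2 ∩ B i := h3
          rw [← h5]; exact this
        exact (mem_inter.1 h4).1
      · intro hx
        have := h2 hx
        rw [mem_biUnion] at this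
        obtain ⟨i, -, hi⟩ := this
        have h3 := congrFun h12 i
        have : x ∈ T2 ∩ B i := mem_inter.2 ⟨hx, hi⟩
        have h4 : x ∈ T1 ∩ B i := by
          have h5 : T1 ∩ B i = T2 ∩ B i := h3
          rw [h5]; exact this
        exact (mem_inter.1 h4).1
  have h2 : (Fintype.piFinset fun i => (B i).powersetCard (n i)).card =
      ∏ i, (B i).card.choose (n i) := by
    rw [Fintype.card_piFinset]
    exact Finset.prod_congr rfl fun i _ => Finset.card_powersetCard _ _
  calc ((𝒱.card : ℕ) : ℝ) ≤ ((∏ i, (B i).card.choose (n i) : ℕ) : ℝ) := by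
        rw [← h2]; exact_mod_cast hcard
    _ = _ := by push_cast; rfl

/-- **Planting and counting combined.** -/
theorem plant_count {X L ι : Type*} [Fintype X] [DecidableEq X] [Fintype L] [DecidableEq L]
    [Fintype ι] [DecidableEq ι]
    (w : L → ℝ) (hw : ∀ l, 0 ≤ w l) (hw1 : ∑ l, w l = 1) (p : ℝ) (hp : 0 ≤ p)
    (U V : (X → L) → Finset (Finset X))
    (h : ∀ τ, ∀ T ∈ U τ, ∃ τ' : X → L, (∀ x, x ∉ T → τ' x = τ x) ∧ T ∈ V τ')
    (hpos : ∀ τ', ∀ T ∈ V τ', ∀ x ∈ T, 0 < w (τ' x))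
    (B : (X → L) → ι → Finset X) (hB : ∀ τ' i j, i ≠ j → Disjoint (B τ' i) (B τ' j))
    (n N : ι → ℕ) (c : ι → ℝ) (hc : ∀ i, 0 ≤ c i)
    (hN : ∀ τ' i, (B τ' i).card ≤ N i)
    (hBc : ∀ τ' i, ∀ x ∈ B τ' i, p / w (τ' x) ≤ c i)
    (hV : ∀ τ', ∀ T ∈ V τ', T ⊆ univ.biUnion (B τ') ∧ ∀ i, (T ∩ B τ' i).card = n i) :
    ∑ τ : X → L, (∏ x, w (τ x)) * ∑ T ∈ U τ, p ^ T.card ≤
      ∏ i, (((N i).choose (n i) : ℕ) : ℝ) * c i ^ n i := by
  classical
  refine (plant_sum w hw hw1 p hp U V h hpos).trans ?_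
  have key : ∀ τ' : X → L, ∑ T ∈ V τ', ∏ x ∈ T, (p / w (τ' x)) ≤
      ∏ i, (((N i).choose (n i) : ℕ) : ℝ) * c i ^ n i := by
    intro τ'
    -- the index of x
    let a : X → ℝ := fun x => if hx : ∃ i, x ∈ B τ' i then c hx.choose else 0
    have ha : ∀ i, ∀ x ∈ B τ' i, a x = c i := by
      intro i x hx
      have hex : ∃ i, x ∈ B τ' i := ⟨i, hx⟩
      have : hex.choose = i := by
        by_contra hne
        exact (Finset.disjoint_left.1 (hB τ' _ _ hne)) hex.choose_spec hx
      simp only [a]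
      rw [dif_pos hex, this]
    calc ∑ T ∈ V τ', ∏ x ∈ T, (p / w (τ' x)) ≤ ∑ T ∈ V τ', ∏ x ∈ T, a x := by
          refine Finset.sum_le_sum fun T hT => ?_
          refine Finset.prod_le_prod (fun x _ => div_nonneg hp (hw _)) fun x hx => ?_
          have h1 := (hV τ' T hT).1 hx
          rw [mem_biUnion] at h1
          obtain ⟨i, -, hi⟩ := h1
          rw [ha i x hi]
          exact hBc τ' i x hi
      _ ≤ ∏ i, (((B τ' i).card.choose (n i) : ℕ) : ℝ) * c i ^ n i :=
          count_sum (B τ') (hB τ') n c hc a ha (V τ') (hV τ')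
      _ ≤ _ := by
          refine Finset.prod_le_prod (fun i _ => mul_nonneg (Nat.cast_nonneg _)
            (pow_nonneg (hc i) _)) fun i _ => ?_
          refine mul_le_mul_of_nonneg_right ?_ (pow_nonneg (hc i) _)
          exact_mod_cast Nat.choose_le_choose _ (hN τ' i)
  have hsum : ∑ τ' : X → L, (∏ x, w (τ' x)) = 1 := by
    have := fiber_weight (X := X) w hw1 (univ : Finset X) (fun _ => Classical.choice (by
      by_contra hL
      rw [not_nonempty_iff] at hL
      have : (∑ l, w l) = 0 := by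
        rw [Finset.univ_eq_empty, Finset.sum_empty]
      rw [this] at hw1
      exact zero_ne_one hw1))
    simpa using this
  calc ∑ τ' : X → L, (∏ x, w (τ' x)) * ∑ T ∈ V τ', ∏ x ∈ T, (p / w (τ' x))
      ≤ ∑ τ' : X → L, (∏ x, w (τ' x)) * ∏ i, (((N i).choose (n i) : ℕ) : ℝ) * c i ^ n i :=
        Finset.sum_le_sum fun τ' _ =>
          mul_le_mul_of_nonneg_left (key τ') (Finset.prod_nonneg fun _ _ => hw _)
    _ = _ := by rw [← Finset.sum_mul, hsum, one_mul]

end Crest.TG71
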