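import Crest.Agent.TG_CapP2
import Crest.Agent.TG_CapP3

set_option autoImplicit false

namespace Crest.TG71.Cap
open Finset

namespace Sys
variable {α : Type} [Fintype α] [DecidableEq α] (S : Sys α)

open Classical in
/-- the decoder's lists -/
noncomputable def DB (k : ℕ) (n : Fin (S.I + 1) → ℕ) (τ' : α → Fin (S.K + 1)) (i : Fin (S.I + 1)) :
    Finset α :=
  if h : ∃ H, S.Dec k n τ' H then (if (i : ℕ) + k < S.K then S.V k τ' h.choose i else ∅) else ∅

open Classical in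
/-- the decoder's candidates -/
noncomputable def DV (k : ℕ) (n : Fin (S.I + 1) → ℕ) (τ' : α → Fin (S.K + 1)) :
    Finset (Finset α) :=
  univ.filter fun T => T ⊆ univ.biUnion (S.DB k n τ') ∧ ∀ i, (T ∩ S.DB k n τ' i).card = n i

theorem mem_DB (k : ℕ) (n : Fin (S.I + 1) → ℕ) (τ' : α → Fin (S.K + 1)) (i : Fin (S.I + 1))
    (x : α) (hx : x ∈ S.DB k n τ' i) :
    (i : ℕ) + k < S.K ∧ (τ' x : ℕ) = i + k ∧ ∃ h : ∃ H, S.Dec k n τ' H, S.ℓ h.choose x = i := by
  unfold DB at hx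
  split_ifs at hx with h h2
  · unfold V at hx
    rw [mem_filter] at hx
    refine ⟨h2, ?_, h, hx.2.1⟩
    rw [hx.2.2]
    unfold d
    exact min_eq_left h2.le
  · exact absurd hx (notMem_empty _)
  · exact absurd hx (notMem_empty _)

theorem w_pos (p : ℝ) (hp : 0 < p) (w : Fin (S.K + 1) → ℝ) (hw : S.WOK p w)
    (l : Fin (S.K + 1)) (hl : (l : ℕ) < S.K) :
    0 < w l ∧ p / w l ≤ 8 ^ S.I / (2 ^ 22 * 8 ^ (l : ℕ)) := by
  have h1 := hw.2.2 l hl
  have h8 : (0 : ℝ) < 8 ^ S.I := by positivity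
  have h9 : (0 : ℝ) < 2 ^ 22 * p * 8 ^ (l : ℕ) := by positivity
  have hpos : 0 < w l := by
    by_contra hc
    push Not at hc
    have : w l * 8 ^ S.I ≤ 0 := mul_nonpos_of_nonpos_of_nonneg hc h8.le
    linarith
  refine ⟨hpos, ?_⟩
  rw [div_le_div_iff₀ hpos (by positivity)]
  nlinarith

/-- P3a: the cost of one stage. -/
theorem pr_frag (p : ℝ) (hp : 0 < p) (w : Fin (S.K + 1) → ℝ) (hw : S.WOK p w)
    (k : ℕ) (n : Fin (S.I + 1) → ℕ) (hn : n ∈ S.Nset k)
    [∀ τ : α → Fin (S.K + 1), DecidablePred (S.IsFrag k n τ)] :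
    ∑ τ : α → Fin (S.K + 1), KK.wt w τ * ∑ T ∈ univ.filter (S.IsFrag k n τ), p ^ T.card ≤
      ∏ i : Fin (S.I + 1),
        (((min (16 ^ (i : ℕ)) (4 * 16 ^ (i : ℕ) * 4 ^ S.I / 4 ^ ((i : ℕ) + k))).choose (n i) : ℕ) : ℝ)
          * (8 ^ S.I / (2 ^ 22 * 8 ^ ((i : ℕ) + k))) ^ n i := by
  classical
  have hn' : ∀ i : Fin (S.I + 1), S.K ≤ (i : ℕ) + k → n i = 0 := by
    unfold Nset at hn
    rw [mem_filter] at hn
    exact hn.2.2
  have main := plant_count w hw.1 hw.2.1 p hp.le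
    (fun τ => univ.filter (S.IsFrag k n τ)) (S.DV k n) ?_ ?_ (S.DB k n) ?_ n
    (fun i : Fin (S.I + 1) => min (16 ^ (i : ℕ)) (4 * 16 ^ (i : ℕ) * 4 ^ S.I / 4 ^ ((i : ℕ) + k)))
    (fun i : Fin (S.I + 1) => (8 ^ S.I / (2 ^ 22 * 8 ^ ((i : ℕ) + k)) : ℝ)) ?_ ?_ ?_ ?_
  · exact main
  · -- decoding
    intro τ T hT
    rw [mem_filter] at hT
    obtain ⟨-, H0, hH0, H, hB, rfl, hnum⟩ := hT
    have hHF : H ∈ S.F := hB.1.1
    have hD : S.Dec k n (S.plant k τ H) H :=
      S.dec_plant k n τ H hHF (S.hI H hHF) hB.1.2.1 hnum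
    have hex : ∃ H', S.Dec k n (S.plant k τ H) H' := ⟨H, hD⟩
    refine ⟨S.plant k τ H, fun x hx => S.plant_of_not k τ H x hx, ?_⟩
    obtain ⟨h1, h2, h3⟩ := S.frag_dec k n τ H0 H hex.choose hB hnum hex.choose_spec
    have hlt : ∀ x ∈ S.T k τ H, S.ℓ hex.choose x + k < S.K := by
      intro x hx
      have h4 := (mem_filter.1 hx).2
      rw [← h2 x hx] at h4
      have h5 := (τ x).2
      unfold d at h4
      omega
    unfold DV
    rw [mem_filter]
    refine ⟨mem_univ _, ?_, ?_⟩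
    · intro x hx
      have hx1 : x ∈ S.T k τ hex.choose := by rw [h1]; exact hx
      have hxH : x ∈ hex.choose := (mem_filter.1 hx1).1
      have hxI : S.ℓ hex.choose x ≤ S.I := S.hI _ hex.choose_spec.1 x hxH
      rw [mem_biUnion]
      refine ⟨⟨S.ℓ hex.choose x, Nat.lt_succ_of_le hxI⟩, mem_univ _, ?_⟩
      unfold DB
      rw [dif_pos hex, if_pos (hlt x hx)]
      exact S.T_subset_V k n τ H0 H hex.choose hB hnum hex.choose_spec x hx
    · intro i
      by_cases hik : (i : ℕ) + k < S.K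
      · have e : S.T k τ H ∩ S.DB k n (S.plant k τ H) i =
            (S.T k τ H).filter (fun x => S.ℓ hex.choose x = i) := by
          ext x
          unfold DB
          rw [dif_pos hex, if_pos hik, mem_inter, mem_filter]
          constructor
          · rintro ⟨h4, h5⟩
            unfold V at h5
            rw [mem_filter] at h5
            exact ⟨h4, h5.2.1⟩
          · rintro ⟨h4, h5⟩
            exact ⟨h4, (h3 i).1 (mem_filter.2 ⟨h4, h5⟩)⟩
        rw [e]
        exact (h3 i).2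
      · have e : S.DB k n (S.plant k τ H) i = ∅ := by
          unfold DB
          rw [dif_pos hex, if_neg hik]
        rw [e, inter_empty, card_empty, hn' i (not_lt.1 hik)]
  · -- positivity
    intro τ' T hT x hx
    unfold DV at hT
    rw [mem_filter] at hT
    have h1 := hT.2.1 hx
    rw [mem_biUnion] at h1
    obtain ⟨i, -, hi⟩ := h1
    obtain ⟨h2, h3, -⟩ := S.mem_DB k n τ' i x hi
    exact (S.w_pos p hp w hw (τ' x) (by rw [h3]; exact h2)).1
  · -- disjointness
    intro τ' i j hij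
    rw [disjoint_left]
    intro x h1 h2
    obtain ⟨-, h3, -⟩ := S.mem_DB k n τ' i x h1
    obtain ⟨-, h4, -⟩ := S.mem_DB k n τ' j x h2
    apply hij
    apply Fin.ext
    omega
  · intro i
    positivity
  · -- size of the lists
    intro τ' i
    unfold DB
    split_ifs with h h2
    · exact S.card_V_le k n τ' h.choose h.choose_spec i (Nat.lt_succ_iff.1 i.2) h2
    · simp
    · simp
  · intro τ' i x hx
    obtain ⟨h2, h3, -⟩ := S.mem_DB k n τ' i x hx
    have := (S.w_pos p hp w hw (τ' x) (by rw [h3]; exact h2)).2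
    rw [h3] at this
    exact this
  · intro τ' T hT
    unfold DV at hT
    rw [mem_filter] at hT
    exact hT.2

end Sys

end Crest.TG71.Cap
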