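import Crest.Agent.TG_CapDefs

/-!
Numerics of the capture theorem (S0071): exponential Markov bound for products of binomial
coefficients and the double sum over `k` and `n`.
-/

set_option autoImplicit false

namespace Crest.TG71.P4
open Finset

theorem chern {ι : Type*} [Fintype ι] [DecidableEq ι] (b : ι → ℕ) (y : ι → ℝ)
    (hy : ∀ i, 0 ≤ y i) (r : ℝ) (hr : 1 ≤ r) (N : ℕ) (S : Finset (ι → ℕ))
    (hS1 : ∀ n ∈ S, ∀ i, n i ≤ b i) (hS2 : ∀ n ∈ S, N ≤ ∑ i, n i) :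
    ∑ n ∈ S, ∏ i, (((b i).choose (n i) : ℕ) : ℝ) * (y i) ^ (n i) ≤
      (r ^ N)⁻¹ * Real.exp (r * ∑ i, (b i : ℝ) * y i) := by
  have hr0 : 0 < r := lt_of_lt_of_le one_pos hr
  have hsub : S ⊆ Fintype.piFinset (fun i => range (b i + 1)) := by
    intro n hn
    rw [Fintype.mem_piFinset]
    intro i
    rw [mem_range]
    have := hS1 n hn i
    omega
  have hterm : ∀ n ∈ S, ∏ i, (((b i).choose (n i) : ℕ) : ℝ) * (y i) ^ (n i) ≤
      (r ^ N)⁻¹ * ∏ i, (((b i).choose (n i) : ℕ) : ℝ) * (r * y i) ^ (n i) := by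
    intro n hn
    have h1 : ∏ i, (((b i).choose (n i) : ℕ) : ℝ) * (r * y i) ^ (n i) =
        r ^ (∑ i, n i) * ∏ i, (((b i).choose (n i) : ℕ) : ℝ) * (y i) ^ (n i) := by
      rw [← prod_pow_eq_pow_sum, ← prod_mul_distrib]
      apply prod_congr rfl
      intro i _
      rw [mul_pow]
      ring
    rw [h1]
    have h2 : 0 ≤ ∏ i, (((b i).choose (n i) : ℕ) : ℝ) * (y i) ^ (n i) :=
      prod_nonneg (fun i _ => mul_nonneg (Nat.cast_nonneg _) (pow_nonneg (hy i) _))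
    have h3 : r ^ N ≤ r ^ (∑ i, n i) := pow_le_pow_right₀ hr (hS2 n hn)
    have h4 : 0 < r ^ N := pow_pos hr0 _
    rw [← mul_assoc]
    have h5 : 1 ≤ (r ^ N)⁻¹ * r ^ (∑ i, n i) := by
      rw [inv_mul_eq_div, one_le_div h4]
      exact h3
    calc _ = 1 * ∏ i, (((b i).choose (n i) : ℕ) : ℝ) * (y i) ^ (n i) := by rw [one_mul]
      _ ≤ _ := mul_le_mul_of_nonneg_right h5 h2
  have hprod : ∑ n ∈ Fintype.piFinset (fun i => range (b i + 1)),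
      ∏ i, (((b i).choose (n i) : ℕ) : ℝ) * (r * y i) ^ (n i) = ∏ i, (1 + r * y i) ^ (b i) := by
    refine (Finset.prod_univ_sum (fun i => range (b i + 1))
      (fun i m => (((b i).choose m : ℕ) : ℝ) * (r * y i) ^ m)).symm.trans ?_
    apply prod_congr rfl
    intro i _
    rw [add_comm 1 (r * y i), add_pow]
    apply sum_congr rfl
    intro m _
    rw [one_pow, mul_one]
    ring
  calc _ ≤ ∑ n ∈ S, (r ^ N)⁻¹ * ∏ i, (((b i).choose (n i) : ℕ) : ℝ) * (r * y i) ^ (n i) :=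
        sum_le_sum hterm
    _ = (r ^ N)⁻¹ * ∑ n ∈ S, ∏ i, (((b i).choose (n i) : ℕ) : ℝ) * (r * y i) ^ (n i) := by
        rw [mul_sum]
    _ ≤ (r ^ N)⁻¹ * ∏ i, (1 + r * y i) ^ (b i) := by
        apply mul_le_mul_of_nonneg_left _ (by positivity)
        rw [← hprod]
        apply sum_le_sum_of_subset_of_nonneg hsub
        intro n _ _
        exact prod_nonneg (fun i _ => mul_nonneg (Nat.cast_nonneg _)
          (pow_nonneg (mul_nonneg hr0.le (hy i)) _))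
    _ ≤ (r ^ N)⁻¹ * Real.exp (r * ∑ i, (b i : ℝ) * y i) := by
        apply mul_le_mul_of_nonneg_left _ (by positivity)
        rw [mul_sum, Real.exp_sum]
        apply prod_le_prod
        · intro i _
          have := hy i
          positivity
        · intro i _
          have h1 : 1 + r * y i ≤ Real.exp (r * y i) := by
            have := Real.add_one_le_exp (r * y i)
            linarith
          calc (1 + r * y i) ^ (b i) ≤ (Real.exp (r * y i)) ^ (b i) := by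
                apply pow_le_pow_left₀ _ h1
                have := hy i
                positivity
            _ = Real.exp (r * ((b i : ℝ) * y i)) := by
                rw [← Real.exp_nat_mul]
                ring_nf

/-- `∑ 2^{-|i-m|} ≤ 3`. -/
theorem sum_abs (m n : ℕ) : ∑ i ∈ range n, ((2 : ℝ) ^ ((i - m) + (m - i)))⁻¹ ≤ 3 := by
  have hA : ∀ n, n ≤ m + 1 → ∑ i ∈ range n, ((2 : ℝ) ^ ((i - m) + (m - i)))⁻¹ =
      ((2 : ℝ) ^ n - 1) / 2 ^ m := by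
    intro n
    induction n with
    | zero => intro _; simp
    | succ n ih =>
      intro hn
      rw [sum_range_succ, ih (by omega)]
      have h1 : (n - m) + (m - n) = m - n := by omega
      rw [h1]
      have h2 : (2 : ℝ) ^ m = 2 ^ (m - n) * 2 ^ n := by
        rw [← pow_add]
        congr 1
        omega
      rw [h2]
      field_simp
      ring
  have hB : ∀ t, ∑ i ∈ range (m + 1 + t), ((2 : ℝ) ^ ((i - m) + (m - i)))⁻¹ =
      ((2 : ℝ) ^ (m + 1) - 1) / 2 ^ m + (1 - ((2 : ℝ) ^ t)⁻¹) := by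
    intro t
    induction t with
    | zero => rw [add_zero, hA (m + 1) le_rfl]; simp
    | succ t ih =>
      rw [← add_assoc, sum_range_succ, ih]
      have h1 : (m + 1 + t - m) + (m - (m + 1 + t)) = t + 1 := by omega
      rw [h1, pow_succ (2 : ℝ) t]
      field_simp
      ring
  have h2m : (0 : ℝ) < 2 ^ m := by positivity
  rcases le_or_gt n (m + 1) with h | h
  · rw [hA n h, div_le_iff₀ h2m]
    have h1 : (2 : ℝ) ^ n ≤ 2 ^ (m + 1) := pow_le_pow_right₀ (by norm_num) h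
    rw [pow_succ] at h1
    linarith
  · obtain ⟨t, rfl⟩ : ∃ t, n = m + 1 + t := ⟨n - (m + 1), by omega⟩
    rw [hB t]
    have h1 : ((2 : ℝ) ^ (m + 1) - 1) / 2 ^ m ≤ 2 := by
      rw [div_le_iff₀ h2m, pow_succ]
      linarith
    have h3 : (0 : ℝ) < ((2 : ℝ) ^ t)⁻¹ := by positivity
    linarith

/-- Bound of one product `b * y`. -/
theorem term_le (I k i : ℕ) (b y : ℝ) (hb0 : 0 ≤ b) (hb1 : b ≤ 16 ^ i)
    (hb2 : b * 4 ^ (i + k) ≤ 4 * 16 ^ i * 4 ^ I) (hy0 : 0 ≤ y)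
    (hy : y * (2 ^ 22 * 8 ^ (i + k)) ≤ 8 ^ I) (hk : k ≤ I) :
    b * y ≤ 4 * 16 ^ (I - k) / 2 ^ 22 * ((2 : ℝ) ^ ((i - (I - k)) + ((I - k) - i)))⁻¹ := by
  obtain ⟨m, rfl⟩ : ∃ m, I = k + m := ⟨I - k, by omega⟩
  have hm : k + m - k = m := by omega
  rw [hm]
  have hy' : y * (2 ^ 22 * 8 ^ i) ≤ 8 ^ m := by
    rw [pow_add, pow_add] at hy
    have h8 : (0 : ℝ) < 8 ^ k := by positivity
    have : (y * (2 ^ 22 * 8 ^ i)) * 8 ^ k ≤ 8 ^ m * 8 ^ k := by nlinarith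
    exact le_of_mul_le_mul_right this h8
  have hb' : b * 4 ^ i ≤ 4 * 16 ^ i * 4 ^ m := by
    rw [pow_add, pow_add] at hb2
    have h4 : (0 : ℝ) < 4 ^ k := by positivity
    have : (b * 4 ^ i) * 4 ^ k ≤ (4 * 16 ^ i * 4 ^ m) * 4 ^ k := by nlinarith
    exact le_of_mul_le_mul_right this h4
  have hy1 : y ≤ 8 ^ m / (2 ^ 22 * 8 ^ i) := by
    rw [le_div_iff₀ (by positivity)]
    exact hy'
  rcases le_or_gt i m with h | h
  · obtain ⟨t, rfl⟩ : ∃ t, m = i + t := ⟨m - i, by omega⟩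
    have he : (i - (i + t)) + (i + t - i) = t := by omega
    rw [he]
    calc b * y ≤ 16 ^ i * (8 ^ (i + t) / (2 ^ 22 * 8 ^ i)) := mul_le_mul hb1 hy1 hy0 (by positivity)
      _ = (16 ^ (i + t) / 2 ^ 22) * ((2 : ℝ) ^ t)⁻¹ := by
          rw [pow_add, pow_add]
          have : (16 : ℝ) ^ t = 8 ^ t * 2 ^ t := by rw [← mul_pow]; norm_num
          rw [this]
          field_simp
      _ ≤ _ := by
          apply mul_le_mul_of_nonneg_right _ (by positivity)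
          apply div_le_div_of_nonneg_right _ (by positivity)
          have : (0 : ℝ) ≤ 16 ^ (i + t) := by positivity
          linarith
  · obtain ⟨t, rfl⟩ : ∃ t, i = m + t := ⟨i - m, by omega⟩
    have he : (m + t - m) + (m - (m + t)) = t := by omega
    rw [he]
    have hb3 : b ≤ 4 * 16 ^ (m + t) * 4 ^ m / 4 ^ (m + t) := by
      rw [le_div_iff₀ (by positivity)]
      exact hb'
    calc b * y ≤ (4 * 16 ^ (m + t) * 4 ^ m / 4 ^ (m + t)) * (8 ^ m / (2 ^ 22 * 8 ^ (m + t))) :=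
          mul_le_mul hb3 hy1 hy0 (by positivity)
      _ = 4 * 16 ^ m / 2 ^ 22 * ((2 : ℝ) ^ t)⁻¹ := by
          rw [pow_add, pow_add, pow_add]
          have h1 : (16 : ℝ) ^ t * 2 ^ t = 4 ^ t * 8 ^ t := by
            rw [← mul_pow, ← mul_pow]; norm_num
          have h3 : (16 : ℝ) ^ t = 4 ^ t * 8 ^ t / 2 ^ t := by
            rw [eq_div_iff (by positivity)]; exact h1
          rw [h3]
          field_simp
      _ ≤ _ := le_rfl

theorem term_le' (I σ i : ℕ) (b y : ℝ) (hb0 : 0 ≤ b)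
    (hb2 : b * 4 ^ (i + (I + σ)) ≤ 4 * 16 ^ i * 4 ^ I) (hy0 : 0 ≤ y)
    (hy : y * (2 ^ 22 * 8 ^ (i + (I + σ))) ≤ 8 ^ I) :
    b * y ≤ 4 / (2 ^ 22 * 32 ^ σ) * ((2 : ℝ) ^ ((i - 0) + (0 - i)))⁻¹ := by
  have he : (i - 0) + (0 - i) = i := by omega
  rw [he]
  have hy1 : y ≤ 8 ^ I / (2 ^ 22 * 8 ^ (i + (I + σ))) := by
    rw [le_div_iff₀ (by positivity)]
    exact hy
  have hb3 : b ≤ 4 * 16 ^ i * 4 ^ I / 4 ^ (i + (I + σ)) := by
    rw [le_div_iff₀ (by positivity)]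
    exact hb2
  calc b * y ≤ (4 * 16 ^ i * 4 ^ I / 4 ^ (i + (I + σ))) * (8 ^ I / (2 ^ 22 * 8 ^ (i + (I + σ)))) :=
        mul_le_mul hb3 hy1 hy0 (by positivity)
    _ = _ := by
        rw [pow_add, pow_add, pow_add, pow_add]
        have h1 : (16 : ℝ) ^ i * 2 ^ i = 4 ^ i * 8 ^ i := by
          rw [← mul_pow, ← mul_pow]; norm_num
        have h2 : (32 : ℝ) ^ σ = 4 ^ σ * 8 ^ σ := by
          rw [← mul_pow]; norm_num
        have h3 : (16 : ℝ) ^ i = 4 ^ i * 8 ^ i / 2 ^ i := by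
          rw [eq_div_iff (by positivity)]; exact h1
        rw [h2, h3]
        field_simp

theorem sum_le (I k : ℕ) (hk : k ≤ I) (b : ℕ → ℕ) (y : ℕ → ℝ)
    (hb1 : ∀ i ≤ I, (b i : ℝ) ≤ 16 ^ i)
    (hb2 : ∀ i ≤ I, (b i : ℝ) * 4 ^ (i + k) ≤ 4 * 16 ^ i * 4 ^ I) (hy0 : ∀ i ≤ I, 0 ≤ y i)
    (hy : ∀ i ≤ I, y i * (2 ^ 22 * 8 ^ (i + k)) ≤ 8 ^ I) :
    ∑ i : Fin (I + 1), (b i : ℝ) * y i ≤ 12 * 16 ^ (I - k) / 2 ^ 22 := by
  rw [Fin.sum_univ_eq_sum_range (fun i => (b i : ℝ) * y i) (I + 1)]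
  calc ∑ i ∈ range (I + 1), (b i : ℝ) * y i ≤
      ∑ i ∈ range (I + 1), 4 * 16 ^ (I - k) / 2 ^ 22 *
        ((2 : ℝ) ^ ((i - (I - k)) + ((I - k) - i)))⁻¹ := by
        apply sum_le_sum
        intro i hi
        have hi' : i ≤ I := by rw [mem_range] at hi; omega
        exact term_le I k i (b i) (y i) (Nat.cast_nonneg _) (hb1 i hi') (hb2 i hi') (hy0 i hi')
          (hy i hi') hk
    _ = 4 * 16 ^ (I - k) / 2 ^ 22 * ∑ i ∈ range (I + 1),
        ((2 : ℝ) ^ ((i - (I - k)) + ((I - k) - i)))⁻¹ := by rw [mul_sum]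
    _ ≤ 4 * 16 ^ (I - k) / 2 ^ 22 * 3 :=
        mul_le_mul_of_nonneg_left (sum_abs _ _) (by positivity)
    _ = _ := by ring

theorem sum_le' (I σ : ℕ) (b : ℕ → ℕ) (y : ℕ → ℝ)
    (hb2 : ∀ i ≤ I, (b i : ℝ) * 4 ^ (i + (I + σ)) ≤ 4 * 16 ^ i * 4 ^ I)
    (hy0 : ∀ i ≤ I, 0 ≤ y i)
    (hy : ∀ i ≤ I, y i * (2 ^ 22 * 8 ^ (i + (I + σ))) ≤ 8 ^ I) :
    ∑ i : Fin (I + 1), (b i : ℝ) * y i ≤ 12 / (2 ^ 22 * 32 ^ σ) := by
  rw [Fin.sum_univ_eq_sum_range (fun i => (b i : ℝ) * y i) (I + 1)]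
  calc ∑ i ∈ range (I + 1), (b i : ℝ) * y i ≤
      ∑ i ∈ range (I + 1), 4 / (2 ^ 22 * 32 ^ σ) * ((2 : ℝ) ^ ((i - 0) + (0 - i)))⁻¹ := by
        apply sum_le_sum
        intro i hi
        have hi' : i ≤ I := by rw [mem_range] at hi; omega
        exact term_le' I σ i (b i) (y i) (Nat.cast_nonneg _) (hb2 i hi') (hy0 i hi') (hy i hi')
    _ = 4 / (2 ^ 22 * 32 ^ σ) * ∑ i ∈ range (I + 1), ((2 : ℝ) ^ ((i - 0) + (0 - i)))⁻¹ := by
        rw [mul_sum]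
    _ ≤ 4 / (2 ^ 22 * 32 ^ σ) * 3 :=
        mul_le_mul_of_nonneg_left (sum_abs _ _) (by positivity)
    _ = _ := by ring

theorem num1 (A m : ℕ) (hA : 1 ≤ A) (hm : m + 1 ≤ A) :
    (((2 : ℝ) ^ 18) ^ (4 * A))⁻¹ * Real.exp (2 ^ 18 * (12 * (A : ℝ) / 2 ^ 22)) ≤
      ((2 : ℝ) ^ (6 + m))⁻¹ := by
  have h1 : Real.exp (2 ^ 18 * (12 * (A : ℝ) / 2 ^ 22)) ≤ (2 : ℝ) ^ (2 * A) := by
    have h2 : Real.exp 1 ≤ 4 := by
      have := Real.exp_one_lt_d9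
      linarith
    calc Real.exp (2 ^ 18 * (12 * (A : ℝ) / 2 ^ 22)) ≤ Real.exp (A * 1) := by
          apply Real.exp_le_exp.2
          have : (0 : ℝ) ≤ A := Nat.cast_nonneg _
          nlinarith
      _ = (Real.exp 1) ^ A := by rw [Real.exp_nat_mul]
      _ ≤ 4 ^ A := pow_le_pow_left₀ (Real.exp_pos _).le h2 _
      _ = (2 : ℝ) ^ (2 * A) := by rw [pow_mul]; norm_num
  calc _ ≤ (((2 : ℝ) ^ 18) ^ (4 * A))⁻¹ * (2 : ℝ) ^ (2 * A) :=
        mul_le_mul_of_nonneg_left h1 (by positivity)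
    _ ≤ ((2 : ℝ) ^ (6 + m))⁻¹ := by
        rw [← pow_mul, inv_mul_le_iff₀ (by positivity), ← div_eq_mul_inv,
          le_div_iff₀ (by positivity), ← pow_add]
        apply pow_le_pow_right₀ (by norm_num)
        omega

theorem num2 (σ : ℕ) :
    (((2 : ℝ) ^ 18 * 32 ^ σ) ^ 1)⁻¹ *
      Real.exp ((2 ^ 18 * 32 ^ σ) * (12 / (2 ^ 22 * 32 ^ σ))) ≤ ((2 : ℝ) ^ (6 + σ))⁻¹ := by
  have h32 : (0 : ℝ) < 32 ^ σ := by positivity
  have h0 : ((2 : ℝ) ^ 18 * 32 ^ σ) * (12 / (2 ^ 22 * 32 ^ σ)) = 3 / 4 := by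
    field_simp
    norm_num
  rw [h0, pow_one]
  have h2 : Real.exp (3 / 4) ≤ 4 := by
    have h3 : Real.exp (3 / 4) ≤ Real.exp 1 := Real.exp_le_exp.2 (by norm_num)
    have := Real.exp_one_lt_d9
    linarith
  calc _ ≤ ((2 : ℝ) ^ 18 * 32 ^ σ)⁻¹ * 4 := mul_le_mul_of_nonneg_left h2 (by positivity)
    _ ≤ _ := by
        rw [inv_mul_le_iff₀ (by positivity), ← div_eq_mul_inv, le_div_iff₀ (by positivity),
          pow_add]
        have h3 : (2 : ℝ) ^ σ ≤ 32 ^ σ := pow_le_pow_left₀ (by norm_num) (by norm_num) _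
        nlinarith

theorem level_sum (I k : ℕ) (b : ℕ → ℕ) (y : ℕ → ℝ)
    (hb1 : ∀ i ≤ I, (b i : ℝ) ≤ 16 ^ i)
    (hb2 : ∀ i ≤ I, (b i : ℝ) * 4 ^ (i + k) ≤ 4 * 16 ^ i * 4 ^ I) (hy0 : ∀ i ≤ I, 0 ≤ y i)
    (hy : ∀ i ≤ I, y i * (2 ^ 22 * 8 ^ (i + k)) ≤ 8 ^ I)
    (S : Finset (Fin (I + 1) → ℕ)) (hS1 : ∀ n ∈ S, ∀ i : Fin (I + 1), n i ≤ b i)
    (hS2 : ∀ n ∈ S, (if k ≤ I then 4 * 16 ^ (I - k) else 1) ≤ ∑ i, n i) :
    ∑ n ∈ S, ∏ i : Fin (I + 1), (((b i).choose (n i) : ℕ) : ℝ) * (y i) ^ (n i) ≤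
      ((2 : ℝ) ^ (6 + ((k - I) + (I - k))))⁻¹ := by
  have hy0' : ∀ i : Fin (I + 1), 0 ≤ y i := fun i => hy0 i (by have := i.2; omega)
  rcases le_or_gt k I with hk | hk
  · simp only [if_pos hk] at hS2
    have h1 := chern (fun i : Fin (I + 1) => b i) (fun i : Fin (I + 1) => y i) hy0' ((2 : ℝ) ^ 18)
      (by norm_num) (4 * 16 ^ (I - k)) S hS1 hS2
    have h2 := sum_le I k hk b y hb1 hb2 hy0 hy
    have h3 := num1 (16 ^ (I - k)) (I - k) (Nat.one_le_pow _ _ (by norm_num))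
      (by
        have : I - k < 16 ^ (I - k) := Nat.lt_pow_self (by norm_num)
        omega)
    have h7 : k - I = 0 := Nat.sub_eq_zero_of_le hk
    rw [h7, zero_add]
    push_cast at h3
    calc _ ≤ (((2 : ℝ) ^ 18) ^ (4 * 16 ^ (I - k)))⁻¹ *
          Real.exp (2 ^ 18 * ∑ i : Fin (I + 1), (b i : ℝ) * y i) := h1
      _ ≤ (((2 : ℝ) ^ 18) ^ (4 * 16 ^ (I - k)))⁻¹ *
          Real.exp (2 ^ 18 * (12 * 16 ^ (I - k) / 2 ^ 22)) := by
          apply mul_le_mul_of_nonneg_left _ (by positivity)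
          apply Real.exp_le_exp.2
          exact mul_le_mul_of_nonneg_left h2 (by positivity)
      _ ≤ _ := h3
  · obtain ⟨σ, rfl⟩ : ∃ σ, k = I + σ := ⟨k - I, by omega⟩
    simp only [if_neg (not_le.2 hk)] at hS2
    have hr : (1 : ℝ) ≤ 2 ^ 18 * 32 ^ σ := by
      have : (1 : ℝ) ≤ 32 ^ σ := one_le_pow₀ (by norm_num)
      nlinarith
    have h1 := chern (fun i : Fin (I + 1) => b i) (fun i : Fin (I + 1) => y i) hy0'
      ((2 : ℝ) ^ 18 * 32 ^ σ) hr 1 S hS1 hS2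
    have h2 := sum_le' I σ b y hb2 hy0 hy
    have h3 := num2 σ
    have h7 : (I + σ - I) + (I - (I + σ)) = σ := by omega
    rw [h7]
    calc _ ≤ (((2 : ℝ) ^ 18 * 32 ^ σ) ^ 1)⁻¹ *
          Real.exp ((2 ^ 18 * 32 ^ σ) * ∑ i : Fin (I + 1), (b i : ℝ) * y i) := h1
      _ ≤ (((2 : ℝ) ^ 18 * 32 ^ σ) ^ 1)⁻¹ *
          Real.exp ((2 ^ 18 * 32 ^ σ) * (12 / (2 ^ 22 * 32 ^ σ))) := by
          apply mul_le_mul_of_nonneg_left _ (by positivity)
          apply Real.exp_le_exp.2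
          exact mul_le_mul_of_nonneg_left h2 (by positivity)
      _ ≤ _ := h3

/-- The numerics of the capture theorem. -/
theorem cost_sum (I K : ℕ) (b : ℕ → ℕ → ℕ) (y : ℕ → ℕ → ℝ)
    (hb1 : ∀ k < K, ∀ i ≤ I, (b k i : ℝ) ≤ 16 ^ i)
    (hb2 : ∀ k < K, ∀ i ≤ I, (b k i : ℝ) * 4 ^ (i + k) ≤ 4 * 16 ^ i * 4 ^ I)
    (hy0 : ∀ k < K, ∀ i ≤ I, 0 ≤ y k i)
    (hy : ∀ k < K, ∀ i ≤ I, y k i * (2 ^ 22 * 8 ^ (i + k)) ≤ 8 ^ I)
    (S : ℕ → Finset (Fin (I + 1) → ℕ))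
    (hS1 : ∀ k < K, ∀ n ∈ S k, ∀ i : Fin (I + 1), n i ≤ b k i)
    (hS2 : ∀ k < K, ∀ n ∈ S k, (if k ≤ I then 4 * 16 ^ (I - k) else 1) ≤ ∑ i, n i) :
    ∑ k ∈ range K, ∑ n ∈ S k,
      ∏ i : Fin (I + 1), (((b k i).choose (n i) : ℕ) : ℝ) * (y k i) ^ (n i) ≤ 1 / 8 := by
  calc _ ≤ ∑ k ∈ range K, ((2 : ℝ) ^ 6)⁻¹ * ((2 : ℝ) ^ ((k - I) + (I - k)))⁻¹ := by
        apply sum_le_sum
        intro k hk
        rw [mem_range] at hk
        rw [← mul_inv, ← pow_add]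
        exact level_sum I k (b k) (y k) (hb1 k hk) (hb2 k hk) (hy0 k hk) (hy k hk) (S k)
          (hS1 k hk) (hS2 k hk)
    _ = ((2 : ℝ) ^ 6)⁻¹ * ∑ k ∈ range K, ((2 : ℝ) ^ ((k - I) + (I - k)))⁻¹ := by rw [mul_sum]
    _ ≤ ((2 : ℝ) ^ 6)⁻¹ * 3 := mul_le_mul_of_nonneg_left (sum_abs _ _) (by positivity)
    _ ≤ 1 / 8 := by norm_num

end Crest.TG71.P4

namespace Crest.TG71.Cap.Sys
open Finset
variable {α : Type} [Fintype α] [DecidableEq α] (S : Sys α)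

/-- P4: the cost sum. -/
theorem num_sum :
    ∑ k ∈ range S.K, ∑ n ∈ S.Nset k, ∏ i : Fin (S.I + 1),
      (((min (16 ^ (i : ℕ)) (4 * 16 ^ (i : ℕ) * 4 ^ S.I / 4 ^ ((i : ℕ) + k))).choose (n i) : ℕ) : ℝ) *
        ((8 : ℝ) ^ S.I / (2 ^ 22 * 8 ^ ((i : ℕ) + k))) ^ (n i) ≤ 1 / 8 := by
  classical
  set b : ℕ → ℕ → ℕ := fun k i => min (16 ^ i) (4 * 16 ^ i * 4 ^ S.I / 4 ^ (i + k)) with hb
  set y : ℕ → ℕ → ℝ := fun k i => (8 : ℝ) ^ S.I / (2 ^ 22 * 8 ^ (i + k)) with hy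
  set N : ℕ → Finset (Fin (S.I + 1) → ℕ) := fun k =>
    (S.Nset k).filter (fun n => ∀ i : Fin (S.I + 1), n i ≤ b k i) with hN
  have h := Crest.TG71.P4.cost_sum S.I S.K b y
    (by
      intro k _ i _
      have : b k i ≤ 16 ^ i := min_le_left _ _
      exact_mod_cast this)
    (by
      intro k _ i _
      have h1 : b k i ≤ 4 * 16 ^ i * 4 ^ S.I / 4 ^ (i + k) := min_le_right _ _
      have h2 : b k i * 4 ^ (i + k) ≤ 4 * 16 ^ i * 4 ^ S.I :=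
        (Nat.mul_le_mul_right _ h1).trans (Nat.div_mul_le_self _ _)
      exact_mod_cast h2)
    (by
      intro k _ i _
      simp only [hy]
      positivity)
    (by
      intro k _ i _
      simp only [hy]
      rw [div_mul_cancel₀]
      positivity)
    N
    (by
      intro k _ n hn i
      simp only [hN, mem_filter] at hn
      exact hn.2 i)
    (by
      intro k _ n hn
      simp only [hN, mem_filter] at hn
      have h1 := hn.1
      unfold Nset vmin at h1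
      rw [mem_filter] at h1
      exact h1.2.1)
  refine le_trans (le_of_eq ?_) h
  apply sum_congr rfl
  intro k _
  simp only [hN]
  symm
  apply sum_filter_of_ne
  intro n _ hne i
  by_contra hlt
  rw [not_le] at hlt
  apply hne
  apply prod_eq_zero (mem_univ i)
  rw [Nat.choose_eq_zero_of_lt hlt]
  simp

end Crest.TG71.Cap.Sys
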