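import Crest.Agent.TG_CapP1
import Crest.Agent.TG_CapP3a
import Crest.Agent.TG_CapP4

/-!
# S0071, capture theorem: assembly (P5)
-/

set_option autoImplicit false

namespace Crest.TG71
open Finset

theorem sum_biUnion_le' {ι β : Type} [DecidableEq β] (s : Finset ι) (t : ι → Finset β)
    (f : β → ℝ) (hf : ∀ x, 0 ≤ f x) :
    ∑ x ∈ s.biUnion t, f x ≤ ∑ i ∈ s, ∑ x ∈ t i, f x := by
  classical
  induction s using Finset.induction_on with
  | empty => simp
  | insert a s ha ih =>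
    rw [biUnion_insert, sum_insert ha]
    have h1 : ∑ x ∈ t a ∪ s.biUnion t, f x ≤ ∑ x ∈ t a, f x + ∑ x ∈ s.biUnion t, f x := by
      have := sum_union_inter (s₁ := t a) (s₂ := s.biUnion t) (f := f)
      have h2 : 0 ≤ ∑ x ∈ t a ∩ s.biUnion t, f x := sum_nonneg fun x _ => hf x
      linarith
    linarith

namespace Cap
namespace Sys
variable {α : Type} [Fintype α] [DecidableEq α] (S : Sys α)

theorem capture (p : ℝ) (hp : 0 < p) (hs : S.NotSmall p) (w : Fin (S.K + 1) → ℝ)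
    (hw : S.WOK p w) : KK.Pr w (fun τ => ¬ S.Capt τ) ≤ 1 / 4 := by
  classical
  -- the cover
  let U : (α → Fin (S.K + 1)) → Finset (Finset α) := fun τ =>
    (range S.K).biUnion fun k => (S.Nset k).biUnion fun n => univ.filter (S.IsFrag k n τ)
  have hpow : ∀ T : Finset α, 0 ≤ p ^ T.card := fun T => by positivity
  have h1 : ∀ τ, ¬ S.Capt τ → 1 / 2 <
      ∑ k ∈ range S.K, ∑ n ∈ S.Nset k, ∑ T ∈ univ.filter (S.IsFrag k n τ), p ^ T.card := by
    intro τ hτ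
    have hcov : ∀ H ∈ S.F, ∃ T ∈ U τ, T ⊆ H := by
      intro H hH
      obtain ⟨k, hk, n, hn, T, hT, hTH⟩ := S.exists_bad τ hτ H hH
      refine ⟨T, ?_, hTH⟩
      simp only [U]
      rw [mem_biUnion]
      refine ⟨k, hk, ?_⟩
      rw [mem_biUnion]
      exact ⟨n, hn, by simpa using hT⟩
    refine lt_of_lt_of_le (hs (U τ) hcov) ?_
    refine (sum_biUnion_le' _ _ _ hpow).trans ?_
    exact sum_le_sum fun k _ => sum_biUnion_le' _ _ _ hpow
  have hnn : ∀ τ, 0 ≤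
      ∑ k ∈ range S.K, ∑ n ∈ S.Nset k, ∑ T ∈ univ.filter (S.IsFrag k n τ), p ^ T.card :=
    fun τ => sum_nonneg fun k _ => sum_nonneg fun n _ => sum_nonneg fun T _ => hpow T
  have h2 : KK.Pr w (fun τ => ¬ S.Capt τ) * (1 / 2) ≤
      ∑ τ : α → Fin (S.K + 1), KK.wt w τ *
        ∑ k ∈ range S.K, ∑ n ∈ S.Nset k, ∑ T ∈ univ.filter (S.IsFrag k n τ), p ^ T.card := by
    unfold KK.Pr
    rw [sum_mul]
    refine le_trans (sum_le_sum (g := fun τ => KK.wt w τ *
          ∑ k ∈ range S.K, ∑ n ∈ S.Nset k, ∑ T ∈ univ.filter (S.IsFrag k n τ), p ^ T.card)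
          fun τ hτ => ?_) ?_
    · have hτ' : ¬ S.Capt τ := by simpa using hτ
      exact mul_le_mul_of_nonneg_left (h1 τ hτ').le (KK.wt_nonneg w hw.1 τ)
    · refine sum_le_sum_of_subset_of_nonneg (subset_univ _) fun τ _ _ => ?_
      exact mul_nonneg (KK.wt_nonneg w hw.1 τ) (hnn τ)
  have h3 : ∑ τ : α → Fin (S.K + 1), KK.wt w τ *
        ∑ k ∈ range S.K, ∑ n ∈ S.Nset k, ∑ T ∈ univ.filter (S.IsFrag k n τ), p ^ T.card =
      ∑ k ∈ range S.K, ∑ n ∈ S.Nset k, ∑ τ : α → Fin (S.K + 1), KK.wt w τ *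
        ∑ T ∈ univ.filter (S.IsFrag k n τ), p ^ T.card := by
    simp only [mul_sum]
    rw [sum_comm]
    refine sum_congr rfl fun k _ => ?_
    rw [sum_comm]
  have h4 : ∑ k ∈ range S.K, ∑ n ∈ S.Nset k, ∑ τ : α → Fin (S.K + 1), KK.wt w τ *
        ∑ T ∈ univ.filter (S.IsFrag k n τ), p ^ T.card ≤ 1 / 8 := by
    refine le_trans ?_ S.num_sum
    exact sum_le_sum fun k _ => sum_le_sum fun n hn => S.pr_frag p hp w hw k n hn
  rw [h3] at h2
  linarith

end Sys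
end Cap

/-- **CAPTURE THEOREM** (S0071). -/
theorem capture {α : Type} [Fintype α] [DecidableEq α] (F : Finset (Finset α))
    (p : ℝ) (hp : 0 < p)
    (hsmall : ¬ ∃ G : Finset (Finset α), (∀ H ∈ F, ∃ S ∈ G, S ⊆ H) ∧
      ∑ S ∈ G, p ^ S.card ≤ 1 / 2)
    (ℓ : Finset α → α → ℕ) (I R : ℕ) (hI : ∀ H ∈ F, ∀ x ∈ H, ℓ H x ≤ I)
    (hcard : ∀ H ∈ F, ∀ i ≤ I, (H.filter (fun x => ℓ H x ≤ i)).card ≤ 16 ^ i)
    (w : Fin (I + R + 1) → ℝ) (hw0 : ∀ s, 0 ≤ w s) (hw1 : ∑ s, w s = 1)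
    (hw : ∀ s : Fin (I + R + 1), (s : ℕ) < I + R →
      2 ^ 22 * p * 8 ^ (s : ℕ) ≤ w s * 8 ^ I) :
    ∃ Gd : Finset (α → Fin (I + R + 1)),
      (∀ tau ∈ Gd, ∃ H ∈ F, ∀ i ≤ I, ∀ r < I + R,
        4 ^ r * (H.filter (fun x => ℓ H x ≤ i ∧ r < (tau x : ℕ))).card ≤ 16 ^ i * 4 ^ I) ∧
      1 / 2 < ∑ tau ∈ Gd, ∏ x, w (tau x) := by
  classical
  let S : Cap.Sys α :=
    { F := F
      ℓ := ℓ
      I := I
      hI := hI
      hL := by
        intro H hH i
        by_cases hi : i ≤ I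
        · exact hcard H hH i hi
        · push Not at hi
          have h1 : H.filter (fun x => ℓ H x ≤ i) ⊆ H.filter (fun x => ℓ H x ≤ I) := by
            intro x hx
            rw [mem_filter] at hx ⊢
            exact ⟨hx.1, hI H hH x hx.1⟩
          exact (card_le_card h1).trans ((hcard H hH I le_rfl).trans
            (Nat.pow_le_pow_right (by norm_num) hi.le))
      R := R }
  have hs : S.NotSmall p := by
    intro G hG
    by_contra hc
    push Not at hc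
    exact hsmall ⟨G, hG, hc⟩
  have hW : S.WOK p w := ⟨hw0, hw1, hw⟩
  have hcap := S.capture p hp hs w hW
  refine ⟨univ.filter (fun τ : α → Fin (I + R + 1) => S.Capt τ), ?_, ?_⟩
  · intro tau ht
    rw [mem_filter] at ht
    exact ht.2
  · have h1 := KK.Pr_not (X := α) w hw1 (fun τ => S.Capt τ)
    have h2 : KK.Pr w (fun τ : α → Fin (I + R + 1) => S.Capt τ) =
        ∑ tau ∈ univ.filter (fun τ : α → Fin (I + R + 1) => S.Capt τ), ∏ x, w (tau x) := by
      unfold KK.Pr KK.wt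
      refine sum_congr ?_ fun _ _ => rfl
      ext τ
      simp only [mem_filter]
    rw [← h2]
    have h3 : KK.Pr w (fun τ : α → Fin (I + R + 1) => ¬ S.Capt τ) ≤ 1 / 4 := hcap
    linarith

end Crest.TG71
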