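import Mathlib

set_option autoImplicit false

namespace Crest.TG

open Finset

variable {α : Type*} [Fintype α] [DecidableEq α]

/-- Existence of the (top-down) Moebius coefficients. -/
theorem exists_moebius (D : Finset (Finset α)) :
    ∃ m : Finset α → ℝ, ∀ X ∈ D, ∑ R ∈ D with X ⊆ R, m R = 1 := by
  induction D using Finset.strongInduction with
  | H D ih =>
    by_cases hD : D.Nonempty
    · obtain ⟨X0, hX0, hmin⟩ := D.exists_min_image Finset.card hD
      obtain ⟨m', hm'⟩ := ih (D.erase X0) (Finset.erase_ssubset hX0)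
      refine ⟨fun R => if R = X0 then 1 - ∑ R ∈ D.erase X0 with X0 ⊆ R, m' R else m' R, ?_⟩
      intro X hX
      have hsplit : D = insert X0 (D.erase X0) := (Finset.insert_erase hX0).symm
      have hcongr : ∀ Y : Finset α, ∑ R ∈ D.erase X0 with Y ⊆ R,
          (if R = X0 then 1 - ∑ R ∈ D.erase X0 with X0 ⊆ R, m' R else m' R)
          = ∑ R ∈ D.erase X0 with Y ⊆ R, m' R := by
        intro Y
        apply Finset.sum_congr rfl
        intro R hR
        have : R ≠ X0 := (Finset.mem_erase.mp (Finset.mem_filter.mp hR).1).1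
        simp [this]
      by_cases hXX : X = X0
      · subst hXX
        have h1 : (D.filter fun R => X ⊆ R)
            = insert X ((D.erase X).filter fun R => X ⊆ R) := by
          ext R
          simp only [Finset.mem_filter, Finset.mem_insert, Finset.mem_erase]
          constructor
          · rintro ⟨h1, h2⟩
            by_cases h : R = X
            · exact Or.inl h
            · exact Or.inr ⟨⟨h, h1⟩, h2⟩
          · rintro (h | ⟨⟨_, h1⟩, h2⟩)
            · subst h; exact ⟨hX, Finset.Subset.refl _⟩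
            · exact ⟨h1, h2⟩
        rw [h1, Finset.sum_insert (by simp), hcongr X]
        simp
      · have h1 : (D.filter fun R => X ⊆ R)
            = ((D.erase X0).filter fun R => X ⊆ R) := by
          ext R
          simp only [Finset.mem_filter, Finset.mem_erase]
          constructor
          · rintro ⟨h1, h2⟩
            refine ⟨⟨?_, h1⟩, h2⟩
            intro h
            subst h
            exact hXX (Finset.eq_of_subset_of_card_le h2 (hmin X hX))
          · rintro ⟨⟨_, h1⟩, h2⟩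
            exact ⟨h1, h2⟩
        rw [h1, hcongr X]
        exact hm' X (Finset.mem_erase.mpr ⟨hXX, hX⟩)
    · refine ⟨fun _ => 0, ?_⟩
      intro X hX
      exact absurd ⟨X, hX⟩ hD

/-- Product measure with odds `t`. -/
noncomputable def pr (t : α → ℝ) (X : Finset α) : ℝ := (∏ i ∈ X, t i) / ∏ i, (1 + t i)

theorem pr_nonneg (t : α → ℝ) (ht : ∀ i, 0 ≤ t i) (X : Finset α) : 0 ≤ pr t X := by
  unfold pr
  apply div_nonneg
  · exact Finset.prod_nonneg fun i _ => ht i
  · exact Finset.prod_nonneg fun i _ => by have := ht i; linarith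

theorem prod_pos_one_add (t : α → ℝ) (ht : ∀ i, 0 ≤ t i) (s : Finset α) :
    0 < ∏ i ∈ s, (1 + t i) :=
  Finset.prod_pos fun i _ => by have := ht i; linarith

theorem sum_pr_powerset (t : α → ℝ) (R : Finset α) :
    ∑ X ∈ R.powerset, pr t X = (∏ i ∈ R, (1 + t i)) / ∏ i, (1 + t i) := by
  unfold pr
  rw [← Finset.sum_div]
  congr 1
  exact (Finset.prod_one_add R).symm

/-- coefficient product -/
noncomputable def cc (t : α → ℝ) (R : Finset α) : ℝ := ∏ i ∈ Rᶜ, (1 + t i)

/-- the test function -/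
noncomputable def gg (D : Finset (Finset α)) (a : Finset α → ℝ) (t : α → ℝ) (X : Finset α) : ℝ :=
  ∑ R ∈ D with X ⊆ R, a R * cc t R

/-- the quadratic form -/
noncomputable def QQ (D : Finset (Finset α)) (a : Finset α → ℝ) (t : α → ℝ) : ℝ :=
  ∑ R ∈ D, ∑ R' ∈ D, a R * a R' * ∏ i ∈ (R ∪ R')ᶜ, (1 + t i)

theorem QQ_eq (D : Finset (Finset α)) (a : Finset α → ℝ) (t : α → ℝ) :
    QQ D a t = ∑ S : Finset α, (∏ i ∈ S, t i) * (∑ R ∈ D with Disjoint R S, a R) ^ 2 := by
  unfold QQ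
  have h1 : ∀ R R' : Finset α, ∏ i ∈ (R ∪ R')ᶜ, (1 + t i)
      = ∑ S : Finset α, if (Disjoint R S ∧ Disjoint R' S) then ∏ i ∈ S, t i else 0 := by
    intro R R'
    rw [Finset.prod_one_add, ← Finset.sum_filter]
    apply Finset.sum_congr
    · ext S
      simp only [Finset.mem_powerset, Finset.mem_filter, Finset.mem_univ, true_and]
      rw [← Finset.disjoint_union_left, ← Finset.le_iff_subset, le_compl_iff_disjoint_left]
    · intros; rfl
  simp_rw [h1, Finset.mul_sum]
  have h2 : ∀ S : Finset α, (∏ i ∈ S, t i) * (∑ R ∈ D with Disjoint R S, a R) ^ 2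
      = ∑ R ∈ D, ∑ R' ∈ D, a R * a R' *
        (if (Disjoint R S ∧ Disjoint R' S) then ∏ i ∈ S, t i else 0) := by
    intro S
    rw [sq, Finset.sum_mul_sum, Finset.mul_sum]
    rw [Finset.sum_filter]
    apply Finset.sum_congr rfl
    intro R _
    by_cases hR : Disjoint R S
    · simp only [hR, if_true, true_and]
      rw [Finset.sum_filter, Finset.mul_sum]
      apply Finset.sum_congr rfl
      intro R' _
      by_cases hR' : Disjoint R' S
      · simp only [hR', if_true]; ring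
      · simp [hR']
    · simp [hR]
  simp_rw [h2]
  symm
  rw [Finset.sum_comm]
  apply Finset.sum_congr rfl
  intro R _
  rw [Finset.sum_comm]

theorem QQ_le (D : Finset (Finset α)) (a : Finset α → ℝ) {ι : Type*} (s : Finset ι) (w : ι → ℝ)
    (t : ι → α → ℝ) (τ : α → ℝ)
    (hS : ∀ S : Finset α, ∑ j ∈ s, w j * ∏ i ∈ S, t j i ≤ ∏ i ∈ S, τ i) :
    ∑ j ∈ s, w j * QQ D a (t j) ≤ QQ D a τ := by
  simp_rw [QQ_eq, Finset.mul_sum]
  rw [Finset.sum_comm]
  apply Finset.sum_le_sum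
  intro S _
  have : ∑ j ∈ s, w j * ((∏ i ∈ S, t j i) * (∑ R ∈ D with Disjoint R S, a R) ^ 2)
      = (∑ j ∈ s, w j * ∏ i ∈ S, t j i) * (∑ R ∈ D with Disjoint R S, a R) ^ 2 := by
    rw [Finset.sum_mul]
    apply Finset.sum_congr rfl
    intro j _
    ring
  rw [this]
  exact mul_le_mul_of_nonneg_right (hS S) (sq_nonneg _)

theorem filter_powerset (D : Finset (Finset α)) (hD : ∀ R ∈ D, ∀ X ⊆ R, X ∈ D) (R : Finset α)
    (hR : R ∈ D) : (D.filter fun X => X ⊆ R) = R.powerset := by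
  ext X
  simp only [Finset.mem_filter, Finset.mem_powerset]
  exact ⟨fun h => h.2, fun h => ⟨hD R hR X h, h⟩⟩

theorem sum_gg (D : Finset (Finset α)) (hD : ∀ R ∈ D, ∀ X ⊆ R, X ∈ D) (a : Finset α → ℝ)
    (t : α → ℝ) (ht : ∀ i, 0 ≤ t i) :
    ∑ X ∈ D, pr t X * gg D a t X = ∑ R ∈ D, a R := by
  unfold gg
  simp_rw [Finset.mul_sum, Finset.sum_filter]
  rw [Finset.sum_comm]
  apply Finset.sum_congr rfl
  intro R hR
  rw [← Finset.sum_filter, filter_powerset D hD R hR]
  have : ∑ X ∈ R.powerset, pr t X * (a R * cc t R) = (∑ X ∈ R.powerset, pr t X) * (a R * cc t R) := by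
    rw [Finset.sum_mul]
  rw [this, sum_pr_powerset]
  unfold cc
  have h1 := Finset.prod_mul_prod_compl R (fun i => 1 + t i)
  have h2 : (∏ i, (1 + t i)) ≠ 0 := (prod_pos_one_add t ht _).ne'
  rw [div_mul_eq_mul_div, div_eq_iff h2, ← h1]
  ring

theorem sum_gg_sq (D : Finset (Finset α)) (hD : ∀ R ∈ D, ∀ X ⊆ R, X ∈ D) (a : Finset α → ℝ)
    (t : α → ℝ) (ht : ∀ i, 0 ≤ t i) :
    ∑ X ∈ D, pr t X * gg D a t X ^ 2 = QQ D a t := by
  unfold QQ
  have h0 : ∀ X : Finset α, gg D a t X ^ 2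
      = ∑ R ∈ D, ∑ R' ∈ D, if X ⊆ R ∩ R' then (a R * cc t R) * (a R' * cc t R') else 0 := by
    intro X
    unfold gg
    rw [sq, Finset.sum_mul_sum, Finset.sum_filter]
    apply Finset.sum_congr rfl
    intro R _
    by_cases hR : X ⊆ R
    · simp only [hR, if_true]
      rw [Finset.sum_filter]
      apply Finset.sum_congr rfl
      intro R' _
      by_cases hR' : X ⊆ R'
      · simp [hR', Finset.subset_inter hR hR']
      · have : ¬ X ⊆ R ∩ R' := fun h => hR' (h.trans Finset.inter_subset_right)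
        simp [hR', this]
    · have : ∀ R', ¬ X ⊆ R ∩ R' := fun R' h => hR (h.trans Finset.inter_subset_left)
      simp [hR, this]
  simp_rw [h0, Finset.mul_sum]
  rw [Finset.sum_comm]
  apply Finset.sum_congr rfl
  intro R hR
  rw [Finset.sum_comm]
  apply Finset.sum_congr rfl
  intro R' hR'
  have hRR : R ∩ R' ∈ D := hD R hR _ Finset.inter_subset_left
  have h1 : ∑ X ∈ D, pr t X * (if X ⊆ R ∩ R' then (a R * cc t R) * (a R' * cc t R') else 0)
      = (∑ X ∈ (R ∩ R').powerset, pr t X) * ((a R * cc t R) * (a R' * cc t R')) := by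
    rw [← filter_powerset D hD _ hRR, Finset.sum_mul, Finset.sum_filter]
    apply Finset.sum_congr rfl
    intro X _
    split_ifs <;> ring
  rw [h1, sum_pr_powerset]
  have h2 : (∏ i, (1 + t i)) ≠ 0 := (prod_pos_one_add t ht _).ne'
  have h3 : cc t R * cc t R' = (∏ i ∈ (R ∩ R')ᶜ, (1 + t i)) * ∏ i ∈ (R ∪ R')ᶜ, (1 + t i) := by
    unfold cc
    rw [Finset.compl_inter, Finset.compl_union, Finset.prod_union_inter]
  have h4 := Finset.prod_mul_prod_compl (R ∩ R') (fun i => 1 + t i)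
  rw [div_mul_eq_mul_div, div_eq_iff h2, ← h4]
  calc (∏ i ∈ R ∩ R', (1 + t i)) * (a R * cc t R * (a R' * cc t R'))
      = (∏ i ∈ R ∩ R', (1 + t i)) * (a R * a R') * (cc t R * cc t R') := by ring
    _ = _ := by rw [h3]; ring

/-- (OD), inverse-free form: a spread mixture of product measures is stochastically dominated. -/
theorem od_dom (D : Finset (Finset α)) (hD : ∀ R ∈ D, ∀ X ⊆ R, X ∈ D)
    {ι : Type*} (s : Finset ι) (w : ι → ℝ) (hw : ∀ j ∈ s, 0 ≤ w j) (hw1 : ∑ j ∈ s, w j = 1)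
    (t : ι → α → ℝ) (ht : ∀ j ∈ s, ∀ i, 0 ≤ t j i) (τ : α → ℝ) (hτ : ∀ i, 0 ≤ τ i)
    (hS : ∀ S : Finset α, ∑ j ∈ s, w j * ∏ i ∈ S, t j i ≤ ∏ i ∈ S, τ i) :
    ∑ X ∈ D, pr τ X ≤ ∑ j ∈ s, w j * ∑ X ∈ D, pr (t j) X := by
  obtain ⟨m, hm⟩ := exists_moebius D
  set a : Finset α → ℝ := fun R => m R / cc τ R with ha
  have hcc : ∀ R, cc τ R ≠ 0 := fun R => (prod_pos_one_add τ hτ _).ne'
  have hg : ∀ X ∈ D, gg D a τ X = 1 := by
    intro X hX
    rw [← hm X hX]
    unfold gg
    apply Finset.sum_congr rfl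
    intro R _
    simp only [ha]
    field_simp [hcc R]
  have hA : ∑ R ∈ D, a R = ∑ X ∈ D, pr τ X := by
    rw [← sum_gg D hD a τ hτ]
    apply Finset.sum_congr rfl
    intro X hX
    rw [hg X hX, mul_one]
  have hQ : QQ D a τ = ∑ X ∈ D, pr τ X := by
    rw [← sum_gg_sq D hD a τ hτ]
    apply Finset.sum_congr rfl
    intro X hX
    rw [hg X hX]; ring
  have hpt : ∀ j ∈ s, 2 * (∑ X ∈ D, pr τ X) - QQ D a (t j) ≤ ∑ X ∈ D, pr (t j) X := by
    intro j hj
    rw [← hA, ← sum_gg D hD a (t j) (ht j hj), ← sum_gg_sq D hD a (t j) (ht j hj)]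
    have : 0 ≤ ∑ X ∈ D, pr (t j) X * (1 - gg D a (t j) X) ^ 2 :=
      Finset.sum_nonneg fun X _ => mul_nonneg (pr_nonneg _ (ht j hj) X) (sq_nonneg _)
    have h2 : ∑ X ∈ D, pr (t j) X * (1 - gg D a (t j) X) ^ 2
        = ∑ X ∈ D, pr (t j) X - 2 * (∑ X ∈ D, pr (t j) X * gg D a (t j) X)
          + ∑ X ∈ D, pr (t j) X * gg D a (t j) X ^ 2 := by
      rw [Finset.mul_sum, ← Finset.sum_sub_distrib, ← Finset.sum_add_distrib]
      apply Finset.sum_congr rfl
      intro X _
      ring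
    linarith
  have hsum : ∑ j ∈ s, w j * (2 * (∑ X ∈ D, pr τ X) - QQ D a (t j))
      ≤ ∑ j ∈ s, w j * ∑ X ∈ D, pr (t j) X :=
    Finset.sum_le_sum fun j hj => mul_le_mul_of_nonneg_left (hpt j hj) (hw j hj)
  have h3 : ∑ j ∈ s, w j * (2 * (∑ X ∈ D, pr τ X) - QQ D a (t j))
      = 2 * (∑ X ∈ D, pr τ X) - ∑ j ∈ s, w j * QQ D a (t j) := by
    simp_rw [mul_sub]
    rw [Finset.sum_sub_distrib, ← Finset.sum_mul, hw1, one_mul]
  have h4 := QQ_le D a s w t τ hS
  rw [hQ] at h4
  linarith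

end Crest.TG
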