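import Mathlib
import Crest.Agent.TG_OD

set_option autoImplicit false

namespace Crest.TG

open Finset

variable {α : Type*} [Fintype α] [DecidableEq α]

/-- (OD), certificate form: a nonnegative multi-affine polynomial `∑ c S t^S` dominates
`1 / P_t(D)` for all `t ≥ 0` with equality at `τ`, and `c ∅ = 1`. -/
theorem od_cert (D : Finset (Finset α)) (hD : ∀ R ∈ D, ∀ X ⊆ R, X ∈ D) (hne : D.Nonempty)
    (τ : α → ℝ) (hτ : ∀ i, 0 ≤ τ i) :
    0 < ∑ X ∈ D, pr τ X ∧
    ∃ c : Finset α → ℝ, (∀ S, 0 ≤ c S) ∧ c ∅ = 1 ∧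
      (∑ S : Finset α, c S * ∏ i ∈ S, τ i) * (∑ X ∈ D, pr τ X) = 1 ∧
      ∀ t : α → ℝ, (∀ i, 0 ≤ t i) →
        1 ≤ (∑ X ∈ D, pr t X) * ∑ S : Finset α, c S * ∏ i ∈ S, t i := by
  have hempty : ∅ ∈ D := by
    obtain ⟨R, hR⟩ := hne
    exact hD R hR ∅ (Finset.empty_subset _)
  have hpos : 0 < ∑ X ∈ D, pr τ X := by
    apply lt_of_lt_of_le _ (Finset.single_le_sum (f := fun X => pr τ X)
      (fun X _ => pr_nonneg τ hτ X) hempty)
    unfold pr
    simp only [Finset.prod_empty]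
    exact div_pos one_pos (prod_pos_one_add τ hτ _)
  refine ⟨hpos, ?_⟩
  obtain ⟨m, hm⟩ := exists_moebius D
  set a : Finset α → ℝ := fun R => m R / cc τ R with ha
  have hcc : ∀ R, cc τ R ≠ 0 := fun R => (prod_pos_one_add τ hτ _).ne'
  have hg : ∀ X ∈ D, gg D a τ X = 1 := by
    intro X hX
    rw [← hm X hX]
    unfold gg
    apply Finset.sum_congr rfl
    intro R _
    simp only [ha]
    field_simp [hcc R]
  have hA : ∑ R ∈ D, a R = ∑ X ∈ D, pr τ X := by
    rw [← sum_gg D hD a τ hτ]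
    apply Finset.sum_congr rfl
    intro X hX
    rw [hg X hX, mul_one]
  have hQ : QQ D a τ = ∑ X ∈ D, pr τ X := by
    rw [← sum_gg_sq D hD a τ hτ]
    apply Finset.sum_congr rfl
    intro X hX
    rw [hg X hX]; ring
  set P := ∑ X ∈ D, pr τ X with hP
  refine ⟨fun S => (∑ R ∈ D with Disjoint R S, a R) ^ 2 / P ^ 2, ?_, ?_, ?_, ?_⟩
  · intro S
    positivity
  · simp only [Finset.disjoint_empty_right, Finset.filter_true]
    rw [hA]
    exact div_self (pow_ne_zero _ hpos.ne')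
  · have h1 : ∑ S : Finset α, (∑ R ∈ D with Disjoint R S, a R) ^ 2 / P ^ 2 * ∏ i ∈ S, τ i
        = QQ D a τ / P ^ 2 := by
      rw [QQ_eq, Finset.sum_div]
      apply Finset.sum_congr rfl
      intro S _
      ring
    rw [h1, hQ]
    field_simp
  · intro t ht
    have h1 : ∑ S : Finset α, (∑ R ∈ D with Disjoint R S, a R) ^ 2 / P ^ 2 * ∏ i ∈ S, t i
        = QQ D a t / P ^ 2 := by
      rw [QQ_eq, Finset.sum_div]
      apply Finset.sum_congr rfl
      intro S _
      ring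
    rw [h1]
    -- Cauchy-Schwarz
    have hcs : (∑ X ∈ D, pr t X * gg D a t X) ^ 2
        ≤ (∑ X ∈ D, pr t X) * ∑ X ∈ D, pr t X * gg D a t X ^ 2 := by
      have := Finset.sum_mul_sq_le_sq_mul_sq D (fun X => Real.sqrt (pr t X))
        (fun X => Real.sqrt (pr t X) * gg D a t X)
      have e1 : ∀ X ∈ D, Real.sqrt (pr t X) * (Real.sqrt (pr t X) * gg D a t X)
          = pr t X * gg D a t X := by
        intro X _
        rw [← mul_assoc, Real.mul_self_sqrt (pr_nonneg t ht X)]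
      have e2 : ∀ X ∈ D, Real.sqrt (pr t X) ^ 2 = pr t X := by
        intro X _
        exact Real.sq_sqrt (pr_nonneg t ht X)
      have e3 : ∀ X ∈ D, (Real.sqrt (pr t X) * gg D a t X) ^ 2 = pr t X * gg D a t X ^ 2 := by
        intro X _
        rw [mul_pow, Real.sq_sqrt (pr_nonneg t ht X)]
      rw [Finset.sum_congr rfl e1, Finset.sum_congr rfl e2, Finset.sum_congr rfl e3] at this
      exact this
    rw [sum_gg D hD a t ht, sum_gg_sq D hD a t ht, hA] at hcs
    rw [← mul_div_assoc, le_div_iff₀ (pow_pos hpos 2), one_mul]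
    exact hcs

end Crest.TG
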