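import Mathlib
import Crest.Agent.TG_Cert
import Crest.Agent.HS72_Col

set_option autoImplicit false

namespace Crest.TG72

open Finset

/-- the down-closure of a family -/
private def dn {N : ℕ} (D : Finset (Finset (Fin N))) : Finset (Finset (Fin N)) :=
  (Finset.univ : Finset (Finset (Fin N))).filter (fun S => ∃ A ∈ D, S ⊆ A)

private theorem dn_down {N : ℕ} (D : Finset (Finset (Fin N))) :
    ∀ A ∈ dn D, ∀ B ⊆ A, B ∈ dn D := by
  intro A hA B hB
  simp only [dn, mem_filter, mem_univ, true_and] at hA ⊢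
  obtain ⟨C, hC, hAC⟩ := hA
  exact ⟨C, hC, hB.trans hAC⟩

private theorem subset_dn {N : ℕ} (D : Finset (Finset (Fin N))) : D ⊆ dn D := by
  intro A hA
  simp only [dn, mem_filter, mem_univ, true_and]
  exact ⟨A, hA, Finset.Subset.refl _⟩

/-- product formula for `pr` at a constant supported on `H` -/
private theorem pr_ind {N : ℕ} (H X : Finset (Fin N)) (u : ℝ) (hu : 0 ≤ u) :
    Crest.TG.pr (fun i => if i ∈ H then u else 0) X =
      if X ⊆ H then (u / (1 + u)) ^ X.card * (1 - u / (1 + u)) ^ (H.card - X.card) else 0 := by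
  have h1 : (1 : ℝ) + u ≠ 0 := by positivity
  unfold Crest.TG.pr
  have hden : ∏ i : Fin N, (1 + (if i ∈ H then u else 0)) = (1 + u) ^ H.card := by
    have : ∀ i : Fin N, (1 + (if i ∈ H then u else 0) : ℝ) = if i ∈ H then (1 + u) else 1 := by
      intro i; split_ifs <;> simp
    simp_rw [this]
    rw [Finset.prod_ite_mem]
    simp
  rw [hden]
  split_ifs with hX
  · have hnum : ∏ i ∈ X, (if i ∈ H then u else 0 : ℝ) = u ^ X.card := by
      rw [Finset.prod_congr rfl (fun i hi => if_pos (hX hi))]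
      simp
    rw [hnum]
    have hc : X.card ≤ H.card := Finset.card_le_card hX
    have h2 : 1 - u / (1 + u) = 1 / (1 + u) := by field_simp; ring
    rw [h2, div_pow, div_pow, one_pow]
    have h3 : (1 + u) ^ H.card = (1 + u) ^ X.card * (1 + u) ^ (H.card - X.card) := by
      rw [← pow_add]; congr 1; omega
    rw [h3]
    field_simp
  · obtain ⟨i, hiX, hiH⟩ := Finset.not_subset.mp hX
    rw [Finset.prod_eq_zero hiX (if_neg hiH)]
    simp

/-- product formula for `∏ i ∈ S, t i` -/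
private theorem prod_ind {N : ℕ} (H S : Finset (Fin N)) (u : ℝ) :
    ∏ i ∈ S, (if i ∈ H then u else 0 : ℝ) = if S ⊆ H then u ^ S.card else 0 := by
  split_ifs with hS
  · rw [Finset.prod_congr rfl (fun i hi => if_pos (hS hi))]
    simp
  · obtain ⟨i, hiX, hiH⟩ := Finset.not_subset.mp hS
    exact Finset.prod_eq_zero hiX (if_neg hiH)

/-- extension of a colouring with fewer colours -/
private theorem fewer {N m K : ℕ} (hm : 1 ≤ m) (hmK : m ≤ K) (D : Finset (Finset (Fin N)))
    (H : Finset (Fin N))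
    (hH : ∀ f : Fin K → Finset (Fin N), (∀ i, f i ∈ D) → ¬ H ⊆ Finset.univ.biUnion f) :
    ∀ f : Fin m → Finset (Fin N), (∀ i, f i ∈ dn D) → ¬ H ⊆ Finset.univ.biUnion f := by
  intro f hf hsub
  have hex : ∀ i, ∃ A ∈ D, f i ⊆ A := by
    intro i
    have := hf i
    simpa only [dn, mem_filter, mem_univ, true_and] using this
  choose A hA hfA using hex
  apply hH (fun i => A ⟨i.1 % m, Nat.mod_lt _ (by omega)⟩) (fun i => hA _)
  intro x hx
  have := hsub hx
  simp only [mem_biUnion, mem_univ, true_and] at this ⊢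
  obtain ⟨i, hi⟩ := this
  refine ⟨⟨i.1, lt_of_lt_of_le i.2 hmK⟩, ?_⟩
  have h1 : (⟨i.1 % m, Nat.mod_lt _ (by omega)⟩ : Fin m) = i := by
    apply Fin.ext
    exact Nat.mod_eq_of_lt i.2
  simp only [h1]
  exact hfA i hi

theorem s72_of_s71
    (h71 : ∀ (α : Type) [Fintype α] [DecidableEq α] [Nonempty α] (F : Finset (Finset α))
      (hne : F.Nonempty) (hempty : ∅ ∉ F)
      (hup : ∀ A ∈ F, ∀ B : Finset α, A ⊆ B → B ∈ F) (r : ℝ) (hr0 : 0 ≤ r) (hr1 : r ≤ 1)
      (g : Finset α → ℝ) (hg : ∀ S : Finset α, 0 ≤ g S ∧ g S ≤ 1)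
      (hcov : ∀ H ∈ F, 1 ≤ ∑ S ∈ H.powerset, g S)
      (hcost : ∑ S : Finset α, g S * r ^ S.card ≤ 1 / 2),
      ∃ G : Finset (Finset α), (∀ H ∈ F, ∃ S ∈ G, S ⊆ H) ∧
        ∑ S ∈ G, (r / (25 * 512 ^ 4)) ^ S.card ≤ 1 / 2)
    (N : ℕ) (hN : 1 ≤ N) (p : ℝ)
    (hp0 : 0 < p) (hp1 : p < 1) (D : Finset (Finset (Fin N)))
    (hD : 1 - 1 / 2 ^ 75 ≤ ∑ S ∈ D, p ^ S.card * (1 - p) ^ (N - S.card)) :
    ∃ G : Finset (Finset (Fin N)),
      (∀ S : Finset (Fin N),
        (∀ f : Fin (2 ^ 75) → Finset (Fin N), (∀ i, f i ∈ D) → ¬ S ⊆ Finset.univ.biUnion f) →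
          ∃ I ∈ G, I ⊆ S) ∧
      ∑ I ∈ G, p ^ I.card ≤ 1 / 2 := by
  classical
  have hp1' : 0 ≤ 1 - p := by linarith
  -- the down-closure
  have hD' : 1 - 1 / 2 ^ 75 ≤ ∑ S ∈ dn D, p ^ S.card * (1 - p) ^ (N - S.card) :=
    hD.trans (Finset.sum_le_sum_of_subset_of_nonneg (subset_dn D)
      (fun S _ _ => mul_nonneg (pow_nonneg hp0.le _) (pow_nonneg hp1' _)))
  have hDne : D.Nonempty := by
    by_contra h
    rw [Finset.not_nonempty_iff_eq_empty] at h
    rw [h, Finset.sum_empty] at hD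
    norm_num at hD
  have hdne : (dn D).Nonempty := hDne.mono (subset_dn D)
  obtain ⟨M, hM⟩ : ∃ M : ℕ, M = 25 * 2 ^ 36 := ⟨_, rfl⟩
  have hM0 : (0 : ℝ) < M := by rw [hM]; norm_num
  have hMK : M + 1 ≤ 2 ^ 75 := by rw [hM]; norm_num
  have hm1 : 1 ≤ M + 1 := by omega
  have hmR : (0 : ℝ) < ((M + 1 : ℕ) : ℝ) := by positivity
  have hmcast : ((M + 1 : ℕ) : ℝ) = (M : ℝ) + 1 := by push_cast; ring
  -- the bad family
  set Q : Finset (Fin N) → Prop := fun S =>
    ∀ f : Fin (2 ^ 75) → Finset (Fin N), (∀ i, f i ∈ D) → ¬ S ⊆ Finset.univ.biUnion f with hQ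
  set F : Finset (Finset (Fin N)) := Finset.univ.filter Q with hF
  have hup : ∀ A ∈ F, ∀ B : Finset (Fin N), A ⊆ B → B ∈ F := by
    intro A hA B hAB
    simp only [hF, mem_filter, mem_univ, true_and, hQ] at hA ⊢
    intro f hf hB
    exact hA f hf (hAB.trans hB)
  have hempty : ∅ ∉ F := by
    intro h
    simp only [hF, mem_filter, mem_univ, true_and, hQ] at h
    obtain ⟨A, hA⟩ := hDne
    exact h (fun _ => A) (fun _ => hA) (Finset.empty_subset _)
  have hcol : ∀ H ∈ F, ∑ S ∈ (dn D).filter (· ⊆ H),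
      (1 / ((M + 1 : ℕ) : ℝ)) ^ S.card * (1 - 1 / ((M + 1 : ℕ) : ℝ)) ^ (H.card - S.card) ≤
      1 - 1 / ((M + 1 : ℕ) : ℝ) := by
    intro H hH
    apply Crest.HS72.color_bound N (M + 1) hm1 (dn D) H
    simp only [hF, mem_filter, mem_univ, true_and, hQ] at hH
    exact fewer hm1 hMK D H hH
  by_cases hFne : F.Nonempty
  swap
  · refine ⟨∅, ?_, by simp⟩
    intro S hS
    exfalso
    apply hFne
    exact ⟨S, by simp only [hF, mem_filter, mem_univ, true_and]; exact hS⟩
  -- `M p ≤ 1`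
  have hMp : (M : ℝ) * p ≤ 1 := by
    by_contra hcon
    push Not at hcon
    have huniv : (Finset.univ : Finset (Fin N)) ∈ F := by
      obtain ⟨A, hA⟩ := hFne
      exact hup A hA _ (Finset.subset_univ _)
    have h1 := hcol _ huniv
    have h2 : (dn D).filter (· ⊆ (Finset.univ : Finset (Fin N))) = dn D := by
      apply Finset.filter_true_of_mem
      intro S _
      exact Finset.subset_univ _
    rw [h2, Finset.card_univ, Fintype.card_fin] at h1
    have h3 : 1 / ((M + 1 : ℕ) : ℝ) ≤ p := by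
      rw [div_le_iff₀ hmR, hmcast]
      nlinarith
    have h4 := Crest.HS72.mono_density N (dn D) (dn_down D) p (1 / ((M + 1 : ℕ) : ℝ))
      (by positivity) h3 hp1.le
    have h5 : (1 : ℝ) - 1 / 2 ^ 75 ≤ 1 - 1 / ((M + 1 : ℕ) : ℝ) := (hD'.trans h4).trans h1
    rw [hM] at h5
    norm_num at h5
  -- the certificate
  obtain ⟨hPpos, c, hc0, hcE, hcτ, hct⟩ := Crest.TG.od_cert (dn D) (dn_down D) hdne
    (fun _ => p) (fun _ => hp0.le)
  set P : ℝ := ∑ X ∈ dn D, Crest.TG.pr (fun _ => p) X with hP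
  have hpr : ∀ X : Finset (Fin N), Crest.TG.pr (fun _ => p) X =
      (p / (1 + p)) ^ X.card * (1 - p / (1 + p)) ^ (N - X.card) := by
    intro X
    have h := pr_ind (Finset.univ : Finset (Fin N)) X p hp0.le
    simp only [Finset.mem_univ, if_true, Finset.subset_univ, Finset.card_univ,
      Fintype.card_fin] at h
    exact h
  have hPge : 1 - 1 / 2 ^ 75 ≤ P := by
    rw [hP, Finset.sum_congr rfl (fun X _ => hpr X)]
    refine hD'.trans ?_
    apply Crest.HS72.mono_density N (dn D) (dn_down D) p (p / (1 + p)) (by positivity) _ hp1.le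
    rw [div_le_iff₀ (by linarith)]
    nlinarith
  have hprodτ : ∀ S : Finset (Fin N), ∏ _i ∈ S, p = p ^ S.card := by
    intro S; simp
  have hsumτ : ∑ S : Finset (Fin N), c S * p ^ S.card = 1 / P := by
    rw [eq_div_iff hPpos.ne']
    rw [← hcτ]
    simp
  -- the fractional cover
  set g : Finset (Fin N) → ℝ := fun S =>
    if S = ∅ then 0 else min 1 (((M + 1 : ℕ) : ℝ) * (c S * (1 / (M : ℝ)) ^ S.card)) with hg
  have hgpos : ∀ S : Finset (Fin N), 0 ≤ ((M + 1 : ℕ) : ℝ) * (c S * (1 / (M : ℝ)) ^ S.card) :=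
    fun S => mul_nonneg hmR.le (mul_nonneg (hc0 S) (by positivity))
  have hg01 : ∀ S, 0 ≤ g S ∧ g S ≤ 1 := by
    intro S
    simp only [hg]
    split_ifs
    · exact ⟨le_refl _, zero_le_one⟩
    · exact ⟨le_min zero_le_one (hgpos S), min_le_left _ _⟩
  have hgcov : ∀ H ∈ F, 1 ≤ ∑ S ∈ H.powerset, g S := by
    intro H hH
    by_cases hex : ∃ S ∈ H.powerset, S ≠ ∅ ∧
        1 ≤ ((M + 1 : ℕ) : ℝ) * (c S * (1 / (M : ℝ)) ^ S.card)
    · obtain ⟨S, hS, hSne, h1⟩ := hex
      have h2 : g S = 1 := by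
        simp only [hg, if_neg hSne]
        exact min_eq_left h1
      calc (1 : ℝ) = g S := h2.symm
        _ ≤ _ := Finset.single_le_sum (f := g) (fun T _ => (hg01 T).1) hS
    · push Not at hex
      have hgeq : ∀ S ∈ H.powerset, g S =
          ((M + 1 : ℕ) : ℝ) * (if S = ∅ then 0 else c S * (1 / (M : ℝ)) ^ S.card) := by
        intro S hS
        by_cases hSne : S = ∅
        · simp [hg, hSne]
        · simp only [hg, if_neg hSne]
          exact min_eq_right (hex S hS (Finset.nonempty_iff_ne_empty.mpr hSne)).le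
      rw [Finset.sum_congr rfl hgeq, ← Finset.mul_sum]
      have hcH := hct (fun i => if i ∈ H then (1 / (M : ℝ)) else 0)
        (fun i => by split_ifs <;> positivity)
      have hu : (1 / (M : ℝ)) / (1 + 1 / (M : ℝ)) = 1 / ((M + 1 : ℕ) : ℝ) := by
        rw [hmcast]; field_simp
      have hPH : ∑ X ∈ dn D, Crest.TG.pr (fun i => if i ∈ H then (1 / (M : ℝ)) else 0) X
          ≤ 1 - 1 / ((M + 1 : ℕ) : ℝ) := by
        refine le_trans (le_of_eq ?_) (hcol H hH)
        rw [Finset.sum_filter]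
        apply Finset.sum_congr rfl
        intro X _
        rw [pr_ind H X _ (by positivity), hu]
      have hsum : ∑ S : Finset (Fin N), c S * ∏ i ∈ S, (if i ∈ H then (1 / (M : ℝ)) else 0)
          = ∑ S ∈ H.powerset, c S * (1 / (M : ℝ)) ^ S.card := by
        rw [← Finset.sum_subset (Finset.subset_univ H.powerset)]
        · apply Finset.sum_congr rfl
          intro S hS
          rw [prod_ind, if_pos (Finset.mem_powerset.mp hS)]
        · intro S _ hS
          rw [prod_ind, if_neg (fun h => hS (Finset.mem_powerset.mpr h)), mul_zero]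
      rw [hsum] at hcH
      set T : ℝ := ∑ S ∈ H.powerset, c S * (1 / (M : ℝ)) ^ S.card with hT
      have hTnn : 0 ≤ T := Finset.sum_nonneg fun S _ => mul_nonneg (hc0 S) (by positivity)
      have hsplit : T = 1 + ∑ S ∈ H.powerset,
          (if S = ∅ then 0 else c S * (1 / (M : ℝ)) ^ S.card) := by
        rw [hT]
        have : ∀ S ∈ H.powerset, c S * (1 / (M : ℝ)) ^ S.card =
            (if S = ∅ then 1 else 0) +
              (if S = ∅ then 0 else c S * (1 / (M : ℝ)) ^ S.card) := by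
          intro S _
          by_cases hSe : S = ∅
          · simp [hSe, hcE]
          · simp [hSe]
        rw [Finset.sum_congr rfl this, Finset.sum_add_distrib]
        congr 1
        rw [Finset.sum_ite_eq' H.powerset ∅ (fun _ => (1 : ℝ))]
        simp
      have h6 : 1 ≤ (1 - 1 / ((M + 1 : ℕ) : ℝ)) * T :=
        hcH.trans (mul_le_mul_of_nonneg_right hPH hTnn)
      have h7 : (1 - 1 / ((M + 1 : ℕ) : ℝ)) = (M : ℝ) / ((M + 1 : ℕ) : ℝ) := by
        rw [hmcast]; field_simp; ring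
      rw [h7, div_mul_eq_mul_div, le_div_iff₀ hmR, one_mul] at h6
      set U : ℝ := ∑ S ∈ H.powerset, (if S = ∅ then 0 else c S * (1 / (M : ℝ)) ^ S.card) with hU
      have hUnn : 0 ≤ U := Finset.sum_nonneg fun S _ => by
        split_ifs
        · exact le_refl _
        · exact mul_nonneg (hc0 S) (by positivity)
      rw [hsplit] at h6
      rw [hmcast] at h6 ⊢
      nlinarith
  have hgcost : ∑ S : Finset (Fin N), g S * ((M : ℝ) * p) ^ S.card ≤ 1 / 2 := by
    have h1 : ∀ S : Finset (Fin N), g S * ((M : ℝ) * p) ^ S.card ≤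
        ((M + 1 : ℕ) : ℝ) * (c S * p ^ S.card - if S = ∅ then 1 else 0) := by
      intro S
      by_cases hSe : S = ∅
      · simp [hg, hSe, hcE]
      · simp only [hg, if_neg hSe, sub_zero]
        calc min 1 (((M + 1 : ℕ) : ℝ) * (c S * (1 / (M : ℝ)) ^ S.card)) * ((M : ℝ) * p) ^ S.card
            ≤ (((M + 1 : ℕ) : ℝ) * (c S * (1 / (M : ℝ)) ^ S.card)) * ((M : ℝ) * p) ^ S.card :=
              mul_le_mul_of_nonneg_right (min_le_right _ _) (by positivity)
          _ = ((M + 1 : ℕ) : ℝ) * (c S * p ^ S.card) := by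
              rw [mul_pow, div_pow, one_pow]
              field_simp
    refine (Finset.sum_le_sum fun S _ => h1 S).trans ?_
    rw [← Finset.mul_sum, Finset.sum_sub_distrib, hsumτ]
    have h2 : ∑ S : Finset (Fin N), (if S = ∅ then (1 : ℝ) else 0) = 1 := by
      rw [Finset.sum_ite_eq' Finset.univ ∅ (fun _ => (1 : ℝ))]
      simp
    rw [h2]
    have h3 : (1 / P : ℝ) ≤ 1 / (1 - 1 / 2 ^ 75) :=
      one_div_le_one_div_of_le (by norm_num) hPge
    have h4 : ((M + 1 : ℕ) : ℝ) * (1 / P - 1) ≤ ((M + 1 : ℕ) : ℝ) * (1 / (1 - 1 / 2 ^ 75) - 1) :=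
      mul_le_mul_of_nonneg_left (by linarith) hmR.le
    refine h4.trans ?_
    rw [hM]
    norm_num
  have : Nonempty (Fin N) := ⟨⟨0, hN⟩⟩
  obtain ⟨G, hG1, hG2⟩ := h71 (Fin N) F hFne hempty hup ((M : ℝ) * p) (by positivity) hMp g hg01
    hgcov hgcost
  refine ⟨G, ?_, ?_⟩
  · intro S hS
    exact hG1 S (by simp only [hF, mem_filter, mem_univ, true_and]; exact hS)
  · have h8 : (M : ℝ) * p / (25 * 512 ^ 4) = p := by
      rw [hM]
      push_cast
      field_simp
      norm_num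
    rw [h8] at hG2
    exact hG2

end Crest.TG72
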