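import Mathlib

/-! S0073, hub classes: the abstract depth-one statement `AD` (no graphs). Both routes (net / flow)
deliver `AD`; `TG55_Gamma` turns `AD` into GAMMA. -/

set_option autoImplicit false

namespace Crest.TG55
open Finset

/-- `1/m`-thinning of `Y v` (law on `Finset J`) -/
noncomputable def lam {J V : Type} [DecidableEq J] (m : ℕ) (Y : V → Finset J) (v : V)
    (T : Finset J) : ℝ :=
  if T ⊆ Y v then (1 / (m : ℝ)) ^ T.card * (1 - 1 / (m : ℝ)) ^ ((Y v).card - T.card) else 0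

/-- law of a `P`-random subset of `J` -/
noncomputable def mu {J : Type} [Fintype J] (P : ℝ) (R : Finset J) : ℝ :=
  P ^ R.card * (1 - P) ^ (Fintype.card J - R.card)

/-- the abstract depth one statement -/
def AD : Prop :=
  ∃ (m : ℕ) (L0 : ℝ) (n0 : ℕ), 2 ≤ m ∧ 2 ≤ L0 ∧ ∀ n : ℕ, n0 ≤ n →
    ∀ (J V : Type) [Fintype J] [DecidableEq J] [Fintype V] [DecidableEq V]
      (Y : V → Finset J) (q : ℝ) (D b : ℕ), 0 < q → L0 * q < 1 →
      (Fintype.card J : ℝ) ≤ (n : ℝ) ^ ((1 : ℝ) / 10) →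
      (∀ v, (Y v).card ≤ D) → (n : ℝ) ^ (-((1 : ℝ) / 100)) ≤ q ^ D →
      64 * Fintype.card V ≤ n →
      (∀ S : Finset J, S.Nonempty →
        ((univ.filter (fun v => S ⊆ Y v)).card : ℝ) ≤ 20 * n * q ^ S.card) →
      n ≤ 2 * b → b ≤ n →
      ∀ (Q : (V → Finset J) → (Fin b → Finset J) → Prop) [∀ τ ρ, Decidable (Q τ ρ)],
      (∀ τ ρ, (∃ g : V → Fin b, Function.Injective g ∧ ∀ v, τ v ⊆ ρ (g v)) → Q τ ρ) →
      1 - 1 / (2 * (m : ℝ)) ≤
        ∑ τ : V → Finset J, ∑ ρ : Fin b → Finset J,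
          (∏ v, lam m Y v (τ v)) * (∏ w, mu (L0 * q) (ρ w)) * (if Q τ ρ then 1 else 0)

end Crest.TG55
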