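import Mathlib

set_option autoImplicit false
set_option linter.unusedSectionVars false

namespace Crest.TG77

open Finset

variable {J : Type*} [Fintype J] [DecidableEq J]

/-- Bernoulli weight of a set. -/
noncomputable def wt (p : ℝ) (R : Finset J) : ℝ :=
  p ^ R.card * (1 - p) ^ (Fintype.card J - R.card)

theorem wt_nonneg {p : ℝ} (hp : 0 ≤ p) (hp1 : p ≤ 1) (R : Finset J) : 0 ≤ wt p R :=
  mul_nonneg (pow_nonneg hp _) (pow_nonneg (by linarith) _)

theorem sum_wt (p : ℝ) : ∑ R : Finset J, wt p R = 1 := by
  have h := Finset.sum_pow_mul_eq_add_pow p (1 - p) (Finset.univ : Finset J)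
  rw [Finset.powerset_univ] at h
  unfold wt
  rw [show (Fintype.card J) = (Finset.univ : Finset J).card from rfl, h]
  simp

theorem wt_insert (p : ℝ) (a : J) (R : Finset J) (ha : a ∉ R) :
    p * (wt p R + wt p (insert a R)) = wt p (insert a R) := by
  have h1 : (insert a R).card = R.card + 1 := Finset.card_insert_of_notMem ha
  have h2 : (insert a R).card ≤ Fintype.card J := Finset.card_le_univ _
  obtain ⟨k, hk⟩ : ∃ k, Fintype.card J = R.card + 1 + k :=
    ⟨Fintype.card J - (R.card + 1), by omega⟩
  unfold wt
  rw [h1, hk]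
  have e1 : R.card + 1 + k - R.card = k + 1 := by omega
  have e2 : R.card + 1 + k - (R.card + 1) = k := by omega
  rw [e1, e2]
  ring

theorem sum_split (a : J) (F : Finset J → ℝ) :
    ∑ R : Finset J, F R
      = ∑ t ∈ (Finset.univ.erase a).powerset, (F t + F (insert a t)) := by
  have h : (Finset.univ : Finset (Finset J)) = (insert a (Finset.univ.erase a)).powerset := by
    rw [Finset.insert_erase (Finset.mem_univ a), Finset.powerset_univ]
  rw [h, Finset.sum_powerset_insert (Finset.notMem_erase a _), Finset.sum_add_distrib]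

theorem cone_one (p : ℝ) (a : J) (g : Finset J → ℝ) :
    ∑ R : Finset J, wt p R * (if a ∈ R then g R else 0)
      = p * ∑ R : Finset J, wt p R * g (insert a R) := by
  rw [sum_split a, sum_split a (fun R => wt p R * g (insert a R)), Finset.mul_sum]
  apply Finset.sum_congr rfl
  intro t ht
  have hat : a ∉ t := by
    intro h
    exact absurd (Finset.mem_powerset.mp ht h) (Finset.notMem_erase a _)
  rw [if_neg hat, if_pos (Finset.mem_insert_self a t)]
  rw [Finset.insert_idem]
  have := wt_insert p a t hat
  calc wt p t * 0 + wt p (insert a t) * g (insert a t)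
      = (p * (wt p t + wt p (insert a t))) * g (insert a t) := by rw [this]; ring
    _ = _ := by ring

/-- Conditioning on a cone. -/
theorem cone (p : ℝ) (A : Finset J) (f : Finset J → ℝ) :
    ∑ R : Finset J, wt p R * (if A ⊆ R then f R else 0)
      = p ^ A.card * ∑ R : Finset J, wt p R * f (R ∪ A) := by
  induction A using Finset.induction_on generalizing f with
  | empty => simp
  | insert a A ha ih =>
    rw [Finset.card_insert_of_notMem ha]
    have h1 : ∀ R : Finset J, (if insert a A ⊆ R then f R else 0)
        = (if a ∈ R then (if A ⊆ R then f R else 0) else 0) := by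
      intro R
      by_cases h : a ∈ R <;> by_cases h' : A ⊆ R <;> simp [Finset.insert_subset_iff, h, h']
    simp only [h1]
    rw [cone_one p a (fun R => if A ⊆ R then f R else 0)]
    have h2 : ∀ R : Finset J, (if A ⊆ insert a R then f (insert a R) else 0)
        = (if A ⊆ R then f (insert a R) else 0) := by
      intro R
      have : A ⊆ insert a R ↔ A ⊆ R := by
        constructor
        · intro h x hx
          rcases Finset.mem_insert.mp (h hx) with h' | h'
          · exact absurd (h' ▸ hx) ha
          · exact h'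
        · intro h
          exact h.trans (Finset.subset_insert a R)
      simp only [this]
    simp only [h2]
    rw [ih (fun R => f (insert a R))]
    have h3 : ∀ R : Finset J, insert a (R ∪ A) = R ∪ insert a A := by
      intro R
      rw [Finset.union_insert]
    simp only [h3]
    ring

/-- Measure of the up-closure of the family `A w, w ∈ T`. -/
noncomputable def muU {ι : Type*} (p : ℝ) (A : ι → Finset J) (T : Finset ι) : ℝ :=
  ∑ R : Finset J, wt p R * (if ∃ w ∈ T, A w ⊆ R then 1 else 0)

theorem muU_le_one {ι : Type*} {p : ℝ} (hp : 0 ≤ p) (hp1 : p ≤ 1) (A : ι → Finset J)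
    (T : Finset ι) : muU p A T ≤ 1 := by
  rw [← sum_wt (J := J) p]
  unfold muU
  apply Finset.sum_le_sum
  intro R _
  have := wt_nonneg hp hp1 R
  split_ifs <;> linarith

/-- NET LEMMA (net version of Hall's condition). -/
theorem net {ι : Type*} [DecidableEq ι] (p β : ℝ) (hp : 0 < p) (hp1 : p ≤ 1) (hβ : 0 < β)
    (D : ℕ) (hD : 2 * β ≤ p ^ D) (T : Finset ι) (A : ι → Finset J)
    (hA : ∀ v ∈ T, (A v).card ≤ D) :
    ∃ T' ⊆ T, (T'.card : ℝ) * β ≤ 1 ∧ (T.Nonempty → T'.Nonempty) ∧
      ∀ v ∈ T, 1 / 2 ≤ ∑ R : Finset J,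
        wt p R * (if ∃ w ∈ T', A w ⊆ R ∪ A v then 1 else 0) := by
  obtain ⟨T', hT', hmax⟩ := Finset.exists_max_image T.powerset
    (fun S => muU p A S - β * S.card) ⟨∅, Finset.empty_mem_powerset T⟩
  have hsub : T' ⊆ T := Finset.mem_powerset.mp hT'
  have h0 : muU p A (∅ : Finset ι) = 0 := by simp [muU]
  have hF0 : 0 ≤ muU p A T' - β * T'.card := by
    have := hmax ∅ (Finset.empty_mem_powerset T)
    simp only [h0, Finset.card_empty, Nat.cast_zero, mul_zero, sub_zero] at this
    exact this
  refine ⟨T', hsub, ?_, ?_, ?_⟩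
  · have := muU_le_one hp.le hp1 A T'
    nlinarith [mul_comm β (T'.card : ℝ)]
  · rintro ⟨v, hv⟩
    by_contra hne
    rw [Finset.not_nonempty_iff_eq_empty] at hne
    subst hne
    have h1 := hmax {v} (Finset.mem_powerset.mpr (Finset.singleton_subset_iff.mpr hv))
    have h2 : muU p A {v} = p ^ (A v).card := by
      have := cone p (A v) (fun _ => (1 : ℝ))
      simp only [mul_one] at this
      rw [sum_wt, mul_one] at this
      rw [← this]
      unfold muU
      apply Finset.sum_congr rfl
      intro R _
      simp
    have h3 : p ^ D ≤ p ^ (A v).card := pow_le_pow_of_le_one hp.le hp1 (hA v hv)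
    simp only [h0, h2, Finset.card_empty, Nat.cast_zero, mul_zero, sub_zero,
      Finset.card_singleton, Nat.cast_one, mul_one] at h1
    linarith
  · intro v hv
    have h1 := hmax (insert v T')
      (Finset.mem_powerset.mpr (Finset.insert_subset hv hsub))
    have hcard : ((insert v T').card : ℝ) ≤ T'.card + 1 := by
      exact_mod_cast Finset.card_insert_le v T'
    have h2 : muU p A (insert v T') - muU p A T' ≤ β := by
      nlinarith
    -- the cone outside the up-closure
    have h3 : ∑ R : Finset J, wt p R * (if A v ⊆ R then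
        (if ∃ w ∈ T', A w ⊆ R then 0 else 1) else 0)
        = muU p A (insert v T') - muU p A T' := by
      unfold muU
      rw [← Finset.sum_sub_distrib]
      apply Finset.sum_congr rfl
      intro R _
      have e : (∃ w ∈ insert v T', A w ⊆ R) ↔ (A v ⊆ R ∨ ∃ w ∈ T', A w ⊆ R) := by
        simp
      by_cases ha : A v ⊆ R <;> by_cases hb : ∃ w ∈ T', A w ⊆ R <;>
        simp only [e, ha, hb, true_or, or_true, or_false, false_or, if_true, if_false] <;> ring
    rw [cone p (A v) (fun R => if ∃ w ∈ T', A w ⊆ R then 0 else 1)] at h3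
    set X := ∑ R : Finset J, wt p R * (if ∃ w ∈ T', A w ⊆ R ∪ A v then (0:ℝ) else 1) with hX
    have hX0 : 0 ≤ X := Finset.sum_nonneg fun R _ => by
      have := wt_nonneg hp.le hp1 R
      split_ifs <;> simp [this]
    have h4 : p ^ (A v).card * X ≤ β := by rw [h3]; exact h2
    have h5 : p ^ D ≤ p ^ (A v).card := pow_le_pow_of_le_one hp.le hp1 (hA v hv)
    have h6 : X ≤ 1 / 2 := by
      by_contra hc
      push Not at hc
      have h7 : p ^ D * X ≤ β := le_trans (mul_le_mul_of_nonneg_right h5 hX0) h4
      have h8 : 2 * β * X ≤ p ^ D * X := mul_le_mul_of_nonneg_right hD hX0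
      nlinarith
    have h9 : (∑ R : Finset J, wt p R * (if ∃ w ∈ T', A w ⊆ R ∪ A v then (1:ℝ) else 0)) + X
        = ∑ R : Finset J, wt p R := by
      rw [hX, ← Finset.sum_add_distrib]
      apply Finset.sum_congr rfl
      intro R _
      split_ifs <;> ring
    rw [sum_wt] at h9
    linarith

end Crest.TG77
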