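import Mathlib

set_option autoImplicit false

namespace Crest.TG94

open Filter Topology Asymptotics

/-- (N1) -/
theorem ev_rpow_log_le {a b : ℝ} (hab : a < b) (C : ℝ) (m : ℕ) :
    ∀ᶠ n : ℕ in atTop, C * (n : ℝ) ^ a * (Real.log n) ^ m ≤ (n : ℝ) ^ b := by
  have hs : 0 < b - a := by linarith
  have h1 := isLittleO_log_rpow_rpow_atTop (m : ℝ) hs
  have hC : (0 : ℝ) < 1 / (|C| + 1) := by positivity
  have h2 := h1.def hC
  have h3 := (tendsto_natCast_atTop_atTop (R := ℝ)).eventually h2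
  filter_upwards [h3, eventually_ge_atTop 1] with n hn hn1
  have hn0 : (0 : ℝ) < n := by exact_mod_cast hn1
  have hlog : 0 ≤ Real.log n := Real.log_natCast_nonneg n
  rw [Real.rpow_natCast] at hn
  rw [Real.norm_of_nonneg (by positivity), Real.norm_of_nonneg (by positivity)] at hn
  have e1 : (n : ℝ) ^ b = (n : ℝ) ^ a * (n : ℝ) ^ (b - a) := by
    rw [← Real.rpow_add hn0]; congr 1; ring
  rw [e1]
  have e2 : C * (n : ℝ) ^ a * (Real.log n) ^ m ≤ (n : ℝ) ^ a * ((|C| + 1) * (Real.log n) ^ m) := by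
    have : C ≤ |C| + 1 := by linarith [le_abs_self C]
    have h5 : 0 ≤ (n : ℝ) ^ a * (Real.log n) ^ m := by positivity
    nlinarith
  refine e2.trans (mul_le_mul_of_nonneg_left ?_ (by positivity))
  have : (|C| + 1) * (Real.log n) ^ m ≤ (|C| + 1) * (1 / (|C| + 1) * (n : ℝ) ^ (b - a)) :=
    mul_le_mul_of_nonneg_left hn (by positivity)
  refine this.trans (le_of_eq ?_)
  field_simp

/-- (N3) -/
theorem ev_exp_le {a b : ℝ} (hab : a < b) (hb : 0 < b) (A : ℝ) {c ε : ℝ} (hc : 0 < c)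
    (hε : 0 < ε) :
    ∀ᶠ n : ℕ in atTop,
      Real.exp (A * (n : ℝ) ^ a * Real.log n - c * (n : ℝ) ^ b) ≤ ε := by
  have h1 := ev_rpow_log_le hab (2 * A / c) 1
  have h2 : Tendsto (fun n : ℕ => (n : ℝ) ^ b) atTop atTop :=
    (tendsto_rpow_atTop hb).comp tendsto_natCast_atTop_atTop
  have h3 := h2.eventually_ge_atTop (2 / c * |Real.log ε|)
  filter_upwards [h1, h3] with n hn1 hn3
  rw [pow_one] at hn1
  have e1 : A * (n : ℝ) ^ a * Real.log n ≤ c / 2 * (n : ℝ) ^ b := by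
    have : c / 2 * (2 * A / c * (n : ℝ) ^ a * Real.log n) ≤ c / 2 * (n : ℝ) ^ b :=
      mul_le_mul_of_nonneg_left hn1 (by positivity)
    refine le_trans (le_of_eq ?_) this
    field_simp
  have e2 : |Real.log ε| ≤ c / 2 * (n : ℝ) ^ b := by
    have : c / 2 * (2 / c * |Real.log ε|) ≤ c / 2 * (n : ℝ) ^ b :=
      mul_le_mul_of_nonneg_left hn3 (by positivity)
    refine le_trans (le_of_eq ?_) this
    field_simp
  rw [← Real.le_log_iff_exp_le hε]
  have := neg_abs_le (Real.log ε)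
  linarith

/-- (N2) -/
theorem ev_pow_exp_le {a c ε : ℝ} (ha : 0 < a) (hc : 0 < c) (hε : 0 < ε) (m : ℕ) :
    ∀ᶠ n : ℕ in atTop, (n : ℝ) ^ m * Real.exp (-(c * (n : ℝ) ^ a)) ≤ ε := by
  have h := ev_exp_le (a := 0) (b := a) ha ha (m : ℝ) hc hε
  filter_upwards [h, eventually_ge_atTop 1] with n hn hn1
  have hn0 : (0 : ℝ) < n := by exact_mod_cast hn1
  refine le_trans (le_of_eq ?_) hn
  rw [Real.rpow_zero, sub_eq_add_neg, Real.exp_add]
  congr 1
  rw [mul_one, mul_comm, ← Real.rpow_natCast, Real.rpow_def_of_pos hn0]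

/-- constants are eventually below positive powers -/
theorem ev_const_le {a : ℝ} (ha : 0 < a) (C : ℝ) : ∀ᶠ n : ℕ in atTop, C ≤ (n : ℝ) ^ a :=
  ((tendsto_rpow_atTop ha).comp tendsto_natCast_atTop_atTop).eventually_ge_atTop C

/-- a threshold from an eventual statement -/
theorem exists_threshold {P : ℕ → Prop} (h : ∀ᶠ n in atTop, P n) (m : ℕ) :
    ∃ n0 : ℕ, m ≤ n0 ∧ ∀ n, n0 ≤ n → P n := by
  obtain ⟨N, hN⟩ := eventually_atTop.1 h
  exact ⟨max N m, le_max_right _ _, fun n hn => hN n ((le_max_left _ _).trans hn)⟩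

/-- (N4): if `q ≥ n^(-1/B)`, `b = log n / log (1/q)`, and `D ≤ a * b`, then `q^D ≥ n^(-a)`. -/
theorem pow_ge_of_le {n : ℕ} {q a : ℝ} {D : ℕ} (hn : 1 ≤ n) (hq0 : 0 < q) (hq1 : q < 1)
    (hD : (D : ℝ) ≤ a * (Real.log n / Real.log (1 / q))) :
    (n : ℝ) ^ (-a) ≤ q ^ D := by
  have hn0 : (0 : ℝ) < n := by exact_mod_cast hn
  have hl : 0 < Real.log (1 / q) := Real.log_pos (by rw [lt_div_iff₀ hq0]; linarith)
  have e1 : Real.log (1 / q) = -Real.log q := by rw [one_div, Real.log_inv]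
  rw [← Real.log_le_log_iff (by positivity) (by positivity), Real.log_rpow hn0, Real.log_pow]
  have : (D : ℝ) * Real.log (1 / q) ≤ a * Real.log n := by
    have h1 := mul_le_mul_of_nonneg_right hD hl.le
    refine h1.trans (le_of_eq ?_)
    field_simp
  rw [e1] at this
  linarith

/-- `(1 - x)^T ≤ exp (-(x T))`. -/
theorem one_sub_pow_le {x : ℝ} (hx1 : x ≤ 1) (T : ℕ) : (1 - x) ^ T ≤ Real.exp (-(x * T)) := by
  have h := Real.one_sub_le_exp_neg x
  calc (1 - x) ^ T ≤ (Real.exp (-x)) ^ T := pow_le_pow_left₀ (by linarith) h T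
    _ = Real.exp (-(x * T)) := by rw [← Real.exp_nat_mul]; congr 1; ring

end Crest.TG94
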