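import Mathlib

set_option autoImplicit false

namespace Crest.TG.Fp

open Finset Classical

variable {J : Type*} [Fintype J] [DecidableEq J]

/-- the row `R` contains a member of `S` -/
def Up (S : Finset (Finset J)) (R : Finset J) : Prop := ∃ A ∈ S, A ⊆ R

/-- measure of `Up S` -/
noncomputable def M (mu : Finset J → ℝ) (S : Finset (Finset J)) : ℝ :=
  ∑ R, mu R * (if Up S R then 1 else 0)

/-- measure of `{R : Up S (A ∪ R)}` -/
noncomputable def G (mu : Finset J → ℝ) (S : Finset (Finset J)) (A : Finset J) : ℝ :=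
  ∑ R, mu R * (if Up S (A ∪ R) then 1 else 0)

lemma M_le_one (mu : Finset J → ℝ) (h0 : ∀ R, 0 ≤ mu R) (h1 : ∑ R, mu R = 1)
    (S : Finset (Finset J)) : M mu S ≤ 1 := by
  rw [← h1]
  refine sum_le_sum fun R _ => ?_
  split_ifs
  · simp
  · simpa using h0 R

lemma G_self (mu : Finset J → ℝ) (h1 : ∑ R, mu R = 1)
    (S : Finset (Finset J)) (A : Finset J) (hA : A ∈ S) : G mu S A = 1 := by
  rw [← h1]
  refine sum_congr rfl fun R _ => ?_
  rw [if_pos ⟨A, hA, subset_union_left⟩, mul_one]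

lemma G_empty (mu : Finset J → ℝ) (A : Finset J) : G mu ∅ A = 0 := by
  refine sum_eq_zero fun R _ => ?_
  rw [if_neg (by rintro ⟨B, hB, _⟩; simp at hB), mul_zero]

/-- fingerprint -/
theorem fingerprint (mu : Finset J → ℝ) (h0 : ∀ R, 0 ≤ mu R) (h1 : ∑ R, mu R = 1)
    (p : ℝ) (hp : 0 < p) (F : Finset (Finset J))
    (hc : ∀ A ∈ F, ∀ S : Finset (Finset J), p * (1 - G mu S A) ≤
      ∑ R, mu R * (if A ⊆ R ∧ ¬ Up S R then 1 else 0)) :
    ∃ S ⊆ F, (S.card : ℝ) * (p / 2) ≤ 1 ∧ (∀ A ∈ F, 1 / 2 ≤ G mu S A) ∧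
      (F.Nonempty → S.Nonempty) := by
  classical
  have hne : (F.powerset.filter (fun S => (S.card : ℝ) * (p / 2) ≤ M mu S)).Nonempty := by
    refine ⟨∅, ?_⟩
    simp only [mem_filter, empty_mem_powerset, card_empty, Nat.cast_zero, zero_mul, true_and]
    refine sum_nonneg fun R _ => ?_
    split_ifs
    · simpa using h0 R
    · simp
  obtain ⟨S, hS, hmax⟩ := exists_max_image _ (fun S : Finset (Finset J) => S.card) hne
  rw [mem_filter, mem_powerset] at hS
  have key : ∀ A ∈ F, 1 / 2 ≤ G mu S A := by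
    intro A hA
    by_contra hlt
    push Not at hlt
    have hAS : A ∉ S := by
      intro h
      rw [G_self mu h1 S A h] at hlt
      norm_num at hlt
    have hins : (insert A S) ∈ F.powerset.filter (fun S => (S.card : ℝ) * (p / 2) ≤ M mu S) := by
      rw [mem_filter, mem_powerset]
      refine ⟨insert_subset hA hS.1, ?_⟩
      rw [card_insert_of_notMem hAS]
      have e1 : M mu (insert A S) = M mu S + ∑ R, mu R * (if A ⊆ R ∧ ¬ Up S R then 1 else 0) := by
        unfold M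
        rw [← sum_add_distrib]
        refine sum_congr rfl fun R _ => ?_
        rw [← mul_add]
        congr 1
        by_cases hU : Up S R
        · have : Up (insert A S) R := by
            obtain ⟨B, hB, hBR⟩ := hU
            exact ⟨B, mem_insert_of_mem hB, hBR⟩
          simp [hU, this]
        · by_cases hAR : A ⊆ R
          · have : Up (insert A S) R := ⟨A, mem_insert_self _ _, hAR⟩
            simp [hU, this, hAR]
          · have : ¬ Up (insert A S) R := by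
              rintro ⟨B, hB, hBR⟩
              rw [mem_insert] at hB
              rcases hB with rfl | hB
              · exact hAR hBR
              · exact hU ⟨B, hB, hBR⟩
            simp [hU, this, hAR]
      have e2 := hc A hA S
      have e3 : p / 2 ≤ p * (1 - G mu S A) := by nlinarith
      push_cast
      rw [e1]
      linarith [hS.2]
    have := hmax _ hins
    rw [card_insert_of_notMem hAS] at this
    omega
  refine ⟨S, hS.1, hS.2.trans (M_le_one mu h0 h1 S), key, ?_⟩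
  rintro ⟨A, hA⟩
  rw [nonempty_iff_ne_empty]
  rintro rfl
  have := key A hA
  rw [G_empty] at this
  norm_num at this

/-- moment generating function of a sum of independent indicators -/
theorem mgf {a : ℕ} {T : Type*} [Fintype T] (lam : Fin a → T → ℝ)
    (h0 : ∀ v t, 0 ≤ lam v t) (h1 : ∀ v, ∑ t, lam v t = 1)
    (P : Fin a → T → Prop) (θ : ℝ) :
    ∑ τ : Fin a → T, (∏ v, lam v (τ v)) *
      Real.exp (θ * ∑ v, (if P v (τ v) then (1:ℝ) else 0)) ≤
    Real.exp ((Real.exp θ - 1) * ∑ v, ∑ t, lam v t * (if P v t then 1 else 0)) := by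
  classical
  have e1 : ∀ τ : Fin a → T, (∏ v, lam v (τ v)) *
      Real.exp (θ * ∑ v, (if P v (τ v) then (1:ℝ) else 0)) =
      ∏ v, (lam v (τ v) * Real.exp (θ * (if P v (τ v) then (1:ℝ) else 0))) := by
    intro τ
    rw [prod_mul_distrib, mul_sum, Real.exp_sum]
  rw [sum_congr rfl fun τ _ => e1 τ]
  have e2 := Finset.prod_univ_sum (fun _ : Fin a => (Finset.univ : Finset T))
    (fun v t => lam v t * Real.exp (θ * (if P v t then (1:ℝ) else 0)))
  rw [Fintype.piFinset_univ] at e2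
  rw [← e2, mul_sum, Real.exp_sum]
  refine prod_le_prod (fun v _ => sum_nonneg fun t _ => mul_nonneg (h0 v t) (Real.exp_pos _).le)
    fun v _ => ?_
  have e3 : ∀ t, lam v t * Real.exp (θ * (if P v t then (1:ℝ) else 0)) =
      lam v t + (Real.exp θ - 1) * (lam v t * (if P v t then 1 else 0)) := by
    intro t
    split_ifs
    · rw [mul_one]; ring
    · simp
  rw [sum_congr rfl fun t _ => e3 t, sum_add_distrib, h1, ← mul_sum, add_comm]
  exact Real.add_one_le_exp _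

/-- upper tail -/
theorem upper {a : ℕ} {T : Type*} [Fintype T] (lam : Fin a → T → ℝ)
    (h0 : ∀ v t, 0 ≤ lam v t) (h1 : ∀ v, ∑ t, lam v t = 1)
    (P : Fin a → T → Prop) (c m : ℝ)
    (hm : ∑ v, ∑ t, lam v t * (if P v t then 1 else 0) ≤ m / 4) (hc : m ≤ c) (hm0 : 0 ≤ m) :
    ∑ τ : Fin a → T, (∏ v, lam v (τ v)) *
      (if c ≤ ∑ v, (if P v (τ v) then (1:ℝ) else 0) then 1 else 0) ≤ Real.exp (-(c / 2)) := by
  classical
  have g := mgf lam h0 h1 P 1
  have he : Real.exp 1 - 1 ≤ 2 := by have := Real.exp_one_lt_d9; linarith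
  have he0 : 0 ≤ Real.exp 1 - 1 := by have := Real.add_one_le_exp (1:ℝ); linarith
  have hs0 : 0 ≤ ∑ v, ∑ t, lam v t * (if P v t then (1:ℝ) else 0) :=
    sum_nonneg fun v _ => sum_nonneg fun t _ => mul_nonneg (h0 v t) (by split_ifs <;> norm_num)
  have g2 : Real.exp ((Real.exp 1 - 1) * ∑ v, ∑ t, lam v t * (if P v t then 1 else 0)) ≤
      Real.exp (c / 2) := by
    apply Real.exp_le_exp.2
    nlinarith
  have g3 : ∑ τ : Fin a → T, (∏ v, lam v (τ v)) *
      (if c ≤ ∑ v, (if P v (τ v) then (1:ℝ) else 0) then 1 else 0) ≤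
      ∑ τ : Fin a → T, Real.exp (-c) * ((∏ v, lam v (τ v)) *
        Real.exp (1 * ∑ v, (if P v (τ v) then (1:ℝ) else 0))) := by
    refine sum_le_sum fun τ _ => ?_
    have hw : 0 ≤ ∏ v, lam v (τ v) := prod_nonneg fun v _ => h0 _ _
    have : (if c ≤ ∑ v, (if P v (τ v) then (1:ℝ) else 0) then (1:ℝ) else 0) ≤
        Real.exp (-c) * Real.exp (1 * ∑ v, (if P v (τ v) then (1:ℝ) else 0)) := by
      rw [← Real.exp_add]
      split_ifs with h
      · apply Real.one_le_exp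
        linarith
      · exact (Real.exp_pos _).le
    calc _ ≤ (∏ v, lam v (τ v)) * (Real.exp (-c) *
            Real.exp (1 * ∑ v, (if P v (τ v) then (1:ℝ) else 0))) :=
          mul_le_mul_of_nonneg_left this hw
      _ = _ := by ring
  rw [← mul_sum] at g3
  calc _ ≤ _ := g3
    _ ≤ Real.exp (-c) * Real.exp (c / 2) :=
        mul_le_mul_of_nonneg_left (g.trans g2) (Real.exp_pos _).le
    _ = Real.exp (-(c / 2)) := by rw [← Real.exp_add]; ring_nf

/-- lower tail -/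
theorem lower {b : ℕ} {T : Type*} [Fintype T] (lam : Fin b → T → ℝ)
    (h0 : ∀ v t, 0 ≤ lam v t) (h1 : ∀ v, ∑ t, lam v t = 1)
    (P : Fin b → T → Prop) (m : ℝ)
    (hm : m ≤ ∑ v, ∑ t, lam v t * (if P v t then 1 else 0)) (hm0 : 0 ≤ m) :
    ∑ τ : Fin b → T, (∏ v, lam v (τ v)) *
      (if ∑ v, (if P v (τ v) then (1:ℝ) else 0) ≤ m / 4 then 1 else 0) ≤ Real.exp (-(m / 4)) := by
  classical
  have g := mgf lam h0 h1 P (-1)
  have he : Real.exp (-1) - 1 ≤ - (1/2) := by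
    have := Real.exp_neg_one_lt_d9
    linarith
  set s := ∑ v, ∑ t, lam v t * (if P v t then (1:ℝ) else 0) with hs
  have g2 : Real.exp ((Real.exp (-1) - 1) * s) ≤ Real.exp (-(m / 2)) := by
    apply Real.exp_le_exp.2
    nlinarith
  have g3 : ∑ τ : Fin b → T, (∏ v, lam v (τ v)) *
      (if ∑ v, (if P v (τ v) then (1:ℝ) else 0) ≤ m / 4 then 1 else 0) ≤
      ∑ τ : Fin b → T, Real.exp (m / 4) * ((∏ v, lam v (τ v)) *
        Real.exp (-1 * ∑ v, (if P v (τ v) then (1:ℝ) else 0))) := by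
    refine sum_le_sum fun τ _ => ?_
    have hw : 0 ≤ ∏ v, lam v (τ v) := prod_nonneg fun v _ => h0 _ _
    have : (if ∑ v, (if P v (τ v) then (1:ℝ) else 0) ≤ m / 4 then (1:ℝ) else 0) ≤
        Real.exp (m / 4) * Real.exp (-1 * ∑ v, (if P v (τ v) then (1:ℝ) else 0)) := by
      rw [← Real.exp_add]
      split_ifs with h
      · apply Real.one_le_exp
        linarith
      · exact (Real.exp_pos _).le
    calc _ ≤ (∏ v, lam v (τ v)) * (Real.exp (m / 4) *
            Real.exp (-1 * ∑ v, (if P v (τ v) then (1:ℝ) else 0))) :=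
          mul_le_mul_of_nonneg_left this hw
      _ = _ := by ring
  rw [← mul_sum] at g3
  calc _ ≤ _ := g3
    _ ≤ Real.exp (m / 4) * Real.exp (-(m / 2)) :=
        mul_le_mul_of_nonneg_left (g.trans g2) (Real.exp_pos _).le
    _ = Real.exp (-(m / 4)) := by rw [← Real.exp_add]; ring_nf


/-- deterministic part: if no small family is bad then Hall's condition holds -/
theorem det {a b : ℕ} (A : Fin a → Finset J) (Adm : Finset (Finset J)) (hAdm : ∀ v, A v ∈ Adm)
    (mu1 mu2 : Finset J → ℝ) (h01 : ∀ R, 0 ≤ mu1 R) (h11 : ∑ R, mu1 R = 1)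
    (p : ℝ) (hp : 0 < p) (K : ℕ) (hK : 2 / p ≤ K)
    (hc : ∀ A ∈ Adm, ∀ S : Finset (Finset J), p * (1 - G mu1 S A) ≤
      ∑ R, mu1 R * (if A ⊆ R ∧ ¬ Up S R then 1 else 0))
    (ρ : Fin b → Finset J)
    (hgood : ∀ S ⊆ Adm, S.Nonempty → S.card ≤ K →
      (∑ v, (if 1 / 2 ≤ G mu1 S (A v) then (1:ℝ) else 0)) < (b:ℝ) / 4 * M mu2 S ∧
      (b:ℝ) / 4 * M mu2 S < ∑ w, (if Up S (ρ w) then (1:ℝ) else 0)) :
    ∃ g : Fin a → Fin b, Function.Injective g ∧ ∀ v, A v ⊆ ρ (g v) := by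
  classical
  have hall := (Finset.all_card_le_biUnion_card_iff_exists_injective
    (fun v : Fin a => (univ.filter (fun w : Fin b => A v ⊆ ρ w)))).1 ?_
  · obtain ⟨g, hg, hg'⟩ := hall
    refine ⟨g, hg, fun v => ?_⟩
    have := hg' v
    rw [mem_filter] at this
    exact this.2
  intro s
  rcases s.eq_empty_or_nonempty with rfl | hs
  · simp
  obtain ⟨S, hSF, hScard, hSG, hSne⟩ := fingerprint mu1 h01 h11 p hp (s.image A)
    (fun B hB S => by
      rw [mem_image] at hB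
      obtain ⟨v, _, rfl⟩ := hB
      exact hc _ (hAdm v) S)
  have hSAdm : S ⊆ Adm := by
    intro B hB
    have := hSF hB
    rw [mem_image] at this
    obtain ⟨v, _, rfl⟩ := this
    exact hAdm v
  have hK' : S.card ≤ K := by
    have : (S.card : ℝ) ≤ 2 / p := by
      rw [le_div_iff₀ hp]
      linarith
    exact_mod_cast this.trans hK
  obtain ⟨g1, g2⟩ := hgood S hSAdm (hSne (hs.image A)) hK'
  have c1 : (s.card : ℝ) ≤ ∑ v, (if 1 / 2 ≤ G mu1 S (A v) then (1:ℝ) else 0) := by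
    rw [card_eq_sum_ones, Nat.cast_sum]
    have : ∑ v ∈ s, ((1:ℕ):ℝ) ≤ ∑ v ∈ s, (if 1 / 2 ≤ G mu1 S (A v) then (1:ℝ) else 0) := by
      refine sum_le_sum fun v hv => ?_
      rw [if_pos (hSG _ (mem_image_of_mem A hv))]
      simp
    refine this.trans (sum_le_univ_sum_of_nonneg fun v => ?_)
    split_ifs <;> norm_num
  have c2 : (∑ w, (if Up S (ρ w) then (1:ℝ) else 0)) ≤
      ((s.biUnion fun v => univ.filter (fun w : Fin b => A v ⊆ ρ w)).card : ℝ) := by
    rw [← Finset.sum_filter, sum_const, nsmul_eq_mul, mul_one]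
    have : (univ.filter (fun w => Up S (ρ w))) ⊆
        (s.biUnion fun v => univ.filter (fun w : Fin b => A v ⊆ ρ w)) := by
      intro w hw
      rw [mem_filter] at hw
      obtain ⟨B, hB, hBw⟩ := hw.2
      have := hSF hB
      rw [mem_image] at this
      obtain ⟨v, hv, rfl⟩ := this
      rw [mem_biUnion]
      exact ⟨v, hv, by rw [mem_filter]; exact ⟨mem_univ _, hBw⟩⟩
    exact_mod_cast card_le_card this
  have : (s.card : ℝ) < ((s.biUnion fun v => univ.filter (fun w : Fin b => A v ⊆ ρ w)).card : ℝ) := by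
    linarith
  exact_mod_cast this.le

/-- sum over all functions of a product weight -/
lemma sum_prod_one {a : ℕ} {T : Type*} [Fintype T] (lam : Fin a → T → ℝ)
    (h1 : ∀ v, ∑ t, lam v t = 1) : ∑ τ : Fin a → T, ∏ v, lam v (τ v) = 1 := by
  classical
  have e2 := Finset.prod_univ_sum (fun _ : Fin a => (Finset.univ : Finset T)) lam
  rw [Fintype.piFinset_univ] at e2
  rw [← e2]
  exact prod_eq_one fun v _ => h1 v

theorem quenched {a b : ℕ} {T : Type*} [Fintype T] (lam : Fin a → T → ℝ)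
    (h0 : ∀ v t, 0 ≤ lam v t) (h1 : ∀ v, ∑ t, lam v t = 1)
    (A : Fin a → T → Finset J) (Adm : Finset (Finset J)) (hAdm : ∀ v t, A v t ∈ Adm)
    (mu1 mu2 : Finset J → ℝ) (h01 : ∀ R, 0 ≤ mu1 R) (h11 : ∑ R, mu1 R = 1)
    (h02 : ∀ R, 0 ≤ mu2 R) (h12 : ∑ R, mu2 R = 1)
    (p : ℝ) (hp : 0 < p) (K : ℕ) (hK : 2 / p ≤ K)
    (hc : ∀ A ∈ Adm, ∀ S : Finset (Finset J), p * (1 - G mu1 S A) ≤
      ∑ R, mu1 R * (if A ⊆ R ∧ ¬ Up S R then 1 else 0))
    (hM : ∀ S ⊆ Adm, S.Nonempty → p ≤ M mu2 S)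
    (H : ∀ S ⊆ Adm, S.Nonempty → S.card ≤ K →
      ∑ v, ∑ t, lam v t * (if 1 / 2 ≤ G mu1 S (A v t) then 1 else 0) ≤ (b:ℝ) / 16 * M mu2 S)
    (N : ℝ) (hN : ((Adm.powerset.filter (fun S => S.card ≤ K)).card : ℝ) ≤ N) :
    1 - 2 * N * Real.exp (-((b:ℝ) * p / 8)) ≤
      ∑ τ : Fin a → T, ∑ ρ : Fin b → Finset J, (∏ v, lam v (τ v)) * (∏ w, mu2 (ρ w)) *
        (if ∃ g : Fin a → Fin b, Function.Injective g ∧ ∀ v, A v (τ v) ⊆ ρ (g v)
          then 1 else 0) := by
  classical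
  set 𝔖 := Adm.powerset.filter (fun S : Finset (Finset J) => S.Nonempty ∧ S.card ≤ K) with h𝔖
  let E1 : Finset (Finset J) → (Fin a → T) → ℝ := fun S τ =>
    if (b:ℝ) / 4 * M mu2 S ≤ ∑ v, (if 1 / 2 ≤ G mu1 S (A v (τ v)) then (1:ℝ) else 0) then 1 else 0
  let E2 : Finset (Finset J) → (Fin b → Finset J) → ℝ := fun S ρ =>
    if ∑ w, (if Up S (ρ w) then (1:ℝ) else 0) ≤ (b:ℝ) * M mu2 S / 4 then 1 else 0
  have hE1 : ∀ S τ, 0 ≤ E1 S τ := by intro S τ; simp only [E1]; split_ifs <;> norm_num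
  have hE2 : ∀ S ρ, 0 ≤ E2 S ρ := by intro S ρ; simp only [E2]; split_ifs <;> norm_num
  have hpt : ∀ (τ : Fin a → T) (ρ : Fin b → Finset J),
      (1:ℝ) ≤ (if ∃ g : Fin a → Fin b, Function.Injective g ∧ ∀ v, A v (τ v) ⊆ ρ (g v)
          then 1 else 0) + ∑ S ∈ 𝔖, (E1 S τ + E2 S ρ) := by
    intro τ ρ
    have hnn : 0 ≤ ∑ S ∈ 𝔖, (E1 S τ + E2 S ρ) :=
      sum_nonneg fun S _ => add_nonneg (hE1 _ _) (hE2 _ _)
    by_cases hex : ∃ g : Fin a → Fin b, Function.Injective g ∧ ∀ v, A v (τ v) ⊆ ρ (g v)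
    · rw [if_pos hex]; linarith
    · rw [if_neg hex]
      have : ∃ S ∈ 𝔖, 1 ≤ E1 S τ + E2 S ρ := by
        by_contra hno
        push Not at hno
        apply hex
        refine det (fun v => A v (τ v)) Adm (fun v => hAdm v _) mu1 mu2 h01 h11 p hp K hK hc ρ ?_
        intro S hS hSne hSK
        have hmem : S ∈ 𝔖 := by rw [h𝔖, mem_filter, mem_powerset]; exact ⟨hS, hSne, hSK⟩
        have hlt := hno S hmem
        constructor
        · by_contra hge
          push Not at hge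
          have : E1 S τ = 1 := if_pos hge
          have := hE2 S ρ
          linarith
        · by_contra hge
          push Not at hge
          have : E2 S ρ = 1 := by
            apply if_pos
            calc _ ≤ _ := hge
              _ = _ := by ring
          have := hE1 S τ
          linarith
      obtain ⟨S, hS, h1S⟩ := this
      have := single_le_sum (f := fun S => E1 S τ + E2 S ρ)
        (fun S _ => add_nonneg (hE1 _ _) (hE2 _ _)) hS
      have h3 : E1 S τ + E2 S ρ ≤ ∑ S ∈ 𝔖, (E1 S τ + E2 S ρ) := this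
      linarith
  have hW1 := sum_prod_one lam h1
  have hW2 := sum_prod_one (fun (_ : Fin b) R => mu2 R) (fun _ => h12)
  have hw1 : ∀ τ : Fin a → T, 0 ≤ ∏ v, lam v (τ v) := fun τ => prod_nonneg fun v _ => h0 _ _
  have hw2 : ∀ ρ : Fin b → Finset J, 0 ≤ ∏ w, mu2 (ρ w) := fun ρ => prod_nonneg fun v _ => h02 _
  have hP1 : ∀ S ∈ 𝔖, ∑ τ : Fin a → T, (∏ v, lam v (τ v)) * E1 S τ ≤
      Real.exp (-((b:ℝ) * p / 8)) := by
    intro S hS
    rw [h𝔖, mem_filter, mem_powerset] at hS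
    have hm := hM S hS.1 hS.2.1
    have u := upper lam h0 h1 (fun v t => 1 / 2 ≤ G mu1 S (A v t)) ((b:ℝ) / 4 * M mu2 S)
      ((b:ℝ) / 4 * M mu2 S) (by
        have := H S hS.1 hS.2.1 hS.2.2
        linarith) le_rfl (mul_nonneg (by positivity) (by linarith))
    refine u.trans (Real.exp_le_exp.2 ?_)
    have : (b:ℝ) * p ≤ b * M mu2 S := mul_le_mul_of_nonneg_left hm (Nat.cast_nonneg _)
    linarith
  have hP2 : ∀ S ∈ 𝔖, ∑ ρ : Fin b → Finset J, (∏ w, mu2 (ρ w)) * E2 S ρ ≤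
      Real.exp (-((b:ℝ) * p / 8)) := by
    intro S hS
    rw [h𝔖, mem_filter, mem_powerset] at hS
    have hm := hM S hS.1 hS.2.1
    have hbp : (b:ℝ) * p ≤ b * M mu2 S := mul_le_mul_of_nonneg_left hm (Nat.cast_nonneg _)
    have hb0 : 0 ≤ (b:ℝ) * p := mul_nonneg (Nat.cast_nonneg _) hp.le
    have u := lower (fun (_ : Fin b) R => mu2 R) (fun _ R => h02 R) (fun _ => h12)
      (fun _ R => Up S R) ((b:ℝ) * M mu2 S) (by
        rw [sum_const, card_univ, Fintype.card_fin, nsmul_eq_mul]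
        exact le_rfl) (by linarith)
    refine u.trans (Real.exp_le_exp.2 ?_)
    linarith
  have hsum : (1:ℝ) ≤ ∑ τ : Fin a → T, ∑ ρ : Fin b → Finset J,
      (∏ v, lam v (τ v)) * (∏ w, mu2 (ρ w)) *
        ((if ∃ g : Fin a → Fin b, Function.Injective g ∧ ∀ v, A v (τ v) ⊆ ρ (g v)
          then 1 else 0) + ∑ S ∈ 𝔖, (E1 S τ + E2 S ρ)) := by
    calc (1:ℝ) = ∑ τ : Fin a → T, ∑ ρ : Fin b → Finset J,
          (∏ v, lam v (τ v)) * (∏ w, mu2 (ρ w)) := by
          rw [← sum_mul_sum, hW1, hW2, mul_one]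
      _ ≤ _ := by
          refine sum_le_sum fun τ _ => sum_le_sum fun ρ _ => ?_
          exact le_mul_of_one_le_right (mul_nonneg (hw1 τ) (hw2 ρ)) (hpt τ ρ)
  have hS : ∀ S ∈ 𝔖, ∑ τ : Fin a → T, ∑ ρ : Fin b → Finset J,
      (∏ v, lam v (τ v)) * (∏ w, mu2 (ρ w)) * (E1 S τ + E2 S ρ) ≤
      2 * Real.exp (-((b:ℝ) * p / 8)) := by
    intro S hS
    have e1 : ∑ τ : Fin a → T, ∑ ρ : Fin b → Finset J,
        (∏ v, lam v (τ v)) * (∏ w, mu2 (ρ w)) * (E1 S τ + E2 S ρ) =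
        (∑ τ : Fin a → T, (∏ v, lam v (τ v)) * E1 S τ) * (∑ ρ : Fin b → Finset J, ∏ w, mu2 (ρ w)) +
        (∑ τ : Fin a → T, (∏ v, lam v (τ v))) *
          (∑ ρ : Fin b → Finset J, (∏ w, mu2 (ρ w)) * E2 S ρ) := by
      rw [sum_mul_sum, sum_mul_sum, ← sum_add_distrib]
      refine sum_congr rfl fun τ _ => ?_
      rw [← sum_add_distrib]
      refine sum_congr rfl fun ρ _ => ?_
      ring
    rw [e1, hW1, hW2, mul_one, one_mul]
    linarith [hP1 S hS, hP2 S hS]
  have hcomm : ∑ τ : Fin a → T, ∑ ρ : Fin b → Finset J,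
      (∏ v, lam v (τ v)) * (∏ w, mu2 (ρ w)) * ∑ S ∈ 𝔖, (E1 S τ + E2 S ρ) =
      ∑ S ∈ 𝔖, ∑ τ : Fin a → T, ∑ ρ : Fin b → Finset J,
      (∏ v, lam v (τ v)) * (∏ w, mu2 (ρ w)) * (E1 S τ + E2 S ρ) := by
    calc _ = ∑ τ : Fin a → T, ∑ ρ : Fin b → Finset J, ∑ S ∈ 𝔖,
          (∏ v, lam v (τ v)) * (∏ w, mu2 (ρ w)) * (E1 S τ + E2 S ρ) := by
          refine sum_congr rfl fun τ _ => sum_congr rfl fun ρ _ => ?_
          rw [mul_sum]
      _ = ∑ τ : Fin a → T, ∑ S ∈ 𝔖, ∑ ρ : Fin b → Finset J,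
          (∏ v, lam v (τ v)) * (∏ w, mu2 (ρ w)) * (E1 S τ + E2 S ρ) :=
          sum_congr rfl fun τ _ => sum_comm
      _ = _ := sum_comm
  have hcard : (𝔖.card : ℝ) ≤ N := by
    refine le_trans ?_ hN
    have : 𝔖 ⊆ Adm.powerset.filter (fun S : Finset (Finset J) => S.card ≤ K) := by
      intro S hS
      rw [h𝔖, mem_filter] at hS
      rw [mem_filter]
      exact ⟨hS.1, hS.2.2⟩
    exact_mod_cast card_le_card this
  have hfin : ∑ S ∈ 𝔖, ∑ τ : Fin a → T, ∑ ρ : Fin b → Finset J,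
      (∏ v, lam v (τ v)) * (∏ w, mu2 (ρ w)) * (E1 S τ + E2 S ρ) ≤
      2 * N * Real.exp (-((b:ℝ) * p / 8)) := by
    calc _ ≤ ∑ S ∈ 𝔖, 2 * Real.exp (-((b:ℝ) * p / 8)) := sum_le_sum hS
      _ = (𝔖.card : ℝ) * (2 * Real.exp (-((b:ℝ) * p / 8))) := by
          rw [sum_const, nsmul_eq_mul]
      _ ≤ N * (2 * Real.exp (-((b:ℝ) * p / 8))) :=
          mul_le_mul_of_nonneg_right hcard (by positivity)
      _ = _ := by ring
  have hsplit : ∑ τ : Fin a → T, ∑ ρ : Fin b → Finset J,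
      (∏ v, lam v (τ v)) * (∏ w, mu2 (ρ w)) *
        ((if ∃ g : Fin a → Fin b, Function.Injective g ∧ ∀ v, A v (τ v) ⊆ ρ (g v)
          then 1 else 0) + ∑ S ∈ 𝔖, (E1 S τ + E2 S ρ)) =
      (∑ τ : Fin a → T, ∑ ρ : Fin b → Finset J, (∏ v, lam v (τ v)) * (∏ w, mu2 (ρ w)) *
        (if ∃ g : Fin a → Fin b, Function.Injective g ∧ ∀ v, A v (τ v) ⊆ ρ (g v)
          then 1 else 0)) +
      ∑ τ : Fin a → T, ∑ ρ : Fin b → Finset J,
      (∏ v, lam v (τ v)) * (∏ w, mu2 (ρ w)) * ∑ S ∈ 𝔖, (E1 S τ + E2 S ρ) := by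
    rw [← sum_add_distrib]
    refine sum_congr rfl fun τ _ => ?_
    rw [← sum_add_distrib]
    refine sum_congr rfl fun ρ _ => ?_
    rw [mul_add]
  rw [hsplit, hcomm] at hsum
  linarith

/-- number of small families -/
theorem card_small (Adm : Finset (Finset J)) (K : ℕ) :
    (Adm.powerset.filter (fun S => S.card ≤ K)).card ≤ (Adm.card + 1) ^ K := by
  classical
  -- encode a small family by a function `Fin K → Option Adm`
  have h : (Adm.powerset.filter (fun S => S.card ≤ K)) ⊆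
      (univ : Finset (Fin K → Option {x // x ∈ Adm})).image
        (fun f => Adm.filter (fun x => ∃ i, ∃ h : x ∈ Adm, f i = some ⟨x, h⟩)) := by
    intro S hS
    rw [mem_filter, mem_powerset] at hS
    rw [mem_image]
    obtain ⟨hSA, hSK⟩ := hS
    let e := S.equivFin
    refine ⟨fun i => if h : (i : ℕ) < S.card then
      some ⟨(e.symm ⟨i, h⟩ : {x // x ∈ S}).1, hSA (e.symm ⟨i, h⟩ : {x // x ∈ S}).2⟩ else none,
      mem_univ _, ?_⟩
    ext x
    rw [mem_filter]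
    constructor
    · rintro ⟨hx, i, hxA, hi⟩
      dsimp only at hi
      split_ifs at hi with h
      simp only [Option.some.injEq, Subtype.mk.injEq] at hi
      rw [← hi]
      exact (e.symm ⟨i, h⟩).2
    · intro hx
      refine ⟨hSA hx, ⟨(e ⟨x, hx⟩ : Fin S.card), lt_of_lt_of_le (e ⟨x, hx⟩).2 hSK⟩, hSA hx, ?_⟩
      simp
  refine (card_le_card h).trans (card_image_le.trans ?_)
  rw [card_univ, Fintype.card_fun, Fintype.card_option, Fintype.card_coe, Fintype.card_fin]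

end Crest.TG.Fp
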