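import Crest.Agent.TG29_Dom
import Crest.Agent.TG_Fp
import Crest.Agent.TG77_Net
import Crest.Agent.TG94_Num
import Crest.Agent.TG55_AD

/-! `AD` (abstract depth one) through the fingerprint route. -/

set_option autoImplicit false

namespace Crest.TG29

open Finset

section inst
variable {J : Type} [Fintype J] [DecidableEq J]

theorem sum_lam {V : Type} (Y : V → Finset J) (v : V) :
    ∑ t : Finset J, TG55.lam 21 Y v t = 1 := by
  unfold TG55.lam
  rw [← sum_filter]
  have h : (univ.filter fun t : Finset J => t ⊆ Y v) = (Y v).powerset := by ext; simp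
  rw [h, Finset.sum_pow_mul_eq_add_pow]
  norm_num

theorem lam_nonneg {V : Type} (Y : V → Finset J) (v : V) (t : Finset J) :
    0 ≤ TG55.lam 21 Y v t := by
  unfold TG55.lam
  split_ifs
  · norm_num
  · exact le_rfl

theorem mu_superset (P : ℝ) (A : Finset J) :
    mu P (fun R => A ⊆ R) = P ^ A.card := by
  classical
  have := TG77.cone P A (fun _ => (1 : ℝ))
  simp only [mul_one] at this
  rw [TG77.sum_wt, mul_one] at this
  rw [← this]
  unfold mu
  apply sum_congr rfl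
  intro R _
  show wt P R * _ = wt P R * _
  by_cases h : A ⊆ R <;> simp [h]

theorem G_eq (q : ℝ) (S : Finset (Finset J)) (A : Finset J) :
    TG.Fp.G (fun R => TG55.mu q R) S A = mu q (fun R => TG.Fp.Up S (A ∪ R)) := rfl

theorem M_eq (q : ℝ) (S : Finset (Finset J)) :
    TG.Fp.M (fun R => TG55.mu q R) S = mu q (fun R => TG.Fp.Up S R) := rfl

theorem Up_mono (S : Finset (Finset J)) (X Z : Finset J) (h : X ⊆ Z) (hX : TG.Fp.Up S X) :
    TG.Fp.Up S Z := by
  obtain ⟨A, hA, hAX⟩ := hX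
  exact ⟨A, hA, hAX.trans h⟩

open Classical in
theorem hyp_c (q : ℝ) (hq0 : 0 < q) (hq1 : q ≤ 1) (D : ℕ) (A : Finset J) (hA : A.card ≤ D)
    (S : Finset (Finset J)) :
    q ^ D * (1 - TG.Fp.G (fun R => TG55.mu q R) S A) ≤
      ∑ R, TG55.mu q R * (if A ⊆ R ∧ ¬ TG.Fp.Up S R then 1 else 0) := by
  have h1 := TG77.cone q A (fun R => if ¬ TG.Fp.Up S R then (1 : ℝ) else 0)
  have h2 : ∑ R, TG55.mu q R * (if A ⊆ R ∧ ¬ TG.Fp.Up S R then 1 else 0) =
      ∑ R : Finset J, TG77.wt q R * (if A ⊆ R then (if ¬ TG.Fp.Up S R then (1 : ℝ) else 0) else 0) := by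
    apply sum_congr rfl
    intro R _
    show TG55.mu q R * _ = TG55.mu q R * _
    by_cases h : A ⊆ R <;> by_cases h' : TG.Fp.Up S R <;> simp [h, h']
  rw [h2, h1, G_eq, ← mu_not]
  have h3 : ∑ R : Finset J, TG77.wt q R * (if ¬ TG.Fp.Up S (R ∪ A) then (1 : ℝ) else 0) =
      mu q (fun R => ¬ TG.Fp.Up S (A ∪ R)) := by
    unfold mu
    apply sum_congr rfl
    intro R _
    rw [union_comm R A]
    show wt q R * _ = wt q R * _
    by_cases h : TG.Fp.Up S (A ∪ R) <;> simp [h]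
  rw [h3]
  apply mul_le_mul_of_nonneg_right
  · exact pow_le_pow_of_le_one hq0.le hq1 hA
  · exact mu_nonneg hq0.le hq1 _

theorem hyp_M (q : ℝ) (hq0 : 0 < q) (hq1 : 256 * q ≤ 1) (D : ℕ)
    (S : Finset (Finset J)) (hS : ∀ A ∈ S, A.card ≤ D) (hne : S.Nonempty) :
    q ^ D ≤ TG.Fp.M (fun R => TG55.mu (256 * q) R) S := by
  obtain ⟨A, hA⟩ := hne
  rw [M_eq]
  have h1 : q ^ D ≤ (256 * q) ^ A.card := by
    calc q ^ D ≤ q ^ A.card := pow_le_pow_of_le_one hq0.le (by linarith) (hS A hA)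
      _ ≤ (256 * q) ^ A.card := pow_le_pow_left₀ hq0.le (by linarith) _
  refine h1.trans ?_
  rw [← mu_superset]
  exact mu_mono_event (by positivity) hq1 _ _ (fun R hR => ⟨A, hA, hR⟩)

open Classical in
theorem hyp_H {a b n : ℕ} (hn : 0 < n) (Y : Fin a → Finset J) (q : ℝ) (hq0 : 0 < q)
    (hq1 : 256 * q ≤ 1) (ha : 64 * a ≤ n) (hnb : n ≤ 2 * b)
    (hsp : ∀ S : Finset J, S.Nonempty →
        ((univ.filter (fun v => S ⊆ Y v)).card : ℝ) ≤ 20 * n * q ^ S.card)
    (S : Finset (Finset J)) :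
    ∑ v, ∑ t, TG55.lam 21 Y v t *
      (if 1 / 2 ≤ TG.Fp.G (fun R => TG55.mu q R) S (t ∩ Y v) then 1 else 0) ≤
      (b:ℝ) / 16 * TG.Fp.M (fun R => TG55.mu (256 * q) R) S := by
  have hq1' : q ≤ 1 := by linarith
  have habR : (a : ℝ) ≤ b / 32 := by
    have h1 : (64 : ℝ) * a ≤ n := by exact_mod_cast ha
    have h2 : (n : ℝ) ≤ 2 * b := by exact_mod_cast hnb
    linarith
  have hnbR : (n : ℝ) ≤ 2 * b := by exact_mod_cast hnb
  have hb0 : (0 : ℝ) ≤ b := Nat.cast_nonneg _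
  -- trivial bound
  have hA : ∑ v, ∑ t, TG55.lam 21 Y v t *
      (if 1 / 2 ≤ TG.Fp.G (fun R => TG55.mu q R) S (t ∩ Y v) then 1 else 0) ≤ (b : ℝ) / 32 := by
    refine le_trans ?_ habR
    calc _ ≤ ∑ v : Fin a, ∑ t, TG55.lam 21 Y v t := by
          apply sum_le_sum; intro v _
          apply sum_le_sum; intro t _
          have := lam_nonneg Y v t
          split_ifs <;> linarith
      _ = a := by
          rw [sum_congr rfl fun v _ => sum_lam Y v]
          simp
  rw [M_eq]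
  by_cases hcase : 1 / 2 ≤ mu q (fun R => TG.Fp.Up S (∅ ∪ R))
  · have h1 : (fun R : Finset J => TG.Fp.Up S (∅ ∪ R)) = fun R => TG.Fp.Up S R := by
      funext R; rw [empty_union]
    rw [h1] at hcase
    have h2 := mu_mono q (256 * q) hq0.le (by linarith) hq1 (fun R => TG.Fp.Up S R) (Up_mono S)
    have h3 : (b : ℝ) / 32 ≤ b / 16 * mu (256 * q) (fun R => TG.Fp.Up S R) := by
      nlinarith
    exact hA.trans h3
  · set U : Finset J → Prop := fun A => 1 / 2 ≤ mu q (fun R => TG.Fp.Up S (A ∪ R)) with hU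
    have hUmono : ∀ X Z : Finset J, X ⊆ Z → U X → U Z := by
      intro X Z hXZ hX
      exact le_trans hX (mu_mono_event hq0.le hq1' _ _ (fun R hR =>
        Up_mono S _ _ (union_subset_union_left hXZ) hR))
    have hthin := thin n hn (V := Fin a) (by rw [Fintype.card_fin]; omega) Y 20 q (1 / 21) q
      (by norm_num) hq0.le (by norm_num) (by norm_num) hsp (by norm_num) (by linarith) U hUmono
      hcase
    have hhalf := mu_half q q hq0.le hq1' hq0.le hq1' (fun R => TG.Fp.Up S R)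
    have hspr := mu_sprinkle_min (q + q - q * q) (256 * q) (by nlinarith) (by nlinarith) 128
      (by push_cast; nlinarith) hq1 (fun R => TG.Fp.Up S R) (Up_mono S)
    set x := mu (q + q - q * q) (fun R => TG.Fp.Up S R) with hx
    have hx0 : 0 ≤ x := mu_nonneg (by nlinarith) (by nlinarith) _
    have hL : ∑ v, ∑ t, TG55.lam 21 Y v t *
        (if 1 / 2 ≤ TG.Fp.G (fun R => TG55.mu q R) S (t ∩ Y v) then 1 else 0) =
        ∑ v, ∑ A ∈ (Y v).powerset, (1 / 21 : ℝ) ^ A.card * (1 - 1 / 21) ^ ((Y v).card - A.card) *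
      (if U A then (1 : ℝ) else 0) := by
      apply sum_congr rfl
      intro v _
      have h : (univ.filter fun t : Finset J => t ⊆ Y v) = (Y v).powerset := by ext; simp
      rw [← h, sum_filter]
      apply sum_congr rfl
      intro t _
      unfold TG55.lam
      by_cases ht : t ⊆ Y v
      · rw [if_pos ht, if_pos ht, inter_eq_left.2 ht, G_eq]
        push_cast
        rfl
      · rw [if_neg ht, if_neg ht, zero_mul]
    have hB : ∑ v, ∑ t, TG55.lam 21 Y v t *
        (if 1 / 2 ≤ TG.Fp.G (fun R => TG55.mu q R) S (t ∩ Y v) then 1 else 0) ≤ 4 * b * x := by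
      rw [hL]
      refine hthin.trans ?_
      calc (n : ℝ) * mu q U ≤ n * (2 * x) := by
            apply mul_le_mul_of_nonneg_left hhalf (Nat.cast_nonneg _)
        _ ≤ (2 * b) * (2 * x) := by
            apply mul_le_mul_of_nonneg_right hnbR (by positivity)
        _ = 4 * b * x := by ring
    have hC : (b : ℝ) / 16 * min (1 / 2) ((128 : ℕ) * x / 2) ≤
        b / 16 * mu (256 * q) (fun R => TG.Fp.Up S R) :=
      mul_le_mul_of_nonneg_left hspr (by positivity)
    refine le_trans ?_ hC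
    rcases min_cases (1 / 2 : ℝ) ((128 : ℕ) * x / 2) with h | h
    · rw [h.1]; linarith
    · rw [h.1]; push_cast; linarith

open Classical in
theorem inst {a b n : ℕ} (hn : 0 < n) (Y : Fin a → Finset J) (q : ℝ) (D : ℕ) (hq0 : 0 < q)
    (hq1 : 256 * q ≤ 1) (ha : 64 * a ≤ n) (hnb : n ≤ 2 * b) (hY : ∀ v, (Y v).card ≤ D)
    (hsp : ∀ S : Finset J, S.Nonempty →
        ((univ.filter (fun v => S ⊆ Y v)).card : ℝ) ≤ 20 * n * q ^ S.card) (K : ℕ)
    (hK : 2 / q ^ D ≤ K) :
    1 - 2 * (((univ.filter fun A : Finset J => A.card ≤ D).card + 1 : ℝ) ^ K) *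
        Real.exp (-((b:ℝ) * q ^ D / 8)) ≤
      ∑ τ : Fin a → Finset J, ∑ ρ : Fin b → Finset J, (∏ v, TG55.lam 21 Y v (τ v)) *
        (∏ w, TG55.mu (256 * q) (ρ w)) *
        (if ∃ g : Fin a → Fin b, Function.Injective g ∧ ∀ v, τ v ∩ Y v ⊆ ρ (g v)
          then 1 else 0) := by
  have hq1' : q ≤ 1 := by linarith
  refine TG.Fp.quenched (TG55.lam 21 Y) (lam_nonneg Y) (sum_lam Y) (fun v t => t ∩ Y v)
    (univ.filter fun A : Finset J => A.card ≤ D)
    (fun v t => by
      rw [mem_filter]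
      exact ⟨mem_univ _, (card_le_card inter_subset_right).trans (hY v)⟩)
    (fun R => TG55.mu q R) (fun R => TG55.mu (256 * q) R)
    (fun R => wt_nonneg hq0.le hq1' R) (sum_wt q)
    (fun R => wt_nonneg (by positivity) hq1 R) (sum_wt (256 * q))
    (q ^ D) (by positivity) K hK ?_ ?_ ?_ _ ?_
  · intro A hA S
    rw [mem_filter] at hA
    exact hyp_c q hq0 hq1' D A hA.2 S
  · intro S hS hne
    exact hyp_M q hq0 hq1 D S (fun A hA => (mem_filter.1 (hS hA)).2) hne
  · intro S _ _ _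
    exact hyp_H hn Y q hq0 hq1 ha hnb hsp S
  · have := TG.Fp.card_small (univ.filter fun A : Finset J => A.card ≤ D) K
    exact_mod_cast this

end inst

theorem card_le_D {J : Type} [Fintype J] [DecidableEq J] (D : ℕ) :
    (univ.filter fun A : Finset J => A.card ≤ D).card ≤ (Fintype.card J + 1) ^ D := by
  classical
  -- a subset of size `≤ D` is the range of a function `Fin D → Option J`
  have h : (univ.filter fun A : Finset J => A.card ≤ D) ⊆
      (univ : Finset (Fin D → Option J)).image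
        (fun f => univ.filter (fun x => ∃ i, f i = some x)) := by
    intro S hS
    rw [mem_filter] at hS
    rw [mem_image]
    let e := S.equivFin
    refine ⟨fun i => if h : (i : ℕ) < S.card then
      some (e.symm ⟨i, h⟩ : {x // x ∈ S}).1 else none, mem_univ _, ?_⟩
    ext x
    rw [mem_filter]
    constructor
    · rintro ⟨_, i, hi⟩
      dsimp only at hi
      split_ifs at hi with h
      simp only [Option.some.injEq] at hi
      rw [← hi]
      exact (e.symm ⟨i, h⟩).2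
    · intro hx
      refine ⟨mem_univ _, ⟨(e ⟨x, hx⟩ : Fin S.card), lt_of_lt_of_le (e ⟨x, hx⟩).2 hS.2⟩, ?_⟩
      simp
  refine (card_le_card h).trans (card_image_le.trans ?_)
  rw [card_univ, Fintype.card_fun, Fintype.card_option, Fintype.card_fin]

/-- numerics -/
theorem numer : ∃ n0 : ℕ, 3 ≤ n0 ∧ ∀ n : ℕ, n0 ≤ n → ∀ (cJ D b : ℕ) (q : ℝ), 0 < q →
    256 * q < 1 → (cJ : ℝ) ≤ (n : ℝ) ^ ((1 : ℝ) / 10) →
    (n : ℝ) ^ (-((1 : ℝ) / 100)) ≤ q ^ D → n ≤ 2 * b →
    2 * ((((cJ : ℝ) + 1) ^ D + 1) ^ (⌈2 / q ^ D⌉₊)) * Real.exp (-((b:ℝ) * q ^ D / 8)) ≤ 1 / 42 := by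
  have e1 := TG94.ev_rpow_log_le (a := 1 / 100) (b := 1 / 2) (by norm_num) 12 2
  have e2 := TG94.ev_exp_le (a := 1 / 2) (b := 99 / 100) (by norm_num) (by norm_num) 1
    (c := 1 / 16) (ε := 1 / 84) (by norm_num) (by norm_num)
  obtain ⟨n0, hn0, hn⟩ := TG94.exists_threshold (e1.and e2) 3
  refine ⟨n0, hn0, ?_⟩
  intro n hnn cJ D b q hq0 hq1 hcJ hqD hnb
  obtain ⟨h1, h2⟩ := hn n hnn
  have hn3 : 3 ≤ n := hn0.trans hnn
  have hnR : (3 : ℝ) ≤ n := by exact_mod_cast hn3
  have hnpos : (0 : ℝ) < n := by linarith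
  have hlog1 : 1 ≤ Real.log n := by
    rw [Real.le_log_iff_exp_le hnpos]
    have := Real.exp_one_lt_d9
    linarith
  set p : ℝ := q ^ D with hp
  have hp0 : 0 < p := by positivity
  have hX1 : (1 : ℝ) ≤ (n : ℝ) ^ ((1 : ℝ) / 100) := Real.one_le_rpow (by linarith) (by norm_num)
  have hpinv : 1 / p ≤ (n : ℝ) ^ ((1 : ℝ) / 100) := by
    rw [div_le_iff₀ hp0]
    have h3 : (n : ℝ) ^ ((1 : ℝ) / 100) * (n : ℝ) ^ (-((1 : ℝ) / 100)) = 1 := by
      rw [← Real.rpow_add hnpos]; norm_num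
    calc (1 : ℝ) = (n : ℝ) ^ ((1 : ℝ) / 100) * (n : ℝ) ^ (-((1 : ℝ) / 100)) := h3.symm
      _ ≤ (n : ℝ) ^ ((1 : ℝ) / 100) * p := mul_le_mul_of_nonneg_left hqD (by positivity)
  -- K bound
  have hK : (⌈2 / p⌉₊ : ℝ) ≤ 3 * (n : ℝ) ^ ((1 : ℝ) / 100) := by
    have h3 := (Nat.ceil_lt_add_one (a := 2 / p) (by positivity)).le
    have h4 : 2 / p = 2 * (1 / p) := by ring
    rw [h4] at h3 ⊢
    linarith
  -- D bound
  have hD : (D : ℝ) ≤ Real.log n := by
    have h3 : p ≤ (1 / 256) ^ D := pow_le_pow_left₀ hq0.le (by linarith) D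
    have h4 : (n : ℝ) ^ (-((1 : ℝ) / 100)) ≤ (1 / 256) ^ D := hqD.trans h3
    have h5 : Real.log ((n : ℝ) ^ (-((1 : ℝ) / 100))) ≤ Real.log ((1 / 256 : ℝ) ^ D) :=
      Real.log_le_log (by positivity) h4
    rw [Real.log_rpow hnpos, Real.log_pow, Real.log_div (by norm_num) (by norm_num),
      Real.log_one] at h5
    have h6 : (1 : ℝ) ≤ Real.log 256 := by
      rw [Real.le_log_iff_exp_le (by norm_num)]
      have := Real.exp_one_lt_d9
      linarith
    have hD0 : (0 : ℝ) ≤ D := Nat.cast_nonneg _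
    nlinarith
  -- base bound
  have hbase : ((cJ : ℝ) + 1) ^ D + 1 ≤ Real.exp (4 * (Real.log n) ^ 2) := by
    have h3 : (cJ : ℝ) ≤ n := by
      refine hcJ.trans ?_
      calc (n : ℝ) ^ ((1 : ℝ) / 10) ≤ (n : ℝ) ^ (1 : ℝ) :=
            Real.rpow_le_rpow_of_exponent_le (by linarith) (by norm_num)
        _ = n := Real.rpow_one _
    have h4 : ((cJ : ℝ) + 1) ^ D ≤ Real.exp (2 * (Real.log n) ^ 2) := by
      have h5 : (cJ : ℝ) + 1 ≤ (n : ℝ) ^ 2 := by nlinarith
      have h6 : (n : ℝ) ^ 2 = Real.exp (2 * Real.log n) := by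
        rw [show 2 * Real.log n = ((2 : ℕ) : ℝ) * Real.log n by norm_num, Real.exp_nat_mul,
          Real.exp_log hnpos]
      calc ((cJ : ℝ) + 1) ^ D ≤ (Real.exp (2 * Real.log n)) ^ D := by
            rw [← h6]; exact pow_le_pow_left₀ (by positivity) h5 _
        _ = Real.exp (D * (2 * Real.log n)) := by rw [← Real.exp_nat_mul]
        _ ≤ Real.exp (2 * (Real.log n) ^ 2) := by
            apply Real.exp_le_exp.2
            nlinarith
    have h7 : (1 : ℝ) ≤ Real.exp (2 * (Real.log n) ^ 2) := Real.one_le_exp (by positivity)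
    have h8 : (2 : ℝ) ≤ Real.exp (2 * (Real.log n) ^ 2) := by
      have h9 := Real.add_one_le_exp (2 * (Real.log n) ^ 2)
      nlinarith
    have h10 : Real.exp (4 * (Real.log n) ^ 2) =
        Real.exp (2 * (Real.log n) ^ 2) * Real.exp (2 * (Real.log n) ^ 2) := by
      rw [← Real.exp_add]; ring_nf
    rw [h10]
    nlinarith
  have hKpow : (((cJ : ℝ) + 1) ^ D + 1) ^ (⌈2 / p⌉₊) ≤
      Real.exp (12 * (n : ℝ) ^ ((1 : ℝ) / 100) * (Real.log n) ^ 2) := by
    calc (((cJ : ℝ) + 1) ^ D + 1) ^ (⌈2 / p⌉₊) ≤ (Real.exp (4 * (Real.log n) ^ 2)) ^ (⌈2 / p⌉₊) :=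
          pow_le_pow_left₀ (by positivity) hbase _
      _ = Real.exp (⌈2 / p⌉₊ * (4 * (Real.log n) ^ 2)) := by rw [← Real.exp_nat_mul]
      _ ≤ Real.exp (12 * (n : ℝ) ^ ((1 : ℝ) / 100) * (Real.log n) ^ 2) := by
          apply Real.exp_le_exp.2
          have h3 : (0 : ℝ) ≤ 4 * (Real.log n) ^ 2 := by positivity
          calc (⌈2 / p⌉₊ : ℝ) * (4 * (Real.log n) ^ 2)
              ≤ (3 * (n : ℝ) ^ ((1 : ℝ) / 100)) * (4 * (Real.log n) ^ 2) :=
                mul_le_mul_of_nonneg_right hK h3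
            _ = _ := by ring
  have hbp : (n : ℝ) ^ ((99 : ℝ) / 100) / 16 ≤ b * p / 8 := by
    have h3 : (n : ℝ) ≤ 2 * b := by exact_mod_cast hnb
    have h4 : (n : ℝ) ^ ((99 : ℝ) / 100) = n * (n : ℝ) ^ (-((1 : ℝ) / 100)) := by
      have : (n : ℝ) ^ ((99 : ℝ) / 100) = (n : ℝ) ^ ((1 : ℝ) + (-((1 : ℝ) / 100))) := by norm_num
      rw [this, Real.rpow_add hnpos, Real.rpow_one]
    have h5 : (0 : ℝ) ≤ (n : ℝ) ^ (-((1 : ℝ) / 100)) := by positivity
    have h6 : n * (n : ℝ) ^ (-((1 : ℝ) / 100)) ≤ (2 * b) * p := by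
      apply mul_le_mul h3 hqD h5 (by positivity)
    rw [h4]
    linarith
  calc 2 * ((((cJ : ℝ) + 1) ^ D + 1) ^ (⌈2 / p⌉₊)) * Real.exp (-((b:ℝ) * p / 8))
      ≤ 2 * Real.exp (12 * (n : ℝ) ^ ((1 : ℝ) / 100) * (Real.log n) ^ 2) *
        Real.exp (-((n : ℝ) ^ ((99 : ℝ) / 100) / 16)) := by
        apply mul_le_mul
        · exact mul_le_mul_of_nonneg_left hKpow (by norm_num)
        · apply Real.exp_le_exp.2; linarith
        · positivity
        · positivity
    _ = 2 * Real.exp (12 * (n : ℝ) ^ ((1 : ℝ) / 100) * (Real.log n) ^ 2 -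
          (n : ℝ) ^ ((99 : ℝ) / 100) / 16) := by
        rw [mul_assoc, ← Real.exp_add]; ring_nf
    _ ≤ 2 * Real.exp (1 * (n : ℝ) ^ ((1 : ℝ) / 2) * Real.log n -
          1 / 16 * (n : ℝ) ^ ((99 : ℝ) / 100)) := by
        apply mul_le_mul_of_nonneg_left _ (by norm_num)
        apply Real.exp_le_exp.2
        have h5 : (n : ℝ) ^ ((1 : ℝ) / 2) ≤ 1 * (n : ℝ) ^ ((1 : ℝ) / 2) * Real.log n := by
          have h6 : (0 : ℝ) ≤ (n : ℝ) ^ ((1 : ℝ) / 2) := by positivity
          nlinarith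
        linarith
    _ ≤ 2 * (1 / 84) := mul_le_mul_of_nonneg_left h2 (by norm_num)
    _ = 1 / 42 := by norm_num

/-- **AD** through the fingerprint route -/
theorem AD_fp : TG55.AD := by
  classical
  obtain ⟨n0, hn0, hnum⟩ := numer
  refine ⟨21, 256, n0, by norm_num, by norm_num, ?_⟩
  intro n hn J V _ _ _ _ Y q D b hq0 hq1 hJ hY hqD hV hsp hnb hbn Q _ hQ
  have hnpos : 0 < n := by omega
  set a := Fintype.card V with ha
  set e : V ≃ Fin a := Fintype.equivFin V with he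
  have hsp' : ∀ S : Finset J, S.Nonempty →
      ((univ.filter (fun v : Fin a => S ⊆ Y (e.symm v))).card : ℝ) ≤ 20 * n * q ^ S.card := by
    intro S hS
    have h1 : (univ.filter (fun v : Fin a => S ⊆ Y (e.symm v))).card =
        (univ.filter (fun v : V => S ⊆ Y v)).card := by
      apply card_bij' (fun v _ => e.symm v) (fun v _ => e v)
      · intro v hv; rw [mem_filter] at hv ⊢; exact ⟨mem_univ _, hv.2⟩
      · intro v hv; rw [mem_filter] at hv ⊢; refine ⟨mem_univ _, ?_⟩; simpa using hv.2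
      · intro v _; simp
      · intro v _; simp
    rw [h1]
    exact hsp S hS
  have hmain := inst (a := a) (b := b) hnpos (fun v => Y (e.symm v)) q D hq0 hq1.le hV hnb
    (fun v => hY _) hsp' ⌈2 / q ^ D⌉₊ (Nat.le_ceil _)
  have hnum' := hnum n hn (Fintype.card J) D b q hq0 hq1 hJ hqD hnb
  have hcard : ((univ.filter fun A : Finset J => A.card ≤ D).card : ℝ) ≤
      ((Fintype.card J : ℝ) + 1) ^ D := by
    have := card_le_D (J := J) D
    exact_mod_cast this
  have hle : 2 * (((univ.filter fun A : Finset J => A.card ≤ D).card + 1 : ℝ) ^ ⌈2 / q ^ D⌉₊) *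
        Real.exp (-((b:ℝ) * q ^ D / 8)) ≤ 1 / 42 := by
    refine le_trans ?_ hnum'
    gcongr
  have hstep : ∑ τ : Fin a → Finset J, ∑ ρ : Fin b → Finset J,
        (∏ v, TG55.lam 21 (fun v => Y (e.symm v)) v (τ v)) *
        (∏ w, TG55.mu (256 * q) (ρ w)) *
        (if ∃ g : Fin a → Fin b, Function.Injective g ∧ ∀ v, τ v ∩ Y (e.symm v) ⊆ ρ (g v)
          then 1 else 0) ≤
      ∑ τ : V → Finset J, ∑ ρ : Fin b → Finset J,
          (∏ v, TG55.lam 21 Y v (τ v)) * (∏ w, TG55.mu (256 * q) (ρ w)) *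
            (if Q τ ρ then 1 else 0) := by
    have hsum : ∑ τ : V → Finset J, ∑ ρ : Fin b → Finset J,
          (∏ v, TG55.lam 21 Y v (τ v)) * (∏ w, TG55.mu (256 * q) (ρ w)) *
            (if Q τ ρ then (1 : ℝ) else 0) =
        ∑ τ : Fin a → Finset J, ∑ ρ : Fin b → Finset J,
          (∏ v, TG55.lam 21 (fun v => Y (e.symm v)) v (τ v)) * (∏ w, TG55.mu (256 * q) (ρ w)) *
            (if Q (fun v => τ (e v)) ρ then 1 else 0) := by
      refine Fintype.sum_equiv (Equiv.arrowCongr e (Equiv.refl _)) _ _ ?_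
      intro τ
      apply sum_congr rfl
      intro ρ _
      have h1 : (fun v => (Equiv.arrowCongr e (Equiv.refl (Finset J))) τ (e v)) = τ := by
        funext v; simp
      rw [h1]
      congr 2
      refine Fintype.prod_equiv e _ _ ?_
      intro v
      simp [TG55.lam]
    rw [hsum]
    apply sum_le_sum
    intro τ _
    apply sum_le_sum
    intro ρ _
    have hmu : 0 ≤ ∏ w, TG55.mu (256 * q) (ρ w) :=
      prod_nonneg fun w _ => wt_nonneg (by positivity) hq1.le _
    by_cases hsub : ∀ v, τ v ⊆ Y (e.symm v)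
    · have hlam : 0 ≤ ∏ v, TG55.lam 21 (fun v => Y (e.symm v)) v (τ v) :=
        prod_nonneg fun v _ => lam_nonneg _ v _
      apply mul_le_mul_of_nonneg_left _ (mul_nonneg hlam hmu)
      split_ifs with h1 h2 h3
      · exact le_rfl
      · exfalso
        apply h2
        obtain ⟨g, hg, hg2⟩ := h1
        apply hQ
        refine ⟨fun v => g (e v), fun x y hxy => e.injective (hg hxy), fun v => ?_⟩
        have := hg2 (e v)
        rwa [inter_eq_left.2 (hsub (e v))] at this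
      · norm_num
      · exact le_rfl
    · push Not at hsub
      obtain ⟨v, hv⟩ := hsub
      have hz : ∏ v, TG55.lam 21 (fun v => Y (e.symm v)) v (τ v) = 0 := by
        apply prod_eq_zero (mem_univ v)
        unfold TG55.lam
        rw [if_neg hv]
      rw [hz]
      simp
  refine le_trans ?_ hstep
  refine le_trans ?_ hmain
  have : (1 : ℝ) - 1 / (2 * ((21 : ℕ) : ℝ)) = 1 - 1 / 42 := by norm_num
  rw [this]
  linarith

end Crest.TG29
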