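import Mathlib
import Crest.Prelude.Def_CopyThreshold

/-! Assembly lemmas for labelled pieces. -/

set_option autoImplicit false

namespace TG6
open Finset Crest.CombinatoricsR.RandomGraph

/-- isolated vertices are free -/
theorem isContained_of_injOn {W : Type*} [Fintype W] [DecidableEq W] (F : SimpleGraph W) {n : ℕ}
    (G : SimpleGraph (Fin n)) (hW : Fintype.card W ≤ n) (S : Finset W) (φ : W → Fin n)
    (hinj : Set.InjOn φ S) (hS : ∀ a b, F.Adj a b → a ∈ S)
    (hadj : ∀ a b, F.Adj a b → G.Adj (φ a) (φ b)) : F.IsContained G := by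
  classical
  have h1 : (S.image φ).card ≤ Fintype.card W := by
    refine card_image_le.trans ?_
    exact card_le_univ S
  obtain ⟨t, ht1, -, ht2⟩ := Finset.exists_subsuperset_card_eq (subset_univ (S.image φ)) h1
    (by rw [card_univ, Fintype.card_fin]; exact hW)
  obtain ⟨g, hg⟩ := Finset.exists_equiv_extend_of_card_eq (ht2.symm) (s := S) (f := φ) ht1 hinj
  refine ⟨⟨⟨fun a => (g a : Fin n), ?_⟩, ?_⟩⟩
  · intro a b hab
    have ha := hS a b hab
    have hb := hS b a hab.symm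
    show G.Adj (g a : Fin n) (g b : Fin n)
    rw [hg a ha, hg b hb]
    exact hadj a b hab
  · intro a b hab
    exact g.injective (Subtype.ext hab)

theorem pieceGraph_adj {W : Type*} {k : ℕ} (H : SimpleGraph W) (c : H.edgeSet → Fin k) (i : Fin k)
    (a b : W) : (pieceGraph H c i).Adj a b ↔ ∃ h : H.Adj a b, c ⟨s(a, b), h⟩ = i := by
  unfold pieceGraph
  rw [SimpleGraph.fromEdgeSet_adj]
  constructor
  · rintro ⟨⟨h, hc⟩, -⟩
    exact ⟨h, hc⟩
  · rintro ⟨h, hc⟩
    exact ⟨⟨h, hc⟩, h.ne⟩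

theorem pieceGraph_le {W : Type*} {k : ℕ} (H : SimpleGraph W) (c : H.edgeSet → Fin k) (i : Fin k) :
    pieceGraph H c i ≤ H := by
  intro a b h
  exact ((pieceGraph_adj H c i a b).1 h).1

/-- labels of labels -/
theorem refine_labels {W : Type*} (H : SimpleGraph W) {k1 k2 : ℕ} (c : H.edgeSet → Fin k1)
    (P : SimpleGraph W → Prop)
    (h : ∀ i, ∃ d : (pieceGraph H c i).edgeSet → Fin k2, ∀ j, P (pieceGraph (pieceGraph H c i) d j)) :
    ∃ e : H.edgeSet → Fin (k1 * k2), ∀ i, P (pieceGraph H e i) := by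
  classical
  choose d hd using h
  have hmem : ∀ x : H.edgeSet, (x : Sym2 W) ∈ (pieceGraph H c (c x)).edgeSet := by
    rintro ⟨x, hx⟩
    induction x using Sym2.ind with
    | _ a b =>
      show (pieceGraph H c _).Adj a b
      exact (pieceGraph_adj H c _ a b).2 ⟨hx, rfl⟩
  refine ⟨fun x => finProdFinEquiv (c x, d (c x) ⟨x, hmem x⟩), fun i => ?_⟩
  obtain ⟨⟨i1, i2⟩, rfl⟩ := finProdFinEquiv.surjective i
  have : pieceGraph H (fun x => finProdFinEquiv (c x, d (c x) ⟨x, hmem x⟩)) (finProdFinEquiv (i1, i2))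
      = pieceGraph (pieceGraph H c i1) (d i1) i2 := by
    ext a b
    rw [pieceGraph_adj, pieceGraph_adj]
    constructor
    · rintro ⟨h, hc⟩
      have h1 := finProdFinEquiv.injective hc
      have h2 : c ⟨s(a, b), h⟩ = i1 := congrArg Prod.fst h1
      have h3 : d (c ⟨s(a, b), h⟩) ⟨s(a, b), hmem ⟨s(a, b), h⟩⟩ = i2 := congrArg Prod.snd h1
      subst h2
      exact ⟨(pieceGraph_adj H c _ a b).2 ⟨h, rfl⟩, h3⟩
    · rintro ⟨h, hc⟩
      obtain ⟨h', h2⟩ := (pieceGraph_adj H c _ a b).1 h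
      subst h2
      refine ⟨h', ?_⟩
      show finProdFinEquiv (c ⟨s(a, b), h'⟩, d (c ⟨s(a, b), h'⟩) ⟨s(a, b), hmem ⟨s(a, b), h'⟩⟩) = _
      rw [hc]
  rw [this]
  exact hd i1 i2

/-- enlarge the label set; the extra pieces are edgeless -/
theorem enlarge_labels {W : Type*} (H : SimpleGraph W) {k k' : ℕ} (hk : k ≤ k')
    (P : SimpleGraph W → Prop) (hbot : P ⊥) (h : ∃ c : H.edgeSet → Fin k, ∀ i, P (pieceGraph H c i)) :
    ∃ e : H.edgeSet → Fin k', ∀ i, P (pieceGraph H e i) := by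
  classical
  obtain ⟨c, hc⟩ := h
  refine ⟨fun x => Fin.castLE hk (c x), fun i => ?_⟩
  by_cases hi : (i : ℕ) < k
  · have : pieceGraph H (fun x => Fin.castLE hk (c x)) i = pieceGraph H c ⟨i, hi⟩ := by
      ext a b
      rw [pieceGraph_adj, pieceGraph_adj]
      refine exists_congr fun h => ?_
      rw [Fin.ext_iff, Fin.ext_iff]
      rfl
    rw [this]
    exact hc _
  · have : pieceGraph H (fun x => Fin.castLE hk (c x)) i = ⊥ := by
      ext a b
      rw [pieceGraph_adj]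
      simp only [SimpleGraph.bot_adj, iff_false]
      rintro ⟨h, hc'⟩
      apply hi
      rw [← hc']
      exact (c ⟨s(a, b), h⟩).2
    rw [this]
    exact hbot

/-- labelling by a function on unordered pairs -/
theorem pieceGraph_sym2 {W : Type*} {k : ℕ} (H : SimpleGraph W) (f : Sym2 W → Fin k) (i : Fin k)
    (a b : W) : (pieceGraph H (fun x => f x.1) i).Adj a b ↔ H.Adj a b ∧ f s(a, b) = i := by
  rw [pieceGraph_adj]
  exact ⟨fun ⟨h, h'⟩ => ⟨h, h'⟩, fun ⟨h, h'⟩ => ⟨h, h'⟩⟩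

theorem isContained_of_le {W V : Type*} {F F' : SimpleGraph W} {G : SimpleGraph V} (h : F ≤ F')
    (h' : F'.IsContained G) : F.IsContained G := by
  obtain ⟨f⟩ := h'
  exact ⟨⟨⟨fun a => f a, fun {a b} hab => f.toHom.map_adj (h hab)⟩, f.injective⟩⟩

theorem bot_isContained {W : Type*} [Fintype W] [DecidableEq W] {n : ℕ} (G : SimpleGraph (Fin n))
    (hW : Fintype.card W ≤ n) : (⊥ : SimpleGraph W).IsContained G := by
  have : Nonempty (W ↪ Fin n) := Function.Embedding.nonempty_of_card_le (by rwa [Fintype.card_fin])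
  obtain ⟨e⟩ := this
  exact ⟨⟨⟨fun a => e a, fun {a b} hab => absurd hab (by simp)⟩, e.injective⟩⟩

end TG6
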