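import Crest.Agent.KK_D0
import Crest.Agent.KK_D2
import Crest.Agent.KK_Push
import Crest.Prelude.Def_CopyThreshold

/-! T6: glue lemmas for S0073: partial embeddings, monotonicity, transfer of the greedy lemma. -/

set_option autoImplicit false

namespace TG6
open Finset Crest.CombinatoricsR.RandomGraph

/-- an embedding of the non-isolated vertices extends to a copy -/
theorem isContained_of_partial {n : ℕ} {W : Type} [Fintype W] [DecidableEq W] (F : SimpleGraph W)
    (G : SimpleGraph (Fin n)) (hW : Fintype.card W ≤ n) (S : Set W)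
    (hS : ∀ a b, F.Adj a b → a ∈ S) (φ : W → Fin n) (hinj : Set.InjOn φ S)
    (hadj : ∀ a b, F.Adj a b → G.Adj (φ a) (φ b)) : F.IsContained G := by
  classical
  obtain ⟨ι⟩ : Nonempty (W ↪ Fin n) :=
    Function.Embedding.nonempty_of_card_le (by rwa [Fintype.card_fin])
  let e : {x // x ∈ ι '' S} ≃ {x // x ∈ φ '' S} :=
    ((Equiv.Set.image ι S ι.injective).symm).trans (Equiv.Set.imageOfInjOn φ S hinj)
  let σ : Equiv.Perm (Fin n) := e.extendSubtype
  have hσ : ∀ w ∈ S, σ (ι w) = φ w := by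
    intro w hw
    show e.extendSubtype (ι w) = φ w
    rw [Equiv.extendSubtype_apply_of_mem e (ι w) ⟨w, hw, rfl⟩]
    show ((Equiv.Set.imageOfInjOn φ S hinj) ((Equiv.Set.image ι S ι.injective).symm ⟨ι w, _⟩)).1 = φ w
    have h1 : (Equiv.Set.image ι S ι.injective).symm ⟨ι w, ⟨w, hw, rfl⟩⟩ = ⟨w, hw⟩ := by
      rw [Equiv.symm_apply_eq]
      rfl
    rw [h1]
    rfl
  refine ⟨⟨⟨fun a => σ (ι a), ?_⟩, fun a b hab => ι.injective (σ.injective hab)⟩⟩
  intro a b hab
  show G.Adj (σ (ι a)) (σ (ι b))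
  rw [hσ a (hS a b hab), hσ b (hS b a hab.symm)]
  exact hadj a b hab

/-- monotonicity in the event -/
theorem gnpProb_mono_event {n : ℕ} (p : ℝ) (hp0 : 0 ≤ p) (hp1 : p ≤ 1)
    (E E' : Set (SimpleGraph (Fin n))) (h : E ⊆ E') : gnpProb n p E ≤ gnpProb n p E' := by
  classical
  unfold gnpProb Crest.FinProb.bernoulliProb
  apply sum_le_sum_of_subset_of_nonneg
  · intro ω hω
    rw [mem_filter] at hω ⊢
    exact ⟨mem_univ _, h hω.2⟩
  · intro ω _ _
    unfold Crest.FinProb.bernoulliWeight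
    refine prod_nonneg fun i _ => ?_
    split_ifs
    · exact hp0
    · linarith

theorem bernoulliProb_mono_event {X : Type} [Fintype X] [DecidableEq X] (p : ℝ) (hp0 : 0 ≤ p)
    (hp1 : p ≤ 1) (E E' : Set (X → Bool)) (h : E ⊆ E') :
    Crest.FinProb.bernoulliProb p E ≤ Crest.FinProb.bernoulliProb p E' := by
  classical
  unfold Crest.FinProb.bernoulliProb
  apply sum_le_sum_of_subset_of_nonneg
  · intro ω hω
    rw [mem_filter] at hω ⊢
    exact ⟨mem_univ _, h hω.2⟩
  · intro ω _ _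
    unfold Crest.FinProb.bernoulliWeight
    refine prod_nonneg fun i _ => ?_
    split_ifs
    · exact hp0
    · linarith

/-- monotonicity in `p` for containing a copy -/
theorem gnpProb_mono_p {n : ℕ} {W : Type} (F : SimpleGraph W) (p p' : ℝ) (hp0 : 0 ≤ p)
    (hpp : p ≤ p') (hp1 : p' ≤ 1) :
    gnpProb n p {G | F.IsContained G} ≤ gnpProb n p' {G | F.IsContained G} := by
  unfold gnpProb
  exact KK.bernoulliProb_mono p p' hp0 hpp hp1 _ (fun ω ω' h h' => KK.isContained_mono F ω ω' h h')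

/-- the statement of the greedy lemma (helper2's `Crest.TG.greedy`) for fixed `n, D, Δ, T, q` -/
def GreedyStmt (n D Δ T : ℕ) (q : ℝ) : Prop :=
  ∀ (m : ℕ) (B : Fin m → Finset (Fin m)), (∀ j, ∀ i ∈ B j, i < j) → (∀ j, (B j).card ≤ D) →
    (∀ i, (univ.filter (fun j => i ∈ B j)).card ≤ Δ) → m + D * Δ * T + T ≤ n →
    1 - (m : ℝ) * (1 - q ^ D) ^ T ≤ Crest.FinProb.bernoulliProb q {ω : EdgeSlot n → Bool |
      ∃ φ : Fin m → Fin n, Function.Injective φ ∧ ∀ j, ∀ i ∈ B j, (graphOf ω).Adj (φ i) (φ j)}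

/-- transfer of the greedy lemma to a graph piece -/
theorem greedy_graph {n : ℕ} {W : Type} [Fintype W] [DecidableEq W] (F : SimpleGraph W)
    [DecidableRel F.Adj] (hW : Fintype.card W ≤ n) (σ : W ≃ Fin (Fintype.card W))
    (D Δ T m : ℕ) (q : ℝ) (hq0 : 0 ≤ q) (hq1 : q ≤ 1) (greedy : GreedyStmt n D Δ T q)
    (S : Finset W) (hS : ∀ a b, F.Adj a b → a ∈ S) (hSm : S.card ≤ m)
    (hback : ∀ v, (univ.filter (fun u => F.Adj v u ∧ σ u < σ v)).card ≤ D)
    (hΔ : ∀ v, (univ.filter (fun u => F.Adj v u)).card ≤ Δ)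
    (hn : m + D * Δ * T + T ≤ n) :
    1 - (m : ℝ) * (1 - q ^ D) ^ T ≤ gnpProb n q {G | F.IsContained G} := by
  classical
  -- enumerate `S` in the order of `σ`
  set S' : Finset (Fin (Fintype.card W)) := S.map σ.toEmbedding with hS'
  have hcard : S'.card = S.card := card_map _
  let e : Fin S.card ≃o S' := S'.orderIsoOfFin hcard
  let v : Fin S.card → W := fun j => σ.symm (e j).1
  have hvS : ∀ j, v j ∈ S := by
    intro j
    have h1 : (e j).1 ∈ S' := (e j).2
    obtain ⟨a, ha, ha'⟩ := mem_map.1 h1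
    show σ.symm (e j).1 ∈ S
    rw [← ha']
    simpa using ha
  have hσv : ∀ j, σ (v j) = (e j).1 := fun j => by simp [v]
  have hvinj : Function.Injective v := by
    intro i j hij
    have h1 : (e i).1 = (e j).1 := by rw [← hσv, ← hσv, hij]
    exact e.injective (Subtype.ext h1)
  have hvsurj : ∀ a ∈ S, ∃ j, v j = a := by
    intro a ha
    have h1 : σ a ∈ S' := by rw [hS']; exact mem_map_of_mem _ ha
    obtain ⟨j, hj⟩ := e.surjective ⟨σ a, h1⟩
    refine ⟨j, ?_⟩
    show σ.symm (e j).1 = a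
    rw [hj]
    simp
  let B : Fin S.card → Finset (Fin S.card) := fun j =>
    univ.filter (fun i => F.Adj (v j) (v i) ∧ i < j)
  have hlt : ∀ i j, i < j ↔ σ (v i) < σ (v j) := by
    intro i j
    rw [hσv, hσv]
    exact (e.lt_iff_lt (x := i) (y := j)).symm
  have h1 := greedy S.card B (by
      intro j i hi
      exact (mem_filter.1 hi).2.2) (by
      intro j
      refine le_trans ?_ (hback (v j))
      rw [← card_map ⟨v, hvinj⟩]
      apply card_le_card
      intro a ha
      rw [mem_map] at ha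
      obtain ⟨i, hi, rfl⟩ := ha
      rw [mem_filter] at hi ⊢
      exact ⟨mem_univ _, hi.2.1, (hlt i j).1 hi.2.2⟩) (by
      intro i
      refine le_trans ?_ (hΔ (v i))
      rw [← card_map ⟨v, hvinj⟩]
      apply card_le_card
      intro a ha
      rw [mem_map] at ha
      obtain ⟨j, hj, rfl⟩ := ha
      rw [mem_filter] at hj ⊢
      exact ⟨mem_univ _, (mem_filter.1 hj.2).2.1.symm⟩) (by omega)
  have hx0 : 0 ≤ 1 - q ^ D := by
    have := pow_le_one₀ (n := D) hq0 hq1
    linarith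
  have h2 : 1 - (m : ℝ) * (1 - q ^ D) ^ T ≤ 1 - (S.card : ℝ) * (1 - q ^ D) ^ T := by
    have h3 : (S.card : ℝ) ≤ m := by exact_mod_cast hSm
    have h4 : 0 ≤ (1 - q ^ D) ^ T := pow_nonneg hx0 _
    nlinarith
  refine h2.trans (h1.trans ?_)
  unfold gnpProb
  apply bernoulliProb_mono_event q hq0 hq1
  rintro ω ⟨φ, hφ, hadj⟩
  show F.IsContained (graphOf ω)
  by_cases hn0 : Nonempty (Fin n)
  swap
  · -- no vertices
    have hn00 : n = 0 := by
      rcases Nat.eq_zero_or_pos n with h | h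
      · exact h
      · exact absurd ⟨⟨0, h⟩⟩ hn0
    have hW0 : IsEmpty W := Fintype.card_eq_zero_iff.1 (by omega)
    exact ⟨⟨⟨fun a => (hW0.false a).elim, fun {a} => (hW0.false a).elim⟩,
      fun a => (hW0.false a).elim⟩⟩
  let x0 : Fin n := hn0.some
  -- inverse of `v` on `S`
  have hex : ∀ a : W, ∃ x : Fin n, ∀ j, v j = a → x = φ j := by
    intro a
    by_cases ha : ∃ j, v j = a
    · obtain ⟨j, hj⟩ := ha
      refine ⟨φ j, fun j' hj' => ?_⟩
      rw [hvinj (hj.trans hj'.symm)]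
    · exact ⟨x0, fun j hj => absurd ⟨j, hj⟩ ha⟩
  choose ψ hψ using hex
  have hψv : ∀ j, ψ (v j) = φ j := fun j => hψ (v j) j rfl
  refine isContained_of_partial F (graphOf ω) hW (S : Set W) (fun a b h => hS a b h) ψ ?_ ?_
  · intro a ha b hb hab
    obtain ⟨i, rfl⟩ := hvsurj a ha
    obtain ⟨j, rfl⟩ := hvsurj b hb
    rw [hψv, hψv] at hab
    rw [hφ hab]
  · intro a b hab
    obtain ⟨i, rfl⟩ := hvsurj a (hS a b hab)
    obtain ⟨j, rfl⟩ := hvsurj b (hS b _ hab.symm)
    rw [hψv, hψv]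
    rcases lt_trichotomy i j with h | h | h
    · exact hadj j i (mem_filter.2 ⟨mem_univ _, hab.symm, h⟩)
    · exact absurd (by rw [h]) hab.ne
    · exact (hadj i j (mem_filter.2 ⟨mem_univ _, hab, h⟩)).symm

end TG6
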