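import Crest.Agent.KK_D0
import Crest.Agent.KK_D2
import Crest.Agent.KK_Push
import Crest.Prelude.Def_CopyThreshold

/-! T6: frame of S0073: reduction to the maximal `q` at which the copies have a cheap cover. -/

set_option autoImplicit false

namespace TG6
open Finset Crest.CombinatoricsR.RandomGraph

theorem edgeGraph_eq {n : ℕ} (A : Finset (EdgeSlot n)) :
    edgeGraph A = graphOf (fun x => decide (x ∈ A)) := by
  unfold edgeGraph graphOf
  simp

theorem exists_perm {n : ℕ} {W : Type} [Fintype W] (ι f : W ↪ Fin n) :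
    ∃ σ : Equiv.Perm (Fin n), ∀ w, σ (ι w) = f w := by
  classical
  let e : {x // x ∈ Set.range ι} ≃ {x // x ∈ Set.range f} :=
    (Equiv.ofInjective ι ι.injective).symm.trans (Equiv.ofInjective f f.injective)
  refine ⟨e.extendSubtype, fun w => ?_⟩
  rw [Equiv.extendSubtype_apply_of_mem e (ι w) ⟨w, rfl⟩]
  have h1 : (Equiv.ofInjective ι ι.injective).symm ⟨ι w, ⟨w, rfl⟩⟩ = w :=
    Equiv.ofInjective_symm_apply ι.injective w
  show ((Equiv.ofInjective f f.injective) ((Equiv.ofInjective ι ι.injective).symm ⟨ι w, _⟩)).1 = f w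
  rw [h1]
  rfl

/-- the translates of a set of slots of `H` cover the copies of `H` -/
theorem cover_translates {n : ℕ} {W : Type} [Fintype W] [DecidableEq W] (H : SimpleGraph W)
    [DecidableRel H.Adj] (ι : W ↪ Fin n) (J : Finset (EdgeSlot n)) (hJ : J ⊆ KK.slots H ι)
    (A : Finset (EdgeSlot n)) (hA : H.IsContained (edgeGraph A)) :
    ∃ S ∈ (univ.image fun σ : Equiv.Perm (Fin n) => J.image (KK.act n σ)), S ⊆ A := by
  obtain ⟨f⟩ := hA
  obtain ⟨σ, hσ⟩ := exists_perm ι ⟨f.toHom, f.injective⟩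
  refine ⟨J.image (KK.act n σ), mem_image_of_mem _ (mem_univ σ), ?_⟩
  intro y hy
  obtain ⟨x, hx, rfl⟩ := mem_image.1 hy
  have h1 := hJ hx
  unfold KK.slots at h1
  rw [mem_filter] at h1
  obtain ⟨_, e, he, hex⟩ := h1
  induction e using Sym2.ind with
  | _ a b =>
    rw [SimpleGraph.mem_edgeFinset, SimpleGraph.mem_edgeSet] at he
    have h2 : (edgeGraph A).Adj (f.toHom a) (f.toHom b) := f.toHom.map_adj he
    unfold edgeGraph at h2
    rw [SimpleGraph.fromEdgeSet_adj] at h2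
    obtain ⟨⟨hd, hm⟩, _⟩ := h2
    have h3 : KK.act n σ x = ⟨s(f.toHom a, f.toHom b), hd⟩ := by
      apply Subtype.ext
      rw [KK.act_val, ← hex]
      show Sym2.map σ (Sym2.map ι s(a, b)) = s(f.toHom a, f.toHom b)
      rw [Sym2.map_pair_eq, Sym2.map_pair_eq]
      have ha := hσ a
      have hb := hσ b
      simp only [Function.Embedding.coeFn_mk] at ha hb
      rw [ha, hb]
    rw [h3]
    exact hm

theorem full_contained {n : ℕ} {W : Type} [Fintype W] [DecidableEq W] (H : SimpleGraph W)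
    (ι : W ↪ Fin n) : H.IsContained (edgeGraph (univ : Finset (EdgeSlot n))) := by
  classical
  rw [edgeGraph_eq]
  exact KK.isContained_of_full H ι 1 _ (fun x _ => by simp)

theorem gnpProb_one {n : ℕ} {W : Type} [Fintype W] [DecidableEq W] (H : SimpleGraph W)
    (ι : W ↪ Fin n) : (1 : ℝ) ≤ gnpProb n 1 {G | H.IsContained G} := by
  classical
  unfold gnpProb
  apply KK.bernoulliProb_one
  show H.IsContained (graphOf _)
  exact KK.isContained_of_full H ι 1 _ (fun x _ => rfl)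

/-- existence of the maximal `q` -/
theorem exists_q {n : ℕ} {W : Type} [Fintype W] [DecidableEq W] (H : SimpleGraph W)
    [DecidableRel H.Adj] (ι : W ↪ Fin n) (hH : H ≠ ⊥) :
    ∃ q : ℝ, 0 < q ∧ q < 1 ∧
      (∃ C : Finset (Finset (EdgeSlot n)),
        (∀ A : Finset (EdgeSlot n), H.IsContained (edgeGraph A) → ∃ S ∈ C, S ⊆ A) ∧
        ∑ S ∈ C, q ^ S.card ≤ 1 / 2) ∧
      (∀ p' : ℝ, q < p' → p' ≤ 1 → ¬ ∃ C : Finset (Finset (EdgeSlot n)),
        (∀ A : Finset (EdgeSlot n), H.IsContained (edgeGraph A) → ∃ S ∈ C, S ⊆ A) ∧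
        ∑ S ∈ C, p' ^ S.card ≤ 1 / 2) ∧
      (∀ (κ : W ↪ Fin n) (J : Finset (EdgeSlot n)), J ⊆ KK.slots H κ →
        (1 : ℝ) / 2 ≤ ((univ.image fun σ : Equiv.Perm (Fin n) => J.image (KK.act n σ)).card : ℝ) *
          q ^ J.card) := by
  classical
  let Cov : Finset (Finset (EdgeSlot n)) → Prop := fun C =>
    ∀ A : Finset (EdgeSlot n), H.IsContained (edgeGraph A) → ∃ S ∈ C, S ⊆ A
  let T : Set ℝ := ⋃ C ∈ {C : Finset (Finset (EdgeSlot n)) | Cov C},
    (Set.Icc (0 : ℝ) 1 ∩ {p | ∑ S ∈ C, p ^ S.card ≤ 1 / 2})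
  have hTmem : ∀ p : ℝ, p ∈ T ↔ (0 ≤ p ∧ p ≤ 1 ∧ ∃ C, Cov C ∧ ∑ S ∈ C, p ^ S.card ≤ 1 / 2) := by
    intro p
    simp only [T, Set.mem_iUnion, Set.mem_setOf_eq, Set.mem_inter_iff, Set.mem_Icc, exists_prop]
    constructor
    · rintro ⟨C, hC, ⟨h0, h1⟩, h2⟩
      exact ⟨h0, h1, C, hC, h2⟩
    · rintro ⟨h0, h1, C, hC, h2⟩
      exact ⟨C, hC, ⟨h0, h1⟩, h2⟩
  have hTc : IsCompact T := by
    refine Set.Finite.isCompact_biUnion (Set.toFinite _) ?_
    intro C _
    apply isCompact_Icc.inter_right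
    apply isClosed_le
    · exact continuous_finsetSum _ (fun S _ => continuous_id.pow _)
    · exact continuous_const
  obtain ⟨a0, b0, hab0⟩ : ∃ a b, H.Adj a b := by
    by_contra h
    push Not at h
    apply hH
    ext a b
    simp [h a b]
  have hne : T.Nonempty := by
    refine ⟨0, (hTmem 0).2 ⟨le_rfl, zero_le_one, univ.filter (fun S => S.Nonempty), ?_, ?_⟩⟩
    · intro A hA
      refine ⟨A, ?_, subset_rfl⟩
      rw [mem_filter]
      refine ⟨mem_univ _, ?_⟩
      obtain ⟨f⟩ := hA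
      have h2 : (edgeGraph A).Adj (f.toHom a0) (f.toHom b0) := f.toHom.map_adj hab0
      unfold edgeGraph at h2
      rw [SimpleGraph.fromEdgeSet_adj] at h2
      obtain ⟨⟨hd, hm⟩, _⟩ := h2
      exact ⟨_, hm⟩
    · rw [Finset.sum_eq_zero]
      · norm_num
      · intro S hS
        rw [mem_filter] at hS
        exact zero_pow (by rw [← Nat.pos_iff_ne_zero, card_pos]; exact hS.2)
  obtain ⟨q, hqT, hqmax⟩ := hTc.exists_isGreatest hne
  obtain ⟨hq0, hq1, C0, hC0, hcost⟩ := (hTmem q).1 hqT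
  have hNC : ∀ p' : ℝ, q < p' → p' ≤ 1 → ¬ ∃ C : Finset (Finset (EdgeSlot n)),
        (∀ A : Finset (EdgeSlot n), H.IsContained (edgeGraph A) → ∃ S ∈ C, S ⊆ A) ∧
        ∑ S ∈ C, p' ^ S.card ≤ 1 / 2 := by
    rintro p' hp' hp1 ⟨C, hC, hc⟩
    have : p' ∈ T := (hTmem p').2 ⟨hq0.trans hp'.le, hp1, C, hC, hc⟩
    exact absurd (hqmax this) (not_le.2 hp')
  have hqlt : q < 1 := by
    rcases hq1.lt_or_eq with h | h
    · exact h
    exfalso
    obtain ⟨S, hS, _⟩ := hC0 univ (full_contained H ι)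
    rw [h] at hcost
    simp only [one_pow, sum_const, nsmul_eq_mul, mul_one] at hcost
    have : (1 : ℝ) ≤ C0.card := by
      exact_mod_cast card_pos.2 ⟨S, hS⟩
    linarith
  have hFM : ∀ (κ : W ↪ Fin n) (J : Finset (EdgeSlot n)), J ⊆ KK.slots H κ →
        (1 : ℝ) / 2 ≤ ((univ.image fun σ : Equiv.Perm (Fin n) => J.image (KK.act n σ)).card : ℝ) *
          q ^ J.card := by
    intro κ J hJ
    by_contra hcon
    push Not at hcon
    set 𝒯 := (univ.image fun σ : Equiv.Perm (Fin n) => J.image (KK.act n σ)) with h𝒯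
    have hcont : Continuous fun p : ℝ => (𝒯.card : ℝ) * p ^ J.card := by fun_prop
    have hopen : IsOpen {p : ℝ | (𝒯.card : ℝ) * p ^ J.card < 1 / 2} :=
      isOpen_lt hcont continuous_const
    obtain ⟨ε, hε, hball⟩ := Metric.isOpen_iff.1 hopen q hcon
    have hp' : q < min (q + ε / 2) 1 := lt_min (by linarith) hqlt
    have hmem : min (q + ε / 2) 1 ∈ Metric.ball q ε := by
      rw [Metric.mem_ball, Real.dist_eq, abs_of_pos (by linarith)]
      have := min_le_left (q + ε / 2) 1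
      linarith
    have h1 := hball hmem
    refine hNC _ hp' (min_le_right _ _) ⟨𝒯, fun A hA => cover_translates H κ J hJ A hA, ?_⟩
    have hcard : ∀ S ∈ 𝒯, (min (q + ε / 2) 1) ^ S.card = (min (q + ε / 2) 1) ^ J.card := by
      intro S hS
      rw [h𝒯, mem_image] at hS
      obtain ⟨σ, _, rfl⟩ := hS
      rw [card_image_of_injective _ (KK.act n σ).injective]
    rw [sum_congr rfl hcard, sum_const, nsmul_eq_mul]
    exact le_of_lt h1
  have hqpos : 0 < q := by
    rcases hq0.lt_or_eq with h | h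
    · exact h
    exfalso
    have hd : ¬ (s(ι a0, ι b0)).IsDiag := by
      rw [Sym2.mk_isDiag_iff]
      exact fun h0 => hab0.ne (ι.injective h0)
    have h1 := hFM ι {⟨s(ι a0, ι b0), hd⟩} (by
      rw [singleton_subset_iff]
      unfold KK.slots
      rw [mem_filter]
      refine ⟨mem_univ _, s(a0, b0), ?_, rfl⟩
      rw [SimpleGraph.mem_edgeFinset, SimpleGraph.mem_edgeSet]
      exact hab0)
    rw [← h] at h1
    simp at h1
    norm_num at h1
  exact ⟨q, hqpos, hqlt, ⟨C0, hC0, hcost⟩, hNC, hFM⟩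

/-- **T6 frame**: S0073 follows from the core statement. -/
theorem frame (k : ℕ) (hk : 2 ≤ k) (L : ℝ) (hL : 1 ≤ L) (n0 : ℕ) (hn0 : ((n0 : ℝ)) ^ 2 ≤ L)
    (core : ∀ n : ℕ, 2 ≤ n → n0 < n → ∀ (W : Type) [Fintype W] [DecidableEq W]
      (H : SimpleGraph W) [DecidableRel H.Adj], Fintype.card W ≤ n → H ≠ ⊥ →
      ∀ q : ℝ, 0 < q → L * q < 1 →
      (∀ p' : ℝ, q < p' → p' ≤ 1 → ¬ ∃ C : Finset (Finset (EdgeSlot n)),
        (∀ A : Finset (EdgeSlot n), H.IsContained (edgeGraph A) → ∃ S ∈ C, S ⊆ A) ∧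
        ∑ S ∈ C, p' ^ S.card ≤ 1 / 2) →
      (∀ (κ : W ↪ Fin n) (J : Finset (EdgeSlot n)), J ⊆ KK.slots H κ →
        (1 : ℝ) / 2 ≤ ((univ.image fun σ : Equiv.Perm (Fin n) => J.image (KK.act n σ)).card : ℝ) *
          q ^ J.card) →
      ∃ c : H.edgeSet → Fin k, ∀ i : Fin k,
        1 / 2 ≤ gnpProb n (L * q) {G | (pieceGraph H c i).IsContained G}) :
    ∃ k : ℕ, 2 ≤ k ∧ ∃ L : ℝ, 1 ≤ L ∧ ∀ n : ℕ, 2 ≤ n →
      ∀ (W : Type) [Fintype W] [DecidableEq W] (H : SimpleGraph W),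
        Fintype.card W ≤ n → H ≠ ⊥ →
        ∃ c : H.edgeSet → Fin k, ∀ i : Fin k, ∃ p : ℝ, 0 ≤ p ∧ p ≤ 1 ∧
          (∃ C : Finset (Finset (EdgeSlot n)),
            (∀ A : Finset (EdgeSlot n),
              H.IsContained (edgeGraph A) → ∃ S ∈ C, S ⊆ A) ∧
            ∑ S ∈ C, p ^ S.card ≤ 1 / 2) ∧
          1 / 2 ≤ gnpProb n (min 1 (L * p))
            {G | (pieceGraph H c i).IsContained G} := by
  classical
  refine ⟨k, hk, L, hL, ?_⟩
  intro n hn W _ _ H hW hH
  obtain ⟨ι⟩ : Nonempty (W ↪ Fin n) :=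
    Function.Embedding.nonempty_of_card_le (by rwa [Fintype.card_fin])
  obtain ⟨q, hq0, hq1, hC, hNC, hFM⟩ := exists_q H ι hH
  by_cases hLq : 1 ≤ L * q
  · refine ⟨fun _ => ⟨0, by omega⟩, fun i => ⟨q, hq0.le, hq1.le, hC, ?_⟩⟩
    rw [min_eq_left hLq]
    have := gnpProb_one (pieceGraph H (fun _ => (⟨0, by omega⟩ : Fin k)) i) ι
    linarith
  · push Not at hLq
    have hn0n : n0 < n := by
      by_contra hcon
      push Not at hcon
      obtain ⟨a0, b0, hab0⟩ : ∃ a b, H.Adj a b := by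
        by_contra h
        push Not at h
        apply hH
        ext a b
        simp [h a b]
      have hd : ¬ (s(ι a0, ι b0)).IsDiag := by
        rw [Sym2.mk_isDiag_iff]
        exact fun h0 => hab0.ne (ι.injective h0)
      have h1 := hFM ι {⟨s(ι a0, ι b0), hd⟩} (by
        rw [singleton_subset_iff]
        unfold KK.slots
        rw [mem_filter]
        refine ⟨mem_univ _, s(a0, b0), ?_, rfl⟩
        rw [SimpleGraph.mem_edgeFinset, SimpleGraph.mem_edgeSet]
        exact hab0)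
      rw [card_singleton, pow_one] at h1
      have h2 : ((univ.image fun σ : Equiv.Perm (Fin n) =>
          ({⟨s(ι a0, ι b0), hd⟩} : Finset (EdgeSlot n)).image (KK.act n σ)).card : ℝ) ≤
          (n : ℝ) ^ 2 / 2 := by
        have h3 : (univ.image fun σ : Equiv.Perm (Fin n) =>
          ({⟨s(ι a0, ι b0), hd⟩} : Finset (EdgeSlot n)).image (KK.act n σ)) ⊆
          (univ : Finset (EdgeSlot n)).image (fun x => {x}) := by
          intro S hS
          obtain ⟨σ, _, rfl⟩ := mem_image.1 hS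
          rw [image_singleton]
          exact mem_image_of_mem _ (mem_univ _)
        have h4 := (card_le_card h3).trans card_image_le
        rw [card_univ, Sym2.card_subtype_not_diag, Fintype.card_fin] at h4
        have h5 : ((n.choose 2 : ℕ) : ℝ) = (n : ℝ) * (n - 1) / 2 := Nat.cast_choose_two ℝ n
        have h6 : ((univ.image fun σ : Equiv.Perm (Fin n) =>
          ({⟨s(ι a0, ι b0), hd⟩} : Finset (EdgeSlot n)).image (KK.act n σ)).card : ℝ) ≤
          ((n.choose 2 : ℕ) : ℝ) := by exact_mod_cast h4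
        have hn' : (0 : ℝ) ≤ n := Nat.cast_nonneg _
        nlinarith
      have h7 : (n : ℝ) ^ 2 ≤ L := by
        refine le_trans ?_ hn0
        have : (n : ℝ) ≤ n0 := by exact_mod_cast hcon
        gcongr
      have h8 : (1 : ℝ) / 2 ≤ (n : ℝ) ^ 2 / 2 * q :=
        h1.trans (mul_le_mul_of_nonneg_right h2 hq0.le)
      nlinarith
    obtain ⟨c, hc⟩ := core n hn hn0n W H hW hH q hq0 hLq hNC hFM
    refine ⟨c, fun i => ⟨q, hq0.le, hq1.le, hC, ?_⟩⟩
    rw [min_eq_right hLq.le]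
    exact hc i

end TG6
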