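import Mathlib
import Crest.Agent.KK_D2
import Crest.Agent.KK_Push
import Crest.Agent.KK_Pr
import Crest.Prelude.Def_CopyThreshold
import Crest.Agent.TG6_Frame

/-! # S0073 : statement level skeleton.
`FM` first moment hypothesis, `Cov` the conclusion (cover by `k` subgraphs each appearing whp),
`SparseCore`, `DenseCore`, and `core_of` : both imply the core statement of the frame. -/

set_option autoImplicit false

namespace TG73
open Finset Crest.CombinatoricsR.RandomGraph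

open Classical in
/-- first moment hypothesis in the form of the frame -/
def FM (n : ℕ) {W : Type} [Fintype W] [DecidableEq W] (H : SimpleGraph W) (q : ℝ) : Prop :=
  ∀ ι : W ↪ Fin n, ∀ J ⊆ KK.slots H ι,
    (1 / 2 : ℝ) ≤
      ((univ.image fun σ : Equiv.Perm (Fin n) => J.image (KK.act n σ)).card : ℝ) * q ^ J.card

/-- `H` is covered by `k` graphs, each of which is contained in `G(n, L q)` with
probability at least `1/2`. -/
def Cov (k : ℕ) (L : ℝ) (n : ℕ) {W : Type} (H : SimpleGraph W) (q : ℝ) : Prop :=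
  ∃ F : Fin k → SimpleGraph W, (∀ a b, H.Adj a b → ∃ i, (F i).Adj a b) ∧
    ∀ i, (1 / 2 : ℝ) ≤ gnpProb n (L * q) {G | (F i).IsContained G}

/-- sparse range `q ≤ n^(-1/b0)` -/
def SparseCore (b0 : ℕ) : Prop :=
  ∃ k : ℕ, ∃ L : ℝ, 1 ≤ L ∧ ∃ n0 : ℕ, ∀ n : ℕ, n0 < n →
    ∀ (W : Type) [Fintype W] [DecidableEq W] (H : SimpleGraph W),
      Fintype.card W ≤ n → ∀ q : ℝ, 0 < q → L * q < 1 → FM n H q →
        q ^ b0 ≤ 1 / (n : ℝ) → Cov k L n H q

/-- dense range `q ≥ n^(-1/b0)` -/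
def DenseCore (b0 : ℕ) : Prop :=
  ∃ k : ℕ, ∃ L : ℝ, 1 ≤ L ∧ ∃ n0 : ℕ, ∀ n : ℕ, n0 < n →
    ∀ (W : Type) [Fintype W] [DecidableEq W] (H : SimpleGraph W),
      Fintype.card W ≤ n → ∀ q : ℝ, 0 < q → L * q < 1 → FM n H q →
        1 / (n : ℝ) ≤ q ^ b0 → Cov k L n H q

/-- the containment event is increasing in `p` -/
theorem gnpProb_mono {n : ℕ} {W : Type} (F : SimpleGraph W) (p p' : ℝ) (hp : 0 ≤ p)
    (hpp : p ≤ p') (hp' : p' ≤ 1) :
    gnpProb n p {G | F.IsContained G} ≤ gnpProb n p' {G | F.IsContained G} := by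
  unfold gnpProb
  refine KK.bernoulliProb_mono p p' hp hpp hp' _ ?_
  intro ω ω' hω h
  exact KK.isContained_mono F ω ω' hω h

/-- antitone in the graph -/
theorem gnpProb_anti {n : ℕ} {W : Type} (F F' : SimpleGraph W) (p : ℝ) (hp : 0 ≤ p) (hp1 : p ≤ 1)
    (h : F ≤ F') :
    gnpProb n p {G | F'.IsContained G} ≤ gnpProb n p {G | F.IsContained G} := by
  classical
  unfold gnpProb
  rw [KK.bernoulliProb_eq_Pr, KK.bernoulliProb_eq_Pr]
  refine KK.Pr_mono _ ?_ _ _ ?_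
  · intro b
    cases b
    · simpa using hp1
    · simpa using hp
  · intro ω hω
    have h1 : F'.IsContained (graphOf ω) := hω
    exact h1.mono_left h

/-- the edgeless graph is always contained -/
theorem gnpProb_bot {n : ℕ} {W : Type} [Fintype W] (hW : Fintype.card W ≤ n) (p : ℝ)
    (_hp : 0 ≤ p) (_hp1 : p ≤ 1) :
    (1 / 2 : ℝ) ≤ gnpProb n p {G | (⊥ : SimpleGraph W).IsContained G} := by
  classical
  unfold gnpProb
  rw [KK.bernoulliProb_eq_Pr]
  have h0 : ∀ ω : EdgeSlot n → Bool, ω ∈ {ω : EdgeSlot n → Bool |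
      graphOf ω ∈ {G | (⊥ : SimpleGraph W).IsContained G}} := by
    intro ω
    obtain ⟨ι⟩ : Nonempty (W ↪ Fin n) := by
      apply Function.Embedding.nonempty_of_card_le
      simpa using hW
    exact ⟨⟨⟨ι, fun {a b} hab => hab.elim⟩, ι.injective⟩⟩
  have h1 : KK.Pr (X := EdgeSlot n) (fun b : Bool => if b then p else 1 - p)
      (fun ω => ω ∈ {ω : EdgeSlot n → Bool |
      graphOf ω ∈ {G | (⊥ : SimpleGraph W).IsContained G}}) = 1 := by
    have h2 := KK.Pr_not (X := EdgeSlot n) (fun b : Bool => if b then p else 1 - p) (by simp)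
      (fun _ => False)
    have h3 : KK.Pr (X := EdgeSlot n) (fun b : Bool => if b then p else 1 - p)
      (fun _ => False) = 0 := by
      unfold KK.Pr
      simp
    rw [h3] at h2
    have h4 : (fun ω => ω ∈ {ω : EdgeSlot n → Bool |
      graphOf ω ∈ {G | (⊥ : SimpleGraph W).IsContained G}}) =
      (fun _ : EdgeSlot n → Bool => ¬ False) := by
      funext ω
      simpa using h0 ω
    rw [h4, h2]
    norm_num
  rw [h1]
  norm_num

/-- union of two covers -/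
theorem Cov.union {k₁ k₂ : ℕ} {L : ℝ} {n : ℕ} {W : Type} {H H₁ H₂ : SimpleGraph W} {q : ℝ}
    (h₁ : Cov k₁ L n H₁ q) (h₂ : Cov k₂ L n H₂ q)
    (h : ∀ a b, H.Adj a b → H₁.Adj a b ∨ H₂.Adj a b) : Cov (k₁ + k₂) L n H q := by
  obtain ⟨F₁, hF₁, hP₁⟩ := h₁
  obtain ⟨F₂, hF₂, hP₂⟩ := h₂
  refine ⟨Fin.append F₁ F₂, ?_, ?_⟩
  · intro a b hab
    rcases h a b hab with h' | h'
    · obtain ⟨i, hi⟩ := hF₁ a b h'
      exact ⟨Fin.castAdd k₂ i, by simpa using hi⟩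
    · obtain ⟨i, hi⟩ := hF₂ a b h'
      exact ⟨Fin.natAdd k₁ i, by simpa using hi⟩
  · intro i
    refine Fin.addCases (fun j => ?_) (fun j => ?_) i
    · simpa using hP₁ j
    · simpa using hP₂ j

/-- union of `m` covers -/
theorem Cov.iUnion {k m : ℕ} {L : ℝ} {n : ℕ} {W : Type} {H : SimpleGraph W} {q : ℝ}
    (G : Fin m → SimpleGraph W) (hG : ∀ j, Cov k L n (G j) q)
    (h : ∀ a b, H.Adj a b → ∃ j, (G j).Adj a b) : Cov (m * k) L n H q := by
  classical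
  choose F hF hP using hG
  refine ⟨fun i => F (finProdFinEquiv.symm i).1 (finProdFinEquiv.symm i).2, ?_, ?_⟩
  · intro a b hab
    obtain ⟨j, hj⟩ := h a b hab
    obtain ⟨i, hi⟩ := hF j a b hj
    exact ⟨finProdFinEquiv (j, i), by simpa using hi⟩
  · intro i
    exact hP _ _

/-- a single graph -/
theorem Cov.single {L : ℝ} {n : ℕ} {W : Type} {H : SimpleGraph W} {q : ℝ}
    (h : (1 / 2 : ℝ) ≤ gnpProb n (L * q) {G | H.IsContained G}) : Cov 1 L n H q :=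
  ⟨fun _ => H, fun _ _ hab => ⟨0, hab⟩, fun _ => h⟩

/-- monotonicity in the constants -/
theorem Cov.mono {k k' : ℕ} {L L' : ℝ} {n : ℕ} {W : Type} [Fintype W] {H : SimpleGraph W} {q : ℝ}
    (hW : Fintype.card W ≤ n) (h : Cov k L n H q) (hk : k ≤ k') (hL0 : 0 ≤ L) (hL : L ≤ L')
    (hq : 0 ≤ q) (hL' : L' * q ≤ 1) : Cov k' L' n H q := by
  classical
  obtain ⟨F, hF, hP⟩ := h
  refine ⟨fun i => if hi : i.1 < k then F ⟨i.1, hi⟩ else ⊥, ?_, ?_⟩
  · intro a b hab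
    obtain ⟨i, hi⟩ := hF a b hab
    refine ⟨⟨i.1, i.2.trans_le hk⟩, ?_⟩
    simp only [i.2, dif_pos]
    exact hi
  · intro i
    dsimp only
    split_ifs with hi
    · exact (hP _).trans (gnpProb_mono _ _ _ (by positivity) (mul_le_mul_of_nonneg_right hL hq) hL')
    · exact gnpProb_bot hW _ (mul_nonneg (hL0.trans hL) hq) hL'

/-- from a cover to a labelling of the edges -/
theorem Cov.labelling {k : ℕ} {L : ℝ} {n : ℕ} {W : Type} {H : SimpleGraph W}
    {q : ℝ} (hLq0 : 0 ≤ L * q) (hLq : L * q ≤ 1) (h : Cov k L n H q) :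
    ∃ c : H.edgeSet → Fin k, ∀ i : Fin k,
      (1 / 2 : ℝ) ≤ gnpProb n (L * q) {G | (pieceGraph H c i).IsContained G} := by
  classical
  obtain ⟨F, hF, hP⟩ := h
  have h1 : ∀ e : H.edgeSet, ∃ i, e.1 ∈ (F i).edgeSet := by
    rintro ⟨e, he⟩
    induction e using Sym2.ind with
    | _ a b =>
      obtain ⟨i, hi⟩ := hF a b he
      exact ⟨i, hi⟩
  choose c hc using h1
  refine ⟨c, fun i => (hP i).trans (gnpProb_anti _ _ _ hLq0 hLq ?_)⟩
  intro a b hab
  have hab' : (SimpleGraph.fromEdgeSet {e | ∃ h : e ∈ H.edgeSet, c ⟨e, h⟩ = i}).Adj a b := hab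
  rw [SimpleGraph.fromEdgeSet_adj] at hab'
  obtain ⟨⟨he, hci⟩, _⟩ := hab'
  have h2 := hc ⟨s(a, b), he⟩
  rw [hci] at h2
  exact h2

/-- the core statement of the frame (`helper52`, `TG6_Frame`), without the unused condition `NC` -/
def Core : Prop :=
  ∃ k : ℕ, 2 ≤ k ∧ ∃ L : ℝ, 1 ≤ L ∧ ∃ n0 : ℕ, (n0 : ℝ) ^ 2 ≤ L ∧ ∀ n : ℕ, n0 < n →
    ∀ (W : Type) [Fintype W] [DecidableEq W] (H : SimpleGraph W),
      Fintype.card W ≤ n → ∀ q : ℝ, 0 < q → L * q < 1 → FM n H q →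
        ∃ c : H.edgeSet → Fin k, ∀ i : Fin k,
          (1 / 2 : ℝ) ≤ gnpProb n (L * q) {G | (pieceGraph H c i).IsContained G}

theorem core_of (b0 : ℕ) (hs : SparseCore b0) (hd : DenseCore b0) : Core := by
  classical
  obtain ⟨k₁, L₁, hL₁, n₁, h₁⟩ := hs
  obtain ⟨k₂, L₂, hL₂, n₂, h₂⟩ := hd
  refine ⟨k₁ + k₂ + 2, by omega, L₁ + L₂ + ((n₁ + n₂ : ℕ) : ℝ) ^ 2, ?_, n₁ + n₂, ?_, ?_⟩
  · nlinarith [sq_nonneg ((n₁ + n₂ : ℕ) : ℝ)]
  · linarith
  · intro n hn W _ _ H hW q hq hLq hFM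
    set L := L₁ + L₂ + ((n₁ + n₂ : ℕ) : ℝ) ^ 2 with hL
    have hL1 : L₁ ≤ L := by nlinarith [sq_nonneg ((n₁ + n₂ : ℕ) : ℝ)]
    have hL2 : L₂ ≤ L := by nlinarith [sq_nonneg ((n₁ + n₂ : ℕ) : ℝ)]
    have hq1 : L₁ * q < 1 := (mul_le_mul_of_nonneg_right hL1 hq.le).trans_lt hLq
    have hq2 : L₂ * q < 1 := (mul_le_mul_of_nonneg_right hL2 hq.le).trans_lt hLq
    have hcov : Cov (k₁ + k₂ + 2) L n H q := by
      rcases le_total (q ^ b0) (1 / (n : ℝ)) with h | h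
      · exact (h₁ n (by omega) W H hW q hq hq1 hFM h).mono hW (by omega) (by linarith) hL1 hq.le
          hLq.le
      · exact (h₂ n (by omega) W H hW q hq hq2 hFM h).mono hW (by omega) (by linarith) hL2 hq.le
          hLq.le
    exact hcov.labelling (mul_nonneg (by linarith) hq.le) hLq.le

/-- **S0073** from the two ranges -/
theorem final (b0 : ℕ) (hs : SparseCore b0) (hd : DenseCore b0) :
    ∃ k : ℕ, 2 ≤ k ∧ ∃ L : ℝ, 1 ≤ L ∧ ∀ n : ℕ, 2 ≤ n →
      ∀ (W : Type) [Fintype W] [DecidableEq W] (H : SimpleGraph W),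
        Fintype.card W ≤ n → H ≠ ⊥ →
        ∃ c : H.edgeSet → Fin k, ∀ i : Fin k, ∃ p : ℝ, 0 ≤ p ∧ p ≤ 1 ∧
          (∃ C : Finset (Finset (EdgeSlot n)),
            (∀ A : Finset (EdgeSlot n),
              H.IsContained (edgeGraph A) → ∃ S ∈ C, S ⊆ A) ∧
            ∑ S ∈ C, p ^ S.card ≤ 1 / 2) ∧
          1 / 2 ≤ gnpProb n (min 1 (L * p))
            {G | (pieceGraph H c i).IsContained G} := by
  classical
  obtain ⟨k, hk, L, hL, n0, hn0, hcore⟩ := core_of b0 hs hd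
  refine TG6.frame k hk L hL n0 hn0 ?_
  intro n _ hn W _ _ H _ hW _ q hq hLq _ hFM
  refine hcore n hn W H hW q hq hLq ?_
  intro ι J hJ
  refine hFM ι J ?_
  convert hJ

end TG73
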