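import Crest.Agent.TG6_Frame
import Crest.Agent.TG73_Main
import Crest.Agent.TG6_Ext
import Crest.Agent.TG6_Glue

/-! Final glue of S0073: it follows from the sparse range `q ^ b0 * n ≤ 1` and the dense range
`1 < q ^ b0 * n`. -/

set_option autoImplicit false

namespace TG46
open Finset Crest.CombinatoricsR.RandomGraph

/-- the sparse range: `q ≤ n ^ (-1 / b0)` -/
def SparseCore (b0 : ℕ) : Prop :=
  ∃ (k n0 : ℕ) (L : ℝ), 0 ≤ L ∧ ∀ n : ℕ, 2 ≤ n → n0 < n →
    ∀ (W : Type) [Fintype W] [DecidableEq W] (H : SimpleGraph W) [DecidableRel H.Adj],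
      Fintype.card W ≤ n → H ≠ ⊥ → ∀ q : ℝ, 0 < q → L * q < 1 → q ^ b0 * (n : ℝ) ≤ 1 →
      (∀ (κ : W ↪ Fin n) (J : Finset (EdgeSlot n)), J ⊆ KK.slots H κ →
        (1 : ℝ) / 2 ≤ ((univ.image fun σ : Equiv.Perm (Fin n) => J.image (KK.act n σ)).card : ℝ) *
          q ^ J.card) →
      ∃ c : H.edgeSet → Fin k, ∀ i : Fin k,
        1 / 2 ≤ gnpProb n (L * q) {G | (pieceGraph H c i).IsContained G}

/-- the dense range: `q > n ^ (-1 / b0)` -/
def DenseCore (b0 : ℕ) : Prop :=
  ∃ (k n0 : ℕ) (L : ℝ), 0 ≤ L ∧ ∀ n : ℕ, 2 ≤ n → n0 < n →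
    ∀ (W : Type) [Fintype W] [DecidableEq W] (H : SimpleGraph W) [DecidableRel H.Adj],
      Fintype.card W ≤ n → H ≠ ⊥ → ∀ q : ℝ, 0 < q → L * q < 1 → 1 ≤ q ^ b0 * (n : ℝ) →
      (∀ (κ : W ↪ Fin n) (J : Finset (EdgeSlot n)), J ⊆ KK.slots H κ →
        (1 : ℝ) / 2 ≤ ((univ.image fun σ : Equiv.Perm (Fin n) => J.image (KK.act n σ)).card : ℝ) *
          q ^ J.card) →
      ∃ c : H.edgeSet → Fin k, ∀ i : Fin k,
        1 / 2 ≤ gnpProb n (L * q) {G | (pieceGraph H c i).IsContained G}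

/-- total mass of the product measure -/
theorem sum_weight {X : Type} [Fintype X] [DecidableEq X] (p : ℝ) :
    ∑ ω : X → Bool, Crest.FinProb.bernoulliWeight p ω = 1 := by
  classical
  have h := Finset.prod_univ_sum (R := ℝ) (ι := X) (κ := fun _ => Bool)
    (fun _ => (Finset.univ : Finset Bool)) (fun _ b => if b then p else 1 - p)
  simp only [Fintype.univ_bool, Finset.mem_singleton, Bool.true_eq_false, not_false_eq_true,
    Finset.sum_insert, if_true, Finset.sum_singleton, Bool.false_eq_true, if_false] at h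
  have h2 : (∏ _i : X, (p + (1 - p))) = 1 := by
    simp
  rw [h2] at h
  rw [h]
  unfold Crest.FinProb.bernoulliWeight
  refine sum_congr ?_ (fun ω _ => rfl)
  ext ω
  simp

theorem gnp_bot {n : ℕ} {W : Type} [Fintype W] [DecidableEq W] (hW : Fintype.card W ≤ n) (p : ℝ) :
    (1 : ℝ) / 2 ≤ gnpProb n p {G | (⊥ : SimpleGraph W).IsContained G} := by
  classical
  have h1 : {ω : EdgeSlot n → Bool |
      graphOf ω ∈ {G : SimpleGraph (Fin n) | (⊥ : SimpleGraph W).IsContained G}} = Set.univ := by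
    ext ω
    simp only [Set.mem_setOf_eq, Set.mem_univ, iff_true]
    exact TG6.bot_isContained _ hW
  unfold gnpProb
  rw [h1]
  unfold Crest.FinProb.bernoulliProb
  have h2 : (univ.filter fun ω : EdgeSlot n → Bool => ω ∈ (Set.univ : Set (EdgeSlot n → Bool))) =
      univ := by
    ext ω
    simp
  rw [Finset.sum_filter]
  simp only [Set.mem_univ, if_true]
  rw [sum_weight]
  norm_num

/-- change of the number of labels and of the constant `L` -/
theorem lift {n : ℕ} {W : Type} [Fintype W] [DecidableEq W] (H : SimpleGraph W)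
    (hW : Fintype.card W ≤ n) {k k' : ℕ} (hk : k ≤ k') (p p' : ℝ) (hp0 : 0 ≤ p) (hpp : p ≤ p')
    (hp1 : p' ≤ 1)
    (h : ∃ c : H.edgeSet → Fin k, ∀ i : Fin k,
        1 / 2 ≤ gnpProb n p {G | (pieceGraph H c i).IsContained G}) :
    ∃ c : H.edgeSet → Fin k', ∀ i : Fin k',
        1 / 2 ≤ gnpProb n p' {G | (pieceGraph H c i).IsContained G} := by
  obtain ⟨c, hc⟩ := h
  exact TG6.enlarge_labels H hk (fun F => 1 / 2 ≤ gnpProb n p' {G | F.IsContained G})
    (gnp_bot hW p') ⟨c, fun i => (hc i).trans (TG6.gnpProb_mono_p _ p p' hp0 hpp hp1)⟩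

/-- labels to covers -/
theorem cov_of_labels {k n : ℕ} {L : ℝ} {W : Type} {H : SimpleGraph W} {q : ℝ}
    (h : ∃ c : H.edgeSet → Fin k, ∀ i : Fin k,
        1 / 2 ≤ gnpProb n (L * q) {G | (pieceGraph H c i).IsContained G}) :
    TG73.Cov k L n H q := by
  obtain ⟨c, hc⟩ := h
  refine ⟨fun i => pieceGraph H c i, fun a b hab => ⟨c ⟨s(a, b), hab⟩, ?_⟩, hc⟩
  rw [TG6.pieceGraph_adj]
  exact ⟨hab, rfl⟩

theorem cov_bot {k n : ℕ} {L : ℝ} {W : Type} {q : ℝ} [Fintype W] [DecidableEq W]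
    (hW : Fintype.card W ≤ n) : TG73.Cov k L n (⊥ : SimpleGraph W) q :=
  ⟨fun _ => ⊥, fun a b hab => absurd hab (by simp), fun _ => gnp_bot hW _⟩

theorem sparse_conv {b0 : ℕ} (h : SparseCore b0) : TG73.SparseCore b0 := by
  classical
  obtain ⟨k, n0, L, hL, h⟩ := h
  refine ⟨k, max 1 L, le_max_left _ _, max 2 n0, ?_⟩
  intro n hn W _ _ H hW q hq hLq hFM hqb
  have hL' : L ≤ max 1 L := le_max_right _ _
  have e1 : L * q ≤ max 1 L * q := mul_le_mul_of_nonneg_right hL' hq.le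
  have hn2 : 2 < n := (le_max_left _ _).trans_lt hn
  by_cases hH : H = ⊥
  · subst hH
    exact cov_bot hW
  · have hn0 : (0 : ℝ) < n := by
      have : 0 < n := by omega
      exact_mod_cast this
    have h1 := h n hn2.le ((le_max_right _ _).trans_lt hn) W H hW hH q hq (e1.trans_lt hLq)
      (by
        have := mul_le_mul_of_nonneg_right hqb hn0.le
        rwa [one_div, inv_mul_cancel₀ hn0.ne'] at this) (by
        intro κ J hJ
        refine hFM κ J ?_
        convert hJ)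
    exact cov_of_labels (lift H hW le_rfl (L * q) (max 1 L * q) (mul_nonneg hL hq.le) e1 hLq.le h1)

theorem dense_conv {b0 : ℕ} (h : DenseCore b0) : TG73.DenseCore b0 := by
  classical
  obtain ⟨k, n0, L, hL, h⟩ := h
  refine ⟨k, max 1 L, le_max_left _ _, max 2 n0, ?_⟩
  intro n hn W _ _ H hW q hq hLq hFM hqb
  have hL' : L ≤ max 1 L := le_max_right _ _
  have e1 : L * q ≤ max 1 L * q := mul_le_mul_of_nonneg_right hL' hq.le
  have hn2 : 2 < n := (le_max_left _ _).trans_lt hn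
  by_cases hH : H = ⊥
  · subst hH
    exact cov_bot hW
  · have hn0 : (0 : ℝ) < n := by
      have : 0 < n := by omega
      exact_mod_cast this
    have h1 := h n hn2.le ((le_max_right _ _).trans_lt hn) W H hW hH q hq (e1.trans_lt hLq)
      (by
        have := mul_le_mul_of_nonneg_right hqb hn0.le
        rwa [one_div, inv_mul_cancel₀ hn0.ne'] at this) (by
        intro κ J hJ
        refine hFM κ J ?_
        convert hJ)
    exact cov_of_labels (lift H hW le_rfl (L * q) (max 1 L * q) (mul_nonneg hL hq.le) e1 hLq.le h1)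

end TG46
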