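import Crest.Agent.KK_D0
import Crest.Agent.KK_D2
import Crest.Prelude.Def_CopyThreshold

/-! S0073: exact interfaces (black boxes) of the dense range. -/

set_option autoImplicit false

namespace Crest.TG8
open Finset Crest.CombinatoricsR.RandomGraph

/-- HUB / depth-one class (black box of `dense_core`). `J` = hubs, `Y v = {u | F.Adj v u} ⊆ J`. -/
def GAMMA : Prop :=
  ∃ m : ℕ, 1 ≤ m ∧ ∃ L0 : ℝ, 2 ≤ L0 ∧ ∃ n0 : ℕ, ∀ n : ℕ, n0 ≤ n →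
    ∀ (W : Type) [Fintype W] [DecidableEq W] (F : SimpleGraph W) [DecidableRel F.Adj]
      (J : Finset W) (q : ℝ) (D : ℕ),
      0 < q → L0 * q < 1 → Fintype.card W ≤ n →
      (∀ u v, F.Adj u v → (u ∈ J ∧ v ∉ J) ∨ (u ∉ J ∧ v ∈ J)) →
      (J.card : ℝ) ≤ (n : ℝ) ^ (1 / 10 : ℝ) →
      (∀ v, v ∉ J → (univ.filter (fun u => F.Adj v u)).card ≤ D) →
      (n : ℝ) ^ (-(1 / 100) : ℝ) ≤ q ^ D →
      64 * (univ.filter (fun v => v ∉ J ∧ ∃ u, F.Adj v u)).card ≤ n →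
      (∀ S : Finset W, S.Nonempty →
        ((univ.filter (fun v => v ∉ J ∧ ∀ u ∈ S, F.Adj v u)).card : ℝ) ≤ 20 * n * q ^ S.card) →
      ∃ c : F.edgeSet → Fin m, ∀ i : Fin m,
        1 / 2 ≤ gnpProb n (L0 * q) {G | (pieceGraph F c i).IsContained G}

/-- greedy class (black box of `dense_core`). -/
def GREEDY : Prop :=
  ∀ (W : Type) [Fintype W] [DecidableEq W] (F : SimpleGraph W) [DecidableRel F.Adj]
    (U : Finset W), (∀ a b, F.Adj a b → a ∈ U) →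
    ∀ σ : W → ℕ, Function.Injective σ → ∀ n D Δ T : ℕ,
    (∀ v, (univ.filter (fun u => F.Adj v u ∧ σ u < σ v)).card ≤ D) →
    (∀ v, (univ.filter (fun u => F.Adj v u)).card ≤ Δ) →
    ∀ q : ℝ, 0 ≤ q → q ≤ 1 → Fintype.card W ≤ n → U.card + D * Δ * T + T ≤ n →
    1 - (U.card : ℝ) * (1 - q ^ D) ^ T ≤ gnpProb n q {G | F.IsContained G}

/-- first-moment conditions, as in `TG6.frame`. -/
def FM (n : ℕ) {W : Type} [Fintype W] [DecidableEq W] (H : SimpleGraph W) [DecidableRel H.Adj]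
    (q : ℝ) : Prop :=
  ∀ (κ : W ↪ Fin n) (J : Finset (EdgeSlot n)), J ⊆ KK.slots H κ →
    (1 : ℝ) / 2 ≤ ((univ.image fun σ : Equiv.Perm (Fin n) => J.image (KK.act n σ)).card : ℝ) *
      q ^ J.card

/-- the dense range of S0073 (b0 = 1000), one constant `L0`. -/
def DENSE : Prop :=
  ∃ k : ℕ, 1 ≤ k ∧ ∃ L0 : ℝ, 2 ≤ L0 ∧ ∃ n0 : ℕ, ∀ n : ℕ, 2 ≤ n → n0 < n →
    ∀ (W : Type) [Fintype W] [DecidableEq W] (H : SimpleGraph W) [DecidableRel H.Adj],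
      Fintype.card W ≤ n → H ≠ ⊥ → ∀ q : ℝ, 0 < q → L0 * q < 1 → 1 < q ^ 1000 * n → FM n H q →
      ∃ c : H.edgeSet → Fin k, ∀ i : Fin k,
        1 / 2 ≤ gnpProb n (L0 * q) {G | (pieceGraph H c i).IsContained G}

end Crest.TG8
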