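import Mathlib
import Crest.Prelude.Def_FinProb

set_option autoImplicit false

namespace Crest.TG.Expo

open Crest.FinProb

variable {V : Type} [Fintype V] [DecidableEq V]

/-- Greedy assignment of stars of sizes `ds` to candidates, avoiding the used leaf set `U`. -/
def Good : (m : ℕ) → (Fin m → V → Bool) → List ℕ → Finset V → Prop
  | _, _, [], _ => True
  | 0, _, _ :: _, _ => False
  | m + 1, ω, d :: ds, U =>
      (∃ S : Finset V, S.card = d ∧ Disjoint S U ∧ (∀ v ∈ S, ω 0 v = true) ∧
        Good m (fun i => ω i.succ) ds (U ∪ S)) ∨ Good m (fun i => ω i.succ) (d :: ds) U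

/-- The weight of a family of candidate neighbourhoods. -/
noncomputable def wt (p : ℝ) {m : ℕ} (ω : Fin m → V → Bool) : ℝ := ∏ u, bernoulliWeight p (ω u)

open Classical in
/-- The failure probability. -/
noncomputable def fail (p : ℝ) (m : ℕ) (ds : List ℕ) (U : Finset V) : ℝ :=
  ∑ ω : Fin m → V → Bool, wt p ω * (if Good m ω ds U then 0 else 1)

omit [DecidableEq V] in
theorem bw_nonneg (p : ℝ) (h0 : 0 ≤ p) (h1 : p ≤ 1) (ω : V → Bool) :
    0 ≤ bernoulliWeight p ω := by
  unfold bernoulliWeight
  apply Finset.prod_nonneg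
  intro i _
  split_ifs <;> linarith

theorem sum_bw (p : ℝ) : ∑ ω : V → Bool, bernoulliWeight p ω = 1 := by
  unfold bernoulliWeight
  have h := Finset.prod_univ_sum (fun _ : V => (Finset.univ : Finset Bool))
    (fun _ (b : Bool) => if b then p else 1 - p)
  rw [Fintype.piFinset_univ] at h
  rw [← h]
  simp

omit [DecidableEq V] in
theorem wt_nonneg (p : ℝ) (h0 : 0 ≤ p) (h1 : p ≤ 1) {m : ℕ} (ω : Fin m → V → Bool) :
    0 ≤ wt p ω := Finset.prod_nonneg fun _ _ => bw_nonneg p h0 h1 _

theorem sum_wt (p : ℝ) (m : ℕ) : ∑ ω : Fin m → V → Bool, wt p ω = 1 := by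
  unfold wt
  have h := Finset.prod_univ_sum (fun _ : Fin m => (Finset.univ : Finset (V → Bool)))
    (fun _ (x : V → Bool) => bernoulliWeight p x)
  rw [Fintype.piFinset_univ] at h
  rw [← h]
  simp [sum_bw]

theorem fail_le_one (p : ℝ) (h0 : 0 ≤ p) (h1 : p ≤ 1) (m : ℕ) (ds : List ℕ) (U : Finset V) :
    fail p m ds U ≤ 1 := by
  classical
  rw [← sum_wt (V := V) p m]
  unfold fail
  apply Finset.sum_le_sum
  intro ω _
  have := wt_nonneg p h0 h1 ω
  split_ifs <;> simp [this]

theorem fail_nonneg (p : ℝ) (h0 : 0 ≤ p) (h1 : p ≤ 1) (m : ℕ) (ds : List ℕ) (U : Finset V) :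
    0 ≤ fail p m ds U := by
  classical
  unfold fail
  apply Finset.sum_nonneg
  intro ω _
  have := wt_nonneg p h0 h1 ω
  split_ifs <;> simp [this]

omit [DecidableEq V] in
theorem wt_cons (p : ℝ) {m : ℕ} (x : V → Bool) (ω : Fin m → V → Bool) :
    wt p (Fin.cons x ω : Fin (m + 1) → V → Bool) = bernoulliWeight p x * wt p ω := by
  unfold wt
  rw [Fin.prod_univ_succ]
  simp

theorem sum_cons {m : ℕ} (f : (Fin (m + 1) → V → Bool) → ℝ) :
    ∑ ω, f ω = ∑ x : V → Bool, ∑ ω : Fin m → V → Bool, f (Fin.cons x ω) := by
  rw [← Fintype.sum_prod_type']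
  exact (Fintype.sum_equiv (Fin.consEquiv (fun _ : Fin (m + 1) => V → Bool)) _ _ (fun _ => rfl)).symm

/-- One exposure. -/
theorem fail_succ (p : ℝ) (h0 : 0 ≤ p) (h1 : p ≤ 1) (m : ℕ) (d : ℕ) (ds : List ℕ) (U : Finset V)
    (B B' : ℝ) (hB : fail p m (d :: ds) U ≤ B)
    (hB' : ∀ S : Finset V, S.card = d → Disjoint S U → fail p m ds (U ∪ S) ≤ B') (s : ℝ)
    (hs : s ≤ bernoulliProb p {ω : V → Bool | d ≤ (Finset.univ.filter
      (fun v => v ∉ U ∧ ω v = true)).card}) (hBB : B' ≤ B) :
    fail p (m + 1) (d :: ds) U ≤ (1 - s) * B + s * B' := by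
  classical
  have key : ∀ x : V → Bool,
      ∑ ω : Fin m → V → Bool, wt p (Fin.cons x ω : Fin (m + 1) → V → Bool) *
        (if Good (m + 1) (Fin.cons x ω : Fin (m + 1) → V → Bool) (d :: ds) U then (0 : ℝ) else 1)
      ≤ bernoulliWeight p x *
        (if d ≤ (Finset.univ.filter (fun v => v ∉ U ∧ x v = true)).card then B' else B) := by
    intro x
    have hx := bw_nonneg p h0 h1 x
    simp_rw [wt_cons, mul_assoc]
    rw [← Finset.mul_sum]
    apply mul_le_mul_of_nonneg_left _ hx
    split_ifs with hd
    · obtain ⟨S, hS, hSc⟩ := Finset.exists_subset_card_eq hd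
      have hdis : Disjoint S U := by
        rw [Finset.disjoint_left]
        intro v hv
        exact ((Finset.mem_filter.1 (hS hv)).2).1
      have htrue : ∀ v ∈ S, x v = true := fun v hv => ((Finset.mem_filter.1 (hS hv)).2).2
      refine le_trans ?_ (hB' S hSc hdis)
      unfold fail
      apply Finset.sum_le_sum
      intro ω _
      apply mul_le_mul_of_nonneg_left _ (wt_nonneg p h0 h1 ω)
      by_cases hg : Good m ω ds (U ∪ S)
      · have : Good (m + 1) (Fin.cons x ω : Fin (m + 1) → V → Bool) (d :: ds) U := by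
          left
          exact ⟨S, hSc, hdis, by simpa using htrue, by simpa using hg⟩
        simp [hg, this]
      · simp only [hg, if_false]
        split_ifs <;> norm_num
    · refine le_trans ?_ hB
      unfold fail
      apply Finset.sum_le_sum
      intro ω _
      apply mul_le_mul_of_nonneg_left _ (wt_nonneg p h0 h1 ω)
      by_cases hg : Good m ω (d :: ds) U
      · have : Good (m + 1) (Fin.cons x ω : Fin (m + 1) → V → Bool) (d :: ds) U := by
          right
          simpa using hg
        simp [hg, this]
      · simp only [hg, if_false]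
        split_ifs <;> norm_num
  have h2 : fail p (m + 1) (d :: ds) U ≤ ∑ x : V → Bool, bernoulliWeight p x *
        (if d ≤ (Finset.univ.filter (fun v => v ∉ U ∧ x v = true)).card then B' else B) := by
    unfold fail
    rw [sum_cons]
    exact Finset.sum_le_sum fun x _ => key x
  refine h2.trans ?_
  set P := bernoulliProb p {ω : V → Bool | d ≤ (Finset.univ.filter
      (fun v => v ∉ U ∧ ω v = true)).card} with hP
  have h3 : ∑ x : V → Bool, bernoulliWeight p x *
        (if d ≤ (Finset.univ.filter (fun v => v ∉ U ∧ x v = true)).card then B' else B)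
      = (1 - P) * B + P * B' := by
    have e1 : ∀ x : V → Bool, bernoulliWeight p x *
        (if d ≤ (Finset.univ.filter (fun v => v ∉ U ∧ x v = true)).card then B' else B)
        = bernoulliWeight p x * B + (if d ≤ (Finset.univ.filter
            (fun v => v ∉ U ∧ x v = true)).card then bernoulliWeight p x else 0) * (B' - B) := by
      intro x
      split_ifs <;> ring
    rw [Finset.sum_congr rfl fun x _ => e1 x, Finset.sum_add_distrib, ← Finset.sum_mul,
      ← Finset.sum_mul, sum_bw, ← Finset.sum_filter]
    have : P = ∑ x ∈ Finset.univ.filter (fun x : V → Bool => d ≤ (Finset.univ.filter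
            (fun v => v ∉ U ∧ x v = true)).card), bernoulliWeight p x := by
      rw [hP]
      unfold bernoulliProb
      apply Finset.sum_congr _ fun _ _ => rfl
      ext x
      simp
    rw [← this]
    ring
  rw [h3]
  nlinarith

theorem fail_nil (p : ℝ) (m : ℕ) (U : Finset V) : fail p m [] U = 0 := by
  classical
  unfold fail
  apply Finset.sum_eq_zero
  intro ω _
  have : Good m ω [] U := by
    cases m <;> simp [Good]
  simp [this]

/-- **The exposure lemma.** -/
theorem fail_le (p : ℝ) (h0 : 0 ≤ p) (h1 : p ≤ 1) (M : ℕ) (s : ℕ → ℝ)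
    (hs0 : ∀ d, 0 < s d) (hs1 : ∀ d, s d ≤ 1)
    (hs : ∀ d, ∀ U : Finset V, U.card + d ≤ M → s d ≤ bernoulliProb p {ω : V → Bool |
      d ≤ (Finset.univ.filter (fun v => v ∉ U ∧ ω v = true)).card}) (m : ℕ) :
    ∀ (ds : List ℕ) (U : Finset V), U.card + ds.sum ≤ M →
      m * fail p m ds U ≤ (ds.map fun d => 1 / s d).sum := by
  have hPhi : ∀ ds : List ℕ, 0 ≤ (ds.map fun d => 1 / s d).sum := by
    intro ds
    apply List.sum_nonneg
    intro x hx
    obtain ⟨d, _, rfl⟩ := List.mem_map.1 hx
    exact (one_div_pos.2 (hs0 d)).le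
  induction m with
  | zero => intro ds U _; simpa using hPhi ds
  | succ m ih =>
    intro ds U hU
    cases ds with
    | nil => rw [fail_nil]; simp
    | cons d ds =>
      have hsd := hs0 d
      have hone : (1 : ℝ) ≤ 1 / s d := by
        rw [le_div_iff₀ hsd]; linarith [hs1 d]
      set Φ' := (ds.map fun d => 1 / s d).sum with hΦ'
      have hΦ'0 : 0 ≤ Φ' := hPhi ds
      have hΦ : ((d :: ds).map fun d => 1 / s d).sum = 1 / s d + Φ' := by simp [hΦ']
      rw [hΦ]
      have hUd : U.card + d ≤ M := by
        simp only [List.sum_cons] at hU; omega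
      rcases Nat.eq_zero_or_pos m with hm | hm
      · subst hm
        have := fail_le_one p h0 h1 (0 + 1) (d :: ds) U
        push_cast
        linarith
      · have hm' : (0 : ℝ) < m := by exact_mod_cast hm
        have hA : fail p m (d :: ds) U ≤ min 1 ((1 / s d + Φ') / m) := by
          apply le_min (fail_le_one p h0 h1 _ _ _)
          rw [le_div_iff₀ hm', mul_comm]
          have := ih (d :: ds) U hU
          rwa [hΦ] at this
        have hB : ∀ S : Finset V, S.card = d → Disjoint S U →
            fail p m ds (U ∪ S) ≤ min 1 (Φ' / m) := by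
          intro S hS hdis
          apply le_min (fail_le_one p h0 h1 _ _ _)
          rw [le_div_iff₀ hm', mul_comm]
          apply ih ds (U ∪ S)
          have := Finset.card_union_le U S
          simp only [List.sum_cons] at hU
          omega
        have hmono : min 1 (Φ' / m) ≤ min 1 ((1 / s d + Φ') / m) := by
          apply min_le_min_left
          apply div_le_div_of_nonneg_right _ hm'.le
          linarith
        have h := fail_succ p h0 h1 m d ds U _ _ hA hB (s d) (hs d U hUd) hmono
        set X := fail p (m + 1) (d :: ds) U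
        set b := min 1 ((1 / s d + Φ') / m) with hb
        set b' := min 1 (Φ' / m) with hb'
        have hb1 : b ≤ 1 := min_le_left _ _
        have hb'1 : b' ≤ 1 := min_le_left _ _
        have hmb : m * b ≤ 1 / s d + Φ' := by
          have : b ≤ (1 / s d + Φ') / m := min_le_right _ _
          rw [le_div_iff₀ hm'] at this
          linarith
        have hmb' : m * b' ≤ Φ' := by
          have : b' ≤ Φ' / m := min_le_right _ _
          rw [le_div_iff₀ hm'] at this
          linarith
        have hs1d := hs1 d
        have hX1 : X ≤ 1 := fail_le_one p h0 h1 _ _ _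
        have h4 : m * X ≤ (1 - s d) * (1 / s d + Φ') + s d * Φ' := by
          calc (m : ℝ) * X ≤ m * ((1 - s d) * b + s d * b') :=
                mul_le_mul_of_nonneg_left h hm'.le
            _ = (1 - s d) * (m * b) + s d * (m * b') := by ring
            _ ≤ _ := add_le_add (mul_le_mul_of_nonneg_left hmb (by linarith))
                (mul_le_mul_of_nonneg_left hmb' hsd.le)
        have h5 : (1 - s d) * (1 / s d + Φ') + s d * Φ' = 1 / s d + Φ' - 1 := by
          field_simp
          ring
        push_cast
        linarith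

end Crest.TG.Expo
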