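import Mathlib
import Crest.Prelude.Def_RandomGraph

set_option autoImplicit false

namespace Crest.TG

open Finset Crest.CombinatoricsR.RandomGraph

variable {X Y Z : Type*} [Fintype X] [DecidableEq X] [Fintype Y] [DecidableEq Y]
  [Fintype Z] [DecidableEq Z]

/-- the probability as a sum of `if` -/
theorem bernoulliProb_eq_ite (p : ℝ) (E : Set (X → Bool)) [DecidablePred (· ∈ E)] :
    Crest.FinProb.bernoulliProb p E
      = ∑ ω : X → Bool, if ω ∈ E then Crest.FinProb.bernoulliWeight p ω else 0 := by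
  classical
  unfold Crest.FinProb.bernoulliProb
  rw [Finset.sum_filter]
  refine Finset.sum_congr rfl fun ω _ => ?_
  by_cases h : ω ∈ E
  · simp [h]
  · simp [h]

theorem sum_bernoulliWeight (p : ℝ) :
    ∑ ω : X → Bool, Crest.FinProb.bernoulliWeight p ω = 1 := by
  classical
  have h := Finset.prod_univ_sum (R := ℝ) (ι := X) (κ := fun _ => Bool)
    (fun _ => (Finset.univ : Finset Bool)) (fun _ b => if b then p else 1 - p)
  have h2 : (Fintype.piFinset fun _ : X => (Finset.univ : Finset Bool)) = Finset.univ := by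
    ext; simp
  rw [h2] at h
  unfold Crest.FinProb.bernoulliWeight
  rw [← h]
  simp

/-- weights on a sum type -/
theorem bernoulliWeight_sum (p : ℝ) (ω : Y ⊕ Z → Bool) :
    Crest.FinProb.bernoulliWeight p ω
      = Crest.FinProb.bernoulliWeight p (ω ∘ Sum.inl) * Crest.FinProb.bernoulliWeight p (ω ∘ Sum.inr) := by
  unfold Crest.FinProb.bernoulliWeight
  rw [Fintype.prod_sum_type]
  rfl

theorem bernoulliProb_sum (p : ℝ) (E : Set (Y → Bool)) (F : Set (Z → Bool)) :
    Crest.FinProb.bernoulliProb p {ω : Y ⊕ Z → Bool | ω ∘ Sum.inl ∈ E ∧ ω ∘ Sum.inr ∈ F}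
      = Crest.FinProb.bernoulliProb p E * Crest.FinProb.bernoulliProb p F := by
  classical
  rw [bernoulliProb_eq_ite, bernoulliProb_eq_ite, bernoulliProb_eq_ite]
  rw [← (Equiv.sumArrowEquivProdArrow Y Z Bool).symm.sum_comp, Fintype.sum_prod_type,
    Finset.sum_mul_sum]
  refine Finset.sum_congr rfl fun η _ => Finset.sum_congr rfl fun ζ _ => ?_
  have h1 : ((Equiv.sumArrowEquivProdArrow Y Z Bool).symm (η, ζ)) ∘ Sum.inl = η := rfl
  have h2 : ((Equiv.sumArrowEquivProdArrow Y Z Bool).symm (η, ζ)) ∘ Sum.inr = ζ := rfl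
  have hmem : ((Equiv.sumArrowEquivProdArrow Y Z Bool).symm (η, ζ)) ∈
      {ω : Y ⊕ Z → Bool | ω ∘ Sum.inl ∈ E ∧ ω ∘ Sum.inr ∈ F} ↔ (η ∈ E ∧ ζ ∈ F) := Iff.rfl
  by_cases h3 : η ∈ E
  · by_cases h4 : ζ ∈ F
    · rw [if_pos (hmem.2 ⟨h3, h4⟩), if_pos h3, if_pos h4, bernoulliWeight_sum, h1, h2]
    · rw [if_neg (fun h => h4 (hmem.1 h).2), if_neg h4, mul_zero]
  · rw [if_neg (fun h => h3 (hmem.1 h).1), if_neg h3, zero_mul]

theorem bernoulliProb_univ (p : ℝ) :
    Crest.FinProb.bernoulliProb p (Set.univ : Set (X → Bool)) = 1 := by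
  classical
  rw [bernoulliProb_eq_ite]
  simp [sum_bernoulliWeight]

/-- invariance under a bijection of the coins -/
theorem bernoulliProb_equiv (p : ℝ) (e : Y ≃ X) (E : Set (Y → Bool)) :
    Crest.FinProb.bernoulliProb p {ω : X → Bool | ω ∘ e ∈ E} = Crest.FinProb.bernoulliProb p E := by
  classical
  rw [bernoulliProb_eq_ite, bernoulliProb_eq_ite]
  rw [← (Equiv.arrowCongr e (Equiv.refl Bool)).sum_comp]
  refine Finset.sum_congr rfl fun η _ => ?_
  have h1 : ((Equiv.arrowCongr e (Equiv.refl Bool)) η) ∘ e = η := by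
    funext y; simp [Equiv.arrowCongr]
  have h2 : Crest.FinProb.bernoulliWeight p ((Equiv.arrowCongr e (Equiv.refl Bool)) η)
      = Crest.FinProb.bernoulliWeight p η := by
    unfold Crest.FinProb.bernoulliWeight
    rw [← e.prod_comp]
    refine Finset.prod_congr rfl fun y _ => ?_
    simp [Equiv.arrowCongr]
  have hmem : ((Equiv.arrowCongr e (Equiv.refl Bool)) η) ∈ {ω : X → Bool | ω ∘ e ∈ E} ↔ η ∈ E := by
    show ((Equiv.arrowCongr e (Equiv.refl Bool)) η) ∘ e ∈ E ↔ η ∈ E
    rw [h1]
  by_cases h : η ∈ E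
  · rw [if_pos (hmem.2 h), if_pos h, h2]
  · rw [if_neg (fun h' => h (hmem.1 h')), if_neg h]

/-- an event which depends on the coins `f y` only -/
theorem bernoulliProb_comp_inj (p : ℝ) (f : Y → X) (hf : Function.Injective f)
    (E : Set (Y → Bool)) :
    Crest.FinProb.bernoulliProb p {ω : X → Bool | ω ∘ f ∈ E} = Crest.FinProb.bernoulliProb p E := by
  classical
  let e : Y ⊕ ((Set.range f)ᶜ : Set X) ≃ X :=
    ((Equiv.ofInjective f hf).sumCongr (Equiv.refl _)).trans (Equiv.Set.sumCompl (Set.range f))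
  have he : ∀ y, e (Sum.inl y) = f y := by
    intro y
    simp [e]
  have h := bernoulliProb_equiv p e {ω | ω ∘ Sum.inl ∈ E ∧ ω ∘ Sum.inr ∈ (Set.univ : Set _)}
  rw [bernoulliProb_sum, bernoulliProb_univ, mul_one] at h
  rw [← h]
  congr 1
  ext ω
  simp only [Set.mem_setOf_eq, Set.mem_univ, and_true]
  have h2 : (ω ∘ e) ∘ Sum.inl = ω ∘ f := by
    funext y
    simp [he]
  rw [h2]

/-- independence of events on disjoint sets of coins -/
theorem bernoulliProb_two (p : ℝ) (f : Y → X) (g : Z → X) (hf : Function.Injective f)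
    (hg : Function.Injective g) (hfg : ∀ y z, f y ≠ g z)
    (E : Set (Y → Bool)) (F : Set (Z → Bool)) :
    Crest.FinProb.bernoulliProb p {ω : X → Bool | ω ∘ f ∈ E ∧ ω ∘ g ∈ F}
      = Crest.FinProb.bernoulliProb p E * Crest.FinProb.bernoulliProb p F := by
  classical
  have hinj : Function.Injective (Sum.elim f g) := by
    rintro (a | a) (b | b) h
    · simp only [Sum.elim_inl] at h; rw [hf h]
    · simp only [Sum.elim_inl, Sum.elim_inr] at h; exact absurd h (hfg _ _)
    · simp only [Sum.elim_inl, Sum.elim_inr] at h; exact absurd h.symm (hfg _ _)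
    · simp only [Sum.elim_inr] at h; rw [hg h]
  rw [← bernoulliProb_sum, ← bernoulliProb_comp_inj p (Sum.elim f g) hinj]
  rfl

/-- subsets as `Bool` valued functions -/
def finsetBool (Y : Type*) [Fintype Y] [DecidableEq Y] : Finset Y ≃ (Y → Bool) where
  toFun S := fun y => decide (y ∈ S)
  invFun η := univ.filter fun y => η y = true
  left_inv S := by ext y; simp
  right_inv η := by funext y; simp

theorem bernoulliWeight_finset (p : ℝ) (S : Finset Y) :
    Crest.FinProb.bernoulliWeight p (finsetBool Y S)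
      = p ^ S.card * (1 - p) ^ (Fintype.card Y - S.card) := by
  classical
  unfold Crest.FinProb.bernoulliWeight
  have h : ∀ y, (if (finsetBool Y S) y = true then p else 1 - p) = if y ∈ S then p else 1 - p := by
    intro y
    simp [finsetBool]
  rw [Finset.prod_congr rfl fun y _ => h y]
  rw [Finset.prod_ite]
  simp only [Finset.prod_const]
  congr 2
  · congr 1; ext; simp
  · rw [← Finset.card_compl]
    congr 1
    ext; simp

/-- the probability as a sum over finite sets -/
theorem bernoulliProb_eq_finset (p : ℝ) (E : Set (Y → Bool)) (P : Finset Y → Prop)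
    [DecidablePred P] (hP : ∀ S, P S ↔ (finsetBool Y S) ∈ E) :
    Crest.FinProb.bernoulliProb p E
      = ∑ S ∈ univ.filter P, p ^ S.card * (1 - p) ^ (Fintype.card Y - S.card) := by
  classical
  rw [bernoulliProb_eq_ite, Finset.sum_filter, ← (finsetBool Y).sum_comp]
  refine Finset.sum_congr rfl fun S _ => ?_
  rw [bernoulliWeight_finset]
  by_cases h : P S
  · rw [if_pos h, if_pos ((hP S).1 h)]
  · rw [if_neg h, if_neg (fun h' => h ((hP S).2 h'))]

/-- families of subsets: coins indexed by a product -/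
theorem bernoulliProb_prod (p : ℝ) (E : Set (Y × Z → Bool)) (P : (Y → Finset Z) → Prop)
    [DecidablePred P] (hP : ∀ R, P R ↔ (fun x : Y × Z => decide (x.2 ∈ R x.1)) ∈ E) :
    Crest.FinProb.bernoulliProb p E
      = ∑ R ∈ univ.filter P, ∏ y, p ^ (R y).card * (1 - p) ^ (Fintype.card Z - (R y).card) := by
  classical
  rw [bernoulliProb_eq_ite, Finset.sum_filter]
  let e : (Y → Finset Z) ≃ (Y × Z → Bool) :=
    ((Equiv.refl Y).arrowCongr (finsetBool Z)).trans (Equiv.curry Y Z Bool).symm
  have he : ∀ R, e R = fun x : Y × Z => decide (x.2 ∈ R x.1) := by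
    intro R
    funext x
    obtain ⟨y, z⟩ := x
    rfl
  rw [← e.sum_comp]
  refine Finset.sum_congr rfl fun R _ => ?_
  have hw : Crest.FinProb.bernoulliWeight p (e R)
      = ∏ y, p ^ (R y).card * (1 - p) ^ (Fintype.card Z - (R y).card) := by
    rw [he]
    unfold Crest.FinProb.bernoulliWeight
    rw [Fintype.prod_prod_type]
    refine Finset.prod_congr rfl fun y _ => ?_
    rw [← bernoulliWeight_finset]
    rfl
  rw [hw]
  by_cases h : P R
  · rw [if_pos h, if_pos (by rw [he]; exact (hP R).1 h)]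
  · rw [if_neg h, if_neg (fun h' => h ((hP R).2 (by rw [← he]; exact h')))]

theorem graphOf_adj_iff {n : ℕ} (ω : EdgeSlot n → Bool) (i j : Fin n) (hij : i ≠ j) :
    (graphOf ω).Adj i j ↔ ω ⟨s(i, j), by simpa using hij⟩ = true := by
  unfold graphOf
  rw [SimpleGraph.fromEdgeSet_adj]
  simp only [Set.mem_setOf_eq]
  constructor
  · rintro ⟨⟨h, h1⟩, -⟩
    exact h1
  · intro h
    exact ⟨⟨_, h⟩, hij⟩

/-- the slot between two vertices of disjoint families -/
def bslot {n a b : ℕ} (u : Fin a → Fin n) (v : Fin b → Fin n) (huv : ∀ i j, u i ≠ v j)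
    (x : Fin a × Fin b) : EdgeSlot n :=
  ⟨s(u x.1, v x.2), by simpa using huv x.1 x.2⟩

theorem bslot_injective {n a b : ℕ} (u : Fin a → Fin n) (v : Fin b → Fin n)
    (hu : Function.Injective u) (hv : Function.Injective v) (huv : ∀ i j, u i ≠ v j) :
    Function.Injective (bslot u v huv) := by
  rintro ⟨i, j⟩ ⟨i', j'⟩ h
  unfold bslot at h
  rw [Subtype.mk.injEq, Sym2.eq_iff] at h
  rcases h with ⟨h1, h2⟩ | ⟨h1, h2⟩
  · rw [Prod.mk.injEq]; exact ⟨hu h1, hv h2⟩
  · exact absurd h1 (huv _ _)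

/-- the random bipartite graph between two disjoint families of vertices -/
theorem gnp_bip {n a b : ℕ} (p : ℝ) (u : Fin a → Fin n) (v : Fin b → Fin n)
    (hu : Function.Injective u) (hv : Function.Injective v) (huv : ∀ i j, u i ≠ v j)
    (P : (Fin a → Finset (Fin b)) → Prop) [DecidablePred P]
    (Q : Set (SimpleGraph (Fin n)))
    (hPQ : ∀ (G : SimpleGraph (Fin n)) (R : Fin a → Finset (Fin b)),
      (∀ i j, j ∈ R i ↔ G.Adj (u i) (v j)) → (P R ↔ G ∈ Q)) :
    gnpProb n p Q
      = ∑ R ∈ univ.filter P, ∏ i, p ^ (R i).card * (1 - p) ^ (b - (R i).card) := by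
  classical
  have h1 : ∀ ω : EdgeSlot n → Bool, graphOf ω ∈ Q ↔
      (ω ∘ bslot u v huv) ∈ {η : Fin a × Fin b → Bool |
        P (fun i => univ.filter fun j => η (i, j) = true)} := by
    intro ω
    rw [Set.mem_setOf_eq]
    refine (hPQ (graphOf ω) _ ?_).symm
    intro i j
    rw [graphOf_adj_iff ω (u i) (v j) (huv i j)]
    simp [bslot]
  unfold gnpProb
  have h2 : {ω : EdgeSlot n → Bool | graphOf ω ∈ Q}
      = {ω : EdgeSlot n → Bool | ω ∘ bslot u v huv ∈ {η : Fin a × Fin b → Bool |
        P (fun i => univ.filter fun j => η (i, j) = true)}} := by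
    ext ω
    exact h1 ω
  rw [h2, bernoulliProb_comp_inj p _ (bslot_injective u v hu hv huv)]
  rw [bernoulliProb_prod p _ P]
  · simp only [Fintype.card_fin]
  · intro R
    rw [Set.mem_setOf_eq]
    have : (fun i => univ.filter fun j : Fin b => (decide (j ∈ R i)) = true) = R := by
      funext i; ext j; simp
    simp only [this]

/-- inequality form: only one implication is needed -/
theorem gnp_bip_le {n a b : ℕ} (p : ℝ) (hp0 : 0 ≤ p) (hp1 : p ≤ 1)
    (u : Fin a → Fin n) (v : Fin b → Fin n)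
    (hu : Function.Injective u) (hv : Function.Injective v) (huv : ∀ i j, u i ≠ v j)
    (P : (Fin a → Finset (Fin b)) → Prop) [DecidablePred P]
    (Q : Set (SimpleGraph (Fin n)))
    (hPQ : ∀ (G : SimpleGraph (Fin n)) (R : Fin a → Finset (Fin b)),
      (∀ i j, j ∈ R i ↔ G.Adj (u i) (v j)) → P R → G ∈ Q) :
    ∑ R ∈ univ.filter P, ∏ i, p ^ (R i).card * (1 - p) ^ (b - (R i).card) ≤ gnpProb n p Q := by
  classical
  have h := gnp_bip p u v hu hv huv P
    {G : SimpleGraph (Fin n) | P (fun i => univ.filter fun j => G.Adj (u i) (v j))} (by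
      intro G R hR
      rw [Set.mem_setOf_eq]
      have : R = fun i => univ.filter fun j => G.Adj (u i) (v j) := by
        funext i; ext j; simp [hR]
      rw [← this])
  rw [← h]
  unfold gnpProb
  rw [bernoulliProb_eq_ite, bernoulliProb_eq_ite]
  apply Finset.sum_le_sum
  intro ω _
  have hw : 0 ≤ Crest.FinProb.bernoulliWeight p ω := by
    unfold Crest.FinProb.bernoulliWeight
    apply Finset.prod_nonneg
    intro x _
    split_ifs
    · exact hp0
    · linarith
  by_cases h1 : ω ∈ {ω : EdgeSlot n → Bool | graphOf ω ∈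
      {G : SimpleGraph (Fin n) | P (fun i => univ.filter fun j => G.Adj (u i) (v j))}}
  · have h2 : ω ∈ {ω : EdgeSlot n → Bool | graphOf ω ∈ Q} := by
      rw [Set.mem_setOf_eq, Set.mem_setOf_eq] at h1
      rw [Set.mem_setOf_eq]
      exact hPQ _ _ (fun i j => by simp) h1
    rw [if_pos h1, if_pos h2]
  · rw [if_neg h1]
    split_ifs
    · exact hw
    · exact le_rfl

end Crest.TG
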