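import Mathlib
import Crest.Prelude.Def_CopyThreshold
import Crest.Agent.TG_Expo
import Crest.Agent.TG_FrB
import Crest.Agent.TG6_Ext

/-! Transfer of the exposure lemma to graphs: star forests. -/

set_option autoImplicit false

namespace Crest.TG31

open Finset Crest.CombinatoricsR.RandomGraph Crest.TG.Expo

/-- the greedy assignment yields positions and disjoint leaf sets -/
theorem good_extract {V W : Type} [Fintype V] [DecidableEq V] [DecidableEq W] (dd : W → ℕ) :
    ∀ (m : ℕ) (ω : Fin m → V → Bool) (cs : List W) (U : Finset V), cs.Nodup →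
      Good m ω (cs.map dd) U →
      ∃ (a : W → ℕ) (S : W → Finset V), (∀ u ∈ cs, a u < m) ∧
        (∀ u ∈ cs, ∀ u' ∈ cs, a u = a u' → u = u') ∧
        (∀ u ∈ cs, (S u).card = dd u ∧ Disjoint (S u) U) ∧
        (∀ u ∈ cs, ∀ u' ∈ cs, u ≠ u' → Disjoint (S u) (S u')) ∧
        (∀ u ∈ cs, ∀ h : a u < m, ∀ v ∈ S u, ω ⟨a u, h⟩ v = true) := by
  intro m
  induction m with
  | zero =>
    intro ω cs U _ hg
    cases cs with
    | nil => exact ⟨fun _ => 0, fun _ => ∅, by simp, by simp, by simp, by simp, by simp⟩
    | cons u cs => simp [Good] at hg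
  | succ m ih =>
    intro ω cs U hnd hg
    cases cs with
    | nil => exact ⟨fun _ => 0, fun _ => ∅, by simp, by simp, by simp, by simp, by simp⟩
    | cons u cs =>
      rw [List.map_cons] at hg
      rcases hg with ⟨S0, hS0, hdis, htrue, hg⟩ | hg
      · have hnd' := (List.nodup_cons.1 hnd)
        obtain ⟨a, S, h1, h2, h3, h4, h5⟩ := ih _ cs (U ∪ S0) hnd'.2 hg
        have hne : ∀ w ∈ cs, w ≠ u := fun w hw h => hnd'.1 (h ▸ hw)
        refine ⟨fun w => if w = u then 0 else a w + 1, fun w => if w = u then S0 else S w,
          ?_, ?_, ?_, ?_, ?_⟩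
        · intro w hw
          by_cases hwu : w = u
          · simp [hwu]
          · have hw' : w ∈ cs := by
              rcases List.mem_cons.1 hw with h | h
              · exact absurd h hwu
              · exact h
            simp [hwu, h1 w hw']
        · intro w hw w' hw' h
          by_cases hwu : w = u
          · by_cases hwu' : w' = u
            · rw [hwu, hwu']
            · simp [hwu, hwu'] at h
          · by_cases hwu' : w' = u
            · simp [hwu, hwu'] at h
            · have hwc : w ∈ cs := (List.mem_cons.1 hw).resolve_left hwu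
              have hwc' : w' ∈ cs := (List.mem_cons.1 hw').resolve_left hwu'
              simp only [hwu, hwu', if_false] at h
              exact h2 w hwc w' hwc' (by omega)
        · intro w hw
          by_cases hwu : w = u
          · simp only [hwu, if_true]
            exact ⟨hS0, hdis⟩
          · have hwc : w ∈ cs := (List.mem_cons.1 hw).resolve_left hwu
            simp only [hwu, if_false]
            exact ⟨(h3 w hwc).1, (Finset.disjoint_union_right.1 (h3 w hwc).2).1⟩
        · intro w hw w' hw' hww
          by_cases hwu : w = u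
          · by_cases hwu' : w' = u
            · exact absurd (hwu.trans hwu'.symm) hww
            · have hwc' : w' ∈ cs := (List.mem_cons.1 hw').resolve_left hwu'
              simp only [hwu, hwu', if_true, if_false]
              exact (Finset.disjoint_union_right.1 (h3 w' hwc').2).2.symm
          · by_cases hwu' : w' = u
            · have hwc : w ∈ cs := (List.mem_cons.1 hw).resolve_left hwu
              simp only [hwu, hwu', if_true, if_false]
              exact (Finset.disjoint_union_right.1 (h3 w hwc).2).2
            · have hwc : w ∈ cs := (List.mem_cons.1 hw).resolve_left hwu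
              have hwc' : w' ∈ cs := (List.mem_cons.1 hw').resolve_left hwu'
              simp only [hwu, hwu', if_false]
              exact h4 w hwc w' hwc' hww
        · intro w hw h v hv
          by_cases hwu : w = u
          · simp only [hwu, if_true] at hv ⊢
            exact htrue v hv
          · have hwc : w ∈ cs := (List.mem_cons.1 hw).resolve_left hwu
            simp only [hwu, if_false] at hv h ⊢
            have := h5 w hwc (h1 w hwc) v hv
            exact this
      · obtain ⟨a, S, h1, h2, h3, h4, h5⟩ := ih _ (u :: cs) U hnd (by simpa using hg)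
        refine ⟨fun w => a w + 1, S, ?_, ?_, h3, h4, ?_⟩
        · intro w hw
          have := h1 w hw
          show a w + 1 < m + 1
          omega
        · intro w hw w' hw' h
          exact h2 w hw w' hw' (by simpa using h)
        · intro w hw h v hv
          exact h5 w hw (h1 w hw) v hv

/-- injections from the children to the leaves -/
theorem exists_inj {W : Type} [Fintype W] [DecidableEq W] {N : ℕ} (C : Finset W)
    (S : Finset (Fin N)) (h : S.card = C.card) :
    ∃ g : W → ℕ, (∀ v ∈ C, ∃ h : g v < N, (⟨g v, h⟩ : Fin N) ∈ S) ∧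
      ∀ v ∈ C, ∀ w ∈ C, g v = g w → v = w := by
  classical
  let e := Finset.equivOfCardEq h.symm
  refine ⟨fun v => if h : v ∈ C then ((e ⟨v, h⟩ : S) : Fin N).val else 0, ?_, ?_⟩
  · intro v hv
    simp only [hv, dite_true]
    exact ⟨((e ⟨v, hv⟩ : S) : Fin N).2, (e ⟨v, hv⟩).2⟩
  · intro v hv w hw hvw
    simp only [hv, hw, dite_true] at hvw
    have h1 := e.injective (Subtype.ext (Fin.ext hvw))
    exact congrArg Subtype.val h1

/-- the deterministic part -/
theorem contained_of_good {W : Type} [Fintype W] [DecidableEq W] (F : SimpleGraph W)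
    (n m N : ℕ) (hW : Fintype.card W ≤ n) (hmN : m + N ≤ n)
    (par : W → Option W) (hpar : ∀ v u, par v = some u → par u = none)
    (hF : ∀ v u, F.Adj v u ↔ (par v = some u ∨ par u = some v))
    (cs : List W) (hnd : cs.Nodup) (hcs : ∀ v u, par v = some u → u ∈ cs)
    (G : SimpleGraph (Fin n)) (ω : Fin m → Fin N → Bool)
    (hω : ∀ (i : Fin m) (j : Fin N), ω i j = true →
      G.Adj ⟨i.val, by omega⟩ ⟨m + j.val, by omega⟩)
    (hg : Good m ω (cs.map fun u => (univ.filter fun v => par v = some u).card) ∅) :
    F.IsContained G := by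
  classical
  obtain ⟨a, S, h1, h2, h3, h4, h5⟩ := good_extract _ m ω cs ∅ hnd hg
  have hgu : ∀ u, ∃ g : W → ℕ, u ∈ cs → (∀ v ∈ (univ.filter fun v => par v = some u),
      ∃ h : g v < N, (⟨g v, h⟩ : Fin N) ∈ S u) ∧
      ∀ v ∈ (univ.filter fun v => par v = some u), ∀ w ∈ (univ.filter fun v => par v = some u),
        g v = g w → v = w := by
    intro u
    by_cases hu : u ∈ cs
    · obtain ⟨g, hg1, hg2⟩ := exists_inj (univ.filter fun v => par v = some u) (S u) (h3 u hu).1
      exact ⟨g, fun _ => ⟨hg1, hg2⟩⟩
    · exact ⟨fun _ => 0, fun h => absurd h hu⟩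
  choose gg hgg using hgu
  let val : W → ℕ := fun v => (par v).elim (a v) (fun u => m + gg u v)
  have hval1 : ∀ v u, par v = some u → val v = m + gg u v := by
    intro v u h
    simp [val, h]
  have hval0 : ∀ v, par v = none → val v = a v := by
    intro v h
    simp [val, h]
  have hleaf : ∀ v u, par v = some u → ∃ h : gg u v < N, (⟨gg u v, h⟩ : Fin N) ∈ S u := by
    intro v u h
    exact (hgg u (hcs v u h)).1 v (by simp [h])
  have hlt : ∀ v, (par v ≠ none ∨ v ∈ cs) → val v < n := by
    intro v hv
    cases hp : par v with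
    | none =>
      rw [hval0 v hp]
      have hvc : v ∈ cs := hv.resolve_left (by simp [hp])
      have := h1 v hvc
      omega
    | some u =>
      rw [hval1 v u hp]
      obtain ⟨h, -⟩ := hleaf v u hp
      omega
  let φ : W → Fin n := fun v => if h : val v < n then ⟨val v, h⟩ else
    ⟨0, lt_of_lt_of_le (Fintype.card_pos_iff.2 ⟨v⟩) hW⟩
  have hφ : ∀ v, (par v ≠ none ∨ v ∈ cs) → (φ v).val = val v := by
    intro v hv
    simp only [φ, hlt v hv, dite_true]
  have hadj1 : ∀ v u, par v = some u → G.Adj (φ u) (φ v) := by
    intro v u h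
    have huc : u ∈ cs := hcs v u h
    have hun := hpar v u h
    obtain ⟨hlN, hmem⟩ := hleaf v u h
    have h6 := h5 u huc (h1 u huc) _ hmem
    have h7 := hω _ _ h6
    have e1 : φ u = ⟨a u, by have := h1 u huc; omega⟩ := by
      apply Fin.ext
      rw [hφ u (Or.inr huc), hval0 u hun]
    have e2 : φ v = ⟨m + gg u v, by omega⟩ := by
      apply Fin.ext
      rw [hφ v (Or.inl (by simp [h])), hval1 v u h]
    rw [e1, e2]
    exact h7
  refine TG6.isContained_of_injOn F G hW (univ.filter fun v => par v ≠ none ∨ v ∈ cs) φ ?_ ?_ ?_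
  · intro v hv w hw hvw
    have hv' : par v ≠ none ∨ v ∈ cs := by simpa using hv
    have hw' : par w ≠ none ∨ w ∈ cs := by simpa using hw
    have hvw' : val v = val w := by
      rw [← hφ v hv', ← hφ w hw', hvw]
    cases hpv : par v with
    | none =>
      have hvc : v ∈ cs := hv'.resolve_left (by simp [hpv])
      have hav := h1 v hvc
      cases hpw : par w with
      | none =>
        have hwc : w ∈ cs := hw'.resolve_left (by simp [hpw])
        rw [hval0 v hpv, hval0 w hpw] at hvw'
        exact h2 v hvc w hwc hvw'
      | some u' =>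
        rw [hval0 v hpv, hval1 w u' hpw] at hvw'
        omega
    | some u =>
      cases hpw : par w with
      | none =>
        have hwc : w ∈ cs := hw'.resolve_left (by simp [hpw])
        have haw := h1 w hwc
        rw [hval1 v u hpv, hval0 w hpw] at hvw'
        omega
      | some u' =>
        rw [hval1 v u hpv, hval1 w u' hpw] at hvw'
        have hgg' : gg u v = gg u' w := by omega
        have huc : u ∈ cs := hcs v u hpv
        have huc' : u' ∈ cs := hcs w u' hpw
        by_cases huu : u = u'
        · subst huu
          exact (hgg u huc).2 v (by simp [hpv]) w (by simp [hpw]) hgg'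
        · exfalso
          obtain ⟨l1, m1⟩ := hleaf v u hpv
          obtain ⟨l2, m2⟩ := hleaf w u' hpw
          have hd := h4 u huc u' huc' huu
          rw [Finset.disjoint_left] at hd
          apply hd m1
          have : (⟨gg u v, l1⟩ : Fin N) = ⟨gg u' w, l2⟩ := Fin.ext hgg'
          rw [this]
          exact m2
  · intro x y hxy
    rcases (hF x y).1 hxy with h | h
    · simp [h]
    · simp only [mem_filter, mem_univ, true_and]
      exact Or.inr (hcs y x h)
  · intro x y hxy
    rcases (hF x y).1 hxy with h | h
    · exact (hadj1 x y h).symm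
    · exact hadj1 y x h

/-- the success probability of the exposure as a probability on the product -/
theorem one_sub_fail (P : ℝ) (m N : ℕ) (ds : List ℕ) (U : Finset (Fin N)) :
    1 - fail P m ds U = Crest.FinProb.bernoulliProb P
      {η : Fin m × Fin N → Bool | Good m (fun i j => η (i, j)) ds U} := by
  classical
  rw [Crest.TG.bernoulliProb_eq_ite]
  rw [← (Equiv.curry (Fin m) (Fin N) Bool).symm.sum_comp]
  have h1 := sum_wt (V := Fin N) P m
  have h2 : 1 - fail P m ds U = ∑ ω : Fin m → Fin N → Bool,
      (wt P ω - wt P ω * (if Good m ω ds U then 0 else 1)) := by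
    rw [Finset.sum_sub_distrib, h1]
    rfl
  rw [h2]
  refine Finset.sum_congr rfl fun ω _ => ?_
  have hw : Crest.FinProb.bernoulliWeight P ((Equiv.curry (Fin m) (Fin N) Bool).symm ω)
      = wt P ω := by
    unfold wt Crest.FinProb.bernoulliWeight
    rw [Fintype.prod_prod_type]
    rfl
  have hmem : ((Equiv.curry (Fin m) (Fin N) Bool).symm ω) ∈
      {η : Fin m × Fin N → Bool | Good m (fun i j => η (i, j)) ds U} ↔ Good m ω ds U := Iff.rfl
  by_cases h : Good m ω ds U
  · rw [if_pos h, if_pos (hmem.2 h), hw]
    ring
  · rw [if_neg h, if_neg (fun h' => h (hmem.1 h'))]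
    ring

/-- **Transfer to graphs.** -/
theorem le_gnpProb_star' {W : Type} [Fintype W] [DecidableEq W] (F : SimpleGraph W)
    (n m N : ℕ) (hW : Fintype.card W ≤ n) (hmN : m + N ≤ n) (P : ℝ) (hP0 : 0 ≤ P) (hP1 : P ≤ 1)
    (par : W → Option W) (hpar : ∀ v u, par v = some u → par u = none)
    (hF : ∀ v u, F.Adj v u ↔ (par v = some u ∨ par u = some v))
    (cs : List W) (hnd : cs.Nodup) (hcs : ∀ v u, par v = some u → u ∈ cs) :
    1 - fail (V := Fin N) P m (cs.map fun u => (univ.filter fun v => par v = some u).card) ∅
      ≤ gnpProb n P {G | F.IsContained G} := by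
  classical
  rw [one_sub_fail]
  let u : Fin m → Fin n := fun i => ⟨i.val, by omega⟩
  let v : Fin N → Fin n := fun j => ⟨m + j.val, by omega⟩
  have hu : Function.Injective u := by
    intro i i' h
    apply Fin.ext
    have := congrArg Fin.val h
    simpa only [u] using this
  have hv : Function.Injective v := by
    intro i i' h
    apply Fin.ext
    have := congrArg Fin.val h
    simp only [v] at this
    omega
  have huv : ∀ i j, u i ≠ v j := by
    intro i j h
    have := congrArg Fin.val h
    simp only [u, v] at this
    omega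
  rw [← Crest.TG.bernoulliProb_comp_inj P (Crest.TG.bslot u v huv)
    (Crest.TG.bslot_injective u v hu hv huv)]
  unfold gnpProb
  rw [Crest.TG.bernoulliProb_eq_ite, Crest.TG.bernoulliProb_eq_ite]
  refine Finset.sum_le_sum fun ω _ => ?_
  have hw0 : 0 ≤ Crest.FinProb.bernoulliWeight P ω := bw_nonneg P hP0 hP1 ω
  by_cases h : ω ∘ (Crest.TG.bslot u v huv) ∈
      {η : Fin m × Fin N → Bool | Good m (fun i j => η (i, j))
        (cs.map fun u => (univ.filter fun v => par v = some u).card) ∅}
  · have h2 : graphOf ω ∈ {G : SimpleGraph (Fin n) | F.IsContained G} := by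
      refine contained_of_good F n m N hW hmN par hpar hF cs hnd hcs (graphOf ω)
        (fun i j => ω (Crest.TG.bslot u v huv (i, j))) ?_ h
      intro i j hij
      exact (Crest.TG.graphOf_adj_iff ω (u i) (v j) (huv i j)).2 hij
    have h3 : ω ∈ {ω : EdgeSlot n → Bool | graphOf ω ∈ {G : SimpleGraph (Fin n) | F.IsContained G}} :=
      h2
    rw [if_pos h3]
    split_ifs
    · exact le_rfl
    · exact hw0
  · have h4 : ω ∉ {ω : EdgeSlot n → Bool | ω ∘ (Crest.TG.bslot u v huv) ∈
      {η : Fin m × Fin N → Bool | Good m (fun i j => η (i, j))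
        (cs.map fun u => (univ.filter fun v => par v = some u).card) ∅}} := h
    rw [if_neg h4]
    split_ifs
    · exact hw0
    · exact le_rfl

/-- the same with the exact list of centres -/
theorem le_gnpProb_star {W : Type} [Fintype W] [DecidableEq W] (F : SimpleGraph W)
    (n m N : ℕ) (hW : Fintype.card W ≤ n) (hmN : m + N ≤ n) (P : ℝ) (hP0 : 0 ≤ P) (hP1 : P ≤ 1)
    (par : W → Option W) (hpar : ∀ v u, par v = some u → par u = none)
    (hF : ∀ v u, F.Adj v u ↔ (par v = some u ∨ par u = some v))
    (cs : List W) (hnd : cs.Nodup) (hcs : ∀ u, u ∈ cs ↔ ∃ v, par v = some u) :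
    1 - fail (V := Fin N) P m (cs.map fun u => (univ.filter fun v => par v = some u).card) ∅
      ≤ gnpProb n P {G | F.IsContained G} :=
  le_gnpProb_star' F n m N hW hmN P hP0 hP1 par hpar hF cs hnd fun v u h => (hcs u).2 ⟨v, h⟩

end Crest.TG31

namespace Crest.TG.Expo

open Finset Crest.CombinatoricsR.RandomGraph

/-- helper19's form -/
theorem piece_prob (n m : ℕ) (hm : m ≤ n) (P : ℝ) (h0 : 0 ≤ P) (h1 : P ≤ 1) {W : Type}
    [Fintype W] [DecidableEq W] (F : SimpleGraph W) (hW : Fintype.card W ≤ n)
    (par : W → Option W) (hpar : ∀ v u, par v = some u → par u = none)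
    (hadj : ∀ v u, F.Adj v u ↔ (par v = some u ∨ par u = some v))
    (cs : List W) (hnd : cs.Nodup) (hcs : ∀ v u, par v = some u → u ∈ cs) :
    1 - fail P m (cs.map fun u => (univ.filter fun v => par v = some u).card)
      (∅ : Finset (Fin (n - m))) ≤ gnpProb n P {G | F.IsContained G} :=
  Crest.TG31.le_gnpProb_star' F n m (n - m) hW (by omega) P h0 h1 par hpar hadj cs hnd hcs

end Crest.TG.Expo
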