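import Mathlib
import Crest.Agent.KK_D0

/-! consequences of the first moment inequality (FM) for S0073 (helper69) -/

set_option autoImplicit false

namespace Crest.TG69
open Finset Crest.CombinatoricsR.RandomGraph

theorem card_image_le_of_factor {α β γ : Type*} [Fintype α] [DecidableEq β] [Fintype γ]
    (f : α → β) (g : α → γ) (h : ∀ a b, g a = g b → f a = f b) :
    (univ.image f).card ≤ Fintype.card γ := by
  classical
  rcases isEmpty_or_nonempty α with hα | hα
  · simp
  · have hf : Function.FactorsThrough f g := fun a b hab => h a b hab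
    have h1 : univ.image f = (univ.image g).image (Function.extend g f (fun _ => f hα.some)) := by
      rw [image_image]
      apply image_congr
      intro a _
      simp only [Function.comp]
      exact (hf.extend_apply _ a).symm
    rw [h1]
    exact card_image_le.trans (card_le_univ _)

section
variable {n : ℕ} {W : Type} [Fintype W] [DecidableEq W]

open Classical in
/-- slots of a relation `R` on `W` placed by `ι` -/
noncomputable def relSlots (R : W → W → Prop) (ι : W → Fin n) : Finset (EdgeSlot n) :=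
  univ.filter fun x => ∃ a b, R a b ∧ x.1 = s(ι a, ι b)

theorem image_relSlots (R : W → W → Prop) (ι : W → Fin n) (σ : Equiv.Perm (Fin n)) :
    (relSlots R ι).image (KK.act n σ) = relSlots R (fun a => σ (ι a)) := by
  classical
  ext y
  simp only [relSlots, mem_image, mem_filter, mem_univ, true_and]
  constructor
  · rintro ⟨x, ⟨a, b, hab, hx⟩, rfl⟩
    refine ⟨a, b, hab, ?_⟩
    rw [KK.act_val, hx, Sym2.map_mk]
  · rintro ⟨a, b, hab, hy⟩
    refine ⟨(KK.act n σ)⁻¹ y, ⟨a, b, hab, ?_⟩, by simp⟩
    have h1 : (KK.act n σ)⁻¹ y = KK.act n σ⁻¹ y := by rw [map_inv]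
    rw [h1, KK.act_val, hy, Sym2.map_mk]
    simp

/-- the first moment hypothesis -/
def FM (H : SimpleGraph W) [DecidableRel H.Adj] (n : ℕ) (q : ℝ) : Prop :=
  ∀ (ι : W ↪ Fin n) (J : Finset (EdgeSlot n)), J ⊆ KK.slots H ι →
    (1 / 2 : ℝ) ≤
      ((univ.image fun σ : Equiv.Perm (Fin n) => J.image (KK.act n σ)).card : ℝ) * q ^ J.card

/-- edges of `H` inside `U` -/
def edgesIn (H : SimpleGraph W) [DecidableRel H.Adj] (U : Finset W) : Finset (Sym2 W) :=
  H.edgeFinset.filter fun e => ∀ v ∈ e, v ∈ U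

theorem slot_ne (ι : W ↪ Fin n) {a b : W} (h : a ≠ b) : ¬ (s(ι a, ι b)).IsDiag := by
  simpa using fun h' => h (ι.injective h')

theorem density (H : SimpleGraph W) [DecidableRel H.Adj] (q : ℝ) (hq : 0 ≤ q) (ι : W ↪ Fin n)
    (hFM : FM H n q) (U : Finset W) :
    (1 / 2 : ℝ) ≤ (n : ℝ) ^ U.card * q ^ (edgesIn H U).card := by
  classical
  set R : W → W → Prop := fun a b => H.Adj a b ∧ a ∈ U ∧ b ∈ U with hR
  set J := relSlots R ι with hJ
  have hsub : J ⊆ KK.slots H ι := by
    intro x hx
    simp only [hJ, relSlots, mem_filter, mem_univ, true_and, hR] at hx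
    obtain ⟨a, b, ⟨hab, -, -⟩, hx⟩ := hx
    unfold KK.slots
    rw [mem_filter]
    exact ⟨mem_univ _, s(a, b), by simpa using hab, by rw [Sym2.map_mk, hx]⟩
  have hcard : J.card = (edgesIn H U).card := by
    symm
    apply Finset.card_bij (fun (e : Sym2 W) (he : e ∈ edgesIn H U) =>
      (⟨e.map ι, by
        unfold edgesIn at he
        rw [mem_filter, SimpleGraph.mem_edgeFinset] at he
        intro h
        exact H.not_isDiag_of_mem_edgeSet he.1 ((Sym2.isDiag_map ι.injective).1 h)⟩ : EdgeSlot n))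
    · intro e he
      unfold edgesIn at he
      rw [mem_filter, SimpleGraph.mem_edgeFinset] at he
      obtain ⟨he1, he2⟩ := he
      induction e using Sym2.ind with
      | _ a b =>
        simp only [hJ, relSlots, mem_filter, mem_univ, true_and, hR]
        exact ⟨a, b, ⟨by simpa using he1, he2 a (by simp), he2 b (by simp)⟩, by rw [Sym2.map_mk]⟩
    · intro e1 _ e2 _ h
      exact Sym2.map.injective ι.injective (congrArg Subtype.val h)
    · intro x hx
      simp only [hJ, relSlots, mem_filter, mem_univ, true_and, hR] at hx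
      obtain ⟨a, b, ⟨hab, ha, hb⟩, hx⟩ := hx
      refine ⟨s(a, b), ?_, ?_⟩
      · unfold edgesIn
        rw [mem_filter, SimpleGraph.mem_edgeFinset]
        refine ⟨hab, ?_⟩
        intro v hv
        rw [Sym2.mem_iff] at hv
        rcases hv with rfl | rfl <;> assumption
      · apply Subtype.ext
        simp only
        rw [Sym2.map_mk, hx]
  have h1 := hFM ι J hsub
  have h2 : (univ.image fun σ : Equiv.Perm (Fin n) => J.image (KK.act n σ)).card ≤ n ^ U.card := by
    have := card_image_le_of_factor (fun σ : Equiv.Perm (Fin n) => J.image (KK.act n σ))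
      (fun σ : Equiv.Perm (Fin n) => (fun u : U => σ (ι u) : U → Fin n)) (by
        intro σ τ hστ
        rw [hJ, image_relSlots, image_relSlots]
        have hk : ∀ a ∈ U, σ (ι a) = τ (ι a) := fun a ha => congrFun hστ ⟨a, ha⟩
        ext x
        simp only [relSlots, mem_filter, mem_univ, true_and]
        constructor
        · rintro ⟨a, b, hab, hx⟩
          exact ⟨a, b, hab, by rw [hx, hk a hab.2.1, hk b hab.2.2]⟩
        · rintro ⟨a, b, hab, hx⟩
          exact ⟨a, b, hab, by rw [hx, hk a hab.2.1, hk b hab.2.2]⟩)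
    simpa using this
  have h3 : ((univ.image fun σ : Equiv.Perm (Fin n) => J.image (KK.act n σ)).card : ℝ) ≤
      (n : ℝ) ^ U.card := by exact_mod_cast h2
  rw [← hcard]
  exact h1.trans (mul_le_mul_of_nonneg_right h3 (by positivity))

theorem biclique (H : SimpleGraph W) [DecidableRel H.Adj] (q : ℝ) (hq : 0 ≤ q) (ι : W ↪ Fin n)
    (hFM : FM H n q) (S T : Finset W) (hST : Disjoint S T) (hadj : ∀ s ∈ S, ∀ t ∈ T, H.Adj s t) :
    (1 / 2 : ℝ) ≤ (n : ℝ) ^ S.card * (n.choose T.card) * q ^ (S.card * T.card) := by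
  classical
  set R : W → W → Prop := fun a b => a ∈ S ∧ b ∈ T with hR
  set J := relSlots R ι with hJ
  have hsub : J ⊆ KK.slots H ι := by
    intro x hx
    simp only [hJ, relSlots, mem_filter, mem_univ, true_and, hR] at hx
    obtain ⟨a, b, ⟨ha, hb⟩, hx⟩ := hx
    unfold KK.slots
    rw [mem_filter]
    exact ⟨mem_univ _, s(a, b), by simpa using hadj a ha b hb, by rw [Sym2.map_mk, hx]⟩
  have hcard : J.card = S.card * T.card := by
    rw [← card_product]
    symm
    apply Finset.card_bij (fun (e : W × W) (he : e ∈ S ×ˢ T) =>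
      (⟨s(ι e.1, ι e.2), by
        rw [mem_product] at he
        exact slot_ne ι (fun h => Finset.disjoint_left.1 hST he.1 (h ▸ he.2))⟩ : EdgeSlot n))
    · rintro ⟨a, b⟩ he
      rw [mem_product] at he
      simp only [hJ, relSlots, mem_filter, mem_univ, true_and, hR]
      exact ⟨a, b, he, rfl⟩
    · rintro ⟨a, b⟩ he ⟨a', b'⟩ he' h
      rw [mem_product] at he he'
      have h1 := congrArg Subtype.val h
      simp only at h1 he he'
      rw [Sym2.eq_iff] at h1
      rcases h1 with ⟨h2, h3⟩ | ⟨h2, h3⟩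
      · exact Prod.ext (ι.injective h2) (ι.injective h3)
      · exact absurd (ι.injective h2 ▸ he'.2) (Finset.disjoint_left.1 hST he.1)
    · intro x hx
      simp only [hJ, relSlots, mem_filter, mem_univ, true_and, hR] at hx
      obtain ⟨a, b, hab, hx⟩ := hx
      exact ⟨(a, b), by rw [mem_product]; exact hab, Subtype.ext hx.symm⟩
  have h1 := hFM ι J hsub
  have h2 : (univ.image fun σ : Equiv.Perm (Fin n) => J.image (KK.act n σ)).card ≤
      n ^ S.card * n.choose T.card := by
    have := card_image_le_of_factor (fun σ : Equiv.Perm (Fin n) => J.image (KK.act n σ))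
      (fun σ : Equiv.Perm (Fin n) => ((fun u : S => σ (ι u) : S → Fin n),
        (⟨T.image (fun t => σ (ι t)), by
          rw [mem_powersetCard]
          exact ⟨subset_univ _, card_image_of_injective _ (σ.injective.comp ι.injective)⟩⟩ :
          {x // x ∈ powersetCard T.card (univ : Finset (Fin n))}))) (by
        intro σ τ hστ
        rw [hJ, image_relSlots, image_relSlots]
        have hk : ∀ a ∈ S, σ (ι a) = τ (ι a) := fun a ha =>
          congrFun (congrArg Prod.fst hστ) ⟨a, ha⟩
        have hT : T.image (fun t => σ (ι t)) = T.image (fun t => τ (ι t)) :=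
          congrArg Subtype.val (congrArg Prod.snd hστ)
        ext x
        simp only [relSlots, mem_filter, mem_univ, true_and]
        constructor
        · rintro ⟨a, b, hab, hx⟩
          have hm : σ (ι b) ∈ T.image (fun t => τ (ι t)) := by
            rw [← hT]; exact mem_image_of_mem _ hab.2
          obtain ⟨b', hb', hbb⟩ := mem_image.1 hm
          exact ⟨a, b', ⟨hab.1, hb'⟩, by rw [hx, hk a hab.1, ← hbb]⟩
        · rintro ⟨a, b, hab, hx⟩
          have hm : τ (ι b) ∈ T.image (fun t => σ (ι t)) := by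
            rw [hT]; exact mem_image_of_mem _ hab.2
          obtain ⟨b', hb', hbb⟩ := mem_image.1 hm
          exact ⟨a, b', ⟨hab.1, hb'⟩, by rw [hx, hk a hab.1, ← hbb]⟩)
    simpa using this
  have h3 : ((univ.image fun σ : Equiv.Perm (Fin n) => J.image (KK.act n σ)).card : ℝ) ≤
      (n : ℝ) ^ S.card * (n.choose T.card : ℝ) := by exact_mod_cast h2
  rw [← hcard]
  exact h1.trans (mul_le_mul_of_nonneg_right h3 (by positivity))

/-- spread of bicliques: `t ≤ 2 e² n q^s` or `t ≤ s log n` -/
theorem biclique_bound (H : SimpleGraph W) [DecidableRel H.Adj] (q : ℝ) (hq : 0 < q)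
    (hn : 1 ≤ n) (ι : W ↪ Fin n)
    (hFM : FM H n q) (S T : Finset W) (hST : Disjoint S T) (hadj : ∀ s ∈ S, ∀ t ∈ T, H.Adj s t) :
    (T.card : ℝ) ≤ 2 * Real.exp 2 * n * q ^ S.card ∨ (T.card : ℝ) ≤ S.card * Real.log n := by
  have h0 := biclique H q hq.le ι hFM S T hST hadj
  rcases Nat.eq_zero_or_pos T.card with ht | ht
  · left; rw [ht]; push_cast; positivity
  by_cases hc : (T.card : ℝ) ≤ 2 * Real.exp 2 * n * q ^ S.card
  · exact Or.inl hc
  right
  push Not at hc
  set t := T.card with ht'
  set s := S.card with hs'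
  have hnR : (1 : ℝ) ≤ n := by exact_mod_cast hn
  have htR : (1 : ℝ) ≤ t := by exact_mod_cast ht
  have e2 : Real.exp 2 = Real.exp 1 * Real.exp 1 := by rw [← Real.exp_add]; norm_num
  have hch : (n.choose t : ℝ) ≤ (n : ℝ) ^ t * (Real.exp 1 ^ t / (t : ℝ) ^ t) := by
    have h1 : (n.choose t : ℝ) ≤ (n : ℝ) ^ t / (t.factorial : ℝ) := Nat.choose_le_pow_div t n
    have h2 : (t : ℝ) ^ t / (t.factorial : ℝ) ≤ Real.exp t :=
      Real.pow_div_factorial_le_exp (t : ℝ) (by positivity) t
    have h3 : Real.exp (t : ℝ) = Real.exp 1 ^ t := by rw [← Real.exp_nat_mul]; simp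
    have hf : (0 : ℝ) < (t.factorial : ℝ) := by exact_mod_cast t.factorial_pos
    have htt : (0 : ℝ) < (t : ℝ) ^ t := by positivity
    have h4 : 1 / (t.factorial : ℝ) ≤ Real.exp 1 ^ t / (t : ℝ) ^ t := by
      rw [h3] at h2
      rw [div_le_div_iff₀ hf htt]
      rw [div_le_iff₀ hf] at h2
      linarith
    calc (n.choose t : ℝ) ≤ (n : ℝ) ^ t / (t.factorial : ℝ) := h1
      _ = (n : ℝ) ^ t * (1 / (t.factorial : ℝ)) := by ring
      _ ≤ _ := mul_le_mul_of_nonneg_left h4 (by positivity)
  have h5 : (n : ℝ) * q ^ s ≤ t / (2 * Real.exp 2) := by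
    rw [le_div_iff₀ (by positivity)]
    linarith
  have h6 : (n : ℝ) ^ s * (n.choose t) * q ^ (s * t) ≤ (n : ℝ) ^ s * (1 / (2 * Real.exp 1)) ^ t := by
    have hq' : q ^ (s * t) = (q ^ s) ^ t := by rw [pow_mul]
    rw [hq', mul_assoc]
    apply mul_le_mul_of_nonneg_left _ (by positivity)
    calc (n.choose t : ℝ) * (q ^ s) ^ t
        ≤ ((n : ℝ) ^ t * (Real.exp 1 ^ t / (t : ℝ) ^ t)) * (q ^ s) ^ t :=
          mul_le_mul_of_nonneg_right hch (by positivity)
      _ = ((n : ℝ) * q ^ s) ^ t * (Real.exp 1 ^ t / (t : ℝ) ^ t) := by rw [mul_pow]; ring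
      _ ≤ (t / (2 * Real.exp 2)) ^ t * (Real.exp 1 ^ t / (t : ℝ) ^ t) := by
          apply mul_le_mul_of_nonneg_right _ (by positivity)
          exact pow_le_pow_left₀ (by positivity) h5 t
      _ = (1 / (2 * Real.exp 1)) ^ t := by
          rw [← div_pow, ← mul_pow]
          congr 1
          rw [e2]
          have : (t : ℝ) ≠ 0 := by positivity
          field_simp
  have h7 : (1 / 2 : ℝ) ≤ (n : ℝ) ^ s * (1 / (2 * Real.exp 1)) ^ t := h0.trans h6
  have h8 : Real.exp 1 ^ t ≤ (n : ℝ) ^ s := by
    have hp : (0 : ℝ) < 2 ^ t * Real.exp 1 ^ t := by positivity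
    have hh : (1 / (2 * Real.exp 1)) ^ t = 1 / (2 ^ t * Real.exp 1 ^ t) := by
      rw [div_pow, one_pow, mul_pow]
    rw [hh, mul_one_div, le_div_iff₀ hp] at h7
    have h2t : (2 : ℝ) ≤ 2 ^ t := by
      calc (2 : ℝ) = 2 ^ 1 := by norm_num
        _ ≤ 2 ^ t := pow_le_pow_right₀ (by norm_num) ht
    have he : (0 : ℝ) < Real.exp 1 ^ t := by positivity
    nlinarith
  have h9 : Real.exp (t : ℝ) ≤ (n : ℝ) ^ s := by
    have : Real.exp (t : ℝ) = Real.exp 1 ^ t := by rw [← Real.exp_nat_mul]; simp
    rw [this]; exact h8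
  have h10 := Real.log_le_log (Real.exp_pos _) h9
  rw [Real.log_exp, Real.log_pow] at h10
  exact h10

/-- logarithmic form of the density bound -/
theorem density_log (H : SimpleGraph W) [DecidableRel H.Adj] (q : ℝ) (hq : 0 < q)
    (hn : 1 ≤ n) (ι : W ↪ Fin n) (hFM : FM H n q) (U : Finset W) :
    (edgesIn H U).card * Real.log (1 / q) ≤ U.card * Real.log n + Real.log 2 := by
  have h := density H q hq.le ι hFM U
  have hnR : (0 : ℝ) < n := by exact_mod_cast hn
  have h1 := Real.log_le_log (by norm_num) h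
  rw [Real.log_mul (by positivity) (by positivity), Real.log_pow, Real.log_pow] at h1
  have h2 : Real.log (1 / 2 : ℝ) = - Real.log 2 := by rw [one_div, Real.log_inv]
  rw [h2] at h1
  rw [one_div, Real.log_inv]
  linarith

end

end Crest.TG69
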