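import Mathlib
import Crest.Prelude.Def_FinProb

/-!
Lower tail bound for the binomial distribution in the form used by `TG_Expo` (S0073, sparse range).
-/

set_option autoImplicit false

namespace Crest.TG.Bin

open Crest.FinProb

variable {V : Type} [Fintype V] [DecidableEq V]

/-- Product formula. -/
theorem sum_prod (f : V → Bool → ℝ) :
    ∑ ω : V → Bool, ∏ v, f v (ω v) = ∏ v, (f v true + f v false) := by
  have h := Finset.prod_univ_sum (fun _ : V => (Finset.univ : Finset Bool)) f
  rw [Fintype.piFinset_univ] at h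
  rw [← h]
  exact Finset.prod_congr rfl fun v _ => by simp

omit [DecidableEq V] in
theorem bw_nonneg (P : ℝ) (h0 : 0 ≤ P) (h1 : P ≤ 1) (ω : V → Bool) :
    0 ≤ bernoulliWeight P ω := by
  unfold bernoulliWeight
  apply Finset.prod_nonneg
  intro i _
  split_ifs <;> linarith

/-- The count. -/
def cnt (U : Finset V) (ω : V → Bool) : ℕ :=
  (Finset.univ.filter (fun v => v ∉ U ∧ ω v = true)).card

theorem card_compl' (U : Finset V) :
    (Finset.univ.filter (fun v : V => v ∉ U)).card = Fintype.card V - U.card := by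
  rw [← Finset.card_compl]
  congr 1
  ext v
  simp

/-- generating function -/
theorem genfun (P a : ℝ) (U : Finset V) :
    ∑ ω : V → Bool, bernoulliWeight P ω * a ^ (cnt U ω)
      = (P * a + (1 - P)) ^ (Fintype.card V - U.card) := by
  have h1 : ∀ ω : V → Bool, bernoulliWeight P ω * a ^ (cnt U ω)
      = ∏ v, (fun (v : V) (b : Bool) => (if b then P else 1 - P) *
          (if v ∉ U ∧ b = true then a else 1)) v (ω v) := by
    intro ω
    simp only
    rw [Finset.prod_mul_distrib]
    unfold bernoulliWeight cnt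
    congr 1
    rw [Finset.prod_ite]
    simp
  refine (Finset.sum_congr rfl fun ω _ => h1 ω).trans ((sum_prod
    (fun (v : V) (b : Bool) => (if b then P else 1 - P) *
          (if v ∉ U ∧ b = true then a else 1))).trans ?_)
  have h2 : ∀ v : V, ((fun (v : V) (b : Bool) => (if b then P else 1 - P) *
          (if v ∉ U ∧ b = true then a else 1)) v true +
          (fun (v : V) (b : Bool) => (if b then P else 1 - P) *
          (if v ∉ U ∧ b = true then a else 1)) v false)
          = if v ∉ U then P * a + (1 - P) else 1 := by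
    intro v
    by_cases hv : v ∈ U <;> simp [hv]
  rw [Finset.prod_congr rfl fun v _ => h2 v, Finset.prod_ite]
  simp only [Finset.prod_const, one_pow, mul_one]
  rw [card_compl']

/-- exact pattern -/
theorem pattern (P : ℝ) (U S : Finset V) (hS : Disjoint S U) :
    ∑ ω ∈ Finset.univ.filter (fun ω : V → Bool =>
        Finset.univ.filter (fun v => v ∉ U ∧ ω v = true) = S), bernoulliWeight P ω
      = P ^ S.card * (1 - P) ^ (Fintype.card V - U.card - S.card) := by
  rw [Finset.sum_filter]
  have h1 : ∀ ω : V → Bool, (if Finset.univ.filter (fun v => v ∉ U ∧ ω v = true) = S then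
        bernoulliWeight P ω else 0)
      = ∏ v, (fun (v : V) (b : Bool) => (if b then P else 1 - P) *
          (if v ∉ U then (if (b = true ↔ v ∈ S) then (1 : ℝ) else 0) else 1)) v (ω v) := by
    intro ω
    simp only
    rw [Finset.prod_mul_distrib]
    by_cases h : Finset.univ.filter (fun v => v ∉ U ∧ ω v = true) = S
    · rw [if_pos h]
      have : ∏ x : V, (if x ∉ U then (if (ω x = true ↔ x ∈ S) then (1 : ℝ) else 0) else 1) = 1 := by
        apply Finset.prod_eq_one
        intro x _
        by_cases hx : x ∈ U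
        · simp [hx]
        · have : (ω x = true ↔ x ∈ S) := by
            rw [← h]
            simp [hx]
          simp [hx, this]
      rw [this, mul_one]
      rfl
    · rw [if_neg h]
      have : ∃ x : V, x ∉ U ∧ ¬ (ω x = true ↔ x ∈ S) := by
        by_contra hcon
        push Not at hcon
        apply h
        ext x
        simp only [Finset.mem_filter, Finset.mem_univ, true_and]
        constructor
        · rintro ⟨hx, hω⟩
          exact (hcon x hx).1 hω
        · intro hx
          have hxU : x ∉ U := Finset.disjoint_left.1 hS hx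
          exact ⟨hxU, (hcon x hxU).2 hx⟩
      obtain ⟨x, hx, hx2⟩ := this
      rw [Finset.prod_eq_zero (i := x) (f := fun x : V =>
        (if x ∉ U then (if (ω x = true ↔ x ∈ S) then (1 : ℝ) else 0) else 1)) (Finset.mem_univ x)
        (by simp [hx, hx2]), mul_zero]
  refine (Finset.sum_congr rfl fun ω _ => h1 ω).trans ((sum_prod
    (fun (v : V) (b : Bool) => (if b then P else 1 - P) *
          (if v ∉ U then (if (b = true ↔ v ∈ S) then (1 : ℝ) else 0) else 1))).trans ?_)
  have h2 : ∀ v : V, ((fun (v : V) (b : Bool) => (if b then P else 1 - P) *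
          (if v ∉ U then (if (b = true ↔ v ∈ S) then (1 : ℝ) else 0) else 1)) v true +
          (fun (v : V) (b : Bool) => (if b then P else 1 - P) *
          (if v ∉ U then (if (b = true ↔ v ∈ S) then (1 : ℝ) else 0) else 1)) v false)
          = if v ∈ S then P else (if v ∉ U then (1 - P) else 1) := by
    intro v
    by_cases hvS : v ∈ S
    · have hv : v ∉ U := Finset.disjoint_left.1 hS hvS
      simp [hv, hvS]
    · by_cases hv : v ∈ U <;> simp [hv, hvS]
  rw [Finset.prod_congr rfl fun v _ => h2 v, Finset.prod_ite, Finset.prod_ite]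
  simp only [Finset.prod_const, one_pow, mul_one]
  congr 2
  · simp
  · rw [Finset.filter_filter]
    have e : Finset.univ.filter (fun v : V => v ∉ S ∧ v ∉ U) = (S ∪ U)ᶜ := by
      ext v
      simp
    rw [e, Finset.card_compl, Finset.card_union_of_disjoint hS]
    omega

theorem prob_ge_eq (P : ℝ) (U : Finset V) (d : ℕ) :
    bernoulliProb P {ω : V → Bool |
      d ≤ (Finset.univ.filter (fun v => v ∉ U ∧ ω v = true)).card}
    = ∑ ω ∈ Finset.univ.filter (fun ω : V → Bool => d ≤ cnt U ω), bernoulliWeight P ω := by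
  unfold bernoulliProb
  apply Finset.sum_congr _ fun _ _ => rfl
  ext ω
  simp [cnt]

theorem sum_bw (P : ℝ) : ∑ ω : V → Bool, bernoulliWeight P ω = 1 := by
  have := genfun (V := V) P 1 ∅
  simpa using this

/-- exponential Markov -/
theorem lower_tail (P : ℝ) (h0 : 0 ≤ P) (h1 : P ≤ 1) (U : Finset V) (d : ℕ) :
    1 - 2 ^ d * Real.exp (-(P * ((Fintype.card V - U.card : ℕ) : ℝ) / 2)) ≤
    ∑ ω ∈ Finset.univ.filter (fun ω : V → Bool => d ≤ cnt U ω), bernoulliWeight P ω := by
  set N := Fintype.card V - U.card with hN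
  have hsplit := Finset.sum_filter_add_sum_filter_not (Finset.univ : Finset (V → Bool))
    (fun ω => d ≤ cnt U ω) (bernoulliWeight P)
  rw [sum_bw] at hsplit
  have hbad : ∑ ω ∈ Finset.univ.filter (fun ω : V → Bool => ¬ d ≤ cnt U ω), bernoulliWeight P ω
      ≤ 2 ^ d * (1 - P / 2) ^ N := by
    have hg := genfun (V := V) P (1 / 2) U
    rw [← hN] at hg
    have e : (P * (1 / 2) + (1 - P)) = 1 - P / 2 := by ring
    rw [e] at hg
    rw [← hg, Finset.mul_sum]
    calc ∑ ω ∈ Finset.univ.filter (fun ω : V → Bool => ¬ d ≤ cnt U ω), bernoulliWeight P ω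
        ≤ ∑ ω ∈ Finset.univ.filter (fun ω : V → Bool => ¬ d ≤ cnt U ω),
            2 ^ d * (bernoulliWeight P ω * (1 / 2) ^ (cnt U ω)) := by
          apply Finset.sum_le_sum
          intro ω hω
          simp only [Finset.mem_filter, Finset.mem_univ, true_and, not_le] at hω
          have hb := bw_nonneg P h0 h1 ω
          have h2 : (1 : ℝ) ≤ 2 ^ d * (1 / 2) ^ (cnt U ω) := by
            have : (1 / 2 : ℝ) ^ d ≤ (1 / 2) ^ (cnt U ω) :=
              pow_le_pow_of_le_one (by norm_num) (by norm_num) hω.le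
            calc (1 : ℝ) = 2 ^ d * (1 / 2) ^ d := by
                  rw [← mul_pow]; norm_num
              _ ≤ _ := mul_le_mul_of_nonneg_left this (by positivity)
          nlinarith
      _ ≤ _ := by
          apply Finset.sum_le_sum_of_subset_of_nonneg (Finset.filter_subset _ _)
          intro ω _ _
          have hb := bw_nonneg P h0 h1 ω
          positivity
  have hexp : (1 - P / 2) ^ N ≤ Real.exp (-(P * (N : ℝ) / 2)) := by
    have h3 : 1 - P / 2 ≤ Real.exp (-(P / 2)) := by
      have := Real.add_one_le_exp (-(P / 2))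
      linarith
    calc (1 - P / 2) ^ N ≤ (Real.exp (-(P / 2))) ^ N :=
          pow_le_pow_left₀ (by linarith) h3 N
      _ = Real.exp (-(P * (N : ℝ) / 2)) := by
          rw [← Real.exp_nat_mul]
          congr 1
          ring
  have h4 : (2 : ℝ) ^ d * (1 - P / 2) ^ N ≤ 2 ^ d * Real.exp (-(P * (N : ℝ) / 2)) :=
    mul_le_mul_of_nonneg_left hexp (by positivity)
  linarith

/-- exact binomial term -/
theorem term_le (P : ℝ) (h0 : 0 ≤ P) (h1 : P ≤ 1) (U : Finset V) (d : ℕ) :
    ((Fintype.card V - U.card).choose d : ℝ) * (P ^ d * (1 - P) ^ (Fintype.card V - U.card - d)) ≤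
    ∑ ω ∈ Finset.univ.filter (fun ω : V → Bool => d ≤ cnt U ω), bernoulliWeight P ω := by
  set A := Finset.univ.filter (fun v : V => v ∉ U) with hA
  have hAc : A.card = Fintype.card V - U.card := card_compl' U
  have h : ∑ S ∈ A.powersetCard d, ∑ ω ∈ Finset.univ.filter (fun ω : V → Bool =>
        Finset.univ.filter (fun v => v ∉ U ∧ ω v = true) = S), bernoulliWeight P ω
      = ((Fintype.card V - U.card).choose d : ℝ) *
        (P ^ d * (1 - P) ^ (Fintype.card V - U.card - d)) := by
    rw [Finset.sum_congr rfl (g := fun _ => P ^ d * (1 - P) ^ (Fintype.card V - U.card - d))]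
    · rw [Finset.sum_const, Finset.card_powersetCard, hAc, nsmul_eq_mul]
    · intro S hS
      rw [Finset.mem_powersetCard] at hS
      rw [pattern P U S, hS.2]
      rw [Finset.disjoint_left]
      intro v hv
      exact (Finset.mem_filter.1 (hS.1 hv)).2
  rw [← h, ← Finset.sum_biUnion]
  · apply Finset.sum_le_sum_of_subset_of_nonneg
    · intro ω hω
      simp only [Finset.mem_biUnion, Finset.mem_powersetCard, Finset.mem_filter, Finset.mem_univ,
        true_and] at hω ⊢
      obtain ⟨S, ⟨_, hSd⟩, hSe⟩ := hω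
      unfold cnt
      rw [hSe, hSd]
    · intro ω _ _
      exact bw_nonneg P h0 h1 ω
  · intro S _ T _ hST
    rw [Function.onFun, Finset.disjoint_left]
    intro ω h1 h2
    simp only [Finset.mem_filter, Finset.mem_univ, true_and] at h1 h2
    exact hST (h1.symm.trans h2)

theorem choose_comp (n N d : ℕ) (hN : n ≤ 4 * N) (hd : 2 * d ≤ N) :
    (n.choose d : ℝ) ≤ 8 ^ d * (N.choose d : ℝ) := by
  have h1 : (n.choose d : ℝ) ≤ (n : ℝ) ^ d / (d.factorial : ℝ) := Nat.choose_le_pow_div d n
  have h2' : (((N + 1 - d : ℕ) : ℝ) ^ d : ℝ) / (d.factorial : ℝ) ≤ (N.choose d : ℝ) := by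
    have := Nat.pow_le_choose (α := ℝ) d N
    exact_mod_cast this
  have hf : (0 : ℝ) < (d.factorial : ℝ) := by exact_mod_cast d.factorial_pos
  rw [le_div_iff₀ hf] at h1
  rw [div_le_iff₀ hf] at h2'
  have h3 : (n : ℝ) ≤ 8 * ((N + 1 - d : ℕ) : ℝ) := by
    have : n ≤ 8 * (N + 1 - d) := by omega
    exact_mod_cast this
  have h4 : (n : ℝ) ^ d ≤ 8 ^ d * ((N + 1 - d : ℕ) : ℝ) ^ d := by
    rw [← mul_pow]
    exact pow_le_pow_left₀ (by positivity) h3 d
  have h5 : (n.choose d : ℝ) * (d.factorial : ℝ) ≤ (8 ^ d * (N.choose d : ℝ)) * d.factorial := by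
    calc (n.choose d : ℝ) * (d.factorial : ℝ) ≤ (n : ℝ) ^ d := h1
      _ ≤ 8 ^ d * ((N + 1 - d : ℕ) : ℝ) ^ d := h4
      _ ≤ 8 ^ d * ((N.choose d : ℝ) * (d.factorial : ℝ)) :=
          mul_le_mul_of_nonneg_left h2' (by positivity)
      _ = _ := by ring
  exact le_of_mul_le_mul_right h5 hf

theorem exp_two_ge : (4 : ℝ) ≤ Real.exp 2 := by
  have h := Real.exp_one_gt_d9
  have : Real.exp 2 = Real.exp 1 * Real.exp 1 := by rw [← Real.exp_add]; norm_num
  rw [this]
  nlinarith

theorem exp_eight_le : Real.exp 8 ≤ 4096 := by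
  have h := Real.exp_one_lt_d9
  have e : Real.exp 8 = (Real.exp 1) ^ 8 := by rw [← Real.exp_nat_mul]; norm_num
  rw [e]
  calc (Real.exp 1) ^ 8 ≤ 2.7182818286 ^ 8 :=
        pow_le_pow_left₀ (Real.exp_pos 1).le h.le 8
    _ ≤ 4096 := by norm_num

theorem one_sub_ge (P : ℝ) (h0 : 0 ≤ P) (h1 : P ≤ 1 / 2) : Real.exp (-(2 * P)) ≤ 1 - P := by
  have hpos : 0 < 1 - P := by linarith
  have h2 : 1 / (1 - P) ≤ Real.exp (2 * P) := by
    have h3 := Real.add_one_le_exp (P / (1 - P))
    have h4 : P / (1 - P) ≤ 2 * P := by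
      rw [div_le_iff₀ hpos]
      nlinarith
    have h5 : Real.exp (P / (1 - P)) ≤ Real.exp (2 * P) := Real.exp_le_exp.2 h4
    have h6 : 1 / (1 - P) = P / (1 - P) + 1 := by
      field_simp
      ring
    rw [h6]
    linarith
  rw [Real.exp_neg]
  rw [inv_le_comm₀ (Real.exp_pos _) hpos]
  rwa [one_div] at h2

/-- **The binomial tail.** -/
theorem tail (L p : ℝ) (hp : 0 ≤ p) (hL : 0 ≤ L) (hLp : L * p ≤ 1 / 2) (n d : ℕ) (U : Finset V)
    (hN : n ≤ 4 * (Fintype.card V - U.card)) (hd : 2 * d ≤ Fintype.card V - U.card) :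
    min (1 / 2) ((n.choose d : ℝ) * p ^ d * (L / 2 ^ 15) ^ d) ≤
      bernoulliProb (L * p) {ω : V → Bool |
        d ≤ (Finset.univ.filter (fun v => v ∉ U ∧ ω v = true)).card} := by
  rw [prob_ge_eq]
  set N := Fintype.card V - U.card with hNdef
  set P := L * p with hP
  have hP0 : 0 ≤ P := mul_nonneg hL hp
  have hP1 : P ≤ 1 := by linarith
  rcases Nat.eq_zero_or_pos d with hd0 | hd0
  · subst hd0
    have := lower_tail P hP0 hP1 U 0
    have h2 : ∑ ω ∈ Finset.univ.filter (fun ω : V → Bool => 0 ≤ cnt U ω), bernoulliWeight P ω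
        = 1 := by
      rw [Finset.filter_true_of_mem (by intro _ _; exact Nat.zero_le _), sum_bw]
    rw [h2]
    exact (min_le_left _ _).trans (by norm_num)
  by_cases hc : 4 * (d : ℝ) ≤ P * N
  · refine (min_le_left _ _).trans ?_
    have h := lower_tail P hP0 hP1 U d
    rw [← hNdef] at h
    refine le_trans ?_ h
    have h2 : (2 : ℝ) ^ d * Real.exp (-(P * (N : ℝ) / 2)) ≤ 1 / 2 := by
      have h3 : Real.exp (-(P * (N : ℝ) / 2)) ≤ (1 / 4) ^ d := by
        calc Real.exp (-(P * (N : ℝ) / 2)) ≤ Real.exp (d * (-2)) := by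
              apply Real.exp_le_exp.2
              linarith
          _ = (Real.exp (-2)) ^ d := by rw [Real.exp_nat_mul]
          _ ≤ (1 / 4) ^ d := by
              apply pow_le_pow_left₀ (Real.exp_pos _).le
              rw [Real.exp_neg, one_div]
              exact inv_anti₀ (by norm_num) exp_two_ge
      calc (2 : ℝ) ^ d * Real.exp (-(P * (N : ℝ) / 2)) ≤ 2 ^ d * (1 / 4) ^ d :=
            mul_le_mul_of_nonneg_left h3 (by positivity)
        _ = (1 / 2) ^ d := by rw [← mul_pow]; norm_num
        _ ≤ (1 / 2) ^ 1 := pow_le_pow_of_le_one (by norm_num) (by norm_num) hd0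
        _ = 1 / 2 := by norm_num
    linarith
  · push Not at hc
    refine (min_le_right _ _).trans ?_
    have h := term_le P hP0 hP1 U d
    rw [← hNdef] at h
    refine le_trans ?_ h
    have h1 : Real.exp (-(8 * (d : ℝ))) ≤ (1 - P) ^ (N - d) := by
      calc Real.exp (-(8 * (d : ℝ))) ≤ Real.exp (N * (-(2 * P))) := by
            apply Real.exp_le_exp.2
            nlinarith
        _ = (Real.exp (-(2 * P))) ^ N := by rw [Real.exp_nat_mul]
        _ ≤ (1 - P) ^ N :=
            pow_le_pow_left₀ (Real.exp_pos _).le (one_sub_ge P hP0 hLp) N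
        _ ≤ (1 - P) ^ (N - d) :=
            pow_le_pow_of_le_one (by linarith) (by linarith) (Nat.sub_le _ _)
    have h2 : (1 / 4096 : ℝ) ^ d ≤ (1 - P) ^ (N - d) := by
      refine le_trans ?_ h1
      have : Real.exp (-(8 * (d : ℝ))) = (Real.exp (-8)) ^ d := by
        rw [← Real.exp_nat_mul]
        congr 1
        ring
      rw [this]
      apply pow_le_pow_left₀ (by norm_num)
      rw [Real.exp_neg, one_div]
      exact inv_anti₀ (Real.exp_pos _) exp_eight_le
    have h3 := choose_comp n N d hN hd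
    calc (n.choose d : ℝ) * p ^ d * (L / 2 ^ 15) ^ d
        = (n.choose d : ℝ) * (P ^ d * (1 / 2 ^ 15) ^ d) := by
          rw [hP, mul_pow, div_eq_mul_one_div L, mul_pow]
          ring
      _ ≤ (8 ^ d * (N.choose d : ℝ)) * (P ^ d * (1 / 2 ^ 15) ^ d) :=
          mul_le_mul_of_nonneg_right h3 (by positivity)
      _ = (N.choose d : ℝ) * (P ^ d * (1 / 4096) ^ d) := by
          have : (8 : ℝ) ^ d * (1 / 2 ^ 15) ^ d = (1 / 4096) ^ d := by
            rw [← mul_pow]
            norm_num
          rw [← this]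
          ring
      _ ≤ (N.choose d : ℝ) * (P ^ d * (1 - P) ^ (N - d)) := by
          apply mul_le_mul_of_nonneg_left _ (by positivity)
          exact mul_le_mul_of_nonneg_left h2 (by positivity)

end Crest.TG.Bin
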