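import Mathlib
import Crest.Prelude.Def_CopyThreshold

set_option autoImplicit false
set_option linter.unusedSectionVars false
set_option linter.unusedVariables false

namespace Crest.TG.Degen
open Finset Crest.CombinatoricsR.RandomGraph

variable {W : Type*} [Fintype W] [DecidableEq W]

theorem exists_order_aux (H : SimpleGraph W) [DecidableRel H.Adj] (d : ℕ)
    (h : ∀ U : Finset W, U.Nonempty → ∃ v ∈ U, (U.filter (fun u => H.Adj v u)).card ≤ d) :
    ∀ m : ℕ, ∀ U : Finset W, U.card = m → ∃ f : W → ℕ, Set.InjOn f U ∧ (∀ v ∈ U, f v < m) ∧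
      ∀ v ∈ U, (U.filter (fun u => H.Adj v u ∧ f u < f v)).card ≤ d := by
  intro m
  induction m with
  | zero =>
    intro U hU
    rw [Finset.card_eq_zero] at hU
    subst hU
    exact ⟨fun _ => 0, by simp, by simp, by simp⟩
  | succ m ih =>
    intro U hU
    have hne : U.Nonempty := Finset.card_pos.mp (by omega)
    obtain ⟨v, hv, hvd⟩ := h U hne
    obtain ⟨f', hf1, hf2, hf3⟩ := ih (U.erase v) (by rw [Finset.card_erase_of_mem hv]; omega)
    refine ⟨Function.update f' v m, ?_, ?_, ?_⟩
    · intro a ha b hb hab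
      have ha' : a ∈ U := ha
      have hb' : b ∈ U := hb
      by_cases h1 : a = v
      · by_cases h2 : b = v
        · rw [h1, h2]
        · exfalso
          rw [h1, Function.update_self, Function.update_of_ne h2] at hab
          have := hf2 b (Finset.mem_erase.mpr ⟨h2, hb'⟩)
          omega
      · by_cases h2 : b = v
        · exfalso
          rw [h2, Function.update_self, Function.update_of_ne h1] at hab
          have := hf2 a (Finset.mem_erase.mpr ⟨h1, ha'⟩)
          omega
        · rw [Function.update_of_ne h1, Function.update_of_ne h2] at hab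
          exact hf1 (Finset.mem_coe.mpr (Finset.mem_erase.mpr ⟨h1, ha'⟩)) (Finset.mem_coe.mpr (Finset.mem_erase.mpr ⟨h2, hb'⟩)) hab
    · intro a ha
      by_cases h1 : a = v
      · rw [h1, Function.update_self]; omega
      · rw [Function.update_of_ne h1]
        have := hf2 a (Finset.mem_erase.mpr ⟨h1, ha⟩)
        omega
    · intro a ha
      by_cases h1 : a = v
      · subst h1
        refine le_trans (Finset.card_le_card ?_) hvd
        intro u hu
        simp only [Finset.mem_filter] at hu ⊢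
        exact ⟨hu.1, hu.2.1⟩
      · have ha' : a ∈ U.erase v := Finset.mem_erase.mpr ⟨h1, ha⟩
        refine le_trans (Finset.card_le_card ?_) (hf3 a ha')
        intro u hu
        simp only [Finset.mem_filter] at hu ⊢
        obtain ⟨hu1, hu2, hu3⟩ := hu
        rw [Function.update_of_ne h1] at hu3
        have huv : u ≠ v := by
          rintro rfl
          rw [Function.update_self] at hu3
          have := hf2 a ha'
          omega
        rw [Function.update_of_ne huv] at hu3
        exact ⟨Finset.mem_erase.mpr ⟨huv, hu1⟩, hu2, hu3⟩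

/-- Degenerate ordering. -/
theorem exists_order (H : SimpleGraph W) [DecidableRel H.Adj] (d : ℕ)
    (h : ∀ U : Finset W, U.Nonempty → ∃ v ∈ U, (U.filter (fun u => H.Adj v u)).card ≤ d) :
    ∃ σ : W ≃ Fin (Fintype.card W),
      ∀ v, (univ.filter (fun u => H.Adj v u ∧ σ u < σ v)).card ≤ d := by
  obtain ⟨f, hf1, hf2, hf3⟩ := exists_order_aux H d h (Fintype.card W) univ (Finset.card_univ)
  let g : W → Fin (Fintype.card W) := fun v => ⟨f v, hf2 v (mem_univ v)⟩
  have hg : Function.Injective g := by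
    intro a b hab
    exact hf1 (by simp) (by simp) (by simpa [g] using hab)
  have hb : Function.Bijective g :=
    (Fintype.bijective_iff_injective_and_card g).mpr ⟨hg, by simp⟩
  refine ⟨Equiv.ofBijective g hb, ?_⟩
  intro v
  have := hf3 v (mem_univ v)
  have h2 : (univ.filter (fun u => H.Adj v u ∧ (Equiv.ofBijective g hb) u < (Equiv.ofBijective g hb) v))
      = univ.filter (fun u => H.Adj v u ∧ f u < f v) := by
    ext u
    simp only [Finset.mem_filter, Finset.mem_univ, true_and, Equiv.ofBijective_apply, g, Fin.mk_lt_mk]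
  rw [h2]
  exact this

/-- Handshake: if the number of edges inside each `U` is at most `b |U|`, there is a vertex of
degree at most `2 b` inside each nonempty `U`. -/
theorem exists_low_degree (H : SimpleGraph W) [DecidableRel H.Adj] (b : ℝ)
    (hb : ∀ U : Finset W, ((H.edgeFinset.filter (fun e => ∀ x ∈ e, x ∈ U)).card : ℝ) ≤ b * U.card)
    (U : Finset W) (hU : U.Nonempty) :
    ∃ v ∈ U, ((U.filter (fun u => H.Adj v u)).card : ℝ) ≤ 2 * b := by
  by_contra hcon
  push Not at hcon
  have h1 : ∑ v ∈ U, ((U.filter (fun u => H.Adj v u)).card : ℝ)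
      = 2 * ((H.edgeFinset.filter (fun e => ∀ x ∈ e, x ∈ U)).card : ℝ) := by
    have key : ∑ v ∈ U, (U.filter (fun u => H.Adj v u)).card
        = 2 * (H.edgeFinset.filter (fun e => ∀ x ∈ e, x ∈ U)).card := by
      have e1 : ∑ v ∈ U, (U.filter (fun u => H.Adj v u)).card
          = ((U ×ˢ U).filter (fun p : W × W => H.Adj p.1 p.2)).card := by
        rw [Finset.card_filter, Finset.sum_product]
        apply Finset.sum_congr rfl
        intro v _
        rw [Finset.card_filter]
      rw [e1]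
      have e2 : ∀ e ∈ H.edgeFinset.filter (fun e => ∀ x ∈ e, x ∈ U),
          (((U ×ˢ U).filter (fun p : W × W => H.Adj p.1 p.2)).filter
            (fun p => s(p.1, p.2) = e)).card = 2 := by
        intro e he
        induction e using Sym2.ind with
        | _ x y =>
          simp only [Finset.mem_filter, SimpleGraph.mem_edgeFinset, SimpleGraph.mem_edgeSet,
            Sym2.mem_iff, forall_eq_or_imp, forall_eq] at he
          obtain ⟨hxy, hx, hy⟩ := he
          have hne : x ≠ y := hxy.ne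
          have : (((U ×ˢ U).filter (fun p : W × W => H.Adj p.1 p.2)).filter
            (fun p => s(p.1, p.2) = s(x, y))) = {(x, y), (y, x)} := by
            ext ⟨a, c⟩
            simp only [Finset.mem_filter, Finset.mem_product, Sym2.eq_iff, Finset.mem_insert,
              Finset.mem_singleton, Prod.mk.injEq]
            constructor
            · rintro ⟨_, h⟩
              exact h
            · rintro (⟨rfl, rfl⟩ | ⟨rfl, rfl⟩)
              · exact ⟨⟨⟨hx, hy⟩, hxy⟩, Or.inl ⟨rfl, rfl⟩⟩
              · exact ⟨⟨⟨hy, hx⟩, hxy.symm⟩, Or.inr ⟨rfl, rfl⟩⟩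
          rw [this, Finset.card_pair]
          intro h
          exact hne (Prod.mk.inj h).1
      have e3 : ∀ p ∈ (U ×ˢ U).filter (fun p : W × W => H.Adj p.1 p.2),
          s(p.1, p.2) ∈ H.edgeFinset.filter (fun e => ∀ x ∈ e, x ∈ U) := by
        intro p hp
        simp only [Finset.mem_filter, Finset.mem_product] at hp
        simp only [Finset.mem_filter, SimpleGraph.mem_edgeFinset, SimpleGraph.mem_edgeSet,
            Sym2.mem_iff, forall_eq_or_imp, forall_eq]
        exact ⟨hp.2, hp.1.1, hp.1.2⟩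
      rw [Finset.card_eq_sum_card_fiberwise (f := fun p : W × W => s(p.1, p.2)) e3,
        Finset.sum_congr rfl e2, Finset.sum_const, smul_eq_mul, mul_comm]
    exact_mod_cast key
  have h2 : ∑ v ∈ U, 2 * b < ∑ v ∈ U, ((U.filter (fun u => H.Adj v u)).card : ℝ) :=
    Finset.sum_lt_sum_of_nonempty hU hcon
  rw [h1, Finset.sum_const, nsmul_eq_mul] at h2
  have := hb U
  nlinarith

/-- 2-colouring of a forest given by a parent function decreasing a rank. -/
theorem exists_parity {N : ℕ} (σ : W → Fin N) (f : W → Option W)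
    (hf : ∀ v u, f v = some u → σ u < σ v) :
    ∃ χ : W → Bool, ∀ v u, f v = some u → χ v ≠ χ u := by
  have key : ∀ n : ℕ, ∃ χ : W → Bool, ∀ v u, (σ v : ℕ) < n → f v = some u → χ v ≠ χ u := by
    intro n
    induction n with
    | zero => exact ⟨fun _ => false, by intro v u h; omega⟩
    | succ n ih =>
      obtain ⟨χ, hχ⟩ := ih
      refine ⟨fun v => if (σ v : ℕ) = n then (match f v with
        | some u => !χ u
        | none => false) else χ v, ?_⟩
      intro v u hv hfv
      have hlt : (σ u : ℕ) < σ v := hf v u hfv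
      by_cases h1 : (σ v : ℕ) = n
      · have h2 : (σ u : ℕ) ≠ n := by omega
        simp only [h1, if_true, h2, if_false, hfv]
        simp
      · have h2 : (σ u : ℕ) ≠ n := by omega
        simp only [h1, if_false, h2]
        exact hχ v u (by omega) hfv
  obtain ⟨χ, hχ⟩ := key N
  exact ⟨χ, fun v u h => hχ v u (σ v).2 h⟩

/-- rank function inside the back-neighbourhoods -/
theorem exists_rank {N : ℕ} (σ : W ≃ Fin N) (d : ℕ) (B : W → Finset W)
    (hB : ∀ v, (B v).card ≤ d) :
    ∃ r : W → W → ℕ, (∀ v, ∀ u ∈ B v, r v u < d) ∧ ∀ v, ∀ u ∈ B v, ∀ u' ∈ B v,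
      r v u = r v u' → u = u' := by
  refine ⟨fun v u => ((B v).filter (fun u' => σ u' < σ u)).card, ?_, ?_⟩
  · intro v u hu
    refine lt_of_lt_of_le ?_ (hB v)
    apply Finset.card_lt_card
    refine ⟨Finset.filter_subset _ _, fun h => ?_⟩
    have := h hu
    simp at this
  · have key : ∀ v, ∀ u ∈ B v, ∀ u' ∈ B v, σ u < σ u' →
        ((B v).filter (fun x => σ x < σ u)).card < ((B v).filter (fun x => σ x < σ u')).card := by
      intro v u hu u' hu' hlt
      apply Finset.card_lt_card
      refine ⟨?_, fun h => ?_⟩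
      · intro x hx
        simp only [Finset.mem_filter] at hx ⊢
        exact ⟨hx.1, hx.2.trans hlt⟩
      · have h3 : u ∈ (B v).filter (fun x => σ x < σ u') := by
          simp only [Finset.mem_filter]; exact ⟨hu, hlt⟩
        have := h h3
        simp at this
    intro v u hu u' hu' heq
    rcases lt_trichotomy (σ u) (σ u') with h | h | h
    · have := key v u hu u' hu' h
      simp only at heq
      omega
    · exact σ.injective h
    · have := key v u' hu' u hu h
      simp only at heq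
      omega

theorem exists_child {N : ℕ} (H : SimpleGraph W) (σ : W ≃ Fin N) :
    ∃ ch pa : H.edgeSet → W, ∀ e : H.edgeSet, (e : Sym2 W) = s(ch e, pa e) ∧
      H.Adj (ch e) (pa e) ∧ σ (pa e) < σ (ch e) := by
  have h : ∀ e : H.edgeSet, ∃ v u : W, (e : Sym2 W) = s(v, u) ∧ H.Adj v u ∧ σ u < σ v := by
    rintro ⟨e, he⟩
    induction e using Sym2.ind with
    | _ x y =>
      have hxy : H.Adj x y := by simpa using he
      rcases lt_trichotomy (σ x) (σ y) with h | h | h
      · exact ⟨y, x, Sym2.eq_swap, hxy.symm, h⟩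
      · exact absurd (σ.injective h) hxy.ne
      · exact ⟨x, y, rfl, hxy, h⟩
  choose ch pa h1 h2 h3 using h
  exact ⟨ch, pa, fun e => ⟨h1 e, h2 e, h3 e⟩⟩

theorem card_mod_le {N : ℕ} (σ : W ≃ Fin N) (k' : ℕ) (hk' : 1 ≤ k') (g : ℕ) :
    (univ.filter (fun v : W => (σ v : ℕ) % k' = g)).card * k' ≤ N + k' := by
  have h1 : (univ.filter (fun v : W => (σ v : ℕ) % k' = g)).card ≤ (Finset.range (N / k' + 1)).card := by
    apply Finset.card_le_card_of_injOn (fun v => (σ v : ℕ) / k')
    · intro v hv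
      simp only [Finset.coe_range, Set.mem_Iio]
      have : (σ v : ℕ) / k' ≤ N / k' := Nat.div_le_div_right (le_of_lt (σ v).2)
      omega
    · intro v hv u hu huv
      simp only [Finset.coe_filter, Finset.mem_univ, true_and, Set.mem_ofPred_eq] at hv hu
      simp only at huv
      have h1 := Nat.div_add_mod (σ v : ℕ) k'
      have h2 := Nat.div_add_mod (σ u : ℕ) k'
      rw [hv, huv] at h1
      rw [hu] at h2
      apply σ.injective
      apply Fin.ext
      omega
  rw [Finset.card_range] at h1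
  calc (univ.filter (fun v : W => (σ v : ℕ) % k' = g)).card * k' ≤ (N / k' + 1) * k' :=
        Nat.mul_le_mul_right _ h1
    _ = N / k' * k' + k' := by ring
    _ ≤ N + k' := by
        have := Nat.div_mul_le_self N k'
        omega

theorem pieceGraph_adj {k : ℕ} (H : SimpleGraph W) (c : H.edgeSet → Fin k) (i : Fin k) (v u : W) :
    (pieceGraph H c i).Adj v u ↔ ∃ h : s(v, u) ∈ H.edgeSet, c ⟨s(v, u), h⟩ = i := by
  unfold pieceGraph
  rw [SimpleGraph.fromEdgeSet_adj]
  constructor
  · rintro ⟨h, _⟩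
    exact h
  · rintro ⟨h, hc⟩
    refine ⟨⟨h, hc⟩, ?_⟩
    have : H.Adj v u := by simpa using h
    exact this.ne

/-- A class in terms of children and parents. -/
theorem class_adj {N k : ℕ} (H : SimpleGraph W) (σ : W ≃ Fin N) (ch pa : H.edgeSet → W)
    (hcp : ∀ e : H.edgeSet, (e : Sym2 W) = s(ch e, pa e) ∧
      H.Adj (ch e) (pa e) ∧ σ (pa e) < σ (ch e))
    (lab : W → W → Fin k) (i : Fin k) (v u : W) :
    (pieceGraph H (fun e => lab (ch e) (pa e)) i).Adj v u ↔
      (H.Adj v u ∧ ((σ u < σ v ∧ lab v u = i) ∨ (σ v < σ u ∧ lab u v = i))) := by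
  rw [pieceGraph_adj]
  constructor
  · rintro ⟨h, hc⟩
    have hadj : H.Adj v u := by simpa using h
    refine ⟨hadj, ?_⟩
    obtain ⟨h1, h2, h3⟩ := hcp ⟨s(v, u), h⟩
    simp only at h1 hc
    rw [Sym2.eq_iff] at h1
    rcases h1 with ⟨h1, h1'⟩ | ⟨h1, h1'⟩
    · rw [← h1, ← h1'] at h3 hc
      exact Or.inl ⟨h3, hc⟩
    · rw [← h1, ← h1'] at h3 hc
      exact Or.inr ⟨h3, hc⟩
  · rintro ⟨hadj, hh⟩
    have h : s(v, u) ∈ H.edgeSet := by simpa using hadj
    refine ⟨h, ?_⟩
    obtain ⟨h1, h2, h3⟩ := hcp ⟨s(v, u), h⟩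
    simp only at h1 ⊢
    rw [Sym2.eq_iff] at h1
    rcases h1 with ⟨h1, h1'⟩ | ⟨h1, h1'⟩
    · rw [← h1, ← h1'] at h3 ⊢
      rcases hh with ⟨_, hh⟩ | ⟨hh, _⟩
      · exact hh
      · exact absurd hh (not_lt.mpr h3.le)
    · rw [← h1, ← h1'] at h3 ⊢
      rcases hh with ⟨hh, _⟩ | ⟨_, hh⟩
      · exact absurd hh (not_lt.mpr h3.le)
      · exact hh

/-- Star-forest labelling. -/
theorem star_labels_of_order {N : ℕ} (H : SimpleGraph W) [DecidableRel H.Adj] (σ : W ≃ Fin N)
    (d k' : ℕ) (hk' : 1 ≤ k')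
    (hσ : ∀ v, (univ.filter (fun u => H.Adj v u ∧ σ u < σ v)).card ≤ d) :
    ∃ c : H.edgeSet → Fin (d * 2 * k'), ∀ i, ∃ par : W → Option W,
      (∀ v u, par v = some u → par u = none) ∧
      (∀ v u, (pieceGraph H c i).Adj v u ↔ (par v = some u ∨ par u = some v)) ∧
      (univ.filter (fun v => par v ≠ none)).card * k' ≤ N + k' := by
  classical
  set B : W → Finset W := fun v => univ.filter (fun u => H.Adj v u ∧ σ u < σ v) with hBdef
  obtain ⟨r, hr1, hr2⟩ := exists_rank σ d B hσ
  obtain ⟨ch, pa, hcp⟩ := exists_child H σ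
  -- parent function of class j
  let par0 : ℕ → W → Option W := fun j v => if h : ∃ u ∈ B v, r v u = j then some h.choose else none
  have hpar0 : ∀ j v u, par0 j v = some u ↔ (u ∈ B v ∧ r v u = j) := by
    intro j v u
    simp only [par0]
    constructor
    · intro h
      split_ifs at h with hh
      have h3 := hh.choose_spec
      rw [Option.some.injEq] at h
      rw [h] at h3
      exact h3
    · rintro ⟨h1, h2⟩
      have hh : ∃ u ∈ B v, r v u = j := ⟨u, h1, h2⟩
      rw [dif_pos hh, Option.some.injEq]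
      have h3 := hh.choose_spec
      exact hr2 v _ h3.1 _ h1 (h3.2.trans h2.symm)
  have hmemB : ∀ v u, u ∈ B v ↔ (H.Adj v u ∧ σ u < σ v) := by
    intro v u; simp [B]
  have hchi : ∀ j : ℕ, ∃ χ : W → Bool, ∀ v u, par0 j v = some u → χ v ≠ χ u := by
    intro j
    apply exists_parity (fun v => σ v)
    intro v u h
    exact ((hmemB v u).mp ((hpar0 j v u).mp h).1).2
  choose χ hχ using hchi
  -- encode labels
  let enc : Fin d × Bool × Fin k' ≃ Fin (d * 2 * k') :=
    Fintype.equivFinOfCardEq (by simp [mul_assoc])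
  by_cases hd : d = 0
  · subst hd
    have hempty : ∀ e : H.edgeSet, False := by
      intro e
      obtain ⟨_, h2, h3⟩ := hcp e
      have h4 := hσ (ch e)
      rw [Nat.le_zero, Finset.card_eq_zero] at h4
      have : pa e ∈ univ.filter (fun u => H.Adj (ch e) u ∧ σ u < σ (ch e)) := by
        simp only [Finset.mem_filter, Finset.mem_univ, true_and]; exact ⟨h2, h3⟩
      rw [h4] at this
      simp at this
    refine ⟨fun e => (hempty e).elim, ?_⟩
    intro i
    exact absurd i.2 (by simp)
  have hd0 : 0 < d := Nat.pos_of_ne_zero hd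
  let lab : W → W → Fin (d * 2 * k') := fun v u =>
    enc (⟨r v u % d, Nat.mod_lt _ hd0⟩, χ (r v u % d) v, ⟨(σ v : ℕ) % k', Nat.mod_lt _ (by omega)⟩)
  refine ⟨fun e => lab (ch e) (pa e), ?_⟩
  intro i
  obtain ⟨⟨j, b, g⟩, hi⟩ := enc.surjective i
  have hlab : ∀ v u, u ∈ B v → (lab v u = i ↔ (r v u = j ∧ χ j v = b ∧ (σ v : ℕ) % k' = g)) := by
    intro v u hu
    have hru := hr1 v u hu
    have hmod : r v u % d = r v u := Nat.mod_eq_of_lt hru
    simp only [lab, ← hi, Equiv.apply_eq_iff_eq, Prod.mk.injEq, Fin.ext_iff, hmod]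
    constructor
    · rintro ⟨h1, h2, h3⟩
      rw [h1] at h2
      exact ⟨h1, h2, h3⟩
    · rintro ⟨h1, h2, h3⟩
      rw [h1]
      exact ⟨rfl, h2, h3⟩
  let par : W → Option W := fun v => if (χ j v = b ∧ (σ v : ℕ) % k' = g) then par0 j v else none
  have hpar : ∀ v u, par v = some u ↔ (H.Adj v u ∧ σ u < σ v ∧ lab v u = i) := by
    intro v u
    simp only [par]
    constructor
    · intro h
      split_ifs at h with hh
      obtain ⟨h1, h2⟩ := (hpar0 j v u).mp h
      obtain ⟨h3, h4⟩ := (hmemB v u).mp h1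
      exact ⟨h3, h4, (hlab v u h1).mpr ⟨h2, hh.1, hh.2⟩⟩
    · rintro ⟨h1, h2, h3⟩
      have hu : u ∈ B v := (hmemB v u).mpr ⟨h1, h2⟩
      obtain ⟨h4, h5, h6⟩ := (hlab v u hu).mp h3
      rw [if_pos ⟨h5, h6⟩, hpar0]
      exact ⟨hu, h4⟩
  refine ⟨par, ?_, ?_, ?_⟩
  · intro v u h
    have h0 := h
    simp only [par] at h
    split_ifs at h with hh
    have h1 := hχ j v u h
    have h2 : χ j u ≠ b := by
      rw [hh.1] at h1
      exact fun h => h1 h.symm
    simp only [par]
    rw [if_neg (fun hc => h2 hc.1)]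
  · intro v u
    rw [class_adj H σ ch pa hcp lab i v u, hpar, hpar]
    constructor
    · rintro ⟨h1, ⟨h2, h3⟩ | ⟨h2, h3⟩⟩
      · exact Or.inl ⟨h1, h2, h3⟩
      · exact Or.inr ⟨h1.symm, h2, h3⟩
    · rintro (⟨h1, h2, h3⟩ | ⟨h1, h2, h3⟩)
      · exact ⟨h1, Or.inl ⟨h2, h3⟩⟩
      · exact ⟨h1.symm, Or.inr ⟨h2, h3⟩⟩
  · refine le_trans (Nat.mul_le_mul_right _ (Finset.card_le_card ?_)) (card_mod_le σ k' hk' g)
    intro v hv
    simp only [Finset.mem_filter, Finset.mem_univ, true_and] at hv ⊢
    by_contra hcon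
    apply hv
    simp only [par]
    rw [if_neg (fun hc => hcon hc.2)]

theorem star_labels (H : SimpleGraph W) [DecidableRel H.Adj]
    (d k' : ℕ) (hk' : 1 ≤ k')
    (h : ∀ U : Finset W, U.Nonempty → ∃ v ∈ U, (U.filter (fun u => H.Adj v u)).card ≤ d) :
    ∃ c : H.edgeSet → Fin (d * 2 * k'), ∀ i, ∃ par : W → Option W,
      (∀ v u, par v = some u → par u = none) ∧
      (∀ v u, (pieceGraph H c i).Adj v u ↔ (par v = some u ∨ par u = some v)) ∧
      (univ.filter (fun v => par v ≠ none)).card * k' ≤ Fintype.card W + k' := by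
  obtain ⟨σ, hσ⟩ := exists_order H d h
  exact star_labels_of_order H σ d k' hk' hσ

/-- Splitting for the dense range: small back-degree, few non-isolated vertices. -/
theorem back_labels {N : ℕ} (H : SimpleGraph W) [DecidableRel H.Adj] (σ : W ≃ Fin N)
    (d k1 k2 : ℕ) (hk1 : 1 ≤ k1) (hk2 : 1 ≤ k2)
    (hσ : ∀ v, (univ.filter (fun u => H.Adj v u ∧ σ u < σ v)).card ≤ d) :
    ∃ c : H.edgeSet → Fin (k1 * k2 * k2), ∀ i, ∃ S : Finset W,
      S.card * k2 ≤ 2 * (N + k2) ∧
      (∀ v u, (pieceGraph H c i).Adj v u → v ∈ S ∧ u ∈ S) ∧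
      (∀ v, ∀ T : Finset W, (∀ u ∈ T, (pieceGraph H c i).Adj v u ∧ σ u < σ v) →
        T.card ≤ d / k1 + 1) := by
  classical
  set B : W → Finset W := fun v => univ.filter (fun u => H.Adj v u ∧ σ u < σ v) with hBdef
  obtain ⟨r, hr1, hr2⟩ := exists_rank σ d B hσ
  obtain ⟨ch, pa, hcp⟩ := exists_child H σ
  have hmemB : ∀ v u, u ∈ B v ↔ (H.Adj v u ∧ σ u < σ v) := by
    intro v u; simp [B]
  let enc : Fin k1 × Fin k2 × Fin k2 ≃ Fin (k1 * k2 * k2) :=
    Fintype.equivFinOfCardEq (by simp [mul_assoc])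
  let lab : W → W → Fin (k1 * k2 * k2) := fun v u =>
    enc (⟨r v u % k1, Nat.mod_lt _ (by omega)⟩, ⟨(σ v : ℕ) % k2, Nat.mod_lt _ (by omega)⟩,
      ⟨(σ u : ℕ) % k2, Nat.mod_lt _ (by omega)⟩)
  refine ⟨fun e => lab (ch e) (pa e), ?_⟩
  intro i
  obtain ⟨⟨a, g, g'⟩, hi⟩ := enc.surjective i
  have hlab : ∀ v u, (lab v u = i ↔ (r v u % k1 = a ∧ (σ v : ℕ) % k2 = g ∧ (σ u : ℕ) % k2 = g')) := by
    intro v u
    simp only [lab, ← hi, Equiv.apply_eq_iff_eq, Prod.mk.injEq, Fin.ext_iff]
  refine ⟨(univ.filter (fun v : W => (σ v : ℕ) % k2 = g)) ∪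
    (univ.filter (fun v : W => (σ v : ℕ) % k2 = g')), ?_, ?_, ?_⟩
  · have h1 := card_mod_le σ k2 hk2 g
    have h2 := card_mod_le σ k2 hk2 g'
    have h3 := Nat.mul_le_mul_right k2 (Finset.card_union_le
      (univ.filter (fun v : W => (σ v : ℕ) % k2 = g)) (univ.filter (fun v : W => (σ v : ℕ) % k2 = g')))
    rw [add_mul] at h3
    omega
  · intro v u h
    rw [class_adj H σ ch pa hcp lab i v u] at h
    simp only [Finset.mem_union, Finset.mem_filter, Finset.mem_univ, true_and]
    rcases h with ⟨_, ⟨_, h⟩ | ⟨_, h⟩⟩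
    · obtain ⟨_, h2, h3⟩ := (hlab v u).mp h
      exact ⟨Or.inl h2, Or.inr h3⟩
    · obtain ⟨_, h2, h3⟩ := (hlab u v).mp h
      exact ⟨Or.inr h3, Or.inl h2⟩
  · intro v T hT
    have hT' : ∀ u ∈ T, u ∈ B v ∧ r v u % k1 = a := by
      intro u hu
      obtain ⟨h1, h2⟩ := hT u hu
      rw [class_adj H σ ch pa hcp lab i v u] at h1
      refine ⟨(hmemB v u).mpr ⟨h1.1, h2⟩, ?_⟩
      rcases h1.2 with ⟨_, h⟩ | ⟨h, _⟩
      · exact ((hlab v u).mp h).1
      · exact absurd h (not_lt.mpr h2.le)
    have : T.card ≤ (Finset.range (d / k1 + 1)).card := by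
      apply Finset.card_le_card_of_injOn (fun u => r v u / k1)
      · intro u hu
        simp only [Finset.coe_range, Set.mem_Iio]
        have h1 := hr1 v u (hT' u hu).1
        have : r v u / k1 ≤ d / k1 := Nat.div_le_div_right h1.le
        omega
      · intro u hu u' hu' huu
        simp only at huu
        have h1 := Nat.div_add_mod (r v u) k1
        have h2 := Nat.div_add_mod (r v u') k1
        rw [(hT' u hu).2, huu] at h1
        rw [(hT' u' hu').2] at h2
        exact hr2 v u (hT' u hu).1 u' (hT' u' hu').1 (by omega)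
    simpa using this

end Crest.TG.Degen
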