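import Crest.Agent.KK_D0

/-! First moment for vertex-disjoint stars (S0073, sparse range, item (iii)). -/

set_option autoImplicit false

namespace Crest.TG1
open Finset Crest.CombinatoricsR.RandomGraph

/-- slots of the star with centre `x` and leaves `S` -/
def st {n : ℕ} (x : Fin n) (S : Finset (Fin n)) : Finset (EdgeSlot n) :=
  univ.filter fun z => ∃ y ∈ S, z.1 = s(x, y)

theorem mem_st {n : ℕ} {x : Fin n} {S : Finset (Fin n)} {z : EdgeSlot n} :
    z ∈ st x S ↔ ∃ y ∈ S, z.1 = s(x, y) := by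
  simp [st]

theorem image_st {n : ℕ} (σ : Equiv.Perm (Fin n)) (x : Fin n) (S : Finset (Fin n)) :
    (st x S).image (KK.act n σ) = st (σ x) (S.image σ) := by
  ext z
  rw [Finset.mem_image, mem_st]
  constructor
  · rintro ⟨w, hw, rfl⟩
    rw [mem_st] at hw
    obtain ⟨y, hy, hwy⟩ := hw
    refine ⟨σ y, Finset.mem_image_of_mem _ hy, ?_⟩
    rw [KK.act_val, hwy]
    rfl
  · rintro ⟨y, hy, hz⟩
    rw [Finset.mem_image] at hy
    obtain ⟨y', hy', rfl⟩ := hy
    have hd : ¬ (s(x, y')).IsDiag := by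
      intro h0
      rw [Sym2.mk_isDiag_iff] at h0
      apply z.2
      rw [hz, Sym2.mk_isDiag_iff, h0]
    refine ⟨⟨s(x, y'), hd⟩, ?_, ?_⟩
    · rw [mem_st]
      exact ⟨y', hy', rfl⟩
    · apply Subtype.ext
      rw [KK.act_val, hz]
      rfl

theorem card_st {n : ℕ} (x : Fin n) (S : Finset (Fin n)) (hx : x ∉ S) :
    (st x S).card = S.card := by
  symm
  refine Finset.card_bij (fun y hy => (⟨s(x, y), ?_⟩ : EdgeSlot n)) ?_ ?_ ?_
  · rw [Sym2.mk_isDiag_iff]
    rintro rfl
    exact hx hy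
  · intro y hy
    rw [mem_st]
    exact ⟨y, hy, rfl⟩
  · intro y hy y' hy' h
    have h1 : s(x, y) = s(x, y') := congrArg Subtype.val h
    exact Sym2.congr_right.1 h1
  · intro z hz
    rw [mem_st] at hz
    obtain ⟨y, hy, hz⟩ := hz
    exact ⟨y, hy, Subtype.ext hz.symm⟩

theorem disjoint_st {n : ℕ} (x x' : Fin n) (S S' : Finset (Fin n))
    (h : Disjoint (insert x S) (insert x' S')) : Disjoint (st x S) (st x' S') := by
  rw [Finset.disjoint_left]
  intro z hz hz'
  rw [mem_st] at hz hz'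
  obtain ⟨y, hy, hz⟩ := hz
  obtain ⟨y', hy', hz'⟩ := hz'
  have h1 : x ∈ s(x', y') := by rw [← hz', hz]; exact Sym2.mem_mk_left _ _
  rw [Sym2.mem_iff] at h1
  rw [Finset.disjoint_left] at h
  have h2 := h (Finset.mem_insert_self x S)
  rcases h1 with h1 | h1
  · exact h2 (h1 ▸ Finset.mem_insert_self _ _)
  · exact h2 (h1 ▸ Finset.mem_insert_of_mem hy')

/-- numerical part -/
theorem num_bound (c : ℕ) (A : ℝ) (hA : 0 ≤ A) (h : (1 / 2 : ℝ) ≤ A ^ c / (c.factorial : ℝ)) :
    (c : ℝ) ≤ 2 * Real.exp 1 * A := by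
  rcases Nat.eq_zero_or_pos c with hc | hc
  · subst hc
    simp only [Nat.cast_zero]
    positivity
  by_contra hlt
  push Not at hlt
  have hc' : (0 : ℝ) < c := by exact_mod_cast hc
  have h1 : (c : ℝ) ^ c / (c.factorial : ℝ) ≤ Real.exp c :=
    Real.pow_div_factorial_le_exp (c : ℝ) hc'.le c
  have hf : (0 : ℝ) < (c.factorial : ℝ) := by exact_mod_cast Nat.factorial_pos c
  have h2 : Real.exp (c : ℝ) = (Real.exp 1) ^ c := by
    rw [← Real.exp_nat_mul, mul_one]
  have h3 : (c : ℝ) ^ c ≤ (Real.exp 1) ^ c * (c.factorial : ℝ) := by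
    rw [← h2]
    rwa [div_le_iff₀ hf] at h1
  have h4 : (c.factorial : ℝ) ≤ 2 * A ^ c := by
    rw [le_div_iff₀ hf] at h
    linarith
  have h5 : (c : ℝ) ^ c ≤ 2 * (Real.exp 1 * A) ^ c := by
    rw [mul_pow]
    calc (c : ℝ) ^ c ≤ (Real.exp 1) ^ c * (c.factorial : ℝ) := h3
      _ ≤ (Real.exp 1) ^ c * (2 * A ^ c) := by
          apply mul_le_mul_of_nonneg_left h4
          positivity
      _ = _ := by ring
  have h6 : Real.exp 1 * A < c / 2 := by linarith
  have h7 : (Real.exp 1 * A) ^ c < (c / 2 : ℝ) ^ c :=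
    pow_lt_pow_left₀ h6 (by positivity) (by omega)
  have h8 : (c / 2 : ℝ) ^ c ≤ (c : ℝ) ^ c / 2 := by
    rw [div_pow]
    apply div_le_div_of_nonneg_left (by positivity) (by norm_num)
    calc (2 : ℝ) = 2 ^ 1 := by norm_num
      _ ≤ 2 ^ c := pow_le_pow_right₀ (by norm_num) hc
  linarith

/-- first moment for `c` vertex-disjoint stars with `d ≥ 1` leaves -/
theorem star_fm {n : ℕ} {W : Type} [Fintype W] [DecidableEq W] (H : SimpleGraph W)
    [DecidableRel H.Adj] (ι : W ↪ Fin n) (q : ℝ) (hq : 0 ≤ q)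
    (hFM : ∀ J ⊆ KK.slots H ι, (1 / 2 : ℝ) ≤
      ((univ.image fun σ : Equiv.Perm (Fin n) => J.image (KK.act n σ)).card : ℝ) * q ^ J.card)
    (c d : ℕ) (hd : 1 ≤ d) (x : Fin c → W) (S : Fin c → Finset W)
    (hS : ∀ j, (S j).card = d) (hadj : ∀ j, ∀ y ∈ S j, H.Adj (x j) y)
    (hdis : ∀ i j, i ≠ j → Disjoint (insert (x i) (S i)) (insert (x j) (S j))) :
    (1 / 2 : ℝ) ≤ ((n : ℝ) * (n.choose d : ℝ) * q ^ d) ^ c / (c.factorial : ℝ) := by
  classical
  set T : Fin c → Finset (EdgeSlot n) := fun j => st (ι (x j)) ((S j).map ι) with hT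
  have hxS : ∀ j, x j ∉ S j := fun j h => (hadj j _ h).ne rfl
  have hcT : ∀ j, (T j).card = d := by
    intro j
    rw [hT]
    simp only
    rw [card_st, Finset.card_map, hS j]
    intro h
    rw [Finset.mem_map] at h
    obtain ⟨y, hy, hxy⟩ := h
    exact hxS j (ι.injective hxy ▸ hy)
  have hdisT : ∀ i j, i ≠ j → Disjoint (T i) (T j) := by
    intro i j hij
    apply disjoint_st
    have h := hdis i j hij
    rw [← Finset.disjoint_map ι, Finset.map_insert, Finset.map_insert] at h
    exact h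
  set J : Finset (EdgeSlot n) := univ.biUnion T with hJ
  have hJs : J ⊆ KK.slots H ι := by
    intro z hz
    rw [hJ, Finset.mem_biUnion] at hz
    obtain ⟨j, _, hz⟩ := hz
    rw [hT] at hz
    simp only at hz
    rw [mem_st] at hz
    obtain ⟨y, hy, hzy⟩ := hz
    rw [Finset.mem_map] at hy
    obtain ⟨y', hy', rfl⟩ := hy
    unfold KK.slots
    rw [Finset.mem_filter]
    refine ⟨Finset.mem_univ _, s(x j, y'), ?_, ?_⟩
    · rw [SimpleGraph.mem_edgeFinset, SimpleGraph.mem_edgeSet]
      exact hadj j y' hy'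
    · rw [hzy]; rfl
  have hJc : J.card = c * d := by
    rw [hJ, Finset.card_biUnion]
    · rw [Finset.sum_congr rfl (fun j _ => hcT j), Finset.sum_const, Finset.card_univ,
        Fintype.card_fin, smul_eq_mul]
    · intro i _ j _ hij
      exact hdisT i j hij
  -- the family of all stars
  set 𝒮 : Finset (Finset (EdgeSlot n)) :=
    ((univ : Finset (Fin n)) ×ˢ (univ : Finset (Fin n)).powersetCard d).image
      (fun a => st a.1 a.2) with h𝒮
  have h𝒮c : 𝒮.card ≤ n * n.choose d := by
    rw [h𝒮]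
    refine Finset.card_image_le.trans ?_
    rw [Finset.card_product, Finset.card_powersetCard, Finset.card_univ, Fintype.card_fin]
  have hsub : (univ.image fun σ : Equiv.Perm (Fin n) => J.image (KK.act n σ)) ⊆
      (𝒮.powersetCard c).image (fun P => P.biUnion id) := by
    intro K hK
    rw [Finset.mem_image] at hK
    obtain ⟨σ, _, rfl⟩ := hK
    rw [Finset.mem_image]
    refine ⟨univ.image (fun j => (T j).image (KK.act n σ)), ?_, ?_⟩
    · rw [Finset.mem_powersetCard]
      constructor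
      · intro P hP
        rw [Finset.mem_image] at hP
        obtain ⟨j, _, rfl⟩ := hP
        rw [h𝒮, Finset.mem_image]
        refine ⟨(σ (ι (x j)), ((S j).map ι).image σ), ?_, ?_⟩
        · rw [Finset.mem_product]
          refine ⟨Finset.mem_univ _, ?_⟩
          rw [Finset.mem_powersetCard]
          refine ⟨Finset.subset_univ _, ?_⟩
          rw [Finset.card_image_of_injective _ σ.injective, Finset.card_map, hS j]
        · simp only
          rw [← image_st]
      · rw [Finset.card_image_of_injective, Finset.card_univ, Fintype.card_fin]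
        intro i j hij
        by_contra hne
        have h1 : T i = T j := by
          have := Finset.image_injective (KK.act n σ).injective hij
          exact this
        have h2 := hdisT i j hne
        rw [h1, disjoint_self, Finset.bot_eq_empty] at h2
        have h3 := hcT j
        rw [h2, Finset.card_empty] at h3
        omega
    · rw [hJ, Finset.biUnion_image, Finset.image_biUnion]
      rfl
  have hcard : ((univ.image fun σ : Equiv.Perm (Fin n) => J.image (KK.act n σ)).card : ℝ) ≤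
      ((n : ℝ) * (n.choose d : ℝ)) ^ c / (c.factorial : ℝ) := by
    have h1 := (Finset.card_le_card hsub).trans Finset.card_image_le
    rw [Finset.card_powersetCard] at h1
    have h2 : (𝒮.card).choose c ≤ (n * n.choose d).choose c := Nat.choose_le_choose c h𝒮c
    have h3 : (((n * n.choose d).choose c : ℕ) : ℝ) ≤
        ((n * n.choose d : ℕ) : ℝ) ^ c / (c.factorial : ℝ) := Nat.choose_le_pow_div c _
    calc ((univ.image fun σ : Equiv.Perm (Fin n) => J.image (KK.act n σ)).card : ℝ)
        ≤ (((n * n.choose d).choose c : ℕ) : ℝ) := by exact_mod_cast h1.trans h2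
      _ ≤ _ := h3
      _ = _ := by push_cast; ring
  have hmain := hFM J hJs
  rw [hJc] at hmain
  calc (1 / 2 : ℝ) ≤ _ := hmain
    _ ≤ ((n : ℝ) * (n.choose d : ℝ)) ^ c / (c.factorial : ℝ) * q ^ (c * d) := by
        apply mul_le_mul_of_nonneg_right hcard
        positivity
    _ = _ := by
        rw [mul_pow (n * (n.choose d : ℝ)) (q ^ d) c, ← pow_mul, Nat.mul_comm c d]
        ring

/-- the number of vertex-disjoint `d`-stars of `H` -/
theorem star_count {n : ℕ} {W : Type} [Fintype W] [DecidableEq W] (H : SimpleGraph W)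
    [DecidableRel H.Adj] (ι : W ↪ Fin n) (q : ℝ) (hq : 0 ≤ q)
    (hFM : ∀ J ⊆ KK.slots H ι, (1 / 2 : ℝ) ≤
      ((univ.image fun σ : Equiv.Perm (Fin n) => J.image (KK.act n σ)).card : ℝ) * q ^ J.card)
    (c d : ℕ) (hd : 1 ≤ d) (x : Fin c → W) (S : Fin c → Finset W)
    (hS : ∀ j, (S j).card = d) (hadj : ∀ j, ∀ y ∈ S j, H.Adj (x j) y)
    (hdis : ∀ i j, i ≠ j → Disjoint (insert (x i) (S i)) (insert (x j) (S j))) :
    (c : ℝ) ≤ 2 * Real.exp 1 * ((n : ℝ) * (n.choose d : ℝ) * q ^ d) :=
  num_bound c _ (by positivity) (star_fm H ι q hq hFM c d hd x S hS hadj hdis)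

end Crest.TG1
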