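import Crest.Agent.TG_SpSum
import Crest.Agent.TG_Expo
import Crest.Agent.TG1_Star
import Crest.Agent.KK_D2
import Crest.Agent.KK_Push
import Crest.Prelude.Def_CopyThreshold

/-! S0073 sparse range: one piece (a star forest with few edges). -/

set_option autoImplicit false

namespace Crest.TG.Sparse
open Finset Crest.CombinatoricsR.RandomGraph Crest.FinProb

/-- form of the binomial tail used below -/
def TailHyp : Prop := ∀ (V : Type) [Fintype V] [DecidableEq V] (L p : ℝ), 0 ≤ p → 0 ≤ L →
    L * p ≤ 1 / 2 → ∀ (n d : ℕ) (U : Finset V), n ≤ 4 * (Fintype.card V - U.card) →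
    2 * d ≤ Fintype.card V - U.card →
    min (1 / 2) ((n.choose d : ℝ) * p ^ d * (L / 2 ^ 15) ^ d) ≤
      bernoulliProb (L * p) {ω : V → Bool | d ≤ (univ.filter (fun v => v ∉ U ∧ ω v = true)).card}

/-- form of the graph transfer used below -/
def TransHyp : Prop := ∀ (n m : ℕ), m ≤ n → ∀ (P : ℝ), 0 ≤ P → P ≤ 1 →
    ∀ (W : Type) [Fintype W] [DecidableEq W] (F : SimpleGraph W), Fintype.card W ≤ n →
    ∀ (par : W → Option W), (∀ v u, par v = some u → par u = none) →
    (∀ v u, F.Adj v u ↔ (par v = some u ∨ par u = some v)) →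
    ∀ (cs : List W), cs.Nodup → (∀ u, u ∈ cs ↔ ∃ v, par v = some u) →
    1 - Expo.fail P m (cs.map fun u => (univ.filter fun v => par v = some u).card)
      (∅ : Finset (Fin (n - m))) ≤ gnpProb n P {G | F.IsContained G}

theorem gnp_mono {n : ℕ} {W : Type} (F : SimpleGraph W) (P P' : ℝ) (h0 : 0 ≤ P) (h : P ≤ P')
    (h1 : P' ≤ 1) : gnpProb n P {G | F.IsContained G} ≤ gnpProb n P' {G | F.IsContained G} := by
  unfold gnpProb
  apply KK.bernoulliProb_mono P P' h0 h h1
  intro ω ω' hω hle
  show F.IsContained (graphOf ω')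
  have hω' : F.IsContained (graphOf ω) := hω
  obtain ⟨f⟩ := hω'
  refine ⟨⟨⟨fun a => f a, fun {a b} hab => ?_⟩, f.injective⟩⟩
  have h2 : (graphOf ω).Adj (f a) (f b) := f.toHom.map_adj hab
  unfold graphOf at h2 ⊢
  rw [SimpleGraph.fromEdgeSet_adj] at h2 ⊢
  obtain ⟨⟨hd, hm⟩, hne⟩ := h2
  exact ⟨⟨hd, hle _ hm⟩, hne⟩

theorem piece_ok (hTail : TailHyp) (hTrans : TransHyp) {n : ℕ} (hn : 1024 ≤ n) {W : Type}
    [Fintype W] [DecidableEq W] (H : SimpleGraph W) [DecidableRel H.Adj]
    (hW : Fintype.card W ≤ n) (q : ℝ) (hq0 : 0 < q) (L : ℝ) (hL : 2 ^ 26 ≤ L) (hLq : L * q < 1)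
    (ι : W ↪ Fin n)
    (hFM : ∀ J ⊆ KK.slots H ι, (1 / 2 : ℝ) ≤
      ((univ.image fun σ : Equiv.Perm (Fin n) => J.image (KK.act n σ)).card : ℝ) * q ^ J.card)
    (F : SimpleGraph W) (hFH : F ≤ H) (par : W → Option W)
    (hpar : ∀ v u, par v = some u → par u = none)
    (hadj : ∀ v u, F.Adj v u ↔ (par v = some u ∨ par u = some v))
    (hE : (univ.filter (fun v => par v ≠ none)).card * 128 ≤ n + 128) :
    1 / 2 ≤ gnpProb n (L * q) {G | F.IsContained G} := by
  classical
  set E := (univ.filter (fun v => par v ≠ none)).card with hEdef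
  set L' : ℝ := L / 2 with hL'
  set K : ℝ := L' / 2 ^ 15 with hKdef
  have hK : (2 : ℝ) ^ 10 ≤ K := by
    rw [hKdef, hL', le_div_iff₀ (by positivity)]
    norm_num at hL ⊢
    linarith
  have hL'q : L' * q ≤ 1 / 2 := by
    rw [hL']
    have : L / 2 * q = (L * q) / 2 := by ring
    rw [this]
    linarith
  have hL'0 : 0 ≤ L' := by
    rw [hL']
    norm_num at hL
    linarith
  have hEn : 64 * E ≤ n + 64 := by omega
  set m := n / 2 with hm
  let deg : W → ℕ := fun u => (univ.filter fun v => par v = some u).card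
  let C : Finset W := univ.filter (fun u => 1 ≤ deg u)
  have hdegE : ∑ u ∈ C, deg u = E := by
    have h1 : (univ.filter (fun v => par v ≠ none)) =
        C.biUnion (fun u => univ.filter fun v => par v = some u) := by
      ext v
      simp only [mem_filter, mem_univ, true_and, mem_biUnion, C]
      constructor
      · intro h
        obtain ⟨u, hu⟩ := Option.ne_none_iff_exists'.1 h
        refine ⟨u, ?_, hu⟩
        show 1 ≤ (univ.filter fun v => par v = some u).card
        rw [Nat.succ_le_iff, card_pos]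
        exact ⟨v, by simp [hu]⟩
      · rintro ⟨u, _, hu⟩
        rw [hu]
        simp
    rw [hEdef, h1, card_biUnion]
    intro u _ u' _ huu'
    show Disjoint (univ.filter fun v => par v = some u) (univ.filter fun v => par v = some u')
    rw [Finset.disjoint_left]
    intro v hv hv'
    rw [mem_filter] at hv hv'
    rw [hv.2] at hv'
    exact huu' (Option.some.inj hv'.2)
  have hCE : C.card ≤ E := by
    rw [← hdegE]
    calc C.card = ∑ u ∈ C, 1 := by simp
      _ ≤ ∑ u ∈ C, deg u := Finset.sum_le_sum (fun u hu => (mem_filter.1 hu).2)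
  have hdegle : ∀ u ∈ C, deg u ≤ E := by
    intro u hu
    rw [← hdegE]
    exact Finset.single_le_sum (f := deg) (fun _ _ => Nat.zero_le _) hu
  have hEn' : E ≤ n := by omega
  let s : ℕ → ℝ := fun d => if d ≤ E then
    min (1 / 2) ((n.choose d : ℝ) * q ^ d * K ^ d) else 1 / 2
  have hK0 : (0 : ℝ) < K := lt_of_lt_of_le (by norm_num) hK
  have hs0 : ∀ d, 0 < s d := by
    intro d
    simp only [s]
    split_ifs with h
    · have : (0 : ℝ) < (n.choose d : ℝ) := by
        exact_mod_cast Nat.choose_pos (h.trans hEn')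
      exact lt_min (by norm_num) (by positivity)
    · norm_num
  have hs1 : ∀ d, s d ≤ 1 := by
    intro d
    simp only [s]
    split_ifs
    · exact (min_le_left _ _).trans (by norm_num)
    · norm_num
  have hcardV : Fintype.card (Fin (n - m)) = n - m := Fintype.card_fin _
  have htail : ∀ d, ∀ U : Finset (Fin (n - m)), U.card + d ≤ E → s d ≤
      bernoulliProb (L' * q) {ω : Fin (n - m) → Bool |
        d ≤ (Finset.univ.filter (fun v => v ∉ U ∧ ω v = true)).card} := by
    intro d U hU
    have hd : d ≤ E := by omega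
    simp only [s, if_pos hd]
    refine hTail (Fin (n - m)) L' q hq0.le hL'0 hL'q n d U ?_ ?_
    · rw [hcardV]; omega
    · rw [hcardV]; omega
  have hcs_nd : C.toList.Nodup := C.nodup_toList
  have hcs_mem : ∀ u, u ∈ C.toList ↔ ∃ v, par v = some u := by
    intro u
    rw [Finset.mem_toList, mem_filter]
    constructor
    · rintro ⟨_, h⟩
      have h2 : 0 < (univ.filter fun v => par v = some u).card := h
      obtain ⟨v, hv⟩ := card_pos.1 h2
      exact ⟨v, (mem_filter.1 hv).2⟩
    · rintro ⟨v, hvu⟩
      refine ⟨mem_univ _, ?_⟩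
      show 1 ≤ (univ.filter fun v => par v = some u).card
      rw [Nat.succ_le_iff, card_pos]
      exact ⟨v, by simp [hvu]⟩
  have hP0 : 0 ≤ L' * q := by positivity
  have hP1 : L' * q ≤ 1 := by linarith
  have hfail := Expo.fail_le (V := Fin (n - m)) (L' * q) hP0 hP1 E s hs0 hs1 htail m
    (C.toList.map deg) ∅ (by
      rw [card_empty, zero_add]
      have : (C.toList.map deg).sum = ∑ u ∈ C, deg u := by
        rw [Finset.sum_map_toList]
      rw [this, hdegE])
  have hsumeq : ((C.toList.map deg).map fun d => 1 / s d).sum = ∑ u ∈ C, 1 / s (deg u) := by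
    rw [List.map_map]
    exact Finset.sum_map_toList C (fun u => 1 / s (deg u))
  rw [hsumeq] at hfail
  have hcount : ∀ d : ℕ, 1 ≤ d → ((C.filter (fun u => d ≤ deg u)).card : ℝ) ≤
      2 * Real.exp 1 * ((n : ℝ) * (n.choose d : ℝ) * q ^ d) := by
    intro d hd
    set Cd := C.filter (fun u => d ≤ deg u) with hCd
    have hex : ∀ u ∈ Cd, ∃ S : Finset W, S ⊆ (univ.filter fun v => par v = some u) ∧ S.card = d := by
      intro u hu
      exact Finset.exists_subset_card_eq (mem_filter.1 hu).2
    choose! S hS1 hS2 using hex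
    let e : Fin Cd.card ≃ Cd := Cd.equivFin.symm
    refine Crest.TG1.star_count H ι q hq0.le hFM Cd.card d hd (fun j => (e j : W))
      (fun j => S (e j)) (fun j => hS2 _ (e j).2) ?_ ?_
    · intro j y hy
      have h1 := (mem_filter.1 (hS1 _ (e j).2 hy)).2
      exact hFH ((hadj _ _).2 (Or.inr h1))
    · intro i j hij
      have hne : (e i : W) ≠ e j := fun h => hij (e.injective (Subtype.ext h))
      have hparc : ∀ u ∈ Cd, par u = none := by
        intro u hu
        have h1 : 1 ≤ deg u := (mem_filter.1 (mem_filter.1 hu).1).2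
        have h2 : 0 < (univ.filter fun v => par v = some u).card := h1
        obtain ⟨v, hv⟩ := card_pos.1 h2
        exact hpar v u (mem_filter.1 hv).2
      rw [Finset.disjoint_left]
      intro y hy hy'
      rw [mem_insert] at hy hy'
      rcases hy with hy | hy
      · rcases hy' with hy' | hy'
        · exact hne (hy.symm.trans hy')
        · have h1 := (mem_filter.1 (hS1 _ (e j).2 hy')).2
          rw [hy, hparc _ (e i).2] at h1
          exact absurd h1 (by simp)
      · have h1 := (mem_filter.1 (hS1 _ (e i).2 hy)).2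
        rcases hy' with hy' | hy'
        · rw [hy', hparc _ (e j).2] at h1
          exact absurd h1 (by simp)
        · have h2 := (mem_filter.1 (hS1 _ (e j).2 hy')).2
          rw [h1] at h2
          exact hne (Option.some.inj h2)
  have hsum := star_sum C deg n q K hq0 (le_trans (by norm_num) hK)
    (fun u hu => (mem_filter.1 hu).2) (fun u hu => (hdegle u hu).trans hEn') hcount s
    (fun u hu => by simp only [s, if_pos (hdegle u hu)])
  have htr := hTrans n m (by omega) (L' * q) hP0 hP1 W F hW par hpar hadj C.toList hcs_nd hcs_mem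
  have hmono : gnpProb n (L' * q) {G | F.IsContained G} ≤ gnpProb n (L * q) {G | F.IsContained G} := by
    apply gnp_mono F _ _ hP0 _ hLq.le
    apply mul_le_mul_of_nonneg_right _ hq0.le
    rw [hL']
    norm_num at hL
    linarith
  have hn' : (1024 : ℝ) ≤ n := by exact_mod_cast hn
  have hmR : (3 / 8 : ℝ) * n ≤ m := by
    have h1 : n ≤ 2 * m + 1 := by omega
    have h2 : (n : ℝ) ≤ 2 * m + 1 := by exact_mod_cast h1
    linarith
  have hER : (64 : ℝ) * E ≤ n + 64 := by exact_mod_cast hEn
  have hCER : (C.card : ℝ) ≤ E := by exact_mod_cast hCE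
  have he : Real.exp 1 < 2.7182818286 := Real.exp_one_lt_d9
  have hlast : 2 * Real.exp 1 * n * (2 / K) ≤ n / 64 := by
    have h1 : 2 / K ≤ 2 / 2 ^ 10 := div_le_div_of_nonneg_left (by norm_num) (by norm_num) hK
    have h2 : 2 * Real.exp 1 * n * (2 / K) ≤ 2 * Real.exp 1 * n * (2 / 2 ^ 10) :=
      mul_le_mul_of_nonneg_left h1 (by positivity)
    refine h2.trans ?_
    nlinarith
  have hf : (m : ℝ) * Expo.fail (L' * q) m (C.toList.map deg) (∅ : Finset (Fin (n - m))) ≤
      n * (1 / 16) := by
    refine hfail.trans (hsum.trans ?_)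
    linarith
  have hfin : Expo.fail (L' * q) m (C.toList.map deg) (∅ : Finset (Fin (n - m))) ≤ 1 / 2 := by
    by_contra hcon
    push Not at hcon
    have hn0 : (0 : ℝ) < n := by linarith
    have : (3 / 8 : ℝ) * n * (1 / 2) ≤
        (m : ℝ) * Expo.fail (L' * q) m (C.toList.map deg) (∅ : Finset (Fin (n - m))) := by
      apply mul_le_mul hmR hcon.le (by norm_num) (by positivity)
    linarith
  have : (C.toList.map fun u => (univ.filter fun v => par v = some u).card) = C.toList.map deg := rfl
  rw [this] at htr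
  linarith

end Crest.TG.Sparse
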