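import Crest.Agent.TG73_Main
import Crest.Agent.TG73_Bin
import Crest.Agent.TG31_Star
import Crest.Agent.TG_Degen
import Crest.Agent.TG69_FM
import Crest.Agent.TG_SpPiece

/-! S0073 sparse range: assembly. -/

set_option autoImplicit false

namespace Crest.TG.Sparse
open Finset Crest.CombinatoricsR.RandomGraph Crest.FinProb

theorem tailHyp : TailHyp := by
  intro V _ _ L p hp hL hLp n d U hN hd
  exact Crest.TG.Bin.tail L p hp hL hLp n d U hN hd

theorem transHyp : TransHyp := by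
  intro n m hm P hP0 hP1 W _ _ F hW par hpar hadj cs hnd hcs
  exact Crest.TG31.le_gnpProb_star F n m (n - m) hW (by omega) P hP0 hP1 par hpar hadj cs hnd hcs

/-- number of edges inside `U` -/
theorem edges_le {n : ℕ} (hn : 1 ≤ n) {W : Type} [Fintype W] [DecidableEq W] (H : SimpleGraph W)
    [DecidableRel H.Adj] (q : ℝ) (hq0 : 0 < q) (hq1 : q < 1 / 2) (ι : W ↪ Fin n)
    (hFM : ∀ (ι : W ↪ Fin n) (J : Finset (EdgeSlot n)), J ⊆ KK.slots H ι → (1 / 2 : ℝ) ≤
      ((univ.image fun σ : Equiv.Perm (Fin n) => J.image (KK.act n σ)).card : ℝ) * q ^ J.card)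
    (b0 : ℕ) (hb : q ^ b0 ≤ 1 / (n : ℝ)) (U : Finset W) :
    ((H.edgeFinset.filter (fun e => ∀ x ∈ e, x ∈ U)).card : ℝ) ≤ (b0 : ℝ) * U.card := by
  have h := Crest.TG69.density H q hq0.le ι hFM U
  have hn0 : (0 : ℝ) < n := by exact_mod_cast hn
  by_contra hcon
  push Not at hcon
  set e := (Crest.TG69.edgesIn H U).card with he
  have hcon' : (b0 : ℝ) * U.card < (e : ℝ) := hcon
  have h1 : b0 * U.card + 1 ≤ e := by
    have : b0 * U.card < e := by exact_mod_cast hcon'
    omega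
  have h2 : q ^ e ≤ q ^ (b0 * U.card + 1) := pow_le_pow_of_le_one hq0.le (by linarith) h1
  have h3 : q ^ (b0 * U.card + 1) = (q ^ b0) ^ U.card * q := by
    rw [pow_succ, pow_mul]
  have h4 : (q ^ b0) ^ U.card ≤ (1 / (n : ℝ)) ^ U.card :=
    pow_le_pow_left₀ (by positivity) hb _
  have h5 : (n : ℝ) ^ U.card * q ^ e ≤ q := by
    calc (n : ℝ) ^ U.card * q ^ e ≤ (n : ℝ) ^ U.card * ((q ^ b0) ^ U.card * q) := by
          apply mul_le_mul_of_nonneg_left _ (by positivity)
          rw [← h3]; exact h2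
      _ ≤ (n : ℝ) ^ U.card * ((1 / (n : ℝ)) ^ U.card * q) := by
          apply mul_le_mul_of_nonneg_left _ (by positivity)
          exact mul_le_mul_of_nonneg_right h4 hq0.le
      _ = q := by
          rw [← mul_assoc, ← mul_pow, mul_one_div_cancel hn0.ne', one_pow, one_mul]
  linarith

/-- the sparse range of S0073 -/
theorem sparse_core (b0 : ℕ) : TG73.SparseCore b0 := by
  refine ⟨2 * b0 * 2 * 128, 2 ^ 26, by norm_num, 1024, ?_⟩
  intro n hn W _ _ H hW q hq0 hLq hFM hb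
  classical
  have hn1 : 1 ≤ n := by omega
  have hq1 : q < 1 / 2 := by
    norm_num at hLq
    linarith
  obtain ⟨ι⟩ : Nonempty (W ↪ Fin n) := by
    apply Function.Embedding.nonempty_of_card_le
    rw [Fintype.card_fin]
    exact hW
  have hFM' : ∀ (ι : W ↪ Fin n) (J : Finset (EdgeSlot n)), J ⊆ KK.slots H ι → (1 / 2 : ℝ) ≤
      ((univ.image fun σ : Equiv.Perm (Fin n) => J.image (KK.act n σ)).card : ℝ) * q ^ J.card := by
    intro ι J hJ
    have := hFM ι J (by convert hJ)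
    convert this
  have hedges := edges_le hn1 H q hq0 hq1 ι hFM' b0 hb
  have hlow : ∀ U : Finset W, U.Nonempty → ∃ v ∈ U, (U.filter (fun u => H.Adj v u)).card ≤ 2 * b0 := by
    intro U hU
    obtain ⟨v, hv, hd⟩ := Crest.TG.Degen.exists_low_degree H (b0 : ℝ) hedges U hU
    refine ⟨v, hv, ?_⟩
    have h2 : ((U.filter (fun u => H.Adj v u)).card : ℝ) ≤ ((2 * b0 : ℕ) : ℝ) := by
      push_cast
      exact hd
    exact_mod_cast h2
  obtain ⟨c, hc⟩ := Crest.TG.Degen.star_labels H (2 * b0) 128 (by norm_num) hlow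
  refine ⟨fun i => pieceGraph H c i, ?_, ?_⟩
  · intro a b hab
    have hm : s(a, b) ∈ H.edgeSet := hab
    exact ⟨c ⟨s(a, b), hm⟩, (Crest.TG.Degen.pieceGraph_adj H c _ a b).2 ⟨hm, rfl⟩⟩
  · intro i
    obtain ⟨par, hpar, hadj, hE⟩ := hc i
    refine piece_ok tailHyp transHyp (by omega) H hW q hq0 (2 ^ 26) le_rfl hLq ι (hFM' ι)
      (pieceGraph H c i) ?_ par hpar hadj (by omega)
    intro a b h
    obtain ⟨hm, _⟩ := (Crest.TG.Degen.pieceGraph_adj H c i a b).1 h
    exact hm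

end Crest.TG.Sparse
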