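import Crest.Agent.TG73_Main
import Crest.Agent.TG_Sparse
import Crest.Agent.TG8_Gamma
import Crest.Agent.TG46_Main

set_option autoImplicit false

namespace TG46
open Finset Crest.CombinatoricsR.RandomGraph

/-- S0073 from a dense core -/
theorem s73_of_dense (hd : TG73.DenseCore 1000) :
    ∃ k : ℕ, 2 ≤ k ∧ ∃ L : ℝ, 1 ≤ L ∧ ∀ n : ℕ, 2 ≤ n →
      ∀ (W : Type) [Fintype W] [DecidableEq W] (H : SimpleGraph W),
        Fintype.card W ≤ n → H ≠ ⊥ →
        ∃ c : H.edgeSet → Fin k, ∀ i : Fin k, ∃ p : ℝ, 0 ≤ p ∧ p ≤ 1 ∧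
          (∃ C : Finset (Finset (EdgeSlot n)),
            (∀ A : Finset (EdgeSlot n),
              H.IsContained (edgeGraph A) → ∃ S ∈ C, S ⊆ A) ∧
            ∑ S ∈ C, p ^ S.card ≤ 1 / 2) ∧
          1 / 2 ≤ gnpProb n (min 1 (L * p))
            {G | (pieceGraph H c i).IsContained G} :=
  TG73.final 1000 (Crest.TG.Sparse.sparse_core 1000) hd

/-- helper8's DENSE gives the dense core of `TG73` up to the boundary case `q ^ 1000 * n = 1` -/
theorem s73_of_DENSE (hd : Crest.TG8.DENSE) :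
    ∃ k : ℕ, 2 ≤ k ∧ ∃ L : ℝ, 1 ≤ L ∧ ∀ n : ℕ, 2 ≤ n →
      ∀ (W : Type) [Fintype W] [DecidableEq W] (H : SimpleGraph W),
        Fintype.card W ≤ n → H ≠ ⊥ →
        ∃ c : H.edgeSet → Fin k, ∀ i : Fin k, ∃ p : ℝ, 0 ≤ p ∧ p ≤ 1 ∧
          (∃ C : Finset (Finset (EdgeSlot n)),
            (∀ A : Finset (EdgeSlot n),
              H.IsContained (edgeGraph A) → ∃ S ∈ C, S ⊆ A) ∧
            ∑ S ∈ C, p ^ S.card ≤ 1 / 2) ∧
          1 / 2 ≤ gnpProb n (min 1 (L * p))
            {G | (pieceGraph H c i).IsContained G} := by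
  classical
  obtain ⟨k1, L1, hL1, n1, h1⟩ := Crest.TG.Sparse.sparse_core 1000
  obtain ⟨k2, _, L2, hL2, n2, h2⟩ := hd
  refine TG6.frame (max 2 (max k1 k2)) (le_max_left _ _)
    (max 1 (max (max L1 L2) (((max n1 n2 : ℕ) : ℝ) ^ 2))) (le_max_left _ _) (max n1 n2)
    ((le_max_right _ _).trans (le_max_right _ _)) ?_
  intro n hn hn0 W _ _ H _ hW hH q hq hLq _ hFM
  set L : ℝ := max 1 (max (max L1 L2) (((max n1 n2 : ℕ) : ℝ) ^ 2)) with hL
  have hL1' : L1 ≤ L := ((le_max_left _ _).trans (le_max_left _ _)).trans (le_max_right _ _)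
  have hL2' : L2 ≤ L := ((le_max_right _ _).trans (le_max_left _ _)).trans (le_max_right _ _)
  have e1 : L1 * q ≤ L * q := mul_le_mul_of_nonneg_right hL1' hq.le
  have e2 : L2 * q ≤ L * q := mul_le_mul_of_nonneg_right hL2' hq.le
  have hn0' : (0 : ℝ) < n := by
    have : 0 < n := by omega
    exact_mod_cast this
  rcases le_or_gt (q ^ 1000 * (n : ℝ)) 1 with hs | hd
  · refine lift H hW ((le_max_left k1 k2).trans (le_max_right _ _)) (L1 * q) (L * q)
      (mul_nonneg (by linarith) hq.le) e1 hLq.le ?_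
    refine (h1 n ((le_max_left _ _).trans_lt hn0) W H hW q hq (e1.trans_lt hLq) ?_ ?_).labelling
      (mul_nonneg (by linarith) hq.le) (e1.trans hLq.le)
    · intro ι J hJ
      refine hFM ι J ?_
      convert hJ
    · rw [le_div_iff₀ hn0']
      exact hs
  · exact lift H hW ((le_max_right k1 k2).trans (le_max_right _ _)) (L2 * q) (L * q)
      (mul_nonneg (by linarith) hq.le) e2 hLq.le
      (h2 n hn ((le_max_right _ _).trans_lt hn0) W H hW hH q hq (e2.trans_lt hLq) hd hFM)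

end TG46
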