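import Mathlib

set_option autoImplicit false

open Finset

namespace Crest.TG65

variable {V J : Type*} [Fintype V] [DecidableEq V] [Fintype J] [DecidableEq J]

/-- law of a random class: each element of `Y v` is kept with probability `1/m` -/
noncomputable def lam (m : ℕ) (Y : V → Finset J) (v : V) (T : Finset J) : ℝ :=
  if T ⊆ Y v then (1 / (m:ℝ)) ^ T.card * (1 - 1 / (m:ℝ)) ^ ((Y v).card - T.card) else 0

theorem lam_nonneg (m : ℕ) (hm : 1 ≤ m) (Y : V → Finset J) (v : V) (T : Finset J) :
    0 ≤ lam m Y v T := by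
  unfold lam
  have hm' : (1:ℝ) ≤ m := by exact_mod_cast hm
  have h1 : (0:ℝ) ≤ 1 / (m:ℝ) := by positivity
  have h2 : (0:ℝ) ≤ 1 - 1 / (m:ℝ) := by
    have : 1 / (m:ℝ) ≤ 1 := by
      rw [div_le_one (by linarith)]; exact hm'
    linarith
  split_ifs
  · positivity
  · exact le_rfl

/-- number of labellings of one vertex giving class `T` -/
theorem card_one (m : ℕ) (Yv T : Finset J) (i : Fin m) (hT : T ⊆ Yv) :
    ((univ.filter (fun c : J → Fin m => Yv.filter (fun j => c j = i) = T)).card : ℝ) =
      (m:ℝ) ^ Fintype.card J * ((1 / (m:ℝ)) ^ T.card * (1 - 1 / (m:ℝ)) ^ (Yv.card - T.card)) := by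
  classical
  have hm : 0 < m := i.pos
  have hm' : (m:ℝ) ≠ 0 := by positivity
  have hset : (univ.filter (fun c : J → Fin m => Yv.filter (fun j => c j = i) = T)) =
      Fintype.piFinset (fun j => if j ∈ T then ({i} : Finset (Fin m)) else
        if j ∈ Yv then univ.erase i else univ) := by
    ext c
    simp only [mem_filter, mem_univ, true_and, Fintype.mem_piFinset]
    constructor
    · intro h j
      by_cases hj : j ∈ T
      · rw [if_pos hj]
        rw [← h] at hj
        simpa using (mem_filter.1 hj).2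
      · rw [if_neg hj]
        by_cases hjY : j ∈ Yv
        · rw [if_pos hjY]
          refine mem_erase.2 ⟨?_, mem_univ _⟩
          intro hc
          apply hj
          rw [← h]
          exact mem_filter.2 ⟨hjY, hc⟩
        · rw [if_neg hjY]
          exact mem_univ _
    · intro h
      ext j
      simp only [mem_filter]
      constructor
      · rintro ⟨hjY, hc⟩
        by_contra hj
        have := h j
        rw [if_neg hj, if_pos hjY] at this
        exact (mem_erase.1 this).1 hc
      · intro hj
        refine ⟨hT hj, ?_⟩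
        have := h j
        rw [if_pos hj] at this
        simpa using this
  rw [hset, Fintype.card_piFinset]
  push_cast
  have hterm : ∀ j : J, (((if j ∈ T then ({i} : Finset (Fin m)) else
        if j ∈ Yv then univ.erase i else univ).card : ℕ) : ℝ) =
      (m:ℝ) * ((if j ∈ T then (1 / (m:ℝ)) else 1) * (if j ∈ Yv \ T then (1 - 1 / (m:ℝ)) else 1)) := by
    intro j
    by_cases hj : j ∈ T
    · have h2 : j ∉ Yv \ T := by simp [hj]
      rw [if_pos hj, if_pos hj, if_neg h2]
      simp [hm']
    · by_cases hjY : j ∈ Yv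
      · have h2 : j ∈ Yv \ T := by simp [hj, hjY]
        rw [if_neg hj, if_pos hjY, if_neg hj, if_pos h2]
        rw [card_erase_of_mem (mem_univ _), card_univ, Fintype.card_fin]
        rw [Nat.cast_sub (by omega)]
        field_simp
        simp
      · have h2 : j ∉ Yv \ T := by simp [hjY]
        rw [if_neg hj, if_neg hjY, if_neg hj, if_neg h2]
        simp
  rw [Finset.prod_congr rfl (fun j _ => hterm j)]
  rw [Finset.prod_mul_distrib, Finset.prod_mul_distrib]
  rw [Finset.prod_const, card_univ]
  congr 1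
  congr 1
  · rw [Finset.prod_ite_mem, univ_inter, Finset.prod_const]
  · rw [Finset.prod_ite_mem, univ_inter, Finset.prod_const, card_sdiff_of_subset hT]

theorem card_one' (m : ℕ) (Y : V → Finset J) (v : V) (T : Finset J) (i : Fin m) :
    ((univ.filter (fun c : J → Fin m => (Y v).filter (fun j => c j = i) = T)).card : ℝ) =
      (m:ℝ) ^ Fintype.card J * lam m Y v T := by
  classical
  unfold lam
  by_cases hT : T ⊆ Y v
  · rw [if_pos hT, card_one m (Y v) T i hT]
  · rw [if_neg hT, mul_zero]
    have : (univ.filter (fun c : J → Fin m => (Y v).filter (fun j => c j = i) = T)) = ∅ := by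
      apply filter_eq_empty_iff.2
      intro c _ h
      apply hT
      rw [← h]
      exact filter_subset _ _
    rw [this]
    simp

theorem push (m : ℕ) (Y : V → Finset J) (i : Fin m) (F : (V → Finset J) → ℝ) :
    ∑ c : V → J → Fin m, F (fun v => (Y v).filter (fun j => c v j = i)) =
      ((m:ℝ) ^ Fintype.card J) ^ Fintype.card V *
        ∑ τ : V → Finset J, (∏ v, lam m Y v (τ v)) * F τ := by
  classical
  have h1 : ∀ c : V → J → Fin m, F (fun v => (Y v).filter (fun j => c v j = i)) =
      ∑ τ : V → Finset J, if (∀ v, (Y v).filter (fun j => c v j = i) = τ v) then F τ else 0 := by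
    intro c
    rw [Finset.sum_eq_single (fun v => (Y v).filter (fun j => c v j = i))]
    · simp
    · intro τ _ hτ
      rw [if_neg]
      intro h
      apply hτ
      funext v
      exact (h v).symm
    · intro h
      exact absurd (mem_univ _) h
  rw [Finset.sum_congr rfl (fun c _ => h1 c), Finset.sum_comm, Finset.mul_sum]
  refine Finset.sum_congr rfl fun τ _ => ?_
  rw [← Finset.sum_filter, Finset.sum_const, nsmul_eq_mul]
  have hset : (univ.filter (fun c : V → J → Fin m => ∀ v, (Y v).filter (fun j => c v j = i) = τ v)) =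
      Fintype.piFinset (fun v => univ.filter (fun c : J → Fin m => (Y v).filter (fun j => c j = i) = τ v)) := by
    ext c
    simp [Fintype.mem_piFinset]
  rw [hset, Fintype.card_piFinset]
  push_cast
  rw [Finset.prod_congr rfl (fun v _ => card_one' m Y v (τ v) i), Finset.prod_mul_distrib,
    Finset.prod_const, card_univ]
  ring

theorem sum_lam (m : ℕ) (hm : 1 ≤ m) (Y : V → Finset J) (v : V) :
    ∑ T : Finset J, lam m Y v T = 1 := by
  classical
  have i : Fin m := ⟨0, hm⟩
  have hm' : (0:ℝ) < (m:ℝ) ^ Fintype.card J := by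
    have : (0:ℝ) < m := by exact_mod_cast hm
    positivity
  have h : (m:ℝ) ^ Fintype.card J * ∑ T : Finset J, lam m Y v T = (m:ℝ) ^ Fintype.card J := by
    rw [Finset.mul_sum]
    rw [← Finset.sum_congr rfl (fun T _ => card_one' m Y v T i)]
    rw [← Nat.cast_sum]
    have := Finset.card_eq_sum_card_fiberwise
      (f := fun c : J → Fin m => (Y v).filter (fun j => c j = i)) (s := univ)
      (t := (univ : Finset (Finset J))) (fun _ _ => by simp)
    rw [← this, card_univ, Fintype.card_fun, Fintype.card_fin]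
    push_cast
    rfl
  exact mul_left_cancel₀ hm'.ne' (by rw [h, mul_one])

theorem exists_labels (m : ℕ) (hm : 1 ≤ m) (Y : V → Finset J) (g : (V → Finset J) → ℝ)
    (hg1 : ∀ τ, g τ ≤ 1) (ε : ℝ)
    (h : 1 - ε ≤ ∑ τ : V → Finset J, (∏ v, lam m Y v (τ v)) * g τ) :
    ∃ c : V → J → Fin m, ∀ i : Fin m,
      1 - m * ε ≤ g (fun v => (Y v).filter (fun j => c v j = i)) := by
  classical
  have hmpos : (0:ℝ) < m := by exact_mod_cast hm
  set M : ℝ := ((m:ℝ) ^ Fintype.card J) ^ Fintype.card V with hM
  have hMpos : 0 < M := by positivity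
  have hcard : (Fintype.card (V → J → Fin m) : ℝ) = M := by
    rw [Fintype.card_fun, Fintype.card_fun, Fintype.card_fin]
    push_cast
    rfl
  -- average bound
  have hsum : ∑ c : V → J → Fin m, ∑ i : Fin m,
      (1 - g (fun v => (Y v).filter (fun j => c v j = i))) ≤ M * (m * ε) := by
    rw [Finset.sum_comm]
    have : ∀ i : Fin m, ∑ c : V → J → Fin m,
        (1 - g (fun v => (Y v).filter (fun j => c v j = i))) ≤ M * ε := by
      intro i
      rw [Finset.sum_sub_distrib, push m Y i g, Finset.sum_const, card_univ, nsmul_eq_mul, mul_one,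
        hcard]
      nlinarith
    calc _ ≤ ∑ i : Fin m, M * ε := Finset.sum_le_sum fun i _ => this i
      _ = M * (m * ε) := by
        rw [Finset.sum_const, card_univ, Fintype.card_fin, nsmul_eq_mul]; ring
  by_contra hcon
  push Not at hcon
  have hlt : ∀ c : V → J → Fin m, m * ε < ∑ i : Fin m,
      (1 - g (fun v => (Y v).filter (fun j => c v j = i))) := by
    intro c
    obtain ⟨i, hi⟩ := hcon c
    calc m * ε < 1 - g (fun v => (Y v).filter (fun j => c v j = i)) := by linarith
      _ ≤ _ := Finset.single_le_sum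
        (f := fun i : Fin m => (1 - g (fun v => (Y v).filter (fun j => c v j = i))))
        (fun i _ => by linarith [hg1 (fun v => (Y v).filter (fun j => c v j = i))]) (mem_univ i)
  have : Nonempty (V → J → Fin m) := ⟨fun _ _ => ⟨0, hm⟩⟩
  have h2 : ∑ c : V → J → Fin m, (m * ε) < ∑ c : V → J → Fin m, ∑ i : Fin m,
      (1 - g (fun v => (Y v).filter (fun j => c v j = i))) :=
    Finset.sum_lt_sum_of_nonempty univ_nonempty fun c _ => hlt c
  rw [Finset.sum_const, card_univ, nsmul_eq_mul, hcard] at h2
  linarith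

/-- double form: random labels and independent random rows -/
theorem exists_labels_rows {R : Type*} [Fintype R] {B : Type*} [Fintype B] [DecidableEq B]
    (m : ℕ) (hm : 1 ≤ m) (Y : V → Finset J)
    (mu : R → ℝ) (hmu : ∀ r, 0 ≤ mu r) (hmu1 : ∑ r, mu r = 1)
    (X : (V → Finset J) → (B → R) → ℝ) (hX1 : ∀ τ ρ, X τ ρ ≤ 1) (ε : ℝ)
    (h : 1 - ε ≤ ∑ τ : V → Finset J, ∑ ρ : B → R,
      (∏ v, lam m Y v (τ v)) * (∏ w, mu (ρ w)) * X τ ρ) :
    ∃ c : V → J → Fin m, ∀ i : Fin m,
      1 - m * ε ≤ ∑ ρ : B → R, (∏ w, mu (ρ w)) * X (fun v => (Y v).filter (fun j => c v j = i)) ρ := by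
  classical
  have hone : ∑ ρ : B → R, ∏ w, mu (ρ w) = 1 := by
    rw [← Fintype.prod_sum (fun (_ : B) r => mu r)]
    simp [hmu1]
  refine exists_labels m hm Y (fun τ => ∑ ρ : B → R, (∏ w, mu (ρ w)) * X τ ρ) ?_ ε ?_
  · intro τ
    calc ∑ ρ : B → R, (∏ w, mu (ρ w)) * X τ ρ ≤ ∑ ρ : B → R, (∏ w, mu (ρ w)) * 1 :=
        Finset.sum_le_sum fun ρ _ => mul_le_mul_of_nonneg_left (hX1 τ ρ)
          (Finset.prod_nonneg fun w _ => hmu _)
      _ = 1 := by simp [hone]
  · refine h.trans (le_of_eq ?_)
    refine Finset.sum_congr rfl fun τ _ => ?_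
    rw [Finset.mul_sum]
    refine Finset.sum_congr rfl fun ρ _ => ?_
    ring

end Crest.TG65
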