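import Mathlib
import Crest.Prelude.Def_FinProb
import Crest.Prelude.Def_RandomGraph
import Crest.Prelude.Def_CopyThreshold

/-! Transfer between `gnpProb` and independent rows of neighbourhoods (S0073, depth one). -/

set_option autoImplicit false

namespace Crest.TG.Rows

open Finset Crest.FinProb Crest.CombinatoricsR.RandomGraph

section comap

theorem sum_bw {ι : Type*} [Fintype ι] [DecidableEq ι] (p : ℝ) :
    ∑ ω : ι → Bool, bernoulliWeight p ω = 1 := by
  unfold bernoulliWeight
  have h := (Finset.prod_univ_sum (fun _ : ι => (Finset.univ : Finset Bool))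
    (fun _ b => if b = true then p else 1 - p)).symm
  rw [Fintype.piFinset_univ] at h
  rw [h]
  apply Finset.prod_eq_one
  intro i _
  simp

theorem bw_nonneg {ι : Type*} [Fintype ι] {p : ℝ} (h0 : 0 ≤ p) (h1 : p ≤ 1) (ω : ι → Bool) :
    0 ≤ bernoulliWeight p ω := by
  unfold bernoulliWeight
  refine Finset.prod_nonneg fun i _ => ?_
  split_ifs
  · exact h0
  · linarith

theorem prob_eq_sum {ι : Type*} [Fintype ι] [DecidableEq ι] (p : ℝ) (E : Set (ι → Bool))
    [DecidablePred (· ∈ E)] :
    bernoulliProb p E = ∑ ω : ι → Bool, bernoulliWeight p ω * (if ω ∈ E then 1 else 0) := by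
  unfold bernoulliProb
  rw [Finset.sum_filter]
  refine Finset.sum_congr rfl fun ω _ => ?_
  by_cases h : ω ∈ E
  · simp [h]
  · simp [h]

theorem prob_mono {ι : Type*} [Fintype ι] [DecidableEq ι] {p : ℝ} (h0 : 0 ≤ p) (h1 : p ≤ 1)
    {E E' : Set (ι → Bool)} (h : E ⊆ E') : bernoulliProb p E ≤ bernoulliProb p E' := by
  classical
  unfold bernoulliProb
  refine Finset.sum_le_sum_of_subset_of_nonneg ?_ fun ω _ _ => bw_nonneg h0 h1 ω
  intro ω hω
  rw [Finset.mem_filter] at hω ⊢
  exact ⟨hω.1, h hω.2⟩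

/-- the equivalence splitting the index set along an injection -/
noncomputable def splitEquiv {κ ι : Type*} (e : κ → ι) (he : Function.Injective e) :
    κ ⊕ {i // i ∉ Set.range e} ≃ ι := by
  classical
  exact ((Equiv.ofInjective e he).sumCongr (Equiv.refl _)).trans (Equiv.Set.sumCompl (Set.range e))

theorem splitEquiv_inl {κ ι : Type*} (e : κ → ι) (he : Function.Injective e) (x : κ) :
    splitEquiv e he (Sum.inl x) = e x := by
  classical
  simp only [splitEquiv, Equiv.trans_apply, Equiv.sumCongr_apply, Sum.map_inl,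
    Equiv.ofInjective_apply]
  exact Equiv.Set.sumCompl_apply_inl (Set.range e) _

theorem sum_comap {κ ι : Type*} [Fintype ι] [DecidableEq ι] [Fintype κ] [DecidableEq κ]
    (p : ℝ) (e : κ → ι) (he : Function.Injective e) (f : (κ → Bool) → ℝ) :
    ∑ ω : ι → Bool, bernoulliWeight p ω * f (ω ∘ e)
      = ∑ η : κ → Bool, bernoulliWeight p η * f η := by
  classical
  let s := splitEquiv e he
  let E : (κ → Bool) × ({i // i ∉ Set.range e} → Bool) ≃ (ι → Bool) :=
    (Equiv.sumArrowEquivProdArrow κ {i // i ∉ Set.range e} Bool).symm.trans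
      (s.arrowCongr (Equiv.refl Bool))
  rw [← Equiv.sum_comp E, Fintype.sum_prod_type]
  refine Finset.sum_congr rfl fun η _ => ?_
  have hE : ∀ (η' : {i // i ∉ Set.range e} → Bool) (x : κ ⊕ {i // i ∉ Set.range e}),
      E (η, η') (s x) = Sum.elim η η' x := by
    intro η' x
    simp [E, Equiv.arrowCongr, Equiv.sumArrowEquivProdArrow]
  have hc : ∀ η' : {i // i ∉ Set.range e} → Bool, (E (η, η')) ∘ e = η := by
    intro η'
    funext x
    have := hE η' (Sum.inl x)
    rw [splitEquiv_inl] at this
    simpa using this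
  have hw : ∀ η' : {i // i ∉ Set.range e} → Bool,
      bernoulliWeight p (E (η, η')) = bernoulliWeight p η * bernoulliWeight p η' := by
    intro η'
    unfold bernoulliWeight
    rw [← Equiv.prod_comp s, Fintype.prod_sum_type]
    congr 1
    · refine Finset.prod_congr rfl fun x _ => ?_
      rw [hE]; rfl
    · refine Finset.prod_congr rfl fun x _ => ?_
      rw [hE]; rfl
  have : ∀ η' : {i // i ∉ Set.range e} → Bool,
      bernoulliWeight p (E (η, η')) * f ((E (η, η')) ∘ e)
        = (bernoulliWeight p η * f η) * bernoulliWeight p η' := by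
    intro η'
    rw [hc, hw]; ring
  rw [Finset.sum_congr rfl fun η' _ => this η', ← Finset.mul_sum, sum_bw, mul_one]

theorem prob_comap {κ ι : Type*} [Fintype ι] [DecidableEq ι] [Fintype κ] [DecidableEq κ]
    (p : ℝ) (e : κ → ι) (he : Function.Injective e) (E : Set (κ → Bool)) :
    bernoulliProb p {ω : ι → Bool | ω ∘ e ∈ E} = bernoulliProb p E := by
  classical
  rw [prob_eq_sum, prob_eq_sum]
  exact sum_comap p e he (fun η => if η ∈ E then 1 else 0)

end comap

section rows

/-- the Bernoulli measure on subsets -/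
noncomputable def mu {J : Type*} [Fintype J] (P : ℝ) (R : Finset J) : ℝ :=
  P ^ R.card * (1 - P) ^ (Fintype.card J - R.card)

/-- rows as finsets -/
def rowEquiv (b : ℕ) (J : Type*) [Fintype J] [DecidableEq J] :
    (Fin b × J → Bool) ≃ (Fin b → Finset J) where
  toFun η w := Finset.univ.filter fun j => η (w, j) = true
  invFun ρ x := decide (x.2 ∈ ρ x.1)
  left_inv η := by
    funext x
    simp
  right_inv ρ := by
    funext w
    ext j
    simp

theorem bw_rows {b : ℕ} {J : Type*} [Fintype J] [DecidableEq J] (P : ℝ) (η : Fin b × J → Bool) :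
    bernoulliWeight P η = ∏ w, mu P (rowEquiv b J η w) := by
  unfold bernoulliWeight mu
  rw [Fintype.prod_prod_type]
  refine Finset.prod_congr rfl fun w _ => ?_
  rw [Finset.prod_ite, Finset.prod_const, Finset.prod_const]
  congr 1
  have h : (Finset.univ.filter fun j : J => ¬ η (w, j) = true)
      = (Finset.univ.filter fun j : J => η (w, j) = true)ᶜ := by
    ext j; simp
  rw [h, Finset.card_compl]
  rfl

/-- the rows of `G` -/
noncomputable def rowsOf {n b : ℕ} {J : Type*} [Fintype J] (G : SimpleGraph (Fin n))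
    (pos : J → Fin n) (row : Fin b → Fin n) (w : Fin b) : Finset J := by
  classical
  exact Finset.univ.filter fun j => G.Adj (pos j) (row w)

theorem mem_rowsOf {n b : ℕ} {J : Type*} [Fintype J] (G : SimpleGraph (Fin n))
    (pos : J → Fin n) (row : Fin b → Fin n) (w : Fin b) (j : J) :
    j ∈ rowsOf G pos row w ↔ G.Adj (pos j) (row w) := by
  classical
  simp [rowsOf]

/-- independent rows: `pos` the fixed positions of `J`, `row` the rows -/
theorem gnp_rows {n b : ℕ} {J : Type*} [Fintype J] [DecidableEq J] (P : ℝ)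
    (pos : J → Fin n) (row : Fin b → Fin n) (hpos : Function.Injective pos)
    (hrow : Function.Injective row) (hd : ∀ j w, pos j ≠ row w)
    (𝒢 : (Fin b → Finset J) → Prop) [DecidablePred 𝒢] :
    gnpProb n P {G | 𝒢 (rowsOf G pos row)}
      = ∑ ρ : Fin b → Finset J, (∏ w, mu P (ρ w)) * (if 𝒢 ρ then 1 else 0) := by
  classical
  have hne : ∀ x : Fin b × J, ¬ (s(pos x.2, row x.1) : Sym2 (Fin n)).IsDiag := by
    intro x h
    exact hd x.2 x.1 (by simpa using h)
  let e : Fin b × J → EdgeSlot n := fun x => ⟨s(pos x.2, row x.1), hne x⟩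
  have he : Function.Injective e := by
    intro x y h
    have h' : (s(pos x.2, row x.1) : Sym2 (Fin n)) = s(pos y.2, row y.1) := congrArg Subtype.val h
    rw [Sym2.eq_iff] at h'
    rcases h' with ⟨h1, h2⟩ | ⟨h1, h2⟩
    · exact Prod.ext (hrow h2) (hpos h1)
    · exact absurd h1 (hd _ _)
  have hadj : ∀ (ω : EdgeSlot n → Bool) (w : Fin b) (j : J),
      (graphOf ω).Adj (pos j) (row w) ↔ (ω ∘ e) (w, j) = true := by
    intro ω w j
    unfold graphOf
    rw [SimpleGraph.fromEdgeSet_adj]
    constructor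
    · rintro ⟨⟨h, h2⟩, _⟩
      exact h2
    · intro h
      exact ⟨⟨hne (w, j), h⟩, hd j w⟩
  unfold gnpProb
  have hset : {ω : EdgeSlot n → Bool | graphOf ω ∈ {G : SimpleGraph (Fin n) |
      𝒢 (rowsOf G pos row)}}
      = {ω : EdgeSlot n → Bool | ω ∘ e ∈ {η : Fin b × J → Bool | 𝒢 (rowEquiv b J η)}} := by
    ext ω
    have : rowsOf (graphOf ω) pos row = rowEquiv b J (ω ∘ e) := by
      funext w
      ext j
      rw [mem_rowsOf]
      simp only [rowEquiv, Equiv.coe_fn_mk, Finset.mem_filter, Finset.mem_univ, true_and]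
      exact hadj ω w j
    show 𝒢 (rowsOf (graphOf ω) pos row) ↔ 𝒢 (rowEquiv b J (ω ∘ e))
    rw [this]
  rw [hset, prob_comap P e he, prob_eq_sum]
  rw [← Equiv.sum_comp (rowEquiv b J)]
  refine Finset.sum_congr rfl fun η _ => ?_
  rw [bw_rows]
  rfl

end rows

section isolated

/-- isolated vertices of `F` cost nothing -/
theorem isContained_of_injOn {n : ℕ} {W : Type*} [Fintype W] [DecidableEq W] (F : SimpleGraph W)
    (G : SimpleGraph (Fin n)) (hW : Fintype.card W ≤ n) (S : Finset W)
    (hS : ∀ x y, F.Adj x y → x ∈ S) (φ : W → Fin n) (hφ : Set.InjOn φ S)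
    (hadj : ∀ x y, F.Adj x y → G.Adj (φ x) (φ y)) : F.IsContained G := by
  classical
  have h1 : (S.image φ).card ≤ Fintype.card W :=
    (Finset.card_image_le).trans (Finset.card_le_univ _)
  obtain ⟨t, ht, htc⟩ := Finset.exists_superset_card_eq (s := S.image φ) (n := Fintype.card W) h1
    (by simpa using hW)
  obtain ⟨g, hg⟩ := Finset.exists_equiv_extend_of_card_eq (t := t) htc.symm (s := S) (f := φ) ht hφ
  refine ⟨⟨⟨fun x => (g x : Fin n), ?_⟩, ?_⟩⟩
  · intro x y h
    have hx := hg x (hS x y h)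
    have hy := hg y (hS y x h.symm)
    show G.Adj (g x : Fin n) (g y : Fin n)
    rw [hx, hy]
    exact hadj x y h
  · intro x y h
    exact g.injective (Subtype.ext h)

end isolated

section gamma

/-- The depth-one transfer: `F` bipartite between `J` (fixed positions) and `V`. -/
theorem gamma_transfer {n b : ℕ} {W : Type*} [Fintype W] [DecidableEq W] (F : SimpleGraph W)
    [DecidableRel F.Adj]
    (J V : Finset W) (hJV : Disjoint J V)
    (hF : ∀ x y, F.Adj x y → (x ∈ J ∧ y ∈ V) ∨ (x ∈ V ∧ y ∈ J))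
    (hW : Fintype.card W ≤ n) (hb : J.card + b ≤ n) (P : ℝ) (hP0 : 0 ≤ P) (hP1 : P ≤ 1)
    [∀ ρ : Fin b → Finset J, Decidable (∃ g : V → Fin b, Function.Injective g ∧
        ∀ v : V, (Finset.univ.filter fun j : J => F.Adj j v) ⊆ ρ (g v))] :
    ∑ ρ : Fin b → Finset J, (∏ w, mu P (ρ w)) *
      (if ∃ g : V → Fin b, Function.Injective g ∧
        ∀ v : V, (Finset.univ.filter fun j : J => F.Adj j v) ⊆ ρ (g v) then 1 else 0)
      ≤ gnpProb n P {G | F.IsContained G} := by
  classical
  let pos : J → Fin n := fun j => ⟨(J.equivFin j : ℕ), by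
    have := (J.equivFin j).2; omega⟩
  let row : Fin b → Fin n := fun w => ⟨J.card + (w : ℕ), by have := w.2; omega⟩
  have hpos : Function.Injective pos := by
    intro x y h
    have : (J.equivFin x : ℕ) = (J.equivFin y : ℕ) := by
      simpa [pos] using h
    exact J.equivFin.injective (Fin.ext this)
  have hrow : Function.Injective row := by
    intro x y h
    have : J.card + (x : ℕ) = J.card + (y : ℕ) := Fin.val_eq_of_eq h
    exact Fin.ext (by omega)
  have hd : ∀ j w, pos j ≠ row w := by
    intro j w h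
    have h1 : (J.equivFin j : ℕ) = J.card + (w : ℕ) := Fin.val_eq_of_eq h
    have h2 := (J.equivFin j).2
    omega
  rw [← gnp_rows P pos row hpos hrow hd (fun ρ => ∃ g : V → Fin b, Function.Injective g ∧
        ∀ v : V, (Finset.univ.filter fun j : J => F.Adj j v) ⊆ ρ (g v))]
  unfold gnpProb
  refine prob_mono hP0 hP1 ?_
  intro ω hω
  obtain ⟨g, hg, hsub⟩ := hω
  show F.IsContained (graphOf ω)
  have hn : 0 < n ∨ IsEmpty W := by
    rcases Nat.eq_zero_or_pos n with h | h
    · right
      rw [← Fintype.card_eq_zero_iff]; omega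
    · exact Or.inl h
  rcases hn with hn | hn
  swap
  · exact isContained_of_injOn F (graphOf ω) hW ∅ (fun x => (hn.false x).elim)
      (fun x => (hn.false x).elim) (by simp) (fun x => (hn.false x).elim)
  let φ : W → Fin n := fun x => if hx : x ∈ J then pos ⟨x, hx⟩ else
    if hv : x ∈ V then row (g ⟨x, hv⟩) else ⟨0, hn⟩
  have hφJ : ∀ x (hx : x ∈ J), φ x = pos ⟨x, hx⟩ := fun x hx => by simp [φ, hx]
  have hφV : ∀ x (hx : x ∈ V), φ x = row (g ⟨x, hx⟩) := fun x hx => by
    have : x ∉ J := fun h => (Finset.disjoint_left.1 hJV h) hx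
    simp [φ, hx, this]
  have key : ∀ x y, x ∈ J → y ∈ V → F.Adj x y → (graphOf ω).Adj (φ x) (φ y) := by
    intro x y hx hy h
    rw [hφJ x hx, hφV y hy]
    have := hsub ⟨y, hy⟩ (Finset.mem_filter.2 ⟨Finset.mem_univ ⟨x, hx⟩, h⟩)
    exact (mem_rowsOf _ _ _ _ _).1 this
  refine isContained_of_injOn F (graphOf ω) hW (J ∪ V) ?_ φ ?_ ?_
  · intro x y h
    rcases hF x y h with ⟨h1, _⟩ | ⟨h1, _⟩
    · exact Finset.mem_union_left _ h1
    · exact Finset.mem_union_right _ h1
  · intro x hx y hy h
    have hx' := Finset.mem_union.1 (Finset.mem_coe.1 hx)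
    have hy' := Finset.mem_union.1 (Finset.mem_coe.1 hy)
    rcases hx' with hx' | hx' <;> rcases hy' with hy' | hy'
    · rw [hφJ x hx', hφJ y hy'] at h
      exact congrArg Subtype.val (hpos h)
    · rw [hφJ x hx', hφV y hy'] at h
      exact absurd h (hd _ _)
    · rw [hφV x hx', hφJ y hy'] at h
      exact absurd h.symm (hd _ _)
    · rw [hφV x hx', hφV y hy'] at h
      exact congrArg Subtype.val (hg (hrow h))
  · intro x y h
    rcases hF x y h with ⟨h1, h2⟩ | ⟨h1, h2⟩
    · exact key x y h1 h2 h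
    · exact (key y x h2 h1 h.symm).symm

end gamma

end Crest.TG.Rows
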