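import Crest.Agent.TG55_AD
import Crest.Agent.TG73_Rows
import Crest.Agent.TG65_Labels
import Crest.Agent.TG6_Ext
import Crest.Agent.TG8_Gamma

/-! S0073, hub classes: `AD` (abstract depth one) gives `GAMMA` (graph level). -/

set_option autoImplicit false

namespace Crest.TG55
open Finset Crest.FinProb Crest.CombinatoricsR.RandomGraph

theorem gamma_of_AD (h : AD) : Crest.TG8.GAMMA := by
  classical
  obtain ⟨m, L0, n0, hm, hL0, hAD⟩ := h
  refine ⟨m, by omega, L0, hL0, max n0 4, ?_⟩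
  intro n hn W _ _ F _ J q D hq hLq hW hF hJ hD hqD hV hS
  have hn0 : n0 ≤ n := le_trans (le_max_left _ _) hn
  have hn4 : 4 ≤ n := le_trans (le_max_right _ _) hn
  have hnr : (4 : ℝ) ≤ n := by exact_mod_cast hn4
  set V : Finset W := univ.filter (fun v => v ∉ J ∧ ∃ u, F.Adj v u) with hVdef
  have hmemV : ∀ v, v ∈ V ↔ v ∉ J ∧ ∃ u, F.Adj v u := by
    intro v; rw [hVdef, mem_filter]; simp
  have hJV : Disjoint J V := by
    rw [Finset.disjoint_left]
    intro a ha hb
    exact ((hmemV a).1 hb).1 ha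
  have hF' : ∀ x y, F.Adj x y → (x ∈ J ∧ y ∈ V) ∨ (x ∈ V ∧ y ∈ J) := by
    intro x y hxy
    rcases hF x y hxy with ⟨h1, h2⟩ | ⟨h1, h2⟩
    · exact Or.inl ⟨h1, (hmemV y).2 ⟨h2, x, hxy.symm⟩⟩
    · exact Or.inr ⟨(hmemV x).2 ⟨h1, y, hxy⟩, h2⟩
  let Y : V → Finset J := fun v => univ.filter (fun j : J => F.Adj j v)
  -- size of J
  have hJn : J.card ≤ n / 2 := by
    have h1 : (n : ℝ) ^ (1 / 10 : ℝ) ≤ (n : ℝ) ^ (1 / 2 : ℝ) := by
      apply Real.rpow_le_rpow_of_exponent_le (by linarith) (by norm_num)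
    have h2 : (n : ℝ) ^ (1 / 2 : ℝ) ≤ n / 2 := by
      rw [← Real.sqrt_eq_rpow]
      rw [Real.sqrt_le_left (by positivity)]
      nlinarith
    have h3 : (J.card : ℝ) ≤ (n : ℝ) / 2 := hJ.trans (h1.trans h2)
    have h4 : J.card * 2 ≤ n := by
      have : (J.card : ℝ) * 2 ≤ n := by linarith
      exact_mod_cast this
    omega
  have hYD : ∀ v, (Y v).card ≤ D := by
    intro v
    have hv := (hmemV v.1).1 v.2
    refine le_trans ?_ (hD v.1 hv.1)
    rw [← card_map (Function.Embedding.subtype _)]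
    apply card_le_card
    intro u hu
    rw [mem_map] at hu
    obtain ⟨j, hj, rfl⟩ := hu
    rw [mem_filter] at hj ⊢
    exact ⟨mem_univ _, hj.2.symm⟩
  have hYS : ∀ S : Finset J, S.Nonempty →
      ((univ.filter (fun v => S ⊆ Y v)).card : ℝ) ≤ 20 * n * q ^ S.card := by
    intro S hSne
    have h1 := hS (S.map (Function.Embedding.subtype _)) (by simpa using hSne)
    rw [card_map] at h1
    refine le_trans ?_ h1
    have h2 : (univ.filter (fun v : V => S ⊆ Y v)).card ≤
        (univ.filter (fun v : W => v ∉ J ∧ ∀ u ∈ S.map (Function.Embedding.subtype _),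
          F.Adj v u)).card := by
      rw [← card_map (Function.Embedding.subtype _)]
      apply card_le_card
      intro v hv
      rw [mem_map] at hv
      obtain ⟨v', hv', rfl⟩ := hv
      rw [mem_filter] at hv' ⊢
      refine ⟨mem_univ _, ((hmemV v'.1).1 v'.2).1, ?_⟩
      intro u hu
      rw [mem_map] at hu
      obtain ⟨j, hj, rfl⟩ := hu
      have h3 := hv'.2 hj
      rw [mem_filter] at h3
      exact h3.2.symm
    exact_mod_cast h2
  have hVc : 64 * Fintype.card V ≤ n := by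
    rw [Fintype.card_coe]
    exact hV
  have hJc : (Fintype.card J : ℝ) ≤ (n : ℝ) ^ ((1 : ℝ) / 10) := by
    rw [Fintype.card_coe]; exact hJ
  let b := n - J.card
  have hb1 : n ≤ 2 * b := by simp only [b]; omega
  have hb2 : b ≤ n := by simp only [b]; omega
  have hbJ : J.card + b ≤ n := by simp only [b]; omega
  let Q : (V → Finset J) → (Fin b → Finset J) → Prop := fun τ ρ =>
    ∃ g : V → Fin b, Function.Injective g ∧ ∀ v, τ v ⊆ ρ (g v)
  have hmain := hAD n hn0 J V Y q D b hq hLq hJc hYD hqD hVc hYS hb1 hb2 Q (fun τ ρ h => h)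
  have hP0 : 0 ≤ L0 * q := by positivity
  have hmu0 : ∀ R : Finset J, 0 ≤ mu (L0 * q) R := by
    intro R
    unfold mu
    have : 0 ≤ 1 - L0 * q := by linarith
    positivity
  have hmu1 : ∑ R : Finset J, mu (L0 * q) R = 1 := by
    have h1 := Fintype.sum_pow_mul_eq_add_pow J (L0 * q) (1 - L0 * q)
    simp only [add_sub_cancel, one_pow] at h1
    exact h1
  have hmr : (0 : ℝ) < m := by
    have : 0 < m := by omega
    exact_mod_cast this
  obtain ⟨c, hc⟩ := Crest.TG65.exists_labels_rows (V := V) (J := J) (R := Finset J) (B := Fin b) m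
    (by omega) Y (mu (L0 * q)) hmu0 hmu1 (fun τ ρ => if Q τ ρ then (1:ℝ) else 0)
    (by intro τ ρ; split_ifs <;> norm_num) (1 / (2 * (m : ℝ))) hmain
  -- the label of an edge
  have hex : ∀ e : F.edgeSet, ∃ x : V × J, e.1 = s((x.2 : W), (x.1 : W)) := by
    rintro ⟨e, he⟩
    induction e using Sym2.ind with
    | _ a b' =>
      rw [SimpleGraph.mem_edgeSet] at he
      rcases hF' a b' he with ⟨h1, h2⟩ | ⟨h1, h2⟩
      · exact ⟨(⟨b', h2⟩, ⟨a, h1⟩), rfl⟩
      · exact ⟨(⟨a, h1⟩, ⟨b', h2⟩), Sym2.eq_swap⟩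
  let c' : F.edgeSet → Fin m := fun e => c (hex e).choose.1 (hex e).choose.2
  have hc' : ∀ (v : V) (j : J) (hadj : F.Adj j v), c' ⟨s((j : W), (v : W)), hadj⟩ = c v j := by
    intro v j hadj
    have h1 := (hex ⟨s((j : W), (v : W)), hadj⟩).choose_spec
    set x := (hex ⟨s((j : W), (v : W)), hadj⟩).choose with hx
    have h2 : (j : W) = x.2 ∧ (v : W) = x.1 := by
      rw [Sym2.eq_iff] at h1
      rcases h1 with h1 | h1
      · exact h1
      · exfalso
        have h3 : (j : W) ∈ V := by rw [h1.1]; exact x.1.2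
        exact (Finset.disjoint_left.1 hJV j.2) h3
    show c x.1 x.2 = c v j
    rw [Subtype.ext h2.1, Subtype.ext h2.2]
  refine ⟨c', fun i => ?_⟩
  have hci := hc i
  have hhalf : 1 - (m : ℝ) * (1 / (2 * (m : ℝ))) = 1 / 2 := by
    field_simp
    norm_num
  rw [hhalf] at hci
  have hpadj := TG6.pieceGraph_adj F c' i
  have hFi : ∀ x y, (pieceGraph F c' i).Adj x y → (x ∈ J ∧ y ∈ V) ∨ (x ∈ V ∧ y ∈ J) := by
    intro x y hxy
    obtain ⟨h1, _⟩ := (hpadj x y).1 hxy
    exact hF' x y h1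
  have htr := Crest.TG.Rows.gamma_transfer (n := n) (b := b) (pieceGraph F c' i) J V hJV hFi hW hbJ
    (L0 * q) hP0 hLq.le
  refine le_trans ?_ htr
  refine hci.trans (le_of_eq ?_)
  have hYi : ∀ v : V, (univ.filter fun j : J => (pieceGraph F c' i).Adj j v) =
      (Y v).filter (fun j => c v j = i) := by
    intro v
    ext j
    rw [mem_filter, mem_filter, mem_filter, hpadj]
    constructor
    · rintro ⟨_, h1, h2⟩
      refine ⟨⟨mem_univ _, h1⟩, ?_⟩
      rw [← h2]
      exact (hc' v j h1).symm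
    · rintro ⟨⟨_, h1⟩, h2⟩
      exact ⟨mem_univ _, h1, by rw [← h2]; exact hc' v j h1⟩
  apply Finset.sum_congr rfl
  intro ρ _
  congr 1
  simp only [hYi, Q]

end Crest.TG55
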