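import Crest.Prelude.Def_CopyThreshold

/-! Glue lemmas for S0073: extension of an injection to isolated vertices, averaging over
labellings, combining labellings of parts. -/

set_option autoImplicit false

namespace Crest.TG48
open Finset Crest.CombinatoricsR.RandomGraph

theorem pieceGraph_adj {W : Type*} {k : ℕ} (H : SimpleGraph W) (c : H.edgeSet → Fin k) (i : Fin k)
    (u v : W) :
    (pieceGraph H c i).Adj u v ↔ ∃ h : H.Adj u v, c ⟨s(u, v), h⟩ = i := by
  unfold pieceGraph
  rw [SimpleGraph.fromEdgeSet_adj]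
  constructor
  · rintro ⟨⟨h, hc⟩, _⟩
    exact ⟨h, hc⟩
  · rintro ⟨h, hc⟩
    exact ⟨⟨h, hc⟩, h.ne⟩

theorem pieceGraph_le {W : Type*} {k : ℕ} (H : SimpleGraph W) (c : H.edgeSet → Fin k) (i : Fin k) :
    pieceGraph H c i ≤ H := by
  intro u v h
  rw [pieceGraph_adj] at h
  exact h.1

/-- containment from an injection defined on the non-isolated vertices only -/
theorem ext {W : Type*} [Fintype W] [DecidableEq W] {n : ℕ} (F : SimpleGraph W)
    (G : SimpleGraph (Fin n)) (hW : Fintype.card W ≤ n) (S : Finset W)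
    (hS : ∀ u v, F.Adj u v → u ∈ S) (φ : W → Fin n) (hφ : Set.InjOn φ (S : Set W))
    (hadj : ∀ u v, F.Adj u v → G.Adj (φ u) (φ v)) : F.IsContained G := by
  classical
  have hcard : Fintype.card {x // x ∈ Sᶜ} ≤ Fintype.card {y // y ∈ (S.image φ)ᶜ} := by
    rw [Fintype.card_coe, Fintype.card_coe, card_compl, card_compl, card_image_of_injOn hφ,
      Fintype.card_fin]
    omega
  obtain ⟨e⟩ : Nonempty ({x // x ∈ Sᶜ} ↪ {y // y ∈ (S.image φ)ᶜ}) :=
    Function.Embedding.nonempty_of_card_le hcard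
  let ψ : W → Fin n := fun x => if h : x ∈ S then φ x else (e ⟨x, mem_compl.2 h⟩).1
  have hψS : ∀ x ∈ S, ψ x = φ x := fun x hx => by simp only [ψ, hx, dif_pos]
  have hψN : ∀ x (h : x ∉ S), ψ x = (e ⟨x, mem_compl.2 h⟩).1 := fun x hx => by
    simp only [ψ, hx, dif_neg, not_false_eq_true]
  have hinj : Function.Injective ψ := by
    intro x y hxy
    by_cases hx : x ∈ S <;> by_cases hy : y ∈ S
    · rw [hψS x hx, hψS y hy] at hxy
      exact hφ hx hy hxy
    · rw [hψS x hx, hψN y hy] at hxy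
      have h1 := (e ⟨y, mem_compl.2 hy⟩).2
      rw [← hxy, mem_compl] at h1
      exact absurd (mem_image_of_mem φ hx) h1
    · rw [hψN x hx, hψS y hy] at hxy
      have h1 := (e ⟨x, mem_compl.2 hx⟩).2
      rw [hxy, mem_compl] at h1
      exact absurd (mem_image_of_mem φ hy) h1
    · rw [hψN x hx, hψN y hy] at hxy
      have h1 := e.injective (Subtype.ext hxy)
      exact congrArg Subtype.val h1
  refine ⟨⟨⟨ψ, ?_⟩, hinj⟩⟩
  intro u v huv
  rw [hψS u (hS u v huv), hψS v (hS v u huv.symm)]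
  exact hadj u v huv

/-- version with an enumeration `x : Fin m → W` of the non-isolated vertices -/
theorem ext_enum {W : Type*} [Fintype W] [DecidableEq W] {n m : ℕ} (F : SimpleGraph W)
    (G : SimpleGraph (Fin n)) (hW : Fintype.card W ≤ n) (x : Fin m → W)
    (hx : Function.Injective x) (hS : ∀ u v, F.Adj u v → ∃ j, x j = u)
    (φ : Fin m → Fin n) (hφ : Function.Injective φ)
    (hadj : ∀ i j, i < j → F.Adj (x i) (x j) → G.Adj (φ i) (φ j)) : F.IsContained G := by
  classical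
  rcases Nat.eq_zero_or_pos m with hm | hm
  · -- no edges
    have hbot : ∀ u v, ¬ F.Adj u v := by
      intro u v h
      obtain ⟨j, _⟩ := hS u v h
      exact absurd j.2 (by omega)
    obtain ⟨e⟩ : Nonempty (W ↪ Fin n) :=
      Function.Embedding.nonempty_of_card_le (by rwa [Fintype.card_fin])
    exact ⟨⟨⟨e, fun {u v} h => absurd h (hbot u v)⟩, e.injective⟩⟩
  · haveI : Nonempty (Fin m) := ⟨⟨0, hm⟩⟩
    have hinv : ∀ j, Function.invFun x (x j) = j := Function.leftInverse_invFun hx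
    refine ext F G hW (univ.image x) ?_ (fun w => φ (Function.invFun x w)) ?_ ?_
    · intro u v h
      obtain ⟨j, rfl⟩ := hS u v h
      exact mem_image_of_mem _ (mem_univ j)
    · intro a ha b hb hab
      simp only [coe_image, coe_univ, Set.image_univ, Set.mem_range] at ha hb
      obtain ⟨i, rfl⟩ := ha
      obtain ⟨j, rfl⟩ := hb
      simp only [hinv] at hab
      rw [hφ hab]
    · intro u v h
      obtain ⟨i, rfl⟩ := hS u v h
      obtain ⟨j, rfl⟩ := hS v _ h.symm
      simp only [hinv]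
      have hij : i ≠ j := by
        rintro rfl
        exact F.irrefl h
      rcases lt_or_gt_of_ne hij with h1 | h1
      · exact hadj i j h1 h
      · exact (hadj j i h1 h.symm).symm

/-- averaging over labellings -/
theorem exists_label {Λ I : Type*} [Fintype Λ] [Fintype I] (lam : Λ → ℝ) (h0 : ∀ l, 0 ≤ lam l)
    (h1 : ∑ l, lam l = 1) (P : I → Λ → ℝ) (hP : ∀ i l, 0 ≤ P i l)
    (h : ∑ i, ∑ l, lam l * P i l < 1 / 2) : ∃ l, ∀ i, P i l < 1 / 2 := by
  by_contra hcon
  push Not at hcon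
  have h2 : ∀ l, (1 / 2 : ℝ) ≤ ∑ i, P i l := by
    intro l
    obtain ⟨i, hi⟩ := hcon l
    exact hi.trans (single_le_sum (f := fun i => P i l) (fun i _ => hP i l) (mem_univ i))
  have h3 : (1 / 2 : ℝ) ≤ ∑ l, lam l * ∑ i, P i l := by
    calc (1 / 2 : ℝ) = ∑ l, lam l * (1 / 2) := by rw [← sum_mul, h1, one_mul]
      _ ≤ _ := sum_le_sum fun l _ => mul_le_mul_of_nonneg_left (h2 l) (h0 l)
  have h4 : ∑ l, lam l * ∑ i, P i l = ∑ i, ∑ l, lam l * P i l := by
    rw [sum_comm]
    exact sum_congr rfl fun l _ => mul_sum _ _ _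
  linarith

/-- if the edges of `H` are covered by the graphs `F j` and each `F j` is labelled, then `H` can be
labelled so that every piece of `H` is a subgraph of a piece of some `F j` -/
theorem glue {W : Type*} {m k : ℕ} (H : SimpleGraph W) (F : Fin m → SimpleGraph W)
    (hF : ∀ u v, H.Adj u v → ∃ j, (F j).Adj u v) (c : ∀ j, (F j).edgeSet → Fin k) :
    ∃ c' : H.edgeSet → Fin (m * k), ∀ i, ∃ j i',
      pieceGraph H c' i ≤ pieceGraph (F j) (c j) i' := by
  classical
  have hF' : ∀ e : H.edgeSet, ∃ j, (e : Sym2 W) ∈ (F j).edgeSet := by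
    rintro ⟨e, he⟩
    induction e using Sym2.ind with
    | _ u v =>
      obtain ⟨j, hj⟩ := hF u v he
      exact ⟨j, hj⟩
  choose J hJ using hF'
  refine ⟨fun e => finProdFinEquiv (J e, c (J e) ⟨e.1, hJ e⟩), ?_⟩
  intro i
  refine ⟨(finProdFinEquiv.symm i).1, (finProdFinEquiv.symm i).2, ?_⟩
  intro u v h
  rw [pieceGraph_adj] at h ⊢
  obtain ⟨h1, h2⟩ := h
  have h3 : finProdFinEquiv.symm i = (J ⟨s(u, v), h1⟩, c (J ⟨s(u, v), h1⟩) ⟨s(u, v), hJ _⟩) := by
    rw [← h2, Equiv.symm_apply_apply]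
  rw [h3]
  exact ⟨hJ ⟨s(u, v), h1⟩, rfl⟩

/-- padding of the label set -/
theorem pad {W : Type*} {k k' : ℕ} (hk : k ≤ k') (H : SimpleGraph W) (c : H.edgeSet → Fin k) :
    ∃ c' : H.edgeSet → Fin k', ∀ i, pieceGraph H c' i = ⊥ ∨ ∃ j, pieceGraph H c' i = pieceGraph H c j := by
  refine ⟨fun e => Fin.castLE hk (c e), fun i => ?_⟩
  by_cases hi : (i : ℕ) < k
  · right
    refine ⟨⟨i, hi⟩, ?_⟩
    ext u v
    rw [pieceGraph_adj, pieceGraph_adj]
    constructor
    · rintro ⟨h, hc⟩
      refine ⟨h, ?_⟩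
      apply Fin.ext
      have := congrArg Fin.val hc
      simpa using this
    · rintro ⟨h, hc⟩
      refine ⟨h, ?_⟩
      apply Fin.ext
      have := congrArg Fin.val hc
      simpa using this
  · left
    ext u v
    rw [pieceGraph_adj]
    simp only [SimpleGraph.bot_adj, iff_false]
    rintro ⟨h, hc⟩
    have := congrArg Fin.val hc
    simp only [Fin.val_castLE] at this
    have h2 := (c ⟨s(u, v), h⟩).2
    omega

theorem contained_mono {W : Type*} {n : ℕ} {A B : SimpleGraph W} (h : A ≤ B)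
    {G : SimpleGraph (Fin n)} (hB : B.IsContained G) : A.IsContained G := by
  obtain ⟨f⟩ := hB
  exact ⟨⟨⟨f.toHom, fun {u v} huv => f.toHom.map_adj (h huv)⟩, f.injective⟩⟩

theorem bot_contained {W : Type*} [Fintype W] {n : ℕ} (hW : Fintype.card W ≤ n)
    (G : SimpleGraph (Fin n)) : (⊥ : SimpleGraph W).IsContained G := by
  obtain ⟨e⟩ : Nonempty (W ↪ Fin n) :=
    Function.Embedding.nonempty_of_card_le (by rwa [Fintype.card_fin])
  exact ⟨⟨⟨e, fun {u v} h => absurd h (by simp)⟩, e.injective⟩⟩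

theorem bernoulliProb_mono_set {ι : Type*} [Fintype ι] [DecidableEq ι] {q : ℝ} (h0 : 0 ≤ q)
    (h1 : q ≤ 1) {A B : Set (ι → Bool)} (h : A ⊆ B) :
    Crest.FinProb.bernoulliProb q A ≤ Crest.FinProb.bernoulliProb q B := by
  classical
  unfold Crest.FinProb.bernoulliProb
  refine Finset.sum_le_sum_of_subset_of_nonneg ?_ ?_
  · intro ω hω
    rw [mem_filter] at hω ⊢
    exact ⟨hω.1, h hω.2⟩
  · intro ω _ _
    unfold Crest.FinProb.bernoulliWeight
    refine prod_nonneg fun i _ => ?_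
    split_ifs
    · exact h0
    · linarith

theorem gnpProb_mono_set {n : ℕ} {q : ℝ} (h0 : 0 ≤ q) (h1 : q ≤ 1)
    {A B : Set (SimpleGraph (Fin n))} (h : A ⊆ B) : gnpProb n q A ≤ gnpProb n q B := by
  unfold gnpProb
  exact bernoulliProb_mono_set h0 h1 fun ω hω => h hω

/-- a smaller graph is contained with larger probability -/
theorem gnpProb_contained_mono {W : Type*} {n : ℕ} {q : ℝ} (h0 : 0 ≤ q) (h1 : q ≤ 1)
    {A B : SimpleGraph W} (h : A ≤ B) :
    gnpProb n q {G | B.IsContained G} ≤ gnpProb n q {G | A.IsContained G} :=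
  gnpProb_mono_set h0 h1 fun _ hG => contained_mono h hG

/-- FINAL GLUE: if the edges of `H` are covered by `m` graphs each of which has a good labelling by
`k` labels (`good` is stable under taking subgraphs), then `H` has a good labelling by `K` labels,
for every `K ≥ m * k`. -/
theorem glue_good {W : Type*} {m k K : ℕ} (hK : m * k ≤ K) (H : SimpleGraph W)
    (good : SimpleGraph W → Prop) (hgood : ∀ A B : SimpleGraph W, A ≤ B → good B → good A)
    (hbot : good ⊥) (F : Fin m → SimpleGraph W) (hF : ∀ u v, H.Adj u v → ∃ j, (F j).Adj u v)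
    (hc : ∀ j, ∃ c : (F j).edgeSet → Fin k, ∀ i, good (pieceGraph (F j) c i)) :
    ∃ c' : H.edgeSet → Fin K, ∀ i, good (pieceGraph H c' i) := by
  choose c hc using hc
  obtain ⟨c1, hc1⟩ := glue H F hF c
  obtain ⟨c2, hc2⟩ := pad hK H c1
  refine ⟨c2, fun i => ?_⟩
  rcases hc2 i with h | ⟨j, h⟩
  · rw [h]; exact hbot
  · rw [h]
    obtain ⟨a, b, hab⟩ := hc1 j
    exact hgood _ _ hab (hc a b)

/-- same with different numbers of labels -/
theorem glue_good' {W : Type*} {m k K : ℕ} (hK : m * k ≤ K) (H : SimpleGraph W)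
    (good : SimpleGraph W → Prop) (hgood : ∀ A B : SimpleGraph W, A ≤ B → good B → good A)
    (hbot : good ⊥) (F : Fin m → SimpleGraph W) (hF : ∀ u v, H.Adj u v → ∃ j, (F j).Adj u v)
    (κ : Fin m → ℕ) (hκ : ∀ j, κ j ≤ k)
    (hc : ∀ j, ∃ c : (F j).edgeSet → Fin (κ j), ∀ i, good (pieceGraph (F j) c i)) :
    ∃ c' : H.edgeSet → Fin K, ∀ i, good (pieceGraph H c' i) := by
  refine glue_good hK H good hgood hbot F hF fun j => ?_
  obtain ⟨c, hc⟩ := hc j
  obtain ⟨c2, hc2⟩ := pad (hκ j) (F j) c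
  refine ⟨c2, fun i => ?_⟩
  rcases hc2 i with h | ⟨a, h⟩
  · rw [h]; exact hbot
  · rw [h]; exact hc a

end Crest.TG48
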