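import Mathlib
import Crest.Agent.TG69_FM

/-! spread of hub classes for S0073 (helper69) -/

set_option autoImplicit false

namespace Crest.TG69
open Finset Crest.CombinatoricsR.RandomGraph

variable {n : ℕ} {W : Type} [Fintype W] [DecidableEq W]

/-- For a hub class: `Y v ⊆ J` neighbours of `v ∉ J`, at most `D` of them. -/
theorem spread_hub (H : SimpleGraph W) [DecidableRel H.Adj] (q : ℝ) (hq : 0 < q) (hq1 : q ≤ 1)
    (hn : 1 ≤ n) (ι : W ↪ Fin n) (hFM : FM H n q) (J : Finset W) (D : ℕ)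
    (hnum : (D : ℝ) * Real.log n ≤ 20 * n * q ^ D) (Y : W → Finset W)
    (hYJ : ∀ v, v ∉ J → Y v ⊆ J) (hY : ∀ v, v ∉ J → ∀ u ∈ Y v, H.Adj v u)
    (hYD : ∀ v, v ∉ J → (Y v).card ≤ D) (S : Finset W) (hS : S.Nonempty) :
    ((univ.filter (fun v => v ∉ J ∧ S ⊆ Y v)).card : ℝ) ≤ 20 * n * q ^ S.card := by
  classical
  set T := univ.filter (fun v => v ∉ J ∧ S ⊆ Y v) with hT
  rcases T.eq_empty_or_nonempty with hTe | ⟨v0, hv0⟩
  · rw [hTe]; simp; positivity
  have hv0' : v0 ∉ J ∧ S ⊆ Y v0 := by simpa [hT] using hv0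
  have hSJ : S ⊆ J := hv0'.2.trans (hYJ v0 hv0'.1)
  have hSD : S.card ≤ D := (card_le_card hv0'.2).trans (hYD v0 hv0'.1)
  have hdis : Disjoint S T := by
    rw [Finset.disjoint_left]
    intro a ha haT
    have : a ∉ J ∧ S ⊆ Y a := by simpa [hT] using haT
    exact this.1 (hSJ ha)
  have hadj : ∀ s ∈ S, ∀ t ∈ T, H.Adj s t := by
    intro s hs t ht
    have ht' : t ∉ J ∧ S ⊆ Y t := by simpa [hT] using ht
    exact (hY t ht'.1 s (ht'.2 hs)).symm
  have hqS : q ^ D ≤ q ^ S.card := pow_le_pow_of_le_one hq.le hq1 hSD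
  have hnR : (1 : ℝ) ≤ n := by exact_mod_cast hn
  have hlog : 0 ≤ Real.log n := Real.log_nonneg hnR
  rcases biclique_bound H q hq hn ι hFM S T hdis hadj with h | h
  · refine h.trans ?_
    have he : 2 * Real.exp 2 ≤ 20 := by
      have h1 : Real.exp 1 < 2.7182818286 := Real.exp_one_lt_d9
      have e2 : Real.exp 2 = Real.exp 1 * Real.exp 1 := by rw [← Real.exp_add]; norm_num
      have h0 : 0 < Real.exp 1 := Real.exp_pos 1
      rw [e2]; nlinarith
    have : 0 ≤ (n : ℝ) * q ^ S.card := by positivity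
    calc 2 * Real.exp 2 * n * q ^ S.card = 2 * Real.exp 2 * (n * q ^ S.card) := by ring
      _ ≤ 20 * (n * q ^ S.card) := mul_le_mul_of_nonneg_right he this
      _ = _ := by ring
  · refine h.trans ?_
    calc (S.card : ℝ) * Real.log n ≤ D * Real.log n :=
          mul_le_mul_of_nonneg_right (by exact_mod_cast hSD) hlog
      _ ≤ 20 * n * q ^ D := hnum
      _ ≤ 20 * n * q ^ S.card := mul_le_mul_of_nonneg_left hqS (by positivity)

end Crest.TG69
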