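import Mathlib

/-! S0073 dense range: deterministic split of the edges into LOW classes and HUB classes. -/

set_option autoImplicit false

namespace Crest.TG73
open Finset

/-- balanced colouring of a finite set -/
theorem exists_balanced {α : Type*} [DecidableEq α] (s : Finset α) (k : ℕ) (hk : 0 < k) :
    ∃ g : α → Fin k, ∀ i, (s.filter (fun u => g u = i)).card ≤ s.card / k + 1 := by
  classical
  let e := s.equivFin
  refine ⟨fun u => if h : u ∈ s then ⟨(e ⟨u, h⟩).1 % k, Nat.mod_lt _ hk⟩ else ⟨0, hk⟩, fun i => ?_⟩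
  -- inject into range (s.card / k + 1) through the quotient
  have h1 : (s.filter (fun u => (if h : u ∈ s then (⟨(e ⟨u, h⟩).1 % k, Nat.mod_lt _ hk⟩ : Fin k)
      else ⟨0, hk⟩) = i)).card ≤ (range (s.card / k + 1)).card := by
    apply Finset.card_le_card_of_injOn (fun u => if h : u ∈ s then (e ⟨u, h⟩).1 / k else 0)
    · intro u hu
      rw [mem_coe, mem_filter] at hu
      obtain ⟨hus, _⟩ := hu
      simp only [hus, dif_pos, coe_range, Set.mem_Iio]
      have := (e ⟨u, hus⟩).2
      exact Nat.lt_succ_of_le (Nat.div_le_div_right this.le)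
    · intro u hu v hv huv
      rw [mem_coe, mem_filter] at hu hv
      obtain ⟨hus, hu2⟩ := hu
      obtain ⟨hvs, hv2⟩ := hv
      simp only [hus, hvs, dif_pos] at hu2 hv2 huv
      have h2 : (e ⟨u, hus⟩).1 % k = (e ⟨v, hvs⟩).1 % k := by
        have := hu2.trans hv2.symm
        exact congrArg Fin.val this
      have h3 : (e ⟨u, hus⟩).1 = (e ⟨v, hvs⟩).1 := by
        rw [← Nat.div_add_mod (e ⟨u, hus⟩).1 k, ← Nat.div_add_mod (e ⟨v, hvs⟩).1 k, h2, huv]
      have h4 := e.injective (Fin.ext h3)
      exact congrArg Subtype.val h4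
  simpa using h1

theorem hub_card {W : Type*} [Fintype W] [DecidableEq W] (H : SimpleGraph W) [DecidableRel H.Adj]
    (σ : W → ℕ) (hσ : Function.Injective σ) (d Δ : ℕ)
    (hd : ∀ v, (univ.filter (fun u => H.Adj v u ∧ σ u < σ v)).card ≤ d) :
    (univ.filter (fun v => Δ < (univ.filter (fun u => H.Adj v u)).card)).card * Δ ≤
      2 * d * Fintype.card W := by
  classical
  have h1 : (univ.filter (fun v => Δ < (univ.filter (fun u => H.Adj v u)).card)).card * Δ ≤
      ∑ v : W, (univ.filter (fun u => H.Adj v u)).card := by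
    rw [← smul_eq_mul, ← Finset.sum_const]
    calc ∑ _v ∈ univ.filter (fun v => Δ < (univ.filter (fun u => H.Adj v u)).card), Δ
        ≤ ∑ v ∈ univ.filter (fun v => Δ < (univ.filter (fun u => H.Adj v u)).card),
            (univ.filter (fun u => H.Adj v u)).card :=
          Finset.sum_le_sum (fun v hv => (mem_filter.1 hv).2.le)
      _ ≤ ∑ v : W, (univ.filter (fun u => H.Adj v u)).card :=
          Finset.sum_le_sum_of_subset (filter_subset _ _)
  have h2 : ∀ v : W, (univ.filter (fun u => H.Adj v u)).card =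
      (univ.filter (fun u => H.Adj v u ∧ σ u < σ v)).card +
      (univ.filter (fun u => H.Adj v u ∧ σ v < σ u)).card := by
    intro v
    rw [← card_union_of_disjoint]
    · congr 1
      ext u
      simp only [mem_filter, mem_univ, true_and, mem_union]
      constructor
      · intro h
        rcases lt_trichotomy (σ u) (σ v) with h3 | h3 | h3
        · exact Or.inl ⟨h, h3⟩
        · exact absurd (hσ h3) h.ne'
        · exact Or.inr ⟨h, h3⟩
      · rintro (h | h)
        · exact h.1
        · exact h.1
    · rw [disjoint_left]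
      intro u hu hu2
      have a1 := (mem_filter.1 hu).2.2
      have a2 := (mem_filter.1 hu2).2.2
      omega
  have h3 : ∑ v : W, (univ.filter (fun u => H.Adj v u ∧ σ v < σ u)).card =
      ∑ v : W, (univ.filter (fun u => H.Adj v u ∧ σ u < σ v)).card := by
    simp only [card_filter]
    rw [Finset.sum_comm]
    refine Finset.sum_congr rfl fun v _ => Finset.sum_congr rfl fun u _ => ?_
    simp only [H.adj_comm]
  have h4 : ∑ v : W, (univ.filter (fun u => H.Adj v u ∧ σ u < σ v)).card ≤
      Fintype.card W * d := by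
    calc _ ≤ ∑ _v : W, d := Finset.sum_le_sum (fun v _ => hd v)
      _ = _ := by simp
  have h5 : ∑ v : W, (univ.filter (fun u => H.Adj v u)).card =
      2 * ∑ v : W, (univ.filter (fun u => H.Adj v u ∧ σ u < σ v)).card := by
    rw [Finset.sum_congr rfl (fun v _ => h2 v), Finset.sum_add_distrib, h3]
    ring
  rw [h5] at h1
  nlinarith

/-- the deterministic split -/
theorem dense_split {W : Type*} [Fintype W] [DecidableEq W] (H : SimpleGraph W)
    [DecidableRel H.Adj] (σ : W → ℕ) (hσ : Function.Injective σ) (d Δ k1 M : ℕ) (hk1 : 0 < k1)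
    (hM : 0 < M) (hd : ∀ v, (univ.filter (fun u => H.Adj v u ∧ σ u < σ v)).card ≤ d)
    (J : Finset W) (hJ : J = univ.filter (fun v => Δ < (univ.filter (fun u => H.Adj v u)).card)) :
    ∃ lab : Sym2 W → Bool × Fin k1 × Fin M × Fin M, ∀ i a b,
      -- LOW classes
      (∀ v, (univ.filter (fun u => (H.Adj v u ∧ lab s(v, u) = (true, i, a, b)) ∧
        σ u < σ v)).card ≤ d / k1 + 1) ∧
      (∀ v, (univ.filter (fun u => H.Adj v u ∧ lab s(v, u) = (true, i, a, b))).card ≤
        max Δ (J.card + d)) ∧
      (univ.filter (fun v => ∃ u, H.Adj v u ∧ lab s(v, u) = (true, i, a, b))).card ≤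
        2 * (Fintype.card W / M + 1) ∧
      -- HUB classes
      (∀ v u, H.Adj v u → lab s(v, u) = (false, i, a, b) →
        (u ∈ J ∧ v ∉ J ∧ σ u < σ v) ∨ (v ∈ J ∧ u ∉ J ∧ σ v < σ u)) ∧
      (∀ v, v ∉ J → (univ.filter (fun u => H.Adj v u ∧ lab s(v, u) = (false, i, a, b))).card ≤
        d / k1 + 1) ∧
      (univ.filter (fun v => v ∉ J ∧ ∃ u, H.Adj v u ∧ lab s(v, u) = (false, i, a, b))).card ≤
        Fintype.card W / M + 1 := by
  classical
  have hg : ∀ v : W, ∃ g : W → Fin k1, ∀ i,
      ((univ.filter (fun u => H.Adj v u ∧ σ u < σ v)).filter (fun u => g u = i)).card ≤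
        (univ.filter (fun u => H.Adj v u ∧ σ u < σ v)).card / k1 + 1 :=
    fun v => exists_balanced _ k1 hk1
  choose g hg using hg
  obtain ⟨π, hπ⟩ := exists_balanced (univ : Finset W) M hM
  let L : W → W → Bool × Fin k1 × Fin M × Fin M := fun v u =>
    (!(decide (u ∈ J ∧ v ∉ J)), g v u, π v, π u)
  have hsymm : ∀ u v : W, (if σ u < σ v then L v u else if σ v < σ u then L u v else L u u) =
      (if σ v < σ u then L u v else if σ u < σ v then L v u else L v v) := by
    intro u v
    rcases lt_trichotomy (σ u) (σ v) with h | h | h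
    · rw [if_pos h, if_neg (by omega), if_pos h]
    · have := hσ h
      subst this
      rfl
    · rw [if_neg (by omega), if_pos h, if_pos h]
  let lab : Sym2 W → Bool × Fin k1 × Fin M × Fin M :=
    Sym2.lift ⟨fun u v => if σ u < σ v then L v u else if σ v < σ u then L u v else L u u, hsymm⟩
  have hlab : ∀ u v : W, σ u < σ v → lab s(v, u) = L v u := by
    intro u v h
    show (if σ v < σ u then L u v else if σ u < σ v then L v u else L v v) = L v u
    rw [if_neg (by omega), if_pos h]
  have hlab' : ∀ u v : W, σ v < σ u → lab s(v, u) = L u v := by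
    intro u v h
    show (if σ v < σ u then L u v else if σ u < σ v then L v u else L v v) = L u v
    rw [if_pos h]
  have hdd : ∀ v i, ((univ.filter (fun u => H.Adj v u ∧ σ u < σ v)).filter
      (fun u => g v u = i)).card ≤ d / k1 + 1 := fun v i =>
    (hg v i).trans (Nat.add_le_add_right (Nat.div_le_div_right (hd v)) 1)
  have hπ' : ∀ a, (univ.filter (fun v => π v = a)).card ≤ Fintype.card W / M + 1 := fun a => by
    have := hπ a
    rwa [card_univ] at this
  have htri : ∀ v u : W, H.Adj v u → σ u < σ v ∨ σ v < σ u := by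
    intro v u h
    rcases lt_trichotomy (σ u) (σ v) with h3 | h3 | h3
    · exact Or.inl h3
    · exact absurd (hσ h3) h.ne'
    · exact Or.inr h3
  have hF4 : ∀ i a b v u, H.Adj v u → lab s(v, u) = (false, i, a, b) →
        (u ∈ J ∧ v ∉ J ∧ σ u < σ v) ∨ (v ∈ J ∧ u ∉ J ∧ σ v < σ u) := by
    intro i a b v u h1 h2
    rcases htri v u h1 with h3 | h3
    · left
      rw [hlab u v h3] at h2
      have h4 := congrArg Prod.fst h2
      simp only [L, Bool.not_eq_false', decide_eq_true_eq] at h4
      exact ⟨h4.1, h4.2, h3⟩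
    · right
      rw [hlab' u v h3] at h2
      have h4 := congrArg Prod.fst h2
      simp only [L, Bool.not_eq_false', decide_eq_true_eq] at h4
      exact ⟨h4.1, h4.2, h3⟩
  refine ⟨lab, fun i a b => ⟨?_, ?_, ?_, hF4 i a b, ?_, ?_⟩⟩
  · intro v
    refine le_trans (card_le_card ?_) (hdd v i)
    intro u hu
    obtain ⟨⟨h1, h2⟩, h3⟩ := (mem_filter.1 hu).2
    rw [hlab u v h3] at h2
    have h4 := congrArg (fun x => x.2.1) h2
    simp only [L] at h4
    exact mem_filter.2 ⟨mem_filter.2 ⟨mem_univ _, h1, h3⟩, h4⟩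
  · intro v
    by_cases hv : v ∈ J
    · refine le_trans (card_le_card (t := J ∪ univ.filter (fun u => H.Adj v u ∧ σ u < σ v)) ?_)
        (le_trans (card_union_le _ _) (le_trans (Nat.add_le_add_left (hd v) _) (le_max_right _ _)))
      intro u hu
      obtain ⟨h1, h2⟩ := (mem_filter.1 hu).2
      by_cases hu : u ∈ J
      · exact mem_union_left _ hu
      rcases htri v u h1 with h3 | h3
      · exact mem_union_right _ (mem_filter.2 ⟨mem_univ _, h1, h3⟩)
      · rw [hlab' u v h3] at h2
        have h4 := congrArg Prod.fst h2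
        simp only [L, Bool.not_eq_true', decide_eq_false_iff_not, not_and, not_not] at h4
        exact absurd (h4 hv) hu
    · refine le_trans (card_le_card (t := univ.filter (fun u => H.Adj v u)) ?_)
        (le_trans ?_ (le_max_left _ _))
      · intro u hu
        exact mem_filter.2 ⟨mem_univ _, (mem_filter.1 hu).2.1⟩
      · by_contra hc
        push Not at hc
        apply hv
        rw [hJ]
        exact mem_filter.2 ⟨mem_univ _, hc⟩
  · refine le_trans (card_le_card (t := univ.filter (fun v => π v = a) ∪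
      univ.filter (fun v => π v = b)) ?_) (le_trans (card_union_le _ _) ?_)
    · intro v hv
      obtain ⟨u, h1, h2⟩ := (mem_filter.1 hv).2
      rcases htri v u h1 with h3 | h3
      · rw [hlab u v h3] at h2
        have h4 := congrArg (fun x => x.2.2.1) h2
        simp only [L] at h4
        exact mem_union_left _ (mem_filter.2 ⟨mem_univ _, h4⟩)
      · rw [hlab' u v h3] at h2
        have h4 := congrArg (fun x => x.2.2.2) h2
        simp only [L] at h4
        exact mem_union_right _ (mem_filter.2 ⟨mem_univ _, h4⟩)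
    · have := hπ' a
      have := hπ' b
      omega
  · intro v hv
    refine le_trans (card_le_card ?_) (hdd v i)
    intro u hu
    obtain ⟨h1, h2⟩ := (mem_filter.1 hu).2
    rcases hF4 i a b v u h1 h2 with h3 | h3
    · rw [hlab u v h3.2.2] at h2
      have h4 := congrArg (fun x => x.2.1) h2
      simp only [L] at h4
      exact mem_filter.2 ⟨mem_filter.2 ⟨mem_univ _, h1, h3.2.2⟩, h4⟩
    · exact absurd h3.1 hv
  · refine le_trans (card_le_card ?_) (hπ' a)
    intro v hv
    obtain ⟨hvJ, u, h1, h2⟩ := (mem_filter.1 hv).2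
    rcases hF4 i a b v u h1 h2 with h3 | h3
    · rw [hlab u v h3.2.2] at h2
      have h4 := congrArg (fun x => x.2.2.1) h2
      simp only [L] at h4
      exact mem_filter.2 ⟨mem_univ _, h4⟩
    · exact absurd h3.1 hvJ

end Crest.TG73
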