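import Mathlib

/-!
# S0073 numerics (helper63): eventual inequalities
-/

set_option autoImplicit false

namespace Crest.TG63

open Filter Asymptotics Real

/-- `C (log n)^K n^a ≤ n^b` for large `n` when `a < b`. -/
theorem ev_log (C : ℝ) (K : ℕ) (a b : ℝ) (hab : a < b) :
    ∃ n0 : ℕ, ∀ n : ℕ, n0 ≤ n → C * (Real.log n) ^ K * (n : ℝ) ^ a ≤ (n : ℝ) ^ b := by
  have h1 : (fun x : ℝ => Real.log x ^ (K : ℝ)) =o[atTop] fun x => x ^ (b - a) :=
    isLittleO_log_rpow_rpow_atTop (K : ℝ) (sub_pos.2 hab)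
  have h2 := h1.bound (show (0 : ℝ) < 1 / (|C| + 1) by positivity)
  obtain ⟨x0, hx0⟩ := Filter.eventually_atTop.1 h2
  refine ⟨max 1 (Nat.ceil x0), fun n hn => ?_⟩
  have hn1 : 1 ≤ n := le_trans (le_max_left _ _) hn
  have hnx : x0 ≤ (n : ℝ) := le_trans (Nat.le_ceil x0) (by exact_mod_cast le_trans (le_max_right _ _) hn)
  have h3 := hx0 n hnx
  have hn0 : (0 : ℝ) < n := by exact_mod_cast hn1
  have hlog : 0 ≤ Real.log n := Real.log_natCast_nonneg n
  have h4 : Real.log (n : ℝ) ^ K ≤ 1 / (|C| + 1) * (n : ℝ) ^ (b - a) := by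
    have e1 : ‖Real.log (n : ℝ) ^ (K : ℝ)‖ = Real.log (n : ℝ) ^ K := by
      rw [Real.rpow_natCast, Real.norm_of_nonneg (pow_nonneg hlog K)]
    have e2 : ‖(n : ℝ) ^ (b - a)‖ = (n : ℝ) ^ (b - a) :=
      Real.norm_of_nonneg (Real.rpow_nonneg hn0.le _)
    rw [e1, e2] at h3
    exact h3
  have hna : 0 < (n : ℝ) ^ a := Real.rpow_pos_of_pos hn0 a
  have hnba : 0 < (n : ℝ) ^ (b - a) := Real.rpow_pos_of_pos hn0 _
  have h5 : C * (Real.log n) ^ K ≤ (n : ℝ) ^ (b - a) := by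
    calc C * (Real.log n) ^ K ≤ (|C| + 1) * (Real.log n) ^ K := by
            apply mul_le_mul_of_nonneg_right _ (pow_nonneg hlog K)
            linarith [le_abs_self C]
      _ ≤ (|C| + 1) * (1 / (|C| + 1) * (n : ℝ) ^ (b - a)) :=
            mul_le_mul_of_nonneg_left h4 (by positivity)
      _ = (n : ℝ) ^ (b - a) := by
            have : (|C| + 1) ≠ 0 := by positivity
            field_simp
  calc C * (Real.log n) ^ K * (n : ℝ) ^ a ≤ (n : ℝ) ^ (b - a) * (n : ℝ) ^ a :=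
        mul_le_mul_of_nonneg_right h5 hna.le
    _ = (n : ℝ) ^ b := by rw [← Real.rpow_add hn0]; congr 1; ring

/-- `C (log n)^K ≤ n^b` for large `n`, `b > 0`. -/
theorem ev_log' (C : ℝ) (K : ℕ) (b : ℝ) (hb : 0 < b) :
    ∃ n0 : ℕ, ∀ n : ℕ, n0 ≤ n → C * (Real.log n) ^ K ≤ (n : ℝ) ^ b := by
  obtain ⟨n0, h⟩ := ev_log C K 0 b hb
  refine ⟨n0, fun n hn => ?_⟩
  have := h n hn
  simpa using this

/-- `C n^K exp(-c n^a) ≤ 1` for large `n`, `a, c > 0`. -/
theorem ev_exp (C : ℝ) (K : ℕ) (c a : ℝ) (hc : 0 < c) (ha : 0 < a) :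
    ∃ n0 : ℕ, ∀ n : ℕ, n0 ≤ n → C * (n : ℝ) ^ K * Real.exp (-(c * (n : ℝ) ^ a)) ≤ 1 := by
  -- `c n^a ≥ K log n + log (|C|+1)`
  obtain ⟨n1, h1⟩ := ev_log' (2 * K / c) 1 a ha
  obtain ⟨n2, h2⟩ := ev_log' (2 * Real.log (|C| + 1) / c) 0 a ha
  refine ⟨max 1 (max n1 n2), fun n hn => ?_⟩
  have hn1 : 1 ≤ n := le_trans (le_max_left _ _) hn
  have hA := h1 n (le_trans (le_trans (le_max_left _ _) (le_max_right _ _)) hn)
  have hB := h2 n (le_trans (le_trans (le_max_right _ _) (le_max_right _ _)) hn)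
  have hn0 : (0 : ℝ) < n := by exact_mod_cast hn1
  rw [pow_one] at hA
  rw [pow_zero, mul_one] at hB
  have hA' : 2 * K * Real.log n ≤ c * (n : ℝ) ^ a := by
    have := mul_le_mul_of_nonneg_left hA hc.le
    have e : c * (2 * K / c * Real.log n) = 2 * K * Real.log n := by field_simp
    rwa [e] at this
  have hB' : 2 * Real.log (|C| + 1) ≤ c * (n : ℝ) ^ a := by
    have := mul_le_mul_of_nonneg_left hB hc.le
    have e : c * (2 * Real.log (|C| + 1) / c) = 2 * Real.log (|C| + 1) := by field_simp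
    rwa [e] at this
  have hkey : K * Real.log n + Real.log (|C| + 1) ≤ c * (n : ℝ) ^ a := by linarith
  have hC0 : 0 < |C| + 1 := by positivity
  have e1 : (n : ℝ) ^ K = Real.exp (K * Real.log n) := by
    rw [mul_comm, Real.exp_mul, Real.exp_log hn0, Real.rpow_natCast]
  calc C * (n : ℝ) ^ K * Real.exp (-(c * (n : ℝ) ^ a))
      ≤ (|C| + 1) * (n : ℝ) ^ K * Real.exp (-(c * (n : ℝ) ^ a)) := by
        apply mul_le_mul_of_nonneg_right _ (Real.exp_pos _).le
        apply mul_le_mul_of_nonneg_right _ (by positivity)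
        linarith [le_abs_self C]
    _ = Real.exp (Real.log (|C| + 1) + K * Real.log n - c * (n : ℝ) ^ a) := by
        rw [Real.exp_sub, Real.exp_add, Real.exp_log hC0, ← e1, Real.exp_neg]
        rfl
    _ ≤ 1 := by
        rw [Real.exp_le_one_iff]
        linarith

/-- `q^D ≥ n^(-g)` if `D ≤ g * log n / log (1/q)`. -/
theorem q_pow_ge {n : ℕ} {q g : ℝ} (hn : 1 ≤ n) (hq0 : 0 < q) (hq1 : q < 1) (D : ℕ)
    (hD : (D : ℝ) ≤ g * (Real.log n / Real.log (1 / q))) : (n : ℝ) ^ (-g) ≤ q ^ D := by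
  have hn0 : (0 : ℝ) < n := by exact_mod_cast hn
  have hl : 0 < Real.log (1 / q) := Real.log_pos (by rw [lt_div_iff₀ hq0]; linarith)
  have h1 : (D : ℝ) * Real.log (1 / q) ≤ g * Real.log n := by
    have := mul_le_mul_of_nonneg_right hD hl.le
    have e : g * (Real.log n / Real.log (1 / q)) * Real.log (1 / q) = g * Real.log n := by
      field_simp
    rwa [e] at this
  have h2 : Real.log (1 / q) = -Real.log q := by rw [one_div, Real.log_inv]
  rw [h2] at h1
  rw [Real.rpow_def_of_pos hn0]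
  have e3 : q ^ D = Real.exp (D * Real.log q) := by
    rw [mul_comm, Real.exp_mul, Real.exp_log hq0, Real.rpow_natCast]
  rw [e3]
  apply Real.exp_le_exp.2
  nlinarith

/-- `b = log n / log (1/q) ≥ b0` iff `q ≥ n^(-1/b0)`. -/
theorem b_ge {n : ℕ} {q b0 : ℝ} (hn : 1 ≤ n) (hq0 : 0 < q) (hq1 : q < 1) (hb0 : 0 < b0)
    (hq : (n : ℝ) ^ (-(1 / b0)) ≤ q) : b0 ≤ Real.log n / Real.log (1 / q) := by
  have hn0 : (0 : ℝ) < n := by exact_mod_cast hn
  have hl : 0 < Real.log (1 / q) := Real.log_pos (by rw [lt_div_iff₀ hq0]; linarith)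
  have h1 := Real.log_le_log (Real.rpow_pos_of_pos hn0 _) hq
  rw [Real.log_rpow hn0] at h1
  have h2 : Real.log (1 / q) = -Real.log q := by rw [one_div, Real.log_inv]
  rw [le_div_iff₀ hl, h2]
  have h3 : b0 * (-(1 / b0) * Real.log n) ≤ b0 * Real.log q := mul_le_mul_of_nonneg_left h1 hb0.le
  have e : b0 * (-(1 / b0) * Real.log n) = - Real.log n := by field_simp
  rw [e] at h3
  linarith

/-- `b ≤ log n / log L` if `L q < 1`. -/
theorem b_le {n : ℕ} {q L : ℝ} (hn : 1 ≤ n) (hq0 : 0 < q) (hL : 1 < L) (hLq : L * q < 1) :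
    Real.log n / Real.log (1 / q) ≤ Real.log n / Real.log L := by
  have hlL : 0 < Real.log L := Real.log_pos hL
  have h1 : Real.log L ≤ Real.log (1 / q) := by
    apply Real.log_le_log (by linarith)
    rw [le_div_iff₀ hq0]; exact hLq.le
  exact div_le_div_of_nonneg_left (Real.log_natCast_nonneg n) hlL h1

end Crest.TG63
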