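import Mathlib
import Crest.Agent.TG_Degen
import Crest.Agent.TG63_Num
import Crest.Agent.TG94_Num

/-! Sub-assemblies for the dense range of S0073. -/

set_option autoImplicit false
set_option linter.unusedVariables false
set_option linter.unusedSectionVars false

namespace Crest.TG96
open Finset Crest.CombinatoricsR.RandomGraph

/-- degeneracy order from the density bound -/
theorem order_exists_le : ∃ n0 : ℕ, ∀ n : ℕ, n0 ≤ n →
    ∀ (W : Type) [Fintype W] [DecidableEq W] (H : SimpleGraph W) [DecidableRel H.Adj] (q : ℝ),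
      0 < q → q ≤ 1 / 2 → 1 ≤ q ^ 1000 * (n : ℝ) →
      (∀ U : Finset W, U.Nonempty → (1 : ℝ) / 2 ≤ (n : ℝ) ^ U.card *
        q ^ (H.edgeFinset.filter (fun e => ∀ x ∈ e, x ∈ U)).card) →
      ∃ (d : ℕ) (σ : W ≃ Fin (Fintype.card W)),
        (∀ v, (univ.filter (fun u => H.Adj v u ∧ σ u < σ v)).card ≤ d) ∧
        (n : ℝ) ^ (-(1 / 100) : ℝ) ≤ q ^ (d / 400 + 1) ∧ (d : ℝ) ≤ (n : ℝ) ^ (1 / 100 : ℝ) := by
  obtain ⟨n1, h1⟩ := Crest.TG63.ev_log' 8 1 (1 / 100) (by norm_num)
  refine ⟨max n1 8, ?_⟩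
  intro n hn W _ _ H _ q hq0 hq2 hqn hden
  have hn1 := h1 n (le_trans (le_max_left _ _) hn)
  have hn8 : 8 ≤ n := le_trans (le_max_right _ _) hn
  have hn0 : (0 : ℝ) < n := by positivity
  have hlogn : 2 ≤ Real.log n := by
    have h3 : Real.exp 2 ≤ 8 := by
      have := Real.exp_one_lt_d9
      have h4 : Real.exp 2 = Real.exp 1 * Real.exp 1 := by rw [← Real.exp_add]; norm_num
      rw [h4]
      nlinarith [Real.exp_pos 1]
    rw [Real.le_log_iff_exp_le hn0]
    have : (8 : ℝ) ≤ n := by exact_mod_cast hn8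
    linarith
  set l : ℝ := Real.log (1 / q) with hl
  have hlq : Real.log q = - l := by rw [hl, one_div, Real.log_inv]; ring
  have hl2 : Real.log 2 ≤ l := by
    apply Real.log_le_log (by norm_num)
    rw [le_div_iff₀ hq0]; linarith
  have hlog2 : (1 : ℝ) / 2 < Real.log 2 := by
    have := Real.log_two_gt_d9; linarith
  have hl0 : 0 < l := by linarith
  have hln : 1000 * l ≤ Real.log n := by
    have h3 := Real.log_le_log (by norm_num) hqn
    rw [Real.log_one, Real.log_mul (by positivity) (by positivity), Real.log_pow, hlq] at h3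
    push_cast at h3
    linarith
  set b : ℝ := Real.log n / l with hb
  have hbl : b * l = Real.log n := by rw [hb]; field_simp
  have hb0 : 0 < b := by rw [hb]; positivity
  have hedge : ∀ U : Finset W, ((H.edgeFinset.filter (fun e => ∀ x ∈ e, x ∈ U)).card : ℝ) ≤
      (b + 1) * U.card := by
    intro U
    rcases U.eq_empty_or_nonempty with rfl | hU
    · have : (H.edgeFinset.filter (fun e => ∀ x ∈ e, x ∈ (∅ : Finset W))) = ∅ := by
        rw [Finset.filter_eq_empty_iff]
        intro e _ he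
        induction e using Sym2.ind with
        | _ x y => exact absurd (he x (Sym2.mem_mk_left x y)) (by simp)
      rw [this]; simp
    · set e := (H.edgeFinset.filter (fun e => ∀ x ∈ e, x ∈ U)).card with he
      have h3 := Real.log_le_log (by norm_num) (hden U hU)
      rw [Real.log_mul (by positivity) (by positivity), Real.log_pow, Real.log_pow, hlq] at h3
      have h4 : Real.log (1 / 2 : ℝ) = - Real.log 2 := by rw [one_div, Real.log_inv]
      rw [h4] at h3
      have h5 : (e : ℝ) * l ≤ (U.card * b + 1) * l := by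
        have : (U.card * b + 1) * l = U.card * (b * l) + l := by ring
        rw [this, hbl]
        linarith
      have h6 : (e : ℝ) ≤ U.card * b + 1 := le_of_mul_le_mul_right h5 hl0
      have h7 : (1 : ℝ) ≤ U.card := by exact_mod_cast hU.card_pos
      nlinarith
  set d : ℕ := ⌊2 * (b + 1)⌋₊ with hd
  have hdle : (d : ℝ) ≤ 2 * (b + 1) := Nat.floor_le (by positivity)
  obtain ⟨σ, hσ⟩ := Crest.TG.Degen.exists_order H d (by
    intro U hU
    obtain ⟨v, hv, hv2⟩ := Crest.TG.Degen.exists_low_degree H (b + 1) hedge U hU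
    exact ⟨v, hv, Nat.le_floor hv2⟩)
  refine ⟨d, σ, hσ, ?_, ?_⟩
  · have h3 : ((d / 400 + 1 : ℕ) : ℝ) ≤ 2 * (b + 1) / 400 + 1 := by
      push_cast
      have : ((d / 400 : ℕ) : ℝ) ≤ (d : ℝ) / 400 := Nat.cast_div_le
      linarith
    have h4 : Real.log ((n : ℝ) ^ (-(1 / 100) : ℝ)) ≤ Real.log (q ^ (d / 400 + 1)) := by
      rw [Real.log_rpow hn0, Real.log_pow, hlq]
      have h5 : ((d / 400 + 1 : ℕ) : ℝ) * l ≤ (2 * (b + 1) / 400 + 1) * l :=
        mul_le_mul_of_nonneg_right h3 hl0.le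
      have h6 : (2 * (b + 1) / 400 + 1) * l = 2 * (b * l) / 400 + (2 / 400 + 1) * l := by ring
      rw [h6, hbl] at h5
      linarith
    exact (Real.log_le_log_iff (by positivity) (by positivity)).1 h4
  · have h3 : b ≤ 2 * Real.log n := by
      rw [hb, div_le_iff₀ hl0]
      nlinarith
    calc (d : ℝ) ≤ 2 * (b + 1) := hdle
      _ ≤ 8 * Real.log n ^ 1 := by rw [pow_one]; linarith
      _ ≤ _ := hn1

theorem order_exists : ∃ n0 : ℕ, ∀ n : ℕ, n0 ≤ n →
    ∀ (W : Type) [Fintype W] [DecidableEq W] (H : SimpleGraph W) [DecidableRel H.Adj] (q : ℝ),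
      0 < q → q ≤ 1 / 2 → 1 < q ^ 1000 * (n : ℝ) →
      (∀ U : Finset W, U.Nonempty → (1 : ℝ) / 2 ≤ (n : ℝ) ^ U.card *
        q ^ (H.edgeFinset.filter (fun e => ∀ x ∈ e, x ∈ U)).card) →
      ∃ (d : ℕ) (σ : W ≃ Fin (Fintype.card W)),
        (∀ v, (univ.filter (fun u => H.Adj v u ∧ σ u < σ v)).card ≤ d) ∧
        (n : ℝ) ^ (-(1 / 100) : ℝ) ≤ q ^ (d / 400 + 1) ∧ (d : ℝ) ≤ (n : ℝ) ^ (1 / 100 : ℝ) := by
  obtain ⟨n0, h⟩ := order_exists_le
  refine ⟨n0, ?_⟩
  intro n hn W _ _ H _ q hq0 hq2 hqn hden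
  exact h n hn W H q hq0 hq2 hqn.le hden

end Crest.TG96
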