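import Mathlib
import Crest.Prelude.Def_FinProb
import Crest.Prelude.Def_HypergraphCube
import Crest.Prelude.Def_RandomGraph

/-!
Row S0077 (S0077 + S0078), helper71.
Basic analysis on the `p`-biased cube `ι → Bool`: expectation `ex`, averaging operator `av`,
characters `chi`, Fourier coefficients `fc`.
-/

set_option autoImplicit false
open Finset Crest Crest.FinProb

namespace Crest.Agent.S0077

section Cube
variable {ι : Type*} [Fintype ι] [DecidableEq ι]

/-- expectation under the `p`-biased product measure -/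
noncomputable def ex (p : ℝ) (F : (ι → Bool) → ℝ) : ℝ := ∑ ω, bernoulliWeight p ω * F ω

/-- average over the coordinates in `A`, the others being frozen -/
noncomputable def av (p : ℝ) (A : Finset ι) (F : (ι → Bool) → ℝ) (ω : ι → Bool) : ℝ :=
  ex p (fun ω' => F (A.piecewise ω' ω))

/-- the normalised single coordinate function -/
noncomputable def phi (p : ℝ) (b : Bool) : ℝ := (if b then 1 - p else -p) / Real.sqrt (p * (1 - p))

/-- characters -/
noncomputable def chi (p : ℝ) (S : Finset ι) (ω : ι → Bool) : ℝ := ∏ i ∈ S, phi p (ω i)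

/-- Fourier coefficients -/
noncomputable def fc (p : ℝ) (F : (ι → Bool) → ℝ) (S : Finset ι) : ℝ :=
  ex p (fun ω => F ω * chi p S ω)

/-- evaluation of a Fourier series -/
noncomputable def ev (p : ℝ) (c : Finset ι → ℝ) (ω : ι → Bool) : ℝ := ∑ S, c S * chi p S ω

/-- indicator of a Boolean function as a real function -/
def ind {α : Type*} (f : α → Bool) (x : α) : ℝ := if f x = true then 1 else 0

/-- pivotality indicator -/
def piv (f : (ι → Bool) → Bool) (e : ι) (ω : ι → Bool) : ℝ :=
  if f (Function.update ω e true) ≠ f (Function.update ω e false) then 1 else 0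

/-- `G` does not depend on the coordinates in `A` -/
def IndepOf (A : Finset ι) (G : (ι → Bool) → ℝ) : Prop :=
  ∀ ω ω' : ι → Bool, (∀ i, i ∉ A → ω i = ω' i) → G ω = G ω'

/-! ### expectation -/

omit [DecidableEq ι] in
theorem bernoulliWeight_nonneg {p : ℝ} (h0 : 0 ≤ p) (h1 : p ≤ 1) (ω : ι → Bool) :
    0 ≤ bernoulliWeight p ω := by
  unfold bernoulliWeight
  apply Finset.prod_nonneg
  intro i _
  split_ifs <;> linarith

theorem ex_prod (p : ℝ) (u : ι → Bool → ℝ) :
    ex p (fun ω => ∏ i, u i (ω i)) = ∏ i, (p * u i true + (1 - p) * u i false) := by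
  unfold ex bernoulliWeight
  have h : ∀ i : ι, p * u i true + (1 - p) * u i false
      = ∑ b : Bool, (if b then p else 1 - p) * u i b := by
    intro i; simp
  simp_rw [h]
  rw [Finset.prod_univ_sum]
  simp only [Fintype.piFinset_univ, ← Finset.prod_mul_distrib]

theorem ex_const (p : ℝ) (c : ℝ) : ex p (fun _ : ι → Bool => c) = c := by
  have h := ex_prod (ι := ι) p (fun _ _ => 1)
  simp only [Finset.prod_const_one, mul_one, add_sub_cancel] at h
  unfold ex at h ⊢
  rw [← Finset.sum_mul]
  simp only [mul_one] at h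
  rw [h, one_mul]

theorem ex_add (p : ℝ) (F G : (ι → Bool) → ℝ) :
    ex p (fun ω => F ω + G ω) = ex p F + ex p G := by
  unfold ex; rw [← Finset.sum_add_distrib]; exact Finset.sum_congr rfl (fun _ _ => by ring)

theorem ex_sub (p : ℝ) (F G : (ι → Bool) → ℝ) :
    ex p (fun ω => F ω - G ω) = ex p F - ex p G := by
  unfold ex; rw [← Finset.sum_sub_distrib]; exact Finset.sum_congr rfl (fun _ _ => by ring)

theorem ex_mul_left (p c : ℝ) (F : (ι → Bool) → ℝ) :
    ex p (fun ω => c * F ω) = c * ex p F := by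
  unfold ex; rw [Finset.mul_sum]; exact Finset.sum_congr rfl (fun _ _ => by ring)

theorem ex_mul_right (p c : ℝ) (F : (ι → Bool) → ℝ) :
    ex p (fun ω => F ω * c) = ex p F * c := by
  unfold ex; rw [Finset.sum_mul]; exact Finset.sum_congr rfl (fun _ _ => by ring)

theorem ex_sum {κ : Type*} (s : Finset κ) (p : ℝ) (F : κ → (ι → Bool) → ℝ) :
    ex p (fun ω => ∑ k ∈ s, F k ω) = ∑ k ∈ s, ex p (F k) := by
  unfold ex; rw [Finset.sum_comm]; exact Finset.sum_congr rfl (fun _ _ => by rw [Finset.mul_sum])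

theorem ex_mono {p : ℝ} (h0 : 0 ≤ p) (h1 : p ≤ 1) {F G : (ι → Bool) → ℝ} (h : ∀ ω, F ω ≤ G ω) :
    ex p F ≤ ex p G := by
  unfold ex
  exact Finset.sum_le_sum (fun ω _ => mul_le_mul_of_nonneg_left (h ω) (bernoulliWeight_nonneg h0 h1 ω))

theorem ex_nonneg {p : ℝ} (h0 : 0 ≤ p) (h1 : p ≤ 1) {F : (ι → Bool) → ℝ} (h : ∀ ω, 0 ≤ F ω) :
    0 ≤ ex p F := by
  unfold ex
  exact Finset.sum_nonneg (fun ω _ => mul_nonneg (bernoulliWeight_nonneg h0 h1 ω) (h ω))

/-- Cauchy–Schwarz -/
theorem ex_mul_sq_le {p : ℝ} (h0 : 0 ≤ p) (h1 : p ≤ 1) (F G : (ι → Bool) → ℝ) :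
    (ex p (fun ω => F ω * G ω)) ^ 2 ≤ ex p (fun ω => F ω ^ 2) * ex p (fun ω => G ω ^ 2) := by
  unfold ex
  have h := Finset.sum_mul_sq_le_sq_mul_sq (Finset.univ : Finset (ι → Bool))
    (fun ω => Real.sqrt (bernoulliWeight p ω) * F ω) (fun ω => Real.sqrt (bernoulliWeight p ω) * G ω)
  have e1 : ∀ ω : ι → Bool, (Real.sqrt (bernoulliWeight p ω) * F ω) * (Real.sqrt (bernoulliWeight p ω) * G ω)
      = bernoulliWeight p ω * (F ω * G ω) := by
    intro ω
    have := Real.mul_self_sqrt (bernoulliWeight_nonneg h0 h1 ω)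
    calc _ = (Real.sqrt (bernoulliWeight p ω) * Real.sqrt (bernoulliWeight p ω)) * (F ω * G ω) := by ring
      _ = _ := by rw [this]
  have e2 : ∀ (H : (ι → Bool) → ℝ) (ω : ι → Bool), (Real.sqrt (bernoulliWeight p ω) * H ω) ^ 2
      = bernoulliWeight p ω * H ω ^ 2 := by
    intro H ω
    rw [mul_pow, Real.sq_sqrt (bernoulliWeight_nonneg h0 h1 ω)]
  simp only [e1, e2] at h
  exact h

omit [DecidableEq ι] in
theorem bernoulliWeight_comp_perm (p : ℝ) (τ : Equiv.Perm ι) (ω : ι → Bool) :
    bernoulliWeight p (ω ∘ τ) = bernoulliWeight p ω := by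
  unfold bernoulliWeight
  exact Equiv.prod_comp τ (fun i => if ω i then p else 1 - p)

/-- relabelling the coordinates -/
theorem ex_comp_perm (p : ℝ) (τ : Equiv.Perm ι) (F : (ι → Bool) → ℝ) :
    ex p (fun ω => F (ω ∘ τ)) = ex p F := by
  unfold ex
  have := Equiv.sum_comp (Equiv.arrowCongr τ.symm (Equiv.refl Bool))
    (fun ω => bernoulliWeight p ω * F ω)
  rw [← this]
  apply Finset.sum_congr rfl
  intro ω _
  have : (Equiv.arrowCongr τ.symm (Equiv.refl Bool)) ω = ω ∘ τ := by
    ext i; simp [Equiv.arrowCongr]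
  rw [this, bernoulliWeight_comp_perm]

/-! ### averaging operators -/

omit [Fintype ι] in
theorem piecewise_piecewise_aux (A B : Finset ι) (ω ω' ω'' : ι → Bool) :
    B.piecewise ω'' (A.piecewise ω' ω) = (A ∪ B).piecewise (B.piecewise ω'' ω') ω := by
  ext i
  simp only [Finset.piecewise, Finset.mem_union]
  by_cases hA : i ∈ A <;> by_cases hB : i ∈ B <;> simp [hA, hB]

theorem weight_swap (p : ℝ) (B : Finset ι) (ω' ω'' : ι → Bool) :
    bernoulliWeight p (B.piecewise ω'' ω') * bernoulliWeight p (B.piecewise ω' ω'')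
      = bernoulliWeight p ω' * bernoulliWeight p ω'' := by
  unfold bernoulliWeight
  rw [← Finset.prod_mul_distrib, ← Finset.prod_mul_distrib]
  apply Finset.prod_congr rfl
  intro i _
  by_cases hB : i ∈ B
  · simp only [Finset.piecewise, hB, if_true]; ring
  · simp only [Finset.piecewise, hB, if_false]

theorem ex_ex_piecewise (p : ℝ) (B : Finset ι) (G : (ι → Bool) → ℝ) :
    ex p (fun ω' => ex p (fun ω'' => G (B.piecewise ω'' ω'))) = ex p G := by
  have h1 : ex p (fun ω' => ex p (fun ω'' => G (B.piecewise ω'' ω')))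
      = ∑ z : (ι → Bool) × (ι → Bool),
        bernoulliWeight p z.1 * bernoulliWeight p z.2 * G (B.piecewise z.2 z.1) := by
    unfold ex
    rw [Fintype.sum_prod_type]
    apply Finset.sum_congr rfl; intro x _
    rw [Finset.mul_sum]
    apply Finset.sum_congr rfl; intro y _
    ring
  have h2 : ex p G = ∑ z : (ι → Bool) × (ι → Bool),
        bernoulliWeight p z.1 * bernoulliWeight p z.2 * G z.1 := by
    unfold ex
    rw [Fintype.sum_prod_type]
    apply Finset.sum_congr rfl; intro x _
    have hc := ex_const (ι := ι) p 1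
    unfold ex at hc
    simp only [mul_one] at hc
    calc bernoulliWeight p x * G x = bernoulliWeight p x * G x * ∑ y : ι → Bool, bernoulliWeight p y := by
          rw [hc, mul_one]
      _ = _ := by rw [Finset.mul_sum]; apply Finset.sum_congr rfl; intro y _; ring
  rw [h1, h2]
  let E : ((ι → Bool) × (ι → Bool)) → ((ι → Bool) × (ι → Bool)) :=
    fun z => (B.piecewise z.2 z.1, B.piecewise z.1 z.2)
  have hE : Function.Involutive E := by
    intro z
    ext i
    · simp only [E, Finset.piecewise]; by_cases hB : i ∈ B <;> simp [hB]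
    · simp only [E, Finset.piecewise]; by_cases hB : i ∈ B <;> simp [hB]
  have := Equiv.sum_comp (hE.toPerm) (fun z : (ι → Bool) × (ι → Bool) =>
    bernoulliWeight p z.1 * bernoulliWeight p z.2 * G z.1)
  rw [← this]
  apply Finset.sum_congr rfl
  intro z _
  simp only [Function.Involutive.coe_toPerm, E]
  rw [weight_swap]

theorem ex_av (p : ℝ) (A : Finset ι) (F : (ι → Bool) → ℝ) : ex p (av p A F) = ex p F := by
  unfold av
  exact ex_ex_piecewise p A F

theorem av_av (p : ℝ) (A B : Finset ι) (F : (ι → Bool) → ℝ) (ω : ι → Bool) :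
    av p A (av p B F) ω = av p (A ∪ B) F ω := by
  unfold av
  simp only [piecewise_piecewise_aux]
  exact ex_ex_piecewise p B (fun η => F ((A ∪ B).piecewise η ω))

theorem av_empty (p : ℝ) (F : (ι → Bool) → ℝ) (ω : ι → Bool) : av p ∅ F ω = F ω := by
  unfold av
  simp only [Finset.piecewise_empty]
  exact ex_const p (F ω)

theorem av_const (p : ℝ) (A : Finset ι) (c : ℝ) (ω : ι → Bool) :
    av p A (fun _ => c) ω = c := by
  unfold av; exact ex_const p c

theorem av_add (p : ℝ) (A : Finset ι) (F G : (ι → Bool) → ℝ) (ω : ι → Bool) :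
    av p A (fun ω => F ω + G ω) ω = av p A F ω + av p A G ω := by
  unfold av; exact ex_add p _ _

theorem av_sub (p : ℝ) (A : Finset ι) (F G : (ι → Bool) → ℝ) (ω : ι → Bool) :
    av p A (fun ω => F ω - G ω) ω = av p A F ω - av p A G ω := by
  unfold av; exact ex_sub p _ _

theorem av_mul_left (p : ℝ) (A : Finset ι) (c : ℝ) (F : (ι → Bool) → ℝ) (ω : ι → Bool) :
    av p A (fun ω => c * F ω) ω = c * av p A F ω := by
  unfold av; exact ex_mul_left p _ _

theorem av_sum {κ : Type*} (s : Finset κ) (p : ℝ) (A : Finset ι) (F : κ → (ι → Bool) → ℝ)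
    (ω : ι → Bool) :
    av p A (fun ω => ∑ k ∈ s, F k ω) ω = ∑ k ∈ s, av p A (F k) ω := by
  unfold av; exact ex_sum s p _

theorem av_mono {p : ℝ} (h0 : 0 ≤ p) (h1 : p ≤ 1) (A : Finset ι) {F G : (ι → Bool) → ℝ}
    (h : ∀ ω, F ω ≤ G ω) (ω : ι → Bool) : av p A F ω ≤ av p A G ω := by
  unfold av; exact ex_mono h0 h1 (fun ω' => h _)

theorem av_nonneg {p : ℝ} (h0 : 0 ≤ p) (h1 : p ≤ 1) (A : Finset ι) {F : (ι → Bool) → ℝ}
    (h : ∀ ω, 0 ≤ F ω) (ω : ι → Bool) : 0 ≤ av p A F ω := by
  unfold av; exact ex_nonneg h0 h1 (fun ω' => h _)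

/-- `av p A F` does not depend on the coordinates in `A`. -/
theorem av_indepOf (p : ℝ) (A : Finset ι) (F : (ι → Bool) → ℝ) : IndepOf A (av p A F) := by
  intro ω ω' h
  unfold av
  congr 1
  ext η
  congr 1
  ext i
  by_cases hA : i ∈ A
  · simp [Finset.piecewise, hA]
  · simp [Finset.piecewise, hA, h i hA]

/-- if `F` does not depend on `B`, then `av p A F` does not depend on `A ∪ B` -/
theorem av_indepOf_union (p : ℝ) (A B : Finset ι) (F : (ι → Bool) → ℝ) (hF : IndepOf B F) :
    IndepOf (A ∪ B) (av p A F) := by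
  intro ω ω' h
  unfold av
  congr 1
  ext η
  apply hF
  intro i hi
  by_cases hA : i ∈ A
  · simp [Finset.piecewise, hA]
  · simp [Finset.piecewise, hA]
    exact h i (by simp [hA, hi])

/-- averaging over coordinates on which `F` does not depend does nothing -/
theorem av_eq_self (p : ℝ) (A : Finset ι) (F : (ι → Bool) → ℝ) (hF : IndepOf A F)
    (ω : ι → Bool) : av p A F ω = F ω := by
  unfold av
  have : (fun ω' => F (A.piecewise ω' ω)) = fun _ => F ω := by
    ext ω'
    apply hF
    intro i hi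
    simp [Finset.piecewise, hi]
  rw [this]
  exact ex_const p _

/-- pulling out a factor that does not depend on `A` -/
theorem av_mul_indep (p : ℝ) (A : Finset ι) (F G : (ι → Bool) → ℝ) (hG : IndepOf A G)
    (ω : ι → Bool) : av p A (fun ω => F ω * G ω) ω = av p A F ω * G ω := by
  unfold av
  have : (fun ω' => F (A.piecewise ω' ω) * G (A.piecewise ω' ω))
      = fun ω' => F (A.piecewise ω' ω) * G ω := by
    ext ω'
    congr 1
    apply hG
    intro i hi
    simp [Finset.piecewise, hi]
  rw [this]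
  exact ex_mul_right p _ _

/-- relabelling: `av A F (ω ∘ τ) = av (τ A) (F (· ∘ τ)) ω` -/
theorem av_comp_perm (p : ℝ) (τ : Equiv.Perm ι) (A : Finset ι) (F : (ι → Bool) → ℝ)
    (ω : ι → Bool) :
    av p A F (ω ∘ τ) = av p (A.map τ.toEmbedding) (fun η => F (η ∘ τ)) ω := by
  unfold av
  rw [← ex_comp_perm p τ]
  congr 1
  ext η
  congr 1
  ext i
  by_cases hA : i ∈ A
  · simp [Finset.piecewise, hA]
  · simp [Finset.piecewise, hA]

/-! ### Fourier analysis -/

theorem sqrt_pos_aux {p : ℝ} (h0 : 0 < p) (h1 : p < 1) : 0 < Real.sqrt (p * (1 - p)) :=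
  Real.sqrt_pos.mpr (mul_pos h0 (by linarith))

theorem phi_mean {p : ℝ} (h0 : 0 < p) (h1 : p < 1) :
    p * phi p true + (1 - p) * phi p false = 0 := by
  have := sqrt_pos_aux h0 h1
  unfold phi
  simp only [if_true, Bool.false_eq_true, if_false]
  field_simp
  ring

theorem phi_sq {p : ℝ} (h0 : 0 < p) (h1 : p < 1) (b : Bool) :
    phi p b ^ 2 = (if b then 1 - p else -p) ^ 2 / (p * (1 - p)) := by
  unfold phi
  rw [div_pow, Real.sq_sqrt (mul_pos h0 (by linarith)).le]

theorem phi_var {p : ℝ} (h0 : 0 < p) (h1 : p < 1) :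
    p * phi p true ^ 2 + (1 - p) * phi p false ^ 2 = 1 := by
  rw [phi_sq h0 h1, phi_sq h0 h1]
  have h2 : (1 - p) ≠ 0 := by linarith
  have h3 : p ≠ 0 := h0.ne'
  simp only [if_true, Bool.false_eq_true, if_false]
  field_simp
  ring

/-- `1 + φ(b)² = 1 / P(b)` -/
theorem one_add_phi_sq {p : ℝ} (h0 : 0 < p) (h1 : p < 1) (b : Bool) :
    1 + phi p b ^ 2 = 1 / (if b then p else 1 - p) := by
  rw [phi_sq h0 h1]
  have h2 : (1 - p) ≠ 0 := by linarith
  have h3 : p ≠ 0 := h0.ne'
  cases b
  · simp only [Bool.false_eq_true, if_false]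
    field_simp
    ring
  · simp only [if_true]
    field_simp
    ring

theorem one_add_phi_ne {p : ℝ} (h0 : 0 < p) (h1 : p < 1) (b b' : Bool) (h : b ≠ b') :
    1 + phi p b * phi p b' = 0 := by
  have hs := sqrt_pos_aux h0 h1
  have hs2 := Real.mul_self_sqrt (mul_pos h0 (show (0:ℝ) < 1 - p by linarith)).le
  unfold phi
  cases b <;> cases b' <;> simp only [if_true, Bool.false_eq_true, if_false, ne_eq, not_true_eq_false] at h ⊢
  · rw [div_mul_div_comm, hs2]
    have h2 : (1 - p) ≠ 0 := by linarith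
    have h3 : p ≠ 0 := h0.ne'
    field_simp
    ring
  · rw [div_mul_div_comm, hs2]
    have h2 : (1 - p) ≠ 0 := by linarith
    have h3 : p ≠ 0 := h0.ne'
    field_simp
    ring

theorem chi_eq_prod (p : ℝ) (S : Finset ι) (ω : ι → Bool) :
    chi p S ω = ∏ i, (if i ∈ S then phi p (ω i) else 1) := by
  unfold chi
  rw [Finset.prod_ite_mem, Finset.univ_inter]

theorem chi_orth {p : ℝ} (h0 : 0 < p) (h1 : p < 1) (S T : Finset ι) :
    ex p (fun ω => chi p S ω * chi p T ω) = if S = T then 1 else 0 := by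
  have h : (fun ω : ι → Bool => chi p S ω * chi p T ω)
      = fun ω => ∏ i, (fun (i : ι) (b : Bool) =>
        (if i ∈ S then phi p b else 1) * (if i ∈ T then phi p b else 1)) i (ω i) := by
    ext ω
    rw [chi_eq_prod, chi_eq_prod, ← Finset.prod_mul_distrib]
  rw [h]
  refine (ex_prod p (fun (i : ι) (b : Bool) =>
        (if i ∈ S then phi p b else 1) * (if i ∈ T then phi p b else 1))).trans ?_
  have hm := phi_mean h0 h1
  have hv := phi_var h0 h1
  by_cases hST : S = T
  · subst hST
    simp only [if_true]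
    apply Finset.prod_eq_one
    intro i _
    by_cases hi : i ∈ S
    · simp only [hi, if_true]; nlinarith [hv]
    · simp only [hi, if_false]; ring
  · simp only [hST, if_false]
    have : ∃ i, (i ∈ S ∧ i ∉ T) ∨ (i ∉ S ∧ i ∈ T) := by
      by_contra hcon
      push Not at hcon
      apply hST
      ext i
      have := hcon i
      tauto
    obtain ⟨i, hi⟩ := this
    apply Finset.prod_eq_zero (Finset.mem_univ i)
    rcases hi with ⟨ha, hb⟩ | ⟨ha, hb⟩ <;> simp only [ha, hb, if_true, if_false, mul_one, one_mul] <;> exact hm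

theorem sum_chi_mul_chi {p : ℝ} (h0 : 0 < p) (h1 : p < 1) (ω ω' : ι → Bool) :
    ∑ S, chi p S ω * chi p S ω' = if ω = ω' then 1 / bernoulliWeight p ω else 0 := by
  have h : ∑ S, chi p S ω * chi p S ω' = ∏ i, (1 + phi p (ω i) * phi p (ω' i)) := by
    rw [Finset.prod_one_add]
    rw [Finset.powerset_univ]
    apply Finset.sum_congr rfl
    intro S _
    unfold chi
    rw [← Finset.prod_mul_distrib]
  rw [h]
  by_cases hω : ω = ω'
  · subst hω
    simp only [if_true]
    unfold bernoulliWeight
    rw [one_div, ← Finset.prod_inv_distrib]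
    apply Finset.prod_congr rfl
    intro i _
    rw [← sq, one_add_phi_sq h0 h1, one_div]
  · simp only [hω, if_false]
    obtain ⟨i, hi⟩ := Function.ne_iff.mp hω
    exact Finset.prod_eq_zero (Finset.mem_univ i) (one_add_phi_ne h0 h1 _ _ hi)

omit [DecidableEq ι] in
theorem bernoulliWeight_pos {p : ℝ} (h0 : 0 < p) (h1 : p < 1) (ω : ι → Bool) :
    0 < bernoulliWeight p ω := by
  unfold bernoulliWeight
  apply Finset.prod_pos
  intro i _
  split_ifs <;> linarith

/-- Fourier expansion -/
theorem ev_fc {p : ℝ} (h0 : 0 < p) (h1 : p < 1) (F : (ι → Bool) → ℝ) (ω : ι → Bool) :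
    ev p (fc p F) ω = F ω := by
  unfold ev fc ex
  simp_rw [Finset.sum_mul]
  rw [Finset.sum_comm]
  have : ∀ η : ι → Bool, ∑ S, bernoulliWeight p η * (F η * chi p S η) * chi p S ω
      = bernoulliWeight p η * F η * (if η = ω then 1 / bernoulliWeight p η else 0) := by
    intro η
    rw [← sum_chi_mul_chi h0 h1, Finset.mul_sum]
    apply Finset.sum_congr rfl; intro S _; ring
  simp_rw [this]
  rw [Finset.sum_eq_single ω]
  · have := (bernoulliWeight_pos h0 h1 ω).ne'
    simp only [if_true]
    field_simp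
  · intro η _ hη
    simp [hη]
  · simp

theorem fc_ev {p : ℝ} (h0 : 0 < p) (h1 : p < 1) (c : Finset ι → ℝ) (S : Finset ι) :
    fc p (ev p c) S = c S := by
  unfold fc ev
  have : (fun ω : ι → Bool => (∑ T, c T * chi p T ω) * chi p S ω)
      = fun ω => ∑ T, c T * (chi p T ω * chi p S ω) := by
    ext ω; rw [Finset.sum_mul]; apply Finset.sum_congr rfl; intro T _; ring
  rw [this, ex_sum]
  have : ∀ T : Finset ι, ex p (fun ω => c T * (chi p T ω * chi p S ω)) = c T * (if T = S then 1 else 0) := by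
    intro T; rw [ex_mul_left, chi_orth h0 h1]
  simp_rw [this]
  simp

theorem parseval_ev {p : ℝ} (h0 : 0 < p) (h1 : p < 1) (c d : Finset ι → ℝ) :
    ex p (fun ω => ev p c ω * ev p d ω) = ∑ S, c S * d S := by
  have : (fun ω : ι → Bool => ev p c ω * ev p d ω) = fun ω => ∑ S, c S * (ev p d ω * chi p S ω) := by
    ext ω
    conv_lhs => rw [ev, Finset.sum_mul]
    apply Finset.sum_congr rfl; intro S _; ring
  rw [this, ex_sum]
  apply Finset.sum_congr rfl
  intro S _
  rw [ex_mul_left]
  congr 1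
  exact fc_ev h0 h1 d S

theorem parseval {p : ℝ} (h0 : 0 < p) (h1 : p < 1) (F G : (ι → Bool) → ℝ) :
    ex p (fun ω => F ω * G ω) = ∑ S, fc p F S * fc p G S := by
  rw [← parseval_ev h0 h1]
  congr 1
  ext ω
  rw [ev_fc h0 h1, ev_fc h0 h1]

theorem fc_sub (p : ℝ) (F G : (ι → Bool) → ℝ) (S : Finset ι) :
    fc p (fun ω => F ω - G ω) S = fc p F S - fc p G S := by
  unfold fc
  rw [← ex_sub]
  congr 1; ext ω; ring

theorem fc_add (p : ℝ) (F G : (ι → Bool) → ℝ) (S : Finset ι) :
    fc p (fun ω => F ω + G ω) S = fc p F S + fc p G S := by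
  unfold fc
  rw [← ex_add]
  congr 1; ext ω; ring

theorem av_chi {p : ℝ} (h0 : 0 < p) (h1 : p < 1) (A S : Finset ι) (ω : ι → Bool) :
    av p A (chi p S) ω = if Disjoint S A then chi p S ω else 0 := by
  unfold av
  have h : (fun ω' : ι → Bool => chi p S (A.piecewise ω' ω))
      = fun ω' => ∏ i, (fun (i : ι) (b : Bool) =>
        (if i ∈ S then (if i ∈ A then phi p b else phi p (ω i)) else 1)) i (ω' i) := by
    ext ω'
    rw [chi_eq_prod]
    apply Finset.prod_congr rfl
    intro i _
    by_cases hS : i ∈ S <;> by_cases hA : i ∈ A <;> simp [hS, hA, Finset.piecewise]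
  rw [h]
  refine (ex_prod p (fun (i : ι) (b : Bool) =>
        (if i ∈ S then (if i ∈ A then phi p b else phi p (ω i)) else 1))).trans ?_
  have hm := phi_mean h0 h1
  by_cases hd : Disjoint S A
  · simp only [hd, if_true]
    rw [chi_eq_prod]
    apply Finset.prod_congr rfl
    intro i _
    by_cases hS : i ∈ S
    · have hA : i ∉ A := Finset.disjoint_left.mp hd hS
      simp only [hS, hA, if_true, if_false]; ring
    · simp only [hS, if_false]; ring
  · simp only [hd, if_false]
    rw [Finset.not_disjoint_iff] at hd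
    obtain ⟨i, hS, hA⟩ := hd
    apply Finset.prod_eq_zero (Finset.mem_univ i)
    simp only [hS, hA, if_true]
    exact hm

theorem fc_av {p : ℝ} (h0 : 0 < p) (h1 : p < 1) (A : Finset ι) (F : (ι → Bool) → ℝ)
    (S : Finset ι) :
    fc p (av p A F) S = if Disjoint S A then fc p F S else 0 := by
  have h : av p A F = ev p (fun T => if Disjoint T A then fc p F T else 0) := by
    ext ω
    have hF : F = fun ω => ∑ T ∈ univ, fc p F T * chi p T ω := by
      ext η; exact (ev_fc h0 h1 F η).symm
    conv_lhs => rw [hF]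
    rw [av_sum (univ : Finset (Finset ι)) p A (fun T ω => fc p F T * chi p T ω)]
    unfold ev
    apply Finset.sum_congr rfl
    intro T _
    rw [av_mul_left, av_chi h0 h1]
    by_cases hd : Disjoint T A <;> simp [hd]
  rw [h, fc_ev h0 h1]

/-- energy of the part of `F` touching `A` -/
theorem ex_sub_av_sq {p : ℝ} (h0 : 0 < p) (h1 : p < 1) (A : Finset ι) (F : (ι → Bool) → ℝ) :
    ex p (fun ω => (F ω - av p A F ω) ^ 2)
      = ∑ S ∈ univ.filter (fun S => ¬ Disjoint S A), fc p F S ^ 2 := by
  have : (fun ω : ι → Bool => (F ω - av p A F ω) ^ 2)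
      = fun ω => (F ω - av p A F ω) * (F ω - av p A F ω) := by ext ω; ring
  rw [this, parseval h0 h1, Finset.sum_filter]
  apply Finset.sum_congr rfl
  intro S _
  rw [fc_sub p F (av p A F) S, fc_av h0 h1]
  by_cases hd : Disjoint S A <;> simp [hd]
  ring

/-- energy of the part of `F` touching both `A` and `B` -/
theorem ex_sub_av_av_sq {p : ℝ} (h0 : 0 < p) (h1 : p < 1) (A B : Finset ι)
    (F : (ι → Bool) → ℝ) :
    ex p (fun ω => (F ω - av p A F ω - av p B F ω + av p (A ∪ B) F ω) ^ 2)
      = ∑ S ∈ univ.filter (fun S => ¬ Disjoint S A ∧ ¬ Disjoint S B), fc p F S ^ 2 := by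
  have : (fun ω : ι → Bool => (F ω - av p A F ω - av p B F ω + av p (A ∪ B) F ω) ^ 2)
      = fun ω => (F ω - av p A F ω - av p B F ω + av p (A ∪ B) F ω)
        * (F ω - av p A F ω - av p B F ω + av p (A ∪ B) F ω) := by ext ω; ring
  rw [this, parseval h0 h1, Finset.sum_filter]
  apply Finset.sum_congr rfl
  intro S _
  rw [fc_add p (fun ω => F ω - av p A F ω - av p B F ω) (av p (A ∪ B) F) S,
    fc_sub p (fun ω => F ω - av p A F ω) (av p B F) S, fc_sub p F (av p A F) S,
    fc_av h0 h1, fc_av h0 h1, fc_av h0 h1]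
  by_cases hA : Disjoint S A <;> by_cases hB : Disjoint S B <;> simp [hA, hB, Finset.disjoint_union_right]
  ring

omit [Fintype ι] [DecidableEq ι] in
theorem chi_map (p : ℝ) (τ : Equiv.Perm ι) (S : Finset ι) (ω : ι → Bool) :
    chi p (S.map τ.toEmbedding) ω = chi p S (ω ∘ τ) := by
  unfold chi
  rw [Finset.prod_map]
  rfl

theorem fc_comp_perm (p : ℝ) (τ : Equiv.Perm ι) (F : (ι → Bool) → ℝ)
    (hF : ∀ ω, F (ω ∘ τ) = F ω) (S : Finset ι) :
    fc p F (S.map τ.toEmbedding) = fc p F S := by
  unfold fc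
  rw [← ex_comp_perm p τ (fun ω => F ω * chi p S ω)]
  congr 1
  ext ω
  rw [chi_map, hF]

/-! ### Boolean functions -/

omit [Fintype ι] [DecidableEq ι] in
theorem ind_sq {α : Type*} (f : α → Bool) (x : α) : ind f x ^ 2 = ind f x := by
  unfold ind; split_ifs <;> norm_num

theorem av_ind_mem {p : ℝ} (h0 : 0 ≤ p) (h1 : p ≤ 1) (A : Finset ι)
    (f : (ι → Bool) → Bool) (ω : ι → Bool) :
    0 ≤ av p A (ind f) ω ∧ av p A (ind f) ω ≤ 1 := by
  constructor
  · apply av_nonneg h0 h1
    intro η; unfold ind; split_ifs <;> norm_num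
  · calc av p A (ind f) ω ≤ av p A (fun _ => 1) ω := by
          apply av_mono h0 h1
          intro η; unfold ind; split_ifs <;> norm_num
      _ = 1 := av_const p A 1 ω

/-- the conditional variance identity for Boolean functions -/
theorem av_sub_av_sq_bool (p : ℝ) (A : Finset ι) (f : (ι → Bool) → Bool)
    (ω : ι → Bool) :
    av p A (fun η => (ind f η - av p A (ind f) η) ^ 2) ω
      = av p A (ind f) ω * (1 - av p A (ind f) ω) := by
  have hI := av_indepOf p A (ind f)
  have hI2 : IndepOf A (fun η => av p A (ind f) η ^ 2) := by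
    intro η η' h; simp only [hI η η' h]
  have h : (fun η : ι → Bool => (ind f η - av p A (ind f) η) ^ 2)
      = fun η => (ind f η - 2 * (ind f η * av p A (ind f) η)) + av p A (ind f) η ^ 2 := by
    ext η
    have := ind_sq f η
    nlinarith [this]
  rw [h, av_add, av_sub, av_mul_left, av_mul_indep p A (ind f) _ hI,
    av_eq_self p A (fun η => av p A (ind f) η ^ 2) hI2]
  ring

theorem av_abs_sub_av_bool {p : ℝ} (h0 : 0 ≤ p) (h1 : p ≤ 1) (A : Finset ι)
    (f : (ι → Bool) → Bool) (ω : ι → Bool) :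
    av p A (fun η => |ind f η - av p A (ind f) η|) ω
      = 2 * (av p A (ind f) ω * (1 - av p A (ind f) ω)) := by
  have hI := av_indepOf p A (ind f)
  have h : (fun η : ι → Bool => |ind f η - av p A (ind f) η|)
      = fun η => (ind f η - 2 * (ind f η * av p A (ind f) η)) + av p A (ind f) η := by
    ext η
    obtain ⟨ha, hb⟩ := av_ind_mem h0 h1 A f η
    have : ind f η = 0 ∨ ind f η = 1 := by unfold ind; split_ifs <;> simp
    rcases this with h | h <;> rw [h]
    · rw [abs_of_nonpos (by linarith)]; ring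
    · rw [abs_of_nonneg (by linarith)]; ring
  rw [h, av_add, av_sub, av_mul_left, av_mul_indep p A (ind f) _ hI,
    av_eq_self p A (av p A (ind f)) hI]
  ring

theorem av_singleton (p : ℝ) (F : (ι → Bool) → ℝ) (e : ι) (ω : ι → Bool) :
    av p {e} F ω = p * F (Function.update ω e true) + (1 - p) * F (Function.update ω e false) := by
  have key : ∀ ω' : ι → Bool, F (({e} : Finset ι).piecewise ω' ω)
      = (if ω' e = true then 1 else 0) * F (Function.update ω e true)
        + (if ω' e = true then 0 else 1) * F (Function.update ω e false) := by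
    intro ω'
    have : ({e} : Finset ι).piecewise ω' ω = Function.update ω e (ω' e) := by
      ext i
      by_cases h : i = e
      · subst h; simp [Finset.piecewise]
      · simp [Finset.piecewise, h]
    rw [this]
    cases h : ω' e <;> simp
  unfold av
  simp_rw [key]
  rw [ex_add, ex_mul_right, ex_mul_right]
  have h1 : ex p (fun ω' : ι → Bool => if ω' e = true then (1:ℝ) else 0) = p := by
    have := ex_prod (ι := ι) p (fun i b => if i = e then (if b = true then 1 else 0) else 1)
    have h2 : (fun ω : ι → Bool => ∏ i, (if i = e then (if ω i = true then (1:ℝ) else 0) else 1))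
        = fun ω' : ι → Bool => if ω' e = true then (1:ℝ) else 0 := by
      ext ω'
      rw [Finset.prod_ite_eq' univ e (fun i => if ω' i = true then (1:ℝ) else 0)]
      simp
    rw [h2] at this
    rw [this]
    rw [Finset.prod_eq_single e]
    · simp
    · intro i _ hi; simp [hi]
    · simp
  have h2 : ex p (fun ω' : ι → Bool => if ω' e = true then (0:ℝ) else 1) = 1 - p := by
    have h3 : (fun ω' : ι → Bool => if ω' e = true then (0:ℝ) else 1)
        = fun ω' => (1:ℝ) - (if ω' e = true then (1:ℝ) else 0) := by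
      ext ω'; split_ifs <;> norm_num
    rw [h3, ex_sub, h1, ex_const]
  rw [h1, h2]

/-- energy touching a single coordinate of a Boolean function -/
theorem ex_sub_av_singleton {p : ℝ} (f : (ι → Bool) → Bool) (e : ι) :
    ex p (fun ω => (ind f ω - av p {e} (ind f) ω) ^ 2) = p * (1 - p) * ex p (piv f e) := by
  rw [← ex_av p {e}]
  have : (av p {e} (fun ω => (ind f ω - av p {e} (ind f) ω) ^ 2))
      = fun ω => (p * (1 - p)) * piv f e ω := by
    ext ω
    rw [av_sub_av_sq_bool, av_singleton]
    unfold ind piv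
    cases f (Function.update ω e true) <;> cases f (Function.update ω e false) <;> simp
    ring
  rw [this, ex_mul_left]

/-- the Efron–Stein / Poincaré inequality in the form needed:
the energy touching `A` is at most `p(1-p)` times the number of expected pivotals in `A`. -/
theorem ex_sub_av_sq_le {p : ℝ} (h0 : 0 < p) (h1 : p < 1) (A : Finset ι)
    (f : (ι → Bool) → Bool) :
    ex p (fun ω => (ind f ω - av p A (ind f) ω) ^ 2)
      ≤ p * (1 - p) * ∑ e ∈ A, ex p (piv f e) := by
  rw [ex_sub_av_sq h0 h1, Finset.mul_sum]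
  simp_rw [← ex_sub_av_singleton, ex_sub_av_sq h0 h1]
  have : ∀ e : ι, ∑ S ∈ univ.filter (fun S => ¬ Disjoint S {e}), fc p (ind f) S ^ 2
      = ∑ S : Finset ι, if e ∈ S then fc p (ind f) S ^ 2 else 0 := by
    intro e; rw [Finset.sum_filter]; apply Finset.sum_congr rfl; intro S _
    simp
  simp_rw [this]
  rw [Finset.sum_comm, Finset.sum_filter]
  apply Finset.sum_le_sum
  intro S _
  by_cases hd : Disjoint S A
  · simp only [hd, not_true_eq_false, if_false]
    apply Finset.sum_nonneg
    intro i _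
    split_ifs <;> positivity
  · simp only [hd, not_false_eq_true, if_true]
    rw [Finset.not_disjoint_iff] at hd
    obtain ⟨e, he, heA⟩ := hd
    calc fc p (ind f) S ^ 2 = (if e ∈ S then fc p (ind f) S ^ 2 else 0) := by simp [he]
      _ ≤ _ := Finset.single_le_sum (f := fun e => if e ∈ S then fc p (ind f) S ^ 2 else 0)
        (fun i _ => by split_ifs <;> positivity) heA

end Cube

end Crest.Agent.S0077
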