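import Mathlib
import Crest.Prelude.Def_FinProb
import Crest.Prelude.Def_RandomGraph
import Crest.Agent.S0077_Cube

/-!
Row S0071-S0073, helper2: independence lemma and the greedy embedding lemma (fresh exposures).
-/

set_option autoImplicit false
open Finset Crest Crest.FinProb Crest.CombinatoricsR.RandomGraph Crest.Agent.S0077

namespace Crest.TG

section Indep
variable {ι : Type*} [Fintype ι] [DecidableEq ι]

open Classical in
/-- probability as expectation of the indicator -/
theorem bernoulliProb_eq_ex (q : ℝ) (A : Set (ι → Bool)) :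
    bernoulliProb q A = ex q (fun ω => if ω ∈ A then 1 else 0) := by
  unfold bernoulliProb ex
  rw [Finset.sum_filter]
  apply Finset.sum_congr rfl
  intro ω _
  by_cases h : ω ∈ A <;> simp [h]

/-- functions of disjoint sets of coordinates are independent -/
theorem ex_mul_indep (q : ℝ) (S : Finset ι) (F G : (ι → Bool) → ℝ)
    (hF : ∀ ω ω' : ι → Bool, (∀ i ∈ S, ω i = ω' i) → F ω = F ω') (hG : IndepOf S G) :
    ex q (fun ω => F ω * G ω) = ex q F * ex q G := by
  rw [← ex_av q S (fun ω => F ω * G ω)]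
  have h1 : av q S (fun ω => F ω * G ω) = fun ω => ex q F * G ω := by
    funext ω
    rw [av_mul_indep q S F G hG]
    congr 1
    unfold av
    congr 1
    funext ω'
    apply hF
    intro i hi
    simp [Finset.piecewise, hi]
  rw [h1, ex_mul_left]

open Classical in
theorem ex_all (q : ℝ) (S : Finset ι) :
    ex q (fun ω : ι → Bool => if (∀ e ∈ S, ω e = true) then (1 : ℝ) else 0) = q ^ S.card := by
  have h := ex_prod (ι := ι) q (fun i b => if i ∈ S then (if b then 1 else 0) else 1)
  have e1 : (fun ω : ι → Bool => if (∀ e ∈ S, ω e = true) then (1 : ℝ) else 0)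
      = fun ω => ∏ i, (if i ∈ S then (if ω i then (1:ℝ) else 0) else 1) := by
    funext ω
    by_cases hh : ∀ e ∈ S, ω e = true
    · rw [if_pos hh]
      symm
      apply Finset.prod_eq_one
      intro i _
      by_cases hi : i ∈ S
      · simp [hi, hh i hi]
      · simp [hi]
    · rw [if_neg hh]
      push Not at hh
      obtain ⟨e, he, hne⟩ := hh
      symm
      apply Finset.prod_eq_zero (Finset.mem_univ e)
      simp [he, hne]
  rw [e1, h]
  have e2 : ∀ i : ι, (q * (if i ∈ S then (if (true : Bool) = true then (1:ℝ) else 0) else 1)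
      + (1 - q) * (if i ∈ S then (if (false : Bool) = true then (1:ℝ) else 0) else 1))
      = if i ∈ S then q else 1 := by
    intro i
    by_cases hi : i ∈ S <;> simp [hi]
  rw [Finset.prod_congr rfl (fun i _ => e2 i)]
  rw [Finset.prod_ite_mem]
  simp

open Classical in
/-- outcome of a list of trials: at the first successful trial look at its event -/
noncomputable def trials : List (Finset ι × Set (ι → Bool)) → (ι → Bool) → ℝ
  | [], _ => 0
  | (s :: L), ω => if (∀ e ∈ s.1, ω e = true) then (if ω ∈ s.2 then 1 else 0) else trials L ω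

open Classical in
theorem trials_le (Good : Set (ι → Bool)) (L : List (Finset ι × Set (ι → Bool)))
    (h : ∀ s ∈ L, ∀ ω : ι → Bool, (∀ e ∈ s.1, ω e = true) → ω ∈ s.2 → ω ∈ Good) (ω : ι → Bool) :
    trials L ω ≤ if ω ∈ Good then 1 else 0 := by
  induction L with
  | nil => simp only [trials]; split_ifs <;> norm_num
  | cons s L ih =>
    simp only [trials]
    by_cases h1 : ∀ e ∈ s.1, ω e = true
    · rw [if_pos h1]
      by_cases h2 : ω ∈ s.2
      · rw [if_pos h2, if_pos (h s (by simp) ω h1 h2)]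
      · rw [if_neg h2]; split_ifs <;> norm_num
    · rw [if_neg h1]
      exact ih (fun s' hs' => h s' (by simp [hs']))

theorem trials_indep (A : Finset ι) (L : List (Finset ι × Set (ι → Bool)))
    (h : ∀ s ∈ L, Disjoint A s.1 ∧ ∀ ω ω' : ι → Bool, (∀ i, i ∉ A → ω i = ω' i) →
      (ω ∈ s.2 ↔ ω' ∈ s.2)) : IndepOf A (trials L) := by
  classical
  induction L with
  | nil => intro ω ω' _; simp [trials]
  | cons s L ih =>
    intro ω ω' hω
    simp only [trials]
    have h1 : (∀ e ∈ s.1, ω e = true) ↔ (∀ e ∈ s.1, ω' e = true) := by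
      have hd := (h s (by simp)).1
      constructor
      · intro hh e he
        rw [← hω e (fun hA => (Finset.disjoint_left.mp hd hA) he)]
        exact hh e he
      · intro hh e he
        rw [hω e (fun hA => (Finset.disjoint_left.mp hd hA) he)]
        exact hh e he
    have h2 := (h s (by simp)).2 ω ω' hω
    have h3 := ih (fun s' hs' => h s' (by simp [hs'])) ω ω' hω
    by_cases c1 : ∀ e ∈ s.1, ω e = true
    · rw [if_pos c1, if_pos (h1.mp c1)]
      by_cases c2 : ω ∈ s.2
      · rw [if_pos c2, if_pos (h2.mp c2)]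
      · rw [if_neg c2, if_neg (fun hh => c2 (h2.mpr hh))]
    · rw [if_neg c1, if_neg (fun hh => c1 (h1.mpr hh))]
      exact h3

open Classical in
theorem ex_trials_ge (q : ℝ) (hq0 : 0 ≤ q) (hq1 : q ≤ 1) (D : ℕ) (g : ℝ) (hg : 0 ≤ g)
    (L : List (Finset ι × Set (ι → Bool)))
    (hdisj : L.Pairwise (fun s s' => Disjoint s.1 s'.1))
    (hcard : ∀ s ∈ L, s.1.card ≤ D)
    (hind : ∀ s ∈ L, ∀ s' ∈ L, ∀ ω ω' : ι → Bool, (∀ i, i ∉ s.1 → ω i = ω' i) →
      (ω ∈ s'.2 ↔ ω' ∈ s'.2))
    (hprob : ∀ s ∈ L, g ≤ bernoulliProb q s.2) :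
    g * (1 - (1 - q ^ D) ^ L.length) ≤ ex q (trials L) := by
  induction L with
  | nil =>
    simp only [List.length_nil, pow_zero, sub_self, mul_zero]
    exact ex_nonneg hq0 hq1 (fun ω => by simp [trials])
  | cons s L ih =>
    have ihL := ih (List.Pairwise.of_cons hdisj) (fun s' hs' => hcard s' (by simp [hs']))
      (fun s' hs' s'' hs'' => hind s' (by simp [hs']) s'' (by simp [hs'']))
      (fun s' hs' => hprob s' (by simp [hs']))
    have hdec : trials (s :: L) = fun ω =>
        (if (∀ e ∈ s.1, ω e = true) then (1:ℝ) else 0) * (if ω ∈ s.2 then 1 else 0)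
        + (1 - (if (∀ e ∈ s.1, ω e = true) then (1:ℝ) else 0)) * trials L ω := by
      funext ω
      simp only [trials]
      by_cases c1 : ∀ e ∈ s.1, ω e = true
      · rw [if_pos c1, if_pos c1]; ring
      · rw [if_neg c1, if_neg c1]; ring
    have hF : ∀ ω ω' : ι → Bool, (∀ i ∈ s.1, ω i = ω' i) →
        (if (∀ e ∈ s.1, ω e = true) then (1:ℝ) else 0) = (if (∀ e ∈ s.1, ω' e = true) then (1:ℝ) else 0) := by
      intro ω ω' hω
      have : (∀ e ∈ s.1, ω e = true) ↔ (∀ e ∈ s.1, ω' e = true) := by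
        constructor
        · intro hh e he; rw [← hω e he]; exact hh e he
        · intro hh e he; rw [hω e he]; exact hh e he
      by_cases c1 : ∀ e ∈ s.1, ω e = true
      · rw [if_pos c1, if_pos (this.mp c1)]
      · rw [if_neg c1, if_neg (fun hh => c1 (this.mpr hh))]
    have hG1 : IndepOf s.1 (fun ω : ι → Bool => if ω ∈ s.2 then (1:ℝ) else 0) := by
      intro ω ω' hω
      have := hind s (by simp) s (by simp) ω ω' hω
      by_cases c : ω ∈ s.2
      · simp only [if_pos c, if_pos (this.mp c)]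
      · simp only [if_neg c, if_neg (fun hh => c (this.mpr hh))]
    have hG2 : IndepOf s.1 (trials L) := by
      apply trials_indep
      intro s' hs'
      refine ⟨(List.pairwise_cons.mp hdisj).1 s' hs', ?_⟩
      exact hind s (by simp) s' (by simp [hs'])
    rw [hdec, ex_add]
    rw [ex_mul_indep q s.1 _ _ hF hG1]
    rw [ex_mul_indep q s.1 (fun ω => 1 - (if (∀ e ∈ s.1, ω e = true) then (1:ℝ) else 0)) (trials L)
      (fun ω ω' hω => by show 1 - _ = 1 - _; rw [hF ω ω' hω]) hG2]
    rw [ex_sub, ex_const, ex_all, ← bernoulliProb_eq_ex]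
    have hp := hprob s (by simp)
    have hc := hcard s (by simp)
    have ha : q ^ D ≤ q ^ s.1.card := pow_le_pow_of_le_one hq0 hq1 hc
    have ha0 : 0 ≤ q ^ s.1.card := pow_nonneg hq0 _
    have ha1 : q ^ s.1.card ≤ 1 := pow_le_one₀ hq0 hq1
    have hD1 : q ^ D ≤ 1 := pow_le_one₀ hq0 hq1
    have hz0 : 0 ≤ (1 - q ^ D) ^ L.length := pow_nonneg (by linarith) _
    have hz1 : (1 - q ^ D) ^ L.length ≤ 1 := pow_le_one₀ (by linarith) (by have := pow_nonneg hq0 D; linarith)
    rw [List.length_cons, pow_succ]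
    set a := q ^ s.1.card with hadef
    set z := (1 - q ^ D) ^ L.length with hzdef
    have h1 : a * g ≤ a * bernoulliProb q s.2 := mul_le_mul_of_nonneg_left hp ha0
    have h2 : (1 - a) * (g * (1 - z)) ≤ (1 - a) * ex q (trials L) :=
      mul_le_mul_of_nonneg_left ihL (by linarith)
    have h3 : g * (1 - z * (1 - q ^ D)) ≤ a * g + (1 - a) * (g * (1 - z)) := by
      have : a * g + (1 - a) * (g * (1 - z)) - g * (1 - z * (1 - q ^ D)) = g * z * (a - q ^ D) := by ring
      have h4 : 0 ≤ g * z * (a - q ^ D) := mul_nonneg (mul_nonneg hg hz0) (by linarith)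
      linarith
    linarith

end Indep

section Greedy

/-- extension event: the partial map `φ` on indices `< j` extends to an injection whose remaining
edges avoid the exposed slots `X` and are present. -/
def GoodExt (n m : ℕ) (B : Fin m → Finset (Fin m)) (j : ℕ) (φ : Fin m → Fin n)
    (X : Finset (EdgeSlot n)) : Set (EdgeSlot n → Bool) :=
  {ω | ∃ ψ : Fin m → Fin n, Function.Injective ψ ∧ (∀ i : Fin m, (i : ℕ) < j → ψ i = φ i) ∧
    ∀ j' : Fin m, j ≤ (j' : ℕ) → ∀ i ∈ B j', ∃ e : EdgeSlot n, e.1 = s(ψ i, ψ j') ∧ e ∉ X ∧ ω e = true}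

theorem goodExt_indep (n m : ℕ) (B : Fin m → Finset (Fin m)) (j : ℕ) (φ : Fin m → Fin n)
    (X S : Finset (EdgeSlot n)) (hS : S ⊆ X) (ω ω' : EdgeSlot n → Bool)
    (h : ∀ i, i ∉ S → ω i = ω' i) :
    ω ∈ GoodExt n m B j φ X ↔ ω' ∈ GoodExt n m B j φ X := by
  constructor
  · rintro ⟨ψ, h1, h2, h3⟩
    refine ⟨ψ, h1, h2, fun j' hj' i hi => ?_⟩
    obtain ⟨e, he1, he2, he3⟩ := h3 j' hj' i hi
    exact ⟨e, he1, he2, by rw [← h e (fun hh => he2 (hS hh))]; exact he3⟩
  · rintro ⟨ψ, h1, h2, h3⟩
    refine ⟨ψ, h1, h2, fun j' hj' i hi => ?_⟩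
    obtain ⟨e, he1, he2, he3⟩ := h3 j' hj' i hi
    exact ⟨e, he1, he2, by rw [h e (fun hh => he2 (hS hh))]; exact he3⟩

/-- the invariant of the greedy embedding -/
structure Inv (n m T : ℕ) (B : Fin m → Finset (Fin m)) (j : ℕ) (φ : Fin m → Fin n)
    (X : Finset (EdgeSlot n)) : Prop where
  inj : ∀ i i' : Fin m, (i : ℕ) < j → (i' : ℕ) < j → φ i = φ i' → i = i'
  touch : ∀ e ∈ X, ∃ i : Fin m, (i : ℕ) < j ∧ φ i ∈ e.1
  cnt : ∀ i : Fin m, (i : ℕ) < j →
    (univ.filter (fun x : Fin n => (∀ i' : Fin m, (i' : ℕ) < j → φ i' ≠ x) ∧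
      ∃ e ∈ X, e.1 = s(φ i, x))).card ≤ T * (univ.filter (fun j' : Fin m => (j' : ℕ) < j ∧ i ∈ B j')).card

/-- the slots between `x` and the images of the back-neighbours of `j` -/
def slotsTo {n m : ℕ} (B : Fin m → Finset (Fin m)) (φ : Fin m → Fin n) (j : Fin m) (x : Fin n) :
    Finset (EdgeSlot n) :=
  (B j).biUnion (fun i => univ.filter (fun e : EdgeSlot n => e.1 = s(φ i, x)))

theorem mem_slotsTo {n m : ℕ} (B : Fin m → Finset (Fin m)) (φ : Fin m → Fin n) (j : Fin m)
    (x : Fin n) (e : EdgeSlot n) :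
    e ∈ slotsTo B φ j x ↔ ∃ i ∈ B j, e.1 = s(φ i, x) := by
  simp [slotsTo]

theorem card_slotsTo {n m : ℕ} (B : Fin m → Finset (Fin m)) (φ : Fin m → Fin n) (j : Fin m)
    (x : Fin n) : (slotsTo B φ j x).card ≤ (B j).card := by
  unfold slotsTo
  have := Finset.card_biUnion_le_card_mul (B j)
    (fun i => univ.filter (fun e : EdgeSlot n => e.1 = s(φ i, x))) 1 (by
      intro i _
      rw [Finset.card_le_one]
      intro a ha b hb
      simp only [Finset.mem_filter, Finset.mem_univ, true_and] at ha hb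
      exact Subtype.ext (ha.trans hb.symm))
  simpa using this

theorem inv_step {n m T : ℕ} {B : Fin m → Finset (Fin m)} (hB : ∀ j, ∀ i ∈ B j, i < j)
    {j : ℕ} (hj : j < m) {φ : Fin m → Fin n}
    {X : Finset (EdgeSlot n)} (I : Inv n m T B j φ X) (Y : Finset (Fin n))
    (hY : Y.card = T)
    (hYu : ∀ y ∈ Y, ∀ i' : Fin m, (i' : ℕ) < j → φ i' ≠ y)
    (x : Fin n) (hx : x ∈ Y) :
    Inv n m T B (j+1) (Function.update φ ⟨j, hj⟩ x) (X ∪ Y.biUnion (slotsTo B φ ⟨j, hj⟩)) := by
  have hlt : ∀ i : Fin m, (i : ℕ) < j → Function.update φ ⟨j, hj⟩ x i = φ i := by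
    intro i hi
    apply Function.update_of_ne
    intro h
    rw [h] at hi
    exact lt_irrefl _ hi
  have hself : Function.update φ ⟨j, hj⟩ x ⟨j, hj⟩ = x := Function.update_self _ _ _
  have hcase : ∀ i : Fin m, (i : ℕ) < j + 1 → (i : ℕ) < j ∨ i = ⟨j, hj⟩ := by
    intro i hi
    rcases Nat.lt_succ_iff_lt_or_eq.mp hi with h | h
    · exact Or.inl h
    · exact Or.inr (Fin.ext h)
  have htouch : ∀ e ∈ X ∪ Y.biUnion (slotsTo B φ ⟨j, hj⟩), ∃ i : Fin m, (i : ℕ) < j ∧ φ i ∈ e.1 := by
    intro e he
    rw [Finset.mem_union] at he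
    rcases he with he | he
    · exact I.touch e he
    · rw [Finset.mem_biUnion] at he
      obtain ⟨y, hy, hey⟩ := he
      rw [mem_slotsTo] at hey
      obtain ⟨i, hi, hie⟩ := hey
      exact ⟨i, hB _ i hi, by rw [hie]; exact Sym2.mem_mk_left _ _⟩
  constructor
  · intro i i' hi hi' heq
    rcases hcase i hi with h | h <;> rcases hcase i' hi' with h' | h'
    · rw [hlt i h, hlt i' h'] at heq
      exact I.inj i i' h h' heq
    · rw [hlt i h, h', hself] at heq
      exact absurd heq (hYu x hx i h)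
    · rw [hlt i' h', h, hself] at heq
      exact absurd heq.symm (hYu x hx i' h')
    · rw [h, h']
  · intro e he
    obtain ⟨i, hi, hie⟩ := htouch e he
    exact ⟨i, by omega, by rw [hlt i hi]; exact hie⟩
  · intro i hi
    rcases hcase i hi with h | h
    · -- old vertex
      rw [hlt i h]
      by_cases hiB : i ∈ B ⟨j, hj⟩
      · have hsub : (univ.filter (fun x' : Fin n =>
            (∀ i' : Fin m, (i' : ℕ) < j + 1 → Function.update φ ⟨j, hj⟩ x i' ≠ x') ∧
            ∃ e ∈ X ∪ Y.biUnion (slotsTo B φ ⟨j, hj⟩), e.1 = s(φ i, x')))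
            ⊆ (univ.filter (fun x' : Fin n => (∀ i' : Fin m, (i' : ℕ) < j → φ i' ≠ x') ∧
              ∃ e ∈ X, e.1 = s(φ i, x'))) ∪ Y := by
          intro x' hx'
          simp only [Finset.mem_filter, Finset.mem_univ, true_and] at hx'
          obtain ⟨hu, e, he, hee⟩ := hx'
          have hu' : ∀ i' : Fin m, (i' : ℕ) < j → φ i' ≠ x' := by
            intro i' hi'
            have := hu i' (by omega)
            rwa [hlt i' hi'] at this
          rw [Finset.mem_union] at he ⊢
          rcases he with he | he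
          · left
            simp only [Finset.mem_filter, Finset.mem_univ, true_and]
            exact ⟨hu', e, he, hee⟩
          · right
            rw [Finset.mem_biUnion] at he
            obtain ⟨y, hy, hey⟩ := he
            rw [mem_slotsTo] at hey
            obtain ⟨i0, hi0, hie⟩ := hey
            rw [hee, Sym2.eq_iff] at hie
            rcases hie with ⟨_, h2⟩ | ⟨h1, _⟩
            · rw [h2]; exact hy
            · exact absurd h1 (hYu y hy i h)
        have hcnt2 : (univ.filter (fun j' : Fin m => (j' : ℕ) < j + 1 ∧ i ∈ B j')).card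
            = (univ.filter (fun j' : Fin m => (j' : ℕ) < j ∧ i ∈ B j')).card + 1 := by
          have : (univ.filter (fun j' : Fin m => (j' : ℕ) < j + 1 ∧ i ∈ B j'))
              = insert ⟨j, hj⟩ (univ.filter (fun j' : Fin m => (j' : ℕ) < j ∧ i ∈ B j')) := by
            ext j'
            simp only [Finset.mem_filter, Finset.mem_univ, true_and, Finset.mem_insert]
            constructor
            · rintro ⟨h1, h2⟩
              rcases hcase j' h1 with h3 | h3
              · exact Or.inr ⟨h3, h2⟩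
              · exact Or.inl h3
            · rintro (h1 | ⟨h1, h2⟩)
              · rw [h1]; exact ⟨by simp, hiB⟩
              · exact ⟨by omega, h2⟩
          rw [this, Finset.card_insert_of_notMem]
          simp
        calc _ ≤ _ := Finset.card_le_card hsub
          _ ≤ _ + _ := Finset.card_union_le _ _
          _ ≤ T * (univ.filter (fun j' : Fin m => (j' : ℕ) < j ∧ i ∈ B j')).card + T :=
              Nat.add_le_add (I.cnt i h) hY.le
          _ = _ := by rw [hcnt2]; ring
      · have hsub : (univ.filter (fun x' : Fin n =>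
            (∀ i' : Fin m, (i' : ℕ) < j + 1 → Function.update φ ⟨j, hj⟩ x i' ≠ x') ∧
            ∃ e ∈ X ∪ Y.biUnion (slotsTo B φ ⟨j, hj⟩), e.1 = s(φ i, x')))
            ⊆ (univ.filter (fun x' : Fin n => (∀ i' : Fin m, (i' : ℕ) < j → φ i' ≠ x') ∧
              ∃ e ∈ X, e.1 = s(φ i, x'))) := by
          intro x' hx'
          simp only [Finset.mem_filter, Finset.mem_univ, true_and] at hx' ⊢
          obtain ⟨hu, e, he, hee⟩ := hx'
          have hu' : ∀ i' : Fin m, (i' : ℕ) < j → φ i' ≠ x' := by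
            intro i' hi'
            have := hu i' (by omega)
            rwa [hlt i' hi'] at this
          rw [Finset.mem_union] at he
          rcases he with he | he
          · exact ⟨hu', e, he, hee⟩
          · exfalso
            rw [Finset.mem_biUnion] at he
            obtain ⟨y, hy, hey⟩ := he
            rw [mem_slotsTo] at hey
            obtain ⟨i0, hi0, hie⟩ := hey
            rw [hee, Sym2.eq_iff] at hie
            rcases hie with ⟨h1, _⟩ | ⟨h1, _⟩
            · have := I.inj i i0 h (hB _ i0 hi0) h1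
              rw [this] at hiB
              exact hiB hi0
            · exact absurd h1 (hYu y hy i h)
        calc _ ≤ _ := Finset.card_le_card hsub
          _ ≤ T * (univ.filter (fun j' : Fin m => (j' : ℕ) < j ∧ i ∈ B j')).card := I.cnt i h
          _ ≤ _ := by
              apply Nat.mul_le_mul_left
              apply Finset.card_le_card
              intro j' hj'
              simp only [Finset.mem_filter, Finset.mem_univ, true_and] at hj' ⊢
              exact ⟨by omega, hj'.2⟩
    · -- the new vertex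
      rw [h, hself]
      have : (univ.filter (fun x' : Fin n =>
            (∀ i' : Fin m, (i' : ℕ) < j + 1 → Function.update φ ⟨j, hj⟩ x i' ≠ x') ∧
            ∃ e ∈ X ∪ Y.biUnion (slotsTo B φ ⟨j, hj⟩), e.1 = s(x, x'))) = ∅ := by
        rw [Finset.filter_eq_empty_iff]
        rintro x' _ ⟨hu, e, he, hee⟩
        obtain ⟨i0, hi0, hie⟩ := htouch e he
        rw [hee, Sym2.mem_iff] at hie
        rcases hie with h1 | h1
        · exact hYu x hx i0 hi0 h1
        · have := hu i0 (by omega)
          rw [hlt i0 hi0] at this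
          exact this h1
      rw [this]
      simp

theorem bernoulliProb_nonneg' {ι : Type*} [Fintype ι] [DecidableEq ι] (q : ℝ) (hq0 : 0 ≤ q)
    (hq1 : q ≤ 1) (A : Set (ι → Bool)) : 0 ≤ bernoulliProb q A := by
  classical
  rw [bernoulliProb_eq_ex]
  exact ex_nonneg hq0 hq1 (fun ω => by split_ifs <;> norm_num)

theorem greedy_aux (n m D Δ T : ℕ) (q : ℝ) (hq0 : 0 ≤ q) (hq1 : q ≤ 1)
    (B : Fin m → Finset (Fin m)) (hB : ∀ j, ∀ i ∈ B j, i < j)
    (hD : ∀ j, (B j).card ≤ D)
    (hΔ : ∀ i, (univ.filter (fun j => i ∈ B j)).card ≤ Δ)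
    (hn : m + D * Δ * T + T ≤ n) :
    ∀ r j : ℕ, j + r = m → ∀ (φ : Fin m → Fin n) (X : Finset (EdgeSlot n)), Inv n m T B j φ X →
      1 - r * (1 - q ^ D) ^ T ≤ bernoulliProb q (GoodExt n m B j φ X) := by
  classical
  intro r
  induction r with
  | zero =>
    intro j hjr φ X I
    have : GoodExt n m B j φ X = Set.univ := by
      apply Set.eq_univ_of_forall
      intro ω
      refine ⟨φ, ?_, fun _ _ => rfl, ?_⟩
      · intro a b hab
        have ha := a.2
        have hb := b.2
        exact I.inj a b (by omega) (by omega) hab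
      · intro j' hj'
        have := j'.2
        omega
    rw [this, bernoulliProb_eq_ex]
    simp [ex_const]
  | succ r ih =>
    intro j hjr φ X I
    have hj : j < m := by omega
    have hU0 : ((univ.filter (fun i : Fin m => (i:ℕ) < j)).image φ ∪ (B ⟨j, hj⟩).biUnion (fun i =>
        univ.filter (fun x : Fin n => (∀ i' : Fin m, (i':ℕ) < j → φ i' ≠ x) ∧
          ∃ e ∈ X, e.1 = s(φ i, x)))).card ≤ m + D * Δ * T := by
      refine (Finset.card_union_le _ _).trans (Nat.add_le_add ?_ ?_)
      · refine Finset.card_image_le.trans ((Finset.card_filter_le _ _).trans ?_)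
        simp
      · have := Finset.card_biUnion_le_card_mul (B ⟨j, hj⟩) (fun i =>
          univ.filter (fun x : Fin n => (∀ i' : Fin m, (i':ℕ) < j → φ i' ≠ x) ∧
          ∃ e ∈ X, e.1 = s(φ i, x))) (T * Δ) (by
            intro i hi
            have hij : (i : ℕ) < j := hB _ i hi
            refine (I.cnt i hij).trans (Nat.mul_le_mul_left _ ?_)
            refine le_trans (Finset.card_le_card ?_) (hΔ i)
            intro j' hj'
            simp only [Finset.mem_filter, Finset.mem_univ, true_and] at hj' ⊢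
            exact hj'.2)
        refine this.trans ?_
        calc (B ⟨j, hj⟩).card * (T * Δ) ≤ D * (T * Δ) := Nat.mul_le_mul_right _ (hD _)
          _ = D * Δ * T := by ring
    set U := ((univ.filter (fun i : Fin m => (i:ℕ) < j)).image φ ∪ (B ⟨j, hj⟩).biUnion (fun i =>
        univ.filter (fun x : Fin n => (∀ i' : Fin m, (i':ℕ) < j → φ i' ≠ x) ∧
          ∃ e ∈ X, e.1 = s(φ i, x)))) with hUdef
    have hUc : T ≤ (univ \ U).card := by
      rw [Finset.card_univ_diff, Fintype.card_fin]
      omega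
    obtain ⟨Y, hYsub, hYcard⟩ := Finset.exists_subset_card_eq hUc
    have hYU : ∀ y ∈ Y, y ∉ U := by
      intro y hy
      have := hYsub hy
      simp only [Finset.mem_sdiff, Finset.mem_univ, true_and] at this
      exact this
    have hYu : ∀ y ∈ Y, ∀ i' : Fin m, (i' : ℕ) < j → φ i' ≠ y := by
      intro y hy i' hi' heq
      apply hYU y hy
      rw [hUdef, Finset.mem_union]
      left
      rw [Finset.mem_image]
      exact ⟨i', by simp [hi'], heq⟩
    have hYf : ∀ y ∈ Y, ∀ i ∈ B ⟨j, hj⟩, ¬ ∃ e ∈ X, e.1 = s(φ i, y) := by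
      intro y hy i hi hex
      apply hYU y hy
      rw [hUdef, Finset.mem_union]
      right
      rw [Finset.mem_biUnion]
      refine ⟨i, hi, ?_⟩
      simp only [Finset.mem_filter, Finset.mem_univ, true_and]
      exact ⟨hYu y hy, hex⟩
    set X' := X ∪ Y.biUnion (slotsTo B φ ⟨j, hj⟩) with hX'
    set L : List (Finset (EdgeSlot n) × Set (EdgeSlot n → Bool)) :=
      Y.toList.map (fun x => (slotsTo B φ ⟨j, hj⟩ x,
        GoodExt n m B (j+1) (Function.update φ ⟨j, hj⟩ x) X')) with hL
    have hlen : L.length = T := by rw [hL, List.length_map, Finset.length_toList, hYcard]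
    have hmemL : ∀ s ∈ L, ∃ x ∈ Y, s = (slotsTo B φ ⟨j, hj⟩ x,
        GoodExt n m B (j+1) (Function.update φ ⟨j, hj⟩ x) X') := by
      intro s hs
      rw [hL, List.mem_map] at hs
      obtain ⟨x, hx, hxe⟩ := hs
      exact ⟨x, Finset.mem_toList.mp hx, hxe.symm⟩
    have hsubX' : ∀ x ∈ Y, slotsTo B φ ⟨j, hj⟩ x ⊆ X' := by
      intro x hx e he
      rw [hX', Finset.mem_union]
      exact Or.inr (Finset.mem_biUnion.mpr ⟨x, hx, he⟩)
    have hq1' : 0 ≤ 1 - q ^ D := by
      have := pow_le_one₀ (n := D) hq0 hq1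
      linarith
    have hδ0 : 0 ≤ (1 - q ^ D) ^ T := pow_nonneg hq1' _
    have hδ1 : (1 - q ^ D) ^ T ≤ 1 := pow_le_one₀ hq1' (by have := pow_nonneg hq0 D; linarith)
    have key := ex_trials_ge q hq0 hq1 D (max (1 - r * (1 - q ^ D) ^ T) 0) (le_max_right _ _) L
      (by
        rw [hL, List.pairwise_map]
        refine List.Pairwise.imp_of_mem ?_ (Finset.nodup_toList Y)
        intro x y hx hy hxy
        rw [Finset.mem_toList] at hx hy
        rw [Finset.disjoint_left]
        intro e he he'
        rw [mem_slotsTo] at he he'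
        obtain ⟨i, hi, hie⟩ := he
        obtain ⟨i', hi', hie'⟩ := he'
        rw [hie, Sym2.eq_iff] at hie'
        rcases hie' with ⟨_, h2⟩ | ⟨h1, _⟩
        · exact hxy h2
        · exact hYu y hy i (hB _ i hi) h1)
      (by
        intro s hs
        obtain ⟨x, hx, rfl⟩ := hmemL s hs
        exact (card_slotsTo B φ ⟨j, hj⟩ x).trans (hD _))
      (by
        intro s hs s' hs'
        obtain ⟨x, hx, rfl⟩ := hmemL s hs
        obtain ⟨x', hx', rfl⟩ := hmemL s' hs'
        intro ω ω' hω
        exact goodExt_indep n m B (j+1) _ X' _ (hsubX' x hx) ω ω' hω)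
      (by
        intro s hs
        obtain ⟨x, hx, rfl⟩ := hmemL s hs
        apply max_le
        · exact ih (j+1) (by omega) _ _ (inv_step hB hj I Y hYcard hYu x hx)
        · exact bernoulliProb_nonneg' q hq0 hq1 _)
    have hle : ex q (trials L) ≤ bernoulliProb q (GoodExt n m B j φ X) := by
      rw [bernoulliProb_eq_ex]
      apply ex_mono hq0 hq1
      intro ω
      apply trials_le
      intro s hs ω hall hgood
      obtain ⟨x, hx, rfl⟩ := hmemL s hs
      obtain ⟨ψ, hψ1, hψ2, hψ3⟩ := hgood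
      have hψj : ψ ⟨j, hj⟩ = x := by
        rw [hψ2 ⟨j, hj⟩ (by simp)]
        exact Function.update_self _ _ _
      have hψlt : ∀ i : Fin m, (i : ℕ) < j → ψ i = φ i := by
        intro i hi
        rw [hψ2 i (by omega)]
        apply Function.update_of_ne
        intro h
        rw [h] at hi
        exact lt_irrefl _ hi
      refine ⟨ψ, hψ1, hψlt, ?_⟩
      intro j' hj' i hi
      rcases Nat.eq_or_lt_of_le hj' with h | h
      · have hj'e : j' = ⟨j, hj⟩ := Fin.ext h.symm
        subst hj'e
        have hij : (i : ℕ) < j := hB _ i hi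
        have hne : ¬ (s(φ i, x) : Sym2 (Fin n)).IsDiag := by
          rw [Sym2.mk_isDiag_iff]
          exact hYu x hx i hij
        refine ⟨⟨s(φ i, x), hne⟩, ?_, ?_, ?_⟩
        · rw [hψj, hψlt i hij]
        · intro hX
          exact hYf x hx i hi ⟨_, hX, rfl⟩
        · apply hall
          rw [mem_slotsTo]
          exact ⟨i, hi, rfl⟩
      · obtain ⟨e, he1, he2, he3⟩ := hψ3 j' (by omega) i hi
        refine ⟨e, he1, fun hX => he2 ?_, he3⟩
        rw [hX', Finset.mem_union]
        exact Or.inl hX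
    rw [hlen] at key
    refine le_trans ?_ (key.trans hle)
    have hmax : (1 - r * (1 - q ^ D) ^ T) ≤ max (1 - r * (1 - q ^ D) ^ T) 0 := le_max_left _ _
    push_cast
    rcases le_or_gt 0 (1 - r * (1 - q ^ D) ^ T) with h | h
    · rw [max_eq_left h]
      have hr : (0:ℝ) ≤ r := Nat.cast_nonneg r
      nlinarith [mul_nonneg (mul_nonneg hr hδ0) hδ0]
    · rw [max_eq_right h.le]
      nlinarith

/-- **Greedy lemma.** A graph with back-neighbourhoods `B` of size at most `D` and forward degrees at
most `Δ` embeds in `G(n,q)` with probability at least `1 - m (1 - q^D)^T` if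
`m + D Δ T + T ≤ n`. -/
theorem greedy (n m D Δ T : ℕ) (q : ℝ) (hq0 : 0 ≤ q) (hq1 : q ≤ 1)
    (B : Fin m → Finset (Fin m)) (hB : ∀ j, ∀ i ∈ B j, i < j)
    (hD : ∀ j, (B j).card ≤ D)
    (hΔ : ∀ i, (univ.filter (fun j => i ∈ B j)).card ≤ Δ)
    (hn : m + D * Δ * T + T ≤ n) :
    1 - m * (1 - q ^ D) ^ T ≤ bernoulliProb q {ω : EdgeSlot n → Bool |
      ∃ φ : Fin m → Fin n, Function.Injective φ ∧ ∀ j, ∀ i ∈ B j, (graphOf ω).Adj (φ i) (φ j)} := by
  classical
  let φ0 : Fin m → Fin n := fun i => ⟨i, by have := i.2; omega⟩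
  have h := greedy_aux n m D Δ T q hq0 hq1 B hB hD hΔ hn m 0 (by omega) φ0 ∅ (by
    constructor
    · intro i i' hi; omega
    · intro e he; simp at he
    · intro i hi; omega)
  refine h.trans ?_
  rw [bernoulliProb_eq_ex, bernoulliProb_eq_ex]
  apply ex_mono hq0 hq1
  intro ω
  by_cases hω : ω ∈ GoodExt n m B 0 φ0 ∅
  · rw [if_pos hω, if_pos]
    obtain ⟨ψ, h1, _, h3⟩ := hω
    refine ⟨ψ, h1, ?_⟩
    intro j i hi
    obtain ⟨e, he1, _, he3⟩ := h3 j (by omega) i hi
    rw [graphOf, SimpleGraph.fromEdgeSet_adj]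
    have hnd : ¬ (s(ψ i, ψ j) : Sym2 (Fin n)).IsDiag := by rw [← he1]; exact e.2
    refine ⟨⟨hnd, ?_⟩, ?_⟩
    · have : (⟨s(ψ i, ψ j), hnd⟩ : EdgeSlot n) = e := Subtype.ext he1.symm
      rw [this]; exact he3
    · intro heq
      apply hnd
      rw [Sym2.mk_isDiag_iff]; exact heq
  · rw [if_neg hω]
    split_ifs <;> norm_num

end Greedy

end Crest.TG
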