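import Mathlib
import Crest.Prelude.Def_CopyThreshold
import Crest.Agent.TG6_Ext

/-! Transfer of the greedy lemma to graphs. -/

set_option autoImplicit false

namespace Crest.TG

open Finset Crest.CombinatoricsR.RandomGraph

theorem bernoulliProb_mono_set {ι : Type*} [Fintype ι] [DecidableEq ι] (p : ℝ) (hp0 : 0 ≤ p)
    (hp1 : p ≤ 1) (E E' : Set (ι → Bool)) (h : E ⊆ E') :
    Crest.FinProb.bernoulliProb p E ≤ Crest.FinProb.bernoulliProb p E' := by
  classical
  unfold Crest.FinProb.bernoulliProb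
  refine Finset.sum_le_sum_of_subset_of_nonneg ?_ ?_
  · intro ω hω
    rw [Finset.mem_filter] at hω ⊢
    exact ⟨hω.1, h hω.2⟩
  · intro ω _ _
    unfold Crest.FinProb.bernoulliWeight
    refine Finset.prod_nonneg fun i _ => ?_
    split_ifs
    · exact hp0
    · linarith

/-- the form of the greedy lemma (helper2) -/
def GreedyHyp (q : ℝ) (n : ℕ) : Prop :=
  ∀ (m D Δ T : ℕ) (B : Fin m → Finset (Fin m)), (∀ j, ∀ i ∈ B j, i < j) →
    (∀ j, (B j).card ≤ D) → (∀ i, (univ.filter (fun j => i ∈ B j)).card ≤ Δ) →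
    m + D * Δ * T + T ≤ n →
    1 - (m : ℝ) * (1 - q ^ D) ^ T ≤ Crest.FinProb.bernoulliProb q
      {ω : EdgeSlot n → Bool | ∃ φ : Fin m → Fin n, Function.Injective φ ∧
        ∀ j, ∀ i ∈ B j, (graphOf ω).Adj (φ i) (φ j)}

theorem greedy_graph_aux {W : Type} [Fintype W] [DecidableEq W] (F : SimpleGraph W)
    (U : Finset W) (hU : ∀ a b, F.Adj a b → a ∈ U) (σ : W → ℕ) (hσ : Function.Injective σ)
    (n D Δ T : ℕ)
    (hD : ∀ v (S : Finset W), (∀ u ∈ S, F.Adj v u ∧ σ u < σ v) → S.card ≤ D)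
    (hΔ : ∀ v (S : Finset W), (∀ u ∈ S, F.Adj v u) → S.card ≤ Δ)
    (q : ℝ) (hq0 : 0 ≤ q) (hq1 : q ≤ 1) (hW : Fintype.card W ≤ n)
    (hn : U.card + D * Δ * T + T ≤ n) (hG : GreedyHyp q n) :
    1 - (U.card : ℝ) * (1 - q ^ D) ^ T ≤ gnpProb n q {G | F.IsContained G} := by
  classical
  have hcard : (U.image σ).card = U.card := Finset.card_image_of_injective U hσ
  have hex : ∀ j : Fin U.card, ∃ w, w ∈ U ∧ σ w = (U.image σ).orderEmbOfFin hcard j := by
    intro j
    have h := (U.image σ).orderEmbOfFin_mem hcard j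
    rw [Finset.mem_image] at h
    exact h
  choose e heU heσ using hex
  have he_lt : ∀ i j, i < j ↔ σ (e i) < σ (e j) := by
    intro i j
    rw [heσ, heσ]
    exact ((U.image σ).orderEmbOfFin hcard).lt_iff_lt.symm
  have he_inj : Function.Injective e := by
    intro i j hij
    have h : (U.image σ).orderEmbOfFin hcard i = (U.image σ).orderEmbOfFin hcard j := by
      rw [← heσ, ← heσ, hij]
    exact ((U.image σ).orderEmbOfFin hcard).injective h
  have he_surj : ∀ w ∈ U, ∃ j, e j = w := by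
    intro w hw
    have h : σ w ∈ Set.range ((U.image σ).orderEmbOfFin hcard) := by
      rw [Finset.range_orderEmbOfFin]
      exact Finset.mem_coe.2 (Finset.mem_image_of_mem σ hw)
    obtain ⟨j, hj⟩ := h
    exact ⟨j, hσ (by rw [heσ, hj])⟩
  let B : Fin U.card → Finset (Fin U.card) := fun j =>
    univ.filter (fun i => F.Adj (e j) (e i) ∧ i < j)
  have hB1 : ∀ j, ∀ i ∈ B j, i < j := fun j i hi => (Finset.mem_filter.1 hi).2.2
  have hB2 : ∀ j, (B j).card ≤ D := by
    intro j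
    rw [← Finset.card_image_of_injective (B j) he_inj]
    refine hD (e j) _ fun u hu => ?_
    obtain ⟨i, hi, rfl⟩ := Finset.mem_image.1 hu
    exact ⟨(Finset.mem_filter.1 hi).2.1, (he_lt _ _).1 (Finset.mem_filter.1 hi).2.2⟩
  have hB3 : ∀ i, (univ.filter (fun j => i ∈ B j)).card ≤ Δ := by
    intro i
    rw [← Finset.card_image_of_injective _ he_inj]
    refine hΔ (e i) _ fun u hu => ?_
    obtain ⟨j, hj, rfl⟩ := Finset.mem_image.1 hu
    have hj' := (Finset.mem_filter.1 hj).2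
    exact ((Finset.mem_filter.1 hj').2.1).symm
  refine (hG U.card D Δ T B hB1 hB2 hB3 hn).trans ?_
  unfold gnpProb
  refine bernoulliProb_mono_set q hq0 hq1 _ _ ?_
  rintro ω ⟨φ, hφ, hadj⟩
  have hψ : ∃ ψ : W → Fin n, ∀ j, ψ (e j) = φ j := by
    rcases isEmpty_or_nonempty W with hW' | hW'
    · exact ⟨fun w => (hW'.false w).elim, fun j => (hW'.false (e j)).elim⟩
    · have hn0 : 0 < n := lt_of_lt_of_le Fintype.card_pos hW
      exact ⟨Function.extend e φ (fun _ => ⟨0, hn0⟩), fun j => he_inj.extend_apply _ _ _⟩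
  obtain ⟨ψ, hψ⟩ := hψ
  refine TG6.isContained_of_injOn F (graphOf ω) hW U ψ ?_ hU ?_
  · intro a ha b hb hab
    obtain ⟨i, rfl⟩ := he_surj a ha
    obtain ⟨j, rfl⟩ := he_surj b hb
    rw [hψ, hψ] at hab
    rw [hφ hab]
  · intro a b hab
    obtain ⟨i, rfl⟩ := he_surj a (hU a b hab)
    obtain ⟨j, rfl⟩ := he_surj b (hU b _ hab.symm)
    rw [hψ, hψ]
    rcases lt_trichotomy i j with h | h | h
    · exact hadj j i (Finset.mem_filter.2 ⟨Finset.mem_univ _, hab.symm, h⟩)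
    · rw [h] at hab
      exact (F.loopless.irrefl _ hab).elim
    · exact (hadj i j (Finset.mem_filter.2 ⟨Finset.mem_univ _, hab, h⟩)).symm

theorem greedy_num {W : Type} [Fintype W] [DecidableEq W] (F : SimpleGraph W)
    (U : Finset W) (hU : ∀ a b, F.Adj a b → a ∈ U) (σ : W → ℕ) (hσ : Function.Injective σ)
    (n D Δ T : ℕ)
    (hD : ∀ v (S : Finset W), (∀ u ∈ S, F.Adj v u ∧ σ u < σ v) → S.card ≤ D)
    (hΔ : ∀ v (S : Finset W), (∀ u ∈ S, F.Adj v u) → S.card ≤ Δ)
    (q : ℝ) (hq0 : 0 ≤ q) (hq1 : q ≤ 1) (hW : Fintype.card W ≤ n)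
    (hn : U.card + D * Δ * T + T ≤ n) (hG : GreedyHyp q n)
    (x ε : ℝ) (hx : x ≤ q ^ D) (hε : (n : ℝ) * Real.exp (-(x * T)) ≤ ε) :
    1 - ε ≤ gnpProb n q {G | F.IsContained G} := by
  refine le_trans ?_ (greedy_graph_aux F U hU σ hσ n D Δ T hD hΔ q hq0 hq1 hW hn hG)
  have h1 : (1 - q ^ D) ^ T ≤ Real.exp (-(x * T)) := by
    have h2 : 0 ≤ 1 - q ^ D := by
      have := pow_le_one₀ (n := D) hq0 hq1
      linarith
    have h3 : 1 - q ^ D ≤ Real.exp (-x) := by
      have := Real.add_one_le_exp (-x)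
      linarith
    calc (1 - q ^ D) ^ T ≤ (Real.exp (-x)) ^ T := pow_le_pow_left₀ h2 h3 T
      _ = Real.exp (-(x * T)) := by
        rw [← Real.exp_nat_mul]
        congr 1
        ring
  have h4 : (U.card : ℝ) ≤ n := by
    have : U.card ≤ n := by omega
    exact_mod_cast this
  have h5 : (U.card : ℝ) * (1 - q ^ D) ^ T ≤ n * Real.exp (-(x * T)) := by
    refine mul_le_mul h4 h1 ?_ (Nat.cast_nonneg n)
    refine pow_nonneg ?_ T
    have := pow_le_one₀ (n := D) hq0 hq1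
    linarith
  linarith

end Crest.TG
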