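import Crest.Agent.TG8_Gamma
import Crest.Agent.TG69_Spread
import Crest.Agent.TG96_Sub
import Crest.Agent.TG48_Glue
import Crest.Agent.TG73_Split
import Crest.Agent.TG_GreedyG
import Crest.Agent.TG_Greedy

/-!
# S0073: the dense range from `GAMMA` (helper86; independent copy)
-/

set_option autoImplicit false
set_option linter.unusedVariables false

namespace Crest.TG86
open Finset Crest.CombinatoricsR.RandomGraph

theorem greedyHyp (q : ℝ) (n : ℕ) (hq0 : 0 ≤ q) (hq1 : q ≤ 1) : Crest.TG.GreedyHyp q n := by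
  intro m D Δ T B h1 h2 h3 h4
  exact Crest.TG.greedy n m D Δ T q hq0 hq1 B h1 h2 h3 h4

/-- all numeric facts of the dense range -/
theorem dense_num : ∃ n0 : ℕ, ∀ n : ℕ, n0 ≤ n → ∃ Δ T : ℕ, 2 ≤ n ∧
    (n : ℝ) * Real.exp (-((n : ℝ) ^ (-(1 / 100) : ℝ) * T)) ≤ 1 / 2 ∧
    ∀ (N d : ℕ), N ≤ n → (d : ℝ) ≤ (n : ℝ) ^ (1 / 100 : ℝ) →
      64 * (N / 128 + 1) ≤ n ∧
      (∀ q : ℝ, (n : ℝ) ^ (-(1 / 100) : ℝ) ≤ q ^ (d / 400 + 1) →
        ((d / 400 + 1 : ℕ) : ℝ) * Real.log n ≤ 20 * n * q ^ (d / 400 + 1)) ∧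
      ∀ Jc : ℕ, Jc * Δ ≤ 2 * d * N → (Jc : ℝ) ≤ (n : ℝ) ^ (1 / 10 : ℝ) ∧
        2 * (N / 128 + 1) + (d / 400 + 1) * (max Δ (Jc + d)) * T + T ≤ n := by
  obtain ⟨n1, h1⟩ := TG63.ev_exp 2 1 1 (1 / 100) (by norm_num) (by norm_num)
  obtain ⟨n2, h2⟩ := TG63.ev_log' 1 1 (1 / 100) (by norm_num)
  obtain ⟨n3, h3⟩ := TG63.ev_log' 4 0 (1 / 100) (by norm_num)
  refine ⟨max (max n1 n2) (max n3 128), fun n hn => ?_⟩
  have hA := h1 n (le_trans (le_trans (le_max_left _ _) (le_max_left _ _)) hn)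
  have hB := h2 n (le_trans (le_trans (le_max_right _ _) (le_max_left _ _)) hn)
  have hC := h3 n (le_trans (le_trans (le_max_left _ _) (le_max_right _ _)) hn)
  have hn128 : 128 ≤ n := le_trans (le_trans (le_max_right _ _) (le_max_right _ _)) hn
  have hn0 : (0 : ℝ) < n := by exact_mod_cast (by omega : 0 < n)
  rw [pow_one, one_mul] at hB
  rw [pow_zero, mul_one] at hC
  rw [pow_one, one_mul] at hA
  set x : ℝ := (n : ℝ) ^ (1 / 100 : ℝ) with hx
  have hx0 : 0 < x := Real.rpow_pos_of_pos hn0 _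
  have hx100 : x ^ 100 = n := by
    rw [hx, ← Real.rpow_natCast, ← Real.rpow_mul hn0.le]; norm_num
  have hxinv : (n : ℝ) ^ (-(1 / 100) : ℝ) = x⁻¹ := by
    rw [hx, ← Real.rpow_neg hn0.le]
  have hx10 : (n : ℝ) ^ (1 / 10 : ℝ) = x ^ 10 := by
    rw [hx, ← Real.rpow_natCast, ← Real.rpow_mul hn0.le]; norm_num
  have hpow : ∀ a b : ℕ, a ≤ b → x ^ a ≤ x ^ b := fun a b hab =>
    pow_le_pow_right₀ (by linarith) hab
  have hpow4 : ∀ a : ℕ, 4 * x ^ a ≤ x ^ (a + 1) := fun a => by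
    rw [pow_succ, mul_comm]
    exact mul_le_mul_of_nonneg_left hC (by positivity)
  have hone : ∀ a : ℕ, 1 ≤ x ^ a := fun a => one_le_pow₀ (by linarith)
  have hT := Nat.le_ceil (x ^ 2)
  have hT' := (Nat.ceil_lt_add_one (show 0 ≤ x ^ 2 by positivity)).le
  have hD := Nat.le_ceil (x ^ 92)
  have hD' := (Nat.ceil_lt_add_one (show 0 ≤ x ^ 92 by positivity)).le
  refine ⟨⌈x ^ 92⌉₊, ⌈x ^ 2⌉₊, by omega, ?_, ?_⟩
  · rw [hxinv]
    have e1 : x ≤ x⁻¹ * (⌈x ^ 2⌉₊ : ℝ) := by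
      rw [inv_mul_eq_div, le_div_iff₀ hx0]
      calc x * x = x ^ 2 := by ring
        _ ≤ _ := hT
    have e2 : Real.exp (-(x⁻¹ * (⌈x ^ 2⌉₊ : ℝ))) ≤ Real.exp (-x) :=
      Real.exp_le_exp.2 (by linarith)
    have e3 : (n : ℝ) * Real.exp (-(x⁻¹ * (⌈x ^ 2⌉₊ : ℝ))) ≤ n * Real.exp (-x) :=
      mul_le_mul_of_nonneg_left e2 hn0.le
    linarith
  · intro N d hN hd
    have hNn : (N : ℝ) ≤ n := by exact_mod_cast hN
    have hdD : ((d / 400 + 1 : ℕ) : ℝ) ≤ 2 * x := by
      have h5 : ((d / 400 + 1 : ℕ) : ℝ) ≤ ((d + 1 : ℕ) : ℝ) := by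
        exact_mod_cast Nat.add_le_add_right (Nat.div_le_self d 400) 1
      push_cast at h5 ⊢
      linarith
    refine ⟨by omega, ?_, ?_⟩
    · intro q hq
      rw [hxinv] at hq
      have e1 : ((d / 400 + 1 : ℕ) : ℝ) * Real.log n ≤ (2 * x) * x :=
        mul_le_mul hdD hB (Real.log_natCast_nonneg n) (by positivity)
      have e2 : 20 * (n : ℝ) * x⁻¹ ≤ 20 * n * q ^ (d / 400 + 1) :=
        mul_le_mul_of_nonneg_left hq (by positivity)
      have e3 : 20 * (n : ℝ) * x⁻¹ = 20 * x ^ 99 := by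
        rw [← hx100]
        field_simp
      have e4 : x ^ 2 ≤ x ^ 99 := hpow 2 99 (by norm_num)
      rw [e3] at e2
      have e5 : 0 < x ^ 99 := by positivity
      nlinarith
    · intro Jc hJ
      have hJr : (Jc : ℝ) * (⌈x ^ 92⌉₊ : ℝ) ≤ 2 * d * N := by exact_mod_cast hJ
      have hJ1 : (Jc : ℝ) * x ^ 92 ≤ 2 * x * x ^ 100 := by
        calc (Jc : ℝ) * x ^ 92 ≤ (Jc : ℝ) * (⌈x ^ 92⌉₊ : ℝ) :=
              mul_le_mul_of_nonneg_left hD (Nat.cast_nonneg _)
          _ ≤ 2 * d * N := hJr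
          _ ≤ 2 * x * x ^ 100 := by
              rw [hx100]
              apply mul_le_mul _ hNn (Nat.cast_nonneg _) (by positivity)
              linarith
      have hJ2 : (Jc : ℝ) ≤ 2 * x ^ 9 := by
        have h6 : (Jc : ℝ) * x ^ 92 ≤ (2 * x ^ 9) * x ^ 92 := by
          calc (Jc : ℝ) * x ^ 92 ≤ 2 * x * x ^ 100 := hJ1
            _ = (2 * x ^ 9) * x ^ 92 := by ring
        exact le_of_mul_le_mul_right h6 (by positivity)
      have h9 : 4 * x ^ 9 ≤ x ^ 10 := hpow4 9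
      have hJ3 : (Jc : ℝ) ≤ x ^ 10 := by
        have : 0 < x ^ 9 := by positivity
        linarith
      refine ⟨by rw [hx10]; exact hJ3, ?_⟩
      have hmax : ((max ⌈x ^ 92⌉₊ (Jc + d) : ℕ) : ℝ) ≤ 2 * x ^ 92 := by
        push_cast
        apply max_le
        · have := hone 92
          linarith
        · have e1 := hpow 10 92 (by norm_num)
          have e2 := hpow 1 92 (by norm_num)
          rw [pow_one] at e2
          linarith
      have hTT : ((⌈x ^ 2⌉₊ : ℕ) : ℝ) ≤ 2 * x ^ 2 := by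
        have := hone 2
        linarith
      have hprod : ((d / 400 + 1 : ℕ) : ℝ) * ((max ⌈x ^ 92⌉₊ (Jc + d) : ℕ) : ℝ) *
          ((⌈x ^ 2⌉₊ : ℕ) : ℝ) ≤ (2 * x) * (2 * x ^ 92) * (2 * x ^ 2) := by
        apply mul_le_mul _ hTT (Nat.cast_nonneg _) (by positivity)
        exact mul_le_mul hdD hmax (Nat.cast_nonneg _) (by positivity)
      have hN128 : ((N / 128 : ℕ) : ℝ) ≤ n / 128 := by
        calc ((N / 128 : ℕ) : ℝ) ≤ (N : ℝ) / 128 := Nat.cast_div_le
          _ ≤ n / 128 := by linarith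
      have hfin : ((2 * (N / 128 + 1) + (d / 400 + 1) * (max ⌈x ^ 92⌉₊ (Jc + d)) * ⌈x ^ 2⌉₊ +
          ⌈x ^ 2⌉₊ : ℕ) : ℝ) ≤ (n : ℝ) := by
        have e0 : ((2 * (N / 128 + 1) + (d / 400 + 1) * (max ⌈x ^ 92⌉₊ (Jc + d)) * ⌈x ^ 2⌉₊ +
          ⌈x ^ 2⌉₊ : ℕ) : ℝ) = 2 * (((N / 128 : ℕ) : ℝ) + 1) +
            ((d / 400 + 1 : ℕ) : ℝ) * ((max ⌈x ^ 92⌉₊ (Jc + d) : ℕ) : ℝ) *
          ((⌈x ^ 2⌉₊ : ℕ) : ℝ) + ((⌈x ^ 2⌉₊ : ℕ) : ℝ) := by push_cast; ring
        rw [e0]
        have e1 : (2 * x) * (2 * x ^ 92) * (2 * x ^ 2) = 8 * x ^ 95 := by ring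
        rw [e1] at hprod
        have f1 : 4 * x ^ 95 ≤ x ^ 96 := hpow4 95
        have f2 : 4 * x ^ 96 ≤ x ^ 97 := hpow4 96
        have f3 : 4 * x ^ 97 ≤ x ^ 98 := hpow4 97
        have f4 : x ^ 98 ≤ x ^ 100 := hpow 98 100 (by norm_num)
        have f5 : x ^ 2 ≤ x ^ 95 := hpow 2 95 (by norm_num)
        have f6 := hone 95
        rw [← hx100] at hN128 ⊢
        linarith
      exact_mod_cast hfin


/-- a LOW class -/
theorem low_class {W : Type} [Fintype W] [DecidableEq W] (F : SimpleGraph W) [DecidableRel F.Adj]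
    (σ : W → ℕ) (hσ : Function.Injective σ) (n D Δ T : ℕ)
    (hD : ∀ v, (univ.filter (fun u => F.Adj v u ∧ σ u < σ v)).card ≤ D)
    (hΔ : ∀ v, (univ.filter (fun u => F.Adj v u)).card ≤ Δ)
    (P : ℝ) (hP0 : 0 ≤ P) (hP1 : P ≤ 1) (hW : Fintype.card W ≤ n)
    (U : ℕ) (hU : (univ.filter (fun v => ∃ u, F.Adj v u)).card ≤ U)
    (hn : U + D * Δ * T + T ≤ n) (x : ℝ) (hx : x ≤ P ^ D)
    (hε : (n : ℝ) * Real.exp (-(x * T)) ≤ 1 / 2) :
    1 / 2 ≤ gnpProb n P {G | F.IsContained G} := by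
  have h := Crest.TG.greedy_num F (univ.filter (fun v => ∃ u, F.Adj v u))
    (fun a b hab => by simp only [mem_filter, mem_univ, true_and]; exact ⟨b, hab⟩) σ hσ n D Δ T
    (fun v S hS => le_trans (card_le_card (fun u hu => by
      simp only [mem_filter, mem_univ, true_and]; exact hS u hu)) (hD v))
    (fun v S hS => le_trans (card_le_card (fun u hu => by
      simp only [mem_filter, mem_univ, true_and]; exact hS u hu)) (hΔ v))
    P hP0 hP1 hW (le_trans (by omega) hn) (greedyHyp P n hP0 hP1) x (1 / 2) hx hε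
  linarith

/-- the graph of a class of a symmetric labelling -/
def cls {W : Type} {Λ : Type} (H : SimpleGraph W) (lab : Sym2 W → Λ) (l : Λ) : SimpleGraph W where
  Adj v u := H.Adj v u ∧ lab s(v, u) = l
  symm := ⟨fun v u h => ⟨h.1.symm, by rw [Sym2.eq_swap]; exact h.2⟩⟩
  loopless := ⟨fun v h => H.loopless.irrefl v h.1⟩

theorem card_eq' {α : Type} {A B : Finset α} (h : ∀ x, x ∈ A ↔ x ∈ B) : A.card = B.card := by
  rw [Finset.ext h]

theorem dense (hΓ : Crest.TG8.GAMMA) : Crest.TG8.DENSE := by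
  classical
  obtain ⟨m, hm, L0, hL0, n1, hΓ⟩ := hΓ
  obtain ⟨n2, hnum⟩ := dense_num
  obtain ⟨n3, hord⟩ := Crest.TG96.order_exists
  let Λ := Bool × Fin 400 × Fin 128 × Fin 128
  let K := Fintype.card Λ
  refine ⟨K * m, Nat.mul_pos Fintype.card_pos hm, L0, hL0, max n1 (max n2 n3), ?_⟩
  intro n hn2 hn W _ _ H _ hW hH q hq0 hLq hqn hFM
  have hnn1 : n1 ≤ n := le_trans (le_max_left _ _) hn.le
  have hnn2 : n2 ≤ n := le_trans (le_trans (le_max_left _ _) (le_max_right _ _)) hn.le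
  have hnn3 : n3 ≤ n := le_trans (le_trans (le_max_right _ _) (le_max_right _ _)) hn.le
  have hq2 : q ≤ 1 / 2 := by nlinarith
  have hP0 : 0 ≤ L0 * q := by positivity
  have hqP : q ≤ L0 * q := by nlinarith
  obtain ⟨ι⟩ : Nonempty (W ↪ Fin n) :=
    Function.Embedding.nonempty_of_card_le (by rwa [Fintype.card_fin])
  have hFM' : Crest.TG69.FM H n q := hFM
  obtain ⟨Δ, T, -, hexp, hnum⟩ := hnum n hnn2
  obtain ⟨d, σ0, hσd, hqD, hdn⟩ := hord n hnn3 W H q hq0 hq2 hqn (fun U _ =>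
    Crest.TG69.density H q hq0.le ι hFM' U)
  obtain ⟨h64, hlogD, hJnum⟩ := hnum (Fintype.card W) d hW hdn
  let σ : W → ℕ := fun v => (σ0 v : ℕ)
  have hσ : Function.Injective σ := fun a b h => σ0.injective (Fin.ext h)
  have hσd' : ∀ v, (univ.filter (fun u => H.Adj v u ∧ σ u < σ v)).card ≤ d := hσd
  let J : Finset W := univ.filter (fun v => Δ < (univ.filter (fun u => H.Adj v u)).card)
  obtain ⟨hJ10, hsum⟩ := hJnum J.card (Crest.TG73.hub_card H σ hσ d Δ hσd')
  obtain ⟨lab, hlab⟩ := Crest.TG73.dense_split H σ hσ d Δ 400 128 (by norm_num) (by norm_num)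
    hσd' J rfl
  -- the classes
  let e : Λ ≃ Fin K := Fintype.equivFin Λ
  apply Crest.TG48.glue_good' (m := K) (k := m) (K := K * m) le_rfl H
    (fun F => 1 / 2 ≤ gnpProb n (L0 * q) {G | F.IsContained G})
    (fun A B hAB hB => le_trans hB (Crest.TG48.gnpProb_contained_mono hP0 hLq.le hAB)) ?_
    (fun j => cls H lab (e.symm j)) ?_ (fun _ => m) (fun _ => le_rfl) ?_
  · -- bot
    have hbot := low_class (⊥ : SimpleGraph W) σ hσ n 0 0 T (by simp) (by simp) (L0 * q) hP0 hLq.le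
      hW 0 (by simp) (by simp; omega) ((n : ℝ) ^ (-(1 / 100) : ℝ)) (by
        rw [pow_zero]
        exact le_trans hqD (pow_le_one₀ hq0.le (by linarith))) hexp
    exact hbot
  · intro u v huv
    refine ⟨e (lab s(u, v)), huv, ?_⟩
    simp
  · intro j
    obtain ⟨bb, i, a, b, hl⟩ : ∃ bb i a b, e.symm j = (bb, i, a, b) :=
      ⟨(e.symm j).1, (e.symm j).2.1, (e.symm j).2.2.1, (e.symm j).2.2.2, rfl⟩
    obtain ⟨c1, c2, c3, c4, c5, c6⟩ := hlab i a b
    show ∃ c : (cls H lab (e.symm j)).edgeSet → Fin m, ∀ i,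
      1 / 2 ≤ gnpProb n (L0 * q) {G | (pieceGraph (cls H lab (e.symm j)) c i).IsContained G}
    rw [hl]
    cases bb with
    | true =>
      -- a LOW class: one label is enough
      refine ⟨fun _ => ⟨0, hm⟩, fun i' => ?_⟩
      have hgood : 1 / 2 ≤ gnpProb n (L0 * q) {G | (cls H lab (true, i, a, b)).IsContained G} := by
        apply low_class (cls H lab (true, i, a, b)) σ hσ n (d / 400 + 1) (max Δ (J.card + d)) T
          _ _ (L0 * q) hP0 hLq.le hW (2 * (Fintype.card W / 128 + 1)) _ hsum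
          ((n : ℝ) ^ (-(1 / 100) : ℝ)) _ hexp
        · intro v
          refine le_trans (le_of_eq (card_eq' fun u => ?_)) (c1 v)
          simp only [mem_filter, mem_univ, true_and]; exact Iff.rfl
        · intro v
          refine le_trans (le_of_eq (card_eq' fun u => ?_)) (c2 v)
          simp only [mem_filter, mem_univ, true_and]; exact Iff.rfl
        · refine le_trans (le_of_eq (card_eq' fun u => ?_)) c3
          simp only [mem_filter, mem_univ, true_and]; exact Iff.rfl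
        · exact le_trans hqD (pow_le_pow_left₀ hq0.le hqP _)
      refine le_trans hgood (Crest.TG48.gnpProb_contained_mono hP0 hLq.le ?_)
      exact Crest.TG48.pieceGraph_le _ _ _
    | false =>
      apply hΓ n hnn1 W (cls H lab (false, i, a, b)) J q (d / 400 + 1) hq0 hLq hW
      · intro u v huv
        rcases c4 u v huv.1 huv.2 with ⟨h1, h2, _⟩ | ⟨h1, h2, _⟩
        · exact Or.inr ⟨h2, h1⟩
        · exact Or.inl ⟨h1, h2⟩
      · exact hJ10
      · intro v hv
        refine le_trans (le_of_eq (card_eq' fun u => ?_)) (c5 v hv)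
        simp only [mem_filter, mem_univ, true_and]; exact Iff.rfl
      · exact hqD
      · refine le_trans (Nat.mul_le_mul_left 64 (le_trans (le_of_eq (card_eq' fun u => ?_)) c6)) h64
        simp only [mem_filter, mem_univ, true_and]; exact Iff.rfl
      · intro S hS
        have hsp := Crest.TG69.spread_hub H q hq0 (by linarith) (by omega) ι hFM' J (d / 400 + 1)
          (by exact_mod_cast hlogD q hqD)
          (fun v => univ.filter (fun u => (cls H lab (false, i, a, b)).Adj v u))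
          (fun v hv u hu => by
            simp only [mem_filter, mem_univ, true_and] at hu
            rcases c4 v u hu.1 hu.2 with ⟨h1, h2, _⟩ | ⟨h1, h2, _⟩
            · exact h1
            · exact absurd h1 hv)
          (fun v hv u hu => by
            simp only [mem_filter, mem_univ, true_and] at hu
            exact hu.1)
          (fun v hv => le_trans (le_of_eq (card_eq' fun u => by
            simp only [mem_filter, mem_univ, true_and]; exact Iff.rfl)) (c5 v hv)) S hS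
        refine le_trans (le_of_eq ?_) hsp
        congr 2
        ext v
        simp only [mem_filter, mem_univ, true_and, Finset.subset_iff]

end Crest.TG86
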