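import Crest.Statements.S0074
import Crest.Agent.IMX_P12
import Crest.Agent.IMX_Bridge
import Crest.Agent.IMX_Fine3
import Crest.Agent.IMX_Ray

set_option autoImplicit false
open Crest Crest.CombinatoricsR

namespace Crest.Agent.S0074

/-- There are two matroids M₀, M₁ on the whole of ℕ (a countably infinite ground set), each equal to its own dual on the same labelled ground set, such that no independent set of M₀ together with an independent set of M₁ covers ℕ, and the pair has no packing/covering partition: no splitting ℕ = P ⊔ C allows disjoint S₀, S₁ ⊆ P with Sᵢ spanning the restriction of Mᵢ to P, and sets I₀, I₁ with union C, Iᵢ independent in the contraction of Mᵢ onto C (the complement of C contracted). -/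
theorem result :
    ∃ M₀ M₁ : Matroid ℕ, M₀.E = Set.univ ∧ M₁.E = Set.univ ∧ M₀.dual = M₀ ∧ M₁.dual = M₁ ∧
      (∀ I₀ I₁ : Set ℕ, M₀.Indep I₀ → M₁.Indep I₁ → I₀ ∪ I₁ ≠ Set.univ) ∧
      ¬ ∃ P C S₀ S₁ I₀ I₁ : Set ℕ, P ∪ C = Set.univ ∧ Disjoint P C ∧
          S₀ ⊆ P ∧ S₁ ⊆ P ∧ Disjoint S₀ S₁ ∧
          (M₀.restrict P).closure S₀ = P ∧ (M₁.restrict P).closure S₁ = P ∧
          I₀ ⊆ C ∧ I₁ ⊆ C ∧ (M₀.contract Cᶜ).Indep I₀ ∧ (M₁.contract Cᶜ).Indep I₁ ∧
          I₀ ∪ I₁ = C := by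
  have hVc : Cardinal.mk (Set IMX.V) ≤ Cardinal.continuum := by
    rw [Cardinal.mk_set]
    calc (2 : Cardinal) ^ Cardinal.mk IMX.V ≤ 2 ^ Cardinal.aleph0 :=
          Cardinal.power_le_power_left two_ne_zero Cardinal.mk_le_aleph0
      _ = Cardinal.continuum := Cardinal.two_power_aleph0
  obtain ⟨s, h0, c1, c2, c3, c4, hno⟩ := IMX.P12.exists_coarse IMX.Thin hVc IMX.thin_empty
    (fun X Y h hY => IMX.thin_mono h hY) (fun X Y hX hY => IMX.thin_union hX hY)
    IMX.not_thin_univ IMX.Q (fun Z hZ => IMX.split_finite Z hZ)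
  obtain ⟨t, ht, t1, t2, t3, t4⟩ := IMX.transfer s c1 c2 c3 c4
  obtain ⟨M, hE, hd, hM⟩ := IMX.exists_matroid IMX.G2 IMX.G2_not_thin_univ t
    (fun X => by rw [ht]; exact h0 _ _) t1 t2 t3 t4
  haveI : Nonempty IMX.V := ⟨⟨0, fun _ => true⟩⟩
  exact IMX.final M hE hd (fun Y S => 0 ≤ s Y S)
    (fun I hI => by have := hM I hI; rwa [ht] at this) hno

end Crest.Agent.S0074
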