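import Crest.Statements.S0076
import Crest.Agent.KK_D3

set_option autoImplicit false
open Crest Crest.CombinatoricsR

namespace Crest.Agent.S0076

/-- Let n ≥ 2 and let H be a finite simple graph with h ≥ 1 edges on at most n vertices. Suppose the edge probability p ∈ [0, 1] is such that for every subgraph F of H the expected number of subgraphs of the binomial random graph on n labelled vertices that are isomorphic to F is at least 1/2. Then at edge probability min(1, 2^11 · e^50 · p · (1 + log₂ h)) that random graph contains a (not necessarily induced) copy of H with probability at least 1/2. -/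
theorem result
    (n : ℕ) (hn : 2 ≤ n) (W : Type) [Fintype W] [DecidableEq W] (H : SimpleGraph W)
    [DecidableRel H.Adj] (hW : Fintype.card W ≤ n) (hH : 1 ≤ H.edgeFinset.card)
    (p : ℝ) (hp0 : 0 ≤ p) (hp1 : p ≤ 1)
    (hE : ∀ F : H.Subgraph, (1 : ℝ) / 2 ≤
      Crest.CombinatoricsR.RandomGraph.gnpExpect n p (fun G => (G.copyCount F.coe : ℝ))) :
    (1 : ℝ) / 2 ≤ Crest.CombinatoricsR.RandomGraph.gnpProb n
      (min 1 (2048 * Real.exp 50 * p * (1 + Real.logb 2 (H.edgeFinset.card : ℝ))))
      {G | H.IsContained G} := by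
  classical
  obtain ⟨ι⟩ : Nonempty (W ↪ Fin n) :=
    Function.Embedding.nonempty_of_card_le (by rwa [Fintype.card_fin])
  have hp : 0 < p := KK.p_pos H ι p hp0 hp1 hH hE
  set h := H.edgeFinset.card with hh
  set m := Nat.log 2 h + 1 with hm
  have hm1 : 1 ≤ m := by omega
  have hhm : h < 2 ^ m := Nat.lt_pow_succ_log_self (by norm_num) h
  have hexp : (2 : ℝ) ^ 60 ≤ 2048 * Real.exp 50 := by
    have h1 : (2 : ℝ) ≤ Real.exp 1 := by
      have := Real.add_one_le_exp (1 : ℝ); linarith
    have h2 : Real.exp 50 = (Real.exp 1) ^ 50 := by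
      rw [← Real.exp_nat_mul]; norm_num
    rw [h2]
    have h3 : (2 : ℝ) ^ 50 ≤ (Real.exp 1) ^ 50 := by gcongr
    nlinarith [h3]
  have hlog : (m : ℝ) ≤ 1 + Real.logb 2 (h : ℝ) := by
    have h1 := Real.natLog_le_logb h 2
    rw [hm]
    push_cast
    push_cast at h1
    linarith
  have hkey : (m : ℝ) * (2 ^ 60 * p) ≤
      2048 * Real.exp 50 * p * (1 + Real.logb 2 (h : ℝ)) := by
    have hm0 : (0 : ℝ) ≤ m := Nat.cast_nonneg _
    calc (m : ℝ) * (2 ^ 60 * p) = 2 ^ 60 * p * m := by ring
      _ ≤ 2048 * Real.exp 50 * p * m := by gcongr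
      _ ≤ 2048 * Real.exp 50 * p * (1 + Real.logb 2 (h : ℝ)) := by gcongr
  by_cases hmq : (m : ℝ) * (2 ^ 60 * p) ≤ 1
  · have h1 := KK.rounds H ι p hp hp1 hE m hm1 hhm hmq
    refine h1.trans ?_
    unfold Crest.CombinatoricsR.RandomGraph.gnpProb
    apply KK.bernoulliProb_mono
    · positivity
    · exact le_min hmq hkey
    · exact min_le_left _ _
    · intro ω ω' hω hωω'
      exact KK.isContained_mono H ω ω' hω hωω'
  · push Not at hmq
    have h1 : min 1 (2048 * Real.exp 50 * p * (1 + Real.logb 2 (h : ℝ))) = 1 :=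
      min_eq_left (hmq.le.trans hkey)
    rw [h1]
    have h2 : (1 : ℝ) ≤ Crest.CombinatoricsR.RandomGraph.gnpProb n 1 {G | H.IsContained G} := by
      unfold Crest.CombinatoricsR.RandomGraph.gnpProb
      apply KK.bernoulliProb_one
      show H.IsContained (Crest.CombinatoricsR.RandomGraph.graphOf _)
      apply KK.isContained_of_full H ι 1
      intro x _
      rfl
    linarith

end Crest.Agent.S0076
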