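import Crest.Agent.S0077_Russo

/-! Task T10b: integration of the differential inequality. -/

set_option autoImplicit false
open Finset Crest Crest.FinProb

namespace Crest.Agent.S0077

theorem ind_sub_eq_piv {ι : Type*} [DecidableEq ι] (f : (ι → Bool) → Bool)
    (hmono : ∀ ω ω' : ι → Bool, (∀ i, ω i = true → ω' i = true) → f ω = true → f ω' = true)
    (e : ι) (ω : ι → Bool) :
    ind f (Function.update ω e true) - ind f (Function.update ω e false) = piv f e ω := by
  have h := hmono (Function.update ω e false) (Function.update ω e true) (by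
    intro i hi
    by_cases hie : i = e
    · subst hie; simp
    · simpa [Function.update_of_ne hie] using hi)
  unfold ind piv
  cases h1 : f (Function.update ω e false) <;> cases h2 : f (Function.update ω e true) <;>
    simp_all

/-- **T10b.** integration of the differential inequality (used with `K = (log n)² / 2^17`).
`P_s = ex s (ind f)` is nondecreasing and differentiable with derivative `∑ ex s (piv f e)` (`russo` and
monotonicity). If `P_q < 1 - ε` then `P_s ∈ [ε, 1-ε)` on `[p,q]`, `g(s) = log (P_s/(1-P_s))` has `g' ≥ K` on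
`(p,q)`, so `4 log (1/(2ε)) ≤ K (q-p) ≤ g(q) - g(p) < 2 log((1-ε)/ε)`, contradicting `4ε(1-ε) ≤ 1`. -/
theorem integrate {ι : Type*} [Fintype ι] [DecidableEq ι] (f : (ι → Bool) → Bool)
    (hmono : ∀ ω ω' : ι → Bool, (∀ i, ω i = true → ω' i = true) → f ω = true → f ω' = true)
    (K : ℝ) (hK : 0 < K)
    (hvar : ∀ p : ℝ, 0 < p → p < 1 →
      K * (ex p (ind f) * (1 - ex p (ind f))) ≤ ∑ e, ex p (piv f e))
    (ε : ℝ) (hε0 : 0 < ε) (hε : ε < 1 / 2) (p q : ℝ) (hp0 : 0 ≤ p) (hp1 : p ≤ 1) (hq0 : 0 ≤ q)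
    (hq1 : q ≤ 1) (hp : ε ≤ ex p (ind f)) (hq : p + 4 / K * Real.log (1 / (2 * ε)) ≤ q) :
    1 - ε ≤ ex q (ind f) := by
  obtain ⟨P, hP⟩ : ∃ P : ℝ → ℝ, P = fun s => ex s (ind f) := ⟨_, rfl⟩
  obtain ⟨D, hD⟩ : ∃ D : ℝ → ℝ, D = fun s => ∑ e, ex s (piv f e) := ⟨_, rfl⟩
  have hder : ∀ s, HasDerivAt P (D s) s := by
    intro s
    have h := russo (ind f) s
    simp only [ind_sub_eq_piv f hmono] at h
    rw [hP, hD]
    exact h
  have hD0 : ∀ s, 0 ≤ s → s ≤ 1 → 0 ≤ D s := by
    intro s h0 h1
    rw [hD]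
    apply Finset.sum_nonneg
    intro e _
    apply ex_nonneg h0 h1
    intro ω
    unfold piv
    split_ifs <;> norm_num
  have hcont : Continuous P := continuous_iff_continuousAt.2 (fun s => (hder s).continuousAt)
  have hmonoP : MonotoneOn P (Set.Icc 0 1) := by
    apply monotoneOn_of_deriv_nonneg (convex_Icc 0 1) hcont.continuousOn
    · exact fun s _ => (hder s).differentiableAt.differentiableWithinAt
    · intro s hs
      rw [interior_Icc] at hs
      rw [(hder s).deriv]
      exact hD0 s hs.1.le hs.2.le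
  have hlog : 0 < Real.log (1 / (2 * ε)) := by
    apply Real.log_pos
    rw [lt_div_iff₀ (by positivity)]
    linarith
  have hpq : p < q := by
    have : 0 < 4 / K * Real.log (1 / (2 * ε)) := by positivity
    linarith
  have hPp : ε ≤ P p := by rw [hP]; exact hp
  by_contra hcon
  push Not at hcon
  have hPq : P q < 1 - ε := by rw [hP]; exact hcon
  have hlo : ∀ s, p ≤ s → s ≤ q → ε ≤ P s := fun s h1 h2 =>
    hPp.trans (hmonoP ⟨hp0, hp1⟩ ⟨hp0.trans h1, h2.trans hq1⟩ h1)
  have hhi : ∀ s, p ≤ s → s ≤ q → P s < 1 - ε := fun s h1 h2 =>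
    lt_of_le_of_lt (hmonoP ⟨hp0.trans h1, h2.trans hq1⟩ ⟨hq0, hq1⟩ h2) hPq
  obtain ⟨g, hg⟩ : ∃ g : ℝ → ℝ, g = fun s => Real.log (P s) - Real.log (1 - P s) - K * s :=
    ⟨_, rfl⟩
  have hgd : ∀ s, p ≤ s → s ≤ q → HasDerivAt g (D s / P s - (-D s) / (1 - P s) - K) s := by
    intro s h1 h2
    have e1 : P s ≠ 0 := by have := hlo s h1 h2; linarith
    have e2 : 1 - P s ≠ 0 := by have := hhi s h1 h2; linarith
    rw [hg]
    have h3 := (hder s).log e1
    have h4 := ((hder s).const_sub 1).log e2
    have h5 := (hasDerivAt_id s).const_mul K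
    rw [mul_one] at h5
    exact (h3.sub h4).sub h5
  have hgm : MonotoneOn g (Set.Icc p q) := by
    apply monotoneOn_of_deriv_nonneg (convex_Icc p q)
    · exact fun s hs => (hgd s hs.1 hs.2).continuousAt.continuousWithinAt
    · intro s hs
      rw [interior_Icc] at hs
      exact (hgd s hs.1.le hs.2.le).differentiableAt.differentiableWithinAt
    · intro s hs
      rw [interior_Icc] at hs
      rw [(hgd s hs.1.le hs.2.le).deriv]
      have h1 := hlo s hs.1.le hs.2.le
      have h2 := hhi s hs.1.le hs.2.le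
      have h3 : 0 < P s := by linarith
      have h4 : 0 < 1 - P s := by linarith
      have h5 := hvar s (by linarith [hs.1]) (by linarith [hs.2])
      have h6 : K * (P s * (1 - P s)) ≤ D s := by rw [hP, hD]; exact h5
      have h7 : D s / P s - (-D s) / (1 - P s) = D s / (P s * (1 - P s)) := by
        field_simp
        ring
      rw [h7, sub_nonneg, le_div_iff₀ (by positivity)]
      exact h6
  have hfin := hgm ⟨le_rfl, hpq.le⟩ ⟨hpq.le, le_rfl⟩ hpq.le
  rw [hg] at hfin
  simp only at hfin
  -- bounds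
  have b1 : Real.log (P q) ≤ Real.log (1 - ε) := by
    apply Real.log_le_log _ hPq.le
    have := hlo q hpq.le le_rfl
    linarith
  have b2 : Real.log ε ≤ Real.log (1 - P q) := Real.log_le_log hε0 (by linarith)
  have b3 : Real.log ε ≤ Real.log (P p) := Real.log_le_log hε0 hPp
  have b4 : Real.log (1 - P p) ≤ Real.log (1 - ε) := by
    apply Real.log_le_log
    · have := hhi p le_rfl hpq.le
      linarith
    · linarith
  have b1' : Real.log (P q) < Real.log (1 - ε) := by
    apply Real.log_lt_log _ hPq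
    have := hlo q hpq.le le_rfl
    linarith
  have b5 : 4 * Real.log (1 / (2 * ε)) ≤ K * (q - p) := by
    have h1 : 4 / K * Real.log (1 / (2 * ε)) ≤ q - p := by linarith
    have h2 := mul_le_mul_of_nonneg_left h1 hK.le
    calc 4 * Real.log (1 / (2 * ε)) = K * (4 / K * Real.log (1 / (2 * ε))) := by
          field_simp
      _ ≤ _ := h2
  have b6 : 4 * Real.log (1 / (2 * ε)) < 2 * (Real.log (1 - ε) - Real.log ε) := by linarith
  have b7 : Real.log ((1 / (2 * ε)) ^ 2) < Real.log ((1 - ε) / ε) := by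
    rw [Real.log_pow, Real.log_div (by linarith) hε0.ne']
    push_cast
    linarith
  have b8 := (Real.log_lt_log_iff (by positivity) (by
    apply div_pos _ hε0
    linarith)).1 b7
  rw [lt_div_iff₀ hε0] at b8
  have b9 : (1 / (2 * ε)) ^ 2 * ε = 1 / (4 * ε) := by
    field_simp
    ring
  rw [b9, div_lt_iff₀ (by positivity)] at b8
  nlinarith [sq_nonneg (1 - 2 * ε)]

end Crest.Agent.S0077
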