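import Crest.Agent.S0077_MainTwo
import Crest.Agent.S0077_Integrate

/-! Task T11: transfer between graphs and 2-uniform hypergraphs. -/

set_option autoImplicit false
open Finset Crest Crest.FinProb Crest.CombinatoricsR.HypergraphCube Crest.CombinatoricsR.RandomGraph

namespace Crest.Agent.S0077

variable {n : ℕ}

/-- slots of graphs and slots of 2-uniform hypergraphs -/
def slotFun (n : ℕ) : EdgeSlot n → HyperedgeSlot n 2 :=
  fun z => ⟨z.1.toFinset, Sym2.card_toFinset_of_not_isDiag z.1 z.2⟩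

theorem slotFun_mk {i j : Fin n} (h : ¬ (s(i, j) : Sym2 (Fin n)).IsDiag) :
    (slotFun n ⟨s(i, j), h⟩).1 = {i, j} := Sym2.toFinset_mk_eq

theorem slotFun_bijective (n : ℕ) : Function.Bijective (slotFun n) := by
  constructor
  · intro z w h
    have h1 : z.1.toFinset = w.1.toFinset := congrArg Subtype.val h
    apply Subtype.ext
    apply Sym2.ext
    intro x
    rw [← Sym2.mem_toFinset, ← Sym2.mem_toFinset, h1]
  · rintro ⟨s, hs⟩
    obtain ⟨a, b, hab, rfl⟩ := Finset.card_eq_two.1 hs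
    have hd : ¬ (s(a, b) : Sym2 (Fin n)).IsDiag := by simpa using hab
    exact ⟨⟨s(a, b), hd⟩, Subtype.ext (slotFun_mk hd)⟩

noncomputable def slotEquiv (n : ℕ) : EdgeSlot n ≃ HyperedgeSlot n 2 :=
  Equiv.ofBijective _ (slotFun_bijective n)

open Classical in
/-- the Boolean function of a graph property -/
noncomputable def propFun (P : Set (SimpleGraph (Fin n))) (x : HyperedgeSlot n 2 → Bool) : Bool :=
  decide (graphOf (fun z => x (slotEquiv n z)) ∈ P)

theorem propFun_iff (P : Set (SimpleGraph (Fin n))) (x : HyperedgeSlot n 2 → Bool) :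
    propFun P x = true ↔ graphOf (fun z => x (slotEquiv n z)) ∈ P := by
  unfold propFun
  simp

theorem graphOf_adj (ω : EdgeSlot n → Bool) (i j : Fin n) :
    (graphOf ω).Adj i j ↔ ∃ h : ¬ (s(i, j) : Sym2 (Fin n)).IsDiag, ω ⟨s(i, j), h⟩ = true := by
  unfold graphOf
  rw [SimpleGraph.fromEdgeSet_adj]
  constructor
  · rintro ⟨h, _⟩
    exact h
  · rintro ⟨h, h'⟩
    exact ⟨⟨h, h'⟩, by simpa using h⟩

theorem gnpProb_eq (P : Set (SimpleGraph (Fin n))) (p : ℝ) :
    gnpProb n p P = ex p (ind (propFun P)) := by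
  classical
  have h1 : gnpProb n p P = ∑ ω : EdgeSlot n → Bool, bernoulliWeight p ω *
      (if graphOf ω ∈ P then (1:ℝ) else 0) := by
    unfold gnpProb bernoulliProb
    simp only [Finset.sum_filter, mul_ite, mul_one, mul_zero, Set.mem_ofPred_eq]
  rw [h1]
  unfold ex
  symm
  refine Fintype.sum_equiv (Equiv.arrowCongr (slotEquiv n).symm (Equiv.refl Bool)) _ _ ?_
  intro x
  have e1 : (Equiv.arrowCongr (slotEquiv n).symm (Equiv.refl Bool)) x =
      fun z => x (slotEquiv n z) := by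
    funext z
    simp [Equiv.arrowCongr]
  rw [e1]
  have e2 : bernoulliWeight p (fun z => x (slotEquiv n z)) = bernoulliWeight p x := by
    unfold bernoulliWeight
    exact Equiv.prod_comp (slotEquiv n) (fun i => if x i then p else 1 - p)
  rw [e2]
  unfold ind
  congr 1
  by_cases h : graphOf (fun z => x (slotEquiv n z)) ∈ P
  · rw [if_pos h, if_pos ((propFun_iff P x).2 h)]
  · rw [if_neg h, if_neg (fun h' => h ((propFun_iff P x).1 h'))]

theorem propFun_mono {P : Set (SimpleGraph (Fin n))}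
    (hmono : ∀ G G' : SimpleGraph (Fin n), G ≤ G' → G ∈ P → G' ∈ P)
    (x y : HyperedgeSlot n 2 → Bool) (hxy : ∀ i, x i = true → y i = true)
    (hx : propFun P x = true) : propFun P y = true := by
  rw [propFun_iff] at hx ⊢
  refine hmono _ _ ?_ hx
  intro i j hij
  rw [graphOf_adj] at hij ⊢
  obtain ⟨h, h'⟩ := hij
  exact ⟨h, hxy _ h'⟩

theorem graphOf_relabel (σ : Equiv.Perm (Fin n)) (x : HyperedgeSlot n 2 → Bool) (i j : Fin n) :
    (graphOf (fun z => relabel σ x (slotEquiv n z))).Adj i j ↔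
      (graphOf (fun z => x (slotEquiv n z))).Adj (σ i) (σ j) := by
  rw [graphOf_adj, graphOf_adj]
  have key : ∀ (h : ¬ (s(i, j) : Sym2 (Fin n)).IsDiag)
      (h' : ¬ (s(σ i, σ j) : Sym2 (Fin n)).IsDiag),
      relabelSlot σ (slotEquiv n ⟨s(i, j), h⟩) = slotEquiv n ⟨s(σ i, σ j), h'⟩ := by
    intro h h'
    apply Subtype.ext
    change (slotFun n ⟨s(i, j), h⟩).1.map σ.toEmbedding = (slotFun n ⟨s(σ i, σ j), h'⟩).1
    rw [slotFun_mk, slotFun_mk]
    simp [Finset.map_insert]
  constructor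
  · rintro ⟨h, hx⟩
    have h' : ¬ (s(σ i, σ j) : Sym2 (Fin n)).IsDiag := by
      simpa using h
    refine ⟨h', ?_⟩
    rw [← key h h']
    exact hx
  · rintro ⟨h', hx⟩
    have h : ¬ (s(i, j) : Sym2 (Fin n)).IsDiag := by
      simpa using h'
    refine ⟨h, ?_⟩
    rw [← key h h'] at hx
    exact hx

theorem propFun_symm {P : Set (SimpleGraph (Fin n))}
    (hsymm : ∀ σ : Equiv.Perm (Fin n), ∀ G : SimpleGraph (Fin n), G ∈ P →
      G.map σ.toEmbedding ∈ P) : IsSymmetric (propFun P) := by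
  intro σ x
  have key : ∀ (σ : Equiv.Perm (Fin n)) (x : HyperedgeSlot n 2 → Bool),
      graphOf (fun z => relabel σ x (slotEquiv n z)) =
        (graphOf (fun z => x (slotEquiv n z))).map (σ⁻¹ : Equiv.Perm (Fin n)).toEmbedding := by
    intro σ x
    ext i j
    rw [graphOf_relabel, SimpleGraph.map_adj]
    constructor
    · intro h
      exact ⟨σ i, σ j, h, by simp, by simp⟩
    · rintro ⟨u, v, h, hu, hv⟩
      have e1 : σ i = u := by rw [← hu]; simp
      have e2 : σ j = v := by rw [← hv]; simp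
      rw [e1, e2]
      exact h
  have h1 : propFun P (relabel σ x) = true ↔ propFun P x = true := by
    rw [propFun_iff, propFun_iff]
    constructor
    · intro h
      have h2 := hsymm σ _ h
      rw [key] at h2
      have h3 : ((graphOf (fun z => x (slotEquiv n z))).map
          (σ⁻¹ : Equiv.Perm (Fin n)).toEmbedding).map σ.toEmbedding =
          graphOf (fun z => x (slotEquiv n z)) := by
        ext i j
        simp only [SimpleGraph.map_adj]
        constructor
        · rintro ⟨u, v, ⟨u', v', h, hu, hv⟩, hu2, hv2⟩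
          have e1 : i = u' := by rw [← hu2, ← hu]; simp
          have e2 : j = v' := by rw [← hv2, ← hv]; simp
          rw [e1, e2]
          exact h
        · intro h
          exact ⟨σ⁻¹ i, σ⁻¹ j, ⟨i, j, h, rfl, rfl⟩, by simp, by simp⟩
      rw [h3] at h2
      exact h2
    · intro h
      rw [key]
      exact hsymm σ⁻¹ _ h
  cases h2 : propFun P (relabel σ x) <;> cases h3 : propFun P x <;> simp_all

theorem final_graph (n : ℕ) (hn : 2 ≤ n)
    (P : Set (SimpleGraph (Fin n)))
    (hsymm : ∀ σ : Equiv.Perm (Fin n), ∀ G : SimpleGraph (Fin n), G ∈ P → G.map σ.toEmbedding ∈ P)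
    (hmono : ∀ G G' : SimpleGraph (Fin n), G ≤ G' → G ∈ P → G' ∈ P)
    (ε : ℝ) (hε0 : 0 < ε) (hε : ε < 1 / 2)
    (p q : ℝ) (hp0 : 0 ≤ p) (hp1 : p ≤ 1) (hq0 : 0 ≤ q) (hq1 : q ≤ 1)
    (hp : ε ≤ gnpProb n p P)
    (hq : p + 2 ^ 19 / Real.log n ^ 2 * Real.log (1 / (2 * ε)) ≤ q) :
    1 - ε ≤ gnpProb n q P := by
  rw [gnpProb_eq] at hp ⊢
  have hlog : 0 < Real.log n := Real.log_pos (by exact_mod_cast (by omega : 1 < n))
  refine integrate (propFun P) (propFun_mono hmono) (Real.log n ^ 2 / 2 ^ 17) (by positivity)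
    ?_ ε hε0 hε p q hp0 hp1 hq0 hq1 hp ?_
  · intro s hs0 hs1
    have h := main_two hs0 hs1 hn (propFun P) (propFun_symm hsymm)
    rw [probTrue_eq_ex, totalInfluence_eq_ex] at h
    have h2 := mul_le_mul_of_nonneg_left h
      (by positivity : 0 ≤ Real.log n ^ 2 / 2 ^ 17)
    refine h2.trans (le_of_eq ?_)
    field_simp
  · have e : 4 / (Real.log n ^ 2 / 2 ^ 17) = 2 ^ 19 / Real.log n ^ 2 := by
      field_simp
      norm_num
    rw [e]
    exact hq

end Crest.Agent.S0077
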