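import Crest.Agent.S0077_Fourth

/-! Task T8b: little spectral mass on sets with few vertices. -/

set_option autoImplicit false
open Finset Crest Crest.FinProb Crest.CombinatoricsR.HypergraphCube

namespace Crest.Agent.S0077

variable {n r : ℕ}

/-- `S` touches the star of `x₀` iff `x₀` is one of its vertices -/
theorem claimA_not_disjoint_star_singleton (S : Finset (HyperedgeSlot n r)) (x₀ : Fin n) :
    ¬ Disjoint S (star r {x₀}) ↔ x₀ ∈ vs S := by
  rw [disjoint_star_iff, Finset.disjoint_singleton_right, not_not]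

/-- algebra of the KKL step -/
theorem claimA_alg {T X Y Z q W : ℝ} (hT0 : 0 ≤ T) (hq0 : 0 ≤ q) (hW : 0 ≤ W) (hTX : T ≤ X)
    (hX2 : X ^ 2 ≤ (2 * q) * Y) (hY2 : Y ^ 2 ≤ q * Z) (h4 : Z ≤ 2 * W * T ^ 2) :
    T ^ 2 ≤ 8 * q ^ 3 * W := by
  have hT4 : T ^ 4 ≤ 8 * q ^ 3 * W * T ^ 2 := by
    calc T ^ 4 ≤ X ^ 4 := pow_le_pow_left₀ hT0 hTX 4
      _ = (X ^ 2) ^ 2 := by ring
      _ ≤ ((2 * q) * Y) ^ 2 := pow_le_pow_left₀ (sq_nonneg _) hX2 2
      _ = 4 * q ^ 2 * Y ^ 2 := by ring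
      _ ≤ 4 * q ^ 2 * (q * Z) := mul_le_mul_of_nonneg_left hY2 (by positivity)
      _ ≤ 4 * q ^ 2 * (q * (2 * W * T ^ 2)) := by
          apply mul_le_mul_of_nonneg_left _ (by positivity)
          exact mul_le_mul_of_nonneg_left h4 hq0
      _ = 8 * q ^ 3 * W * T ^ 2 := by ring
  rcases hT0.eq_or_lt with h0 | hpos
  · rw [← h0]
    have : 0 ≤ 8 * q ^ 3 * W := by positivity
    simpa using this
  · have h1 : T ^ 2 * T ^ 2 ≤ 8 * q ^ 3 * W * T ^ 2 := by
      calc T ^ 2 * T ^ 2 = T ^ 4 := by ring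
        _ ≤ _ := hT4
    exact le_of_mul_le_mul_right h1 (by positivity)

/-- the KKL step for one vertex -/
theorem claimA_vertex {p : ℝ} (hp0 : 0 < p) (hp : p ≤ 1 / 2) (hr : 2 ≤ r)
    (f : (HyperedgeSlot n r → Bool) → Bool) (hf : IsSymmetric f) (w : ℕ) (hw : 1 ≤ w)
    (hwn : w ≤ n) (hC : 3 * (w : ℝ) ^ 2 * (1 / p) ^ (w ^ (r - 1)) ≤ 8 * n) (x₀ : Fin n) :
    (∑ S ∈ univ.filter (fun S => x₀ ∈ vs S ∧ (vs S).card ≤ w), wt p f S) ^ 2
      ≤ 8 * (qq p f 1) ^ 3 * 16 ^ (w - 1) := by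
  have hp1 : p < 1 := by linarith
  have hp0' : 0 ≤ p := hp0.le
  have hp1' : p ≤ 1 := hp1.le
  set T : ℝ := ∑ S ∈ univ.filter (fun S => x₀ ∈ vs S ∧ (vs S).card ≤ w), wt p f S with hT
  have hT0 : 0 ≤ T := Finset.sum_nonneg (fun S _ => wt_nonneg p f S)
  set c : Finset (HyperedgeSlot n r) → ℝ :=
    fun S => if x₀ ∈ vs S ∧ (vs S).card ≤ w then fc p (ind f) S else 0 with hc
  set g : (HyperedgeSlot n r → Bool) → ℝ := ev p c with hg
  have h4 : ex p (fun ω => g ω ^ 4) ≤ 2 * 16 ^ (w - 1) * T ^ 2 :=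
    fourth_moment hp0 hp hr f hf w hw hwn hC x₀
  set A : Finset (HyperedgeSlot n r) := star r {x₀} with hA
  set h : (HyperedgeSlot n r → Bool) → ℝ := fun ω => ind f ω - av p A (ind f) ω with hh
  -- `E h² = q(1)`
  have hE2 : ex p (fun ω => h ω ^ 2) = qq p f 1 := by
    have h1 := sum_wt_touch p f hf ({x₀} : Finset (Fin n))
    rw [Finset.card_singleton] at h1
    rw [← h1]
    simp only [hh]
    rw [ex_sub_av_sq hp0 hp1]
    simp only [hA, disjoint_star_iff, wt]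
  have hq0 : 0 ≤ qq p f 1 := by
    rw [← hE2]; exact ex_nonneg hp0' hp1' (fun ω => sq_nonneg _)
  -- `E |h| = 2 q(1)`
  have hE1 : ex p (fun ω => |h ω|) = 2 * qq p f 1 := by
    rw [← hE2, ← ex_av p A (fun ω => |h ω|), ← ex_av p A (fun ω => h ω ^ 2), ← ex_mul_left]
    congr 1
    funext ω
    simp only [hh]
    rw [av_abs_sub_av_bool hp0' hp1' A f ω, av_sub_av_sq_bool p A f ω]
  -- `T = E[h g]`
  have hTE : T = ex p (fun ω => h ω * g ω) := by
    rw [parseval hp0 hp1]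
    simp only [hT, Finset.sum_filter]
    apply Finset.sum_congr rfl
    intro S _
    have h1 : fc p g S = c S := fc_ev hp0 hp1 c S
    have h2 : fc p h S = if x₀ ∈ vs S then fc p (ind f) S else 0 := by
      simp only [hh]
      rw [fc_sub, fc_av hp0 hp1]
      have h3 := claimA_not_disjoint_star_singleton (r := r) S x₀
      rw [← hA] at h3
      by_cases hx : x₀ ∈ vs S
      · have h4' : ¬ Disjoint S A := h3.mpr hx
        simp [h4', hx]
      · have h4' : Disjoint S A := by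
          by_contra hcon
          exact hx (h3.mp hcon)
        simp [h4', hx]
    rw [h1, h2, hc]
    by_cases hx : x₀ ∈ vs S <;> by_cases hv : (vs S).card ≤ w <;> simp [hx, hv, wt, sq]
  -- Cauchy–Schwarz, twice
  set X : ℝ := ex p (fun ω => |h ω| * |g ω|) with hX
  set Y : ℝ := ex p (fun ω => |h ω| * g ω ^ 2) with hY
  set Z : ℝ := ex p (fun ω => g ω ^ 4) with hZ
  have hTX : T ≤ X := by
    rw [hTE, hX]
    apply ex_mono hp0' hp1'
    intro ω
    rw [← abs_mul]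
    exact le_abs_self _
  have hX2 : X ^ 2 ≤ (2 * qq p f 1) * Y := by
    have h1 := ex_mul_sq_le hp0' hp1' (fun ω => Real.sqrt |h ω|)
      (fun ω => Real.sqrt |h ω| * |g ω|)
    have h2 : (fun ω => Real.sqrt |h ω| * (Real.sqrt |h ω| * |g ω|)) = fun ω => |h ω| * |g ω| := by
      funext ω
      rw [← mul_assoc, Real.mul_self_sqrt (abs_nonneg _)]
    have h3 : (fun ω => Real.sqrt |h ω| ^ 2) = fun ω => |h ω| := by
      funext ω
      rw [Real.sq_sqrt (abs_nonneg _)]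
    have h4' : (fun ω => (Real.sqrt |h ω| * |g ω|) ^ 2) = fun ω => |h ω| * g ω ^ 2 := by
      funext ω
      rw [mul_pow, Real.sq_sqrt (abs_nonneg _), sq_abs]
    simp only [h2, h3, h4'] at h1
    rw [hE1] at h1
    exact h1
  have hY2 : Y ^ 2 ≤ qq p f 1 * Z := by
    have h1 := ex_mul_sq_le hp0' hp1' (fun ω => |h ω|) (fun ω => g ω ^ 2)
    have h3 : (fun ω => |h ω| ^ 2) = fun ω => h ω ^ 2 := by
      funext ω
      rw [sq_abs]
    have h4' : (fun ω => (g ω ^ 2) ^ 2) = fun ω => g ω ^ 4 := by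
      funext ω
      ring
    simp only [h3, h4'] at h1
    rw [hE2] at h1
    exact h1
  exact claimA_alg hT0 hq0 (by positivity) hTX hX2 hY2 h4

/-- **T8b.** KKL argument: with `T = ‖g‖²`, `h = f - av (star x₀) f`,
`T = E[h g]`, `(E|h||g|)² ≤ E|h| E|h|g²`, `(E|h| g²)² ≤ E h² E g⁴`, `E|h| = 2 q(1)`,
`E h² = q(1)`; hence `T⁴ ≤ 4 q(1)³ E g⁴ ≤ 4 q(1)³ 2 16^(w-1) T²`, and
`n T ≥ ∑_{1 ≤ v ≤ w} wt`. -/
theorem claimA {p : ℝ} (hp0 : 0 < p) (hp : p ≤ 1 / 2) (hr : 2 ≤ r)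
    (f : (HyperedgeSlot n r → Bool) → Bool) (hf : IsSymmetric f) (w : ℕ) (hw : 1 ≤ w)
    (hwn : w ≤ n) (hC : 3 * (w : ℝ) ^ 2 * (1 / p) ^ (w ^ (r - 1)) ≤ 8 * n) :
    (∑ S ∈ univ.filter (fun S : Finset (HyperedgeSlot n r) =>
        1 ≤ (vs S).card ∧ (vs S).card ≤ w), wt p f S) ^ 2
      ≤ 8 * (n : ℝ) ^ 2 * (qq p f 1) ^ 3 * 16 ^ (w - 1) := by
  have hn : 1 ≤ n := le_trans hw hwn
  set M : ℝ := 8 * (qq p f 1) ^ 3 * 16 ^ (w - 1) with hM
  have hM0 : 0 ≤ M := by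
    have := claimA_vertex hp0 hp hr f hf w hw hwn hC ⟨0, hn⟩
    exact le_trans (sq_nonneg _) this
  have hbound : ∀ x : Fin n, (∑ S ∈ univ.filter (fun S => x ∈ vs S ∧ (vs S).card ≤ w), wt p f S)
      ≤ Real.sqrt M := by
    intro x
    apply Real.le_sqrt_of_sq_le
    exact claimA_vertex hp0 hp hr f hf w hw hwn hC x
  have hsum : (∑ S ∈ univ.filter (fun S : Finset (HyperedgeSlot n r) =>
        1 ≤ (vs S).card ∧ (vs S).card ≤ w), wt p f S) ≤
      ∑ x : Fin n, ∑ S ∈ univ.filter (fun S => x ∈ vs S ∧ (vs S).card ≤ w), wt p f S := by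
    simp only [Finset.sum_filter]
    rw [Finset.sum_comm]
    apply Finset.sum_le_sum
    intro S _
    by_cases hS : 1 ≤ (vs S).card ∧ (vs S).card ≤ w
    · rw [if_pos hS]
      obtain ⟨x, hx⟩ := Finset.card_pos.mp hS.1
      have h1 : (if x ∈ vs S ∧ (vs S).card ≤ w then wt p f S else 0) = wt p f S := by
        rw [if_pos ⟨hx, hS.2⟩]
      calc wt p f S = (if x ∈ vs S ∧ (vs S).card ≤ w then wt p f S else 0) := h1.symm
        _ ≤ ∑ x : Fin n, (if x ∈ vs S ∧ (vs S).card ≤ w then wt p f S else 0) := by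
            apply Finset.single_le_sum (f := fun x : Fin n =>
              (if x ∈ vs S ∧ (vs S).card ≤ w then wt p f S else 0)) _ (Finset.mem_univ x)
            intro y _
            split_ifs
            · exact wt_nonneg p f S
            · exact le_refl _
    · rw [if_neg hS]
      apply Finset.sum_nonneg
      intro y _
      split_ifs
      · exact wt_nonneg p f S
      · exact le_refl _
  have hle : (∑ S ∈ univ.filter (fun S : Finset (HyperedgeSlot n r) =>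
        1 ≤ (vs S).card ∧ (vs S).card ≤ w), wt p f S) ≤ n * Real.sqrt M := by
    refine le_trans hsum ?_
    refine le_trans (Finset.sum_le_sum (fun x _ => hbound x)) ?_
    simp
  have h0 : 0 ≤ (∑ S ∈ univ.filter (fun S : Finset (HyperedgeSlot n r) =>
        1 ≤ (vs S).card ∧ (vs S).card ≤ w), wt p f S) :=
    Finset.sum_nonneg (fun S _ => wt_nonneg p f S)
  calc (∑ S ∈ univ.filter (fun S : Finset (HyperedgeSlot n r) =>
        1 ≤ (vs S).card ∧ (vs S).card ≤ w), wt p f S) ^ 2 ≤ (n * Real.sqrt M) ^ 2 :=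
        pow_le_pow_left₀ h0 hle 2
    _ = (n : ℝ) ^ 2 * M := by rw [mul_pow, Real.sq_sqrt hM0]
    _ = 8 * (n : ℝ) ^ 2 * (qq p f 1) ^ 3 * 16 ^ (w - 1) := by rw [hM]; ring

end Crest.Agent.S0077
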