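import Mathlib

/-! Task T7: selection of a good scale (pure real analysis). -/

set_option autoImplicit false
set_option maxHeartbeats 1000000

namespace Crest.Agent.S0077

/-- Selection of a good scale. Put `ρ(u) = n q(u) / u`, `A = ρ₀ (log n) / 4`. Choose `u` in
`{1 ≤ u, u² ≤ n}` minimising `log u - A / ρ(u)`; then `log u ≤ A/ρ(u) ≤ (log n)/4` (compare with
`u = 1`). Let `x = exp (A / (16 ρ(u)))`. If `x ≤ 8` then `A/16 ≤ ρ(u) log 8 ≤ ρ(1) log 8` and we are
done. Otherwise `t = ⌊x/2⌋ ≥ 4`; `2 t u` is still in the range, and minimality gives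
`1/ρ(2tu) ≤ (17/16)/ρ(u)`, i.e. `q(2tu) ≥ (16/17) 2t q(u)`. By block concavity
`q(tu) - q((t-1)u) ≥ (q(2tu) - q(tu))/t ≥ (15/17) q(u)`, so the bracket in `hkey` is at least
`q(u)/2`, hence `G ≥ (1/2) log(t/2) ρ(u) ≥ (1/2) (A/16 - ρ(u) log 8)`. -/
theorem selection (n : ℕ) (hn : 1 ≤ n) (q : ℕ → ℝ) (G ρ₀ : ℝ) (hρ₀ : 0 < ρ₀) (hG : 0 ≤ G)
    (hq0 : q 0 = 0)
    (hconc : ∀ m' m b : ℕ, m' ≤ m → m + b ≤ n → q (m + b) - q m ≤ q (m' + b) - q m')
    (hlow : ∀ u : ℕ, 1 ≤ u → u ^ 2 ≤ n → ρ₀ * u / n ≤ q u)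
    (hkey : ∀ u t : ℕ, 1 ≤ u → 2 ≤ t → t * u ≤ n →
      Real.log ((t : ℝ) / 2) * (q u - 4 * (q u + q ((t - 1) * u) - q (t * u))) ≤ G * u / n) :
    ρ₀ * Real.log n / 128 ≤ G + Real.log 8 / 2 * (n * q 1) := by
  have hn0 : (0 : ℝ) < n := by exact_mod_cast (show 0 < n by omega)
  have hn1 : (1 : ℝ) ≤ n := by exact_mod_cast hn
  have hlog8 : 0 < Real.log 8 := Real.log_pos (by norm_num)
  have hq1 : 0 < q 1 := by
    have h := hlow 1 le_rfl (by simpa using hn)
    have : 0 < ρ₀ * ((1 : ℕ) : ℝ) / n := by positivity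
    linarith
  -- the case `n = 1`
  rcases Nat.eq_or_lt_of_le hn with h1 | hn2
  · subst h1
    have h2 : 0 ≤ Real.log 8 / 2 * (((1 : ℕ) : ℝ) * q 1) := by positivity
    simp only [Nat.cast_one, Real.log_one, mul_zero, zero_div] at h2 ⊢
    linarith
  have hL : 0 < Real.log n := Real.log_pos (by exact_mod_cast hn2)
  -- the constant A
  obtain ⟨A, hA⟩ : ∃ A : ℝ, A = ρ₀ * Real.log n / 4 := ⟨_, rfl⟩
  have hA0 : 0 < A := by rw [hA]; positivity
  obtain ⟨ρ, hρ⟩ : ∃ ρ : ℕ → ℝ, ρ = fun u => n * q u / u := ⟨_, rfl⟩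
  have hρge : ∀ u : ℕ, 1 ≤ u → u ^ 2 ≤ n → ρ₀ ≤ ρ u := by
    intro u hu hun
    have hu0 : (0 : ℝ) < u := by exact_mod_cast (show 0 < u by omega)
    have h := hlow u hu hun
    rw [hρ]
    simp only
    rw [le_div_iff₀ hu0]
    rw [div_le_iff₀ hn0] at h
    linarith
  have hle1 : ∀ u : ℕ, u ≤ n → q u ≤ u * q 1 := by
    intro u
    induction u with
    | zero => intro _; simp [hq0]
    | succ k ih =>
      intro hk
      have h1 := ih (by omega)
      have h2 := hconc 0 k 1 (Nat.zero_le _) hk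
      simp only [zero_add] at h2
      push_cast
      rw [hq0] at h2
      linarith
  -- choose the minimiser
  let Rg : Finset ℕ := (Finset.range (n + 1)).filter (fun u => 1 ≤ u ∧ u ^ 2 ≤ n)
  have hRg : ∀ u, u ∈ Rg ↔ 1 ≤ u ∧ u ^ 2 ≤ n := by
    intro u
    simp only [Rg, Finset.mem_filter, Finset.mem_range]
    constructor
    · rintro ⟨_, h⟩; exact h
    · rintro ⟨h1, h2⟩
      refine ⟨?_, h1, h2⟩
      have : u ≤ u ^ 2 := by nlinarith
      omega
  have hne : Rg.Nonempty := ⟨1, (hRg 1).2 ⟨le_rfl, by simpa using hn⟩⟩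
  obtain ⟨u, huR, humin⟩ := Finset.exists_min_image Rg
    (fun u => Real.log u - A / ρ u) hne
  obtain ⟨hu1, hun⟩ := (hRg u).1 huR
  have hu0 : (0 : ℝ) < u := by exact_mod_cast (show 0 < u by omega)
  have hu1' : (1 : ℝ) ≤ u := by exact_mod_cast hu1
  have hρu : ρ₀ ≤ ρ u := hρge u hu1 hun
  have hρu0 : 0 < ρ u := by linarith
  have hρ1 : ρ₀ ≤ ρ 1 := hρge 1 le_rfl (by simpa using hn)
  have hρ10 : 0 < ρ 1 := by linarith
  have hule : u ≤ n := by nlinarith
  have hρu1 : ρ u ≤ ρ 1 := by
    rw [hρ]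
    simp only [Nat.cast_one, div_one]
    rw [div_le_iff₀ hu0]
    have := hle1 u hule
    nlinarith
  have hρ1eq : ρ 1 = n * q 1 := by rw [hρ]; simp
  have hlogu : Real.log u ≤ A / ρ u := by
    have h := humin 1 ((hRg 1).2 ⟨le_rfl, by simpa using hn⟩)
    simp only [Nat.cast_one, Real.log_one] at h
    have : 0 < A / ρ 1 := by positivity
    linarith
  have hAρ : A / ρ u ≤ Real.log n / 4 := by
    rw [div_le_iff₀ hρu0, hA]
    nlinarith
  -- x
  obtain ⟨x, hx⟩ : ∃ x : ℝ, x = Real.exp (A / (16 * ρ u)) := ⟨_, rfl⟩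
  have hx0 : 0 < x := by rw [hx]; positivity
  have hlogx : Real.log x = A / (16 * ρ u) := by rw [hx, Real.log_exp]
  have hlogx' : Real.log x * (16 * ρ u) = A := by
    rw [hlogx]; field_simp
  by_cases hx8 : x ≤ 8
  · have h1 : Real.log x ≤ Real.log 8 := Real.log_le_log hx0 hx8
    have h2 : A ≤ Real.log 8 * (16 * ρ u) := by
      rw [← hlogx']
      exact mul_le_mul_of_nonneg_right h1 (by positivity)
    have h3 : Real.log 8 * ρ u ≤ Real.log 8 * ρ 1 := mul_le_mul_of_nonneg_left hρu1 hlog8.le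
    rw [← hρ1eq]
    have h4 : ρ₀ * Real.log n = 4 * A := by rw [hA]; ring
    rw [h4]
    linarith
  · push Not at hx8
    obtain ⟨t, ht⟩ : ∃ t : ℕ, t = ⌊x / 2⌋₊ := ⟨_, rfl⟩
    have htle : (t : ℝ) ≤ x / 2 := by rw [ht]; exact Nat.floor_le (by positivity)
    have htlt : x / 2 < t + 1 := by rw [ht]; exact Nat.lt_floor_add_one _
    have ht4 : 4 ≤ t := by
      rw [ht]; apply Nat.le_floor; push_cast; linarith
    have ht4' : (4 : ℝ) ≤ t := by exact_mod_cast ht4
    have ht0 : (0 : ℝ) < t := by linarith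
    -- `2 t u` in the range
    have h2tu : (2 * t * u) ^ 2 ≤ n := by
      have h1 : ((2 * t * u : ℕ) : ℝ) ≤ x * u := by
        push_cast
        nlinarith
      have h2 : Real.log (((2 * t * u : ℕ) : ℝ) ^ 2) ≤ Real.log n := by
        have hpos : (0 : ℝ) < ((2 * t * u : ℕ) : ℝ) := by push_cast; positivity
        rw [Real.log_pow]
        have h3 : Real.log ((2 * t * u : ℕ) : ℝ) ≤ Real.log (x * u) := Real.log_le_log hpos h1
        rw [Real.log_mul hx0.ne' hu0.ne', hlogx] at h3
        have h4 : A / (16 * ρ u) = (A / ρ u) / 16 := by field_simp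
        rw [h4] at h3
        push_cast at h3 ⊢
        linarith
      have h5 : ((2 * t * u : ℕ) : ℝ) ^ 2 ≤ n := by
        have hpos : (0 : ℝ) < ((2 * t * u : ℕ) : ℝ) ^ 2 := by push_cast; positivity
        exact (Real.log_le_log_iff hpos hn0).1 h2
      exact_mod_cast h5
    have h2tu1 : 1 ≤ 2 * t * u := by
      have : 0 < 2 * t * u := by positivity
      omega
    have h2tun : 2 * t * u ≤ n := by
      have : 2 * t * u ≤ (2 * t * u) ^ 2 := by nlinarith
      omega
    -- minimality
    have hmin := humin (2 * t * u) ((hRg _).2 ⟨h2tu1, h2tu⟩)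
    have hρ2 : ρ₀ ≤ ρ (2 * t * u) := hρge _ h2tu1 h2tu
    have hρ20 : 0 < ρ (2 * t * u) := by linarith
    have hmin2 : A / ρ (2 * t * u) ≤ 17 / 16 * (A / ρ u) := by
      have h1 : Real.log ((2 * t * u : ℕ) : ℝ) ≤ Real.log (x * u) := by
        apply Real.log_le_log
        · push_cast; positivity
        · push_cast
          nlinarith
      rw [Real.log_mul hx0.ne' hu0.ne', hlogx] at h1
      have h4 : A / (16 * ρ u) = (A / ρ u) / 16 := by field_simp
      rw [h4] at h1
      linarith
    have hmin3 : 16 / 17 * ρ u ≤ ρ (2 * t * u) := by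
      rw [div_le_iff₀ hρ20] at hmin2
      have h1 : A * (ρ u) ≤ 17 / 16 * A * ρ (2 * t * u) := by
        have h2 : 17 / 16 * (A / ρ u) * ρ (2 * t * u) * ρ u = 17 / 16 * A * ρ (2 * t * u) := by
          field_simp
        rw [← h2]
        exact mul_le_mul_of_nonneg_right hmin2 hρu0.le
      have h3 : A * (16 / 17 * ρ u) ≤ A * ρ (2 * t * u) := by nlinarith
      exact le_of_mul_le_mul_left h3 hA0
    have hq2 : 32 / 17 * t * q u ≤ q (2 * t * u) := by
      rw [hρ] at hmin3
      simp only at hmin3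
      have h2tuR : ((2 * t * u : ℕ) : ℝ) = 2 * t * u := by push_cast; ring
      rw [h2tuR, le_div_iff₀ (by positivity)] at hmin3
      have h1 : 16 / 17 * (n * q u / u) * (2 * t * u) = n * (32 / 17 * t * q u) := by
        field_simp
        ring
      rw [h1] at hmin3
      exact le_of_mul_le_mul_left hmin3 hn0
    -- block concavity
    have hblock1 : ∀ j : ℕ, j * u ≤ n → q (j * u) ≤ j * q u := by
      intro j
      induction j with
      | zero => intro _; simp [hq0]
      | succ k ih =>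
        intro hk
        have hk' : k * u + u ≤ n := by
          have : (k + 1) * u = k * u + u := by ring
          omega
        have h1 := ih (by omega)
        have h2 := hconc 0 (k * u) u (Nat.zero_le _) hk'
        rw [zero_add, hq0] at h2
        have h3 : (k + 1) * u = k * u + u := by ring
        rw [h3]
        push_cast
        linarith
    obtain ⟨D, hD⟩ : ∃ D : ℝ, D = q (t * u) - q ((t - 1) * u) := ⟨_, rfl⟩
    have hblock2 : ∀ j : ℕ, (t + j) * u ≤ n → q ((t + j) * u) ≤ q (t * u) + j * D := by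
      intro j
      induction j with
      | zero => intro _; simp
      | succ k ih =>
        intro hk
        have h3 : (t + (k + 1)) * u = (t + k) * u + u := by ring
        rw [h3] at hk ⊢
        have h1 := ih (by omega)
        have h2 := hconc ((t - 1) * u) ((t + k) * u) u
          (Nat.mul_le_mul_right _ (by omega)) hk
        have h4 : (t - 1) * u + u = t * u := by
          have : t - 1 + 1 = t := by omega
          calc (t - 1) * u + u = (t - 1 + 1) * u := by ring
            _ = t * u := by rw [this]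
        rw [h4, ← hD] at h2
        push_cast
        linarith
    have htt : (t + t) * u = 2 * t * u := by ring
    have hb2 := hblock2 t (by rw [htt]; exact h2tun)
    rw [htt] at hb2
    have htun : t * u ≤ n := by
      have : t * u ≤ 2 * t * u := by
        rw [mul_assoc]; omega
      omega
    have hb1 := hblock1 t htun
    have hqu0 : 0 < q u := by
      have h := hlow u hu1 hun
      have : 0 < ρ₀ * (u : ℝ) / n := by positivity
      linarith
    have hDge : 15 / 17 * q u ≤ D := by
      have h1 : 32 / 17 * t * q u - t * q u ≤ t * D := by linarith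
      have h2 : (t : ℝ) * (15 / 17 * q u) ≤ t * D := by linarith
      exact le_of_mul_le_mul_left h2 ht0
    -- key inequality
    have hk := hkey u t hu1 (by omega) htun
    have hbr : q u / 2 ≤ q u - 4 * (q u + q ((t - 1) * u) - q (t * u)) := by
      rw [hD] at hDge
      linarith
    have hlt : Real.log x - Real.log 8 ≤ Real.log ((t : ℝ) / 2) := by
      rw [← Real.log_div hx0.ne' (by norm_num)]
      apply Real.log_le_log (by positivity)
      linarith
    have hlt0 : 0 ≤ Real.log ((t : ℝ) / 2) := Real.log_nonneg (by linarith)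
    have h1 : Real.log ((t : ℝ) / 2) * (q u / 2) ≤ G * u / n :=
      le_trans (mul_le_mul_of_nonneg_left hbr hlt0) hk
    have h2 : (Real.log x - Real.log 8) * (q u / 2) ≤ G * u / n :=
      le_trans (mul_le_mul_of_nonneg_right hlt (by positivity)) h1
    have h3 : (Real.log x - Real.log 8) * (ρ u / 2) ≤ G := by
      rw [le_div_iff₀ hn0] at h2
      have h4 : (Real.log x - Real.log 8) * (ρ u / 2) * u
          = (Real.log x - Real.log 8) * (q u / 2) * n := by
        rw [hρ]
        simp only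
        field_simp
      have h5 : (Real.log x - Real.log 8) * (ρ u / 2) * u ≤ G * u := by rw [h4]; exact h2
      exact le_of_mul_le_mul_right h5 hu0
    have h6 : Real.log 8 * ρ u ≤ Real.log 8 * ρ 1 := mul_le_mul_of_nonneg_left hρu1 hlog8.le
    rw [← hρ1eq]
    have h7 : ρ₀ * Real.log n = 4 * A := by rw [hA]; ring
    rw [h7]
    have h8 : (Real.log x - Real.log 8) * (ρ u / 2)
        = Real.log x * (16 * ρ u) / 32 - Real.log 8 * ρ u / 2 := by ring
    rw [h8, hlogx'] at h3
    linarith

end Crest.Agent.S0077
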