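import Crest.Agent.S0077_Key
import Crest.Agent.S0077_ClaimA
import Crest.Agent.S0077_Select

/-! Task T9a: core inequality. -/

set_option autoImplicit false
open Finset Crest Crest.FinProb Crest.CombinatoricsR.HypergraphCube

namespace Crest.Agent.S0077

variable {n r : ℕ}

theorem core_aux (p r n q1 I V w L G : ℝ) (hp0 : 0 < p) (hp : p ≤ 1 / 2) (hr : 0 ≤ r)
    (hI0 : 0 ≤ I) (hq1 : n * q1 ≤ r * (p * (1 - p)) * I)
    (hG : G = r * (3 / 2 * (p * Real.log (1 / p))) * I)
    (hsel : w * V / 4 * L / 128 ≤ G + Real.log 8 / 2 * (n * q1)) :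
    w * L * V ≤ 1536 * r * (p * Real.log (1 / p)) * I := by
  have hlogp : Real.log 2 ≤ Real.log (1 / p) := by
    apply Real.log_le_log (by norm_num)
    rw [le_div_iff₀ hp0]; linarith
  have hlog2 : 0 < Real.log 2 := Real.log_pos (by norm_num)
  have hlog8 : Real.log 8 = 3 * Real.log 2 := by
    rw [show (8 : ℝ) = 2 ^ 3 by norm_num, Real.log_pow]; norm_num
  rw [hlog8] at hsel
  have h5 : (p * (1 - p)) * Real.log 2 ≤ p * Real.log (1 / p) := by
    calc (p * (1 - p)) * Real.log 2 ≤ p * Real.log 2 := by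
          apply mul_le_mul_of_nonneg_right _ hlog2.le
          nlinarith
      _ ≤ _ := mul_le_mul_of_nonneg_left hlogp hp0.le
  have h6 : 3 * Real.log 2 / 2 * (n * q1) ≤ r * (3 / 2 * (p * Real.log (1 / p))) * I := by
    calc 3 * Real.log 2 / 2 * (n * q1)
        ≤ 3 * Real.log 2 / 2 * (r * (p * (1 - p)) * I) := by
          apply mul_le_mul_of_nonneg_left hq1 (by positivity)
      _ = (3 / 2 * r * I) * ((p * (1 - p)) * Real.log 2) := by ring
      _ ≤ (3 / 2 * r * I) * (p * Real.log (1 / p)) := by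
          apply mul_le_mul_of_nonneg_left h5 (by positivity)
      _ = _ := by ring
  subst hG
  linarith

/-- **T9a.** core inequality -/
theorem core {p : ℝ} (hp0 : 0 < p) (hp : p ≤ 1 / 2) (hr : 2 ≤ r) (hn : 1 ≤ n)
    (f : (HyperedgeSlot n r → Bool) → Bool) (hf : IsSymmetric f) (w : ℕ) (hw : 1 ≤ w)
    (hwn : w ^ 2 ≤ n) (hC : 3 * (w : ℝ) ^ 2 * (1 / p) ^ (w ^ (r - 1)) ≤ 8 * n)
    (hV : 0 < probTrue p f * (1 - probTrue p f))
    (hI : 32 * ((r : ℝ) * (p * (1 - p)) * totalInfluence p f) ^ 3 * 16 ^ (w - 1) ≤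
      n * (probTrue p f * (1 - probTrue p f)) ^ 2) :
    (w : ℝ) * Real.log n * (probTrue p f * (1 - probTrue p f)) ≤
      1536 * r * (p * Real.log (1 / p)) * totalInfluence p f := by
  have hp1 : p < 1 := by linarith
  have hwn' : w ≤ n := by nlinarith
  have hnR : (1 : ℝ) ≤ n := by exact_mod_cast hn
  have hn0 : (0 : ℝ) < n := by linarith
  have hwR : (1 : ℝ) ≤ w := by exact_mod_cast hw
  have hrR : (2 : ℝ) ≤ r := by exact_mod_cast hr
  set V := probTrue p f * (1 - probTrue p f) with hVdef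
  set I := totalInfluence p f with hIdef
  have hI0 : 0 ≤ I := by
    rw [hIdef, totalInfluence_eq_ex]
    apply Finset.sum_nonneg
    intro e _
    apply ex_nonneg hp0.le hp1.le
    intro ω
    unfold piv
    split_ifs <;> norm_num
  set q : ℕ → ℝ := fun u => qq p f u with hq
  -- q 1
  have hq1 : (n : ℝ) * q 1 ≤ (r : ℝ) * (p * (1 - p)) * I := by
    have := qq_one_le (r := r) hp0 hp1 hn f hf
    rw [le_div_iff₀ hn0] at this
    simp only [hq]
    linarith
  -- low part
  set L := ∑ S ∈ univ.filter (fun S : Finset (HyperedgeSlot n r) =>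
        1 ≤ (vs S).card ∧ (vs S).card ≤ w), wt p f S with hL
  set Hi := ∑ S ∈ univ.filter (fun S : Finset (HyperedgeSlot n r) => w ≤ (vs S).card), wt p f S
    with hHi
  have hL0 : 0 ≤ L := Finset.sum_nonneg (fun S _ => wt_nonneg p f S)
  have hq1n : 0 ≤ q 1 := by
    simp only [hq, qq]
    apply Finset.sum_nonneg
    intro S _
    apply mul_nonneg (wt_nonneg p f S)
    rw [sub_nonneg]
    apply div_le_one_of_le₀
    · exact_mod_cast Nat.choose_le_choose 1 (Nat.sub_le _ _)
    · positivity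
  have hclaim := claimA hp0 hp hr f hf w hw hwn' hC
  have hL2 : L ^ 2 ≤ (V / 2) ^ 2 := by
    have h1 : L ^ 2 * n ≤ 8 * ((n : ℝ) * q 1) ^ 3 * 16 ^ (w - 1) := by
      calc L ^ 2 * n ≤ (8 * (n : ℝ) ^ 2 * (qq p f 1) ^ 3 * 16 ^ (w - 1)) * n :=
            mul_le_mul_of_nonneg_right hclaim hn0.le
        _ = _ := by simp only [hq]; ring
    have h2 : ((n : ℝ) * q 1) ^ 3 ≤ ((r : ℝ) * (p * (1 - p)) * I) ^ 3 :=
      pow_le_pow_left₀ (mul_nonneg hn0.le hq1n) hq1 3
    have h3 : 8 * ((n : ℝ) * q 1) ^ 3 * 16 ^ (w - 1) ≤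
        8 * ((r : ℝ) * (p * (1 - p)) * I) ^ 3 * 16 ^ (w - 1) := by
      apply mul_le_mul_of_nonneg_right _ (by positivity)
      linarith
    have h4 : L ^ 2 * n ≤ (V / 2) ^ 2 * n := by nlinarith [h1, h3, hI]
    exact le_of_mul_le_mul_right h4 hn0
  have hLV : L ≤ V / 2 := by
    exact (pow_le_pow_iff_left₀ hL0 (by linarith) two_ne_zero).mp hL2
  have hsum : V ≤ L + Hi := by
    rw [hVdef, ← sum_wt_nonempty hp0 hp1 (by omega : 1 ≤ r) f, hL, hHi]
    have : (univ.filter (fun S : Finset (HyperedgeSlot n r) => 1 ≤ (vs S).card)) ⊆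
        (univ.filter (fun S : Finset (HyperedgeSlot n r) =>
        1 ≤ (vs S).card ∧ (vs S).card ≤ w)) ∪
        (univ.filter (fun S : Finset (HyperedgeSlot n r) => w ≤ (vs S).card)) := by
      intro S hS
      simp only [Finset.mem_filter, Finset.mem_univ, true_and, Finset.mem_union] at hS ⊢
      rcases le_total (vs S).card w with h | h
      · exact Or.inl ⟨hS, h⟩
      · exact Or.inr h
    calc _ ≤ ∑ S ∈ (univ.filter (fun S : Finset (HyperedgeSlot n r) =>
        1 ≤ (vs S).card ∧ (vs S).card ≤ w)) ∪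
        (univ.filter (fun S : Finset (HyperedgeSlot n r) => w ≤ (vs S).card)), wt p f S :=
          Finset.sum_le_sum_of_subset_of_nonneg this (fun S _ _ => wt_nonneg p f S)
      _ ≤ _ := by
          rw [← Finset.sum_union_inter]
          have : 0 ≤ ∑ S ∈ (univ.filter (fun S : Finset (HyperedgeSlot n r) =>
        1 ≤ (vs S).card ∧ (vs S).card ≤ w)) ∩
        (univ.filter (fun S : Finset (HyperedgeSlot n r) => w ≤ (vs S).card)), wt p f S :=
            Finset.sum_nonneg (fun S _ => wt_nonneg p f S)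
          linarith
  have hHiV : V / 2 ≤ Hi := by linarith
  -- apply selection
  have hlogp : Real.log 2 ≤ Real.log (1 / p) := by
    apply Real.log_le_log (by norm_num)
    rw [le_div_iff₀ hp0]; linarith
  have hlog2 : 0 < Real.log 2 := Real.log_pos (by norm_num)
  set G := (r : ℝ) * (3 / 2 * (p * Real.log (1 / p))) * I with hG
  have hG0 : 0 ≤ G := by
    rw [hG]
    have h0 : 0 ≤ Real.log (1 / p) := by linarith
    exact mul_nonneg (mul_nonneg (by linarith) (mul_nonneg (by norm_num) (mul_nonneg hp0.le h0))) hI0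
  have hρ : 0 < (w : ℝ) * V / 4 := by
    have h1 : (0 : ℝ) < w := by linarith
    have h2 := mul_pos h1 hV
    linarith
  have hlow : ∀ u : ℕ, 1 ≤ u → u ^ 2 ≤ n → (w : ℝ) * V / 4 * u / n ≤ q u := by
    intro u hu hun
    have hwu : w * u ≤ n := by
      have : (w * u) ^ 2 ≤ n ^ 2 := by
        calc (w * u) ^ 2 = w ^ 2 * u ^ 2 := by ring
          _ ≤ n * n := Nat.mul_le_mul hwn hun
          _ = n ^ 2 := by ring
      exact (Nat.pow_le_pow_iff_left (by norm_num)).mp this
    have h := qq_low p f w u hn hwu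
    calc (w : ℝ) * V / 4 * u / n = (V / 2) * ((w : ℝ) * u / (2 * n)) := by ring
      _ ≤ Hi * ((w : ℝ) * u / (2 * n)) := by
          apply mul_le_mul_of_nonneg_right hHiV (by positivity)
      _ ≤ _ := h
  have hkey' : ∀ u t : ℕ, 1 ≤ u → 2 ≤ t → t * u ≤ n →
      Real.log ((t : ℝ) / 2) * (q u - 4 * (q u + q ((t - 1) * u) - q (t * u))) ≤ G * u / n := by
    intro u t hu ht htu
    exact key_ineq (r := r) hp0 hp f hf u t hu ht htu
  have hconc : ∀ m' m b : ℕ, m' ≤ m → m + b ≤ n → q (m + b) - q m ≤ q (m' + b) - q m' := by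
    intro m' m b h1 h2
    exact qq_conc p f hf m' m b h1 h2
  have hq00 : q 0 = 0 := qq_zero p f
  clear_value q G V
  have hsel := selection n hn q G ((w : ℝ) * V / 4) hρ hG0 hq00 hconc hlow hkey'
  exact core_aux p r n (q 1) I V w (Real.log n) G hp0 hp (by linarith) hI0 hq1 hG hsel

end Crest.Agent.S0077
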