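import Crest.Agent.S0077_Cube

/-! Task T2: entropy form of the edge-isoperimetric inequality in sections. -/

set_option autoImplicit false
open Finset Crest Crest.FinProb

namespace Crest.Agent.S0077

/-- one-sided form: if `b ≤ a` then the entropy is at most `p log (1/p) (a - b)`. -/
theorem ent_two_point_aux {p : ℝ} (hp0 : 0 < p) (hp1 : p < 1) {a b : ℝ}
    (hb : 0 ≤ b) (hab : b ≤ a) :
    Real.negMulLog (p * a + (1 - p) * b) ≤
      p * Real.negMulLog a + (1 - p) * Real.negMulLog b
        + p * Real.log (1 / p) * (a - b) := by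
  rcases hab.eq_or_lt with h | h
  · subst h
    have e : p * b + (1 - p) * b = b := by ring
    rw [e]
    have : p * Real.negMulLog b + (1 - p) * Real.negMulLog b = Real.negMulLog b := by ring
    rw [this]
    simp
  · have ha : 0 < a := lt_of_le_of_lt hb h
    set m := p * a + (1 - p) * b with hm
    have hmpos : 0 < m := by
      have h1 : 0 < p * a := mul_pos hp0 ha
      have h2 : 0 ≤ (1 - p) * b := mul_nonneg (by linarith) hb
      linarith
    have hbm : b ≤ m := by
      have : m - b = p * (a - b) := by rw [hm]; ring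
      have h2 : 0 ≤ p * (a - b) := mul_nonneg hp0.le (by linarith)
      linarith
    -- concavity of log
    have hw1 : 0 ≤ b / a := div_nonneg hb ha.le
    have hw2 : 0 ≤ (a - b) / a := div_nonneg (by linarith) ha.le
    have hw3 : b / a + (a - b) / a = 1 := by field_simp; ring
    have hconc := (strictConcaveOn_log_Ioi.concaveOn).2
      (Set.mem_Ioi.2 (one_pos : (0:ℝ) < 1)) (Set.mem_Ioi.2 hp0) hw1 hw2 hw3
    simp only [smul_eq_mul, Real.log_one, mul_zero, zero_add, mul_one] at hconc
    have hma : b / a + (a - b) / a * p = m / a := by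
      rw [hm]; field_simp; ring
    rw [hma, Real.log_div hmpos.ne' ha.ne'] at hconc
    have hlog : (a - b) * Real.log p ≤ a * (Real.log m - Real.log a) := by
      have h1 := mul_le_mul_of_nonneg_left hconc ha.le
      have h2 : a * ((a - b) / a * Real.log p) = (a - b) * Real.log p := by
        field_simp
      linarith
    have hb2 : b * Real.log b ≤ b * Real.log m := by
      rcases hb.eq_or_lt with h0 | h0
      · rw [← h0]; simp
      · exact mul_le_mul_of_nonneg_left (Real.log_le_log h0 hbm) hb
    have hlp : Real.log (1 / p) = - Real.log p := by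
      rw [one_div, Real.log_inv]
    rw [hlp]
    simp only [Real.negMulLog]
    have e1 : -m * Real.log m = - (p * (a * Real.log m)) - (1 - p) * (b * Real.log m) := by
      rw [hm]; ring
    rw [e1]
    have h3 : p * ((a - b) * Real.log p) ≤ p * (a * (Real.log m - Real.log a)) :=
      mul_le_mul_of_nonneg_left hlog hp0.le
    have h4 : (1 - p) * (b * Real.log b) ≤ (1 - p) * (b * Real.log m) :=
      mul_le_mul_of_nonneg_left hb2 (by linarith)
    nlinarith [h3, h4]

theorem ent_log_one_div_ge {p : ℝ} (hp0 : 0 < p) (hp : p ≤ 1 / 2) : 2 / 3 ≤ Real.log (1 / p) := by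
  have h1 : Real.log 2 ≤ Real.log (1 / p) := by
    apply Real.log_le_log (by norm_num)
    rw [le_div_iff₀ hp0]
    linarith
  have h2 := Real.log_two_gt_d9
  linarith

/-- Two point inequality (case where the heads value is larger or smaller).
`Ent(α with prob p, β with prob 1-p) ≤ K |α - β|` with `K = (3/2) p log (1/p)`.
Proof: for `α = β + δ`: `Ent ≤ p (β+δ) log((β+δ)/(β+pδ)) ≤ p δ log(1/p)` by concavity of `log`
(`(β+pδ)/(β+δ)` is a convex combination of `1` and `p`); for `β = α + δ` the same with `1 - p`
and `(1-p) log (1/(1-p)) ≤ p ≤ (3/2) p log (1/p)`. -/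
theorem two_point_entropy {p : ℝ} (hp0 : 0 < p) (hp : p ≤ 1 / 2) {a b : ℝ}
    (ha : 0 ≤ a) (hb : 0 ≤ b) :
    Real.negMulLog (p * a + (1 - p) * b) ≤
      p * Real.negMulLog a + (1 - p) * Real.negMulLog b
        + 3 / 2 * (p * Real.log (1 / p)) * |a - b| := by
  have hlog := ent_log_one_div_ge hp0 hp
  have hK : 0 ≤ p * Real.log (1 / p) := mul_nonneg hp0.le (by linarith)
  rcases le_total b a with hab | hab
  · have h := ent_two_point_aux hp0 (by linarith) hb hab
    rw [abs_of_nonneg (by linarith : 0 ≤ a - b)]
    have h2 : 0 ≤ p * Real.log (1 / p) * (a - b) := mul_nonneg hK (by linarith)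
    nlinarith [h, h2]
  · have hq0 : 0 < 1 - p := by linarith
    have h := ent_two_point_aux hq0 (by linarith : 1 - p < 1) ha hab
    rw [abs_of_nonpos (by linarith : a - b ≤ 0)]
    have e1 : (1 - p) * b + (1 - (1 - p)) * a = p * a + (1 - p) * b := by ring
    rw [e1] at h
    have h3 : Real.log (1 / (1 - p)) ≤ 1 / (1 - p) - 1 :=
      Real.log_le_sub_one_of_pos (by positivity)
    have h4 : (1 - p) * Real.log (1 / (1 - p)) ≤ p := by
      have := mul_le_mul_of_nonneg_left h3 hq0.le
      have e2 : (1 - p) * (1 / (1 - p) - 1) = p := by field_simp; ring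
      linarith
    have h5 : p ≤ 3 / 2 * (p * Real.log (1 / p)) := by
      nlinarith [mul_le_mul_of_nonneg_left hlog hp0.le]
    have h6 : (1 - p) * Real.log (1 / (1 - p)) * (b - a) ≤
        3 / 2 * (p * Real.log (1 / p)) * (b - a) :=
      mul_le_mul_of_nonneg_right (h4.trans h5) (by linarith)
    have e3 : -(a - b) = b - a := by ring
    rw [e3]
    have e4 : (1 - (1 - p)) = p := by ring
    rw [e4] at h
    linarith

variable {ι : Type*} [Fintype ι] [DecidableEq ι]

/-- the marginal of one coordinate -/
theorem ent_ex_marginal (p : ℝ) (e : ι) (g : Bool → ℝ) :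
    ex p (fun ω : ι → Bool => g (ω e)) = p * g true + (1 - p) * g false := by
  have h := ex_prod p (fun (i : ι) (b : Bool) => if i = e then g b else 1)
  have e1 : (fun ω : ι → Bool => ∏ i, (if i = e then g (ω i) else 1)) =
      (fun ω => g (ω e)) := by
    funext ω
    rw [Finset.prod_ite_eq' Finset.univ e (fun i => g (ω i))]
    simp
  rw [e1] at h
  rw [h]
  rw [Finset.prod_eq_single e]
  · simp
  · intro i _ hi
    simp only [if_neg hi]
    ring
  · intro h
    exact absurd (Finset.mem_univ e) h

theorem ent_av_singleton (p : ℝ) (e : ι) (G : (ι → Bool) → ℝ) (ω : ι → Bool) :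
    av p {e} G ω =
      p * G (Function.update ω e true) + (1 - p) * G (Function.update ω e false) := by
  rw [← ent_ex_marginal p e (fun b => G (Function.update ω e b))]
  show ex p _ = _
  congr 1
  funext ω'
  congr 1
  funext i
  by_cases h : i = e
  · subst h
    simp [Finset.piecewise]
  · simp [Finset.piecewise, h]

theorem ent_av_insert (p : ℝ) (e : ι) (A : Finset ι) (F : (ι → Bool) → ℝ) (ω : ι → Bool) :
    av p (insert e A) F ω =
      p * av p A F (Function.update ω e true) + (1 - p) * av p A F (Function.update ω e false) := by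
  rw [← ent_av_singleton, av_av, Finset.insert_eq]

theorem ent_piv_indepOf (f : (ι → Bool) → Bool) (e : ι) : IndepOf {e} (piv f e) := by
  intro ω ω' h
  have h1 : ∀ b, Function.update ω e b = Function.update ω' e b := by
    intro b
    funext i
    by_cases hi : i = e
    · subst hi; simp
    · simp only [Function.update_of_ne hi]
      exact h i (by simpa using hi)
  simp only [piv, h1]

theorem ent_abs_ind_sub (f : (ι → Bool) → Bool) (e : ι) (ω : ι → Bool) :
    |ind f (Function.update ω e true) - ind f (Function.update ω e false)| = piv f e ω := by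
  unfold ind piv
  cases h1 : f (Function.update ω e true) <;> cases h2 : f (Function.update ω e false) <;> simp

theorem ent_piv_nonneg (f : (ι → Bool) → Bool) (e : ι) (ω : ι → Bool) : 0 ≤ piv f e ω := by
  unfold piv
  split_ifs <;> norm_num

/-- the difference of averages is bounded by the average of pivotality -/
theorem ent_abs_av_update_sub {p : ℝ} (h0 : 0 ≤ p) (h1 : p ≤ 1) (f : (ι → Bool) → Bool)
    (A : Finset ι) (e : ι) (he : e ∉ A) (ω : ι → Bool) :
    |av p A (ind f) (Function.update ω e true) - av p A (ind f) (Function.update ω e false)| ≤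
      av p (insert e A) (piv f e) ω := by
  have hpw : ∀ (ω' : ι → Bool) (b : Bool),
      A.piecewise ω' (Function.update ω e b) = Function.update (A.piecewise ω' ω) e b := by
    intro ω' b
    funext i
    by_cases hi : i = e
    · subst hi
      simp [Finset.piecewise, he]
    · by_cases hA : i ∈ A
      · simp [Finset.piecewise, hA, Function.update_of_ne hi]
      · simp [Finset.piecewise, hA, Function.update_of_ne hi]
  have hav : ∀ b, av p A (ind f) (Function.update ω e b) =
      ex p (fun ω' => ind f (Function.update (A.piecewise ω' ω) e b)) := by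
    intro b
    show ex p _ = _
    congr 1
    funext ω'
    rw [hpw]
  have hpiv : av p (insert e A) (piv f e) ω = av p A (piv f e) ω := by
    rw [Finset.insert_eq, Finset.union_comm, ← av_av]
    show ex p _ = ex p _
    congr 1
    funext ω'
    exact av_eq_self p {e} (piv f e) (ent_piv_indepOf f e) _
  rw [hpiv, hav, hav, ← ex_sub p]
  rw [abs_le]
  have hup : ex p (fun ω' => ind f (Function.update (A.piecewise ω' ω) e true) -
      ind f (Function.update (A.piecewise ω' ω) e false)) ≤ av p A (piv f e) ω := by
    apply ex_mono h0 h1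
    intro ω'
    rw [← ent_abs_ind_sub]
    exact le_abs_self _
  have hlo : -(av p A (piv f e) ω) ≤
      ex p (fun ω' => ind f (Function.update (A.piecewise ω' ω) e true) -
      ind f (Function.update (A.piecewise ω' ω) e false)) := by
    have : -(av p A (piv f e) ω) = ex p (fun ω' => (-1 : ℝ) * piv f e (A.piecewise ω' ω)) := by
      rw [ex_mul_left]
      simp [av]
    rw [this]
    apply ex_mono h0 h1
    intro ω'
    rw [← ent_abs_ind_sub]
    have := neg_abs_le (ind f (Function.update (A.piecewise ω' ω) e true) -
      ind f (Function.update (A.piecewise ω' ω) e false))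
    linarith
  exact ⟨hlo, hup⟩

/-- Entropy in sections: induction on `A`. -/
theorem entropy_section {p : ℝ} (hp0 : 0 < p) (hp : p ≤ 1 / 2) (f : (ι → Bool) → Bool)
    (A : Finset ι) (ω : ι → Bool) :
    Real.negMulLog (av p A (ind f) ω) ≤
      3 / 2 * (p * Real.log (1 / p)) * ∑ e ∈ A, av p A (piv f e) ω := by
  have hlog := ent_log_one_div_ge hp0 hp
  have hK : 0 ≤ 3 / 2 * (p * Real.log (1 / p)) := by
    have := mul_nonneg hp0.le (by linarith : (0:ℝ) ≤ Real.log (1 / p))
    linarith
  have hp1 : p ≤ 1 := by linarith
  set K := 3 / 2 * (p * Real.log (1 / p)) with hKdef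
  induction A using Finset.induction_on generalizing ω with
  | empty =>
    rw [av_empty]
    simp only [Finset.sum_empty, mul_zero]
    unfold ind
    split_ifs <;> simp [Real.negMulLog]
  | insert e A he ih =>
    rw [ent_av_insert p e A (ind f) ω]
    have ha := (av_ind_mem hp0.le hp1 A f (Function.update ω e true)).1
    have hb := (av_ind_mem hp0.le hp1 A f (Function.update ω e false)).1
    have h1 := two_point_entropy hp0 hp ha hb
    rw [← hKdef] at h1
    have h2 := ent_abs_av_update_sub hp0.le hp1 f A e he ω
    have h3 := ih (Function.update ω e true)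
    have h4 := ih (Function.update ω e false)
    rw [Finset.sum_insert he, mul_add]
    have h5 : ∑ e' ∈ A, av p (insert e A) (piv f e') ω =
        p * ∑ e' ∈ A, av p A (piv f e') (Function.update ω e true)
        + (1 - p) * ∑ e' ∈ A, av p A (piv f e') (Function.update ω e false) := by
      rw [Finset.mul_sum, Finset.mul_sum, ← Finset.sum_add_distrib]
      apply Finset.sum_congr rfl
      intro e' _
      exact ent_av_insert p e A (piv f e') ω
    rw [h5]
    have h6 := mul_le_mul_of_nonneg_left h2 hK
    have h7 := mul_le_mul_of_nonneg_left h3 hp0.le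
    have h8 := mul_le_mul_of_nonneg_left h4 (by linarith : (0:ℝ) ≤ 1 - p)
    nlinarith [h1, h6, h7, h8]

/-- Version with threshold: `m = min a (1-a)`, `Q = a (1-a)`; if `Q ≤ 1/t` then
`m ≤ 2/t` and so `m log (1/m) ≥ Q log (t/2)`; apply `entropy_section` to `f` or `!f`. -/
theorem entropy_threshold {p : ℝ} (hp0 : 0 < p) (hp : p ≤ 1 / 2) (f : (ι → Bool) → Bool)
    (A : Finset ι) (t : ℝ) (ht : 2 ≤ t) (ω : ι → Bool) :
    Real.log (t / 2) * (if av p A (ind f) ω * (1 - av p A (ind f) ω) ≤ 1 / t then
        av p A (ind f) ω * (1 - av p A (ind f) ω) else 0) ≤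
      3 / 2 * (p * Real.log (1 / p)) * ∑ e ∈ A, av p A (piv f e) ω := by
  have hlog := ent_log_one_div_ge hp0 hp
  have hK : 0 ≤ 3 / 2 * (p * Real.log (1 / p)) := by
    have := mul_nonneg hp0.le (by linarith : (0:ℝ) ≤ Real.log (1 / p))
    linarith
  have hp1 : p ≤ 1 := by linarith
  have hS : 0 ≤ ∑ e ∈ A, av p A (piv f e) ω :=
    Finset.sum_nonneg (fun e _ => av_nonneg hp0.le hp1 A (ent_piv_nonneg f e) ω)
  split_ifs with hQ
  swap
  · rw [mul_zero]
    exact mul_nonneg hK hS
  -- generic estimate
  have key : ∀ m : ℝ, 0 ≤ m → m ≤ 1 / 2 → m * (1 - m) ≤ 1 / t →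
      Real.log (t / 2) * (m * (1 - m)) ≤ Real.negMulLog m := by
    intro m hm0 hm1 hmQ
    have hlt : 0 ≤ Real.log (t / 2) := Real.log_nonneg (by linarith)
    rcases hm0.eq_or_lt with h0 | h0
    · rw [← h0]; simp
    · have hm2 : m / 2 ≤ m * (1 - m) := by nlinarith
      have hm3 : m ≤ 2 / t := by
        have : m / 2 ≤ 1 / t := hm2.trans hmQ
        have e : 2 / t = 2 * (1 / t) := by ring
        rw [e]; linarith
      have hlogm : Real.log (t / 2) ≤ - Real.log m := by
        rw [← Real.log_inv]
        apply Real.log_le_log (by linarith)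
        rw [le_inv_comm₀ (by linarith) h0]
        rw [inv_div]
        exact hm3
      have h1 : m * (1 - m) ≤ m := by nlinarith
      calc Real.log (t / 2) * (m * (1 - m)) ≤ Real.log (t / 2) * m :=
            mul_le_mul_of_nonneg_left h1 hlt
        _ ≤ (- Real.log m) * m := mul_le_mul_of_nonneg_right hlogm hm0
        _ = Real.negMulLog m := by simp only [Real.negMulLog]; ring
  have hmem := av_ind_mem hp0.le hp1 A f ω
  rcases le_total (av p A (ind f) ω) (1 / 2) with hle | hle
  · exact (key _ hmem.1 hle hQ).trans (entropy_section hp0 hp f A ω)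
  · -- apply to the complement
    have hind : ∀ η, ind (fun x => !(f x)) η = 1 - ind f η := by
      intro η
      unfold ind
      by_cases h : f η = true
      · simp [h]
      · simp [h]
    have hav : av p A (ind (fun x => !(f x))) ω = 1 - av p A (ind f) ω := by
      have e1 : ind (fun x => !(f x)) = (fun η => 1 - ind f η) := funext hind
      rw [e1, av_sub p A (fun _ => (1:ℝ)) (ind f), av_const]
    have hpiv : ∀ e, piv (fun x => !(f x)) e = piv f e := by
      intro e
      funext η
      unfold piv
      simp
    have h1 := entropy_section hp0 hp (fun x => !(f x)) A ω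
    rw [hav] at h1
    simp only [hpiv] at h1
    have h2 := key (1 - av p A (ind f) ω) (by linarith [hmem.2]) (by linarith)
      (by
        have e : (1 - av p A (ind f) ω) * (1 - (1 - av p A (ind f) ω)) =
          av p A (ind f) ω * (1 - av p A (ind f) ω) := by ring
        rw [e]; exact hQ)
    have e : (1 - av p A (ind f) ω) * (1 - (1 - av p A (ind f) ω)) =
      av p A (ind f) ω * (1 - av p A (ind f) ω) := by ring
    rw [e] at h2
    exact h2.trans h1

end Crest.Agent.S0077
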