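import Crest.Agent.S0077_Sym

/-! Task T9b: exchanging heads and tails. -/

set_option autoImplicit false
open Finset Crest Crest.FinProb Crest.CombinatoricsR.HypergraphCube

namespace Crest.Agent.S0077

/-- exchanging the two values of all coins -/
def flipAll {ι : Type*} (ω : ι → Bool) : ι → Bool := fun i => !(ω i)

theorem flipAll_invol {ι : Type*} : Function.Involutive (flipAll : (ι → Bool) → (ι → Bool)) := by
  intro ω
  ext i
  simp [flipAll]

theorem bernoulliWeight_flipAll {ι : Type*} [Fintype ι] (p : ℝ) (ω : ι → Bool) :
    bernoulliWeight (1 - p) (flipAll ω) = bernoulliWeight p ω := by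
  unfold bernoulliWeight flipAll
  apply Finset.prod_congr rfl
  intro i _
  rcases Bool.eq_false_or_eq_true (ω i) with h | h <;> simp [h]

theorem ex_flipAll {ι : Type*} [Fintype ι] [DecidableEq ι] (p : ℝ) (F : (ι → Bool) → ℝ) :
    ex (1 - p) (fun ω => F (flipAll ω)) = ex p F := by
  unfold ex
  have := Equiv.sum_comp (flipAll_invol (ι := ι)).toPerm
    (fun ω => bernoulliWeight (1 - p) ω * F (flipAll ω))
  rw [← this]
  apply Finset.sum_congr rfl
  intro ω _
  simp only [Function.Involutive.coe_toPerm]
  rw [bernoulliWeight_flipAll, flipAll_invol ω]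

theorem flipAll_update {ι : Type*} [DecidableEq ι] (ω : ι → Bool) (e : ι) (b : Bool) :
    flipAll (Function.update ω e b) = Function.update (flipAll ω) e (!b) := by
  ext i
  by_cases h : i = e
  · subst h; simp [flipAll]
  · simp [flipAll, h]

variable {n r : ℕ}

/-- **T9b.** exchanging the two values of the coins -/
theorem flip_exists (p : ℝ) (f : (HyperedgeSlot n r → Bool) → Bool) (hf : IsSymmetric f) :
    ∃ f' : (HyperedgeSlot n r → Bool) → Bool, IsSymmetric f' ∧
      probTrue (1 - p) f' = probTrue p f ∧ totalInfluence (1 - p) f' = totalInfluence p f := by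
  refine ⟨fun x => f (flipAll x), ?_, ?_, ?_⟩
  · intro σ x
    exact hf σ (flipAll x)
  · rw [probTrue_eq_ex, probTrue_eq_ex, ← ex_flipAll p (ind f)]
    rfl
  · rw [totalInfluence_eq_ex, totalInfluence_eq_ex]
    apply Finset.sum_congr rfl
    intro e _
    rw [← ex_flipAll p (piv f e)]
    congr 1
    ext ω
    unfold piv
    simp only [flipAll_update, Bool.not_true, Bool.not_false]
    by_cases h : f (Function.update (flipAll ω) e true) = f (Function.update (flipAll ω) e false)
    · simp [h]
    · rw [if_pos h, if_pos (fun h' => h h'.symm)]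

end Crest.Agent.S0077
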