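import Crest.Agent.S0077_Cube

/-! Task T3: vertex hypercontractivity. -/

set_option autoImplicit false
open Finset Crest Crest.FinProb

namespace Crest.Agent.S0077

variable {ι V : Type*} [Fintype ι] [DecidableEq ι] [DecidableEq V]

/-- One-step inequality (`X`, `Y` centred w.r.t. the average over `A`, `a`, `b` not depending on `A`).
Expand: `av[(a+X)²(b+Y)²] = a²b² + a² av Y² + b² av X² + 4ab av(XY) + 2a av(XY²) + 2b av(X²Y) + av(X²Y²)`,
`4ab av(XY) ≤ 2(a² av Y² + b² av X²)` (Cauchy–Schwarz), `2aXY² ≤ a²Y² + X²Y²`, `2bX²Y ≤ b²X² + X²Y²`. -/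
theorem one_step {p : ℝ} (h0 : 0 ≤ p) (h1 : p ≤ 1) (X Y : (ι → Bool) → ℝ) (a b : ℝ)
    (hX : ex p X = 0) (hY : ex p Y = 0) :
    ex p (fun ω => (a + X ω) ^ 2 * (b + Y ω) ^ 2) ≤
      (a ^ 2 + 4 * ex p (fun ω => X ω ^ 2)) * (b ^ 2 + 4 * ex p (fun ω => Y ω ^ 2))
        + 3 * ex p (fun ω => X ω ^ 2 * Y ω ^ 2) := by
  have hpt : ∀ ω, (a + X ω) ^ 2 * (b + Y ω) ^ 2 ≤
      ((((a ^ 2 * b ^ 2 + 2 * a ^ 2 * b * Y ω) + 2 * a * b ^ 2 * X ω) + 4 * a ^ 2 * Y ω ^ 2)
        + 4 * b ^ 2 * X ω ^ 2) + 3 * (X ω ^ 2 * Y ω ^ 2) := by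
    intro ω
    nlinarith [sq_nonneg (a * Y ω - b * X ω), sq_nonneg (a * Y ω - X ω * Y ω),
      sq_nonneg (b * X ω - X ω * Y ω)]
  refine (ex_mono h0 h1 hpt).trans ?_
  rw [ex_add p (fun ω => (((a ^ 2 * b ^ 2 + 2 * a ^ 2 * b * Y ω) + 2 * a * b ^ 2 * X ω)
        + 4 * a ^ 2 * Y ω ^ 2) + 4 * b ^ 2 * X ω ^ 2) (fun ω => 3 * (X ω ^ 2 * Y ω ^ 2)),
    ex_add p (fun ω => ((a ^ 2 * b ^ 2 + 2 * a ^ 2 * b * Y ω) + 2 * a * b ^ 2 * X ω)
        + 4 * a ^ 2 * Y ω ^ 2) (fun ω => 4 * b ^ 2 * X ω ^ 2),
    ex_add p (fun ω => (a ^ 2 * b ^ 2 + 2 * a ^ 2 * b * Y ω) + 2 * a * b ^ 2 * X ω)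
        (fun ω => 4 * a ^ 2 * Y ω ^ 2),
    ex_add p (fun ω => a ^ 2 * b ^ 2 + 2 * a ^ 2 * b * Y ω) (fun ω => 2 * a * b ^ 2 * X ω),
    ex_add p (fun _ => a ^ 2 * b ^ 2) (fun ω => 2 * a ^ 2 * b * Y ω),
    ex_const, ex_mul_left, ex_mul_left, ex_mul_left, ex_mul_left, ex_mul_left, hX, hY]
  have hx : 0 ≤ ex p (fun ω => X ω ^ 2) := ex_nonneg h0 h1 (fun ω => sq_nonneg _)
  have hy : 0 ≤ ex p (fun ω => Y ω ^ 2) := ex_nonneg h0 h1 (fun ω => sq_nonneg _)
  nlinarith [mul_nonneg hx hy]

/-- conditional form of `one_step` -/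
theorem one_step_av {p : ℝ} (h0 : 0 ≤ p) (h1 : p ≤ 1) (B : Finset ι)
    (F G : (ι → Bool) → ℝ) (ω : ι → Bool) :
    av p B (fun η => F η ^ 2 * G η ^ 2) ω ≤
      (av p B F ω ^ 2 + 4 * av p B (fun η => (F η - av p B F η) ^ 2) ω)
        * (av p B G ω ^ 2 + 4 * av p B (fun η => (G η - av p B G η) ^ 2) ω)
        + 3 * av p B (fun η => (F η - av p B F η) ^ 2 * (G η - av p B G η) ^ 2) ω := by
  have hind : ∀ (H : (ι → Bool) → ℝ) (ω' : ι → Bool),
      av p B H (B.piecewise ω' ω) = av p B H ω := by
    intro H ω'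
    apply av_indepOf p B H
    intro i hi
    simp [Finset.piecewise, hi]
  have hcent : ∀ H : (ι → Bool) → ℝ,
      ex p (fun ω' => H (B.piecewise ω' ω) - av p B H ω) = 0 := by
    intro H
    rw [ex_sub p (fun ω' => H (B.piecewise ω' ω)) (fun _ => av p B H ω), ex_const]
    simp [av]
  have key := one_step h0 h1 (fun ω' => F (B.piecewise ω' ω) - av p B F ω)
    (fun ω' => G (B.piecewise ω' ω) - av p B G ω) (av p B F ω) (av p B G ω)
    (hcent F) (hcent G)
  have e1 : av p B (fun η => F η ^ 2 * G η ^ 2) ω =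
      ex p (fun ω' => (av p B F ω + (F (B.piecewise ω' ω) - av p B F ω)) ^ 2 *
        (av p B G ω + (G (B.piecewise ω' ω) - av p B G ω)) ^ 2) := by
    show ex p _ = _
    congr 1
    funext ω'
    ring
  have e2 : ∀ H : (ι → Bool) → ℝ, av p B (fun η => (H η - av p B H η) ^ 2) ω =
      ex p (fun ω' => (H (B.piecewise ω' ω) - av p B H ω) ^ 2) := by
    intro H
    show ex p _ = _
    congr 1
    funext ω'
    simp only [hind]
  have e3 : av p B (fun η => (F η - av p B F η) ^ 2 * (G η - av p B G η) ^ 2) ω =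
      ex p (fun ω' => (F (B.piecewise ω' ω) - av p B F ω) ^ 2 *
        (G (B.piecewise ω' ω) - av p B G ω) ^ 2) := by
    show ex p _ = _
    congr 1
    funext ω'
    simp only [hind]
  rw [e1, e2 F, e2 G, e3]
  exact key

/-- `av (F - av F)² = av F² - (av F)²` -/
theorem av_centered_sq (p : ℝ) (B : Finset ι) (F : (ι → Bool) → ℝ) (ω : ι → Bool) :
    av p B (fun η => (F η - av p B F η) ^ 2) ω =
      av p B (fun η => F η ^ 2) ω - av p B F ω ^ 2 := by
  have h1 : (fun η => (F η - av p B F η) ^ 2) =
      (fun η => (F η ^ 2 - 2 * (F η * av p B F η)) + av p B F η * av p B F η) := by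
    funext η; ring
  have hI := av_indepOf p B F
  rw [h1, av_add p B (fun η => F η ^ 2 - 2 * (F η * av p B F η))
      (fun η => av p B F η * av p B F η),
    av_sub p B (fun η => F η ^ 2) (fun η => 2 * (F η * av p B F η)),
    av_mul_left p B 2 (fun η => F η * av p B F η),
    av_mul_indep p B F (av p B F) hI, av_mul_indep p B (av p B F) (av p B F) hI,
    av_eq_self p B (av p B F) hI]
  ring

omit [Fintype ι] in
theorem sum_powerset_split (A B : Finset ι) (f : Finset ι → ℝ) :
    ∑ S ∈ A.powerset, f S =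
      ∑ T ∈ (A ∩ B).powerset, ∑ S ∈ (A \ B).powerset, f (S ∪ T) := by
  rw [← Finset.sum_product']
  symm
  refine Finset.sum_nbij' (fun q => q.2 ∪ q.1) (fun S => (S ∩ B, S \ B)) ?_ ?_ ?_ ?_ ?_
  · rintro ⟨T, S⟩ h
    simp only [Finset.mem_product, Finset.mem_powerset] at h ⊢
    exact Finset.union_subset (h.2.trans Finset.sdiff_subset) (h.1.trans Finset.inter_subset_left)
  · intro S h
    simp only [Finset.mem_product, Finset.mem_powerset] at h ⊢
    exact ⟨Finset.inter_subset_inter_right h, Finset.sdiff_subset_sdiff h subset_rfl⟩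
  · rintro ⟨T, S⟩ h
    simp only [Finset.mem_product, Finset.mem_powerset] at h ⊢
    have h1 : ∀ i ∈ T, i ∈ B := fun i hi => (Finset.mem_inter.1 (h.1 hi)).2
    have h2 : ∀ i ∈ S, i ∉ B := fun i hi => (Finset.mem_sdiff.1 (h.2 hi)).2
    refine Prod.ext ?_ ?_
    · ext i
      simp only [Finset.mem_inter, Finset.mem_union]
      constructor
      · rintro ⟨hi | hi, hB⟩
        · exact absurd hB (h2 i hi)
        · exact hi
      · intro hi
        exact ⟨Or.inr hi, h1 i hi⟩
    · ext i
      simp only [Finset.mem_sdiff, Finset.mem_union]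
      constructor
      · rintro ⟨hi | hi, hB⟩
        · exact hi
        · exact absurd (h1 i hi) hB
      · intro hi
        exact ⟨Or.inl hi, h2 i hi⟩
  · intro S h
    exact Finset.sdiff_union_inter S B
  · intro q h
    rfl

theorem ev_supp (p : ℝ) (A : Finset ι) (c : Finset ι → ℝ) (hc : ∀ S, ¬ S ⊆ A → c S = 0)
    (ω : ι → Bool) : ev p c ω = ∑ S ∈ A.powerset, c S * chi p S ω := by
  unfold ev
  symm
  apply Finset.sum_subset (Finset.subset_univ _)
  intro S _ hS
  rw [Finset.mem_powerset] at hS
  rw [hc S hS, zero_mul]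

/-- the section `c_T(S) = c (S ∪ T)` for `S ⊆ A'` -/
noncomputable def sect (A' : Finset ι) (c : Finset ι → ℝ) (T : Finset ι) : Finset ι → ℝ :=
  fun S => if S ⊆ A' then c (S ∪ T) else 0

omit [Fintype ι] in
theorem sect_supp (A' : Finset ι) (c : Finset ι → ℝ) (T S : Finset ι) (h : ¬ S ⊆ A') :
    sect A' c T S = 0 := by
  simp [sect, h]

theorem ev_split (p : ℝ) (A B : Finset ι) (c : Finset ι → ℝ) (hc : ∀ S, ¬ S ⊆ A → c S = 0)
    (ω : ι → Bool) :
    ev p c ω = ∑ T ∈ (A ∩ B).powerset, chi p T ω * ev p (sect (A \ B) c T) ω := by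
  rw [ev_supp p A c hc, sum_powerset_split A B]
  apply Finset.sum_congr rfl
  intro T hT
  rw [ev_supp p (A \ B) (sect (A \ B) c T) (sect_supp (A \ B) c T), Finset.mul_sum]
  apply Finset.sum_congr rfl
  intro S hS
  rw [Finset.mem_powerset] at hT hS
  have hd : Disjoint S T := by
    rw [Finset.disjoint_left]
    intro i hi hi'
    exact (Finset.mem_sdiff.1 (hS hi)).2 (Finset.mem_inter.1 (hT hi')).2
  have h1 : chi p (S ∪ T) ω = chi p S ω * chi p T ω := by
    unfold chi
    exact Finset.prod_union hd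
  rw [h1]
  simp only [sect, hS, if_true]
  ring

theorem ev_indepOf (p : ℝ) (A' B : Finset ι) (hAB : Disjoint A' B) (c : Finset ι → ℝ)
    (hc : ∀ S, ¬ S ⊆ A' → c S = 0) : IndepOf B (ev p c) := by
  intro ω ω' h
  rw [ev_supp p A' c hc, ev_supp p A' c hc]
  apply Finset.sum_congr rfl
  intro S hS
  rw [Finset.mem_powerset] at hS
  congr 1
  unfold chi
  apply Finset.prod_congr rfl
  intro i hi
  rw [h i (fun hB => (Finset.disjoint_left.1 hAB) (hS hi) hB)]

theorem av_chi_mul_chi {p : ℝ} (h0 : 0 < p) (h1 : p < 1) (B S T : Finset ι) (hS : S ⊆ B)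
    (hT : T ⊆ B) (ω : ι → Bool) :
    av p B (fun η => chi p S η * chi p T η) ω = if S = T then 1 else 0 := by
  rw [← chi_orth h0 h1 S T]
  show ex p _ = _
  congr 1
  funext ω'
  have h : ∀ U : Finset ι, U ⊆ B → chi p U (B.piecewise ω' ω) = chi p U ω' := by
    intro U hU
    unfold chi
    apply Finset.prod_congr rfl
    intro i hi
    simp [Finset.piecewise, hU hi]
  simp only [h S hS, h T hT]

/-- conditional Parseval -/
theorem av_ev_sq {p : ℝ} (h0 : 0 < p) (h1 : p < 1) (A B : Finset ι) (c : Finset ι → ℝ)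
    (hc : ∀ S, ¬ S ⊆ A → c S = 0) (ω : ι → Bool) :
    av p (A ∩ B) (fun η => ev p c η ^ 2) ω =
      ∑ T ∈ (A ∩ B).powerset, ev p (sect (A \ B) c T) ω ^ 2 := by
  have hfun : (fun η => ev p c η ^ 2) = (fun η => ∑ T ∈ (A ∩ B).powerset,
      ∑ T' ∈ (A ∩ B).powerset, (chi p T η * chi p T' η) *
        (ev p (sect (A \ B) c T) η * ev p (sect (A \ B) c T') η)) := by
    funext η
    rw [ev_split p A B c hc, pow_two, Finset.sum_mul_sum]
    apply Finset.sum_congr rfl
    intro T _
    apply Finset.sum_congr rfl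
    intro T' _
    ring
  have hdis : Disjoint (A \ B) (A ∩ B) := by
    rw [Finset.disjoint_left]
    intro i hi hi'
    exact (Finset.mem_sdiff.1 hi).2 (Finset.mem_inter.1 hi').2
  rw [hfun, av_sum]
  apply Finset.sum_congr rfl
  intro T hT
  rw [av_sum]
  have hstep : ∀ T' ∈ (A ∩ B).powerset,
      av p (A ∩ B) (fun η => (chi p T η * chi p T' η) *
        (ev p (sect (A \ B) c T) η * ev p (sect (A \ B) c T') η)) ω =
      if T = T' then ev p (sect (A \ B) c T) ω * ev p (sect (A \ B) c T') ω else 0 := by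
    intro T' hT'
    have hI : IndepOf (A ∩ B) (fun η => ev p (sect (A \ B) c T) η *
        ev p (sect (A \ B) c T') η) := by
      intro η η' h
      have e1 := ev_indepOf p (A \ B) (A ∩ B) hdis (sect (A \ B) c T)
        (sect_supp (A \ B) c T) η η' h
      have e2 := ev_indepOf p (A \ B) (A ∩ B) hdis (sect (A \ B) c T')
        (sect_supp (A \ B) c T') η η' h
      show _ * _ = _ * _
      rw [e1, e2]
    rw [av_mul_indep p (A ∩ B) (fun η => chi p T η * chi p T' η) _ hI,
      av_chi_mul_chi h0 h1 (A ∩ B) T T' (Finset.mem_powerset.1 hT) (Finset.mem_powerset.1 hT')]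
    split_ifs <;> simp
  rw [Finset.sum_congr rfl hstep, Finset.sum_ite_eq]
  simp only [hT, if_true]
  ring

theorem av_ev {p : ℝ} (h0 : 0 < p) (h1 : p < 1) (B : Finset ι) (c : Finset ι → ℝ)
    (ω : ι → Bool) :
    av p B (ev p c) ω = ev p (fun S => if Disjoint S B then c S else 0) ω := by
  show av p B (fun η => ∑ S, c S * chi p S η) ω = _
  rw [av_sum]
  unfold ev
  apply Finset.sum_congr rfl
  intro S _
  rw [av_mul_left p B (c S) (chi p S), av_chi h0 h1]
  by_cases h : Disjoint S B
  · simp only [if_pos h]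
  · simp only [if_neg h, mul_zero, zero_mul]

/-- the average is the `∅`-section -/
theorem av_ev_eq_sect {p : ℝ} (h0 : 0 < p) (h1 : p < 1) (A B : Finset ι) (c : Finset ι → ℝ)
    (hc : ∀ S, ¬ S ⊆ A → c S = 0) (ω : ι → Bool) :
    av p (A ∩ B) (ev p c) ω = ev p (sect (A \ B) c ∅) ω := by
  rw [av_ev h0 h1]
  unfold ev
  apply Finset.sum_congr rfl
  intro S _
  congr 1
  unfold sect
  rw [Finset.union_empty]
  by_cases hSA : S ⊆ A
  · have hiff : Disjoint S (A ∩ B) ↔ S ⊆ A \ B := by
      rw [Finset.disjoint_left]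
      constructor
      · intro h i hi
        exact Finset.mem_sdiff.2 ⟨hSA hi, fun hB => h hi (Finset.mem_inter.2 ⟨hSA hi, hB⟩)⟩
      · intro h i hi hi'
        exact (Finset.mem_sdiff.1 (h hi)).2 (Finset.mem_inter.1 hi').2
    by_cases h : S ⊆ A \ B
    · simp only [if_pos (hiff.2 h), if_pos h]
    · simp only [if_neg (fun h' => h (hiff.1 h')), if_neg h]
  · simp only [hc S hSA, ite_self]

/-- the centred part is the series restricted to the sets touching `B` -/
theorem ev_sub_av {p : ℝ} (h0 : 0 < p) (h1 : p < 1) (A B : Finset ι) (c : Finset ι → ℝ)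
    (hc : ∀ S, ¬ S ⊆ A → c S = 0) (ω : ι → Bool) :
    ev p c ω - av p (A ∩ B) (ev p c) ω =
      ev p (fun S => if Disjoint S B then 0 else c S) ω := by
  rw [av_ev h0 h1]
  unfold ev
  rw [← Finset.sum_sub_distrib]
  apply Finset.sum_congr rfl
  intro S _
  by_cases hSA : S ⊆ A
  · have hiff : Disjoint S (A ∩ B) ↔ Disjoint S B := by
      rw [Finset.disjoint_left, Finset.disjoint_left]
      constructor
      · intro h i hi hB
        exact h hi (Finset.mem_inter.2 ⟨hSA hi, hB⟩)
      · intro h i hi hi'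
        exact h hi (Finset.mem_inter.1 hi').2
    by_cases h : Disjoint S B
    · simp only [if_pos (hiff.2 h), if_pos h]
      ring
    · simp only [if_neg (fun h' => h (hiff.1 h')), if_neg h]
      ring
  · simp only [hc S hSA, ite_self]
    ring

/-- the weights `κ` -/
noncomputable def kap (T : Finset ι) : ℝ := if T = ∅ then 1 else 4

omit [Fintype ι] in
theorem kap_nonneg (T : Finset ι) : 0 ≤ kap T := by
  unfold kap
  split_ifs <;> norm_num

theorem main_factor {p : ℝ} (h0 : 0 < p) (h1 : p < 1) (A B : Finset ι) (c : Finset ι → ℝ)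
    (hc : ∀ S, ¬ S ⊆ A → c S = 0) (ω : ι → Bool) :
    av p (A ∩ B) (ev p c) ω ^ 2
        + 4 * av p (A ∩ B) (fun η => (ev p c η - av p (A ∩ B) (ev p c) η) ^ 2) ω =
      ∑ T ∈ (A ∩ B).powerset, kap T * ev p (sect (A \ B) c T) ω ^ 2 := by
  rw [av_centered_sq, av_ev_sq h0 h1 A B c hc, av_ev_eq_sect h0 h1 A B c hc]
  have hmem : (∅ : Finset ι) ∈ (A ∩ B).powerset := Finset.empty_mem_powerset _
  rw [← Finset.add_sum_erase _ _ hmem, ← Finset.add_sum_erase _ (fun T => kap T * _) hmem]
  have : ∑ T ∈ (A ∩ B).powerset.erase ∅, kap T * ev p (sect (A \ B) c T) ω ^ 2 =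
      4 * ∑ T ∈ (A ∩ B).powerset.erase ∅, ev p (sect (A \ B) c T) ω ^ 2 := by
    rw [Finset.mul_sum]
    apply Finset.sum_congr rfl
    intro T hT
    unfold kap
    rw [if_neg (Finset.ne_of_mem_erase hT)]
  rw [this]
  simp only [kap, if_true]
  ring

/-- `S` touches every star of a vertex in `J` -/
def touches (star : V → Finset ι) (J : Finset V) (S : Finset ι) : Prop :=
  ∀ x ∈ J, ¬ Disjoint S (star x)

/-- the weight `N_{R,J}(c) = ∑_{S touching J} 4^{#{x ∈ R \ J : S touches x}} c(S)²` -/
noncomputable def NN (star : V → Finset ι) (R J : Finset V) (c : Finset ι → ℝ) : ℝ :=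
  haveI := Classical.decPred (touches star J)
  ∑ S ∈ univ.filter (fun S => touches star J S),
    (4 : ℝ) ^ (((R \ J).filter (fun x => ¬ Disjoint S (star x))).card) * c S ^ 2

open Classical in
theorem NN_eq (star : V → Finset ι) (R J : Finset V) (c : Finset ι → ℝ) :
    NN star R J c = ∑ S, if touches star J S then
      (4 : ℝ) ^ (((R \ J).filter (fun x => ¬ Disjoint S (star x))).card) * c S ^ 2 else 0 := by
  unfold NN
  rw [Finset.sum_filter]

open Classical in
theorem NN_eq_supp (star : V → Finset ι) (R J : Finset V) (A : Finset ι) (c : Finset ι → ℝ)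
    (hc : ∀ S, ¬ S ⊆ A → c S = 0) :
    NN star R J c = ∑ S ∈ A.powerset, if touches star J S then
      (4 : ℝ) ^ (((R \ J).filter (fun x => ¬ Disjoint S (star x))).card) * c S ^ 2 else 0 := by
  rw [NN_eq]
  symm
  apply Finset.sum_subset (Finset.subset_univ _)
  intro S _ hS
  rw [Finset.mem_powerset] at hS
  rw [hc S hS]
  simp

theorem NN_nonneg (star : V → Finset ι) (R J : Finset V) (c : Finset ι → ℝ) :
    0 ≤ NN star R J c := by
  unfold NN
  apply Finset.sum_nonneg
  intro S _
  positivity

/-- main combinatorial estimate -/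
theorem sum_kap_NN_le (star : V → Finset ι) (R J : Finset V) (x : V) (hx : x ∉ R)
    (hJ : J ⊆ R) (A : Finset ι) (c : Finset ι → ℝ) (hc : ∀ S, ¬ S ⊆ A → c S = 0) :
    ∑ T ∈ (A ∩ star x).powerset, kap T * NN star R J (sect (A \ star x) c T) ≤
      NN star (insert x R) J c := by
  classical
  rw [NN_eq_supp star (insert x R) J A c hc, sum_powerset_split A (star x)]
  apply Finset.sum_le_sum
  intro T hT
  rw [NN_eq_supp star R J (A \ star x) (sect (A \ star x) c T) (sect_supp _ _ _),
    Finset.mul_sum]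
  apply Finset.sum_le_sum
  intro S hS
  rw [Finset.mem_powerset] at hT hS
  have hsec : sect (A \ star x) c T S = c (S ∪ T) := by
    simp [sect, hS]
  rw [hsec]
  have hxJ : x ∉ J := fun h => hx (hJ h)
  by_cases ht : touches star J S
  · have ht' : touches star J (S ∪ T) := by
      intro y hy hd
      exact ht y hy (Finset.disjoint_of_subset_left Finset.subset_union_left hd)
    rw [if_pos ht, if_pos ht', ← mul_assoc]
    apply mul_le_mul_of_nonneg_right _ (sq_nonneg _)
    have hsub : (R \ J).filter (fun y => ¬ Disjoint S (star y)) ⊆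
        (insert x R \ J).filter (fun y => ¬ Disjoint (S ∪ T) (star y)) := by
      intro y hy
      rw [Finset.mem_filter, Finset.mem_sdiff] at hy ⊢
      exact ⟨⟨Finset.mem_insert_of_mem hy.1.1, hy.1.2⟩, fun hd =>
        hy.2 (Finset.disjoint_of_subset_left Finset.subset_union_left hd)⟩
    unfold kap
    split_ifs with hTe
    · rw [one_mul]
      exact pow_le_pow_right₀ (by norm_num) (Finset.card_le_card hsub)
    · have hx1 : x ∈ (insert x R \ J).filter (fun y => ¬ Disjoint (S ∪ T) (star y)) := by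
        rw [Finset.mem_filter, Finset.mem_sdiff]
        refine ⟨⟨Finset.mem_insert_self _ _, hxJ⟩, fun hd => ?_⟩
        obtain ⟨i, hi⟩ := Finset.nonempty_iff_ne_empty.2 hTe
        exact (Finset.disjoint_left.1 hd) (Finset.mem_union_right _ hi)
          (Finset.mem_inter.1 (hT hi)).2
      have hx2 : x ∉ (R \ J).filter (fun y => ¬ Disjoint S (star y)) := by
        rw [Finset.mem_filter, Finset.mem_sdiff]
        exact fun h => hx h.1.1
      have hcard : ((R \ J).filter (fun y => ¬ Disjoint S (star y))).card + 1 ≤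
          ((insert x R \ J).filter (fun y => ¬ Disjoint (S ∪ T) (star y))).card := by
        rw [← Finset.card_insert_of_notMem hx2]
        apply Finset.card_le_card
        intro y hy
        rcases Finset.mem_insert.1 hy with h | h
        · rw [h]; exact hx1
        · exact hsub h
      calc (4 : ℝ) * 4 ^ ((R \ J).filter (fun y => ¬ Disjoint S (star y))).card
          = 4 ^ (((R \ J).filter (fun y => ¬ Disjoint S (star y))).card + 1) := by
            rw [pow_succ]; ring
        _ ≤ _ := pow_le_pow_right₀ (by norm_num) hcard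
  · rw [if_neg ht, mul_zero]
    split_ifs <;> positivity

theorem NN_insert (star : V → Finset ι) (R J : Finset V) (x : V) (hx : x ∉ R)
    (c : Finset ι → ℝ) :
    NN star (insert x R) (insert x J) c =
      NN star R J (fun S => if Disjoint S (star x) then 0 else c S) := by
  classical
  rw [NN_eq, NN_eq]
  apply Finset.sum_congr rfl
  intro S _
  have hset : insert x R \ insert x J = R \ J := by
    ext y
    simp only [Finset.mem_sdiff, Finset.mem_insert]
    constructor
    · rintro ⟨h1 | h1, h2⟩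
      · exact absurd (Or.inl h1) h2
      · exact ⟨h1, fun h => h2 (Or.inr h)⟩
    · rintro ⟨h1, h2⟩
      refine ⟨Or.inr h1, ?_⟩
      rintro (h | h)
      · exact hx (h ▸ h1)
      · exact h2 h
  rw [hset]
  by_cases hd : Disjoint S (star x)
  · have h1 : ¬ touches star (insert x J) S := fun h => h x (Finset.mem_insert_self _ _) hd
    rw [if_neg h1]
    simp [hd]
  · by_cases hJ : touches star J S
    · have h1 : touches star (insert x J) S := by
        intro y hy
        rcases Finset.mem_insert.1 hy with h | h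
        · rw [h]; exact hd
        · exact hJ y h
      rw [if_pos h1, if_pos hJ, if_neg hd]
    · have h1 : ¬ touches star (insert x J) S :=
        fun h => hJ (fun y hy => h y (Finset.mem_insert_of_mem hy))
      rw [if_neg h1, if_neg hJ]

/-- the base case -/
theorem hyper_base {p : ℝ} (hp0 : 0 < p) (hp : p ≤ 1 / 2) (A : Finset ι) (c d : Finset ι → ℝ)
    (hc : ∀ S, ¬ S ⊆ A → c S = 0) (hd : ∀ S, ¬ S ⊆ A → d S = 0) :
    ex p (fun ω => ev p c ω ^ 2 * ev p d ω ^ 2) ≤
      (1 / p) ^ A.card * ((∑ S, c S ^ 2) * ∑ S, d S ^ 2) := by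
  have hp1 : p < 1 := by linarith
  have hpt : ∀ ω, ev p c ω ^ 2 ≤ (1 / p) ^ A.card * ∑ S, c S ^ 2 := by
    intro ω
    rw [ev_supp p A c hc]
    have hCS := Finset.sum_mul_sq_le_sq_mul_sq A.powerset c (fun S => chi p S ω)
    refine hCS.trans ?_
    have h1 : ∑ S ∈ A.powerset, c S ^ 2 ≤ ∑ S, c S ^ 2 :=
      Finset.sum_le_sum_of_subset_of_nonneg (Finset.subset_univ _) (fun S _ _ => sq_nonneg _)
    have h2 : ∑ S ∈ A.powerset, chi p S ω ^ 2 ≤ (1 / p) ^ A.card := by
      have h3 : ∑ S ∈ A.powerset, chi p S ω ^ 2 = ∏ i ∈ A, (1 + phi p (ω i) ^ 2) := by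
        rw [Finset.prod_one_add]
        apply Finset.sum_congr rfl
        intro S _
        unfold chi
        rw [Finset.prod_pow]
      rw [h3]
      calc ∏ i ∈ A, (1 + phi p (ω i) ^ 2) ≤ ∏ _i ∈ A, (1 / p) := by
            apply Finset.prod_le_prod
            · intro i _; positivity
            · intro i _
              rw [one_add_phi_sq hp0 hp1]
              split_ifs
              · exact le_refl _
              · apply one_div_le_one_div_of_le hp0
                linarith
        _ = _ := by rw [Finset.prod_const]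
    calc (∑ S ∈ A.powerset, c S ^ 2) * ∑ S ∈ A.powerset, chi p S ω ^ 2
        ≤ (∑ S, c S ^ 2) * (1 / p) ^ A.card := by
          apply mul_le_mul h1 h2
          · exact Finset.sum_nonneg (fun S _ => sq_nonneg _)
          · exact Finset.sum_nonneg (fun S _ => sq_nonneg _)
      _ = _ := mul_comm _ _
  have hE : ex p (fun ω => ev p d ω ^ 2) = ∑ S, d S ^ 2 := by
    have h := parseval_ev hp0 hp1 d d
    have e1 : (fun ω => ev p d ω * ev p d ω) = (fun ω => ev p d ω ^ 2) := by
      funext ω; ring
    rw [e1] at h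
    rw [h]
    apply Finset.sum_congr rfl
    intro S _
    ring
  calc ex p (fun ω => ev p c ω ^ 2 * ev p d ω ^ 2)
      ≤ ex p (fun ω => ((1 / p) ^ A.card * ∑ S, c S ^ 2) * ev p d ω ^ 2) := by
        apply ex_mono hp0.le hp1.le
        intro ω
        exact mul_le_mul_of_nonneg_right (hpt ω) (sq_nonneg _)
    _ = ((1 / p) ^ A.card * ∑ S, c S ^ 2) * ∑ S, d S ^ 2 := by
        rw [ex_mul_left, hE]
    _ = _ := by ring

/-- Vertex hypercontractivity. `A` = alive coordinates, `R` = vertices to be processed.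
Induction on `R`, for all `A`, `c`, `d` supported on subsets of `A`.
Step `insert x R`: split over `x` with `one_step` conditionally on the coordinates outside
`A ∩ star x`; the main term is
`∑_{S'',T''⊆A∩star x} κ(S'')κ(T'') E[F_{c_{S''}}² F_{d_{T''}}²]` with `κ(∅)=1`, `κ=4` otherwise,
`c_{S''}(S') = c(S' ∪ S'')` for `S' ⊆ A \ star x`, to which the induction hypothesis with alive set
`A \ star x` applies; the other term `3 E[g_x² h_x²]` is the induction hypothesis for
`c·1[S touches x]`, `d·1[S touches x]` with the same alive set `A`.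
Base `R = ∅`: `F_c(ω)² ≤ (∑ c²) ∏_{i∈A} (1+φ(ω_i)²) ≤ (1/p)^{|A|} ∑ c²` as `p ≤ 1/2`. -/
theorem vertex_hyper {p : ℝ} (hp0 : 0 < p) (hp : p ≤ 1 / 2) (star : V → Finset ι)
    (R : Finset V) :
    ∀ (A : Finset ι) (c d : Finset ι → ℝ),
      (∀ S, ¬ S ⊆ A → c S = 0) → (∀ S, ¬ S ⊆ A → d S = 0) →
      ex p (fun ω => ev p c ω ^ 2 * ev p d ω ^ 2) ≤
        ∑ J ∈ R.powerset, (3 : ℝ) ^ J.card *
          (1 / p) ^ ((A \ (R \ J).biUnion star).card) * (NN star R J c * NN star R J d) := by
  have hp1 : p < 1 := by linarith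
  induction R using Finset.induction_on with
  | empty =>
    intro A c d hc hd
    have hNN : ∀ e : Finset ι → ℝ, NN star ∅ ∅ e = ∑ S, e S ^ 2 := by
      intro e
      classical
      rw [NN_eq]
      apply Finset.sum_congr rfl
      intro S _
      have : touches star ∅ S := by
        intro y hy
        simp at hy
      rw [if_pos this]
      simp
    simp only [Finset.powerset_empty, Finset.sum_singleton, Finset.card_empty, pow_zero, one_mul,
      Finset.sdiff_empty, Finset.biUnion_empty, hNN]
    exact hyper_base hp0 hp A c d hc hd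
  | insert x R hx ih =>
    intro A c d hc hd
    set B := A ∩ star x with hB
    set A' := A \ star x with hA'
    set c1 : Finset ι → ℝ := fun S => if Disjoint S (star x) then 0 else c S with hc1
    set d1 : Finset ι → ℝ := fun S => if Disjoint S (star x) then 0 else d S with hd1
    have hc1s : ∀ S, ¬ S ⊆ A → c1 S = 0 := by
      intro S hS
      simp [hc1, hc S hS]
    have hd1s : ∀ S, ¬ S ⊆ A → d1 S = 0 := by
      intro S hS
      simp [hd1, hd S hS]
    -- the one-step inequality
    have hstep : ex p (fun ω => ev p c ω ^ 2 * ev p d ω ^ 2) ≤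
        ∑ T ∈ B.powerset, ∑ T' ∈ B.powerset, kap T * kap T' *
          ex p (fun ω => ev p (sect A' c T) ω ^ 2 * ev p (sect A' d T') ω ^ 2)
        + 3 * ex p (fun ω => ev p c1 ω ^ 2 * ev p d1 ω ^ 2) := by
      rw [← ex_av p B]
      have h1 : ∀ ω, av p B (fun ω => ev p c ω ^ 2 * ev p d ω ^ 2) ω ≤
          (∑ T ∈ B.powerset, ∑ T' ∈ B.powerset, kap T * kap T' *
            (ev p (sect A' c T) ω ^ 2 * ev p (sect A' d T') ω ^ 2)) +
          3 * av p B (fun ω => ev p c1 ω ^ 2 * ev p d1 ω ^ 2) ω := by
        intro ω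
        have h2 := one_step_av hp0.le hp1.le B (ev p c) (ev p d) ω
        rw [main_factor hp0 hp1 A (star x) c hc, main_factor hp0 hp1 A (star x) d hd,
          Finset.sum_mul_sum] at h2
        have e1 : (fun η => (ev p c η - av p B (ev p c) η) ^ 2 *
            (ev p d η - av p B (ev p d) η) ^ 2) =
            (fun η => ev p c1 η ^ 2 * ev p d1 η ^ 2) := by
          funext η
          rw [ev_sub_av hp0 hp1 A (star x) c hc, ev_sub_av hp0 hp1 A (star x) d hd]
        rw [e1] at h2
        refine h2.trans (le_of_eq ?_)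
        congr 1
        apply Finset.sum_congr rfl
        intro T _
        apply Finset.sum_congr rfl
        intro T' _
        ring
      refine (ex_mono hp0.le hp1.le h1).trans (le_of_eq ?_)
      rw [ex_add p (fun ω => ∑ T ∈ B.powerset, ∑ T' ∈ B.powerset, kap T * kap T' *
            (ev p (sect A' c T) ω ^ 2 * ev p (sect A' d T') ω ^ 2))
          (fun ω => 3 * av p B (fun ω => ev p c1 ω ^ 2 * ev p d1 ω ^ 2) ω),
        ex_mul_left p 3 (av p B (fun ω => ev p c1 ω ^ 2 * ev p d1 ω ^ 2)), ex_av, ex_sum]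
      congr 1
      apply Finset.sum_congr rfl
      intro T _
      rw [ex_sum]
      apply Finset.sum_congr rfl
      intro T' _
      rw [ex_mul_left]
    refine hstep.trans ?_
    rw [Finset.sum_powerset_insert hx]
    apply add_le_add
    · -- main term
      have hIH : ∀ T ∈ B.powerset, ∀ T' ∈ B.powerset,
          kap T * kap T' *
            ex p (fun ω => ev p (sect A' c T) ω ^ 2 * ev p (sect A' d T') ω ^ 2) ≤
          ∑ J ∈ R.powerset, (3 : ℝ) ^ J.card *
            (1 / p) ^ ((A' \ (R \ J).biUnion star).card) *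
              ((kap T * NN star R J (sect A' c T)) * (kap T' * NN star R J (sect A' d T'))) := by
        intro T _ T' _
        have h := ih A' (sect A' c T) (sect A' d T') (sect_supp _ _ _) (sect_supp _ _ _)
        calc kap T * kap T' *
            ex p (fun ω => ev p (sect A' c T) ω ^ 2 * ev p (sect A' d T') ω ^ 2)
            ≤ kap T * kap T' * ∑ J ∈ R.powerset, (3 : ℝ) ^ J.card *
              (1 / p) ^ ((A' \ (R \ J).biUnion star).card) *
                (NN star R J (sect A' c T) * NN star R J (sect A' d T')) :=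
              mul_le_mul_of_nonneg_left h (mul_nonneg (kap_nonneg _) (kap_nonneg _))
          _ = _ := by
              rw [Finset.mul_sum]
              apply Finset.sum_congr rfl
              intro J _
              ring
      calc ∑ T ∈ B.powerset, ∑ T' ∈ B.powerset, kap T * kap T' *
            ex p (fun ω => ev p (sect A' c T) ω ^ 2 * ev p (sect A' d T') ω ^ 2)
          ≤ ∑ T ∈ B.powerset, ∑ T' ∈ B.powerset, ∑ J ∈ R.powerset, (3 : ℝ) ^ J.card *
            (1 / p) ^ ((A' \ (R \ J).biUnion star).card) *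
              ((kap T * NN star R J (sect A' c T)) * (kap T' * NN star R J (sect A' d T'))) :=
            Finset.sum_le_sum (fun T hT => Finset.sum_le_sum (fun T' hT' => hIH T hT T' hT'))
        _ = ∑ J ∈ R.powerset, (3 : ℝ) ^ J.card *
            (1 / p) ^ ((A' \ (R \ J).biUnion star).card) *
              ((∑ T ∈ B.powerset, kap T * NN star R J (sect A' c T)) *
                (∑ T' ∈ B.powerset, kap T' * NN star R J (sect A' d T'))) := by
            have e1 : ∀ T ∈ B.powerset, ∑ T' ∈ B.powerset, ∑ J ∈ R.powerset, (3 : ℝ) ^ J.card *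
                (1 / p) ^ ((A' \ (R \ J).biUnion star).card) *
                  ((kap T * NN star R J (sect A' c T)) * (kap T' * NN star R J (sect A' d T'))) =
                ∑ J ∈ R.powerset, ∑ T' ∈ B.powerset, (3 : ℝ) ^ J.card *
                (1 / p) ^ ((A' \ (R \ J).biUnion star).card) *
                  ((kap T * NN star R J (sect A' c T)) * (kap T' * NN star R J (sect A' d T'))) := by
              intro T _
              exact Finset.sum_comm
            rw [Finset.sum_congr rfl e1, Finset.sum_comm]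
            apply Finset.sum_congr rfl
            intro J _
            rw [Finset.sum_mul_sum, Finset.mul_sum]
            apply Finset.sum_congr rfl
            intro T _
            rw [Finset.mul_sum]
        _ ≤ _ := by
            apply Finset.sum_le_sum
            intro J hJ
            rw [Finset.mem_powerset] at hJ
            have hxJ : x ∉ J := fun h => hx (hJ h)
            have hset : A \ (insert x R \ J).biUnion star = A' \ (R \ J).biUnion star := by
              rw [Finset.insert_sdiff_of_notMem _ hxJ, Finset.biUnion_insert, hA',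
                Finset.sdiff_union_distrib]
              ext i
              simp only [Finset.mem_inter, Finset.mem_sdiff]
              tauto
            rw [hset]
            apply mul_le_mul_of_nonneg_left
            · apply mul_le_mul (sum_kap_NN_le star R J x hx hJ A c hc)
                (sum_kap_NN_le star R J x hx hJ A d hd)
              · exact Finset.sum_nonneg (fun T _ => mul_nonneg (kap_nonneg _) (NN_nonneg _ _ _ _))
              · exact NN_nonneg _ _ _ _
            · positivity
    · -- error term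
      have h := ih A c1 d1 hc1s hd1s
      calc 3 * ex p (fun ω => ev p c1 ω ^ 2 * ev p d1 ω ^ 2)
          ≤ 3 * ∑ J ∈ R.powerset, (3 : ℝ) ^ J.card *
            (1 / p) ^ ((A \ (R \ J).biUnion star).card) *
              (NN star R J c1 * NN star R J d1) := by
            apply mul_le_mul_of_nonneg_left h (by norm_num)
        _ = _ := by
            rw [Finset.mul_sum]
            apply Finset.sum_congr rfl
            intro J hJ
            rw [Finset.mem_powerset] at hJ
            have hxJ : x ∉ J := fun h => hx (hJ h)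
            have hset : insert x R \ insert x J = R \ J := by
              ext y
              simp only [Finset.mem_sdiff, Finset.mem_insert]
              constructor
              · rintro ⟨h1 | h1, h2⟩
                · exact absurd (Or.inl h1) h2
                · exact ⟨h1, fun h => h2 (Or.inr h)⟩
              · rintro ⟨h1, h2⟩
                refine ⟨Or.inr h1, ?_⟩
                rintro (h | h)
                · exact hx (h ▸ h1)
                · exact h2 h
            rw [hset, NN_insert star R J x hx c, NN_insert star R J x hx d,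
              Finset.card_insert_of_notMem hxJ, pow_succ]
            ring

end Crest.Agent.S0077
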