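import Crest.Agent.S0077_SymCount
import Crest.Agent.S0077_Hyper

/-! Task T8a: fourth moment bound. -/

set_option autoImplicit false
open Finset Crest Crest.FinProb Crest.CombinatoricsR.HypergraphCube

namespace Crest.Agent.S0077

variable {n r : ℕ}

/-- the star of a single vertex -/
def vst {n : ℕ} (r : ℕ) (x : Fin n) : Finset (HyperedgeSlot n r) := star r {x}

theorem not_disjoint_star_singleton (S : Finset (HyperedgeSlot n r)) (x : Fin n) :
    ¬ Disjoint S (vst r x) ↔ x ∈ vs S := by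
  unfold vst
  rw [disjoint_star_iff, Finset.disjoint_singleton_right, not_not]

/-- `C(a,m) (b+1)^m ≤ (a+1)^m C(b,m)` for `a ≤ b`. -/
theorem choose_ratio (a b : ℕ) (hab : a ≤ b) (m : ℕ) :
    a.choose m * (b + 1) ^ m ≤ (a + 1) ^ m * b.choose m := by
  induction m with
  | zero => simp
  | succ m ih =>
    have h1 := Nat.choose_succ_right_eq a m
    have h2 := Nat.choose_succ_right_eq b m
    have h3 : (a - m) * (b + 1) ≤ (a + 1) * (b - m) := by
      rcases Nat.lt_or_ge a m with h | h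
      · have : a - m = 0 := by omega
        rw [this, Nat.zero_mul]
        exact Nat.zero_le _
      · obtain ⟨c, rfl⟩ := Nat.exists_eq_add_of_le h
        obtain ⟨d, rfl⟩ := Nat.exists_eq_add_of_le hab
        have e1 : m + c - m = c := by omega
        have e2 : m + c + d - m = c + d := by omega
        rw [e1, e2]
        nlinarith [Nat.zero_le (m * d), Nat.zero_le (c * d), Nat.zero_le d]
    have h4 : (a.choose (m + 1) * (b + 1) ^ (m + 1)) * (m + 1) ≤
        ((a + 1) ^ (m + 1) * b.choose (m + 1)) * (m + 1) := by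
      calc (a.choose (m + 1) * (b + 1) ^ (m + 1)) * (m + 1)
          = (a.choose (m + 1) * (m + 1)) * ((b + 1) ^ m * (b + 1)) := by ring
        _ = (a.choose m * (b + 1) ^ m) * ((a - m) * (b + 1)) := by rw [h1]; ring
        _ ≤ ((a + 1) ^ m * b.choose m) * ((a + 1) * (b - m)) := Nat.mul_le_mul ih h3
        _ = ((a + 1) ^ m * (a + 1)) * (b.choose m * (b - m)) := by ring
        _ = ((a + 1) ^ m * (a + 1)) * (b.choose (m + 1) * (m + 1)) := by rw [h2]
        _ = ((a + 1) ^ (m + 1) * b.choose (m + 1)) * (m + 1) := by ring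
    exact Nat.le_of_mul_le_mul_right h4 (Nat.succ_pos m)

/-- `C(j+1, r) ≤ j w^(r-1)`. -/
theorem choose_alive (hr : 2 ≤ r) (j w : ℕ) (hj : j ≤ w) :
    (j + 1).choose r ≤ j * w ^ (r - 1) := by
  obtain ⟨k, rfl⟩ : ∃ k, r = k + 2 := ⟨r - 2, by omega⟩
  have h1 := Nat.add_one_mul_choose_eq j (k + 1)
  rcases Nat.eq_zero_or_pos j with h | h
  · subst h
    rw [Nat.choose_eq_zero_of_lt (by omega)]
    exact Nat.zero_le _
  · have h2 : j.choose (k + 1) ≤ w ^ (k + 1) :=
      (Nat.choose_le_pow j (k + 1)).trans (Nat.pow_le_pow_left hj _)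
    have e : k + 2 - 1 = k + 1 := by omega
    rw [e]
    have h3 : 2 * (j + 1).choose (k + 2) ≤ 2 * (j * w ^ (k + 1)) := by
      calc 2 * (j + 1).choose (k + 2) ≤ (k + 1 + 1) * (j + 1).choose (k + 1 + 1) :=
            Nat.mul_le_mul (by omega) le_rfl
        _ = (j + 1) * j.choose (k + 1) := by rw [h1]; ring
        _ ≤ (2 * j) * w ^ (k + 1) := Nat.mul_le_mul (by omega) h2
        _ = 2 * (j * w ^ (k + 1)) := by ring
    omega

theorem choose_cover_le (v w n j : ℕ) (hvw : v ≤ w) (hwn : w ≤ n) (hw : 1 ≤ w) (hj : j ≤ w - 1) :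
    ((v.choose (j + 1) : ℝ) / (n.choose (j + 1) : ℝ)) ≤
      ((v.choose 1 : ℝ) / (n.choose 1 : ℝ)) * (((w - 1).choose j : ℝ) / ((n - 1).choose j : ℝ)) := by
  obtain ⟨w', rfl⟩ : ∃ w', w = w' + 1 := ⟨w - 1, by omega⟩
  obtain ⟨n', rfl⟩ : ∃ n', n = n' + 1 := ⟨n - 1, by omega⟩
  have e1 : w' + 1 - 1 = w' := by omega
  have e2 : n' + 1 - 1 = n' := by omega
  rw [e1] at hj
  rw [e1, e2, Nat.choose_one_right, Nat.choose_one_right]
  have hn0 : 0 < (n').choose j := Nat.choose_pos (by omega)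
  have hn1 : 0 < (n' + 1).choose (j + 1) := Nat.choose_pos (by omega)
  have hn0' : (0 : ℝ) < (n').choose j := by exact_mod_cast hn0
  have hn1' : (0 : ℝ) < (n' + 1).choose (j + 1) := by exact_mod_cast hn1
  rcases Nat.eq_zero_or_pos v with h | h
  · subst h
    rw [Nat.choose_eq_zero_of_lt (by omega)]
    simp
  · obtain ⟨v', rfl⟩ : ∃ v', v = v' + 1 := ⟨v - 1, by omega⟩
    have h1 := Nat.add_one_mul_choose_eq v' j
    have h2 := Nat.add_one_mul_choose_eq n' j
    have h3 : v'.choose j ≤ w'.choose j := Nat.choose_le_choose j (by omega)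
    have h1' : ((v' + 1 : ℕ) : ℝ) * v'.choose j = (v' + 1).choose (j + 1) * ((j : ℝ) + 1) := by
      exact_mod_cast h1
    have h2' : ((n' + 1 : ℕ) : ℝ) * n'.choose j = (n' + 1).choose (j + 1) * ((j : ℝ) + 1) := by
      exact_mod_cast h2
    have h3' : (v'.choose j : ℝ) ≤ w'.choose j := by exact_mod_cast h3
    rw [div_mul_div_comm, div_le_div_iff₀ hn1' (by positivity)]
    have hj1 : (0 : ℝ) < (j : ℝ) + 1 := by positivity
    have e3 : ((v' + 1).choose (j + 1) : ℝ) = ((v' + 1 : ℕ) : ℝ) * v'.choose j / ((j : ℝ) + 1) := by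
      rw [eq_div_iff hj1.ne', h1']
    have e4 : ((n' + 1).choose (j + 1) : ℝ) = ((n' + 1 : ℕ) : ℝ) * n'.choose j / ((j : ℝ) + 1) := by
      rw [eq_div_iff hj1.ne', h2']
    rw [e3, e4]
    have e5 : ((v' + 1 : ℕ) : ℝ) * v'.choose j / ((j : ℝ) + 1) * (((n' + 1 : ℕ) : ℝ) * n'.choose j)
        = (((v' + 1 : ℕ) : ℝ) * ((n' + 1 : ℕ) : ℝ) * n'.choose j / ((j : ℝ) + 1)) * v'.choose j := by
      ring
    have e6 : ((v' + 1 : ℕ) : ℝ) * w'.choose j * (((n' + 1 : ℕ) : ℝ) * n'.choose j / ((j : ℝ) + 1))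
        = (((v' + 1 : ℕ) : ℝ) * ((n' + 1 : ℕ) : ℝ) * n'.choose j / ((j : ℝ) + 1)) * w'.choose j := by
      ring
    rw [e5, e6]
    exact mul_le_mul_of_nonneg_left h3' (by positivity)

/-- The truncated coefficients -/
noncomputable def cc (p : ℝ) (f : (HyperedgeSlot n r → Bool) → Bool) (w : ℕ) (x₀ : Fin n)
    (S : Finset (HyperedgeSlot n r)) : ℝ :=
  if x₀ ∈ vs S ∧ (vs S).card ≤ w then fc p (ind f) S else 0

theorem NN_le {p : ℝ} (f : (HyperedgeSlot n r → Bool) → Bool) (hf : IsSymmetric f) (w : ℕ)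
    (hw : 1 ≤ w) (hwn : w ≤ n) (x₀ : Fin n) (J : Finset (Fin n)) (hJ : J ⊆ univ.erase x₀) :
    NN (vst r) (univ.erase x₀) J (cc p f w x₀) ≤
      4 ^ (w - 1 - J.card) *
        ((∑ S ∈ univ.filter (fun S : Finset (HyperedgeSlot n r) =>
            x₀ ∈ vs S ∧ (vs S).card ≤ w), wt p f S) *
          (((w - 1).choose J.card : ℝ) / ((n - 1).choose J.card : ℝ))) := by
  classical
  have hx₀J : x₀ ∉ J := fun h => (Finset.notMem_erase x₀ univ) (hJ h)
  -- T1
  have hT1 : (∑ S ∈ univ.filter (fun S : Finset (HyperedgeSlot n r) =>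
            x₀ ∈ vs S ∧ (vs S).card ≤ w), wt p f S)
      = ∑ S ∈ univ.filter (fun S : Finset (HyperedgeSlot n r) => (vs S).card ≤ w),
        wt p f S * (((vs S).card.choose 1 : ℝ) / (n.choose 1 : ℝ)) := by
    have := sum_wt_cover p f hf w {x₀}
    rw [Finset.card_singleton] at this
    rw [← this]
    apply Finset.sum_congr _ (fun _ _ => rfl)
    ext S
    simp only [Finset.mem_filter, Finset.mem_univ, true_and, Finset.singleton_subset_iff]
    tauto
  have hNN : NN (vst r) (univ.erase x₀) J (cc p f w x₀) ≤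
      ∑ S ∈ univ.filter (fun S : Finset (HyperedgeSlot n r) =>
        (vs S).card ≤ w ∧ insert x₀ J ⊆ vs S), 4 ^ (w - 1 - J.card) * wt p f S := by
    unfold NN
    rw [Finset.sum_filter, Finset.sum_filter]
    apply Finset.sum_le_sum
    intro S _
    have hrhs : (0 : ℝ) ≤ if (vs S).card ≤ w ∧ insert x₀ J ⊆ vs S
        then 4 ^ (w - 1 - J.card) * wt p f S else 0 := by
      split_ifs
      · exact mul_nonneg (by positivity) (wt_nonneg p f S)
      · exact le_rfl
    by_cases ht : touches (vst r) J S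
    · rw [if_pos ht]
      by_cases hc : x₀ ∈ vs S ∧ (vs S).card ≤ w
      · have hJS : J ⊆ vs S := by
          intro x hx
          exact (not_disjoint_star_singleton S x).1 (ht x hx)
        have hins : insert x₀ J ⊆ vs S := Finset.insert_subset hc.1 hJS
        rw [if_pos ⟨hc.2, hins⟩]
        unfold cc wt
        rw [if_pos hc]
        apply mul_le_mul_of_nonneg_right _ (sq_nonneg _)
        apply pow_le_pow_right₀ (by norm_num)
        have hsub : (((univ.erase x₀) \ J).filter (fun x => ¬ Disjoint S (vst r x)))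
            ⊆ vs S \ insert x₀ J := by
          intro x hx
          simp only [Finset.mem_filter, Finset.mem_sdiff, Finset.mem_erase, Finset.mem_univ,
            and_true, Finset.mem_insert] at hx ⊢
          refine ⟨(not_disjoint_star_singleton S x).1 hx.2, ?_⟩
          rintro (h | h)
          · exact hx.1.1 h
          · exact hx.1.2 h
        have hcard := Finset.card_le_card hsub
        rw [Finset.card_sdiff_of_subset hins, Finset.card_insert_of_notMem hx₀J] at hcard
        have h2 := hc.2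
        omega
      · unfold cc
        rw [if_neg hc]
        simpa using hrhs
    · rw [if_neg ht]
      exact hrhs
  refine hNN.trans ?_
  rw [← Finset.mul_sum]
  apply mul_le_mul_of_nonneg_left _ (by positivity)
  rw [sum_wt_cover p f hf w (insert x₀ J), Finset.card_insert_of_notMem hx₀J, hT1,
    Finset.sum_mul]
  apply Finset.sum_le_sum
  intro S hS
  simp only [Finset.mem_filter, Finset.mem_univ, true_and] at hS
  rw [mul_assoc]
  apply mul_le_mul_of_nonneg_left _ (wt_nonneg p f S)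
  rcases Nat.lt_or_ge (w - 1) J.card with h | h
  · rw [Nat.choose_eq_zero_of_lt (by omega : (vs S).card < J.card + 1)]
    simp only [Nat.cast_zero, zero_div]
    positivity
  · exact choose_cover_le (vs S).card w n J.card hS hwn hw h

theorem term_bound (m : ℕ) (A B W N P T F E : ℝ) (hA : 0 ≤ A) (hB : 0 < B) (hW : 0 ≤ W)
    (hN : 0 < N) (hP : 0 ≤ P) (h1 : A * N ^ m ≤ W ^ m * B) (h2 : A ≤ W ^ m)
    (h3 : 3 * W ^ 2 * P ≤ 8 * N) (h4 : F * F * 16 ^ m = E) :
    B * (3 ^ m * P ^ m * (F * (T * (A / B))) ^ 2) ≤ E * T ^ 2 * (1 / 2) ^ m := by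
  have hNm : 0 < N ^ m := pow_pos hN m
  have h5 : A ^ 2 / B ≤ (W ^ 2 / N) ^ m := by
    rw [div_le_iff₀ hB, div_pow, div_mul_eq_mul_div, le_div_iff₀ hNm]
    calc A ^ 2 * N ^ m = A * (A * N ^ m) := by ring
      _ ≤ W ^ m * (W ^ m * B) := mul_le_mul h2 h1 (by positivity) (by positivity)
      _ = (W ^ 2) ^ m * B := by ring
  have h6 : 3 * P * (W ^ 2 / N) / 16 ≤ 1 / 2 := by
    have : 3 * P * (W ^ 2 / N) / 16 = (3 * W ^ 2 * P) / (16 * N) := by
      field_simp
    rw [this, div_le_iff₀ (by positivity)]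
    linarith
  have h7 : B * (3 ^ m * P ^ m * (F * (T * (A / B))) ^ 2)
      = F * F * T ^ 2 * ((3 * P) ^ m * (A ^ 2 / B)) := by
    rw [mul_pow 3 P m]
    field_simp
  rw [h7, ← h4]
  have h8 : (3 * P) ^ m * (A ^ 2 / B) ≤ (3 * P) ^ m * (W ^ 2 / N) ^ m :=
    mul_le_mul_of_nonneg_left h5 (by positivity)
  have h9 : (3 * P) ^ m * (W ^ 2 / N) ^ m = 16 ^ m * (3 * P * (W ^ 2 / N) / 16) ^ m := by
    rw [← mul_pow, ← mul_pow]
    congr 1
    ring
  have h10 : (3 * P * (W ^ 2 / N) / 16) ^ m ≤ (1 / 2) ^ m :=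
    pow_le_pow_left₀ (by positivity) h6 m
  have h11 : (0 : ℝ) ≤ F * F * T ^ 2 := mul_nonneg (mul_self_nonneg F) (sq_nonneg T)
  calc F * F * T ^ 2 * ((3 * P) ^ m * (A ^ 2 / B))
      ≤ F * F * T ^ 2 * (16 ^ m * (1 / 2) ^ m) := by
        apply mul_le_mul_of_nonneg_left _ h11
        rw [h9] at h8
        exact h8.trans (mul_le_mul_of_nonneg_left h10 (by positivity))
    _ = F * F * 16 ^ m * T ^ 2 * (1 / 2) ^ m := by ring

/-- **T8a.** Fourth moment bound for the truncated vertex part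
`c(S) = f̂(S) 1[x₀ ∈ V(S), |V(S)| ≤ w]`: apply `vertex_hyper` with `star x = star {x}`,
`R = univ.erase x₀`, `A = univ`; the final alive set for `J` consists of the slots contained in
`insert x₀ J`, so has `C(|J|+1, r) ≤ |J| w^(r-1)` elements when `|J| + 1 ≤ w`;
`NN ≤ 4^(w-1-|J|) T_{|J|+1}` with `T_k = ∑_{v ≤ w} wt C(v,k)/C(n,k)`
(`sum_wt_cover`), `T_{j+1} ≤ T_1 C(w-1,j)/C(n-1,j)`, and then
`∑_j C(n-1,j) 3^j Λ^{j w^(r-1)} 16^(w-1-j) (C(w-1,j)/C(n-1,j))² ≤ 16^(w-1) ∑_j (1/2)^j`. -/
theorem fourth_moment {p : ℝ} (hp0 : 0 < p) (hp : p ≤ 1 / 2) (hr : 2 ≤ r)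
    (f : (HyperedgeSlot n r → Bool) → Bool) (hf : IsSymmetric f) (w : ℕ) (hw : 1 ≤ w)
    (hwn : w ≤ n) (hC : 3 * (w : ℝ) ^ 2 * (1 / p) ^ (w ^ (r - 1)) ≤ 8 * n) (x₀ : Fin n) :
    ex p (fun ω => ev p (fun S => if x₀ ∈ vs S ∧ (vs S).card ≤ w then fc p (ind f) S else 0) ω ^ 4)
      ≤ 2 * 16 ^ (w - 1) *
        (∑ S ∈ univ.filter (fun S => x₀ ∈ vs S ∧ (vs S).card ≤ w), wt p f S) ^ 2 := by
  classical
  set T1 : ℝ := ∑ S ∈ univ.filter (fun S : Finset (HyperedgeSlot n r) =>
    x₀ ∈ vs S ∧ (vs S).card ≤ w), wt p f S with hT1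
  have hT1nn : 0 ≤ T1 := Finset.sum_nonneg (fun S _ => wt_nonneg p f S)
  have hΛ : (1 : ℝ) ≤ 1 / p := by
    rw [le_div_iff₀ hp0]
    linarith
  have hn : 1 ≤ n := hw.trans hwn
  -- apply vertex_hyper
  have key := vertex_hyper hp0 hp (vst r) (univ.erase x₀) univ
    (cc p f w x₀) (cc p f w x₀) (fun S hS => absurd (Finset.subset_univ S) hS)
    (fun S hS => absurd (Finset.subset_univ S) hS)
  have hlhs : ex p (fun ω => ev p (fun S =>
      if x₀ ∈ vs S ∧ (vs S).card ≤ w then fc p (ind f) S else 0) ω ^ 4)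
      = ex p (fun ω => ev p (cc p f w x₀) ω ^ 2 * ev p (cc p f w x₀) ω ^ 2) := by
    congr 1
    funext ω
    show ev p (cc p f w x₀) ω ^ 4 = _
    ring
  rw [hlhs]
  refine key.trans ?_
  -- the function of the cardinality
  set G : ℕ → ℝ := fun m => 3 ^ m * (1 / p) ^ (m * w ^ (r - 1)) *
    (4 ^ (w - 1 - m) * (T1 * (((w - 1).choose m : ℝ) / ((n - 1).choose m : ℝ)))) ^ 2 with hG
  have hstep : ∀ J ∈ (univ.erase x₀).powerset,
      (3 : ℝ) ^ J.card *
          (1 / p) ^ (((univ : Finset (HyperedgeSlot n r)) \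
            ((univ.erase x₀) \ J).biUnion (vst r)).card) *
          (NN (vst r) (univ.erase x₀) J (cc p f w x₀) *
            NN (vst r) (univ.erase x₀) J (cc p f w x₀)) ≤ G J.card := by
    intro J hJ
    rw [Finset.mem_powerset] at hJ
    have hx₀J : x₀ ∉ J := fun h => (Finset.notMem_erase x₀ univ) (hJ h)
    have hNNnn : 0 ≤ NN (vst r) (univ.erase x₀) J (cc p f w x₀) := by
      unfold NN
      exact Finset.sum_nonneg (fun S _ => mul_nonneg (by positivity) (sq_nonneg _))
    have hNN := NN_le (p := p) f hf w hw hwn x₀ J hJ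
    rw [← hT1] at hNN
    simp only [hG]
    rcases Nat.lt_or_ge (w - 1) J.card with h | h
    · rw [Nat.choose_eq_zero_of_lt h] at hNN ⊢
      simp only [Nat.cast_zero, zero_div, mul_zero] at hNN ⊢
      have : NN (vst r) (univ.erase x₀) J (cc p f w x₀) = 0 :=
        le_antisymm hNN hNNnn
      rw [this]
      simp
    · have hcard : ((univ : Finset (HyperedgeSlot n r)) \
            ((univ.erase x₀) \ J).biUnion (vst r)).card ≤ J.card * w ^ (r - 1) := by
        have h1 : ((univ : Finset (HyperedgeSlot n r)) \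
            ((univ.erase x₀) \ J).biUnion (vst r)).card ≤
              (powersetCard r (insert x₀ J)).card := by
          apply Finset.card_le_card_of_injOn (fun e => e.1)
          · intro e he
            simp only [Finset.coe_sdiff, Set.mem_sdiff, Finset.mem_coe, Finset.mem_univ, true_and,
              Finset.mem_biUnion, Finset.mem_sdiff, Finset.mem_erase, not_exists, not_and,
              and_true, and_imp] at he
            simp only [Finset.mem_coe, Finset.mem_powersetCard]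
            refine ⟨?_, e.2⟩
            intro x hx
            rw [Finset.mem_insert]
            by_contra hcon
            push Not at hcon
            apply he x hcon.1 hcon.2
            simp only [vst, star, Finset.mem_filter, Finset.mem_univ, true_and,
              Finset.disjoint_singleton_right, not_not]
            exact hx
          · intro e _ e' _ hee
            exact Subtype.ext hee
        rw [Finset.card_powersetCard, Finset.card_insert_of_notMem hx₀J] at h1
        exact h1.trans (choose_alive hr J.card w (by omega))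
      rw [← sq]
      apply mul_le_mul
      · exact mul_le_mul_of_nonneg_left (pow_le_pow_right₀ hΛ hcard) (by positivity)
      · exact pow_le_pow_left₀ hNNnn hNN 2
      · positivity
      · positivity
  refine (Finset.sum_le_sum hstep).trans ?_
  rw [Finset.sum_powerset_apply_card G]
  have hcardR : (univ.erase x₀ : Finset (Fin n)).card = n - 1 := by
    rw [Finset.card_erase_of_mem (Finset.mem_univ _), Finset.card_univ, Fintype.card_fin]
  rw [hcardR]
  have hterm : ∀ m ∈ range (n - 1 + 1),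
      (n - 1).choose m • G m ≤ 16 ^ (w - 1) * T1 ^ 2 * (1 / 2) ^ m := by
    intro m hm
    rw [nsmul_eq_mul]
    simp only [hG]
    rcases Nat.lt_or_ge (w - 1) m with h | h
    · rw [Nat.choose_eq_zero_of_lt h]
      simp only [Nat.cast_zero, zero_div, mul_zero]
      simp only [ne_eq, OfNat.ofNat_ne_zero, not_false_eq_true, zero_pow, mul_zero]
      positivity
    · have hnm : 0 < (n - 1).choose m := Nat.choose_pos (by omega)
      have hnm' : (0 : ℝ) < (n - 1).choose m := by exact_mod_cast hnm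
      have hratio := choose_ratio (w - 1) (n - 1) (by omega) m
      have e1 : w - 1 + 1 = w := by omega
      have e2 : n - 1 + 1 = n := by omega
      rw [e1, e2] at hratio
      have hratio' : ((w - 1).choose m : ℝ) * (n : ℝ) ^ m ≤ (w : ℝ) ^ m * (n - 1).choose m := by
        exact_mod_cast hratio
      have hwm : ((w - 1).choose m : ℝ) ≤ (w : ℝ) ^ m := by
        have : (w - 1).choose m ≤ w ^ m :=
          (Nat.choose_le_pow (w - 1) m).trans (Nat.pow_le_pow_left (by omega) _)
        exact_mod_cast this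
      have hnpos : (0 : ℝ) < n := by exact_mod_cast hn
      have hB : (4 : ℝ) ^ (w - 1 - m) * 4 ^ (w - 1 - m) * 16 ^ m = 16 ^ (w - 1) := by
        rw [← mul_pow, show (4 : ℝ) * 4 = 16 by norm_num, ← pow_add]
        congr 1
        omega
      have hPnn : (0 : ℝ) ≤ (1 / p) ^ (w ^ (r - 1)) := pow_nonneg (by linarith) _
      rw [mul_comm m, pow_mul]
      exact term_bound m _ _ _ _ _ _ _ _ (Nat.cast_nonneg _) hnm' (Nat.cast_nonneg _) hnpos hPnn
        hratio' hwm hC hB
  refine (Finset.sum_le_sum hterm).trans ?_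
  rw [← Finset.mul_sum]
  calc 16 ^ (w - 1) * T1 ^ 2 * ∑ i ∈ range (n - 1 + 1), (1 / 2 : ℝ) ^ i
      ≤ 16 ^ (w - 1) * T1 ^ 2 * 2 :=
        mul_le_mul_of_nonneg_left (sum_geometric_two_le _) (by positivity)
    _ = 2 * 16 ^ (w - 1) * T1 ^ 2 := by ring

end Crest.Agent.S0077
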