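import Crest.Agent.S0077_Cube

/-! Task T5a: abstract near-additivity. -/

set_option autoImplicit false
open Finset Crest Crest.FinProb Crest.CombinatoricsR.HypergraphCube

namespace Crest.Agent.S0077

/-- **T5a.** Abstract near-additivity. `B i` = all block stars but the `i`-th, `All` their union;
`hB : ∀ i ≠ j, A j ⊆ B i` is encoded by `B i ∪ B j = All` for `i ≠ j`. With
`a i = av (B i) f - av All f` one has `av All (a i * a j) = 0` for `i ≠ j` (average first over
`B i`... note `a i` does not depend on `B i`, and `av (B j) (a i) = 0`),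
`av All (f * a i) = av All (a i ^ 2)`, so
`∑ av All (a i ^2) ≤ av All ((f - av All f)^2) ≤ 1/4`; and by the symmetries `τ i` all the
`av All (a i ^ 2) ω` are equal. -/
theorem near_add_abstract {ι : Type*} [Fintype ι] [DecidableEq ι] {p : ℝ} (h0 : 0 < p)
    (h1 : p < 1) (f : (ι → Bool) → Bool) (t : ℕ) (ht : 1 ≤ t) (B : ℕ → Finset ι) (All : Finset ι)
    (hsub : ∀ i < t, B i ⊆ All)
    (hun : ∀ i < t, ∀ j < t, i ≠ j → B i ∪ B j = All)
    (τ : ℕ → Equiv.Perm ι) (hτf : ∀ i < t, ∀ ω, f (ω ∘ τ i) = f ω)
    (hτB : ∀ i < t, (B 0).map (τ i).toEmbedding = B i)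
    (hτA : ∀ i < t, All.map (τ i).toEmbedding = All)
    (hτfix : ∀ i < t, ∀ e, e ∉ All → τ i e = e) (ω : ι → Bool) :
    av p All (fun η => (av p (B 0) (ind f) η - av p All (ind f) η) ^ 2) ω ≤ 1 / (4 * t) := by
  set F : (ι → Bool) → ℝ := ind f with hF
  set g : (ι → Bool) → ℝ := av p All F with hg
  set a : ℕ → (ι → Bool) → ℝ := fun i η => av p (B i) F η - g η with ha
  have hunion : ∀ i < t, B i ∪ All = All := fun i hi => Finset.union_eq_right.2 (hsub i hi)
  have hunion' : ∀ i < t, All ∪ B i = All := fun i hi => Finset.union_eq_left.2 (hsub i hi)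
  have hgA : IndepOf All g := av_indepOf p All F
  have hgB : ∀ i < t, IndepOf (B i) g := by
    intro i hi ω₁ ω₂ h
    exact hgA ω₁ ω₂ (fun e he => h e (fun h' => he (hsub i hi h')))
  have haB : ∀ i < t, IndepOf (B i) (a i) := by
    intro i hi ω₁ ω₂ h
    have e1 := av_indepOf p (B i) F ω₁ ω₂ h
    have e2 := hgB i hi ω₁ ω₂ h
    simp only [ha]
    rw [e1, e2]
  -- averages of a i over All vanish
  have hAa : ∀ i < t, ∀ η, av p All (a i) η = 0 := by
    intro i hi η
    simp only [ha]
    rw [av_sub, av_av, hunion' i hi, hg, av_av, Finset.union_self]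
    ring
  have hBa : ∀ i < t, ∀ j < t, i ≠ j → ∀ η, av p (B i) (a j) η = 0 := by
    intro i hi j hj hij η
    simp only [ha]
    rw [av_sub, av_av, hun i hi j hj hij, hg, av_av, hunion i hi]
    ring
  -- orthogonality
  have horth : ∀ i < t, ∀ j < t, i ≠ j → av p All (fun η => a i η * a j η) ω = 0 := by
    intro i hi j hj hij
    have e1 : av p All (fun η => a i η * a j η) ω
        = av p (All ∪ B i) (fun η => a j η * a i η) ω := by
      rw [hunion' i hi]
      congr 1
      funext η
      ring
    rw [e1, ← av_av]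
    have e2 : av p (B i) (fun η => a j η * a i η) = fun _ => 0 := by
      funext η
      rw [av_mul_indep p (B i) (a j) (a i) (haB i hi) η, hBa i hi j hj hij η, zero_mul]
    rw [e2, av_const]
  have hFa : ∀ i < t, av p All (fun η => F η * a i η) ω = av p All (fun η => a i η ^ 2) ω := by
    intro i hi
    have e1 : av p All (fun η => F η * a i η) ω
        = av p (All ∪ B i) (fun η => F η * a i η) ω := by
      rw [hunion' i hi]
    rw [e1, ← av_av]
    have e2 : av p (B i) (fun η => F η * a i η) = fun η => a i η ^ 2 + a i η * g η := by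
      funext η
      rw [av_mul_indep p (B i) F (a i) (haB i hi) η]
      simp only [ha]
      ring
    rw [e2, av_add, av_mul_indep p All (a i) g hgA, hAa i hi ω]
    ring
  set S : (ι → Bool) → ℝ := fun η => ∑ i ∈ range t, a i η with hS
  have hFgS : av p All (fun η => (F η - g η) * S η) ω
      = ∑ i ∈ range t, av p All (fun η => a i η ^ 2) ω := by
    have e1 : (fun η => (F η - g η) * S η)
        = fun η => ∑ i ∈ range t, (F η * a i η - a i η * g η) := by
      funext η
      simp only [hS]
      rw [Finset.mul_sum]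
      apply Finset.sum_congr rfl
      intro i _
      ring
    rw [e1, av_sum]
    apply Finset.sum_congr rfl
    intro i hi
    have hi' := Finset.mem_range.1 hi
    rw [av_sub, hFa i hi', av_mul_indep p All (a i) g hgA, hAa i hi' ω]
    ring
  have hSS : av p All (fun η => S η ^ 2) ω
      = ∑ i ∈ range t, av p All (fun η => a i η ^ 2) ω := by
    have e1 : (fun η => S η ^ 2)
        = fun η => ∑ i ∈ range t, ∑ j ∈ range t, a i η * a j η := by
      funext η
      simp only [hS]
      rw [sq, Finset.sum_mul_sum]
    rw [e1, av_sum]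
    apply Finset.sum_congr rfl
    intro i hi
    have hi' := Finset.mem_range.1 hi
    rw [av_sum, Finset.sum_eq_single i]
    · congr 1
      funext η
      ring
    · intro j hj hji
      exact horth i hi' j (Finset.mem_range.1 hj) (Ne.symm hji)
    · intro h
      exact absurd hi h
  have hvar : av p All (fun η => (F η - g η) ^ 2) ω ≤ 1 / 4 := by
    have := av_sub_av_sq_bool p All f ω
    rw [← hF] at this
    simp only [hg]
    rw [this]
    nlinarith [sq_nonneg (av p All F ω - 1 / 2)]
  have hsum : ∑ i ∈ range t, av p All (fun η => a i η ^ 2) ω ≤ 1 / 4 := by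
    have hnn : 0 ≤ av p All (fun η => (F η - g η - S η) ^ 2) ω :=
      av_nonneg h0.le h1.le All (fun η => sq_nonneg _) ω
    have e1 : (fun η => (F η - g η - S η) ^ 2)
        = fun η => ((F η - g η) ^ 2 - 2 * ((F η - g η) * S η)) + S η ^ 2 := by
      funext η
      ring
    rw [e1, av_add, av_sub, av_mul_left, hFgS, hSS] at hnn
    linarith
  have hsymm : ∀ i < t, av p All (fun η => a i η ^ 2) ω = av p All (fun η => a 0 η ^ 2) ω := by
    intro i hi
    have hFτ : (fun η : ι → Bool => F (η ∘ τ i)) = F := by
      funext η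
      simp only [hF, ind, hτf i hi η]
    have hai : ∀ η, a i η = a 0 (η ∘ τ i) := by
      intro η
      simp only [ha, hg]
      rw [av_comp_perm, av_comp_perm, hτB i hi, hτA i hi, hFτ]
    have e1 : av p All (fun η => a i η ^ 2) ω
        = av p All (fun η => a 0 η ^ 2) (ω ∘ τ i) := by
      rw [av_comp_perm, hτA i hi]
      congr 1
      funext η
      rw [hai η]
    rw [e1]
    apply av_indepOf p All
    intro e he
    simp only [Function.comp]
    rw [hτfix i hi e he]
  have hsum2 : ∑ i ∈ range t, av p All (fun η => a i η ^ 2) ω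
      = t * av p All (fun η => a 0 η ^ 2) ω := by
    rw [Finset.sum_congr rfl (fun i hi => hsymm i (Finset.mem_range.1 hi))]
    simp
  rw [hsum2] at hsum
  have htpos : (0 : ℝ) < t := by exact_mod_cast ht
  have hgoal : av p All (fun η => a 0 η ^ 2) ω ≤ 1 / (4 * t) := by
    rw [le_div_iff₀ (by positivity)]
    linarith
  exact hgoal

end Crest.Agent.S0077
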