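import Crest.Agent.S0077_Sym
import Crest.Agent.S0077_NearAddAbs

/-! Task T5b: near-additivity over blocks of vertices. -/

set_option autoImplicit false
open Finset Crest Crest.FinProb Crest.CombinatoricsR.HypergraphCube

namespace Crest.Agent.S0077

/-- the vertices `x` with `a ≤ x < b` -/
def blk (n a b : ℕ) : Finset (Fin n) := univ.filter (fun x => a ≤ x.val ∧ x.val < b)

/-- swap of the block `[0,u)` with the block `[i*u, (i+1)*u)` -/
def blkSwap (u i x : ℕ) : ℕ :=
  if x < u then x + i * u else if i * u ≤ x ∧ x < (i + 1) * u then x - i * u else x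

theorem blkSwap_zero (u x : ℕ) : blkSwap u 0 x = x := by
  unfold blkSwap
  split_ifs <;> omega

theorem blkSwap_invol (u i x : ℕ) : blkSwap u i (blkSwap u i x) = x := by
  rcases Nat.eq_zero_or_pos i with h | h
  · subst h
    rw [blkSwap_zero, blkSwap_zero]
  · have h1 : u ≤ i * u := Nat.le_mul_of_pos_left u h
    have h2 : (i + 1) * u = i * u + u := by ring
    unfold blkSwap
    rw [h2]
    generalize i * u = m at *
    split_ifs <;> omega

theorem blkSwap_lt {u i x N : ℕ} (h : (i + 1) * u ≤ N) (hx : x < N) : blkSwap u i x < N := by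
  have h2 : (i + 1) * u = i * u + u := by ring
  unfold blkSwap
  rw [h2] at h ⊢
  generalize i * u = m at *
  split_ifs <;> omega

theorem blkSwap_lt_iff {u i x N : ℕ} (h : (i + 1) * u ≤ N) : blkSwap u i x < N ↔ x < N := by
  constructor
  · intro h1
    have := blkSwap_lt h h1
    rwa [blkSwap_invol] at this
  · exact blkSwap_lt h

theorem blkSwap_lt_u_iff {u i x : ℕ} : blkSwap u i x < u ↔ (i * u ≤ x ∧ x < (i + 1) * u) := by
  rcases Nat.eq_zero_or_pos i with h | h
  · subst h
    rw [blkSwap_zero]
    omega
  · have h1 : u ≤ i * u := Nat.le_mul_of_pos_left u h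
    have h2 : (i + 1) * u = i * u + u := by ring
    unfold blkSwap
    rw [h2]
    generalize i * u = m at *
    split_ifs <;> omega

theorem blkSwap_of_ge {u i x N : ℕ} (h : (i + 1) * u ≤ N) (hx : N ≤ x) : blkSwap u i x = x := by
  have h2 : (i + 1) * u = i * u + u := by ring
  unfold blkSwap
  rw [h2] at h ⊢
  generalize i * u = m at *
  split_ifs <;> omega

/-- the swap of blocks as a permutation of `Fin n` -/
def blkPerm (n u i : ℕ) : Equiv.Perm (Fin n) :=
  if h : (i + 1) * u ≤ n then
    Function.Involutive.toPerm (fun x : Fin n => (⟨blkSwap u i x.1, blkSwap_lt h x.2⟩ : Fin n))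
      (fun x => Fin.ext (blkSwap_invol u i x.1))
  else 1

theorem blkPerm_val {n u i : ℕ} (h : (i + 1) * u ≤ n) (x : Fin n) :
    (blkPerm n u i x).val = blkSwap u i x.val := by
  unfold blkPerm
  rw [dif_pos h]
  rfl

theorem blkPerm_symm_val {n u i : ℕ} (h : (i + 1) * u ≤ n) (x : Fin n) :
    ((blkPerm n u i).symm x).val = blkSwap u i x.val := by
  have h1 := blkPerm_val h ((blkPerm n u i).symm x)
  rw [Equiv.apply_symm_apply] at h1
  rw [h1, blkSwap_invol]

/-- all the blocks but the `i`-th -/
def blkCo (n u t i : ℕ) : Finset (Fin n) :=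
  univ.filter (fun x => x.val < t * u ∧ ¬ (i * u ≤ x.val ∧ x.val < (i + 1) * u))

theorem star_mono' {n r : ℕ} {U V : Finset (Fin n)} (h : U ⊆ V) : star r U ⊆ star r V := by
  have := star_union (r := r) U V
  rw [Finset.union_eq_right.2 h] at this
  rw [this]
  exact Finset.subset_union_left

/-- **T5b.** near-additivity for blocks of vertices: `u` = block size, `t` blocks
`[iu, (i+1)u)`, `i < t`; use the vertex permutations swapping block `0` and block `i`. -/
theorem near_add {n r : ℕ} {p : ℝ} (h0 : 0 < p) (h1 : p < 1)
    (f : (HyperedgeSlot n r → Bool) → Bool) (hf : IsSymmetric f) (u t : ℕ) (hu : 1 ≤ u)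
    (ht : 1 ≤ t) (htu : t * u ≤ n) (ω : HyperedgeSlot n r → Bool) :
    av p (star r (blk n 0 (t * u)))
      (fun η => (av p (star r (blk n u (t * u))) (ind f) η
        - av p (star r (blk n 0 (t * u))) (ind f) η) ^ 2) ω ≤ 1 / (4 * t) := by
  have hle : ∀ i < t, (i + 1) * u ≤ t * u := fun i hi => Nat.mul_le_mul_right u hi
  have hlen : ∀ i < t, (i + 1) * u ≤ n := fun i hi => (hle i hi).trans htu
  have key := near_add_abstract (ι := HyperedgeSlot n r) h0 h1 f t ht
    (fun i => star r (blkCo n u t i)) (star r (blk n 0 (t * u)))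
    (by
      intro i hi
      apply star_mono'
      intro x hx
      simp only [blkCo, blk, Finset.mem_filter, Finset.mem_univ, true_and] at hx ⊢
      exact ⟨Nat.zero_le _, hx.1⟩)
    (by
      intro i hi j hj hij
      show star r (blkCo n u t i) ∪ star r (blkCo n u t j) = _
      rw [← star_union]
      congr 1
      ext x
      simp only [blkCo, blk, Finset.mem_union, Finset.mem_filter, Finset.mem_univ, true_and]
      constructor
      · rintro (h | h)
        · exact ⟨Nat.zero_le _, h.1⟩
        · exact ⟨Nat.zero_le _, h.1⟩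
      · rintro ⟨_, hx⟩
        by_contra hcon
        push Not at hcon
        obtain ⟨c1, c2⟩ := hcon
        have d1 := c1 hx
        have d2 := c2 hx
        rcases Nat.lt_or_gt_of_ne hij with h | h
        · have : (i + 1) * u ≤ j * u := Nat.mul_le_mul_right u h
          omega
        · have : (j + 1) * u ≤ i * u := Nat.mul_le_mul_right u h
          omega)
    (fun i => slotPerm r (blkPerm n u i))
    (by
      intro i hi ω
      show f (ω ∘ slotPerm r (blkPerm n u i)) = f ω
      rw [← relabel_eq_comp]
      exact hf _ _)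
    (by
      intro i hi
      show (star r (blkCo n u t 0)).map (slotPerm r (blkPerm n u i)).toEmbedding = _
      rw [star_map]
      congr 1
      ext x
      rw [Finset.mem_map_equiv]
      simp only [blkCo, Finset.mem_filter, Finset.mem_univ, true_and]
      rw [blkPerm_symm_val (hlen i hi), blkSwap_lt_iff (hle i hi)]
      have : (0 * u ≤ blkSwap u i x.val ∧ blkSwap u i x.val < (0 + 1) * u) ↔
          blkSwap u i x.val < u := by
        rw [Nat.zero_mul, Nat.zero_add, Nat.one_mul]
        exact ⟨fun h => h.2, fun h => ⟨Nat.zero_le _, h⟩⟩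
      rw [this, blkSwap_lt_u_iff])
    (by
      intro i hi
      rw [star_map]
      congr 1
      ext x
      rw [Finset.mem_map_equiv]
      simp only [blk, Finset.mem_filter, Finset.mem_univ, true_and]
      rw [blkPerm_symm_val (hlen i hi), blkSwap_lt_iff (hle i hi)]
      simp)
    (by
      intro i hi e he
      show slotPerm r (blkPerm n u i) e = e
      apply Subtype.ext
      show e.1.map (blkPerm n u i).toEmbedding = e.1
      have hfix : ∀ x ∈ e.1, blkPerm n u i x = x := by
        intro x hx
        apply Fin.ext
        rw [blkPerm_val (hlen i hi)]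
        apply blkSwap_of_ge (hle i hi)
        by_contra hlt
        push Not at hlt
        apply he
        simp only [star, Finset.mem_filter, Finset.mem_univ, true_and]
        rw [Finset.not_disjoint_iff]
        refine ⟨x, hx, ?_⟩
        simp only [blk, Finset.mem_filter, Finset.mem_univ, true_and]
        exact ⟨Nat.zero_le _, hlt⟩
      ext x
      rw [Finset.mem_map]
      constructor
      · rintro ⟨y, hy, rfl⟩
        have := hfix y hy
        simp only [Equiv.coe_toEmbedding]
        rw [this]
        exact hy
      · intro hx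
        exact ⟨x, hx, hfix x hx⟩) ω
  have hB0 : blkCo n u t 0 = blk n u (t * u) := by
    ext x
    simp only [blkCo, blk, Finset.mem_filter, Finset.mem_univ, true_and]
    omega
  simp only [hB0] at key
  exact key

end Crest.Agent.S0077
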