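import Crest.Agent.S0077_SymConc
import Crest.Agent.S0077_NearAdd
import Crest.Agent.S0077_Entropy

/-! Task T6: key inequality. -/

set_option autoImplicit false
open Finset Crest Crest.FinProb Crest.CombinatoricsR.HypergraphCube

namespace Crest.Agent.S0077

/-- cardinality of a block of vertices -/
theorem key_card_blk (n a b : ℕ) (hb : b ≤ n) : (blk n a b).card = b - a := by
  have h : (blk n a b).map Fin.valEmbedding = Finset.Ico a b := by
    ext x
    simp only [blk, Finset.mem_map, Finset.mem_filter, Finset.mem_univ, true_and,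
      Fin.valEmbedding_apply, Finset.mem_Ico]
    constructor
    · rintro ⟨y, hy, rfl⟩
      exact hy
    · intro hx
      exact ⟨⟨x, lt_of_lt_of_le hx.2 hb⟩, hx, rfl⟩
  rw [← Nat.card_Ico, ← h, Finset.card_map]

theorem key_blk_union (n a b c : ℕ) (hab : a ≤ b) (hbc : b ≤ c) :
    blk n a b ∪ blk n b c = blk n a c := by
  ext x
  simp only [blk, Finset.mem_union, Finset.mem_filter, Finset.mem_univ, true_and]
  omega

/-- energy touching the star of `U` in terms of `q` -/
theorem key_ex_sub_av_star {n r : ℕ} {p : ℝ} (h0 : 0 < p) (h1 : p < 1)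
    (f : (HyperedgeSlot n r → Bool) → Bool) (hf : IsSymmetric f) (U : Finset (Fin n)) :
    ex p (fun ω => (ind f ω - av p (star r U) (ind f) ω) ^ 2) = qq p f U.card := by
  rw [ex_sub_av_sq h0 h1, ← sum_wt_touch p f hf U]
  simp only [disjoint_star_iff, wt]

/-- energy touching both stars in terms of `q` -/
theorem key_ex_sub_av_av_star {n r : ℕ} {p : ℝ} (h0 : 0 < p) (h1 : p < 1)
    (f : (HyperedgeSlot n r → Bool) → Bool) (hf : IsSymmetric f) (U V : Finset (Fin n)) :
    ex p (fun ω => (ind f ω - av p (star r U) (ind f) ω - av p (star r V) (ind f) ω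
      + av p (star r U ∪ star r V) (ind f) ω) ^ 2)
      = qq p f U.card + qq p f V.card - qq p f (U ∪ V).card := by
  rw [ex_sub_av_av_sq h0 h1, ← sum_wt_touch p f hf U, ← sum_wt_touch p f hf V,
    ← sum_wt_touch p f hf (U ∪ V)]
  simp only [disjoint_star_iff, wt, Finset.sum_filter]
  rw [← Finset.sum_add_distrib, ← Finset.sum_sub_distrib]
  apply Finset.sum_congr rfl
  intro S _
  by_cases hU : Disjoint (vs S) U <;> by_cases hV : Disjoint (vs S) V <;>
    simp [hU, hV, Finset.disjoint_union_right]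

/-- **T6.** The key inequality. With `A = star (blk 0 u)`, `A' = star (blk u (tu))`, `Q` = conditional
variance given the outside of `A`, `a` as in `near_add`, `b = f - av A f - a`:
`Q ≤ 2 av A a² + 2 av A b² ≤ 1/(2t) + 2 av A b²`, so `Q > 1/t` implies `Q ≤ 4 av A b²`; hence
`E[Q; Q > 1/t] ≤ 4 E b² = 4 (q(u) + q((t-1)u) - q(tu))`; then use `entropy_threshold` and
`sum_piv_star_le`. -/
theorem key_ineq {n r : ℕ} {p : ℝ} (hp0 : 0 < p) (hp : p ≤ 1 / 2)
    (f : (HyperedgeSlot n r → Bool) → Bool) (hf : IsSymmetric f) (u t : ℕ) (hu : 1 ≤ u)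
    (ht : 2 ≤ t) (htu : t * u ≤ n) :
    Real.log ((t : ℝ) / 2) *
        (qq p f u - 4 * (qq p f u + qq p f ((t - 1) * u) - qq p f (t * u))) ≤
      (r : ℝ) * (3 / 2 * (p * Real.log (1 / p))) * totalInfluence p f * u / n := by
  have hp1 : p < 1 := by linarith
  have hp0' : 0 ≤ p := hp0.le
  have hp1' : p ≤ 1 := hp1.le
  have hutu : u ≤ t * u := by nlinarith
  have hun : u ≤ n := le_trans hutu htu
  have hn : 1 ≤ n := le_trans hu hun
  have htR : (2 : ℝ) ≤ t := by exact_mod_cast ht
  have htpos : (0 : ℝ) < t := by linarith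
  -- the vertex sets
  have hcU : (blk n 0 u).card = u := by rw [key_card_blk n 0 u hun]; simp
  have hcV : (blk n u (t * u)).card = (t - 1) * u := by
    rw [key_card_blk n u (t * u) htu, Nat.sub_mul, one_mul]
  have hcW : (blk n 0 (t * u)).card = t * u := by rw [key_card_blk n 0 (t * u) htu]; simp
  have hUV : blk n 0 u ∪ blk n u (t * u) = blk n 0 (t * u) := key_blk_union n 0 u (t * u) (Nat.zero_le _) hutu
  set A : Finset (HyperedgeSlot n r) := star r (blk n 0 u) with hA
  set A' : Finset (HyperedgeSlot n r) := star r (blk n u (t * u)) with hA'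
  have hAA' : A ∪ A' = star r (blk n 0 (t * u)) := by
    rw [hA, hA', ← star_union, hUV]
  -- first and second energies
  have hE1 : ex p (fun ω => (ind f ω - av p A (ind f) ω) ^ 2) = qq p f u := by
    rw [hA, key_ex_sub_av_star hp0 hp1 f hf, hcU]
  have hE2 : ex p (fun ω => (ind f ω - av p A (ind f) ω - av p A' (ind f) ω
      + av p (A ∪ A') (ind f) ω) ^ 2) = qq p f u + qq p f ((t - 1) * u) - qq p f (t * u) := by
    rw [hA, hA', key_ex_sub_av_av_star hp0 hp1 f hf, hcU, hcV, hUV, hcW]
  -- the functions a and b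
  set a : (HyperedgeSlot n r → Bool) → ℝ :=
    fun ω => av p A' (ind f) ω - av p (A ∪ A') (ind f) ω with ha
  set b : (HyperedgeSlot n r → Bool) → ℝ :=
    fun ω => ind f ω - av p A (ind f) ω - av p A' (ind f) ω + av p (A ∪ A') (ind f) ω with hb
  -- a does not depend on A'
  have haI : IndepOf A' (fun ω => a ω ^ 2) := by
    intro ω ω' h
    have h1 := av_indepOf p A' (ind f) ω ω' h
    have h2 := av_indepOf p (A ∪ A') (ind f) ω ω' (fun i hi => h i (fun hi' => hi
      (Finset.mem_union_right _ hi')))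
    simp only [ha, h1, h2]
  have hava : ∀ ω, av p A (fun ω => a ω ^ 2) ω ≤ 1 / (4 * t) := by
    intro ω
    have h1 := near_add hp0 hp1 f hf u t hu (by omega) htu ω
    rw [← hAA', ← hA'] at h1
    rw [← av_av] at h1
    have h2 : av p A' (fun η => (av p A' (ind f) η - av p (A ∪ A') (ind f) η) ^ 2)
        = fun η => a η ^ 2 := by
      funext η
      exact av_eq_self p A' _ haI η
    rw [h2] at h1
    exact h1
  -- the conditional variance
  set Q : (HyperedgeSlot n r → Bool) → ℝ :=
    fun ω => av p A (ind f) ω * (1 - av p A (ind f) ω) with hQ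
  have hQb : ∀ ω, Q ω ≤ 1 / (2 * t) + 2 * av p A (fun ω => b ω ^ 2) ω := by
    intro ω
    have h1 : Q ω = av p A (fun η => (ind f η - av p A (ind f) η) ^ 2) ω :=
      (av_sub_av_sq_bool p A f ω).symm
    have h2 : av p A (fun η => (ind f η - av p A (ind f) η) ^ 2) ω ≤
        av p A (fun η => 2 * a η ^ 2 + 2 * b η ^ 2) ω := by
      apply av_mono hp0' hp1'
      intro η
      have : ind f η - av p A (ind f) η = a η + b η := by simp only [ha, hb]; ring
      rw [this]
      nlinarith [sq_nonneg (a η - b η)]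
    rw [av_add, av_mul_left p A 2 (fun η => a η ^ 2), av_mul_left p A 2 (fun η => b η ^ 2)] at h2
    have h3 := hava ω
    have h4 : (1 : ℝ) / (2 * t) = 2 * (1 / (4 * t)) := by field_simp; norm_num
    rw [h1, h4]
    linarith
  have hbnn : ∀ ω, 0 ≤ av p A (fun ω => b ω ^ 2) ω := fun ω =>
    av_nonneg hp0' hp1' A (fun η => sq_nonneg _) ω
  have hQsplit : ∀ ω, Q ω ≤ (if Q ω ≤ 1 / (t : ℝ) then Q ω else 0) +
      4 * av p A (fun ω => b ω ^ 2) ω := by
    intro ω
    split_ifs with h
    · linarith [hbnn ω]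
    · have h' : 1 / (t : ℝ) < Q ω := not_le.mp h
      have h5 := hQb ω
      have h6 : (1 : ℝ) / (2 * t) = 1 / t / 2 := by field_simp
      rw [h6] at h5
      linarith
  -- expectations
  have hEQ : ex p Q = qq p f u := by
    rw [← hE1, ← ex_av p A (fun ω => (ind f ω - av p A (ind f) ω) ^ 2)]
    congr 1
    funext ω
    exact (av_sub_av_sq_bool p A f ω).symm
  have hEb : ex p (fun ω => av p A (fun ω => b ω ^ 2) ω)
      = qq p f u + qq p f ((t - 1) * u) - qq p f (t * u) := by
    rw [← hE2]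
    exact ex_av p A (fun ω => b ω ^ 2)
  have hlow : qq p f u - 4 * (qq p f u + qq p f ((t - 1) * u) - qq p f (t * u)) ≤
      ex p (fun ω => if Q ω ≤ 1 / (t : ℝ) then Q ω else 0) := by
    have h1 := ex_mono hp0' hp1' hQsplit
    rw [ex_add, ex_mul_left, hEb, show ex p (fun ω => Q ω) = ex p Q from rfl, hEQ] at h1
    linarith
  have hlog : 0 ≤ Real.log ((t : ℝ) / 2) := Real.log_nonneg (by linarith)
  have hK : 0 ≤ 3 / 2 * (p * Real.log (1 / p)) := by
    have : 0 ≤ Real.log (1 / p) := Real.log_nonneg (by rw [le_div_iff₀ hp0]; linarith)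
    positivity
  have hup : Real.log ((t : ℝ) / 2) * ex p (fun ω => if Q ω ≤ 1 / (t : ℝ) then Q ω else 0) ≤
      3 / 2 * (p * Real.log (1 / p)) * ∑ e ∈ A, ex p (piv f e) := by
    rw [← ex_mul_left]
    have h1 := ex_mono hp0' hp1' (fun ω => entropy_threshold hp0 hp f A (t : ℝ) htR ω)
    refine le_trans h1 ?_
    rw [ex_mul_left, ex_sum]
    apply le_of_eq
    congr 1
    apply Finset.sum_congr rfl
    intro e _
    exact ex_av p A (piv f e)
  have hpiv := sum_piv_star_le hp0' hp1' hn f hf (blk n 0 u)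
  rw [← hA, hcU] at hpiv
  calc Real.log ((t : ℝ) / 2) *
        (qq p f u - 4 * (qq p f u + qq p f ((t - 1) * u) - qq p f (t * u)))
      ≤ Real.log ((t : ℝ) / 2) * ex p (fun ω => if Q ω ≤ 1 / (t : ℝ) then Q ω else 0) :=
        mul_le_mul_of_nonneg_left hlow hlog
    _ ≤ 3 / 2 * (p * Real.log (1 / p)) * ∑ e ∈ A, ex p (piv f e) := hup
    _ ≤ 3 / 2 * (p * Real.log (1 / p)) * ((r : ℝ) * totalInfluence p f * u / n) :=
        mul_le_mul_of_nonneg_left hpiv hK
    _ = (r : ℝ) * (3 / 2 * (p * Real.log (1 / p))) * totalInfluence p f * u / n := by ring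

end Crest.Agent.S0077
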