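import Crest.Agent.S0077_Core
import Crest.Agent.S0077_Flip

/-! Tasks T9c and T9d: common numeric assembly for all uniformities `r ≥ 2`. -/

set_option autoImplicit false
open Finset Crest Crest.FinProb Crest.CombinatoricsR.HypergraphCube

namespace Crest.Agent.S0077

/-- the elementary real inequality used for the KKL condition -/
theorem gen_exp_bound_six (L : ℝ) (hL : 0 ≤ L) : L ^ 6 ≤ 1000000 * Real.exp (3 / 10 * L) := by
  have h1 : (3 / 10 * L) ^ 6 / 720 ≤ Real.exp (3 / 10 * L) := by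
    have h2 := Real.pow_div_factorial_le_exp (3 / 10 * L) (by positivity) 6
    have h3 : ((Nat.factorial 6 : ℕ) : ℝ) = 720 := by norm_num [Nat.factorial]
    rw [h3] at h2
    exact h2
  have h4 : (3 / 10 * L) ^ 6 / 720 = 729 / 720000000 * L ^ 6 := by ring
  rw [h4] at h1
  have h5 : 0 ≤ L ^ 6 := by positivity
  linarith

theorem gen_exp_bound_two (L : ℝ) (hL : 0 ≤ L) : L ^ 2 / 2 ≤ Real.exp L := by
  have h3 := Real.pow_div_factorial_le_exp L hL 2
  have h4 : ((Nat.factorial 2 : ℕ) : ℝ) = 2 := by norm_num [Nat.factorial]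
  rw [h4] at h3
  exact h3

/-- choice of `w` -/
theorem gen_w (r : ℕ) (hr : 2 ≤ r) (L l : ℝ) (hL : 0 < L) (hl0 : 0 ≤ l) (hlL : 4 + l ≤ L) :
    ∃ w : ℕ, 1 ≤ w ∧ (w : ℝ) ^ (r - 1) * (4 + l) ≤ L ∧
      L ^ ((r : ℝ) / ((r : ℝ) - 1)) ≤ 2 * (4 + l) * (w * L) := by
  have hrR : (2 : ℝ) ≤ r := by exact_mod_cast hr
  have h4l : 0 < 4 + l := by linarith
  obtain ⟨x, hx⟩ : ∃ x : ℝ, x = L / (4 + l) := ⟨_, rfl⟩
  have hx1 : 1 ≤ x := by rw [hx, le_div_iff₀ h4l]; linarith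
  have hx0 : 0 ≤ x := by linarith
  have hxL : x * (4 + l) = L := by rw [hx]; field_simp
  have hr1 : (0 : ℝ) < (r : ℝ) - 1 := by linarith
  obtain ⟨y, hy⟩ : ∃ y : ℝ, y = x ^ (1 / ((r : ℝ) - 1)) := ⟨_, rfl⟩
  have hy1 : 1 ≤ y := by rw [hy]; exact Real.one_le_rpow hx1 (by positivity)
  have hw1 : 1 ≤ ⌊y⌋₊ := Nat.le_floor (by exact_mod_cast hy1)
  obtain ⟨w, hw⟩ : ∃ w : ℕ, w = ⌊y⌋₊ := ⟨_, rfl⟩
  rw [← hw] at hw1
  have hwR1 : (1 : ℝ) ≤ w := by exact_mod_cast hw1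
  have hwy : (w : ℝ) ≤ y := by rw [hw]; exact Nat.floor_le (by linarith)
  have hw2 : y ≤ 2 * w := by
    have h1 : y < w + 1 := by rw [hw]; exact Nat.lt_floor_add_one y
    linarith
  have hrc : ((r - 1 : ℕ) : ℝ) = (r : ℝ) - 1 := by
    rw [Nat.cast_sub (by omega)]; simp
  have hypow : y ^ (r - 1) = x := by
    rw [hy, ← Real.rpow_natCast, ← Real.rpow_mul hx0, hrc, one_div, inv_mul_cancel₀ hr1.ne',
      Real.rpow_one]
  have hwr : (w : ℝ) ^ (r - 1) ≤ x := by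
    rw [← hypow]
    exact pow_le_pow_left₀ (by linarith) hwy _
  refine ⟨w, hw1, ?_, ?_⟩
  · calc (w : ℝ) ^ (r - 1) * (4 + l) ≤ x * (4 + l) := mul_le_mul_of_nonneg_right hwr h4l.le
      _ = L := hxL
  · have h1 : L * y * (4 + l) ^ (1 / ((r : ℝ) - 1)) = L ^ ((r : ℝ) / ((r : ℝ) - 1)) := by
      have h2 : (r : ℝ) / ((r : ℝ) - 1) = 1 + 1 / ((r : ℝ) - 1) := by
        field_simp
        ring
      rw [h2, Real.rpow_add hL, Real.rpow_one, hy, mul_assoc, ← Real.mul_rpow hx0 h4l.le, hxL]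
    rw [← h1]
    have h3 : (4 + l) ^ (1 / ((r : ℝ) - 1)) ≤ 4 + l := by
      calc (4 + l) ^ (1 / ((r : ℝ) - 1)) ≤ (4 + l) ^ (1 : ℝ) := by
            apply Real.rpow_le_rpow_of_exponent_le (by linarith)
            rw [div_le_one hr1]
            linarith
        _ = 4 + l := Real.rpow_one _
    have h4 : 0 ≤ L * y := by positivity
    calc L * y * (4 + l) ^ (1 / ((r : ℝ) - 1)) ≤ L * y * (4 + l) :=
          mul_le_mul_of_nonneg_left h3 h4
      _ ≤ L * (2 * w) * (4 + l) := by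
          apply mul_le_mul_of_nonneg_right _ h4l.le
          exact mul_le_mul_of_nonneg_left hw2 hL.le
      _ = 2 * (4 + l) * (w * L) := by ring

/-- the condition `hC` of `core` -/
theorem gen_hC (r n w : ℕ) (p : ℝ) (hp0 : 0 < p) (hr : 2 ≤ r) (hn : 0 < n) (hw : 1 ≤ w)
    (h3 : (w : ℝ) ^ (r - 1) * (4 + Real.log (1 / p)) ≤ Real.log n) :
    3 * (w : ℝ) ^ 2 * (1 / p) ^ (w ^ (r - 1)) ≤ 8 * n := by
  have hnpos : (0 : ℝ) < n := by exact_mod_cast hn
  have hwR1 : (1 : ℝ) ≤ w := by exact_mod_cast hw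
  have hexpL : Real.exp (Real.log n) = n := Real.exp_log hnpos
  have hexpl : Real.exp (Real.log (1 / p)) = 1 / p := Real.exp_log (by positivity)
  obtain ⟨l, hl⟩ : ∃ l : ℝ, l = Real.log (1 / p) := ⟨_, rfl⟩
  obtain ⟨L, hL⟩ : ∃ L : ℝ, L = Real.log n := ⟨_, rfl⟩
  obtain ⟨W, hW⟩ : ∃ W : ℝ, W = (w : ℝ) ^ (r - 1) := ⟨_, rfl⟩
  have hwle : (w : ℝ) ≤ (w : ℝ) ^ (r - 1) := le_self_pow₀ hwR1 (by omega)
  have h1 : (1 / p) ^ (w ^ (r - 1)) = Real.exp (l * W) := by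
    rw [← hexpl, ← Real.exp_nat_mul, ← hl, hW]
    congr 1
    push_cast
    ring
  rw [← hW] at hwle h3
  rw [← hl, ← hL] at h3
  rw [← hL] at hexpL
  have h2 : l * W ≤ L - 4 * w := by
    have h4 : l * W = W * (4 + l) - 4 * W := by ring
    linarith
  have h3' : Real.exp (l * W) ≤ n * Real.exp (-(4 * w)) := by
    rw [← hexpL, ← Real.exp_add]
    apply Real.exp_le_exp.mpr
    linarith
  have h4 : (4 * (w : ℝ)) ^ 2 / 2 ≤ Real.exp (4 * w) :=
    gen_exp_bound_two (4 * (w : ℝ)) (by positivity)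
  have h5 : 3 * (w : ℝ) ^ 2 * Real.exp (-(4 * w)) ≤ 8 := by
    rw [Real.exp_neg, ← div_eq_mul_inv, div_le_iff₀ (Real.exp_pos _)]
    have h6 : (4 * (w : ℝ)) ^ 2 / 2 = 8 * (w : ℝ) ^ 2 := by ring
    have h7 : 0 ≤ (w : ℝ) ^ 2 := by positivity
    linarith
  calc 3 * (w : ℝ) ^ 2 * (1 / p) ^ (w ^ (r - 1))
      = 3 * (w : ℝ) ^ 2 * Real.exp (l * W) := by rw [h1]
    _ ≤ 3 * (w : ℝ) ^ 2 * (n * Real.exp (-(4 * w))) :=
        mul_le_mul_of_nonneg_left h3' (by positivity)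
    _ = n * (3 * (w : ℝ) ^ 2 * Real.exp (-(4 * w))) := by ring
    _ ≤ n * 8 := mul_le_mul_of_nonneg_left h5 hnpos.le
    _ = 8 * n := by ring

/-- the condition `hI` of `core` -/
theorem gen_hI (n w : ℕ) (B V : ℝ) (hn : 0 < n) (hV0 : 0 ≤ V) (hV4 : V ≤ 1 / 4)
    (hL0 : 0 ≤ Real.log n)
    (hB0 : 0 ≤ B) (hB : B ≤ Real.log n ^ 2 * V / 73728) (hw4 : 4 * (w : ℝ) ≤ Real.log n) :
    32 * B ^ 3 * 16 ^ (w - 1) ≤ n * V ^ 2 := by
  have hnpos : (0 : ℝ) < n := by exact_mod_cast hn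
  have hexpL : Real.exp (Real.log n) = n := Real.exp_log hnpos
  obtain ⟨L, hL⟩ : ∃ L : ℝ, L = Real.log n := ⟨_, rfl⟩
  rw [← hL] at hexpL hL0 hB hw4
  have h2 : B ^ 3 ≤ (L ^ 2 * V / 73728) ^ 3 :=
    pow_le_pow_left₀ hB0 hB 3
  have h3 : (16 : ℝ) ^ (w - 1) ≤ Real.exp (7 / 10 * L) := by
    have h4 : (16 : ℝ) ^ (w - 1) ≤ 16 ^ w := pow_le_pow_right₀ (by norm_num) (by omega)
    have h5 : (16 : ℝ) ^ w = Real.exp (w * (4 * Real.log 2)) := by
      rw [Real.exp_nat_mul]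
      congr 1
      rw [show (4 : ℝ) * Real.log 2 = ((4 : ℕ) : ℝ) * Real.log 2 by norm_num,
        Real.exp_nat_mul, Real.exp_log (by norm_num)]
      norm_num
    rw [h5] at h4
    refine le_trans h4 (Real.exp_le_exp.mpr ?_)
    have h6 := Real.log_two_lt_d9
    have h7 : 0 < Real.log 2 := Real.log_pos (by norm_num)
    have h8 : (w : ℝ) * (4 * Real.log 2) = (4 * w) * Real.log 2 := by ring
    rw [h8]
    calc (4 * (w : ℝ)) * Real.log 2 ≤ L * Real.log 2 := mul_le_mul_of_nonneg_right hw4 h7.le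
      _ ≤ L * (7 / 10) := mul_le_mul_of_nonneg_left (by linarith) hL0
      _ = 7 / 10 * L := by ring
  have h4 := gen_exp_bound_six L hL0
  have h5 : Real.exp (3 / 10 * L) * Real.exp (7 / 10 * L) = n := by
    rw [← Real.exp_add, ← hexpL]
    congr 1
    ring
  have h6 : 0 ≤ Real.exp (7 / 10 * L) := (Real.exp_pos _).le
  have h7 : V ^ 3 ≤ V ^ 2 / 4 := by
    have h8 : V ^ 3 = V ^ 2 * V := by ring
    have h9 : V ^ 2 * V ≤ V ^ 2 * (1 / 4) := mul_le_mul_of_nonneg_left hV4 (sq_nonneg V)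
    linarith
  calc 32 * B ^ 3 * 16 ^ (w - 1)
      ≤ 32 * (L ^ 2 * V / 73728) ^ 3 * Real.exp (7 / 10 * L) := by
        apply mul_le_mul _ h3 (by positivity) (by positivity)
        exact mul_le_mul_of_nonneg_left h2 (by norm_num)
    _ = (32 / 73728 ^ 3) * (L ^ 6 * (V ^ 3 * Real.exp (7 / 10 * L))) := by ring
    _ ≤ (32 / 73728 ^ 3) * ((1000000 * Real.exp (3 / 10 * L)) *
          (V ^ 2 / 4 * Real.exp (7 / 10 * L))) := by
        apply mul_le_mul_of_nonneg_left _ (by norm_num)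
        apply mul_le_mul h4 _ (by positivity) (by positivity)
        exact mul_le_mul_of_nonneg_right h7 h6
    _ = (32 * 1000000 / 4 / 73728 ^ 3) * (V ^ 2 *
          (Real.exp (3 / 10 * L) * Real.exp (7 / 10 * L))) := by ring
    _ = (32 * 1000000 / 4 / 73728 ^ 3) * (V ^ 2 * n) := by rw [h5]
    _ ≤ 1 * (V ^ 2 * n) := by
        apply mul_le_mul_of_nonneg_right _ (by positivity)
        norm_num
    _ = n * V ^ 2 := by ring

/-- the real-variable part of the assembly -/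
theorem gen_real (n r : ℕ) (p V I : ℝ) (hp0 : 0 < p) (hp : p ≤ 1 / 2) (hr : 2 ≤ r) (hn : 2 ≤ n)
    (hV0 : 0 ≤ V) (hV4 : V ≤ 1 / 4) (hI0 : 0 ≤ I) (hpoin : V ≤ p * (1 - p) * I)
    (hcore : ∀ w : ℕ, 1 ≤ w → w ^ 2 ≤ n → 3 * (w : ℝ) ^ 2 * (1 / p) ^ (w ^ (r - 1)) ≤ 8 * n →
      0 < V → 32 * ((r : ℝ) * (p * (1 - p)) * I) ^ 3 * 16 ^ (w - 1) ≤ n * V ^ 2 →
      (w : ℝ) * Real.log n * V ≤ 1536 * r * (p * Real.log (1 / p)) * I)
    (hLR : Real.log n ^ ((r : ℝ) / ((r : ℝ) - 1)) ≤ Real.log n ^ 2) :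
    Real.log n ^ ((r : ℝ) / ((r : ℝ) - 1)) * V ≤ 18432 * r * I := by
  have hnR : (2 : ℝ) ≤ n := by exact_mod_cast hn
  have hnpos : (0 : ℝ) < n := by linarith
  have hrR : (2 : ℝ) ≤ r := by exact_mod_cast hr
  have hexpL : Real.exp (Real.log n) = n := Real.exp_log hnpos
  have hL0 : 0 < Real.log n := Real.log_pos (by linarith)
  have hexpl : Real.exp (Real.log (1 / p)) = 1 / p := Real.exp_log (by positivity)
  have hl0 : 0 ≤ Real.log (1 / p) := Real.log_nonneg (by rw [le_div_iff₀ hp0]; linarith)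
  have hgw := gen_w r hr (Real.log n) (Real.log (1 / p)) hL0 hl0
  have hgC := fun w => gen_hC r n w p hp0 hr (by omega)
  have hgI := fun w B hB => gen_hI n w B V (by omega) hV0 hV4 hL0.le hB
  generalize Real.log n = L at *
  generalize hR : (r : ℝ) / ((r : ℝ) - 1) = R at *
  generalize hl : Real.log (1 / p) = l at *
  by_contra hcon
  have hcon' : 18432 * r * I < L ^ R * V := not_le.mp hcon
  have hLR0 : 0 ≤ L ^ R := Real.rpow_nonneg hL0.le R
  have hVpos : 0 < V := by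
    rcases hV0.eq_or_lt with h | h
    · exfalso
      rw [← h, mul_zero] at hcon'
      have : 0 ≤ 18432 * (r : ℝ) * I := by positivity
      linarith
    · exact h
  have hpp : 0 < p * (1 - p) := mul_pos hp0 (by linarith)
  have hpp4 : p * (1 - p) ≤ 1 / 4 := by nlinarith [sq_nonneg (p - 1 / 2)]
  have hL2 : 0 < L ^ 2 := by positivity
  have hC1 : 18432 * r * I < L ^ 2 * V :=
    lt_of_lt_of_le hcon' (mul_le_mul_of_nonneg_right hLR hV0)
  have hC2 : 18432 * r < L ^ 2 * (p * (1 - p)) := by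
    have h1 : L ^ 2 * V ≤ L ^ 2 * (p * (1 - p) * I) := mul_le_mul_of_nonneg_left hpoin hL2.le
    have h2 : 18432 * r * I < (L ^ 2 * (p * (1 - p))) * I := by
      calc 18432 * r * I < L ^ 2 * V := hC1
        _ ≤ L ^ 2 * (p * (1 - p) * I) := h1
        _ = _ := by ring
    exact lt_of_mul_lt_mul_right h2 hI0
  have hL384 : 384 ≤ L := by
    have h1 : L ^ 2 * (p * (1 - p)) ≤ L ^ 2 * (1 / 4) := mul_le_mul_of_nonneg_left hpp4 hL2.le
    have h2 : (147456 : ℝ) < L ^ 2 := by linarith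
    by_contra h3
    have h4 : L < 384 := not_le.mp h3
    have h5 : L ^ 2 < 384 ^ 2 := pow_lt_pow_left₀ h4 hL0.le (by norm_num)
    norm_num at h5
    linarith
  have hpinv : 1 / p ≤ L ^ 2 := by
    rw [div_le_iff₀ hp0]
    have h1 : L ^ 2 * (p * (1 - p)) ≤ L ^ 2 * p := by
      apply mul_le_mul_of_nonneg_left _ hL2.le
      have h2 : p * (1 - p) = p - p ^ 2 := by ring
      have h3 : 0 ≤ p ^ 2 := sq_nonneg p
      linarith
    linarith
  have hl2 : l ≤ 2 * Real.log L := by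
    have h1 : l ≤ Real.log (L ^ 2) := by
      rw [← hl]
      exact Real.log_le_log (by positivity) hpinv
    rw [Real.log_pow] at h1
    exact_mod_cast h1
  have hlL : 4 + l ≤ L := by
    have h1 : Real.log L ≤ L / 8 - 1 + 3 * Real.log 2 := by
      have h2 : Real.log (L / 8) ≤ L / 8 - 1 := Real.log_le_sub_one_of_pos (by positivity)
      have h3 : Real.log (L / 8) = Real.log L - 3 * Real.log 2 := by
        rw [Real.log_div hL0.ne' (by norm_num)]
        congr 1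
        rw [show (8 : ℝ) = 2 ^ 3 by norm_num, Real.log_pow]
        norm_num
      linarith
    have h4 := Real.log_two_lt_d9
    linarith
  have h4l : 0 < 4 + l := by linarith
  obtain ⟨w, hw1, hwr, hwL⟩ := hgw hlL
  have hwR1 : (1 : ℝ) ≤ w := by exact_mod_cast hw1
  have hwle : (w : ℝ) ≤ (w : ℝ) ^ (r - 1) := le_self_pow₀ hwR1 (by omega)
  have hw4 : 4 * (w : ℝ) ≤ L := by
    have h1 : (w : ℝ) ^ (r - 1) * 4 ≤ (w : ℝ) ^ (r - 1) * (4 + l) :=
      mul_le_mul_of_nonneg_left (by linarith) (by positivity)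
    linarith
  -- conditions of `core`
  have hwn : w ^ 2 ≤ n := by
    have h1 : (w : ℝ) ^ 2 ≤ n := by
      have h2 : L ^ 2 / 2 ≤ Real.exp L := gen_exp_bound_two L hL0.le
      rw [hexpL] at h2
      have h3 : (4 * (w : ℝ)) ^ 2 ≤ L ^ 2 := pow_le_pow_left₀ (by positivity) hw4 2
      have h4 : (4 * (w : ℝ)) ^ 2 = 16 * (w : ℝ) ^ 2 := by ring
      have h5 : 0 ≤ (w : ℝ) ^ 2 := by positivity
      linarith
    exact_mod_cast h1
  have hC := hgC w hw1 hwr
  have hII : 32 * ((r : ℝ) * (p * (1 - p)) * I) ^ 3 * 16 ^ (w - 1) ≤ n * V ^ 2 := by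
    apply hgI w _ (by positivity) _ hw4
    have h2 : (r : ℝ) * (p * (1 - p)) * I ≤ (r : ℝ) * (1 / 4) * I := by
      apply mul_le_mul_of_nonneg_right _ hI0
      exact mul_le_mul_of_nonneg_left hpp4 (by linarith)
    rw [le_div_iff₀ (by norm_num)]
    linarith
  have hfin := hcore w hw1 hwn hC hVpos hII
  have hpl : (4 + l) * (p * l) ≤ 6 := by
    have h1 : 1 + l + l ^ 2 / 2 ≤ Real.exp l := Real.quadratic_le_exp_of_nonneg hl0
    rw [hexpl, le_div_iff₀ hp0] at h1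
    have h2 : 0 ≤ p * l := mul_nonneg hp0.le hl0
    have h3 : 0 ≤ p * l ^ 2 := by positivity
    have h4 : (4 + l) * (p * l) = 4 * (p * l) + p * l ^ 2 := by ring
    have h5 : (1 + l + l ^ 2 / 2) * p = p + p * l + p * l ^ 2 / 2 := by ring
    linarith
  apply hcon
  calc L ^ R * V ≤ 2 * (4 + l) * (w * L) * V := mul_le_mul_of_nonneg_right hwL hV0
    _ = 2 * (4 + l) * (w * L * V) := by ring
    _ ≤ 2 * (4 + l) * (1536 * r * (p * l) * I) :=
        mul_le_mul_of_nonneg_left hfin (by positivity)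
    _ = 3072 * r * I * ((4 + l) * (p * l)) := by ring
    _ ≤ 3072 * r * I * 6 := mul_le_mul_of_nonneg_left hpl (by positivity)
    _ = 18432 * r * I := by ring

variable {n r : ℕ}

theorem gen_totalInfluence_nonneg {p : ℝ} (h0 : 0 ≤ p) (h1 : p ≤ 1)
    (f : (HyperedgeSlot n r → Bool) → Bool) : 0 ≤ totalInfluence p f := by
  rw [totalInfluence_eq_ex]
  apply Finset.sum_nonneg
  intro e _
  apply ex_nonneg h0 h1
  intro ω
  unfold piv
  split_ifs <;> norm_num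

theorem gen_var_nonneg {p : ℝ} (h0 : 0 ≤ p) (h1 : p ≤ 1)
    (f : (HyperedgeSlot n r → Bool) → Bool) : 0 ≤ probTrue p f * (1 - probTrue p f) := by
  rw [probTrue_eq_ex]
  have h2 : 0 ≤ ex p (ind f) := by
    apply ex_nonneg h0 h1
    intro ω
    unfold ind
    split_ifs <;> norm_num
  have h3 : ex p (ind f) ≤ 1 := by
    have h4 : ex p (ind f) ≤ ex p (fun _ : HyperedgeSlot n r → Bool => (1 : ℝ)) := by
      apply ex_mono h0 h1
      intro ω
      unfold ind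
      split_ifs <;> norm_num
    rwa [ex_const] at h4
  exact mul_nonneg h2 (by linarith)

theorem main_gen {p : ℝ} (hp0 : 0 < p) (hp : p ≤ 1 / 2) (hr : 2 ≤ r) (hn : 2 ≤ n)
    (f : (HyperedgeSlot n r → Bool) → Bool) (hf : IsSymmetric f)
    (hLR : Real.log n ^ ((r : ℝ) / ((r : ℝ) - 1)) ≤ Real.log n ^ 2) :
    Real.log n ^ ((r : ℝ) / ((r : ℝ) - 1)) * (probTrue p f * (1 - probTrue p f)) ≤
      18432 * r * totalInfluence p f := by
  have hp1 : p < 1 := by linarith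
  have hV4 : probTrue p f * (1 - probTrue p f) ≤ 1 / 4 := by
    nlinarith [sq_nonneg (probTrue p f - 1 / 2)]
  exact gen_real n r p _ _ hp0 hp hr hn (gen_var_nonneg hp0.le hp1.le f) hV4
    (gen_totalInfluence_nonneg hp0.le hp1.le f) (poincare hp0 hp1 f)
    (fun w hw hwn hC hV hI => core hp0 hp hr (by omega) f hf w hw hwn hC hV hI) hLR

/-- the version for all `p`, by exchanging heads and tails -/
theorem main_gen_all {p : ℝ} (hp0 : 0 < p) (hp1 : p < 1) (hr : 2 ≤ r) (hn : 2 ≤ n)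
    (f : (HyperedgeSlot n r → Bool) → Bool) (hf : IsSymmetric f)
    (hLR : Real.log n ^ ((r : ℝ) / ((r : ℝ) - 1)) ≤ Real.log n ^ 2) :
    Real.log n ^ ((r : ℝ) / ((r : ℝ) - 1)) * (probTrue p f * (1 - probTrue p f)) ≤
      18432 * r * totalInfluence p f := by
  by_cases hp : p ≤ 1 / 2
  · exact main_gen hp0 hp hr hn f hf hLR
  · obtain ⟨f', hf', h1, h2⟩ := flip_exists p f hf
    rw [← h1, ← h2]
    exact main_gen (by linarith) (by linarith [not_le.mp hp]) hr hn f' hf' hLR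

end Crest.Agent.S0077
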