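import Crest.Agent.S0077_MainGen

/-! Task T9d: general uniformity. -/

set_option autoImplicit false
open Finset Crest Crest.FinProb Crest.CombinatoricsR.HypergraphCube

namespace Crest.Agent.S0077

/-- **T9d.** general `r ≥ 3`; `R = r/(r-1) ∈ (1, 3/2]`. By `flip_exists` assume `p ≤ 1/2`. With
`L = log n`, `V`, `I`, `ℓ = log(1/p)` as in T9c. For `L ≤ L₀(r)` (`L₀ ≥ 1` large) `poincare` gives
`V ≤ I/4 ≤ (C/L^R) I` once `C ≥ L₀^2`. (Note `n ≥ r ≥ 3` so `L ≥ 1`.) For `L ≥ L₀` suppose `C I < L^R V` with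
`C ≥ 1`; so `I < L² V`, `1/p ≤ 1/(p(1-p)) ≤ I/V ≤ L²`, `ℓ ≤ 2 log L`. Let `y = (L/(4+ℓ))^(1/(r-1)) ≥ 1`,
`w = ⌊y⌋₊ ≥ y/2`, so `w^(r-1) (4+ℓ) ≤ L`, hence `w ≤ w^(r-1) ≤ L/4`. Conditions of `core`:
`(1/p)^(w^(r-1)) = e^{ℓ w^{r-1}} ≤ e^{L - 4 w^{r-1}} ≤ n e^{-4w}` and `3w² ≤ 8 e^{4w}`: `hC`;
`w² ≤ L² ≤ n`; `hI`: `r p(1-p) I ≤ r L² V/4`, `V ≤ 1/4`, `16^w ≤ e^{0.6932 L}`: suffices
`r³ L^6 ≤ e^{0.3 L}` for `L ≥ L₀(r)`. `core`: `L y V ≤ 2 w L V ≤ 3072 r p ℓ I`, and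
`L y = L^R/(4+ℓ)^(1/(r-1)) ≥ L^R/(4+ℓ)`, `p ℓ (4+ℓ) ≤ 6`, so `L^R V ≤ 18432 r I`. -/
theorem main_r (r : ℕ) (hr : 3 ≤ r) :
    ∃ C : ℝ, ∀ n : ℕ, r ≤ n → ∀ p : ℝ, 0 < p → p < 1 →
      ∀ f : (HyperedgeSlot n r → Bool) → Bool, IsSymmetric f →
          probTrue p f * (1 - probTrue p f) ≤
            C / Real.log n ^ ((r : ℝ) / ((r : ℝ) - 1)) * totalInfluence p f := by
  refine ⟨18432 * r, ?_⟩
  intro n hn p hp0 hp1 f hf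
  have hn3 : 3 ≤ n := le_trans hr hn
  have hnR : (3 : ℝ) ≤ n := by exact_mod_cast hn3
  have hrR : (3 : ℝ) ≤ r := by exact_mod_cast hr
  have hL1 : 1 ≤ Real.log n := by
    rw [Real.le_log_iff_exp_le (by linarith)]
    have h1 := Real.exp_one_lt_d9
    linarith
  have hL0 : 0 < Real.log n := by linarith
  have hR2 : (r : ℝ) / ((r : ℝ) - 1) ≤ ((2 : ℕ) : ℝ) := by
    rw [div_le_iff₀ (by linarith)]
    push_cast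
    linarith
  have hLR : Real.log n ^ ((r : ℝ) / ((r : ℝ) - 1)) ≤ Real.log n ^ 2 := by
    rw [← Real.rpow_natCast]
    exact Real.rpow_le_rpow_of_exponent_le hL1 hR2
  have h1 := main_gen_all hp0 hp1 (by omega : 2 ≤ r) (by omega : 2 ≤ n) f hf hLR
  have hpos : 0 < Real.log n ^ ((r : ℝ) / ((r : ℝ) - 1)) := Real.rpow_pos_of_pos hL0 _
  rw [div_mul_eq_mul_div, le_div_iff₀ hpos]
  linarith

end Crest.Agent.S0077
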