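import Crest.Agent.S0077_MainGen

/-! Task T9c: graph case. -/

set_option autoImplicit false
open Finset Crest Crest.FinProb Crest.CombinatoricsR.HypergraphCube

namespace Crest.Agent.S0077

variable {n r : ℕ}

/-- **T9c.** graph case. Write `L = log n`, `V = probTrue*(1-probTrue)`, `I = totalInfluence`.
By `flip_exists` assume `p ≤ 1/2`; `V = 0` is trivial (`I ≥ 0`). Suppose `2^17 I < L² V`.
`poincare`: `V ≤ p(1-p) I ≤ I/4`, so `L² > 2^19`, and `1/(p(1-p)) ≤ I/V < L²/2^17`, so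
`ℓ = log(1/p) ≤ 2 log L - 17 log 2`. Take `w = ⌊L/(4+ℓ)⌋₊ ≥ 1`, `w ≥ L/(2(4+ℓ))`. Conditions of `core`:
`w(4+ℓ) ≤ L` gives `(1/p)^w = e^{wℓ} ≤ e^{L-4w} = n e^{-4w}` and `3w² ≤ 8 e^{4w}` (this is `hC`);
`w² ≤ L² ≤ n`; `hI`: `2p(1-p)I ≤ I/2 ≤ L² V/2^18`, `V ≤ 1/4`, `16^w ≤ e^{0.6932 L}` as `w ≤ L/4`, so it
suffices `2 L^6 2^{-54}/4 e^{0.6932 L} ≤ e^L` roughly: true for `L > 724`.
`core` then gives `L² V ≤ 2(4+ℓ) w L V ≤ 2 (4+ℓ) 3072 p ℓ I` and `(4+ℓ) ℓ e^{-ℓ} ≤ 6`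
(`p = e^{-ℓ}`, `e^ℓ ≥ 1+ℓ+ℓ²/2`), so `L² V ≤ 36864 I < 2^17 I`. -/
theorem main_two {p : ℝ} (hp0 : 0 < p) (hp1 : p < 1) (hn : 2 ≤ n)
    (f : (HyperedgeSlot n 2 → Bool) → Bool) (hf : IsSymmetric f) :
    probTrue p f * (1 - probTrue p f) ≤ 2 ^ 17 / Real.log n ^ 2 * totalInfluence p f := by
  have hnR : (2 : ℝ) ≤ n := by exact_mod_cast hn
  have hL0 : 0 < Real.log n := Real.log_pos (by linarith)
  have hR : (((2 : ℕ) : ℝ) / (((2 : ℕ) : ℝ) - 1)) = ((2 : ℕ) : ℝ) := by norm_num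
  have h1 := main_gen_all hp0 hp1 (le_refl 2) hn f hf (by rw [hR, Real.rpow_natCast])
  rw [hR, Real.rpow_natCast] at h1
  have hI0 := gen_totalInfluence_nonneg hp0.le hp1.le f
  rw [div_mul_eq_mul_div, le_div_iff₀ (by positivity)]
  have h2 : (18432 * ((2 : ℕ) : ℝ)) * totalInfluence p f ≤ 2 ^ 17 * totalInfluence p f :=
    mul_le_mul_of_nonneg_right (by norm_num) hI0
  linarith

end Crest.Agent.S0077
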