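import Crest.Agent.S0077_Cube

/-! Task T10: Russo's formula and integration. -/

set_option autoImplicit false
open Finset Crest Crest.FinProb

namespace Crest.Agent.S0077

/-- flipping one coordinate -/
def flipAt {ι : Type*} [DecidableEq ι] (i : ι) (ω : ι → Bool) : ι → Bool :=
  Function.update ω i (!(ω i))

theorem flipAt_invol {ι : Type*} [DecidableEq ι] (i : ι) :
    Function.Involutive (flipAt i : (ι → Bool) → (ι → Bool)) := by
  intro ω
  unfold flipAt
  simp

theorem sum_flipAt {ι : Type*} [Fintype ι] [DecidableEq ι] (i : ι) (H : (ι → Bool) → ℝ) :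
    ∑ ω, H (flipAt i ω) = ∑ ω, H ω :=
  Equiv.sum_comp (flipAt_invol i).toPerm H

/-- **T10a.** Russo–Margulis formula -/
theorem russo {ι : Type*} [Fintype ι] [DecidableEq ι] (F : (ι → Bool) → ℝ) (p : ℝ) :
    HasDerivAt (fun p => ex p F)
      (∑ i, ex p (fun ω => F (Function.update ω i true) - F (Function.update ω i false))) p := by
  unfold ex
  have hw : ∀ ω : ι → Bool, HasDerivAt (fun p : ℝ => bernoulliWeight p ω)
      (∑ i, (∏ j ∈ univ.erase i, (if ω j then p else 1 - p)) * (if ω i then 1 else -1)) p := by
    intro ω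
    have h : ∀ i ∈ (univ : Finset ι), HasDerivAt (fun p : ℝ => if ω i then p else 1 - p)
        (if ω i then (1:ℝ) else -1) p := by
      intro i _
      by_cases hi : ω i = true
      · simp only [hi, if_true]
        exact hasDerivAt_id p
      · simp only [hi]
        simpa using (hasDerivAt_id p).const_sub 1
    have h2 := HasDerivAt.fun_finsetProd h
    simp only [smul_eq_mul] at h2
    exact h2
  have h1 : HasDerivAt (fun p : ℝ => ∑ ω, bernoulliWeight p ω * F ω)
      (∑ ω : ι → Bool, (∑ i, (∏ j ∈ univ.erase i, (if ω j then p else 1 - p)) *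
        (if ω i then 1 else -1)) * F ω) p := by
    apply HasDerivAt.fun_sum
    intro ω _
    exact (hw ω).mul_const (F ω)
  convert h1 using 1
  simp_rw [Finset.sum_mul]
  rw [Finset.sum_comm]
  conv_rhs => rw [Finset.sum_comm]
  conv_lhs => rw [Finset.sum_comm]
  apply Finset.sum_congr rfl
  intro i _
  set W : (ι → Bool) → ℝ := fun ω => ∏ j ∈ univ.erase i, (if ω j then p else 1 - p) with hW
  set G : (ι → Bool) → ℝ := fun ω => F (Function.update ω i true) - F (Function.update ω i false)
    with hG
  have hWf : ∀ ω, W (flipAt i ω) = W ω := by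
    intro ω
    simp only [hW]
    apply Finset.prod_congr rfl
    intro j hj
    have : j ≠ i := Finset.ne_of_mem_erase hj
    simp [flipAt, this]
  have hGf : ∀ ω, G (flipAt i ω) = G ω := by
    intro ω
    simp [hG, flipAt]
  have hGF : ∀ ω : ι → Bool, (if ω i then (1:ℝ) else -1) * (F ω - F (flipAt i ω)) = G ω := by
    intro ω
    simp only [hG, flipAt]
    rcases Bool.eq_false_or_eq_true (ω i) with h | h
    · have e : Function.update ω i true = ω := by rw [← h]; simp
      simp [h, e]
    · have e : Function.update ω i false = ω := by rw [← h]; simp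
      simp [h, e]
  have hb : ∀ ω : ι → Bool, bernoulliWeight p ω = (if ω i then p else 1 - p) * W ω := by
    intro ω
    unfold bernoulliWeight
    rw [← Finset.mul_prod_erase univ _ (Finset.mem_univ i)]
  have hs : ∀ ω : ι → Bool, (if (flipAt i ω) i then (1:ℝ) else -1) = -(if ω i then (1:ℝ) else -1) := by
    intro ω
    rcases Bool.eq_false_or_eq_true (ω i) with h | h <;> simp [flipAt, h]
  have hp : ∀ ω : ι → Bool, (if (flipAt i ω) i then p else 1 - p) + (if ω i then p else 1 - p) = 1 := by
    intro ω
    rcases Bool.eq_false_or_eq_true (ω i) with h | h <;> simp [flipAt, h]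
  have hL : 2 * ∑ ω, bernoulliWeight p ω * G ω = ∑ ω, W ω * G ω := by
    have e1 := sum_flipAt i (fun ω => bernoulliWeight p ω * G ω)
    calc 2 * ∑ ω, bernoulliWeight p ω * G ω
        = ∑ ω, bernoulliWeight p (flipAt i ω) * G (flipAt i ω) + ∑ ω, bernoulliWeight p ω * G ω := by
          rw [e1]; ring
      _ = _ := by
          rw [← Finset.sum_add_distrib]
          apply Finset.sum_congr rfl
          intro ω _
          rw [hb, hb, hWf, hGf]
          calc _ = ((if (flipAt i ω) i then p else 1 - p) + (if ω i then p else 1 - p)) * (W ω * G ω) := by ring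
            _ = _ := by rw [hp, one_mul]
  have hR : 2 * ∑ ω, W ω * (if ω i then (1:ℝ) else -1) * F ω = ∑ ω, W ω * G ω := by
    have e1 := sum_flipAt i (fun ω => W ω * (if ω i then (1:ℝ) else -1) * F ω)
    calc 2 * ∑ ω, W ω * (if ω i then (1:ℝ) else -1) * F ω
        = ∑ ω, W (flipAt i ω) * (if (flipAt i ω) i then (1:ℝ) else -1) * F (flipAt i ω)
          + ∑ ω, W ω * (if ω i then (1:ℝ) else -1) * F ω := by
          rw [e1]; ring
      _ = _ := by
          rw [← Finset.sum_add_distrib]
          apply Finset.sum_congr rfl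
          intro ω _
          rw [hWf, hs, ← hGF]
          ring
  have := hL.trans hR.symm
  linarith

end Crest.Agent.S0077
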