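import Crest.Agent.S0077_Cube

/-! Definitions for symmetric functions on hypergraph slots and tasks T4a–T4c (symmetric counting). -/

set_option autoImplicit false
open Finset Crest Crest.FinProb Crest.CombinatoricsR.HypergraphCube

namespace Crest.Agent.S0077

/-- vertices touched by a set of slots -/
def vs {n r : ℕ} (S : Finset (HyperedgeSlot n r)) : Finset (Fin n) := S.biUnion (fun e => e.1)

/-- slots touching the vertex set `U` -/
def star {n : ℕ} (r : ℕ) (U : Finset (Fin n)) : Finset (HyperedgeSlot n r) :=
  univ.filter (fun e => ¬ Disjoint e.1 U)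

/-- the permutation of the slots induced by a permutation of the vertices -/
def slotPerm {n : ℕ} (r : ℕ) (σ : Equiv.Perm (Fin n)) : Equiv.Perm (HyperedgeSlot n r) where
  toFun := relabelSlot σ
  invFun := relabelSlot σ⁻¹
  left_inv := by
    intro e
    apply Subtype.ext
    simp only [relabelSlot, Finset.map_map]
    convert Finset.map_refl using 2
    ext x
    simp
  right_inv := by
    intro e
    apply Subtype.ext
    simp only [relabelSlot, Finset.map_map]
    convert Finset.map_refl using 2
    ext x
    simp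

/-- spectral weight -/
noncomputable def wt {n r : ℕ} (p : ℝ) (f : (HyperedgeSlot n r → Bool) → Bool)
    (S : Finset (HyperedgeSlot n r)) : ℝ := fc p (ind f) S ^ 2

/-- `q(u)`: energy touching a set of `u` vertices -/
noncomputable def qq {n r : ℕ} (p : ℝ) (f : (HyperedgeSlot n r → Bool) → Bool) (u : ℕ) : ℝ :=
  ∑ S, wt p f S * (1 - ((n - (vs S).card).choose u : ℝ) / (n.choose u : ℝ))

variable {n r : ℕ}

theorem relabel_eq_comp (σ : Equiv.Perm (Fin n)) (x : HyperedgeSlot n r → Bool) :
    relabel σ x = x ∘ slotPerm r σ := rfl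

theorem disjoint_star_iff (S : Finset (HyperedgeSlot n r)) (U : Finset (Fin n)) :
    Disjoint S (star r U) ↔ Disjoint (vs S) U := by
  unfold star vs
  rw [Finset.disjoint_biUnion_left, Finset.disjoint_left]
  simp only [Finset.mem_filter, Finset.mem_univ, true_and, not_not]

theorem star_union (U U' : Finset (Fin n)) : star r (U ∪ U') = star r U ∪ star r U' := by
  ext e
  simp only [star, Finset.mem_filter, Finset.mem_univ, true_and, Finset.mem_union,
    Finset.disjoint_union_right]
  tauto

theorem star_map (σ : Equiv.Perm (Fin n)) (U : Finset (Fin n)) :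
    (star r U).map (slotPerm r σ).toEmbedding = star r (U.map σ.toEmbedding) := by
  ext e
  simp only [Finset.mem_map_equiv, star, Finset.mem_filter, Finset.mem_univ, true_and]
  have h : (slotPerm r σ) ((slotPerm r σ).symm e) = e := Equiv.apply_symm_apply _ _
  have h2 : e.1 = ((slotPerm r σ).symm e).1.map σ.toEmbedding := by
    conv_lhs => rw [← h]
    rfl
  rw [h2, Finset.disjoint_map]

theorem vs_map (σ : Equiv.Perm (Fin n)) (S : Finset (HyperedgeSlot n r)) :
    vs (S.map (slotPerm r σ).toEmbedding) = (vs S).map σ.toEmbedding := by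
  ext x
  simp only [vs, Finset.mem_biUnion, Finset.mem_map, Equiv.coe_toEmbedding]
  constructor
  · rintro ⟨e, ⟨e', he', rfl⟩, hx⟩
    have : x ∈ e'.1.map σ.toEmbedding := hx
    rw [Finset.mem_map] at this
    obtain ⟨y, hy, rfl⟩ := this
    exact ⟨y, ⟨e', he', hy⟩, rfl⟩
  · rintro ⟨y, ⟨e', he', hy⟩, rfl⟩
    refine ⟨slotPerm r σ e', ⟨e', he', rfl⟩, ?_⟩
    show σ y ∈ e'.1.map σ.toEmbedding
    exact Finset.mem_map_of_mem σ.toEmbedding hy

theorem wt_nonneg (p : ℝ) (f : (HyperedgeSlot n r → Bool) → Bool)
    (S : Finset (HyperedgeSlot n r)) : 0 ≤ wt p f S := sq_nonneg _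

theorem wt_map (p : ℝ) (f : (HyperedgeSlot n r → Bool) → Bool) (hf : IsSymmetric f)
    (σ : Equiv.Perm (Fin n)) (S : Finset (HyperedgeSlot n r)) :
    wt p f (S.map (slotPerm r σ).toEmbedding) = wt p f S := by
  unfold wt
  rw [fc_comp_perm]
  intro ω
  unfold ind
  rw [← relabel_eq_comp, hf]

theorem probTrue_eq_ex (p : ℝ) (f : (HyperedgeSlot n r → Bool) → Bool) :
    probTrue p f = ex p (ind f) := by
  unfold probTrue bernoulliProb ex ind
  rw [Finset.sum_filter]
  apply Finset.sum_congr rfl
  intro ω _
  by_cases h : f ω = true <;> simp [h]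

theorem totalInfluence_eq_ex (p : ℝ) (f : (HyperedgeSlot n r → Bool) → Bool) :
    totalInfluence p f = ∑ e, ex p (piv f e) := by
  unfold totalInfluence
  apply Finset.sum_congr rfl
  intro e _
  unfold pivotalInfluence bernoulliProb ex piv
  rw [Finset.sum_filter]
  apply Finset.sum_congr rfl
  intro ω _
  by_cases h : f (Function.update ω e true) = f (Function.update ω e false) <;> simp [h]

theorem piv_nonneg {ι : Type*} [Fintype ι] [DecidableEq ι] (f : (ι → Bool) → Bool) (e : ι)
    (ω : ι → Bool) : 0 ≤ piv f e ω := by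
  unfold piv; split_ifs <;> norm_num

theorem totalInfluence_nonneg {p : ℝ} (h0 : 0 ≤ p) (h1 : p ≤ 1)
    (f : (HyperedgeSlot n r → Bool) → Bool) : 0 ≤ totalInfluence p f := by
  rw [totalInfluence_eq_ex]
  exact Finset.sum_nonneg (fun e _ => ex_nonneg h0 h1 (fun ω => piv_nonneg f e ω))

theorem probTrue_mem {p : ℝ} (h0 : 0 ≤ p) (h1 : p ≤ 1)
    (f : (HyperedgeSlot n r → Bool) → Bool) : 0 ≤ probTrue p f ∧ probTrue p f ≤ 1 := by
  rw [probTrue_eq_ex]
  constructor
  · exact ex_nonneg h0 h1 (fun ω => by unfold ind; split_ifs <;> norm_num)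
  · calc ex p (ind f) ≤ ex p (fun _ => 1) :=
          ex_mono h0 h1 (fun ω => by unfold ind; split_ifs <;> norm_num)
      _ = 1 := ex_const p 1

theorem one_le_card_vs (hr : 1 ≤ r) (S : Finset (HyperedgeSlot n r)) :
    1 ≤ (vs S).card ↔ S ≠ ∅ := by
  rw [Nat.one_le_iff_ne_zero, Ne, Finset.card_eq_zero, not_iff_not]
  constructor
  · intro h
    rw [Finset.eq_empty_iff_forall_notMem]
    intro e he
    have hne : e.1.Nonempty := by
      rw [← Finset.card_pos, e.2]; omega
    obtain ⟨x, hx⟩ := hne
    have : x ∈ vs S := Finset.mem_biUnion.mpr ⟨e, he, hx⟩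
    rw [h] at this
    exact absurd this (Finset.notMem_empty x)
  · rintro rfl
    rfl

theorem fc_empty (p : ℝ) {ι : Type*} [Fintype ι] [DecidableEq ι] (F : (ι → Bool) → ℝ) :
    fc p F ∅ = ex p F := by
  unfold fc chi
  simp

/-- total weight of the nonempty sets is the variance -/
theorem sum_wt_nonempty {p : ℝ} (h0 : 0 < p) (h1 : p < 1) (hr : 1 ≤ r)
    (f : (HyperedgeSlot n r → Bool) → Bool) :
    ∑ S ∈ univ.filter (fun S : Finset (HyperedgeSlot n r) => 1 ≤ (vs S).card), wt p f S
      = probTrue p f * (1 - probTrue p f) := by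
  have hP := parseval h0 h1 (ind f) (ind f)
  have h2 : (fun ω => ind f ω * ind f ω) = ind f := by
    ext ω; rw [← sq, ind_sq]
  rw [h2] at hP
  have h3 : ∑ S : Finset (HyperedgeSlot n r), fc p (ind f) S * fc p (ind f) S
      = ∑ S, wt p f S := by
    apply Finset.sum_congr rfl; intro S _; unfold wt; ring
  rw [h3] at hP
  have h4 : univ.filter (fun S : Finset (HyperedgeSlot n r) => 1 ≤ (vs S).card)
      = univ.erase ∅ := by
    ext S
    simp only [Finset.mem_filter, Finset.mem_univ, true_and, Finset.mem_erase, and_true]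
    exact one_le_card_vs hr S
  rw [h4]
  have h5 := Finset.add_sum_erase (univ : Finset (Finset (HyperedgeSlot n r))) (wt p f)
    (Finset.mem_univ ∅)
  have h6 : wt p f ∅ = (ex p (ind f)) ^ 2 := by unfold wt; rw [fc_empty]
  rw [probTrue_eq_ex]
  rw [h6] at h5
  linarith

theorem ex_piv_map (p : ℝ) (f : (HyperedgeSlot n r → Bool) → Bool) (hf : IsSymmetric f)
    (σ : Equiv.Perm (Fin n)) (e : HyperedgeSlot n r) :
    ex p (piv f (slotPerm r σ e)) = ex p (piv f e) := by
  rw [← ex_comp_perm p (slotPerm r σ) (piv f e)]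
  congr 1
  ext ω
  unfold piv
  have h : ∀ b, Function.update (ω ∘ slotPerm r σ) e b
      = (Function.update ω (slotPerm r σ e) b) ∘ slotPerm r σ := by
    intro b
    ext e'
    by_cases he : e' = e
    · subst he; simp
    · have : slotPerm r σ e' ≠ slotPerm r σ e := fun hh => he ((slotPerm r σ).injective hh)
      simp [Function.update_of_ne he, Function.update_of_ne this]
  rw [h, h, ← relabel_eq_comp, ← relabel_eq_comp, hf, hf]

/-- **T4e.** the expected number of pivotal slots touching `U` -/
theorem sum_piv_star_le {p : ℝ} (h0 : 0 ≤ p) (h1 : p ≤ 1) (hn : 1 ≤ n)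
    (f : (HyperedgeSlot n r → Bool) → Bool) (hf : IsSymmetric f) (U : Finset (Fin n)) :
    ∑ e ∈ star r U, ex p (piv f e) ≤ (r : ℝ) * totalInfluence p f * U.card / n := by
  -- the sum over the star of a single vertex does not depend on the vertex
  have hnn : ∀ e : HyperedgeSlot n r, 0 ≤ ex p (piv f e) :=
    fun e => ex_nonneg h0 h1 (fun ω => piv_nonneg f e ω)
  have hconst : ∀ x y : Fin n, ∑ e ∈ star r {x}, ex p (piv f e) = ∑ e ∈ star r {y}, ex p (piv f e) := by
    intro x y
    have h := star_map (r := r) (Equiv.swap x y) {x}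
    rw [Finset.map_singleton] at h
    simp only [Equiv.coe_toEmbedding, Equiv.swap_apply_left] at h
    rw [← h, Finset.sum_map]
    apply Finset.sum_congr rfl
    intro e _
    exact (ex_piv_map p f hf (Equiv.swap x y) e).symm
  have hmem : ∀ (x : Fin n) (e : HyperedgeSlot n r), e ∈ star r {x} ↔ x ∈ e.1 := by
    intro x e
    simp [star]
  have htot : ∑ x : Fin n, ∑ e ∈ star r {x}, ex p (piv f e) = r * totalInfluence p f := by
    have : ∀ x : Fin n, ∑ e ∈ star r {x}, ex p (piv f e)
        = ∑ e : HyperedgeSlot n r, if x ∈ e.1 then ex p (piv f e) else 0 := by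
      intro x
      rw [← Finset.sum_filter]
      apply Finset.sum_congr _ (fun _ _ => rfl)
      ext e; simp [hmem]
    simp_rw [this]
    rw [Finset.sum_comm, totalInfluence_eq_ex, Finset.mul_sum]
    apply Finset.sum_congr rfl
    intro e _
    rw [← Finset.sum_filter, Finset.sum_const, nsmul_eq_mul]
    congr 2
    rw [Finset.filter_mem_eq_inter, Finset.univ_inter, e.2]
  have hn' : (0:ℝ) < n := by exact_mod_cast hn
  have hone : ∀ x : Fin n, ∑ e ∈ star r {x}, ex p (piv f e) = r * totalInfluence p f / n := by
    intro x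
    rw [eq_div_iff hn'.ne', ← htot, Finset.sum_congr rfl (fun y _ => hconst y x),
      Finset.sum_const, Finset.card_univ, Fintype.card_fin, nsmul_eq_mul]
    ring
  calc ∑ e ∈ star r U, ex p (piv f e) ≤ ∑ x ∈ U, ∑ e ∈ star r {x}, ex p (piv f e) := by
        have h1 : ∀ x : Fin n, ∑ e ∈ star r {x}, ex p (piv f e)
            = ∑ e : HyperedgeSlot n r, if x ∈ e.1 then ex p (piv f e) else 0 := by
          intro x
          rw [← Finset.sum_filter]
          apply Finset.sum_congr _ (fun _ _ => rfl)
          ext e; simp [hmem]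
        simp_rw [h1]
        rw [Finset.sum_comm]
        unfold star
        rw [Finset.sum_filter]
        apply Finset.sum_le_sum
        intro e _
        by_cases hd : Disjoint e.1 U
        · simp only [hd, not_true_eq_false, if_false]
          apply Finset.sum_nonneg
          intro i _
          split_ifs
          · exact hnn e
          · exact le_refl _
        · simp only [hd, not_false_eq_true, if_true]
          rw [Finset.not_disjoint_iff] at hd
          obtain ⟨x, hx, hxU⟩ := hd
          calc ex p (piv f e) = (if x ∈ e.1 then ex p (piv f e) else 0) := by simp [hx]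
            _ ≤ _ := Finset.single_le_sum (f := fun x => if x ∈ e.1 then ex p (piv f e) else 0)
              (fun i _ => by
                show 0 ≤ (if i ∈ e.1 then ex p (piv f e) else 0)
                split_ifs
                · exact hnn e
                · exact le_refl _) hxU
    _ = (r : ℝ) * totalInfluence p f * U.card / n := by
        rw [Finset.sum_congr rfl (fun x _ => hone x), Finset.sum_const, nsmul_eq_mul]
        ring

/-- Poincaré -/
theorem poincare {p : ℝ} (h0 : 0 < p) (h1 : p < 1)
    (f : (HyperedgeSlot n r → Bool) → Bool) :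
    probTrue p f * (1 - probTrue p f) ≤ p * (1 - p) * totalInfluence p f := by
  have h := ex_sub_av_sq_le h0 h1 univ f
  rw [← totalInfluence_eq_ex, ← ex_av p univ] at h
  have h2 : (av p univ (fun ω => (ind f ω - av p univ (ind f) ω) ^ 2))
      = fun _ => ex p (ind f) * (1 - ex p (ind f)) := by
    ext ω
    have h3 : ∀ η : HyperedgeSlot n r → Bool, av p univ (ind f) η = ex p (ind f) := by
      intro η
      unfold av
      simp
    rw [av_sub_av_sq_bool, h3]
  rw [h2, ex_const, ← probTrue_eq_ex] at h
  exact h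

end Crest.Agent.S0077
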