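import Crest.Agent.S0077_SymCount

/-! Task T4c: properties of `q`. -/

set_option autoImplicit false
open Finset Crest Crest.FinProb Crest.CombinatoricsR.HypergraphCube

namespace Crest.Agent.S0077

variable {n r : ℕ}

theorem qq_zero (p : ℝ) (f : (HyperedgeSlot n r → Bool) → Bool) : qq p f 0 = 0 := by
  unfold qq
  simp

theorem card_filter_lt (m : ℕ) (hm : m ≤ n) :
    (univ.filter (fun x : Fin n => x.val < m)).card = m := by
  have h : (univ.filter (fun x : Fin n => x.val < m)).map Fin.valEmbedding = Finset.range m := by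
    ext y
    simp only [Finset.mem_map, Finset.mem_filter, Finset.mem_univ, true_and, Fin.valEmbedding_apply,
      Finset.mem_range]
    constructor
    · rintro ⟨x, hx, rfl⟩; exact hx
    · intro hy; exact ⟨⟨y, by omega⟩, hy, rfl⟩
  rw [← Finset.card_map Fin.valEmbedding, h, Finset.card_range]

theorem card_filter_Ico (m b : ℕ) (hm : m + b ≤ n) :
    (univ.filter (fun x : Fin n => m ≤ x.val ∧ x.val < m + b)).card = b := by
  have h : (univ.filter (fun x : Fin n => m ≤ x.val ∧ x.val < m + b)).map Fin.valEmbedding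
      = Finset.Ico m (m + b) := by
    ext y
    simp only [Finset.mem_map, Finset.mem_filter, Finset.mem_univ, true_and, Fin.valEmbedding_apply,
      Finset.mem_Ico]
    constructor
    · rintro ⟨x, hx, rfl⟩; exact hx
    · intro hy; exact ⟨⟨y, by omega⟩, hy, rfl⟩
  rw [← Finset.card_map Fin.valEmbedding, h, Nat.card_Ico]
  omega

/-- **T4c.** concavity of `q` -/
theorem qq_conc (p : ℝ) (f : (HyperedgeSlot n r → Bool) → Bool) (hf : IsSymmetric f)
    (m' m b : ℕ) (hm : m' ≤ m) (hb : m + b ≤ n) :
    qq p f (m + b) - qq p f m ≤ qq p f (m' + b) - qq p f m' := by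
  set W : Finset (Fin n) := univ.filter (fun x : Fin n => x.val < m) with hW
  set W' : Finset (Fin n) := univ.filter (fun x : Fin n => x.val < m') with hW'
  set B : Finset (Fin n) := univ.filter (fun x : Fin n => m ≤ x.val ∧ x.val < m + b) with hB
  have cW : W.card = m := card_filter_lt m (by omega)
  have cW' : W'.card = m' := card_filter_lt m' (by omega)
  have cB : B.card = b := card_filter_Ico m b hb
  have dWB : Disjoint W B := by
    rw [Finset.disjoint_left]; intro x hx hx'
    simp only [hW, hB, Finset.mem_filter, Finset.mem_univ, true_and] at hx hx'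
    omega
  have hWW : W' ⊆ W := by
    intro x hx
    simp only [hW, hW', Finset.mem_filter, Finset.mem_univ, true_and] at hx ⊢
    omega
  have dWB' : Disjoint W' B := Finset.disjoint_of_subset_left hWW dWB
  have c1 : (W ∪ B).card = m + b := by rw [Finset.card_union_of_disjoint dWB, cW, cB]
  have c2 : (W' ∪ B).card = m' + b := by rw [Finset.card_union_of_disjoint dWB', cW', cB]
  have t1 := sum_wt_touch p f hf W
  have t2 := sum_wt_touch p f hf W'
  have t3 := sum_wt_touch p f hf (W ∪ B)
  have t4 := sum_wt_touch p f hf (W' ∪ B)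
  rw [cW] at t1
  rw [cW'] at t2
  rw [c1] at t3
  rw [c2] at t4
  rw [← t1, ← t2, ← t3, ← t4]
  simp only [Finset.sum_filter]
  rw [← Finset.sum_sub_distrib, ← Finset.sum_sub_distrib]
  apply Finset.sum_le_sum
  intro S _
  have hnn := wt_nonneg p f S
  simp only [Finset.disjoint_union_right]
  by_cases h1 : Disjoint (vs S) W
  · have h1' : Disjoint (vs S) W' := Finset.disjoint_of_subset_right hWW h1
    simp [h1, h1']
  · by_cases h1' : Disjoint (vs S) W'
    · simp only [h1, h1', false_and, not_false_eq_true, if_true, not_true_eq_false, if_false,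
        true_and, sub_self, sub_zero]
      split_ifs
      · exact le_refl _
      · exact hnn
    · simp [h1, h1']

theorem descFactorial_ineq (N w u : ℕ) (hw : w ≤ N) :
    (N - w).descFactorial u * N ^ u ≤ N.descFactorial u * (N - w) ^ u := by
  induction u with
  | zero => simp
  | succ u ih =>
    rw [Nat.descFactorial_succ, Nat.descFactorial_succ, pow_succ, pow_succ]
    have h : (N - w - u) * N ≤ (N - u) * (N - w) := by
      by_cases h1 : w + u ≤ N
      · obtain ⟨k, rfl⟩ := Nat.exists_eq_add_of_le h1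
        have e1 : w + u + k - w - u = k := by omega
        have e2 : w + u + k - u = w + k := by omega
        have e3 : w + u + k - w = u + k := by omega
        rw [e1, e2, e3]
        nlinarith [Nat.zero_le (w * u)]
      · have : N - w - u = 0 := by omega
        rw [this]; simp
    calc (N - w - u) * (N - w).descFactorial u * (N ^ u * N)
        = ((N - w).descFactorial u * N ^ u) * ((N - w - u) * N) := by ring
      _ ≤ (N.descFactorial u * (N - w) ^ u) * ((N - u) * (N - w)) := Nat.mul_le_mul ih h
      _ = _ := by ring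

theorem choose_ratio_low (N w u : ℕ) (hN : 1 ≤ N) (hw : w ≤ N) (hu : u ≤ N) :
    ((N - w).choose u : ℝ) / (N.choose u : ℝ) ≤ (1 - (w : ℝ) / N) ^ u := by
  have h := descFactorial_ineq N w u hw
  have hN' : (0:ℝ) < N := by exact_mod_cast hN
  have hc : (0:ℝ) < N.choose u := by exact_mod_cast Nat.choose_pos hu
  rw [Nat.descFactorial_eq_factorial_mul_choose, Nat.descFactorial_eq_factorial_mul_choose] at h
  have h2 : (N - w).choose u * N ^ u ≤ N.choose u * (N - w) ^ u := by
    have hf : 0 < u.factorial := Nat.factorial_pos u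
    apply Nat.le_of_mul_le_mul_left _ hf
    calc u.factorial * ((N - w).choose u * N ^ u) = u.factorial * (N - w).choose u * N ^ u := by ring
      _ ≤ _ := h
      _ = _ := by ring
  have h3 : ((N - w).choose u : ℝ) * (N:ℝ) ^ u ≤ (N.choose u : ℝ) * ((N:ℝ) - w) ^ u := by
    have : (((N - w : ℕ) : ℝ)) = (N:ℝ) - w := by push_cast [Nat.cast_sub hw]; ring
    rw [← this]
    exact_mod_cast h2
  have h4 : 1 - (w:ℝ) / N = ((N:ℝ) - w) / N := by field_simp
  rw [h4, div_pow, div_le_div_iff₀ hc (pow_pos hN' u)]
  linarith [h3]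

theorem one_sub_pow_le (x : ℝ) (hx0 : 0 ≤ x) (hx1 : x ≤ 1) (u : ℕ) (hux : u * x ≤ 1) :
    (1 - x) ^ u ≤ 1 - u * x / 2 := by
  have h1 : 1 + (u:ℝ) * x ≤ (1 + x) ^ u := one_add_mul_le_pow (by linarith) u
  have h2 : (1 - x) ^ u * (1 + x) ^ u ≤ 1 := by
    rw [← mul_pow]
    apply pow_le_one₀
    · nlinarith
    · nlinarith [sq_nonneg x]
  have h3 : 0 ≤ (1 - x) ^ u := pow_nonneg (by linarith) u
  have h4 : (0:ℝ) ≤ u * x := mul_nonneg (Nat.cast_nonneg u) hx0
  have h5 : (1 - x) ^ u * (1 + u * x) ≤ 1 := le_trans (mul_le_mul_of_nonneg_left h1 h3) h2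
  nlinarith [mul_nonneg h4 h4]

/-- **T4d.** lower bound for `q(u)` by the mass on sets with many vertices
(`1 - C(n-v,u)/C(n,u) ≥ 1 - (1 - w/n)^u ≥ 1 - 1/(1+uw/n) ≥ uw/(2n)` for `v ≥ w`, `w u ≤ n`). -/
theorem qq_low (p : ℝ) (f : (HyperedgeSlot n r → Bool) → Bool)
    (w u : ℕ) (hn : 1 ≤ n) (hwu : w * u ≤ n) :
    (∑ S ∈ univ.filter (fun S : Finset (HyperedgeSlot n r) => w ≤ (vs S).card), wt p f S)
      * ((w : ℝ) * u / (2 * n)) ≤ qq p f u := by
  unfold qq
  rw [Finset.sum_filter, Finset.sum_mul]
  apply Finset.sum_le_sum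
  intro S _
  have hnn := wt_nonneg p f S
  have hn' : (0:ℝ) < n := by exact_mod_cast hn
  have hv : (vs S).card ≤ n := by simpa using Finset.card_le_univ (vs S)
  have hle : ((n - (vs S).card).choose u : ℝ) / (n.choose u : ℝ) ≤ 1 := by
    apply div_le_one_of_le₀
    · exact_mod_cast Nat.choose_le_choose u (Nat.sub_le n _)
    · positivity
  by_cases hw : w ≤ (vs S).card
  · simp only [hw, if_true]
    apply mul_le_mul_of_nonneg_left _ hnn
    rcases Nat.eq_zero_or_pos w with h0 | h0
    · subst h0; simp; linarith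
    · have hu : u ≤ n := le_trans (Nat.le_mul_of_pos_left u h0) hwu
      have hwn : w ≤ n := le_trans hw hv
      have h1 : ((n - (vs S).card).choose u : ℝ) / (n.choose u : ℝ)
          ≤ ((n - w).choose u : ℝ) / (n.choose u : ℝ) := by
        apply div_le_div_of_nonneg_right _ (by positivity)
        exact_mod_cast Nat.choose_le_choose u (Nat.sub_le_sub_left hw n)
      have h2 := choose_ratio_low n w u hn hwn hu
      have h3 := one_sub_pow_le ((w:ℝ)/n) (by positivity)
        (by rw [div_le_one hn']; exact_mod_cast hwn) u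
        (by rw [mul_div_assoc', div_le_one hn']; exact_mod_cast (by rw [mul_comm]; exact hwu))
      have h4 : (u:ℝ) * ((w:ℝ)/n) / 2 = (w : ℝ) * u / (2 * n) := by field_simp
      linarith
  · simp only [hw, if_false, zero_mul]
    apply mul_nonneg hnn
    linarith

end Crest.Agent.S0077
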