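import Crest.Agent.S0077_Sym

/-! Task T4b: averaging over vertex sets (transitivity of the symmetric group). -/

set_option autoImplicit false
open Finset Crest Crest.FinProb Crest.CombinatoricsR.HypergraphCube

namespace Crest.Agent.S0077

variable {n r : ℕ}

/-- any two finsets of `Fin n` of the same size are related by a permutation -/
theorem exists_perm_map_eq (U U' : Finset (Fin n)) (h : U.card = U'.card) :
    ∃ σ : Equiv.Perm (Fin n), U.map σ.toEmbedding = U' := by
  have e : {x // x ∈ U} ≃ {x // x ∈ U'} := Fintype.equivOfCardEq (by simp [h])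
  have hc : Fintype.card {x // ¬ x ∈ U} = Fintype.card {x // ¬ x ∈ U'} := by
    rw [Fintype.card_subtype_compl, Fintype.card_subtype_compl]
    simp [h]
  have e' : {x // ¬ x ∈ U} ≃ {x // ¬ x ∈ U'} := Fintype.equivOfCardEq hc
  refine ⟨Equiv.subtypeCongr e e', ?_⟩
  apply Finset.eq_of_subset_of_card_le
  · intro y hy
    rw [Finset.mem_map] at hy
    obtain ⟨x, hx, rfl⟩ := hy
    have : (Equiv.subtypeCongr e e') x = e ⟨x, hx⟩ := by
      simp [Equiv.subtypeCongr, Equiv.sumCompl_symm_apply_of_pos hx]
    show (Equiv.subtypeCongr e e') x ∈ U'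
    rw [this]
    exact (e ⟨x, hx⟩).2
  · rw [Finset.card_map, h]

/-- summing a symmetric weight against a statistic of `vs S` -/
theorem sum_wt_map (p : ℝ) (f : (HyperedgeSlot n r → Bool) → Bool) (hf : IsSymmetric f)
    (σ : Equiv.Perm (Fin n)) (Φ : Finset (Fin n) → ℝ) :
    ∑ S, wt p f S * Φ ((vs S).map σ.toEmbedding) = ∑ S, wt p f S * Φ (vs S) := by
  have := Equiv.sum_comp (Equiv.finsetCongr (slotPerm r σ)) (fun S => wt p f S * Φ (vs S))
  rw [← this]
  apply Finset.sum_congr rfl
  intro S _
  simp only [Equiv.finsetCongr_apply]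
  rw [wt_map p f hf, vs_map]

/-- averaging over all `U` of the same size -/
theorem sum_wt_average (p : ℝ) (f : (HyperedgeSlot n r → Bool) → Bool) (hf : IsSymmetric f)
    (Ψ : Finset (Fin n) → Finset (Fin n) → ℝ)
    (hΨ : ∀ (σ : Equiv.Perm (Fin n)) (T U : Finset (Fin n)),
      Ψ (T.map σ.toEmbedding) (U.map σ.toEmbedding) = Ψ T U)
    (U : Finset (Fin n)) :
    (n.choose U.card : ℝ) * ∑ S, wt p f S * Ψ (vs S) U =
      ∑ S, wt p f S * ∑ U' ∈ (univ : Finset (Fin n)).powersetCard U.card, Ψ (vs S) U' := by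
  have h1 : ∀ U' ∈ (univ : Finset (Fin n)).powersetCard U.card,
      ∑ S, wt p f S * Ψ (vs S) U' = ∑ S, wt p f S * Ψ (vs S) U := by
    intro U' hU'
    rw [Finset.mem_powersetCard] at hU'
    obtain ⟨σ, hσ⟩ := exists_perm_map_eq U U' hU'.2.symm
    rw [← hσ, ← sum_wt_map p f hf σ (fun T => Ψ T (U.map σ.toEmbedding))]
    apply Finset.sum_congr rfl
    intro S _
    rw [hΨ]
  simp_rw [Finset.mul_sum (s := (univ : Finset (Fin n)).powersetCard U.card)]
  rw [Finset.sum_comm, Finset.sum_congr rfl h1, Finset.sum_const, Finset.card_powersetCard,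
    Finset.card_univ, Fintype.card_fin, nsmul_eq_mul]

theorem choose_card_pos (U : Finset (Fin n)) : (0:ℝ) < n.choose U.card := by
  have : U.card ≤ n := by simpa using Finset.card_le_univ U
  exact_mod_cast Nat.choose_pos this

/-- number of `u`-subsets disjoint from `T` -/
theorem card_disjoint (T : Finset (Fin n)) (u : ℕ) :
    (((univ : Finset (Fin n)).powersetCard u).filter (fun U => Disjoint T U)).card
      = (n - T.card).choose u := by
  have : ((univ : Finset (Fin n)).powersetCard u).filter (fun U => Disjoint T U)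
      = (Tᶜ).powersetCard u := by
    ext U
    simp only [Finset.mem_filter, Finset.mem_powersetCard, Finset.subset_univ, true_and]
    constructor
    · rintro ⟨h1, h2⟩
      refine ⟨?_, h1⟩
      intro x hx
      rw [Finset.mem_compl]
      exact fun hxT => Finset.disjoint_left.mp h2 hxT hx
    · rintro ⟨h1, h2⟩
      refine ⟨h2, ?_⟩
      rw [Finset.disjoint_left]
      intro x hxT hxU
      exact (Finset.mem_compl.mp (h1 hxU)) hxT
  rw [this, Finset.card_powersetCard, Finset.card_compl, Fintype.card_fin]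

/-- number of `u`-subsets of `T` -/
theorem card_sub (T : Finset (Fin n)) (u : ℕ) :
    (((univ : Finset (Fin n)).powersetCard u).filter (fun U => U ⊆ T)).card
      = T.card.choose u := by
  have : ((univ : Finset (Fin n)).powersetCard u).filter (fun U => U ⊆ T)
      = T.powersetCard u := by
    ext U
    simp only [Finset.mem_filter, Finset.mem_powersetCard, Finset.subset_univ, true_and]
    tauto
  rw [this, Finset.card_powersetCard]

/-- **T4a.** Averaging over all sets `U` of given size (symmetric group is transitive on them):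
the weight of the `S` not touching `U`. -/
theorem sum_wt_touch (p : ℝ) (f : (HyperedgeSlot n r → Bool) → Bool) (hf : IsSymmetric f)
    (U : Finset (Fin n)) :
    ∑ S ∈ univ.filter (fun S => ¬ Disjoint (vs S) U), wt p f S = qq p f U.card := by
  have hpos := choose_card_pos U
  have h := sum_wt_average p f hf (fun T U => if Disjoint T U then 0 else 1)
    (by intro σ T U; simp only [Finset.disjoint_map]) U
  have h1 : ∑ S ∈ univ.filter (fun S => ¬ Disjoint (vs S) U), wt p f S
      = ∑ S, wt p f S * (if Disjoint (vs S) U then 0 else 1) := by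
    rw [Finset.sum_filter]
    apply Finset.sum_congr rfl
    intro S _
    by_cases hd : Disjoint (vs S) U <;> simp [hd]
  have h2 : ∀ S : Finset (HyperedgeSlot n r),
      ∑ U' ∈ (univ : Finset (Fin n)).powersetCard U.card, (if Disjoint (vs S) U' then (0:ℝ) else 1)
        = (n.choose U.card : ℝ) - ((n - (vs S).card).choose U.card : ℝ) := by
    intro S
    have h3 : ∑ U' ∈ (univ : Finset (Fin n)).powersetCard U.card, (if Disjoint (vs S) U' then (0:ℝ) else 1)
        = ∑ U' ∈ (univ : Finset (Fin n)).powersetCard U.card, (1 - (if Disjoint (vs S) U' then (1:ℝ) else 0)) := by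
      apply Finset.sum_congr rfl; intro U' _
      by_cases hd : Disjoint (vs S) U' <;> simp [hd]
    rw [h3, Finset.sum_sub_distrib, Finset.sum_const, Finset.card_powersetCard, Finset.card_univ,
      Fintype.card_fin, Finset.sum_boole, card_disjoint]
    simp
  rw [h1]
  unfold qq
  have h4 : (n.choose U.card : ℝ) * ∑ S, wt p f S * (if Disjoint (vs S) U then 0 else 1)
      = (n.choose U.card : ℝ) * ∑ S, wt p f S * (1 - ((n - (vs S).card).choose U.card : ℝ) / (n.choose U.card : ℝ)) := by
    rw [h, Finset.mul_sum]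
    apply Finset.sum_congr rfl
    intro S _
    rw [h2]
    field_simp
  exact mul_left_cancel₀ hpos.ne' h4

/-- **T4b.** the weight of the `S` covering `J`, truncated to at most `w` vertices -/
theorem sum_wt_cover (p : ℝ) (f : (HyperedgeSlot n r → Bool) → Bool) (hf : IsSymmetric f)
    (w : ℕ) (J : Finset (Fin n)) :
    ∑ S ∈ univ.filter (fun S => (vs S).card ≤ w ∧ J ⊆ vs S), wt p f S =
      ∑ S ∈ univ.filter (fun S : Finset (HyperedgeSlot n r) => (vs S).card ≤ w),
        wt p f S * (((vs S).card.choose J.card : ℝ) / (n.choose J.card : ℝ)) := by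
  have hpos := choose_card_pos J
  have h := sum_wt_average p f hf (fun T U => if T.card ≤ w ∧ U ⊆ T then 1 else 0)
    (by intro σ T U; simp only [Finset.card_map, Finset.map_subset_map]) J
  have h1 : ∑ S ∈ univ.filter (fun S => (vs S).card ≤ w ∧ J ⊆ vs S), wt p f S
      = ∑ S, wt p f S * (if (vs S).card ≤ w ∧ J ⊆ vs S then 1 else 0) := by
    rw [Finset.sum_filter]
    apply Finset.sum_congr rfl
    intro S _
    by_cases hd : (vs S).card ≤ w ∧ J ⊆ vs S <;> simp [hd]
  have h2 : ∀ S : Finset (HyperedgeSlot n r),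
      ∑ U' ∈ (univ : Finset (Fin n)).powersetCard J.card, (if (vs S).card ≤ w ∧ U' ⊆ vs S then (1:ℝ) else 0)
        = if (vs S).card ≤ w then ((vs S).card.choose J.card : ℝ) else 0 := by
    intro S
    by_cases hS : (vs S).card ≤ w
    · simp only [hS, true_and, if_true]
      rw [Finset.sum_boole, card_sub]
    · simp [hS]
  rw [h1]
  have h4 : (n.choose J.card : ℝ) * ∑ S, wt p f S * (if (vs S).card ≤ w ∧ J ⊆ vs S then 1 else 0)
      = (n.choose J.card : ℝ) * ∑ S ∈ univ.filter (fun S : Finset (HyperedgeSlot n r) => (vs S).card ≤ w),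
        wt p f S * (((vs S).card.choose J.card : ℝ) / (n.choose J.card : ℝ)) := by
    rw [h, Finset.mul_sum, Finset.sum_filter]
    apply Finset.sum_congr rfl
    intro S _
    rw [h2]
    by_cases hS : (vs S).card ≤ w
    · simp only [hS, if_true]
      field_simp
    · simp only [hS, if_false, mul_zero]
  exact mul_left_cancel₀ hpos.ne' h4

/-- energy touching `U` in terms of `q` -/
theorem energy_star_eq_qq (p : ℝ) (h0 : 0 < p) (h1 : p < 1)
    (f : (HyperedgeSlot n r → Bool) → Bool) (hf : IsSymmetric f) (U : Finset (Fin n)) :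
    ex p (fun ω => (ind f ω - av p (star r U) (ind f) ω) ^ 2) = qq p f U.card := by
  rw [ex_sub_av_sq h0 h1, ← sum_wt_touch p f hf]
  apply Finset.sum_congr _ (fun _ _ => rfl)
  ext S
  simp [disjoint_star_iff]

/-- `q(1) ≤ r p (1-p) I / n` -/
theorem qq_one_le {p : ℝ} (h0 : 0 < p) (h1 : p < 1) (hn : 1 ≤ n)
    (f : (HyperedgeSlot n r → Bool) → Bool) (hf : IsSymmetric f) :
    qq p f 1 ≤ (r : ℝ) * (p * (1 - p)) * totalInfluence p f / n := by
  have x : Fin n := ⟨0, hn⟩
  have h := energy_star_eq_qq p h0 h1 f hf {x}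
  rw [Finset.card_singleton] at h
  rw [← h]
  have h2 := sum_piv_star_le h0.le h1.le hn f hf {x}
  rw [Finset.card_singleton] at h2
  have h3 := ex_sub_av_sq_le h0 h1 (star r {x}) f
  have h4 : 0 ≤ p * (1 - p) := mul_nonneg h0.le (by linarith)
  calc _ ≤ _ := h3
    _ ≤ p * (1 - p) * ((r : ℝ) * totalInfluence p f * ((1:ℕ):ℝ) / n) :=
      mul_le_mul_of_nonneg_left h2 h4
    _ = _ := by push_cast; ring

end Crest.Agent.S0077
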