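import Crest.Prelude.Def_Polar

set_option autoImplicit false

namespace Crest.Agent.S0094

open Finset

/-- The subcube of points vanishing on `E`. -/
def TE {D s : ℕ} (E : Finset (Fin D)) : Finset (Fin D → Fin (s+1)) :=
  Finset.univ.filter (fun x => ∀ i ∈ E, x i = 0)

lemma mem_TE {D s : ℕ} (E : Finset (Fin D)) (x : Fin D → Fin (s+1)) :
    x ∈ TE E ↔ ∀ i ∈ E, x i = 0 := by simp [TE]

lemma card_TE {D s : ℕ} (E : Finset (Fin D)) :
    (TE (s := s) E).card * (s+1)^E.card = (s+1)^D := by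
  classical
  have h1 : TE (s := s) E = Fintype.piFinset (fun i => if i ∈ E then {0} else Finset.univ) := by
    ext x
    simp only [mem_TE, Fintype.mem_piFinset]
    constructor
    · intro h i
      by_cases hi : i ∈ E
      · simp [hi, h i hi]
      · simp [hi]
    · intro h i hi
      have := h i
      simpa [hi] using this
  rw [h1, Fintype.card_piFinset]
  have h2 : ∀ i, (if i ∈ E then ({0} : Finset (Fin (s+1))) else Finset.univ).card
      = if i ∈ E then 1 else (s+1) := by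
    intro i; split_ifs <;> simp
  simp only [h2]
  have h3 : ((s+1)^E.card : ℕ) = ∏ i : Fin D, if i ∈ E then (s+1) else 1 := by
    rw [Finset.prod_ite_mem, Finset.univ_inter, Finset.prod_const]
  rw [h3, ← Finset.prod_mul_distrib]
  have h4 : ∀ i : Fin D, ((if i ∈ E then 1 else (s+1)) * (if i ∈ E then (s+1) else 1) : ℕ) = s+1 := by
    intro i; split_ifs <;> simp
  simp [h4]

/-- Real form of `card_TE`. -/
lemma card_TE_real {D s : ℕ} (E : Finset (Fin D)) :
    ((TE (s := s) E).card : ℝ) = ((s:ℝ)+1)^D * ((((s:ℝ)+1)^E.card)⁻¹) := by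
  have h := card_TE (s := s) E
  have h' : ((TE (s := s) E).card : ℝ) * ((s:ℝ)+1)^E.card = ((s:ℝ)+1)^D := by exact_mod_cast h
  have hpos : (0:ℝ) < ((s:ℝ)+1)^E.card := by positivity
  field_simp
  linarith

lemma TE_inter {D s : ℕ} (E E' : Finset (Fin D)) :
    TE (s := s) E ∩ TE E' = TE (E ∪ E') := by
  ext x
  simp only [Finset.mem_inter, mem_TE, Finset.mem_union]
  constructor
  · rintro ⟨h1, h2⟩ i (hi | hi)
    · exact h1 i hi
    · exact h2 i hi
  · intro h
    exact ⟨fun i hi => h i (Or.inl hi), fun i hi => h i (Or.inr hi)⟩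

lemma card_disjoint_family {D s l : ℕ} (J : Finset (Fin D → Fin (s+1)))
    (hJ : 2 * J.card ≤ (s+1)^D) (F : Finset (Finset (Fin D)))
    (hF1 : ∀ E ∈ F, E.card ≤ l) (hF2 : ∀ E ∈ F, TE E ⊆ J)
    (hF3 : ∀ E ∈ F, ∀ E' ∈ F, E ≠ E' → Disjoint E E') :
    F.card ≤ (s+1)^l := by
  classical
  set w : Finset (Fin D) → ℝ := fun E => (((s:ℝ)+1)^E.card)⁻¹ with hw
  set W : ℝ := ∑ E ∈ F, w E with hW
  set N : ℝ := ((s:ℝ)+1)^D with hN
  have hNpos : 0 < N := by positivity
  have hwpos : ∀ E, 0 < w E := fun E => by positivity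
  set Z : (Fin D → Fin (s+1)) → ℝ := fun x => ∑ E ∈ F, if x ∈ TE E then (1:ℝ) else 0 with hZ
  have hZsum : ∑ x ∈ J, Z x = N * W := by
    rw [hZ]
    simp only
    rw [Finset.sum_comm, hW, Finset.mul_sum]
    refine Finset.sum_congr rfl (fun E hE => ?_)
    rw [Finset.sum_ite_mem, Finset.inter_eq_right.mpr (hF2 E hE)]
    simp only [Finset.sum_const, nsmul_eq_mul, mul_one]
    exact card_TE_real E
  have hZsq : ∑ x ∈ J, Z x ^ 2 ≤ N * (W ^ 2 + W) := by
    have h1 : ∀ x, Z x ^ 2 = ∑ E ∈ F, ∑ E' ∈ F, if x ∈ TE E ∩ TE E' then (1:ℝ) else 0 := by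
      intro x
      rw [hZ, sq]
      simp only
      rw [Finset.sum_mul_sum]
      refine Finset.sum_congr rfl (fun E _ => Finset.sum_congr rfl (fun E' _ => ?_))
      by_cases h1 : x ∈ TE E <;> by_cases h2 : x ∈ TE E' <;> simp [h1, h2]
    simp only [h1]
    rw [Finset.sum_comm]
    have h2 : ∀ E ∈ F, ∑ x ∈ J, ∑ E' ∈ F, (if x ∈ TE E ∩ TE E' then (1:ℝ) else 0)
        ≤ N * (w E * W + w E) := by
      intro E hE
      rw [Finset.sum_comm]
      have h3 : ∀ E' ∈ F, ∑ x ∈ J, (if x ∈ TE E ∩ TE E' then (1:ℝ) else 0)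
          ≤ N * (w E * w E' + if E = E' then w E else 0) := by
        intro E' hE'
        rw [Finset.sum_ite_mem]
        have hsub : J ∩ (TE E ∩ TE E') = TE E ∩ TE E' :=
          Finset.inter_eq_right.mpr ((Finset.inter_subset_left).trans (hF2 E hE))
        rw [hsub, TE_inter]
        simp only [Finset.sum_const, nsmul_eq_mul, mul_one]
        rw [card_TE_real]
        by_cases hEE : E = E'
        · subst hEE
          simp only [Finset.union_idempotent, if_true]
          have := hwpos E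
          apply mul_le_mul_of_nonneg_left _ hNpos.le
          have : 0 ≤ w E * w E := by positivity
          change w E ≤ _
          linarith
        · rw [if_neg hEE, add_zero, Finset.card_union_of_disjoint (hF3 E hE E' hE' hEE), pow_add,
            mul_inv]
      calc _ ≤ ∑ E' ∈ F, N * (w E * w E' + if E = E' then w E else 0) := Finset.sum_le_sum h3
        _ = N * (w E * W + w E) := by
          rw [← Finset.mul_sum, Finset.sum_add_distrib, ← Finset.mul_sum, Finset.sum_ite_eq,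
            if_pos hE]
    calc _ ≤ ∑ E ∈ F, N * (w E * W + w E) := Finset.sum_le_sum h2
      _ = N * (W ^ 2 + W) := by
        rw [← Finset.mul_sum, Finset.sum_add_distrib, ← Finset.sum_mul]
        ring
  have hCS : (∑ x ∈ J, Z x) ^ 2 ≤ J.card * ∑ x ∈ J, Z x ^ 2 := sq_sum_le_card_mul_sum_sq
  have hJ' : 2 * (J.card : ℝ) ≤ N := by rw [hN]; exact_mod_cast hJ
  have hW0 : 0 ≤ W := Finset.sum_nonneg (fun E _ => (hwpos E).le)
  have hWle : W ≤ 1 := by
    rw [hZsum] at hCS
    have h5 : (N * W)^2 ≤ (N / 2) * (N * (W^2 + W)) := by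
      refine hCS.trans ?_
      apply mul_le_mul (by linarith) hZsq (Finset.sum_nonneg (fun x _ => sq_nonneg _)) (by positivity)
    by_contra hcon
    rw [not_le] at hcon
    have h6 : (N*W)^2 - (N/2) * (N * (W^2 + W)) = N^2 / 2 * (W * (W - 1)) := by ring
    have h7 : 0 < N^2/2 * (W * (W-1)) := by
      apply mul_pos (by positivity)
      apply mul_pos (by linarith) (by linarith)
    linarith
  have h8 : (F.card : ℝ) * (((s:ℝ)+1)^l)⁻¹ ≤ W := by
    rw [hW, ← nsmul_eq_mul]
    apply Finset.card_nsmul_le_sum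
    intro E hE
    rw [hw]
    simp only
    apply inv_anti₀ (by positivity)
    exact pow_le_pow_right₀ (by linarith [(Nat.cast_nonneg s : (0:ℝ) ≤ s)]) (hF1 E hE)
  have h9 : (F.card : ℝ) ≤ ((s:ℝ)+1)^l := by
    have hp : (0:ℝ) < ((s:ℝ)+1)^l := by positivity
    have := h8.trans hWle
    rwa [← div_eq_mul_inv, div_le_one hp] at this
  exact_mod_cast h9

/-- For each small set `J` there is a small set `V` of coordinates such that no subcube of
codimension at most `l` avoiding the coordinates in `V` is contained in `J`. -/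
lemma exists_V (D s l : ℕ) (J : Finset (Fin D → Fin (s+1))) :
    ∃ V : Finset (Fin D), V.card ≤ l * (s+1)^l ∧
      (2 * J.card ≤ (s+1)^D → ∀ E : Finset (Fin D), E.card ≤ l → Disjoint E V → ¬ TE E ⊆ J) := by
  classical
  by_cases hJ : 2 * J.card ≤ (s+1)^D
  swap
  · exact ⟨∅, by simp, fun h => absurd h hJ⟩
  -- families
  let P : Finset (Finset (Finset (Fin D))) :=
    Finset.univ.filter (fun F => (∀ E ∈ F, E.card ≤ l) ∧ (∀ E ∈ F, TE E ⊆ J) ∧
      (∀ E ∈ F, ∀ E' ∈ F, E ≠ E' → Disjoint E E'))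
  have hPne : P.Nonempty := ⟨∅, by simp [P]⟩
  obtain ⟨F, hFP, hFmax⟩ := Finset.exists_max_image P Finset.card hPne
  have hF : (∀ E ∈ F, E.card ≤ l) ∧ (∀ E ∈ F, TE E ⊆ J) ∧
      (∀ E ∈ F, ∀ E' ∈ F, E ≠ E' → Disjoint E E') := by simpa [P] using hFP
  obtain ⟨hF1, hF2, hF3⟩ := hF
  refine ⟨F.biUnion id, ?_, ?_⟩
  · calc (F.biUnion id).card ≤ ∑ E ∈ F, E.card := Finset.card_biUnion_le
      _ ≤ F.card * l := by
        have := Finset.sum_le_card_nsmul F Finset.card l hF1
        simpa using this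
      _ ≤ (s+1)^l * l := Nat.mul_le_mul_right _ (card_disjoint_family J hJ F hF1 hF2 hF3)
      _ = l * (s+1)^l := Nat.mul_comm _ _
  · intro _ E hE hdisj hsub
    -- E is nonempty
    have hEne : E ≠ ∅ := by
      intro h
      subst h
      have h1 : TE (s := s) (∅ : Finset (Fin D)) = Finset.univ := by
        ext x; simp [mem_TE]
      rw [h1] at hsub
      have h2 : (Finset.univ : Finset (Fin D → Fin (s+1))).card ≤ J.card := Finset.card_le_card hsub
      have h3 : (Finset.univ : Finset (Fin D → Fin (s+1))).card = (s+1)^D := by simp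
      have h4 : 0 < (s+1)^D := by positivity
      omega
    have hdisj' : ∀ E' ∈ F, Disjoint E E' := by
      intro E' hE'
      rw [Finset.disjoint_biUnion_right] at hdisj
      exact hdisj E' hE'
    have hEF : E ∉ F := by
      intro h
      have := hdisj' E h
      rw [disjoint_self] at this
      exact hEne this
    have hmem : insert E F ∈ P := by
      simp only [P, Finset.mem_filter, Finset.mem_univ, true_and]
      refine ⟨?_, ?_, ?_⟩
      · intro E' hE'
        rcases Finset.mem_insert.mp hE' with rfl | h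
        · exact hE
        · exact hF1 _ h
      · intro E' hE'
        rcases Finset.mem_insert.mp hE' with rfl | h
        · exact hsub
        · exact hF2 _ h
      · intro E₁ h₁ E₂ h₂ hne
        rcases Finset.mem_insert.mp h₁ with h₁' | h₁'
        · rcases Finset.mem_insert.mp h₂ with h₂' | h₂'
          · exact absurd (h₁'.trans h₂'.symm) hne
          · rw [h₁']; exact hdisj' _ h₂'
        · rcases Finset.mem_insert.mp h₂ with h₂' | h₂'
          · rw [h₂']; exact (hdisj' _ h₁').symm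
          · exact hF3 _ h₁' _ h₂' hne
    have := hFmax _ hmem
    rw [Finset.card_insert_of_notMem hEF] at this
    omega


/-- Levels `0, 1, 4, 13, …`. -/
def tt : ℕ → ℕ
  | 0 => 0
  | (j+1) => 3 * tt j + 1

lemma tt_mono : Monotone tt := by
  apply monotone_nat_of_le_succ
  intro n
  simp only [tt]
  omega

abbrev XX (D s : ℕ) := Fin D → Fin (s+1)
abbrev UU (D s m : ℕ) := XX D s → Fin m
abbrev PT (D s m : ℕ) := Finset (XX D s) × UU D s m

section Balls

variable {D s m : ℕ} (V : Finset (XX D s) → Finset (Fin D))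

/-- The ball relation: `u` and `pt.2` agree on a subcube of codimension at most `t`, outside `pt.1`. -/
def Bal (t : ℕ) (u : UU D s m) (pt : PT D s m) : Prop :=
  ∃ E : Finset (Fin D), E.card ≤ t ∧ Disjoint E (V pt.1) ∧ ∀ x ∈ TE E, x ∉ pt.1 → u x = pt.2 x

/-- Agreement of `u` and `w`, tested only where the coordinate `i` is `0`. -/
def Agr (i : Fin D) (t : ℕ) (u w : UU D s m) (J : Finset (XX D s)) : Prop :=
  ∃ E : Finset (Fin D), E.card ≤ 2*t+1 ∧ i ∈ E ∧ Disjoint E (V J) ∧ ∀ x ∈ TE E, x ∉ J → u x = w x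

variable {V}

lemma Bal.mono {t t' : ℕ} (h : t ≤ t') {u : UU D s m} {pt : PT D s m} (hb : Bal V t u pt) :
    Bal V t' u pt := by
  obtain ⟨E, h1, h2, h3⟩ := hb
  exact ⟨E, h1.trans h, h2, h3⟩

lemma agr_of_bal {t : ℕ} {u w : UU D s m} {pt : PT D s m} {i : Fin D}
    (hu : Bal V t u pt) (hw : Bal V t w pt) (hi : i ∉ V pt.1) : Agr V i t u w pt.1 := by
  classical
  obtain ⟨E, h1, h2, h3⟩ := hu
  obtain ⟨E', h1', h2', h3'⟩ := hw
  refine ⟨insert i (E ∪ E'), ?_, Finset.mem_insert_self _ _, ?_, ?_⟩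
  · have := Finset.card_insert_le i (E ∪ E')
    have := Finset.card_union_le E E'
    omega
  · rw [Finset.disjoint_insert_left]
    refine ⟨hi, ?_⟩
    rw [Finset.disjoint_union_left]
    exact ⟨h2, h2'⟩
  · intro x hx hxJ
    rw [mem_TE] at hx
    rw [h3 x _ hxJ, h3' x _ hxJ]
    · rw [mem_TE]
      intro k hk
      exact hx k (Finset.mem_insert_of_mem (Finset.mem_union_right _ hk))
    · rw [mem_TE]
      intro k hk
      exact hx k (Finset.mem_insert_of_mem (Finset.mem_union_left _ hk))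

lemma bal_of_agr {t : ℕ} {u w : UU D s m} {pt : PT D s m} {i : Fin D}
    (hw : Bal V t w pt) (ha : Agr V i t u w pt.1) : Bal V (3*t+1) u pt := by
  classical
  obtain ⟨E, h1, h2, h3⟩ := hw
  obtain ⟨E', h1', _, h2', h3'⟩ := ha
  refine ⟨E ∪ E', ?_, ?_, ?_⟩
  · have := Finset.card_union_le E E'
    omega
  · rw [Finset.disjoint_union_left]
    exact ⟨h2, h2'⟩
  · intro x hx hxJ
    rw [mem_TE] at hx
    rw [h3' x _ hxJ, h3 x _ hxJ]
    · rw [mem_TE]
      intro k hk
      exact hx k (Finset.mem_union_left _ hk)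
    · rw [mem_TE]
      intro k hk
      exact hx k (Finset.mem_union_right _ hk)

lemma agr_congr {t : ℕ} {u w w' : UU D s m} {J : Finset (XX D s)} {i : Fin D}
    (h : ∀ x : XX D s, x i = 0 → w x = w' x) : Agr V i t u w J ↔ Agr V i t u w' J := by
  unfold Agr
  constructor
  · rintro ⟨E, h1, h2, h3, h4⟩
    exact ⟨E, h1, h2, h3, fun x hx hxJ => (h4 x hx hxJ).trans (h x ((mem_TE E x).mp hx i h2))⟩
  · rintro ⟨E, h1, h2, h3, h4⟩
    exact ⟨E, h1, h2, h3, fun x hx hxJ => (h4 x hx hxJ).trans (h x ((mem_TE E x).mp hx i h2)).symm⟩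

open Classical in
variable (V) in
/-- The class of functions. -/
noncomputable def ff (R : ℕ) (u : UU D s m) (pt : PT D s m) : ℝ :=
  (R:ℝ)⁻¹ * ∑ j ∈ Finset.range R, if Bal V (tt j) u pt then 1 else 0

open Classical in
variable (V) in
/-- The estimator. -/
noncomputable def est (R : ℕ) (i : Fin D) (w : ℕ → Fin R → UU D s m) (κ : Fin R → Fin R → Bool)
    (u : UU D s m) (J : Finset (XX D s)) : ℝ :=
  (R:ℝ)⁻¹ * ∑ j : Fin R, if ∃ r : Fin R, κ j r = true ∧ Agr V i (tt j) u (w j r) J then 1 else 0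

open Classical in
variable (V) in
noncomputable def kap (R : ℕ) (w : ℕ → Fin R → UU D s m) (pt : PT D s m) : Fin R → Fin R → Bool :=
  fun j r => decide (Bal V (tt j) (w j r) pt)

open Classical in
variable (V) in
/-- The exceptional indicator. -/
noncomputable def exc (t : ℕ) {R : ℕ} (w : Fin R → UU D s m) (u : UU D s m) (pt : PT D s m) : ℝ :=
  if Bal V t u pt ∧ ¬ ∃ r : Fin R, Bal V t (w r) pt then 1 else 0

lemma est_nonneg (R : ℕ) (i : Fin D) (w : ℕ → Fin R → UU D s m) (κ : Fin R → Fin R → Bool)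
    (u : UU D s m) (J : Finset (XX D s)) : 0 ≤ est V R i w κ u J := by
  unfold est
  apply mul_nonneg (by positivity)
  apply Finset.sum_nonneg
  intro j _
  split_ifs <;> norm_num

lemma est_le_one (R : ℕ) (i : Fin D) (w : ℕ → Fin R → UU D s m) (κ : Fin R → Fin R → Bool)
    (u : UU D s m) (J : Finset (XX D s)) : est V R i w κ u J ≤ 1 := by
  unfold est
  rcases Nat.eq_zero_or_pos R with h | h
  · subst h; simp
  · have hR : (0:ℝ) < R := by exact_mod_cast h
    rw [inv_mul_le_iff₀ hR, mul_one]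
    calc _ ≤ ∑ j : Fin R, (1:ℝ) := by
          apply Finset.sum_le_sum
          intro j _
          split_ifs <;> norm_num
      _ = R := by simp

lemma ff_nonneg (R : ℕ) (u : UU D s m) (pt : PT D s m) : 0 ≤ ff V R u pt := by
  unfold ff
  apply mul_nonneg (by positivity)
  apply Finset.sum_nonneg
  intro j _
  split_ifs <;> norm_num

lemma ff_le_one (R : ℕ) (u : UU D s m) (pt : PT D s m) : ff V R u pt ≤ 1 := by
  unfold ff
  rcases Nat.eq_zero_or_pos R with h | h
  · subst h; simp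
  · have hR : (0:ℝ) < R := by exact_mod_cast h
    rw [inv_mul_le_iff₀ hR, mul_one]
    calc _ ≤ ∑ j ∈ Finset.range R, (1:ℝ) := by
          apply Finset.sum_le_sum
          intro j _
          split_ifs <;> norm_num
      _ = R := by simp

lemma est_congr (R : ℕ) (i : Fin D) (w w' : ℕ → Fin R → UU D s m) (κ : Fin R → Fin R → Bool)
    (u : UU D s m) (J : Finset (XX D s))
    (h : ∀ (j : ℕ), j < R → ∀ (r : Fin R) (x : XX D s), x i = 0 → w j r x = w' j r x) :
    est V R i w κ u J = est V R i w' κ u J := by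
  unfold est
  congr 1
  refine Finset.sum_congr rfl (fun j _ => ?_)
  have : (∃ r : Fin R, κ j r = true ∧ Agr V i (tt j) u (w j r) J) ↔
      (∃ r : Fin R, κ j r = true ∧ Agr V i (tt j) u (w' j r) J) := by
    apply exists_congr
    intro r
    rw [agr_congr (h j j.2 r)]
  by_cases h1 : ∃ r : Fin R, κ j r = true ∧ Agr V i (tt j) u (w j r) J
  · rw [if_pos h1, if_pos (this.mp h1)]
  · rw [if_neg h1, if_neg (fun h2 => h1 (this.mpr h2))]

/-- Pointwise comparison of the function and the estimator. -/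
lemma pointwise (R : ℕ) (i : Fin D) (w : ℕ → Fin R → UU D s m)
    (u : UU D s m) (pt : PT D s m) (hi : i ∉ V pt.1) :
    |ff V R u pt - est V R i w (kap V R w pt) u pt.1| ≤
      (R:ℝ)⁻¹ + (R:ℝ)⁻¹ * ∑ j ∈ Finset.range R, exc V (tt j) (w j) u pt := by
  classical
  set a : ℕ → ℝ := fun j => if Bal V (tt j) u pt then 1 else 0 with ha
  set e : ℕ → ℝ := fun j => if ∃ r : Fin R, Bal V (tt j) (w j r) pt ∧ Agr V i (tt j) u (w j r) pt.1
    then 1 else 0 with he
  have hest : est V R i w (kap V R w pt) u pt.1 = (R:ℝ)⁻¹ * ∑ j ∈ Finset.range R, e j := by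
    unfold est
    congr 1
    rw [Finset.sum_range]
    refine Finset.sum_congr rfl (fun j _ => ?_)
    simp [kap, he]
  have hff : ff V R u pt = (R:ℝ)⁻¹ * ∑ j ∈ Finset.range R, a j := by
    unfold ff
    congr 1
  have h1 : ∀ j, a j ≤ e j + exc V (tt j) (w j) u pt := by
    intro j
    simp only [ha, he, exc]
    by_cases hb : Bal V (tt j) u pt
    · by_cases hr : ∃ r : Fin R, Bal V (tt j) (w j r) pt
      · obtain ⟨r, hr⟩ := hr
        have : ∃ r : Fin R, Bal V (tt j) (w j r) pt ∧ Agr V i (tt j) u (w j r) pt.1 :=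
          ⟨r, hr, agr_of_bal hb hr hi⟩
        rw [if_pos hb, if_pos this]
        have : (0:ℝ) ≤ if Bal V (tt j) u pt ∧ ¬ ∃ r : Fin R, Bal V (tt j) (w j r) pt then 1 else 0 := by
          split_ifs <;> norm_num
        linarith
      · rw [if_pos hb, if_pos (show Bal V (tt j) u pt ∧ _ from ⟨hb, hr⟩)]
        have : (0:ℝ) ≤ if ∃ r : Fin R, Bal V (tt j) (w j r) pt ∧ Agr V i (tt j) u (w j r) pt.1
          then 1 else 0 := by
          split_ifs <;> norm_num
        linarith
    · rw [if_neg hb]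
      have h2 : (0:ℝ) ≤ if ∃ r : Fin R, Bal V (tt j) (w j r) pt ∧ Agr V i (tt j) u (w j r) pt.1
          then 1 else 0 := by
          split_ifs <;> norm_num
      have h3 : (0:ℝ) ≤ if Bal V (tt j) u pt ∧ ¬ ∃ r : Fin R, Bal V (tt j) (w j r) pt then 1 else 0 := by
          split_ifs <;> norm_num
      linarith
  have h2 : ∀ j, e j ≤ a (j+1) := by
    intro j
    simp only [ha, he]
    by_cases hr : ∃ r : Fin R, Bal V (tt j) (w j r) pt ∧ Agr V i (tt j) u (w j r) pt.1
    · rw [if_pos hr]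
      obtain ⟨r, hr1, hr2⟩ := hr
      have : Bal V (tt (j+1)) u pt := bal_of_agr hr1 hr2
      rw [if_pos this]
    · rw [if_neg hr]
      split_ifs <;> norm_num
  have ha0 : ∀ j, 0 ≤ a j := by
    intro j; simp only [ha]; split_ifs <;> norm_num
  have ha1 : ∀ j, a j ≤ 1 := by
    intro j; simp only [ha]; split_ifs <;> norm_num
  have hex0 : ∀ j, 0 ≤ exc V (tt j) (w j) u pt := by
    intro j; simp only [exc]; split_ifs <;> norm_num
  have h3 : ∑ j ∈ Finset.range R, a j ≤ ∑ j ∈ Finset.range R, e j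
      + ∑ j ∈ Finset.range R, exc V (tt j) (w j) u pt := by
    rw [← Finset.sum_add_distrib]
    exact Finset.sum_le_sum (fun j _ => h1 j)
  have h4 : ∑ j ∈ Finset.range R, e j ≤ ∑ j ∈ Finset.range R, a j + 1 := by
    calc ∑ j ∈ Finset.range R, e j ≤ ∑ j ∈ Finset.range R, a (j+1) :=
          Finset.sum_le_sum (fun j _ => h2 j)
      _ ≤ ∑ j ∈ Finset.range R, a (j+1) + a 0 := by linarith [ha0 0]
      _ = ∑ j ∈ Finset.range (R+1), a j := (Finset.sum_range_succ' a R).symm
      _ = ∑ j ∈ Finset.range R, a j + a R := Finset.sum_range_succ a R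
      _ ≤ ∑ j ∈ Finset.range R, a j + 1 := by linarith [ha1 R]
  have h5 : 0 ≤ ∑ j ∈ Finset.range R, exc V (tt j) (w j) u pt :=
    Finset.sum_nonneg (fun j _ => hex0 j)
  rw [hest, hff, ← mul_sub, abs_mul, abs_of_nonneg (by positivity : (0:ℝ) ≤ (R:ℝ)⁻¹)]
  have h6 : (R:ℝ)⁻¹ + (R:ℝ)⁻¹ * ∑ j ∈ Finset.range R, exc V (tt j) (w j) u pt
      = (R:ℝ)⁻¹ * (1 + ∑ j ∈ Finset.range R, exc V (tt j) (w j) u pt) := by ring
  rw [h6]
  apply mul_le_mul_of_nonneg_left _ (by positivity)
  rw [abs_le]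
  constructor <;> linarith


lemma exc_nonneg (t : ℕ) {R : ℕ} (w : Fin R → UU D s m) (u : UU D s m) (pt : PT D s m) :
    0 ≤ exc V t w u pt := by
  unfold exc; split_ifs <;> norm_num

/-- Greedy choice of centres. -/
lemma greedy (hm : 0 < m) (t : ℕ) {R : ℕ} (hR : 0 < R)
    (ν : PT D s m → ℝ) (hν : ∀ p, 0 ≤ ν p) (hν1 : ∑ p, ν p ≤ 1) :
    ∃ w : Fin R → UU D s m, ∀ u, ∑ pt, ν pt * exc V t w u pt ≤ (R:ℝ)⁻¹ := by
  classical
  have hR' : (0:ℝ) < R := by exact_mod_cast hR
  let cov : Finset (UU D s m) → ℝ := fun U => ∑ pt, ν pt * (if ∃ u' ∈ U, Bal V t u' pt then 1 else 0)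
  have hcov1 : ∀ U, cov U ≤ 1 := by
    intro U
    refine le_trans (Finset.sum_le_sum (fun pt _ => ?_)) hν1
    have := hν pt
    split_ifs
    · simp
    · simpa using this
  let P : Finset (Finset (UU D s m)) := Finset.univ.filter (fun U => (U.card : ℝ) ≤ R * cov U)
  have hPne : P.Nonempty := ⟨∅, by simp [P, cov]⟩
  obtain ⟨U, hUP, hUmax⟩ := Finset.exists_max_image P Finset.card hPne
  have hU : (U.card : ℝ) ≤ R * cov U := by simpa [P] using hUP
  have hUR : U.card ≤ R := by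
    have : (U.card : ℝ) ≤ R := hU.trans (by nlinarith [hcov1 U])
    exact_mod_cast this
  -- maximality
  have hkey : ∀ u, ∑ pt, ν pt * (if Bal V t u pt ∧ ¬ ∃ u' ∈ U, Bal V t u' pt then 1 else 0)
      ≤ (R:ℝ)⁻¹ := by
    intro u
    by_contra hcon
    rw [not_le] at hcon
    have huU : u ∉ U := by
      intro hu
      have : ∑ pt, ν pt * (if Bal V t u pt ∧ ¬ ∃ u' ∈ U, Bal V t u' pt then (1:ℝ) else 0) = 0 := by
        apply Finset.sum_eq_zero
        intro pt _
        rw [if_neg]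
        · simp
        · rintro ⟨h1, h2⟩
          exact h2 ⟨u, hu, h1⟩
      rw [this] at hcon
      have : (0:ℝ) < (R:ℝ)⁻¹ := by positivity
      linarith
    have hins : cov (insert u U) = cov U +
        ∑ pt, ν pt * (if Bal V t u pt ∧ ¬ ∃ u' ∈ U, Bal V t u' pt then 1 else 0) := by
      simp only [cov]
      rw [← Finset.sum_add_distrib]
      refine Finset.sum_congr rfl (fun pt _ => ?_)
      rw [← mul_add]
      congr 1
      by_cases h1 : ∃ u' ∈ U, Bal V t u' pt
      · have h2 : ∃ u' ∈ insert u U, Bal V t u' pt := by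
          obtain ⟨u', h, h'⟩ := h1
          exact ⟨u', Finset.mem_insert_of_mem h, h'⟩
        rw [if_pos h1, if_pos h2, if_neg (fun h => h.2 h1)]
        norm_num
      · by_cases h3 : Bal V t u pt
        · have h2 : ∃ u' ∈ insert u U, Bal V t u' pt := ⟨u, Finset.mem_insert_self _ _, h3⟩
          rw [if_neg h1, if_pos h2, if_pos ⟨h3, h1⟩]
          norm_num
        · have h2 : ¬ ∃ u' ∈ insert u U, Bal V t u' pt := by
            rintro ⟨u', h, h'⟩
            rcases Finset.mem_insert.mp h with rfl | h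
            · exact h3 h'
            · exact h1 ⟨u', h, h'⟩
          rw [if_neg h1, if_neg h2, if_neg (fun h => h3 h.1)]
          norm_num
    have hmem : insert u U ∈ P := by
      simp only [P, Finset.mem_filter, Finset.mem_univ, true_and]
      rw [Finset.card_insert_of_notMem huU, hins]
      push_cast
      have : R * (R:ℝ)⁻¹ = 1 := mul_inv_cancel₀ hR'.ne'
      nlinarith
    have := hUmax _ hmem
    rw [Finset.card_insert_of_notMem huU] at this
    omega
  -- enumerate U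
  have : Nonempty (UU D s m) := ⟨fun _ => ⟨0, hm⟩⟩
  let d : UU D s m := Classical.arbitrary _
  refine ⟨fun r => U.toList.getD r d, fun u => ?_⟩
  refine le_trans (Finset.sum_le_sum (fun pt _ => ?_)) (hkey u)
  apply mul_le_mul_of_nonneg_left _ (hν pt)
  unfold exc
  by_cases h : Bal V t u pt ∧ ¬ ∃ r : Fin R, Bal V t (U.toList.getD r d) pt
  · rw [if_pos h, if_pos]
    refine ⟨h.1, ?_⟩
    rintro ⟨u', hu', hb⟩
    apply h.2
    have : u' ∈ U.toList := Finset.mem_toList.mpr hu'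
    obtain ⟨k, hk, hk'⟩ := List.getElem_of_mem this
    have hk2 : k < R := by
      rw [Finset.length_toList] at hk
      omega
    refine ⟨⟨k, hk2⟩, ?_⟩
    simp only
    rw [List.getD_eq_getElem _ _ hk, hk']
    exact hb
  · rw [if_neg h]
    split_ifs <;> norm_num

lemma choose_i {v R : ℕ} (hR : 0 < R) (hD : 0 < D) (hV : ∀ J, (V J).card ≤ v) (hvD : R * v ≤ D)
    (ν : PT D s m → ℝ) (hν : ∀ p, 0 ≤ ν p) (hν1 : ∑ p, ν p ≤ 1) :
    ∃ i : Fin D, ∑ pt : PT D s m, ν pt * (if i ∈ V pt.1 then 1 else 0) ≤ (R:ℝ)⁻¹ := by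
  classical
  have hR' : (0:ℝ) < R := by exact_mod_cast hR
  have : Nonempty (Fin D) := ⟨⟨0, hD⟩⟩
  have h : ∑ i : Fin D, ∑ pt : PT D s m, ν pt * (if i ∈ V pt.1 then (1:ℝ) else 0) ≤
      ∑ i : Fin D, (R:ℝ)⁻¹ := by
    rw [Finset.sum_comm]
    have h1 : ∀ pt : PT D s m, ∑ i : Fin D, ν pt * (if i ∈ V pt.1 then (1:ℝ) else 0) ≤ ν pt * v := by
      intro pt
      rw [← Finset.mul_sum]
      apply mul_le_mul_of_nonneg_left _ (hν pt)
      rw [Finset.sum_ite_mem, Finset.univ_inter]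
      simp only [Finset.sum_const, nsmul_eq_mul, mul_one]
      exact_mod_cast hV pt.1
    calc _ ≤ ∑ pt : PT D s m, ν pt * v := Finset.sum_le_sum (fun pt _ => h1 pt)
      _ = (∑ pt, ν pt) * v := by rw [Finset.sum_mul]
      _ ≤ 1 * v := mul_le_mul_of_nonneg_right hν1 (by positivity)
      _ = v := one_mul _
      _ ≤ D * (R:ℝ)⁻¹ := by
        rw [← div_eq_mul_inv, le_div_iff₀ hR']
        have : ((R * v : ℕ) : ℝ) ≤ D := by exact_mod_cast hvD
        push_cast at this
        linarith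
      _ = _ := by simp
  obtain ⟨i, _, hi⟩ := Finset.exists_le_of_sum_le Finset.univ_nonempty h
  exact ⟨i, hi⟩

lemma approx (hm : 0 < m) {v R : ℕ} (hR : 0 < R) (hD : 0 < D) (hV : ∀ J, (V J).card ≤ v)
    (hvD : R * v ≤ D) (μ : PT D s m → ℝ) (hμ : ∑ p, |μ p| ≤ 1) :
    ∃ (i : Fin D) (w : ℕ → Fin R → UU D s m), ∀ u,
      |∑ pt, μ pt * ff V R u pt - ∑ pt, μ pt * est V R i w (kap V R w pt) u pt.1| ≤
        3 * (R:ℝ)⁻¹ := by
  classical
  have hR' : (0:ℝ) < R := by exact_mod_cast hR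
  obtain ⟨i, hi⟩ := choose_i (s := s) (m := m) hR hD hV hvD (fun p => |μ p|) (fun p => abs_nonneg _) hμ
  choose w hw using fun j : ℕ => greedy (V := V) hm (tt j) hR (fun p => |μ p|) (fun p => abs_nonneg _) hμ
  refine ⟨i, w, fun u => ?_⟩
  rw [← Finset.sum_sub_distrib]
  have h1 : ∀ pt : PT D s m, |μ pt * ff V R u pt - μ pt * est V R i w (kap V R w pt) u pt.1| ≤
      |μ pt| * (R:ℝ)⁻¹ + |μ pt| * (if i ∈ V pt.1 then 1 else 0)
        + (R:ℝ)⁻¹ * ∑ j ∈ Finset.range R, |μ pt| * exc V (tt j) (w j) u pt := by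
    intro pt
    rw [← mul_sub, abs_mul]
    have h2 : |μ pt| * (R:ℝ)⁻¹ + |μ pt| * (if i ∈ V pt.1 then 1 else 0)
        + (R:ℝ)⁻¹ * ∑ j ∈ Finset.range R, |μ pt| * exc V (tt j) (w j) u pt
        = |μ pt| * ((R:ℝ)⁻¹ + (if i ∈ V pt.1 then 1 else 0)
          + (R:ℝ)⁻¹ * ∑ j ∈ Finset.range R, exc V (tt j) (w j) u pt) := by
      rw [← Finset.mul_sum]
      ring
    rw [h2]
    apply mul_le_mul_of_nonneg_left _ (abs_nonneg _)
    have hex : 0 ≤ (R:ℝ)⁻¹ * ∑ j ∈ Finset.range R, exc V (tt j) (w j) u pt := by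
      apply mul_nonneg (by positivity)
      exact Finset.sum_nonneg (fun j _ => exc_nonneg _ _ _ _)
    have hRi : 0 < (R:ℝ)⁻¹ := by positivity
    by_cases hiV : i ∈ V pt.1
    · rw [if_pos hiV]
      have := ff_nonneg (V := V) R u pt
      have := ff_le_one (V := V) R u pt
      have := est_nonneg (V := V) R i w (kap V R w pt) u pt.1
      have := est_le_one (V := V) R i w (kap V R w pt) u pt.1
      rw [abs_le]
      constructor <;> linarith
    · rw [if_neg hiV]
      have := pointwise R i w u pt hiV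
      linarith
  calc _ ≤ ∑ pt : PT D s m, |μ pt * ff V R u pt - μ pt * est V R i w (kap V R w pt) u pt.1| :=
        Finset.abs_sum_le_sum_abs _ _
    _ ≤ ∑ pt : PT D s m, (|μ pt| * (R:ℝ)⁻¹ + |μ pt| * (if i ∈ V pt.1 then 1 else 0)
        + (R:ℝ)⁻¹ * ∑ j ∈ Finset.range R, |μ pt| * exc V (tt j) (w j) u pt) :=
        Finset.sum_le_sum (fun pt _ => h1 pt)
    _ = (∑ pt : PT D s m, |μ pt|) * (R:ℝ)⁻¹ + (∑ pt : PT D s m, |μ pt| * (if i ∈ V pt.1 then 1 else 0))
        + (R:ℝ)⁻¹ * ∑ j ∈ Finset.range R, ∑ pt : PT D s m, |μ pt| * exc V (tt j) (w j) u pt := by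
        rw [Finset.sum_add_distrib, Finset.sum_add_distrib, Finset.sum_mul, ← Finset.mul_sum,
          Finset.sum_comm]
    _ ≤ 1 * (R:ℝ)⁻¹ + (R:ℝ)⁻¹ + (R:ℝ)⁻¹ * ∑ j ∈ Finset.range R, (R:ℝ)⁻¹ := by
        have h3 : (∑ pt : PT D s m, |μ pt|) * (R:ℝ)⁻¹ ≤ 1 * (R:ℝ)⁻¹ :=
          mul_le_mul_of_nonneg_right hμ (by positivity)
        have h4 : (R:ℝ)⁻¹ * ∑ j ∈ Finset.range R, ∑ pt : PT D s m, |μ pt| * exc V (tt j) (w j) u pt
            ≤ (R:ℝ)⁻¹ * ∑ j ∈ Finset.range R, (R:ℝ)⁻¹ := by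
          apply mul_le_mul_of_nonneg_left _ (by positivity)
          exact Finset.sum_le_sum (fun j _ => hw j u)
        linarith
    _ = 3 * (R:ℝ)⁻¹ := by
        rw [Finset.sum_const, Finset.card_range, nsmul_eq_mul, mul_inv_cancel₀ hR'.ne']
        ring

end Balls

section Desc

variable {D s m : ℕ}

/-- Restriction to the hyperplane `x i = 0`. -/
def rest (i : Fin (D+1)) (u : UU (D+1) s m) : (Fin D → Fin (s+1)) → Fin m :=
  fun y => u (i.insertNth 0 y)

lemma rest_eq {i : Fin (D+1)} {u u' : UU (D+1) s m} (h : rest i u = rest i u')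
    (x : XX (D+1) s) (hx : x i = 0) : u x = u' x := by
  have h1 : i.insertNth (0 : Fin (s+1)) (i.removeNth x) = x := by
    rw [← hx]; exact Fin.insertNth_self_removeNth i x
  have h2 := congrFun h (i.removeNth x)
  simp only [rest] at h2
  rwa [h1] at h2

/-- Cells for the marginal distribution. -/
abbrev CC (D s R : ℕ) := Finset (XX D s) × (Fin R → Fin R → Bool)

/-- Finite type of descriptions. -/
abbrev HH (D s m R Q : ℕ) :=
  Fin (D+1) × (Fin R → Fin R → ((Fin D → Fin (s+1)) → Fin m)) × (CC (D+1) s R → Fin (2*Q+1))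

lemma card_HH (D s m R Q : ℕ) : Fintype.card (HH D s m R Q) =
    (D+1) * (((m ^ ((s+1)^D))^R)^R * (2*Q+1)^(Fintype.card (CC (D+1) s R))) := by
  simp only [HH, Fintype.card_prod, Fintype.card_fin, Fintype.card_fun]

open Classical in
/-- Marginal of the signed weights. -/
noncomputable def muhat (V : Finset (XX D s) → Finset (Fin D)) (R : ℕ) (w : ℕ → Fin R → UU D s m)
    (μ : PT D s m → ℝ) (c : CC D s R) : ℝ :=
  ∑ pt : PT D s m, if (pt.1, kap V R w pt) = c then μ pt else 0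

lemma sum_est (V : Finset (XX D s) → Finset (Fin D)) (R : ℕ) (i : Fin D) (w : ℕ → Fin R → UU D s m)
    (μ : PT D s m → ℝ) (u : UU D s m) :
    ∑ pt, μ pt * est V R i w (kap V R w pt) u pt.1 =
      ∑ c : CC D s R, muhat V R w μ c * est V R i w c.2 u c.1 := by
  classical
  simp only [muhat, Finset.sum_mul]
  rw [Finset.sum_comm]
  refine Finset.sum_congr rfl (fun pt _ => ?_)
  have : ∀ c : CC D s R, (if (pt.1, kap V R w pt) = c then μ pt else 0) * est V R i w c.2 u c.1
      = if (pt.1, kap V R w pt) = c then μ pt * est V R i w c.2 u c.1 else 0 := by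
    intro c; split_ifs <;> simp
  simp only [this]
  rw [Finset.sum_ite_eq, if_pos (Finset.mem_univ _)]

lemma abs_muhat_le (V : Finset (XX D s) → Finset (Fin D)) (R : ℕ) (w : ℕ → Fin R → UU D s m)
    (μ : PT D s m → ℝ) (hμ : ∑ p, |μ p| ≤ 1) (c : CC D s R) : |muhat V R w μ c| ≤ 1 := by
  classical
  unfold muhat
  calc _ ≤ ∑ pt : PT D s m, |if (pt.1, kap V R w pt) = c then μ pt else 0| :=
        Finset.abs_sum_le_sum_abs _ _
    _ ≤ ∑ pt : PT D s m, |μ pt| := by
        apply Finset.sum_le_sum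
        intro pt _
        split_ifs
        · exact le_refl _
        · simp
    _ ≤ 1 := hμ

lemma floor_lt {Q : ℕ} {a : ℝ} (ha : |a| ≤ 1) : ⌊(a + 1) * Q⌋₊ < 2*Q+1 := by
  have h1 := (abs_le.mp ha).2
  have h0 := (abs_le.mp ha).1
  have hQ : (0:ℝ) ≤ Q := Nat.cast_nonneg _
  have h2 : ⌊(a + 1) * Q⌋₊ ≤ 2*Q := by
    apply Nat.floor_le_of_le
    push_cast
    nlinarith
  omega

lemma close_of_floor {Q : ℕ} (hQ : 0 < Q) {a b : ℝ} (ha : |a| ≤ 1) (hb : |b| ≤ 1)
    (h : ⌊(a + 1) * Q⌋₊ = ⌊(b + 1) * Q⌋₊) : |a - b| ≤ (Q:ℝ)⁻¹ := by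
  have hQ' : (0:ℝ) < Q := by exact_mod_cast hQ
  have ha0 : 0 ≤ (a+1)*Q := mul_nonneg (by linarith [(abs_le.mp ha).1]) hQ'.le
  have hb0 : 0 ≤ (b+1)*Q := mul_nonneg (by linarith [(abs_le.mp hb).1]) hQ'.le
  have h1 := Nat.floor_le ha0
  have h2 := Nat.lt_floor_add_one ((a+1)*Q)
  have h3 := Nat.floor_le hb0
  have h4 := Nat.lt_floor_add_one ((b+1)*Q)
  rw [h] at h1 h2
  have h5 : |a - b| * Q ≤ 1 := by
    have h6 : |a - b| * Q = |(a - b) * Q| := by rw [abs_mul, abs_of_pos hQ']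
    rw [h6, abs_le]
    constructor <;> nlinarith
  rwa [← one_div, le_div_iff₀ hQ']

lemma exists_desc (V : Finset (XX (D+1) s) → Finset (Fin (D+1))) (hm : 0 < m) {v R Q : ℕ}
    (hR : 0 < R) (hQ : 0 < Q) (hV : ∀ J, (V J).card ≤ v) (hvD : R * v ≤ D+1) :
    ∃ desc : (PT (D+1) s m → ℝ) → HH D s m R Q, ∀ μ μ' : PT (D+1) s m → ℝ,
      ∑ p, |μ p| ≤ 1 → ∑ p, |μ' p| ≤ 1 → desc μ = desc μ' → ∀ u,
      |∑ pt, μ pt * ff V R u pt - ∑ pt, μ' pt * ff V R u pt| ≤
        6 * (R:ℝ)⁻¹ + (Fintype.card (CC (D+1) s R)) * (Q:ℝ)⁻¹ := by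
  classical
  have key := fun (μ : PT (D+1) s m → ℝ) (hμ : ∑ p, |μ p| ≤ 1) =>
    approx (V := V) hm hR (Nat.succ_pos D) hV hvD μ hμ
  have hne : Nonempty (Fin m) := ⟨⟨0, hm⟩⟩
  choose! I W hIW using key
  refine ⟨fun μ => if hμ : ∑ p, |μ p| ≤ 1 then
      ⟨I μ, fun j r => rest (I μ) (W μ j r),
        fun c => ⟨⌊(muhat V R (W μ) μ c + 1) * Q⌋₊, floor_lt (abs_muhat_le V R (W μ) μ hμ c)⟩⟩
      else ⟨0, fun _ _ _ => ⟨0, hm⟩, fun _ => 0⟩, ?_⟩
  intro μ μ' hμ hμ' hd u
  simp only [dif_pos hμ, dif_pos hμ'] at hd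
  rw [Prod.mk.injEq, Prod.mk.injEq] at hd
  obtain ⟨h1, h2, h3⟩ := hd
  have hA := hIW μ hμ u
  have hB := hIW μ' hμ' u
  rw [sum_est] at hA hB
  have hest : ∀ c : CC (D+1) s R, est V R (I μ') (W μ') c.2 u c.1 = est V R (I μ) (W μ) c.2 u c.1 := by
    intro c
    rw [← h1]
    apply est_congr
    intro j hj r x hx
    have h4 := congrFun (congrFun h2 ⟨j, hj⟩) r
    simp only at h4
    rw [← h1] at h4
    exact (rest_eq h4 x hx).symm
  have hclose : ∀ c : CC (D+1) s R, |muhat V R (W μ) μ c - muhat V R (W μ') μ' c| ≤ (Q:ℝ)⁻¹ := by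
    intro c
    have h4 := congrFun h3 c
    rw [Fin.mk.injEq] at h4
    exact close_of_floor hQ (abs_muhat_le V R (W μ) μ hμ c) (abs_muhat_le V R (W μ') μ' hμ' c) h4
  have hdiff : |∑ c : CC (D+1) s R, muhat V R (W μ) μ c * est V R (I μ) (W μ) c.2 u c.1 -
      ∑ c : CC (D+1) s R, muhat V R (W μ') μ' c * est V R (I μ') (W μ') c.2 u c.1| ≤
      (Fintype.card (CC (D+1) s R)) * (Q:ℝ)⁻¹ := by
    rw [← Finset.sum_sub_distrib]
    calc _ ≤ ∑ c : CC (D+1) s R, |muhat V R (W μ) μ c * est V R (I μ) (W μ) c.2 u c.1 -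
          muhat V R (W μ') μ' c * est V R (I μ') (W μ') c.2 u c.1| := Finset.abs_sum_le_sum_abs _ _
      _ ≤ ∑ c : CC (D+1) s R, (Q:ℝ)⁻¹ := by
          apply Finset.sum_le_sum
          intro c _
          rw [hest c, ← sub_mul, abs_mul, abs_of_nonneg (est_nonneg _ _ _ _ _ _)]
          calc _ ≤ (Q:ℝ)⁻¹ * 1 := mul_le_mul (hclose c) (est_le_one _ _ _ _ _ _)
                (est_nonneg _ _ _ _ _ _) (by positivity)
            _ = (Q:ℝ)⁻¹ := mul_one _
      _ = _ := by rw [Finset.sum_const, nsmul_eq_mul, Finset.card_univ]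
  rw [abs_le] at hA hB hdiff ⊢
  constructor <;> linarith [hA.1, hA.2, hB.1, hB.2, hdiff.1, hdiff.2]

end Desc

section Sep

variable {D s m : ℕ}

/-- Agreement set. -/
def agr (u u' : UU D s m) : Finset (XX D s) := Finset.univ.filter (fun x => u x = u' x)

lemma mem_agr (u u' : UU D s m) (x : XX D s) : x ∈ agr u u' ↔ u x = u' x := by simp [agr]

lemma ff_self (V : Finset (XX D s) → Finset (Fin D)) {R : ℕ} (hR : 0 < R) (u : UU D s m)
    (J : Finset (XX D s)) : ff V R u (J, u) = 1 := by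
  classical
  unfold ff
  have h1 : ∀ j, Bal V (tt j) u (J, u) := fun j => ⟨∅, by simp, by simp, fun _ _ _ => rfl⟩
  have hR' : (R:ℝ) ≠ 0 := by exact_mod_cast hR.ne'
  simp only [h1, if_true, Finset.sum_const, Finset.card_range, nsmul_eq_mul, mul_one]
  exact inv_mul_cancel₀ hR'

lemma ff_zero (V : Finset (XX D s) → Finset (Fin D)) {R l : ℕ} (hl : ∀ j < R, tt j ≤ l)
    (u u' : UU D s m)
    (hV : ∀ E : Finset (Fin D), E.card ≤ l → Disjoint E (V (agr u u')) → ¬ TE E ⊆ agr u u') :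
    ff V R u' (agr u u', u) = 0 := by
  classical
  unfold ff
  rw [Finset.sum_eq_zero, mul_zero]
  intro j hj
  rw [if_neg]
  rintro ⟨E, h1, h2, h3⟩
  apply hV E (h1.trans (hl j (Finset.mem_range.mp hj))) h2
  intro x hx
  by_contra hcon
  have := h3 x hx hcon
  rw [mem_agr] at hcon
  exact hcon this.symm

lemma card_agree (B : Finset (XX D s)) (u₀ : UU D s m) :
    (Finset.univ.filter (fun u : UU D s m => ∀ x ∈ B, u x = u₀ x)).card
      = m ^ ((s+1)^D - B.card) := by
  classical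
  have h1 : (Finset.univ.filter (fun u : UU D s m => ∀ x ∈ B, u x = u₀ x)) =
      Fintype.piFinset (fun x => if x ∈ B then {u₀ x} else Finset.univ) := by
    ext u
    simp only [Finset.mem_filter, Finset.mem_univ, true_and, Fintype.mem_piFinset]
    constructor
    · intro h x
      by_cases hx : x ∈ B
      · simp [hx, h x hx]
      · simp [hx]
    · intro h x hx
      have := h x
      simpa [hx] using this
  rw [h1, Fintype.card_piFinset]
  have h2 : ∀ x, (if x ∈ B then ({u₀ x} : Finset (Fin m)) else Finset.univ).card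
      = if x ∈ Bᶜ then m else 1 := by
    intro x
    by_cases hx : x ∈ B <;> simp [hx]
  simp only [h2]
  rw [Finset.prod_ite_mem, Finset.univ_inter, Finset.prod_const, Finset.card_compl]
  simp

lemma card_fiber (hm : 0 < m) (u₀ : UU D s m) :
    (Finset.univ.filter (fun u : UU D s m => (s+1)^D < 2 * (agr u₀ u).card)).card
      ≤ 2 ^ ((s+1)^D) * m ^ ((s+1)^D / 2) := by
  classical
  have h1 : (Finset.univ.filter (fun u : UU D s m => (s+1)^D < 2 * (agr u₀ u).card)) ⊆
      (Finset.univ.filter (fun B : Finset (XX D s) => (s+1)^D < 2 * B.card)).biUnion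
        (fun B => Finset.univ.filter (fun u : UU D s m => ∀ x ∈ B, u x = u₀ x)) := by
    intro u hu
    simp only [Finset.mem_filter, Finset.mem_univ, true_and, Finset.mem_biUnion] at hu ⊢
    refine ⟨agr u₀ u, hu, ?_⟩
    intro x hx
    rw [mem_agr] at hx
    exact hx.symm
  calc _ ≤ _ := Finset.card_le_card h1
    _ ≤ ∑ B ∈ (Finset.univ.filter (fun B : Finset (XX D s) => (s+1)^D < 2 * B.card)),
        (Finset.univ.filter (fun u : UU D s m => ∀ x ∈ B, u x = u₀ x)).card := Finset.card_biUnion_le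
    _ ≤ ∑ B ∈ (Finset.univ.filter (fun B : Finset (XX D s) => (s+1)^D < 2 * B.card)),
        m ^ ((s+1)^D / 2) := by
        apply Finset.sum_le_sum
        intro B hB
        rw [card_agree]
        simp only [Finset.mem_filter, Finset.mem_univ, true_and] at hB
        apply Nat.pow_le_pow_right hm
        omega
    _ = (Finset.univ.filter (fun B : Finset (XX D s) => (s+1)^D < 2 * B.card)).card *
        m ^ ((s+1)^D / 2) := by rw [Finset.sum_const, smul_eq_mul]
    _ ≤ 2 ^ ((s+1)^D) * m ^ ((s+1)^D / 2) := by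
        apply Nat.mul_le_mul_right
        calc _ ≤ (Finset.univ : Finset (Finset (XX D s))).card := Finset.card_filter_le _ _
          _ = 2 ^ ((s+1)^D) := by simp [Finset.card_univ]

lemma card_classes (hm : 0 < m) {T : Type*} [DecidableEq T] (Q : Finset T) (φ : UU D s m → T)
    (hφ : ∀ u, φ u ∈ Q) (h : ∀ u u', φ u = φ u' → (s+1)^D < 2 * (agr u u').card) :
    m ^ ((s+1)^D) ≤ (2 ^ ((s+1)^D) * m ^ ((s+1)^D / 2)) * Q.card := by
  classical
  have h1 : (Finset.univ : Finset (UU D s m)).card = m ^ ((s+1)^D) := by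
    simp [Finset.card_univ]
  rw [← h1]
  have h2 := Finset.card_le_mul_card_image (f := φ) (Finset.univ : Finset (UU D s m))
    (2 ^ ((s+1)^D) * m ^ ((s+1)^D / 2)) ?_
  · refine h2.trans (Nat.mul_le_mul_left _ (Finset.card_le_card ?_))
    intro t ht
    obtain ⟨u, _, rfl⟩ := Finset.mem_image.mp ht
    exact hφ u
  · intro t ht
    obtain ⟨u₀, _, rfl⟩ := Finset.mem_image.mp ht
    refine le_trans (Finset.card_le_card ?_) (card_fiber hm u₀)
    intro u hu
    simp only [Finset.mem_filter, Finset.mem_univ, true_and] at hu ⊢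
    exact h u₀ u hu.symm

end Sep

end Crest.Agent.S0094
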