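import Crest.Prelude.Def_Polar

set_option autoImplicit false
open Pointwise Crest.AnalysisR
open Crest Crest.AnalysisR

namespace Crest.Agent.S0094

lemma inner_eq_sum {n : ℕ} (x y : EuclideanSpace ℝ (Fin n)) :
    inner ℝ x y = ∑ i, x i * y i := by
  rw [PiLp.inner_apply]
  refine Finset.sum_congr rfl (fun i _ => ?_)
  simp [mul_comm]

lemma l1_of_polar {n : ℕ} {z : EuclideanSpace ℝ (Fin n)}
    (hz : z ∈ polarSet {x : EuclideanSpace ℝ (Fin n) | ∀ i, |x i| ≤ 1}) : ∑ i, |z i| ≤ 1 := by
  have h := hz (WithLp.toLp 2 (fun i => if 0 ≤ z i then (1:ℝ) else -1)) ?_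
  · rw [inner_eq_sum] at h
    refine le_trans (le_of_eq ?_) h
    refine Finset.sum_congr rfl (fun i _ => ?_)
    simp only
    by_cases hi : 0 ≤ z i
    · rw [if_pos hi, abs_of_nonneg hi, one_mul]
    · rw [if_neg hi, abs_of_neg (not_le.mp hi)]
      ring
  · intro i
    simp only
    split_ifs <;> simp

lemma geom (n : ℕ) (U : Type) [Fintype U] [Nonempty U] (F : U → Fin n → ℝ) (a : ℝ) (ha : 1 ≤ a)
    (H : Type) [Fintype H] (desc : (Fin n → ℝ) → H) (δ : ℝ) (hδ : 6 * a * δ ≤ 1)
    (hdesc : ∀ μ μ' : Fin n → ℝ, ∑ i, |μ i| ≤ 1 → ∑ i, |μ' i| ≤ 1 → desc μ = desc μ' →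
      ∀ u, |∑ i, μ i * F u i - ∑ i, μ' i * F u i| ≤ δ) :
    ∃ K : Set (EuclideanSpace ℝ (Fin n)),
      Convex ℝ K ∧ IsCompact K ∧ (interior K).Nonempty ∧ (∀ x ∈ K, -x ∈ K) ∧
      (∀ u, (WithLp.toLp 2 (fun i => 3 * F u i) : EuclideanSpace ℝ (Fin n)) ∈ K) ∧
      ∃ t₁ : Finset (EuclideanSpace ℝ (Fin n)), t₁.card ≤ Fintype.card H ∧
        polarSet {x : EuclideanSpace ℝ (Fin n) | ∀ i, |x i| ≤ 1} ⊆
          ⋃ y ∈ t₁, (y +ᵥ a⁻¹ • polarSet K) := by
  classical
  have ha0 : 0 < a := by linarith
  set G : U → EuclideanSpace ℝ (Fin n) := fun u => WithLp.toLp 2 (fun i => 3 * F u i) with hG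
  set η : ℝ := 1 / (4 * a) with hη
  have hη0 : 0 < η := by positivity
  set S : Set (EuclideanSpace ℝ (Fin n)) := Set.range G ∪ Set.range (fun u => - G u) with hS
  have hSfin : S.Finite := (Set.finite_range _).union (Set.finite_range _)
  set K : Set (EuclideanSpace ℝ (Fin n)) := convexHull ℝ S + Metric.closedBall 0 η with hK
  have hGS : ∀ u, G u ∈ S := fun u => Or.inl ⟨u, rfl⟩
  have hGK : ∀ u, G u ∈ K := by
    intro u
    refine ⟨G u, subset_convexHull ℝ S (hGS u), 0, ?_, add_zero _⟩
    simp [hη0.le]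
  refine ⟨K, ?_, ?_, ?_, ?_, hGK, ?_⟩
  · exact (convex_convexHull ℝ S).add (convex_closedBall 0 η)
  · exact (hSfin.isCompact_convexHull ℝ).add (isCompact_closedBall 0 η)
  · obtain ⟨u⟩ := (inferInstance : Nonempty U)
    refine ⟨G u, ?_⟩
    rw [mem_interior]
    refine ⟨Metric.ball (G u) η, ?_, Metric.isOpen_ball, Metric.mem_ball_self hη0⟩
    intro x hx
    refine ⟨G u, subset_convexHull ℝ S (hGS u), x - G u, ?_, add_sub_cancel _ _⟩
    rw [mem_closedBall_zero_iff]
    rw [Metric.mem_ball, dist_eq_norm] at hx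
    exact hx.le
  · rintro x ⟨x₁, hx₁, x₂, hx₂, rfl⟩
    refine ⟨-x₁, ?_, -x₂, ?_, ?_⟩
    · have h1 : -S = S := by
        ext y
        simp only [hS, Set.mem_neg, Set.mem_union, Set.mem_range]
        constructor
        · rintro (⟨u, hu⟩ | ⟨u, hu⟩)
          · exact Or.inr ⟨u, by rw [hu, neg_neg]⟩
          · exact Or.inl ⟨u, by rw [← neg_neg (G u), hu, neg_neg]⟩
        · rintro (⟨u, hu⟩ | ⟨u, hu⟩)
          · exact Or.inr ⟨u, by rw [hu]⟩
          · exact Or.inl ⟨u, by rw [← hu, neg_neg]⟩
      have h2 : -x₁ ∈ convexHull ℝ (-S) := by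
        rw [convexHull_neg]
        simpa using hx₁
      rwa [h1] at h2
    · rw [mem_closedBall_zero_iff] at hx₂ ⊢
      rwa [norm_neg]
    · simp only [neg_add_rev]
      abel
  · -- the cover
    let P : EuclideanSpace ℝ (Fin n) → H → Prop := fun y h => ∑ i, |y i| ≤ 1 ∧ desc (fun i => y i) = h
    let rep : H → EuclideanSpace ℝ (Fin n) := fun h => if hh : ∃ y, P y h then hh.choose else 0
    refine ⟨Finset.univ.image rep, ?_, ?_⟩
    · exact Finset.card_image_le.trans (by simp)
    · intro z hz
      have hz1 := l1_of_polar hz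
      have hex : ∃ y, P y (desc (fun i => z i)) := ⟨z, hz1, rfl⟩
      have hy : P (rep (desc (fun i => z i))) (desc (fun i => z i)) := by
        simp only [rep]
        rw [dif_pos hex]
        exact hex.choose_spec
      set y := rep (desc (fun i => z i)) with hydef
      obtain ⟨hy1, hy2⟩ := hy
      simp only [Set.mem_iUnion]
      refine ⟨y, Finset.mem_image.mpr ⟨_, Finset.mem_univ _, rfl⟩, ?_⟩
      refine ⟨z - y, ?_, by simp⟩
      refine ⟨a • (z - y), ?_, by simp only [smul_smul]; rw [inv_mul_cancel₀ ha0.ne', one_smul]⟩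
      rintro g ⟨g₁, hg₁, g₂, hg₂, rfl⟩
      have hl1 : ∑ i, |(z - y) i| ≤ 2 := by
        calc ∑ i, |(z - y) i| ≤ ∑ i, (|z i| + |y i|) := by
              apply Finset.sum_le_sum
              intro i _
              simp only [PiLp.sub_apply]
              exact abs_sub _ _
          _ ≤ 2 := by rw [Finset.sum_add_distrib]; linarith
      have hpart1 : inner ℝ g₁ (a • (z - y)) ≤ 1/2 := by
        have hsub : convexHull ℝ S ⊆ {g | inner ℝ g (a • (z - y)) ≤ 1/2} := by
          apply convexHull_min
          · have hd : ∀ u, |inner ℝ (G u) (a • (z - y))| ≤ 1/2 := by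
              intro u
              have h1 := hdesc (fun i => z i) (fun i => y i) hz1 hy1 hy2.symm u
              have h2 : inner ℝ (G u) (a • (z - y)) =
                  3 * a * (∑ i, z i * F u i - ∑ i, y i * F u i) := by
                rw [inner_eq_sum, ← Finset.sum_sub_distrib, Finset.mul_sum]
                refine Finset.sum_congr rfl (fun i _ => ?_)
                simp only [hG, PiLp.smul_apply, PiLp.sub_apply, smul_eq_mul]
                ring
              rw [h2, abs_mul, abs_of_pos (by positivity)]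
              calc 3 * a * _ ≤ 3 * a * δ := mul_le_mul_of_nonneg_left h1 (by positivity)
                _ ≤ 1/2 := by linarith
            rintro g (⟨u, rfl⟩ | ⟨u, rfl⟩)
            · exact (abs_le.mp (hd u)).2
            · simp only [Set.mem_ofPred_eq, inner_neg_left]
              linarith [(abs_le.mp (hd u)).1]
          · intro x hx w hw α β hα hβ hαβ
            simp only [Set.mem_ofPred_eq] at hx hw ⊢
            rw [inner_add_left, inner_smul_left, inner_smul_left]
            simp only [conj_trivial]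
            nlinarith
        exact hsub hg₁
      have hpart2 : inner ℝ g₂ (a • (z - y)) ≤ 1/2 := by
        rw [inner_eq_sum]
        rw [mem_closedBall_zero_iff] at hg₂
        calc ∑ i, g₂ i * (a • (z - y)) i ≤ ∑ i, η * (a * |(z - y) i|) := by
              apply Finset.sum_le_sum
              intro i _
              have h1 : |g₂ i| ≤ η := le_trans (by simpa using PiLp.norm_apply_le g₂ i) hg₂
              have h2 : g₂ i * (a • (z - y)) i ≤ |g₂ i| * |(a • (z - y)) i| := by
                rw [← abs_mul]; exact le_abs_self _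
              refine h2.trans ?_
              have h3 : |(a • (z - y)) i| = a * |(z - y) i| := by
                simp only [PiLp.smul_apply, smul_eq_mul]
                rw [abs_mul, abs_of_pos ha0]
              rw [h3]
              exact mul_le_mul_of_nonneg_right h1 (by positivity)
          _ = η * a * ∑ i, |(z - y) i| := by
              rw [Finset.mul_sum]
              refine Finset.sum_congr rfl (fun i _ => by ring)
          _ ≤ η * a * 2 := mul_le_mul_of_nonneg_left hl1 (by positivity)
          _ = 1/2 := by rw [hη]; field_simp; norm_num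
      rw [inner_add_left]
      linarith

end Crest.Agent.S0094
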