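import Crest.Statements.S0094
import Crest.Agent.S0094_Comb
import Crest.Agent.S0094_Geom

set_option autoImplicit false
open Pointwise Crest.AnalysisR
open Crest Crest.AnalysisR

namespace Crest.Agent.S0094

lemma log_card_HH (D s m R Q : ℕ) (hm : 0 < m) :
    Real.log (Fintype.card (HH D s m R Q)) =
      (Real.log (D+1) + Fintype.card (CC (D+1) s R) * Real.log (2*Q+1))
        + R^2 * ((s:ℝ)+1)^D * Real.log m := by
  have hm' : (0:ℝ) < m := by exact_mod_cast hm
  rw [card_HH]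
  push_cast
  have h1 : ((D:ℝ)+1) ≠ 0 := by positivity
  have h2 : ((((m:ℝ) ^ ((s+1)^D))^R)^R) ≠ 0 := by positivity
  have h3 : ((2*(Q:ℝ)+1)^(Fintype.card (CC (D+1) s R))) ≠ 0 := by positivity
  rw [Real.log_mul h1 (mul_ne_zero h2 h3), Real.log_mul h2 h3, Real.log_pow, Real.log_pow,
    Real.log_pow, Real.log_pow]
  push_cast
  ring

lemma log_card_t2 (N m k : ℕ) (hm : 0 < m) (h : m ^ N ≤ (2 ^ N * m ^ (N / 2)) * k) :
    N / 2 * Real.log m - N * Real.log 2 ≤ Real.log k := by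
  have hm' : (1:ℝ) ≤ m := by exact_mod_cast hm
  have hlm : 0 ≤ Real.log m := Real.log_nonneg hm'
  have hk : 0 < k := by
    rcases Nat.eq_zero_or_pos k with h0 | h0
    · subst h0
      have : 0 < m ^ N := by positivity
      omega
    · exact h0
  have hk' : (0:ℝ) < k := by exact_mod_cast hk
  have h1 : ((m:ℝ) ^ N) ≤ (2 ^ N * (m:ℝ) ^ (N / 2)) * k := by exact_mod_cast h
  have h2 := Real.log_le_log (by positivity) h1
  rw [Real.log_mul (by positivity) (by positivity), Real.log_mul (by positivity) (by positivity),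
    Real.log_pow, Real.log_pow, Real.log_pow] at h2
  have h3 : ((N / 2 : ℕ) : ℝ) ≤ N / 2 := Nat.cast_div_le
  have h4 : ((N / 2 : ℕ) : ℝ) * Real.log m ≤ N / 2 * Real.log m :=
    mul_le_mul_of_nonneg_right h3 hlm
  linarith

/-- For all real a, b ≥ 1 there are n ≥ 1 and a compact convex set K in Euclidean n-space with nonempty interior, symmetric about 0, such that, with L the cube of points having all coordinates in [-1, 1] and polars taken for the standard inner product (the y pairing to at most 1 with each point of the set): some m translates of a⁻¹ • (polar of K) cover the polar of L, while any k translates of L covering K satisfy b * log m < log k. So log N(K, L) > b log N(L°, a⁻¹K°) for covering numbers N. -/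
theorem result
    (a b : ℝ) (ha : 1 ≤ a) (hb : 1 ≤ b) :
    ∃ n : ℕ, 0 < n ∧ ∃ K : Set (EuclideanSpace ℝ (Fin n)),
      Convex ℝ K ∧ IsCompact K ∧ (interior K).Nonempty ∧ (∀ x ∈ K, -x ∈ K) ∧
      ∃ t₁ : Finset (EuclideanSpace ℝ (Fin n)),
        polarSet {x : EuclideanSpace ℝ (Fin n) | ∀ i, |x i| ≤ 1} ⊆ ⋃ y ∈ t₁, (y +ᵥ a⁻¹ • polarSet K) ∧
        ∀ t₂ : Finset (EuclideanSpace ℝ (Fin n)),
          K ⊆ ⋃ x ∈ t₂, (x +ᵥ {z : EuclideanSpace ℝ (Fin n) | ∀ i, |z i| ≤ 1}) →
          b * Real.log t₁.card < Real.log t₂.card := by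
  classical
  have ha0 : 0 < a := by linarith
  have hb0 : 0 < b := by linarith
  -- parameters
  set R : ℕ := ⌈42 * a⌉₊ with hRdef
  have hRge : 42 * a ≤ R := Nat.le_ceil _
  have hR : 0 < R := Nat.ceil_pos.mpr (by positivity)
  have hR' : (0:ℝ) < R := by exact_mod_cast hR
  set s : ℕ := ⌈2 * b * R^2⌉₊ + 1 with hsdef
  have hs : 2 * b * R^2 + 1 ≤ s := by
    rw [hsdef]; push_cast
    linarith [Nat.le_ceil (2 * b * (R:ℝ)^2)]
  set l : ℕ := tt R with hldef
  have hl : ∀ j < R, tt j ≤ l := fun j hj => tt_mono hj.le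
  set v : ℕ := l * (s+1)^l with hvdef
  set D : ℕ := R * v with hDdef
  choose V hV1 hV2 using exists_V (D+1) s l
  have hvD : R * v ≤ D + 1 := by omega
  have hCne : 0 < Fintype.card (CC (D+1) s R) := Fintype.card_pos
  set cC : ℕ := Fintype.card (CC (D+1) s R) with hcC
  have hcC' : (0:ℝ) < cC := by exact_mod_cast hCne
  set Q : ℕ := cC * R with hQdef
  have hQ : 0 < Q := Nat.mul_pos hCne hR
  set c0 : ℝ := Real.log (D+1) + cC * Real.log (2*Q+1) with hc0
  set N : ℕ := (s+1)^(D+1) with hNdef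
  set m : ℕ := ⌈Real.exp (b * c0 + N * Real.log 2)⌉₊ + 1 with hmdef
  have hm : 0 < m := Nat.succ_pos _
  have hlogm : b * c0 + N * Real.log 2 < Real.log m := by
    rw [Real.lt_log_iff_exp_lt (by exact_mod_cast hm)]
    rw [hmdef]; push_cast
    linarith [Nat.le_ceil (Real.exp (b * c0 + N * Real.log 2))]
  have hlogm0 : 0 ≤ Real.log m := Real.log_nonneg (by exact_mod_cast hm)
  obtain ⟨desc, hdesc⟩ := exists_desc (s := s) (m := m) V hm hR hQ hV1 hvD
  -- index type
  set n : ℕ := Fintype.card (PT (D+1) s m) with hn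
  let e : PT (D+1) s m ≃ Fin n := Fintype.equivFin _
  have hne : Nonempty (Fin m) := ⟨⟨0, hm⟩⟩
  have hnpos : 0 < n := Fintype.card_pos
  let F : UU (D+1) s m → Fin n → ℝ := fun u i => ff V R u (e.symm i)
  obtain ⟨K, hK1, hK2, hK3, hK4, hK5, t₁, ht1, ht2⟩ := geom n (UU (D+1) s m) F a ha
    (HH D s m R Q) (fun μ => desc (fun pt => μ (e pt))) (7 * (R:ℝ)⁻¹)
    (by
      have : 42 * a * (R:ℝ)⁻¹ ≤ 1 := by
        rw [← div_eq_mul_inv, div_le_one hR']; exact hRge
      linarith)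
    (by
      intro μ μ' h1 h2 h3 u
      have h1' : ∑ pt, |μ (e pt)| ≤ 1 := by
        rw [Equiv.sum_comp e (fun i => |μ i|)]; exact h1
      have h2' : ∑ pt, |μ' (e pt)| ≤ 1 := by
        rw [Equiv.sum_comp e (fun i => |μ' i|)]; exact h2
      have h4 := hdesc _ _ h1' h2' h3 u
      have h5 : ∀ ρ : Fin n → ℝ, ∑ i, ρ i * F u i = ∑ pt, ρ (e pt) * ff V R u pt := by
        intro ρ
        rw [← Equiv.sum_comp e (fun i => ρ i * F u i)]
        refine Finset.sum_congr rfl (fun pt _ => ?_)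
        simp only [F, Equiv.symm_apply_apply]
      rw [h5, h5]
      refine h4.trans ?_
      have h6 : (cC : ℝ) * (Q:ℝ)⁻¹ = (R:ℝ)⁻¹ := by
        rw [hQdef]; push_cast
        field_simp
      change 6 * (R:ℝ)⁻¹ + (cC : ℝ) * (Q:ℝ)⁻¹ ≤ _
      rw [h6]
      linarith)
  refine ⟨n, hnpos, K, hK1, hK2, hK3, hK4, t₁, ht2, ?_⟩
  intro t₂ ht₂
  -- lower bound
  have hsel : ∀ u : UU (D+1) s m, ∃ x ∈ t₂, (WithLp.toLp 2 (fun i => 3 * F u i) : EuclideanSpace ℝ (Fin n)) ∈
      (x +ᵥ {z : EuclideanSpace ℝ (Fin n) | ∀ i, |z i| ≤ 1}) := by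
    intro u
    have := ht₂ (hK5 u)
    simp only [Set.mem_iUnion] at this
    obtain ⟨x, hx, hx'⟩ := this
    exact ⟨x, hx, hx'⟩
  choose φ hφ1 hφ2 using hsel
  have hφ3 : ∀ u i, |3 * F u i - φ u i| ≤ 1 := by
    intro u i
    obtain ⟨z, hz, hz'⟩ := hφ2 u
    have h1 : z i = 3 * F u i - φ u i := by
      have h2 := congrArg (fun y : EuclideanSpace ℝ (Fin n) => y i) hz'
      simp only [vadd_eq_add, PiLp.add_apply] at h2
      linarith
    rw [← h1]
    exact hz i
  have hcard := card_classes hm t₂ φ hφ1 (by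
    intro u u' huu
    by_contra hcon
    rw [not_lt] at hcon
    have h1 : F u (e (agr u u', u)) = 1 := by
      simp only [F, Equiv.symm_apply_apply]
      exact ff_self V hR u _
    have h2 : F u' (e (agr u u', u)) = 0 := by
      simp only [F, Equiv.symm_apply_apply]
      exact ff_zero V hl u u' (hV2 _ hcon)
    have h3 := hφ3 u (e (agr u u', u))
    have h4 := hφ3 u' (e (agr u u', u))
    rw [← huu] at h4
    rw [h1] at h3
    rw [h2] at h4
    have h5 := (abs_le.mp h3).2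
    have h6 := (abs_le.mp h4).1
    linarith)
  have hlow := log_card_t2 N m t₂.card hm hcard
  have hup : b * Real.log t₁.card ≤ b * (c0 + R^2 * ((s:ℝ)+1)^D * Real.log m) := by
    apply mul_le_mul_of_nonneg_left _ hb0.le
    rw [hc0, ← log_card_HH D s m R Q hm]
    rcases Nat.eq_zero_or_pos t₁.card with h0 | h0
    · rw [h0]
      simp only [Nat.cast_zero, Real.log_zero]
      apply Real.log_nonneg
      have : 0 < Fintype.card (HH D s m R Q) := Fintype.card_pos
      exact_mod_cast this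
    · apply Real.log_le_log (by exact_mod_cast h0)
      exact_mod_cast ht1
  refine lt_of_le_of_lt hup (lt_of_lt_of_le ?_ hlow)
  have hNr : (N:ℝ) = ((s:ℝ)+1)^D * ((s:ℝ)+1) := by
    rw [hNdef]; push_cast; ring
  have hqD : (1:ℝ) ≤ ((s:ℝ)+1)^D := one_le_pow₀ (by linarith [(Nat.cast_nonneg s : (0:ℝ) ≤ s)])
  have h1 : Real.log m ≤ ((s:ℝ)+1)^D * Real.log m := by
    nlinarith
  have h2 : (1:ℝ) ≤ ((s:ℝ)+1)/2 - b * R^2 := by linarith
  have h3 : ((s:ℝ)+1)^D * Real.log m ≤ (((s:ℝ)+1)/2 - b * R^2) * (((s:ℝ)+1)^D * Real.log m) := by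
    have : 0 ≤ ((s:ℝ)+1)^D * Real.log m := by positivity
    nlinarith
  have h4 : (N:ℝ)/2 * Real.log m = ((s:ℝ)+1)/2 * (((s:ℝ)+1)^D * Real.log m) := by
    rw [hNr]; ring
  rw [h4]
  have h5 : b * (c0 + R^2 * ((s:ℝ)+1)^D * Real.log m) =
      b * c0 + b * R^2 * (((s:ℝ)+1)^D * Real.log m) := by ring
  rw [h5]
  linarith

end Crest.Agent.S0094
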