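import Crest.Agent.TH_R7

/-! # TH_R8 (task TH-R8): the countable supremum, complex functions, and S0096 -/

set_option autoImplicit false
open Matrix MeasureTheory Set Filter
open scoped Topology ENNReal

namespace Crest.Agent.TH
open Crest.AnalysisR

/-- for real functions the complex operator is the real one -/
theorem HT_ofReal (F G : ℝ × ℝ → ℝ) (ε R : ℝ) (z : ℝ × ℝ) :
    annularTriangularHT (fun z => (F z : ℂ)) (fun z => (G z : ℂ)) ε R z = ((BR F G ε R z : ℝ) : ℂ) := by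
  have hSm : MeasurableSet {t : ℝ | ε < |t| ∧ |t| < R} :=
    (measurableSet_lt measurable_const measurable_norm).inter
      (measurableSet_lt measurable_norm measurable_const)
  unfold annularTriangularHT BR
  rw [← integral_indicator hSm, ← integral_complex_ofReal]
  refine integral_congr_ae (Eventually.of_forall fun t => ?_)
  by_cases ht : ε < |t| ∧ |t| < R
  · rw [indicator_of_mem (show t ∈ {t : ℝ | ε < |t| ∧ |t| < R} from ht)]
    simp only [kap, if_pos ht]
    push_cast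
    ring
  · rw [indicator_of_notMem (show t ∉ {t : ℝ | ε < |t| ∧ |t| < R} from ht)]
    simp [kap, if_neg ht]

private theorem R8_enorm (F G : ℝ × ℝ → ℝ) (ε R : ℝ) (z : ℝ × ℝ) :
    ‖annularTriangularHT (fun z => (F z : ℂ)) (fun z => (G z : ℂ)) ε R z‖ₑ =
      ENNReal.ofReal |BR F G ε R z| := by
  rw [HT_ofReal, ← ofReal_norm, Complex.norm_real, Real.norm_eq_abs]

private theorem R8_aem {F G : ℝ × ℝ → ℝ} (hF : AEStronglyMeasurable F volume)
    (hG : AEStronglyMeasurable G volume) (ε R : ℝ) : AEMeasurable (BR F G ε R) volume := by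
  have h1 : AEStronglyMeasurable (fun z => (F z : ℂ)) volume :=
    Complex.continuous_ofReal.comp_aestronglyMeasurable hF
  have h2 : AEStronglyMeasurable (fun z => (G z : ℂ)) volume :=
    Complex.continuous_ofReal.comp_aestronglyMeasurable hG
  have h3 := (aestronglyMeasurable_HT h1 h2 ε R).aemeasurable
  have h4 : AEMeasurable (fun z => (annularTriangularHT (fun z => (F z : ℂ)) (fun z => (G z : ℂ))
    ε R z).re) volume := Complex.measurable_re.comp_aemeasurable h3
  refine h4.congr (Eventually.of_forall fun z => ?_)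
  show (annularTriangularHT (fun z => (F z : ℂ)) (fun z => (G z : ℂ)) ε R z).re = BR F G ε R z
  rw [HT_ofReal, Complex.ofReal_re]

/-- the countable type of rational choices -/
private def R8Ch (n : ℕ) : Type :=
  {c : (Fin n → ℤ) × (Fin n → ℚ) × (Fin n → ℚ) //
    (∀ i, |c.1 i| ≤ 1) ∧ (∀ i, 0 < c.2.1 i) ∧ (∀ i, c.2.1 i < c.2.2 i) ∧
    ∀ i j, i ≠ j → c.1 i ≠ 0 → c.1 j ≠ 0 → c.2.2 i ≤ c.2.1 j ∨ c.2.2 j ≤ c.2.1 i}

private instance (n : ℕ) : Countable (R8Ch n) := by unfold R8Ch; infer_instance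

private instance (n : ℕ) : Nonempty (R8Ch n) :=
  ⟨⟨(fun _ => 0, fun _ => 1, fun _ => 2), by simp, by simp, by norm_num, by simp⟩⟩

private def R8ch {n : ℕ} (c : R8Ch n) : Choice n where
  σ := fun i => (c.1.1 i : ℝ)
  ε := fun i => (c.1.2.1 i : ℝ)
  R := fun i => (c.1.2.2 i : ℝ)
  hσ := fun i => by
    have := c.2.1 i
    rw [← Int.cast_abs]
    exact_mod_cast this
  hε := fun i => by
    have := c.2.2.1 i
    exact_mod_cast this
  hR := fun i => by
    have := c.2.2.2.1 i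
    exact_mod_cast this
  disj := fun i j hij h1 h2 => by
    have := c.2.2.2.2 i j hij (by exact_mod_cast h1) (by exact_mod_cast h2)
    exact_mod_cast this

private theorem R8_sign_mul (x : ℝ) : ((SignType.sign x : ℤ) : ℝ) * x = |x| := by
  have h := sign_mul_self x
  rw [← h]
  congr 1
  cases SignType.sign x <;> simp

private theorem R8_count_le (n : ℕ) (F G : ℝ × ℝ → ℝ) (z : ℝ × ℝ) :
    annulusCount n (fun z => (F z : ℂ)) (fun z => (G z : ℂ)) z ≤
      ⨆ c : R8Ch n, ENNReal.ofReal |chB (R8ch c) F G z| := by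
  unfold annulusCount
  refine iSup_le fun m => iSup_le fun hm => iSup_le fun ε => iSup_le fun R => iSup_le fun h1 =>
    iSup_le fun h2 => ?_
  let b : Fin m → ℝ := fun j => BR F G (ε j : ℝ) (R j : ℝ) z
  let σ : Fin n → ℤ := fun i => if h : (i : ℕ) < m then (SignType.sign (b ⟨i, h⟩) : ℤ) else 0
  let ε' : Fin n → ℚ := fun i => if h : (i : ℕ) < m then ε ⟨i, h⟩ else 1
  let R' : Fin n → ℚ := fun i => if h : (i : ℕ) < m then R ⟨i, h⟩ else 2
  have c1 : ∀ i, |σ i| ≤ 1 := by
    intro i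
    by_cases h : (i : ℕ) < m
    · simp only [σ, dif_pos h]
      cases SignType.sign (b ⟨i, h⟩) <;> simp
    · simp only [σ, dif_neg h]
      simp
  have c2 : ∀ i, 0 < ε' i := by
    intro i
    by_cases h : (i : ℕ) < m
    · simp only [ε', dif_pos h]
      exact (h1 _).1
    · simp only [ε', dif_neg h]
      norm_num
  have c3 : ∀ i, ε' i < R' i := by
    intro i
    by_cases h : (i : ℕ) < m
    · simp only [ε', R', dif_pos h]
      exact (h1 _).2
    · simp only [ε', R', dif_neg h]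
      norm_num
  have c4 : ∀ i j, i ≠ j → σ i ≠ 0 → σ j ≠ 0 → R' i ≤ ε' j ∨ R' j ≤ ε' i := by
    intro i j hij hi hj
    have hi' : (i : ℕ) < m := by
      by_contra h
      exact hi (by simp only [σ, dif_neg h])
    have hj' : (j : ℕ) < m := by
      by_contra h
      exact hj (by simp only [σ, dif_neg h])
    simp only [ε', R', dif_pos hi', dif_pos hj']
    refine h2 _ _ fun h => hij (Fin.ext ?_)
    simpa using h
  let c : R8Ch n := ⟨(σ, ε', R'), c1, c2, c3, c4⟩
  refine le_trans (le_of_eq ?_) (le_iSup (fun c : R8Ch n => ENNReal.ofReal |chB (R8ch c) F G z|) c)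
  have e1 : chB (R8ch c) F G z = ∑ j : Fin m, |b j| := by
    have e2 : chB (R8ch c) F G z = ∑ i : Fin n, (if h : (i : ℕ) < m then |b ⟨i, h⟩| else 0) := by
      unfold chB
      refine Finset.sum_congr rfl fun i _ => ?_
      show ((σ i : ℤ) : ℝ) * BR F G ((ε' i : ℚ) : ℝ) ((R' i : ℚ) : ℝ) z = _
      by_cases h : (i : ℕ) < m
      · simp only [σ, ε', R', dif_pos h]
        exact R8_sign_mul (b ⟨i, h⟩)
      · simp only [σ, dif_neg h]
        simp
    rw [e2]
    obtain ⟨d, rfl⟩ := Nat.exists_eq_add_of_le hm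
    rw [Fin.sum_univ_add]
    have e3 : ∑ i : Fin d, (if h : ((Fin.natAdd m i : Fin (m + d)) : ℕ) < m then
        |b ⟨(Fin.natAdd m i : Fin (m + d)), h⟩| else 0) = 0 := by
      refine Finset.sum_eq_zero fun i _ => ?_
      rw [dif_neg]
      simp
    rw [e3, add_zero]
    refine Finset.sum_congr rfl fun i _ => ?_
    rw [dif_pos (by simp)]
    rfl
  rw [e1, abs_of_nonneg (Finset.sum_nonneg fun j _ => abs_nonneg _),
    ENNReal.ofReal_sum_of_nonneg fun j _ => abs_nonneg _]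
  exact Finset.sum_congr rfl fun j _ => R8_enorm F G _ _ z

/-- `annulusCount n` of real functions is the supremum over all rational choices with signs `±1` (or `0`) of
`|chB|`: a countable supremum, i.e. the increasing limit of maxima over finite families. -/
theorem real_count : ∃ C : ℝ, 0 ≤ C ∧ ∀ (n : ℕ), 1 ≤ n → ∀ (F G : ℝ × ℝ → ℝ), MemLp F 3 volume →
    MemLp G 3 volume →
    (∫⁻ z, annulusCount n (fun z => (F z : ℂ)) (fun z => (G z : ℂ)) z ^ (3 / 2 : ℝ)) ^ (2 / 3 : ℝ) ≤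
      ENNReal.ofReal (C * Real.sqrt n) * eLpNorm F 3 volume * eLpNorm G 3 volume := by
  obtain ⟨C, hC, hmax⟩ := max_bound
  refine ⟨C, hC, fun n hn F G hF hG => ?_⟩
  set B : ℝ≥0∞ := ENNReal.ofReal (C * Real.sqrt n) * eLpNorm F 3 volume * eLpNorm G 3 volume
    with hB
  obtain ⟨en, hen⟩ := exists_surjective_nat (R8Ch n)
  let g : ℕ → ℝ × ℝ → ℝ≥0∞ := fun i z => ENNReal.ofReal |chB (R8ch (en i)) F G z|
  have hg : ∀ i, AEMeasurable (g i) volume := by
    intro i
    have h1 : AEMeasurable (fun z => chB (R8ch (en i)) F G z) volume := by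
      unfold chB
      exact Finset.aemeasurable_fun_sum _ fun j _ => (R8_aem hF.1 hG.1 _ _).const_mul _
    exact (measurable_norm.comp_aemeasurable h1).ennreal_ofReal
  let f : ℕ → ℝ × ℝ → ℝ≥0∞ := fun N z => (⨆ i : Fin N, g i z) ^ (3 / 2 : ℝ)
  have hf : ∀ N, AEMeasurable (f N) volume := fun N =>
    (AEMeasurable.iSup fun i : Fin N => hg i).pow_const _
  have hmono : Monotone f := by
    intro N M hNM z
    refine ENNReal.rpow_le_rpow ?_ (by norm_num)
    refine iSup_le fun i => ?_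
    exact le_iSup (fun i : Fin M => g i z) (Fin.castLE hNM i)
  have hsup : ∀ z, (⨆ i, g i z) ^ (3 / 2 : ℝ) = ⨆ N, f N z := by
    intro z
    have e1 : (⨆ i, g i z) = ⨆ N : ℕ, ⨆ i : Fin N, g i z := by
      apply le_antisymm
      · refine iSup_le fun i => ?_
        exact (le_iSup (fun j : Fin (i + 1) => g j z) (Fin.last i)).trans
          (le_iSup (fun N : ℕ => ⨆ j : Fin N, g j z) (i + 1))
      · refine iSup_le fun N => iSup_le fun i => ?_
        exact le_iSup (fun i => g i z) (i : ℕ)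
    rw [e1]
    exact (ENNReal.orderIsoRpow (3 / 2 : ℝ) (by norm_num)).map_iSup _
  have hle : ∀ z, annulusCount n (fun z => (F z : ℂ)) (fun z => (G z : ℂ)) z ^ (3 / 2 : ℝ) ≤
      ⨆ N, f N z := by
    intro z
    rw [← hsup z]
    refine ENNReal.rpow_le_rpow ((R8_count_le n F G z).trans ?_) (by norm_num)
    refine iSup_le fun c => ?_
    obtain ⟨i, rfl⟩ := hen c
    exact le_iSup (fun i => g i z) i
  have hN : ∀ N, ∫⁻ z, f N z ≤ B ^ (3 / 2 : ℝ) := by
    intro N
    have h1 := hmax n hn F G hF hG (Fin N) fun i => R8ch (en i)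
    have h2 := ENNReal.rpow_le_rpow h1 (show (0 : ℝ) ≤ 3 / 2 by norm_num)
    rw [← ENNReal.rpow_mul] at h2
    norm_num at h2
    exact h2
  have h3 : ∫⁻ z, annulusCount n (fun z => (F z : ℂ)) (fun z => (G z : ℂ)) z ^ (3 / 2 : ℝ) ≤
      B ^ (3 / 2 : ℝ) := by
    refine (lintegral_mono hle).trans ?_
    rw [lintegral_iSup' hf (Eventually.of_forall fun z => fun N M h => hmono h z)]
    exact iSup_le hN
  refine (ENNReal.rpow_le_rpow h3 (by norm_num)).trans (le_of_eq ?_)
  rw [← ENNReal.rpow_mul]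
  norm_num

/-- a.e. subadditivity: with real and imaginary parts (all integrals converge for a.e. `z`, all rational
`ε, R`: `ae_integrable_HT`). -/
theorem annulusCount_le_four {F G : ℝ × ℝ → ℂ} (hF : MemLp F 3 volume) (hG : MemLp G 3 volume) (n : ℕ) :
    ∀ᵐ z : ℝ × ℝ, annulusCount n F G z ≤
      annulusCount n (fun z => ((F z).re : ℂ)) (fun z => ((G z).re : ℂ)) z +
      annulusCount n (fun z => ((F z).re : ℂ)) (fun z => ((G z).im : ℂ)) z +
      annulusCount n (fun z => ((F z).im : ℂ)) (fun z => ((G z).re : ℂ)) z +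
      annulusCount n (fun z => ((F z).im : ℂ)) (fun z => ((G z).im : ℂ)) z := by
  have hFr : MemLp (fun z => ((F z).re : ℂ)) 3 volume := hF.re.ofReal
  have hFi : MemLp (fun z => ((F z).im : ℂ)) 3 volume := hF.im.ofReal
  have hGr : MemLp (fun z => ((G z).re : ℂ)) 3 volume := hG.re.ofReal
  have hGi : MemLp (fun z => ((G z).im : ℂ)) 3 volume := hG.im.ofReal
  have key : ∀ᵐ z : ℝ × ℝ, ∀ ε R : ℚ, 0 < ε →
      ‖annularTriangularHT F G (ε : ℝ) (R : ℝ) z‖ₑ ≤
      ‖annularTriangularHT (fun z => ((F z).re : ℂ)) (fun z => ((G z).re : ℂ)) (ε : ℝ) (R : ℝ) z‖ₑ +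
      ‖annularTriangularHT (fun z => ((F z).re : ℂ)) (fun z => ((G z).im : ℂ)) (ε : ℝ) (R : ℝ) z‖ₑ +
      ‖annularTriangularHT (fun z => ((F z).im : ℂ)) (fun z => ((G z).re : ℂ)) (ε : ℝ) (R : ℝ) z‖ₑ +
      ‖annularTriangularHT (fun z => ((F z).im : ℂ)) (fun z => ((G z).im : ℂ)) (ε : ℝ) (R : ℝ) z‖ₑ := by
    rw [ae_all_iff]
    intro ε
    rw [ae_all_iff]
    intro R
    by_cases hε : 0 < ε
    · have hε' : (0 : ℝ) < (ε : ℝ) := by exact_mod_cast hε
      filter_upwards [ae_integrable_HT hFr hGr (R := (R : ℝ)) hε',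
        ae_integrable_HT hFr hGi (R := (R : ℝ)) hε', ae_integrable_HT hFi hGr (R := (R : ℝ)) hε',
        ae_integrable_HT hFi hGi (R := (R : ℝ)) hε'] with z i1 i2 i3 i4 _
      have e : annularTriangularHT F G (ε : ℝ) (R : ℝ) z =
          annularTriangularHT (fun z => ((F z).re : ℂ)) (fun z => ((G z).re : ℂ)) (ε : ℝ) (R : ℝ) z +
          Complex.I * annularTriangularHT (fun z => ((F z).re : ℂ)) (fun z => ((G z).im : ℂ))
            (ε : ℝ) (R : ℝ) z +
          Complex.I * annularTriangularHT (fun z => ((F z).im : ℂ)) (fun z => ((G z).re : ℂ))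
            (ε : ℝ) (R : ℝ) z +
          (-1) * annularTriangularHT (fun z => ((F z).im : ℂ)) (fun z => ((G z).im : ℂ))
            (ε : ℝ) (R : ℝ) z := by
        have j2 : Integrable (fun t : ℝ => Complex.I * (((F (z.1 + t, z.2)).re : ℂ) *
            ((G (z.1, z.2 + t)).im : ℂ) / (t : ℂ)))
            (volume.restrict {t : ℝ | (ε : ℝ) < |t| ∧ |t| < (R : ℝ)}) := i2.const_mul _
        have j3 : Integrable (fun t : ℝ => Complex.I * (((F (z.1 + t, z.2)).im : ℂ) *
            ((G (z.1, z.2 + t)).re : ℂ) / (t : ℂ)))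
            (volume.restrict {t : ℝ | (ε : ℝ) < |t| ∧ |t| < (R : ℝ)}) := i3.const_mul _
        have j4 : Integrable (fun t : ℝ => (-1) * (((F (z.1 + t, z.2)).im : ℂ) *
            ((G (z.1, z.2 + t)).im : ℂ) / (t : ℂ)))
            (volume.restrict {t : ℝ | (ε : ℝ) < |t| ∧ |t| < (R : ℝ)}) := i4.const_mul _
        have j12 : Integrable (fun t : ℝ => ((F (z.1 + t, z.2)).re : ℂ) *
            ((G (z.1, z.2 + t)).re : ℂ) / (t : ℂ) + Complex.I * (((F (z.1 + t, z.2)).re : ℂ) *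
            ((G (z.1, z.2 + t)).im : ℂ) / (t : ℂ)))
            (volume.restrict {t : ℝ | (ε : ℝ) < |t| ∧ |t| < (R : ℝ)}) := i1.add j2
        have j123 : Integrable (fun t : ℝ => ((F (z.1 + t, z.2)).re : ℂ) *
            ((G (z.1, z.2 + t)).re : ℂ) / (t : ℂ) + Complex.I * (((F (z.1 + t, z.2)).re : ℂ) *
            ((G (z.1, z.2 + t)).im : ℂ) / (t : ℂ)) + Complex.I * (((F (z.1 + t, z.2)).im : ℂ) *
            ((G (z.1, z.2 + t)).re : ℂ) / (t : ℂ)))
            (volume.restrict {t : ℝ | (ε : ℝ) < |t| ∧ |t| < (R : ℝ)}) := j12.add j3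
        unfold annularTriangularHT
        beta_reduce
        rw [← integral_const_mul, ← integral_const_mul, ← integral_const_mul,
          ← integral_add i1 j2, ← integral_add j12 j3, ← integral_add j123 j4]
        refine integral_congr_ae (Eventually.of_forall fun t => ?_)
        show F (z.1 + t, z.2) * G (z.1, z.2 + t) / (t : ℂ) = _
        have eF := (Complex.re_add_im (F (z.1 + t, z.2))).symm
        have eG := (Complex.re_add_im (G (z.1, z.2 + t))).symm
        conv_lhs => rw [eF, eG]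
        ring_nf
        rw [Complex.I_sq]
        ring
      have e1 : ∀ a : ℂ, ‖Complex.I * a‖ₑ ≤ ‖a‖ₑ := by
        intro a
        rw [← ofReal_norm, ← ofReal_norm, norm_mul, Complex.norm_I, one_mul]
      have e2 : ∀ a : ℂ, ‖(-1) * a‖ₑ ≤ ‖a‖ₑ := by
        intro a
        rw [← ofReal_norm, ← ofReal_norm, norm_mul, norm_neg, norm_one, one_mul]
      rw [e]
      exact (enorm_add_le _ _).trans (add_le_add ((enorm_add_le _ _).trans (add_le_add
        ((enorm_add_le _ _).trans (add_le_add le_rfl (e1 _))) (e1 _))) (e2 _))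
    · exact Eventually.of_forall fun z h => absurd h hε
  filter_upwards [key] with z hz
  rw [annulusCount]
  refine iSup_le fun m => iSup_le fun hm => iSup_le fun ε => iSup_le fun R => iSup_le fun h1 =>
    iSup_le fun h2 => ?_
  have hle : ∀ F' G' : ℝ × ℝ → ℂ, ∑ j, ‖annularTriangularHT F' G' (ε j : ℝ) (R j : ℝ) z‖ₑ ≤
      annulusCount n F' G' z := by
    intro F' G'
    unfold annulusCount
    exact le_iSup_of_le m (le_iSup_of_le hm (le_iSup_of_le ε (le_iSup_of_le R
      (le_iSup_of_le h1 (le_iSup_of_le h2 le_rfl)))))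
  refine (Finset.sum_le_sum fun j _ => hz (ε j) (R j) (h1 j).1).trans ?_
  rw [Finset.sum_add_distrib, Finset.sum_add_distrib, Finset.sum_add_distrib]
  exact add_le_add (add_le_add (add_le_add (hle _ _) (hle _ _)) (hle _ _)) (hle _ _)

/-- **S0096** (Minkowski, `‖Re F‖₃ ≤ ‖F‖₃`, `log (2+n) ≥ 1`). -/
theorem S0096_main :
    ∃ C : ℝ, ∀ n : ℕ, 1 ≤ n → ∀ F G : ℝ × ℝ → ℂ,
      MeasureTheory.MemLp F 3 MeasureTheory.volume → MeasureTheory.MemLp G 3 MeasureTheory.volume →
        (∫⁻ z, Crest.AnalysisR.annulusCount n F G z ^ (3 / 2 : ℝ)) ^ (2 / 3 : ℝ) ≤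
          ENNReal.ofReal (C * Real.sqrt n * Real.log (2 + n)) * MeasureTheory.eLpNorm F 3 MeasureTheory.volume *
            MeasureTheory.eLpNorm G 3 MeasureTheory.volume := by
  obtain ⟨C, hC, hreal⟩ := real_count
  refine ⟨4 * C, fun n hn F G hF hG => ?_⟩
  have hFr : MemLp (fun z => (F z).re) 3 volume := hF.re
  have hFi : MemLp (fun z => (F z).im) 3 volume := hF.im
  have hGr : MemLp (fun z => (G z).re) 3 volume := hG.re
  have hGi : MemLp (fun z => (G z).im) 3 volume := hG.im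
  have nr : ∀ F : ℝ × ℝ → ℂ, eLpNorm (fun z => (F z).re) 3 volume ≤ eLpNorm F 3 volume := fun F =>
    eLpNorm_mono fun z => Complex.abs_re_le_norm _
  have ni : ∀ F : ℝ × ℝ → ℂ, eLpNorm (fun z => (F z).im) 3 volume ≤ eLpNorm F 3 volume := fun F =>
    eLpNorm_mono fun z => Complex.abs_im_le_norm _
  set B : ℝ≥0∞ := ENNReal.ofReal (C * Real.sqrt n) * eLpNorm F 3 volume * eLpNorm G 3 volume
    with hB
  let a1 := annulusCount n (fun z => ((F z).re : ℂ)) (fun z => ((G z).re : ℂ))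
  let a2 := annulusCount n (fun z => ((F z).re : ℂ)) (fun z => ((G z).im : ℂ))
  let a3 := annulusCount n (fun z => ((F z).im : ℂ)) (fun z => ((G z).re : ℂ))
  let a4 := annulusCount n (fun z => ((F z).im : ℂ)) (fun z => ((G z).im : ℂ))
  have b1 : (∫⁻ z, a1 z ^ (3 / 2 : ℝ)) ^ (2 / 3 : ℝ) ≤ B :=
    (hreal n hn _ _ hFr hGr).trans (mul_le_mul' (mul_le_mul' le_rfl (nr F)) (nr G))
  have b2 : (∫⁻ z, a2 z ^ (3 / 2 : ℝ)) ^ (2 / 3 : ℝ) ≤ B :=
    (hreal n hn _ _ hFr hGi).trans (mul_le_mul' (mul_le_mul' le_rfl (nr F)) (ni G))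
  have b3 : (∫⁻ z, a3 z ^ (3 / 2 : ℝ)) ^ (2 / 3 : ℝ) ≤ B :=
    (hreal n hn _ _ hFi hGr).trans (mul_le_mul' (mul_le_mul' le_rfl (ni F)) (nr G))
  have b4 : (∫⁻ z, a4 z ^ (3 / 2 : ℝ)) ^ (2 / 3 : ℝ) ≤ B :=
    (hreal n hn _ _ hFi hGi).trans (mul_le_mul' (mul_le_mul' le_rfl (ni F)) (ni G))
  have m1 : AEMeasurable a1 volume := aemeasurable_annulusCount hFr.ofReal.1 hGr.ofReal.1 n
  have m2 : AEMeasurable a2 volume := aemeasurable_annulusCount hFr.ofReal.1 hGi.ofReal.1 n
  have m3 : AEMeasurable a3 volume := aemeasurable_annulusCount hFi.ofReal.1 hGr.ofReal.1 n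
  have m4 : AEMeasurable a4 volume := aemeasurable_annulusCount hFi.ofReal.1 hGi.ofReal.1 n
  have mink : ∀ f g : ℝ × ℝ → ℝ≥0∞, AEMeasurable f volume → AEMeasurable g volume →
      (∫⁻ z, (f z + g z) ^ (3 / 2 : ℝ)) ^ (2 / 3 : ℝ) ≤
        (∫⁻ z, f z ^ (3 / 2 : ℝ)) ^ (2 / 3 : ℝ) + (∫⁻ z, g z ^ (3 / 2 : ℝ)) ^ (2 / 3 : ℝ) := by
    intro f g hf hg
    have h := ENNReal.lintegral_Lp_add_le (μ := volume) hf hg (show (1 : ℝ) ≤ 3 / 2 by norm_num)
    rw [show (1 / (3 / 2) : ℝ) = 2 / 3 by norm_num] at h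
    exact h
  have h1 : ∫⁻ z, annulusCount n F G z ^ (3 / 2 : ℝ) ≤
      ∫⁻ z, (a1 z + a2 z + a3 z + a4 z) ^ (3 / 2 : ℝ) :=
    lintegral_mono_ae ((annulusCount_le_four hF hG n).mono fun z hz =>
      ENNReal.rpow_le_rpow hz (by norm_num))
  have h2 : (∫⁻ z, annulusCount n F G z ^ (3 / 2 : ℝ)) ^ (2 / 3 : ℝ) ≤ B + B + B + B := by
    refine (ENNReal.rpow_le_rpow h1 (by norm_num)).trans ?_
    refine (mink (fun z => a1 z + a2 z + a3 z) a4 ((m1.add m2).add m3) m4).trans (add_le_add ?_ b4)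
    refine (mink (fun z => a1 z + a2 z) a3 (m1.add m2) m3).trans (add_le_add ?_ b3)
    exact (mink a1 a2 m1 m2).trans (add_le_add b1 b2)
  refine h2.trans ?_
  have h3 : B + B + B + B = ENNReal.ofReal (4 * C * Real.sqrt n) * eLpNorm F 3 volume *
      eLpNorm G 3 volume := by
    rw [show 4 * C * Real.sqrt n = 4 * (C * Real.sqrt n) by ring,
      ENNReal.ofReal_mul (by norm_num : (0 : ℝ) ≤ 4), hB]
    rw [show ENNReal.ofReal 4 = 4 by norm_num]
    ring
  rw [h3]
  have h4 : (1 : ℝ) ≤ Real.log (2 + n) := by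
    rw [Real.le_log_iff_exp_le (by positivity)]
    have h5 := Real.exp_one_lt_three
    have h6 : (1 : ℝ) ≤ n := by exact_mod_cast hn
    linarith
  have h7 : 0 ≤ 4 * C * Real.sqrt n := by positivity
  exact mul_le_mul' (mul_le_mul' (ENNReal.ofReal_le_ofReal (le_mul_of_one_le_right h7 h4)) le_rfl)
    le_rfl

end Crest.Agent.TH
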