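import Crest.Agent.TH_Meas

/-! # TH_Var (task TH-R3): S0095 from the statement of S0096 -/

set_option autoImplicit false
open MeasureTheory Set Filter
open scoped Topology ENNReal

namespace Crest.Agent.TH
open Crest.AnalysisR

/-- a sub-family of at most `n` of the annuli of a chain is admissible for `annulusCount n` -/
theorem sum_le_annulusCount (F G : ℝ × ℝ → ℂ) (z : ℝ × ℝ) {J : ℕ} (t : Fin (J + 2) → ℚ)
    (ht : StrictMono t) (h0 : 0 < t 0) (n : ℕ) (s : Finset (Fin (J + 1))) (hs : s.card ≤ n) :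
    ∑ j ∈ s, ‖annularTriangularHT F G (t (Fin.castSucc j) : ℝ) (t (Fin.succ j) : ℝ) z‖ₑ ≤
      annulusCount n F G z := by
  classical
  let e : Fin s.card ≃ s := s.equivFin.symm
  have h1 : ∑ j ∈ s, ‖annularTriangularHT F G (t (Fin.castSucc j) : ℝ) (t (Fin.succ j) : ℝ) z‖ₑ
      = ∑ j : Fin s.card, ‖annularTriangularHT F G
        (((fun j : Fin s.card => t (Fin.castSucc (e j).1)) j : ℚ) : ℝ)
        (((fun j : Fin s.card => t (Fin.succ (e j).1)) j : ℚ) : ℝ) z‖ₑ := by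
    rw [← Finset.sum_coe_sort s]
    exact (Equiv.sum_comp e (fun j : s => ‖annularTriangularHT F G (t (Fin.castSucc j.1) : ℝ)
      (t (Fin.succ j.1) : ℝ) z‖ₑ)).symm
  rw [h1]
  unfold annulusCount
  have hA : ∀ j : Fin s.card, 0 < (fun j : Fin s.card => t (Fin.castSucc (e j).1)) j ∧
      (fun j : Fin s.card => t (Fin.castSucc (e j).1)) j <
        (fun j : Fin s.card => t (Fin.succ (e j).1)) j := by
    intro j
    refine ⟨lt_of_lt_of_le h0 (ht.monotone (Fin.zero_le _)), ht Fin.castSucc_lt_succ⟩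
  have hB : ∀ i j : Fin s.card, i ≠ j →
      (fun j : Fin s.card => t (Fin.succ (e j).1)) i ≤
        (fun j : Fin s.card => t (Fin.castSucc (e j).1)) j ∨
      (fun j : Fin s.card => t (Fin.succ (e j).1)) j ≤
        (fun j : Fin s.card => t (Fin.castSucc (e j).1)) i := by
    intro i j hij
    have h2 : (e i).1 ≠ (e j).1 := by
      intro h3
      exact hij (e.injective (Subtype.ext h3))
    rcases lt_or_gt_of_ne h2 with h3 | h3
    · left
      apply ht.monotone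
      rw [Fin.le_def, Fin.val_succ, Fin.val_castSucc]
      exact h3
    · right
      apply ht.monotone
      rw [Fin.le_def, Fin.val_succ, Fin.val_castSucc]
      exact h3
  refine le_iSup_of_le s.card (le_iSup_of_le hs (le_iSup_of_le _ (le_iSup_of_le _
    (le_iSup_of_le hA (le_iSup_of_le hB le_rfl)))))

/-- `ℓ^r ≤ ℓ^1` in the form `∑ c_k^r ≤ (∑ c_k)^r`. -/
private theorem tsum_rpow_le (c : ℕ → ℝ≥0∞) {r : ℝ} (hr : 1 < r) :
    ∑' k, c k ^ r ≤ (∑' k, c k) ^ r := by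
  have h1 : ∀ k, c k ^ r ≤ c k * (∑' k, c k) ^ (r - 1) := by
    intro k
    have h2 : c k ^ r = c k * c k ^ (r - 1) := by
      conv_lhs => rw [show r = 1 + (r - 1) by ring]
      rw [ENNReal.rpow_add_of_nonneg _ _ zero_le_one (by linarith), ENNReal.rpow_one]
    rw [h2]
    exact mul_le_mul_right (ENNReal.rpow_le_rpow (ENNReal.le_tsum k) (by linarith)) _
  calc ∑' k, c k ^ r ≤ ∑' k, c k * (∑' k, c k) ^ (r - 1) := ENNReal.tsum_le_tsum h1
    _ = (∑' k, c k) * (∑' k, c k) ^ (r - 1) := ENNReal.tsum_mul_right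
    _ = (∑' k, c k) ^ r := by
      conv_rhs => rw [show r = 1 + (r - 1) by ring]
      rw [ENNReal.rpow_add_of_nonneg _ _ zero_le_one (by linarith), ENNReal.rpow_one]

/-- numerical lemma (decreasing rearrangement): if every subset of at most `m` indices has sum at most
`S m`, then `(∑ a_j^r)^{1/r} ≤ ∑_i 2^{-i(1-1/r)} S (2^i)`.  (Sort `a` decreasingly: `a*_m ≤ S m / m`; group
`m ∈ [2^i, 2^{i+1})`: `∑ a^r ≤ ∑_i 2^i (S (2^i) / 2^i)^r`, then `‖·‖_{ℓ^r} ≤ ‖·‖_{ℓ^1}`.) -/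
theorem rearrangement {ι : Type*} [Fintype ι] (a : ι → ℝ≥0∞) (S : ℕ → ℝ≥0∞)
    (h : ∀ (m : ℕ) (s : Finset ι), s.card ≤ m → ∑ j ∈ s, a j ≤ S m) {r : ℝ} (hr : 1 < r) :
    (∑ j, a j ^ r) ^ (1 / r) ≤
      ∑' i : ℕ, ENNReal.ofReal ((2 : ℝ) ^ (-(i : ℝ) * (1 - 1 / r))) * S (2 ^ i) := by
  classical
  have hr0 : 0 < r := by linarith
  set N := Fintype.card ι with hN
  let e : Fin N ≃ ι := (Fintype.equivFin ι).symm
  let σ : Equiv.Perm (Fin N) := Tuple.sort (fun i => OrderDual.toDual (a (e i)))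
  have hσ : Monotone ((fun i => OrderDual.toDual (a (e i))) ∘ σ) := Tuple.monotone_sort _
  have hanti : ∀ i j : Fin N, i ≤ j → a (e (σ j)) ≤ a (e (σ i)) := fun i j hij => hσ hij
  let b : ℕ → ℝ≥0∞ := fun k => if hk : k < N then a (e (σ ⟨k, hk⟩)) else 0
  have hb : ∀ i j : ℕ, i ≤ j → b j ≤ b i := by
    intro i j hij
    by_cases hj : j < N
    · have hi : i < N := lt_of_le_of_lt hij hj
      simp only [b, dif_pos hj, dif_pos hi]
      exact hanti _ _ hij
    · simp only [b, dif_neg hj]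
      exact zero_le
  -- the weak bound
  have hwk : ∀ k : ℕ, ((k + 1 : ℕ) : ℝ≥0∞) * b k ≤ S (k + 1) := by
    intro k
    by_cases hk : k < N
    · let s : Finset ι := (Finset.univ.filter (fun i : Fin N => i.1 ≤ k)).map
        ⟨fun i => e (σ i), fun i j hij => σ.injective (e.injective hij)⟩
      have hcard : (Finset.univ.filter (fun i : Fin N => i.1 ≤ k)).card = k + 1 := by
        have h1 : (Finset.univ.filter (fun i : Fin N => i.1 ≤ k)) =
            Finset.Iic (⟨k, hk⟩ : Fin N) := by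
          ext i
          simp [Fin.le_def]
        rw [h1, Fin.card_Iic]
      have hs : s.card ≤ k + 1 := by
        rw [Finset.card_map, hcard]
      refine le_trans ?_ (h (k + 1) s hs)
      rw [Finset.sum_map]
      calc ((k + 1 : ℕ) : ℝ≥0∞) * b k
          = ∑ i ∈ Finset.univ.filter (fun i : Fin N => i.1 ≤ k), b k := by
            rw [Finset.sum_const, hcard, nsmul_eq_mul]
        _ ≤ _ := by
            apply Finset.sum_le_sum
            intro i hi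
            have hi' : i.1 ≤ k := by simpa using hi
            simp only [b, dif_pos hk]
            exact hanti _ _ hi'
    · simp only [b, dif_neg hk, mul_zero]
      exact zero_le
  -- the sum as a series
  have hsum : ∑ j, a j ^ r = ∑' k : ℕ, b k ^ r := by
    have h1 : ∑ j, a j ^ r = ∑ i : Fin N, a (e (σ i)) ^ r := by
      rw [← Equiv.sum_comp e, ← Equiv.sum_comp σ]
    have h2 : ∑ i : Fin N, a (e (σ i)) ^ r = ∑ k ∈ Finset.range N, b k ^ r := by
      rw [← Fin.sum_univ_eq_sum_range]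
      apply Finset.sum_congr rfl
      intro i _
      simp only [b, dif_pos i.2]
    rw [h1, h2, tsum_eq_sum]
    intro k hk
    have hk' : ¬ k < N := by simpa using hk
    simp only [b, dif_neg hk']
    exact ENNReal.zero_rpow_of_pos hr0
  let f : ℕ → ℝ≥0∞ := fun k => if k = 0 then 0 else b (k - 1) ^ r
  have hf : ∀ ⦃m n : ℕ⦄, 0 < m → m ≤ n → f n ≤ f m := by
    intro m n hm hmn
    have hn : n ≠ 0 := by omega
    have hm' : m ≠ 0 := by omega
    simp only [f, if_neg hn, if_neg hm']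
    exact ENNReal.rpow_le_rpow (hb _ _ (by omega)) hr0.le
  have hcond := ENNReal.le_tsum_condensed hf
  have hshift : ∑' k : ℕ, b k ^ r = ∑' k, f k := by
    rw [tsum_eq_zero_add' (f := f) ENNReal.summable]
    simp [f]
  have hterm : ∀ k : ℕ, (2 : ℝ≥0∞) ^ k * f (2 ^ k) ≤
      (ENNReal.ofReal ((2 : ℝ) ^ (-(k : ℝ) * (1 - 1 / r))) * S (2 ^ k)) ^ r := by
    intro k
    have h2k : 2 ^ k ≠ 0 := pow_ne_zero _ two_ne_zero
    have h2k1 : 2 ^ k - 1 + 1 = 2 ^ k := Nat.sub_add_cancel (Nat.one_le_two_pow)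
    simp only [f, if_neg h2k]
    have h3 := hwk (2 ^ k - 1)
    rw [h2k1] at h3
    have h4 : (ENNReal.ofReal ((2 : ℝ) ^ (-(k : ℝ) * (1 - 1 / r))) *
        (((2 ^ k : ℕ) : ℝ≥0∞) * b (2 ^ k - 1))) ^ r ≤
        (ENNReal.ofReal ((2 : ℝ) ^ (-(k : ℝ) * (1 - 1 / r))) * S (2 ^ k)) ^ r := by
      gcongr
    refine le_trans (le_of_eq ?_) h4
    rw [← mul_assoc, ENNReal.mul_rpow_of_nonneg _ _ hr0.le]
    congr 1
    have h5 : ((2 ^ k : ℕ) : ℝ≥0∞) = ENNReal.ofReal ((2 : ℝ) ^ (k : ℝ)) := by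
      rw [Real.rpow_natCast, ← Nat.cast_two (R := ℝ), ← Nat.cast_pow, ENNReal.ofReal_natCast]
    have h6 : (2 : ℝ≥0∞) ^ k = ENNReal.ofReal ((2 : ℝ) ^ (k : ℝ)) := by
      rw [← h5]; push_cast; rfl
    rw [h5, h6, ← ENNReal.ofReal_mul (by positivity), ← Real.rpow_add two_pos,
      ENNReal.ofReal_rpow_of_pos (by positivity), ← Real.rpow_mul two_pos.le]
    congr 2
    field_simp
    ring
  have hfin : ∑ j, a j ^ r ≤
      (∑' i : ℕ, ENNReal.ofReal ((2 : ℝ) ^ (-(i : ℝ) * (1 - 1 / r))) * S (2 ^ i)) ^ r := by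
    rw [hsum, hshift]
    refine hcond.trans ?_
    have h0 : f 0 = 0 := by simp [f]
    rw [h0, zero_add]
    exact (ENNReal.tsum_le_tsum hterm).trans (tsum_rpow_le _ hr)
  calc (∑ j, a j ^ r) ^ (1 / r) ≤ ((∑' i : ℕ, ENNReal.ofReal
        ((2 : ℝ) ^ (-(i : ℝ) * (1 - 1 / r))) * S (2 ^ i)) ^ r) ^ (1 / r) :=
        ENNReal.rpow_le_rpow hfin (by positivity)
    _ = _ := by
      rw [← ENNReal.rpow_mul, mul_one_div_cancel hr0.ne', ENNReal.rpow_one]

theorem annularVariation_le (F G : ℝ × ℝ → ℂ) (z : ℝ × ℝ) {r : ℝ} (hr : 1 < r) :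
    annularVariation r F G z ≤
      ∑' i : ℕ, ENNReal.ofReal ((2 : ℝ) ^ (-(i : ℝ) * (1 - 1 / r))) * annulusCount (2 ^ i) F G z := by
  unfold annularVariation
  refine iSup_le fun J => iSup_le fun t => iSup_le fun ht => iSup_le fun h0 => ?_
  exact rearrangement (fun j : Fin (J + 1) => ‖annularTriangularHT F G (t (Fin.castSucc j) : ℝ)
    (t (Fin.succ j) : ℝ) z‖ₑ) (fun m => annulusCount m F G z)
    (fun m s hs => sum_le_annulusCount F G z t ht h0 m s hs) hr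

/-- countable Minkowski inequality -/
private theorem lintegral_tsum_rpow_le {α : Type*} [MeasurableSpace α] {μ : Measure α}
    (f : ℕ → α → ℝ≥0∞) (hf : ∀ i, AEMeasurable (f i) μ) {p : ℝ} (hp : 1 ≤ p) :
    (∫⁻ a, (∑' i, f i a) ^ p ∂μ) ^ (1 / p) ≤ ∑' i, (∫⁻ a, f i a ^ p ∂μ) ^ (1 / p) := by
  have hp0 : 0 < p := by linarith
  have hfin : ∀ N : ℕ, (∫⁻ a, (∑ i ∈ Finset.range N, f i a) ^ p ∂μ) ^ (1 / p) ≤
      ∑ i ∈ Finset.range N, (∫⁻ a, f i a ^ p ∂μ) ^ (1 / p) := by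
    intro N
    induction N with
    | zero =>
      simp only [Finset.range_zero, Finset.sum_empty, ENNReal.zero_rpow_of_pos hp0,
        lintegral_zero]
      rw [ENNReal.zero_rpow_of_pos (by positivity)]
    | succ N ih =>
      rw [Finset.sum_range_succ]
      have h1 : (fun a => (∑ i ∈ Finset.range (N + 1), f i a) ^ p) =
          fun a => ((fun a => ∑ i ∈ Finset.range N, f i a) + f N) a ^ p := by
        funext a
        rw [Finset.sum_range_succ]
        rfl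
      rw [h1]
      refine (ENNReal.lintegral_Lp_add_le (Finset.aemeasurable_fun_sum _ fun i _ => hf i) (hf N) hp).trans ?_
      gcongr
  have hmono : ∀ a, Monotone fun N : ℕ => (∑ i ∈ Finset.range N, f i a) ^ p := by
    intro a M N hMN
    apply ENNReal.rpow_le_rpow _ hp0.le
    exact Finset.sum_le_sum_of_subset (Finset.range_mono hMN)
  have hlim : ∫⁻ a, (∑' i, f i a) ^ p ∂μ =
      ⨆ N : ℕ, ∫⁻ a, (∑ i ∈ Finset.range N, f i a) ^ p ∂μ := by
    rw [← lintegral_iSup']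
    · apply lintegral_congr
      intro a
      apply le_antisymm
      · have h1 : Tendsto (fun N : ℕ => (∑ i ∈ Finset.range N, f i a) ^ p) atTop
            (𝓝 ((∑' i, f i a) ^ p)) :=
          ((ENNReal.continuous_rpow_const).tendsto _).comp (ENNReal.tendsto_nat_tsum _)
        exact le_of_tendsto' h1 fun N => le_iSup (fun N : ℕ => (∑ i ∈ Finset.range N, f i a) ^ p) N
      · refine iSup_le fun N => ENNReal.rpow_le_rpow (ENNReal.sum_le_tsum _) hp0.le
    · intro N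
      exact (Finset.aemeasurable_fun_sum _ fun i _ => hf i).pow_const _
    · exact Eventually.of_forall hmono
  have hmono2 : Monotone fun N : ℕ => ∫⁻ a, (∑ i ∈ Finset.range N, f i a) ^ p ∂μ := by
    intro M N hMN
    exact lintegral_mono fun a => hmono a hMN
  have h2 : Tendsto (fun N : ℕ => (∫⁻ a, (∑ i ∈ Finset.range N, f i a) ^ p ∂μ) ^ (1 / p)) atTop
      (𝓝 ((∫⁻ a, (∑' i, f i a) ^ p ∂μ) ^ (1 / p))) := by
    rw [hlim]
    exact ((ENNReal.continuous_rpow_const).tendsto _).comp (tendsto_atTop_iSup hmono2)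
  exact le_of_tendsto' h2 fun N => (hfin N).trans (ENNReal.sum_le_tsum _)

/-- **S0095 from S0096**: Minkowski in `L^{3/2}` (countable), and
`∑_i 2^{-i(1-1/r)} 2^{i/2} log (2 + 2^i) < ∞` for `r > 2`. -/
theorem S0095_of_S0096 (h : ∃ C : ℝ, ∀ n : ℕ, 1 ≤ n → ∀ F G : ℝ × ℝ → ℂ,
      MeasureTheory.MemLp F 3 MeasureTheory.volume → MeasureTheory.MemLp G 3 MeasureTheory.volume →
        (∫⁻ z, Crest.AnalysisR.annulusCount n F G z ^ (3 / 2 : ℝ)) ^ (2 / 3 : ℝ) ≤
          ENNReal.ofReal (C * Real.sqrt n * Real.log (2 + n)) * MeasureTheory.eLpNorm F 3 MeasureTheory.volume *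
            MeasureTheory.eLpNorm G 3 MeasureTheory.volume) (r : ℝ) (hr : 2 < r) :
    ∃ C : ℝ, ∀ F G : ℝ × ℝ → ℂ,
      MeasureTheory.MemLp F 3 MeasureTheory.volume → MeasureTheory.MemLp G 3 MeasureTheory.volume →
        (∫⁻ z, Crest.AnalysisR.annularVariation r F G z ^ (3 / 2 : ℝ)) ^ (2 / 3 : ℝ) ≤
          ENNReal.ofReal C * MeasureTheory.eLpNorm F 3 MeasureTheory.volume *
            MeasureTheory.eLpNorm G 3 MeasureTheory.volume := by
  obtain ⟨C, hC⟩ := h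
  set C₁ : ℝ := max C 0 with hC₁
  have hC₁0 : 0 ≤ C₁ := le_max_right _ _
  set ρ : ℝ := (2 : ℝ) ^ (-(1 / 2 - 1 / r)) with hρ
  have hr0 : 0 < r := by linarith
  have hexp : 0 < 1 / 2 - 1 / r := by
    have : 1 / r < 1 / 2 := one_div_lt_one_div_of_lt two_pos hr
    linarith
  have hρ0 : 0 < ρ := Real.rpow_pos_of_pos two_pos _
  have hρ1 : ρ < 1 := Real.rpow_lt_one_of_one_lt_of_neg one_lt_two (by linarith)
  have hsummable : Summable fun i : ℕ => C₁ * (((i : ℝ) + 2) * ρ ^ i) := by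
    apply Summable.mul_left
    have h1 := summable_pow_mul_geometric_of_norm_lt_one (R := ℝ) 1
      (r := ρ) (by rw [Real.norm_eq_abs, abs_of_pos hρ0]; exact hρ1)
    have h2 := summable_geometric_of_lt_one hρ0.le hρ1
    have h3 := h1.add (h2.mul_left 2)
    refine h3.congr fun i => ?_
    simp only [pow_one]
    ring
  have hnonneg : ∀ i : ℕ, 0 ≤ C₁ * (((i : ℝ) + 2) * ρ ^ i) := fun i => by positivity
  refine ⟨∑' i : ℕ, C₁ * (((i : ℝ) + 2) * ρ ^ i), fun F G hF hG => ?_⟩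
  set N : ℝ≥0∞ := eLpNorm F 3 volume * eLpNorm G 3 volume with hN
  have hterm : ∀ i : ℕ, (∫⁻ z, (ENNReal.ofReal ((2 : ℝ) ^ (-(i : ℝ) * (1 - 1 / r))) *
      annulusCount (2 ^ i) F G z) ^ (3 / 2 : ℝ)) ^ (1 / (3 / 2 : ℝ)) ≤
      ENNReal.ofReal (C₁ * (((i : ℝ) + 2) * ρ ^ i)) * N := by
    intro i
    have hw : ENNReal.ofReal ((2 : ℝ) ^ (-(i : ℝ) * (1 - 1 / r))) ≠ ⊤ := ENNReal.ofReal_ne_top
    have h1 : ∀ z, (ENNReal.ofReal ((2 : ℝ) ^ (-(i : ℝ) * (1 - 1 / r))) *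
        annulusCount (2 ^ i) F G z) ^ (3 / 2 : ℝ) =
        ENNReal.ofReal ((2 : ℝ) ^ (-(i : ℝ) * (1 - 1 / r))) ^ (3 / 2 : ℝ) *
          annulusCount (2 ^ i) F G z ^ (3 / 2 : ℝ) :=
      fun z => ENNReal.mul_rpow_of_nonneg _ _ (by norm_num)
    simp_rw [h1]
    rw [lintegral_const_mul' _ _ (ENNReal.rpow_ne_top_of_nonneg (by norm_num) hw),
      ENNReal.mul_rpow_of_nonneg _ _ (by norm_num), ← ENNReal.rpow_mul,
      show (3 / 2 : ℝ) * (1 / (3 / 2)) = 1 by norm_num, ENNReal.rpow_one,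
      show (1 / (3 / 2) : ℝ) = 2 / 3 by norm_num]
    have h2 := hC (2 ^ i) Nat.one_le_two_pow F G hF hG
    refine (mul_le_mul_right h2 _).trans ?_
    rw [mul_assoc (ENNReal.ofReal (C * _ * _)), ← hN, ← mul_assoc,
      ← ENNReal.ofReal_mul (by positivity)]
    refine mul_le_mul_left (ENNReal.ofReal_le_ofReal ?_) _
    have h3 : Real.sqrt ((2 ^ i : ℕ) : ℝ) = (2 : ℝ) ^ ((i : ℝ) / 2) := by
      push_cast
      rw [Real.sqrt_eq_rpow, ← Real.rpow_natCast, ← Real.rpow_mul two_pos.le]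
      congr 1
      ring
    have h4 : ρ ^ i = (2 : ℝ) ^ (-(i : ℝ) * (1 - 1 / r)) * (2 : ℝ) ^ ((i : ℝ) / 2) := by
      rw [hρ, ← Real.rpow_natCast, ← Real.rpow_mul two_pos.le, ← Real.rpow_add two_pos]
      congr 1
      ring
    have h5 : Real.log (2 + ((2 ^ i : ℕ) : ℝ)) ≤ (i : ℝ) + 2 := by
      have h6 : (2 : ℝ) + ((2 ^ i : ℕ) : ℝ) ≤ 2 ^ (i + 2) := by
        push_cast
        have : (1 : ℝ) ≤ 2 ^ i := one_le_pow₀ one_le_two
        rw [pow_add]
        nlinarith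
      calc Real.log (2 + ((2 ^ i : ℕ) : ℝ)) ≤ Real.log (2 ^ (i + 2)) :=
            Real.log_le_log (by positivity) h6
        _ = ((i + 2 : ℕ) : ℝ) * Real.log 2 := by rw [Real.log_pow]
        _ ≤ ((i + 2 : ℕ) : ℝ) * 1 := by
            gcongr
            exact (Real.log_two_lt_d9.le).trans (by norm_num)
        _ = (i : ℝ) + 2 := by push_cast; ring
    have h7 : 0 ≤ Real.log (2 + ((2 ^ i : ℕ) : ℝ)) := Real.log_nonneg (by
      have : (0 : ℝ) ≤ ((2 ^ i : ℕ) : ℝ) := Nat.cast_nonneg _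
      linarith)
    calc (2 : ℝ) ^ (-(i : ℝ) * (1 - 1 / r)) * (C * Real.sqrt ((2 ^ i : ℕ) : ℝ) *
          Real.log (2 + ((2 ^ i : ℕ) : ℝ)))
        ≤ (2 : ℝ) ^ (-(i : ℝ) * (1 - 1 / r)) * (C₁ * Real.sqrt ((2 ^ i : ℕ) : ℝ) *
          ((i : ℝ) + 2)) := by
          gcongr
          exact le_max_left _ _
      _ = C₁ * (((i : ℝ) + 2) * ρ ^ i) := by
          rw [h3, h4]
          ring
  have hmeas : ∀ i : ℕ, AEMeasurable (fun z => ENNReal.ofReal
      ((2 : ℝ) ^ (-(i : ℝ) * (1 - 1 / r))) * annulusCount (2 ^ i) F G z) volume :=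
    fun i => (aemeasurable_annulusCount hF.1 hG.1 (2 ^ i)).const_mul _
  calc (∫⁻ z, annularVariation r F G z ^ (3 / 2 : ℝ)) ^ (2 / 3 : ℝ)
      ≤ (∫⁻ z, (∑' i : ℕ, ENNReal.ofReal ((2 : ℝ) ^ (-(i : ℝ) * (1 - 1 / r))) *
          annulusCount (2 ^ i) F G z) ^ (3 / 2 : ℝ)) ^ (2 / 3 : ℝ) := by
        gcongr
        exact annularVariation_le F G _ (by linarith)
    _ = (∫⁻ z, (∑' i : ℕ, ENNReal.ofReal ((2 : ℝ) ^ (-(i : ℝ) * (1 - 1 / r))) *
          annulusCount (2 ^ i) F G z) ^ (3 / 2 : ℝ)) ^ (1 / (3 / 2 : ℝ)) := by norm_num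
    _ ≤ ∑' i : ℕ, (∫⁻ z, (ENNReal.ofReal ((2 : ℝ) ^ (-(i : ℝ) * (1 - 1 / r))) *
          annulusCount (2 ^ i) F G z) ^ (3 / 2 : ℝ)) ^ (1 / (3 / 2 : ℝ)) :=
        lintegral_tsum_rpow_le (fun (i : ℕ) z => ENNReal.ofReal
          ((2 : ℝ) ^ (-(i : ℝ) * (1 - 1 / r))) * annulusCount (2 ^ i) F G z) hmeas (by norm_num)
    _ ≤ ∑' i : ℕ, ENNReal.ofReal (C₁ * (((i : ℝ) + 2) * ρ ^ i)) * N :=
        ENNReal.tsum_le_tsum hterm
    _ = ENNReal.ofReal (∑' i : ℕ, C₁ * (((i : ℝ) + 2) * ρ ^ i)) * N := by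
        rw [ENNReal.tsum_mul_right, ENNReal.ofReal_tsum_of_nonneg hnonneg hsummable]
    _ = _ := by rw [hN, mul_assoc]

end Crest.Agent.TH
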