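import Crest.Agent.TH_Defs

/-! # TH_Den (task TH-R1): density of dyadic step functions in `L³(ℝ²)` -/

set_option autoImplicit false
open Matrix MeasureTheory Set Filter
open scoped Topology ENNReal

namespace Crest.Agent.TH

/-- the integer cell map -/
private noncomputable def den_phi (L : ℕ) (z : ℝ × ℝ) : ℤ × ℤ :=
  (⌊2 ^ L * z.1⌋, ⌊2 ^ L * z.2⌋)

private lemma den_measurable_phi (L : ℕ) : Measurable (den_phi L) := by
  unfold den_phi
  exact ((measurable_fst.const_mul _).floor).prodMk ((measurable_snd.const_mul _).floor)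

private lemma den_stepZ_eq (L : ℕ) (f : ℤ → ℤ → ℝ) :
    stepZ L f = (fun ab : ℤ × ℤ => f ab.1 ab.2) ∘ den_phi L := rfl

private lemma den_preimage (L : ℕ) (a b : ℤ) :
    den_phi L ⁻¹' {(a, b)} =
      Ico ((a : ℝ) / 2 ^ L) (((a : ℝ) + 1) / 2 ^ L) ×ˢ
        Ico ((b : ℝ) / 2 ^ L) (((b : ℝ) + 1) / 2 ^ L) := by
  have h2 : (0 : ℝ) < 2 ^ L := by positivity
  ext ⟨x, y⟩
  simp only [den_phi, Set.mem_preimage, Set.mem_singleton_iff, Prod.mk.injEq, Int.floor_eq_iff,
    Set.mem_prod, Set.mem_Ico, div_le_iff₀ h2, lt_div_iff₀ h2, mul_comm ((2 : ℝ) ^ L)]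

private lemma den_volume_preimage (L : ℕ) (ab : ℤ × ℤ) :
    (volume : Measure (ℝ × ℝ)) (den_phi L ⁻¹' {ab}) = ENNReal.ofReal (1 / 4 ^ L) := by
  obtain ⟨a, b⟩ := ab
  rw [den_preimage, Measure.volume_eq_prod, Measure.prod_prod, Real.volume_Ico, Real.volume_Ico,
    ← ENNReal.ofReal_mul (by rw [← sub_div]; apply div_nonneg <;> [linarith; positivity])]
  congr 1
  rw [← sub_div, ← sub_div]
  have : (4 : ℝ) ^ L = 2 ^ L * 2 ^ L := by
    rw [← mul_pow]; norm_num
  rw [this]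
  field_simp
  ring

private lemma den_indicator {α : Type*} (s : Set α) (c : ℝ) (z : α) (h : z ∉ s) :
    s.indicator (fun _ => c) z = 0 := Set.indicator_of_notMem h _

private lemma den_finite_support (f : ℤ → ℤ → ℝ)
    (hf : ∃ N : ℤ, ∀ a b, N ≤ |a| ∨ N ≤ |b| → f a b = 0) :
    (Function.support (fun ab : ℤ × ℤ => f ab.1 ab.2)).Finite := by
  obtain ⟨N, hN⟩ := hf
  refine Set.Finite.subset ((Finset.Icc (-N) N ×ˢ Finset.Icc (-N) N).finite_toSet) ?_
  rintro ⟨a, b⟩ hab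
  simp only [Function.mem_support] at hab
  have h : ¬ (N ≤ |a| ∨ N ≤ |b|) := fun h => hab (hN a b h)
  push Not at h
  simp only [Finset.coe_product, Finset.coe_Icc, Set.mem_prod, Set.mem_Icc]
  have ha := abs_lt.1 h.1
  have hb := abs_lt.1 h.2
  exact ⟨⟨ha.1.le, ha.2.le⟩, ⟨hb.1.le, hb.2.le⟩⟩

theorem measurable_stepZ (L : ℕ) (f : ℤ → ℤ → ℝ) : Measurable (stepZ L f) := by
  rw [den_stepZ_eq]
  exact (measurable_of_countable _).comp (den_measurable_phi L)

theorem memLp_stepZ (L : ℕ) (f : ℤ → ℤ → ℝ) (hf : ∃ N : ℤ, ∀ a b, N ≤ |a| ∨ N ≤ |b| → f a b = 0)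
    (p : ℝ≥0∞) : MemLp (stepZ L f) p volume := by
  have hfin := den_finite_support f hf
  have hsum : stepZ L f = fun z => ∑ ab ∈ hfin.toFinset,
      (den_phi L ⁻¹' {ab}).indicator (fun _ => f ab.1 ab.2) z := by
    funext z
    rw [den_stepZ_eq]
    simp only [Function.comp]
    by_cases hz : f (den_phi L z).1 (den_phi L z).2 = 0
    · rw [hz]
      symm
      apply Finset.sum_eq_zero
      intro ab hab
      by_cases h : z ∈ den_phi L ⁻¹' {ab}
      · rw [Set.indicator_of_mem h]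
        simp only [Set.mem_preimage, Set.mem_singleton_iff] at h
        rw [← h]; exact hz
      · exact den_indicator _ _ _ h
    · rw [Finset.sum_eq_single (den_phi L z)]
      · simp
      · intro ab _ hab
        apply den_indicator
        simp only [Set.mem_preimage, Set.mem_singleton_iff]
        exact fun h => hab h.symm
      · intro h
        exfalso
        apply h
        simpa using hz
  rw [hsum]
  apply memLp_finsetSum
  intro ab _
  apply memLp_indicator_const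
  · exact den_measurable_phi L (measurableSet_singleton _)
  · right
    rw [den_volume_preimage]
    exact ENNReal.ofReal_ne_top

/-- `∫ |stepZ L f|³ = 4^{-L} ∑ |f|³` -/
theorem eLpNorm_stepZ (L : ℕ) (f : ℤ → ℤ → ℝ) (hf : ∃ N : ℤ, ∀ a b, N ≤ |a| ∨ N ≤ |b| → f a b = 0) :
    eLpNorm (stepZ L f) 3 volume =
      ENNReal.ofReal (((∑' ab : ℤ × ℤ, |f ab.1 ab.2| ^ 3) / 4 ^ L) ^ (1 / 3 : ℝ)) := by
  have hfin := den_finite_support f hf
  have hsummable : Summable (fun ab : ℤ × ℤ => |f ab.1 ab.2| ^ 3) := by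
    apply summable_of_hasFiniteSupport
    refine hfin.subset ?_
    intro ab hab
    simp only [Function.mem_support] at hab ⊢
    intro h
    apply hab
    rw [h]; simp
  have h1 : eLpNorm (stepZ L f) 3 volume
      = (∫⁻ z, ‖stepZ L f z‖ₑ ^ (3 : ℝ)) ^ (1 / 3 : ℝ) := by
    rw [eLpNorm_eq_lintegral_rpow_enorm_toReal (by norm_num) (by norm_num)]
    norm_num
  have h2 : (∫⁻ z, ‖stepZ L f z‖ₑ ^ (3 : ℝ))
      = ENNReal.ofReal ((∑' ab : ℤ × ℤ, |f ab.1 ab.2| ^ 3) / 4 ^ L) := by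
    have h3 : (∫⁻ z, ‖stepZ L f z‖ₑ ^ (3 : ℝ))
        = ∫⁻ ab, ‖f ab.1 ab.2‖ₑ ^ (3 : ℝ) ∂(Measure.map (den_phi L) volume) := by
      rw [lintegral_map (measurable_of_countable _) (den_measurable_phi L)]
      rfl
    rw [h3, lintegral_countable']
    have h4 : ∀ ab : ℤ × ℤ, ‖f ab.1 ab.2‖ₑ ^ (3 : ℝ) * Measure.map (den_phi L) volume {ab}
        = ENNReal.ofReal (|f ab.1 ab.2| ^ 3 / 4 ^ L) := by
      intro ab
      rw [Measure.map_apply (den_measurable_phi L) (measurableSet_singleton _),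
        den_volume_preimage, Real.enorm_eq_ofReal_abs, ENNReal.ofReal_rpow_of_nonneg (abs_nonneg _)
          (by norm_num), ← ENNReal.ofReal_mul (by positivity)]
      congr 1
      norm_num [div_eq_mul_inv]
    rw [tsum_congr h4, ← ENNReal.ofReal_tsum_of_nonneg]
    · rw [tsum_div_const]
    · intro ab; positivity
    · exact hsummable.div_const _
  rw [h1, h2, ENNReal.ofReal_rpow_of_nonneg _ (by norm_num)]
  apply div_nonneg _ (by positivity)
  exact tsum_nonneg fun ab => by positivity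

/-- Density: approximate `F` in `L³` by a continuous compactly supported function
(`MeasureTheory.MemLp.exists_hasCompactSupport_eLpNorm_sub_le`), which is uniformly continuous; put
`f a b = φ(a / 2^L, b / 2^L)`. -/
theorem exists_stepZ_approx (F : ℝ × ℝ → ℝ) (hF : MemLp F 3 volume) {ε : ℝ} (hε : 0 < ε) :
    ∃ L₀ : ℕ, ∀ L ≥ L₀, ∃ f : ℤ → ℤ → ℝ, (∃ N : ℤ, ∀ a b, N ≤ |a| ∨ N ≤ |b| → f a b = 0) ∧
      eLpNorm (fun z => F z - stepZ L f z) 3 volume ≤ ENNReal.ofReal ε := by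
  obtain ⟨g, hgc, hgF, hgcont, hgmem⟩ :=
    hF.exists_hasCompactSupport_eLpNorm_sub_le (by norm_num : (3 : ℝ≥0∞) ≠ ∞)
      (ε := ENNReal.ofReal (ε / 2)) (by simp [hε])
  -- support in a ball
  obtain ⟨M, hM⟩ : ∃ M : ℝ, 0 < M ∧ ∀ z : ℝ × ℝ, M ≤ ‖z‖ → g z = 0 := by
    obtain ⟨r, hr0, hr⟩ := hgc.isCompact.isBounded.exists_pos_norm_lt
    refine ⟨r, hr0, fun z hz => ?_⟩
    by_contra hne
    have : z ∈ tsupport g := subset_tsupport _ hne
    exact absurd (hr z this) (not_lt.2 hz)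
  obtain ⟨hM0, hM⟩ := hM
  have hunif : UniformContinuous g := hgc.uniformContinuous_of_continuous hgcont
  set S : Set (ℝ × ℝ) := Set.Icc (-(M + 1)) (M + 1) ×ˢ Set.Icc (-(M + 1)) (M + 1) with hS
  have hvolS : (volume : Measure (ℝ × ℝ)) S = ENNReal.ofReal ((2 * (M + 1)) ^ 2) := by
    rw [hS, Measure.volume_eq_prod, Measure.prod_prod, Real.volume_Icc,
      ← ENNReal.ofReal_mul (by linarith)]
    congr 1
    ring
  set c : ℝ := ((2 * (M + 1)) ^ 2) ^ (1 / 3 : ℝ) with hc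
  have hc0 : 0 < c := by rw [hc]; positivity
  set η : ℝ := ε / 2 / c with hη
  have hη0 : 0 < η := by rw [hη]; positivity
  obtain ⟨δ, hδ0, hδ⟩ := Metric.uniformContinuous_iff.1 hunif η hη0
  obtain ⟨L₀, hL₀⟩ : ∃ L₀ : ℕ, (1 / 2 : ℝ) ^ L₀ < min δ 1 :=
    exists_pow_lt_of_lt_one (lt_min hδ0 one_pos) (by norm_num)
  refine ⟨L₀, fun L hL => ?_⟩
  have hpow : (1 / 2 : ℝ) ^ L < min δ 1 :=
    lt_of_le_of_lt (pow_le_pow_of_le_one (by norm_num) (by norm_num) hL) hL₀
  have h2 : (0 : ℝ) < 2 ^ L := by positivity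
  set f : ℤ → ℤ → ℝ := fun a b => g ((a : ℝ) / 2 ^ L, (b : ℝ) / 2 ^ L) with hf
  have hfN : ∃ N : ℤ, ∀ a b, N ≤ |a| ∨ N ≤ |b| → f a b = 0 := by
    refine ⟨⌈M * 2 ^ L⌉, fun a b hab => ?_⟩
    apply hM
    rw [Prod.norm_def]
    simp only [Real.norm_eq_abs, abs_div, abs_of_pos h2]
    rcases hab with h | h
    · apply le_max_of_le_left
      rw [le_div_iff₀ h2]
      calc M * 2 ^ L ≤ (⌈M * 2 ^ L⌉ : ℝ) := Int.le_ceil _
        _ ≤ ((|a| : ℤ) : ℝ) := by exact_mod_cast h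
        _ = |(a : ℝ)| := by push_cast; rfl
    · apply le_max_of_le_right
      rw [le_div_iff₀ h2]
      calc M * 2 ^ L ≤ (⌈M * 2 ^ L⌉ : ℝ) := Int.le_ceil _
        _ ≤ ((|b| : ℤ) : ℝ) := by exact_mod_cast h
        _ = |(b : ℝ)| := by push_cast; rfl
  refine ⟨f, hfN, ?_⟩
  -- closeness of grid point
  have hgrid : ∀ x : ℝ, |x - (⌊2 ^ L * x⌋ : ℝ) / 2 ^ L| ≤ (1 / 2 : ℝ) ^ L := by
    intro x
    have h3 := Int.floor_le (2 ^ L * x)
    have h4 := Int.lt_floor_add_one (2 ^ L * x)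
    have h5 : x - (⌊2 ^ L * x⌋ : ℝ) / 2 ^ L = (2 ^ L * x - ⌊2 ^ L * x⌋) / 2 ^ L := by
      field_simp
    rw [h5, abs_div, abs_of_pos h2, div_le_iff₀ h2, one_div, inv_pow,
      inv_mul_cancel₀ h2.ne', abs_of_nonneg (by linarith)]
    linarith
  have hdist : ∀ z : ℝ × ℝ, dist z ((⌊2 ^ L * z.1⌋ : ℝ) / 2 ^ L, (⌊2 ^ L * z.2⌋ : ℝ) / 2 ^ L)
      ≤ (1 / 2 : ℝ) ^ L := by
    intro z
    rw [Prod.dist_eq]
    exact max_le (hgrid z.1) (hgrid z.2)
  have hbd : ∀ z, ‖g z - stepZ L f z‖ ≤ η := by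
    intro z
    have := hδ (lt_of_le_of_lt (hdist z) (lt_of_lt_of_le hpow (min_le_left _ _)))
    rw [Real.dist_eq] at this
    exact this.le
  have hsupp : Function.support (fun z => g z - stepZ L f z) ⊆ S := by
    intro z hz
    by_contra hzS
    apply hz
    have hz1 : M + 1 ≤ ‖z‖ := by
      rw [Prod.norm_def]
      simp only [hS, Set.mem_prod, Set.mem_Icc, not_and_or, not_le] at hzS
      simp only [Real.norm_eq_abs]
      rcases hzS with (h | h) | (h | h)
      · exact le_max_of_le_left (by rw [le_abs]; right; linarith)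
      · exact le_max_of_le_left (by rw [le_abs]; left; linarith)
      · exact le_max_of_le_right (by rw [le_abs]; right; linarith)
      · exact le_max_of_le_right (by rw [le_abs]; left; linarith)
    have hg0 : g z = 0 := hM z (by linarith)
    have hs0 : stepZ L f z = 0 := by
      change g _ = 0
      apply hM
      have h6 := hdist z
      rw [dist_eq_norm] at h6
      have h7 := norm_sub_norm_le z ((⌊2 ^ L * z.1⌋ : ℝ) / 2 ^ L, (⌊2 ^ L * z.2⌋ : ℝ) / 2 ^ L)
      have h8 : (1 / 2 : ℝ) ^ L < 1 := lt_of_lt_of_le hpow (min_le_right _ _)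
      linarith
    simp only [hg0, hs0, sub_zero]
  have hgs : eLpNorm (fun z => g z - stepZ L f z) 3 volume ≤ ENNReal.ofReal (ε / 2) := by
    rw [← eLpNorm_restrict_eq_of_support_subset hsupp]
    refine (eLpNorm_le_of_ae_bound (C := η) (Eventually.of_forall hbd)).trans ?_
    rw [Measure.restrict_apply_univ, hvolS, ENNReal.ofReal_rpow_of_nonneg (by positivity)
      (by simp), ← ENNReal.ofReal_mul (by positivity)]
    apply ENNReal.ofReal_le_ofReal
    have : ((2 * (M + 1)) ^ 2) ^ ((3 : ℝ≥0∞).toReal⁻¹) = c := by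
      rw [hc]; norm_num
    rw [this, hη]
    rw [mul_div_cancel₀ _ hc0.ne']
  have hFg : AEStronglyMeasurable (F - g) volume := hF.1.sub hgmem.1
  have hgs_meas : AEStronglyMeasurable (fun z => g z - stepZ L f z) volume :=
    hgmem.1.sub (measurable_stepZ L f).aestronglyMeasurable
  have hsplit : (fun z => F z - stepZ L f z) = (F - g) + fun z => g z - stepZ L f z := by
    funext z
    simp
  rw [hsplit]
  refine (eLpNorm_add_le hFg hgs_meas (by norm_num)).trans ?_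
  calc eLpNorm (F - g) 3 volume + eLpNorm (fun z => g z - stepZ L f z) 3 volume
      ≤ ENNReal.ofReal (ε / 2) + ENNReal.ofReal (ε / 2) := add_le_add hgF hgs
    _ = ENNReal.ofReal ε := by
      rw [← ENNReal.ofReal_add (by linarith) (by linarith)]
      congr 1
      ring

end Crest.Agent.TH
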