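import Crest.Agent.TH_Defs
import Crest.Prelude.Def_DyadicTriangular

/-! # TH_Step (task TH-D3): the local form of step functions -/

set_option autoImplicit false
open Matrix MeasureTheory Set Filter
open scoped Topology

namespace Crest.Agent.TH
open Crest.AnalysisR.TriangularDyadic

/-- the cell of resolution `2^{-L}` with index `a`. -/
private def cell (L a : ℕ) : Set ℝ := Set.Ico ((a : ℝ) / 2 ^ L) (((a : ℝ) + 1) / 2 ^ L)

private theorem cell_meas (L a : ℕ) : MeasurableSet (cell L a) := measurableSet_Ico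

private theorem cell_vol (L a : ℕ) : volume.real (cell L a) = 1 / 2 ^ L := by
  unfold cell
  have h2 : (0 : ℝ) < 2 ^ L := by positivity
  rw [Real.volume_real_Ico_of_le (by
    apply div_le_div_of_nonneg_right _ h2.le
    linarith)]
  rw [← sub_div]
  congr 1
  ring

private theorem cell_vol_lt (L a : ℕ) : volume (cell L a) < ⊤ := by
  unfold cell
  rw [Real.volume_Ico]
  exact ENNReal.ofReal_lt_top

private theorem mem_cell {L a : ℕ} {x : ℝ} :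
    x ∈ cell L a ↔ (a : ℝ) ≤ 2 ^ L * x ∧ 2 ^ L * x < (a : ℝ) + 1 := by
  have h2 : (0 : ℝ) < 2 ^ L := by positivity
  unfold cell
  rw [Set.mem_Ico, div_le_iff₀ h2, lt_div_iff₀ h2, mul_comm x]

private theorem cell_floor {L a : ℕ} {x : ℝ} (hx : x ∈ cell L a) : ⌊2 ^ L * x⌋ = (a : ℤ) := by
  rw [mem_cell] at hx
  rw [Int.floor_eq_iff]
  exact_mod_cast hx

private theorem cell_disj (L : ℕ) {a b : ℕ} (h : a ≠ b) : Disjoint (cell L a) (cell L b) := by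
  rw [Set.disjoint_left]
  intro x ha hb
  have h1 := cell_floor ha
  have h2 := cell_floor hb
  rw [h1] at h2
  exact h (by exact_mod_cast h2)

private theorem mem_cell_of_floor {L : ℕ} {x : ℝ} (hx : 0 ≤ x) : x ∈ cell L ⌊2 ^ L * x⌋₊ := by
  rw [mem_cell]
  exact ⟨Nat.floor_le (by positivity), Nat.lt_floor_add_one _⟩

private theorem two_zpow_sub (j L : ℕ) : (2 : ℝ) ^ ((j : ℤ) - (L : ℤ)) = 2 ^ j / 2 ^ L := by
  rw [zpow_sub₀ (two_ne_zero), zpow_natCast, zpow_natCast]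

private theorem interval_eq (L j n : ℕ) :
    interval ((j : ℤ) - L) n = ⋃ i ∈ Finset.range (2 ^ j), cell L (2 ^ j * n + i) := by
  have h2 : (0 : ℝ) < 2 ^ L := by positivity
  ext x
  simp only [Set.mem_iUnion, Finset.mem_range, exists_prop]
  unfold interval
  rw [two_zpow_sub, Set.mem_Ico, div_mul_eq_mul_div, div_mul_eq_mul_div, div_le_iff₀ h2,
    lt_div_iff₀ h2, mul_comm x]
  constructor
  · rintro ⟨h3, h4⟩
    have hx : 0 ≤ 2 ^ L * x := le_trans (by positivity) h3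
    have hx' : 0 ≤ x := by
      by_contra h
      push Not at h
      nlinarith
    have h5 := mem_cell_of_floor (L := L) hx'
    have h6 : 2 ^ j * n ≤ ⌊2 ^ L * x⌋₊ := by
      apply Nat.le_floor
      push_cast
      exact h3
    have h7 : ⌊2 ^ L * x⌋₊ < 2 ^ j * (n + 1) := by
      rw [Nat.floor_lt hx]
      push_cast
      exact h4
    refine ⟨⌊2 ^ L * x⌋₊ - 2 ^ j * n, ?_, ?_⟩
    · rw [mul_add, mul_one] at h7
      omega
    · rw [Nat.add_sub_cancel' h6]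
      exact h5
  · rintro ⟨i, hi, hx⟩
    rw [mem_cell] at hx
    push_cast at hx
    have h5 : (i : ℝ) + 1 ≤ 2 ^ j := by exact_mod_cast hi
    have h6 : (0 : ℝ) ≤ i := Nat.cast_nonneg _
    constructor
    · linarith [hx.1]
    · rw [mul_add, mul_one]
      linarith [hx.2]

/-- integral over a finite union of cells of a function which is constant on the cells. -/
private theorem int_interval (L j n : ℕ) (g : ℝ → ℝ) (φ : Fin (2 ^ j) → ℝ)
    (h : ∀ i : Fin (2 ^ j), ∀ x ∈ cell L (2 ^ j * n + i), g x = φ i) :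
    ∫ x in interval ((j : ℤ) - L) n, g x = (∑ i, φ i) / 2 ^ L := by
  rw [interval_eq, integral_biUnion_finset _ (fun i _ => cell_meas _ _)]
  · rw [Finset.sum_range, Finset.sum_div]
    refine Finset.sum_congr rfl fun i _ => ?_
    rw [setIntegral_congr_fun (g := fun _ => φ i) (cell_meas _ _) (fun x hx => h i x hx),
      setIntegral_const, cell_vol, smul_eq_mul]
    ring
  · intro a _ b _ hab
    apply cell_disj
    intro h
    exact hab (by omega)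
  · intro i hi
    have hi' := Finset.mem_range.1 hi
    have h1 : IntegrableOn (fun _ : ℝ => φ ⟨i, hi'⟩) (cell L (2 ^ j * n + i)) :=
      integrableOn_const (cell_vol_lt _ _).ne
    exact h1.congr_fun (fun x hx => (h ⟨i, hi'⟩ x hx).symm) (cell_meas _ _)

/-- the Haar sign on a cell -/
private theorem haar_cell (L j n : ℕ) (hj : 1 ≤ j) (i : Fin (2 ^ j)) {x : ℝ}
    (hx : x ∈ cell L (2 ^ j * n + i)) : haarSign ((j : ℤ) - L) n x = hs j i := by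
  have h2 : (0 : ℝ) < 2 ^ L := by positivity
  obtain ⟨m, rfl⟩ : ∃ m, j = m + 1 := ⟨j - 1, by omega⟩
  have e1 : (((m + 1 : ℕ) : ℤ) - (L : ℤ) - 1) = (m : ℤ) - L := by push_cast; ring
  unfold haarSign hs
  rw [e1, two_zpow_sub, two_zpow_sub]
  have hxc := hx
  rw [mem_cell] at hxc
  push_cast at hxc
  have e2 : (2 : ℝ) ^ (m + 1) / 2 ^ L * n + 2 ^ m / 2 ^ L = (2 ^ (m + 1) * n + 2 ^ m) / 2 ^ L := by
    ring
  have e3 : (2 : ℝ) ^ (m + 1) / 2 ^ L * n = (2 ^ (m + 1) * n) / 2 ^ L := by ring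
  have e4 : (2 : ℝ) ^ (m + 1) / 2 ^ L * (n + 1) = (2 ^ (m + 1) * (n + 1)) / 2 ^ L := by ring
  rw [e2, e3, e4]
  simp only [Set.mem_Ico, div_le_iff₀ h2, lt_div_iff₀ h2]
  rw [mul_comm x]
  have hi0 : (0 : ℝ) ≤ (i : ℕ) := Nat.cast_nonneg _
  have hi1 : ((i : ℕ) : ℝ) + 1 ≤ 2 ^ (m + 1) := by exact_mod_cast i.2
  have hpw : 2 ^ (m + 1) = 2 * 2 ^ m := pow_succ' 2 m
  by_cases hlt : 2 * (i : ℕ) < 2 ^ (m + 1)
  · have h5 : (i : ℕ) + 1 ≤ 2 ^ m := by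
      omega
    have h6 : ((i : ℕ) : ℝ) + 1 ≤ 2 ^ m := by exact_mod_cast h5
    rw [if_pos hlt, if_pos]
    exact ⟨by linarith [hxc.1], by linarith [hxc.2]⟩
  · have h5 : 2 ^ m ≤ (i : ℕ) := by
      omega
    have h6 : (2 : ℝ) ^ m ≤ (i : ℕ) := by exact_mod_cast h5
    rw [if_neg hlt, if_neg, if_pos]
    · refine ⟨by linarith [hxc.1], ?_⟩
      rw [mul_add, mul_one]
      linarith [hxc.2]
    · rintro ⟨-, h7⟩
      linarith [hxc.1]

/-- `∫ haarSign = 0` -/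
private theorem int_haar (k : ℤ) (n : ℕ) : ∫ x in interval k n, haarSign k n x = 0 := by
  have hk : (0 : ℝ) < 2 ^ (k - 1) := by positivity
  have hk2 : (2 : ℝ) ^ k = 2 ^ (k - 1) + 2 ^ (k - 1) := by
    rw [← two_mul, ← zpow_one_add₀ two_ne_zero]
    congr 1
    ring
  have e1 : interval k n = Set.Ico ((2 : ℝ) ^ k * n) ((2 : ℝ) ^ k * n + (2 : ℝ) ^ (k - 1)) ∪
      Set.Ico ((2 : ℝ) ^ k * n + (2 : ℝ) ^ (k - 1)) ((2 : ℝ) ^ k * (n + 1)) := by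
    unfold interval
    rw [Set.Ico_union_Ico_eq_Ico]
    · linarith
    · rw [mul_add, mul_one]
      linarith
  have hd : Disjoint (Set.Ico ((2 : ℝ) ^ k * n) ((2 : ℝ) ^ k * n + (2 : ℝ) ^ (k - 1)))
      (Set.Ico ((2 : ℝ) ^ k * n + (2 : ℝ) ^ (k - 1)) ((2 : ℝ) ^ k * (n + 1))) := by
    rw [Set.disjoint_left]
    rintro x ⟨_, h1⟩ ⟨h2, _⟩
    linarith
  have c1 : EqOn (haarSign k n) (fun _ => (1 : ℝ))
      (Set.Ico ((2 : ℝ) ^ k * n) ((2 : ℝ) ^ k * n + (2 : ℝ) ^ (k - 1))) := by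
    intro x hx
    simp only [haarSign, if_pos hx]
  have c2 : EqOn (haarSign k n) (fun _ => (-1 : ℝ))
      (Set.Ico ((2 : ℝ) ^ k * n + (2 : ℝ) ^ (k - 1)) ((2 : ℝ) ^ k * (n + 1))) := by
    intro x hx
    have : x ∉ Set.Ico ((2 : ℝ) ^ k * n) ((2 : ℝ) ^ k * n + (2 : ℝ) ^ (k - 1)) :=
      fun h => Set.disjoint_left.1 hd h hx
    simp only [haarSign, if_neg this, if_pos hx]
  have v1 : volume (Set.Ico ((2 : ℝ) ^ k * n) ((2 : ℝ) ^ k * n + (2 : ℝ) ^ (k - 1))) ≠ ⊤ := by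
    rw [Real.volume_Ico]; exact ENNReal.ofReal_ne_top
  have v2 : volume (Set.Ico ((2 : ℝ) ^ k * n + (2 : ℝ) ^ (k - 1)) ((2 : ℝ) ^ k * (n + 1))) ≠ ⊤ := by
    rw [Real.volume_Ico]; exact ENNReal.ofReal_ne_top
  rw [e1, setIntegral_union hd measurableSet_Ico
    ((integrableOn_const v1).congr_fun c1.symm measurableSet_Ico)
    ((integrableOn_const v2).congr_fun c2.symm measurableSet_Ico),
    setIntegral_congr_fun measurableSet_Ico c1, setIntegral_congr_fun measurableSet_Ico c2,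
    setIntegral_const, setIntegral_const, Real.volume_real_Ico_of_le (by linarith),
    Real.volume_real_Ico_of_le (by rw [mul_add, mul_one]; linarith)]
  simp only [smul_eq_mul]
  rw [mul_add, mul_one, hk2]
  ring

/-- for `k ≤ -L` the step functions are constant on the box and `∫ haarSign = 0`. -/
theorem localForm_step_zero (L : ℕ) (k : ℤ) (hk : k ≤ -(L : ℤ)) (n₀ n₁ n₂ : ℕ) (f₀ f₁ f₂ : ℤ → ℤ → ℝ) :
    localForm k n₀ n₁ n₂ (stepZ L f₀) (stepZ L f₁) (stepZ L f₂) = 0 := by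
  obtain ⟨m, hm⟩ : ∃ m : ℕ, k = -(L : ℤ) - m := ⟨(-(L : ℤ) - k).toNat, by omega⟩
  have hfl : ∀ x ∈ interval k n₂, ⌊2 ^ L * x⌋ = ((n₂ / 2 ^ m : ℕ) : ℤ) := by
    intro x hx
    have hLm : (2 : ℝ) ^ k = 1 / (2 ^ L * 2 ^ m) := by
      rw [hm, zpow_sub₀ two_ne_zero, _root_.zpow_neg, zpow_natCast, zpow_natCast]
      field_simp
    unfold interval at hx
    rw [hLm, Set.mem_Ico] at hx
    have hL : (0 : ℝ) < 2 ^ L := by positivity
    have hM : (0 : ℝ) < 2 ^ m := by positivity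
    have h1 : (n₂ : ℝ) ≤ 2 ^ L * x * 2 ^ m := by
      have := hx.1
      rw [one_div, inv_mul_le_iff₀ (by positivity)] at this
      linarith
    have h2 : 2 ^ L * x * 2 ^ m < (n₂ : ℝ) + 1 := by
      have := hx.2
      rw [one_div, lt_inv_mul_iff₀ (by positivity)] at this
      linarith
    rw [Int.floor_eq_iff]
    have h3 := Nat.div_add_mod n₂ (2 ^ m)
    have h4 : n₂ % 2 ^ m < 2 ^ m := Nat.mod_lt _ (by positivity)
    have h5 : 2 ^ m * (n₂ / 2 ^ m) ≤ n₂ := by omega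
    have h6 : n₂ + 1 ≤ 2 ^ m * (n₂ / 2 ^ m + 1) := by rw [mul_add]; omega
    have h5' : (2 : ℝ) ^ m * ((n₂ / 2 ^ m : ℕ) : ℝ) ≤ n₂ := by exact_mod_cast h5
    have h6' : (n₂ : ℝ) + 1 ≤ 2 ^ m * (((n₂ / 2 ^ m : ℕ) : ℝ) + 1) := by exact_mod_cast h6
    rw [Int.cast_natCast]
    constructor
    · by_contra hlt
      push Not at hlt
      have := mul_lt_mul_of_pos_right hlt hM
      linarith
    · by_contra hlt
      push Not at hlt
      have := mul_le_mul_of_nonneg_right hlt hM.le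
      linarith
  have hmeas : MeasurableSet (interval k n₂) := measurableSet_Ico
  unfold localForm
  have hin : ∀ x₀ x₁ : ℝ, ∫ x₂ in interval k n₂,
      stepZ L f₀ (x₀, x₁) * stepZ L f₁ (x₁, x₂) * stepZ L f₂ (x₂, x₀) *
        (haarSign k n₀ x₀ * haarSign k n₁ x₁ * haarSign k n₂ x₂) = 0 := by
    intro x₀ x₁
    rw [setIntegral_congr_fun (g := fun x₂ => (stepZ L f₀ (x₀, x₁) *
      f₁ ⌊2 ^ L * x₁⌋ ((n₂ / 2 ^ m : ℕ) : ℤ) * f₂ ((n₂ / 2 ^ m : ℕ) : ℤ) ⌊2 ^ L * x₀⌋ *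
        (haarSign k n₀ x₀ * haarSign k n₁ x₁)) * haarSign k n₂ x₂) hmeas]
    · rw [integral_const_mul, int_haar, mul_zero]
    · intro x₂ hx₂
      simp only [stepZ]
      rw [hfl x₂ hx₂]
      ring
  simp only [hin, integral_zero, mul_zero]

private theorem trace_diag3 {n : Type*} [Fintype n] [DecidableEq n] (P Q R : Matrix n n ℝ)
    (d : n → ℝ) : (P * diagonal d * Q * diagonal d * R * diagonal d).trace =
      ∑ i, ∑ j, ∑ k, P i j * d j * Q j k * d k * R k i * d i := by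
  unfold Matrix.trace
  refine Finset.sum_congr rfl fun i _ => ?_
  rw [Matrix.diag_apply, Matrix.mul_diagonal, Matrix.mul_apply, Finset.sum_mul]
  have h : ∀ k, (P * diagonal d * Q * diagonal d) i k = ∑ j, P i j * d j * Q j k * d k := by
    intro k
    rw [Matrix.mul_diagonal, Matrix.mul_apply, Finset.sum_mul]
    refine Finset.sum_congr rfl fun j _ => ?_
    rw [Matrix.mul_diagonal]
  simp only [h, Finset.sum_mul]
  rw [Finset.sum_comm]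

/-- for `k = j - L`, `j ≥ 1`: split the intervals into the `2^j` cells of length `2^{-L}`. -/
theorem localForm_step (L j : ℕ) (hj : 1 ≤ j) (n₀ n₁ n₂ : ℕ) (f₀ f₁ f₂ : ℤ → ℤ → ℝ) :
    localForm ((j : ℤ) - L) n₀ n₁ n₂ (stepZ L f₀) (stepZ L f₁) (stepZ L f₂) =
      4 ^ j / 4 ^ L * dform j n₀ n₁ n₂ f₀ f₁ f₂ := by
  unfold localForm
  -- inner integral
  have h2 : ∀ x₀ x₁ : ℝ, ∫ x₂ in interval ((j : ℤ) - L) n₂,
      stepZ L f₀ (x₀, x₁) * stepZ L f₁ (x₁, x₂) * stepZ L f₂ (x₂, x₀) *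
        (haarSign ((j : ℤ) - L) n₀ x₀ * haarSign ((j : ℤ) - L) n₁ x₁ *
          haarSign ((j : ℤ) - L) n₂ x₂) =
      (∑ i₂ : Fin (2 ^ j), stepZ L f₀ (x₀, x₁) *
        f₁ ⌊2 ^ L * x₁⌋ ((2 ^ j * n₂ + i₂ : ℕ) : ℤ) * f₂ ((2 ^ j * n₂ + i₂ : ℕ) : ℤ) ⌊2 ^ L * x₀⌋ *
        (haarSign ((j : ℤ) - L) n₀ x₀ * haarSign ((j : ℤ) - L) n₁ x₁ * hs j i₂)) / 2 ^ L := by
    intro x₀ x₁
    refine int_interval L j n₂ _ _ fun i x hx => ?_
    simp only [stepZ]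
    rw [cell_floor hx, haar_cell L j n₂ hj i hx]
  simp only [h2]
  have h1 : ∀ x₀ : ℝ, ∫ x₁ in interval ((j : ℤ) - L) n₁,
      (∑ i₂ : Fin (2 ^ j), stepZ L f₀ (x₀, x₁) *
        f₁ ⌊2 ^ L * x₁⌋ ((2 ^ j * n₂ + i₂ : ℕ) : ℤ) * f₂ ((2 ^ j * n₂ + i₂ : ℕ) : ℤ) ⌊2 ^ L * x₀⌋ *
        (haarSign ((j : ℤ) - L) n₀ x₀ * haarSign ((j : ℤ) - L) n₁ x₁ * hs j i₂)) / 2 ^ L =
      (∑ i₁ : Fin (2 ^ j), (∑ i₂ : Fin (2 ^ j), f₀ ⌊2 ^ L * x₀⌋ ((2 ^ j * n₁ + i₁ : ℕ) : ℤ) *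
        f₁ ((2 ^ j * n₁ + i₁ : ℕ) : ℤ) ((2 ^ j * n₂ + i₂ : ℕ) : ℤ) *
          f₂ ((2 ^ j * n₂ + i₂ : ℕ) : ℤ) ⌊2 ^ L * x₀⌋ *
        (haarSign ((j : ℤ) - L) n₀ x₀ * hs j i₁ * hs j i₂)) / 2 ^ L) / 2 ^ L := by
    intro x₀
    refine int_interval L j n₁ _ _ fun i x hx => ?_
    simp only [stepZ]
    rw [cell_floor hx, haar_cell L j n₁ hj i hx]
  simp only [h1]
  have h0 : ∫ x₀ in interval ((j : ℤ) - L) n₀,
      (∑ i₁ : Fin (2 ^ j), (∑ i₂ : Fin (2 ^ j), f₀ ⌊2 ^ L * x₀⌋ ((2 ^ j * n₁ + i₁ : ℕ) : ℤ) *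
        f₁ ((2 ^ j * n₁ + i₁ : ℕ) : ℤ) ((2 ^ j * n₂ + i₂ : ℕ) : ℤ) *
          f₂ ((2 ^ j * n₂ + i₂ : ℕ) : ℤ) ⌊2 ^ L * x₀⌋ *
        (haarSign ((j : ℤ) - L) n₀ x₀ * hs j i₁ * hs j i₂)) / 2 ^ L) / 2 ^ L =
      (∑ i₀ : Fin (2 ^ j), (∑ i₁ : Fin (2 ^ j), (∑ i₂ : Fin (2 ^ j),
        f₀ ((2 ^ j * n₀ + i₀ : ℕ) : ℤ) ((2 ^ j * n₁ + i₁ : ℕ) : ℤ) *
        f₁ ((2 ^ j * n₁ + i₁ : ℕ) : ℤ) ((2 ^ j * n₂ + i₂ : ℕ) : ℤ) *
          f₂ ((2 ^ j * n₂ + i₂ : ℕ) : ℤ) ((2 ^ j * n₀ + i₀ : ℕ) : ℤ) *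
        (hs j i₀ * hs j i₁ * hs j i₂)) / 2 ^ L) / 2 ^ L) / 2 ^ L := by
    refine int_interval L j n₀ _ _ fun i x hx => ?_
    rw [cell_floor hx, haar_cell L j n₀ hj i hx]
  rw [h0]
  have hd : dform j n₀ n₁ n₂ f₀ f₁ f₂ =
      ∑ i₀ : Fin (2 ^ j), ∑ i₁ : Fin (2 ^ j), ∑ i₂ : Fin (2 ^ j),
        (f₀ ((2 ^ j * n₀ + i₀ : ℕ) : ℤ) ((2 ^ j * n₁ + i₁ : ℕ) : ℤ) *
        f₁ ((2 ^ j * n₁ + i₁ : ℕ) : ℤ) ((2 ^ j * n₂ + i₂ : ℕ) : ℤ) *
          f₂ ((2 ^ j * n₂ + i₂ : ℕ) : ℤ) ((2 ^ j * n₀ + i₀ : ℕ) : ℤ) *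
        (hs j i₀ * hs j i₁ * hs j i₂)) / (2 ^ j * 2 ^ j * 2 ^ j) := by
    unfold dform
    rw [trace_diag3]
    refine Finset.sum_congr rfl fun i₀ _ => ?_
    refine Finset.sum_congr rfl fun i₁ _ => Finset.sum_congr rfl fun i₂ _ => ?_
    unfold blk
    push_cast
    field_simp
  rw [hd]
  have h3 : ((2 : ℝ) ^ (-((j : ℤ) - (L : ℤ)))) = 2 ^ L / 2 ^ j := by
    rw [neg_sub, zpow_sub₀ two_ne_zero, zpow_natCast, zpow_natCast]
  rw [h3]
  have h4 : (4 : ℝ) ^ j = 2 ^ j * 2 ^ j := by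
    rw [← mul_pow]; norm_num
  have h5 : (4 : ℝ) ^ L = 2 ^ L * 2 ^ L := by
    rw [← mul_pow]; norm_num
  rw [h4, h5]
  simp only [← Finset.sum_div]
  field_simp

/-- the `L³` norm over the quarter plane of a step function whose `f` vanishes outside `[0, 2^M)²`
(on the quarter plane). -/
theorem integral_stepZ_cube (L M : ℕ) (f : ℤ → ℤ → ℝ)
    (hf : ∀ a b : ℤ, 0 ≤ a → 0 ≤ b → (2 ^ M ≤ a ∨ 2 ^ M ≤ b) → f a b = 0) :
    ∫ z in Set.Ici (0 : ℝ) ×ˢ Set.Ici (0 : ℝ), |stepZ L f z| ^ 3 =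
      (∑ a ∈ Finset.range (2 ^ M), ∑ b ∈ Finset.range (2 ^ M), |f a b| ^ 3) / 4 ^ L := by
  set U : Set (ℝ × ℝ) := ⋃ c ∈ (Finset.range (2 ^ M) ×ˢ Finset.range (2 ^ M)),
    (cell L c.1 ×ˢ cell L c.2) with hU
  have hsub : U ⊆ Set.Ici (0 : ℝ) ×ˢ Set.Ici (0 : ℝ) := by
    intro z hz
    rw [hU] at hz
    simp only [Set.mem_iUnion] at hz
    obtain ⟨c, -, hz1, hz2⟩ := hz
    unfold cell at hz1 hz2
    exact ⟨le_trans (by positivity) hz1.1, le_trans (by positivity) hz2.1⟩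
  have hmeasU : ∀ c : ℕ × ℕ, MeasurableSet (cell L c.1 ×ˢ cell L c.2) := fun c =>
    (cell_meas _ _).prod (cell_meas _ _)
  have h1 : ∫ z in Set.Ici (0 : ℝ) ×ˢ Set.Ici (0 : ℝ), |stepZ L f z| ^ 3 =
      ∫ z in U, |stepZ L f z| ^ 3 := by
    refine (setIntegral_eq_of_subset_of_forall_sdiff_eq_zero
      (measurableSet_Ici.prod measurableSet_Ici) hsub ?_)
    rintro ⟨x, y⟩ ⟨⟨hx, hy⟩, hnot⟩
    simp only [Set.mem_Ici] at hx hy
    have hx' := mem_cell_of_floor (L := L) hx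
    have hy' := mem_cell_of_floor (L := L) hy
    have h0 : f ⌊2 ^ L * x⌋ ⌊2 ^ L * y⌋ = 0 := by
      rw [cell_floor hx', cell_floor hy']
      apply hf _ _ (Int.natCast_nonneg _) (Int.natCast_nonneg _)
      by_contra hcon
      push Not at hcon
      apply hnot
      rw [hU]
      simp only [Set.mem_iUnion]
      refine ⟨(⌊2 ^ L * x⌋₊, ⌊2 ^ L * y⌋₊), ?_, hx', hy'⟩
      rw [Finset.mem_product, Finset.mem_range, Finset.mem_range]
      exact ⟨by exact_mod_cast hcon.1, by exact_mod_cast hcon.2⟩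
    simp only [stepZ, h0, abs_zero]
    norm_num
  have hval : ∀ c : ℕ × ℕ, EqOn (fun z => |stepZ L f z| ^ 3) (fun _ => |f c.1 c.2| ^ 3)
      (cell L c.1 ×ˢ cell L c.2) := by
    rintro c ⟨x, y⟩ ⟨hx, hy⟩
    simp only [stepZ]
    rw [cell_floor hx, cell_floor hy]
  have hvol : ∀ c : ℕ × ℕ, volume.real (cell L c.1 ×ˢ cell L c.2) = 1 / 4 ^ L := by
    intro c
    rw [Measure.real, Measure.volume_eq_prod, Measure.prod_prod, ENNReal.toReal_mul]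
    have h5 : (4 : ℝ) ^ L = 2 ^ L * 2 ^ L := by
      rw [← mul_pow]; norm_num
    have h6 := cell_vol L c.1
    have h7 := cell_vol L c.2
    unfold Measure.real at h6 h7
    rw [h6, h7, h5]
    field_simp
  rw [h1, hU, integral_biUnion_finset _ (fun c _ => hmeasU c)]
  · rw [Finset.sum_product, Finset.sum_div]
    refine Finset.sum_congr rfl fun a _ => ?_
    rw [Finset.sum_div]
    refine Finset.sum_congr rfl fun b _ => ?_
    rw [setIntegral_congr_fun (hmeasU (a, b)) (hval (a, b)), setIntegral_const, hvol, smul_eq_mul]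
    ring
  · intro c _ c' _ hcc
    simp only [Function.onFun]
    rw [Set.disjoint_prod]
    by_cases h : c.1 = c'.1
    · right
      apply cell_disj
      intro h'
      exact hcc (Prod.ext h h')
    · left
      exact cell_disj L h
  · intro c _
    have h3 : volume (cell L c.1 ×ˢ cell L c.2) ≠ ⊤ := by
      rw [Measure.volume_eq_prod, Measure.prod_prod]
      exact ENNReal.mul_ne_top (cell_vol_lt _ _).ne (cell_vol_lt _ _).ne
    exact (integrableOn_const h3).congr_fun (hval c).symm (hmeasU c)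

end Crest.Agent.TH
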