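import Crest.Agent.TH_Dy2
import Crest.Agent.TH_Step

/-! # TH_S97b (task TH-D5): S0097 for step functions -/

set_option autoImplicit false
open Matrix MeasureTheory Set Filter
open scoped Topology ENNReal

namespace Crest.Agent.TH
open Crest.AnalysisR.TriangularDyadic

/-- S0097 for step functions: every triple `(k, n₀, n₁)` of the finite set with `k > -L` has the form
`k = j - L` with `1 ≤ j`, and lies in the tree of `dyadic_multiplicative` for `M` large (and with the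
support of `f_i` inside `[0,2^M)`). -/
theorem S0097_step (L : ℕ) (f₀ f₁ f₂ : ℤ → ℤ → ℝ)
    (h₀ : ∃ N : ℤ, ∀ a b, N ≤ |a| ∨ N ≤ |b| → f₀ a b = 0)
    (h₁ : ∃ N : ℤ, ∀ a b, N ≤ |a| ∨ N ≤ |b| → f₁ a b = 0)
    (h₂ : ∃ N : ℤ, ∀ a b, N ≤ |a| ∨ N ≤ |b| → f₂ a b = 0) (𝓘 : Finset (ℤ × ℕ × ℕ)) :
    ∑ i ∈ 𝓘, |localForm i.1 i.2.1 i.2.2 (i.2.1 ^^^ i.2.2) (stepZ L f₀) (stepZ L f₁) (stepZ L f₂)| ≤
      40 * (∫ z in Set.Ici (0 : ℝ) ×ˢ Set.Ici (0 : ℝ), |stepZ L f₀ z| ^ 3) ^ (1 / 3 : ℝ) *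
        (∫ z in Set.Ici (0 : ℝ) ×ˢ Set.Ici (0 : ℝ), |stepZ L f₁ z| ^ 3) ^ (1 / 3 : ℝ) *
        (∫ z in Set.Ici (0 : ℝ) ×ˢ Set.Ici (0 : ℝ), |stepZ L f₂ z| ^ 3) ^ (1 / 3 : ℝ) := by
  classical
  obtain ⟨N₀, h₀⟩ := h₀
  obtain ⟨N₁, h₁⟩ := h₁
  obtain ⟨N₂, h₂⟩ := h₂
  set M : ℕ := ∑ i ∈ 𝓘, ((i.1 + L).toNat + i.2.1 + i.2.2) + N₀.toNat + N₁.toNat + N₂.toNat with hM
  have hMi : ∀ i ∈ 𝓘, (i.1 + L).toNat + i.2.1 + i.2.2 ≤ M := by
    intro i hi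
    have := Finset.single_le_sum (f := fun i : ℤ × ℕ × ℕ => (i.1 + L).toNat + i.2.1 + i.2.2)
      (fun _ _ => Nat.zero_le _) hi
    omega
  have hsupp : ∀ (N : ℤ) (f : ℤ → ℤ → ℝ), N.toNat ≤ M →
      (∀ a b, N ≤ |a| ∨ N ≤ |b| → f a b = 0) →
      ∀ a b : ℤ, 0 ≤ a → 0 ≤ b → (2 ^ M ≤ a ∨ 2 ^ M ≤ b) → f a b = 0 := by
    intro N f hN hf a b ha hb hab
    have h1 : N ≤ 2 ^ M := by
      have h2 : N ≤ (N.toNat : ℤ) := Int.self_le_toNat N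
      have h3 : (N.toNat : ℤ) ≤ (M : ℤ) := by exact_mod_cast hN
      have h4 : (M : ℤ) ≤ 2 ^ M := by
        have : M < 2 ^ M := Nat.lt_two_pow_self
        exact_mod_cast this.le
      linarith
    apply hf
    rcases hab with h | h
    · left
      rw [abs_of_nonneg ha]
      linarith
    · right
      rw [abs_of_nonneg hb]
      linarith
  have e0 := integral_stepZ_cube L M f₀ (hsupp N₀ f₀ (by omega) h₀)
  have e1 := integral_stepZ_cube L M f₁ (hsupp N₁ f₁ (by omega) h₁)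
  have e2 := integral_stepZ_cube L M f₂ (hsupp N₂ f₂ (by omega) h₂)
  have key := dyadic_multiplicative f₀ f₁ f₂ M
  set g : ℕ → ℕ → ℕ → ℝ := fun k n₀ n₁ => (4 : ℝ) ^ k * |dform k n₀ n₁ (n₀ ^^^ n₁) f₀ f₁ f₂|
    with hg
  have hg0 : ∀ k n₀ n₁, 0 ≤ g k n₀ n₁ := fun k n₀ n₁ => by
    simp only [hg]; positivity
  set T : Finset (Σ _ : ℕ, ℕ × ℕ) := (Finset.Icc 1 M).sigma
    (fun k => (Finset.range (2 ^ (M - k))) ×ˢ (Finset.range (2 ^ (M - k)))) with hT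
  have hR : ∑ k ∈ Finset.Icc 1 M, ∑ n₀ ∈ Finset.range (2 ^ (M - k)),
      ∑ n₁ ∈ Finset.range (2 ^ (M - k)), g k n₀ n₁ = ∑ x ∈ T, g x.1 x.2.1 x.2.2 := by
    rw [hT, Finset.sum_sigma]
    refine Finset.sum_congr rfl fun k _ => ?_
    rw [Finset.sum_product]
  have hL : ∑ i ∈ 𝓘, |localForm i.1 i.2.1 i.2.2 (i.2.1 ^^^ i.2.2) (stepZ L f₀) (stepZ L f₁)
      (stepZ L f₂)| ≤ (∑ x ∈ T, g x.1 x.2.1 x.2.2) / 4 ^ L := by
    have s1 : ∑ i ∈ 𝓘, |localForm i.1 i.2.1 i.2.2 (i.2.1 ^^^ i.2.2) (stepZ L f₀) (stepZ L f₁)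
        (stepZ L f₂)| = ∑ i ∈ 𝓘.filter (fun i => -(L : ℤ) < i.1),
        |localForm i.1 i.2.1 i.2.2 (i.2.1 ^^^ i.2.2) (stepZ L f₀) (stepZ L f₁)
        (stepZ L f₂)| := by
      symm
      apply Finset.sum_filter_of_ne
      intro i _ hi
      by_contra hcon
      push Not at hcon
      apply hi
      rw [localForm_step_zero L i.1 hcon, abs_zero]
    have s2 : ∀ i ∈ 𝓘.filter (fun i => -(L : ℤ) < i.1),
        |localForm i.1 i.2.1 i.2.2 (i.2.1 ^^^ i.2.2) (stepZ L f₀) (stepZ L f₁)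
        (stepZ L f₂)| = g (i.1 + L).toNat i.2.1 i.2.2 / 4 ^ L := by
      intro i hi
      have hk := (Finset.mem_filter.1 hi).2
      have h3 : i.1 = (((i.1 + L).toNat : ℕ) : ℤ) - L := by omega
      have h4 := localForm_step L (i.1 + L).toNat (by omega) i.2.1 i.2.2 (i.2.1 ^^^ i.2.2) f₀ f₁ f₂
      rw [← h3] at h4
      rw [h4, abs_mul, abs_of_nonneg (by positivity : (0 : ℝ) ≤ 4 ^ (i.1 + L).toNat / 4 ^ L)]
      simp only [hg]
      ring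
    have s3 : Set.InjOn (fun i : ℤ × ℕ × ℕ => (⟨(i.1 + L).toNat, i.2⟩ : Σ _ : ℕ, ℕ × ℕ))
        (𝓘.filter (fun i => -(L : ℤ) < i.1)) := by
      intro i hi j hj hij
      have hki := (Finset.mem_filter.1 (Finset.mem_coe.1 hi)).2
      have hkj := (Finset.mem_filter.1 (Finset.mem_coe.1 hj)).2
      simp only [Sigma.mk.injEq, heq_eq_eq] at hij
      obtain ⟨h5, h6⟩ := hij
      refine Prod.ext ?_ h6
      omega
    have s4 := Finset.sum_image (f := fun x : Σ _ : ℕ, ℕ × ℕ => g x.1 x.2.1 x.2.2) s3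
    have s5 : (𝓘.filter (fun i => -(L : ℤ) < i.1)).image
        (fun i : ℤ × ℕ × ℕ => (⟨(i.1 + L).toNat, i.2⟩ : Σ _ : ℕ, ℕ × ℕ)) ⊆ T := by
      intro x hx
      obtain ⟨i, hi, rfl⟩ := Finset.mem_image.1 hx
      obtain ⟨hi1, hi2⟩ := Finset.mem_filter.1 hi
      have hm := hMi i hi1
      rw [hT, Finset.mem_sigma, Finset.mem_Icc, Finset.mem_product, Finset.mem_range,
        Finset.mem_range]
      have hlt : ∀ a : ℕ, a ≤ M - (i.1 + L).toNat → a < 2 ^ (M - (i.1 + L).toNat) := by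
        intro a ha
        exact lt_of_lt_of_le Nat.lt_two_pow_self (Nat.pow_le_pow_right (by norm_num) ha)
      refine ⟨⟨?_, ?_⟩, ?_, ?_⟩
      · simp only; omega
      · simp only; omega
      · exact hlt i.2.1 (by omega)
      · exact hlt i.2.2 (by omega)
    rw [s1, Finset.sum_congr rfl s2, ← Finset.sum_div]
    refine div_le_div_of_nonneg_right ?_ (by positivity)
    refine le_trans (le_of_eq s4.symm) ?_
    exact Finset.sum_le_sum_of_subset_of_nonneg s5 fun x _ _ => hg0 _ _ _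
  rw [← hR] at hL
  refine hL.trans ?_
  have h4L : (0 : ℝ) < 4 ^ L := by positivity
  rw [e0, e1, e2, Real.div_rpow (by positivity) h4L.le, Real.div_rpow (by positivity) h4L.le,
    Real.div_rpow (by positivity) h4L.le]
  have hc : ((4 : ℝ) ^ L) ^ (1 / 3 : ℝ) * ((4 : ℝ) ^ L) ^ (1 / 3 : ℝ) *
      ((4 : ℝ) ^ L) ^ (1 / 3 : ℝ) = 4 ^ L := by
    rw [← Real.rpow_add h4L, ← Real.rpow_add h4L]
    norm_num
  have hc0 : 0 < ((4 : ℝ) ^ L) ^ (1 / 3 : ℝ) := Real.rpow_pos_of_pos h4L _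
  refine (div_le_div_of_nonneg_right key h4L.le).trans (le_of_eq ?_)
  set c := ((4 : ℝ) ^ L) ^ (1 / 3 : ℝ) with hcdef
  rw [← hc]
  field_simp

end Crest.Agent.TH
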