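import Crest.Agent.TH_S97a
import Crest.Agent.TH_S97b
import Crest.Agent.TH_Den

/-! # TH_S97 (task TH-D6): S0097 -/

set_option autoImplicit false
open Matrix MeasureTheory Set Filter
open scoped Topology ENNReal

namespace Crest.Agent.TH
open Crest.AnalysisR.TriangularDyadic

theorem eL3_toReal (μ : Measure (ℝ × ℝ)) (G : ℝ × ℝ → ℝ) (hG : MemLp G 3 μ) :
    (eLpNorm G 3 μ).toReal = (∫ z, |G z| ^ 3 ∂μ) ^ (1 / 3 : ℝ) := by
  rw [MemLp.eLpNorm_eq_integral_rpow_norm (by norm_num) (by norm_num) hG,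
    ENNReal.toReal_ofReal (by positivity)]
  have h3 : (3 : ℝ≥0∞).toReal = ((3 : ℕ) : ℝ) := by norm_num
  rw [h3]
  simp only [Real.rpow_natCast, Real.norm_eq_abs]
  norm_num

theorem stepZ_bounded (L : ℕ) (f : ℤ → ℤ → ℝ) (hf : ∃ N : ℤ, ∀ a b, N ≤ |a| ∨ N ≤ |b| → f a b = 0) :
    ∃ M : ℝ, 0 ≤ M ∧ ∀ z, |stepZ L f z| ≤ M := by
  obtain ⟨N, hN⟩ := hf
  refine ⟨∑ a ∈ Finset.Icc (-N) N, ∑ b ∈ Finset.Icc (-N) N, |f a b|, by positivity, ?_⟩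
  intro z
  unfold stepZ
  generalize ⌊(2 : ℝ) ^ L * z.1⌋ = a
  generalize ⌊(2 : ℝ) ^ L * z.2⌋ = b
  by_cases h : N ≤ |a| ∨ N ≤ |b|
  · rw [hN a b h, abs_zero]
    positivity
  · push Not at h
    have ha : a ∈ Finset.Icc (-N) N := by
      rw [Finset.mem_Icc]; constructor <;> [have := (abs_lt.1 h.1).1; have := (abs_lt.1 h.1).2] <;> omega
    have hb : b ∈ Finset.Icc (-N) N := by
      rw [Finset.mem_Icc]; constructor <;> [have := (abs_lt.1 h.2).1; have := (abs_lt.1 h.2).2] <;> omega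
    calc |f a b| ≤ ∑ b ∈ Finset.Icc (-N) N, |f a b| :=
          Finset.single_le_sum (f := fun b => |f a b|) (fun _ _ => abs_nonneg _) hb
      _ ≤ _ := Finset.single_le_sum (f := fun a => ∑ b ∈ Finset.Icc (-N) N, |f a b|)
          (fun _ _ => by positivity) ha

/-- **S0097** (approximate `F_i` by step functions in `L³`, `exists_stepZ_approx`). -/
theorem S0097_main
    (F₀ F₁ F₂ : ℝ × ℝ → ℝ) (hF₀ : Measurable F₀) (hF₁ : Measurable F₁) (hF₂ : Measurable F₂)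
    (hb : ∃ M : ℝ, ∀ z, abs (F₀ z) ≤ M ∧ abs (F₁ z) ≤ M ∧ abs (F₂ z) ≤ M)
    (hc₀ : HasCompactSupport F₀) (hc₁ : HasCompactSupport F₁) (hc₂ : HasCompactSupport F₂)
    (𝓘 : Finset (ℤ × ℕ × ℕ)) :
    ∑ i ∈ 𝓘, abs (Crest.AnalysisR.TriangularDyadic.localForm i.1 i.2.1 i.2.2 (i.2.1 ^^^ i.2.2) F₀ F₁ F₂) ≤
      40 * (∫ z in Set.Ici 0 ×ˢ Set.Ici 0, abs (F₀ z) ^ 3) ^ (1 / 3 : ℝ) *
        (∫ z in Set.Ici 0 ×ˢ Set.Ici 0, abs (F₁ z) ^ 3) ^ (1 / 3 : ℝ) *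
        (∫ z in Set.Ici 0 ×ˢ Set.Ici 0, abs (F₂ z) ^ 3) ^ (1 / 3 : ℝ) := by
  obtain ⟨M, hM⟩ := hb
  have hM0 : 0 ≤ M := (abs_nonneg _).trans (hM (0, 0)).1
  set ρ : Measure (ℝ × ℝ) := (volume : Measure (ℝ × ℝ)).restrict (Set.Ici 0 ×ˢ Set.Ici 0) with hρ
  -- `MemLp`
  have hmem : ∀ F : ℝ × ℝ → ℝ, Measurable F → (∀ z, |F z| ≤ M) → HasCompactSupport F → MemLp F 3 volume := by
    intro F hF hFM hFc
    have h1 : MemLp F ∞ volume := memLp_top_of_bound hF.aestronglyMeasurable M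
      (Filter.Eventually.of_forall fun z => by rw [Real.norm_eq_abs]; exact hFM z)
    refine h1.mono_exponent_of_measure_support_ne_top (s := tsupport F) ?_ ?_ le_top
    · intro x hx; exact image_eq_zero_of_notMem_tsupport hx
    · exact (IsCompact.measure_lt_top hFc).ne
  have m₀ := hmem F₀ hF₀ (fun z => (hM z).1) hc₀
  have m₁ := hmem F₁ hF₁ (fun z => (hM z).2.1) hc₁
  have m₂ := hmem F₂ hF₂ (fun z => (hM z).2.2) hc₂
  have r₀ : MemLp F₀ 3 ρ := m₀.restrict _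
  have r₁ : MemLp F₁ 3 ρ := m₁.restrict _
  have r₂ : MemLp F₂ 3 ρ := m₂.restrict _
  rw [← eL3_toReal ρ F₀ r₀, ← eL3_toReal ρ F₁ r₁, ← eL3_toReal ρ F₂ r₂]
  set N₀ := (eLpNorm F₀ 3 ρ).toReal with hN₀
  set N₁ := (eLpNorm F₁ 3 ρ).toReal with hN₁
  set N₂ := (eLpNorm F₂ 3 ρ).toReal with hN₂
  have N₀0 : 0 ≤ N₀ := ENNReal.toReal_nonneg
  have N₁0 : 0 ≤ N₁ := ENNReal.toReal_nonneg
  have N₂0 : 0 ≤ N₂ := ENNReal.toReal_nonneg
  choose C hC0 hC using fun i : ℤ × ℕ × ℕ => abs_localForm_le i.1 i.2.1 i.2.2 (i.2.1 ^^^ i.2.2)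
  set K : ℝ := ∑ i ∈ 𝓘, C i with hK
  have hK0 : 0 ≤ K := Finset.sum_nonneg fun i _ => hC0 i
  set S : ℝ := ∑ i ∈ 𝓘, |localForm i.1 i.2.1 i.2.2 (i.2.1 ^^^ i.2.2) F₀ F₁ F₂| with hS
  -- the main estimate
  have main : ∀ ε : ℝ, 0 < ε → S ≤ 40 * (N₀ + ε) * (N₁ + ε) * (N₂ + ε) +
      K * (ε * N₁ * N₂ + (N₀ + ε) * ε * N₂ + (N₀ + ε) * (N₁ + ε) * ε) := by
    intro ε hε
    obtain ⟨L₀, hL₀⟩ := exists_stepZ_approx F₀ m₀ hε
    obtain ⟨L₁, hL₁⟩ := exists_stepZ_approx F₁ m₁ hε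
    obtain ⟨L₂, hL₂⟩ := exists_stepZ_approx F₂ m₂ hε
    set L := max L₀ (max L₁ L₂) with hL
    obtain ⟨f₀, hf₀, e₀⟩ := hL₀ L (le_max_left _ _)
    obtain ⟨f₁, hf₁, e₁⟩ := hL₁ L ((le_max_left _ _).trans (le_max_right _ _))
    obtain ⟨f₂, hf₂, e₂⟩ := hL₂ L ((le_max_right _ _).trans (le_max_right _ _))
    obtain ⟨M₀, hM₀0, hM₀⟩ := stepZ_bounded L f₀ hf₀
    obtain ⟨M₁, hM₁0, hM₁⟩ := stepZ_bounded L f₁ hf₁
    obtain ⟨M₂, hM₂0, hM₂⟩ := stepZ_bounded L f₂ hf₂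
    have ms₀ := measurable_stepZ L f₀
    have ms₁ := measurable_stepZ L f₁
    have ms₂ := measurable_stepZ L f₂
    have g₀ : MemLp (stepZ L f₀) 3 ρ := (memLp_stepZ L f₀ hf₀ 3).restrict _
    have g₁ : MemLp (stepZ L f₁) 3 ρ := (memLp_stepZ L f₁ hf₁ 3).restrict _
    have g₂ : MemLp (stepZ L f₂) 3 ρ := (memLp_stepZ L f₂ hf₂ 3).restrict _
    have d₀ : MemLp (fun z => F₀ z - stepZ L f₀ z) 3 ρ := r₀.sub g₀
    have d₁ : MemLp (fun z => F₁ z - stepZ L f₁ z) 3 ρ := r₁.sub g₁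
    have d₂ : MemLp (fun z => F₂ z - stepZ L f₂ z) 3 ρ := r₂.sub g₂
    have small : ∀ δ : ℝ × ℝ → ℝ, eLpNorm δ 3 volume ≤ ENNReal.ofReal ε → (eLpNorm δ 3 ρ).toReal ≤ ε := by
      intro δ hδ
      have h1 : eLpNorm δ 3 ρ ≤ ENNReal.ofReal ε :=
        (eLpNorm_mono_measure _ Measure.restrict_le_self).trans hδ
      exact ENNReal.toReal_le_of_le_ofReal hε.le h1
    have s₀ := small _ e₀
    have s₁ := small _ e₁
    have s₂ := small _ e₂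
    have tri : ∀ F G : ℝ × ℝ → ℝ, MemLp F 3 ρ → MemLp G 3 ρ →
        (eLpNorm (fun z => F z - G z) 3 ρ).toReal ≤ ε →
        (eLpNorm G 3 ρ).toReal ≤ (eLpNorm F 3 ρ).toReal + ε := by
      intro F G hF hG hd
      have hFG : MemLp (fun z => F z - G z) 3 ρ := hF.sub hG
      have h1 : eLpNorm (F - (fun z => F z - G z)) 3 ρ ≤ eLpNorm F 3 ρ + eLpNorm (fun z => F z - G z) 3 ρ :=
        eLpNorm_sub_le hF.1 hFG.1 (by norm_num)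
      have h2 : F - (fun z => F z - G z) = G := by
        ext z; simp
      rw [h2] at h1
      have h3 := ENNReal.toReal_mono (ENNReal.add_ne_top.2 ⟨hF.2.ne, hFG.2.ne⟩) h1
      rw [ENNReal.toReal_add hF.2.ne hFG.2.ne] at h3
      linarith
    have t₀ := tri F₀ _ r₀ g₀ s₀
    have t₁ := tri F₁ _ r₁ g₁ s₁
    have t₂ := tri F₂ _ r₂ g₂ s₂
    -- the step function bound
    have step := S0097_step L f₀ f₁ f₂ hf₀ hf₁ hf₂ 𝓘
    rw [← hρ, ← eL3_toReal ρ _ g₀, ← eL3_toReal ρ _ g₁, ← eL3_toReal ρ _ g₂] at step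
    have step' : ∑ i ∈ 𝓘, |localForm i.1 i.2.1 i.2.2 (i.2.1 ^^^ i.2.2) (stepZ L f₀) (stepZ L f₁) (stepZ L f₂)| ≤
        40 * (N₀ + ε) * (N₁ + ε) * (N₂ + ε) := by
      refine step.trans ?_
      gcongr
    -- difference for each triple
    have diff : ∀ i ∈ 𝓘, |localForm i.1 i.2.1 i.2.2 (i.2.1 ^^^ i.2.2) F₀ F₁ F₂| ≤
        |localForm i.1 i.2.1 i.2.2 (i.2.1 ^^^ i.2.2) (stepZ L f₀) (stepZ L f₁) (stepZ L f₂)| +
          C i * (ε * N₁ * N₂ + (N₀ + ε) * ε * N₂ + (N₀ + ε) * (N₁ + ε) * ε) := by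
      intro i _
      set B : ℝ := M + M₀ + M₁ + M₂ with hB
      have a0 : ∀ z, |F₀ z| ≤ B := fun z => (hM z).1.trans (by linarith)
      have a1 : ∀ z, |F₁ z| ≤ B := fun z => (hM z).2.1.trans (by linarith)
      have a2 : ∀ z, |F₂ z| ≤ B := fun z => (hM z).2.2.trans (by linarith)
      have b0 : ∀ z, |stepZ L f₀ z| ≤ B := fun z => (hM₀ z).trans (by linarith)
      have b1 : ∀ z, |stepZ L f₁ z| ≤ B := fun z => (hM₁ z).trans (by linarith)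
      have b2 : ∀ z, |stepZ L f₂ z| ≤ B := fun z => (hM₂ z).trans (by linarith)
      have u0 := localForm_sub₀ i.1 i.2.1 i.2.2 (i.2.1 ^^^ i.2.2) F₀ (stepZ L f₀) F₁ F₂ hF₀ ms₀ hF₁ hF₂
        ⟨B, fun z => ⟨a0 z, b0 z, a1 z, a2 z⟩⟩
      have u1 := localForm_sub₁ i.1 i.2.1 i.2.2 (i.2.1 ^^^ i.2.2) F₁ (stepZ L f₁) (stepZ L f₀) F₂ hF₁ ms₁ ms₀ hF₂
        ⟨B, fun z => ⟨a1 z, b1 z, b0 z, a2 z⟩⟩
      have u2 := localForm_sub₂ i.1 i.2.1 i.2.2 (i.2.1 ^^^ i.2.2) F₂ (stepZ L f₂) (stepZ L f₀) (stepZ L f₁)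
        hF₂ ms₂ ms₀ ms₁ ⟨B, fun z => ⟨a2 z, b2 z, b0 z, b1 z⟩⟩
      have v0 := hC i (fun z => F₀ z - stepZ L f₀ z) F₁ F₂ d₀ r₁ r₂
      have v1 := hC i (stepZ L f₀) (fun z => F₁ z - stepZ L f₁ z) F₂ g₀ d₁ r₂
      have v2 := hC i (stepZ L f₀) (stepZ L f₁) (fun z => F₂ z - stepZ L f₂ z) g₀ g₁ d₂
      have hCi := hC0 i
      have w0 : C i * (eLpNorm (fun z => F₀ z - stepZ L f₀ z) 3 ρ).toReal * N₁ * N₂ ≤ C i * ε * N₁ * N₂ := by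
        gcongr
      have w1 : C i * (eLpNorm (stepZ L f₀) 3 ρ).toReal * (eLpNorm (fun z => F₁ z - stepZ L f₁ z) 3 ρ).toReal * N₂ ≤
          C i * (N₀ + ε) * ε * N₂ := by
        gcongr
      have w2 : C i * (eLpNorm (stepZ L f₀) 3 ρ).toReal * (eLpNorm (stepZ L f₁) 3 ρ).toReal *
          (eLpNorm (fun z => F₂ z - stepZ L f₂ z) 3 ρ).toReal ≤ C i * (N₀ + ε) * (N₁ + ε) * ε := by
        gcongr
      have key : localForm i.1 i.2.1 i.2.2 (i.2.1 ^^^ i.2.2) F₀ F₁ F₂ =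
          localForm i.1 i.2.1 i.2.2 (i.2.1 ^^^ i.2.2) (stepZ L f₀) (stepZ L f₁) (stepZ L f₂) +
          localForm i.1 i.2.1 i.2.2 (i.2.1 ^^^ i.2.2) (fun z => F₀ z - stepZ L f₀ z) F₁ F₂ +
          localForm i.1 i.2.1 i.2.2 (i.2.1 ^^^ i.2.2) (stepZ L f₀) (fun z => F₁ z - stepZ L f₁ z) F₂ +
          localForm i.1 i.2.1 i.2.2 (i.2.1 ^^^ i.2.2) (stepZ L f₀) (stepZ L f₁) (fun z => F₂ z - stepZ L f₂ z) := by
        rw [u0, u1, u2]; ring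
      rw [key]
      refine (abs_add_le _ _).trans ?_
      refine (add_le_add_left (abs_add_le _ _) _).trans ?_
      refine (add_le_add_left (add_le_add_left (abs_add_le _ _) _) _).trans ?_
      have : C i * (ε * N₁ * N₂ + (N₀ + ε) * ε * N₂ + (N₀ + ε) * (N₁ + ε) * ε) =
        C i * ε * N₁ * N₂ + C i * (N₀ + ε) * ε * N₂ + C i * (N₀ + ε) * (N₁ + ε) * ε := by ring
      rw [this]
      have v0' := v0.trans w0
      have v1' := v1.trans w1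
      have v2' := v2.trans w2
      linarith
    calc S ≤ ∑ i ∈ 𝓘, (|localForm i.1 i.2.1 i.2.2 (i.2.1 ^^^ i.2.2) (stepZ L f₀) (stepZ L f₁) (stepZ L f₂)| +
          C i * (ε * N₁ * N₂ + (N₀ + ε) * ε * N₂ + (N₀ + ε) * (N₁ + ε) * ε)) := Finset.sum_le_sum diff
      _ = _ := by rw [Finset.sum_add_distrib, ← Finset.sum_mul]
      _ ≤ _ := by gcongr
  have hcont : Tendsto (fun ε : ℝ => 40 * (N₀ + ε) * (N₁ + ε) * (N₂ + ε) +
      K * (ε * N₁ * N₂ + (N₀ + ε) * ε * N₂ + (N₀ + ε) * (N₁ + ε) * ε)) (𝓝[>] 0) (𝓝 (40 * N₀ * N₁ * N₂)) := by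
    have h : Continuous (fun ε : ℝ => 40 * (N₀ + ε) * (N₁ + ε) * (N₂ + ε) +
      K * (ε * N₁ * N₂ + (N₀ + ε) * ε * N₂ + (N₀ + ε) * (N₁ + ε) * ε)) := by fun_prop
    have h2 := h.tendsto 0
    simp only [add_zero, mul_zero, zero_mul] at h2
    exact h2.mono_left nhdsWithin_le_nhds
  refine ge_of_tendsto hcont ?_
  filter_upwards [self_mem_nhdsWithin] with ε hε
  exact main ε hε

end Crest.Agent.TH
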