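import Mathlib
import Crest.Prelude.Def_QuadraticTransport

set_option autoImplicit false
set_option linter.unusedSectionVars false
set_option linter.deprecated false
open MeasureTheory
open scoped ENNReal NNReal RealInnerProductSpace

namespace Crest.Agent.S0109

variable {d : ℕ} {ι : Type*} [Fintype ι] [Nonempty ι]

/-- The max-affine potential with slopes `y` and weights `a`. -/
noncomputable def pot (y : ι → EuclideanSpace ℝ (Fin d)) (a : ι → ℝ)
    (x : EuclideanSpace ℝ (Fin d)) : ℝ :=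
  ⨆ k, (⟪x, y k⟫ - a k)

/-- The Laguerre cell of index `k`. -/
def cell (y : ι → EuclideanSpace ℝ (Fin d)) (a : ι → ℝ) (k : ι) :
    Set (EuclideanSpace ℝ (Fin d)) :=
  {x | ∀ j, ⟪x, y j⟫ - a j ≤ ⟪x, y k⟫ - a k}

variable (y y' : ι → EuclideanSpace ℝ (Fin d)) (a a' : ι → ℝ)

omit [Nonempty ι] in
lemma le_pot (x : EuclideanSpace ℝ (Fin d)) (k : ι) : ⟪x, y k⟫ - a k ≤ pot y a x :=
  le_ciSup (f := fun k => ⟪x, y k⟫ - a k) (Set.finite_range _).bddAbove k

lemma pot_le {x : EuclideanSpace ℝ (Fin d)} {c : ℝ} (h : ∀ k, ⟪x, y k⟫ - a k ≤ c) :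
    pot y a x ≤ c := ciSup_le h

lemma exists_mem_cell (x : EuclideanSpace ℝ (Fin d)) : ∃ k, x ∈ cell y a k := by
  obtain ⟨k, hk⟩ := Finite.exists_max (fun k => ⟪x, y k⟫ - a k)
  exact ⟨k, hk⟩

lemma pot_eq_of_mem_cell {x : EuclideanSpace ℝ (Fin d)} {k : ι} (h : x ∈ cell y a k) :
    pot y a x = ⟪x, y k⟫ - a k :=
  le_antisymm (pot_le y a h) (le_pot y a x k)

lemma mem_cell_iff {x : EuclideanSpace ℝ (Fin d)} {k : ι} :
    x ∈ cell y a k ↔ pot y a x = ⟪x, y k⟫ - a k := by
  refine ⟨pot_eq_of_mem_cell y a, fun h j => ?_⟩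
  rw [← h]; exact le_pot y a x j

lemma exists_pot_eq (x : EuclideanSpace ℝ (Fin d)) : ∃ k, pot y a x = ⟪x, y k⟫ - a k := by
  obtain ⟨k, hk⟩ := exists_mem_cell y a x
  exact ⟨k, pot_eq_of_mem_cell y a hk⟩

omit [Fintype ι] [Nonempty ι] in
lemma isClosed_cell (k : ι) : IsClosed (cell y a k) := by
  have : cell y a k = ⋂ j, {x | ⟪x, y j⟫ - a j ≤ ⟪x, y k⟫ - a k} := by
    ext x; simp [cell]
  rw [this]
  exact isClosed_iInter fun j => isClosed_le (by fun_prop) (by fun_prop)

omit [Fintype ι] [Nonempty ι] in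
lemma measurableSet_cell (k : ι) : MeasurableSet (cell y a k) := (isClosed_cell y a k).measurableSet

omit [Fintype ι] [Nonempty ι] in
/-- Minkowski average of cells for the same slopes. -/
lemma half_add_mem_cell {x x' : EuclideanSpace ℝ (Fin d)} {k : ι}
    (h : x ∈ cell y a k) (h' : x' ∈ cell y a' k) :
    (1/2 : ℝ) • (x + x') ∈ cell y (fun j => (a j + a' j) / 2) k := by
  intro j
  have h1 := h j
  have h2 := h' j
  simp only [inner_smul_left, inner_add_left]
  simp only [conj_trivial]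
  linarith

/-- Lipschitz-type estimate for potentials. -/
lemma pot_sub_le {x x' : EuclideanSpace ℝ (Fin d)} {M : ℝ} (hM : ∀ k, ‖y k‖ ≤ M) :
    pot y a x - pot y a x' ≤ M * ‖x - x'‖ := by
  obtain ⟨k, hk⟩ := exists_pot_eq y a x
  have h1 := le_pot y a x' k
  have h2 : ⟪x - x', y k⟫ ≤ ‖x - x'‖ * ‖y k‖ := real_inner_le_norm _ _
  rw [inner_sub_left] at h2
  have h3 := mul_le_mul_of_nonneg_left (hM k) (norm_nonneg (x - x'))
  rw [hk]
  nlinarith

lemma lipschitz_pot {M : ℝ≥0} (hM : ∀ k, ‖y k‖ ≤ M) : LipschitzWith M (pot y a) := by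
  apply LipschitzWith.of_le_add_mul
  intro x x'
  have := pot_sub_le y a (x := x) (x' := x') hM
  rw [dist_eq_norm]
  linarith

lemma exists_lipschitz_pot : ∃ M : ℝ≥0, LipschitzWith M (pot y a) := by
  obtain ⟨k, hk⟩ := Finite.exists_max (fun k => ‖y k‖)
  exact ⟨‖y k‖₊, lipschitz_pot y a (by simpa using hk)⟩

lemma continuous_pot : Continuous (pot y a) := by
  obtain ⟨M, hM⟩ := exists_lipschitz_pot y a
  exact hM.continuous

lemma convexOn_pot : ConvexOn ℝ Set.univ (pot y a) := by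
  refine ⟨convex_univ, fun x _ x' _ s t hs ht hst => ?_⟩
  apply pot_le
  intro k
  have h1 := le_pot y a x k
  have h2 := le_pot y a x' k
  simp only [inner_add_left, inner_smul_left, conj_trivial, smul_eq_mul]
  have h3 := mul_le_mul_of_nonneg_left h1 hs
  have h4 := mul_le_mul_of_nonneg_left h2 ht
  have h5 : a k = s * a k + t * a k := by rw [← add_mul, hst, one_mul]
  linarith

/-- dependence on the weights. -/
lemma pot_sub_pot_le_weights {x : EuclideanSpace ℝ (Fin d)} {c : ℝ} (h : ∀ k, a' k - a k ≤ c) :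
    pot y a x - pot y a' x ≤ c := by
  obtain ⟨k, hk⟩ := exists_pot_eq y a x
  have h1 := le_pot y a' x k
  have h2 := h k
  linarith

lemma pot_add_const (x : EuclideanSpace ℝ (Fin d)) (c : ℝ) :
    pot y (fun k => a k + c) x = pot y a x - c := by
  apply le_antisymm
  · have := pot_sub_pot_le_weights y (fun k => a k + c) a (x := x) (c := -c) (by intro k; simp)
    linarith
  · have := pot_sub_pot_le_weights y a (fun k => a k + c) (x := x) (c := c) (by intro k; simp)
    linarith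

/-- dependence on the slopes. -/
lemma pot_sub_pot_le_slopes {x : EuclideanSpace ℝ (Fin d)} {c : ℝ} (h : ∀ k, ‖y k - y' k‖ ≤ c) :
    pot y a x - pot y' a x ≤ ‖x‖ * c := by
  obtain ⟨k, hk⟩ := exists_pot_eq y a x
  have h1 := le_pot y' a x k
  have h2 : ⟪x, y k - y' k⟫ ≤ ‖x‖ * ‖y k - y' k‖ := real_inner_le_norm _ _
  rw [inner_sub_right] at h2
  have h3 := mul_le_mul_of_nonneg_left (h k) (norm_nonneg x)
  linarith

lemma abs_pot_le {x : EuclideanSpace ℝ (Fin d)} {M A : ℝ} (hM : ∀ k, ‖y k‖ ≤ M)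
    (hA : ∀ k, |a k| ≤ A) : |pot y a x| ≤ ‖x‖ * M + A := by
  obtain ⟨k, hk⟩ := exists_pot_eq y a x
  rw [hk]
  have h1 : |⟪x, y k⟫| ≤ ‖x‖ * ‖y k‖ := abs_real_inner_le_norm _ _
  have h3 := mul_le_mul_of_nonneg_left (hM k) (norm_nonneg x)
  calc |⟪x, y k⟫ - a k| ≤ |⟪x, y k⟫| + |a k| := abs_sub _ _
    _ ≤ _ := by linarith [hA k]

/-- two distinct cells (for injective slopes) overlap in a null set. -/
lemma volume_cell_inter {y : ι → EuclideanSpace ℝ (Fin d)} {j k : ι} (hjk : y j ≠ y k) :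
    volume (cell y a j ∩ cell y a k) = 0 := by
  have hv : y j - y k ≠ 0 := sub_ne_zero.mpr hjk
  set v := y j - y k with hvdef
  have hsub : cell y a j ∩ cell y a k ⊆ {x | ⟪x, v⟫ = a j - a k} := by
    rintro x ⟨h1, h2⟩
    have h3 := h1 k
    have h4 := h2 j
    simp only [Set.mem_setOf_eq, hvdef, inner_sub_right]
    linarith
  refine measure_mono_null hsub ?_
  -- the hyperplane is an affine subspace
  let S : AffineSubspace ℝ (EuclideanSpace ℝ (Fin d)) :=
    { carrier := {x | ⟪x, v⟫ = a j - a k}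
      smul_vsub_vadd_mem' := by
        intro c p1 p2 p3 h1 h2 h3
        simp only [Set.mem_setOf_eq] at *
        simp only [vsub_eq_sub, vadd_eq_add, inner_add_left, inner_smul_left, inner_sub_left]
        rw [h1, h2, h3]
        simp }
  have hS : S ≠ ⊤ := by
    intro h
    have h0 : (0 : EuclideanSpace ℝ (Fin d)) ∈ S := by rw [h]; trivial
    have h1 : v ∈ S := by rw [h]; trivial
    have h0' : ⟪(0 : EuclideanSpace ℝ (Fin d)), v⟫ = a j - a k := h0
    have h1' : ⟪v, v⟫ = a j - a k := h1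
    rw [inner_zero_left] at h0'
    rw [← h0', inner_self_eq_zero] at h1'
    exact hv h1'
  exact Measure.addHaar_affineSubspace volume S hS

end Crest.Agent.S0109
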