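import Mathlib
import Crest.Prelude.Def_QuadraticTransport
import Crest.Agent.S0109_Pot

set_option autoImplicit false
set_option linter.unusedSectionVars false
set_option linter.deprecated false
open MeasureTheory
open scoped ENNReal NNReal RealInnerProductSpace

namespace Crest.Agent.S0109

variable {d : ℕ} {ι : Type*} [Fintype ι] [Nonempty ι]

/-- Kantorovich functional. -/
noncomputable def J (ρ : Measure (EuclideanSpace ℝ (Fin d))) (m : ι → ℝ)
    (y : ι → EuclideanSpace ℝ (Fin d)) (a : ι → ℝ) : ℝ :=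
  ∫ x, pot y a x ∂ρ + ∑ k, m k * a k

section basic
variable {ρ : Measure (EuclideanSpace ℝ (Fin d))} [IsProbabilityMeasure ρ] {R : ℝ}
  (hR : ∀ᵐ x ∂ρ, ‖x‖ ≤ R)
include hR

/-- a continuous function is integrable against a compactly supported probability measure. -/
lemma integrable_of_continuous {F : Type*} [NormedAddCommGroup F] {f : EuclideanSpace ℝ (Fin d) → F}
    (hf : Continuous f) : Integrable f ρ := by
  have hK : IsCompact (Metric.closedBall (0 : EuclideanSpace ℝ (Fin d)) R) :=
    isCompact_closedBall _ _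
  obtain ⟨C, hC⟩ := hK.exists_bound_of_continuousOn hf.continuousOn
  refine Integrable.of_bound hf.aestronglyMeasurable C ?_
  filter_upwards [hR] with x hx
  exact hC x (by simpa using hx)

lemma integrable_pot (y : ι → EuclideanSpace ℝ (Fin d)) (a : ι → ℝ) :
    Integrable (pot y a) ρ := integrable_of_continuous hR (continuous_pot y a)

lemma J_add_const {m : ι → ℝ} (hm1 : ∑ k, m k = 1) (y : ι → EuclideanSpace ℝ (Fin d)) (a : ι → ℝ)
    (c : ℝ) : J ρ m y (fun k => a k + c) = J ρ m y a := by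
  unfold J
  have h1 : ∫ x, pot y (fun k => a k + c) x ∂ρ = ∫ x, pot y a x ∂ρ - c := by
    simp_rw [pot_add_const y a]
    rw [integral_sub (integrable_pot hR y a) (integrable_const c)]
    simp
  have h2 : ∑ k, m k * (a k + c) = ∑ k, m k * a k + c := by
    simp_rw [mul_add]
    rw [Finset.sum_add_distrib, ← Finset.sum_mul, hm1, one_mul]
  rw [h1, h2]; ring

lemma J_sub_le {m : ι → ℝ} (hm : ∀ k, 0 < m k) (hm1 : ∑ k, m k = 1)
    (y : ι → EuclideanSpace ℝ (Fin d)) (a a' : ι → ℝ) :
    J ρ m y a - J ρ m y a' ≤ 2 * ‖a - a'‖ := by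
  unfold J
  have h1 : ∫ x, pot y a x ∂ρ - ∫ x, pot y a' x ∂ρ ≤ ‖a - a'‖ := by
    rw [← integral_sub (integrable_pot hR y a) (integrable_pot hR y a')]
    have : ∫ x, (pot y a x - pot y a' x) ∂ρ ≤ ∫ x, ‖a - a'‖ ∂ρ := by
      refine integral_mono ((integrable_pot hR y a).sub (integrable_pot hR y a'))
        (integrable_const _) ?_
      intro x
      apply pot_sub_pot_le_weights
      intro k
      have := norm_le_pi_norm (a - a') k
      rw [Pi.sub_apply, Real.norm_eq_abs] at this
      have h2 := neg_abs_le (a k - a' k)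
      linarith
    simpa using this
  have h2 : ∑ k, m k * a k - ∑ k, m k * a' k ≤ ‖a - a'‖ := by
    rw [← Finset.sum_sub_distrib]
    calc ∑ k, (m k * a k - m k * a' k) ≤ ∑ k, m k * ‖a - a'‖ := by
          apply Finset.sum_le_sum
          intro k _
          rw [← mul_sub]
          apply mul_le_mul_of_nonneg_left _ (hm k).le
          have := norm_le_pi_norm (a - a') k
          rw [Pi.sub_apply, Real.norm_eq_abs] at this
          exact (le_abs_self _).trans this
      _ = ‖a - a'‖ := by rw [← Finset.sum_mul, hm1, one_mul]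
  linarith

lemma continuous_J {m : ι → ℝ} (hm : ∀ k, 0 < m k) (hm1 : ∑ k, m k = 1)
    (y : ι → EuclideanSpace ℝ (Fin d)) : Continuous (J ρ m y) := by
  have : LipschitzWith 2 (J ρ m y) := by
    apply LipschitzWith.of_le_add_mul
    intro a a'
    have := J_sub_le hR hm hm1 y a a'
    rw [dist_eq_norm]
    simp only [NNReal.coe_ofNat]
    linarith
  exact this.continuous

lemma R_nonneg : 0 ≤ R := by
  obtain ⟨x, hx⟩ := hR.exists
  exact (norm_nonneg x).trans hx

/-- lower bound for `J`. -/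
lemma le_J {m : ι → ℝ} (hm : ∀ k, 0 < m k)
    (y : ι → EuclideanSpace ℝ (Fin d)) {M : ℝ} (hM : ∀ k, ‖y k‖ ≤ M) {a : ι → ℝ}
    (ha : ∀ k, 0 ≤ a k) {k₀ : ι} (hk₀ : a k₀ = 0) (k : ι) : -(R * M) + m k * a k ≤ J ρ m y a := by
  have hR0 := R_nonneg hR
  have hM0 : 0 ≤ M := (norm_nonneg _).trans (hM k)
  have h1 : -(R * M) ≤ ∫ x, pot y a x ∂ρ := by
    have : ∫ x, (-(R * M)) ∂ρ ≤ ∫ x, pot y a x ∂ρ := by
      refine integral_mono_ae (integrable_const _) (integrable_pot hR y a) ?_
      filter_upwards [hR] with x hx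
      have h2 := le_pot y a x k₀
      rw [hk₀, sub_zero] at h2
      have h3 : |⟪x, y k₀⟫| ≤ ‖x‖ * ‖y k₀‖ := abs_real_inner_le_norm _ _
      have h4 : ‖x‖ * ‖y k₀‖ ≤ R * M := mul_le_mul hx (hM k₀) (norm_nonneg _) hR0
      have h5 := neg_abs_le (⟪x, y k₀⟫)
      linarith
    simpa using this
  have h2 : m k * a k ≤ ∑ k, m k * a k :=
    Finset.single_le_sum (f := fun k => m k * a k) (fun j _ => mul_nonneg (hm j).le (ha j))
      (Finset.mem_univ k)
  unfold J
  linarith

lemma J_zero_le {m : ι → ℝ}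
    (y : ι → EuclideanSpace ℝ (Fin d)) {M : ℝ} (hM : ∀ k, ‖y k‖ ≤ M) :
    J ρ m y 0 ≤ R * M := by
  have hR0 := R_nonneg hR
  have hM0 : 0 ≤ M := (norm_nonneg _).trans (hM (Classical.arbitrary ι))
  have h1 : ∫ x, pot y 0 x ∂ρ ≤ R * M := by
    have : ∫ x, pot y 0 x ∂ρ ≤ ∫ x, (R * M) ∂ρ := by
      refine integral_mono_ae (integrable_pot hR y 0) (integrable_const _) ?_
      filter_upwards [hR] with x hx
      apply pot_le
      intro k
      have h3 : ⟪x, y k⟫ ≤ ‖x‖ * ‖y k‖ := real_inner_le_norm _ _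
      have h4 : ‖x‖ * ‖y k‖ ≤ R * M := mul_le_mul hx (hM k) (norm_nonneg _) hR0
      simp only [Pi.zero_apply, sub_zero]
      linarith
    simpa using this
  unfold J
  simpa using h1

/-- Any minimiser normalised by `min = 0` lies in a fixed box. -/
lemma le_of_J_le {m : ι → ℝ} (hm : ∀ k, 0 < m k)
    (y : ι → EuclideanSpace ℝ (Fin d)) {M : ℝ} (hM : ∀ k, ‖y k‖ ≤ M) {a : ι → ℝ}
    (ha : ∀ k, 0 ≤ a k) {k₀ : ι} (hk₀ : a k₀ = 0) (hJ : J ρ m y a ≤ J ρ m y 0) (k : ι) :
    a k ≤ 2 * R * M / m k := by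
  have h1 := le_J hR hm y hM ha hk₀ k
  have h2 := J_zero_le hR (m := m) y hM
  rw [le_div_iff₀ (hm k)]
  linarith

/-- Normalisation. -/
lemma exists_normalised {m : ι → ℝ} (hm1 : ∑ k, m k = 1) (y : ι → EuclideanSpace ℝ (Fin d))
    (a : ι → ℝ) : ∃ c : ℝ, (∀ k, 0 ≤ a k + c) ∧ (∃ k₀, a k₀ + c = 0) ∧
      J ρ m y (fun k => a k + c) = J ρ m y a := by
  obtain ⟨k₀, hk₀⟩ := Finite.exists_min a
  refine ⟨-a k₀, fun k => by linarith [hk₀ k], ⟨k₀, by simp⟩, J_add_const hR hm1 y a _⟩

lemma exists_min_J {m : ι → ℝ} (hm : ∀ k, 0 < m k) (hm1 : ∑ k, m k = 1)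
    (y : ι → EuclideanSpace ℝ (Fin d)) : ∃ a, ∀ a', J ρ m y a ≤ J ρ m y a' := by
  obtain ⟨kM, hkM⟩ := Finite.exists_max (fun k => ‖y k‖)
  set M := ‖y kM‖
  have hM : ∀ k, ‖y k‖ ≤ M := hkM
  let b : ι → ℝ := fun k => 2 * R * M / m k
  have hR0 := R_nonneg hR
  have hb : 0 ≤ b := by
    intro k
    have := (hm k).le
    simp only [Pi.zero_apply, b]
    positivity
  have hcomp : IsCompact (Set.Icc (0 : ι → ℝ) b) := isCompact_Icc
  obtain ⟨a, ha, hmin⟩ := hcomp.exists_isMinOn ⟨0, by simp [hb]⟩ (continuous_J hR hm hm1 y).continuousOn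
  refine ⟨a, fun a' => ?_⟩
  obtain ⟨c, hc1, ⟨k₀, hc2⟩, hc3⟩ := exists_normalised hR (ρ := ρ) hm1 y a'
  rw [← hc3]
  by_cases hJ : J ρ m y (fun k => a' k + c) ≤ J ρ m y 0
  · apply hmin
    refine ⟨hc1, fun k => ?_⟩
    exact le_of_J_le hR hm y hM hc1 hc2 hJ k
  · push Not at hJ
    exact (isMinOn_iff.mp hmin 0 (by simp [hb])).trans hJ.le

end basic

section mass
variable {ρ : Measure (EuclideanSpace ℝ (Fin d))} [IsProbabilityMeasure ρ] {R : ℝ}

/-- almost every point lies in exactly one cell. -/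
lemma ae_unique_cell (hac : ρ ≪ volume) {y : ι → EuclideanSpace ℝ (Fin d)}
    (hy : Function.Injective y) (a : ι → ℝ) :
    ∀ᵐ x ∂ρ, ∀ j k, x ∈ cell y a j → x ∈ cell y a k → j = k := by
  rw [ae_all_iff]; intro j
  rw [ae_all_iff]; intro k
  by_cases hjk : j = k
  · exact Filter.Eventually.of_forall fun _ _ _ => hjk
  · have h0 : ρ (cell y a j ∩ cell y a k) = 0 :=
      hac (volume_cell_inter a (hy.ne hjk))
    have := measure_eq_zero_iff_ae_notMem.mp h0
    filter_upwards [this] with x hx h1 h2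
    exact absurd ⟨h1, h2⟩ hx

lemma sum_indicator_cell {F : Type*} [AddCommMonoid F] {y : ι → EuclideanSpace ℝ (Fin d)} {a : ι → ℝ}
    {x : EuclideanSpace ℝ (Fin d)} (hx : ∀ j k, x ∈ cell y a j → x ∈ cell y a k → j = k)
    (f : EuclideanSpace ℝ (Fin d) → F) : ∑ k, (cell y a k).indicator f x = f x := by
  obtain ⟨k, hk⟩ := exists_mem_cell y a x
  rw [Finset.sum_eq_single k]
  · rw [Set.indicator_of_mem hk]
  · intro j _ hj
    rw [Set.indicator_of_notMem]
    intro h
    exact hj (hx j k h hk)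
  · intro h; exact absurd (Finset.mem_univ k) h

/-- decomposition of integrals along cells. -/
lemma integral_eq_sum_cell (hac : ρ ≪ volume) {F : Type*} [NormedAddCommGroup F] [NormedSpace ℝ F]
    {y : ι → EuclideanSpace ℝ (Fin d)}
    (hy : Function.Injective y) (a : ι → ℝ) {f : EuclideanSpace ℝ (Fin d) → F}
    (hf : Integrable f ρ) : ∫ x, f x ∂ρ = ∑ k, ∫ x in cell y a k, f x ∂ρ := by
  have h1 : ∫ x, f x ∂ρ = ∫ x, ∑ k, (cell y a k).indicator f x ∂ρ := by
    apply integral_congr_ae
    filter_upwards [ae_unique_cell hac hy a] with x hx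
    exact (sum_indicator_cell hx f).symm
  rw [h1, integral_finsetSum]
  · apply Finset.sum_congr rfl
    intro k _
    exact integral_indicator (measurableSet_cell y a k)
  · intro k _
    exact hf.indicator (measurableSet_cell y a k)

lemma sum_mass (hac : ρ ≪ volume) {y : ι → EuclideanSpace ℝ (Fin d)}
    (hy : Function.Injective y) (a : ι → ℝ) : ∑ k, ρ.real (cell y a k) = 1 := by
  have := integral_eq_sum_cell hac hy a (integrable_const (μ := ρ) (1 : ℝ))
  simp at this
  exact this.symm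

variable (hR : ∀ᵐ x ∂ρ, ‖x‖ ≤ R)
include hR

lemma mass_update_le {m : ι → ℝ} {y : ι → EuclideanSpace ℝ (Fin d)} {a : ι → ℝ}
    (hmin : ∀ a', J ρ m y a ≤ J ρ m y a') [DecidableEq ι] (k : ι) {s : ℝ} (hs : 0 < s) :
    ρ.real (cell y (Function.update a k (a k + s)) k) ≤ m k := by
  set a' := Function.update a k (a k + s) with ha'
  have h1 : ∀ x, pot y a' x ≤ pot y a x - (cell y a' k).indicator (fun _ => s) x := by
    intro x
    by_cases hx : x ∈ cell y a' k
    · rw [Set.indicator_of_mem hx, pot_eq_of_mem_cell y a' hx]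
      have := le_pot y a x k
      have h2 : a' k = a k + s := by simp [ha']
      rw [h2]; linarith
    · rw [Set.indicator_of_notMem hx, sub_zero]
      apply pot_le
      intro j
      have := le_pot y a x j
      by_cases hj : j = k
      · subst hj
        simp only [ha', Function.update_self]
        linarith
      · simp only [ha', Function.update_of_ne hj]
        exact this
  have h2 : ∫ x, pot y a' x ∂ρ ≤ ∫ x, pot y a x ∂ρ - s * ρ.real (cell y a' k) := by
    have h3 : ∫ x, pot y a' x ∂ρ ≤ ∫ x, (pot y a x - (cell y a' k).indicator (fun _ => s) x) ∂ρ := by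
      refine integral_mono (integrable_pot hR y a') ((integrable_pot hR y a).sub ?_) h1
      exact (integrable_const s).indicator (measurableSet_cell y a' k)
    rw [integral_sub (integrable_pot hR y a)
      ((integrable_const s).indicator (measurableSet_cell y a' k)),
      integral_indicator_const _ (measurableSet_cell y a' k), smul_eq_mul, mul_comm] at h3
    exact h3
  have h4 : ∑ j, m j * a' j = ∑ j, m j * a j + m k * s := by
    have : ∀ j, m j * a' j = m j * a j + (if j = k then m k * s else 0) := by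
      intro j
      by_cases hj : j = k
      · subst hj
        simp only [ha', Function.update_self, if_true]
        ring
      · simp [ha', Function.update_of_ne hj, hj]
    simp_rw [this]
    rw [Finset.sum_add_distrib]
    simp
  have h5 := hmin a'
  unfold J at h5
  rw [h4] at h5
  have h6 : s * ρ.real (cell y a' k) ≤ s * m k := by linarith
  exact le_of_mul_le_mul_left h6 hs

lemma mass_le (hac : ρ ≪ volume) {m : ι → ℝ} {y : ι → EuclideanSpace ℝ (Fin d)}
    (hy : Function.Injective y) {a : ι → ℝ}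
    (hmin : ∀ a', J ρ m y a ≤ J ρ m y a') (k : ι) :
    ρ.real (cell y a k) ≤ m k := by
  classical
  let A : ℕ → Set (EuclideanSpace ℝ (Fin d)) :=
    fun n => cell y (Function.update a k (a k + 1 / ((n : ℝ) + 1))) k
  have hA : Monotone A := by
    apply monotone_nat_of_le_succ
    intro n x hx j
    have h1 := hx j
    have h2 : (1 : ℝ) / (((n + 1 : ℕ) : ℝ) + 1) ≤ 1 / ((n : ℝ) + 1) := by
      apply one_div_le_one_div_of_le
      · positivity
      · push_cast; linarith
    by_cases hj : j = k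
    · subst hj; exact le_rfl
    · rw [Function.update_of_ne hj, Function.update_self] at h1 ⊢
      linarith
  have hlim : ρ (⋃ n, A n) ≤ ENNReal.ofReal (m k) := by
    rw [hA.measure_iUnion]
    apply iSup_le
    intro n
    have h1 := mass_update_le hR hmin k (s := 1 / ((n : ℝ) + 1)) (by positivity)
    rw [Measure.real] at h1
    rw [← ENNReal.ofReal_toReal (measure_ne_top ρ (A n))]
    exact ENNReal.ofReal_le_ofReal h1
  have hsub : ∀ᵐ x ∂ρ, x ∈ cell y a k → x ∈ ⋃ n, A n := by
    filter_upwards [ae_unique_cell hac hy a] with x hx hxk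
    -- strict inequality for all j ≠ k
    have hst : ∀ j, j ≠ k → ⟪x, y j⟫ - a j < ⟪x, y k⟫ - a k := by
      intro j hj
      refine lt_of_le_of_ne (hxk j) ?_
      intro h
      apply hj
      apply hx j k _ hxk
      intro i
      rw [h]; exact hxk i
    have hex : ∃ ε > 0, ∀ j, j ≠ k → ⟪x, y j⟫ - a j + ε ≤ ⟪x, y k⟫ - a k := by
      by_cases hne : ∃ j, j ≠ k
      · obtain ⟨j₀, hj₀⟩ := hne
        haveI : Nonempty {j // j ≠ k} := ⟨⟨j₀, hj₀⟩⟩
        obtain ⟨j₁, hj₁⟩ := Finite.exists_max (fun j : {j // j ≠ k} => ⟪x, y j⟫ - a j)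
        refine ⟨(⟪x, y k⟫ - a k) - (⟪x, y j₁⟫ - a j₁), by linarith [hst j₁ j₁.2], ?_⟩
        intro j hj
        have := hj₁ ⟨j, hj⟩
        simp only at this
        linarith
      · push Not at hne
        exact ⟨1, one_pos, fun j hj => absurd (hne j) hj⟩
    obtain ⟨ε, hε, hε2⟩ := hex
    obtain ⟨n, hn⟩ := exists_nat_one_div_lt hε
    refine Set.mem_iUnion.mpr ⟨n, fun j => ?_⟩
    by_cases hj : j = k
    · subst hj; exact le_rfl
    · rw [Function.update_of_ne hj, Function.update_self]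
      have := hε2 j hj
      linarith
  have h1 : ρ (cell y a k) ≤ ENNReal.ofReal (m k) := (measure_mono_ae hsub).trans hlim
  by_cases hmk : 0 ≤ m k
  · rw [Measure.real]
    exact ENNReal.toReal_le_of_le_ofReal hmk h1
  · exfalso
    have h1 := mass_update_le hR hmin k (s := 1) one_pos
    have h2 : (0:ℝ) ≤ ρ.real (cell y (Function.update a k (a k + 1)) k) := measureReal_nonneg
    linarith

/-- the cells of an optimal weight vector have the right masses. -/
lemma mass_eq (hac : ρ ≪ volume) {m : ι → ℝ} (hm1 : ∑ k, m k = 1)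
    {y : ι → EuclideanSpace ℝ (Fin d)}
    (hy : Function.Injective y) {a : ι → ℝ}
    (hmin : ∀ a', J ρ m y a ≤ J ρ m y a') (k : ι) :
    ρ.real (cell y a k) = m k := by
  have h1 := sum_mass hac hy a
  have h2 : ∑ k, (m k - ρ.real (cell y a k)) = 0 := by
    rw [Finset.sum_sub_distrib, h1, hm1, sub_self]
  have h3 := (Finset.sum_eq_zero_iff_of_nonneg (fun k _ =>
    sub_nonneg.mpr (mass_le hR hac hy hmin k))).mp h2 k (Finset.mem_univ k)
  linarith

end mass

end Crest.Agent.S0109
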