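import Mathlib
import Crest.Prelude.Def_QuadraticTransport
import Crest.Agent.S0109_Opt

set_option autoImplicit false
set_option linter.unusedSectionVars false
set_option linter.deprecated false
open MeasureTheory
open scoped ENNReal NNReal RealInnerProductSpace

namespace Crest.Agent.S0109

variable {d : ℕ} {ι : Type*} [Fintype ι] [Nonempty ι]

/-- optimal value. -/
noncomputable def Topt (ρ : Measure (EuclideanSpace ℝ (Fin d))) (m : ι → ℝ)
    (y : ι → EuclideanSpace ℝ (Fin d)) : ℝ := ⨅ a, J ρ m y a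

/-- `a` is an optimal weight vector. -/
def IsOpt (ρ : Measure (EuclideanSpace ℝ (Fin d))) (m : ι → ℝ)
    (y : ι → EuclideanSpace ℝ (Fin d)) (a : ι → ℝ) : Prop := ∀ a', J ρ m y a ≤ J ρ m y a'

/-- first moment of a cell -/
noncomputable def mom (ρ : Measure (EuclideanSpace ℝ (Fin d)))
    (y : ι → EuclideanSpace ℝ (Fin d)) (a : ι → ℝ) (k : ι) : EuclideanSpace ℝ (Fin d) :=
  ∫ x in cell y a k, x ∂ρ

lemma Topt_eq {ρ : Measure (EuclideanSpace ℝ (Fin d))} {m : ι → ℝ}
    {y : ι → EuclideanSpace ℝ (Fin d)} {a : ι → ℝ} (h : IsOpt ρ m y a) :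
    Topt ρ m y = J ρ m y a :=
  le_antisymm (ciInf_le ⟨J ρ m y a, by rintro _ ⟨a', rfl⟩; exact h a'⟩ a) (le_ciInf h)

section
variable {ρ : Measure (EuclideanSpace ℝ (Fin d))} [IsProbabilityMeasure ρ] {R : ℝ}
  (hR : ∀ᵐ x ∂ρ, ‖x‖ ≤ R)
include hR

lemma norm_mom_le {m : ι → ℝ} {y : ι → EuclideanSpace ℝ (Fin d)} {a : ι → ℝ} {k : ι}
    (hmass : ρ.real (cell y a k) = m k) : ‖mom ρ y a k‖ ≤ R * m k := by
  unfold mom
  rw [← hmass]
  apply norm_setIntegral_le_of_norm_le_const_ae' (measure_lt_top _ _)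
  filter_upwards [hR] with x hx _ using hx

lemma integral_cell_affine (y : ι → EuclideanSpace ℝ (Fin d)) (a : ι → ℝ) (k : ι)
    (v : EuclideanSpace ℝ (Fin d)) (c : ℝ) :
    ∫ x in cell y a k, (⟪x, v⟫ - c) ∂ρ = ⟪mom ρ y a k, v⟫ - c * ρ.real (cell y a k) := by
  have hid : Integrable (fun x : EuclideanSpace ℝ (Fin d) => x) ρ :=
    integrable_of_continuous hR continuous_id
  have h1 : Integrable (fun x : EuclideanSpace ℝ (Fin d) => ⟪x, v⟫) ρ :=
    integrable_of_continuous hR (by fun_prop)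
  rw [integral_sub h1.integrableOn (integrable_const _)]
  congr 1
  · have := integral_inner (𝕜 := ℝ) (hid.integrableOn (s := cell y a k)) v
    unfold mom
    rw [real_inner_comm, ← this]
    apply integral_congr_ae
    filter_upwards with x
    exact real_inner_comm _ _
  · simp [mul_comm]

lemma le_J_of_cells (hac : ρ ≪ volume) {m : ι → ℝ} {y : ι → EuclideanSpace ℝ (Fin d)}
    (hy : Function.Injective y) {a : ι → ℝ} (hmass : ∀ k, ρ.real (cell y a k) = m k)
    (y' : ι → EuclideanSpace ℝ (Fin d)) (a' : ι → ℝ) :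
    ∑ k, ⟪mom ρ y a k, y' k⟫ ≤ J ρ m y' a' := by
  unfold J
  rw [integral_eq_sum_cell hac hy a (integrable_pot hR y' a'), ← Finset.sum_add_distrib]
  apply Finset.sum_le_sum
  intro k _
  have h1 : ∫ x in cell y a k, (⟪x, y' k⟫ - a' k) ∂ρ ≤ ∫ x in cell y a k, pot y' a' x ∂ρ := by
    apply setIntegral_mono
    · exact (integrable_of_continuous hR (by fun_prop)).integrableOn
    · exact (integrable_pot hR y' a').integrableOn
    · intro x
      exact le_pot y' a' x k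
  rw [integral_cell_affine hR, hmass k] at h1
  linarith

lemma J_eq_of_cells (hac : ρ ≪ volume) {m : ι → ℝ} {y : ι → EuclideanSpace ℝ (Fin d)}
    (hy : Function.Injective y) {a : ι → ℝ} (hmass : ∀ k, ρ.real (cell y a k) = m k) :
    J ρ m y a = ∑ k, ⟪mom ρ y a k, y k⟫ := by
  unfold J
  rw [integral_eq_sum_cell hac hy a (integrable_pot hR y a), ← Finset.sum_add_distrib]
  apply Finset.sum_congr rfl
  intro k _
  have h1 : ∫ x in cell y a k, pot y a x ∂ρ = ∫ x in cell y a k, (⟪x, y k⟫ - a k) ∂ρ := by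
    apply setIntegral_congr_fun (measurableSet_cell y a k)
    intro x hx
    exact pot_eq_of_mem_cell y a hx
  rw [h1, integral_cell_affine hR, hmass k]
  ring

/-- first variation inequality -/
lemma le_Topt (hac : ρ ≪ volume) {m : ι → ℝ} {y : ι → EuclideanSpace ℝ (Fin d)}
    (hy : Function.Injective y) {a : ι → ℝ} (hmass : ∀ k, ρ.real (cell y a k) = m k)
    (y' : ι → EuclideanSpace ℝ (Fin d)) :
    ∑ k, ⟪mom ρ y a k, y' k⟫ ≤ Topt ρ m y' :=
  le_ciInf fun a' => le_J_of_cells hR hac hy hmass y' a'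

lemma Topt_eq_sum (hac : ρ ≪ volume) {m : ι → ℝ} {y : ι → EuclideanSpace ℝ (Fin d)}
    (hy : Function.Injective y) {a : ι → ℝ} (hmass : ∀ k, ρ.real (cell y a k) = m k)
    (hopt : IsOpt ρ m y a) :
    Topt ρ m y = ∑ k, ⟪mom ρ y a k, y k⟫ := by
  rw [Topt_eq hopt, J_eq_of_cells hR hac hy hmass]

lemma Topt_lip {m : ι → ℝ} (hm : ∀ k, 0 < m k) (hm1 : ∑ k, m k = 1)
    (y y' : ι → EuclideanSpace ℝ (Fin d)) {c : ℝ} (hc : ∀ k, ‖y k - y' k‖ ≤ c) :
    Topt ρ m y ≤ Topt ρ m y' + R * c := by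
  obtain ⟨a', ha'⟩ := exists_min_J hR hm hm1 y'
  obtain ⟨a, ha⟩ := exists_min_J hR hm hm1 y
  have hc0 : 0 ≤ c := (norm_nonneg _).trans (hc (Classical.arbitrary ι))
  rw [Topt_eq ha', Topt_eq ha]
  refine (ha a').trans ?_
  unfold J
  have : ∫ x, pot y a' x ∂ρ ≤ ∫ x, (pot y' a' x + R * c) ∂ρ := by
    refine integral_mono_ae (integrable_pot hR y a')
      ((integrable_pot hR y' a').add (integrable_const _)) ?_
    filter_upwards [hR] with x hx
    have := pot_sub_pot_le_slopes y y' a' (x := x) hc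
    have h2 := mul_le_mul_of_nonneg_right hx hc0
    linarith
  rw [integral_add (integrable_pot hR y' a') (integrable_const _)] at this
  simp at this
  linarith

end

/-- Perturbation making finitely many families injective. -/
lemma exists_good_delta (n : ℕ) (P : ℕ → ι → EuclideanSpace ℝ (Fin d)) (c : ι → ℝ)
    (hc : Function.Injective c) (p : EuclideanSpace ℝ (Fin d)) (hp : p ≠ 0) {η : ℝ} (hη : 0 < η) :
    ∃ δ, 0 < δ ∧ δ < η ∧ ∀ j ≤ n, Function.Injective (fun k => P j k + (δ * c k) • p) := by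
  classical
  -- the bad set is finite
  let bad : Set ℝ := ⋃ j ∈ Finset.range (n+1), ⋃ k : ι, ⋃ l : ι,
    {δ | k ≠ l ∧ P j k + (δ * c k) • p = P j l + (δ * c l) • p}
  have hfin : bad.Finite := by
    apply Set.Finite.biUnion (Finset.finite_toSet _)
    intro j _
    apply Set.finite_iUnion
    intro k
    apply Set.finite_iUnion
    intro l
    apply Set.Subsingleton.finite
    rintro δ ⟨h1, h2⟩ δ' ⟨h1', h2'⟩
    have h3 : ((δ - δ') * (c k - c l)) • p = 0 := by
      have e1 : (δ * c k) • p - (δ * c l) • p = P j l - P j k := by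
        rw [sub_eq_sub_iff_add_eq_add, add_comm, h2, add_comm]
      have e2 : (δ' * c k) • p - (δ' * c l) • p = P j l - P j k := by
        rw [sub_eq_sub_iff_add_eq_add, add_comm, h2', add_comm]
      have e3 : ((δ * c k) • p - (δ * c l) • p) - ((δ' * c k) • p - (δ' * c l) • p) = 0 := by
        rw [e1, e2, sub_self]
      rw [← e3, ← sub_smul, ← sub_smul, ← sub_smul]
      congr 1; ring
    rcases smul_eq_zero.mp h3 with h | h
    · rcases mul_eq_zero.mp h with h | h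
      · linarith
      · exact absurd (hc (sub_eq_zero.mp h)) h1
    · exact absurd h hp
  have hinf : (Set.Ioo 0 η).Infinite := Set.Ioo_infinite hη
  obtain ⟨δ, hδ, hδbad⟩ := (hinf.diff hfin).nonempty
  refine ⟨δ, hδ.1, hδ.2, fun j hj k l hkl => ?_⟩
  by_contra hne
  apply hδbad
  simp only [bad, Set.mem_iUnion]
  exact ⟨j, Finset.mem_range.mpr (by omega), k, l, hne, hkl⟩


lemma sum_inner_le {m : ι → ℝ} (hm : ∀ k, 0 < m k) (u v : ι → EuclideanSpace ℝ (Fin d)) {S : ℝ}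
    (hS : 0 ≤ S) (h : ∑ k, ‖u k‖^2 / m k ≤ S^2) :
    ∑ k, ⟪u k, v k⟫ ≤ S * √(∑ k, m k * ‖v k‖^2) := by
  calc ∑ k, ⟪u k, v k⟫ ≤ ∑ k, (‖u k‖ / √(m k)) * (√(m k) * ‖v k‖) := by
        apply Finset.sum_le_sum
        intro k _
        have h1 : √(m k) ≠ 0 := (Real.sqrt_pos.mpr (hm k)).ne'
        have h2 : (‖u k‖ / √(m k)) * (√(m k) * ‖v k‖) = ‖u k‖ * ‖v k‖ := by
          field_simp
        rw [h2]
        exact real_inner_le_norm _ _
    _ ≤ √(∑ k, (‖u k‖ / √(m k))^2) * √(∑ k, (√(m k) * ‖v k‖)^2) :=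
        Real.sum_mul_le_sqrt_mul_sqrt _ _ _
    _ ≤ S * √(∑ k, m k * ‖v k‖^2) := by
        apply mul_le_mul _ _ (Real.sqrt_nonneg _) hS
        · rw [Real.sqrt_le_left hS]
          refine le_trans (le_of_eq ?_) h
          apply Finset.sum_congr rfl
          intro k _
          rw [div_pow, Real.sq_sqrt (hm k).le]
        · apply Real.sqrt_le_sqrt
          apply le_of_eq
          apply Finset.sum_congr rfl
          intro k _
          rw [mul_pow, Real.sq_sqrt (hm k).le]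

/-- Telescoping bound. -/
theorem Delta_le {ρ0 ρ1 : Measure (EuclideanSpace ℝ (Fin d))} [IsProbabilityMeasure ρ0]
    [IsProbabilityMeasure ρ1] {R : ℝ}
    (hR0 : ∀ᵐ x ∂ρ0, ‖x‖ ≤ R) (hR1 : ∀ᵐ x ∂ρ1, ‖x‖ ≤ R) (hac0 : ρ0 ≪ volume)
    (hac1 : ρ1 ≪ volume)
    (p : EuclideanSpace ℝ (Fin d)) (hp : p ≠ 0)
    {m : ι → ℝ} (hm : ∀ k, 0 < m k) (hm1 : ∑ k, m k = 1) {S : ℝ} (hS : 0 ≤ S)
    (hkey : ∀ (y : ι → EuclideanSpace ℝ (Fin d)) (a0 a1 : ι → ℝ), Function.Injective y →
      (∀ k, ρ0.real (cell y a0 k) = m k) → (∀ k, ρ1.real (cell y a1 k) = m k) →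
      ∑ k, ‖mom ρ1 y a1 k - mom ρ0 y a0 k‖^2 / m k ≤ S^2)
    (y z : ι → EuclideanSpace ℝ (Fin d)) :
    (Topt ρ1 m z - Topt ρ0 m z) - (Topt ρ1 m y - Topt ρ0 m y) ≤
      S * √(∑ k, m k * ‖z k - y k‖^2) := by
  have hRn : 0 ≤ R := R_nonneg hR0
  -- injective real labels
  let e := Fintype.equivFin ι
  let c : ι → ℝ := fun k => ((e k : ℕ) : ℝ)
  have hc : Function.Injective c := by
    intro k l hkl
    apply e.injective
    apply Fin.ext
    simp only [c] at hkl
    exact_mod_cast hkl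
  set N : ℝ := (Fintype.card ι : ℝ) with hNdef
  have hcN : ∀ k, |c k| ≤ N := by
    intro k
    rw [abs_of_nonneg (by positivity)]
    simp only [c, hNdef]
    exact_mod_cast (e k).2.le
  set V := √(∑ k, m k * ‖z k - y k‖^2) with hV
  set D := ∑ k, m k * ‖z k - y k‖ with hD
  have hD0 : 0 ≤ D := Finset.sum_nonneg fun k _ => mul_nonneg (hm k).le (norm_nonneg _)
  have hN0 : 0 ≤ N := by positivity
  -- main estimate for each `n` and `η`
  have main : ∀ n : ℕ, 0 < n → ∀ η : ℝ, 0 < η →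
      (Topt ρ1 m z - Topt ρ0 m z) - (Topt ρ1 m y - Topt ρ0 m y) ≤
        S * V + 2 * R * D / n + 4 * R * (η * N * ‖p‖) := by
    intro n hn η hη
    have hn' : (0 : ℝ) < n := by exact_mod_cast hn
    let P : ℕ → ι → EuclideanSpace ℝ (Fin d) := fun j k => y k + ((j : ℝ) / n) • (z k - y k)
    obtain ⟨δ, hδ0, hδη, hinj⟩ := exists_good_delta n P c hc p hp hη
    let Q : ℕ → ι → EuclideanSpace ℝ (Fin d) := fun j k => P j k + (δ * c k) • p
    have hQinj : ∀ j ≤ n, Function.Injective (Q j) := hinj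
    have h0 : ∀ j, ∃ a, IsOpt ρ0 m (Q j) a := fun j => exists_min_J hR0 hm hm1 (Q j)
    have h1 : ∀ j, ∃ a, IsOpt ρ1 m (Q j) a := fun j => exists_min_J hR1 hm hm1 (Q j)
    choose A0 hA0 using h0
    choose A1 hA1 using h1
    have hmass0 : ∀ j ≤ n, ∀ k, ρ0.real (cell (Q j) (A0 j) k) = m k := fun j hj k =>
      mass_eq hR0 hac0 hm1 (hQinj j hj) (hA0 j) k
    have hmass1 : ∀ j ≤ n, ∀ k, ρ1.real (cell (Q j) (A1 j) k) = m k := fun j hj k =>
      mass_eq hR1 hac1 hm1 (hQinj j hj) (hA1 j) k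
    let M0 : ℕ → ι → EuclideanSpace ℝ (Fin d) := fun j k => mom ρ0 (Q j) (A0 j) k
    let M1 : ℕ → ι → EuclideanSpace ℝ (Fin d) := fun j k => mom ρ1 (Q j) (A1 j) k
    let Δ : ℕ → ℝ := fun j => Topt ρ1 m (Q j) - Topt ρ0 m (Q j)
    have hdiff : ∀ j k, Q (j+1) k - Q j k = (1 / (n:ℝ)) • (z k - y k) := by
      intro j k
      simp only [Q, P]
      rw [add_sub_add_right_eq_sub, add_sub_add_left_eq_sub, ← sub_smul]
      congr 1
      push_cast
      ring
    have hstep : ∀ j < n, Δ (j+1) - Δ j ≤ ∑ k, ⟪M1 (j+1) k - M0 j k, (1 / (n:ℝ)) • (z k - y k)⟫ := by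
      intro j hj
      have e1 := Topt_eq_sum hR1 hac1 (hQinj (j+1) hj) (hmass1 (j+1) hj) (hA1 (j+1))
      have e2 := le_Topt hR1 hac1 (hQinj (j+1) hj) (hmass1 (j+1) hj) (Q j)
      have e3 := Topt_eq_sum hR0 hac0 (hQinj j hj.le) (hmass0 j hj.le) (hA0 j)
      have e4 := le_Topt hR0 hac0 (hQinj j hj.le) (hmass0 j hj.le) (Q (j+1))
      have e5 : ∑ k, ⟪M1 (j+1) k - M0 j k, (1 / (n:ℝ)) • (z k - y k)⟫ =
          (∑ k, ⟪M1 (j+1) k, Q (j+1) k⟫ - ∑ k, ⟪M1 (j+1) k, Q j k⟫) -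
          (∑ k, ⟪M0 j k, Q (j+1) k⟫ - ∑ k, ⟪M0 j k, Q j k⟫) := by
        rw [← Finset.sum_sub_distrib, ← Finset.sum_sub_distrib, ← Finset.sum_sub_distrib]
        apply Finset.sum_congr rfl
        intro k _
        rw [← hdiff j k, inner_sub_left, inner_sub_right, inner_sub_right]
      rw [e5]
      simp only [Δ]
      change _ = ∑ k, ⟪M1 (j+1) k, _⟫ at e1
      change ∑ k, ⟪M1 (j+1) k, _⟫ ≤ _ at e2
      change _ = ∑ k, ⟪M0 j k, _⟫ at e3
      change ∑ k, ⟪M0 j k, _⟫ ≤ _ at e4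
      linarith
    have hsum : Δ n - Δ 0 ≤ ∑ j ∈ Finset.range n,
        ∑ k, ⟪M1 (j+1) k - M0 j k, (1 / (n:ℝ)) • (z k - y k)⟫ := by
      rw [← Finset.sum_range_sub]
      exact Finset.sum_le_sum fun j hj => hstep j (Finset.mem_range.mp hj)
    have hsplit : ∑ j ∈ Finset.range n,
        ∑ k, ⟪M1 (j+1) k - M0 j k, (1 / (n:ℝ)) • (z k - y k)⟫ =
        (1 / (n:ℝ)) * (∑ j ∈ Finset.range n, ∑ k, ⟪M1 (j+1) k - M0 (j+1) k, z k - y k⟫) +
        (1 / (n:ℝ)) * (∑ k, ⟪M0 n k, z k - y k⟫ - ∑ k, ⟪M0 0 k, z k - y k⟫) := by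
      rw [← Finset.sum_range_sub (fun j => ∑ k, ⟪M0 j k, z k - y k⟫), ← mul_add,
        ← Finset.sum_add_distrib, Finset.mul_sum]
      apply Finset.sum_congr rfl
      intro j _
      rw [← Finset.sum_sub_distrib, ← Finset.sum_add_distrib, Finset.mul_sum]
      apply Finset.sum_congr rfl
      intro k _
      rw [inner_smul_right, inner_sub_left, inner_sub_left]
      ring
    have hA : ∑ j ∈ Finset.range n, ∑ k, ⟪M1 (j+1) k - M0 (j+1) k, z k - y k⟫ ≤ n * (S * V) := by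
      calc _ ≤ ∑ j ∈ Finset.range n, (S * V) := by
            apply Finset.sum_le_sum
            intro j hj
            have hj' : j + 1 ≤ n := Finset.mem_range.mp hj
            apply sum_inner_le hm _ _ hS
            exact hkey (Q (j+1)) (A0 (j+1)) (A1 (j+1)) (hQinj _ hj') (hmass0 _ hj') (hmass1 _ hj')
        _ = n * (S * V) := by simp
    have hM0le : ∀ j ≤ n, |∑ k, ⟪M0 j k, z k - y k⟫| ≤ R * D := by
      intro j hj
      calc |∑ k, ⟪M0 j k, z k - y k⟫| ≤ ∑ k, |⟪M0 j k, z k - y k⟫| := Finset.abs_sum_le_sum_abs _ _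
        _ ≤ ∑ k, R * (m k * ‖z k - y k‖) := by
            apply Finset.sum_le_sum
            intro k _
            refine (abs_real_inner_le_norm _ _).trans ?_
            have := norm_mom_le hR0 (hmass0 j hj k)
            calc ‖M0 j k‖ * ‖z k - y k‖ ≤ (R * m k) * ‖z k - y k‖ :=
                  mul_le_mul_of_nonneg_right this (norm_nonneg _)
              _ = _ := by ring
        _ = R * D := by rw [hD, Finset.mul_sum]
    have hΔ : Δ n - Δ 0 ≤ S * V + 2 * R * D / n := by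
      refine hsum.trans ?_
      rw [hsplit]
      have b1 := hM0le n le_rfl
      have b2 := hM0le 0 (Nat.zero_le n)
      have b3 := le_abs_self (∑ k, ⟪M0 n k, z k - y k⟫)
      have b4 := neg_abs_le (∑ k, ⟪M0 0 k, z k - y k⟫)
      have b5 : (1 / (n:ℝ)) * (∑ k, ⟪M0 n k, z k - y k⟫ - ∑ k, ⟪M0 0 k, z k - y k⟫) ≤
          (1 / (n:ℝ)) * (2 * R * D) := by
        apply mul_le_mul_of_nonneg_left _ (by positivity)
        linarith
      have b6 : (1 / (n:ℝ)) * (∑ j ∈ Finset.range n, ∑ k, ⟪M1 (j+1) k - M0 (j+1) k, z k - y k⟫) ≤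
          S * V := by
        calc _ ≤ (1 / (n:ℝ)) * (n * (S * V)) := mul_le_mul_of_nonneg_left hA (by positivity)
          _ = S * V := by field_simp
      have b7 : (1 / (n:ℝ)) * (2 * R * D) = 2 * R * D / n := by ring
      linarith
    -- comparison of endpoints
    have hend : ∀ (w : ι → EuclideanSpace ℝ (Fin d)) (j : ℕ), (∀ k, Q j k = w k + (δ * c k) • p) →
        |(Topt ρ1 m w - Topt ρ0 m w) - Δ j| ≤ 2 * R * (η * N * ‖p‖) := by
      intro w j hw
      have hc1 : ∀ k, ‖w k - Q j k‖ ≤ η * N * ‖p‖ := by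
        intro k
        rw [hw k, sub_add_cancel_left, norm_neg, norm_smul, Real.norm_eq_abs, abs_mul,
          abs_of_pos hδ0]
        apply mul_le_mul_of_nonneg_right _ (norm_nonneg _)
        exact mul_le_mul hδη.le (hcN k) (abs_nonneg _) hη.le
      have hc2 : ∀ k, ‖Q j k - w k‖ ≤ η * N * ‖p‖ := by
        intro k; rw [norm_sub_rev]; exact hc1 k
      have f1 := Topt_lip hR1 hm hm1 w (Q j) hc1
      have f2 := Topt_lip hR1 hm hm1 (Q j) w hc2
      have f3 := Topt_lip hR0 hm hm1 w (Q j) hc1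
      have f4 := Topt_lip hR0 hm hm1 (Q j) w hc2
      simp only [Δ]
      rw [abs_le]
      constructor <;> linarith
    have g1 := hend z n (by
      intro k
      simp only [Q, P]
      rw [div_self hn'.ne', one_smul, add_sub_cancel])
    have g2 := hend y 0 (by
      intro k
      simp only [Q, P]
      simp)
    rw [abs_le] at g1 g2
    linarith [g1.2, g2.1]
  -- pass to the limit
  apply le_of_forall_pos_le_add
  intro ε hε
  obtain ⟨n, hn⟩ := exists_nat_gt (4 * R * D / ε)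
  have hn0 : 0 < n := by
    have : (0:ℝ) ≤ 4 * R * D / ε := by positivity
    have h2 : (0:ℝ) < n := lt_of_le_of_lt this hn
    exact_mod_cast h2
  have hn' : (0 : ℝ) < n := by exact_mod_cast hn0
  let η : ℝ := ε / (8 * R * N * ‖p‖ + 1)
  have hpos : 0 < 8 * R * N * ‖p‖ + 1 := by positivity
  have hη : 0 < η := div_pos hε hpos
  have := main n hn0 η hη
  have h1 : 2 * R * D / n ≤ ε / 2 := by
    rw [div_le_div_iff₀ hn' two_pos]
    rw [div_lt_iff₀ hε] at hn
    linarith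
  have h2 : 4 * R * (η * N * ‖p‖) ≤ ε / 2 := by
    have : 8 * R * N * ‖p‖ * η ≤ ε := by
      simp only [η]
      rw [mul_div_assoc', div_le_iff₀ hpos]
      nlinarith
    linarith
  linarith

end Crest.Agent.S0109
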