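import Mathlib
import Crest.Prelude.Def_QuadraticTransport
import Crest.Agent.S0109_Tele
import Crest.Agent.LibPL

set_option autoImplicit false
set_option linter.unusedSectionVars false
set_option linter.deprecated false
open MeasureTheory
open scoped ENNReal NNReal RealInnerProductSpace
open Crest.AnalysisR.OT

namespace Crest.Agent.S0109

variable {d : ℕ}

section unif
variable {K : Set (EuclideanSpace ℝ (Fin d))} (hK : IsCompact K) (hKv : 0 < volume K)
include hK hKv

lemma isProb_unif : IsProbabilityMeasure (uniformProbOn K) := by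
  constructor
  unfold uniformProbOn
  simp only [Measure.smul_apply, Measure.restrict_apply_univ, smul_eq_mul]
  exact ENNReal.inv_mul_cancel hKv.ne' hK.measure_lt_top.ne

omit hKv in
lemma unif_ac : uniformProbOn K ≪ volume := by
  unfold uniformProbOn
  exact Measure.smul_absolutelyContinuous.trans Measure.restrict_le_self.absolutelyContinuous

omit hKv in
lemma unif_ae_mem : ∀ᵐ x ∂(uniformProbOn K), x ∈ K := by
  unfold uniformProbOn
  apply Measure.ae_smul_measure
  exact ae_restrict_mem hK.measurableSet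

omit hKv in
lemma lintegral_unif (A : Set (EuclideanSpace ℝ (Fin d))) (hA : MeasurableSet A)
    (F : EuclideanSpace ℝ (Fin d) → ℝ≥0∞) :
    ∫⁻ x in A, F x ∂(uniformProbOn K) = (volume K)⁻¹ * ∫⁻ x, (A ∩ K).indicator F x := by
  unfold uniformProbOn
  rw [Measure.restrict_smul, lintegral_smul_measure, Measure.restrict_restrict hA,
    lintegral_indicator (hA.inter hK.measurableSet)]
  rfl

/-- Prekopa-Leindler for the uniform measure (lintegral form). -/
lemma pl_unif_lint {A B D : Set (EuclideanSpace ℝ (Fin d))} (hKc : Convex ℝ K)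
    (hA : MeasurableSet A) (hB : MeasurableSet B) (hD : MeasurableSet D)
    (hABD : ∀ x ∈ A, ∀ y ∈ B, (1/2 : ℝ) • (x + y) ∈ D)
    (F G H : EuclideanSpace ℝ (Fin d) → ℝ≥0∞) (hF : Measurable F) (hG : Measurable G)
    (hH : Measurable H)
    (hFGH : ∀ x ∈ K, ∀ y ∈ K, F x * G y ≤ H ((1/2 : ℝ) • (x + y)) ^ 2) :
    (∫⁻ x in A, F x ∂(uniformProbOn K)) * (∫⁻ x in B, G x ∂(uniformProbOn K)) ≤
      (∫⁻ x in D, H x ∂(uniformProbOn K)) ^ 2 := by
  rw [lintegral_unif hK A hA, lintegral_unif hK B hB, lintegral_unif hK D hD]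
  rw [mul_mul_mul_comm, mul_pow, ← pow_two]
  gcongr
  apply Crest.Agent.LibPL.prekopa_leindler_half
  · exact hF.indicator (hA.inter hK.measurableSet)
  · exact hG.indicator (hB.inter hK.measurableSet)
  · exact hH.indicator (hD.inter hK.measurableSet)
  · intro x y
    by_cases hx : x ∈ A ∩ K
    · by_cases hy : y ∈ B ∩ K
      · have hz : (1/2 : ℝ) • (x + y) ∈ D ∩ K := by
          refine ⟨hABD x hx.1 y hy.1, ?_⟩
          rw [smul_add]
          exact hKc hx.2 hy.2 (by norm_num) (by norm_num) (by norm_num)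
        rw [Set.indicator_of_mem hx, Set.indicator_of_mem hy, Set.indicator_of_mem hz]
        exact hFGH x hx.2 y hy.2
      · rw [Set.indicator_of_notMem hy]; simp
    · rw [Set.indicator_of_notMem hx]; simp

/-- Prekopa-Leindler for the uniform measure (real form). -/
lemma pl_unif {A B D : Set (EuclideanSpace ℝ (Fin d))} (hKc : Convex ℝ K)
    (hA : MeasurableSet A) (hB : MeasurableSet B) (hD : MeasurableSet D)
    (hABD : ∀ x ∈ A, ∀ y ∈ B, (1/2 : ℝ) • (x + y) ∈ D)
    (F G H : EuclideanSpace ℝ (Fin d) → ℝ) (hF : Continuous F) (hG : Continuous G)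
    (hH : Continuous H) (hF0 : ∀ x, 0 ≤ F x) (hG0 : ∀ x, 0 ≤ G x) (hH0 : ∀ x, 0 ≤ H x)
    (hFGH : ∀ x ∈ K, ∀ y ∈ K, F x * G y ≤ H ((1/2 : ℝ) • (x + y)) ^ 2) :
    (∫ x in A, F x ∂(uniformProbOn K)) * (∫ x in B, G x ∂(uniformProbOn K)) ≤
      (∫ x in D, H x ∂(uniformProbOn K)) ^ 2 := by
  have hprob := isProb_unif hK hKv
  obtain ⟨R, hR⟩ := hK.isBounded.subset_closedBall (0 : EuclideanSpace ℝ (Fin d))
  have hR' : ∀ᵐ x ∂(uniformProbOn K), ‖x‖ ≤ R := by
    filter_upwards [unif_ae_mem hK] with x hx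
    simpa using hR hx
  have hint : ∀ (F : EuclideanSpace ℝ (Fin d) → ℝ), Continuous F → ∀ (A : Set (EuclideanSpace ℝ (Fin d))),
      Integrable F ((uniformProbOn K).restrict A) := fun F hF A =>
    (integrable_of_continuous hR' hF).integrableOn
  have h1 := pl_unif_lint hK hKv hKc hA hB hD hABD (fun x => ENNReal.ofReal (F x))
    (fun x => ENNReal.ofReal (G x)) (fun x => ENNReal.ofReal (H x))
    hF.measurable.ennreal_ofReal hG.measurable.ennreal_ofReal hH.measurable.ennreal_ofReal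
    (by
      intro x hx y hy
      rw [← ENNReal.ofReal_mul (hF0 x), ← ENNReal.ofReal_pow (hH0 _)]
      exact ENNReal.ofReal_le_ofReal (hFGH x hx y hy))
  rw [← ofReal_integral_eq_lintegral_ofReal (hint F hF A) (Filter.Eventually.of_forall hF0),
    ← ofReal_integral_eq_lintegral_ofReal (hint G hG B) (Filter.Eventually.of_forall hG0),
    ← ofReal_integral_eq_lintegral_ofReal (hint H hH D) (Filter.Eventually.of_forall hH0),
    ← ENNReal.ofReal_mul (integral_nonneg hF0), ← ENNReal.ofReal_pow (integral_nonneg hH0)] at h1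
  exact (ENNReal.ofReal_le_ofReal_iff (by positivity)).mp h1

end unif

/-- the gaussian weight -/
noncomputable def wt (ε : ℝ) (x : EuclideanSpace ℝ (Fin d)) : ℝ := Real.exp (-(ε * ‖x‖^2 / 2))

lemma wt_pos (ε : ℝ) (x : EuclideanSpace ℝ (Fin d)) : 0 < wt ε x := Real.exp_pos _

lemma continuous_wt (ε : ℝ) : Continuous (wt (d := d) ε) := by
  unfold wt; fun_prop

section cellest
variable {K : Set (EuclideanSpace ℝ (Fin d))} (hK : IsCompact K) (hKv : 0 < volume K)
  (hKc : Convex ℝ K)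
include hK hKv hKc

/-- Jensen + PL -/
lemma pl_jensen {A B D : Set (EuclideanSpace ℝ (Fin d))}
    (hA : MeasurableSet A) (hB : MeasurableSet B) (hD : MeasurableSet D)
    (hABD : ∀ x ∈ A, ∀ y ∈ B, (1/2 : ℝ) • (x + y) ∈ D) {ε : ℝ}
    (α β : EuclideanSpace ℝ (Fin d) → ℝ) (hα : Continuous α) (hβ : Continuous β)
    (hαβ : ∀ x ∈ K, ∀ y ∈ K, α x + β y ≤ (ε / 4) * ‖x - y‖^2)
    {P Q W : ℝ} (hP : P = ∫ x in A, wt ε x ∂(uniformProbOn K))
    (hQ : Q = ∫ x in B, wt ε x ∂(uniformProbOn K))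
    (hW : W = ∫ x in D, wt ε x ∂(uniformProbOn K)) (hP0 : 0 < P) (hQ0 : 0 < Q) :
    P * Q * Real.exp ((∫ x in A, wt ε x * α x ∂(uniformProbOn K)) / P +
      (∫ x in B, wt ε x * β x ∂(uniformProbOn K)) / Q) ≤ W ^ 2 := by
  have hprob := isProb_unif hK hKv
  obtain ⟨R, hR⟩ := hK.isBounded.subset_closedBall (0 : EuclideanSpace ℝ (Fin d))
  have hR' : ∀ᵐ x ∂(uniformProbOn K), ‖x‖ ≤ R := by
    filter_upwards [unif_ae_mem hK] with x hx
    simpa using hR hx
  have hint : ∀ (F : EuclideanSpace ℝ (Fin d) → ℝ), Continuous F → ∀ (A : Set (EuclideanSpace ℝ (Fin d))),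
      Integrable F ((uniformProbOn K).restrict A) := fun F hF A =>
    (integrable_of_continuous hR' hF).integrableOn
  have hw := continuous_wt (d := d) ε
  have h1 := pl_unif hK hKv hKc hA hB hD hABD (fun x => wt ε x * Real.exp (α x))
    (fun x => wt ε x * Real.exp (β x)) (fun x => wt ε x)
    (by fun_prop) (by fun_prop) (by fun_prop)
    (fun x => mul_nonneg (wt_pos ε x).le (Real.exp_pos _).le)
    (fun x => mul_nonneg (wt_pos ε x).le (Real.exp_pos _).le)
    (fun x => (wt_pos ε x).le)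
    (by
      intro x hx y hy
      have h2 := hαβ x hx y hy
      unfold wt
      rw [← Real.exp_add, ← Real.exp_add, ← Real.exp_add, ← Real.exp_nat_mul]
      apply Real.exp_le_exp.mpr
      have h3 := parallelogram_law_with_norm ℝ x y
      have h4 : ‖(1/2 : ℝ) • (x + y)‖ = (1/2) * ‖x + y‖ := by
        rw [norm_smul]; norm_num
      rw [h4]
      push_cast
      have h5 : ε * (‖x + y‖ ^ 2 + ‖x - y‖ ^ 2) =
        ε * (2 * (‖x‖ ^ 2 + ‖y‖ ^ 2)) := by rw [h3]
      nlinarith)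
  have jensen : ∀ (A : Set (EuclideanSpace ℝ (Fin d))) (α : EuclideanSpace ℝ (Fin d) → ℝ)
      (P : ℝ), Continuous α → P = ∫ x in A, wt ε x ∂(uniformProbOn K) → 0 < P →
      P * Real.exp ((∫ x in A, wt ε x * α x ∂(uniformProbOn K)) / P) ≤
        ∫ x in A, wt ε x * Real.exp (α x) ∂(uniformProbOn K) := by
    intro A α P hα hP hP0
    set c := (∫ x in A, wt ε x * α x ∂(uniformProbOn K)) / P with hc
    have hcP : c * P = ∫ x in A, wt ε x * α x ∂(uniformProbOn K) := by
      rw [hc]; field_simp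
    have h2 : ∫ x in A, (wt ε x * (Real.exp c * (1 + (α x - c)))) ∂(uniformProbOn K) ≤
        ∫ x in A, wt ε x * Real.exp (α x) ∂(uniformProbOn K) := by
      apply integral_mono (hint _ (by fun_prop) A) (hint _ (by fun_prop) A)
      intro x
      apply mul_le_mul_of_nonneg_left _ (wt_pos ε x).le
      have h3 := Real.add_one_le_exp (α x - c)
      have h4 : Real.exp (α x) = Real.exp c * Real.exp (α x - c) := by
        rw [← Real.exp_add]; congr 1; ring
      rw [h4]
      apply mul_le_mul_of_nonneg_left _ (Real.exp_pos _).le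
      linarith
    have h3 : ∫ x in A, (wt ε x * (Real.exp c * (1 + (α x - c)))) ∂(uniformProbOn K) =
        P * Real.exp c := by
      have h4 : ∀ x, wt ε x * (Real.exp c * (1 + (α x - c))) =
          Real.exp c * (1 - c) * wt ε x + Real.exp c * (wt ε x * α x) := by
        intro x; ring
      simp_rw [h4]
      rw [integral_add (hint _ (by fun_prop) A) (hint _ (by fun_prop) A),
        integral_const_mul, integral_const_mul, ← hP, ← hcP]
      ring
    rw [← h3]; exact h2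
  have j1 := jensen A α P hα hP hP0
  have j2 := jensen B β Q hβ hQ hQ0
  rw [← hW] at h1
  refine le_trans ?_ h1
  rw [Real.exp_add]
  calc P * Q * (Real.exp _ * Real.exp _) = (P * Real.exp ((∫ x in A, wt ε x * α x ∂(uniformProbOn K)) / P)) *
      (Q * Real.exp ((∫ x in B, wt ε x * β x ∂(uniformProbOn K)) / Q)) := by ring
    _ ≤ _ := mul_le_mul j1 j2 (by positivity) (le_trans (by positivity) j1)


/-- The one-cell inequality. -/
lemma cell_gain {A B D : Set (EuclideanSpace ℝ (Fin d))}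
    (hA : MeasurableSet A) (hB : MeasurableSet B) (hD : MeasurableSet D)
    (hABD : ∀ x ∈ A, ∀ y ∈ B, (1/2 : ℝ) • (x + y) ∈ D) {ε : ℝ}
    (ξ : EuclideanSpace ℝ (Fin d) → EuclideanSpace ℝ (Fin d)) (η : EuclideanSpace ℝ (Fin d) → ℝ)
    (hξ : Continuous ξ) (hη : Continuous η)
    (hlip : ∀ x ∈ K, ∀ y ∈ K, ‖ξ x - ξ y‖^2 + (η x - η y)^2 ≤ (ε / 4) * ‖x - y‖^2)
    {P Q W : ℝ} (hP : P = ∫ x in A, wt ε x ∂(uniformProbOn K))
    (hQ : Q = ∫ x in B, wt ε x ∂(uniformProbOn K))
    (hW : W = ∫ x in D, wt ε x ∂(uniformProbOn K)) (hP0 : 0 < P) (hQ0 : 0 < Q)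
    (hW0 : 0 ≤ W) {X : EuclideanSpace ℝ (Fin d)} {S : ℝ}
    (hX : X = P⁻¹ • (∫ x in A, wt ε x • ξ x ∂(uniformProbOn K)) -
      Q⁻¹ • (∫ x in B, wt ε x • ξ x ∂(uniformProbOn K)))
    (hS : S = P⁻¹ * (∫ x in A, wt ε x * η x ∂(uniformProbOn K)) -
      Q⁻¹ * (∫ x in B, wt ε x * η x ∂(uniformProbOn K))) :
    √(P * Q) * (1 + (‖X‖^2 + S^2) / 2) ≤ W := by
  have hprob := isProb_unif hK hKv
  obtain ⟨R, hR⟩ := hK.isBounded.subset_closedBall (0 : EuclideanSpace ℝ (Fin d))
  have hR' : ∀ᵐ x ∂(uniformProbOn K), ‖x‖ ≤ R := by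
    filter_upwards [unif_ae_mem hK] with x hx
    simpa using hR hx
  have hint : ∀ (F : EuclideanSpace ℝ (Fin d) → ℝ), Continuous F → ∀ (A : Set (EuclideanSpace ℝ (Fin d))),
      Integrable F ((uniformProbOn K).restrict A) := fun F hF A =>
    (integrable_of_continuous hR' hF).integrableOn
  have hintE : ∀ (F : EuclideanSpace ℝ (Fin d) → EuclideanSpace ℝ (Fin d)), Continuous F →
      ∀ (A : Set (EuclideanSpace ℝ (Fin d))),
      Integrable F ((uniformProbOn K).restrict A) := fun F hF A =>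
    (integrable_of_continuous hR' hF).integrableOn
  have hw := continuous_wt (d := d) ε
  -- the general formula for affine functionals
  have key : ∀ (A : Set (EuclideanSpace ℝ (Fin d))) (P : ℝ),
      P = ∫ x in A, wt ε x ∂(uniformProbOn K) → 0 < P → ∀ (p : EuclideanSpace ℝ (Fin d)) (s c : ℝ),
      (∫ x in A, wt ε x * (⟪ξ x, p⟫ + s * η x + c) ∂(uniformProbOn K)) / P =
      ⟪P⁻¹ • (∫ x in A, wt ε x • ξ x ∂(uniformProbOn K)), p⟫ +
      s * (P⁻¹ * (∫ x in A, wt ε x * η x ∂(uniformProbOn K))) + c := by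
    intro A P hP hP0 p s c
    have h1 : ∀ x, wt ε x * (⟪ξ x, p⟫ + s * η x + c) =
      ⟪wt ε x • ξ x, p⟫ + s * (wt ε x * η x) + c * wt ε x := by
      intro x
      rw [real_inner_smul_left]; ring
    simp_rw [h1]
    rw [integral_add (hint _ (by fun_prop) A) (hint _ (by fun_prop) A),
      integral_add (hint _ (by fun_prop) A) (hint _ (by fun_prop) A),
      integral_const_mul, integral_const_mul, ← hP]
    have h2 : ∫ x in A, ⟪wt ε x • ξ x, p⟫ ∂(uniformProbOn K) =
        ⟪∫ x in A, wt ε x • ξ x ∂(uniformProbOn K), p⟫ := by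
      have := integral_inner (𝕜 := ℝ) (hintE (fun x => wt ε x • ξ x) (by fun_prop) A) p
      rw [real_inner_comm, ← this]
      apply integral_congr_ae
      filter_upwards with x
      exact real_inner_comm _ _
    rw [h2, real_inner_smul_left]
    field_simp
  have h1 := pl_jensen hK hKv hKc hA hB hD hABD (ε := ε)
    (fun x => ⟪ξ x, (2:ℝ) • X⟫ + (2 * S) * η x + 0)
    (fun x => ⟪ξ x, (-2:ℝ) • X⟫ + (-2 * S) * η x + (-(‖X‖^2) - S^2))
    (by fun_prop) (by fun_prop)
    (by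
      intro x hx y hy
      refine le_trans ?_ (hlip x hx y hy)
      have e1 : ‖ξ x - ξ y - X‖^2 = ‖ξ x - ξ y‖^2 - 2 * ⟪ξ x - ξ y, X⟫ + ‖X‖^2 := by
        rw [norm_sub_sq_real]
      have e2 : 0 ≤ ‖ξ x - ξ y - X‖^2 := by positivity
      have e3 : 0 ≤ (η x - η y - S)^2 := by positivity
      rw [inner_smul_right, inner_smul_right]
      rw [inner_sub_left] at e1
      nlinarith)
    hP hQ hW hP0 hQ0
  rw [key A P hP hP0, key B Q hQ hQ0] at h1
  have h2 : (⟪P⁻¹ • (∫ x in A, wt ε x • ξ x ∂(uniformProbOn K)), (2:ℝ) • X⟫ +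
      (2 * S) * (P⁻¹ * (∫ x in A, wt ε x * η x ∂(uniformProbOn K))) + 0) +
      (⟪Q⁻¹ • (∫ x in B, wt ε x • ξ x ∂(uniformProbOn K)), (-2:ℝ) • X⟫ +
      (-2 * S) * (Q⁻¹ * (∫ x in B, wt ε x * η x ∂(uniformProbOn K))) + (-(‖X‖^2) - S^2)) =
      ‖X‖^2 + S^2 := by
    have e1 : ⟪P⁻¹ • (∫ x in A, wt ε x • ξ x ∂(uniformProbOn K)), X⟫ -
        ⟪Q⁻¹ • (∫ x in B, wt ε x • ξ x ∂(uniformProbOn K)), X⟫ = ‖X‖^2 := by
      rw [← inner_sub_left, ← hX, real_inner_self_eq_norm_sq]
    have e2 : S * (P⁻¹ * (∫ x in A, wt ε x * η x ∂(uniformProbOn K))) -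
      S * (Q⁻¹ * (∫ x in B, wt ε x * η x ∂(uniformProbOn K))) = S^2 := by
      rw [← mul_sub, ← hS]; ring
    rw [inner_smul_right, inner_smul_right]
    linear_combination 2 * e1 + 2 * e2
  rw [h2] at h1
  have h3 : 0 ≤ ‖X‖^2 + S^2 := by positivity
  have h4 : P * Q * (1 + (‖X‖^2 + S^2)/2)^2 ≤ W^2 := by
    refine le_trans ?_ h1
    apply mul_le_mul_of_nonneg_left _ (by positivity)
    have h5 := Real.add_one_le_exp ((‖X‖^2 + S^2)/2)
    have h6 : Real.exp (‖X‖^2 + S^2) = Real.exp ((‖X‖^2 + S^2)/2) ^ 2 := by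
      rw [← Real.exp_nat_mul]; congr 1; push_cast; ring
    rw [h6]
    apply pow_le_pow_left₀ (by positivity)
    linarith
  have h5 : (√(P * Q) * (1 + (‖X‖^2 + S^2) / 2))^2 ≤ W^2 := by
    rw [mul_pow, Real.sq_sqrt (by positivity)]
    exact h4
  exact le_of_sq_le_sq h5 hW0 |> fun h => h

end cellest

end Crest.Agent.S0109
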