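import Mathlib
import Crest.Prelude.Def_QuadraticTransport
import Crest.Agent.S0109_Key

set_option autoImplicit false
set_option linter.unusedSectionVars false
set_option linter.deprecated false
open MeasureTheory
open scoped ENNReal NNReal RealInnerProductSpace
open Crest.AnalysisR.OT

namespace Crest.Agent.S0109

variable {d : ℕ}

lemma exp_half_le : Real.exp (1/2) ≤ 2 := by
  have h1 : Real.exp (1/2) ^ 2 = Real.exp 1 := by
    rw [← Real.exp_nat_mul]; congr 1; norm_num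
  have h2 := Real.exp_one_lt_d9
  by_contra h
  push Not at h
  nlinarith [Real.exp_pos (1/2 : ℝ)]

lemma exp_sub_le {a b : ℝ} (ha : a ≤ 1/2) (hb : b ≤ 1/2) :
    |Real.exp a - Real.exp b| ≤ 2 * |a - b| := by
  have key : ∀ a b : ℝ, a ≤ 1/2 → b ≤ 1/2 → b ≤ a → |Real.exp a - Real.exp b| ≤ 2 * |a - b| := by
    intro a b ha hb hab
    have h1 : Real.exp b ≤ Real.exp a := Real.exp_le_exp.mpr hab
    rw [abs_of_nonneg (by linarith), abs_of_nonneg (by linarith)]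
    have h2 := Real.add_one_le_exp (b - a)
    have h3 : Real.exp b = Real.exp a * Real.exp (b - a) := by
      rw [← Real.exp_add]; congr 1; ring
    have h4 : Real.exp a ≤ 2 := (Real.exp_le_exp.mpr ha).trans exp_half_le
    have h5 := Real.exp_pos a
    have h6 : Real.exp a * (b - a + 1) ≤ Real.exp a * Real.exp (b - a) :=
      mul_le_mul_of_nonneg_left h2 h5.le
    rw [h3]
    have h7 : Real.exp a * (a - b) ≤ 2 * (a - b) := mul_le_mul_of_nonneg_right h4 (by linarith)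
    linarith
  rcases le_total b a with h | h
  · exact key a b ha hb h
  · rw [abs_sub_comm, abs_sub_comm a b]; exact key b a hb ha h

lemma wt_inv (ε : ℝ) (x : EuclideanSpace ℝ (Fin d)) : (wt ε x)⁻¹ = Real.exp (ε * ‖x‖^2 / 2) := by
  unfold wt; rw [← Real.exp_neg, neg_neg]

section lip
variable {R ε : ℝ} (hR : 0 < R) (hε : 0 < ε) (hεR : ε * R^2 ≤ 1)
include hR hε hεR

lemma exponent_le {x : EuclideanSpace ℝ (Fin d)} (hx : ‖x‖ ≤ R) : ε * ‖x‖^2 / 2 ≤ 1/2 := by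
  have h1 : ‖x‖^2 ≤ R^2 := pow_le_pow_left₀ (norm_nonneg _) hx 2
  have h2 : ε * ‖x‖^2 ≤ ε * R^2 := mul_le_mul_of_nonneg_left h1 hε.le
  linarith

lemma wt_inv_le {x : EuclideanSpace ℝ (Fin d)} (hx : ‖x‖ ≤ R) : (wt ε x)⁻¹ ≤ 2 := by
  rw [wt_inv]
  exact (Real.exp_le_exp.mpr (exponent_le hR hε hεR hx)).trans exp_half_le

lemma half_le_wt {x : EuclideanSpace ℝ (Fin d)} (hx : ‖x‖ ≤ R) : 1/2 ≤ wt ε x := by
  have h1 := wt_inv_le hR hε hεR hx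
  have h2 := wt_pos ε x
  rw [inv_le_comm₀ h2 two_pos] at h1
  simpa using h1

omit hR hεR in
lemma wt_le_one (x : EuclideanSpace ℝ (Fin d)) : wt ε x ≤ 1 := by
  unfold wt
  rw [Real.exp_le_one_iff]
  have : 0 ≤ ε * ‖x‖^2 / 2 := by positivity
  linarith

lemma wt_inv_lip {x y : EuclideanSpace ℝ (Fin d)} (hx : ‖x‖ ≤ R) (hy : ‖y‖ ≤ R) :
    |(wt ε x)⁻¹ - (wt ε y)⁻¹| ≤ 2 * ε * R * ‖x - y‖ := by
  rw [wt_inv, wt_inv]
  refine (exp_sub_le (exponent_le hR hε hεR hx) (exponent_le hR hε hεR hy)).trans ?_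
  have h1 : ε * ‖x‖^2 / 2 - ε * ‖y‖^2 / 2 = (ε / 2) * ((‖x‖ - ‖y‖) * (‖x‖ + ‖y‖)) := by ring
  rw [h1, abs_mul, abs_mul, abs_of_pos (by positivity : 0 < ε / 2)]
  have h2 : |‖x‖ - ‖y‖| ≤ ‖x - y‖ := abs_norm_sub_norm_le x y
  have h3 : |‖x‖ + ‖y‖| ≤ 2 * R := by
    rw [abs_of_nonneg (by positivity)]; linarith
  have h4 : |‖x‖ - ‖y‖| * |‖x‖ + ‖y‖| ≤ ‖x - y‖ * (2 * R) :=
    mul_le_mul h2 h3 (abs_nonneg _) (norm_nonneg _)
  nlinarith

lemma wt_inv_smul_lip {x y : EuclideanSpace ℝ (Fin d)} (hx : ‖x‖ ≤ R) (hy : ‖y‖ ≤ R) :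
    ‖(wt ε x)⁻¹ • x - (wt ε y)⁻¹ • y‖ ≤ 4 * ‖x - y‖ := by
  have h1 : (wt ε x)⁻¹ • x - (wt ε y)⁻¹ • y = (wt ε x)⁻¹ • (x - y) +
      ((wt ε x)⁻¹ - (wt ε y)⁻¹) • y := by
    rw [smul_sub, sub_smul]; abel
  rw [h1]
  refine (norm_add_le _ _).trans ?_
  rw [norm_smul, norm_smul, Real.norm_eq_abs, Real.norm_eq_abs,
    abs_of_pos (inv_pos.mpr (wt_pos ε x))]
  have h2 := wt_inv_le hR hε hεR hx
  have h3 := wt_inv_lip hR hε hεR hx hy
  have h4 : (wt ε x)⁻¹ * ‖x - y‖ ≤ 2 * ‖x - y‖ := mul_le_mul_of_nonneg_right h2 (norm_nonneg _)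
  have h5 : |(wt ε x)⁻¹ - (wt ε y)⁻¹| * ‖y‖ ≤ (2 * ε * R * ‖x - y‖) * R :=
    mul_le_mul h3 hy (norm_nonneg _) (by positivity)
  have h6 : (2 * ε * R * ‖x - y‖) * R = 2 * (ε * R^2) * ‖x - y‖ := by ring
  have h7 : 2 * (ε * R^2) * ‖x - y‖ ≤ 2 * ‖x - y‖ := by
    apply mul_le_mul_of_nonneg_right _ (norm_nonneg _)
    linarith
  linarith

lemma combined_lip {x y : EuclideanSpace ℝ (Fin d)} (hx : ‖x‖ ≤ R) (hy : ‖y‖ ≤ R) {c1 c0 : ℝ}
    (hc1 : c1^2 = ε / 128) (hc0 : c0^2 = 1 / (32 * ε * R^2)) :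
    ‖c1 • ((wt ε x)⁻¹ • x) - c1 • ((wt ε y)⁻¹ • y)‖^2 +
      (c0 * (wt ε x)⁻¹ - c0 * (wt ε y)⁻¹)^2 ≤ (ε / 4) * ‖x - y‖^2 := by
  rw [← smul_sub, norm_smul, mul_pow, Real.norm_eq_abs, sq_abs, hc1, ← mul_sub, mul_pow, hc0]
  have h1 := wt_inv_smul_lip hR hε hεR hx hy
  have h2 := wt_inv_lip hR hε hεR hx hy
  have h3 : ‖(wt ε x)⁻¹ • x - (wt ε y)⁻¹ • y‖^2 ≤ (4 * ‖x - y‖)^2 :=
    pow_le_pow_left₀ (norm_nonneg _) h1 2
  have h4 : ((wt ε x)⁻¹ - (wt ε y)⁻¹)^2 ≤ (2 * ε * R * ‖x - y‖)^2 := by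
    rw [← sq_abs]
    exact pow_le_pow_left₀ (abs_nonneg _) h2 2
  have h5 : (ε / 128) * ‖(wt ε x)⁻¹ • x - (wt ε y)⁻¹ • y‖^2 ≤ (ε / 128) * (4 * ‖x - y‖)^2 :=
    mul_le_mul_of_nonneg_left h3 (by positivity)
  have h6 : (1 / (32 * ε * R^2)) * ((wt ε x)⁻¹ - (wt ε y)⁻¹)^2 ≤
      (1 / (32 * ε * R^2)) * (2 * ε * R * ‖x - y‖)^2 :=
    mul_le_mul_of_nonneg_left h4 (by positivity)
  have h7 : (1 / (32 * ε * R^2)) * (2 * ε * R * ‖x - y‖)^2 = (ε / 8) * ‖x - y‖^2 := by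
    field_simp; ring
  rw [h7] at h6
  nlinarith

end lip

/-- Elementary inequalities for one cell. -/
lemma cell_num {m m' P Q s η : ℝ} (hm : 0 < m) (hm' : 0 < m') (hPm : P ≤ m) (hP2 : m / 2 ≤ P)
    (hQm : Q ≤ m') (hQ2 : m' / 2 ≤ Q) (hη : m = m' + η) (h1 : m' ≤ 2 * m) (h2 : (2/3) * m ≤ m')
    (hs : s = m / P - m' / Q) :
    (P + Q) / 2 - √(P * Q) ≤ 4 * m * s^2 + η^2 / m ∧ m / 3 ≤ √(P * Q) ∧
      |Q - P| ≤ 2 * m * |s| + |η| := by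
  have hP : 0 < P := by linarith
  have hQ : 0 < Q := by linarith
  have e1 : P * Q * s = m * (Q - P) + η * P := by
    rw [hs, hη]; field_simp; ring
  have e2 : Q - P = (P / m) * (Q * s - η) := by
    field_simp
    linarith
  have hPm1 : P / m ≤ 1 := (div_le_one hm).mpr hPm
  have hPm0 : 0 ≤ P / m := by positivity
  have hQ2m : Q ≤ 2 * m := by linarith
  refine ⟨?_, ?_, ?_⟩
  · have e3 : (P + Q) / 2 - √(P * Q) = (√P - √Q)^2 / 2 := by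
      rw [sub_sq, Real.sq_sqrt hP.le, Real.sq_sqrt hQ.le, Real.sqrt_mul hP.le]; ring
    have e4 : (√P - √Q)^2 * P ≤ (Q - P)^2 := by
      have e5 : (Q - P)^2 = (√P - √Q)^2 * (√P + √Q)^2 := by
        have : Q - P = (√Q - √P) * (√Q + √P) := by
          have a1 := Real.sq_sqrt hP.le
          have a2 := Real.sq_sqrt hQ.le
          nlinarith
        rw [this]; ring
      rw [e5]
      apply mul_le_mul_of_nonneg_left _ (sq_nonneg _)
      have a1 := Real.sq_sqrt hP.le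
      nlinarith [Real.sqrt_nonneg P, Real.sqrt_nonneg Q]
    rw [e3]
    -- (√P-√Q)^2 ≤ (Q-P)^2/P
    have e6 : (√P - √Q)^2 ≤ (Q - P)^2 / P := by rw [le_div_iff₀ hP]; exact e4
    have e7 : (Q - P)^2 / P ≤ 2 * (4 * m * s^2 + η^2 / m) := by
      have e8 : (Q - P)^2 / P = (P / m) * ((Q * s - η)^2 / m) := by
        rw [e2]; field_simp
      rw [e8]
      have e9 : (Q * s - η)^2 ≤ 2 * (4 * m^2 * s^2 + η^2) := by
        have b1 : (Q * s - η)^2 ≤ 2 * (Q * s)^2 + 2 * η^2 := by nlinarith [sq_nonneg (Q * s + η)]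
        have b2 : Q^2 ≤ (2 * m)^2 := pow_le_pow_left₀ hQ.le hQ2m 2
        have b3 : Q^2 * s^2 ≤ (2*m)^2 * s^2 := mul_le_mul_of_nonneg_right b2 (sq_nonneg s)
        nlinarith
      calc (P / m) * ((Q * s - η)^2 / m) ≤ 1 * ((Q * s - η)^2 / m) :=
            mul_le_mul_of_nonneg_right hPm1 (by positivity)
        _ ≤ (2 * (4 * m^2 * s^2 + η^2)) / m := by
            rw [one_mul]; exact div_le_div_of_nonneg_right e9 hm.le
        _ = 2 * (4 * m * s^2 + η^2 / m) := by field_simp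
    linarith
  · apply Real.le_sqrt_of_sq_le
    have : m / 3 ≤ Q := by linarith
    nlinarith
  · rw [e2, abs_mul, abs_of_nonneg hPm0]
    have c1 : |Q * s - η| ≤ Q * |s| + |η| := by
      refine (abs_sub _ _).trans ?_
      rw [abs_mul, abs_of_pos hQ]
    have c2 : Q * |s| ≤ 2 * m * |s| := mul_le_mul_of_nonneg_right hQ2m (abs_nonneg s)
    have c3 : 0 ≤ |Q * s - η| := abs_nonneg _
    calc P / m * |Q * s - η| ≤ 1 * |Q * s - η| := mul_le_mul_of_nonneg_right hPm1 c3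
      _ ≤ _ := by linarith

end Crest.Agent.S0109
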