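import Mathlib
import Crest.Prelude.Def_QuadraticTransport
import Crest.Agent.S0109_Key2

set_option autoImplicit false
set_option linter.unusedSectionVars false
set_option linter.deprecated false
open MeasureTheory
open scoped ENNReal NNReal RealInnerProductSpace
open Crest.AnalysisR.OT

namespace Crest.Agent.S0109

variable {d : ℕ}

/-- density perturbation -/
noncomputable def pert (ρ : Measure (EuclideanSpace ℝ (Fin d))) (h : EuclideanSpace ℝ (Fin d) → ℝ) :
    Measure (EuclideanSpace ℝ (Fin d)) := ρ.withDensity (fun x => ENNReal.ofReal (1 + h x))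

lemma pert_ac (ρ : Measure (EuclideanSpace ℝ (Fin d))) (h : EuclideanSpace ℝ (Fin d) → ℝ) :
    pert ρ h ≪ ρ := withDensity_absolutelyContinuous _ _

section pertsec
variable {ρ : Measure (EuclideanSpace ℝ (Fin d))} [IsProbabilityMeasure ρ] {R : ℝ}
  (hR : ∀ᵐ x ∂ρ, ‖x‖ ≤ R) {h : EuclideanSpace ℝ (Fin d) → ℝ} (hh : Measurable h)
  (hb : ∀ x, |h x| ≤ 1/2)
include hh hb

lemma integrable_h : Integrable h ρ :=
  Integrable.of_bound hh.aestronglyMeasurable (1/2) (Filter.Eventually.of_forall fun x => hb x)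

lemma integrable_h_mul {F : Type*} [NormedAddCommGroup F] [NormedSpace ℝ F]
    {f : EuclideanSpace ℝ (Fin d) → F} (hf : Integrable f ρ) :
    Integrable (fun x => h x • f x) ρ := by
  exact Integrable.bdd_smul hf (1/2) hh.aestronglyMeasurable
    (Filter.Eventually.of_forall fun x => hb x)

lemma setIntegral_pert {F : Type*} [NormedAddCommGroup F] [NormedSpace ℝ F]
    {f : EuclideanSpace ℝ (Fin d) → F} (hf : Integrable f ρ)
    {B : Set (EuclideanSpace ℝ (Fin d))} (hB : MeasurableSet B) :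
    ∫ x in B, f x ∂(pert ρ h) = ∫ x in B, f x ∂ρ + ∫ x in B, h x • f x ∂ρ := by
  unfold pert
  rw [setIntegral_withDensity_eq_setIntegral_toReal_smul (by fun_prop)
    (Filter.Eventually.of_forall fun x => ENNReal.ofReal_lt_top) _ hB]
  rw [← integral_add hf.integrableOn (integrable_h_mul hh hb hf).integrableOn]
  apply integral_congr_ae
  filter_upwards with x
  have h1 : (0:ℝ) ≤ 1 + h x := by
    have := (abs_le.mp (hb x)).1
    linarith
  rw [ENNReal.toReal_ofReal h1, add_smul, one_smul]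

lemma integral_pert {F : Type*} [NormedAddCommGroup F] [NormedSpace ℝ F]
    {f : EuclideanSpace ℝ (Fin d) → F} (hf : Integrable f ρ) :
    ∫ x, f x ∂(pert ρ h) = ∫ x, f x ∂ρ + ∫ x, h x • f x ∂ρ := by
  have := setIntegral_pert hh hb hf MeasurableSet.univ
  simpa using this

lemma isFinite_pert : IsFiniteMeasure (pert ρ h) := by
  unfold pert
  apply isFiniteMeasure_withDensity_ofReal
  exact ((integrable_const (1:ℝ)).add (integrable_h hh hb)).2

lemma real_pert {B : Set (EuclideanSpace ℝ (Fin d))} (hB : MeasurableSet B) :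
    (pert ρ h).real B = ρ.real B + ∫ x in B, h x ∂ρ := by
  have hf := isFinite_pert (ρ := ρ) hh hb
  have := setIntegral_pert hh hb (integrable_const (μ := ρ) (1:ℝ)) hB
  simpa using this

lemma isProb_pert (h0 : ∫ x, h x ∂ρ = 0) : IsProbabilityMeasure (pert ρ h) := by
  have hf := isFinite_pert (ρ := ρ) hh hb
  have h1 : (pert ρ h).real Set.univ = 1 := by
    rw [real_pert (ρ := ρ) hh hb MeasurableSet.univ, setIntegral_univ, h0, add_zero]
    exact probReal_univ
  constructor
  rw [← ENNReal.ofReal_toReal (measure_ne_top (pert ρ h) Set.univ)]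
  rw [Measure.real] at h1
  rw [h1]; simp

end pertsec

section main
variable {ι : Type*} [Fintype ι] [Nonempty ι]
variable {K : Set (EuclideanSpace ℝ (Fin d))} (hK : IsCompact K) (hKv : 0 < volume K)
  (hKc : Convex ℝ K) {R : ℝ} (hR : 0 < R) (hKR : K ⊆ Metric.closedBall 0 R)
include hK hKv hKc hR hKR

/-- The key estimate. -/
theorem key_estimate {y : ι → EuclideanSpace ℝ (Fin d)} (hy : Function.Injective y)
    {a0 a1 : ι → ℝ} {m : ι → ℝ} (hm : ∀ k, 0 < m k)
    {h : EuclideanSpace ℝ (Fin d) → ℝ} (hh : Measurable h) (hb : ∀ x, |h x| ≤ 1/2)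
    (hmass0 : ∀ k, (uniformProbOn K).real (cell y a0 k) = m k)
    (hmass1 : ∀ k, (pert (uniformProbOn K) h).real (cell y a1 k) = m k) :
    ∑ k, ‖mom (pert (uniformProbOn K) h) y a1 k - mom (uniformProbOn K) y a0 k‖^2 / m k ≤
      (20000000 * R^2) * ∫ x, h x ^ 2 ∂(uniformProbOn K) := by
  set ρ := uniformProbOn K with hρ
  have hprob : IsProbabilityMeasure ρ := isProb_unif hK hKv
  have hmem : ∀ᵐ x ∂ρ, x ∈ K := unif_ae_mem hK
  have hnorm : ∀ x ∈ K, ‖x‖ ≤ R := fun x hx => by simpa using hKR hx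
  have hR' : ∀ᵐ x ∂ρ, ‖x‖ ≤ R := by
    filter_upwards [hmem] with x hx using hnorm x hx
  have hac : ρ ≪ volume := unif_ac hK
  have hint : ∀ (F : EuclideanSpace ℝ (Fin d) → ℝ), Continuous F →
      Integrable F ρ := fun F hF => integrable_of_continuous hR' hF
  -- parameters
  set ε : ℝ := 1 / (960 * R^2) with hε
  have hε0 : 0 < ε := by positivity
  have hεR : ε * R^2 = 1/960 := by rw [hε]; field_simp
  have hεR1 : ε * R^2 ≤ 1 := by rw [hεR]; norm_num
  set c1 : ℝ := √(ε / 128) with hc1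
  set c0 : ℝ := √(1 / (32 * ε * R^2)) with hc0
  have hc1s : c1^2 = ε / 128 := Real.sq_sqrt (by positivity)
  have hc0s : c0^2 = 1 / (32 * ε * R^2) := Real.sq_sqrt (by positivity)
  have hc0s' : c0^2 = 30 := by
    rw [hc0s]
    have : 32 * ε * R^2 = 1/30 := by rw [mul_assoc, hεR]; norm_num
    rw [this]; norm_num
  have hwc := continuous_wt (d := d) ε
  have hwi : Continuous (fun x : EuclideanSpace ℝ (Fin d) => (wt ε x)⁻¹) :=
    hwc.inv₀ (fun x => (wt_pos ε x).ne')
  -- cell data
  let a2 : ι → ℝ := fun j => (a0 j + a1 j) / 2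
  let P : ι → ℝ := fun k => ∫ x in cell y a0 k, wt ε x ∂ρ
  let Q : ι → ℝ := fun k => ∫ x in cell y a1 k, wt ε x ∂ρ
  let W : ι → ℝ := fun k => ∫ x in cell y a2 k, wt ε x ∂ρ
  let m' : ι → ℝ := fun k => ρ.real (cell y a1 k)
  let η : ι → ℝ := fun k => ∫ x in cell y a1 k, h x ∂ρ
  let s : ι → ℝ := fun k => m k / P k - m' k / Q k
  let X : ι → EuclideanSpace ℝ (Fin d) := fun k =>
    (P k)⁻¹ • mom ρ y a0 k - (Q k)⁻¹ • mom ρ y a1 k
  let H1 : ι → ℝ := fun k => ∫ x in cell y a1 k, |h x| ∂ρ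
  let H2 : ι → ℝ := fun k => ∫ x in cell y a1 k, (h x)^2 ∂ρ
  have hh2 : Integrable (fun x => (h x)^2) ρ := by
    have := integrable_h_mul (ρ := ρ) hh hb (integrable_h (ρ := ρ) hh hb)
    simpa [pow_two] using this
  have hh1 : Integrable (fun x => |h x|) ρ := (integrable_h (ρ := ρ) hh hb).abs
  -- weight bounds on sets
  have wbound : ∀ (A : Set (EuclideanSpace ℝ (Fin d))), MeasurableSet A →
      (ρ.real A) / 2 ≤ ∫ x in A, wt ε x ∂ρ ∧ ∫ x in A, wt ε x ∂ρ ≤ ρ.real A := by
    intro A hA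
    constructor
    · have : ∫ x in A, (1/2 : ℝ) ∂ρ ≤ ∫ x in A, wt ε x ∂ρ := by
        apply integral_mono_ae (integrable_const _) (hint _ hwc).integrableOn
        filter_upwards [ae_restrict_of_ae hR'] with x hx
        exact half_le_wt hR hε0 hεR1 hx
      simp only [integral_const, measureReal_restrict_apply_univ, smul_eq_mul] at this
      linarith
    · have : ∫ x in A, wt ε x ∂ρ ≤ ∫ x in A, (1 : ℝ) ∂ρ := by
        apply integral_mono_ae (hint _ hwc).integrableOn (integrable_const _)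
        filter_upwards with x
        exact wt_le_one hε0 x
      simpa using this
  have f1 : ∀ k, m k / 2 ≤ P k ∧ P k ≤ m k := by
    intro k
    have := wbound (cell y a0 k) (measurableSet_cell y a0 k)
    rw [hmass0 k] at this
    exact this
  have f2 : ∀ k, m' k / 2 ≤ Q k ∧ Q k ≤ m' k := fun k =>
    wbound (cell y a1 k) (measurableSet_cell y a1 k)
  have f3 : ∀ k, m k = m' k + η k := by
    intro k
    rw [← hmass1 k, real_pert hh hb (measurableSet_cell y a1 k)]
  have hm'0 : ∀ k, 0 ≤ m' k := fun k => measureReal_nonneg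
  have f4 : ∀ k, |η k| ≤ H1 k := by
    intro k
    simp only [η, H1]
    exact abs_integral_le_integral_abs
  have f5 : ∀ k, H1 k ≤ m' k / 2 := by
    intro k
    have : ∫ x in cell y a1 k, |h x| ∂ρ ≤ ∫ x in cell y a1 k, (1/2:ℝ) ∂ρ :=
      integral_mono hh1.integrableOn (integrable_const _) hb
    simp only [integral_const, measureReal_restrict_apply_univ, smul_eq_mul] at this
    simp only [H1, m']
    linarith
  have hm'pos : ∀ k, 0 < m' k := by
    intro k
    have h1 := (abs_le.mp (f4 k)).2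
    have h2 := f3 k
    have h3 := f5 k
    have h4 := hm k
    linarith
  have f6 : ∀ k, m' k ≤ 2 * m k := by
    intro k
    have h1 := (abs_le.mp (f4 k)).1
    have h2 := f3 k
    have h3 := f5 k
    linarith
  have f7 : ∀ k, (2/3) * m k ≤ m' k := by
    intro k
    have h1 := (abs_le.mp (f4 k)).2
    have h2 := f3 k
    have h3 := f5 k
    linarith
  have hPpos : ∀ k, 0 < P k := fun k => lt_of_lt_of_le (by linarith [hm k]) (f1 k).1
  have hQpos : ∀ k, 0 < Q k := fun k => lt_of_lt_of_le (by linarith [hm'pos k]) (f2 k).1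
  -- the PL gain
  have gain : ∀ k, √(P k * Q k) * (1 + (c1^2 * ‖X k‖^2 + c0^2 * (s k)^2) / 2) ≤ W k := by
    intro k
    have g := cell_gain hK hKv hKc (measurableSet_cell y a0 k) (measurableSet_cell y a1 k)
      (measurableSet_cell y a2 k) (fun x hx x' hx' => half_add_mem_cell y a0 a1 hx hx') (ε := ε)
      (fun x => c1 • ((wt ε x)⁻¹ • x)) (fun x => c0 * (wt ε x)⁻¹)
      ((hwi.smul continuous_id).const_smul c1) (continuous_const.mul hwi)
      (fun x hx x' hx' => combined_lip hR hε0 hεR1 (hnorm x hx) (hnorm x' hx') hc1s hc0s)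
      (P := P k) (Q := Q k) (W := W k) rfl rfl rfl (hPpos k) (hQpos k)
      (by
        have := (wbound (cell y a2 k) (measurableSet_cell y a2 k)).1
        have h2 : 0 ≤ ρ.real (cell y a2 k) := measureReal_nonneg
        simp only [W]; linarith)
      (X := c1 • X k) (S := c0 * s k)
      (by
        have e1 : ∀ A : Set (EuclideanSpace ℝ (Fin d)),
            ∫ x in A, wt ε x • c1 • (wt ε x)⁻¹ • x ∂ρ = c1 • ∫ x in A, x ∂ρ := by
          intro A
          rw [← integral_smul]
          apply integral_congr_ae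
          filter_upwards with x
          have hx := (wt_pos ε x).ne'
          rw [smul_smul, smul_smul]
          congr 1
          field_simp
        rw [e1, e1, smul_comm _ c1, smul_comm _ c1, ← smul_sub]
        rfl)
      (by
        have e1 : ∀ A : Set (EuclideanSpace ℝ (Fin d)),
            ∫ x in A, wt ε x * (c0 * (wt ε x)⁻¹) ∂ρ = c0 * ρ.real A := by
          intro A
          have : ∀ x : EuclideanSpace ℝ (Fin d), wt ε x * (c0 * (wt ε x)⁻¹) = c0 := by
            intro x
            have := (wt_pos ε x).ne'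
            field_simp
          simp_rw [this]
          simp [mul_comm]
        rw [e1, e1, hmass0 k]
        simp only [s, m', div_eq_mul_inv]
        ring)
    rw [norm_smul, mul_pow, mul_pow, Real.norm_eq_abs, sq_abs] at g
    exact g
  have hnum : ∀ k, (P k + Q k) / 2 - √(P k * Q k) ≤ 4 * m k * (s k)^2 + (η k)^2 / m k ∧
      m k / 3 ≤ √(P k * Q k) ∧ |Q k - P k| ≤ 2 * m k * |s k| + |η k| := fun k =>
    cell_num (hm k) (hm'pos k) (f1 k).2 (f1 k).1 (f2 k).2 (f2 k).1 (f3 k) (f6 k) (f7 k) rfl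
  -- sums
  have hsumP : ∑ k, P k = ∫ x, wt ε x ∂ρ := (integral_eq_sum_cell hac hy a0 (hint _ hwc)).symm
  have hsumQ : ∑ k, Q k = ∫ x, wt ε x ∂ρ := (integral_eq_sum_cell hac hy a1 (hint _ hwc)).symm
  have hsumW : ∑ k, W k = ∫ x, wt ε x ∂ρ := (integral_eq_sum_cell hac hy a2 (hint _ hwc)).symm
  have hsum1 : ∑ k, √(P k * Q k) * ((c1^2 * ‖X k‖^2 + c0^2 * (s k)^2) / 2) ≤
      ∑ k, ((P k + Q k) / 2 - √(P k * Q k)) := by
    have e1 : ∑ k, ((P k + Q k) / 2 - √(P k * Q k)) = ∑ k, (W k - √(P k * Q k)) := by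
      rw [Finset.sum_sub_distrib, Finset.sum_sub_distrib, ← Finset.sum_div,
        Finset.sum_add_distrib, hsumP, hsumQ, hsumW]
      ring
    rw [e1]
    apply Finset.sum_le_sum
    intro k _
    have := gain k
    linarith
  have hsum2 : ∑ k, (m k * ((ε / 768) * ‖X k‖^2) + m k * (s k)^2) ≤ ∑ k, (η k)^2 / m k := by
    have e1 : ∀ k, (m k * ((ε / 768) * ‖X k‖^2) + m k * (s k)^2) + 4 * m k * (s k)^2 ≤
        √(P k * Q k) * ((c1^2 * ‖X k‖^2 + c0^2 * (s k)^2) / 2) := by
      intro k
      rw [hc1s, hc0s']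
      have h1 := (hnum k).2.1
      have h2 : 0 ≤ (ε / 128 * ‖X k‖^2 + 30 * (s k)^2) / 2 := by positivity
      have h3 := mul_le_mul_of_nonneg_right h1 h2
      refine le_trans (le_of_eq ?_) h3
      ring
    have e2 : ∑ k, ((m k * ((ε / 768) * ‖X k‖^2) + m k * (s k)^2) + 4 * m k * (s k)^2) ≤
        ∑ k, (4 * m k * (s k)^2 + (η k)^2 / m k) :=
      (Finset.sum_le_sum fun k _ => e1 k).trans (hsum1.trans
        (Finset.sum_le_sum fun k _ => (hnum k).1))
    rw [Finset.sum_add_distrib, Finset.sum_add_distrib (f := fun k => 4 * m k * (s k)^2)] at e2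
    linarith
  -- Cauchy-Schwarz
  have hCS : ∀ k, (H1 k)^2 ≤ 2 * m k * H2 k := by
    intro k
    have e1 : ∀ t : ℝ, 0 ≤ H2 k - 2 * t * H1 k + t^2 * m' k := by
      intro t
      have e2 : ∫ x in cell y a1 k, (|h x| - t)^2 ∂ρ = H2 k - 2 * t * H1 k + t^2 * m' k := by
        have e3 : ∀ x, (|h x| - t)^2 = ((h x)^2 - 2 * t * |h x|) + t^2 := by
          intro x
          rw [sub_sq, sq_abs]; ring
        simp_rw [e3]
        have i1 : Integrable (fun x => (h x)^2) (ρ.restrict (cell y a1 k)) := hh2.integrableOn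
        have i2 : Integrable (fun x => 2 * t * |h x|) (ρ.restrict (cell y a1 k)) :=
          hh1.integrableOn.const_mul _
        have i3 : Integrable (fun x => (h x)^2 - 2 * t * |h x|) (ρ.restrict (cell y a1 k)) :=
          i1.sub i2
        rw [integral_add i3 (integrable_const _), integral_sub i1 i2, integral_const_mul]
        simp only [H2, H1, m', integral_const, measureReal_restrict_apply_univ, smul_eq_mul]
        ring
      rw [← e2]
      exact integral_nonneg fun x => sq_nonneg _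
    have e4 := e1 (H1 k / m' k)
    have hmk := hm'pos k
    have e5 : H2 k - 2 * (H1 k / m' k) * H1 k + (H1 k / m' k)^2 * m' k =
        H2 k - (H1 k)^2 / m' k := by field_simp; ring
    rw [e5] at e4
    have e6 : (H1 k)^2 ≤ m' k * H2 k := by
      have : (H1 k)^2 / m' k ≤ H2 k := by linarith
      rw [div_le_iff₀ hmk] at this
      linarith
    have hH2 : 0 ≤ H2 k := integral_nonneg fun x => sq_nonneg _
    have e7 := mul_le_mul_of_nonneg_right (f6 k) hH2
    linarith
  have hηH : ∀ k, (η k)^2 / m k ≤ 2 * H2 k := by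
    intro k
    rw [div_le_iff₀ (hm k)]
    have e1 : (η k)^2 ≤ (H1 k)^2 := by
      rw [← sq_abs]
      exact pow_le_pow_left₀ (abs_nonneg _) (f4 k) 2
    have := hCS k
    linarith
  have hsumH2 : ∑ k, H2 k = ∫ x, (h x)^2 ∂ρ := (integral_eq_sum_cell hac hy a1 hh2).symm
  set HH := ∫ x, (h x)^2 ∂ρ with hHH
  have hsum3 : ∑ k, (η k)^2 / m k ≤ 2 * HH := by
    rw [← hsumH2, Finset.mul_sum]
    exact Finset.sum_le_sum fun k _ => hηH k
  have hsumX : ∑ k, m k * ‖X k‖^2 ≤ (768 / ε) * (2 * HH) := by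
    have e1 : ∑ k, (m k * ((ε / 768) * ‖X k‖^2)) ≤ 2 * HH := by
      refine le_trans (Finset.sum_le_sum fun k _ => ?_) (hsum2.trans hsum3)
      have := mul_nonneg (hm k).le (sq_nonneg (s k))
      linarith
    have e2 : ∑ k, m k * ‖X k‖^2 = (768 / ε) * ∑ k, (m k * ((ε / 768) * ‖X k‖^2)) := by
      rw [Finset.mul_sum]
      apply Finset.sum_congr rfl
      intro k _
      field_simp
    rw [e2]
    exact mul_le_mul_of_nonneg_left e1 (by positivity)
  have hsums : ∑ k, m k * (s k)^2 ≤ 2 * HH := by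
    refine le_trans (Finset.sum_le_sum fun k _ => ?_) (hsum2.trans hsum3)
    have : 0 ≤ m k * ((ε / 768) * ‖X k‖^2) := by
      have := (hm k).le
      positivity
    linarith
  -- final bound for each cell
  have hfin : ∀ k, ‖mom (pert ρ h) y a1 k - mom ρ y a0 k‖^2 / m k ≤
      48 * R^2 * (m k * (s k)^2) + 12 * (m k * ‖X k‖^2) + 54 * R^2 * H2 k := by
    intro k
    have hid : Integrable (fun x : EuclideanSpace ℝ (Fin d) => x) ρ :=
      integrable_of_continuous hR' continuous_id
    let Z : EuclideanSpace ℝ (Fin d) := ∫ x in cell y a1 k, h x • x ∂ρ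
    have e1 : mom (pert ρ h) y a1 k = mom ρ y a1 k + Z :=
      setIntegral_pert hh hb hid (measurableSet_cell y a1 k)
    have hZ : ‖Z‖ ≤ R * H1 k := by
      have : ‖Z‖ ≤ ∫ x in cell y a1 k, R * |h x| ∂ρ := by
        apply norm_integral_le_of_norm_le (hh1.integrableOn.const_mul R)
        filter_upwards [ae_restrict_of_ae hR'] with x hx
        rw [norm_smul, Real.norm_eq_abs, mul_comm]
        exact mul_le_mul_of_nonneg_right hx (abs_nonneg _)
      rw [integral_const_mul] at this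
      exact this
    have hU : ‖mom ρ y a0 k‖ ≤ R * m k := norm_mom_le hR' (hmass0 k)
    have hPk := hPpos k
    have hQk := hQpos k
    have hmk := hm k
    have e2 : mom ρ y a1 k = (Q k / P k) • mom ρ y a0 k - Q k • X k := by
      simp only [X]
      rw [smul_sub, smul_smul, smul_smul, mul_inv_cancel₀ hQk.ne', one_smul, div_eq_mul_inv]
      abel
    have e3 : mom (pert ρ h) y a1 k - mom ρ y a0 k =
        ((Q k - P k) / P k) • mom ρ y a0 k - Q k • X k + Z := by
      rw [e1, e2, sub_div, div_self hPk.ne', sub_smul, one_smul]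
      abel
    have e4 : ‖((Q k - P k) / P k) • mom ρ y a0 k‖ ≤ 2 * R * |Q k - P k| := by
      rw [norm_smul, Real.norm_eq_abs, abs_div, abs_of_pos hPk, div_mul_eq_mul_div,
        div_le_iff₀ hPk]
      have g1 : |Q k - P k| * ‖mom ρ y a0 k‖ ≤ |Q k - P k| * (R * m k) :=
        mul_le_mul_of_nonneg_left hU (abs_nonneg _)
      have g2 : |Q k - P k| * (R * m k) ≤ |Q k - P k| * (R * (2 * P k)) := by
        apply mul_le_mul_of_nonneg_left _ (abs_nonneg _)
        apply mul_le_mul_of_nonneg_left _ hR.le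
        linarith [(f1 k).1]
      linarith
    have e5 : ‖Q k • X k‖ ≤ 2 * m k * ‖X k‖ := by
      rw [norm_smul, Real.norm_eq_abs, abs_of_pos hQk]
      apply mul_le_mul_of_nonneg_right _ (norm_nonneg _)
      linarith [(f2 k).2, f6 k]
    have e6 : ‖mom (pert ρ h) y a1 k - mom ρ y a0 k‖ ≤
        4 * R * m k * |s k| + 2 * m k * ‖X k‖ + 3 * R * H1 k := by
      rw [e3]
      refine (norm_add_le _ _).trans ?_
      have g1 := norm_sub_le (((Q k - P k) / P k) • mom ρ y a0 k) (Q k • X k)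
      have g2 := (hnum k).2.2
      have g3 := f4 k
      have g4 : 2 * R * |Q k - P k| ≤ 2 * R * (2 * m k * |s k| + H1 k) := by
        apply mul_le_mul_of_nonneg_left _ (by positivity)
        linarith
      linarith
    have hH1 : 0 ≤ H1 k := (abs_nonneg _).trans (f4 k)
    rw [div_le_iff₀ hmk]
    have e7 : ‖mom (pert ρ h) y a1 k - mom ρ y a0 k‖^2 ≤
        (4 * R * m k * |s k| + 2 * m k * ‖X k‖ + 3 * R * H1 k)^2 :=
      pow_le_pow_left₀ (norm_nonneg _) e6 2
    have e8 : (4 * R * m k * |s k| + 2 * m k * ‖X k‖ + 3 * R * H1 k)^2 ≤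
        3 * ((4 * R * m k * |s k|)^2 + (2 * m k * ‖X k‖)^2 + (3 * R * H1 k)^2) := by
      generalize 4 * R * m k * |s k| = u
      generalize 2 * m k * ‖X k‖ = v
      generalize 3 * R * H1 k = w
      nlinarith [sq_nonneg (u - v), sq_nonneg (u - w), sq_nonneg (v - w)]
    have e9 : (4 * R * m k * |s k|)^2 = 16 * R^2 * (m k)^2 * (s k)^2 := by
      rw [mul_pow, sq_abs]; ring
    have e10 : (3 * R * H1 k)^2 ≤ 18 * R^2 * m k * H2 k := by
      have := mul_le_mul_of_nonneg_left (hCS k) (by positivity : 0 ≤ 9 * R^2)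
      calc (3 * R * H1 k)^2 = 9 * R^2 * (H1 k)^2 := by ring
        _ ≤ 9 * R^2 * (2 * m k * H2 k) := this
        _ = _ := by ring
    have e11 : (2 * m k * ‖X k‖)^2 = 4 * (m k)^2 * ‖X k‖^2 := by ring
    rw [e9, e11] at e8
    calc ‖mom (pert ρ h) y a1 k - mom ρ y a0 k‖^2 ≤
        3 * (16 * R^2 * (m k)^2 * (s k)^2 + 4 * (m k)^2 * ‖X k‖^2 + (3 * R * H1 k)^2) :=
          e7.trans e8
      _ ≤ 3 * (16 * R^2 * (m k)^2 * (s k)^2 + 4 * (m k)^2 * ‖X k‖^2 + 18 * R^2 * m k * H2 k) := by
          linarith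
      _ = _ := by ring
  calc ∑ k, ‖mom (pert ρ h) y a1 k - mom ρ y a0 k‖^2 / m k
      ≤ ∑ k, (48 * R^2 * (m k * (s k)^2) + 12 * (m k * ‖X k‖^2) + 54 * R^2 * H2 k) :=
        Finset.sum_le_sum fun k _ => hfin k
    _ = 48 * R^2 * ∑ k, m k * (s k)^2 + 12 * ∑ k, m k * ‖X k‖^2 + 54 * R^2 * HH := by
        rw [Finset.sum_add_distrib, Finset.sum_add_distrib, ← Finset.mul_sum, ← Finset.mul_sum,
          ← Finset.mul_sum, hsumH2]
    _ ≤ 48 * R^2 * (2 * HH) + 12 * ((768 / ε) * (2 * HH)) + 54 * R^2 * HH := by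
        have := mul_le_mul_of_nonneg_left hsums (by positivity : 0 ≤ 48 * R^2)
        linarith
    _ = (48 * 2 + 12 * 768 * 960 * 2 + 54) * R^2 * HH := by
        rw [hε]; field_simp
    _ ≤ 20000000 * R^2 * HH := by
        have hHH0 : 0 ≤ HH := integral_nonneg fun x => sq_nonneg _
        apply mul_le_mul_of_nonneg_right _ hHH0
        apply mul_le_mul_of_nonneg_right _ (sq_nonneg R)
        norm_num

end main

end Crest.Agent.S0109
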