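import Mathlib
import Crest.Prelude.Def_QuadraticTransport
import Crest.Agent.S0109_Key3

set_option autoImplicit false
set_option linter.unusedSectionVars false
set_option linter.deprecated false
open MeasureTheory Filter Topology
open scoped ENNReal NNReal RealInnerProductSpace
open Crest.AnalysisR.OT

namespace Crest.Agent.S0109

variable {d : ℕ} {ι : Type*} [Fintype ι] [Nonempty ι]

section general
variable {K : Set (EuclideanSpace ℝ (Fin d))} (hK : IsCompact K)
  (hKc : Convex ℝ K) (hKi : (interior K).Nonempty)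
include hK hKc hKi

omit hK hKc in
lemma vol_pos : 0 < volume K :=
  lt_of_lt_of_le (isOpen_interior.measure_pos volume hKi) (measure_mono interior_subset)

/-- A continuous function vanishing a.e. for the uniform measure vanishes on `K`. -/
lemma eq_zero_on_of_ae {f : EuclideanSpace ℝ (Fin d) → ℝ} (hf : Continuous f)
    (h : ∀ᵐ x ∂(uniformProbOn K), f x = 0) : ∀ x ∈ K, f x = 0 := by
  intro x hx
  by_contra hne
  have hopen : IsOpen {x | f x ≠ 0} := isOpen_ne_fun hf continuous_const
  have hxcl : x ∈ closure (interior K) := by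
    rw [hKc.closure_interior_eq_closure_of_nonempty_interior hKi]
    exact subset_closure hx
  obtain ⟨z, hz1, hz2⟩ := mem_closure_iff.mp hxcl _ hopen hne
  have hU : IsOpen ({x | f x ≠ 0} ∩ interior K) := hopen.inter isOpen_interior
  have hpos : 0 < volume ({x | f x ≠ 0} ∩ interior K) := hU.measure_pos volume ⟨z, hz1, hz2⟩
  have h0 : uniformProbOn K {x | f x ≠ 0} = 0 := by
    simpa [ae_iff] using h
  unfold uniformProbOn at h0
  rw [Measure.smul_apply, smul_eq_mul, mul_eq_zero] at h0
  rcases h0 with h0 | h0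
  · exact hK.measure_lt_top.ne (ENNReal.inv_eq_zero.mp h0)
  · rw [Measure.restrict_apply hopen.measurableSet] at h0
    have := measure_mono (μ := volume) (Set.inter_subset_inter_right {x | f x ≠ 0}
      (interior_subset (s := K)))
    rw [h0] at this
    exact absurd this (not_le.mpr hpos)

/-- uniqueness of the optimal potential up to a constant -/
lemma pot_unique {m : ι → ℝ}
    {z : ι → EuclideanSpace ℝ (Fin d)} {a a' : ι → ℝ}
    (ha : IsOpt (uniformProbOn K) m z a) (ha' : IsOpt (uniformProbOn K) m z a') :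
    ∃ c : ℝ, ∀ x ∈ K, pot z a x = pot z a' x + c := by
  have hKv : 0 < volume K := vol_pos hKi
  have hprob : IsProbabilityMeasure (uniformProbOn K) := isProb_unif hK hKv
  obtain ⟨R, hR⟩ := hK.isBounded.subset_closedBall (0 : EuclideanSpace ℝ (Fin d))
  have hR' : ∀ᵐ x ∂(uniformProbOn K), ‖x‖ ≤ R := by
    filter_upwards [unif_ae_mem hK] with x hx
    simpa using hR hx
  set ρ := uniformProbOn K
  let b : ι → ℝ := fun k => (a k + a' k) / 2
  let f : EuclideanSpace ℝ (Fin d) → ℝ := fun x => (pot z a x + pot z a' x) / 2 - pot z b x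
  have hfc : Continuous f := by
    have h1 := continuous_pot z a
    have h2 := continuous_pot z a'
    have h3 := continuous_pot z b
    fun_prop
  have hf0 : ∀ x, 0 ≤ f x := by
    intro x
    obtain ⟨k, hk⟩ := exists_pot_eq z b x
    have h1 := le_pot z a x k
    have h2 := le_pot z a' x k
    simp only [f, hk, b]
    linarith
  have hint : ∫ x, f x ∂ρ = (J ρ m z a + J ρ m z a') / 2 - J ρ m z b := by
    have i1 := integrable_pot hR' z a
    have i2 := integrable_pot hR' z a'
    have i3 := integrable_pot hR' z b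
    have i4 : Integrable (fun x => (pot z a x + pot z a' x) / 2) ρ := (i1.add i2).div_const 2
    simp only [f]
    rw [integral_sub i4 i3, integral_div, integral_add i1 i2]
    unfold J
    have : ∑ k, m k * b k = (∑ k, m k * a k + ∑ k, m k * a' k) / 2 := by
      rw [← Finset.sum_add_distrib, Finset.sum_div]
      apply Finset.sum_congr rfl
      intro k _
      simp only [b]; ring
    rw [this]; ring
  have hle : ∫ x, f x ∂ρ ≤ 0 := by
    rw [hint]
    have h1 := ha b
    have h2 := ha' b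
    linarith
  have hfi : Integrable f ρ := integrable_of_continuous hR' hfc
  have hzero : ∫ x, f x ∂ρ = 0 := le_antisymm hle (integral_nonneg hf0)
  have hae : ∀ᵐ x ∂ρ, f x = 0 := (integral_eq_zero_iff_of_nonneg hf0 hfi).mp hzero
  have hfK := eq_zero_on_of_ae hK hKc hKi hfc hae
  -- the difference takes finitely many values on `K`
  let D : EuclideanSpace ℝ (Fin d) → ℝ := fun x => pot z a x - pot z a' x
  have hDc : Continuous D := (continuous_pot z a).sub (continuous_pot z a')
  have hmaps : Set.MapsTo D K (Set.range fun k => a' k - a k) := by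
    intro x hx
    obtain ⟨k, hk⟩ := exists_pot_eq z b x
    have h1 := le_pot z a x k
    have h2 := le_pot z a' x k
    have h3 := hfK x hx
    simp only [f, hk, b] at h3
    refine ⟨k, ?_⟩
    simp only [D]
    linarith
  have hfin : (Set.range fun k => a' k - a k).Finite := Set.finite_range _
  have hdisc : IsDiscrete (Set.range fun k => a' k - a k) := hfin.isDiscrete
  obtain ⟨x₀, hx₀⟩ := hKi
  refine ⟨D x₀, fun x hx => ?_⟩
  have := hKc.isPreconnected.constant_of_mapsTo hdisc hDc.continuousOn hmaps hx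
    (interior_subset hx₀)
  simp only [D] at this ⊢
  linarith

end general

section variance
variable {K : Set (EuclideanSpace ℝ (Fin d))} (hK : IsCompact K)
  (hKc : Convex ℝ K) (hKi : (interior K).Nonempty) {R : ℝ} (hR : 0 < R)
  (hKR : K ⊆ Metric.closedBall 0 R) (p : EuclideanSpace ℝ (Fin d)) (hp : p ≠ 0)
include hK hKc hKi hR hKR hp

/-- J for the perturbed measure -/
lemma J_pert {m : ι → ℝ} {h : EuclideanSpace ℝ (Fin d) → ℝ} (hh : Measurable h)
    (hb : ∀ x, |h x| ≤ 1/2) (y : ι → EuclideanSpace ℝ (Fin d)) (a : ι → ℝ) :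
    J (pert (uniformProbOn K) h) m y a = J (uniformProbOn K) m y a +
      ∫ x, h x * pot y a x ∂(uniformProbOn K) := by
  have hKv : 0 < volume K := vol_pos hKi
  have hprob : IsProbabilityMeasure (uniformProbOn K) := isProb_unif hK hKv
  have hR' : ∀ᵐ x ∂(uniformProbOn K), ‖x‖ ≤ R := by
    filter_upwards [unif_ae_mem hK] with x hx
    simpa using hKR hx
  unfold J
  rw [integral_pert hh hb (integrable_pot hR' y a)]
  simp only [smul_eq_mul]
  ring

/-- The first step: pairing bound with the perturbed potential. -/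
lemma pairing_pert {m : ι → ℝ} (hm : ∀ k, 0 < m k) (hm1 : ∑ k, m k = 1)
    {h : EuclideanSpace ℝ (Fin d) → ℝ} (hh : Measurable h) (hb : ∀ x, |h x| ≤ 1/2)
    (h0 : ∫ x, h x ∂(uniformProbOn K) = 0)
    (y z : ι → EuclideanSpace ℝ (Fin d)) {a0 a1 : ι → ℝ} (ha0 : IsOpt (uniformProbOn K) m y a0)
    (ha1 : IsOpt (pert (uniformProbOn K) h) m z a1) :
    ∫ x, h x * pot z a1 x ∂(uniformProbOn K) - ∫ x, h x * pot y a0 x ∂(uniformProbOn K) ≤
      √(20000000 * R^2) * √(∫ x, h x ^ 2 ∂(uniformProbOn K)) *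
        √(∑ k, m k * ‖z k - y k‖^2) := by
  have hKv : 0 < volume K := vol_pos hKi
  set ρ := uniformProbOn K with hρ
  have hprob : IsProbabilityMeasure ρ := isProb_unif hK hKv
  have hprob1 : IsProbabilityMeasure (pert ρ h) := isProb_pert hh hb h0
  have hR' : ∀ᵐ x ∂ρ, ‖x‖ ≤ R := by
    filter_upwards [unif_ae_mem hK] with x hx
    simpa using hKR hx
  have hac : ρ ≪ volume := unif_ac hK
  have hR1 : ∀ᵐ x ∂(pert ρ h), ‖x‖ ≤ R := (pert_ac ρ h) hR'
  have hac1 : pert ρ h ≪ volume := (pert_ac ρ h).trans hac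
  have hnn : 0 ≤ ∫ x, h x ^ 2 ∂ρ := integral_nonneg fun x => sq_nonneg _
  have hS : (√(20000000 * R^2) * √(∫ x, h x ^ 2 ∂ρ))^2 = (20000000 * R^2) * ∫ x, h x ^ 2 ∂ρ := by
    rw [mul_pow, Real.sq_sqrt (by positivity), Real.sq_sqrt hnn]
  have hD := Delta_le hR' hR1 hac hac1 p hp hm hm1
    (S := √(20000000 * R^2) * √(∫ x, h x ^ 2 ∂ρ)) (by positivity)
    (by
      intro y a0 a1 hy hmass0 hmass1
      rw [hS]
      exact key_estimate hK hKv hKc hR hKR hy hm hh hb hmass0 hmass1) y z
  obtain ⟨a2, ha2⟩ := exists_min_J hR' hm hm1 z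
  have e1 : Topt (pert ρ h) m z = J ρ m z a1 + ∫ x, h x * pot z a1 x ∂ρ := by
    rw [Topt_eq ha1]
    exact J_pert hK hKc hKi hR hKR p hp hh hb z a1
  have e2 : Topt ρ m z ≤ J ρ m z a1 := by
    rw [Topt_eq (a := a2) ha2]; exact ha2 a1
  have e3 : Topt (pert ρ h) m y ≤ J ρ m y a0 + ∫ x, h x * pot y a0 x ∂ρ := by
    obtain ⟨a3, ha3⟩ := exists_min_J hR1 hm hm1 y
    rw [Topt_eq (a := a3) ha3, ← J_pert hK hKc hKi hR hKR p hp hh hb y a0]
    exact ha3 a0
  have e4 : Topt ρ m y = J ρ m y a0 := Topt_eq ha0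
  linarith

/-- The pairing bound with the unperturbed potential. -/
lemma pairing {m : ι → ℝ} (hm : ∀ k, 0 < m k) (hm1 : ∑ k, m k = 1)
    {g : EuclideanSpace ℝ (Fin d) → ℝ} (hg : Measurable g) {G : ℝ} (hG : 0 < G)
    (hgb : ∀ x, |g x| ≤ G) (h0 : ∫ x, g x ∂(uniformProbOn K) = 0)
    (y z : ι → EuclideanSpace ℝ (Fin d)) {a0 a1 : ι → ℝ} (ha0 : IsOpt (uniformProbOn K) m y a0)
    (ha1 : IsOpt (uniformProbOn K) m z a1) :
    ∫ x, g x * (pot z a1 x - pot y a0 x) ∂(uniformProbOn K) ≤
      √(20000000 * R^2) * √(∫ x, g x ^ 2 ∂(uniformProbOn K)) *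
        √(∑ k, m k * ‖z k - y k‖^2) := by
  have hKv : 0 < volume K := vol_pos hKi
  set ρ := uniformProbOn K with hρ
  have hprob : IsProbabilityMeasure ρ := isProb_unif hK hKv
  have hR' : ∀ᵐ x ∂ρ, ‖x‖ ≤ R := by
    filter_upwards [unif_ae_mem hK] with x hx
    simpa using hKR hx
  obtain ⟨kM, hkM⟩ := Finite.exists_max (fun k => ‖z k‖)
  set M := ‖z kM‖
  have hM : ∀ k, ‖z k‖ ≤ M := hkM
  -- the sequence of perturbations
  let ε : ℕ → ℝ := fun n => 1 / (2 * G * ((n:ℝ) + 1))
  have hεpos : ∀ n, 0 < ε n := fun n => by simp only [ε]; positivity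
  have hεlim : Tendsto ε atTop (𝓝 0) := by
    have h1 : Tendsto (fun n : ℕ => (1 / (2 * G)) * (1 / ((n:ℝ) + 1))) atTop
        (𝓝 ((1 / (2 * G)) * 0)) := tendsto_one_div_add_atTop_nhds_zero_nat.const_mul _
    rw [mul_zero] at h1
    refine h1.congr fun n => ?_
    simp only [ε]; field_simp
  have hεb : ∀ n x, |ε n * g x| ≤ 1/2 := by
    intro n x
    rw [abs_mul, abs_of_pos (hεpos n)]
    have h1 : ε n * |g x| ≤ ε n * G := mul_le_mul_of_nonneg_left (hgb x) (hεpos n).le
    have h2 : ε n * G ≤ 1/2 := by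
      simp only [ε]
      rw [div_mul_eq_mul_div, div_le_div_iff₀ (by positivity) two_pos]
      have : (0:ℝ) ≤ n := Nat.cast_nonneg n
      nlinarith [mul_nonneg hG.le this]
    linarith
  have hhm : ∀ n, Measurable (fun x => ε n * g x) := fun n => hg.const_mul _
  have hh0 : ∀ n, ∫ x, ε n * g x ∂ρ = 0 := by
    intro n; rw [integral_const_mul, h0, mul_zero]
  have hprobn : ∀ n, IsProbabilityMeasure (pert ρ (fun x => ε n * g x)) := fun n =>
    isProb_pert (hhm n) (hεb n) (hh0 n)
  have hRn : ∀ n, ∀ᵐ x ∂(pert ρ (fun x => ε n * g x)), ‖x‖ ≤ R := fun n => (pert_ac ρ _) hR'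
  -- optimal normalised weights
  let b : ι → ℝ := fun k => 2 * R * M / m k
  have hex : ∀ n, ∃ a ∈ Set.Icc (0 : ι → ℝ) b, IsOpt (pert ρ (fun x => ε n * g x)) m z a := by
    intro n
    have := hprobn n
    obtain ⟨a, ha⟩ := exists_min_J (hRn n) hm hm1 z
    obtain ⟨c, hc1, ⟨k₀, hc2⟩, hc3⟩ := exists_normalised (hRn n) hm1 z a
    have hopt : IsOpt (pert ρ (fun x => ε n * g x)) m z (fun k => a k + c) := by
      intro a'; rw [hc3]; exact ha a'
    refine ⟨fun k => a k + c, ⟨hc1, fun k => ?_⟩, hopt⟩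
    exact le_of_J_le (hRn n) hm z hM hc1 hc2 (hopt 0) k
  choose A hAmem hAopt using hex
  obtain ⟨as, has, φ, hφ, hlim⟩ := (isCompact_Icc (a := (0 : ι → ℝ)) (b := b)).tendsto_subseq hAmem
  -- integrability
  have hgi : Integrable g ρ :=
    Integrable.of_bound hg.aestronglyMeasurable G (Filter.Eventually.of_forall hgb)
  have hgp : ∀ (w : ι → EuclideanSpace ℝ (Fin d)) (a : ι → ℝ),
      Integrable (fun x => g x * pot w a x) ρ := by
    intro w a
    exact (integrable_pot hR' w a).bdd_mul (c := G) hg.aestronglyMeasurable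
      (Filter.Eventually.of_forall hgb)
  -- continuity of the pairing in the weights
  let Φ : (ι → ℝ) → ℝ := fun a => ∫ x, g x * pot z a x ∂ρ
  have hΦ : Continuous Φ := by
    have : LipschitzWith (Real.toNNReal G) Φ := by
      apply LipschitzWith.of_dist_le_mul
      intro a a'
      rw [Real.dist_eq, Real.coe_toNNReal G hG.le, dist_eq_norm]
      simp only [Φ]
      rw [← integral_sub (hgp z a) (hgp z a')]
      have h1 : ‖∫ x, (g x * pot z a x - g x * pot z a' x) ∂ρ‖ ≤ (G * ‖a - a'‖) * ρ.real Set.univ := by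
        apply norm_integral_le_of_norm_le_const
        filter_upwards with x
        rw [← mul_sub, norm_mul]
        apply mul_le_mul (hgb x) _ (norm_nonneg _) hG.le
        rw [Real.norm_eq_abs, abs_le]
        have h2 : ∀ k, |a k - a' k| ≤ ‖a - a'‖ := fun k => by
          have := norm_le_pi_norm (a - a') k
          rwa [Pi.sub_apply, Real.norm_eq_abs] at this
        have h3 := pot_sub_pot_le_weights z a a' (x := x) (c := ‖a - a'‖) (fun k => by
          have := (abs_le.mp (h2 k)).1; linarith)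
        have h4 := pot_sub_pot_le_weights z a' a (x := x) (c := ‖a - a'‖) (fun k => by
          have := (abs_le.mp (h2 k)).2; linarith)
        constructor <;> linarith
      simpa using h1
    exact this.continuous
  have hJc : Continuous (J ρ m z) := continuous_J hR' hm hm1 z
  have hΦlim : Tendsto (fun n => Φ (A (φ n))) atTop (𝓝 (Φ as)) := (hΦ.tendsto as).comp hlim
  have hεφ : Tendsto (fun n => ε (φ n)) atTop (𝓝 0) := hεlim.comp hφ.tendsto_atTop
  -- the limit is optimal
  have hJp : ∀ n (a : ι → ℝ), J (pert ρ (fun x => ε n * g x)) m z a = J ρ m z a + ε n * Φ a := by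
    intro n a
    rw [J_pert hK hKc hKi hR hKR p hp (hhm n) (hεb n) z a]
    congr 1
    simp only [Φ]
    rw [← integral_const_mul]
    apply integral_congr_ae
    filter_upwards with x
    ring
  have hasopt : IsOpt ρ m z as := by
    intro a'
    have l1 : Tendsto (fun n => J ρ m z (A (φ n)) + ε (φ n) * Φ (A (φ n))) atTop
        (𝓝 (J ρ m z as + 0 * Φ as)) :=
      ((hJc.tendsto as).comp hlim).add (hεφ.mul hΦlim)
    have l2 : Tendsto (fun n => J ρ m z a' + ε (φ n) * Φ a') atTop
        (𝓝 (J ρ m z a' + 0 * Φ a')) :=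
      tendsto_const_nhds.add (hεφ.mul_const _)
    rw [zero_mul, add_zero] at l1 l2
    apply le_of_tendsto_of_tendsto' l1 l2
    intro n
    rw [← hJp, ← hJp]
    exact hAopt (φ n) a'
  obtain ⟨c, hc⟩ := pot_unique hK hKc hKi ha1 hasopt
  -- the inequality along the sequence
  set V := √(∑ k, m k * ‖z k - y k‖^2) with hV
  have hseq : ∀ n, Φ (A n) - ∫ x, g x * pot y a0 x ∂ρ ≤
      √(20000000 * R^2) * √(∫ x, g x ^ 2 ∂ρ) * V := by
    intro n
    have h1 := pairing_pert hK hKc hKi hR hKR p hp hm hm1 (hhm n) (hεb n) (hh0 n) y z ha0 (hAopt n)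
    have h2 : ∫ x, ε n * g x * pot z (A n) x ∂ρ = ε n * Φ (A n) := by
      simp only [Φ]
      rw [← integral_const_mul]
      apply integral_congr_ae
      filter_upwards with x
      ring
    have h3 : ∫ x, ε n * g x * pot y a0 x ∂ρ = ε n * ∫ x, g x * pot y a0 x ∂ρ := by
      rw [← integral_const_mul]
      apply integral_congr_ae
      filter_upwards with x
      ring
    have h4 : √(∫ x, (ε n * g x) ^ 2 ∂ρ) = ε n * √(∫ x, g x ^ 2 ∂ρ) := by
      have : ∫ x, (ε n * g x) ^ 2 ∂ρ = (ε n)^2 * ∫ x, g x ^ 2 ∂ρ := by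
        rw [← integral_const_mul]
        apply integral_congr_ae
        filter_upwards with x
        ring
      rw [this, Real.sqrt_mul (sq_nonneg _), Real.sqrt_sq (hεpos n).le]
    rw [← hρ, h2, h3, h4, ← mul_sub] at h1
    have h5 : ε n * (Φ (A n) - ∫ x, g x * pot y a0 x ∂ρ) ≤
        ε n * (√(20000000 * R^2) * √(∫ x, g x ^ 2 ∂ρ) * V) := by
      refine h1.trans (le_of_eq ?_)
      ring
    exact le_of_mul_le_mul_left h5 (hεpos n)
  have hfinal : Φ as - ∫ x, g x * pot y a0 x ∂ρ ≤
      √(20000000 * R^2) * √(∫ x, g x ^ 2 ∂ρ) * V :=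
    le_of_tendsto' (hΦlim.sub_const _) fun n => hseq (φ n)
  have hrew : ∫ x, g x * (pot z a1 x - pot y a0 x) ∂ρ = Φ as - ∫ x, g x * pot y a0 x ∂ρ := by
    have h1 : ∫ x, g x * (pot z a1 x - pot y a0 x) ∂ρ =
        ∫ x, ((g x * pot z as x + c * g x) - g x * pot y a0 x) ∂ρ := by
      apply integral_congr_ae
      filter_upwards [unif_ae_mem hK] with x hx
      rw [hc x hx]; ring
    have i1 : Integrable (fun x => g x * pot z as x + c * g x) ρ := (hgp z as).add (hgi.const_mul c)
    rw [h1, integral_sub i1 (hgp y a0), integral_add (hgp z as) (hgi.const_mul c),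
      integral_const_mul, h0, mul_zero, add_zero]
  rw [hrew]
  exact hfinal

/-- Lipschitz stability of the potentials. -/
theorem variance_le {m : ι → ℝ} (hm : ∀ k, 0 < m k) (hm1 : ∑ k, m k = 1)
    (y z : ι → EuclideanSpace ℝ (Fin d)) {a0 a1 : ι → ℝ} (ha0 : IsOpt (uniformProbOn K) m y a0)
    (ha1 : IsOpt (uniformProbOn K) m z a1) :
    ∃ c : ℝ, ∫ x, (pot z a1 x - pot y a0 x - c)^2 ∂(uniformProbOn K) ≤
      20000000 * R^2 * ∑ k, m k * ‖z k - y k‖^2 := by
  have hKv : 0 < volume K := vol_pos hKi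
  set ρ := uniformProbOn K with hρ
  have hprob : IsProbabilityMeasure ρ := isProb_unif hK hKv
  have hmem := unif_ae_mem (K := K) hK
  have hR' : ∀ᵐ x ∂ρ, ‖x‖ ≤ R := by
    filter_upwards [hmem] with x hx
    simpa using hKR hx
  let u : EuclideanSpace ℝ (Fin d) → ℝ := fun x => pot z a1 x - pot y a0 x
  have huc : Continuous u := (continuous_pot z a1).sub (continuous_pot y a0)
  have hui : Integrable u ρ := integrable_of_continuous hR' huc
  set c := ∫ x, u x ∂ρ with hc
  refine ⟨c, ?_⟩
  let g : EuclideanSpace ℝ (Fin d) → ℝ := K.indicator (fun x => u x - c)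
  have hgm : Measurable g := (huc.measurable.sub_const c).indicator hK.measurableSet
  obtain ⟨G0, hG0⟩ := hK.exists_bound_of_continuousOn (f := fun x => u x - c)
    (huc.sub continuous_const).continuousOn
  have hgb : ∀ x, |g x| ≤ max G0 1 := by
    intro x
    by_cases hx : x ∈ K
    · simp only [g, Set.indicator_of_mem hx]
      exact (hG0 x hx).trans (le_max_left _ _)
    · simp only [g, Set.indicator_of_notMem hx, abs_zero]
      exact le_trans zero_le_one (le_max_right _ _)
  have hGpos : 0 < max G0 1 := lt_of_lt_of_le one_pos (le_max_right _ _)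
  have hgae : ∀ᵐ x ∂ρ, g x = u x - c := by
    filter_upwards [hmem] with x hx
    simp only [g, Set.indicator_of_mem hx]
  have hgi : Integrable g ρ := (hui.sub (integrable_const c)).congr (by
    filter_upwards [hgae] with x hx
    rw [hx]; rfl)
  have hg0 : ∫ x, g x ∂ρ = 0 := by
    rw [integral_congr_ae hgae, integral_sub hui (integrable_const c)]
    simp [hc]
  have hpair := pairing hK hKc hKi hR hKR p hp hm hm1 hgm hGpos hgb hg0 y z ha0 ha1
  have hgu : ∫ x, g x * (pot z a1 x - pot y a0 x) ∂ρ = ∫ x, g x ^ 2 ∂ρ := by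
    have i1 : Integrable (fun x => g x ^ 2) ρ := by
      have := hgi.bdd_mul (c := max G0 1) hgm.aestronglyMeasurable (Filter.Eventually.of_forall hgb)
      simpa [pow_two] using this
    have h1 : ∫ x, g x * (pot z a1 x - pot y a0 x) ∂ρ = ∫ x, (g x ^ 2 + c * g x) ∂ρ := by
      apply integral_congr_ae
      filter_upwards [hgae] with x hx
      have : pot z a1 x - pot y a0 x = g x + c := by rw [hx]; simp [u]
      rw [this]; ring
    rw [h1, integral_add i1 (hgi.const_mul c), integral_const_mul, hg0, mul_zero, add_zero]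
  rw [← hρ, hgu] at hpair
  have hsq : ∫ x, (pot z a1 x - pot y a0 x - c)^2 ∂ρ = ∫ x, g x ^ 2 ∂ρ := by
    apply integral_congr_ae
    filter_upwards [hgae] with x hx
    rw [hx]
  rw [hsq]
  set I := ∫ x, g x ^ 2 ∂ρ with hI
  have hI0 : 0 ≤ I := integral_nonneg fun x => sq_nonneg _
  set V := ∑ k, m k * ‖z k - y k‖^2 with hV
  have hV0 : 0 ≤ V := Finset.sum_nonneg fun k _ => mul_nonneg (hm k).le (sq_nonneg _)
  -- I ≤ A √I √V
  have h1 : √I * √I ≤ √(20000000 * R^2) * √V * √I := by
    rw [Real.mul_self_sqrt hI0]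
    refine hpair.trans (le_of_eq ?_)
    ring
  by_cases hIz : I = 0
  · rw [hIz]; positivity
  · have hIpos : 0 < √I := Real.sqrt_pos.mpr (lt_of_le_of_ne hI0 (Ne.symm hIz))
    have h2 : √I ≤ √(20000000 * R^2) * √V := le_of_mul_le_mul_right h1 hIpos
    have h3 : I = (√I)^2 := (Real.sq_sqrt hI0).symm
    rw [h3]
    calc (√I)^2 ≤ (√(20000000 * R^2) * √V)^2 := pow_le_pow_left₀ (Real.sqrt_nonneg _) h2 2
      _ = 20000000 * R^2 * V := by
        rw [mul_pow, Real.sq_sqrt (by positivity), Real.sq_sqrt hV0]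

end variance

end Crest.Agent.S0109
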