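import Mathlib
import Crest.Prelude.Def_QuadraticTransport
import Crest.Agent.S0109_Var
import Crest.Agent.LibGradInterp

set_option autoImplicit false
set_option linter.unusedSectionVars false
set_option linter.deprecated false
open MeasureTheory Filter Topology
open scoped ENNReal NNReal RealInnerProductSpace
open Crest.AnalysisR.OT

namespace Crest.Agent.S0109

variable {d : ℕ}

lemma fderiv_eq_inner_gradient (u : EuclideanSpace ℝ (Fin d) → ℝ) (x v : EuclideanSpace ℝ (Fin d)) :
    fderiv ℝ u x v = ⟪gradient u x, v⟫ := (inner_gradient_left (𝕜 := ℝ)).symm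

/-- local subgradients at a differentiability point equal the gradient. -/
lemma subgrad_unique {u : EuclideanSpace ℝ (Fin d) → ℝ} {x g : EuclideanSpace ℝ (Fin d)}
    (hd : DifferentiableAt ℝ u x) (h : ∀ᶠ x' in 𝓝 x, u x + ⟪g, x' - x⟫ ≤ u x') :
    g = gradient u x := by
  have h1 : HasFDerivAt (fun x' => u x' - ⟪g, x' - x⟫) (fderiv ℝ u x - innerSL ℝ g) x := by
    apply hd.hasFDerivAt.sub
    have h2 : HasFDerivAt (fun x' : EuclideanSpace ℝ (Fin d) => innerSL ℝ g (x' - x)) (innerSL ℝ g) x := by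
      have := (innerSL ℝ g).hasFDerivAt.comp x ((hasFDerivAt_id x).sub_const x)
      rw [ContinuousLinearMap.comp_id] at this
      exact this
    exact h2
  have hmin : IsLocalMin (fun x' => u x' - ⟪g, x' - x⟫) x := by
    filter_upwards [h] with x' hx'
    simp only [sub_self, inner_zero_right, sub_zero]
    linarith
  have h3 := hmin.hasFDerivAt_eq_zero h1
  have h4 : ∀ v, ⟪g, v⟫ = ⟪gradient u x, v⟫ := by
    intro v
    rw [← fderiv_eq_inner_gradient]
    have := congrArg (fun L => L v) h3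
    simp only [ContinuousLinearMap.sub_apply, ContinuousLinearMap.zero_apply, innerSL_apply_apply] at this
    linarith
  exact ext_inner_right ℝ h4

/-- the gradient of a convex function is a subgradient. -/
lemma convex_subgrad {u : EuclideanSpace ℝ (Fin d) → ℝ} (hu : ConvexOn ℝ Set.univ u)
    {x : EuclideanSpace ℝ (Fin d)}
    (hd : DifferentiableAt ℝ u x) (x' : EuclideanSpace ℝ (Fin d)) :
    u x + ⟪gradient u x, x' - x⟫ ≤ u x' := by
  rw [← fderiv_eq_inner_gradient]
  have h1 : Tendsto (fun t : ℝ => t⁻¹ • (u (x + t • (x' - x)) - u x)) (𝓝[>] 0)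
      (𝓝 (fderiv ℝ u x (x' - x))) := by
    have := (hd.hasFDerivAt.hasLineDerivAt (x' - x)).tendsto_slope_zero_right
    exact this
  have h2 : ∀ᶠ t : ℝ in 𝓝[>] 0, t⁻¹ • (u (x + t • (x' - x)) - u x) ≤ u x' - u x := by
    have : Set.Ioo (0:ℝ) 1 ∈ 𝓝[>] (0:ℝ) := Ioo_mem_nhdsGT one_pos
    filter_upwards [this] with t ht
    have h3 := hu.2 (Set.mem_univ x) (Set.mem_univ x') (by linarith [ht.2] : 0 ≤ 1 - t) ht.1.le
      (by ring)
    have h4 : (1 - t) • x + t • x' = x + t • (x' - x) := by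
      rw [sub_smul, one_smul, smul_sub]; abel
    rw [h4] at h3
    simp only [smul_eq_mul] at h3 ⊢
    rw [inv_mul_le_iff₀ ht.1]
    linarith
  have h3 := le_of_tendsto h1 h2
  linarith

/-- norm bound of the gradient of a Lipschitz function -/
lemma norm_gradient_le {u : EuclideanSpace ℝ (Fin d) → ℝ} {L : ℝ≥0} (hu : LipschitzWith L u)
    (x : EuclideanSpace ℝ (Fin d)) : ‖gradient u x‖ ≤ L := by
  have h1 : ‖gradient u x‖ = ‖fderiv ℝ u x‖ := by
    unfold gradient
    exact (InnerProductSpace.toDual ℝ (EuclideanSpace ℝ (Fin d))).symm.norm_map _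
  rw [h1]
  exact norm_fderiv_le_of_lipschitz ℝ hu

lemma measurable_gradient' (u : EuclideanSpace ℝ (Fin d) → ℝ) : Measurable (gradient u) := by
  unfold gradient
  exact (InnerProductSpace.toDual ℝ (EuclideanSpace ℝ (Fin d))).symm.continuous.measurable.comp
    (measurable_fderiv ℝ u)

/-- convergence of gradients. -/
lemma gradient_tendsto {u : ℕ → EuclideanSpace ℝ (Fin d) → ℝ} {v : EuclideanSpace ℝ (Fin d) → ℝ}
    {L : ℝ≥0} (hL : ∀ n, LipschitzWith L (u n)) (hc : ∀ n, ConvexOn ℝ Set.univ (u n))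
    (hlim : ∀ x, Tendsto (fun n => u n x) atTop (𝓝 (v x)))
    {x : EuclideanSpace ℝ (Fin d)} (hd : ∀ n, DifferentiableAt ℝ (u n) x)
    (hdv : DifferentiableAt ℝ v x) :
    Tendsto (fun n => gradient (u n) x) atTop (𝓝 (gradient v x)) := by
  apply tendsto_of_subseq_tendsto
  intro ns hns
  have hK : IsCompact (Metric.closedBall (0 : EuclideanSpace ℝ (Fin d)) L) := isCompact_closedBall _ _
  obtain ⟨g, _, φ, hφ, hg⟩ := hK.tendsto_subseq (x := fun n => gradient (u (ns n)) x)
    (fun n => by simpa using norm_gradient_le (hL (ns n)) x)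
  refine ⟨φ, ?_⟩
  have hgv : g = gradient v x := by
    apply subgrad_unique hdv
    filter_upwards with x'
    have h1 : Tendsto (fun n => u (ns (φ n)) x + ⟪gradient (u (ns (φ n))) x, x' - x⟫) atTop
        (𝓝 (v x + ⟪g, x' - x⟫)) := by
      apply Tendsto.add
      · exact (hlim x).comp (hns.comp hφ.tendsto_atTop)
      · exact hg.inner tendsto_const_nhds
    have h2 : Tendsto (fun n => u (ns (φ n)) x') atTop (𝓝 (v x')) :=
      (hlim x').comp (hns.comp hφ.tendsto_atTop)
    exact le_of_tendsto_of_tendsto' h1 h2 fun n => convex_subgrad (hc _) (hd _) x'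
  rw [← hgv]
  exact hg

/-- Sequential compactness of equi-Lipschitz normalised functions. -/
lemma lipschitz_subseq (u : ℕ → EuclideanSpace ℝ (Fin d) → ℝ) {L : ℝ≥0}
    (hL : ∀ n, LipschitzWith L (u n)) (h0 : ∀ n, u n 0 = 0) :
    ∃ (φ : ℕ → ℕ) (v : EuclideanSpace ℝ (Fin d) → ℝ), StrictMono φ ∧ LipschitzWith L v ∧
      ∀ x, Tendsto (fun n => u (φ n) x) atTop (𝓝 (v x)) := by
  let D : ℕ → EuclideanSpace ℝ (Fin d) := TopologicalSpace.denseSeq _
  have hD : DenseRange D := TopologicalSpace.denseRange_denseSeq _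
  have hbd : ∀ n x, |u n x| ≤ L * ‖x‖ := by
    intro n x
    have := (hL n).dist_le_mul x 0
    rw [Real.dist_eq, h0, sub_zero, dist_zero_right] at this
    exact this
  have hcomp : IsCompact (Set.pi Set.univ (fun j : ℕ => Set.Icc (-(L * ‖D j‖)) (L * ‖D j‖))) :=
    isCompact_univ_pi fun j => isCompact_Icc
  obtain ⟨w, _, φ, hφ, hw⟩ := hcomp.tendsto_subseq (x := fun n j => u n (D j)) (by
    intro n j _
    exact abs_le.mp (hbd n (D j)))
  have hw' : ∀ j, Tendsto (fun n => u (φ n) (D j)) atTop (𝓝 (w j)) := fun j =>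
    (tendsto_pi_nhds.mp hw) j
  have hcau : ∀ x, ∃ l, Tendsto (fun n => u (φ n) x) atTop (𝓝 l) := by
    intro x
    apply cauchySeq_tendsto_of_complete
    rw [Metric.cauchySeq_iff']
    intro ε hε
    have hLp : 0 < (L : ℝ) + 1 := by positivity
    obtain ⟨j, hj⟩ := hD.exists_dist_lt x (by positivity : 0 < ε / (4 * ((L : ℝ) + 1)))
    have hcj := (hw' j).cauchySeq
    rw [Metric.cauchySeq_iff'] at hcj
    obtain ⟨N, hN⟩ := hcj (ε/2) (by positivity)
    refine ⟨N, fun n hn => ?_⟩
    have h1 := (hL (φ n)).dist_le_mul x (D j)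
    have h2 := (hL (φ N)).dist_le_mul (D j) x
    have h3 := hN n hn
    have h4 : (L : ℝ) * dist x (D j) ≤ ε / 4 := by
      have h5 : (L : ℝ) * dist x (D j) ≤ ((L : ℝ) + 1) * (ε / (4 * ((L : ℝ) + 1))) := by
        apply mul_le_mul (by linarith) hj.le dist_nonneg hLp.le
      refine h5.trans (le_of_eq ?_)
      field_simp
    rw [dist_comm (D j) x] at h2
    have h6 := dist_triangle4 (u (φ n) x) (u (φ n) (D j)) (u (φ N) (D j)) (u (φ N) x)
    linarith
  choose v hv using hcau
  refine ⟨φ, v, hφ, ?_, hv⟩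
  apply LipschitzWith.of_dist_le_mul
  intro x y
  exact le_of_tendsto ((hv x).dist (hv y)) (Filter.Eventually.of_forall fun n =>
    (hL (φ n)).dist_le_mul x y)

lemma convex_of_tendsto {u : ℕ → EuclideanSpace ℝ (Fin d) → ℝ} {v : EuclideanSpace ℝ (Fin d) → ℝ}
    (hc : ∀ n, ConvexOn ℝ Set.univ (u n))
    (hlim : ∀ x, Tendsto (fun n => u n x) atTop (𝓝 (v x))) : ConvexOn ℝ Set.univ v := by
  refine ⟨convex_univ, fun x _ y _ a b ha hb hab => ?_⟩
  apply le_of_tendsto_of_tendsto' (hlim _) (((hlim x).const_smul a).add ((hlim y).const_smul b))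
  intro n
  exact (hc n).2 (Set.mem_univ x) (Set.mem_univ y) ha hb hab

end Crest.Agent.S0109
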