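import Mathlib
import Crest.Prelude.Def_QuadraticTransport
import Crest.Agent.S0109_Grad

set_option autoImplicit false
set_option linter.unusedSectionVars false
set_option linter.deprecated false
open MeasureTheory Filter Topology
open scoped ENNReal NNReal RealInnerProductSpace
open Crest.AnalysisR.OT

namespace Crest.Agent.S0109

variable {d : ℕ}

/-- Restricted convex conjugate. -/
noncomputable def conj (K : Set (EuclideanSpace ℝ (Fin d))) (u : EuclideanSpace ℝ (Fin d) → ℝ)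
    (y : EuclideanSpace ℝ (Fin d)) : ℝ := ⨆ x : K, (⟪(x : EuclideanSpace ℝ (Fin d)), y⟫ - u x)

section conj
variable {K : Set (EuclideanSpace ℝ (Fin d))} (hK : IsCompact K) (hKn : K.Nonempty)
  {u : EuclideanSpace ℝ (Fin d) → ℝ} (hu : Continuous u)
include hK hu

lemma conj_bdd (y : EuclideanSpace ℝ (Fin d)) :
    BddAbove (Set.range fun x : K => (⟪(x : EuclideanSpace ℝ (Fin d)), y⟫ - u x)) := by
  obtain ⟨C, hC⟩ := hK.exists_bound_of_continuousOn (f := fun x => ⟪x, y⟫ - u x)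
    (by fun_prop : Continuous fun x : EuclideanSpace ℝ (Fin d) => ⟪x, y⟫ - u x).continuousOn
  refine ⟨C, ?_⟩
  rintro _ ⟨x, rfl⟩
  exact (le_abs_self _).trans (hC x x.2)

lemma le_conj {x : EuclideanSpace ℝ (Fin d)} (hx : x ∈ K) (y : EuclideanSpace ℝ (Fin d)) :
    ⟪x, y⟫ - u x ≤ conj K u y :=
  le_ciSup (f := fun x : K => (⟪(x : EuclideanSpace ℝ (Fin d)), y⟫ - u x)) (conj_bdd hK hu y) ⟨x, hx⟩

include hKn in
lemma conj_lip {R : ℝ≥0} (hR : ∀ x ∈ K, ‖x‖ ≤ R) : LipschitzWith R (conj K u) := by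
  apply LipschitzWith.of_le_add_mul
  intro y y'
  have : Nonempty K := hKn.to_subtype
  apply ciSup_le
  intro x
  have h1 := le_conj hK hu x.2 y'
  have h2 : ⟪(x : EuclideanSpace ℝ (Fin d)), y - y'⟫ ≤ ‖(x : EuclideanSpace ℝ (Fin d))‖ * ‖y - y'‖ :=
    real_inner_le_norm _ _
  have h3 := mul_le_mul_of_nonneg_right (hR x x.2) (norm_nonneg (y - y'))
  rw [inner_sub_right] at h2
  rw [dist_eq_norm]
  linarith

include hKn in
lemma conj_gradient (huc : ConvexOn ℝ Set.univ u) {x : EuclideanSpace ℝ (Fin d)} (hx : x ∈ K)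
    (hd : DifferentiableAt ℝ u x) :
    conj K u (gradient u x) = ⟪x, gradient u x⟫ - u x := by
  have : Nonempty K := hKn.to_subtype
  apply le_antisymm
  · apply ciSup_le
    intro x'
    have h1 := convex_subgrad huc hd x'
    rw [inner_sub_right, real_inner_comm, real_inner_comm x] at h1
    linarith
  · exact le_conj hK hu hx _

end conj

lemma lintegral_enorm_sq {α : Type*} [MeasurableSpace α] {μ : Measure α} {F : Type*}
    [NormedAddCommGroup F] {f : α → F} (hf : Integrable (fun x => ‖f x‖^2) μ) :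
    ∫⁻ x, ‖f x‖ₑ ^ 2 ∂μ = ENNReal.ofReal (∫ x, ‖f x‖^2 ∂μ) := by
  rw [ofReal_integral_eq_lintegral_ofReal hf (Eventually.of_forall fun x => sq_nonneg _)]
  apply lintegral_congr
  intro x
  rw [ENNReal.ofReal_pow (norm_nonneg _), ofReal_norm_eq_enorm]

/-- Uniqueness in Brenier's theorem. -/
theorem optimal_eq_gradient {K : Set (EuclideanSpace ℝ (Fin d))} (hK : IsCompact K)
    (hKc : Convex ℝ K) (hKi : (interior K).Nonempty)
    {u : EuclideanSpace ℝ (Fin d) → ℝ} {L : ℝ≥0} (huL : LipschitzWith L u)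
    (huc : ConvexOn ℝ Set.univ u) {μ : Measure (EuclideanSpace ℝ (Fin d))}
    (hμ : (uniformProbOn K).map (gradient u) = μ)
    {T : EuclideanSpace ℝ (Fin d) → EuclideanSpace ℝ (Fin d)}
    (hT : IsOptimalMap (uniformProbOn K) μ T) : T =ᵐ[uniformProbOn K] gradient u := by
  have hKv : 0 < volume K := vol_pos hKi
  set ρ := uniformProbOn K with hρ
  have hprob : IsProbabilityMeasure ρ := isProb_unif hK hKv
  have hac : ρ ≪ volume := unif_ac hK
  obtain ⟨R, hR⟩ := hK.isBounded.subset_closedBall (0 : EuclideanSpace ℝ (Fin d))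
  have hKn : K.Nonempty := hKi.mono interior_subset
  have hRn : ∀ x ∈ K, ‖x‖ ≤ R := fun x hx => by simpa using hR hx
  have hR0 : 0 ≤ R := by
    obtain ⟨x, hx⟩ := hKn
    exact (norm_nonneg x).trans (hRn x hx)
  have hmem := unif_ae_mem (K := K) hK
  have hR' : ∀ᵐ x ∂ρ, ‖x‖ ≤ R := by
    filter_upwards [hmem] with x hx using hRn x hx
  have hint : ∀ᵐ x ∂ρ, x ∈ interior K := by
    have h1 : volume (frontier K) = 0 := hKc.addHaar_frontier volume
    have h2 : ρ (frontier K) = 0 := hac h1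
    have h3 := measure_eq_zero_iff_ae_notMem.mp h2
    filter_upwards [h3, hmem] with x hx1 hx2
    by_contra hx3
    exact hx1 ⟨subset_closure hx2, hx3⟩
  have hdiff : ∀ᵐ x ∂ρ, DifferentiableAt ℝ u x := hac huL.ae_differentiableAt
  set G := gradient u with hG
  have hGm : Measurable G := measurable_gradient' u
  obtain ⟨hTm, hTμ, hTopt⟩ := hT
  -- boundedness of T
  have hGb : ∀ x, ‖G x‖ ≤ L := norm_gradient_le huL
  have hTb : ∀ᵐ x ∂ρ, ‖T x‖ ≤ L := by
    have h1 : ∀ᵐ y ∂μ, ‖y‖ ≤ L := by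
      rw [← hμ]
      rw [ae_map_iff hGm.aemeasurable (measurableSet_le measurable_norm measurable_const)]
      exact Eventually.of_forall hGb
    rw [← hTμ, ae_map_iff hTm.aemeasurable (measurableSet_le measurable_norm measurable_const)] at h1
    exact h1
  -- integrability
  have ibdd : ∀ {F : Type} [NormedAddCommGroup F] (S : EuclideanSpace ℝ (Fin d) → EuclideanSpace ℝ (Fin d))
      (_ : Measurable S) (_ : ∀ᵐ x ∂ρ, ‖S x‖ ≤ L) (f : EuclideanSpace ℝ (Fin d) → EuclideanSpace ℝ (Fin d) → F)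
      (_ : Continuous (fun p : EuclideanSpace ℝ (Fin d) × EuclideanSpace ℝ (Fin d) => f p.1 p.2)),
      Integrable (fun x => f x (S x)) ρ := by
    intro F _ S hSm hSb f hf
    have hcomp : IsCompact ((Metric.closedBall (0 : EuclideanSpace ℝ (Fin d)) R) ×ˢ
      (Metric.closedBall (0 : EuclideanSpace ℝ (Fin d)) L)) :=
      (isCompact_closedBall _ _).prod (isCompact_closedBall _ _)
    obtain ⟨C, hC⟩ := hcomp.exists_bound_of_continuousOn hf.continuousOn
    have hmeas : AEStronglyMeasurable (fun x => f x (S x)) ρ :=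
      (hf.stronglyMeasurable.comp_measurable (measurable_id.prodMk hSm)).aestronglyMeasurable
    refine Integrable.of_bound hmeas C ?_
    filter_upwards [hR', hSb] with x h1 h2
    exact hC (x, S x) ⟨by simpa using h1, by simpa using h2⟩
  have hGb' : ∀ᵐ x ∂ρ, ‖G x‖ ≤ L := Eventually.of_forall hGb
  -- second moments agree
  have hsm : ∫ x, ‖T x‖^2 ∂ρ = ∫ x, ‖G x‖^2 ∂ρ := by
    have e1 : ∫ y, ‖y‖^2 ∂μ = ∫ x, ‖T x‖^2 ∂ρ := by
      rw [← hTμ, integral_map hTm.aemeasurable (by fun_prop)]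
    have e2 : ∫ y, ‖y‖^2 ∂μ = ∫ x, ‖G x‖^2 ∂ρ := by
      rw [← hμ, integral_map hGm.aemeasurable (by fun_prop)]
    rw [← e1, e2]
  have hcost : ∫ x, ‖x - T x‖^2 ∂ρ ≤ ∫ x, ‖x - G x‖^2 ∂ρ := by
    have h1 := hTopt G hGm hμ
    rw [lintegral_enorm_sq (ibdd T hTm hTb (fun x y => ‖x - y‖^2) (by fun_prop)),
      lintegral_enorm_sq (ibdd G hGm hGb' (fun x y => ‖x - y‖^2) (by fun_prop))] at h1
    rwa [ENNReal.ofReal_le_ofReal_iff (integral_nonneg fun x => sq_nonneg _)] at h1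
  have hexp : ∀ (S : EuclideanSpace ℝ (Fin d) → EuclideanSpace ℝ (Fin d)) (_ : Measurable S)
      (_ : ∀ᵐ x ∂ρ, ‖S x‖ ≤ L), ∫ x, ‖x - S x‖^2 ∂ρ =
      ∫ x, ‖x‖^2 ∂ρ - 2 * ∫ x, ⟪x, S x⟫ ∂ρ + ∫ x, ‖S x‖^2 ∂ρ := by
    intro S hSm hSb
    have i1 : Integrable (fun x : EuclideanSpace ℝ (Fin d) => ‖x‖^2) ρ :=
      integrable_of_continuous hR' (by fun_prop)
    have i2 := ibdd S hSm hSb (fun x y => ⟪x, y⟫) (by fun_prop)
    have i3 := ibdd S hSm hSb (fun x y => ‖y‖^2) (by fun_prop)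
    have i4 : Integrable (fun x => ‖x‖^2 - 2 * ⟪x, S x⟫) ρ := i1.sub (i2.const_mul 2)
    have : ∀ x, ‖x - S x‖^2 = (‖x‖^2 - 2 * ⟪x, S x⟫) + ‖S x‖^2 := by
      intro x; rw [norm_sub_sq_real]
    simp_rw [this]
    rw [integral_add i4 i3, integral_sub i1 (i2.const_mul 2), integral_const_mul]
  rw [hexp T hTm hTb, hexp G hGm hGb', hsm] at hcost
  have hcorr : ∫ x, ⟪x, G x⟫ ∂ρ ≤ ∫ x, ⟪x, T x⟫ ∂ρ := by linarith
  -- the conjugate
  have huC : Continuous u := huL.continuous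
  have hconjL : LipschitzWith (Real.toNNReal R) (conj K u) :=
    conj_lip hK hKn huC (fun x hx => by rw [Real.coe_toNNReal R hR0]; exact hRn x hx)
  have hconjC : Continuous (conj K u) := hconjL.continuous
  have hdual : ∫ x, conj K u (T x) ∂ρ = ∫ x, conj K u (G x) ∂ρ := by
    have e1 : ∫ y, conj K u y ∂μ = ∫ x, conj K u (T x) ∂ρ := by
      rw [← hTμ, integral_map hTm.aemeasurable hconjC.aestronglyMeasurable]
    have e2 : ∫ y, conj K u y ∂μ = ∫ x, conj K u (G x) ∂ρ := by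
      rw [← hμ, integral_map hGm.aemeasurable hconjC.aestronglyMeasurable]
    rw [← e1, e2]
  have iu : Integrable u ρ := integrable_of_continuous hR' huC
  have iT1 := ibdd T hTm hTb (fun x y => conj K u y) (by fun_prop)
  have iT2 := ibdd T hTm hTb (fun x y => ⟪x, y⟫) (by fun_prop)
  have iG1 := ibdd G hGm hGb' (fun x y => conj K u y) (by fun_prop)
  have iG2 := ibdd G hGm hGb' (fun x y => ⟪x, y⟫) (by fun_prop)
  have hGzero : ∫ x, u x ∂ρ + ∫ x, conj K u (G x) ∂ρ - ∫ x, ⟪x, G x⟫ ∂ρ = 0 := by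
    have i5 : Integrable (fun x => u x + conj K u (G x)) ρ := iu.add iG1
    rw [← integral_add iu iG1, ← integral_sub i5 iG2]
    rw [← integral_zero (EuclideanSpace ℝ (Fin d)) ℝ (μ := ρ)]
    apply integral_congr_ae
    filter_upwards [hmem, hdiff] with x hx hxd
    have := conj_gradient hK hKn huC huc hx hxd
    rw [hG, this]; ring
  have hTle : ∫ x, (u x + conj K u (T x) - ⟪x, T x⟫) ∂ρ ≤ 0 := by
    have i1 : Integrable (fun x => u x + conj K u (T x)) ρ := iu.add iT1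
    rw [integral_sub i1 iT2, integral_add iu iT1, hdual]
    linarith
  have hnn : 0 ≤ᵐ[ρ] fun x => u x + conj K u (T x) - ⟪x, T x⟫ := by
    filter_upwards [hmem] with x hx
    have := le_conj hK huC hx (T x)
    simp only [Pi.zero_apply]
    linarith
  have iT3 : Integrable (fun x => u x + conj K u (T x) - ⟪x, T x⟫) ρ := (iu.add iT1).sub iT2
  have hzero : ∫ x, (u x + conj K u (T x) - ⟪x, T x⟫) ∂ρ = 0 :=
    le_antisymm hTle (integral_nonneg_of_ae hnn)
  have hae := (integral_eq_zero_iff_of_nonneg_ae hnn iT3).mp hzero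
  filter_upwards [hae, hint, hdiff] with x h1 h2 h3
  simp only [Pi.zero_apply] at h1
  apply subgrad_unique h3
  have h4 : K ∈ 𝓝 x := mem_interior_iff_mem_nhds.mp h2
  filter_upwards [h4] with x' hx'
  have h5 := le_conj hK huC hx' (T x)
  rw [inner_sub_right, real_inner_comm, real_inner_comm x]
  linarith

end Crest.Agent.S0109
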