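import Mathlib
import Crest.Prelude.Def_QuadraticTransport
import Crest.Agent.S0109_Bren

set_option autoImplicit false
set_option linter.unusedSectionVars false
set_option linter.deprecated false
open MeasureTheory Filter Topology
open scoped ENNReal NNReal RealInnerProductSpace
open Crest.AnalysisR.OT

namespace Crest.Agent.S0109

variable {d : ℕ}

/-- Discretisation of a plan on a compact set. -/
lemma exists_discretization {Y : Set (EuclideanSpace ℝ (Fin d))} (hY : IsCompact Y)
    (π : Measure (EuclideanSpace ℝ (Fin d) × EuclideanSpace ℝ (Fin d))) [IsProbabilityMeasure π]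
    (hπ : ∀ᵐ q ∂π, q.1 ∈ Y ∧ q.2 ∈ Y) (p : EuclideanSpace ℝ (Fin d)) (hp : p ≠ 0) {δ : ℝ}
    (hδ : 0 < δ) :
    ∃ (ι : Type) (_ : Fintype ι) (_ : Nonempty ι) (m : ι → ℝ)
      (y z : ι → EuclideanSpace ℝ (Fin d))
      (P : EuclideanSpace ℝ (Fin d) × EuclideanSpace ℝ (Fin d) →
        EuclideanSpace ℝ (Fin d) × EuclideanSpace ℝ (Fin d)),
      (∀ k, 0 < m k) ∧ ∑ k, m k = 1 ∧ Function.Injective y ∧ Function.Injective z ∧
      Measurable P ∧ (∀ᵐ q ∂π, ‖(P q).1 - q.1‖ ≤ δ ∧ ‖(P q).2 - q.2‖ ≤ δ) ∧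
      (∀ F : EuclideanSpace ℝ (Fin d) × EuclideanSpace ℝ (Fin d) → ℝ,
        ∑ k, m k * F (y k, z k) = ∫ q, F (P q) ∂π) ∧
      (∀ k, ∃ q : EuclideanSpace ℝ (Fin d) × EuclideanSpace ℝ (Fin d), q.1 ∈ Y ∧ q.2 ∈ Y ∧
        ‖y k - q.1‖ ≤ δ ∧ ‖z k - q.2‖ ≤ δ) := by
  classical
  set EE := EuclideanSpace ℝ (Fin d) × EuclideanSpace ℝ (Fin d)
  let e : ℕ → EE := TopologicalSpace.denseSeq EE
  have he : DenseRange e := TopologicalSpace.denseRange_denseSeq EE
  have hYY : IsCompact (Y ×ˢ Y) := hY.prod hY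
  obtain ⟨s, hs⟩ := hYY.elim_finite_subcover (fun j : ℕ => Metric.ball (e j) (δ/2))
    (fun j => Metric.isOpen_ball) (by
      intro q _
      obtain ⟨j, hj⟩ := he.exists_dist_lt q (half_pos hδ)
      exact Set.mem_iUnion.mpr ⟨j, hj⟩)
  set N := s.sup id with hN
  let κ : SimpleFunc EE ℕ := SimpleFunc.nearestPtInd e N
  have hκN : ∀ q, κ q ≤ N := SimpleFunc.nearestPtInd_le e N
  have hκd : ∀ q : EE, q.1 ∈ Y → q.2 ∈ Y → dist (e (κ q)) q < δ/2 := by
    intro q h1 h2
    obtain ⟨j, hj1, hj2⟩ := Set.mem_iUnion₂.mp (hs (show q ∈ Y ×ˢ Y from ⟨h1, h2⟩))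
    have hjN : j ≤ N := Finset.le_sup (f := id) hj1
    have h3 := SimpleFunc.edist_nearestPt_le e q hjN
    have h4 : edist (e (κ q)) q ≤ edist (e j) q := h3
    rw [edist_dist, edist_dist, ENNReal.ofReal_le_ofReal_iff dist_nonneg] at h4
    rw [Metric.mem_ball, dist_comm] at hj2
    exact lt_of_le_of_lt h4 hj2
  let w : ℕ → ℝ := fun j => π.real (κ ⁻¹' {j})
  let S : Finset ℕ := (Finset.range (N+1)).filter (fun j => 0 < w j)
  -- integral formula
  have hint : ∀ g : ℕ → ℝ, ∫ q, g (κ q) ∂π = ∑ j ∈ S, w j * g j := by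
    intro g
    have h1 : ∀ q, g (κ q) = ∑ j ∈ Finset.range (N+1), (κ ⁻¹' {j}).indicator (fun _ => g j) q := by
      intro q
      rw [Finset.sum_eq_single (κ q)]
      · rw [Set.indicator_of_mem (by simp)]
      · intro j _ hj
        rw [Set.indicator_of_notMem]
        intro h
        exact hj (by simpa using h.symm)
      · intro h
        exact absurd (Finset.mem_range.mpr (Nat.lt_succ_of_le (hκN q))) h
    simp_rw [h1]
    rw [integral_finsetSum]
    · have h2 : ∀ j ∈ Finset.range (N+1), ∫ q, (κ ⁻¹' {j}).indicator (fun _ => g j) q ∂π = w j * g j := by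
        intro j _
        rw [integral_indicator_const _ (κ.measurableSet_preimage {j})]
        rfl
      rw [Finset.sum_congr rfl h2]
      symm
      apply Finset.sum_filter_of_ne
      intro j _ hj
      have h3 : 0 ≤ w j := measureReal_nonneg
      refine lt_of_le_of_ne h3 ?_
      intro h4
      apply hj
      rw [← h4, zero_mul]
    · intro j _
      exact (integrable_const _).indicator (κ.measurableSet_preimage {j})
  have hsum : ∑ j ∈ S, w j = 1 := by
    have := hint (fun _ => 1)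
    simp at this
    exact this.symm
  have hSne : S.Nonempty := by
    by_contra h
    rw [Finset.not_nonempty_iff_eq_empty] at h
    rw [h] at hsum
    simp at hsum
  let ι : Type := S
  have hιne : Nonempty ι := hSne.to_subtype
  -- perturbation
  let c : ι → ℝ := fun k => ((k : ℕ) : ℝ)
  have hc : Function.Injective c := by
    intro k l hkl
    apply Subtype.ext
    simp only [c] at hkl
    exact_mod_cast hkl
  let P0 : ℕ → ι → EuclideanSpace ℝ (Fin d) := fun j k => if j = 0 then (e k).1 else (e k).2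
  have hden : 0 < 2 * ((N:ℝ) + 1) * (‖p‖ + 1) := by positivity
  obtain ⟨t, ht0, htη, hinj⟩ := exists_good_delta 1 P0 c hc p hp
    (show 0 < δ / (2 * ((N:ℝ) + 1) * (‖p‖ + 1)) by positivity)
  let Φ : ℕ → EE := fun j => ((e j).1 + (t * (j:ℝ)) • p, (e j).2 + (t * (j:ℝ)) • p)
  have hpert : ∀ j ≤ N, ‖(t * (j:ℝ)) • p‖ ≤ δ/2 := by
    intro j hj
    rw [norm_smul, Real.norm_eq_abs, abs_of_nonneg (by positivity)]
    have h1 : (j:ℝ) ≤ N := by exact_mod_cast hj
    have h2 : t * (2 * ((N:ℝ) + 1) * (‖p‖ + 1)) ≤ δ := by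
      rw [lt_div_iff₀ hden] at htη
      exact htη.le
    have h3 : t * (j:ℝ) * ‖p‖ ≤ t * (((N:ℝ) + 1) * (‖p‖ + 1)) := by
      rw [mul_assoc]
      apply mul_le_mul_of_nonneg_left _ ht0.le
      apply mul_le_mul (by linarith) (by linarith) (norm_nonneg _) (by positivity)
    nlinarith
  have hPd : ∀ q : EE, q.1 ∈ Y → q.2 ∈ Y → ‖(Φ (κ q)).1 - q.1‖ ≤ δ ∧ ‖(Φ (κ q)).2 - q.2‖ ≤ δ := by
    intro q h1 h2
    have h3 := hκd q h1 h2
    have h4 := hpert (κ q) (hκN q)
    have h5 : dist (e (κ q)).1 q.1 < δ/2 := lt_of_le_of_lt (by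
      rw [Prod.dist_eq]; exact le_max_left _ _) h3
    have h6 : dist (e (κ q)).2 q.2 < δ/2 := lt_of_le_of_lt (by
      rw [Prod.dist_eq]; exact le_max_right _ _) h3
    rw [dist_eq_norm] at h5 h6
    constructor
    · simp only [Φ]
      rw [add_sub_right_comm]
      refine (norm_add_le _ _).trans ?_
      linarith
    · simp only [Φ]
      rw [add_sub_right_comm]
      refine (norm_add_le _ _).trans ?_
      linarith
  refine ⟨ι, inferInstance, hιne, fun k => w k, fun k => (Φ k).1, fun k => (Φ k).2,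
    fun q => Φ (κ q), ?_, ?_, ?_, ?_, ?_, ?_, ?_, ?_⟩
  · intro k
    exact (Finset.mem_filter.mp k.2).2
  · rw [← hsum]
    exact Finset.sum_coe_sort S w
  · have := hinj 0 (by norm_num)
    simpa [P0, Φ, c] using this
  · have := hinj 1 le_rfl
    simpa [P0, Φ, c] using this
  · exact (measurable_of_countable Φ).comp κ.measurable
  · filter_upwards [hπ] with q hq
    exact hPd q hq.1 hq.2
  · intro F
    rw [hint (fun j => F (Φ j))]
    rw [← Finset.sum_coe_sort S (fun j => w j * F (Φ j))]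
  · intro k
    have hk : 0 < w k := (Finset.mem_filter.mp k.2).2
    have hkN : (k : ℕ) ≤ N := Nat.lt_succ_iff.mp (Finset.mem_range.mp (Finset.mem_filter.mp k.2).1)
    have hex : ∃ q : EE, κ q = k ∧ q.1 ∈ Y ∧ q.2 ∈ Y := by
      by_contra hcon
      push Not at hcon
      have h1 : π (κ ⁻¹' {(k:ℕ)}) = 0 := by
        apply measure_mono_null _ (ae_iff.mp hπ)
        intro q hq
        simp only [Set.mem_preimage, Set.mem_singleton_iff] at hq
        intro h
        exact hcon q hq h.1 h.2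
      have h2 : w k = 0 := by
        simp only [w, Measure.real, h1, ENNReal.toReal_zero]
      linarith
    obtain ⟨q, hq, hq1, hq2⟩ := hex
    refine ⟨q, hq1, hq2, ?_⟩
    have := hPd q hq1 hq2
    rw [hq] at this
    exact this

end Crest.Agent.S0109
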