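import Mathlib
import Crest.Prelude.Def_QuadraticTransport
import Crest.Agent.S0109_Disc

set_option autoImplicit false
set_option linter.unusedSectionVars false
set_option linter.deprecated false
open MeasureTheory Filter Topology
open scoped ENNReal NNReal RealInnerProductSpace
open Crest.AnalysisR.OT

namespace Crest.Agent.S0109

variable {d : ℕ}

lemma gradient_pot_of_mem {ι : Type*} [Fintype ι] [Nonempty ι] (y : ι → EuclideanSpace ℝ (Fin d))
    (a : ι → ℝ) {x : EuclideanSpace ℝ (Fin d)} {k : ι} (hx : x ∈ cell y a k)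
    (hd : DifferentiableAt ℝ (pot y a) x) : y k = gradient (pot y a) x := by
  apply subgrad_unique hd
  filter_upwards with x'
  have h1 := le_pot y a x' k
  rw [pot_eq_of_mem_cell y a hx, inner_sub_right]
  have e1 : ⟪y k, x'⟫ = ⟪x', y k⟫ := real_inner_comm _ _
  have e2 : ⟪y k, x⟫ = ⟪x, y k⟫ := real_inner_comm _ _
  rw [e1, e2]
  linarith

/-- push-forward of the uniform measure by the gradient of an optimal potential. -/
lemma integral_gradient_pot {ι : Type*} [Fintype ι] [Nonempty ι]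
    {ρ : Measure (EuclideanSpace ℝ (Fin d))} [IsProbabilityMeasure ρ] (hac : ρ ≪ volume)
    {y : ι → EuclideanSpace ℝ (Fin d)} (hy : Function.Injective y)
    {a : ι → ℝ} {m : ι → ℝ} (hmass : ∀ k, ρ.real (cell y a k) = m k)
    (F : EuclideanSpace ℝ (Fin d) → ℝ) :
    ∫ x, F (gradient (pot y a) x) ∂ρ = ∑ k, m k * F (y k) := by
  obtain ⟨L, hL⟩ := exists_lipschitz_pot y a
  have hdiff : ∀ᵐ x ∂ρ, DifferentiableAt ℝ (pot y a) x := hac hL.ae_differentiableAt
  have h1 : ∫ x, F (gradient (pot y a) x) ∂ρ =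
      ∫ x, ∑ k, (cell y a k).indicator (fun _ => F (y k)) x ∂ρ := by
    apply integral_congr_ae
    filter_upwards [hdiff, ae_unique_cell hac hy a] with x hx1 hx2
    obtain ⟨k, hk⟩ := exists_mem_cell y a x
    rw [← gradient_pot_of_mem y a hk hx1]
    rw [Finset.sum_eq_single k]
    · rw [Set.indicator_of_mem hk]
    · intro j _ hj
      rw [Set.indicator_of_notMem]
      intro h
      exact hj (hx2 j k h hk)
    · intro h; exact absurd (Finset.mem_univ k) h
  rw [h1, integral_finsetSum]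
  · apply Finset.sum_congr rfl
    intro k _
    rw [integral_indicator_const _ (measurableSet_cell y a k), hmass k]
    rfl
  · intro k _
    exact (integrable_const _).indicator (measurableSet_cell y a k)

lemma gradient_sub_const (u : EuclideanSpace ℝ (Fin d) → ℝ) (c : ℝ) :
    gradient (fun x => u x - c) = gradient u := by
  funext x
  unfold gradient
  rw [fderiv_sub_const]

/-- One step of the approximation. -/
lemma approx_step {K : Set (EuclideanSpace ℝ (Fin d))} (hK : IsCompact K)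
    (hKc : Convex ℝ K) (hKi : (interior K).Nonempty) {R : ℝ} (hR : 0 < R)
    (hKR : K ⊆ Metric.closedBall 0 R)
    {Y : Set (EuclideanSpace ℝ (Fin d))} (hY : IsCompact Y) {M : ℝ≥0} (hM : ∀ y ∈ Y, ‖y‖ + 1 ≤ M)
    (p : EuclideanSpace ℝ (Fin d)) (hp : p ≠ 0) {C : ℝ≥0}
    (hC : ∀ u v : EuclideanSpace ℝ (Fin d) → ℝ, ConvexOn ℝ Set.univ u →
      ConvexOn ℝ Set.univ v → LipschitzWith M u → LipschitzWith M v →
      ∫⁻ x in K, ‖gradient u x - gradient v x‖ₑ ^ 2 ≤
        C * (∫⁻ x in K, ‖u x - v x‖ₑ ^ 2) ^ (1 / 3 : ℝ))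
    (π : Measure (EuclideanSpace ℝ (Fin d) × EuclideanSpace ℝ (Fin d))) [IsProbabilityMeasure π]
    (hπ : ∀ᵐ q ∂π, q.1 ∈ Y ∧ q.2 ∈ Y) {δ : ℝ} (hδ : 0 < δ) (hδ1 : δ ≤ 1) :
    ∃ (u v : EuclideanSpace ℝ (Fin d) → ℝ)
      (P : EuclideanSpace ℝ (Fin d) × EuclideanSpace ℝ (Fin d) →
        EuclideanSpace ℝ (Fin d) × EuclideanSpace ℝ (Fin d)),
      ConvexOn ℝ Set.univ u ∧ ConvexOn ℝ Set.univ v ∧ LipschitzWith M u ∧ LipschitzWith M v ∧
      u 0 = 0 ∧ v 0 = 0 ∧ Measurable P ∧
      (∀ᵐ q ∂π, ‖(P q).1 - q.1‖ ≤ δ ∧ ‖(P q).2 - q.2‖ ≤ δ) ∧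
      (∀ F : EuclideanSpace ℝ (Fin d) → ℝ,
        ∫ x, F (gradient u x) ∂(uniformProbOn K) = ∫ q, F (P q).1 ∂π) ∧
      (∀ F : EuclideanSpace ℝ (Fin d) → ℝ,
        ∫ x, F (gradient v x) ∂(uniformProbOn K) = ∫ q, F (P q).2 ∂π) ∧
      ∫⁻ x in K, ‖gradient u x - gradient v x‖ₑ ^ 2 ≤
        C * (volume K * ENNReal.ofReal (20000000 * R^2 * ∫ q, ‖(P q).2 - (P q).1‖^2 ∂π)) ^ (1 / 3 : ℝ) := by
  have hKv : 0 < volume K := vol_pos hKi
  set ρ := uniformProbOn K with hρ
  have hprob : IsProbabilityMeasure ρ := isProb_unif hK hKv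
  have hac : ρ ≪ volume := unif_ac hK
  have hmem := unif_ae_mem (K := K) hK
  have hR' : ∀ᵐ x ∂ρ, ‖x‖ ≤ R := by
    filter_upwards [hmem] with x hx
    simpa using hKR hx
  obtain ⟨ι, hfin, hne, m, y, z, P, hm, hm1, hy, hz, hPm, hPd, hPF, hyz⟩ :=
    exists_discretization hY π hπ p hp hδ
  have hyM : ∀ k, ‖y k‖ ≤ M := by
    intro k
    obtain ⟨q, h1, h2, h3, h4⟩ := hyz k
    have h5 := hM _ h1
    have h6 := norm_sub_norm_le (y k) q.1
    linarith
  have hzM : ∀ k, ‖z k‖ ≤ M := by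
    intro k
    obtain ⟨q, h1, h2, h3, h4⟩ := hyz k
    have h5 := hM _ h2
    have h6 := norm_sub_norm_le (z k) q.2
    linarith
  obtain ⟨a, ha⟩ := exists_min_J hR' hm hm1 y
  obtain ⟨b, hb⟩ := exists_min_J hR' hm hm1 z
  have hmassy : ∀ k, ρ.real (cell y a k) = m k := mass_eq hR' hac hm1 hy ha
  have hmassz : ∀ k, ρ.real (cell z b k) = m k := mass_eq hR' hac hm1 hz hb
  obtain ⟨c, hc⟩ := variance_le hK hKc hKi hR hKR p hp hm hm1 y z (a0 := a) (a1 := b) ha hb
  have lipc : ∀ (w : EuclideanSpace ℝ (Fin d) → ℝ) (t : ℝ), LipschitzWith M w →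
      LipschitzWith M (fun x => w x - t) := by
    intro w t hw
    apply LipschitzWith.of_dist_le_mul
    intro x x'
    rw [dist_sub_right]
    exact hw.dist_le_mul x x'
  have convc : ∀ (w : EuclideanSpace ℝ (Fin d) → ℝ) (t : ℝ), ConvexOn ℝ Set.univ w →
      ConvexOn ℝ Set.univ (fun x => w x - t) := by
    intro w t hw
    refine ⟨convex_univ, fun x hx x' hx' s r hs hr hsr => ?_⟩
    have h1 := hw.2 hx hx' hs hr hsr
    simp only [smul_eq_mul] at h1 ⊢
    have h2 : (s + r) * t = t := by rw [hsr, one_mul]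
    linarith
  refine ⟨fun x => pot y a x - pot y a 0, fun x => pot z b x - pot z b 0, P,
    convc _ _ (convexOn_pot y a), convc _ _ (convexOn_pot z b), lipc _ _ (lipschitz_pot y a hyM),
    lipc _ _ (lipschitz_pot z b hzM), sub_self _, sub_self _, hPm, hPd, ?_, ?_, ?_⟩
  · intro F
    rw [gradient_sub_const, integral_gradient_pot hac hy hmassy]
    exact hPF (fun q => F q.1)
  · intro F
    rw [gradient_sub_const, integral_gradient_pot hac hz hmassz]
    exact hPF (fun q => F q.2)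
  · rw [gradient_sub_const, gradient_sub_const]
    have h1 := hC (pot y a) (fun x => pot z b x - c) (convexOn_pot y a) (convc _ _ (convexOn_pot z b))
      (lipschitz_pot y a hyM) (lipc _ _ (lipschitz_pot z b hzM))
    rw [gradient_sub_const] at h1
    refine h1.trans ?_
    gcongr
    -- ∫⁻ over K = vol K * lintegral over ρ
    have h2 : ∫⁻ x in K, ‖pot y a x - (pot z b x - c)‖ₑ ^ 2 =
        volume K * ∫⁻ x, ‖pot y a x - (pot z b x - c)‖ₑ ^ 2 ∂ρ := by
      rw [hρ]
      unfold uniformProbOn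
      rw [lintegral_smul_measure, smul_eq_mul, ← mul_assoc,
        ENNReal.mul_inv_cancel hKv.ne' hK.measure_lt_top.ne, one_mul]
    rw [h2]
    gcongr
    have hcont : Continuous (fun x => pot y a x - (pot z b x - c)) :=
      (continuous_pot y a).sub ((continuous_pot z b).sub continuous_const)
    rw [lintegral_enorm_sq (integrable_of_continuous hR' (by fun_prop))]
    apply ENNReal.ofReal_le_ofReal
    have h3 : ∫ x, ‖pot y a x - (pot z b x - c)‖^2 ∂ρ = ∫ x, (pot z b x - pot y a x - c)^2 ∂ρ := by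
      apply integral_congr_ae
      filter_upwards with x
      rw [Real.norm_eq_abs, sq_abs]; ring
    rw [h3, ← hPF (fun q => ‖q.2 - q.1‖^2)]
    exact hc

end Crest.Agent.S0109
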