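import Mathlib
import Crest.Prelude.Def_QuadraticTransport
import Crest.Agent.S0109_Step

set_option autoImplicit false
set_option linter.unusedSectionVars false
set_option linter.deprecated false
open MeasureTheory Filter Topology
open scoped ENNReal NNReal RealInnerProductSpace
open Crest.AnalysisR.OT

namespace Crest.Agent.S0109

variable {d : ℕ}

/-- Identification of the push-forward in the limit. -/
lemma pushforward_limit {K : Set (EuclideanSpace ℝ (Fin d))} (hK : IsCompact K)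
    (hKi : (interior K).Nonempty)
    {un : ℕ → EuclideanSpace ℝ (Fin d) → ℝ} {u : EuclideanSpace ℝ (Fin d) → ℝ}
    (hg : ∀ᵐ x ∂(uniformProbOn K), Tendsto (fun n => gradient (un n) x) atTop (𝓝 (gradient u x)))
    {Ω : Type*} [MeasurableSpace Ω] {π : Measure Ω} [IsProbabilityMeasure π]
    {Pn : ℕ → Ω → EuclideanSpace ℝ (Fin d)} {X : Ω → EuclideanSpace ℝ (Fin d)}
    (hPm : ∀ n, Measurable (Pn n)) (hX : Measurable X)
    (hP : ∀ᵐ q ∂π, Tendsto (fun n => Pn n q) atTop (𝓝 (X q)))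
    (hF : ∀ n, ∀ F : EuclideanSpace ℝ (Fin d) → ℝ,
        ∫ x, F (gradient (un n) x) ∂(uniformProbOn K) = ∫ q, F (Pn n q) ∂π) :
    (uniformProbOn K).map (gradient u) = π.map X := by
  have hprob : IsProbabilityMeasure (uniformProbOn K) := isProb_unif hK (vol_pos hKi)
  have hum : Measurable (gradient u) := measurable_gradient' u
  have p1 : IsProbabilityMeasure ((uniformProbOn K).map (gradient u)) :=
    Measure.isProbabilityMeasure_map hum.aemeasurable
  have p2 : IsProbabilityMeasure (π.map X) := Measure.isProbabilityMeasure_map hX.aemeasurable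
  apply ext_of_forall_integral_eq_of_IsFiniteMeasure
  intro f
  rw [integral_map hum.aemeasurable f.continuous.aestronglyMeasurable,
    integral_map hX.aemeasurable f.continuous.aestronglyMeasurable]
  have l1 : Tendsto (fun n => ∫ x, f (gradient (un n) x) ∂(uniformProbOn K)) atTop
      (𝓝 (∫ x, f (gradient u x) ∂(uniformProbOn K))) := by
    apply tendsto_integral_of_dominated_convergence (fun _ => ‖f‖)
    · intro n
      exact (f.continuous.measurable.comp (measurable_gradient' (un n))).aestronglyMeasurable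
    · exact integrable_const _
    · intro n
      exact Eventually.of_forall fun x => f.norm_coe_le_norm _
    · filter_upwards [hg] with x hx
      exact (f.continuous.tendsto _).comp hx
  have l2 : Tendsto (fun n => ∫ q, f (Pn n q) ∂π) atTop (𝓝 (∫ q, f (X q) ∂π)) := by
    apply tendsto_integral_of_dominated_convergence (fun _ => ‖f‖)
    · intro n
      exact (f.continuous.measurable.comp (hPm n)).aestronglyMeasurable
    · exact integrable_const _
    · intro n
      exact Eventually.of_forall fun x => f.norm_coe_le_norm _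
    · filter_upwards [hP] with x hx
      exact (f.continuous.tendsto _).comp hx
  have h3 : (fun n => ∫ x, f (gradient (un n) x) ∂(uniformProbOn K)) =
      (fun n => ∫ q, f (Pn n q) ∂π) := by
    funext n; exact hF n f
  rw [h3] at l1
  exact tendsto_nhds_unique l1 l2

theorem main
    (hd : 2 ≤ d) (K : Set (EuclideanSpace ℝ (Fin d))) (hK : IsCompact K) (hKc : Convex ℝ K)
    (hKi : (interior K).Nonempty) (Y : Set (EuclideanSpace ℝ (Fin d))) (hY : IsCompact Y) :
    ∃ C : ℝ≥0, ∀ μ ν : Measure (EuclideanSpace ℝ (Fin d)), IsProbabilityOn Y μ → IsProbabilityOn Y ν →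
      ∀ Tμ Tν : EuclideanSpace ℝ (Fin d) → EuclideanSpace ℝ (Fin d),
        IsOptimalMap (uniformProbOn K) μ Tμ → IsOptimalMap (uniformProbOn K) ν Tν →
        ∀ π : Measure (EuclideanSpace ℝ (Fin d) × EuclideanSpace ℝ (Fin d)), IsPairCoupling μ ν π →
          ∫⁻ x, ‖Tμ x - Tν x‖ₑ ^ 2 ∂(uniformProbOn K) ≤ C * quadCost π ^ (1 / 3 : ℝ) := by
  have hKv : 0 < volume K := vol_pos hKi
  have hKtop : volume K ≠ ∞ := hK.measure_lt_top.ne
  set ρ := uniformProbOn K with hρ
  have hprob : IsProbabilityMeasure ρ := isProb_unif hK hKv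
  have hac : ρ ≪ volume := unif_ac hK
  -- constants
  obtain ⟨R0, hR0⟩ := hK.isBounded.subset_closedBall (0 : EuclideanSpace ℝ (Fin d))
  obtain ⟨R, hR, hKR⟩ : ∃ R : ℝ, 0 < R ∧ K ⊆ Metric.closedBall 0 R :=
    ⟨max R0 1, lt_of_lt_of_le one_pos (le_max_right _ _),
      hR0.trans (Metric.closedBall_subset_closedBall (le_max_left _ _))⟩
  obtain ⟨M0, hM0⟩ := hY.isBounded.subset_closedBall (0 : EuclideanSpace ℝ (Fin d))
  obtain ⟨M, hM⟩ : ∃ M : ℝ≥0, ∀ y ∈ Y, ‖y‖ + 1 ≤ M := by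
    refine ⟨Real.toNNReal (M0 + 1), fun y hy => ?_⟩
    have h1 : ‖y‖ ≤ M0 := by simpa using hM0 hy
    exact le_trans (by linarith) (Real.le_coe_toNNReal _)
  let p : EuclideanSpace ℝ (Fin d) := EuclideanSpace.single ⟨0, by omega⟩ 1
  have hp : p ≠ 0 := by
    intro h
    have h1 : ‖p‖ = 1 := by simp [p]
    rw [h, norm_zero] at h1
    exact zero_ne_one h1
  obtain ⟨C0, hC0⟩ := Crest.Agent.LibGradInterp.grad_interp K hK hKc M
  set A : ℝ≥0∞ := ENNReal.ofReal (20000000 * R^2) with hA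
  set Cf : ℝ≥0∞ := (volume K)⁻¹ * (C0 * (volume K * A) ^ (1/3 : ℝ)) with hCf
  have hCftop : Cf ≠ ∞ := by
    apply ENNReal.mul_ne_top (ENNReal.inv_ne_top.mpr hKv.ne')
    apply ENNReal.mul_ne_top ENNReal.coe_ne_top
    apply ENNReal.rpow_ne_top_of_nonneg (by norm_num)
    exact ENNReal.mul_ne_top hKtop ENNReal.ofReal_ne_top
  refine ⟨Cf.toNNReal, ?_⟩
  rw [ENNReal.coe_toNNReal hCftop]
  intro μ ν hμ hν Tμ Tν hTμ hTν π hπ
  obtain ⟨hπ1, hπ2⟩ := hπ
  have hμp : IsProbabilityMeasure μ := hμ.1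
  have hπp : IsProbabilityMeasure π := by
    constructor
    have := hμp.measure_univ
    rw [← hπ1, Measure.map_apply measurable_fst MeasurableSet.univ] at this
    simpa using this
  have hπY : ∀ᵐ q ∂π, q.1 ∈ Y ∧ q.2 ∈ Y := by
    have h1 : ∀ᵐ y ∂μ, y ∈ Y := by
      rw [ae_iff]; exact hμ.2
    have h2 : ∀ᵐ y ∂ν, y ∈ Y := by
      rw [ae_iff]; exact hν.2
    rw [← hπ1] at h1
    rw [← hπ2] at h2
    have h1' := (ae_map_iff (p := fun y => y ∈ Y) measurable_fst.aemeasurable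
      hY.measurableSet).mp h1
    have h2' := (ae_map_iff (p := fun y => y ∈ Y) measurable_snd.aemeasurable
      hY.measurableSet).mp h2
    filter_upwards [h1', h2'] with q h3 h4 using ⟨h3, h4⟩
  -- the approximations
  let δ : ℕ → ℝ := fun n => 1 / ((n:ℝ) + 1)
  have hδ0 : ∀ n, 0 < δ n := fun n => by simp only [δ]; positivity
  have hδ1 : ∀ n, δ n ≤ 1 := by
    intro n
    simp only [δ]
    rw [div_le_one (by positivity)]
    have : (0:ℝ) ≤ n := Nat.cast_nonneg n
    linarith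
  have hδlim : Tendsto δ atTop (𝓝 0) := tendsto_one_div_add_atTop_nhds_zero_nat
  have hstep := fun n => approx_step hK hKc hKi hR hKR hY hM p hp hC0 π hπY (hδ0 n) (hδ1 n)
  choose u v P huc hvc huL hvL hu0 hv0 hPm hPd hFu hFv hE using hstep
  -- subsequences
  obtain ⟨φ1, ui, hφ1, huiL, hulim⟩ := lipschitz_subseq u huL hu0
  obtain ⟨φ2, vi, hφ2, hviL, hvlim⟩ := lipschitz_subseq (fun n => v (φ1 n)) (fun n => hvL _)
    (fun n => hv0 _)
  let ψ : ℕ → ℕ := fun n => φ1 (φ2 n)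
  have hψ : StrictMono ψ := hφ1.comp hφ2
  have hulim' : ∀ x, Tendsto (fun n => u (ψ n) x) atTop (𝓝 (ui x)) := fun x =>
    (hulim x).comp hφ2.tendsto_atTop
  have huic : ConvexOn ℝ Set.univ ui := convex_of_tendsto (fun n => huc (ψ n)) hulim'
  have hvic : ConvexOn ℝ Set.univ vi := convex_of_tendsto (fun n => hvc (ψ n)) hvlim
  -- convergence of the gradients
  have hgu : ∀ᵐ x ∂ρ, Tendsto (fun n => gradient (u (ψ n)) x) atTop (𝓝 (gradient ui x)) := by
    have h1 : ∀ᵐ x ∂ρ, ∀ n, DifferentiableAt ℝ (u (ψ n)) x := by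
      rw [ae_all_iff]
      intro n
      exact hac (huL (ψ n)).ae_differentiableAt
    have h2 : ∀ᵐ x ∂ρ, DifferentiableAt ℝ ui x := hac huiL.ae_differentiableAt
    filter_upwards [h1, h2] with x hx1 hx2
    exact gradient_tendsto (fun n => huL (ψ n)) (fun n => huc (ψ n)) hulim' hx1 hx2
  have hgv : ∀ᵐ x ∂ρ, Tendsto (fun n => gradient (v (ψ n)) x) atTop (𝓝 (gradient vi x)) := by
    have h1 : ∀ᵐ x ∂ρ, ∀ n, DifferentiableAt ℝ (v (ψ n)) x := by
      rw [ae_all_iff]
      intro n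
      exact hac (hvL (ψ n)).ae_differentiableAt
    have h2 : ∀ᵐ x ∂ρ, DifferentiableAt ℝ vi x := hac hviL.ae_differentiableAt
    filter_upwards [h1, h2] with x hx1 hx2
    exact gradient_tendsto (fun n => hvL (ψ n)) (fun n => hvc (ψ n)) hvlim hx1 hx2
  -- convergence of the discretisations
  have hPlim : ∀ᵐ q ∂π, Tendsto (fun n => (P (ψ n) q).1) atTop (𝓝 q.1) ∧
      Tendsto (fun n => (P (ψ n) q).2) atTop (𝓝 q.2) := by
    have h1 : ∀ᵐ q ∂π, ∀ n, ‖(P (ψ n) q).1 - q.1‖ ≤ δ (ψ n) ∧ ‖(P (ψ n) q).2 - q.2‖ ≤ δ (ψ n) := by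
      rw [ae_all_iff]
      intro n
      exact hPd (ψ n)
    have h2 : Tendsto (fun n => δ (ψ n)) atTop (𝓝 0) := hδlim.comp hψ.tendsto_atTop
    filter_upwards [h1] with q hq
    constructor
    · rw [tendsto_iff_norm_sub_tendsto_zero]
      exact squeeze_zero (fun n => norm_nonneg _) (fun n => (hq n).1) h2
    · rw [tendsto_iff_norm_sub_tendsto_zero]
      exact squeeze_zero (fun n => norm_nonneg _) (fun n => (hq n).2) h2
  -- push-forwards
  have hmu : ρ.map (gradient ui) = μ := by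
    rw [← hπ1]
    exact pushforward_limit hK hKi hgu (fun n => measurable_fst.comp (hPm (ψ n))) measurable_fst
      (hPlim.mono fun q hq => hq.1) (fun n F => hFu (ψ n) F)
  have hnu : ρ.map (gradient vi) = ν := by
    rw [← hπ2]
    exact pushforward_limit hK hKi hgv (fun n => measurable_snd.comp (hPm (ψ n))) measurable_snd
      (hPlim.mono fun q hq => hq.2) (fun n F => hFv (ψ n) F)
  have hTu := optimal_eq_gradient hK hKc hKi huiL huic hmu hTμ
  have hTv := optimal_eq_gradient hK hKc hKi hviL hvic hnu hTν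
  -- Fatou
  have hleft : ∫⁻ x, ‖Tμ x - Tν x‖ₑ ^ 2 ∂ρ ≤
      liminf (fun n => ∫⁻ x, ‖gradient (u (ψ n)) x - gradient (v (ψ n)) x‖ₑ ^ 2 ∂ρ) atTop := by
    have h1 : ∫⁻ x, ‖Tμ x - Tν x‖ₑ ^ 2 ∂ρ =
        ∫⁻ x, liminf (fun n => ‖gradient (u (ψ n)) x - gradient (v (ψ n)) x‖ₑ ^ 2) atTop ∂ρ := by
      apply lintegral_congr_ae
      filter_upwards [hTu, hTv, hgu, hgv] with x h1 h2 h3 h4
      rw [h1, h2]
      symm
      apply Tendsto.liminf_eq
      exact ((ENNReal.continuous_pow 2).tendsto _).comp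
        ((continuous_enorm.tendsto _).comp (h3.sub h4))
    rw [h1]
    apply lintegral_liminf_le
    intro n
    exact (((measurable_gradient' (u (ψ n))).sub (measurable_gradient' (v (ψ n)))).enorm).pow_const 2
  -- convergence of the cost
  have hEint : ∀ n, ∀ᵐ q ∂π, ‖‖(P (ψ n) q).2 - (P (ψ n) q).1‖^2‖ ≤ (2 * (M:ℝ) + 2)^2 := by
    intro n
    filter_upwards [hπY, hPd (ψ n)] with q h1 h2
    rw [Real.norm_eq_abs, abs_of_nonneg (sq_nonneg _)]
    apply pow_le_pow_left₀ (norm_nonneg _)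
    have h3 := hM _ h1.1
    have h4 := hM _ h1.2
    have h5 := hδ1 (ψ n)
    have h6 := norm_sub_norm_le (P (ψ n) q).1 q.1
    have h7 := norm_sub_norm_le (P (ψ n) q).2 q.2
    have h8 := norm_sub_le (P (ψ n) q).2 (P (ψ n) q).1
    linarith [h2.1, h2.2]
  have hElim : Tendsto (fun n => ∫ q, ‖(P (ψ n) q).2 - (P (ψ n) q).1‖^2 ∂π) atTop
      (𝓝 (∫ q, ‖q.2 - q.1‖^2 ∂π)) := by
    apply tendsto_integral_of_dominated_convergence (fun _ => (2 * (M:ℝ) + 2)^2)
    · intro n
      have h1 : Measurable fun q => ‖(P (ψ n) q).2 - (P (ψ n) q).1‖^2 :=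
        (((measurable_snd.comp (hPm (ψ n))).sub (measurable_fst.comp (hPm (ψ n)))).norm).pow_const 2
      exact h1.aestronglyMeasurable
    · exact integrable_const _
    · exact hEint
    · filter_upwards [hPlim] with q hq
      exact ((hq.2.sub hq.1).norm).pow 2
  -- the quadratic cost
  have hcost : quadCost π = ENNReal.ofReal (∫ q, ‖q.2 - q.1‖^2 ∂π) := by
    unfold quadCost
    have hi : Integrable (fun q : EuclideanSpace ℝ (Fin d) × EuclideanSpace ℝ (Fin d) =>
        ‖q.1 - q.2‖^2) π := by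
      refine Integrable.of_bound (by fun_prop) ((2 * (M:ℝ))^2) ?_
      filter_upwards [hπY] with q h1
      rw [Real.norm_eq_abs, abs_of_nonneg (sq_nonneg _)]
      apply pow_le_pow_left₀ (norm_nonneg _)
      have h3 := hM _ h1.1
      have h4 := hM _ h1.2
      have h8 := norm_sub_le q.1 q.2
      linarith
    rw [lintegral_enorm_sq hi]
    congr 1
    apply integral_congr_ae
    filter_upwards with q
    rw [norm_sub_rev]
  have hright : Tendsto (fun n => (volume K)⁻¹ * (C0 * (volume K *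
      ENNReal.ofReal (20000000 * R^2 * ∫ q, ‖(P (ψ n) q).2 - (P (ψ n) q).1‖^2 ∂π)) ^ (1/3 : ℝ))) atTop
      (𝓝 ((volume K)⁻¹ * (C0 * (volume K *
      ENNReal.ofReal (20000000 * R^2 * ∫ q, ‖q.2 - q.1‖^2 ∂π)) ^ (1/3 : ℝ)))) := by
    apply ENNReal.Tendsto.const_mul _ (Or.inr (ENNReal.inv_ne_top.mpr hKv.ne'))
    apply ENNReal.Tendsto.const_mul _ (Or.inr ENNReal.coe_ne_top)
    apply (ENNReal.continuous_rpow_const.tendsto _).comp
    apply ENNReal.Tendsto.const_mul _ (Or.inr hKtop)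
    exact (ENNReal.continuous_ofReal.tendsto _).comp (hElim.const_mul _)
  have hterm : ∀ n, ∫⁻ x, ‖gradient (u (ψ n)) x - gradient (v (ψ n)) x‖ₑ ^ 2 ∂ρ ≤
      (volume K)⁻¹ * (C0 * (volume K *
      ENNReal.ofReal (20000000 * R^2 * ∫ q, ‖(P (ψ n) q).2 - (P (ψ n) q).1‖^2 ∂π)) ^ (1/3 : ℝ)) := by
    intro n
    rw [hρ]
    unfold uniformProbOn
    rw [lintegral_smul_measure, smul_eq_mul]
    gcongr
    exact hE (ψ n)
  have hfin : ∫⁻ x, ‖Tμ x - Tν x‖ₑ ^ 2 ∂ρ ≤ (volume K)⁻¹ * (C0 * (volume K *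
      ENNReal.ofReal (20000000 * R^2 * ∫ q, ‖q.2 - q.1‖^2 ∂π)) ^ (1/3 : ℝ)) := by
    refine hleft.trans ?_
    rw [← hright.liminf_eq]
    exact liminf_le_liminf (Eventually.of_forall hterm)
  refine hfin.trans (le_of_eq ?_)
  rw [hCf, hcost, ENNReal.ofReal_mul (by positivity), ← hA, ← mul_assoc (volume K) A,
    ENNReal.mul_rpow_of_nonneg _ _ (by norm_num : (0:ℝ) ≤ 1/3)]
  ring

end Crest.Agent.S0109
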