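import Crest.Prelude.Def_QuadraticTransport

set_option autoImplicit false

namespace Crest.Agent.S0110

open MeasureTheory Set
open scoped ENNReal NNReal RealInnerProductSpace
open Crest.AnalysisR.OT

/-- A strict discrete `c`-cyclic potential gives optimality and uniqueness of the map. -/
theorem optimal_of_strict {d : ℕ} (ρ μ : Measure (EuclideanSpace ℝ (Fin d)))
    [IsProbabilityMeasure ρ] (R : ℝ) (hR : ∀ᵐ x ∂ρ, ‖x‖ ≤ R)
    (Y0 : Finset (EuclideanSpace ℝ (Fin d))) (hμ : μ (Y0 : Set (EuclideanSpace ℝ (Fin d)))ᶜ = 0)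
    (a : EuclideanSpace ℝ (Fin d) → ℝ) (ha : Measurable a)
    (T : EuclideanSpace ℝ (Fin d) → EuclideanSpace ℝ (Fin d)) (hT : Measurable T)
    (hmap : ρ.map T = μ)
    (hstrict : ∀ᵐ x ∂ρ, ∀ y ∈ Y0, y ≠ T x → ⟪x, y⟫ + a y < ⟪x, T x⟫ + a (T x)) :
    IsOptimalMap ρ μ T ∧ ∀ S, IsOptimalMap ρ μ S → S =ᵐ[ρ] T := by
  have hYmeas : MeasurableSet (Y0 : Set (EuclideanSpace ℝ (Fin d)))ᶜ :=
    (Y0.finite_toSet.measurableSet).compl
  have hmem : ∀ S : EuclideanSpace ℝ (Fin d) → EuclideanSpace ℝ (Fin d), Measurable S →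
      ρ.map S = μ → ∀ᵐ x ∂ρ, S x ∈ Y0 := by
    intro S hS hSm
    rw [ae_iff]
    have h1 : μ (Y0 : Set (EuclideanSpace ℝ (Fin d)))ᶜ = ρ (S ⁻¹' (Y0 : Set _)ᶜ) := by
      rw [← hSm, Measure.map_apply hS hYmeas]
    rw [hμ] at h1
    exact h1.symm
  -- bounds on the finite set
  obtain ⟨M, hM⟩ : ∃ M : ℝ, ∀ y ∈ Y0, ‖y‖ ≤ M := by
    obtain ⟨M, hM⟩ := (Y0.finite_toSet.image (fun y => ‖y‖)).bddAbove
    exact ⟨M, fun y hy => hM ⟨y, hy, rfl⟩⟩
  obtain ⟨A, hA⟩ : ∃ A : ℝ, ∀ y ∈ Y0, |a y| ≤ A := by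
    obtain ⟨A, hA⟩ := (Y0.finite_toSet.image (fun y => |a y|)).bddAbove
    exact ⟨A, fun y hy => hA ⟨y, hy, rfl⟩⟩
  -- integrability
  have hint1 : ∀ S : EuclideanSpace ℝ (Fin d) → EuclideanSpace ℝ (Fin d), Measurable S →
      ρ.map S = μ → Integrable (fun x => ‖x - S x‖ ^ 2) ρ := by
    intro S hS hSm
    refine Integrable.of_bound (((measurable_id.sub hS).norm.pow_const 2).aestronglyMeasurable)
      ((R + M) ^ 2) ?_
    filter_upwards [hR, hmem S hS hSm] with x hx hSx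
    rw [Real.norm_of_nonneg (by positivity)]
    have h1 : ‖x - S x‖ ≤ R + M := (norm_sub_le _ _).trans (add_le_add hx (hM _ hSx))
    exact pow_le_pow_left₀ (norm_nonneg _) h1 2
  have hint2 : ∀ S : EuclideanSpace ℝ (Fin d) → EuclideanSpace ℝ (Fin d), Measurable S →
      ρ.map S = μ → Integrable (fun x => ‖S x‖ ^ 2 + 2 * a (S x)) ρ := by
    intro S hS hSm
    refine Integrable.of_bound ((((hS.norm.pow_const 2)).add
      ((ha.comp hS).const_mul 2)).aestronglyMeasurable) (M ^ 2 + 2 * A) ?_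
    filter_upwards [hmem S hS hSm] with x hSx
    have h1 := pow_le_pow_left₀ (norm_nonneg _) (hM _ hSx) 2
    have h2 := hA _ hSx
    rw [Real.norm_eq_abs]
    refine (abs_add_le _ _).trans ?_
    rw [abs_of_nonneg (by positivity : (0:ℝ) ≤ ‖S x‖ ^ 2), abs_mul, abs_two]
    linarith
  have hsame : ∀ S : EuclideanSpace ℝ (Fin d) → EuclideanSpace ℝ (Fin d), Measurable S →
      ρ.map S = μ → ∫ x, (‖S x‖ ^ 2 + 2 * a (S x)) ∂ρ = ∫ y, (‖y‖ ^ 2 + 2 * a y) ∂μ := by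
    intro S hS hSm
    rw [← hSm, integral_map hS.aemeasurable]
    exact (((measurable_norm.pow_const 2)).add (ha.const_mul 2)).aestronglyMeasurable
  -- the defect
  have hdef : ∀ S : EuclideanSpace ℝ (Fin d) → EuclideanSpace ℝ (Fin d), Measurable S →
      ρ.map S = μ → ∀ x, (‖x - S x‖ ^ 2 - (‖S x‖ ^ 2 + 2 * a (S x)))
        - (‖x - T x‖ ^ 2 - (‖T x‖ ^ 2 + 2 * a (T x)))
        = 2 * ((⟪x, T x⟫ + a (T x)) - (⟪x, S x⟫ + a (S x))) := by
    intro S hS hSm x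
    rw [norm_sub_sq_real, norm_sub_sq_real]
    ring
  have hnonneg : ∀ S : EuclideanSpace ℝ (Fin d) → EuclideanSpace ℝ (Fin d), Measurable S →
      ρ.map S = μ → ∀ᵐ x ∂ρ, 0 ≤ 2 * ((⟪x, T x⟫ + a (T x)) - (⟪x, S x⟫ + a (S x))) := by
    intro S hS hSm
    filter_upwards [hstrict, hmem S hS hSm] with x hx hSx
    by_cases h : S x = T x
    · rw [h]; simp
    · have := hx _ hSx h
      linarith
  have hdiff : ∀ S : EuclideanSpace ℝ (Fin d) → EuclideanSpace ℝ (Fin d), Measurable S →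
      ρ.map S = μ → ∫ x, ‖x - S x‖ ^ 2 ∂ρ - ∫ x, ‖x - T x‖ ^ 2 ∂ρ
        = ∫ x, 2 * ((⟪x, T x⟫ + a (T x)) - (⟪x, S x⟫ + a (S x))) ∂ρ := by
    intro S hS hSm
    have h1 := integral_congr_ae (μ := ρ) (Filter.Eventually.of_forall (hdef S hS hSm))
    have iS : Integrable (fun x => ‖x - S x‖ ^ 2 - (‖S x‖ ^ 2 + 2 * a (S x))) ρ :=
      (hint1 S hS hSm).sub (hint2 S hS hSm)
    have iT : Integrable (fun x => ‖x - T x‖ ^ 2 - (‖T x‖ ^ 2 + 2 * a (T x))) ρ :=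
      (hint1 T hT hmap).sub (hint2 T hT hmap)
    rw [integral_sub iS iT,
      integral_sub (hint1 S hS hSm) (hint2 S hS hSm),
      integral_sub (hint1 T hT hmap) (hint2 T hT hmap), hsame S hS hSm, hsame T hT hmap] at h1
    rw [← h1]
    ring
  have hlint : ∀ S : EuclideanSpace ℝ (Fin d) → EuclideanSpace ℝ (Fin d), Measurable S →
      ρ.map S = μ → ∫⁻ x, ‖x - S x‖ₑ ^ 2 ∂ρ = ENNReal.ofReal (∫ x, ‖x - S x‖ ^ 2 ∂ρ) := by
    intro S hS hSm
    rw [ofReal_integral_eq_lintegral_ofReal (hint1 S hS hSm)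
      (Filter.Eventually.of_forall fun x => by positivity)]
    refine lintegral_congr fun x => ?_
    rw [ENNReal.ofReal_pow (norm_nonneg _), ofReal_norm]
  refine ⟨⟨hT, hmap, fun S hS hSm => ?_⟩, fun S hSopt => ?_⟩
  · rw [hlint S hS hSm, hlint T hT hmap]
    refine ENNReal.ofReal_le_ofReal ?_
    have h1 := hdiff S hS hSm
    have h2 : 0 ≤ ∫ x, 2 * ((⟪x, T x⟫ + a (T x)) - (⟪x, S x⟫ + a (S x))) ∂ρ :=
      integral_nonneg_of_ae (hnonneg S hS hSm)
    linarith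
  · obtain ⟨hS, hSm, hopt⟩ := hSopt
    have h1 := hopt T hT hmap
    rw [hlint S hS hSm, hlint T hT hmap, ENNReal.ofReal_le_ofReal_iff
      (integral_nonneg fun x => by positivity)] at h1
    have h2 := hdiff S hS hSm
    have h3 : ∫ x, 2 * ((⟪x, T x⟫ + a (T x)) - (⟪x, S x⟫ + a (S x))) ∂ρ = 0 := by
      refine le_antisymm (by linarith) (integral_nonneg_of_ae (hnonneg S hS hSm))
    have hInt : Integrable (fun x => 2 * ((⟪x, T x⟫ + a (T x)) - (⟪x, S x⟫ + a (S x)))) ρ := by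
      have := ((hint1 S hS hSm).sub (hint2 S hS hSm)).sub ((hint1 T hT hmap).sub (hint2 T hT hmap))
      refine this.congr (Filter.Eventually.of_forall fun x => ?_)
      exact hdef S hS hSm x
    have h4 := (integral_eq_zero_iff_of_nonneg_ae (hnonneg S hS hSm) hInt).1 h3
    filter_upwards [h4, hstrict, hmem S hS hSm] with x hx hst hSx
    by_contra hne
    have := hst _ hSx hne
    simp only [Pi.zero_apply] at hx
    linarith

end Crest.Agent.S0110
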