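import Crest.Prelude.Def_QuadraticTransport

set_option autoImplicit false

namespace Crest.Agent.S0110

open MeasureTheory Set
open scoped ENNReal NNReal RealInnerProductSpace
open Crest.AnalysisR.OT

/-- the cube -/
def Q (d : ℕ) : Set (EuclideanSpace ℝ (Fin d)) := {x | ∀ i, |x i| ≤ 1}

/-- uniform probability on `[-1,1]` -/
noncomputable def lam : Measure ℝ := (2 : ℝ≥0∞)⁻¹ • volume.restrict (Icc (-1 : ℝ) 1)

instance : IsProbabilityMeasure lam := by
  constructor
  simp only [lam, Measure.smul_apply, Measure.restrict_apply MeasurableSet.univ, univ_inter,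
    Real.volume_Icc, smul_eq_mul]
  have : (1 - -1 : ℝ) = 2 := by norm_num
  rw [this]
  simp [ENNReal.inv_mul_cancel]

theorem lam_apply (s : Set ℝ) (hs : MeasurableSet s) :
    lam s = (2 : ℝ≥0∞)⁻¹ * volume (s ∩ Icc (-1 : ℝ) 1) := by
  simp only [lam, Measure.smul_apply, Measure.restrict_apply hs, smul_eq_mul]

/-- the uniform probability on the cube is the product measure -/
theorem map_unif (d : ℕ) :
    (uniformProbOn (Q d)).map (WithLp.ofLp) = Measure.pi (fun _ : Fin d => lam) := by
  symm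
  refine Measure.pi_eq fun s hs => ?_
  have mp := PiLp.volume_preserving_ofLp (Fin d)
  have hQ : Q d = (WithLp.ofLp) ⁻¹' (pi univ fun _ : Fin d => Icc (-1 : ℝ) 1) := by
    ext x
    simp only [Q, mem_ofPred_eq, mem_preimage, mem_univ_pi, mem_Icc, abs_le]
  have hQm : MeasurableSet (pi univ fun _ : Fin d => Icc (-1 : ℝ) 1) :=
    MeasurableSet.univ_pi fun _ => measurableSet_Icc
  have hvolQ : volume (Q d) = 2 ^ d := by
    rw [hQ, mp.measure_preimage hQm.nullMeasurableSet, volume_pi_pi]
    simp only [Real.volume_Icc, Finset.prod_const, Finset.card_univ, Fintype.card_fin]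
    have : (1 - -1 : ℝ) = 2 := by norm_num
    rw [this]
    simp
  have hsm : MeasurableSet (pi univ s) := MeasurableSet.univ_pi hs
  rw [Measure.map_apply mp.measurable hsm, uniformProbOn, Measure.smul_apply,
    Measure.restrict_apply (mp.measurable hsm), hQ, ← preimage_inter,
    mp.measure_preimage (hsm.inter hQm).nullMeasurableSet, ← hQ, hvolQ, ← pi_inter_distrib,
    volume_pi_pi, smul_eq_mul]
  simp only [lam_apply _ (hs _)]
  rw [Finset.prod_mul_distrib]
  simp [ENNReal.inv_pow]

/-- joint law of two coordinates -/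
theorem map_pair (d : ℕ) (i j : Fin d) (hij : i ≠ j) :
    (uniformProbOn (Q d)).map (fun x => (x i, x j)) = lam.prod lam := by
  have h1 : (uniformProbOn (Q d)).map (fun x => (x i, x j))
      = (Measure.pi (fun _ : Fin d => lam)).map (fun y : Fin d → ℝ => (y i, y j)) := by
    rw [← map_unif, Measure.map_map]
    · rfl
    · exact (measurable_pi_apply i).prodMk (measurable_pi_apply j)
    · exact (PiLp.volume_preserving_ofLp (Fin d)).measurable
  rw [h1]
  have hind := ProbabilityTheory.iIndepFun_pi (μ := fun _ : Fin d => lam)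
    (X := fun _ => (id : ℝ → ℝ)) (fun _ => aemeasurable_id)
  have h2 := (ProbabilityTheory.indepFun_iff_map_prod_eq_prod_map_map
    (measurable_pi_apply i).aemeasurable (measurable_pi_apply j).aemeasurable).1
    (hind.indepFun hij)
  rw [h2]
  congr 1
  · exact (measurePreserving_eval (fun _ : Fin d => lam) i).map_eq
  · exact (measurePreserving_eval (fun _ : Fin d => lam) j).map_eq

instance (d : ℕ) : IsProbabilityMeasure (uniformProbOn (Q d)) := by
  have h := map_unif d
  have h2 : IsProbabilityMeasure ((uniformProbOn (Q d)).map (WithLp.ofLp)) := by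
    rw [h]; infer_instance
  constructor
  have h3 := h2.measure_univ
  rwa [Measure.map_apply (PiLp.volume_preserving_ofLp (Fin d)).measurable MeasurableSet.univ,
    preimage_univ] at h3

theorem measure_pair (d : ℕ) (i j : Fin d) (hij : i ≠ j) (B : Set (ℝ × ℝ)) (hB : MeasurableSet B) :
    uniformProbOn (Q d) {x | (x i, x j) ∈ B} = (lam.prod lam) B := by
  rw [← map_pair d i j hij, Measure.map_apply _ hB]
  · rfl
  · fun_prop

/-- Integral of an affine function of the coordinate against `lam`. -/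
theorem lintegral_affine (α β : ℝ) (h : ∀ t ∈ Icc (-1:ℝ) 1, 0 ≤ α + β * t) :
    ∫⁻ t, ENNReal.ofReal (α + β * t) ∂lam = ENNReal.ofReal α := by
  have h1 : ∫ t in Icc (-1:ℝ) 1, (α + β * t) = 2 * α := by
    rw [integral_Icc_eq_integral_Ioc, ← intervalIntegral.integral_of_le (by norm_num)]
    rw [intervalIntegral.integral_add (by simp) (by apply Continuous.intervalIntegrable; fun_prop)]
    rw [intervalIntegral.integral_const, intervalIntegral.integral_const_mul, integral_id]
    norm_num
  have hα : 0 ≤ α := by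
    have := h 0 (by simp)
    simpa using this
  rw [lam, lintegral_smul_measure]
  rw [← ofReal_integral_eq_lintegral_ofReal, h1]
  · rw [ENNReal.ofReal_mul (by norm_num), smul_eq_mul, ← mul_assoc]
    simp [ENNReal.inv_mul_cancel]
  · apply Continuous.integrableOn_Icc
    fun_prop
  · rw [Filter.EventuallyLE, ae_restrict_iff' measurableSet_Icc]
    exact Filter.Eventually.of_forall fun t ht => h t ht

theorem ae_lam_mem : ∀ᵐ t ∂lam, t ∈ Icc (-1:ℝ) 1 := by
  rw [lam]
  apply Measure.ae_smul_measure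
  exact ae_restrict_mem measurableSet_Icc

/-- measure of the upper cell -/
theorem cell_gt (α β : ℝ) (h0 : ∀ t ∈ Icc (-1:ℝ) 1, 0 ≤ α + β * t)
    (h1 : ∀ t ∈ Icc (-1:ℝ) 1, α + β * t ≤ 1) :
    (lam.prod lam) {p : ℝ × ℝ | α + β * p.2 < p.1} = ENNReal.ofReal ((1 - α) / 2) := by
  have hm : MeasurableSet {p : ℝ × ℝ | α + β * p.2 < p.1} :=
    measurableSet_lt (by fun_prop) (by fun_prop)
  rw [Measure.prod_apply_symm hm]
  have : ∀ᵐ t ∂lam, lam ((fun s => (s, t)) ⁻¹' {p : ℝ × ℝ | α + β * p.2 < p.1})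
      = ENNReal.ofReal ((1 - α) / 2 + (-β / 2) * t) := by
    filter_upwards [ae_lam_mem] with t ht
    have hs : (fun s => (s, t)) ⁻¹' {p : ℝ × ℝ | α + β * p.2 < p.1} = Ioi (α + β * t) := by
      ext s; simp
    rw [hs, lam_apply _ measurableSet_Ioi]
    have h2 : Ioi (α + β * t) ∩ Icc (-1) 1 = Ioc (α + β * t) 1 := by
      ext s
      simp only [mem_inter_iff, mem_Ioi, mem_Icc, mem_Ioc]
      have := h0 t ht
      constructor
      · rintro ⟨h, h', h''⟩; exact ⟨h, h''⟩
      · rintro ⟨h, h'⟩; exact ⟨h, by linarith, h'⟩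
    rw [h2, Real.volume_Ioc]
    have h3 : (2:ℝ≥0∞)⁻¹ = ENNReal.ofReal (1/2) := by
      rw [one_div, ENNReal.ofReal_inv_of_pos (by norm_num)]; simp
    rw [h3, ← ENNReal.ofReal_mul (by norm_num)]
    congr 1
    ring
  rw [lintegral_congr_ae this, lintegral_affine]
  intro t ht
  have := h1 t ht
  linarith

theorem cell_lt (α β : ℝ) (h0 : ∀ t ∈ Icc (-1:ℝ) 1, 0 ≤ α + β * t)
    (h1 : ∀ t ∈ Icc (-1:ℝ) 1, α + β * t ≤ 1) :
    (lam.prod lam) {p : ℝ × ℝ | p.1 < -(α + β * p.2)} = ENNReal.ofReal ((1 - α) / 2) := by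
  have hm : MeasurableSet {p : ℝ × ℝ | p.1 < -(α + β * p.2)} :=
    measurableSet_lt (by fun_prop) (by fun_prop)
  rw [Measure.prod_apply_symm hm]
  have : ∀ᵐ t ∂lam, lam ((fun s => (s, t)) ⁻¹' {p : ℝ × ℝ | p.1 < -(α + β * p.2)})
      = ENNReal.ofReal ((1 - α) / 2 + (-β / 2) * t) := by
    filter_upwards [ae_lam_mem] with t ht
    have hs : (fun s => (s, t)) ⁻¹' {p : ℝ × ℝ | p.1 < -(α + β * p.2)} = Iio (-(α + β * t)) := by
      ext s; simp
    rw [hs, lam_apply _ measurableSet_Iio]
    have h2 : Iio (-(α + β * t)) ∩ Icc (-1) 1 = Ico (-1) (-(α + β * t)) := by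
      ext s
      simp only [mem_inter_iff, mem_Iio, mem_Icc, mem_Ico]
      have := h0 t ht
      constructor
      · rintro ⟨h, h', h''⟩; exact ⟨h', h⟩
      · rintro ⟨h, h'⟩; exact ⟨h', h, by linarith⟩
    rw [h2, Real.volume_Ico]
    have h3 : (2:ℝ≥0∞)⁻¹ = ENNReal.ofReal (1/2) := by
      rw [one_div, ENNReal.ofReal_inv_of_pos (by norm_num)]; simp
    rw [h3, ← ENNReal.ofReal_mul (by norm_num)]
    congr 1
    ring
  rw [lintegral_congr_ae this, lintegral_affine]
  intro t ht
  have := h1 t ht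
  linarith

/-- the boundary of the cells is null -/
theorem cell_eq (α β : ℝ) :
    (lam.prod lam) {p : ℝ × ℝ | p.1 = α + β * p.2} = 0 := by
  have hm : MeasurableSet {p : ℝ × ℝ | p.1 = α + β * p.2} :=
    measurableSet_eq_fun (by fun_prop) (by fun_prop)
  rw [Measure.prod_apply_symm hm]
  have : ∀ t, lam ((fun s => (s, t)) ⁻¹' {p : ℝ × ℝ | p.1 = α + β * p.2}) = 0 := by
    intro t
    have hs : (fun s => (s, t)) ⁻¹' {p : ℝ × ℝ | p.1 = α + β * p.2} = {α + β * t} := by
      ext s; simp
    rw [hs, lam_apply _ (measurableSet_singleton _)]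
    have : volume ({α + β * t} ∩ Icc (-1:ℝ) 1) ≤ volume ({α + β * t} : Set ℝ) :=
      measure_mono inter_subset_left
    rw [Real.volume_singleton] at this
    rw [le_antisymm this bot_le]
    simp
  rw [lintegral_congr this]
  simp

end Crest.Agent.S0110
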