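import Crest.Statements.S0110
import Crest.Agent.S0110_Aux
import Crest.Agent.S0110_Aux2

set_option autoImplicit false
set_option linter.unusedSectionVars false
open MeasureTheory
open scoped ENNReal NNReal
open Crest.AnalysisR.OT
open Crest Crest.AnalysisR Crest.AnalysisR.OT

namespace Crest.Agent.S0110

open Set
open scoped RealInnerProductSpace

/-- the transport map, with slope parameter `β` -/
noncomputable def TT {d : ℕ} (i j : Fin d) (w β : ℝ) (x : EuclideanSpace ℝ (Fin d)) :
    EuclideanSpace ℝ (Fin d) :=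
  if 2 * w + β * x j < x i then EuclideanSpace.single i (1/2)
  else if x i < -(2 * w + β * x j) then EuclideanSpace.single i (-1/2)
  else EuclideanSpace.single j (β/2)

/-- the target measure -/
noncomputable def MU {d : ℕ} (i j : Fin d) (w β : ℝ) : Measure (EuclideanSpace ℝ (Fin d)) :=
  ENNReal.ofReal ((1 - 2 * w) / 2) • Measure.dirac (EuclideanSpace.single i (1/2)) +
  ENNReal.ofReal ((1 - 2 * w) / 2) • Measure.dirac (EuclideanSpace.single i (-1/2)) +
  ENNReal.ofReal (2 * w) • Measure.dirac (EuclideanSpace.single j (β/2))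

section
variable {d : ℕ} (i j : Fin d) (w β : ℝ)

theorem measA : MeasurableSet {x : EuclideanSpace ℝ (Fin d) | 2 * w + β * x j < x i} :=
  measurableSet_lt (by fun_prop) (by fun_prop)

theorem measB : MeasurableSet {x : EuclideanSpace ℝ (Fin d) | x i < -(2 * w + β * x j)} :=
  measurableSet_lt (by fun_prop) (by fun_prop)

theorem measTT : Measurable (TT i j w β) := by
  unfold TT
  exact Measurable.ite (measA i j w β) measurable_const
    (Measurable.ite (measB i j w β) measurable_const measurable_const)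

variable (hij : i ≠ j) (hw : 0 < w) (hw4 : w < 1/4) (hβ : |β| ≤ 2 * w)
include hij hw hw4 hβ

theorem affine_bounds : (∀ t ∈ Icc (-1:ℝ) 1, 0 ≤ 2 * w + β * t) ∧
    (∀ t ∈ Icc (-1:ℝ) 1, 2 * w + β * t ≤ 1) := by
  have hb := abs_le.1 hβ
  have key : ∀ t ∈ Icc (-1:ℝ) 1, |β * t| ≤ 2 * w := by
    intro t ht
    rw [abs_mul]
    calc |β| * |t| ≤ |β| * 1 := by gcongr; exact abs_le.2 ⟨ht.1, ht.2⟩
      _ ≤ 2 * w := by linarith
  constructor
  · intro t ht
    have := abs_le.1 (key t ht)
    linarith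
  · intro t ht
    have := abs_le.1 (key t ht)
    linarith

theorem measure_A : uniformProbOn (Q d) {x | 2 * w + β * x j < x i}
    = ENNReal.ofReal ((1 - 2 * w) / 2) := by
  obtain ⟨h0, h1⟩ := affine_bounds i j w β hij hw hw4 hβ
  have := measure_pair d i j hij {p : ℝ × ℝ | 2 * w + β * p.2 < p.1}
    (measurableSet_lt (by fun_prop) (by fun_prop))
  rw [cell_gt (2 * w) β h0 h1] at this
  exact this

theorem measure_B : uniformProbOn (Q d) {x | x i < -(2 * w + β * x j)}
    = ENNReal.ofReal ((1 - 2 * w) / 2) := by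
  obtain ⟨h0, h1⟩ := affine_bounds i j w β hij hw hw4 hβ
  have := measure_pair d i j hij {p : ℝ × ℝ | p.1 < -(2 * w + β * p.2)}
    (measurableSet_lt (by fun_prop) (by fun_prop))
  rw [cell_lt (2 * w) β h0 h1] at this
  exact this

theorem ae_mem_Q : ∀ᵐ x ∂(uniformProbOn (Q d)), x ∈ Q d := by
  have hm : MeasurableSet (Q d) := by
    have : Q d = ⋂ i, {x : EuclideanSpace ℝ (Fin d) | |x i| ≤ 1} := by
      ext x; simp [Q]
    rw [this]
    exact MeasurableSet.iInter fun i => measurableSet_le (by fun_prop) measurable_const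
  rw [uniformProbOn]
  apply Measure.ae_smul_measure
  exact ae_restrict_mem hm

theorem disj : ∀ᵐ x ∂(uniformProbOn (Q d)), 0 ≤ 2 * w + β * x j := by
  filter_upwards [ae_mem_Q i j w β hij hw hw4 hβ] with x hx
  exact (affine_bounds i j w β hij hw hw4 hβ).1 _ (abs_le.1 (hx j))

theorem map_TT : (uniformProbOn (Q d)).map (TT i j w β) = MU i j w β := by
  set ρ := uniformProbOn (Q d)
  set A := {x : EuclideanSpace ℝ (Fin d) | 2 * w + β * x j < x i}
  set B := {x : EuclideanSpace ℝ (Fin d) | x i < -(2 * w + β * x j)}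
  have hA := measA i j w β
  have hB := measB i j w β
  have hAB : ρ (A ∩ B) = 0 := by
    have h := disj i j w β hij hw hw4 hβ
    refine measure_mono_null ?_ (ae_iff.1 h)
    rintro x ⟨h1, h2⟩
    simp only [A, B, mem_ofPred_eq, not_le] at h1 h2 ⊢
    linarith
  have hBA : ρ (B \ A) = ρ B := by
    have h1 := measure_inter_add_sdiff (μ := ρ) B hA
    rw [inter_comm, hAB, zero_add] at h1
    exact h1
  have hC : ρ ((A ∪ B)ᶜ) = ENNReal.ofReal (2 * w) := by
    have h1 : ρ (A ∪ B) = ENNReal.ofReal (1 - 2 * w) := by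
      have h2 : A ∪ B = A ∪ (B \ A) := by simp
      rw [h2, measure_union disjoint_sdiff_self_right (hB.diff hA), hBA,
        measure_A i j w β hij hw hw4 hβ, measure_B i j w β hij hw hw4 hβ,
        ← ENNReal.ofReal_add (by linarith) (by linarith)]
      congr 1
      ring
    rw [measure_compl (hA.union hB) (measure_ne_top _ _), h1, measure_univ, ← ENNReal.ofReal_one,
      ← ENNReal.ofReal_sub _ (by linarith)]
    congr 1
    ring
  ext s hs
  rw [Measure.map_apply (measTT i j w β) hs]
  have hdecomp : ρ (TT i j w β ⁻¹' s) = ρ (TT i j w β ⁻¹' s ∩ A) + (ρ (TT i j w β ⁻¹' s ∩ (B \ A))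
      + ρ (TT i j w β ⁻¹' s ∩ (A ∪ B)ᶜ)) := by
    rw [← measure_inter_add_sdiff (μ := ρ) (TT i j w β ⁻¹' s) hA]
    congr 1
    rw [← measure_inter_add_sdiff (μ := ρ) (TT i j w β ⁻¹' s \ A) hB]
    congr 2
    · ext x; simp only [mem_inter_iff, mem_sdiff, mem_preimage]; tauto
    · ext x; simp only [mem_inter_iff, mem_sdiff, mem_preimage, mem_compl_iff, mem_union]; tauto
  have e1 : ρ (TT i j w β ⁻¹' s ∩ A) = ENNReal.ofReal ((1 - 2 * w) / 2)
      * (Measure.dirac (EuclideanSpace.single i (1/2 : ℝ))) s := by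
    rw [Measure.dirac_apply' _ hs]
    by_cases h : EuclideanSpace.single i (1/2 : ℝ) ∈ s
    · have : TT i j w β ⁻¹' s ∩ A = A := by
        ext x
        simp only [mem_inter_iff, mem_preimage, and_iff_right_iff_imp]
        intro hx
        have hx' : 2 * w + β * x j < x i := hx
        simp only [TT, hx', if_true]
        exact h
      rw [this, measure_A i j w β hij hw hw4 hβ, indicator_of_mem h]
      simp
    · have : TT i j w β ⁻¹' s ∩ A = ∅ := by
        ext x
        simp only [mem_inter_iff, mem_preimage, mem_empty_iff_false, iff_false, not_and]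
        intro hx hxA
        have hx' : 2 * w + β * x j < x i := hxA
        simp only [TT, hx', if_true] at hx
        exact h hx
      rw [this, indicator_of_notMem h]
      simp
  have e2 : ρ (TT i j w β ⁻¹' s ∩ (B \ A)) = ENNReal.ofReal ((1 - 2 * w) / 2)
      * (Measure.dirac (EuclideanSpace.single i (-1/2 : ℝ))) s := by
    rw [Measure.dirac_apply' _ hs]
    by_cases h : EuclideanSpace.single i (-1/2 : ℝ) ∈ s
    · have : TT i j w β ⁻¹' s ∩ (B \ A) = B \ A := by
        ext x
        simp only [mem_inter_iff, mem_preimage, and_iff_right_iff_imp]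
        intro hx
        have hx' : ¬ (2 * w + β * x j < x i) := hx.2
        have hx'' : x i < -(2 * w + β * x j) := hx.1
        simp only [TT, hx', hx'', if_true, if_false]
        exact h
      rw [this, hBA, measure_B i j w β hij hw hw4 hβ, indicator_of_mem h]
      simp
    · have : TT i j w β ⁻¹' s ∩ (B \ A) = ∅ := by
        ext x
        simp only [mem_inter_iff, mem_preimage, mem_empty_iff_false, iff_false, not_and]
        intro hx hxA
        have hx' : ¬ (2 * w + β * x j < x i) := hxA.2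
        have hx'' : x i < -(2 * w + β * x j) := hxA.1
        simp only [TT, hx', hx'', if_true, if_false] at hx
        exact h hx
      rw [this, indicator_of_notMem h]
      simp
  have e3 : ρ (TT i j w β ⁻¹' s ∩ (A ∪ B)ᶜ) = ENNReal.ofReal (2 * w)
      * (Measure.dirac (EuclideanSpace.single j (β/2 : ℝ))) s := by
    rw [Measure.dirac_apply' _ hs]
    by_cases h : EuclideanSpace.single j (β/2 : ℝ) ∈ s
    · have : TT i j w β ⁻¹' s ∩ (A ∪ B)ᶜ = (A ∪ B)ᶜ := by
        ext x
        simp only [mem_inter_iff, mem_preimage, and_iff_right_iff_imp]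
        intro hx
        rw [mem_compl_iff, mem_union, not_or] at hx
        have hx' : ¬ (2 * w + β * x j < x i) := hx.1
        have hx'' : ¬ (x i < -(2 * w + β * x j)) := hx.2
        simp only [TT, hx', hx'', if_false]
        exact h
      rw [this, hC, indicator_of_mem h]
      simp
    · have : TT i j w β ⁻¹' s ∩ (A ∪ B)ᶜ = ∅ := by
        ext x
        simp only [mem_inter_iff, mem_preimage, mem_empty_iff_false, iff_false, not_and]
        intro hx hxA
        rw [mem_compl_iff, mem_union, not_or] at hxA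
        have hx' : ¬ (2 * w + β * x j < x i) := hxA.1
        have hx'' : ¬ (x i < -(2 * w + β * x j)) := hxA.2
        simp only [TT, hx', hx'', if_false] at hx
        exact h hx
      rw [this, indicator_of_notMem h]
      simp
  rw [hdecomp, e1, e2, e3]
  simp only [MU, Measure.add_apply, Measure.smul_apply, smul_eq_mul, add_assoc]

theorem MU_prob : IsProbabilityMeasure (MU i j w β) := by
  rw [← map_TT i j w β hij hw hw4 hβ]
  exact Measure.isProbabilityMeasure_map (measTT i j w β).aemeasurable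

theorem MU_on : IsProbabilityOn (Q d) (MU i j w β) := by
  refine ⟨MU_prob i j w β hij hw hw4 hβ, ?_⟩
  have hm : MeasurableSet (Q d) := by
    have : Q d = ⋂ i, {x : EuclideanSpace ℝ (Fin d) | |x i| ≤ 1} := by
      ext x; simp [Q]
    rw [this]
    exact MeasurableSet.iInter fun i => measurableSet_le (by fun_prop) measurable_const
  have hs : ∀ (k : Fin d) (c : ℝ), |c| ≤ 1 → EuclideanSpace.single k c ∈ Q d := by
    intro k c hc l
    rw [PiLp.single_apply]
    split_ifs
    · exact hc
    · simp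
  have hb := abs_le.1 hβ
  have h1 := hs i (1/2) (by norm_num)
  have h2 := hs i (-1/2) (by rw [abs_le]; constructor <;> norm_num)
  have h3 := hs j (β/2) (by rw [abs_le]; constructor <;> linarith)
  simp only [MU, Measure.add_apply, Measure.smul_apply, smul_eq_mul,
    Measure.dirac_apply' _ hm.compl]
  rw [indicator_of_notMem (by simpa using h1), indicator_of_notMem (by simpa using h2),
    indicator_of_notMem (by simpa using h3)]
  simp

theorem single_ne1 : EuclideanSpace.single i (1/2 : ℝ) ≠ EuclideanSpace.single i (-1/2 : ℝ) := by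
  intro h
  have := congrArg (fun x : EuclideanSpace ℝ (Fin d) => x i) h
  simp only [PiLp.single_apply, if_true] at this
  norm_num at this

theorem single_ne2 (c : ℝ) (hc : c ≠ 0) : EuclideanSpace.single i c ≠ EuclideanSpace.single j (β/2 : ℝ) := by
  intro h
  have := congrArg (fun x : EuclideanSpace ℝ (Fin d) => x i) h
  simp only [PiLp.single_apply, if_true, if_neg hij] at this
  exact hc this

theorem MU_three : IsThreeAtomic (MU i j w β) := by
  refine ⟨![EuclideanSpace.single i (1/2), EuclideanSpace.single i (-1/2),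
    EuclideanSpace.single j (β/2)], ?_, ![(1 - 2 * w)/2, (1 - 2 * w)/2, 2 * w], ?_, ?_⟩
  · have n1 := single_ne1 i j w β hij hw hw4 hβ
    have n2 := single_ne2 i j w β hij hw hw4 hβ (1/2) (by norm_num)
    have n3 := single_ne2 i j w β hij hw hw4 hβ (-1/2) (by norm_num)
    intro a b hab
    fin_cases a <;> fin_cases b <;> simp_all [Matrix.cons_val_zero, Matrix.cons_val_one]
  · intro a
    fin_cases a <;> simp <;> linarith
  · simp [MU, Fin.sum_univ_three]

theorem TT_opt : IsOptimalMap (uniformProbOn (Q d)) (MU i j w β) (TT i j w β) ∧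
    ∀ S, IsOptimalMap (uniformProbOn (Q d)) (MU i j w β) S →
      S =ᵐ[uniformProbOn (Q d)] (TT i j w β) := by
  classical
  have hR : ∀ᵐ x ∂(uniformProbOn (Q d)), ‖x‖ ≤ Real.sqrt d := by
    filter_upwards [ae_mem_Q i j w β hij hw hw4 hβ] with x hx
    rw [EuclideanSpace.norm_eq]
    refine Real.sqrt_le_sqrt ?_
    calc ∑ k, ‖x k‖ ^ 2 ≤ ∑ k : Fin d, (1:ℝ) := by
          refine Finset.sum_le_sum fun k _ => ?_
          have := hx k
          rw [Real.norm_eq_abs]
          nlinarith [abs_nonneg (x k)]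
      _ = d := by simp
  set Y0 : Finset (EuclideanSpace ℝ (Fin d)) := {EuclideanSpace.single i (1/2),
    EuclideanSpace.single i (-1/2), EuclideanSpace.single j (β/2)}
  refine optimal_of_strict (uniformProbOn (Q d)) (MU i j w β) (Real.sqrt d) hR Y0 ?_
    (fun y => w * (1 - 4 * (y i) ^ 2)) (by fun_prop) (TT i j w β) (measTT i j w β)
    (map_TT i j w β hij hw hw4 hβ) ?_
  · have hm : MeasurableSet (Y0 : Set (EuclideanSpace ℝ (Fin d)))ᶜ :=
      (Y0.finite_toSet.measurableSet).compl
    simp only [MU, Measure.add_apply, Measure.smul_apply, smul_eq_mul, Measure.dirac_apply' _ hm]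
    rw [indicator_of_notMem (by simp [Y0]), indicator_of_notMem (by simp [Y0]),
      indicator_of_notMem (by simp [Y0])]
    simp
  · have hn1 : uniformProbOn (Q d) {x | x i = 2 * w + β * x j} = 0 := by
      have := measure_pair d i j hij {p : ℝ × ℝ | p.1 = 2 * w + β * p.2}
        (measurableSet_eq_fun (by fun_prop) (by fun_prop))
      rw [cell_eq] at this
      exact this
    have hn2 : uniformProbOn (Q d) {x | x i = (-(2 * w)) + (-β) * x j} = 0 := by
      have := measure_pair d i j hij {p : ℝ × ℝ | p.1 = (-(2 * w)) + (-β) * p.2}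
        (measurableSet_eq_fun (by fun_prop) (by fun_prop))
      rw [cell_eq] at this
      exact this
    have hae1 : ∀ᵐ x ∂(uniformProbOn (Q d)), x i ≠ 2 * w + β * x j := by
      rw [ae_iff]; simpa using hn1
    have hae2 : ∀ᵐ x ∂(uniformProbOn (Q d)), x i ≠ (-(2 * w)) + (-β) * x j := by
      rw [ae_iff]; simpa using hn2
    filter_upwards [hae1, hae2, disj i j w β hij hw hw4 hβ] with x h1 h2 h3
    have hji : j ≠ i := hij.symm
    have in1 : ∀ (k : Fin d) (c : ℝ), ⟪x, EuclideanSpace.single k c⟫ = c * x k := by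
      intro k c
      rw [EuclideanSpace.inner_single_right]
      simp
    have s1 : (EuclideanSpace.single j (β/2 : ℝ) : EuclideanSpace ℝ (Fin d)) i = 0 := by
      rw [PiLp.single_apply, if_neg hij]
    have s2 : ∀ c : ℝ, (EuclideanSpace.single i c : EuclideanSpace ℝ (Fin d)) i = c := by
      intro c; rw [PiLp.single_apply, if_pos rfl]
    intro y hy hne
    simp only [Y0, Finset.mem_insert, Finset.mem_singleton] at hy
    by_cases hA : 2 * w + β * x j < x i
    · have hT : TT i j w β x = EuclideanSpace.single i (1/2) := by simp only [TT, hA, if_true]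
      rw [hT] at hne ⊢
      rcases hy with rfl | rfl | rfl
      · exact absurd rfl hne
      · rw [in1, in1, s2, s2]; linarith
      · rw [in1, in1, s2, s1]; linarith
    · by_cases hB : x i < -(2 * w + β * x j)
      · have hT : TT i j w β x = EuclideanSpace.single i (-1/2) := by
          simp only [TT, hA, hB, if_true, if_false]
        rw [hT] at hne ⊢
        rcases hy with rfl | rfl | rfl
        · rw [in1, in1, s2, s2]; linarith
        · exact absurd rfl hne
        · rw [in1, in1, s2, s1]; linarith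
      · have hT : TT i j w β x = EuclideanSpace.single j (β/2) := by
          simp only [TT, hA, hB, if_false]
        rw [hT] at hne ⊢
        have g1 : x i < 2 * w + β * x j := lt_of_le_of_ne (not_lt.1 hA) h1
        have g2 : -(2 * w + β * x j) < x i := by
          refine lt_of_le_of_ne (not_lt.1 hB) ?_
          intro h; apply h2; linarith
        rcases hy with rfl | rfl | rfl
        · rw [in1, in1, s2, s1]; linarith
        · rw [in1, in1, s2, s1]; linarith
        · exact absurd rfl hne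

end

theorem exists_w (C : ℝ≥0) (α : ℝ) (hα : 1/3 < α) :
    ∃ w : ℝ, 0 < w ∧ w < 1/4 ∧ (C : ℝ) * (2 * w ^ 3) ^ α < w / 32 := by
  have h0 : 0 < 3 * α - 1 := by linarith
  have ht : Filter.Tendsto (fun w : ℝ => 32 * ((C : ℝ) * 2 ^ α) * w ^ (3 * α - 1))
      (nhdsWithin 0 (Ioi 0)) (nhds 0) := by
    have h1 : Filter.Tendsto (fun w : ℝ => w ^ (3 * α - 1)) (nhds 0) (nhds ((0:ℝ) ^ (3 * α - 1))) :=
      (Real.continuousAt_rpow_const 0 (3 * α - 1) (Or.inr h0.le)).tendsto
    rw [Real.zero_rpow h0.ne'] at h1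
    have h2 := (h1.mono_left (nhdsWithin_le_nhds (s := Ioi 0))).const_mul (32 * ((C : ℝ) * 2 ^ α))
    simpa using h2
  have h1 : ∀ᶠ w in nhdsWithin (0:ℝ) (Ioi 0), 32 * ((C : ℝ) * 2 ^ α) * w ^ (3 * α - 1) < 1 :=
    ht.eventually (gt_mem_nhds one_pos)
  have h2 : ∀ᶠ w in nhdsWithin (0:ℝ) (Ioi 0), w < 1/4 :=
    (nhdsWithin_le_nhds (s := Ioi (0:ℝ))) (gt_mem_nhds (by norm_num))
  have h3 : ∀ᶠ w in nhdsWithin (0:ℝ) (Ioi 0), 0 < w := self_mem_nhdsWithin
  obtain ⟨w, hw1, hw2, hw3⟩ := (h1.and (h2.and h3)).exists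
  refine ⟨w, hw3, hw2, ?_⟩
  have e1 : (2 * w ^ 3) ^ α = 2 ^ α * (w ^ (3 * α - 1) * w) := by
    rw [Real.mul_rpow (by norm_num) (by positivity)]
    congr 1
    have : w ^ (3 * α - 1) * w = w ^ (3 * α - 1 + 1) := by
      rw [Real.rpow_add hw3, Real.rpow_one]
    rw [this, ← Real.rpow_natCast, ← Real.rpow_mul hw3.le]
    congr 1
    push_cast
    ring
  rw [e1]
  have : (C : ℝ) * (2 ^ α * (w ^ (3 * α - 1) * w)) = (32 * ((C : ℝ) * 2 ^ α) * w ^ (3 * α - 1)) * (w / 32) := by
    ring
  rw [this]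
  have hpos : 0 < w / 32 := by positivity
  nlinarith

/-- the coupling -/
noncomputable def PI {d : ℕ} (i j : Fin d) (w : ℝ) :
    Measure (EuclideanSpace ℝ (Fin d) × EuclideanSpace ℝ (Fin d)) :=
  ENNReal.ofReal ((1 - 2 * w) / 2) •
    Measure.dirac (EuclideanSpace.single i (1/2), EuclideanSpace.single i (1/2)) +
  ENNReal.ofReal ((1 - 2 * w) / 2) •
    Measure.dirac (EuclideanSpace.single i (-1/2), EuclideanSpace.single i (-1/2)) +
  ENNReal.ofReal (2 * w) •
    Measure.dirac (EuclideanSpace.single j (0/2), EuclideanSpace.single j (2 * w/2))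

theorem PI_coupling {d : ℕ} (i j : Fin d) (w : ℝ) :
    IsPairCoupling (MU i j w 0) (MU i j w (2 * w)) (PI i j w) := by
  constructor
  · simp only [PI, MU]
    rw [Measure.map_add _ _ measurable_fst, Measure.map_add _ _ measurable_fst, Measure.map_smul,
      Measure.map_smul, Measure.map_smul, Measure.map_dirac' measurable_fst,
      Measure.map_dirac' measurable_fst, Measure.map_dirac' measurable_fst]
  · simp only [PI, MU]
    rw [Measure.map_add _ _ measurable_snd, Measure.map_add _ _ measurable_snd, Measure.map_smul,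
      Measure.map_smul, Measure.map_smul, Measure.map_dirac' measurable_snd,
      Measure.map_dirac' measurable_snd, Measure.map_dirac' measurable_snd]

theorem PI_cost {d : ℕ} (i j : Fin d) (w : ℝ) (hw : 0 < w) :
    quadCost (PI i j w) = ENNReal.ofReal (2 * w ^ 3) := by
  simp only [quadCost, PI, lintegral_add_measure, lintegral_smul_measure, lintegral_dirac,
    sub_self, enorm_zero, ne_eq, OfNat.ofNat_ne_zero, not_false_eq_true, zero_pow, smul_zero,
    add_zero, zero_add, smul_eq_mul, mul_zero]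
  have : (EuclideanSpace.single j (0/2 : ℝ) : EuclideanSpace ℝ (Fin d)) -
      EuclideanSpace.single j (2 * w / 2) = EuclideanSpace.single j (-w) := by
    ext k
    simp only [PiLp.sub_apply, PiLp.single_apply]
    split_ifs <;> ring
  rw [this, ← ofReal_norm, PiLp.norm_single, norm_neg, Real.norm_of_nonneg hw.le,
    ← ENNReal.ofReal_pow hw.le]
  rw [← ENNReal.ofReal_mul (by positivity)]
  congr 1
  ring

theorem cost_lower {d : ℕ} (i j : Fin d) (hij : i ≠ j) (w : ℝ) (hw : 0 < w) (hw4 : w < 1/4) :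
    ENNReal.ofReal (w / 32) ≤
      ∫⁻ x, ‖TT i j w 0 x - TT i j w (2 * w) x‖ₑ ^ 2 ∂(uniformProbOn (Q d)) := by
  set D : Set (EuclideanSpace ℝ (Fin d)) := {x | (x i, x j) ∈ Ioc w (2 * w) ×ˢ Iic (-1/2 : ℝ)}
  have hDm : MeasurableSet D := by
    have : Measurable fun x : EuclideanSpace ℝ (Fin d) => (x i, x j) := by fun_prop
    exact this (measurableSet_Ioc.prod measurableSet_Iic)
  have hD : uniformProbOn (Q d) D = ENNReal.ofReal (w / 8) := by
    rw [measure_pair d i j hij _ (measurableSet_Ioc.prod measurableSet_Iic), Measure.prod_prod,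
      lam_apply _ measurableSet_Ioc, lam_apply _ measurableSet_Iic]
    have e1 : Ioc w (2 * w) ∩ Icc (-1) 1 = Ioc w (2 * w) := by
      ext s; simp only [mem_inter_iff, mem_Ioc, mem_Icc]
      constructor
      · tauto
      · rintro ⟨h1, h2⟩; exact ⟨⟨h1, h2⟩, by linarith, by linarith⟩
    have e2 : Iic (-1/2 : ℝ) ∩ Icc (-1) 1 = Icc (-1) (-1/2) := by
      ext s; simp only [mem_inter_iff, mem_Iic, mem_Icc]
      constructor
      · tauto
      · rintro ⟨h1, h2⟩; exact ⟨h2, by linarith, by linarith⟩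
    have h3 : (2:ℝ≥0∞)⁻¹ = ENNReal.ofReal (1/2) := by
      rw [one_div, ENNReal.ofReal_inv_of_pos (by norm_num)]; simp
    rw [e1, e2, Real.volume_Ioc, Real.volume_Icc, h3, ← ENNReal.ofReal_mul (by norm_num),
      ← ENNReal.ofReal_mul (by norm_num), ← ENNReal.ofReal_mul (by linarith)]
    congr 1
    ring
  have hpt : ∀ x ∈ D, (1/4 : ℝ≥0∞) ≤ ‖TT i j w 0 x - TT i j w (2 * w) x‖ₑ ^ 2 := by
    rintro x ⟨⟨hx1, hx2⟩, hx3⟩
    simp only [mem_Iic] at hx3
    simp only at hx1 hx2
    have a1 : ¬ (2 * w + 0 * x j < x i) := by rw [not_lt]; linarith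
    have a2 : ¬ (x i < -(2 * w + 0 * x j)) := by rw [not_lt]; linarith
    have a3 : 2 * w + 2 * w * x j < x i := by nlinarith
    have hT0 : TT i j w 0 x = EuclideanSpace.single j (0/2) := by
      simp only [TT, a1, a2, if_false]
    have hT1 : TT i j w (2 * w) x = EuclideanSpace.single i (1/2) := by
      simp only [TT, a3, if_true]
    have hz : (EuclideanSpace.single j (0/2 : ℝ) : EuclideanSpace ℝ (Fin d)) = 0 := by
      ext k; simp
    rw [hT0, hT1, hz, zero_sub, enorm_neg, ← ofReal_norm, PiLp.norm_single,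
      Real.norm_of_nonneg (by norm_num), ← ENNReal.ofReal_pow (by norm_num)]
    have : (1/4 : ℝ≥0∞) = ENNReal.ofReal (1/4) := by
      rw [one_div, one_div, ENNReal.ofReal_inv_of_pos (by norm_num)]; simp
    rw [this]
    refine ENNReal.ofReal_le_ofReal ?_
    norm_num
  calc ENNReal.ofReal (w / 32) = (1/4 : ℝ≥0∞) * uniformProbOn (Q d) D := by
        rw [hD]
        have : (1/4 : ℝ≥0∞) = ENNReal.ofReal (1/4) := by
          rw [one_div, one_div, ENNReal.ofReal_inv_of_pos (by norm_num)]; simp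
        rw [this, ← ENNReal.ofReal_mul (by norm_num)]
        congr 1
        ring
    _ = ∫⁻ x in D, (1/4 : ℝ≥0∞) ∂(uniformProbOn (Q d)) := by
        rw [setLIntegral_const]
    _ ≤ ∫⁻ x in D, ‖TT i j w 0 x - TT i j w (2 * w) x‖ₑ ^ 2 ∂(uniformProbOn (Q d)) :=
        setLIntegral_mono' hDm hpt
    _ ≤ _ := setLIntegral_le_lintegral _ _

/-- The exponent one third is optimal, even on the cube with three-atom targets: for d ≥ 2, ρ the uniform probability measure on the cube of points of ℝᵈ with all coordinates in [-1, 1], every α > 1/3 and every C ≥ 0, there are three-atomic probability measures μ, ν on that cube, each admitting a quadratic optimal transport map from ρ, such that for all such optimal maps Tμ, Tν some coupling π of μ, ν has C · (∫ ‖y - z‖² dπ)^α < ∫ ‖Tμ - Tν‖² dρ. Hence ‖Tμ - Tν‖_{L²(ρ)} > √C · W₂(μ, ν)^α. -/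
theorem result
    (d : ℕ) (hd : 2 ≤ d) (α : ℝ) (hα : 1 / 3 < α) (C : ℝ≥0) :
    ∃ μ ν : Measure (EuclideanSpace ℝ (Fin d)),
      IsProbabilityOn {x : EuclideanSpace ℝ (Fin d) | ∀ i, |x i| ≤ 1} μ ∧
      IsProbabilityOn {x : EuclideanSpace ℝ (Fin d) | ∀ i, |x i| ≤ 1} ν ∧
      IsThreeAtomic μ ∧ IsThreeAtomic ν ∧
      (∃ T, IsOptimalMap (uniformProbOn {x : EuclideanSpace ℝ (Fin d) | ∀ i, |x i| ≤ 1}) μ T) ∧
      (∃ T, IsOptimalMap (uniformProbOn {x : EuclideanSpace ℝ (Fin d) | ∀ i, |x i| ≤ 1}) ν T) ∧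
      ∀ Tμ Tν : EuclideanSpace ℝ (Fin d) → EuclideanSpace ℝ (Fin d),
        IsOptimalMap (uniformProbOn {x : EuclideanSpace ℝ (Fin d) | ∀ i, |x i| ≤ 1}) μ Tμ →
        IsOptimalMap (uniformProbOn {x : EuclideanSpace ℝ (Fin d) | ∀ i, |x i| ≤ 1}) ν Tν →
        ∃ π : Measure (EuclideanSpace ℝ (Fin d) × EuclideanSpace ℝ (Fin d)), IsPairCoupling μ ν π ∧
          (C : ℝ≥0∞) * quadCost π ^ α < ∫⁻ x, ‖Tμ x - Tν x‖ₑ ^ 2 ∂(uniformProbOn {x : EuclideanSpace ℝ (Fin d) | ∀ i, |x i| ≤ 1}) := by
  obtain ⟨w, hw, hw4, hwC⟩ := exists_w C α hα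
  set i : Fin d := ⟨0, by omega⟩
  set j : Fin d := ⟨1, by omega⟩
  have hij : i ≠ j := by
    intro h
    have := congrArg Fin.val h
    simp [i, j] at this
  have hb0 : |(0:ℝ)| ≤ 2 * w := by simp; exact hw.le
  have hb1 : |2 * w| ≤ 2 * w := by rw [abs_of_pos (by linarith)]
  have o0 := TT_opt i j w 0 hij hw hw4 hb0
  have o1 := TT_opt i j w (2 * w) hij hw hw4 hb1
  refine ⟨MU i j w 0, MU i j w (2 * w), MU_on i j w 0 hij hw hw4 hb0,
    MU_on i j w (2 * w) hij hw hw4 hb1, MU_three i j w 0 hij hw hw4 hb0,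
    MU_three i j w (2 * w) hij hw hw4 hb1, ⟨_, o0.1⟩, ⟨_, o1.1⟩, ?_⟩
  intro Tμ Tν hTμ hTν
  refine ⟨PI i j w, PI_coupling i j w, ?_⟩
  have e0 := o0.2 Tμ hTμ
  have e1 := o1.2 Tν hTν
  have hcost : ∫⁻ x, ‖Tμ x - Tν x‖ₑ ^ 2 ∂(uniformProbOn (Q d))
      = ∫⁻ x, ‖TT i j w 0 x - TT i j w (2 * w) x‖ₑ ^ 2 ∂(uniformProbOn (Q d)) := by
    refine lintegral_congr_ae ?_
    filter_upwards [e0, e1] with x h0 h1
    rw [h0, h1]
  change (C : ℝ≥0∞) * quadCost (PI i j w) ^ α < ∫⁻ x, ‖Tμ x - Tν x‖ₑ ^ 2 ∂(uniformProbOn (Q d))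
  rw [hcost, PI_cost i j w hw]
  refine lt_of_lt_of_le ?_ (cost_lower i j hij w hw hw4)
  rw [ENNReal.ofReal_rpow_of_pos (by positivity), ← ENNReal.ofReal_coe_nnreal (p := C),
    ← ENNReal.ofReal_mul (by positivity)]
  exact (ENNReal.ofReal_lt_ofReal_iff (by positivity)).2 hwC

end Crest.Agent.S0110
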