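import Crest.Agent.S0112_Core

/-! The sampling lemma (helper file for S0112). -/

set_option autoImplicit false

namespace Crest.Agent.S0112
open Crest.OpAlg Filter MeasureTheory
open scoped Topology BoundedContinuousFunction ContDiff ComplexOrder

variable {H : Type*} [NormedAddCommGroup H] [InnerProductSpace ℂ H] [CompleteSpace H]

theorem windowMean_eq (F : ℝ → ℝ) (K : ℕ) (hK : 0 < K) :
    windowMean F K = (2 * (K : ℝ))⁻¹ * ∫ t in (-(K : ℝ))..K, F t := by
  have hK' : (0 : ℝ) < K := by exact_mod_cast hK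
  rw [windowMean, MeasureTheory.setAverage_eq, intervalIntegral.integral_of_le (by linarith),
    MeasureTheory.integral_Icc_eq_integral_Ioc, smul_eq_mul]
  congr 2
  rw [Real.volume_real_Icc_of_le (by linarith)]
  ring

theorem inner_star_mul_self (a : H →L[ℂ] H) (x : H) :
    inner ℂ x (star a (a x)) = ((‖a x‖ ^ 2 : ℝ) : ℂ) := by
  rw [ContinuousLinearMap.star_eq_adjoint, ContinuousLinearMap.adjoint_inner_right,
    inner_self_eq_norm_sq_to_K]
  norm_cast

theorem exists_sample (S : ModularDatum H) (herg : S.Ergodic) (T : H →L[ℂ] H)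
    (a : H →L[ℂ] H) (ha : a ∈ S.M) (A B c₁ : ℝ) (hA0 : 0 ≤ A) (hB0 : 0 ≤ B)
    (hA : ‖a S.vac‖ ≤ A) (hB : ‖star a S.vac‖ ≤ B) (hc₁ : 0 < c₁)
    (hwin : ∃ᶠ K : ℕ in atTop,
      c₁ ≤ windowMean (fun t => ‖T (S.D.wave t (a S.vac))‖ ^ 2) K)
    (Ks : Set ℝ) (hband : S.D.SupportedIn Ks (a S.vac)) :
    ∃ v ∈ S.M, S.D.SupportedIn Ks (v S.vac) ∧
      c₁ / 4 + c₁ / (4 * (2 * (A ^ 2 + 1) ^ 2 + 2 * (A * (2 + B ^ 2 * (A + 1))) + 1))
        * ‖star v (v S.vac)‖ ^ 2 ≤ ‖T (v S.vac)‖ ^ 2 := by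
  set x := a S.vac with hx
  set p := star a (a S.vac) with hp
  set q := a (star a S.vac) with hq
  obtain ⟨a', ha', ha'x⟩ := commutant_dense S x (1 / (‖a‖ ^ 2 + 1)) (by positivity)
  set e : ℝ := min (1 / 2) (min (c₁ / (4 * (‖T‖ ^ 2 * A + 1))) (1 / (2 * (‖a'‖ + 1)))) with he
  have he0 : 0 < e := by
    rw [he]
    refine lt_min (by norm_num) (lt_min (by positivity) (by positivity))
  have he1 : e ≤ 1 / 2 := min_le_left _ _
  have he2 : e ≤ c₁ / (4 * (‖T‖ ^ 2 * A + 1)) := (min_le_right _ _).trans (min_le_left _ _)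
  have he3 : e ≤ 1 / (2 * (‖a'‖ + 1)) := (min_le_right _ _).trans (min_le_right _ _)
  -- the step
  obtain ⟨m, hm0, hmx, hmp, hmq⟩ := ((eventually_gt_atTop 0).and
    ((exists_step S.D x e he0).and ((exists_step S.D p e he0).and
      (exists_step S.D q e he0)))).exists
  -- the window
  have herg1 := tendsto_mean_vac S herg (star a * a) (mul_mem (star_mem ha) ha)
  have herg2 := tendsto_mean_vac S herg (a * star a) (mul_mem ha (star_mem ha))
  rw [Metric.tendsto_atTop] at herg1 herg2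
  obtain ⟨K₁, hK₁⟩ := herg1 e he0
  obtain ⟨K₂, hK₂⟩ := herg2 e he0
  obtain ⟨K, hKwin, hK1, hK2, hK0⟩ := (hwin.and_eventually ((eventually_ge_atTop K₁).and
    ((eventually_ge_atTop K₂).and (eventually_gt_atTop 0)))).exists
  have e1 := hK₁ K hK1
  have e2 := hK₂ K hK2
  clear hK₁ hK₂ herg1 herg2 hK1 hK2
  have hK' : (0 : ℝ) < K := by exact_mod_cast hK0
  have hm' : (0 : ℝ) < m := by exact_mod_cast hm0
  set N : ℕ := 2 * K * m with hN
  have hN0 : 0 < N := by positivity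
  have hN' : (0 : ℝ) < N := by exact_mod_cast hN0
  set t : Fin N → ℝ := fun j => -(K : ℝ) + (j : ℕ) / m with ht
  set Af : Fin N → (H →L[ℂ] H) := fun j => S.flow (t j) a with hAf
  have hAvac : ∀ j, Af j S.vac = S.D.wave (t j) x := fun j => flow_vac S (t j) a
  have hAM : ∀ j, Af j ∈ S.M := fun j => S.flow_mem (t j) a ha
  have hAn : ∀ j, ‖Af j‖ ≤ ‖a‖ := fun j => norm_flow_le S (t j) a
  have hAs : ∀ j, star (Af j) = S.flow (t j) (star a) := fun j => flow_star S (t j) a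
  have hAp : ∀ j, star (Af j) (Af j S.vac) = S.D.wave (t j) p := by
    intro j
    have h1 : star (Af j) * Af j = S.flow (t j) (star a * a) := by
      rw [flow_mul, hAs]
    have h2 := congrArg (fun X : H →L[ℂ] H => X S.vac) h1
    simp only [mul_apply_eq_comp, flow_vac] at h2
    exact h2
  have hAq : ∀ j, Af j (star (Af j) S.vac) = S.D.wave (t j) q := by
    intro j
    have h1 : Af j * star (Af j) = S.flow (t j) (a * star a) := by
      rw [flow_mul, hAs]
    have h2 := congrArg (fun X : H →L[ℂ] H => X S.vac) h1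
    simp only [mul_apply_eq_comp, flow_vac] at h2
    exact h2
  have hξ : ‖S.vac‖ = 1 := S.norm_vac
  -- (1)
  have hone : c₁ / 2 * N ≤ ∑ j, ‖T (Af j S.vac)‖ ^ 2 := by
    have hcont : Continuous fun t : ℝ => ‖T (S.D.wave t x)‖ ^ 2 :=
      ((T.continuous.comp (continuous_wave_apply S.D x)).norm).pow 2
    have hmod : ∀ t s : ℝ, 0 ≤ s → s ≤ 1 / (m : ℝ) →
        ‖‖T (S.D.wave (t + s) x)‖ ^ 2 - ‖T (S.D.wave t x)‖ ^ 2‖ ≤ c₁ / 2 := by
      intro t s hs0 hs
      have h1 := hmx s hs0 hs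
      rw [← norm_wave_shift S.D x t s] at h1
      set P := S.D.wave (t + s) x with hP
      set Q := S.D.wave t x with hQ
      have hPn : ‖P‖ ≤ A := by rw [hP, norm_wave_apply]; exact hA
      have hQn : ‖Q‖ ≤ A := by rw [hQ, norm_wave_apply]; exact hA
      have hTP : ‖T P‖ ≤ ‖T‖ * A := (T.le_opNorm P).trans (mul_le_mul_of_nonneg_left hPn
        (norm_nonneg _))
      have hTQ : ‖T Q‖ ≤ ‖T‖ * A := (T.le_opNorm Q).trans (mul_le_mul_of_nonneg_left hQn
        (norm_nonneg _))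
      have h2 : |‖T P‖ - ‖T Q‖| ≤ ‖T‖ * e := by
        refine (abs_norm_sub_norm_le _ _).trans ?_
        rw [← map_sub]
        exact (T.le_opNorm _).trans (mul_le_mul_of_nonneg_left h1 (norm_nonneg _))
      have h3 : ‖T P‖ ^ 2 - ‖T Q‖ ^ 2 = (‖T P‖ - ‖T Q‖) * (‖T P‖ + ‖T Q‖) := by ring
      rw [h3, Real.norm_eq_abs, abs_mul, abs_of_nonneg (a := ‖T P‖ + ‖T Q‖) (by positivity)]
      have h4 : |‖T P‖ - ‖T Q‖| * (‖T P‖ + ‖T Q‖) ≤ (‖T‖ * e) * (2 * (‖T‖ * A)) :=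
        mul_le_mul h2 (by linarith) (by positivity) (by positivity)
      refine h4.trans ?_
      have h5 : ‖T‖ ^ 2 * A * e ≤ c₁ / 4 := by
        have h6 : (‖T‖ ^ 2 * A + 1) * e ≤ (‖T‖ ^ 2 * A + 1) * (c₁ / (4 * (‖T‖ ^ 2 * A + 1))) :=
          mul_le_mul_of_nonneg_left he2 (by positivity)
        have h7 : (‖T‖ ^ 2 * A + 1) * (c₁ / (4 * (‖T‖ ^ 2 * A + 1))) = c₁ / 4 := by
          field_simp
        nlinarith
      nlinarith
    have h1 := riemann_sum_le hcont K m hK0 hm0 hmod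
    rw [smul_eq_mul, smul_eq_mul, ← windowMean_eq _ K hK0, Real.norm_eq_abs, abs_le] at h1
    have h2 : c₁ / 2 ≤ ((2 * K * m : ℕ) : ℝ)⁻¹ *
        ∑ j ∈ Finset.range (2 * K * m), ‖T (S.D.wave (-(K : ℝ) + j / m) x)‖ ^ 2 := by
      linarith [h1.2]
    rw [← hN, Finset.sum_range] at h2
    have h3 : (N : ℝ)⁻¹ * ∑ j : Fin N, ‖T (S.D.wave (-(K : ℝ) + (j : ℕ) / m) x)‖ ^ 2 * N
        = ∑ j : Fin N, ‖T (S.D.wave (-(K : ℝ) + (j : ℕ) / m) x)‖ ^ 2 := by
      rw [← Finset.sum_mul]; field_simp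
    calc c₁ / 2 * N ≤ ((N : ℝ)⁻¹ *
        ∑ j : Fin N, ‖T (S.D.wave (-(K : ℝ) + (j : ℕ) / m) x)‖ ^ 2) * N :=
          mul_le_mul_of_nonneg_right h2 hN'.le
      _ = ∑ j : Fin N, ‖T (S.D.wave (-(K : ℝ) + (j : ℕ) / m) x)‖ ^ 2 := by field_simp
      _ = ∑ j, ‖T (Af j S.vac)‖ ^ 2 := by simp only [hAvac, ht]
  -- general Riemann sum estimate for the ergodic averages
  have hriem : ∀ (y : H) (c : ℂ), (∀ s : ℝ, 0 ≤ s → s ≤ 1 / (m : ℝ) → ‖S.D.wave s y - y‖ ≤ e) →
      dist (mean (fun t => S.D.wave t y) K) (c • S.vac) < e →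
      ‖((N : ℝ)⁻¹ : ℝ) • (∑ j, S.D.wave (t j) y) - c • S.vac‖ ≤ 2 * e := by
    intro y c hy1 hy2
    have h1 := riemann_sum_le (continuous_wave_apply S.D y) K m hK0 hm0 (ε := e)
      (fun t s hs0 hs => by rw [norm_wave_shift]; exact hy1 s hs0 hs)
    rw [← hN, Finset.sum_range] at h1
    rw [dist_eq_norm, mean] at hy2
    set X := (2 * (K:ℝ))⁻¹ • ∫ t in (-(K:ℝ))..K, S.D.wave t y
    set Y := ((N : ℝ)⁻¹ : ℝ) • (∑ j, S.D.wave (t j) y)
    have h2 : Y - c • S.vac = (X - c • S.vac) - (X - Y) := by abel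
    rw [h2]
    refine (norm_sub_le _ _).trans ?_
    have h3 : ‖X - Y‖ ≤ e := h1
    linarith
  -- (2)
  have htwo : ‖∑ j, star (Af j) (Af j S.vac)‖ ≤ N * (A ^ 2 + 1) := by
    simp_rw [hAp]
    have h1 := hriem p _ hmp e1
    have h2 : inner ℂ S.vac ((star a * a) S.vac) = ((‖x‖ ^ 2 : ℝ) : ℂ) :=
      inner_star_mul_self a S.vac
    rw [h2] at h1
    have h3 : ‖(((‖x‖ ^ 2 : ℝ) : ℂ)) • S.vac‖ ≤ A ^ 2 := by
      rw [norm_smul, hξ, mul_one, Complex.norm_real, Real.norm_eq_abs, abs_of_nonneg (by positivity)]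
      exact pow_le_pow_left₀ (norm_nonneg _) hA 2
    have h4 : ‖((N : ℝ)⁻¹ : ℝ) • (∑ j, S.D.wave (t j) p)‖ ≤ A ^ 2 + 1 := by
      have h5 := norm_add_le (((N : ℝ)⁻¹ : ℝ) • (∑ j, S.D.wave (t j) p)
        - (((‖x‖ ^ 2 : ℝ) : ℂ)) • S.vac) ((((‖x‖ ^ 2 : ℝ) : ℂ)) • S.vac)
      rw [sub_add_cancel] at h5
      linarith
    rw [norm_smul, Real.norm_eq_abs, abs_of_pos (by positivity)] at h4
    rw [inv_mul_le_iff₀ hN'] at h4
    exact h4
  -- (3)
  set R : H →L[ℂ] H := (((N : ℝ)⁻¹ : ℝ) : ℂ) • ∑ j, Af j * star (Af j) with hR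
  have hRM : R ∈ S.M := by
    have h1 : (∑ j, Af j * star (Af j)) ∈ S.M :=
      sum_mem fun j _ => mul_mem (hAM j) (star_mem (hAM j))
    exact S.M.toStarSubalgebra.smul_mem h1 _
  have hRn : ∀ y, ‖R y‖ ≤ ‖a‖ ^ 2 * ‖y‖ := by
    intro y
    have h1 : R y = (((N : ℝ)⁻¹ : ℝ) : ℂ) • ∑ j, Af j (star (Af j) y) := by
      simp only [hR, smul_apply, sum_apply, mul_apply_eq_comp]
    rw [h1, norm_smul, Complex.norm_real, Real.norm_eq_abs, abs_of_pos (by positivity),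
      inv_mul_le_iff₀ hN']
    refine (norm_sum_le _ _).trans ?_
    have h2 : ∀ j ∈ (Finset.univ : Finset (Fin N)), ‖Af j (star (Af j) y)‖ ≤ ‖a‖ ^ 2 * ‖y‖ := by
      intro j _
      calc ‖Af j (star (Af j) y)‖ ≤ ‖Af j‖ * ‖star (Af j) y‖ := (Af j).le_opNorm _
        _ ≤ ‖Af j‖ * (‖star (Af j)‖ * ‖y‖) :=
            mul_le_mul_of_nonneg_left ((star (Af j)).le_opNorm _) (norm_nonneg _)
        _ = ‖Af j‖ * ‖Af j‖ * ‖y‖ := by rw [norm_star]; ring
        _ ≤ ‖a‖ * ‖a‖ * ‖y‖ := by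
            have := hAn j
            gcongr
        _ = ‖a‖ ^ 2 * ‖y‖ := by ring
    refine (Finset.sum_le_sum h2).trans (le_of_eq ?_)
    rw [Finset.sum_const, Finset.card_univ, Fintype.card_fin, nsmul_eq_mul]
  have hRvac : ‖R S.vac - (((‖star a S.vac‖ ^ 2 : ℝ) : ℂ)) • S.vac‖ ≤ 2 * e := by
    have h1 : R S.vac = ((N : ℝ)⁻¹ : ℝ) • ∑ j, S.D.wave (t j) q := by
      simp only [hR, smul_apply, sum_apply, mul_apply_eq_comp, hAq]
      rw [Complex.coe_smul]
    rw [h1]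
    have h2 := hriem q _ hmq e2
    have h3 : inner ℂ S.vac ((a * star a) S.vac) = ((‖star a S.vac‖ ^ 2 : ℝ) : ℂ) := by
      have := inner_star_mul_self (star a) S.vac
      rw [star_star] at this
      exact this
    rw [h3] at h2
    exact h2
  have hthree : ∀ l, ‖R (Af l S.vac)‖ ≤ 2 + B ^ 2 * (A + 1) := by
    intro l
    set al := S.D.wave (t l) * a' * S.D.wave (-(t l)) with hal
    have halM : al ∈ S.M.commutant := flow_commutant S (t l) a' ha'
    have haln : ‖al‖ ≤ ‖a'‖ := norm_flow_le S (t l) a'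
    have halv : al S.vac = S.D.wave (t l) (a' S.vac) := flow_vac S (t l) a'
    have h1 : ‖Af l S.vac - al S.vac‖ ≤ 1 / (‖a‖ ^ 2 + 1) := by
      rw [hAvac, halv, ← map_sub, norm_wave_apply, norm_sub_rev]
      exact ha'x.le
    have h2 : ‖R (Af l S.vac - al S.vac)‖ ≤ 1 := by
      refine (hRn _).trans ?_
      have h3 : ‖a‖ ^ 2 * ‖Af l S.vac - al S.vac‖ ≤ ‖a‖ ^ 2 * (1 / (‖a‖ ^ 2 + 1)) :=
        mul_le_mul_of_nonneg_left h1 (by positivity)
      refine h3.trans ?_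
      rw [mul_one_div, div_le_one (by positivity)]
      linarith
    have h4 : R (al S.vac) = al (R S.vac) := by
      have h5 := (mem_iff_commutant S.M R).mp hRM al halM
      have h6 := congrArg (fun X : H →L[ℂ] H => X S.vac) h5
      simpa using h6.symm
    have h7 : ‖al (R S.vac)‖ ≤ 1 + B ^ 2 * (A + 1) := by
      have h8 : al (R S.vac) = al (R S.vac - (((‖star a S.vac‖ ^ 2 : ℝ) : ℂ)) • S.vac)
          + (((‖star a S.vac‖ ^ 2 : ℝ) : ℂ)) • al S.vac := by
        rw [map_sub, map_smul, sub_add_cancel]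
      rw [h8]
      refine (norm_add_le _ _).trans (add_le_add ?_ ?_)
      · refine (al.le_opNorm _).trans ?_
        have h9 : ‖al‖ * ‖R S.vac - (((‖star a S.vac‖ ^ 2 : ℝ) : ℂ)) • S.vac‖
            ≤ (‖a'‖ + 1) * (2 * (1 / (2 * (‖a'‖ + 1)))) :=
          mul_le_mul (by linarith) (hRvac.trans (by linarith)) (norm_nonneg _) (by positivity)
        refine h9.trans (le_of_eq ?_)
        field_simp
      · rw [norm_smul, Complex.norm_real, Real.norm_eq_abs, abs_of_nonneg (by positivity)]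
        have h10 : ‖al S.vac‖ ≤ A + 1 := by
          have h11 : al S.vac = Af l S.vac - (Af l S.vac - al S.vac) := by abel
          have h12 : ‖Af l S.vac‖ ≤ A := by rw [hAvac, norm_wave_apply]; exact hA
          have h13 : 1 / (‖a‖ ^ 2 + 1) ≤ 1 := by
            rw [div_le_one (by positivity)]
            nlinarith [sq_nonneg ‖a‖]
          rw [h11]
          refine (norm_sub_le _ _).trans ?_
          linarith
        exact mul_le_mul (pow_le_pow_left₀ (norm_nonneg _) hB 2) h10 (norm_nonneg _)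
          (by positivity)
    have h14 : R (Af l S.vac) = R (Af l S.vac - al S.vac) + al (R S.vac) := by
      rw [← h4, ← map_add, sub_add_cancel]
    rw [h14]
    refine (norm_add_le _ _).trans ?_
    linarith
  have hfour : ∑ k, ∑ l, ‖star (Af k) (Af l S.vac)‖ ^ 2
      ≤ N ^ 2 * (A * (2 + B ^ 2 * (A + 1))) := by
    rw [Finset.sum_comm]
    have h1 : ∀ l ∈ (Finset.univ : Finset (Fin N)), ∑ k, ‖star (Af k) (Af l S.vac)‖ ^ 2
        ≤ N * (A * (2 + B ^ 2 * (A + 1))) := by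
      intro l _
      set y := Af l S.vac with hy
      have hyn : ‖y‖ ≤ A := by rw [hy, hAvac, norm_wave_apply]; exact hA
      have h2 : ((∑ k, ‖star (Af k) y‖ ^ 2 : ℝ) : ℂ) = (N : ℂ) * inner ℂ y (R y) := by
        have h3 : inner ℂ y (R y) = (((N : ℝ)⁻¹ : ℝ) : ℂ) * ∑ k, inner ℂ y (Af k (star (Af k) y)) := by
          simp only [hR, smul_apply, sum_apply, mul_apply_eq_comp,
            inner_smul_right, inner_sum]
        rw [h3]
        have h4 : ∀ k, inner ℂ y (Af k (star (Af k) y)) = ((‖star (Af k) y‖ ^ 2 : ℝ) : ℂ) := by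
          intro k
          have := inner_star_mul_self (star (Af k)) y
          rw [star_star] at this
          exact this
        simp_rw [h4]
        push_cast
        field_simp
      have h5 : ∑ k, ‖star (Af k) y‖ ^ 2 = N * (inner ℂ y (R y) : ℂ).re := by
        have := congrArg Complex.re h2
        rw [Complex.ofReal_re] at this
        rw [this]
        simp
      rw [h5]
      refine mul_le_mul_of_nonneg_left ?_ hN'.le
      refine (Complex.re_le_norm _).trans ((norm_inner_le_norm _ _).trans ?_)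
      exact mul_le_mul hyn (hthree l) (norm_nonneg _) hA0
    refine (Finset.sum_le_sum h1).trans (le_of_eq ?_)
    rw [Finset.sum_const, Finset.card_univ, Fintype.card_fin, nsmul_eq_mul]
    ring
  -- moments
  set V : (Fin N → ZMod 4) → (H →L[ℂ] H) := fun z => ∑ k, ch (z k) • Af k with hV
  have hVvac : ∀ z, V z S.vac = ∑ k, ch (z k) • Af k S.vac := by
    intro z
    simp only [hV, sum_apply, smul_apply]
  have hTV : ∀ z, T (V z S.vac) = ∑ k, ch (z k) • T (Af k S.vac) := by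
    intro z
    rw [hVvac, map_sum]
    simp only [map_smul]
  have hVV : ∀ z, star (V z) (V z S.vac)
      = ∑ k, ∑ l, ch (z l - z k) • star (Af k) (Af l S.vac) := by
    intro z
    have h1 : star (V z) = ∑ k, ch (-(z k)) • star (Af k) := by
      simp only [hV, star_sum, star_smul]
      apply Finset.sum_congr rfl
      intro k _
      rw [← conj_ch]; rfl
    rw [h1, hVvac, map_sum]
    simp only [sum_apply, smul_apply, map_smul]
    conv_rhs => rw [Finset.sum_comm]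
    apply Finset.sum_congr rfl
    intro l _
    rw [Finset.smul_sum]
    apply Finset.sum_congr rfl
    intro k _
    rw [smul_smul, ← ch_add, ← sub_eq_add_neg]
  have hm2 := second_moment (fun k => T (Af k S.vac))
  have hm4 := fourth_moment (fun k l => star (Af k) (Af l S.vac))
  simp_rw [← hTV] at hm2
  simp_rw [← hVV] at hm4
  set K₀ : ℝ := 2 * (A ^ 2 + 1) ^ 2 + 2 * (A * (2 + B ^ 2 * (A + 1))) + 1 with hK₀
  have hK₀pos : 0 < K₀ := by positivity
  set Z : ℝ := ((Fintype.card (Fin N → ZMod 4) : ℕ) : ℝ) with hZ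
  have hZpos : 0 < Z := card_Z_pos
  have hm4' : ∑ z, ‖star (V z) (V z S.vac)‖ ^ 2 ≤ Z * (N ^ 2 * K₀) := by
    refine hm4.trans (mul_le_mul_of_nonneg_left ?_ hZpos.le)
    have h1 : ‖∑ k, star (Af k) (Af k S.vac)‖ ^ 2 ≤ (N * (A ^ 2 + 1)) ^ 2 :=
      pow_le_pow_left₀ (norm_nonneg _) htwo 2
    have h2 : (0 : ℝ) < N ^ 2 := by positivity
    nlinarith
  have hm2' : Z * (c₁ / 2 * N) ≤ ∑ z, ‖T (V z S.vac)‖ ^ 2 := by
    rw [hm2]
    exact mul_le_mul_of_nonneg_left hone hZpos.le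
  have hex : ∃ z, c₁ / 4 + c₁ / (4 * K₀) * (‖star (V z) (V z S.vac)‖ ^ 2 / N ^ 2)
      ≤ ‖T (V z S.vac)‖ ^ 2 / N := by
    by_contra hcon
    push Not at hcon
    have h1 : ∑ z, ‖T (V z S.vac)‖ ^ 2 / N
        < ∑ z, (c₁ / 4 + c₁ / (4 * K₀) * (‖star (V z) (V z S.vac)‖ ^ 2 / N ^ 2)) :=
      Finset.sum_lt_sum_of_nonempty Finset.univ_nonempty (fun z _ => hcon z)
    have s1 := Finset.sum_div Finset.univ
      (fun z : Fin N → ZMod 4 => ‖star (V z) (V z S.vac)‖ ^ 2) ((N : ℝ) ^ 2)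
    have s2 := Finset.sum_div Finset.univ
      (fun z : Fin N → ZMod 4 => ‖T (V z S.vac)‖ ^ 2) (N : ℝ)
    rw [Finset.sum_add_distrib, ← Finset.mul_sum, ← s1, ← s2,
      Finset.sum_const, Finset.card_univ, nsmul_eq_mul, ← hZ] at h1
    have h2 : Z * (c₁ / 2) ≤ (∑ z, ‖T (V z S.vac)‖ ^ 2) / N := by
      rw [le_div_iff₀ hN']
      linarith
    have h3 : (∑ z, ‖star (V z) (V z S.vac)‖ ^ 2) / (N : ℝ) ^ 2 ≤ Z * K₀ := by
      rw [div_le_iff₀ (by positivity)]
      linarith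
    have h4 : c₁ / (4 * K₀) * ((∑ z, ‖star (V z) (V z S.vac)‖ ^ 2) / (N : ℝ) ^ 2)
        ≤ c₁ / (4 * K₀) * (Z * K₀) := mul_le_mul_of_nonneg_left h3 (by positivity)
    have h5 : c₁ / (4 * K₀) * (Z * K₀) = Z * (c₁ / 4) := by
      field_simp
    linarith
  obtain ⟨z, hz⟩ := hex
  set cN : ℝ := (Real.sqrt N)⁻¹ with hcN
  have hcN0 : 0 < cN := by positivity
  have hcN2 : cN ^ 2 = (N : ℝ)⁻¹ := by
    rw [hcN, inv_pow, Real.sq_sqrt hN'.le]
  refine ⟨(cN : ℂ) • V z, ?_, ?_, ?_⟩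
  · refine S.M.toStarSubalgebra.smul_mem ?_ _
    exact sum_mem fun k _ => S.M.toStarSubalgebra.smul_mem (hAM k) _
  · rw [smul_apply]
    apply band_smul
    rw [hVvac]
    apply band_sum
    intro k _
    apply band_smul
    rw [hAvac]
    exact band_wave _ _ _ hband _
  · have h1 : ‖T (((cN : ℂ) • V z) S.vac)‖ ^ 2 = ‖T (V z S.vac)‖ ^ 2 / N := by
      rw [smul_apply, map_smul, norm_smul, Complex.norm_real, Real.norm_eq_abs, abs_of_pos hcN0,
        mul_pow, hcN2]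
      field_simp
    have h2 : ‖star ((cN : ℂ) • V z) (((cN : ℂ) • V z) S.vac)‖ ^ 2
        = ‖star (V z) (V z S.vac)‖ ^ 2 / N ^ 2 := by
      have h3 : star ((cN : ℂ) • V z) (((cN : ℂ) • V z) S.vac)
          = ((cN ^ 2 : ℝ) : ℂ) • star (V z) (V z S.vac) := by
        rw [star_smul, smul_apply, smul_apply, map_smul, smul_smul]
        congr 1
        simp [sq]
      rw [h3, norm_smul, Complex.norm_real, Real.norm_eq_abs, abs_of_pos (by positivity), hcN2,
        mul_pow]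
      field_simp
    rw [h1, h2]
    exact hz

end Crest.Agent.S0112
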